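import Mathlib

/-!
Row 13, part A, clause (2) of S0015: extension of a rank one valuation `w` of `M` to an algebraic
closure `Ω`, and lifting of `w`-isometric automorphisms of `M` to `Ω` when `M` is dense in `Ω`.
-/

set_option autoImplicit false

noncomputable section

namespace Crest.Agent.R013.A2a_275

open scoped NNReal Topology
open Polynomial

variable {M : Type*} [Field M]

/-- The real absolute value of a valuation with values in `ℝ≥0`. -/
def absOf (w : Valuation M ℝ≥0) : AbsoluteValue M ℝ where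
  toFun x := (w x : ℝ)
  map_mul' x y := by simp
  nonneg' x := (w x).coe_nonneg
  eq_zero' x := by simp
  add_le' x y := by
    have h : w (x + y) ≤ w x + w y := by
      refine (w.map_add x y).trans ?_
      exact max_le (le_add_of_nonneg_right (zero_le)) (le_add_of_nonneg_left (zero_le))
    exact_mod_cast h

lemma absOf_apply (w : Valuation M ℝ≥0) (x : M) : absOf w x = (w x : ℝ) := rfl

/-- The completion of `M` at `w`. -/
abbrev Cpl (w : Valuation M ℝ≥0) : Type _ := (absOf w).Completion

/-- The embedding of `M` into its completion. -/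
def toCpl (w : Valuation M ℝ≥0) : M →+* Cpl w :=
  (UniformSpace.Completion.coeRingHom).comp (WithAbs.equiv (absOf w)).symm.toRingHom

lemma norm_toCpl (w : Valuation M ℝ≥0) (x : M) : ‖toCpl w x‖ = w x := by
  change ‖((WithAbs.toAbs (absOf w) x : WithAbs (absOf w)) : Cpl w)‖ = w x
  rw [UniformSpace.Completion.norm_coe]
  rfl

lemma denseRange_toCpl (w : Valuation M ℝ≥0) : DenseRange (toCpl w) := by
  have h := UniformSpace.Completion.denseRange_coe (α := WithAbs (absOf w))
  have h2 : Function.Surjective (WithAbs.toAbs (absOf w)) := WithAbs.toAbs_surjective _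
  intro y
  have h3 := h y
  refine closure_mono ?_ h3
  rintro _ ⟨a, rfl⟩
  obtain ⟨x, rfl⟩ := h2 a
  exact ⟨x, rfl⟩

instance ultra (w : Valuation M ℝ≥0) : IsUltrametricDist (Cpl w) := by
  refine IsUltrametricDist.isUltrametricDist_of_forall_norm_add_le_max_norm ?_
  intro x y
  refine UniformSpace.Completion.induction_on₂ x y ?_ ?_
  · exact isClosed_le (by fun_prop) (by fun_prop)
  · intro a b
    rw [← UniformSpace.Completion.coe_add, UniformSpace.Completion.norm_coe,
      UniformSpace.Completion.norm_coe, UniformSpace.Completion.norm_coe]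
    have h := w.map_add a.ofAbs b.ofAbs
    have h1 : ((w (a.ofAbs + b.ofAbs) : ℝ≥0) : ℝ) ≤ ((max (w a.ofAbs) (w b.ofAbs) : ℝ≥0) : ℝ) := by
      exact_mod_cast h
    rw [NNReal.coe_max] at h1
    exact h1

/-- The completion as a nontrivially normed field. -/
@[instance_reducible]
def nnf (w : Valuation M ℝ≥0) (hnt : ∃ a : M, 1 < w a) : NontriviallyNormedField (Cpl w) where
  __ := (inferInstance : NormedField (Cpl w))
  non_trivial := by
    obtain ⟨a, ha⟩ := hnt
    refine ⟨toCpl w a, ?_⟩
    rw [norm_toCpl]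
    exact_mod_cast ha

/-- The extension of an isometric ring endomorphism to the completion. -/
lemma exists_extend (w : Valuation M ℝ≥0) (σ : M →+* M) (hσ : ∀ x, w (σ x) = w x) :
    ∃ τ : Cpl w →+* Cpl w, (∀ x, τ (toCpl w x) = toCpl w (σ x)) ∧ ∀ y, ‖τ y‖ = ‖y‖ := by
  let f : WithAbs (absOf w) →+* WithAbs (absOf w) := WithAbs.map (absOf w) (absOf w) σ
  have hf : ∀ a, ‖f a‖ = ‖a‖ := by
    intro a
    change ((w (σ a.ofAbs) : ℝ≥0) : ℝ) = ((w a.ofAbs : ℝ≥0) : ℝ)
    rw [hσ]
  have hiso : Isometry f := AddMonoidHomClass.isometry_of_norm f hf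
  refine ⟨UniformSpace.Completion.mapRingHom f hiso.continuous, ?_, ?_⟩
  · intro x
    exact UniformSpace.Completion.mapRingHom_coe hiso.continuous (WithAbs.toAbs (absOf w) x)
  · intro y
    refine UniformSpace.Completion.induction_on y ?_ ?_
    · refine isClosed_eq ?_ (by fun_prop)
      refine continuous_norm.comp ?_
      exact UniformSpace.Completion.continuous_map
    · intro a
      rw [UniformSpace.Completion.mapRingHom_coe, UniformSpace.Completion.norm_coe,
        UniformSpace.Completion.norm_coe, hf]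


section Ext

variable {Ω : Type*} [Field Ω] [Algebra M Ω] [Algebra.IsAlgebraic M Ω]

/-- An embedding of `Ω` in an algebraic closure of the completion. -/
lemma exists_j (w : Valuation M ℝ≥0) :
    ∃ j : Ω →+* AlgebraicClosure (Cpl w), ∀ x : M,
      j (algebraMap M Ω x) = algebraMap (Cpl w) (AlgebraicClosure (Cpl w)) (toCpl w x) := by
  let _ : Algebra M (AlgebraicClosure (Cpl w)) :=
    ((algebraMap (Cpl w) (AlgebraicClosure (Cpl w))).comp (toCpl w)).toAlgebra
  let j : Ω →ₐ[M] AlgebraicClosure (Cpl w) := IsAlgClosed.lift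
  exact ⟨j.toRingHom, fun x => j.commutes x⟩

/-- The valuation on `Ω` obtained from the spectral norm through `j`. -/
def Wof (w : Valuation M ℝ≥0) (hnt : ∃ a : M, 1 < w a)
    (j : Ω →+* AlgebraicClosure (Cpl w)) : Valuation Ω ℝ≥0 :=
  letI := nnf w hnt
  { toFun := fun a => (spectralNorm (Cpl w) (AlgebraicClosure (Cpl w)) (j a)).toNNReal
    map_zero' := by
      rw [map_zero, spectralNorm_zero, Real.toNNReal_zero]
    map_one' := by
      rw [map_one, spectralNorm_one, Real.toNNReal_one]
    map_mul' := by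
      intro x y
      rw [map_mul, ← Real.toNNReal_mul (spectralNorm_nonneg _)]
      congr 1
      exact spectralAlgNorm_mul (j x) (j y)
    map_add_le_max' := by
      intro x y
      have h := isNonarchimedean_spectralNorm (K := Cpl w) (L := AlgebraicClosure (Cpl w)) (j x) (j y)
      rw [map_add, le_max_iff]
      rcases le_max_iff.mp h with h | h
      · exact Or.inl (Real.toNNReal_le_toNNReal h)
      · exact Or.inr (Real.toNNReal_le_toNNReal h) }

omit [Algebra M Ω] [Algebra.IsAlgebraic M Ω] in
lemma coe_Wof (w : Valuation M ℝ≥0) (hnt : ∃ a : M, 1 < w a)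
    (j : Ω →+* AlgebraicClosure (Cpl w)) (a : Ω) :
    letI := nnf w hnt
    ((Wof w hnt j a : ℝ≥0) : ℝ) = spectralNorm (Cpl w) (AlgebraicClosure (Cpl w)) (j a) := by
  let _ := nnf w hnt
  exact Real.coe_toNNReal _ (spectralNorm_nonneg _)

omit [Algebra.IsAlgebraic M Ω] in
lemma Wof_comap (w : Valuation M ℝ≥0) (hnt : ∃ a : M, 1 < w a)
    (j : Ω →+* AlgebraicClosure (Cpl w))
    (hj : ∀ x : M, j (algebraMap M Ω x) = algebraMap (Cpl w) (AlgebraicClosure (Cpl w)) (toCpl w x)) :
    (Wof w hnt j).comap (algebraMap M Ω) = w := by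
  let _ := nnf w hnt
  ext x
  change ((Wof w hnt j (algebraMap M Ω x) : ℝ≥0) : ℝ) = _
  rw [coe_Wof, hj, spectralNorm_extends]
  exact norm_toCpl w x

omit [Algebra.IsAlgebraic M Ω] in
/-- If `M` is dense in `Ω` then `Ω` embeds isometrically in the completion of `M`. -/
lemma exists_i (w : Valuation M ℝ≥0) (hnt : ∃ a : M, 1 < w a)
    (j : Ω →+* AlgebraicClosure (Cpl w))
    (hj : ∀ x : M, j (algebraMap M Ω x) = algebraMap (Cpl w) (AlgebraicClosure (Cpl w)) (toCpl w x))
    (hd : ∀ a : Ω, ∀ ε : ℝ≥0, 0 < ε → ∃ b : M, Wof w hnt j (a - algebraMap M Ω b) < ε) :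
    ∃ i : Ω →+* Cpl w, (∀ x : M, i (algebraMap M Ω x) = toCpl w x) ∧
      ∀ a, ‖i a‖ = Wof w hnt j a := by
  let _ := nnf w hnt
  have hmem : ∀ a : Ω, ∃ e : Cpl w, algebraMap (Cpl w) (AlgebraicClosure (Cpl w)) e = j a := by
    intro a
    choose b hb using fun n : ℕ => hd a (1 / ((n : ℝ≥0) + 1)) (by positivity)
    have hW : ∀ n, ((Wof w hnt j (a - algebraMap M Ω (b n)) : ℝ≥0) : ℝ) < 1 / ((n : ℝ) + 1) := by
      intro n
      have := hb n
      exact_mod_cast this
    have hlim : Filter.Tendsto (fun n : ℕ => 1 / ((n : ℝ) + 1)) Filter.atTop (𝓝 0) :=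
      tendsto_one_div_add_atTop_nhds_zero_nat
    -- Cauchy sequence
    have hdiff : ∀ m n, ‖toCpl w (b m) - toCpl w (b n)‖ ≤ max (1 / ((m : ℝ) + 1)) (1 / ((n : ℝ) + 1)) := by
      intro m n
      rw [← map_sub, norm_toCpl]
      have h1 : w (b m - b n) = Wof w hnt j (algebraMap M Ω (b m - b n)) := by
        conv_lhs => rw [← Wof_comap w hnt j hj]
        rfl
      have h2 : algebraMap M Ω (b m - b n) =
          (a - algebraMap M Ω (b n)) - (a - algebraMap M Ω (b m)) := by
        rw [map_sub]; ring
      rw [h1, h2]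
      have h3 := (Wof w hnt j).map_sub (a - algebraMap M Ω (b n)) (a - algebraMap M Ω (b m))
      have h4 : ((Wof w hnt j ((a - algebraMap M Ω (b n)) - (a - algebraMap M Ω (b m))) : ℝ≥0) : ℝ)
          ≤ ((max (Wof w hnt j (a - algebraMap M Ω (b n)))
            (Wof w hnt j (a - algebraMap M Ω (b m))) : ℝ≥0) : ℝ) := by
        exact_mod_cast h3
      refine h4.trans ?_
      rw [NNReal.coe_max, max_comm]
      exact max_le_max (hW m).le (hW n).le
    have hC : CauchySeq (fun n => toCpl w (b n)) := by
      rw [Metric.cauchySeq_iff]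
      intro ε hε
      obtain ⟨N, hN⟩ := (Metric.tendsto_atTop.mp hlim) ε hε
      refine ⟨N, fun m hm n hn => ?_⟩
      rw [dist_eq_norm]
      refine lt_of_le_of_lt (hdiff m n) ?_
      have h1 := hN m hm
      have h2 := hN n hn
      rw [Real.dist_eq, sub_zero, abs_of_pos (by positivity)] at h1 h2
      exact max_lt h1 h2
    obtain ⟨e, he⟩ := cauchySeq_tendsto_of_complete hC
    refine ⟨e, ?_⟩
    have hz : spectralNorm (Cpl w) (AlgebraicClosure (Cpl w))
        (algebraMap (Cpl w) (AlgebraicClosure (Cpl w)) e - j a) = 0 := by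
      refine le_antisymm ?_ (spectralNorm_nonneg _)
      refine le_of_forall_pos_lt_add ?_
      intro ε hε
      rw [zero_add]
      obtain ⟨N1, hN1⟩ := (Metric.tendsto_atTop.mp he) ε hε
      obtain ⟨N2, hN2⟩ := (Metric.tendsto_atTop.mp hlim) ε hε
      set n := max N1 N2
      have h1 := hN1 n (le_max_left _ _)
      have h2 := hN2 n (le_max_right _ _)
      rw [Real.dist_eq, sub_zero, abs_of_pos (by positivity)] at h2
      have h3 : algebraMap (Cpl w) (AlgebraicClosure (Cpl w)) e - j a =
          algebraMap (Cpl w) (AlgebraicClosure (Cpl w)) (e - toCpl w (b n)) +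
          (- j (a - algebraMap M Ω (b n))) := by
        rw [map_sub, map_sub, hj]; ring
      rw [h3]
      refine lt_of_le_of_lt (isNonarchimedean_spectralNorm _ _) ?_
      refine max_lt ?_ ?_
      · rw [spectralNorm_extends, ← dist_eq_norm, dist_comm]
        exact h1
      · rw [spectralNorm_neg (Algebra.IsAlgebraic.isAlgebraic _)]
        rw [← coe_Wof w hnt j]
        exact (hW n).trans h2
    have h5 : (spectralMulAlgNorm (Cpl w) (AlgebraicClosure (Cpl w)))
        (algebraMap (Cpl w) (AlgebraicClosure (Cpl w)) e - j a) = 0 := hz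
    exact sub_eq_zero.mp ((map_eq_zero_iff_eq_zero _).mp h5)
  choose i hi using hmem
  have hinj : Function.Injective (algebraMap (Cpl w) (AlgebraicClosure (Cpl w))) :=
    (algebraMap (Cpl w) (AlgebraicClosure (Cpl w))).injective
  refine ⟨{ toFun := i, map_one' := hinj (by simp [hi]), map_zero' := hinj (by simp [hi]),
            map_mul' := fun x y => hinj (by simp [hi]), map_add' := fun x y => hinj (by simp [hi]) },
          ?_, ?_⟩
  · intro x
    apply hinj
    change algebraMap _ _ (i _) = _
    rw [hi, hj]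
  · intro a
    change ‖i a‖ = _
    rw [coe_Wof, ← hi, spectralNorm_extends]

/-- **Extension and lifting.** -/
theorem exists_ext_lift {K : Type*} [Field K] [Algebra K M] [Algebra K Ω] [IsScalarTower K M Ω]
    [Algebra.IsAlgebraic K Ω] [IsAlgClosed Ω]
    (w : Valuation M ℝ≥0) (hnt : ∃ a : M, 1 < w a) :
    ∃ W : Valuation Ω ℝ≥0, W.comap (algebraMap M Ω) = w ∧
      ((∀ a : Ω, ∀ ε : ℝ≥0, 0 < ε → ∃ b : M, W (a - algebraMap M Ω b) < ε) →
        ∀ σ : M ≃ₐ[K] M, (∀ x, w (σ x) = w x) →
          ∃ t : Ω ≃ₐ[K] Ω, (∀ x : M, t (algebraMap M Ω x) = algebraMap M Ω (σ x)) ∧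
            ∀ a, W (t a) = W a) := by
  classical
  obtain ⟨j, hj⟩ := exists_j (Ω := Ω) w
  refine ⟨Wof w hnt j, Wof_comap w hnt j hj, ?_⟩
  intro hd σ hσ
  obtain ⟨i, hi, hin⟩ := exists_i w hnt j hj hd
  obtain ⟨τ, hτ, hτn⟩ := exists_extend w (σ : M →+* M) hσ
  have hiinj : Function.Injective i := i.injective
  -- `τ (i a)` lies in the image of `i`
  have hmem : ∀ a : Ω, ∃ b : Ω, i b = τ (i a) := by
    intro a
    let P : K[X] := minpoly K a
    have hP0 : P ≠ 0 := minpoly.ne_zero (Algebra.IsIntegral.isIntegral a)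
    have hsplit : (P.map (algebraMap K Ω)).Splits := IsAlgClosed.splits _
    have hroots := hsplit.eq_prod_roots
    -- evaluate at `τ (i a)`
    have hKc : ∀ c : K, τ (i (algebraMap K Ω c)) = i (algebraMap K Ω c) := by
      intro c
      rw [IsScalarTower.algebraMap_apply K M Ω, hi, hτ]
      congr 1
      exact σ.commutes c
    have hev : Polynomial.eval₂ (i.comp (algebraMap K Ω)) (τ (i a)) P = 0 := by
      have h1 : Polynomial.eval₂ (i.comp (algebraMap K Ω)) (τ (i a)) P =
          (τ.comp i) (Polynomial.eval₂ (algebraMap K Ω) a P) := by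
        rw [Polynomial.hom_eval₂]
        congr 1
        ext c
        simp [hKc]
      rw [h1]
      have h2 : Polynomial.eval₂ (algebraMap K Ω) a P = 0 := minpoly.aeval K a
      rw [h2, map_zero]
    have hev2 : Polynomial.eval₂ i (τ (i a)) (P.map (algebraMap K Ω)) = 0 := by
      rw [Polynomial.eval₂_map]; exact hev
    rw [hroots] at hev2
    rw [Polynomial.eval₂_mul, Polynomial.eval₂_C, mul_eq_zero] at hev2
    rcases hev2 with h | h
    · exfalso
      have h3 : (P.map (algebraMap K Ω)).leadingCoeff = 0 := by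
        apply hiinj
        rw [h, map_zero]
      rw [Polynomial.leadingCoeff_eq_zero, Polynomial.map_eq_zero] at h3
      exact hP0 h3
    · rw [← Polynomial.coe_eval₂RingHom, map_multiset_prod, Multiset.prod_eq_zero_iff] at h
      simp only [Multiset.map_map, Multiset.mem_map, Function.comp_apply] at h
      obtain ⟨b, -, hb⟩ := h
      refine ⟨b, ?_⟩
      rw [Polynomial.coe_eval₂RingHom, Polynomial.eval₂_sub, Polynomial.eval₂_X,
        Polynomial.eval₂_C, sub_eq_zero] at hb
      exact hb.symm
  choose t ht using hmem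
  let tA : Ω →ₐ[K] Ω :=
    { toFun := t
      map_one' := hiinj (by rw [ht, map_one, map_one])
      map_mul' := fun x y => hiinj (by rw [ht, map_mul, map_mul, map_mul, ht, ht])
      map_zero' := hiinj (by rw [ht, map_zero, map_zero])
      map_add' := fun x y => hiinj (by rw [ht, map_add, map_add, map_add, ht, ht])
      commutes' := fun c => hiinj (by
        rw [ht, IsScalarTower.algebraMap_apply K M Ω, hi, hτ]
        congr 1
        exact σ.commutes c) }
  have hbij : Function.Bijective tA := Algebra.IsAlgebraic.algHom_bijective tA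
  refine ⟨AlgEquiv.ofBijective tA hbij, ?_, ?_⟩
  · intro x
    apply hiinj
    change i (t _) = _
    rw [ht, hi, hi, hτ]
    rfl
  · intro a
    change Wof w hnt j (t a) = _
    apply NNReal.coe_injective
    rw [← hin, ← hin, ht, hτn]

end Ext

end Crest.Agent.R013.A2a_275
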