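import Mathlib
import Crest.Agent.R013.RR11_948

/-!
# R013 / RR12: strong and weak approximation (helper948)
-/

set_option autoImplicit false
set_option linter.all false

namespace Crest.Agent.R013.RR12_948

open Polynomial WithZero Module IsDedekindDomain nonZeroDivisors
open Crest.Agent.R013.RR1_948 Crest.Agent.R013.RR2_948 Crest.Agent.R013.RR3_948
open Crest.Agent.R013.RR4_948 Crest.Agent.R013.RR5_948 Crest.Agent.R013.RR6_948
open Crest.Agent.R013.RR7_948 Crest.Agent.R013.RR8_948 Crest.Agent.R013.RR9_948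
open Crest.Agent.R013.RR11_948

theorem enat_cancel {n : ℕ} {r s : ℕ∞} (h : (n : ℕ∞) + r = n + s) : r = s := by
  induction r using ENat.recTopCoe with
  | top =>
    induction s using ENat.recTopCoe with
    | top => rfl
    | coe b => rw [add_top] at h; exact absurd h.symm (by exact_mod_cast ENat.natCast_ne_top (n + b))
  | coe a =>
    induction s using ENat.recTopCoe with
    | top => rw [add_top] at h; exact absurd h (by exact_mod_cast ENat.natCast_ne_top (n + a))
    | coe b =>
      have h1 : n + a = n + b := by exact_mod_cast h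
      have h2 : a = b := by omega
      rw [h2]

section basic

variable {k V : Type*} [Ring k] [AddCommGroup V] [Module k V]

theorem ri_eq_zero_iff {P Q : Submodule k V} : ri P Q = 0 ↔ Q ≤ P := by
  unfold ri
  rw [Module.length_eq_zero_iff, Submodule.Quotient.subsingleton_iff]
  constructor
  · intro h x hx
    have : (⟨x, hx⟩ : Q) ∈ P.submoduleOf Q := by rw [h]; trivial
    exact this
  · intro h
    rw [eq_top_iff]
    intro x _
    exact h x.2

end basic

variable {k : Type*} [Field k] {K : Type*} [Field K] [Algebra k K]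

/-- multiplication by a nonzero function -/
noncomputable def mulE (k : Type*) [Field k] {K : Type*} [Field K] [Algebra k K] (f : K)
    (hf : f ≠ 0) : K ≃ₗ[k] K :=
  { toFun := fun x => f * x
    invFun := fun x => f⁻¹ * x
    map_add' := fun x y => mul_add _ _ _
    map_smul' := fun c x => by simp [mul_smul_comm]
    left_inv := fun x => by simp [hf]
    right_inv := fun x => by simp [hf] }

theorem mulE_apply (f : K) (hf : f ≠ 0) (x : K) : mulE k f hf x = f * x := rfl

theorem map_ball (P : Pl k K) {f : K} (hf : f ≠ 0) {m : ℤ} (hm : P.v f = exp m) (n : ℤ) :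
    (ball P n).map (mulE k f hf : K →ₗ[k] K) = ball P (m + n) := by
  ext y
  simp only [Submodule.mem_map]
  constructor
  · rintro ⟨x, hx, rfl⟩
    rw [mem_ball] at hx ⊢
    show P.v (f * x) ≤ _
    rw [map_mul, hm, exp_add]
    exact mul_le_mul_right hx _
  · intro hy
    refine ⟨f⁻¹ * y, ?_, ?_⟩
    · rw [mem_ball] at hy ⊢
      rw [map_mul, map_inv₀, hm, ← exp_neg]
      calc _ ≤ exp (-m) * exp (m + n) := mul_le_mul_right hy _
        _ = exp n := by rw [← exp_add]; congr 1; ring
    · show f * (f⁻¹ * y) = y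
      rw [← mul_assoc, mul_inv_cancel₀ hf, one_mul]

theorem exists_v_eq (P : Pl k K) (m : ℤ) : ∃ t : K, t ≠ 0 ∧ P.v t = exp m := by
  obtain ⟨t, ht⟩ := P.surj (exp m)
  refine ⟨t, ?_, ht⟩
  rintro rfl
  rw [map_zero] at ht
  exact exp_ne_zero ht.symm

theorem ri_ball (P : Pl k K) (m : ℤ) : ri (ball P m) (ball P (m + 1)) = degE P := by
  obtain ⟨t, ht0, ht⟩ := exists_v_eq P (m + 1)
  unfold degE
  rw [← ri_map (mulE k t ht0) (ball P (-1)) (ball P 0), map_ball P ht0 ht, map_ball P ht0 ht]
  congr 2 <;> ring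

theorem ball_mono (P : Pl k K) {m n : ℤ} (h : m ≤ n) : ball P m ≤ ball P n := fun x hx => by
  rw [mem_ball] at *
  exact hx.trans (exp_le_exp.mpr h)

theorem ri_ball_add (P : Pl k K) (m : ℤ) (N : ℕ) : ri (ball P m) (ball P (m + N)) = N * degE P := by
  induction N with
  | zero => simp [ri_self]
  | succ N ih =>
    rw [ri_add (ball_mono P (show m ≤ m + N by omega))
      (ball_mono P (show m + N ≤ m + (N + 1 : ℕ) by push_cast; omega)), ih]
    have : m + ((N + 1 : ℕ) : ℤ) = (m + N) + 1 := by push_cast; ring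
    rw [this, ri_ball]
    push_cast
    ring

theorem LD_mono {D D' : Pl k K →₀ ℤ} (h : D ≤ D') : LD D ≤ LD D' := by
  intro x hx
  rw [mem_LD] at *
  exact fun P => (hx P).trans (exp_le_exp.mpr (h P))

variable [Algebra (RatFunc k) K]
  [IsScalarTower k (RatFunc k) K] [FiniteDimensional (RatFunc k) K]
  [Algebra.IsSeparable (RatFunc k) K]

theorem length_LD (D : Pl k K →₀ ℤ) : Module.length k (LD D) = ell D := by
  have := LD_finite D
  unfold ell
  exact Module.length_eq_finrank k _

theorem ell_mono {D D' : Pl k K →₀ ℤ} (h : D ≤ D') : ell D ≤ ell D' := by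
  have := LD_finite D'
  exact Submodule.finrank_mono (LD_mono h)

theorem ell_sub_of_lt {D : Pl k K →₀ ℤ} (hD : degD (canD k K) < degD D) :
    (ell D : ℤ) = degD D + (ell (0 : Pl k K →₀ ℤ) - ell (canD k K)) := by
  have h := rr_chi D
  rw [ell_of_degD_neg (D := canD k K - D) (by rw [degD_sub]; omega)] at h
  push_cast at h
  linarith

/-- one-place approximation -/
theorem approx_one {E : Pl k K →₀ ℤ} (hE : degD (canD k K) < degD E) (P : Pl k K) (a : K) :
    ∃ f : K, P.v (f - a) ≤ exp (E P) ∧ ∀ Q, Q ≠ P → Q.v f ≤ exp (E Q) := by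
  classical
  -- the size of `a`
  obtain ⟨N, hN⟩ : ∃ N : ℕ, P.v a ≤ exp (E P + N) := by
    by_cases ha : a = 0
    · exact ⟨0, by simp [ha]⟩
    · refine ⟨(-divf (k := k) a P - E P).toNat, ?_⟩
      rw [v_eq ha, exp_le_exp]
      have := Int.self_le_toNat (-divf (k := k) a P - E P)
      omega
  set D := E + Finsupp.single P (N : ℤ) with hD
  have hED : E ≤ D := by
    intro Q
    rw [hD, Finsupp.add_apply, Finsupp.single_apply]
    split_ifs <;> omega
  have hDP : D P = E P + N := by rw [hD, Finsupp.add_apply, Finsupp.single_eq_same]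
  have hDQ : ∀ Q, Q ≠ P → D Q = E Q := by
    intro Q hQ
    rw [hD, Finsupp.add_apply, Finsupp.single_apply, if_neg (Ne.symm hQ), add_zero]
  have hdeg : degD D = degD E + N * degP P := by rw [hD, degD_add, degD_single]
  have hinf : ball P (E P) ⊓ LD D = LD E := by
    ext x
    rw [Submodule.mem_inf, mem_LD, mem_LD, mem_ball]
    constructor
    · rintro ⟨h1, h2⟩ Q
      by_cases hQ : Q = P
      · subst hQ; exact h1
      · rw [← hDQ Q hQ]; exact h2 Q
    · intro h
      exact ⟨h P, fun Q => (h Q).trans (exp_le_exp.mpr (hED Q))⟩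
  have hle : LD D ⊔ ball P (E P) ≤ ball P (E P + N) := by
    refine sup_le ?_ (ball_mono P (by omega))
    intro x hx
    rw [mem_LD] at hx
    rw [mem_ball, ← hDP]
    exact hx P
  have h1 : ri (ball P (E P)) (LD D ⊔ ball P (E P)) = ri (LD E) (LD D) := by
    rw [ri_sup, ← ri_inf, hinf]
  have h2 : Module.length k (LD D) = Module.length k (LD E) + ri (LD E) (LD D) := by
    rw [← ri_bot, ← ri_bot]
    exact ri_add bot_le (LD_mono hED)
  have h3 : ri (ball P (E P)) (ball P (E P + N))
      = ri (ball P (E P)) (LD D ⊔ ball P (E P)) + ri (LD D ⊔ ball P (E P)) (ball P (E P + N)) :=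
    ri_add le_sup_right hle
  have e1 := ell_sub_of_lt hE
  have e2 := ell_sub_of_lt (k := k) (D := D) (by rw [hdeg]; nlinarith [degP_pos P])
  have e3 : ell D = ell E + N * degP P := by
    have : (ell D : ℤ) = ell E + N * degP P := by rw [e1, e2, hdeg]; ring
    exact_mod_cast this
  rw [length_LD, length_LD, e3] at h2
  push_cast at h2
  have h4 : ri (LD E) (LD D) = ((N * degP P : ℕ) : ℕ∞) := by
    have h5 : ((ell E : ℕ∞)) + ((N * degP P : ℕ) : ℕ∞) = (ell E : ℕ∞) + ri (LD E) (LD D) := by
      push_cast; exact h2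
    exact (enat_cancel h5).symm
  rw [h1, h4, ri_ball_add, degE_eq] at h3
  have h6 : ri (LD D ⊔ ball P (E P)) (ball P (E P + N)) = 0 := by
    have h7 : ((N * degP P : ℕ) : ℕ∞) + ri (LD D ⊔ ball P (E P)) (ball P (E P + N))
        = ((N * degP P : ℕ) : ℕ∞) + 0 := by
      rw [← h3, add_zero]; push_cast; rfl
    exact enat_cancel h7
  rw [ri_eq_zero_iff] at h6
  have ha : a ∈ LD D ⊔ ball P (E P) := h6 ((mem_ball).mpr hN)
  obtain ⟨f, hf, b, hb, rfl⟩ := Submodule.mem_sup.mp ha
  refine ⟨f, ?_, ?_⟩
  · have : f - (f + b) = -b := by ring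
    rw [this, Valuation.map_neg]
    exact mem_ball.mp hb
  · intro Q hQ
    rw [← hDQ Q hQ]
    exact mem_LD.mp hf Q

/-- many-place approximation with a divisor of large degree -/
theorem approx_div {E : Pl k K →₀ ℤ} (hE : degD (canD k K) < degD E) (S : Finset (Pl k K))
    (a : Pl k K → K) :
    ∃ f : K, (∀ P ∈ S, P.v (f - a P) ≤ exp (E P)) ∧ ∀ Q ∉ S, Q.v f ≤ exp (E Q) := by
  classical
  choose f hf1 hf2 using fun P => approx_one hE P (a P)
  refine ⟨∑ P ∈ S, f P, ?_, ?_⟩
  · intro P hP
    have : ∑ Q ∈ S, f Q - a P = (f P - a P) + ∑ Q ∈ S.erase P, f Q := by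
      rw [← Finset.add_sum_erase S f hP]; ring
    rw [this]
    refine (Valuation.map_add _ _ _).trans (max_le (hf1 P) (Valuation.map_sum_le _ fun Q hQ => ?_))
    exact hf2 Q P (Finset.ne_of_mem_erase hQ).symm
  · intro Q hQ
    refine Valuation.map_sum_le _ fun P hP => ?_
    exact hf2 P Q (fun h => hQ (h ▸ hP))

/-- **strong approximation** -/
theorem strong_approx (S : Finset (Pl k K)) {P0 : Pl k K} (hP0 : P0 ∉ S) (a : Pl k K → K) (n : ℤ) :
    ∃ f : K, (∀ P ∈ S, P.v (f - a P) ≤ exp (-n)) ∧ ∀ Q ∉ S, Q ≠ P0 → Q.v f ≤ 1 := by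
  classical
  obtain ⟨m, hm⟩ : ∃ m : ℕ, degD (canD k K) <
      degD (∑ P ∈ S, Finsupp.single P (-n) + Finsupp.single P0 (m : ℤ)) := by
    refine ⟨(degD (canD k K) - degD (∑ P ∈ S, Finsupp.single P (-n)) + 1).toNat, ?_⟩
    rw [degD_add, degD_single]
    have h1 := Int.self_le_toNat (degD (canD k K) - degD (∑ P ∈ S, Finsupp.single P (-n)) + 1)
    have h2 : (1 : ℤ) ≤ degP P0 := by exact_mod_cast degP_pos P0
    nlinarith
  obtain ⟨f, hf1, hf2⟩ := approx_div hm S a
  refine ⟨f, fun P hP => (hf1 P hP).trans (exp_le_exp.mpr ?_), fun Q hQ hQ0 => ?_⟩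
  · rw [Finsupp.add_apply, Finsupp.finsetSum_apply, Finsupp.single_apply,
      if_neg (fun h : P0 = P => hP0 (h ▸ hP)), add_zero]
    rw [Finset.sum_eq_single P]
    · rw [Finsupp.single_eq_same]
    · intro Q _ hQ
      rw [Finsupp.single_apply, if_neg hQ]
    · intro h; exact absurd hP h
  · have := hf2 Q hQ
    rw [Finsupp.add_apply, Finsupp.finsetSum_apply, Finsupp.single_apply,
      if_neg (Ne.symm hQ0), add_zero, Finset.sum_eq_zero, exp_zero] at this
    · exact this
    · intro P hP
      rw [Finsupp.single_apply, if_neg (fun h : P = Q => hQ (h ▸ hP))]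

/-- a function with no zeros and no poles outside... : every function with a pole has a zero -/
theorem exists_lt_of_exists_gt {f : K} (hf : f ≠ 0) {P : Pl k K} (hP : 1 < P.v f) :
    ∃ Q : Pl k K, Q.v f < 1 := by
  by_contra hcon
  push Not at hcon
  have h := degD_divf (k := k) hf
  have hle : ∀ Q : Pl k K, divf (k := k) f Q ≤ 0 := by
    intro Q
    have h1 := hcon Q
    rw [v_eq hf, ← exp_zero, exp_le_exp] at h1
    omega
  have hlt : divf (k := k) f P < 0 := by
    rw [v_eq hf, ← exp_zero, exp_lt_exp] at hP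
    omega
  have : degD (divf (k := k) f) < 0 := by
    unfold degD Finsupp.sum
    refine Finset.sum_neg' (fun Q _ => mul_nonpos_of_nonpos_of_nonneg (hle Q) (by positivity))
      ⟨P, Finsupp.mem_support_iff.mpr hlt.ne, ?_⟩
    have h4 : 0 < (degP P : ℤ) := by exact_mod_cast degP_pos P
    exact mul_neg_of_neg_of_pos hlt h4
  omega

/-- there are infinitely many places -/
theorem exists_notMem (S : Finset (Pl k K)) : ∃ P : Pl k K, P ∉ S := by
  classical
  by_contra hcon
  push Not at hcon
  -- there is a place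
  obtain ⟨P0, hP0⟩ : ∃ P : Pl k K, P ∈ S := by
    by_contra h
    push Not at h
    have h1 : ∀ P : Pl k K, P.v (xK k K) ≤ 1 := fun P => absurd (hcon P) (h P)
    have h2 := isAlgebraic_of_no_poles (k := k) h1
    have h3 : IsAlgebraic k (RatFunc.X : RatFunc k) := by
      have : IsAlgebraic k (algebraMap (RatFunc k) K RatFunc.X) := h2
      exact (isAlgebraic_algebraMap_iff (algebraMap (RatFunc k) K).injective).mp this
    exact RatFunc.transcendental_X h3
  -- a nonzero function with zeros at all other places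
  obtain ⟨m, hm⟩ : ∃ m : ℕ, |degD (canD k K)| + ell (canD k K) <
      degD (∑ P ∈ S.erase P0, Finsupp.single P (-1) + Finsupp.single P0 (m : ℤ)) := by
    refine ⟨(|degD (canD k K)| + ell (canD k K)
      - degD (∑ P ∈ S.erase P0, Finsupp.single P (-1)) + 1).toNat, ?_⟩
    rw [degD_add, degD_single]
    have h1 := Int.self_le_toNat (|degD (canD k K)| + ell (canD k K)
      - degD (∑ P ∈ S.erase P0, Finsupp.single P (-1)) + 1)
    have h2 : (1 : ℤ) ≤ degP P0 := by exact_mod_cast degP_pos P0
    nlinarith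
  set E : Pl k K →₀ ℤ := ∑ P ∈ S.erase P0, Finsupp.single P (-1) + Finsupp.single P0 (m : ℤ) with hE
  have hEP : ∀ P, P ≠ P0 → E P = -1 := by
    intro P hP
    rw [hE, Finsupp.add_apply, Finsupp.finsetSum_apply, Finsupp.single_apply,
      if_neg (Ne.symm hP), add_zero, Finset.sum_eq_single P]
    · rw [Finsupp.single_eq_same]
    · intro Q _ hQ
      rw [Finsupp.single_apply, if_neg hQ]
    · intro h; exact absurd (Finset.mem_erase.mpr ⟨hP, hcon P⟩) h
  have hsmall : LD E ≠ ⊥ := by
    intro h0
    have h1 : ell E = 0 := by unfold ell; rw [h0]; simp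
    have h2 := rr_chi E
    rw [ell_of_degD_neg (D := canD k K - E) (by
      rw [degD_sub]
      have : (0 : ℤ) ≤ ell (canD k K) := by positivity
      have h3 := le_abs_self (degD (canD k K))
      omega), h1] at h2
    push_cast at h2
    have : (0 : ℤ) ≤ ell (0 : Pl k K →₀ ℤ) := by positivity
    have h3 := abs_nonneg (degD (canD k K))
    omega
  obtain ⟨g, hg, hg0⟩ := Submodule.exists_mem_ne_zero_of_ne_bot hsmall
  rw [mem_LD] at hg
  have hg1 : ∀ P, P ≠ P0 → P.v g < 1 := by
    intro P hP
    have h1 := hg P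
    rw [hEP P hP] at h1
    exact (lt_one_iff _).mpr h1
  -- `g` has a pole at `P0`
  have hg2 : 1 < P0.v g := by
    by_contra h
    rw [not_lt] at h
    have hall : ∀ P : Pl k K, P.v g ≤ 1 := by
      intro P
      by_cases hP : P = P0
      · rw [hP]; exact h
      · exact (hg1 P hP).le
    -- then `g` is algebraic over `k`, so has no zeros
    have halg := isAlgebraic_of_no_poles (k := k) hall
    have halg' : IsAlgebraic k g⁻¹ := halg.inv
    have hall' : ∀ P : Pl k K, P.v g⁻¹ ≤ 1 := by
      intro P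
      apply le_one_of_integral (S := k) P.v
      · intro c
        by_cases hc : c = 0
        · simp [hc]
        · rw [P.const c hc]
      · exact halg'.isIntegral
    have hone : ∀ P : Pl k K, P.v g = 1 := by
      intro P
      refine le_antisymm (hall P) ?_
      have h1 := hall' P
      rw [map_inv₀] at h1
      exact (inv_le_one₀ ((Valuation.pos_iff _).mpr hg0)).mp h1
    -- so `P0` is the only place, and the function `x` or `x⁻¹` has no zero... use degrees
    have honly : ∀ P : Pl k K, P = P0 := by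
      intro P
      by_contra hP
      exact absurd (hone P) (hg1 P hP).ne
    have hdeg : ∀ f : K, f ≠ 0 → P0.v f = 1 := by
      intro f hf
      have h1 := degD_divf (k := k) hf
      have h2 : divf (k := k) f = Finsupp.single P0 (divf (k := k) f P0) := by
        ext P
        rw [honly P, Finsupp.single_eq_same]
      rw [h2, degD_single] at h1
      have h3 : (degP P0 : ℤ) ≠ 0 := by
        have := degP_pos P0
        omega
      have h4 : divf (k := k) f P0 = 0 := by
        rcases mul_eq_zero.mp h1 with h | h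
        · exact h
        · exact absurd h h3
      rw [v_eq hf, h4]; simp
    obtain ⟨t, ht0, ht⟩ := exists_v_eq P0 1
    rw [hdeg t ht0, ← exp_zero, exp_inj] at ht
    norm_num at ht
  -- `1 + g` has a pole at `P0` and no zeros
  have h1g : 1 < P0.v (1 + g) := by
    have : P0.v (1 + g) = P0.v g := by
      apply Valuation.map_add_eq_of_lt_right
      rw [map_one]; exact hg2
    rw [this]; exact hg2
  have h0 : (1 : K) + g ≠ 0 := by
    intro h; rw [h, map_zero] at h1g; exact absurd h1g (by simp)
  obtain ⟨Q, hQ⟩ := exists_lt_of_exists_gt h0 h1g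
  by_cases hQ0 : Q = P0
  · rw [hQ0] at hQ; exact absurd h1g (not_lt.mpr hQ.le)
  · have : Q.v (1 + g) = 1 := by
      rw [← map_one Q.v]
      apply Valuation.map_add_eq_of_lt_left
      rw [map_one]; exact hg1 Q hQ0
    rw [this] at hQ
    exact lt_irrefl _ hQ

/-- **weak approximation** -/
theorem weak_approx (S : Finset (Pl k K)) (a : Pl k K → K) (n : ℤ) :
    ∃ f : K, ∀ P ∈ S, P.v (f - a P) ≤ exp (-n) := by
  obtain ⟨P0, hP0⟩ := exists_notMem S
  obtain ⟨f, hf, _⟩ := strong_approx S hP0 a n
  exact ⟨f, hf⟩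

/-- prescribed valuations at finitely many places -/
theorem exists_prescribed (S : Finset (Pl k K)) (m : Pl k K → ℤ) :
    ∃ f : K, f ≠ 0 ∧ ∀ P ∈ S, P.v f = exp (m P) := by
  classical
  choose t ht0 ht using fun P : Pl k K => exists_v_eq P (m P)
  obtain ⟨P1, hP1⟩ := exists_notMem S
  obtain ⟨f, hf⟩ := weak_approx (insert P1 S) t (∑ P ∈ insert P1 S, |m P| + 1)
  have key : ∀ P ∈ insert P1 S, P.v f = exp (m P) := by
    intro P hP
    have h1 : P.v (f - t P) < P.v (t P) := by
      refine (hf P hP).trans_lt ?_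
      rw [ht, exp_lt_exp]
      have h2 : |m P| ≤ ∑ P ∈ insert P1 S, |m P| :=
        Finset.single_le_sum (f := fun P => |m P|) (fun i _ => abs_nonneg _) hP
      have h3 := neg_abs_le (m P)
      omega
    have h2 : f = (f - t P) + t P := by ring
    rw [h2, Valuation.map_add_eq_of_lt_right _ h1, ht]
  refine ⟨f, ?_, fun P hP => key P (Finset.mem_insert_of_mem hP)⟩
  rintro rfl
  have := key P1 (Finset.mem_insert_self _ _)
  rw [map_zero] at this
  exact exp_ne_zero this.symm

/-- functions with exactly one pole, of any large order -/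
theorem exists_pole_order (hc : algebraicClosure k K = ⊥) (P : Pl k K) (n : ℕ)
    (hn : 2 * (gen k K : ℤ) - 2 < (n - 1) * degP P) (hn1 : 1 ≤ n) :
    ∃ f : K, P.v f = exp (n : ℤ) ∧ ∀ Q, Q ≠ P → Q.v f ≤ 1 := by
  classical
  have h1 := ell_eq_of_lt hc (D := Finsupp.single P (n : ℤ)) (by
    rw [degD_single]
    have : (0 : ℤ) ≤ degP P := by positivity
    nlinarith)
  have h2 := ell_eq_of_lt hc (D := Finsupp.single P ((n : ℤ) - 1)) (by rw [degD_single]; exact hn)
  rw [degD_single] at h1 h2
  have hlt : ell (Finsupp.single P ((n : ℤ) - 1)) < ell (Finsupp.single P (n : ℤ)) := by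
    have h3 : (1 : ℤ) ≤ degP P := by exact_mod_cast degP_pos P
    have : (ell (Finsupp.single P ((n : ℤ) - 1)) : ℤ) < ell (Finsupp.single P (n : ℤ)) := by
      rw [h1, h2]; nlinarith
    exact_mod_cast this
  obtain ⟨f, hf, hf'⟩ : ∃ f ∈ LD (Finsupp.single P (n : ℤ)),
      f ∉ LD (Finsupp.single P ((n : ℤ) - 1)) := by
    by_contra hcon
    push Not at hcon
    have hle : LD (Finsupp.single P (n : ℤ)) ≤ LD (Finsupp.single P ((n : ℤ) - 1)) := hcon
    have hfin := LD_finite (Finsupp.single P ((n : ℤ) - 1))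
    have := Submodule.finrank_mono hle
    unfold ell at hlt
    omega
  rw [mem_LD] at hf
  have hQ : ∀ Q, Q ≠ P → Q.v f ≤ 1 := by
    intro Q hQ
    have := hf Q
    rwa [Finsupp.single_apply, if_neg (Ne.symm hQ), exp_zero] at this
  refine ⟨f, ?_, hQ⟩
  have h3 := hf P
  rw [Finsupp.single_eq_same] at h3
  refine le_antisymm h3 (not_lt.mp fun hlt' => hf' ?_)
  rw [mem_LD]
  intro Q
  by_cases hQP : Q = P
  · subst hQP
    rw [Finsupp.single_eq_same, ← lt_exp_iff]
    exact hlt'
  · rw [Finsupp.single_apply, if_neg (Ne.symm hQP), exp_zero]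
    exact hQ Q hQP

end Crest.Agent.R013.RR12_948
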