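import Mathlib
import Crest.Prelude.Def_SectConj
import Crest.Agent.R013.RR12_948

/-!
# R013 / RR13: dictionary between `Pl k K` and the places `IsPlace k v` of `Def_SectConj` (helper948)
-/

set_option autoImplicit false
set_option linter.all false

namespace Crest.Agent.R013.RR13_948

open Polynomial WithZero Module IsDedekindDomain nonZeroDivisors
open Crest.Agent.R013.RR1_948 Crest.Agent.R013.RR2_948 Crest.Agent.R013.RR3_948
open Crest.Agent.R013.RR4_948 Crest.Agent.R013.RR5_948 Crest.Agent.R013.RR6_948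
open Crest.Agent.R013.RR7_948 Crest.Agent.R013.RR8_948 Crest.Agent.R013.RR9_948
open Crest.Agent.R013.RR11_948 Crest.Agent.R013.RR12_948
open Crest.NumberTheoryR.Sect
open scoped NNReal

variable {k : Type*} [Field k] {K : Type*} [Field K] [Algebra k K]

section dict

variable {Γ : Type*} [LinearOrderedCommGroupWithZero Γ]

/-- a valuation equivalent to a place is a power of it -/
theorem eq_zpow_of_isEquiv {P : Pl k K} {v : Valuation K Γ} (h : P.v.IsEquiv v) {t : K}
    (ht : P.v t = exp (-1)) {f : K} {n : ℤ} (hf : P.v f = exp n) : v f = v t ^ (-n) := by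
  have ht0 : t ≠ 0 := by
    rintro rfl; rw [map_zero] at ht; exact exp_ne_zero ht.symm
  have h1 : P.v (f * t ^ n) = 1 := by
    rw [map_mul, map_zpow₀, ht, hf, ← exp_zsmul, ← exp_add]; simp
  rw [h.eq_one_iff_eq_one, map_mul, map_zpow₀] at h1
  rw [zpow_neg]
  exact eq_inv_of_mul_eq_one_left h1

theorem lt_one_of_isEquiv {P : Pl k K} {v : Valuation K Γ} (h : P.v.IsEquiv v) {t : K}
    (ht : P.v t = exp (-1)) : v t < 1 := by
  rw [← h.lt_one_iff_lt_one, ht, ← exp_zero, exp_lt_exp]; norm_num

/-- the place is determined by the equivalence class -/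
theorem eq_of_isEquiv {P Q : Pl k K} {v : Valuation K Γ} (h : P.v.IsEquiv v) (h' : Q.v.IsEquiv v) :
    P = Q := Pl.ext (eq_of_isEquiv_surj (h.trans h'.symm) P.surj Q.surj)

variable [Algebra (RatFunc k) K] [IsScalarTower k (RatFunc k) K] [FiniteDimensional (RatFunc k) K]
  [Algebra.IsSeparable (RatFunc k) K]

/-- every nontrivial valuation of `K` trivial on `k` is equivalent to a unique place -/
theorem exists_place (v : Valuation K Γ) (hk : ∀ c : k, c ≠ 0 → v (algebraMap k K c) = 1)
    (hnt : ∃ a : K, v a ≠ 0 ∧ v a ≠ 1) : ∃ P : Pl k K, P.v.IsEquiv v := by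
  have hk' : ∀ c : k, v (algebraMap k K c) ≤ 1 := by
    intro c
    by_cases hc : c = 0
    · simp [hc]
    · rw [hk c hc]
  use_charts k, K
  rcases le_or_gt (v (xK k K)) 1 with h | h
  · have hA : ∀ a : integralClosure (Polynomial k) K,
        v (algebraMap (integralClosure (Polynomial k) K) K a) ≤ 1 := by
      intro a
      apply le_one_of_integral (S := k[X]) v
      · apply le_one_poly
        · intro c
          have h1 : algebraMap k[X] K (Polynomial.C c) = algebraMap k K c := by
            rw [IsScalarTower.algebraMap_apply k[X] (RatFunc k) K, RatFunc.algebraMap_C,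
              ← algebraMap_eq_C, ← IsScalarTower.algebraMap_apply]
          rw [h1]
          exact hk' c
        · rw [← xK_eq_poly]
          exact h
      · exact a.2
    obtain ⟨w, hw⟩ := exists_heightOne_isEquiv (A := integralClosure (Polynomial k) K) v hA hnt
    exact ⟨ofH w, hw⟩
  · have hA : ∀ a : integralClosure (Rinf k) K,
        v (algebraMap (integralClosure (Rinf k) K) K a) ≤ 1 := by
      intro a
      apply le_one_of_integral (S := Rinf k) v
      · intro s
        have h1 : (v.comap (algebraMap (RatFunc k) K)).IsEquiv (vinf k) := by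
          apply isEquiv_vinf
          · intro c hc
            rw [Valuation.comap_apply, ← IsScalarTower.algebraMap_apply]
            exact hk c hc
          · exact h
        exact h1.le_one_iff_le_one.mpr s.2
      · exact a.2
    obtain ⟨w, hw⟩ := exists_heightOne_isEquiv (A := integralClosure (Rinf k) K) v hA hnt
    exact ⟨ofH w, hw⟩

end dict

section real

/-- every `IsPlace` valuation is equivalent to a unique `P : Pl k K` -/
theorem IsPlace.exists_pl [Algebra (RatFunc k) K] [IsScalarTower k (RatFunc k) K]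
    [FiniteDimensional (RatFunc k) K] [Algebra.IsSeparable (RatFunc k) K]
    {v : Valuation K ℝ≥0} (hv : IsPlace k v) : ∃ P : Pl k K, P.v.IsEquiv v :=
  exists_place v hv.1 hv.2

/-- the order preserving map `ℤᵐ⁰ → ℝ≥0`, `exp n ↦ 2 ^ n` -/
noncomputable def toReal : ℤᵐ⁰ →*₀ ℝ≥0 := WithZero.lift' (zpowersHom ℝ≥0ˣ (Units.mk0 2 (by norm_num))
  |>.comp (MonoidHom.id _) |> (Units.coeHom ℝ≥0).comp)

theorem toReal_exp (n : ℤ) : toReal (exp n) = (2 : ℝ≥0) ^ n := by
  simp [toReal, exp, zpowersHom_apply]

theorem toReal_strictMono : StrictMono toReal := by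
  intro a b hab
  induction a using WithZero.expRecOn with
  | zero =>
    induction b using WithZero.expRecOn with
    | zero => exact absurd hab (lt_irrefl _)
    | exp b => rw [map_zero, toReal_exp]; positivity
  | exp a =>
    induction b using WithZero.expRecOn with
    | zero => exact absurd hab (by simp)
    | exp b =>
      rw [exp_lt_exp] at hab
      rw [toReal_exp, toReal_exp]
      exact zpow_lt_zpow_right₀ (by norm_num) hab

/-- the real valuation of a place, `v f = 2 ^ (-ord f)` -/
noncomputable def vR (P : Pl k K) : Valuation K ℝ≥0 := P.v.map toReal toReal_strictMono.monotone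

theorem vR_apply (P : Pl k K) (f : K) : vR P f = toReal (P.v f) := rfl

theorem isEquiv_vR (P : Pl k K) : P.v.IsEquiv (vR P) := by
  intro r s
  rw [vR_apply, vR_apply, toReal_strictMono.le_iff_le]

theorem isPlace_vR (P : Pl k K) : IsPlace k (vR P) := by
  constructor
  · intro c hc
    rw [vR_apply, P.const c hc, map_one]
  · obtain ⟨t, ht⟩ := P.surj (exp 1)
    refine ⟨t, ?_, ?_⟩
    · rw [vR_apply, ht, toReal_exp]; norm_num
    · rw [vR_apply, ht, toReal_exp]; norm_num

theorem isUniformizerAt_iff {P : Pl k K} {v : Valuation K ℝ≥0} (h : P.v.IsEquiv v) (t : K) :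
    IsUniformizerAt v t ↔ P.v t = exp (-1) := by
  have h1 : IsUniformizerAt v t ↔ P.v t < 1 ∧ ∀ a : K, P.v a < 1 → P.v a ≤ P.v t := by
    unfold IsUniformizerAt
    rw [← h.lt_one_iff_lt_one]
    refine and_congr_right fun _ => forall_congr' fun a => ?_
    rw [← h.lt_one_iff_lt_one, ← h.le_iff_le]
  rw [h1]
  constructor
  · rintro ⟨h2, h3⟩
    obtain ⟨s, hs⟩ := P.surj (exp (-1))
    refine le_antisymm ((lt_one_iff _).mp h2) ?_
    rw [← hs]
    exact h3 s (by rw [hs, ← exp_zero, exp_lt_exp]; norm_num)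
  · intro h2
    rw [h2]
    refine ⟨by rw [← exp_zero, exp_lt_exp]; norm_num, fun a ha => (lt_one_iff _).mp ha⟩

theorem isRationalPlace_iff [Algebra (RatFunc k) K] [IsScalarTower k (RatFunc k) K]
    [FiniteDimensional (RatFunc k) K] [Algebra.IsSeparable (RatFunc k) K]
    {P : Pl k K} {v : Valuation K ℝ≥0} (hv : IsPlace k v) (h : P.v.IsEquiv v) :
    IsRationalPlace k K v ↔ degP P = 1 := by
  have h1 : IsRationalPlace k K v ↔ ∀ a : K, P.v a ≤ 1 → ∃ c : k, P.v (a - algebraMap k K c) < 1 := by
    unfold IsRationalPlace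
    constructor
    · rintro ⟨_, h2⟩ a ha
      obtain ⟨c, hc⟩ := h2 a (h.le_one_iff_le_one.mp ha)
      exact ⟨c, h.lt_one_iff_lt_one.mpr hc⟩
    · intro h2
      refine ⟨hv, fun a ha => ?_⟩
      obtain ⟨c, hc⟩ := h2 a (h.le_one_iff_le_one.mpr ha)
      exact ⟨c, h.lt_one_iff_lt_one.mp hc⟩
  rw [h1]
  have h2 := degE_eq P
  -- the line of constants
  have h10 : (1 : K) ∈ ball P 0 := by rw [mem_ball]; simp
  let q : ball P 0 ⧸ (ball P (-1)).submoduleOf (ball P 0) := Submodule.Quotient.mk ⟨1, h10⟩
  have hq : q ≠ 0 := by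
    intro h
    rw [Submodule.Quotient.mk_eq_zero, Submodule.submoduleOf, Submodule.mem_comap, mem_ball,
      ← lt_one_iff] at h
    simp at h
  have hfin := (RR10_948.finite_of_length (k := k)
    (M := ball P 0 ⧸ (ball P (-1)).submoduleOf (ball P 0)) h2)
  have := hfin.1
  have h3 : degP P = 1 ↔ ∀ w : ball P 0 ⧸ (ball P (-1)).submoduleOf (ball P 0),
      ∃ c : k, c • q = w := by
    rw [← hfin.2]
    exact finrank_eq_one_iff_of_nonzero' q hq
  rw [h3]
  constructor
  · intro h4 w
    obtain ⟨⟨y, hy⟩, rfl⟩ := Submodule.Quotient.mk_surjective _ w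
    have hy' := hy
    rw [mem_ball, exp_zero] at hy'
    obtain ⟨c, hc⟩ := h4 y hy'
    refine ⟨c, ?_⟩
    rw [eq_comm, ← sub_eq_zero, ← Submodule.Quotient.mk_smul, ← Submodule.Quotient.mk_sub,
      Submodule.Quotient.mk_eq_zero, Submodule.submoduleOf, Submodule.mem_comap, mem_ball,
      ← lt_one_iff]
    show P.v (y - c • (1 : K)) < 1
    rwa [← Algebra.algebraMap_eq_smul_one]
  · intro h4 a ha
    have ha' : a ∈ ball P 0 := by rw [mem_ball, exp_zero]; exact ha
    obtain ⟨c, hc⟩ := h4 (Submodule.Quotient.mk ⟨a, ha'⟩)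
    refine ⟨c, ?_⟩
    rw [eq_comm, ← sub_eq_zero, ← Submodule.Quotient.mk_smul, ← Submodule.Quotient.mk_sub,
      Submodule.Quotient.mk_eq_zero, Submodule.submoduleOf, Submodule.mem_comap, mem_ball,
      ← lt_one_iff] at hc
    have hc' : P.v (a - c • (1 : K)) < 1 := hc
    rwa [← Algebra.algebraMap_eq_smul_one] at hc'

end real

end Crest.Agent.R013.RR13_948
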