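import Mathlib
import Crest.Agent.R013.RR13_948

/-!
# R013 / RR14: differentials of function fields, local analysis (helper948)
-/

set_option autoImplicit false
set_option linter.all false

namespace Crest.Agent.R013.RR14_948

open Polynomial WithZero Module IsDedekindDomain nonZeroDivisors
open Crest.Agent.R013.RR1_948 Crest.Agent.R013.RR2_948 Crest.Agent.R013.RR3_948
open Crest.Agent.R013.RR4_948 Crest.Agent.R013.RR5_948 Crest.Agent.R013.RR6_948
open Crest.Agent.R013.RR7_948 Crest.Agent.R013.RR8_948 Crest.Agent.R013.RR9_948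
open Crest.Agent.R013.RR11_948 Crest.Agent.R013.RR12_948
open Crest.NumberTheoryR.Sect
open scoped NNReal

section Kaehler

variable (k : Type*) [Field k] (K : Type*) [Field K] [Algebra k K]
  [Algebra (RatFunc k) K] [IsScalarTower k (RatFunc k) K] [Algebra.IsSeparable (RatFunc k) K]

theorem exists_kaehler_equiv :
    ∃ e : K ≃ₗ[K] Ω[K⁄k], e 1 = KaehlerDifferential.D k K (xK k K) := by
  letI := algPoly k K
  haveI := towerPoly k K
  haveI : IsScalarTower k k[X] K := by
    refine IsScalarTower.of_algebraMap_eq fun c => ?_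
    rw [IsScalarTower.algebraMap_apply k[X] (RatFunc k) K, ← IsScalarTower.algebraMap_apply k k[X],
      ← IsScalarTower.algebraMap_apply]
  haveI : Algebra.FormallyEtale k[X] (RatFunc k) :=
    Algebra.FormallyEtale.of_isLocalization (nonZeroDivisors k[X])
  haveI : Algebra.FormallyEtale (RatFunc k) K := Algebra.FormallyEtale.of_isSeparable _ _
  haveI : Algebra.FormallyEtale k[X] K := Algebra.FormallyEtale.comp k[X] (RatFunc k) K
  let e1 := KaehlerDifferential.tensorKaehlerEquivOfFormallyEtale k k[X] K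
  let e2 : TensorProduct k[X] K Ω[k[X]⁄k] ≃ₗ[K] TensorProduct k[X] K k[X] :=
    TensorProduct.AlgebraTensorModule.congr (LinearEquiv.refl K K)
      (KaehlerDifferential.polynomialEquiv k)
  let e3 : TensorProduct k[X] K k[X] ≃ₗ[K] K := TensorProduct.AlgebraTensorModule.rid k[X] K K
  refine ⟨((e2.trans e3).symm).trans e1, ?_⟩
  have h1 : (e2.trans e3).symm 1 = (1 : K) ⊗ₜ[k[X]] (KaehlerDifferential.D k k[X] X) := by
    rw [LinearEquiv.symm_apply_eq]
    simp [e2, e3]
  rw [LinearEquiv.trans_apply, h1]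
  simp only [e1]
  rw [KaehlerDifferential.tensorKaehlerEquivOfFormallyEtale_apply,
    KaehlerDifferential.mapBaseChange_tmul, KaehlerDifferential.map_D, one_smul, xK_eq_poly]

theorem D_xK_ne_zero : KaehlerDifferential.D k K (xK k K) ≠ 0 := by
  obtain ⟨e, he⟩ := exists_kaehler_equiv k K
  rw [← he]
  simp

theorem exists_smul_D_xK (ω : Ω[K⁄k]) : ∃ g : K, ω = g • KaehlerDifferential.D k K (xK k K) := by
  obtain ⟨e, he⟩ := exists_kaehler_equiv k K
  refine ⟨e.symm ω, ?_⟩
  rw [← he, ← map_smul, smul_eq_mul, mul_one, LinearEquiv.apply_symm_apply]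

theorem exists_del : ∃ d : Derivation k K K, d (xK k K) = 1 ∧
    ∀ f : K, KaehlerDifferential.D k K f = d f • KaehlerDifferential.D k K (xK k K) := by
  obtain ⟨e, he⟩ := exists_kaehler_equiv k K
  refine ⟨(e.symm : Ω[K⁄k] →ₗ[K] K).compDer (KaehlerDifferential.D k K), ?_, ?_⟩
  · show e.symm (KaehlerDifferential.D k K (xK k K)) = 1
    rw [← he, LinearEquiv.symm_apply_apply]
  · intro f
    show _ = e.symm (KaehlerDifferential.D k K f) • _
    rw [← he, ← map_smul, smul_eq_mul, mul_one, LinearEquiv.apply_symm_apply]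

/-- the derivation `d/dX` of `K` -/
noncomputable def del : Derivation k K K := (exists_del k K).choose

theorem del_xK : del k K (xK k K) = 1 := (exists_del k K).choose_spec.1

theorem D_eq (f : K) :
    KaehlerDifferential.D k K f = del k K f • KaehlerDifferential.D k K (xK k K) :=
  (exists_del k K).choose_spec.2 f

end Kaehler

section Local

variable {k : Type*} [Field k] {K : Type*} [Field K] [Algebra k K]

theorem v_aeval_le (P : Pl k K) {u : K} (hu : P.v u ≤ 1) (f : k[X]) :
    P.v (Polynomial.aeval u f) ≤ 1 := by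
  rw [Polynomial.aeval_eq_sum_range]
  refine Valuation.map_sum_le _ fun i _ => ?_
  rw [Algebra.smul_def, map_mul, map_pow]
  have h : P.v (algebraMap k K (f.coeff i)) ≤ 1 := by
    by_cases hc : f.coeff i = 0
    · simp [hc]
    · rw [P.const _ hc]
  exact mul_le_one' h (pow_le_one' hu i)

theorem exists_poly_lt_one (P : Pl k K) (hdeg : degE P ≠ ⊤) {u : K} (hu : P.v u ≤ 1) :
    ∃ f : k[X], f ≠ 0 ∧ P.v (Polynomial.aeval u f) < 1 := by
  by_contra hcon
  push Not at hcon
  let g : k[X] →ₗ[k] (ball P 0 ⧸ (ball P (-1)).submoduleOf (ball P 0)) :=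
    (Submodule.mkQ _).comp (LinearMap.codRestrict (ball P 0) (Polynomial.aeval u).toLinearMap
      (fun f => by rw [mem_ball, exp_zero]; exact v_aeval_le P hu f))
  have hg : Function.Injective g := by
    rw [← LinearMap.ker_eq_bot, LinearMap.ker_eq_bot']
    intro f hf
    by_contra hf0
    have h1 := hcon f hf0
    simp only [g, LinearMap.comp_apply, Submodule.mkQ_apply] at hf
    rw [Submodule.Quotient.mk_eq_zero, Submodule.submoduleOf, Submodule.mem_comap, mem_ball,
      ← lt_one_iff] at hf
    exact absurd h1 (not_le.mpr hf)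
  obtain ⟨n, hn⟩ := ENat.ne_top_iff_exists.mp hdeg
  have hfin := (RR10_948.finite_of_length (k := k)
    (M := ball P 0 ⧸ (ball P (-1)).submoduleOf (ball P 0)) hn.symm).1
  have : Module.Finite k k[X] := Module.Finite.of_injective g hg
  exact Polynomial.not_finite this

theorem exists_sep_poly [PerfectField k] (P : Pl k K) (hdeg : degE P ≠ ⊤) {u : K}
    (hu : P.v u ≤ 1) :
    ∃ f : k[X], P.v (Polynomial.aeval u f) < 1 ∧
      P.v (Polynomial.aeval u (Polynomial.derivative f)) = 1 := by
  classical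
  have hex : ∃ n : ℕ, ∃ f : k[X], f ≠ 0 ∧ P.v (Polynomial.aeval u f) < 1 ∧ f.natDegree = n := by
    obtain ⟨f, hf0, hf⟩ := exists_poly_lt_one P hdeg hu
    exact ⟨_, f, hf0, hf, rfl⟩
  obtain ⟨f, hf0, hf, hfn⟩ := Nat.find_spec hex
  have hmin : ∀ g : k[X], g ≠ 0 → P.v (Polynomial.aeval u g) < 1 → f.natDegree ≤ g.natDegree := by
    intro g hg0 hg
    rw [hfn]
    exact Nat.find_min' hex ⟨g, hg0, hg, rfl⟩
  have hconst : ∀ c : k, c ≠ 0 → P.v (Polynomial.aeval u (Polynomial.C c)) = 1 := by
    intro c hc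
    rw [Polynomial.aeval_C]; exact P.const c hc
  have hirr : Irreducible f := by
    rw [irreducible_iff]
    constructor
    · intro hunit
      obtain ⟨c, hc, hcf⟩ := Polynomial.isUnit_iff.mp hunit
      rw [← hcf, hconst c hc.ne_zero] at hf
      exact lt_irrefl _ hf
    · intro g h hgh
      have hg0 : g ≠ 0 := by rintro rfl; apply hf0; rw [hgh, zero_mul]
      have hh0 : h ≠ 0 := by rintro rfl; apply hf0; rw [hgh, mul_zero]
      have hdegs : f.natDegree = g.natDegree + h.natDegree := by
        rw [hgh, Polynomial.natDegree_mul hg0 hh0]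
      rw [hgh, map_mul, map_mul] at hf
      have hor : P.v (Polynomial.aeval u g) < 1 ∨ P.v (Polynomial.aeval u h) < 1 := by
        by_contra hcon
        push Not at hcon
        have h1 := le_antisymm (v_aeval_le P hu g) hcon.1
        have h2 := le_antisymm (v_aeval_le P hu h) hcon.2
        rw [h1, h2, mul_one] at hf
        exact lt_irrefl _ hf
      rcases hor with h1 | h1
      · right
        have h2 := hmin g hg0 h1
        have h3 : h.natDegree = 0 := by omega
        rw [Polynomial.eq_C_of_natDegree_eq_zero h3] at hh0 ⊢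
        rw [Polynomial.isUnit_C]
        exact (Polynomial.C_ne_zero.mp hh0).isUnit
      · left
        have h2 := hmin h hh0 h1
        have h3 : g.natDegree = 0 := by omega
        rw [Polynomial.eq_C_of_natDegree_eq_zero h3] at hg0 ⊢
        rw [Polynomial.isUnit_C]
        exact (Polynomial.C_ne_zero.mp hg0).isUnit
  have hsep : f.Separable := PerfectField.separable_of_irreducible hirr
  obtain ⟨a, b, hab⟩ := hsep
  refine ⟨f, hf, ?_⟩
  have h1 := congrArg (fun p => P.v (Polynomial.aeval u p)) hab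
  simp only [map_add, map_mul, map_one] at h1
  refine le_antisymm (v_aeval_le P hu _) (not_lt.mp fun hlt => ?_)
  have h2 : P.v (Polynomial.aeval u a * Polynomial.aeval u f
      + Polynomial.aeval u b * Polynomial.aeval u (Polynomial.derivative f)) < 1 := by
    refine lt_of_le_of_lt (Valuation.map_add _ _ _) (max_lt ?_ ?_)
    · rw [map_mul]
      calc _ ≤ 1 * P.v (Polynomial.aeval u f) := mul_le_mul_left (v_aeval_le P hu a) _
        _ < 1 := by rwa [one_mul]
    · rw [map_mul]
      calc _ ≤ 1 * P.v (Polynomial.aeval u (Polynomial.derivative f)) :=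
            mul_le_mul_left (v_aeval_le P hu b) _
        _ < 1 := by rwa [one_mul]
  rw [h1] at h2
  exact lt_irrefl _ h2

/-- a bounded derivation is bounded by its value at a uniformizer; `k` perfect -/
theorem del_le [PerfectField k] (P : Pl k K) (hdeg : degE P ≠ ⊤) (d : Derivation k K K) {N : ℤ}
    (hN : ∀ u : K, P.v u ≤ 1 → P.v (d u) ≤ exp N) {t : K} (ht : P.v t = exp (-1)) {u : K}
    (hu : P.v u ≤ 1) : P.v (d u) ≤ P.v (d t) := by
  have ht0 : t ≠ 0 := by
    rintro rfl; rw [map_zero] at ht; exact exp_ne_zero ht.symm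
  by_contra hcon
  rw [not_le] at hcon
  let T : ℤ → Prop := fun n => ∃ u : K, P.v u ≤ 1 ∧ P.v (d u) = exp n
  have hexp : ∀ y : K, P.v y ≠ 0 → P.v y = exp (log (P.v y)) := fun y hy => (exp_log hy).symm
  have hne : ∃ n, T n := ⟨_, u, hu, hexp _ (ne_of_gt (lt_of_le_of_lt zero_le hcon))⟩
  have hbdd : ∃ b, ∀ n, T n → n ≤ b := by
    refine ⟨N, ?_⟩
    rintro n ⟨y, hy, hyn⟩
    have := hN y hy
    rwa [hyn, exp_le_exp] at this
  obtain ⟨n0, ⟨u1, hu1, hu1n⟩, hmax⟩ := Int.exists_greatest_of_bdd hbdd hne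
  have hall : ∀ y : K, P.v y ≤ 1 → P.v (d y) ≤ exp n0 := by
    intro y hy
    by_cases h0 : P.v (d y) = 0
    · rw [h0]; exact zero_le
    · rw [hexp _ h0, exp_le_exp]
      exact hmax _ ⟨y, hy, hexp _ h0⟩
  have hlt : P.v (d t) < exp n0 := hcon.trans_le (hall u hu)
  obtain ⟨f, hf1, hf2⟩ := exists_sep_poly P hdeg hu1
  let w := Polynomial.aeval u1 f / t
  have hw : P.v w ≤ 1 := by
    simp only [w]
    rw [map_div₀, ht]
    rw [lt_one_iff] at hf1
    exact div_le_one_of_le₀ hf1 zero_le
  have h1 : Polynomial.aeval u1 f = t * w := by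
    simp only [w]; rw [mul_div_cancel₀ _ ht0]
  have h2 : P.v (d (Polynomial.aeval u1 f)) = exp n0 := by
    rw [Derivation.map_aeval, smul_eq_mul, map_mul, hf2, one_mul, hu1n]
  rw [h1, Derivation.leibniz, smul_eq_mul, smul_eq_mul] at h2
  have h3 : P.v (t * d w + w * d t) < exp n0 := by
    refine lt_of_le_of_lt (Valuation.map_add _ _ _) (max_lt ?_ ?_)
    · rw [map_mul, ht]
      calc _ ≤ exp (-1) * exp n0 := mul_le_mul_right (hall w hw) _
        _ = exp (n0 - 1) := by rw [← exp_add]; congr 1; ring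
        _ < exp n0 := by rw [exp_lt_exp]; omega
    · rw [map_mul]
      calc _ ≤ 1 * P.v (d t) := mul_le_mul_left hw _
        _ < exp n0 := by rwa [one_mul]
  rw [h2] at h3
  exact lt_irrefl _ h3

end Local

end Crest.Agent.R013.RR14_948
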