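import Mathlib
import Crest.Agent.R013.RR14_948

/-!
# R013 / RR15: the order of `dX` at every place (helper948)
-/

set_option autoImplicit false
set_option linter.all false

namespace Crest.Agent.R013.RR15_948

open Polynomial WithZero Module IsDedekindDomain nonZeroDivisors
open Crest.Agent.R013.RR1_948 Crest.Agent.R013.RR2_948 Crest.Agent.R013.RR3_948
open Crest.Agent.R013.RR4_948 Crest.Agent.R013.RR5_948 Crest.Agent.R013.RR6_948
open Crest.Agent.R013.RR7_948 Crest.Agent.R013.RR8_948 Crest.Agent.R013.RR9_948
open Crest.Agent.R013.RR11_948 Crest.Agent.R013.RR12_948 Crest.Agent.R013.RR14_948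
open Crest.NumberTheoryR.Sect
open scoped NNReal

section Bounded

variable {k : Type*} [Field k] {K : Type*} [Field K] [Algebra k K]
  {A : Type*} [CommRing A] [IsDedekindDomain A] [Algebra A K] [IsFractionRing A K]
  {S : Type*} [CommRing S] [Algebra S A] [Module.Finite S A] [Algebra S K] [IsScalarTower S A K]

theorem exists_bound (w : HeightOneSpectrum A) (d : Derivation k K K)
    (hS : ∀ s : S, w.valuation K (d (algebraMap S K s)) ≤ 1) :
    ∃ N : ℤ, ∀ u : K, w.valuation K u ≤ 1 → w.valuation K (d u) ≤ exp N := by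
  classical
  obtain ⟨G, hG⟩ := (Module.Finite.fg_top : (⊤ : Submodule S A).FG)
  obtain ⟨N, hN0, hN⟩ : ∃ N : ℤ, 0 ≤ N ∧ ∀ g ∈ G, w.valuation K (d (algebraMap A K g)) ≤ exp N := by
    refine ⟨∑ g ∈ G, |log (w.valuation K (d (algebraMap A K g)))|,
      Finset.sum_nonneg fun _ _ => abs_nonneg _, fun g hg => ?_⟩
    refine le_exp_log.trans (exp_le_exp.mpr ?_)
    exact (le_abs_self _).trans (Finset.single_le_sum
      (f := fun g => |log (w.valuation K (d (algebraMap A K g)))|) (fun _ _ => abs_nonneg _) hg)
  have h1N : (1 : ℤᵐ⁰) ≤ exp N := by rw [← exp_zero, exp_le_exp]; exact hN0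
  have hA : ∀ a : A, w.valuation K (d (algebraMap A K a)) ≤ exp N := by
    intro a
    have ha : a ∈ Submodule.span S (G : Set A) := by rw [hG]; trivial
    induction ha using Submodule.span_induction with
    | mem x hx => exact hN x hx
    | zero => simp
    | add x y _ _ hx hy =>
      rw [map_add, map_add]
      exact (Valuation.map_add _ _ _).trans (max_le hx hy)
    | smul s x _ hx =>
      have h1 : algebraMap A K (s • x) = algebraMap S K s * algebraMap A K x := by
        rw [Algebra.smul_def, map_mul, ← IsScalarTower.algebraMap_apply]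
      rw [h1, Derivation.leibniz, smul_eq_mul, smul_eq_mul]
      have hs : w.valuation K (algebraMap S K s) ≤ 1 := by
        rw [IsScalarTower.algebraMap_apply S A K]; exact w.valuation_le_one _
      have hx' : w.valuation K (algebraMap A K x) ≤ 1 := w.valuation_le_one _
      refine (Valuation.map_add _ _ _).trans (max_le ?_ ?_)
      · rw [map_mul]
        calc _ ≤ 1 * exp N := mul_le_mul' hs hx
          _ = exp N := one_mul _
      · rw [map_mul]
        calc _ ≤ 1 * 1 := mul_le_mul' hx' (hS s)
          _ ≤ exp N := by rw [one_mul]; exact h1N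
  refine ⟨N, fun u hu => ?_⟩
  obtain ⟨n, b, hnb⟩ := w.exists_primeCompl_mul_eq_of_integer u hu
  have hb : w.valuation K (algebraMap A K (b : A)) = 1 := by
    rw [HeightOneSpectrum.valuation_of_algebraMap]
    exact (w.intValuation_eq_one_iff_mem_primeCompl _).mpr b.2
  have h1 := congrArg d hnb
  rw [Derivation.leibniz, smul_eq_mul, smul_eq_mul] at h1
  have h2 : algebraMap A K (b : A) * d u = d (algebraMap A K n) - u * d (algebraMap A K (b : A)) := by
    rw [← h1]; ring
  have h3 : w.valuation K (d u) = w.valuation K (algebraMap A K (b : A) * d u) := by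
    rw [map_mul, hb, one_mul]
  rw [h3, h2]
  refine (Valuation.map_sub _ _ _).trans (max_le (hA n) ?_)
  rw [map_mul]
  calc _ ≤ 1 * exp N := mul_le_mul' hu (hA _)
    _ = exp N := one_mul _

end Bounded

section Values

variable {k : Type*} [Field k] {K : Type*} [Field K] [Algebra k K]

/-- power rule: if `π = t^e u`, `t` uniformizer, `u` unit at `P`, `char k = 0`, then
`v(dπ) = exp(-(e-1)) v(dt)` -/
theorem v_del_pow [CharZero k] (P : Pl k K) (d : Derivation k K K) {t : K}
    (ht : P.v t = exp (-1)) (hd : ∀ u : K, P.v u ≤ 1 → P.v (d u) ≤ P.v (d t)) (hdt : d t ≠ 0)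
    {π : K} {e : ℤ} (hπ : P.v π = exp (-e)) (he : e ≠ 0) :
    P.v (d π) = exp (-(e - 1)) * P.v (d t) := by
  have ht0 : t ≠ 0 := by
    rintro rfl; rw [map_zero] at ht; exact exp_ne_zero ht.symm
  have hdt' : 0 < P.v (d t) := by rw [Valuation.pos_iff]; exact hdt
  set u := π * t ^ (-e) with hu
  have hvu : P.v u = 1 := by
    rw [hu, map_mul, map_zpow₀, hπ, ht, ← exp_zsmul, ← exp_add]; simp
  have hπ' : π = t ^ e * u := by
    rw [hu, mul_comm π, ← mul_assoc, ← zpow_add₀ ht0]; simp
  have h1 : d π = t ^ e * d u + u * ((e : K) * (t ^ (e - 1) * d t)) := by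
    conv_lhs => rw [hπ']
    rw [Derivation.leibniz, Derivation.leibniz_zpow, smul_eq_mul, smul_eq_mul, smul_eq_mul,
      zsmul_eq_mul]
  have hve : P.v (e : K) = 1 := by
    have : (e : K) = algebraMap k K (e : k) := by simp
    rw [this]
    exact P.const _ (by exact_mod_cast he)
  have hA : P.v (u * ((e : K) * (t ^ (e - 1) * d t))) = exp (-(e - 1)) * P.v (d t) := by
    rw [map_mul, hvu, one_mul, map_mul, hve, one_mul, map_mul, map_zpow₀, ht, ← exp_zsmul]
    congr 2
    simp
  have hB : P.v (t ^ e * d u) < exp (-(e - 1)) * P.v (d t) := by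
    rw [map_mul, map_zpow₀, ht, ← exp_zsmul]
    calc exp (e • (-1)) * P.v (d u) ≤ exp (e • (-1)) * P.v (d t) := mul_le_mul_right (hd u hvu.le) _
      _ < exp (-(e - 1)) * P.v (d t) := by
        apply mul_lt_mul_of_pos_right _ hdt'
        rw [exp_lt_exp, smul_eq_mul]
        omega
  rw [h1, Valuation.map_add_eq_of_lt_right, hA]
  rw [hA]; exact hB

end Values

section Global

variable {k : Type*} [Field k] {K : Type*} [Field K] [Algebra k K] [Algebra (RatFunc k) K]
  [IsScalarTower k (RatFunc k) K] [FiniteDimensional (RatFunc k) K]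
  [Algebra.IsSeparable (RatFunc k) K]

theorem algebraMap_poly (p : k[X]) :
    algebraMap (RatFunc k) K (algebraMap k[X] (RatFunc k) p) = Polynomial.aeval (xK k K) p := by
  induction p using Polynomial.induction_on' with
  | add p q hp hq => rw [map_add, map_add, map_add, hp, hq]
  | monomial n c =>
    rw [← Polynomial.C_mul_X_pow_eq_monomial]
    simp only [map_mul, map_pow, RatFunc.algebraMap_C, RatFunc.algebraMap_X, Polynomial.aeval_C,
      Polynomial.aeval_X]
    rw [← algebraMap_eq_C, ← IsScalarTower.algebraMap_apply]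
    rfl

theorem del_poly (p : k[X]) :
    del k K (Polynomial.aeval (xK k K) p) = Polynomial.aeval (xK k K) (Polynomial.derivative p) := by
  rw [Derivation.map_aeval, del_xK, smul_eq_mul, mul_one]

/-- the derivation is bounded at every place -/
theorem del_bounded (P : Pl k K) :
    ∃ N : ℤ, ∀ u : K, P.v u ≤ 1 → P.v (del k K u) ≤ exp N := by
  use_charts k, K
  rcases le_or_gt (P.v (xK k K)) 1 with h | h
  · obtain ⟨w, rfl⟩ := exists_ofH₀ (A₀ := integralClosure (Polynomial k) K) P h
    haveI : Module.Finite (Polynomial k) (integralClosure (Polynomial k) K) :=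
      IsIntegralClosure.finite (Polynomial k) (RatFunc k) K _
    apply exists_bound (S := Polynomial k) w (del k K)
    intro s
    rw [IsScalarTower.algebraMap_apply k[X] (RatFunc k) K, algebraMap_poly, del_poly]
    exact v_aeval_le (ofH w) h _
  · obtain ⟨w, rfl⟩ := exists_ofH₁ (A₁ := integralClosure (Rinf k) K) P h
    haveI : Module.Finite (Rinf k) (integralClosure (Rinf k) K) :=
      IsIntegralClosure.finite (Rinf k) (RatFunc k) K _
    apply exists_bound (S := Rinf k) w (del k K)
    intro s
    set P : Pl k K := ofH w with hP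
    show P.v _ ≤ 1
    have hs : (algebraMap (Rinf k) K s) = algebraMap (RatFunc k) K (s : RatFunc k) := rfl
    rw [hs]
    obtain ⟨f, hf⟩ := s
    show P.v (del k K (algebraMap (RatFunc k) K f)) ≤ 1
    have htriv : P.v.IsTrivialOn k := ⟨P.const⟩
    -- `f = p / q`
    have hq0 : f.denom ≠ 0 := f.denom_ne_zero
    have hf' : algebraMap (RatFunc k) K f
        = Polynomial.aeval (xK k K) f.num / Polynomial.aeval (xK k K) f.denom := by
      rw [← algebraMap_poly, ← algebraMap_poly, ← map_div₀, RatFunc.num_div_denom]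
    set c := P.v (xK k K) with hc
    have hc0 : 0 < c := lt_trans zero_lt_one h
    have hval : ∀ p : k[X], p ≠ 0 → P.v (Polynomial.aeval (xK k K) p) = c ^ p.natDegree :=
      fun p hp => Polynomial.valuation_aeval_eq_valuation_X_pow_natDegree_of_one_lt_valuation_X _ h hp
    have hder : ∀ p : k[X], P.v (Polynomial.aeval (xK k K) (Polynomial.derivative p)) * c
        ≤ c ^ p.natDegree := by
      intro p
      by_cases h0 : Polynomial.derivative p = 0
      · rw [h0]; simp
      · rw [hval _ h0, ← pow_succ]
        apply pow_le_pow_right₀ h.le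
        have : (Polynomial.derivative p).natDegree < p.natDegree := by
          apply Polynomial.natDegree_derivative_lt
          intro h1
          apply h0
          rw [Polynomial.eq_C_of_natDegree_eq_zero h1]; simp
        omega
    by_cases hp0 : f.num = 0
    · have : f = 0 := RatFunc.num_eq_zero_iff.mp hp0
      rw [this]; simp
    rw [hf', Derivation.leibniz_div, smul_eq_mul, smul_eq_mul, smul_eq_mul, del_poly, del_poly]
    -- degrees
    have hdeg : f.num.natDegree ≤ f.denom.natDegree := by
      have h1 : vinf k f ≤ 1 := hf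
      have h2 : vinf k f = vinf k (algebraMap k[X] (RatFunc k) f.num)
          / vinf k (algebraMap k[X] (RatFunc k) f.denom) := by
        rw [← map_div₀, RatFunc.num_div_denom]
      rw [h2, vinf_poly k hp0, vinf_poly k hq0, ← exp_sub, ← exp_zero, exp_le_exp] at h1
      omega
    set m := f.num.natDegree with hm
    set n := f.denom.natDegree with hn
    have hX : P.v (Polynomial.aeval (xK k K) f.denom *
          Polynomial.aeval (xK k K) (Polynomial.derivative f.num) -
        Polynomial.aeval (xK k K) f.num *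
          Polynomial.aeval (xK k K) (Polynomial.derivative f.denom)) * c ≤ c ^ (m + n) := by
      have h3 : ∀ a b : K, P.v (a - b) * c ≤ max (P.v a * c) (P.v b * c) := by
        intro a b
        have h5 := Valuation.map_sub P.v a b
        rcases max_choice (P.v a) (P.v b) with hm | hm
        · rw [hm] at h5; exact le_max_of_le_left (mul_le_mul_left h5 _)
        · rw [hm] at h5; exact le_max_of_le_right (mul_le_mul_left h5 _)
      refine (h3 _ _).trans (max_le ?_ ?_)
      · rw [map_mul, mul_assoc, hval _ hq0, add_comm m n, pow_add]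
        exact mul_le_mul_right (hder _) _
      · rw [map_mul, mul_assoc, hval _ hp0, pow_add]
        exact mul_le_mul_right (hder _) _
    rw [map_mul, map_pow, map_inv₀, hval _ hq0]
    have h4 : P.v (Polynomial.aeval (xK k K) f.denom *
          Polynomial.aeval (xK k K) (Polynomial.derivative f.num) -
        Polynomial.aeval (xK k K) f.num *
          Polynomial.aeval (xK k K) (Polynomial.derivative f.denom)) ≤ c ^ (m + n) := by
      refine le_trans ?_ hX
      exact le_mul_of_one_le_right' h.le
    calc ((c ^ n)⁻¹) ^ 2 * _ ≤ ((c ^ n)⁻¹) ^ 2 * c ^ (m + n) := mul_le_mul_right h4 _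
      _ ≤ ((c ^ n)⁻¹) ^ 2 * c ^ (n + n) :=
          mul_le_mul_right (pow_le_pow_right₀ h.le (by omega)) _
      _ = 1 := by
          rw [pow_add, inv_pow, ← sq]
          exact inv_mul_cancel₀ (pow_ne_zero _ (pow_ne_zero _ hc0.ne'))

/-- `del` is bounded by its value on a uniformizer -/
theorem del_le_uniformizer [PerfectField k] (P : Pl k K) {t : K} (ht : P.v t = exp (-1)) {u : K}
    (hu : P.v u ≤ 1) : P.v (del k K u) ≤ P.v (del k K t) := by
  obtain ⟨N, hN⟩ := del_bounded P
  exact del_le P (by rw [degE_eq]; exact ENat.natCast_ne_top _) (del k K) hN ht hu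

theorem del_uniformizer_ne_zero [PerfectField k] (P : Pl k K) {t : K} (ht : P.v t = exp (-1)) :
    del k K t ≠ 0 := by
  intro h0
  have h1 : ∀ u : K, P.v u ≤ 1 → del k K u = 0 := by
    intro u hu
    have := del_le_uniformizer P ht hu
    rw [h0, map_zero] at this
    exact (Valuation.zero_iff _).mp (le_antisymm this zero_le)
  have h2 : del k K (xK k K) = 0 := by
    rcases le_or_gt (P.v (xK k K)) 1 with h | h
    · exact h1 _ h
    · have h3 : P.v (xK k K)⁻¹ ≤ 1 := by
        rw [map_inv₀]
        exact (inv_lt_one_of_one_lt₀ h).le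
      have h4 := h1 _ h3
      rw [Derivation.leibniz_inv, del_xK, smul_eq_mul, mul_one, neg_eq_zero] at h4
      have h5 : (xK k K)⁻¹ ≠ 0 := inv_ne_zero xK_ne_zero
      exact absurd h4 (pow_ne_zero _ h5)
  rw [del_xK] at h2
  exact one_ne_zero h2

/-- infinite places -/
theorem v_del_infinite [CharZero k] (P : Pl k K) {t : K} (ht : P.v t = exp (-1)) {e : ℤ}
    (he : P.v (xK k K) = exp e) (he0 : 0 < e) : P.v (del k K t) = exp (-e - 1) := by
  have h1 : P.v ((xK k K)⁻¹) = exp (-e) := by rw [map_inv₀, he, ← exp_neg]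
  have h2 := v_del_pow P (del k K) ht (fun u hu => del_le_uniformizer P ht hu)
    (del_uniformizer_ne_zero P ht) h1 he0.ne'
  rw [Derivation.leibniz_inv, del_xK, smul_eq_mul, mul_one, Valuation.map_neg, map_pow, h1,
    ← exp_nsmul] at h2
  have h3 : P.v (del k K t) = exp (e - 1) * (exp (-(e - 1)) * P.v (del k K t)) := by
    rw [← mul_assoc, ← exp_add]; simp
  rw [h3, ← h2, ← exp_add]
  congr 1
  simp
  ring

/-- finite places -/
theorem v_del_finite [CharZero k] (P : Pl k K) {t : K} (ht : P.v t = exp (-1)) {p : k[X]} {e : ℤ}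
    (he : P.v (Polynomial.aeval (xK k K) p) = exp (-e)) (he0 : 0 < e)
    (hp : P.v (Polynomial.aeval (xK k K) (Polynomial.derivative p)) = 1) :
    P.v (del k K t) = exp (e - 1) := by
  have h2 := v_del_pow P (del k K) ht (fun u hu => del_le_uniformizer P ht hu)
    (del_uniformizer_ne_zero P ht) he he0.ne'
  rw [del_poly, hp] at h2
  have h3 : P.v (del k K t) = exp (e - 1) * (exp (-(e - 1)) * P.v (del k K t)) := by
    rw [← mul_assoc, ← exp_add]; simp
  rw [h3, ← h2, mul_one]

end Global

end Crest.Agent.R013.RR15_948
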