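import Mathlib
import Crest.Agent.R013.RR15_948

/-!
# R013 / RR16: the different exponent is `e - 1` in residue characteristic zero (helper948)
-/

set_option autoImplicit false
set_option linter.all false

namespace Crest.Agent.R013.RR16_948

open Polynomial WithZero Module IsDedekindDomain nonZeroDivisors
open Crest.Agent.R013.RR1_948 Crest.Agent.R013.RR2_948 Crest.Agent.R013.RR3_948
open Crest.Agent.R013.RR4_948 Crest.Agent.R013.RR5_948 Crest.Agent.R013.RR6_948

attribute [local instance] FractionRing.liftAlgebra FractionRing.isScalarTower_liftAlgebra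

section Sep

variable (S F K : Type*) (O : Type*) [CommRing S] [IsDomain S] [IsIntegrallyClosed S] [Field F]
  [Algebra S F] [IsFractionRing S F] [Field K] [Algebra F K] [FiniteDimensional F K]
  [Algebra.IsSeparable F K] [Algebra S K] [IsScalarTower S F K]
  [CommRing O] [IsDedekindDomain O] [Algebra S O] [Algebra O K] [IsScalarTower S O K]
  [IsFractionRing O K] [Module.IsTorsionFree S O]

include F K in
theorem isSeparable_fractionRing :
    Algebra.IsSeparable (FractionRing S) (FractionRing O) := by
  have H : RingHom.comp (algebraMap (FractionRing S) (FractionRing O))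
      ↑(FractionRing.algEquiv S F).symm.toRingEquiv =
        RingHom.comp ↑(FractionRing.algEquiv O K).symm.toRingEquiv (algebraMap F K) := by
    apply IsLocalization.ringHom_ext S⁰
    ext
    simp only [RingHom.coe_comp, RingHom.coe_coe,
      AlgEquiv.coe_ringEquiv, Function.comp_apply, AlgEquiv.commutes,
      ← IsScalarTower.algebraMap_apply]
    rw [IsScalarTower.algebraMap_apply S O K, AlgEquiv.commutes, ← IsScalarTower.algebraMap_apply]
  exact Algebra.IsSeparable.of_equiv_equiv _ _ H

end Sep

section NotDvd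

variable {A B : Type*} [CommRing A] [CommRing B] [Algebra A B] [IsDedekindDomain A]
  [IsDedekindDomain B] [Module.IsTorsionFree A B] [Module.Finite A B]

theorem not_dvd_differentIdeal_of_charZero
    [Algebra.IsSeparable (FractionRing A) (FractionRing B)]
    {p : Ideal A} [p.IsMaximal] [CharZero (A ⧸ p)] (P Q : Ideal B) (hPtop : P ≠ ⊤)
    (hPQ : IsCoprime P Q) (hP : P * Q = Ideal.map (algebraMap A B) p) :
    ¬ P ∣ differentIdeal A B := by
  let _ : Field (A ⧸ p) := Ideal.Quotient.field p
  let _ : Algebra (A ⧸ p) (B ⧸ Q) := Ideal.Quotient.algebraQuotientOfLEComap (by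
      rw [← Ideal.map_le_iff_le_comap, ← hP]
      exact Ideal.mul_le_right)
  have : IsScalarTower A (A ⧸ p) (B ⧸ Q) := .of_algebraMap_eq' rfl
  have : Module.Finite (A ⧸ p) (B ⧸ Q) :=
    Module.Finite.of_restrictScalars_finite A (A ⧸ p) (B ⧸ Q)
  let _ : Algebra (A ⧸ p) (B ⧸ P) := Ideal.Quotient.algebraQuotientOfLEComap (by
      rw [← Ideal.map_le_iff_le_comap, ← hP]
      exact Ideal.mul_le_left)
  have : IsScalarTower A (A ⧸ p) (B ⧸ P) := .of_algebraMap_eq' rfl
  have : Module.Finite (A ⧸ p) (B ⧸ P) :=
    Module.Finite.of_restrictScalars_finite A (A ⧸ p) (B ⧸ P)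
  let e : (B ⧸ p.map (algebraMap A B)) ≃ₐ[A ⧸ p] ((B ⧸ P) × B ⧸ Q) :=
    { __ := (Ideal.quotEquivOfEq hP.symm).trans (Ideal.quotientMulEquivQuotientProd P Q hPQ),
      commutes' := Quotient.ind fun _ ↦ rfl }
  have hnt : Nontrivial (B ⧸ P) := Ideal.Quotient.nontrivial_iff.mpr hPtop
  have hx : Algebra.trace (A ⧸ p) (B ⧸ P) 1 ≠ 0 := by
    have h0 := Algebra.trace_algebraMap (R := A ⧸ p) (S := B ⧸ P) 1
    rw [map_one] at h0
    rw [h0, nsmul_one]
    have h1 : 0 < finrank (A ⧸ p) (B ⧸ P) := Module.finrank_pos
    exact_mod_cast h1.ne'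
  obtain ⟨y, hy⟩ := Ideal.Quotient.mk_surjective (e.symm (1, 0))
  refine not_dvd_differentIdeal_of_intTrace_not_mem A P Q hP y ?_ ?_
  · have := congr((e $hy).2)
    simp at this
    simpa [e, Ideal.Quotient.eq_zero_iff_mem] using this
  · rw [← Ideal.Quotient.eq_zero_iff_mem, ← Algebra.trace_quotient_eq_of_isDedekindDomain,
      hy, Algebra.trace_eq_of_algEquiv, Algebra.trace_prod_apply]
    simpa using hx

end NotDvd

section Exponent

variable (S F K : Type*) {O : Type*} [CommRing S] [IsDomain S] [IsPrincipalIdealRing S] [Field F]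
  [Algebra S F] [IsFractionRing S F] [Field K] [Algebra F K] [FiniteDimensional F K]
  [Algebra.IsSeparable F K] [Algebra S K] [IsScalarTower S F K]
  [CommRing O] [IsDedekindDomain O] [Algebra S O] [Algebra O K] [IsScalarTower S O K]
  [IsIntegralClosure O S K] [IsFractionRing O K]

/-- the different exponent at a place with residue characteristic zero: if `π` generates the prime
of `S` below `w` and `w(π) = exp (-e)` then the exponent is `e - 1`. -/
theorem diffD_eq (w : HeightOneSpectrum O) {π : S} (hπ : Prime π)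
    [CharZero (S ⧸ Ideal.span {π})] {e : ℕ} (he : 1 ≤ e)
    (hv : w.valuation K (algebraMap S K π) = exp (-(e : ℤ))) :
    diffD S F K O w = e - 1 := by
  classical
  have hinj : Function.Injective (algebraMap S O) := by
    have h1 : Function.Injective (algebraMap S K) := by
      rw [IsScalarTower.algebraMap_eq S F K]
      exact (algebraMap F K).injective.comp (IsFractionRing.injective S F)
    rw [IsScalarTower.algebraMap_eq S O K] at h1
    exact Function.Injective.of_comp h1
  haveI : FaithfulSMul S O := (faithfulSMul_iff_algebraMap_injective S O).mpr hinj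
  haveI : Module.IsTorsionFree S O := inferInstance
  haveI : Module.Finite S O := IsIntegralClosure.finite S F K O
  haveI := isSeparable_fractionRing S F K O
  haveI hmax : (Ideal.span {π}).IsMaximal := PrincipalIdealRing.isMaximal_of_irreducible hπ.irreducible
  have hπ0 : π ≠ 0 := hπ.ne_zero
  have hspan0 : Ideal.span {π} ≠ ⊥ := by rwa [ne_eq, Ideal.span_singleton_eq_bot]
  have hπO0 : algebraMap S O π ≠ 0 := by
    intro h; apply hπ0; exact hinj (by rw [h, map_zero])
  have hmap : Ideal.map (algebraMap S O) (Ideal.span {π}) = Ideal.span {algebraMap S O π} := by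
    rw [Ideal.map_span, Set.image_singleton]
  -- `w^e` exactly divides `π`
  have hv' : w.intValuation (algebraMap S O π) = exp (-(e : ℤ)) := by
    rw [← HeightOneSpectrum.valuation_of_algebraMap (K := K), ← hv,
      IsScalarTower.algebraMap_apply S O K]
  have hdvd : w.asIdeal ^ e ∣ Ideal.span {algebraMap S O π} := by
    rw [← w.intValuation_le_pow_iff_dvd, hv']
  have hndvd : ¬ w.asIdeal ^ (e + 1) ∣ Ideal.span {algebraMap S O π} := by
    rw [← w.intValuation_le_pow_iff_dvd, hv', exp_le_exp]
    push_cast
    omega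
  obtain ⟨Q, hQ⟩ := hdvd
  have hQw : ¬ w.asIdeal ∣ Q := by
    rintro ⟨Q', rfl⟩
    apply hndvd
    rw [hQ, pow_succ]
    exact mul_dvd_mul_left _ (dvd_mul_right _ _)
  have hcop : IsCoprime (w.asIdeal ^ e) Q := by
    apply IsCoprime.pow_left
    rw [Ideal.isCoprime_iff_sup_eq]
    have hm : w.asIdeal.IsMaximal := w.isMaximal
    by_contra hne
    have h := hm.eq_of_le hne le_sup_left
    apply hQw
    rw [Ideal.dvd_iff_le, h]
    exact le_sup_right
  have h1 : w.asIdeal ^ (e - 1) ∣ differentIdeal S O :=
    pow_sub_one_dvd_differentIdeal S w.asIdeal e hspan0 (by rw [hmap, hQ]; exact dvd_mul_right _ _)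
  have h2 : ¬ w.asIdeal ^ e ∣ differentIdeal S O := by
    refine not_dvd_differentIdeal_of_charZero (p := Ideal.span {π}) (w.asIdeal ^ e) Q ?_ hcop
      (by rw [hmap, hQ])
    intro h
    have h3 : w.asIdeal ^ e ≤ w.asIdeal := Ideal.pow_le_self (by omega)
    rw [h, top_le_iff] at h3
    exact w.isPrime.ne_top h3
  have hD0 : differentIdeal S O ≠ ⊥ := differentIdeal_ne_bot
  rw [diffD_apply, ← FractionalIdeal.count_inv, ← coeIdeal_differentIdeal S F K O,
    FractionalIdeal.count_coe K w hD0]
  have h3 : Associates.mk (differentIdeal S O) ≠ 0 := Associates.mk_ne_zero.mpr hD0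
  have h4 := w.associates_irreducible
  have h5 : e - 1 ≤ (Associates.mk w.asIdeal).count (Associates.mk (differentIdeal S O)).factors := by
    rw [← Associates.prime_pow_dvd_iff_le h3 h4, ← Associates.mk_pow, Associates.mk_le_mk_iff_dvd]
    exact h1
  have h6 : ¬ e ≤ (Associates.mk w.asIdeal).count (Associates.mk (differentIdeal S O)).factors := by
    rw [← Associates.prime_pow_dvd_iff_le h3 h4, ← Associates.mk_pow, Associates.mk_le_mk_iff_dvd]
    exact h2
  have h7 : (Associates.mk w.asIdeal).count (Associates.mk (differentIdeal S O)).factors = e - 1 := by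
    omega
  rw [h7]
  omega

end Exponent

end Crest.Agent.R013.RR16_948
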