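import Mathlib
import Crest.Agent.R013.RR16_948

/-!
# R013 / RR17: in characteristic zero `canD` is the divisor of `dX`; regular differentials; genus
(helper948)
-/

set_option autoImplicit false
set_option linter.all false

namespace Crest.Agent.R013.RR17_948

open Polynomial WithZero Module IsDedekindDomain nonZeroDivisors
open Crest.Agent.R013.RR1_948 Crest.Agent.R013.RR2_948 Crest.Agent.R013.RR3_948
open Crest.Agent.R013.RR4_948 Crest.Agent.R013.RR5_948 Crest.Agent.R013.RR6_948
open Crest.Agent.R013.RR7_948 Crest.Agent.R013.RR8_948 Crest.Agent.R013.RR9_948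
open Crest.Agent.R013.RR11_948 Crest.Agent.R013.RR12_948 Crest.Agent.R013.RR13_948
open Crest.Agent.R013.RR14_948 Crest.Agent.R013.RR15_948 Crest.Agent.R013.RR16_948
open Crest.NumberTheoryR.Sect
open scoped NNReal

section Rinf

variable (k : Type*) [Field k]

/-- the uniformizer `1/X` -/
noncomputable def piInf : Rinf k := ⟨RatFunc.X⁻¹, by
  rw [mem_Rinf, ← zpow_neg_one, vinf_X_zpow, ← exp_zero, exp_le_exp]; norm_num⟩

theorem piInf_dvd_iff (s : Rinf k) : piInf k ∣ s ↔ vinf k (s : RatFunc k) < 1 := by
  have hX : (RatFunc.X : RatFunc k) ≠ 0 := RatFunc.X_ne_zero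
  constructor
  · rintro ⟨r, rfl⟩
    have h1 : ((piInf k * r : Rinf k) : RatFunc k) = RatFunc.X⁻¹ * (r : RatFunc k) := rfl
    rw [h1, map_mul, ← zpow_neg_one, vinf_X_zpow, lt_one_iff]
    calc _ ≤ exp (-1) * 1 := mul_le_mul_right r.2 _
      _ = exp (-1) := mul_one _
  · intro h
    rw [lt_one_iff] at h
    have h2 : (s : RatFunc k) * RatFunc.X ∈ Rinf k := by
      rw [mem_Rinf, map_mul, vinf_X]
      calc _ ≤ exp (-1) * exp 1 := mul_le_mul_left h _
        _ = 1 := by rw [← exp_add]; simp
    refine ⟨⟨_, h2⟩, Subtype.ext ?_⟩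
    show (s : RatFunc k) = RatFunc.X⁻¹ * ((s : RatFunc k) * RatFunc.X)
    field_simp

theorem prime_piInf : Prime (piInf k) := by
  refine ⟨?_, ?_, ?_⟩
  · intro h
    have h1 := congrArg (Subtype.val) h
    have h2 : (RatFunc.X : RatFunc k)⁻¹ = 0 := h1
    exact inv_ne_zero RatFunc.X_ne_zero h2
  · intro h
    have h1 : piInf k ∣ 1 := h.dvd
    rw [piInf_dvd_iff] at h1
    simp at h1
  · intro a b hab
    rw [piInf_dvd_iff] at hab
    rw [piInf_dvd_iff, piInf_dvd_iff]
    by_contra hcon
    push Not at hcon
    have h1 := le_antisymm ((mem_Rinf k).mp a.2) hcon.1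
    have h2 := le_antisymm ((mem_Rinf k).mp b.2) hcon.2
    have h3 : ((a * b : Rinf k) : RatFunc k) = (a : RatFunc k) * (b : RatFunc k) := rfl
    rw [h3, map_mul, h1, h2, mul_one] at hab
    exact lt_irrefl _ hab

instance [CharZero k] : CharZero (Rinf k ⧸ Ideal.span {piInf k}) := by
  haveI : Nontrivial (Rinf k ⧸ Ideal.span {piInf k}) := by
    apply Ideal.Quotient.nontrivial_iff.mpr
    rw [ne_eq, Ideal.span_singleton_eq_top]
    exact (prime_piInf k).not_unit
  let φ : k →+* (Rinf k ⧸ Ideal.span {piInf k}) :=
    (Ideal.Quotient.mk _).comp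
      ((RatFunc.C : k →+* RatFunc k).codRestrict (Rinf k) fun c => (mem_Rinf k).mpr (vinf_C_le k c))
  exact charZero_of_injective_ringHom (f := φ) φ.injective

end Rinf

section Main

variable {k : Type*} [Field k] [CharZero k] {K : Type*} [Field K] [Algebra k K]
  [Algebra (RatFunc k) K] [IsScalarTower k (RatFunc k) K] [FiniteDimensional (RatFunc k) K]

theorem v_del_eq (P : Pl k K) {t : K} (ht : P.v t = exp (-1)) :
    P.v (del k K t) = exp (canD k K P) := by
  use_charts k, K
  have hcan : canD k K = WD k K (integralClosure (Polynomial k) K) (integralClosure (Rinf k) K) := rfl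
  rcases le_or_gt (P.v (xK k K)) 1 with h | h
  · obtain ⟨w, rfl⟩ := exists_ofH₀ (A₀ := integralClosure (Polynomial k) K) P h
    rw [hcan, WD_ofH₀]
    -- the prime below
    let p : Ideal k[X] := w.asIdeal.comap (algebraMap k[X] (integralClosure (Polynomial k) K))
    have hinj : Function.Injective (algebraMap k[X] (integralClosure (Polynomial k) K)) := by
      have h1 : Function.Injective (algebraMap k[X] K) := by
        rw [IsScalarTower.algebraMap_eq k[X] (RatFunc k) K]
        exact (algebraMap (RatFunc k) K).injective.comp (IsFractionRing.injective k[X] (RatFunc k))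
      rw [IsScalarTower.algebraMap_eq k[X] (integralClosure (Polynomial k) K) K,
        RingHom.coe_comp] at h1
      exact Function.Injective.of_comp h1
    haveI : FaithfulSMul k[X] (integralClosure (Polynomial k) K) :=
      (faithfulSMul_iff_algebraMap_injective _ _).mpr hinj
    have hp : p.IsPrime := Ideal.comap_isPrime _ _
    have hp0 : p ≠ ⊥ := by
      intro h0
      haveI : w.asIdeal.IsPrime := w.isPrime
      have := Ideal.eq_bot_of_comap_eq_bot (R := k[X]) (S := integralClosure (Polynomial k) K)
        (I := w.asIdeal) h0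
      exact w.ne_bot this
    let π : k[X] := Submodule.IsPrincipal.generator p
    have hspan : Ideal.span {π} = p := Ideal.span_singleton_generator p
    have hπp : Prime π := by
      have := Submodule.IsPrincipal.prime_generator_of_isPrime p hp0
      exact this
    have hval : ∀ q : k[X], w.valuation K (Polynomial.aeval (xK k K) q) < 1 ↔ π ∣ q := by
      intro q
      have h1 : Polynomial.aeval (xK k K) q =
          algebraMap (integralClosure (Polynomial k) K) K
            (algebraMap k[X] (integralClosure (Polynomial k) K) q) := by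
        rw [← algebraMap_poly, ← IsScalarTower.algebraMap_apply, ← IsScalarTower.algebraMap_apply]
      rw [h1, HeightOneSpectrum.valuation_lt_one_iff_mem]
      rw [← Ideal.mem_span_singleton, hspan]
      rfl
    have hder : ¬ π ∣ Polynomial.derivative π := by
      intro hdvd
      have hdeg : π.natDegree ≠ 0 := by
        intro h0
        apply hπp.not_unit
        rw [Polynomial.eq_C_of_natDegree_eq_zero h0] at hπp ⊢
        exact Polynomial.isUnit_C.mpr (Polynomial.C_ne_zero.mp hπp.ne_zero).isUnit
      have h1 : Polynomial.derivative π ≠ 0 := by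
        intro h0
        exact hdeg (Polynomial.natDegree_eq_zero_of_derivative_eq_zero h0)
      have h2 := Polynomial.natDegree_le_of_dvd hdvd h1
      have h3 := Polynomial.natDegree_derivative_lt hdeg
      omega
    have hπ1 : w.valuation K (Polynomial.aeval (xK k K) π) < 1 := (hval π).mpr dvd_rfl
    have hπne : Polynomial.aeval (xK k K) π ≠ 0 := by
      rw [← algebraMap_poly]
      rw [ne_eq, FaithfulSMul.algebraMap_eq_zero_iff, FaithfulSMul.algebraMap_eq_zero_iff]
      exact hπp.ne_zero
    obtain ⟨e, he⟩ : ∃ e : ℕ, 1 ≤ e ∧ w.valuation K (Polynomial.aeval (xK k K) π) = exp (-(e : ℤ)) := by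
      have h1 : w.valuation K (Polynomial.aeval (xK k K) π)
          = exp (log (w.valuation K (Polynomial.aeval (xK k K) π))) :=
        (exp_log ((Valuation.ne_zero_iff _).mpr hπne)).symm
      rw [h1, ← exp_zero, exp_lt_exp] at hπ1
      refine ⟨(-log (w.valuation K (Polynomial.aeval (xK k K) π))).toNat, by omega, ?_⟩
      rw [Int.toNat_of_nonneg (by omega), neg_neg]
      exact h1
    have hder1 : (ofH w : Pl k K).v (Polynomial.aeval (xK k K) (Polynomial.derivative π)) = 1 := by
      refine le_antisymm (v_aeval_le (ofH w) h _) (not_lt.mp fun hlt => hder ((hval _).mp hlt))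
    haveI : CharZero (k[X] ⧸ Ideal.span {π}) := by
      haveI : Nontrivial (k[X] ⧸ Ideal.span {π}) := by
        apply Ideal.Quotient.nontrivial_iff.mpr
        rw [ne_eq, Ideal.span_singleton_eq_top]
        exact hπp.not_unit
      let φ : k →+* (k[X] ⧸ Ideal.span {π}) := (Ideal.Quotient.mk _).comp Polynomial.C
      exact charZero_of_injective_ringHom (f := φ) φ.injective
    rw [diffD_eq k[X] (RatFunc k) K w hπp he.1 (by
      rw [IsScalarTower.algebraMap_apply k[X] (RatFunc k) K, algebraMap_poly]
      exact he.2)]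
    exact v_del_finite (ofH w) ht he.2 (by have := he.1; omega) hder1
  · obtain ⟨w, rfl⟩ := exists_ofH₁ (A₁ := integralClosure (Rinf k) K) P h
    rw [hcan, WD_ofH₁]
    have hpole := poleX_spec (k := k) (K := K) (integralClosure (Rinf k) K) w
    have hpos : 0 < poleX k K (integralClosure (Rinf k) K) w := by
      rw [hpole, ← exp_zero, exp_lt_exp] at h
      exact h
    obtain ⟨e, he⟩ : ∃ e : ℕ, poleX k K (integralClosure (Rinf k) K) w = e :=
      ⟨_, (Int.toNat_of_nonneg hpos.le).symm⟩
    rw [he] at hpole hpos ⊢
    rw [diffD_eq (Rinf k) (RatFunc k) K w (prime_piInf k) (e := e) (by omega) (by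
      have h1 : algebraMap (Rinf k) K (piInf k) = (xK k K)⁻¹ := by
        show algebraMap (RatFunc k) K (RatFunc.X⁻¹) = _
        rw [map_inv₀]; rfl
      rw [h1, map_inv₀, exp_neg]
      exact congrArg (fun y => y⁻¹) hpole)]
    rw [v_del_infinite (ofH w) ht hpole hpos]
    congr 1
    ring

/-- the regularity of `g dX` at a place -/
theorem isRegularAt_iff {P : Pl k K} {v : Valuation K ℝ≥0} (h : P.v.IsEquiv v) (g : K) :
    IsRegularAt k K v (g • KaehlerDifferential.D k K (xK k K)) ↔ P.v g ≤ exp (canD k K P) := by
  constructor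
  · rintro ⟨t, f, ht, hf, hω⟩
    rw [isUniformizerAt_iff h] at ht
    rw [D_eq k K t, smul_smul] at hω
    have h1 : g = f * del k K t := by
      have h2 : (g - f * del k K t) • KaehlerDifferential.D k K (xK k K) = 0 := by
        rw [sub_smul, hω, sub_self]
      rcases smul_eq_zero.mp h2 with h3 | h3
      · exact sub_eq_zero.mp h3
      · exact absurd h3 (D_xK_ne_zero k K)
    rw [h1, map_mul, v_del_eq P ht]
    rw [← h.le_one_iff_le_one] at hf
    calc _ ≤ 1 * exp (canD k K P) := mul_le_mul_left hf _
      _ = _ := one_mul _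
  · intro hg
    obtain ⟨t, ht0, ht⟩ := exists_v_eq P (-1)
    have hdt : del k K t ≠ 0 := del_uniformizer_ne_zero P ht
    refine ⟨t, g / del k K t, (isUniformizerAt_iff h t).mpr ht, ?_, ?_⟩
    · rw [← h.le_one_iff_le_one, map_div₀, v_del_eq P ht]
      exact div_le_one_of_le₀ hg zero_le
    · rw [D_eq k K t, smul_smul, div_mul_cancel₀ _ hdt]

/-- regular differentials are `L(canD) dX` -/
theorem mem_regularDifferentials_iff (g : K) :
    g • KaehlerDifferential.D k K (xK k K) ∈ regularDifferentials k K ↔ g ∈ LD (canD k K) := by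
  rw [mem_LD]
  constructor
  · intro h P
    have h1 : ∀ v : Valuation K ℝ≥0, IsPlace k v →
        IsRegularAt k K v (g • KaehlerDifferential.D k K (xK k K)) := h
    exact (isRegularAt_iff (isEquiv_vR P) g).mp (h1 _ (isPlace_vR P))
  · intro h
    show ∀ v : Valuation K ℝ≥0, IsPlace k v →
        IsRegularAt k K v (g • KaehlerDifferential.D k K (xK k K))
    intro v hv
    obtain ⟨P, hP⟩ := IsPlace.exists_pl hv
    exact (isRegularAt_iff hP g).mpr (h P)

/-- the map `L(canD) → Ω`, `g ↦ g dX` -/
noncomputable def toOmega (k K : Type*) [Field k] [Field K] [Algebra k K] [Algebra (RatFunc k) K] :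
    K →ₗ[k] Ω[K⁄k] :=
  (LinearMap.toSpanSingleton K _ (KaehlerDifferential.D k K (xK k K))).restrictScalars k

theorem toOmega_apply (g : K) : toOmega k K g = g • KaehlerDifferential.D k K (xK k K) := rfl

theorem toOmega_injective : Function.Injective (toOmega k K) := by
  rw [← LinearMap.ker_eq_bot, LinearMap.ker_eq_bot']
  intro g hg
  rw [toOmega_apply] at hg
  rcases smul_eq_zero.mp hg with h | h
  · exact h
  · exact absurd h (D_xK_ne_zero k K)

theorem regularDifferentials_eq :
    regularDifferentials k K = ((LD (canD k K)).map (toOmega k K) : Submodule k _) := by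
  ext ω
  obtain ⟨g, rfl⟩ := exists_smul_D_xK k K ω
  rw [mem_regularDifferentials_iff]
  constructor
  · intro hg
    exact ⟨g, hg, rfl⟩
  · rintro ⟨g', hg', h⟩
    have : g' = g := toOmega_injective h
    rwa [← this]

/-- **the genus of `Def_SectConj` is the Riemann-Roch genus** -/
theorem genus_eq_gen : genus k K = gen k K := by
  unfold genus gen ell
  rw [regularDifferentials_eq, Submodule.span_eq]
  exact (Submodule.equivMapOfInjective (toOmega k K) toOmega_injective
    (LD (canD k K))).symm.finrank_eq

end Main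

end Crest.Agent.R013.RR17_948
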