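import Mathlib
import Crest.Agent.R013.RR17_948

/-!
# R013 / RR18: finite extensions of function fields: places under and above, `∑ e deg = n deg`
(helper948)
-/

set_option autoImplicit false
set_option linter.all false

namespace Crest.Agent.R013.RR18_948

open Polynomial WithZero Module IsDedekindDomain nonZeroDivisors
open Crest.Agent.R013.RR1_948 Crest.Agent.R013.RR2_948 Crest.Agent.R013.RR3_948
open Crest.Agent.R013.RR4_948 Crest.Agent.R013.RR5_948 Crest.Agent.R013.RR6_948
open Crest.Agent.R013.RR7_948 Crest.Agent.R013.RR8_948 Crest.Agent.R013.RR9_948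
open Crest.Agent.R013.RR11_948 Crest.Agent.R013.RR12_948 Crest.Agent.R013.RR13_948
open Crest.Agent.R013.RR14_948 Crest.Agent.R013.RR15_948 Crest.Agent.R013.RR16_948
open Crest.Agent.R013.RR17_948

section lengths

theorem ri_pi {k : Type*} [Ring k] {ι : Type*} [Fintype ι] {Ms : ι → Type*}
    [∀ i, AddCommGroup (Ms i)] [∀ i, Module k (Ms i)] (P Q : ∀ i, Submodule k (Ms i)) :
    ri (Submodule.pi Set.univ P) (Submodule.pi Set.univ Q) = ∑ i, ri (P i) (Q i) := by
  classical
  unfold ri
  rw [← Module.length_pi_of_fintype]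
  let f : (Submodule.pi Set.univ Q) →ₗ[k] (∀ i, (Q i ⧸ (P i).submoduleOf (Q i))) :=
    LinearMap.pi fun i => ((P i).submoduleOf (Q i)).mkQ.comp
      (LinearMap.codRestrict (Q i) ((LinearMap.proj i).comp (Submodule.pi Set.univ Q).subtype)
        (fun x => x.2 i (Set.mem_univ i)))
  have hf : Function.Surjective f := by
    intro y
    choose z hz using fun i => Submodule.Quotient.mk_surjective _ (y i)
    refine ⟨⟨fun i => (z i : Ms i), fun i _ => (z i).2⟩, ?_⟩
    funext i
    rw [← hz i]
    rfl
  have hker : LinearMap.ker f = (Submodule.pi Set.univ P).submoduleOf (Submodule.pi Set.univ Q) := by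
    ext x
    rw [LinearMap.mem_ker, Submodule.submoduleOf, Submodule.mem_comap, Submodule.mem_pi]
    constructor
    · intro h i _
      have h1 := congrFun h i
      have h2 : (Submodule.Quotient.mk (⟨(x : ∀ i, Ms i) i, x.2 i (Set.mem_univ i)⟩ : Q i) :
          Q i ⧸ (P i).submoduleOf (Q i)) = 0 := h1
      rw [Submodule.Quotient.mk_eq_zero] at h2
      exact h2
    · intro h
      funext i
      show (Submodule.Quotient.mk (⟨(x : ∀ i, Ms i) i, x.2 i (Set.mem_univ i)⟩ : Q i) :
          Q i ⧸ (P i).submoduleOf (Q i)) = 0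
      rw [Submodule.Quotient.mk_eq_zero]
      exact h i (Set.mem_univ i)
  rw [← hker]
  exact LinearEquiv.length_eq (f.quotKerEquivOfSurjective hf)

variable {O : Type*} [CommRing O] [IsDedekindDomain O] (K : Type*) [Field K] [Algebra O K]
  [IsFractionRing O K] (k : Type*) [Field k] [Algebra k O] [Algebra k K] [IsScalarTower k O K]

theorem ri_fidS_add (D : HeightOneSpectrum O →₀ ℤ) (E : HeightOneSpectrum O →₀ ℕ) :
    ri (fidS K k D) (fidS K k (D + E.mapRange (fun n : ℕ => (n : ℤ)) rfl))
      = E.sum fun v n => (n : ℕ∞) * Module.length k (O ⧸ v.asIdeal) := by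
  classical
  have hmono : ∀ (D : HeightOneSpectrum O →₀ ℤ) (E : HeightOneSpectrum O →₀ ℕ),
      fidS K k D ≤ fidS K k (D + E.mapRange (fun n : ℕ => (n : ℤ)) rfl) := by
    intro D E
    apply fidS_mono
    intro w
    rw [Finsupp.add_apply, Finsupp.mapRange_apply]
    omega
  have hsingle : ∀ (v : HeightOneSpectrum O) (n : ℕ) (D : HeightOneSpectrum O →₀ ℤ),
      ri (fidS K k D) (fidS K k (D + Finsupp.single v (n : ℤ)))
        = (n : ℕ∞) * Module.length k (O ⧸ v.asIdeal) := by
    intro v n
    induction n with
    | zero => intro D; simp [ri_self]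
    | succ n ih =>
      intro D
      have e : D + Finsupp.single v ((n + 1 : ℕ) : ℤ)
          = (D + Finsupp.single v (n : ℤ)) + Finsupp.single v 1 := by
        rw [add_assoc, ← Finsupp.single_add]; push_cast; rfl
      rw [e]
      have h1 : fidS K k D ≤ fidS K k (D + Finsupp.single v (n : ℤ)) := by
        apply fidS_mono
        intro w
        rw [Finsupp.add_apply, Finsupp.single_apply]
        split_ifs <;> omega
      have h2 : fidS K k (D + Finsupp.single v (n : ℤ)) ≤
          fidS K k (D + Finsupp.single v (n : ℤ) + Finsupp.single v 1) := by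
        apply fidS_mono
        intro w
        rw [Finsupp.add_apply (D + Finsupp.single v (n : ℤ)), Finsupp.single_apply]
        split_ifs <;> omega
      rw [ri_add h1 h2, ih, ri_fidS]
      push_cast
      ring
  induction E using Finsupp.induction generalizing D with
  | zero => simp [ri_self]
  | single_add v n E hv hn ih =>
    have e : D + (Finsupp.single v n + E).mapRange (fun n : ℕ => (n : ℤ)) rfl
        = (D + Finsupp.single v (n : ℤ)) + E.mapRange (fun n : ℕ => (n : ℤ)) rfl := by
      ext w
      simp only [Finsupp.add_apply, Finsupp.mapRange_apply, Finsupp.single_apply]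
      split_ifs <;> push_cast <;> ring
    have h1 : fidS K k D ≤ fidS K k (D + Finsupp.single v (n : ℤ)) := by
      apply fidS_mono
      intro w
      rw [Finsupp.add_apply, Finsupp.single_apply]
      split_ifs <;> omega
    rw [e, ri_add h1 (hmono _ _), hsingle, ih, Finsupp.sum_add_index', Finsupp.sum_single_index]
    · simp
    · intro w; simp
    · intro w a b; push_cast; ring

end lengths

section under

variable {k : Type*} [Field k] {K : Type*} [Field K] [Algebra k K] [Algebra (RatFunc k) K]
  [IsScalarTower k (RatFunc k) K] [FiniteDimensional (RatFunc k) K]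
  [Algebra.IsSeparable (RatFunc k) K]
  {L : Type*} [Field L] [Algebra k L] [Algebra K L] [IsScalarTower k K L] [FiniteDimensional K L]

theorem exists_under (Q : Pl k L) :
    ∃ P : Pl k K, P.v.IsEquiv (Q.v.comap (algebraMap K L)) := by
  apply exists_place
  · intro c hc
    rw [Valuation.comap_apply, ← IsScalarTower.algebraMap_apply]
    exact Q.const c hc
  · by_contra hcon
    push Not at hcon
    have h1 : ∀ a : K, Q.v (algebraMap K L a) ≤ 1 := by
      intro a
      by_cases h0 : Q.v (algebraMap K L a) = 0
      · rw [h0]; exact zero_le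
      · exact (hcon a h0).le
    have h2 : ∀ b : L, Q.v b ≤ 1 := fun b =>
      le_one_of_integral (S := K) Q.v h1 (Algebra.IsIntegral.isIntegral b)
    obtain ⟨b, hb⟩ := Q.surj (exp 1)
    have := h2 b
    rw [hb, ← exp_zero, exp_le_exp] at this
    norm_num at this

variable (K) in
/-- the place of `K` under a place of `L` -/
noncomputable def under (Q : Pl k L) : Pl k K := (exists_under (K := K) Q).choose

theorem under_isEquiv (Q : Pl k L) : (under K Q).v.IsEquiv (Q.v.comap (algebraMap K L)) :=
  (exists_under (K := K) Q).choose_spec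

theorem under_eq_of_isEquiv {Q : Pl k L} {P : Pl k K}
    (h : P.v.IsEquiv (Q.v.comap (algebraMap K L))) : under K Q = P :=
  eq_of_isEquiv (under_isEquiv Q) h

theorem under_le_one_iff (Q : Pl k L) (f : K) : (under K Q).v f ≤ 1 ↔ Q.v (algebraMap K L f) ≤ 1 :=
  (under_isEquiv Q).le_one_iff_le_one

theorem under_lt_one_iff (Q : Pl k L) (f : K) : (under K Q).v f < 1 ↔ Q.v (algebraMap K L f) < 1 :=
  (under_isEquiv Q).lt_one_iff_lt_one

variable (K) in
/-- the ramification index -/
noncomputable def eR (Q : Pl k L) : ℕ :=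
  (-log (Q.v (algebraMap K L (exists_v_eq (under K Q) (-1)).choose))).toNat

theorem eR_aux (Q : Pl k L) : 1 ≤ eR K Q ∧
    Q.v (algebraMap K L (exists_v_eq (under K Q) (-1)).choose) = exp (-(eR K Q : ℤ)) := by
  obtain ⟨ht0, ht⟩ := (exists_v_eq (under K Q) (-1)).choose_spec
  unfold eR
  set t := (exists_v_eq (under K Q) (-1)).choose
  have h1 : Q.v (algebraMap K L t) < 1 := by
    rw [← under_lt_one_iff, ht, ← exp_zero, exp_lt_exp]; norm_num
  have h2 : Q.v (algebraMap K L t) = exp (log (Q.v (algebraMap K L t))) :=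
    (exp_log ((Valuation.ne_zero_iff _).mpr (by simpa using ht0))).symm
  have h3 : log (Q.v (algebraMap K L t)) < 0 := by
    rw [h2, ← exp_zero, exp_lt_exp] at h1
    simpa using h1
  constructor
  · omega
  · rw [Int.toNat_of_nonneg (by omega), neg_neg]
    exact h2

theorem eR_pos (Q : Pl k L) : 1 ≤ eR K Q := (eR_aux Q).1

theorem v_algebraMap_exp (Q : Pl k L) {f : K} {n : ℤ} (hf : (under K Q).v f = exp n) :
    Q.v (algebraMap K L f) = exp (eR K Q * n) := by
  obtain ⟨ht0, ht⟩ := (exists_v_eq (under K Q) (-1)).choose_spec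
  have h := eq_zpow_of_isEquiv (under_isEquiv Q) ht hf
  rw [Valuation.comap_apply, Valuation.comap_apply, (eR_aux Q).2, ← exp_zsmul] at h
  rw [h]
  congr 1
  simp
  ring

/-- `v_Q (f) = v_P (f) ^ e` -/
theorem v_algebraMap (Q : Pl k L) (f : K) :
    Q.v (algebraMap K L f) = (under K Q).v f ^ eR K Q := by
  by_cases hf : f = 0
  · rw [hf, map_zero, map_zero, map_zero, zero_pow (by have := eR_pos (K := K) Q; omega)]
  · have h1 : (under K Q).v f = exp (log ((under K Q).v f)) :=
      (exp_log ((Valuation.ne_zero_iff _).mpr hf)).symm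
    rw [v_algebraMap_exp Q h1]
    conv_rhs => rw [h1]
    rw [← exp_nsmul]
    simp

end under

section above

variable {k : Type*} [Field k] {K : Type*} [Field K] [Algebra k K]

/-- the valuation ring of a place -/
noncomputable def OO (P : Pl k K) : ValuationSubring K := P.v.valuationSubring

theorem mem_OO {P : Pl k K} {f : K} : f ∈ OO P ↔ P.v f ≤ 1 := Iff.rfl

instance (P : Pl k K) : P.v.IsNontrivial := by
  obtain ⟨t, ht⟩ := P.surj (exp 1)
  refine ⟨t, ?_, ?_⟩
  · rw [ht]; exact exp_ne_zero
  · rw [ht, ← exp_zero]; intro h; rw [exp_inj] at h; norm_num at h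

instance (P : Pl k K) : IsDiscreteValuationRing (OO P) :=
  (inferInstance : IsDiscreteValuationRing P.v.valuationSubring)

variable {L : Type*} [Field L] [Algebra k L] [Algebra K L] [IsScalarTower k K L]
  [FiniteDimensional K L] [Algebra.IsSeparable K L]

theorem mem_BP (P : Pl k K) (c : k) : algebraMap k L c ∈ integralClosure (OO P) L := by
  have hc : algebraMap k K c ∈ OO P := by
    rw [mem_OO]
    by_cases h0 : c = 0
    · simp [h0]
    · rw [P.const c h0]
  have h : algebraMap k L c = algebraMap (OO P) L ⟨algebraMap k K c, hc⟩ := by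
    rw [IsScalarTower.algebraMap_apply k K L]
    rfl
  rw [h]
  exact Subalgebra.algebraMap_mem _ _

variable (L) in
/-- the semilocal ring above `P` as a `k`-algebra -/
@[reducible] noncomputable def algBP (P : Pl k K) : Algebra k (integralClosure (OO P) L) :=
  ((algebraMap k L).codRestrict (integralClosure (OO P) L) (mem_BP P)).toAlgebra

/-- chart above a place -/
macro "use_above" k:term ", " K:term ", " L:term ", " P:term : tactic => `(tactic|
  (letI := algBP $L $P
   haveI : IsScalarTower $k (integralClosure (OO $P) $L) $L :=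
     IsScalarTower.of_algebraMap_eq fun _ => rfl
   haveI : IsDedekindDomain (integralClosure (OO $P) $L) :=
     integralClosure.isDedekindDomain (OO $P) $K $L
   haveI : IsFractionRing (integralClosure (OO $P) $L) $L :=
     integralClosure.isFractionRing_of_finite_extension $K $L))

end above

section fiber

variable {k : Type*} [Field k] {K : Type*} [Field K] [Algebra k K] [Algebra (RatFunc k) K]
  [IsScalarTower k (RatFunc k) K] [FiniteDimensional (RatFunc k) K]
  [Algebra.IsSeparable (RatFunc k) K]

theorem pl_eq_of_le {P P' : Pl k K} (h : ∀ f : K, P.v f ≤ 1 → P'.v f ≤ 1) : P = P' := by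
  classical
  by_contra hne
  obtain ⟨f, hf0, hf⟩ := exists_prescribed {P, P'} (fun R => if R = P then 0 else 1)
  have h1 := hf P (by simp)
  have h2 := hf P' (by simp)
  rw [if_pos rfl, exp_zero] at h1
  rw [if_neg (Ne.symm hne)] at h2
  have h3 := h f h1.le
  rw [h2, ← exp_zero, exp_le_exp] at h3
  norm_num at h3

theorem under_eq_iff_le {L : Type*} [Field L] [Algebra k L] [Algebra K L] [IsScalarTower k K L]
    [FiniteDimensional K L] {P : Pl k K} {Q : Pl k L} :
    under K Q = P ↔ ∀ f : K, P.v f ≤ 1 → Q.v (algebraMap K L f) ≤ 1 := by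
  constructor
  · rintro rfl f hf
    exact (under_le_one_iff Q f).mp hf
  · intro h
    exact (pl_eq_of_le fun f hf => (under_le_one_iff Q f).mpr (h f hf)).symm

variable {L : Type*} [Field L] [Algebra k L] [Algebra K L] [IsScalarTower k K L]
  [FiniteDimensional K L] [Algebra.IsSeparable K L]

/-- auxiliary: everything about the fibre at once -/
theorem fiber_aux (P : Pl k K) : {Q : Pl k L | under K Q = P}.Finite ∧
    ∀ S : Finset (Pl k L), (∀ Q, Q ∈ S ↔ under K Q = P) →
      ∑ Q ∈ S, (eR K Q : ℕ∞) * degE Q = finrank K L * degE P := by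
  classical
  use_above k, K, L, P
  obtain ⟨t, ht0, ht⟩ := exists_v_eq P (-1)
  have htL : algebraMap K L t ≠ 0 := by simpa using ht0
  have hunder : ∀ w : HeightOneSpectrum (integralClosure (OO P) L), under K (ofH w : Pl k L) = P := by
    intro w
    rw [under_eq_iff_le]
    intro f hf
    have h1 : algebraMap K L f = algebraMap (integralClosure (OO P) L) L
        (algebraMap (OO P) (integralClosure (OO P) L) ⟨f, hf⟩) := rfl
    rw [h1]
    exact w.valuation_le_one _
  have hex : ∀ Q : Pl k L, under K Q = P → ∃ w : HeightOneSpectrum (integralClosure (OO P) L),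
      ofH w = Q := by
    intro Q hQ
    apply exists_ofH
    intro b
    apply le_one_of_integral (S := OO P) Q.v
    · intro s
      exact (under_eq_iff_le.mp hQ) s s.2
    · exact b.2
  have hval : ∀ w : HeightOneSpectrum (integralClosure (OO P) L),
      w.valuation L (algebraMap K L t) = exp (-(eR K (ofH w : Pl k L) : ℤ)) := by
    intro w
    have h1 := v_algebraMap_exp (K := K) (ofH w : Pl k L) (f := t) (n := -1) (by
      rw [hunder w]; exact ht)
    rw [mul_neg_one] at h1
    exact h1
  have hfinH : Finite (HeightOneSpectrum (integralClosure (OO P) L)) := by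
    have h1 := finite_valuation_ne_one (O := integralClosure (OO P) L) L htL
    have h2 : {w : HeightOneSpectrum (integralClosure (OO P) L) |
        w.valuation L (algebraMap K L t) ≠ 1} = Set.univ := by
      ext w
      simp only [Set.mem_ofPred_eq, Set.mem_univ, iff_true]
      rw [hval w, ← exp_zero, ne_eq, exp_inj]
      have := eR_pos (K := K) (ofH w : Pl k L)
      omega
    rw [h2] at h1
    exact Set.finite_univ_iff.mp h1
  have hrange : {Q : Pl k L | under K Q = P}
      = Set.range (ofH : HeightOneSpectrum (integralClosure (OO P) L) → Pl k L) := by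
    ext Q
    simp only [Set.mem_ofPred_eq, Set.mem_range]
    exact ⟨fun h => hex Q h, fun ⟨w, hw⟩ => hw ▸ hunder w⟩
  refine ⟨by rw [hrange]; exact Set.finite_range _, ?_⟩
  intro S hS
  have _ := Fintype.ofFinite (HeightOneSpectrum (integralClosure (OO P) L))
  have hSimg : S = Finset.univ.image (ofH : HeightOneSpectrum (integralClosure (OO P) L) → Pl k L) := by
    ext Q
    rw [hS, Finset.mem_image]
    constructor
    · intro h
      obtain ⟨w, hw⟩ := hex Q h
      exact ⟨w, Finset.mem_univ _, hw⟩
    · rintro ⟨w, _, rfl⟩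
      exact hunder w
  rw [hSimg, Finset.sum_image (fun w _ w' _ h => ofH_injective h)]
  -- the lattice computation
  let E : HeightOneSpectrum (integralClosure (OO P) L) →₀ ℕ :=
    Finsupp.equivFunOnFinite.symm fun w => eR K (ofH w : Pl k L)
  have hE : ∀ w, E w = eR K (ofH w : Pl k L) := fun w => rfl
  let D : HeightOneSpectrum (integralClosure (OO P) L) →₀ ℤ :=
    -(E.mapRange (fun n : ℕ => (n : ℤ)) rfl)
  have hD : ∀ w, D w = -(eR K (ofH w : Pl k L) : ℤ) := by
    intro w
    simp only [D, Finsupp.neg_apply, Finsupp.mapRange_apply, hE]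
  have h1 := ri_fidS_add L k D E
  have h2 : D + E.mapRange (fun n : ℕ => (n : ℤ)) rfl = 0 := by simp [D]
  rw [h2] at h1
  have h3 : (E.sum fun v n => (n : ℕ∞) * Module.length k ((integralClosure (OO P) L) ⧸ v.asIdeal))
      = ∑ w : HeightOneSpectrum (integralClosure (OO P) L),
        (eR K (ofH w : Pl k L) : ℕ∞) * degE (ofH w : Pl k L) := by
    rw [Finsupp.sum_fintype _ _ (fun w => by simp)]
    refine Finset.sum_congr rfl fun w _ => ?_
    rw [hE, degE_ofH]
  rw [← h3, ← h1]
  -- the other computation, by a basis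
  obtain ⟨b, hb⟩ := exists_basis_fid (OO P) K L
    (0 : HeightOneSpectrum (integralClosure (OO P) L) →₀ ℤ)
  have hmem0 : ∀ x : L, x ∈ fidS L k (0 : HeightOneSpectrum (integralClosure (OO P) L) →₀ ℤ) ↔
      ∀ j, P.v (b.repr x j) ≤ 1 := by
    intro x
    have h4 : x ∈ fidS L k (0 : HeightOneSpectrum (integralClosure (OO P) L) →₀ ℤ) ↔
        x ∈ Submodule.span (OO P) (Set.range b) := by
      rw [hb]; rfl
    rw [h4, b.mem_span_iff_repr_mem (OO P)]
    refine forall_congr' fun j => ?_
    constructor
    · rintro ⟨s, hs⟩; rw [← hs]; exact s.2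
    · intro h; exact ⟨⟨_, h⟩, rfl⟩
  have hmemD : ∀ x : L, x ∈ fidS L k D ↔ ∀ j, P.v (b.repr x j) ≤ exp (-1) := by
    intro x
    have h5 : x ∈ fidS L k D ↔
        t⁻¹ • x ∈ fidS L k (0 : HeightOneSpectrum (integralClosure (OO P) L) →₀ ℤ) := by
      rw [mem_fidS, mem_fidS]
      refine forall_congr' fun w => ?_
      rw [Finsupp.zero_apply, exp_zero, hD, Algebra.smul_def, map_mul, map_inv₀, map_inv₀, hval w,
        ← exp_neg, neg_neg]
      constructor
      · intro h
        calc _ ≤ exp (eR K (ofH w : Pl k L) : ℤ) * exp (-(eR K (ofH w : Pl k L) : ℤ)) :=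
              mul_le_mul_right h _
          _ = 1 := by rw [← exp_add]; simp
      · intro h
        have h7 : w.valuation L x = exp (-(eR K (ofH w : Pl k L) : ℤ)) *
            (exp (eR K (ofH w : Pl k L) : ℤ) * w.valuation L x) := by
          rw [← mul_assoc, ← exp_add]; simp
        calc _ ≤ exp (-(eR K (ofH w : Pl k L) : ℤ)) * 1 := by
              rw [h7]; exact mul_le_mul_right h _
          _ = _ := mul_one _
    rw [h5, hmem0]
    refine forall_congr' fun j => ?_
    rw [map_smul, Finsupp.smul_apply, smul_eq_mul, map_mul, map_inv₀, ht, ← exp_neg, neg_neg]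
    constructor
    · intro h
      have h7 : P.v (b.repr x j) = exp (-1) * (exp 1 * P.v (b.repr x j)) := by
        rw [← mul_assoc, ← exp_add]; simp
      rw [h7]
      calc _ ≤ exp (-1) * 1 := mul_le_mul_right h _
        _ = exp (-1) := mul_one _
    · intro h
      calc _ ≤ exp 1 * exp (-1) := mul_le_mul_right h _
        _ = 1 := by rw [← exp_add]; simp
  let e : L ≃ₗ[k] (Fin (finrank K L) → K) := b.equivFun.restrictScalars k
  rw [← ri_map e]
  have hm0 : (fidS L k (0 : HeightOneSpectrum (integralClosure (OO P) L) →₀ ℤ)).map (e : L →ₗ[k] _)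
      = Submodule.pi Set.univ fun _ : Fin (finrank K L) => ball P 0 := by
    ext y
    simp only [Submodule.mem_map, Submodule.mem_pi, Set.mem_univ, true_implies]
    constructor
    · rintro ⟨x, hx, rfl⟩ j
      rw [mem_ball, exp_zero]
      exact (hmem0 x).mp hx j
    · intro h
      refine ⟨b.equivFun.symm y, (hmem0 _).mpr fun j => ?_, b.equivFun.apply_symm_apply y⟩
      have h8 : b.repr (b.equivFun.symm y) j = y j := by
        have := congrFun (b.equivFun.apply_symm_apply y) j
        exact this
      rw [h8, ← exp_zero, ← mem_ball]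
      exact h j
  have hmD : (fidS L k D).map (e : L →ₗ[k] _)
      = Submodule.pi Set.univ fun _ : Fin (finrank K L) => ball P (-1) := by
    ext y
    simp only [Submodule.mem_map, Submodule.mem_pi, Set.mem_univ, true_implies]
    constructor
    · rintro ⟨x, hx, rfl⟩ j
      rw [mem_ball]
      exact (hmemD x).mp hx j
    · intro h
      refine ⟨b.equivFun.symm y, (hmemD _).mpr fun j => ?_, b.equivFun.apply_symm_apply y⟩
      have h8 : b.repr (b.equivFun.symm y) j = y j := by
        have := congrFun (b.equivFun.apply_symm_apply y) j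
        exact this
      rw [h8, ← mem_ball]
      exact h j
  rw [hm0, hmD, ri_pi]
  simp [degE]

theorem fiber_finite (P : Pl k K) : {Q : Pl k L | under K Q = P}.Finite := (fiber_aux P).1

variable (L) in
/-- the places of `L` above `P` -/
noncomputable def above (P : Pl k K) : Finset (Pl k L) := (fiber_finite (L := L) P).toFinset

theorem mem_above {P : Pl k K} {Q : Pl k L} : Q ∈ above L P ↔ under K Q = P := by
  simp [above]

theorem sum_eR_degE (P : Pl k K) :
    ∑ Q ∈ above L P, (eR K Q : ℕ∞) * degE Q = finrank K L * degE P :=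
  (fiber_aux P).2 _ fun Q => mem_above

variable (K) in
include K in
theorem degE_eq_of_ext (Q : Pl k L) : degE Q = degP Q := by
  have h1 := sum_eR_degE (L := L) (under K Q)
  have h2 : (eR K Q : ℕ∞) * degE Q ≤ finrank K L * degE (under K Q) := by
    rw [← h1]
    exact Finset.single_le_sum (f := fun Q => (eR K Q : ℕ∞) * degE Q) (fun _ _ => zero_le)
      (mem_above.mpr rfl)
  rw [degE_eq (under K Q)] at h2
  have h3 : degE Q ≠ ⊤ := by
    intro h
    have h4 : (eR K Q : ℕ∞) ≠ 0 := by
      have := eR_pos (K := K) Q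
      exact_mod_cast (by omega : eR K Q ≠ 0)
    rw [h, ENat.mul_top h4, top_le_iff] at h2
    exact ENat.natCast_ne_top (finrank K L * degP (under K Q)) (by push_cast; exact h2)
  unfold degP
  exact (ENat.natCast_toNat_eq_self.mpr h3).symm

/-- **`∑ e_Q deg Q = [L:K] deg P`** -/
theorem sum_eR_degP (P : Pl k K) :
    ∑ Q ∈ above L P, eR K Q * degP Q = finrank K L * degP P := by
  have h := sum_eR_degE (L := L) P
  have h1 : ∑ Q ∈ above L P, (eR K Q : ℕ∞) * degE Q
      = ((∑ Q ∈ above L P, eR K Q * degP Q : ℕ) : ℕ∞) := by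
    push_cast
    exact Finset.sum_congr rfl fun Q _ => by rw [degE_eq_of_ext K]
  rw [h1, degE_eq] at h
  exact_mod_cast h

theorem above_nonempty (P : Pl k K) : (above L P).Nonempty := by
  by_contra h
  rw [Finset.not_nonempty_iff_eq_empty] at h
  have h1 := sum_eR_degP (L := L) P
  rw [h, Finset.sum_empty] at h1
  have h2 : 0 < finrank K L := Module.finrank_pos
  have h3 := degP_pos P
  have h4 : 0 < finrank K L * degP P := Nat.mul_pos h2 h3
  omega

end fiber

end Crest.Agent.R013.RR18_948
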