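import Mathlib
import Crest.Agent.R013.RR18_948

/-!
# R013 / RR19: conorm, Riemann-Hurwitz, unramified extensions (helper948)
-/

set_option autoImplicit false
set_option linter.all false

namespace Crest.Agent.R013.RR19_948

open Polynomial WithZero Module IsDedekindDomain nonZeroDivisors
open Crest.Agent.R013.RR1_948 Crest.Agent.R013.RR2_948 Crest.Agent.R013.RR3_948
open Crest.Agent.R013.RR4_948 Crest.Agent.R013.RR5_948 Crest.Agent.R013.RR6_948
open Crest.Agent.R013.RR7_948 Crest.Agent.R013.RR8_948 Crest.Agent.R013.RR9_948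
open Crest.Agent.R013.RR11_948 Crest.Agent.R013.RR12_948 Crest.Agent.R013.RR13_948
open Crest.Agent.R013.RR14_948 Crest.Agent.R013.RR15_948 Crest.Agent.R013.RR16_948
open Crest.Agent.R013.RR17_948 Crest.Agent.R013.RR18_948
open Crest.NumberTheoryR.Sect
open scoped NNReal

section unique

variable {k : Type*} [Field k] {K : Type*} [Field K] [Algebra k K] [Algebra (RatFunc k) K]
  [IsScalarTower k (RatFunc k) K] [FiniteDimensional (RatFunc k) K]
  [Algebra.IsSeparable (RatFunc k) K]

/-- divisors of large degree exist -/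
theorem exists_degD_gt (N : ℤ) : ∃ D : Pl k K →₀ ℤ, N < degD D := by
  obtain ⟨P, _⟩ := exists_notMem (k := k) (K := K) ∅
  refine ⟨Finsupp.single P (N.toNat + 1 : ℤ), ?_⟩
  rw [degD_single]
  have h1 := Int.self_le_toNat N
  have h2 : (1 : ℤ) ≤ degP P := by exact_mod_cast degP_pos P
  nlinarith [Int.natCast_nonneg N.toNat]

/-- the genus is characterised by Riemann's inequality -/
theorem gen_unique (hc : algebraicClosure k K = ⊥) {g : ℤ}
    (h1 : ∀ D : Pl k K →₀ ℤ, degD D + 1 - g ≤ ell D)
    (h2 : ∃ D : Pl k K →₀ ℤ, (ell D : ℤ) = degD D + 1 - g) : g = gen k K := by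
  obtain ⟨D, hD⟩ := h2
  obtain ⟨D', hD'⟩ := exists_degD_gt (k := k) (K := K) (2 * (gen k K : ℤ) - 2)
  have h3 := ell_eq_of_lt hc hD'
  have h4 := h1 D'
  have h5 := ell_ge hc D
  omega

end unique

section change

/-- the genus does not depend on the `k(X)`-structure -/
theorem gen_eq_gen {k : Type*} [Field k] {K : Type*} [Field K] [Algebra k K]
    (i1 : Algebra (RatFunc k) K) (j1 : IsScalarTower k (RatFunc k) K)
    (f1 : FiniteDimensional (RatFunc k) K) (s1 : Algebra.IsSeparable (RatFunc k) K)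
    (i2 : Algebra (RatFunc k) K) (j2 : @IsScalarTower k (RatFunc k) K _ i2.toSMul _)
    (f2 : @FiniteDimensional (RatFunc k) K _ _ i2.toModule)
    (s2 : @Algebra.IsSeparable (RatFunc k) K _ _ i2) (hc : algebraicClosure k K = ⊥) :
    @gen k _ K _ _ i1 j1 f1 s1 = @gen k _ K _ _ i2 j2 f2 s2 := by
  have h : ((@gen k _ K _ _ i1 j1 f1 s1 : ℕ) : ℤ) = (@gen k _ K _ _ i2 j2 f2 s2 : ℕ) := by
    apply @gen_unique k _ K _ _ i2 j2 f2 s2 hc
    · intro D
      exact @ell_ge k _ K _ _ i1 j1 f1 s1 hc D
    · obtain ⟨D, hD⟩ := @exists_degD_gt k _ K _ _ i1 j1 f1 s1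
        (2 * ((@gen k _ K _ _ i1 j1 f1 s1 : ℕ) : ℤ) - 2)
      exact ⟨D, @ell_eq_of_lt k _ K _ _ i1 j1 f1 s1 hc D hD⟩
  exact_mod_cast h

end change

section conorm

variable {k : Type*} [Field k] {K : Type*} [Field K] [Algebra k K] [Algebra (RatFunc k) K]
  [IsScalarTower k (RatFunc k) K] [FiniteDimensional (RatFunc k) K]
  [Algebra.IsSeparable (RatFunc k) K]
  {L : Type*} [Field L] [Algebra k L] [Algebra K L] [IsScalarTower k K L]
  [FiniteDimensional K L] [Algebra.IsSeparable K L]

variable (L) in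
/-- the conorm (pull-back) of divisors -/
noncomputable def con (D : Pl k K →₀ ℤ) : Pl k L →₀ ℤ := by
  classical
  exact Finsupp.onFinset (D.support.biUnion (above L)) (fun Q => eR K Q * D (under K Q)) (by
    intro Q hQ
    rw [Finset.mem_biUnion]
    refine ⟨under K Q, ?_, mem_above.mpr rfl⟩
    rw [Finsupp.mem_support_iff]
    intro h
    rw [h, mul_zero] at hQ
    exact hQ rfl)

theorem con_apply (D : Pl k K →₀ ℤ) (Q : Pl k L) : con L D Q = eR K Q * D (under K Q) := rfl

theorem con_zero : con L (0 : Pl k K →₀ ℤ) = 0 := by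
  ext Q; rw [con_apply]; simp

theorem con_add (D D' : Pl k K →₀ ℤ) : con L (D + D') = con L D + con L D' := by
  ext Q
  rw [con_apply, Finsupp.add_apply, Finsupp.add_apply, con_apply, con_apply]
  ring

theorem con_neg (D : Pl k K →₀ ℤ) : con L (-D) = -con L D := by
  ext Q
  rw [con_apply, Finsupp.neg_apply, Finsupp.neg_apply, con_apply]
  ring

theorem con_sub (D D' : Pl k K →₀ ℤ) : con L (D - D') = con L D - con L D' := by
  rw [sub_eq_add_neg, con_add, con_neg, sub_eq_add_neg]

theorem con_zsmul (n : ℤ) (D : Pl k K →₀ ℤ) : con L (n • D) = n • con L D := by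
  ext Q
  rw [con_apply, Finsupp.smul_apply, Finsupp.smul_apply, con_apply, smul_eq_mul, smul_eq_mul]
  ring

theorem con_single (P : Pl k K) (n : ℤ) :
    con L (Finsupp.single P n) = ∑ Q ∈ above L P, Finsupp.single Q (eR K Q * n) := by
  classical
  ext Q
  rw [con_apply, Finsupp.finsetSum_apply, Finsupp.single_apply]
  by_cases h : P = under K Q
  · rw [if_pos h, Finset.sum_eq_single Q]
    · rw [Finsupp.single_eq_same]
    · intro Q' _ hQ'
      rw [Finsupp.single_apply, if_neg hQ']
    · intro h'; exact absurd (mem_above.mpr h.symm) h'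
  · rw [if_neg h, mul_zero, Finset.sum_eq_zero]
    intro Q' hQ'
    rw [Finsupp.single_apply, if_neg]
    rintro rfl
    exact h (mem_above.mp hQ').symm

theorem degD_sum {ι : Type*} (s : Finset ι) (D : ι → (Pl k L →₀ ℤ)) :
    degD (∑ i ∈ s, D i) = ∑ i ∈ s, degD (D i) := by
  classical
  induction s using Finset.induction_on with
  | empty => simp [degD_zero]
  | insert a s ha ih => rw [Finset.sum_insert ha, Finset.sum_insert ha, degD_add, ih]

/-- degree of the conorm -/
theorem degD_con (D : Pl k K →₀ ℤ) : degD (con L D) = finrank K L * degD D := by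
  classical
  induction D using Finsupp.induction with
  | zero => rw [con_zero, degD_zero, degD_zero, mul_zero]
  | single_add P n D _ _ ih =>
    rw [con_add, degD_add, ih, degD_add, mul_add, con_single, degD_sum, degD_single]
    congr 1
    have h := sum_eR_degP (L := L) P
    have h2 : (∑ Q ∈ above L P, (eR K Q : ℤ) * degP Q) = finrank K L * degP P := by
      exact_mod_cast h
    calc _ = ∑ Q ∈ above L P, n * ((eR K Q : ℤ) * degP Q) := by
          refine Finset.sum_congr rfl fun Q _ => ?_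
          rw [degD_single]; ring
      _ = n * (finrank K L * degP P) := by rw [← Finset.mul_sum, h2]
      _ = _ := by ring

theorem con_injective : Function.Injective (con L : (Pl k K →₀ ℤ) → (Pl k L →₀ ℤ)) := by
  intro D D' h
  ext P
  obtain ⟨Q, hQ⟩ := above_nonempty (L := L) P
  have h1 := DFunLike.congr_fun h Q
  rw [con_apply, con_apply, mem_above.mp hQ] at h1
  have h2 : (eR K Q : ℤ) ≠ 0 := by
    have := eR_pos (K := K) Q
    omega
  exact mul_left_cancel₀ h2 h1

theorem algebraMap_mem_LD_con {D : Pl k K →₀ ℤ} {f : K} :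
    algebraMap K L f ∈ LD (con L D) ↔ f ∈ LD D := by
  rw [mem_LD, mem_LD]
  by_cases hf : f = 0
  · simp [hf]
  have key : ∀ Q : Pl k L, Q.v (algebraMap K L f) ≤ exp (con L D Q) ↔
      (under K Q).v f ≤ exp (D (under K Q)) := by
    intro Q
    have h1 : (under K Q).v f = exp (log ((under K Q).v f)) :=
      (exp_log ((Valuation.ne_zero_iff _).mpr hf)).symm
    rw [v_algebraMap_exp Q h1, con_apply, exp_le_exp, h1, exp_le_exp, log_exp]
    have h2 : (0 : ℤ) < eR K Q := by
      have := eR_pos (K := K) Q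
      omega
    exact mul_le_mul_iff_right₀ h2
  constructor
  · intro h P
    obtain ⟨Q, hQ⟩ := above_nonempty (L := L) P
    have h1 := (key Q).mp (h Q)
    rwa [mem_above.mp hQ] at h1
  · intro h Q
    exact (key Q).mpr (h _)

/-- unramified in the sense of `Def_SectConj` -/
theorem eR_eq_one_iff : (∀ Q : Pl k L, eR K Q = 1) ↔
    ∀ w : Valuation L ℝ≥0, IsPlace k w → (∃ Q : Pl k L, Q.v.IsEquiv w) →
      ∀ b : L, b ≠ 0 → ∃ a : K, w b = w (algebraMap K L a) := by
  constructor
  · intro h w hw ⟨Q, hQ⟩ b hb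
    -- `Q.v b = exp n`, take `a` with `(under Q).v a = exp n`
    obtain ⟨n, hn⟩ : ∃ n : ℤ, Q.v b = exp n :=
      ⟨_, (exp_log ((Valuation.ne_zero_iff _).mpr hb)).symm⟩
    obtain ⟨a, ha0, ha⟩ := exists_v_eq (under K Q) n
    refine ⟨a, ?_⟩
    have h1 := v_algebraMap_exp Q ha
    rw [h Q] at h1
    have h2 : Q.v b = Q.v (algebraMap K L a) := by rw [hn, h1]; simp
    exact (hQ.eq_iff).mp h2
  · intro h Q
    obtain ⟨t, ht0, ht⟩ := exists_v_eq Q (-1)
    obtain ⟨a, ha⟩ := h (vR Q) (isPlace_vR Q) ⟨Q, isEquiv_vR Q⟩ t ht0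
    have h1 : Q.v t = Q.v (algebraMap K L a) := (isEquiv_vR Q).eq_iff.mpr ha
    have ha0 : a ≠ 0 := by
      rintro rfl
      rw [map_zero, map_zero, ht] at h1
      exact exp_ne_zero h1
    obtain ⟨n, hn⟩ : ∃ n : ℤ, (under K Q).v a = exp n :=
      ⟨_, (exp_log ((Valuation.ne_zero_iff _).mpr ha0)).symm⟩
    rw [ht, v_algebraMap_exp Q hn, exp_inj] at h1
    have h2 := eR_pos (K := K) Q
    have h3 : (eR K Q : ℤ) ∣ 1 := ⟨-n, by rw [mul_neg, ← h1]; ring⟩
    have h4 : (eR K Q : ℤ) = 1 := by
      rcases Int.isUnit_iff.mp (isUnit_of_dvd_one h3) with h5 | h5 <;> omega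
    exact_mod_cast h4

end conorm

section hurwitz

variable {k : Type*} [Field k] {K : Type*} [Field K] [Algebra k K] [Algebra (RatFunc k) K]
  [IsScalarTower k (RatFunc k) K] [FiniteDimensional (RatFunc k) K]
  [Algebra.IsSeparable (RatFunc k) K]
  {L : Type*} [Field L] [Algebra k L] [Algebra K L] [IsScalarTower k K L]
  [FiniteDimensional K L] [Algebra.IsSeparable K L]
  [Algebra (RatFunc k) L] [IsScalarTower k (RatFunc k) L] [FiniteDimensional (RatFunc k) L]
  [Algebra.IsSeparable (RatFunc k) L] [IsScalarTower (RatFunc k) K L]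

theorem con_divf {f : K} (hf : f ≠ 0) : con L (divf (k := k) f) = divf (algebraMap K L f) := by
  ext Q
  have hf' : algebraMap K L f ≠ 0 := by simpa using hf
  have h1 := v_eq (k := k) hf (under K Q)
  have h2 := v_algebraMap_exp Q h1
  rw [v_eq hf', exp_inj] at h2
  rw [con_apply]
  linarith

theorem algebraMap_xK : algebraMap K L (xK k K) = xK k L := by
  unfold xK
  rw [← IsScalarTower.algebraMap_apply]

theorem del_algebraMap (f : K) : del k L (algebraMap K L f) = algebraMap K L (del k K f) := by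
  have h1 := congrArg (KaehlerDifferential.map k k K L) (D_eq k K f)
  rw [KaehlerDifferential.map_D] at h1
  rw [map_smul, KaehlerDifferential.map_D, algebraMap_xK] at h1
  rw [D_eq k L (algebraMap K L f)] at h1
  have h2 : (del k L (algebraMap K L f) - algebraMap K L (del k K f)) •
      KaehlerDifferential.D k L (xK k L) = 0 := by
    rw [sub_smul, h1, algebraMap_smul, sub_self]
  rcases smul_eq_zero.mp h2 with h3 | h3
  · exact sub_eq_zero.mp h3
  · exact absurd h3 (D_xK_ne_zero k L)

/-- **Riemann-Hurwitz**, local form, characteristic zero -/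
theorem canD_eq [CharZero k] (Q : Pl k L) :
    canD k L Q = eR K Q * canD k K (under K Q) + (eR K Q - 1) := by
  obtain ⟨t, ht0, ht⟩ := exists_v_eq (under K Q) (-1)
  obtain ⟨s, hs0, hs⟩ := exists_v_eq Q (-1)
  have h1 := v_algebraMap_exp Q ht
  rw [mul_neg_one] at h1
  have h2 := v_del_pow Q (del k L) hs (fun u hu => del_le_uniformizer Q hs hu)
    (del_uniformizer_ne_zero Q hs) h1 (by have := eR_pos (K := K) Q; omega)
  rw [v_del_eq Q hs, del_algebraMap, v_algebraMap_exp Q (v_del_eq (under K Q) ht), ← exp_add,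
    exp_inj] at h2
  linarith

/-- the ramification divisor -/
noncomputable def ramD (k K L : Type*) [Field k] [Field K] [Algebra k K] [Algebra (RatFunc k) K]
  [IsScalarTower k (RatFunc k) K] [FiniteDimensional (RatFunc k) K]
  [Algebra.IsSeparable (RatFunc k) K]
  [Field L] [Algebra k L] [Algebra K L] [IsScalarTower k K L]
  [FiniteDimensional K L] [Algebra.IsSeparable K L]
  [Algebra (RatFunc k) L] [IsScalarTower k (RatFunc k) L] [FiniteDimensional (RatFunc k) L]
  [Algebra.IsSeparable (RatFunc k) L] : Pl k L →₀ ℤ := canD k L - con L (canD k K)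

theorem ramD_apply [CharZero k] (Q : Pl k L) : ramD k K L Q = eR K Q - 1 := by
  unfold ramD
  rw [Finsupp.sub_apply, con_apply, canD_eq (K := K)]
  ring

theorem degD_canD_hurwitz :
    degD (canD k L) = finrank K L * degD (canD k K) + degD (ramD k K L) := by
  unfold ramD
  rw [degD_sub, degD_con]; ring

/-- Riemann-Hurwitz -/
theorem hurwitz (hcK : algebraicClosure k K = ⊥) (hcL : algebraicClosure k L = ⊥) :
    2 * (gen k L : ℤ) - 2 = finrank K L * (2 * gen k K - 2) + degD (ramD k K L) := by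
  rw [← degD_canD hcK, ← degD_canD hcL]
  exact degD_canD_hurwitz

/-- unramified extensions -/
theorem hurwitz_unramified [CharZero k] (hcK : algebraicClosure k K = ⊥)
    (hcL : algebraicClosure k L = ⊥) (he : ∀ Q : Pl k L, eR K Q = 1) :
    2 * (gen k L : ℤ) - 2 = finrank K L * (2 * gen k K - 2) := by
  rw [hurwitz hcK hcL]
  have : ramD k K L = 0 := by
    ext Q
    rw [ramD_apply, he Q]; simp
  rw [this, degD_zero, add_zero]

end hurwitz

end Crest.Agent.R013.RR19_948
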