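import Mathlib
import Crest.Agent.R013.RR19_948

/-!
# R013 / RR20: change of the function `x`, degree of the pole divisor (helper948)
-/

set_option autoImplicit false
set_option linter.all false

namespace Crest.Agent.R013.RR20_948

open Polynomial WithZero Module IsDedekindDomain nonZeroDivisors
open Crest.Agent.R013.RR1_948 Crest.Agent.R013.RR2_948 Crest.Agent.R013.RR3_948
open Crest.Agent.R013.RR4_948 Crest.Agent.R013.RR5_948 Crest.Agent.R013.RR6_948
open Crest.Agent.R013.RR7_948 Crest.Agent.R013.RR8_948 Crest.Agent.R013.RR9_948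
open Crest.Agent.R013.RR11_948 Crest.Agent.R013.RR12_948 Crest.Agent.R013.RR13_948
open Crest.Agent.R013.RR18_948 Crest.Agent.R013.RR19_948

section ratAlg

variable {k : Type*} [Field k] {K : Type*} [Field K] [Algebra k K]

/-- the embedding `k(X) → K`, `X ↦ y` -/
noncomputable def ratHom (y : K) (hy : Transcendental k y) : RatFunc k →ₐ[k] K :=
  RatFunc.liftAlgHom (Polynomial.aeval y)
    (nonZeroDivisors_le_comap_nonZeroDivisors_of_injective _ (transcendental_iff_injective.mp hy))

theorem ratHom_X (y : K) (hy : Transcendental k y) : ratHom y hy RatFunc.X = y := by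
  have h := RatFunc.liftAlgHom_apply_div (Polynomial.aeval y)
    (nonZeroDivisors_le_comap_nonZeroDivisors_of_injective _ (transcendental_iff_injective.mp hy))
    (Polynomial.X : k[X]) 1
  simp only [map_one, div_one, Polynomial.aeval_X, RatFunc.algebraMap_X] at h
  exact h

/-- the `k(X)`-algebra structure `X ↦ y` -/
@[reducible] noncomputable def ratAlg (y : K) (hy : Transcendental k y) : Algebra (RatFunc k) K :=
  (ratHom y hy).toRingHom.toAlgebra

theorem ratAlg_tower (y : K) (hy : Transcendental k y) :
    letI := ratAlg y hy; IsScalarTower k (RatFunc k) K := by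
  letI := ratAlg y hy
  exact IsScalarTower.of_algebraMap_eq fun c => ((ratHom y hy).commutes c).symm

theorem ratAlg_xK (y : K) (hy : Transcendental k y) :
    letI := ratAlg y hy; xK k K = y := ratHom_X y hy

theorem transcendental_xK [Algebra (RatFunc k) K] [IsScalarTower k (RatFunc k) K] :
    Transcendental k (xK k K) := by
  intro h
  have h1 : IsAlgebraic k (algebraMap (RatFunc k) K RatFunc.X) := h
  exact RatFunc.transcendental_X
    ((isAlgebraic_algebraMap_iff (algebraMap (RatFunc k) K).injective).mp h1)

/-- any structure is of the form `ratAlg` -/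
theorem eq_ratAlg (i : Algebra (RatFunc k) K) [IsScalarTower k (RatFunc k) K] :
    i = ratAlg (xK k K) transcendental_xK := by
  apply Algebra.algebra_ext
  intro f
  show _ = ratHom _ _ f
  have h1 : IsScalarTower.toAlgHom k (RatFunc k) K = ratHom (xK k K) transcendental_xK := by
    apply AlgHom.coe_ringHom_injective
    apply IsLocalization.ringHom_ext k[X]⁰
    apply Polynomial.ringHom_ext
    · intro c
      simp only [RingHom.comp_apply]
      rw [RatFunc.algebraMap_C, ← algebraMap_eq_C]
      show (IsScalarTower.toAlgHom k (RatFunc k) K) _ =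
        (ratHom (xK k K) transcendental_xK) _
      rw [AlgHom.commutes, AlgHom.commutes]
    · simp only [RingHom.comp_apply]
      rw [RatFunc.algebraMap_X]
      show (IsScalarTower.toAlgHom k (RatFunc k) K) _ =
        (ratHom (xK k K) transcendental_xK) _
      rw [ratHom_X]
      rfl
  rw [← h1]
  rfl

/-- the dimension over `k(y)` is finite for every transcendental `y` -/
theorem ratAlg_finite [i1 : Algebra (RatFunc k) K] [IsScalarTower k (RatFunc k) K]
    [FiniteDimensional (RatFunc k) K] (y : K) (hy : Transcendental k y) :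
    letI := ratAlg y hy; FiniteDimensional (RatFunc k) K := by
  have htr0 : Algebra.trdeg k (RatFunc k) = 1 := by
    have h1 := trdeg_add_eq k k[X] (A := RatFunc k)
    have h2 : Algebra.IsAlgebraic k[X] (RatFunc k) :=
      IsLocalization.isAlgebraic (RatFunc k) (k[X]⁰)
    rw [Polynomial.trdeg_of_isDomain, trdeg_eq_zero_iff.mpr h2, add_zero] at h1
    exact h1.symm
  have htr : Cardinal.lift (Algebra.trdeg k K) = 1 := by
    have h1 := lift_trdeg_add_eq k (RatFunc k) K
    have h2 : Algebra.IsAlgebraic (RatFunc k) K := inferInstance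
    rw [htr0, trdeg_eq_zero_iff.mpr h2] at h1
    simp only [Cardinal.lift_one, Cardinal.lift_zero, add_zero] at h1
    exact h1.symm
  have hess : Algebra.EssFiniteType k K := by
    haveI : Algebra.EssFiniteType k[X] (RatFunc k) := .of_isLocalization _ (k[X]⁰)
    haveI : Algebra.EssFiniteType k (RatFunc k) := .comp k k[X] (RatFunc k)
    exact .comp k (RatFunc k) K
  letI i2 := ratAlg y hy
  haveI := ratAlg_tower y hy
  have halg : Algebra.IsAlgebraic (RatFunc k) K := by
    have h1 := lift_trdeg_add_eq k (RatFunc k) K
    rw [htr0, htr, Cardinal.lift_one] at h1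
    have h2 : Cardinal.lift (Algebra.trdeg (RatFunc k) K) = 0 := by
      have h3 : (1 : Cardinal) + Cardinal.lift (Algebra.trdeg (RatFunc k) K) = 1 + 0 := by
        rw [h1, add_zero]
      exact Cardinal.eq_of_add_eq_add_left h3 Cardinal.one_lt_aleph0
    rw [Cardinal.lift_eq_zero] at h2
    exact trdeg_eq_zero_iff.mp h2
  haveI : Algebra.EssFiniteType (RatFunc k) K := .of_comp k (RatFunc k) K
  obtain ⟨s, hs⟩ := IntermediateField.fg_top (RatFunc k) K
  have h3 : FiniteDimensional (RatFunc k) (IntermediateField.adjoin (RatFunc k) (s : Set K)) :=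
    IntermediateField.finiteDimensional_adjoin fun x _ => (halg.isAlgebraic x).isIntegral
  rw [hs] at h3
  exact Module.Finite.of_surjective
    (IntermediateField.topEquiv (F := RatFunc k) (E := K)).toLinearMap
    (IntermediateField.topEquiv (F := RatFunc k) (E := K)).surjective

end ratAlg

section poles

variable {k : Type*} [Field k]

variable (k) in
/-- the place at infinity of `k(X)` -/
noncomputable def pinf : Pl k (RatFunc k) where
  v := vinf k
  const := fun c hc => by rw [algebraMap_eq_C]; exact vinf_C k hc
  surj := by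
    intro y
    induction y using WithZero.expRecOn with
    | zero => exact ⟨0, map_zero _⟩
    | exp n => exact ⟨RatFunc.X ^ n, vinf_X_zpow k n⟩

theorem pinf_v : (pinf k).v = vinf k := rfl

theorem degP_pinf : degP (pinf k) = 1 := by
  have h : degE (pinf k) = 1 := by
    unfold degE
    have h1 : ∀ n, ball (pinf k) n = infS k n := by
      intro n; ext f; rw [mem_ball, mem_infS]; rfl
    rw [h1, h1]
    exact ri_infS k 0
  unfold degP
  rw [h]; rfl

variable {K : Type*} [Field K] [Algebra k K] [Algebra (RatFunc k) K]
  [IsScalarTower k (RatFunc k) K] [FiniteDimensional (RatFunc k) K]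
  [Algebra.IsSeparable (RatFunc k) K]

/-- the divisor of poles -/
noncomputable def poles (f : K) : Pl k K →₀ ℤ := (divf f).mapRange (fun n => max (-n) 0) (by simp)

/-- the divisor of zeros -/
noncomputable def zeros (f : K) : Pl k K →₀ ℤ := (divf f).mapRange (fun n => max n 0) (by simp)

theorem poles_apply (f : K) (P : Pl k K) : poles f P = max (-divf (k := k) f P) 0 := rfl

theorem zeros_apply (f : K) (P : Pl k K) : zeros f P = max (divf (k := k) f P) 0 := rfl

theorem divf_eq_zeros_sub_poles (f : K) : divf (k := k) f = zeros f - poles f := by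
  ext P
  rw [Finsupp.sub_apply, poles_apply, zeros_apply]
  omega

theorem degD_zeros_eq_poles {f : K} (hf : f ≠ 0) :
    degD (zeros (k := k) f) = degD (poles (k := k) f) := by
  have h := degD_divf (k := k) hf
  rw [divf_eq_zeros_sub_poles, degD_sub] at h
  linarith

theorem mem_LD_poles {f : K} (hf : f ≠ 0) : f ∈ LD (poles (k := k) f) := by
  rw [mem_LD]
  intro P
  rw [v_eq hf, exp_le_exp, poles_apply]
  exact le_max_left _ _

theorem poles_inv {f : K} (hf : f ≠ 0) : poles (k := k) f⁻¹ = zeros f := by
  ext P
  rw [poles_apply, divf_inv hf, zeros_apply, Finsupp.neg_apply, neg_neg]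

/-- the degree of the pole divisor of `x` is `[K : k(x)]` -/
theorem degD_poles_xK : degD (poles (k := k) (xK k K)) = finrank (RatFunc k) K := by
  have h1 := degD_con (L := K) (Finsupp.single (pinf k) (1 : ℤ))
  rw [degD_single, degP_pinf] at h1
  have h2 : con K (Finsupp.single (pinf k) (1 : ℤ)) = poles (k := k) (xK k K) := by
    classical
    ext Q
    have hx : xK k K ≠ 0 := xK_ne_zero
    rw [con_apply, poles_apply, Finsupp.single_apply]
    have h3 := v_eq (k := k) hx Q
    by_cases hQ : pinf k = under (RatFunc k) Q
    · rw [if_pos hQ, mul_one]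
      have h4 : (under (RatFunc k) Q).v RatFunc.X = exp 1 := by rw [← hQ]; exact vinf_X k
      have h5 := v_algebraMap_exp Q h4
      have h6 : algebraMap (RatFunc k) K RatFunc.X = xK k K := rfl
      rw [h6, h3, exp_inj] at h5
      rw [h5]
      simp
    · rw [if_neg hQ, mul_zero]
      by_contra hne
      apply hQ
      have h7 : 0 < -divf (k := k) (xK k K) Q := by
        by_contra h8
        apply hne
        rw [max_eq_right (not_lt.mp h8)]
      have h8 : 1 < Q.v (xK k K) := by
        rw [h3, ← exp_zero, exp_lt_exp]; exact h7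
      symm
      apply under_eq_of_isEquiv
      show (vinf k).IsEquiv _
      refine (isEquiv_vinf _ ?_ h8).symm
      intro c hc
      rw [Valuation.comap_apply, ← IsScalarTower.algebraMap_apply]
      exact Q.const c hc
  rw [h2] at h1
  rw [h1]
  simp

end poles

section change

/-- the divisor of a function does not depend on the `k(X)`-structure -/
theorem divf_eq_divf {k : Type*} [Field k] {K : Type*} [Field K] [Algebra k K]
    (i1 : Algebra (RatFunc k) K) (j1 : IsScalarTower k (RatFunc k) K)
    (f1 : FiniteDimensional (RatFunc k) K) (s1 : Algebra.IsSeparable (RatFunc k) K)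
    (i2 : Algebra (RatFunc k) K) (j2 : @IsScalarTower k (RatFunc k) K _ i2.toSMul _)
    (f2 : @FiniteDimensional (RatFunc k) K _ _ i2.toModule)
    (s2 : @Algebra.IsSeparable (RatFunc k) K _ _ i2) (f : K) :
    @divf k _ K _ _ i1 j1 f1 s1 f = @divf k _ K _ _ i2 j2 f2 s2 f := by
  by_cases hf : f = 0
  · unfold divf
    rw [dif_pos hf]
  · ext P
    have h1 := @v_eq k _ K _ _ i1 j1 f1 s1 f hf P
    have h2 := @v_eq k _ K _ _ i2 j2 f2 s2 f hf P
    rw [h1, exp_inj] at h2
    linarith

variable {k : Type*} [Field k] {K : Type*} [Field K] [Algebra k K] [Algebra (RatFunc k) K]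
  [IsScalarTower k (RatFunc k) K] [FiniteDimensional (RatFunc k) K]
  [Algebra.IsSeparable (RatFunc k) K]

/-- `deg (y)_∞ = [K : k(y)]` for `y` separating -/
theorem degD_poles_eq (y : K) (hy : Transcendental k y)
    (hs : @Algebra.IsSeparable (RatFunc k) K _ _ (ratAlg y hy)) :
    degD (poles (k := k) y) = @finrank (RatFunc k) K _ _ (ratAlg y hy).toModule := by
  have h := @degD_poles_xK k _ K _ _ (ratAlg y hy) (ratAlg_tower y hy) (ratAlg_finite y hy) hs
  rw [← h]
  congr 1
  ext P
  rw [poles_apply, @poles_apply k _ K _ _ (ratAlg y hy) (ratAlg_tower y hy) (ratAlg_finite y hy) hs]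
  have h2 : @xK k _ K _ (ratAlg y hy) = y := ratAlg_xK y hy
  rw [h2]
  congr 2

/-- characteristic zero: every transcendental `y` is separating -/
theorem ratAlg_isSeparable [CharZero k] (y : K) (hy : Transcendental k y) :
    @Algebra.IsSeparable (RatFunc k) K _ _ (ratAlg y hy) := by
  have hfin := ratAlg_finite y hy
  letI := ratAlg y hy
  haveI := ratAlg_tower y hy
  haveI : FiniteDimensional (RatFunc k) K := hfin
  haveI : CharZero (RatFunc k) := charZero_of_injective_algebraMap (algebraMap k (RatFunc k)).injective
  infer_instance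

end change

end Crest.Agent.R013.RR20_948
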