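import Mathlib
import Crest.Agent.R013.RR20_948

/-!
# R013 / RR21: isomorphisms, Galois action on places, towers, norms (helper948)
-/

set_option autoImplicit false
set_option linter.all false

namespace Crest.Agent.R013.RR21_948

open Polynomial WithZero Module IsDedekindDomain nonZeroDivisors
open Crest.Agent.R013.RR1_948 Crest.Agent.R013.RR2_948 Crest.Agent.R013.RR3_948
open Crest.Agent.R013.RR4_948 Crest.Agent.R013.RR5_948 Crest.Agent.R013.RR6_948
open Crest.Agent.R013.RR7_948 Crest.Agent.R013.RR8_948 Crest.Agent.R013.RR9_948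
open Crest.Agent.R013.RR11_948 Crest.Agent.R013.RR12_948 Crest.Agent.R013.RR13_948
open Crest.Agent.R013.RR18_948 Crest.Agent.R013.RR19_948 Crest.Agent.R013.RR20_948

section iso

variable {k : Type*} [Field k] {K : Type*} [Field K] [Algebra k K]
  {K' : Type*} [Field K'] [Algebra k K'] {K'' : Type*} [Field K''] [Algebra k K'']

/-- transport of places along an isomorphism: `v_{σP}(σ f) = v_P (f)` -/
noncomputable def mapPl (σ : K ≃ₐ[k] K') (P : Pl k K) : Pl k K' where
  v := P.v.comap (σ.symm : K' →+* K)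
  const := fun c hc => by
    show P.v (σ.symm (algebraMap k K' c)) = 1
    rw [AlgEquiv.commutes]
    exact P.const c hc
  surj := fun y => by
    obtain ⟨t, ht⟩ := P.surj y
    exact ⟨σ t, by show P.v (σ.symm (σ t)) = y; rw [σ.symm_apply_apply]; exact ht⟩

theorem mapPl_v (σ : K ≃ₐ[k] K') (P : Pl k K) (f : K') : (mapPl σ P).v f = P.v (σ.symm f) := rfl

@[simp] theorem mapPl_v_apply (σ : K ≃ₐ[k] K') (P : Pl k K) (f : K) :
    (mapPl σ P).v (σ f) = P.v f := by
  rw [mapPl_v, σ.symm_apply_apply]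

@[simp] theorem mapPl_refl (P : Pl k K) : mapPl (AlgEquiv.refl (R := k)) P = P := by
  ext f; rfl

theorem mapPl_trans (σ : K ≃ₐ[k] K') (τ : K' ≃ₐ[k] K'') (P : Pl k K) :
    mapPl (σ.trans τ) P = mapPl τ (mapPl σ P) := by
  ext f; rfl

@[simp] theorem mapPl_symm_mapPl (σ : K ≃ₐ[k] K') (P : Pl k K) :
    mapPl σ.symm (mapPl σ P) = P := by
  ext f
  rw [mapPl_v, mapPl_v, AlgEquiv.symm_symm, σ.symm_apply_apply]

@[simp] theorem mapPl_mapPl_symm (σ : K ≃ₐ[k] K') (P : Pl k K') :
    mapPl σ (mapPl σ.symm P) = P := by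
  ext f
  rw [mapPl_v, mapPl_v, AlgEquiv.symm_symm, σ.apply_symm_apply]

theorem mapPl_mul (σ τ : K ≃ₐ[k] K) (P : Pl k K) : mapPl (σ * τ) P = mapPl σ (mapPl τ P) := rfl

@[simp] theorem mapPl_one (P : Pl k K) : mapPl (1 : K ≃ₐ[k] K) P = P := by
  ext f; rfl

/-- the bijection of places -/
noncomputable def plEquiv (σ : K ≃ₐ[k] K') : Pl k K ≃ Pl k K' where
  toFun := mapPl σ
  invFun := mapPl σ.symm
  left_inv := mapPl_symm_mapPl σ
  right_inv := mapPl_mapPl_symm σ

theorem plEquiv_apply (σ : K ≃ₐ[k] K') (P : Pl k K) : plEquiv σ P = mapPl σ P := rfl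

theorem map_ball_mapPl (σ : K ≃ₐ[k] K') (P : Pl k K) (n : ℤ) :
    (ball P n).map (σ.toLinearEquiv : K →ₗ[k] K') = ball (mapPl σ P) n := by
  ext f
  simp only [Submodule.mem_map]
  constructor
  · rintro ⟨g, hg, rfl⟩
    rw [mem_ball] at hg ⊢
    exact (mapPl_v_apply σ P g).trans_le hg
  · intro h
    rw [mem_ball] at h
    exact ⟨σ.symm f, by rw [mem_ball]; exact h, σ.apply_symm_apply f⟩

theorem degE_mapPl (σ : K ≃ₐ[k] K') (P : Pl k K) : degE (mapPl σ P) = degE P := by
  unfold degE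
  rw [← map_ball_mapPl, ← map_ball_mapPl, ri_map]

theorem degP_mapPl (σ : K ≃ₐ[k] K') (P : Pl k K) : degP (mapPl σ P) = degP P := by
  unfold degP
  rw [degE_mapPl]

/-- transport of divisors -/
noncomputable def mapD (σ : K ≃ₐ[k] K') : (Pl k K →₀ ℤ) ≃+ (Pl k K' →₀ ℤ) :=
  Finsupp.domCongr (plEquiv σ)

theorem mapD_apply (σ : K ≃ₐ[k] K') (D : Pl k K →₀ ℤ) (P : Pl k K') :
    mapD σ D P = D (mapPl σ.symm P) := by
  unfold mapD
  rw [Finsupp.domCongr_apply, Finsupp.equivMapDomain_apply]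
  rfl

@[simp] theorem mapD_mapPl (σ : K ≃ₐ[k] K') (D : Pl k K →₀ ℤ) (P : Pl k K) :
    mapD σ D (mapPl σ P) = D P := by
  rw [mapD_apply, mapPl_symm_mapPl]

theorem mapD_single (σ : K ≃ₐ[k] K') (P : Pl k K) (n : ℤ) :
    mapD σ (Finsupp.single P n) = Finsupp.single (mapPl σ P) n := by
  unfold mapD
  rw [Finsupp.domCongr_apply, Finsupp.equivMapDomain_single]
  rfl

theorem mapD_trans (σ : K ≃ₐ[k] K') (τ : K' ≃ₐ[k] K'') (D : Pl k K →₀ ℤ) :
    mapD (σ.trans τ) D = mapD τ (mapD σ D) := by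
  ext P
  rw [mapD_apply, mapD_apply, mapD_apply]
  rfl

theorem mapD_mul (σ τ : K ≃ₐ[k] K) (D : Pl k K →₀ ℤ) : mapD (σ * τ) D = mapD σ (mapD τ D) :=
  mapD_trans τ σ D

@[simp] theorem mapD_one (D : Pl k K →₀ ℤ) : mapD (1 : K ≃ₐ[k] K) D = D := by
  ext P
  rw [mapD_apply]
  rfl

theorem mapD_mono (σ : K ≃ₐ[k] K') {D E : Pl k K →₀ ℤ} (h : D ≤ E) : mapD σ D ≤ mapD σ E := by
  intro P
  rw [mapD_apply, mapD_apply]
  exact h _

theorem degD_mapD (σ : K ≃ₐ[k] K') (D : Pl k K →₀ ℤ) : degD (mapD σ D) = degD D := by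
  unfold mapD degD
  rw [Finsupp.domCongr_apply, Finsupp.sum_equivMapDomain]
  refine Finsupp.sum_congr fun P _ => ?_
  rw [plEquiv_apply, degP_mapPl]

theorem mem_LD_mapD (σ : K ≃ₐ[k] K') {D : Pl k K →₀ ℤ} {f : K} :
    σ f ∈ LD (mapD σ D) ↔ f ∈ LD D := by
  rw [mem_LD, mem_LD]
  constructor
  · intro h P
    have := h (mapPl σ P)
    rwa [mapPl_v_apply, mapD_mapPl] at this
  · intro h P
    rw [mapD_apply]
    exact h (mapPl σ.symm P)

theorem map_LD (σ : K ≃ₐ[k] K') (D : Pl k K →₀ ℤ) :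
    (LD D).map (σ.toLinearEquiv : K →ₗ[k] K') = LD (mapD σ D) := by
  ext f
  simp only [Submodule.mem_map]
  constructor
  · rintro ⟨g, hg, rfl⟩
    exact (mem_LD_mapD σ).mpr hg
  · intro h
    refine ⟨σ.symm f, ?_, σ.apply_symm_apply f⟩
    rw [← mem_LD_mapD σ, σ.apply_symm_apply]
    exact h

theorem ell_mapD (σ : K ≃ₐ[k] K') (D : Pl k K →₀ ℤ) : ell (mapD σ D) = ell D := by
  unfold ell
  rw [← map_LD]
  exact (σ.toLinearEquiv.submoduleMap (LD D)).finrank_eq.symm

section ctx

variable [Algebra (RatFunc k) K] [IsScalarTower k (RatFunc k) K] [FiniteDimensional (RatFunc k) K]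
  [Algebra.IsSeparable (RatFunc k) K] [Algebra (RatFunc k) K'] [IsScalarTower k (RatFunc k) K']
  [FiniteDimensional (RatFunc k) K'] [Algebra.IsSeparable (RatFunc k) K']

theorem divf_map (σ : K ≃ₐ[k] K') (f : K) : divf (k := k) (σ f) = mapD σ (divf f) := by
  by_cases hf : f = 0
  · rw [hf, map_zero]
    have h1 : divf (k := k) (0 : K) = 0 := by unfold divf; rw [dif_pos rfl]
    have h2 : divf (k := k) (0 : K') = 0 := by unfold divf; rw [dif_pos rfl]
    rw [h1, h2, map_zero]
  · ext P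
    have h1 := v_eq (k := k) (f := σ f) (by simpa using hf) P
    have h2 := v_eq (k := k) hf (mapPl σ.symm P)
    rw [mapPl_v, AlgEquiv.symm_symm, h1, exp_inj] at h2
    rw [mapD_apply]
    linarith

theorem algebraicClosure_map (σ : K ≃ₐ[k] K') (hc : algebraicClosure k K = ⊥) :
    algebraicClosure k K' = ⊥ := by
  rw [eq_bot_iff]
  intro x hx
  rw [mem_algebraicClosure_iff] at hx
  have h1 : σ.symm x ∈ algebraicClosure k K := by
    rw [mem_algebraicClosure_iff]
    exact hx.algHom σ.symm.toAlgHom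
  rw [hc, IntermediateField.mem_bot] at h1
  obtain ⟨c, hc'⟩ := h1
  rw [IntermediateField.mem_bot]
  exact ⟨c, by rw [← σ.commutes, hc', σ.apply_symm_apply]⟩

theorem gen_map (σ : K ≃ₐ[k] K') (hc : algebraicClosure k K = ⊥) : gen k K = gen k K' := by
  have hc' := algebraicClosure_map σ hc
  have h : ((gen k K : ℕ) : ℤ) = (gen k K' : ℕ) := by
    apply gen_unique hc'
    · intro D
      have h1 := ell_ge hc (mapD σ.symm D)
      rwa [degD_mapD, ell_mapD] at h1
    · obtain ⟨D, hD⟩ := exists_degD_gt (k := k) (K := K) (2 * (gen k K : ℤ) - 2)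
      refine ⟨mapD σ D, ?_⟩
      rw [degD_mapD, ell_mapD]
      exact ell_eq_of_lt hc hD
  exact_mod_cast h

end ctx

end iso

section galois

variable {k : Type*} [Field k] {K : Type*} [Field K] [Algebra k K] [Algebra (RatFunc k) K]
  [IsScalarTower k (RatFunc k) K] [FiniteDimensional (RatFunc k) K]
  [Algebra.IsSeparable (RatFunc k) K]
  {L : Type*} [Field L] [Algebra k L] [Algebra K L] [IsScalarTower k K L] [FiniteDimensional K L]
  {L' : Type*} [Field L'] [Algebra k L'] [Algebra K L'] [IsScalarTower k K L']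
  [FiniteDimensional K L']

theorem under_mapPl (σ : L ≃ₐ[K] L') (Q : Pl k L) :
    under K (mapPl (σ.restrictScalars k) Q) = under K Q := by
  apply under_eq_of_isEquiv
  have h : (mapPl (σ.restrictScalars k) Q).v.comap (algebraMap K L') = Q.v.comap (algebraMap K L) := by
    ext f
    rw [Valuation.comap_apply, Valuation.comap_apply, mapPl_v]
    show Q.v (σ.symm (algebraMap K L' f)) = _
    rw [AlgEquiv.commutes]
  rw [h]
  exact under_isEquiv Q

theorem eR_mapPl (σ : L ≃ₐ[K] L') (Q : Pl k L) :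
    eR K (mapPl (σ.restrictScalars k) Q) = eR K Q := by
  obtain ⟨t, ht0, ht⟩ := exists_v_eq (under K Q) (-1)
  have h1 := v_algebraMap_exp Q ht
  have h2 := v_algebraMap_exp (mapPl (σ.restrictScalars k) Q) (f := t) (n := -1)
    (by rw [under_mapPl]; exact ht)
  rw [mapPl_v] at h2
  have h3 : (σ.restrictScalars k).symm (algebraMap K L' t) = algebraMap K L t := by
    show σ.symm (algebraMap K L' t) = _
    rw [AlgEquiv.commutes]
  rw [h3, h1, exp_inj] at h2
  omega

end galois

section tower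

variable {k : Type*} [Field k] {K : Type*} [Field K] [Algebra k K] [Algebra (RatFunc k) K]
  [IsScalarTower k (RatFunc k) K] [FiniteDimensional (RatFunc k) K]
  [Algebra.IsSeparable (RatFunc k) K]
  {L : Type*} [Field L] [Algebra k L] [Algebra K L] [IsScalarTower k K L]
  [FiniteDimensional K L] [Algebra.IsSeparable K L]
  [Algebra (RatFunc k) L] [IsScalarTower k (RatFunc k) L] [FiniteDimensional (RatFunc k) L]
  [Algebra.IsSeparable (RatFunc k) L] [IsScalarTower (RatFunc k) K L]
  {M : Type*} [Field M] [Algebra k M] [Algebra K M] [IsScalarTower k K M] [FiniteDimensional K M]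
  [Algebra L M] [IsScalarTower k L M] [IsScalarTower K L M] [FiniteDimensional L M]

theorem under_under (R : Pl k M) : under K (under L R) = under K R := by
  symm
  apply under_eq_of_isEquiv
  have h1 := under_isEquiv (K := K) (under L R)
  have h2 := under_isEquiv (K := L) R
  have h3 : ((under L R).v.comap (algebraMap K L)).IsEquiv (R.v.comap (algebraMap K M)) := by
    have h4 := h2.comap (algebraMap K L)
    rw [← Valuation.comap_comp, ← IsScalarTower.algebraMap_eq] at h4
    exact h4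
  exact h1.trans h3

theorem eR_mul (R : Pl k M) : eR K R = eR K (under L R) * eR L R := by
  obtain ⟨t, ht0, ht⟩ := exists_v_eq (under K R) (-1)
  have h1 := v_algebraMap_exp R ht
  have h2 := v_algebraMap_exp (K := K) (under L R) (f := t) (n := -1)
    (by rw [under_under]; exact ht)
  have h3 := v_algebraMap_exp R h2
  rw [← IsScalarTower.algebraMap_apply, h1, exp_inj] at h3
  push_cast at h3
  have h4 : (eR K R : ℤ) = eR K (under L R) * eR L R := by linarith [mul_comm (eR L R : ℤ) (eR K (under L R))]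
  exact_mod_cast h4

end tower

end Crest.Agent.R013.RR21_948
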