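import Mathlib
import Crest.Agent.R013.RR21_948

/-!
# R013 / RR22: Galois extensions of function fields, norms (helper948)
-/

set_option autoImplicit false
set_option linter.all false

namespace Crest.Agent.R013.RR22_948

open Polynomial WithZero Module IsDedekindDomain nonZeroDivisors
open Crest.Agent.R013.RR1_948 Crest.Agent.R013.RR2_948 Crest.Agent.R013.RR3_948
open Crest.Agent.R013.RR4_948 Crest.Agent.R013.RR5_948 Crest.Agent.R013.RR6_948
open Crest.Agent.R013.RR7_948 Crest.Agent.R013.RR8_948 Crest.Agent.R013.RR9_948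
open Crest.Agent.R013.RR11_948 Crest.Agent.R013.RR12_948 Crest.Agent.R013.RR13_948
open Crest.Agent.R013.RR18_948 Crest.Agent.R013.RR19_948 Crest.Agent.R013.RR20_948
open Crest.Agent.R013.RR21_948

section tower

variable {k : Type*} [Field k] {K : Type*} [Field K] [Algebra k K] [Algebra (RatFunc k) K]
  [IsScalarTower k (RatFunc k) K] [FiniteDimensional (RatFunc k) K]
  [Algebra.IsSeparable (RatFunc k) K]
  {L : Type*} [Field L] [Algebra k L] [Algebra K L] [IsScalarTower k K L]
  [FiniteDimensional K L] [Algebra.IsSeparable K L]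
  [Algebra (RatFunc k) L] [IsScalarTower k (RatFunc k) L] [FiniteDimensional (RatFunc k) L]
  [Algebra.IsSeparable (RatFunc k) L] [IsScalarTower (RatFunc k) K L]
  {M : Type*} [Field M] [Algebra k M] [Algebra K M] [IsScalarTower k K M] [FiniteDimensional K M]
  [Algebra.IsSeparable K M]
  [Algebra L M] [IsScalarTower k L M] [IsScalarTower K L M] [FiniteDimensional L M]
  [Algebra.IsSeparable L M]

theorem con_con (D : Pl k K →₀ ℤ) : con M (con L D) = con M D := by
  ext R
  rw [con_apply, con_apply, con_apply, under_under, eR_mul (K := K) (L := L) R]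
  push_cast
  ring

end tower

section galois

variable {k : Type*} [Field k] {K : Type*} [Field K] [Algebra k K] [Algebra (RatFunc k) K]
  [IsScalarTower k (RatFunc k) K] [FiniteDimensional (RatFunc k) K]
  [Algebra.IsSeparable (RatFunc k) K]
  {L : Type*} [Field L] [Algebra k L] [Algebra K L] [IsScalarTower k K L]
  [FiniteDimensional K L]
  [Algebra (RatFunc k) L] [IsScalarTower k (RatFunc k) L] [FiniteDimensional (RatFunc k) L]
  [Algebra.IsSeparable (RatFunc k) L] [IsScalarTower (RatFunc k) K L]

theorem v_norm [IsGalois K L] (Q : Pl k L) (f : L) :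
    Q.v (algebraMap K L (Algebra.norm K f)) =
      ∏ σ : L ≃ₐ[K] L, (mapPl (σ.restrictScalars k) Q).v f := by
  rw [Algebra.norm_eq_prod_automorphisms, map_prod]
  rw [← Equiv.prod_comp (Equiv.inv (L ≃ₐ[K] L))]
  refine Finset.prod_congr rfl fun σ _ => ?_
  rfl

/-- the Galois group is transitive on the fibres -/
theorem exists_mapPl_eq [IsGalois K L] {Q Q' : Pl k L} (h : under K Q = under K Q') :
    ∃ σ : L ≃ₐ[K] L, mapPl (σ.restrictScalars k) Q = Q' := by
  classical
  by_contra hcon
  push Not at hcon
  obtain ⟨f, hf0, hf⟩ := exists_prescribed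
    (insert Q' ((Finset.univ.image fun σ : L ≃ₐ[K] L => mapPl (σ.restrictScalars k) Q) ∪
      Finset.univ.image fun σ : L ≃ₐ[K] L => mapPl (σ.restrictScalars k) Q'))
    (fun R => if R = Q' then (-1 : ℤ) else 0)
  have h1 : Q.v (algebraMap K L (Algebra.norm K f)) = 1 := by
    rw [v_norm]
    refine Finset.prod_eq_one fun σ _ => ?_
    rw [hf _ (by
      rw [Finset.mem_insert, Finset.mem_union]
      exact Or.inr (Or.inl (Finset.mem_image_of_mem _ (Finset.mem_univ _)))), if_neg (hcon σ), exp_zero]
  have h2 : Q'.v (algebraMap K L (Algebra.norm K f)) < 1 := by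
    rw [v_norm, ← Finset.mul_prod_erase _ _ (Finset.mem_univ (1 : L ≃ₐ[K] L))]
    have h3 : (mapPl ((1 : L ≃ₐ[K] L).restrictScalars k) Q').v f = exp (-1) := by
      have h4 : mapPl ((1 : L ≃ₐ[K] L).restrictScalars k) Q' = Q' := mapPl_one Q'
      rw [h4, hf _ (Finset.mem_insert_self _ _), if_pos rfl]
    rw [h3]
    calc _ ≤ exp (-1) * (1 : ℤᵐ⁰) := by
          apply mul_le_mul_right
          apply Finset.prod_le_one'
          intro σ _
          rw [hf _ (by
            rw [Finset.mem_insert, Finset.mem_union]
            exact Or.inr (Or.inr (Finset.mem_image_of_mem _ (Finset.mem_univ _))))]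
          split_ifs
          · rw [← exp_zero, exp_le_exp]; norm_num
          · rw [exp_zero]
      _ < 1 := by rw [mul_one, ← exp_zero, exp_lt_exp]; norm_num
  rw [← under_lt_one_iff, ← h, under_lt_one_iff, h1] at h2
  exact lt_irrefl _ h2

theorem eR_eq_of_under_eq [IsGalois K L] {Q Q' : Pl k L} (h : under K Q = under K Q') :
    eR K Q = eR K Q' := by
  obtain ⟨σ, rfl⟩ := exists_mapPl_eq h
  rw [eR_mapPl]

theorem degP_eq_of_under_eq [IsGalois K L] {Q Q' : Pl k L} (h : under K Q = under K Q') :
    degP Q = degP Q' := by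
  obtain ⟨σ, rfl⟩ := exists_mapPl_eq h
  rw [degP_mapPl]

theorem card_above_mul [IsGalois K L] (Q : Pl k L) :
    (above L (under K Q)).card * (eR K Q * degP Q) = finrank K L * degP (under K Q) := by
  rw [← sum_eR_degP, Finset.card_eq_sum_ones, Finset.sum_mul]
  refine Finset.sum_congr rfl fun Q' hQ' => ?_
  rw [mem_above] at hQ'
  rw [one_mul, eR_eq_of_under_eq hQ', degP_eq_of_under_eq hQ']

/-- summation over the Galois group = multiple of the summation over the fibre -/
theorem sum_galois [IsGalois K L] (Q : Pl k L) (F : Pl k L → ℤ) :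
    (eR K Q * degP Q : ℤ) * ∑ Q' ∈ above L (under K Q), F Q' =
      degP (under K Q) * ∑ σ : L ≃ₐ[K] L, F (mapPl (σ.restrictScalars k) Q) := by
  classical
  -- the number of `σ` with `σ Q = Q'` is the order of the stabiliser
  set S := above L (under K Q) with hS
  have hmaps : ∀ σ ∈ (Finset.univ : Finset (L ≃ₐ[K] L)), mapPl (σ.restrictScalars k) Q ∈ S := by
    intro σ _
    rw [hS, mem_above, under_mapPl]
  rw [← Finset.sum_fiberwise_of_maps_to hmaps]
  have hcard : ∀ Q' ∈ S, (Finset.univ.filter fun σ : L ≃ₐ[K] L =>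
      mapPl (σ.restrictScalars k) Q = Q').card
      = (Finset.univ.filter fun σ : L ≃ₐ[K] L => mapPl (σ.restrictScalars k) Q = Q).card := by
    intro Q' hQ'
    rw [hS, mem_above] at hQ'
    obtain ⟨τ, hτ⟩ := exists_mapPl_eq hQ'.symm
    symm
    apply Finset.card_bij (fun σ _ => τ * σ)
    · intro σ hσ
      rw [Finset.mem_filter] at hσ ⊢
      refine ⟨Finset.mem_univ _, ?_⟩
      show mapPl (τ.restrictScalars k) (mapPl (σ.restrictScalars k) Q) = Q'
      rw [hσ.2, hτ]
    · intro σ _ σ' _ h
      exact mul_left_cancel h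
    · intro ρ hρ
      rw [Finset.mem_filter] at hρ
      refine ⟨τ⁻¹ * ρ, ?_, by simp⟩
      rw [Finset.mem_filter]
      refine ⟨Finset.mem_univ _, ?_⟩
      show mapPl ((τ⁻¹).restrictScalars k) (mapPl (ρ.restrictScalars k) Q) = Q
      rw [hρ.2, ← hτ]
      exact mapPl_symm_mapPl (τ.restrictScalars k) Q
  set s := (Finset.univ.filter fun σ : L ≃ₐ[K] L => mapPl (σ.restrictScalars k) Q = Q).card with hs
  have h1 : ∀ Q' ∈ S, ∑ σ ∈ Finset.univ.filter (fun σ : L ≃ₐ[K] L =>
      mapPl (σ.restrictScalars k) Q = Q'), F (mapPl (σ.restrictScalars k) Q) = s * F Q' := by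
    intro Q' hQ'
    rw [← hcard Q' hQ', ← nsmul_eq_mul, ← Finset.sum_const]
    refine Finset.sum_congr rfl fun σ hσ => ?_
    rw [Finset.mem_filter] at hσ
    rw [hσ.2]
  rw [Finset.sum_congr rfl h1, ← Finset.mul_sum, ← mul_assoc]
  congr 1
  -- `s * card S = n`
  have h2 : s * S.card = finrank K L := by
    have h3 := Finset.card_eq_sum_card_fiberwise hmaps
    rw [Finset.card_univ, ← Nat.card_eq_fintype_card, IsGalois.card_aut_eq_finrank,
      Finset.sum_congr rfl hcard, Finset.sum_const, smul_eq_mul] at h3
    rw [h3, mul_comm]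
  have h4 := card_above_mul (K := K) Q
  rw [← hS, ← h2] at h4
  have h5 : 0 < S.card := Finset.card_pos.mpr ⟨Q, by rw [hS, mem_above]⟩
  have h6 : eR K Q * degP Q = s * degP (under K Q) := by
    apply Nat.eq_of_mul_eq_mul_left h5
    rw [h4]; ring
  have h7 : ((eR K Q * degP Q : ℕ) : ℤ) = ((s * degP (under K Q) : ℕ) : ℤ) := by rw [h6]
  push_cast at h7
  rw [h7, mul_comm]

/-- the norm is the push-forward, Galois case -/
theorem divf_norm_galois [IsGalois K L] {f : L} (hf : f ≠ 0) (P : Pl k K) :
    divf (k := k) (Algebra.norm K f) P * degP P =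
      ∑ Q ∈ above L P, divf (k := k) f Q * degP Q := by
  classical
  obtain ⟨Q, hQ⟩ := above_nonempty (L := L) P
  rw [mem_above] at hQ
  subst hQ
  have hN : Algebra.norm K f ≠ 0 := Algebra.norm_ne_zero_iff.mpr hf
  have h1 := v_norm (k := k) (K := K) Q f
  rw [v_algebraMap_exp Q (v_eq (k := k) hN (under K Q))] at h1
  have h2 : ∏ σ : L ≃ₐ[K] L, (mapPl (σ.restrictScalars k) Q).v f
      = exp (∑ σ : L ≃ₐ[K] L, -divf (k := k) f (mapPl (σ.restrictScalars k) Q)) := by
    rw [Finset.prod_congr rfl fun σ _ => v_eq (k := k) hf _]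
    induction (Finset.univ : Finset (L ≃ₐ[K] L)) using Finset.induction_on with
    | empty => simp
    | insert a s ha ih => rw [Finset.prod_insert ha, Finset.sum_insert ha, exp_add, ih]
  rw [h2, exp_inj, Finset.sum_neg_distrib] at h1
  have h3 := sum_galois (K := K) Q (fun Q' => divf (k := k) f Q')
  have h4 : (eR K Q : ℤ) * divf (k := k) (Algebra.norm K f) (under K Q)
      = ∑ σ : L ≃ₐ[K] L, divf (k := k) f (mapPl (σ.restrictScalars k) Q) := by linarith
  rw [← h4] at h3
  have h5 : (eR K Q : ℤ) ≠ 0 := by
    have := eR_pos (K := K) Q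
    omega
  have h6 : ∑ Q' ∈ above L (under K Q), divf (k := k) f Q' * degP Q'
      = degP Q * ∑ Q' ∈ above L (under K Q), divf (k := k) f Q' := by
    rw [Finset.mul_sum]
    refine Finset.sum_congr rfl fun Q' hQ' => ?_
    rw [mem_above] at hQ'
    rw [degP_eq_of_under_eq hQ']
    ring
  rw [h6]
  apply mul_left_cancel₀ h5
  linarith

end galois

section closure

universe u v

/-- a Galois closure, as an abstract field -/
theorem exists_galois_closure (K : Type u) (L : Type v) [Field K] [Field L] [Algebra K L]
    [FiniteDimensional K L] [Algebra.IsSeparable K L] :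
    ∃ (M : Type u) (_ : Field M) (_ : Algebra K M) (_ : Algebra L M), IsScalarTower K L M ∧
      IsGalois K M ∧ FiniteDimensional K M ∧ FiniteDimensional L M := by
  let pb := Field.powerBasisOfFiniteOfSeparable K L
  have hgen : IsIntegral K pb.gen := pb.isIntegral_gen
  let M := (minpoly K pb.gen).SplittingField
  have hsep : (minpoly K pb.gen).Separable := Algebra.IsSeparable.isSeparable K pb.gen
  haveI : IsGalois K M := IsGalois.of_separable_splitting_field (p := minpoly K pb.gen) hsep
  obtain ⟨y, hy⟩ := (SplittingField.splits (minpoly K pb.gen)).exists_eval_eq_zero (by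
    rw [degree_map]
    exact (minpoly.degree_pos hgen).ne')
  rw [eval_map_algebraMap] at hy
  let φ : L →ₐ[K] M := pb.lift y hy
  letI : Algebra L M := φ.toRingHom.toAlgebra
  haveI : IsScalarTower K L M := IsScalarTower.of_algebraMap_eq fun c => (φ.commutes c).symm
  haveI : FiniteDimensional L M := Module.Finite.of_restrictScalars_finite K L M
  exact ⟨M, inferInstance, inferInstance, inferInstance, inferInstance, inferInstance,
    inferInstance, inferInstance⟩

end closure

section norm

variable {k : Type*} [Field k] {K : Type*} [Field K] [Algebra k K] [Algebra (RatFunc k) K]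
  [IsScalarTower k (RatFunc k) K] [FiniteDimensional (RatFunc k) K]
  [Algebra.IsSeparable (RatFunc k) K]
  {L : Type*} [Field L] [Algebra k L] [Algebra K L] [IsScalarTower k K L]
  [FiniteDimensional K L] [Algebra.IsSeparable K L]
  [Algebra (RatFunc k) L] [IsScalarTower k (RatFunc k) L] [FiniteDimensional (RatFunc k) L]
  [Algebra.IsSeparable (RatFunc k) L] [IsScalarTower (RatFunc k) K L]

/-- **the divisor of the norm is the push-forward of the divisor** -/
theorem divf_norm {f : L} (hf : f ≠ 0) (P : Pl k K) :
    divf (k := k) (Algebra.norm K f) P * degP P =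
      ∑ Q ∈ above L P, divf (k := k) f Q * degP Q := by
  classical
  obtain ⟨M, iF, iK, iL, iT, iG, iFK, iFL⟩ := exists_galois_closure K L
  letI : Algebra k M := ((algebraMap K M).comp (algebraMap k K)).toAlgebra
  letI : Algebra (RatFunc k) M := ((algebraMap K M).comp (algebraMap (RatFunc k) K)).toAlgebra
  haveI : IsScalarTower k K M := IsScalarTower.of_algebraMap_eq fun _ => rfl
  haveI : IsScalarTower (RatFunc k) K M := IsScalarTower.of_algebraMap_eq fun _ => rfl
  haveI : IsScalarTower k (RatFunc k) M := IsScalarTower.of_algebraMap_eq fun c => by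
    show algebraMap K M (algebraMap k K c) = algebraMap K M (algebraMap (RatFunc k) K _)
    rw [← IsScalarTower.algebraMap_apply k (RatFunc k) K]
  haveI : IsScalarTower k L M := IsScalarTower.of_algebraMap_eq fun c => by
    rw [IsScalarTower.algebraMap_apply k K L, ← IsScalarTower.algebraMap_apply K L M]
    rfl
  haveI : IsScalarTower (RatFunc k) L M := IsScalarTower.of_algebraMap_eq fun c => by
    rw [IsScalarTower.algebraMap_apply (RatFunc k) K L, ← IsScalarTower.algebraMap_apply K L M]
    rfl
  haveI : FiniteDimensional (RatFunc k) M := Module.Finite.trans K M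
  haveI : Algebra.IsSeparable K M := inferInstance
  haveI : Algebra.IsSeparable (RatFunc k) M := Algebra.IsSeparable.trans (RatFunc k) K M
  haveI : Algebra.IsSeparable L M := Algebra.isSeparable_tower_top_of_isSeparable K L M
  have hg0 : algebraMap L M f ≠ 0 := by simpa using hf
  have h1 := divf_norm_galois (k := k) (K := K) (L := M) hg0 P
  have h2 : Algebra.norm K (algebraMap L M f) = (Algebra.norm K f) ^ finrank L M := by
    rw [← Algebra.norm_norm (S := L), Algebra.norm_algebraMap, map_pow]
  have hN : Algebra.norm K f ≠ 0 := Algebra.norm_ne_zero_iff.mpr hf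
  have h3 : divf (k := k) (Algebra.norm K (algebraMap L M f)) = finrank L M • divf (Algebra.norm K f) := by
    rw [h2]
    generalize finrank L M = n
    induction n with
    | zero => rw [pow_zero, zero_nsmul, divf_one]
    | succ n ih => rw [pow_succ, divf_mul (pow_ne_zero n hN) hN, ih, succ_nsmul]
  have h4 : ∑ R ∈ above M P, divf (k := k) (algebraMap L M f) R * degP R =
      ∑ Q ∈ above L P, (finrank L M : ℤ) * (divf (k := k) f Q * degP Q) := by
    have hmaps : ∀ R ∈ above M P, under L R ∈ above L P := by
      intro R hR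
      rw [mem_above] at hR ⊢
      rw [under_under, hR]
    rw [← Finset.sum_fiberwise_of_maps_to hmaps]
    refine Finset.sum_congr rfl fun Q hQ => ?_
    rw [mem_above] at hQ
    have h5 : (above M P).filter (fun R => under L R = Q) = above M Q := by
      ext R
      rw [Finset.mem_filter, mem_above, mem_above]
      constructor
      · exact fun h => h.2
      · rintro rfl
        exact ⟨by rw [← hQ, under_under], rfl⟩
    rw [h5]
    have h6 := sum_eR_degP (L := M) Q
    have h7 : ((∑ R ∈ above M Q, eR L R * degP R : ℕ) : ℤ) = ((finrank L M * degP Q : ℕ) : ℤ) := by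
      rw [h6]
    push_cast at h7
    calc ∑ R ∈ above M Q, divf (k := k) (algebraMap L M f) R * degP R
        = ∑ R ∈ above M Q, divf (k := k) f Q * (eR L R * degP R) := by
          refine Finset.sum_congr rfl fun R hR => ?_
          rw [mem_above] at hR
          rw [← con_divf hf, con_apply, hR]
          ring
      _ = _ := by rw [← Finset.mul_sum, h7]; ring
  rw [h3, h4, ← Finset.mul_sum] at h1
  have h8 : (finrank L M : ℤ) ≠ 0 := by
    have : 0 < finrank L M := Module.finrank_pos
    omega
  apply mul_left_cancel₀ h8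
  rw [← h1, Finsupp.smul_apply, nsmul_eq_mul]
  ring

/-- the norm is the push-forward; places of degree one above (e.g. `k` algebraically closed) -/
theorem divf_norm_of_degP {f : L} (hf : f ≠ 0) (P : Pl k K)
    (hP : ∀ Q ∈ above L P, degP Q = degP P) :
    divf (k := k) (Algebra.norm K f) P = ∑ Q ∈ above L P, divf (k := k) f Q := by
  have h := divf_norm hf P
  have h1 : ∑ Q ∈ above L P, divf (k := k) f Q * degP Q
      = (∑ Q ∈ above L P, divf (k := k) f Q) * degP P := by
    rw [Finset.sum_mul]
    exact Finset.sum_congr rfl fun Q hQ => by rw [hP Q hQ]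
  rw [h1] at h
  have h2 : (degP P : ℤ) ≠ 0 := by
    have := degP_pos P
    omega
  exact mul_right_cancel₀ h2 h

end norm

end Crest.Agent.R013.RR22_948
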