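import Mathlib
import Crest.Agent.R013.RR22_948

/-!
# R013 / GR2: function fields over algebraically closed constants; fixed places of automorphisms of
order `p` in characteristic `p` (helper921)

* `hc_of_isAlgClosed`, `degP_eq_one`, `exists_const` : algebraically closed constants;
* `gen_lower_of_fixed` : `L/K` cyclic of degree `p = char k`, some place of `L` fixed by the group
  ==> `gen L ≥ p (gen K - 1) + 2` (no Riemann-Hurwitz, only Riemann-Roch and linear algebra).
-/

set_option autoImplicit false
set_option linter.all false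

namespace Crest.Agent.R013.GR2_921

open Polynomial WithZero Module
open Crest.Agent.R013.RR1_948 Crest.Agent.R013.RR2_948
open Crest.Agent.R013.RR7_948 Crest.Agent.R013.RR8_948 Crest.Agent.R013.RR9_948
open Crest.Agent.R013.RR11_948 Crest.Agent.R013.RR12_948 Crest.Agent.R013.RR13_948
open Crest.Agent.R013.RR14_948
open Crest.Agent.R013.RR18_948 Crest.Agent.R013.RR19_948 Crest.Agent.R013.RR20_948
open Crest.Agent.R013.RR21_948 Crest.Agent.R013.RR22_948
open Crest.NumberTheoryR.Sect
open scoped NNReal

section closed

variable {k : Type*} [Field k] [IsAlgClosed k] {K : Type*} [Field K] [Algebra k K]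

theorem hc_of_isAlgClosed : algebraicClosure k K = ⊥ := by
  rw [eq_bot_iff]
  intro x hx
  rw [mem_algebraicClosure_iff] at hx
  rw [IntermediateField.mem_bot]
  have h1 : (minpoly k x).Splits := IsAlgClosed.splits _
  have h2 : (minpoly k x).degree = 1 :=
    IsAlgClosed.degree_eq_one_of_irreducible k (minpoly.irreducible hx.isIntegral)
  exact (minpoly.mem_range_of_degree_eq_one k x h2)

variable [Algebra (RatFunc k) K]
  [IsScalarTower k (RatFunc k) K] [FiniteDimensional (RatFunc k) K]
  [Algebra.IsSeparable (RatFunc k) K]

/-- the residue field of every place is `k` -/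
theorem exists_const (P : Pl k K) {u : K} (hu : P.v u ≤ 1) :
    ∃ c : k, P.v (u - algebraMap k K c) < 1 := by
  obtain ⟨f, hf0, hf⟩ := exists_poly_lt_one P (by rw [degE_eq]; exact ENat.natCast_ne_top _) hu
  by_contra hcon
  push Not at hcon
  have hsp : f.Splits := IsAlgClosed.splits f
  have h1 := hsp.eq_prod_roots
  rw [h1] at hf
  rw [map_mul, aeval_C, map_multiset_prod, Multiset.map_map, map_mul, map_multiset_prod,
    Multiset.map_map, P.const _ (leadingCoeff_ne_zero.mpr hf0), one_mul] at hf
  refine absurd hf (not_lt.mpr ?_)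
  apply Multiset.one_le_prod_of_one_le
  intro x hx
  rw [Multiset.mem_map] at hx
  obtain ⟨c, _, rfl⟩ := hx
  simp only [Function.comp_apply, map_sub, aeval_X, aeval_C]
  exact hcon c

theorem degP_eq_one (P : Pl k K) : degP P = 1 := by
  rw [← isRationalPlace_iff (isPlace_vR P) (isEquiv_vR P)]
  refine ⟨isPlace_vR P, fun a ha => ?_⟩
  obtain ⟨c, hc⟩ := exists_const P ((isEquiv_vR P).le_one_iff_le_one.mpr ha)
  exact ⟨c, (isEquiv_vR P).lt_one_iff_lt_one.mp hc⟩

theorem degD_eq_sum (D : Pl k K →₀ ℤ) : degD D = D.sum fun _ n => n := by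
  unfold degD
  refine Finsupp.sum_congr fun P _ => ?_
  rw [degP_eq_one]; simp

end closed

section linear

variable {k V : Type*} [Field k] [AddCommGroup V] [Module k V] [Module.Finite k V]

theorem finrank_ker_pow_le (N : V →ₗ[k] V) (n : ℕ) :
    finrank k (LinearMap.ker (N ^ n)) ≤ n * finrank k (LinearMap.ker N) := by
  induction n with
  | zero => simp [Module.End.one_eq_id]
  | succ n ih =>
    -- `N ^ n` maps `ker (N ^ (n+1))` to `ker N` with kernel `ker (N ^ n)`
    have hmaps : ∀ x ∈ LinearMap.ker (N ^ (n + 1)), (N ^ n) x ∈ LinearMap.ker N := by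
      intro x hx
      rw [LinearMap.mem_ker] at hx ⊢
      rw [pow_succ'] at hx
      exact hx
    let f : LinearMap.ker (N ^ (n + 1)) →ₗ[k] LinearMap.ker N := (N ^ n).restrict hmaps
    have h1 := LinearMap.finrank_range_add_finrank_ker f
    have h2 : finrank k (LinearMap.range f) ≤ finrank k (LinearMap.ker N) :=
      Submodule.finrank_le _
    have h3 : finrank k (LinearMap.ker f) ≤ finrank k (LinearMap.ker (N ^ n)) := by
      let g : LinearMap.ker f →ₗ[k] LinearMap.ker (N ^ n) :=
        LinearMap.codRestrict _ ((Submodule.subtype _).comp (Submodule.subtype _)) (by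
          rintro ⟨⟨x, hx⟩, hx'⟩
          rw [LinearMap.mem_ker] at hx' ⊢
          exact congrArg Subtype.val hx')
      apply LinearMap.finrank_le_finrank_of_injective (f := g)
      rintro ⟨⟨x, hx⟩, hx'⟩ ⟨⟨y, hy⟩, hy'⟩ h
      have : x = y := congrArg Subtype.val h
      subst this; rfl
    have h4 : (n + 1) * finrank k (LinearMap.ker N)
        = n * finrank k (LinearMap.ker N) + finrank k (LinearMap.ker N) := by ring
    omega

theorem finrank_le_of_pow_eq_zero (N : V →ₗ[k] V) (n : ℕ) (h : N ^ n = 0) :
    finrank k V ≤ n * finrank k (LinearMap.ker N) := by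
  have h1 := finrank_ker_pow_le N n
  rw [h, LinearMap.ker_zero, finrank_top] at h1
  exact h1

end linear

section galois

variable {K L : Type*} [Field K] [Field L] [Algebra K L] [FiniteDimensional K L]

/-- an element fixed by a nontrivial automorphism of an extension of prime degree is in the base -/
theorem mem_range_of_fixed {p : ℕ} (hp : p.Prime) (hdeg : finrank K L = p) {σ : L ≃ₐ[K] L}
    (hσ : σ ≠ 1) {x : L} (hx : σ x = x) : x ∈ Set.range (algebraMap K L) := by
  let E : IntermediateField K L := IntermediateField.fixedField (Subgroup.zpowers σ)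
  have hxE : x ∈ E := by
    rw [IntermediateField.mem_fixedField_iff]
    intro τ hτ
    obtain ⟨n, rfl⟩ := Subgroup.mem_zpowers_iff.mp hτ
    have h1 : ∀ m : ℕ, (σ ^ m) x = x := by
      intro m
      induction m with
      | zero => simp
      | succ m ih => rw [pow_succ, AlgEquiv.mul_apply, hx, ih]
    have h2 : ∀ m : ℕ, (σ ^ m)⁻¹ x = x := by
      intro m
      rw [AlgEquiv.aut_inv, AlgEquiv.symm_apply_eq, h1]
    rcases n with m | m
    · simpa using h1 m
    · simpa [zpow_negSucc] using h2 (m + 1)
  have h1 := finrank_mul_finrank K E L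
  rw [hdeg] at h1
  have h2 : finrank E L ≠ 1 := by
    intro h
    have h4 : E = ⊤ := by
      apply IntermediateField.eq_of_le_of_finrank_eq' le_top
      rw [h]
      exact (IntermediateField.finrank_top (F := K) (E := L)).symm
    apply hσ
    ext y
    have hy : y ∈ E := by rw [h4]; trivial
    rw [IntermediateField.mem_fixedField_iff] at hy
    exact hy σ (Subgroup.mem_zpowers σ)
  have h3 : finrank K E = 1 := by
    rcases (Nat.dvd_prime hp).mp ⟨finrank K E, by rw [mul_comm]; exact h1.symm⟩ with h | h
    · exact absurd h h2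
    · rw [h] at h1
      exact Nat.eq_of_mul_eq_mul_right hp.pos (by rw [h1, one_mul])
  have h4 : E = ⊥ := IntermediateField.finrank_eq_one_iff.mp h3
  rw [h4, IntermediateField.mem_bot] at hxE
  exact hxE

theorem isGalois_of_prime {p : ℕ} (hp : p.Prime) (hdeg : finrank K L = p) {σ : L ≃ₐ[K] L}
    (hσ : σ ≠ 1) : IsGalois K L := by
  apply IsGalois.of_fixedField_eq_bot
  rw [eq_bot_iff]
  intro x hx
  rw [IntermediateField.mem_fixedField_iff] at hx
  rw [IntermediateField.mem_bot]
  exact mem_range_of_fixed hp hdeg hσ (hx σ trivial)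

end galois

section fixed

variable {k : Type*} [Field k] [IsAlgClosed k] {K : Type*} [Field K] [Algebra k K]
  [Algebra (RatFunc k) K]
  [IsScalarTower k (RatFunc k) K] [FiniteDimensional (RatFunc k) K]
  [Algebra.IsSeparable (RatFunc k) K]
  {L : Type*} [Field L] [Algebra k L] [Algebra K L] [IsScalarTower k K L] [FiniteDimensional K L]
  [Algebra (RatFunc k) L] [IsScalarTower k (RatFunc k) L] [FiniteDimensional (RatFunc k) L]
  [Algebra.IsSeparable (RatFunc k) L] [IsScalarTower (RatFunc k) K L]

/-- a fixed place is totally ramified -/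
theorem eR_of_fixed {p : ℕ} (hp : p.Prime) (hdeg : finrank K L = p) {σ : L ≃ₐ[K] L}
    (hσ : σ ≠ 1) {b : Pl k L} (hb : mapPl (σ.restrictScalars k) b = b) : eR K b = p := by
  haveI := isGalois_of_prime hp hdeg hσ
  haveI : Fact p.Prime := ⟨hp⟩
  classical
  -- every automorphism fixes `b`
  have hcard : Nat.card (L ≃ₐ[K] L) = p := by rw [IsGalois.card_aut_eq_finrank, hdeg]
  have hall : ∀ τ : L ≃ₐ[K] L, mapPl (τ.restrictScalars k) b = b := by
    intro τ
    have h1 : τ ∈ Subgroup.zpowers σ := mem_zpowers_of_prime_card hcard hσ
    obtain ⟨n, rfl⟩ := Subgroup.mem_zpowers_iff.mp h1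
    have hpow : ∀ m : ℕ, mapPl ((σ ^ m).restrictScalars k) b = b := by
      intro m
      induction m with
      | zero => exact mapPl_one b
      | succ m ih =>
        have : (σ ^ (m + 1)).restrictScalars k
            = ((σ ^ m).restrictScalars k) * (σ.restrictScalars k) := by
          rw [pow_succ]; rfl
        rw [this, mapPl_mul, hb, ih]
    rcases n with m | m
    · simpa using hpow m
    · have h2 := hpow (m + 1)
      have h3 : (σ ^ (Int.negSucc m)).restrictScalars k
          = ((σ ^ (m + 1)).restrictScalars k).symm := by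
        rw [zpow_negSucc]; rfl
      rw [h3]
      conv_lhs => rw [← h2]
      exact mapPl_symm_mapPl _ _
  have habove : above L (under K b) = {b} := by
    ext Q
    rw [mem_above, Finset.mem_singleton]
    constructor
    · intro hQ
      obtain ⟨τ, hτ⟩ := exists_mapPl_eq (K := K) (Q := b) (Q' := Q) hQ.symm
      rw [← hτ, hall τ]
    · rintro rfl; rfl
  have h1 := card_above_mul (K := K) b
  rw [habove, degP_eq_one, degP_eq_one, hdeg] at h1
  simpa using h1

/-- **(FIX)** cyclic extensions of degree `p` in characteristic `p` with a fixed place -/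
theorem gen_lower_of_fixed {p : ℕ} (hp : p.Prime) [CharP k p] (hdeg : finrank K L = p)
    {σ : L ≃ₐ[K] L} (hσ : σ ≠ 1) {b : Pl k L} (hb : mapPl (σ.restrictScalars k) b = b) :
    (p : ℤ) * ((gen k K : ℤ) - 1) + 2 ≤ gen k L := by
  classical
  haveI hgal := isGalois_of_prime hp hdeg hσ
  have heR := eR_of_fixed (k := k) hp hdeg hσ hb
  obtain ⟨D, hD'⟩ := exists_degD_gt (k := k) (K := K) (2 * (gen k K : ℤ))
  have hD : 2 * (gen k K : ℤ) - 2 < degD D := by linarith
  have hcK : algebraicClosure k K = ⊥ := hc_of_isAlgClosed
  have hcL : algebraicClosure k L = ⊥ := hc_of_isAlgClosed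
  let E : Pl k L →₀ ℤ := con L D + Finsupp.single b 1
  haveI : Module.Finite k (LD E) := LD_finite E
  -- `σ` acts on `LD E`
  have hst : ∀ f ∈ LD E, σ f ∈ LD E := by
    intro f hf
    rw [mem_LD] at hf ⊢
    intro Q
    have h1 := hf (mapPl (σ.restrictScalars k).symm Q)
    have h2 : (mapPl (σ.restrictScalars k).symm Q).v f = Q.v (σ f) := rfl
    have h3 : E (mapPl (σ.restrictScalars k).symm Q) = E Q := by
      have h4 : under K (mapPl (σ.restrictScalars k).symm Q) = under K Q :=
        under_mapPl (k := k) σ.symm Q
      have h5 : eR K (mapPl (σ.restrictScalars k).symm Q) = eR K Q :=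
        eR_mapPl (k := k) σ.symm Q
      show con L D _ + Finsupp.single b 1 _ = con L D Q + Finsupp.single b 1 Q
      rw [con_apply, con_apply, h4, h5]
      congr 1
      rw [Finsupp.single_apply, Finsupp.single_apply]
      have h6 : b = mapPl (σ.restrictScalars k).symm Q ↔ b = Q := by
        constructor
        · intro h
          have h7 := congrArg (mapPl (σ.restrictScalars k)) h
          rw [hb, mapPl_mapPl_symm] at h7
          exact h7
        · rintro rfl
          conv_rhs => rw [← hb]
          rw [mapPl_symm_mapPl]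
      simp only [h6]
    rw [h2, h3] at h1
    exact h1
  let S : Module.End k (LD E) := LinearMap.restrict (σ.restrictScalars k).toLinearEquiv.toLinearMap hst
  have hSp : S ^ p = 1 := by
    have h1 : ∀ (n : ℕ) (x : LD E), ((S ^ n) x : L) = (σ ^ n) (x : L) := by
      intro n
      induction n with
      | zero => intro x; simp
      | succ n ih =>
        intro x
        rw [pow_succ, pow_succ, Module.End.mul_apply, ih, AlgEquiv.mul_apply]
        rfl
    have h2 : σ ^ p = 1 := by
      have : Nat.card (L ≃ₐ[K] L) = p := by rw [IsGalois.card_aut_eq_finrank, hdeg]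
      rw [← this]; exact pow_card_eq_one'
    ext x
    rw [h1, h2]; rfl
  have hN : (S - 1) ^ p = 0 := by
    haveI : Fact p.Prime := ⟨hp⟩
    haveI : CharP (Module.End k (LD E)) p := by
      haveI : Nontrivial (LD E) := by
        -- large degree
        apply Submodule.nontrivial_iff_ne_bot.mpr
        intro h
        have h1 : ell E = 0 := by unfold ell; rw [h]; simp
        have h3 := ell_eq_of_lt hcK hD
        have h4 : 0 < ell D := by
          have : (0 : ℤ) ≤ gen k K := by positivity
          have h5 : (0 : ℤ) < ell D := by rw [h3]; linarith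
          exact_mod_cast h5
        have h5 : ∃ f : K, f ∈ LD D ∧ f ≠ 0 := by
          by_contra hcon
          push Not at hcon
          have : LD D = ⊥ := by
            rw [eq_bot_iff]; intro f hf; exact hcon f hf
          unfold ell at h4
          rw [this] at h4
          simp at h4
        obtain ⟨f, hf, hf0⟩ := h5
        have h6 : algebraMap K L f ∈ LD E := by
          have h7 := (algebraMap_mem_LD_con (L := L) (D := D) (f := f)).mpr hf
          refine LD_mono ?_ h7
          intro Q
          show con L D Q ≤ con L D Q + Finsupp.single b 1 Q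
          have : (0 : ℤ) ≤ Finsupp.single b 1 Q := by
            rw [Finsupp.single_apply]; split_ifs <;> norm_num
          omega
        rw [h, Submodule.mem_bot] at h6
        exact hf0 (by simpa using h6)
      haveI : Nontrivial (Module.End k (LD E)) := inferInstance
      exact charP_of_injective_algebraMap (algebraMap k (Module.End k (LD E))).injective p
    have hcomm : Commute (S : Module.End k (LD E)) (1 : Module.End k (LD E)) := Commute.one_right S
    have h1 : (S - 1) ^ p = S ^ p - 1 ^ p :=
      sub_pow_char_of_commute (R := Module.End k (LD E)) p hcomm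
    rw [one_pow] at h1
    refine h1.trans ?_
    rw [hSp]; exact sub_self (1 : Module.End k (LD E))
  have h1 := finrank_le_of_pow_eq_zero (S - 1) p hN
  -- the kernel
  have h2 : finrank k (LinearMap.ker (S - 1)) ≤ ell D := by
    unfold ell
    haveI : Module.Finite k (LD D) := LD_finite D
    -- the image of `LD D` contains the kernel
    let j : LD D →ₗ[k] L := (IsScalarTower.toAlgHom k K L).toLinearMap.comp (LD D).subtype
    have hk : (LinearMap.ker (S - 1)).map (LD E).subtype ≤ LinearMap.range j := by
      rintro _ ⟨⟨x, hx⟩, hx', rfl⟩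
      rw [SetLike.mem_coe, LinearMap.mem_ker] at hx'
      have h3 : σ x = x := by
        have h4 := congrArg Subtype.val hx'
        have h5 : σ x - x = 0 := h4
        exact sub_eq_zero.mp h5
      obtain ⟨a, rfl⟩ := mem_range_of_fixed hp hdeg hσ h3
      refine ⟨⟨a, ?_⟩, rfl⟩
      rw [mem_LD] at hx ⊢
      intro P
      by_cases ha : a = 0
      · rw [ha, map_zero]; exact zero_le
      obtain ⟨Q, hQ⟩ := above_nonempty (L := L) P
      rw [mem_above] at hQ
      have h5 := hx Q
      have h6 : P.v a = exp (log (P.v a)) := (exp_log ((Valuation.ne_zero_iff _).mpr ha)).symm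
      have h7 := v_algebraMap_exp (K := K) Q (f := a) (n := log (P.v a)) (by rw [hQ]; exact h6)
      rw [h7, exp_le_exp] at h5
      have h8 : E Q = eR K Q * D P + Finsupp.single b 1 Q := by
        show con L D Q + _ = _
        rw [con_apply, hQ]
      rw [h8] at h5
      rw [h6, exp_le_exp]
      by_cases hbQ : b = Q
      · subst hbQ
        rw [heR, Finsupp.single_eq_same] at h5
        by_contra hcon
        push Not at hcon
        have h9 : D P + 1 ≤ log (P.v a) := hcon
        have h10 : (p : ℤ) * (D P + 1) ≤ p * log (P.v a) :=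
          mul_le_mul_of_nonneg_left h9 (by positivity)
        have h11 : (2 : ℤ) ≤ p := by exact_mod_cast hp.two_le
        have h12 : (p : ℤ) * (D P + 1) = p * D P + p := by ring
        omega
      · rw [Finsupp.single_apply, if_neg hbQ, add_zero] at h5
        have h9 : (0 : ℤ) < eR K Q := by
          have := eR_pos (K := K) Q
          omega
        exact le_of_mul_le_mul_left h5 h9
    have h3 : finrank k (LinearMap.ker (S - 1))
        = finrank k ((LinearMap.ker (S - 1)).map (LD E).subtype) :=
      (LinearEquiv.finrank_eq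
        (Submodule.equivMapOfInjective (LD E).subtype (Submodule.subtype_injective _) _))
    rw [h3]
    haveI : Module.Finite k (LinearMap.range j) := inferInstance
    exact (Submodule.finrank_mono hk).trans (LinearMap.finrank_range_le j)
  have h3 : (ell E : ℤ) ≤ p * ell D := by
    have h4 : finrank k (LD E) ≤ p * ell D :=
      h1.trans (Nat.mul_le_mul_left _ h2)
    exact_mod_cast h4
  have h4 := ell_ge hcL E
  have h5 : degD E = p * degD D + 1 := by
    show degD (con L D + Finsupp.single b 1) = _
    rw [degD_add, degD_con, degD_single, degP_eq_one, hdeg]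
    simp
  have h6 := ell_eq_of_lt hcK hD
  rw [h6] at h3
  rw [h5] at h4
  have h7 : (p : ℤ) * (degD D + 1 - gen k K) = p * degD D + p - p * gen k K := by ring
  have h8 : (p : ℤ) * ((gen k K : ℤ) - 1) = p * gen k K - p := by ring
  rw [h7] at h3
  rw [h8]
  linarith

end fixed

end Crest.Agent.R013.GR2_921
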