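import Mathlib
import Crest.Agent.R013.GR2_921

/-!
# R013 / GR3: genus as a predicate, semilinear isomorphisms, purely inseparable extensions of
degree `p` (helper921)
-/

set_option autoImplicit false
set_option linter.all false

namespace Crest.Agent.R013.GR3_921

open Polynomial WithZero Module
open Crest.Agent.R013.RR1_948 Crest.Agent.R013.RR2_948
open Crest.Agent.R013.RR7_948 Crest.Agent.R013.RR8_948 Crest.Agent.R013.RR9_948
open Crest.Agent.R013.RR11_948 Crest.Agent.R013.RR12_948 Crest.Agent.R013.RR13_948
open Crest.Agent.R013.RR14_948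
open Crest.Agent.R013.RR18_948 Crest.Agent.R013.RR19_948 Crest.Agent.R013.RR20_948
open Crest.Agent.R013.RR21_948 Crest.Agent.R013.RR22_948
open Crest.Agent.R013.GR2_921

/-- `K/k` is a function field (in 948's sense for some `k(X)`-structure) of genus `g` -/
def HasGen (k K : Type*) [Field k] [Field K] [Algebra k K] (g : ℕ) : Prop :=
  ∃ (i : Algebra (RatFunc k) K) (j : @IsScalarTower k (RatFunc k) K _ i.toSMul _)
    (f : @FiniteDimensional (RatFunc k) K _ _ i.toModule)
    (s : @Algebra.IsSeparable (RatFunc k) K _ _ i), @gen k _ K _ _ i j f s = g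

theorem hasGen_gen (k K : Type*) [Field k] [Field K] [Algebra k K] [i : Algebra (RatFunc k) K]
    [j : IsScalarTower k (RatFunc k) K] [f : FiniteDimensional (RatFunc k) K]
    [s : Algebra.IsSeparable (RatFunc k) K] : HasGen k K (gen k K) := ⟨i, j, f, s, rfl⟩

theorem HasGen.unique {k K : Type*} [Field k] [IsAlgClosed k] [Field K] [Algebra k K] {g g' : ℕ}
    (h : HasGen k K g) (h' : HasGen k K g') : g = g' := by
  obtain ⟨i, j, f, s, rfl⟩ := h
  obtain ⟨i', j', f', s', rfl⟩ := h'
  exact gen_eq_gen i j f s i' j' f' s' hc_of_isAlgClosed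

theorem HasGen.eq_gen {k K : Type*} [Field k] [IsAlgClosed k] [Field K] [Algebra k K] {g : ℕ}
    (h : HasGen k K g) [Algebra (RatFunc k) K]
    [IsScalarTower k (RatFunc k) K] [FiniteDimensional (RatFunc k) K]
    [Algebra.IsSeparable (RatFunc k) K] : gen k K = g := (hasGen_gen k K).unique h

section semi

variable {k k' : Type*} [Field k] [IsAlgClosed k] [Field k'] [IsAlgClosed k']
  {K K' : Type*} [Field K] [Algebra k K] [Field K'] [Algebra k' K']
  (τ : k ≃+* k') (e : K ≃+* K')
  (he : ∀ c : k, e (algebraMap k K c) = algebraMap k' K' (τ c))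

/-- transport of places along a semilinear isomorphism -/
noncomputable def trPl (P : Pl k K) : Pl k' K' where
  v := P.v.comap (e.symm : K' →+* K)
  const := fun c hc => by
    show P.v (e.symm (algebraMap k' K' c)) = 1
    have h1 : e.symm (algebraMap k' K' c) = algebraMap k K (τ.symm c) := by
      rw [RingEquiv.symm_apply_eq, he, RingEquiv.apply_symm_apply]
    rw [h1]
    exact P.const _ (by simpa using hc)
  surj := fun y => by
    obtain ⟨t, ht⟩ := P.surj y
    exact ⟨e t, by show P.v (e.symm (e t)) = y; rw [e.symm_apply_apply]; exact ht⟩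

theorem trPl_v (P : Pl k K) (f : K') : (trPl τ e he P).v f = P.v (e.symm f) := rfl

theorem trPl_v_apply (P : Pl k K) (f : K) : (trPl τ e he P).v (e f) = P.v f := by
  rw [trPl_v, e.symm_apply_apply]

include he in
theorem he_symm (c : k') : e.symm (algebraMap k' K' c) = algebraMap k K (τ.symm c) := by
  rw [RingEquiv.symm_apply_eq, he, RingEquiv.apply_symm_apply]

/-- the bijection of places -/
noncomputable def trEquiv : Pl k K ≃ Pl k' K' where
  toFun := trPl τ e he
  invFun := trPl τ.symm e.symm (he_symm τ e he)
  left_inv := fun P => by ext f; show P.v (e.symm (e f)) = _; rw [e.symm_apply_apply]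
  right_inv := fun P => by ext f; show P.v (e (e.symm f)) = _; rw [e.apply_symm_apply]

theorem ell_tr (D : Pl k K →₀ ℤ) :
    ell (D.equivMapDomain (trEquiv τ e he)) = ell D := by
  unfold ell
  have hmem : ∀ f : K, e f ∈ LD (D.equivMapDomain (trEquiv τ e he)) ↔ f ∈ LD D := by
    intro f
    rw [mem_LD, mem_LD]
    constructor
    · intro h P
      have h1 := h (trEquiv τ e he P)
      rw [Finsupp.equivMapDomain_apply, Equiv.symm_apply_apply] at h1
      have h2 : (trEquiv τ e he P).v (e f) = P.v f := trPl_v_apply τ e he P f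
      rwa [h2] at h1
    · intro h P
      have h1 := h ((trEquiv τ e he).symm P)
      rw [Finsupp.equivMapDomain_apply]
      have h2 : ((trEquiv τ e he).symm P).v f = P.v (e f) := rfl
      rwa [h2] at h1
  let j : LD D ≃+ LD (D.equivMapDomain (trEquiv τ e he)) :=
    { toFun := fun x => ⟨e x, (hmem x).mpr x.2⟩
      invFun := fun y => ⟨e.symm y, by rw [← hmem, e.apply_symm_apply]; exact y.2⟩
      left_inv := fun x => by simp
      right_inv := fun y => by simp
      map_add' := fun x y => by ext; simp }
  have h1 := lift_rank_eq_of_equiv_equiv (R := k) (R' := k') τ j τ.bijective (by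
    intro r m
    ext
    show e ((r • m : LD D) : K) = ((τ r • j m : LD (D.equivMapDomain (trEquiv τ e he))) : K')
    rw [Submodule.coe_smul, Submodule.coe_smul, Algebra.smul_def, Algebra.smul_def, map_mul, he]
    rfl)
  unfold finrank
  have h2 := congrArg Cardinal.toNat h1
  rw [Cardinal.toNat_lift, Cardinal.toNat_lift] at h2
  exact h2.symm

include he in
theorem gen_tr [Algebra (RatFunc k) K]
    [IsScalarTower k (RatFunc k) K] [FiniteDimensional (RatFunc k) K]
    [Algebra.IsSeparable (RatFunc k) K] [Algebra (RatFunc k') K']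
    [IsScalarTower k' (RatFunc k') K'] [FiniteDimensional (RatFunc k') K']
    [Algebra.IsSeparable (RatFunc k') K'] : gen k' K' = gen k K := by
  have hdeg : ∀ D : Pl k K →₀ ℤ, degD (D.equivMapDomain (trEquiv τ e he)) = degD D := by
    intro D
    rw [degD_eq_sum, degD_eq_sum, Finsupp.sum_equivMapDomain]
  have h : ((gen k K : ℕ) : ℤ) = (gen k' K' : ℕ) := by
    apply gen_unique hc_of_isAlgClosed
    · intro D
      let D' : Pl k K →₀ ℤ := D.equivMapDomain (trEquiv τ e he).symm
      have hD : D'.equivMapDomain (trEquiv τ e he) = D := by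
        rw [← Finsupp.equivMapDomain_trans]
        simp
      have h1 := ell_ge (k := k) (K := K) hc_of_isAlgClosed D'
      rw [← hdeg, ← ell_tr τ e he, hD] at h1
      exact h1
    · obtain ⟨D, hD⟩ := exists_degD_gt (k := k) (K := K) (2 * (gen k K : ℤ) - 2)
      refine ⟨D.equivMapDomain (trEquiv τ e he), ?_⟩
      rw [ell_tr, hdeg]
      exact ell_eq_of_lt hc_of_isAlgClosed hD
  exact_mod_cast h.symm

include he in
/-- semilinear isomorphisms preserve the genus -/
theorem HasGen.transport {g : ℕ} (h : HasGen k K g) : HasGen k' K' g := by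
  obtain ⟨i, j, f, s, rfl⟩ := h
  let ψ : RatFunc k' ≃+* RatFunc k :=
    IsFractionRing.ringEquivOfRingEquiv (A := k'[X]) (B := k[X]) (Polynomial.mapEquiv τ.symm)
  letI i' : Algebra (RatFunc k') K' :=
    ((e : K →+* K').comp ((algebraMap (RatFunc k) K).comp (ψ : RatFunc k' →+* RatFunc k))).toAlgebra
  have hcomp : RingHom.comp (algebraMap (RatFunc k') K') ((ψ.symm : RatFunc k ≃+* RatFunc k') :
      RatFunc k →+* RatFunc k') = RingHom.comp (e : K →+* K') (algebraMap (RatFunc k) K) := by
    ext x
    show e (algebraMap (RatFunc k) K (ψ (ψ.symm x))) = e (algebraMap (RatFunc k) K x)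
    rw [ψ.apply_symm_apply]
  haveI j' : IsScalarTower k' (RatFunc k') K' := by
    refine IsScalarTower.of_algebraMap_eq fun c => ?_
    show _ = e (algebraMap (RatFunc k) K (ψ (algebraMap k' (RatFunc k') c)))
    have h1 : ψ (algebraMap k' (RatFunc k') c) = algebraMap k (RatFunc k) (τ.symm c) := by
      rw [IsScalarTower.algebraMap_apply k' k'[X] (RatFunc k')]
      have h2 := IsFractionRing.ringEquivOfRingEquiv_algebraMap (A := k'[X]) (B := k[X])
        (K := RatFunc k') (L := RatFunc k) (h := Polynomial.mapEquiv τ.symm)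
        (algebraMap k' k'[X] c)
      rw [h2, IsScalarTower.algebraMap_apply k k[X] (RatFunc k)]
      congr 1
      show (Polynomial.C c).map (τ.symm : k' →+* k) = Polynomial.C (τ.symm c)
      rw [Polynomial.map_C]
      rfl
    rw [h1, ← IsScalarTower.algebraMap_apply, he, τ.apply_symm_apply]
  haveI f' : FiniteDimensional (RatFunc k') K' := Module.Finite.of_equiv_equiv ψ.symm e hcomp
  haveI s' : Algebra.IsSeparable (RatFunc k') K' := Algebra.IsSeparable.of_equiv_equiv ψ.symm e hcomp
  exact ⟨i', j', f', s', gen_tr τ e he⟩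

end semi

section insep

variable {k : Type*} [Field k] {K : Type*} [Field K] [Algebra k K]
  [Algebra (RatFunc k) K] [IsScalarTower k (RatFunc k) K] [FiniteDimensional (RatFunc k) K]
  [Algebra.IsSeparable (RatFunc k) K]

/-- **(PB)** `K = K^p (x)` -/
theorem adjoin_xK_eq_top {p : ℕ} [hp : Fact p.Prime] [CharP k p] [PerfectField k]
    (A : Subfield K) (hA : ∀ y : K, y ^ p ∈ A) : IntermediateField.adjoin A {xK k K} = ⊤ := by
  haveI : CharP (RatFunc k) p :=
    charP_of_injective_algebraMap (algebraMap k (RatFunc k)).injective p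
  haveI : ExpChar (RatFunc k) p := ExpChar.prime hp.out
  haveI : ExpChar k p := ExpChar.prime hp.out
  haveI : PerfectRing k p := PerfectField.toPerfectRing p
  have h1 := IntermediateField.adjoin_eq_adjoin_pow_expChar_of_isSeparable' (F := RatFunc k) (E := K)
    (Set.univ) p
  rw [IntermediateField.adjoin_univ] at h1
  -- the subfield `A(x)` contains `k(x)` and all `p`-th powers
  rw [eq_top_iff]
  intro a _
  have h2 : a ∈ IntermediateField.adjoin (RatFunc k) ((fun x : K => x ^ p) '' Set.univ) := by
    rw [← h1]; trivial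
  have hkA : ∀ c : k, algebraMap k K c ∈ A := by
    intro c
    obtain ⟨d, hd⟩ := surjective_frobenius k p c
    rw [← hd, frobenius_def, map_pow]
    exact hA _
  have hR : ∀ r : RatFunc k, algebraMap (RatFunc k) K r ∈
      IntermediateField.adjoin A {xK k K} := by
    intro r
    have hpoly : ∀ q : k[X], algebraMap (RatFunc k) K (algebraMap k[X] (RatFunc k) q) ∈
        IntermediateField.adjoin A {xK k K} := by
      intro q
      induction q using Polynomial.induction_on' with
      | add q r hq hr => rw [map_add, map_add]; exact add_mem hq hr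
      | monomial n c =>
        rw [← Polynomial.C_mul_X_pow_eq_monomial, map_mul, map_mul, map_pow, map_pow,
          RatFunc.algebraMap_C, RatFunc.algebraMap_X, ← algebraMap_eq_C,
          ← IsScalarTower.algebraMap_apply]
        refine mul_mem ?_ (pow_mem (IntermediateField.mem_adjoin_simple_self A (xK k K)) n)
        exact (IntermediateField.adjoin A {xK k K}).algebraMap_mem ⟨algebraMap k K c, hkA c⟩
    obtain ⟨q, s, hs, rfl⟩ := IsFractionRing.div_surjective (A := k[X]) r
    rw [map_div₀]
    exact div_mem (hpoly q) (hpoly s)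
  refine IntermediateField.adjoin_induction (F := RatFunc k)
    (p := fun x _ => x ∈ IntermediateField.adjoin A {xK k K}) ?_ ?_ ?_ ?_ ?_ h2
  · rintro _ ⟨y, _, rfl⟩
    exact (IntermediateField.adjoin A {xK k K}).algebraMap_mem ⟨y ^ p, hA y⟩
  · exact hR
  · intro x y _ _ hx hy; exact add_mem hx hy
  · intro x _ hx; exact inv_mem hx
  · intro x y _ _ hx hy; exact mul_mem hx hy

/-- an extension of degree `p` generated by `p`-th roots is `K^(1/p)` -/
theorem exists_pow_eq {p : ℕ} [hp : Fact p.Prime] [CharP k p] [PerfectField k]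
    {L : Type*} [Field L] [Algebra K L] (hins : ∀ y : L, y ^ p ∈ Set.range (algebraMap K L))
    (hne : ∃ y : L, y ∉ Set.range (algebraMap K L)) (a : K) : ∃ y : L, y ^ p = algebraMap K L a := by
  haveI : CharP K p := charP_of_injective_algebraMap (algebraMap k K).injective p
  haveI : CharP L p := charP_of_injective_algebraMap (algebraMap K L).injective p
  let A : Subfield K := (frobenius K p).fieldRange
  have hA : ∀ y : K, y ^ p ∈ A := fun y => ⟨y, rfl⟩
  obtain ⟨y0, hy0⟩ := hne
  obtain ⟨h, hh⟩ := hins y0
  have hhA : h ∉ A := by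
    rintro ⟨c, hc⟩
    rw [frobenius_def] at hc
    have h1 : (y0 - algebraMap K L c) ^ p = 0 := by
      rw [sub_pow_char, ← map_pow, hc, hh, sub_self]
    have h2 := pow_eq_zero_iff (hp.out.ne_zero) |>.mp h1
    exact hy0 ⟨c, (sub_eq_zero.mp h2).symm⟩
  have hroot : ∀ z : K, ∃ c : A, (X ^ p - C c : A[X]).eval₂ (algebraMap A K) z = 0 := by
    intro z
    refine ⟨⟨z ^ p, hA z⟩, ?_⟩
    rw [eval₂_sub, eval₂_pow, eval₂_X, eval₂_C]
    exact sub_self _
  have hint : ∀ z : K, IsIntegral A z := by
    intro z
    obtain ⟨c, hc⟩ := hroot z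
    exact ⟨X ^ p - C c, monic_X_pow_sub_C c hp.out.ne_zero, hc⟩
  -- `[K : A] ≤ p`
  have htop := adjoin_xK_eq_top (k := k) A hA
  have hle : finrank A K ≤ p := by
    rw [← IntermediateField.finrank_top', ← htop,
      IntermediateField.adjoin.finrank (hint (xK k K))]
    obtain ⟨c, hc⟩ := hroot (xK k K)
    have h1 : minpoly A (xK k K) ∣ X ^ p - C c := minpoly.dvd _ _ (by rw [aeval_def]; exact hc)
    calc _ ≤ (X ^ p - C c : A[X]).natDegree :=
          natDegree_le_of_dvd h1 (monic_X_pow_sub_C c hp.out.ne_zero).ne_zero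
      _ = p := natDegree_X_pow_sub_C
  haveI hfin : FiniteDimensional A K := by
    have h1 : FiniteDimensional A (IntermediateField.adjoin A {xK k K}) :=
      IntermediateField.adjoin.finiteDimensional (hint _)
    rw [htop] at h1
    exact Module.Finite.of_surjective
      (IntermediateField.topEquiv (F := A) (E := K)).toLinearMap
      (IntermediateField.topEquiv (F := A) (E := K)).surjective
  -- `[A(h) : A] = p`
  have hdeg : finrank A (IntermediateField.adjoin A {h}) = p := by
    rw [IntermediateField.adjoin.finrank (hint h)]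
    have hirr : Irreducible (X ^ p - C (⟨h ^ p, hA h⟩ : A)) := by
      apply X_pow_sub_C_irreducible_of_prime hp.out
      intro b hb
      apply hhA
      have h1 : (b : K) ^ p = h ^ p := congrArg Subtype.val hb
      have h2 : ((b : K) - h) ^ p = 0 := by rw [sub_pow_char, h1, sub_self]
      have h3 := pow_eq_zero_iff (hp.out.ne_zero) |>.mp h2
      rw [← sub_eq_zero.mp h3]
      exact b.2
    have h1 : minpoly A h = X ^ p - C (⟨h ^ p, hA h⟩ : A) := by
      symm
      apply minpoly.eq_of_irreducible_of_monic hirr
      · rw [map_sub, map_pow, aeval_X, aeval_C]; exact sub_self _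
      · exact monic_X_pow_sub_C _ hp.out.ne_zero
    rw [h1, natDegree_X_pow_sub_C]
  have htop2 : IntermediateField.adjoin A {h} = ⊤ := by
    apply IntermediateField.eq_of_le_of_finrank_le le_top
    rw [hdeg, IntermediateField.finrank_top']
    exact hle
  have ha : a ∈ IntermediateField.adjoin A {h} := by rw [htop2]; trivial
  refine IntermediateField.adjoin_induction (F := A)
    (p := fun x _ => ∃ y : L, y ^ p = algebraMap K L x) ?_ ?_ ?_ ?_ ?_ ha
  · intro x hx
    rw [Set.mem_singleton_iff] at hx
    rw [hx]
    exact ⟨y0, hh.symm⟩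
  · rintro ⟨_, ⟨c, rfl⟩⟩
    refine ⟨algebraMap K L c, ?_⟩
    rw [← map_pow]; rfl
  · rintro x y _ _ ⟨x', hx⟩ ⟨y', hy⟩
    exact ⟨x' + y', by rw [add_pow_char, hx, hy, map_add]⟩
  · rintro x _ ⟨x', hx⟩
    exact ⟨x'⁻¹, by rw [inv_pow, hx, map_inv₀]⟩
  · rintro x y _ _ ⟨x', hx⟩ ⟨y', hy⟩
    exact ⟨x' * y', by rw [mul_pow, hx, hy, map_mul]⟩

end insep

/-- **(INS)** purely inseparable extensions of degree `p` have the same genus -/
theorem hasGen_of_purelyInsep {k K L : Type*} [Field k] [IsAlgClosed k] [Field K] [Algebra k K]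
    [Field L] [Algebra k L] [Algebra K L] [IsScalarTower k K L] {p : ℕ} [hp : Fact p.Prime]
    [CharP k p] (hins : ∀ y : L, y ^ p ∈ Set.range (algebraMap K L))
    (hne : ∃ y : L, y ∉ Set.range (algebraMap K L)) {g : ℕ} (h : HasGen k K g) :
    HasGen k L g := by
  have h0 := h
  obtain ⟨i, j, f, s, _⟩ := h
  haveI : CharP K p := charP_of_injective_algebraMap (algebraMap k K).injective p
  haveI : CharP L p := charP_of_injective_algebraMap (algebraMap K L).injective p
  haveI : ExpChar k p := ExpChar.prime hp.out
  haveI : PerfectRing k p := PerfectField.toPerfectRing p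
  choose φ hφ using exists_pow_eq (k := k) hins hne
  have hinj : Function.Injective (frobenius L p) := (frobenius L p).injective
  let e : K ≃+* L :=
    { toFun := φ
      invFun := fun y => (hins y).choose
      left_inv := fun a => by
        apply (algebraMap K L).injective
        rw [(hins (φ a)).choose_spec, hφ]
      right_inv := fun y => by
        apply hinj
        rw [frobenius_def, frobenius_def, hφ, (hins y).choose_spec]
      map_mul' := fun a b => by
        apply hinj
        rw [map_mul, frobenius_def, frobenius_def, frobenius_def, hφ, hφ, hφ, map_mul]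
      map_add' := fun a b => by
        apply hinj
        rw [map_add, frobenius_def, frobenius_def, frobenius_def, hφ, hφ, hφ, map_add] }
  refine HasGen.transport (frobeniusEquiv k p).symm e ?_ h0
  intro c
  apply hinj
  show (φ (algebraMap k K c)) ^ p = (algebraMap k L ((frobeniusEquiv k p).symm c)) ^ p
  rw [hφ, ← map_pow, ← IsScalarTower.algebraMap_apply]
  congr 1
  exact (frobeniusEquiv_symm_pow_p k p c).symm ▸ rfl

end Crest.Agent.R013.GR3_921
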