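import Mathlib

/-!
# R013 / Car1: Cartier operator on a field with a one-element p-basis (helper700)

`κ` a field of characteristic `p`, `x : κ`, `D` an additive derivation with `D x = 1`, every element is
`∑_{i<p} (g i)^p x^i`.  Then `C (∑ (g i)^p x^i) = g (p-1)` is the Cartier operator (in terms of `dx`).
-/

set_option autoImplicit false
set_option linter.all false

namespace Crest.Agent.R013.Car1_700

open Finset

/-- a field with a one-element `p`-basis `x` and the derivation `D = d/dx`. -/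
structure PB (p : ℕ) (κ : Type*) [Field κ] where
  hp : p.Prime
  char : CharP κ p
  x : κ
  D : κ → κ
  D_add : ∀ a b, D (a + b) = D a + D b
  D_mul : ∀ a b, D (a * b) = a * D b + b * D a
  D_x : D x = 1
  span : ∀ y : κ, ∃ g : ℕ → κ, y = ∑ i ∈ range p, g i ^ p * x ^ i

namespace PB

variable {p : ℕ} {κ : Type*} [Field κ] (S : PB p κ)

include S

theorem cast_p : (p : κ) = 0 := by
  haveI := S.char
  exact CharP.cast_eq_zero κ p

theorem cast_ne {n : ℕ} (h0 : 0 < n) (h : n < p) : (n : κ) ≠ 0 := by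
  haveI := S.char
  intro h1
  rw [CharP.cast_eq_zero_iff κ p] at h1
  exact absurd (Nat.le_of_dvd h0 h1) (not_le.mpr h)

theorem add_pow' (a b : κ) : (a + b) ^ p = a ^ p + b ^ p := by
  haveI := S.char
  haveI := Fact.mk S.hp
  exact add_pow_char a b p

theorem sum_pow' {ι : Type*} (s : Finset ι) (f : ι → κ) :
    (∑ i ∈ s, f i) ^ p = ∑ i ∈ s, f i ^ p := by
  haveI := S.char
  haveI := Fact.mk S.hp
  exact sum_pow_char p s f

theorem pow_inj {a b : κ} (h : a ^ p = b ^ p) : a = b := by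
  haveI := S.char
  haveI := Fact.mk S.hp
  exact frobenius_inj κ p h

theorem natCast_pow (n : ℕ) : (n : κ) ^ p = n := by
  haveI := S.char
  haveI := Fact.mk S.hp
  have h := map_natCast (frobenius κ p) n
  rwa [frobenius_def] at h

theorem D_zero : S.D 0 = 0 := by
  have h := S.D_add 0 0
  simpa using h

theorem D_one : S.D 1 = 0 := by
  have h := S.D_mul 1 1
  simpa using h

theorem D_neg (a : κ) : S.D (-a) = -S.D a := by
  have h := S.D_add a (-a)
  rw [add_neg_cancel, S.D_zero] at h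
  exact (neg_eq_of_add_eq_zero_right h.symm).symm

theorem D_sum {ι : Type*} (s : Finset ι) (f : ι → κ) : S.D (∑ i ∈ s, f i) = ∑ i ∈ s, S.D (f i) := by
  classical
  induction s using Finset.induction_on with
  | empty => simp [S.D_zero]
  | insert a s ha ih => rw [sum_insert ha, sum_insert ha, S.D_add, ih]

theorem D_pow (a : κ) (n : ℕ) : S.D (a ^ n) = n * a ^ (n - 1) * S.D a := by
  induction n with
  | zero => simp [S.D_one]
  | succ n ih =>
    rw [pow_succ, S.D_mul, ih]
    rcases Nat.eq_zero_or_pos n with h | h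
    · subst h; simp
    · obtain ⟨m, rfl⟩ := Nat.exists_eq_add_of_le' h
      simp only [Nat.add_sub_cancel]
      push_cast
      ring

theorem D_natCast (n : ℕ) : S.D (n : κ) = 0 := by
  induction n with
  | zero => simp [S.D_zero]
  | succ n ih => rw [Nat.cast_succ, S.D_add, ih, S.D_one, add_zero]

theorem D_pow_p (a : κ) : S.D (a ^ p) = 0 := by
  rw [S.D_pow, S.cast_p]; simp

theorem D_pow_mul (a b : κ) : S.D (a ^ p * b) = a ^ p * S.D b := by
  rw [S.D_mul, S.D_pow_p]; ring

theorem D_x_pow (n : ℕ) : S.D (S.x ^ n) = n * S.x ^ (n - 1) := by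
  rw [S.D_pow, S.D_x, mul_one]

theorem sum_range_p {M : Type*} [AddCommMonoid M] (f : ℕ → M) :
    ∑ i ∈ range p, f i = ∑ i ∈ range (p - 1), f i + f (p - 1) := by
  have hp1 : p - 1 + 1 = p := Nat.sub_add_cancel S.hp.pos
  rw [← sum_range_succ, hp1]

/-- derivative of an expansion -/
theorem D_expansion (n : ℕ) (g : ℕ → κ) :
    S.D (∑ i ∈ range (n + 1), g i ^ p * S.x ^ i)
      = ∑ i ∈ range n, (((i + 1 : ℕ) : κ) * g (i + 1)) ^ p * S.x ^ i := by
  rw [S.D_sum, sum_range_succ']
  simp only [pow_zero, mul_one, S.D_pow_p, add_zero]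
  refine sum_congr rfl fun i _ => ?_
  rw [S.D_pow_mul, S.D_x_pow, mul_pow, S.natCast_pow, Nat.add_sub_cancel]
  ring

theorem unique_aux (n : ℕ) : n ≤ p → ∀ g : ℕ → κ, ∑ i ∈ range n, g i ^ p * S.x ^ i = 0 →
    ∀ i < n, g i = 0 := by
  induction n with
  | zero => intro _ g _ i hi; exact absurd hi (Nat.not_lt_zero _)
  | succ n ih =>
    intro hn g hg i hi
    have h1 := congrArg S.D hg
    rw [S.D_expansion, S.D_zero] at h1
    have h2 := ih (by omega) (fun i => ((i + 1 : ℕ) : κ) * g (i + 1)) h1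
    have h3 : ∀ j < n, g (j + 1) = 0 := by
      intro j hj
      have h4 := h2 j hj
      rcases mul_eq_zero.mp h4 with h5 | h5
      · exact absurd h5 (S.cast_ne (Nat.succ_pos _) (by omega))
      · exact h5
    rcases Nat.eq_zero_or_pos i with h | h
    · subst h
      rw [sum_range_succ'] at hg
      have h4 : ∑ k ∈ range n, g (k + 1) ^ p * S.x ^ (k + 1) = 0 := by
        refine sum_eq_zero fun k hk => ?_
        rw [h3 k (mem_range.mp hk), zero_pow S.hp.ne_zero, zero_mul]
      rw [h4, zero_add, pow_zero, mul_one] at hg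
      exact pow_eq_zero_iff S.hp.ne_zero |>.mp hg
    · obtain ⟨j, rfl⟩ := Nat.exists_eq_add_of_le' h
      exact h3 j (by omega)

theorem unique {g h : ℕ → κ}
    (hgh : ∑ i ∈ range p, g i ^ p * S.x ^ i = ∑ i ∈ range p, h i ^ p * S.x ^ i) :
    ∀ i < p, g i = h i := by
  intro i hi
  have h1 : ∑ i ∈ range p, (g i + -h i) ^ p * S.x ^ i = 0 := by
    rw [← sub_eq_zero, ← sum_sub_distrib] at hgh
    rw [← hgh]
    refine sum_congr rfl fun i _ => ?_
    rw [S.add_pow']
    have h2 : (-h i) ^ p = -(h i ^ p) := by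
      have h3 := S.add_pow' (h i) (-h i)
      rw [add_neg_cancel, zero_pow S.hp.ne_zero] at h3
      exact (neg_eq_of_add_eq_zero_right h3.symm).symm
    rw [h2]; ring
  have h2 := S.unique_aux p le_rfl _ h1 i hi
  rwa [← sub_eq_add_neg, sub_eq_zero] at h2

/-- coordinates -/
noncomputable def co (y : κ) : ℕ → κ := (S.span y).choose

theorem co_spec (y : κ) : y = ∑ i ∈ range p, S.co y i ^ p * S.x ^ i := (S.span y).choose_spec

theorem co_eq {y : κ} {g : ℕ → κ} (h : y = ∑ i ∈ range p, g i ^ p * S.x ^ i) {i : ℕ} (hi : i < p) :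
    S.co y i = g i :=
  S.unique ((S.co_spec y).symm.trans h) i hi

/-- the Cartier operator -/
noncomputable def C (y : κ) : κ := S.co y (p - 1)

theorem pred_lt : p - 1 < p := Nat.sub_lt S.hp.pos Nat.one_pos

theorem C_eq {y : κ} {g : ℕ → κ} (h : y = ∑ i ∈ range p, g i ^ p * S.x ^ i) :
    S.C y = g (p - 1) := S.co_eq h S.pred_lt

theorem co_add (y z : κ) {i : ℕ} (hi : i < p) : S.co (y + z) i = S.co y i + S.co z i := by
  refine S.co_eq (g := fun i => S.co y i + S.co z i) ?_ hi
  conv_lhs => rw [S.co_spec y, S.co_spec z]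
  rw [← sum_add_distrib]
  refine sum_congr rfl fun i _ => ?_
  rw [S.add_pow']; ring

theorem co_pow_mul (y z : κ) {i : ℕ} (hi : i < p) : S.co (y ^ p * z) i = y * S.co z i := by
  refine S.co_eq (g := fun i => y * S.co z i) ?_ hi
  conv_lhs => rw [S.co_spec z]
  rw [mul_sum]
  refine sum_congr rfl fun i _ => ?_
  rw [mul_pow]; ring

theorem C_add (y z : κ) : S.C (y + z) = S.C y + S.C z := S.co_add y z S.pred_lt

theorem C_pow (y z : κ) : S.C (y ^ p * z) = y * S.C z := S.co_pow_mul y z S.pred_lt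

theorem C_zero : S.C 0 = 0 := by
  have h := S.C_add 0 0
  simpa using h

theorem C_neg (a : κ) : S.C (-a) = -S.C a := by
  have h := S.C_add a (-a)
  rw [add_neg_cancel, S.C_zero] at h
  exact (neg_eq_of_add_eq_zero_right h.symm).symm

theorem C_sub (a b : κ) : S.C (a - b) = S.C a - S.C b := by
  rw [sub_eq_add_neg, S.C_add, S.C_neg, sub_eq_add_neg]

theorem C_sum {ι : Type*} (s : Finset ι) (f : ι → κ) : S.C (∑ i ∈ s, f i) = ∑ i ∈ s, S.C (f i) := by
  classical
  induction s using Finset.induction_on with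
  | empty => simp [S.C_zero]
  | insert a s ha ih => rw [sum_insert ha, sum_insert ha, S.C_add, ih]

/-- the derivative of an arbitrary element in coordinates -/
theorem D_eq (y : κ) :
    S.D y = ∑ i ∈ range p, (if i + 1 < p then ((i + 1 : ℕ) : κ) * S.co y (i + 1) else 0) ^ p
      * S.x ^ i := by
  have hp1 : p - 1 + 1 = p := Nat.sub_add_cancel S.hp.pos
  conv_lhs => rw [S.co_spec y]
  have hexp := S.D_expansion (p - 1) (S.co y)
  simp only [hp1] at hexp
  rw [hexp, S.sum_range_p (fun i => (if i + 1 < p then ((i + 1 : ℕ) : κ) * S.co y (i + 1) else 0) ^ p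
      * S.x ^ i)]
  rw [if_neg (by omega), zero_pow S.hp.ne_zero, zero_mul, add_zero]
  refine sum_congr rfl fun i hi => ?_
  rw [if_pos (by have := mem_range.mp hi; omega)]

theorem C_exact (y : κ) : S.C (S.D y) = 0 := by
  rw [S.C_eq (S.D_eq y), if_neg (by have := S.hp.pos; omega)]

theorem kerD {y : κ} (h : S.D y = 0) : ∃ z, y = z ^ p := by
  rw [S.D_eq y] at h
  have h1 := S.unique_aux p le_rfl _ h
  refine ⟨S.co y 0, ?_⟩
  conv_lhs => rw [S.co_spec y]
  rw [Finset.sum_eq_single 0]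
  · simp
  · intro i hi hi0
    obtain ⟨j, rfl⟩ := Nat.exists_eq_succ_of_ne_zero hi0
    have hj := mem_range.mp hi
    have h2 := h1 j (by omega)
    rw [if_pos hj] at h2
    rcases mul_eq_zero.mp h2 with h3 | h3
    · exact absurd h3 (S.cast_ne (Nat.succ_pos _) hj)
    · rw [Nat.succ_eq_add_one, h3, zero_pow S.hp.ne_zero, zero_mul]
  · intro h0
    exact absurd (mem_range.mpr S.hp.pos) h0

theorem D_eq_zero_iff (y : κ) : S.D y = 0 ↔ ∃ z, y = z ^ p :=
  ⟨S.kerD, by rintro ⟨z, rfl⟩; exact S.D_pow_p z⟩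

/-- a form killed by `C` is exact -/
theorem exact_of_C_eq_zero {y : κ} (h : S.C y = 0) : ∃ z, y = S.D z := by
  have hp1 : p - 1 + 1 = p := Nat.sub_add_cancel S.hp.pos
  refine ⟨∑ i ∈ range (p - 1), (((i + 1 : ℕ) : κ)⁻¹ * S.co y i) ^ p * S.x ^ (i + 1), ?_⟩
  rw [S.D_sum]
  conv_lhs => rw [S.co_spec y]
  have h0 : S.co y (p - 1) = 0 := h
  rw [S.sum_range_p (fun i => S.co y i ^ p * S.x ^ i), h0, zero_pow S.hp.ne_zero, zero_mul, add_zero]
  refine sum_congr rfl fun i hi => ?_
  have hi' : i + 1 < p := by have := mem_range.mp hi; omega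
  rw [S.D_pow_mul, S.D_x_pow, Nat.add_sub_cancel, mul_pow, inv_pow, S.natCast_pow]
  have h1 := S.cast_ne (Nat.succ_pos i) hi'
  field_simp

theorem C_eq_zero_iff (y : κ) : S.C y = 0 ↔ ∃ z, y = S.D z :=
  ⟨S.exact_of_C_eq_zero, by rintro ⟨z, rfl⟩; exact S.C_exact z⟩

theorem C_x : S.C (S.x ^ (p - 1)) = 1 := by
  rw [S.C_eq (g := fun i => if i = p - 1 then 1 else 0)]
  · simp
  · rw [Finset.sum_eq_single (p - 1)]
    · simp
    · intro i _ hi
      simp [hi, zero_pow S.hp.ne_zero]
    · intro h; exact absurd (mem_range.mpr S.pred_lt) h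

/-! ### The formula `C (f^(p-1) df) = df` -/

/-- `((a+b)^(p-1) - a^(p-1)) Da + ((a+b)^(p-1) - b^(p-1)) Db` is exact. -/
theorem exists_phi (a b : κ) : ∃ F : κ,
    S.D F = ((a + b) ^ (p - 1) - a ^ (p - 1)) * S.D a + ((a + b) ^ (p - 1) - b ^ (p - 1)) * S.D b := by
  obtain ⟨q, hq⟩ : ∃ q, p = q + 1 := ⟨p - 1, (Nat.sub_add_cancel S.hp.pos).symm⟩
  have hq1 : p - 1 = q := by omega
  -- coefficients `c i = choose p i / p`
  have hc : ∀ i, 0 < i → i < p → ∃ c : ℕ, p.choose i = p * c := fun i h0 h1 =>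
    S.hp.dvd_choose_self h0.ne' h1
  choose! c hc using hc
  refine ⟨∑ i ∈ range q, (c (i + 1) : κ) * (a ^ (i + 1) * b ^ (q - i)), ?_⟩
  rw [S.D_sum]
  have hterm : ∀ i ∈ range q, S.D ((c (i + 1) : κ) * (a ^ (i + 1) * b ^ (q - i)))
      = (q.choose i : κ) * a ^ i * b ^ (q - i) * S.D a
        + (q.choose (i + 1) : κ) * a ^ (i + 1) * b ^ (q - (i + 1)) * S.D b := by
    intro i hi
    have hi' := mem_range.mp hi
    have h1 : (c (i + 1)) * (i + 1) = q.choose i := by
      have h2 := hc (i + 1) (Nat.succ_pos _) (by omega)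
      have h3 : p.choose (i + 1) * (i + 1) = p * q.choose i := by
        rw [hq]
        exact (Nat.add_one_mul_choose_eq q i).symm
      rw [h2, mul_assoc] at h3
      exact Nat.eq_of_mul_eq_mul_left S.hp.pos h3
    have h2 : (c (i + 1)) * (q - i) = q.choose (i + 1) := by
      have h4 : q.choose i * (q - i) = q.choose (i + 1) * (i + 1) := (Nat.choose_succ_right_eq q i).symm
      rw [← h1] at h4
      have h5 : (c (i + 1) * (q - i)) * (i + 1) = q.choose (i + 1) * (i + 1) := by
        rw [← h4]; ring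
      exact Nat.eq_of_mul_eq_mul_right (Nat.succ_pos i) h5
    have h1' : (c (i + 1) : κ) * ((i + 1 : ℕ) : κ) = (q.choose i : κ) := by exact_mod_cast congrArg (Nat.cast (R := κ)) h1
    have h2' : (c (i + 1) : κ) * ((q - i : ℕ) : κ) = (q.choose (i + 1) : κ) := by exact_mod_cast congrArg (Nat.cast (R := κ)) h2
    rw [S.D_mul, S.D_natCast, mul_zero, add_zero, S.D_mul, S.D_pow, S.D_pow, ← h1', ← h2',
      Nat.add_sub_cancel]
    have h6 : q - i - 1 = q - (i + 1) := by omega
    rw [h6]
    ring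
  rw [sum_congr rfl hterm, sum_add_distrib, hq1]
  congr 1
  · -- first sum
    have h1 : (a + b) ^ q = ∑ i ∈ range (q + 1), a ^ i * b ^ (q - i) * (q.choose i : κ) :=
      add_pow a b q
    rw [h1, sum_range_succ, Nat.sub_self, pow_zero, Nat.choose_self]
    simp only [mul_one, Nat.cast_one, add_sub_cancel_right]
    rw [sum_mul]
    refine sum_congr rfl fun i _ => by ring
  · have h1 : (a + b) ^ q = ∑ i ∈ range (q + 1), a ^ i * b ^ (q - i) * (q.choose i : κ) :=
      add_pow a b q
    rw [h1, sum_range_succ', pow_zero, Nat.choose_zero_right, Nat.sub_zero]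
    simp only [one_mul, mul_one, Nat.cast_one, add_sub_cancel_right]
    rw [sum_mul]
    refine sum_congr rfl fun i _ => by ring

theorem C_log_add {a b : κ} (ha : S.C (a ^ (p - 1) * S.D a) = S.D a)
    (hb : S.C (b ^ (p - 1) * S.D b) = S.D b) :
    S.C ((a + b) ^ (p - 1) * S.D (a + b)) = S.D (a + b) := by
  obtain ⟨F, hF⟩ := S.exists_phi a b
  have h1 : (a + b) ^ (p - 1) * S.D (a + b)
      = S.D F + a ^ (p - 1) * S.D a + b ^ (p - 1) * S.D b := by
    rw [hF, S.D_add]; ring
  rw [h1, S.C_add, S.C_add, S.C_exact, ha, hb, S.D_add, zero_add]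

theorem C_log_mul {a b : κ} (ha : S.C (a ^ (p - 1) * S.D a) = S.D a)
    (hb : S.C (b ^ (p - 1) * S.D b) = S.D b) :
    S.C ((a * b) ^ (p - 1) * S.D (a * b)) = S.D (a * b) := by
  have hp1 : ∀ c : κ, c ^ (p - 1) * c = c ^ p := fun c => by
    rw [← pow_succ, Nat.sub_add_cancel S.hp.pos]
  have h1 : (a * b) ^ (p - 1) * S.D (a * b)
      = a ^ p * (b ^ (p - 1) * S.D b) + b ^ p * (a ^ (p - 1) * S.D a) := by
    rw [S.D_mul, ← hp1 a, ← hp1 b, mul_pow]; ring
  rw [h1, S.C_add, S.C_pow, S.C_pow, ha, hb, S.D_mul]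

theorem C_log_pow {a : κ} (ha : S.C (a ^ (p - 1) * S.D a) = S.D a) (n : ℕ) :
    S.C ((a ^ n) ^ (p - 1) * S.D (a ^ n)) = S.D (a ^ n) := by
  induction n with
  | zero => simp [S.D_one, S.C_zero]
  | succ n ih => rw [pow_succ]; exact S.C_log_mul ih ha

theorem C_log_pth (a : κ) : S.C ((a ^ p) ^ (p - 1) * S.D (a ^ p)) = S.D (a ^ p) := by
  rw [S.D_pow_p, mul_zero, S.C_zero]

theorem C_log_x : S.C (S.x ^ (p - 1) * S.D S.x) = S.D S.x := by
  rw [S.D_x, mul_one, S.C_x]

theorem C_log_sum {ι : Type*} (s : Finset ι) (f : ι → κ)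
    (h : ∀ i ∈ s, S.C (f i ^ (p - 1) * S.D (f i)) = S.D (f i)) :
    S.C ((∑ i ∈ s, f i) ^ (p - 1) * S.D (∑ i ∈ s, f i)) = S.D (∑ i ∈ s, f i) := by
  classical
  induction s using Finset.induction_on with
  | empty => simp [S.D_zero, S.C_zero]
  | insert a s ha ih =>
    rw [sum_insert ha]
    exact S.C_log_add (h a (mem_insert_self a s)) (ih fun i hi => h i (mem_insert_of_mem hi))

/-- **`C (f^(p-1) df) = df`** -/
theorem C_log (f : κ) : S.C (f ^ (p - 1) * S.D f) = S.D f := by
  rw [S.co_spec f]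
  exact S.C_log_sum _ _ fun i _ => S.C_log_mul (S.C_log_pth _) (S.C_log_pow S.C_log_x i)

/-- `C (dlog f) = dlog f` -/
theorem C_dlog {f : κ} (hf : f ≠ 0) : S.C (S.D f / f) = S.D f / f := by
  have h1 : S.D f / f = (f⁻¹) ^ p * (f ^ (p - 1) * S.D f) := by
    have h2 : f ^ p = f ^ (p - 1) * f := by rw [← pow_succ, Nat.sub_add_cancel S.hp.pos]
    rw [inv_pow, h2]
    field_simp
  conv_lhs => rw [h1]
  rw [S.C_pow, S.C_log]
  field_simp

/-! ### Change of the `p`-basis -/

/-- if `D t ≠ 0` then `t` is a `p`-basis -/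
theorem span_of_D_ne_zero {t : κ} (ht : S.D t ≠ 0) :
    ∀ y : κ, ∃ g : ℕ → κ, y = ∑ i ∈ range p, g i ^ p * t ^ i := by
  classical
  haveI := S.char
  haveI := Fact.mk S.hp
  -- work over the subfield of `p`-th powers
  let F : Subfield κ := (frobenius κ p).fieldRange
  have hF : ∀ a : κ, a ^ p ∈ F := fun a => ⟨a, rfl⟩
  have hF' : ∀ a : F, ∃ b : κ, (a : κ) = b ^ p := by
    rintro ⟨a, b, hb⟩
    exact ⟨b, hb.symm⟩
  choose rt hrt using hF'
  -- `κ` is generated over `F` by `x`, of dimension `≤ p`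
  have hspan : Submodule.span F (Set.range fun i : Fin p => S.x ^ (i : ℕ)) = ⊤ := by
    rw [eq_top_iff]
    intro y _
    rw [S.co_spec y]
    refine Submodule.sum_mem _ fun i hi => ?_
    have h1 : S.co y i ^ p * S.x ^ i = (⟨S.co y i ^ p, hF _⟩ : F) • S.x ^ i := rfl
    rw [h1]
    exact Submodule.smul_mem _ _ (Submodule.subset_span ⟨⟨i, mem_range.mp hi⟩, rfl⟩)
  haveI hfin : Module.Finite F κ := by
    refine ⟨⟨Finset.univ.image fun i : Fin p => S.x ^ (i : ℕ), ?_⟩⟩
    rw [Finset.coe_image, Finset.coe_univ, Set.image_univ]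
    exact hspan
  have hle : Module.finrank F κ ≤ p := by
    have h1 := finrank_range_le_card (R := F) (fun i : Fin p => S.x ^ (i : ℕ))
    rw [Set.finrank, hspan, finrank_top, Fintype.card_fin] at h1
    exact h1
  -- powers of `t` are independent: use the structure with `D' = D / D t`
  have hind : LinearIndependent F (fun i : Fin p => t ^ (i : ℕ)) := by
    rw [Fintype.linearIndependent_iff]
    intro g hg
    have key : ∀ n ≤ p, ∀ g : ℕ → κ, ∑ i ∈ range n, g i ^ p * t ^ i = 0 → ∀ i < n, g i = 0 := by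
      intro n
      induction n with
      | zero => intro _ g _ i hi; exact absurd hi (Nat.not_lt_zero _)
      | succ n ih =>
        intro hn g hg i hi
        have h1 := congrArg S.D hg
        rw [S.D_sum, S.D_zero, sum_range_succ'] at h1
        simp only [pow_zero, mul_one, S.D_pow_p, add_zero] at h1
        have h1' : ∑ i ∈ range n, (((i + 1 : ℕ) : κ) * g (i + 1)) ^ p * t ^ i = 0 := by
          have h2 : (∑ i ∈ range n, (((i + 1 : ℕ) : κ) * g (i + 1)) ^ p * t ^ i) * S.D t = 0 := by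
            rw [← h1, sum_mul]
            refine sum_congr rfl fun i _ => ?_
            rw [S.D_pow_mul, S.D_pow, mul_pow, S.natCast_pow, Nat.add_sub_cancel]
            ring
          exact (mul_eq_zero.mp h2).resolve_right ht
        have h2 := ih (by omega) (fun i => ((i + 1 : ℕ) : κ) * g (i + 1)) h1'
        have h3 : ∀ j < n, g (j + 1) = 0 := by
          intro j hj
          rcases mul_eq_zero.mp (h2 j hj) with h5 | h5
          · exact absurd h5 (S.cast_ne (Nat.succ_pos _) (by omega))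
          · exact h5
        rcases Nat.eq_zero_or_pos i with h | h
        · subst h
          rw [sum_range_succ'] at hg
          have h4 : ∑ k ∈ range n, g (k + 1) ^ p * t ^ (k + 1) = 0 := by
            refine sum_eq_zero fun k hk => ?_
            rw [h3 k (mem_range.mp hk), zero_pow S.hp.ne_zero, zero_mul]
          rw [h4, zero_add, pow_zero, mul_one] at hg
          exact pow_eq_zero_iff S.hp.ne_zero |>.mp hg
        · obtain ⟨j, rfl⟩ := Nat.exists_eq_add_of_le' h
          exact h3 j (by omega)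
    have h2 : ∑ i ∈ range p, (fun j => if h : j < p then rt (g ⟨j, h⟩) else 0) i ^ p * t ^ i = 0 := by
      refine Eq.trans ?_ hg
      rw [← Fin.sum_univ_eq_sum_range
        (fun i => (fun j => if h : j < p then rt (g ⟨j, h⟩) else 0) i ^ p * t ^ i) p]
      refine Finset.sum_congr rfl fun i _ => ?_
      have h3 : (i : ℕ) < p := i.2
      simp only [h3, dif_pos]
      rw [← hrt]
      rfl
    intro i
    have h4 := key p le_rfl _ h2 i i.2
    simp only [i.2, dif_pos] at h4
    have h5 := hrt (g i)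
    rw [h4, zero_pow S.hp.ne_zero] at h5
    exact Subtype.ext h5
  have htop : Submodule.span F (Set.range fun i : Fin p => t ^ (i : ℕ)) = ⊤ := by
    refine LinearIndependent.span_eq_top_of_card_eq_finrank' hind ?_
    refine le_antisymm ?_ ?_
    · exact hind.fintype_card_le_finrank
    · rw [Fintype.card_fin]; exact hle
  intro y
  have hy : y ∈ Submodule.span F (Set.range fun i : Fin p => t ^ (i : ℕ)) := by
    rw [htop]; trivial
  rw [Submodule.mem_span_range_iff_exists_fun] at hy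
  obtain ⟨c, hc⟩ := hy
  refine ⟨fun j => if h : j < p then rt (c ⟨j, h⟩) else 0, ?_⟩
  rw [← hc, ← Fin.sum_univ_eq_sum_range
    (fun i => (fun j => if h : j < p then rt (c ⟨j, h⟩) else 0) i ^ p * t ^ i) p]
  refine Finset.sum_congr rfl fun i _ => ?_
  have h3 : (i : ℕ) < p := i.2
  simp only [h3, dif_pos]
  rw [← hrt]
  rfl

/-- the structure with coordinate `t` instead of `x` -/
@[simps] noncomputable def chg {t : κ} (ht : S.D t ≠ 0) : PB p κ where
  hp := S.hp
  char := S.char
  x := t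
  D := fun y => S.D y / S.D t
  D_add := fun a b => by rw [S.D_add, add_div]
  D_mul := fun a b => by rw [S.D_mul]; ring
  D_x := div_self ht
  span := S.span_of_D_ne_zero ht

/-- **independence of the coordinate**: `C_x (g dt/dx) = C_t (g) dt/dx` -/
theorem C_chg {t : κ} (ht : S.D t ≠ 0) (g : κ) :
    S.C (g * S.D t) = (S.chg ht).C g * S.D t := by
  have hp1 : p - 1 + 1 = p := Nat.sub_add_cancel S.hp.pos
  conv_lhs => rw [(S.chg ht).co_spec g]
  rw [sum_mul, S.C_sum]
  have h1 : ∀ i ∈ range p, S.C ((S.chg ht).co g i ^ p * (S.chg ht).x ^ i * S.D t)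
      = if i = p - 1 then (S.chg ht).co g i * S.D t else 0 := by
    intro i hi
    have hi' := mem_range.mp hi
    rw [mul_assoc, S.C_pow]
    have hx : (S.chg ht).x = t := rfl
    rw [hx]
    split_ifs with h
    · subst h
      rw [S.C_log]
    · have h2 : t ^ i * S.D t = S.D ((((i + 1 : ℕ) : κ)⁻¹) ^ p * t ^ (i + 1)) := by
        rw [S.D_pow_mul, S.D_pow, inv_pow, S.natCast_pow, Nat.add_sub_cancel]
        have h3 := S.cast_ne (Nat.succ_pos i) (show i + 1 < p by omega)
        field_simp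
      rw [h2, S.C_exact, mul_zero]
  rw [sum_congr rfl h1, sum_ite_eq' (range p) (p - 1), if_pos (mem_range.mpr S.pred_lt)]
  rfl

/-! ### Perfect constants -/

/-- `C` of a `p`-th power times the form `x^(p-1) dx` -/
theorem C_pow_x (y : κ) : S.C (y ^ p * S.x ^ (p - 1)) = y := by
  rw [S.C_pow, S.C_x, mul_one]

theorem C_surjective : Function.Surjective S.C := fun y => ⟨_, S.C_pow_x y⟩

end PB

end Crest.Agent.R013.Car1_700
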