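import Mathlib
import Crest.Agent.R013.RR15_948
import Crest.Agent.R013.Car1_700

/-!
# R013 / Car2: the Cartier operator of a function field over a perfect field of characteristic `p` (helper700)
-/

set_option autoImplicit false
set_option linter.all false

namespace Crest.Agent.R013.Car2_700

open Polynomial WithZero Module
open Crest.Agent.R013.RR7_948 Crest.Agent.R013.RR8_948 Crest.Agent.R013.RR9_948
open Crest.Agent.R013.RR11_948 Crest.Agent.R013.RR12_948 Crest.Agent.R013.RR14_948
open Crest.Agent.R013.RR15_948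
open Crest.Agent.R013.Car1_700

section Span

variable (p : ℕ) [hp : Fact p.Prime] (k : Type*) [Field k] [CharP k p] [PerfectField k]
  (K : Type*) [Field K] [Algebra k K] [Algebra (RatFunc k) K]
  [IsScalarTower k (RatFunc k) K] [FiniteDimensional (RatFunc k) K]
  [Algebra.IsSeparable (RatFunc k) K]

include k in
theorem charP_K : CharP K p := charP_of_injective_algebraMap (algebraMap k K).injective p

theorem exists_expansion (y : K) : ∃ g : ℕ → K, y = ∑ i ∈ Finset.range p, g i ^ p * (xK k K) ^ i := by
  classical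
  haveI : CharP K p := charP_K p k K
  haveI : CharP (RatFunc k) p := charP_of_injective_algebraMap (algebraMap k (RatFunc k)).injective p
  haveI : ExpChar (RatFunc k) p := ExpChar.prime hp.out
  haveI : ExpChar k p := ExpChar.prime hp.out
  haveI : PerfectRing k p := PerfectField.toPerfectRing p
  set X := xK k K with hX
  let F : Subfield K := (frobenius K p).fieldRange
  have hF : ∀ a : K, a ^ p ∈ F := fun a => ⟨a, rfl⟩
  have hF' : ∀ a : F, ∃ b : K, (a : K) = b ^ p := by
    rintro ⟨a, b, hb⟩
    exact ⟨b, hb.symm⟩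
  -- the set of expansions
  let T : Submodule F K :=
    { carrier := {y | ∃ g : ℕ → K, y = ∑ i ∈ Finset.range p, g i ^ p * X ^ i}
      add_mem' := by
        rintro _ _ ⟨g, rfl⟩ ⟨h, rfl⟩
        refine ⟨fun i => g i + h i, ?_⟩
        rw [← Finset.sum_add_distrib]
        refine Finset.sum_congr rfl fun i _ => ?_
        rw [add_pow_char]; ring
      zero_mem' := ⟨fun _ => 0, by simp [zero_pow hp.out.ne_zero]⟩
      smul_mem' := by
        rintro a _ ⟨g, rfl⟩
        obtain ⟨b, hb⟩ := hF' a
        refine ⟨fun i => b * g i, ?_⟩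
        have h1 : a • (∑ i ∈ Finset.range p, g i ^ p * X ^ i)
            = (a : K) * ∑ i ∈ Finset.range p, g i ^ p * X ^ i := rfl
        rw [h1, hb, Finset.mul_sum]
        refine Finset.sum_congr rfl fun i _ => ?_
        rw [mul_pow]; ring }
  have hT : ∀ y, y ∈ T ↔ ∃ g : ℕ → K, y = ∑ i ∈ Finset.range p, g i ^ p * X ^ i := fun y => Iff.rfl
  have hmulX : ∀ y ∈ T, X * y ∈ T := by
    intro y hy
    obtain ⟨g, rfl⟩ := (hT y).mp hy
    obtain ⟨q, hq⟩ : ∃ q, p = q + 1 := ⟨p - 1, (Nat.sub_add_cancel hp.out.pos).symm⟩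
    rw [hT]
    refine ⟨fun i => if i = 0 then g q * X else g (i - 1), ?_⟩
    have h1 : ∀ f : ℕ → K, ∑ i ∈ Finset.range p, f i = ∑ i ∈ Finset.range q, f i + f q := by
      intro f; rw [← Finset.sum_range_succ, ← hq]
    have h2 : ∀ f : ℕ → K, ∑ i ∈ Finset.range p, f i = ∑ i ∈ Finset.range q, f (i + 1) + f 0 := by
      intro f
      rw [show Finset.range p = Finset.range (q + 1) by rw [hq], Finset.sum_range_succ']
    rw [h1, h2, mul_add, Finset.mul_sum]
    congr 1
    · refine Finset.sum_congr rfl fun i _ => ?_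
      show X * (g i ^ p * X ^ i) = (if i + 1 = 0 then g q * X else g (i + 1 - 1)) ^ p * X ^ (i + 1)
      rw [if_neg (Nat.succ_ne_zero i), Nat.add_sub_cancel]; ring
    · show X * (g q ^ p * X ^ q) = (if (0:ℕ) = 0 then g q * X else g (0 - 1)) ^ p * X ^ 0
      rw [if_pos rfl, mul_pow, pow_zero, mul_one]
      have : X ^ p = X ^ q * X := by rw [← pow_succ, ← hq]
      rw [this]; ring
  have hone : (1 : K) ∈ T := by
    rw [hT]
    refine ⟨fun i => if i = 0 then 1 else 0, ?_⟩
    rw [Finset.sum_eq_single 0]
    · simp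
    · intro i _ hi; simp [hi, zero_pow hp.out.ne_zero]
    · intro h; exact absurd (Finset.mem_range.mpr hp.out.pos) h
  have hpow : ∀ n : ℕ, X ^ n ∈ T := by
    intro n
    induction n with
    | zero => simpa using hone
    | succ n ih => rw [pow_succ, mul_comm]; exact hmulX _ ih
  -- `X` is integral over `F`
  have hint : IsIntegral F X := by
    refine ⟨Polynomial.X ^ p - Polynomial.C (⟨X ^ p, hF X⟩ : F), ?_, ?_⟩
    · exact Polynomial.monic_X_pow_sub_C _ hp.out.ne_zero
    · rw [Polynomial.eval₂_sub, Polynomial.eval₂_X_pow, Polynomial.eval₂_C]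
      exact sub_self _
  let E : IntermediateField F K := IntermediateField.adjoin F {X}
  have hEalg : ∀ y : K, y ∈ E ↔ y ∈ Algebra.adjoin F ({X} : Set K) := by
    intro y
    rw [← IntermediateField.mem_toSubalgebra,
      IntermediateField.adjoin_simple_toSubalgebra_of_isAlgebraic hint.isAlgebraic]
  have hET : ∀ y ∈ E, y ∈ T := by
    intro y hy
    rw [hEalg, Algebra.adjoin_singleton_eq_range_aeval] at hy
    obtain ⟨f, rfl⟩ := hy
    show Polynomial.aeval X f ∈ T
    rw [Polynomial.aeval_eq_sum_range]
    exact Submodule.sum_mem _ fun i _ => Submodule.smul_mem _ _ (hpow i)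
  have hXE : X ∈ E := IntermediateField.mem_adjoin_simple_self F X
  have hFE : ∀ a : K, a ^ p ∈ E := fun a => E.algebraMap_mem (⟨a ^ p, hF a⟩ : F)
  have hkE : ∀ c : k, algebraMap k K c ∈ E := by
    intro c
    obtain ⟨d, hd⟩ := surjective_frobenius k p c
    rw [← hd, frobenius_def, map_pow]
    exact hFE _
  have hpoly : ∀ f : k[X], Polynomial.aeval X f ∈ E := by
    intro f
    rw [Polynomial.aeval_eq_sum_range]
    refine sum_mem fun i _ => ?_
    rw [Algebra.smul_def]
    exact mul_mem (hkE _) (pow_mem hXE _)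
  have hrat : ∀ r : RatFunc k, algebraMap (RatFunc k) K r ∈ E := by
    intro r
    rw [← RatFunc.num_div_denom r, map_div₀, algebraMap_poly, algebraMap_poly]
    exact div_mem (hpoly _) (hpoly _)
  refine (hT y).mp (hET y ?_)
  -- `y ∈ k(X)(y^p)`
  have h1 : y ∈ IntermediateField.adjoin (RatFunc k) ({y} : Set K) :=
    IntermediateField.mem_adjoin_simple_self _ y
  rw [IntermediateField.adjoin_simple_eq_adjoin_pow_expChar_of_isSeparable' (RatFunc k) K y p] at h1
  refine IntermediateField.adjoin_induction (RatFunc k) (s := {y ^ p}) (p := fun z _ => z ∈ E)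
    ?_ ?_ ?_ ?_ ?_ h1
  · rintro z hz
    rw [Set.mem_singleton_iff] at hz
    rw [hz]; exact hFE y
  · intro r; exact hrat r
  · intro a b _ _ ha hb; exact add_mem ha hb
  · intro a _ ha; exact inv_mem ha
  · intro a b _ _ ha hb; exact mul_mem ha hb

/-- **the p-basis structure of a function field**: coordinate `xK k K`, derivation `del k K`. -/
noncomputable def pb : PB p K where
  hp := hp.out
  char := charP_K p k K
  x := xK k K
  D := del k K
  D_add := map_add _
  D_mul := fun a b => by
    rw [Derivation.leibniz, smul_eq_mul, smul_eq_mul]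
  D_x := del_xK k K
  span := exists_expansion p k K

theorem pb_D : (pb p k K).D = del k K := rfl
theorem pb_x : (pb p k K).x = xK k K := rfl

end Span

end Crest.Agent.R013.Car2_700
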