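import Mathlib
import Crest.Agent.R013.RR16_948

/-!
# R013 / Car3: the different and derivations, local part (helper700)
-/

set_option autoImplicit false
set_option linter.all false

namespace Crest.Agent.R013.Car3_700

open Polynomial WithZero Module IsDedekindDomain nonZeroDivisors
open Crest.Agent.R013.RR5_948

section CondElt

variable {A B : Type*} [CommRing A] [CommRing B] [Algebra A B] [IsDedekindDomain B]
  [Module.Finite A B]

/-- an element of `A[α]` prime to `w` multiplying `B` into `A[α]` -/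
theorem exists_cond (w : Ideal B) [hw : w.IsMaximal] (α : B)
    (h1 : ∀ b : B, ∃ s ∈ Algebra.adjoin A ({α} : Set B), b - s ∈ w)
    (h2 : ∃ s ∈ Algebra.adjoin A ({α} : Set B), s ∈ w ∧ s ∉ w ^ 2)
    (h3 : ∀ w' : Ideal B, w'.IsMaximal → w' ≠ w →
      ∃ s ∈ Algebra.adjoin A ({α} : Set B), s ∈ w ∧ s ∉ w') :
    ∃ r ∈ Algebra.adjoin A ({α} : Set B), r ∉ w ∧
      ∀ b : B, r * b ∈ Algebra.adjoin A ({α} : Set B) := by
  classical
  set S := Algebra.adjoin A ({α} : Set B) with hS
  let n : Ideal S := w.comap (algebraMap S B)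
  have hn : ∀ s : S, s ∈ n ↔ (s : B) ∈ w := fun s => Iff.rfl
  -- `n B = w`
  have hJ : n.map (algebraMap S B) = w := by
    set J := n.map (algebraMap S B) with hJdef
    have hJw : J ≤ w := Ideal.map_comap_le
    have hmem : ∀ s ∈ S, s ∈ w → s ∈ J := by
      intro s hs hsw
      exact Ideal.mem_map_of_mem (algebraMap S B) (show (⟨s, hs⟩ : S) ∈ n from hsw)
    obtain ⟨J', hJ'⟩ := Ideal.dvd_iff_le.mpr hJw
    by_cases htop : J' = ⊤
    · rw [hJ', htop, Ideal.mul_top]
    · exfalso
      obtain ⟨w', hw', hle⟩ := Ideal.exists_le_maximal J' htop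
      have hle2 : J ≤ w * w' := by
        rw [hJ']; exact Ideal.mul_mono_right hle
      by_cases hww : w' = w
      · obtain ⟨s, hs, hsw, hsw2⟩ := h2
        apply hsw2
        rw [sq]
        have := hle2 (hmem s hs hsw)
        rwa [hww] at this
      · obtain ⟨s, hs, hsw, hsw2⟩ := h3 w' hw' hww
        have h10 : w * w' ≤ w' := Ideal.mul_le_right
        exact hsw2 (h10 (hle2 (hmem s hs hsw)))
  -- Nakayama
  let T : Submodule S B := LinearMap.range (Algebra.linearMap S B)
  have hT : ∀ b : B, b ∈ T ↔ b ∈ S := by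
    intro b
    constructor
    · rintro ⟨s, rfl⟩; exact s.2
    · intro hb; exact ⟨⟨b, hb⟩, rfl⟩
  haveI : Module.Finite S B := Module.Finite.of_restrictScalars_finite A S B
  have hfg : (⊤ : Submodule S (B ⧸ T)).FG := Module.Finite.fg_top
  have hle : (⊤ : Submodule S (B ⧸ T)) ≤ n • (⊤ : Submodule S (B ⧸ T)) := by
    rintro y -
    obtain ⟨b, rfl⟩ := Submodule.Quotient.mk_surjective T y
    obtain ⟨s, hs, hsb⟩ := h1 b
    have h4 : (Submodule.Quotient.mk b : B ⧸ T) = Submodule.Quotient.mk (b - s) := by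
      rw [Submodule.Quotient.eq]
      rw [sub_sub_cancel]
      exact (hT s).mpr hs
    rw [h4]
    have h5 : b - s ∈ n • (⊤ : Submodule S B) := by
      rw [Ideal.smul_top_eq_map, Submodule.restrictScalars_mem, hJ]
      exact hsb
    have h6 := Submodule.mem_map_of_mem (f := T.mkQ) h5
    rw [Submodule.map_smul''] at h6
    exact Submodule.smul_mono le_rfl le_top h6
  obtain ⟨r, hr1, hr2⟩ :=
    Submodule.exists_sub_one_mem_and_smul_eq_zero_of_fg_of_le_smul n ⊤ hfg hle
  refine ⟨r, r.2, ?_, fun b => ?_⟩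
  · intro hrw
    rw [hn] at hr1
    have h7 : (1 : B) ∈ w := by
      have : (1 : B) = (r : B) - ((r - 1 : S) : B) := by push_cast; ring
      rw [this]; exact w.sub_mem hrw hr1
    exact hw.ne_top ((Ideal.eq_top_iff_one w).mpr h7)
  · have h8 := hr2 (Submodule.Quotient.mk b) trivial
    rw [← Submodule.Quotient.mk_smul, Submodule.Quotient.mk_eq_zero, hT] at h8
    exact h8

end CondElt

section Diff

variable (S F K : Type*) {O : Type*} [CommRing S] [IsDomain S] [IsPrincipalIdealRing S] [Field F]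
  [Algebra S F] [IsFractionRing S F] [Field K] [Algebra F K] [FiniteDimensional F K]
  [Algebra.IsSeparable F K] [Algebra S K] [IsScalarTower S F K]
  [CommRing O] [IsDedekindDomain O] [Algebra S O] [Algebra O K] [IsScalarTower S O K]
  [IsIntegralClosure O S K] [IsFractionRing O K]

include F K in
variable (O) in
theorem injective_SO : Function.Injective (algebraMap S O) := by
  have h1 : Function.Injective (algebraMap S K) := by
    rw [IsScalarTower.algebraMap_eq S F K]
    exact (algebraMap F K).injective.comp (IsFractionRing.injective S F)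
  rw [IsScalarTower.algebraMap_eq S O K] at h1
  exact Function.Injective.of_comp h1

/-- the value of `F'(α)` is the different exponent if the conductor of `S[α]` is prime to `w` -/
theorem v_derivative_minpoly (w : HeightOneSpectrum O) (α : O)
    (hr : ∃ r ∈ Algebra.adjoin S ({α} : Set O), r ∉ w.asIdeal ∧
      ∀ b : O, r * b ∈ Algebra.adjoin S ({α} : Set O)) :
    w.valuation K (algebraMap O K (aeval α (derivative (minpoly S α)))) =
      exp (-diffD S F K O w) := by
  classical
  haveI : FaithfulSMul S O := (faithfulSMul_iff_algebraMap_injective S O).mpr (injective_SO S F K O)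
  haveI : Module.IsTorsionFree S O := inferInstance
  haveI : Module.Finite S O := IsIntegralClosure.finite S F K O
  obtain ⟨r, hrS, hrw, hrb⟩ := hr
  have hinjO : Function.Injective (algebraMap O K) := IsFractionRing.injective O K
  have hadj : ∀ s ∈ Algebra.adjoin S ({α} : Set O),
      algebraMap O K s ∈ Algebra.adjoin F ({algebraMap O K α} : Set K) := by
    intro s hs
    rw [Algebra.adjoin_singleton_eq_range_aeval] at hs
    obtain ⟨f, rfl⟩ := hs
    rw [Algebra.adjoin_singleton_eq_range_aeval]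
    refine ⟨f.map (algebraMap S F), ?_⟩
    show aeval (algebraMap O K α) (f.map (algebraMap S F)) = algebraMap O K (aeval α f)
    rw [aeval_map_algebraMap, aeval_algebraMap_apply]
  have hx : Algebra.adjoin F ({algebraMap O K α} : Set K) = ⊤ := by
    rw [eq_top_iff]
    rintro y -
    obtain ⟨b, c, hc, rfl⟩ := IsFractionRing.div_surjective (A := O) y
    have hint : IsAlgebraic F (algebraMap O K α) := IsAlgebraic.of_finite F _
    rw [← IntermediateField.adjoin_simple_toSubalgebra_of_isAlgebraic hint] at hadj ⊢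
    have hc0 : algebraMap O K c ≠ 0 := by
      intro h0
      rw [map_eq_zero_iff _ hinjO] at h0
      exact nonZeroDivisors.ne_zero hc h0
    have hr0 : algebraMap O K r ≠ 0 := by
      intro h0
      rw [map_eq_zero_iff _ hinjO] at h0
      apply hrw; rw [h0]; exact Submodule.zero_mem _
    have h1 : algebraMap O K b / algebraMap O K c = algebraMap O K (r * b) / algebraMap O K (r * c) := by
      rw [map_mul, map_mul, mul_div_mul_left _ _ hr0]
    rw [h1]
    exact (IntermediateField.adjoin F ({algebraMap O K α} : Set K)).div_mem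
      (hadj _ (hrb b)) (hadj _ (hrb c))
  have hmain := conductor_mul_differentIdeal S F K α hx
  have hD0 : differentIdeal S O ≠ ⊥ := by
    haveI := Crest.Agent.R013.RR16_948.isSeparable_fractionRing S F K O
    exact differentIdeal_ne_bot
  set g : O := aeval α (derivative (minpoly S α)) with hg
  have hrc : r ∈ conductor S α := hrb
  have hr0 : r ≠ 0 := by rintro rfl; exact hrw (Submodule.zero_mem _)
  have hC0 : conductor S α ≠ ⊥ := by
    intro h; rw [h] at hrc; exact hr0 hrc
  have hg0 : g ≠ 0 := by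
    intro h0
    rw [h0, Ideal.span_singleton_eq_bot.mpr rfl] at hmain
    rcases Ideal.mul_eq_bot.mp hmain with h | h
    · exact hC0 h
    · exact hD0 h
  have hsp0 : Ideal.span ({g} : Set O) ≠ ⊥ := by rwa [ne_eq, Ideal.span_singleton_eq_bot]
  have hdiff : diffD S F K O w =
      (Associates.mk w.asIdeal).count (Associates.mk (differentIdeal S O)).factors := by
    rw [diffD_apply, ← FractionalIdeal.count_inv, ← coeIdeal_differentIdeal S F K O,
      FractionalIdeal.count_coe K w hD0]
  have hcount : ((Associates.mk w.asIdeal).count (Associates.mk (Ideal.span {g})).factors : ℤ)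
      = diffD S F K O w := by
    rw [hdiff, ← FractionalIdeal.count_coe K w hsp0, ← hmain, FractionalIdeal.coeIdeal_mul,
      FractionalIdeal.count_mul K w (FractionalIdeal.coeIdeal_ne_zero.mpr hC0)
        (FractionalIdeal.coeIdeal_ne_zero.mpr hD0), FractionalIdeal.count_coe K w hC0,
      FractionalIdeal.count_coe K w hD0]
    have : (Associates.mk w.asIdeal).count (Associates.mk (conductor S α)).factors = 0 := by
      by_contra h
      exact hrw (Ideal.dvd_iff_le.mp
        ((Associates.count_ne_zero_iff_dvd hC0 w.irreducible).mp h) hrc)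
    rw [this]; simp
  rw [HeightOneSpectrum.valuation_of_algebraMap, HeightOneSpectrum.intValuation_if_neg _ hg0, hcount]

end Diff

section Alpha

variable (p : ℕ) [hp : Fact p.Prime] {S O : Type*} [CommRing S] [IsDomain S]
  [IsPrincipalIdealRing S] [CommRing O] [IsDedekindDomain O] [Algebra S O] [Module.Finite S O]
  [CharP S p] [CharP O p]

theorem exists_alpha (w : HeightOneSpectrum O) {π : S} (hπ : Prime π)
    (hπw : algebraMap S O π ∈ w.asIdeal)
    (hπ0 : algebraMap S O π ≠ 0)
    (hperf : ∀ a : S, ∃ b : S, π ∣ a - b ^ p) :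
    ∃ (β t : O) (b : ℕ → S) (m : ℕ),
      t ∈ w.asIdeal ∧ t ∉ w.asIdeal ^ 2 ∧
      aeval (β ^ p + t) (∑ i ∈ Finset.range m, C (b i ^ p) * X ^ i) ∈ w.asIdeal ∧
      aeval (β ^ p + t) (∑ i ∈ Finset.range m, C (b i ^ p) * X ^ i) ∉ w.asIdeal ^ 2 ∧
      ∃ r ∈ Algebra.adjoin S ({β ^ p + t} : Set O), r ∉ w.asIdeal ∧
        ∀ b : O, r * b ∈ Algebra.adjoin S ({β ^ p + t} : Set O) := by
  classical
  set P : Ideal S := Ideal.span {π} with hP
  haveI hPmax : P.IsMaximal := PrincipalIdealRing.isMaximal_of_irreducible hπ.irreducible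
  haveI hwmax : w.asIdeal.IsMaximal := w.isMaximal
  have hPw : P ≤ w.asIdeal.comap (algebraMap S O) := by
    rw [hP, Ideal.span_le, Set.singleton_subset_iff]; exact hπw
  letI : Field (S ⧸ P) := Ideal.Quotient.field P
  letI : Field (O ⧸ w.asIdeal) := Ideal.Quotient.field w.asIdeal
  letI : Algebra (S ⧸ P) (O ⧸ w.asIdeal) := Ideal.Quotient.algebraQuotientOfLEComap hPw
  haveI : IsScalarTower S (S ⧸ P) (O ⧸ w.asIdeal) := .of_algebraMap_eq' rfl
  haveI : Module.Finite (S ⧸ P) (O ⧸ w.asIdeal) :=
    Module.Finite.of_restrictScalars_finite S (S ⧸ P) (O ⧸ w.asIdeal)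
  haveI : CharP (S ⧸ P) p := (CharP.charP_iff_prime_eq_zero hp.out).mpr (by
    rw [← map_natCast (Ideal.Quotient.mk P), CharP.cast_eq_zero, map_zero])
  haveI : CharP (O ⧸ w.asIdeal) p := (CharP.charP_iff_prime_eq_zero hp.out).mpr (by
    rw [← map_natCast (Ideal.Quotient.mk w.asIdeal), CharP.cast_eq_zero, map_zero])
  haveI : ExpChar (S ⧸ P) p := ExpChar.prime hp.out
  haveI : ExpChar (O ⧸ w.asIdeal) p := ExpChar.prime hp.out
  have hsurj : ∀ a : S ⧸ P, ∃ b : S ⧸ P, b ^ p = a := by
    intro a
    obtain ⟨a, rfl⟩ := Ideal.Quotient.mk_surjective a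
    obtain ⟨b, hb⟩ := hperf a
    refine ⟨Ideal.Quotient.mk P b, ?_⟩
    rw [← map_pow, eq_comm, Ideal.Quotient.eq, hP, Ideal.mem_span_singleton]
    exact hb
  haveI : PerfectRing (S ⧸ P) p := PerfectRing.ofSurjective _ p (fun a => hsurj a)
  haveI : PerfectField (S ⧸ P) := PerfectRing.toPerfectField (S ⧸ P) p
  haveI : PerfectField (O ⧸ w.asIdeal) := Algebra.IsAlgebraic.perfectField (K := S ⧸ P)
  haveI : PerfectRing (O ⧸ w.asIdeal) p := PerfectField.toPerfectRing p
  -- a nonzero generator of the residue field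
  obtain ⟨θ, hθ0, hθ⟩ : ∃ θ : O ⧸ w.asIdeal, θ ≠ 0 ∧ Algebra.adjoin (S ⧸ P) {θ} = ⊤ := by
    obtain ⟨θ, hθ⟩ := Field.exists_primitive_element (S ⧸ P) (O ⧸ w.asIdeal)
    have h1 : ∀ η : O ⧸ w.asIdeal, IntermediateField.adjoin (S ⧸ P) {η} = ⊤ →
        Algebra.adjoin (S ⧸ P) {η} = ⊤ := by
      intro η hη
      rw [← IntermediateField.adjoin_simple_toSubalgebra_of_isAlgebraic
        (Algebra.IsAlgebraic.isAlgebraic η), hη, IntermediateField.top_toSubalgebra]
    by_cases h0 : θ = 0
    · refine ⟨1, one_ne_zero, h1 1 ?_⟩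
      rw [h0] at hθ
      rw [← hθ, IntermediateField.adjoin_zero, IntermediateField.adjoin_one]
    · exact ⟨θ, h0, h1 θ hθ⟩
  obtain ⟨β1, hβ1⟩ := surjective_frobenius (O ⧸ w.asIdeal) p θ
  rw [frobenius_def] at hβ1
  obtain ⟨β0, rfl⟩ := Ideal.Quotient.mk_surjective β1
  obtain ⟨t0, ht0, ht0'⟩ := Ideal.exists_mem_pow_notMem_pow_succ w.asIdeal w.ne_bot
    w.isPrime.ne_top 1
  rw [pow_one] at ht0
  rw [one_add_one_eq_two] at ht0'
  -- the part of `(π)` prime to `w`
  have hπO : Ideal.span ({algebraMap S O π} : Set O) ≠ 0 := by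
    rw [Ideal.zero_eq_bot, ne_eq, Ideal.span_singleton_eq_bot]; exact hπ0
  obtain ⟨n, Q, hQw, hQ⟩ := WfDvdMonoid.max_power_factor hπO w.irreducible
  have hcop : IsCoprime (w.asIdeal ^ 2) Q := by
    apply IsCoprime.pow_left
    rw [Ideal.isCoprime_iff_sup_eq]
    by_contra hne
    have h := hwmax.eq_of_le hne le_sup_left
    apply hQw
    rw [Ideal.dvd_iff_le, h]
    exact le_sup_right
  obtain ⟨x, hx, y, hy, hxy⟩ := Ideal.isCoprime_iff_exists.mp hcop
  have hw2 : w.asIdeal ^ 2 ≤ w.asIdeal := Ideal.pow_le_self two_ne_zero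
  have hyx : y = 1 - x := by rw [← hxy]; ring
  set β : O := y * β0 with hβ
  set t : O := y * t0 with ht
  have htw : t ∈ w.asIdeal := Ideal.mul_mem_left _ _ ht0
  have htw2 : t ∉ w.asIdeal ^ 2 := by
    intro h
    apply ht0'
    have : t0 = t + x * t0 := by rw [ht, hyx]; ring
    rw [this]
    exact Ideal.add_mem _ h (Ideal.mul_mem_right _ _ hx)
  have hmkβ : Ideal.Quotient.mk w.asIdeal β = Ideal.Quotient.mk w.asIdeal β0 := by
    rw [Ideal.Quotient.eq, hβ, hyx]
    have : (1 - x) * β0 - β0 = -(x * β0) := by ring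
    rw [this]
    exact w.asIdeal.neg_mem (hw2 (Ideal.mul_mem_right _ _ hx))
  have hmkβp : Ideal.Quotient.mk w.asIdeal (β ^ p) = θ := by
    rw [map_pow, hmkβ, hβ1]
  set α : O := β ^ p + t with hα
  have hmkα : Ideal.Quotient.mk w.asIdeal α = θ := by
    rw [hα, map_add, hmkβp, Ideal.Quotient.eq_zero_iff_mem.mpr htw, add_zero]
  have hαQ : α ∈ Q := by
    refine Ideal.add_mem _ ?_ (Ideal.mul_mem_right _ _ hy)
    exact Ideal.pow_mem_of_mem _ (Ideal.mul_mem_right _ _ hy) _ hp.out.pos
  -- the polynomial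
  set fb := minpoly (S ⧸ P) θ with hfb
  have hex : ∀ i, ∃ b : S, Ideal.Quotient.mk P (b ^ p) = fb.coeff i := by
    intro i
    obtain ⟨c, hc⟩ := hsurj (fb.coeff i)
    obtain ⟨b, rfl⟩ := Ideal.Quotient.mk_surjective c
    exact ⟨b, by rw [map_pow, hc]⟩
  choose b hb using hex
  set f : S[X] := ∑ i ∈ Finset.range (fb.natDegree + 1), C (b i ^ p) * X ^ i with hf
  have hfmap : f.map (algebraMap S (S ⧸ P)) = fb := by
    rw [hf, Polynomial.map_sum]
    conv_rhs => rw [fb.as_sum_range_C_mul_X_pow]
    refine Finset.sum_congr rfl fun i _ => ?_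
    rw [Polynomial.map_mul, Polynomial.map_C, Polynomial.map_pow, Polynomial.map_X]
    congr 2
    exact hb i
  have hmk : ∀ (z : O) (g : S[X]), Ideal.Quotient.mk w.asIdeal (aeval z g) =
      aeval (Ideal.Quotient.mk w.asIdeal z) (g.map (algebraMap S (S ⧸ P))) := by
    intro z g
    rw [aeval_map_algebraMap]
    exact (aeval_algebraMap_apply (O ⧸ w.asIdeal) z g).symm
  have hfβ : aeval (β ^ p) f ∈ w.asIdeal ^ 2 := by
    have h1 : aeval (β ^ p) f = (∑ i ∈ Finset.range (fb.natDegree + 1), algebraMap S O (b i) * β ^ i) ^ p := by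
      rw [sum_pow_char, hf, map_sum]
      refine Finset.sum_congr rfl fun i _ => ?_
      rw [map_mul, aeval_C, map_pow, map_pow, aeval_X]; ring
    have h2 : aeval (β ^ p) f ∈ w.asIdeal := by
      rw [← Ideal.Quotient.eq_zero_iff_mem, hmk, hfmap, hmkβp, hfb, minpoly.aeval]
    rw [h1] at h2 ⊢
    have h3 := w.isPrime.mem_of_pow_mem _ h2
    exact Ideal.pow_le_pow_right hp.out.two_le (Ideal.pow_mem_pow h3 p)
  have hder : aeval (β ^ p) (derivative f) ∉ w.asIdeal := by
    rw [← Ideal.Quotient.eq_zero_iff_mem, hmk, ← derivative_map, hfmap, hmkβp]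
    exact (Algebra.IsSeparable.isSeparable (S ⧸ P) θ).aeval_derivative_ne_zero (minpoly.aeval _ _)
  obtain ⟨c, hc⟩ : ∃ c : O, aeval α f = aeval (β ^ p) f + aeval (β ^ p) (derivative f) * t + c * t ^ 2 := by
    obtain ⟨c, hc⟩ := Polynomial.binomExpansion (f.map (algebraMap S O)) (β ^ p) t
    refine ⟨c, ?_⟩
    rw [derivative_map, eval_map_algebraMap, eval_map_algebraMap, eval_map_algebraMap] at hc
    exact hc
  have ht2 : t ^ 2 ∈ w.asIdeal ^ 2 := Ideal.pow_mem_pow htw 2
  have hf1 : aeval α f ∈ w.asIdeal := by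
    rw [← Ideal.Quotient.eq_zero_iff_mem, hmk, hfmap, hmkα, hfb, minpoly.aeval]
  have hf2 : aeval α f ∉ w.asIdeal ^ 2 := by
    intro h
    have h1 : aeval (β ^ p) (derivative f) * t ∈ w.asIdeal ^ 2 := by
      have : aeval (β ^ p) (derivative f) * t = aeval α f - aeval (β ^ p) f - c * t ^ 2 := by
        rw [hc]; ring
      rw [this]
      exact Ideal.sub_mem _ (Ideal.sub_mem _ h hfβ) (Ideal.mul_mem_left _ _ ht2)
    haveI := w.isPrime
    rcases Ideal.IsPrime.mul_mem_pow w.asIdeal h1 with h2 | h2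
    · exact hder h2
    · exact htw2 h2
  have hfadj : ∀ g : S[X], aeval α g ∈ Algebra.adjoin S ({α} : Set O) := by
    intro g
    rw [Algebra.adjoin_singleton_eq_range_aeval]
    exact ⟨g, rfl⟩
  refine ⟨β, t, b, fb.natDegree + 1, htw, htw2, hf1, hf2, ?_⟩
  refine exists_cond w.asIdeal α ?_ ⟨_, hfadj f, hf1, hf2⟩ ?_
  · intro z
    have h1 : Ideal.Quotient.mk w.asIdeal z ∈ Algebra.adjoin (S ⧸ P) {θ} := by rw [hθ]; trivial
    rw [Algebra.adjoin_singleton_eq_range_aeval] at h1
    obtain ⟨g, hg⟩ := h1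
    obtain ⟨G, hG⟩ := Polynomial.map_surjective (algebraMap S (S ⧸ P))
      (Ideal.Quotient.mk_surjective) g
    refine ⟨_, hfadj G, ?_⟩
    rw [← Ideal.Quotient.eq, hmk, hmkα, hG]
    exact hg.symm
  · intro w' hw' hne
    by_cases hπ' : algebraMap S O π ∈ w'
    · refine ⟨_, hfadj f, hf1, ?_⟩
      intro hcon
      have hQ' : Q ≤ w' := by
        have h1 : w.asIdeal ^ n * Q ≤ w' := by
          rw [← hQ, Ideal.span_le, Set.singleton_subset_iff]; exact hπ'
        rcases hw'.isPrime.mul_le.mp h1 with h2 | h2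
        · exfalso
          have h3 : w.asIdeal ≤ w' := hw'.isPrime.le_of_pow_le h2
          exact hne (hwmax.eq_of_le hw'.ne_top h3).symm
        · exact h2
      have hαw : α ∈ w' := hQ' hαQ
      have h4 : aeval α f = α * aeval α (divX f) + algebraMap S O (b 0 ^ p) := by
        have h5 : f.coeff 0 = b 0 ^ p := by
          rw [hf, finset_sum_coeff, Finset.sum_eq_single 0]
          · rw [pow_zero, mul_one, coeff_C_zero]
          · intro i _ hi
            rw [coeff_C_mul, coeff_X_pow, if_neg (Ne.symm hi), mul_zero]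
          · intro h; simp at h
        conv_lhs => rw [← X_mul_divX_add f]
        rw [map_add, map_mul, aeval_X, aeval_C, h5]
      have h6 : algebraMap S O (b 0 ^ p) ∈ w' := by
        have : algebraMap S O (b 0 ^ p) = aeval α f - α * aeval α (divX f) := by rw [h4]; ring
        rw [this]
        exact Ideal.sub_mem _ hcon (Ideal.mul_mem_right _ _ hαw)
      have h7 : b 0 ^ p ∈ P := by
        have h8 : P ≤ w'.comap (algebraMap S O) := by
          rw [hP, Ideal.span_le, Set.singleton_subset_iff]; exact hπ'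
        have h9 : w'.comap (algebraMap S O) ≠ ⊤ := by
          intro h; exact hw'.ne_top (Ideal.comap_eq_top_iff.mp h)
        rw [hPmax.eq_of_le h9 h8]
        exact h6
      have h10 : fb.coeff 0 = 0 := by
        rw [← hb 0, Ideal.Quotient.eq_zero_iff_mem]; exact h7
      exact minpoly.coeff_zero_ne_zero (Algebra.IsIntegral.isIntegral θ) hθ0 h10
    · exact ⟨_, Subalgebra.algebraMap_mem _ π, hπw, hπ'⟩

end Alpha

section Pd

variable {S K k : Type*} [CommRing S] [Field K] [Algebra S K] [Field k] [Algebra k K]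

/-- the part of `d (Q(a))` coming from the coefficients of `Q` -/
noncomputable def pd (d : Derivation k K K) (a : K) (Q : S[X]) : K :=
  d (aeval a Q) - aeval a (derivative Q) * d a

theorem pd_add (d : Derivation k K K) (a : K) (P Q : S[X]) :
    pd d a (P + Q) = pd d a P + pd d a Q := by
  unfold pd; simp only [map_add]; ring

theorem pd_sub (d : Derivation k K K) (a : K) (P Q : S[X]) :
    pd d a (P - Q) = pd d a P - pd d a Q := by
  unfold pd; simp only [map_sub]; ring

theorem pd_mul (d : Derivation k K K) (a : K) (P Q : S[X]) :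
    pd d a (P * Q) = pd d a P * aeval a Q + aeval a P * pd d a Q := by
  unfold pd
  simp only [map_mul, derivative_mul, map_add, Derivation.leibniz, smul_eq_mul]
  ring

theorem pd_C (d : Derivation k K K) (a : K) (s : S) :
    pd d a (C s) = d (algebraMap S K s) := by
  unfold pd; simp

theorem pd_X (d : Derivation k K K) (a : K) : pd d a (X : S[X]) = 0 := by
  unfold pd; simp

theorem pd_zero (d : Derivation k K K) (a : K) : pd d a (0 : S[X]) = 0 := by
  unfold pd; simp

theorem pd_pow_zero (d : Derivation k K K) (a : K) {Q : S[X]} (hQ : pd d a Q = 0) (n : ℕ) :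
    pd d a (Q ^ n) = 0 := by
  induction n with
  | zero =>
    rw [pow_zero]
    have : (1 : S[X]) = C 1 := by simp
    rw [this, pd_C]; simp
  | succ n ih => rw [pow_succ, pd_mul, ih, hQ]; ring

theorem pd_sum (d : Derivation k K K) (a : K) {ι : Type*} (s : Finset ι) (Q : ι → S[X]) :
    pd d a (∑ i ∈ s, Q i) = ∑ i ∈ s, pd d a (Q i) := by
  classical
  induction s using Finset.induction_on with
  | empty => simp [pd_zero]
  | insert i s hi ih => rw [Finset.sum_insert hi, Finset.sum_insert hi, pd_add, ih]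

theorem pd_le (v : Valuation K ℤᵐ⁰) (d : Derivation k K K) {a : K} (ha : v a ≤ 1)
    (hS : ∀ s : S, v (algebraMap S K s) ≤ 1) (hd : ∀ s : S, v (d (algebraMap S K s)) ≤ 1)
    (Q : S[X]) : v (pd d a Q) ≤ 1 := by
  induction Q using Polynomial.induction_on' with
  | add P Q hP hQ => rw [pd_add]; exact (Valuation.map_add _ _ _).trans (max_le hP hQ)
  | monomial n c =>
    rw [← C_mul_X_pow_eq_monomial, pd_mul, pd_C, pd_pow_zero d a (pd_X d a), mul_zero, add_zero,
      map_mul]
    refine mul_le_one' (hd c) ?_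
    rw [map_pow, aeval_X, map_pow]
    exact pow_le_one' ha n

theorem aeval_le (v : Valuation K ℤᵐ⁰) {a : K} (ha : v a ≤ 1)
    (hS : ∀ s : S, v (algebraMap S K s) ≤ 1) (Q : S[X]) : v (aeval a Q) ≤ 1 := by
  induction Q using Polynomial.induction_on' with
  | add P Q hP hQ => rw [map_add]; exact (Valuation.map_add _ _ _).trans (max_le hP hQ)
  | monomial n c =>
    rw [← C_mul_X_pow_eq_monomial, map_mul, aeval_C, map_mul]
    refine mul_le_one' (hS c) ?_
    rw [map_pow, aeval_X, map_pow]
    exact pow_le_one' ha n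

end Pd

section Main

variable (p : ℕ) [hp : Fact p.Prime]
  (S F K : Type*) {O : Type*} [CommRing S] [IsDomain S] [IsPrincipalIdealRing S] [Field F]
  [Algebra S F] [IsFractionRing S F] [Field K] [Algebra F K] [FiniteDimensional F K]
  [Algebra.IsSeparable F K] [Algebra S K] [IsScalarTower S F K]
  [CommRing O] [IsDedekindDomain O] [Algebra S O] [Algebra O K] [IsScalarTower S O K]
  [IsIntegralClosure O S K] [IsFractionRing O K] [CharP K p]
  {k : Type*} [Field k] [Algebra k K]

theorem exists_uniformizer (d : Derivation k K K) (w : HeightOneSpectrum O) {π : S}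
    (hπ : Prime π) (hπw : w.valuation K (algebraMap S K π) < 1)
    (hperf : ∀ a : S, ∃ b : S, π ∣ a - b ^ p)
    (hd : ∀ s : S, w.valuation K (d (algebraMap S K s)) ≤ 1)
    (hdπ : w.valuation K (d (algebraMap S K π)) = 1) :
    ∃ t : K, w.valuation K t = exp (-1) ∧ w.valuation K (d t) = exp (diffD S F K O w) := by
  classical
  have hinj := injective_SO S F K O
  have hinjO : Function.Injective (algebraMap O K) := IsFractionRing.injective O K
  haveI : FaithfulSMul S O := (faithfulSMul_iff_algebraMap_injective S O).mpr hinj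
  haveI : Module.IsTorsionFree S O := inferInstance
  haveI : Module.Finite S O := IsIntegralClosure.finite S F K O
  haveI : CharP O p := (algebraMap O K).charP hinjO p
  haveI : CharP S p := (algebraMap S O).charP hinj p
  have hπ0 : algebraMap S O π ≠ 0 := by
    intro h; exact hπ.ne_zero (hinj (by rw [h, map_zero]))
  rw [IsScalarTower.algebraMap_apply S O K] at hπw hdπ
  have hπw' : algebraMap S O π ∈ w.asIdeal := (w.valuation_lt_one_iff_mem _).mp hπw
  obtain ⟨β, t, b, m, htw, htw2, hf1, hf2, r, hrS, hrw, hrb⟩ := exists_alpha p w hπ hπw' hπ0 hperf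
  set f : S[X] := ∑ i ∈ Finset.range m, C (b i ^ p) * X ^ i with hf
  set α : O := β ^ p + t with hα
  set a : K := algebraMap O K α with ha
  have hva : w.valuation K a ≤ 1 := w.valuation_le_one α
  have hvS : ∀ s : S, w.valuation K (algebraMap S K s) ≤ 1 := by
    intro s; rw [IsScalarTower.algebraMap_apply S O K]; exact w.valuation_le_one _
  have hpow : ∀ z : K, d (z ^ p) = 0 := by
    intro z
    rw [Derivation.leibniz_pow]
    simp [CharP.cast_eq_zero]
  have hda : d a = d (algebraMap O K t) := by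
    rw [ha, hα, map_add, map_add, map_pow, hpow, zero_add]
  have haev : ∀ Q : S[X], aeval a Q = algebraMap O K (aeval α Q) := fun Q => by
    rw [ha, aeval_algebraMap_apply]
  have hexp : ∀ z : O, z ∈ w.asIdeal → z ∉ w.asIdeal ^ 2 →
      w.valuation K (algebraMap O K z) = exp (-1) := by
    intro z h1 h2
    rw [HeightOneSpectrum.valuation_of_algebraMap]
    have h3 : w.intValuation z ≤ exp (-((1 : ℕ) : ℤ)) :=
      (w.intValuation_le_pow_iff_mem z 1).mpr (by rwa [pow_one])
    have h4 : ¬ w.intValuation z ≤ exp (-((2 : ℕ) : ℤ)) :=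
      fun h => h2 ((w.intValuation_le_pow_iff_mem z 2).mp h)
    have hz0 : w.intValuation z ≠ 0 := by
      intro h; apply h4; rw [h]; exact zero_le
    rw [← exp_log hz0, exp_le_exp] at h3 h4
    rw [← exp_log hz0, exp_inj]
    push_cast at h3 h4
    omega
  refine ⟨algebraMap O K t, hexp t htw htw2, ?_⟩
  rw [← hda]
  -- the uniformizer `f(a)`
  set φ : K := aeval a f with hφ
  have hvφ : w.valuation K φ = exp (-1) := by rw [hφ, haev]; exact hexp _ hf1 hf2
  have hpdf : pd d a f = 0 := by
    rw [hf, pd_sum]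
    refine Finset.sum_eq_zero fun i _ => ?_
    rw [pd_mul, pd_C, map_pow, hpow, zero_mul, zero_add, pd_pow_zero d a (pd_X d a), mul_zero]
  have hπK0 : algebraMap O K (algebraMap S O π) ≠ 0 := by
    intro h; exact hπ0 (hinjO (by rw [h, map_zero]))
  obtain ⟨e, he⟩ : ∃ e : ℕ, w.valuation K (algebraMap O K (algebraMap S O π)) = exp (-(e : ℤ)) := by
    have h1 := (exp_log ((Valuation.ne_zero_iff (w.valuation K)).mpr hπK0)).symm
    rw [h1, ← exp_zero, exp_lt_exp] at hπw
    refine ⟨(-log (w.valuation K (algebraMap O K (algebraMap S O π)))).toNat, ?_⟩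
    rw [Int.toNat_of_nonneg (by omega), neg_neg]
    exact h1
  have hφ0 : φ ≠ 0 := by
    intro h; rw [h, map_zero] at hvφ; exact exp_ne_zero hvφ.symm
  set u : K := algebraMap O K (algebraMap S O π) / φ ^ e with hu
  have hvu : w.valuation K u = 1 := by
    rw [hu, map_div₀, he, map_pow, hvφ, ← exp_nsmul, ← exp_sub, ← exp_zero]
    congr 1
    simp
  obtain ⟨n1, b1, hnb⟩ := w.exists_primeCompl_mul_eq_of_integer u hvu.le
  have hvb1 : w.valuation K (algebraMap O K (b1 : O)) = 1 := by
    rw [HeightOneSpectrum.valuation_of_algebraMap]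
    exact (w.intValuation_eq_one_iff_mem_primeCompl _).mpr b1.2
  have hvr : w.valuation K (algebraMap O K r) = 1 := by
    rw [HeightOneSpectrum.valuation_of_algebraMap]
    exact HeightOneSpectrum.intValuation_eq_one_iff.mpr hrw
  obtain ⟨g1, hg1⟩ : ∃ g1 : S[X], aeval α g1 = r * (b1 : O) := by
    have := hrb (b1 : O)
    rw [Algebra.adjoin_singleton_eq_range_aeval] at this
    exact this
  obtain ⟨g2, hg2⟩ : ∃ g2 : S[X], aeval α g2 = r * n1 := by
    have := hrb n1
    rw [Algebra.adjoin_singleton_eq_range_aeval] at this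
    exact this
  have hvg1 : w.valuation K (aeval a g1) = 1 := by
    rw [haev, hg1, map_mul, map_mul, hvr, hvb1, one_mul]
  -- the relation
  have hrel : aeval α (C π * g1 - g2 * f ^ e) = 0 := by
    apply hinjO
    rw [← haev, map_zero, map_sub, map_mul, map_mul, map_pow, aeval_C, haev g1, haev g2, hg1, hg2,
      map_mul, map_mul, ← hnb, hu, ← hφ, IsScalarTower.algebraMap_apply S O K]
    field_simp
    ring
  have hint : IsIntegral S α := IsIntegralClosure.isIntegral S K α
  haveI : IsDomain O := inferInstance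
  obtain ⟨G, hG⟩ := minpoly.isIntegrallyClosed_dvd hint hrel
  set F1 := minpoly S α with hF1
  have hF1a : aeval a F1 = 0 := by rw [haev, hF1, minpoly.aeval, map_zero]
  have h1 := congrArg (pd d a) hG
  rw [pd_mul, hF1a, zero_mul, add_zero, pd_sub, pd_mul, pd_mul, pd_C, pd_pow_zero d a hpdf,
    mul_zero, add_zero, aeval_C, map_pow, ← hφ] at h1
  have h2 : w.valuation K (pd d a F1 * aeval a G) = 1 := by
    rw [← h1, IsScalarTower.algebraMap_apply S O K]
    have hA : w.valuation K (d (algebraMap O K (algebraMap S O π)) * aeval a g1) = 1 := by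
      rw [map_mul, hdπ, hvg1, one_mul]
    have hB : w.valuation K (algebraMap O K (algebraMap S O π) * pd d a g1) < 1 := by
      rw [map_mul]
      exact mul_lt_one_of_lt_of_le hπw (pd_le _ d hva hvS hd g1)
    have hC : w.valuation K (pd d a g2 * φ ^ e) < 1 := by
      rw [map_mul, map_pow, hvφ, ← exp_nsmul]
      have h3 : exp (e • (-1) : ℤ) < (1 : ℤᵐ⁰) := by
        rw [he, ← exp_zero, exp_lt_exp] at hπw
        rw [← exp_zero, exp_lt_exp, smul_neg, nsmul_one]
        exact hπw
      rw [mul_comm]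
      exact mul_lt_one_of_lt_of_le h3 (pd_le _ d hva hvS hd g2)
    have h4 : d (algebraMap O K (algebraMap S O π)) * aeval a g1 +
        algebraMap O K (algebraMap S O π) * pd d a g1 - pd d a g2 * φ ^ e =
        d (algebraMap O K (algebraMap S O π)) * aeval a g1 +
        (algebraMap O K (algebraMap S O π) * pd d a g1 - pd d a g2 * φ ^ e) := by ring
    rw [h4, Valuation.map_add_eq_of_lt_left, hA]
    rw [hA]
    exact (Valuation.map_sub _ _ _).trans_lt (max_lt hB hC)
  have h5 : w.valuation K (pd d a F1) ≤ 1 := pd_le _ d hva hvS hd F1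
  have h6 : w.valuation K (aeval a G) ≤ 1 := aeval_le _ hva hvS G
  have h7 : w.valuation K (pd d a F1) = 1 := by
    rw [map_mul] at h2
    refine le_antisymm h5 ?_
    calc (1 : ℤᵐ⁰) = w.valuation K (pd d a F1) * w.valuation K (aeval a G) := h2.symm
      _ ≤ w.valuation K (pd d a F1) * 1 := mul_le_mul_right h6 _
      _ = _ := mul_one _
  have h8 : pd d a F1 = -(aeval a (derivative F1) * d a) := by
    unfold pd; rw [hF1a, map_zero, zero_sub]
  have h9 := v_derivative_minpoly S F K w α ⟨r, hrS, hrw, hrb⟩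
  rw [← hF1, ← haev] at h9
  rw [h8, Valuation.map_neg, map_mul, h9] at h7
  have h10 : w.valuation K (d a) = exp (diffD S F K O w) * (exp (-diffD S F K O w) *
      w.valuation K (d a)) := by
    rw [← mul_assoc, ← exp_add]; simp
  rw [h10, h7, mul_one]

end Main

end Crest.Agent.R013.Car3_700
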