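import Mathlib
import Crest.Agent.R013.RR17_948
import Crest.Agent.R013.Car3_700

/-!
# R013 / Car4: `v(dt) = exp (canD P)` for a uniformizer `t`, perfect constant field (helper700)
-/

set_option autoImplicit false
set_option linter.all false

namespace Crest.Agent.R013.Car4_700

open Polynomial WithZero Module IsDedekindDomain nonZeroDivisors
open Crest.Agent.R013.RR1_948 Crest.Agent.R013.RR2_948 Crest.Agent.R013.RR3_948
open Crest.Agent.R013.RR4_948 Crest.Agent.R013.RR5_948 Crest.Agent.R013.RR6_948
open Crest.Agent.R013.RR7_948 Crest.Agent.R013.RR8_948 Crest.Agent.R013.RR9_948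
open Crest.Agent.R013.RR11_948 Crest.Agent.R013.RR12_948 Crest.Agent.R013.RR14_948
open Crest.Agent.R013.RR15_948 Crest.Agent.R013.RR16_948 Crest.Agent.R013.RR17_948
open Crest.Agent.R013.Car3_700

section Poly

variable (p : ℕ) [hp : Fact p.Prime] {k : Type*} [Field k] [CharP k p] [PerfectField k]

theorem poly_perf {π : k[X]} (hπ : Prime π) (a : k[X]) : ∃ b : k[X], π ∣ a - b ^ p := by
  haveI : ExpChar k p := ExpChar.prime hp.out
  haveI : Fact (Irreducible π) := ⟨hπ.irreducible⟩
  haveI : Module.Finite k (AdjoinRoot π) := (AdjoinRoot.powerBasis hπ.ne_zero).finite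
  haveI : PerfectField (AdjoinRoot π) := Algebra.IsAlgebraic.perfectField (K := k)
  haveI : CharP (AdjoinRoot π) p := charP_of_injective_algebraMap (algebraMap k (AdjoinRoot π)).injective p
  haveI : ExpChar (AdjoinRoot π) p := ExpChar.prime hp.out
  haveI : PerfectRing (AdjoinRoot π) p := PerfectField.toPerfectRing p
  obtain ⟨c, hc⟩ := surjective_frobenius (AdjoinRoot π) p (AdjoinRoot.mk π a)
  obtain ⟨b, rfl⟩ := AdjoinRoot.mk_surjective c
  refine ⟨b, ?_⟩
  rw [frobenius_def, ← map_pow] at hc
  exact AdjoinRoot.mk_eq_mk.mp hc.symm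

theorem not_dvd_derivative {π : k[X]} (hπ : Prime π) : ¬ π ∣ derivative π := by
  intro h
  have hsep : π.Separable := PerfectField.separable_of_irreducible hπ.irreducible
  exact hπ.not_unit (hsep.isUnit_of_dvd' dvd_rfl h)

end Poly

section Inf

variable (p : ℕ) [hp : Fact p.Prime] {k : Type*} [Field k]

theorem exists_dec (s : Rinf k) : ∃ (c : k) (s1 : Rinf k),
    (s : RatFunc k) = RatFunc.C c + RatFunc.X⁻¹ * (s1 : RatFunc k) := by
  obtain ⟨c, hc⟩ := exists_C_sub k s.2
  have hcR : RatFunc.C c ∈ Rinf k := (mem_Rinf k).mpr (vinf_C_le k c)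
  have h1 : piInf k ∣ s - ⟨RatFunc.C c, hcR⟩ := (piInf_dvd_iff k _).mpr hc
  obtain ⟨s1, hs1⟩ := h1
  refine ⟨c, s1, ?_⟩
  have h2 := congrArg (Subtype.val) hs1
  have h3 : (s : RatFunc k) - RatFunc.C c = RatFunc.X⁻¹ * (s1 : RatFunc k) := h2
  rw [← h3]; ring

theorem inf_perf [CharP k p] [PerfectField k] (a : Rinf k) : ∃ b : Rinf k, piInf k ∣ a - b ^ p := by
  haveI : ExpChar k p := ExpChar.prime hp.out
  haveI : PerfectRing k p := PerfectField.toPerfectRing p
  obtain ⟨c, s1, h⟩ := exists_dec a
  obtain ⟨d, hd⟩ := surjective_frobenius k p c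
  rw [frobenius_def] at hd
  have hdR : RatFunc.C d ∈ Rinf k := (mem_Rinf k).mpr (vinf_C_le k d)
  refine ⟨⟨RatFunc.C d, hdR⟩, s1, Subtype.ext ?_⟩
  show (a : RatFunc k) - RatFunc.C d ^ p = RatFunc.X⁻¹ * (s1 : RatFunc k)
  rw [h, ← map_pow, hd]; ring

end Inf

section Bound

variable {k : Type*} [Field k] {K : Type*} [Field K] [Algebra k K] [Algebra (RatFunc k) K]
  [IsScalarTower k (RatFunc k) K] [FiniteDimensional (RatFunc k) K]
  [Algebra.IsSeparable (RatFunc k) K]

theorem inf_bound (P : Pl k K) (hP : 1 < P.v (xK k K))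
    (hR : ∀ s : Rinf k, P.v (algebraMap (RatFunc k) K (s : RatFunc k)) ≤ 1) (s : Rinf k) :
    P.v (xK k K ^ 2 * del k K (algebraMap (RatFunc k) K (s : RatFunc k))) ≤ 1 := by
  obtain ⟨N, hN⟩ := del_bounded P
  set q := P.v ((xK k K)⁻¹) with hq
  have hq1 : q ≤ exp (-1) := by
    rw [hq, ← lt_one_iff, map_inv₀]
    exact inv_lt_one_of_one_lt₀ hP
  have hx0 : xK k K ≠ 0 := xK_ne_zero
  have hxi : algebraMap (RatFunc k) K (RatFunc.X⁻¹) = (xK k K)⁻¹ := by
    rw [map_inv₀]; rfl
  have hdC : ∀ c : k, del k K (algebraMap (RatFunc k) K (RatFunc.C c)) = 0 := by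
    intro c
    have h1 : algebraMap (RatFunc k) K (RatFunc.C c) = algebraMap k K c := by
      rw [← algebraMap_eq_C, ← IsScalarTower.algebraMap_apply]
    rw [h1, Derivation.map_algebraMap]
  have hstep : ∀ n : ℕ, ∀ s : Rinf k,
      P.v (del k K (algebraMap (RatFunc k) K (s : RatFunc k))) ≤ max (q ^ 2) (q ^ n * exp N) := by
    intro n
    induction n with
    | zero =>
      intro s
      rw [pow_zero, one_mul]
      exact le_max_of_le_right (hN _ (hR s))
    | succ n ih =>
      intro s
      obtain ⟨c, s1, hs1⟩ := exists_dec s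
      rw [hs1, map_add, map_add, hdC, zero_add, map_mul, hxi, Derivation.leibniz,
        Derivation.leibniz_inv, del_xK, smul_eq_mul, smul_eq_mul, smul_eq_mul, mul_one]
      refine (Valuation.map_add _ _ _).trans (max_le ?_ ?_)
      · rw [map_mul, ← hq]
        calc q * P.v (del k K (algebraMap (RatFunc k) K (s1 : RatFunc k)))
            ≤ q * max (q ^ 2) (q ^ n * exp N) := mul_le_mul_right (ih s1) _
          _ ≤ max (q ^ 2) (q ^ (n + 1) * exp N) := by
            rcases max_choice (q ^ 2) (q ^ n * exp N) with hm | hm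
            · rw [hm]
              refine le_max_of_le_left ?_
              have hq1' : q ≤ 1 := hq1.trans (by rw [← exp_zero, exp_le_exp]; norm_num)
              calc q * q ^ 2 ≤ 1 * q ^ 2 := mul_le_mul_left hq1' _
                _ = q ^ 2 := one_mul _
            · rw [hm]
              refine le_max_of_le_right (le_of_eq ?_)
              rw [pow_succ', mul_assoc]
      · refine le_max_of_le_left ?_
        rw [map_mul, Valuation.map_neg, map_pow, ← hq]
        calc P.v (algebraMap (RatFunc k) K (s1 : RatFunc k)) * q ^ 2 ≤ 1 * q ^ 2 :=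
            mul_le_mul_left (hR s1) _
          _ = q ^ 2 := one_mul _
  have hv0 : P.v (xK k K) ≠ 0 := (Valuation.ne_zero_iff _).mpr hx0
  have hqx : P.v (xK k K) * q = 1 := by
    rw [hq, map_inv₀, mul_inv_cancel₀ hv0]
  -- choose `n`
  have hfin : P.v (del k K (algebraMap (RatFunc k) K (s : RatFunc k))) ≤ q ^ 2 := by
    have hq0 : q ≠ 0 := by intro h; rw [h, mul_zero] at hqx; exact zero_ne_one hqx
    set n := (N - log (q ^ 2)).toNat + 0 with hn
    have h1 := hstep n s
    have h2 : q ^ n * exp N ≤ q ^ 2 := by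
      calc q ^ n * exp N ≤ exp (-1) ^ n * exp N := mul_le_mul_left (pow_le_pow_left' hq1 n) _
        _ = exp (-(n : ℤ) + N) := by rw [← exp_nsmul, ← exp_add]; simp
        _ ≤ exp (log (q ^ 2)) := by
          rw [exp_le_exp]
          have := Int.self_le_toNat (N - log (q ^ 2))
          rw [hn]; push_cast; omega
        _ = q ^ 2 := exp_log (pow_ne_zero _ hq0)
    exact h1.trans (max_le le_rfl h2)
  rw [map_mul, map_pow]
  calc P.v (xK k K) ^ 2 * P.v (del k K (algebraMap (RatFunc k) K (s : RatFunc k)))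
      ≤ P.v (xK k K) ^ 2 * q ^ 2 := mul_le_mul_right hfin _
    _ = 1 := by rw [← mul_pow, hqx, one_pow]

end Bound

section Global

variable (p : ℕ) [hp : Fact p.Prime] {k : Type*} [Field k] [CharP k p] [PerfectField k]
  {K : Type*} [Field K] [Algebra k K] [Algebra (RatFunc k) K]
  [IsScalarTower k (RatFunc k) K] [FiniteDimensional (RatFunc k) K]
  [Algebra.IsSeparable (RatFunc k) K]

include p in
theorem v_del_eq_charP (P : Pl k K) {t : K} (ht : P.v t = exp (-1)) :
    P.v (del k K t) = exp (canD k K P) := by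
  haveI : CharP K p := charP_of_injective_algebraMap (algebraMap k K).injective p
  suffices h : ∃ s : K, P.v s = exp (-1) ∧ P.v (del k K s) = exp (canD k K P) by
    obtain ⟨s, hs, hs1⟩ := h
    rw [← hs1]
    refine le_antisymm (del_le_uniformizer P hs ?_) (del_le_uniformizer P ht ?_)
    · rw [ht, ← exp_zero, exp_le_exp]; norm_num
    · rw [hs, ← exp_zero, exp_le_exp]; norm_num
  use_charts k, K
  have hcan : canD k K = WD k K (integralClosure (Polynomial k) K) (integralClosure (Rinf k) K) := rfl
  rcases le_or_gt (P.v (xK k K)) 1 with h | h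
  · obtain ⟨w, rfl⟩ := exists_ofH₀ (A₀ := integralClosure (Polynomial k) K) P h
    rw [hcan, WD_ofH₀]
    -- the prime below
    let 𝔭 : Ideal k[X] := w.asIdeal.comap (algebraMap k[X] (integralClosure (Polynomial k) K))
    have hinj : Function.Injective (algebraMap k[X] (integralClosure (Polynomial k) K)) :=
      injective_SO k[X] (RatFunc k) K _
    haveI : FaithfulSMul k[X] (integralClosure (Polynomial k) K) :=
      (faithfulSMul_iff_algebraMap_injective _ _).mpr hinj
    have hp : 𝔭.IsPrime := Ideal.comap_isPrime _ _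
    have hp0 : 𝔭 ≠ ⊥ := by
      intro h0
      haveI : w.asIdeal.IsPrime := w.isPrime
      have := Ideal.eq_bot_of_comap_eq_bot (R := k[X]) (S := integralClosure (Polynomial k) K)
        (I := w.asIdeal) h0
      exact w.ne_bot this
    let π : k[X] := Submodule.IsPrincipal.generator 𝔭
    have hspan : Ideal.span {π} = 𝔭 := Ideal.span_singleton_generator 𝔭
    have hπp : Prime π := Submodule.IsPrincipal.prime_generator_of_isPrime 𝔭 hp0
    have hmapq : ∀ q : k[X], algebraMap k[X] K q = Polynomial.aeval (xK k K) q := by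
      intro q
      rw [IsScalarTower.algebraMap_apply k[X] (RatFunc k) K, algebraMap_poly]
    have hval : ∀ q : k[X], w.valuation K (Polynomial.aeval (xK k K) q) < 1 ↔ π ∣ q := by
      intro q
      rw [← hmapq, IsScalarTower.algebraMap_apply k[X] (integralClosure (Polynomial k) K) K]
      rw [HeightOneSpectrum.valuation_lt_one_iff_mem]
      rw [← Ideal.mem_span_singleton, hspan]
      rfl
    obtain ⟨s, hs, hs1⟩ := exists_uniformizer p k[X] (RatFunc k) K (del k K) w hπp
      (by rw [hmapq]; exact (hval π).mpr dvd_rfl) (poly_perf p hπp)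
      (by
        intro q
        rw [hmapq, del_poly]
        exact v_aeval_le (ofH w) h _)
      (by
        rw [hmapq, del_poly]
        refine le_antisymm (v_aeval_le (ofH w) h _) (not_lt.mp fun hlt => ?_)
        exact not_dvd_derivative hπp ((hval _).mp hlt))
    exact ⟨s, hs, hs1⟩
  · obtain ⟨w, rfl⟩ := exists_ofH₁ (A₁ := integralClosure (Rinf k) K) P h
    rw [hcan, WD_ofH₁]
    have hpole := poleX_spec (k := k) (K := K) (integralClosure (Rinf k) K) w
    have hmapq : ∀ q : Rinf k, algebraMap (Rinf k) K q = algebraMap (RatFunc k) K (q : RatFunc k) :=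
      fun q => rfl
    have hR : ∀ s : Rinf k, (ofH w : Pl k K).v (algebraMap (RatFunc k) K (s : RatFunc k)) ≤ 1 := by
      intro s
      rw [← hmapq, IsScalarTower.algebraMap_apply (Rinf k) (integralClosure (Rinf k) K) K]
      exact w.valuation_le_one _
    have hx0 : xK k K ≠ 0 := xK_ne_zero
    have hpi : algebraMap (Rinf k) K (piInf k) = (xK k K)⁻¹ := by
      show algebraMap (RatFunc k) K (RatFunc.X⁻¹) = _
      rw [map_inv₀]; rfl
    obtain ⟨s, hs, hs1⟩ := exists_uniformizer p (Rinf k) (RatFunc k) K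
      ((-(xK k K ^ 2)) • del k K) w (prime_piInf k)
      (by
        rw [hpi, map_inv₀]
        exact inv_lt_one_of_one_lt₀ h) (inf_perf p)
      (by
        intro q
        rw [hmapq, Derivation.smul_apply, smul_eq_mul, neg_mul, Valuation.map_neg]
        exact inf_bound (ofH w) h hR q)
      (by
        rw [hpi, Derivation.smul_apply, Derivation.leibniz_inv, del_xK, smul_eq_mul, smul_eq_mul,
          mul_one]
        have : -(xK k K ^ 2) * -((xK k K)⁻¹ ^ 2) = 1 := by field_simp
        rw [this, map_one])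
    refine ⟨s, hs, ?_⟩
    rw [Derivation.smul_apply, smul_eq_mul, neg_mul, Valuation.map_neg, map_mul, map_pow] at hs1
    have hpole' : w.valuation K (xK k K) = exp (poleX k K (integralClosure (Rinf k) K) w) := hpole
    rw [hpole', ← exp_nsmul] at hs1
    have h3 : (ofH w : Pl k K).v (del k K s)
        = exp (-(2 • poleX k K (integralClosure (Rinf k) K) w)) *
          (exp (2 • poleX k K (integralClosure (Rinf k) K) w) * w.valuation K (del k K s)) := by
      rw [← mul_assoc, ← exp_add]; simp; rfl
    rw [h3, hs1, ← exp_add]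
    congr 1
    rw [nsmul_eq_mul]; push_cast; ring

end Global

end Crest.Agent.R013.Car4_700
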