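import Mathlib
import Crest.Agent.R013.RR11_948

/-!
# R013 / PicD: the divisor class group of a function field (helper398)

`k` a field, `K` a finite separable extension of `k(X)`, on top of 948's Riemann-Roch.
* `Prin k K`  principal divisors, `Pic k K` classes, `cls D` class of a divisor;
* `degPic : Pic k K →+ ℤ`, `ellPic : Pic k K → ℕ`, `Pic0 k K = ker degPic`;
* `Rat k K` the set of places of degree one.
-/

set_option autoImplicit false

namespace Crest.Agent.R013.PicD_398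

open WithZero Module
open Crest.Agent.R013.RR7_948 Crest.Agent.R013.RR8_948 Crest.Agent.R013.RR9_948
open Crest.Agent.R013.RR11_948

section

variable (k : Type*) [Field k] (K : Type*) [Field K] [Algebra k K] [Algebra (RatFunc k) K]
  [IsScalarTower k (RatFunc k) K] [FiniteDimensional (RatFunc k) K]
  [Algebra.IsSeparable (RatFunc k) K]

/-- principal divisors -/
noncomputable def Prin : AddSubgroup (Pl k K →₀ ℤ) where
  carrier := {D | ∃ f : K, f ≠ 0 ∧ divf (k := k) f = D}
  add_mem' := by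
    rintro _ _ ⟨f, hf, rfl⟩ ⟨g, hg, rfl⟩
    exact ⟨f * g, mul_ne_zero hf hg, divf_mul hf hg⟩
  zero_mem' := ⟨1, one_ne_zero, divf_one⟩
  neg_mem' := by
    rintro _ ⟨f, hf, rfl⟩
    exact ⟨f⁻¹, inv_ne_zero hf, divf_inv hf⟩

/-- the divisor class group -/
abbrev Pic := (Pl k K →₀ ℤ) ⧸ Prin k K

variable {k K}

theorem mem_Prin {D : Pl k K →₀ ℤ} : D ∈ Prin k K ↔ ∃ f : K, f ≠ 0 ∧ divf (k := k) f = D :=
  Iff.rfl

/-- the class of a divisor -/
noncomputable def cls : (Pl k K →₀ ℤ) →+ Pic k K := QuotientAddGroup.mk' (Prin k K)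

theorem cls_surjective : Function.Surjective (cls (k := k) (K := K)) :=
  QuotientAddGroup.mk'_surjective _

theorem cls_eq_zero_iff {D : Pl k K →₀ ℤ} :
    cls D = 0 ↔ ∃ f : K, f ≠ 0 ∧ divf (k := k) f = D :=
  QuotientAddGroup.eq_zero_iff D

theorem cls_divf {f : K} (hf : f ≠ 0) : cls (divf (k := k) f) = 0 :=
  cls_eq_zero_iff.mpr ⟨f, hf, rfl⟩

theorem cls_eq_iff {D E : Pl k K →₀ ℤ} :
    cls D = cls E ↔ ∃ f : K, f ≠ 0 ∧ D = E + divf (k := k) f := by
  rw [← sub_eq_zero, ← map_sub, cls_eq_zero_iff]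
  constructor
  · rintro ⟨f, hf, h⟩
    exact ⟨f, hf, by rw [h]; abel⟩
  · rintro ⟨f, hf, h⟩
    exact ⟨f, hf, by rw [h]; abel⟩

/-- the degree of a divisor as a homomorphism -/
noncomputable def degHom : (Pl k K →₀ ℤ) →+ ℤ where
  toFun := degD
  map_zero' := degD_zero
  map_add' := degD_add

/-- the degree of a class -/
noncomputable def degPic : Pic k K →+ ℤ :=
  QuotientAddGroup.lift (Prin k K) degHom (by
    rintro _ ⟨f, hf, rfl⟩
    exact degD_divf hf)

@[simp] theorem degPic_cls (D : Pl k K →₀ ℤ) : degPic (cls D) = degD D := rfl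

/-- `ℓ` of a class -/
noncomputable def ellPic (z : Pic k K) : ℕ :=
  Quotient.liftOn' z ell (by
    intro D E h
    have h1 : cls D = cls E := Quotient.sound' h
    obtain ⟨f, hf, h2⟩ := cls_eq_iff.mp h1
    rw [h2, ell_add_divf _ hf])

@[simp] theorem ellPic_cls (D : Pl k K →₀ ℤ) : ellPic (cls D) = ell D := rfl

variable (k K) in
/-- classes of degree zero -/
noncomputable def Pic0 : AddSubgroup (Pic k K) := (degPic (k := k) (K := K)).ker

theorem mem_Pic0 {z : Pic k K} : z ∈ Pic0 k K ↔ degPic z = 0 := Iff.rfl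

variable (k K) in
/-- places of degree one -/
def Rat : Set (Pl k K) := {P | degP P = 1}

theorem mem_Rat {P : Pl k K} : P ∈ Rat k K ↔ degP P = 1 := Iff.rfl

/-- `ℓ(D) > 0` iff `D` is linearly equivalent to an effective divisor -/
theorem ell_pos_iff {D : Pl k K →₀ ℤ} :
    0 < ell D ↔ ∃ f : K, f ≠ 0 ∧ 0 ≤ D + divf (k := k) f := by
  haveI := LD_finite D
  constructor
  · intro h
    have h1 : LD D ≠ ⊥ := by
      intro h0
      unfold ell at h
      rw [h0] at h
      simp at h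
    obtain ⟨f, hf, hf0⟩ := Submodule.exists_mem_ne_zero_of_ne_bot h1
    exact ⟨f, hf0, (mem_LD_iff hf0).mp hf⟩
  · rintro ⟨f, hf0, hf⟩
    have hf' := (mem_LD_iff hf0).mpr hf
    have h1 : LD D ≠ ⊥ := by
      intro h0
      rw [h0] at hf'
      exact hf0 hf'
    unfold ell
    rw [Module.finrank_pos_iff]
    exact (Submodule.nontrivial_iff_ne_bot).mpr h1

/-- an effective class has `ℓ > 0`, and conversely -/
theorem ellPic_pos_iff {z : Pic k K} :
    0 < ellPic z ↔ ∃ D : Pl k K →₀ ℤ, 0 ≤ D ∧ cls D = z := by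
  obtain ⟨D, rfl⟩ := cls_surjective z
  rw [ellPic_cls, ell_pos_iff]
  constructor
  · rintro ⟨f, hf0, hf⟩
    exact ⟨_, hf, cls_eq_iff.mpr ⟨f, hf0, rfl⟩⟩
  · rintro ⟨E, hE, h⟩
    obtain ⟨f, hf, h1⟩ := cls_eq_iff.mp h
    exact ⟨f, hf, by rw [← h1]; exact hE⟩

theorem degD_nonneg {D : Pl k K →₀ ℤ} (hD : 0 ≤ D) : 0 ≤ degD D := by
  unfold degD
  exact Finsupp.sum_nonneg fun P _ => mul_nonneg (hD P) (by positivity)

theorem eq_zero_of_nonneg {D : Pl k K →₀ ℤ} (hD : 0 ≤ D) (h : degD D = 0) : D = 0 := by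
  ext P
  by_contra hP
  rw [Finsupp.zero_apply] at hP
  have hpos : 0 < degD D := by
    unfold degD
    refine Finset.sum_pos' (fun Q _ => mul_nonneg (hD Q) (by positivity)) ⟨P, ?_, ?_⟩
    · exact Finsupp.mem_support_iff.mpr hP
    · have h3 : 0 < D P := lt_of_le_of_ne (hD P) (Ne.symm hP)
      have h4 : 0 < (degP P : ℤ) := by exact_mod_cast degP_pos P
      exact mul_pos h3 h4
  omega

/-- in degree zero only the trivial class is effective -/
theorem ell_pos_deg_zero {D : Pl k K →₀ ℤ} (hd : degD D = 0) (h : 0 < ell D) : cls D = 0 := by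
  obtain ⟨f, hf, h1⟩ := ell_pos_iff.mp h
  have h2 : D + divf (k := k) f = 0 :=
    eq_zero_of_nonneg h1 (by rw [degD_add, degD_divf hf, hd, add_zero])
  have h3 : cls (D + divf (k := k) f) = 0 := by rw [h2, map_zero]
  rwa [map_add, cls_divf hf, add_zero] at h3

theorem ell_mono {D E : Pl k K →₀ ℤ} (h : D ≤ E) : ell D ≤ ell E := by
  haveI := LD_finite E
  unfold ell
  refine Submodule.finrank_mono ?_
  intro f hf
  rw [mem_LD] at hf ⊢
  intro P
  exact (hf P).trans (exp_le_exp.mpr (h P))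

end

end Crest.Agent.R013.PicD_398
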