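import Mathlib
import Crest.Agent.R013.RR19_948
import Crest.Agent.R013.PicD_398
import Crest.Agent.R013.Car4_700

/-!
# R013 / Car5: perfect constant fields of any characteristic: `canD` is the divisor of `dX`,
regular differentials, genus, Riemann-Hurwitz (helper700)
-/

set_option autoImplicit false
set_option linter.all false

namespace Crest.Agent.R013.Car5_700

open Polynomial WithZero Module IsDedekindDomain nonZeroDivisors
open Crest.Agent.R013.RR1_948 Crest.Agent.R013.RR2_948 Crest.Agent.R013.RR3_948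
open Crest.Agent.R013.RR4_948 Crest.Agent.R013.RR5_948 Crest.Agent.R013.RR6_948
open Crest.Agent.R013.RR7_948 Crest.Agent.R013.RR8_948 Crest.Agent.R013.RR9_948
open Crest.Agent.R013.RR11_948 Crest.Agent.R013.RR12_948 Crest.Agent.R013.RR13_948
open Crest.Agent.R013.RR14_948 Crest.Agent.R013.RR15_948 Crest.Agent.R013.RR16_948
open Crest.Agent.R013.RR18_948 Crest.Agent.R013.RR19_948
open Crest.Agent.R013.RR17_948 (toOmega)
open Crest.NumberTheoryR.Sect
open scoped NNReal

section Main

variable {k : Type*} [Field k] [PerfectField k] {K : Type*} [Field K] [Algebra k K]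
  [Algebra (RatFunc k) K] [IsScalarTower k (RatFunc k) K] [FiniteDimensional (RatFunc k) K]
  [Algebra.IsSeparable (RatFunc k) K]

/-- **`canD` is the divisor of `dX`** (any perfect constant field): `ord_P (dX/dt) = canD P` for a
uniformizer `t`, i.e. `v_P(dt/dX) = exp (canD P)` -/
theorem v_del_eq (P : Pl k K) {t : K} (ht : P.v t = exp (-1)) :
    P.v (del k K t) = exp (canD k K P) := by
  obtain ⟨p, hp⟩ := CharP.exists k
  rcases CharP.char_is_prime_or_zero k p with h | h
  · haveI : Fact p.Prime := ⟨h⟩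
    exact Crest.Agent.R013.Car4_700.v_del_eq_charP p P ht
  · subst h
    haveI : CharZero k := CharP.charP_to_charZero k
    exact Crest.Agent.R013.RR17_948.v_del_eq P ht

/-- the derivative at `P`: `v(df) ≤ exp (canD P) v(f)·exp 1`-/
theorem v_del_le (P : Pl k K) {f : K} (hf : P.v f ≤ 1) :
    P.v (del k K f) ≤ exp (canD k K P) := by
  obtain ⟨t, ht0, ht⟩ := exists_v_eq P (-1)
  rw [← v_del_eq P ht]
  exact del_le_uniformizer P ht hf

/-- general bound: `v(df) ≤ v(f) exp (canD P + 1)` -/
theorem v_del_le' (P : Pl k K) (f : K) :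
    P.v (del k K f) ≤ P.v f * exp (canD k K P + 1) := by
  by_cases hf : f = 0
  · simp [hf]
  obtain ⟨t, ht0, ht⟩ := exists_v_eq P (-1)
  have hv := (exp_log ((Valuation.ne_zero_iff P.v).mpr hf)).symm
  set n := log (P.v f) with hn
  set u := f * t ^ n with hu
  have hvu : P.v u = 1 := by
    rw [hu, map_mul, map_zpow₀, hv, ht, ← exp_zsmul, ← exp_add]; simp
  have hf' : f = t ^ (-n) * u := by
    rw [hu, mul_comm f, ← mul_assoc, ← zpow_add₀ ht0]; simp
  have h1 : del k K f = t ^ (-n) * del k K u + u * (((-n : ℤ) : K) * (t ^ (-n - 1) * del k K t)) := by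
    conv_lhs => rw [hf']
    rw [Derivation.leibniz, Derivation.leibniz_zpow, smul_eq_mul, smul_eq_mul, smul_eq_mul,
      zsmul_eq_mul]
  have hint : P.v ((-n : ℤ) : K) ≤ 1 := by
    have h2 : ((-n : ℤ) : K) = algebraMap k K ((-n : ℤ) : k) := by simp
    rw [h2]
    by_cases h3 : ((-n : ℤ) : k) = 0
    · rw [h3]; simp
    · rw [P.const _ h3]
  rw [h1]
  refine (Valuation.map_add _ _ _).trans (max_le ?_ ?_)
  · rw [map_mul, map_zpow₀, ht, ← exp_zsmul, hv]
    calc exp ((-n) • (-1)) * P.v (del k K u) ≤ exp ((-n) • (-1)) * exp (canD k K P) :=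
        mul_le_mul_right (v_del_le P hvu.le) _
      _ ≤ exp n * exp (canD k K P + 1) := by
        rw [← exp_add, ← exp_add, exp_le_exp]; simp
  · rw [map_mul, hvu, one_mul, map_mul, map_mul, map_zpow₀, ht, ← exp_zsmul, v_del_eq P ht, hv,
      ← exp_add, ← exp_add]
    calc P.v ((-n : ℤ) : K) * exp ((-n - 1) • (-1) + canD k K P)
        ≤ 1 * exp ((-n - 1) • (-1) + canD k K P) := mul_le_mul_left hint _
      _ ≤ exp (n + (canD k K P + 1)) := by
        rw [one_mul, exp_le_exp, smul_eq_mul]; omega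

/-- the regularity of `g dX` at a place -/
theorem isRegularAt_iff {P : Pl k K} {v : Valuation K ℝ≥0} (h : P.v.IsEquiv v) (g : K) :
    IsRegularAt k K v (g • KaehlerDifferential.D k K (xK k K)) ↔ P.v g ≤ exp (canD k K P) := by
  constructor
  · rintro ⟨t, f, ht, hf, hω⟩
    rw [isUniformizerAt_iff h] at ht
    rw [D_eq k K t, smul_smul] at hω
    have h1 : g = f * del k K t := by
      have h2 : (g - f * del k K t) • KaehlerDifferential.D k K (xK k K) = 0 := by
        rw [sub_smul, hω, sub_self]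
      rcases smul_eq_zero.mp h2 with h3 | h3
      · exact sub_eq_zero.mp h3
      · exact absurd h3 (D_xK_ne_zero k K)
    rw [h1, map_mul, v_del_eq P ht]
    rw [← h.le_one_iff_le_one] at hf
    calc _ ≤ 1 * exp (canD k K P) := mul_le_mul_left hf _
      _ = _ := one_mul _
  · intro hg
    obtain ⟨t, ht0, ht⟩ := exists_v_eq P (-1)
    have hdt : del k K t ≠ 0 := del_uniformizer_ne_zero P ht
    refine ⟨t, g / del k K t, (isUniformizerAt_iff h t).mpr ht, ?_, ?_⟩
    · rw [← h.le_one_iff_le_one, map_div₀, v_del_eq P ht]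
      exact div_le_one_of_le₀ hg zero_le
    · rw [D_eq k K t, smul_smul, div_mul_cancel₀ _ hdt]

/-- regular differentials are `L(canD) dX` -/
theorem mem_regularDifferentials_iff (g : K) :
    g • KaehlerDifferential.D k K (xK k K) ∈ regularDifferentials k K ↔ g ∈ LD (canD k K) := by
  rw [mem_LD]
  constructor
  · intro h P
    have h1 : ∀ v : Valuation K ℝ≥0, IsPlace k v →
        IsRegularAt k K v (g • KaehlerDifferential.D k K (xK k K)) := h
    exact (isRegularAt_iff (isEquiv_vR P) g).mp (h1 _ (isPlace_vR P))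
  · intro h
    show ∀ v : Valuation K ℝ≥0, IsPlace k v →
        IsRegularAt k K v (g • KaehlerDifferential.D k K (xK k K))
    intro v hv
    obtain ⟨P, hP⟩ := IsPlace.exists_pl hv
    exact (isRegularAt_iff hP g).mpr (h P)

theorem toOmega_injective : Function.Injective (toOmega k K) := by
  rw [← LinearMap.ker_eq_bot, LinearMap.ker_eq_bot']
  intro g hg
  have hg' : g • KaehlerDifferential.D k K (xK k K) = 0 := hg
  rcases smul_eq_zero.mp hg' with h | h
  · exact h
  · exact absurd h (D_xK_ne_zero k K)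

theorem regularDifferentials_eq :
    regularDifferentials k K = ((LD (canD k K)).map (toOmega k K) : Submodule k _) := by
  ext ω
  obtain ⟨g, rfl⟩ := exists_smul_D_xK k K ω
  rw [mem_regularDifferentials_iff]
  constructor
  · intro hg
    exact ⟨g, hg, rfl⟩
  · rintro ⟨g', hg', h⟩
    have : g' = g := toOmega_injective h
    rwa [← this]

/-- **the genus of `Def_SectConj` is the Riemann-Roch genus**, perfect constant field -/
theorem genus_eq_gen : genus k K = gen k K := by
  unfold genus gen ell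
  rw [regularDifferentials_eq, Submodule.span_eq]
  exact (Submodule.equivMapOfInjective (toOmega k K) toOmega_injective
    (LD (canD k K))).symm.finrank_eq

end Main

section hurwitz

variable {k : Type*} [Field k] [PerfectField k] {K : Type*} [Field K] [Algebra k K]
  [Algebra (RatFunc k) K]
  [IsScalarTower k (RatFunc k) K] [FiniteDimensional (RatFunc k) K]
  [Algebra.IsSeparable (RatFunc k) K]
  {L : Type*} [Field L] [Algebra k L] [Algebra K L] [IsScalarTower k K L]
  [FiniteDimensional K L] [Algebra.IsSeparable K L]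
  [Algebra (RatFunc k) L] [IsScalarTower k (RatFunc k) L] [FiniteDimensional (RatFunc k) L]
  [Algebra.IsSeparable (RatFunc k) L] [IsScalarTower (RatFunc k) K L]

/-- **Riemann-Hurwitz**, local inequality -/
theorem canD_ge (Q : Pl k L) :
    eR K Q * canD k K (under K Q) + (eR K Q - 1) ≤ canD k L Q := by
  obtain ⟨t, ht0, ht⟩ := exists_v_eq (under K Q) (-1)
  have h1 := v_algebraMap_exp Q ht
  have h2 := v_del_le' Q (algebraMap K L t)
  rw [del_algebraMap, v_algebraMap_exp Q (v_del_eq (under K Q) ht), h1, ← exp_add, exp_le_exp] at h2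
  linarith

/-- tame places -/
theorem canD_eq_of_tame (Q : Pl k L) (he : ((eR K Q : ℕ) : k) ≠ 0) :
    canD k L Q = eR K Q * canD k K (under K Q) + (eR K Q - 1) := by
  refine le_antisymm ?_ (canD_ge Q)
  obtain ⟨t, ht0, ht⟩ := exists_v_eq (under K Q) (-1)
  obtain ⟨s, hs0, hs⟩ := exists_v_eq Q (-1)
  have h1 := v_algebraMap_exp Q ht
  set e := eR K Q with he'
  set π := algebraMap K L t with hπ
  set u := π * s ^ (-(e : ℤ)) with hu
  have hvu : Q.v u = 1 := by
    rw [hu, map_mul, map_zpow₀, h1, hs, ← exp_zsmul, ← exp_add]; simp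
  have hf' : π = s ^ (e : ℤ) * u := by
    rw [hu, mul_comm π, ← mul_assoc, ← zpow_add₀ hs0]; simp
  have h3 : del k L π = s ^ (e : ℤ) * del k L u +
      u * (((e : ℤ) : L) * (s ^ ((e : ℤ) - 1) * del k L s)) := by
    conv_lhs => rw [hf']
    rw [Derivation.leibniz, Derivation.leibniz_zpow, smul_eq_mul, smul_eq_mul, smul_eq_mul,
      zsmul_eq_mul]
  have hve : Q.v ((e : ℤ) : L) = 1 := by
    have h4 : ((e : ℤ) : L) = algebraMap k L ((e : ℕ) : k) := by simp
    rw [h4, Q.const _ he]
  have hA : Q.v (u * (((e : ℤ) : L) * (s ^ ((e : ℤ) - 1) * del k L s)))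
      = exp (-((e : ℤ) - 1) + canD k L Q) := by
    rw [map_mul, hvu, one_mul, map_mul, hve, one_mul, map_mul, map_zpow₀, hs, ← exp_zsmul,
      v_del_eq Q hs, ← exp_add]
    congr 2
    simp
  have hB : Q.v (s ^ (e : ℤ) * del k L u) < exp (-((e : ℤ) - 1) + canD k L Q) := by
    rw [map_mul, map_zpow₀, hs, ← exp_zsmul]
    calc exp ((e : ℤ) • (-1)) * Q.v (del k L u) ≤ exp ((e : ℤ) • (-1)) * exp (canD k L Q) :=
        mul_le_mul_right (v_del_le Q hvu.le) _
      _ < _ := by rw [← exp_add, exp_lt_exp, smul_eq_mul]; omega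
  have h5 : Q.v (del k L π) = exp (-((e : ℤ) - 1) + canD k L Q) := by
    rw [h3, Valuation.map_add_eq_of_lt_right, hA]
    rw [hA]; exact hB
  rw [hπ, del_algebraMap, v_algebraMap_exp Q (v_del_eq (under K Q) ht), exp_inj] at h5
  linarith

theorem canD_eq_of_unramified (Q : Pl k L) (he : eR K Q = 1) :
    canD k L Q = canD k K (under K Q) := by
  have h := canD_eq_of_tame (K := K) Q (by rw [he]; simp)
  rw [he] at h
  rw [h]; simp

theorem ramD_ge (Q : Pl k L) : ((eR K Q : ℕ) : ℤ) - 1 ≤ ramD k K L Q := by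
  unfold ramD
  rw [Finsupp.sub_apply, con_apply]
  have := canD_ge (K := K) Q
  linarith

theorem ramD_nonneg (Q : Pl k L) : 0 ≤ ramD k K L Q := by
  have h1 := ramD_ge (K := K) Q
  have h2 := eR_pos (K := K) Q
  omega

theorem ramD_eq_zero_iff (Q : Pl k L) : ramD k K L Q = 0 ↔ eR K Q = 1 := by
  constructor
  · intro h
    have h1 := ramD_ge (K := K) Q
    have h2 := eR_pos (K := K) Q
    omega
  · intro h
    unfold ramD
    rw [Finsupp.sub_apply, con_apply, canD_eq_of_unramified (K := K) Q h, h]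
    simp

/-- unramified extensions -/
theorem hurwitz_unramified (hcK : algebraicClosure k K = ⊥)
    (hcL : algebraicClosure k L = ⊥) (he : ∀ Q : Pl k L, eR K Q = 1) :
    2 * (gen k L : ℤ) - 2 = finrank K L * (2 * gen k K - 2) := by
  rw [hurwitz hcK hcL]
  have : ramD k K L = 0 := by
    ext Q
    rw [(ramD_eq_zero_iff Q).mpr (he Q)]; rfl
  rw [this, degD_zero, add_zero]

/-- **Riemann-Hurwitz inequality** -/
theorem hurwitz_le (hcK : algebraicClosure k K = ⊥) (hcL : algebraicClosure k L = ⊥) :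
    finrank K L * (2 * (gen k K : ℤ) - 2) ≤ 2 * (gen k L : ℤ) - 2 := by
  rw [hurwitz hcK hcL]
  have h : 0 ≤ degD (ramD k K L) := Crest.Agent.R013.PicD_398.degD_nonneg fun Q => ramD_nonneg Q
  linarith

/-- equality in Riemann-Hurwitz: unramified -/
theorem unramified_of_hurwitz_eq (hcK : algebraicClosure k K = ⊥) (hcL : algebraicClosure k L = ⊥)
    (h : 2 * (gen k L : ℤ) - 2 ≤ finrank K L * (2 * (gen k K : ℤ) - 2)) (Q : Pl k L) :
    eR K Q = 1 := by
  rw [hurwitz hcK hcL] at h
  have h1 : 0 ≤ degD (ramD k K L) := Crest.Agent.R013.PicD_398.degD_nonneg fun Q => ramD_nonneg Q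
  have h2 : degD (ramD k K L) = 0 := by linarith
  have h3 := Crest.Agent.R013.PicD_398.eq_zero_of_nonneg (D := ramD k K L) (fun Q => ramD_nonneg Q) h2
  rw [← ramD_eq_zero_iff (k := k) (K := K), h3]; rfl

end hurwitz

end Crest.Agent.R013.Car5_700
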