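import Mathlib
import Crest.Agent.R013.Car2_700
import Crest.Agent.R013.Car5_700

/-!
# R013 / Car6: orders of `C w` (helper700)
-/

set_option autoImplicit false
set_option linter.all false

namespace Crest.Agent.R013.Car6_700

open WithZero Module
open Crest.Agent.R013.Car1_700

section Local

variable {p : ℕ} {κ : Type*} [Field κ] (S : PB p κ) (v : Valuation κ ℤᵐ⁰)

/-- the value of an expansion is the maximum of the values of its terms -/
theorem v_expansion (hx : v S.x = exp (-1)) {y : κ} (hy : y ≠ 0) :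
    ∃ i < p, v y = v (S.co y i ^ p * S.x ^ i) ∧
      ∀ j < p, v (S.co y j ^ p * S.x ^ j) ≤ v y := by
  classical
  set f : ℕ → κ := fun i => S.co y i ^ p * S.x ^ i with hf
  have hsum : y = ∑ i ∈ Finset.range p, f i := S.co_spec y
  obtain ⟨i, hi, hmax⟩ := Finset.exists_max_image (Finset.range p) (fun i => v (f i))
    ⟨0, Finset.mem_range.mpr S.hp.pos⟩
  have hvf : ∀ i, S.co y i ≠ 0 → v (f i) = exp (p * log (v (S.co y i)) - i) := by
    intro i h0
    have h1 : v (S.co y i) = exp (log (v (S.co y i))) :=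
      (exp_log ((Valuation.ne_zero_iff v).mpr h0)).symm
    rw [hf]
    show v (S.co y i ^ p * S.x ^ i) = _
    rw [map_mul, map_pow, map_pow, hx]
    conv_lhs => rw [h1]
    rw [← exp_nsmul, ← exp_nsmul, ← exp_add]
    congr 1
    simp
    ring
  have hlt : ∀ j ∈ Finset.range p \ {i}, v (f j) < v (f i) := by
    intro j hj
    rw [Finset.mem_sdiff, Finset.mem_singleton, Finset.mem_range] at hj
    refine lt_of_le_of_ne (hmax j (Finset.mem_range.mpr hj.1)) ?_
    intro heq
    by_cases h0 : S.co y i = 0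
    · -- then all terms vanish
      have h1 : v (f i) = 0 := by
        rw [hf]; show v (S.co y i ^ p * S.x ^ i) = 0
        rw [h0, zero_pow S.hp.ne_zero, zero_mul, map_zero]
      apply hy
      rw [hsum]
      refine Finset.sum_eq_zero fun l hl => ?_
      have h2 := hmax l hl
      rw [h1] at h2
      exact (Valuation.zero_iff v).mp (le_antisymm h2 zero_le)
    · have h0' : S.co y j ≠ 0 := by
        intro h3
        have h4 : v (f j) = 0 := by
          rw [hf]; show v (S.co y j ^ p * S.x ^ j) = 0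
          rw [h3, zero_pow S.hp.ne_zero, zero_mul, map_zero]
        rw [h4, hvf i h0] at heq
        exact exp_ne_zero heq.symm
      rw [hvf i h0, hvf j h0', exp_inj] at heq
      have hi' := Finset.mem_range.mp hi
      have h5 : (p : ℤ) ∣ (i : ℤ) - j := ⟨log (v (S.co y i)) - log (v (S.co y j)), by
        rw [mul_sub]; linarith⟩
      have h6 : (i : ℤ) - j = 0 := by
        apply Int.eq_zero_of_abs_lt_dvd h5
        rw [abs_lt]; omega
      exact hj.2 (by omega)
  have hvy : v y = v (f i) := by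
    rw [hsum]; exact Valuation.map_sum_eq_of_lt v hi hlt
  refine ⟨i, Finset.mem_range.mp hi, hvy, fun j hj => ?_⟩
  rw [hvy]
  exact hmax j (Finset.mem_range.mpr hj)

theorem v_co_le (hx : v S.x = exp (-1)) {y : κ} {m : ℤ} {i : ℕ} (hi : i < p)
    (hy : v y ≤ exp (-(p * m))) : v (S.co y i) ≤ exp (-m) := by
  by_cases h0 : S.co y i = 0
  · rw [h0, map_zero]; exact zero_le
  have hy0 : y ≠ 0 := by
    rintro rfl
    apply h0
    exact S.co_eq (g := fun _ => 0) (by simp [zero_pow S.hp.ne_zero]) hi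
  obtain ⟨j, hj, h1, h2⟩ := v_expansion S v hx hy0
  have h3 := (h2 i hi).trans hy
  have h4 : v (S.co y i) = exp (log (v (S.co y i))) :=
    (exp_log ((Valuation.ne_zero_iff v).mpr h0)).symm
  rw [map_mul, map_pow, map_pow, hx, h4, ← exp_nsmul, ← exp_nsmul, ← exp_add, exp_le_exp] at h3
  rw [h4, exp_le_exp]
  simp only [nsmul_eq_mul, mul_neg, mul_one] at h3
  by_contra hcon
  have h5 : -m + 1 ≤ log (v (S.co y i)) := by omega
  have hp : (0 : ℤ) < p := by exact_mod_cast S.hp.pos
  have h6 : (p : ℤ) * (-m + 1) ≤ p * log (v (S.co y i)) := mul_le_mul_of_nonneg_left h5 hp.le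
  have h7 : (i : ℤ) < p := by exact_mod_cast hi
  nlinarith

theorem v_co_eq (hx : v S.x = exp (-1)) {y : κ} {m : ℤ} {r : ℕ} (hr : r < p)
    (hy : v y = exp (-(p * m + r))) : v (S.co y r) = exp (-m) := by
  have hy0 : y ≠ 0 := by rintro rfl; rw [map_zero] at hy; exact exp_ne_zero hy.symm
  obtain ⟨j, hj, h1, h2⟩ := v_expansion S v hx hy0
  have h0 : S.co y j ≠ 0 := by
    intro h0
    rw [h0, zero_pow S.hp.ne_zero, zero_mul, map_zero, hy] at h1
    exact exp_ne_zero h1
  have h4 : v (S.co y j) = exp (log (v (S.co y j))) :=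
    (exp_log ((Valuation.ne_zero_iff v).mpr h0)).symm
  rw [hy, map_mul, map_pow, map_pow, hx, h4, ← exp_nsmul, ← exp_nsmul, ← exp_add, exp_inj] at h1
  simp only [nsmul_eq_mul, mul_neg, mul_one] at h1
  have hp : (0 : ℤ) < p := by exact_mod_cast S.hp.pos
  have h5 : (p : ℤ) ∣ (j : ℤ) - r := ⟨log (v (S.co y j)) + m, by rw [mul_add]; linarith⟩
  have h6 : (j : ℤ) - r = 0 := by
    apply Int.eq_zero_of_abs_lt_dvd h5
    rw [abs_lt]; omega
  have h7 : j = r := by omega
  subst h7
  rw [h4, exp_inj]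
  have h8 : (p : ℤ) * (log (v (S.co y j)) + m) = 0 := by rw [mul_add]; linarith
  rcases mul_eq_zero.mp h8 with h9 | h9
  · omega
  · omega

end Local

section Global

open Crest.Agent.R013.RR7_948 Crest.Agent.R013.RR8_948 Crest.Agent.R013.RR9_948
open Crest.Agent.R013.RR11_948 Crest.Agent.R013.RR12_948 Crest.Agent.R013.RR14_948
open Crest.Agent.R013.RR15_948 Crest.Agent.R013.Car2_700 Crest.Agent.R013.Car5_700

variable (p : ℕ) [hp : Fact p.Prime] (k : Type*) [Field k] [CharP k p] [PerfectField k]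
  (K : Type*) [Field K] [Algebra k K] [Algebra (RatFunc k) K]
  [IsScalarTower k (RatFunc k) K] [FiniteDimensional (RatFunc k) K]
  [Algebra.IsSeparable (RatFunc k) K]

/-- the Cartier operator on functions: `g dX ↦ C(g) dX` -/
noncomputable abbrev CK : K → K := (pb p k K).C

variable {k K}

theorem CK_eq {t : K} (ht : del k K t ≠ 0) (g : K) :
    CK p k K g = ((pb p k K).chg (t := t) ht).C (g / del k K t) * del k K t := by
  have h := (pb p k K).C_chg (t := t) ht (g / del k K t)
  rw [pb_D, div_mul_cancel₀ _ ht] at h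
  exact h

/-- **order estimate**: `ord w ≥ p m → ord (C w) ≥ m` -/
theorem v_CK_le (P : Pl k K) {g : K} {m : ℤ} (hg : P.v g ≤ exp (canD k K P - p * m)) :
    P.v (CK p k K g) ≤ exp (canD k K P - m) := by
  obtain ⟨t, ht0, ht⟩ := exists_v_eq P (-1)
  have hdt : del k K t ≠ 0 := del_uniformizer_ne_zero P ht
  rw [CK_eq p hdt g, map_mul, v_del_eq P ht]
  have h1 : P.v (((pb p k K).chg (t := t) hdt).C (g / del k K t)) ≤ exp (-m) := by
    apply v_co_le _ P.v (show P.v t = exp (-1) from ht) (Nat.sub_lt hp.out.pos Nat.one_pos)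
    rw [map_div₀, v_del_eq P ht]
    calc P.v g / exp (canD k K P) ≤ exp (canD k K P - p * m) / exp (canD k K P) :=
        div_le_div_of_nonneg_right hg zero_le
      _ = exp (-(p * m)) := by rw [← exp_sub]; congr 1; ring
  calc _ ≤ exp (-m) * exp (canD k K P) := mul_le_mul_left h1 _
    _ = exp (canD k K P - m) := by rw [← exp_add]; congr 1; ring

/-- `ord w = p m + p - 1 → ord (C w) = m` -/
theorem v_CK_eq (P : Pl k K) {g : K} {m : ℤ}
    (hg : P.v g = exp (canD k K P - (p * m + (p - 1 : ℕ)))) :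
    P.v (CK p k K g) = exp (canD k K P - m) := by
  obtain ⟨t, ht0, ht⟩ := exists_v_eq P (-1)
  have hdt : del k K t ≠ 0 := del_uniformizer_ne_zero P ht
  rw [CK_eq p hdt g, map_mul, v_del_eq P ht]
  have h1 : P.v (((pb p k K).chg (t := t) hdt).C (g / del k K t)) = exp (-m) := by
    apply v_co_eq _ P.v (show P.v t = exp (-1) from ht) (Nat.sub_lt hp.out.pos Nat.one_pos)
    rw [map_div₀, v_del_eq P ht, hg, ← exp_sub]; congr 1; ring
  rw [h1, ← exp_add]; congr 1; ring

/-- `C` maps `L(canD - p D)` to `L(canD - D)` -/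
theorem CK_mem_LD {D : Pl k K →₀ ℤ} {g : K} (hg : g ∈ LD (canD k K - p • D)) :
    CK p k K g ∈ LD (canD k K - D) := by
  rw [mem_LD] at hg ⊢
  intro P
  refine v_CK_le p P ?_
  have h := hg P
  simpa using h

/-- regular forms go to regular forms -/
theorem CK_mem_LD_canD {g : K} (hg : g ∈ LD (canD k K)) : CK p k K g ∈ LD (canD k K) := by
  have h := CK_mem_LD p (D := (0 : Pl k K →₀ ℤ)) (g := g) (by simpa using hg)
  simpa using h

/-- at most simple poles: kept -/
theorem v_CK_le_one_pole (P : Pl k K) {g : K} (hg : P.v g ≤ exp (canD k K P + 1)) :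
    P.v (CK p k K g) ≤ exp (canD k K P + 1) := by
  have h := v_CK_le p P (g := g) (m := -1) (hg.trans (by
    rw [exp_le_exp]
    have : (1 : ℤ) ≤ p := by exact_mod_cast hp.out.pos
    omega))
  rwa [sub_neg_eq_add] at h

/-- an exact form has no zero of order `-1 mod p` -/
theorem not_dvd_of_CK_eq_zero (P : Pl k K) {g : K} (hC : CK p k K g = 0) {n : ℤ}
    (hg : P.v g = exp (canD k K P - n)) : ¬ (p : ℤ) ∣ n + 1 := by
  rintro ⟨m, hm⟩
  have h := v_CK_eq p P (g := g) (m := m - 1) (by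
    rw [hg]; congr 1
    have : ((p - 1 : ℕ) : ℤ) = p - 1 := by
      rw [Nat.cast_sub hp.out.pos]; simp
    rw [this]; linarith)
  rw [hC, map_zero] at h
  exact exp_ne_zero h.symm

/-- a logarithmic (`C`-fixed) form has no zero of order `-1 mod p`: if `p ∣ ord w + 1` then
`ord w = -1` -/
theorem eq_of_CK_eq_self (P : Pl k K) {g : K} (hC : CK p k K g = g) {n : ℤ}
    (hg : P.v g = exp (canD k K P - n)) (hn : (p : ℤ) ∣ n + 1) : n = -1 := by
  obtain ⟨m, hm⟩ := hn
  have h := v_CK_eq p P (g := g) (m := m - 1) (by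
    rw [hg]; congr 1
    have : ((p - 1 : ℕ) : ℤ) = p - 1 := by
      rw [Nat.cast_sub hp.out.pos]; simp
    rw [this]; linarith)
  rw [hC, hg, exp_inj] at h
  have h1 : (n : ℤ) = m - 1 := by omega
  have h2 : m * ((p : ℤ) - 1) = 0 := by
    have : (p : ℤ) * m = m := by omega
    linarith
  have h3 : (2 : ℤ) ≤ p := by exact_mod_cast hp.out.two_le
  rcases mul_eq_zero.mp h2 with h4 | h4
  · omega
  · omega

/-- a `C`-fixed form has at most simple poles -/
theorem v_le_of_CK_eq_self (P : Pl k K) {g : K} (hC : CK p k K g = g) :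
    P.v g ≤ exp (canD k K P + 1) := by
  by_cases hg0 : g = 0
  · rw [hg0, map_zero]; exact zero_le
  have hv := (exp_log ((Valuation.ne_zero_iff P.v).mpr hg0)).symm
  set l := log (P.v g) with hl
  set c := canD k K P with hc
  rw [hv, exp_le_exp]
  by_contra hcon
  -- `l = c + s`, `s ≥ 2`; take `m = -(s - 1)`
  have h := v_CK_le p P (g := g) (m := c - l + 1) (by
    rw [hv, exp_le_exp]
    have h3 : (2 : ℤ) ≤ p := by exact_mod_cast hp.out.two_le
    nlinarith)
  rw [hC, hv, exp_le_exp] at h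
  omega

/-- `C`-fixed or exact forms, regular at `P`: the order `n` satisfies `p ∤ n + 1` -/
theorem not_dvd_of_fixed_or_exact (P : Pl k K) {g : K} (hC : CK p k K g = g ∨ CK p k K g = 0)
    {n : ℕ} (hg : P.v g = exp (canD k K P - n)) : ¬ p ∣ n + 1 := by
  intro h
  have h' : (p : ℤ) ∣ (n : ℤ) + 1 := by exact_mod_cast h
  rcases hC with hC | hC
  · have := eq_of_CK_eq_self p P hC hg h'
    omega
  · exact not_dvd_of_CK_eq_zero p P hC hg h'

/-- **(K3)** a non zero regular form which is `C`-fixed or exact has, for `g ≥ 2`, a zero of order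
`n ≥ 1` with `p ∤ n + 1` -/
theorem exists_zero (hc : algebraicClosure k K = ⊥) (hgen : 2 ≤ gen k K) {g : K} (h0 : g ≠ 0)
    (hL : g ∈ LD (canD k K)) (hC : CK p k K g = g ∨ CK p k K g = 0) :
    ∃ (P : Pl k K) (n : ℕ), 1 ≤ n ∧ P.v g = exp (canD k K P - n) ∧ ¬ p ∣ n + 1 := by
  have h1 : 0 ≤ canD k K + divf g := (mem_LD_iff h0).mp hL
  have h2 : degD (canD k K + divf (k := k) g) = 2 * (gen k K : ℤ) - 2 := by
    rw [degD_add, degD_divf h0, add_zero, degD_canD hc]
  obtain ⟨P, hP⟩ : ∃ P : Pl k K, (canD k K + divf (k := k) g) P ≠ 0 := by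
    by_contra hcon
    push Not at hcon
    have : canD k K + divf (k := k) g = 0 := by ext P; exact hcon P
    rw [this, degD_zero] at h2
    omega
  have h3 : 0 ≤ (canD k K + divf (k := k) g) P := h1 P
  obtain ⟨n, hn⟩ := Int.eq_ofNat_of_zero_le h3
  have h4 : P.v g = exp (canD k K P - n) := by
    rw [v_eq h0, ← hn]
    congr 1
    rw [Finsupp.add_apply]; ring
  refine ⟨P, n, ?_, h4, not_dvd_of_fixed_or_exact p P hC h4⟩
  rw [hn] at hP
  have : n ≠ 0 := by intro h; apply hP; rw [h]; rfl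
  omega

/-! ### logarithmic differentials -/

/-- `dlog f` is regular where `p ∣ ord f` -/
theorem v_dlog_le (P : Pl k K) {f : K} {n : ℤ} (hf : P.v f = exp (-(p * n))) :
    P.v (del k K f / f) ≤ exp (canD k K P) := by
  haveI : CharP K p := charP_K p k K
  obtain ⟨t, ht0, ht⟩ := exists_v_eq P (-1)
  have hf0 : f ≠ 0 := by rintro rfl; rw [map_zero] at hf; exact exp_ne_zero hf.symm
  set u := f * (t ^ (-n)) ^ p with hu
  have htn : (t ^ (-n)) ^ p ≠ 0 := pow_ne_zero _ (zpow_ne_zero _ ht0)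
  have hvu : P.v u = 1 := by
    rw [hu, map_mul, map_pow, map_zpow₀, hf, ht, ← exp_zsmul, ← exp_nsmul, ← exp_add, ← exp_zero]
    congr 1
    simp
  have hu0 : u ≠ 0 := by intro h; rw [h, map_zero] at hvu; exact zero_ne_one hvu
  have h1 : del k K f / f = del k K u / u := by
    have h2 : del k K u = del k K f * (t ^ (-n)) ^ p := by
      rw [hu]
      have h3 : del k K ((t ^ (-n)) ^ p) = 0 := (pb p k K).D_pow_p (t ^ (-n))
      rw [Derivation.leibniz, h3, smul_zero, zero_add, smul_eq_mul, mul_comm]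
    rw [h2, hu, mul_div_mul_right _ _ htn]
  rw [h1, map_div₀, hvu, div_one]
  exact v_del_le P hvu.le

/-- `dlog f` has a simple pole where `p ∤ ord f` -/
theorem v_dlog_eq (P : Pl k K) {f : K} {n : ℤ} (hf : P.v f = exp (-n)) (hn : ¬ (p : ℤ) ∣ n) :
    P.v (del k K f / f) = exp (canD k K P + 1) := by
  haveI : CharP K p := charP_K p k K
  obtain ⟨t, ht0, ht⟩ := exists_v_eq P (-1)
  have hf0 : f ≠ 0 := by rintro rfl; rw [map_zero] at hf; exact exp_ne_zero hf.symm
  set u := f * t ^ (-n) with hu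
  have hvu : P.v u = 1 := by
    rw [hu, map_mul, map_zpow₀, hf, ht, ← exp_zsmul, ← exp_add]; simp
  have hu0 : u ≠ 0 := by intro h; rw [h, map_zero] at hvu; exact zero_ne_one hvu
  have hf' : f = t ^ n * u := by
    rw [hu, mul_comm f, ← mul_assoc, ← zpow_add₀ ht0]; simp
  have h1 : del k K f / f = (n : K) * del k K t / t + del k K u / u := by
    conv_lhs => rw [hf']
    rw [Derivation.leibniz, Derivation.leibniz_zpow, smul_eq_mul, smul_eq_mul, smul_eq_mul,
      zsmul_eq_mul, zpow_sub₀ ht0, zpow_one]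
    field_simp
    ring
  have hvn : P.v (n : K) = 1 := by
    have h4 : (n : K) = algebraMap k K ((n : ℤ) : k) := by simp
    rw [h4]
    apply P.const
    rw [ne_eq, CharP.intCast_eq_zero_iff k p]
    exact hn
  have hA : P.v ((n : K) * del k K t / t) = exp (canD k K P + 1) := by
    rw [map_div₀, map_mul, hvn, one_mul, v_del_eq P ht, ht, ← exp_sub, sub_neg_eq_add]
  have hB : P.v (del k K u / u) < exp (canD k K P + 1) := by
    rw [map_div₀, hvu, div_one]
    exact (v_del_le P hvu.le).trans_lt (by rw [exp_lt_exp]; omega)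
  rw [h1, Valuation.map_add_eq_of_lt_left, hA]
  rw [hA]; exact hB

/-- `dlog f` is regular at `P` iff `p ∣ ord_P f` -/
theorem v_dlog_le_iff (P : Pl k K) {f : K} (hf0 : f ≠ 0) :
    P.v (del k K f / f) ≤ exp (canD k K P) ↔ (p : ℤ) ∣ divf (k := k) f P := by
  have hv := v_eq (k := k) hf0 P
  constructor
  · intro h
    by_contra hcon
    rw [v_dlog_eq p P hv hcon, exp_le_exp] at h
    omega
  · rintro ⟨n, hn⟩
    rw [hn] at hv
    exact v_dlog_le p P hv

/-- `dlog f` is regular everywhere iff `p ∣ div f` -/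
theorem dlog_mem_LD_iff {f : K} (hf0 : f ≠ 0) :
    del k K f / f ∈ LD (canD k K) ↔ ∀ P : Pl k K, (p : ℤ) ∣ divf (k := k) f P := by
  rw [mem_LD]
  exact forall_congr' fun P => v_dlog_le_iff p P hf0

theorem CK_dlog {f : K} (hf : f ≠ 0) : CK p k K (del k K f / f) = del k K f / f :=
  (pb p k K).C_dlog hf

/-- **(K3)** for a function `f`, not a `p`-th power, with divisor divisible by `p`, on a curve of
genus `≥ 2`: `dlog f` has a zero of order `n ≥ 1` with `p ∤ n + 1` -/
theorem exists_zero_dlog (hc : algebraicClosure k K = ⊥) (hgen : 2 ≤ gen k K) {f : K} (h0 : f ≠ 0)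
    (hp' : ∀ z : K, f ≠ z ^ p) (hdiv : ∀ P : Pl k K, (p : ℤ) ∣ divf (k := k) f P) :
    ∃ (P : Pl k K) (n : ℕ), 1 ≤ n ∧ P.v (del k K f / f) = exp (canD k K P - n) ∧ ¬ p ∣ n + 1 := by
  refine exists_zero p hc hgen ?_ ((dlog_mem_LD_iff p h0).mpr hdiv) (Or.inl (CK_dlog p h0))
  intro h
  rw [div_eq_zero_iff] at h
  rcases h with h | h
  · obtain ⟨z, hz⟩ := (pb p k K).kerD h
    exact hp' z hz
  · exact h0 h

end Global

end Crest.Agent.R013.Car6_700
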