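import Mathlib
import Crest.Agent.R013.RR22_948

/-!
# R013 / RR23: explicit Serre duality (helper948)

`H¹(D) = K / (N0 D + N1 D)` and the pairing `(f, g) ↦ cinf (Tr_{K/k(X)} (f g))`, where `cinf` is the
coefficient of `X⁻¹` at infinity.
-/

set_option autoImplicit false
set_option linter.all false

namespace Crest.Agent.R013.RR23_948

open Polynomial WithZero Module IsDedekindDomain nonZeroDivisors
open Crest.Agent.R013.RR1_948 Crest.Agent.R013.RR2_948 Crest.Agent.R013.RR3_948
open Crest.Agent.R013.RR4_948 Crest.Agent.R013.RR5_948 Crest.Agent.R013.RR6_948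
open Crest.Agent.R013.RR7_948 Crest.Agent.R013.RR8_948 Crest.Agent.R013.RR9_948
open Crest.Agent.R013.RR11_948 Crest.Agent.R013.RR12_948 Crest.Agent.R013.RR13_948
open Crest.Agent.R013.RR18_948 Crest.Agent.R013.RR19_948 Crest.Agent.R013.RR20_948
open Crest.Agent.R013.RR21_948

section cinf

variable {k : Type*} [Field k]

theorem vinf_X_inv : vinf k (RatFunc.X⁻¹ : RatFunc k) = exp (-1) := by
  rw [map_inv₀, vinf_X, ← exp_neg]

theorem C_mul_X_inv_mem {c : k} (h : RatFunc.C c * RatFunc.X⁻¹ ∈ polyS k ⊔ infS k (-2)) : c = 0 := by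
  by_contra hc
  obtain ⟨p, hp, u, hu, hpu⟩ := Submodule.mem_sup.mp h
  rw [mem_infS] at hu
  have h1 : vinf k (RatFunc.C c * RatFunc.X⁻¹) = exp (-1) := by
    rw [map_mul, vinf_C k hc, vinf_X_inv, one_mul]
  have h2 : vinf k p ≤ exp (-1) := by
    have : p = RatFunc.C c * RatFunc.X⁻¹ - u := by rw [← hpu]; ring
    rw [this]
    refine (Valuation.map_sub _ _ _).trans (max_le h1.le (hu.trans (exp_le_exp.mpr (by norm_num))))
  obtain ⟨q, rfl⟩ := (mem_polyS k).mp hp
  by_cases hq : q = 0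
  · rw [hq, map_zero, zero_add] at hpu
    rw [← hpu] at h1
    rw [h1, exp_le_exp] at hu
    norm_num at hu
  · have := vinf_poly_one_le k hq
    have h3 := this.trans h2
    rw [← exp_zero, exp_le_exp] at h3
    norm_num at h3

theorem exists_cinf (r : RatFunc k) :
    ∃ c : k, r - RatFunc.C c * RatFunc.X⁻¹ ∈ polyS k ⊔ infS k (-2) := by
  obtain ⟨p, hp⟩ := exists_poly_sub k r
  rw [lt_one_iff] at hp
  have h1 : vinf k ((r - algebraMap k[X] (RatFunc k) p) * RatFunc.X) ≤ 1 := by
    rw [map_mul, vinf_X]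
    calc _ ≤ exp (-1) * exp 1 := mul_le_mul_left hp _
      _ = 1 := by rw [← exp_add]; simp
  obtain ⟨c, hc⟩ := exists_C_sub k h1
  rw [lt_one_iff] at hc
  refine ⟨c, Submodule.mem_sup.mpr ⟨algebraMap k[X] (RatFunc k) p, (mem_polyS k).mpr ⟨p, rfl⟩,
    (r - algebraMap k[X] (RatFunc k) p) - RatFunc.C c * RatFunc.X⁻¹, ?_, by ring⟩⟩
  rw [mem_infS]
  have h2 : (r - algebraMap k[X] (RatFunc k) p) - RatFunc.C c * RatFunc.X⁻¹
      = ((r - algebraMap k[X] (RatFunc k) p) * RatFunc.X - RatFunc.C c) * RatFunc.X⁻¹ := by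
    field_simp [RatFunc.X_ne_zero]
  rw [h2, map_mul, vinf_X_inv]
  calc _ ≤ exp (-1) * exp (-1) := mul_le_mul_left hc _
    _ = exp (-2) := by rw [← exp_add]; norm_num

variable (k) in
/-- the coefficient of `X⁻¹` at infinity -/
noncomputable def cinf : RatFunc k →ₗ[k] k where
  toFun r := (exists_cinf r).choose
  map_add' r s := by
    have h1 := (exists_cinf r).choose_spec
    have h2 := (exists_cinf s).choose_spec
    have h3 := (exists_cinf (r + s)).choose_spec
    have h4 := sub_mem (add_mem h1 h2) h3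
    rw [← sub_eq_zero]
    apply C_mul_X_inv_mem
    convert h4 using 1
    rw [map_sub, map_add]
    ring
  map_smul' a r := by
    have h1 := (exists_cinf r).choose_spec
    have h3 := (exists_cinf (a • r)).choose_spec
    have h4 := sub_mem (Submodule.smul_mem _ a h1) h3
    rw [RingHom.id_apply, smul_eq_mul, ← sub_eq_zero]
    apply C_mul_X_inv_mem
    convert h4 using 1
    rw [map_sub, map_mul, Algebra.smul_def, Algebra.smul_def, algebraMap_eq_C]
    ring

theorem cinf_spec (r : RatFunc k) :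
    r - RatFunc.C (cinf k r) * RatFunc.X⁻¹ ∈ polyS k ⊔ infS k (-2) := (exists_cinf r).choose_spec

theorem cinf_eq {r : RatFunc k} {c : k}
    (h : r - RatFunc.C c * RatFunc.X⁻¹ ∈ polyS k ⊔ infS k (-2)) : cinf k r = c := by
  have h1 := sub_mem (cinf_spec r) h
  rw [eq_comm, ← sub_eq_zero]
  apply C_mul_X_inv_mem
  convert h1 using 1
  rw [map_sub]
  ring

theorem cinf_of_polyS {r : RatFunc k} (h : r ∈ polyS k) : cinf k r = 0 := by
  apply cinf_eq
  rw [map_zero, zero_mul, sub_zero]
  exact Submodule.mem_sup_left h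

theorem cinf_of_infS {r : RatFunc k} (h : r ∈ infS k (-2)) : cinf k r = 0 := by
  apply cinf_eq
  rw [map_zero, zero_mul, sub_zero]
  exact Submodule.mem_sup_right h

theorem cinf_X_inv : cinf k RatFunc.X⁻¹ = 1 := by
  apply cinf_eq
  rw [map_one, one_mul, sub_self]
  exact zero_mem _

/-- `cinf` does not vanish on elements of valuation `exp (-1)` -/
theorem cinf_ne_zero {r : RatFunc k} (h : vinf k r = exp (-1)) : cinf k r ≠ 0 := by
  intro h0
  have h1 : vinf k (r * RatFunc.X) ≤ 1 := by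
    rw [map_mul, vinf_X, h, ← exp_add]; simp
  obtain ⟨c, hc⟩ := exists_C_sub k h1
  rw [lt_one_iff] at hc
  have h2 : r - RatFunc.C c * RatFunc.X⁻¹ ∈ infS k (-2) := by
    rw [mem_infS]
    have h2 : r - RatFunc.C c * RatFunc.X⁻¹ = (r * RatFunc.X - RatFunc.C c) * RatFunc.X⁻¹ := by
      field_simp [RatFunc.X_ne_zero]
    rw [h2, map_mul, vinf_X_inv]
    calc _ ≤ exp (-1) * exp (-1) := mul_le_mul_left hc _
      _ = exp (-2) := by rw [← exp_add]; norm_num
  have h3 : c = 0 := by rw [← h0, cinf_eq (Submodule.mem_sup_right h2)]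
  rw [h3, map_zero, zero_mul, sub_zero, mem_infS, h, exp_le_exp] at h2
  norm_num at h2

/-- a rational function all of whose `X^{-1-n}` coefficients vanish is a polynomial -/
theorem mem_polyS_iff_cinf {r : RatFunc k} :
    r ∈ polyS k ↔ ∀ n : ℕ, cinf k (RatFunc.X ^ n * r) = 0 := by
  constructor
  · intro h n
    apply cinf_of_polyS
    obtain ⟨p, rfl⟩ := (mem_polyS k).mp h
    rw [mem_polyS]
    exact ⟨Polynomial.X ^ n * p, by rw [map_mul, map_pow, RatFunc.algebraMap_X]⟩
  · intro h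
    obtain ⟨p, hp⟩ := exists_poly_sub k r
    set s := r - algebraMap k[X] (RatFunc k) p with hs
    have hs0 : s = 0 := by
      by_contra hne
      obtain ⟨m, hm⟩ := vinf_exp k hne
      rw [hm, ← exp_zero, exp_lt_exp] at hp
      have h1 : cinf k (RatFunc.X ^ (-1 - m).toNat * s) = 0 := by
        rw [hs, mul_sub, map_sub, h, zero_sub, neg_eq_zero]
        apply cinf_of_polyS
        rw [mem_polyS]
        exact ⟨Polynomial.X ^ (-1 - m).toNat * p, by rw [map_mul, map_pow, RatFunc.algebraMap_X]⟩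
      apply cinf_ne_zero _ h1
      rw [map_mul, map_pow, vinf_X, hm, ← exp_nsmul, ← exp_add, exp_inj]
      simp
      omega
    rw [mem_polyS]
    exact ⟨p, by rw [← sub_eq_zero.mp hs0]⟩

theorem mem_infS_iff_cinf {r : RatFunc k} :
    r ∈ infS k (-2) ↔ ∀ n : ℕ, cinf k ((RatFunc.X⁻¹) ^ n * r) = 0 := by
  constructor
  · intro h n
    apply cinf_of_infS
    rw [mem_infS] at h ⊢
    rw [map_mul, map_pow, vinf_X_inv, ← exp_nsmul]
    calc _ ≤ exp (n • (-1)) * exp (-2) := mul_le_mul_right h _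
      _ ≤ exp (-2) := by rw [← exp_add, exp_le_exp]; simp
  · intro h
    rw [mem_infS]
    by_contra hcon
    push Not at hcon
    have hr : r ≠ 0 := by rintro rfl; simp at hcon
    obtain ⟨m, hm⟩ := vinf_exp k hr
    rw [hm, exp_lt_exp] at hcon
    apply cinf_ne_zero _ (h (m + 1).toNat)
    rw [map_mul, map_pow, vinf_X_inv, hm, ← exp_nsmul, ← exp_add, exp_inj]
    simp
    omega

end cinf

section charts

variable {k : Type*} [Field k] {K : Type*} [Field K] [Algebra k K] [Algebra (RatFunc k) K]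

/-- functions with poles bounded by `D` where `x` is finite -/
noncomputable def N0 (D : Pl k K →₀ ℤ) : Submodule k K :=
  ⨅ P : {P : Pl k K // P.v (xK k K) ≤ 1}, ball P.1 (D P.1)

/-- functions with poles bounded by `D` above `x = ∞` -/
noncomputable def N1 (D : Pl k K →₀ ℤ) : Submodule k K :=
  ⨅ P : {P : Pl k K // 1 < P.v (xK k K)}, ball P.1 (D P.1)

theorem mem_N0 {D : Pl k K →₀ ℤ} {f : K} :
    f ∈ N0 D ↔ ∀ P : Pl k K, P.v (xK k K) ≤ 1 → P.v f ≤ exp (D P) := by
  unfold N0
  simp only [Submodule.mem_iInf, Subtype.forall, mem_ball]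

theorem mem_N1 {D : Pl k K →₀ ℤ} {f : K} :
    f ∈ N1 D ↔ ∀ P : Pl k K, 1 < P.v (xK k K) → P.v f ≤ exp (D P) := by
  unfold N1
  simp only [Submodule.mem_iInf, Subtype.forall, mem_ball]

theorem LD_eq_inf (D : Pl k K →₀ ℤ) : LD D = N0 D ⊓ N1 D := by
  ext f
  rw [Submodule.mem_inf, mem_LD, mem_N0, mem_N1]
  constructor
  · exact fun h => ⟨fun P _ => h P, fun P _ => h P⟩
  · rintro ⟨h0, h1⟩ P
    rcases le_or_gt (P.v (xK k K)) 1 with h | h
    · exact h0 P h
    · exact h1 P h

variable [IsScalarTower k (RatFunc k) K] [FiniteDimensional (RatFunc k) K]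
  [Algebra.IsSeparable (RatFunc k) K]

theorem N0_eq_NA [Algebra k[X] K] [IsScalarTower k[X] (RatFunc k) K]
    (A₀ : Type*) [CommRing A₀] [IsDedekindDomain A₀] [Algebra k A₀] [Algebra A₀ K]
    [IsScalarTower k A₀ K] [IsFractionRing A₀ K] [Algebra k[X] A₀]
    [IsScalarTower k[X] A₀ K] [IsIntegralClosure A₀ k[X] K] (D : Pl k K →₀ ℤ) :
    N0 D = NA A₀ D := by
  ext f
  rw [mem_N0, mem_NA]
  constructor
  · intro h w
    exact h _ (ofH₀_le w)
  · intro h P hP
    obtain ⟨w, hw⟩ := exists_ofH₀ (A₀ := A₀) P hP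
    rw [← hw]
    exact h w

theorem N1_eq_NA
    (A₁ : Type*) [CommRing A₁] [IsDedekindDomain A₁] [Algebra k A₁] [Algebra A₁ K]
    [IsScalarTower k A₁ K] [IsFractionRing A₁ K] [Algebra (Rinf k) A₁]
    [IsScalarTower (Rinf k) A₁ K] [IsIntegralClosure A₁ (Rinf k) K] (D : Pl k K →₀ ℤ) :
    N1 D = NA A₁ D := by
  ext f
  rw [mem_N1, mem_NA]
  constructor
  · intro h w
    exact h _ (ofH₁_lt w)
  · intro h P hP
    obtain ⟨w, hw⟩ := exists_ofH₁ (A₁ := A₁) P hP
    rw [← hw]
    exact h w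

theorem dualP_N0 (D : Pl k K →₀ ℤ) : dualP (N0 D) = N0 (canD k K - D) := by
  use_charts k, K
  rw [N0_eq_NA (integralClosure (Polynomial k) K), N0_eq_NA (integralClosure (Polynomial k) K)]
  exact dualP_NA (integralClosure (Polynomial k) K) (integralClosure (Rinf k) K) D

theorem dualI_N1 (D : Pl k K →₀ ℤ) : dualI (N1 D) = N1 (canD k K - D) := by
  use_charts k, K
  rw [N1_eq_NA (integralClosure (Rinf k) K), N1_eq_NA (integralClosure (Rinf k) K)]
  exact dualI_NA (integralClosure (Polynomial k) K) (integralClosure (Rinf k) K) D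

theorem length_H1 (D : Pl k K →₀ ℤ) :
    Module.length k (K ⧸ (N0 D ⊔ N1 D)) = ell (canD k K - D) := by
  use_charts k, K
  have h := (duality_NA (integralClosure (Polynomial k) K) (integralClosure (Rinf k) K) D).2.2
  rw [← N0_eq_NA (integralClosure (Polynomial k) K), ← N1_eq_NA (integralClosure (Rinf k) K)] at h
  have h2 : WD k K (integralClosure (Polynomial k) K) (integralClosure (Rinf k) K) = canD k K := rfl
  rw [h2, ← N0_eq_NA (integralClosure (Polynomial k) K), ← N1_eq_NA (integralClosure (Rinf k) K)] at h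
  have h3 : RR1_948.h0 (N0 (canD k K - D)) (N1 (canD k K - D)) = ell (canD k K - D) := by
    unfold RR1_948.h0
    rw [← LD_eq_inf]
    exact length_LD _
  rw [h3] at h
  exact h

instance finite_H1 (D : Pl k K →₀ ℤ) : Module.Finite k (K ⧸ (N0 D ⊔ N1 D)) := by
  exact (RR10_948.finite_of_length (length_H1 (k := k) (K := K) D)).1

theorem finrank_H1 (D : Pl k K →₀ ℤ) :
    finrank k (K ⧸ (N0 D ⊔ N1 D)) = ell (canD k K - D) := by
  exact (RR10_948.finite_of_length (length_H1 (k := k) (K := K) D)).2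

end charts

section pairing

variable (k : Type*) [Field k] (K : Type*) [Field K] [Algebra k K] [Algebra (RatFunc k) K]
  [IsScalarTower k (RatFunc k) K]

/-- the Serre pairing `(f, g) ↦ cinf (Tr (f g))` -/
noncomputable def pair : K →ₗ[k] K →ₗ[k] k :=
  (LinearMap.mul k K).compr₂ ((cinf k).comp ((Algebra.trace (RatFunc k) K).restrictScalars k))

variable {k K}

theorem pair_apply (f g : K) : pair k K f g = cinf k (Algebra.trace (RatFunc k) K (f * g)) := rfl

theorem pair_comm (f g : K) : pair k K f g = pair k K g f := by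
  rw [pair_apply, pair_apply, mul_comm]

theorem pair_mul (f g h : K) : pair k K (f * g) h = pair k K f (g * h) := by
  rw [pair_apply, pair_apply, mul_assoc]

variable [FiniteDimensional (RatFunc k) K] [Algebra.IsSeparable (RatFunc k) K]

theorem exists_pair_ne_zero {g : K} (hg : g ≠ 0) : ∃ f : K, pair k K f g = 1 := by
  obtain ⟨f, hf⟩ : ∃ f : K, Algebra.trace (RatFunc k) K f ≠ 0 := by
    by_contra hcon
    push Not at hcon
    have h := traceForm_nondegenerate (RatFunc k) K
    have h1 := h.1 (1 : K) (fun y => by rw [Algebra.traceForm_apply]; exact hcon _)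
    exact one_ne_zero h1
  refine ⟨g⁻¹ * f * algebraMap (RatFunc k) K
    ((Algebra.trace (RatFunc k) K f)⁻¹ * RatFunc.X⁻¹), ?_⟩
  rw [pair_apply]
  have h1 : g⁻¹ * f * algebraMap (RatFunc k) K ((Algebra.trace (RatFunc k) K f)⁻¹ * RatFunc.X⁻¹) * g
      = ((Algebra.trace (RatFunc k) K f)⁻¹ * RatFunc.X⁻¹ : RatFunc k) • f := by
    rw [Algebra.smul_def]
    field_simp
  rw [h1, map_smul, smul_eq_mul]
  have h2 : (Algebra.trace (RatFunc k) K f)⁻¹ * RatFunc.X⁻¹ * Algebra.trace (RatFunc k) K f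
      = RatFunc.X⁻¹ := by
    field_simp
  rw [h2, cinf_X_inv]

/-- elements of `N0 D` are orthogonal exactly to `N0 (W - D)` -/
theorem mem_N0_iff {D : Pl k K →₀ ℤ} {g : K} :
    g ∈ N0 (canD k K - D) ↔ ∀ f ∈ N0 D, pair k K f g = 0 := by
  rw [← dualP_N0, mem_dualP]
  constructor
  · intro h f hf
    rw [pair_apply, mul_comm]
    exact cinf_of_polyS (h f hf)
  · intro h f hf
    rw [mem_polyS_iff_cinf]
    intro n
    have h1 : xK k K ^ n * f ∈ N0 D := by
      rw [mem_N0] at hf ⊢
      intro P hP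
      rw [map_mul, map_pow]
      calc _ ≤ 1 * exp (D P) := mul_le_mul' (pow_le_one₀ zero_le hP) (hf P hP)
        _ = _ := one_mul _
    have h2 := h _ h1
    rw [pair_apply] at h2
    have h3 : xK k K ^ n * f * g = (RatFunc.X ^ n : RatFunc k) • (g * f) := by
      rw [Algebra.smul_def, map_pow]
      unfold xK
      ring
    rw [h3, map_smul, smul_eq_mul] at h2
    exact h2

theorem mem_N1_iff {D : Pl k K →₀ ℤ} {g : K} :
    g ∈ N1 (canD k K - D) ↔ ∀ f ∈ N1 D, pair k K f g = 0 := by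
  rw [← dualI_N1, mem_dualI]
  constructor
  · intro h f hf
    rw [pair_apply, mul_comm]
    exact cinf_of_infS (h f hf)
  · intro h f hf
    rw [mem_infS_iff_cinf]
    intro n
    have h1 : (xK k K)⁻¹ ^ n * f ∈ N1 D := by
      rw [mem_N1] at hf ⊢
      intro P hP
      rw [map_mul, map_pow, map_inv₀]
      calc _ ≤ 1 * exp (D P) := mul_le_mul' (pow_le_one₀ zero_le (inv_le_one_of_one_le₀ hP.le)) (hf P hP)
        _ = _ := one_mul _
    have h2 := h _ h1
    rw [pair_apply] at h2
    have h3 : (xK k K)⁻¹ ^ n * f * g = ((RatFunc.X⁻¹) ^ n : RatFunc k) • (g * f) := by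
      rw [Algebra.smul_def, map_pow, map_inv₀]
      unfold xK
      ring
    rw [h3, map_smul, smul_eq_mul] at h2
    exact h2

/-- **Serre duality (1)** -/
theorem mem_LD_iff_pair {D : Pl k K →₀ ℤ} {g : K} :
    g ∈ LD (canD k K - D) ↔ ∀ f ∈ N0 D ⊔ N1 D, pair k K f g = 0 := by
  rw [LD_eq_inf, Submodule.mem_inf, mem_N0_iff, mem_N1_iff]
  constructor
  · rintro ⟨h0, h1⟩ f hf
    obtain ⟨a, ha, b, hb, rfl⟩ := Submodule.mem_sup.mp hf
    rw [map_add, LinearMap.add_apply, h0 a ha, h1 b hb, add_zero]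
  · intro h
    exact ⟨fun f hf => h f (Submodule.mem_sup_left hf), fun f hf => h f (Submodule.mem_sup_right hf)⟩

theorem pair_injective : Function.Injective (fun g : K => (pair k K).flip g) := by
  intro g g' h
  by_contra hne
  obtain ⟨f, hf⟩ := exists_pair_ne_zero (k := k) (sub_ne_zero.mpr hne)
  have h1 : (pair k K).flip g f = (pair k K).flip g' f := by
    have := congrArg (fun l => l f) h
    exact this
  rw [LinearMap.flip_apply, LinearMap.flip_apply] at h1
  rw [map_sub, h1, sub_self] at hf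
  exact zero_ne_one hf

/-- the map `L(W - D) → H¹(D)^*` -/
noncomputable def toDual (D : Pl k K →₀ ℤ) :
    LD (canD k K - D) →ₗ[k] Module.Dual k (K ⧸ (N0 D ⊔ N1 D)) where
  toFun g := (N0 D ⊔ N1 D).liftQ ((pair k K).flip (g : K)) (by
    intro f hf
    rw [LinearMap.mem_ker, LinearMap.flip_apply]
    exact mem_LD_iff_pair.mp g.2 f hf)
  map_add' g g' := by
    apply Submodule.linearMap_qext
    ext f
    simp
  map_smul' a g := by
    apply Submodule.linearMap_qext
    ext f
    simp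

theorem toDual_mk (D : Pl k K →₀ ℤ) (g : LD (canD k K - D)) (f : K) :
    toDual D g (Submodule.Quotient.mk f) = pair k K f g := rfl

theorem toDual_bijective (D : Pl k K →₀ ℤ) : Function.Bijective (toDual (k := k) (K := K) D) := by
  have hfin := LD_finite (canD k K - D)
  have hinj : Function.Injective (toDual (k := k) (K := K) D) := by
    intro g g' h
    apply Subtype.ext
    apply pair_injective (k := k) (K := K)
    ext f
    have := LinearMap.congr_fun h (Submodule.Quotient.mk f)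
    rw [toDual_mk, toDual_mk] at this
    exact this
  refine ⟨hinj, ?_⟩
  have h1 : finrank k (LD (canD k K - D)) = finrank k (Module.Dual k (K ⧸ (N0 D ⊔ N1 D))) := by
    rw [Subspace.dual_finrank_eq, finrank_H1]
    rfl
  exact (LinearMap.injective_iff_surjective_of_finrank_eq_finrank h1).mp hinj

/-- **Serre duality**: `L(W - D) ≃ H¹(D)^*` -/
noncomputable def serre (D : Pl k K →₀ ℤ) :
    LD (canD k K - D) ≃ₗ[k] Module.Dual k (K ⧸ (N0 D ⊔ N1 D)) :=
  LinearEquiv.ofBijective (toDual D) (toDual_bijective D)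

theorem serre_mk (D : Pl k K →₀ ℤ) (g : LD (canD k K - D)) (f : K) :
    serre D g (Submodule.Quotient.mk f) = pair k K f g := rfl

/-- **Serre duality (2)**: every functional vanishing on `N0 D + N1 D` is a differential -/
theorem exists_pair {D : Pl k K →₀ ℤ} (l : K →ₗ[k] k) (hl : ∀ f ∈ N0 D ⊔ N1 D, l f = 0) :
    ∃ g ∈ LD (canD k K - D), ∀ f, l f = pair k K f g := by
  obtain ⟨g, hg⟩ := (serre D).surjective ((N0 D ⊔ N1 D).liftQ l (fun f hf => by
    rw [LinearMap.mem_ker]; exact hl f hf))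
  refine ⟨g, g.2, fun f => ?_⟩
  rw [← serre_mk D g f, hg]
  rfl

/-- **Serre duality (3)** -/
theorem mem_sup_iff {D : Pl k K →₀ ℤ} {f : K} :
    f ∈ N0 D ⊔ N1 D ↔ ∀ g ∈ LD (canD k K - D), pair k K f g = 0 := by
  constructor
  · intro h g hg
    exact mem_LD_iff_pair.mp hg f h
  · intro h
    rw [← Submodule.Quotient.mk_eq_zero]
    rw [← Module.forall_dual_apply_eq_zero_iff k]
    intro φ
    obtain ⟨g, rfl⟩ := (serre D).surjective φ
    rw [serre_mk]
    exact h g g.2

end pairing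

end Crest.Agent.R013.RR23_948
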