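import Mathlib
import Crest.Agent.R013.RR23_948

/-!
# R013 / RR24: the Cartier operator by Serre duality (helper948)

`k` perfect of characteristic `p`; `car g` is the unique function with
`pair (f ^ p) g = (pair f (car g)) ^ p` for all `f`.
-/

set_option autoImplicit false
set_option linter.all false

namespace Crest.Agent.R013.RR24_948

open Polynomial WithZero Module IsDedekindDomain nonZeroDivisors
open Crest.Agent.R013.RR1_948 Crest.Agent.R013.RR2_948 Crest.Agent.R013.RR3_948
open Crest.Agent.R013.RR4_948 Crest.Agent.R013.RR5_948 Crest.Agent.R013.RR6_948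
open Crest.Agent.R013.RR7_948 Crest.Agent.R013.RR8_948 Crest.Agent.R013.RR9_948
open Crest.Agent.R013.RR11_948 Crest.Agent.R013.RR12_948 Crest.Agent.R013.RR13_948
open Crest.Agent.R013.RR18_948 Crest.Agent.R013.RR19_948 Crest.Agent.R013.RR20_948
open Crest.Agent.R013.RR21_948 Crest.Agent.R013.RR23_948

section

variable {k : Type*} [Field k] (p : ℕ) [hp : Fact p.Prime] [CharP k p]

instance : CharP (RatFunc k) p := charP_of_injective_algebraMap (algebraMap k (RatFunc k)).injective p

theorem cinf_pow (r : RatFunc k) : cinf k (RatFunc.X ^ (p - 1) * r ^ p) = cinf k r ^ p := by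
  apply cinf_eq
  obtain ⟨a, ha, b, hb, hab⟩ := Submodule.mem_sup.mp (cinf_spec r)
  have hp1 : 1 ≤ p := hp.out.one_lt.le
  have hr : r = RatFunc.C (cinf k r) * RatFunc.X⁻¹ + (a + b) := by rw [hab]; ring
  have h1 : r ^ p = RatFunc.C (cinf k r ^ p) * (RatFunc.X⁻¹) ^ p + (a ^ p + b ^ p) := by
    conv_lhs => rw [hr]
    rw [add_pow_char, add_pow_char, mul_pow, map_pow]
  have h2 : (RatFunc.X : RatFunc k) ^ (p - 1) * (RatFunc.X⁻¹) ^ p = RatFunc.X⁻¹ := by
    obtain ⟨q, rfl⟩ : ∃ q, p = q + 1 := ⟨p - 1, by omega⟩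
    rw [Nat.add_sub_cancel, pow_succ, ← mul_assoc, ← mul_pow, mul_inv_cancel₀ RatFunc.X_ne_zero,
      one_pow, one_mul]
  have h3 : RatFunc.X ^ (p - 1) * r ^ p - RatFunc.C (cinf k r ^ p) * RatFunc.X⁻¹
      = RatFunc.X ^ (p - 1) * a ^ p + RatFunc.X ^ (p - 1) * b ^ p := by
    rw [h1]
    have : RatFunc.X ^ (p - 1) * (RatFunc.C (cinf k r ^ p) * (RatFunc.X⁻¹) ^ p + (a ^ p + b ^ p))
        = RatFunc.C (cinf k r ^ p) * (RatFunc.X ^ (p - 1) * (RatFunc.X⁻¹) ^ p)
          + (RatFunc.X ^ (p - 1) * a ^ p + RatFunc.X ^ (p - 1) * b ^ p) := by ring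
    rw [this, h2]
    ring
  rw [h3]
  apply add_mem
  · apply Submodule.mem_sup_left
    obtain ⟨q, rfl⟩ := (mem_polyS k).mp ha
    rw [mem_polyS]
    exact ⟨Polynomial.X ^ (p - 1) * q ^ p, by
      rw [map_mul, map_pow, map_pow, RatFunc.algebraMap_X]⟩
  · apply Submodule.mem_sup_right
    rw [mem_infS] at hb ⊢
    rw [map_mul, map_pow, map_pow, vinf_X]
    calc exp (1 : ℤ) ^ (p - 1) * vinf k b ^ p ≤ exp (1 : ℤ) ^ (p - 1) * exp (-2) ^ p :=
          mul_le_mul_right (pow_le_pow_left₀ zero_le hb p) _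
      _ ≤ exp (-2) := by
          rw [← exp_nsmul, ← exp_nsmul, ← exp_add, exp_le_exp]
          simp only [smul_eq_mul, nsmul_eq_mul]
          have : ((p - 1 : ℕ) : ℤ) = p - 1 := by omega
          rw [this]
          have := hp.out.two_le
          omega

end

section trace

variable {F : Type*} [Field F] {K : Type*} [Field K] [Algebra F K] [FiniteDimensional F K]
  [Algebra.IsSeparable F K]

theorem trace_pow (p : ℕ) [hp : Fact p.Prime] [CharP F p] (f : K) :
    Algebra.trace F K (f ^ p) = Algebra.trace F K f ^ p := by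
  haveI : CharP (AlgebraicClosure K) p :=
    charP_of_injective_algebraMap (algebraMap F (AlgebraicClosure K)).injective p
  apply (algebraMap F (AlgebraicClosure K)).injective
  rw [trace_eq_sum_embeddings (AlgebraicClosure K), map_pow, trace_eq_sum_embeddings (AlgebraicClosure K),
    sum_pow_char]
  refine Finset.sum_congr rfl fun σ _ => ?_
  rw [map_pow]

end trace

section car

variable {k : Type*} [Field k] (p : ℕ) [hp : Fact p.Prime] [CharP k p] [PerfectRing k p]
  {K : Type*} [Field K] [Algebra k K] [Algebra (RatFunc k) K]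
  [IsScalarTower k (RatFunc k) K] [FiniteDimensional (RatFunc k) K]
  [Algebra.IsSeparable (RatFunc k) K]

variable (k) in
/-- `p`-th root -/
noncomputable def rt (c : k) : k := (frobeniusEquiv k p).symm c

theorem rt_pow (c : k) : rt k p c ^ p = c := by
  unfold rt
  exact frobeniusEquiv_symm_pow_p k p c

theorem rt_eq {a c : k} (h : a ^ p = c) : rt k p c = a := by
  apply frobenius_inj k p
  rw [frobenius_def, frobenius_def, rt_pow, h]

theorem rt_add (a b : k) : rt k p (a + b) = rt k p a + rt k p b := map_add _ _ _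

theorem rt_mul (a b : k) : rt k p (a * b) = rt k p a * rt k p b := map_mul _ _ _

/-- the functional `f ↦ (pair (f ^ p) g) ^ (1/p)` -/
noncomputable def lin (g : K) : K →ₗ[k] k where
  toFun f := rt k p (pair k K (f ^ p) g)
  map_add' f f' := by
    haveI : CharP K p := charP_of_injective_algebraMap (algebraMap k K).injective p
    rw [add_pow_char, map_add, LinearMap.add_apply, rt_add]
  map_smul' a f := by
    rw [_root_.smul_pow, map_smul, LinearMap.smul_apply, smul_eq_mul, rt_mul, rt_eq p rfl]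
    rfl

theorem lin_apply (g f : K) : lin p g f = rt k p (pair k K (f ^ p) g) := rfl

theorem v_pow_le {P : Pl k K} {f : K} {n : ℤ} (h : P.v f ≤ exp n) : P.v (f ^ p) ≤ exp (p * n) := by
  rw [map_pow]
  calc _ ≤ exp n ^ p := pow_le_pow_left₀ zero_le h p
    _ = _ := by rw [← exp_nsmul]; simp

theorem pow_mem_N0 {D : Pl k K →₀ ℤ} {f : K} (h : f ∈ N0 D) : f ^ p ∈ N0 ((p : ℤ) • D) := by
  rw [mem_N0] at *
  intro P hP
  rw [Finsupp.smul_apply, smul_eq_mul]
  exact v_pow_le p (h P hP)

theorem pow_mem_N1 {D : Pl k K →₀ ℤ} {f : K} (h : f ∈ N1 D) : f ^ p ∈ N1 ((p : ℤ) • D) := by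
  rw [mem_N1] at *
  intro P hP
  rw [Finsupp.smul_apply, smul_eq_mul]
  exact v_pow_le p (h P hP)

theorem pow_mem_sup {D : Pl k K →₀ ℤ} {f : K} (h : f ∈ N0 D ⊔ N1 D) :
    f ^ p ∈ N0 ((p : ℤ) • D) ⊔ N1 ((p : ℤ) • D) := by
  haveI : CharP K p := charP_of_injective_algebraMap (algebraMap k K).injective p
  obtain ⟨a, ha, b, hb, rfl⟩ := Submodule.mem_sup.mp h
  rw [add_pow_char]
  exact Submodule.add_mem_sup (pow_mem_N0 p ha) (pow_mem_N1 p hb)

theorem exists_car_of_mem {D : Pl k K →₀ ℤ} {g : K} (hg : g ∈ LD (canD k K - (p : ℤ) • D)) :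
    ∃ h ∈ LD (canD k K - D), ∀ f : K, pair k K (f ^ p) g = pair k K f h ^ p := by
  obtain ⟨h, hh, hl⟩ := exists_pair (D := D) (lin p g) (by
    intro f hf
    rw [lin_apply, mem_LD_iff_pair.mp hg _ (pow_mem_sup p hf)]
    exact rt_eq p (zero_pow hp.out.ne_zero))
  refine ⟨h, hh, fun f => ?_⟩
  rw [← hl f, lin_apply, rt_pow]

theorem exists_mem_LD (g : K) : ∃ D : Pl k K →₀ ℤ, g ∈ LD (canD k K - (p : ℤ) • D) := by
  by_cases hg : g = 0
  · exact ⟨0, by rw [hg]; exact zero_mem _⟩
  · refine ⟨-((canD k K).mapRange (fun n => |n|) (by simp) +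
      (divf g).mapRange (fun n => |n|) (by simp)), ?_⟩
    rw [mem_LD]
    intro P
    rw [v_eq hg, exp_le_exp]
    simp only [Finsupp.sub_apply, Finsupp.smul_apply, Finsupp.neg_apply, Finsupp.add_apply,
      Finsupp.mapRange_apply, smul_eq_mul]
    have h1 : (1 : ℤ) ≤ p := by exact_mod_cast hp.out.one_lt.le
    have h2 := abs_nonneg (canD k K P)
    have h3 := abs_nonneg (divf (k := k) g P)
    have h4 := neg_abs_le (canD k K P)
    have h5 := neg_abs_le (divf (k := k) g P)
    nlinarith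

theorem exists_car (g : K) : ∃ h : K, ∀ f : K, pair k K (f ^ p) g = pair k K f h ^ p := by
  obtain ⟨D, hD⟩ := exists_mem_LD (k := k) p g
  obtain ⟨h, _, hh⟩ := exists_car_of_mem p hD
  exact ⟨h, hh⟩

theorem car_unique {h h' : K} (H : ∀ f : K, pair k K f h ^ p = pair k K f h' ^ p) : h = h' := by
  apply pair_injective (k := k) (K := K)
  ext f
  rw [LinearMap.flip_apply, LinearMap.flip_apply]
  exact frobenius_inj k p (H f)

variable (k) in
/-- the Cartier operator with respect to `dX`: `C (g dX) = car g dX` -/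
noncomputable def car (g : K) : K := (exists_car (k := k) p g).choose

theorem pair_pow (f g : K) : pair k K (f ^ p) g = pair k K f (car k p g) ^ p :=
  (exists_car (k := k) p g).choose_spec f

theorem car_eq_of_pair {g h : K} (H : ∀ f : K, pair k K (f ^ p) g = pair k K f h ^ p) :
    car k p g = h := by
  apply car_unique (k := k) p
  intro f
  rw [← pair_pow, H]

theorem car_mem_LD {D : Pl k K →₀ ℤ} {g : K} (hg : g ∈ LD (canD k K - (p : ℤ) • D)) :
    car k p g ∈ LD (canD k K - D) := by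
  obtain ⟨h, hh, H⟩ := exists_car_of_mem p hg
  rw [car_eq_of_pair p H]
  exact hh

theorem car_add (g g' : K) : car k p (g + g') = car k p g + car k p g' := by
  apply car_eq_of_pair
  intro f
  rw [map_add, pair_pow, pair_pow, map_add, add_pow_char]

theorem car_zero : car k p (0 : K) = 0 := by
  apply car_eq_of_pair
  intro f
  rw [map_zero, map_zero, zero_pow hp.out.ne_zero]

theorem car_sum {ι : Type*} (s : Finset ι) (g : ι → K) :
    car k p (∑ i ∈ s, g i) = ∑ i ∈ s, car k p (g i) := by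
  classical
  induction s using Finset.induction_on with
  | empty => simp [car_zero]
  | insert a s ha ih => rw [Finset.sum_insert ha, Finset.sum_insert ha, car_add, ih]

/-- `C (y^p ω) = y C (ω)` -/
theorem car_pow_mul (y g : K) : car k p (y ^ p * g) = y * car k p g := by
  apply car_eq_of_pair
  intro f
  rw [← pair_mul, ← mul_pow, pair_pow, pair_mul]

theorem car_smul (c : k) (g : K) : car k p (c • g) = rt k p c • car k p g := by
  have h : c • g = (algebraMap k K (rt k p c)) ^ p * g := by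
    rw [← map_pow, rt_pow, Algebra.smul_def]
  rw [h, car_pow_mul, Algebra.smul_def]

theorem trace_algebraMap_mul (r : RatFunc k) (f : K) :
    Algebra.trace (RatFunc k) K (algebraMap (RatFunc k) K r * f) = r * Algebra.trace (RatFunc k) K f := by
  rw [← Algebra.smul_def, map_smul, smul_eq_mul]

/-- `C (X^(p-1) dX) = dX` -/
theorem car_xK_pow : car k p (xK k K ^ (p - 1)) = 1 := by
  apply car_eq_of_pair
  intro f
  rw [pair_apply, pair_apply, mul_one]
  have h : f ^ p * xK k K ^ (p - 1) = algebraMap (RatFunc k) K (RatFunc.X ^ (p - 1)) * f ^ p := by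
    rw [map_pow, mul_comm]; rfl
  rw [h, trace_algebraMap_mul, trace_pow, cinf_pow]

/-- the coefficients of `X^(-1-i)`, `i ≢ p - 1`, of a `p`-th power vanish -/
theorem cinf_pow_of_lt {i : ℕ} (hi : i + 1 < p) (r : RatFunc k) :
    cinf k (RatFunc.X ^ i * r ^ p) = 0 := by
  obtain ⟨a, ha, b, hb, hab⟩ := Submodule.mem_sup.mp (cinf_spec r)
  have hr : r = RatFunc.C (cinf k r) * RatFunc.X⁻¹ + (a + b) := by rw [hab]; ring
  have h1 : RatFunc.X ^ i * r ^ p = RatFunc.X ^ i * a ^ p +
      (RatFunc.X ^ i * (RatFunc.C (cinf k r) * RatFunc.X⁻¹) ^ p + RatFunc.X ^ i * b ^ p) := by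
    conv_lhs => rw [hr]
    rw [add_pow_char, add_pow_char]
    ring
  rw [h1, map_add, cinf_of_polyS, cinf_of_infS, add_zero]
  · have key : ∀ u : RatFunc k, vinf k u ≤ exp (-1) → RatFunc.X ^ i * u ^ p ∈ infS k (-2) := by
      intro u hu
      rw [mem_infS, map_mul, map_pow, map_pow, vinf_X]
      calc exp (1 : ℤ) ^ i * vinf k u ^ p ≤ exp (1 : ℤ) ^ i * exp (-1) ^ p :=
            mul_le_mul_right (pow_le_pow_left₀ zero_le hu p) _
        _ ≤ exp (-2) := by
            rw [← exp_nsmul, ← exp_nsmul, ← exp_add, exp_le_exp]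
            simp only [smul_eq_mul, nsmul_eq_mul]
            have : (i : ℤ) + 1 < p := by exact_mod_cast hi
            omega
    apply add_mem
    · apply key
      rw [map_mul, vinf_X_inv]
      calc _ ≤ 1 * exp (-1) := mul_le_mul_left (vinf_C_le k _) _
        _ = _ := one_mul _
    · apply key
      exact ((mem_infS k).mp hb).trans (exp_le_exp.mpr (by norm_num))
  · obtain ⟨q, rfl⟩ := (mem_polyS k).mp ha
    rw [mem_polyS]
    exact ⟨Polynomial.X ^ i * q ^ p, by rw [map_mul, map_pow, map_pow, RatFunc.algebraMap_X]⟩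

theorem car_xK_pow_of_lt {i : ℕ} (hi : i + 1 < p) : car k p (xK k K ^ i) = 0 := by
  apply car_eq_of_pair
  intro f
  rw [pair_apply, map_zero, zero_pow hp.out.ne_zero]
  have h : f ^ p * xK k K ^ i = algebraMap (RatFunc k) K (RatFunc.X ^ i) * f ^ p := by
    rw [map_pow, mul_comm]; rfl
  rw [h, trace_algebraMap_mul, trace_pow, cinf_pow_of_lt p hi]

/-- **the usual formula** `C ((∑ g_i^p X^i) dX) = g_(p-1) dX` -/
theorem car_sum_pow (g : ℕ → K) :
    car k p (∑ i ∈ Finset.range p, g i ^ p * xK k K ^ i) = g (p - 1) := by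
  have hp1 : 1 ≤ p := hp.out.one_lt.le
  rw [car_sum]
  have h : ∀ i ∈ Finset.range p, car k p (g i ^ p * xK k K ^ i) =
      if i = p - 1 then g (p - 1) else 0 := by
    intro i hi
    rw [Finset.mem_range] at hi
    rw [car_pow_mul]
    split_ifs with h
    · rw [h, car_xK_pow, mul_one]
    · rw [car_xK_pow_of_lt p (by omega), mul_zero]
  rw [Finset.sum_congr rfl h, Finset.sum_ite_eq', if_pos (Finset.mem_range.mpr (by omega))]

/-- **Frobenius injective on `H¹(D)` iff Cartier surjective `L(W - pD) → L(W - D)`** -/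
theorem frob_injective_iff (D : Pl k K →₀ ℤ) :
    (∀ f : K, f ^ p ∈ N0 ((p : ℤ) • D) ⊔ N1 ((p : ℤ) • D) → f ∈ N0 D ⊔ N1 D) ↔
    ∀ h ∈ LD (canD k K - D), ∃ g ∈ LD (canD k K - (p : ℤ) • D), car k p g = h := by
  constructor
  · intro H
    -- the image as a subspace
    let S : Submodule k (LD (canD k K - D)) :=
      { carrier := {h | ∃ g ∈ LD (canD k K - (p : ℤ) • D), car k p g = h}
        add_mem' := by
          rintro a b ⟨g, hg, h1⟩ ⟨g', hg', h2⟩
          exact ⟨g + g', add_mem hg hg', by rw [car_add, h1, h2]; rfl⟩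
        zero_mem' := ⟨0, zero_mem _, car_zero p⟩
        smul_mem' := by
          rintro c a ⟨g, hg, h1⟩
          refine ⟨c ^ p • g, Submodule.smul_mem _ _ hg, ?_⟩
          rw [car_smul, rt_eq p rfl, h1]
          rfl }
    have hfin := LD_finite (canD k K - D)
    have hS : S = ⊤ := by
      by_contra hne
      obtain ⟨φ, hφ0, hφ⟩ := Submodule.exists_le_ker_of_lt_top S (lt_top_iff_ne_top.mpr hne)
      -- `φ` is `pair f`
      obtain ⟨f, hf⟩ : ∃ f : K, ∀ h : LD (canD k K - D), φ h = pair k K f h := by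
        let ψ : Module.Dual k (Module.Dual k (K ⧸ (N0 D ⊔ N1 D))) :=
          φ.comp (serre D).symm.toLinearMap
        obtain ⟨x, hx⟩ := (Module.evalEquiv k (K ⧸ (N0 D ⊔ N1 D))).surjective ψ
        obtain ⟨f, rfl⟩ := Submodule.Quotient.mk_surjective _ x
        refine ⟨f, fun h => ?_⟩
        have h1 := LinearMap.congr_fun hx (serre D h)
        rw [Module.evalEquiv_apply, Module.Dual.eval_apply, serre_mk] at h1
        rw [h1]
        simp [ψ]
      apply hφ0
      ext h
      rw [LinearMap.zero_apply, hf h]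
      have h2 : f ∈ N0 D ⊔ N1 D := by
        apply H
        rw [mem_sup_iff]
        intro g hg
        rw [pair_pow]
        have h3 : (⟨car k p g, car_mem_LD p hg⟩ : LD (canD k K - D)) ∈ S := ⟨g, hg, rfl⟩
        have h4 := hφ h3
        rw [LinearMap.mem_ker, hf] at h4
        rw [h4, zero_pow hp.out.ne_zero]
      exact mem_LD_iff_pair.mp h.2 f h2
    intro h hh
    have : (⟨h, hh⟩ : LD (canD k K - D)) ∈ S := by rw [hS]; trivial
    obtain ⟨g, hg, h1⟩ := this
    exact ⟨g, hg, h1⟩
  · intro H f hf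
    rw [mem_sup_iff] at hf ⊢
    intro h hh
    obtain ⟨g, hg, rfl⟩ := H h hh
    have := hf g hg
    rw [pair_pow] at this
    exact pow_eq_zero_iff hp.out.ne_zero |>.mp this

/-- **Frobenius surjective `H¹(D) → H¹(pD)` iff Cartier injective on `L(W - pD)`** -/
theorem frob_surjective_iff (D : Pl k K →₀ ℤ) :
    (∀ h : K, ∃ f : K, h - f ^ p ∈ N0 ((p : ℤ) • D) ⊔ N1 ((p : ℤ) • D)) ↔
    ∀ g ∈ LD (canD k K - (p : ℤ) • D), car k p g = 0 → g = 0 := by
  haveI : CharP K p := charP_of_injective_algebraMap (algebraMap k K).injective p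
  constructor
  · intro H g hg hg0
    by_contra hne
    obtain ⟨h, hh⟩ := exists_pair_ne_zero (k := k) hne
    obtain ⟨f, hf⟩ := H h
    have h1 := mem_LD_iff_pair.mp hg _ hf
    rw [map_sub, LinearMap.sub_apply, pair_pow, hg0, map_zero, zero_pow hp.out.ne_zero, sub_zero,
      hh] at h1
    exact one_ne_zero h1
  · intro H
    let S : Submodule k (K ⧸ (N0 ((p : ℤ) • D) ⊔ N1 ((p : ℤ) • D))) :=
      { carrier := {y | ∃ f : K, y = Submodule.Quotient.mk (f ^ p)}
        add_mem' := by
          rintro a b ⟨f, rfl⟩ ⟨f', rfl⟩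
          exact ⟨f + f', by rw [add_pow_char, Submodule.Quotient.mk_add]⟩
        zero_mem' := ⟨0, by rw [zero_pow hp.out.ne_zero, Submodule.Quotient.mk_zero]⟩
        smul_mem' := by
          rintro c a ⟨f, rfl⟩
          refine ⟨rt k p c • f, ?_⟩
          rw [_root_.smul_pow, rt_pow, Submodule.Quotient.mk_smul] }
    have hS : S = ⊤ := by
      by_contra hne
      obtain ⟨φ, hφ0, hφ⟩ := Submodule.exists_le_ker_of_lt_top S (lt_top_iff_ne_top.mpr hne)
      obtain ⟨g, rfl⟩ := (serre ((p : ℤ) • D)).surjective φ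
      apply hφ0
      have h1 : (g : K) = 0 := by
        apply H g g.2
        apply car_eq_of_pair
        intro f
        rw [map_zero, zero_pow hp.out.ne_zero]
        have h2 : (Submodule.Quotient.mk (f ^ p) : K ⧸ (N0 ((p : ℤ) • D) ⊔ N1 ((p : ℤ) • D))) ∈ S :=
          ⟨f, rfl⟩
        have h3 := hφ h2
        rw [LinearMap.mem_ker, serre_mk] at h3
        exact h3
      have h2 : g = 0 := Subtype.ext h1
      rw [h2, map_zero]
    intro h
    have : (Submodule.Quotient.mk h : K ⧸ (N0 ((p : ℤ) • D) ⊔ N1 ((p : ℤ) • D))) ∈ S := by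
      rw [hS]; trivial
    obtain ⟨f, hf⟩ := this
    exact ⟨f, (Submodule.Quotient.eq _).mp hf⟩

end car

end Crest.Agent.R013.RR24_948
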