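import Mathlib
import Crest.Agent.R013.RR24_948
import Crest.Agent.R013.Car6_700

/-!
# R013 / Car7: the Cartier operator of `Car2` is the one of `RR24`, (helper700)
-/

set_option autoImplicit false
set_option linter.all false

namespace Crest.Agent.R013.Car7_700

open WithZero Module
open Crest.Agent.R013.RR7_948 Crest.Agent.R013.RR8_948 Crest.Agent.R013.RR9_948
open Crest.Agent.R013.RR11_948 Crest.Agent.R013.RR12_948 Crest.Agent.R013.RR14_948
open Crest.Agent.R013.RR15_948 Crest.Agent.R013.RR23_948 Crest.Agent.R013.RR24_948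
open Crest.Agent.R013.Car1_700 Crest.Agent.R013.Car2_700 Crest.Agent.R013.Car5_700
open Crest.Agent.R013.Car6_700

variable (p : ℕ) [hp : Fact p.Prime] {k : Type*} [Field k] [CharP k p] [PerfectField k]
  [PerfectRing k p]
  {K : Type*} [Field K] [Algebra k K] [Algebra (RatFunc k) K]
  [IsScalarTower k (RatFunc k) K] [FiniteDimensional (RatFunc k) K]
  [Algebra.IsSeparable (RatFunc k) K]

/-- the two Cartier operators agree -/
theorem CK_eq_car (g : K) : CK p k K g = car k p g := by
  have h := (pb p k K).co_spec g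
  conv_rhs => rw [h]
  rw [show (pb p k K).x = xK k K from rfl, car_sum_pow]
  rfl

theorem pair_CK (f g : K) : pair k K (f ^ p) g = pair k K f (CK p k K g) ^ p := by
  rw [CK_eq_car, pair_pow]

theorem car_del (f : K) : car k p (del k K f) = 0 := by
  rw [← CK_eq_car]; exact (pb p k K).C_exact f

theorem car_eq_zero_iff (g : K) : car k p g = 0 ↔ ∃ f : K, g = del k K f := by
  rw [← CK_eq_car]; exact (pb p k K).C_eq_zero_iff g

theorem car_dlog {f : K} (hf : f ≠ 0) : car k p (del k K f / f) = del k K f / f := by
  rw [← CK_eq_car]; exact (pb p k K).C_dlog hf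

theorem del_eq_zero_iff (f : K) : del k K f = 0 ↔ ∃ g : K, f = g ^ p := (pb p k K).D_eq_zero_iff f

end Crest.Agent.R013.Car7_700
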