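import Crest.Agent.R013.EE3_809

/-!
# Row 13, leaf SS-AN (helper809), file 4: inverses, `EE` is a field, the subfield `Ep`
-/

set_option autoImplicit false
set_option linter.unusedSectionVars false
open Filter Topology
open Crest.Agent.R013.Cell_408 (FinDef DiscNorm exists_max BD)

namespace Crest.Agent.R013.EE809

variable {k : Type*} [NontriviallyNormedField k] [CompleteSpace k]
variable {C : Type*} [NormedField C] [IsUltrametricDist C] [NormedAlgebra k C]

section Inv

variable [Algebra.IsAlgebraic k C]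

/-- the inverse of a power series with constant coefficient of norm one -/
theorem inv_coeff {f : PowerSeries C} (h0 : ‖PowerSeries.constantCoeff f‖ = 1)
    (h1 : ∀ n, ‖PowerSeries.coeff n f‖ ≤ 1) (n : ℕ) : ‖PowerSeries.coeff n f⁻¹‖ ≤ 1 := by
  induction n using Nat.strong_induction_on with
  | _ n ih =>
    rw [PowerSeries.coeff_inv]
    split_ifs with hn
    · rw [norm_inv, h0, inv_one]
    · rw [norm_mul, norm_neg, norm_inv, h0, inv_one, one_mul]
      refine IsUltrametricDist.norm_sum_le_of_forall_le_of_nonneg zero_le_one fun p _ => ?_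
      split_ifs with hp
      · rw [norm_mul]
        exact mul_le_one₀ (h1 _) (norm_nonneg _) (ih _ hp)
      · rw [norm_zero]; exact zero_le_one

omit [NontriviallyNormedField k] [CompleteSpace k] [IsUltrametricDist C] [NormedAlgebra k C] [Algebra.IsAlgebraic k C] in
theorem inv_coeff_mem {k : Type*} [Field k] [Algebra k C] (L : IntermediateField k C)
    {f : PowerSeries C}
    (h : ∀ n, PowerSeries.coeff n f ∈ L) (n : ℕ) : PowerSeries.coeff n f⁻¹ ∈ L := by
  have h0 : PowerSeries.constantCoeff f ∈ L := by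
    have := h 0
    rwa [PowerSeries.coeff_zero_eq_constantCoeff_apply] at this
  induction n using Nat.strong_induction_on with
  | _ n ih =>
    rw [PowerSeries.coeff_inv]
    split_ifs with hn
    · exact inv_mem h0
    · refine mul_mem (neg_mem (inv_mem h0)) (sum_mem fun p _ => ?_)
      split_ifs with hp
      · exact mul_mem (h _) (ih _ hp)
      · exact zero_mem L

theorem InL.mo {L : IntermediateField k C} {c : C} (hc : c ∈ L) (n : ℤ) : InL L (mo n c) := by
  intro m
  rw [co_mo]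
  split_ifs
  · exact hc
  · exact zero_mem L

theorem InL.T (L : IntermediateField k C) (n : ℤ) : InL L (T n) := InL.mo (one_mem L) n

theorem Bdd.mo {ρ : ℝ} (hρ : 0 < ρ) (n : ℤ) (c : C) : Bdd ρ (‖c‖ * ρ ^ n) (mo n c : EE k C) :=
  Bdd.mono hρ _ _ _

variable [IsUltrametricDist k] [IsAlgClosed C]

/-- the normalisation `c⁻¹ T^(-d) a` of `a`, `d = od a` and `c` the leading coefficient -/
noncomputable def nrm (a : EE k C) : EE k C := mo (-od a) (a.co (od a))⁻¹ * a

theorem co_nrm (a : EE k C) (n : ℤ) : (nrm a).co n = (a.co (od a))⁻¹ * a.co (n + od a) := by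
  rw [nrm, co_mo_mul, sub_neg_eq_add]

theorem nrm_zero_coeff (hk : DiscNorm k) {a : EE k C} (ha : a ≠ 0) : (nrm a).co 0 = 1 := by
  rw [co_nrm, zero_add, inv_mul_cancel₀ (co_od_ne_zero hk ha)]

theorem nrm_le (hk : DiscNorm k) {a : EE k C} (ha : a ≠ 0) (n : ℤ) : ‖(nrm a).co n‖ ≤ 1 := by
  rw [co_nrm, norm_mul, norm_inv, norm_co_od hk ha, ← div_eq_inv_mul, div_le_one (gn_pos ha)]
  exact le_gn a _

theorem nrm_lt (hk : DiscNorm k) {a : EE k C} (ha : a ≠ 0) {n : ℤ} (hn : n < 0) :
    ‖(nrm a).co n‖ < 1 := by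
  rw [co_nrm, norm_mul, norm_inv, norm_co_od hk ha, ← div_eq_inv_mul, div_lt_one (gn_pos ha)]
  exact norm_lt_of_lt_od ha (by omega)

theorem mo_mul_nrm (hk : DiscNorm k) {a : EE k C} (ha : a ≠ 0) :
    mo (od a) (a.co (od a)) * nrm a = a := by
  rw [nrm, ← mul_assoc, mo_mul_mo, add_neg_cancel, mul_inv_cancel₀ (co_od_ne_zero hk ha),
    mo_zero_one, one_mul]

/-- the negative part of an element with coefficients of norm `< 1` there has norm `< 1` -/
theorem gn_sub_posPart_lt {a : EE k C} {r : ℝ} (hr : 0 < r) (h : ∀ n < 0, ‖a.co n‖ < r) :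
    gn (a - ofBD (posPart a)) < r := by
  set b := a - ofBD (posPart a) with hb
  have h1 : ∀ n, b.co n = if 0 ≤ n then 0 else a.co n := by
    intro n
    rw [hb, co_sub, co_ofBD_posPart]
    split_ifs <;> simp
  have h2 : Tendsto b.co cofinite (𝓝 0) := by
    rw [Metric.tendsto_nhds]
    intro ε hε
    obtain ⟨K, hK, h3⟩ := b.small hε
    rw [eventually_cofinite]
    refine (Set.finite_Icc (-K) 0).subset fun n hn => ?_
    rw [Set.mem_ofPred_eq, dist_zero_right] at hn
    rw [Set.mem_Icc]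
    constructor
    · by_contra hlt
      exact hn (h3 n (by omega))
    · by_contra hlt
      apply hn
      rw [h1, if_pos (by omega), norm_zero]
      exact hε
  have h4 : ∀ n, ‖b.co n‖ < r := by
    intro n
    rw [h1]
    split_ifs with hn
    · rw [norm_zero]; exact hr
    · exact h n (by omega)
  obtain ⟨r', h5, h6, h7⟩ := exists_lt_bound hr h2 h4
  exact lt_of_le_of_lt (gn_le h7) h6

/-- **Inverses**, with control of the field of definition and of the radius of convergence. -/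
theorem exists_inv (hk : DiscNorm k) {a : EE k C} (ha : a ≠ 0) (L : IntermediateField k C)
    [FiniteDimensional k L] (haL : InL L a) :
    ∃ b : EE k C, InL L b ∧ a * b = 1 ∧
      ((∃ ρ M : ℝ, 0 < ρ ∧ ρ < 1 ∧ Bdd ρ M a) → ∃ ρ M : ℝ, 0 < ρ ∧ ρ < 1 ∧ Bdd ρ M b) := by
  set u := nrm a with hu
  have hcL : a.co (od a) ∈ L := haL _
  have huL : InL L u := (InL.mo (inv_mem hcL) _).mul haL
  set V := posPart u with hV
  have hV0 : PowerSeries.constantCoeff V.1 = 1 := by
    rw [← PowerSeries.coeff_zero_eq_constantCoeff_apply, hV, coeff_posPart, Nat.cast_zero, hu,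
      nrm_zero_coeff hk ha]
  have hV1 : ∀ n, ‖PowerSeries.coeff n V.1‖ ≤ 1 := fun n => by
    rw [hV, coeff_posPart]; exact nrm_le hk ha _
  have hVL : ∀ n, PowerSeries.coeff n V.1 ∈ L := fun n => by
    rw [hV, coeff_posPart]; exact huL _
  set W : BD k C := ⟨V.1⁻¹, ⟨L, inferInstance, inv_coeff_mem L hVL⟩, 1,
    inv_coeff (by rw [hV0, norm_one]) hV1⟩ with hW
  have hVW : V * W = 1 := by
    apply Subtype.ext
    exact PowerSeries.mul_inv_cancel _ (by rw [hV0]; exact one_ne_zero)
  have hWn : ∀ n, ‖PowerSeries.coeff n W.1‖ ≤ 1 := inv_coeff (by rw [hV0, norm_one]) hV1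
  have hWL : InL L (ofBD W) := by
    intro n
    rw [co_ofBD, psFun]
    split_ifs
    · exact inv_coeff_mem L hVL _
    · exact zero_mem L
  set δ := u - ofBD V with hδ
  have hδL : InL L δ := by
    refine huL.sub fun n => ?_
    rw [co_ofBD, psFun]
    split_ifs
    · exact hVL _
    · exact zero_mem L
  have hδ1 : gn δ < 1 := gn_sub_posPart_lt one_pos fun n hn => nrm_lt hk ha hn
  have hW1 : gn (ofBD W) ≤ 1 :=
    bdd_one_iff.1 (Bdd.ofBD one_pos le_rfl zero_le_one W hWn)
  set x := -(δ * ofBD W) with hx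
  have hxL : InL L x := (hδL.mul hWL).neg
  have hx1 : gn x < 1 := by
    rw [hx, gn_neg]
    refine lt_of_le_of_lt (gn_mul_le _ _) ?_
    calc gn δ * gn (ofBD W) ≤ gn δ * 1 := mul_le_mul_of_nonneg_left hW1 (gn_nonneg _)
      _ < 1 := by rw [mul_one]; exact hδ1
  have huW : u * ofBD W = 1 - x := by
    have : u = ofBD V + δ := by rw [hδ]; ring
    rw [this, add_mul, ← map_mul, hVW, map_one, hx]; ring
  -- partial sums
  set s : ℕ → EE k C := fun m => ∑ i ∈ Finset.range m, x ^ i with hs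
  have hx0 := gn_nonneg x
  have htend : Tendsto (fun m : ℕ => gn x ^ m) atTop (𝓝 0) :=
    tendsto_pow_atTop_nhds_zero_of_lt_one hx0 hx1
  obtain ⟨S, hS, h1⟩ := complete_of L s (fun m => InL.sum _ fun i _ => hxL.pow i)
    (fun m => gn x ^ m) htend (fun m n hmn => by
      rw [hs]
      dsimp only
      rw [← Finset.sum_sdiff (Finset.range_mono hmn), add_sub_cancel_right]
      refine gn_sum_le _ _ (by positivity) fun i hi => ?_
      refine (gn_pow_le x i).trans (pow_le_pow_of_le_one hx0 hx1.le ?_)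
      simp only [Finset.mem_sdiff, Finset.mem_range, not_lt] at hi
      exact hi.2)
  have hxS : (1 - x) * S = 1 := by
    have h2 : ∀ m : ℕ, gn ((1 - x) * S - 1) ≤ gn x ^ m := by
      intro m
      have h3 : (1 - x) * S - 1 = (1 - x) * (S - s m) - x ^ m := by
        rw [hs, mul_sub, mul_neg_geom_sum]; ring
      rw [h3]
      refine (gn_sub_le _ _).trans (max_le ?_ (gn_pow_le x m))
      refine (gn_mul_le _ _).trans ?_
      have h4 : gn (1 - x) ≤ 1 := (gn_sub_le _ _).trans (max_le (by rw [gn_one]) hx1.le)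
      calc gn (1 - x) * gn (S - s m)
          ≤ 1 * gn x ^ m := mul_le_mul h4 (h1 m) (gn_nonneg _) zero_le_one
        _ = gn x ^ m := one_mul _
    have h5 : gn ((1 - x) * S - 1) ≤ 0 := ge_of_tendsto' htend h2
    exact sub_eq_zero.1 (gn_eq_zero.1 (le_antisymm h5 (gn_nonneg _)))
  refine ⟨mo (-od a) (a.co (od a))⁻¹ * ofBD W * S, ((InL.mo (inv_mem hcL) _).mul hWL).mul hS, ?_, ?_⟩
  · calc a * (mo (-od a) (a.co (od a))⁻¹ * ofBD W * S)
        = (mo (-od a) (a.co (od a))⁻¹ * a) * ofBD W * S := by ring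
      _ = (1 - x) * S := by rw [← nrm, ← hu, huW]
      _ = 1 := hxS
  · rintro ⟨ρ, M, hρ, hρ1, hM⟩
    have huB : Bdd ρ (‖(a.co (od a))⁻¹‖ * ρ ^ (-od a) * M) u := (Bdd.mo hρ _ _).mul hρ hM
    have hVB : Bdd ρ 1 (ofBD V) := Bdd.ofBD hρ hρ1.le zero_le_one V hV1
    have hδB : Bdd ρ (max (‖(a.co (od a))⁻¹‖ * ρ ^ (-od a) * M) 1) δ :=
      (huB.le (le_max_left _ _)).sub hρ (hVB.le (le_max_right _ _))
    obtain ⟨ρ', h6, h7, h8⟩ := hδB.shrink hρ hρ1 hδ1
    have hρ' : 0 < ρ' := hρ.trans h6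
    have hWB : Bdd ρ' 1 (ofBD W) := Bdd.ofBD hρ' h7.le zero_le_one W hWn
    have hxB : Bdd ρ' 1 x := by
      have := (h8.mul hρ' hWB).neg
      rwa [mul_one] at this
    have hSB : Bdd ρ' 1 S := Bdd.limit hρ' htend h1 fun m =>
      Bdd.sum hρ' zero_le_one _ fun i _ => by
        have := hxB.pow hρ' i
        rwa [one_pow] at this
    exact ⟨ρ', _, hρ', h7, ((Bdd.mo hρ' _ _).mul hρ' hWB).mul hρ' hSB⟩

theorem exists_mul_eq_one (hk : DiscNorm k) {a : EE k C} (ha : a ≠ 0) : ∃ b : EE k C, a * b = 1 := by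
  obtain ⟨L, hL, h⟩ := a.exists_inL
  obtain ⟨b, -, hb, -⟩ := exists_inv hk ha L h
  exact ⟨b, hb⟩

open Classical in
/-- **`EE k C` is a field** if the value group of `k` is discrete. -/
noncomputable instance instField [hk : Fact (DiscNorm k)] : Field (EE k C) :=
  { (inferInstance : CommRing (EE k C)), (inferInstance : Nontrivial (EE k C)) with
    inv := fun a => if h : a = 0 then 0 else Classical.choose (exists_mul_eq_one hk.out h)
    mul_inv_cancel := fun a ha => by
      show a * (if h : a = 0 then 0 else Classical.choose (exists_mul_eq_one hk.out h)) = 1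
      rw [dif_neg ha]
      exact Classical.choose_spec (exists_mul_eq_one hk.out ha)
    inv_zero := by
      show (if h : (0 : EE k C) = 0 then 0 else Classical.choose (exists_mul_eq_one hk.out h)) = 0
      rw [dif_pos rfl]
    nnqsmul := _
    nnqsmul_def := fun _ _ => rfl
    qsmul := _
    qsmul_def := fun _ _ => rfl }

end Inv

section Field

variable [Algebra.IsAlgebraic k C] [IsUltrametricDist k] [IsAlgClosed C] [hk : Fact (DiscNorm k)]

theorem gn_inv (a : EE k C) : gn a⁻¹ = (gn a)⁻¹ := by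
  by_cases ha : a = 0
  · rw [ha, inv_zero, gn_zero, inv_zero]
  · have h1 := gn_mul hk.out a a⁻¹
    rw [mul_inv_cancel₀ ha, gn_one] at h1
    exact (eq_inv_of_mul_eq_one_right h1.symm)

theorem gn_div (a b : EE k C) : gn (a / b) = gn a / gn b := by
  rw [div_eq_mul_inv, gn_mul hk.out, gn_inv, div_eq_mul_inv]

theorem gn_pow (a : EE k C) (n : ℕ) : gn (a ^ n) = gn a ^ n := by
  induction n with
  | zero => simp
  | succ n ih => rw [pow_succ, pow_succ, gn_mul hk.out, ih]

theorem gn_zpow (a : EE k C) (n : ℤ) : gn (a ^ n) = gn a ^ n := by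
  cases n with
  | ofNat n => rw [Int.ofNat_eq_natCast, zpow_natCast, zpow_natCast, gn_pow]
  | negSucc n => rw [zpow_negSucc, zpow_negSucc, gn_inv, gn_pow]

theorem od_inv {a : EE k C} (ha : a ≠ 0) : od a⁻¹ = -od a := by
  have h1 := od_mul hk.out ha (inv_ne_zero ha)
  rw [mul_inv_cancel₀ ha, od_one] at h1
  omega

theorem od_pow {a : EE k C} (ha : a ≠ 0) (n : ℕ) : od (a ^ n) = n * od a := by
  induction n with
  | zero => rw [pow_zero, od_one]; simp
  | succ n ih =>
    rw [pow_succ, od_mul hk.out (pow_ne_zero n ha) ha, ih]; push_cast; ring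

theorem inL_inv {a : EE k C} {L : IntermediateField k C} [FiniteDimensional k L] (h : InL L a) :
    InL L a⁻¹ := by
  by_cases ha : a = 0
  · rw [ha, inv_zero]; exact InL.zero L
  · obtain ⟨b, hb, hab, -⟩ := exists_inv hk.out ha L h
    rw [← eq_inv_of_mul_eq_one_right hab]
    exact hb

theorem T_inv (n : ℤ) : (T n : EE k C)⁻¹ = T (-n) := by
  refine inv_eq_of_mul_eq_one_right ?_
  rw [T_mul_T, add_neg_cancel, T_zero]

theorem T_ne_zero (n : ℤ) : (T n : EE k C) ≠ 0 := by
  intro h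
  have := congrArg gn h
  rw [T, gn_mo, norm_one, gn_zero] at this
  exact one_ne_zero this

theorem T_eq_zpow (n : ℤ) : (T n : EE k C) = (T 1) ^ n := by
  have h : ∀ m : ℕ, (T (m : ℤ) : EE k C) = (T 1) ^ m := by
    intro m
    induction m with
    | zero => rw [pow_zero, Nat.cast_zero, T_zero]
    | succ m ih => rw [pow_succ, ← ih, T_mul_T]; push_cast; rfl
  cases n with
  | ofNat n => rw [Int.ofNat_eq_natCast, zpow_natCast, h]
  | negSucc n =>
    rw [zpow_negSucc, ← h, T_inv]
    rfl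

variable (k C) in
/-- **The field of overconvergent elements**: those that converge and are bounded on some
annulus `ρ < |T| < 1`. -/
noncomputable def Ep : IntermediateField C (EE k C) where
  carrier := {a | ∃ ρ M : ℝ, 0 < ρ ∧ ρ < 1 ∧ Bdd ρ M a}
  mul_mem' := by
    rintro a b ⟨ρ, M, h1, h2, h3⟩ ⟨σ, N, h4, h5, h6⟩
    have h7 : 0 < max ρ σ := lt_max_of_lt_left h1
    have h8 : max ρ σ < 1 := max_lt h2 h5
    refine ⟨max ρ σ, max M (gn a) * max N (gn b), h7, h8, Bdd.mul h7 ?_ ?_⟩
    · exact Bdd.interp h1 (le_max_left _ _) h8.le (h3.le (le_max_left _ _))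
        (bdd_one_iff.2 (le_max_right _ _))
    · exact Bdd.interp h4 (le_max_right _ _) h8.le (h6.le (le_max_left _ _))
        (bdd_one_iff.2 (le_max_right _ _))
  add_mem' := by
    rintro a b ⟨ρ, M, h1, h2, h3⟩ ⟨σ, N, h4, h5, h6⟩
    have h7 : 0 < max ρ σ := lt_max_of_lt_left h1
    have h8 : max ρ σ < 1 := max_lt h2 h5
    refine ⟨max ρ σ, max (max M (gn a)) (max N (gn b)), h7, h8, Bdd.add h7 ?_ ?_⟩
    · exact (Bdd.interp h1 (le_max_left _ _) h8.le (h3.le (le_max_left _ _))
        (bdd_one_iff.2 (le_max_right _ _))).le (le_max_left _ _)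
    · exact (Bdd.interp h4 (le_max_right _ _) h8.le (h6.le (le_max_left _ _))
        (bdd_one_iff.2 (le_max_right _ _))).le (le_max_right _ _)
  algebraMap_mem' c := ⟨1 / 2, _, by norm_num, by norm_num, Bdd.mo (by norm_num) 0 c⟩
  inv_mem' := by
    rintro a ⟨ρ, M, h1, h2, h3⟩
    by_cases ha : a = 0
    · rw [ha, inv_zero]
      exact ⟨1 / 2, 0, by norm_num, by norm_num, Bdd.zero le_rfl⟩
    · obtain ⟨L, hL, hLa⟩ := a.exists_inL
      obtain ⟨b, -, hab, hb⟩ := exists_inv hk.out ha L hLa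
      rw [← eq_inv_of_mul_eq_one_right hab]
      exact hb ⟨ρ, M, h1, h2, h3⟩

theorem mem_Ep {a : EE k C} : a ∈ Ep k C ↔ ∃ ρ M : ℝ, 0 < ρ ∧ ρ < 1 ∧ Bdd ρ M a := Iff.rfl

theorem mo_mem_Ep (n : ℤ) (c : C) : (mo n c : EE k C) ∈ Ep k C :=
  ⟨1 / 2, _, by norm_num, by norm_num, Bdd.mo (by norm_num) n c⟩

theorem T_mem_Ep (n : ℤ) : (T n : EE k C) ∈ Ep k C := mo_mem_Ep n 1

theorem ofBD_mem_Ep (f : BD k C) : (ofBD f : EE k C) ∈ Ep k C := by
  obtain ⟨M, hM⟩ := f.2.2
  exact ⟨1 / 2, max M 0, by norm_num, by norm_num, Bdd.ofBD (by norm_num) (by norm_num)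
    (le_max_right _ _) f fun n => (hM n).trans (le_max_left _ _)⟩

end Field

end Crest.Agent.R013.EE809
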