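import Crest.Agent.R013.EE1_809

/-!
# Row 13, leaf SS-AN (helper809), file 2: the norm `gn`, the order `od`, `EE k C` is a field
-/

set_option autoImplicit false
set_option linter.unusedSectionVars false
open Filter Topology
open Crest.Agent.R013.Cell_408 (FinDef DiscNorm exists_max)

namespace Crest.Agent.R013.EE809

variable {k : Type*} [NontriviallyNormedField k] [CompleteSpace k]
variable {C : Type*} [NormedField C] [IsUltrametricDist C] [NormedAlgebra k C]

/-! ### the sup norm -/

/-- the norm `sup |a_n|` -/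
noncomputable def gn (a : EE k C) : ℝ := ⨆ n, ‖a.co n‖

theorem le_gn (a : EE k C) (n : ℤ) : ‖a.co n‖ ≤ gn a := by
  obtain ⟨M, hM⟩ := a.bd
  exact le_ciSup (f := fun n => ‖a.co n‖) ⟨M, by rintro _ ⟨m, rfl⟩; exact hM m⟩ n

theorem gn_le {a : EE k C} {M : ℝ} (h : ∀ n, ‖a.co n‖ ≤ M) : gn a ≤ M := ciSup_le h

theorem gn_nonneg (a : EE k C) : 0 ≤ gn a := (norm_nonneg _).trans (le_gn a 0)

@[simp] theorem gn_zero : gn (0 : EE k C) = 0 :=
  le_antisymm (gn_le fun n => by simp) (gn_nonneg _)

theorem gn_eq_zero {a : EE k C} : gn a = 0 ↔ a = 0 := by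
  refine ⟨fun h => ?_, fun h => by rw [h, gn_zero]⟩
  ext n
  have := le_gn a n
  rw [h] at this
  simpa using this

theorem gn_pos {a : EE k C} (h : a ≠ 0) : 0 < gn a :=
  lt_of_le_of_ne (gn_nonneg a) fun h1 => h (gn_eq_zero.1 h1.symm)

@[simp] theorem gn_neg (a : EE k C) : gn (-a) = gn a := by
  unfold gn; simp

theorem gn_add_le (a b : EE k C) : gn (a + b) ≤ max (gn a) (gn b) :=
  gn_le fun n => (IsUltrametricDist.norm_add_le_max _ _).trans (max_le_max (le_gn a n) (le_gn b n))

theorem gn_sub_le (a b : EE k C) : gn (a - b) ≤ max (gn a) (gn b) := by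
  have := gn_add_le a (-b)
  rwa [gn_neg, ← sub_eq_add_neg] at this

theorem gn_sub_comm (a b : EE k C) : gn (a - b) = gn (b - a) := by
  rw [← gn_neg, neg_sub]

theorem gn_sum_le {ι : Type*} (s : Finset ι) (f : ι → EE k C) {M : ℝ} (hM : 0 ≤ M)
    (h : ∀ i ∈ s, gn (f i) ≤ M) : gn (∑ i ∈ s, f i) ≤ M := by
  classical
  induction s using Finset.induction_on with
  | empty => simpa using hM
  | insert i s hi ih =>
    rw [Finset.sum_insert hi]
    exact (gn_add_le _ _).trans (max_le (h _ (Finset.mem_insert_self _ _))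
      (ih fun j hj => h _ (Finset.mem_insert_of_mem hj)))

theorem gn_mul_le (a b : EE k C) : gn (a * b) ≤ gn a * gn b := by
  refine gn_le fun n => ?_
  rw [co_mul]
  refine IsUltrametricDist.norm_tsum_le_of_forall_le_of_nonneg
    (mul_nonneg (gn_nonneg a) (gn_nonneg b)) fun i => ?_
  rw [norm_mul]
  exact mul_le_mul (le_gn a _) (le_gn b _) (norm_nonneg _) (gn_nonneg a)

@[simp] theorem gn_mono (n : ℤ) (c : C) (hc : FinDef k (fun _ : Unit => c)) :
    gn (mono n c hc : EE k C) = ‖c‖ := by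
  refine le_antisymm (gn_le fun m => ?_) ?_
  · rw [co_mono]; split_ifs <;> simp
  · have := le_gn (mono n c hc : EE k C) n
    rwa [co_mono, if_pos rfl] at this

@[simp] theorem gn_one : gn (1 : EE k C) = 1 := by rw [one_def, gn_mono, norm_one]

theorem gn_pow_le (a : EE k C) (n : ℕ) : gn (a ^ n) ≤ gn a ^ n := by
  induction n with
  | zero => simp
  | succ n ih =>
    rw [pow_succ, pow_succ]
    exact (gn_mul_le _ _).trans (mul_le_mul_of_nonneg_right ih (gn_nonneg a))

/-! ### sums of small terms -/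

theorem exists_lt_bound {ι : Type*} {f : ι → C} {r : ℝ} (hr : 0 < r)
    (h0 : Tendsto f cofinite (𝓝 0)) (h : ∀ i, ‖f i‖ < r) : ∃ r', 0 ≤ r' ∧ r' < r ∧ ∀ i, ‖f i‖ ≤ r' := by
  rw [Metric.tendsto_nhds] at h0
  have h1 := h0 (r / 2) (by positivity)
  rw [eventually_cofinite] at h1
  set S := h1.toFinset with hS
  have key : ∃ r', 0 ≤ r' ∧ r' < r ∧ ∀ i ∈ S, ‖f i‖ ≤ r' := by
    clear_value S
    clear hS
    classical
    induction S using Finset.induction_on with
    | empty => exact ⟨0, le_rfl, hr, fun i hi => by simp at hi⟩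
    | insert j s hj ih =>
      obtain ⟨r', h2, h3, h4⟩ := ih
      refine ⟨max r' ‖f j‖, le_max_of_le_left h2, max_lt h3 (h j), fun i hi => ?_⟩
      rcases Finset.mem_insert.1 hi with rfl | hi
      · exact le_max_right _ _
      · exact (h4 i hi).trans (le_max_left _ _)
  obtain ⟨r', h2, h3, h4⟩ := key
  refine ⟨max r' (r / 2), le_max_of_le_left h2, max_lt h3 (by linarith), fun i => ?_⟩
  by_cases hi : i ∈ S
  · exact (h4 i hi).trans (le_max_left _ _)
  · refine le_trans ?_ (le_max_right _ _)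
    rw [hS, Set.Finite.mem_toFinset, Set.mem_ofPred_eq, not_not, dist_zero_right] at hi
    exact hi.le

theorem norm_tsum_lt {ι : Type*} {f : ι → C} {r : ℝ} (hr : 0 < r)
    (h0 : Tendsto f cofinite (𝓝 0)) (h : ∀ i, ‖f i‖ < r) : ‖∑' i, f i‖ < r := by
  obtain ⟨r', h1, h2, h3⟩ := exists_lt_bound hr h0 h
  exact lt_of_le_of_lt (IsUltrametricDist.norm_tsum_le_of_forall_le_of_nonneg h1 h3) h2

/-! ### the order -/

/-- the least index of maximal norm (order of the reduction) -/
noncomputable def od (a : EE k C) : ℤ := sInf {n : ℤ | ‖a.co n‖ = gn a}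

theorem bddBelow_od {a : EE k C} (ha : a ≠ 0) : BddBelow {n : ℤ | ‖a.co n‖ = gn a} := by
  obtain ⟨K, hK, h1⟩ := a.small (gn_pos ha)
  refine ⟨-K, fun n hn => ?_⟩
  by_contra hlt
  exact absurd hn (h1 n (not_le.1 hlt)).ne

theorem od_eq_of {a : EE k C} {n : ℤ} (h1 : ‖a.co n‖ = gn a) (h2 : ∀ m < n, ‖a.co m‖ < gn a) :
    od a = n := by
  have hb : BddBelow {n : ℤ | ‖a.co n‖ = gn a} := ⟨n, fun m hm => by
    by_contra hlt
    exact absurd hm (h2 m (not_le.1 hlt)).ne⟩
  refine le_antisymm (csInf_le hb h1) ?_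
  refine le_csInf ⟨n, h1⟩ fun m hm => ?_
  by_contra hlt
  exact absurd hm (h2 m (not_le.1 hlt)).ne

theorem gn_eq_of {a : EE k C} {n : ℤ} (h : ∀ m, ‖a.co m‖ ≤ ‖a.co n‖) : gn a = ‖a.co n‖ :=
  le_antisymm (gn_le h) (le_gn a n)

@[simp] theorem od_mono (n : ℤ) {c : C} (hc : FinDef k (fun _ : Unit => c)) (h0 : c ≠ 0) :
    od (mono n c hc : EE k C) = n := by
  refine od_eq_of ?_ fun m hm => ?_
  · rw [gn_mono, co_mono, if_pos rfl]
  · rw [gn_mono, co_mono, if_neg hm.ne, norm_zero]
    exact norm_pos_iff.2 h0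

@[simp] theorem od_one : od (1 : EE k C) = 0 := od_mono 0 finDef_one one_ne_zero

section Disc

variable [IsUltrametricDist k] [Algebra.IsAlgebraic k C] [IsAlgClosed C]

theorem exists_gn (hk : DiscNorm k) {a : EE k C} (ha : a ≠ 0) : ∃ n, ‖a.co n‖ = gn a := by
  obtain ⟨M, hM⟩ := a.bd
  have hne : ∃ i, a.co i ≠ 0 := by
    by_contra h
    push Not at h
    exact ha (EE.ext h)
  obtain ⟨n, -, hn⟩ := exists_max hk a.fd hM hne
  exact ⟨n, (gn_eq_of hn).symm⟩

theorem norm_co_od (hk : DiscNorm k) {a : EE k C} (ha : a ≠ 0) : ‖a.co (od a)‖ = gn a :=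
  Int.csInf_mem (exists_gn hk ha) (bddBelow_od ha)

theorem co_od_ne_zero (hk : DiscNorm k) {a : EE k C} (ha : a ≠ 0) : a.co (od a) ≠ 0 := by
  rw [← norm_pos_iff, norm_co_od hk ha]; exact gn_pos ha

theorem norm_lt_of_lt_od {a : EE k C} (ha : a ≠ 0) {n : ℤ} (hn : n < od a) :
    ‖a.co n‖ < gn a := by
  refine lt_of_le_of_ne (le_gn a n) fun h => ?_
  exact absurd (csInf_le (bddBelow_od ha) h) (not_le.2 hn)

theorem mul_lead (hk : DiscNorm k) {a b : EE k C} (ha : a ≠ 0) (hb : b ≠ 0) :
    ‖(a * b).co (od a + od b)‖ = gn a * gn b ∧ ∀ n < od a + od b, ‖(a * b).co n‖ < gn a * gn b := by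
  have hr : 0 < gn a * gn b := mul_pos (gn_pos ha) (gn_pos hb)
  have hlt : ∀ i j : ℤ, (i < od a ∨ j < od b) → ‖a.co i * b.co j‖ < gn a * gn b := by
    intro i j h
    rw [norm_mul]
    rcases h with h | h
    · exact mul_lt_mul_of_lt_of_le_of_nonneg_of_pos (norm_lt_of_lt_od ha h) (le_gn b _)
        (norm_nonneg _) (gn_pos hb)
    · calc ‖a.co i‖ * ‖b.co j‖ ≤ gn a * ‖b.co j‖ :=
            mul_le_mul_of_nonneg_right (le_gn a _) (norm_nonneg _)
        _ < gn a * gn b := mul_lt_mul_of_pos_left (norm_lt_of_lt_od hb h) (gn_pos ha)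
  constructor
  · rw [co_mul, (summable_conv a b _).tsum_eq_add_tsum_ite (od a)]
    have h1 : ‖a.co (od a) * b.co (od a + od b - od a)‖ = gn a * gn b := by
      rw [add_sub_cancel_left, norm_mul, norm_co_od hk ha, norm_co_od hk hb]
    have h2 : ‖∑' i, (if i = od a then 0 else a.co i * b.co (od a + od b - i))‖ < gn a * gn b := by
      refine norm_tsum_lt hr ?_ fun i => ?_
      · refine (tendsto_conv a b (od a + od b)).congr' ?_
        rw [EventuallyEq, eventually_cofinite]
        refine (Set.finite_singleton (od a)).subset fun i hi => ?_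
        by_contra hne
        apply hi
        rw [if_neg (show ¬ i = od a from hne)]
      · by_cases hi : i = od a
        · rw [if_pos hi, norm_zero]; exact hr
        · rw [if_neg hi]
          refine hlt _ _ ?_
          omega
    rw [add_comm, IsUltrametricDist.norm_add_eq_max_of_norm_ne_norm (by rw [h1]; exact h2.ne), h1,
      max_eq_right h2.le]
  · intro n hn
    rw [co_mul]
    refine norm_tsum_lt hr (tendsto_conv a b n) fun i => hlt _ _ ?_
    omega

theorem gn_mul (hk : DiscNorm k) (a b : EE k C) : gn (a * b) = gn a * gn b := by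
  by_cases ha : a = 0
  · rw [ha, zero_mul, gn_zero, zero_mul]
  by_cases hb : b = 0
  · rw [hb, mul_zero, gn_zero, mul_zero]
  refine le_antisymm (gn_mul_le a b) ?_
  rw [← (mul_lead hk ha hb).1]
  exact le_gn _ _

theorem mul_ne_zero' (hk : DiscNorm k) {a b : EE k C} (ha : a ≠ 0) (hb : b ≠ 0) : a * b ≠ 0 := by
  intro h
  have := gn_mul hk a b
  rw [h, gn_zero] at this
  exact absurd this.symm (mul_pos (gn_pos ha) (gn_pos hb)).ne'

theorem od_mul (hk : DiscNorm k) {a b : EE k C} (ha : a ≠ 0) (hb : b ≠ 0) :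
    od (a * b) = od a + od b := by
  refine od_eq_of ?_ fun m hm => ?_
  · rw [(mul_lead hk ha hb).1, gn_mul hk]
  · rw [gn_mul hk]; exact (mul_lead hk ha hb).2 m hm

end Disc

/-! ### completeness -/

/-- the coefficients lie in `L` -/
def InL (L : IntermediateField k C) (a : EE k C) : Prop := ∀ n, a.co n ∈ L

theorem InL.mul {L : IntermediateField k C} [FiniteDimensional k L] {a b : EE k C} (ha : InL L a)
    (hb : InL L b) : InL L (a * b) := fun n => by
  rw [co_mul]; exact tsum_mem_of L fun i => mul_mem (ha i) (hb _)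

theorem InL.add {L : IntermediateField k C} {a b : EE k C} (ha : InL L a)
    (hb : InL L b) : InL L (a + b) := fun n => add_mem (ha n) (hb n)

theorem InL.sub {L : IntermediateField k C} {a b : EE k C} (ha : InL L a)
    (hb : InL L b) : InL L (a - b) := fun n => sub_mem (ha n) (hb n)

theorem InL.neg {L : IntermediateField k C} {a : EE k C} (ha : InL L a) : InL L (-a) :=
  fun n => neg_mem (ha n)

theorem InL.zero (L : IntermediateField k C) : InL L (0 : EE k C) := fun _ => zero_mem L

theorem InL.one (L : IntermediateField k C) : InL L (1 : EE k C) := fun n => by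
  rw [co_one]; split_ifs
  · exact one_mem L
  · exact zero_mem L

theorem InL.pow {L : IntermediateField k C} [FiniteDimensional k L] {a : EE k C} (ha : InL L a)
    (n : ℕ) : InL L (a ^ n) := by
  induction n with
  | zero => rw [pow_zero]; exact InL.one L
  | succ n ih => rw [pow_succ]; exact ih.mul ha

theorem InL.sum {ι : Type*} {L : IntermediateField k C} (s : Finset ι) {f : ι → EE k C}
    (h : ∀ i ∈ s, InL L (f i)) : InL L (∑ i ∈ s, f i) := by
  classical
  induction s using Finset.induction_on with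
  | empty => rw [Finset.sum_empty]; exact InL.zero L
  | insert i s hi ih =>
    rw [Finset.sum_insert hi]
    exact (h _ (Finset.mem_insert_self _ _)).add (ih fun j hj => h _ (Finset.mem_insert_of_mem hj))

theorem InL.mono {L L' : IntermediateField k C} (h : L ≤ L') {a : EE k C} (ha : InL L a) :
    InL L' a := fun n => h (ha n)

theorem EE.exists_inL (a : EE k C) : ∃ L : IntermediateField k C, FiniteDimensional k L ∧ InL L a :=
  a.fd

theorem exists_inL_finset {ι : Type*} (s : Finset ι) (f : ι → EE k C) :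
    ∃ L : IntermediateField k C, FiniteDimensional k L ∧ ∀ i ∈ s, InL L (f i) := by
  classical
  induction s using Finset.induction_on with
  | empty => exact ⟨⊥, inferInstance, fun i hi => by simp at hi⟩
  | insert i s hi ih =>
    obtain ⟨L, hL, h1⟩ := ih
    obtain ⟨L', hL', h2⟩ := (f i).exists_inL
    refine ⟨L ⊔ L', IntermediateField.finiteDimensional_sup L L', fun j hj => ?_⟩
    rcases Finset.mem_insert.1 hj with rfl | hj
    · exact h2.mono le_sup_right
    · exact (h1 j hj).mono le_sup_left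

/-- **Completeness** at a finite level. -/
theorem complete_of (L : IntermediateField k C) [FiniteDimensional k L] (s : ℕ → EE k C)
    (hL : ∀ m, InL L (s m)) (r : ℕ → ℝ) (hr : Tendsto r atTop (𝓝 0))
    (hs : ∀ m n, m ≤ n → gn (s n - s m) ≤ r m) :
    ∃ S : EE k C, InL L S ∧ ∀ m, gn (S - s m) ≤ r m := by
  have : CompleteSpace L := FiniteDimensional.complete k L
  have h1 : ∀ i : ℤ, ∃ l : L, Tendsto (fun m => (⟨(s m).co i, hL m i⟩ : L)) atTop (𝓝 l) := by
    intro i
    apply cauchySeq_tendsto_of_complete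
    rw [Metric.cauchySeq_iff']
    intro ε hε
    obtain ⟨N, hN⟩ := (Metric.tendsto_atTop.1 hr) ε hε
    refine ⟨N, fun n hn => ?_⟩
    rw [dist_eq_norm]
    have h2 : ‖(s n).co i - (s N).co i‖ ≤ r N := (le_gn (s n - s N) i).trans (hs N n hn)
    have h3 := hN N le_rfl
    rw [Real.dist_eq, sub_zero] at h3
    exact lt_of_le_of_lt (h2.trans (le_abs_self _)) h3
  choose l hl using h1
  have hl' : ∀ i, Tendsto (fun m => (s m).co i) atTop (𝓝 ((l i : L) : C)) := fun i =>
    (continuous_subtype_val.tendsto _).comp (hl i)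
  have h4 : ∀ m i, ‖(l i : C) - (s m).co i‖ ≤ r m := by
    intro m i
    have h5 : Tendsto (fun n => ‖(s n).co i - (s m).co i‖) atTop (𝓝 ‖(l i : C) - (s m).co i‖) :=
      ((hl' i).sub_const _).norm
    refine le_of_tendsto h5 ?_
    filter_upwards [eventually_ge_atTop m] with n hn
    exact (le_gn (s n - s m) i).trans (hs m n hn)
  refine ⟨mk' (fun i => (l i : C)) ⟨L, inferInstance, fun i => (l i).2⟩ ?_ ?_, fun i => (l i).2,
    fun m => gn_le fun i => h4 m i⟩
  · obtain ⟨M, hM⟩ := (s 0).bd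
    refine ⟨max (r 0) M, fun i => ?_⟩
    have h6 : (l i : C) = ((l i : C) - (s 0).co i) + (s 0).co i := by ring
    rw [h6]
    exact (IsUltrametricDist.norm_add_le_max _ _).trans (max_le_max (h4 0 i) (hM i))
  · rw [Metric.tendsto_nhds]
    intro ε hε
    obtain ⟨N, hN⟩ := (Metric.tendsto_atTop.1 hr) ε hε
    have h3 := hN N le_rfl
    rw [Real.dist_eq, sub_zero] at h3
    have h7 := (s N).lim
    rw [Metric.tendsto_nhds] at h7
    filter_upwards [h7 ε hε] with i hi
    rw [dist_zero_right] at hi ⊢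
    have h6 : (l i : C) = ((l i : C) - (s N).co i) + (s N).co i := by ring
    rw [h6]
    refine lt_of_le_of_lt (IsUltrametricDist.norm_add_le_max _ _) (max_lt ?_ hi)
    exact lt_of_le_of_lt ((h4 N i).trans (le_abs_self _)) h3

/-- `1 - x` is invertible if `gn x < 1`. -/
theorem exists_inv_one_sub {x : EE k C} (L : IntermediateField k C) [FiniteDimensional k L]
    (hxL : InL L x) (hx : gn x < 1) :
    ∃ y : EE k C, InL L y ∧ (1 - x) * y = 1 ∧ gn (y - 1) ≤ gn x := by
  have hx0 := gn_nonneg x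
  obtain ⟨S, hS, h1⟩ := complete_of L (fun m => ∑ i ∈ Finset.range m, x ^ i)
    (fun m => InL.sum _ fun i _ => hxL.pow i) (fun m => gn x ^ m)
    (tendsto_pow_atTop_nhds_zero_of_lt_one hx0 hx) (fun m n hmn => by
      rw [← Finset.sum_sdiff (Finset.range_mono hmn), add_sub_cancel_right]
      refine gn_sum_le _ _ (by positivity) fun i hi => ?_
      refine (gn_pow_le x i).trans (pow_le_pow_of_le_one hx0 hx.le ?_)
      simp only [Finset.mem_sdiff, Finset.mem_range, not_lt] at hi
      exact hi.2)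
  refine ⟨S, hS, ?_, ?_⟩
  · have h2 : ∀ m : ℕ, gn ((1 - x) * S - 1) ≤ gn x ^ m := by
      intro m
      have h3 : (1 - x) * S - 1 = (1 - x) * (S - ∑ i ∈ Finset.range m, x ^ i) - x ^ m := by
        rw [mul_sub, mul_neg_geom_sum]; ring
      rw [h3]
      refine (gn_sub_le _ _).trans (max_le ?_ (gn_pow_le x m))
      refine (gn_mul_le _ _).trans ?_
      have h4 : gn (1 - x) ≤ 1 := (gn_sub_le _ _).trans (max_le (by rw [gn_one]) hx.le)
      calc gn (1 - x) * gn (S - ∑ i ∈ Finset.range m, x ^ i)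
          ≤ 1 * gn x ^ m := mul_le_mul h4 (h1 m) (gn_nonneg _) zero_le_one
        _ = gn x ^ m := one_mul _
    have h5 : gn ((1 - x) * S - 1) ≤ 0 :=
      ge_of_tendsto' (tendsto_pow_atTop_nhds_zero_of_lt_one hx0 hx) h2
    have h6 := gn_eq_zero.1 (le_antisymm h5 (gn_nonneg _))
    exact sub_eq_zero.1 h6
  · have := h1 1
    simpa using this

end Crest.Agent.R013.EE809
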