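import Mathlib
import Crest.Agent.R013.RR7_948

/-!
# R013 / Red1: norms of type 2, their residue fields, orders at the ends (helper332)

`Nm C K` : norms (rank one valuations to `ℝ≥0`) of `K` over the norm of `C` with the same value
group; `kap w` the residue field, an algebra over the residue field `Ct C` of `C`;
`red w f` the reduction; `od w x f` the order at the place `x` of `kap w` of the reduction of
`f / c`, `‖c‖ = w f`.  `End2 C F`: a norm and an order function on a field `F`
(= the data of a rank two valuation).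
-/

set_option autoImplicit false
set_option linter.all false

namespace Crest.Agent.R013.Red332

open scoped NNReal
open WithZero IsLocalRing
open Crest.Agent.R013.RR7_948

section basic

variable (C : Type*) [NormedField C] [IsUltrametricDist C]

/-- residue field of `C` -/
def Ct : Type _ := ResidueField (NormedField.valuation (K := C)).valuationSubring

noncomputable instance : Field (Ct C) :=
  inferInstanceAs (Field (ResidueField (NormedField.valuation (K := C)).valuationSubring))

/-- norms of `K` over the norm of `C`, with the value group of `C` -/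
structure Nm (K : Type*) [Field K] [Algebra C K] where
  /-- the norm -/
  v : Valuation K ℝ≥0
  hC : ∀ c : C, v (algebraMap C K c) = ‖c‖₊
  val : ∀ f : K, f ≠ 0 → ∃ c : C, v f = ‖c‖₊

variable {C} {K : Type*} [Field K] [Algebra C K]

instance instExt (w : Nm C K) : (NormedField.valuation (K := C)).HasExtension w.v where
  val_isEquiv_comap := by
    intro a b
    rw [Valuation.comap_apply, Valuation.comap_apply, w.hC, w.hC]
    rfl

/-- residue field of a norm -/
def kap (w : Nm C K) : Type _ := ResidueField w.v.valuationSubring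

noncomputable instance (w : Nm C K) : Field (kap w) :=
  inferInstanceAs (Field (ResidueField w.v.valuationSubring))

noncomputable instance (w : Nm C K) : Algebra (Ct C) (kap w) :=
  inferInstanceAs (Algebra (ResidueField (NormedField.valuation (K := C)).valuationSubring)
    (ResidueField w.v.valuationSubring))

open Classical in
/-- reduction of a constant -/
noncomputable def rc (c : C) : Ct C :=
  if h : NormedField.valuation c ≤ 1 then
    residue (NormedField.valuation (K := C)).valuationSubring ⟨c, h⟩ else 0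

open Classical in
/-- reduction of a function of norm at most one -/
noncomputable def red (w : Nm C K) (f : K) : kap w :=
  if h : w.v f ≤ 1 then residue w.v.valuationSubring ⟨f, h⟩ else 0

theorem Nm.ext' {w w' : Nm C K} (h : ∀ f, w.v f = w'.v f) : w = w' := by
  cases w; cases w'
  congr
  ext f
  exact_mod_cast congrArg NNReal.toReal (h f)

variable (w : Nm C K)

theorem red_def {f : K} (h : w.v f ≤ 1) : red w f = residue w.v.valuationSubring ⟨f, h⟩ :=
  dif_pos h

theorem red_of_not {f : K} (h : ¬ w.v f ≤ 1) : red w f = 0 :=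
  dif_neg h

theorem red_surj (g : kap w) : ∃ f : K, w.v f ≤ 1 ∧ red w f = g := by
  obtain ⟨f, hf⟩ := residue_surjective (R := w.v.valuationSubring) g
  exact ⟨f.1, f.2, by rw [red_def w f.2, ← hf]⟩

theorem red_zero : red w (0 : K) = 0 := by
  rw [red_def w (by simp)]
  exact map_zero _

theorem red_one : red w (1 : K) = 1 := by
  rw [red_def w (by simp)]
  exact map_one _

theorem red_add {f g : K} (hf : w.v f ≤ 1) (hg : w.v g ≤ 1) :
    red w (f + g) = red w f + red w g := by
  have h : w.v (f + g) ≤ 1 := (w.v.map_add f g).trans (max_le hf hg)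
  rw [red_def w hf, red_def w hg, red_def w h]
  exact (map_add (residue w.v.valuationSubring) ⟨f, hf⟩ ⟨g, hg⟩)

theorem red_neg (f : K) : red w (-f) = -red w f := by
  by_cases hf : w.v f ≤ 1
  · have h : w.v (-f) ≤ 1 := by rwa [Valuation.map_neg]
    rw [red_def w hf, red_def w h]
    exact (map_neg (residue w.v.valuationSubring) ⟨f, hf⟩)
  · have h : ¬ w.v (-f) ≤ 1 := by rwa [Valuation.map_neg]
    rw [red_of_not w hf, red_of_not w h, neg_zero]

theorem red_sub {f g : K} (hf : w.v f ≤ 1) (hg : w.v g ≤ 1) :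
    red w (f - g) = red w f - red w g := by
  rw [sub_eq_add_neg, red_add w hf (by rwa [Valuation.map_neg]), red_neg, sub_eq_add_neg]

theorem red_mul {f g : K} (hf : w.v f ≤ 1) (hg : w.v g ≤ 1) :
    red w (f * g) = red w f * red w g := by
  have h : w.v (f * g) ≤ 1 := by rw [map_mul]; exact mul_le_one' hf hg
  rw [red_def w hf, red_def w hg, red_def w h]
  exact (map_mul (residue w.v.valuationSubring) ⟨f, hf⟩ ⟨g, hg⟩)

theorem red_eq_zero_iff {f : K} (hf : w.v f ≤ 1) : red w f = 0 ↔ w.v f < 1 := by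
  rw [red_def w hf]
  refine (residue_eq_zero_iff _).trans ?_
  exact (Valuation.mem_maximalIdeal_iff (v := w.v) (a := ⟨f, hf⟩))

theorem red_ne_zero_iff {f : K} (hf : w.v f ≤ 1) : red w f ≠ 0 ↔ w.v f = 1 := by
  rw [Ne, red_eq_zero_iff w hf, not_lt]
  exact ⟨fun h => le_antisymm hf h, fun h => h.ge⟩

theorem red_ne_zero {f : K} (hf : w.v f = 1) : red w f ≠ 0 :=
  (red_ne_zero_iff w hf.le).2 hf

theorem red_eq_iff {f g : K} (hf : w.v f ≤ 1) (hg : w.v g ≤ 1) :
    red w f = red w g ↔ w.v (f - g) < 1 := by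
  have h : w.v (f - g) ≤ 1 := (w.v.map_sub f g).trans (max_le hf hg)
  rw [← red_eq_zero_iff w h, red_sub w hf hg, sub_eq_zero]

theorem red_pow {f : K} (hf : w.v f ≤ 1) (n : ℕ) : red w (f ^ n) = red w f ^ n := by
  induction n with
  | zero => rw [pow_zero, pow_zero, red_one]
  | succ n ih =>
    rw [pow_succ, pow_succ, red_mul w (by rw [map_pow]; exact pow_le_one' hf n) hf, ih]

theorem red_inv {f : K} (hf : w.v f = 1) : red w f⁻¹ = (red w f)⁻¹ := by
  have hf0 : f ≠ 0 := by rintro rfl; simp at hf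
  refine eq_inv_of_mul_eq_one_left ?_
  rw [← red_mul w (by rw [map_inv₀, hf, inv_one]) hf.le, inv_mul_cancel₀ hf0, red_one]

theorem rc_def {c : C} (h : ‖c‖₊ ≤ 1) : rc c =
    residue (NormedField.valuation (K := C)).valuationSubring ⟨c, h⟩ :=
  dif_pos h

theorem rc_surj (g : Ct C) : ∃ c : C, ‖c‖₊ ≤ 1 ∧ rc c = g := by
  obtain ⟨f, hf⟩ := residue_surjective (R := (NormedField.valuation (K := C)).valuationSubring) g
  exact ⟨f.1, f.2, by rw [rc_def f.2, ← hf]⟩

theorem rc_eq_zero_iff {c : C} (hc : ‖c‖₊ ≤ 1) : rc c = 0 ↔ ‖c‖₊ < 1 := by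
  rw [rc_def hc]
  refine (residue_eq_zero_iff _).trans ?_
  exact (Valuation.mem_maximalIdeal_iff (v := NormedField.valuation (K := C)) (a := ⟨c, hc⟩))

theorem rc_one : rc (1 : C) = 1 := by
  rw [rc_def (by simp)]
  exact map_one _

theorem rc_zero : rc (0 : C) = 0 := by
  rw [rc_def (by simp)]
  exact map_zero _

theorem rc_add {a b : C} (ha : ‖a‖₊ ≤ 1) (hb : ‖b‖₊ ≤ 1) : rc (a + b) = rc a + rc b := by
  have h : ‖a + b‖₊ ≤ 1 := (NormedField.valuation (K := C)).map_add_le ha hb
  rw [rc_def ha, rc_def hb, rc_def h]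
  exact (map_add (residue (NormedField.valuation (K := C)).valuationSubring) ⟨a, ha⟩ ⟨b, hb⟩)

theorem rc_mul {a b : C} (ha : ‖a‖₊ ≤ 1) (hb : ‖b‖₊ ≤ 1) : rc (a * b) = rc a * rc b := by
  have h : ‖a * b‖₊ ≤ 1 := by rw [nnnorm_mul]; exact mul_le_one' ha hb
  rw [rc_def ha, rc_def hb, rc_def h]
  exact (map_mul (residue (NormedField.valuation (K := C)).valuationSubring) ⟨a, ha⟩ ⟨b, hb⟩)

/-- the reduction of a constant is the constant `rc c` -/
theorem red_C (c : C) (hc : ‖c‖₊ ≤ 1) : red w (algebraMap C K c) = algebraMap (Ct C) (kap w) (rc c) := by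
  rw [red_def w (by rw [w.hC]; exact hc), rc_def hc]
  rfl

/-! ### the order at an end -/

theorem exists_C (f : K) (hf : f ≠ 0) : ∃ c : C, c ≠ 0 ∧ w.v (f * (algebraMap C K c)⁻¹) = 1 := by
  obtain ⟨c, hc⟩ := w.val f hf
  have h1 : w.v f ≠ 0 := (Valuation.ne_zero_iff _).2 hf
  have hc0 : c ≠ 0 := by
    rintro rfl
    rw [nnnorm_zero] at hc
    exact h1 hc
  refine ⟨c, hc0, ?_⟩
  rw [map_mul, map_inv₀, w.hC, ← hc, mul_inv_cancel₀ h1]

/-- a constant with the same norm as `f` -/
noncomputable def lc (f : K) : C := by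
  classical exact if h : f ≠ 0 then (exists_C w f h).choose else 1

theorem lc_spec {f : K} (hf : f ≠ 0) : lc w f ≠ 0 ∧ w.v (f * (algebraMap C K (lc w f))⁻¹) = 1 := by
  unfold lc
  rw [dif_pos hf]
  exact (exists_C w f hf).choose_spec

/-- order of the reduction of `f` (scaled to norm one) at the place `x` of the residue field -/
noncomputable def od (x : Pl (Ct C) (kap w)) (f : K) : ℤ :=
  -log (x.v (red w (f * (algebraMap C K (lc w f))⁻¹)))

variable {w}
variable (x : Pl (Ct C) (kap w))

theorem plv_ne_zero {g : kap w} (hg : g ≠ 0) : x.v g ≠ 0 := (Valuation.ne_zero_iff _).2 hg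

theorem plv_rc {c : C} (hc : ‖c‖₊ = 1) : x.v (red w (algebraMap C K c)) = 1 := by
  rw [red_C w c hc.le]
  apply x.const
  rw [Ne, rc_eq_zero_iff hc.le, hc]
  exact lt_irrefl 1

theorem od_eq_of {f : K} {c : C} (h : w.v (f * (algebraMap C K c)⁻¹) = 1) :
    od w x f = -log (x.v (red w (f * (algebraMap C K c)⁻¹))) := by
  have hf : f ≠ 0 := by
    rintro rfl
    simp at h
  have hc0 : algebraMap C K c ≠ 0 := by
    intro h0
    rw [h0, inv_zero, mul_zero, map_zero] at h
    exact zero_ne_one h
  obtain ⟨hl0, hl⟩ := lc_spec w hf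
  have hl1 : algebraMap C K (lc w f) ≠ 0 := by
    intro h0
    rw [h0, inv_zero, mul_zero, map_zero] at hl
    exact zero_ne_one hl
  have hcc : c ≠ 0 := fun h0 => hc0 (by rw [h0, map_zero])
  set d : C := c * (lc w f)⁻¹ with hd
  have e1 : f * (algebraMap C K (lc w f))⁻¹ = (f * (algebraMap C K c)⁻¹) * algebraMap C K d := by
    rw [hd, map_mul, map_inv₀]
    field_simp
  have hdn : ‖d‖₊ = 1 := by
    have h2 := hl
    rw [e1, map_mul, h, one_mul, w.hC] at h2
    exact h2
  unfold od
  rw [e1, red_mul w h.le (by rw [w.hC]; exact hdn.le), map_mul, plv_rc x hdn, mul_one]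

theorem od_of_one {f : K} (h : w.v f = 1) : od w x f = -log (x.v (red w f)) := by
  have h1 : w.v (f * (algebraMap C K 1)⁻¹) = 1 := by rw [map_one, inv_one, mul_one, h]
  rw [od_eq_of x h1, map_one, inv_one, mul_one]

theorem v_red_of_one {f : K} (h : w.v f = 1) : x.v (red w f) = exp (-od w x f) := by
  rw [od_of_one x h, neg_neg, exp_log (plv_ne_zero x (red_ne_zero w h))]

theorem od_mul {f g : K} (hf : f ≠ 0) (hg : g ≠ 0) : od w x (f * g) = od w x f + od w x g := by
  obtain ⟨c, hc0, hc⟩ := exists_C w f hf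
  obtain ⟨d, hd0, hd⟩ := exists_C w g hg
  have e : (f * g) * (algebraMap C K (c * d))⁻¹ =
      (f * (algebraMap C K c)⁻¹) * (g * (algebraMap C K d)⁻¹) := by
    rw [map_mul, mul_inv]; ring
  rw [od_eq_of x (c := c * d) (f := f * g) (by rw [e, map_mul, hc, hd, mul_one]), e,
    red_mul w hc.le hd.le, map_mul, od_eq_of x hc, od_eq_of x hd,
    log_mul (plv_ne_zero x (red_ne_zero w hc)) (plv_ne_zero x (red_ne_zero w hd)), neg_add]

theorem od_C {c : C} (hc : c ≠ 0) : od w x (algebraMap C K c) = 0 := by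
  have hc1 : algebraMap C K c ≠ 0 := by
    rw [Ne, map_eq_zero]; exact hc
  have e : algebraMap C K c * (algebraMap C K c)⁻¹ = 1 := mul_inv_cancel₀ hc1
  rw [od_eq_of x (c := c) (by rw [e, map_one]), e, red_one, map_one, log_one, neg_zero]

theorem od_one : od w x (1 : K) = 0 := by
  have := od_C x (one_ne_zero (α := C))
  rwa [map_one] at this

theorem od_inv {f : K} (hf : f ≠ 0) : od w x f⁻¹ = -od w x f := by
  have h := od_mul x hf (inv_ne_zero hf)
  rw [mul_inv_cancel₀ hf, od_one] at h
  omega

theorem od_pow {f : K} (hf : f ≠ 0) (n : ℕ) : od w x (f ^ n) = n * od w x f := by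
  induction n with
  | zero => rw [pow_zero, od_one]; simp
  | succ n ih =>
    rw [pow_succ, od_mul x (pow_ne_zero n hf) hf, ih]
    push_cast
    ring

/-- if `g` is smaller than `f`, then `f + g` has the order of `f` -/
theorem od_add_of_lt {f g : K} (h : w.v g < w.v f) : od w x (f + g) = od w x f := by
  have hf : f ≠ 0 := by
    rintro rfl
    rw [map_zero] at h
    exact absurd h (not_lt.2 zero_le')
  obtain ⟨c, hc0, hc⟩ := exists_C w f hf
  have hc1 : algebraMap C K c ≠ 0 := by
    rw [Ne, map_eq_zero]; exact hc0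
  have h0 : w.v (algebraMap C K c)⁻¹ ≠ 0 := (Valuation.ne_zero_iff _).2 (inv_ne_zero hc1)
  have hg1 : w.v (g * (algebraMap C K c)⁻¹) < 1 := by
    rw [← hc, map_mul, map_mul]
    exact mul_lt_mul_of_pos_right h (zero_lt_iff.2 h0)
  have e : (f + g) * (algebraMap C K c)⁻¹ = f * (algebraMap C K c)⁻¹ + g * (algebraMap C K c)⁻¹ := by
    ring
  have hs : w.v ((f + g) * (algebraMap C K c)⁻¹) = 1 := by
    rw [e, Valuation.map_add_eq_of_lt_left (v := w.v) (by rw [hc]; exact hg1), hc]
  rw [od_eq_of x hs, od_eq_of x hc, e, red_add w hc.le hg1.le,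
    (red_eq_zero_iff w hg1.le).2 hg1, add_zero]

/-- ultrametric inequality for the orders -/
theorem od_add_ge {f g : K} (hf : f ≠ 0) (hg : g ≠ 0) (h : w.v f = w.v g)
    (h' : w.v (f + g) = w.v f) : min (od w x f) (od w x g) ≤ od w x (f + g) := by
  obtain ⟨c, hc0, hc⟩ := exists_C w f hf
  have hg1 : w.v (g * (algebraMap C K c)⁻¹) = 1 := by
    rw [map_mul, ← h, ← map_mul, hc]
  have hs : w.v ((f + g) * (algebraMap C K c)⁻¹) = 1 := by
    rw [map_mul, h', ← map_mul, hc]
  have e : (f + g) * (algebraMap C K c)⁻¹ = f * (algebraMap C K c)⁻¹ + g * (algebraMap C K c)⁻¹ := by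
    ring
  have h2 := x.v.map_add (red w (f * (algebraMap C K c)⁻¹)) (red w (g * (algebraMap C K c)⁻¹))
  rw [← red_add w hc.le hg1.le, ← e, v_red_of_one x hs, v_red_of_one x hc, v_red_of_one x hg1] at h2
  have e1 : od w x (f * (algebraMap C K c)⁻¹) = od w x f := by
    rw [← map_inv₀, od_mul x hf (by rw [map_inv₀]; exact inv_ne_zero (by rw [Ne, map_eq_zero]; exact hc0)),
      od_C x (inv_ne_zero hc0), add_zero]
  have e2 : od w x (g * (algebraMap C K c)⁻¹) = od w x g := by
    rw [← map_inv₀, od_mul x hg (by rw [map_inv₀]; exact inv_ne_zero (by rw [Ne, map_eq_zero]; exact hc0)),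
      od_C x (inv_ne_zero hc0), add_zero]
  have hfg : f + g ≠ 0 := by
    rintro h0
    rw [h0, zero_mul, map_zero] at hs
    exact zero_ne_one hs
  have e3 : od w x ((f + g) * (algebraMap C K c)⁻¹) = od w x (f + g) := by
    rw [← map_inv₀, od_mul x hfg (by rw [map_inv₀]; exact inv_ne_zero (by rw [Ne, map_eq_zero]; exact hc0)),
      od_C x (inv_ne_zero hc0), add_zero]
  rw [e1, e2, e3] at h2
  rcases le_max_iff.1 h2 with h3 | h3
  · rw [exp_le_exp] at h3
    exact (min_le_left _ _).trans (by omega)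
  · rw [exp_le_exp] at h3
    exact (min_le_right _ _).trans (by omega)

end basic

/-! ### abstract ends -/

/-- a norm and an order function on a field (`rank two valuation`) -/
structure End2 (C : Type*) [NormedField C] [IsUltrametricDist C] (F : Type*) [Field F]
    [Algebra C F] where
  /-- the norm -/
  nm : Valuation F ℝ≥0
  /-- the order -/
  od : F → ℤ
  hC : ∀ c : C, nm (algebraMap C F c) = ‖c‖₊
  val : ∀ f : F, f ≠ 0 → ∃ c : C, nm f = ‖c‖₊
  od_C : ∀ c : C, c ≠ 0 → od (algebraMap C F c) = 0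
  od_mul : ∀ f g : F, f ≠ 0 → g ≠ 0 → od (f * g) = od f + od g
  od_lt : ∀ f g : F, nm g < nm f → od (f + g) = od f
  od_add : ∀ f g : F, f ≠ 0 → g ≠ 0 → nm f = nm g → nm (f + g) = nm f → min (od f) (od g) ≤ od (f + g)

section End2

variable {C : Type*} [NormedField C] [IsUltrametricDist C] {F : Type*} [Field F] [Algebra C F]

/-- the end attached to a norm and a place of its residue field -/
noncomputable def ofPl (w : Nm C F) (x : Pl (Ct C) (kap w)) : End2 C F where
  nm := w.v
  od := od w x
  hC := w.hC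
  val := w.val
  od_C := fun c hc => Red332.od_C x hc
  od_mul := fun f g hf hg => Red332.od_mul x hf hg
  od_lt := fun f g h => od_add_of_lt x h
  od_add := fun f g hf hg h h' => od_add_ge x hf hg h h'

end End2

end Crest.Agent.R013.Red332
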