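import Mathlib
import Crest.Agent.R013.Red1_332

/-!
# R013 / Red2: abstract ends = norms + places of the residue field (helper332)
-/

set_option autoImplicit false
set_option linter.all false

namespace Crest.Agent.R013.Red332

open scoped NNReal
open WithZero IsLocalRing
open Crest.Agent.R013.RR7_948

namespace End2

variable {C : Type*} [NormedField C] [IsUltrametricDist C] {F : Type*} [Field F] [Algebra C F]
variable (E : End2 C F)

/-- the norm of an end -/
def toNm : Nm C F := ⟨E.nm, E.hC, E.val⟩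

theorem toNm_v : E.toNm.v = E.nm := rfl

theorem od_one : E.od 1 = 0 := by
  have := E.od_C 1 one_ne_zero
  rwa [map_one] at this

theorem od_neg (f : F) : E.od (-f) = E.od f := by
  by_cases hf : f = 0
  · rw [hf, neg_zero]
  · have h := E.od_mul (algebraMap C F (-1)) f (by simp) hf
    rw [E.od_C (-1) (by simp)] at h
    simpa using h

theorem od_inv {f : F} (hf : f ≠ 0) : E.od f⁻¹ = -E.od f := by
  have h := E.od_mul f f⁻¹ hf (inv_ne_zero hf)
  rw [mul_inv_cancel₀ hf, E.od_one] at h
  omega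

theorem od_pow {f : F} (hf : f ≠ 0) (n : ℕ) : E.od (f ^ n) = n * E.od f := by
  induction n with
  | zero => rw [pow_zero, E.od_one]; simp
  | succ n ih =>
    rw [pow_succ, E.od_mul _ _ (pow_ne_zero n hf) hf, ih]
    push_cast
    ring

theorem od_zpow {f : F} (hf : f ≠ 0) (n : ℤ) : E.od (f ^ n) = n * E.od f := by
  cases n with
  | ofNat n => simpa using E.od_pow hf n
  | negSucc n =>
    rw [zpow_negSucc, E.od_inv (pow_ne_zero _ hf), E.od_pow hf]
    push_cast
    simp only [Int.negSucc_eq]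
    ring

theorem od_congr {f g : F} (h : E.nm (f - g) < E.nm f) : E.od g = E.od f := by
  have h1 := E.od_lt f (g - f) (by rwa [Valuation.map_sub_swap])
  rwa [add_sub_cancel] at h1

/-- pull back of an end -/
noncomputable def comap {K : Type*} [Field K] [Algebra C K] (i : K →ₐ[C] F) : End2 C K where
  nm := E.nm.comap (i : K →+* F)
  od := fun f => E.od (i f)
  hC := fun c => by
    rw [Valuation.comap_apply]
    have : (i : K →+* F) (algebraMap C K c) = algebraMap C F c := i.commutes c
    rw [this, E.hC]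
  val := fun f hf => E.val (i f) (by rw [Ne, map_eq_zero]; exact hf)
  od_C := fun c hc => by rw [i.commutes, E.od_C c hc]
  od_mul := fun f g hf hg => by
    rw [map_mul, E.od_mul _ _ (by rw [Ne, map_eq_zero]; exact hf)
      (by rw [Ne, map_eq_zero]; exact hg)]
  od_lt := fun f g h => by
    rw [map_add]
    exact E.od_lt _ _ h
  od_add := fun f g hf hg h h' => by
    rw [map_add]
    refine E.od_add _ _ (by rw [Ne, map_eq_zero]; exact hf) (by rw [Ne, map_eq_zero]; exact hg) h ?_
    rw [← map_add]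
    exact h'

theorem comap_nm {K : Type*} [Field K] [Algebra C K] (i : K →ₐ[C] F) (f : K) :
    (E.comap i).nm f = E.nm (i f) := rfl

theorem comap_od {K : Type*} [Field K] [Algebra C K] (i : K →ₐ[C] F) (f : K) :
    (E.comap i).od f = E.od (i f) := rfl

@[ext] theorem ext' {E E' : End2 C F} (h1 : ∀ f, E.nm f = E'.nm f) (h2 : ∀ f, E.od f = E'.od f) :
    E = E' := by
  cases E; cases E'
  congr
  · ext f
    exact_mod_cast congrArg NNReal.toReal (h1 f)
  · funext f
    exact h2 f

/-! ### the place of the residue field -/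

/-- a lift -/
noncomputable def lift (g : kap E.toNm) : F := (red_surj E.toNm g).choose

theorem lift_le (g : kap E.toNm) : E.nm (E.lift g) ≤ 1 := (red_surj E.toNm g).choose_spec.1

theorem red_lift (g : kap E.toNm) : red E.toNm (E.lift g) = g := (red_surj E.toNm g).choose_spec.2

theorem lift_eq_one {g : kap E.toNm} (hg : g ≠ 0) : E.nm (E.lift g) = 1 :=
  (red_ne_zero_iff E.toNm (E.lift_le g)).1 (by rw [E.red_lift]; exact hg)

theorem ne_zero_of_one {f : F} (h : E.nm f = 1) : f ≠ 0 := by
  rintro rfl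
  rw [map_zero] at h
  exact zero_ne_one h

theorem od_lift {f : F} (h : E.nm f = 1) : E.od (E.lift (red E.toNm f)) = E.od f := by
  have h1 : E.nm (E.lift (red E.toNm f)) = 1 := E.lift_eq_one (red_ne_zero E.toNm h)
  have h2 : red E.toNm (E.lift (red E.toNm f)) = red E.toNm f := E.red_lift _
  have h3 := (red_eq_iff E.toNm (f := E.lift (red E.toNm f)) (g := f) h1.le h.le).1 h2
  exact (E.od_congr (f := E.lift (red E.toNm f)) (g := f) (by rw [h1]; exact h3)).symm

open Classical in
/-- the valuation of the residue field -/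
noncomputable def kv : Valuation (kap E.toNm) ℤᵐ⁰ where
  toFun := fun g => if g = 0 then 0 else exp (-E.od (E.lift g))
  map_zero' := if_pos rfl
  map_one' := by
    rw [if_neg one_ne_zero, ← red_one, E.od_lift (map_one _), E.od_one, neg_zero, exp_zero]
  map_mul' := by
    intro g h
    by_cases hg : g = 0
    · rw [if_pos hg, zero_mul, if_pos (by rw [hg, zero_mul])]
    by_cases hh : h = 0
    · rw [if_pos hh, mul_zero, if_pos (by rw [hh, mul_zero])]
    rw [if_neg hg, if_neg hh, if_neg (mul_ne_zero hg hh), ← exp_add]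
    congr 1
    have h1 := E.lift_eq_one hg
    have h2 := E.lift_eq_one hh
    have h3 : E.nm (E.lift g * E.lift h) = 1 := by rw [map_mul, h1, h2, one_mul]
    have h4 : red E.toNm (E.lift g * E.lift h) = g * h := by
      rw [red_mul E.toNm h1.le h2.le, E.red_lift, E.red_lift]
    have h5 := E.od_lift h3
    rw [h4] at h5
    rw [h5, E.od_mul _ _ (E.ne_zero_of_one h1) (E.ne_zero_of_one h2)]
    ring
  map_add_le_max' := by
    intro g h
    by_cases hg : g = 0
    · rw [if_pos hg, hg, zero_add]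
      exact le_max_right _ _
    by_cases hh : h = 0
    · rw [if_pos hh, hh, add_zero]
      exact le_max_left _ _
    by_cases hgh : g + h = 0
    · rw [if_pos hgh]
      exact zero_le'
    rw [if_neg hg, if_neg hh, if_neg hgh]
    have h1 := E.lift_eq_one hg
    have h2 := E.lift_eq_one hh
    have h4 : red E.toNm (E.lift g + E.lift h) = g + h := by
      rw [red_add E.toNm h1.le h2.le, E.red_lift, E.red_lift]
    have h3 : E.nm (E.lift g + E.lift h) = 1 := by
      refine (red_ne_zero_iff E.toNm (f := E.lift g + E.lift h) ?_).1 (by rw [h4]; exact hgh)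
      exact (E.nm.map_add _ _).trans (max_le h1.le h2.le)
    have h5 := E.od_lift h3
    rw [h4] at h5
    have h6 := E.od_add (E.lift g) (E.lift h) (E.ne_zero_of_one h1) (E.ne_zero_of_one h2)
      (by rw [h1, h2]) (by rw [h3, h1])
    rw [h5]
    rcases min_le_iff.1 h6 with h7 | h7
    · exact le_max_of_le_left (exp_le_exp.2 (neg_le_neg h7))
    · exact le_max_of_le_right (exp_le_exp.2 (neg_le_neg h7))

theorem kv_red {f : F} (h : E.nm f = 1) : E.kv (red E.toNm f) = exp (-E.od f) := by
  refine (if_neg (red_ne_zero E.toNm h)).trans ?_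
  rw [E.od_lift h]

/-- scaling to norm one -/
theorem exists_one {f : F} (hf : f ≠ 0) : ∃ c : C, c ≠ 0 ∧ E.nm (f * (algebraMap C F c)⁻¹) = 1 ∧
    E.od (f * (algebraMap C F c)⁻¹) = E.od f := by
  obtain ⟨c, hc0, hc⟩ := exists_C E.toNm f hf
  refine ⟨c, hc0, hc, ?_⟩
  rw [← map_inv₀, E.od_mul _ _ hf (by rw [Ne, map_eq_zero]; exact inv_ne_zero hc0),
    E.od_C _ (inv_ne_zero hc0), add_zero]

/-- the place of the residue field attached to an end with surjective order function -/
noncomputable def pl (hs : Function.Surjective E.od) : Pl (Ct C) (kap E.toNm) where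
  v := E.kv
  const := by
    intro c hc
    obtain ⟨c', hc', rfl⟩ := rc_surj c
    have h1 : ‖c'‖₊ = 1 := le_antisymm hc' (not_lt.1 (fun h => hc ((rc_eq_zero_iff hc').2 h)))
    have hc0 : c' ≠ 0 := by
      rintro rfl
      rw [nnnorm_zero] at h1
      exact zero_ne_one h1
    rw [← red_C E.toNm c' hc', E.kv_red (by rw [E.hC]; exact h1), E.od_C c' hc0, neg_zero, exp_zero]
  surj := by
    intro γ
    by_cases hγ : γ = 0
    · exact ⟨0, by rw [map_zero, hγ]⟩
    obtain ⟨f, hf⟩ := hs (-log γ)
    have hf0 : f ≠ 0 ∨ f = 0 := ne_or_eq f 0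
    rcases hf0 with hf0 | rfl
    · obtain ⟨c, hc0, h1, h2⟩ := E.exists_one hf0
      exact ⟨red E.toNm (f * (algebraMap C F c)⁻¹), by rw [E.kv_red h1, h2, hf, neg_neg, exp_log hγ]⟩
    · -- the order of `0` is a junk value; use a nonzero element
      obtain ⟨g, hg⟩ := hs (-log γ + 1)
      obtain ⟨t, ht⟩ := hs (-log γ + 2)
      rcases ne_or_eq g 0 with hg0 | rfl
      · rcases ne_or_eq t 0 with ht0 | rfl
        · have h3 : E.od (g * g * t⁻¹) = -log γ := by
            rw [E.od_mul _ _ (mul_ne_zero hg0 hg0) (inv_ne_zero ht0), E.od_mul _ _ hg0 hg0,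
              E.od_inv ht0, hg, ht]
            ring
          obtain ⟨c, hc0, h1, h2⟩ := E.exists_one
            (f := g * g * t⁻¹) (mul_ne_zero (mul_ne_zero hg0 hg0) (inv_ne_zero ht0))
          exact ⟨red E.toNm (g * g * t⁻¹ * (algebraMap C F c)⁻¹),
            by rw [E.kv_red h1, h2, h3, neg_neg, exp_log hγ]⟩
        · rw [hf] at ht
          omega
      · rw [hf] at hg
        omega

theorem od_pl (hs : Function.Surjective E.od) {f : F} (hf : f ≠ 0) :
    Red332.od E.toNm (E.pl hs) f = E.od f := by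
  obtain ⟨c, hc0, h1, h2⟩ := E.exists_one hf
  rw [od_eq_of (E.pl hs) (w := E.toNm) (c := c) h1]
  have h3 : (E.pl hs).v (red E.toNm (f * (algebraMap C F c)⁻¹)) =
    exp (-E.od (f * (algebraMap C F c)⁻¹)) := E.kv_red h1
  rw [h3, log_exp, neg_neg, h2]

/-! ### dividing the order by the positive generator of its image -/

/-- nonzero elements have orders in a subgroup `dℤ` -/
theorem exists_gen (h : ∃ f : F, f ≠ 0 ∧ E.od f ≠ 0) : ∃ d : ℕ, 1 ≤ d ∧
    (∀ f : F, f ≠ 0 → (d : ℤ) ∣ E.od f) ∧ ∃ t : F, t ≠ 0 ∧ E.od t = d := by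
  let H : AddSubgroup ℤ :=
    { carrier := {n | ∃ f : F, f ≠ 0 ∧ E.od f = n}
      zero_mem' := ⟨1, one_ne_zero, E.od_one⟩
      add_mem' := by
        rintro a b ⟨f, hf, rfl⟩ ⟨g, hg, rfl⟩
        exact ⟨f * g, mul_ne_zero hf hg, E.od_mul f g hf hg⟩
      neg_mem' := by
        rintro a ⟨f, hf, rfl⟩
        exact ⟨f⁻¹, inv_ne_zero hf, E.od_inv hf⟩ }
  obtain ⟨d, hd⟩ := Int.subgroup_cyclic H
  rw [← AddSubgroup.zmultiples_eq_closure] at hd
  have h1 : ∀ f : F, f ≠ 0 → d ∣ E.od f := by
    intro f hf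
    have : E.od f ∈ H := ⟨f, hf, rfl⟩
    rw [hd, Int.mem_zmultiples_iff] at this
    exact this
  have hdH : d ∈ H := by rw [hd]; exact AddSubgroup.mem_zmultiples d
  obtain ⟨t, ht0, ht⟩ := hdH
  have hd0 : d ≠ 0 := by
    obtain ⟨f, hf, hf'⟩ := h
    rintro rfl
    exact hf' (zero_dvd_iff.1 (h1 f hf))
  refine ⟨d.natAbs, Int.natAbs_pos.2 hd0, fun f hf => ?_, ?_⟩
  · rw [Int.natCast_natAbs, abs_dvd]
    exact h1 f hf
  · rcases Int.natAbs_eq d with h2 | h2
    · exact ⟨t, ht0, by rw [ht]; exact h2⟩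
    · exact ⟨t⁻¹, inv_ne_zero ht0, by rw [E.od_inv ht0, ht]; omega⟩

/-- the end with order divided by `d` -/
def divOd (d : ℕ) (hd : 1 ≤ d) (h : ∀ f : F, f ≠ 0 → (d : ℤ) ∣ E.od f) : End2 C F where
  nm := E.nm
  od := fun f => E.od f / d
  hC := E.hC
  val := E.val
  od_C := fun c hc => by rw [E.od_C c hc, Int.zero_ediv]
  od_mul := fun f g hf hg => by
    rw [E.od_mul f g hf hg, Int.add_ediv_of_dvd_left (h f hf)]
  od_lt := fun f g hfg => by rw [E.od_lt f g hfg]
  od_add := fun f g hf hg h1 h2 => by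
    have h3 := E.od_add f g hf hg h1 h2
    have hd' : (0 : ℤ) ≤ d := by positivity
    rcases min_le_iff.1 h3 with h4 | h4
    · exact (min_le_left _ _).trans (Int.ediv_le_ediv (by positivity) h4)
    · exact (min_le_right _ _).trans (Int.ediv_le_ediv (by positivity) h4)

end End2

/-- **dictionary**: a non-trivial end is a norm, a place of the residue field and a positive
integer `d` (`= 1` if the orders generate `ℤ`) -/
theorem End2.dict {C : Type*} [NormedField C] [IsUltrametricDist C] {F : Type*} [Field F]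
    [Algebra C F] (E : End2 C F) (h : ∃ f : F, f ≠ 0 ∧ E.od f ≠ 0) :
    ∃ (w : Nm C F) (x : Pl (Ct C) (kap w)) (d : ℕ), 1 ≤ d ∧ w.v = E.nm ∧
      ∀ f : F, f ≠ 0 → E.od f = d * Red332.od w x f := by
  obtain ⟨d, hd, h1, t, ht0, ht⟩ := E.exists_gen h
  have hd0 : (d : ℤ) ≠ 0 := by positivity
  let E' : End2 C F := E.divOd d hd h1
  have ht' : E'.od t = 1 := by
    show E.od t / d = 1
    rw [ht, Int.ediv_self hd0]
  have hs : Function.Surjective E'.od := fun n => ⟨t ^ n, by rw [E'.od_zpow ht0, ht', mul_one]⟩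
  refine ⟨E'.toNm, E'.pl hs, d, hd, rfl, fun f hf => ?_⟩
  rw [E'.od_pl hs hf]
  exact (Int.mul_ediv_cancel' (h1 f hf)).symm

theorem od_surj {C : Type*} [NormedField C] [IsUltrametricDist C] {F : Type*} [Field F]
    [Algebra C F] {w : Nm C F} (x : Pl (Ct C) (kap w)) (n : ℤ) :
    ∃ f : F, w.v f = 1 ∧ od w x f = n := by
  obtain ⟨g, hg⟩ := x.surj (exp (-n))
  obtain ⟨f, hf, rfl⟩ := red_surj w g
  have h0 : red w f ≠ 0 := by
    intro h
    rw [h, map_zero] at hg
    exact exp_ne_zero hg.symm
  have h1 := (red_ne_zero_iff w hf).1 h0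
  refine ⟨f, h1, ?_⟩
  rw [od_of_one x h1, hg, log_exp, neg_neg]

/-- the place is determined by its order function -/
theorem pl_eq_of_od {C : Type*} [NormedField C] [IsUltrametricDist C] {F : Type*} [Field F]
    [Algebra C F] {w : Nm C F} {x y : Pl (Ct C) (kap w)}
    (h : ∀ f : F, w.v f = 1 → od w x f = od w y f) : x = y := by
  ext g
  by_cases hg : g = 0
  · rw [hg, map_zero, map_zero]
  obtain ⟨f, hf, rfl⟩ := red_surj w g
  have h1 := (red_ne_zero_iff w hf).1 hg
  rw [v_red_of_one x h1, v_red_of_one y h1, h f h1]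

end Crest.Agent.R013.Red332
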