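import Mathlib
import Crest.Agent.R013.Red2_332
import Crest.Agent.R013.EE2_809

/-!
# R013 / SSDefs: semistable structures (helper332)

`C` algebraically closed, algebraic over the complete discretely normed field `k`; `K` a function
field over `C` (948's context).  A semistable structure `SSK k C K`:

* finitely many norms `nm v` of `K` (type 2, `Nm C K`, see `Red1_332`) with residue fields
  `kap (nm v)`, which are function fields over the residue field `Ct C`;
* for every direction `d = (v, x)`, `x` a place of `kap (nm v)`, an embedding `em d` of `K` in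
  809's field `EE k C` of two-sided series, compatible with the norm and the order;
* finitely many annuli `e : Ed` (the nodes): two directions `e0 e`, `e1 e` glued by `T ↦ cc e / T`;
* all other directions are open discs: `em d` has values in quotients of bounded series;
* the places of `K` are the points of the cells.
-/

set_option autoImplicit false
set_option linter.all false

namespace Crest.Agent.R013.SSK_332

open scoped NNReal
open WithZero
open Crest.Agent.R013.RR7_948 Crest.Agent.R013.Red332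
open Crest.Agent.R013.EE809

section series

variable {k : Type*} [NontriviallyNormedField k]
variable {C : Type*} [NormedField C] [IsUltrametricDist C] [NormedAlgebra k C]

/-- `a` is a (bounded) series on the open unit disc -/
def InD (a : EE k C) : Prop := ∀ n < 0, a.co n = 0

/-- `a` is a bounded series on the open annulus `|c| < |T| < 1` -/
def InA (c : C) (a : EE k C) : Prop := ∃ M : ℝ, ∀ n : ℤ, ‖a.co n‖ * ‖c‖ ^ n ≤ M

/-- `b` is `a` after the substitution `T ↦ c / T` -/
def Flip (c : C) (a b : EE k C) : Prop := ∀ n : ℤ, b.co n = a.co (-n) * c ^ (-n)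

/-- the value of `a` at `t` -/
noncomputable def evE (t : C) (a : EE k C) : C := ∑' n : ℤ, a.co n * t ^ n

/-- the element `T - τ` -/
noncomputable def lin [Algebra.IsAlgebraic k C] (τ : C) : EE k C :=
  mono 1 1 (finDef_const (k := k) 1) - mono 0 τ (finDef_const (k := k) τ)

end series

/-- a semistable structure on `K` -/
structure SSK (k C K : Type*) [NontriviallyNormedField k] [CompleteSpace k]
    [NormedField C] [IsUltrametricDist C] [NormedAlgebra k C] [Algebra.IsAlgebraic k C]
    [Field K] [Algebra C K] where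
  /-- vertices -/
  V : Type
  fV : Fintype V
  /-- the norm of a vertex -/
  nm : V → Nm C K
  nm_inj : Function.Injective nm
  /-- the residue field of a vertex is a function field of one variable over `Ct C` -/
  ff : ∀ v, ∃ i : Algebra (RatFunc (Ct C)) (kap (nm v)),
    IsScalarTower (Ct C) (RatFunc (Ct C)) (kap (nm v)) ∧
    FiniteDimensional (RatFunc (Ct C)) (kap (nm v)) ∧
    Algebra.IsSeparable (RatFunc (Ct C)) (kap (nm v))
  /-- the embedding at a direction -/
  em : (Σ v, Pl (Ct C) (kap (nm v))) → K →+* EE k C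
  em_C : ∀ d (c : C) (n : ℤ), (em d (algebraMap C K c)).co n = if n = 0 then c else 0
  em_gn : ∀ d f, gn (em d f) = (nm d.1).v f
  em_od : ∀ d f, f ≠ 0 → EE809.od (em d f) = Red332.od (nm d.1) d.2 f
  /-- edges = annuli = nodes -/
  Ed : Type
  fEd : Fintype Ed
  e0 : Ed → (Σ v, Pl (Ct C) (kap (nm v)))
  e1 : Ed → (Σ v, Pl (Ct C) (kap (nm v)))
  ends_inj : Function.Injective (Sum.elim e0 e1)
  /-- the annulus of `e` is `|cc e| < |T| < 1` -/
  cc : Ed → C
  cc_ne : ∀ e, cc e ≠ 0
  cc_lt : ∀ e, ‖cc e‖ < 1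
  /-- annuli: on both ends `f = g / h` with `g, h` bounded on the annulus -/
  ann : ∀ e f, ∃ g h g' h' : EE k C, h ≠ 0 ∧ InA (cc e) g ∧ InA (cc e) h ∧
    Flip (cc e) g g' ∧ Flip (cc e) h h' ∧ em (e0 e) f * h = g ∧ em (e1 e) f * h' = g'
  /-- discs: the directions which are no ends of annuli -/
  disc : ∀ d, (∀ e, d ≠ e0 e) → (∀ e, d ≠ e1 e) →
    ∀ f, ∃ g h : EE k C, h ≠ 0 ∧ InD g ∧ InD h ∧ em d f * h = g
  /-- the place at the point `τ` of the disc `d` -/
  ptD : ∀ d, (∀ e, d ≠ e0 e) → (∀ e, d ≠ e1 e) → ∀ τ : C, ‖τ‖ < 1 → Pl C K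
  /-- the place at the point `τ` of the annulus `e` -/
  ptA : ∀ e, ∀ τ : C, ‖cc e‖ < ‖τ‖ → ‖τ‖ < 1 → Pl C K
  ptD_ord : ∀ d h0 h1 τ hτ (f : K), f ≠ 0 → ∃ (a b : ℕ) (g h : EE k C), InD g ∧ InD h ∧
    evE τ g ≠ 0 ∧ evE τ h ≠ 0 ∧ em d f * (lin τ ^ b * h) = lin τ ^ a * g ∧
    (ptD d h0 h1 τ hτ).v f = exp ((b : ℤ) - a)
  ptA_ord : ∀ e τ h0 h1 (f : K), f ≠ 0 → ∃ (a b : ℕ) (g h : EE k C), InA (cc e) g ∧ InA (cc e) h ∧
    evE τ g ≠ 0 ∧ evE τ h ≠ 0 ∧ em (e0 e) f * (lin τ ^ b * h) = lin τ ^ a * g ∧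
    (ptA e τ h0 h1).v f = exp ((b : ℤ) - a)
  /-- every place is the point of a cell -/
  pt_surj : ∀ P : Pl C K, (∃ d h0 h1 τ hτ, P = ptD d h0 h1 τ hτ) ∨ ∃ e τ h0 h1, P = ptA e τ h0 h1
  /-- different points are different places -/
  ptD_inj : ∀ d h0 h1 τ hτ d' h0' h1' τ' hτ', ptD d h0 h1 τ hτ = ptD d' h0' h1' τ' hτ' →
    d = d' ∧ τ = τ'
  ptA_inj : ∀ e τ h0 h1 e' τ' h0' h1', ptA e τ h0 h1 = ptA e' τ' h0' h1' → e = e' ∧ τ = τ'
  ptDA : ∀ d h0 h1 τ hτ e τ' h0' h1', ptD d h0 h1 τ hτ ≠ ptA e τ' h0' h1'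

namespace SSK

variable {k C K : Type*} [NontriviallyNormedField k] [CompleteSpace k]
    [NormedField C] [IsUltrametricDist C] [NormedAlgebra k C] [Algebra.IsAlgebraic k C]
    [Field K] [Algebra C K] (S : SSK k C K)

/-- directions = (vertex, place of its residue field) -/
abbrev Dir : Type _ := Σ v, Pl (Ct C) (kap (S.nm v))

/-- the direction is an open disc -/
def IsDisc (d : S.Dir) : Prop := (∀ e, d ≠ S.e0 e) ∧ ∀ e, d ≠ S.e1 e

/-- adjacency of vertices -/
def Adj (v w : S.V) : Prop := ∃ e, ((S.e0 e).1 = v ∧ (S.e1 e).1 = w) ∨ ((S.e1 e).1 = v ∧ (S.e0 e).1 = w)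

/-- the graph is connected -/
def Conn : Prop := Nonempty S.V ∧ ∀ v w : S.V, Relation.ReflTransGen S.Adj v w

/-- all vertices are exactly the norms over a finite set `B` of norms of `C(x)` -/
def Base [Algebra (RatFunc C) K] (B : Set (Valuation (RatFunc C) ℝ≥0)) : Prop :=
  B.Finite ∧ ∀ w : Valuation K ℝ≥0, (∃ v, (S.nm v).v = w) ↔ w.comap (algebraMap (RatFunc C) K) ∈ B

end SSK

end Crest.Agent.R013.SSK_332
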