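import Mathlib
import Crest.Agent.R013.EE4_809
import Crest.Agent.R013.SSDefs_332

/-!
# R013 / RedD1: the derivation `d/dT` on the two-sided series (helper310)
-/

set_option autoImplicit false
set_option linter.all false

namespace Crest.Agent.R013.RedD_310

open Filter Topology
open Crest.Agent.R013.Cell_408 (FinDef DiscNorm)
open Crest.Agent.R013.EE809 Crest.Agent.R013.SSK_332

variable {k : Type*} [NontriviallyNormedField k] [CompleteSpace k]
variable {C : Type*} [NormedField C] [IsUltrametricDist C] [NormedAlgebra k C]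

theorem norm_int_le (n : ℤ) : ‖(n : C)‖ ≤ 1 := IsUltrametricDist.norm_intCast_le_one C n

/-- the formal derivative of a two-sided series -/
noncomputable def dFun (a : EE k C) : EE k C :=
  mk' (fun n => ((n + 1 : ℤ) : C) * a.co (n + 1))
    (by
      obtain ⟨L, hL, h⟩ := a.fd
      exact ⟨L, hL, fun i => mul_mem (intCast_mem L _) (h _)⟩)
    (by
      obtain ⟨M, hM⟩ := a.bd
      refine ⟨M, fun n => ?_⟩
      rw [norm_mul]
      calc _ ≤ 1 * ‖a.co (n + 1)‖ := mul_le_mul_of_nonneg_right (norm_int_le _) (norm_nonneg _)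
        _ ≤ M := by rw [one_mul]; exact hM _)
    (by
      have h1 : Tendsto (fun n : ℤ => a.co (n + 1)) atBot (𝓝 0) :=
        a.lim.comp (tendsto_atBot_add_const_right _ 1 tendsto_id)
      refine squeeze_zero_norm (fun n => ?_) (tendsto_zero_iff_norm_tendsto_zero.1 h1)
      rw [norm_mul]
      calc _ ≤ 1 * ‖a.co (n + 1)‖ := mul_le_mul_of_nonneg_right (norm_int_le _) (norm_nonneg _)
        _ = _ := one_mul _)

theorem co_dFun (a : EE k C) (n : ℤ) : (dFun a).co n = ((n + 1 : ℤ) : C) * a.co (n + 1) := rfl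

theorem dFun_add (a b : EE k C) : dFun (a + b) = dFun a + dFun b := by
  ext n; rw [co_add, co_dFun, co_dFun, co_dFun, co_add, mul_add]

theorem dFun_mul (a b : EE k C) : dFun (a * b) = a * dFun b + b * dFun a := by
  ext n
  have e1 : (a * dFun b).co n = ∑' i, a.co i * (((n + 1 - i : ℤ) : C) * b.co (n + 1 - i)) := by
    rw [co_mul]
    refine tsum_congr fun i => ?_
    rw [co_dFun]
    have : n - i + 1 = n + 1 - i := by ring
    rw [this]
  have e2 : (b * dFun a).co n = ∑' i, ((i : ℤ) : C) * a.co i * b.co (n + 1 - i) := by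
    rw [mul_comm, co_mul]
    rw [← (Equiv.subRight (1 : ℤ)).tsum_eq]
    refine tsum_congr fun i => ?_
    rw [Equiv.subRight_apply, co_dFun]
    have h1 : i - 1 + 1 = i := by ring
    have h2 : n - (i - 1) = n + 1 - i := by ring
    rw [h1, h2]
  have s1 : Summable fun i => a.co i * (((n + 1 - i : ℤ) : C) * b.co (n + 1 - i)) := by
    have := summable_conv a (dFun b) n
    refine this.congr fun i => ?_
    rw [co_dFun]
    have : n - i + 1 = n + 1 - i := by ring
    rw [this]
  have s2 : Summable fun i => ((i : ℤ) : C) * a.co i * b.co (n + 1 - i) := by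
    have := summable_conv (dFun a) b n
    rw [← (Equiv.subRight (1 : ℤ)).summable_iff] at this
    refine this.congr fun i => ?_
    rw [Function.comp_apply, Equiv.subRight_apply, co_dFun]
    have h1 : i - 1 + 1 = i := by ring
    have h2 : n - (i - 1) = n + 1 - i := by ring
    rw [h1, h2]
  rw [co_add, e1, e2, ← s1.tsum_add s2, co_dFun, co_mul,
    ← (summable_conv a b (n + 1)).tsum_mul_left]
  refine tsum_congr fun i => ?_
  push_cast
  ring

theorem dFun_neg (a : EE k C) : dFun (-a) = -dFun a := by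
  ext n; rw [co_neg, co_dFun, co_dFun, co_neg, mul_neg]

theorem dFun_sub (a b : EE k C) : dFun (a - b) = dFun a - dFun b := by
  rw [sub_eq_add_neg, dFun_add, dFun_neg, ← sub_eq_add_neg]

theorem dFun_zero : dFun (0 : EE k C) = 0 := by
  ext n; rw [co_dFun, co_zero, mul_zero, co_zero]

theorem gn_dFun_le (a : EE k C) : gn (dFun a) ≤ gn a := by
  refine gn_le fun n => ?_
  rw [co_dFun, norm_mul]
  calc _ ≤ 1 * ‖a.co (n + 1)‖ := mul_le_mul_of_nonneg_right (norm_int_le _) (norm_nonneg _)
    _ ≤ gn a := by rw [one_mul]; exact le_gn a _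

section Alg

variable [Algebra.IsAlgebraic k C]

theorem dFun_smul (c : C) (a : EE k C) : dFun (c • a) = c • dFun a := by
  ext n; rw [co_smul, co_dFun, co_dFun, co_smul]; ring

variable (k C) in
/-- **`d/dT`** on the two-sided series -/
noncomputable def dT : Derivation C (EE k C) (EE k C) :=
  Derivation.mk' ({ toFun := dFun, map_add' := dFun_add, map_smul' := fun c a => dFun_smul c a } :
    EE k C →ₗ[C] EE k C) (fun a b => by
      show dFun (a * b) = a • dFun b + b • dFun a
      rw [dFun_mul]; rfl)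

theorem dT_apply (a : EE k C) : dT k C a = dFun a := rfl

theorem co_dT (a : EE k C) (n : ℤ) : (dT k C a).co n = ((n + 1 : ℤ) : C) * a.co (n + 1) := rfl

theorem dT_mul (a b : EE k C) : dT k C (a * b) = a * dT k C b + b * dT k C a := dFun_mul a b

theorem gn_dT_le (a : EE k C) : gn (dT k C a) ≤ gn a := gn_dFun_le a

theorem dT_T (n : ℤ) : dT k C (T n) = mo (n - 1) ((n : ℤ) : C) := by
  ext m
  rw [co_dT, T, co_mo, co_mo]
  by_cases h : m = n - 1
  · rw [if_pos h, if_pos (by omega), h]; simp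
  · rw [if_neg h, if_neg (by omega), mul_zero]

/-- no residue -/
theorem co_dT_neg_one (a : EE k C) : (dT k C a).co (-1) = 0 := by
  rw [co_dT]; simp

end Alg

/-! ### discs and annuli -/

theorem inD_dFun {a : EE k C} (h : InD a) : InD (dFun a) := by
  intro n hn
  rw [co_dFun]
  rcases lt_or_eq_of_le (show n + 1 ≤ 0 by omega) with h1 | h1
  · rw [h _ h1, mul_zero]
  · rw [h1, Int.cast_zero, zero_mul]

theorem inA_dFun {c : C} {a : EE k C} (hc : c ≠ 0) (h : InA c a) : InA c (dFun a) := by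
  obtain ⟨M, hM⟩ := h
  have hc' : 0 < ‖c‖ := norm_pos_iff.2 hc
  refine ⟨M * ‖c‖⁻¹, fun n => ?_⟩
  rw [co_dFun, norm_mul]
  have h1 := hM (n + 1)
  rw [zpow_add₀ hc'.ne', zpow_one, ← mul_assoc] at h1
  calc ‖((n + 1 : ℤ) : C)‖ * ‖a.co (n + 1)‖ * ‖c‖ ^ n
      ≤ 1 * ‖a.co (n + 1)‖ * ‖c‖ ^ n := by
        gcongr
        exact norm_int_le _
    _ = ‖a.co (n + 1)‖ * ‖c‖ ^ n * ‖c‖ * ‖c‖⁻¹ := by field_simp
    _ ≤ M * ‖c‖⁻¹ := by gcongr

end Crest.Agent.R013.RedD_310
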