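import Mathlib
import Crest.Agent.R013.RedD1_310
import Crest.Agent.R013.Car5_700
import Crest.Agent.R013.GR2_921

/-!
# R013 / RedD2: norm, reduction and order of a differential at ONE direction (helper310)

`w : Nm C K` a norm with residue field `kap w` in 948's context over `Ct C`, `x` a place of `kap w`,
`em : K →+* EE k C` an embedding compatible with `w` and `x`.
-/

set_option autoImplicit false
set_option linter.all false

namespace Crest.Agent.R013.RedD_310

open WithZero
open scoped NNReal
open Crest.Agent.R013.Cell_408 (FinDef DiscNorm)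
open Crest.Agent.R013.EE809 Crest.Agent.R013.SSK_332
open Crest.Agent.R013.RR7_948 Crest.Agent.R013.RR8_948 Crest.Agent.R013.RR11_948
open Crest.Agent.R013.RR14_948 Crest.Agent.R013.RR15_948
open Crest.Agent.R013.Red332 hiding od

/-! ### uniqueness of derivations -/

section Der

variable {k : Type*} [Field k] {K : Type*} [Field K] [Algebra k K]
  [Algebra (RatFunc k) K] [IsScalarTower k (RatFunc k) K] [Algebra.IsSeparable (RatFunc k) K]

theorem der_eq {M : Type*} [AddCommGroup M] [Module k M] [Module K M] [IsScalarTower k K M]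
    (d : Derivation k K M) (f : K) : d f = del k K f • d (RR8_948.xK k K) := by
  rw [← d.liftKaehlerDifferential_comp_D f, D_eq, map_smul, d.liftKaehlerDifferential_comp_D]

end Der

/-! ### the reduction of a bounded derivation -/

section RedDer

variable {C : Type*} [NormedField C] [IsUltrametricDist C] {K : Type*} [Field K] [Algebra C K]
  (w : Nm C K)

/-- the reduction of a derivation `D` with `|D f| ≤ |f|` -/
theorem exists_redDer (D : Derivation C K K) (hD : ∀ f, w.v (D f) ≤ w.v f) :
    ∃ δ : Derivation (Ct C) (kap w) (kap w), ∀ f, w.v f ≤ 1 → δ (red w f) = red w (D f) := by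
  classical
  have hD1 : ∀ f, w.v f ≤ 1 → w.v (D f) ≤ 1 := fun f hf => (hD f).trans hf
  let L : kap w → K := fun g => (red_surj w g).choose
  have hL : ∀ g, w.v (L g) ≤ 1 := fun g => (red_surj w g).choose_spec.1
  have hL' : ∀ g, red w (L g) = g := fun g => (red_surj w g).choose_spec.2
  let δ0 : kap w → kap w := fun g => red w (D (L g))
  have key : ∀ f, w.v f ≤ 1 → δ0 (red w f) = red w (D f) := by
    intro f hf
    show red w (D (L (red w f))) = red w (D f)
    rw [red_eq_iff w (hD1 _ (hL _)) (hD1 _ hf), ← map_sub]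
    refine (hD _).trans_lt ?_
    rw [← red_eq_iff w (hL _) hf, hL']
  have hadd : ∀ g h, δ0 (g + h) = δ0 g + δ0 h := by
    intro g h
    have h1 : g + h = red w (L g + L h) := by rw [red_add w (hL g) (hL h), hL', hL']
    have h2 : w.v (L g + L h) ≤ 1 := (w.v.map_add _ _).trans (max_le (hL g) (hL h))
    rw [h1, key _ h2, map_add, red_add w (hD1 _ (hL g)) (hD1 _ (hL h))]
  have hmul : ∀ g h, δ0 (g * h) = g * δ0 h + h * δ0 g := by
    intro g h
    have h1 : g * h = red w (L g * L h) := by rw [red_mul w (hL g) (hL h), hL', hL']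
    have h2 : w.v (L g * L h) ≤ 1 := by rw [map_mul]; exact mul_le_one' (hL g) (hL h)
    have h3 : w.v (L g * D (L h)) ≤ 1 := by rw [map_mul]; exact mul_le_one' (hL g) (hD1 _ (hL h))
    have h4 : w.v (L h * D (L g)) ≤ 1 := by rw [map_mul]; exact mul_le_one' (hL h) (hD1 _ (hL g))
    rw [h1, key _ h2, Derivation.leibniz, smul_eq_mul, smul_eq_mul, red_add w h3 h4,
      red_mul w (hL g) (hD1 _ (hL h)), red_mul w (hL h) (hD1 _ (hL g)), hL', hL']
  have hC : ∀ c : Ct C, δ0 (algebraMap (Ct C) (kap w) c) = 0 := by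
    intro c
    obtain ⟨c', hc', rfl⟩ := rc_surj c
    rw [← red_C w c' hc', key _ (by rw [w.hC]; exact hc'), Derivation.map_algebraMap, red_zero]
  refine ⟨Derivation.mk' { toFun := δ0, map_add' := hadd, map_smul' := ?_ } ?_, ?_⟩
  · intro c g
    show δ0 (c • g) = c • δ0 g
    rw [Algebra.smul_def, hmul, hC, mul_zero, add_zero, Algebra.smul_def]
  · intro g h
    show δ0 (g * h) = g • δ0 h + h • δ0 g
    rw [hmul]; rfl
  · intro f hf
    exact key f hf

end RedDer

/-! ### one direction -/

section Dir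

variable {k : Type*} [NontriviallyNormedField k] [CompleteSpace k] [IsUltrametricDist k]
variable {C : Type*} [NormedField C] [IsUltrametricDist C] [NormedAlgebra k C]
  [Algebra.IsAlgebraic k C] [IsAlgClosed C] [hk : Fact (DiscNorm k)]
variable {K : Type*} [Field K] [Algebra C K] [Algebra (RatFunc C) K]
  [IsScalarTower C (RatFunc C) K] [Algebra.IsSeparable (RatFunc C) K]

/-- the expansion of `g dX` along an embedding: `g dX = (ex em g) dT` -/
noncomputable def ex (em : K →+* EE k C) (g : K) : EE k C := em g * dT k C (em (RR8_948.xK C K))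

theorem ex_mul (em : K →+* EE k C) (f g : K) : ex em (f * g) = em f * ex em g := by
  rw [ex, ex, map_mul, mul_assoc]

theorem ex_add (em : K →+* EE k C) (f g : K) : ex em (f + g) = ex em f + ex em g := by
  rw [ex, ex, ex, map_add, add_mul]

theorem ex_zero (em : K →+* EE k C) : ex em (0 : K) = 0 := by rw [ex, map_zero, zero_mul]

theorem ex_neg (em : K →+* EE k C) (f : K) : ex em (-f) = -ex em f := by
  rw [ex, ex, map_neg, neg_mul]

theorem ex_sub (em : K →+* EE k C) (f g : K) : ex em (f - g) = ex em f - ex em g := by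
  rw [sub_eq_add_neg, ex_add, ex_neg, ← sub_eq_add_neg]

/-- `d f` expands to the derivative of the expansion of `f` -/
theorem ex_del (em : K →+* EE k C)
    (hC : ∀ (c : C) (n : ℤ), (em (algebraMap C K c)).co n = if n = 0 then c else 0) (f : K) :
    ex em (del C K f) = dT k C (em f) := by
  letI : Module K (EE k C) := Module.compHom _ em
  have hsm : ∀ (f : K) (a : EE k C), f • a = em f * a := fun _ _ => rfl
  have hC' : ∀ c : C, em (algebraMap C K c) = algebraMap C (EE k C) c := by
    intro c
    ext n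
    rw [hC, co_algebraMap]
  haveI : IsScalarTower C K (EE k C) := ⟨fun c f a => by
    rw [hsm, hsm, Algebra.smul_def, map_mul, hC', Algebra.smul_def, mul_assoc]⟩
  let d : Derivation C K (EE k C) := Derivation.mk'
    { toFun := fun f => dT k C (em f)
      map_add' := fun f g => by rw [map_add, map_add]
      map_smul' := fun c f => by
        rw [RingHom.id_apply, Algebra.smul_def, map_mul, hC', ← Algebra.smul_def]
        exact (dT k C).map_smul c (em f) }
    (fun f g => by
      show dT k C (em (f * g)) = f • dT k C (em g) + g • dT k C (em f)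
      rw [map_mul, dT_mul, hsm, hsm])
  have h := der_eq d f
  rw [hsm] at h
  exact h.symm

variable (w : Nm C K) {em : K →+* EE k C}
  (hC : ∀ (c : C) (n : ℤ), (em (algebraMap C K c)).co n = if n = 0 then c else 0)
  (hgn : ∀ f, gn (em f) = w.v f)

include hC hgn

theorem gn_ex_mul (f g : K) : gn (ex em (f * g)) = w.v f * gn (ex em g) := by
  rw [ex_mul, gn_mul hk.out, hgn]

theorem gn_ex_div (f : K) {t : K} (ht : t ≠ 0) :
    gn (ex em f) = w.v (f / t) * gn (ex em t) := by
  rw [← gn_ex_mul w hC hgn, div_mul_cancel₀ _ ht]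

theorem del_ne_zero_of {t : K} (ht : gn (dT k C (em t)) = 1) : del C K t ≠ 0 := by
  intro h0
  rw [← ex_del em hC, h0, ex_zero, gn_zero] at ht
  exact zero_ne_one ht

/-- norm of `df/dt` -/
theorem v_del_div {t : K} (ht : gn (dT k C (em t)) = 1) (f : K) :
    ((w.v (f / del C K t) : ℝ≥0) : ℝ) = gn (ex em f) := by
  rw [gn_ex_div w hC hgn f (del_ne_zero_of w hC hgn ht), ex_del em hC, ht, mul_one]

theorem v_del_div_le {t : K} (ht : gn (dT k C (em t)) = 1) (f : K) :
    w.v (del C K f / del C K t) ≤ w.v f := by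
  have h1 := v_del_div w hC hgn ht (del C K f)
  rw [ex_del em hC] at h1
  have h2 := gn_dT_le (em f)
  rw [← h1, hgn] at h2
  exact_mod_cast h2

/-- reduction of the derivation `d/dt` -/
theorem exists_redDer_of {t : K} (ht : gn (dT k C (em t)) = 1) :
    ∃ δ : Derivation (Ct C) (kap w) (kap w), ∀ f, w.v f ≤ 1 →
      δ (red w f) = red w (del C K f / del C K t) := by
  obtain ⟨δ, hδ⟩ := exists_redDer w ((del C K t)⁻¹ • del C K) (fun f => by
    rw [Derivation.smul_apply, smul_eq_mul, mul_comm, ← div_eq_mul_inv]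
    exact v_del_div_le w hC hgn ht f)
  refine ⟨δ, fun f hf => ?_⟩
  rw [hδ f hf, Derivation.smul_apply, smul_eq_mul, mul_comm, ← div_eq_mul_inv]

end Dir

section DirX

variable {k : Type*} [NontriviallyNormedField k] [CompleteSpace k] [IsUltrametricDist k]
variable {C : Type*} [NormedField C] [IsUltrametricDist C] [NormedAlgebra k C]
  [Algebra.IsAlgebraic k C] [IsAlgClosed C] [hk : Fact (DiscNorm k)]
variable {K : Type*} [Field K] [Algebra C K] [Algebra (RatFunc C) K]
  [IsScalarTower C (RatFunc C) K] [Algebra.IsSeparable (RatFunc C) K]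
variable {w : Nm C K} (x : Pl (Ct C) (kap w)) {em : K →+* EE k C}
  (hC : ∀ (c : C) (n : ℤ), (em (algebraMap C K c)).co n = if n = 0 then c else 0)
  (hgn : ∀ f, gn (em f) = w.v f)
  (hod : ∀ f, f ≠ 0 → EE809.od (em f) = Red332.od w x f)

include hC hgn hod

/-- a function `t` with reduction a uniformizer at `x` has `|dt| = 1`, order `0` -/
theorem gn_dT_uniformizer {t : K} (ht : w.v t = 1) (ht' : x.v (red w t) = exp (-1)) :
    gn (dT k C (em t)) = 1 ∧ EE809.od (dT k C (em t)) = 0 := by
  have ht0 : t ≠ 0 := by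
    rintro rfl
    rw [map_zero] at ht
    exact zero_ne_one ht
  have h1 : gn (em t) = 1 := by rw [hgn, ht]; rfl
  have h2 : EE809.od (em t) = 1 := by
    rw [hod t ht0, od_of_one x ht, ht', log_exp, neg_neg]
  have he0 : em t ≠ 0 := (map_ne_zero em).2 ht0
  have h3 : ‖(em t).co 1‖ = 1 := by
    have := norm_co_od hk.out he0
    rw [h2, h1] at this
    exact this
  have h4 : ‖(dT k C (em t)).co 0‖ = 1 := by
    rw [co_dT]; simpa using h3
  have h5 : gn (dT k C (em t)) = 1 := by
    refine le_antisymm ((gn_dT_le _).trans h1.le) ?_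
    rw [← h4]
    exact le_gn _ _
  refine ⟨h5, EE809.od_eq_of (by rw [h4, h5]) fun m hm => ?_⟩
  rw [h5, co_dT, norm_mul]
  have h6 : ‖(em t).co (m + 1)‖ < 1 := by
    have := norm_lt_of_lt_od (k := k) (a := em t) he0 (n := m + 1) (by rw [h2]; omega)
    rwa [h1] at this
  calc ‖((m + 1 : ℤ) : C)‖ * ‖(em t).co (m + 1)‖ ≤ 1 * ‖(em t).co (m + 1)‖ :=
        mul_le_mul_of_nonneg_right (norm_int_le _) (norm_nonneg _)
    _ < 1 := by rwa [one_mul]

variable [Algebra (RatFunc (Ct C)) (kap w)] [IsScalarTower (Ct C) (RatFunc (Ct C)) (kap w)]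
  [FiniteDimensional (RatFunc (Ct C)) (kap w)] [Algebra.IsSeparable (RatFunc (Ct C)) (kap w)]

/-- a lift of the separating element of the residue field has `|dT0| = 1` -/
theorem gn_dT_lift {T0 : K} (hT : w.v T0 ≤ 1) (hT' : red w T0 = RR8_948.xK (Ct C) (kap w)) :
    gn (dT k C (em T0)) = 1 := by
  obtain ⟨s, hs⟩ := x.surj (exp (-1))
  obtain ⟨t, ht, rfl⟩ := red_surj w s
  have ht1 : w.v t = 1 := by
    rw [← red_ne_zero_iff w ht]
    intro h0
    rw [h0, map_zero] at hs
    exact exp_ne_zero hs.symm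
  obtain ⟨h1, h2⟩ := gn_dT_uniformizer x hC hgn hod ht1 hs
  obtain ⟨δ, hδ⟩ := exists_redDer_of w hC hgn h1
  have hdt : del C K t ≠ 0 := del_ne_zero_of w hC hgn h1
  have h3 : δ (red w t) = 1 := by rw [hδ t ht, div_self hdt, red_one]
  rw [der_eq δ, smul_eq_mul] at h3
  have h4 : δ (RR8_948.xK (Ct C) (kap w)) ≠ 0 := by
    intro h0
    rw [h0, mul_zero] at h3
    exact zero_ne_one h3
  rw [← hT', hδ T0 hT, red_ne_zero_iff w ((v_del_div_le w hC hgn h1 T0).trans hT)] at h4
  have h5 := v_del_div w hC hgn h1 (del C K T0)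
  rw [h4, ex_del em hC] at h5
  exact h5.symm

end DirX

/-! ### all directions at a vertex -/

section Vertex

variable {k : Type*} [NontriviallyNormedField k] [CompleteSpace k] [IsUltrametricDist k]
variable {C : Type*} [NormedField C] [IsUltrametricDist C] [NormedAlgebra k C]
  [Algebra.IsAlgebraic k C] [IsAlgClosed C] [hk : Fact (DiscNorm k)]
variable {K : Type*} [Field K] [Algebra C K] [Algebra (RatFunc C) K]
  [IsScalarTower C (RatFunc C) K] [Algebra.IsSeparable (RatFunc C) K]
variable {w : Nm C K}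
variable [Algebra (RatFunc (Ct C)) (kap w)] [IsScalarTower (Ct C) (RatFunc (Ct C)) (kap w)]
  [FiniteDimensional (RatFunc (Ct C)) (kap w)] [Algebra.IsSeparable (RatFunc (Ct C)) (kap w)]
variable {T0 : K} (hT : w.v T0 ≤ 1) (hT' : red w T0 = RR8_948.xK (Ct C) (kap w))

variable (x : Pl (Ct C) (kap w)) {em : K →+* EE k C}
  (hC : ∀ (c : C) (n : ℤ), (em (algebraMap C K c)).co n = if n = 0 then c else 0)
  (hgn : ∀ f, gn (em f) = w.v f)
  (hod : ∀ f, f ≠ 0 → EE809.od (em f) = Red332.od w x f)

include hT hT' hC hgn hod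

theorem del_lift_ne_zero : del C K T0 ≠ 0 :=
  del_ne_zero_of w hC hgn (gn_dT_lift x hC hgn hod hT hT')

/-- **norm of a differential**: `|g dX|_w = |g / (dT0/dX)|_w` is the norm of the expansion at every
direction -/
theorem nd_eq (g : K) : ((w.v (g / del C K T0) : ℝ≥0) : ℝ) = gn (ex em g) :=
  v_del_div w hC hgn (gn_dT_lift x hC hgn hod hT hT') g

theorem v_del_lift_le (f : K) : w.v (del C K f / del C K T0) ≤ w.v f :=
  v_del_div_le w hC hgn (gn_dT_lift x hC hgn hod hT hT') f

/-- **reduction of `df` is `d` of the reduction** -/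
theorem red_del {f : K} (hf : w.v f ≤ 1) :
    red w (del C K f / del C K T0) = del (Ct C) (kap w) (red w f) := by
  obtain ⟨δ, hδ⟩ := exists_redDer_of w hC hgn (gn_dT_lift x hC hgn hod hT hT')
  have h1 : δ (RR8_948.xK (Ct C) (kap w)) = 1 := by
    rw [← hT', hδ T0 hT, div_self (del_lift_ne_zero hT hT' x hC hgn hod), red_one]
  rw [← hδ f hf, der_eq δ, h1, smul_eq_mul, mul_one]

variable [PerfectField (Ct C)]

/-- order of `dT0` at a direction -/
theorem od_dT_lift : EE809.od (dT k C (em T0)) = canD (Ct C) (kap w) x := by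
  obtain ⟨s, hs⟩ := x.surj (exp (-1))
  obtain ⟨t, ht, rfl⟩ := red_surj w s
  have ht1 : w.v t = 1 := by
    rw [← red_ne_zero_iff w ht]
    intro h0
    rw [h0, map_zero] at hs
    exact exp_ne_zero hs.symm
  obtain ⟨h1, h2⟩ := gn_dT_uniformizer x hC hgn hod ht1 hs
  have hdt : del C K t ≠ 0 := del_ne_zero_of w hC hgn h1
  have hdT : del C K T0 ≠ 0 := del_lift_ne_zero hT hT' x hC hgn hod
  have h3 : x.v (red w (del C K t / del C K T0)) = exp (canD (Ct C) (kap w) x) := by
    rw [red_del hT hT' x hC hgn hod ht]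
    exact Car5_700.v_del_eq x hs
  have h4 : w.v (del C K t / del C K T0) = 1 := by
    rw [← red_ne_zero_iff w ((v_del_lift_le hT hT' x hC hgn hod t).trans ht)]
    intro h0
    rw [h0, map_zero] at h3
    exact exp_ne_zero h3.symm
  have h5 : ex em (del C K t) = em (del C K t / del C K T0) * ex em (del C K T0) := by
    rw [← ex_mul, div_mul_cancel₀ _ hdT]
  have h6 : em (del C K t / del C K T0) ≠ 0 := (map_ne_zero em).2 (div_ne_zero hdt hdT)
  have h7 : ex em (del C K T0) ≠ 0 := by
    intro h0
    rw [h0, mul_zero, ex_del em hC] at h5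
    rw [h5, gn_zero] at h1
    exact zero_ne_one h1
  have h8 := congrArg EE809.od h5
  rw [EE809.od_mul hk.out h6 h7, ex_del em hC, ex_del em hC, h2, hod _ (div_ne_zero hdt hdT),
    od_of_one x h4, h3, log_exp] at h8
  omega

/-- **order of a differential at a direction** -/
theorem od_ex {g : K} (hg : g ≠ 0) :
    EE809.od (ex em g) = Red332.od w x (g / del C K T0) + canD (Ct C) (kap w) x := by
  have hdT : del C K T0 ≠ 0 := del_lift_ne_zero hT hT' x hC hgn hod
  have h5 : ex em g = em (g / del C K T0) * ex em (del C K T0) := by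
    rw [← ex_mul, div_mul_cancel₀ _ hdT]
  have h7 : ex em (del C K T0) ≠ 0 := by
    intro h0
    have h1 := gn_dT_lift x hC hgn hod hT hT'
    rw [← ex_del em hC, h0, gn_zero] at h1
    exact zero_ne_one h1
  rw [h5, EE809.od_mul hk.out ((map_ne_zero em).2 (div_ne_zero hg hdT)) h7, ex_del em hC,
    hod _ (div_ne_zero hg hdT), od_dT_lift hT hT' x hC hgn hod]

end Vertex

end Crest.Agent.R013.RedD_310
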