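import Mathlib
import Crest.Agent.R013.RedD2_310
import Crest.Agent.R013.RR19_948

/-!
# R013 / RedD3: the degree of a reduced differential; sums over the directions at a vertex
(helper310)
-/

set_option autoImplicit false
set_option linter.all false

namespace Crest.Agent.R013.RedD_310

open WithZero IsLocalRing
open scoped NNReal
open Crest.Agent.R013.Cell_408 (FinDef DiscNorm)
open Crest.Agent.R013.EE809 Crest.Agent.R013.SSK_332
open Crest.Agent.R013.RR7_948 Crest.Agent.R013.RR8_948 Crest.Agent.R013.RR9_948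
open Crest.Agent.R013.RR11_948
open Crest.Agent.R013.RR14_948 Crest.Agent.R013.RR15_948
open Crest.Agent.R013.Red332 hiding od

/-! ### the residue field of `C` is algebraically closed -/

section AlgClosed

variable {C : Type*} [NormedField C] [IsUltrametricDist C] [IsAlgClosed C]

theorem isAlgClosed_Ct : IsAlgClosed (Ct C) := by
  let O := (NormedField.valuation (K := C)).valuationSubring
  have hO : IsIntegrallyClosed O := inferInstance
  show IsAlgClosed (ResidueField O)
  refine IsAlgClosed.of_exists_root _ fun p hp hirr => ?_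
  obtain ⟨q, hq, hqdeg, hqm⟩ := Polynomial.lifts_and_degree_eq_and_monic
    (f := residue O) ((Polynomial.mem_lifts _).2
      (Polynomial.map_surjective _ residue_surjective p)) hp
  have hdeg : (q.map (algebraMap O C)).degree ≠ 0 := by
    rw [hqm.degree_map, hqdeg]
    exact hirr.degree_pos.ne'
  obtain ⟨z, hz⟩ := IsAlgClosed.exists_root (q.map (algebraMap O C)) hdeg
  have hzint : IsIntegral O z := ⟨q, hqm, by
    rw [← Polynomial.eval_map]; exact hz⟩
  obtain ⟨y, rfl⟩ := (IsIntegrallyClosed.isIntegral_iff (R := O) (K := C)).1 hzint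
  refine ⟨residue O y, ?_⟩
  have h1 : q.eval y = 0 := by
    apply IsFractionRing.injective O C
    rw [Polynomial.IsRoot.def, Polynomial.eval_map_algebraMap, Polynomial.aeval_algebraMap_apply] at hz
    rw [map_zero, ← hz, Polynomial.coe_aeval_eq_eval]
  rw [← hq, Polynomial.eval_map, Polynomial.eval₂_hom, h1, map_zero]

end AlgClosed

/-! ### one vertex -/

section Vertex

variable {k : Type*} [NontriviallyNormedField k] [CompleteSpace k] [IsUltrametricDist k]
variable {C : Type*} [NormedField C] [IsUltrametricDist C] [NormedAlgebra k C]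
  [Algebra.IsAlgebraic k C] [IsAlgClosed C] [hk : Fact (DiscNorm k)]
variable {K : Type*} [Field K] [Algebra C K] [Algebra (RatFunc C) K]
  [IsScalarTower C (RatFunc C) K] [Algebra.IsSeparable (RatFunc C) K]
variable {w : Nm C K}
variable [Algebra (RatFunc (Ct C)) (kap w)] [IsScalarTower (Ct C) (RatFunc (Ct C)) (kap w)]
  [FiniteDimensional (RatFunc (Ct C)) (kap w)] [Algebra.IsSeparable (RatFunc (Ct C)) (kap w)]

omit [Algebra (RatFunc C) K] [IsScalarTower C (RatFunc C) K] [Algebra.IsSeparable (RatFunc C) K]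
  [IsAlgClosed C] in
theorem od_eq_divf (x : Pl (Ct C) (kap w)) {f : K} {c : C}
    (h : w.v (f * (algebraMap C K c)⁻¹) = 1) :
    Red332.od w x f = divf (k := Ct C) (red w (f * (algebraMap C K c)⁻¹)) x := by
  rw [od_eq_of x h, v_eq (red_ne_zero w h), log_exp, neg_neg]

omit [Algebra (RatFunc C) K] [IsScalarTower C (RatFunc C) K] [Algebra.IsSeparable (RatFunc C) K] in
/-- **Kirchhoff's law** at a vertex -/
theorem sum_od {f : K} (hf : f ≠ 0) : ∃ D : Pl (Ct C) (kap w) →₀ ℤ,
    (∀ x, D x = Red332.od w x f) ∧ (D.sum fun _ n => n) = 0 := by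
  haveI := isAlgClosed_Ct (C := C)
  obtain ⟨c, hc0, hc⟩ := exists_C w f hf
  refine ⟨divf (red w (f * (algebraMap C K c)⁻¹)), fun x => (od_eq_divf x hc).symm, ?_⟩
  rw [← GR2_921.degD_eq_sum]
  exact degD_divf (red_ne_zero w hc)

/-- a lift of the separating element -/
noncomputable def lT (w : Nm C K) [Algebra (RatFunc (Ct C)) (kap w)] : K :=
  (red_surj w (xK (Ct C) (kap w))).choose

omit [Algebra (RatFunc C) K] [IsScalarTower C (RatFunc C) K] [Algebra.IsSeparable (RatFunc C) K]
  [IsScalarTower (Ct C) (RatFunc (Ct C)) (kap w)] [IsAlgClosed C]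
  [FiniteDimensional (RatFunc (Ct C)) (kap w)] [Algebra.IsSeparable (RatFunc (Ct C)) (kap w)] in
theorem lT_le : w.v (lT w) ≤ 1 := (red_surj w (xK (Ct C) (kap w))).choose_spec.1

omit [Algebra (RatFunc C) K] [IsScalarTower C (RatFunc C) K] [Algebra.IsSeparable (RatFunc C) K]
  [IsScalarTower (Ct C) (RatFunc (Ct C)) (kap w)] [IsAlgClosed C]
  [FiniteDimensional (RatFunc (Ct C)) (kap w)] [Algebra.IsSeparable (RatFunc (Ct C)) (kap w)] in
theorem red_lT : red w (lT w) = xK (Ct C) (kap w) :=
  (red_surj w (xK (Ct C) (kap w))).choose_spec.2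

/-- **degree of the reduced differential**: the orders of a differential at the directions of a
vertex sum to `2 g - 2` -/
theorem sum_od_ex (em : Pl (Ct C) (kap w) → K →+* EE k C)
    (hC : ∀ x (c : C) (n : ℤ), (em x (algebraMap C K c)).co n = if n = 0 then c else 0)
    (hgn : ∀ x f, gn (em x f) = w.v f)
    (hod : ∀ x f, f ≠ 0 → EE809.od (em x f) = Red332.od w x f) {g : K} (hg : g ≠ 0) :
    ∃ D : Pl (Ct C) (kap w) →₀ ℤ, (∀ x, D x = EE809.od (ex (em x) g)) ∧
      (D.sum fun _ n => n) = 2 * (gen (Ct C) (kap w) : ℤ) - 2 := by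
  haveI := isAlgClosed_Ct (C := C)
  by_cases hne : Nonempty (Pl (Ct C) (kap w))
  · obtain ⟨x0⟩ := hne
    have hd0 : del C K (lT w) ≠ 0 :=
      del_lift_ne_zero lT_le red_lT x0 (hC x0) (hgn x0) (hod x0)
    obtain ⟨c, hc0, hc⟩ := exists_C w (g / del C K (lT w)) (div_ne_zero hg hd0)
    refine ⟨divf (red w (g / del C K (lT w) * (algebraMap C K c)⁻¹)) + canD (Ct C) (kap w),
      fun x => ?_, ?_⟩
    · rw [od_ex lT_le red_lT x (hC x) (hgn x) (hod x) hg, Finsupp.add_apply, od_eq_divf x hc]
    · rw [← GR2_921.degD_eq_sum, degD_add, degD_divf (red_ne_zero w hc), zero_add,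
        degD_canD GR2_921.hc_of_isAlgClosed]
  · exfalso
    obtain ⟨P, _⟩ := RR12_948.exists_notMem (k := Ct C) (K := kap w) ∅
    exact hne ⟨P⟩

end Vertex

/-! ### all vertices -/

section SSK

variable {k : Type*} [NontriviallyNormedField k] [CompleteSpace k] [IsUltrametricDist k]
variable {C : Type*} [NormedField C] [IsUltrametricDist C] [NormedAlgebra k C]
  [Algebra.IsAlgebraic k C] [IsAlgClosed C]
variable {K : Type*} [Field K] [Algebra C K] (S : SSK k C K)

/-- a `Ct(X)`-structure on the residue field of a vertex -/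
@[reducible] noncomputable def ffA (v : S.V) : Algebra (RatFunc (Ct C)) (kap (S.nm v)) :=
  (S.ff v).choose

theorem ffA_tower (v : S.V) : letI := ffA S v
    IsScalarTower (Ct C) (RatFunc (Ct C)) (kap (S.nm v)) := (S.ff v).choose_spec.1

theorem ffA_fin (v : S.V) : letI := ffA S v
    FiniteDimensional (RatFunc (Ct C)) (kap (S.nm v)) := (S.ff v).choose_spec.2.1

theorem ffA_sep (v : S.V) : letI := ffA S v
    Algebra.IsSeparable (RatFunc (Ct C)) (kap (S.nm v)) := (S.ff v).choose_spec.2.2

/-- genus of a vertex -/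
noncomputable def gv (v : S.V) : ℕ :=
  letI := ffA S v
  haveI := ffA_tower S v
  haveI := ffA_fin S v
  haveI := ffA_sep S v
  gen (Ct C) (kap (S.nm v))

theorem gv_eq (v : S.V) [Algebra (RatFunc (Ct C)) (kap (S.nm v))]
    [IsScalarTower (Ct C) (RatFunc (Ct C)) (kap (S.nm v))]
    [FiniteDimensional (RatFunc (Ct C)) (kap (S.nm v))]
    [Algebra.IsSeparable (RatFunc (Ct C)) (kap (S.nm v))] :
    gv S v = gen (Ct C) (kap (S.nm v)) := by
  haveI := isAlgClosed_Ct (C := C)
  have hc : algebraicClosure (Ct C) (kap (S.nm v)) = ⊥ := GR2_921.hc_of_isAlgClosed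
  exact RR19_948.gen_eq_gen (ffA S v) (ffA_tower S v) (ffA_fin S v) (ffA_sep S v)
    inferInstance inferInstance inferInstance inferInstance hc

variable [hk : Fact (DiscNorm k)] [Algebra (RatFunc C) K] [IsScalarTower C (RatFunc C) K]
  [Algebra.IsSeparable (RatFunc C) K]

theorem sum_vertex (v : S.V) {g : K} (hg : g ≠ 0) :
    ∃ D : Pl (Ct C) (kap (S.nm v)) →₀ ℤ, (∀ x, D x = EE809.od (ex (S.em ⟨v, x⟩) g)) ∧
      (D.sum fun _ n => n) = 2 * (gv S v : ℤ) - 2 := by
  letI := ffA S v
  haveI := ffA_tower S v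
  haveI := ffA_fin S v
  haveI := ffA_sep S v
  exact sum_od_ex (w := S.nm v) (fun x => S.em ⟨v, x⟩) (fun x => S.em_C _) (fun x => S.em_gn _)
    (fun x => S.em_od _) hg

/-- **sum over all directions** -/
theorem sum_all {g : K} (hg : g ≠ 0) :
    letI := S.fV
    ∃ D : S.Dir →₀ ℤ, (∀ d, D d = EE809.od (ex (S.em d) g)) ∧
      (D.sum fun _ n => n) = ∑ v, (2 * (gv S v : ℤ) - 2) := by
  classical
  letI := S.fV
  choose D hD hD' using fun v => sum_vertex S v hg
  have hfin : Set.Finite (Function.support fun d : S.Dir => D d.1 d.2) := by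
    refine (Set.Finite.subset ((Finset.univ.sigma fun v => (D v).support).finite_toSet) ?_)
    intro d hd
    rw [Function.mem_support] at hd
    rw [Finset.mem_coe, Finset.mem_sigma]
    exact ⟨Finset.mem_univ _, Finsupp.mem_support_iff.2 hd⟩
  refine ⟨Finsupp.ofSupportFinite (fun d : S.Dir => D d.1 d.2) hfin, fun d => ?_, ?_⟩
  · rw [Finsupp.ofSupportFinite_coe]
    exact hD d.1 d.2
  · rw [← Finset.sum_congr rfl fun v _ => hD' v]
    unfold Finsupp.sum
    refine (Finset.sum_subset_zero_on_sdiff (g := fun d : S.Dir => D d.1 d.2)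
      (s₂ := Finset.univ.sigma fun v => (D v).support) ?_ ?_ ?_).trans
      (Finset.sum_sigma' Finset.univ (fun v => (D v).support) fun v x => D v x).symm
    · intro d hd
      rw [Finsupp.mem_support_iff, Finsupp.ofSupportFinite_coe] at hd
      rw [Finset.mem_sigma]
      exact ⟨Finset.mem_univ _, Finsupp.mem_support_iff.2 hd⟩
    · intro d hd
      rw [Finset.mem_sdiff, Finsupp.mem_support_iff, Finsupp.ofSupportFinite_coe, not_not] at hd
      exact hd.2
    · intro d _
      rw [Finsupp.ofSupportFinite_coe]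

end SSK

end Crest.Agent.R013.RedD_310
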