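import Crest.Agent.R013.TP13_928
import Crest.Agent.R013.RedD3_310
import Crest.Agent.R013.Car7_700
/-
ROW 13, leaf M3 (helper359): the interface with CARTINJ.
`CInj p w cov e`: Cartier injectivity on the `e`-part at one norm `w`.
-/
set_option autoImplicit false
set_option linter.unusedSectionVars false

namespace Crest.Agent.R013.M3_359

open scoped NNReal
open WithZero Module
open Crest.Agent.R013.RR7_948 Crest.Agent.R013.RR8_948 Crest.Agent.R013.RR9_948
open Crest.Agent.R013.RR11_948 Crest.Agent.R013.RR14_948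
open Crest.Agent.R013.Red332 hiding od
open Crest.Agent.R013.SSK_332 Crest.Agent.R013.Car2_700 Crest.Agent.R013.Car6_700

section one

variable (p : ℕ) [hp : Fact p.Prime]
variable {C : Type*} [NormedField C] [IsUltrametricDist C] [CharP (Ct C) p] [PerfectField (Ct C)]
variable {K : Type*} [Field K] [Algebra C K] (w : Nm C K)
variable [Algebra (RatFunc (Ct C)) (kap w)] [IsScalarTower (Ct C) (RatFunc (Ct C)) (kap w)]
  [FiniteDimensional (RatFunc (Ct C)) (kap w)] [Algebra.IsSeparable (RatFunc (Ct C)) (kap w)]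
variable {A : Type*} [Group A] [Fintype A] (cov : A →* (K ≃ₐ[C] K)) (e : A → Ct C)

/-- Cartier injectivity on the `e`-part, at one norm `w`: `F a` is (the function, w.r.t. the
coordinate `xK` of `kap w`, of) the reduction at `w` of a differential `cov a (ω)`. -/
def CInj : Prop :=
  ∀ F : A → kap w,
    (∀ a, F a ∈ LD (canD (Ct C) (kap w))) →
    (∀ a, ∃ m, (CK p (Ct C) (kap w))^[m] (F a) = 0) →
    (∀ a, ∑ b, e b • F (a * b) = F a) →
    (∀ b, (∀ f, w.v (cov b f) = w.v f) → ∀ θ : kap w ≃ₐ[Ct C] kap w,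
      (∀ f, w.v f ≤ 1 → θ (red w f) = red w (cov b f)) →
      ∀ a, F (b * a) = θ (F a) * del (Ct C) (kap w) (θ (RR8_948.xK (Ct C) (kap w)))) →
    ∀ a, F a = 0

end one

section ssk

variable (p : ℕ) [hp : Fact p.Prime]
variable {k : Type*} [NontriviallyNormedField k] [CompleteSpace k]
variable {C : Type*} [NormedField C] [IsUltrametricDist C] [NormedAlgebra k C]
  [Algebra.IsAlgebraic k C] [CharP (Ct C) p] [PerfectField (Ct C)]
variable {K : Type*} [Field K] [Algebra C K] (S : SSK k C K)
variable {A : Type*} [Group A] [Fintype A] (cov : A →* (K ≃ₐ[C] K)) (e : A → Ct C)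

/-- Cartier injectivity on the `e`-part at every vertex, for SOME coordinate of the residue
field -/
def CInjS : Prop :=
  ∀ v : S.V, ∃ (_ : Algebra (RatFunc (Ct C)) (kap (S.nm v)))
    (_ : IsScalarTower (Ct C) (RatFunc (Ct C)) (kap (S.nm v)))
    (_ : FiniteDimensional (RatFunc (Ct C)) (kap (S.nm v)))
    (_ : Algebra.IsSeparable (RatFunc (Ct C)) (kap (S.nm v))),
    CInj p (S.nm v) cov e

end ssk

end Crest.Agent.R013.M3_359
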