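import Crest.Agent.R013.CI4_398
import Crest.Agent.R013.M3Defs_359
import Crest.Agent.R013.GR3_921

/-!
# R013 / C-A2, part a (helper398): COUNT data without coordinates, vertex data, Cartier injectivity
`CInj` (359) at every norm of a field over the Kummer cover.
-/

set_option autoImplicit false
set_option linter.all false

namespace Crest.Agent.R013.A2_398

open scoped NNReal
open Module IsLocalRing WithZero
open Crest.Agent.R013.Red332 Crest.Agent.R013.Kumv2_275
open Crest.Agent.R013.RR1_948 Crest.Agent.R013.RR7_948 Crest.Agent.R013.RR8_948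
open Crest.Agent.R013.RR9_948 Crest.Agent.R013.RR11_948 Crest.Agent.R013.RR12_948
open Crest.Agent.R013.RR13_948 Crest.Agent.R013.RR14_948 Crest.Agent.R013.RR18_948
open Crest.Agent.R013.RR19_948 Crest.Agent.R013.RR21_948 Crest.Agent.R013.RR22_948
open Crest.Agent.R013.Car1_700 Crest.Agent.R013.Car2_700 Crest.Agent.R013.Car5_700
open Crest.Agent.R013.Car6_700
open Crest.Agent.R013.PicD_398 Crest.Agent.R013.CntF6_398 Crest.Agent.R013.CI1_398
open Crest.Agent.R013.CI2_398 Crest.Agent.R013.CI3_398 Crest.Agent.R013.CI4_398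
open Crest.Agent.R013.GR3_921

/-! ### coordinate free COUNT data -/

/-- COUNT data on `κ / k`, without coordinate: `div u = n E`, `E` has exact order `n`,
no exact differential vanishes on `p ^ (j + 1) E`. -/
def Count (k κ : Type*) [Field k] [Field κ] [Algebra k κ] (p n : ℕ) (u : κ) : Prop :=
  u ≠ 0 ∧ ∃ E : Pl k κ →₀ ℤ, (∀ P : Pl k κ, P.v u = exp (-((n : ℤ) * E P))) ∧
    (∀ m : ℕ, (∃ f : κ, f ≠ 0 ∧ ∀ P : Pl k κ, P.v f = exp (-((m : ℤ) * E P))) → n ∣ m) ∧
    ∀ (D : Derivation k κ κ) (j : ℕ) (f : κ), (∀ (P : Pl k κ) (t : κ), P.v t = exp (-1) →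
      P.v (D f) ≤ P.v (D t) * exp (-(p ^ (j + 1) * E P))) → D f = 0

section count

variable {k κ : Type*} [Field k] [Field κ] [Algebra k κ] [Algebra (RatFunc k) κ]
  [IsScalarTower k (RatFunc k) κ] [FiniteDimensional (RatFunc k) κ]
  [Algebra.IsSeparable (RatFunc k) κ]

theorem der_eq (D : Derivation k κ κ) (f : κ) : D f = D (xK k κ) * del k κ f := by
  have h1 : ∀ g, D.liftKaehlerDifferential (KaehlerDifferential.D k κ g) = D g := fun g =>
    D.liftKaehlerDifferential_comp_D g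
  rw [← h1 f, D_eq, map_smul, h1, smul_eq_mul, mul_comm]

theorem divf_eq_smul_iff {u : κ} (hu : u ≠ 0) (n : ℕ) (E : Pl k κ →₀ ℤ) :
    divf (k := k) u = n • E ↔ ∀ P : Pl k κ, P.v u = exp (-((n : ℤ) * E P)) := by
  constructor
  · intro h P
    rw [RR11_948.v_eq hu P, h, Finsupp.smul_apply, nsmul_eq_mul]
  · intro h
    ext P
    have h1 := h P
    rw [RR11_948.v_eq hu P, exp_inj] at h1
    rw [Finsupp.smul_apply, nsmul_eq_mul]
    omega

theorem count_of_out (p : ℕ) [hp : Fact p.Prime] [IsAlgClosed k] (h : OutC p k κ) :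
    ∃ (n : ℕ) (u : κ), 2 ≤ n ∧ n.Coprime p ∧ Count k κ p n u := by
  obtain ⟨N, E, u, hN, hNp, hu, hdiv, hord, hd⟩ := h
  refine ⟨N, u, hN, hNp, hu, E, (divf_eq_smul_iff hu N E).mp hdiv, ?_, ?_⟩
  · rintro m ⟨f, hf, hfm⟩
    apply hord m
    rw [← (divf_eq_smul_iff hf m E).mpr hfm]
    exact cls_divf hf
  · intro D j f h
    by_cases hD : D (xK k κ) = 0
    · rw [der_eq, hD, zero_mul]
    · rw [der_eq, hd j f ?_, mul_zero]
      intro P t ht
      have h1 := h P t ht
      rw [der_eq D f, der_eq D t, map_mul, map_mul, mul_assoc] at h1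
      have h2 : P.v (D (xK k κ)) ≠ 0 := (Valuation.ne_zero_iff _).mpr hD
      exact (mul_le_mul_iff_right₀ (zero_lt_iff.mpr h2)).mp h1

end count

/-! ### vertex data -/

/-- **vertex data** of `h ∈ K` (exponent `N`) at the norm `v` -/
def VDat {C : Type*} [NormedField C] [IsUltrametricDist C] {K : Type*} [Field K] [Algebra C K]
    (p N : ℕ) (h : K) (v : Nm C K) : Prop :=
  ∃ g : K, g ≠ 0 ∧ v.v (h / g ^ N) = 1 ∧
    ((HasGen (Ct C) (kap v) 0 ∧ red v (h / g ^ N) = 1) ∨
    ∃ (n M : ℕ) (u : kap v), 2 ≤ n ∧ n.Coprime p ∧ M ≠ 0 ∧ N = n * M ∧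
      red v (h / g ^ N) = u ^ M ∧ Count (Ct C) (kap v) p n u)

section main

variable (p : ℕ) [hp : Fact p.Prime] {C : Type*} [NormedField C] [IsUltrametricDist C]
  [IsAlgClosed (Ct C)] [CharP (Ct C) p]
  {K L : Type*} [Field K] [Field L] [Algebra C K] [Algebra K L] [Algebra C L]
  [IsScalarTower C K L] {A : Type*} [Group A] [Fintype A] (cov : A →* (L ≃ₐ[C] L))
  (v : Nm C K) (w : Nm C L) (hw : w.v.comap (algebraMap K L) = v.v)
  (hK : ∀ (a : A) (f : K), cov a (algebraMap K L f) = algebraMap K L f)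
  (hinvR : ∀ z : kap w, (∀ b : stab cov w, thR cov w b z = z) → z ∈ Set.range (kapMap v w hw))
  (hA : ¬ p ∣ Fintype.card A)
  {Y : L} (hY0 : Y ≠ 0) {ζ : A → C} (hY : ∀ a, cov a Y = algebraMap C L (ζ a) * Y)
  {χ : A →* (Ct C)ˣ} (hχ : ∀ a, ((χ a : (Ct C)ˣ) : Ct C) * rc (ζ a) = 1)
  (hinj : Function.Injective χ)
  {N : ℕ} (hN : N ≠ 0) {h : K} (hYN : Y ^ N = algebraMap K L h)

include hw hK hY0 hY hχ hYN in
/-- at a vertex of genus zero the stabiliser is trivial -/
theorem stab_trivial (hN : N ≠ 0) (hinj : Function.Injective χ) {g : K} (hg : g ≠ 0)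
    (hgv : v.v (h / g ^ N) = 1) (hred : red v (h / g ^ N) = 1) (b : stab cov w) : (b : A) = 1 := by
  have h1 := red_Y_pow v w hw hg hN hYN hgv
  rw [hred, map_one, ← map_one (algebraMap (Ct C) (kap w))] at h1
  obtain ⟨d, hd⟩ := root_const (Nat.pos_of_ne_zero hN) h1
  have h2 := th_Y cov v w hw hK hY0 hY hχ hg hN hYN hgv b
  have hy : red w (Y / algebraMap K L g) ≠ 0 := red_ne_zero w (w_Y v w hw hg hN hYN hgv)
  have h3 : thR cov w b (red w (Y / algebraMap K L g)) = red w (Y / algebraMap K L g) := by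
    rw [hd, ← kapMap_algebraMap v w hw, thR_kapMap cov v w hw hK]
  rw [h3] at h2
  have h4 : algebraMap (Ct C) (kap w) (χ b.1) = 1 := mul_right_cancel₀ hy (by rw [h2, one_mul])
  have h5 : ((χ b.1 : (Ct C)ˣ) : Ct C) = 1 := by
    apply (algebraMap (Ct C) (kap w)).injective
    rw [h4, map_one]
  apply hinj
  rw [map_one]
  exact Units.ext h5

include hK hY0 hY hχ hYN in
/-- the root of `u`, normalised -/
theorem exists_y {g : K} (hg : g ≠ 0) (hgv : v.v (h / g ^ N) = 1) {n M : ℕ} (hM : M ≠ 0)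
    (hn : n ≠ 0) (hNM : N = n * M) {u : kap v} (hu : u ≠ 0) (hred : red v (h / g ^ N) = u ^ M) :
    ∃ y : kap w, y ^ n = kapMap v w hw u ∧
      ∀ b : stab cov w, algebraMap (Ct C) (kap w) (χ b.1) * thR cov w b y = y := by
  have hN : N ≠ 0 := by rw [hNM]; exact mul_ne_zero hn hM
  set y₀ := red w (Y / algebraMap K L g) with hy₀
  have h1 : y₀ ^ N = kapMap v w hw (u ^ M) := by
    rw [hy₀, red_Y_pow v w hw hg hN hYN hgv, hred]
  have hu' : kapMap v w hw u ≠ 0 := by rwa [Ne, map_eq_zero]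
  have h2 : (y₀ ^ n / kapMap v w hw u) ^ M = algebraMap (Ct C) (kap w) 1 := by
    rw [div_pow, ← pow_mul, ← hNM, h1, map_pow, div_self (pow_ne_zero _ hu'), map_one]
  obtain ⟨d, hd⟩ := root_const (Nat.pos_of_ne_zero hM) h2
  obtain ⟨d', hd'⟩ := IsAlgClosed.exists_pow_nat_eq d (Nat.pos_of_ne_zero hn)
  have h3 : y₀ ^ n ≠ 0 := by
    intro h4
    have h5 : (y₀ ^ n) ^ M = 0 := by rw [h4, zero_pow hM]
    rw [← pow_mul, ← hNM, h1, map_pow] at h5
    exact hu' (pow_eq_zero_iff hM |>.mp h5)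
  refine ⟨y₀ / algebraMap (Ct C) (kap w) d', ?_, ?_⟩
  · rw [div_pow, ← map_pow, hd', ← hd, div_div_cancel₀ h3]
  · intro b
    have h3 := th_Y cov v w hw hK hY0 hY hχ hg hN hYN hgv b
    rw [map_div₀, ← kapMap_algebraMap v w hw d', thR_kapMap cov v w hw hK, ← mul_div_assoc]
    congr 1

include hK hinvR hY0 hY hχ hYN in
/-- at a vertex with COUNT data the character is nontrivial on the stabiliser -/
theorem exists_chi_ne_one {g : K} (hg : g ≠ 0) (hgv : v.v (h / g ^ N) = 1) {n M : ℕ} (hM : M ≠ 0)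
    (hn : 2 ≤ n) (hNM : N = n * M) {u : kap v} (hred : red v (h / g ^ N) = u ^ M)
    (hc : Count (Ct C) (kap v) p n u) : ∃ b ∈ stab cov w, χ b ≠ 1 := by
  obtain ⟨hu, E, hE, hord, -⟩ := hc
  obtain ⟨y, hy, hyb⟩ := exists_y cov v w hw hK hY0 hY hχ hYN hg hgv hM (by omega) hNM hu hred
  by_contra hcon
  push Not at hcon
  have h1 : y ∈ Set.range (kapMap v w hw) := by
    apply hinvR
    intro b
    have h2 := hyb b
    rwa [hcon b.1 b.2, Units.val_one, map_one, one_mul] at h2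
  obtain ⟨x, rfl⟩ := h1
  have h2 : x ^ n = u := (kapMap v w hw).injective (by rw [map_pow, hy])
  have hx : x ≠ 0 := by
    rintro rfl
    rw [zero_pow (by omega)] at h2
    exact hu h2.symm
  have h3 : n ∣ 1 := by
    apply hord 1
    refine ⟨x, hx, fun P => ?_⟩
    have h4 := hE P
    rw [← h2, map_pow] at h4
    have hPx : P.v x ≠ 0 := (Valuation.ne_zero_iff _).mpr hx
    have h5 : P.v x = exp (log (P.v x)) := (exp_log hPx).symm
    rw [h5, ← exp_nsmul, exp_inj, nsmul_eq_mul] at h4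
    rw [h5, exp_inj]
    have hn0 : (n : ℤ) ≠ 0 := by omega
    apply mul_left_cancel₀ hn0
    rw [h4]
    push_cast
    ring
  have := Nat.le_of_dvd one_pos h3
  omega

include hK hinvR hY0 hY hχ hYN in
/-- the dichotomy at a vertex -/
theorem stab_dichotomy (hN : N ≠ 0) (hinj : Function.Injective χ) (hV : VDat p N h v) :
    (HasGen (Ct C) (kap v) 0 ∧ ∀ b ∈ stab cov w, b = 1) ∨ ∃ b ∈ stab cov w, χ b ≠ 1 := by
  obtain ⟨g, hg, hgv, ⟨h1, h2⟩ | ⟨n, M, u, hn, hnp, hM, hNM, hred, hc⟩⟩ := hV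
  · exact Or.inl ⟨h1, fun b hb => stab_trivial cov v w hw hK hY0 hY hχ hYN hN hinj hg hgv h2 ⟨b, hb⟩⟩
  · exact Or.inr (exists_chi_ne_one p cov v w hw hK hinvR hY0 hY hχ hYN hg hgv hM hn hNM hred hc)

/-! ### Cartier injectivity at a norm over the vertex -/

include hK hinvR hA hY0 hY hχ hYN in
/-- **`CInj` at a norm `w` of `L` over a vertex `v` of `K`**, for the coordinate of `kap v` -/
theorem cinj (hN : N ≠ 0) (hinj : Function.Injective χ) (hV : VDat p N h v)
    (e : A → Ct C) (s : Finset ℕ) (c : ℕ → Ct C)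
    (he : ∀ a, e a = ∑ j ∈ s, c j * (((χ a)⁻¹ : (Ct C)ˣ) : Ct C) ^ p ^ j)
    [iv : Algebra (RatFunc (Ct C)) (kap v)] [IsScalarTower (Ct C) (RatFunc (Ct C)) (kap v)]
    [FiniteDimensional (RatFunc (Ct C)) (kap v)] [Algebra.IsSeparable (RatFunc (Ct C)) (kap v)]
    [Algebra (RatFunc (Ct C)) (kap w)] [IsScalarTower (Ct C) (RatFunc (Ct C)) (kap w)]
    [FiniteDimensional (RatFunc (Ct C)) (kap w)] [Algebra.IsSeparable (RatFunc (Ct C)) (kap w)]
    (hT : ∀ r, algebraMap (RatFunc (Ct C)) (kap w) r =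
      kapMap v w hw (algebraMap (RatFunc (Ct C)) (kap v) r)) :
    M3_359.CInj p w cov e := by
  classical
  letI := kalg v w hw
  haveI := kalg_tower v w hw
  haveI : IsScalarTower (RatFunc (Ct C)) (kap v) (kap w) := IsScalarTower.of_algebraMap_eq hT
  have hinvb : ∀ z : kap w, (∀ b, th cov v w hw hK b z = z) →
      z ∈ Set.range (algebraMap (kap v) (kap w)) := fun z hz => hinvR z hz
  intro F hR hC heF hθ
  -- a common exponent
  obtain ⟨m, hm⟩ : ∃ m, ∀ a, (CK p (Ct C) (kap w))^[m] (F a) = 0 := by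
    choose m hm using hC
    refine ⟨∑ a, m a, fun a => ?_⟩
    have h1 : m a ≤ ∑ a, m a := Finset.single_le_sum (fun _ _ => Nat.zero_le _) (Finset.mem_univ a)
    obtain ⟨r, hr⟩ := Nat.exists_eq_add_of_le' h1
    rw [hr, Function.iterate_add_apply, hm, CK_iter_zero]
  -- equivariance
  have hF : ∀ (b : stab cov w) (a : A), F (b * a) = th cov v w hw hK b (F a) := by
    intro b a
    have h1 := hθ b.1 b.2 ((th cov v w hw hK b).restrictScalars (Ct C))
      (fun f _ => th_red cov v w hw hK b f) a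
    rw [h1]
    have h2 : ((th cov v w hw hK b).restrictScalars (Ct C)) (xK (Ct C) (kap w)) =
        xK (Ct C) (kap w) := by
      change th cov v w hw hK b (xK (Ct C) (kap w)) = xK (Ct C) (kap w)
      have h3 : xK (Ct C) (kap w) = algebraMap (kap v) (kap w) (xK (Ct C) (kap v)) := hT _
      rw [h3, AlgEquiv.commutes]
    rw [h2, del_xK, mul_one]
    rfl
  -- left and right sums
  have he' : ∀ a b, e (a * b * a⁻¹) = e b := by
    intro a b
    rw [he, he]
    refine Finset.sum_congr rfl fun j _ => ?_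
    rw [map_mul, map_mul, map_inv, mul_comm (χ a), mul_assoc, mul_inv_cancel, mul_one]
  have heF' : ∀ a, ∑ b, algebraMap (Ct C) (kap w) (e b) * F (b * a) = F a := by
    intro a
    conv_rhs => rw [← heF a]
    symm
    refine Fintype.sum_equiv (MulAut.conj a).toEquiv _ _ fun b => ?_
    have h1 : (MulAut.conj a).toEquiv b = a * b * a⁻¹ := MulAut.conj_apply a b
    rw [h1, he', inv_mul_cancel_right, Algebra.smul_def]
  obtain ⟨g, hg, hgv, ⟨h1, h2⟩ | ⟨n, M, u, hn, hnp, hM, hNM, hred, hc⟩⟩ := hV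
  · -- genus zero
    intro a
    have h3 := stab_trivial cov v w hw hK hY0 hY hχ hYN hN hinj hg hgv h2
    have hsurj : Function.Surjective (algebraMap (kap v) (kap w)) := by
      intro y
      apply hinvR y
      intro b
      have hb : b = 1 := Subtype.ext (h3 b)
      obtain ⟨f, -, rfl⟩ := red_surj w y
      rw [hb, thR_red, Subgroup.coe_one, map_one]
      rfl
    let σ : kap v ≃ₐ[Ct C] kap w := AlgEquiv.ofBijective
      (IsScalarTower.toAlgHom (Ct C) (kap v) (kap w))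
      ⟨(algebraMap (kap v) (kap w)).injective, hsurj⟩
    have h4 := gen_map σ algClosed_const
    exact eq_zero_of_gen (by rw [← h4, h1.eq_gen]) (hR a)
  · -- COUNT
    haveI := CI3_398.finiteDimensional (th cov v w hw hK) hinvb
    haveI := CI3_398.isGalois (th cov v w hw hK) hinvb
    obtain ⟨hu, E, hE, -, hord⟩ := hc
    obtain ⟨y, hy, hyb⟩ := exists_y cov v w hw hK hY0 hY hχ hYN hg hgv hM (by omega) hNM hu hred
    intro a
    exact eq_zero_of_idem p hA (stab cov w) (th cov v w hw hK) hinvb (by omega) hnp hu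
      ((divf_eq_smul_iff hu n E).mpr hE) (hord (del (Ct C) (kap v))) hy χ hyb e s c he F hF hR m hm
      heF' a

end main

end Crest.Agent.R013.A2_398
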