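import Mathlib

/-!
Row 13, part A: points of the analytic space of a field and compactness.
-/

set_option autoImplicit false

noncomputable section

namespace Crest.Agent.R013.A2b_275

open scoped NNReal ENNReal Topology
open Filter

/-- A point of the `p`-adic analytic space of `L`: a multiplicative ultrametric function with
values in `[0, ∞]` extending the `p`-adic absolute value (norms, and places composed with the
absolute value of the residue field). -/
structure IsPt (p : ℕ) [Fact p.Prime] (k L : Type*) [Field k] [Algebra ℚ_[p] k] [Field L]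
    [Algebra k L] (φ : L → ℝ≥0∞) : Prop where
  add : ∀ a b, φ (a + b) ≤ max (φ a) (φ b)
  mul : ∀ a b, (φ a ≠ 0 ∨ φ b ≠ ∞) → (φ b ≠ 0 ∨ φ a ≠ ∞) → φ (a * b) = φ a * φ b
  inv : ∀ a, a ≠ 0 → φ a⁻¹ = (φ a)⁻¹
  ext : ∀ c : ℚ_[p], φ (algebraMap k L (algebraMap ℚ_[p] k c)) = ‖c‖₊

section

variable {p : ℕ} [Fact p.Prime] {k : Type*} [Field k] [Algebra ℚ_[p] k]

/-- A norm is a point. -/
lemma isPt_of_valuation {L : Type*} [Field L] [Algebra k L] (w : Valuation L ℝ≥0)
    (hw : ∀ c : ℚ_[p], w (algebraMap k L (algebraMap ℚ_[p] k c)) = ‖c‖₊) :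
    IsPt p k L (fun a => (w a : ℝ≥0∞)) where
  add a b := by
    rw [← ENNReal.coe_max]
    exact ENNReal.coe_le_coe.mpr (w.map_add a b)
  mul a b _ _ := by rw [map_mul, ENNReal.coe_mul]
  inv a ha := by rw [map_inv₀, ENNReal.coe_inv ((Valuation.ne_zero_iff w).mpr ha)]
  ext c := by rw [hw]

variable {K M : Type*} [Field K] [Field M] [Algebra k K] [Algebra K M] [Algebra k M]
  [IsScalarTower k K M] [Algebra.IsAlgebraic K M]

/-- **Compactness**: invariant points on arbitrarily large subfields give an invariant point. -/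
theorem exists_point (H : Set (M ≃ₐ[K] M))
    (h : ∀ L : IntermediateField K M, FiniteDimensional K L →
      ∃ L' : IntermediateField K M, L ≤ L' ∧ ∃ φ : L' → ℝ≥0∞, IsPt p k L' φ ∧
        ∀ σ ∈ H, ∀ a b : L', σ (a : M) = b → φ b = φ a) :
    ∃ φ : M → ℝ≥0∞, IsPt p k M φ ∧ ∀ σ ∈ H, ∀ a, φ (σ a) = φ a := by
  classical
  let ι := {L : IntermediateField K M // FiniteDimensional K L}
  have hne : Nonempty ι := ⟨⟨⊥, inferInstance⟩⟩
  have hdir : IsDirectedOrder ι := ⟨fun L₁ L₂ => by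
    have h1 := L₁.2
    have h2 := L₂.2
    exact ⟨⟨L₁.1 ⊔ L₂.1, IntermediateField.finiteDimensional_sup _ _⟩,
      show L₁.1 ≤ L₁.1 ⊔ L₂.1 from le_sup_left, show L₂.1 ≤ L₁.1 ⊔ L₂.1 from le_sup_right⟩⟩
  choose L' hL' φ hφ hH using fun i : ι => h i.1 i.2
  let ψ : ι → M → ℝ≥0∞ := fun i a => if ha : a ∈ L' i then φ i ⟨a, ha⟩ else 0
  have hψ : ∀ i a (ha : a ∈ L' i), ψ i a = φ i ⟨a, ha⟩ := fun i a ha => by simp [ψ, ha]
  let U : Ultrafilter ι := Ultrafilter.of atTop
  have hU : (U : Filter ι) ≤ atTop := Ultrafilter.of_le _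
  have hmem : ∀ a : M, ∀ᶠ i in (U : Filter ι), a ∈ L' i := by
    intro a
    apply hU
    have hfd : FiniteDimensional K (IntermediateField.adjoin K {a}) :=
      IntermediateField.adjoin.finiteDimensional (Algebra.IsIntegral.isIntegral a)
    refine (eventually_ge_atTop (⟨IntermediateField.adjoin K {a}, hfd⟩ : ι)).mono ?_
    intro i hi
    exact hL' i (hi (IntermediateField.mem_adjoin_simple_self K a))
  let Φ : M → ℝ≥0∞ := fun a => (U.map (fun i => ψ i a)).lim
  have hlim : ∀ a, Tendsto (fun i => ψ i a) U (𝓝 (Φ a)) := fun a =>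
    Ultrafilter.le_nhds_lim (U.map (fun i => ψ i a))
  have hne_top : ∀ a, Φ a ≠ ∞ → ∀ᶠ i in (U : Filter ι), ψ i a ≠ ∞ := fun a ha =>
    (hlim a).eventually_ne ha
  have hne_zero : ∀ a, Φ a ≠ 0 → ∀ᶠ i in (U : Filter ι), ψ i a ≠ 0 := fun a ha =>
    (hlim a).eventually_ne ha
  have hor : ∀ a b, (Φ a ≠ 0 ∨ Φ b ≠ ∞) → ∀ᶠ i in (U : Filter ι), (ψ i a ≠ 0 ∨ ψ i b ≠ ∞) := by
    intro a b hab
    rcases hab with hab | hab
    · exact (hne_zero a hab).mono fun i hi => Or.inl hi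
    · exact (hne_top b hab).mono fun i hi => Or.inr hi
  refine ⟨Φ, ⟨?_, ?_, ?_, ?_⟩, ?_⟩
  · intro a b
    refine le_of_tendsto_of_tendsto (hlim (a + b)) ((hlim a).max (hlim b)) ?_
    filter_upwards [hmem a, hmem b] with i ha hb
    rw [hψ i a ha, hψ i b hb, hψ i (a + b) (add_mem ha hb)]
    exact (hφ i).add ⟨a, ha⟩ ⟨b, hb⟩
  · intro a b h1 h2
    refine tendsto_nhds_unique (hlim (a * b)) ?_
    refine (ENNReal.Tendsto.mul (hlim a) h1 (hlim b) h2).congr' ?_
    filter_upwards [hmem a, hmem b, hor a b h1, hor b a h2] with i ha hb h3 h4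
    rw [hψ i a ha, hψ i b hb] at h3 h4
    rw [hψ i a ha, hψ i b hb, hψ i (a * b) (mul_mem ha hb)]
    exact ((hφ i).mul ⟨a, ha⟩ ⟨b, hb⟩ h3 h4).symm
  · intro a ha0
    refine tendsto_nhds_unique (hlim a⁻¹) ?_
    refine ((continuous_inv.tendsto (Φ a)).comp (hlim a)).congr' ?_
    filter_upwards [hmem a] with i ha
    rw [Function.comp_apply, hψ i a ha, hψ i a⁻¹ (inv_mem ha)]
    refine ((hφ i).inv ⟨a, ha⟩ ?_).symm
    intro h0
    exact ha0 (congrArg Subtype.val h0)
  · intro c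
    refine tendsto_nhds_unique (hlim _) ?_
    refine tendsto_const_nhds.congr' ?_
    refine Eventually.of_forall fun i => ?_
    have hc : algebraMap k M (algebraMap ℚ_[p] k c) ∈ L' i := by
      rw [IsScalarTower.algebraMap_apply k K M]
      exact (L' i).algebraMap_mem _
    change ((‖c‖₊ : ℝ≥0) : ℝ≥0∞) = ψ i (algebraMap k M (algebraMap ℚ_[p] k c))
    rw [hψ i _ hc]
    exact ((hφ i).ext c).symm
  · intro σ hσ a
    refine tendsto_nhds_unique (hlim (σ a)) ?_
    refine (hlim a).congr' ?_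
    filter_upwards [hmem a, hmem (σ a)] with i ha hb
    rw [hψ i a ha, hψ i (σ a) hb]
    exact (hH i σ hσ ⟨a, ha⟩ ⟨σ a, hb⟩ rfl).symm

end

section basics

variable {p : ℕ} [Fact p.Prime] {k L : Type*} [Field k] [Algebra ℚ_[p] k] [Field L] [Algebra k L]
  {φ : L → ℝ≥0∞}

lemma IsPt.map_zero (h : IsPt p k L φ) : φ 0 = 0 := by
  have := h.ext 0
  simpa using this

lemma IsPt.map_one (h : IsPt p k L φ) : φ 1 = 1 := by
  have := h.ext 1
  simpa using this

lemma IsPt.map_neg (h : IsPt p k L φ) (a : L) : φ (-a) = φ a := by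
  have h1 : φ (-1) = 1 := by
    have := h.ext (-1)
    simpa using this
  have h2 := h.mul (-1) a (Or.inl (by rw [h1]; exact one_ne_zero))
    (Or.inr (by rw [h1]; exact ENNReal.one_ne_top))
  rw [neg_one_mul, h1, one_mul] at h2
  exact h2

lemma IsPt.mul_ne_top (h : IsPt p k L φ) {a b : L} (ha : φ a ≠ ∞) (hb : φ b ≠ ∞) :
    φ (a * b) ≠ ∞ := by
  rw [h.mul a b (Or.inr hb) (Or.inr ha)]
  exact ENNReal.mul_ne_top ha hb

lemma IsPt.add_ne_top (h : IsPt p k L φ) {a b : L} (ha : φ a ≠ ∞) (hb : φ b ≠ ∞) :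
    φ (a + b) ≠ ∞ := by
  refine ne_top_of_le_ne_top ?_ (h.add a b)
  exact (max_lt (lt_top_iff_ne_top.mpr ha) (lt_top_iff_ne_top.mpr hb)).ne

/-- The valuation of a point that is finite everywhere. -/
def IsPt.toValuation (h : IsPt p k L φ) (hfin : ∀ a, φ a ≠ ∞) : Valuation L ℝ≥0 where
  toFun a := (φ a).toNNReal
  map_zero' := by rw [h.map_zero]; rfl
  map_one' := by rw [h.map_one]; rfl
  map_mul' a b := by
    rw [h.mul a b (Or.inr (hfin b)) (Or.inr (hfin a)), ENNReal.toNNReal_mul]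
  map_add_le_max' a b := by
    rw [← ENNReal.coe_le_coe, ENNReal.coe_max, ENNReal.coe_toNNReal (hfin _),
      ENNReal.coe_toNNReal (hfin _), ENNReal.coe_toNNReal (hfin _)]
    exact h.add a b

lemma IsPt.coe_toValuation (h : IsPt p k L φ) (hfin : ∀ a, φ a ≠ ∞) (a : L) :
    ((h.toValuation hfin a : ℝ≥0) : ℝ≥0∞) = φ a := ENNReal.coe_toNNReal (hfin a)

/-- The valuation ring of a point. -/
def IsPt.ring (h : IsPt p k L φ) : ValuationSubring L where
  carrier := {a | φ a ≠ ∞}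
  mul_mem' ha hb := h.mul_ne_top ha hb
  one_mem' := by
    change φ 1 ≠ ∞
    rw [h.map_one]; exact ENNReal.one_ne_top
  add_mem' ha hb := h.add_ne_top ha hb
  zero_mem' := by
    change φ 0 ≠ ∞
    rw [h.map_zero]; exact ENNReal.zero_ne_top
  neg_mem' {a} ha := by
    change φ (-a) ≠ ∞
    rw [h.map_neg]; exact ha
  mem_or_inv_mem' a := by
    change φ a ≠ ∞ ∨ φ a⁻¹ ≠ ∞
    rcases eq_or_ne a 0 with rfl | ha
    · left; rw [h.map_zero]; exact ENNReal.zero_ne_top
    · by_cases h1 : φ a = ∞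
      · right
        rw [h.inv a ha, h1, ENNReal.inv_top]; exact ENNReal.zero_ne_top
      · left; exact h1

lemma IsPt.mem_ring (h : IsPt p k L φ) (a : L) : a ∈ h.ring ↔ φ a ≠ ∞ := Iff.rfl

/-- Elements algebraic over `ℚ_p` are in the ring of a point. -/
lemma IsPt.ne_top_of_isIntegral (h : IsPt p k L φ) [Algebra ℚ_[p] L] [IsScalarTower ℚ_[p] k L]
    {c : L} (hc : IsIntegral ℚ_[p] c) : φ c ≠ ∞ := by
  intro htop
  have hc0 : c ≠ 0 := by
    rintro rfl
    rw [h.map_zero] at htop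
    exact ENNReal.zero_ne_top htop
  have hinv : φ c⁻¹ = 0 := by rw [h.inv c hc0, htop, ENNReal.inv_top]
  -- powers of the inverse
  have hpow : ∀ n : ℕ, 0 < n → φ (c⁻¹ ^ n) = 0 := by
    intro n hn
    induction n with
    | zero => omega
    | succ n ih =>
      rcases Nat.eq_zero_or_pos n with rfl | hn'
      · simpa using hinv
      · have h1 := ih hn'
        rw [pow_succ, h.mul _ _ (Or.inr (by rw [hinv]; exact ENNReal.zero_ne_top))
          (Or.inr (by rw [h1]; exact ENNReal.zero_ne_top)), h1, zero_mul]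
  have hfin : ∀ q : ℚ_[p], φ (algebraMap ℚ_[p] L q) = ‖q‖₊ := by
    intro q
    rw [IsScalarTower.algebraMap_apply ℚ_[p] k L]
    exact h.ext q
  obtain ⟨P, hP, hPc⟩ := hc
  set n := P.natDegree with hn
  -- 1 = - sum_{i<n} a_i c^{-(n-i)}
  have h1 : (1 : L) = - ∑ i ∈ Finset.range n, algebraMap ℚ_[p] L (P.coeff i) * c⁻¹ ^ (n - i) := by
    have h2 : Polynomial.eval₂ (algebraMap ℚ_[p] L) c P =
        ∑ i ∈ Finset.range (n + 1), algebraMap ℚ_[p] L (P.coeff i) * c ^ i := by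
      rw [Polynomial.eval₂_eq_sum_range]
    rw [hPc, Finset.sum_range_succ, hP.coeff_natDegree, _root_.map_one, one_mul] at h2
    have h3 : c ^ n = - ∑ i ∈ Finset.range n, algebraMap ℚ_[p] L (P.coeff i) * c ^ i :=
      eq_neg_of_add_eq_zero_right h2.symm
    have h4 : (1 : L) = c⁻¹ ^ n * c ^ n := by
      rw [← mul_pow, inv_mul_cancel₀ hc0, one_pow]
    rw [h4, h3, mul_neg, Finset.mul_sum]
    congr 1
    refine Finset.sum_congr rfl fun i hi => ?_
    have hi' : i < n := Finset.mem_range.mp hi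
    have h5 : c⁻¹ ^ n = c⁻¹ ^ (n - i) * c⁻¹ ^ i := by
      rw [← pow_add]; congr 1; omega
    have h6 : c⁻¹ ^ i * c ^ i = 1 := by rw [← mul_pow, inv_mul_cancel₀ hc0, one_pow]
    rw [h5]
    calc c⁻¹ ^ (n - i) * c⁻¹ ^ i * (algebraMap ℚ_[p] L (P.coeff i) * c ^ i)
        = algebraMap ℚ_[p] L (P.coeff i) * c⁻¹ ^ (n - i) * (c⁻¹ ^ i * c ^ i) := by ring
      _ = _ := by rw [h6, mul_one]
  have hz : ∀ s : Finset ℕ, (∀ i ∈ s, i < n) →
      φ (∑ i ∈ s, algebraMap ℚ_[p] L (P.coeff i) * c⁻¹ ^ (n - i)) = 0 := by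
    intro s
    induction s using Finset.induction_on with
    | empty => intro _; rw [Finset.sum_empty, h.map_zero]
    | insert a s ha ih =>
      intro hs
      rw [Finset.sum_insert ha]
      have h2 := h.add (algebraMap ℚ_[p] L (P.coeff a) * c⁻¹ ^ (n - a))
        (∑ i ∈ s, algebraMap ℚ_[p] L (P.coeff i) * c⁻¹ ^ (n - i))
      rw [ih (fun i hi => hs i (Finset.mem_insert_of_mem hi))] at h2
      have h3 : φ (algebraMap ℚ_[p] L (P.coeff a) * c⁻¹ ^ (n - a)) = 0 := by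
        have h4 : φ (c⁻¹ ^ (n - a)) = 0 :=
          hpow _ (by have := hs a (Finset.mem_insert_self _ _); omega)
        rw [h.mul _ _ (Or.inr (by rw [h4]; exact ENNReal.zero_ne_top))
          (Or.inr (by rw [hfin]; exact ENNReal.coe_ne_top)), h4, mul_zero]
      rw [h3, max_self] at h2
      exact le_antisymm h2 zero_le
  have h7 : φ 1 = 0 := by
    rw [h1, h.map_neg]
    exact hz _ fun i hi => Finset.mem_range.mp hi
  rw [h.map_one] at h7
  exact one_ne_zero h7

end basics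

end Crest.Agent.R013.A2b_275
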