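import Crest.Agent.R013.CLiftN1_903

/-!
# C-LIFTN, part 2: étale classes with prescribed reductions at finitely many norms

`LiftC C K N` is the pointwise form of LEMMA LIFT over the algebraically closed field `C`.
`cliftn`: for norms `w i` of type 2 and `u i ∈ (kap (w i))^×` with `N ∣ div (u i)` there is `h ∈ K^×`
with `N ∣ div h` which reduces to `u i` at `w i` modulo `N`-th powers, for every `i`.
-/

set_option autoImplicit false
set_option linter.unusedSectionVars false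

namespace Crest.Agent.R013.CLiftN_903

open scoped NNReal
open WithZero Polynomial
open Crest.Agent.R013.RR7_948 Crest.Agent.R013.Red332 Crest.Agent.R013.SSK_332
open Crest.Agent.R013.LiftA_168 Crest.Agent.R013.RR11_948

/-- **LEMMA LIFT**, pointwise form over `C`. -/
def LiftC (C K : Type*) [NormedField C] [IsUltrametricDist C] [Field K] [Algebra C K] (N : ℕ) :
    Prop :=
  ∀ (z h₀ : K), Transcendental C z → h₀ ≠ 0 →
    (∀ A : ValuationSubring K, (∀ c : C, ‖c‖ ≤ 1 → algebraMap C K c ∈ A) → A.valuation z < 1 →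
      (∀ c : C, ‖c‖ < 1 → ∀ n : ℕ, A.valuation (algebraMap C K c / z ^ n) < 1) →
      ∃ g : K, g ≠ 0 ∧ A.valuation (h₀ * g ^ N) = 1) →
    ∃ θ : ℝ, θ < 1 ∧ ∀ r : C, θ < ‖r‖ → ‖r‖ < 1 → ∃ h : K, h ≠ 0 ∧
      (∀ w : Valuation K ℝ≥0, (∀ c : C, w (algebraMap C K c) = ‖c‖₊) →
        (‖r‖₊ ≤ w z → ∃ g : K, g ≠ 0 ∧ w (h / (h₀ * g ^ N) - 1) < 1) ∧
        (w z < ‖r‖₊ → ∃ g : K, g ≠ 0 ∧ w (h / g ^ N - 1) < 1)) ∧
      (∀ P : Pl C K,
        ((∃ c : C, ‖c‖ < ‖r‖ ∧ P.v (z - algebraMap C K c) < 1) →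
          ∃ g : K, g ≠ 0 ∧ P.v (h / g ^ N - 1) < 1) ∧
        ((¬ ∃ c : C, ‖c‖ < ‖r‖ ∧ P.v (z - algebraMap C K c) < 1) →
          ∃ g : K, g ≠ 0 ∧ P.v (h / (h₀ * g ^ N) - 1) < 1))

section Img

variable {C : Type*} [NormedField C] [IsUltrametricDist C] {K : Type*} [Field K] [Algebra C K]
  (w : Nm C K) (A : ValuationSubring K) (h1 : ∀ a ∈ A, w.v a ≤ 1)
  (h2 : ∀ a, w.v a < 1 → A.valuation a < 1)

/-- the image of `A` in the residue field -/
def img : ValuationSubring (kap w) where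
  carrier := {a | ∃ f ∈ A, red w f = a}
  mul_mem' := by
    rintro _ _ ⟨f, hf, rfl⟩ ⟨g, hg, rfl⟩
    exact ⟨f * g, A.mul_mem _ _ hf hg, red_mul w (h1 f hf) (h1 g hg)⟩
  one_mem' := ⟨1, A.one_mem, red_one w⟩
  add_mem' := by
    rintro _ _ ⟨f, hf, rfl⟩ ⟨g, hg, rfl⟩
    exact ⟨f + g, A.add_mem _ _ hf hg, red_add w (h1 f hf) (h1 g hg)⟩
  zero_mem' := ⟨0, A.zero_mem, red_zero w⟩
  neg_mem' := by
    rintro _ ⟨f, hf, rfl⟩
    exact ⟨-f, A.neg_mem _ hf, red_neg w f⟩
  mem_or_inv_mem' := by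
    intro a
    obtain ⟨f, hf, rfl⟩ := red_surj w a
    rcases eq_or_ne (red w f) 0 with h0 | h0
    · left
      exact ⟨0, A.zero_mem, by rw [h0, red_zero]⟩
    · have hf1 : w.v f = 1 := (red_ne_zero_iff w hf).1 h0
      rcases A.mem_or_inv_mem f with h | h
      · exact Or.inl ⟨f, h, rfl⟩
      · exact Or.inr ⟨f⁻¹, h, red_inv w hf1⟩

include h2 in
theorem mem_of_mem_img {f : K} (hf : w.v f ≤ 1) (h : red w f ∈ img w A h1) : f ∈ A := by
  obtain ⟨f', hf', e⟩ := h
  have h3 : w.v (f - f') < 1 := (red_eq_iff w hf (h1 f' hf')).1 e.symm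
  have h4 : f - f' ∈ A := (ValuationSubring.valuation_le_one_iff _ _).1 (h2 _ h3).le
  have : f = f' + (f - f') := by ring
  rw [this]
  exact A.add_mem _ _ hf' h4

include h2 in
theorem valuation_eq_one {f : K} (hf : w.v f = 1) (h : (img w A h1).valuation (red w f) = 1) :
    A.valuation f = 1 := by
  have hf0 : f ≠ 0 := by rintro rfl; simp at hf
  have h3 : f ∈ A := mem_of_mem_img w A h1 h2 hf.le
    ((ValuationSubring.valuation_le_one_iff _ _).1 h.le)
  have h4 : f⁻¹ ∈ A := by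
    refine mem_of_mem_img w A h1 h2 (by rw [map_inv₀, hf, inv_one]) ?_
    rw [red_inv w hf, ← ValuationSubring.valuation_le_one_iff, map_inv₀, h, inv_one]
  refine le_antisymm ((ValuationSubring.valuation_le_one_iff _ _).2 h3) ?_
  have h5 := (ValuationSubring.valuation_le_one_iff _ _).2 h4
  rw [map_inv₀] at h5
  exact (inv_le_one₀ (zero_lt_iff.2 ((Valuation.ne_zero_iff _).2 hf0))).1 h5

include h1 in
/-- prescribed `N`-divisible divisor: the hypothesis at a composite valuation ring -/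
theorem exists_unit (N : ℕ) (U : K) (hU : w.v U = 1)
    (hdiv : ∀ Q : ValuationSubring (kap w), (∀ c : Ct C, algebraMap (Ct C) (kap w) c ∈ Q) →
      ∃ g : kap w, g ≠ 0 ∧ Q.valuation (red w U * g ^ N) = 1)
    (h2' : ∀ a, w.v a < 1 → A.valuation a < 1)
    (hC : ∀ c : C, ‖c‖ ≤ 1 → algebraMap C K c ∈ A) :
    ∃ g : K, g ≠ 0 ∧ A.valuation (U * g ^ N) = 1 := by
  obtain ⟨g, hg0, hg⟩ := hdiv (img w A h1) (by
    intro c
    obtain ⟨c', hc', rfl⟩ := rc_surj c
    exact ⟨algebraMap C K c', hC c' (by exact_mod_cast hc'), red_C w c' hc'⟩)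
  obtain ⟨g', hg', rfl⟩ := red_surj w g
  have hg1 : w.v g' = 1 := (red_ne_zero_iff w hg').1 hg0
  refine ⟨g', by rintro rfl; simp at hg1, ?_⟩
  refine valuation_eq_one w A h1 h2' (by rw [map_mul, map_pow, hU, hg1, one_pow, one_mul]) ?_
  rw [red_mul w hU.le (by rw [map_pow, hg1, one_pow]), red_pow w hg']
  exact hg

end Img

/-- places instead of valuation rings -/
theorem hdiv_of_pl {F κ : Type*} [Field F] [Field κ] [Algebra F κ] [Algebra (RatFunc F) κ]
    [IsScalarTower F (RatFunc F) κ] [FiniteDimensional (RatFunc F) κ]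
    [Algebra.IsSeparable (RatFunc F) κ] (N : ℕ) (u : κ) (hu : u ≠ 0)
    (h : ∀ x : Pl F κ, ∃ m : ℤ, x.v u = exp (N * m)) (Q : ValuationSubring κ)
    (hQ : ∀ c : F, algebraMap F κ c ∈ Q) : ∃ g : κ, g ≠ 0 ∧ Q.valuation (u * g ^ N) = 1 := by
  have hc : ∀ c : F, c ≠ 0 → Q.valuation (algebraMap F κ c) = 1 := by
    intro c hc
    refine le_antisymm ((ValuationSubring.valuation_le_one_iff _ _).2 (hQ c)) ?_
    have h5 := (ValuationSubring.valuation_le_one_iff _ _).2 (hQ c⁻¹)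
    rw [map_inv₀, map_inv₀] at h5
    exact (inv_le_one₀ (zero_lt_iff.2 ((Valuation.ne_zero_iff _).2
      ((_root_.map_ne_zero _).2 hc)))).1 h5
  by_cases hnt : ∃ a : κ, Q.valuation a ≠ 0 ∧ Q.valuation a ≠ 1
  · obtain ⟨P, hP⟩ := RR13_948.exists_place (k := F) Q.valuation hc hnt
    obtain ⟨m, hm⟩ := h P
    obtain ⟨g, hg⟩ := P.surj (exp (-m))
    have hg0 : g ≠ 0 := by
      rintro rfl
      rw [map_zero] at hg
      exact exp_ne_zero hg.symm
    refine ⟨g, hg0, ?_⟩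
    rw [← hP.eq_one_iff_eq_one, map_mul, map_pow, hm, hg, ← exp_nsmul, ← exp_add, ← exp_zero]
    congr 1
    simp
  · push Not at hnt
    refine ⟨1, one_ne_zero, ?_⟩
    rw [one_pow, mul_one]
    exact hnt u ((Valuation.ne_zero_iff _).2 hu)

section Main

variable {C : Type*} [NormedField C] [IsUltrametricDist C] [IsAlgClosed C]

/-- the value group is dense -/
theorem exists_between (hnt : ∃ π : C, π ≠ 0 ∧ ‖π‖ < 1) (μ : ℝ) (hμ : μ < 1) :
    ∃ r : C, μ < ‖r‖ ∧ ‖r‖ < 1 := by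
  obtain ⟨π, hπ0, hπ1⟩ := hnt
  set ν : ℝ := max μ 0 with hν
  have hν1 : ν < 1 := max_lt hμ one_pos
  have hν0 : 0 ≤ ν := le_max_right _ _
  obtain ⟨n, hn⟩ := exists_pow_lt_of_lt_one (norm_pos_iff.2 hπ0) hν1
  have hn0 : n ≠ 0 := by
    rintro rfl
    rw [pow_zero] at hn
    exact absurd hn (not_lt.2 hπ1.le)
  obtain ⟨r, hr⟩ := IsAlgClosed.exists_pow_nat_eq π (Nat.pos_of_ne_zero hn0)
  have hr' : ‖r‖ ^ n = ‖π‖ := by rw [← norm_pow, hr]
  refine ⟨r, ?_, ?_⟩
  · by_contra hcon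
    push Not at hcon
    have h1 : ‖r‖ ≤ ν := hcon.trans (le_max_left _ _)
    have h2 := pow_le_pow_left₀ (norm_nonneg r) h1 n
    rw [hr'] at h2
    exact absurd hn (not_lt.2 h2)
  · by_contra hcon
    push Not at hcon
    have := one_le_pow₀ hcon (n := n)
    rw [hr'] at this
    exact absurd hπ1 (not_lt.2 this)

variable {K : Type*} [Field K] [Algebra C K] [Algebra (RatFunc C) K]
  [IsScalarTower C (RatFunc C) K] [FiniteDimensional (RatFunc C) K]
  [Algebra.IsSeparable (RatFunc C) K]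

/-- the polynomial which vanishes at the reductions -/
theorem exists_A (t : K) (S : Finset (Pl C K)) : ∃ A : C[X], MI (nC C) A ∧
    ∀ P ∈ S, 1 < P.v t ∨ ∃ c : C, P.v (t - algebraMap C K c) < 1 ∧ (‖c‖ ≤ 1 → A.eval c = 0) := by
  classical
  have h1 : ∀ P : Pl C K, ∃ c : C, P.v t ≤ 1 → P.v (t - algebraMap C K c) < 1 := by
    intro P
    by_cases h : P.v t ≤ 1
    · obtain ⟨c, hc⟩ := GR2_921.exists_const P h
      exact ⟨c, fun _ => hc⟩
    · exact ⟨0, fun h' => absurd h' h⟩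
  choose c hc using h1
  refine ⟨∏ P ∈ S, if ‖c P‖ ≤ 1 then (X - Polynomial.C (c P)) else 1, ?_, ?_⟩
  · refine MI.prod _ _ fun P _ => ?_
    split_ifs with h
    · refine ⟨monic_X_sub_C _, fun i => ?_⟩
      rw [coeff_sub]
      refine (Valuation.map_sub_le _ (MI.var.le i) ?_)
      rw [coeff_C]
      split_ifs
      · exact_mod_cast h
      · rw [map_zero]; exact zero_le
    · exact MI.one
  · intro P hP
    rcases le_or_gt (P.v t) 1 with h | h
    · refine Or.inr ⟨c P, hc P h, fun h' => ?_⟩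
      rw [eval_prod]
      refine Finset.prod_eq_zero hP ?_
      rw [if_pos h', eval_sub, eval_X, eval_C, sub_self]
    · exact Or.inl h

/-- **C-LIFTN** for finitely many norms of type 2. -/
theorem cliftn {ι : Type*} [Finite ι] (w : ι → Nm C K) (hinj : Function.Injective w)
    (hnt : ∃ π : C, π ≠ 0 ∧ ‖π‖ < 1) (T : ι → K) (hT : ∀ i, (w i).v (T i) ≤ 1)
    (htr : ∀ i, Transcendental (Ct C) (red (w i) (T i))) (N : ℕ) (LC : LiftC C K N)
    (u : ∀ i, kap (w i)) (hu : ∀ i, u i ≠ 0)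
    (hdiv : ∀ i, ∀ Q : ValuationSubring (kap (w i)),
      (∀ c : Ct C, algebraMap (Ct C) (kap (w i)) c ∈ Q) →
      ∃ g : kap (w i), g ≠ 0 ∧ Q.valuation (u i * g ^ N) = 1) :
    ∃ h : K, h ≠ 0 ∧ (∀ P : Pl C K, ∃ m : ℤ, P.v h = exp (N * m)) ∧
      ∀ i, ∃ g : K, g ≠ 0 ∧ (w i).v (h / g ^ N) = 1 ∧ red (w i) (h / g ^ N) = u i := by
  classical
  rcases isEmpty_or_nonempty ι with hι | ⟨⟨i0⟩⟩
  · exact ⟨1, one_ne_zero, fun P => ⟨0, by rw [map_one, mul_zero, exp_zero]⟩,
      fun i => isEmptyElim i⟩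
  obtain ⟨π, hπ0, hπ1⟩ := id hnt
  have hnt' : ∃ c : C, nC C c ≠ 0 ∧ nC C c ≠ 1 :=
    ⟨π, (Valuation.ne_zero_iff _).2 hπ0, fun h => by
      rw [nC_apply] at h
      exact hπ1.ne (by rw [← coe_nnnorm, h]; rfl)⟩
  obtain ⟨t, ht⟩ := exists_coord w hinj hnt' T hT htr
  have htt : Transcendental C t := (ht i0).transcendental
  have hfd := fd_adjoin t htt
  have hfin : Finite {w' : Valuation K ℝ≥0 // IsG (nC C) w' t} :=
    (finite_isG (K := K) hnt' t).to_subtype
  -- lifts of the reductions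
  choose U hU1 hU2 using fun i => red_surj (w i) (u i)
  have hU : ∀ i, (w i).v (U i) = 1 := fun i => (red_ne_zero_iff (w i) (hU1 i)).1 (by
    rw [hU2]; exact hu i)
  -- weak approximation
  obtain ⟨h0, hh0⟩ := weak_approx (k := C) hnt'
    (fun w' : {w' : Valuation K ℝ≥0 // IsG (nC C) w' t} => w'.1) Subtype.val_injective
    (fun w' c => w'.2.ext c) (fun w' => if h : ∃ i, (w i).v = w'.1 then U h.choose else 1) 1 one_pos
  have ha : ∀ i, (w i).v (h0 - U i) < 1 := by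
    intro i
    have h1 := hh0 ⟨(w i).v, ht i⟩
    have h2 : ∃ j, (w j).v = (w i).v := ⟨i, rfl⟩
    rw [dif_pos h2] at h1
    have h3 : h2.choose = i := by
      apply hinj
      exact Nm.ext' fun f => by rw [h2.choose_spec]
    rw [h3] at h1
    exact h1
  have hb : ∀ w' : Valuation K ℝ≥0, IsG (nC C) w' t → (∀ i, (w i).v ≠ w') → w' (h0 - 1) < 1 := by
    intro w' h1 h2
    have h3 := hh0 ⟨w', h1⟩
    rw [dif_neg (by push Not; exact h2)] at h3
    exact h3
  have hv0 : ∀ i, (w i).v h0 = 1 := by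
    intro i
    have : h0 = U i + (h0 - U i) := by ring
    rw [this, Valuation.map_add_eq_of_lt_left _ (by rw [hU]; exact ha i), hU]
  have hred0 : ∀ i, red (w i) h0 = u i := by
    intro i
    rw [(red_eq_iff (w i) (hv0 i).le (hU1 i)).2 (ha i), hU2]
  have h00 : h0 ≠ 0 := by
    intro h
    have := hv0 i0
    rw [h, map_zero] at this
    exact zero_ne_one this
  -- the coordinate `z`
  obtain ⟨A, hA, hAS⟩ := exists_A t (divf (k := C) h0).support
  have hcz : ∀ P : Pl C K, ∃ c : C, ‖c‖ < 1 ∧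
      (P ∈ (divf (k := C) h0).support → P.v (zc A t - algebraMap C K c) < 1) := by
    intro P
    by_cases hP : P ∈ (divf (k := C) h0).support
    · obtain ⟨c, hc1, hc2⟩ := pl_zc P t hA (hAS P hP)
      exact ⟨c, hc1, fun _ => hc2⟩
    · exact ⟨0, by simp, fun h => absurd h hP⟩
  choose cz hcz1 hcz2 using hcz
  obtain ⟨ρ, hρ1, hρ⟩ : ∃ ρ : ℝ, ρ < 1 ∧ ∀ P ∈ (divf (k := C) h0).support, ‖cz P‖ ≤ ρ := by
    rcases (divf (k := C) h0).support.eq_empty_or_nonempty with he | hne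
    · exact ⟨0, one_pos, by rw [he]; simp⟩
    · obtain ⟨P, hP, hmax⟩ := Finset.exists_max_image _ (fun P => ‖cz P‖) hne
      exact ⟨‖cz P‖, hcz1 P, hmax⟩
  set z := zc A t with hz
  have hzG : ∀ i, IsG (nC C) (w i).v z := fun i => (ht i).zc hA
  have hzt : Transcendental C z := (hzG i0).transcendental
  have hz0 : z ≠ 0 := by
    intro h
    rw [h] at hzt
    exact hzt (isAlgebraic_zero)
  have hfdz := fd_adjoin z hzt
  have halg : ∀ a : K, IsAlgebraic (IntermediateField.adjoin C {z}) a :=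
    fun a => Algebra.IsAlgebraic.isAlgebraic a
  obtain ⟨θ, hθ1, hθ⟩ := LC z h0 hzt h00 (by
    intro O hO1 hO2 hO3
    obtain ⟨v, hv1, hv2, hv3, hv4, hv5⟩ := RZ_365.exists_norm_of_composite (nC C) hπ0
      hz0 (fun c hc => hO1 c (by exact_mod_cast hc)) hO2
      (hO3 π hπ1) halg
    have hvt : IsG (nC C) v t := isG_of_zc hA ⟨hv1, hv3.le, hv2⟩
    by_cases hex : ∃ i, (w i).v = v
    · obtain ⟨i, rfl⟩ := hex
      refine exists_unit (w i) O hv4 N h0 (hv0 i) ?_ hv5 hO1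
      rw [hred0]
      exact hdiv i
    · push Not at hex
      refine ⟨1, one_ne_zero, ?_⟩
      have h3 := hv5 _ (hb v hvt hex)
      rw [one_pow, mul_one]
      have : h0 = 1 + (h0 - 1) := by ring
      rw [this, Valuation.map_add_eq_of_lt_left _ (by rw [map_one]; exact h3), map_one])
  obtain ⟨r, hr1, hr2⟩ := exists_between hnt (max θ ρ) (max_lt hθ1 hρ1)
  obtain ⟨h, hh, hw, hP⟩ := hθ r ((le_max_left _ _).trans_lt hr1) hr2
  refine ⟨h, hh, fun P => ?_, fun i => ?_⟩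
  · -- places
    have key : ∀ g : K, g ≠ 0 → ∃ m : ℤ, P.v g ^ N = exp (N * m) := by
      intro g hg
      refine ⟨log (P.v g), ?_⟩
      have h1 : P.v g = exp (log (P.v g)) := (exp_log ((Valuation.ne_zero_iff _).2 hg)).symm
      conv_lhs => rw [h1]
      rw [← exp_nsmul]
      simp
    have one_unit : ∀ a : K, P.v (a - 1) < 1 → P.v a = 1 := by
      intro a ha
      have : a = 1 + (a - 1) := by ring
      rw [this, Valuation.map_add_eq_of_lt_left _ (by rw [map_one]; exact ha), map_one]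
    by_cases hc : ∃ c : C, ‖c‖ < ‖r‖ ∧ P.v (z - algebraMap C K c) < 1
    · obtain ⟨g, hg0, hg⟩ := (hP P).1 hc
      obtain ⟨m, hm⟩ := key g hg0
      refine ⟨m, ?_⟩
      have h1 := one_unit _ hg
      rw [map_div₀, map_pow, div_eq_one_iff_eq (pow_ne_zero _ ((Valuation.ne_zero_iff _).2 hg0))]
        at h1
      rw [h1, hm]
    · obtain ⟨g, hg0, hg⟩ := (hP P).2 hc
      obtain ⟨m, hm⟩ := key g hg0
      refine ⟨m, ?_⟩
      have h1 := one_unit _ hg
      have h2 : P ∉ (divf (k := C) h0).support := fun hPS =>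
        hc ⟨cz P, (hρ P hPS).trans_lt ((le_max_right _ _).trans_lt hr1), hcz2 P hPS⟩
      have h3 : P.v h0 = 1 := by
        rw [v_eq h00 P, Finsupp.notMem_support_iff.1 h2, neg_zero, exp_zero]
      rw [map_div₀, map_mul, map_pow, h3, one_mul,
        div_eq_one_iff_eq (pow_ne_zero _ ((Valuation.ne_zero_iff _).2 hg0))] at h1
      rw [h1, hm]
  · obtain ⟨g, hg0, hg⟩ := (hw (w i).v (w i).hC).1 (by
      rw [(hzG i).val_eq_one]; exact_mod_cast hr2.le)
    refine ⟨g, hg0, ?_⟩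
    set a : K := h / (h0 * g ^ N) with ha'
    have e : h / g ^ N = h0 * a := by
      rw [ha']; field_simp
    have hva : (w i).v a = 1 := by
      have : a = 1 + (a - 1) := by ring
      rw [this, Valuation.map_add_eq_of_lt_left _ (by rw [map_one]; exact hg), map_one]
    have hra : red (w i) a = 1 := by
      rw [← red_one (w i), red_eq_iff (w i) hva.le (by rw [map_one])]
      exact hg
    rw [e, map_mul, hv0, hva, one_mul, red_mul (w i) (hv0 i).le hva.le, hred0, hra, mul_one]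
    exact ⟨rfl, rfl⟩

end Main

end Crest.Agent.R013.CLiftN_903
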