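import Crest.Agent.R013.CB1d_903

/-!
# C-B1, part e: assembly of (A1)

Every function field of genus `≥ 2` over `C` has a finite unramified extension with a semistable
structure whose graph has a loop.  The inputs are stated as propositions.
-/

set_option autoImplicit false
set_option linter.unusedSectionVars false

namespace Crest.Agent.R013.CB1_903

open scoped NNReal
open WithZero Polynomial IntermediateField
open Crest.Agent.R013.RR7_948 Crest.Agent.R013.RR9_948 Crest.Agent.R013.RR11_948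
open Crest.Agent.R013.RR12_948 Crest.Agent.R013.PicD_398
open Crest.Agent.R013.RR18_948 Crest.Agent.R013.GR2_921
open Crest.Agent.R013.Red332 Crest.Agent.R013.SSK_332
open Crest.Agent.R013.CLiftN_903 Crest.Agent.R013.GR3_921

universe u

section Defs

variable (k C : Type*) [NontriviallyNormedField k] [CompleteSpace k]
  [NormedField C] [IsUltrametricDist C] [NormedAlgebra k C] [Algebra.IsAlgebraic k C]

/-- **(A1)**: a finite unramified extension with a loop -/
def A1 (K : Type u) [Field K] [Algebra C K] : Prop :=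
  ∃ (L : Type u) (_ : Field L) (_ : Algebra C L) (_ : Algebra K L) (_ : IsScalarTower C K L)
    (_ : FiniteDimensional K L) (SL : SSK k C L), UnrPl C K L ∧ SL.Conn ∧ nV SL ≤ nE SL

/-- existence of a semistable structure (with a prescribed vertex of positive genus) -/
def InSS : Prop :=
  ∀ (K : Type u) [Field K] [Algebra C K] (g : ℕ), HasGen C K g →
    (∃ S : SSK k C K, S.Conn) ∧
    ∀ (w : Nm C K) (g0 : ℕ), HasGen (Ct C) (kap w) g0 → 1 ≤ g0 →
      ∃ S : SSK k C K, S.Conn ∧ ∃ v, S.nm v = w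

/-- inheritance of semistable structures by Kummer covers split over the cells -/
def InKum : Prop :=
  ∀ (K L : Type u) [Field K] [Field L] [Algebra C K] [Algebra C L] [Algebra K L]
    [IsScalarTower C K L] [FiniteDimensional K L] [IsGalois K L] (g : ℕ), HasGen C K g →
    ∀ (S : SSK k C K), S.Conn → ∀ (N : ℕ), N ≠ 0 → ‖(N : C)‖ = 1 → ∀ (h : K), h ≠ 0 →
    ∀ y : L, y ^ N = algebraMap K L h → K⟮y⟯ = ⊤ →
    (∀ P : Pl C K, ∃ m : ℤ, P.v h = exp (N * m)) →
    (∀ v x, (N : ℤ) ∣ Red332.od (S.nm v) x h) →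
    ∃ (SL : SSK k C L) (f : SL.V → S.V),
      (∀ w c, (SL.nm w).v (algebraMap K L c) = (S.nm (f w)).v c) ∧
      nE SL = Module.finrank K L * nE S ∧ SL.Conn

/-- genus formula -/
def InGenus : Prop :=
  ∀ (K : Type u) [Field K] [Algebra C K] (g : ℕ), HasGen C K g → ∀ (S : SSK k C K), S.Conn →
    ∀ gv : S.V → ℕ, (∀ v, HasGen (Ct C) (kap (S.nm v)) (gv v)) →
      (g : ℤ) + nV S = (∑ᶠ v, (gv v : ℤ)) + nE S + 1

end Defs

section Defs2

variable (C : Type*) [NormedField C] [IsUltrametricDist C]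

/-- the good reduction case -/
def InGR : Prop :=
  ∀ (K : Type u) [Field K] [Algebra C K] (g : ℕ), HasGen C K g → 2 ≤ g →
    ∀ w : Nm C K, HasGen (Ct C) (kap w) g →
    ∃ (L : Type u) (_ : Field L) (_ : Algebra C L) (_ : Algebra K L) (_ : IsScalarTower C K L)
      (_ : FiniteDimensional K L), UnrPl C K L ∧
      ∃ (w' : Nm C L) (g1 g' : ℕ), HasGen C L g' ∧ HasGen (Ct C) (kap w') g1 ∧ 1 ≤ g1 ∧ g1 < g'

/-- lemma LIFT -/
def InLift (p : ℕ) : Prop :=
  ∀ (K : Type u) [Field K] [Algebra C K] (g : ℕ), HasGen C K g → ∀ N : ℕ, N.Coprime p →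
    LiftC C K N

end Defs2

section Main

variable {k C : Type*} [NontriviallyNormedField k] [CompleteSpace k]
  [NormedField C] [IsUltrametricDist C] [NormedAlgebra k C] [Algebra.IsAlgebraic k C]

theorem A1.of_unr {K L : Type u} [Field K] [Field L] [Algebra C K] [Algebra C L] [Algebra K L]
    [IsScalarTower C K L] [FiniteDimensional K L] (h : UnrPl C K L) (hL : A1 k C L) :
    A1 k C K := by
  obtain ⟨M, _, _, _, _, _, SM, h1, h2, h3⟩ := hL
  let _ : Algebra K M := ((algebraMap L M).comp (algebraMap K L)).toAlgebra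
  have _ : IsScalarTower K L M := IsScalarTower.of_algebraMap_eq fun x => rfl
  have _ : IsScalarTower C K M := IsScalarTower.of_algebraMap_eq fun x => by
    rw [IsScalarTower.algebraMap_apply C L M, IsScalarTower.algebraMap_apply C K L]
    rfl
  exact ⟨M, inferInstance, inferInstance, inferInstance, inferInstance,
    FiniteDimensional.trans K L M, SM, h.trans h1, h2, h3⟩

variable [IsAlgClosed C] [CharZero C] (p : ℕ) [Fact p.Prime] [Algebra (ZMod p) (Ct C)]
  [Algebra.IsAlgebraic (ZMod p) (Ct C)] [IsAlgClosed (Ct C)]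

/-- two vertices of positive genus -/
theorem a1_of_two (hp : ∀ N : ℕ, N.Coprime p → ‖(N : C)‖ = 1) (hK : InKum.{u} k C)
    (hL : InLift.{u} C p) (K : Type u) [Field K] [Algebra C K] (g : ℕ) (hg : HasGen C K g)
    (S : SSK k C K) (hS : S.Conn) (v1 v2 : S.V) (h12 : v1 ≠ v2) {g1 g2 : ℕ}
    (hg1 : HasGen (Ct C) (kap (S.nm v1)) g1) (h1 : 1 ≤ g1)
    (hg2 : HasGen (Ct C) (kap (S.nm v2)) g2) (h2 : 1 ≤ g2) : A1 k C K := by
  obtain ⟨i, j, f, s, hgg⟩ := id hg
  let _ := i
  have _ := j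
  have _ := f
  have _ := s
  obtain ⟨N, h, hN2, hNp, h0, hdiv, hod, hn1, hn2⟩ := exists_two_class S p
    (fun N hN => hL K g hg N hN) v1 v2 h12 hg1 h1 hg2 h2
  have hN0 : N ≠ 0 := by omega
  obtain ⟨L, _, _, _, _, _, _, y, hy, htop⟩ := exists_kummer (C := C) N hN0 h h0
  obtain ⟨SL, ff, hff, hE, hconn⟩ := hK K L g hg S hS N hN0 (hp N hNp) h h0 y hy htop hdiv hod
  exact ⟨L, inferInstance, inferInstance, inferInstance, inferInstance, inferInstance, SL,
    unrPl_of_kummer N hN0 h hdiv y hy htop, hconn,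
    b1_of_cover S SL ff hff hE hS N h h0 y hy v1 v2 h12 hn1 hn2⟩

/-- a tree with a vertex of positive genus smaller than the genus -/
theorem a1_of_vertex (hp : ∀ N : ℕ, N.Coprime p → ‖(N : C)‖ = 1) (hK : InKum.{u} k C)
    (hL : InLift.{u} C p) (hG : InGenus.{u} k C) (K : Type u) [Field K] [Algebra C K] (g : ℕ)
    (hg : HasGen C K g) (S : SSK k C K) (hS : S.Conn) :
    A1 k C K ∨ ∃ gv : S.V → ℕ, (∀ v, HasGen (Ct C) (kap (S.nm v)) (gv v)) ∧
      (∀ v v', v ≠ v' → gv v ≠ 0 → gv v' = 0) ∧ (g : ℤ) = ∑ᶠ v, (gv v : ℤ) := by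
  classical
  by_cases hle : nV S ≤ nE S
  · exact Or.inl ⟨K, inferInstance, inferInstance, inferInstance, inferInstance, inferInstance, S,
      UnrPl.refl, hS, hle⟩
  · have hlt := nV_le S hS
    have hgv : ∀ v : S.V, ∃ n, HasGen (Ct C) (kap (S.nm v)) n := by
      intro v
      obtain ⟨i, j, f, s⟩ := S.ff v
      exact ⟨_, hasGen_gen _ _⟩
    choose gv hgv using hgv
    by_cases htwo : ∃ v v', v ≠ v' ∧ gv v ≠ 0 ∧ gv v' ≠ 0
    · obtain ⟨v, v', hne, h1, h2⟩ := htwo
      exact Or.inl (a1_of_two p hp hK hL K g hg S hS v v' hne (hgv v) (by omega) (hgv v') (by omega))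
    · push Not at htwo
      refine Or.inr ⟨gv, hgv, htwo, ?_⟩
      have h3 := hG K g hg S hS gv hgv
      have h4 : (nV S : ℤ) = nE S + 1 := by omega
      rw [h4] at h3
      linarith

/-- **(A1)** from its inputs -/
theorem a1 (hp : ∀ N : ℕ, N.Coprime p → ‖(N : C)‖ = 1) (hSS : InSS.{u} k C) (hK : InKum.{u} k C)
    (hL : InLift.{u} C p) (hG : InGenus.{u} k C) (hGR : InGR.{u} C) (K : Type u) [Field K]
    [Algebra C K] (g : ℕ) (hg : HasGen C K g) (h2 : 2 ≤ g) : A1 k C K := by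
  classical
  obtain ⟨S, hS⟩ := (hSS K g hg).1
  rcases a1_of_vertex p hp hK hL hG K g hg S hS with h | ⟨gv, hgv, hzero, hsum⟩
  · exact h
  let _ := S.fV
  obtain ⟨v, hv⟩ : ∃ v, gv v ≠ 0 := by
    by_contra hcon
    push Not at hcon
    rw [finsum_eq_zero_of_forall_eq_zero fun v => by rw [hcon v]; rfl] at hsum
    omega
  have hgv' : gv v = g := by
    rw [finsum_eq_single _ v fun v' hv' => by rw [hzero v v' hv'.symm hv]; rfl] at hsum
    exact_mod_cast hsum.symm
  obtain ⟨L, _, _, _, _, _, hunr, w', g1, g', hg', hg1, h1, hlt⟩ :=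
    hGR K g hg h2 (S.nm v) (hgv' ▸ hgv v)
  refine A1.of_unr hunr ?_
  obtain ⟨S', hS', v', hv'⟩ := (hSS L g' hg').2 w' g1 hg1 h1
  rcases a1_of_vertex p hp hK hL hG L g' hg' S' hS' with h | ⟨gv', hgv2, hzero', hsum'⟩
  · exact h
  exfalso
  have h3 : gv' v' = g1 := by
    have := hgv2 v'
    rw [hv'] at this
    exact this.unique hg1
  rw [finsum_eq_single _ v' fun v'' hv'' => by
    rw [hzero' v' v'' hv''.symm (by omega)]; rfl] at hsum'
  omega

end Main

end Crest.Agent.R013.CB1_903
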