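import Crest.Agent.R013.RZ6_365
import Crest.Agent.R013.CB1e_903

/-!
# `InLift` of CB1e_903 (row 13; helper365)
-/

set_option autoImplicit false
set_option linter.unusedSectionVars false

namespace Crest.Agent.R013.RZ_365

open Cell_408 CB1_903

universe u

variable {k : Type*} {C : Type*} [NontriviallyNormedField k] [CompleteSpace k]
  [IsUltrametricDist k] [NormedField C] [IsUltrametricDist C] [NormedAlgebra k C]
  [Algebra.IsAlgebraic k C] [IsAlgClosed C] [CharZero C]

/-- **LEMMA LIFT** in the form consumed by `CB1_903.a1`. -/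
theorem inLift (hk : DiscNorm k) {p : ℕ} (hp : ∀ N : ℕ, N.Coprime p → ‖(N : C)‖ = 1) :
    InLift.{u} C p := by
  intro K _ _ g hg N hN
  obtain ⟨i, j, f, s, -⟩ := hg
  exact liftC hk N (hp N hN)

end Crest.Agent.R013.RZ_365
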