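import Crest.Agent.R013.TP11_928

/-!
# R013 / C-TP (helper928), part 14: the residue field of an algebraic closure of `ℚ_[p]`

`Ct C` is algebraically closed (`C` algebraically closed), of characteristic `p` and algebraic over
`ZMod p` (`C` algebraic over `ℚ_[p]`).
-/

set_option autoImplicit false
set_option linter.unusedSectionVars false
set_option linter.style.haveILetI false

namespace Crest.Agent.R013.TP14_928

open scoped NNReal
open Polynomial IsLocalRing
open Crest.Agent.R013.Red332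

section closed

variable {C : Type*} [NormedField C] [IsUltrametricDist C]

/-- the residue field of an algebraically closed field is algebraically closed -/
instance isAlgClosed_Ct [IsAlgClosed C] : IsAlgClosed (Ct C) := by
  refine IsAlgClosed.of_exists_root _ fun P hP hirr => ?_
  let O := (NormedField.valuation (K := C)).valuationSubring
  let r : O →+* Ct C := residue O
  have hr : Function.Surjective r := residue_surjective
  obtain ⟨Q, hQ, hdeg, hmon⟩ := lifts_and_natDegree_eq_and_monic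
    ((mem_lifts P).mpr (map_surjective r hr P)) hP
  have hd : (Q.map (algebraMap O C)).degree ≠ 0 := by
    rw [hmon.degree_map, degree_eq_natDegree hmon.ne_zero, hdeg]
    have := hirr.natDegree_pos
    exact_mod_cast this.ne'
  obtain ⟨x, hx⟩ := IsAlgClosed.exists_root (Q.map (algebraMap O C)) hd
  have hint : IsIntegral O x := ⟨Q, hmon, by rw [← eval_map]; exact hx⟩
  obtain ⟨y, rfl⟩ := (IsIntegrallyClosed.isIntegral_iff (R := O) (K := C)).mp hint
  have hy : Q.eval y = 0 := by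
    have h1 : algebraMap O C (Q.eval y) = 0 := by
      rw [IsRoot.def, eval_map, eval₂_at_apply] at hx
      exact hx
    exact (map_eq_zero_iff _ (IsFractionRing.injective O C)).mp h1
  refine ⟨r y, ?_⟩
  rw [← hQ, eval_map, eval₂_at_apply, hy, map_zero]

end closed

section padic

variable {C : Type*} [NormedField C] [IsUltrametricDist C] (p : ℕ) [hp : Fact p.Prime]
  [NormedAlgebra ℚ_[p] C]

theorem nnnorm_natCast_le (n : ℕ) : ‖(n : C)‖₊ ≤ 1 := by
  have h1 : ‖(n : C)‖ ≤ 1 := IsUltrametricDist.norm_natCast_le_one C n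
  exact_mod_cast h1

theorem rc_natCast (n : ℕ) : rc (n : C) = (n : Ct C) := by
  induction n with
  | zero => simpa using rc_zero
  | succ n ih =>
    rw [Nat.cast_succ, rc_add (nnnorm_natCast_le n) (by simp), ih, rc_one, Nat.cast_succ]

include p in
theorem charP_Ct : CharP (Ct C) p := by
  rw [CharP.charP_iff_prime_eq_zero hp.out, ← rc_natCast, rc_eq_zero_iff (nnnorm_natCast_le p)]
  have h1 : ‖(p : C)‖ < 1 := by
    have h2 : (p : C) = algebraMap ℚ_[p] C (p : ℚ_[p]) := by simp
    rw [h2, norm_algebraMap', Padic.norm_p]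
    exact inv_lt_one_of_one_lt₀ (by exact_mod_cast hp.out.one_lt)
  exact_mod_cast h1

/-- the reduction of a `p`-adic integer -/
theorem rc_padic (a : ℤ_[p]) : letI := charP_Ct (C := C) p
    rc (algebraMap ℚ_[p] C (a : ℚ_[p])) = ZMod.castHom (dvd_refl p) (Ct C) (PadicInt.toZMod a) := by
  haveI := charP_Ct (C := C) p
  have h1 : ‖algebraMap ℚ_[p] C ((a - (PadicInt.zmodRepr a : ℤ_[p]) : ℤ_[p]) : ℚ_[p])‖₊ < 1 := by
    have h2 : ‖a - (PadicInt.zmodRepr a : ℤ_[p])‖ < 1 := by
      have h3 := PadicInt.sub_zmodRepr_mem (p := p) a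
      exact (PadicInt.mem_nonunits).mp ((IsLocalRing.mem_maximalIdeal _).mp h3)
    have h4 : ‖algebraMap ℚ_[p] C ((a - (PadicInt.zmodRepr a : ℤ_[p]) : ℤ_[p]) : ℚ_[p])‖ < 1 := by
      rw [norm_algebraMap']
      exact h2
    exact_mod_cast h4
  have h2 : algebraMap ℚ_[p] C (a : ℚ_[p]) =
      algebraMap ℚ_[p] C ((a - (PadicInt.zmodRepr a : ℤ_[p]) : ℤ_[p]) : ℚ_[p]) +
        ((PadicInt.zmodRepr a : ℕ) : C) := by
    rw [PadicInt.coe_sub, PadicInt.coe_natCast, map_sub, map_natCast, sub_add_cancel]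
  rw [h2, rc_add h1.le (nnnorm_natCast_le _), (rc_eq_zero_iff h1.le).mpr h1, zero_add, rc_natCast]
  have h3 : PadicInt.toZMod a = ((PadicInt.zmodRepr a : ℕ) : ZMod p) := by
    simp [PadicInt.toZMod, PadicInt.toZModHom]
  rw [h3, map_natCast]

/-- the prime field -/
@[reducible] noncomputable def algCt : Algebra (ZMod p) (Ct C) :=
  haveI := charP_Ct (C := C) p
  ZMod.algebra _ p

theorem rc_pow {c : C} (hc : ‖c‖₊ ≤ 1) (n : ℕ) : rc (c ^ n) = rc c ^ n := by
  induction n with
  | zero => rw [pow_zero, pow_zero, rc_one]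
  | succ n ih =>
    rw [pow_succ, pow_succ, rc_mul (by rw [nnnorm_pow]; exact pow_le_one' hc n) hc, ih]

/-- the residue field is algebraic over the prime field -/
theorem isAlgebraic_Ct [Algebra.IsAlgebraic ℚ_[p] C] : letI := algCt (C := C) p
    Algebra.IsAlgebraic (ZMod p) (Ct C) := by
  letI := algCt (C := C) p
  haveI := charP_Ct (C := C) p
  refine ⟨fun t => ?_⟩
  obtain ⟨c, hc, rfl⟩ := rc_surj t
  obtain ⟨P, hP0, hP⟩ : IsAlgebraic ℚ_[p] c := Algebra.IsAlgebraic.isAlgebraic c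
  obtain ⟨i, hi, hmax⟩ := P.support.exists_max_image (fun i => ‖P.coeff i‖)
    (Polynomial.support_nonempty.mpr hP0)
  have hi0 : P.coeff i ≠ 0 := mem_support_iff.mp hi
  have hle : ∀ j, ‖(P.coeff i)⁻¹ * P.coeff j‖ ≤ 1 := by
    intro j
    rw [norm_mul, norm_inv, inv_mul_le_iff₀ (norm_pos_iff.mpr hi0), mul_one]
    by_cases hj : j ∈ P.support
    · exact hmax j hj
    · rw [notMem_support_iff.mp hj, norm_zero]
      exact norm_nonneg _
  obtain ⟨β, hβ⟩ : ∃ β : ℕ → ℤ_[p], ∀ j, ((β j : ℤ_[p]) : ℚ_[p]) = (P.coeff i)⁻¹ * P.coeff j :=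
    ⟨fun j => ⟨_, hle j⟩, fun j => rfl⟩
  have hβi : β i = 1 := by
    apply PadicInt.ext
    rw [hβ, inv_mul_cancel₀ hi0, PadicInt.coe_one]
  refine ⟨∑ j ∈ P.support, monomial j (PadicInt.toZMod (β j)), ?_, ?_⟩
  · intro h0
    have h1 := congrArg (fun R => R.coeff i) h0
    simp only [finsetSum_coeff, coeff_monomial, coeff_zero] at h1
    rw [Finset.sum_ite_eq' P.support i (fun j => PadicInt.toZMod (β j)), if_pos hi, hβi,
      map_one] at h1
    exact one_ne_zero h1
  · have h1 : ∑ j ∈ P.support, algebraMap ℚ_[p] C ((β j : ℤ_[p]) : ℚ_[p]) * c ^ j = 0 := by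
      have h2 : ∑ j ∈ P.support, algebraMap ℚ_[p] C (P.coeff j) * c ^ j = 0 := by
        rw [← hP, aeval_def, eval₂_eq_sum, Polynomial.sum_def]
      have h3 : ∑ j ∈ P.support, algebraMap ℚ_[p] C ((β j : ℤ_[p]) : ℚ_[p]) * c ^ j =
          algebraMap ℚ_[p] C (P.coeff i)⁻¹ *
            ∑ j ∈ P.support, algebraMap ℚ_[p] C (P.coeff j) * c ^ j := by
        rw [Finset.mul_sum]
        refine Finset.sum_congr rfl fun j _ => ?_
        rw [hβ, map_mul, mul_assoc]
      rw [h3, h2, mul_zero]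
    have hn : ∀ j, ‖algebraMap ℚ_[p] C ((β j : ℤ_[p]) : ℚ_[p])‖₊ ≤ 1 := by
      intro j
      have h2 : ‖algebraMap ℚ_[p] C ((β j : ℤ_[p]) : ℚ_[p])‖ ≤ 1 := by
        rw [norm_algebraMap']
        exact PadicInt.norm_le_one (β j)
      exact_mod_cast h2
    have hn2 : ∀ j, ‖algebraMap ℚ_[p] C ((β j : ℤ_[p]) : ℚ_[p]) * c ^ j‖₊ ≤ 1 := by
      intro j
      rw [nnnorm_mul, nnnorm_pow]
      exact mul_le_one' (hn j) (pow_le_one' hc j)
    have h3 : ∀ s : Finset ℕ, ‖∑ j ∈ s,
        algebraMap ℚ_[p] C ((β j : ℤ_[p]) : ℚ_[p]) * c ^ j‖₊ ≤ 1 ∧ rc (∑ j ∈ s,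
        algebraMap ℚ_[p] C ((β j : ℤ_[p]) : ℚ_[p]) * c ^ j) =
        ∑ j ∈ s, algebraMap (ZMod p) (Ct C) (PadicInt.toZMod (β j)) * (rc c) ^ j := by
      intro s
      induction s using Finset.induction_on with
      | empty => simpa using rc_zero
      | insert j s hj ih =>
        rw [Finset.sum_insert hj, Finset.sum_insert hj]
        refine ⟨(NormedField.valuation (K := C)).map_add_le (hn2 j) ih.1, ?_⟩
        rw [rc_add (hn2 j) ih.1, ih.2, rc_mul (hn j) (by rw [nnnorm_pow]; exact pow_le_one' hc j),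
          rc_pow hc, rc_padic]
        rfl
    have h4 := (h3 P.support).2
    rw [h1, rc_zero] at h4
    rw [map_sum, h4]
    refine Finset.sum_congr rfl fun j _ => ?_
    rw [aeval_monomial]

end padic

end Crest.Agent.R013.TP14_928
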