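import Crest.Agent.R013.A2a_398
import Crest.Agent.R013.CLiftN2_903
import Crest.Agent.R013.InLift_365
import Crest.Agent.R013.TP14_928

/-!
# R013 / C-A2, part b (helper398): existence of `(N, h)` with vertex data at every vertex of a
semistable structure
-/

set_option autoImplicit false
set_option linter.all false

namespace Crest.Agent.R013.A2_398

open scoped NNReal
open Module IsLocalRing WithZero
open Crest.Agent.R013.Red332 Crest.Agent.R013.SSK_332
open Crest.Agent.R013.RR7_948 Crest.Agent.R013.RR8_948 Crest.Agent.R013.RR9_948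
open Crest.Agent.R013.RR11_948 Crest.Agent.R013.CLiftN_903
open Crest.Agent.R013.PicD_398 Crest.Agent.R013.CntF6_398 Crest.Agent.R013.CntF7_398
open Crest.Agent.R013.GR3_921 Crest.Agent.R013.Cell_408

universe u

section exists_data

variable (p : ℕ) [hp : Fact p.Prime] {k : Type*} [NontriviallyNormedField k] [CompleteSpace k]
  {C : Type*} [NormedField C] [IsUltrametricDist C] [NormedAlgebra k C]
  [Algebra.IsAlgebraic k C] [IsAlgClosed C] [IsAlgClosed (Ct C)] [CharP (Ct C) p]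
  [Algebra (ZMod p) (Ct C)] [Algebra.IsAlgebraic (ZMod p) (Ct C)]
  {K : Type*} [Field K] [Algebra C K] [Algebra (RatFunc C) K] [IsScalarTower C (RatFunc C) K]
  [FiniteDimensional (RatFunc C) K] [Algebra.IsSeparable (RatFunc C) K]

/-- COUNT at one vertex, genus zero included -/
theorem exists_vertex (S : SSK k C K) (v : S.V) :
    ∃ (n : ℕ) (u : kap (S.nm v)), n ≠ 0 ∧ n.Coprime p ∧ u ≠ 0 ∧
      (∀ P : Pl (Ct C) (kap (S.nm v)), ∃ m : ℤ, P.v u = exp (n * m)) ∧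
      ((HasGen (Ct C) (kap (S.nm v)) 0 ∧ n = 1 ∧ u = 1) ∨
        (2 ≤ n ∧ Count (Ct C) (kap (S.nm v)) p n u)) := by
  obtain ⟨i, j, f, s⟩ := S.ff v
  by_cases hg : gen (Ct C) (kap (S.nm v)) = 0
  · refine ⟨1, 1, one_ne_zero, Nat.coprime_one_left p, one_ne_zero, fun P => ⟨0, ?_⟩, Or.inl
      ⟨?_, rfl, rfl⟩⟩
    · rw [map_one, mul_zero, exp_zero]
    · rw [← hg]
      exact hasGen_gen _ _
  · obtain ⟨n, u, hn, hnp, hc⟩ := count_of_out p (count p (Nat.one_le_iff_ne_zero.mpr hg) :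
      OutC p (Ct C) (kap (S.nm v)))
    refine ⟨n, u, by omega, hnp, hc.1, ?_, Or.inr ⟨hn, hc⟩⟩
    obtain ⟨-, E, hE, -⟩ := hc
    intro P
    exact ⟨-E P, by rw [hE P, mul_neg]⟩

/-- **C-A2 (1)**: `N` and `h` with vertex data at every vertex -/
theorem exists_data (S : SSK k C K) (hL : ∀ N : ℕ, N.Coprime p → LiftC C K N) :
    ∃ (N : ℕ) (h : K), N ≠ 0 ∧ N.Coprime p ∧ h ≠ 0 ∧
      (∀ P : Pl C K, ∃ m : ℤ, P.v h = exp (N * m)) ∧
      (∀ d : S.Dir, ∃ m : ℤ, Red332.od (S.nm d.1) d.2 h = N * m) ∧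
      ∀ v : S.V, VDat p N h (S.nm v) := by
  classical
  letI := S.fV
  choose n u hn hnp hu hdiv hcase using fun v => exists_vertex p S v
  set N : ℕ := ∏ v, n v with hN
  set M : S.V → ℕ := fun v => ∏ w ∈ Finset.univ.erase v, n w with hM
  have hNM : ∀ v, N = n v * M v := fun v =>
    (Finset.mul_prod_erase Finset.univ n (Finset.mem_univ v)).symm
  have hN0 : N ≠ 0 := Finset.prod_ne_zero_iff.mpr fun v _ => hn v
  have hM0 : ∀ v, M v ≠ 0 := fun v => Finset.prod_ne_zero_iff.mpr fun w _ => hn w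
  have hNp : N.Coprime p := Nat.Coprime.prod_left fun v _ => hnp v
  -- orders of `u ^ M`
  have hdiv' : ∀ v, ∀ P : Pl (Ct C) (kap (S.nm v)), ∃ m : ℤ, P.v (u v ^ M v) = exp (N * m) := by
    intro v P
    obtain ⟨m, hm⟩ := hdiv v P
    refine ⟨m, ?_⟩
    rw [map_pow, hm, ← exp_nsmul, hNM v, nsmul_eq_mul]
    congr 1
    push_cast
    ring
  -- coordinates of the residue fields
  have hT : ∀ v : S.V, ∃ T : K, (S.nm v).v T ≤ 1 ∧ Transcendental (Ct C) (red (S.nm v) T) := by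
    intro v
    obtain ⟨i, j, f, s⟩ := S.ff v
    obtain ⟨T, hT, hTx⟩ := red_surj (S.nm v) (xK (Ct C) (kap (S.nm v)))
    exact ⟨T, hT, by rw [hTx]; exact RR20_948.transcendental_xK⟩
  choose T hT1 hT2 using hT
  have hnt : ∃ π : C, π ≠ 0 ∧ ‖π‖ < 1 := by
    obtain ⟨x, hx0, hx1⟩ := NormedField.exists_norm_lt_one k
    refine ⟨algebraMap k C x, ?_, ?_⟩
    · rw [Ne, map_eq_zero, ← norm_eq_zero]
      exact hx0.ne'
    · rw [norm_algebraMap']
      exact hx1
  obtain ⟨h, hh, hhP, hhv⟩ := cliftn (fun v => S.nm v) S.nm_inj hnt T hT1 hT2 N (hL N hNp)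
    (fun v => u v ^ M v) (fun v => pow_ne_zero _ (hu v)) (by
      intro v Q hQ
      obtain ⟨i, j, f, s⟩ := S.ff v
      exact hdiv_of_pl N (u v ^ M v) (pow_ne_zero _ (hu v)) (hdiv' v) Q hQ)
  refine ⟨N, h, hN0, hNp, hh, hhP, ?_, ?_⟩
  · rintro ⟨v, x⟩
    obtain ⟨g, hg, hgv, hred⟩ := hhv v
    obtain ⟨m, hm⟩ := hdiv' v x
    have h1 : h = (h / g ^ N) * g ^ N := (div_mul_cancel₀ _ (pow_ne_zero _ hg)).symm
    have h2 : h / g ^ N ≠ 0 := div_ne_zero hh (pow_ne_zero _ hg)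
    have h3 : Red332.od (S.nm v) x h = Red332.od (S.nm v) x (h / g ^ N) +
        N * Red332.od (S.nm v) x g := by
      conv_lhs => rw [h1]
      rw [od_mul x h2 (pow_ne_zero _ hg), od_pow x hg]
    refine ⟨-m + Red332.od (S.nm v) x g, ?_⟩
    rw [h3, od_of_one x hgv, hred, hm, log_exp]
    ring
  · intro v
    obtain ⟨g, hg, hgv, hred⟩ := hhv v
    refine ⟨g, hg, hgv, ?_⟩
    rcases hcase v with ⟨h1, h2, h3⟩ | ⟨h1, h2⟩
    · refine Or.inl ⟨h1, ?_⟩
      rw [hred, h3, one_pow]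
    · exact Or.inr ⟨n v, M v, u v, h1, hnp v, hM0 v, hNM v, hred, h2⟩

end exists_data

end Crest.Agent.R013.A2_398
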