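import Crest.Agent.R013.Clause1_97

/-!
Row 13, clause (1) of S0015: every decomposition group over a rational place is the image of a
section.
-/

set_option autoImplicit false

noncomputable section

namespace Crest.Agent.R013.Clause1Main_97

open Crest.NumberTheoryR.Sect
open Crest.Agent.R013.Places_97 Crest.Agent.R013.MaxUnr_97 Crest.Agent.R013.Clause1_97
open scoped NNReal Pointwise Topology
open Polynomial

variable {k : Type*} [Field k] {K : Type*} [Field K] [Algebra k K]

/-- Restriction of automorphisms of `maxUnramified` to the constants, as an algebra hom. -/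
def resHom (g : PiGroup k K) : constField k K →ₐ[k] constField k K :=
  ((g.toAlgHom.restrictScalars k).comp (constField k K).val).codRestrict
    (constField k K).toSubalgebra (fun c => mem_constField (isIntegral_gal g
      (isIntegral_constField c)))

lemma coe_resHom (g : PiGroup k K) (c : constField k K) :
    ((resHom g c : constField k K) : maxUnramified k K) = g c := rfl

/-- Restriction of automorphisms of `maxUnramified` to the constants. -/
def res : PiGroup k K →* ConstGal k K where
  toFun g := AlgEquiv.ofAlgHom (resHom g) (resHom g⁻¹)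
    (AlgHom.ext fun c => Subtype.ext (AlgEquiv.apply_symm_apply g (c : maxUnramified k K)))
    (AlgHom.ext fun c => Subtype.ext (AlgEquiv.symm_apply_apply g (c : maxUnramified k K)))
  map_one' := AlgEquiv.ext fun _ => Subtype.ext rfl
  map_mul' _ _ := AlgEquiv.ext fun _ => Subtype.ext rfl

lemma coe_res (g : PiGroup k K) (c : constField k K) :
    ((res g c : constField k K) : maxUnramified k K) = g c := rfl

lemma isOpen_apply_eq {F M : Type*} [Field F] [Field M] [Algebra F M] [Algebra.IsIntegral F M]
    (a b : M) : IsOpen {g : M ≃ₐ[F] M | g a = b} := by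
  rcases Set.eq_empty_or_nonempty {g : M ≃ₐ[F] M | g a = b} with h | ⟨g₀, hg₀⟩
  · rw [h]; exact isOpen_empty
  · have h1 : {g : M ≃ₐ[F] M | g a = b} = (fun g => g₀⁻¹ * g) ⁻¹'
        (MulAction.stabilizer (M ≃ₐ[F] M) a : Set (M ≃ₐ[F] M)) := by
      ext g
      change g a = b ↔ g₀⁻¹ (g a) = a
      have hg₀' : g₀ a = b := hg₀
      constructor
      · intro h
        rw [h, ← hg₀']
        exact AlgEquiv.symm_apply_apply g₀ a
      · intro h
        have h2 := congrArg g₀ h
        rw [hg₀'] at h2
        rw [← h2]
        exact (AlgEquiv.apply_symm_apply g₀ (g a)).symm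
    rw [h1]
    exact (stabilizer_isOpen_of_isIntegral a).preimage (by fun_prop)

lemma res_continuous : Continuous (res (k := k) (K := K)) := by
  apply continuous_of_continuousAt_one
  intro U hU
  rw [map_one, krullTopology_mem_nhds_one_iff] at hU
  obtain ⟨E, hE, hEU⟩ := hU
  obtain ⟨S, hS⟩ := (IntermediateField.essFiniteType_iff (K := E)).mp inferInstance
  have h1 : (⋂ x ∈ S, {g : PiGroup k K | g (x : maxUnramified k K) = x}) ∈ 𝓝 (1 : PiGroup k K) := by
    rw [Filter.biInter_finset_mem]
    intro x _
    exact (isOpen_apply_eq (F := K) (x : maxUnramified k K) x).mem_nhds rfl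
  refine Filter.mem_map.mpr (Filter.mem_of_superset h1 ?_)
  intro g hg
  apply hEU
  change res g ∈ E.fixingSubgroup
  rw [← hS, IntermediateField.mem_fixingSubgroup_iff]
  have hg' : ∀ x ∈ (S : Set (constField k K)), (res g) • x = x := by
    intro x hx
    have h2 := Set.mem_iInter₂.mp hg x (by simpa using hx)
    exact Subtype.ext h2
  exact (IntermediateField.forall_mem_adjoin_smul_eq_self_iff k (S := (S : Set (constField k K)))
    (res g)).mpr hg'

lemma isClosed_decomp [IsGalois K (maxUnramified k K)]
    (vt : Valuation (maxUnramified k K) ℝ≥0) : IsClosed (decomp k K vt) := by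
  rw [← isOpen_compl_iff]
  have h1 : (decomp k K vt)ᶜ = ⋃ (a : maxUnramified k K) (b : maxUnramified k K)
      (_ : vt b ≠ vt a), {g : PiGroup k K | g a = b} := by
    ext g
    simp only [decomp, Set.mem_compl_iff, Set.mem_ofPred_eq, not_forall, Set.mem_iUnion]
    constructor
    · rintro ⟨a, ha⟩
      exact ⟨a, g a, ha, rfl⟩
    · rintro ⟨a, b, hab, h⟩
      exact ⟨a, by rw [h]; exact hab⟩
  rw [h1]
  refine isOpen_iUnion fun a => isOpen_iUnion fun b => isOpen_iUnion fun _ => ?_
  exact isOpen_apply_eq a b

lemma t2_constGal : T2Space (ConstGal k K) := by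
  have : Algebra.IsIntegral k (constField k K) := ⟨fun c => by
    have h := isIntegral_constField c
    exact (isIntegral_algebraMap_iff (algebraMap (constField k K)
      (maxUnramified k K)).injective).mp h⟩
  exact krullTopology_t2

section FF

variable [CharZero k] [Algebra (RatFunc k) K] [IsScalarTower k (RatFunc k) K]
  [FiniteDimensional (RatFunc k) K]

/-- **Clause (1) of S0015**, general form. -/
theorem clause1 (vt : Valuation (maxUnramified k K) ℝ≥0) (hvt : LiesOverRationalPlace k K vt) :
    ∃ s : ConstGal k K →* PiGroup k K, IsSection k K s ∧ Set.range s = decomp k K vt := by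
  classical
  have hchar : CharZero K := charZero_of_injective_algebraMap (algebraMap k K).injective
  have hgal : IsGalois K (maxUnramified k K) := isGalois_maxUnramified
  have ht2 : T2Space (ConstGal k K) := t2_constGal
  -- the decomposition group as a subgroup
  let D : Subgroup (PiGroup k K) :=
    { carrier := decomp k K vt
      mul_mem' := by
        intro g h hg hh a
        change vt (g (h a)) = vt a
        rw [hg, hh]
      one_mem' := by
        intro a
        rfl
      inv_mem' := by
        intro g hg a
        have h1 := hg (g⁻¹ a)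
        have h2 : g (g⁻¹ a) = a := AlgEquiv.apply_symm_apply g a
        rw [h2] at h1
        exact h1.symm }
  have hDmem : ∀ g : PiGroup k K, g ∈ D ↔ g ∈ decomp k K vt := fun g => Iff.rfl
  have hDclosed : IsClosed (D : Set (PiGroup k K)) := isClosed_decomp vt
  have hDcompact : CompactSpace D := isCompact_iff_compactSpace.mp hDclosed.isCompact
  let r : D →* ConstGal k K := res.comp D.subtype
  have hrcont : Continuous r := res_continuous.comp continuous_subtype_val
  have hrinj : Function.Injective r := by
    rw [injective_iff_map_eq_one]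
    intro g hg
    have h1 : (g : PiGroup k K) = 1 := by
      refine eq_one_of_fix_const vt hvt (g : PiGroup k K) g.2 ?_
      intro c hc
      have h2 := congrArg (fun γ : ConstGal k K =>
        ((γ ⟨c, mem_constField hc⟩ : constField k K) : maxUnramified k K)) hg
      exact h2
    exact Subtype.ext h1
  have hrsurj : Function.Surjective r := by
    intro γ
    obtain ⟨g, hg, hgγ⟩ := exists_lift vt hvt γ
    refine ⟨⟨g, hg⟩, ?_⟩
    exact AlgEquiv.ext fun c => Subtype.ext (hgγ c)
  let E : D ≃* ConstGal k K := MulEquiv.ofBijective r ⟨hrinj, hrsurj⟩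
  have hEcont : Continuous E := hrcont
  have hEsymm : Continuous E.symm := by
    have h := Continuous.continuous_symm_of_equiv_compact_to_t2 (f := E.toEquiv) hEcont
    exact h
  refine ⟨D.subtype.comp E.symm.toMonoidHom, ⟨?_, ?_⟩, ?_⟩
  · exact continuous_subtype_val.comp hEsymm
  · intro γ a
    have h1 : E (E.symm γ) = γ := E.apply_symm_apply γ
    have h2 := congrArg (fun δ : ConstGal k K =>
        ((δ a : constField k K) : maxUnramified k K)) h1
    exact h2
  · ext g
    constructor
    · rintro ⟨γ, rfl⟩
      exact (E.symm γ).2
    · intro hg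
      refine ⟨E ⟨g, hg⟩, ?_⟩
      change ((E.symm (E ⟨g, hg⟩) : D) : PiGroup k K) = g
      rw [E.symm_apply_apply]

end FF

/-- **Clause (1) of S0015**, in the shape of the statement. -/
theorem clause1' (p : ℕ) [Fact p.Prime] (k : Type) [Field k] [Algebra ℚ_[p] k]
    (K : Type) [Field K] [Algebra k K] [Algebra (RatFunc k) K] [IsScalarTower k (RatFunc k) K]
    [FunctionField k K] :
    ∀ vt : Valuation (maxUnramified k K) ℝ≥0, LiesOverRationalPlace k K vt →
      ∃ s : ConstGal k K →* PiGroup k K, IsSection k K s ∧ Set.range s = decomp k K vt := by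
  have : CharZero k := charZero_of_injective_algebraMap (algebraMap ℚ_[p] k).injective
  intro vt hvt
  exact clause1 vt hvt

end Crest.Agent.R013.Clause1Main_97
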