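import Mathlib
import Crest.Agent.R013.RR7_948

/-!
# R013 / Unr1: discrete valuations with values in `ℝ≥0`, ramification and inertia (helper957)

`Gen w c`: the non-zero values of `w` are exactly the powers of `c`, `0 < c < 1`.
`gen_ext`: `Gen` goes up finite separable extensions, `c = c' ^ e`;
`gen_ext_galois`: for a Galois extension with residue characteristic zero `e = #(inertia group)`.
-/

set_option autoImplicit false

namespace Crest.Agent.R013.Unr1_957

open scoped NNReal nonZeroDivisors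
open WithZero IsDedekindDomain Module
open Crest.Agent.R013.RR7_948

/-- `w` is discrete with generator `c`. -/
structure Gen {F : Type*} [Field F] (w : Valuation F ℝ≥0) (c : ℝ≥0) : Prop where
  pos : 0 < c
  lt : c < 1
  mem : ∀ x : F, x ≠ 0 → ∃ n : ℤ, w x = c ^ n
  surj : ∃ x : F, w x = c

/-- the inertia group of `w` -/
def Iner (K : Type*) {N : Type*} [Field K] [Field N] [Algebra K N] (w : Valuation N ℝ≥0) :
    Subgroup (N ≃ₐ[K] N) where
  carrier := {σ | (∀ x, w (σ x) = w x) ∧ ∀ x, w x ≤ 1 → w (σ x - x) < 1}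
  mul_mem' := by
    intro a b ha hb
    refine ⟨fun x => ?_, fun x hx => ?_⟩
    · rw [AlgEquiv.mul_apply, ha.1, hb.1]
    · have ha1 := ha.2 (b x) (by rw [hb.1]; exact hx)
      have : (a * b) x - x = (a (b x) - b x) + (b x - x) := by
        rw [AlgEquiv.mul_apply]; ring
      rw [this]
      exact lt_of_le_of_lt (Valuation.map_add _ _ _) (max_lt ha1 (hb.2 x hx))
  one_mem' := ⟨fun x => rfl, fun x _ => by simp⟩
  inv_mem' := by
    intro a ha
    have h1 : ∀ x, w (a⁻¹ x) = w x := by
      intro x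
      rw [← ha.1 (a⁻¹ x), ← AlgEquiv.mul_apply, mul_inv_cancel, AlgEquiv.one_apply]
    refine ⟨h1, fun x hx => ?_⟩
    have h2 := ha.2 (a⁻¹ x) (by rw [h1]; exact hx)
    rw [← AlgEquiv.mul_apply, mul_inv_cancel, AlgEquiv.one_apply] at h2
    rwa [← Valuation.map_neg, neg_sub] at h2

section iner

variable {K N : Type*} [Field K] [Field N] [Algebra K N] {w : Valuation N ℝ≥0}

theorem mem_iner {σ : N ≃ₐ[K] N} :
    σ ∈ Iner K w ↔ (∀ x, w (σ x) = w x) ∧ ∀ x, w x ≤ 1 → w (σ x - x) < 1 := Iff.rfl

/-- for automorphisms of finite order the second condition is enough -/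
theorem mem_iner_of {σ : N ≃ₐ[K] N} (hfin : IsOfFinOrder σ)
    (h : ∀ x, w x ≤ 1 → w (σ x - x) < 1) : σ ∈ Iner K w := by
  refine ⟨?_, h⟩
  obtain ⟨n, hn, hσ⟩ := (isOfFinOrder_iff_pow_eq_one).mp hfin
  have hlt : ∀ z, w z < 1 → w (σ z) < 1 := by
    intro z hz
    have h1 := h z hz.le
    have : σ z = (σ z - z) + z := by ring
    rw [this]
    exact lt_of_le_of_lt (Valuation.map_add _ _ _) (max_lt h1 hz)
  have hpow : ∀ z, w z < 1 → ∀ j : ℕ, w ((σ ^ j) z) < 1 := by
    intro z hz j
    induction j with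
    | zero => simpa using hz
    | succ j ih =>
      rw [pow_succ', AlgEquiv.mul_apply]
      exact hlt _ ih
  -- if `w (x / σ x) < 1` or `w (σ x / x) < 1` we get a contradiction
  have hprod : ∀ (x : N), x ≠ 0 → ∀ j : ℕ,
      ∏ i ∈ Finset.range j, ((σ ^ i) (σ x / x)) = (σ ^ j) x / x := by
    intro x hx j
    induction j with
    | zero => simp [hx]
    | succ j ih =>
      rw [Finset.prod_range_succ, ih, map_div₀, ← AlgEquiv.mul_apply, ← pow_succ]
      have : (σ ^ j) x ≠ 0 := (map_ne_zero (σ ^ j)).mpr hx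
      field_simp
  have hprod1 : ∀ (x : N), x ≠ 0 → ∏ i ∈ Finset.range n, ((σ ^ i) (σ x / x)) = 1 := by
    intro x hx
    rw [hprod x hx, hσ, AlgEquiv.one_apply, div_self hx]
  intro x
  by_cases hx : x = 0
  · simp [hx]
  have hwx : 0 < w x := (Valuation.pos_iff w).mpr hx
  have hσx : σ x ≠ 0 := by simpa using hx
  have hwσx : 0 < w (σ x) := (Valuation.pos_iff w).mpr hσx
  have hn0 : (Finset.range n).Nonempty := by simpa using hn.ne'
  rcases lt_trichotomy (w (σ x)) (w x) with hlt' | heq | hgt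
  · exfalso
    have h1 : w (σ x / x) < 1 := by
      rw [map_div₀]; exact (div_lt_one hwx).mpr hlt'
    have h2 : w (∏ i ∈ Finset.range n, ((σ ^ i) (σ x / x))) < 1 := by
      rw [map_prod]
      calc _ < ∏ i ∈ Finset.range n, (1 : ℝ≥0) := by
            apply Finset.prod_lt_prod_of_nonempty
            · intro i _
              rw [Valuation.pos_iff]
              exact (map_ne_zero (σ ^ i)).mpr (div_ne_zero hσx hx)
            · intro i _
              exact hpow _ h1 i
            · exact hn0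
        _ = 1 := by simp
    rw [hprod1 x hx, map_one] at h2
    exact lt_irrefl _ h2
  · exact heq
  · exfalso
    have h1 : w (x / σ x) < 1 := by
      rw [map_div₀]; exact (div_lt_one hwσx).mpr hgt
    have h2 : w (∏ i ∈ Finset.range n, ((σ ^ i) (x / σ x))) < 1 := by
      rw [map_prod]
      calc _ < ∏ i ∈ Finset.range n, (1 : ℝ≥0) := by
            apply Finset.prod_lt_prod_of_nonempty
            · intro i _
              rw [Valuation.pos_iff]
              exact (map_ne_zero (σ ^ i)).mpr (div_ne_zero hx hσx)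
            · intro i _
              exact hpow _ h1 i
            · exact hn0
        _ = 1 := by simp
    have h3 : ∏ i ∈ Finset.range n, ((σ ^ i) (x / σ x)) = 1 := by
      have h4 : ∏ i ∈ Finset.range n, ((σ ^ i) (x / σ x))
          = (∏ i ∈ Finset.range n, ((σ ^ i) (σ x / x)))⁻¹ := by
        rw [← Finset.prod_inv_distrib]
        refine Finset.prod_congr rfl fun i _ => ?_
        rw [← map_inv₀, inv_div]
      rw [h4, hprod1 x hx, inv_one]
    rw [h3, map_one] at h2
    exact lt_irrefl _ h2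

end iner

section adic

variable {F : Type*} [Field F]

theorem Gen.pow_inj {w : Valuation F ℝ≥0} {c : ℝ≥0} (h : Gen w c) {m n : ℤ}
    (hmn : c ^ m = c ^ n) : m = n :=
  zpow_right_injective₀ h.pos h.lt.ne hmn

/-- the generator is unique -/
theorem Gen.unique {w : Valuation F ℝ≥0} {c d : ℝ≥0} (hc : Gen w c) (hd : Gen w d) : c = d := by
  obtain ⟨x, hx⟩ := hc.surj
  obtain ⟨y, hy⟩ := hd.surj
  have hx0 : x ≠ 0 := by rintro rfl; rw [map_zero] at hx; exact hc.pos.ne hx
  have hy0 : y ≠ 0 := by rintro rfl; rw [map_zero] at hy; exact hd.pos.ne hy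
  obtain ⟨a, ha⟩ := hd.mem x hx0
  obtain ⟨b, hb⟩ := hc.mem y hy0
  have h1 : c = d ^ a := by rw [← hx, ha]
  have h2 : d = c ^ b := by rw [← hy, hb]
  have h3 : c ^ (1 : ℤ) = c ^ (b * a) := by
    rw [zpow_mul, ← h2, ← h1, zpow_one]
  have h4 := hc.pow_inj h3
  have h5 : IsUnit a := isUnit_of_dvd_one ⟨b, by rw [h4]; ring⟩
  rcases Int.isUnit_iff.mp h5 with h6 | h6
  · rw [h1, h6, zpow_one]
  · exfalso
    rw [h6] at h1
    have h7 : 1 < c := by
      rw [h1, zpow_neg, zpow_one]
      exact (one_lt_inv₀ hd.pos).mpr hd.lt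
    exact absurd hc.lt (not_lt.mpr h7.le)

/-- a valuation equivalent to a `P`-adic one -/
theorem gen_of_adic {B : Type*} [CommRing B] [IsDedekindDomain B] [Algebra B F]
    [IsFractionRing B F] {P : HeightOneSpectrum B} {w : Valuation F ℝ≥0}
    (h : (P.valuation F).IsEquiv w) :
    ∃ c, Gen w c ∧ ∀ x (n : ℤ), P.valuation F x = exp n → w x = c ^ (-n) := by
  obtain ⟨ϖ, hϖ⟩ := P.valuation_exists_uniformizer F
  have hϖ0 : ϖ ≠ 0 := by rintro rfl; rw [map_zero] at hϖ; exact exp_ne_zero hϖ.symm
  have hpos : 0 < w ϖ := (Valuation.pos_iff w).mpr hϖ0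
  have hlt : w ϖ < 1 := by
    rw [← h.lt_one_iff_lt_one, hϖ, ← exp_zero, exp_lt_exp]; norm_num
  have key : ∀ x (n : ℤ), P.valuation F x = exp n → w x = (w ϖ) ^ (-n) := by
    intro x n hx
    have h1 : P.valuation F (x * ϖ ^ n) = 1 := by
      rw [map_mul, map_zpow₀, hϖ, hx, ← exp_zsmul, ← exp_add]
      simp
    rw [h.eq_one_iff_eq_one, map_mul, map_zpow₀] at h1
    rw [zpow_neg]
    exact eq_inv_of_mul_eq_one_left h1
  refine ⟨w ϖ, ⟨hpos, hlt, fun x hx => ?_, ϖ, rfl⟩, key⟩
  have h1 : P.valuation F x = exp (log (P.valuation F x)) :=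
    (exp_log ((Valuation.ne_zero_iff _).mpr hx)).symm
  exact ⟨_, key x _ h1⟩

/-- the valuation ring of a discrete valuation is a DVR -/
theorem dvr_of_gen {w : Valuation F ℝ≥0} {c : ℝ≥0} (h : Gen w c) :
    IsDiscreteValuationRing w.valuationSubring := by
  obtain ⟨π, hπ⟩ := h.surj
  have hπ0 : π ≠ 0 := by rintro rfl; rw [map_zero] at hπ; exact h.pos.ne hπ
  let p : w.valuationSubring := ⟨π, by rw [Valuation.mem_valuationSubring_iff, hπ]; exact h.lt.le⟩
  have hp0 : p ≠ 0 := fun h0 => hπ0 (congrArg Subtype.val h0)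
  have hunit : ∀ x : w.valuationSubring, IsUnit x ↔ w (x : F) = 1 := by
    intro x
    constructor
    · intro hx
      obtain ⟨y, hy⟩ := isUnit_iff_exists_inv.mp hx
      have h1 : w (x : F) * w (y : F) = 1 := by
        rw [← map_mul]
        have : ((x : F) * (y : F)) = 1 := congrArg Subtype.val hy
        rw [this, map_one]
      refine le_antisymm x.2 ?_
      by_contra hcon
      rw [not_le] at hcon
      have h2 : w (x : F) * w (y : F) < 1 := mul_lt_one_of_lt_of_le hcon y.2
      exact absurd h1 h2.ne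
    · intro hx
      have hx0 : (x : F) ≠ 0 := by intro h0; rw [h0, map_zero] at hx; exact zero_ne_one hx
      refine isUnit_iff_exists_inv.mpr ⟨⟨(x : F)⁻¹, ?_⟩, ?_⟩
      · rw [Valuation.mem_valuationSubring_iff, map_inv₀, hx, inv_one]
      · apply Subtype.ext
        exact mul_inv_cancel₀ hx0
  apply IsDiscreteValuationRing.ofHasUnitMulPowIrreducibleFactorization
  refine ⟨p, ?_, ?_⟩
  · refine ⟨?_, ?_⟩
    · rw [hunit]
      change w π ≠ 1
      rw [hπ]; exact h.lt.ne
    · intro a b hab
      have hab' : w (a : F) * w (b : F) = c := by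
        rw [← map_mul, ← hπ]
        exact congrArg w (congrArg Subtype.val hab).symm
      have ha0 : (a : F) ≠ 0 := by
        intro h0; rw [h0, map_zero, zero_mul] at hab'; exact h.pos.ne hab'
      have hb0 : (b : F) ≠ 0 := by
        intro h0; rw [h0, map_zero, mul_zero] at hab'; exact h.pos.ne hab'
      obtain ⟨m, hm⟩ := h.mem _ ha0
      obtain ⟨n, hn⟩ := h.mem _ hb0
      have hm0 : 0 ≤ m := by
        by_contra hcon
        rw [not_le] at hcon
        have : 1 < c ^ m := one_lt_zpow_of_neg₀ h.pos h.lt hcon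
        have h2 : w (a : F) ≤ 1 := a.2
        rw [hm] at h2
        exact absurd h2 (not_le.mpr this)
      have hn0 : 0 ≤ n := by
        by_contra hcon
        rw [not_le] at hcon
        have : 1 < c ^ n := one_lt_zpow_of_neg₀ h.pos h.lt hcon
        have h2 : w (b : F) ≤ 1 := b.2
        rw [hn] at h2
        exact absurd h2 (not_le.mpr this)
      have hmn : m + n = 1 := by
        apply h.pow_inj
        rw [zpow_add₀ h.pos.ne', ← hm, ← hn, hab', zpow_one]
      rcases (by omega : m = 0 ∨ n = 0) with h0 | h0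
      · left; rw [hunit, hm, h0, zpow_zero]
      · right; rw [hunit, hn, h0, zpow_zero]
  · intro x hx
    have hx0 : (x : F) ≠ 0 := fun h0 => hx (Subtype.ext h0)
    obtain ⟨m, hm⟩ := h.mem _ hx0
    have hm0 : 0 ≤ m := by
      by_contra hcon
      rw [not_le] at hcon
      have : 1 < c ^ m := one_lt_zpow_of_neg₀ h.pos h.lt hcon
      have h2 : w (x : F) ≤ 1 := x.2
      rw [hm] at h2
      exact absurd h2 (not_le.mpr this)
    obtain ⟨n, rfl⟩ := Int.eq_ofNat_of_zero_le hm0
    refine ⟨n, ?_⟩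
    let u : F := (x : F) / π ^ n
    have hu : w u = 1 := by
      simp only [u, map_div₀, map_pow, hm, hπ, zpow_natCast]
      exact div_self (pow_ne_zero _ h.pos.ne')
    let uu : w.valuationSubring := ⟨u, by rw [Valuation.mem_valuationSubring_iff, hu]⟩
    have huu : IsUnit uu := (hunit uu).mpr hu
    refine ⟨huu.unit, ?_⟩
    apply Subtype.ext
    change π ^ n * u = (x : F)
    simp only [u]
    field_simp

end adic

end Crest.Agent.R013.Unr1_957
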