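import Mathlib
import Crest.Agent.R013.Unr1_957

/-!
# R013 / Unr2: discrete valuations in finite extensions; `e = #inertia` (helper957)
-/

set_option autoImplicit false

namespace Crest.Agent.R013.Unr2_957

open scoped NNReal nonZeroDivisors
open WithZero IsDedekindDomain Module
open Crest.Agent.R013.RR7_948 Crest.Agent.R013.Unr1_957

section ext

variable {F E : Type*} [Field F] [Field E] [Algebra F E]

/-- an element algebraic over a field on which `w` is bounded has value `≤ 1` -/
theorem le_one_of_integral' {S : Type*} [CommRing S] [Algebra S E] (v : Valuation E ℝ≥0)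
    (hS : ∀ s : S, v (algebraMap S E s) ≤ 1) {a : E} (ha : IsIntegral S a) : v a ≤ 1 := by
  obtain ⟨p, hp, hpa⟩ := ha
  let φ : S →+* v.integer := (algebraMap S E).codRestrict v.integer hS
  have h1 : IsIntegral v.integer a := by
    refine ⟨p.map φ, hp.map φ, ?_⟩
    rw [Polynomial.eval₂_map]
    exact hpa
  exact (Valuation.integer.integers v).mem_of_integral h1

theorem gen_ext_aux [FiniteDimensional F E] [Algebra.IsSeparable F E] {w : Valuation F ℝ≥0}
    {c : ℝ≥0} (h : Gen w c) (w' : Valuation E ℝ≥0) (hw : w'.comap (algebraMap F E) = w) :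
    ∃ c' : ℝ≥0, ∃ e : ℕ, 0 < e ∧ Gen w' c' ∧ c = c' ^ e ∧
      (IsGalois F E → (∀ n : ℕ, n ≠ 0 → w (n : F) = 1) → e = Nat.card (Iner F w')) := by
  have hdvr := dvr_of_gen h
  set A := w.valuationSubring with hA
  set B := integralClosure A E with hB
  have hwA : ∀ x : F, w' (algebraMap F E x) = w x := fun x => by rw [← hw]; rfl
  have hdB : IsDedekindDomain B := integralClosure.isDedekindDomain A F E
  have hfB : IsFractionRing B E := integralClosure.isFractionRing_of_finite_extension F E
  have hmB : Module.Finite A B := IsIntegralClosure.finite A F E B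
  have hfreeB : Module.Free A B := IsIntegralClosure.module_free A F E B
  -- the centres
  obtain ⟨x₀, hx₀⟩ := h.surj
  have hnt : ∃ x : F, w x ≠ 0 ∧ w x ≠ 1 :=
    ⟨x₀, by rw [hx₀]; exact h.pos.ne', by rw [hx₀]; exact h.lt.ne⟩
  obtain ⟨p, hp⟩ := exists_heightOne_isEquiv (A := A) w (fun a => a.2) hnt
  have hBle : ∀ b : B, w' (algebraMap B E b) ≤ 1 := by
    intro b
    apply le_one_of_integral' (S := A) w' _ b.2
    intro s
    have : algebraMap A E s = algebraMap F E (s : F) := rfl
    rw [this, hwA]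
    exact s.2
  obtain ⟨P, hP⟩ := exists_heightOne_isEquiv (A := B) w' hBle
    ⟨algebraMap F E x₀, by rw [hwA, hx₀]; exact h.pos.ne', by rw [hwA, hx₀]; exact h.lt.ne⟩
  have hlo : P.asIdeal.LiesOver p.asIdeal := by
    constructor
    ext a
    rw [Ideal.under_def, Ideal.mem_comap, ← HeightOneSpectrum.valuation_lt_one_iff_mem (K := F),
      ← HeightOneSpectrum.valuation_lt_one_iff_mem (K := E), hp.lt_one_iff_lt_one,
      hP.lt_one_iff_lt_one]
    have h1 : w' (algebraMap B E (algebraMap A B a)) = w (algebraMap A F a) := hwA a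
    rw [h1]
  obtain ⟨c₀, hc₀, hkey₀⟩ := gen_of_adic hp
  obtain rfl := h.unique hc₀
  obtain ⟨c', hc', hkey'⟩ := gen_of_adic hP
  have he : 0 < p.asIdeal.ramificationIdx' P.asIdeal :=
    Nat.pos_of_ne_zero (Ideal.IsDedekindDomain.ramificationIdx'_ne_zero_of_liesOver P.asIdeal p.ne_bot)
  refine ⟨c', p.asIdeal.ramificationIdx' P.asIdeal, he, hc', ?_, ?_⟩
  · obtain ⟨π, hπ⟩ := p.valuation_exists_uniformizer F
    have h1 := HeightOneSpectrum.valuation_liesOver E p P π
    rw [hπ, ← exp_nsmul] at h1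
    have h2 := hkey' _ _ h1.symm
    have h3 := hkey₀ _ _ hπ
    rw [hwA, h3] at h2
    simpa using h2
  · intro hgal hres
    have hgal' : IsGaloisGroup (E ≃ₐ[F] E) F E := inferInstance
    have hGAB : IsGaloisGroup (E ≃ₐ[F] E) A B := IsGaloisGroup.of_isFractionRing _ A B F E
    have hflat : Module.Flat A B := inferInstance
    have hchar : CharZero p.asIdeal.ResidueField := by
      refine charZero_of_inj_zero fun n hn => ?_
      by_contra hn0
      have h1 : algebraMap A p.asIdeal.ResidueField (n : A) = 0 := by rw [map_natCast]; exact hn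
      rw [Ideal.algebraMap_residueField_eq_zero,
        ← HeightOneSpectrum.valuation_lt_one_iff_mem (K := F), hp.lt_one_iff_lt_one] at h1
      have h2 : w (n : F) < 1 := by simpa using h1
      rw [hres n hn0] at h2
      exact lt_irrefl _ h2
    have hperf : PerfectField p.asIdeal.ResidueField := inferInstance
    have h1 := Ideal.card_inertia_eq_ramificationIdxIn (G := E ≃ₐ[F] E) p.asIdeal P.asIdeal
    rw [Ideal.ramificationIdxIn_eq_ramificationIdx p.asIdeal P.asIdeal (E ≃ₐ[F] E),
      ← Ideal.ramificationIdx'_eq_ramificationIdx p.asIdeal P.asIdeal p.ne_bot] at h1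
    rw [← h1]
    congr 2
    have hcoe : ∀ b : B, w' (algebraMap B E b) < 1 ↔ b ∈ P.asIdeal := by
      intro b
      rw [← hP.lt_one_iff_lt_one, HeightOneSpectrum.valuation_lt_one_iff_mem]
    ext σ
    rw [AddSubgroup.mem_inertia]
    constructor
    · intro hσ
      have hσ' : ∀ b : B, w' (σ (b : E) - b) < 1 := by
        intro b
        have h2 := (hcoe (σ • b - b)).mpr (hσ b)
        exact h2
      apply mem_iner_of (isOfFinOrder_of_finite σ)
      intro x hx
      have hx' : P.valuation E x ≤ 1 := hP.le_one_iff_le_one.mpr hx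
      obtain ⟨n, d, hnd⟩ := P.exists_primeCompl_mul_eq_of_integer x hx'
      have hd : w' ((d : B) : E) = 1 := by
        refine le_antisymm (hBle _) (not_lt.mp fun hlt => d.2 ((hcoe _).mp hlt))
      have hσd : w' (σ ((d : B) : E)) = 1 := by
        have h3 : σ ((d : B) : E) = (σ ((d : B) : E) - (d : B)) + (d : B) := by ring
        rw [h3, Valuation.map_add_eq_of_lt_right w' (by rw [hd]; exact hσ' _)]
        exact hd
      have hd0 : ((d : B) : E) ≠ 0 := by
        intro h0; rw [h0, map_zero] at hd; exact zero_ne_one hd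
      have hσd0 : σ ((d : B) : E) ≠ 0 := by
        intro h0; rw [h0, map_zero] at hσd; exact zero_ne_one hσd
      have hxe : x = ((n : B) : E) / ((d : B) : E) := by
        rw [eq_div_iff hd0]; exact hnd
      have h4 : σ x - x = ((d : B) * (σ ((n : B) : E) - n) - n * (σ ((d : B) : E) - d))
          / (σ ((d : B) : E) * (d : B)) := by
        rw [hxe, map_div₀]
        field_simp
        ring
      rw [h4, map_div₀, map_mul, hσd, hd, mul_one, div_one]
      refine lt_of_le_of_lt (Valuation.map_sub _ _ _) (max_lt ?_ ?_)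
      · rw [map_mul, hd, one_mul]; exact hσ' n
      · rw [map_mul]
        calc _ ≤ 1 * w' (σ ((d : B) : E) - d) := mul_le_mul_left (hBle n) _
          _ < 1 := by rw [one_mul]; exact hσ' d
    · intro hσ b
      have h2 := hσ.2 (b : E) (hBle b)
      exact (hcoe (σ • b - b)).mp h2

theorem gen_ext [FiniteDimensional F E] [Algebra.IsSeparable F E] {w : Valuation F ℝ≥0}
    {c : ℝ≥0} (h : Gen w c) (w' : Valuation E ℝ≥0) (hw : w'.comap (algebraMap F E) = w) :
    ∃ c' : ℝ≥0, ∃ e : ℕ, 0 < e ∧ Gen w' c' ∧ c = c' ^ e := by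
  obtain ⟨c', e, h1, h2, h3, _⟩ := gen_ext_aux h w' hw
  exact ⟨c', e, h1, h2, h3⟩

theorem gen_ext_galois [FiniteDimensional F E] [IsGalois F E] {w : Valuation F ℝ≥0}
    {c : ℝ≥0} (h : Gen w c) (w' : Valuation E ℝ≥0) (hw : w'.comap (algebraMap F E) = w)
    (hres : ∀ n : ℕ, n ≠ 0 → w (n : F) = 1) {c' : ℝ≥0} (hc' : Gen w' c') :
    c = c' ^ (Nat.card (Iner F w')) := by
  obtain ⟨c'', e, _, h2, h3, h4⟩ := gen_ext_aux h w' hw
  obtain rfl := hc'.unique h2
  rw [← h4 inferInstance hres]
  exact h3

end ext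

section key

variable {K N : Type*} [Field K] [Field N] [Algebra K N]

/-- the inertia group over an intermediate field -/
theorem iner_restrict (L : IntermediateField K N) {w : Valuation N ℝ≥0} (σ : N ≃ₐ[L] N) :
    σ.restrictScalars K ∈ Iner K w ↔ σ ∈ Iner L w := Iff.rfl

/-- **Criterion**: `L/K` has ramification index one at `w` iff the inertia group of `w` fixes `L`. -/
theorem val_eq_iff_iner [FiniteDimensional K N] [IsGalois K N] {w : Valuation N ℝ≥0} {c : ℝ≥0}
    (h : Gen (w.comap (algebraMap K N)) c) (hres : ∀ n : ℕ, n ≠ 0 → w (n : N) = 1)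
    (L : IntermediateField K N) :
    (∀ b ∈ L, b ≠ 0 → ∃ a : K, w b = w (algebraMap K N a)) ↔
      ∀ σ ∈ Iner K w, ∀ x ∈ L, σ x = x := by
  have hresK : ∀ n : ℕ, n ≠ 0 → w.comap (algebraMap K N) (n : K) = 1 := by
    intro n hn
    rw [Valuation.comap_apply, map_natCast, hres n hn]
  have hresL : ∀ n : ℕ, n ≠ 0 → w.comap (algebraMap L N) (n : L) = 1 := by
    intro n hn
    rw [Valuation.comap_apply, map_natCast, hres n hn]
  obtain ⟨c', e, he, hc', hcc'⟩ := gen_ext h w rfl
  obtain ⟨cL, e₂, he₂, hcL, hccL⟩ := gen_ext (E := L) h (w.comap (algebraMap L N)) (by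
    ext x; rfl)
  have h1 := gen_ext_galois h w rfl hresK hc'
  have h2 := gen_ext_galois hcL w rfl hresL hc'
  -- the restriction map on inertia groups
  let f : Iner L w → Iner K w := fun σ => ⟨σ.1.restrictScalars K, σ.2⟩
  have hf : Function.Injective f := by
    intro σ τ hστ
    apply Subtype.ext
    exact AlgEquiv.restrictScalars_injective K (congrArg Subtype.val hστ)
  have hfix : (∀ σ ∈ Iner K w, ∀ x ∈ L, σ x = x) ↔ Function.Surjective f := by
    constructor
    · intro hall ⟨σ, hσ⟩
      let τ : N ≃ₐ[L] N := AlgEquiv.ofRingEquiv (f := σ.toRingEquiv) (by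
        intro x
        exact hall σ hσ (x : N) x.2)
      refine ⟨⟨τ, hσ⟩, ?_⟩
      apply Subtype.ext
      ext x
      rfl
    · intro hsurj σ hσ x hx
      obtain ⟨τ, hτ⟩ := hsurj ⟨σ, hσ⟩
      have h3 : τ.1.restrictScalars K = σ := congrArg Subtype.val hτ
      rw [← h3]
      exact τ.1.commutes ⟨x, hx⟩
  have hcard : Function.Surjective f ↔ Nat.card (Iner L w) = Nat.card (Iner K w) := by
    constructor
    · intro hs
      exact Nat.card_congr (Equiv.ofBijective f ⟨hf, hs⟩)
    · intro hc
      have : Finite (Iner L w) := Finite.of_injective f hf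
      exact ((Nat.bijective_iff_injective_and_card f).mpr ⟨hf, hc⟩).2
  rw [hfix, hcard]
  constructor
  · intro hval
    have h3 : Gen (w.comap (algebraMap L N)) c := by
      refine ⟨h.pos, h.lt, ?_, ?_⟩
      · intro x hx
        obtain ⟨a, ha⟩ := hval (x : N) x.2 (by simpa using hx)
        have ha0 : a ≠ 0 := by
          rintro rfl
          rw [map_zero, map_zero] at ha
          exact hx (by simpa using ha)
        obtain ⟨n, hn⟩ := h.mem a ha0
        exact ⟨n, by rw [← hn]; exact ha⟩
      · obtain ⟨x, hx⟩ := h.surj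
        refine ⟨algebraMap K L x, ?_⟩
        rw [← hx]; rfl
    have h4 := hcL.unique h3
    rw [h4] at h2
    have h5 := h1.symm.trans h2
    have h6 : c' ^ ((Nat.card (Iner K w) : ℕ) : ℤ) = c' ^ ((Nat.card (Iner L w) : ℕ) : ℤ) := by
      rw [zpow_natCast, zpow_natCast]; exact h5
    exact_mod_cast (hc'.pow_inj h6).symm
  · intro hcd b hb hb0
    have h3 : cL = c := by rw [h2, hcd, ← h1]
    obtain ⟨n, hn⟩ := hcL.mem ⟨b, hb⟩ (fun h0 => hb0 (congrArg Subtype.val h0))
    obtain ⟨π, hπ⟩ := h.surj
    refine ⟨π ^ n, ?_⟩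
    have h4 : w b = cL ^ n := hn
    rw [h4, h3, ← hπ, map_zpow₀, map_zpow₀]
    rfl

end key

end Crest.Agent.R013.Unr2_957
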