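import Mathlib
import Crest.Prelude.Def_SectConj
import Crest.Agent.R013.Unr2_957

/-!
# R013 / Unr3: places of function fields are discrete, extension of places (helper957)
-/

set_option autoImplicit false

namespace Crest.Agent.R013.Unr3_957

open scoped NNReal nonZeroDivisors
open WithZero IsDedekindDomain Module
open Crest.NumberTheoryR.Sect
open Crest.Agent.R013.RR7_948 Crest.Agent.R013.Unr1_957 Crest.Agent.R013.Unr2_957

section extend

variable {F E : Type*} [Field F] [Field E] [Algebra F E]

/-- extension of a discrete valuation to a finite separable extension -/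
theorem exists_extend [FiniteDimensional F E] [Algebra.IsSeparable F E] {w : Valuation F ℝ≥0}
    {c : ℝ≥0} (h : Gen w c) : ∃ w' : Valuation E ℝ≥0, w'.comap (algebraMap F E) = w := by
  have hdvr := dvr_of_gen h
  set A := w.valuationSubring with hA
  set B := integralClosure A E with hB
  have hdB : IsDedekindDomain B := integralClosure.isDedekindDomain A F E
  have hfB : IsFractionRing B E := integralClosure.isFractionRing_of_finite_extension F E
  have hmB : Module.Finite A B := IsIntegralClosure.finite A F E B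
  have hfreeB : Module.Free A B := IsIntegralClosure.module_free A F E B
  have hfaith : FaithfulSMul A B := by
    rw [faithfulSMul_iff_algebraMap_injective]
    intro a b hab
    apply Subtype.ext
    apply (algebraMap F E).injective
    exact congrArg Subtype.val hab
  obtain ⟨x₀, hx₀⟩ := h.surj
  have hnt : ∃ x : F, w x ≠ 0 ∧ w x ≠ 1 :=
    ⟨x₀, by rw [hx₀]; exact h.pos.ne', by rw [hx₀]; exact h.lt.ne⟩
  obtain ⟨p, hp⟩ := exists_heightOne_isEquiv (A := A) w (fun a => a.2) hnt
  obtain ⟨P, hP1, hP2⟩ : ∃ P : Ideal B, P.IsPrime ∧ P.LiesOver p.asIdeal := by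
    have hint : Algebra.IsIntegral A B := inferInstance
    obtain ⟨⟨P, hP⟩⟩ := Ideal.nonempty_primesOver (S := B) p.asIdeal
    exact ⟨P, hP.1, hP.2⟩
  have hP0 : P ≠ ⊥ := Ideal.ne_bot_of_liesOver_of_ne_bot p.ne_bot P
  let Q : HeightOneSpectrum B := ⟨P, hP1, hP0⟩
  have hlo : Q.asIdeal.LiesOver p.asIdeal := hP2
  obtain ⟨c₀, hc₀, hkey₀⟩ := gen_of_adic hp
  obtain rfl := h.unique hc₀
  set e := p.asIdeal.ramificationIdx' Q.asIdeal with he'
  have he : 0 < e :=
    Nat.pos_of_ne_zero (Ideal.IsDedekindDomain.ramificationIdx'_ne_zero_of_liesOver Q.asIdeal p.ne_bot)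
  -- base of the exponential
  set d : ℝ≥0 := (c⁻¹) ^ ((1 : ℝ) / e) with hd
  have hcinv : 1 < c⁻¹ := (one_lt_inv₀ h.pos).mpr h.lt
  have hd1 : 1 < d := NNReal.one_lt_rpow hcinv (by positivity)
  have hde : d ^ e = c⁻¹ := by
    rw [hd, ← NNReal.rpow_natCast, ← NNReal.rpow_mul, one_div,
      inv_mul_cancel₀ (by exact_mod_cast he.ne'), NNReal.rpow_one]
  let φ := WithZeroMulInt.toNNReal (zero_lt_one.trans hd1).ne'
  have hφ : StrictMono φ := WithZeroMulInt.toNNReal_strictMono hd1
  have hφexp : ∀ n : ℤ, φ (exp n) = d ^ n := by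
    intro n
    simp only [φ]
    rw [WithZeroMulInt.toNNReal_neg_apply _ exp_ne_zero]
    rfl
  refine ⟨(Q.valuation E).map φ hφ.monotone, ?_⟩
  ext x
  rw [Valuation.comap_apply, Valuation.map_apply]
  by_cases hx : x = 0
  · simp [hx]
  have h1 : p.valuation F x = exp (log (p.valuation F x)) :=
    (exp_log ((Valuation.ne_zero_iff _).mpr hx)).symm
  have h2 := HeightOneSpectrum.valuation_liesOver E p Q x
  rw [← h2, hkey₀ x _ h1]
  rw [h1, ← exp_nsmul, hφexp, log_exp, nsmul_eq_mul, zpow_mul, zpow_natCast, hde, inv_zpow,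
    zpow_neg]

end extend

section place

variable {k : Type*} [Field k]

theorem trivialOn_of_isPlace {F : Type*} [Field F] [Algebra k F] {v : Valuation F ℝ≥0}
    (hv : IsPlace k v) : v.IsTrivialOn k := ⟨hv.1⟩

theorem isNontrivial_of_isPlace {F : Type*} [Field F] [Algebra k F] {v : Valuation F ℝ≥0}
    (hv : IsPlace k v) : v.IsNontrivial := by
  obtain ⟨a, h0, h1⟩ := hv.2
  exact ⟨a, h0, h1⟩

theorem gen_ratFunc {v : Valuation (RatFunc k) ℝ≥0} (hv : IsPlace k v) : ∃ c, Gen v c := by
  have h1 := trivialOn_of_isPlace hv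
  have h2 := isNontrivial_of_isPlace hv
  rcases lt_or_ge 1 (v RatFunc.X) with hX | hX
  · refine ⟨(v RatFunc.X)⁻¹, inv_pos.mpr (zero_lt_one.trans hX),
      (inv_lt_one₀ (zero_lt_one.trans hX)).mpr hX, fun x hx => ⟨-x.intDegree, ?_⟩,
      RatFunc.X⁻¹, by rw [map_inv₀]⟩
    rw [RatFunc.valuation_eq_valuation_X_zpow_intDegree_of_one_lt_valuation_X hX hx]
    simp
  · have hne : RatFunc.uniformizingPolynomial hX ≠ 0 := RatFunc.uniformizingPolynomial_ne_zero hX
    have hlt := RatFunc.valuation_uniformizingPolynomial_lt_one hX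
    refine ⟨v (RatFunc.uniformizingPolynomial hX : RatFunc k), ?_, hlt, fun x hx => ?_, _, rfl⟩
    · rw [Valuation.pos_iff]
      simpa using hne
    · obtain ⟨z, hz⟩ := RatFunc.exists_zpow_uniformizingPolynomial hX hx
      exact ⟨z, hz⟩

variable {F E : Type*} [Field F] [Field E] [Algebra F E] [Algebra k F] [Algebra k E]
  [IsScalarTower k F E]

/-- restriction of a place along an algebraic extension -/
theorem isPlace_comap [Algebra.IsAlgebraic F E] {w : Valuation E ℝ≥0} (hw : IsPlace k w) :
    IsPlace k (w.comap (algebraMap F E)) := by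
  refine ⟨fun c hc => ?_, ?_⟩
  · rw [Valuation.comap_apply, ← IsScalarTower.algebraMap_apply]
    exact hw.1 c hc
  · by_contra hcon
    push Not at hcon
    obtain ⟨a, ha0, ha1⟩ := hw.2
    have hle : ∀ x : F, w (algebraMap F E x) ≤ 1 := by
      intro x
      by_cases hx : w (algebraMap F E x) = 0
      · rw [hx]; exact zero_le_one
      · exact (hcon x hx).le
    have h1 : ∀ y : E, w y ≤ 1 := fun y =>
      le_one_of_integral' (S := F) w hle (Algebra.IsIntegral.isIntegral y)
    have h2 := h1 a
    have h3 := h1 a⁻¹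
    have hpos : 0 < w a := pos_iff_ne_zero.mpr ha0
    rw [map_inv₀, inv_le_one₀ hpos] at h3
    exact ha1 (le_antisymm h2 h3)

/-- a valuation extending a place is a place -/
theorem isPlace_of_comap {w : Valuation E ℝ≥0} (hw : IsPlace k (w.comap (algebraMap F E))) :
    IsPlace k w := by
  refine ⟨fun c hc => ?_, ?_⟩
  · have := hw.1 c hc
    rwa [Valuation.comap_apply, ← IsScalarTower.algebraMap_apply] at this
  · obtain ⟨a, ha0, ha1⟩ := hw.2
    exact ⟨algebraMap F E a, ha0, ha1⟩

omit [Algebra k E] [IsScalarTower k F E] [Algebra F E] [Field E] in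
theorem place_natCast [CharZero k] {w : Valuation F ℝ≥0} (hw : IsPlace k w) (n : ℕ)
    (hn : n ≠ 0) : w (n : F) = 1 := by
  have := hw.1 (n : k) (Nat.cast_ne_zero.mpr hn)
  rwa [map_natCast] at this

end place

section functionField

variable {k : Type*} [Field k] [CharZero k] {F : Type*} [Field F] [Algebra k F]
  [Algebra (RatFunc k) F] [IsScalarTower k (RatFunc k) F] [FiniteDimensional (RatFunc k) F]

/-- places of function fields are discrete -/
theorem gen_place {w : Valuation F ℝ≥0} (hw : IsPlace k w) : ∃ c, Gen w c := by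
  have : CharZero (RatFunc k) := charZero_of_injective_algebraMap (algebraMap k (RatFunc k)).injective
  obtain ⟨c, hc⟩ := gen_ratFunc (isPlace_comap (F := RatFunc k) hw)
  obtain ⟨c', _, _, h, _⟩ := gen_ext hc w rfl
  exact ⟨c', h⟩

end functionField

end Crest.Agent.R013.Unr3_957
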