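import Mathlib
import Crest.Prelude.Def_SectConj
import Crest.Agent.R013.Unr3_957

/-!
# R013 / Unr4: calculus of `IsUnramifiedEverywhere` (helper957)

`unr_iff`: in terms of the inertia groups of a finite Galois extension containing `L`;
`Unr` is stable under sub-extensions, composita, conjugates, normal closure;
`le_maxUnramified_iff`: a finite extension is contained in `maxUnramified` iff it is unramified.
-/

set_option autoImplicit false
set_option linter.style.haveILetI false
set_option linter.unusedSectionVars false

namespace Crest.Agent.R013.Unr4_957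

open scoped NNReal
open Module
open Crest.NumberTheoryR.Sect
open Crest.Agent.R013.Unr1_957 Crest.Agent.R013.Unr2_957 Crest.Agent.R013.Unr3_957

variable {k : Type*} [Field k] {K : Type*} [Field K] [Algebra k K]

section basic

/-- restriction of a valuation to a smaller intermediate field -/
noncomputable def resV {K Ω : Type*} [Field K] [Field Ω] [Algebra K Ω]
    {L N : IntermediateField K Ω} (h : L ≤ N) (w : Valuation N ℝ≥0) : Valuation L ℝ≥0 :=
  w.comap (IntermediateField.inclusion h).toRingHom

@[simp] theorem resV_apply {K Ω : Type*} [Field K] [Field Ω] [Algebra K Ω]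
    {L N : IntermediateField K Ω} (h : L ≤ N) (w : Valuation N ℝ≥0) (x : L) :
    resV h w x = w ⟨x, h x.2⟩ := rfl

theorem isPlace_resV {L N : IntermediateField K (AlgebraicClosure K)} (h : L ≤ N)
    {w : Valuation N ℝ≥0} (hw : IsPlace k w) : IsPlace k (resV h w) := by
  let : Algebra L N := (IntermediateField.inclusion h).toAlgebra
  have : IsScalarTower k L N := IsScalarTower.of_algebraMap_eq (fun x => rfl)
  have : Algebra.IsAlgebraic L N := by
    have : IsScalarTower K L N := IsScalarTower.of_algebraMap_eq (fun x => rfl)
    exact Algebra.IsAlgebraic.tower_top (K := K) L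
  exact isPlace_comap (F := L) hw

/-- the restriction to `K` is a place -/
theorem isPlace_base {N : IntermediateField K (AlgebraicClosure K)}
    {w : Valuation N ℝ≥0} (hw : IsPlace k w) : IsPlace k (w.comap (algebraMap K N)) :=
  isPlace_comap (F := K) hw

end basic

section crit

variable [CharZero k] [Algebra (RatFunc k) K] [IsScalarTower k (RatFunc k) K]
  [FiniteDimensional (RatFunc k) K]

theorem tower_IF (L : IntermediateField K (AlgebraicClosure K)) :
    IsScalarTower k (RatFunc k) L := by
  refine IsScalarTower.of_algebraMap_eq (fun x => ?_)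
  apply Subtype.ext
  have h1 : ((algebraMap k L x : L) : AlgebraicClosure K)
      = algebraMap K (AlgebraicClosure K) (algebraMap k K x) := rfl
  have h2 : ((algebraMap (RatFunc k) L (algebraMap k (RatFunc k) x) : L) : AlgebraicClosure K)
      = algebraMap K (AlgebraicClosure K) (algebraMap (RatFunc k) K (algebraMap k (RatFunc k) x)) :=
    rfl
  rw [h1, h2, ← IsScalarTower.algebraMap_apply k (RatFunc k) K]

theorem finite_IF (L : IntermediateField K (AlgebraicClosure K)) [FiniteDimensional K L] :
    FiniteDimensional (RatFunc k) L := by
  have : IsScalarTower (RatFunc k) K L := IsScalarTower.of_algebraMap_eq (fun x => rfl)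
  exact FiniteDimensional.trans (RatFunc k) K L

theorem charZero_K (k : Type*) [Field k] [CharZero k] (K : Type*) [Field K] [Algebra k K] :
    CharZero K :=
  charZero_of_injective_algebraMap (algebraMap k K).injective

/-- criterion of unramifiedness in terms of inertia groups -/
theorem unr_iff {L N : IntermediateField K (AlgebraicClosure K)} (h : L ≤ N)
    [FiniteDimensional K N] [IsGalois K N] :
    IsUnramifiedEverywhere k K L ↔
      ∀ w : Valuation N ℝ≥0, IsPlace k w → ∀ σ ∈ Iner K w, ∀ x : N, (x : AlgebraicClosure K) ∈ L →
        σ x = x := by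
  have hK := charZero_K k K
  have hL : FiniteDimensional K L := by
    exact FiniteDimensional.of_injective (IntermediateField.inclusion h).toLinearMap
      (IntermediateField.inclusion h).injective
  have hmem : ∀ x : N, x ∈ IntermediateField.restrict h ↔ (x : AlgebraicClosure K) ∈ L :=
    fun x => IntermediateField.mem_restrict h x
  have key : ∀ w : Valuation N ℝ≥0, IsPlace k w →
      ((∀ b : L, b ≠ 0 → ∃ a : K, resV h w b = resV h w (algebraMap K L a)) ↔
        ∀ σ ∈ Iner K w, ∀ x : N, (x : AlgebraicClosure K) ∈ L → σ x = x) := by
    intro w hw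
    obtain ⟨c, hc⟩ := gen_place (isPlace_base hw)
    have h1 := val_eq_iff_iner hc (place_natCast hw) (IntermediateField.restrict h)
    constructor
    · intro h2 σ hσ x hx
      refine h1.mp ?_ σ hσ x ((hmem x).mpr hx)
      intro b hb hb0
      obtain ⟨a, ha⟩ := h2 ⟨b, (hmem b).mp hb⟩ (fun h0 => hb0 (Subtype.ext
        (congrArg (fun z : L => (z : AlgebraicClosure K)) h0)))
      exact ⟨a, ha⟩
    · intro h2 b hb0
      obtain ⟨a, ha⟩ := h1.mpr (fun σ hσ x hx => h2 σ hσ x ((hmem x).mp hx)) ⟨b, h b.2⟩
        ((hmem _).mpr b.2) (fun h0 => hb0 (Subtype.ext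
          (congrArg (fun z : N => (z : AlgebraicClosure K)) h0)))
      exact ⟨a, ha⟩
  constructor
  · intro hL' w hw
    exact (key w hw).mp (hL'.2 _ (isPlace_resV h hw))
  · intro hall
    refine ⟨hL, fun w hw => ?_⟩
    let : Algebra L N := (IntermediateField.inclusion h).toAlgebra
    have : IsScalarTower k L N := IsScalarTower.of_algebraMap_eq (fun x => rfl)
    have : IsScalarTower K L N := IsScalarTower.of_algebraMap_eq (fun x => rfl)
    have : FiniteDimensional L N := FiniteDimensional.right K L N
    have : CharZero L := charZero_of_injective_algebraMap (algebraMap K L).injective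
    have : FiniteDimensional (RatFunc k) L := finite_IF L
    have : IsScalarTower k (RatFunc k) L := tower_IF L
    obtain ⟨c, hc⟩ := gen_place hw
    obtain ⟨w', hw'⟩ := exists_extend (E := N) hc
    have hw'2 : resV h w' = w := hw'
    have hpl : IsPlace k w' := isPlace_of_comap (F := L) (by rw [hw']; exact hw)
    have h1 := (key w' hpl).mpr (hall w' hpl)
    rwa [hw'2] at h1

end crit

end Crest.Agent.R013.Unr4_957
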