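import Mathlib
import Crest.Prelude.Def_SectConj
import Crest.Agent.R013.Unr4_957

/-!
# R013 / Unr5: lattice calculus of `IsUnramifiedEverywhere`, `maxUnramified` (helper957)

`unr_mono`, `unr_sup`, `unr_bot`, `unr_map`, `unr_normalClosure`, `unr_tower`;
`le_maxUnramified_iff`, `mem_maxUnramified_iff`, `isGalois_maxUnramified`.
-/

set_option autoImplicit false
set_option linter.style.haveILetI false
set_option linter.unusedSectionVars false

namespace Crest.Agent.R013.Unr5_957

open scoped NNReal
open Module IntermediateField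
open Crest.NumberTheoryR.Sect
open Crest.Agent.R013.Unr1_957 Crest.Agent.R013.Unr2_957 Crest.Agent.R013.Unr3_957
open Crest.Agent.R013.Unr4_957

variable {k : Type*} [Field k] {K : Type*} [Field K] [Algebra k K]

section fixed

variable {Ω : Type*} [Field Ω] [Algebra K Ω]

/-- if `σ` fixes each member of a family of intermediate fields then it fixes the supremum -/
theorem fix_iSup {N : IntermediateField K Ω} (σ : N ≃ₐ[K] N) {ι : Sort*}
    (L : ι → IntermediateField K Ω) (hLN : ∀ i, L i ≤ N)
    (h : ∀ i, ∀ x : N, (x : Ω) ∈ L i → σ x = x) {x : N} (hx : (x : Ω) ∈ ⨆ i, L i) : σ x = x := by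
  let Fσ : IntermediateField K N := fixedField (Subgroup.zpowers σ)
  have hF : ∀ y : N, y ∈ Fσ ↔ σ y = y := by
    intro y
    rw [IntermediateField.mem_fixedField_iff]
    constructor
    · intro hy
      exact hy σ (Subgroup.mem_zpowers σ)
    · intro hy τ hτ
      have h1 : σ ∈ MulAction.stabilizer (N ≃ₐ[K] N) y := hy
      have h2 : Subgroup.zpowers σ ≤ MulAction.stabilizer (N ≃ₐ[K] N) y := by
        rwa [Subgroup.zpowers_le]
      exact h2 hτ
  have hle : ⨆ i, L i ≤ lift Fσ := by
    refine iSup_le fun i y hy => ?_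
    have h1 : (⟨y, hLN i hy⟩ : N) ∈ Fσ := (hF _).mpr (h i _ hy)
    exact (mem_lift (⟨y, hLN i hy⟩ : N)).mpr h1
  exact (hF x).mp ((mem_lift x).mp (hle hx))

end fixed

section general

/-- the bottom field is unramified -/
theorem unr_bot : IsUnramifiedEverywhere k K (⊥ : IntermediateField K (AlgebraicClosure K)) := by
  refine ⟨inferInstance, fun w _ b _ => ?_⟩
  obtain ⟨a, ha⟩ := IntermediateField.mem_bot.mp b.2
  refine ⟨a, ?_⟩
  congr 1
  exact Subtype.ext ha.symm

/-- conjugates of unramified extensions are unramified -/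
theorem unr_map {L : IntermediateField K (AlgebraicClosure K)}
    (hL : IsUnramifiedEverywhere k K L) (σ : AlgebraicClosure K →ₐ[K] AlgebraicClosure K) :
    IsUnramifiedEverywhere k K (L.map σ) := by
  let e : L ≃ₐ[K] L.map σ := L.equivMap σ
  have hfd : FiniteDimensional K L := hL.1
  refine ⟨e.toLinearEquiv.finiteDimensional, fun w hw b hb => ?_⟩
  let w' : Valuation L ℝ≥0 := w.comap (e : L →+* L.map σ)
  have hpl : IsPlace k w' := by
    refine ⟨fun c hc => ?_, ?_⟩
    · have h1 : e (algebraMap k L c) = algebraMap k (L.map σ) c := by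
        have h2 := e.commutes (algebraMap k K c)
        exact h2
      change w (e (algebraMap k L c)) = 1
      rw [h1]
      exact hw.1 c hc
    · obtain ⟨a, h0, h1⟩ := hw.2
      refine ⟨e.symm a, ?_, ?_⟩
      · change w (e (e.symm a)) ≠ 0
        rwa [e.apply_symm_apply]
      · change w (e (e.symm a)) ≠ 1
        rwa [e.apply_symm_apply]
  obtain ⟨a, ha⟩ := hL.2 w' hpl (e.symm b) (by simpa using hb)
  refine ⟨a, ?_⟩
  have h1 : w' (e.symm b) = w b := by
    change w (e (e.symm b)) = w b
    rw [e.apply_symm_apply]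
  have h2 : w' (algebraMap K L a) = w (algebraMap K (L.map σ) a) := by
    change w (e (algebraMap K L a)) = _
    rw [e.commutes]
  rw [← h1, ha, h2]

/-- towers: if `L/K` is unramified and the value groups do not change from `L` to `L'` -/
theorem unr_tower {L L' : IntermediateField K (AlgebraicClosure K)} (h : L ≤ L')
    (hL : IsUnramifiedEverywhere k K L) (hfin : FiniteDimensional K L')
    (hL' : ∀ w : Valuation L' ℝ≥0, IsPlace k w → ∀ b : L', b ≠ 0 →
      ∃ a : L', (a : AlgebraicClosure K) ∈ L ∧ w b = w a) :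
    IsUnramifiedEverywhere k K L' := by
  refine ⟨hfin, fun w hw b hb => ?_⟩
  obtain ⟨a, haL, hab⟩ := hL' w hw b hb
  have ha0 : a ≠ 0 := by
    rintro rfl
    rw [map_zero, map_eq_zero] at hab
    exact hb hab
  obtain ⟨c, hc⟩ := hL.2 (resV h w) (isPlace_resV h hw) ⟨a, haL⟩ (fun h0 => ha0 (Subtype.ext
    (congrArg (fun z : L => (z : AlgebraicClosure K)) h0)))
  refine ⟨c, ?_⟩
  rw [hab]
  exact hc

end general

section char0

variable [CharZero k] [Algebra (RatFunc k) K] [IsScalarTower k (RatFunc k) K]
  [FiniteDimensional (RatFunc k) K]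

/-- a finite Galois extension containing a given finite extension -/
theorem exists_galois (k : Type*) [Field k] [CharZero k] {K : Type*} [Field K] [Algebra k K]
    (L : IntermediateField K (AlgebraicClosure K)) [FiniteDimensional K L] :
    ∃ N : IntermediateField K (AlgebraicClosure K), L ≤ N ∧ FiniteDimensional K N ∧
      IsGalois K N := by
  have := charZero_K k K
  refine ⟨normalClosure K L (AlgebraicClosure K), L.le_normalClosure, ?_, ?_⟩
  · exact normalClosure.is_finiteDimensional K L (AlgebraicClosure K)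
  · exact IsGalois.normalClosure K L (AlgebraicClosure K)

theorem unr_mono {L L' : IntermediateField K (AlgebraicClosure K)} (h : L' ≤ L)
    (hL : IsUnramifiedEverywhere k K L) : IsUnramifiedEverywhere k K L' := by
  have := hL.1
  obtain ⟨N, hLN, hN1, hN2⟩ := exists_galois k L
  have h1 := (unr_iff hLN).mp hL
  exact (unr_iff (h.trans hLN)).mpr fun w hw σ hσ x hx => h1 w hw σ hσ x (h hx)

theorem unr_sup {L₁ L₂ : IntermediateField K (AlgebraicClosure K)}
    (h₁ : IsUnramifiedEverywhere k K L₁) (h₂ : IsUnramifiedEverywhere k K L₂) :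
    IsUnramifiedEverywhere k K (L₁ ⊔ L₂) := by
  have := h₁.1
  have := h₂.1
  have : FiniteDimensional K (L₁ ⊔ L₂ : IntermediateField K (AlgebraicClosure K)) :=
    IntermediateField.finiteDimensional_sup L₁ L₂
  obtain ⟨N, hLN, hN1, hN2⟩ := exists_galois k (L₁ ⊔ L₂)
  have hL1 : L₁ ≤ N := le_sup_left.trans hLN
  have hL2 : L₂ ≤ N := le_sup_right.trans hLN
  have e1 := (unr_iff hL1).mp h₁
  have e2 := (unr_iff hL2).mp h₂
  refine (unr_iff hLN).mpr fun w hw σ hσ x hx => ?_
  rw [sup_eq_iSup] at hx
  refine fix_iSup σ _ ?_ ?_ hx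
  · intro b
    cases b
    · exact hL2
    · exact hL1
  · intro b y hy
    cases b
    · exact e2 w hw σ hσ y hy
    · exact e1 w hw σ hσ y hy

theorem unr_finset_sup {ι : Type*} (s : Finset ι) (L : ι → IntermediateField K (AlgebraicClosure K))
    (h : ∀ i ∈ s, IsUnramifiedEverywhere k K (L i)) :
    IsUnramifiedEverywhere k K (⨆ i ∈ s, L i) := by
  classical
  induction s using Finset.induction_on with
  | empty => simpa using unr_bot (k := k) (K := K)
  | insert a s ha ih =>
    rw [Finset.iSup_insert]
    exact unr_sup (h a (Finset.mem_insert_self a s))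
      (ih fun i hi => h i (Finset.mem_insert_of_mem hi))

theorem unr_normalClosure {L : IntermediateField K (AlgebraicClosure K)}
    (hL : IsUnramifiedEverywhere k K L) :
    IsUnramifiedEverywhere k K (normalClosure K L (AlgebraicClosure K)) := by
  have := hL.1
  have := charZero_K k K
  have h1 : FiniteDimensional K (normalClosure K L (AlgebraicClosure K)) :=
    normalClosure.is_finiteDimensional K L (AlgebraicClosure K)
  have h2 : IsGalois K (normalClosure K L (AlgebraicClosure K)) :=
    IsGalois.normalClosure K L (AlgebraicClosure K)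
  have hdef := normalClosure_def' (F := K) (L := AlgebraicClosure K) L
  have hle : ∀ f : AlgebraicClosure K →ₐ[K] AlgebraicClosure K,
      L.map f ≤ normalClosure K L (AlgebraicClosure K) := by
    intro f
    rw [hdef]
    exact le_iSup (fun f : AlgebraicClosure K →ₐ[K] AlgebraicClosure K => L.map f) f
  refine (unr_iff le_rfl).mpr fun w hw σ hσ x hx => ?_
  have hx' : (x : AlgebraicClosure K) ∈
      ⨆ f : AlgebraicClosure K →ₐ[K] AlgebraicClosure K, L.map f := by
    rw [← hdef]; exact hx
  refine fix_iSup σ _ hle ?_ hx'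
  intro f y hy
  exact (unr_iff (hle f)).mp (unr_map hL f) w hw σ hσ y hy

theorem mem_maxUnramified_iff {x : AlgebraicClosure K} :
    x ∈ maxUnramified k K ↔ ∃ L, IsUnramifiedEverywhere k K L ∧ x ∈ L := by
  constructor
  · intro hx
    unfold maxUnramified at hx
    rw [sSup_eq_iSup'] at hx
    obtain ⟨s, hs⟩ := exists_finset_of_mem_iSup hx
    exact ⟨_, unr_finset_sup s (fun i => (i : IntermediateField K (AlgebraicClosure K)))
      (fun i _ => i.2), hs⟩
  · rintro ⟨L, hL, hx⟩
    exact (le_sSup (a := L) hL) hx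

theorem le_maxUnramified_iff {L : IntermediateField K (AlgebraicClosure K)}
    [FiniteDimensional K L] : L ≤ maxUnramified k K ↔ IsUnramifiedEverywhere k K L := by
  constructor
  · intro h
    obtain ⟨s, hs⟩ := IntermediateField.essFiniteType_iff.mp
      (inferInstance : Algebra.EssFiniteType K L)
    classical
    choose! f hf using fun x (hx : x ∈ maxUnramified k K) => mem_maxUnramified_iff.mp hx
    have h1 : IsUnramifiedEverywhere k K (⨆ x ∈ s, f x) := by
      refine unr_finset_sup s f fun x hx => (hf x ?_).1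
      apply h
      rw [← hs]
      exact subset_adjoin K _ hx
    refine unr_mono ?_ h1
    rw [← hs, adjoin_le_iff]
    intro x hx
    have hxM : x ∈ maxUnramified k K := by
      apply h
      rw [← hs]
      exact subset_adjoin K _ hx
    exact (le_iSup₂_of_le x hx le_rfl : f x ≤ ⨆ x ∈ s, f x) (hf x hxM).2
  · intro h
    exact le_sSup (a := L) h

theorem mem_maxUnramified_iff' {x : AlgebraicClosure K} :
    x ∈ maxUnramified k K ↔ IsUnramifiedEverywhere k K K⟮x⟯ := by
  have hfd : FiniteDimensional K K⟮x⟯ :=
    IntermediateField.adjoin.finiteDimensional (Algebra.IsIntegral.isIntegral x)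
  rw [← le_maxUnramified_iff, adjoin_simple_le_iff]

theorem exists_galois_unr {x : AlgebraicClosure K} (hx : x ∈ maxUnramified k K) :
    ∃ L, IsUnramifiedEverywhere k K L ∧ IsGalois K L ∧ x ∈ L := by
  have := charZero_K k K
  obtain ⟨L, hL, hxL⟩ := mem_maxUnramified_iff.mp hx
  have := hL.1
  exact ⟨normalClosure K L (AlgebraicClosure K), unr_normalClosure hL,
    IsGalois.normalClosure K L (AlgebraicClosure K), L.le_normalClosure hxL⟩

theorem normal_maxUnramified : Normal K (maxUnramified k K) := by
  rw [IntermediateField.normal_iff_forall_map_le]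
  intro σ
  rintro _ ⟨x, hx, rfl⟩
  obtain ⟨L, hL, hxL⟩ := mem_maxUnramified_iff.mp hx
  exact mem_maxUnramified_iff.mpr ⟨L.map σ, unr_map hL σ, ⟨x, hxL, rfl⟩⟩

theorem isGalois_maxUnramified : IsGalois K (maxUnramified k K) := by
  have := charZero_K k K
  have := normal_maxUnramified (k := k) (K := K)
  exact IsGalois.mk

end char0

end Crest.Agent.R013.Unr5_957
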