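import Crest.Agent.R013.A2b_275
import Crest.Agent.R013.RR14_948
import Crest.Agent.R013.Unr5_957
import Crest.Agent.R013.Clause1Main_97

/-!
Row 13, part A: an invariant point of `maxUnramified` that is not a norm gives an invariant place,
and the final form of clause (2) of S0015 for one section, from an invariant point and the
non-existence of an invariant norm.
-/

set_option autoImplicit false

noncomputable section

namespace Crest.Agent.R013.A2c_275

open Crest.NumberTheoryR.Sect
open Crest.Agent.R013.A2b_275 Crest.Agent.R013.MaxUnr_97 Crest.Agent.R013.Clause1_97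
open Crest.Agent.R013.Places_97
open Crest.Agent.R013.RR7_948 Crest.Agent.R013.RR8_948 Crest.Agent.R013.RR13_948
  Crest.Agent.R013.RR14_948
open scoped NNReal ENNReal Topology

section Transfer

variable {K M : Type*} [Field K] [Field M] [Algebra K M] {Γ : Type*}
  [LinearOrderedCommGroupWithZero Γ]

/-- A valuation of `M` all of whose values are values on `K`, and whose restriction to `K` is
equivalent to a real one, is equivalent to a real one with the given restriction. -/
theorem exists_real (v : Valuation M Γ) (v0 : Valuation K ℝ≥0)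
    (h0 : v0.IsEquiv (v.comap (algebraMap K M)))
    (hval : ∀ x : M, x ≠ 0 → ∃ a : K, v x = v (algebraMap K M a)) :
    ∃ vt : Valuation M ℝ≥0, vt.IsEquiv v ∧ vt.comap (algebraMap K M) = v0 := by
  classical
  have hval' : ∀ x : M, ∃ a : K, v x = v (algebraMap K M a) := by
    intro x
    rcases eq_or_ne x 0 with rfl | hx
    · exact ⟨0, by simp⟩
    · exact hval x hx
  choose f hf using hval'
  have hle : ∀ a b : K, v0 a ≤ v0 b ↔ v (algebraMap K M a) ≤ v (algebraMap K M b) := fun a b =>
    h0 a b
  have heq : ∀ a b : K, v (algebraMap K M a) = v (algebraMap K M b) → v0 a = v0 b := by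
    intro a b hab
    exact le_antisymm ((hle a b).mpr hab.le) ((hle b a).mpr hab.ge)
  have hkey : ∀ x y : M, v0 (f x) ≤ v0 (f y) ↔ v x ≤ v y := by
    intro x y
    rw [hle, ← hf, ← hf]
  let vt : Valuation M ℝ≥0 :=
    { toFun := fun x => v0 (f x)
      map_zero' := by
        have : v0 (f 0) = v0 0 := heq _ _ (by rw [← hf]; simp)
        rw [this, map_zero]
      map_one' := by
        have : v0 (f 1) = v0 1 := heq _ _ (by rw [← hf]; simp)
        rw [this, map_one]
      map_mul' := by
        intro x y
        have : v0 (f (x * y)) = v0 (f x * f y) := heq _ _ (by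
          rw [← hf, map_mul, map_mul, map_mul, ← hf, ← hf])
        rw [this, map_mul]
      map_add_le_max' := by
        intro x y
        rw [le_max_iff, hkey, hkey, ← le_max_iff]
        exact v.map_add x y }
  refine ⟨vt, ?_, ?_⟩
  · intro x y
    exact hkey x y
  · ext a
    have : vt (algebraMap K M a) = v0 a := heq _ _ (by rw [← hf])
    rw [Valuation.comap_apply, this]

end Transfer

section Main

variable {p : ℕ} [Fact p.Prime] {k : Type*} [Field k] [Algebra ℚ_[p] k] [FiniteDimensional ℚ_[p] k]
  {K : Type*} [Field K] [Algebra k K] [Algebra (RatFunc k) K] [IsScalarTower k (RatFunc k) K]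
  [FiniteDimensional (RatFunc k) K]

/-- A point of `maxUnramified` that is not a norm comes from a place: a real valuation `vt`,
a place of `maxUnramified` over `k`, with the same valuation ring. -/
theorem exists_place_of_point [CharZero k] {φ : maxUnramified k K → ℝ≥0∞}
    (hφ : IsPt p k (maxUnramified k K) φ) (htop : ∃ a, φ a = ∞) :
    ∃ vt : Valuation (maxUnramified k K) ℝ≥0,
      IsPlace k (vt.comap (algebraMap K (maxUnramified k K))) ∧
      (∀ a, vt a ≤ 1 ↔ φ a ≠ ∞) ∧
      (∀ x : maxUnramified k K, x ≠ 0 → ∃ a : K, vt x = vt (algebraMap K _ a)) := by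
  classical
  have hcharK : CharZero K := charZero_of_injective_algebraMap (algebraMap k K).injective
  have hcharR : CharZero (RatFunc k) :=
    charZero_of_injective_algebraMap (algebraMap k (RatFunc k)).injective
  let v := hφ.ring.valuation
  have hv1 : ∀ a, v a ≤ 1 ↔ φ a ≠ ∞ := fun a => by
    rw [ValuationSubring.valuation_le_one_iff]; rfl
  -- trivial on `k`
  let _ : Algebra ℚ_[p] (maxUnramified k K) := ((algebraMap k (maxUnramified k K)).comp (algebraMap ℚ_[p] k)).toAlgebra
  have : IsScalarTower ℚ_[p] k (maxUnramified k K) := IsScalarTower.of_algebraMap_eq fun _ => rfl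
  have hk_le : ∀ c : k, v (algebraMap k (maxUnramified k K) c) ≤ 1 := by
    intro c
    rw [hv1]
    refine hφ.ne_top_of_isIntegral ?_
    have h1 : IsIntegral ℚ_[p] c := Algebra.IsIntegral.isIntegral c
    exact h1.map (IsScalarTower.toAlgHom ℚ_[p] k (maxUnramified k K))
  have hk : ∀ c : k, c ≠ 0 → v (algebraMap k (maxUnramified k K) c) = 1 := by
    intro c hc
    refine le_antisymm (hk_le c) ?_
    have h1 := hk_le c⁻¹
    have h2 : v (algebraMap k (maxUnramified k K) c) ≠ 0 := by
      rw [Valuation.ne_zero_iff, map_ne_zero]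
      exact hc
    rw [map_inv₀, map_inv₀] at h1
    exact (inv_le_one₀ (zero_lt_iff.mpr h2)).mp h1
  -- nontrivial on `K`
  obtain ⟨a, ha⟩ := htop
  have haint : IsIntegral K a := Algebra.IsIntegral.isIntegral a
  have hntK : ∃ b : K, v (algebraMap K (maxUnramified k K) b) ≠ 0 ∧ v (algebraMap K (maxUnramified k K) b) ≠ 1 := by
    by_contra hcon
    push Not at hcon
    have h1 : ∀ b : K, v (algebraMap K (maxUnramified k K) b) ≤ 1 := by
      intro b
      by_cases hb : v (algebraMap K (maxUnramified k K) b) = 0
      · rw [hb]; exact zero_le_one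
      · rw [hcon b hb]
    have h2 : v a ≤ 1 := by
      by_contra hcon2
      push Not at hcon2
      obtain ⟨P, hP, hPa⟩ := haint
      set n := P.natDegree with hn
      have h3 : Polynomial.eval₂ (algebraMap K (maxUnramified k K)) a P =
          ∑ i ∈ Finset.range (n + 1), algebraMap K (maxUnramified k K) (P.coeff i) * a ^ i := by
        rw [Polynomial.eval₂_eq_sum_range]
      rw [hPa, Finset.sum_range_succ, hP.coeff_natDegree, _root_.map_one, one_mul] at h3
      have h4 : a ^ n = - ∑ i ∈ Finset.range n, algebraMap K (maxUnramified k K) (P.coeff i) * a ^ i :=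
        eq_neg_of_add_eq_zero_right h3.symm
      have h5 : v (a ^ n) < v (a ^ n) := by
        conv_lhs => rw [h4, Valuation.map_neg]
        have hva0 : 0 < v a := zero_lt_one.trans hcon2
        refine Valuation.map_sum_lt v ?_ ?_
        · rw [map_pow]; exact (pow_pos hva0 n).ne'
        · intro i hi
          rw [map_mul, map_pow, map_pow]
          have hi' : i < n := Finset.mem_range.mp hi
          calc v (algebraMap K (maxUnramified k K) (P.coeff i)) * v a ^ i ≤ 1 * v a ^ i :=
                mul_le_mul_left (h1 _) _
            _ = v a ^ i := one_mul _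
            _ < v a ^ n := pow_lt_pow_right₀ hcon2 hi'
      exact lt_irrefl _ h5
    exact (hv1 a).mp h2 ha
  -- the place of `K`
  obtain ⟨P0, hP0⟩ := exists_place (k := k) (K := K) (v.comap (algebraMap K (maxUnramified k K)))
    (by
      intro c hc
      rw [Valuation.comap_apply, ← IsScalarTower.algebraMap_apply]
      exact hk c hc)
    hntK
  -- all values are values on `K`
  have hval : ∀ x : maxUnramified k K, x ≠ 0 → ∃ b : K, v x = v (algebraMap K (maxUnramified k K) b) := by
    intro x hx
    obtain ⟨L, hL, hxL⟩ := (Unr5_957.mem_maxUnramified_iff (k := k) (K := K)).mp x.2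
    have hLM : L ≤ maxUnramified k K := le_sSup hL
    have hfd : FiniteDimensional K L := hL.1
    let ι : L →+* maxUnramified k K := (IntermediateField.inclusion hLM).toRingHom
    have := Unr4_957.tower_IF (k := k) (K := K) L
    have := Unr4_957.finite_IF (k := k) (K := K) L
    obtain ⟨PL, hPL⟩ := exists_place (k := k) (K := L) (v.comap ι)
      (by
        intro c hc
        rw [Valuation.comap_apply]
        exact hk c hc)
      (by
        obtain ⟨b, hb⟩ := hntK
        exact ⟨algebraMap K L b, hb⟩)
    have hpl : IsPlace k (vR PL) := isPlace_vR PL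
    have hxL0 : (⟨(x : AlgebraicClosure K), hxL⟩ : L) ≠ 0 := by
      intro h0
      exact hx (Subtype.ext (congrArg (Subtype.val : L → AlgebraicClosure K) h0))
    obtain ⟨b, hb⟩ := hL.2 (vR PL) hpl ⟨(x : AlgebraicClosure K), hxL⟩ hxL0
    have h1 : (vR PL).IsEquiv (v.comap ι) := (isEquiv_vR PL).symm.trans hPL
    refine ⟨b, ?_⟩
    have h2 : v.comap ι ⟨(x : AlgebraicClosure K), hxL⟩ = v.comap ι (algebraMap K L b) :=
      h1.eq_iff.mp hb
    exact h2
  obtain ⟨vt, hvt, hvt0⟩ := exists_real v (vR P0) ((isEquiv_vR P0).symm.trans hP0) hval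
  refine ⟨vt, ?_, ?_, ?_⟩
  · rw [hvt0]; exact isPlace_vR P0
  · intro a
    rw [← hv1, hvt.le_one_iff_le_one]
  · intro x hx
    obtain ⟨b, hb⟩ := hval x hx
    exact ⟨b, hvt.eq_iff.mpr hb⟩

/-- The constants of `maxUnramified` form a Galois extension of `k`. -/
theorem isGalois_constField [CharZero k] : IsGalois k (constField k K) := by
  have halg : Algebra.IsAlgebraic k (constField k K) := algebraicClosure.isAlgebraic _ _
  have hn : Normal k (constField k K) := by
    refine ⟨fun x => ?_⟩
    refine Polynomial.Splits.of_splits_map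
      (algebraMap (constField k K) (maxUnramified k K)) ?_ ?_
    · rw [Polynomial.map_map, ← IsScalarTower.algebraMap_eq]
      exact splits_maxUnramified _
    · intro a ha
      rw [Polynomial.map_map, ← IsScalarTower.algebraMap_eq] at ha
      have hint : IsIntegral k a := by
        rw [← isAlgebraic_iff_isIntegral]
        refine ⟨minpoly k x, minpoly.ne_zero (Algebra.IsIntegral.isIntegral x), ?_⟩
        have := (Polynomial.mem_roots'.mp ha).2
        rwa [Polynomial.IsRoot, Polynomial.eval_map, ← Polynomial.aeval_def] at this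
      exact ⟨⟨a, mem_constField hint⟩, rfl⟩
  exact IsGalois.mk

/-- An invariant place lies over a rational place, and its decomposition group is the image of the
section. -/
theorem rational_and_range_eq [CharZero k] (s : ConstGal k K →* PiGroup k K)
    (hs : IsSection k K s) (vt : Valuation (maxUnramified k K) ℝ≥0)
    (hpl : IsPlace k (vt.comap (algebraMap K (maxUnramified k K))))
    (hinv : ∀ γ a, vt (s γ a) = vt a) :
    LiesOverRationalPlace k K vt ∧ Set.range s = decomp k K vt := by
  classical
  have hcharR : CharZero (RatFunc k) :=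
    charZero_of_injective_algebraMap (algebraMap k (RatFunc k)).injective
  have hk : ∀ c : k, c ≠ 0 → vt (algebraMap k (maxUnramified k K) c) = 1 := by
    intro c hc
    have := hpl.1 c hc
    rw [IsScalarTower.algebraMap_apply k K]
    exact this
  have hrat : LiesOverRationalPlace k K vt := by
    refine ⟨hpl, ?_⟩
    intro a ha
    obtain ⟨P, hP⟩ := RR13_948.IsPlace.exists_pl hpl
    have hdeg : degE P ≠ ⊤ := by
      rw [RR11_948.degE_eq P]; exact ENat.natCast_ne_top _
    obtain ⟨f, hf0, hf⟩ := exists_poly_lt_one P hdeg (hP.le_one_iff_le_one.mpr ha)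
    have hf1 := hP.lt_one_iff_lt_one.mp hf
    set a' : maxUnramified k K := algebraMap K (maxUnramified k K) a with ha'
    have hf2 : vt (Polynomial.aeval a' f) < 1 := by
      rw [ha', Polynomial.aeval_algebraMap_apply]
      exact hf1
    have hsplit := splits_maxUnramified (K := K) f
    have hroots := hsplit.eq_prod_roots
    have hev : Polynomial.aeval a' f =
        Polynomial.eval a' (f.map (algebraMap k (maxUnramified k K))) := by
      rw [Polynomial.eval_map, Polynomial.aeval_def]
    rw [hev, hroots, Polynomial.eval_mul, Polynomial.eval_C, map_mul,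
      Polynomial.leadingCoeff_map, hk _ (Polynomial.leadingCoeff_ne_zero.mpr hf0), one_mul,
      Polynomial.eval_multiset_prod, map_multiset_prod, Multiset.map_map, Multiset.map_map] at hf2
    obtain ⟨c, hc, hac⟩ : ∃ c ∈ (f.map (algebraMap k (maxUnramified k K))).roots,
        vt (a' - c) < 1 := by
      by_contra hcon
      push Not at hcon
      refine absurd hf2 (not_lt.mpr ?_)
      refine Multiset.one_le_prod ?_
      intro y hy
      obtain ⟨c, hc, rfl⟩ := Multiset.mem_map.mp hy
      simpa using hcon c hc
    have hcint : IsIntegral k c := by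
      rw [← isAlgebraic_iff_isIntegral]
      refine ⟨f, hf0, ?_⟩
      have := (Polynomial.mem_roots'.mp hc).2
      rwa [Polynomial.IsRoot, Polynomial.eval_map, ← Polynomial.aeval_def] at this
    let cc : constField k K := ⟨c, mem_constField hcint⟩
    have hfix : ∀ γ : ConstGal k K, γ cc = cc := by
      intro γ
      by_contra hne
      have h1 : s γ c = ((γ cc : constField k K) : maxUnramified k K) := hs.2 γ cc
      have h2 : vt (a' - s γ c) < 1 := by
        have h3 : a' - s γ c = s γ (a' - c) := by
          rw [map_sub, ha', AlgEquiv.commutes]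
        rw [h3, hinv]
        exact hac
      have h4 : vt (c - s γ c) < 1 := by
        have h5 : c - s γ c = (a' - s γ c) - (a' - c) := by ring
        rw [h5]
        exact vt.map_sub_lt h2 hac
      have h6 : c - s γ c ≠ 0 := by
        intro h0
        apply hne
        apply Subtype.ext
        rw [← h1]
        exact (sub_eq_zero.mp h0).symm
      have h7 : IsIntegral k (c - s γ c) := by
        rw [h1]
        exact hcint.sub (isIntegral_constField _)
      rw [val_eq_one_of_isAlgebraic vt hk h6 h7] at h4
      exact lt_irrefl _ h4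
    have hG : IsGalois k (constField k K) := isGalois_constField
    obtain ⟨c0, hc0⟩ := (InfiniteGalois.mem_range_algebraMap_iff_fixed (k := k) cc).mpr hfix
    refine ⟨c0, ?_⟩
    have h8 : algebraMap k (maxUnramified k K) c0 = c := by
      have := congrArg (Subtype.val : constField k K → maxUnramified k K) hc0
      exact this
    rw [Valuation.comap_apply, map_sub, ← IsScalarTower.algebraMap_apply, h8]
    exact hac
  refine ⟨hrat, ?_⟩
  ext g
  constructor
  · rintro ⟨γ, rfl⟩
    exact hinv γ
  · intro hg
    let γ : ConstGal k K := Clause1Main_97.res g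
    refine ⟨γ, ?_⟩
    have h1 : g * (s γ)⁻¹ = 1 := by
      refine eq_one_of_fix_const vt hrat (g * (s γ)⁻¹) ?_ ?_
      · intro a
        have h2 : vt ((s γ)⁻¹ a) = vt a := by
          rw [← hinv γ ((s γ)⁻¹ a)]
          congr 1
          exact AlgEquiv.apply_symm_apply (s γ) a
        change vt (g ((s γ)⁻¹ a)) = vt a
        rw [hg, h2]
      · intro c hc
        have h3 : s γ (((γ⁻¹ ⟨c, mem_constField hc⟩ : constField k K) : maxUnramified k K)) = c := by
          rw [hs.2]
          have : γ (γ⁻¹ ⟨c, mem_constField hc⟩) = ⟨c, mem_constField hc⟩ :=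
            AlgEquiv.apply_symm_apply γ _
          rw [this]
        have h4 : (s γ)⁻¹ c = ((γ⁻¹ ⟨c, mem_constField hc⟩ : constField k K) : maxUnramified k K) := by
          have h9 := congrArg ((s γ).symm) h3
          rw [AlgEquiv.symm_apply_apply] at h9
          exact h9.symm
        change g ((s γ)⁻¹ c) = c
        rw [h4]
        have h5 : g ((γ⁻¹ ⟨c, mem_constField hc⟩ : constField k K) : maxUnramified k K) =
            ((γ (γ⁻¹ ⟨c, mem_constField hc⟩) : constField k K) : maxUnramified k K) :=
          (Clause1Main_97.coe_res g _).symm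
        rw [h5]
        have : γ (γ⁻¹ ⟨c, mem_constField hc⟩) = ⟨c, mem_constField hc⟩ :=
          AlgEquiv.apply_symm_apply γ _
        rw [this]
    exact (mul_inv_eq_one.mp h1).symm

/-- **Clause (2) of S0015 for one section**, from an invariant point and the non-existence of an
invariant norm. -/
theorem clause2_of_point [CharZero k] (s : ConstGal k K →* PiGroup k K) (hs : IsSection k K s)
    {φ : maxUnramified k K → ℝ≥0∞} (hφ : IsPt p k (maxUnramified k K) φ)
    (hinv : ∀ γ a, φ (s γ a) = φ a)
    (hno : ¬ ∃ w : Valuation (maxUnramified k K) ℝ≥0,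
      (∀ c : ℚ_[p], w (algebraMap k (maxUnramified k K) (algebraMap ℚ_[p] k c)) = ‖c‖₊) ∧
      ∀ γ a, w (s γ a) = w a) :
    ∃ vt : Valuation (maxUnramified k K) ℝ≥0, LiesOverRationalPlace k K vt ∧
      Set.range s = decomp k K vt := by
  by_cases hfin : ∀ a, φ a ≠ ∞
  · exfalso
    apply hno
    refine ⟨hφ.toValuation hfin, ?_, ?_⟩
    · intro c
      apply ENNReal.coe_injective
      rw [hφ.coe_toValuation hfin, hφ.ext]
    · intro γ a
      apply ENNReal.coe_injective
      rw [hφ.coe_toValuation hfin, hφ.coe_toValuation hfin, hinv]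
  · push Not at hfin
    obtain ⟨vt, hpl, hring, hval⟩ := exists_place_of_point hφ hfin
    refine ⟨vt, rational_and_range_eq s hs vt hpl ?_⟩
    -- units of the ring are preserved
    have hle : ∀ γ a, vt (s γ a) ≤ 1 ↔ vt a ≤ 1 := by
      intro γ a
      rw [hring, hring, hinv]
    have hone : ∀ γ a, vt a = 1 → vt (s γ a) = 1 := by
      intro γ a ha
      have ha0 : a ≠ 0 := by
        rintro rfl
        rw [map_zero] at ha
        exact zero_ne_one ha
      refine le_antisymm ((hle γ a).mpr ha.le) ?_
      have h1 : vt (s γ a⁻¹) ≤ 1 := (hle γ a⁻¹).mpr (by rw [map_inv₀, ha, inv_one])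
      rw [map_inv₀, map_inv₀] at h1
      have h2 : 0 < vt (s γ a) := by
        rw [Valuation.pos_iff]
        exact (map_ne_zero (s γ)).mpr ha0
      exact (inv_le_one₀ h2).mp h1
    intro γ a
    rcases eq_or_ne a 0 with rfl | ha
    · simp
    obtain ⟨b, hb⟩ := hval a ha
    have hb0 : vt (algebraMap K (maxUnramified k K) b) ≠ 0 := by
      rw [← hb]
      exact (Valuation.ne_zero_iff vt).mpr ha
    have h1 : vt (a * (algebraMap K (maxUnramified k K) b)⁻¹) = 1 := by
      rw [map_mul, map_inv₀, hb, mul_inv_cancel₀ hb0]
    have h2 := hone γ _ h1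
    rw [map_mul, map_inv₀, AlgEquiv.commutes, map_mul, map_inv₀] at h2
    rw [hb]
    exact (mul_inv_eq_one₀ hb0).mp h2

end Main

end Crest.Agent.R013.A2c_275
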