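import Mathlib

/-!
# R013 / CntB1: constant extensions of fields, algebra (helper491)

`k'/k` finite separable, `k` algebraically closed in `K`, `K' = K·k'`.
-/

set_option autoImplicit false
set_option linter.all false

namespace Crest.Agent.R013.CntB1_491

open Polynomial Module

/-- `K' = K·k'` is the constant extension of `K/k` by `k'/k`, `k` algebraically closed in `K` -/
structure IsCE (k k' K K' : Type*) [Field k] [Field k'] [Field K] [Field K'] [Algebra k k']
    [Algebra k K] [Algebra k' K'] [Algebra K K'] : Prop where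
  gen : Algebra.adjoin K (Set.range (algebraMap k' K')) = ⊤
  hc : algebraicClosure k K = ⊥

namespace IsCE

variable {k k' K K' : Type*} [Field k] [Field k'] [Field K] [Field K'] [Algebra k k']
  [Algebra k K] [Algebra k' K'] [Algebra K K'] [Algebra k K'] [IsScalarTower k k' K']
  [IsScalarTower k K K']

theorem mem_range_of_isIntegral (h : IsCE k k' K K') {a : K} (ha : IsIntegral k a) :
    a ∈ Set.range (algebraMap k K) := by
  have h1 : a ∈ algebraicClosure k K := by
    rw [mem_algebraicClosure_iff]; exact ha.isAlgebraic
  rw [h.hc, IntermediateField.mem_bot] at h1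
  exact h1

/-- the minimal polynomial over `K` of an element of `k'` comes from `k` -/
theorem minpoly_eq (h : IsCE k k' K K') [FiniteDimensional k k'] (z : k') :
    minpoly K (algebraMap k' K' z) = (minpoly k z).map (algebraMap k K) := by
  have hz : IsIntegral k z := Algebra.IsIntegral.isIntegral z
  have hz' : IsIntegral k (algebraMap k' K' z) := hz.map (IsScalarTower.toAlgHom k k' K')
  have hzK : IsIntegral K (algebraMap k' K' z) := hz'.tower_top
  have h0 : aeval (algebraMap k' K' z) ((minpoly k z).map (algebraMap k K)) = 0 := by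
    rw [aeval_map_algebraMap, aeval_algebraMap_apply, minpoly.aeval, map_zero]
  have hdvd := minpoly.dvd K _ h0
  have hl := integralClosure.mem_lifts_of_monic_of_dvd_map K (minpoly.monic hz)
    (minpoly.monic hzK) hdvd
  have hl2 : minpoly K (algebraMap k' K' z) ∈ lifts (algebraMap k K) := by
    rw [lifts_iff_coeff_lifts] at hl ⊢
    intro n
    obtain ⟨a, ha⟩ := hl n
    apply h.mem_range_of_isIntegral
    rw [← ha]
    exact a.2
  obtain ⟨g, hg, hgdeg, hgm⟩ := lifts_and_natDegree_eq_and_monic hl2 (minpoly.monic hzK)
  have h1 : aeval z g = 0 := by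
    apply (algebraMap k' K').injective
    rw [map_zero, ← aeval_algebraMap_apply, ← aeval_map_algebraMap K, hg, minpoly.aeval]
  have h2 : minpoly k z ∣ g := minpoly.dvd k z h1
  have h3 : (minpoly k z).map (algebraMap k K) ∣ minpoly K (algebraMap k' K' z) := by
    rw [← hg]; exact Polynomial.map_dvd _ h2
  exact eq_of_monic_of_associated (minpoly.monic hzK) ((minpoly.monic hz).map _)
    (associated_of_dvd_dvd hdvd h3)

section sep

variable [FiniteDimensional k k'] [Algebra.IsSeparable k k']

theorem span_eq_top (h : IsCE k k' K K') {ι : Type*} (b : Basis ι k k') :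
    Submodule.span K (Set.range fun i => algebraMap k' K' (b i)) = ⊤ := by
  rw [eq_top_iff]
  intro x _
  have hx : x ∈ Algebra.adjoin K (Set.range (algebraMap k' K')) := by rw [h.gen]; trivial
  rw [← Subalgebra.mem_toSubmodule, Algebra.adjoin_eq_span] at hx
  have h1 : (Submonoid.closure (Set.range (algebraMap k' K')) : Set K') ⊆
      Set.range (algebraMap k' K') := by
    have : Submonoid.closure (Set.range (algebraMap k' K')) ≤
        MonoidHom.mrange (algebraMap k' K' : k' →* K') := by
      rw [Submonoid.closure_le]
      rintro _ ⟨y, rfl⟩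
      exact ⟨y, rfl⟩
    intro y hy
    obtain ⟨z, hz⟩ := this hy
    exact ⟨z, hz⟩
  refine Submodule.span_le.mpr ?_ (Submodule.span_mono h1 hx)
  rintro _ ⟨y, rfl⟩
  rw [← b.linearCombination_repr y, Finsupp.linearCombination_apply, Finsupp.sum, map_sum]
  refine Submodule.sum_mem _ fun i _ => ?_
  rw [Algebra.smul_def, map_mul, ← IsScalarTower.algebraMap_apply,
    IsScalarTower.algebraMap_apply k K K', ← Algebra.smul_def]
  exact Submodule.smul_mem _ _ (Submodule.subset_span ⟨i, rfl⟩)

theorem finiteDimensional (h : IsCE k k' K K') : FiniteDimensional K K' := by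
  let b := Module.finBasis k k'
  exact ⟨⟨(Set.finite_range fun i => algebraMap k' K' (b i)).toFinset, by
    rw [Set.Finite.coe_toFinset]; exact h.span_eq_top b⟩⟩

theorem finrank_eq (h : IsCE k k' K K') : finrank K K' = finrank k k' := by
  haveI := h.finiteDimensional
  apply le_antisymm
  · let b := Module.finBasis k k'
    have h1 := finrank_range_le_card (R := K) (fun i => algebraMap k' K' (b i))
    unfold Set.finrank at h1
    rw [h.span_eq_top b, finrank_top, Fintype.card_fin] at h1
    exact h1
  · obtain ⟨θ, hθ⟩ := Field.exists_primitive_element k k'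
    have h1 : finrank k k' = (minpoly k θ).natDegree := by
      rw [← IntermediateField.adjoin.finrank (Algebra.IsIntegral.isIntegral (R := k) θ), hθ]
      exact (IntermediateField.finrank_top').symm
    have h2 := minpoly.natDegree_le (A := K) (algebraMap k' K' θ)
    rw [h.minpoly_eq, natDegree_map] at h2
    rw [h1]; exact h2

/-- a basis of `k'/k` is a basis of `K'/K` -/
noncomputable def basis (h : IsCE k k' K K') {ι : Type*} [Fintype ι] (b : Basis ι k k') :
    Basis ι K K' :=
  basisOfTopLeSpanOfCardEqFinrank (fun i => algebraMap k' K' (b i)) (h.span_eq_top b).ge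
    (by rw [h.finrank_eq, finrank_eq_card_basis b])

@[simp] theorem basis_apply (h : IsCE k k' K K') {ι : Type*} [Fintype ι] (b : Basis ι k k')
    (i : ι) : h.basis b i = algebraMap k' K' (b i) := by
  unfold basis; rw [coe_basisOfTopLeSpanOfCardEqFinrank]

theorem basis_repr_algebraMap (h : IsCE k k' K K') {ι : Type*} [Fintype ι] (b : Basis ι k k')
    (z : k') (i : ι) :
    (h.basis b).repr (algebraMap k' K' z) i = algebraMap k K (b.repr z i) := by
  have h1 : algebraMap k' K' z = ∑ j, algebraMap k K (b.repr z j) • h.basis b j := by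
    conv_lhs => rw [← b.sum_repr z]
    rw [map_sum]
    refine Finset.sum_congr rfl fun j _ => ?_
    rw [Algebra.smul_def, map_mul, ← IsScalarTower.algebraMap_apply, basis_apply,
      Algebra.smul_def, ← IsScalarTower.algebraMap_apply]
  rw [h1, Basis.repr_sum_self]

theorem trace_algebraMap (h : IsCE k k' K K') (z : k') :
    Algebra.trace K K' (algebraMap k' K' z) = algebraMap k K (Algebra.trace k k' z) := by
  classical
  let b := Module.finBasis k k'
  rw [Algebra.trace_eq_matrix_trace (h.basis b), Algebra.trace_eq_matrix_trace b,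
    Matrix.trace, Matrix.trace, map_sum]
  refine Finset.sum_congr rfl fun i _ => ?_
  rw [Matrix.diag_apply, Matrix.diag_apply, Algebra.leftMulMatrix_eq_repr_mul,
    Algebra.leftMulMatrix_eq_repr_mul, basis_apply, ← map_mul, basis_repr_algebraMap]

theorem norm_algebraMap (h : IsCE k k' K K') (z : k') :
    Algebra.norm K (algebraMap k' K' z) = algebraMap k K (Algebra.norm k z) := by
  classical
  let b := Module.finBasis k k'
  rw [Algebra.norm_eq_matrix_det (h.basis b), Algebra.norm_eq_matrix_det b, RingHom.map_det]
  congr 1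
  ext i j
  rw [Algebra.leftMulMatrix_eq_repr_mul, basis_apply, ← map_mul, basis_repr_algebraMap,
    RingHom.mapMatrix_apply, Matrix.map_apply, Algebra.leftMulMatrix_eq_repr_mul]

/-- coordinates are traces -/
theorem exists_dual (h : IsCE k k' K K') {ι : Type*} [Fintype ι] [DecidableEq ι]
    (b : Basis ι k k') : ∃ c : ι → k', ∀ (x : K') (i : ι),
      (h.basis b).repr x i = Algebra.trace K K' (x * algebraMap k' K' (c i)) := by
  classical
  let c := (Algebra.traceForm k k').dualBasis (traceForm_nondegenerate k k') b
  refine ⟨c, fun x i => ?_⟩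
  conv_rhs => rw [← (h.basis b).sum_repr x]
  rw [Finset.sum_mul, map_sum, Finset.sum_eq_single i]
  · rw [basis_apply, smul_mul_assoc, ← map_mul, map_smul, h.trace_algebraMap,
      mul_comm (b i) (c i)]
    have h1 : Algebra.trace k k' (c i * b i) = 1 := by
      have := LinearMap.BilinForm.apply_dualBasis_left (B := Algebra.traceForm k k')
        (traceForm_nondegenerate k k') b i i
      rw [if_pos rfl] at this
      exact this
    rw [h1, map_one, smul_eq_mul, mul_one]
  · intro j _ hj
    rw [basis_apply, smul_mul_assoc, ← map_mul, map_smul, h.trace_algebraMap,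
      mul_comm (b j) (c i)]
    have h1 : Algebra.trace k k' (c i * b j) = 0 := by
      have := LinearMap.BilinForm.apply_dualBasis_left (B := Algebra.traceForm k k')
        (traceForm_nondegenerate k k') b i j
      rw [if_neg hj] at this
      exact this
    rw [h1, map_zero, smul_zero]
  · intro hi; exact absurd (Finset.mem_univ i) hi

/-- `k'` is algebraically closed in `K'` -/
theorem hc' (h : IsCE k k' K K') : algebraicClosure k' K' = ⊥ := by
  classical
  rw [eq_bot_iff]
  intro x hx
  rw [mem_algebraicClosure_iff] at hx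
  let b := Module.finBasis k k'
  obtain ⟨c, hc⟩ := h.exists_dual b
  haveI : Algebra.IsIntegral k k' := Algebra.IsIntegral.of_finite k k'
  haveI := h.finiteDimensional
  have hx1 : IsIntegral k x := isIntegral_trans (R := k) x hx.isIntegral
  rw [IntermediateField.mem_bot, ← (h.basis b).sum_repr x]
  have h1 : ∀ i, ∃ a : k, algebraMap k K a = (h.basis b).repr x i := by
    intro i
    apply h.mem_range_of_isIntegral
    rw [hc]
    apply Algebra.isIntegral_trace
    exact hx1.mul ((Algebra.IsIntegral.isIntegral (R := k) (c i)).map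
      (IsScalarTower.toAlgHom k k' K'))
  choose a ha using h1
  refine ⟨∑ i, algebraMap k k' (a i) * b i, ?_⟩
  rw [map_sum]
  refine Finset.sum_congr rfl fun i _ => ?_
  rw [map_mul, ← IsScalarTower.algebraMap_apply, ← ha i, basis_apply, Algebra.smul_def,
    ← IsScalarTower.algebraMap_apply]

theorem val_le_of_repr (h : IsCE k k' K K') {Γ : Type*} [LinearOrderedCommGroupWithZero Γ]
    (w : Valuation K' Γ) (hw : ∀ c : k', c ≠ 0 → w (algebraMap k' K' c) = 1)
    {ι : Type*} [Fintype ι] (b : Basis ι k k') (x : K') {B : Γ}
    (hB : ∀ i, w (algebraMap K K' ((h.basis b).repr x i)) ≤ B) : w x ≤ B := by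
  classical
  rw [← (h.basis b).sum_repr x]
  apply w.map_sum_le
  intro i _
  rw [Algebra.smul_def, map_mul, basis_apply, hw (b i) (b.ne_zero i), mul_one]
  exact hB i

end sep

section galois

variable [FiniteDimensional k k'] [IsGalois k k']

omit [Algebra K K'] [Algebra k K] [IsScalarTower k K K'] in
/-- conjugates over `k` of elements of `k'` lie in `k'` -/
theorem mem_of_aeval_minpoly {z : k'} {y : K'} (hy : aeval y (minpoly k z) = 0) :
    ∃ z' : k', y = algebraMap k' K' z' := by
  have h1 : ((minpoly k z).map (algebraMap k k')).Splits :=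
    Normal.splits inferInstance z
  have h2 : (((minpoly k z).map (algebraMap k k')).map (algebraMap k' K')).IsRoot y := by
    rw [map_map, ← IsScalarTower.algebraMap_eq, IsRoot.def, eval_map_algebraMap]
    exact hy
  have h3 : (minpoly k z).map (algebraMap k k') ≠ 0 :=
    map_ne_zero (minpoly.ne_zero (Algebra.IsIntegral.isIntegral z))
  obtain ⟨z', hz'⟩ := h1.mem_range_of_isRoot h3 h2
  exact ⟨z', hz'.symm⟩

/-- automorphisms of `K'/K` preserve `k'` -/
theorem exists_map_algebraMap (h : IsCE k k' K K') (σ : K' ≃ₐ[K] K') (z : k') :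
    ∃ z' : k', σ (algebraMap k' K' z) = algebraMap k' K' z' := by
  apply mem_of_aeval_minpoly (k := k) (z := z)
  have h1 : aeval ((σ.toAlgHom.restrictScalars k) (algebraMap k' K' z)) (minpoly k z) = 0 := by
    rw [aeval_algHom_apply, aeval_algebraMap_apply, minpoly.aeval, map_zero, map_zero]
  exact h1

theorem isGalois (h : IsCE k k' K K') : IsGalois K K' := by
  haveI := h.finiteDimensional
  obtain ⟨θ, hθ⟩ := Field.exists_primitive_element k k'
  set p := (minpoly k θ).map (algebraMap k K) with hp
  have hsplit : (p.map (algebraMap K K')).Splits := by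
    have h1 : ((minpoly k θ).map (algebraMap k k')).Splits :=
      Normal.splits inferInstance θ
    have h2 := h1.map (algebraMap k' K')
    rw [map_map, ← IsScalarTower.algebraMap_eq] at h2
    rw [hp, map_map, ← IsScalarTower.algebraMap_eq]
    exact h2
  have hsep : p.Separable := by
    have h0 : (minpoly k θ).Separable := Algebra.IsSeparable.isSeparable k θ
    exact h0.map
  haveI : p.IsSplittingField K K' := by
    refine ⟨hsplit, ?_⟩
    rw [eq_top_iff, ← h.gen, Algebra.adjoin_le_iff]
    rintro _ ⟨z, rfl⟩
    have h4 : z ∈ Algebra.adjoin k {θ} := by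
      rw [← IntermediateField.adjoin_simple_toSubalgebra_of_isAlgebraic
        (Algebra.IsIntegral.isIntegral θ).isAlgebraic, hθ]
      trivial
    rw [Algebra.adjoin_singleton_eq_range_aeval] at h4
    obtain ⟨q, hq⟩ := h4
    have h5 : aeval θ q = z := hq
    rw [← h5, ← aeval_algebraMap_apply, ← aeval_map_algebraMap K]
    exact Algebra.adjoin_mono (Set.singleton_subset_iff.mpr (mem_rootSet.mpr
      ⟨(minpoly.monic (Algebra.IsIntegral.isIntegral θ)).map _ |>.ne_zero, by
        rw [aeval_map_algebraMap, aeval_algebraMap_apply, minpoly.aeval, map_zero]⟩))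
      (aeval_mem_adjoin_singleton K _)
  exact IsGalois.of_separable_splitting_field hsep

/-- **key estimate**: coordinates of `x` are bounded by the conjugates of `x` -/
theorem val_repr_le (h : IsCE k k' K K') {Γ : Type*} [LinearOrderedCommGroupWithZero Γ]
    (w : Valuation K' Γ) (hw : ∀ c : k', c ≠ 0 → w (algebraMap k' K' c) = 1)
    {ι : Type*} [Fintype ι] (b : Basis ι k k') (x : K') {B : Γ}
    (hB : ∀ σ : K' ≃ₐ[K] K', w (σ x) ≤ B) (i : ι) :
    w (algebraMap K K' ((h.basis b).repr x i)) ≤ B := by
  classical
  haveI := h.finiteDimensional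
  haveI := h.isGalois
  obtain ⟨c, hc⟩ := h.exists_dual b
  rw [hc, trace_eq_sum_automorphisms]
  apply w.map_sum_le
  intro σ _
  rw [map_mul, map_mul]
  obtain ⟨z', hz'⟩ := h.exists_map_algebraMap σ (c i)
  rw [hz']
  have h1 : w (algebraMap k' K' z') ≤ 1 := by
    by_cases h0 : z' = 0
    · rw [h0, map_zero, map_zero]; exact zero_le_one
    · exact (hw z' h0).le
  calc w (σ x) * w (algebraMap k' K' z') ≤ w (σ x) * 1 := mul_le_mul_right h1 _
    _ = w (σ x) := mul_one _
    _ ≤ B := hB σ

end galois

end IsCE

end Crest.Agent.R013.CntB1_491
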