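import Mathlib

/-!
# R013 / Desc1 (helper372): algebraic constant extensions `K = K₀ ⊗_k C`

`CE k C K₀ K`: `C/k` is algebraic and the square `k → C`, `k → K₀`, `K₀ → K`, `C → K` of fields
is a pushout. `lev K₀ K k'` (for `k'` between `k` and `C`) is the subfield `K₀ k'` of `K`.
-/

set_option autoImplicit false
set_option linter.all false

namespace Crest.Agent.R013.Desc_372

open TensorProduct Module

section pushout

variable {R S R' S' : Type*} [CommRing R] [CommRing S] [CommRing R'] [CommRing S']
  [Algebra R S] [Algebra R R'] [Algebra S S'] [Algebra R' S'] [Algebra R S']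
  [IsScalarTower R S S'] [IsScalarTower R R' S']

/-- the canonical map `S ⊗ R' → S'` -/
noncomputable def mu (R S R' S' : Type*) [CommRing R] [CommRing S] [CommRing R'] [CommRing S']
    [Algebra R S] [Algebra R R'] [Algebra S S'] [Algebra R' S'] [Algebra R S']
    [IsScalarTower R S S'] [IsScalarTower R R' S'] : S ⊗[R] R' →ₐ[S] S' :=
  Algebra.TensorProduct.lift (Algebra.ofId S S') (IsScalarTower.toAlgHom R R' S')
    (fun _ _ => Commute.all _ _)

@[simp] theorem mu_tmul (a : S) (b : R') :
    mu R S R' S' (a ⊗ₜ b) = algebraMap S S' a * algebraMap R' S' b := by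
  simp [mu, Algebra.ofId_apply]

theorem isPushout_iff_bijective :
    Algebra.IsPushout R S R' S' ↔ Function.Bijective (mu R S R' S') := by
  constructor
  · intro h
    have : (mu R S R' S' : S ⊗[R] R' → S') = Algebra.IsPushout.equiv R S R' S' := by
      have h1 : mu R S R' S' = (Algebra.IsPushout.equiv R S R' S').toAlgHom := by
        apply Algebra.TensorProduct.ext'
        intro a b
        rw [mu_tmul]
        exact (Algebra.IsPushout.equiv_tmul R S R' S' a b).symm
      rw [h1]; rfl
    rw [this]
    exact (Algebra.IsPushout.equiv R S R' S').bijective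
  · intro h
    refine ⟨IsBaseChange.of_equiv (LinearEquiv.ofBijective (mu R S R' S').toLinearMap h) ?_⟩
    intro x
    change mu R S R' S' (1 ⊗ₜ x) = algebraMap R' S' x
    simp

end pushout

/-- `K = K₀ ⊗_k C` with `C/k` algebraic: the constant extension of `K₀` from `k` to `C` -/
class CE (k C K₀ K : Type*) [Field k] [Field C] [Field K₀] [Field K] [Algebra k C] [Algebra k K₀]
    [Algebra C K] [Algebra K₀ K] [Algebra k K] [IsScalarTower k C K] [IsScalarTower k K₀ K] :
    Prop where
  alg : Algebra.IsAlgebraic k C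
  po : Algebra.IsPushout k C K₀ K

namespace CE

section basic

variable (k C K₀ K : Type*) [Field k] [Field C] [Field K₀] [Field K] [Algebra k C] [Algebra k K₀]
    [Algebra C K] [Algebra K₀ K] [Algebra k K] [IsScalarTower k C K] [IsScalarTower k K₀ K]

theorem mu_bijective [h : CE k C K₀ K] : Function.Bijective (mu k C K₀ K) :=
  isPushout_iff_bijective.1 h.po

theorem mu_bijective' [h : CE k C K₀ K] : Function.Bijective (mu k K₀ C K) :=
  isPushout_iff_bijective.1 h.po.symm

/-- every element of `K` is a finite sum `∑ cᵢ gᵢ` -/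
theorem exists_sum [h : CE k C K₀ K] (f : K) :
    ∃ (n : ℕ) (c : Fin n → C) (g : Fin n → K₀),
      f = ∑ i, algebraMap C K (c i) * algebraMap K₀ K (g i) := by
  obtain ⟨t, rfl⟩ := (mu_bijective k C K₀ K).2 f
  obtain ⟨S, rfl⟩ := TensorProduct.exists_finset t
  refine ⟨S.card, fun i => (S.equivFin.symm i).1.1, fun i => (S.equivFin.symm i).1.2, ?_⟩
  rw [map_sum, ← S.sum_coe_sort, ← Equiv.sum_comp S.equivFin.symm]
  simp

/-- `k`-independent families of `K₀` are `C`-independent in `K` -/
theorem linearIndependent_left [h : CE k C K₀ K] {ι : Type*} {g : ι → K₀}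
    (hg : LinearIndependent k g) : LinearIndependent C (fun i => algebraMap K₀ K (g i)) := by
  have h2 := (Module.Flat.linearIndependent_one_tmul (S := C) hg).map'
    (mu k C K₀ K).toLinearMap (LinearMap.ker_eq_bot.2 (mu_bijective k C K₀ K).1)
  have h3 : (fun i => algebraMap K₀ K (g i)) =
      (mu k C K₀ K).toLinearMap ∘ fun x => (1 : C) ⊗ₜ[k] g x := by
    funext i; simp
  rw [h3]; exact h2

/-- `k`-independent families of `C` are `K₀`-independent in `K` -/
theorem linearIndependent_right [h : CE k C K₀ K] {ι : Type*} {c : ι → C}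
    (hc : LinearIndependent k c) : LinearIndependent K₀ (fun i => algebraMap C K (c i)) := by
  have h2 := (Module.Flat.linearIndependent_one_tmul (S := K₀) hc).map'
    (mu k K₀ C K).toLinearMap (LinearMap.ker_eq_bot.2 (mu_bijective' k C K₀ K).1)
  have h3 : (fun i => algebraMap C K (c i)) =
      (mu k K₀ C K).toLinearMap ∘ fun x => (1 : K₀) ⊗ₜ[k] c x := by
    funext i; simp
  rw [h3]; exact h2

/-- a `k`-basis of `K₀` is a `C`-basis of `K` -/
noncomputable def basisL [h : CE k C K₀ K] {ι : Type*} (b : Basis ι k K₀) : Basis ι C K :=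
  Basis.mk (linearIndependent_left k C K₀ K b.linearIndependent) (by
    intro f _
    obtain ⟨n, c, g, rfl⟩ := exists_sum k C K₀ K f
    refine Submodule.sum_mem _ fun i _ => ?_
    rw [← Algebra.smul_def]
    refine Submodule.smul_mem _ _ ?_
    rw [← b.linearCombination_repr (g i), Finsupp.linearCombination_apply, Finsupp.sum, map_sum]
    refine Submodule.sum_mem _ fun j _ => ?_
    rw [Algebra.smul_def, map_mul, ← IsScalarTower.algebraMap_apply,
      IsScalarTower.algebraMap_apply k C K, ← Algebra.smul_def]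
    exact Submodule.smul_mem _ _ (Submodule.subset_span ⟨j, rfl⟩))

@[simp] theorem basisL_apply [h : CE k C K₀ K] {ι : Type*} (b : Basis ι k K₀) (i : ι) :
    basisL k C K₀ K b i = algebraMap K₀ K (b i) := by
  simp [basisL]

/-- a `k`-basis of `C` is a `K₀`-basis of `K` -/
noncomputable def basisR [h : CE k C K₀ K] {ι : Type*} (b : Basis ι k C) : Basis ι K₀ K :=
  Basis.mk (linearIndependent_right k C K₀ K b.linearIndependent) (by
    intro f _
    obtain ⟨n, c, g, rfl⟩ := exists_sum k C K₀ K f
    refine Submodule.sum_mem _ fun i _ => ?_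
    rw [mul_comm, ← Algebra.smul_def]
    refine Submodule.smul_mem _ _ ?_
    rw [← b.linearCombination_repr (c i), Finsupp.linearCombination_apply, Finsupp.sum, map_sum]
    refine Submodule.sum_mem _ fun j _ => ?_
    rw [Algebra.smul_def, map_mul, ← IsScalarTower.algebraMap_apply,
      IsScalarTower.algebraMap_apply k K₀ K, ← Algebra.smul_def]
    exact Submodule.smul_mem _ _ (Submodule.subset_span ⟨j, rfl⟩))

@[simp] theorem basisR_apply [h : CE k C K₀ K] {ι : Type*} (b : Basis ι k C) (i : ι) :
    basisR k C K₀ K b i = algebraMap C K (b i) := by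
  simp [basisR]

/-- `K/K₀` is algebraic -/
theorem isAlgebraic [h : CE k C K₀ K] : Algebra.IsAlgebraic K₀ K := by
  have := h.alg
  refine ⟨fun f => ?_⟩
  obtain ⟨n, c, g, rfl⟩ := exists_sum k C K₀ K f
  refine IsIntegral.isAlgebraic (IsIntegral.sum _ fun i _ => IsIntegral.mul ?_ isIntegral_algebraMap)
  have h1 : IsIntegral k (algebraMap C K (c i)) :=
    (Algebra.IsAlgebraic.isAlgebraic (c i)).isIntegral.map (IsScalarTower.toAlgHom k C K)
  exact h1.tower_top

end basic

section lift

variable (k C K₀ K : Type*) [Field k] [Field C] [Field K₀] [Field K] [Algebra k C] [Algebra k K₀]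
    [Algebra C K] [Algebra K₀ K] [Algebra k K] [IsScalarTower k C K] [IsScalarTower k K₀ K]

/-- two ring homomorphisms on `K` which agree on `C` and `K₀` are equal -/
theorem ringHom_ext [h : CE k C K₀ K] {A : Type*} [Semiring A] {φ ψ : K →+* A}
    (h1 : ∀ c, φ (algebraMap C K c) = ψ (algebraMap C K c))
    (h2 : ∀ g, φ (algebraMap K₀ K g) = ψ (algebraMap K₀ K g)) : φ = ψ := by
  ext f
  obtain ⟨n, c, g, rfl⟩ := exists_sum k C K₀ K f
  rw [map_sum, map_sum]
  exact Finset.sum_congr rfl fun i _ => by rw [map_mul, map_mul, h1, h2]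

/-- extension of an automorphism of `C/k` to `K`, trivial on `K₀` (as a `k`-homomorphism) -/
noncomputable def liftA [h : CE k C K₀ K] (s : C →ₐ[k] C) : K →ₐ[k] K :=
  have := h.po
  Algebra.pushoutDesc (R := k) (S := C) (R' := K₀) K ((IsScalarTower.toAlgHom k C K).comp s)
      (IsScalarTower.toAlgHom k K₀ K) (fun _ _ => mul_comm _ _)

theorem liftA_left [h : CE k C K₀ K] (s : C →ₐ[k] C) (c : C) :
    liftA k C K₀ K s (algebraMap C K c) = algebraMap C K (s c) := by
  have := h.po
  exact Algebra.pushoutDesc_left (R := k) (S := C) (R' := K₀) K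
    ((IsScalarTower.toAlgHom k C K).comp s)
      (IsScalarTower.toAlgHom k K₀ K) (fun _ _ => mul_comm _ _) c

theorem liftA_right [h : CE k C K₀ K] (s : C →ₐ[k] C) (g : K₀) :
    liftA k C K₀ K s (algebraMap K₀ K g) = algebraMap K₀ K g := by
  have := h.po
  exact Algebra.pushoutDesc_right (R := k) (S := C) (R' := K₀) K
    ((IsScalarTower.toAlgHom k C K).comp s)
      (IsScalarTower.toAlgHom k K₀ K) (fun _ _ => mul_comm _ _) g

/-- extension of an automorphism of `C/k` to `K`, trivial on `K₀` (as a homomorphism) -/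
noncomputable def liftH [h : CE k C K₀ K] (s : C →ₐ[k] C) : K →ₐ[K₀] K :=
  { (liftA k C K₀ K s).toRingHom with
    commutes' := fun g => liftA_right k C K₀ K s g }

@[simp] theorem liftH_algebraMap [h : CE k C K₀ K] (s : C →ₐ[k] C) (c : C) :
    liftH k C K₀ K s (algebraMap C K c) = algebraMap C K (s c) :=
  liftA_left k C K₀ K s c

theorem liftH_comp [h : CE k C K₀ K] (s t : C →ₐ[k] C) :
    (liftH k C K₀ K s).comp (liftH k C K₀ K t) = liftH k C K₀ K (s.comp t) := by
  have := ringHom_ext k C K₀ K (φ := ((liftH k C K₀ K s).comp (liftH k C K₀ K t) : K →+* K))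
    (ψ := (liftH k C K₀ K (s.comp t) : K →+* K)) (by intro c; simp) (by intro g; simp)
  ext f
  exact congrArg (fun φ : K →+* K => φ f) this

theorem liftH_id [h : CE k C K₀ K] : liftH k C K₀ K (AlgHom.id k C) = AlgHom.id K₀ K := by
  have := ringHom_ext k C K₀ K (φ := (liftH k C K₀ K (AlgHom.id k C) : K →+* K))
    (ψ := (AlgHom.id K₀ K : K →+* K)) (by intro c; simp) (by intro g; simp)
  ext f
  exact congrArg (fun φ : K →+* K => φ f) this

/-- the homomorphism `Aut(C/k) → Aut(K/K₀)` -/
noncomputable def lift [h : CE k C K₀ K] : (C ≃ₐ[k] C) →* (K ≃ₐ[K₀] K) where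
  toFun s := AlgEquiv.ofAlgHom (liftH k C K₀ K s) (liftH k C K₀ K (s⁻¹ : C ≃ₐ[k] C))
    (by rw [liftH_comp, ← liftH_id k C K₀ K]; congr 1; ext c; exact s.apply_symm_apply c)
    (by rw [liftH_comp, ← liftH_id k C K₀ K]; congr 1; ext c; exact s.symm_apply_apply c)
  map_one' := by
    ext f
    exact congrArg (fun φ : K →ₐ[K₀] K => φ f) (liftH_id k C K₀ K)
  map_mul' s t := by
    ext f
    exact congrArg (fun φ : K →ₐ[K₀] K => φ f) (liftH_comp k C K₀ K s t).symm

@[simp] theorem lift_algebraMap [h : CE k C K₀ K] (s : C ≃ₐ[k] C) (c : C) :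
    lift k C K₀ K s (algebraMap C K c) = algebraMap C K (s c) :=
  liftH_algebraMap k C K₀ K s c

theorem lift_injective [h : CE k C K₀ K] : Function.Injective (lift k C K₀ K) := by
  intro s t hst
  ext c
  apply (algebraMap C K).injective
  rw [← lift_algebraMap k C K₀ K, ← lift_algebraMap k C K₀ K, hst]

end lift

section lev

variable {k C : Type*} (K₀ K : Type*) [Field k] [Field C] [Field K₀] [Field K] [Algebra k C]
    [Algebra k K₀] [Algebra C K] [Algebra K₀ K] [Algebra k K] [IsScalarTower k C K]
    [IsScalarTower k K₀ K]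

/-- the level `K₀[k']`: the subfield of `K` generated by `K₀` and `k' ≤ C` -/
def lev (k' : IntermediateField k C) : IntermediateField K₀ K :=
  IntermediateField.adjoin K₀ (algebraMap C K '' k')

theorem lev_mono {k' k'' : IntermediateField k C} (h : k' ≤ k'') : lev K₀ K k' ≤ lev K₀ K k'' :=
  IntermediateField.adjoin.mono _ _ _ (Set.image_mono h)

theorem algebraMap_mem_lev (k' : IntermediateField k C) {c : C} (hc : c ∈ k') :
    algebraMap C K c ∈ lev K₀ K k' :=
  IntermediateField.subset_adjoin _ _ ⟨c, hc, rfl⟩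

theorem lev_le_iff (k' : IntermediateField k C) (F : IntermediateField K₀ K) :
    lev K₀ K k' ≤ F ↔ ∀ c ∈ k', algebraMap C K c ∈ F := by
  unfold lev
  rw [IntermediateField.adjoin_le_iff]
  constructor
  · intro h c hc
    exact h ⟨c, hc, rfl⟩
  · rintro h _ ⟨c, hc, rfl⟩
    exact h c hc

theorem mem_lev_iff [h : CE k C K₀ K] (k' : IntermediateField k C) (f : K) :
    f ∈ lev K₀ K k' ↔ ∃ (n : ℕ) (c : Fin n → C) (g : Fin n → K₀), (∀ i, c i ∈ k') ∧
      f = ∑ i, algebraMap C K (c i) * algebraMap K₀ K (g i) := by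
  have := isAlgebraic k C K₀ K
  constructor
  · intro hf
    have h1 : (lev K₀ K k').toSubalgebra = Algebra.adjoin K₀ (algebraMap C K '' k') :=
      IntermediateField.adjoin_toSubalgebra_of_isAlgebraic
        fun x _ => Algebra.IsAlgebraic.isAlgebraic x
    have h2 : f ∈ Algebra.adjoin K₀ (algebraMap C K '' (k' : Set C)) := by
      rw [← h1]; exact hf
    rw [← Subalgebra.mem_toSubmodule, Algebra.adjoin_eq_span] at h2
    have h3 : (Submonoid.closure (algebraMap C K '' (k' : Set C)) : Set K) ⊆
        algebraMap C K '' (k' : Set C) := by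
      have : Submonoid.closure (algebraMap C K '' (k' : Set C)) ≤
          (k'.toSubalgebra.toSubsemiring.toSubmonoid.map (algebraMap C K : C →* K)) := by
        rw [Submonoid.closure_le]
        rintro _ ⟨y, hy, rfl⟩
        exact ⟨y, hy, rfl⟩
      intro y hy
      obtain ⟨z, hz, rfl⟩ := this hy
      exact ⟨z, hz, rfl⟩
    have h4 := Submodule.span_mono h3 h2
    refine Submodule.span_induction ?_ ?_ ?_ ?_ h4
    · rintro _ ⟨c, hc, rfl⟩
      exact ⟨1, fun _ => c, fun _ => 1, fun _ => hc, by simp⟩
    · exact ⟨0, fun _ => 0, fun _ => 0, fun _ => zero_mem _, by simp⟩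
    · rintro _ _ _ _ ⟨n, c, g, hc, rfl⟩ ⟨m, c', g', hc', rfl⟩
      refine ⟨n + m, Fin.append c c', Fin.append g g', ?_, ?_⟩
      · intro i
        refine Fin.addCases (fun i => ?_) (fun i => ?_) i
        · rw [Fin.append_left]; exact hc i
        · rw [Fin.append_right]; exact hc' i
      · rw [Fin.sum_univ_add]; simp
    · rintro a _ _ ⟨n, c, g, hc, rfl⟩
      refine ⟨n, c, fun i => a * g i, hc, ?_⟩
      rw [Algebra.smul_def, Finset.mul_sum]
      exact Finset.sum_congr rfl fun i _ => by rw [map_mul]; ring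
  · rintro ⟨n, c, g, hc, rfl⟩
    exact sum_mem fun i _ => mul_mem (algebraMap_mem_lev K₀ K k' (hc i))
      (IntermediateField.algebraMap_mem _ _)

/-- every finite set of elements of `K` lies in a finite level -/
theorem exists_lev [h : CE k C K₀ K] (S : Set K) (hS : S.Finite) :
    ∃ k' : IntermediateField k C, FiniteDimensional k k' ∧ S ⊆ lev K₀ K k' := by
  have halg := h.alg
  induction S, hS using Set.Finite.induction_on with
  | empty => exact ⟨⊥, inferInstance, Set.empty_subset _⟩
  | @insert f S _ _ ih =>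
    obtain ⟨k₁, h1, h2⟩ := ih
    obtain ⟨n, c, g, hf⟩ := exists_sum k C K₀ K f
    let k₂ : IntermediateField k C := IntermediateField.adjoin k (Set.range c)
    have h3 : FiniteDimensional k k₂ :=
      IntermediateField.finiteDimensional_adjoin fun x _ =>
        (Algebra.IsAlgebraic.isAlgebraic x).isIntegral
    refine ⟨k₁ ⊔ k₂, inferInstance, ?_⟩
    rw [Set.insert_subset_iff]
    refine ⟨?_, h2.trans (lev_mono K₀ K le_sup_left)⟩
    refine lev_mono K₀ K (le_sup_right : k₂ ≤ k₁ ⊔ k₂) ?_
    rw [mem_lev_iff]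
    exact ⟨n, c, g, fun i => IntermediateField.subset_adjoin _ _ ⟨i, rfl⟩, hf⟩

/-- `C ∩ K₀[k'] = k'` -/
theorem mem_of_algebraMap_mem_lev [h : CE k C K₀ K] (k' : IntermediateField k C) {c : C}
    (hc : algebraMap C K c ∈ lev K₀ K k') : c ∈ k' := by
  classical
  by_contra hck
  -- a `k`-basis of `k'` extended by `c`
  let b := Basis.ofVectorSpace k k'
  have h1 : LinearIndependent k (fun i => ((b i : k') : C)) :=
    b.linearIndependent.map' k'.val.toLinearMap (LinearMap.ker_eq_bot.2 k'.val.injective)
  have hspan : Submodule.span k (Set.range fun i => ((b i : k') : C)) = k'.toSubalgebra.toSubmodule := by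
    have h2 := congrArg (Submodule.map k'.val.toLinearMap) b.span_eq
    rw [Submodule.map_span, Submodule.map_top] at h2
    rw [← Set.range_comp] at h2
    rw [show (fun i => ((b i : k') : C)) = k'.val.toLinearMap ∘ b from rfl, h2]
    ext x
    constructor
    · rintro ⟨y, rfl⟩; exact y.2
    · intro hx; exact ⟨⟨x, hx⟩, rfl⟩
  have h2 : LinearIndependent k (fun o : Option _ => o.casesOn' c (fun i => ((b i : k') : C))) := by
    rw [linearIndependent_option']
    refine ⟨h1, ?_⟩
    rw [hspan]
    exact hck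
  have h3 := linearIndependent_right k C K₀ K h2
  rw [linearIndependent_iff_notMem_span] at h3
  apply h3 none
  rw [mem_lev_iff] at hc
  obtain ⟨n, a, g, ha, hc⟩ := hc
  change algebraMap C K c ∈ _
  rw [hc]
  refine Submodule.sum_mem _ fun i _ => ?_
  rw [mul_comm, ← Algebra.smul_def]
  refine Submodule.smul_mem _ _ ?_
  have h4 : a i ∈ Submodule.span k (Set.range fun i => ((b i : k') : C)) := by
    rw [hspan]; exact ha i
  have h5 : algebraMap C K (a i) ∈ Submodule.span k (Set.range fun i => algebraMap C K (b i)) := by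
    have := Submodule.mem_map_of_mem (f := (IsScalarTower.toAlgHom k C K).toLinearMap) h4
    rw [Submodule.map_span, ← Set.range_comp] at this
    exact this
  refine Submodule.span_le_restrictScalars k K₀ _ (Submodule.span_mono ?_ h5)
  rintro _ ⟨i, rfl⟩
  exact ⟨some i, by simp, rfl⟩

end lev

end CE

end Crest.Agent.R013.Desc_372
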