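import Mathlib
import Crest.Agent.R013.Desc1_372
import Crest.Agent.R013.CntB1_491

/-!
# R013 / Desc2 (helper372): levels of a constant extension, Galois action
-/

set_option autoImplicit false
set_option linter.all false

namespace Crest.Agent.R013.Desc_372

open TensorProduct Module

namespace CE

section inst

variable {k C : Type*} (K₀ K : Type*) [Field k] [Field C] [Field K₀] [Field K] [Algebra k C]
    [Algebra k K₀] [Algebra C K] [Algebra K₀ K] [Algebra k K] [IsScalarTower k C K]
    [IsScalarTower k K₀ K]

/-- `k' → K₀[k']` -/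
noncomputable instance levAlg (k' : IntermediateField k C) : Algebra k' (lev K₀ K k') :=
  RingHom.toAlgebra
    ({ toFun := fun c => ⟨algebraMap C K c, algebraMap_mem_lev K₀ K k' c.2⟩
       map_one' := by ext; simp
       map_mul' := fun a b => by ext; simp
       map_zero' := by ext; simp
       map_add' := fun a b => by ext; simp } : k' →+* lev K₀ K k')

theorem coe_algebraMap_lev (k' : IntermediateField k C) (c : k') :
    ((algebraMap k' (lev K₀ K k') c : lev K₀ K k') : K) = algebraMap C K c := rfl

instance lev_tower1 (k' : IntermediateField k C) : IsScalarTower k' (lev K₀ K k') K :=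
  IsScalarTower.of_algebraMap_eq fun c => rfl

instance lev_tower0 (k' : IntermediateField k C) : IsScalarTower k (lev K₀ K k') K :=
  IsScalarTower.of_algebraMap_eq fun c => by
    rw [IsScalarTower.algebraMap_apply k K₀ K, IsScalarTower.algebraMap_apply k K₀ (lev K₀ K k'),
      ← IsScalarTower.algebraMap_apply K₀ (lev K₀ K k') K]

instance lev_tower2 (k' : IntermediateField k C) : IsScalarTower k k' (lev K₀ K k') :=
  IsScalarTower.of_algebraMap_eq fun c => by
    apply (algebraMap (lev K₀ K k') K).injective
    rw [← IsScalarTower.algebraMap_apply, ← IsScalarTower.algebraMap_apply,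
      ← IsScalarTower.algebraMap_apply]

/-- `K₀[k'] = K₀ ⊗ k'` -/
instance ce_lev [h : CE k C K₀ K] (k' : IntermediateField k C) : CE k k' K₀ (lev K₀ K k') where
  alg := by
    have := h.alg
    infer_instance
  po := by
    rw [isPushout_iff_bijective]
    constructor
    · -- injectivity
      have h1 : Function.Injective (TensorProduct.map (k'.val.toLinearMap) (LinearMap.id (R := k) (M := K₀))) :=
        Module.Flat.rTensor_preserves_injective_linearMap (M := K₀) k'.val.toLinearMap
          k'.val.injective
      have h2 : ∀ t : k' ⊗[k] K₀, ((mu k k' K₀ (lev K₀ K k') t : lev K₀ K k') : K) =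
          mu k C K₀ K (TensorProduct.map (k'.val.toLinearMap) (LinearMap.id (R := k) (M := K₀)) t) := by
        intro t
        induction t with
        | zero => simp
        | add a b ha hb => rw [map_add, map_add, map_add, ← ha, ← hb]; rfl
        | tmul a b =>
          rw [mu_tmul, TensorProduct.map_tmul, mu_tmul]
          rfl
      intro t t' htt
      apply h1
      apply (mu_bijective k C K₀ K).1
      rw [← h2, ← h2, htt]
    · rintro ⟨f, hf⟩
      obtain ⟨n, c, g, hc, hf'⟩ := (mem_lev_iff K₀ K k' f).1 hf
      refine ⟨∑ i, (⟨c i, hc i⟩ : k') ⊗ₜ g i, ?_⟩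
      apply Subtype.ext
      rw [map_sum]
      simp only [mu_tmul]
      rw [AddSubmonoidClass.coe_finset_sum]
      exact hf'.symm

/-- `K = K₀[k'] ⊗_{k'} C` -/
instance ce_lev' [h : CE k C K₀ K] (k' : IntermediateField k C) : CE k' C (lev K₀ K k') K where
  alg := by
    have := h.alg
    exact Algebra.IsAlgebraic.tower_top (K := k) k'
  po := by
    have h1 := (ce_lev K₀ K k').po
    have h2 := h.po
    exact (Algebra.IsPushout.comp_iff k k' K₀ (S' := lev K₀ K k') (T := C) (T' := K)).1 h2

end inst

section galois

variable (k C K₀ K : Type*) [Field k] [Field C] [Field K₀] [Field K] [Algebra k C]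
    [Algebra k K₀] [Algebra C K] [Algebra K₀ K] [Algebra k K] [IsScalarTower k C K]
    [IsScalarTower k K₀ K]

/-- restriction to `C` of an automorphism of `K/K₀` (`C/k` normal) -/
noncomputable def res [Normal k C] : (K ≃ₐ[K₀] K) →* (C ≃ₐ[k] C) where
  toFun s := (s.restrictScalars k).restrictNormal C
  map_one' := by
    ext c
    apply (algebraMap C K).injective
    rw [AlgEquiv.restrictNormal_commutes]
    rfl
  map_mul' s t := by
    ext c
    apply (algebraMap C K).injective
    rw [AlgEquiv.restrictNormal_commutes, AlgEquiv.mul_apply, AlgEquiv.restrictNormal_commutes,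
      AlgEquiv.restrictNormal_commutes]
    rfl

theorem algebraMap_res [Normal k C] (s : K ≃ₐ[K₀] K) (c : C) :
    algebraMap C K (res k C K₀ K s c) = s (algebraMap C K c) :=
  AlgEquiv.restrictNormal_commutes (s.restrictScalars k) C c

theorem res_lift [Normal k C] [h : CE k C K₀ K] (s : C ≃ₐ[k] C) :
    res k C K₀ K (lift k C K₀ K s) = s := by
  ext c
  apply (algebraMap C K).injective
  rw [algebraMap_res, lift_algebraMap]

theorem lift_res [Normal k C] [h : CE k C K₀ K] (s : K ≃ₐ[K₀] K) :
    lift k C K₀ K (res k C K₀ K s) = s := by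
  have := ringHom_ext k C K₀ K (φ := (lift k C K₀ K (res k C K₀ K s) : K →+* K))
    (ψ := (s : K →+* K)) (by
      intro c
      change lift k C K₀ K (res k C K₀ K s) (algebraMap C K c) = s (algebraMap C K c)
      rw [lift_algebraMap, algebraMap_res]) (by
      intro g
      change lift k C K₀ K (res k C K₀ K s) (algebraMap K₀ K g) = s (algebraMap K₀ K g)
      rw [AlgEquiv.commutes, AlgEquiv.commutes])
  ext f
  exact congrArg (fun φ : K →+* K => φ f) this

/-- `Aut(C/k) ≃ Aut(K/K₀)` -/
noncomputable def liftEquiv [Normal k C] [h : CE k C K₀ K] : (C ≃ₐ[k] C) ≃* (K ≃ₐ[K₀] K) where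
  toFun := lift k C K₀ K
  invFun := res k C K₀ K
  left_inv := res_lift k C K₀ K
  right_inv := lift_res k C K₀ K
  map_mul' := (lift k C K₀ K).map_mul

variable {k C}

/-- the automorphisms of `K/K₀` fixing `k'` -/
def Gam (k' : IntermediateField k C) : Subgroup (K ≃ₐ[K₀] K) := (lev K₀ K k').fixingSubgroup

variable {K₀ K}

theorem mem_Gam {k' : IntermediateField k C} {s : K ≃ₐ[K₀] K} :
    s ∈ Gam K₀ K k' ↔ ∀ c ∈ k', s (algebraMap C K c) = algebraMap C K c := by
  unfold Gam
  rw [IntermediateField.mem_fixingSubgroup_iff]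
  constructor
  · intro h c hc
    exact h _ (algebraMap_mem_lev K₀ K k' hc)
  · intro h f hf
    have h1 : lev K₀ K k' ≤ IntermediateField.fixedField (Subgroup.zpowers s) := by
      rw [lev_le_iff]
      intro c hc
      rw [IntermediateField.mem_fixedField_iff]
      intro t ht
      obtain ⟨n, rfl⟩ := Subgroup.mem_zpowers_iff.1 ht
      have h2 : s ∈ MulAction.stabilizer (K ≃ₐ[K₀] K) (algebraMap C K c) := h c hc
      exact Subgroup.zpow_mem _ h2 n
    exact (IntermediateField.mem_fixedField_iff _ _).1 (h1 hf) s (Subgroup.mem_zpowers s)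

theorem mem_Gam' {k' : IntermediateField k C} {s : K ≃ₐ[K₀] K} :
    s ∈ Gam K₀ K k' ↔ ∀ f ∈ lev K₀ K k', s f = f := by
  unfold Gam
  rw [IntermediateField.mem_fixingSubgroup_iff]

theorem Gam_anti {k' k'' : IntermediateField k C} (h : k' ≤ k'') :
    Gam K₀ K k'' ≤ Gam K₀ K k' := by
  intro s hs
  rw [mem_Gam] at hs ⊢
  exact fun c hc => hs c (h hc)

/-- the fixed elements of `Gam k'` are the elements of level `k'` -/
theorem mem_lev_iff_fixed [IsGalois k C] [h : CE k C K₀ K] (k' : IntermediateField k C) (f : K) :
    f ∈ lev K₀ K k' ↔ ∀ s ∈ Gam K₀ K k', s f = f := by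
  constructor
  · intro hf s hs
    exact mem_Gam'.1 hs f hf
  · intro hf
    let b := Basis.ofVectorSpace k K₀
    let B := basisL k C K₀ K b
    have h1 : ∀ s : K ≃ₐ[K₀] K, ∀ i, B.repr (s f) i = res k C K₀ K s (B.repr f i) := by
      intro s i
      have h2 : s f = (B.repr f).sum fun j c => algebraMap C K (res k C K₀ K s c) * B j := by
        conv_lhs => rw [← B.linearCombination_repr f]
        rw [Finsupp.linearCombination_apply, Finsupp.sum, Finsupp.sum, map_sum]
        refine Finset.sum_congr rfl fun j _ => ?_
        rw [Algebra.smul_def, map_mul, algebraMap_res, basisL_apply, AlgEquiv.commutes]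
      have h3 : s f = Finsupp.linearCombination C B
          ((B.repr f).mapRange (res k C K₀ K s) (map_zero _)) := by
        rw [h2, Finsupp.linearCombination_apply, Finsupp.sum_mapRange_index (by simp)]
        exact Finsupp.sum_congr fun j _ => by rw [Algebra.smul_def]
      rw [h3, B.repr_linearCombination, Finsupp.mapRange_apply]
    have h2 : ∀ i, B.repr f i ∈ k' := by
      intro i
      have h3 : IntermediateField.fixedField k'.fixingSubgroup = k' :=
        InfiniteGalois.fixedField_fixingSubgroup k'
      rw [← h3, IntermediateField.mem_fixedField_iff]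
      intro t ht
      rw [IntermediateField.mem_fixingSubgroup_iff] at ht
      have h4 := h1 (lift k C K₀ K t) i
      rw [res_lift, hf (lift k C K₀ K t) (by
        rw [mem_Gam]
        intro c hc
        rw [lift_algebraMap, ht c hc])] at h4
      exact h4.symm
    rw [← B.linearCombination_repr f, Finsupp.linearCombination_apply]
    refine sum_mem fun i _ => ?_
    change (B.repr f) i • B i ∈ _
    rw [Algebra.smul_def, basisL_apply]
    exact mul_mem (algebraMap_mem_lev K₀ K k' (h2 i)) (IntermediateField.algebraMap_mem _ _)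

end galois

section crit

theorem isPushout_of_basis {R S R' S' : Type*} [CommRing R] [CommRing S] [CommRing R']
    [CommRing S'] [Algebra R S] [Algebra R R'] [Algebra S S'] [Algebra R' S'] [Algebra R S']
    [IsScalarTower R S S'] [IsScalarTower R R' S'] {ι : Type*} (b : Basis ι R R')
    (b' : Basis ι S S') (h : ∀ i, b' i = algebraMap R' S' (b i)) : Algebra.IsPushout R S R' S' := by
  rw [isPushout_iff_bijective]
  have h1 : (mu R S R' S').toLinearMap =
      ((Algebra.TensorProduct.basis S b).equiv b' (Equiv.refl ι)).toLinearMap := by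
    apply (Algebra.TensorProduct.basis S b).ext
    intro i
    rw [LinearEquiv.coe_coe, Basis.equiv_apply, Algebra.TensorProduct.basis_apply,
      AlgHom.toLinearMap_apply, mu_tmul, Equiv.refl_apply, h, map_one, one_mul]
  have h2 : (mu R S R' S' : S ⊗[R] R' → S') =
      ((Algebra.TensorProduct.basis S b).equiv b' (Equiv.refl ι)) := by
    funext t
    exact congrArg (fun φ : S ⊗[R] R' →ₗ[S] S' => φ t) h1
  rw [h2]
  exact LinearEquiv.bijective _

variable (k C K₀ K : Type*) [Field k] [Field C] [Field K₀] [Field K] [Algebra k C]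
    [Algebra k K₀] [Algebra C K] [Algebra K₀ K] [Algebra k K] [IsScalarTower k C K]
    [IsScalarTower k K₀ K]

theorem adjoin_lev_eq_top [Algebra.IsAlgebraic k C] (k' : IntermediateField k C) :
    Algebra.adjoin K₀ (Set.range (algebraMap k' (lev K₀ K k'))) = ⊤ := by
  have halg : ∀ x ∈ algebraMap C K '' k', IsAlgebraic K₀ x := by
    rintro _ ⟨c, _, rfl⟩
    have h1 : IsIntegral k (algebraMap C K c) :=
      (Algebra.IsAlgebraic.isAlgebraic c).isIntegral.map (IsScalarTower.toAlgHom k C K)
    exact h1.tower_top.isAlgebraic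
  have h1 : (lev K₀ K k').toSubalgebra = Algebra.adjoin K₀ (algebraMap C K '' k') :=
    IntermediateField.adjoin_toSubalgebra_of_isAlgebraic halg
  rw [eq_top_iff]
  rintro ⟨f, hf⟩ _
  have h2 : f ∈ Algebra.adjoin K₀ (algebraMap C K '' (k' : Set C)) := by
    rw [← h1]; exact hf
  have h3 : (algebraMap C K '' (k' : Set C)) =
      (lev K₀ K k').val '' (Set.range (algebraMap k' (lev K₀ K k'))) := by
    ext x
    constructor
    · rintro ⟨c, hc, rfl⟩
      exact ⟨_, ⟨⟨c, hc⟩, rfl⟩, rfl⟩
    · rintro ⟨_, ⟨c, rfl⟩, rfl⟩
      exact ⟨c, c.2, rfl⟩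
  rw [h3, ← AlgHom.map_adjoin] at h2
  obtain ⟨g, hg, hgf⟩ := h2
  have : g = ⟨f, hf⟩ := Subtype.ext hgf
  rw [← this]
  exact hg

theorem isCE_lev [Algebra.IsAlgebraic k C] (hc : algebraicClosure k K₀ = ⊥)
    (k' : IntermediateField k C) : CntB1_491.IsCE k k' K₀ (lev K₀ K k') :=
  ⟨adjoin_lev_eq_top k C K₀ K k', hc⟩

theorem indep_of_hc [Algebra.IsSeparable k C] (hc : algebraicClosure k K₀ = ⊥) {ι : Type*}
    {c : ι → C} (hi : LinearIndependent k c) :
    LinearIndependent K₀ (fun i => algebraMap C K (c i)) := by
  classical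
  have halg : Algebra.IsAlgebraic k C := inferInstance
  rw [linearIndependent_iff_finset_linearIndependent]
  intro s
  let k' : IntermediateField k C := IntermediateField.adjoin k (c '' s)
  have hfin : FiniteDimensional k k' :=
    IntermediateField.finiteDimensional_adjoin fun x _ =>
      (Algebra.IsAlgebraic.isAlgebraic x).isIntegral
  have hsep : Algebra.IsSeparable k k' := inferInstance
  have hce := isCE_lev k C K₀ K hc k'
  let b := Module.finBasis k k'
  have hpo : Algebra.IsPushout k K₀ k' (lev K₀ K k') :=
    isPushout_of_basis b (hce.basis b) (fun i => hce.basis_apply b i)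
  have hmu := isPushout_iff_bijective.1 hpo
  have hcs : ∀ i : s, c i ∈ k' := fun i => IntermediateField.subset_adjoin _ _ ⟨i, i.2, rfl⟩
  have h1 : LinearIndependent k (fun i : s => (⟨c i, hcs i⟩ : k')) := by
    have h2 : LinearIndependent k (fun i : s => c i) :=
      hi.comp (fun i : s => (i : ι)) Subtype.val_injective
    exact LinearIndependent.of_comp k'.val.toLinearMap h2
  have h2 := (Module.Flat.linearIndependent_one_tmul (S := K₀) h1).map'
    (mu k K₀ k' (lev K₀ K k')).toLinearMap (LinearMap.ker_eq_bot.2 hmu.1)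
  have h3 := h2.map' (lev K₀ K k').val.toLinearMap
    (LinearMap.ker_eq_bot.2 (lev K₀ K k').val.injective)
  have h4 : (fun i : s => algebraMap C K (c i)) = (lev K₀ K k').val.toLinearMap ∘
      ((mu k K₀ k' (lev K₀ K k')).toLinearMap ∘ fun x : s => (1 : K₀) ⊗ₜ[k] (⟨c x, hcs x⟩ : k')) := by
    funext i
    simp only [Function.comp_apply, AlgHom.toLinearMap_apply, mu_tmul, map_one, one_mul]
    rfl
  change LinearIndependent K₀ (fun i : s => algebraMap C K (c i))
  rw [h4]
  exact h3

/-- CRITERION: `k` algebraically closed in `K₀`, `C/k` algebraic separable, `K = K₀ C` -/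
theorem of_hc [Algebra.IsSeparable k C] (hc : algebraicClosure k K₀ = ⊥)
    (hgen : IntermediateField.adjoin K₀ (Set.range (algebraMap C K)) = ⊤) : CE k C K₀ K := by
  have halg : Algebra.IsAlgebraic k C := inferInstance
  refine ⟨halg, ?_⟩
  apply Algebra.IsPushout.symm
  let b := Basis.ofVectorSpace k C
  have hspan : ⊤ ≤ Submodule.span K₀ (Set.range fun i => algebraMap C K (b i)) := by
    intro f _
    have hf : f ∈ IntermediateField.adjoin K₀ (Set.range (algebraMap C K)) := by
      rw [hgen]; trivial
    have h1 : (IntermediateField.adjoin K₀ (Set.range (algebraMap C K))).toSubalgebra =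
        Algebra.adjoin K₀ (Set.range (algebraMap C K)) := by
      apply IntermediateField.adjoin_toSubalgebra_of_isAlgebraic
      rintro _ ⟨c, rfl⟩
      have h1 : IsIntegral k (algebraMap C K c) :=
        (Algebra.IsAlgebraic.isAlgebraic c).isIntegral.map (IsScalarTower.toAlgHom k C K)
      exact h1.tower_top.isAlgebraic
    have h2 : f ∈ Algebra.adjoin K₀ (Set.range (algebraMap C K)) := by
      rw [← h1]; exact hf
    rw [← Subalgebra.mem_toSubmodule, Algebra.adjoin_eq_span] at h2
    have h3 : (Submonoid.closure (Set.range (algebraMap C K)) : Set K) ⊆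
        Set.range (algebraMap C K) := by
      have : Submonoid.closure (Set.range (algebraMap C K)) ≤
          MonoidHom.mrange (algebraMap C K : C →* K) := by
        rw [Submonoid.closure_le]
        rintro _ ⟨y, rfl⟩
        exact ⟨y, rfl⟩
      intro y hy
      obtain ⟨z, hz⟩ := this hy
      exact ⟨z, hz⟩
    refine Submodule.span_le.mpr ?_ (Submodule.span_mono h3 h2)
    rintro _ ⟨y, rfl⟩
    rw [← b.linearCombination_repr y, Finsupp.linearCombination_apply, Finsupp.sum, map_sum]
    refine Submodule.sum_mem _ fun i _ => ?_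
    rw [Algebra.smul_def, map_mul, ← IsScalarTower.algebraMap_apply,
      IsScalarTower.algebraMap_apply k K₀ K, ← Algebra.smul_def]
    exact Submodule.smul_mem _ _ (Submodule.subset_span ⟨i, rfl⟩)
  exact isPushout_of_basis b (Basis.mk (indep_of_hc k C K₀ K hc b.linearIndependent) hspan)
    (fun i => by simp)

end crit

end CE

end Crest.Agent.R013.Desc_372
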