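import Mathlib
import Crest.Agent.R013.Desc2_372

/-!
# R013 / DescC1 (helper116): descent of a finite extension along a basis

`F ⊆ K ⊆ L` fields, `b` a basis of `L/K` whose `F`-span contains `1` and the products `b i * b j`
(`Clo F b`).  Then `mdl F b h` (the `F`-span of `b`) is a field with `L = K ⊗_F mdl`.
-/

set_option autoImplicit false
set_option linter.all false

namespace Crest.Agent.R013.DescC_116

open Module TensorProduct Crest.Agent.R013.Desc_372

section

variable (F : Type*) {K L : Type*} [Field F] [Field K] [Field L] [Algebra F K] [Algebra K L]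
  [Algebra F L] [IsScalarTower F K L] {ι : Type*}

/-- the `F`-span of the basis `b` of `L/K` is closed under multiplication and contains `1` -/
structure Clo (b : Basis ι K L) : Prop where
  one : (1 : L) ∈ Submodule.span F (Set.range b)
  mul : ∀ i j, b i * b j ∈ Submodule.span F (Set.range b)

theorem mem_span_range_iff (b : Basis ι K L) {x : L} :
    x ∈ Submodule.span F (Set.range b) ↔ ∀ i, b.repr x i ∈ Set.range (algebraMap F K) :=
  b.mem_span_iff_repr_mem F x

variable {F}

theorem Clo.mul_mem {b : Basis ι K L} (h : Clo F b) {x y : L}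
    (hx : x ∈ Submodule.span F (Set.range b)) (hy : y ∈ Submodule.span F (Set.range b)) :
    x * y ∈ Submodule.span F (Set.range b) := by
  have h1 : Submodule.span F (Set.range b) * Submodule.span F (Set.range b) ≤
      Submodule.span F (Set.range b) := by
    rw [Submodule.span_mul_span, Submodule.span_le]
    rintro _ ⟨_, ⟨i, rfl⟩, _, ⟨j, rfl⟩, rfl⟩
    exact h.mul i j
  exact h1 (Submodule.mul_mem_mul hx hy)

/-- the model as a subalgebra -/
noncomputable def subalg {b : Basis ι K L} (h : Clo F b) : Subalgebra F L :=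
  (Submodule.span F (Set.range b)).toSubalgebra h.one fun _ _ hx hy => h.mul_mem hx hy

theorem mem_subalg {b : Basis ι K L} (h : Clo F b) {x : L} :
    x ∈ subalg h ↔ x ∈ Submodule.span F (Set.range b) := Iff.rfl

theorem finite_subalg [Finite ι] {b : Basis ι K L} (h : Clo F b) :
    FiniteDimensional F (subalg h) := by
  have h1 : FiniteDimensional F (Submodule.span F (Set.range b)) :=
    FiniteDimensional.span_of_finite F (Set.finite_range b)
  exact h1

/-- the model `L₀` as a field -/
noncomputable def mdl [Finite ι] {b : Basis ι K L} (h : Clo F b) : IntermediateField F L :=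
  (subalg h).toIntermediateField fun x hx => by
    have := finite_subalg h
    have h1 : IsAlgebraic F x := by
      have h2 : IsAlgebraic F (⟨x, hx⟩ : subalg h) := Algebra.IsAlgebraic.isAlgebraic _
      exact h2.algHom (subalg h).val
    exact (subalg h).inv_mem_of_algebraic (x := ⟨x, hx⟩) h1

theorem mem_mdl_iff_span [Finite ι] {b : Basis ι K L} (h : Clo F b) {x : L} :
    x ∈ mdl h ↔ x ∈ Submodule.span F (Set.range b) := Iff.rfl

theorem mem_mdl_iff [Finite ι] {b : Basis ι K L} (h : Clo F b) {x : L} :
    x ∈ mdl h ↔ ∀ i, b.repr x i ∈ Set.range (algebraMap F K) :=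
  b.mem_span_iff_repr_mem F x

theorem basis_mem_mdl [Finite ι] {b : Basis ι K L} (h : Clo F b) (i : ι) : b i ∈ mdl h :=
  Submodule.subset_span ⟨i, rfl⟩

/-- the basis of the model over `F` -/
noncomputable def mbasis [Finite ι] {b : Basis ι K L} (h : Clo F b) : Basis ι F (mdl h) :=
  (b.restrictScalars F : Basis ι F (Submodule.span F (Set.range b)))

@[simp] theorem mbasis_apply [Finite ι] {b : Basis ι K L} (h : Clo F b) (i : ι) :
    ((mbasis h i : mdl h) : L) = b i :=
  b.restrictScalars_apply F i

theorem mbasis_repr [Finite ι] {b : Basis ι K L} (h : Clo F b) (x : mdl h) (i : ι) :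
    algebraMap F K ((mbasis h).repr x i) = b.repr (x : L) i :=
  b.restrictScalars_repr_apply F x i

theorem finrank_mdl [Finite ι] {b : Basis ι K L} (h : Clo F b) :
    finrank F (mdl h) = finrank K L := by
  rw [finrank_eq_nat_card_basis (mbasis h), finrank_eq_nat_card_basis b]

theorem finite_mdl [Finite ι] {b : Basis ι K L} (h : Clo F b) : FiniteDimensional F (mdl h) :=
  (mbasis h).finiteDimensional_of_finite

theorem isPushout_mdl [Finite ι] {b : Basis ι K L} (h : Clo F b) :
    Algebra.IsPushout F K (mdl h) L :=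
  CE.isPushout_of_basis (mbasis h) b fun i => (mbasis_apply h i).symm

/-- uniqueness: an intermediate field containing the basis, of the right degree, is the model -/
theorem eq_mdl [Finite ι] {b : Basis ι K L} (h : Clo F b) (M : IntermediateField F L)
    (hM : ∀ i, b i ∈ M) (hfin : FiniteDimensional F M) (hrank : finrank F M = finrank K L) :
    M = mdl h := by
  symm
  have hle : mdl h ≤ M := by
    intro x hx
    rw [mem_mdl_iff_span] at hx
    have : Submodule.span F (Set.range b) ≤ M.toSubalgebra.toSubmodule := by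
      rw [Submodule.span_le]
      rintro _ ⟨i, rfl⟩
      exact hM i
    exact this hx
  refine IntermediateField.eq_of_le_of_finrank_eq hle ?_
  rw [finrank_mdl, hrank]

/-- a `K`-homomorphism of covers respects the models as soon as the images of the basis do -/
theorem map_mem_mdl [Finite ι] {b : Basis ι K L} (h : Clo F b) {L' : Type*} [Field L']
    [Algebra K L'] [Algebra F L'] [IsScalarTower F K L'] (φ : L →ₐ[K] L')
    (M : IntermediateField F L') (hφ : ∀ i, φ (b i) ∈ M) {x : L} (hx : x ∈ mdl h) : φ x ∈ M := by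
  rw [mem_mdl_iff_span] at hx
  have : Submodule.span F (Set.range b) ≤
      (M.toSubalgebra.toSubmodule).comap (φ.restrictScalars F).toLinearMap := by
    rw [Submodule.span_le]
    rintro _ ⟨i, rfl⟩
    exact hφ i
  exact this hx

end

section galois

variable {F K L : Type*} [Field F] [Field K] [Field L] [Algebra F K] [Algebra K L]
  [Algebra F L] [IsScalarTower F K L] {ι : Type*} [Finite ι] {b : Basis ι K L}

/-- restriction of an automorphism which preserves the model -/
noncomputable def resMdl (h : Clo F b) (hs : ∀ (s : L ≃ₐ[K] L) i, s (b i) ∈ mdl h) :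
    (L ≃ₐ[K] L) →* (mdl h ≃ₐ[F] mdl h) where
  toFun s := AlgEquiv.ofAlgHom
    (((s : L →ₐ[K] L).restrictScalars F).comp (mdl h).val |>.codRestrict (mdl h).toSubalgebra
      fun x => map_mem_mdl h (s : L →ₐ[K] L) (mdl h) (hs s) x.2)
    ((((s⁻¹ : L ≃ₐ[K] L) : L →ₐ[K] L).restrictScalars F).comp (mdl h).val |>.codRestrict
      (mdl h).toSubalgebra fun x => map_mem_mdl h ((s⁻¹ : L ≃ₐ[K] L) : L →ₐ[K] L) (mdl h)
        (hs s⁻¹) x.2)
    (by ext x; exact s.apply_symm_apply x) (by ext x; exact s.symm_apply_apply x)
  map_one' := by ext x; rfl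
  map_mul' s t := by ext x; rfl

@[simp] theorem resMdl_apply (h : Clo F b) (hs : ∀ (s : L ≃ₐ[K] L) i, s (b i) ∈ mdl h)
    (s : L ≃ₐ[K] L) (x : mdl h) : ((resMdl h hs s x : mdl h) : L) = s x := rfl

theorem resMdl_injective (h : Clo F b) (hs : ∀ (s : L ≃ₐ[K] L) i, s (b i) ∈ mdl h) :
    Function.Injective (resMdl h hs) := by
  intro s t hst
  have h1 : (s : L →ₐ[K] L).toLinearMap = (t : L →ₐ[K] L).toLinearMap := by
    refine b.ext fun i => ?_
    have h2 := congrArg (fun f : mdl h ≃ₐ[F] mdl h => ((f (mbasis h i) : mdl h) : L)) hst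
    simpa using h2
  ext x
  exact LinearMap.congr_fun h1 x

/-- `L/K` Galois ==> the model is Galois over `F` with the same group -/
theorem isGalois_mdl [IsGalois K L] (h : Clo F b) (hs : ∀ (s : L ≃ₐ[K] L) i, s (b i) ∈ mdl h) :
    IsGalois F (mdl h) ∧ Function.Bijective (resMdl h hs) := by
  have := finite_mdl h
  have hK : FiniteDimensional K L := b.finiteDimensional_of_finite
  have h1 : Nat.card (L ≃ₐ[K] L) ≤ Nat.card (mdl h ≃ₐ[F] mdl h) :=
    Nat.card_le_card_of_injective _ (resMdl_injective h hs)
  have h2 : Nat.card (L ≃ₐ[K] L) = finrank K L := IsGalois.card_aut_eq_finrank K L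
  have h3 : Nat.card (mdl h ≃ₐ[F] mdl h) ≤ finrank F (mdl h) := by
    rw [Nat.card_eq_fintype_card]
    exact AlgEquiv.card_le
  rw [h2] at h1
  rw [finrank_mdl] at h3
  have h4 : Nat.card (mdl h ≃ₐ[F] mdl h) = finrank K L := le_antisymm h3 h1
  refine ⟨?_, ?_⟩
  · refine IsGalois.of_card_aut_eq_finrank F (mdl h) ?_
    rw [h4, finrank_mdl]
  · refine (Nat.bijective_iff_injective_and_card _).mpr ⟨resMdl_injective h hs, ?_⟩
    rw [h2, h4]

end galois

end Crest.Agent.R013.DescC_116
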