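import Mathlib
import Crest.Agent.R013.DescC1_116

/-!
# R013 / DescC2 (helper116): models of covers over a finite level of the constants

`CE k C K₀ K` (helper372's constant extension), `L/K` finite.  For `k'` large (finite over `k`),
`mdl h` is a field `L₀ ⊇ K₀[k']` with `CE k' C L₀ L` and `[L₀ : K₀[k']] = [L : K]`.
-/

set_option autoImplicit false
set_option linter.all false

namespace Crest.Agent.R013.DescC_116

open Module TensorProduct Crest.Agent.R013.Desc_372 Crest.Agent.R013.Desc_372.CE

instance tower_mid (R : Type*) {F L : Type*} [Field F] [Field L] [Algebra F L] [CommSemiring R]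
    [SMul R F] [Algebra R L] [IsScalarTower R F L] (M : IntermediateField F L) :
    IsScalarTower R M L := ⟨fun r m x => by
  have h1 : ((r • m : M) : L) = r • (m : L) := IntermediateField.coe_smul M r m
  change ((r • m : M) : L) * x = r • ((m : L) * x)
  rw [h1, smul_mul_assoc]⟩

section abs

variable (k C K₀ K M L : Type*) [Field k] [Field C] [Field K₀] [Field K] [Field M] [Field L]
  [Algebra k C] [Algebra k K₀] [Algebra C K] [Algebra K₀ K] [Algebra k K] [IsScalarTower k C K]
  [IsScalarTower k K₀ K] [Algebra K L] [Algebra K₀ L] [Algebra C L] [Algebra k L]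
  [IsScalarTower K₀ K L] [IsScalarTower C K L] [IsScalarTower k C L] [IsScalarTower k K₀ L]
  [IsScalarTower k K L]
  [Algebra K₀ M] [Algebra M L] [IsScalarTower K₀ M L] [Algebra k M] [IsScalarTower k K₀ M]
  [IsScalarTower k M L]

/-- `M` is a `k`-form of `L` iff it is a `K₀`-form of `L/K` -/
theorem ce_iff_isPushout [h : CE k C K₀ K] : CE k C M L ↔ Algebra.IsPushout K₀ K M L := by
  have h1 := h.po.symm
  have h2 : Algebra.IsPushout k M C L ↔ Algebra.IsPushout K₀ M K L :=
    Algebra.IsPushout.comp_iff k K₀ C (S' := K) (T := M) (T' := L)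
  constructor
  · intro h3
    exact (h2.1 h3.po.symm).symm
  · intro h3
    exact ⟨h.alg, (h2.2 h3.symm).symm⟩

end abs

section ctx

variable {k C K₀ K L : Type*} [Field k] [Field C] [Field K₀] [Field K] [Field L]
  [Algebra k C] [Algebra k K₀] [Algebra C K] [Algebra K₀ K] [Algebra k K] [IsScalarTower k C K]
  [IsScalarTower k K₀ K] [Algebra K L] [Algebra K₀ L] [Algebra C L]
  [IsScalarTower K₀ K L] [IsScalarTower C K L]

instance tower_lev_L (k' : IntermediateField k C) : IsScalarTower k' (lev K₀ K k') L :=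
  IsScalarTower.of_algebraMap_eq fun c => by
    change algebraMap C L c = algebraMap K L (algebraMap C K c)
    exact IsScalarTower.algebraMap_apply C K L c

instance tower_K₀_lev_L (k' : IntermediateField k C) : IsScalarTower K₀ (lev K₀ K k') L :=
  IsScalarTower.of_algebraMap_eq fun c => by
    change algebraMap K₀ L c = algebraMap K L (algebraMap K₀ K c)
    exact IsScalarTower.algebraMap_apply K₀ K L c


/-- a model of `L/K` over the level `k'` is a `k'`-form of `L` -/
theorem ce_iff [CE k C K₀ K] (k' : IntermediateField k C) (M : IntermediateField (lev K₀ K k') L) :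
    CE k' C M L ↔ Algebra.IsPushout (lev K₀ K k') K M L :=
  ce_iff_isPushout k' C (lev K₀ K k') K M L

variable {ι : Type*} [Finite ι] {b : Basis ι K L}

theorem ce_mdl [CE k C K₀ K] {k' : IntermediateField k C} (h : Clo (lev K₀ K k') b) :
    CE k' C (mdl h) L :=
  (ce_iff k' (mdl h)).2 (isPushout_mdl h)

theorem mem_mdl_lev {k' : IntermediateField k C} (h : Clo (lev K₀ K k') b) {x : L} :
    x ∈ mdl h ↔ ∀ i, b.repr x i ∈ lev K₀ K k' := by
  rw [mem_mdl_iff]
  exact forall_congr' fun i => by
    rw [show Set.range (algebraMap (lev K₀ K k') K) = (lev K₀ K k' : Set K) from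
      Subtype.range_coe]
    rfl

theorem mem_span_lev {k' : IntermediateField k C} (b : Basis ι K L) {x : L} :
    x ∈ Submodule.span (lev K₀ K k') (Set.range b) ↔ ∀ i, b.repr x i ∈ lev K₀ K k' := by
  refine (mem_span_range_iff (lev K₀ K k') b).trans (forall_congr' fun i => ?_)
  rw [show Set.range (algebraMap (lev K₀ K k') K) = (lev K₀ K k' : Set K) from
    Subtype.range_coe]
  rfl

theorem Clo.mono {k' k'' : IntermediateField k C} (hk : k' ≤ k'') (h : Clo (lev K₀ K k') b) :
    Clo (lev K₀ K k'') b where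
  one := (mem_span_lev b).2 fun i => lev_mono K₀ K hk ((mem_span_lev b).1 h.one i)
  mul i j := (mem_span_lev b).2 fun l => lev_mono K₀ K hk ((mem_span_lev b).1 (h.mul i j) l)

theorem mdl_mono {k' k'' : IntermediateField k C} (hk : k' ≤ k'') (h : Clo (lev K₀ K k') b)
    (h' : Clo (lev K₀ K k'') b) {x : L} (hx : x ∈ mdl h) : x ∈ mdl h' :=
  (mem_mdl_lev h').2 fun i => lev_mono K₀ K hk ((mem_mdl_lev h).1 hx i)

variable (b) in
/-- **models exist**: for all `k''` above some finite `k'`, the `K₀[k'']`-span of the basis `b`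
is a field containing the given finite set -/
theorem exists_clo [CE k C K₀ K] (S : Set L) (hS : S.Finite) :
    ∃ k' : IntermediateField k C, FiniteDimensional k k' ∧ ∀ k'' : IntermediateField k C,
      k' ≤ k'' → ∃ h : Clo (lev K₀ K k'') b, S ⊆ (mdl h : Set L) := by
  let A : Set L := {1} ∪ S ∪ Set.range (fun p : ι × ι => b p.1 * b p.2)
  have hA : A.Finite := ((Set.finite_singleton _).union hS).union (Set.finite_range _)
  let T : Set K := ⋃ x ∈ A, Set.range (b.repr x)
  have hT : T.Finite := hA.biUnion fun x _ => Set.finite_range _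
  obtain ⟨k', h1, h2⟩ := exists_lev (k := k) (C := C) K₀ K T hT
  have h3 : ∀ x ∈ A, ∀ i, b.repr x i ∈ lev K₀ K k' := fun x hx i =>
    h2 (Set.mem_biUnion hx ⟨i, rfl⟩)
  refine ⟨k', h1, fun k'' hk => ?_⟩
  have h4 : ∀ x ∈ A, ∀ i, b.repr x i ∈ lev K₀ K k'' := fun x hx i =>
    lev_mono K₀ K hk (h3 x hx i)
  have hc : Clo (lev K₀ K k'') b :=
    ⟨(mem_span_lev b).2 (h4 _ (Or.inl (Or.inl rfl))),
      fun i j => (mem_span_lev b).2 (h4 _ (Or.inr ⟨(i, j), rfl⟩))⟩
  exact ⟨hc, fun x hx => (mem_mdl_lev hc).2 (h4 x (Or.inl (Or.inr hx)))⟩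

/-- the model at level `k''` is generated by the model at level `k'` -/
theorem adjoin_mdl {k' k'' : IntermediateField k C} (hk : k' ≤ k'') (h : Clo (lev K₀ K k') b)
    (h' : Clo (lev K₀ K k'') b) :
    IntermediateField.adjoin (lev K₀ K k'') (mdl h : Set L) = mdl h' := by
  apply le_antisymm
  · rw [IntermediateField.adjoin_le_iff]
    exact fun x hx => mdl_mono hk h h' hx
  · intro x hx
    rw [mem_mdl_iff_span] at hx
    have h1 : Submodule.span (lev K₀ K k'') (Set.range b) ≤
        (IntermediateField.adjoin (lev K₀ K k'') (mdl h : Set L)).toSubalgebra.toSubmodule := by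
      rw [Submodule.span_le]
      rintro _ ⟨i, rfl⟩
      exact IntermediateField.subset_adjoin _ _ (basis_mem_mdl h i)
    exact h1 hx

/-- functoriality: after enlarging the level, a `K`-homomorphism of covers maps one model into the
other -/
theorem exists_map [CE k C K₀ K] {L' : Type*} [Field L'] [Algebra K L'] [Algebra K₀ L']
    [Algebra C L'] [IsScalarTower K₀ K L'] [IsScalarTower C K L'] {ι' : Type*} [Finite ι']
    (b : Basis ι K L) (b' : Basis ι' K L') (φ : L →ₐ[K] L') :
    ∃ k' : IntermediateField k C, FiniteDimensional k k' ∧ ∀ k'' : IntermediateField k C,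
      k' ≤ k'' → ∀ (h : Clo (lev K₀ K k'') b) (h' : Clo (lev K₀ K k'') b'),
        ∀ x ∈ mdl h, φ x ∈ mdl h' := by
  obtain ⟨k', h1, h2⟩ := exists_clo (k := k) (C := C) (K₀ := K₀) b'
    (Set.range fun i => φ (b i)) (Set.finite_range _)
  refine ⟨k', h1, fun k'' hk h h' x hx => ?_⟩
  obtain ⟨h'', hS⟩ := h2 k'' hk
  exact map_mem_mdl h φ (mdl h') (fun i => hS ⟨i, rfl⟩) hx

/-- a form `M` of `L/K` over the level `k'` (in 372's class, with `K/K₀[k']` as constants) -/
theorem ce_rel [CE k C K₀ K] {k' : IntermediateField k C} (M : IntermediateField (lev K₀ K k') L)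
    (hM : CE k' C M L) : CE (lev K₀ K k') K M L where
  alg := by
    have := isAlgebraic k C K₀ K
    exact Algebra.IsAlgebraic.tower_top (K := K₀) (lev K₀ K k')
  po := (ce_iff k' M).1 hM

theorem finite_of_ce [CE k C K₀ K] [FiniteDimensional K L] {k' : IntermediateField k C}
    (M : IntermediateField (lev K₀ K k') L) (hM : CE k' C M L) :
    FiniteDimensional (lev K₀ K k') M := by
  have := ce_rel M hM
  let b₀ := Basis.ofVectorSpace (lev K₀ K k') M
  let b := basisL (lev K₀ K k') K M L b₀
  have : Finite (Basis.ofVectorSpaceIndex (lev K₀ K k') M) := Module.Finite.finite_basis b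
  exact b₀.finiteDimensional_of_finite

theorem finrank_of_ce [CE k C K₀ K] {k' : IntermediateField k C}
    (M : IntermediateField (lev K₀ K k') L) (hM : CE k' C M L) :
    finrank (lev K₀ K k') M = finrank K L := by
  have := ce_rel M hM
  let b₀ := Basis.ofVectorSpace (lev K₀ K k') M
  let b := basisL (lev K₀ K k') K M L b₀
  rw [finrank_eq_nat_card_basis b₀, finrank_eq_nat_card_basis b]

/-- every `k'`-form of `L` over `K₀[k']` is the model of some basis of `L/K` -/
theorem exists_basis_of_ce [CE k C K₀ K] [FiniteDimensional K L] {k' : IntermediateField k C}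
    (M : IntermediateField (lev K₀ K k') L) (hM : CE k' C M L) :
    ∃ (b : Basis (Fin (finrank K L)) K L) (h : Clo (lev K₀ K k') b), M = mdl h := by
  have hfin := finite_of_ce M hM
  have hrank := finrank_of_ce M hM
  have hce := ce_rel M hM
  let b₀ : Basis (Fin (finrank K L)) (lev K₀ K k') M :=
    (finBasis (lev K₀ K k') M).reindex (finCongr hrank)
  let b := basisL (lev K₀ K k') K M L b₀
  have hb : ∀ i, b i = ((b₀ i : M) : L) := fun i => basisL_apply _ _ _ _ b₀ i
  have hspan : ∀ x : M, (x : L) ∈ Submodule.span (lev K₀ K k') (Set.range b) := by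
    intro x
    have h1 : x ∈ Submodule.span (lev K₀ K k') (Set.range b₀) := by
      rw [b₀.span_eq]; trivial
    have h2 := Submodule.apply_mem_span_image_of_mem_span M.val.toLinearMap h1
    have h3 : Set.range b = M.val.toLinearMap '' Set.range b₀ := by
      rw [← Set.range_comp]
      congr 1
      funext i
      exact hb i
    rw [h3]
    exact h2
  have h : Clo (lev K₀ K k') b :=
    ⟨hspan 1, fun i j => by rw [hb, hb]; exact hspan (b₀ i * b₀ j)⟩
  refine ⟨b, h, eq_mdl h M (fun i => by rw [hb]; exact (b₀ i).2) hfin hrank⟩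

/-- models are stable under enlarging the level -/
theorem ce_adjoin [CE k C K₀ K] [FiniteDimensional K L] {k' k'' : IntermediateField k C}
    (hk : k' ≤ k'') (M : IntermediateField (lev K₀ K k') L) (hM : CE k' C M L) :
    CE k'' C (IntermediateField.adjoin (lev K₀ K k'') (M : Set L)) L := by
  obtain ⟨b, h, rfl⟩ := exists_basis_of_ce M hM
  rw [adjoin_mdl hk h (h.mono hk)]
  exact ce_mdl _

/-- two models agree after enlarging the level -/
theorem exists_adjoin_eq [CE k C K₀ K] [FiniteDimensional K L] {k₁ k₂ : IntermediateField k C}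
    (M₁ : IntermediateField (lev K₀ K k₁) L) (hM₁ : CE k₁ C M₁ L)
    (M₂ : IntermediateField (lev K₀ K k₂) L) (hM₂ : CE k₂ C M₂ L) :
    ∃ k' : IntermediateField k C, FiniteDimensional k k' ∧ ∀ k'' : IntermediateField k C,
      k' ≤ k'' → k₁ ≤ k'' → k₂ ≤ k'' →
        IntermediateField.adjoin (lev K₀ K k'') (M₁ : Set L) =
          IntermediateField.adjoin (lev K₀ K k'') (M₂ : Set L) := by
  obtain ⟨b₁, h₁, rfl⟩ := exists_basis_of_ce M₁ hM₁
  obtain ⟨b₂, h₂, rfl⟩ := exists_basis_of_ce M₂ hM₂
  obtain ⟨k', i1, i2⟩ := exists_map (k := k) (C := C) (K₀ := K₀) b₁ b₂ (AlgHom.id K L)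
  obtain ⟨l', j1, j2⟩ := exists_map (k := k) (C := C) (K₀ := K₀) b₂ b₁ (AlgHom.id K L)
  refine ⟨k' ⊔ l', inferInstance, fun k'' hk hk₁ hk₂ => ?_⟩
  rw [adjoin_mdl hk₁ h₁ (h₁.mono hk₁), adjoin_mdl hk₂ h₂ (h₂.mono hk₂)]
  exact le_antisymm (fun x hx => i2 k'' (le_sup_left.trans hk) _ _ x hx)
    (fun x hx => j2 k'' (le_sup_right.trans hk) _ _ x hx)

/-- automorphisms of `L/K` preserving a model commute with the automorphisms of `L` over it -/
theorem commute_of_model {k' : IntermediateField k C} (M : IntermediateField (lev K₀ K k') L)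
    (hM : CE k' C M L) (s : L ≃ₐ[K] L) (hs : ∀ x ∈ M, s x ∈ M) (g : L →ₐ[M] L) (x : L)
    (hg : ∀ c : C, ∃ c' : C, g (algebraMap C L c) = algebraMap C L c') :
    g (s x) = s (g x) := by
  have h1 : ((g : L →+* L).comp (s : L →+* L)) = ((s : L →+* L).comp (g : L →+* L)) := by
    have := hM
    refine ringHom_ext k' C M L (fun c => ?_) (fun m => ?_)
    · have hc : ∀ c : C, s (algebraMap C L c) = algebraMap C L c := fun c => by
        rw [IsScalarTower.algebraMap_apply C K L]
        exact s.commutes _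
      obtain ⟨c', hc'⟩ := hg c
      change g (s (algebraMap C L c)) = s (g (algebraMap C L c))
      rw [hc, hc', hc]
    · change g (s (algebraMap M L m)) = s (g (algebraMap M L m))
      rw [g.commutes]
      exact g.commutes ⟨s m, hs _ m.2⟩
  exact congrArg (fun φ : L →+* L => φ x) h1

/-- the action of `Aut(C/k')` on `L` (trivial on the model) extends the action on `K` -/
theorem lift_algebraMap_K [CE k C K₀ K] {k' : IntermediateField k C}
    (M : IntermediateField (lev K₀ K k') L) [hM : CE k' C M L] (s : C ≃ₐ[k'] C) (f : K) :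
    CE.lift k' C M L s (algebraMap K L f) =
      algebraMap K L (CE.lift k' C (lev K₀ K k') K s f) := by
  have h1 : ((CE.lift k' C M L s : L →+* L).comp (algebraMap K L)) =
      ((algebraMap K L).comp (CE.lift k' C (lev K₀ K k') K s : K →+* K)) := by
    refine ringHom_ext k' C (lev K₀ K k') K (fun c => ?_) (fun m => ?_)
    · change CE.lift k' C M L s (algebraMap K L (algebraMap C K c)) =
        algebraMap K L (CE.lift k' C (lev K₀ K k') K s (algebraMap C K c))
      rw [← IsScalarTower.algebraMap_apply C K L, lift_algebraMap, lift_algebraMap,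
        ← IsScalarTower.algebraMap_apply C K L]
    · change CE.lift k' C M L s (algebraMap K L (algebraMap (lev K₀ K k') K m)) =
        algebraMap K L (CE.lift k' C (lev K₀ K k') K s (algebraMap (lev K₀ K k') K m))
      rw [AlgEquiv.commutes, ← IsScalarTower.algebraMap_apply (lev K₀ K k') K L,
        IsScalarTower.algebraMap_apply (lev K₀ K k') M L, AlgEquiv.commutes]
  exact congrArg (fun φ : K →+* L => φ f) h1

/-- **the actions commute**: `s ∈ Gal(L/K)` preserving the model, `g ∈ Aut(L/M)` -/
theorem commute_of_model' [Normal k C] {k' : IntermediateField k C}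
    (M : IntermediateField (lev K₀ K k') L) (hM : CE k' C M L) (s : L ≃ₐ[K] L)
    (hs : ∀ x ∈ M, s x ∈ M) (g : L ≃ₐ[M] L) (x : L) : g (s x) = s (g x) := by
  have h1 : Normal k' C := Normal.tower_top_of_normal k k' C
  exact commute_of_model M hM s hs (g : L →ₐ[M] L) x fun c =>
    ⟨CE.res k' C M L g c, (algebraMap_res k' C M L g c).symm⟩

end ctx

section statements

variable (k C K₀ K L : Type*) [Field k] [Field C] [Field K₀] [Field K] [Field L]
  [Algebra k C] [Algebra k K₀] [Algebra C K] [Algebra K₀ K] [Algebra k K] [IsScalarTower k C K]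
  [IsScalarTower k K₀ K] [Algebra K L] [Algebra K₀ L] [Algebra C L]
  [IsScalarTower K₀ K L] [IsScalarTower C K L] [FiniteDimensional K L]

/-- **(C1)** covers descend -/
theorem exists_model [CE k C K₀ K] (S : Set L) (hS : S.Finite) :
    ∃ k' : IntermediateField k C, FiniteDimensional k k' ∧ ∀ k'' : IntermediateField k C,
      k' ≤ k'' → ∃ M : IntermediateField (lev K₀ K k'') L, S ⊆ (M : Set L) ∧
        FiniteDimensional (lev K₀ K k'') M ∧ finrank (lev K₀ K k'') M = finrank K L ∧
        CE k'' C M L := by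
  obtain ⟨k', h1, h2⟩ := exists_clo (k := k) (C := C) (K₀ := K₀) (finBasis K L) S hS
  refine ⟨k', h1, fun k'' hk => ?_⟩
  obtain ⟨h, hS⟩ := h2 k'' hk
  exact ⟨mdl h, hS, finite_mdl h, finrank_mdl h, ce_mdl h⟩

/-- **(C2)** Galois covers descend with their group -/
theorem exists_galois_model [IsGalois K L] [CE k C K₀ K] (S : Set L) (hS : S.Finite) :
    ∃ k' : IntermediateField k C, FiniteDimensional k k' ∧ ∀ k'' : IntermediateField k C,
      k' ≤ k'' → ∃ M : IntermediateField (lev K₀ K k'') L, S ⊆ (M : Set L) ∧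
        FiniteDimensional (lev K₀ K k'') M ∧ finrank (lev K₀ K k'') M = finrank K L ∧
        CE k'' C M L ∧ IsGalois (lev K₀ K k'') M ∧
        ∃ e : (L ≃ₐ[K] L) ≃* (M ≃ₐ[lev K₀ K k''] M), ∀ s x, ((e s x : M) : L) = s x := by
  let b := finBasis K L
  let S' : Set L := S ∪ ⋃ s : L ≃ₐ[K] L, Set.range fun i => s (b i)
  have hS' : S'.Finite := hS.union (Set.finite_iUnion fun s => Set.finite_range _)
  obtain ⟨k', h1, h2⟩ := exists_clo (k := k) (C := C) (K₀ := K₀) b S' hS'
  refine ⟨k', h1, fun k'' hk => ?_⟩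
  obtain ⟨h, hS⟩ := h2 k'' hk
  have hs : ∀ (s : L ≃ₐ[K] L) i, s (b i) ∈ mdl h := fun s i =>
    hS (Or.inr (Set.mem_iUnion.2 ⟨s, i, rfl⟩))
  obtain ⟨h3, h4⟩ := isGalois_mdl h hs
  exact ⟨mdl h, fun x hx => hS (Or.inl hx), finite_mdl h, finrank_mdl h, ce_mdl h, h3,
    MulEquiv.ofBijective (resMdl h hs) h4, fun s x => resMdl_apply h hs s x⟩

end statements

end Crest.Agent.R013.DescC_116
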