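import Crest.Agent.R013.Places_97

/-!
Row 13 (S0015/S0016), foundations: the maximal unramified extension `M = maxUnramified k K`
is Galois over `K`, contains the algebraic closure of `k`, and an automorphism of `M/K` that
preserves a valuation and acts trivially on residues is trivial.
-/

set_option autoImplicit false

noncomputable section

namespace Crest.Agent.R013.MaxUnr_97

open Crest.NumberTheoryR.Sect
open Crest.Agent.R013.Places_97
open scoped NNReal
open Polynomial

variable {k : Type*} [Field k] {K : Type*} [Field K] [Algebra k K]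

instance tower_intermediate (S : IntermediateField K (AlgebraicClosure K)) :
    IsScalarTower k S (AlgebraicClosure K) :=
  IsScalarTower.of_algebraMap_eq fun x => by
    rw [IsScalarTower.algebraMap_apply k K (AlgebraicClosure K),
      IsScalarTower.algebraMap_apply k K S]
    rfl

/-- Unramified extensions are stable under automorphisms of the algebraic closure. -/
lemma isUnramifiedEverywhere_map (L : IntermediateField K (AlgebraicClosure K))
    (hL : IsUnramifiedEverywhere k K L) (σ : AlgebraicClosure K →ₐ[K] AlgebraicClosure K) :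
    IsUnramifiedEverywhere k K (L.map σ) := by
  let e : L ≃ₐ[K] L.map σ := L.equivMap σ
  have := hL.1
  refine ⟨LinearEquiv.finiteDimensional e.toLinearEquiv, ?_⟩
  intro w hw b hb
  let w' : Valuation L ℝ≥0 := w.comap (e : L →+* L.map σ)
  have hw'a : ∀ a, w' a = w (e a) := fun a => rfl
  have hw' : IsPlace k w' := by
    refine ⟨fun c hc => ?_, ?_⟩
    · rw [hw'a]
      have : e (algebraMap k L c) = algebraMap k (L.map σ) c := by
        rw [IsScalarTower.algebraMap_apply k K L, AlgEquiv.commutes,
          ← IsScalarTower.algebraMap_apply]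
      rw [this]
      exact hw.1 c hc
    · obtain ⟨a, ha0, ha1⟩ := hw.2
      refine ⟨e.symm a, ?_, ?_⟩
      · rw [hw'a]; simpa using ha0
      · rw [hw'a]; simpa using ha1
  obtain ⟨a, ha⟩ := hL.2 w' hw' (e.symm b) (by simpa using hb)
  refine ⟨a, ?_⟩
  rw [hw'a, hw'a] at ha
  simpa using ha

lemma map_maxUnramified_le (σ : AlgebraicClosure K →ₐ[K] AlgebraicClosure K) :
    (maxUnramified k K).map σ ≤ maxUnramified k K := by
  unfold maxUnramified
  rw [sSup_eq_iSup', IntermediateField.map_iSup]
  refine iSup_le fun L => ?_
  rw [← sSup_eq_iSup']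
  exact le_sSup (isUnramifiedEverywhere_map L.1 L.2 σ)

instance normal_maxUnramified : Normal K (maxUnramified k K) :=
  IntermediateField.normal_iff_forall_map_le.mpr fun σ => map_maxUnramified_le σ

lemma isGalois_maxUnramified [CharZero K] : IsGalois K (maxUnramified k K) := {}

/-- The restriction of a place of an algebraic extension is a place. -/
lemma isPlace_comap {F L : Type*} [Field F] [Field L] [Algebra k F] [Algebra F L] [Algebra k L]
    [IsScalarTower k F L] [FiniteDimensional F L] (w : Valuation L ℝ≥0) (hw : IsPlace k w) :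
    IsPlace k (w.comap (algebraMap F L)) := by
  refine ⟨fun c hc => ?_, ?_⟩
  · change w (algebraMap F L (algebraMap k F c)) = 1
    rw [← IsScalarTower.algebraMap_apply]
    exact hw.1 c hc
  · obtain ⟨b, hb0, hb1⟩ := hw.2
    have hb : b ≠ 0 := by
      intro h; rw [h] at hb0; simp at hb0
    obtain ⟨m, hm, -, a, ha, hax⟩ := exists_pow_mem (F := F) w b hb
    refine ⟨a, ?_, ?_⟩
    · change w (algebraMap F L a) ≠ 0
      rw [← hax]
      exact pow_ne_zero _ hb0
    · change w (algebraMap F L a) ≠ 1
      rw [← hax]
      intro h
      exact hb1 ((pow_eq_one_iff_of_nonneg zero_le hm.ne').mp h)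

section FF

variable [CharZero k] [Algebra (RatFunc k) K] [IsScalarTower k (RatFunc k) K]
  [FiniteDimensional (RatFunc k) K]

/-- Constants generate unramified extensions. -/
lemma isUnramifiedEverywhere_adjoin_const (c : AlgebraicClosure K) (hc : IsIntegral k c) :
    IsUnramifiedEverywhere k K (IntermediateField.adjoin K {c}) := by
  have hcK : IsIntegral K c := hc.tower_top
  have hfd : FiniteDimensional K (IntermediateField.adjoin K {c}) :=
    IntermediateField.adjoin.finiteDimensional hcK
  refine ⟨hfd, ?_⟩
  intro w hw b hb
  obtain ⟨t, ht0, ht1, ht⟩ := exists_uniformizer (k := k)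
    (w.comap (algebraMap K (IntermediateField.adjoin K {c}))) (isPlace_comap (k := k) w hw)
  let c' : IntermediateField.adjoin K {c} := ⟨c, IntermediateField.mem_adjoin_simple_self K c⟩
  have hc' : IsIntegral k c' := by
    have h1 : IsIntegral k (algebraMap (IntermediateField.adjoin K {c}) (AlgebraicClosure K) c') :=
      hc
    exact (isIntegral_algebraMap_iff
      (algebraMap (IntermediateField.adjoin K {c}) (AlgebraicClosure K)).injective).mp h1
  refine exists_val_eq_of_const w hw.1 t ht0 ht1 ht c' hc' b hb ?_
  obtain ⟨g, hg⟩ := (IntermediateField.adjoin.powerBasis hcK).exists_eq_aeval' b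
  exact ⟨g, hg⟩

/-- `maxUnramified` contains all constants. -/
lemma mem_maxUnramified_of_isIntegral (c : AlgebraicClosure K) (hc : IsIntegral k c) :
    c ∈ maxUnramified k K := by
  have h1 : IntermediateField.adjoin K {c} ≤ maxUnramified k K :=
    le_sSup (isUnramifiedEverywhere_adjoin_const c hc)
  exact h1 (IntermediateField.mem_adjoin_simple_self K c)

/-- Polynomials over `k` split in `maxUnramified`. -/
lemma splits_maxUnramified (f : k[X]) : (f.map (algebraMap k (maxUnramified k K))).Splits := by
  rcases eq_or_ne f 0 with rfl | hf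
  · simp
  have h1 : ((f.map (algebraMap k (maxUnramified k K))).map
      (algebraMap (maxUnramified k K) (AlgebraicClosure K))).Splits :=
    IsAlgClosed.splits _
  refine Splits.of_splits_map (algebraMap (maxUnramified k K) (AlgebraicClosure K)) h1 ?_
  intro a ha
  rw [Polynomial.map_map, ← IsScalarTower.algebraMap_eq] at ha
  have hint : IsIntegral k a := by
    rw [← isAlgebraic_iff_isIntegral]
    refine ⟨f, hf, ?_⟩
    have := (Polynomial.mem_roots'.mp ha).2
    rwa [Polynomial.IsRoot, Polynomial.eval_map, ← Polynomial.aeval_def] at this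
  exact ⟨⟨a, mem_maxUnramified_of_isIntegral a hint⟩, rfl⟩

/-- Residues at a valuation over a rational place are constants. -/
lemma exists_const_near (w : Valuation (maxUnramified k K) ℝ≥0)
    (hw : IsRationalPlace k K (w.comap (algebraMap K (maxUnramified k K))))
    (x : maxUnramified k K) (hx : w x ≤ 1) :
    ∃ c : maxUnramified k K, IsIntegral k c ∧ w (x - c) < 1 := by
  classical
  set v := w.comap (algebraMap K (maxUnramified k K)) with hv
  have hvapp : ∀ a, v a = w (algebraMap K (maxUnramified k K) a) := fun a => rfl
  have hwk : ∀ c : k, c ≠ 0 → w (algebraMap k (maxUnramified k K) c) = 1 := by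
    intro c hc
    have := hw.1.1 c hc
    rwa [hvapp, ← IsScalarTower.algebraMap_apply] at this
  have hxint : IsIntegral K x := Algebra.IsIntegral.isIntegral x
  set P := minpoly K x with hP
  have hPx : ∑ i ∈ Finset.range (P.natDegree + 1),
      algebraMap K (maxUnramified k K) (P.coeff i) * x ^ i = 0 := by
    rw [← minpoly.aeval K x, ← hP, Polynomial.aeval_eq_sum_range]
    simp [Algebra.smul_def]
  obtain ⟨j, hj, hmax⟩ := (Finset.range (P.natDegree + 1)).exists_max_image
    (fun i => v (P.coeff i)) ⟨0, by simp⟩
  have hlc : P.coeff P.natDegree = 1 := (minpoly.monic hxint).coeff_natDegree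
  have hvj : v (P.coeff j) ≠ 0 := by
    have := hmax P.natDegree (by simp)
    simp only [hlc, map_one] at this
    intro h
    rw [h] at this
    exact absurd this (by simp)
  have haj : P.coeff j ≠ 0 := by
    intro h; rw [h] at hvj; simp at hvj
  have hle : ∀ i ∈ Finset.range (P.natDegree + 1), v (P.coeff i / P.coeff j) ≤ 1 := by
    intro i hi
    rw [map_div₀]
    exact div_le_one_of_le₀ (hmax i hi) zero_le
  have hex : ∀ i, ∃ c : k, i ∈ Finset.range (P.natDegree + 1) →
      v (P.coeff i / P.coeff j - algebraMap k K c) < 1 := by
    intro i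
    by_cases hi : i ∈ Finset.range (P.natDegree + 1)
    · obtain ⟨c, hc⟩ := hw.2 _ (hle i hi)
      exact ⟨c, fun _ => hc⟩
    · exact ⟨0, fun h => absurd h hi⟩
  choose c hc using hex
  let F : k[X] := ∑ i ∈ Finset.range (P.natDegree + 1), Polynomial.monomial i (c i)
  have hcj : c j ≠ 0 := by
    intro h
    have := hc j hj
    rw [h, map_zero, sub_zero, div_self haj, map_one] at this
    exact lt_irrefl _ this
  have hF0 : F ≠ 0 := by
    intro h
    have h1 : F.coeff j = c j := by
      simp only [F, Polynomial.finsetSum_coeff, Polynomial.coeff_monomial]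
      rw [Finset.sum_ite_eq' , if_pos hj]
    rw [h, Polynomial.coeff_zero] at h1
    exact hcj h1.symm
  have hFx : w (aeval x F) < 1 := by
    have h1 : aeval x F = ∑ i ∈ Finset.range (P.natDegree + 1),
        algebraMap k (maxUnramified k K) (c i) * x ^ i := by
      simp only [F, map_sum, Polynomial.aeval_monomial]
    have h2 : aeval x F = - ∑ i ∈ Finset.range (P.natDegree + 1),
        algebraMap K (maxUnramified k K) (P.coeff i / P.coeff j - algebraMap k K (c i)) * x ^ i := by
      have h3 : ∑ i ∈ Finset.range (P.natDegree + 1),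
          algebraMap K (maxUnramified k K) (P.coeff i / P.coeff j) * x ^ i = 0 := by
        have : ∑ i ∈ Finset.range (P.natDegree + 1),
          algebraMap K (maxUnramified k K) (P.coeff i / P.coeff j) * x ^ i
          = algebraMap K (maxUnramified k K) (P.coeff j)⁻¹ *
            ∑ i ∈ Finset.range (P.natDegree + 1),
              algebraMap K (maxUnramified k K) (P.coeff i) * x ^ i := by
          rw [Finset.mul_sum]
          refine Finset.sum_congr rfl fun i _ => ?_
          rw [div_eq_mul_inv, map_mul]; ring
        rw [this, hPx, mul_zero]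
      have h4 : ∀ i, algebraMap K (maxUnramified k K)
          (P.coeff i / P.coeff j - algebraMap k K (c i)) * x ^ i
          = algebraMap K (maxUnramified k K) (P.coeff i / P.coeff j) * x ^ i
            - algebraMap k (maxUnramified k K) (c i) * x ^ i := by
        intro i
        rw [map_sub, ← IsScalarTower.algebraMap_apply, sub_mul]
      simp only [h4, Finset.sum_sub_distrib, h3, h1, zero_sub, neg_neg]
    rw [h2, Valuation.map_neg]
    refine w.map_sum_lt one_ne_zero fun i hi => ?_
    rw [map_mul, map_pow]
    exact mul_lt_one_of_nonneg_of_lt_one_left zero_le (hc i hi) (pow_le_one₀ zero_le hx)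
  have hspl := splits_maxUnramified (K := K) F
  have heval : aeval x F = algebraMap k (maxUnramified k K) F.leadingCoeff *
      ((F.map (algebraMap k (maxUnramified k K))).roots.map (x - ·)).prod := by
    rw [Polynomial.aeval_def, ← Polynomial.eval_map, hspl.eval_eq_prod_roots,
      Polynomial.leadingCoeff_map]
  rw [heval, map_mul, hwk _ (by simpa using hF0), one_mul, map_multiset_prod,
    Multiset.map_map] at hFx
  by_contra hcon
  push Not at hcon
  have h1 : (1 : ℝ≥0) ≤ (((F.map (algebraMap k (maxUnramified k K))).roots.map
      (w ∘ (x - ·))).prod) := by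
    refine Multiset.one_le_prod_of_one_le ?_
    intro y hy
    rw [Multiset.mem_map] at hy
    obtain ⟨r, hr, rfl⟩ := hy
    apply hcon r
    rw [← isAlgebraic_iff_isIntegral]
    refine ⟨F, hF0, ?_⟩
    have := (Polynomial.mem_roots'.mp hr).2
    rwa [Polynomial.IsRoot, Polynomial.eval_map, ← Polynomial.aeval_def] at this
  exact absurd hFx (not_lt.mpr h1)

omit [Algebra (RatFunc k) K] [IsScalarTower k (RatFunc k) K] [FiniteDimensional (RatFunc k) K] in
/-- Residual separability: a polynomial over `k` nearly vanishing at `x`, with unit derivative. -/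
lemma exists_sep_poly (w : Valuation (maxUnramified k K) ℝ≥0)
    (hwk : ∀ c : k, c ≠ 0 → w (algebraMap k (maxUnramified k K) c) = 1)
    (σ : maxUnramified k K ≃ₐ[K] maxUnramified k K)
    (x c : maxUnramified k K) (hx : w x ≤ 1) (hσx : w (σ x - x) < 1)
    (hc : IsIntegral k c) (hxc : w (x - c) < 1) :
    ∃ f : k[X], w (aeval x f) < 1 ∧ w (σ (aeval x f) - aeval x f) = w (σ x - x) := by
  classical
  have hwk1 : ∀ x : maxUnramified k K, IsIntegral k x → w x ≤ 1 := by
    intro x hx
    rcases eq_or_ne x 0 with rfl | h
    · simp
    · exact (val_eq_one_of_isAlgebraic w hwk h hx).le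
  let ι : k →+* w.integer := (algebraMap k (maxUnramified k K)).codRestrict _
    (fun a => hwk1 _ isIntegral_algebraMap)
  have hι : (w.integer).subtype.comp ι = algebraMap k (maxUnramified k K) := rfl
  set f := minpoly k c with hf
  have heval : ∀ (z : w.integer) (g : k[X]),
      (((g.map ι).eval z : w.integer) : maxUnramified k K) = aeval (z : maxUnramified k K) g := by
    intro z g
    have h1 := Polynomial.hom_eval₂ g ι (w.integer).subtype z
    rw [hι] at h1
    rw [Polynomial.eval_map, Polynomial.aeval_def]
    exact h1
  have hc1 : w c ≤ 1 := hwk1 c hc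
  let X₀ : w.integer := ⟨x, hx⟩
  let C₀ : w.integer := ⟨c, hc1⟩
  let D₀ : w.integer := ⟨σ x - x, hσx.le⟩
  -- values near c
  have hnear : ∀ g : k[X], w (aeval x g - aeval c g) < 1 := by
    intro g
    obtain ⟨z, hz⟩ := Polynomial.sub_dvd_eval_sub X₀ C₀ (g.map ι)
    have h1 : aeval x g - aeval c g = (x - c) * (z : maxUnramified k K) := by
      have h2 := congrArg (fun y : w.integer => (y : maxUnramified k K)) hz
      simp only [AddSubgroupClass.coe_sub, Subring.coe_mul, heval] at h2
      exact h2
    rw [h1, map_mul]
    exact mul_lt_one_of_nonneg_of_lt_one_left zero_le hxc z.2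
  have hfx : w (aeval x f) < 1 := by
    have := hnear f
    rwa [minpoly.aeval, sub_zero] at this
  have hf'c : w (aeval c f.derivative) = 1 := by
    apply val_eq_one_of_isAlgebraic w hwk
    · have hsep : f.Separable := (minpoly.irreducible hc).separable
      exact hsep.aeval_derivative_ne_zero (minpoly.aeval k c)
    · exact adjoin_le_integralClosure hc (Polynomial.aeval_mem_adjoin_singleton k c)
  have hf'x : w (aeval x f.derivative) = 1 := by
    have := w.map_eq_of_sub_lt (x := aeval c f.derivative) (y := aeval x f.derivative)
      (by rw [hf'c]; exact hnear _)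
    rw [this, hf'c]
  refine ⟨f, hfx, ?_⟩
  obtain ⟨κ, hκ⟩ := Polynomial.binomExpansion (f.map ι) X₀ D₀
  have h1 : aeval (x + (σ x - x)) f = aeval x f + aeval x f.derivative * (σ x - x)
      + (κ : maxUnramified k K) * (σ x - x) ^ 2 := by
    have h2 := congrArg (fun y : w.integer => (y : maxUnramified k K)) hκ
    simp only [Subring.coe_add, Subring.coe_mul, Subring.coe_pow, heval,
      Polynomial.derivative_map] at h2
    exact h2
  have h3 : σ (aeval x f) = aeval (σ x) f := by
    have : (f.map (algebraMap k K)).aeval x = aeval x f := by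
      rw [Polynomial.aeval_map_algebraMap]
    rw [← this]
    have h4 : (f.map (algebraMap k K)).aeval (σ x) = aeval (σ x) f := by
      rw [Polynomial.aeval_map_algebraMap]
    rw [← h4]
    exact (Polynomial.aeval_algHom_apply σ.toAlgHom x _).symm
  have h5 : σ (aeval x f) - aeval x f
      = (σ x - x) * (aeval x f.derivative + (κ : maxUnramified k K) * (σ x - x)) := by
    rw [h3]
    have h6 : σ x = x + (σ x - x) := by ring
    conv_lhs => rw [h6, h1]
    ring
  have h7 : w (aeval x f.derivative + (κ : maxUnramified k K) * (σ x - x)) = 1 := by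
    rw [w.map_add_eq_of_lt_left, hf'x]
    rw [hf'x, map_mul]
    exact mul_lt_one_of_nonneg_of_lt_one_right κ.2 zero_le hσx
  rw [h5, map_mul, h7, mul_one]

/-- An automorphism of `maxUnramified` over `K` that preserves a valuation over a rational place
and fixes the constants is trivial (inertia is trivial). -/
theorem eq_one_of_fix_const (w : Valuation (maxUnramified k K) ℝ≥0)
    (hw : IsRationalPlace k K (w.comap (algebraMap K (maxUnramified k K))))
    (σ : maxUnramified k K ≃ₐ[K] maxUnramified k K) (hσw : ∀ a, w (σ a) = w a)
    (hσc : ∀ c : maxUnramified k K, IsIntegral k c → σ c = c) : σ = 1 := by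
  classical
  have hwk : ∀ c : k, c ≠ 0 → w (algebraMap k (maxUnramified k K) c) = 1 := by
    intro c hc
    have := hw.1.1 c hc
    rw [IsScalarTower.algebraMap_apply k K]
    exact this
  -- σ is trivial on residues
  have hres : ∀ x, w x ≤ 1 → w (σ x - x) < 1 := by
    intro x hx
    obtain ⟨c, hc, hxc⟩ := exists_const_near w hw x hx
    have h1 : σ x - x = σ (x - c) - (x - c) := by
      rw [map_sub, hσc c hc]; ring
    rw [h1]
    refine w.map_sub_lt ?_ hxc
    rw [hσw]; exact hxc
  obtain ⟨t, ht0, ht1, ht⟩ := exists_uniformizer (k := k) _ hw.1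
  set ϖ : ℝ≥0 := w (algebraMap K (maxUnramified k K) t) with hϖ
  have ht0' : ϖ ≠ 0 := ht0
  have ht1' : ϖ < 1 := ht1
  have ht' : ∀ a : K, w (algebraMap K (maxUnramified k K) a) < 1 →
      w (algebraMap K (maxUnramified k K) a) ≤ ϖ := ht
  -- the main iteration on unramified subextensions
  have main : ∀ L : IntermediateField K (AlgebraicClosure K), IsUnramifiedEverywhere k K L →
      ∀ (hLM : L ≤ maxUnramified k K) (b : L),
        σ (IntermediateField.inclusion hLM b) = IntermediateField.inclusion hLM b := by
    intro L hL hLM
    set i := IntermediateField.inclusion hLM with hi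
    have hval : ∀ b : L, b ≠ 0 → ∃ a : K, w (i b) = w (algebraMap K (maxUnramified k K) a) := by
      intro b hb
      have hplace : IsPlace k (w.comap (i : L →+* maxUnramified k K)) := by
        refine ⟨fun c hc => ?_, ?_⟩
        · change w (i (algebraMap k L c)) = 1
          rw [IsScalarTower.algebraMap_apply k K L, AlgHom.commutes,
            ← IsScalarTower.algebraMap_apply]
          exact hwk c hc
        · obtain ⟨a, ha0, ha1⟩ := hw.1.2
          refine ⟨algebraMap K L a, ?_, ?_⟩
          · change w (i (algebraMap K L a)) ≠ 0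
            rw [AlgHom.commutes]; exact ha0
          · change w (i (algebraMap K L a)) ≠ 1
            rw [AlgHom.commutes]; exact ha1
      obtain ⟨a, ha⟩ := hL.2 _ hplace b hb
      refine ⟨a, ?_⟩
      have h1 : w (i b) = w (i (algebraMap K L a)) := ha
      rw [h1, AlgHom.commutes]
    have iter : ∀ (N : ℕ) (b : L), w (σ (i b) - i b) ≤ ϖ ^ N * w (i b) := by
      intro N
      induction N with
      | zero =>
        intro b
        rw [pow_zero, one_mul]
        refine w.map_sub_le ?_ le_rfl
        rw [hσw]
      | succ N ih =>
        intro b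
        rcases eq_or_ne b 0 with rfl | hb
        · simp
        obtain ⟨a, ha⟩ := hval b hb
        have hib : i b ≠ 0 := by
          intro h
          exact hb ((map_eq_zero i).mp h)
        have hwib : w (i b) ≠ 0 := by simpa using hib
        have ha0 : a ≠ 0 := by
          intro h
          rw [h] at ha
          simp at ha
          exact hb ha
        set α := algebraMap K (maxUnramified k K) a with hα
        have hα0 : α ≠ 0 := by simpa [hα] using ha0
        let b₁ : L := algebraMap K L a⁻¹ * b
        have hb₁ : i b₁ = α⁻¹ * i b := by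
          simp only [b₁, map_mul, AlgHom.commutes, map_inv₀, hα]
        have hwb₁ : w (i b₁) = 1 := by
          rw [hb₁, map_mul, map_inv₀, ha, inv_mul_cancel₀]
          rw [← ha]; exact hwib
        obtain ⟨c, hc, hxc⟩ := exists_const_near w hw (i b₁) hwb₁.le
        obtain ⟨f, hf1, hf2⟩ := exists_sep_poly w hwk σ (i b₁) c hwb₁.le
          (hres _ hwb₁.le) hc hxc
        let y : L := aeval b₁ f
        have hy : i y = aeval (i b₁) f := by
          have h1 : (f.map (algebraMap k K)).aeval b₁ = aeval b₁ f := by
            rw [Polynomial.aeval_map_algebraMap]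
          have h2 : (f.map (algebraMap k K)).aeval (i b₁) = aeval (i b₁) f := by
            rw [Polynomial.aeval_map_algebraMap]
          rw [← h2]
          change i (aeval b₁ f) = _
          rw [← h1]
          exact (Polynomial.aeval_algHom_apply i b₁ _).symm
        have hwy : w (i y) ≤ ϖ := by
          rcases eq_or_ne y 0 with h | h
          · rw [h]; simp
          · obtain ⟨a', ha'⟩ := hval y h
            rw [ha']
            apply ht'
            rw [← ha', hy]
            exact hf1
        have h3 : w (σ (i b₁) - i b₁) ≤ ϖ ^ (N + 1) := by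
          rw [← hf2, ← hy, pow_succ]
          exact (ih y).trans (mul_le_mul_right hwy _)
        have h4 : σ (i b) - i b = α * (σ (i b₁) - i b₁) := by
          have h5 : σ α = α := by rw [hα]; exact AlgEquiv.commutes σ a
          rw [hb₁, map_mul, map_inv₀, h5, mul_sub, ← mul_assoc, ← mul_assoc,
            mul_inv_cancel₀ hα0, one_mul, one_mul]
        rw [h4, map_mul, ← ha, mul_comm]
        exact mul_le_mul_left h3 _
    intro b
    by_contra hne
    have hpos : 0 < w (σ (i b) - i b) := pos_iff_ne_zero.mpr (by
      simpa [sub_eq_zero] using hne)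
    have hib : w (i b) ≠ 0 := by
      intro h
      have := iter 0 b
      rw [h, mul_zero] at this
      exact absurd this (not_le.mpr hpos)
    obtain ⟨N, hN⟩ := exists_pow_lt_of_lt_one (div_pos hpos (pos_iff_ne_zero.mpr hib)) ht1'
    have h1 := iter N b
    have h2 : ϖ ^ N * w (i b) < w (σ (i b) - i b) := by
      rwa [lt_div_iff₀ (pos_iff_ne_zero.mpr hib)] at hN
    exact absurd h1 (not_le.mpr h2)
  -- the fixed field of σ is everything
  let E : IntermediateField K (maxUnramified k K) :=
    IntermediateField.fixedField (Subgroup.zpowers σ)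
  have hE : ∀ x : maxUnramified k K, x ∈ E → σ x = x := by
    intro x hx
    exact hx ⟨σ, Subgroup.mem_zpowers σ⟩
  have hE' : ∀ x : maxUnramified k K, σ x = x → x ∈ E := by
    intro x hx
    rintro ⟨g, hg⟩
    change g x = x
    have hmem : g ∈ MulAction.stabilizer (maxUnramified k K ≃ₐ[K] maxUnramified k K) x := by
      refine (Subgroup.zpowers_le.mpr ?_) hg
      exact hx
    exact hmem
  have hall : maxUnramified k K ≤ E.map (maxUnramified k K).val := by
    unfold maxUnramified
    refine sSup_le fun L hL => ?_
    intro x hx
    have hLM : L ≤ maxUnramified k K := le_sSup hL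
    refine ⟨IntermediateField.inclusion hLM ⟨x, hx⟩, ?_, rfl⟩
    exact hE' _ (main L hL hLM ⟨x, hx⟩)
  ext x
  have hx := hall x.2
  obtain ⟨y, hy, hyx⟩ := hx
  have : y = x := Subtype.ext hyx
  rw [← this]
  rw [hE y hy]
  rfl

end FF

end Crest.Agent.R013.MaxUnr_97
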