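import Crest.Prelude.Def_SectConj

/-!
# Row 13, part B: the interface (SE) between the covers of small discs and `S0016`

* `cl v F` : closure of a set `F` for a valuation `v`;
* `IsCircle K C P x r v` : `v` is (an extension of) the Gauss norm of radius `r` of a disc embedding
  of `K` centred at the place `P` with parameter `x`, constants `C`;
* `SE p k K` : at every rational place, on arbitrarily small circles, the `e`-th roots of a
  uniformiser lie in the closure of `maxUnramified k K`.
-/

set_option autoImplicit false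

namespace Crest.Agent.R013.SE_669

open scoped NNReal Topology
open Filter Crest.NumberTheoryR.Sect

/-- The closure of the set `F` for the valuation `v`. -/
def cl {Ω : Type*} [Field Ω] (v : Valuation Ω ℝ≥0) (F : Set Ω) : Set Ω :=
  {a | ∀ ε : ℝ≥0, 0 < ε → ∃ b ∈ F, v (a - b) < ε}

/-- The partial sum `G 0 + G 1 x + ... + G (n-1) x^(n-1)`. -/
def psum {Ω : Type*} [Field Ω] (G : ℕ → Ω) (x : Ω) (n : ℕ) : Ω :=
  ∑ i ∈ Finset.range n, G i * x ^ i

/-- `v` is the Gauss norm of radius `r` on `C(x)`, and every `f : K` is a quotient `G(x)/H(x)` of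
power series with coefficients in `C` which are bounded on a disc of radius `R > r`, the identity
`f * H(x) = G(x)` being true for the place `P` and for the norm `v`. -/
structure IsCircle {k : Type*} [Field k] (K : Type*) [Field K] {Ω : Type*} [Field Ω] [Algebra k Ω]
    [Algebra K Ω] (C : IntermediateField k Ω) (P : Valuation Ω ℝ≥0) (x : Ω) (r : ℝ≥0)
    (v : Valuation Ω ℝ≥0) : Prop where
  gauss : ∀ (n : ℕ) (c : ℕ → Ω), (∀ i, c i ∈ C) →
    v (psum c x n) = (Finset.range n).sup fun i => v (c i) * r ^ i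
  disc : ∀ f : K, ∃ G H : ℕ → Ω, (∀ i, G i ∈ C) ∧ (∀ i, H i ∈ C) ∧ (∃ i, H i ≠ 0) ∧
    (∃ R B : ℝ≥0, r < R ∧ ∀ i, v (G i) * R ^ i ≤ B ∧ v (H i) * R ^ i ≤ B) ∧
    Tendsto (fun n => v (algebraMap K Ω f * psum H x n - psum G x n)) atTop (𝓝 0) ∧
    Tendsto (fun n => P (algebraMap K Ω f * psum H x n - psum G x n)) atTop (𝓝 0)

/-- **(SE)** At every rational place `P` of `K/k` with uniformiser `x`, for every `e ≥ 1` and
`δ > 0` there are a circle `|x| = |π| < δ` around `P` (`π` in a finite extension `C` of `k`), a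
norm `v` of `AlgebraicClosure K` over this circle and an `e`-th root of `x` in the `v`-closure of
`maxUnramified k K`. -/
def SE (p : ℕ) [Fact p.Prime] (k : Type*) [Field k] [Algebra ℚ_[p] k] (K : Type*) [Field K]
    [Algebra k K] : Prop :=
  ∀ (P : Valuation (AlgebraicClosure K) ℝ≥0) (x : K),
    IsRationalPlace k K (P.comap (algebraMap K (AlgebraicClosure K))) →
    IsUniformizerAt (P.comap (algebraMap K (AlgebraicClosure K))) x →
    ∀ e : ℕ, 0 < e → ∀ δ : ℝ≥0, 0 < δ →
    ∃ (C : IntermediateField k (AlgebraicClosure K)) (π ξ : AlgebraicClosure K)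
      (v : Valuation (AlgebraicClosure K) ℝ≥0),
      FiniteDimensional k C ∧ π ∈ C ∧ π ≠ 0 ∧ v π < δ ∧
      ExtendsPadicNorm k (AlgebraicClosure K) p v ∧
      IsCircle K C P (algebraMap K (AlgebraicClosure K) x) (v π) v ∧
      ξ ^ e = algebraMap K (AlgebraicClosure K) x ∧
      ξ ∈ cl v (maxUnramified k K : Set (AlgebraicClosure K))

end Crest.Agent.R013.SE_669
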