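import Mathlib
import Crest.Agent.R013.Unr3_957

/-!
# R013 / Unr6: extensions of a discrete valuation to a finite Galois extension are conjugate;
`UnrAt v A`: the commutative `K`-algebra `A` is unramified (ramification index one) at `v`
(helper957)
-/

set_option autoImplicit false
set_option linter.style.haveILetI false
set_option linter.unusedSectionVars false

namespace Crest.Agent.R013.Unr6_957

open scoped NNReal nonZeroDivisors Pointwise
open WithZero IsDedekindDomain Module
open Crest.Agent.R013.RR7_948 Crest.Agent.R013.Unr1_957 Crest.Agent.R013.Unr2_957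
open Crest.Agent.R013.Unr3_957

section conj

variable {F E : Type*} [Field F] [Field E] [Algebra F E]

/-- two valuations equivalent to the same `P`-adic one, equal to the same nontrivial value somewhere,
are equal -/
theorem eq_of_adic {B : Type*} [CommRing B] [IsDedekindDomain B] [Algebra B F]
    [IsFractionRing B F] {P : HeightOneSpectrum B} {w w' : Valuation F ℝ≥0}
    (h : (P.valuation F).IsEquiv w) (h' : (P.valuation F).IsEquiv w') {x : F} (hx : w x = w' x)
    (hx0 : w x ≠ 0) (hx1 : w x ≠ 1) : w = w' := by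
  obtain ⟨c, hc, hk⟩ := gen_of_adic h
  obtain ⟨c', hc', hk'⟩ := gen_of_adic h'
  have hx' : x ≠ 0 := by rintro rfl; exact hx0 (map_zero _)
  have e : ∀ y : F, y ≠ 0 → P.valuation F y = exp (log (P.valuation F y)) := fun y hy =>
    (exp_log ((Valuation.ne_zero_iff _).mpr hy)).symm
  have h1 := hk x _ (e x hx')
  have h2 := hk' x _ (e x hx')
  set m := -log (P.valuation F x) with hm
  have hcc : c = c' := by
    have hm0 : m ≠ 0 := by
      intro h0
      rw [h0, zpow_zero] at h1
      exact hx1 h1
    rw [h1, h2] at hx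
    exact (zpow_left_inj₀ zero_le' zero_le' hm0).mp hx
  ext y
  by_cases hy : y = 0
  · simp [hy]
  · rw [hk y _ (e y hy), hk' y _ (e y hy), hcc]

/-- extensions of a discrete valuation to a finite Galois extension are conjugate -/
theorem exists_conj [FiniteDimensional F E] [IsGalois F E] {v : Valuation F ℝ≥0}
    {c : ℝ≥0} (h : Gen v c) (w w' : Valuation E ℝ≥0) (hw : w.comap (algebraMap F E) = v)
    (hw' : w'.comap (algebraMap F E) = v) : ∃ σ : E ≃ₐ[F] E, ∀ x, w' x = w (σ x) := by
  have hdvr := dvr_of_gen h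
  set A := v.valuationSubring with hA
  set B := integralClosure A E with hB
  have hwA : ∀ x : F, w (algebraMap F E x) = v x := fun x => by rw [← hw]; rfl
  have hwA' : ∀ x : F, w' (algebraMap F E x) = v x := fun x => by rw [← hw']; rfl
  have hdB : IsDedekindDomain B := integralClosure.isDedekindDomain A F E
  have hfB : IsFractionRing B E := integralClosure.isFractionRing_of_finite_extension F E
  obtain ⟨x₀, hx₀⟩ := h.surj
  have hnt : ∃ x : F, v x ≠ 0 ∧ v x ≠ 1 :=
    ⟨x₀, by rw [hx₀]; exact h.pos.ne', by rw [hx₀]; exact h.lt.ne⟩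
  have hBle : ∀ u : Valuation E ℝ≥0, (∀ x : F, u (algebraMap F E x) = v x) →
      ∀ b : B, u (algebraMap B E b) ≤ 1 := by
    intro u hu b
    apply le_one_of_integral' (S := A) u _ b.2
    intro s
    have : algebraMap A E s = algebraMap F E (s : F) := rfl
    rw [this, hu]
    exact s.2
  have hcen : ∀ u : Valuation E ℝ≥0, (∀ x : F, u (algebraMap F E x) = v x) →
      ∃ P : HeightOneSpectrum B, (P.valuation E).IsEquiv u := by
    intro u hu
    exact exists_heightOne_isEquiv (A := B) u (hBle u hu)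
      ⟨algebraMap F E x₀, by rw [hu, hx₀]; exact h.pos.ne', by rw [hu, hx₀]; exact h.lt.ne⟩
  obtain ⟨P, hP⟩ := hcen w hwA
  obtain ⟨P', hP'⟩ := hcen w' hwA'
  have hgal' : IsGaloisGroup (E ≃ₐ[F] E) F E := inferInstance
  have hGAB : IsGaloisGroup (E ≃ₐ[F] E) A B := IsGaloisGroup.of_isFractionRing _ A B F E
  have hinv : Algebra.IsInvariant A B (E ≃ₐ[F] E) := hGAB.isInvariant
  have hcomm : SMulCommClass (E ≃ₐ[F] E) A B := hGAB.commutes
  have hund : ∀ (u : Valuation E ℝ≥0) (_ : ∀ x : F, u (algebraMap F E x) = v x)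
      (Q : HeightOneSpectrum B) (_ : (Q.valuation E).IsEquiv u) (a : A),
      a ∈ Q.asIdeal.under A ↔ v (a : F) < 1 := by
    intro u hu Q hQ a
    rw [Ideal.under_def, Ideal.mem_comap, ← HeightOneSpectrum.valuation_lt_one_iff_mem (K := E),
      hQ.lt_one_iff_lt_one]
    have h1 : u (algebraMap B E (algebraMap A B a)) = v (a : F) := hu a
    rw [h1]
  have hPP : P.asIdeal.under A = P'.asIdeal.under A := by
    ext a
    rw [hund w hwA P hP, hund w' hwA' P' hP']
  obtain ⟨g, hg⟩ := Algebra.IsInvariant.exists_smul_of_under_eq A B (E ≃ₐ[F] E) P.asIdeal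
    P'.asIdeal hPP
  -- `w ∘ g⁻¹` has centre `P'`
  let u : Valuation E ℝ≥0 := w.comap ((g⁻¹ : E ≃ₐ[F] E) : E →+* E)
  have hu : ∀ x : F, u (algebraMap F E x) = v x := by
    intro x
    change w (g⁻¹ (algebraMap F E x)) = v x
    rw [AlgEquiv.commutes, hwA]
  obtain ⟨Q, hQ⟩ := hcen u hu
  have hQP' : Q = P' := by
    apply HeightOneSpectrum.ext
    rw [hg]
    ext b
    rw [← HeightOneSpectrum.valuation_lt_one_iff_mem (K := E), hQ.lt_one_iff_lt_one,
      Ideal.mem_pointwise_smul_iff_inv_smul_mem,
      ← HeightOneSpectrum.valuation_lt_one_iff_mem (K := E), hP.lt_one_iff_lt_one]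
    rfl
  rw [hQP'] at hQ
  have huw : u = w' := by
    refine eq_of_adic hQ hP' (x := algebraMap F E x₀) ?_ ?_ ?_
    · rw [hu, hwA']
    · rw [hu, hx₀]; exact h.pos.ne'
    · rw [hu, hx₀]; exact h.lt.ne
  refine ⟨g⁻¹, fun x => ?_⟩
  rw [← huw]
  rfl

end conj

end Crest.Agent.R013.Unr6_957
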