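import Mathlib
import Crest.Agent.R013.Unr6_957

/-!
# R013 / Unr7: `UnrAt v A`, the commutative `K`-algebra `A` has ramification index one at all
extensions of the valuation `v` of `K` (helper957)

* elementary: `of_surj`, `congr`, `prod`, `pi`, `self`;
* `iner_fix`, `unrAt_of_iner`: inertia criterion;
* `UnrAt.tensor`;
* `UnrAt.baseChange`, `UnrAt.of_baseChange`: base change to a valued extension field `(M, v')`.
-/

set_option autoImplicit false
set_option linter.style.haveILetI false
set_option linter.unusedSectionVars false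

universe u

namespace Crest.Agent.R013.Unr7_957

open scoped NNReal nonZeroDivisors Pointwise TensorProduct
open WithZero IsDedekindDomain Module IntermediateField
open Crest.Agent.R013.RR7_948 Crest.Agent.R013.Unr1_957 Crest.Agent.R013.Unr2_957
open Crest.Agent.R013.Unr3_957 Crest.Agent.R013.Unr6_957

/-- the commutative `K`-algebra `A` has ramification index one at all extensions of `v` -/
def UnrAt {K : Type*} [Field K] (v : Valuation K ℝ≥0) (A : Type*) [CommRing A] [Algebra K A] :
    Prop :=
  ∀ w : Valuation A ℝ≥0, w.comap (algebraMap K A) = v → ∀ b : A, ∃ a : K, w b = v a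

section basic

variable {K : Type*} [Field K] {v : Valuation K ℝ≥0}
variable {A B : Type*} [CommRing A] [Algebra K A] [CommRing B] [Algebra K B]

theorem UnrAt.of_surj (h : UnrAt v A) (f : A →ₐ[K] B) (hf : Function.Surjective f) :
    UnrAt v B := by
  intro w hw b
  obtain ⟨a, rfl⟩ := hf b
  refine h (w.comap f.toRingHom) ?_ a
  rw [← hw, ← Valuation.comap_comp]
  congr 1
  exact f.comp_algebraMap

theorem UnrAt.congr (e : A ≃ₐ[K] B) : UnrAt v A ↔ UnrAt v B :=
  ⟨fun h => h.of_surj e.toAlgHom e.surjective, fun h => h.of_surj e.symm.toAlgHom e.symm.surjective⟩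

/-- a valuation which vanishes on the kernel of a surjection comes from the image -/
theorem exists_comap_of_ker (f : A →+* B) (hf : Function.Surjective f) (w : Valuation A ℝ≥0)
    (h : ∀ a, f a = 0 → w a = 0) : ∃ w' : Valuation B ℝ≥0, w'.comap f = w := by
  have hle : RingHom.ker f ≤ w.supp := fun a ha => (w.mem_supp_iff a).mpr (h a ha)
  refine ⟨(w.onQuot hle).comap (RingHom.quotientKerEquivOfSurjective hf).symm.toRingHom, ?_⟩
  ext a
  rw [Valuation.comap_apply, Valuation.comap_apply]
  have : (RingHom.quotientKerEquivOfSurjective hf).symm.toRingHom (f a)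
      = Ideal.Quotient.mk (RingHom.ker f) a := by
    change (RingHom.quotientKerEquivOfSurjective hf).symm (f a) = _
    rw [RingEquiv.symm_apply_eq]
    rfl
  rw [this]
  rfl

theorem unrAt_pi {ι : Type*} [Finite ι] {A : ι → Type*} [∀ i, CommRing (A i)]
    [∀ i, Algebra K (A i)] : UnrAt v (∀ i, A i) ↔ ∀ i, UnrAt v (A i) := by
  classical
  constructor
  · intro h i
    exact h.of_surj (Pi.evalAlgHom K A i) (Function.surjective_eval i)
  · intro h w hw b
    have := Fintype.ofFinite ι
    have h1 : (∑ i, (Pi.single i (1 : A i) : ∀ i, A i)) = 1 :=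
      Finset.univ_sum_single (1 : ∀ i, A i)
    obtain ⟨i, hi⟩ : ∃ i, w (Pi.single i (1 : A i) : ∀ i, A i) ≠ 0 := by
      by_contra hcon
      push Not at hcon
      have h2 : w (1 : ∀ i, A i) ≤ 0 := by
        rw [← h1]
        exact w.map_sum_le fun i _ => (hcon i).le
      rw [map_one] at h2
      exact absurd h2 (by simp)
    obtain ⟨w', hw'⟩ := exists_comap_of_ker (Pi.evalRingHom A i)
      (Function.surjective_eval i) w (by
        intro a ha
        have h2 : a * (Pi.single i (1 : A i) : ∀ i, A i) = 0 := by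
          ext j
          by_cases hj : j = i
          · subst hj
            have : a j = 0 := ha
            simp [this]
          · simp [hj]
        have h3 := congrArg w h2
        rw [map_mul, map_zero] at h3
        exact (mul_eq_zero.mp h3).resolve_right hi)
    have h2 : w'.comap (algebraMap K (A i)) = v := by
      rw [← hw, ← hw', ← Valuation.comap_comp]
      rfl
    obtain ⟨a, ha⟩ := h i w' h2 (b i)
    refine ⟨a, ?_⟩
    rw [← ha, ← hw']
    rfl

theorem unrAt_prod : UnrAt v (A × B) ↔ UnrAt v A ∧ UnrAt v B := by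
  constructor
  · intro h
    exact ⟨h.of_surj (AlgHom.fst K A B) Prod.fst_surjective,
      h.of_surj (AlgHom.snd K A B) Prod.snd_surjective⟩
  · rintro ⟨hA, hB⟩ w hw b
    have h0 : w ((1, 0) : A × B) * w ((0, 1) : A × B) = 0 := by
      rw [← map_mul, Prod.mk_mul_mk, mul_zero, zero_mul, ← Prod.zero_eq_mk, map_zero]
    rcases mul_eq_zero.mp h0 with h1 | h1
    · obtain ⟨w', hw'⟩ := exists_comap_of_ker (RingHom.snd A B) Prod.snd_surjective w (by
        intro a ha
        have ha' : a.2 = 0 := ha
        have h2 : a = a * (1, 0) := by ext <;> simp [ha']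
        rw [h2, map_mul, h1, mul_zero])
      have h2 : w'.comap (algebraMap K B) = v := by
        rw [← hw, ← hw', ← Valuation.comap_comp]; rfl
      obtain ⟨a, ha⟩ := hB w' h2 b.2
      exact ⟨a, by rw [← ha, ← hw']; rfl⟩
    · obtain ⟨w', hw'⟩ := exists_comap_of_ker (RingHom.fst A B) Prod.fst_surjective w (by
        intro a ha
        have ha' : a.1 = 0 := ha
        have h2 : a = a * (0, 1) := by ext <;> simp [ha']
        rw [h2, map_mul, h1, mul_zero])
      have h2 : w'.comap (algebraMap K A) = v := by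
        rw [← hw, ← hw', ← Valuation.comap_comp]; rfl
      obtain ⟨a, ha⟩ := hA w' h2 b.1
      exact ⟨a, by rw [← ha, ← hw']; rfl⟩

theorem unrAt_self : UnrAt v K := by
  intro w hw b
  refine ⟨b, ?_⟩
  rw [← hw]
  rfl

/-- the quotient field of a finite algebra at a valuation -/
theorem exists_field {A : Type*} [CommRing A] [Algebra K A] [Module.Finite K A]
    (w : Valuation A ℝ≥0) :
    ∃ (p : Ideal A) (_ : p.IsMaximal), ∃ w' : Valuation (A ⧸ p) ℝ≥0,
      w'.comap (Ideal.Quotient.mk p) = w := by
  have : IsArtinianRing A := isArtinian_of_tower K inferInstance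
  exact ⟨w.supp, inferInstance, w.onQuot le_rfl, w.onQuot_comap_eq le_rfl⟩

/-- `UnrAt` for a finite algebra only concerns its quotient fields -/
theorem unrAt_iff_quot {A : Type*} [CommRing A] [Algebra K A] [Module.Finite K A] :
    UnrAt v A ↔ ∀ (p : Ideal A) [p.IsMaximal], UnrAt v (A ⧸ p) := by
  constructor
  · intro h p _
    exact h.of_surj (Ideal.Quotient.mkₐ K p) (Ideal.Quotient.mkₐ_surjective K p)
  · intro h w hw b
    obtain ⟨p, hp, w', hw'⟩ := exists_field (K := K) w
    have h2 : w'.comap (algebraMap K (A ⧸ p)) = v := by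
      rw [← hw, ← hw', ← Valuation.comap_comp]; rfl
    obtain ⟨a, ha⟩ := h p w' h2 (Ideal.Quotient.mk p b)
    exact ⟨a, by rw [← ha, ← hw']; rfl⟩

/-- generic version: it is enough to look at the surjections to fields -/
theorem unrAt_of_fields {K : Type*} [Field K] {v : Valuation K ℝ≥0} {A : Type u} [CommRing A]
    [Algebra K A] [Module.Finite K A]
    (h : ∀ (L : Type u) [Field L] [Algebra K L] (f : A →ₐ[K] L), Function.Surjective f →
      UnrAt v L) : UnrAt v A := by
  rw [unrAt_iff_quot]
  intro p hp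
  letI : Field (A ⧸ p) := Ideal.Quotient.field p
  exact h (A ⧸ p) (Ideal.Quotient.mkₐ K p) (Ideal.Quotient.mkₐ_surjective K p)

end basic

section iner

variable {K : Type*} [Field K] {v : Valuation K ℝ≥0} {c : ℝ≥0}

theorem charZero_of_res (hres : ∀ n : ℕ, n ≠ 0 → v (n : K) = 1) : CharZero K :=
  charZero_of_inj_zero fun n hn => by
    by_contra hn0
    have := hres n hn0
    rw [hn, map_zero] at this
    exact zero_ne_one this

/-- inertia groups fix the images of an unramified algebra -/
theorem iner_fix {A N : Type*} [CommRing A] [Algebra K A] [Field N] [Algebra K N]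
    [FiniteDimensional K N] [IsGalois K N] (hv : Gen v c)
    (hres : ∀ n : ℕ, n ≠ 0 → v (n : K) = 1) (hA : UnrAt v A) (f : A →ₐ[K] N)
    {w : Valuation N ℝ≥0} (hw : w.comap (algebraMap K N) = v) {σ : N ≃ₐ[K] N}
    (hσ : σ ∈ Iner K w) (a : A) : σ (f a) = f a := by
  let L : IntermediateField K N := f.range.toIntermediateField (by
    intro x hx
    exact (f.range).inv_mem_of_algebraic (x := ⟨x, hx⟩) (Algebra.IsAlgebraic.isAlgebraic _))
  have hL : UnrAt v L := by
    refine hA.of_surj (B := L) (f.codRestrict L.toSubalgebra (fun a => ⟨a, rfl⟩)) ?_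
    rintro ⟨_, a, rfl⟩
    exact ⟨a, rfl⟩
  have hresN : ∀ n : ℕ, n ≠ 0 → w (n : N) = 1 := by
    intro n hn
    rw [← hres n hn, ← hw, Valuation.comap_apply, map_natCast (algebraMap K N)]
  have hwv : ∀ x : K, w (algebraMap K N x) = v x := fun x => by rw [← hw]; rfl
  refine (val_eq_iff_iner (w := w) (by rw [hw]; exact hv) hresN L).mp ?_ σ hσ (f a) ⟨a, rfl⟩
  intro b hb _
  obtain ⟨a', ha'⟩ := hL (w.comap (algebraMap L N)) (by rw [← Valuation.comap_comp]; exact hw)
    ⟨b, hb⟩
  refine ⟨a', ?_⟩
  rw [hwv, ← ha']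
  rfl

/-- if the inertia groups of the extensions of `w` to a Galois extension fix the image of `L`,
then `L` is unramified -/
theorem unrAt_of_iner {L N : Type*} [Field L] [Algebra K L] [Field N] [Algebra K N]
    [FiniteDimensional K N] [IsGalois K N] (hv : Gen v c)
    (hres : ∀ n : ℕ, n ≠ 0 → v (n : K) = 1) (f : L →ₐ[K] N)
    (h : ∀ w : Valuation N ℝ≥0, w.comap (algebraMap K N) = v → ∀ σ ∈ Iner K w, ∀ x : L,
      σ (f x) = f x) : UnrAt v L := by
  have hcK := charZero_of_res hres
  intro w hw b
  have hfd : FiniteDimensional K L := FiniteDimensional.of_injective f.toLinearMap f.injective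
  have hcL : CharZero L := charZero_of_injective_algebraMap (algebraMap K L).injective
  obtain ⟨c', e, he, hc', hcc'⟩ := gen_ext hv w hw
  let : Algebra L N := f.toRingHom.toAlgebra
  have : IsScalarTower K L N := IsScalarTower.of_algebraMap_eq (fun x => (f.commutes x).symm)
  have : FiniteDimensional L N := FiniteDimensional.right K L N
  obtain ⟨w', hw'⟩ := exists_extend (E := N) hc'
  have hwv' : w'.comap (algebraMap K N) = v := by
    rw [IsScalarTower.algebraMap_eq K L N, Valuation.comap_comp, hw', hw]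
  have hwv : ∀ x : K, w' (algebraMap K N x) = v x := fun x => by rw [← hwv']; rfl
  have hresN : ∀ n : ℕ, n ≠ 0 → w' (n : N) = 1 := by
    intro n hn
    rw [← hres n hn, ← hwv', Valuation.comap_apply, map_natCast (algebraMap K N)]
  by_cases hb : b = 0
  · exact ⟨0, by rw [hb, map_zero, map_zero]⟩
  obtain ⟨a, ha⟩ := (val_eq_iff_iner (w := w') (by rw [hwv']; exact hv) hresN f.fieldRange).mpr
    (by
      rintro σ hσ _ ⟨x, rfl⟩
      exact h w' hwv' σ hσ x) (f b) ⟨b, rfl⟩ (by simpa using hb)
  refine ⟨a, ?_⟩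
  rw [← hwv, ← ha, ← hw']
  rfl

/-- a finite extension embeds into a finite Galois one -/
theorem exists_galois_hom (K : Type*) [Field K] [CharZero K] (L : Type*) [Field L] [Algebra K L]
    [FiniteDimensional K L] :
    ∃ N : IntermediateField K (AlgebraicClosure L), FiniteDimensional K N ∧ IsGalois K N ∧
      ∀ x : L, algebraMap L (AlgebraicClosure L) x ∈ N := by
  have : Algebra.IsAlgebraic K (AlgebraicClosure L) :=
    Algebra.IsAlgebraic.trans K L (AlgebraicClosure L)
  have : IsAlgClosure K (AlgebraicClosure L) := ⟨inferInstance, inferInstance⟩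
  have : Normal K (AlgebraicClosure L) := normal_iff.mpr fun x =>
    ⟨Algebra.IsIntegral.isIntegral x, IsAlgClosed.splits _⟩
  let f : L →ₐ[K] AlgebraicClosure L := IsScalarTower.toAlgHom K L (AlgebraicClosure L)
  refine ⟨normalClosure K L (AlgebraicClosure L), ?_, ?_, fun x => ?_⟩
  · exact normalClosure.is_finiteDimensional K L (AlgebraicClosure L)
  · exact IsGalois.normalClosure K L (AlgebraicClosure L)
  · exact AlgHom.fieldRange_le_normalClosure f ⟨x, rfl⟩

/-- field version: `L` is unramified iff the inertia groups fix it -/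
theorem unrAt_iff_iner {L N : Type*} [Field L] [Algebra K L] [Field N] [Algebra K N]
    [FiniteDimensional K N] [IsGalois K N] (hv : Gen v c)
    (hres : ∀ n : ℕ, n ≠ 0 → v (n : K) = 1) (f : L →ₐ[K] N) :
    UnrAt v L ↔ ∀ w : Valuation N ℝ≥0, w.comap (algebraMap K N) = v → ∀ σ ∈ Iner K w, ∀ x : L,
      σ (f x) = f x :=
  ⟨fun h _ hw _ hσ x => iner_fix hv hres h f hw hσ x, unrAt_of_iner hv hres f⟩

/-- sub-extensions -/
theorem UnrAt.of_hom {L M : Type*} [Field L] [Algebra K L] [Field M] [Algebra K M]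
    [FiniteDimensional K M] (hv : Gen v c)
    (hres : ∀ n : ℕ, n ≠ 0 → v (n : K) = 1) (hM : UnrAt v M) (f : L →ₐ[K] M) : UnrAt v L := by
  have := charZero_of_res hres
  obtain ⟨N, h1, h2, h3⟩ := exists_galois_hom K M
  let g : M →ₐ[K] N := (IsScalarTower.toAlgHom K M (AlgebraicClosure M)).codRestrict
    N.toSubalgebra h3
  exact unrAt_of_iner hv hres (g.comp f) fun w hw σ hσ x => iner_fix hv hres hM g hw hσ (f x)

/-- a finite algebra generated by two unramified algebras is unramified -/
theorem UnrAt.tensor {A B : Type*} [CommRing A] [Algebra K A] [CommRing B] [Algebra K B]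
    [Module.Finite K A] [Module.Finite K B] (hv : Gen v c)
    (hres : ∀ n : ℕ, n ≠ 0 → v (n : K) = 1) (hA : UnrAt v A) (hB : UnrAt v B) :
    UnrAt v (A ⊗[K] B) := by
  have := charZero_of_res hres
  rw [unrAt_iff_quot]
  intro p hp
  let : Field ((A ⊗[K] B) ⧸ p) := Ideal.Quotient.field p
  let π : A ⊗[K] B →ₐ[K] (A ⊗[K] B) ⧸ p := Ideal.Quotient.mkₐ K p
  have : Module.Finite K ((A ⊗[K] B) ⧸ p) :=
    Module.Finite.of_surjective π.toLinearMap (Ideal.Quotient.mkₐ_surjective K p)
  obtain ⟨N, h1, h2, h3⟩ := exists_galois_hom K ((A ⊗[K] B) ⧸ p)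
  let g : (A ⊗[K] B) ⧸ p →ₐ[K] N :=
    (IsScalarTower.toAlgHom K ((A ⊗[K] B) ⧸ p) (AlgebraicClosure ((A ⊗[K] B) ⧸ p))).codRestrict
    N.toSubalgebra h3
  refine unrAt_of_iner hv hres g fun w hw σ hσ x => ?_
  obtain ⟨z, rfl⟩ := Ideal.Quotient.mkₐ_surjective K p x
  have hA' := fun a => iner_fix hv hres hA ((g.comp π).comp Algebra.TensorProduct.includeLeft)
    hw hσ a
  have hB' := fun a => iner_fix hv hres hB ((g.comp π).comp Algebra.TensorProduct.includeRight)
    hw hσ a
  induction z using TensorProduct.induction_on with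
  | zero => simp
  | add x y hx hy => rw [map_add, map_add, map_add, hx, hy]
  | tmul a b =>
    have h4 : a ⊗ₜ[K] b = (Algebra.TensorProduct.includeLeft (R := K) (S := K) (A := A) (B := B) a)
      * (Algebra.TensorProduct.includeRight b) := by simp
    have h5 := hA' a
    have h6 := hB' b
    rw [h4, map_mul, map_mul, map_mul]
    exact congrArg₂ (· * ·) h5 h6

/-- fields: the compositum of two unramified extensions is unramified -/
theorem UnrAt.compositum {L₁ L₂ M : Type*} [Field L₁] [Algebra K L₁] [Field L₂] [Algebra K L₂]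
    [Field M] [Algebra K M] [FiniteDimensional K M] (hv : Gen v c)
    (hres : ∀ n : ℕ, n ≠ 0 → v (n : K) = 1) (h₁ : UnrAt v L₁) (h₂ : UnrAt v L₂)
    (f₁ : L₁ →ₐ[K] M) (f₂ : L₂ →ₐ[K] M) (hM : f₁.fieldRange ⊔ f₂.fieldRange = ⊤) :
    UnrAt v M := by
  have := charZero_of_res hres
  obtain ⟨N, h1, h2, h3⟩ := exists_galois_hom K M
  let g : M →ₐ[K] N := (IsScalarTower.toAlgHom K M (AlgebraicClosure M)).codRestrict
    N.toSubalgebra h3
  refine unrAt_of_iner hv hres g fun w hw σ hσ x => ?_
  -- the subfield of `M` of elements `x` with `σ (g x) = g x`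
  let E : IntermediateField K M := IntermediateField.comap g
    (IntermediateField.fixedField (Subgroup.zpowers σ))
  have hE : ∀ x : M, x ∈ E ↔ σ (g x) = g x := by
    intro x
    change g x ∈ IntermediateField.fixedField (Subgroup.zpowers σ) ↔ _
    rw [IntermediateField.mem_fixedField_iff]
    constructor
    · intro hy
      exact hy σ (Subgroup.mem_zpowers σ)
    · intro hy τ hτ
      have h1 : σ ∈ MulAction.stabilizer (N ≃ₐ[K] N) (g x) := hy
      have h2 : Subgroup.zpowers σ ≤ MulAction.stabilizer (N ≃ₐ[K] N) (g x) := by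
        rwa [Subgroup.zpowers_le]
      exact h2 hτ
  have htop : (⊤ : IntermediateField K M) ≤ E := by
    rw [← hM, sup_le_iff]
    constructor
    · rintro _ ⟨a, rfl⟩
      exact (hE _).mpr (iner_fix hv hres h₁ (g.comp f₁) hw hσ a)
    · rintro _ ⟨a, rfl⟩
      exact (hE _).mpr (iner_fix hv hres h₂ (g.comp f₂) hw hσ a)
  exact (hE x).mp (htop trivial)

end iner

section base

variable {K M : Type*} [Field K] [Field M] [Algebra K M]
variable {v : Valuation K ℝ≥0} {v' : Valuation M ℝ≥0} {c c' : ℝ≥0}

/-- extension of embeddings into an algebraically closed field -/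
theorem exists_lift_hom {K L N Ω : Type*} [Field K] [Field L] [Field N] [Field Ω] [Algebra K L]
    [Algebra K N] [Algebra K Ω] [Algebra.IsAlgebraic K N] [IsAlgClosed Ω] (g : L →ₐ[K] N)
    (i : L →ₐ[K] Ω) : ∃ j : N →ₐ[K] Ω, ∀ x, j (g x) = i x := by
  let : Algebra L N := g.toRingHom.toAlgebra
  let : Algebra L Ω := i.toRingHom.toAlgebra
  have : IsScalarTower K L N := IsScalarTower.of_algebraMap_eq (fun x => (g.commutes x).symm)
  have : IsScalarTower K L Ω := IsScalarTower.of_algebraMap_eq (fun x => (i.commutes x).symm)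
  have hLN : Algebra.IsAlgebraic L N := Algebra.IsAlgebraic.tower_top (K := K) L
  let j₀ : N →ₐ[L] Ω := IsAlgClosed.lift
  exact ⟨j₀.restrictScalars K, fun x => j₀.commutes x⟩

/-- restriction of inertia to a normal subfield over a smaller base -/
theorem iner_res {P N : Type*} [Field P] [Field N] [Algebra M P] [Algebra K P]
    [IsScalarTower K M P] [Algebra K N] [Normal K N] [FiniteDimensional K N] (j : N →ₐ[K] P)
    {w : Valuation P ℝ≥0}
    {σ : P ≃ₐ[M] P} (hσ : σ ∈ Iner M w) :
    ∃ τ : N ≃ₐ[K] N, τ ∈ Iner K (w.comap (j : N →+* P)) ∧ ∀ x, j (τ x) = σ (j x) := by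
  let : Algebra N P := j.toRingHom.toAlgebra
  have : IsScalarTower K N P := IsScalarTower.of_algebraMap_eq (fun x => (j.commutes x).symm)
  let s : P ≃ₐ[K] P := σ.restrictScalars K
  have hτ : ∀ x, j (s.restrictNormal N x) = σ (j x) := fun x => s.restrictNormal_commutes N x
  refine ⟨s.restrictNormal N, ⟨fun x => ?_, fun x hx => ?_⟩, hτ⟩
  · change w (j (s.restrictNormal N x)) = w (j x)
    rw [hτ]
    exact hσ.1 _
  · change w (j (s.restrictNormal N x - x)) < 1
    rw [map_sub, hτ]
    exact hσ.2 _ hx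

/-- **base change**: if `A/K` is unramified at `v` then `M ⊗ A` is unramified at `v'`, for every
discretely valued extension `(M, v')` of `(K, v)` -/
theorem UnrAt.baseChange {A : Type*} [CommRing A] [Algebra K A] [Module.Finite K A]
    (hv : Gen v c) (hres : ∀ n : ℕ, n ≠ 0 → v (n : K) = 1) (hv' : Gen v' c')
    (hvv : v'.comap (algebraMap K M) = v) (hA : UnrAt v A) : UnrAt v' (M ⊗[K] A) := by
  have hcK := charZero_of_res hres
  have hresM : ∀ n : ℕ, n ≠ 0 → v' (n : M) = 1 := by
    intro n hn
    rw [← hres n hn, ← hvv, Valuation.comap_apply, map_natCast (algebraMap K M)]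
  have hcM := charZero_of_res hresM
  have hfin : Module.Finite M (M ⊗[K] A) := inferInstance
  refine unrAt_of_fields fun Q _ _ π hπ => ?_
  have : FiniteDimensional M Q := Module.Finite.of_surjective π.toLinearMap hπ
  -- the image of `A` in an algebraic closure of `M`
  let Ω := AlgebraicClosure M
  let i : Q →ₐ[M] Ω := IsAlgClosed.lift
  let f : A →ₐ[K] Ω := ((i.comp π).restrictScalars K).comp Algebra.TensorProduct.includeRight
  have hf : ∀ a, f a = i (π (1 ⊗ₜ a)) := fun a => rfl
  have hrng : ∀ x : Ω, x ∈ f.range → IsAlgebraic K x := by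
    rintro _ ⟨a, rfl⟩
    exact ((Algebra.IsIntegral.isIntegral (R := K) a).map f).isAlgebraic
  let L : IntermediateField K Ω := f.range.toIntermediateField (fun x hx =>
    (f.range).inv_mem_of_algebraic (x := ⟨x, hx⟩) (hrng x hx))
  let fL : A →ₐ[K] L := f.codRestrict L.toSubalgebra (fun a => ⟨a, rfl⟩)
  have hfL : Function.Surjective fL := by
    rintro ⟨_, a, rfl⟩
    exact ⟨a, rfl⟩
  have : FiniteDimensional K L := Module.Finite.of_surjective fL.toLinearMap hfL
  -- a Galois extension of `K` containing `L`, and its embedding in `Ω`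
  obtain ⟨N, hN1, hN2, hN3⟩ := exists_galois_hom K L
  let g : L →ₐ[K] N := (IsScalarTower.toAlgHom K L (AlgebraicClosure L)).codRestrict
    N.toSubalgebra hN3
  obtain ⟨j, hj⟩ := exists_lift_hom g L.val
  -- a finite Galois extension of `M` containing everything
  obtain ⟨θ, hθ⟩ := Field.exists_primitive_element K N
  let P₀ : IntermediateField M Ω := M⟮j θ⟯
  have hP₀fin : FiniteDimensional M P₀ :=
    IntermediateField.adjoin.finiteDimensional (Algebra.IsIntegral.isIntegral _)
  have hjP₀ : ∀ x, j x ∈ P₀ := by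
    intro x
    have h1 : x ∈ (⊤ : IntermediateField K N) := trivial
    rw [← hθ] at h1
    have h2 : K⟮θ⟯ ≤ IntermediateField.comap j (P₀.restrictScalars K) := by
      rw [adjoin_simple_le_iff]
      exact mem_adjoin_simple_self M (j θ)
    exact h2 h1
  let P : IntermediateField M Ω := normalClosure M P₀ Ω
  have hP1 : FiniteDimensional M P := normalClosure.is_finiteDimensional M P₀ Ω
  have hP2 : IsGalois M P := IsGalois.normalClosure M P₀ Ω
  have hP3 : P₀ ≤ P := P₀.le_normalClosure
  let j' : N →ₐ[K] P := j.codRestrict (P.toSubalgebra.restrictScalars K) (fun x => hP3 (hjP₀ x))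
  have hiP : ∀ z, i (π z) ∈ P := by
    intro z
    induction z using TensorProduct.induction_on with
    | zero => simp
    | add x y hx hy => rw [map_add, map_add]; exact add_mem hx hy
    | tmul m a =>
      have h1 : m ⊗ₜ[K] a = m • (1 ⊗ₜ[K] a : M ⊗[K] A) := by
        rw [TensorProduct.smul_tmul']; simp
      rw [h1, map_smul, map_smul]
      refine IntermediateField.smul_mem P ?_
      have h2 : i (π (1 ⊗ₜ[K] a)) = j (g (fL a)) := (hj (fL a)).symm
      rw [h2]
      exact hP3 (hjP₀ _)
  let g' : Q →ₐ[M] P := i.codRestrict P.toSubalgebra (fun x => by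
    obtain ⟨z, rfl⟩ := hπ x
    exact hiP z)
  refine unrAt_of_iner hv' hresM g' fun w hw σ hσ x => ?_
  obtain ⟨z, rfl⟩ := hπ x
  obtain ⟨τ, hτ, hτσ⟩ := iner_res (K := K) (M := M) j' hσ
  have hwN : (w.comap (j' : N →+* P)).comap (algebraMap K N) = v := by
    rw [← hvv, ← hw, ← Valuation.comap_comp, ← Valuation.comap_comp]
    congr 1
    ext x
    change ((j' (algebraMap K N x) : P) : Ω) = _
    rw [j'.commutes]
    rfl
  induction z using TensorProduct.induction_on with
  | zero => simp
  | add x y hx hy => rw [map_add, map_add, map_add, hx, hy]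
  | tmul m a =>
    have h1 : m ⊗ₜ[K] a = m • (1 ⊗ₜ[K] a : M ⊗[K] A) := by
      rw [TensorProduct.smul_tmul']; simp
    rw [h1, map_smul, map_smul, Algebra.smul_def, map_mul, AlgEquiv.commutes]
    congr 1
    have h2 : g' (π (1 ⊗ₜ[K] a)) = j' (g (fL a)) := Subtype.ext (hj (fL a)).symm
    have h3 : τ (g (fL a)) = g (fL a) := iner_fix hv hres hA (g.comp fL) hwN hτ a
    rw [h2, ← hτσ, h3]

/-- descent: if `M ⊗ A` is unramified at `v'` and `v, v'` have the same value group then `A` is
unramified at `v` -/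
theorem UnrAt.of_baseChange {A : Type*} [CommRing A] [Algebra K A] [Module.Finite K A]
    (hv : Gen v c) (hres : ∀ n : ℕ, n ≠ 0 → v (n : K) = 1) (hv' : Gen v' c)
    (hvv : v'.comap (algebraMap K M) = v) (hA : UnrAt v' (M ⊗[K] A)) : UnrAt v A := by
  have hcK := charZero_of_res hres
  have hresM : ∀ n : ℕ, n ≠ 0 → v' (n : M) = 1 := by
    intro n hn
    rw [← hres n hn, ← hvv, Valuation.comap_apply, map_natCast (algebraMap K M)]
  have hcM := charZero_of_res hresM
  refine unrAt_of_fields fun L _ _ π hπ => ?_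
  have : FiniteDimensional K L := Module.Finite.of_surjective π.toLinearMap hπ
  have hcL : CharZero L := charZero_of_injective_algebraMap (algebraMap K L).injective
  intro w hw b
  obtain ⟨a, rfl⟩ := hπ b
  -- Galois closure
  obtain ⟨N, hN1, hN2, hN3⟩ := exists_galois_hom K L
  let g : L →ₐ[K] N := (IsScalarTower.toAlgHom K L (AlgebraicClosure L)).codRestrict
    N.toSubalgebra hN3
  let : Algebra L N := g.toRingHom.toAlgebra
  have : IsScalarTower K L N := IsScalarTower.of_algebraMap_eq (fun x => (g.commutes x).symm)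
  have : FiniteDimensional L N := FiniteDimensional.right K L N
  obtain ⟨cL, _, _, hcL', _⟩ := gen_ext hv w hw
  obtain ⟨wN, hwN⟩ := exists_extend (E := N) hcL'
  have hwNv : wN.comap (algebraMap K N) = v := by
    rw [IsScalarTower.algebraMap_eq K L N, Valuation.comap_comp, hwN, hw]
  -- embed `N` in an algebraic closure of `M`
  let Ω := AlgebraicClosure M
  let j : N →ₐ[K] Ω := IsAlgClosed.lift
  obtain ⟨θ, hθ⟩ := Field.exists_primitive_element K N
  let P : IntermediateField M Ω := M⟮j θ⟯
  have hPfin : FiniteDimensional M P :=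
    IntermediateField.adjoin.finiteDimensional (Algebra.IsIntegral.isIntegral _)
  have hjP : ∀ x, j x ∈ P := by
    intro x
    have h1 : x ∈ (⊤ : IntermediateField K N) := trivial
    rw [← hθ] at h1
    have h2 : K⟮θ⟯ ≤ IntermediateField.comap j (P.restrictScalars K) := by
      rw [adjoin_simple_le_iff]
      exact mem_adjoin_simple_self M (j θ)
    exact h2 h1
  let j' : N →ₐ[K] P := j.codRestrict (P.toSubalgebra.restrictScalars K) hjP
  obtain ⟨wP, hwP⟩ := exists_extend (E := P) hv'
  have hw2 : (wP.comap (j' : N →+* P)).comap (algebraMap K N) = v := by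
    rw [← hvv, ← hwP, ← Valuation.comap_comp, ← Valuation.comap_comp]
    congr 1
    ext x
    change ((j' (algebraMap K N x) : P) : Ω) = _
    rw [j'.commutes]
    rfl
  obtain ⟨σ, hσ⟩ := exists_conj hv (wP.comap (j' : N →+* P)) wN hw2 hwNv
  let φ : A →ₐ[K] P := ((j'.comp σ.toAlgHom).comp g).comp π
  let ψ : M ⊗[K] A →ₐ[M] P := Algebra.TensorProduct.lift (Algebra.ofId M P) φ
    (fun _ _ => Commute.all _ _)
  have hψ : ∀ a, ψ (1 ⊗ₜ a) = j' (σ (g (π a))) := by
    intro a
    simp only [ψ, Algebra.TensorProduct.lift_tmul, map_one, one_mul]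
    rfl
  obtain ⟨m, hm⟩ := hA (wP.comap (ψ : M ⊗[K] A →+* P)) (by
    rw [← Valuation.comap_comp, ← hwP]
    congr 1
    exact ψ.comp_algebraMap) (1 ⊗ₜ a)
  have h1 : w (π a) = v' m := by
    rw [← hm, Valuation.comap_apply]
    have : (ψ : M ⊗[K] A →+* P) (1 ⊗ₜ a) = j' (σ (g (π a))) := hψ a
    rw [this]
    have h2 := hσ (g (π a))
    rw [Valuation.comap_apply] at h2
    have h3 : wN (g (π a)) = w (π a) := by rw [← hwN]; rfl
    rw [← h3, h2]
    rfl
  change ∃ a' : K, w (π a) = v a'
  rw [h1]
  by_cases hm0 : m = 0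
  · exact ⟨0, by rw [hm0, map_zero, map_zero]⟩
  · obtain ⟨n, hn⟩ := hv'.mem m hm0
    obtain ⟨ϖ, hϖ⟩ := hv.surj
    exact ⟨ϖ ^ n, by rw [hn, map_zpow₀, hϖ]⟩

theorem unrAt_baseChange_iff {A : Type*} [CommRing A] [Algebra K A] [Module.Finite K A]
    (hv : Gen v c) (hres : ∀ n : ℕ, n ≠ 0 → v (n : K) = 1) (hv' : Gen v' c)
    (hvv : v'.comap (algebraMap K M) = v) : UnrAt v A ↔ UnrAt v' (M ⊗[K] A) :=
  ⟨fun h => h.baseChange hv hres hv' hvv, fun h => h.of_baseChange hv hres hv' hvv⟩

/-- **criterion**: two finite algebras which become isomorphic over a valued extension `M` with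
the same value group (e.g. the completion) are simultaneously unramified -/
theorem unrAt_iff_of_equiv {A B : Type*} [CommRing A] [Algebra K A] [Module.Finite K A]
    [CommRing B] [Algebra K B] [Module.Finite K B]
    (hv : Gen v c) (hres : ∀ n : ℕ, n ≠ 0 → v (n : K) = 1) (hv' : Gen v' c)
    (hvv : v'.comap (algebraMap K M) = v) (e : M ⊗[K] A ≃ₐ[M] M ⊗[K] B) :
    UnrAt v A ↔ UnrAt v B := by
  rw [unrAt_baseChange_iff hv hres hv' hvv, UnrAt.congr e,
    ← unrAt_baseChange_iff hv hres hv' hvv]

end base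

end Crest.Agent.R013.Unr7_957
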