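import Mathlib
import Crest.Agent.R013.Unr7_957

/-!
# R013 / Unr8: local criteria of unramifiedness (helper957)

* `unrAt_kummer`: `v h = v a ^ n` implies `K(h^{1/n})` unramified at `v`, and the converse;
* `unrAt_of_root`: generated by a root of a `v`-integral monic polynomial with unit derivative;
* `exists_finset_unrAt`: a finite extension is unramified at almost all places;
* `UnrAt.trans`, `UnrAt.tower_top`: towers;
* `unrAt_of_closure`: only closures matter.
-/

set_option autoImplicit false
set_option linter.style.haveILetI false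
set_option linter.unusedSectionVars false

universe u

namespace Crest.Agent.R013.Unr8_957

open scoped NNReal nonZeroDivisors Pointwise TensorProduct
open WithZero IsDedekindDomain Module IntermediateField
open Crest.Agent.R013.RR7_948 Crest.Agent.R013.Unr1_957 Crest.Agent.R013.Unr2_957
open Crest.Agent.R013.Unr3_957 Crest.Agent.R013.Unr6_957 Crest.Agent.R013.Unr7_957

section adjoin

variable {K : Type*} {L : Type u} [Field K] [Field L] [Algebra K L]
variable {v : Valuation K ℝ≥0} {c : ℝ≥0}

/-- criterion for a simple extension -/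
theorem unrAt_of_simple [FiniteDimensional K L] (hv : Gen v c)
    (hres : ∀ n : ℕ, n ≠ 0 → v (n : K) = 1) {y : L} (hL : K⟮y⟯ = ⊤)
    (h : ∀ (N : Type u) [Field N] [Algebra K N] [FiniteDimensional K N] [IsGalois K N]
      (g : L →ₐ[K] N) (w : Valuation N ℝ≥0), w.comap (algebraMap K N) = v → ∀ σ ∈ Iner K w,
      σ (g y) = g y) : UnrAt v L := by
  have := charZero_of_res hres
  obtain ⟨N, h1, h2, h3⟩ := exists_galois_hom K L
  let g : L →ₐ[K] N := (IsScalarTower.toAlgHom K L (AlgebraicClosure L)).codRestrict
    N.toSubalgebra h3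
  refine unrAt_of_iner hv hres g fun w hw σ hσ x => ?_
  have h4 := h N g w hw σ hσ
  have h5 : (σ.toAlgHom.comp g) = g := by
    have hx : ∀ x ∈ (K⟮y⟯ : IntermediateField K L), (σ.toAlgHom.comp g) x = g x := by
      intro x hx
      refine IntermediateField.adjoin_induction K (s := {y})
        (p := fun x _ => (σ.toAlgHom.comp g) x = g x) ?_ ?_ ?_ ?_ ?_ hx
      · intro x hx
        rw [Set.mem_singleton_iff] at hx
        rw [hx]; exact h4
      · intro x
        rw [AlgHom.commutes, AlgHom.commutes]
      · intro a b _ _ ha hb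
        rw [map_add, map_add, ha, hb]
      · intro a _ ha
        rw [map_inv₀, map_inv₀, ha]
      · intro a b _ _ ha hb
        rw [map_mul, map_mul, ha, hb]
    exact AlgHom.ext fun x => hx x (by rw [hL]; trivial)
  exact DFunLike.congr_fun h5 x

/-- **Kummer extensions** -/
theorem unrAt_kummer [FiniteDimensional K L] (hv : Gen v c)
    (hres : ∀ n : ℕ, n ≠ 0 → v (n : K) = 1) {n : ℕ} (hn : n ≠ 0) {h a : K}
    (ha : v h = v a ^ n) {y : L} (hy : y ^ n = algebraMap K L h) (hL : K⟮y⟯ = ⊤) :
    UnrAt v L := by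
  refine unrAt_of_simple hv hres hL fun N _ _ _ _ g w hw σ hσ => ?_
  have hwv : ∀ x : K, w (algebraMap K N x) = v x := fun x => by rw [← hw]; rfl
  by_cases hy0 : y = 0
  · rw [hy0, map_zero, map_zero]
  have hh0 : h ≠ 0 := by
    rintro rfl
    rw [map_zero] at hy
    exact hy0 (pow_eq_zero_iff hn |>.mp hy)
  have ha0 : a ≠ 0 := by
    rintro rfl
    rw [map_zero, zero_pow hn] at ha
    exact hh0 ((map_eq_zero v).mp ha)
  have hgy : (g y) ^ n = algebraMap K N h := by
    rw [← map_pow, hy, g.commutes]
  have hwy : w (g y) = v a := by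
    have h1 : w (g y) ^ n = v a ^ n := by
      rw [← map_pow, hgy, hwv, ha]
    exact (pow_left_inj₀ zero_le zero_le hn).mp h1
  have hgy0 : g y ≠ 0 := by simpa using hy0
  have ha0' : algebraMap K N a ≠ 0 := by simpa using ha0
  set u : N := g y / algebraMap K N a with hu
  have hu0 : u ≠ 0 := div_ne_zero hgy0 ha0'
  have hwu : w u = 1 := by
    rw [hu, map_div₀, hwy, hwv, div_self ((Valuation.ne_zero_iff _).mpr ha0)]
  have hσu : w (σ u - u) < 1 := hσ.2 u hwu.le
  set ζ : N := σ u / u with hζ
  have hζn : ζ ^ n = 1 := by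
    have h1 : (σ u) ^ n = u ^ n := by
      have h2 : u ^ n = algebraMap K N (h / a ^ n) := by
        rw [hu, div_pow, hgy, map_div₀, map_pow]
      rw [← map_pow, h2, AlgEquiv.commutes]
    rw [hζ, div_pow, h1, div_self (pow_ne_zero _ hu0)]
  have hζ1 : w (ζ - 1) < 1 := by
    have h1 : ζ - 1 = (σ u - u) / u := by rw [hζ]; field_simp
    rw [h1, map_div₀, hwu, div_one]
    exact hσu
  have hζle : w ζ ≤ 1 := by
    have h1 : ζ = (ζ - 1) + 1 := by ring
    rw [h1]
    exact (Valuation.map_add _ _ _).trans (max_le hζ1.le (by rw [map_one]))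
  have hpow : ∀ i : ℕ, w (ζ ^ i - 1) < 1 := by
    intro i
    have h1 : ζ ^ i - 1 = (ζ - 1) * ∑ j ∈ Finset.range i, ζ ^ j := by
      rw [mul_geom_sum]
    rw [h1, map_mul]
    calc _ ≤ w (ζ - 1) * 1 := by
          refine mul_le_mul_right ?_ _
          refine w.map_sum_le fun j _ => ?_
          rw [map_pow]
          exact pow_le_one₀ zero_le hζle
      _ < 1 := by rwa [mul_one]
  have hζone : ζ = 1 := by
    by_contra hne
    have h1 : ∑ j ∈ Finset.range n, ζ ^ j = 0 := by
      have h2 : (ζ - 1) * ∑ j ∈ Finset.range n, ζ ^ j = 0 := by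
        rw [mul_geom_sum, hζn, sub_self]
      exact (mul_eq_zero.mp h2).resolve_left (sub_ne_zero.mpr hne)
    have h2 : w (∑ j ∈ Finset.range n, (ζ ^ j - 1)) < 1 := by
      refine lt_of_le_of_lt (?_ : _ ≤ (Finset.range n).sup (fun j => w (ζ ^ j - 1))) ?_
      · exact w.map_sum_le fun j hj => Finset.le_sup (f := fun j => w (ζ ^ j - 1)) hj
      · rw [Finset.sup_lt_iff (by simp)]
        exact fun j _ => hpow j
    rw [Finset.sum_sub_distrib, h1] at h2
    simp only [Finset.sum_const, Finset.card_range, nsmul_eq_mul, mul_one, zero_sub,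
      Valuation.map_neg] at h2
    have h3 : w (n : N) = 1 := by
      rw [← hres n hn, ← hwv, map_natCast (algebraMap K N)]
    rw [h3] at h2
    exact lt_irrefl _ h2
  have h6 : σ u = u := by
    have h7 : σ u = ζ * u := by rw [hζ]; field_simp
    rw [h7, hζone, one_mul]
  have h8 : g y = u * algebraMap K N a := by rw [hu]; field_simp
  rw [h8, map_mul, h6, AlgEquiv.commutes]

/-- converse of `unrAt_kummer` (any field, any `v` which extends to `L`) -/
theorem kummer_of_unrAt (hL : UnrAt v L) (hex : ∃ w : Valuation L ℝ≥0,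
    w.comap (algebraMap K L) = v) {n : ℕ} {h : K} {y : L} (hy : y ^ n = algebraMap K L h) :
    ∃ a : K, v h = v a ^ n := by
  obtain ⟨w, hw⟩ := hex
  obtain ⟨a, ha⟩ := hL w hw y
  refine ⟨a, ?_⟩
  rw [← ha, ← map_pow, hy, ← hw]
  rfl

/-- root of an integral monic polynomial with unit derivative -/
theorem unrAt_of_root [FiniteDimensional K L] (hv : Gen v c)
    (hres : ∀ n : ℕ, n ≠ 0 → v (n : K) = 1) {f : Polynomial K} (hf : f.Monic)
    (hcoef : ∀ i, v (f.coeff i) ≤ 1) {θ : L} (hθ : Polynomial.aeval θ f = 0) (hL : K⟮θ⟯ = ⊤)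
    (hd : ∀ w : Valuation L ℝ≥0, w.comap (algebraMap K L) = v →
      w (Polynomial.aeval θ (Polynomial.derivative f)) = 1) : UnrAt v L := by
  refine unrAt_of_simple hv hres hL fun N _ _ _ _ g w hw σ hσ => ?_
  have hwv : ∀ x : K, w (algebraMap K N x) = v x := fun x => by rw [← hw]; rfl
  -- the integral model of `f`
  let S : Subring N := w.integer
  let F : Polynomial S := Polynomial.toSubring (f.map (algebraMap K N)) S (by
    intro x hx
    obtain ⟨i, _, rfl⟩ := Polynomial.mem_coeffs_iff.mp hx
    rw [Polynomial.coeff_map]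
    change w (algebraMap K N (f.coeff i)) ≤ 1
    rw [hwv]
    exact hcoef i)
  have hF : F.map S.subtype = f.map (algebraMap K N) := Polynomial.map_toSubring _ _ _
  have hθint : IsIntegral S (g θ) := by
    refine ⟨F, ?_, ?_⟩
    · exact (Polynomial.monic_toSubring _ _ _).mpr (hf.map _)
    · rw [← Polynomial.eval_map]
      change (F.map S.subtype).eval (g θ) = 0
      rw [hF, Polynomial.eval_map, ← Polynomial.aeval_def, Polynomial.aeval_algHom_apply, hθ,
        map_zero]
  have hθle : w (g θ) ≤ 1 := (Valuation.integer.integers w).mem_of_integral hθint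
  have hσle : w (σ (g θ)) ≤ 1 := by rw [hσ.1]; exact hθle
  by_contra hne
  let x : S := ⟨g θ, hθle⟩
  let y : S := ⟨σ (g θ) - g θ, (Valuation.map_sub _ _ _).trans (max_le hσle hθle)⟩
  obtain ⟨k, hk⟩ := Polynomial.binomExpansion F x y
  have hev : ∀ z : S, ((Polynomial.eval z F : S) : N) = Polynomial.aeval (z : N) f := by
    intro z
    rw [Polynomial.aeval_def, ← Polynomial.eval_map, ← hF, Polynomial.eval_map]
    change S.subtype (Polynomial.eval z F) = _
    rw [← Polynomial.eval₂_at_apply]
    rfl
  have hF' : (F.derivative).map S.subtype = f.derivative.map (algebraMap K N) := by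
    rw [← Polynomial.derivative_map, hF, Polynomial.derivative_map]
  have hev' : ∀ z : S, ((Polynomial.eval z F.derivative : S) : N)
      = Polynomial.aeval (z : N) f.derivative := by
    intro z
    rw [Polynomial.aeval_def, ← Polynomial.eval_map, ← hF', Polynomial.eval_map]
    change S.subtype (Polynomial.eval z F.derivative) = _
    rw [← Polynomial.eval₂_at_apply]
    rfl
  have h1 : ((Polynomial.eval x F : S) : N) = 0 := by
    rw [hev]
    change Polynomial.aeval (g θ) f = 0
    rw [Polynomial.aeval_algHom_apply, hθ, map_zero]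
  have h2 : ((Polynomial.eval (x + y) F : S) : N) = 0 := by
    rw [hev]
    have : ((x + y : S) : N) = σ (g θ) := by
      change g θ + (σ (g θ) - g θ) = _
      ring
    rw [this]
    change Polynomial.aeval (σ.toAlgHom (g θ)) f = 0
    rw [Polynomial.aeval_algHom_apply, Polynomial.aeval_algHom_apply, hθ, map_zero, map_zero]
  have h3 := congrArg (Subtype.val) hk
  have h4 : ((Polynomial.eval (x + y) F : S) : N)
      = ((Polynomial.eval x F : S) : N) + ((Polynomial.eval x F.derivative : S) : N) * (y : N)
        + (k : N) * (y : N) ^ 2 := h3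
  rw [h1, h2, zero_add] at h4
  have hy0 : (y : N) ≠ 0 := sub_ne_zero.mpr hne
  have h5 : ((Polynomial.eval x F.derivative : S) : N) = -((k : N) * (y : N)) := by
    have h6 : (y : N) * (((Polynomial.eval x F.derivative : S) : N) + (k : N) * (y : N)) = 0 := by
      rw [mul_add, h4]; ring
    have h7 := (mul_eq_zero.mp h6).resolve_left hy0
    exact eq_neg_of_add_eq_zero_left h7
  have h6 : w ((Polynomial.eval x F.derivative : S) : N) < 1 := by
    rw [h5, Valuation.map_neg, map_mul]
    calc w (k : N) * w (y : N) ≤ 1 * w (y : N) := mul_le_mul_left (k.2) _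
      _ < 1 := by rw [one_mul]; exact hσ.2 _ hθle
  have h7 : w ((Polynomial.eval x F.derivative : S) : N) = 1 := by
    rw [hev']
    change w (Polynomial.aeval (g θ) _) = 1
    rw [Polynomial.aeval_algHom_apply]
    refine hd (w.comap (g : L →+* N)) ?_
    rw [← hw, ← Valuation.comap_comp]
    congr 1
    exact g.comp_algebraMap
  rw [h7] at h6
  exact lt_irrefl _ h6

end adjoin

section tower

variable {K L : Type*} [Field K] [Field L] [Algebra K L] {A : Type*} [CommRing A] [Algebra K A]
  [Algebra L A] [IsScalarTower K L A] {v : Valuation K ℝ≥0}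

theorem UnrAt.trans (hL : UnrAt v L)
    (hA : ∀ u : Valuation L ℝ≥0, u.comap (algebraMap K L) = v → UnrAt u A) : UnrAt v A := by
  intro w hw b
  have h1 : (w.comap (algebraMap L A)).comap (algebraMap K L) = v := by
    rw [← hw, ← Valuation.comap_comp, ← IsScalarTower.algebraMap_eq]
  obtain ⟨l, hl⟩ := hA _ h1 w rfl b
  obtain ⟨a, ha⟩ := hL _ h1 l
  exact ⟨a, by rw [hl, ha]⟩

theorem UnrAt.tower_top (hA : UnrAt v A) {u : Valuation L ℝ≥0}
    (hu : u.comap (algebraMap K L) = v) : UnrAt u A := by
  intro w hw b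
  obtain ⟨a, ha⟩ := hA w (by
    rw [IsScalarTower.algebraMap_eq K L A, Valuation.comap_comp, hw, hu]) b
  refine ⟨algebraMap K L a, ?_⟩
  rw [ha, ← hu]
  rfl

end tower

section almost

variable {K L : Type*} [Field K] [Field L] [Algebra K L]

/-- a finite extension is unramified at every place at which finitely many given elements of `K`
are integral -/
theorem exists_finset_unrAt [FiniteDimensional K L] [CharZero K] :
    ∃ S : Finset K, ∀ (v : Valuation K ℝ≥0) (c : ℝ≥0), Gen v c →
      (∀ n : ℕ, n ≠ 0 → v (n : K) = 1) → (∀ x ∈ S, v x ≤ 1) → UnrAt v L := by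
  classical
  obtain ⟨θ, hθ⟩ := Field.exists_primitive_element K L
  set f := minpoly K θ with hf
  have hint : IsIntegral K θ := Algebra.IsIntegral.isIntegral θ
  set z : L := Polynomial.aeval θ (Polynomial.derivative f) with hz
  have hz0 : z ≠ 0 := by
    have hirr := minpoly.irreducible hint
    exact hirr.separable.aeval_derivative_ne_zero (minpoly.aeval K θ)
  have hzint : IsIntegral K z⁻¹ := Algebra.IsIntegral.isIntegral _
  refine ⟨f.coeffs ∪ (minpoly K z⁻¹).coeffs, fun v c hv hres hS => ?_⟩
  have hle : ∀ (w : Valuation L ℝ≥0), w.comap (algebraMap K L) = v → ∀ y : L, IsIntegral K y →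
      (∀ x ∈ (minpoly K y).coeffs, v x ≤ 1) → w y ≤ 1 := by
    intro w hw y hy hc
    have hwv : ∀ x : K, w (algebraMap K L x) = v x := fun x => by rw [← hw]; rfl
    let F : Polynomial w.integer := Polynomial.toSubring ((minpoly K y).map (algebraMap K L))
      w.integer (by
        intro x hx
        obtain ⟨i, hi, rfl⟩ := Polynomial.mem_coeffs_iff.mp hx
        rw [Polynomial.coeff_map]
        change w (algebraMap K L _) ≤ 1
        rw [hwv]
        by_cases h0 : (minpoly K y).coeff i = 0
        · rw [h0, map_zero]; exact zero_le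
        · exact hc _ (Polynomial.mem_coeffs_iff.mpr ⟨i, Polynomial.mem_support_iff.mpr h0, rfl⟩))
    have hF : F.map (Subring.subtype _) = (minpoly K y).map (algebraMap K L) :=
      Polynomial.map_toSubring _ _ _
    have hyint : IsIntegral w.integer y := by
      refine ⟨F, ?_, ?_⟩
      · exact (Polynomial.monic_toSubring _ _ _).mpr ((minpoly.monic hy).map _)
      · rw [← Polynomial.eval_map]
        change (F.map (Subring.subtype _)).eval y = 0
        rw [hF, Polynomial.eval_map, ← Polynomial.aeval_def, minpoly.aeval]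
    exact (Valuation.integer.integers w).mem_of_integral hyint
  refine unrAt_of_root hv hres (minpoly.monic hint) ?_ (minpoly.aeval K θ) hθ ?_
  · intro i
    by_cases h0 : (minpoly K θ).coeff i = 0
    · rw [h0, map_zero]; exact zero_le
    · exact hS _ (Finset.mem_union_left _
        (Polynomial.mem_coeffs_iff.mpr ⟨i, Polynomial.mem_support_iff.mpr h0, rfl⟩))
  · intro w hw
    have hwv : ∀ x : K, w (algebraMap K L x) = v x := fun x => by rw [← hw]; rfl
    change w z = 1
    have h1 : w θ ≤ 1 := hle w hw θ hint (fun x hx => hS x (Finset.mem_union_left _ hx))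
    have h2 : w z⁻¹ ≤ 1 := hle w hw z⁻¹ hzint (fun x hx => hS x (Finset.mem_union_right _ hx))
    have h3 : w z ≤ 1 := by
      rw [hz, Polynomial.aeval_eq_sum_range]
      refine w.map_sum_le fun i _ => ?_
      rw [Algebra.smul_def, map_mul, map_pow, hwv, Polynomial.coeff_derivative, map_mul]
      have h4 : v (f.coeff (i + 1)) ≤ 1 := by
        by_cases h0 : f.coeff (i + 1) = 0
        · rw [h0, map_zero]; exact zero_le
        · exact hS _ (Finset.mem_union_left _
            (Polynomial.mem_coeffs_iff.mpr ⟨i + 1, Polynomial.mem_support_iff.mpr h0, rfl⟩))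
      have h5 : v ((i : K) + 1) ≤ 1 := by
        have := hres (i + 1) (by omega)
        push_cast at this
        exact this.le
      exact mul_le_one₀ (mul_le_one₀ h4 zero_le h5) zero_le (pow_le_one₀ zero_le h1)
    rw [map_inv₀] at h2
    refine le_antisymm h3 ?_
    have h6 : 0 < w z := (Valuation.pos_iff w).mpr hz0
    exact (inv_le_one₀ h6).mp h2

end almost

section closure

variable {K Ω : Type*} [Field K] [Field Ω] [Algebra K Ω]

/-- if every element of `A` is a `w`-limit of elements of `B` then the values of `w` on `A` are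
values of `w` on `B` -/
theorem exists_val_of_closure (w : Valuation Ω ℝ≥0) {B : Set Ω} {a : Ω} (h0 : a ≠ 0)
    (ha : ∀ ε : ℝ≥0, 0 < ε → ∃ b ∈ B, w (a - b) < ε) : ∃ b ∈ B, w a = w b := by
  obtain ⟨b, hb, hab⟩ := ha (w a) ((Valuation.pos_iff w).mpr h0)
  refine ⟨b, hb, ?_⟩
  have h1 : b = a - (a - b) := by ring
  rw [h1, Valuation.map_sub_eq_of_lt_left w hab]

end closure

end Crest.Agent.R013.Unr8_957
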