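import Mathlib

/-!
# R013 / Unr9: extension of `ℝ≥0`-valued valuations along algebraic extensions (helper957)

`exists_extend_alg`: every valuation `w : Valuation F ℝ≥0` extends to every algebraic extension
`E` of `F` (any `F`, discrete or not, any characteristic).
-/

set_option autoImplicit false
set_option linter.style.haveILetI false

namespace Crest.Agent.R013.Unr9_957

open scoped NNReal

/-- the absolute value of a valuation -/
noncomputable def toAbs {F : Type*} [Field F] (w : Valuation F ℝ≥0) : AbsoluteValue F ℝ where
  toFun x := (w x : ℝ)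
  map_mul' x y := by simp
  nonneg' x := (w x).2
  eq_zero' x := by simp
  add_le' x y := by
    have h1 := w.map_add x y
    have h2 : max (w x) (w y) ≤ w x + w y := max_le (by simp) (by simp)
    exact_mod_cast h1.trans h2

/-- a valuation from a multiplicative nonarchimedean norm -/
noncomputable def ofNorm {E : Type*} [Field E] (f : E → ℝ) (h0 : f 0 = 0) (h1 : f 1 = 1)
    (hnn : ∀ x, 0 ≤ f x) (hm : ∀ x y, f (x * y) = f x * f y)
    (ha : ∀ x y, f (x + y) ≤ max (f x) (f y)) : Valuation E ℝ≥0 where
  toFun x := ⟨f x, hnn x⟩
  map_zero' := by ext; exact h0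
  map_one' := by ext; exact h1
  map_mul' x y := by ext; exact hm x y
  map_add_le_max' x y := ha x y

theorem exists_extend_alg {F E : Type*} [Field F] [Field E] [Algebra F E]
    [Algebra.IsAlgebraic F E] (w : Valuation F ℝ≥0) :
    ∃ w' : Valuation E ℝ≥0, w'.comap (algebraMap F E) = w := by
  classical
  by_cases htriv : ∀ x : F, x ≠ 0 → w x = 1
  · refine ⟨ofNorm (fun x => if x = 0 then 0 else 1) (by simp) (by simp)
      (fun x => by split_ifs <;> norm_num) ?_ ?_, ?_⟩
    · intro x y
      by_cases hx : x = 0 <;> by_cases hy : y = 0 <;> simp [hx, hy]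
    · intro x y
      by_cases hx : x = 0 <;> by_cases hy : y = 0
      · simp [hx, hy]
      · simp [hx, hy]
      · simp [hx, hy]
      · by_cases hxy : x + y = 0 <;> simp [hx, hy, hxy]
    · ext x
      by_cases hx : x = 0
      · simp [hx]
      · rw [Valuation.comap_apply, htriv x hx]
        change ((if algebraMap F E x = 0 then (0 : ℝ) else 1) : ℝ) = ((1 : ℝ≥0) : ℝ)
        rw [if_neg (by simpa using hx)]
        rfl
  · push Not at htriv
    obtain ⟨x₀, hx₀, hx₁⟩ := htriv
    letI nf : NormedField F := (toAbs w).toNormedField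
    have hnorm : ∀ x : F, ‖x‖ = (w x : ℝ) := fun x => rfl
    have hult : IsUltrametricDist F := by
      refine IsUltrametricDist.isUltrametricDist_of_forall_norm_add_le_max_norm fun x y => ?_
      rw [hnorm, hnorm, hnorm]
      exact_mod_cast w.map_add x y
    have hne : ∃ x : UniformSpace.Completion F, x ≠ 0 ∧ ‖x‖ ≠ 1 := by
      refine ⟨(x₀ : UniformSpace.Completion F), ?_, ?_⟩
      · intro h0
        apply hx₀
        have h1 : ‖(x₀ : UniformSpace.Completion F)‖ = 0 := by rw [h0, norm_zero]
        rw [UniformSpace.Completion.norm_coe] at h1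
        exact norm_eq_zero.mp h1
      · rw [UniformSpace.Completion.norm_coe, hnorm]
        exact_mod_cast hx₁
    letI : NontriviallyNormedField (UniformSpace.Completion F) :=
      NontriviallyNormedField.ofNormNeOne hne
    have hult' : IsUltrametricDist (UniformSpace.Completion F) :=
      IsUltrametricDist.of_normedAlgebra F
    let Fh := UniformSpace.Completion F
    let Ω := AlgebraicClosure Fh
    letI : Algebra F Ω := ((algebraMap Fh Ω).comp (algebraMap F Fh)).toAlgebra
    let j : E →ₐ[F] Ω := IsAlgClosed.lift
    let W : Valuation Ω ℝ≥0 := ofNorm (fun x => spectralMulAlgNorm Fh Ω x) (map_zero _)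
      (map_one _) (fun x => apply_nonneg _ _) (fun x y => map_mul _ x y)
      (fun x y => isNonarchimedean_spectralNorm x y)
    refine ⟨W.comap (j : E →+* Ω), ?_⟩
    ext x
    rw [Valuation.comap_apply, Valuation.comap_apply]
    have h1 : (j : E →+* Ω) (algebraMap F E x) = algebraMap Fh Ω (algebraMap F Fh x) := j.commutes x
    rw [h1]
    have h2 : ((W (algebraMap Fh Ω (algebraMap F Fh x)) : ℝ≥0) : ℝ)
        = spectralNorm Fh Ω (algebraMap Fh Ω (algebraMap F Fh x)) := rfl
    have h3 : ((w x : ℝ≥0) : ℝ) = ‖algebraMap F Fh x‖ := by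
      rw [← hnorm]
      exact (norm_algebraMap' Fh x).symm
    rw [h2, h3, spectralNorm_extends]

section embed

variable {F E : Type*} [NormedField F] [NormedField E] [NormedAlgebra F E] [IsUltrametricDist F]
  [Algebra.IsAlgebraic F E]

/-- an algebraic normed extension of `F` embeds isometrically into the algebraic closure of the
completion of `F` with its spectral norm -/
theorem exists_embed_aux (hne : ∃ x : F, x ≠ 0 ∧ ‖x‖ ≠ 1) :
    ∃ j : E →+* AlgebraicClosure (UniformSpace.Completion F),
      (∀ x : F, j (algebraMap F E x) = algebraMap (UniformSpace.Completion F) _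
        (x : UniformSpace.Completion F)) ∧
      ∀ x : E, spectralNorm (UniformSpace.Completion F)
        (AlgebraicClosure (UniformSpace.Completion F)) (j x) = ‖x‖ := by
  obtain ⟨x₀, hx₀, hx₁⟩ := hne
  have hne' : ∃ x : UniformSpace.Completion F, x ≠ 0 ∧ ‖x‖ ≠ 1 := by
    refine ⟨(x₀ : UniformSpace.Completion F), ?_, ?_⟩
    · intro h0
      apply hx₀
      have h1 : ‖(x₀ : UniformSpace.Completion F)‖ = 0 := by rw [h0, norm_zero]
      rw [UniformSpace.Completion.norm_coe] at h1
      exact norm_eq_zero.mp h1
    · rw [UniformSpace.Completion.norm_coe]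
      exact hx₁
  letI : NontriviallyNormedField (UniformSpace.Completion F) :=
    NontriviallyNormedField.ofNormNeOne hne'
  have hult' : IsUltrametricDist (UniformSpace.Completion F) :=
    IsUltrametricDist.of_normedAlgebra F
  let φ : UniformSpace.Completion F →+* UniformSpace.Completion E :=
    UniformSpace.Completion.mapRingHom (algebraMap F E) (continuous_algebraMap F E)
  have hφc : Continuous φ := UniformSpace.Completion.continuous_map
  have hφ1 : ∀ x : F, φ (x : UniformSpace.Completion F)
      = ((algebraMap F E x : E) : UniformSpace.Completion E) := by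
    intro x
    exact UniformSpace.Completion.map_coe (algebraMap_isometry F E).uniformContinuous x
  have hφ2 : ∀ x, ‖φ x‖ = ‖x‖ := by
    intro x
    induction x using UniformSpace.Completion.induction_on with
    | hp => exact isClosed_eq (continuous_norm.comp hφc) continuous_norm
    | ih a => rw [hφ1, UniformSpace.Completion.norm_coe, UniformSpace.Completion.norm_coe,
        norm_algebraMap']
  letI : Algebra (UniformSpace.Completion F) (UniformSpace.Completion E) := φ.toAlgebra
  letI : NormedAlgebra (UniformSpace.Completion F) (UniformSpace.Completion E) :=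
    { norm_smul_le := fun r x => by
        rw [Algebra.smul_def, norm_mul]
        change ‖φ r‖ * ‖x‖ ≤ _
        rw [hφ2] }
  let A := algebraicClosure (UniformSpace.Completion F) (UniformSpace.Completion E)
  have hA : Algebra.IsAlgebraic (UniformSpace.Completion F) A :=
    algebraicClosure.isAlgebraic _ _
  let l : A →ₐ[UniformSpace.Completion F] AlgebraicClosure (UniformSpace.Completion F) :=
    IsAlgClosed.lift
  have hl : ∀ a : A, spectralNorm (UniformSpace.Completion F)
        (AlgebraicClosure (UniformSpace.Completion F)) (l a) = ‖a‖ := by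
    intro a
    rw [NormedAlgebra.norm_eq_spectralNorm (UniformSpace.Completion F) a]
    unfold spectralNorm
    rw [minpoly.algHom_eq l l.injective]
  have hmem : ∀ x : E, (x : UniformSpace.Completion E) ∈ A := by
    intro x
    rw [mem_algebraicClosure_iff]
    obtain ⟨p, hp0, hp⟩ := Algebra.IsAlgebraic.isAlgebraic (R := F) x
    refine ⟨p.map (algebraMap F (UniformSpace.Completion F)), ?_, ?_⟩
    · rwa [Polynomial.map_ne_zero_iff (algebraMap F (UniformSpace.Completion F)).injective]
    · rw [Polynomial.aeval_def, Polynomial.eval₂_map]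
      have h1 : (algebraMap (UniformSpace.Completion F) (UniformSpace.Completion E)).comp
          (algebraMap F (UniformSpace.Completion F))
          = (UniformSpace.Completion.coeRingHom (α := E)).comp (algebraMap F E) := by
        ext y
        exact hφ1 y
      rw [h1]
      have h2 := Polynomial.hom_eval₂ p (algebraMap F E)
        (UniformSpace.Completion.coeRingHom (α := E)) x
      rw [← Polynomial.aeval_def, hp, map_zero] at h2
      exact h2.symm
  let e : E →+* A := (UniformSpace.Completion.coeRingHom (α := E)).codRestrict A hmem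
  refine ⟨(l : A →+* _).comp e, fun x => ?_, fun x => ?_⟩
  · have h1 : e (algebraMap F E x) = algebraMap (UniformSpace.Completion F) A
        (x : UniformSpace.Completion F) := Subtype.ext (hφ1 x).symm
    change l (e (algebraMap F E x)) = _
    rw [h1, l.commutes]
  · change spectralNorm _ _ (l (e x)) = _
    rw [hl]
    exact UniformSpace.Completion.norm_coe x

end embed

/-- a valuation of an algebraic extension of a trivially valued field is trivial -/
theorem trivial_of_trivial {F E : Type*} [Field F] [Field E] [Algebra F E]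
    [Algebra.IsAlgebraic F E] (w : Valuation E ℝ≥0)
    (h : ∀ x : F, x ≠ 0 → w (algebraMap F E x) = 1) (x : E) (hx : x ≠ 0) : w x = 1 := by
  have hle : ∀ y : E, w y ≤ 1 := by
    intro y
    obtain ⟨p, hp, hpa⟩ := Algebra.IsIntegral.isIntegral (R := F) y
    let φ : F →+* w.integer := (algebraMap F E).codRestrict w.integer (by
      intro s
      by_cases hs : s = 0
      · rw [hs, map_zero]; exact zero_mem _
      · exact (h s hs).le)
    have h1 : IsIntegral w.integer y := by
      refine ⟨p.map φ, hp.map φ, ?_⟩
      rw [Polynomial.eval₂_map]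
      exact hpa
    exact (Valuation.integer.integers w).mem_of_integral h1
  have h1 := hle x
  have h2 := hle x⁻¹
  rw [map_inv₀, inv_le_one₀ ((Valuation.pos_iff w).mpr hx)] at h2
  exact le_antisymm h1 h2

theorem conj_of_embed {F E Ω : Type*} [Field F] [Field E] [Field Ω] [Algebra F E] [Normal F E]
    (j₁ j₂ : E →+* Ω) (hj : ∀ x : F, j₁ (algebraMap F E x) = j₂ (algebraMap F E x)) :
    ∃ σ : E ≃ₐ[F] E, ∀ x, j₁ (σ x) = j₂ x := by
  letI : Algebra F Ω := (j₁.comp (algebraMap F E)).toAlgebra
  letI : Algebra E Ω := j₁.toAlgebra
  have htow : IsScalarTower F E Ω := IsScalarTower.of_algebraMap_eq (fun x => rfl)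
  let j₂' : E →ₐ[F] Ω := { j₂ with commutes' := fun x => (hj x).symm }
  exact ⟨j₂'.restrictNormal' E, fun x => j₂'.restrictNormal_commutes E x⟩

/-- **conjugacy**: two extensions of a valuation to a normal algebraic extension are conjugate -/
theorem exists_conj_normal {F E : Type*} [Field F] [Field E] [Algebra F E] [Normal F E]
    (w₁ w₂ : Valuation E ℝ≥0) (h : w₁.comap (algebraMap F E) = w₂.comap (algebraMap F E)) :
    ∃ σ : E ≃ₐ[F] E, ∀ x, w₂ x = w₁ (σ x) := by
  by_cases htriv : ∀ x : F, x ≠ 0 → w₁ (algebraMap F E x) = 1
  · refine ⟨AlgEquiv.refl, fun x => ?_⟩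
    by_cases hx : x = 0
    · rw [hx, map_zero, map_zero, map_zero]
    · have h2 : ∀ x : F, x ≠ 0 → w₂ (algebraMap F E x) = 1 := by
        intro y hy
        have h3 : w₂ (algebraMap F E y) = w₁ (algebraMap F E y) := (DFunLike.congr_fun h y).symm
        rw [h3, htriv y hy]
      rw [trivial_of_trivial w₂ h2 x hx]
      exact (trivial_of_trivial w₁ htriv x hx).symm
  · push Not at htriv
    obtain ⟨x₀, hx₀, hx₁⟩ := htriv
    have key : ∀ w' : Valuation E ℝ≥0, w'.comap (algebraMap F E) = w₁.comap (algebraMap F E) →
        letI nf : NormedField F := (toAbs (w₁.comap (algebraMap F E))).toNormedField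
        ∃ j : E →+* AlgebraicClosure (UniformSpace.Completion F),
      (∀ x : F, j (algebraMap F E x) = algebraMap (UniformSpace.Completion F) _
        (x : UniformSpace.Completion F)) ∧
      ∀ x : E, spectralNorm (UniformSpace.Completion F)
        (AlgebraicClosure (UniformSpace.Completion F)) (j x) = (w' x : ℝ) := by
      intro w' hw'
      letI nf : NormedField F := (toAbs (w₁.comap (algebraMap F E))).toNormedField
      have hnorm : ∀ x : F, ‖x‖ = (w₁ (algebraMap F E x) : ℝ) := fun x => rfl
      letI ne : NormedField E := (toAbs w').toNormedField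
      have hnormE : ∀ x : E, ‖x‖ = (w' x : ℝ) := fun x => rfl
      have hnormFE : ∀ x : F, ‖algebraMap F E x‖ = ‖x‖ := by
        intro x
        rw [hnorm, hnormE]
        exact congrArg _ (DFunLike.congr_fun hw' x)
      letI : NormedAlgebra F E :=
        { norm_smul_le := fun r x => by
            rw [Algebra.smul_def, norm_mul, hnormFE] }
      have hult : IsUltrametricDist F := by
        refine IsUltrametricDist.isUltrametricDist_of_forall_norm_add_le_max_norm fun x y => ?_
        rw [hnorm, hnorm, hnorm, map_add]
        exact w₁.map_add _ _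
      refine exists_embed_aux (F := F) (E := E) ⟨x₀, hx₀, ?_⟩
      rw [hnorm]
      exact_mod_cast hx₁
    obtain ⟨j₁, hj₁, hn₁⟩ := key w₁ rfl
    obtain ⟨j₂, hj₂, hn₂⟩ := key w₂ h.symm
    obtain ⟨σ, hσ⟩ := conj_of_embed (F := F) j₁ j₂ (fun x => by rw [hj₁, hj₂])
    refine ⟨σ, fun x => ?_⟩
    have h1 := hn₂ x
    rw [← hσ, hn₁] at h1
    exact_mod_cast h1.symm

end Crest.Agent.R013.Unr9_957
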