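import Mathlib
import Crest.Prelude.Def_SectConj
import Crest.Agent.R013.Unr5_957
import Crest.Agent.R013.Unr8_957
import Crest.Agent.R013.Unr9_957

/-!
# R013 / Unr10: everywhere unramified algebras, Kummer, change of the base curve (helper957)

`UnrEv k K A`: the commutative `K`-algebra `A` is unramified at all places of `K/k`.
-/

set_option autoImplicit false
set_option linter.style.haveILetI false
set_option linter.unusedSectionVars false

namespace Crest.Agent.R013.Unr10_957

open scoped NNReal TensorProduct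
open Module IntermediateField
open Crest.NumberTheoryR.Sect
open Crest.Agent.R013.Unr1_957 Crest.Agent.R013.Unr2_957 Crest.Agent.R013.Unr3_957
open Crest.Agent.R013.Unr4_957 Crest.Agent.R013.Unr5_957 Crest.Agent.R013.Unr7_957
open Crest.Agent.R013.Unr8_957 Crest.Agent.R013.Unr9_957

/-- the commutative `K`-algebra `A` is unramified at all places of `K/k` -/
def UnrEv (k : Type*) [Field k] (K : Type*) [Field K] [Algebra k K] (A : Type*) [CommRing A]
    [Algebra K A] : Prop :=
  ∀ v : Valuation K ℝ≥0, IsPlace k v → UnrAt v A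

section basic

variable {k : Type*} [Field k] {K : Type*} [Field K] [Algebra k K]
variable {A B : Type*} [CommRing A] [Algebra K A] [CommRing B] [Algebra K B]

theorem UnrEv.of_surj (h : UnrEv k K A) (f : A →ₐ[K] B) (hf : Function.Surjective f) :
    UnrEv k K B := fun v hv => (h v hv).of_surj f hf

theorem UnrEv.congr (e : A ≃ₐ[K] B) : UnrEv k K A ↔ UnrEv k K B :=
  ⟨fun h v hv => (UnrAt.congr e).mp (h v hv), fun h v hv => (UnrAt.congr e).mpr (h v hv)⟩

theorem unrEv_pi {ι : Type*} [Finite ι] {A : ι → Type*} [∀ i, CommRing (A i)]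
    [∀ i, Algebra K (A i)] : UnrEv k K (∀ i, A i) ↔ ∀ i, UnrEv k K (A i) :=
  ⟨fun h i v hv => unrAt_pi.mp (h v hv) i, fun h v hv => unrAt_pi.mpr fun i => h i v hv⟩

theorem unrEv_prod : UnrEv k K (A × B) ↔ UnrEv k K A ∧ UnrEv k K B :=
  ⟨fun h => ⟨fun v hv => (unrAt_prod.mp (h v hv)).1, fun v hv => (unrAt_prod.mp (h v hv)).2⟩,
    fun h v hv => unrAt_prod.mpr ⟨h.1 v hv, h.2 v hv⟩⟩

theorem unrEv_self : UnrEv k K K := fun _ _ => unrAt_self

theorem unr_iff_unrEv {L : IntermediateField K (AlgebraicClosure K)} :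
    IsUnramifiedEverywhere k K L ↔ FiniteDimensional K L ∧ UnrEv k K L := by
  constructor
  · rintro ⟨hfd, h⟩
    refine ⟨hfd, fun v hv w hw b => ?_⟩
    have hpl : IsPlace k w := isPlace_of_comap (F := K) (by rw [hw]; exact hv)
    by_cases hb : b = 0
    · exact ⟨0, by rw [hb, map_zero, map_zero]⟩
    · obtain ⟨a, ha⟩ := h w hpl b hb
      exact ⟨a, by rw [ha, ← hw]; rfl⟩
  · rintro ⟨hfd, h⟩
    refine ⟨hfd, fun w hw b _ => ?_⟩
    obtain ⟨a, ha⟩ := h _ (isPlace_base hw) w rfl b
    exact ⟨a, ha⟩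

end basic

section tower

variable {k : Type*} [Field k] {K : Type*} [Field K] [Algebra k K] {L : Type*} [Field L]
  [Algebra K L] [Algebra k L] [IsScalarTower k K L] {A : Type*} [CommRing A] [Algebra K A]
  [Algebra L A] [IsScalarTower K L A]

theorem UnrEv.trans (hL : UnrEv k K L) (hA : UnrEv k L A) : UnrEv k K A :=
  fun v hv => UnrAt.trans (hL v hv) fun u hu => hA u (isPlace_of_comap (F := K) (by
    rw [hu]; exact hv))

theorem UnrEv.tower_top [Algebra.IsAlgebraic K L] (hA : UnrEv k K A) :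
    UnrEv k L A :=
  fun u hu => UnrAt.tower_top (hA _ (isPlace_comap (F := K) hu)) rfl

end tower

section const

variable {k k₁ : Type*} [Field k] [Field k₁] [Algebra k k₁] [Algebra.IsAlgebraic k k₁]
  {K : Type*} [Field K] [Algebra k K] [Algebra k₁ K] [IsScalarTower k k₁ K]

theorem isPlace_const_iff {v : Valuation K ℝ≥0} : IsPlace k v ↔ IsPlace k₁ v := by
  constructor
  · rintro ⟨h1, h2⟩
    refine ⟨fun c hc => ?_, h2⟩
    refine trivial_of_trivial (F := k) (v.comap (algebraMap k₁ K)) ?_ c hc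
    intro x hx
    rw [Valuation.comap_apply, ← IsScalarTower.algebraMap_apply]
    exact h1 x hx
  · rintro ⟨h1, h2⟩
    refine ⟨fun c hc => ?_, h2⟩
    rw [IsScalarTower.algebraMap_apply k k₁ K]
    exact h1 _ (by simpa using hc)

theorem unrEv_const_iff {A : Type*} [CommRing A] [Algebra K A] :
    UnrEv k K A ↔ UnrEv k₁ K A :=
  ⟨fun h v hv => h v (isPlace_const_iff.mpr hv), fun h v hv => h v (isPlace_const_iff.mp hv)⟩

end const

section char0

variable {k : Type*} [Field k] [CharZero k] {K : Type*} [Field K] [Algebra k K]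
  [Algebra (RatFunc k) K] [IsScalarTower k (RatFunc k) K] [FiniteDimensional (RatFunc k) K]

theorem UnrEv.of_hom {L M : Type*} [Field L] [Algebra K L] [Field M] [Algebra K M]
    [FiniteDimensional K M] (hM : UnrEv k K M) (f : L →ₐ[K] M) : UnrEv k K L := by
  intro v hv
  obtain ⟨c, hc⟩ := gen_place hv
  exact (hM v hv).of_hom hc (place_natCast hv) f

theorem UnrEv.tensor {A B : Type*} [CommRing A] [Algebra K A] [CommRing B] [Algebra K B]
    [Module.Finite K A] [Module.Finite K B] (hA : UnrEv k K A) (hB : UnrEv k K B) :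
    UnrEv k K (A ⊗[K] B) := by
  intro v hv
  obtain ⟨c, hc⟩ := gen_place hv
  exact (hA v hv).tensor hc (place_natCast hv) (hB v hv)

theorem UnrEv.compositum {L₁ L₂ M : Type*} [Field L₁] [Algebra K L₁] [Field L₂] [Algebra K L₂]
    [Field M] [Algebra K M] [FiniteDimensional K M] (h₁ : UnrEv k K L₁) (h₂ : UnrEv k K L₂)
    (f₁ : L₁ →ₐ[K] M) (f₂ : L₂ →ₐ[K] M) (hM : f₁.fieldRange ⊔ f₂.fieldRange = ⊤) :
    UnrEv k K M := by
  intro v hv
  obtain ⟨c, hc⟩ := gen_place hv
  exact (h₁ v hv).compositum hc (place_natCast hv) (h₂ v hv) f₁ f₂ hM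

/-- **Kummer** -/
theorem unrEv_kummer {L : Type*} [Field L] [Algebra K L] [FiniteDimensional K L] {n : ℕ}
    (hn : n ≠ 0) {h : K} (hh : ∀ v : Valuation K ℝ≥0, IsPlace k v → ∃ a : K, v h = v a ^ n)
    {y : L} (hy : y ^ n = algebraMap K L h) (hL : K⟮y⟯ = ⊤) : UnrEv k K L := by
  intro v hv
  obtain ⟨c, hc⟩ := gen_place hv
  obtain ⟨a, ha⟩ := hh v hv
  exact unrAt_kummer hc (place_natCast hv) hn ha hy hL

theorem kummer_of_unrEv {L : Type*} [Field L] [Algebra K L] [FiniteDimensional K L]
    (hL : UnrEv k K L) {n : ℕ} {h : K} {y : L} (hy : y ^ n = algebraMap K L h)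
    (v : Valuation K ℝ≥0) (hv : IsPlace k v) : ∃ a : K, v h = v a ^ n :=
  kummer_of_unrAt (hL v hv) (exists_extend_alg v) hy

theorem mem_maxUnramified_iff_unrEv {x : AlgebraicClosure K} :
    x ∈ maxUnramified k K ↔ UnrEv k K K⟮x⟯ := by
  rw [mem_maxUnramified_iff', unr_iff_unrEv, and_iff_right]
  exact IntermediateField.adjoin.finiteDimensional (Algebra.IsIntegral.isIntegral x)

/-- the images of an unramified finite algebra lie in `maxUnramified` -/
theorem UnrEv.mem_maxUnramified {A : Type*} [CommRing A] [Algebra K A] [Module.Finite K A]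
    (hA : UnrEv k K A) (f : A →ₐ[K] AlgebraicClosure K) (a : A) : f a ∈ maxUnramified k K := by
  let L : IntermediateField K (AlgebraicClosure K) := f.range.toIntermediateField (fun x hx =>
    (f.range).inv_mem_of_algebraic (x := ⟨x, hx⟩) (Algebra.IsAlgebraic.isAlgebraic _))
  let g : A →ₐ[K] L := f.codRestrict L.toSubalgebra (fun a => ⟨a, rfl⟩)
  have hg : Function.Surjective g := by
    rintro ⟨_, a, rfl⟩
    exact ⟨a, rfl⟩
  have hfd : FiniteDimensional K L := Module.Finite.of_surjective g.toLinearMap hg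
  have hL : UnrEv k K L := hA.of_surj g hg
  have h1 : IsUnramifiedEverywhere k K L := unr_iff_unrEv.mpr ⟨hfd, hL⟩
  exact le_maxUnramified_iff.mpr h1 ⟨a, rfl⟩

/-- the Kummer extension of an unramified extension `U` generated by an `n`-th root of an element
of `U` whose divisor is divisible by `n` is contained in `maxUnramified` -/
theorem kummer_mem_maxUnramified {U : IntermediateField K (AlgebraicClosure K)}
    (hU : IsUnramifiedEverywhere k K U) {n : ℕ} (hn : n ≠ 0) {h : U}
    (hh : ∀ u : Valuation U ℝ≥0, IsPlace k u → ∃ a : U, u h = u a ^ n)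
    {y : AlgebraicClosure K} (hy : y ^ n = (h : AlgebraicClosure K)) :
    y ∈ maxUnramified k K := by
  have := hU.1
  let L : IntermediateField U (AlgebraicClosure K) := U⟮y⟯
  have hL : FiniteDimensional U L :=
    IntermediateField.adjoin.finiteDimensional (Algebra.IsIntegral.isIntegral y)
  have : FiniteDimensional (RatFunc k) U := finite_IF U
  have : IsScalarTower k (RatFunc k) U := tower_IF U
  let y' : L := ⟨y, mem_adjoin_simple_self U y⟩
  have hy' : y' ^ n = algebraMap U L h := Subtype.ext hy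
  have htop : U⟮y'⟯ = (⊤ : IntermediateField U L) := by
    apply IntermediateField.lift_injective L
    rw [IntermediateField.lift_adjoin_simple, IntermediateField.lift_top]
  have h1 : UnrEv k U L := unrEv_kummer hn hh hy' htop
  have h2 : UnrEv k K U := (unr_iff_unrEv.mp hU).2
  have h3 : UnrEv k K L := h2.trans h1
  have h4 : FiniteDimensional K L := FiniteDimensional.trans K U L
  let f : L →ₐ[K] AlgebraicClosure K := L.val.restrictScalars K
  exact h3.mem_maxUnramified f y'

end char0

section transport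

variable {k : Type*} [Field k] [CharZero k] {K : Type*} [Field K] [Algebra k K]
  [Algebra (RatFunc k) K] [IsScalarTower k (RatFunc k) K] [FiniteDimensional (RatFunc k) K]
  {k₁ : Type*} [Field k₁] [CharZero k₁] {L : Type*} [Field L] [Algebra k₁ L]
  [Algebra (RatFunc k₁) L] [IsScalarTower k₁ (RatFunc k₁) L] [FiniteDimensional (RatFunc k₁) L]
  [Algebra k k₁] [Algebra.IsAlgebraic k k₁] [Algebra k L] [IsScalarTower k k₁ L]
  [Algebra K L] [IsScalarTower k K L] [FiniteDimensional K L]

/-- **change of the base curve**: `maxUnramified` does not change along an unramified extension -/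
theorem mem_maxUnramified_transport (hL : UnrEv k K L)
    (e : AlgebraicClosure L ≃ₐ[K] AlgebraicClosure K) (x : AlgebraicClosure L) :
    x ∈ maxUnramified k₁ L ↔ e x ∈ maxUnramified k K := by
  have hfdM : FiniteDimensional L L⟮x⟯ :=
    IntermediateField.adjoin.finiteDimensional (Algebra.IsIntegral.isIntegral x)
  have hKM : FiniteDimensional K L⟮x⟯ := FiniteDimensional.trans K L L⟮x⟯
  have halg : Algebra.IsAlgebraic K (AlgebraicClosure L) :=
    Algebra.IsAlgebraic.trans K L (AlgebraicClosure L)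
  -- `K⟮x⟯` and `K⟮e x⟯`
  have hmap : (K⟮x⟯ : IntermediateField K (AlgebraicClosure L)).map e.toAlgHom = K⟮e x⟯ := by
    rw [IntermediateField.adjoin_map, Set.image_singleton]
    rfl
  have e₁ : K⟮x⟯ ≃ₐ[K] K⟮e x⟯ :=
    ((K⟮x⟯ : IntermediateField K (AlgebraicClosure L)).equivMap e.toAlgHom).trans
      (IntermediateField.equivOfEq hmap)
  -- the two maps into `L⟮x⟯`
  have hle : (K⟮x⟯ : IntermediateField K (AlgebraicClosure L))
      ≤ (L⟮x⟯ : IntermediateField L (AlgebraicClosure L)).restrictScalars K := by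
    rw [adjoin_simple_le_iff]
    exact mem_adjoin_simple_self L x
  let f₁ : L →ₐ[K] L⟮x⟯ := IsScalarTower.toAlgHom K L L⟮x⟯
  let f₂ : K⟮x⟯ →ₐ[K] L⟮x⟯ := IntermediateField.inclusion hle
  have hgen : f₁.fieldRange ⊔ f₂.fieldRange = ⊤ := by
    rw [eq_top_iff]
    rintro ⟨z, hz⟩ -
    refine IntermediateField.adjoin_induction L (s := {x})
      (p := fun z hz => (⟨z, hz⟩ : L⟮x⟯) ∈ f₁.fieldRange ⊔ f₂.fieldRange) ?_ ?_ ?_ ?_ ?_ hz
    · intro y hy
      have hy' : y = x := hy
      subst hy'
      exact (le_sup_right : f₂.fieldRange ≤ _) ⟨⟨y, mem_adjoin_simple_self K y⟩, rfl⟩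
    · intro l
      exact (le_sup_left : f₁.fieldRange ≤ _) ⟨l, rfl⟩
    · intro a b ha hb h1 h2
      exact add_mem h1 h2
    · intro a ha h1
      exact inv_mem h1
    · intro a b ha hb h1 h2
      exact mul_mem h1 h2
  rw [mem_maxUnramified_iff_unrEv, mem_maxUnramified_iff_unrEv, ← unrEv_const_iff (k := k),
    ← UnrEv.congr e₁]
  constructor
  · intro h
    exact (hL.trans h).of_hom f₂
  · intro h
    exact (hL.compositum h f₁ f₂ hgen).tower_top

end transport

end Crest.Agent.R013.Unr10_957
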