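import Mathlib
import Crest.Prelude.Def_SectConj
import Crest.Agent.R013.Unr10_957
import Crest.Agent.R013.MaxUnr_97
import Crest.Agent.R013.SE_669

/-!
# R013 / Unr11: closure criterion for unramifiedness, constant extensions (helper957)
-/

set_option autoImplicit false
set_option linter.style.haveILetI false
set_option linter.unusedSectionVars false

namespace Crest.Agent.R013.Unr11_957

open scoped NNReal TensorProduct
open Module IntermediateField
open Crest.NumberTheoryR.Sect
open Crest.Agent.R013.Unr1_957 Crest.Agent.R013.Unr2_957 Crest.Agent.R013.Unr3_957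
open Crest.Agent.R013.Unr4_957 Crest.Agent.R013.Unr5_957 Crest.Agent.R013.Unr7_957
open Crest.Agent.R013.Unr8_957 Crest.Agent.R013.Unr9_957 Crest.Agent.R013.Unr10_957
open Crest.Agent.R013.SE_669

section closure

variable {K Ω : Type*} [Field K] [Field Ω] [Algebra K Ω] [Algebra.IsAlgebraic K Ω]

/-- local closure criterion: if for every extension `w` of `v` to `Ω`, the field `A` is contained in
the `w`-closure of a subextension which is unramified at `v`, then `A` is unramified at `v` -/
theorem unrAt_of_cl {v : Valuation K ℝ≥0} {A : IntermediateField K Ω}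
    (h : ∀ w : Valuation Ω ℝ≥0, w.comap (algebraMap K Ω) = v →
      ∃ U : IntermediateField K Ω, UnrAt v U ∧ (A : Set Ω) ⊆ cl w (U : Set Ω)) : UnrAt v A := by
  intro w hw b
  have halg : Algebra.IsAlgebraic A Ω := Algebra.IsAlgebraic.tower_top (K := K) A
  obtain ⟨W, hW⟩ := exists_extend_alg (E := Ω) w
  have hWv : W.comap (algebraMap K Ω) = v := by
    rw [← hw, ← hW]; rfl
  obtain ⟨U, hU, hAU⟩ := h W hWv
  by_cases hb : b = 0
  · exact ⟨0, by rw [hb, map_zero, map_zero]⟩
  have hb' : (b : Ω) ≠ 0 := by simpa using hb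
  obtain ⟨u, hu, hbu⟩ := exists_val_of_closure W (B := (U : Set Ω)) hb' (hAU b.2)
  obtain ⟨a, ha⟩ := hU (W.comap (algebraMap U Ω)) (by rw [← hWv]; rfl) ⟨u, hu⟩
  refine ⟨a, ?_⟩
  rw [← ha, ← hW]
  exact hbu

end closure

section clfield

variable {Ω : Type*} [Field Ω] {w : Valuation Ω ℝ≥0} {K : Type*} [Field K] [Algebra K Ω]

theorem subset_cl (F : Set Ω) : F ⊆ cl w F := fun a ha ε hε => ⟨a, ha, by simpa using hε⟩

/-- the closure of a subfield is a subfield -/
def clF (w : Valuation Ω ℝ≥0) (F : IntermediateField K Ω) : IntermediateField K Ω where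
  carrier := cl w (F : Set Ω)
  algebraMap_mem' x := subset_cl _ (F.algebraMap_mem x)
  add_mem' {a b} ha hb := by
    intro ε hε
    obtain ⟨a', ha', h1⟩ := ha ε hε
    obtain ⟨b', hb', h2⟩ := hb ε hε
    refine ⟨a' + b', F.add_mem ha' hb', ?_⟩
    have : a + b - (a' + b') = (a - a') + (b - b') := by ring
    rw [this]
    exact lt_of_le_of_lt (w.map_add _ _) (max_lt h1 h2)
  mul_mem' {a b} ha hb := by
    intro ε hε
    -- choose `b'` with `w a * w (b - b') < ε`, then `a'` with `w (a - a') * w b' < ε`
    obtain ⟨b', hb', h2⟩ := hb (ε / (w a + 1)) (div_pos hε (by positivity))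
    obtain ⟨a', ha', h1⟩ := ha (ε / (w b' + 1)) (div_pos hε (by positivity))
    refine ⟨a' * b', F.mul_mem ha' hb', ?_⟩
    have : a * b - a' * b' = a * (b - b') + (a - a') * b' := by ring
    rw [this]
    have aux : ∀ s t : ℝ≥0, t < ε / (s + 1) → s * t < ε := by
      intro s t ht
      have hs : 0 < s + 1 := by positivity
      rw [lt_div_iff₀ hs] at ht
      calc s * t ≤ t * (s + 1) := by rw [mul_comm]; gcongr; simp
        _ < ε := ht
    refine lt_of_le_of_lt (w.map_add _ _) (max_lt ?_ ?_)
    · rw [map_mul]; exact aux _ _ h2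
    · rw [map_mul, mul_comm]; exact aux _ _ h1
  inv_mem' a ha := by
    by_cases h0 : a = 0
    · rw [h0, inv_zero]
      exact subset_cl _ F.zero_mem
    intro ε hε
    have hpos : 0 < w a := (Valuation.pos_iff w).mpr h0
    obtain ⟨b, hb, hab⟩ := ha (min (w a) (ε * (w a * w a))) (lt_min hpos (by positivity))
    have h1 : w (a - b) < w a := lt_of_lt_of_le hab (min_le_left _ _)
    have h2 : w (a - b) < ε * (w a * w a) := lt_of_lt_of_le hab (min_le_right _ _)
    have hwb : w b = w a := by
      have h3 : b = a - (a - b) := by ring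
      rw [h3, Valuation.map_sub_eq_of_lt_left w h1]
    have hb0 : b ≠ 0 := by
      rintro rfl
      rw [map_zero] at hwb
      exact hpos.ne hwb
    refine ⟨b⁻¹, F.inv_mem hb, ?_⟩
    have h3 : a⁻¹ - b⁻¹ = -((a - b) / (a * b)) := by
      field_simp; ring
    rw [h3, Valuation.map_neg, map_div₀, map_mul, hwb, div_lt_iff₀ (by positivity)]
    exact h2

theorem mem_clF {F : IntermediateField K Ω} {a : Ω} : a ∈ clF w F ↔ a ∈ cl w (F : Set Ω) := Iff.rfl

end clfield

section glob

variable {k : Type*} [Field k] [CharZero k] {K : Type*} [Field K] [Algebra k K]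
  [Algebra (RatFunc k) K] [IsScalarTower k (RatFunc k) K] [FiniteDimensional (RatFunc k) K]

/-- **closure criterion**: `A/K` finite inside `Kbar` and for every place `P` of `Kbar` (trivial on
`k`, nontrivial), `A ⊆ cl P (maxUnramified)`; then `A ⊆ maxUnramified` -/
theorem le_maxUnramified_of_cl {A : IntermediateField K (AlgebraicClosure K)}
    [FiniteDimensional K A]
    (h : ∀ P : Valuation (AlgebraicClosure K) ℝ≥0, IsPlace k P →
      (A : Set (AlgebraicClosure K)) ⊆ cl P (maxUnramified k K : Set (AlgebraicClosure K))) :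
    A ≤ maxUnramified k K := by
  rw [le_maxUnramified_iff, unr_iff_unrEv]
  refine ⟨inferInstance, fun v hv => unrAt_of_cl fun w hw => ⟨maxUnramified k K, ?_, ?_⟩⟩
  · -- `maxUnramified` itself is unramified at `v`
    intro u hu b
    obtain ⟨L, hL, hbL⟩ := mem_maxUnramified_iff.mp b.2
    have hle : L ≤ maxUnramified k K := le_sSup (a := L) hL
    obtain ⟨a, ha⟩ := (unr_iff_unrEv.mp hL).2 v hv (resV hle u) (by rw [← hu]; rfl) ⟨b, hbL⟩
    exact ⟨a, ha⟩
  · exact h w (isPlace_of_comap (F := K) (by rw [hw]; exact hv))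

/-- an element of `Kbar` which generates over `K` a field contained in the closure of
`maxUnramified` at all places is in `maxUnramified` -/
theorem mem_maxUnramified_of_cl {x : AlgebraicClosure K}
    (h : ∀ P : Valuation (AlgebraicClosure K) ℝ≥0, IsPlace k P →
      x ∈ cl P (maxUnramified k K : Set (AlgebraicClosure K))) :
    x ∈ maxUnramified k K := by
  have hfd : FiniteDimensional K K⟮x⟯ :=
    IntermediateField.adjoin.finiteDimensional (Algebra.IsIntegral.isIntegral x)
  have h1 : K⟮x⟯ ≤ maxUnramified k K := by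
    refine le_maxUnramified_of_cl fun P hP => ?_
    have h2 : K⟮x⟯ ≤ clF P (maxUnramified k K) := by
      rw [adjoin_simple_le_iff]
      exact h P hP
    exact h2
  exact h1 (mem_adjoin_simple_self K x)

end glob

section const

variable {k : Type*} [Field k] [CharZero k] {K : Type*} [Field K] [Algebra k K]
  [Algebra (RatFunc k) K] [IsScalarTower k (RatFunc k) K] [FiniteDimensional (RatFunc k) K]

/-- constant extensions are unramified: if `L/K` is finite and generated by elements algebraic over
`k` then `L/K` is everywhere unramified -/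
theorem unrEv_const {L : Type*} [Field L] [Algebra K L] [FiniteDimensional K L] [Algebra k L]
    [IsScalarTower k K L] (h : IntermediateField.adjoin K {x : L | IsIntegral k x} = ⊤) :
    UnrEv k K L := by
  have hK := charZero_K k K
  let f : L →ₐ[K] AlgebraicClosure K := IsAlgClosed.lift
  have hle : f.fieldRange ≤ maxUnramified k K := by
    rw [AlgHom.fieldRange_eq_map, ← h, IntermediateField.adjoin_map, adjoin_le_iff]
    rintro _ ⟨x, hx, rfl⟩
    refine MaxUnr_97.mem_maxUnramified_of_isIntegral _ ?_
    have hx' : IsIntegral k x := hx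
    exact hx'.map (f.restrictScalars k)
  let e : L ≃ₐ[K] f.fieldRange := AlgEquiv.ofInjectiveField f
  have hfd : FiniteDimensional K f.fieldRange := e.toLinearEquiv.finiteDimensional
  rw [UnrEv.congr e]
  exact (unr_iff_unrEv.mp (le_maxUnramified_iff.mp hle)).2

end const

end Crest.Agent.R013.Unr11_957
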