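import Mathlib
import Crest.Agent.R013.DescC2_116
import Crest.Agent.R013.Unr11_957
import Crest.Agent.R013.RR19_948

/-!
# R013 / DescC3 (helper116): unramified covers descend and ascend
-/

set_option autoImplicit false
set_option linter.all false

namespace Crest.Agent.R013.DescC_116

open Module TensorProduct Crest.Agent.R013.Desc_372 Crest.Agent.R013.Desc_372.CE
open Crest.NumberTheoryR.Sect
open Crest.Agent.R013.Unr10_957 Crest.Agent.R013.Unr7_957 Crest.Agent.R013.Unr9_957
open Crest.Agent.R013.Unr11_957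
open Crest.Agent.R013.Unr3_957 Crest.Agent.R013.RR7_948 Crest.Agent.R013.RR13_948
open Crest.Agent.R013.RR18_948 Crest.Agent.R013.RR19_948
open scoped NNReal

/-- unramifiedness passes to subextensions (also of infinite extensions) -/
theorem unrEv_of_tower {k K L A : Type*} [Field k] [Field K] [Algebra k K] [Field L] [Algebra K L]
    [Field A] [Algebra K A] [Algebra A L] [IsScalarTower K A L] [Algebra.IsAlgebraic A L]
    (h : UnrEv k K L) : UnrEv k K A := by
  intro v hv w hw b
  obtain ⟨W, hW⟩ := exists_extend_alg (E := L) w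
  obtain ⟨a, ha⟩ := h v hv W (by
    rw [← hw, ← hW]
    ext x
    simp only [Valuation.comap_apply]
    rw [IsScalarTower.algebraMap_apply K A L]) (algebraMap A L b)
  refine ⟨a, ?_⟩
  rw [← ha, ← hW]
  rfl

section const

variable (k₀ k C K₀ K : Type*) [Field k₀] [Field k] [Field C] [Field K₀] [Field K]
  [Algebra k C] [Algebra k K₀] [Algebra C K] [Algebra K₀ K] [Algebra k K] [IsScalarTower k C K]
  [IsScalarTower k K₀ K]
  [Algebra k₀ k] [Algebra.IsAlgebraic k₀ k] [Algebra k₀ K₀] [IsScalarTower k₀ k K₀]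
  [CharZero k₀] [Algebra (RatFunc k₀) K₀] [IsScalarTower k₀ (RatFunc k₀) K₀]
  [FiniteDimensional (RatFunc k₀) K₀]

/-- **constant extensions (also infinite ones) are unramified** -/
theorem unrEv_ce [CE k C K₀ K] : UnrEv k₀ K₀ K := by
  letI : Algebra k₀ K := ((algebraMap K₀ K).comp (algebraMap k₀ K₀)).toAlgebra
  haveI : IsScalarTower k₀ K₀ K := IsScalarTower.of_algebraMap_eq fun _ => rfl
  intro v hv w hw b
  obtain ⟨k', h1, h2⟩ := exists_lev (k := k) (C := C) K₀ K {b} (Set.finite_singleton b)
  have hb : b ∈ lev K₀ K k' := h2 rfl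
  have hfin : FiniteDimensional K₀ (lev K₀ K k') :=
    (basisR k k' K₀ (lev K₀ K k') (finBasis k k')).finiteDimensional_of_finite
  have h3 : UnrEv k₀ K₀ (lev K₀ K k') := by
    refine unrEv_const ?_
    rw [eq_top_iff]
    have halg : Algebra.IsAlgebraic k C := CE.alg (K₀ := K₀) (K := K)
    have h4 := adjoin_lev_eq_top k C K₀ K k'
    intro x _
    have hx : x ∈ Algebra.adjoin K₀ (Set.range (algebraMap k' (lev K₀ K k'))) := by
      rw [h4]; trivial
    have h5 : Algebra.adjoin K₀ (Set.range (algebraMap k' (lev K₀ K k'))) ≤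
        (IntermediateField.adjoin K₀ {x : lev K₀ K k' | IsIntegral k₀ x}).toSubalgebra := by
      rw [Algebra.adjoin_le_iff]
      rintro _ ⟨c, rfl⟩
      refine IntermediateField.subset_adjoin _ _ ?_
      have i1 : IsScalarTower k₀ k (lev K₀ K k') := IsScalarTower.of_algebraMap_eq fun r => by
        rw [IsScalarTower.algebraMap_apply k₀ K₀ (lev K₀ K k'),
          IsScalarTower.algebraMap_apply k K₀ (lev K₀ K k'),
          ← IsScalarTower.algebraMap_apply k₀ k K₀]
      have i2 : IsIntegral k (algebraMap k' (lev K₀ K k') c) :=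
        (Algebra.IsIntegral.isIntegral (R := k) c).map (IsScalarTower.toAlgHom k k' (lev K₀ K k'))
      exact isIntegral_trans (R := k₀) (A := k) _ i2
    exact h5 hx
  obtain ⟨a, ha⟩ := h3 v hv (w.comap (algebraMap (lev K₀ K k') K)) (by
    rw [← hw]; rfl) ⟨b, hb⟩
  exact ⟨a, ha⟩

end const

section desc

variable (k₀ k C K₀ K M L : Type*) [Field k₀] [Field k] [Field C] [Field K₀] [Field K] [Field M]
  [Field L]
  [Algebra k C] [Algebra k K₀] [Algebra C K] [Algebra K₀ K] [Algebra k K] [IsScalarTower k C K]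
  [IsScalarTower k K₀ K] [Algebra K L] [Algebra K₀ L] [Algebra C L] [Algebra k L]
  [IsScalarTower K₀ K L] [IsScalarTower C K L] [IsScalarTower k C L] [IsScalarTower k K₀ L]
  [IsScalarTower k K L]
  [Algebra K₀ M] [Algebra M L] [IsScalarTower K₀ M L] [Algebra k M] [IsScalarTower k K₀ M]
  [IsScalarTower k M L]
  [Algebra k₀ k] [Algebra.IsAlgebraic k₀ k] [Algebra k₀ K₀] [IsScalarTower k₀ k K₀]
  [CharZero k₀] [Algebra (RatFunc k₀) K₀] [IsScalarTower k₀ (RatFunc k₀) K₀]
  [FiniteDimensional (RatFunc k₀) K₀] [Algebra k₀ K] [IsScalarTower k₀ K₀ K]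
  [FiniteDimensional K₀ M]

/-- **(C3)** `L = M.C` over `K = K₀.C` is unramified iff `M/K₀` is (constants `k₀`) -/
theorem unrEv_iff [CE k C K₀ K] [CE k C M L] : UnrEv k₀ K₀ M ↔ UnrEv k₀ K L := by
  letI : Algebra k₀ M := ((algebraMap K₀ M).comp (algebraMap k₀ K₀)).toAlgebra
  haveI : IsScalarTower k₀ K₀ M := IsScalarTower.of_algebraMap_eq fun _ => rfl
  letI : Algebra (RatFunc k₀) M := ((algebraMap K₀ M).comp (algebraMap (RatFunc k₀) K₀)).toAlgebra
  haveI : IsScalarTower (RatFunc k₀) K₀ M := IsScalarTower.of_algebraMap_eq fun _ => rfl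
  haveI : IsScalarTower k₀ (RatFunc k₀) M := IsScalarTower.of_algebraMap_eq fun c => by
    change algebraMap K₀ M (algebraMap k₀ K₀ c) = algebraMap K₀ M (algebraMap (RatFunc k₀) K₀ _)
    rw [← IsScalarTower.algebraMap_apply k₀ (RatFunc k₀) K₀]
  haveI : FiniteDimensional (RatFunc k₀) M := FiniteDimensional.trans (RatFunc k₀) K₀ M
  haveI : IsScalarTower k₀ k M := IsScalarTower.of_algebraMap_eq fun c => by
    rw [IsScalarTower.algebraMap_apply k₀ K₀ M, IsScalarTower.algebraMap_apply k K₀ M,
      ← IsScalarTower.algebraMap_apply k₀ k K₀]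
  have halg : Algebra.IsAlgebraic M L := isAlgebraic k C M L
  have halg' : Algebra.IsAlgebraic K₀ K := isAlgebraic k C K₀ K
  constructor
  · intro h
    have h1 : UnrEv k₀ M L := unrEv_ce k₀ k C M L
    have h2 : UnrEv k₀ K₀ L := h.trans h1
    exact h2.tower_top
  · intro h
    have h1 : UnrEv k₀ K₀ K := unrEv_ce k₀ k C K₀ K
    have h2 : UnrEv k₀ K₀ L := h1.trans h
    exact unrEv_of_tower h2

end desc

section models

variable {k C K₀ K L : Type*} [Field k] [Field C] [Field K₀] [Field K] [Field L]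
  [Algebra k C] [Algebra k K₀] [Algebra C K] [Algebra K₀ K] [Algebra k K] [IsScalarTower k C K]
  [IsScalarTower k K₀ K] [Algebra K L] [Algebra K₀ L] [Algebra C L]
  [IsScalarTower K₀ K L] [IsScalarTower C K L]
  [CharZero k] [Algebra (RatFunc k) K₀] [IsScalarTower k (RatFunc k) K₀]
  [FiniteDimensional (RatFunc k) K₀] [FiniteDimensional K L]

/-- **(C3) for models**: `L/K` over `C` is everywhere unramified iff the model over `k'` is -/
theorem unrEv_model_iff [CE k C K₀ K] {k' : IntermediateField k C} [FiniteDimensional k k']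
    (M : IntermediateField (lev K₀ K k') L) (hM : CE k' C M L) :
    UnrEv k' (lev K₀ K k') M ↔ UnrEv C K L := by
  have hC : Algebra.IsAlgebraic k C := CE.alg (K₀ := K₀) (K := K)
  letI : Algebra k L := ((algebraMap K L).comp (algebraMap k K)).toAlgebra
  haveI : IsScalarTower k K L := IsScalarTower.of_algebraMap_eq fun _ => rfl
  haveI : IsScalarTower k C L := IsScalarTower.of_algebraMap_eq fun c => by
    rw [IsScalarTower.algebraMap_apply k K L, IsScalarTower.algebraMap_apply k C K,
      ← IsScalarTower.algebraMap_apply C K L]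
  haveI : FiniteDimensional K₀ (lev K₀ K k') :=
    (basisR k k' K₀ (lev K₀ K k') (finBasis k k')).finiteDimensional_of_finite
  letI : Algebra (RatFunc k) (lev K₀ K k') :=
    ((algebraMap K₀ (lev K₀ K k')).comp (algebraMap (RatFunc k) K₀)).toAlgebra
  haveI : IsScalarTower (RatFunc k) K₀ (lev K₀ K k') := IsScalarTower.of_algebraMap_eq fun _ => rfl
  haveI : IsScalarTower k (RatFunc k) (lev K₀ K k') := IsScalarTower.of_algebraMap_eq fun c => by
    change _ = algebraMap K₀ _ (algebraMap (RatFunc k) K₀ _)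
    rw [← IsScalarTower.algebraMap_apply k (RatFunc k) K₀,
      ← IsScalarTower.algebraMap_apply k K₀ (lev K₀ K k')]
  haveI : FiniteDimensional (RatFunc k) (lev K₀ K k') :=
    FiniteDimensional.trans (RatFunc k) K₀ (lev K₀ K k')
  haveI := finite_of_ce M hM
  have h1 : UnrEv k (lev K₀ K k') M ↔ UnrEv k K L :=
    unrEv_iff k k' C (lev K₀ K k') K M L
  rw [← unrEv_const_iff (k := k) (k₁ := k'), h1, unrEv_const_iff (k := k) (k₁ := C)]

end models

section ramification

variable {k K L : Type*} [Field k] [Field K] [Algebra k K] [Algebra (RatFunc k) K]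
  [IsScalarTower k (RatFunc k) K] [FiniteDimensional (RatFunc k) K]
  [Algebra.IsSeparable (RatFunc k) K] [Field L] [Algebra k L] [Algebra K L] [IsScalarTower k K L]
  [FiniteDimensional K L] [Algebra.IsSeparable K L]

/-- 948's ramification indices and 957's `UnrEv` -/
theorem eR_eq_one_iff_unrEv : (∀ Q : Pl k L, eR K Q = 1) ↔ UnrEv k K L := by
  letI : Algebra (RatFunc k) L := ((algebraMap K L).comp (algebraMap (RatFunc k) K)).toAlgebra
  haveI : IsScalarTower (RatFunc k) K L := IsScalarTower.of_algebraMap_eq fun _ => rfl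
  haveI : IsScalarTower k (RatFunc k) L := IsScalarTower.of_algebraMap_eq fun c => by
    change _ = algebraMap K _ (algebraMap (RatFunc k) K _)
    rw [← IsScalarTower.algebraMap_apply k (RatFunc k) K, ← IsScalarTower.algebraMap_apply k K L]
  haveI : FiniteDimensional (RatFunc k) L := FiniteDimensional.trans (RatFunc k) K L
  haveI : Algebra.IsSeparable (RatFunc k) L := Algebra.IsSeparable.trans (RatFunc k) K L
  rw [eR_eq_one_iff]
  constructor
  · intro h v hv w hw b
    have hwp : IsPlace k w := isPlace_of_comap (F := K) (by rw [hw]; exact hv)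
    by_cases hb : b = 0
    · exact ⟨0, by rw [hb, map_zero, map_zero]⟩
    · obtain ⟨a, ha⟩ := h w hwp (IsPlace.exists_pl hwp) b hb
      exact ⟨a, by rw [ha, ← hw]; rfl⟩
  · intro h w hw _ b _
    obtain ⟨a, ha⟩ := h _ (isPlace_comap (F := K) hw) w rfl b
    exact ⟨a, ha⟩

end ramification

end Crest.Agent.R013.DescC_116
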