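import Crest.Agent.R013.CB1f_903
import Crest.Agent.R013.DescC3_116

/-!
# Existence of the Kummer cover of a semistable structure (stage A2)
-/

set_option autoImplicit false
set_option linter.unusedSectionVars false

namespace Crest.Agent.R013.ExKum_903

open scoped NNReal
open WithZero Polynomial IntermediateField
open Crest.Agent.R013.RR7_948 Crest.Agent.R013.Red332 Crest.Agent.R013.GR3_921
open Crest.Agent.R013.RR11_948 Crest.Agent.R013.RR12_948 Crest.Agent.R013.RR18_948
open Crest.Agent.R013.Cell_408 (DiscNorm)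
open Crest.Agent.R013.SSK_332 Crest.Agent.R013.CB1_903
open Crest.Agent.R013.Inh_770 (Spl)

universe u

section Unr

variable {C K L : Type*} [Field C] [Field K] [Algebra C K]
  [Algebra (RatFunc C) K] [IsScalarTower C (RatFunc C) K] [FiniteDimensional (RatFunc C) K]
  [Algebra.IsSeparable (RatFunc C) K]
  [Field L] [Algebra C L] [Algebra K L] [IsScalarTower C K L] [FiniteDimensional K L]

theorem unrPl_iff_eR : UnrPl C K L ↔ ∀ Q : Pl C L, eR K Q = 1 := by
  refine forall_congr' fun Q => ⟨fun ⟨f, hf⟩ => ?_, fun h => ?_⟩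
  · have h1 := eR_pos (K := K) Q
    have hf0 : f ≠ 0 := by
      rintro rfl
      rw [map_zero, map_zero] at hf
      exact exp_ne_zero hf.symm
    have h2 : (under K Q).v f = exp (log ((under K Q).v f)) :=
      (exp_log ((Valuation.ne_zero_iff _).2 hf0)).symm
    have h3 := v_algebraMap_exp Q h2
    rw [hf, exp_inj] at h3
    have h4 : (eR K Q : ℤ) ∣ 1 := ⟨-log ((under K Q).v f), by linarith⟩
    have h5 := Int.natAbs_dvd_natAbs.2 h4
    simpa using h5
  · obtain ⟨t, -, ht⟩ := exists_v_eq (under K Q) (-1)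
    exact ⟨t, by rw [v_algebraMap_exp Q ht, h]; norm_num⟩

end Unr

section Zeta

variable {C K L : Type*} [Field C] [IsAlgClosed C] [Field K] [Algebra C K]
  [Field L] [Algebra C L] [Algebra K L] [IsScalarTower C K L]

/-- the Kummer character -/
theorem exists_zeta (N : ℕ) (hN : N ≠ 0) (h : K) (h0 : h ≠ 0) (y : L)
    (hy : y ^ N = algebraMap K L h) (htop : K⟮y⟯ = ⊤) [Algebra.IsAlgebraic K L] :
    ∃ ζ : (L ≃ₐ[K] L) →* Cˣ, Function.Injective ζ ∧ (∀ σ, ζ σ ^ N = 1) ∧
      ∀ σ, σ y = algebraMap C L (ζ σ) * y := by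
  have hy0 : y ≠ 0 := by
    rintro rfl
    rw [zero_pow hN] at hy
    exact h0 ((_root_.map_eq_zero _).1 hy.symm)
  have hex : ∀ σ : L ≃ₐ[K] L, ∃ c : C, algebraMap C L c = σ y / y := by
    intro σ
    refine exists_const_of_pow_eq_one N hN _ ?_
    rw [div_pow, ← map_pow, hy, AlgEquiv.commutes, div_self ((_root_.map_ne_zero _).2 h0)]
  choose z hz using hex
  have hzy : ∀ σ, σ y = algebraMap C L (z σ) * y := fun σ => by
    rw [hz, div_mul_cancel₀ _ hy0]
  have hσC : ∀ (σ : L ≃ₐ[K] L) (c : C), σ (algebraMap C L c) = algebraMap C L c := fun σ c => by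
    rw [IsScalarTower.algebraMap_apply C K L, AlgEquiv.commutes]
  have h1 : z 1 = 1 := by
    apply (algebraMap C L).injective
    rw [hz, AlgEquiv.one_apply, div_self hy0, map_one]
  have hmul : ∀ σ τ, z (σ * τ) = z σ * z τ := by
    intro σ τ
    apply (algebraMap C L).injective
    rw [hz, AlgEquiv.mul_apply, hzy τ, map_mul, hσC, hzy σ, map_mul]
    field_simp
  refine ⟨(MonoidHom.mk ⟨z, h1⟩ hmul).toHomUnits, ?_, ?_, ?_⟩
  · intro σ τ hστ
    have h2 : z σ = z τ := congrArg Units.val hστ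
    have h3 : ∀ x ∈ K⟮y⟯, σ x = τ x := by
      intro x hx
      have h4 : K⟮y⟯.toSubalgebra = Algebra.adjoin K {y} :=
        IntermediateField.adjoin_simple_toSubalgebra_of_isAlgebraic
          (Algebra.IsAlgebraic.isAlgebraic y)
      have h5 : x ∈ Algebra.adjoin K {y} := by rw [← h4]; exact hx
      have h6 : Algebra.adjoin K {y} ≤ AlgHom.equalizer (σ : L →ₐ[K] L) (τ : L →ₐ[K] L) := by
        rw [Algebra.adjoin_le_iff, Set.singleton_subset_iff]
        change σ y = τ y
        rw [hzy, hzy, h2]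
      exact h6 h5
    ext x
    exact h3 x (by rw [htop]; exact IntermediateField.mem_top)
  · intro σ
    ext
    rw [Units.val_pow_eq_pow_val, Units.val_one]
    apply (algebraMap C L).injective
    change algebraMap C L (z σ ^ N) = _
    rw [map_pow, hz, div_pow, ← map_pow, hy, AlgEquiv.commutes,
      div_self ((_root_.map_ne_zero _).2 h0), map_one]
  · intro σ
    exact hzy σ

theorem card_dvd_of_zeta [CharZero C] [FiniteDimensional K L] (N : ℕ) (hN : N ≠ 0)
    (ζ : (L ≃ₐ[K] L) →* Cˣ) (hinj : Function.Injective ζ) (hζ : ∀ σ, ζ σ ^ N = 1) :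
    Nat.card (L ≃ₐ[K] L) ∣ N ∧ IsCyclic (L ≃ₐ[K] L) := by
  have _ : NeZero N := ⟨hN⟩
  let f : (L ≃ₐ[K] L) →* rootsOfUnity N C :=
    { toFun := fun σ => ⟨ζ σ, (mem_rootsOfUnity N _).2 (hζ σ)⟩
      map_one' := Subtype.ext (map_one ζ)
      map_mul' := fun σ τ => Subtype.ext (map_mul ζ σ τ) }
  have hf : Function.Injective f := fun σ τ h => hinj (congrArg Subtype.val h)
  refine ⟨?_, isCyclic_of_injective f hf⟩
  have h1 := Subgroup.card_dvd_of_injective f hf
  have h2 : Nat.card (rootsOfUnity N C) = N := HasEnoughRootsOfUnity.natCard_rootsOfUnity C N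
  rwa [h2] at h1

end Zeta

section Main

variable {k C : Type*} [NontriviallyNormedField k] [CompleteSpace k] [IsUltrametricDist k]
  [NormedField C] [IsUltrametricDist C] [NormedAlgebra k C] [Algebra.IsAlgebraic k C]
  [IsAlgClosed C] [hk : Fact (DiscNorm k)] [CharZero C]

/-- **exists_kum**: the Kummer cover of a semistable structure -/
theorem exists_kum {K : Type u} [Field K] [Algebra C K] [Algebra (RatFunc C) K]
    [IsScalarTower C (RatFunc C) K] [FiniteDimensional (RatFunc C) K]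
    [Algebra.IsSeparable (RatFunc C) K] (S : SSK k C K) (N : ℕ) (hN : ‖(N : C)‖ = 1) (h : K)
    (h0 : h ≠ 0) (hdiv : ∀ P : Pl C K, ∃ m : ℤ, P.v h = exp ((N : ℤ) * m))
    (hod : ∀ d : S.Dir, ∃ m : ℤ, Red332.od (S.nm d.1) d.2 h = N * m) :
    ∃ (L : Type u) (_ : Field L) (_ : Algebra C L) (_ : Algebra K L) (_ : IsScalarTower C K L)
      (_ : FiniteDimensional K L) (_ : IsGalois K L) (y : L) (ζ : (L ≃ₐ[K] L) →* Cˣ),
      y ^ N = algebraMap K L h ∧ K⟮y⟯ = ⊤ ∧ Function.Injective ζ ∧ (∀ σ, ζ σ ^ N = 1) ∧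
      (∀ σ, σ y = algebraMap C L (ζ σ) * y) ∧ Module.finrank K L ∣ N ∧
      IsCyclic (L ≃ₐ[K] L) ∧ UnrPl C K L ∧ Unr10_957.UnrEv C K L ∧ Nonempty (Spl S L) := by
  have hN0 : N ≠ 0 := by
    rintro rfl
    rw [Nat.cast_zero, norm_zero] at hN
    exact zero_ne_one hN
  obtain ⟨L, _, _, _, _, _, _, y, hy, htop⟩ := exists_kummer (C := C) N hN0 h h0
  obtain ⟨ζ, hinj, hζ, hζy⟩ := exists_zeta (C := C) N hN0 h h0 y hy htop
  obtain ⟨hc, hcyc⟩ := card_dvd_of_zeta N hN0 ζ hinj hζ
  have hunr := unrPl_of_kummer N hN0 h hdiv y hy htop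
  have _ : CharZero K := charZero_of_injective_algebraMap (algebraMap C K).injective
  refine ⟨L, inferInstance, inferInstance, inferInstance, inferInstance, inferInstance,
    inferInstance, y, ζ, hy, htop, hinj, hζ, hζy, ?_, hcyc, hunr, ?_,
    InhK_275.spl_of_kummer S hN h0 hy htop hdiv hod⟩
  · rwa [← IsGalois.card_aut_eq_finrank]
  · exact DescC_116.eR_eq_one_iff_unrEv.1 (unrPl_iff_eR.1 hunr)

end Main

end Crest.Agent.R013.ExKum_903
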