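import Mathlib

/-!
# R013 / IDEM (helper398): the idempotent of `ℤ_p[A]` of the Frobenius orbit of a character

`k` field of characteristic `p`, `A` finite group of order prime to `p`, `χ : A →* kˣ`.
There is a convolution idempotent `c : A → ℤ_[p]`, `c ≠ 0`, killing every coset sum of a
subgroup on which `χ` is nontrivial, whose reduction mod `p` is
`|A|⁻¹ ∑_{j < f} χ(a)^(-p^j)`.
-/

set_option autoImplicit false
set_option linter.all false

namespace Crest.Agent.R013.Idem_398

open WittVector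

variable (p : ℕ) [hp : Fact p.Prime] (k : Type*) [Field k] [CharP k p]

/-- `ℤ_p → W(k)` -/
noncomputable def zw : ℤ_[p] →+* WittVector p k :=
  (WittVector.map (ZMod.castHom (dvd_refl p) k)).comp
    (WittVector.equiv p).symm.toRingHom

theorem zw_injective : Function.Injective (zw p k) := by
  unfold zw
  intro x y h
  apply (WittVector.equiv p).symm.injective
  exact WittVector.map_injective (p := p) _ (ZMod.castHom (dvd_refl p) k).injective h

/-- Frobenius fixed Witt vectors -/
theorem exists_zw {x : WittVector p k} (hx : WittVector.frobenius x = x) : ∃ z, zw p k z = x := by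
  have h1 : ∀ n, ∃ a : ZMod p, ZMod.castHom (dvd_refl p) k a = x.coeff n := by
    intro n
    have h2 : x.coeff n ^ p = x.coeff n := by
      rw [← WittVector.coeff_frobenius_charP, hx]
    have h3 : x.coeff n ∈ (⊥ : Subfield k) := (Subfield.mem_bot_iff_pow_eq_self k p).mpr h2
    rw [← ZMod.fieldRange_castHom_eq_bot p] at h3
    exact h3
  choose a ha using h1
  refine ⟨WittVector.equiv p (WittVector.mk p a), ?_⟩
  unfold zw
  rw [RingHom.comp_apply]
  have h2 : (WittVector.equiv p).symm.toRingHom (WittVector.equiv p (WittVector.mk p a)) =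
      WittVector.mk p a := (WittVector.equiv p).symm_apply_apply _
  rw [h2]
  ext n
  rw [WittVector.map_coeff, WittVector.coeff_mk, ha]

/-- ring homomorphisms from `ℤ_p` to a ring of characteristic `p` -/
theorem hom_eq (f : ℤ_[p] →+* k) (z : ℤ_[p]) :
    f z = ZMod.castHom (dvd_refl p) k (PadicInt.toZMod z) := by
  have h1 : z - (z.zmodRepr : ℤ_[p]) ∈ IsLocalRing.maximalIdeal ℤ_[p] := z.sub_zmodRepr_mem
  rw [PadicInt.maximalIdeal_eq_span_p, Ideal.mem_span_singleton] at h1
  obtain ⟨t, ht⟩ := h1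
  have h2 : z = (z.zmodRepr : ℤ_[p]) + p * t := by rw [← ht]; ring
  have h3 : f z = (z.zmodRepr : k) := by
    conv_lhs => rw [h2]
    rw [map_add, map_mul, map_natCast, map_natCast, CharP.cast_eq_zero k p, zero_mul, add_zero]
  rw [h3]
  have h4 : PadicInt.toZMod z = (z.zmodRepr : ZMod p) := rfl
  rw [h4, map_natCast]

variable {p k}

section char

variable {A : Type*} [Group A] [Fintype A]

/-- the period of the Frobenius orbit -/
theorem exists_period (hA : ¬ p ∣ Fintype.card A) (χ : A →* kˣ) :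
    ∃ f : ℕ, 0 < f ∧ (∀ a, χ a ^ p ^ f = χ a) ∧
      ∀ i < f, ∀ j < f, (∀ a, χ a ^ p ^ i = χ a ^ p ^ j) → i = j := by
  classical
  have hex : ∃ f : ℕ, 0 < f ∧ ∀ a, χ a ^ p ^ f = χ a := by
    refine ⟨(Fintype.card A).totient, Nat.totient_pos.mpr Fintype.card_pos, ?_⟩
    intro a
    have h1 : p ^ (Fintype.card A).totient ≡ 1 [MOD Fintype.card A] :=
      Nat.ModEq.pow_totient ((Nat.Prime.coprime_iff_not_dvd hp.out).mpr hA)
    have h2 : χ a ^ Fintype.card A = 1 := by rw [← map_pow, pow_card_eq_one, map_one]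
    have h3 : Fintype.card A ∣ p ^ (Fintype.card A).totient - 1 :=
      (Nat.modEq_iff_dvd' (Nat.one_le_pow _ _ hp.out.pos)).mp h1.symm
    obtain ⟨t, ht⟩ := h3
    have h4 : p ^ (Fintype.card A).totient = Fintype.card A * t + 1 := by
      have := Nat.one_le_pow (Fintype.card A).totient p hp.out.pos
      omega
    rw [h4, pow_add, pow_mul, h2, one_pow, one_mul, pow_one]
  refine ⟨Nat.find hex, (Nat.find_spec hex).1, (Nat.find_spec hex).2, ?_⟩
  -- injectivity of Frobenius
  have hinj : ∀ (i : ℕ) (x y : kˣ), x ^ p ^ i = y ^ p ^ i → x = y := by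
    intro i x y h
    apply Units.ext
    have h1 : ((x : k) - y) ^ p ^ i = 0 := by
      rw [sub_pow_char_pow]
      have h2 := congrArg (fun z : kˣ => (z : k)) h
      simp only [Units.val_pow_eq_pow_val] at h2
      rw [h2, sub_self]
    exact sub_eq_zero.mp ((pow_eq_zero_iff (pow_ne_zero _ hp.out.ne_zero)).mp h1)
  have key : ∀ i j, i < j → j < Nat.find hex → ¬ ∀ a, χ a ^ p ^ i = χ a ^ p ^ j := by
    intro i j hij hj h
    apply Nat.find_min hex (m := j - i) (by omega)
    refine ⟨by omega, fun a => ?_⟩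
    apply hinj i
    rw [← pow_mul, ← pow_add, Nat.sub_add_cancel hij.le]
    exact (h a).symm
  intro i hi j hj h
  rcases lt_trichotomy i j with h1 | h1 | h1
  · exact absurd h (key i j h1 hj)
  · exact h1
  · exact absurd (fun a => (h a).symm) (key j i h1 hi)

/-- the Teichmüller character -/
noncomputable def tch (p : ℕ) [Fact p.Prime] {k : Type*} [Field k] [CharP k p]
    {A : Type*} [Group A] (χ : A →* kˣ) : A →* WittVector p k :=
  (WittVector.teichmuller p).comp ((Units.coeHom k).comp χ)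

theorem tch_apply (χ : A →* kˣ) (a : A) :
    tch p χ a = WittVector.teichmuller p ((χ a : kˣ) : k) := rfl

theorem tch_pow (χ : A →* kˣ) (a : A) (n : ℕ) :
    tch p χ a ^ n = WittVector.teichmuller p (((χ a) ^ n : kˣ) : k) := by
  rw [tch_apply, ← map_pow, Units.val_pow_eq_pow_val]

theorem teich_inj {x y : k} (h : WittVector.teichmuller p x = WittVector.teichmuller p y) :
    x = y := by
  rw [← WittVector.teichmuller_coeff_zero p x, h, WittVector.teichmuller_coeff_zero]

theorem frob_tch (χ : A →* kˣ) (a : A) (j : ℕ) :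
    WittVector.frobenius (tch p χ a ^ p ^ j) = tch p χ a ^ p ^ (j + 1) := by
  rw [tch_pow, tch_pow, WittVector.frobenius_eq_map_frobenius, WittVector.map_teichmuller,
    frobenius_def, pow_succ, pow_mul (χ a), Units.val_pow_eq_pow_val _ p]

/-- orthogonality on a subgroup -/
theorem sum_eq_zero {B : Type*} [Group B] [Fintype B] (φ : B →* WittVector p k)
    (h : ∃ b, φ b ≠ 1) : ∑ b, φ b = 0 := by
  apply sum_hom_units_eq_zero
  rintro rfl
  obtain ⟨b, hb⟩ := h
  exact hb rfl

/-- the convolution computation, in any commutative ring -/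
theorem conv_idem {R : Type*} [CommRing R] {A : Type*} [Group A] [Fintype A] (ψ : A →* R) (r : R)
    (q : ℕ → ℕ) (f : ℕ) (hr : (Fintype.card A : R) * r = 1)
    (hd : ∀ i < f, ∀ j < f, i ≠ j → ∑ b, ψ b⁻¹ ^ q i * ψ b ^ q j = 0)
    (hs : ∀ i, ∑ b : A, ψ b⁻¹ ^ q i * ψ b ^ q i = (Fintype.card A : R)) (a : A) :
    ∑ b, (r * ∑ j ∈ Finset.range f, ψ b⁻¹ ^ q j) *
      (r * ∑ j ∈ Finset.range f, ψ (b⁻¹ * a)⁻¹ ^ q j) =
      r * ∑ j ∈ Finset.range f, ψ a⁻¹ ^ q j := by
  classical
  have h1 : ∀ b, (r * ∑ j ∈ Finset.range f, ψ b⁻¹ ^ q j) *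
      (r * ∑ j ∈ Finset.range f, ψ (b⁻¹ * a)⁻¹ ^ q j) = r * r *
      ∑ j ∈ Finset.range f, ∑ i ∈ Finset.range f,
        ψ a⁻¹ ^ q j * (ψ b⁻¹ ^ q i * ψ b ^ q j) := by
    intro b
    rw [mul_mul_mul_comm, Finset.sum_mul_sum, Finset.sum_comm]
    congr 1
    refine Finset.sum_congr rfl fun j _ => Finset.sum_congr rfl fun i _ => ?_
    rw [mul_inv_rev, inv_inv, map_mul, mul_pow]
    ring
  rw [Finset.sum_congr rfl fun b _ => h1 b, ← Finset.mul_sum, Finset.sum_comm]
  have h2 : ∀ j ∈ Finset.range f, ∑ b, ∑ i ∈ Finset.range f,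
        ψ a⁻¹ ^ q j * (ψ b⁻¹ ^ q i * ψ b ^ q j) =
      ψ a⁻¹ ^ q j * (Fintype.card A : R) := by
    intro j hj
    rw [Finset.sum_comm]
    rw [Finset.sum_eq_single j]
    · rw [← Finset.mul_sum, hs]
    · intro i hi hij
      rw [← Finset.mul_sum, hd i (Finset.mem_range.mp hi) j (Finset.mem_range.mp hj) hij,
        mul_zero]
    · intro h
      exact absurd hj h
  rw [Finset.sum_congr rfl h2, ← Finset.sum_mul]
  have h3 : r * r * ((∑ j ∈ Finset.range f, ψ a⁻¹ ^ q j) * (Fintype.card A : R)) =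
      ((Fintype.card A : R) * r) * (r * ∑ j ∈ Finset.range f, ψ a⁻¹ ^ q j) := by ring
  rw [h3, hr, one_mul]

/-- coset sums, in any commutative ring -/
theorem coset_sum {R : Type*} [CommRing R] {A : Type*} [Group A] (ψ : A →* R) (r : R)
    (q : ℕ → ℕ) (f : ℕ) (B : Subgroup A) [Fintype B] (h : ∀ j, ∑ b : B, ψ b ^ q j = 0) (a : A) :
    ∑ b : B, (r * ∑ j ∈ Finset.range f, ψ (a * b)⁻¹ ^ q j) = 0 := by
  rw [← Finset.mul_sum, Finset.sum_comm]
  rw [Finset.sum_eq_zero, mul_zero]
  intro j _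
  have h1 : ∀ b : B, ψ (a * b)⁻¹ ^ q j = ψ a⁻¹ ^ q j * ψ (b⁻¹ : B) ^ q j := by
    intro b
    rw [mul_inv_rev, map_mul, mul_pow, mul_comm]
    rfl
  rw [Finset.sum_congr rfl fun b _ => h1 b, ← Finset.mul_sum]
  have h2 : ∑ b : B, ψ (b⁻¹ : B) ^ q j = ∑ b : B, ψ b ^ q j :=
    Fintype.sum_equiv (Equiv.inv B) _ _ fun b => rfl
  rw [h2, h, mul_zero]

/-- **IDEM** -/
theorem exists_idem (hA : ¬ p ∣ Fintype.card A) (χ : A →* kˣ) :
    ∃ (c : A → ℤ_[p]) (f : ℕ), 0 < f ∧ (Fintype.card A : ℤ_[p]) * c 1 = f ∧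
      (∀ a, ∑ b, c b * c (b⁻¹ * a) = c a) ∧ (∀ a b, c (a * b) = c (b * a)) ∧
      (∀ (B : Subgroup A) [Fintype B], (∃ b ∈ B, χ b ≠ 1) →
        ∀ a, ∑ b : B, c (a * b) = 0) ∧
      (∀ a, ZMod.castHom (dvd_refl p) k (PadicInt.toZMod (c a)) =
        (Fintype.card A : k)⁻¹ * ∑ j ∈ Finset.range f, (((χ a)⁻¹ : kˣ) : k) ^ p ^ j) := by
  classical
  obtain ⟨f, hf0, hf1, hf2⟩ := exists_period hA χ
  have hunit : IsUnit ((Fintype.card A : ℕ) : ℤ_[p]) := by
    rw [PadicInt.isUnit_iff, PadicInt.norm_natCast_eq_one_iff]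
    exact ((Nat.Prime.coprime_iff_not_dvd hp.out).mpr hA)
  obtain ⟨r, hr⟩ := hunit.exists_right_inv
  have hrW : (Fintype.card A : WittVector p k) * zw p k r = 1 := by
    rw [← map_natCast (zw p k), ← map_mul, hr, map_one]
  -- the idempotent in `W(k)`
  set e : A → WittVector p k := fun a =>
    zw p k r * ∑ j ∈ Finset.range f, tch p χ a⁻¹ ^ p ^ j with he
  have hper : ∀ a, tch p χ a ^ p ^ f = tch p χ a := by
    intro a
    rw [tch_pow, hf1, tch_apply]
  have hfrob : ∀ a, WittVector.frobenius (e a) = e a := by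
    intro a
    rw [he]
    simp only
    rw [map_mul, map_sum]
    have h1 : WittVector.frobenius (zw p k r) = zw p k r := by
      unfold zw
      rw [RingHom.comp_apply, WittVector.frobenius_eq_map_frobenius]
      ext n
      rw [WittVector.map_coeff, WittVector.map_coeff, frobenius_def, ← map_pow, ZMod.pow_card]
    rw [h1]
    congr 1
    rw [Finset.sum_congr rfl fun j _ => frob_tch χ a⁻¹ j]
    have h2 := Finset.sum_range_succ (fun j => tch p χ a⁻¹ ^ p ^ j) f
    have h3 := Finset.sum_range_succ' (fun j => tch p χ a⁻¹ ^ p ^ j) f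
    rw [h3, hper a⁻¹, pow_zero, pow_one] at h2
    exact add_right_cancel h2
  have hexc : ∀ a, ∃ z, zw p k z = e a := fun a => exists_zw p k (hfrob a)
  choose c hc using hexc
  -- distinct powers are distinct characters
  have hdist : ∀ i < f, ∀ j < f, i ≠ j → ∑ b, tch p χ b⁻¹ ^ p ^ i * tch p χ b ^ p ^ j = 0 := by
    intro i hi j hj hij
    have hex : ∃ a, χ a ^ p ^ i ≠ χ a ^ p ^ j := by
      by_contra h
      push Not at h
      exact hij (hf2 i hi j hj h)
    let φ : A →* kˣ :=
      { toFun := fun b => (χ b)⁻¹ ^ p ^ i * χ b ^ p ^ j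
        map_one' := by simp
        map_mul' := fun x y => by
          rw [map_mul, mul_inv, mul_pow, mul_pow]
          exact mul_mul_mul_comm _ _ _ _ }
    have h1 : ∀ b, tch p χ b⁻¹ ^ p ^ i * tch p χ b ^ p ^ j = tch p φ b := by
      intro b
      rw [tch_pow, tch_pow, tch_apply, ← map_mul, ← Units.val_mul, map_inv]
      rfl
    rw [Finset.sum_congr rfl fun b _ => h1 b]
    apply sum_eq_zero
    obtain ⟨a, ha⟩ := hex
    refine ⟨a, fun h => ha ?_⟩
    rw [tch_apply, ← (WittVector.teichmuller p).map_one] at h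
    have h2 : φ a = 1 := Units.ext (teich_inj h)
    have h3 : (χ a)⁻¹ ^ p ^ i * χ a ^ p ^ j = 1 := h2
    rw [inv_pow, inv_mul_eq_one] at h3
    exact h3
  have hsame : ∀ i, ∑ b : A, tch p χ b⁻¹ ^ p ^ i * tch p χ b ^ p ^ i =
      (Fintype.card A : WittVector p k) := by
    intro i
    have h1 : ∀ b : A, tch p χ b⁻¹ ^ p ^ i * tch p χ b ^ p ^ i = 1 := by
      intro b
      rw [← mul_pow, ← map_mul, inv_mul_cancel, map_one, one_pow]
    rw [Finset.sum_congr rfl fun b _ => h1 b]
    simp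
  refine ⟨c, f, hf0, ?_, ?_, ?_, ?_, ?_⟩
  · -- value at 1
    apply zw_injective p k
    rw [map_mul, hc, map_natCast, map_natCast, he]
    simp only
    rw [← mul_assoc, hrW, one_mul, inv_one, map_one]
    simp
  · -- idempotent
    intro a
    apply zw_injective p k
    rw [map_sum, hc, Finset.sum_congr rfl fun b _ => (by rw [map_mul, hc, hc] :
      zw p k (c b * c (b⁻¹ * a)) = e b * e (b⁻¹ * a))]
    exact conv_idem (tch p χ) (zw p k r) (fun j => p ^ j) f hrW hdist hsame a
  · -- class function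
    intro a b
    apply zw_injective p k
    rw [hc, hc, he]
    simp only
    rw [mul_inv_rev, mul_inv_rev, map_mul, map_mul, mul_comm (tch p χ b⁻¹)]
  · -- subgroups
    intro B _ hB a
    obtain ⟨b₀, hb₀, hb₁⟩ := hB
    apply zw_injective p k
    rw [map_zero, map_sum, Finset.sum_congr rfl fun (b : B) _ => hc (a * b)]
    refine coset_sum (tch p χ) (zw p k r) (fun j => p ^ j) f B (fun j => ?_) a
    refine sum_eq_zero ((powMonoidHom (p ^ j)).comp ((tch p χ).comp B.subtype)) ?_
    refine ⟨⟨b₀, hb₀⟩, fun h => hb₁ ?_⟩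
    have h3 : tch p χ b₀ ^ p ^ j = 1 := h
    rw [tch_pow, ← (WittVector.teichmuller p).map_one] at h3
    have h4 := teich_inj h3
    apply Units.ext
    have h5 : ((χ b₀ : kˣ) : k) ^ p ^ j = 1 := by
      rw [← Units.val_pow_eq_pow_val, h4]
    have h6 : (((χ b₀ : kˣ) : k) - 1) ^ p ^ j = 0 := by
      rw [sub_pow_char_pow, h5, one_pow, sub_self]
    rw [Units.val_one]
    exact sub_eq_zero.mp ((pow_eq_zero_iff (pow_ne_zero _ hp.out.ne_zero)).mp h6)
  · -- reduction
    intro a
    have h1 := hom_eq p k ((WittVector.constantCoeff).comp (zw p k)) (c a)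
    rw [← h1, RingHom.comp_apply, hc, he]
    simp only
    rw [map_mul, map_sum]
    congr 1
    · have h2 : (Fintype.card A : k) * WittVector.constantCoeff (zw p k r) = 1 := by
        have := congrArg WittVector.constantCoeff hrW
        rwa [map_mul, map_natCast, map_one] at this
      exact eq_inv_of_mul_eq_one_right h2
    · refine Finset.sum_congr rfl fun j _ => ?_
      rw [tch_pow, map_inv, Units.val_pow_eq_pow_val]
      exact WittVector.teichmuller_coeff_zero p _

end char

end Crest.Agent.R013.Idem_398
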