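import Mathlib

/-!
R013 / HENS, part 1 (helper899): conjugacy of extensions of a valuation (any value group).
-/

set_option autoImplicit false

namespace Crest.Agent.R013.Hens_899

open Polynomial

section Basic

variable {K N : Type*} [Field K] [Field N] [Algebra K N]
variable {Γ : Type*} [LinearOrderedCommGroupWithZero Γ]

/-- every automorphism of an algebraic extension has finite orbits -/
theorem exists_pow_fix [Algebra.IsAlgebraic K N] (g : N ≃ₐ[K] N) (x : N) :
    ∃ n : ℕ, 0 < n ∧ (g ^ n) x = x := by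
  classical
  have hx : IsIntegral K x := (Algebra.IsAlgebraic.isAlgebraic x).isIntegral
  have hroot : ∀ n : ℕ, (g ^ n) x ∈ ((minpoly K x).aroots N).toFinset := by
    intro n
    rw [Multiset.mem_toFinset, mem_aroots]
    refine ⟨minpoly.ne_zero hx, ?_⟩
    have h1 : aeval ((g ^ n) x) (minpoly K x) = (g ^ n) (aeval x (minpoly K x)) :=
      aeval_algHom_apply ((g ^ n : N ≃ₐ[K] N) : N →ₐ[K] N) x (minpoly K x)
    rw [h1, minpoly.aeval, map_zero]
  obtain ⟨i, j, hij, h⟩ := Finite.exists_ne_map_eq_of_infinite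
    (fun n : ℕ => (⟨(g ^ n) x, hroot n⟩ : {y // y ∈ ((minpoly K x).aroots N).toFinset}))
  have key : ∀ i j : ℕ, i < j → (g ^ i) x = (g ^ j) x → ∃ n : ℕ, 0 < n ∧ (g ^ n) x = x := by
    intro i j hij h
    refine ⟨j - i, Nat.sub_pos_of_lt hij, ?_⟩
    have h2 : (g ^ i) ((g ^ (j - i)) x) = (g ^ i) x := by
      rw [← AlgEquiv.mul_apply, ← pow_add, Nat.add_sub_cancel' hij.le, h]
    exact (g ^ i).injective h2
  have h' : (g ^ i) x = (g ^ j) x := congrArg Subtype.val h
  rcases lt_or_gt_of_ne hij with h1 | h1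
  · exact key i j h1 h'
  · exact key j i h1 h'.symm

/-- if the valuation ring is mapped into itself, the valuation is preserved -/
theorem eq_of_le_one_imp [Algebra.IsAlgebraic K N] (w : Valuation N Γ) (g : N ≃ₐ[K] N)
    (h : ∀ x, w x ≤ 1 → w (g x) ≤ 1) (x : N) : w (g x) = w x := by
  have mono : ∀ a b : N, w a ≤ w b → w (g a) ≤ w (g b) := by
    intro a b hab
    by_cases hb : b = 0
    · subst hb
      rw [map_zero, le_zero_iff, map_eq_zero] at hab
      subst hab; rfl
    · have hb' : w b ≠ 0 := (Valuation.ne_zero_iff w).2 hb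
      have hgb : w (g b) ≠ 0 := (Valuation.ne_zero_iff w).2 ((_root_.map_ne_zero g).2 hb)
      have h1 : w (a / b) ≤ 1 := by
        rw [map_div₀]; exact (div_le_one₀ (zero_lt_iff.2 hb')).2 hab
      have h2 := h _ h1
      rw [map_div₀, map_div₀] at h2
      exact (div_le_one₀ (zero_lt_iff.2 hgb)).1 h2
  obtain ⟨n, hn, hgn⟩ := exists_pow_fix g x
  apply le_antisymm
  · by_contra hlt
    rw [not_le] at hlt
    have : ∀ k : ℕ, w (g x) ≤ w ((g ^ (k + 1)) x) := by
      intro k
      induction k with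
      | zero => simp
      | succ k ih =>
        have h3 : w x ≤ w ((g ^ (k + 1)) x) := hlt.le.trans ih
        have h4 := mono _ _ h3
        rwa [← AlgEquiv.mul_apply, ← pow_succ'] at h4
    have h5 := this (n - 1)
    rw [Nat.sub_add_cancel hn, hgn] at h5
    exact absurd hlt (not_lt.2 h5)
  · by_contra hlt
    rw [not_le] at hlt
    have : ∀ k : ℕ, w ((g ^ (k + 1)) x) ≤ w (g x) := by
      intro k
      induction k with
      | zero => simp
      | succ k ih =>
        have h3 : w ((g ^ (k + 1)) x) ≤ w x := ih.trans hlt.le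
        have h4 := mono _ _ h3
        rwa [← AlgEquiv.mul_apply, ← pow_succ'] at h4
    have h5 := this (n - 1)
    rw [Nat.sub_add_cancel hn, hgn] at h5
    exact absurd hlt (not_lt.2 h5)

/-- **Denominators.**  For `x` algebraic over `K` with `w x ≤ 1` there is `s ∈ K[x]` with `w s = 1`
such that `s` and `s x` lie in every valuation ring of `N` which contains `O_w ∩ K`. -/
theorem exists_denom (w : Valuation N Γ) {x : N} (hx : IsAlgebraic K x) (hx1 : w x ≤ 1) :
    ∃ s : N, s ∈ Algebra.adjoin K {x} ∧ w s = 1 ∧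
      ∀ V : ValuationSubring N, (∀ a : K, w (algebraMap K N a) ≤ 1 → algebraMap K N a ∈ V) →
        s ∈ V ∧ s * x ∈ V := by
  classical
  obtain ⟨P, hP0, hPx⟩ := hx
  -- index of a coefficient with maximal value, the largest possible one
  have hne : P.support.Nonempty := by
    rwa [Finset.nonempty_iff_ne_empty, Ne, Polynomial.support_eq_empty]
  obtain ⟨i₀, hi₀, hmax⟩ := P.support.exists_max_image
    (fun i => w (algebraMap K N (P.coeff i))) hne
  set M : Γ := w (algebraMap K N (P.coeff i₀)) with hM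
  have hM0 : M ≠ 0 := by
    rw [hM, Valuation.ne_zero_iff]
    exact (_root_.map_ne_zero _).2 (Polynomial.mem_support_iff.1 hi₀)
  have hle : ∀ i, w (algebraMap K N (P.coeff i)) ≤ M := by
    intro i
    by_cases hi : i ∈ P.support
    · exact hmax i hi
    · rw [Polynomial.notMem_support_iff.1 hi, map_zero, map_zero]; exact zero_le
  set T : Finset ℕ := P.support.filter (fun i => w (algebraMap K N (P.coeff i)) = M) with hT
  have hTne : T.Nonempty := ⟨i₀, by rw [hT, Finset.mem_filter]; exact ⟨hi₀, rfl⟩⟩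
  set j := T.max' hTne with hj
  have hjT : j ∈ T := T.max'_mem hTne
  have hjT' : j ∈ P.support ∧ w (algebraMap K N (P.coeff j)) = M := by
    have h := hjT
    rw [hT] at h
    exact Finset.mem_filter.1 h
  have hjM : w (algebraMap K N (P.coeff j)) = M := hjT'.2
  have hjn : j ≤ P.natDegree := Polynomial.le_natDegree_of_mem_supp j hjT'.1
  have hlt : ∀ i, j < i → w (algebraMap K N (P.coeff i)) < M := by
    intro i hi
    refine lt_of_le_of_ne (hle i) fun h => ?_
    have hiT : i ∈ T := by
      rw [hT, Finset.mem_filter]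
      refine ⟨?_, h⟩
      rw [Polynomial.mem_support_iff]
      intro h0
      rw [h0, map_zero, map_zero] at h
      exact hM0 h.symm
    exact absurd (T.le_max' i hiT) (not_le.2 hi)
  set c : K := P.coeff j with hc
  have hc0 : c ≠ 0 := by
    intro h0
    rw [h0, map_zero, map_zero] at hjM
    exact hM0 hjM.symm
  set q : ℕ → K := fun i => P.coeff i / c with hq
  have hwq : ∀ i, w (algebraMap K N (q i)) ≤ 1 := by
    intro i
    rw [hq]; simp only
    rw [map_div₀, map_div₀, hjM]
    exact (div_le_one₀ (zero_lt_iff.2 hM0)).2 (hle i)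
  have hwq1 : ∀ i, j < i → w (algebraMap K N (q i)) < 1 := by
    intro i hi
    rw [hq]; simp only
    rw [map_div₀, map_div₀, hjM]
    exact (div_lt_one₀ (zero_lt_iff.2 hM0)).2 (hlt i hi)
  have hqj : q j = 1 := by rw [hq]; simp only; exact div_self hc0
  -- the relation
  have hrel : ∑ i ∈ Finset.range (P.natDegree + 1), algebraMap K N (q i) * x ^ i = 0 := by
    have h1 : aeval x P = ∑ i ∈ Finset.range (P.natDegree + 1),
        algebraMap K N (P.coeff i) * x ^ i := by
      rw [aeval_eq_sum_range]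
      exact Finset.sum_congr rfl fun i _ => by rw [Algebra.smul_def]
    have h2 : (algebraMap K N c) *
        ∑ i ∈ Finset.range (P.natDegree + 1), algebraMap K N (q i) * x ^ i = 0 := by
      rw [Finset.mul_sum, ← hPx, h1]
      refine Finset.sum_congr rfl fun i _ => ?_
      rw [← mul_assoc, ← map_mul, hq]
      simp only
      rw [mul_div_cancel₀ _ hc0]
    exact (mul_eq_zero.1 h2).resolve_left ((_root_.map_ne_zero _).2 hc0)
  set m := P.natDegree + 1 - j with hm
  set s : N := ∑ k ∈ Finset.range m, algebraMap K N (q (j + k)) * x ^ k with hs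
  have hsplit : ∑ i ∈ Finset.range j, algebraMap K N (q i) * x ^ i + x ^ j * s = 0 := by
    rw [← hrel, ← Finset.sum_range_add_sum_Ico _ (show j ≤ P.natDegree + 1 by omega),
      Finset.sum_Ico_eq_sum_range, ← hm]
    congr 1
    rw [hs, Finset.mul_sum]
    refine Finset.sum_congr rfl fun k _ => ?_
    rw [pow_add]; ring
  refine ⟨s, ?_, ?_, ?_⟩
  · rw [hs]
    refine Subalgebra.sum_mem _ fun k _ => ?_
    exact mul_mem (Subalgebra.algebraMap_mem _ _)
      (pow_mem (Algebra.subset_adjoin (Set.mem_singleton x)) k)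
  · have hm1 : m = (m - 1) + 1 := by omega
    have h1 : s = 1 + ∑ k ∈ Finset.range (m - 1), algebraMap K N (q (j + (k + 1))) * x ^ (k + 1) := by
      rw [hs, hm1, Finset.sum_range_succ', Nat.add_sub_cancel, add_comm, add_zero, hqj, map_one,
        pow_zero, mul_one]
    have h2 : w (∑ k ∈ Finset.range (m - 1), algebraMap K N (q (j + (k + 1))) * x ^ (k + 1)) < 1 := by
      refine Valuation.map_sum_lt w one_ne_zero fun k _ => ?_
      rw [map_mul, map_pow]
      calc w (algebraMap K N (q (j + (k + 1)))) * w x ^ (k + 1)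
          ≤ w (algebraMap K N (q (j + (k + 1)))) * 1 := by
            exact mul_le_mul_right (pow_le_one' hx1 _) _
        _ < 1 := by rw [mul_one]; exact hwq1 _ (by omega)
    rw [h1, Valuation.map_add_eq_of_lt_left w (by rw [map_one]; exact h2), map_one]
  · intro V hV
    have hqV : ∀ i, algebraMap K N (q i) ∈ V := fun i => hV _ (hwq i)
    rcases V.mem_or_inv_mem x with hxV | hxV
    · have h1 : s ∈ V := by
        rw [hs]
        exact sum_mem fun k _ => mul_mem (hqV _) (pow_mem hxV k)
      exact ⟨h1, mul_mem h1 hxV⟩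
    · by_cases hx0 : x = 0
      · have hxV' : x ∈ V := by rw [hx0]; exact zero_mem V
        have h1 : s ∈ V := by
          rw [hs]
          exact sum_mem fun k _ => mul_mem (hqV _) (pow_mem hxV' k)
        exact ⟨h1, mul_mem h1 hxV'⟩
      · have h1 : s = - ∑ i ∈ Finset.range j, algebraMap K N (q i) * (x⁻¹) ^ (j - i) := by
          have h2 : x ^ j * s = - ∑ i ∈ Finset.range j, algebraMap K N (q i) * x ^ i := by
            linear_combination hsplit
          have h3 : x ^ j * (- ∑ i ∈ Finset.range j, algebraMap K N (q i) * (x⁻¹) ^ (j - i)) =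
              - ∑ i ∈ Finset.range j, algebraMap K N (q i) * x ^ i := by
            rw [mul_neg, Finset.mul_sum]
            congr 1
            refine Finset.sum_congr rfl fun i hi => ?_
            have hij : i ≤ j := (Finset.mem_range.1 hi).le
            have h4 : x ^ j = x ^ i * x ^ (j - i) := by rw [← pow_add, Nat.add_sub_cancel' hij]
            rw [h4, inv_pow]
            field_simp
          exact mul_left_cancel₀ (pow_ne_zero j hx0) (h2.trans h3.symm)
        have h5 : s * x = - ∑ i ∈ Finset.range j, algebraMap K N (q i) * (x⁻¹) ^ (j - i - 1) := by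
          rw [h1, neg_mul, Finset.sum_mul]
          congr 1
          refine Finset.sum_congr rfl fun i hi => ?_
          have hij : i < j := Finset.mem_range.1 hi
          have h6 : (x⁻¹) ^ (j - i) = (x⁻¹) ^ (j - i - 1) * x⁻¹ := by
            rw [← pow_succ]; congr 1; omega
          rw [h6, mul_assoc, mul_assoc, inv_mul_cancel₀ hx0, mul_one]
        constructor
        · rw [h1]
          exact neg_mem (sum_mem fun i _ => mul_mem (hqV _) (pow_mem hxV _))
        · rw [h5]
          exact neg_mem (sum_mem fun i _ => mul_mem (hqV _) (pow_mem hxV _))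

/-- **Separation.**  If `O_{w₂} ⊄ O_{v_i}` for finitely many valuations `v_i` whose rings contain
`O_{w₂} ∩ K`, there is `b` with `w₂ b = 1`, `v_i b < 1` for all `i`. -/
theorem exists_sep [Algebra.IsAlgebraic K N] {Γ' : Type*} [LinearOrderedCommGroupWithZero Γ']
    {ι : Type*} [Finite ι] (w : Valuation N Γ) (v : ι → Valuation N Γ')
    (hv : ∀ i (a : K), w (algebraMap K N a) ≤ 1 → v i (algebraMap K N a) ≤ 1)
    (hu : ∀ i, ∃ u, w u ≤ 1 ∧ 1 < v i u) :
    ∃ b : N, w b = 1 ∧ (∀ i, v i b < 1) ∧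
      ∀ V : ValuationSubring N, (∀ a : K, w (algebraMap K N a) ≤ 1 → algebraMap K N a ∈ V) →
        b ∈ V := by
  classical
  have := Fintype.ofFinite ι
  have h1 : ∀ i, ∃ s : N, w s = 1 ∧ v i s < 1 ∧
      ∀ V : ValuationSubring N, (∀ a : K, w (algebraMap K N a) ≤ 1 → algebraMap K N a ∈ V) →
        s ∈ V := by
    intro i
    obtain ⟨u, hu1, hu2⟩ := hu i
    obtain ⟨s, -, hs1, hs2⟩ := exists_denom (K := K) w (Algebra.IsAlgebraic.isAlgebraic u) hu1
    refine ⟨s, hs1, ?_, fun V hV => (hs2 V hV).1⟩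
    have h2 : s * u ∈ (v i).valuationSubring :=
      (hs2 _ fun a ha => (Valuation.mem_valuationSubring_iff _ _).2 (hv i a ha)).2
    rw [Valuation.mem_valuationSubring_iff, map_mul] at h2
    have hu0 : 0 < v i u := lt_trans zero_lt_one hu2
    by_contra h3
    rw [not_lt] at h3
    have h4 : 1 < v i s * v i u := by
      calc (1 : Γ') < v i u := hu2
        _ = 1 * v i u := (one_mul _).symm
        _ ≤ v i s * v i u := by gcongr
    exact absurd h2 (not_le.2 h4)
  choose s hs1 hs2 hs3 using h1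
  refine ⟨∏ i, s i, ?_, fun i => ?_, fun V hV => ?_⟩
  · rw [map_prod]
    exact Finset.prod_eq_one fun i _ => hs1 i
  · rw [map_prod, ← Finset.mul_prod_erase Finset.univ (fun j => v i (s j)) (Finset.mem_univ i)]
    have h5 : ∏ j ∈ Finset.univ.erase i, v i (s j) ≤ 1 := by
      refine Finset.prod_le_one' fun j _ => ?_
      exact (Valuation.mem_valuationSubring_iff _ _).1
        (hs3 j _ fun a ha => (Valuation.mem_valuationSubring_iff _ _).2 (hv i a ha))
    calc v i (s i) * ∏ j ∈ Finset.univ.erase i, v i (s j) ≤ v i (s i) * 1 := by gcongr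
      _ < 1 := by rw [mul_one]; exact hs2 i
  · exact prod_mem fun i _ => hs3 i V hV

/-- coefficients of `∏ (X - r_i)` with all `w r_i < 1` -/
theorem coeff_prod_lt {ι : Type*} (w : Valuation N Γ) (s : Finset ι) (r : ι → N)
    (h : ∀ i ∈ s, w (r i) < 1) :
    (∀ j, w ((∏ i ∈ s, (X - C (r i))).coeff j) ≤ 1) ∧
      ∀ j < s.card, w ((∏ i ∈ s, (X - C (r i))).coeff j) < 1 := by
  classical
  induction s using Finset.induction_on with
  | empty =>
    simp only [Finset.prod_empty, Finset.card_empty, not_lt_zero, IsEmpty.forall_iff,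
      implies_true, and_true]
    intro j
    rw [coeff_one]
    split_ifs
    · rw [map_one]
    · rw [map_zero]; exact zero_le_one
  | insert i s hi ih =>
    obtain ⟨ih1, ih2⟩ := ih fun j hj => h j (Finset.mem_insert_of_mem hj)
    have hri : w (r i) < 1 := h i (Finset.mem_insert_self _ _)
    rw [Finset.prod_insert hi, Finset.card_insert_of_notMem hi]
    set Q := ∏ i ∈ s, (X - C (r i)) with hQ
    have h0 : ((X - C (r i)) * Q).coeff 0 = - (r i * Q.coeff 0) := by
      simp [sub_mul]
    have h1 : ∀ j, ((X - C (r i)) * Q).coeff (j + 1) = Q.coeff j - r i * Q.coeff (j + 1) := by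
      intro j
      rw [sub_mul, coeff_sub, coeff_X_mul, coeff_C_mul]
    have h2 : ∀ j, w (r i * Q.coeff j) < 1 := by
      intro j
      rw [map_mul]
      calc w (r i) * w (Q.coeff j) ≤ w (r i) * 1 := by gcongr; exact ih1 j
        _ < 1 := by rw [mul_one]; exact hri
    constructor
    · intro j
      rcases j with _ | j
      · rw [h0, Valuation.map_neg]; exact (h2 0).le
      · rw [h1]
        exact (Valuation.map_sub w _ _).trans (max_le (ih1 j) (h2 _).le)
    · intro j hj
      rcases j with _ | j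
      · rw [h0, Valuation.map_neg]; exact h2 0
      · rw [h1]
        exact Valuation.map_sub_lt w (ih2 j (by omega)) (h2 _)

end Basic

section Fin

variable {K N : Type*} [Field K] [Field N] [Algebra K N] [FiniteDimensional K N] [IsGalois K N]
variable {Γ Γ' : Type*} [LinearOrderedCommGroupWithZero Γ] [LinearOrderedCommGroupWithZero Γ']

omit [FiniteDimensional K N] [IsGalois K N] in
theorem lt_one_of_iff (w₁ : Valuation N Γ) (w₂ : Valuation N Γ')
    (h : ∀ a : K, w₁ (algebraMap K N a) ≤ 1 ↔ w₂ (algebraMap K N a) ≤ 1) (a : K)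
    (ha : w₁ (algebraMap K N a) < 1) : w₂ (algebraMap K N a) < 1 := by
  by_cases h0 : a = 0
  · rw [h0, map_zero, map_zero]; exact zero_lt_one
  · by_contra hc
    rw [not_lt] at hc
    have h1 : w₂ (algebraMap K N a⁻¹) ≤ 1 := by
      rw [map_inv₀, map_inv₀]; exact inv_le_one_of_one_le₀ hc
    have h2 := (h _).2 h1
    rw [map_inv₀, map_inv₀] at h2
    have h3 : 0 < w₁ (algebraMap K N a) :=
      zero_lt_iff.2 ((Valuation.ne_zero_iff w₁).2 ((_root_.map_ne_zero _).2 h0))
    exact absurd ((one_lt_inv₀ h3).2 ha) (not_lt.2 h2)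

/-- half of the conjugacy theorem -/
theorem conj_aux (w₁ : Valuation N Γ) (w₂ : Valuation N Γ')
    (h : ∀ a : K, w₁ (algebraMap K N a) ≤ 1 ↔ w₂ (algebraMap K N a) ≤ 1) :
    ∃ σ : N ≃ₐ[K] N, ∀ x, w₂ x ≤ 1 → w₁ (σ x) ≤ 1 := by
  classical
  by_contra hcon
  push Not at hcon
  obtain ⟨b, hb1, hb2, -⟩ := exists_sep (K := K) w₂
    (fun σ : N ≃ₐ[K] N => w₁.comap (σ : N →+* N))
    (fun σ a ha => by
      change w₁ (σ (algebraMap K N a)) ≤ 1
      rw [AlgEquiv.commutes]
      exact (h a).2 ha) (fun σ => hcon σ)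
  have hb2' : ∀ σ : N ≃ₐ[K] N, w₁ (σ b) < 1 := hb2
  set P : N[X] := ∏ σ : N ≃ₐ[K] N, (X - C (σ b)) with hP
  have hinv : ∀ (τ : N ≃ₐ[K] N), P.map (τ : N →+* N) = P := by
    intro τ
    rw [hP, Polynomial.map_prod]
    refine Fintype.prod_equiv (Equiv.mulLeft τ) _ _ fun σ => ?_
    simp
  have hK : ∀ j, ∃ a : K, algebraMap K N a = P.coeff j := by
    intro j
    have h1 : P.coeff j ∈ (⊥ : IntermediateField K N) := by
      rw [IsGalois.mem_bot_iff_fixed]
      intro τ
      conv_rhs => rw [← hinv τ]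
      rw [coeff_map]; rfl
    exact IntermediateField.mem_bot.1 h1
  obtain ⟨hP1, hP2⟩ := coeff_prod_lt w₁ Finset.univ (fun σ : N ≃ₐ[K] N => σ b)
    (fun σ _ => hb2' σ)
  have hdeg : P.natDegree = (Finset.univ : Finset (N ≃ₐ[K] N)).card := by
    rw [hP, natDegree_prod_of_monic _ _ fun σ _ => monic_X_sub_C _]
    simp
  have hmon : P.Monic := monic_prod_of_monic _ _ fun σ _ => monic_X_sub_C _
  have hPb : P.eval b = 0 := by
    rw [hP, eval_prod]
    exact Finset.prod_eq_zero (Finset.mem_univ (1 : N ≃ₐ[K] N)) (by simp)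
  have hn : 0 < (Finset.univ : Finset (N ≃ₐ[K] N)).card := Finset.card_pos.2 ⟨1, Finset.mem_univ _⟩
  set n := (Finset.univ : Finset (N ≃ₐ[K] N)).card with hnn
  have h2 : P.eval b = b ^ n + ∑ i ∈ Finset.range n, P.coeff i * b ^ i := by
    rw [eval_eq_sum_range, hdeg, Finset.sum_range_succ, ← hdeg, hmon.coeff_natDegree, one_mul,
      add_comm]
  have h3 : w₂ (∑ i ∈ Finset.range n, P.coeff i * b ^ i) < 1 := by
    refine Valuation.map_sum_lt w₂ one_ne_zero fun i hi => ?_
    rw [map_mul, map_pow, hb1, one_pow, mul_one]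
    obtain ⟨a, ha⟩ := hK i
    rw [← ha]
    refine lt_one_of_iff w₁ w₂ h a ?_
    rw [ha]
    exact hP2 i (Finset.mem_range.1 hi)
  have h4 : w₂ (b ^ n) = 1 := by rw [map_pow, hb1, one_pow]
  have h5 : w₂ (P.eval b) = 1 := by
    rw [h2, Valuation.map_add_eq_of_lt_left w₂ (by rw [h4]; exact h3), h4]
  rw [hPb, map_zero] at h5
  exact zero_ne_one h5

/-- **Conjugacy, finite level.** -/
theorem conj_fin (w₁ : Valuation N Γ) (w₂ : Valuation N Γ')
    (h : ∀ a : K, w₁ (algebraMap K N a) ≤ 1 ↔ w₂ (algebraMap K N a) ≤ 1) :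
    ∃ σ : N ≃ₐ[K] N, ∀ x, w₁ (σ x) ≤ 1 ↔ w₂ x ≤ 1 := by
  obtain ⟨σ, hσ⟩ := conj_aux w₁ w₂ h
  obtain ⟨τ, hτ⟩ := conj_aux w₂ w₁ fun a => (h a).symm
  refine ⟨σ, fun x => ⟨fun hx => ?_, hσ x⟩⟩
  have h1 : ∀ x, w₂ ((τ * σ) x) = w₂ x :=
    eq_of_le_one_imp w₂ (τ * σ) fun y hy => hτ _ (hσ y hy)
  rw [← h1]
  exact hτ _ hx

end Fin

end Crest.Agent.R013.Hens_899
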