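import Mathlib
import Crest.Agent.R013.Hens1_899
import Crest.Agent.R013.RR7_948

/-!
# Row 13, leaf C-INH (helper770), part 1: abstract ends

`REnd C E` : a field `E` (the field `EE k C` of helper809) with a rank one norm `gn` and the order
`od` of the reduction.  An *end* of a field `K ⊇ C` is a ring homomorphism `φ : K → E`.  It induces
the norm `gn ∘ φ` and a discrete valuation of its residue field.

Let `L/K` be finite Galois with group `G`, `φ : K → E` an end, `ψ : L → E` an end over `φ`.

* `uniq` : if `L/K` is étale at the norm `gn ∘ φ`, two ends `ψ₁, ψ₂` of `L` over `φ` with the same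
  `gn` and `od` are equal.
* `trans` : every pair (norm `w` of `L`, place `y` of its residue field) over the pair of `φ` is the
  pair of `ψ ∘ σ` for some `σ ∈ G`.
-/

set_option autoImplicit false
set_option linter.unusedSectionVars false
open Polynomial WithZero

namespace Crest.Agent.R013.Inh_770

section Compos

variable {L : Type*} [Field L]

/-- composite of a valuation ring and a valuation ring of its residue field -/
def compos (A : ValuationSubring L) (B : ValuationSubring (IsLocalRing.ResidueField A)) :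
    ValuationSubring L where
  carrier := {f | ∃ h : f ∈ A, IsLocalRing.residue A ⟨f, h⟩ ∈ B}
  mul_mem' := by
    rintro a b ⟨ha, ha'⟩ ⟨hb, hb'⟩
    refine ⟨mul_mem ha hb, ?_⟩
    have : (⟨a * b, mul_mem ha hb⟩ : A) = ⟨a, ha⟩ * ⟨b, hb⟩ := rfl
    rw [this, map_mul]
    exact mul_mem ha' hb'
  one_mem' := ⟨one_mem _, by
    have : (⟨1, one_mem _⟩ : A) = 1 := rfl
    rw [this, map_one]
    exact one_mem _⟩
  add_mem' := by
    rintro a b ⟨ha, ha'⟩ ⟨hb, hb'⟩
    refine ⟨add_mem ha hb, ?_⟩
    have : (⟨a + b, add_mem ha hb⟩ : A) = ⟨a, ha⟩ + ⟨b, hb⟩ := rfl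
    rw [this, map_add]
    exact add_mem ha' hb'
  zero_mem' := ⟨zero_mem _, by
    have : (⟨0, zero_mem _⟩ : A) = 0 := rfl
    rw [this, map_zero]
    exact zero_mem _⟩
  neg_mem' := by
    rintro a ⟨ha, ha'⟩
    refine ⟨neg_mem ha, ?_⟩
    have : (⟨-a, neg_mem ha⟩ : A) = -⟨a, ha⟩ := rfl
    rw [this, map_neg]
    exact neg_mem ha'
  mem_or_inv_mem' := by
    intro f
    by_cases h0 : f = 0
    · left
      subst h0
      exact ⟨zero_mem _, by
        have : (⟨0, zero_mem _⟩ : A) = 0 := rfl
        rw [this, map_zero]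
        exact zero_mem _⟩
    by_cases h1 : f ∈ A
    · by_cases h2 : f⁻¹ ∈ A
      · have h3 : IsLocalRing.residue A ⟨f, h1⟩ * IsLocalRing.residue A ⟨f⁻¹, h2⟩ = 1 := by
          rw [← map_mul]
          have : (⟨f, h1⟩ * ⟨f⁻¹, h2⟩ : A) = 1 := Subtype.ext (mul_inv_cancel₀ h0)
          rw [this, map_one]
        rcases B.mem_or_inv_mem (IsLocalRing.residue A ⟨f, h1⟩) with h4 | h4
        · exact Or.inl ⟨h1, h4⟩
        · rw [inv_eq_of_mul_eq_one_right h3] at h4
          exact Or.inr ⟨h2, h4⟩
      · left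
        refine ⟨h1, ?_⟩
        have h3 : IsLocalRing.residue A ⟨f, h1⟩ = 0 := by
          rw [IsLocalRing.residue_eq_zero_iff, IsLocalRing.mem_maximalIdeal, mem_nonunits_iff]
          intro h4
          apply h2
          obtain ⟨u, hu⟩ := h4
          have h5 : (⟨f, h1⟩ : A) * ↑u⁻¹ = 1 := by rw [← hu]; exact u.mul_inv
          have h6 : f * ((u⁻¹ : Aˣ) : A).1 = 1 := congrArg Subtype.val h5
          rw [inv_eq_of_mul_eq_one_right h6]
          exact ((u⁻¹ : Aˣ) : A).2
        rw [h3]
        exact zero_mem _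
    · right
      have h2 : f⁻¹ ∈ A := (A.mem_or_inv_mem f).resolve_left h1
      refine ⟨h2, ?_⟩
      have h3 : IsLocalRing.residue A ⟨f⁻¹, h2⟩ = 0 := by
        rw [IsLocalRing.residue_eq_zero_iff, IsLocalRing.mem_maximalIdeal, mem_nonunits_iff]
        intro h4
        apply h1
        obtain ⟨u, hu⟩ := h4
        have h5 : (⟨f⁻¹, h2⟩ : A) * ↑u⁻¹ = 1 := by rw [← hu]; exact u.mul_inv
        have h6 : f⁻¹ * ((u⁻¹ : Aˣ) : A).1 = 1 := congrArg Subtype.val h5
        have h7 := inv_eq_of_mul_eq_one_right h6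
        rw [inv_inv] at h7
        rw [h7]
        exact ((u⁻¹ : Aˣ) : A).2
      rw [h3]
      exact zero_mem _

theorem mem_compos {A : ValuationSubring L} {B : ValuationSubring (IsLocalRing.ResidueField A)}
    {f : L} : f ∈ compos A B ↔ ∃ h : f ∈ A, IsLocalRing.residue A ⟨f, h⟩ ∈ B := Iff.rfl

end Compos

theorem isUnit_iff {F Γ : Type*} [Field F] [LinearOrderedCommGroupWithZero Γ] (v : Valuation F Γ)
    (x : v.valuationSubring) : IsUnit x ↔ v x = 1 :=
  (Valuation.valuationSubring.integers v).isUnit_iff_valuation_eq_one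

theorem residue_eq_zero_iff {F Γ : Type*} [Field F] [LinearOrderedCommGroupWithZero Γ]
    (v : Valuation F Γ) (x : v.valuationSubring) :
    IsLocalRing.residue v.valuationSubring x = 0 ↔ v x < 1 := by
  rw [IsLocalRing.residue_eq_zero_iff, IsLocalRing.mem_maximalIdeal, mem_nonunits_iff, isUnit_iff]
  exact ⟨fun h => lt_of_le_of_ne x.2 h, fun h => h.ne⟩

/-- two ring homs which agree on `K` and on a generator are equal -/
theorem hom_eq_of_adjoin {K L E : Type*} [Field K] [Field L] [Field E] [Algebra K L] (θ : L)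
    (hθ : IntermediateField.adjoin K {θ} = ⊤) (ψ₁ ψ₂ : L →+* E)
    (h : ψ₁.comp (algebraMap K L) = ψ₂.comp (algebraMap K L)) (h' : ψ₁ θ = ψ₂ θ) : ψ₁ = ψ₂ := by
  let S : IntermediateField K L :=
    { (ψ₁.eqLocusField ψ₂) with
      algebraMap_mem' := fun r => by
        change ψ₁ (algebraMap K L r) = ψ₂ (algebraMap K L r)
        exact congrArg (fun g : K →+* E => g r) h }
  have h1 : IntermediateField.adjoin K {θ} ≤ S := by
    rw [IntermediateField.adjoin_le_iff]
    rintro x rfl
    exact h'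
  rw [hθ] at h1
  ext x
  exact h1 (IntermediateField.mem_top (x := x))

/-- A boundary field: norm `gn`, order of the reduction `od`. -/
structure REnd (C E : Type*) [Field C] [Field E] [Algebra C E] (nC : Valuation C NNReal) where
  /-- the norm -/
  gn : Valuation E NNReal
  /-- the order of the reduction -/
  od : E → ℤ
  gn_C : ∀ c : C, gn (algebraMap C E c) = nC c
  gn_val : ∀ a : E, a ≠ 0 → ∃ c : C, gn a = nC c
  od_C : ∀ c : C, c ≠ 0 → od (algebraMap C E c) = 0
  od_mul : ∀ a b : E, a ≠ 0 → b ≠ 0 → od (a * b) = od a + od b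
  od_add : ∀ a b : E, a ≠ 0 → gn (a + b) = gn a →
    (gn b < gn a ∨ gn b = gn a ∧ od a ≤ od b) → od a ≤ od (a + b)
  approx : ∀ a b : E, a ≠ 0 → b ≠ 0 → gn a = gn b → od a = od b →
    ∃ c : C, nC c = 1 ∧ (gn (a - algebraMap C E c * b) < gn a ∨
      (gn (a - algebraMap C E c * b) = gn a ∧ od a < od (a - algebraMap C E c * b)))

namespace REnd

variable {C E : Type*} [Field C] [Field E] [Algebra C E] {nC : Valuation C NNReal}
  (D : REnd C E nC)

theorem od_one : D.od 1 = 0 := by
  have := D.od_mul 1 1 one_ne_zero one_ne_zero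
  rw [one_mul] at this
  omega

theorem od_neg (a : E) (ha : a ≠ 0) : D.od (-a) = D.od a := by
  have h1 : D.od ((-1) * (-1)) = D.od (-1) + D.od (-1) :=
    D.od_mul (-1) (-1) (by simp) (by simp)
  rw [neg_mul_neg, one_mul, D.od_one] at h1
  have h2 := D.od_mul (-1) a (by simp) ha
  rw [neg_one_mul] at h2
  omega

/-- adding something of smaller norm does not change the order -/
theorem od_add_lt (a b : E) (h : D.gn b < D.gn a) : D.od (a + b) = D.od a := by
  have ha : a ≠ 0 := by
    rintro rfl; rw [map_zero] at h; exact not_lt_zero h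
  have h1 : D.gn (a + b) = D.gn a := Valuation.map_add_eq_of_lt_left D.gn h
  have hab : a + b ≠ 0 := by
    intro h2; rw [h2, map_zero] at h1; rw [← h1] at h; exact not_lt_zero h
  have h2 := D.od_add a b ha h1 (Or.inl h)
  have h3 := D.od_add (a + b) (-b) hab (by rw [add_neg_cancel_right]; exact h1.symm)
    (Or.inl (by rw [Valuation.map_neg, h1]; exact h))
  rw [add_neg_cancel_right] at h3
  omega

/-- ultrametric inequality for the order -/
theorem od_add_ge (a b : E) (n : ℤ) (r : NNReal) (hr : D.gn (a + b) = r) (ha : D.gn a ≤ r)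
    (hb : D.gn b ≤ r) (h0 : a + b ≠ 0)
    (ha' : D.gn a = r → n ≤ D.od a) (hb' : D.gn b = r → n ≤ D.od b) : n ≤ D.od (a + b) := by
  have hr0 : r ≠ 0 := by
    rw [← hr]; exact (Valuation.ne_zero_iff _).2 h0
  rcases ha.lt_or_eq with h1 | h1
  · rcases hb.lt_or_eq with h2 | h2
    · exact absurd hr (Valuation.map_add_lt D.gn h1 h2).ne
    · rw [add_comm, D.od_add_lt b a (by rw [h2]; exact h1)]
      exact hb' h2
  · rcases hb.lt_or_eq with h2 | h2
    · rw [D.od_add_lt a b (by rw [h1]; exact h2)]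
      exact ha' h1
    · have ha0 : a ≠ 0 := by
        rintro rfl; rw [map_zero] at h1; exact hr0 h1.symm
      have hb0 : b ≠ 0 := by
        rintro rfl; rw [map_zero] at h2; exact hr0 h2.symm
      rcases le_total (D.od a) (D.od b) with h3 | h3
      · exact (ha' h1).trans (D.od_add a b ha0 (by rw [hr, h1]) (Or.inr ⟨by rw [h1, h2], h3⟩))
      · rw [add_comm]
        exact (hb' h2).trans (D.od_add b a hb0 (by rw [add_comm, hr, h2])
          (Or.inr ⟨by rw [h1, h2], h3⟩))

/-- truncated smallness: `gn < 1` or `od ≥ N` -/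
def Sm (N : ℤ) (a : E) : Prop := D.gn a < 1 ∨ (D.gn a = 1 ∧ N ≤ D.od a)

theorem Sm.add {N : ℤ} {a b : E} (ha : D.Sm N a) (hb : D.Sm N b) : D.Sm N (a + b) := by
  have ha1 : D.gn a ≤ 1 := ha.elim le_of_lt fun h => h.1.le
  have hb1 : D.gn b ≤ 1 := hb.elim le_of_lt fun h => h.1.le
  have h1 : D.gn (a + b) ≤ 1 := (Valuation.map_add _ _ _).trans (max_le ha1 hb1)
  rcases h1.lt_or_eq with h2 | h2
  · exact Or.inl h2
  · refine Or.inr ⟨h2, D.od_add_ge a b N 1 h2 ha1 hb1 ?_ ?_ ?_⟩
    · intro h3; rw [h3, map_zero] at h2; exact zero_ne_one h2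
    · intro h3
      rcases ha with h4 | h4
      · rw [h3] at h4; exact absurd h4 (lt_irrefl _)
      · exact h4.2
    · intro h3
      rcases hb with h4 | h4
      · rw [h3] at h4; exact absurd h4 (lt_irrefl _)
      · exact h4.2

theorem Sm.neg {N : ℤ} {a : E} (ha : D.Sm N a) : D.Sm N (-a) := by
  rcases ha with h | h
  · left; rw [Valuation.map_neg]; exact h
  · right
    rw [Valuation.map_neg]
    refine ⟨h.1, ?_⟩
    rw [D.od_neg]
    · exact h.2
    · rintro rfl; have := h.1; rw [map_zero] at this; exact zero_ne_one this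

theorem Sm.sub {N : ℤ} {a b : E} (ha : D.Sm N a) (hb : D.Sm N b) : D.Sm N (a - b) := by
  rw [sub_eq_add_neg]
  exact Sm.add D ha (Sm.neg D hb)

/-- the rank two valuation ring of `E` -/
def R2 : ValuationSubring E where
  carrier := {a | D.Sm 0 a}
  mul_mem' := by
    intro a b ha hb
    have ha : D.Sm 0 a := ha
    have hb : D.Sm 0 b := hb
    change D.Sm 0 (a * b)
    have ha1 : D.gn a ≤ 1 := ha.elim le_of_lt fun h => h.1.le
    have hb1 : D.gn b ≤ 1 := hb.elim le_of_lt fun h => h.1.le
    rcases ha with ha | ha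
    · left
      rw [map_mul]
      exact lt_of_le_of_lt (mul_le_of_le_one_right' hb1) ha
    · rcases hb with hb | hb
      · left
        rw [map_mul]
        exact lt_of_le_of_lt (mul_le_of_le_one_left' ha1) hb
      · right
        have ha0 : a ≠ 0 := by
          rintro rfl; have := ha.1; rw [map_zero] at this; exact zero_ne_one this
        have hb0 : b ≠ 0 := by
          rintro rfl; have := hb.1; rw [map_zero] at this; exact zero_ne_one this
        rw [map_mul, ha.1, hb.1, one_mul, D.od_mul a b ha0 hb0]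
        exact ⟨rfl, add_nonneg ha.2 hb.2⟩
  one_mem' := Or.inr ⟨map_one _, by rw [D.od_one]⟩
  add_mem' := by
    intro a b ha hb
    exact Sm.add D ha hb
  zero_mem' := Or.inl (by rw [map_zero]; exact zero_lt_one)
  neg_mem' := by
    intro a ha
    exact Sm.neg D ha
  mem_or_inv_mem' := by
    intro a
    change D.Sm 0 a ∨ D.Sm 0 a⁻¹
    by_cases h0 : a = 0
    · left; left; rw [h0, map_zero]; exact zero_lt_one
    rcases lt_trichotomy (D.gn a) 1 with h | h | h
    · exact Or.inl (Or.inl h)
    · have h1 : D.gn a⁻¹ = 1 := by rw [map_inv₀, h, inv_one]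
      have h2 := D.od_mul a a⁻¹ h0 (inv_ne_zero h0)
      rw [mul_inv_cancel₀ h0, D.od_one] at h2
      rcases le_total 0 (D.od a) with h3 | h3
      · exact Or.inl (Or.inr ⟨h, h3⟩)
      · exact Or.inr (Or.inr ⟨h1, by omega⟩)
    · right; left
      rw [map_inv₀]
      exact inv_lt_one_of_one_lt₀ h

theorem mem_R2 {a : E} : a ∈ D.R2 ↔ D.gn a < 1 ∨ (D.gn a = 1 ∧ 0 ≤ D.od a) := Iff.rfl


section Uniq

variable {K L : Type*} [Field K] [Field L] [Algebra C K] [Algebra C L] [Algebra K L]
  [IsScalarTower C K L]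

/-- approximation of an element of an extension with the same end by elements of `K` -/
theorem exists_approx (φ : K →+* E) (hφC : ∀ c : C, φ (algebraMap C K c) = algebraMap C E c)
    (t : K) (ht : D.gn (φ t) = 1) (ht' : D.od (φ t) = 1) (a : E) (ha : D.gn a ≤ 1) (N : ℕ) :
    ∃ h : K, D.gn (φ h) ≤ 1 ∧ D.Sm (D.od a + N) (a - φ h) := by
  have ht0 : φ t ≠ 0 := by
    intro h; rw [h, map_zero] at ht; exact zero_ne_one ht
  have htn : ∀ m : ℤ, D.gn (φ (t ^ m)) = 1 ∧ D.od (φ (t ^ m)) = m := by
    have hz : ∀ m : ℕ, D.od (φ t ^ m) = m := by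
      intro m
      induction m with
      | zero => rw [pow_zero, D.od_one]; rfl
      | succ m ih =>
        rw [pow_succ, D.od_mul _ _ (pow_ne_zero _ ht0) ht0, ih, ht']
        push_cast; rfl
    intro m
    rw [map_zpow₀, map_zpow₀, ht, one_zpow]
    refine ⟨rfl, ?_⟩
    obtain ⟨m, rfl | rfl⟩ := m.eq_nat_or_neg
    · rw [zpow_natCast, hz]
    · have h1 := D.od_mul (φ t ^ m) (φ t ^ (-(m : ℤ))) (pow_ne_zero _ ht0) (zpow_ne_zero _ ht0)
      rw [zpow_neg, zpow_natCast, mul_inv_cancel₀ (pow_ne_zero _ ht0), D.od_one, hz] at h1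
      rw [zpow_neg, zpow_natCast]
      omega
  induction N with
  | zero =>
    refine ⟨0, by rw [map_zero, map_zero]; exact zero_le_one, ?_⟩
    rw [map_zero, sub_zero, Nat.cast_zero, add_zero]
    rcases ha.lt_or_eq with h | h
    · exact Or.inl h
    · exact Or.inr ⟨h, le_rfl⟩
  | succ N ih =>
    obtain ⟨h, hh1, hh2⟩ := ih
    rcases hh2 with h2 | ⟨h2, h3⟩
    · exact ⟨h, hh1, Or.inl h2⟩
    rcases h3.lt_or_eq with h3 | h3
    · refine ⟨h, hh1, Or.inr ⟨h2, ?_⟩⟩
      push_cast
      omega
    set r := a - φ h with hr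
    have hr0 : r ≠ 0 := by
      intro h4; rw [h4, map_zero] at h2; exact zero_ne_one h2
    obtain ⟨ht1, ht2⟩ := htn (D.od a + N)
    obtain ⟨c, hc1, hc2⟩ := D.approx r (φ (t ^ (D.od a + N))) hr0
      (by intro h4; rw [h4, map_zero] at ht1; exact zero_ne_one ht1) (by rw [h2, ht1])
      (by rw [ht2, h3])
    refine ⟨h + algebraMap C K c * t ^ (D.od a + N), ?_, ?_⟩
    · rw [map_add, map_mul, hφC]
      refine (Valuation.map_add _ _ _).trans (max_le hh1 ?_)
      rw [map_mul, D.gn_C, hc1, ht1, one_mul]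
    · have h5 : a - φ (h + algebraMap C K c * t ^ (D.od a + N)) =
          r - algebraMap C E c * φ (t ^ (D.od a + N)) := by
        rw [map_add, map_mul, hφC, hr]; ring
      rw [h5]
      rcases hc2 with h6 | ⟨h6, h7⟩
      · left; rw [← h2]; exact h6
      · right
        rw [h6, h2]
        refine ⟨rfl, ?_⟩
        push_cast
        omega

/-- the étale condition at a norm `v` of `K`: `L = K(θ)`, `θ` a root of a monic `F` with
`v`-integral coefficients and separable reduction -/
def EtaleAt (K L : Type*) [Field K] [Field L] [Algebra K L] (v : Valuation K NNReal) : Prop :=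
  ∃ (F : v.valuationSubring[X]) (θ : L), F.Monic ∧
    (F.map (IsLocalRing.residue v.valuationSubring)).Separable ∧
    IntermediateField.adjoin K {θ} = ⊤ ∧ aeval θ (F.map v.valuationSubring.subtype) = 0

/-- roots of `F` with the same approximations are equal -/
theorem root_sep (v : Valuation K NNReal) (φ : K →+* E) (hv : ∀ f, v f = D.gn (φ f))
    (F : v.valuationSubring[X])
    (hF : F.Monic) (hFs : (F.map (IsLocalRing.residue v.valuationSubring)).Separable)
    (a b : E) (ha : (F.map v.valuationSubring.subtype).eval₂ φ a = 0)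
    (hb : (F.map v.valuationSubring.subtype).eval₂ φ b = 0) (hab : a ≠ b) :
    D.gn a ≤ 1 ∧ D.gn b ≤ 1 ∧ D.gn (a - b) = 1 := by
  classical
  -- integrality
  let OE := D.gn.valuationSubring
  have hmem : ∀ f : v.valuationSubring, φ f ∈ OE := by
    intro f
    rw [Valuation.mem_valuationSubring_iff, ← hv]
    exact f.2
  let φ' : v.valuationSubring →+* OE :=
    ((φ.comp v.valuationSubring.subtype).codRestrict OE.toSubring hmem)
  have hφ' : (OE.subtype).comp φ' = φ.comp v.valuationSubring.subtype := rfl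
  have hint : ∀ c : E, (F.map v.valuationSubring.subtype).eval₂ φ c = 0 → c ∈ OE := by
    intro c hc
    rw [eval₂_map] at hc
    have h1 : IsIntegral OE c := by
      refine ⟨F.map φ', hF.map _, ?_⟩
      rw [eval₂_map]
      exact hc
    obtain ⟨d, hd⟩ := IsIntegrallyClosed.isIntegral_iff.1 h1
    rw [← hd]
    exact d.2
  have ha1 := hint a ha
  have hb1 := hint b hb
  refine ⟨ha1, hb1, ?_⟩
  by_contra hne
  have hle : D.gn (a - b) ≤ 1 := (Valuation.map_sub _ _ _).trans (max_le ha1 hb1)
  have hlt : D.gn (a - b) < 1 := lt_of_le_of_ne hle hne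
  -- F = (X - a) G over OE, G(b) = 0
  set a' : OE := ⟨a, ha1⟩ with ha'
  set b' : OE := ⟨b, hb1⟩ with hb'
  set F' : OE[X] := F.map φ' with hF'
  have hinj : Function.Injective OE.subtype := Subtype.val_injective
  have hFev : ∀ c : OE, (F.map v.valuationSubring.subtype).eval₂ φ c = 0 → F'.eval c = 0 := by
    intro c hc
    apply hinj
    rw [map_zero, hF', eval_map, hom_eval₂]
    rw [eval₂_map] at hc
    exact hc
  have hFa : F'.eval a' = 0 := hFev a' ha
  have hFb : F'.eval b' = 0 := hFev b' hb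
  obtain ⟨G, hG⟩ := dvd_iff_isRoot.2 hFa
  have hGb : G.eval b' = 0 := by
    have h1 := hFb
    rw [hG, eval_mul, eval_sub, eval_X, eval_C] at h1
    rcases mul_eq_zero.1 h1 with h2 | h2
    · exact absurd (congrArg Subtype.val (sub_eq_zero.1 h2)).symm hab
    · exact h2
  have hloc : IsLocalHom φ' := by
    constructor
    intro f hf
    have h1 : D.gn (φ' f : E) = 1 := (isUnit_iff D.gn (φ' f)).1 hf
    have h2 : v f = 1 := by rw [hv]; exact h1
    exact (isUnit_iff v f).2 h2
  have hder : (derivative F').eval a' = G.eval a' := by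
    rw [hG, derivative_mul, eval_add, eval_mul, eval_mul, derivative_sub, derivative_X,
      derivative_C, sub_zero, eval_one, one_mul, eval_sub, eval_X, eval_C, sub_self, zero_mul,
      add_zero]
  have hres : IsLocalRing.residue OE (G.eval a') = 0 := by
    have h1 : a' - b' ∣ G.eval a' - G.eval b' := sub_dvd_eval_sub a' b' G
    rw [hGb, sub_zero] at h1
    obtain ⟨c, hc⟩ := h1
    rw [hc, map_mul]
    have h2 : IsLocalRing.residue OE (a' - b') = 0 := by
      rw [IsLocalRing.residue_eq_zero_iff, IsLocalRing.mem_maximalIdeal, mem_nonunits_iff]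
      intro h3
      exact hne ((isUnit_iff D.gn (a' - b')).1 h3)
    rw [h2, zero_mul]
  have hs := hFs.eval₂_derivative_ne_zero (IsLocalRing.ResidueField.map φ')
    (x := IsLocalRing.residue OE a') (by
      rw [eval₂_map]
      have h4 : (IsLocalRing.ResidueField.map φ').comp (IsLocalRing.residue v.valuationSubring) =
          (IsLocalRing.residue OE).comp φ' := by
        ext x; rfl
      rw [h4, ← hom_eval₂, ← eval_map, ← hF', hFa, map_zero])
  apply hs
  rw [derivative_map, eval₂_map]
  have h4 : (IsLocalRing.ResidueField.map φ').comp (IsLocalRing.residue v.valuationSubring) =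
      (IsLocalRing.residue OE).comp φ' := by
    ext x; rfl
  rw [h4, ← hom_eval₂, ← eval_map, ← derivative_map, ← hF', hder, hres]

/-- **Uniqueness.** Two ends of `L` over the same end of `K` with the same `gn` and `od` are
equal, if `L/K` is étale at `v`. -/
theorem uniq (v : Valuation K NNReal) (φ : K →+* E) (hv : ∀ f, v f = D.gn (φ f))
    (hφC : ∀ c : C, φ (algebraMap C K c) = algebraMap C E c)
    (het : EtaleAt K L v)
    (t : K) (ht : D.gn (φ t) = 1) (ht' : D.od (φ t) = 1) (ψ₁ ψ₂ : L →+* E)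
    (h1 : ψ₁.comp (algebraMap K L) = φ) (h2 : ψ₂.comp (algebraMap K L) = φ)
    (hgn : ∀ f : L, D.gn (ψ₁ f) = D.gn (ψ₂ f))
    (hod : ∀ f : L, D.gn (ψ₁ f) = 1 → D.od (ψ₁ f) = D.od (ψ₂ f)) : ψ₁ = ψ₂ := by
  obtain ⟨F, θ, hF, hFs, hθ, hθ'⟩ := het
  have hr : ∀ ψ : L →+* E, ψ.comp (algebraMap K L) = φ →
      (F.map v.valuationSubring.subtype).eval₂ φ (ψ θ) = 0 := by
    intro ψ hψ
    rw [← hψ, ← hom_eval₂, ← aeval_def, hθ', map_zero]
  have key : ψ₁ θ = ψ₂ θ := by
    by_contra hne
    obtain ⟨ha, hb, hab⟩ := D.root_sep v φ hv F hF hFs _ _ (hr ψ₁ h1) (hr ψ₂ h2) hne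
    set N : ℕ := (D.od (ψ₁ θ - ψ₂ θ) - D.od (ψ₁ θ) + 1).toNat with hN
    obtain ⟨h, hh1, hh2⟩ := D.exists_approx φ hφC t ht ht' (ψ₁ θ) ha N
    set M : ℤ := D.od (ψ₁ θ) + N with hM
    have e1 : ψ₁ θ - φ h = ψ₁ (θ - algebraMap K L h) := by
      rw [map_sub, ← h1]; rfl
    have e2 : ψ₂ θ - φ h = ψ₂ (θ - algebraMap K L h) := by
      rw [map_sub, ← h2]; rfl
    have hh3 : D.Sm M (ψ₂ θ - φ h) := by
      rw [e2]
      rw [e1] at hh2
      rcases hh2 with h5 | ⟨h5, h6⟩
      · left; rw [← hgn]; exact h5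
      · right; rw [← hgn, ← hod _ h5]; exact ⟨h5, h6⟩
    have h7 : D.Sm M (ψ₁ θ - ψ₂ θ) := by
      have h8 := REnd.Sm.sub D hh2 hh3
      rwa [sub_sub_sub_cancel_right] at h8
    rcases h7 with h8 | ⟨h8, h9⟩
    · exact h8.ne hab
    · omega
  exact hom_eq_of_adjoin θ hθ ψ₁ ψ₂ (h1.trans h2.symm) key

end Uniq


section ResV

variable {L : Type*} [Field L] (w : Valuation L NNReal) (ψ : L →+* E)
  (hw : ∀ f, w f = D.gn (ψ f))

include hw in
theorem od_eq_of_residue_eq {f g : w.valuationSubring} (hf : w f = 1)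
    (h : IsLocalRing.residue w.valuationSubring f = IsLocalRing.residue w.valuationSubring g) :
    D.od (ψ f) = D.od (ψ g) := by
  have h1 : w (g - f : L) < 1 := by
    have := (residue_eq_zero_iff w (g - f)).1 (by rw [map_sub, h, sub_self])
    exact this
  have h2 : ψ (g : L) = ψ f + ψ (g - f : L) := by
    rw [← map_add, add_sub_cancel]
  rw [h2, D.od_add_lt]
  rw [← hw, ← hw, hf]
  exact h1

theorem exists_lift (x : IsLocalRing.ResidueField w.valuationSubring) :
    ∃ f : w.valuationSubring, IsLocalRing.residue w.valuationSubring f = x :=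
  IsLocalRing.residue_surjective x

open Classical in
/-- the discrete valuation of the residue field induced by an end: `f̄ ↦ exp (- od (ψ f))` -/
noncomputable def resV : Valuation (IsLocalRing.ResidueField w.valuationSubring) ℤᵐ⁰ where
  toFun x := if x = 0 then 0 else exp (-D.od (ψ (exists_lift w x).choose))
  map_zero' := by simp
  map_one' := by
    rw [if_neg one_ne_zero]
    have h1 := (exists_lift w (1 : IsLocalRing.ResidueField w.valuationSubring)).choose_spec
    have h2 := D.od_eq_of_residue_eq w ψ hw (f := 1) (g := (exists_lift w 1).choose)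
      (by change w 1 = 1; exact map_one w) (by rw [h1, map_one])
    rw [← h2]
    change exp (-D.od (ψ 1)) = 1
    rw [map_one, D.od_one]
    rfl
  map_mul' := by
    intro x y
    by_cases hx : x = 0
    · rw [hx, zero_mul, if_pos rfl, zero_mul]
    by_cases hy : y = 0
    · rw [hy, mul_zero, if_pos rfl, mul_zero]
    rw [if_neg (mul_ne_zero hx hy), if_neg hx, if_neg hy, ← exp_add]
    congr 1
    have h1 := (exists_lift w x).choose_spec
    have h2 := (exists_lift w y).choose_spec
    have h3 := (exists_lift w (x * y)).choose_spec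
    set f := (exists_lift w x).choose
    set g := (exists_lift w y).choose
    set h := (exists_lift w (x * y)).choose
    have hf : w f = 1 := by
      refine le_antisymm f.2 (not_lt.1 fun h4 => hx ?_)
      rw [← h1]; exact (residue_eq_zero_iff w f).2 h4
    have hg : w g = 1 := by
      refine le_antisymm g.2 (not_lt.1 fun h4 => hy ?_)
      rw [← h2]; exact (residue_eq_zero_iff w g).2 h4
    have h5 := D.od_eq_of_residue_eq w ψ hw (f := f * g) (g := h)
      (by change w (f * g : L) = 1; rw [map_mul, hf, hg, one_mul]) (by rw [h3, map_mul, h1, h2])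
    rw [← h5]
    change -D.od (ψ (f * g : L)) = _
    rw [map_mul, D.od_mul]
    · ring
    · intro h6
      have := hw f
      rw [h6, map_zero, hf] at this
      exact one_ne_zero this
    · intro h6
      have := hw g
      rw [h6, map_zero, hg] at this
      exact one_ne_zero this
  map_add_le_max' := by
    intro x y
    by_cases hx : x = 0
    · rw [hx, zero_add]; exact le_max_right _ _
    by_cases hy : y = 0
    · rw [hy, add_zero]; exact le_max_left _ _
    by_cases hxy : x + y = 0
    · rw [hxy, if_pos rfl]; exact zero_le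
    rw [if_neg hxy, if_neg hx, if_neg hy, le_max_iff, exp_le_exp, exp_le_exp]
    have h1 := (exists_lift w x).choose_spec
    have h2 := (exists_lift w y).choose_spec
    have h3 := (exists_lift w (x + y)).choose_spec
    set f := (exists_lift w x).choose
    set g := (exists_lift w y).choose
    set h := (exists_lift w (x + y)).choose
    have hh : w h = 1 := by
      refine le_antisymm h.2 (not_lt.1 fun h4 => hxy ?_)
      rw [← h3]; exact (residue_eq_zero_iff w h).2 h4
    have h5 := D.od_eq_of_residue_eq w ψ hw (f := h) (g := f + g) hh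
      (by rw [h3, map_add, h1, h2])
    have hfg : w (f + g : L) = 1 := by
      have h6 : IsLocalRing.residue w.valuationSubring (f + g) = x + y := by
        rw [map_add, h1, h2]
      refine le_antisymm (f + g).2 (not_lt.1 fun h4 => hxy ?_)
      rw [← h6]; exact (residue_eq_zero_iff w (f + g)).2 h4
    have hfg' : D.gn (ψ f + ψ g) = 1 := by rw [← map_add, ← hw]; exact hfg
    rw [h5]
    change -D.od (ψ (f + g : L)) ≤ _ ∨ -D.od (ψ (f + g : L)) ≤ _
    rw [map_add]
    have h7 := D.od_add_ge (ψ f) (ψ g) (min (D.od (ψ f)) (D.od (ψ g))) 1 hfg'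
      (by rw [← hw]; exact f.2) (by rw [← hw]; exact g.2)
      (by intro h8; rw [h8, map_zero] at hfg'; exact zero_ne_one hfg')
      (fun _ => min_le_left _ _) (fun _ => min_le_right _ _)
    rcases min_le_iff.1 h7 with h8 | h8
    · left; omega
    · right; omega

theorem resV_residue (f : w.valuationSubring) (hf : w f = 1) :
    D.resV w ψ hw (IsLocalRing.residue w.valuationSubring f) = exp (-D.od (ψ f)) := by
  classical
  change (if IsLocalRing.residue w.valuationSubring f = 0 then 0 else
    exp (-D.od (ψ (exists_lift w (IsLocalRing.residue w.valuationSubring f)).choose))) = _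
  rw [if_neg (by rw [residue_eq_zero_iff, hf]; exact lt_irrefl _)]
  congr 2
  have h1 := (exists_lift w (IsLocalRing.residue w.valuationSubring f)).choose_spec
  exact (D.od_eq_of_residue_eq w ψ hw hf h1.symm).symm

theorem resV_surjective (t : L) (ht : D.gn (ψ t) = 1) (ht' : D.od (ψ t) = 1) :
    Function.Surjective (D.resV w ψ hw) := by
  have ht0 : w t = 1 := by rw [hw, ht]
  intro x
  by_cases hx : x = 0
  · exact ⟨0, by rw [map_zero, hx]⟩
  have h1 := D.resV_residue w ψ hw ⟨t, ht0.le⟩ ht0
  refine ⟨IsLocalRing.residue w.valuationSubring ⟨t, ht0.le⟩ ^ (-log x), ?_⟩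
  rw [map_zpow₀, h1, ht', ← exp_zsmul]
  simp only [smul_eq_mul, mul_neg, mul_one, neg_neg]
  exact exp_log hx

end ResV

section Trans

variable {K L : Type*} [Field K] [Field L] [Algebra K L] [Algebra C L]
  [FiniteDimensional K L] [IsGalois K L]

/-- **Transitivity.** Every pair (norm, place of the residue field) of `L` over the pair of the end
`φ` is the pair of `ψ ∘ σ`. -/
theorem trans (hnt : ∃ c : C, nC c ≠ 0 ∧ nC c < 1) (φ : K →+* E) (ψ : L →+* E)
    (hψ : ψ.comp (algebraMap K L) = φ) (hψC : ∀ c : C, ψ (algebraMap C L c) = algebraMap C E c)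
    (w : Valuation L NNReal) (hwC : ∀ c : C, w (algebraMap C L c) = nC c)
    (σC : ∀ (σ : L ≃ₐ[K] L) (c : C), σ (algebraMap C L c) = algebraMap C L c)
    (hw : ∀ f : K, w (algebraMap K L f) = D.gn (φ f))
    (y : Valuation (IsLocalRing.ResidueField w.valuationSubring) ℤᵐ⁰)
    (hy : ∀ (f : K) (h : w (algebraMap K L f) = 1),
      y (IsLocalRing.residue w.valuationSubring ⟨algebraMap K L f, h.le⟩) ≤ 1 ↔ 0 ≤ D.od (φ f)) :
    ∃ σ : L ≃ₐ[K] L, (∀ f, w f = D.gn (ψ (σ f))) ∧
      ∀ (f : L) (h : w f = 1),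
        (y (IsLocalRing.residue w.valuationSubring ⟨f, h.le⟩) ≤ 1 ↔ 0 ≤ D.od (ψ (σ f))) := by
  set A : ValuationSubring L := D.R2.comap ψ with hA
  set B : ValuationSubring L := compos w.valuationSubring y.valuationSubring with hB
  have hAmem : ∀ f : L, f ∈ A ↔ D.gn (ψ f) < 1 ∨ (D.gn (ψ f) = 1 ∧ 0 ≤ D.od (ψ f)) := fun f =>
    Iff.rfl
  have hBmem : ∀ f : L, f ∈ B ↔ w f < 1 ∨ ∃ h : w f = 1,
      y (IsLocalRing.residue w.valuationSubring ⟨f, h.le⟩) ≤ 1 := by
    intro f
    constructor
    · rintro ⟨h1, h2⟩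
      have h1' : w f ≤ 1 := h1
      rcases h1'.lt_or_eq with h3 | h3
      · exact Or.inl h3
      · exact Or.inr ⟨h3, h2⟩
    · rintro (h | ⟨h, h'⟩)
      · refine ⟨h.le, ?_⟩
        rw [(residue_eq_zero_iff w _).2 h]
        exact zero_mem _
      · exact ⟨h.le, h'⟩
  have hK : ∀ f : K, algebraMap K L f ∈ A ↔ algebraMap K L f ∈ B := by
    intro f
    have h1 : ψ (algebraMap K L f) = φ f := by rw [← hψ]; rfl
    rw [hAmem, hBmem, h1]
    constructor
    · rintro (h | ⟨h, h'⟩)
      · exact Or.inl (by rw [hw]; exact h)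
      · exact Or.inr ⟨by rw [hw]; exact h, (hy f (by rw [hw]; exact h)).2 h'⟩
    · rintro (h | ⟨h, h'⟩)
      · exact Or.inl (by rw [← hw]; exact h)
      · exact Or.inr ⟨by rw [← hw]; exact h, (hy f h).1 h'⟩
  obtain ⟨σ, hσ⟩ := Hens_899.conj_fin (K := K) A.valuation B.valuation (fun a => by
    rw [ValuationSubring.valuation_le_one_iff, ValuationSubring.valuation_le_one_iff]
    exact hK a)
  have hσ' : ∀ f, σ f ∈ A ↔ f ∈ B := by
    intro f
    have := hσ f
    rwa [ValuationSubring.valuation_le_one_iff, ValuationSubring.valuation_le_one_iff] at this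
  obtain ⟨c, hc0, hc1⟩ := hnt
  -- the two norms are equivalent
  have hle : ∀ f, w f ≤ 1 ↔ D.gn (ψ (σ f)) ≤ 1 := by
    intro f
    have hBf : ∀ m : ℕ, w f ≤ 1 → algebraMap C L c * f ^ m ∈ B := by
      intro m h
      rw [hBmem]
      left
      rw [map_mul, hwC, map_pow]
      exact lt_of_le_of_lt (mul_le_of_le_one_right' (pow_le_one₀ zero_le h)) hc1
    have hAf : ∀ m : ℕ, D.gn (ψ (σ f)) ≤ 1 → σ (algebraMap C L c * f ^ m) ∈ A := by
      intro m h
      rw [hAmem]
      left
      rw [map_mul, map_mul, σC, hψC, map_mul, D.gn_C, map_pow, map_pow, map_pow]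
      exact lt_of_le_of_lt (mul_le_of_le_one_right' (pow_le_one₀ zero_le h)) hc1
    constructor
    · intro h
      by_contra hcon
      rw [not_le] at hcon
      obtain ⟨m, hm⟩ := pow_unbounded_of_one_lt ((nC c)⁻¹) hcon
      have h1 := (hσ' _).2 (hBf m h)
      rw [hAmem, map_mul, map_mul, σC, hψC, map_mul, D.gn_C, map_pow, map_pow, map_pow] at h1
      have h2 : 1 < nC c * D.gn (ψ (σ f)) ^ m := by
        have := mul_lt_mul_of_pos_left hm (zero_lt_iff.2 hc0)
        rwa [mul_inv_cancel₀ hc0] at this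
      rcases h1 with h1 | ⟨h1, -⟩
      · exact lt_asymm h1 h2
      · exact h2.ne' h1
    · intro h
      by_contra hcon
      rw [not_le] at hcon
      obtain ⟨m, hm⟩ := pow_unbounded_of_one_lt ((nC c)⁻¹) hcon
      have h1 := (hBmem _).1 ((hσ' _).1 (hAf m h))
      have h2 : 1 < nC c * w f ^ m := by
        have := mul_lt_mul_of_pos_left hm (zero_lt_iff.2 hc0)
        rwa [mul_inv_cancel₀ hc0] at this
      have h3 : w (algebraMap C L c * f ^ m) = nC c * w f ^ m := by
        rw [map_mul, hwC, map_pow]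
      rcases h1 with h1 | ⟨h1, -⟩
      · rw [h3] at h1; exact lt_asymm h1 h2
      · rw [h3] at h1; exact h2.ne' h1
  have heq1 : ∀ f, D.gn (ψ (σ f)) = 1 → w f = 1 := by
    intro f h
    have hf0 : f ≠ 0 := by
      rintro rfl; rw [map_zero, map_zero, map_zero] at h; exact zero_ne_one h
    refine le_antisymm ((hle f).2 h.le) ?_
    have h1 := (hle f⁻¹).2 (by rw [map_inv₀, map_inv₀, map_inv₀, h, inv_one])
    rw [map_inv₀] at h1
    have h2 : 0 < w f := zero_lt_iff.2 ((Valuation.ne_zero_iff w).2 hf0)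
    exact (inv_le_one₀ h2).1 h1
  have heq : ∀ f, w f = D.gn (ψ (σ f)) := by
    intro f
    by_cases hf : f = 0
    · rw [hf, map_zero, map_zero, map_zero, map_zero]
    obtain ⟨b, hb⟩ := D.gn_val (ψ (σ f)) (by simpa using hf)
    have hb0 : nC b ≠ 0 := by
      rw [← hb]; exact (Valuation.ne_zero_iff _).2 (by simpa using hf)
    have h1 := heq1 (algebraMap C L b⁻¹ * f) (by
      rw [map_mul, map_mul, σC, hψC, map_mul, D.gn_C, hb, map_inv₀, inv_mul_cancel₀ hb0])
    rw [map_mul, hwC, map_inv₀] at h1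
    rw [hb]
    rw [inv_mul_eq_iff_eq_mul₀ hb0, mul_one] at h1
    exact h1
  refine ⟨σ, heq, fun f h => ?_⟩
  have h1 : D.gn (ψ (σ f)) = 1 := by rw [← heq, h]
  have h2 := hσ' f
  rw [hAmem, hBmem] at h2
  constructor
  · intro h3
    rcases h2.2 (Or.inr ⟨h, h3⟩) with h4 | ⟨-, h4⟩
    · exact absurd h1 h4.ne
    · exact h4
  · intro h3
    rcases h2.1 (Or.inr ⟨h1, h3⟩) with h4 | ⟨_, h4⟩
    · exact absurd h h4.ne
    · exact h4

end Trans

end REnd

end Crest.Agent.R013.Inh_770
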