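import Mathlib
import Crest.Agent.R013.Inh1_770
import Crest.Agent.R013.RR18_948

/-!
# Row 13, leaf C-INH (helper770), part 2: Galois extensions and ends

* `ends_conj` : two homs `ψ₁, ψ₂ : L → E` over the same `K → E`, `L/K` normal, differ by an element
  of the Galois group.
* `NoInertia w` : trivial inertia group.  `fix_of_noInertia`, `fix_of_dense`: an element of the
  Galois group which preserves (`gn`, `od`) of an end is trivial.
* `pair_unique`, `pair_exists` : `Gal(L/K)` acts simply transitively on the pairs over a pair.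
* `place_exists`, `place_unique` : the same for places which come from one embedding.
-/

set_option autoImplicit false
set_option linter.unusedSectionVars false
open Polynomial WithZero

namespace Crest.Agent.R013.Inh_770

section Conj

variable {K L E : Type*} [Field K] [Field L] [Field E] [Algebra K L]

/-- two embeddings of a normal extension over the same embedding of `K` are conjugate -/
theorem ends_conj [FiniteDimensional K L] [Normal K L] (ψ₁ ψ₂ : L →+* E)
    (h : ψ₁.comp (algebraMap K L) = ψ₂.comp (algebraMap K L)) :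
    ∃ σ : L ≃ₐ[K] L, ∀ x, ψ₂ x = ψ₁ (σ x) := by
  letI : Algebra K E := (ψ₁.comp (algebraMap K L)).toAlgebra
  let A₁ : L →ₐ[K] E := { ψ₁ with commutes' := fun r => rfl }
  let A₂ : L →ₐ[K] E :=
    { ψ₂ with commutes' := fun r => (congrArg (fun g : K →+* E => g r) h).symm }
  have hr : A₂.fieldRange ≤ A₁.fieldRange := by
    rintro _ ⟨x, rfl⟩
    have hs : ((minpoly K x).map (algebraMap K L)).Splits := Normal.splits inferInstance x
    have h0 : (minpoly K x).aeval (A₂ x) = 0 := by
      rw [aeval_algHom_apply, minpoly.aeval, map_zero]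
    have hne : (minpoly K x) ≠ 0 := minpoly.ne_zero (Algebra.IsIntegral.isIntegral x)
    have h1 : (((minpoly K x).map (algebraMap K L)).map ψ₁).IsRoot (A₂ x) := by
      rw [Polynomial.map_map, IsRoot, eval_map]
      exact h0
    have h2 := hs.roots_map ψ₁
    have h3 : A₂ x ∈ (((minpoly K x).map (algebraMap K L)).map ψ₁).roots := by
      rw [mem_roots]
      · exact h1
      · exact (Polynomial.map_ne_zero_iff ψ₁.injective).2
          ((Polynomial.map_ne_zero_iff (algebraMap K L).injective).2 hne)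
    rw [h2, Multiset.mem_map] at h3
    obtain ⟨y, -, hy⟩ := h3
    exact ⟨y, hy⟩
  have hex : ∀ x, ∃ y, ψ₁ y = ψ₂ x := fun x => hr ⟨x, rfl⟩
  choose g hg using hex
  let G : L →ₐ[K] L :=
    { toFun := g
      map_one' := ψ₁.injective (by rw [hg, map_one, map_one])
      map_mul' := fun a b => ψ₁.injective (by rw [hg, map_mul, map_mul, hg, hg])
      map_zero' := ψ₁.injective (by rw [hg, map_zero, map_zero])
      map_add' := fun a b => ψ₁.injective (by rw [hg, map_add, map_add, hg, hg])
      commutes' := fun r => ψ₁.injective (by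
        rw [hg]
        exact (congrArg (fun g : K →+* E => g r) h).symm) }
  exact ⟨AlgEquiv.ofBijective G (Algebra.IsAlgebraic.algHom_bijective G), fun x => (hg x).symm⟩

/-- an automorphism preserving a valuation for which `K` is dense is trivial -/
theorem eq_one_of_dense {Γ : Type*} [LinearOrderedCommGroupWithZero Γ] (q : Valuation L Γ)
    (hd : ∀ (f : L) (a : L), a ≠ 0 → ∃ g : K, q (f - algebraMap K L g) < q a)
    (σ : L ≃ₐ[K] L) (hσ : ∀ f, q (σ f) = q f) : σ = 1 := by
  ext f
  by_contra hne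
  have hne' : σ f - f ≠ 0 := sub_ne_zero.2 hne
  obtain ⟨g, hg⟩ := hd f (σ f - f) hne'
  have h1 : q (σ f - algebraMap K L g) < q (σ f - f) := by
    have := hσ (f - algebraMap K L g)
    rw [map_sub, AlgEquiv.commutes] at this
    rw [this]; exact hg
  have h2 : q (σ f - f) < q (σ f - f) := by
    have h3 : σ f - f = (σ f - algebraMap K L g) - (f - algebraMap K L g) := by ring
    calc q (σ f - f) = q ((σ f - algebraMap K L g) - (f - algebraMap K L g)) := by rw [← h3]
      _ < q (σ f - f) := Valuation.map_sub_lt q h1 hg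
  exact lt_irrefl _ h2

end Conj

/-- trivial inertia group -/
def NoInertia (K : Type*) {L : Type*} [Field K] [Field L] [Algebra K L] (w : Valuation L NNReal) :
    Prop :=
  ∀ σ : L ≃ₐ[K] L, σ ≠ 1 → (∀ f, w (σ f) = w f) → ∃ θ : L, w θ ≤ 1 ∧ w (σ θ - θ) = 1

namespace REnd

variable {C E : Type*} [Field C] [Field E] [Algebra C E] {nC : Valuation C NNReal}
  (D : REnd C E nC)
variable {K L : Type*} [Field K] [Field L] [Algebra K L] [Algebra C K] [Algebra C L]
  [IsScalarTower C K L]

/-- **Freeness.** -/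
theorem fix_of_noInertia (φ : K →+* E)
    (hφC : ∀ c : C, φ (algebraMap C K c) = algebraMap C E c)
    (t : K) (ht : D.gn (φ t) = 1) (ht' : D.od (φ t) = 1) (ψ : L →+* E)
    (h1 : ψ.comp (algebraMap K L) = φ) (hN : NoInertia K (D.gn.comap ψ)) (σ : L ≃ₐ[K] L)
    (hgn : ∀ f : L, D.gn (ψ (σ f)) = D.gn (ψ f))
    (hod : ∀ f : L, D.gn (ψ f) = 1 → D.od (ψ (σ f)) = D.od (ψ f)) : σ = 1 := by
  by_contra hσ
  obtain ⟨θ, hθ1, hθ2⟩ := hN σ hσ (fun f => hgn f)
  have hθ1 : D.gn (ψ θ) ≤ 1 := hθ1
  have hθ2 : D.gn (ψ (σ θ - θ)) = 1 := hθ2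
  set N : ℕ := (D.od (ψ (σ θ - θ)) - D.od (ψ θ) + 1).toNat with hNN
  obtain ⟨h, hh1, hh2⟩ := D.exists_approx φ hφC t ht ht' (ψ θ) hθ1 N
  set M : ℤ := D.od (ψ θ) + N with hM
  have e1 : ψ θ - φ h = ψ (θ - algebraMap K L h) := by
    rw [map_sub, ← h1]; rfl
  have hh3 : D.Sm M (ψ (σ θ) - φ h) := by
    have e2 : ψ (σ θ) - φ h = ψ (σ (θ - algebraMap K L h)) := by
      rw [map_sub, map_sub, AlgEquiv.commutes, ← h1]; rfl
    rw [e2]
    rw [e1] at hh2
    rcases hh2 with h5 | ⟨h5, h6⟩
    · left; rw [hgn]; exact h5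
    · right; rw [hgn, hod _ h5]; exact ⟨h5, h6⟩
  have h7 : D.Sm M (ψ (σ θ - θ)) := by
    have h8 := REnd.Sm.sub D hh3 hh2
    rwa [sub_sub_sub_cancel_right, ← map_sub] at h8
  rcases h7 with h8 | ⟨h8, h9⟩
  · exact h8.ne hθ2
  · omega

/-- if `K` is dense in `L` for the norm of the end, the inertia group is trivial -/
theorem noInertia_of_dense (w : Valuation L NNReal)
    (hd : ∀ (f : L) (a : L), a ≠ 0 → ∃ g : K, w (f - algebraMap K L g) < w a) :
    NoInertia K w := fun σ hσ h => absurd (eq_one_of_dense w hd σ h) hσ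

end REnd

end Crest.Agent.R013.Inh_770
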