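import Mathlib
import Crest.Agent.R013.Inh2_770

/-!
# Row 13, leaf C-INH (helper770), part 3: the valuation of a point of a cell

`PtRing C E` : a ring `R ⊆ E` of functions on a cell together with the evaluation `ev` at a point
`τ` and the function `l = T - τ`.  A homomorphism `ι : L → E` with values in quotients of elements
of `R` gives a discrete valuation `PtRing.val ι` of `L`, `f ↦ exp (- ord_τ (ι f))`.
-/

set_option autoImplicit false
set_option linter.unusedSectionVars false
open WithZero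

namespace Crest.Agent.R013.Inh_770

/-- functions on a cell with the evaluation at a point -/
structure PtRing (C E : Type*) [Field C] [CommRing E] [IsDomain E] [Algebra C E] where
  /-- the ring of functions -/
  R : Subring E
  /-- the evaluation -/
  ev : R →+* C
  /-- the function `T - τ` -/
  l : R
  C_mem : ∀ c : C, algebraMap C E c ∈ R
  ev_C : ∀ c : C, ev ⟨algebraMap C E c, C_mem c⟩ = c
  ev_l : ev l = 0
  fac : ∀ g : R, g ≠ 0 → ∃ (a : ℕ) (g' : R), g = l ^ a * g' ∧ ev g' ≠ 0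

namespace PtRing

variable {C E : Type*} [Field C] [CommRing E] [IsDomain E] [Algebra C E] (D : PtRing C E)

theorem l_ne : D.l ≠ 0 ∨ ∀ g : D.R, g ≠ 0 → D.ev g ≠ 0 := by
  by_cases h : D.l = 0
  · right
    intro g hg
    obtain ⟨a, g', h1, h2⟩ := D.fac g hg
    rcases a.eq_zero_or_pos with h3 | h3
    · rw [h1, h3, pow_zero, one_mul]; exact h2
    · rw [h, zero_pow h3.ne', zero_mul] at h1
      exact absurd h1 hg
  · exact Or.inl h

/-- `f = l ^ n * g / h`, `g`, `h` non-zero at the point -/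
def Rep (f : E) (n : ℤ) : Prop :=
  ∃ (a b : ℕ) (g h : D.R), D.ev g ≠ 0 ∧ D.ev h ≠ 0 ∧
    f * ((D.l : E) ^ b * h) = (D.l : E) ^ a * g ∧ n = a - b

theorem ne_zero_of_ev {g : D.R} (h : D.ev g ≠ 0) : (g : E) ≠ 0 := by
  intro h0
  apply h
  rw [show g = 0 from Subtype.ext h0, map_zero]

variable (hl : D.l ≠ 0)
include hl

theorem l_ne' : (D.l : E) ≠ 0 := fun h => hl (Subtype.ext h)

omit hl in
theorem ev_mul_ne {g h : D.R} (hg : D.ev g ≠ 0) (hh : D.ev h ≠ 0) : D.ev (g * h) ≠ 0 := by
  rw [map_mul]; exact mul_ne_zero hg hh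

/-- cancellation of powers of `l` -/
theorem pow_cancel {a a' : ℕ} {g g' : D.R} (hg : D.ev g ≠ 0) (hg' : D.ev g' ≠ 0)
    (h : (D.l : E) ^ a * g = (D.l : E) ^ a' * g') : a = a' := by
  have key : ∀ (a a' : ℕ) (g g' : D.R), D.ev g ≠ 0 → D.ev g' ≠ 0 →
      (D.l : E) ^ a * g = (D.l : E) ^ a' * g' → ¬ a < a' := by
    intro a a' g g' hg hg' h hlt
    obtain ⟨d, rfl⟩ : ∃ d, a' = a + (d + 1) := ⟨a' - a - 1, by omega⟩
    rw [pow_add, mul_assoc] at h
    have h1 := mul_left_cancel₀ (pow_ne_zero a (D.l_ne' hl)) h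
    apply hg
    have h2 : g = D.l ^ (d + 1) * g' := Subtype.ext (by
      rw [h1]; simp)
    rw [h2, map_mul, map_pow, D.ev_l, zero_pow (by omega), zero_mul]
  rcases lt_trichotomy a a' with h1 | h1 | h1
  · exact absurd h1 (key a a' g g' hg hg' h)
  · exact h1
  · exact absurd h1 (key a' a g' g hg' hg h.symm)

theorem Rep.unique {f : E} {n n' : ℤ} (h : D.Rep f n) (h' : D.Rep f n') : n = n' := by
  obtain ⟨a, b, g, h, hg, hh, e, rfl⟩ := h
  obtain ⟨a', b', g', h', hg', hh', e', rfl⟩ := h'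
  have h1 : (D.l : E) ^ (a + b') * (g * h' : D.R) = (D.l : E) ^ (a' + b) * (g' * h : D.R) := by
    rw [pow_add, pow_add, Subring.coe_mul, Subring.coe_mul]
    calc (D.l : E) ^ a * (D.l : E) ^ b' * (g * h') = ((D.l : E) ^ a * g) * ((D.l : E) ^ b' * h') := by
          ring
      _ = (f * ((D.l : E) ^ b * h)) * ((D.l : E) ^ b' * h') := by rw [e]
      _ = (f * ((D.l : E) ^ b' * h')) * ((D.l : E) ^ b * h) := by ring
      _ = ((D.l : E) ^ a' * g') * ((D.l : E) ^ b * h) := by rw [e']
      _ = (D.l : E) ^ a' * (D.l : E) ^ b * (g' * h) := by ring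
  have h2 := D.pow_cancel hl (D.ev_mul_ne hg hh') (D.ev_mul_ne hg' hh) h1
  omega

theorem Rep.ne_zero {f : E} {n : ℤ} (h : D.Rep f n) : f ≠ 0 := by
  obtain ⟨a, b, g, h, hg, hh, e, rfl⟩ := h
  rintro rfl
  rw [zero_mul] at e
  exact mul_ne_zero (pow_ne_zero _ (D.l_ne' hl)) (D.ne_zero_of_ev hg) e.symm

omit hl in
theorem Rep.mul {f f' : E} {n n' : ℤ} (h : D.Rep f n) (h' : D.Rep f' n') :
    D.Rep (f * f') (n + n') := by
  obtain ⟨a, b, g, h, hg, hh, e, rfl⟩ := h
  obtain ⟨a', b', g', h', hg', hh', e', rfl⟩ := h'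
  refine ⟨a + a', b + b', g * g', h * h', D.ev_mul_ne hg hg', D.ev_mul_ne hh hh', ?_, ?_⟩
  · rw [pow_add, pow_add, Subring.coe_mul, Subring.coe_mul]
    calc f * f' * ((D.l : E) ^ b * (D.l : E) ^ b' * (h * h')) =
          (f * ((D.l : E) ^ b * h)) * (f' * ((D.l : E) ^ b' * h')) := by ring
      _ = _ := by rw [e, e']; ring
  · push_cast; ring

omit hl in
theorem Rep.of_C {c : C} (hc : c ≠ 0) : D.Rep (algebraMap C E c) 0 := by
  refine ⟨0, 0, ⟨algebraMap C E c, D.C_mem c⟩, 1, ?_, ?_, ?_, ?_⟩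
  · rw [D.ev_C]; exact hc
  · rw [map_one]; exact one_ne_zero
  · simp
  · simp

omit hl in
theorem Rep.exists_of {f g h : E} (hf : f ≠ 0) (hg : g ∈ D.R) (hh : h ∈ D.R) (hh0 : h ≠ 0)
    (e : f * h = g) : ∃ n, D.Rep f n := by
  have hg0 : g ≠ 0 := by rw [← e]; exact mul_ne_zero hf hh0
  obtain ⟨a, g', h1, h2⟩ := D.fac ⟨g, hg⟩ (fun h0 => hg0 (congrArg Subtype.val h0))
  obtain ⟨b, h', h3, h4⟩ := D.fac ⟨h, hh⟩ (fun h0 => hh0 (congrArg Subtype.val h0))
  refine ⟨a - b, a, b, g', h', h2, h4, ?_, rfl⟩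
  have e1 : g = (D.l : E) ^ a * g' := congrArg Subtype.val h1
  have e2 : h = (D.l : E) ^ b * h' := congrArg Subtype.val h3
  rw [← e1, ← e2, e]

/-- ultrametric inequality -/
theorem Rep.add {f f' : E} {n n' m : ℤ} (h : D.Rep f n) (h' : D.Rep f' n')
    (hm : D.Rep (f + f') m) : min n n' ≤ m := by
  obtain ⟨a, b, g, h, hg, hh, e, rfl⟩ := h
  obtain ⟨a', b', g', h', hg', hh', e', rfl⟩ := h'
  obtain ⟨a'', b'', g'', h'', hg'', hh'', e'', rfl⟩ := hm
  -- multiply out
  set A := a + b' with hA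
  set A' := a' + b with hA'
  by_contra hcon
  rw [not_le, lt_min_iff] at hcon
  obtain ⟨hc1, hc2⟩ := hcon
  have hc1 : a'' + b < a + b'' := by omega
  have hc2 : a'' + b' < a' + b'' := by omega
  -- (f + f') l^(b+b'+b'') h h' h''
  have key : (D.l : E) ^ (a'' + b + b') * (g'' * h * h' : D.R) =
      (D.l : E) ^ (a + b' + b'') * (g * h' * h'' : D.R) +
      (D.l : E) ^ (a' + b + b'') * (g' * h * h'' : D.R) := by
    have e1 : (f + f') * ((D.l : E) ^ b'' * h'') * ((D.l : E) ^ b * h) * ((D.l : E) ^ b' * h') =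
        (f * ((D.l : E) ^ b * h)) * ((D.l : E) ^ b'' * h'') * ((D.l : E) ^ b' * h') +
        (f' * ((D.l : E) ^ b' * h')) * ((D.l : E) ^ b'' * h'') * ((D.l : E) ^ b * h) := by ring
    rw [e'', e, e'] at e1
    simp only [Subring.coe_mul, pow_add]
    linear_combination e1
  obtain ⟨u, hu⟩ : ∃ u, a + b' + b'' = (a'' + b + b') + (u + 1) := ⟨a + b'' - a'' - b - 1, by omega⟩
  obtain ⟨u', hu'⟩ : ∃ u', a' + b + b'' = (a'' + b + b') + (u' + 1) :=
    ⟨a' + b'' - a'' - b' - 1, by omega⟩
  rw [hu, hu', pow_add _ _ (u + 1), pow_add _ _ (u' + 1)] at key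
  have key' : (D.l : E) ^ (a'' + b + b') * (g'' * h * h' : D.R) =
      (D.l : E) ^ (a'' + b + b') * ((D.l : E) ^ (u + 1) * (g * h' * h'' : D.R) +
        (D.l : E) ^ (u' + 1) * (g' * h * h'' : D.R)) := by
    rw [key]; ring
  have h1 := mul_left_cancel₀ (pow_ne_zero _ (D.l_ne' hl)) key'
  have h2 : g'' * h * h' = D.l ^ (u + 1) * (g * h' * h'') + D.l ^ (u' + 1) * (g' * h * h'') :=
    Subtype.ext (by rw [h1]; simp)
  have h3 := congrArg D.ev h2
  rw [map_add, map_mul D.ev (D.l ^ (u + 1)), map_mul D.ev (D.l ^ (u' + 1)), map_pow, map_pow,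
    D.ev_l, zero_pow (by omega), zero_pow (by omega), zero_mul, zero_mul, add_zero] at h3
  exact D.ev_mul_ne (D.ev_mul_ne hg'' hh) hh' h3

section Val

variable {L : Type*} [Field L] (ι : L →+* E)
  (hq : ∀ f : L, ∃ g h : E, h ≠ 0 ∧ g ∈ D.R ∧ h ∈ D.R ∧ ι f * h = g)

omit hl in
include hq in
theorem exists_rep (f : L) (hf : f ≠ 0) : ∃ n, D.Rep (ι f) n := by
  obtain ⟨g, h, h0, hg, hh, e⟩ := hq f
  exact Rep.exists_of D (by rwa [Ne, map_eq_zero]) hg hh h0 e

open Classical in
/-- the valuation of the point -/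
noncomputable def val : Valuation L ℤᵐ⁰ where
  toFun f := if h : f = 0 then 0 else exp (-(D.exists_rep ι hq f h).choose)
  map_zero' := by simp
  map_one' := by
    rw [dif_neg one_ne_zero]
    have h1 := (D.exists_rep ι hq 1 one_ne_zero).choose_spec
    have h2 : D.Rep (ι (1 : L)) 0 := by
      have := Rep.of_C D (c := (1 : C)) one_ne_zero
      rwa [map_one, ← map_one ι] at this
    rw [Rep.unique D hl h1 h2]
    simp
  map_mul' := by
    intro f g
    by_cases hf : f = 0
    · rw [hf, zero_mul, dif_pos rfl, zero_mul]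
    by_cases hg : g = 0
    · rw [hg, mul_zero, dif_pos rfl, mul_zero]
    rw [dif_neg (mul_ne_zero hf hg), dif_neg hf, dif_neg hg, ← exp_add]
    congr 1
    have h1 := (D.exists_rep ι hq f hf).choose_spec
    have h2 := (D.exists_rep ι hq g hg).choose_spec
    have h3 := (D.exists_rep ι hq (f * g) (mul_ne_zero hf hg)).choose_spec
    have h4 := Rep.mul D h1 h2
    rw [← map_mul] at h4
    rw [Rep.unique D hl h3 h4]
    ring
  map_add_le_max' := by
    intro f g
    by_cases hf : f = 0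
    · rw [hf, zero_add]; exact le_max_right _ _
    by_cases hg : g = 0
    · rw [hg, add_zero]; exact le_max_left _ _
    by_cases hfg : f + g = 0
    · rw [hfg, dif_pos rfl]; exact zero_le
    rw [dif_neg hfg, dif_neg hf, dif_neg hg, le_max_iff, exp_le_exp, exp_le_exp]
    have h1 := (D.exists_rep ι hq f hf).choose_spec
    have h2 := (D.exists_rep ι hq g hg).choose_spec
    have h3 := (D.exists_rep ι hq (f + g) hfg).choose_spec
    have h4 := Rep.add D hl h1 h2 (m := (D.exists_rep ι hq (f + g) hfg).choose)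
      ((map_add ι f g) ▸ h3)
    rcases min_le_iff.1 h4 with h5 | h5
    · left; omega
    · right; omega

theorem val_eq_of_rep {f : L} {n : ℤ} (h : D.Rep (ι f) n) : D.val hl ι hq f = exp (-n) := by
  classical
  have hf : f ≠ 0 := by
    rintro rfl
    exact Rep.ne_zero D hl h (map_zero ι)
  change (if h : f = 0 then 0 else exp (-(D.exists_rep ι hq f h).choose)) = _
  rw [dif_neg hf, Rep.unique D hl (D.exists_rep ι hq f hf).choose_spec h]

theorem val_const [Algebra C L] (hC : ∀ c : C, ι (algebraMap C L c) = algebraMap C E c) (c : C)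
    (hc : c ≠ 0) : D.val hl ι hq (algebraMap C L c) = 1 := by
  rw [D.val_eq_of_rep hl ι hq (n := 0) (by rw [hC]; exact Rep.of_C D hc)]
  simp

/-- a function which is a unit at the point is congruent to a constant -/
theorem exists_const [Algebra C L] (hC : ∀ c : C, ι (algebraMap C L c) = algebraMap C E c) (f : L)
    (hf : D.val hl ι hq f = 1) : ∃ c : C, c ≠ 0 ∧ D.val hl ι hq (f - algebraMap C L c) < 1 := by
  have hf0 : f ≠ 0 := by
    rintro rfl; rw [map_zero] at hf; exact zero_ne_one hf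
  obtain ⟨n, hn⟩ := D.exists_rep ι hq f hf0
  have h0 : n = 0 := by
    have := D.val_eq_of_rep hl ι hq hn
    rw [hf, ← exp_zero, exp_inj] at this
    omega
  subst h0
  obtain ⟨a, b, g, h, hg, hh, e, hab⟩ := hn
  obtain rfl : a = b := by omega
  have e' : ι f * h = g := by
    have h1 : (D.l : E) ^ a * (ι f * h) = (D.l : E) ^ a * g := by rw [← e]; ring
    exact mul_left_cancel₀ (pow_ne_zero _ (D.l_ne' hl)) h1
  refine ⟨D.ev g / D.ev h, div_ne_zero hg hh, ?_⟩
  set c := D.ev g / D.ev h with hc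
  by_cases hfc : f - algebraMap C L c = 0
  · rw [hfc, map_zero]; exact zero_lt_one
  set G : D.R := g - ⟨algebraMap C E c, D.C_mem c⟩ * h with hG
  have hG1 : ι (f - algebraMap C L c) * h = G := by
    rw [map_sub, hC, sub_mul, e', hG]; simp
  have hG0 : G ≠ 0 := by
    intro h0
    have : ι (f - algebraMap C L c) * h = 0 := by rw [hG1, h0]; rfl
    rcases mul_eq_zero.1 this with h2 | h2
    · exact hfc ((map_eq_zero ι).1 h2)
    · exact D.ne_zero_of_ev hh h2
  have hGev : D.ev G = 0 := by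
    rw [hG, map_sub, map_mul, D.ev_C, hc, div_mul_cancel₀ _ hh, sub_self]
  obtain ⟨m, G', hm1, hm2⟩ := D.fac G hG0
  have hm0 : 0 < m := by
    rcases Nat.eq_zero_or_pos m with h3 | h3
    · exfalso
      rw [hm1, h3, pow_zero, one_mul] at hGev
      exact hm2 hGev
    · exact h3
  have hrep : D.Rep (ι (f - algebraMap C L c)) m := by
    refine ⟨m, 0, G', h, hm2, hh, ?_, by simp⟩
    rw [pow_zero, one_mul, hG1, hm1]
    simp
  rw [D.val_eq_of_rep hl ι hq hrep, ← exp_zero, exp_lt_exp]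
  omega

end Val

section Dense

variable {K L : Type*} [Field K] [Field L] [Algebra K L] [Algebra C K] [Algebra C L]
  [IsScalarTower C K L] (ι : L →+* E)
  (hq : ∀ f : L, ∃ g h : E, h ≠ 0 ∧ g ∈ D.R ∧ h ∈ D.R ∧ ι f * h = g)

/-- `K` is dense in `L` at the point, if `K` contains a uniformiser -/
theorem dense (hC : ∀ c : C, ι (algebraMap C L c) = algebraMap C E c)
    (t : K) (ht : D.val hl ι hq (algebraMap K L t) = exp (-1)) (f a : L) (ha : a ≠ 0) :
    ∃ g : K, D.val hl ι hq (f - algebraMap K L g) < D.val hl ι hq a := by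
  set q := D.val hl ι hq with hqq
  obtain ⟨m, hm⟩ : ∃ m : ℤ, q a = exp m :=
    ⟨log (q a), (exp_log ((Valuation.ne_zero_iff q).mpr ha)).symm⟩
  have htn : ∀ n : ℤ, q (algebraMap K L (t ^ n)) = exp (-n) := by
    intro n
    rw [map_zpow₀, map_zpow₀, ht, ← exp_zsmul]
    simp
  -- start
  obtain ⟨n0, hn0⟩ : ∃ n0 : ℤ, q f ≤ exp (-n0) := by
    by_cases hf : f = 0
    · exact ⟨0, by rw [hf, map_zero]; exact zero_le⟩
    · exact ⟨-log (q f), by rw [neg_neg, exp_log ((Valuation.ne_zero_iff q).mpr hf)]⟩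
  have key : ∀ N : ℕ, ∃ g : K, q (f - algebraMap K L g) ≤ exp (-(n0 + N)) := by
    intro N
    induction N with
    | zero => exact ⟨0, by simpa using hn0⟩
    | succ N ih =>
      obtain ⟨g, hg⟩ := ih
      rcases hg.lt_or_eq with h1 | h1
      · refine ⟨g, ?_⟩
        by_cases h0 : q (f - algebraMap K L g) = 0
        · rw [h0]; exact zero_le
        · have h2 := exp_log h0
          rw [← h2, exp_lt_exp] at h1
          rw [← h2, exp_le_exp]
          push_cast
          omega
      · set r := f - algebraMap K L g with hr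
        have h3 : q (r * algebraMap K L (t ^ (-(n0 + N : ℤ)))) = 1 := by
          rw [map_mul, h1, htn, ← exp_add]
          simp
        obtain ⟨c, hc0, hc⟩ := D.exists_const hl ι hq hC _ h3
        refine ⟨g + algebraMap C K c * t ^ (n0 + N : ℤ), ?_⟩
        have h4 : f - algebraMap K L (g + algebraMap C K c * t ^ (n0 + N : ℤ)) =
            (r * algebraMap K L (t ^ (-(n0 + N : ℤ))) - algebraMap C L c) *
              algebraMap K L (t ^ (n0 + N : ℤ)) := by
          have h5 : algebraMap K L (t ^ (-(n0 + N : ℤ))) * algebraMap K L (t ^ (n0 + N : ℤ)) = 1 := by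
            have ht0 : t ≠ 0 := by
              rintro rfl; rw [map_zero, map_zero] at ht; exact exp_ne_zero ht.symm
            rw [← map_mul, ← zpow_add₀ ht0]
            simp
          rw [sub_mul, mul_assoc, h5, mul_one, hr, map_add, map_mul,
            ← IsScalarTower.algebraMap_apply C K L]
          ring
        rw [h4, map_mul, htn]
        have h6 : D.val hl ι hq (r * algebraMap K L (t ^ (-(n0 + N : ℤ))) - algebraMap C L c) ≤
            exp (-1) := by
          by_cases h0 : D.val hl ι hq (r * algebraMap K L (t ^ (-(n0 + N : ℤ))) -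
              algebraMap C L c) = 0
          · rw [h0]; exact zero_le
          · have h2 := exp_log h0
            rw [← h2, ← exp_zero, exp_lt_exp] at hc
            rw [← h2, exp_le_exp]
            omega
        calc q (r * algebraMap K L (t ^ (-(n0 + N : ℤ))) - algebraMap C L c) * exp (-(n0 + N : ℤ)) ≤
              exp (-1) * exp (-(n0 + N : ℤ)) := mul_le_mul_left h6 _
          _ = exp (-(n0 + (N + 1 : ℕ) : ℤ)) := by rw [← exp_add]; congr 1; push_cast; ring
  obtain ⟨g, hg⟩ := key (-m - n0 + 1).toNat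
  refine ⟨g, lt_of_le_of_lt hg ?_⟩
  rw [hm, exp_lt_exp]
  omega

end Dense

end PtRing

end Crest.Agent.R013.Inh_770
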