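import Mathlib
import Crest.Agent.R013.SSDefs_332
import Crest.Agent.R013.EE4_809
import Crest.Agent.R013.Inh3_770

/-!
# Row 13, leaf C-INH (helper770), part 4: the field `EE k C` as boundary field, equality of ends
-/

set_option autoImplicit false
set_option linter.all false
open WithZero
open scoped NNReal
open Crest.Agent.R013.RR7_948 Crest.Agent.R013.Red332 Crest.Agent.R013.EE809
open Crest.Agent.R013.Cell_408 (FinDef DiscNorm)

namespace Crest.Agent.R013.Inh_770

theorem norm_sub_le_max' {C : Type*} [NormedField C] [IsUltrametricDist C] (a b : C) :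
    ‖a - b‖ ≤ max ‖a‖ ‖b‖ := by
  rw [sub_eq_add_neg, ← norm_neg b]
  exact IsUltrametricDist.norm_add_le_max _ _

section EEinst

variable {k : Type*} [NontriviallyNormedField k] [CompleteSpace k] [IsUltrametricDist k]
variable {C : Type*} [NormedField C] [IsUltrametricDist C] [NormedAlgebra k C]
variable [Algebra.IsAlgebraic k C] [IsAlgClosed C] [hk : Fact (DiscNorm k)]

/-- the Gauss norm in `ℝ≥0` -/
noncomputable def gnn (a : EE k C) : ℝ≥0 := Real.toNNReal (gn a)

omit [IsUltrametricDist k] [Algebra.IsAlgebraic k C] [IsAlgClosed C] hk in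
theorem coe_gnn (a : EE k C) : ((gnn a : ℝ≥0) : ℝ) = gn a := Real.coe_toNNReal _ (gn_nonneg a)

/-- the Gauss norm as a valuation -/
noncomputable def gnV : Valuation (EE k C) ℝ≥0 where
  toFun a := gnn a
  map_zero' := NNReal.eq (by rw [coe_gnn, gn_zero]; rfl)
  map_one' := NNReal.eq (by rw [coe_gnn, gn_one]; rfl)
  map_mul' := fun a b => NNReal.eq (by
    rw [NNReal.coe_mul, coe_gnn, coe_gnn, coe_gnn]; exact gn_mul hk.out a b)
  map_add_le_max' := fun a b => by
    rw [← NNReal.coe_le_coe, NNReal.coe_max, coe_gnn, coe_gnn, coe_gnn]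
    exact gn_add_le a b

theorem coe_gnV (a : EE k C) : ((gnV a : ℝ≥0) : ℝ) = gn a := coe_gnn a

theorem gnV_lt {a b : EE k C} : gnV a < gnV b ↔ gn a < gn b := by
  rw [← NNReal.coe_lt_coe, coe_gnV, coe_gnV]

theorem gnV_eq {a b : EE k C} : gnV a = gnV b ↔ gn a = gn b := by
  rw [← NNReal.coe_inj, coe_gnV, coe_gnV]

theorem gnV_C (c : C) : gnV (algebraMap C (EE k C) c) = ‖c‖₊ := by
  ext; rw [coe_gnV]; exact gn_algebraMap c

theorem nrmC (c : C) : (NormedField.valuation (K := C) c) = ‖c‖₊ := rfl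

/-- `EE k C` is a boundary field -/
noncomputable def DE : REnd C (EE k C) (NormedField.valuation (K := C)) where
  gn := gnV
  od := EE809.od
  gn_C := gnV_C
  gn_val := fun a ha => ⟨a.co (EE809.od a), by
    ext
    rw [coe_gnV]
    exact (norm_co_od hk.out ha).symm⟩
  od_C := fun c hc => by
    rw [algebraMap_eq]
    exact od_mono 0 _ hc
  od_mul := fun a b ha hb => EE809.od_mul hk.out ha hb
  od_add := fun a b ha h h' => by
    rw [gnV_eq] at h
    have hab : a + b ≠ 0 := by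
      intro h0
      rw [h0, gn_zero] at h
      exact ha (gn_eq_zero.1 h.symm)
    by_contra hcon
    rw [not_le] at hcon
    have h1 := norm_co_od hk.out hab
    rw [h, co_add] at h1
    have h2 : ‖a.co (EE809.od (a + b))‖ < gn a := norm_lt_of_lt_od ha hcon
    have h3 : ‖b.co (EE809.od (a + b))‖ < gn a := by
      rcases h' with h' | ⟨h', h''⟩
      · exact lt_of_le_of_lt (le_gn b _) (gnV_lt.1 h')
      · rw [gnV_eq] at h'
        have hb : b ≠ 0 := by
          rintro rfl
          rw [gn_zero] at h'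
          exact ha (gn_eq_zero.1 h'.symm)
        rw [← h']
        exact norm_lt_of_lt_od hb (lt_of_lt_of_le hcon h'')
    have h4 := lt_of_le_of_lt (IsUltrametricDist.norm_add_le_max _ _) (max_lt h2 h3)
    exact h4.ne h1
  approx := fun a b ha hb h h' => by
    rw [gnV_eq] at h
    have ha1 := norm_co_od hk.out ha
    have hb1 := norm_co_od hk.out hb
    rw [← h'] at hb1
    have hbn : b.co (EE809.od a) ≠ 0 := by
      intro h0
      rw [h0, norm_zero] at hb1
      exact hb (gn_eq_zero.1 hb1.symm)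
    have hgn := gn_pos ha
    refine ⟨a.co (EE809.od a) / b.co (EE809.od a), ?_, ?_⟩
    · ext
      change ‖_‖ = (1 : ℝ)
      rw [norm_div, ha1, hb1, ← h, div_self hgn.ne']
    set c := a.co (EE809.od a) / b.co (EE809.od a) with hc
    have hc1 : ‖c‖ = 1 := by rw [hc, norm_div, ha1, hb1, ← h, div_self hgn.ne']
    have hco : ∀ m, (a - algebraMap C (EE k C) c * b).co m = a.co m - c * b.co m := by
      intro m
      rw [co_sub, ← Algebra.smul_def, co_smul]
    have hle : gn (a - algebraMap C (EE k C) c * b) ≤ gn a := by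
      refine gn_le fun m => ?_
      rw [hco]
      refine (norm_sub_le_max' _ _).trans (max_le (le_gn a m) ?_)
      rw [norm_mul, hc1, one_mul, h]
      exact le_gn b m
    rcases hle.lt_or_eq with h1 | h1
    · exact Or.inl (gnV_lt.2 h1)
    · right
      refine ⟨gnV_eq.2 h1, ?_⟩
      have hne : a - algebraMap C (EE k C) c * b ≠ 0 := by
        intro h0
        rw [h0, gn_zero] at h1
        exact hgn.ne h1
      have h2 := norm_co_od hk.out hne
      rw [h1] at h2
      by_contra hcon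
      rw [not_lt] at hcon
      rcases hcon.lt_or_eq with h3 | h3
      · have h4 : ‖a.co (EE809.od (a - algebraMap C (EE k C) c * b))‖ < gn a :=
          norm_lt_of_lt_od ha h3
        have h5 : ‖c * b.co (EE809.od (a - algebraMap C (EE k C) c * b))‖ < gn a := by
          rw [norm_mul, hc1, one_mul, h]
          exact norm_lt_of_lt_od hb (by rw [← h']; exact h3)
        rw [hco] at h2
        have h6 := lt_of_le_of_lt (norm_sub_le_max' _ _) (max_lt h4 h5)
        exact h6.ne h2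
      · rw [h3, hco, hc, div_mul_cancel₀ _ hbn, sub_self, norm_zero] at h2
        exact hgn.ne h2

/-- `EE k C` as an `End2` -/
noncomputable def E2 : End2 C (EE k C) where
  nm := gnV
  od := EE809.od
  hC := gnV_C
  val := fun a ha => (DE (k := k) (C := C)).gn_val a ha
  od_C := (DE (k := k) (C := C)).od_C
  od_mul := (DE (k := k) (C := C)).od_mul
  od_lt := fun a b h => (DE (k := k) (C := C)).od_add_lt a b h
  od_add := fun a b ha hb h h' =>
    (DE (k := k) (C := C)).od_add_ge a b _ (gnV a) h' le_rfl h.symm.le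
      (by
        intro h0
        rw [h0, map_zero] at h'
        exact ha ((Valuation.zero_iff _).1 h'.symm))
      (fun _ => min_le_left _ _) (fun _ => min_le_right _ _)

end EEinst

section End2eq

variable {C : Type*} [NormedField C] [IsUltrametricDist C] {L : Type*} [Field L] [Algebra C L]

/-- two ends with the same valuation ring have the same norm -/
theorem nm_eq_of_ring (hnt : ∃ c : C, c ≠ 0 ∧ ‖c‖ < 1) (E E' : End2 C L)
    (h : ∀ f, (E.nm f < 1 ∨ (E.nm f = 1 ∧ 0 ≤ E.od f)) ↔ (E'.nm f < 1 ∨ (E'.nm f = 1 ∧ 0 ≤ E'.od f)))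
    (f : L) : E.nm f = E'.nm f := by
  obtain ⟨c, hc0, hc1⟩ := hnt
  have hc1' : ‖c‖₊ < 1 := hc1
  have hc0' : ‖c‖₊ ≠ 0 := by simpa using hc0
  have key : ∀ (E E' : End2 C L), (∀ f, (E.nm f < 1 ∨ (E.nm f = 1 ∧ 0 ≤ E.od f)) →
      (E'.nm f < 1 ∨ (E'.nm f = 1 ∧ 0 ≤ E'.od f))) → ∀ f, E.nm f ≤ 1 → E'.nm f ≤ 1 := by
    intro E E' h f hf
    by_contra hcon
    rw [not_le] at hcon
    obtain ⟨m, hm⟩ := pow_unbounded_of_one_lt ((‖c‖₊)⁻¹) hcon
    have h1 := h (algebraMap C L c * f ^ m) (Or.inl (by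
      rw [map_mul, E.hC, map_pow]
      exact lt_of_le_of_lt (mul_le_of_le_one_right' (pow_le_one₀ zero_le hf)) hc1'))
    rw [map_mul, E'.hC, map_pow] at h1
    have h2 : 1 < ‖c‖₊ * E'.nm f ^ m := by
      have := mul_lt_mul_of_pos_left hm (zero_lt_iff.2 hc0')
      rwa [mul_inv_cancel₀ hc0'] at this
    rcases h1 with h1 | ⟨h1, -⟩
    · exact lt_asymm h1 h2
    · exact h2.ne' h1
  have hle : ∀ f, E.nm f ≤ 1 ↔ E'.nm f ≤ 1 := fun f =>
    ⟨key E E' (fun f => (h f).1) f, key E' E (fun f => (h f).2) f⟩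
  have hone : ∀ f, E'.nm f = 1 → E.nm f = 1 := by
    intro f hf
    have hf0 : f ≠ 0 := by
      rintro rfl; rw [map_zero] at hf; exact zero_ne_one hf
    refine le_antisymm ((hle f).2 hf.le) ?_
    have h1 := (hle f⁻¹).2 (by rw [map_inv₀, hf, inv_one])
    rw [map_inv₀] at h1
    have h2 : 0 < E.nm f := zero_lt_iff.2 ((Valuation.ne_zero_iff _).2 hf0)
    exact (inv_le_one₀ h2).1 h1
  by_cases hf : f = 0
  · rw [hf, map_zero, map_zero]
  obtain ⟨b, hb⟩ := E'.val f hf
  have hb0 : ‖b‖₊ ≠ 0 := by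
    rw [← hb]; exact (Valuation.ne_zero_iff _).2 hf
  have h1 := hone (algebraMap C L b⁻¹ * f) (by
    rw [map_mul, E'.hC, hb, nnnorm_inv, inv_mul_cancel₀ hb0])
  rw [map_mul, E.hC, nnnorm_inv, inv_mul_eq_iff_eq_mul₀ hb0, mul_one] at h1
  rw [hb]; exact h1

/-- two ends with the same valuation ring and normalised orders are equal -/
theorem od_eq_of_ring (hnt : ∃ c : C, c ≠ 0 ∧ ‖c‖ < 1) (E E' : End2 C L)
    (h : ∀ f, (E.nm f < 1 ∨ (E.nm f = 1 ∧ 0 ≤ E.od f)) ↔ (E'.nm f < 1 ∨ (E'.nm f = 1 ∧ 0 ≤ E'.od f)))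
    (t : L) (ht : E.nm t = 1) (ht1 : E.od t = 1) (t' : L) (ht' : E'.nm t' = 1)
    (ht1' : E'.od t' = 1) (f : L) (hf : f ≠ 0) : E.od f = E'.od f := by
  have hnm := nm_eq_of_ring hnt E E' h
  have hsgn : ∀ f, E.nm f = 1 → (0 ≤ E.od f ↔ 0 ≤ E'.od f) := by
    intro f hf
    have hf' : E'.nm f = 1 := by rw [← hnm, hf]
    have h1 := h f
    rw [hf, hf'] at h1
    simpa using h1
  have hz : ∀ f, E.nm f = 1 → E.od f = 0 → E'.od f = 0 := by
    intro f hf h0
    have hf0 : f ≠ 0 := by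
      rintro rfl; rw [map_zero] at hf; exact zero_ne_one hf
    have h1 := (hsgn f hf).1 h0.ge
    have h2 := (hsgn f⁻¹ (by rw [map_inv₀, hf, inv_one])).1 (by rw [E.od_inv hf0]; omega)
    rw [E'.od_inv hf0] at h2
    omega
  have ht0 : t ≠ 0 := by
    rintro rfl; rw [map_zero] at ht; exact zero_ne_one ht
  set m := E'.od t with hm
  have hlin : ∀ f, E.nm f = 1 → E'.od f = m * E.od f := by
    intro f hf
    have hf0 : f ≠ 0 := by
      rintro rfl; rw [map_zero] at hf; exact zero_ne_one hf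
    have h1 : E.nm (f * t ^ (-E.od f)) = 1 := by
      rw [map_mul, map_zpow₀, ht, one_zpow, mul_one, hf]
    have h2 := hz _ h1 (by
      rw [E.od_mul _ _ hf0 (zpow_ne_zero _ ht0), E.od_zpow ht0, ht1]; ring)
    rw [E'.od_mul _ _ hf0 (zpow_ne_zero _ ht0), E'.od_zpow ht0, ← hm] at h2
    linarith
  have hm1 : m = 1 := by
    have h1 := hlin t' (by rw [hnm, ht'])
    rw [ht1'] at h1
    have h2 : 0 ≤ m := by
      have := (hsgn t ht).1 (by rw [ht1]; norm_num)
      exact this
    have h3 : m ∣ 1 := ⟨_, h1⟩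
    have h4 := Int.isUnit_iff.1 (isUnit_of_dvd_one h3)
    omega
  obtain ⟨c, hc0, hc1, hc2⟩ := E.exists_one hf
  obtain ⟨h5, h6⟩ : algebraMap C L c ≠ 0 ∧ E'.od (f * (algebraMap C L c)⁻¹) = E'.od f := by
    have h7 : algebraMap C L c ≠ 0 := by rwa [Ne, map_eq_zero]
    refine ⟨h7, ?_⟩
    rw [← map_inv₀, E'.od_mul _ _ hf (by rw [Ne, map_eq_zero]; exact inv_ne_zero hc0),
      E'.od_C _ (inv_ne_zero hc0), add_zero]
  rw [← hc2, ← h6, hlin _ hc1, hm1, one_mul]

end End2eq

end Crest.Agent.R013.Inh_770
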