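import Mathlib
import Crest.Agent.R013.Red2_332

/-!
# R013 / Red3: every end over a good end is one of the ends of the factors (helper332)

Let `F0 → K` be an extension of fields, `E0` an end of `F0`, `L0` a field with an end `EL` and
`ε : F0 → L0` compatible; `L j` finitely many fields with ends `EJ j`, `φ j : L0 → L j`,
`ι j : K → L j`, `ι j = φ j ∘ ε` on `F0`.  If `K ⊗ L0 → ∏ L j` is injective and the ring of `EJ j` is
integral over the ring of `EL`, then every end `E` of `K` over `E0` is one of the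
`EJ j ∘ ι j` (up to proportionality of the orders).
-/

set_option autoImplicit false
set_option linter.all false

namespace Crest.Agent.R013.Red332

open scoped NNReal
open WithZero IsLocalRing Polynomial
open Crest.Agent.R013.RR7_948

namespace End2

variable {C : Type*} [NormedField C] [IsUltrametricDist C] {F : Type*} [Field F] [Algebra C F]

section ring

variable (E : End2 C F)

/-- `f` lies in the maximal ideal of the end -/
def lt1 (f : F) : Prop := E.nm f < 1 ∨ (E.nm f = 1 ∧ 0 < E.od f)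

/-- the valuation ring (of rank two) of an end -/
def ring : ValuationSubring F where
  carrier := {f | E.nm f < 1 ∨ (E.nm f = 1 ∧ 0 ≤ E.od f)}
  mul_mem' := by
    rintro a b (ha | ⟨ha, ha'⟩) (hb | ⟨hb, hb'⟩)
    · left
      rw [map_mul]
      exact mul_lt_one_of_nonneg_of_lt_one_left zero_le' ha hb.le
    · left
      rw [map_mul, hb, mul_one]
      exact ha
    · left
      rw [map_mul, ha, one_mul]
      exact hb
    · right
      refine ⟨by rw [map_mul, ha, hb, one_mul], ?_⟩
      rw [E.od_mul a b (E.ne_zero_of_one ha) (E.ne_zero_of_one hb)]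
      exact add_nonneg ha' hb'
  one_mem' := Or.inr ⟨map_one _, E.od_one.ge⟩
  add_mem' := by
    rintro a b (ha | ⟨ha, ha'⟩) (hb | ⟨hb, hb'⟩)
    · left
      exact E.nm.map_add_lt ha hb
    · right
      have h : E.nm a < E.nm b := by rw [hb]; exact ha
      rw [add_comm a b]
      exact ⟨by rw [Valuation.map_add_eq_of_lt_left _ h, hb], by rw [E.od_lt b a h]; exact hb'⟩
    · right
      have h : E.nm b < E.nm a := by rw [ha]; exact hb
      exact ⟨by rw [Valuation.map_add_eq_of_lt_left _ h, ha], by rw [E.od_lt a b h]; exact ha'⟩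
    · have h : E.nm (a + b) ≤ 1 := (E.nm.map_add a b).trans (max_le ha.le hb.le)
      rcases h.lt_or_eq with h1 | h1
      · exact Or.inl h1
      · right
        refine ⟨h1, ?_⟩
        refine le_trans (le_min ha' hb') (E.od_add a b (E.ne_zero_of_one ha) (E.ne_zero_of_one hb)
          (by rw [ha, hb]) (by rw [h1, ha]))
  zero_mem' := Or.inl (by rw [map_zero]; exact zero_lt_one)
  neg_mem' := by
    rintro a (ha | ⟨ha, ha'⟩)
    · left
      rw [Valuation.map_neg]; exact ha
    · right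
      rw [Valuation.map_neg, E.od_neg]
      exact ⟨ha, ha'⟩
  mem_or_inv_mem' := by
    intro a
    by_cases ha : a = 0
    · left
      left
      rw [ha, map_zero]
      exact zero_lt_one
    rcases lt_trichotomy (E.nm a) 1 with h | h | h
    · exact Or.inl (Or.inl h)
    · rcases le_total 0 (E.od a) with h1 | h1
      · exact Or.inl (Or.inr ⟨h, h1⟩)
      · right
        right
        rw [map_inv₀, h, inv_one, E.od_inv ha]
        exact ⟨rfl, neg_nonneg.2 h1⟩
    · right
      left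
      rw [map_inv₀]
      exact inv_lt_one_of_one_lt₀ h

theorem mem_ring {f : F} : f ∈ E.ring ↔ E.nm f < 1 ∨ (E.nm f = 1 ∧ 0 ≤ E.od f) := Iff.rfl

theorem lt1_mem {f : F} (h : E.lt1 f) : f ∈ E.ring := by
  rcases h with h | ⟨h, h'⟩
  · exact Or.inl h
  · exact Or.inr ⟨h, h'.le⟩

theorem not_mem_ring_iff {f : F} (hf : f ≠ 0) : f ∉ E.ring ↔ E.lt1 f⁻¹ := by
  rw [mem_ring, lt1, map_inv₀, E.od_inv hf, not_or]
  constructor
  · rintro ⟨h1, h2⟩
    rcases (not_lt.1 h1).lt_or_eq with h3 | h3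
    · exact Or.inl (inv_lt_one_of_one_lt₀ h3)
    · right
      rw [← h3, inv_one]
      refine ⟨rfl, ?_⟩
      by_contra h4
      exact h2 ⟨h3.symm, by omega⟩
  · rintro (h | ⟨h, h'⟩)
    · have h3 : 1 < E.nm f := by
        have h0 : 0 < E.nm f := zero_lt_iff.2 ((Valuation.ne_zero_iff _).2 hf)
        exact (inv_lt_one₀ h0).1 h
      exact ⟨not_lt.2 h3.le, fun h4 => h3.ne' h4.1⟩
    · rw [inv_eq_one] at h
      rw [h]
      exact ⟨lt_irrefl 1, fun h4 => by omega⟩

theorem not_lt1_iff {f : F} (hf : f ≠ 0) : ¬ E.lt1 f ↔ f⁻¹ ∈ E.ring := by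
  rw [← not_iff_not, not_not, E.not_mem_ring_iff (inv_ne_zero hf), inv_inv]

theorem lt1_zero : E.lt1 0 := Or.inl (by rw [map_zero]; exact zero_lt_one)

theorem not_lt1_one : ¬ E.lt1 1 := by
  rw [E.not_lt1_iff one_ne_zero, inv_one]
  exact one_mem _

theorem lt1_mul {f g : F} (hf : f ∈ E.ring) (hg : E.lt1 g) : E.lt1 (f * g) := by
  by_cases hg0 : g = 0
  · rw [hg0, mul_zero]
    exact E.lt1_zero
  by_cases hf0 : f = 0
  · rw [hf0, zero_mul]
    exact E.lt1_zero
  by_contra h
  rw [E.not_lt1_iff (mul_ne_zero hf0 hg0)] at h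
  have h2 : g⁻¹ ∈ E.ring := by
    have : g⁻¹ = f * (f * g)⁻¹ := by
      field_simp
    rw [this]
    exact mul_mem hf h
  exact (E.not_lt1_iff hg0).2 h2 hg

theorem lt1_add {f g : F} (hf : E.lt1 f) (hg : E.lt1 g) : E.lt1 (f + g) := by
  by_cases hg0 : g = 0
  · rw [hg0, add_zero]; exact hf
  by_cases hf0 : f = 0
  · rw [hf0, zero_add]; exact hg
  rcases E.ring.mem_or_inv_mem (f / g) with h | h
  · have : f + g = (f / g + 1) * g := by field_simp
    rw [this]
    exact E.lt1_mul (add_mem h (one_mem _)) hg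
  · have : f + g = ((f / g)⁻¹ + 1) * f := by field_simp; ring
    rw [this]
    exact E.lt1_mul (add_mem h (one_mem _)) hf

theorem lt1_neg {f : F} (hf : E.lt1 f) : E.lt1 (-f) := by
  have := E.lt1_mul (neg_mem (one_mem E.ring)) hf
  rwa [neg_one_mul] at this

theorem lt1_C {c : C} : E.lt1 (algebraMap C F c) ↔ ‖c‖₊ < 1 := by
  rw [lt1, E.hC]
  constructor
  · rintro (h | ⟨h, h'⟩)
    · exact h
    · have hc : c ≠ 0 := by
        rintro rfl
        rw [nnnorm_zero] at h
        exact zero_ne_one h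
      rw [E.od_C c hc] at h'
      exact absurd h' (lt_irrefl 0)
  · exact Or.inl

theorem C_mem {c : C} (h : ‖c‖₊ ≤ 1) : algebraMap C F c ∈ E.ring := by
  rw [mem_ring, E.hC]
  rcases h.lt_or_eq with h1 | h1
  · exact Or.inl h1
  · right
    have hc : c ≠ 0 := by
      rintro rfl
      rw [nnnorm_zero] at h1
      exact zero_ne_one h1
    rw [E.od_C c hc]
    exact ⟨h1, le_rfl⟩

/-- the maximal ideal of the end as an ideal of a subring of the ring of the end -/
def idl (B : Subring F) (hB : ∀ b ∈ B, b ∈ E.ring) : Ideal B where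
  carrier := {b | E.lt1 (b : F)}
  add_mem' := fun ha hb => E.lt1_add ha hb
  zero_mem' := E.lt1_zero
  smul_mem' := fun a b hb => E.lt1_mul (hB a a.2) hb

theorem mem_idl {B : Subring F} {hB : ∀ b ∈ B, b ∈ E.ring} {b : B} :
    b ∈ E.idl B hB ↔ E.lt1 (b : F) := Iff.rfl

theorem idl_prime (B : Subring F) (hB : ∀ b ∈ B, b ∈ E.ring) : (E.idl B hB).IsPrime where
  ne_top' := by
    intro h
    have : (1 : B) ∈ E.idl B hB := by rw [h]; trivial
    exact E.not_lt1_one this
  mem_or_mem' := by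
    intro a b hab
    by_contra h
    rw [not_or, mem_idl, mem_idl] at h
    have ha0 : (a : F) ≠ 0 := by
      intro h0
      exact h.1 (by rw [h0]; exact E.lt1_zero)
    have hb0 : (b : F) ≠ 0 := by
      intro h0
      exact h.2 (by rw [h0]; exact E.lt1_zero)
    have h1 := (E.not_lt1_iff ha0).1 h.1
    have h2 := (E.not_lt1_iff hb0).1 h.2
    have h3 : ((a : F) * b)⁻¹ ∈ E.ring := by rw [mul_inv]; exact mul_mem h1 h2
    exact (E.not_lt1_iff (mul_ne_zero ha0 hb0)).2 h3 hab

/-- the ring determines the norm and the signs of the orders if there is an element of norm one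
and order one -/
theorem nm_lt_one_iff {t : F} (ht : E.nm t = 1) (ht' : 0 < E.od t) (f : F) :
    E.nm f < 1 ↔ ∀ N : ℕ, f * (t ^ N)⁻¹ ∈ E.ring := by
  have ht0 := E.ne_zero_of_one ht
  constructor
  · intro h N
    left
    rw [map_mul, map_inv₀, map_pow, ht, one_pow, inv_one, mul_one]
    exact h
  · intro h
    by_contra h1
    have hf0 : f ≠ 0 := by
      rintro rfl
      exact h1 (by rw [map_zero]; exact zero_lt_one)
    rcases h ((E.od f).toNat + 1) with h2 | ⟨h2, h3⟩
    · rw [map_mul, map_inv₀, map_pow, ht, one_pow, inv_one, mul_one] at h2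
      exact h1 h2
    · rw [E.od_mul _ _ hf0 (inv_ne_zero (pow_ne_zero _ ht0)), E.od_inv (pow_ne_zero _ ht0),
        E.od_pow ht0] at h3
      have h4 : E.od f ≤ (E.od f).toNat := Int.self_le_toNat _
      have h5 : (((E.od f).toNat + 1 : ℕ) : ℤ) * E.od t ≥ (E.od f).toNat + 1 := by
        push_cast
        nlinarith
      omega

end ring

end End2

/-- `E` is an end of `K` over the end `E0` of `F0`, with ramification index `e` -/
structure Over {C F0 K : Type*} [NormedField C] [IsUltrametricDist C] [Field F0] [Algebra C F0]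
    [Field K] [Algebra C K] [Algebra F0 K] (E0 : End2 C F0) (E : End2 C K) (e : ℕ) : Prop where
  pos : 1 ≤ e
  nm : ∀ f : F0, E.nm (algebraMap F0 K f) = E0.nm f
  od : ∀ f : F0, f ≠ 0 → E.od (algebraMap F0 K f) = e * E0.od f

section core

variable {C F0 K : Type*} [NormedField C] [IsUltrametricDist C] [Field F0] [Algebra C F0]
    [Field K] [Algebra C K] [Algebra F0 K] [IsScalarTower C F0 K]

/-- incomparability: an inclusion of the rings of two ends over the same end gives equality of the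
norms and proportionality of the orders -/
theorem incomp {E0 : End2 C F0} {E E' : End2 C K} {e e' : ℕ} (h : Over E0 E e) (h' : Over E0 E' e')
    {t : F0} (ht : E0.nm t = 1) (ht' : E0.od t = 1) (hle : E.ring ≤ E'.ring) :
    (∀ z, E'.nm z = E.nm z) ∧ ∀ z, z ≠ 0 → e * E'.od z = e' * E.od z := by
  have key : ∀ z : K, z ≠ 0 → E'.nm z = E.nm z ∧ e * E'.od z = e' * E.od z := by
    intro z hz
    obtain ⟨c, hc0, hc1, hc2⟩ := E.exists_one hz
    have ht0 : t ≠ 0 := E0.ne_zero_of_one ht
    have htK : algebraMap F0 K t ≠ 0 := by rw [Ne, map_eq_zero]; exact ht0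
    have hcK : algebraMap C K c ≠ 0 := by rw [Ne, map_eq_zero]; exact hc0
    have he0 : e ≠ 0 := by have := h.pos; omega
    -- `z ^ e = c ^ e * t ^ (od z) * u`
    set u : K := (z * (algebraMap C K c)⁻¹) ^ e * ((algebraMap F0 K t) ^ (E.od z))⁻¹ with hu
    have hzc : z * (algebraMap C K c)⁻¹ ≠ 0 := mul_ne_zero hz (inv_ne_zero hcK)
    have hu0 : u ≠ 0 := mul_ne_zero (pow_ne_zero _ hzc) (inv_ne_zero (zpow_ne_zero _ htK))
    have htn : E.nm (algebraMap F0 K t) = 1 := by rw [h.nm, ht]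
    have htn' : E'.nm (algebraMap F0 K t) = 1 := by rw [h'.nm, ht]
    have hto : E.od (algebraMap F0 K t) = e := by rw [h.od t ht0, ht', mul_one]
    have hto' : E'.od (algebraMap F0 K t) = e' := by rw [h'.od t ht0, ht', mul_one]
    have hun : E.nm u = 1 := by
      rw [hu, map_mul, map_pow, hc1, one_pow, one_mul, map_inv₀, map_zpow₀, htn, one_zpow, inv_one]
    have huo : E.od u = 0 := by
      rw [hu, E.od_mul _ _ (pow_ne_zero _ hzc) (inv_ne_zero (zpow_ne_zero _ htK)),
        E.od_pow hzc, hc2, E.od_inv (zpow_ne_zero _ htK), E.od_zpow htK, hto]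
      ring
    have hu1 : u ∈ E'.ring := hle (Or.inr ⟨hun, huo.ge⟩)
    have hu2 : u⁻¹ ∈ E'.ring := hle (Or.inr ⟨by rw [map_inv₀, hun, inv_one],
      by rw [E.od_inv hu0, huo, neg_zero]⟩)
    have hu3 : E'.nm u = 1 := by
      have h1 : E'.nm u ≤ 1 := by
        rcases hu1 with h1 | h1
        · exact h1.le
        · exact h1.1.le
      have h2 : (E'.nm u)⁻¹ ≤ 1 := by
        rw [← map_inv₀]
        rcases hu2 with h1 | h1
        · exact h1.le
        · exact h1.1.le
      have h0 : 0 < E'.nm u := zero_lt_iff.2 ((Valuation.ne_zero_iff _).2 hu0)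
      exact le_antisymm h1 ((inv_le_one₀ h0).1 h2)
    have hu4 : E'.od u = 0 := by
      have h1 : 0 ≤ E'.od u := by
        rcases hu1 with h1 | h1
        · rw [hu3] at h1; exact absurd h1 (lt_irrefl 1)
        · exact h1.2
      have h2 : 0 ≤ E'.od u⁻¹ := by
        rcases hu2 with h1 | h1
        · rw [map_inv₀, hu3, inv_one] at h1; exact absurd h1 (lt_irrefl 1)
        · exact h1.2
      rw [E'.od_inv hu0] at h2
      omega
    have hzn : E'.nm (z * (algebraMap C K c)⁻¹) = 1 := by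
      have h1 := hu3
      rw [hu, map_mul, map_pow, map_inv₀ E'.nm ((algebraMap F0 K t) ^ (E.od z)), map_zpow₀, htn',
        one_zpow, inv_one, mul_one] at h1
      exact (pow_eq_one_iff_of_nonneg zero_le' he0).1 h1
    have hzo : e * E'.od (z * (algebraMap C K c)⁻¹) = e' * E.od z := by
      have h1 := hu4
      rw [hu, E'.od_mul _ _ (pow_ne_zero _ hzc) (inv_ne_zero (zpow_ne_zero _ htK)),
        E'.od_pow hzc, E'.od_inv (zpow_ne_zero _ htK), E'.od_zpow htK, hto'] at h1
      linarith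
    constructor
    · rw [map_mul, map_inv₀, E'.hC] at hzn
      rw [map_mul, map_inv₀, E.hC] at hc1
      have h0 : (‖c‖₊ : ℝ≥0) ≠ 0 := nnnorm_ne_zero_iff.2 hc0
      rw [mul_inv_eq_one₀ h0] at hzn hc1
      rw [hzn, hc1]
    · rw [← hzo, ← map_inv₀, E'.od_mul z _ hz (by rw [Ne, map_eq_zero]; exact inv_ne_zero hc0),
        E'.od_C _ (inv_ne_zero hc0), add_zero]
  refine ⟨fun z => ?_, fun z hz => (key z hz).2⟩
  by_cases hz : z = 0
  · rw [hz, map_zero, map_zero]
  · exact (key z hz).1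

/-- avoiding finitely many residue classes -/
theorem exists_avoid [Infinite (Ct C)] {I : Type*} [Finite I] (E : I → End2 C K) (z : K) :
    ∃ c : C, ‖c‖₊ ≤ 1 ∧ ∀ i, ¬ (E i).lt1 (z - algebraMap C K c) := by
  classical
  let bad : I → Set (Ct C) := fun i => {g | ∃ c : C, ‖c‖₊ ≤ 1 ∧ rc c = g ∧ (E i).lt1 (z - algebraMap C K c)}
  have hbad : ∀ i, (bad i).Finite := by
    intro i
    apply Set.Subsingleton.finite
    rintro g ⟨c, hc, rfl, h⟩ g' ⟨c', hc', rfl, h'⟩
    have h1 := (E i).lt1_add h' ((E i).lt1_neg h)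
    have h2 : z - algebraMap C K c' + -(z - algebraMap C K c) = algebraMap C K (c - c') := by
      rw [map_sub]; ring
    rw [h2, (E i).lt1_C] at h1
    have h3 : ‖c - c'‖₊ ≤ 1 := h1.le
    have h4 : rc c = rc (c' + (c - c')) := by congr 1; ring
    rw [h4, rc_add hc' h3, (rc_eq_zero_iff h3).2 h1, add_zero]
  have hU : (⋃ i, bad i).Finite := Set.finite_iUnion hbad
  obtain ⟨g, hg⟩ := hU.infinite_compl.nonempty
  obtain ⟨c, hc, rfl⟩ := rc_surj g
  refine ⟨c, hc, fun i hi => hg ?_⟩
  exact Set.mem_iUnion.2 ⟨i, c, hc, rfl, hi⟩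

/-- **abstract surjectivity**: if every element integral at all the ends `E j` is in the ring of
the end `E`, then the ring of some `E j` is contained in the ring of `E`. -/
theorem exists_le [Infinite (Ct C)] {J : Type*} [Finite J] [Nonempty J] (EJ : J → End2 C K)
    (E : End2 C K)
    (hint : ∀ z : K, (∀ j, z ∈ (EJ j).ring) → z ∈ E.ring) : ∃ j, (EJ j).ring ≤ E.ring := by
  classical
  let B : Subring K := ⨅ j, (EJ j).ring.toSubring
  have memB : ∀ z : K, z ∈ B ↔ ∀ j, z ∈ (EJ j).ring := by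
    intro z
    rw [Subring.mem_iInf]
    rfl
  have hB : ∀ j, ∀ b ∈ B, b ∈ (EJ j).ring := fun j b hb => (memB b).1 hb j
  have hBE : ∀ b ∈ B, b ∈ E.ring := fun b hb => hint b ((memB b).1 hb)
  cases nonempty_fintype J
  have hcov : ((E.idl B hBE : Ideal B) : Set B) ⊆ ⋃ j ∈ ((Finset.univ : Finset J) : Set J),
      ((EJ j).idl B (hB j) : Ideal B) := by
    intro y hy
    by_contra h
    simp only [Finset.coe_univ, Set.mem_univ, Set.iUnion_true, Set.mem_iUnion, not_exists] at h
    have j0 : J := Classical.arbitrary J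
    have hy0 : (y : K) ≠ 0 := by
      intro h0
      apply h j0
      show (EJ j0).lt1 (y : K)
      rw [h0]
      exact (EJ j0).lt1_zero
    have h1 : (y : K)⁻¹ ∈ B := by
      rw [memB]
      intro j
      exact ((EJ j).not_lt1_iff hy0).1 (h j)
    exact (E.not_lt1_iff hy0).2 (hBE _ h1) hy
  obtain ⟨j, -, hj⟩ := (Ideal.subset_union_prime (s := Finset.univ)
    (f := fun j => (EJ j).idl B (hB j))
    (I := E.idl B hBE) (Classical.arbitrary J) (Classical.arbitrary J)
    (fun i _ _ _ => (EJ i).idl_prime B (hB i))).1 hcov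
  refine ⟨j, fun z hz => ?_⟩
  obtain ⟨c, hc, hav⟩ := exists_avoid (fun i : Option J => i.elim E EJ) z
  have hc1 : ∀ i : J, algebraMap C K c ∈ (EJ i).ring := fun i => (EJ i).C_mem hc
  set y : K := z - algebraMap C K c with hy
  have hav' : ∀ i : J, ¬ (EJ i).lt1 y := fun i => hav (some i)
  have hy0 : y ≠ 0 := by
    intro h0
    apply hav' j
    rw [h0]
    exact (EJ j).lt1_zero
  have hyB : y⁻¹ ∈ B := by
    rw [memB]
    exact fun i => ((EJ i).not_lt1_iff hy0).1 (hav' i)
  have hnj : ¬ (EJ j).lt1 y⁻¹ := by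
    rw [(EJ j).not_lt1_iff (inv_ne_zero hy0), inv_inv]
    exact sub_mem hz (hc1 j)
  have hnw : ¬ E.lt1 y⁻¹ := fun h => hnj (hj (show (⟨y⁻¹, hyB⟩ : B) ∈ E.idl B hBE from h))
  rw [E.not_lt1_iff (inv_ne_zero hy0), inv_inv] at hnw
  have : z = y + algebraMap C K c := by rw [hy]; ring
  rw [this]
  exact add_mem hnw (E.C_mem hc)

/-- elements of `K` which are integral at all the factors are integral over the ring of the base
end -/
theorem isIntegral_of_factors [FiniteDimensional F0 K] {L0 : Type*} [Field L0] [Algebra C L0]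
    (E0 : End2 C F0) (EL : End2 C L0) (ε : F0 →+* L0)
    (hε : ∀ f, ε f ∈ EL.ring → f ∈ E0.ring)
    {J : Type*} [Finite J] {L : J → Type*} [∀ j, Field (L j)] [∀ j, Algebra C (L j)]
    (EJ : ∀ j, End2 C (L j)) (φ : ∀ j, L0 →+* L j) (ι : ∀ j, K →+* L j)
    (hι : ∀ j f, ι j (algebraMap F0 K f) = φ j (ε f))
    (hINT : ∀ j (u : L j), u ∈ (EJ j).ring → ∃ Q : L0[X], Q.Monic ∧ (∀ i, Q.coeff i ∈ EL.ring) ∧
      Q.eval₂ (φ j) u = 0)
    (hINJ : ∀ (m : ℕ) (b : Fin m → K), LinearIndependent F0 b → ∀ l : Fin m → L0,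
      (∀ j, ∑ i, φ j (l i) * ι j (b i) = 0) → l = 0)
    (z : K) (hz : ∀ j, ι j z ∈ (EJ j).ring) :
    ∃ P : F0[X], P.Monic ∧ (∀ i, P.coeff i ∈ E0.ring) ∧ P.eval₂ (algebraMap F0 K) z = 0 := by
  classical
  cases nonempty_fintype J
  choose Q hQm hQc hQ0 using fun j => hINT j (ι j z) (hz j)
  set R : L0[X] := ∏ j, Q j with hR
  have hRm : R.Monic := monic_prod_of_monic _ _ (fun j _ => hQm j)
  have hRc : ∀ i, R.coeff i ∈ EL.ring := by
    have hlift : R ∈ Polynomial.lifts (algebraMap EL.ring L0) := by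
      apply Subsemiring.prod_mem
      intro j _
      rw [Polynomial.lifts_iff_coeff_lifts]
      intro i
      exact ⟨⟨_, hQc j i⟩, rfl⟩
    intro i
    rw [Polynomial.lifts_iff_coeff_lifts] at hlift
    obtain ⟨a, ha⟩ := hlift i
    rw [← ha]
    exact a.2
  have hR0 : ∀ j, R.eval₂ (φ j) (ι j z) = 0 := by
    intro j
    rw [hR, eval₂_finset_prod]
    exact Finset.prod_eq_zero (Finset.mem_univ j) (hQ0 j)
  have hzi : IsIntegral F0 z := Algebra.IsIntegral.isIntegral z
  set P : F0[X] := minpoly F0 z with hP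
  have hPm : P.Monic := minpoly.monic hzi
  have hPεm : (P.map ε).Monic := hPm.map ε
  -- the remainder of `R` by `P` vanishes
  set S : L0[X] := R %ₘ P.map ε with hS
  have hSz : ∀ j, S.eval₂ (φ j) (ι j z) = 0 := by
    intro j
    have h1 := congrArg (fun T => T.eval₂ (φ j) (ι j z)) (modByMonic_add_div R (P.map ε))
    simp only [eval₂_add, eval₂_mul] at h1
    have h2 : (P.map ε).eval₂ (φ j) (ι j z) = 0 := by
      rw [eval₂_map]
      have h3 : (φ j).comp ε = (ι j).comp (algebraMap F0 K) := by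
        ext f
        exact (hι j f).symm
      rw [h3, ← hom_eval₂]
      have : eval₂ (algebraMap F0 K) z P = 0 := minpoly.aeval F0 z
      rw [this, map_zero]
    rw [h2, zero_mul, add_zero, hR0 j] at h1
    exact h1
  have hdeg : S.degree < P.natDegree := by
    have h1 := degree_modByMonic_lt R hPεm
    rw [hPm.degree_map, degree_eq_natDegree hPm.ne_zero] at h1
    exact h1
  have hS0 : S = 0 := by
    have hli : LinearIndependent F0 (fun i : Fin P.natDegree => z ^ (i : ℕ)) :=
      linearIndependent_pow z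
    have h1 := hINJ P.natDegree _ hli (fun i => S.coeff i) (by
      intro j
      have h2 := hSz j
      rw [eval₂_eq_sum_range' (φ j) (n := P.natDegree) ?_ (ι j z), Finset.sum_range] at h2
      · simpa [map_pow] using h2
      · by_cases h0 : S = 0
        · rw [h0, natDegree_zero]
          exact minpoly.natDegree_pos hzi
        · rw [natDegree_lt_iff_degree_lt h0]
          exact hdeg)
    ext i
    by_cases hi : i < P.natDegree
    · exact congrFun h1 ⟨i, hi⟩
    · rw [coeff_zero]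
      exact coeff_eq_zero_of_degree_lt (lt_of_lt_of_le hdeg (by exact_mod_cast not_lt.1 hi))
  have hdvd : P.map ε ∣ R := (modByMonic_eq_zero_iff_dvd hPεm).1 hS0
  refine ⟨P, hPm, fun i => hε _ ?_, minpoly.aeval F0 z⟩
  -- coefficients of a monic divisor are integral
  have hRl : R ∈ Polynomial.lifts (algebraMap EL.ring L0) := by
    rw [Polynomial.lifts_iff_coeff_lifts]
    intro i
    exact ⟨⟨_, hRc i⟩, rfl⟩
  obtain ⟨R', hR', -, hR'm⟩ := Polynomial.lifts_and_degree_eq_and_monic hRl hRm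
  rw [← hR'] at hdvd
  obtain ⟨g', hg'⟩ := IsIntegrallyClosed.eq_map_mul_C_of_dvd L0 hR'm hdvd
  rw [hPεm.leadingCoeff, C_1, mul_one] at hg'
  have h1 : (P.map ε).coeff i = algebraMap EL.ring L0 (g'.coeff i) := by
    rw [← hg', coeff_map]
  rw [coeff_map] at h1
  rw [h1]
  exact (g'.coeff i).2

/-- the ring of an end is integrally closed -/
theorem mem_ring_of_eval₂ {E0 : End2 C F0} {E : End2 C K} {e : ℕ} (h : Over E0 E e) {z : K}
    {P : F0[X]} (hP : P.Monic) (hc : ∀ i, P.coeff i ∈ E0.ring)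
    (h0 : P.eval₂ (algebraMap F0 K) z = 0) : z ∈ E.ring := by
  have hle : ∀ f : F0, f ∈ E0.ring → algebraMap F0 K f ∈ E.ring := by
    intro f hf
    rcases hf with hf | ⟨hf, hf'⟩
    · left
      rw [h.nm]; exact hf
    · right
      have hf0 : f ≠ 0 := E0.ne_zero_of_one hf
      rw [h.nm, h.od f hf0]
      exact ⟨hf, by positivity⟩
  have h1 : P.map (algebraMap F0 K) ∈ Polynomial.lifts (algebraMap E.ring K) := by
    rw [Polynomial.lifts_iff_coeff_lifts]
    intro i
    exact ⟨⟨_, hle _ (hc i)⟩, by rw [coeff_map]; rfl⟩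
  obtain ⟨P', hP', -, hP'm⟩ := Polynomial.lifts_and_degree_eq_and_monic h1 (hP.map _)
  have h2 : IsIntegral E.ring z := by
    refine ⟨P', hP'm, ?_⟩
    rw [← eval_map, hP', eval_map, h0]
  obtain ⟨a, ha⟩ := IsIntegrallyClosed.isIntegral_iff.1 h2
  rw [← ha]
  exact a.2

/-- **every end over the base end comes from a factor** -/
theorem exists_factor [Infinite (Ct C)] [FiniteDimensional F0 K] {L0 : Type*} [Field L0]
    [Algebra C L0]
    (E0 : End2 C F0) (EL : End2 C L0) (ε : F0 →+* L0)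
    (hε : ∀ f, ε f ∈ EL.ring → f ∈ E0.ring)
    {t : F0} (ht : E0.nm t = 1) (ht' : E0.od t = 1)
    {J : Type*} [Finite J] [Nonempty J] {L : J → Type*} [∀ j, Field (L j)] [∀ j, Algebra C (L j)]
    (EJ : ∀ j, End2 C (L j)) (φ : ∀ j, L0 →+* L j) (ι : ∀ j, K →ₐ[C] L j)
    (hι : ∀ j f, ι j (algebraMap F0 K f) = φ j (ε f))
    (m : J → ℕ) (hover : ∀ j, Over E0 ((EJ j).comap (ι j)) (m j))
    (hINT : ∀ j (u : L j), u ∈ (EJ j).ring → ∃ Q : L0[X], Q.Monic ∧ (∀ i, Q.coeff i ∈ EL.ring) ∧
      Q.eval₂ (φ j) u = 0)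
    (hINJ : ∀ (m : ℕ) (b : Fin m → K), LinearIndependent F0 b → ∀ l : Fin m → L0,
      (∀ j, ∑ i, φ j (l i) * ι j (b i) = 0) → l = 0)
    (E : End2 C K) (e : ℕ) (hE : Over E0 E e) :
    ∃ j, (∀ z, E.nm z = (EJ j).nm (ι j z)) ∧ ∀ z, z ≠ 0 → m j * E.od z = e * (EJ j).od (ι j z) := by
  obtain ⟨j, hj⟩ := exists_le (fun j => (EJ j).comap (ι j)) E (by
    intro z hz
    obtain ⟨P, hPm, hPc, hP0⟩ := isIntegral_of_factors E0 EL ε hε EJ φ (fun j => (ι j : K →+* L j))
      hι hINT hINJ z (fun j => hz j)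
    exact mem_ring_of_eval₂ hE hPm hPc hP0)
  obtain ⟨h1, h2⟩ := incomp (hover j) hE ht ht' hj
  exact ⟨j, h1, h2⟩

end core

end Crest.Agent.R013.Red332
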