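import Mathlib
import Crest.Agent.R013.Inh4_770
import Crest.Agent.R013.Red3_332
import Crest.Agent.R013.RR20_948

/-!
# Row 13, leaf C-INH (helper770), part 5: directions of a Galois extension

`Spl S L` : the Galois extension `L/K` is split over all cells of the semistable structure `S` of
`K` and has no inertia at the vertices.  The directions of `L` are the pairs (direction of `K`,
element of the Galois group).
-/

set_option autoImplicit false
set_option linter.all false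
open WithZero
open scoped NNReal
open Crest.Agent.R013.RR7_948 Crest.Agent.R013.Red332 Crest.Agent.R013.EE809
open Crest.Agent.R013.Cell_408 (FinDef DiscNorm)
open Crest.Agent.R013.SSK_332

namespace Crest.Agent.R013.Inh_770

variable {k : Type*} [NontriviallyNormedField k] [CompleteSpace k] [IsUltrametricDist k]
variable {C : Type*} [NormedField C] [IsUltrametricDist C] [NormedAlgebra k C]
variable [Algebra.IsAlgebraic k C] [IsAlgClosed C] [hk : Fact (DiscNorm k)]
variable {K : Type*} [Field K] [Algebra C K]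
variable {L : Type*} [Field L] [Algebra C L] [Algebra K L] [IsScalarTower C K L]

/-- the Galois extension `L / K` splits over the cells of `S` -/
structure Spl (S : SSK k C K) (L : Type*) [Field L] [Algebra C L] [Algebra K L]
    [IsScalarTower C K L] where
  /-- an embedding of `L` over every direction -/
  ps : S.Dir → L →+* EE k C
  ps_K : ∀ d f, ps d (algebraMap K L f) = S.em d f
  ps_ann : ∀ e f, ∃ g h g' h' : EE k C, h ≠ 0 ∧ InA (S.cc e) g ∧ InA (S.cc e) h ∧
    Flip (S.cc e) g g' ∧ Flip (S.cc e) h h' ∧ ps (S.e0 e) f * h = g ∧ ps (S.e1 e) f * h' = g'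
  ps_disc : ∀ d, S.IsDisc d → ∀ f, ∃ g h : EE k C, h ≠ 0 ∧ InD g ∧ InD h ∧ ps d f * h = g
  ni : ∀ d, NoInertia K (gnV.comap (ps d))

namespace Spl

variable {S : SSK k C K} (P : Spl S L)

include k in
theorem exists_small : ∃ c : C, c ≠ 0 ∧ ‖c‖ < 1 := by
  obtain ⟨c, hc0, hc1⟩ := NormedField.exists_norm_lt_one k
  refine ⟨algebraMap k C c, ?_, ?_⟩
  · rw [Ne, map_eq_zero]; exact norm_pos_iff.1 hc0
  · rw [norm_algebraMap']; exact hc1

theorem em_C' (d : S.Dir) (c : C) : S.em d (algebraMap C K c) = algebraMap C (EE k C) c := by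
  ext n
  rw [S.em_C, co_algebraMap]

theorem ps_C (d : S.Dir) (c : C) : P.ps d (algebraMap C L c) = algebraMap C (EE k C) c := by
  rw [IsScalarTower.algebraMap_apply C K L, P.ps_K, em_C']

theorem em_gnV (d : S.Dir) (f : K) : gnV (S.em d f) = (S.nm d.1).v f :=
  NNReal.eq (by rw [coe_gnV]; exact S.em_gn d f)

/-- a uniformiser of `K` at a direction -/
theorem exists_t (d : S.Dir) : ∃ t : K, (S.nm d.1).v t = 1 ∧ gnV (S.em d t) = 1 ∧
    EE809.od (S.em d t) = 1 := by
  obtain ⟨t, ht, ht'⟩ := od_surj d.2 1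
  have ht0 : t ≠ 0 := by
    rintro rfl; rw [map_zero] at ht; exact zero_ne_one ht
  exact ⟨t, ht, by rw [em_gnV, ht], by rw [S.em_od d t ht0, ht']⟩

/-- the embedding as an algebra homomorphism, twisted by `σ` -/
noncomputable def psA (d : S.Dir) (σ : L ≃ₐ[K] L) : L →ₐ[C] EE k C :=
  { (P.ps d).comp (σ : L →+* L) with
    commutes' := fun c => by
      change P.ps d (σ (algebraMap C L c)) = _
      rw [IsScalarTower.algebraMap_apply C K L, AlgEquiv.commutes,
        ← IsScalarTower.algebraMap_apply, P.ps_C] }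

theorem psA_apply (d : S.Dir) (σ : L ≃ₐ[K] L) (f : L) : P.psA d σ f = P.ps d (σ f) := rfl

/-- the end of `L` -/
noncomputable def EndL (d : S.Dir) (σ : L ≃ₐ[K] L) : End2 C L := E2.comap (P.psA d σ)

theorem EndL_nm (d : S.Dir) (σ : L ≃ₐ[K] L) (f : L) : (P.EndL d σ).nm f = gnV (P.ps d (σ f)) := rfl

theorem EndL_od (d : S.Dir) (σ : L ≃ₐ[K] L) (f : L) :
    (P.EndL d σ).od f = EE809.od (P.ps d (σ f)) := rfl

theorem EndL_nm_K (d : S.Dir) (σ : L ≃ₐ[K] L) (f : K) :
    (P.EndL d σ).nm (algebraMap K L f) = (S.nm d.1).v f := by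
  rw [EndL_nm, AlgEquiv.commutes, P.ps_K, em_gnV]

theorem EndL_od_K (d : S.Dir) (σ : L ≃ₐ[K] L) (f : K) (hf : f ≠ 0) :
    (P.EndL d σ).od (algebraMap K L f) = Red332.od (S.nm d.1) d.2 f := by
  rw [EndL_od, AlgEquiv.commutes, P.ps_K, S.em_od d f hf]

theorem EndL_surj (d : S.Dir) (σ : L ≃ₐ[K] L) : Function.Surjective (P.EndL d σ).od := by
  obtain ⟨t, ht, -, ht'⟩ := exists_t d
  have ht0 : t ≠ 0 := by
    rintro rfl; rw [map_zero] at ht; exact zero_ne_one ht
  have ht0' : algebraMap K L t ≠ 0 := by rwa [Ne, map_eq_zero]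
  intro n
  refine ⟨algebraMap K L t ^ n, ?_⟩
  rw [(P.EndL d σ).od_zpow ht0', P.EndL_od_K d σ t ht0, ← S.em_od d t ht0, ht', mul_one]

/-- the relation between directions of `L` and pairs (direction of `K`, `σ`) -/
structure Rel (w : Nm C L) (y : Pl (Ct C) (kap w)) (d : S.Dir) (σ : L ≃ₐ[K] L) : Prop where
  nm : ∀ f, w.v f = gnV (P.ps d (σ f))
  od : ∀ f, f ≠ 0 → Red332.od w y f = EE809.od (P.ps d (σ f))

theorem Rel.nm_K {w : Nm C L} {y : Pl (Ct C) (kap w)} {d : S.Dir} {σ : L ≃ₐ[K] L}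
    (h : P.Rel w y d σ) (f : K) : w.v (algebraMap K L f) = (S.nm d.1).v f := by
  rw [h.nm, AlgEquiv.commutes, P.ps_K, em_gnV]

theorem Rel.od_K {w : Nm C L} {y : Pl (Ct C) (kap w)} {d : S.Dir} {σ : L ≃ₐ[K] L}
    (h : P.Rel w y d σ) (f : K) (hf : f ≠ 0) :
    Red332.od w y (algebraMap K L f) = Red332.od (S.nm d.1) d.2 f := by
  rw [h.od _ (by rwa [Ne, map_eq_zero]), AlgEquiv.commutes, P.ps_K, S.em_od d f hf]

/-- every pair is realised by a direction of `L` -/
theorem exists_rel_of_pair (d : S.Dir) (σ : L ≃ₐ[K] L) :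
    ∃ (w : Nm C L) (y : Pl (Ct C) (kap w)), P.Rel w y d σ :=
  ⟨(P.EndL d σ).toNm, (P.EndL d σ).pl (P.EndL_surj d σ), fun f => rfl, fun f hf => by
    rw [(P.EndL d σ).od_pl _ hf]; rfl⟩

section Galois

variable [FiniteDimensional K L] [IsGalois K L]

/-- a direction of `L` is non-trivial on `K` -/
theorem od_K_ne (w : Nm C L) (y : Pl (Ct C) (kap w)) :
    ∃ f : K, f ≠ 0 ∧ Red332.od w y (algebraMap K L f) ≠ 0 := by
  by_contra hcon
  push Not at hcon
  set R : ValuationSubring L := (ofPl w y).ring with hR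
  have hRm : ∀ f : L, f ∈ R ↔ w.v f < 1 ∨ (w.v f = 1 ∧ 0 ≤ Red332.od w y f) := fun f => Iff.rfl
  obtain ⟨σ, hσ⟩ := Hens_899.conj_fin (K := K) w.v R.valuation (fun a => by
    rw [ValuationSubring.valuation_le_one_iff, hRm]
    constructor
    · intro h
      rcases h.lt_or_eq with h1 | h1
      · exact Or.inl h1
      · refine Or.inr ⟨h1, ?_⟩
        have ha : a ≠ 0 := by
          rintro rfl; rw [map_zero, map_zero] at h1; exact zero_ne_one h1
        exact (hcon a ha).ge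
    · rintro (h | ⟨h, -⟩)
      · exact h.le
      · exact h.le)
  have hσ' : ∀ x, w.v (σ x) ≤ 1 ↔ x ∈ R := fun x => by
    rw [hσ x, ValuationSubring.valuation_le_one_iff]
  have h1 : ∀ x, w.v (σ.symm x) = w.v x := by
    refine Hens_899.eq_of_le_one_imp w.v σ.symm fun x hx => ?_
    have h2 : σ.symm x ∈ R := by rw [← hσ', AlgEquiv.apply_symm_apply]; exact hx
    rcases (hRm _).1 h2 with h3 | ⟨h3, -⟩
    · exact h3.le
    · exact h3.le
  obtain ⟨g, hg1, hg2⟩ := od_surj y (-1)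
  have h3 : g ∈ R := by
    rw [← hσ']
    have := h1 (σ g)
    rw [AlgEquiv.symm_apply_apply] at this
    rw [← this, hg1]
  rcases (hRm g).1 h3 with h4 | ⟨-, h4⟩
  · exact h4.ne hg1
  · omega

/-- every direction of `L` over a vertex of `S` comes from a pair -/
theorem exists_rel (w : Nm C L) (y : Pl (Ct C) (kap w))
    (hw : ∃ v, ∀ f : K, w.v (algebraMap K L f) = (S.nm v).v f) :
    ∃ (d : S.Dir) (σ : L ≃ₐ[K] L), P.Rel w y d σ := by
  obtain ⟨v, hv⟩ := hw
  let iK : K →ₐ[C] L := IsScalarTower.toAlgHom C K L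
  have hiK : ∀ f, iK f = algebraMap K L f := fun f => rfl
  obtain ⟨f0, hf0, hf0'⟩ := od_K_ne (K := K) w y
  obtain ⟨v', x', m, hm, h1, h2⟩ := End2.dict ((ofPl w y).comap iK) ⟨f0, hf0, hf0'⟩
  have hv' : v' = S.nm v := Nm.ext' (fun f => by rw [h1, ← hv]; rfl)
  subst hv'
  have h2' : ∀ f : K, f ≠ 0 → Red332.od w y (algebraMap K L f) = m * Red332.od (S.nm v) x' f := h2
  let d : S.Dir := ⟨v, x'⟩
  have hm' : (0 : ℤ) < m := by exact_mod_cast hm
  obtain ⟨σ, hσ⟩ := Hens_899.conj_fin (K := K) (P.EndL d 1).ring.valuation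
    (ofPl w y).ring.valuation (fun a => by
      rw [ValuationSubring.valuation_le_one_iff, ValuationSubring.valuation_le_one_iff]
      change ((P.EndL d 1).nm (algebraMap K L a) < 1 ∨ ((P.EndL d 1).nm (algebraMap K L a) = 1 ∧
        0 ≤ (P.EndL d 1).od (algebraMap K L a))) ↔ (w.v (algebraMap K L a) < 1 ∨
        (w.v (algebraMap K L a) = 1 ∧ 0 ≤ Red332.od w y (algebraMap K L a)))
      rw [P.EndL_nm_K, hv]
      by_cases ha : a = 0
      · rw [ha, map_zero]; simp
      · rw [P.EndL_od_K d 1 a ha, h2' a ha]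
        constructor
        · rintro (h | ⟨h, h'⟩)
          · exact Or.inl h
          · exact Or.inr ⟨h, mul_nonneg hm'.le h'⟩
        · rintro (h | ⟨h, h'⟩)
          · exact Or.inl h
          · exact Or.inr ⟨h, nonneg_of_mul_nonneg_right h' hm'⟩)
  have hσ' : ∀ f, ((P.EndL d σ).nm f < 1 ∨ ((P.EndL d σ).nm f = 1 ∧ 0 ≤ (P.EndL d σ).od f)) ↔
      ((ofPl w y).nm f < 1 ∨ ((ofPl w y).nm f = 1 ∧ 0 ≤ (ofPl w y).od f)) := by
    intro f
    have h3 := hσ f
    rw [ValuationSubring.valuation_le_one_iff, ValuationSubring.valuation_le_one_iff] at h3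
    exact h3
  obtain ⟨t, ht, -, ht'⟩ := exists_t d
  have ht0 : t ≠ 0 := by
    rintro rfl; rw [map_zero] at ht; exact zero_ne_one ht
  obtain ⟨s, hs1, hs2⟩ := od_surj y 1
  refine ⟨d, σ, fun f => ?_, fun f hf => ?_⟩
  · exact (nm_eq_of_ring (exists_small (k := k)) _ _ hσ' f).symm
  · exact (od_eq_of_ring (exists_small (k := k)) _ _ hσ' (algebraMap K L t)
      (by rw [P.EndL_nm_K]; exact ht)
      (by rw [P.EndL_od_K d σ t ht0, ← S.em_od d t ht0, ht']) s hs1 hs2 f hf).symm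

/-- uniqueness of the pair -/
theorem Rel.pair_unique {w : Nm C L} {y : Pl (Ct C) (kap w)} {d d' : S.Dir} {σ σ' : L ≃ₐ[K] L}
    (h : P.Rel w y d σ) (h' : P.Rel w y d' σ') : d = d' ∧ σ = σ' := by
  have hd : d = d' := by
    obtain ⟨v, x⟩ := d
    obtain ⟨v', x'⟩ := d'
    have hv : v = v' := S.nm_inj (Nm.ext' fun f => by
      have h1 := h.nm_K P f
      have h2 := h'.nm_K P f
      rw [← h1, ← h2])
    subst hv
    have hx : x = x' := pl_eq_of_od fun f hf => by
      have hf0 : f ≠ 0 := by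
        rintro rfl; rw [map_zero] at hf; exact zero_ne_one hf
      have h1 := h.od_K P f hf0
      have h2 := h'.od_K P f hf0
      exact h1.symm.trans h2
    rw [hx]
  subst hd
  refine ⟨rfl, ?_⟩
  obtain ⟨t, -, ht, ht'⟩ := exists_t d
  -- `σ' σ⁻¹` preserves the end `ps d`
  have key : σ' * σ⁻¹ = 1 := by
    refine (DE (k := k) (C := C)).fix_of_noInertia (K := K) (S.em d) (em_C' d) t ht ht' (P.ps d)
      (RingHom.ext fun f => P.ps_K d f) (P.ni d) (σ' * σ⁻¹) (fun f => ?_) (fun f hf => ?_)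
    · change gnV (P.ps d (σ' (σ.symm f))) = gnV (P.ps d f)
      rw [← h'.nm, h.nm, AlgEquiv.apply_symm_apply]
    · change EE809.od (P.ps d (σ' (σ.symm f))) = EE809.od (P.ps d f)
      have hf0 : σ.symm f ≠ 0 := by
        rw [Ne, EmbeddingLike.map_eq_zero_iff]
        rintro rfl
        have hf : gnV (P.ps d (0 : L)) = 1 := hf
        rw [map_zero, map_zero] at hf
        exact zero_ne_one hf
      rw [← h'.od _ hf0, h.od _ hf0, AlgEquiv.apply_symm_apply]
  exact (mul_inv_eq_one.1 key).symm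

/-- uniqueness of the direction -/
theorem Rel.dir_unique {w w' : Nm C L} {y : Pl (Ct C) (kap w)} {y' : Pl (Ct C) (kap w')}
    {d : S.Dir} {σ : L ≃ₐ[K] L} (h : P.Rel w y d σ) (h' : P.Rel w' y' d σ) :
    (⟨w, y⟩ : Σ w : Nm C L, Pl (Ct C) (kap w)) = ⟨w', y'⟩ := by
  have hw : w = w' := Nm.ext' fun f => by rw [h.nm, h'.nm]
  subst hw
  have hy : y = y' := pl_eq_of_od fun f hf => by
    have hf0 : f ≠ 0 := by
      rintro rfl; rw [map_zero] at hf; exact zero_ne_one hf
    rw [h.od _ hf0, h'.od _ hf0]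
  rw [hy]

end Galois

end Spl

end Crest.Agent.R013.Inh_770
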