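import Crest.Agent.R013.Cell3_408

/-! # R013 / Cell4_408 : evaluation of bounded finitely defined power series at points of the open
unit disc of `C`. -/

set_option autoImplicit false
set_option linter.unusedSectionVars false
set_option linter.style.haveILetI false

noncomputable section

namespace Crest.Agent.R013.Cell_408

open Topology

section Ev

variable {k C : Type*} [NontriviallyNormedField k] [CompleteSpace k] [IsUltrametricDist k]
  [NormedField C] [IsUltrametricDist C] [NormedAlgebra k C] [Algebra.IsAlgebraic k C] [IsAlgClosed C]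

/-- the terms of the evaluation at `t` -/
theorem finDef_terms {f : PowerSeries C} (hf : FinDef k fun n => PowerSeries.coeff n f) (t : C) :
    FinDef k fun n => PowerSeries.coeff n f * t ^ n := by
  obtain ⟨L, hL, h1, h2⟩ := hf.common (finDef_const (k := k) (ι := Unit) t)
  exact ⟨L, hL, fun n => mul_mem (h1 n) (pow_mem (h2 ()) n)⟩

omit [CompleteSpace k] [IsUltrametricDist k] [Algebra.IsAlgebraic k C] [IsAlgClosed C] in
theorem tendsto_terms {f : PowerSeries C} {M : ℝ} (hM : ∀ n, ‖PowerSeries.coeff n f‖ ≤ M) {t : C}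
    (ht : ‖t‖ < 1) :
    Filter.Tendsto (fun n => PowerSeries.coeff n f * t ^ n) Filter.cofinite (𝓝 0) := by
  rw [Nat.cofinite_eq_atTop]
  have h2 : Filter.Tendsto (fun n : ℕ => M * ‖t‖ ^ n) Filter.atTop (𝓝 0) := by
    simpa using (tendsto_pow_atTop_nhds_zero_of_lt_one (norm_nonneg _) ht).const_mul M
  refine squeeze_zero_norm (fun n => ?_) h2
  rw [norm_mul, norm_pow]
  exact mul_le_mul_of_nonneg_right (hM n) (pow_nonneg (norm_nonneg _) _)

theorem summable_ev {f : PowerSeries C} (hf : f ∈ BD k C) {t : C} (ht : ‖t‖ < 1) :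
    Summable fun n => PowerSeries.coeff n f * t ^ n := by
  obtain ⟨h1, M, h2⟩ := hf
  exact (finDef_terms h1 t).summable (tendsto_terms h2 ht)

/-- evaluation of a power series -/
def evp (t : C) (f : PowerSeries C) : C := ∑' n, PowerSeries.coeff n f * t ^ n

theorem nonarchRing (C : Type*) [NormedField C] [IsUltrametricDist C] : NonarchimedeanRing C where
  is_nonarchimedean := NonarchimedeanAddGroup.is_nonarchimedean

theorem summable_prod_aux {f g : PowerSeries C} {t : C}
    (hs1 : Summable fun n => PowerSeries.coeff n f * t ^ n)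
    (hs2 : Summable fun n => PowerSeries.coeff n g * t ^ n) :
    Summable fun x : ℕ × ℕ =>
      (PowerSeries.coeff x.1 f * t ^ x.1) * (PowerSeries.coeff x.2 g * t ^ x.2) := by
  have := nonarchRing C
  exact Summable.mul_of_nonarchimedean (f := fun n => PowerSeries.coeff n f * t ^ n)
    (g := fun n => PowerSeries.coeff n g * t ^ n) hs1 hs2

theorem coeff_mul_aux {f g : PowerSeries C} {t : C} (n : ℕ) :
    (PowerSeries.coeff n (f * g)) * t ^ n = ∑ kl ∈ Finset.HasAntidiagonal.antidiagonal n,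
      (PowerSeries.coeff kl.1 f * t ^ kl.1) * (PowerSeries.coeff kl.2 g * t ^ kl.2) := by
  rw [PowerSeries.coeff_mul, Finset.sum_mul]
  refine Finset.sum_congr rfl fun p hp => ?_
  have h := Finset.HasAntidiagonal.mem_antidiagonal.1 hp
  have h2 : t ^ n = t ^ p.1 * t ^ p.2 := by rw [← pow_add, h]
  rw [h2]; ring

theorem evp_mul {f g : PowerSeries C} (hf : f ∈ BD k C) (hg : g ∈ BD k C) {t : C} (ht : ‖t‖ < 1) :
    evp t (f * g) = evp t f * evp t g := by
  have hs1 := summable_ev hf ht
  have hs2 := summable_ev hg ht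
  unfold evp
  rw [hs1.tsum_mul_tsum_eq_tsum_sum_antidiagonal hs2 (summable_prod_aux hs1 hs2)]
  exact tsum_congr fun n => coeff_mul_aux n

theorem evp_add {f g : PowerSeries C} (hf : f ∈ BD k C) (hg : g ∈ BD k C) {t : C} (ht : ‖t‖ < 1) :
    evp t (f + g) = evp t f + evp t g := by
  unfold evp
  rw [← (summable_ev hf ht).tsum_add (summable_ev hg ht)]
  refine tsum_congr fun n => ?_
  rw [map_add, add_mul]

theorem evp_coe (t : C) (P : Polynomial C) : evp t (P : PowerSeries C) = P.eval t := by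
  unfold evp
  rw [Polynomial.eval_eq_sum_range, tsum_eq_sum (s := Finset.range (P.natDegree + 1))]
  · refine Finset.sum_congr rfl fun n _ => ?_
    rw [Polynomial.coeff_coe]
  · intro n hn
    rw [Polynomial.coeff_coe, Polynomial.coeff_eq_zero_of_natDegree_lt, zero_mul]
    simpa using hn

theorem evp_C (t c : C) : evp t (PowerSeries.C c) = c := by
  have := evp_coe t (Polynomial.C c)
  rwa [Polynomial.coe_C, Polynomial.eval_C] at this

theorem evp_X (t : C) : evp t (PowerSeries.X : PowerSeries C) = t := by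
  have := evp_coe t (Polynomial.X : Polynomial C)
  rwa [Polynomial.coe_X, Polynomial.eval_X] at this

theorem norm_evp_le {f : PowerSeries C} {t : C} {B : ℝ}
    (hB : ∀ n, ‖PowerSeries.coeff n f‖ * ‖t‖ ^ n ≤ B) : ‖evp t f‖ ≤ B := by
  unfold evp
  refine IsUltrametricDist.norm_tsum_le_of_forall_le (fun n => ?_)
  rw [norm_mul, norm_pow]
  exact hB n

/-- evaluation at a point of the open unit disc as an algebra hom -/
def ev (t : C) (ht : ‖t‖ < 1) : BD k C →ₐ[C] C where
  toFun f := evp t f.1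
  map_one' := by
    have := evp_C t 1
    rw [map_one] at this
    exact this
  map_mul' f g := evp_mul f.2 g.2 ht
  map_zero' := by
    have := evp_C t 0
    rw [map_zero] at this
    exact this
  map_add' f g := evp_add f.2 g.2 ht
  commutes' c := evp_C t c

/-- normalised units of `BD` -/
structure IsU (k : Type*) {C : Type*} [NontriviallyNormedField k] [NormedField C] [NormedAlgebra k C]
    (u : PowerSeries C) : Prop where
  fin : FinDef k fun n => PowerSeries.coeff n u
  le : ∀ n, ‖PowerSeries.coeff n u‖ ≤ 1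
  zero : ‖PowerSeries.coeff 0 u‖ = 1

theorem IsU.mem {u : PowerSeries C} (hu : IsU k u) : u ∈ BD k C := ⟨hu.fin, 1, hu.le⟩

theorem IsU.inv {u : PowerSeries C} (hu : IsU k u) : ∃ v, IsU k v ∧ u * v = 1 := by
  obtain ⟨L, hL, hmem⟩ := hu.fin
  let g : PowerSeries (Ob L) := PowerSeries.mk fun n =>
    ⟨⟨PowerSeries.coeff n u, hmem n⟩, hu.le n⟩
  have hg : ∀ n, ballMap L (PowerSeries.coeff n g) = PowerSeries.coeff n u := by
    intro n
    rw [PowerSeries.coeff_mk]; rfl
  have hgf : PowerSeries.map (ballMap L) g = u := by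
    ext n; rw [PowerSeries.coeff_map, hg]
  have hgu : IsUnit g := by
    rw [PowerSeries.isUnit_iff_constantCoeff, Ob_isUnit_iff, ← norm_ballMap,
      ← PowerSeries.coeff_zero_eq_constantCoeff_apply, hg]
    exact hu.zero
  obtain ⟨w, hw⟩ := hgu.exists_right_inv
  have hmul : u * PowerSeries.map (ballMap L) w = 1 := by
    rw [← hgf, ← map_mul, hw, map_one]
  refine ⟨PowerSeries.map (ballMap L) w, ⟨⟨L, hL, fun n => ?_⟩, fun n => ?_, ?_⟩, hmul⟩
  · dsimp only
    rw [PowerSeries.coeff_map, ballMap_apply]; exact Subtype.mem _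
  · rw [PowerSeries.coeff_map, norm_ballMap]; exact Ob_norm_le_one _
  · have h1 := congrArg PowerSeries.constantCoeff hmul
    rw [map_mul, map_one] at h1
    have h2 := congrArg norm h1
    rw [norm_mul, norm_one] at h2
    have h3 : ‖PowerSeries.constantCoeff u‖ = 1 := by
      rw [← PowerSeries.coeff_zero_eq_constantCoeff_apply]; exact hu.zero
    rw [h3, one_mul] at h2
    rw [PowerSeries.coeff_zero_eq_constantCoeff_apply]; exact h2

theorem IsU.norm_evp {u : PowerSeries C} (hu : IsU k u) {t : C} (ht : ‖t‖ < 1) : ‖evp t u‖ = 1 := by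
  obtain ⟨v, hv, huv⟩ := hu.inv
  have h1 : ‖evp t u‖ ≤ 1 := norm_evp_le fun n =>
    mul_le_one₀ (hu.le n) (pow_nonneg (norm_nonneg _) _) (pow_le_one₀ (norm_nonneg _) ht.le)
  have h2 : ‖evp t v‖ ≤ 1 := norm_evp_le fun n =>
    mul_le_one₀ (hv.le n) (pow_nonneg (norm_nonneg _) _) (pow_le_one₀ (norm_nonneg _) ht.le)
  have h3 : evp t u * evp t v = 1 := by
    rw [← evp_mul hu.mem hv.mem ht, huv]
    have := evp_C t (1 : C)
    rwa [map_one] at this
  have h4 := congrArg norm h3
  rw [norm_mul, norm_one] at h4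
  nlinarith [norm_nonneg (evp t u), norm_nonneg (evp t v)]

/-- a normalised series of Weierstrass degree `m` -/
structure WD (k : Type*) {C : Type*} [NontriviallyNormedField k] [NormedField C] [NormedAlgebra k C]
    (f : PowerSeries C) (m : ℕ) : Prop where
  fin : FinDef k fun n => PowerSeries.coeff n f
  le : ∀ n, ‖PowerSeries.coeff n f‖ ≤ 1
  eq : ‖PowerSeries.coeff m f‖ = 1
  lt : ∀ n < m, ‖PowerSeries.coeff n f‖ < 1

theorem WD.mem {f : PowerSeries C} {m : ℕ} (hf : WD k f m) : f ∈ BD k C := ⟨hf.fin, 1, hf.le⟩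

theorem WD.ne_zero {f : PowerSeries C} {m : ℕ} (hf : WD k f m) : f ≠ 0 := by
  rintro rfl
  have := hf.eq
  simp at this

/-- the multiset product `prod (X - tau)` -/
def rootPoly (S : Multiset C) : Polynomial C :=
  (S.map fun τ => Polynomial.X - Polynomial.C τ).prod

theorem WD.exists_roots {f : PowerSeries C} {m : ℕ} (hf : WD k f m) :
    ∃ (u : PowerSeries C) (S : Multiset C), IsU k u ∧ S.card = m ∧ (∀ τ ∈ S, ‖τ‖ < 1) ∧
      f = u * (rootPoly S : PowerSeries C) := by
  obtain ⟨u, S, h1, h2, h3, h4, h5, h6⟩ := weierstrass_roots hf.fin hf.le hf.eq hf.lt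
  exact ⟨u, S, ⟨h1, h2, h3⟩, h4, h5, h6⟩

theorem eval_rootPoly (S : Multiset C) (t : C) :
    (rootPoly S).eval t = (S.map fun τ => t - τ).prod := by
  unfold rootPoly
  rw [Polynomial.eval_multiset_prod, Multiset.map_map]
  congr 1
  refine Multiset.map_congr rfl fun τ _ => ?_
  simp

theorem norm_eval_rootPoly (S : Multiset C) (t : C) :
    ‖(rootPoly S).eval t‖ = (S.map fun τ => ‖t - τ‖).prod := by
  rw [eval_rootPoly]
  have := map_multiset_prod (normHom : C →*₀ ℝ) (S.map fun τ => t - τ)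
  simpa [Multiset.map_map, Function.comp_def] using this

theorem norm_evp_roots {u : PowerSeries C} (hu : IsU k u) (S : Multiset C) {t : C} (ht : ‖t‖ < 1) :
    ‖evp t (u * (rootPoly S : PowerSeries C))‖ = (S.map fun τ => ‖t - τ‖).prod := by
  rw [evp_mul hu.mem (coe_mem_BD _) ht, norm_mul, hu.norm_evp ht, one_mul, evp_coe,
    norm_eval_rootPoly]

theorem evp_roots_eq_zero {u : PowerSeries C} (hu : IsU k u) (S : Multiset C) {t : C}
    (ht : ‖t‖ < 1) : evp t (u * (rootPoly S : PowerSeries C)) = 0 ↔ t ∈ S := by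
  rw [← norm_eq_zero, norm_evp_roots hu S ht, Multiset.prod_eq_zero_iff, Multiset.mem_map]
  constructor
  · rintro ⟨τ, hτ, h0⟩
    rw [norm_eq_zero, sub_eq_zero] at h0
    rwa [h0]
  · intro h
    exact ⟨t, h, by simp⟩

/-- normalisation of a nonzero element of `BD` -/
theorem exists_normalise (hk : DiscNorm k) {f : PowerSeries C} (hf : f ∈ BD k C) (h0 : f ≠ 0) :
    ∃ (c : C) (g : PowerSeries C) (m : ℕ), c ≠ 0 ∧ WD k g m ∧ f = PowerSeries.C c * g ∧
      (∀ n, ‖PowerSeries.coeff n f‖ ≤ ‖c‖) ∧ PowerSeries.coeff m f = c := by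
  obtain ⟨h1, M, h2⟩ := hf
  have hne : ∃ i, PowerSeries.coeff i f ≠ 0 := by
    by_contra h
    push Not at h
    exact h0 (PowerSeries.ext (by simpa using h))
  obtain ⟨m, hm0, hm1, hm2⟩ := exists_wdeg hk h1 h2 hne
  set c := PowerSeries.coeff m f with hc
  have hcn : 0 < ‖c‖ := norm_pos_iff.2 hm0
  refine ⟨c, PowerSeries.C c⁻¹ * f, m, hm0, ⟨?_, fun n => ?_, ?_, fun n hn => ?_⟩, ?_, hm1, rfl⟩
  · obtain ⟨L, hL, h3, h4⟩ := h1.common (finDef_const (k := k) (ι := Unit) c)
    refine ⟨L, hL, fun n => ?_⟩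
    dsimp only
    rw [PowerSeries.coeff_C_mul]
    exact mul_mem (inv_mem (h4 ())) (h3 n)
  · rw [PowerSeries.coeff_C_mul, norm_mul, norm_inv, inv_mul_le_iff₀ hcn, mul_one]
    exact hm1 n
  · rw [PowerSeries.coeff_C_mul, norm_mul, norm_inv, ← hc, inv_mul_cancel₀ hcn.ne']
  · rw [PowerSeries.coeff_C_mul, norm_mul, norm_inv, inv_mul_lt_iff₀ hcn, mul_one]
    exact hm2 n hn
  · rw [← mul_assoc, ← map_mul, mul_inv_cancel₀ hm0, map_one, one_mul]

/-- a nonzero element of `BD` has finitely many zeros in the open unit disc -/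
theorem finite_zeros (hk : DiscNorm k) {f : PowerSeries C} (hf : f ∈ BD k C) (h0 : f ≠ 0) :
    {t : C | ‖t‖ < 1 ∧ evp t f = 0}.Finite := by
  classical
  obtain ⟨c, g, m, hc, hg, hfg, -, -⟩ := exists_normalise hk hf h0
  obtain ⟨u, S, hu, -, -, hgu⟩ := hg.exists_roots
  refine (S.toFinset.finite_toSet).subset ?_
  rintro t ⟨ht, ht0⟩
  rw [hfg, evp_mul (C_mem_BD c) hg.mem ht, evp_C, mul_eq_zero] at ht0
  rcases ht0 with h | h
  · exact absurd h hc
  · rw [hgu, evp_roots_eq_zero hu S ht] at h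
    simpa using h

theorem infinite_disc (k C : Type*) [NontriviallyNormedField k] [NormedField C] [NormedAlgebra k C] :
    {t : C | ‖t‖ < 1}.Infinite := by
  obtain ⟨y, hy0, hy1⟩ := NormedField.exists_norm_lt_one k
  obtain ⟨x, hx0, hx1⟩ : ∃ x : C, 0 < ‖x‖ ∧ ‖x‖ < 1 :=
    ⟨algebraMap k C y, by rwa [norm_algebraMap'], by rwa [norm_algebraMap']⟩
  have hinj : Function.Injective fun n : ℕ => x ^ (n + 1) := by
    intro a b hab
    have h1 : ‖x‖ ^ (a + 1) = ‖x‖ ^ (b + 1) := by
      rw [← norm_pow, ← norm_pow]; exact congrArg norm hab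
    have := (pow_right_injective₀ hx0 hx1.ne) h1
    omega
  refine Set.infinite_of_injective_forall_mem hinj fun n => ?_
  change ‖x ^ (n + 1)‖ < 1
  rw [norm_pow]
  exact pow_lt_one₀ (norm_nonneg _) hx1 (Nat.succ_ne_zero n)

/-- identity theorem -/
theorem evp_ext (hk : DiscNorm k) {f g : PowerSeries C} (hf : f ∈ BD k C) (hg : g ∈ BD k C)
    (h : {t : C | ‖t‖ < 1 ∧ evp t f = evp t g}.Infinite) : f = g := by
  by_contra hne
  have h0 : f - g ≠ 0 := sub_ne_zero.2 hne
  have hfin := finite_zeros hk (sub_mem hf hg) h0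
  refine h (hfin.subset ?_)
  rintro t ⟨ht, hfg⟩
  refine ⟨ht, ?_⟩
  have h1 : evp t (f - g + g) = evp t (f - g) + evp t g := evp_add (sub_mem hf hg) hg ht
  rw [sub_add_cancel, hfg] at h1
  exact left_eq_add.1 (by rw [add_comm]; exact h1)

theorem evp_ext' (hk : DiscNorm k) {f g : PowerSeries C} (hf : f ∈ BD k C) (hg : g ∈ BD k C)
    (h : ∀ t : C, ‖t‖ < 1 → evp t f = evp t g) : f = g := by
  refine evp_ext hk hf hg ((infinite_disc k C).mono ?_)
  intro t ht
  exact ⟨ht, h t ht⟩

end Ev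

end Crest.Agent.R013.Cell_408
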