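import Crest.Agent.R013.EE3_809
import Crest.Agent.R013.Cell4_408

/-!
# Row 13, leaf TOPSPLIT-P (helper931), file 1: Birkhoff factorisation in `EE k C` and `n`-th powers

`fac` : `w = a * b` with `a` a unit of `BD` (nonnegative exponents), `b` with exponents `≤ 0`,
`b_0 = 1`, as soon as `|w_m| ≤ 1`, `|w_0| = 1`, `|w_m| < 1` for `m < 0`.
`core` : `w ^ n = a * β`, `a` a unit of `BD`, `β` a unit in the exponents `≤ 0` implies that `a` is an
`n`-th power of a unit of `BD` (any `n ≥ 1`, `p ∣ n` allowed).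
-/

set_option autoImplicit false
set_option linter.unusedSectionVars false
open Filter Topology
open Crest.Agent.R013.Cell_408
open Crest.Agent.R013.EE809

namespace Crest.Agent.R013.Pow1_931

section basic

variable {k : Type*} [NontriviallyNormedField k] [CompleteSpace k]
variable {C : Type*} [NormedField C] [IsUltrametricDist C] [NormedAlgebra k C]

/-- only exponents `≥ 0` -/
def Pos (a : EE k C) : Prop := ∀ n : ℤ, n < 0 → a.co n = 0

/-- only exponents `≤ 0` -/
def Neg (a : EE k C) : Prop := ∀ n : ℤ, 0 < n → a.co n = 0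

theorem Pos.add {a b : EE k C} (ha : Pos a) (hb : Pos b) : Pos (a + b) := fun n hn => by
  rw [co_add, ha n hn, hb n hn, add_zero]

theorem Pos.neg {a : EE k C} (ha : Pos a) : Pos (-a) := fun n hn => by
  rw [co_neg, ha n hn, neg_zero]

theorem Pos.sub {a b : EE k C} (ha : Pos a) (hb : Pos b) : Pos (a - b) := fun n hn => by
  rw [co_sub, ha n hn, hb n hn, sub_zero]

theorem Pos.one : Pos (1 : EE k C) := fun n hn => by rw [co_one, if_neg hn.ne]

theorem Neg.one : Neg (1 : EE k C) := fun n hn => by rw [co_one, if_neg hn.ne']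

theorem Pos.mul {a b : EE k C} (ha : Pos a) (hb : Pos b) : Pos (a * b) := fun n hn => by
  rw [co_mul]
  have h0 : ∀ i : ℤ, a.co i * b.co (n - i) = 0 := by
    intro i
    rcases lt_or_ge i 0 with h1 | h1
    · rw [ha i h1, zero_mul]
    · rw [hb _ (show n - i < 0 by omega), mul_zero]
  simp only [h0, tsum_zero]

theorem Neg.mul {a b : EE k C} (ha : Neg a) (hb : Neg b) : Neg (a * b) := fun n hn => by
  rw [co_mul]
  have h0 : ∀ i : ℤ, a.co i * b.co (n - i) = 0 := by
    intro i
    rcases lt_or_ge 0 i with h1 | h1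
    · rw [ha i h1, zero_mul]
    · rw [hb _ (show 0 < n - i by omega), mul_zero]
  simp only [h0, tsum_zero]

theorem Neg.pow {a : EE k C} (ha : Neg a) (n : ℕ) : Neg (a ^ n) := by
  induction n with
  | zero => rw [pow_zero]; exact Neg.one
  | succ n ih => rw [pow_succ]; exact ih.mul ha

theorem Pos.pow {a : EE k C} (ha : Pos a) (n : ℕ) : Pos (a ^ n) := by
  induction n with
  | zero => rw [pow_zero]; exact Pos.one
  | succ n ih => rw [pow_succ]; exact ih.mul ha

theorem Neg.co_zero_mul {a b : EE k C} (ha : Neg a) (hb : Neg b) :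
    (a * b).co 0 = a.co 0 * b.co 0 := by
  rw [co_mul, tsum_eq_single 0, sub_zero]
  intro i hi
  rcases lt_or_ge 0 i with h1 | h1
  · rw [ha i h1, zero_mul]
  · rw [hb _ (show 0 < 0 - i by omega), mul_zero]

theorem Pos.co_zero_mul {a b : EE k C} (ha : Pos a) (hb : Pos b) :
    (a * b).co 0 = a.co 0 * b.co 0 := by
  rw [co_mul, tsum_eq_single 0, sub_zero]
  intro i hi
  rcases lt_or_ge i 0 with h1 | h1
  · rw [ha i h1, zero_mul]
  · rw [hb _ (show 0 - i < 0 by omega), mul_zero]

theorem Neg.co_zero_pow {a : EE k C} (ha : Neg a) (n : ℕ) : (a ^ n).co 0 = (a.co 0) ^ n := by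
  induction n with
  | zero => rw [pow_zero, pow_zero, co_one, if_pos rfl]
  | succ n ih => rw [pow_succ, (ha.pow n).co_zero_mul ha, ih, pow_succ]

/-- all coefficients of an element tending to `0` in both senses that matter are uniformly `< 1` -/
theorem gn_lt_one_of {a : EE k C} (h0 : ∀ n : ℤ, 0 ≤ n → a.co n = 0)
    (h1 : ∀ n : ℤ, n < 0 → ‖a.co n‖ < 1) : gn a < 1 := by
  obtain ⟨K, hK0, hK⟩ := a.small (ε := 1 / 2) (by norm_num)
  obtain ⟨m, hm, hmax⟩ := (Finset.Icc (-K) 0).exists_max_image (fun n => ‖a.co n‖)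
    ⟨0, Finset.mem_Icc.2 ⟨by omega, le_rfl⟩⟩
  have hm1 : ‖a.co m‖ < 1 := by
    rcases lt_or_ge m 0 with h | h
    · exact h1 m h
    · rw [h0 m h, norm_zero]; exact one_pos
  have : gn a ≤ max ‖a.co m‖ (1 / 2) := by
    refine gn_le fun n => ?_
    rcases lt_or_ge n (-K) with h | h
    · exact (hK n h).le.trans (le_max_right _ _)
    · rcases le_or_gt n 0 with h2 | h2
      · exact (hmax n (Finset.mem_Icc.2 ⟨h, h2⟩)).trans (le_max_left _ _)
      · rw [h0 n h2.le, norm_zero]
        exact le_max_of_le_right (by norm_num)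
  exact lt_of_le_of_lt this (max_lt hm1 (by norm_num))

end basic

section fact

variable {k : Type*} [NontriviallyNormedField k] [CompleteSpace k] [IsUltrametricDist k]
variable {C : Type*} [NormedField C] [IsUltrametricDist C] [NormedAlgebra k C]
variable [Algebra.IsAlgebraic k C] [IsAlgClosed C]

theorem pos_ofBD (f : BD k C) : Pos (ofBD f) := fun _ hn => co_ofBD_neg f hn

theorem Pos.eq_ofBD {a : EE k C} (ha : Pos a) : ofBD (posPart a) = a := by
  ext n
  rw [co_ofBD_posPart]
  split_ifs with h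
  · rfl
  · exact (ha n (by omega)).symm

/-- projection to the nonnegative exponents -/
noncomputable def P (a : EE k C) : EE k C := ofBD (posPart a)

theorem co_P (a : EE k C) (n : ℤ) : (P a).co n = if 0 ≤ n then a.co n else 0 := co_ofBD_posPart a n

theorem pos_P (a : EE k C) : Pos (P a) := pos_ofBD _

theorem gn_P_le (a : EE k C) : gn (P a) ≤ gn a := gn_le fun n => by
  rw [co_P]
  split_ifs
  · exact le_gn a n
  · rw [norm_zero]; exact gn_nonneg a

theorem P_add (a b : EE k C) : P (a + b) = P a + P b := by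
  ext n
  rw [co_P, co_add, co_add, co_P, co_P]
  split_ifs <;> simp

theorem P_sub (a b : EE k C) : P (a - b) = P a - P b := by
  ext n
  rw [co_P, co_sub, co_sub, co_P, co_P]
  split_ifs <;> simp

theorem Pos.P_eq {a : EE k C} (ha : Pos a) : P a = a := ha.eq_ofBD

theorem InL.P {L : IntermediateField k C} {a : EE k C} (ha : InL L a) : InL L (P a) := fun n => by
  rw [co_P]
  split_ifs
  · exact ha n
  · exact zero_mem L

/-- inverse of a unit with nonnegative exponents -/
theorem exists_inv_pos {a : EE k C} (ha : Pos a) (h1 : gn a ≤ 1) (h0 : ‖a.co 0‖ = 1) :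
    ∃ b : EE k C, Pos b ∧ gn b ≤ 1 ∧ ‖b.co 0‖ = 1 ∧ a * b = 1 := by
  have hu : IsU k (posPart a).1 := by
    refine ⟨(posPart a).2.1, fun n => ?_, ?_⟩
    · rw [coeff_posPart]; exact (le_gn a n).trans h1
    · rw [coeff_posPart]; exact h0
  obtain ⟨v, hv, huv⟩ := hu.inv
  refine ⟨ofBD ⟨v, hv.mem⟩, pos_ofBD _, gn_le fun n => ?_, ?_, ?_⟩
  · rcases lt_or_ge n 0 with h | h
    · rw [co_ofBD_neg _ h, norm_zero]; exact zero_le_one
    · obtain ⟨m, rfl⟩ := Int.eq_ofNat_of_zero_le h
      rw [co_ofBD_nat]; exact hv.le m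
  · have : (ofBD (⟨v, hv.mem⟩ : BD k C)).co ((0 : ℕ) : ℤ) = PowerSeries.coeff 0 v := co_ofBD_nat _ 0
    rw [Nat.cast_zero] at this
    rw [this]; exact hv.zero
  · conv_lhs => rw [← ha.eq_ofBD]
    rw [← map_mul]
    have : posPart a * ⟨v, hv.mem⟩ = (1 : BD k C) := Subtype.ext huv
    rw [this, map_one]

/-- **Birkhoff factorisation.** -/
theorem fac {w : EE k C} (h1 : gn w ≤ 1) (h0 : ‖w.co 0‖ = 1) (hn : ∀ n : ℤ, n < 0 → ‖w.co n‖ < 1) :
    ∃ a b : EE k C, w = a * b ∧ Pos a ∧ gn a ≤ 1 ∧ ‖a.co 0‖ = 1 ∧ Neg b ∧ b.co 0 = 1 ∧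
      gn (b - 1) < 1 := by
  -- the positive part of `w` is a unit
  have hP0 : ‖(P w).co 0‖ = 1 := by rw [co_P, if_pos le_rfl]; exact h0
  obtain ⟨V, hV, hV1, hV0, hVw⟩ := exists_inv_pos (pos_P w) ((gn_P_le w).trans h1) hP0
  have hdiff : gn (w - P w) < 1 := by
    refine gn_lt_one_of (fun n hn' => ?_) fun n hn' => ?_
    · rw [co_sub, co_P, if_pos hn', sub_self]
    · rw [co_sub, co_P, if_neg (by omega), sub_zero]; exact hn n hn'
  set x : EE k C := w * V - 1 with hx
  have hx' : x = (w - P w) * V := by rw [hx, sub_mul, hVw]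
  have hx1 : gn x < 1 := by
    rw [hx']
    refine lt_of_le_of_lt (gn_mul_le _ _) ?_
    calc gn (w - P w) * gn V ≤ gn (w - P w) * 1 := mul_le_mul_of_nonneg_left hV1 (gn_nonneg _)
      _ < 1 := by rw [mul_one]; exact hdiff
  set δ := gn x with hδ
  have hδ0 : 0 ≤ δ := gn_nonneg x
  obtain ⟨L, hL, hxL⟩ := x.exists_inL
  -- the fixed point equation `y = - P (x + x * y)`
  let s : ℕ → EE k C := fun m => Nat.rec 0 (fun _ y => - P (x + x * y)) m
  have hs0 : s 0 = 0 := rfl
  have hsS : ∀ m, s (m + 1) = - P (x + x * s m) := fun _ => rfl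
  have hsL : ∀ m, InL L (s m) := by
    intro m
    induction m with
    | zero => rw [hs0]; exact InL.zero L
    | succ m ih => rw [hsS]; exact (InL.P (hxL.add (hxL.mul ih))).neg
  have hspos : ∀ m, Pos (s m) := by
    intro m
    cases m with
    | zero => rw [hs0]; intro n _; rfl
    | succ m => rw [hsS]; exact (pos_P _).neg
  have hcontr : ∀ y z : EE k C, gn (- P (x + x * y) - - P (x + x * z)) ≤ δ * gn (y - z) := by
    intro y z
    have h2 : - P (x + x * y) - - P (x + x * z) = - P (x * (y - z)) := by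
      have : x * (y - z) = (x + x * y) - (x + x * z) := by ring
      rw [this, P_sub]; ring
    rw [h2, gn_neg]
    exact (gn_P_le _).trans (gn_mul_le _ _)
  have hstep : ∀ m, gn (s (m + 1) - s m) ≤ δ ^ (m + 1) := by
    intro m
    induction m with
    | zero =>
      rw [hsS, hs0, sub_zero, gn_neg, mul_zero, add_zero, zero_add, pow_one]
      exact gn_P_le x
    | succ m ih =>
      have h3 : s (m + 1 + 1) - s (m + 1) = - P (x + x * s (m + 1)) - - P (x + x * s m) := rfl
      rw [h3]
      refine (hcontr _ _).trans ?_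
      rw [pow_succ' δ (m + 1)]
      exact mul_le_mul_of_nonneg_left ih hδ0
  have hcauchy : ∀ m n, m ≤ n → gn (s n - s m) ≤ δ ^ (m + 1) := by
    intro m n hmn
    induction n, hmn using Nat.le_induction with
    | base => rw [sub_self, gn_zero]; positivity
    | succ n hmn ih =>
      have : s (n + 1) - s m = (s (n + 1) - s n) + (s n - s m) := by ring
      rw [this]
      refine (gn_add_le _ _).trans (max_le ?_ ih)
      exact (hstep n).trans (pow_le_pow_of_le_one hδ0 hx1.le (by omega))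
  have hlim : Tendsto (fun m : ℕ => δ ^ (m + 1)) atTop (𝓝 0) :=
    (tendsto_pow_atTop_nhds_zero_of_lt_one hδ0 hx1).comp (tendsto_add_atTop_nat 1)
  obtain ⟨y, hyL, hy⟩ := complete_of L s hsL (fun m => δ ^ (m + 1)) hlim hcauchy
  have hyfix : y = - P (x + x * y) := by
    have h3 : ∀ m : ℕ, gn (y - - P (x + x * y)) ≤ δ ^ (m + 1) := by
      intro m
      have : y - - P (x + x * y) = (y - s (m + 1)) + (- P (x + x * s m) - - P (x + x * y)) := by
        rw [hsS]; ring
      rw [this]
      refine (gn_add_le _ _).trans (max_le ?_ ?_)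
      · refine (hy (m + 1)).trans (pow_le_pow_of_le_one hδ0 hx1.le (by omega))
      · refine (hcontr _ _).trans ?_
        rw [gn_sub_comm]
        calc δ * gn (y - s m) ≤ δ * δ ^ (m + 1) := mul_le_mul_of_nonneg_left (hy m) hδ0
          _ ≤ 1 * δ ^ (m + 1) := mul_le_mul_of_nonneg_right hx1.le (by positivity)
          _ = δ ^ (m + 1) := one_mul _
    have h4 : gn (y - - P (x + x * y)) ≤ 0 := ge_of_tendsto' hlim h3
    exact sub_eq_zero.1 (gn_eq_zero.1 (le_antisymm h4 (gn_nonneg _)))
  have hypos : Pos y := by rw [hyfix]; exact (pos_P _).neg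
  have hy1 : gn y ≤ δ := by
    have := hy 0
    rw [hs0, sub_zero, zero_add, pow_one] at this
    exact this
  set b : EE k C := (1 + x) * (1 + y) with hb
  have hPb : P b = 1 := by
    have h5 : b = 1 + y + (x + x * y) := by rw [hb]; ring
    have h6 : P (x + x * y) = -y := by linear_combination hyfix
    rw [h5, P_add, (Pos.one.add hypos).P_eq, h6]; ring
  have hbneg : Neg b := by
    intro n hn'
    have := congrArg (fun a : EE k C => a.co n) hPb
    simp only [co_P, co_one] at this
    rw [if_pos hn'.le, if_neg hn'.ne'] at this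
    exact this
  have hb0 : b.co 0 = 1 := by
    have := congrArg (fun a : EE k C => a.co 0) hPb
    simpa only [co_P, co_one, le_refl, if_true] using this
  have hbs : gn (b - 1) < 1 := by
    have h5 : b - 1 = x + (y + x * y) := by rw [hb]; ring
    rw [h5]
    refine lt_of_le_of_lt (gn_add_le _ _) (max_lt hx1 ?_)
    refine lt_of_le_of_lt (gn_add_le _ _) (max_lt (lt_of_le_of_lt hy1 hx1) ?_)
    refine lt_of_le_of_lt (gn_mul_le _ _) ?_
    calc δ * gn y ≤ δ * 1 := mul_le_mul_of_nonneg_left (hy1.trans hx1.le) hδ0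
      _ < 1 := by rw [mul_one]; exact hx1
  -- `1 + y` is a unit
  have hy0 : ‖(1 + y).co 0‖ = 1 := by
    rw [co_add, co_one, if_pos rfl]
    have h6 : ‖y.co 0‖ < ‖(1 : C)‖ := by
      rw [norm_one]; exact lt_of_le_of_lt ((le_gn y 0).trans hy1) hx1
    rw [IsUltrametricDist.norm_add_eq_max_of_norm_ne_norm h6.ne', norm_one]
    exact max_eq_left (by rw [norm_one] at h6; exact h6.le)
  have hy1' : gn (1 + y) ≤ 1 :=
    (gn_add_le _ _).trans (max_le (by rw [gn_one]) (hy1.trans hx1.le))
  obtain ⟨Z, hZ, hZ1, hZ0, hZy⟩ := exists_inv_pos (Pos.one.add hypos) hy1' hy0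
  refine ⟨P w * Z, b, ?_, (pos_P w).mul hZ, ?_, ?_, hbneg, hb0, hbs⟩
  · have h7 : 1 + x = w * V := by rw [hx]; ring
    rw [hb, h7]
    calc w = (P w * V) * ((1 + y) * Z) * w := by rw [hVw, hZy]; ring
      _ = P w * Z * (w * V * (1 + y)) := by ring
  · refine (gn_mul_le _ _).trans (mul_le_one₀ ((gn_P_le w).trans h1) (gn_nonneg _) hZ1)
  · rw [(pos_P w).co_zero_mul hZ, norm_mul, hP0, hZ0, one_mul]

end fact

section core

variable {k : Type*} [NontriviallyNormedField k] [CompleteSpace k] [IsUltrametricDist k]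
variable {C : Type*} [NormedField C] [IsUltrametricDist C] [NormedAlgebra k C]
variable [Algebra.IsAlgebraic k C] [IsAlgClosed C]

/-- unit with nonnegative exponents -/
structure UPos (a : EE k C) : Prop where
  pos : Pos a
  le : gn a ≤ 1
  zero : ‖a.co 0‖ = 1

/-- unit with nonpositive exponents, norm one, dominated by its constant term -/
structure UNeg (b : EE k C) : Prop where
  neg : Neg b
  zero : ‖b.co 0‖ = 1
  lt : ∀ n : ℤ, n < 0 → ‖b.co n‖ < 1

theorem UPos.gn_eq {a : EE k C} (ha : UPos a) : gn a = 1 :=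
  le_antisymm ha.le (by rw [← ha.zero]; exact le_gn a 0)

theorem UPos.ne_zero {a : EE k C} (ha : UPos a) : a ≠ 0 := by
  rintro rfl
  have := ha.zero
  simp at this

theorem UNeg.gn_eq {b : EE k C} (hb : UNeg b) : gn b = 1 := by
  refine le_antisymm (gn_le fun n => ?_) (by rw [← hb.zero]; exact le_gn b 0)
  rcases lt_trichotomy n 0 with h | h | h
  · exact (hb.lt n h).le
  · rw [h, hb.zero]
  · rw [hb.neg n h, norm_zero]; exact zero_le_one

theorem UNeg.ne_zero {b : EE k C} (hb : UNeg b) : b ≠ 0 := by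
  rintro rfl
  have := hb.zero
  simp at this

theorem UPos.od_eq {a : EE k C} (ha : UPos a) : od a = 0 :=
  od_eq_of (by rw [ha.zero, ha.gn_eq]) fun m hm => by
    rw [ha.pos m hm, norm_zero, ha.gn_eq]; exact one_pos

theorem UNeg.od_eq {b : EE k C} (hb : UNeg b) : od b = 0 :=
  od_eq_of (by rw [hb.zero, hb.gn_eq]) fun m hm => by
    rw [hb.gn_eq]; exact hb.lt m hm

theorem gn_pow (hk : DiscNorm k) (a : EE k C) (n : ℕ) : gn (a ^ n) = gn a ^ n := by
  induction n with
  | zero => rw [pow_zero, pow_zero, gn_one]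
  | succ n ih => rw [pow_succ, gn_mul hk, ih, pow_succ]

theorem pow_ne_zero' (hk : DiscNorm k) {a : EE k C} (ha : a ≠ 0) (n : ℕ) : a ^ n ≠ 0 := by
  induction n with
  | zero =>
    rw [pow_zero]; intro h
    have := congrArg (fun a : EE k C => a.co 0) h
    rw [co_one, if_pos rfl, co_zero] at this
    exact one_ne_zero this
  | succ n ih => rw [pow_succ]; exact mul_ne_zero' hk ih ha

theorem od_pow (hk : DiscNorm k) {a : EE k C} (ha : a ≠ 0) (n : ℕ) : od (a ^ n) = n * od a := by
  induction n with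
  | zero => rw [pow_zero, od_one, Nat.cast_zero, zero_mul]
  | succ n ih =>
    rw [pow_succ, od_mul hk (pow_ne_zero' hk ha n) ha, ih]
    push_cast; ring

/-- **Core.** If `w ^ n` is the product of a unit with nonnegative exponents and a unit with
nonpositive exponents then the first one is an `n`-th power. -/
theorem core (hk : DiscNorm k) {n : ℕ} (hn : 0 < n) {w a β : EE k C} (h : w ^ n = a * β)
    (ha : UPos a) (hβ : UNeg β) : ∃ g : EE k C, UPos g ∧ g ^ n = a := by
  have hab : a * β ≠ 0 := mul_ne_zero' hk ha.ne_zero hβ.ne_zero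
  have hw0 : w ≠ 0 := by
    rintro rfl
    rw [zero_pow hn.ne'] at h
    exact hab h.symm
  have hgw : gn w = 1 := by
    have h1 : gn w ^ n = 1 := by
      rw [← gn_pow hk, h, gn_mul hk, ha.gn_eq, hβ.gn_eq, one_mul]
    exact (pow_eq_one_iff_of_nonneg (gn_nonneg w) hn.ne').1 h1
  have hod : od w = 0 := by
    have h1 : (n : ℤ) * od w = 0 := by
      rw [← od_pow hk hw0, h, od_mul hk ha.ne_zero hβ.ne_zero, ha.od_eq, hβ.od_eq, add_zero]
    rcases mul_eq_zero.1 h1 with h2 | h2
    · exact absurd (Int.natCast_eq_zero.1 h2) hn.ne'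
    · exact h2
  have hw00 : ‖w.co 0‖ = 1 := by
    have := norm_co_od hk hw0
    rw [hod, hgw] at this
    exact this
  have hwneg : ∀ m : ℤ, m < 0 → ‖w.co m‖ < 1 := by
    intro m hm
    have := norm_lt_of_lt_od hw0 (n := m) (by rw [hod]; exact hm)
    rw [hgw] at this
    exact this
  obtain ⟨a', b', hw, ha'p, ha'1, ha'0, hb'n, hb'0, hb'1⟩ := fac hgw.le hw00 hwneg
  -- inverses
  obtain ⟨A, hA, hA1, hA0, haA⟩ := exists_inv_pos ha.pos ha.le ha.zero
  -- `a' ^ n * A = β * (b'⁻¹) ^ n`; avoid the inverse of `b'`: `(a' ^ n * A) * b' ^ n = β`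
  have h2 : (a' ^ n * A) * b' ^ n = β := by
    have : a' ^ n * b' ^ n = a * β := by rw [← mul_pow, ← hw, h]
    calc (a' ^ n * A) * b' ^ n = A * (a' ^ n * b' ^ n) := by ring
      _ = (a * A) * β := by rw [this]; ring
      _ = β := by rw [haA, one_mul]
  -- inverse of `b'` has nonpositive exponents
  set c : EE k C := a' ^ n * A with hc
  have hcpos : Pos c := (ha'p.pow n).mul hA
  have hbn : Neg (b' ^ n) := hb'n.pow n
  have hbn0 : (b' ^ n).co 0 = 1 := by rw [hb'n.co_zero_pow, hb'0, one_pow]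
  -- `c` is constant: highest exponent argument via `gn`
  have hbn1 : gn (b' ^ n - 1) < 1 := by
    have : ∀ m : ℕ, gn (b' ^ m - 1) ≤ gn (b' - 1) := by
      intro m
      induction m with
      | zero => rw [pow_zero, sub_self, gn_zero]; exact gn_nonneg _
      | succ m ih =>
        have h3 : b' ^ (m + 1) - 1 = b' ^ m * (b' - 1) + (b' ^ m - 1) := by rw [pow_succ]; ring
        rw [h3]
        refine (gn_add_le _ _).trans (max_le ?_ ih)
        have h4 : gn (b' ^ m) ≤ 1 := by
          have : b' ^ m = (b' ^ m - 1) + 1 := by ring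
          rw [this]
          exact (gn_add_le _ _).trans (max_le (ih.trans hb'1.le) (by rw [gn_one]))
        refine (gn_mul_le _ _).trans ?_
        calc gn (b' ^ m) * gn (b' - 1) ≤ 1 * gn (b' - 1) :=
              mul_le_mul_of_nonneg_right h4 (gn_nonneg _)
          _ = gn (b' - 1) := one_mul _
    exact lt_of_le_of_lt (this n) hb'1
  have hcconst : c = algebraMap C (EE k C) (c.co 0) := by
    -- `c' = c - c_0` satisfies `c' * b'^n = β - c_0 b'^n` which has only exponents `≤ 0`
    set c' : EE k C := c - algebraMap C (EE k C) (c.co 0) with hc'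
    have hc'0 : ∀ m : ℤ, m ≤ 0 → c'.co m = 0 := by
      intro m hm
      rw [hc', co_sub, co_algebraMap]
      rcases lt_or_eq_of_le hm with h3 | h3
      · rw [hcpos m h3, if_neg h3.ne, sub_zero]
      · rw [h3, if_pos rfl, sub_self]
    by_contra hne
    have hc'ne : c' ≠ 0 := by
      rw [hc', sub_ne_zero]; exact hne
    have hprod : Neg (c' * b' ^ n) := by
      have : c' * b' ^ n = β - algebraMap C (EE k C) (c.co 0) * b' ^ n := by
        rw [hc', sub_mul, h2]
      rw [this]
      intro m hm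
      rw [co_sub, hβ.neg m hm, algebraMap_eq, co_mo_mul, sub_zero, hbn m hm, mul_zero, sub_zero]
    -- compare leading coefficients: `od c' > 0`
    have hodc : 0 < od c' := by
      by_contra hle
      exact co_od_ne_zero hk hc'ne (hc'0 _ (not_lt.1 hle))
    have hodb : od (b' ^ n) = 0 := by
      have hb'' : ‖(b' ^ n).co 0‖ = 1 := by rw [hbn0, norm_one]
      have hle : gn (b' ^ n) ≤ 1 := by
        have : b' ^ n = (b' ^ n - 1) + 1 := by ring
        rw [this]
        exact (gn_add_le _ _).trans (max_le hbn1.le (by rw [gn_one]))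
      have hg : gn (b' ^ n) = 1 := le_antisymm hle (by rw [← hb'']; exact le_gn _ 0)
      refine od_eq_of (by rw [hb'', hg]) fun m hm => ?_
      rw [hg]
      have h5 := le_gn (b' ^ n - 1) m
      rw [co_sub, co_one, if_neg hm.ne, sub_zero] at h5
      exact lt_of_le_of_lt h5 hbn1
    have hb'ne : b' ^ n ≠ 0 := by
      intro h6
      have : (b' ^ n).co 0 = 0 := by rw [h6]; rfl
      rw [hbn0] at this
      exact one_ne_zero this
    have h7 := od_mul hk hc'ne hb'ne
    rw [hodb, add_zero] at h7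
    have h8 := co_od_ne_zero hk (mul_ne_zero' hk hc'ne hb'ne)
    rw [h7] at h8
    exact h8 (hprod _ hodc)
  have hc0 : ‖c.co 0‖ = 1 := by
    have h3 : c.co 0 = (a' ^ n).co 0 * A.co 0 := (ha'p.pow n).co_zero_mul hA
    have h4 : ∀ m : ℕ, ‖(a' ^ m).co 0‖ = 1 := by
      intro m
      induction m with
      | zero => rw [pow_zero, co_one, if_pos rfl, norm_one]
      | succ m ih => rw [pow_succ, (ha'p.pow m).co_zero_mul ha'p, norm_mul, ih, ha'0, one_mul]
    rw [h3, norm_mul, h4, hA0, one_mul]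
  -- `a' ^ n = c_0 * a`
  have h9 : a' ^ n = algebraMap C (EE k C) (c.co 0) * a := by
    rw [← hcconst, hc]
    calc a' ^ n = a' ^ n * (a * A) := by rw [haA, mul_one]
      _ = a' ^ n * A * a := by ring
  obtain ⟨r, hr⟩ := IsAlgClosed.exists_pow_nat_eq (c.co 0) hn
  have hr1 : ‖r‖ = 1 := by
    have : ‖r‖ ^ n = 1 := by rw [← norm_pow, hr, hc0]
    exact (pow_eq_one_iff_of_nonneg (norm_nonneg r) hn.ne').1 this
  have hr0 : r ≠ 0 := norm_ne_zero_iff.1 (by rw [hr1]; exact one_ne_zero)
  refine ⟨algebraMap C (EE k C) r⁻¹ * a', ⟨?_, ?_, ?_⟩, ?_⟩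
  · intro m hm
    rw [algebraMap_eq, co_mo_mul, sub_zero, ha'p m hm, mul_zero]
  · refine (gn_mul_le _ _).trans ?_
    rw [gn_algebraMap, norm_inv, hr1, inv_one, one_mul]; exact ha'1
  · rw [algebraMap_eq, co_mo_mul, sub_zero, norm_mul, norm_inv, hr1, inv_one, one_mul]; exact ha'0
  · rw [mul_pow, h9, ← mul_assoc, ← map_pow, ← map_mul, inv_pow, hr,
      inv_mul_cancel₀ (by rw [← hr]; exact pow_ne_zero n hr0), map_one, one_mul]

end core

end Crest.Agent.R013.Pow1_931
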