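import Mathlib
import Crest.Agent.R013.Pow1_931
import Crest.Agent.R013.SSDefs_332
import Crest.Agent.R013.EE4_809

/-!
# R013 / TOPSPLIT-P, file 2 (helper931): `n`-th powers in disc cells

`C` algebraically closed, algebraic over the complete discretely normed field `k`.

* `exists_fact`  a nonzero bounded series is `c * prod (T - τ) * unit`;
* `disc_pow`     `z = G / H` (`G, H` bounded series on the open disc), all orders of `z` in the open
                 disc divisible by `n`, `w ^ n = z` in `EE`.  Then `w * H` is a series on the disc.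
-/

set_option autoImplicit false
set_option linter.all false

namespace Crest.Agent.R013.Pow2_931

open Filter Topology
open Crest.Agent.R013.Cell_408 Crest.Agent.R013.EE809 Crest.Agent.R013.Pow1_931
open Crest.Agent.R013.SSK_332

section multiset

theorem exists_nsmul {α : Type*} {n : ℕ} (S : Multiset α)
    (h : ∀ a, n ∣ (by classical exact S.count a : ℕ)) : ∃ S' : Multiset α, S = n • S' := by
  classical
  refine ⟨∑ a ∈ S.toFinset, (S.count a / n) • {a}, ?_⟩
  rw [Finset.smul_sum]
  conv_lhs => rw [← Multiset.toFinset_sum_count_nsmul_eq S]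
  refine Finset.sum_congr rfl fun a _ => ?_
  rw [smul_smul]
  congr 1
  have := h a
  refine (Nat.mul_div_cancel' ?_).symm
  convert this

end multiset

section A

variable {k : Type*} [NontriviallyNormedField k] [CompleteSpace k]
variable {C : Type*} [NormedField C] [IsUltrametricDist C] [NormedAlgebra k C]
variable [Algebra.IsAlgebraic k C]

theorem lin_eq (τ : C) : (lin τ : EE k C) = T 1 - algebraMap C (EE k C) τ := rfl

theorem ofBD_X : ofBD (⟨PowerSeries.X, X_mem_BD⟩ : BD k C) = T 1 := by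
  ext n
  rw [co_ofBD, T, co_mo]
  rcases lt_or_ge n 0 with h | h
  · rw [psFun_neg _ h, if_neg (by omega)]
  · obtain ⟨m, rfl⟩ := Int.eq_ofNat_of_zero_le h
    rw [psFun_nat, PowerSeries.coeff_X]
    by_cases hm : m = 1
    · rw [if_pos hm, if_pos (by omega)]
    · rw [if_neg hm, if_neg (by omega)]

theorem pos_algebraMap (c : C) : Pos (algebraMap C (EE k C) c) := fun n hn => by
  rw [co_algebraMap, if_neg hn.ne]

theorem pos_T1 : Pos (T 1 : EE k C) := fun n hn => by
  rw [T, co_mo, if_neg (by omega)]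

theorem pos_lin (τ : C) : Pos (lin τ : EE k C) := by
  rw [lin_eq]; exact pos_T1.sub (pos_algebraMap τ)

/-- `prod (T - τ)` -/
noncomputable def rp (S : Multiset C) : EE k C := (S.map fun τ => lin τ).prod

theorem rp_zero : (rp 0 : EE k C) = 1 := by simp [rp]

theorem rp_cons (τ : C) (S : Multiset C) : (rp (τ ::ₘ S) : EE k C) = lin τ * rp S := by
  simp [rp]

theorem rp_add (S S' : Multiset C) : (rp (S + S') : EE k C) = rp S * rp S' := by
  simp [rp]

theorem rp_nsmul (n : ℕ) (S : Multiset C) : (rp (n • S) : EE k C) = rp S ^ n := by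
  simp [rp, Multiset.map_nsmul, Multiset.prod_nsmul]

theorem pos_rp (S : Multiset C) : Pos (rp S : EE k C) := by
  induction S using Multiset.induction_on with
  | empty => rw [rp_zero]; exact Pos.one
  | cons τ S ih => rw [rp_cons]; exact (pos_lin τ).mul ih

theorem ofBD_rootPoly (S : Multiset C) :
    ofBD (⟨(rootPoly S : PowerSeries C), coe_mem_BD _⟩ : BD k C) = rp S := by
  induction S using Multiset.induction_on with
  | empty =>
    rw [rp_zero, ← map_one (ofBD : BD k C →+* EE k C)]
    congr 1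
    apply Subtype.ext
    simp [rootPoly]
  | cons τ S ih =>
    rw [rp_cons, ← ih, lin_eq, ← ofBD_X, ← ofBD_algebraMap, ← map_sub, ← map_mul]
    congr 1
    apply Subtype.ext
    change ((rootPoly (τ ::ₘ S) : Polynomial C) : PowerSeries C) =
      (PowerSeries.X - PowerSeries.C τ) * (rootPoly S : PowerSeries C)
    simp [rootPoly]

end A

section B

variable {k : Type*} [NontriviallyNormedField k] [CompleteSpace k] [IsUltrametricDist k]
variable {C : Type*} [NormedField C] [IsUltrametricDist C] [NormedAlgebra k C]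
variable [Algebra.IsAlgebraic k C] [IsAlgClosed C]

theorem isDomain (hk : DiscNorm k) : IsDomain (EE k C) :=
  have : NoZeroDivisors (EE k C) := ⟨fun {a b} h => by
    by_contra hne
    push Not at hne
    exact mul_ne_zero' hk hne.1 hne.2 h⟩
  NoZeroDivisors.to_isDomain _

theorem lin_ne_zero (τ : C) : (lin τ : EE k C) ≠ 0 := by
  intro h
  have := congrArg (fun a : EE k C => a.co 1) h
  rw [lin_eq] at this
  simp only [co_sub, T, co_mo, co_algebraMap, co_zero] at this
  simp at this

theorem rp_ne_zero (hk : DiscNorm k) (S : Multiset C) : (rp S : EE k C) ≠ 0 := by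
  induction S using Multiset.induction_on with
  | empty => rw [rp_zero]; exact one_ne_zero
  | cons τ S ih => rw [rp_cons]; exact mul_ne_zero' hk (lin_ne_zero τ) ih

theorem algebraMap_ne_zero {c : C} (hc : c ≠ 0) : algebraMap C (EE k C) c ≠ 0 := by
  intro h
  have := congrArg (fun a : EE k C => a.co 0) h
  simp only [co_algebraMap, co_zero, if_true] at this
  exact hc this

/-- two `n`-th roots differ by a constant root of unity -/
theorem eq_of_pow_eq (hk : DiscNorm k) {n : ℕ} (hn : 0 < n) {v g : EE k C} (h : v ^ n = g ^ n) :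
    ∃ ζ : C, ζ ^ n = 1 ∧ v = algebraMap C (EE k C) ζ * g := by
  have hdom := isDomain (C := C) hk
  by_cases hg : g = 0
  · refine ⟨1, one_pow n, ?_⟩
    rw [hg, zero_pow hn.ne'] at h
    rw [hg, mul_zero]
    exact pow_eq_zero_iff hn.ne' |>.1 h
  obtain ⟨g', hg'⟩ := exists_mul_eq_one hk hg
  have h1 : (v * g') ^ n = 1 := by rw [mul_pow, h, ← mul_pow, hg', one_pow]
  set y := v * g' with hy
  set P : Polynomial C := Polynomial.X ^ n - 1 with hP
  have hP0 : P ≠ 0 := Polynomial.X_pow_sub_C_ne_zero hn 1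
  have hPm : P.Monic := Polynomial.monic_X_pow_sub_C 1 hn.ne'
  have hroots : P = (P.roots.map fun a => Polynomial.X - Polynomial.C a).prod := by
    have := (IsAlgClosed.splits P).eq_prod_roots
    rw [hPm.leadingCoeff, map_one, one_mul] at this
    exact this
  have h2 : Polynomial.aeval y P = 0 := by
    rw [hP, map_sub, map_pow, Polynomial.aeval_X, map_one, h1, sub_self]
  rw [hroots, map_multiset_prod, Multiset.prod_eq_zero_iff, Multiset.map_map,
    Multiset.mem_map] at h2
  obtain ⟨ζ, hζ, h3⟩ := h2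
  simp only [Function.comp_apply, map_sub, Polynomial.aeval_X, Polynomial.aeval_C] at h3
  have h4 : y = algebraMap C (EE k C) ζ := sub_eq_zero.1 h3
  refine ⟨ζ, ?_, ?_⟩
  · have := (Polynomial.mem_roots hP0).1 hζ
    rw [Polynomial.IsRoot, hP] at this
    simp only [Polynomial.eval_sub, Polynomial.eval_pow, Polynomial.eval_X,
      Polynomial.eval_one] at this
    exact sub_eq_zero.1 this
  · rw [← h4, hy, mul_assoc, mul_comm g' g, hg', mul_one]

theorem uPos_ofBD {u : PowerSeries C} (hu : IsU k u) : UPos (ofBD (⟨u, hu.mem⟩ : BD k C)) where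
  pos := pos_ofBD _
  le := gn_le fun n => by
    rcases lt_or_ge n 0 with h | h
    · rw [co_ofBD_neg _ h, norm_zero]; exact zero_le_one
    · obtain ⟨m, rfl⟩ := Int.eq_ofNat_of_zero_le h
      rw [co_ofBD_nat]; exact hu.le m
  zero := by
    have := co_ofBD_nat (⟨u, hu.mem⟩ : BD k C) 0
    rw [Nat.cast_zero] at this
    rw [this]; exact hu.zero

theorem isU_posPart {u : EE k C} (hu : UPos u) : IsU k (posPart u).1 where
  fin := (posPart u).2.1
  le n := by rw [coeff_posPart]; exact (le_gn u n).trans hu.le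
  zero := by rw [coeff_posPart]; exact_mod_cast hu.zero

/-- factorisation of bounded series on the open disc -/
theorem exists_fact (hk : DiscNorm k) {a : EE k C} (ha : Pos a) (h0 : a ≠ 0) :
    ∃ (c : C) (S : Multiset C) (u : EE k C), c ≠ 0 ∧ (∀ τ ∈ S, ‖τ‖ < 1) ∧ UPos u ∧
      a = algebraMap C (EE k C) c * rp S * u := by
  have hf0 : (posPart a).1 ≠ 0 := by
    intro h
    apply h0
    rw [← ha.eq_ofBD]
    have : posPart a = 0 := Subtype.ext h
    rw [this, map_zero]
  obtain ⟨c, g, m, hc, hg, hfg, -, -⟩ := exists_normalise hk (posPart a).2 hf0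
  obtain ⟨u, S, hu, -, hS, hgu⟩ := hg.exists_roots
  refine ⟨c, S, ofBD ⟨u, hu.mem⟩, hc, hS, uPos_ofBD hu, ?_⟩
  conv_lhs => rw [← ha.eq_ofBD]
  rw [← ofBD_rootPoly, ← ofBD_algebraMap, ← map_mul, ← map_mul]
  congr 1
  apply Subtype.ext
  rw [hfg, hgu]
  change _ = PowerSeries.C c * (rootPoly S : PowerSeries C) * u
  ring

/-! ### evaluation -/

theorem evE_pos {a : EE k C} (ha : Pos a) (t : C) : evE t a = evp t (posPart a).1 := by
  unfold evE evp
  rw [← (Nat.cast_injective (R := ℤ)).tsum_eq]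
  · refine tsum_congr fun n => ?_
    rw [coeff_posPart, zpow_natCast]
  · intro n hn
    rw [Function.mem_support] at hn
    rcases lt_or_ge n 0 with h | h
    · rw [ha n h, zero_mul] at hn; exact absurd rfl hn
    · obtain ⟨m, rfl⟩ := Int.eq_ofNat_of_zero_le h
      exact ⟨m, rfl⟩

theorem posPart_mul {a b : EE k C} (ha : Pos a) (hb : Pos b) :
    posPart (a * b) = posPart a * posPart b := by
  apply ofBD_injective
  rw [map_mul, ha.eq_ofBD, hb.eq_ofBD, (ha.mul hb).eq_ofBD]

theorem evE_mul {a b : EE k C} (ha : Pos a) (hb : Pos b) {t : C} (ht : ‖t‖ < 1) :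
    evE t (a * b) = evE t a * evE t b := by
  rw [evE_pos (ha.mul hb), evE_pos ha, evE_pos hb, posPart_mul ha hb]
  exact evp_mul (posPart a).2 (posPart b).2 ht

theorem evE_one (t : C) : evE t (1 : EE k C) = 1 := by
  unfold evE
  rw [tsum_eq_single 0]
  · rw [co_one, if_pos rfl, zpow_zero, mul_one]
  · intro n hn
    rw [co_one, if_neg hn, zero_mul]

theorem evE_algebraMap (t c : C) : evE t (algebraMap C (EE k C) c) = c := by
  unfold evE
  rw [tsum_eq_single 0]
  · rw [co_algebraMap, if_pos rfl, zpow_zero, mul_one]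
  · intro n hn
    rw [co_algebraMap, if_neg hn, zero_mul]

theorem evE_rp (t : C) (S : Multiset C) :
    evE t (rp S : EE k C) = (S.map fun τ => t - τ).prod := by
  rw [evE_pos (pos_rp S)]
  have : posPart (rp S : EE k C) = ⟨(rootPoly S : PowerSeries C), coe_mem_BD _⟩ := by
    apply ofBD_injective
    rw [(pos_rp S).eq_ofBD, ofBD_rootPoly]
  rw [this, evp_coe, eval_rootPoly]

theorem norm_evE_upos {u : EE k C} (hu : UPos u) {t : C} (ht : ‖t‖ < 1) : ‖evE t u‖ = 1 := by
  rw [evE_pos hu.pos]
  exact (isU_posPart hu).norm_evp ht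

/-- splitting off the zeros at `t` -/
theorem fact_at (S : Multiset C) (t : C) : ∃ S' : Multiset C, t ∉ S' ∧
    (rp S : EE k C) = lin t ^ (by classical exact S.count t : ℕ) * rp S' := by
  classical
  refine ⟨S.filter (fun τ => ¬ t = τ), fun h => by simp at h, ?_⟩
  have h1 : S = Multiset.replicate (S.count t) t + S.filter (fun τ => ¬ t = τ) := by
    conv_lhs => rw [← Multiset.filter_add_not (fun τ => t = τ) S]
    rw [Multiset.filter_eq]
  conv_lhs => rw [h1, rp_add]
  congr 1
  simp only [rp, Multiset.map_replicate, Multiset.prod_replicate]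

theorem evE_rp_ne_zero {S : Multiset C} {t : C} (h : t ∉ S) : evE t (rp S : EE k C) ≠ 0 := by
  rw [evE_rp]
  intro h0
  rw [Multiset.prod_eq_zero_iff, Multiset.mem_map] at h0
  obtain ⟨τ, hτ, h1⟩ := h0
  rw [sub_eq_zero] at h1
  exact h (h1 ▸ hτ)

theorem evE_lin (t τ : C) : evE t (lin τ : EE k C) = t - τ := by
  have := evE_rp (k := k) t {τ}
  simpa [rp] using this

/-- uniqueness of the order at `t` -/
theorem order_unique (hk : DiscNorm k) {t : C} (ht : ‖t‖ < 1) {m m' : ℕ} {a a' : EE k C}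
    (ha : Pos a) (ha' : Pos a') (h : evE t a ≠ 0) (h' : evE t a' ≠ 0)
    (he : lin t ^ m * a = lin t ^ m' * a') : m = m' := by
  have hdom := isDomain (C := C) hk
  wlog hle : m ≤ m' generalizing m m' a a'
  · exact (this ha' ha h' h he.symm (le_of_not_ge hle)).symm
  obtain ⟨d, rfl⟩ := Nat.exists_eq_add_of_le hle
  rw [pow_add, mul_assoc] at he
  have h1 : a = lin t ^ d * a' := mul_left_cancel₀ (pow_ne_zero m (lin_ne_zero t)) he
  rcases Nat.eq_zero_or_pos d with hd | hd
  · omega
  · exfalso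
    apply h
    obtain ⟨e, rfl⟩ : ∃ e, d = e + 1 := ⟨d - 1, by omega⟩
    rw [h1, pow_succ', mul_assoc, evE_mul (pos_lin t) (((pos_lin t).pow e).mul ha') ht, evE_lin,
      sub_self, zero_mul]

theorem uNeg_one : UNeg (1 : EE k C) where
  neg := Neg.one
  zero := by rw [co_one, if_pos rfl, norm_one]
  lt n hn := by rw [co_one, if_neg hn.ne, norm_zero]; exact one_pos

theorem uPos_mul {a b : EE k C} (ha : UPos a) (hb : UPos b) : UPos (a * b) where
  pos := ha.pos.mul hb.pos
  le := (gn_mul_le a b).trans (mul_le_one₀ ha.le (gn_nonneg _) hb.le)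
  zero := by rw [ha.pos.co_zero_mul hb.pos, norm_mul, ha.zero, hb.zero, one_mul]

theorem uPos_one : UPos (1 : EE k C) where
  pos := Pos.one
  le := gn_one.le
  zero := by rw [co_one, if_pos rfl, norm_one]

theorem uPos_pow {a : EE k C} (ha : UPos a) (n : ℕ) : UPos (a ^ n) := by
  induction n with
  | zero => rw [pow_zero]; exact uPos_one
  | succ n ih => rw [pow_succ]; exact uPos_mul ih ha

/-- the order condition: at every point of the open disc the order of `z` is divisible by `n`
(the shape of `ptD_ord` in 332's `SSK`) -/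
def DivD (n : ℕ) (z : EE k C) : Prop :=
  ∀ τ : C, ‖τ‖ < 1 → ∃ (a b : ℕ) (g h : EE k C), InD g ∧ InD h ∧ evE τ g ≠ 0 ∧ evE τ h ≠ 0 ∧
    z * (lin τ ^ b * h) = lin τ ^ a * g ∧ (n : ℤ) ∣ (b : ℤ) - a

/-- **`n`-th powers in the field of functions of an open disc.** -/
theorem disc_pow (hk : DiscNorm k) {n : ℕ} (hn : 0 < n) {z w G H : EE k C} (hG : InD G)
    (hH : InD H) (hH0 : H ≠ 0) (hz0 : z ≠ 0) (hz : z * H = G) (hdiv : DivD n z)
    (hw : w ^ n = z) : InD (w * H) := by
  classical
  have hdom := isDomain (C := C) hk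
  have hG0 : G ≠ 0 := by rw [← hz]; exact mul_ne_zero hz0 hH0
  obtain ⟨cG, SG, uG, hcG, hSG, huG, hGe⟩ := exists_fact hk hG hG0
  obtain ⟨cH, SH, uH, hcH, hSH, huH, hHe⟩ := exists_fact hk hH hH0
  -- the multiplicities
  have hcount : ∀ τ : C, (n : ℤ) ∣ (SG.count τ : ℤ) - SH.count τ := by
    intro τ
    by_cases hτ : ‖τ‖ < 1
    · obtain ⟨a, b, g, h, hg, hh, hg0, hh0, he, hd⟩ := hdiv τ hτ
      obtain ⟨SG', hSG', hfG⟩ := fact_at (k := k) SG τ
      obtain ⟨SH', hSH', hfH⟩ := fact_at (k := k) SH τ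
      have hfG' : (rp SG : EE k C) = lin τ ^ (SG.count τ) * rp SG' := by convert hfG
      have hfH' : (rp SH : EE k C) = lin τ ^ (SH.count τ) * rp SH' := by convert hfH
      have h1 : lin τ ^ (SG.count τ + b) * (algebraMap C (EE k C) cG * rp SG' * uG * h) =
          lin τ ^ (a + SH.count τ) * (g * (algebraMap C (EE k C) cH * rp SH' * uH)) := by
        have h2 : G * (lin τ ^ b * h) = lin τ ^ a * g * H := by
          rw [← hz]; linear_combination H * he
        rw [hGe, hHe, hfG', hfH'] at h2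
        rw [pow_add, pow_add]
        linear_combination h2
      have hP1 : Pos (algebraMap C (EE k C) cG * rp SG' * uG * h) :=
        (((pos_algebraMap cG).mul (pos_rp SG')).mul huG.pos).mul hh
      have hP2 : Pos (g * (algebraMap C (EE k C) cH * rp SH' * uH)) :=
        Pos.mul hg (((pos_algebraMap cH).mul (pos_rp SH')).mul huH.pos)
      have hne : ∀ {u : EE k C}, UPos u → evE τ u ≠ 0 := fun {u} hu => by
        rw [← norm_ne_zero_iff, norm_evE_upos hu hτ]; exact one_ne_zero
      have hE1 : evE τ (algebraMap C (EE k C) cG * rp SG' * uG * h) ≠ 0 := by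
        rw [evE_mul (((pos_algebraMap cG).mul (pos_rp SG')).mul huG.pos) hh hτ,
          evE_mul ((pos_algebraMap cG).mul (pos_rp SG')) huG.pos hτ,
          evE_mul (pos_algebraMap cG) (pos_rp SG') hτ, evE_algebraMap]
        exact mul_ne_zero (mul_ne_zero (mul_ne_zero hcG (evE_rp_ne_zero hSG')) (hne huG)) hh0
      have hE2 : evE τ (g * (algebraMap C (EE k C) cH * rp SH' * uH)) ≠ 0 := by
        rw [evE_mul hg (((pos_algebraMap cH).mul (pos_rp SH')).mul huH.pos) hτ,
          evE_mul ((pos_algebraMap cH).mul (pos_rp SH')) huH.pos hτ,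
          evE_mul (pos_algebraMap cH) (pos_rp SH') hτ, evE_algebraMap]
        exact mul_ne_zero hg0 (mul_ne_zero (mul_ne_zero hcH (evE_rp_ne_zero hSH')) (hne huH))
      have h3 := order_unique hk hτ hP1 hP2 hE1 hE2 h1
      have h4 : (SG.count τ : ℤ) - SH.count τ = -((b : ℤ) - a) := by
        have : ((SG.count τ + b : ℕ) : ℤ) = ((a + SH.count τ : ℕ) : ℤ) := by rw [h3]
        push_cast at this
        linarith
      rw [h4]
      exact (dvd_neg).2 hd
    · have h1 : SG.count τ = 0 := Multiset.count_eq_zero.2 fun h => hτ (hSG τ h)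
      have h2 : SH.count τ = 0 := Multiset.count_eq_zero.2 fun h => hτ (hSH τ h)
      rw [h1, h2]; simp
  -- `(w H) ^ n = G H ^ (n - 1)`
  obtain ⟨m, rfl⟩ : ∃ m, n = m + 1 := ⟨n - 1, by omega⟩
  have hcount' : ∀ τ : C, (m + 1) ∣ (by classical exact (SG + m • SH).count τ : ℕ) := by
    intro τ
    have h1 : ((m + 1 : ℕ) : ℤ) ∣ (((SG + m • SH).count τ : ℕ) : ℤ) := by
      rw [Multiset.count_add, Multiset.count_nsmul]
      have h2 := hcount τ
      have h3 : (((SG.count τ + m * SH.count τ : ℕ)) : ℤ) =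
          ((SG.count τ : ℤ) - SH.count τ) + ((m + 1 : ℕ) : ℤ) * SH.count τ := by
        push_cast; ring
      rw [h3]
      exact dvd_add h2 (dvd_mul_right _ _)
    have h4 := Int.natCast_dvd_natCast.1 h1
    convert h4
  obtain ⟨S', hS'⟩ := exists_nsmul _ hcount'
  have hpow : (w * H) ^ (m + 1) = algebraMap C (EE k C) (cG * cH ^ m) * rp S' ^ (m + 1) *
      (uG * uH ^ m) := by
    have h1 : (w * H) ^ (m + 1) = G * H ^ m := by
      rw [mul_pow, hw, pow_succ', ← mul_assoc, hz]
    rw [h1, ← rp_nsmul, ← hS', rp_add, rp_nsmul]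
    conv_lhs => rw [hGe, hHe]
    rw [map_mul, map_pow]
    ring
  obtain ⟨r, hr⟩ := IsAlgClosed.exists_pow_nat_eq (cG * cH ^ m) (Nat.succ_pos m)
  have hc0 : cG * cH ^ m ≠ 0 := mul_ne_zero hcG (pow_ne_zero m hcH)
  have hr0 : r ≠ 0 := by
    rintro rfl
    rw [zero_pow (Nat.succ_ne_zero m)] at hr
    exact hc0 hr.symm
  set R : EE k C := algebraMap C (EE k C) r * rp S' with hR
  have hR0 : R ≠ 0 := mul_ne_zero (algebraMap_ne_zero hr0) (rp_ne_zero hk S')
  obtain ⟨R', hRR'⟩ := exists_mul_eq_one hk hR0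
  have hpow2 : (w * H * R') ^ (m + 1) = (uG * uH ^ m) * 1 := by
    have hRp : R ^ (m + 1) = algebraMap C (EE k C) (cG * cH ^ m) * rp S' ^ (m + 1) := by
      rw [hR, mul_pow, ← map_pow, Nat.succ_eq_add_one] at *
      rw [hr]
    rw [mul_pow, hpow, ← hRp, mul_one]
    calc R ^ (m + 1) * (uG * uH ^ m) * R' ^ (m + 1) = (R * R') ^ (m + 1) * (uG * uH ^ m) := by
          rw [mul_pow]; ring
      _ = uG * uH ^ m := by rw [hRR', one_pow, one_mul]
  obtain ⟨g, hg, hgp⟩ := core hk (Nat.succ_pos m) hpow2 (uPos_mul huG (uPos_pow huH m)) uNeg_one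
  obtain ⟨ζ, -, hζ⟩ := eq_of_pow_eq hk (Nat.succ_pos m)
    (v := w * H * R') (g := g) (by rw [Nat.succ_eq_add_one, hpow2, mul_one]; exact hgp.symm)
  have hfin : w * H = algebraMap C (EE k C) ζ * g * R := by
    calc w * H = w * H * (R * R') := by rw [hRR', mul_one]
      _ = w * H * R' * R := by ring
      _ = _ := by rw [hζ]
  rw [hfin]
  have : Pos (algebraMap C (EE k C) ζ * g * R) :=
    ((pos_algebraMap ζ).mul hg.pos).mul (by rw [hR]; exact (pos_algebraMap r).mul (pos_rp S'))
  exact this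

end B

end Crest.Agent.R013.Pow2_931
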