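import Mathlib
import Crest.Agent.R013.Pow2_931

/-!
# R013 / TOPSPLIT-P, file 3 (helper931): bounded series on open annuli

`0 < |c| < 1`, `InA c a` (332): `a` is a bounded series on the open annulus `|c| < |T| < 1`.

* `Flip` (`T ↦ c / T`) as a multiplicative relation, `exists_flip`;
* `evE t` is multiplicative on the annulus;
* `exists_factA`  a nonzero `f` is `A * T ^ N * prod (T - τ) * a * b`, `a` a unit with exponents
  `≥ 0` and `b` a unit with exponents `≤ 0` (at both ends).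
-/

set_option autoImplicit false
set_option linter.all false

namespace Crest.Agent.R013.Pow3_931

open Filter Topology
open Crest.Agent.R013.Cell_408 Crest.Agent.R013.EE809 Crest.Agent.R013.Pow1_931
open Crest.Agent.R013.SSK_332 Crest.Agent.R013.Pow2_931

section A

variable {k : Type*} [NontriviallyNormedField k] [CompleteSpace k]
variable {C : Type*} [NormedField C] [IsUltrametricDist C] [NormedAlgebra k C]

theorem InA.mul {c : C} (hc : c ≠ 0) {a b : EE k C} (ha : InA c a) (hb : InA c b) :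
    InA c (a * b) := by
  obtain ⟨M, hM⟩ := ha
  obtain ⟨N, hN⟩ := hb
  exact ⟨M * N, Bdd.mul (norm_pos_iff.2 hc) hM hN⟩

theorem InA.one {c : C} : InA c (1 : EE k C) := ⟨1, Bdd.one⟩

theorem InA.pow {c : C} (hc : c ≠ 0) {a : EE k C} (ha : InA c a) (n : ℕ) : InA c (a ^ n) := by
  induction n with
  | zero => rw [pow_zero]; exact InA.one
  | succ n ih => rw [pow_succ]; exact InA.mul hc ih ha

theorem InA.of_pos {c : C} (hc1 : ‖c‖ < 1) {a : EE k C} (ha : Pos a) : InA c a := by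
  refine ⟨gn a, fun n => ?_⟩
  rcases lt_or_ge n 0 with h | h
  · rw [ha n h, norm_zero, zero_mul]; exact gn_nonneg a
  · have h1 : ‖c‖ ^ n ≤ 1 := by
      obtain ⟨m, rfl⟩ := Int.eq_ofNat_of_zero_le h
      rw [zpow_natCast]; exact pow_le_one₀ (norm_nonneg _) hc1.le
    calc ‖a.co n‖ * ‖c‖ ^ n ≤ gn a * 1 :=
          mul_le_mul (le_gn a n) h1 (zpow_nonneg (norm_nonneg _) _) (gn_nonneg a)
      _ = gn a := mul_one _

theorem Flip.eq {c : C} {a b b' : EE k C} (h : Flip c a b) (h' : Flip c a b') : b = b' := by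
  ext n; rw [h n, h' n]

theorem Flip.symm {c : C} (hc : c ≠ 0) {a b : EE k C} (h : Flip c a b) : Flip c b a := by
  intro n
  rw [h (-n), neg_neg, mul_assoc, ← zpow_add₀ hc, add_neg_cancel, zpow_zero, mul_one]

theorem Flip.mul {c : C} (hc : c ≠ 0) {a b a' b' : EE k C} (h : Flip c a b) (h' : Flip c a' b') :
    Flip c (a * a') (b * b') := by
  intro n
  rw [co_mul, co_mul, ← tsum_mul_right, ← (Equiv.neg ℤ).tsum_eq]
  refine tsum_congr fun i => ?_
  rw [Equiv.neg_apply, h (-i), h' (n - -i), neg_neg]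
  have h1 : -(n - -i) = -n - i := by ring
  have h2 : c ^ (-n) = c ^ i * c ^ (-n - i) := by
    rw [← zpow_add₀ hc]; congr 1; ring
  rw [h1, h2]
  ring

theorem Flip.one {c : C} : Flip c (1 : EE k C) 1 := by
  intro n
  rw [co_one, co_one]
  by_cases hn : n = 0
  · rw [if_pos hn, if_pos (by omega), hn, neg_zero, zpow_zero, mul_one]
  · rw [if_neg hn, if_neg (by omega), zero_mul]

theorem Flip.pow {c : C} (hc : c ≠ 0) {a b : EE k C} (h : Flip c a b) (n : ℕ) :
    Flip c (a ^ n) (b ^ n) := by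
  induction n with
  | zero => rw [pow_zero, pow_zero]; exact Flip.one
  | succ n ih => rw [pow_succ, pow_succ]; exact Flip.mul hc ih h

theorem Flip.add {c : C} {a b a' b' : EE k C} (h : Flip c a b) (h' : Flip c a' b') :
    Flip c (a + a') (b + b') := by
  intro n
  rw [co_add, co_add, h n, h' n, add_mul]

theorem Flip.sub {c : C} {a b a' b' : EE k C} (h : Flip c a b) (h' : Flip c a' b') :
    Flip c (a - a') (b - b') := by
  intro n
  rw [co_sub, co_sub, h n, h' n, sub_mul]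

variable [Algebra.IsAlgebraic k C]

theorem exists_flip {c : C} (hc : c ≠ 0) (hc1 : ‖c‖ < 1) {a : EE k C} (ha : InA c a) :
    ∃ b : EE k C, Flip c a b ∧ InA c b := by
  obtain ⟨M, hM⟩ := ha
  obtain ⟨L, hL, hLa, hLc⟩ := a.fd.common (Crest.Agent.R013.Cell_408.finDef_const (k := k) (ι := Unit) c)
  obtain ⟨A, hA0, hA⟩ := a.bd'
  have hc' : 0 < ‖c‖ := norm_pos_iff.2 hc
  let b : EE k C := mk' (fun n => a.co (-n) * c ^ (-n))
    ⟨L, hL, fun n => mul_mem (hLa _) (zpow_mem (hLc ()) _)⟩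
    ⟨M, fun n => by rw [norm_mul, norm_zpow]; exact hM (-n)⟩
    (by
      rw [Metric.tendsto_nhds]
      intro ε hε
      obtain ⟨K, hK⟩ := exists_pow_lt_of_lt_one (div_pos hε hA0) hc1
      filter_upwards [eventually_le_atBot (-(K : ℤ))] with n hn
      rw [dist_zero_right, norm_mul, norm_zpow]
      have h1 : ‖c‖ ^ (-n) ≤ ‖c‖ ^ (K : ℤ) :=
        zpow_le_zpow_right_of_le_one₀ hc' hc1.le (by omega)
      rw [zpow_natCast] at h1
      calc ‖a.co (-n)‖ * ‖c‖ ^ (-n) ≤ A * ‖c‖ ^ K :=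
            mul_le_mul (hA _) h1 (zpow_nonneg (norm_nonneg _) _) hA0.le
        _ < A * (ε / A) := mul_lt_mul_of_pos_left hK hA0
        _ = ε := mul_div_cancel₀ ε hA0.ne')
  refine ⟨b, fun n => rfl, A, fun n => ?_⟩
  show ‖a.co (-n) * c ^ (-n)‖ * ‖c‖ ^ n ≤ A
  rw [norm_mul, norm_zpow, mul_assoc, ← zpow_add₀ hc'.ne', neg_add_cancel, zpow_zero, mul_one]
  exact hA _

theorem InA.flip {c : C} (hc : c ≠ 0) {a b : EE k C} (h : Flip c a b) : InA c b := by
  obtain ⟨A, hA0, hA⟩ := a.bd'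
  have hc' : 0 < ‖c‖ := norm_pos_iff.2 hc
  refine ⟨A, fun n => ?_⟩
  rw [h n, norm_mul, norm_zpow, mul_assoc, ← zpow_add₀ hc'.ne', neg_add_cancel, zpow_zero, mul_one]
  exact hA _

theorem flip_algebraMap (c x : C) : Flip c (algebraMap C (EE k C) x) (algebraMap C (EE k C) x) := by
  intro n
  rw [co_algebraMap, co_algebraMap]
  by_cases hn : n = 0
  · rw [if_pos hn, if_pos (by omega), hn, neg_zero, zpow_zero, mul_one]
  · rw [if_neg hn, if_neg (by omega), zero_mul]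

theorem flip_T (c : C) (m : ℤ) : Flip c (T m : EE k C) (algebraMap C (EE k C) (c ^ m) * T (-m)) := by
  intro n
  rw [← mo_eq, T, co_mo, co_mo]
  by_cases hn : n = -m
  · rw [if_pos hn, if_pos (by omega), hn, neg_neg, one_mul]
  · rw [if_neg hn, if_neg (by omega), zero_mul]

theorem inA_T {c : C} (m : ℤ) : InA c (T m : EE k C) :=
  ⟨‖(1 : C)‖ * ‖c‖ ^ m, fun n => by
    rw [T, co_mo]
    split_ifs with h
    · rw [h]
    · rw [norm_zero, zero_mul]
      exact mul_nonneg (norm_nonneg _) (zpow_nonneg (norm_nonneg _) _)⟩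

/-! ### evaluation on the annulus -/

theorem tendsto_ev {c : C} (hc : c ≠ 0) {a : EE k C} (ha : InA c a) {t : C} (h0 : ‖c‖ < ‖t‖)
    (h1 : ‖t‖ < 1) : Tendsto (fun n : ℤ => a.co n * t ^ n) cofinite (𝓝 0) := by
  obtain ⟨M, hM⟩ := ha
  obtain ⟨A, hA0, hA⟩ := a.bd'
  have hc' : 0 < ‖c‖ := norm_pos_iff.2 hc
  have ht : 0 < ‖t‖ := hc'.trans h0
  have hM0 : 0 ≤ M := (mul_nonneg (norm_nonneg _) (zpow_nonneg (norm_nonneg _) _)).trans (hM 0)
  rw [Int.cofinite_eq, tendsto_sup]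
  constructor
  · rw [Metric.tendsto_nhds]
    intro ε hε
    have hM1 : 0 < M + 1 := by linarith
    obtain ⟨K, hK⟩ := exists_pow_lt_of_lt_one (div_pos hε hM1) ((div_lt_one ht).2 h0)
    filter_upwards [eventually_le_atBot (-(K : ℤ))] with n hn
    rw [dist_zero_right, norm_mul, norm_zpow]
    have h2 : ‖t‖ ^ n = ‖c‖ ^ n * (‖c‖ / ‖t‖) ^ (-n) := by
      rw [div_zpow, zpow_neg, zpow_neg]
      have := (zpow_pos hc' n).ne'
      have := (zpow_pos ht n).ne'
      field_simp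
    have h3 : (‖c‖ / ‖t‖) ^ (-n) ≤ (‖c‖ / ‖t‖) ^ (K : ℤ) :=
      zpow_le_zpow_right_of_le_one₀ (div_pos hc' ht) ((div_lt_one ht).2 h0).le (by omega)
    rw [zpow_natCast] at h3
    calc ‖a.co n‖ * ‖t‖ ^ n = (‖a.co n‖ * ‖c‖ ^ n) * (‖c‖ / ‖t‖) ^ (-n) := by rw [h2]; ring
      _ ≤ (M + 1) * (‖c‖ / ‖t‖) ^ K :=
          mul_le_mul ((hM n).trans (by linarith)) h3 (zpow_nonneg (div_pos hc' ht).le _) hM1.le
      _ < (M + 1) * (ε / (M + 1)) := mul_lt_mul_of_pos_left hK hM1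
      _ = ε := mul_div_cancel₀ ε hM1.ne'
  · rw [Metric.tendsto_nhds]
    intro ε hε
    obtain ⟨K, hK⟩ := exists_pow_lt_of_lt_one (div_pos hε hA0) h1
    filter_upwards [eventually_ge_atTop (K : ℤ)] with n hn
    rw [dist_zero_right, norm_mul, norm_zpow]
    have h3 : ‖t‖ ^ n ≤ ‖t‖ ^ (K : ℤ) := zpow_le_zpow_right_of_le_one₀ ht h1.le hn
    rw [zpow_natCast] at h3
    calc ‖a.co n‖ * ‖t‖ ^ n ≤ A * ‖t‖ ^ K :=
          mul_le_mul (hA n) h3 (zpow_nonneg ht.le _) hA0.le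
      _ < A * (ε / A) := mul_lt_mul_of_pos_left hK hA0
      _ = ε := mul_div_cancel₀ ε hA0.ne'

theorem summable_evA {c : C} (hc : c ≠ 0) {a : EE k C} (ha : InA c a) {t : C} (h0 : ‖c‖ < ‖t‖)
    (h1 : ‖t‖ < 1) : Summable (fun n : ℤ => a.co n * t ^ n) := by
  obtain ⟨L, hL, hLa, hLt⟩ := a.fd.common (Crest.Agent.R013.Cell_408.finDef_const (k := k) (ι := Unit) t)
  exact summable_of L (fun n => mul_mem (hLa n) (zpow_mem (hLt ()) n)) (tendsto_ev hc ha h0 h1)

theorem evE_mulA {c : C} (hc : c ≠ 0) {a b : EE k C} (ha : InA c a) (hb : InA c b) {t : C}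
    (h0 : ‖c‖ < ‖t‖) (h1 : ‖t‖ < 1) : evE t (a * b) = evE t a * evE t b := by
  have ht0 : t ≠ 0 := norm_pos_iff.1 ((norm_nonneg c).trans_lt h0)
  have hsa := summable_evA hc ha h0 h1
  have hsb := summable_evA hc hb h0 h1
  have hna := nonarchRing C
  have hs : Summable fun p : ℤ × ℤ => (a.co p.1 * t ^ p.1) * (b.co p.2 * t ^ p.2) :=
    Summable.mul_of_nonarchimedean (f := fun n => a.co n * t ^ n) (g := fun n => b.co n * t ^ n)
      hsa hsb
  unfold evE
  rw [hsa.tsum_mul_tsum hsb hs, ← shearEquiv.symm.tsum_eq]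
  have hs' : Summable fun q : ℤ × ℤ => (a.co (shearEquiv.symm q).1 * t ^ (shearEquiv.symm q).1) *
      (b.co (shearEquiv.symm q).2 * t ^ (shearEquiv.symm q).2) :=
    (shearEquiv.symm.summable_iff (f := fun p : ℤ × ℤ =>
      (a.co p.1 * t ^ p.1) * (b.co p.2 * t ^ p.2))).2 hs
  have hterm : ∀ n i : ℤ, (a.co (shearEquiv.symm (n, i)).1 * t ^ (shearEquiv.symm (n, i)).1) *
      (b.co (shearEquiv.symm (n, i)).2 * t ^ (shearEquiv.symm (n, i)).2) =
      a.co i * b.co (n - i) * t ^ n := by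
    intro n i
    have h2 : shearEquiv.symm (n, i) = (i, n - i) := rfl
    rw [h2]
    have h3 : t ^ n = t ^ i * t ^ (n - i) := by rw [← zpow_add₀ ht0]; congr 1; ring
    rw [h3]; ring
  rw [Summable.tsum_prod' hs' fun n => ?_]
  · refine tsum_congr fun n => ?_
    rw [co_mul, ← tsum_mul_right]
    exact tsum_congr fun i => (hterm n i).symm
  · exact ((summable_conv a b n).mul_right (t ^ n)).congr fun i => (hterm n i).symm

theorem evE_T (t : C) (m : ℤ) : evE t (T m : EE k C) = t ^ m := by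
  unfold evE
  rw [tsum_eq_single m]
  · rw [T, co_mo, if_pos rfl, one_mul]
  · intro n hn
    rw [T, co_mo, if_neg hn, zero_mul]

theorem evE_flip {c : C} (hc : c ≠ 0) {t : C} (ht : t ≠ 0) {a b : EE k C} (h : Flip c a b) :
    evE (c / t) b = evE t a := by
  unfold evE
  rw [← (Equiv.neg ℤ).tsum_eq]
  refine tsum_congr fun n => ?_
  rw [Equiv.neg_apply, h (-n), neg_neg, mul_assoc, div_zpow, zpow_neg, zpow_neg]
  have h1 := zpow_ne_zero n hc
  have h2 := zpow_ne_zero n ht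
  field_simp

theorem flip_lin {c : C} {τ : C} (hτ : τ ≠ 0) :
    Flip c (lin τ : EE k C) (algebraMap C (EE k C) (-τ) * T (-1) * lin (c / τ)) := by
  have h1 : Flip c (lin τ : EE k C)
      (algebraMap C (EE k C) (c ^ (1 : ℤ)) * T (-1) - algebraMap C (EE k C) τ) := by
    rw [lin_eq]
    exact Flip.sub (flip_T c 1) (flip_algebraMap c τ)
  have h2 : (algebraMap C (EE k C) (c ^ (1 : ℤ)) * T (-1) - algebraMap C (EE k C) τ) =
      algebraMap C (EE k C) (-τ) * T (-1) * lin (c / τ) := by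
    have h3 : (T (-1) * T 1 : EE k C) = 1 := by rw [T_mul_T, neg_add_cancel, T_zero]
    have h4 : algebraMap C (EE k C) (-τ) * algebraMap C (EE k C) (c / τ) =
        -algebraMap C (EE k C) (c ^ (1 : ℤ)) := by
      rw [← map_mul, ← map_neg]; congr 1; rw [zpow_one]; field_simp
    rw [lin_eq]
    calc algebraMap C (EE k C) (c ^ (1 : ℤ)) * T (-1) - algebraMap C (EE k C) τ
        = algebraMap C (EE k C) (-τ) * (T (-1) * T 1) -
          (algebraMap C (EE k C) (-τ) * algebraMap C (EE k C) (c / τ)) * T (-1) := by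
            rw [h3, h4, map_neg]; ring
      _ = _ := by ring
  rw [← h2]; exact h1

theorem flip_rp {c : C} (hc : c ≠ 0) (S : Multiset C) (h0 : (0 : C) ∉ S) :
    ∃ A : C, A ≠ 0 ∧ Flip c (rp S : EE k C)
      (algebraMap C (EE k C) A * T (-(S.card : ℤ)) * rp (S.map fun τ => c / τ)) := by
  induction S using Multiset.induction_on with
  | empty =>
    refine ⟨1, one_ne_zero, ?_⟩
    rw [Multiset.map_zero, rp_zero, Multiset.card_zero, Nat.cast_zero, neg_zero, T_zero, map_one,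
      one_mul, one_mul]
    exact Flip.one
  | cons τ S ih =>
    rw [Multiset.mem_cons, not_or] at h0
    obtain ⟨A, hA, h⟩ := ih h0.2
    refine ⟨-τ * A, mul_ne_zero (neg_ne_zero.2 (Ne.symm h0.1)) hA, ?_⟩
    have h1 := Flip.mul hc (flip_lin (k := k) (c := c) (Ne.symm h0.1)) h
    rw [rp_cons, Multiset.map_cons, rp_cons, Multiset.card_cons]
    convert h1 using 1
    have h2 : (T (-((S.card + 1 : ℕ) : ℤ)) : EE k C) = T (-1) * T (-(S.card : ℤ)) := by
      rw [T_mul_T]; congr 1; push_cast; ring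
    rw [h2, map_mul]
    ring

end A

section B

variable {k : Type*} [NontriviallyNormedField k] [CompleteSpace k] [IsUltrametricDist k]
variable {C : Type*} [NormedField C] [IsUltrametricDist C] [NormedAlgebra k C]
variable [Algebra.IsAlgebraic k C] [IsAlgClosed C]

theorem evE_add {a b : EE k C} (ha : Pos a) (hb : Pos b) {t : C} (ht : ‖t‖ < 1) :
    evE t (a + b) = evE t a + evE t b := by
  rw [evE_pos (ha.add hb), evE_pos ha, evE_pos hb]
  have : posPart (a + b) = posPart a + posPart b := by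
    apply ofBD_injective
    rw [map_add, ha.eq_ofBD, hb.eq_ofBD, (ha.add hb).eq_ofBD]
  rw [this]
  exact evp_add (posPart a).2 (posPart b).2 ht

theorem uNeg_flip {c : C} (hc : c ≠ 0) (hc1 : ‖c‖ < 1) {a b : EE k C} (h : Flip c a b)
    (ha : UPos a) : UNeg b where
  neg n hn := by rw [h n, ha.pos (-n) (by omega), zero_mul]
  zero := by
    have := h 0
    rw [neg_zero, zpow_zero, mul_one] at this
    rw [this, ha.zero]
  lt n hn := by
    rw [h n, norm_mul, norm_zpow]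
    have h1 : ‖c‖ ^ (-n) < 1 := by
      obtain ⟨m, hm⟩ := Int.eq_ofNat_of_zero_le (a := -n) (by omega)
      rw [hm, zpow_natCast]
      exact pow_lt_one₀ (norm_nonneg _) hc1 (by rintro rfl; omega)
    have h2 : ‖a.co (-n)‖ ≤ 1 := (le_gn a _).trans ha.le
    calc ‖a.co (-n)‖ * ‖c‖ ^ (-n) ≤ 1 * ‖c‖ ^ (-n) :=
          mul_le_mul_of_nonneg_right h2 (zpow_nonneg (norm_nonneg _) _)
      _ < 1 := by rw [one_mul]; exact h1

theorem pos_flip {c : C} {a b : EE k C} (h : Flip c a b) (ha : Neg a) : Pos b := fun n hn => by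
  rw [h n, ha (-n) (by omega), zero_mul]

/-- **Factorisation on the open annulus `|c| < |T| < 1`.** -/
theorem exists_factA (hk : DiscNorm k) {c : C} (hc : c ≠ 0) (hc1 : ‖c‖ < 1) {f : EE k C}
    (hf : InA c f) (h0 : f ≠ 0) :
    ∃ (A : C) (N : ℤ) (S : Multiset C) (a b b' : EE k C), A ≠ 0 ∧
      (∀ τ ∈ S, ‖c‖ < ‖τ‖ ∧ ‖τ‖ < 1) ∧ UPos a ∧ UNeg b ∧ Flip c b b' ∧ UPos b' ∧
      f = algebraMap C (EE k C) A * T N * rp S * (a * b) := by
  have hc' : 0 < ‖c‖ := norm_pos_iff.2 hc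
  -- normalisation at the outer end
  have hf1 := mo_mul_nrm hk h0
  set w := nrm f with hw
  have hwA : InA c w := by
    rw [hw, nrm]
    refine InA.mul hc ?_ hf
    exact ⟨_, Bdd.mo hc' _ _⟩
  obtain ⟨a1, b1, hwe, ha1p, ha1g, ha10, hb1n, hb10, hb1g⟩ :=
    fac (w := w) (gn_le (nrm_le hk h0)) (by rw [hw, nrm_zero_coeff hk h0, norm_one])
      (fun n hn => nrm_lt hk h0 hn)
  obtain ⟨A1, hA1p, hA1g, hA10, haA⟩ := exists_inv_pos ha1p ha1g ha10
  have hb1e : b1 = w * A1 := by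
    calc b1 = a1 * A1 * b1 := by rw [haA, one_mul]
      _ = w * A1 := by rw [hwe]; ring
  have hb1A : InA c b1 := by rw [hb1e]; exact InA.mul hc hwA (InA.of_pos hc1 hA1p)
  obtain ⟨B1, hB1, -⟩ := exists_flip hc hc1 hb1A
  have hB1p : Pos B1 := pos_flip hB1 hb1n
  have hB10 : B1.co 0 = 1 := by
    have := hB1 0
    rw [neg_zero, zpow_zero, mul_one, hb10] at this
    exact this
  have hB1ne : B1 ≠ 0 := by
    intro h
    have : B1.co 0 = 0 := by rw [h]; rfl
    rw [hB10] at this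
    exact one_ne_zero this
  obtain ⟨c', S1, u1, hc'0, hS1, hu1, hB1e⟩ := exists_fact hk hB1p hB1ne
  have hS1' : ∀ τ ∈ S1, ‖c‖ < ‖τ‖ := by
    intro τ hτ
    by_contra hle
    push Not at hle
    have hτ1 := hS1 τ hτ
    have h1 : evE τ B1 = 0 := by
      rw [hB1e, evE_mul ((pos_algebraMap c').mul (pos_rp S1)) hu1.pos hτ1,
        evE_mul (pos_algebraMap c') (pos_rp S1) hτ1, evE_rp]
      have : (S1.map fun τ' => τ - τ').prod = 0 :=
        Multiset.prod_eq_zero (Multiset.mem_map.2 ⟨τ, hτ, sub_self τ⟩)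
      rw [this, mul_zero, zero_mul]
    have hy : Flip c (b1 - 1) (B1 - 1) := Flip.sub hB1 Flip.one
    have hyp : Pos (B1 - 1) := hB1p.sub Pos.one
    have h2 : ‖evE τ (B1 - 1)‖ ≤ gn (b1 - 1) := by
      unfold evE
      refine IsUltrametricDist.norm_tsum_le_of_forall_le_of_nonneg (gn_nonneg _) fun n => ?_
      rcases lt_or_ge n 0 with h | h
      · rw [hyp n h, zero_mul, norm_zero]; exact gn_nonneg _
      · rw [hy n, norm_mul, norm_mul, norm_zpow, norm_zpow]
        obtain ⟨m, rfl⟩ := Int.eq_ofNat_of_zero_le h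
        have h3 : ‖c‖ ^ (-(m : ℤ)) * ‖τ‖ ^ (m : ℤ) ≤ 1 := by
          rw [zpow_neg, zpow_natCast, zpow_natCast, inv_mul_le_iff₀ (pow_pos hc' m), mul_one]
          exact pow_le_pow_left₀ (norm_nonneg _) hle m
        calc ‖(b1 - 1).co (-(m : ℤ))‖ * ‖c‖ ^ (-(m : ℤ)) * ‖τ‖ ^ (m : ℤ)
            = ‖(b1 - 1).co (-(m : ℤ))‖ * (‖c‖ ^ (-(m : ℤ)) * ‖τ‖ ^ (m : ℤ)) := by ring
          _ ≤ gn (b1 - 1) * 1 := mul_le_mul (le_gn _ _) h3
              (mul_nonneg (zpow_nonneg (norm_nonneg _) _) (zpow_nonneg (norm_nonneg _) _))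
              (gn_nonneg _)
          _ = gn (b1 - 1) := mul_one _
    have h4 : evE τ B1 = evE τ (B1 - 1) + 1 := by
      have := evE_add hyp Pos.one hτ1
      rw [sub_add_cancel, evE_one] at this
      exact this
    rw [h1] at h4
    have h5 : evE τ (B1 - 1) = -1 := by linear_combination -h4
    rw [h5, norm_neg, norm_one] at h2
    exact absurd hb1g (not_lt.2 h2)
  have h0S : (0 : C) ∉ S1 := fun h => by
    have := hS1' 0 h
    rw [norm_zero] at this
    exact absurd this (not_lt.2 (norm_nonneg c))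
  obtain ⟨A', hA', hrp⟩ := flip_rp (k := k) hc S1 h0S
  obtain ⟨b2, hb2, -⟩ := exists_flip hc hc1 (InA.of_pos hc1 hu1.pos)
  have hb2' := uNeg_flip hc hc1 hb2 hu1
  have hflip : Flip c B1 (algebraMap C (EE k C) c' *
      (algebraMap C (EE k C) A' * T (-(S1.card : ℤ)) * rp (S1.map fun τ => c / τ)) * b2) := by
    conv => arg 2; rw [hB1e]
    exact Flip.mul hc (Flip.mul hc (flip_algebraMap c c') hrp) hb2
  have hb1f := Flip.eq (Flip.symm hc hB1) hflip
  refine ⟨f.co (od f) * c' * A', od f - S1.card, S1.map fun τ => c / τ, a1, b2, u1,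
    mul_ne_zero (mul_ne_zero (co_od_ne_zero hk h0) hc'0) hA', ?_, ⟨ha1p, ha1g, ha10⟩, hb2',
    Flip.symm hc hb2, hu1, ?_⟩
  · intro τ hτ
    rw [Multiset.mem_map] at hτ
    obtain ⟨σ, hσ, rfl⟩ := hτ
    have h1 := hS1 σ hσ
    have h2 := hS1' σ hσ
    have h3 : 0 < ‖σ‖ := hc'.trans h2
    rw [norm_div]
    refine ⟨?_, (div_lt_one h3).2 h2⟩
    rw [lt_div_iff₀ h3]
    calc ‖c‖ * ‖σ‖ < ‖c‖ * 1 := mul_lt_mul_of_pos_left h1 hc'
      _ = ‖c‖ := mul_one _
  · conv_lhs => rw [← hf1, hwe, hb1f, mo_eq]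
    rw [map_mul, map_mul, sub_eq_add_neg, ← T_mul_T]
    ring

end B

end Crest.Agent.R013.Pow3_931
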