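import Mathlib
import Crest.Agent.R013.Inh5_770
import Crest.Agent.R013.Pow3_931

/-!
# Row 13, leaf C-INH (helper770), part 6: points of discs and annuli as `PtRing`
-/

set_option autoImplicit false
set_option linter.all false
open WithZero
open scoped NNReal
open Crest.Agent.R013.RR7_948 Crest.Agent.R013.Red332 Crest.Agent.R013.EE809
open Crest.Agent.R013.Cell_408 (FinDef DiscNorm)
open Crest.Agent.R013.SSK_332 Crest.Agent.R013.Pow1_931 Crest.Agent.R013.Pow2_931
  Crest.Agent.R013.Pow3_931

namespace Crest.Agent.R013.Inh_770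

section

variable {k : Type*} [NontriviallyNormedField k] [CompleteSpace k] [IsUltrametricDist k]
variable {C : Type*} [NormedField C] [IsUltrametricDist C] [NormedAlgebra k C]
variable [Algebra.IsAlgebraic k C] [IsAlgClosed C] [hk : Fact (DiscNorm k)]

theorem InA.add' {c : C} {a b : EE k C} (ha : InA c a) (hb : InA c b) : InA c (a + b) := by
  obtain ⟨M, hM⟩ := ha
  obtain ⟨N, hN⟩ := hb
  refine ⟨max M N, fun n => ?_⟩
  have h0 : 0 ≤ ‖c‖ ^ n := zpow_nonneg (norm_nonneg _) _
  have h1 : ‖(a + b).co n‖ ≤ max ‖a.co n‖ ‖b.co n‖ := IsUltrametricDist.norm_add_le_max _ _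
  rcases le_max_iff.1 h1 with h | h
  · exact (mul_le_mul_of_nonneg_right h h0).trans ((hM n).trans (le_max_left _ _))
  · exact (mul_le_mul_of_nonneg_right h h0).trans ((hN n).trans (le_max_right _ _))

theorem InA.neg' {c : C} {a : EE k C} (ha : InA c a) : InA c (-a) := by
  obtain ⟨M, hM⟩ := ha
  refine ⟨M, fun n => ?_⟩
  have : ‖(-a).co n‖ = ‖a.co n‖ := norm_neg _
  rw [this]; exact hM n

/-- bounded functions on the disc -/
noncomputable def discR : Subring (EE k C) where
  carrier := {a | InD a}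
  mul_mem' := fun {a b} ha hb => Pos.mul ha hb
  one_mem' := Pos.one
  add_mem' := fun {a b} ha hb => Pos.add ha hb
  zero_mem' := fun n _ => rfl
  neg_mem' := fun {a} ha => Pos.neg ha

/-- bounded functions on the annulus -/
noncomputable def annR (c : C) (hc : c ≠ 0) : Subring (EE k C) where
  carrier := {a | InA c a}
  mul_mem' := fun {a b} ha hb => Pow3_931.InA.mul hc ha hb
  one_mem' := Pow3_931.InA.one
  add_mem' := fun {a b} ha hb => InA.add' ha hb
  zero_mem' := ⟨0, fun n => by
    have : (0 : EE k C).co n = 0 := rfl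
    rw [this, norm_zero, zero_mul]⟩
  neg_mem' := fun {a} ha => InA.neg' ha

theorem evE_zero (t : C) : evE t (0 : EE k C) = 0 := by
  unfold evE
  have : ∀ n : ℤ, (0 : EE k C).co n * t ^ n = 0 := fun n => by
    have h : (0 : EE k C).co n = 0 := rfl
    rw [h, zero_mul]
  rw [tsum_congr this, tsum_zero]

/-- the point `τ` of the open disc -/
noncomputable def ptDisc (τ : C) (hτ : ‖τ‖ < 1) : PtRing C (EE k C) where
  R := discR
  ev :=
    { toFun := fun a => evE τ a.1
      map_one' := evE_one τ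
      map_mul' := fun a b => evE_mul a.2 b.2 hτ
      map_zero' := evE_zero τ
      map_add' := fun a b => evE_add a.2 b.2 hτ }
  l := ⟨lin τ, pos_lin τ⟩
  C_mem := fun c => pos_algebraMap c
  ev_C := fun c => evE_algebraMap τ c
  ev_l := by
    change evE τ (lin τ) = 0
    rw [evE_lin, sub_self]
  fac := fun g hg => by
    classical
    have hg0 : (g : EE k C) ≠ 0 := fun h => hg (Subtype.ext h)
    obtain ⟨c, S, u, hc, hS, hu, he⟩ := exists_fact hk.out g.2 hg0
    obtain ⟨S', hS', hf⟩ := fact_at (k := k) S τ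
    have hp : Pos (algebraMap C (EE k C) c * rp S' * u) :=
      ((pos_algebraMap c).mul (pos_rp S')).mul hu.pos
    refine ⟨S.count τ, ⟨algebraMap C (EE k C) c * rp S' * u, hp⟩, ?_, ?_⟩
    · apply Subtype.ext
      change (g : EE k C) = _
      rw [he]
      have hf' : (rp S : EE k C) = lin τ ^ (S.count τ) * rp S' := by convert hf
      rw [hf']
      change _ = lin τ ^ (S.count τ) * (algebraMap C (EE k C) c * rp S' * u)
      ring
    · change evE τ (algebraMap C (EE k C) c * rp S' * u) ≠ 0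
      rw [evE_mul ((pos_algebraMap c).mul (pos_rp S')) hu.pos hτ,
        evE_mul (pos_algebraMap c) (pos_rp S') hτ, evE_algebraMap]
      refine mul_ne_zero (mul_ne_zero hc (evE_rp_ne_zero hS')) ?_
      rw [← norm_ne_zero_iff, norm_evE_upos hu hτ]
      exact one_ne_zero

/-- the point `τ` of the open annulus -/
noncomputable def ptAnn (c : C) (hc : c ≠ 0) (hc1 : ‖c‖ < 1) (τ : C) (h0 : ‖c‖ < ‖τ‖)
    (h1 : ‖τ‖ < 1) : PtRing C (EE k C) where
  R := annR c hc
  ev :=
    { toFun := fun a => evE τ a.1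
      map_one' := evE_one τ
      map_mul' := fun a b => evE_mulA hc a.2 b.2 h0 h1
      map_zero' := evE_zero τ
      map_add' := fun a b => by
        have ha := summable_evA hc a.2 h0 h1
        have hb := summable_evA hc b.2 h0 h1
        change evE τ (a.1 + b.1) = _
        unfold evE
        rw [← ha.tsum_add hb]
        refine tsum_congr fun n => ?_
        have : (a.1 + b.1).co n = a.1.co n + b.1.co n := rfl
        rw [this, add_mul] }
  l := ⟨lin τ, InA.of_pos hc1 (pos_lin τ)⟩
  C_mem := fun x => InA.of_pos hc1 (pos_algebraMap x)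
  ev_C := fun x => evE_algebraMap τ x
  ev_l := by
    change evE τ (lin τ) = 0
    rw [evE_lin, sub_self]
  fac := fun g hg => by
    classical
    have hg0 : (g : EE k C) ≠ 0 := fun h => hg (Subtype.ext h)
    have hτ0 : τ ≠ 0 := norm_pos_iff.1 ((norm_nonneg c).trans_lt h0)
    obtain ⟨A, N, S, a, b, b', hA, hS, ha, hb, hbb, hb', he⟩ := exists_factA hk.out hc hc1 g.2 hg0
    obtain ⟨S', hS', hf⟩ := fact_at (k := k) S τ
    have hbA : InA c b := InA.flip hc (Flip.symm hc hbb)
    have hAT : InA c (algebraMap C (EE k C) A * T N) :=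
      Pow3_931.InA.mul hc (InA.of_pos hc1 (pos_algebraMap A)) (inA_T N)
    have hATS : InA c (algebraMap C (EE k C) A * T N * rp S') :=
      Pow3_931.InA.mul hc hAT (InA.of_pos hc1 (pos_rp S'))
    have hab : InA c (a * b) := Pow3_931.InA.mul hc (InA.of_pos hc1 ha.pos) hbA
    have hp : InA c (algebraMap C (EE k C) A * T N * rp S' * (a * b)) :=
      Pow3_931.InA.mul hc hATS hab
    refine ⟨S.count τ, ⟨algebraMap C (EE k C) A * T N * rp S' * (a * b), hp⟩, ?_, ?_⟩
    · apply Subtype.ext
      change (g : EE k C) = _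
      rw [he]
      have hf' : (rp S : EE k C) = lin τ ^ (S.count τ) * rp S' := by convert hf
      rw [hf']
      change _ = lin τ ^ (S.count τ) * (algebraMap C (EE k C) A * T N * rp S' * (a * b))
      ring
    · change evE τ (algebraMap C (EE k C) A * T N * rp S' * (a * b)) ≠ 0
      rw [evE_mulA hc hATS hab h0 h1, evE_mulA hc hAT (InA.of_pos hc1 (pos_rp S')) h0 h1,
        evE_mulA hc (InA.of_pos hc1 (pos_algebraMap A)) (inA_T N) h0 h1,
        evE_mulA hc (InA.of_pos hc1 ha.pos) hbA h0 h1, evE_algebraMap, evE_T]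
      refine mul_ne_zero (mul_ne_zero (mul_ne_zero hA (zpow_ne_zero _ hτ0))
        (evE_rp_ne_zero hS')) (mul_ne_zero ?_ ?_)
      · rw [← norm_ne_zero_iff, norm_evE_upos ha h1]
        exact one_ne_zero
      · rw [← norm_ne_zero_iff, ← evE_flip hc hτ0 hbb, norm_evE_upos hb' ?_]
        · exact one_ne_zero
        · rw [norm_div, div_lt_one (norm_pos_iff.2 hτ0)]; exact h0

theorem ptDisc_l (τ : C) (hτ : ‖τ‖ < 1) : (ptDisc (k := k) τ hτ).l ≠ 0 := fun h =>
  lin_ne_zero (k := k) τ (congrArg Subtype.val h)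

theorem ptAnn_l (c : C) (hc : c ≠ 0) (hc1 : ‖c‖ < 1) (τ : C) (h0 : ‖c‖ < ‖τ‖) (h1 : ‖τ‖ < 1) :
    (ptAnn (k := k) c hc hc1 τ h0 h1).l ≠ 0 := fun h =>
  lin_ne_zero (k := k) τ (congrArg Subtype.val h)

end

end Crest.Agent.R013.Inh_770
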