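import Mathlib
import Crest.Agent.R013.Inh6_770

/-!
# Row 13, leaf C-INH (helper770), part 7: the places of `L` over a point of a cell of `K`
-/

set_option autoImplicit false
set_option linter.all false
open WithZero
open scoped NNReal
open Crest.Agent.R013.RR7_948

namespace Crest.Agent.R013.Inh_770

namespace PtRing

variable {C E : Type*} [Field C] [CommRing E] [IsDomain E] [Algebra C E] (D : PtRing C E)
variable (hl : D.l ≠ 0)
variable {K L : Type*} [Field K] [Field L] [Algebra K L] [Algebra C K] [Algebra C L]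
  [IsScalarTower C K L]
variable (ψ : L →+* E) (hψ : ∀ c : C, ψ (algebraMap C L c) = algebraMap C E c)
variable (hq : ∀ f : L, ∃ g h : E, h ≠ 0 ∧ g ∈ D.R ∧ h ∈ D.R ∧ ψ f * h = g)
variable (P₀ : Pl C K)
variable (hP : ∀ f : K, f ≠ 0 → ∃ n : ℤ, D.Rep (ψ (algebraMap K L f)) n ∧ P₀.v f = exp (-n))

include hP in
theorem val_K (f : K) : D.val hl ψ hq (algebraMap K L f) = P₀.v f := by
  by_cases hf : f = 0
  · rw [hf, map_zero, map_zero, map_zero]
  · obtain ⟨n, hn, h⟩ := hP f hf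
    rw [D.val_eq_of_rep hl ψ hq hn, h]

include hP in
theorem exists_unif : ∃ t : K, D.val hl ψ hq (algebraMap K L t) = exp (-1) := by
  obtain ⟨t, ht⟩ := P₀.surj (exp (-1))
  exact ⟨t, by rw [D.val_K hl ψ hq P₀ hP, ht]⟩

/-- the place of `L` over the point, twisted by `σ` -/
noncomputable def plL (σ : L ≃ₐ[K] L) : Pl C L where
  v := (D.val hl ψ hq).comap (σ : L →+* L)
  const := fun c hc => by
    change D.val hl ψ hq (σ (algebraMap C L c)) = 1
    rw [IsScalarTower.algebraMap_apply C K L, AlgEquiv.commutes, ← IsScalarTower.algebraMap_apply,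
      D.val_const hl ψ hq hψ c hc]
  surj := fun x => by
    by_cases hx : x = 0
    · exact ⟨0, by rw [hx, map_zero]⟩
    · obtain ⟨t, ht⟩ := D.exists_unif hl ψ hq P₀ hP
      refine ⟨algebraMap K L (t ^ (-log x)), ?_⟩
      change D.val hl ψ hq (σ (algebraMap K L (t ^ (-log x)))) = x
      rw [AlgEquiv.commutes, map_zpow₀, map_zpow₀, ht, ← exp_zsmul]
      conv_rhs => rw [← exp_log hx]
      congr 1
      simp

theorem plL_v (σ : L ≃ₐ[K] L) (f : L) :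
    (D.plL hl ψ hψ hq P₀ hP σ).v f = D.val hl ψ hq (σ f) := rfl

theorem plL_K (σ : L ≃ₐ[K] L) (f : K) :
    (D.plL hl ψ hψ hq P₀ hP σ).v (algebraMap K L f) = P₀.v f := by
  rw [plL_v, AlgEquiv.commutes, D.val_K hl ψ hq P₀ hP]

theorem plL_rep (σ : L ≃ₐ[K] L) (f : L) (hf : f ≠ 0) : ∃ (a b : ℕ) (g h : D.R),
    D.ev g ≠ 0 ∧ D.ev h ≠ 0 ∧ ψ (σ f) * ((D.l : E) ^ b * h) = (D.l : E) ^ a * g ∧
    (D.plL hl ψ hψ hq P₀ hP σ).v f = exp ((b : ℤ) - a) := by
  obtain ⟨n, hn⟩ := D.exists_rep ψ hq (σ f) (by rwa [Ne, EmbeddingLike.map_eq_zero_iff])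
  have h1 := D.val_eq_of_rep hl ψ hq hn
  obtain ⟨a, b, g, h, hg, hh, e, rfl⟩ := hn
  refine ⟨a, b, g, h, hg, hh, e, ?_⟩
  rw [plL_v, h1]
  congr 1
  ring

theorem plL_inj {σ σ' : L ≃ₐ[K] L}
    (h : D.plL hl ψ hψ hq P₀ hP σ = D.plL hl ψ hψ hq P₀ hP σ') : σ = σ' := by
  obtain ⟨t, ht⟩ := D.exists_unif hl ψ hq P₀ hP
  have h1 : ∀ f, D.val hl ψ hq (σ f) = D.val hl ψ hq (σ' f) := fun f =>
    congrArg (fun Q : Pl C L => Q.v f) h
  have key : σ' * σ⁻¹ = 1 := by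
    refine eq_one_of_dense (D.val hl ψ hq) (fun f a ha => D.dense hl ψ hq hψ t ht f a ha)
      (σ' * σ⁻¹) fun f => ?_
    change D.val hl ψ hq (σ' (σ.symm f)) = D.val hl ψ hq f
    rw [← h1, AlgEquiv.apply_symm_apply]
  exact (mul_inv_eq_one.1 key).symm

theorem exists_plL [FiniteDimensional K L] [IsGalois K L] (Q : Pl C L)
    (h : ∀ f : K, P₀.v f ≤ 1 ↔ Q.v (algebraMap K L f) ≤ 1) :
    ∃ σ, Q = D.plL hl ψ hψ hq P₀ hP σ := by
  obtain ⟨σ, hσ⟩ := Hens_899.conj_fin (K := K) (D.plL hl ψ hψ hq P₀ hP 1).v Q.v (fun a => by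
    rw [D.plL_K hl ψ hψ hq P₀ hP, h])
  refine ⟨σ, ?_⟩
  apply Pl.ext
  refine eq_of_isEquiv_surj ?_ Q.surj (D.plL hl ψ hψ hq P₀ hP σ).surj
  rw [Valuation.isEquiv_iff_val_le_one]
  intro x
  rw [← hσ x]
  rfl

end PtRing

end Crest.Agent.R013.Inh_770
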