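import Mathlib
import Crest.Agent.R013.Inh7_770

/-!
# Row 13, leaf C-INH (helper770), part 8: vertices and directions of `L`
-/

set_option autoImplicit false
set_option linter.all false
open WithZero
open scoped NNReal
open Crest.Agent.R013.RR7_948 Crest.Agent.R013.Red332 Crest.Agent.R013.EE809
open Crest.Agent.R013.Cell_408 (FinDef DiscNorm)
open Crest.Agent.R013.SSK_332

namespace Crest.Agent.R013.Inh_770

variable {k : Type*} [NontriviallyNormedField k] [CompleteSpace k] [IsUltrametricDist k]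
variable {C : Type*} [NormedField C] [IsUltrametricDist C] [NormedAlgebra k C]
variable [Algebra.IsAlgebraic k C] [IsAlgClosed C] [hk : Fact (DiscNorm k)]
variable {K : Type*} [Field K] [Algebra C K]
variable {L : Type*} [Field L] [Algebra C L] [Algebra K L] [IsScalarTower C K L]

omit [IsUltrametricDist k] [IsAlgClosed C] hk in
theorem exists_dir (S : SSK k C K) (v : S.V) : ∃ d : S.Dir, d.1 = v := by
  obtain ⟨i, h1, h2, h3⟩ := S.ff v
  letI := i
  haveI := h1
  haveI := h2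
  haveI := h3
  obtain ⟨Q, hQ⟩ := RR18_948.above_nonempty (L := kap (S.nm v)) (RR20_948.pinf (Ct C))
  exact ⟨⟨v, Q⟩, rfl⟩

/-- the norms of `L` over the vertices -/
def VL (S : SSK k C K) (L : Type*) [Field L] [Algebra C L] [Algebra K L] : Type _ :=
  {w : Nm C L // ∃ v, ∀ f : K, w.v (algebraMap K L f) = (S.nm v).v f}

namespace Spl

variable {S : SSK k C K} (P : Spl S L)

/-- the norm of the pair `(d, σ)` -/
noncomputable def nmOf (d : S.Dir) (σ : L ≃ₐ[K] L) : Nm C L := (P.EndL d σ).toNm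

theorem nmOf_v (d : S.Dir) (σ : L ≃ₐ[K] L) (f : L) : (P.nmOf d σ).v f = gnV (P.ps d (σ f)) := rfl

theorem nmOf_K (d : S.Dir) (σ : L ≃ₐ[K] L) (f : K) :
    (P.nmOf d σ).v (algebraMap K L f) = (S.nm d.1).v f := P.EndL_nm_K d σ f

section Galois

variable [FiniteDimensional K L] [IsGalois K L]

/-- all norms over a vertex -/
theorem exists_sigma (w : Valuation L ℝ≥0) (d : S.Dir)
    (hw : ∀ f : K, w (algebraMap K L f) = (S.nm d.1).v f) :
    ∃ σ : L ≃ₐ[K] L, ∀ f, w f = gnV (P.ps d (σ f)) := by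
  obtain ⟨σ, hσ⟩ := Hens_899.conj_fin (K := K) (P.nmOf d 1).v w (fun a => by
    rw [P.nmOf_K, hw])
  refine ⟨σ, fun f => ?_⟩
  have hσ' : ∀ x, gnV (P.ps d (σ x)) ≤ 1 ↔ w x ≤ 1 := hσ
  have heq : ∀ x, gnV (P.ps d (σ x)) = 1 ↔ w x = 1 := by
    have hE : ((P.nmOf d σ).v).IsEquiv w := by
      rw [Valuation.isEquiv_iff_val_le_one]
      intro x
      exact hσ' x
    intro x
    exact hE.eq_one_iff_eq_one
  by_cases hf : f = 0
  · rw [hf, map_zero, map_zero, map_zero, map_zero]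
  obtain ⟨c, hc⟩ := (P.nmOf d σ).val f hf
  have hvf : (P.nmOf d σ).v f ≠ 0 := (Valuation.ne_zero_iff _).2 hf
  have hc0 : c ≠ 0 := by
    rintro rfl
    rw [nnnorm_zero] at hc
    exact hvf hc
  have hwc : w (algebraMap C L c) = ‖c‖₊ := by
    rw [IsScalarTower.algebraMap_apply C K L, hw, (S.nm d.1).hC]
  have h1 : (P.nmOf d σ).v (f / algebraMap C L c) = 1 := by
    rw [map_div₀, (P.nmOf d σ).hC, hc, div_self]
    rwa [← hc]
  have h2 : w (f / algebraMap C L c) = 1 := (heq _).1 h1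
  rw [map_div₀, hwc] at h2
  have hc1 : ‖c‖₊ ≠ 0 := nnnorm_ne_zero_iff.2 hc0
  have h3 : w f = ‖c‖₊ := by
    rw [div_eq_one_iff_eq hc1] at h2
    exact h2
  rw [h3, ← hc]
  rfl

include P in
theorem finite_VL : Finite (VL S L) := by
  haveI := S.fV
  choose dd hdd using exists_dir S
  refine Finite.of_surjective (α := S.V × (L ≃ₐ[K] L))
    (fun p => (⟨P.nmOf (dd p.1) p.2, (dd p.1).1, fun f => P.nmOf_K _ _ f⟩ : VL S L)) ?_
  rintro ⟨w, v, hv⟩
  obtain ⟨σ, hσ⟩ := P.exists_sigma w.v (dd v) (fun f => by rw [hv, hdd])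
  refine ⟨(v, σ), ?_⟩
  apply Subtype.ext
  apply Nm.ext'
  intro f
  rw [hσ f]
  rfl

include P in
/-- all norms of `L` over a vertex norm of `K` are vertices of `L` -/
theorem exists_VL (w : Valuation L ℝ≥0) (v : S.V)
    (hw : ∀ f : K, w (algebraMap K L f) = (S.nm v).v f) : ∃ x : VL S L, x.1.v = w := by
  obtain ⟨d, rfl⟩ := exists_dir S v
  obtain ⟨σ, hσ⟩ := P.exists_sigma w d hw
  refine ⟨⟨P.nmOf d σ, d.1, fun f => P.nmOf_K _ _ f⟩, ?_⟩
  ext f
  rw [hσ f]
  rfl

/-- number of vertices of `L` -/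
noncomputable def nV (S : SSK k C K) (L : Type*) [Field L] [Algebra C L] [Algebra K L] : ℕ :=
  Nat.card (VL S L)

/-- numbering of the vertices -/
noncomputable def eV : Fin (nV S L) ≃ VL S L :=
  haveI := P.finite_VL
  (Finite.equivFin (VL S L)).symm

/-- the norm of a vertex -/
noncomputable def nmL (i : Fin (nV S L)) : Nm C L := (P.eV i).1

/-- the vertex of `K` under a vertex of `L` -/
noncomputable def fV (i : Fin (nV S L)) : S.V := (P.eV i).2.choose

theorem nmL_K (i : Fin (nV S L)) (f : K) : (P.nmL i).v (algebraMap K L f) = (S.nm (P.fV i)).v f :=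
  (P.eV i).2.choose_spec f

theorem nmL_inj : Function.Injective P.nmL := fun i j h =>
  P.eV.injective (Subtype.ext h)

theorem exists_nmL (w : Valuation L ℝ≥0) (v : S.V)
    (hw : ∀ f : K, w (algebraMap K L f) = (S.nm v).v f) : ∃ i, (P.nmL i).v = w := by
  obtain ⟨x, hx⟩ := P.exists_VL w v hw
  exact ⟨P.eV.symm x, by rw [nmL, Equiv.apply_symm_apply, hx]⟩

/-- directions of `L` -/
abbrev DirL : Type _ := Σ i : Fin (nV S L), Pl (Ct C) (kap (P.nmL i))

theorem exists_pair (y : P.DirL) : ∃ q : S.Dir × (L ≃ₐ[K] L), P.Rel (P.nmL y.1) y.2 q.1 q.2 := by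
  obtain ⟨d, σ, h⟩ := P.exists_rel (P.nmL y.1) y.2 ⟨P.fV y.1, fun f => P.nmL_K y.1 f⟩
  exact ⟨(d, σ), h⟩

/-- the pair of a direction -/
noncomputable def toPair (y : P.DirL) : S.Dir × (L ≃ₐ[K] L) := (P.exists_pair y).choose

theorem toPair_rel (y : P.DirL) : P.Rel (P.nmL y.1) y.2 (P.toPair y).1 (P.toPair y).2 :=
  (P.exists_pair y).choose_spec

theorem toPair_eq {y : P.DirL} {q : S.Dir × (L ≃ₐ[K] L)} (h : P.Rel (P.nmL y.1) y.2 q.1 q.2) :
    P.toPair y = q := by
  obtain ⟨h1, h2⟩ := Rel.pair_unique P (P.toPair_rel y) h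
  exact Prod.ext h1 h2

theorem toPair_bij : Function.Bijective P.toPair := by
  constructor
  · rintro ⟨i, y⟩ ⟨j, z⟩ h
    have h1 := P.toPair_rel ⟨i, y⟩
    have h2 := P.toPair_rel ⟨j, z⟩
    rw [h] at h1
    have h3 := Rel.dir_unique P h1 h2
    have h4 : P.nmL i = P.nmL j := congrArg Sigma.fst h3
    obtain rfl := P.nmL_inj h4
    have h5 : y = z := by
      have := (Sigma.mk.inj h3).2
      exact eq_of_heq this
    rw [h5]
  · rintro ⟨d, σ⟩
    obtain ⟨w, y, h⟩ := P.exists_rel_of_pair d σ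
    obtain ⟨i, hi⟩ := P.exists_nmL w.v d.1 (fun f => h.nm_K P f)
    have hi' : P.nmL i = w := Nm.ext' fun f => by rw [hi]
    subst hi'
    exact ⟨⟨i, y⟩, P.toPair_eq h⟩

/-- directions of `L` = (direction of `K`, element of the Galois group) -/
noncomputable def eD : P.DirL ≃ S.Dir × (L ≃ₐ[K] L) := Equiv.ofBijective P.toPair P.toPair_bij

theorem eD_rel (y : P.DirL) : P.Rel (P.nmL y.1) y.2 (P.eD y).1 (P.eD y).2 := P.toPair_rel y

theorem eD_eq {y : P.DirL} {q : S.Dir × (L ≃ₐ[K] L)} (h : P.Rel (P.nmL y.1) y.2 q.1 q.2) :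
    P.eD y = q := P.toPair_eq h

theorem eD_fst (y : P.DirL) : (P.eD y).1.1 = P.fV y.1 := by
  apply S.nm_inj
  apply Nm.ext'
  intro f
  rw [← P.nmL_K, ← (P.eD_rel y).nm_K P]

end Galois

end Spl

end Crest.Agent.R013.Inh_770
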