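import Mathlib
import Crest.Agent.R013.Inh8_770

/-!
# Row 13, leaf C-INH (helper770), part 9: the semistable structure of `L`
-/

set_option autoImplicit false
set_option linter.all false
open WithZero
open scoped NNReal
open Crest.Agent.R013.RR7_948 Crest.Agent.R013.Red332 Crest.Agent.R013.EE809
open Crest.Agent.R013.Cell_408 (FinDef DiscNorm)
open Crest.Agent.R013.SSK_332

namespace Crest.Agent.R013.Inh_770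

variable {k : Type*} [NontriviallyNormedField k] [CompleteSpace k] [IsUltrametricDist k]
variable {C : Type*} [NormedField C] [IsUltrametricDist C] [NormedAlgebra k C]
variable [Algebra.IsAlgebraic k C] [IsAlgClosed C] [hk : Fact (DiscNorm k)]
variable {K : Type*} [Field K] [Algebra C K]
variable {L : Type*} [Field L] [Algebra C L] [Algebra K L] [IsScalarTower C K L]

namespace Spl

variable {S : SSK k C K} (P : Spl S L)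

/-! ### points of discs -/

theorem hqD (d : S.Dir) (hd : S.IsDisc d) (τ : C) (hτ : ‖τ‖ < 1) (f : L) :
    ∃ g h : EE k C, h ≠ 0 ∧ g ∈ (ptDisc τ hτ : PtRing C (EE k C)).R ∧
      h ∈ (ptDisc τ hτ : PtRing C (EE k C)).R ∧ P.ps d f * h = g := by
  obtain ⟨g, h, h0, hg, hh, e⟩ := P.ps_disc d hd f
  exact ⟨g, h, h0, hg, hh, e⟩

theorem hPD (d : S.Dir) (hd : S.IsDisc d) (τ : C) (hτ : ‖τ‖ < 1) (f : K) (hf : f ≠ 0) :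
    ∃ n : ℤ, (ptDisc τ hτ : PtRing C (EE k C)).Rep (P.ps d (algebraMap K L f)) n ∧
      (S.ptD d hd.1 hd.2 τ hτ).v f = exp (-n) := by
  obtain ⟨a, b, g, h, hg, hh, hg0, hh0, e, hv⟩ := S.ptD_ord d hd.1 hd.2 τ hτ f hf
  refine ⟨(a : ℤ) - b, ⟨a, b, ⟨g, hg⟩, ⟨h, hh⟩, hg0, hh0, ?_, rfl⟩, ?_⟩
  · rw [P.ps_K]; exact e
  · rw [hv]; congr 1; ring

/-- the place at the point `τ` of the disc `(d, σ)` -/
noncomputable def plD (d : S.Dir) (hd : S.IsDisc d) (σ : L ≃ₐ[K] L) (τ : C) (hτ : ‖τ‖ < 1) :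
    Pl C L :=
  (ptDisc τ hτ : PtRing C (EE k C)).plL (ptDisc_l τ hτ) (P.ps d) (P.ps_C d) (P.hqD d hd τ hτ)
    (S.ptD d hd.1 hd.2 τ hτ) (P.hPD d hd τ hτ) σ

theorem plD_K (d : S.Dir) (hd : S.IsDisc d) (σ : L ≃ₐ[K] L) (τ : C) (hτ : ‖τ‖ < 1) (f : K) :
    (P.plD d hd σ τ hτ).v (algebraMap K L f) = (S.ptD d hd.1 hd.2 τ hτ).v f :=
  PtRing.plL_K _ _ _ _ _ _ _ σ f

theorem plD_ord (d : S.Dir) (hd : S.IsDisc d) (σ : L ≃ₐ[K] L) (τ : C) (hτ : ‖τ‖ < 1) (f : L)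
    (hf : f ≠ 0) : ∃ (a b : ℕ) (g h : EE k C), InD g ∧ InD h ∧
    evE τ g ≠ 0 ∧ evE τ h ≠ 0 ∧ P.ps d (σ f) * (lin τ ^ b * h) = lin τ ^ a * g ∧
    (P.plD d hd σ τ hτ).v f = exp ((b : ℤ) - a) := by
  obtain ⟨a, b, g, h, hg, hh, e, hv⟩ := (ptDisc τ hτ : PtRing C (EE k C)).plL_rep
    (ptDisc_l τ hτ) (P.ps d) (P.ps_C d) (P.hqD d hd τ hτ)
    (S.ptD d hd.1 hd.2 τ hτ) (P.hPD d hd τ hτ) σ f hf
  exact ⟨a, b, g, h, g.2, h.2, hg, hh, e, hv⟩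

/-! ### points of annuli -/

theorem hqA (e : S.Ed) (τ : C) (h0 : ‖S.cc e‖ < ‖τ‖) (h1 : ‖τ‖ < 1) (f : L) :
    ∃ g h : EE k C, h ≠ 0 ∧
      g ∈ (ptAnn (S.cc e) (S.cc_ne e) (S.cc_lt e) τ h0 h1 : PtRing C (EE k C)).R ∧
      h ∈ (ptAnn (S.cc e) (S.cc_ne e) (S.cc_lt e) τ h0 h1 : PtRing C (EE k C)).R ∧
      P.ps (S.e0 e) f * h = g := by
  obtain ⟨g, h, g', h', hne, hg, hh, -, -, e0, -⟩ := P.ps_ann e f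
  exact ⟨g, h, hne, hg, hh, e0⟩

theorem hPA (e : S.Ed) (τ : C) (h0 : ‖S.cc e‖ < ‖τ‖) (h1 : ‖τ‖ < 1) (f : K) (hf : f ≠ 0) :
    ∃ n : ℤ, (ptAnn (S.cc e) (S.cc_ne e) (S.cc_lt e) τ h0 h1 : PtRing C (EE k C)).Rep
      (P.ps (S.e0 e) (algebraMap K L f)) n ∧ (S.ptA e τ h0 h1).v f = exp (-n) := by
  obtain ⟨a, b, g, h, hg, hh, hg0, hh0, e', hv⟩ := S.ptA_ord e τ h0 h1 f hf
  refine ⟨(a : ℤ) - b, ⟨a, b, ⟨g, hg⟩, ⟨h, hh⟩, hg0, hh0, ?_, rfl⟩, ?_⟩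
  · rw [P.ps_K]; exact e'
  · rw [hv]; congr 1; ring

/-- the place at the point `τ` of the annulus `(e, σ)` -/
noncomputable def plA (e : S.Ed) (σ : L ≃ₐ[K] L) (τ : C) (h0 : ‖S.cc e‖ < ‖τ‖) (h1 : ‖τ‖ < 1) :
    Pl C L :=
  (ptAnn (S.cc e) (S.cc_ne e) (S.cc_lt e) τ h0 h1 : PtRing C (EE k C)).plL
    (ptAnn_l _ _ _ τ h0 h1) (P.ps (S.e0 e)) (P.ps_C (S.e0 e)) (P.hqA e τ h0 h1)
    (S.ptA e τ h0 h1) (P.hPA e τ h0 h1) σ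

theorem plA_K (e : S.Ed) (σ : L ≃ₐ[K] L) (τ : C) (h0 : ‖S.cc e‖ < ‖τ‖) (h1 : ‖τ‖ < 1) (f : K) :
    (P.plA e σ τ h0 h1).v (algebraMap K L f) = (S.ptA e τ h0 h1).v f :=
  PtRing.plL_K _ _ _ _ _ _ _ σ f

theorem plA_ord (e : S.Ed) (σ : L ≃ₐ[K] L) (τ : C) (h0 : ‖S.cc e‖ < ‖τ‖) (h1 : ‖τ‖ < 1) (f : L)
    (hf : f ≠ 0) : ∃ (a b : ℕ) (g h : EE k C), InA (S.cc e) g ∧ InA (S.cc e) h ∧
    evE τ g ≠ 0 ∧ evE τ h ≠ 0 ∧ P.ps (S.e0 e) (σ f) * (lin τ ^ b * h) = lin τ ^ a * g ∧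
    (P.plA e σ τ h0 h1).v f = exp ((b : ℤ) - a) := by
  obtain ⟨a, b, g, h, hg, hh, e', hv⟩ :=
    (ptAnn (S.cc e) (S.cc_ne e) (S.cc_lt e) τ h0 h1 : PtRing C (EE k C)).plL_rep
    (ptAnn_l _ _ _ τ h0 h1) (P.ps (S.e0 e)) (P.ps_C (S.e0 e)) (P.hqA e τ h0 h1)
    (S.ptA e τ h0 h1) (P.hPA e τ h0 h1) σ f hf
  exact ⟨a, b, g, h, g.2, h.2, hg, hh, e', hv⟩

/-! ### uniqueness -/

theorem plD_inj (d : S.Dir) (hd : S.IsDisc d) (σ : L ≃ₐ[K] L) (τ : C) (hτ : ‖τ‖ < 1)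
    (d' : S.Dir) (hd' : S.IsDisc d') (σ' : L ≃ₐ[K] L) (τ' : C) (hτ' : ‖τ'‖ < 1)
    (h : P.plD d hd σ τ hτ = P.plD d' hd' σ' τ' hτ') : d = d' ∧ σ = σ' ∧ τ = τ' := by
  have h1 : S.ptD d hd.1 hd.2 τ hτ = S.ptD d' hd'.1 hd'.2 τ' hτ' := by
    apply Pl.ext
    ext f
    rw [← P.plD_K d hd σ τ hτ, ← P.plD_K d' hd' σ' τ' hτ', h]
  obtain ⟨h2, h3⟩ := S.ptD_inj _ _ _ _ _ _ _ _ _ _ h1
  subst h2
  subst h3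
  exact ⟨rfl, PtRing.plL_inj _ _ _ _ _ _ _ h, rfl⟩

theorem plA_inj (e : S.Ed) (σ : L ≃ₐ[K] L) (τ : C) (h0 : ‖S.cc e‖ < ‖τ‖) (h1 : ‖τ‖ < 1)
    (e' : S.Ed) (σ' : L ≃ₐ[K] L) (τ' : C) (h0' : ‖S.cc e'‖ < ‖τ'‖) (h1' : ‖τ'‖ < 1)
    (h : P.plA e σ τ h0 h1 = P.plA e' σ' τ' h0' h1') : e = e' ∧ σ = σ' ∧ τ = τ' := by
  have h2 : S.ptA e τ h0 h1 = S.ptA e' τ' h0' h1' := by
    apply Pl.ext
    ext f
    rw [← P.plA_K e σ τ h0 h1, ← P.plA_K e' σ' τ' h0' h1', h]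
  obtain ⟨h3, h4⟩ := S.ptA_inj _ _ _ _ _ _ _ _ h2
  subst h3
  subst h4
  exact ⟨rfl, PtRing.plL_inj _ _ _ _ _ _ _ h, rfl⟩

theorem plDA (d : S.Dir) (hd : S.IsDisc d) (σ : L ≃ₐ[K] L) (τ : C) (hτ : ‖τ‖ < 1)
    (e' : S.Ed) (σ' : L ≃ₐ[K] L) (τ' : C) (h0' : ‖S.cc e'‖ < ‖τ'‖) (h1' : ‖τ'‖ < 1) :
    P.plD d hd σ τ hτ ≠ P.plA e' σ' τ' h0' h1' := by
  intro h
  refine S.ptDA d hd.1 hd.2 τ hτ e' τ' h0' h1' ?_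
  apply Pl.ext
  ext f
  rw [← P.plD_K d hd σ τ hτ, ← P.plA_K e' σ' τ' h0' h1', h]

/-! ### every place is a point -/

section Surj

variable [FiniteDimensional K L] [IsGalois K L]
variable [Algebra (RatFunc C) K] [IsScalarTower C (RatFunc C) K]
  [FiniteDimensional (RatFunc C) K] [Algebra.IsSeparable (RatFunc C) K]

theorem pl_surj (Q : Pl C L) : (∃ d hd σ τ hτ, Q = P.plD d hd σ τ hτ) ∨
    ∃ e σ τ h0 h1, Q = P.plA e σ τ h0 h1 := by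
  have hP := fun f : K => (RR18_948.under_le_one_iff (K := K) Q f)
  rcases S.pt_surj (RR18_948.under K Q) with ⟨d, h0, h1, τ, hτ, h⟩ | ⟨e, τ, h0, h1, h⟩
  · left
    have hd : S.IsDisc d := ⟨h0, h1⟩
    obtain ⟨σ, hσ⟩ := (ptDisc τ hτ : PtRing C (EE k C)).exists_plL (ptDisc_l τ hτ) (P.ps d)
      (P.ps_C d) (P.hqD d hd τ hτ) (S.ptD d hd.1 hd.2 τ hτ) (P.hPD d hd τ hτ) Q
      (fun f => by rw [← hP, h])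
    exact ⟨d, hd, σ, τ, hτ, hσ⟩
  · right
    obtain ⟨σ, hσ⟩ := (ptAnn (S.cc e) (S.cc_ne e) (S.cc_lt e) τ h0 h1 :
      PtRing C (EE k C)).exists_plL (ptAnn_l _ _ _ τ h0 h1) (P.ps (S.e0 e)) (P.ps_C (S.e0 e))
      (P.hqA e τ h0 h1) (S.ptA e τ h0 h1) (P.hPA e τ h0 h1) Q
      (fun f => by rw [← hP, h])
    exact ⟨e, σ, τ, h0, h1, hσ⟩

end Surj

end Spl

end Crest.Agent.R013.Inh_770
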