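import Mathlib
import Crest.Agent.R013.Inh9_770

/-!
# Row 13, leaf C-INH (helper770), part 10: **the semistable structure of a split extension**
-/

set_option autoImplicit false
set_option linter.all false
open WithZero
open scoped NNReal
open Crest.Agent.R013.RR7_948 Crest.Agent.R013.Red332 Crest.Agent.R013.EE809
open Crest.Agent.R013.Cell_408 (FinDef DiscNorm)
open Crest.Agent.R013.SSK_332

namespace Crest.Agent.R013.Inh_770

variable {k : Type*} [NontriviallyNormedField k] [CompleteSpace k] [IsUltrametricDist k]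
variable {C : Type*} [NormedField C] [IsUltrametricDist C] [NormedAlgebra k C]
variable [Algebra.IsAlgebraic k C] [IsAlgClosed C] [hk : Fact (DiscNorm k)]
variable {K : Type*} [Field K] [Algebra C K]
variable {L : Type*} [Field L] [Algebra C L] [Algebra K L] [IsScalarTower C K L]

/-- the field `ff` of `SSK` at one norm -/
def FFat (w : Nm C L) : Prop := ∃ i : Algebra (RatFunc (Ct C)) (kap w),
    IsScalarTower (Ct C) (RatFunc (Ct C)) (kap w) ∧
    FiniteDimensional (RatFunc (Ct C)) (kap w) ∧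
    Algebra.IsSeparable (RatFunc (Ct C)) (kap w)

namespace Spl

variable {S : SSK k C K} (P : Spl S L)

section Galois

variable [FiniteDimensional K L] [IsGalois K L]

/-- number of edges of `L` -/
noncomputable def nE (S : SSK k C K) (L : Type*) [Field L] [Algebra K L] : ℕ :=
  Nat.card (S.Ed × (L ≃ₐ[K] L))

/-- edges of `L` -/
noncomputable def eE (S : SSK k C K) (L : Type*) [Field L] [Algebra K L] [FiniteDimensional K L] :
    Fin (nE S L) ≃ S.Ed × (L ≃ₐ[K] L) :=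
  haveI := S.fEd
  (Finite.equivFin (S.Ed × (L ≃ₐ[K] L))).symm

/-- the embedding at a direction of `L` -/
noncomputable def emL (y : P.DirL) : L →+* EE k C :=
  (P.ps (P.eD y).1).comp ((P.eD y).2 : L →+* L)

theorem emL_apply (y : P.DirL) (f : L) : P.emL y f = P.ps (P.eD y).1 ((P.eD y).2 f) := rfl

theorem emL_symm (q : S.Dir × (L ≃ₐ[K] L)) (f : L) :
    P.emL (P.eD.symm q) f = P.ps q.1 (q.2 f) := by
  rw [emL_apply, Equiv.apply_symm_apply]

/-- outer end of an edge -/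
noncomputable def e0L (e : Fin (nE S L)) : P.DirL := P.eD.symm (S.e0 (eE S L e).1, (eE S L e).2)

/-- inner end of an edge -/
noncomputable def e1L (e : Fin (nE S L)) : P.DirL := P.eD.symm (S.e1 (eE S L e).1, (eE S L e).2)

theorem eD_e0L (e : Fin (nE S L)) : P.eD (P.e0L e) = (S.e0 (eE S L e).1, (eE S L e).2) :=
  Equiv.apply_symm_apply _ _

theorem eD_e1L (e : Fin (nE S L)) : P.eD (P.e1L e) = (S.e1 (eE S L e).1, (eE S L e).2) :=
  Equiv.apply_symm_apply _ _

theorem ends_injL : Function.Injective (Sum.elim P.e0L P.e1L) := by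
  have hS := S.ends_inj
  have h0 : ∀ e e' : S.Ed, S.e0 e = S.e0 e' → e = e' := fun e e' h =>
    Sum.inl_injective (hS (a₁ := Sum.inl e) (a₂ := Sum.inl e') h)
  have h1 : ∀ e e' : S.Ed, S.e1 e = S.e1 e' → e = e' := fun e e' h =>
    Sum.inr_injective (hS (a₁ := Sum.inr e) (a₂ := Sum.inr e') h)
  have h01 : ∀ e e' : S.Ed, S.e0 e ≠ S.e1 e' := fun e e' h =>
    absurd (hS (a₁ := Sum.inl e) (a₂ := Sum.inr e') h) Sum.inl_ne_inr
  rintro (e | e) (e' | e') h
  · have h2 := P.eD.symm.injective h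
    have h3 := congrArg Prod.fst h2
    have h4 := congrArg Prod.snd h2
    congr 1
    exact (eE S L).injective (Prod.ext (h0 _ _ h3) h4)
  · have h2 := P.eD.symm.injective h
    exact absurd (congrArg Prod.fst h2) (h01 _ _)
  · have h2 := P.eD.symm.injective h
    exact absurd (congrArg Prod.fst h2).symm (h01 _ _)
  · have h2 := P.eD.symm.injective h
    have h3 := congrArg Prod.fst h2
    have h4 := congrArg Prod.snd h2
    congr 1
    exact (eE S L).injective (Prod.ext (h1 _ _ h3) h4)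

theorem isDisc_of {y : P.DirL} (h0 : ∀ e, y ≠ P.e0L e) (h1 : ∀ e, y ≠ P.e1L e) :
    S.IsDisc (P.eD y).1 := by
  constructor
  · intro e h
    refine h0 ((eE S L).symm (e, (P.eD y).2)) ?_
    rw [e0L, Equiv.apply_symm_apply, Equiv.eq_symm_apply]
    exact Prod.ext h rfl
  · intro e h
    refine h1 ((eE S L).symm (e, (P.eD y).2)) ?_
    rw [e1L, Equiv.apply_symm_apply, Equiv.eq_symm_apply]
    exact Prod.ext h rfl

theorem not_end_of {y : P.DirL} (h : S.IsDisc (P.eD y).1) :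
    (∀ e, y ≠ P.e0L e) ∧ ∀ e, y ≠ P.e1L e := by
  constructor
  · rintro e rfl
    rw [P.eD_e0L] at h
    exact h.1 _ rfl
  · rintro e rfl
    rw [P.eD_e1L] at h
    exact h.2 _ rfl

variable [Algebra (RatFunc C) K] [IsScalarTower C (RatFunc C) K]
  [FiniteDimensional (RatFunc C) K] [Algebra.IsSeparable (RatFunc C) K]

theorem plD_congr {q q' : S.Dir × (L ≃ₐ[K] L)} (h : q = q') (hd : S.IsDisc q.1)
    (hd' : S.IsDisc q'.1) (τ : C) (hτ : ‖τ‖ < 1) :
    P.plD q.1 hd q.2 τ hτ = P.plD q'.1 hd' q'.2 τ hτ := by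
  subst h; rfl

theorem plA_congr {q q' : S.Ed × (L ≃ₐ[K] L)} (h : q = q') (τ : C) (h0 : ‖S.cc q.1‖ < ‖τ‖)
    (h0' : ‖S.cc q'.1‖ < ‖τ‖) (h1 : ‖τ‖ < 1) :
    P.plA q.1 q.2 τ h0 h1 = P.plA q'.1 q'.2 τ h0' h1 := by
  subst h; rfl

/-- **The semistable structure of `L`.** -/
noncomputable def SL (hff : ∀ i, FFat (P.nmL i)) : SSK k C L where
  V := Fin (nV S L)
  fV := inferInstance
  nm := P.nmL
  nm_inj := P.nmL_inj
  ff := hff
  em := P.emL
  em_C := fun y c n => by
    rw [emL_apply, IsScalarTower.algebraMap_apply C K L, AlgEquiv.commutes,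
      ← IsScalarTower.algebraMap_apply, P.ps_C, co_algebraMap]
  em_gn := fun y f => by
    rw [emL_apply, (P.eD_rel y).nm f, coe_gnV]
  em_od := fun y f hf => by
    rw [emL_apply, (P.eD_rel y).od f hf]
  Ed := Fin (nE S L)
  fEd := inferInstance
  e0 := P.e0L
  e1 := P.e1L
  ends_inj := P.ends_injL
  cc := fun e => S.cc (eE S L e).1
  cc_ne := fun e => S.cc_ne _
  cc_lt := fun e => S.cc_lt _
  ann := fun e f => by
    obtain ⟨g, h, g', h', hne, hg, hh, hf1, hf2, e0, e1⟩ :=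
      P.ps_ann (eE S L e).1 ((eE S L e).2 f)
    refine ⟨g, h, g', h', hne, hg, hh, hf1, hf2, ?_, ?_⟩
    · rw [e0L, P.emL_symm]; exact e0
    · rw [e1L, P.emL_symm]; exact e1
  disc := fun y h0 h1 f => P.ps_disc _ (P.isDisc_of h0 h1) _
  ptD := fun y h0 h1 τ hτ => P.plD (P.eD y).1 (P.isDisc_of h0 h1) (P.eD y).2 τ hτ
  ptA := fun e τ h0 h1 => P.plA (eE S L e).1 (eE S L e).2 τ h0 h1
  ptD_ord := fun y h0 h1 τ hτ f hf => P.plD_ord _ _ _ τ hτ f hf
  ptA_ord := fun e τ h0 h1 f hf => by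
    obtain ⟨a, b, g, h, hg, hh, hg0, hh0, he, hv⟩ := P.plA_ord (eE S L e).1 (eE S L e).2 τ h0 h1 f hf
    refine ⟨a, b, g, h, hg, hh, hg0, hh0, ?_, hv⟩
    rw [e0L, P.emL_symm]; exact he
  pt_surj := fun Q => by
    rcases P.pl_surj Q with ⟨d, hd, σ, τ, hτ, h⟩ | ⟨e, σ, τ, h0, h1, h⟩
    · left
      have h2 : S.IsDisc (P.eD (P.eD.symm (d, σ))).1 := by
        rw [Equiv.apply_symm_apply]; exact hd
      obtain ⟨h3, h4⟩ := P.not_end_of h2
      refine ⟨P.eD.symm (d, σ), h3, h4, τ, hτ, ?_⟩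
      rw [h]
      exact P.plD_congr (q := (d, σ)) (Equiv.apply_symm_apply _ _).symm hd _ τ hτ
    · right
      have h2 : eE S L ((eE S L).symm (e, σ)) = (e, σ) := Equiv.apply_symm_apply _ _
      refine ⟨(eE S L).symm (e, σ), τ, ?_, h1, ?_⟩
      · rw [h2]; exact h0
      · rw [h]
        exact P.plA_congr (q := (e, σ)) h2.symm τ h0 _ h1
  ptD_inj := fun y h0 h1 τ hτ y' h0' h1' τ' hτ' h => by
    obtain ⟨h2, h3, h4⟩ := P.plD_inj _ _ _ _ _ _ _ _ _ _ h
    exact ⟨P.eD.injective (Prod.ext h2 h3), h4⟩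
  ptA_inj := fun e τ h0 h1 e' τ' h0' h1' h => by
    obtain ⟨h2, h3, h4⟩ := P.plA_inj _ _ _ _ _ _ _ _ _ _ h
    exact ⟨(eE S L).injective (Prod.ext h2 h3), h4⟩
  ptDA := fun y h0 h1 τ hτ e τ' h0' h1' => P.plDA _ _ _ _ _ _ _ _ _ _

end Galois

end Spl

end Crest.Agent.R013.Inh_770
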