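import Mathlib
import Crest.Agent.R013.Inh10_770

/-!
# Row 13, leaf C-INH (helper770), part 11: API of the inherited structure `Spl.SL`

`V_L` = norms over the vertices, `Dir_L = Dir × G`, `Ed_L = Ed × G`, the action of the Galois
group, `Base`.
-/

set_option autoImplicit false
set_option linter.all false
open WithZero
open scoped NNReal
open Crest.Agent.R013.RR7_948 Crest.Agent.R013.Red332 Crest.Agent.R013.EE809
open Crest.Agent.R013.Cell_408 (FinDef DiscNorm)
open Crest.Agent.R013.SSK_332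

namespace Crest.Agent.R013.Inh_770

variable {k : Type*} [NontriviallyNormedField k] [CompleteSpace k] [IsUltrametricDist k]
variable {C : Type*} [NormedField C] [IsUltrametricDist C] [NormedAlgebra k C]
variable [Algebra.IsAlgebraic k C] [IsAlgClosed C] [hk : Fact (DiscNorm k)]
variable {K : Type*} [Field K] [Algebra C K]
variable {L : Type*} [Field L] [Algebra C L] [Algebra K L] [IsScalarTower C K L]

namespace Spl

variable {S : SSK k C K} (P : Spl S L)
variable [FiniteDimensional K L] [IsGalois K L]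
variable [Algebra (RatFunc C) K] [IsScalarTower C (RatFunc C) K]
  [FiniteDimensional (RatFunc C) K] [Algebra.IsSeparable (RatFunc C) K]
variable (hff : ∀ i, FFat (P.nmL i))

/-- the vertex of `K` under a vertex of `L` -/
noncomputable def vK (w : (P.SL hff).V) : S.V := P.fV w

theorem vK_nm (w : (P.SL hff).V) (f : K) :
    ((P.SL hff).nm w).v (algebraMap K L f) = (S.nm (P.vK hff w)).v f := P.nmL_K w f

theorem vK_comap (w : (P.SL hff).V) :
    ((P.SL hff).nm w).v.comap (algebraMap K L) = (S.nm (P.vK hff w)).v := by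
  ext f
  exact congrArg _ (P.vK_nm hff w f)

/-- every extension of the norm of a vertex is a vertex -/
theorem exists_V (w : Valuation L ℝ≥0) (v : S.V)
    (hw : ∀ f : K, w (algebraMap K L f) = (S.nm v).v f) :
    ∃ i : (P.SL hff).V, ((P.SL hff).nm i).v = w ∧ P.vK hff i = v := by
  obtain ⟨i, hi⟩ := P.exists_nmL w v hw
  refine ⟨i, hi, ?_⟩
  apply S.nm_inj
  apply Nm.ext'
  intro f
  rw [← P.vK_nm hff i f, ← hw f, ← hi]
  rfl

theorem vK_surj : Function.Surjective (P.vK hff) := by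
  intro v
  obtain ⟨d, rfl⟩ := exists_dir S v
  obtain ⟨i, -, hi⟩ := P.exists_V hff (P.nmOf d 1).v d.1 (fun f => P.nmOf_K d 1 f)
  exact ⟨i, hi⟩

/-- edges of `L` = (edge of `K`, element of the Galois group) -/
noncomputable def edE : (P.SL hff).Ed ≃ S.Ed × (L ≃ₐ[K] L) := eE S L

/-- directions of `L` = (direction of `K`, element of the Galois group) -/
noncomputable def dirE : (P.SL hff).Dir ≃ S.Dir × (L ≃ₐ[K] L) := P.eD

theorem em_eq (y : (P.SL hff).Dir) (f : L) :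
    (P.SL hff).em y f = P.ps (P.dirE hff y).1 ((P.dirE hff y).2 f) := rfl

theorem em_K (y : (P.SL hff).Dir) (f : K) :
    (P.SL hff).em y (algebraMap K L f) = S.em (P.dirE hff y).1 f := by
  rw [em_eq, AlgEquiv.commutes, P.ps_K]

theorem dirE_fst (y : (P.SL hff).Dir) : (P.dirE hff y).1.1 = P.vK hff y.1 := P.eD_fst y

theorem e0_eq (e : (P.SL hff).Ed) :
    P.dirE hff ((P.SL hff).e0 e) = (S.e0 (P.edE hff e).1, (P.edE hff e).2) := P.eD_e0L e

theorem e1_eq (e : (P.SL hff).Ed) :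
    P.dirE hff ((P.SL hff).e1 e) = (S.e1 (P.edE hff e).1, (P.edE hff e).2) := P.eD_e1L e

theorem vK_e0 (e : (P.SL hff).Ed) :
    P.vK hff ((P.SL hff).e0 e).1 = (S.e0 (P.edE hff e).1).1 := by
  rw [← P.dirE_fst, P.e0_eq]

theorem vK_e1 (e : (P.SL hff).Ed) :
    P.vK hff ((P.SL hff).e1 e).1 = (S.e1 (P.edE hff e).1).1 := by
  rw [← P.dirE_fst, P.e1_eq]

theorem cc_eq (e : (P.SL hff).Ed) : (P.SL hff).cc e = S.cc (P.edE hff e).1 := rfl

theorem em_e0 (e : (P.SL hff).Ed) (f : L) :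
    (P.SL hff).em ((P.SL hff).e0 e) f = P.ps (S.e0 (P.edE hff e).1) ((P.edE hff e).2 f) := by
  rw [em_eq, P.e0_eq]

theorem em_e1 (e : (P.SL hff).Ed) (f : L) :
    (P.SL hff).em ((P.SL hff).e1 e) f = P.ps (S.e1 (P.edE hff e).1) ((P.edE hff e).2 f) := by
  rw [em_eq, P.e1_eq]

theorem isDisc_iff (y : (P.SL hff).Dir) : (P.SL hff).IsDisc y ↔ S.IsDisc (P.dirE hff y).1 :=
  ⟨fun h => P.isDisc_of h.1 h.2, fun h => P.not_end_of h⟩

theorem card_Ed : Nat.card (P.SL hff).Ed = Module.finrank K L * Nat.card S.Ed := by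
  rw [Nat.card_congr (P.edE hff), Nat.card_prod, IsGalois.card_aut_eq_finrank, mul_comm]

/-- every edge and every element of the Galois group gives an edge -/
theorem exists_edge (e : S.Ed) (σ : L ≃ₐ[K] L) : ∃ e' : (P.SL hff).Ed, P.edE hff e' = (e, σ) :=
  ⟨(P.edE hff).symm (e, σ), Equiv.apply_symm_apply _ _⟩

/-! ### the places -/

theorem ptD_K (y : (P.SL hff).Dir) (h0 h1) (τ : C) (hτ : ‖τ‖ < 1) (f : K) :
    ((P.SL hff).ptD y h0 h1 τ hτ).v (algebraMap K L f) =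
      (S.ptD (P.dirE hff y).1 (P.isDisc_of h0 h1).1 (P.isDisc_of h0 h1).2 τ hτ).v f :=
  P.plD_K (P.dirE hff y).1 (P.isDisc_of h0 h1) (P.dirE hff y).2 τ hτ f

theorem ptA_K (e : (P.SL hff).Ed) (τ : C) (h0 h1) (f : K) :
    ((P.SL hff).ptA e τ h0 h1).v (algebraMap K L f) = (S.ptA (P.edE hff e).1 τ h0 h1).v f :=
  P.plA_K (P.edE hff e).1 (P.edE hff e).2 τ h0 h1 f

/-! ### the action of the Galois group -/

/-- `a • (e, σ) = (e, σ a⁻¹)` -/
@[reducible] noncomputable def actE : MulAction (L ≃ₐ[K] L) (P.SL hff).Ed where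
  smul a e := (P.edE hff).symm ((P.edE hff e).1, (P.edE hff e).2 * a⁻¹)
  one_smul e := by
    change (P.edE hff).symm ((P.edE hff e).1, (P.edE hff e).2 * 1⁻¹) = e
    rw [inv_one, mul_one]
    exact Equiv.symm_apply_apply _ _
  mul_smul a b e := by
    change (P.edE hff).symm ((P.edE hff e).1, (P.edE hff e).2 * (a * b)⁻¹) =
      (P.edE hff).symm ((P.edE hff ((P.edE hff).symm ((P.edE hff e).1, (P.edE hff e).2 * b⁻¹))).1,
        (P.edE hff ((P.edE hff).symm ((P.edE hff e).1, (P.edE hff e).2 * b⁻¹))).2 * a⁻¹)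
    rw [Equiv.apply_symm_apply, mul_inv_rev, mul_assoc]

theorem edE_act (a : L ≃ₐ[K] L) (e : (P.SL hff).Ed) :
    P.edE hff ((P.actE hff).toSMul.smul a e) = ((P.edE hff e).1, (P.edE hff e).2 * a⁻¹) :=
  Equiv.apply_symm_apply _ _

theorem em_e0_act (a : L ≃ₐ[K] L) (e : (P.SL hff).Ed) (f : L) :
    (P.SL hff).em ((P.SL hff).e0 ((P.actE hff).toSMul.smul a e)) (a f) =
      (P.SL hff).em ((P.SL hff).e0 e) f := by
  rw [em_e0, em_e0, edE_act]
  congr 1
  change (P.edE hff e).2 (a.symm (a f)) = _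
  rw [AlgEquiv.symm_apply_apply]

theorem em_e1_act (a : L ≃ₐ[K] L) (e : (P.SL hff).Ed) (f : L) :
    (P.SL hff).em ((P.SL hff).e1 ((P.actE hff).toSMul.smul a e)) (a f) =
      (P.SL hff).em ((P.SL hff).e1 e) f := by
  rw [em_e1, em_e1, edE_act]
  congr 1
  change (P.edE hff e).2 (a.symm (a f)) = _
  rw [AlgEquiv.symm_apply_apply]

theorem od_e0_act (a : L ≃ₐ[K] L) (e : (P.SL hff).Ed) (f : L) (hf : f ≠ 0) :
    Red332.od ((P.SL hff).nm ((P.SL hff).e0 ((P.actE hff).toSMul.smul a e)).1)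
        ((P.SL hff).e0 ((P.actE hff).toSMul.smul a e)).2 (a f) =
      Red332.od ((P.SL hff).nm ((P.SL hff).e0 e).1) ((P.SL hff).e0 e).2 f := by
  rw [← (P.SL hff).em_od _ f hf,
    ← (P.SL hff).em_od _ (a f) (by rwa [Ne, EmbeddingLike.map_eq_zero_iff]), em_e0_act]

theorem od_e1_act (a : L ≃ₐ[K] L) (e : (P.SL hff).Ed) (f : L) (hf : f ≠ 0) :
    Red332.od ((P.SL hff).nm ((P.SL hff).e1 ((P.actE hff).toSMul.smul a e)).1)
        ((P.SL hff).e1 ((P.actE hff).toSMul.smul a e)).2 (a f) =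
      Red332.od ((P.SL hff).nm ((P.SL hff).e1 e).1) ((P.SL hff).e1 e).2 f := by
  rw [← (P.SL hff).em_od _ f hf,
    ← (P.SL hff).em_od _ (a f) (by rwa [Ne, EmbeddingLike.map_eq_zero_iff]), em_e1_act]

/-- the action on the edges is free -/
theorem act_free (a : L ≃ₐ[K] L) (e : (P.SL hff).Ed)
    (h : (P.actE hff).toSMul.smul a e = e) : a = 1 := by
  have h1 := P.edE_act hff a e
  rw [h] at h1
  have h2 := congrArg Prod.snd h1
  have h3 : (P.edE hff e).2 = (P.edE hff e).2 * a⁻¹ := h2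
  have h4 := left_eq_mul.1 h3
  rwa [inv_eq_one] at h4

/-- the orbits of the edges are the edges of `K` -/
theorem act_orbit (e e' : (P.SL hff).Ed) (h : (P.edE hff e).1 = (P.edE hff e').1) :
    ∃ a : L ≃ₐ[K] L, (P.actE hff).toSMul.smul a e = e' := by
  refine ⟨(P.edE hff e').2⁻¹ * (P.edE hff e).2, (P.edE hff).injective ?_⟩
  rw [edE_act]
  refine Prod.ext h ?_
  change (P.edE hff e).2 * ((P.edE hff e').2⁻¹ * (P.edE hff e).2)⁻¹ = _
  rw [mul_inv_rev, inv_inv, mul_inv_cancel_left]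

/-- the Galois group permutes the vertices -/
theorem exists_act_V (a : L ≃ₐ[K] L) (w : (P.SL hff).V) :
    ∃ w' : (P.SL hff).V, P.vK hff w' = P.vK hff w ∧
      ∀ f, ((P.SL hff).nm w').v (a f) = ((P.SL hff).nm w).v f := by
  obtain ⟨i, hi, hi'⟩ := P.exists_V hff (((P.SL hff).nm w).v.comap ((a⁻¹ : L ≃ₐ[K] L) : L →+* L))
    (P.vK hff w) (fun f => by
      change ((P.SL hff).nm w).v ((a⁻¹ : L ≃ₐ[K] L) (algebraMap K L f)) = _
      rw [AlgEquiv.commutes, P.vK_nm])
  refine ⟨i, hi', fun f => ?_⟩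
  rw [hi]
  change ((P.SL hff).nm w).v (a.symm (a f)) = _
  rw [AlgEquiv.symm_apply_apply]

/-- the vertices over a vertex are conjugate -/
theorem exists_conj_V (w w' : (P.SL hff).V) (h : P.vK hff w = P.vK hff w') :
    ∃ a : L ≃ₐ[K] L, ∀ f, ((P.SL hff).nm w').v (a f) = ((P.SL hff).nm w).v f := by
  obtain ⟨d, hd⟩ := exists_dir S (P.vK hff w)
  obtain ⟨σ, hσ⟩ := P.exists_sigma ((P.SL hff).nm w).v d (fun f => by rw [P.vK_nm, hd])
  obtain ⟨σ', hσ'⟩ := P.exists_sigma ((P.SL hff).nm w').v d (fun f => by rw [P.vK_nm, ← h, hd])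
  refine ⟨σ'⁻¹ * σ, fun f => ?_⟩
  rw [hσ, hσ']
  congr 2
  change σ' (σ'.symm (σ f)) = _
  rw [AlgEquiv.apply_symm_apply]

/-- `Base` is inherited -/
theorem base [Algebra (RatFunc C) L] [IsScalarTower (RatFunc C) K L]
    {B : Set (Valuation (RatFunc C) ℝ≥0)} (hB : S.Base B) : (P.SL hff).Base B := by
  refine ⟨hB.1, fun w => ⟨?_, fun h => ?_⟩⟩
  · rintro ⟨i, rfl⟩
    have h1 := (hB.2 (S.nm (P.vK hff i)).v).1 ⟨_, rfl⟩
    have h2 : ((P.SL hff).nm i).v.comap (algebraMap (RatFunc C) L) =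
        (S.nm (P.vK hff i)).v.comap (algebraMap (RatFunc C) K) := by
      rw [← P.vK_comap hff i, ← Valuation.comap_comp, ← IsScalarTower.algebraMap_eq]
    rw [h2]
    exact h1
  · have h1 : (w.comap (algebraMap K L)).comap (algebraMap (RatFunc C) K) ∈ B := by
      rw [← Valuation.comap_comp, ← IsScalarTower.algebraMap_eq]
      exact h
    obtain ⟨v, hv⟩ := (hB.2 _).2 h1
    obtain ⟨i, hi, -⟩ := P.exists_V hff w v (fun f => by rw [hv]; rfl)
    exact ⟨i, hi⟩

end Spl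

end Crest.Agent.R013.Inh_770
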