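import Mathlib
import Crest.Agent.R013.RR20_948

/-!
# R013 / Ins3: existence of a separating element over a perfect field (helper240)
-/

set_option autoImplicit false
set_option linter.all false

namespace Crest.Agent.R013.Ins_240

open Polynomial WithZero Module IsDedekindDomain nonZeroDivisors
open Crest.Agent.R013.RR1_948 Crest.Agent.R013.RR2_948 Crest.Agent.R013.RR3_948
open Crest.Agent.R013.RR4_948 Crest.Agent.R013.RR5_948 Crest.Agent.R013.RR6_948
open Crest.Agent.R013.RR7_948 Crest.Agent.R013.RR8_948 Crest.Agent.R013.RR9_948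
open Crest.Agent.R013.RR11_948 Crest.Agent.R013.RR12_948 Crest.Agent.R013.RR18_948
open Crest.Agent.R013.RR19_948 Crest.Agent.R013.RR20_948
open scoped IntermediateField

section Sep

variable {k : Type*} [Field k] {K : Type*} [Field K] [Algebra k K]

theorem trdeg_ratFunc : Algebra.trdeg k (RatFunc k) = 1 := by
  have h1 := trdeg_add_eq k k[X] (A := RatFunc k)
  have h2 : Algebra.IsAlgebraic k[X] (RatFunc k) :=
    IsLocalization.isAlgebraic (RatFunc k) (k[X]⁰)
  rw [Polynomial.trdeg_of_isDomain, trdeg_eq_zero_iff.mpr h2, add_zero] at h1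
  exact h1.symm

theorem trdeg_eq_one [Algebra (RatFunc k) K] [IsScalarTower k (RatFunc k) K]
    [FiniteDimensional (RatFunc k) K] : Algebra.trdeg k K = 1 := by
  have h1 := lift_trdeg_add_eq k (RatFunc k) K
  have h2 : Algebra.IsAlgebraic (RatFunc k) K := inferInstance
  rw [trdeg_ratFunc, trdeg_eq_zero_iff.mpr h2] at h1
  simp only [Cardinal.lift_one, Cardinal.lift_zero, add_zero] at h1
  exact Cardinal.lift_eq_one.mp h1.symm

theorem essFiniteType [Algebra (RatFunc k) K] [IsScalarTower k (RatFunc k) K]
    [FiniteDimensional (RatFunc k) K] : Algebra.EssFiniteType k K := by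
  haveI : Algebra.EssFiniteType k[X] (RatFunc k) := .of_isLocalization _ (k[X]⁰)
  haveI : Algebra.EssFiniteType k (RatFunc k) := .comp k k[X] (RatFunc k)
  exact .comp k (RatFunc k) K

/-- `k(y)`-separability from the intermediate field -/
theorem ratAlg_isSeparable_of_adjoin (y : K) (hy : Transcendental k y)
    [Algebra.IsSeparable k⟮y⟯ K] :
    letI := ratAlg y hy; Algebra.IsSeparable (RatFunc k) K := by
  letI := ratAlg y hy
  have hmem : ∀ f : RatFunc k, ratHom y hy f ∈ k⟮y⟯ := by
    intro f
    have h1 : ∀ q : k[X], ratHom y hy (algebraMap k[X] (RatFunc k) q) = aeval y q := by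
      intro q
      have h2 : (ratHom y hy) (aeval (RatFunc.X : RatFunc k) q) = aeval y q := by
        rw [← aeval_algHom_apply, ratHom_X]
      rw [← h2]
      congr 1
      have h3 : (RatFunc.X : RatFunc k) = algebraMap k[X] (RatFunc k) X := RatFunc.algebraMap_X.symm
      rw [h3, aeval_algebraMap_apply, aeval_X_left_apply]
    rw [← RatFunc.num_div_denom f, map_div₀, h1, h1]
    have h4 : ∀ q : k[X], aeval y q ∈ k⟮y⟯ := by
      intro q
      rw [aeval_eq_sum_range]
      refine sum_mem fun i _ => ?_
      rw [Algebra.smul_def]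
      exact mul_mem (k⟮y⟯.algebraMap_mem _) (pow_mem (IntermediateField.mem_adjoin_simple_self k y) _)
    exact div_mem (h4 _) (h4 _)
  let ψ : RatFunc k →+* k⟮y⟯ := (ratHom y hy).toRingHom.codRestrict k⟮y⟯ hmem
  have hle : k⟮y⟯ ≤ (ratHom y hy).fieldRange := by
    rw [IntermediateField.adjoin_simple_le_iff]
    exact ⟨RatFunc.X, ratHom_X y hy⟩
  let e : RatFunc k ≃+* k⟮y⟯ := RingEquiv.ofBijective ψ ⟨ψ.injective, fun z => by
    obtain ⟨f, hf⟩ := hle z.2
    exact ⟨f, Subtype.ext hf⟩⟩
  refine Algebra.IsSeparable.of_equiv_equiv e.symm (RingEquiv.refl K) ?_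
  ext z
  obtain ⟨f, rfl⟩ := e.surjective z
  show ratHom y hy (e.symm (e f)) = _
  rw [e.symm_apply_apply]
  rfl

/-- **a function field over a perfect field has a separating element** -/
theorem exists_separating [PerfectField k] [Algebra (RatFunc k) K] [IsScalarTower k (RatFunc k) K]
    [FiniteDimensional (RatFunc k) K] : ∃ (y : K) (hy : Transcendental k y),
      letI := ratAlg y hy
      FiniteDimensional (RatFunc k) K ∧ Algebra.IsSeparable (RatFunc k) K := by
  haveI := essFiniteType (k := k) (K := K)
  obtain ⟨s, hs, hsep⟩ := exists_isTranscendenceBasis_and_isSeparable_of_perfectField k K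
  have h1 : Cardinal.mk s = 1 := by
    rw [hs.cardinalMk_eq_trdeg, trdeg_eq_one]
  have h2 : s.card = 1 := by
    rw [Cardinal.mk_coe_finset] at h1
    exact_mod_cast h1
  obtain ⟨y, rfl⟩ := Finset.card_eq_one.mp h2
  have hy : Transcendental k y := by
    have h3 := hs.1.transcendental ⟨y, Finset.mem_singleton_self y⟩
    exact h3
  rw [Finset.coe_singleton] at hsep
  exact ⟨y, hy, ratAlg_finite y hy, ratAlg_isSeparable_of_adjoin y hy⟩

/-- a separating element of a purely algebraic (finite) extension `L/K` of a function field -/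
theorem exists_separating_ext [PerfectField k] [Algebra (RatFunc k) K]
    [IsScalarTower k (RatFunc k) K] [FiniteDimensional (RatFunc k) K]
    {L : Type*} [Field L] [Algebra k L] [Algebra K L] [IsScalarTower k K L]
    [FiniteDimensional K L] : ∃ (y : L) (hy : Transcendental k y),
      letI := ratAlg y hy
      FiniteDimensional (RatFunc k) L ∧ Algebra.IsSeparable (RatFunc k) L := by
  letI : Algebra (RatFunc k) L := ((algebraMap K L).comp (algebraMap (RatFunc k) K)).toAlgebra
  haveI : IsScalarTower (RatFunc k) K L := IsScalarTower.of_algebraMap_eq fun _ => rfl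
  haveI : IsScalarTower k (RatFunc k) L := IsScalarTower.of_algebraMap_eq fun c => by
    rw [IsScalarTower.algebraMap_apply (RatFunc k) K L, ← IsScalarTower.algebraMap_apply k _ K,
      ← IsScalarTower.algebraMap_apply]
  haveI : FiniteDimensional (RatFunc k) L := FiniteDimensional.trans (RatFunc k) K L
  exact exists_separating

end Sep

end Crest.Agent.R013.Ins_240
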