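import Mathlib
import Crest.Agent.R013.Red1_332
import Crest.Agent.R013.RR20_948
import Crest.Agent.R013.GR2_921

/-!
# R013 / Red7: `[K : k(y)] ≤ deg (y)_∞` (also for inseparable `y`); the residue field `Ct C` is
algebraically closed (helper332)
-/

set_option autoImplicit false
set_option linter.all false

namespace Crest.Agent.R013.Red332

open scoped NNReal
open WithZero IsLocalRing Polynomial Module
open Crest.Agent.R013.RR1_948 Crest.Agent.R013.RR2_948 Crest.Agent.R013.RR3_948
open Crest.Agent.R013.RR4_948 Crest.Agent.R013.RR5_948 Crest.Agent.R013.RR6_948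
open Crest.Agent.R013.RR7_948 Crest.Agent.R013.RR8_948 Crest.Agent.R013.RR9_948
open Crest.Agent.R013.RR11_948 Crest.Agent.R013.RR12_948 Crest.Agent.R013.RR20_948

section deg

variable {k : Type*} [Field k] {K : Type*} [Field K] [Algebra k K] [Algebra (RatFunc k) K]
  [IsScalarTower k (RatFunc k) K] [FiniteDimensional (RatFunc k) K]
  [Algebra.IsSeparable (RatFunc k) K]

theorem degD_nsmul (D : Pl k K →₀ ℤ) (n : ℕ) : degD (n • D) = n * degD D := by
  induction n with
  | zero => rw [zero_smul, degD_zero]; simp
  | succ n ih =>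
    rw [succ_nsmul, degD_add, ih]
    push_cast
    ring

theorem mul_mem_LD {D E : Pl k K →₀ ℤ} {f g : K} (hf : f ∈ LD D) (hg : g ∈ LD E) :
    f * g ∈ LD (D + E) := by
  rw [mem_LD] at *
  intro P
  rw [map_mul, Finsupp.add_apply, exp_add]
  exact mul_le_mul' (hf P) (hg P)

/-- `[K : k(y)] ≤ deg (y)_∞` -/
theorem card_le_degD_poles (hc : algebraicClosure k K = ⊥) (y : K) (hy : Transcendental k y)
    {N : ℕ} (u : Fin N → K)
    (hu : ∀ c : Fin N → k[X], ∑ i, aeval y (c i) * u i = 0 → ∀ i, c i = 0) :
    (N : ℤ) ≤ degD (poles (k := k) y) := by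
  classical
  have hy0 : y ≠ 0 := by
    rintro rfl
    exact hy (isAlgebraic_zero)
  set P : Pl k K →₀ ℤ := poles (k := k) y with hP
  have hP0 : 0 ≤ P := by
    intro Q
    rw [hP, poles_apply]
    exact le_max_right _ _
  have hu0 : ∀ i, u i ≠ 0 := by
    intro i hi
    have h1 := hu (Pi.single i 1) (by
      rw [Finset.sum_eq_single i]
      · rw [hi, mul_zero]
      · intro j _ hj
        rw [Pi.single_eq_of_ne hj, map_zero, zero_mul]
      · intro h; exact absurd (Finset.mem_univ i) h) i
    rw [Pi.single_eq_same] at h1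
    exact one_ne_zero h1
  set B : Pl k K →₀ ℤ := ∑ i, poles (k := k) (u i) with hB
  have huB : ∀ i, u i ∈ LD B := by
    intro i
    refine LD_mono ?_ (mem_LD_poles (hu0 i))
    rw [hB, ← Finset.add_sum_erase _ _ (Finset.mem_univ i)]
    refine le_add_of_nonneg_right (Finset.sum_nonneg fun j _ => ?_)
    intro Q
    rw [poles_apply]
    exact le_max_right _ _
  have hyj : ∀ j : ℕ, y ^ j ∈ LD (j • P) := by
    intro j
    induction j with
    | zero =>
      rw [zero_smul, pow_zero, mem_LD]
      intro Q
      rw [map_one, Finsupp.zero_apply, exp_zero]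
    | succ j ih =>
      rw [pow_succ, succ_nsmul]
      exact mul_mem_LD ih (mem_LD_poles hy0)
  -- `deg P > 0`
  have hPpos : 0 < degD P := by
    by_contra hneg
    have h1 : ∀ Q : Pl k K, P Q = 0 := by
      by_contra h
      push Not at h
      obtain ⟨Q, hQ⟩ := h
      apply hneg
      unfold degD
      refine Finset.sum_pos' (fun R _ => mul_nonneg (hP0 R) (by positivity)) ⟨Q, ?_, ?_⟩
      · rw [Finsupp.mem_support_iff]; exact hQ
      · have h2 : 0 < P Q := lt_of_le_of_ne (hP0 Q) (Ne.symm hQ)
        have h3 : (0 : ℤ) < degP Q := by exact_mod_cast degP_pos Q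
        positivity
    apply hy
    refine isAlgebraic_of_no_poles (k := k) fun Q => ?_
    have h2 := h1 Q
    rw [hP, poles_apply] at h2
    rw [v_eq hy0, ← exp_zero, exp_le_exp]
    have := le_max_left (-divf (k := k) y Q) 0
    omega
  by_contra hlt
  push Not at hlt
  -- dimension count in `L(mP + B)`
  have key : ∀ m : ℕ, ((m + 1) * N : ℕ) ≤ ell (m • P + B) := by
    intro m
    let g : Fin (m + 1) × Fin N → LD (m • P + B) := fun q => ⟨y ^ (q.1 : ℕ) * u q.2, by
      refine mul_mem_LD (LD_mono ?_ (hyj q.1)) (huB q.2)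
      exact nsmul_le_nsmul_left hP0 (Nat.lt_succ_iff.1 q.1.2)⟩
    have hli : LinearIndependent k g := by
      rw [Fintype.linearIndependent_iff]
      intro a ha
      have h1 : ∑ q, a q • (y ^ (q.1 : ℕ) * u q.2) = 0 := by
        have := congrArg (LD (m • P + B)).subtype ha
        simpa [map_sum, g] using this
      let c : Fin N → k[X] := fun i => ∑ j : Fin (m + 1), Polynomial.monomial (j : ℕ) (a (j, i))
      have h2 : ∑ i, aeval y (c i) * u i = 0 := by
        rw [← h1, Fintype.sum_prod_type_right]
        refine Finset.sum_congr rfl fun i _ => ?_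
        rw [map_sum, Finset.sum_mul]
        refine Finset.sum_congr rfl fun j _ => ?_
        rw [aeval_monomial, Algebra.smul_def]
        ring
      have h3 := hu c h2
      intro q
      have h4 := congrArg (fun p => p.coeff (q.1 : ℕ)) (h3 q.2)
      simp only [c, finset_sum_coeff, coeff_monomial, coeff_zero] at h4
      rw [Finset.sum_eq_single q.1] at h4
      · simpa using h4
      · intro j _ hj
        rw [if_neg]
        intro h5
        exact hj (Fin.ext h5)
      · intro h; exact absurd (Finset.mem_univ _) h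
    haveI := LD_finite (k := k) (m • P + B)
    have h5 := hli.fintype_card_le_finrank
    rw [Fintype.card_prod, Fintype.card_fin, Fintype.card_fin] at h5
    exact h5
  -- choose `m` large
  obtain ⟨m, hm⟩ : ∃ m : ℕ, 2 * (gen k K : ℤ) - 2 - degD B < m ∧ degD B + 1 < m := by
    refine ⟨(|2 * (gen k K : ℤ) - 2 - degD B| + |degD B + 1| + 1).toNat, ?_, ?_⟩
    · have h1 := Int.self_le_toNat (|2 * (gen k K : ℤ) - 2 - degD B| + |degD B + 1| + 1)
      have h2 := le_abs_self (2 * (gen k K : ℤ) - 2 - degD B)
      have h3 := abs_nonneg (degD B + 1)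
      omega
    · have h1 := Int.self_le_toNat (|2 * (gen k K : ℤ) - 2 - degD B| + |degD B + 1| + 1)
      have h2 := le_abs_self (degD B + 1)
      have h3 := abs_nonneg (2 * (gen k K : ℤ) - 2 - degD B)
      omega
  have hdeg : degD (m • P + B) = m * degD P + degD B := by rw [degD_add, degD_nsmul]
  have h6 : (m : ℤ) ≤ m * degD P := by nlinarith
  have h7 := ell_eq_of_lt (k := k) hc (D := m • P + B) (by rw [hdeg]; linarith)
  have h8 : (((m + 1) * N : ℕ) : ℤ) ≤ ell (m • P + B) := by exact_mod_cast key m
  rw [h7, hdeg] at h8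
  push_cast at h8
  have h9 : (0 : ℤ) ≤ gen k K := by positivity
  nlinarith

end deg

section closed

theorem isAlgClosed_residue {C : Type*} [Field C] [IsAlgClosed C] (O : ValuationSubring C) :
    IsAlgClosed (ResidueField O) := by
  apply IsAlgClosed.of_exists_root
  intro p hp hirr
  have hl : p ∈ Polynomial.lifts (residue O) := by
    rw [Polynomial.lifts_iff_coeff_lifts]
    intro n
    exact residue_surjective _
  obtain ⟨q, hq, -, hqm⟩ := Polynomial.lifts_and_degree_eq_and_monic hl hp
  have hdeg : (q.map (algebraMap O C)).degree ≠ 0 := by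
    rw [hqm.degree_map]
    have h1 : p.degree = q.degree := by rw [← hq, hqm.degree_map]
    rw [← h1]
    exact (degree_pos_of_irreducible hirr).ne'
  obtain ⟨z, hz⟩ := IsAlgClosed.exists_root _ hdeg
  rw [IsRoot, eval_map] at hz
  have hzi : IsIntegral O z := ⟨q, hqm, hz⟩
  obtain ⟨z', rfl⟩ := IsIntegrallyClosed.isIntegral_iff.1 hzi
  refine ⟨residue O z', ?_⟩
  have h2 : algebraMap O C (q.eval z') = 0 := by
    rw [← hz, eval₂_at_apply]
  have h3 : q.eval z' = 0 := by
    apply Subtype.ext
    exact h2
  rw [← hq, eval_map, eval₂_at_apply, h3, map_zero]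

variable (C : Type*) [NormedField C] [IsUltrametricDist C] [IsAlgClosed C]

instance : IsAlgClosed (Ct C) :=
  isAlgClosed_residue (NormedField.valuation (K := C)).valuationSubring

instance : Infinite (Ct C) := IsAlgClosed.instInfinite

end closed

end Crest.Agent.R013.Red332
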