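import Crest.Agent.R013.Kumv2_275
import Crest.Agent.R013.Ins3_240
import Crest.Agent.R013.Red7_332

/-!
# Row 13, KAPX: the residue field of an extended norm is a function field

`L / K` finite, `W` over `w`: `kap W / kap w` is finite of degree at most `[L : K]`, and a
(separable) function field over `Ct C` if `kap w` is one.
-/

set_option autoImplicit false
set_option linter.all false

noncomputable section

namespace Crest.Agent.R013.Kapx_275

open scoped NNReal
open Crest.Agent.R013.Kumv2_275 Crest.Agent.R013.Red332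

variable {C : Type*} [NormedField C] [IsUltrametricDist C]
variable {K L : Type*} [Field K] [Field L] [Algebra C K] [Algebra K L] [Algebra C L]
  [IsScalarTower C K L]

/-- reductions of sums -/
lemma red_sum {F : Type*} [Field F] [Algebra C F] (w : Nm C F) {ι : Type*} (s : Finset ι)
    (f : ι → F) (hf : ∀ i ∈ s, w.v (f i) ≤ 1) :
    w.v (∑ i ∈ s, f i) ≤ 1 ∧ red w (∑ i ∈ s, f i) = ∑ i ∈ s, red w (f i) := by
  classical
  induction s using Finset.induction_on with
  | empty =>
    refine ⟨by simp, ?_⟩
    rw [Finset.sum_empty, Finset.sum_empty, red_zero]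
  | insert i s hi ih =>
    obtain ⟨h1, h2⟩ := ih fun j hj => hf j (Finset.mem_insert_of_mem hj)
    have h3 := hf i (Finset.mem_insert_self _ _)
    rw [Finset.sum_insert hi, Finset.sum_insert hi]
    exact ⟨(w.v.map_add _ _).trans (max_le h3 h1), by rw [red_add w h3 h1, h2]⟩

/-- lifts of independent residues are independent -/
theorem indep_lift (w : Nm C K) (W : Nm C L) (hW : W.v.comap (algebraMap K L) = w.v)
    {ι : Type*} [Fintype ι] (f : ι → L) (hf : ∀ i, W.v (f i) ≤ 1)
    (hind : ∀ c : ι → kap w, ∑ i, kapMap w W hW (c i) * red W (f i) = 0 → ∀ i, c i = 0) :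
    LinearIndependent K f := by
  classical
  rw [Fintype.linearIndependent_iff]
  intro a ha
  by_contra hcon
  push Not at hcon
  obtain ⟨i0, hi0⟩ := hcon
  obtain ⟨j, -, hj⟩ := Finset.exists_max_image Finset.univ (fun i => w.v (a i))
    ⟨i0, Finset.mem_univ i0⟩
  have hj0 : a j ≠ 0 := by
    intro h0
    have h1 := hj i0 (Finset.mem_univ _)
    rw [h0, map_zero] at h1
    exact hi0 ((map_eq_zero w.v).mp (le_antisymm h1 zero_le))
  have hpos : 0 < w.v (a j) := zero_lt_iff.mpr ((map_ne_zero w.v).mpr hj0)
  have hle : ∀ i, w.v (a i / a j) ≤ 1 := by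
    intro i
    rw [map_div₀]
    exact (div_le_one₀ hpos).mpr (hj i (Finset.mem_univ _))
  have hWv : ∀ a : K, W.v (algebraMap K L a) = w.v a := fun a => DFunLike.congr_fun hW a
  have h1 : ∑ i, algebraMap K L (a i / a j) * f i = 0 := by
    have h2 : ∑ i, algebraMap K L (a i / a j) * f i = (algebraMap K L (a j))⁻¹ * ∑ i, a i • f i := by
      rw [Finset.mul_sum]
      refine Finset.sum_congr rfl fun i _ => ?_
      rw [Algebra.smul_def, map_div₀]
      ring
    rw [h2, ha, mul_zero]
  have h3 := (red_sum W Finset.univ (fun i => algebraMap K L (a i / a j) * f i) (fun i _ => by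
    rw [map_mul, hWv]; exact mul_le_one' (hle i) (hf i))).2
  rw [h1, red_zero] at h3
  have h4 := hind (fun i => red w (a i / a j)) (by
    rw [h3]
    refine Finset.sum_congr rfl fun i _ => ?_
    rw [kapMap_red, red_mul W (by rw [hWv]; exact hle i) (hf i)]) j
  simp only [div_self hj0, red_one] at h4
  exact one_ne_zero h4

/-- **the residue extension is finite** -/
theorem kap_finite [FiniteDimensional K L] (w : Nm C K) (W : Nm C L)
    (hW : W.v.comap (algebraMap K L) = w.v) :
    letI := (kapMap w W hW).toAlgebra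
    FiniteDimensional (kap w) (kap W) ∧
      Module.finrank (kap w) (kap W) ≤ Module.finrank K L := by
  classical
  letI := (kapMap w W hW).toAlgebra
  have key : ∀ s : Finset (kap W), LinearIndependent (kap w) (fun i : s => (i : kap W)) →
      s.card ≤ Module.finrank K L := by
    intro s hs
    choose g hg hgr using fun b : kap W => red_surj W b
    have h1 := indep_lift w W hW (ι := s) (fun i => g i) (fun i => hg i) (by
      intro c hc
      rw [Fintype.linearIndependent_iff] at hs
      refine hs c ?_
      rw [← hc]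
      refine Finset.sum_congr rfl fun i _ => ?_
      rw [hgr, Algebra.smul_def]
      rfl)
    have h2 := h1.fintype_card_le_finrank
    rwa [Fintype.card_coe] at h2
  have h3 : Module.rank (kap w) (kap W) ≤ Module.finrank K L := rank_le key
  have h4 : FiniteDimensional (kap w) (kap W) :=
    Module.rank_lt_aleph0_iff.mp (h3.trans_lt (Cardinal.nat_lt_aleph0 _))
  refine ⟨h4, ?_⟩
  rw [← Module.finrank_eq_rank] at h3
  exact_mod_cast h3

/-- **the field `ff` of an `SSK` for an extended norm** -/
theorem ff_of_ff [IsAlgClosed C] [FiniteDimensional K L] (w : Nm C K) (W : Nm C L)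
    (hW : W.v.comap (algebraMap K L) = w.v)
    (ff : ∃ i : Algebra (RatFunc (Ct C)) (kap w), IsScalarTower (Ct C) (RatFunc (Ct C)) (kap w) ∧
      FiniteDimensional (RatFunc (Ct C)) (kap w) ∧
      Algebra.IsSeparable (RatFunc (Ct C)) (kap w)) :
    ∃ i : Algebra (RatFunc (Ct C)) (kap W), IsScalarTower (Ct C) (RatFunc (Ct C)) (kap W) ∧
      FiniteDimensional (RatFunc (Ct C)) (kap W) ∧
      Algebra.IsSeparable (RatFunc (Ct C)) (kap W) := by
  obtain ⟨i, h1, h2, h3⟩ := ff
  letI := (kapMap w W hW).toAlgebra
  haveI : IsScalarTower (Ct C) (kap w) (kap W) :=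
    IsScalarTower.of_algebraMap_eq fun c => (kapMap_algebraMap w W hW c).symm
  haveI := (kap_finite w W hW).1
  obtain ⟨y, hy, h4, h5⟩ := Ins_240.exists_separating_ext (k := Ct C) (K := kap w) (L := kap W)
  exact ⟨RR20_948.ratAlg y hy, RR20_948.ratAlg_tower y hy, h4, h5⟩

end Crest.Agent.R013.Kapx_275
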