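import Mathlib
import Crest.Agent.R013.Inh11_770
import Crest.Agent.R013.Kapx_275

/-!
# Row 13, leaf C-INH (helper770), part 12: **C-INH without hypotheses**

`Spl.inh : SSK k C L` for every `P : Spl S L`.
-/

set_option autoImplicit false
set_option linter.all false
open WithZero
open scoped NNReal
open Crest.Agent.R013.RR7_948 Crest.Agent.R013.Red332 Crest.Agent.R013.EE809
open Crest.Agent.R013.Cell_408 (FinDef DiscNorm)
open Crest.Agent.R013.SSK_332

namespace Crest.Agent.R013.Inh_770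

variable {k : Type*} [NontriviallyNormedField k] [CompleteSpace k] [IsUltrametricDist k]
variable {C : Type*} [NormedField C] [IsUltrametricDist C] [NormedAlgebra k C]
variable [Algebra.IsAlgebraic k C] [IsAlgClosed C] [hk : Fact (DiscNorm k)]
variable {K : Type*} [Field K] [Algebra C K]
variable {L : Type*} [Field L] [Algebra C L] [Algebra K L] [IsScalarTower C K L]

namespace Spl

variable {S : SSK k C K} (P : Spl S L)
variable [FiniteDimensional K L] [IsGalois K L]

theorem ffL (i : Fin (nV S L)) : FFat (P.nmL i) :=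
  Crest.Agent.R013.Kapx_275.ff_of_ff (S.nm (P.fV i)) (P.nmL i)
    (by ext f; exact congrArg _ (P.nmL_K i f)) (S.ff _)

variable [Algebra (RatFunc C) K] [IsScalarTower C (RatFunc C) K]
  [FiniteDimensional (RatFunc C) K] [Algebra.IsSeparable (RatFunc C) K]

/-- **C-INH**: the inherited semistable structure of a split Galois extension -/
noncomputable def inh : SSK k C L := P.SL P.ffL

/-- **C-INH**, summary -/
theorem exists_inh : ∃ (SL : SSK k C L) (vK : SL.V → S.V) (edE : SL.Ed ≃ S.Ed × (L ≃ₐ[K] L))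
    (dirE : SL.Dir ≃ S.Dir × (L ≃ₐ[K] L)),
    (∀ w (f : K), (SL.nm w).v (algebraMap K L f) = (S.nm (vK w)).v f) ∧
    (∀ (w : Valuation L ℝ≥0) v, (∀ f : K, w (algebraMap K L f) = (S.nm v).v f) →
      ∃ i, (SL.nm i).v = w ∧ vK i = v) ∧
    (∀ y f, SL.em y f = P.ps (dirE y).1 ((dirE y).2 f)) ∧
    (∀ y, (dirE y).1.1 = vK y.1) ∧
    (∀ e, dirE (SL.e0 e) = (S.e0 (edE e).1, (edE e).2)) ∧
    (∀ e, dirE (SL.e1 e) = (S.e1 (edE e).1, (edE e).2)) ∧
    (∀ e, SL.cc e = S.cc (edE e).1) ∧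
    (∀ y, SL.IsDisc y ↔ S.IsDisc (dirE y).1) :=
  ⟨P.inh, P.vK _, P.edE _, P.dirE _, P.vK_nm _, P.exists_V _, P.em_eq _, P.dirE_fst _,
    P.e0_eq _, P.e1_eq _, P.cc_eq _, P.isDisc_iff _⟩

end Spl

end Crest.Agent.R013.Inh_770
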