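import Crest.Agent.R013.A2b_398
import Crest.Agent.R013.Idem_398
import Crest.Agent.R013.ExKum_903
import Crest.Agent.R013.Inh12_770

/-!
# R013 / C-A2, part c (helper398): **(A2)**: the Kummer cover `L = K(h^(1/N))`, its group, the
idempotent, the vertices, Cartier injectivity at every norm over a vertex
-/

set_option autoImplicit false
set_option linter.all false

namespace Crest.Agent.R013.A2_398

open scoped NNReal
open Module IsLocalRing WithZero
open Crest.Agent.R013.Red332 Crest.Agent.R013.Kumv2_275 Crest.Agent.R013.SSK_332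
open Crest.Agent.R013.RR7_948 Crest.Agent.R013.RR8_948 Crest.Agent.R013.RR9_948
open Crest.Agent.R013.RR11_948 Crest.Agent.R013.CLiftN_903
open Crest.Agent.R013.CI3_398 Crest.Agent.R013.CI4_398
open Crest.Agent.R013.GR3_921 Crest.Agent.R013.Cell_408 Crest.Agent.R013.CB1_903
open Crest.Agent.R013.Inh_770 (Spl)

universe u

/-! ### transfer of the residual invariants to a larger field -/

section transfer

variable {C : Type*} [NormedField C] [IsUltrametricDist C]
  {K L Y : Type*} [Field K] [Field L] [Field Y] [Algebra C K] [Algebra K L] [Algebra C L]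
  [IsScalarTower C K L] [Algebra C Y] [Algebra K Y] [Algebra L Y] [IsScalarTower C K Y]
  [IsScalarTower C L Y] [IsScalarTower K L Y] {A : Type*} [Group A]
  (cov₀ : A →* (L ≃ₐ[C] L)) (cov : A →* (Y ≃ₐ[C] Y))
  (hcov : ∀ a f, cov a (algebraMap L Y f) = algebraMap L Y (cov₀ a f))
  (v : Nm C K) (w : Nm C L) (W : Nm C Y) (hw : w.v.comap (algebraMap K L) = v.v)
  (hW : W.v.comap (algebraMap L Y) = w.v) (hWv : W.v.comap (algebraMap K Y) = v.v)
  (hstab : stab cov₀ w ≤ stab cov W)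

include hcov in
theorem thR_kapMap' (b : A) (hb : b ∈ stab cov₀ w) (hb' : b ∈ stab cov W) (z : kap w) :
    thR cov W ⟨b, hb'⟩ (kapMap w W hW z) = kapMap w W hW (thR cov₀ w ⟨b, hb⟩ z) := by
  obtain ⟨f, -, rfl⟩ := red_surj w z
  rw [kapMap_red, thR_red, thR_red, kapMap_red, hcov]

theorem kapMap_comp (z : kap v) : kapMap w W hW (kapMap v w hw z) = kapMap v W hWv z := by
  obtain ⟨f, -, rfl⟩ := red_surj v z
  rw [kapMap_red, kapMap_red, kapMap_red, ← IsScalarTower.algebraMap_apply]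

include hcov hstab in
theorem hinvR_lift (hsurj : Function.Surjective (kapMap w W hW))
    (h : ∀ z : kap w, (∀ b : stab cov₀ w, thR cov₀ w b z = z) → z ∈ Set.range (kapMap v w hw))
    (z : kap W) (hz : ∀ b : stab cov W, thR cov W b z = z) : z ∈ Set.range (kapMap v W hWv) := by
  obtain ⟨z, rfl⟩ := hsurj z
  obtain ⟨x, rfl⟩ := h z (fun b => by
    apply (kapMap w W hW).injective
    rw [← thR_kapMap' cov₀ cov hcov w W hW b.1 b.2 (hstab b.2)]
    exact hz ⟨b.1, hstab b.2⟩)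
  exact ⟨x, (kapMap_comp v w W hw hW hWv x).symm⟩

end transfer

/-! ### `CInj` with the coordinate of `kap v` -/

section coord

variable (p : ℕ) [hp : Fact p.Prime] {C : Type*} [NormedField C] [IsUltrametricDist C]
  [IsAlgClosed (Ct C)] [CharP (Ct C) p]
  {K L : Type*} [Field K] [Field L] [Algebra C K] [Algebra K L] [Algebra C L]
  [IsScalarTower C K L] {A : Type*} [Group A] [Fintype A] (cov : A →* (L ≃ₐ[C] L))
  (v : Nm C K) (w : Nm C L) (hw : w.v.comap (algebraMap K L) = v.v)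
  (hK : ∀ (a : A) (f : K), cov a (algebraMap K L f) = algebraMap K L f)
  (hinvR : ∀ z : kap w, (∀ b : stab cov w, thR cov w b z = z) → z ∈ Set.range (kapMap v w hw))
  (hA : ¬ p ∣ Fintype.card A)
  {Y : L} (hY0 : Y ≠ 0) {ζ : A → C} (hY : ∀ a, cov a Y = algebraMap C L (ζ a) * Y)
  {χ : A →* (Ct C)ˣ} (hχ : ∀ a, ((χ a : (Ct C)ˣ) : Ct C) * rc (ζ a) = 1)
  (hinj : Function.Injective χ)
  {N : ℕ} (hN : N ≠ 0) {h : K} (hYN : Y ^ N = algebraMap K L h)

include hw hK hinvR hA hY0 hY hχ hYN in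
/-- `CInj` for some coordinate of `kap w` -/
theorem exists_cinj (hN : N ≠ 0) (hinj : Function.Injective χ) (hV : VDat p N h v)
    (e : A → Ct C) (s : Finset ℕ) (c : ℕ → Ct C)
    (he : ∀ a, e a = ∑ j ∈ s, c j * (((χ a)⁻¹ : (Ct C)ˣ) : Ct C) ^ p ^ j)
    [iv : Algebra (RatFunc (Ct C)) (kap v)] [IsScalarTower (Ct C) (RatFunc (Ct C)) (kap v)]
    [FiniteDimensional (RatFunc (Ct C)) (kap v)] [Algebra.IsSeparable (RatFunc (Ct C)) (kap v)] :
    ∃ (_ : Algebra (RatFunc (Ct C)) (kap w)) (_ : IsScalarTower (Ct C) (RatFunc (Ct C)) (kap w))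
      (_ : FiniteDimensional (RatFunc (Ct C)) (kap w))
      (_ : Algebra.IsSeparable (RatFunc (Ct C)) (kap w)), M3_359.CInj p w cov e := by
  letI := kalg v w hw
  haveI := kalg_tower v w hw
  have hinvb : ∀ z : kap w, (∀ b, th cov v w hw hK b z = z) →
      z ∈ Set.range (algebraMap (kap v) (kap w)) := fun z hz => hinvR z hz
  haveI := CI3_398.finiteDimensional (th cov v w hw hK) hinvb
  haveI := CI3_398.isGalois (th cov v w hw hK) hinvb
  letI iw : Algebra (RatFunc (Ct C)) (kap w) :=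
    ((kapMap v w hw).comp (algebraMap (RatFunc (Ct C)) (kap v))).toAlgebra
  haveI : IsScalarTower (RatFunc (Ct C)) (kap v) (kap w) :=
    IsScalarTower.of_algebraMap_eq fun _ => rfl
  haveI : IsScalarTower (Ct C) (RatFunc (Ct C)) (kap w) :=
    IsScalarTower.of_algebraMap_eq fun x => by
      rw [← kapMap_algebraMap v w hw x, IsScalarTower.algebraMap_apply (Ct C) (RatFunc (Ct C)) (kap v)]
      rfl
  haveI : FiniteDimensional (RatFunc (Ct C)) (kap w) :=
    FiniteDimensional.trans (RatFunc (Ct C)) (kap v) (kap w)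
  haveI : Algebra.IsSeparable (RatFunc (Ct C)) (kap w) :=
    Algebra.IsSeparable.trans (RatFunc (Ct C)) (kap v) (kap w)
  exact ⟨iw, inferInstance, inferInstance, inferInstance,
    cinj p cov v w hw hK hinvR hA hY0 hY hχ hYN hN hinj hV e s c he (fun _ => rfl)⟩

end coord

/-! ### (A2) -/

/-- the group of `L / K` acting over `C` -/
def resC (C K L : Type*) [Field C] [Field K] [Field L] [Algebra C K] [Algebra K L]
    [Algebra C L] [IsScalarTower C K L] : (L ≃ₐ[K] L) →* (L ≃ₐ[C] L) where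
  toFun σ := σ.restrictScalars C
  map_one' := rfl
  map_mul' _ _ := rfl

section data

variable (p : ℕ) [hp : Fact p.Prime] {k : Type*} [NontriviallyNormedField k] [CompleteSpace k]
  [IsUltrametricDist k] {C : Type*} [NormedField C] [IsUltrametricDist C] [NormedAlgebra k C]
  [Algebra.IsAlgebraic k C] [IsAlgClosed C] [hk : Fact (DiscNorm k)]

/-- **(A2)**, the data -/
structure A2Data {K : Type*} [Field K] [Algebra C K] (S : SSK k C K) (L : Type*) [Field L]
    [Algebra C L] [Algebra K L] [IsScalarTower C K L] [FiniteDimensional K L] [IsGalois K L] where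
  /-- exponent -/
  N : ℕ
  N_ne : N ≠ 0
  N_cop : N.Coprime p
  /-- the function -/
  h : K
  h_ne : h ≠ 0
  h_div : ∀ P : Pl C K, ∃ m : ℤ, P.v h = exp (N * m)
  h_od : ∀ d : S.Dir, ∃ m : ℤ, Red332.od (S.nm d.1) d.2 h = N * m
  /-- its root -/
  y : L
  y_pow : y ^ N = algebraMap K L h
  y_top : IntermediateField.adjoin K {y} = ⊤
  /-- Kummer character -/
  ζ : (L ≃ₐ[K] L) →* Cˣ
  ζ_y : ∀ σ, σ y = algebraMap C L (ζ σ) * y
  ζ_inj : Function.Injective ζ
  vdat : ∀ v : S.V, VDat p N h (S.nm v)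
  card : ¬ p ∣ Fintype.card (L ≃ₐ[K] L)
  finrank : ¬ p ∣ Module.finrank K L
  cyc : IsCyclic (L ≃ₐ[K] L)
  unr : UnrPl C K L
  unrEv : Unr10_957.UnrEv C K L
  /-- split over the cells -/
  spl : Spl S L
  /-- residual Kummer character, inverted -/
  χ : (L ≃ₐ[K] L) →* (Ct C)ˣ
  χ_ζ : ∀ σ, ((χ σ : (Ct C)ˣ) : Ct C) * rc ((ζ σ : Cˣ) : C) = 1
  χ_inj : Function.Injective χ
  /-- the idempotent -/
  c : (L ≃ₐ[K] L) → ℤ_[p]
  /-- length of the Frobenius orbit -/
  f : ℕ
  f_pos : 0 < f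
  c_one : (Fintype.card (L ≃ₐ[K] L) : ℤ_[p]) * c 1 = f
  c_idem : ∀ a, ∑ b, c b * c (b⁻¹ * a) = c a
  c_comm : ∀ a b, c (a * b) = c (b * a)
  c_sum : ∀ (B : Subgroup (L ≃ₐ[K] L)) [Fintype B], (∃ b ∈ B, χ b ≠ 1) →
    ∀ a, ∑ b : B, c (a * b) = 0
  c_red : ∀ (φ : ZMod p →+* Ct C) (a), φ (PadicInt.toZMod (c a)) =
    (Fintype.card (L ≃ₐ[K] L) : Ct C)⁻¹ *
      ∑ j ∈ Finset.range f, (((χ a)⁻¹ : (Ct C)ˣ) : Ct C) ^ p ^ j

end data

section thms

variable {p : ℕ} [hp : Fact p.Prime] {k : Type*} [NontriviallyNormedField k] [CompleteSpace k]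
  [IsUltrametricDist k] {C : Type*} [NormedField C] [IsUltrametricDist C] [NormedAlgebra k C]
  [Algebra.IsAlgebraic k C] [IsAlgClosed C] [hk : Fact (DiscNorm k)] [CharP (Ct C) p]
  {K : Type*} [Field K] [Algebra C K] {S : SSK k C K} {L : Type*} [Field L]
  [Algebra C L] [Algebra K L] [IsScalarTower C K L] [FiniteDimensional K L] [IsGalois K L]
  (D : A2Data p S L)

include S in
theorem exists_norm_ne : ∃ c : C, c ≠ 0 ∧ ‖c‖ ≠ 1 := by
  obtain ⟨x, hx0, hx1⟩ := NormedField.exists_norm_lt_one k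
  refine ⟨algebraMap k C x, ?_, ?_⟩
  · rw [Ne, map_eq_zero, ← norm_eq_zero]
    exact hx0.ne'
  · rw [norm_algebraMap']
    exact hx1.ne

namespace A2Data

include D in
theorem y_ne : D.y ≠ 0 := by
  intro h
  have h1 := D.y_pow
  rw [h, zero_pow D.N_ne] at h1
  exact D.h_ne ((map_eq_zero _).mp h1.symm)

include D in
theorem c_ne : D.c ≠ 0 := by
  intro h
  have h1 := D.c_one
  rw [h, Pi.zero_apply, mul_zero] at h1
  exact D.f_pos.ne' (by exact_mod_cast h1.symm)

include D in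
/-- the residual invariants of the stabiliser -/
theorem hinvR (v : S.V) (w : Nm C L) (hw : w.v.comap (algebraMap K L) = (S.nm v).v) (z : kap w)
    (hz : ∀ b : stab (resC C K L) w, thR (resC C K L) w b z = z) :
    z ∈ Set.range (kapMap (S.nm v) w hw) := by
  refine th_inv (resC C K L) (S.nm v) w hw ?_ (exists_norm_ne (S := S)) (hA' p D.card) z hz
  intro f hf
  exact (IsGalois.mem_range_algebraMap_iff_fixed (F := K) (E := L) f).mpr hf

include D in
/-- **the dichotomy at a norm over a vertex** -/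
theorem dichotomy (v : S.V) (w : Nm C L) (hw : w.v.comap (algebraMap K L) = (S.nm v).v) :
    (HasGen (Ct C) (kap (S.nm v)) 0 ∧
      ∀ σ : L ≃ₐ[K] L, (∀ f, w.v (σ f) = w.v f) → σ = 1) ∨
    ∀ (B : Subgroup (L ≃ₐ[K] L)) [Fintype B], (∀ σ, σ ∈ B ↔ ∀ f, w.v (σ f) = w.v f) →
      ∀ a, ∑ b : B, D.c (a * b) = 0 := by
  rcases stab_dichotomy p (resC C K L) (S.nm v) w hw (fun a f => a.commutes f)
    (D.hinvR v w hw) D.y_ne (ζ := fun a => ((D.ζ a : Cˣ) : C)) D.ζ_y D.χ_ζ D.y_pow D.N_ne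
    D.χ_inj (D.vdat v) with h | h
  · exact Or.inl ⟨h.1, fun σ hσ => h.2 σ hσ⟩
  · refine Or.inr ?_
    intro B _ hB a
    apply D.c_sum
    obtain ⟨b, hb, hb1⟩ := h
    exact ⟨b, (hB b).mpr hb, hb1⟩

include D in
/-- **Cartier injectivity at every norm over a vertex**, of every `Y ⊇ L` -/
theorem cinj {Y : Type*} [Field Y] [Algebra C Y] [Algebra K Y] [Algebra L Y]
    [IsScalarTower C K Y] [IsScalarTower C L Y] [IsScalarTower K L Y]
    (cov : (L ≃ₐ[K] L) →* (Y ≃ₐ[C] Y))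
    (hcov : ∀ a f, cov a (algebraMap L Y f) = algebraMap L Y (a f))
    (v : S.V) (w : Nm C L) (hw : w.v.comap (algebraMap K L) = (S.nm v).v) (W : Nm C Y)
    (hW : W.v.comap (algebraMap L Y) = w.v) (hsurj : Function.Surjective (kapMap w W hW))
    (hstab : ∀ a : L ≃ₐ[K] L, (∀ f, w.v (a f) = w.v f) → ∀ f, W.v (cov a f) = W.v f)
    (φ : ZMod p →+* Ct C) :
    ∃ (_ : Algebra (RatFunc (Ct C)) (kap W)) (_ : IsScalarTower (Ct C) (RatFunc (Ct C)) (kap W))
      (_ : FiniteDimensional (RatFunc (Ct C)) (kap W))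
      (_ : Algebra.IsSeparable (RatFunc (Ct C)) (kap W)),
      M3_359.CInj p W cov (fun a => φ (PadicInt.toZMod (D.c a))) := by
  obtain ⟨i, j, f, s⟩ := S.ff v
  have hWv : W.v.comap (algebraMap K Y) = (S.nm v).v := by
    rw [← hw, ← hW, IsScalarTower.algebraMap_eq K L Y, Valuation.comap_comp]
  have hK : ∀ (a : L ≃ₐ[K] L) (f : K), cov a (algebraMap K Y f) = algebraMap K Y f := by
    intro a f
    rw [IsScalarTower.algebraMap_apply K L Y, hcov, AlgEquiv.commutes]
  have hY0 : algebraMap L Y D.y ≠ 0 := by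
    rw [Ne, map_eq_zero]
    exact D.y_ne
  have hY : ∀ a, cov a (algebraMap L Y D.y) =
      algebraMap C Y ((D.ζ a : Cˣ) : C) * algebraMap L Y D.y := by
    intro a
    rw [hcov, D.ζ_y, map_mul, ← IsScalarTower.algebraMap_apply]
  have hYN : (algebraMap L Y D.y) ^ D.N = algebraMap K Y D.h := by
    rw [← map_pow, D.y_pow, ← IsScalarTower.algebraMap_apply]
  have hinvR := hinvR_lift (resC C K L) cov hcov (S.nm v) w W hw hW hWv hstab hsurj
    (D.hinvR v w hw)
  refine exists_cinj p cov (S.nm v) W hWv hK hinvR D.card hY0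
    (ζ := fun a => ((D.ζ a : Cˣ) : C)) hY D.χ_ζ hYN D.N_ne D.χ_inj (D.vdat v) _
    (Finset.range D.f) (fun _ => (Fintype.card (L ≃ₐ[K] L) : Ct C)⁻¹) ?_
  intro a
  rw [D.c_red, Finset.mul_sum]

end A2Data

end thms

section final

variable (p : ℕ) [hp : Fact p.Prime] {k : Type*} [NontriviallyNormedField k] [CompleteSpace k]
  [IsUltrametricDist k] {C : Type*} [NormedField C] [IsUltrametricDist C] [NormedAlgebra k C]
  [Algebra.IsAlgebraic k C] [IsAlgClosed C] [hk : Fact (DiscNorm k)] [CharZero C]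
  [NormedAlgebra ℚ_[p] C] [Algebra.IsAlgebraic ℚ_[p] C]

/-- **(A2)** -/
theorem a2 {K : Type u} [Field K] [Algebra C K] [Algebra (RatFunc C) K]
    [IsScalarTower C (RatFunc C) K] [FiniteDimensional (RatFunc C) K]
    [Algebra.IsSeparable (RatFunc C) K] (S : SSK k C K) :
    ∃ (L : Type u) (_ : Field L) (_ : Algebra C L) (_ : Algebra K L) (_ : IsScalarTower C K L)
      (_ : FiniteDimensional K L) (_ : IsGalois K L), Nonempty (A2Data p S L) := by
  classical
  haveI := TP14_928.charP_Ct (C := C) p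
  letI := TP14_928.algCt (C := C) p
  haveI := TP14_928.isAlgebraic_Ct (C := C) p
  have hnorm := norm_natCast_of_coprime (C := C) p
  obtain ⟨N, h, hN0, hNp, hh, hdiv, hod, hv⟩ := exists_data p S (fun N hN =>
    RZ_365.inLift (C := C) hk.out hnorm K _ (hasGen_gen C K) N hN)
  obtain ⟨L, i1, i2, i3, i4, i5, i6, y, ζ, hy, htop, hinj, hζ, hζy, hfin, hcyc, hunr, hev, ⟨P⟩⟩ :=
    ExKum_903.exists_kum S N (hnorm N hNp) h hh hdiv hod
  have hfr : ¬ p ∣ Module.finrank K L := by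
    intro h1
    have h2 := (Nat.Prime.coprime_iff_not_dvd hp.out).mp hNp.symm
    exact h2 (h1.trans hfin)
  have hcard : ¬ p ∣ Fintype.card (L ≃ₐ[K] L) := by
    rwa [← Nat.card_eq_fintype_card, IsGalois.card_aut_eq_finrank]
  have hy0 : y ≠ 0 := by
    rintro rfl
    rw [zero_pow hN0] at hy
    exact hh ((map_eq_zero _).mp hy.symm)
  obtain ⟨χ, hχ, hχ1⟩ := exists_chi p (resC C K L) (ζ := fun a => ((ζ a : Cˣ) : C)) hcard hy0 hζy
  have hχinj : Function.Injective χ := by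
    rw [injective_iff_map_eq_one]
    intro a ha
    apply hinj
    rw [map_one]
    exact Units.ext (hχ1 a ha)
  obtain ⟨c, f, hf, c1, c2, c3, c4, c5⟩ := Idem_398.exists_idem (p := p) hcard χ
  exact ⟨L, i1, i2, i3, i4, i5, i6, ⟨{
    N := N
    N_ne := hN0
    N_cop := hNp
    h := h
    h_ne := hh
    h_div := hdiv
    h_od := hod
    y := y
    y_pow := hy
    y_top := htop
    ζ := ζ
    ζ_y := hζy
    ζ_inj := hinj
    vdat := hv
    card := hcard
    finrank := hfr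
    cyc := hcyc
    unr := hunr
    unrEv := hev
    spl := P
    χ := χ
    χ_ζ := hχ
    χ_inj := hχinj
    c := c
    f := f
    f_pos := hf
    c_one := c1
    c_idem := c2
    c_comm := c3
    c_sum := fun B _ hB a => c4 B hB a
    c_red := fun φ a => by
      rw [← c5 a]
      congr 1
      exact Subsingleton.elim _ _ }⟩⟩

end final

end Crest.Agent.R013.A2_398
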