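import Crest.Agent.R013.A2a_275
import Crest.Agent.R013.A2b_275

/-!
Row 13, part A, existence step (E) of #2717: if for every finite `L ⊂ M` fixed by `τ` the element
`z` (with `z ^ l ∈ K`) is not near `L` at some norm of `L`, then `τ` fixes a point of `M`.
-/

set_option autoImplicit false

noncomputable section

namespace Crest.Agent.R013.A2d_275

open Crest.Agent.R013.A2a_275 Crest.Agent.R013.A2b_275
open scoped NNReal ENNReal Topology
open Polynomial

/-- A root of the image of a polynomial which splits in `Ω` is in the range of `i : Ω → E`. -/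
lemma mem_range_of_root {K Ω E : Type*} [Field K] [Field Ω] [Field E] [Algebra K Ω] (i : Ω →+* E)
    (P : K[X]) (hP0 : P ≠ 0) (hsplit : (P.map (algebraMap K Ω)).Splits) (y : E)
    (hy : Polynomial.eval₂ (i.comp (algebraMap K Ω)) y P = 0) : ∃ b : Ω, i b = y := by
  have hroots := hsplit.eq_prod_roots
  have hev2 : Polynomial.eval₂ i y (P.map (algebraMap K Ω)) = 0 := by
    rw [Polynomial.eval₂_map]; exact hy
  rw [hroots, Polynomial.eval₂_mul, Polynomial.eval₂_C, mul_eq_zero] at hev2
  rcases hev2 with h | h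
  · exfalso
    have h3 : (P.map (algebraMap K Ω)).leadingCoeff = 0 := by
      apply i.injective
      rw [h, map_zero]
    rw [Polynomial.leadingCoeff_eq_zero, Polynomial.map_eq_zero] at h3
    exact hP0 h3
  · rw [← Polynomial.coe_eval₂RingHom, map_multiset_prod, Multiset.prod_eq_zero_iff] at h
    simp only [Multiset.map_map, Multiset.mem_map, Function.comp_apply] at h
    obtain ⟨b, -, hb⟩ := h
    refine ⟨b, ?_⟩
    rw [Polynomial.coe_eval₂RingHom, Polynomial.eval₂_sub, Polynomial.eval₂_X,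
      Polynomial.eval₂_C, sub_eq_zero] at hb
    exact hb.symm

/-- If `z ∈ M` is not near `L` for any extension of `w`, then some extension of `w` to `M` is
preserved by an automorphism over `L` moving `z`. -/
theorem exists_ext_aut {L M : Type*} [Field L] [Field M] [Algebra L M] [CharZero L] [Normal L M]
    (w : Valuation L ℝ≥0) (hnt : ∃ a : L, 1 < w a) (z : M) (hz0 : z ≠ 0)
    (hz : ∀ W : Valuation M ℝ≥0, W.comap (algebraMap L M) = w →
      ∀ u : L, W z ≤ W (z - algebraMap L M u)) :
    ∃ W : Valuation M ℝ≥0, W.comap (algebraMap L M) = w ∧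
      ∃ g : M ≃ₐ[L] M, (∀ a, W (g a) = W a) ∧ g z ≠ z := by
  classical
  let _ := nnf w hnt
  obtain ⟨j, hj⟩ := exists_j (Ω := M) w
  set W := Wof w hnt j with hW
  have hWc : W.comap (algebraMap L M) = w := Wof_comap w hnt j hj
  have hjinj : Function.Injective j := j.injective
  have hchar : CharZero (Cpl w) := charZero_of_injective_ringHom (toCpl w).injective
  have hgal : IsGalois (Cpl w) (AlgebraicClosure (Cpl w)) :=
    IsAlgClosure.isGalois (Cpl w) (AlgebraicClosure (Cpl w))
  -- `j z` is not in the completion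
  have hnot : j z ∉ Set.range (algebraMap (Cpl w) (AlgebraicClosure (Cpl w))) := by
    rintro ⟨e, he⟩
    have he0 : e ≠ 0 := by
      rintro rfl
      rw [map_zero] at he
      exact hz0 (hjinj (by rw [← he, map_zero]))
    obtain ⟨_, ⟨u, rfl⟩, hu⟩ := Metric.mem_closure_iff.mp (denseRange_toCpl w e) ‖e‖
      (norm_pos_iff.mpr he0)
    have h1 := hz W hWc u
    have h2 : ((W z : ℝ≥0) : ℝ) = ‖e‖ := by
      rw [hW, coe_Wof, ← he, spectralNorm_extends]
    have h3 : ((W (z - algebraMap L M u) : ℝ≥0) : ℝ) = ‖e - toCpl w u‖ := by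
      rw [hW, coe_Wof, map_sub, hj, ← he, ← map_sub, spectralNorm_extends]
    have h4 : ‖e‖ ≤ ‖e - toCpl w u‖ := by
      rw [← h2, ← h3]
      exact_mod_cast h1
    rw [dist_eq_norm] at hu
    exact absurd h4 (not_le.mpr hu)
  have hex : ∃ h : AlgebraicClosure (Cpl w) ≃ₐ[Cpl w] AlgebraicClosure (Cpl w), h (j z) ≠ j z := by
    by_contra hcon
    push Not at hcon
    exact hnot ((InfiniteGalois.mem_range_algebraMap_iff_fixed (k := Cpl w) (j z)).mpr hcon)
  obtain ⟨h, hh⟩ := hex
  have hmem : ∀ a : M, ∃ b : M, j b = h (j a) := by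
    intro a
    refine mem_range_of_root j (minpoly L a)
      (minpoly.ne_zero (Normal.isIntegral inferInstance a)) (Normal.splits inferInstance a) _ ?_
    have h1 : Polynomial.eval₂ (j.comp (algebraMap L M)) (h (j a)) (minpoly L a) =
        ((h : AlgebraicClosure (Cpl w) →+* AlgebraicClosure (Cpl w)).comp j)
          (Polynomial.eval₂ (algebraMap L M) a (minpoly L a)) := by
      rw [Polynomial.hom_eval₂]
      congr 1
      ext c
      simp only [RingHom.comp_apply, hj]
      exact (h.commutes _).symm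
    rw [h1]
    have h2 : Polynomial.eval₂ (algebraMap L M) a (minpoly L a) = 0 := minpoly.aeval L a
    rw [h2, map_zero]
  choose t ht using hmem
  let tA : M →ₐ[L] M :=
    { toFun := t
      map_one' := hjinj (by rw [ht, map_one, map_one])
      map_mul' := fun x y => hjinj (by rw [ht, map_mul, map_mul, map_mul, ht, ht])
      map_zero' := hjinj (by rw [ht, map_zero, map_zero])
      map_add' := fun x y => hjinj (by rw [ht, map_add, map_add, map_add, ht, ht])
      commutes' := fun c => hjinj (by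
        rw [ht, hj]
        exact h.commutes _) }
  have halg : Algebra.IsAlgebraic L M := inferInstance
  have hbij : Function.Bijective tA := Algebra.IsAlgebraic.algHom_bijective tA
  refine ⟨W, hWc, AlgEquiv.ofBijective tA hbij, ?_, ?_⟩
  · intro a
    apply NNReal.coe_injective
    change ((W (t a) : ℝ≥0) : ℝ) = _
    rw [hW, coe_Wof, coe_Wof, ht, ← spectralNorm_eq_of_equiv]
  · intro hcon
    apply hh
    rw [← ht]
    exact congrArg j hcon

/-- Limits of points along an ultrafilter are points. -/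
lemma isPt_of_tendsto {p : ℕ} [Fact p.Prime] {k L ι : Type*} [Field k] [Algebra ℚ_[p] k] [Field L]
    [Algebra k L] (U : Ultrafilter ι) (ψ : ι → L → ℝ≥0∞) (hψ : ∀ i, IsPt p k L (ψ i))
    (Φ : L → ℝ≥0∞) (hlim : ∀ a, Filter.Tendsto (fun i => ψ i a) U (𝓝 (Φ a))) :
    IsPt p k L Φ := by
  have hne_top : ∀ a, Φ a ≠ ∞ → ∀ᶠ i in (U : Filter ι), ψ i a ≠ ∞ := fun a ha =>
    (hlim a).eventually_ne ha
  have hne_zero : ∀ a, Φ a ≠ 0 → ∀ᶠ i in (U : Filter ι), ψ i a ≠ 0 := fun a ha =>
    (hlim a).eventually_ne ha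
  have hor : ∀ a b, (Φ a ≠ 0 ∨ Φ b ≠ ∞) → ∀ᶠ i in (U : Filter ι), (ψ i a ≠ 0 ∨ ψ i b ≠ ∞) := by
    intro a b hab
    rcases hab with hab | hab
    · exact (hne_zero a hab).mono fun i hi => Or.inl hi
    · exact (hne_top b hab).mono fun i hi => Or.inr hi
  refine ⟨?_, ?_, ?_, ?_⟩
  · intro a b
    refine le_of_tendsto_of_tendsto (hlim (a + b)) ((hlim a).max (hlim b)) ?_
    exact Filter.Eventually.of_forall fun i => (hψ i).add a b
  · intro a b h1 h2
    refine tendsto_nhds_unique (hlim (a * b)) ?_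
    refine (ENNReal.Tendsto.mul (hlim a) h1 (hlim b) h2).congr' ?_
    filter_upwards [hor a b h1, hor b a h2] with i h3 h4
    exact ((hψ i).mul a b h3 h4).symm
  · intro a ha0
    refine tendsto_nhds_unique (hlim a⁻¹) ?_
    refine ((continuous_inv.tendsto (Φ a)).comp (hlim a)).congr' ?_
    exact Filter.Eventually.of_forall fun i => ((hψ i).inv a ha0).symm
  · intro c
    refine tendsto_nhds_unique (hlim _) ?_
    refine tendsto_const_nhds.congr' ?_
    exact Filter.Eventually.of_forall fun i => ((hψ i).ext c).symm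

/-- Finite level: an automorphism fixing the `τ`-invariants and moving `z` generates. -/
lemma exists_zpow {K M : Type*} [Field K] [Field M] [Algebra K M]
    (l : ℕ) (hl : l.Prime) (τ g : M ≃ₐ[K] M) (N : IntermediateField K M) [FiniteDimensional K N]
    [IsGalois K N] (m : ℕ) (hm : ∀ a ∈ N, (τ ^ l ^ m) a = a) (z : M) (hzN : z ∈ N)
    (hτl : (τ ^ l) z = z) (hg : ∀ a ∈ N, τ a = a → g a = a) (hgz : g z ≠ z) :
    ∃ t : ℤ, ∀ a ∈ N, τ a = (g ^ t) a := by
  classical
  let r := AlgEquiv.restrictNormalHom (F := K) (K₁ := M) N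
  have hr : ∀ (σ : M ≃ₐ[K] M) (a : N), ((r σ a : N) : M) = σ a := fun σ a =>
    AlgEquiv.restrictNormal_commutes σ N a
  have h1 : r g ∈ Subgroup.zpowers (r τ) := by
    rw [← IntermediateField.fixingSubgroup_fixedField (Subgroup.zpowers (r τ)),
      IntermediateField.mem_fixingSubgroup_iff]
    intro x hx
    apply Subtype.ext
    rw [hr]
    refine hg x x.2 ?_
    rw [IntermediateField.mem_fixedField_iff] at hx
    have h2 := hx (r τ) (Subgroup.mem_zpowers _)
    rw [← hr, h2]
  obtain ⟨j, hj⟩ := Subgroup.mem_zpowers_iff.mp h1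
  -- `l` does not divide `j`
  have hlj : ¬ (l : ℤ) ∣ j := by
    rintro ⟨i, rfl⟩
    apply hgz
    have h3 : r g ⟨z, hzN⟩ = ⟨z, hzN⟩ := by
      rw [← hj, zpow_mul, zpow_natCast]
      have h4 : (r τ ^ l) ⟨z, hzN⟩ = ⟨z, hzN⟩ := by
        apply Subtype.ext
        rw [← map_pow, hr]
        exact hτl
      have h5 : r τ ^ l ∈ MulAction.stabilizer (N ≃ₐ[K] N) (⟨z, hzN⟩ : N) := h4
      exact Subgroup.zpow_mem _ h5 i
    have h6 := congrArg (Subtype.val : N → M) h3
    rw [hr] at h6
    exact h6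
  -- the order of `r τ` divides `l ^ m`
  have hord : (r τ) ^ (l ^ m) = 1 := by
    apply AlgEquiv.ext
    intro a
    apply Subtype.ext
    rw [← map_pow, hr]
    exact hm a a.2
  have hcop : IsCoprime j ((l ^ m : ℕ) : ℤ) := by
    rw [Nat.cast_pow]
    refine IsCoprime.pow_right ?_
    exact ((Prime.coprime_iff_not_dvd (Nat.prime_iff_prime_int.mp hl)).mpr hlj).symm
  obtain ⟨u, v, huv⟩ := hcop
  refine ⟨u, ?_⟩
  have h7 : r τ = r g ^ u := by
    rw [← hj, ← zpow_mul]
    have h8 : (r τ) ^ (u * j + v * ((l ^ m : ℕ) : ℤ)) = r τ := by rw [huv, zpow_one]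
    rw [zpow_add, mul_comm v, zpow_mul _ ((l ^ m : ℕ) : ℤ) v, zpow_natCast, hord, one_zpow,
      mul_one] at h8
    rw [mul_comm j u]
    exact h8.symm
  intro a ha
  have h9 := congrArg (fun σ : N ≃ₐ[K] N => ((σ ⟨a, ha⟩ : N) : M)) h7
  simp only [← map_zpow] at h9
  rw [hr, hr] at h9
  exact h9

/-- **Existence of a `τ`-fixed point.** -/
theorem exists_tau_fixed {p : ℕ} [Fact p.Prime] {k : Type*} [Field k] [Algebra ℚ_[p] k]
    {K M : Type*} [Field K] [Field M] [CharZero K] [Algebra K M] [Algebra k K] [Algebra k M]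
    [IsScalarTower k K M] [IsGalois K M]
    (l : ℕ) (hl : l.Prime) (τ : M ≃ₐ[K] M) (hpro : ∀ a, ∃ n, (τ ^ l ^ n) a = a)
    (z : M) (hz0 : z ≠ 0) (hτl : (τ ^ l) z = z)
    (hyp : ∀ L : IntermediateField K M, FiniteDimensional K L → (∀ a ∈ L, τ a = a) →
      ∃ L' : IntermediateField K M, L ≤ L' ∧
        ∃ w : Valuation L' ℝ≥0, (∀ c : ℚ_[p], w (algebraMap k L' (algebraMap ℚ_[p] k c)) = ‖c‖₊) ∧
          ∀ W : Valuation M ℝ≥0, W.comap (algebraMap L' M) = w →
            ∀ u : L', W z ≤ W (z - algebraMap L' M u)) :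
    ∃ φ : M → ℝ≥0∞, IsPt p k M φ ∧ ∀ a, φ (τ a) = φ a := by
  classical
  -- the index set
  let ι := {L : IntermediateField K M // FiniteDimensional K L ∧ ∀ a ∈ L, τ a = a}
  have hfix : ∀ L : IntermediateField K M, (∀ a ∈ L, τ a = a) ↔
      L ≤ IntermediateField.fixedField (Subgroup.zpowers τ) := by
    intro L
    constructor
    · intro h a ha
      rw [IntermediateField.mem_fixedField_iff]
      intro f hf
      have h1 : τ ∈ MulAction.stabilizer (M ≃ₐ[K] M) a := h a ha
      have h2 : Subgroup.zpowers τ ≤ MulAction.stabilizer (M ≃ₐ[K] M) a :=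
        (Subgroup.zpowers_le).mpr h1
      exact h2 hf
    · intro h a ha
      exact (IntermediateField.mem_fixedField_iff _ _).mp (h ha) τ (Subgroup.mem_zpowers τ)
  have hne : Nonempty ι := ⟨⟨⊥, inferInstance, by
    rw [hfix]; exact bot_le⟩⟩
  have hdir : IsDirectedOrder ι := ⟨fun L₁ L₂ => by
    have h1 := L₁.2.1
    have h2 := L₂.2.1
    refine ⟨⟨L₁.1 ⊔ L₂.1, IntermediateField.finiteDimensional_sup _ _, ?_⟩,
      show L₁.1 ≤ L₁.1 ⊔ L₂.1 from le_sup_left, show L₂.1 ≤ L₁.1 ⊔ L₂.1 from le_sup_right⟩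
    rw [hfix]
    exact sup_le ((hfix _).mp L₁.2.2) ((hfix _).mp L₂.2.2)⟩
  -- choose norms and automorphisms
  have hch : ∀ i : ι, ∃ W : Valuation M ℝ≥0,
      (∀ c : ℚ_[p], W (algebraMap k M (algebraMap ℚ_[p] k c)) = ‖c‖₊) ∧
      ∃ g : M ≃ₐ[K] M, (∀ a ∈ i.1, g a = a) ∧ (∀ a, W (g a) = W a) ∧ g z ≠ z := by
    intro i
    obtain ⟨L', hL', w, hw, hNP⟩ := hyp i.1 i.2.1 i.2.2
    have hchar : CharZero L' := charZero_of_injective_algebraMap (algebraMap K L').injective
    have hnt : ∃ a : L', 1 < w a := by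
      refine ⟨algebraMap k L' (algebraMap ℚ_[p] k ((p : ℚ_[p])⁻¹)), ?_⟩
      rw [hw, nnnorm_inv]
      have h1 := Padic.norm_p_lt_one (p := p)
      have h2 : ‖(p : ℚ_[p])‖₊ < 1 := by exact_mod_cast h1
      have h3 : 0 < ‖(p : ℚ_[p])‖₊ := by
        rw [nnnorm_pos]
        exact_mod_cast (Fact.out : p.Prime).ne_zero
      exact (one_lt_inv₀ h3).mpr h2
    have hN : Normal L' M := inferInstance
    obtain ⟨W, hWc, g, hg, hgz⟩ := exists_ext_aut w hnt z hz0 hNP
    refine ⟨W, ?_, g.restrictScalars K, ?_, hg, hgz⟩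
    · intro c
      have h1 : W (algebraMap L' M (algebraMap k L' (algebraMap ℚ_[p] k c))) =
          w (algebraMap k L' (algebraMap ℚ_[p] k c)) := by
        rw [← hWc]; rfl
      have htow : IsScalarTower k L' M := IsScalarTower.of_algebraMap_eq fun _ => rfl
      rw [IsScalarTower.algebraMap_apply k L' M, h1, hw]
    · intro a ha
      exact g.commutes ⟨a, hL' ha⟩
  choose W hWp g hgfix hgW hgz using hch
  let U : Ultrafilter ι := Ultrafilter.of Filter.atTop
  have hU : (U : Filter ι) ≤ Filter.atTop := Ultrafilter.of_le _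
  -- eventually `W i (τ a) = W i a`
  have hev : ∀ a : M, ∀ᶠ i in (U : Filter ι), W i (τ a) = W i a := by
    intro a
    apply hU
    -- a finite Galois level containing `a` and `z`
    let N0 : IntermediateField K M := IntermediateField.adjoin K {a, z}
    have hN0 : FiniteDimensional K N0 := by
      refine IntermediateField.finiteDimensional_adjoin ?_
      intro x _
      exact Algebra.IsIntegral.isIntegral x
    let N : IntermediateField K M := IntermediateField.normalClosure K N0 M
    have hNfd : FiniteDimensional K N := normalClosure.is_finiteDimensional K N0 M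
    have hNgal : IsGalois K N := IsGalois.normalClosure K N0 M
    have hN0N : N0 ≤ N := N0.le_normalClosure
    have haN : a ∈ N := hN0N (IntermediateField.subset_adjoin K _ (by simp))
    have hzN : z ∈ N := hN0N (IntermediateField.subset_adjoin K _ (by simp))
    -- a common power
    have hm : ∃ m, ∀ b ∈ N, (τ ^ l ^ m) b = b := by
      obtain ⟨S, hS⟩ := (IntermediateField.essFiniteType_iff (K := N)).mp inferInstance
      choose n hn using hpro
      let m := S.sup n
      refine ⟨m, ?_⟩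
      have h1 : ∀ x ∈ (S : Set M), (τ ^ l ^ m) • x = x := by
        intro x hx
        have h2 : n x ≤ m := Finset.le_sup (f := n) hx
        obtain ⟨d, hd⟩ := Nat.exists_eq_add_of_le h2
        have h3 : (τ ^ l ^ n x) ∈ MulAction.stabilizer (M ≃ₐ[K] M) x := hn x
        have h4 : τ ^ l ^ m = (τ ^ l ^ n x) ^ (l ^ d) := by
          rw [← pow_mul, ← pow_add, hd]
        rw [h4]
        exact Subgroup.pow_mem _ h3 _
      intro b hb
      rw [← hS] at hb
      exact (IntermediateField.forall_mem_adjoin_smul_eq_self_iff K (S := (S : Set M))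
        (τ ^ l ^ m)).mpr h1 b hb
    obtain ⟨m, hm⟩ := hm
    let i0 : ι := ⟨N ⊓ IntermediateField.fixedField (Subgroup.zpowers τ), by
      exact FiniteDimensional.of_injective
        (IntermediateField.inclusion (inf_le_left :
          N ⊓ IntermediateField.fixedField (Subgroup.zpowers τ) ≤ N)).toLinearMap
        (fun x y hxy => Subtype.ext (congrArg (Subtype.val : N → M) hxy)), by
      rw [hfix]; exact inf_le_right⟩
    refine (Filter.eventually_ge_atTop i0).mono ?_
    intro i hi
    obtain ⟨t, ht⟩ := exists_zpow l hl τ (g i) N m hm z hzN hτl (by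
      intro b hb hτb
      refine hgfix i b (hi ?_)
      refine ⟨hb, ?_⟩
      have h5 : IntermediateField.adjoin K {b} ≤
          IntermediateField.fixedField (Subgroup.zpowers τ) := by
        rw [IntermediateField.adjoin_simple_le_iff, IntermediateField.mem_fixedField_iff]
        intro f hf
        have h1 : τ ∈ MulAction.stabilizer (M ≃ₐ[K] M) b := hτb
        exact ((Subgroup.zpowers_le).mpr h1) hf
      exact h5 (IntermediateField.mem_adjoin_simple_self K b)) (hgz i)
    rw [ht a haN]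
    -- invariance under integral powers
    let D : Subgroup (M ≃ₐ[K] M) :=
      { carrier := {σ | ∀ b, W i (σ b) = W i b}
        mul_mem' := by
          intro x y hx hy b
          change W i (x (y b)) = W i b
          rw [hx, hy]
        one_mem' := fun b => rfl
        inv_mem' := by
          intro x hx b
          have h1 := hx (x⁻¹ b)
          have h2 : x (x⁻¹ b) = b := AlgEquiv.apply_symm_apply x b
          rw [h2] at h1
          exact h1.symm }
    have hgD : g i ∈ D := hgW i
    exact (D.zpow_mem hgD t) a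
  -- the limit point
  let ψ : ι → M → ℝ≥0∞ := fun i a => (W i a : ℝ≥0∞)
  have hψ : ∀ i, IsPt p k M (ψ i) := fun i => isPt_of_valuation (W i) (hWp i)
  let Φ : M → ℝ≥0∞ := fun a => (U.map (fun i => ψ i a)).lim
  have hlim : ∀ a, Filter.Tendsto (fun i => ψ i a) U (𝓝 (Φ a)) := fun a =>
    Ultrafilter.le_nhds_lim (U.map (fun i => ψ i a))
  refine ⟨Φ, isPt_of_tendsto U ψ hψ Φ hlim, ?_⟩
  intro a
  refine tendsto_nhds_unique (hlim (τ a)) ((hlim a).congr' ?_)
  filter_upwards [hev a] with i hi
  simp only [ψ, hi]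

/-- Elements close to `z` have `l`-th power close to `z ^ l`. -/
lemma pow_sub_pow_lt {M : Type*} [Field M] (W : Valuation M ℝ≥0) {z u : M} (h : W (z - u) < W z)
    {l : ℕ} (hl : l ≠ 0) : W (z ^ l - u ^ l) < W (z ^ l) := by
  have hz0 : 0 < W z := lt_of_le_of_lt zero_le h
  have hu : W u ≤ W z := by
    have h1 : u = z - (z - u) := by ring
    rw [h1]
    exact (W.map_sub _ _).trans (max_le le_rfl h.le)
  have h2 : W (∑ i ∈ Finset.range l, z ^ i * u ^ (l - 1 - i)) ≤ W z ^ (l - 1) := by
    refine Valuation.map_sum_le _ fun i hi => ?_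
    rw [map_mul, map_pow, map_pow]
    have hi' : i < l := Finset.mem_range.mp hi
    calc W z ^ i * W u ^ (l - 1 - i) ≤ W z ^ i * W z ^ (l - 1 - i) :=
          mul_le_mul_right (pow_le_pow_left₀ zero_le hu _) _
      _ = W z ^ (l - 1) := by rw [← pow_add]; congr 1; omega
  rw [← (Commute.all z u).geom_sum₂_mul, map_mul, map_pow]
  calc W (∑ i ∈ Finset.range l, z ^ i * u ^ (l - 1 - i)) * W (z - u)
      ≤ W z ^ (l - 1) * W (z - u) := mul_le_mul_left h2 _
    _ < W z ^ (l - 1) * W z := by
        have h3 : 0 < W z ^ (l - 1) := pow_pos hz0 _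
        exact (mul_lt_mul_iff_right₀ h3).mpr h
    _ = W z ^ l := by rw [← pow_succ]; congr 1; omega

/-- **Existence of a `τ`-fixed point**, in terms of `π = z ^ l ∈ K`. -/
theorem exists_tau_fixed' {p : ℕ} [Fact p.Prime] {k : Type*} [Field k] [Algebra ℚ_[p] k]
    {K M : Type*} [Field K] [Field M] [CharZero K] [Algebra K M] [Algebra k K] [Algebra k M]
    [IsScalarTower k K M] [IsGalois K M]
    (l : ℕ) (hl : l.Prime) (τ : M ≃ₐ[K] M) (hpro : ∀ a, ∃ n, (τ ^ l ^ n) a = a)
    (z : M) (hz0 : z ≠ 0) (hτl : (τ ^ l) z = z) (π : K) (hzπ : z ^ l = algebraMap K M π)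
    (hyp : ∀ L : IntermediateField K M, FiniteDimensional K L → (∀ a ∈ L, τ a = a) →
      ∃ L' : IntermediateField K M, L ≤ L' ∧
        ∃ w : Valuation L' ℝ≥0, (∀ c : ℚ_[p], w (algebraMap k L' (algebraMap ℚ_[p] k c)) = ‖c‖₊) ∧
          ∀ u : L', w (algebraMap K L' π) ≤ w (algebraMap K L' π - u ^ l)) :
    ∃ φ : M → ℝ≥0∞, IsPt p k M φ ∧ ∀ a, φ (τ a) = φ a := by
  refine exists_tau_fixed (p := p) (k := k) l hl τ hpro z hz0 hτl ?_
  intro L hL hfix
  obtain ⟨L', hL', w, hw, hu⟩ := hyp L hL hfix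
  refine ⟨L', hL', w, hw, ?_⟩
  intro W hW u
  by_contra hcon
  push Not at hcon
  have h1 := pow_sub_pow_lt W hcon hl.ne_zero
  have h2 := hu u
  rw [← hW, Valuation.comap_apply, Valuation.comap_apply] at h2
  rw [hzπ, ← map_pow] at h1
  have h3 : algebraMap K M π = algebraMap L' M (algebraMap K L' π) := rfl
  rw [h3, ← map_sub] at h1
  exact absurd h2 (not_le.mpr h1)

end Crest.Agent.R013.A2d_275
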