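import Crest.Agent.R013.AnW1_201

/-!
# Row 13, leaf SS-ANW (helper201): Weierstrass theory on open annuli, part 2

* `InA c a` : `a` is bounded on `|c| < |T| < 1` (same body as 332's `SSK_332.InA`);
  `AN k C c : Subalgebra C (EE k C)`;
* `flip` : `T ↦ c / T`, `flipA : AN k C c ≃ₐ[C] AN k C c`;
* `evE τ` : evaluation (same body as 332's), `evA : AN k C c →ₐ[C] C` for `|c| < |τ| < 1`.
-/

set_option autoImplicit false
set_option linter.unusedSectionVars false
set_option linter.style.haveILetI false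

noncomputable section

open Filter Topology
open Crest.Agent.R013.Cell_408 Crest.Agent.R013.EE809

namespace Crest.Agent.R013.AnW_201

variable {k C : Type*} [NontriviallyNormedField k] [NormedField C]
  [IsUltrametricDist C] [NormedAlgebra k C]

/-- `a` is a bounded series on the open annulus `|c| < |T| < 1` -/
def InA (c : C) (a : EE k C) : Prop := ∃ M : ℝ, ∀ n : ℤ, ‖a.co n‖ * ‖c‖ ^ n ≤ M

theorem inA_zero (a : EE k C) : InA (0 : C) a := by
  refine ⟨‖a.co 0‖, fun n => ?_⟩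
  rcases eq_or_ne n 0 with rfl | hn
  · simp
  · rw [norm_zero, zero_zpow n hn, mul_zero]; exact norm_nonneg _

variable [CompleteSpace k]

theorem InA.add {c : C} {a b : EE k C} (ha : InA c a) (hb : InA c b) : InA c (a + b) := by
  rcases eq_or_ne c 0 with rfl | hc
  · exact inA_zero _
  have hc' : 0 < ‖c‖ := norm_pos_iff.2 hc
  obtain ⟨M, hM⟩ := ha
  obtain ⟨N, hN⟩ := hb
  exact ⟨max M N, Bdd.add hc' (Bdd.le hM (le_max_left _ _)) (Bdd.le hN (le_max_right _ _))⟩

theorem InA.neg {c : C} {a : EE k C} (ha : InA c a) : InA c (-a) := by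
  obtain ⟨M, hM⟩ := ha
  exact ⟨M, Bdd.neg hM⟩

theorem InA.sub {c : C} {a b : EE k C} (ha : InA c a) (hb : InA c b) : InA c (a - b) := by
  rw [sub_eq_add_neg]
  exact ha.add hb.neg

theorem InA.mul {c : C} {a b : EE k C} (ha : InA c a) (hb : InA c b) : InA c (a * b) := by
  rcases eq_or_ne c 0 with rfl | hc
  · exact inA_zero _
  have hc' : 0 < ‖c‖ := norm_pos_iff.2 hc
  obtain ⟨M, hM⟩ := ha
  obtain ⟨N, hN⟩ := hb
  exact ⟨M * N, Bdd.mul hc' hM hN⟩

theorem inA_one (c : C) : InA c (1 : EE k C) := by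
  rcases eq_or_ne c 0 with rfl | hc
  · exact inA_zero _
  exact ⟨1, Bdd.one⟩

variable [Algebra.IsAlgebraic k C]

theorem inA_mo (c : C) (n : ℤ) (x : C) : InA c (mo n x : EE k C) := by
  rcases eq_or_ne c 0 with rfl | hc
  · exact inA_zero _
  exact ⟨_, Bdd.mo (norm_pos_iff.2 hc) n x⟩

theorem inA_ofBD {c : C} (hc : ‖c‖ ≤ 1) (f : BD k C) : InA c (ofBD f : EE k C) := by
  rcases eq_or_ne c 0 with rfl | hc0
  · exact inA_zero _
  obtain ⟨M, hM⟩ := f.2.2
  exact ⟨M, Bdd.ofBD (norm_pos_iff.2 hc0) hc ((norm_nonneg _).trans (hM 0)) f hM⟩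

variable (k C) in
/-- bounded series on the open annulus `|c| < |T| < 1` -/
def AN (c : C) : Subalgebra C (EE k C) where
  carrier := {a | InA c a}
  mul_mem' := InA.mul
  one_mem' := inA_one c
  add_mem' := InA.add
  zero_mem' := ⟨0, fun n => by simp⟩
  algebraMap_mem' x := by rw [algebraMap_eq]; exact inA_mo c 0 x

theorem mem_AN {c : C} {a : EE k C} : a ∈ AN k C c ↔ InA c a := Iff.rfl

/-! ### flip -/

section flip

variable {c : C}

/-- `T ↦ c / T` -/
def flip (c : C) (hc0 : c ≠ 0) (hc1 : ‖c‖ < 1) (a : EE k C) (ha : InA c a) : EE k C :=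
  mk' (fun n => a.co (-n) * c ^ (-n))
    (by
      obtain ⟨L, hL, h1⟩ := a.fd
      obtain ⟨L', hL', h2⟩ := EE809.finDef_const (k := k) c
      refine ⟨L ⊔ L', IntermediateField.finiteDimensional_sup L L', fun n => ?_⟩
      exact mul_mem ((le_sup_left : L ≤ L ⊔ L') (h1 _))
        (zpow_mem ((le_sup_right : L' ≤ L ⊔ L') (h2 ())) _))
    (by
      obtain ⟨M, hM⟩ := ha
      refine ⟨M, fun n => ?_⟩
      rw [norm_mul, norm_zpow]
      exact hM (-n))
    (by
      obtain ⟨B, hB⟩ := a.bd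
      have hB0 : 0 ≤ B := (norm_nonneg _).trans (hB 0)
      have hc' : 0 < ‖c‖ := norm_pos_iff.2 hc0
      have h1 : Tendsto (fun n : ℤ => B * ‖c‖ ^ (-n)) atBot (𝓝 (B * 0)) := by
        refine Tendsto.const_mul B ?_
        rw [Metric.tendsto_nhds]
        intro ε hε
        obtain ⟨N, hN⟩ := exists_pow_lt_of_lt_one hε hc1
        filter_upwards [eventually_le_atBot (-(N : ℤ))] with n hn
        rw [dist_zero_right, norm_zpow, norm_norm]
        have h2 : ‖c‖ ^ (-n) ≤ ‖c‖ ^ (N : ℤ) := zpow_le_zpow_right_of_le_one₀ hc' hc1.le (by omega)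
        rw [zpow_natCast] at h2
        exact h2.trans_lt hN
      rw [mul_zero] at h1
      refine squeeze_zero_norm (fun n => ?_) h1
      rw [norm_mul, norm_zpow]
      exact mul_le_mul_of_nonneg_right (hB _) (zpow_nonneg hc'.le _))

variable {hc0 : c ≠ 0} {hc1 : ‖c‖ < 1}

theorem co_flip {a : EE k C} (ha : InA c a) (n : ℤ) :
    (flip c hc0 hc1 a ha).co n = a.co (-n) * c ^ (-n) := rfl

theorem inA_flip {a : EE k C} (ha : InA c a) : InA c (flip c hc0 hc1 a ha) := by
  obtain ⟨B, hB⟩ := a.bd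
  refine ⟨B, fun n => ?_⟩
  have hc' : 0 < ‖c‖ := norm_pos_iff.2 hc0
  rw [co_flip, norm_mul, norm_zpow, mul_assoc, ← zpow_add₀ hc'.ne', neg_add_cancel, zpow_zero,
    mul_one]
  exact hB _

theorem flip_flip {a : EE k C} (ha : InA c a) :
    flip c hc0 hc1 (flip c hc0 hc1 a ha) (inA_flip ha) = a := by
  ext n
  rw [co_flip, co_flip, neg_neg, mul_assoc, ← zpow_add₀ hc0, add_neg_cancel, zpow_zero, mul_one]

theorem flip_add {a b : EE k C} (ha : InA c a) (hb : InA c b) :
    flip c hc0 hc1 (a + b) (ha.add hb) = flip c hc0 hc1 a ha + flip c hc0 hc1 b hb := by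
  ext n
  rw [co_add, co_flip, co_flip, co_flip, co_add, add_mul]

theorem flip_mul {a b : EE k C} (ha : InA c a) (hb : InA c b) :
    flip c hc0 hc1 (a * b) (ha.mul hb) = flip c hc0 hc1 a ha * flip c hc0 hc1 b hb := by
  ext n
  rw [co_mul, co_flip, co_mul, ← tsum_mul_right, ← (Equiv.neg ℤ).tsum_eq]
  refine tsum_congr fun i => ?_
  rw [co_flip, co_flip, Equiv.neg_apply]
  have e1 : -n - -i = -(n - i) := by ring
  have e2 : c ^ (-n) = c ^ (-i) * c ^ (-(n - i)) := by
    rw [← zpow_add₀ hc0]; congr 1; ring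
  rw [e1, e2]
  ring

theorem flip_mo (n : ℤ) (x : C) :
    flip c hc0 hc1 (mo n x : EE k C) (inA_mo c n x) = mo (-n) (x * c ^ n) := by
  ext m
  rw [co_flip, co_mo, co_mo]
  by_cases h : m = -n
  · rw [if_pos (by omega), if_pos h, h, neg_neg]
  · rw [if_neg (by omega), if_neg h, zero_mul]

variable (hc0 hc1) in
/-- `T ↦ c / T` as an automorphism -/
def flipA : AN k C c ≃ₐ[C] AN k C c where
  toFun a := ⟨flip c hc0 hc1 a.1 a.2, inA_flip a.2⟩
  invFun a := ⟨flip c hc0 hc1 a.1 a.2, inA_flip a.2⟩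
  left_inv a := Subtype.ext (flip_flip (hc0 := hc0) (hc1 := hc1) a.2)
  right_inv a := Subtype.ext (flip_flip (hc0 := hc0) (hc1 := hc1) a.2)
  map_mul' a b := Subtype.ext (flip_mul (hc0 := hc0) (hc1 := hc1) a.2 b.2)
  map_add' a b := Subtype.ext (flip_add (hc0 := hc0) (hc1 := hc1) a.2 b.2)
  commutes' x := by
    apply Subtype.ext
    show flip c hc0 hc1 (algebraMap C (EE k C) x) (inA_mo c 0 x) = algebraMap C (EE k C) x
    have := flip_mo (hc0 := hc0) (hc1 := hc1) (k := k) 0 x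
    rw [neg_zero, zpow_zero, mul_one] at this
    exact this

theorem co_flipA (a : AN k C c) (n : ℤ) : (flipA hc0 hc1 a).1.co n = a.1.co (-n) * c ^ (-n) := rfl

theorem flipA_flipA (a : AN k C c) : flipA hc0 hc1 (flipA hc0 hc1 a) = a :=
  Subtype.ext (flip_flip (hc0 := hc0) (hc1 := hc1) a.2)

end flip

/-! ### evaluation -/

section ev

/-- the value of `a` at `t` -/
def evE (t : C) (a : EE k C) : C := ∑' n : ℤ, a.co n * t ^ n

theorem tendsto_evE {c t : C} (hct : ‖c‖ < ‖t‖) (ht : ‖t‖ < 1) {a : EE k C} (ha : InA c a)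
    (hc0 : c ≠ 0) : Tendsto (fun n : ℤ => a.co n * t ^ n) cofinite (𝓝 0) := by
  obtain ⟨M, hM⟩ := ha
  obtain ⟨B, hB0, hB⟩ := a.bd'
  have hc' : 0 < ‖c‖ := norm_pos_iff.2 hc0
  have ht' : 0 < ‖t‖ := hc'.trans hct
  have hM0 : 0 ≤ M := (mul_nonneg (norm_nonneg _) (zpow_nonneg hc'.le 0)).trans (hM 0)
  rw [Metric.tendsto_nhds]
  intro ε hε
  obtain ⟨N, hN⟩ := exists_pow_lt_of_lt_one (x := ε / (B + 1)) (by positivity) ht
  obtain ⟨N', hN'⟩ := exists_pow_lt_of_lt_one (x := ε / (M + 1)) (y := ‖c‖ / ‖t‖) (by positivity)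
    ((div_lt_one ht').2 hct)
  rw [eventually_cofinite]
  refine (Set.finite_Icc (-(N' : ℤ)) N).subset fun n hn => ?_
  rw [Set.mem_ofPred_eq, dist_zero_right, norm_mul, norm_zpow, not_lt] at hn
  by_contra hc
  rw [Set.mem_Icc, not_and_or, not_le, not_le] at hc
  rcases hc with h | h
  · -- `n < -N'`
    have h1 : ‖a.co n‖ * ‖t‖ ^ n = (‖a.co n‖ * ‖c‖ ^ n) * (‖c‖ / ‖t‖) ^ (-n) := by
      rw [div_zpow, zpow_neg, zpow_neg]
      have := (zpow_pos hc' n).ne'
      have := (zpow_pos ht' n).ne'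
      field_simp
    have h2 : (‖c‖ / ‖t‖) ^ (-n) ≤ (‖c‖ / ‖t‖) ^ (N' : ℤ) :=
      zpow_le_zpow_right_of_le_one₀ (by positivity) ((div_le_one ht').2 hct.le) (by omega)
    rw [zpow_natCast] at h2
    have h3 : ‖a.co n‖ * ‖t‖ ^ n < ε := by
      rw [h1]
      calc _ ≤ M * (ε / (M + 1)) := by
            refine mul_le_mul (hM n) (h2.trans hN'.le) (zpow_nonneg (by positivity) _) hM0
        _ = (M / (M + 1)) * ε := by ring
        _ < 1 * ε := by
            refine mul_lt_mul_of_pos_right ?_ hε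
            rw [div_lt_one (by positivity)]; linarith
        _ = ε := one_mul _
    linarith
  · have h2 : ‖t‖ ^ n ≤ ‖t‖ ^ (N : ℤ) := zpow_le_zpow_right_of_le_one₀ ht' ht.le (by omega)
    rw [zpow_natCast] at h2
    have h3 : ‖a.co n‖ * ‖t‖ ^ n < ε := by
      calc _ ≤ B * (ε / (B + 1)) :=
            mul_le_mul (hB n) (h2.trans hN.le) (zpow_nonneg ht'.le _) hB0.le
        _ = (B / (B + 1)) * ε := by ring
        _ < 1 * ε := by
            refine mul_lt_mul_of_pos_right ?_ hε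
            rw [div_lt_one (by positivity)]; linarith
        _ = ε := one_mul _
    linarith

theorem summable_evE {c t : C} (hct : ‖c‖ < ‖t‖) (ht : ‖t‖ < 1) {a : EE k C} (ha : InA c a)
    (hc0 : c ≠ 0) : Summable fun n : ℤ => a.co n * t ^ n := by
  obtain ⟨L, hL, h1⟩ := a.fd
  obtain ⟨L', hL', h2⟩ := EE809.finDef_const (k := k) t
  have : FiniteDimensional k (L ⊔ L' : IntermediateField k C) :=
    IntermediateField.finiteDimensional_sup L L'
  exact summable_of (L ⊔ L') (fun n => mul_mem ((le_sup_left : L ≤ L ⊔ L') (h1 _))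
    (zpow_mem ((le_sup_right : L' ≤ L ⊔ L') (h2 ())) _)) (tendsto_evE hct ht ha hc0)

theorem evE_add {c t : C} (hct : ‖c‖ < ‖t‖) (ht : ‖t‖ < 1) (hc0 : c ≠ 0) {a b : EE k C}
    (ha : InA c a) (hb : InA c b) : evE t (a + b) = evE t a + evE t b := by
  unfold evE
  rw [← (summable_evE hct ht ha hc0).tsum_add (summable_evE hct ht hb hc0)]
  refine tsum_congr fun n => ?_
  rw [co_add, add_mul]

theorem evE_mul {c t : C} (hct : ‖c‖ < ‖t‖) (ht : ‖t‖ < 1) (hc0 : c ≠ 0) {a b : EE k C}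
    (ha : InA c a) (hb : InA c b) : evE t (a * b) = evE t a * evE t b := by
  have hna := nonarchRing C
  have ht0 : t ≠ 0 := by
    rintro rfl
    rw [norm_zero] at hct
    exact absurd (norm_nonneg c) (not_le.2 hct)
  have hs1 := summable_evE hct ht ha hc0
  have hs2 := summable_evE hct ht hb hc0
  have hs : Summable fun p : ℤ × ℤ => (a.co p.1 * t ^ p.1) * (b.co p.2 * t ^ p.2) :=
    Summable.mul_of_nonarchimedean (f := fun n => a.co n * t ^ n)
      (g := fun n => b.co n * t ^ n) hs1 hs2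
  -- reindexing
  let E : ℤ × ℤ ≃ ℤ × ℤ :=
    { toFun := fun p => (p.2, p.1 - p.2)
      invFun := fun q => (q.1 + q.2, q.1)
      left_inv := fun p => by simp
      right_inv := fun q => by simp }
  have hs' : Summable fun p : ℤ × ℤ => (a.co p.2 * t ^ p.2) * (b.co (p.1 - p.2) * t ^ (p.1 - p.2)) :=
    (E.summable_iff (f := fun p : ℤ × ℤ => (a.co p.1 * t ^ p.1) * (b.co p.2 * t ^ p.2))).2 hs
  have hfib : ∀ n : ℤ, Summable fun i : ℤ =>
      (a.co i * t ^ i) * (b.co (n - i) * t ^ (n - i)) := by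
    intro n
    refine ((summable_conv a b n).mul_right (t ^ n)).congr fun i => ?_
    have e : t ^ n = t ^ i * t ^ (n - i) := by rw [← zpow_add₀ ht0]; congr 1; ring
    rw [e]; ring
  have h1 : evE t a * evE t b = ∑' p : ℤ × ℤ, (a.co p.1 * t ^ p.1) * (b.co p.2 * t ^ p.2) :=
    hs1.tsum_mul_tsum hs2 hs
  rw [h1, ← E.tsum_eq]
  have h2 := Summable.tsum_prod' hs' hfib
  have h3 : (∑' p : ℤ × ℤ, (a.co (E p).1 * t ^ (E p).1) * (b.co (E p).2 * t ^ (E p).2)) =
      ∑' p : ℤ × ℤ, (a.co p.2 * t ^ p.2) * (b.co (p.1 - p.2) * t ^ (p.1 - p.2)) := rfl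
  rw [h3, h2]
  unfold evE
  refine tsum_congr fun n => ?_
  rw [co_mul, ← tsum_mul_right]
  refine tsum_congr fun i => ?_
  have e : t ^ n = t ^ i * t ^ (n - i) := by rw [← zpow_add₀ ht0]; congr 1; ring
  rw [e]; ring

theorem evE_mo (t : C) (n : ℤ) (x : C) : evE t (mo n x : EE k C) = x * t ^ n := by
  unfold evE
  rw [tsum_eq_single n]
  · rw [co_mo, if_pos rfl]
  · intro m hm
    rw [co_mo, if_neg hm, zero_mul]

/-- evaluation at a point of the annulus -/
def evA {c : C} (hc0 : c ≠ 0) (t : C) (hct : ‖c‖ < ‖t‖) (ht : ‖t‖ < 1) : AN k C c →ₐ[C] C where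
  toFun a := evE t a.1
  map_one' := by
    have := evE_mo (k := k) t 0 1
    rw [zpow_zero, mul_one] at this
    exact this
  map_mul' a b := evE_mul hct ht hc0 a.2 b.2
  map_zero' := by
    have := evE_mo (k := k) t 0 0
    rw [zero_mul, mo_zero] at this
    exact this
  map_add' a b := evE_add hct ht hc0 a.2 b.2
  commutes' x := by
    have := evE_mo (k := k) t 0 x
    rw [zpow_zero, mul_one] at this
    exact this

/-- the norm of a value -/
theorem norm_evE_le {t : C} {a : EE k C} {M : ℝ} (h : Bdd ‖t‖ M a) : ‖evE t a‖ ≤ M := by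
  unfold evE
  refine IsUltrametricDist.norm_tsum_le_of_forall_le (fun n => ?_)
  rw [norm_mul, norm_zpow]
  exact h n

end ev

end Crest.Agent.R013.AnW_201
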