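import Mathlib

/-!
# RED-PTS, part 1 (row 13): valuations of `K` and valuations of the factors of `K ⊗ Fc`

`K ⊗[F₀] Fc ≃ ∏ j, F j` (finite product of fields). If `F₀` is `u`-dense in `Fc`, the real
valuations of `K` which agree with `u` on `F₀` correspond bijectively to pairs `(j, W)`,
`W` a valuation of `F j` extending `u`.
-/

set_option autoImplicit false
set_option linter.style.haveILetI false
set_option linter.unusedSectionVars false

open scoped NNReal TensorProduct

namespace Crest.Agent.R013.Pts1_315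

universe v0 v1 v2 v3

section Completion

/-- the normed field structure given by a real valuation -/
@[reducible] noncomputable def nf {F : Type*} [inst : Field F] (w : Valuation F ℝ≥0) :
    NormedField F :=
  { inst with
    norm := fun a => (w a : ℝ)
    dist := fun a b => (w (a - b) : ℝ)
    dist_self := fun a => by simp
    dist_comm := fun a b => by
      show (w (a - b) : ℝ) = w (b - a)
      rw [Valuation.map_sub_swap]
    dist_triangle := fun a b c => by
      show (w (a - c) : ℝ) ≤ w (a - b) + w (b - c)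
      have h : w (a - c) ≤ max (w (a - b)) (w (b - c)) := by
        simpa using w.map_add (a - b) (b - c)
      calc (w (a - c) : ℝ) ≤ ((max (w (a - b)) (w (b - c)) : ℝ≥0) : ℝ) := by exact_mod_cast h
        _ ≤ w (a - b) + w (b - c) := by
          rw [NNReal.coe_max]
          exact max_le_add_of_nonneg (NNReal.coe_nonneg _) (NNReal.coe_nonneg _)
    eq_of_dist_eq_zero := fun {a b} h => by
      have h' : w (a - b) = 0 := by exact_mod_cast h
      exact sub_eq_zero.1 ((map_eq_zero w).1 h')
    dist_eq := fun a b => by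
      show (w (a - b) : ℝ) = (w (-a + b) : ℝ)
      rw [show -a + b = -(a - b) by ring, Valuation.map_neg]
    norm_mul := fun a b => by
      show (w (a * b) : ℝ) = w a * w b
      rw [map_mul]; push_cast; rfl }

theorem isUltrametricDist_nf {F : Type*} [Field F] (w : Valuation F ℝ≥0) :
    letI := nf w
    IsUltrametricDist F := by
  letI := nf w
  refine ⟨fun a b c => ?_⟩
  show (w (a - c) : ℝ) ≤ max (w (a - b) : ℝ) (w (b - c) : ℝ)
  have h : w (a - c) ≤ max (w (a - b)) (w (b - c)) := by
    simpa using w.map_add (a - b) (b - c)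
  rw [← NNReal.coe_max]
  exact_mod_cast h

theorem isUltrametricDist_completion {F : Type*} [NormedField F] [IsUltrametricDist F] :
    IsUltrametricDist (UniformSpace.Completion F) := by
  refine IsUltrametricDist.isUltrametricDist_of_forall_norm_add_le_max_norm fun x y => ?_
  refine UniformSpace.Completion.induction_on₂ x y ?_ ?_
  · exact isClosed_le (by fun_prop) (by fun_prop)
  · intro a b
    rw [← UniformSpace.Completion.coe_add, UniformSpace.Completion.norm_coe,
      UniformSpace.Completion.norm_coe, UniformSpace.Completion.norm_coe]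
    exact IsUltrametricDist.norm_add_le_max a b

/-- common complete field for `K` and `Fc` over `F₀` -/
theorem exists_common {F₀ : Type v0} {K : Type v1} {Fc : Type v2} [Field F₀] [Field K] [Field Fc]
    (a : F₀ →+* K) (i : F₀ →+* Fc) (w : Valuation K ℝ≥0) (u : Valuation Fc ℝ≥0)
    (hwu : ∀ x, w (a x) = u (i x))
    (hd : ∀ y : Fc, ∀ ε : ℝ≥0, 0 < ε → ∃ x : F₀, u (y - i x) < ε) :
    ∃ (L : Type v1) (_ : Field L) (W : Valuation L ℝ≥0) (φ : K →+* L) (ψ : Fc →+* L),
      (∀ x, φ (a x) = ψ (i x)) ∧ (∀ x, W (φ x) = w x) ∧ (∀ y, W (ψ y) = u y) := by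
  letI nK : NormedField K := nf w
  letI nFc : NormedField Fc := nf u
  letI nF : NormedField F₀ := nf (u.comap i)
  haveI : IsUltrametricDist K := isUltrametricDist_nf w
  have hiso : Isometry i := by
    refine AddMonoidHomClass.isometry_of_norm i (fun x => ?_)
    rfl
  have hiso' : Isometry a := by
    refine AddMonoidHomClass.isometry_of_norm a (fun x => ?_)
    show (w (a x) : ℝ) = (u (i x) : ℝ)
    rw [hwu]
  have hdr : DenseRange i := by
    rw [Metric.denseRange_iff]
    intro y r hr
    obtain ⟨x, hx⟩ := hd y ⟨r, hr.le⟩ hr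
    exact ⟨x, by show (u (y - i x) : ℝ) < r; exact_mod_cast hx⟩
  let L := UniformSpace.Completion K
  let f : F₀ →+* L := (UniformSpace.Completion.coeRingHom).comp a
  have hf : Isometry f := (UniformSpace.Completion.coe_isometry).comp hiso'
  let ψ : Fc →+* L := IsDenseInducing.extendRingHom hiso.isUniformInducing hdr
    hf.uniformContinuous
  have hψ : ∀ x, ψ (i x) = f x := fun x =>
    IsDenseInducing.extend_eq (hiso.isUniformInducing.isDenseInducing hdr) hf.continuous x
  have hψc : Continuous ψ :=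
    (uniformContinuous_uniformly_extend hiso.isUniformInducing hdr hf.uniformContinuous).continuous
  have hψn : ∀ y, ‖ψ y‖ = ‖y‖ := by
    intro y
    refine DenseRange.induction_on hdr y ?_ ?_
    · exact isClosed_eq hψc.norm continuous_norm
    · intro x
      rw [hψ]
      show ‖((a x : K) : L)‖ = ‖i x‖
      rw [UniformSpace.Completion.norm_coe]
      show (w (a x) : ℝ) = (u (i x) : ℝ)
      rw [hwu]
  haveI : IsUltrametricDist L := isUltrametricDist_completion
  refine ⟨L, inferInstance, NormedField.valuation, UniformSpace.Completion.coeRingHom, ψ,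
    fun x => (hψ x).symm, fun x => ?_, fun y => ?_⟩
  · apply NNReal.coe_injective
    show ‖((x : K) : L)‖ = _
    rw [UniformSpace.Completion.norm_coe]
    rfl
  · apply NNReal.coe_injective
    exact hψn y

end Completion

section Product

/-- a ring homomorphism from a finite product to a field factors through a factor -/
theorem exists_factor {J : Type v3} [Finite J] {F : J → Type*} [∀ j, Field (F j)] {L : Type*}
    [Field L] (Θ : (∀ j, F j) →+* L) : ∃ (j : J) (θ : F j →+* L), ∀ g, Θ g = θ (g j) := by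
  classical
  haveI := Fintype.ofFinite J
  obtain ⟨j, hj⟩ : ∃ j, Θ (Pi.single j 1) ≠ 0 := by
    by_contra h
    push Not at h
    have h1 : (1 : ∀ j, F j) = ∑ j, Pi.single j (1 : F j) := by
      rw [Finset.univ_sum_single]; rfl
    have h2 : Θ 1 = 0 := by
      rw [h1, map_sum]; exact Finset.sum_eq_zero fun j _ => h j
    rw [map_one] at h2
    exact one_ne_zero h2
  have hj1 : Θ (Pi.single j 1) = 1 := by
    have h : Θ (Pi.single j 1) * Θ (Pi.single j 1) = Θ (Pi.single j 1) := by
      rw [← map_mul, ← Pi.single_mul, one_mul]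
    exact (mul_eq_left₀ hj).1 h
  let θ : F j →+* L :=
    { toFun := fun x => Θ (Pi.single j x)
      map_one' := hj1
      map_mul' := fun x y => by
        rw [← map_mul, ← Pi.single_mul]
      map_zero' := by
        rw [Pi.single_zero, map_zero]
      map_add' := fun x y => by
        rw [← map_add, ← Pi.single_add] }
  refine ⟨j, θ, fun g => ?_⟩
  show Θ g = Θ (Pi.single j (g j))
  have h : Pi.single j (g j) = g * Pi.single j 1 := by
    ext i
    by_cases hij : i = j
    · subst hij; simp
    · simp [hij]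
  rw [h, map_mul, hj1, mul_one]

variable {F₀ : Type v0} {K : Type v1} {Fc : Type v2} [Field F₀] [Field K] [Field Fc]

/-- `K ⊗_{F₀} Fc = ∏ j, F j` (finite product of fields), in the form used here. -/
structure PD (a : F₀ →+* K) (i : F₀ →+* Fc) {J : Type v3} {F : J → Type*} [∀ j, Field (F j)]
    (io : ∀ j, K →+* F j) (sg : ∀ j, Fc →+* F j) : Prop where
  comm : ∀ j x, io j (a x) = sg j (i x)
  surj : ∀ g : ∀ j, F j, ∃ s : List (K × Fc),
    ∀ j, g j = (s.map fun p => io j p.1 * sg j p.2).sum
  fact : ∀ (L : Type v1) [Field L] (φ : K →+* L) (ψ : Fc →+* L), (∀ x, φ (a x) = ψ (i x)) →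
    ∃ (j : J) (θ : F j →+* L), (∀ x, φ x = θ (io j x)) ∧ ∀ y, ψ y = θ (sg j y)

/-- the tensor product form implies `PD` -/
theorem PD.of_tensor [Algebra F₀ K] [Algebra F₀ Fc] {J : Type v3} [Finite J]
    {F : J → Type*} [∀ j, Field (F j)] (io : ∀ j, K →+* F j) (sg : ∀ j, Fc →+* F j)
    (comm : ∀ j x, io j (algebraMap F₀ K x) = sg j (algebraMap F₀ Fc x))
    (Φ : K ⊗[F₀] Fc →+* ∀ j, F j) (hΦ : ∀ a b j, Φ (a ⊗ₜ b) j = io j a * sg j b)
    (hb : Function.Bijective Φ) : PD (algebraMap F₀ K) (algebraMap F₀ Fc) io sg where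
  comm := comm
  surj := fun g => by
    obtain ⟨t, rfl⟩ := hb.2 g
    induction t using TensorProduct.induction_on with
    | zero => exact ⟨[], fun j => by simp⟩
    | tmul a b => exact ⟨[(a, b)], fun j => by simp [hΦ]⟩
    | add s t hs ht =>
      obtain ⟨l, hl⟩ := hs
      obtain ⟨l', hl'⟩ := ht
      refine ⟨l ++ l', fun j => ?_⟩
      rw [map_add, Pi.add_apply, hl, hl', List.map_append, List.sum_append]
  fact := fun L _ φ ψ h => by
    letI : Algebra F₀ L := (φ.comp (algebraMap F₀ K)).toAlgebra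
    let φ' : K →ₐ[F₀] L := { φ with commutes' := fun x => rfl }
    let ψ' : Fc →ₐ[F₀] L := { ψ with commutes' := fun x => (h x).symm }
    let Ψ : K ⊗[F₀] Fc ≃+* ∀ j, F j := RingEquiv.ofBijective Φ hb
    let Θ : (∀ j, F j) →+* L := (Algebra.TensorProduct.productMap φ' ψ').toRingHom.comp
      Ψ.symm.toRingHom
    obtain ⟨j, θ, hθ⟩ := exists_factor Θ
    refine ⟨j, θ, fun x => ?_, fun y => ?_⟩
    · have h1 : θ (Φ (x ⊗ₜ 1) j) = φ x := by
        rw [← hθ]
        show Algebra.TensorProduct.productMap φ' ψ' (Ψ.symm (Ψ (x ⊗ₜ 1))) = φ x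
        rw [RingEquiv.symm_apply_apply, Algebra.TensorProduct.productMap_apply_tmul, map_one,
          mul_one]
        rfl
      rw [← h1, hΦ, map_one, mul_one]
    · have h1 : θ (Φ (1 ⊗ₜ y) j) = ψ y := by
        rw [← hθ]
        show Algebra.TensorProduct.productMap φ' ψ' (Ψ.symm (Ψ (1 ⊗ₜ y))) = ψ y
        rw [RingEquiv.symm_apply_apply, Algebra.TensorProduct.productMap_apply_tmul, map_one,
          one_mul]
        rfl
      rw [← h1, hΦ, map_one, one_mul]

/-- density of `F₀` in `Fc` with respect to `u` -/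
def Dn (i : F₀ →+* Fc) (u : Valuation Fc ℝ≥0) : Prop :=
  ∀ y : Fc, ∀ ε : ℝ≥0, 0 < ε → ∃ x : F₀, u (y - i x) < ε

variable {a : F₀ →+* K} {i : F₀ →+* Fc} {J : Type v3} {F : J → Type*} [∀ j, Field (F j)]
  {io : ∀ j, K →+* F j} {sg : ∀ j, Fc →+* F j}

/-- EXISTENCE: a valuation of `K` which agrees on `F₀` with `u` comes from a factor -/
theorem PD.exists_ext (H : PD a i io sg) (w : Valuation K ℝ≥0) {u : Valuation Fc ℝ≥0}
    (hwu : ∀ x, w (a x) = u (i x)) (hd : Dn i u) :
    ∃ (j : J) (W : Valuation (F j) ℝ≥0), (∀ x, W (io j x) = w x) ∧ ∀ b, W (sg j b) = u b := by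
  obtain ⟨L, _, W, φ, ψ, hc, hW1, hW2⟩ := exists_common a i w u hwu hd
  obtain ⟨j, θ, h1, h2⟩ := H.fact L φ ψ hc
  exact ⟨j, W.comap θ, fun x => by rw [Valuation.comap_apply, ← h1, hW1],
    fun y => by rw [Valuation.comap_apply, ← h2, hW2]⟩

/-- SIMULTANEOUS DENSITY of `K` in the factors, for finitely many valuations `W k` of factors
`F (jj k)` extending `u`. -/
theorem PD.dense (H : PD a i io sg) {ι : Type*} [Finite ι] {u : Valuation Fc ℝ≥0}
    (hd : Dn i u)
    (jj : ι → J) (W : ∀ k, Valuation (F (jj k)) ℝ≥0) (hW : ∀ k b, W k (sg (jj k) b) = u b)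
    (g : ∀ j, F j) {ε : ℝ≥0} (hε : 0 < ε) :
    ∃ x : K, ∀ k, W k (g (jj k) - io (jj k) x) < ε := by
  classical
  haveI := Fintype.ofFinite ι
  obtain ⟨s, hs⟩ := H.surj g
  suffices h : ∀ s : List (K × Fc), ∃ x : K,
      ∀ k, W k ((s.map fun p => io (jj k) p.1 * sg (jj k) p.2).sum - io (jj k) x) < ε by
    obtain ⟨x, hx⟩ := h s
    exact ⟨x, fun k => by rw [hs]; exact hx k⟩
  intro s
  induction s with
  | nil => exact ⟨0, fun k => by simpa using hε⟩
  | cons p s ih =>
    obtain ⟨x', hx'⟩ := ih
    obtain ⟨b, c⟩ := p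
    obtain ⟨M, hM0, hM⟩ : ∃ M : ℝ≥0, 0 < M ∧ ∀ k, W k (io (jj k) b) ≤ M := by
      refine ⟨(∑ k, W k (io (jj k) b)) + 1, by positivity, fun k => ?_⟩
      exact (Finset.single_le_sum (f := fun k => W k (io (jj k) b)) (fun _ _ => zero_le)
        (Finset.mem_univ k)).trans (le_add_of_nonneg_right zero_le_one)
    obtain ⟨x, hx⟩ := hd c (ε / M) (div_pos hε hM0)
    refine ⟨b * a x + x', fun k => ?_⟩
    have e : (((b, c) :: s).map fun p => io (jj k) p.1 * sg (jj k) p.2).sum
        - io (jj k) (b * a x + x') = io (jj k) b * sg (jj k) (c - i x) +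
        ((s.map fun p => io (jj k) p.1 * sg (jj k) p.2).sum - io (jj k) x') := by
      rw [List.map_cons, List.sum_cons, map_add, map_mul, H.comm, map_sub]; ring
    rw [e]
    refine (Valuation.map_add _ _ _).trans_lt (max_lt ?_ (hx' k))
    rw [map_mul, hW]
    calc W k (io (jj k) b) * u (c - i x)
        ≤ M * u (c - i x) := by gcongr; exact hM k
      _ < M * (ε / M) := by gcongr
      _ = ε := mul_div_cancel₀ _ hM0.ne'

/-- UNIQUENESS of the factor -/
theorem PD.factor_unique (H : PD a i io sg) {u : Valuation Fc ℝ≥0} (hd : Dn i u)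
    {j j' : J} {W : Valuation (F j) ℝ≥0} {W' : Valuation (F j') ℝ≥0}
    (hW : ∀ b, W (sg j b) = u b) (hW' : ∀ b, W' (sg j' b) = u b)
    (h : ∀ x : K, W (io j x) = W' (io j' x)) : j = j' := by
  classical
  by_contra hj
  obtain ⟨x, hx⟩ := H.dense hd (ι := Bool) (fun k => match k with | true => j | false => j')
    (fun k => match k with | true => W | false => W') (fun k => by cases k; exacts [hW', hW])
    (Pi.single j 1) one_pos
  have h1 : W (Pi.single j (1 : F j) j - io j x) < 1 := hx true
  have h2 : W' (Pi.single j (1 : F j) j' - io j' x) < 1 := hx false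
  rw [Pi.single_eq_same] at h1
  rw [Pi.single_eq_of_ne' hj, zero_sub, Valuation.map_neg, ← h] at h2
  have h3 : W 1 ≤ max (W (1 - io j x)) (W (io j x)) := by
    simpa using W.map_add (1 - io j x) (io j x)
  rw [map_one] at h3
  exact absurd h3 (not_le.2 (max_lt h1 h2))

/-- approximation of one element -/
theorem PD.approx (H : PD a i io sg) {u : Valuation Fc ℝ≥0} (hd : Dn i u) {j : J}
    {W : Valuation (F j) ℝ≥0} (hW : ∀ b, W (sg j b) = u b) (g : F j) {ε : ℝ≥0} (hε : 0 < ε) :
    ∃ x : K, W (g - io j x) < ε := by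
  classical
  obtain ⟨x, hx⟩ := H.dense hd (ι := Unit) (fun _ => j) (fun _ => W) (fun _ => hW)
    (Pi.single j g) hε
  have h1 : W (Pi.single j g j - io j x) < ε := hx ()
  rw [Pi.single_eq_same] at h1
  exact ⟨x, h1⟩

/-- UNIQUENESS of the valuation of the factor -/
theorem PD.val_unique (H : PD a i io sg) {u : Valuation Fc ℝ≥0} (hd : Dn i u)
    {j : J} {W W' : Valuation (F j) ℝ≥0}
    (hW : ∀ b, W (sg j b) = u b) (hW' : ∀ b, W' (sg j b) = u b)
    (h : ∀ x : K, W (io j x) = W' (io j x)) : W = W' := by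
  classical
  ext g
  congr 1
  by_cases hg : g = 0
  · rw [hg, map_zero, map_zero]
  have hε : 0 < min (W g) (W' g) := by
    rw [lt_min_iff]
    exact ⟨pos_iff_ne_zero.2 ((Valuation.ne_zero_iff _).2 hg),
      pos_iff_ne_zero.2 ((Valuation.ne_zero_iff _).2 hg)⟩
  obtain ⟨x, hx⟩ := H.dense hd (ι := Bool) (fun _ => j)
    (fun k => match k with | true => W | false => W') (fun k => by cases k; exacts [hW', hW])
    (Pi.single j g) hε
  have h1 : W (Pi.single j g j - io j x) < min (W g) (W' g) := hx true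
  have h2 : W' (Pi.single j g j - io j x) < min (W g) (W' g) := hx false
  rw [Pi.single_eq_same] at h1 h2
  have e1 : W (io j x) = W g := by
    rw [show io j x = g - (g - io j x) by ring]
    exact Valuation.map_sub_eq_of_lt_left _ (h1.trans_le (min_le_left _ _))
  have e2 : W' (io j x) = W' g := by
    rw [show io j x = g - (g - io j x) by ring]
    exact Valuation.map_sub_eq_of_lt_left _ (h2.trans_le (min_le_right _ _))
  rw [← e1, ← e2, h]

/-- every value of a valuation of the factor is taken on `K` -/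
theorem PD.exists_val_eq (H : PD a i io sg) {u : Valuation Fc ℝ≥0} (hd : Dn i u)
    {j : J} {W : Valuation (F j) ℝ≥0} (hW : ∀ b, W (sg j b) = u b) (g : F j) :
    ∃ x : K, W (io j x) = W g := by
  by_cases hg : g = 0
  · exact ⟨0, by rw [map_zero, hg]⟩
  obtain ⟨x, h1⟩ := H.approx hd hW g (pos_iff_ne_zero.2 ((Valuation.ne_zero_iff W).2 hg))
  refine ⟨x, ?_⟩
  rw [show io j x = g - (g - io j x) by ring]
  exact Valuation.map_sub_eq_of_lt_left _ h1

end Product

end Crest.Agent.R013.Pts1_315
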