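import Mathlib
import Crest.Agent.R013.Pts1_315
import Crest.Agent.R013.RR13_948

/-!
# RED-PTS, part 2 (row 13): rings of functions of one variable (`CellRing`)

`CellRing T S`: every non-zero element is a unit times a finite product of `T - τ`, `τ ∈ S`, and
every point of `S` is a `C`-point. (Bounded functions on an open disc or annulus.) Such a ring
is a PID whose primes are the `T - τ`; the valuations at the points; density of `C(T)`.
-/

set_option autoImplicit false
set_option linter.style.haveILetI false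
set_option linter.unusedSectionVars false

open scoped NNReal
open IsDedekindDomain WithZero

namespace Crest.Agent.R013.Pts2_315

open Crest.Agent.R013.Pts1_315

variable {C B : Type*} [Field C] [CommRing B] [IsDomain B] [Algebra C B]

/-- functions of one variable `T` on a set `S` of points, with finitely many zeros -/
structure CellRing (T : B) (S : Set C) : Prop where
  fac : ∀ b : B, b ≠ 0 → ∃ m : Multiset C, (∀ τ ∈ m, τ ∈ S) ∧
    Associated b (m.map fun τ => T - algebraMap C B τ).prod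
  ev : ∀ τ ∈ S, ∃ e : B →ₐ[C] C, e T = τ
  nc : ∀ c : C, T ≠ algebraMap C B c

namespace CellRing

variable {T : B} {S : Set C} (H : CellRing T S)
include H

theorem sub_ne_zero (c : C) : T - algebraMap C B c ≠ 0 := by
  rw [Ne, sub_eq_zero]; exact H.nc c

theorem dvd_of_ev {τ : C} {e : B →ₐ[C] C} (he : e T = τ) {b : B} (hb : e b = 0) :
    T - algebraMap C B τ ∣ b := by
  by_cases h0 : b = 0
  · rw [h0]; exact dvd_zero _
  obtain ⟨m, hm, hass⟩ := H.fac b h0
  have h1 : e (m.map fun τ => T - algebraMap C B τ).prod = 0 := by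
    obtain ⟨u, hu⟩ := hass
    rw [← hu, map_mul, hb, zero_mul]
  rw [map_multiset_prod, Multiset.map_map, Multiset.prod_eq_zero_iff] at h1
  rw [Multiset.mem_map] at h1
  obtain ⟨τ', hτ', h2⟩ := h1
  simp only [Function.comp_apply, map_sub, he, AlgHom.commutes, Algebra.algebraMap_self,
    RingHom.id_apply] at h2
  have h3 : τ' = τ := (_root_.sub_eq_zero.1 h2).symm
  subst h3
  exact (Multiset.dvd_prod (Multiset.mem_map_of_mem _ hτ')).trans hass.symm.dvd

theorem ev_dvd_iff {τ : C} {e : B →ₐ[C] C} (he : e T = τ) {b : B} :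
    T - algebraMap C B τ ∣ b ↔ e b = 0 := by
  refine ⟨?_, H.dvd_of_ev he⟩
  rintro ⟨g, rfl⟩
  rw [map_mul, map_sub, he, AlgHom.commutes]
  simp

theorem span_eq_ker {τ : C} {e : B →ₐ[C] C} (he : e T = τ) :
    Ideal.span {T - algebraMap C B τ} = RingHom.ker e := by
  ext b
  rw [Ideal.mem_span_singleton, H.ev_dvd_iff he, RingHom.mem_ker]

theorem isMaximal {τ : C} (hτ : τ ∈ S) : (Ideal.span {T - algebraMap C B τ}).IsMaximal := by
  obtain ⟨e, he⟩ := H.ev τ hτ
  rw [H.span_eq_ker he]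
  exact RingHom.ker_isMaximal_of_surjective _ (fun c => ⟨algebraMap C B c, by simp⟩)

theorem exists_of_prime {P : Ideal B} (hP : P.IsPrime) (h0 : P ≠ ⊥) :
    ∃ τ ∈ S, P = Ideal.span {T - algebraMap C B τ} := by
  obtain ⟨b, hb, hb0⟩ := Submodule.exists_mem_ne_zero_of_ne_bot h0
  obtain ⟨m, hm, hass⟩ := H.fac b hb0
  have h1 : (m.map fun τ => T - algebraMap C B τ).prod ∈ P := by
    obtain ⟨u, hu⟩ := hass
    rw [← hu]
    exact P.mul_mem_right _ hb
  rw [hP.multiset_prod_mem_iff_exists_mem] at h1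
  obtain ⟨x, hx, h2⟩ := h1
  obtain ⟨τ, hτ, rfl⟩ := Multiset.mem_map.1 hx
  refine ⟨τ, hm τ hτ, ?_⟩
  exact ((H.isMaximal (hm τ hτ)).eq_of_le hP.ne_top
    ((Ideal.span_singleton_le_iff_mem _).2 h2)).symm

theorem isPID : IsPrincipalIdealRing B := by
  refine IsPrincipalIdealRing.of_prime fun P hP => ?_
  by_cases h0 : P = ⊥
  · rw [h0]; infer_instance
  · obtain ⟨τ, _, h⟩ := H.exists_of_prime hP h0
    exact ⟨⟨_, h⟩⟩

theorem isDedekind : IsDedekindDomain B := by
  haveI := H.isPID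
  infer_instance

/-- the prime at a point -/
noncomputable def pt {τ : C} (hτ : τ ∈ S) : HeightOneSpectrum B where
  asIdeal := Ideal.span {T - algebraMap C B τ}
  isPrime := (H.isMaximal hτ).isPrime
  ne_bot := by
    rw [Ne, Ideal.span_singleton_eq_bot]
    exact H.sub_ne_zero τ

variable (F : Type*) [Field F] [Algebra B F] [IsFractionRing B F]

/-- the valuation at a point (order of vanishing) -/
noncomputable def vp {τ : C} (hτ : τ ∈ S) : Valuation F ℤᵐ⁰ :=
  haveI := H.isDedekind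
  (H.pt hτ).valuation F

theorem vp_T {τ : C} (hτ : τ ∈ S) :
    H.vp F hτ (algebraMap B F (T - algebraMap C B τ)) = exp (-1) := by
  haveI := H.isDedekind
  show (H.pt hτ).valuation F _ = _
  rw [HeightOneSpectrum.valuation_of_algebraMap]
  exact (H.pt hτ).intValuation_singleton (H.sub_ne_zero τ) rfl

theorem vp_le_one {τ : C} (hτ : τ ∈ S) (b : B) : H.vp F hτ (algebraMap B F b) ≤ 1 := by
  haveI := H.isDedekind
  exact (H.pt hτ).valuation_le_one b

theorem vp_lt_one_iff {τ : C} (hτ : τ ∈ S) (b : B) :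
    H.vp F hτ (algebraMap B F b) < 1 ↔ T - algebraMap C B τ ∣ b := by
  haveI := H.isDedekind
  show (H.pt hτ).valuation F _ < 1 ↔ _
  rw [HeightOneSpectrum.valuation_lt_one_iff_mem]
  exact Ideal.mem_span_singleton

theorem vp_eq_one_iff {τ : C} (hτ : τ ∈ S) (b : B) :
    H.vp F hτ (algebraMap B F b) = 1 ↔ ¬ T - algebraMap C B τ ∣ b := by
  rw [← H.vp_lt_one_iff F hτ, not_lt]
  exact ⟨fun h => h.ge, fun h => le_antisymm (H.vp_le_one F hτ b) h⟩

theorem vp_surj {τ : C} (hτ : τ ∈ S) : Function.Surjective (H.vp F hτ) := by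
  intro z
  rcases eq_or_ne z 0 with rfl | hz
  · exact ⟨0, map_zero _⟩
  · refine ⟨algebraMap B F (T - algebraMap C B τ) ^ (-log z), ?_⟩
    rw [map_zpow₀, vp_T, ← exp_zsmul]
    simp [exp_log hz]

variable [Algebra C F] [IsScalarTower C B F]

theorem vp_const {τ : C} (hτ : τ ∈ S) {c : C} (hc : c ≠ 0) :
    H.vp F hτ (algebraMap C F c) = 1 := by
  rw [IsScalarTower.algebraMap_apply C B F, vp_eq_one_iff]
  obtain ⟨e, he⟩ := H.ev τ hτ
  rw [H.ev_dvd_iff he, AlgHom.commutes]
  simpa using hc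

/-- the place of `F` at a point -/
noncomputable def plp {τ : C} (hτ : τ ∈ S) : Crest.Agent.R013.RR7_948.Pl C F where
  v := H.vp F hτ
  const := fun _ hc => H.vp_const F hτ hc
  surj := H.vp_surj F hτ

section general

variable {Γ : Type*} [LinearOrderedCommGroupWithZero Γ] {F}

omit [Algebra C F] [IsScalarTower C B F] in
/-- a valuation which is `≤ 1` on the ring is centred at a point -/
theorem exists_isEquiv (W : Valuation F Γ) (hB : ∀ b, W (algebraMap B F b) ≤ 1)
    (hnt : ∃ x : F, W x ≠ 0 ∧ W x ≠ 1) : ∃ (τ : C) (hτ : τ ∈ S), (H.vp F hτ).IsEquiv W := by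
  haveI := H.isDedekind
  obtain ⟨w, hw⟩ := Crest.Agent.R013.RR7_948.exists_heightOne_isEquiv W hB hnt
  obtain ⟨τ, hτ, h⟩ := H.exists_of_prime w.isPrime w.ne_bot
  refine ⟨τ, hτ, ?_⟩
  have h1 : w = H.pt hτ := HeightOneSpectrum.ext h
  rw [h1] at hw
  exact hw

omit [Algebra C F] [IsScalarTower C B F] in
theorem isEquiv_of_lt {W : Valuation F Γ} (hB : ∀ b, W (algebraMap B F b) ≤ 1) {τ : C}
    (hτ : τ ∈ S) (h : W (algebraMap B F (T - algebraMap C B τ)) < 1) :
    (H.vp F hτ).IsEquiv W := by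
  have h0 : algebraMap B F (T - algebraMap C B τ) ≠ 0 := by
    rw [Ne, map_eq_zero_iff _ (IsFractionRing.injective B F)]
    exact H.sub_ne_zero τ
  obtain ⟨τ', hτ', h1⟩ := H.exists_isEquiv W hB ⟨_, (Valuation.ne_zero_iff _).2 h0, h.ne⟩
  have h2 : H.vp F hτ' (algebraMap B F (T - algebraMap C B τ)) < 1 := h1.lt_one_iff_lt_one.2 h
  rw [vp_lt_one_iff] at h2
  obtain ⟨e, he⟩ := H.ev τ' hτ'
  rw [H.ev_dvd_iff he, map_sub, he, AlgHom.commutes] at h2
  have h3 : τ' = τ := _root_.sub_eq_zero.1 h2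
  subst h3
  exact h1

/-- explicit form -/
theorem eq_zpow {W : Valuation F Γ} (hB : ∀ b, W (algebraMap B F b) ≤ 1) {τ : C}
    (hτ : τ ∈ S) (h : W (algebraMap B F (T - algebraMap C B τ)) < 1) {f : F} {n : ℤ}
    (hf : H.vp F hτ f = exp n) : W f = W (algebraMap B F (T - algebraMap C B τ)) ^ (-n) :=
  Crest.Agent.R013.RR13_948.eq_zpow_of_isEquiv (P := H.plp F hτ) (H.isEquiv_of_lt hB hτ h)
    (H.vp_T F hτ) hf

theorem eq_of_apply_eq {W W' : Valuation F Γ} (hB : ∀ b, W (algebraMap B F b) ≤ 1)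
    (hB' : ∀ b, W' (algebraMap B F b) ≤ 1) {τ : C} (hτ : τ ∈ S)
    (h : W (algebraMap B F (T - algebraMap C B τ)) < 1)
    (hWW : W (algebraMap B F (T - algebraMap C B τ)) =
      W' (algebraMap B F (T - algebraMap C B τ))) : W = W' := by
  ext f
  by_cases hf : f = 0
  · rw [hf, map_zero, map_zero]
  · have h1 : H.vp F hτ f = exp (log (H.vp F hτ f)) :=
      (exp_log ((Valuation.ne_zero_iff _).2 hf)).symm
    rw [H.eq_zpow hB hτ h h1, H.eq_zpow hB' hτ (hWW ▸ h) h1, hWW]

end general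

variable {F}

/-- residues: an element which is `≤ 1` at the point is congruent to a constant -/
theorem exists_const {u : Valuation F ℝ≥0} (hB : ∀ b, u (algebraMap B F b) ≤ 1) {τ : C}
    (hτ : τ ∈ S) (h : u (algebraMap B F (T - algebraMap C B τ)) < 1) {y : F} (hy : u y ≤ 1) :
    ∃ c : C, u (y - algebraMap C F c) < 1 := by
  haveI := H.isPID
  by_cases hy1 : u y < 1
  · exact ⟨0, by simpa using hy1⟩
  replace hy1 : u y = 1 := le_antisymm hy (not_lt.1 hy1)
  obtain ⟨e, he⟩ := H.ev τ hτ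
  have hcrit : ∀ b : B, u (algebraMap B F b) < 1 ↔ T - algebraMap C B τ ∣ b := by
    intro b
    rw [← H.vp_lt_one_iff F hτ, (H.isEquiv_of_lt hB hτ h).lt_one_iff_lt_one]
  have hu0 : ∀ f : F, f ≠ 0 → 0 < u f := fun f hf =>
    pos_iff_ne_zero.2 ((Valuation.ne_zero_iff u).2 hf)
  -- normal form
  have hnf : ∀ b : B, b ≠ 0 → ∃ (n : ℕ) (b' : B), b = (T - algebraMap C B τ) ^ n * b' ∧
      ¬ T - algebraMap C B τ ∣ b' := by
    intro b hb
    have hnu : ¬ IsUnit (T - algebraMap C B τ) := by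
      intro hu
      have h1 := (H.isMaximal hτ).ne_top
      exact h1 (Ideal.span_singleton_eq_top.2 hu)
    obtain ⟨n, c, h1, h2⟩ := WfDvdMonoid.max_power_factor hb
      (x := T - algebraMap C B τ) (by
        have hp : Prime (T - algebraMap C B τ) := by
          rw [← Ideal.span_singleton_prime (H.sub_ne_zero τ)]
          exact (H.isMaximal hτ).isPrime
        exact hp.irreducible)
    exact ⟨n, c, h2, h1⟩
  obtain ⟨b, b', hb', rfl⟩ := IsFractionRing.div_surjective (A := B) y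
  have hb'0 : b' ≠ 0 := nonZeroDivisors.ne_zero hb'
  have hb0 : b ≠ 0 := by
    rintro rfl
    rw [map_zero, zero_div, map_zero] at hy1
    exact zero_ne_one hy1
  obtain ⟨n, b1, h1, h1'⟩ := hnf b hb0
  obtain ⟨m, b2, h2, h2'⟩ := hnf b' hb'0
  set t := algebraMap B F (T - algebraMap C B τ) with ht
  have ht0 : t ≠ 0 := by
    rw [ht, Ne, map_eq_zero_iff _ (IsFractionRing.injective B F)]
    exact H.sub_ne_zero τ
  have hub1 : u (algebraMap B F b1) = 1 :=
    le_antisymm (hB b1) (not_lt.1 fun hc => h1' ((hcrit b1).1 hc))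
  have hub2 : u (algebraMap B F b2) = 1 :=
    le_antisymm (hB b2) (not_lt.1 fun hc => h2' ((hcrit b2).1 hc))
  have hnm : n = m := by
    rw [h1, h2, map_mul, map_mul, map_pow, map_pow, map_div₀, map_mul, map_mul, map_pow, map_pow,
      hub1, hub2, mul_one, mul_one, ← ht,
      div_eq_one_iff_eq (pow_ne_zero _ ((Valuation.ne_zero_iff u).2 ht0))] at hy1
    exact pow_right_injective₀ (hu0 t ht0) h.ne hy1
  subst hnm
  have e2 : e b2 ≠ 0 := by rwa [Ne, ← H.ev_dvd_iff he]
  have hb20 : algebraMap B F b2 ≠ 0 := by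
    intro h0; rw [h0, map_zero] at hub2; exact zero_ne_one hub2
  refine ⟨e b1 / e b2, ?_⟩
  have h3 : T - algebraMap C B τ ∣ (b1 - algebraMap C B (e b1 / e b2) * b2) := by
    rw [H.ev_dvd_iff he, map_sub, map_mul, AlgHom.commutes]
    simp only [Algebra.algebraMap_self, RingHom.id_apply]
    rw [div_mul_cancel₀ _ e2, sub_self]
  have h4 : algebraMap B F b / algebraMap B F b' - algebraMap C F (e b1 / e b2) =
      algebraMap B F (b1 - algebraMap C B (e b1 / e b2) * b2) / algebraMap B F b2 := by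
    rw [h1, h2, map_mul, map_mul, map_pow, ← ht, mul_div_mul_left _ _ (pow_ne_zero _ ht0),
      map_sub, map_mul, ← IsScalarTower.algebraMap_apply C B F]
    field_simp
  rw [h4, map_div₀, hub2, div_one]
  exact (hcrit _).2 h3

/-- DENSITY of `C(T)` for the valuation at a point -/
theorem dn {F₀ : Type*} [Field F₀] (i : F₀ →+* F)
    (hC : ∀ c : C, ∃ x, i x = algebraMap C F c) (hT : ∃ x, i x = algebraMap B F T)
    {u : Valuation F ℝ≥0} (hB : ∀ b, u (algebraMap B F b) ≤ 1) {τ : C}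
    (hτ : τ ∈ S) (h : u (algebraMap B F (T - algebraMap C B τ)) < 1) : Dn i u := by
  set t := algebraMap B F (T - algebraMap C B τ) with ht
  have ht0 : t ≠ 0 := by
    rw [ht, Ne, map_eq_zero_iff _ (IsFractionRing.injective B F)]
    exact H.sub_ne_zero τ
  have hut : u t ≠ 0 := (Valuation.ne_zero_iff u).2 ht0
  obtain ⟨t', ht'⟩ : ∃ x, i x = t := by
    obtain ⟨x, hx⟩ := hT
    obtain ⟨y, hy⟩ := hC τ
    exact ⟨x - y, by rw [map_sub, hx, hy, ht, map_sub, ← IsScalarTower.algebraMap_apply C B F]⟩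
  -- value group is generated by `u t`
  have hval : ∀ y : F, u y < 1 → u (y / t) ≤ 1 := by
    intro y hy
    by_cases hy0 : y = 0
    · rw [hy0]; simp
    have hv0 : H.vp F hτ y ≠ 0 := (Valuation.ne_zero_iff _).2 hy0
    have h1 : H.vp F hτ y < 1 := (H.isEquiv_of_lt hB hτ h).lt_one_iff_lt_one.2 hy
    have h2 : H.vp F hτ (y / t) ≤ 1 := by
      rw [map_div₀, H.vp_T F hτ, ← exp_log hv0, ← exp_sub, ← exp_zero, exp_le_exp]
      rw [← exp_log hv0, ← exp_zero, exp_lt_exp] at h1
      omega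
    exact (H.isEquiv_of_lt hB hτ h).le_one_iff_le_one.1 h2
  -- induction
  have key : ∀ (N : ℕ) (y : F), u y ≤ 1 → ∃ x : F₀, u (y - i x) ≤ u t ^ N := by
    intro N
    induction N with
    | zero => intro y hy; exact ⟨0, by simpa using hy⟩
    | succ N ih =>
      intro y hy
      obtain ⟨c, hc⟩ := H.exists_const hB hτ h hy
      obtain ⟨x, hx⟩ := ih _ (hval _ hc)
      obtain ⟨c', hc'⟩ := hC c
      refine ⟨c' + t' * x, ?_⟩
      have e1 : y - i (c' + t' * x) = t * ((y - algebraMap C F c) / t - i x) := by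
        rw [map_add, map_mul, hc', ht']
        field_simp
        ring
      rw [e1, map_mul, pow_succ']
      gcongr
  intro y ε hε
  obtain ⟨n, hn⟩ : ∃ n : ℕ, u (y * t ^ n) ≤ 1 := by
    by_cases hy0 : y = 0
    · exact ⟨0, by rw [hy0]; simp⟩
    obtain ⟨n, hn⟩ := exists_pow_lt_of_lt_one (pos_iff_ne_zero.2 (inv_ne_zero
      ((Valuation.ne_zero_iff u).2 hy0))) h
    refine ⟨n, ?_⟩
    rw [map_mul, map_pow]
    calc u y * u t ^ n ≤ u y * (u y)⁻¹ := by gcongr
      _ = 1 := mul_inv_cancel₀ ((Valuation.ne_zero_iff u).2 hy0)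
  have hεn : 0 < ε * u t ^ n := mul_pos hε (pow_pos (pos_iff_ne_zero.2 hut) n)
  obtain ⟨N, hN⟩ := exists_pow_lt_of_lt_one hεn h
  obtain ⟨x, hx⟩ := key N _ hn
  refine ⟨x / t' ^ n, ?_⟩
  have e1 : y - i (x / t' ^ n) = (y * t ^ n - i x) / t ^ n := by
    rw [map_div₀, map_pow, ht']
    field_simp
  rw [e1, map_div₀, map_pow, div_lt_iff₀ (pow_pos (pos_iff_ne_zero.2 hut) n)]
  exact hx.trans_lt hN

end CellRing

end Crest.Agent.R013.Pts2_315
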