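import Mathlib
import Crest.Agent.R013.Pts2_315

/-!
# RED-PTS, part 3 (row 13): places of `K` in one cell

`K ⊗ Fc = ∏ j, F j`, all of them fraction fields of `CellRing`s. The places of `K` over the
points of the base cell are exactly the points of the cells `j`, each once.
-/

set_option autoImplicit false
set_option linter.style.haveILetI false
set_option linter.unusedSectionVars false
set_option linter.unusedVariables false

open scoped NNReal
open IsDedekindDomain WithZero Polynomial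

namespace Crest.Agent.R013.Pts3_315

open Crest.Agent.R013.Pts1_315 Crest.Agent.R013.Pts2_315
open Crest.Agent.R013.RR7_948 Crest.Agent.R013.RR13_948

/-- two real valuations of a field generated by `C` and `t₀`, trivial on `C`, with the same value
`< 1` at `t₀ - τ₀`, are equal -/
theorem val_eq_of_gen {C F₀ : Type*} [Field C] [IsAlgClosed C] [Field F₀] [Algebra C F₀]
    {W W' : Valuation F₀ ℝ≥0} (hC : ∀ c : C, c ≠ 0 → W (algebraMap C F₀ c) = 1)
    (hC' : ∀ c : C, c ≠ 0 → W' (algebraMap C F₀ c) = 1) {t₀ : F₀} {τ₀ : C}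
    (hgen : ∀ f : F₀, ∃ p q : C[X], aeval t₀ q ≠ 0 ∧ f = aeval t₀ p / aeval t₀ q)
    (h : W (t₀ - algebraMap C F₀ τ₀) < 1)
    (hWW : W (t₀ - algebraMap C F₀ τ₀) = W' (t₀ - algebraMap C F₀ τ₀)) : W = W' := by
  have key : ∀ {V : Valuation F₀ ℝ≥0}, (∀ c : C, c ≠ 0 → V (algebraMap C F₀ c) = 1) →
      V (t₀ - algebraMap C F₀ τ₀) < 1 → ∀ α : C, α ≠ τ₀ → V (t₀ - algebraMap C F₀ α) = 1 := by
    intro V hV hV1 α hα
    have h1 : V (algebraMap C F₀ (τ₀ - α)) = 1 := hV _ (sub_ne_zero.2 hα.symm)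
    have h2 : t₀ - algebraMap C F₀ α = (t₀ - algebraMap C F₀ τ₀) + algebraMap C F₀ (τ₀ - α) := by
      rw [map_sub]; ring
    rw [h2, Valuation.map_add_eq_of_lt_right _ (by rw [h1]; exact hV1), h1]
  have hlin : ∀ α : C, W (t₀ - algebraMap C F₀ α) = W' (t₀ - algebraMap C F₀ α) := by
    intro α
    by_cases hα : α = τ₀
    · rw [hα, hWW]
    · rw [key hC h α hα, key hC' (hWW ▸ h) α hα]
  have hpoly : ∀ p : C[X], W (aeval t₀ p) = W' (aeval t₀ p) := by
    intro p
    by_cases hp : p = 0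
    · rw [hp, map_zero, map_zero, map_zero]
    have hs := (IsAlgClosed.splits p).eq_prod_roots
    rw [hs, map_mul, aeval_C, map_multiset_prod, Multiset.map_map, map_mul, map_mul,
      map_multiset_prod, map_multiset_prod, Multiset.map_map, Multiset.map_map,
      hC _ (leadingCoeff_ne_zero.2 hp), hC' _ (leadingCoeff_ne_zero.2 hp)]
    congr 3
    funext α
    simp only [Function.comp_apply, map_sub, aeval_X, aeval_C]
    exact hlin α
  ext f
  obtain ⟨p, q, hq, rfl⟩ := hgen f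
  rw [map_div₀, map_div₀, hpoly, hpoly]


/-- A cell of the line together with the cells of `K` over it.
`F₀ = C(x)`, `i : F₀ → Fc` the expansion, `t₀` the coordinate of the base cell. -/
structure CellCover {C F₀ K Bc Fc : Type*} [Field C] [Field F₀] [Field K] [Algebra C F₀]
    [Algebra C K] [Algebra F₀ K] [IsScalarTower C F₀ K] [CommRing Bc] [IsDomain Bc] [Algebra C Bc]
    [Field Fc] [Algebra Bc Fc] [IsFractionRing Bc Fc] [Algebra C Fc] [IsScalarTower C Bc Fc]
    (Tc : Bc) (Sc : Set C) (i : F₀ →+* Fc) (t₀ : F₀)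
    {J : Type*} {B F : J → Type*} [∀ j, CommRing (B j)] [∀ j, IsDomain (B j)]
    [∀ j, Algebra C (B j)] [∀ j, Field (F j)] [∀ j, Algebra (B j) (F j)]
    [∀ j, IsFractionRing (B j) (F j)] [∀ j, Algebra C (F j)] [∀ j, IsScalarTower C (B j) (F j)]
    (T : ∀ j, B j) (S : ∀ j, Set C) (io : ∀ j, K →+* F j) (sg : ∀ j, Fc →+* F j)
    (sg0 : ∀ j, Bc →ₐ[C] B j) : Prop where
  base : CellRing Tc Sc
  up : ∀ j, CellRing (T j) (S j)
  gen : ∀ f : F₀, ∃ p q : C[X], aeval t₀ q ≠ 0 ∧ f = aeval t₀ p / aeval t₀ q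
  i_C : ∀ c : C, i (algebraMap C F₀ c) = algebraMap C Fc c
  i_t : i t₀ = algebraMap Bc Fc Tc
  io_C : ∀ j, ∀ c : C, io j (algebraMap C K c) = algebraMap C (F j) c
  sg_alg : ∀ j, ∀ b : Bc, sg j (algebraMap Bc Fc b) = algebraMap (B j) (F j) (sg0 j b)
  pd : PD (algebraMap F₀ K) i io sg
  int : ∀ j, ∀ b : B j, (sg0 j).toRingHom.IsIntegralElem b

namespace CellCover

variable {C F₀ K Bc Fc : Type*} [Field C] [Field F₀] [Field K] [Algebra C F₀]
    [Algebra C K] [Algebra F₀ K] [IsScalarTower C F₀ K] [CommRing Bc] [IsDomain Bc] [Algebra C Bc]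
    [Field Fc] [Algebra Bc Fc] [IsFractionRing Bc Fc] [Algebra C Fc] [IsScalarTower C Bc Fc]
    {Tc : Bc} {Sc : Set C} {i : F₀ →+* Fc} {t₀ : F₀}
    {J : Type*} {B F : J → Type*} [∀ j, CommRing (B j)] [∀ j, IsDomain (B j)]
    [∀ j, Algebra C (B j)] [∀ j, Field (F j)] [∀ j, Algebra (B j) (F j)]
    [∀ j, IsFractionRing (B j) (F j)] [∀ j, Algebra C (F j)] [∀ j, IsScalarTower C (B j) (F j)]
    {T : ∀ j, B j} {S : ∀ j, Set C} {io : ∀ j, K →+* F j} {sg : ∀ j, Fc →+* F j}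
    {sg0 : ∀ j, Bc →ₐ[C] B j} (H : CellCover Tc Sc i t₀ T S io sg sg0)
include H

theorem dn {u : Valuation Fc ℝ≥0} (hB : ∀ b, u (algebraMap Bc Fc b) ≤ 1) {τ : C}
    (hτ : τ ∈ Sc) (h : u (algebraMap Bc Fc (Tc - algebraMap C Bc τ)) < 1) : Dn i u :=
  H.base.dn i (fun c => ⟨_, H.i_C c⟩) ⟨_, H.i_t⟩ hB hτ h

theorem i_sub (τ : C) : i (t₀ - algebraMap C F₀ τ) =
    algebraMap Bc Fc (Tc - algebraMap C Bc τ) := by
  rw [map_sub, H.i_t, H.i_C, map_sub, ← IsScalarTower.algebraMap_apply]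

theorem t₀_sub_ne_zero {τ : C} : t₀ - algebraMap C F₀ τ ≠ 0 := by
  intro h
  have h1 := H.i_sub τ
  rw [h, map_zero, eq_comm, map_eq_zero_iff _ (IsFractionRing.injective Bc Fc)] at h1
  exact H.base.sub_ne_zero τ h1

/-- a real valuation of a factor which is `≤ 1` on the base ring is `≤ 1` on the ring -/
theorem le_one {j : J} {W : Valuation (F j) ℝ≥0}
    (h : ∀ b : Bc, W (algebraMap (B j) (F j) (sg0 j b)) ≤ 1) (b : B j) :
    W (algebraMap (B j) (F j) b) ≤ 1 := by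
  obtain ⟨p, hp, hpb⟩ := H.int j b
  letI : Algebra Bc (F j) := ((algebraMap (B j) (F j)).comp (sg0 j).toRingHom).toAlgebra
  refine Crest.Agent.R013.RR8_948.le_one_of_integral (S := Bc) W h ⟨p, hp, ?_⟩
  have h1 := congrArg (algebraMap (B j) (F j)) hpb
  rw [map_zero, Polynomial.hom_eval₂] at h1
  exact h1

/-- the point of the base cell under a point of a cell -/
theorem exists_under {j : J} {τ : C} (hτ : τ ∈ S j) : ∃ τ₀ ∈ Sc,
    T j - algebraMap C (B j) τ ∣ sg0 j (Tc - algebraMap C Bc τ₀) := by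
  obtain ⟨e, he⟩ := (H.up j).ev τ hτ
  let e' : Bc →ₐ[C] C := e.comp (sg0 j)
  have hk : (RingHom.ker e').IsPrime := RingHom.ker_isPrime _
  have hne : RingHom.ker e' ≠ ⊥ := by
    intro h
    have h1 : Tc - algebraMap C Bc (e' Tc) ∈ RingHom.ker e' := by
      rw [RingHom.mem_ker, map_sub, AlgHom.commutes]; simp
    rw [h, Ideal.mem_bot] at h1
    exact H.base.sub_ne_zero _ h1
  obtain ⟨τ₁, hτ₁, h1⟩ := H.base.exists_of_prime hk hne
  refine ⟨τ₁, hτ₁, ?_⟩
  rw [(H.up j).ev_dvd_iff he]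
  have h2 : Tc - algebraMap C Bc τ₁ ∈ RingHom.ker e' := by
    rw [h1]; exact Ideal.mem_span_singleton_self _
  exact h2

/-- the real valuation of `F j` at a point -/
noncomputable def rv (j : J) {τ : C} (hτ : τ ∈ S j) : Valuation (F j) ℝ≥0 :=
  ((H.up j).vp (F j) hτ).map toReal toReal_strictMono.monotone

theorem rv_apply (j : J) {τ : C} (hτ : τ ∈ S j) (f : F j) :
    H.rv j hτ f = toReal ((H.up j).vp (F j) hτ f) := rfl

theorem rv_le_one (j : J) {τ : C} (hτ : τ ∈ S j) (b : B j) :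
    H.rv j hτ (algebraMap (B j) (F j) b) ≤ 1 := by
  rw [rv_apply, ← map_one toReal, toReal_strictMono.le_iff_le]
  exact (H.up j).vp_le_one _ hτ b

theorem rv_lt_one (j : J) {τ : C} (hτ : τ ∈ S j) {b : B j}
    (h : T j - algebraMap C (B j) τ ∣ b) : H.rv j hτ (algebraMap (B j) (F j) b) < 1 := by
  rw [rv_apply, ← map_one toReal, toReal_strictMono.lt_iff_lt]
  exact ((H.up j).vp_lt_one_iff _ hτ b).2 h

theorem surj (j : J) {τ : C} (hτ : τ ∈ S j) :
    Function.Surjective (((H.up j).vp (F j) hτ).comap (io j)) := by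
  intro z
  obtain ⟨g, hg⟩ := (H.up j).vp_surj (F j) hτ z
  obtain ⟨τ₀, hτ₀, hdvd⟩ := H.exists_under hτ
  have hB : ∀ b, (H.rv j hτ).comap (sg j) (algebraMap Bc Fc b) ≤ 1 := fun b => by
    rw [Valuation.comap_apply, H.sg_alg]; exact H.rv_le_one j hτ _
  have hlt : (H.rv j hτ).comap (sg j) (algebraMap Bc Fc (Tc - algebraMap C Bc τ₀)) < 1 := by
    rw [Valuation.comap_apply, H.sg_alg]; exact H.rv_lt_one j hτ hdvd
  obtain ⟨x, hx⟩ := H.pd.exists_val_eq (H.dn hB hτ₀ hlt) (W := H.rv j hτ) (fun b => rfl) g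
  refine ⟨x, ?_⟩
  rw [rv_apply, rv_apply] at hx
  rw [Valuation.comap_apply, toReal_strictMono.injective hx, hg]

/-- the place of `K` at a point of a cell -/
noncomputable def plc (j : J) {τ : C} (hτ : τ ∈ S j) : Pl C K where
  v := ((H.up j).vp (F j) hτ).comap (io j)
  const := fun c hc => by
    rw [Valuation.comap_apply, H.io_C]
    exact (H.up j).vp_const _ hτ hc
  surj := H.surj j hτ

theorem plc_v (j : J) {τ : C} (hτ : τ ∈ S j) (f : K) :
    (H.plc j hτ).v f = (H.up j).vp (F j) hτ (io j f) := rfl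

theorem algebraMap_t (j : J) (τ₀ : C) :
    io j (algebraMap F₀ K t₀ - algebraMap C K τ₀) =
      algebraMap (B j) (F j) (sg0 j (Tc - algebraMap C Bc τ₀)) := by
  rw [IsScalarTower.algebraMap_apply C F₀ K, ← map_sub, H.pd.comm, H.i_sub, H.sg_alg]

/-- the place lies over the base point -/
theorem plc_lt_one (j : J) {τ : C} (hτ : τ ∈ S j) : ∃ τ₀ ∈ Sc,
    (H.plc j hτ).v (algebraMap F₀ K t₀ - algebraMap C K τ₀) < 1 := by
  obtain ⟨τ₀, hτ₀, hdvd⟩ := H.exists_under hτ
  refine ⟨τ₀, hτ₀, ?_⟩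
  rw [plc_v, H.algebraMap_t, (H.up j).vp_lt_one_iff]
  exact hdvd

omit H in
theorem base_unique {P : Pl C K} {x₀ : K} {τ₀ τ₁ : C}
    (h : P.v (x₀ - algebraMap C K τ₀) < 1)
    (h' : P.v (x₀ - algebraMap C K τ₁) < 1) : τ₀ = τ₁ := by
  by_contra hne
  have h1 := P.const (τ₀ - τ₁) (sub_ne_zero.2 hne)
  have h2 : algebraMap C K (τ₀ - τ₁) = (x₀ - algebraMap C K τ₁) -
      (x₀ - algebraMap C K τ₀) := by rw [map_sub]; ring
  rw [h2] at h1
  exact absurd h1 (((P.v.map_sub _ _).trans_lt (max_lt h' h)).ne)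

/-- INJECTIVITY: different points of the cells over a base cell are different places -/
theorem plc_injective {j j' : J} {τ τ' : C} {hτ : τ ∈ S j} {hτ' : τ' ∈ S j'}
    (h : H.plc j hτ = H.plc j' hτ') : j = j' ∧ τ = τ' := by
  obtain ⟨τ₀, hτ₀, h0⟩ := H.plc_lt_one j hτ
  have hv : ∀ f, (H.up j).vp (F j) hτ (io j f) = (H.up j').vp (F j') hτ' (io j' f) := fun f => by
    have h1 : (H.plc j hτ).v f = (H.plc j' hτ').v f := by rw [h]
    exact h1
  have h0' : (H.plc j' hτ').v (algebraMap F₀ K t₀ - algebraMap C K τ₀) < 1 := h ▸ h0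
  have hB : ∀ b, (H.rv j hτ).comap (sg j) (algebraMap Bc Fc b) ≤ 1 := fun b => by
    rw [Valuation.comap_apply, H.sg_alg]; exact H.rv_le_one j hτ _
  have hB' : ∀ b, (H.rv j' hτ').comap (sg j') (algebraMap Bc Fc b) ≤ 1 := fun b => by
    rw [Valuation.comap_apply, H.sg_alg]; exact H.rv_le_one j' hτ' _
  have e1 : (H.rv j hτ).comap (sg j) (algebraMap Bc Fc (Tc - algebraMap C Bc τ₀)) =
      toReal ((H.plc j hτ).v (algebraMap F₀ K t₀ - algebraMap C K τ₀)) := by
    rw [Valuation.comap_apply, H.sg_alg, rv_apply, plc_v, H.algebraMap_t]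
  have e1' : (H.rv j' hτ').comap (sg j') (algebraMap Bc Fc (Tc - algebraMap C Bc τ₀)) =
      toReal ((H.plc j' hτ').v (algebraMap F₀ K t₀ - algebraMap C K τ₀)) := by
    rw [Valuation.comap_apply, H.sg_alg, rv_apply, plc_v, H.algebraMap_t]
  have hlt : (H.rv j hτ).comap (sg j) (algebraMap Bc Fc (Tc - algebraMap C Bc τ₀)) < 1 := by
    rw [e1, ← map_one toReal, toReal_strictMono.lt_iff_lt]; exact h0
  have hu : (H.rv j hτ).comap (sg j) = (H.rv j' hτ').comap (sg j') := by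
    refine H.base.eq_of_apply_eq hB hB' hτ₀ hlt ?_
    rw [e1, e1', h]
  have hd := H.dn hB hτ₀ hlt
  have hW' : ∀ b, H.rv j' hτ' (sg j' b) = (H.rv j hτ).comap (sg j) b := fun b => by
    rw [hu]; rfl
  have hio : ∀ x : K, H.rv j hτ (io j x) = H.rv j' hτ' (io j' x) := fun x => by
    rw [rv_apply, rv_apply, hv]
  have hj : j = j' := H.pd.factor_unique hd (fun b => rfl) hW' hio
  subst hj
  refine ⟨rfl, ?_⟩
  have hW := H.pd.val_unique hd (fun b => rfl) hW' hio
  have h3 : H.rv j hτ' (algebraMap (B j) (F j) (T j - algebraMap C (B j) τ)) < 1 := by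
    rw [← hW]; exact H.rv_lt_one j hτ dvd_rfl
  rw [rv_apply, ← map_one toReal, toReal_strictMono.lt_iff_lt, (H.up j).vp_lt_one_iff] at h3
  obtain ⟨e, he⟩ := (H.up j).ev τ' hτ'
  rw [(H.up j).ev_dvd_iff he, map_sub, he, AlgHom.commutes] at h3
  exact (sub_eq_zero.1 h3).symm

/-- SURJECTIVITY: every place of `K` over a point of the base cell is a point of a cell -/
theorem exists_plc [IsAlgClosed C] {P : Pl C K} {τ₀ : C} (hτ₀ : τ₀ ∈ Sc)
    (h : P.v (algebraMap F₀ K t₀ - algebraMap C K τ₀) < 1) :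
    ∃ (j : J) (τ : C) (hτ : τ ∈ S j), P = H.plc j hτ := by
  -- the base valuation
  set z := P.v (algebraMap F₀ K t₀ - algebraMap C K τ₀) with hz
  have hz0 : z ≠ 0 := by
    rw [hz, Valuation.ne_zero_iff, IsScalarTower.algebraMap_apply C F₀ K, ← map_sub,
      Ne, map_eq_zero]
    exact H.t₀_sub_ne_zero
  obtain ⟨e, he⟩ : ∃ e : ℕ, z = exp (-1) ^ e ∧ e ≠ 0 := by
    have h1 : z = exp (log z) := (exp_log hz0).symm
    have h2 : log z < 0 := by
      rw [h1, ← exp_zero, exp_lt_exp] at h; exact h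
    refine ⟨(-log z).toNat, ?_, by omega⟩
    rw [← exp_nsmul]
    conv_lhs => rw [h1]
    congr 1
    simp only [nsmul_eq_mul]
    have : ((-log z).toNat : ℤ) = -log z := Int.toNat_of_nonneg (by omega)
    rw [this]; ring
  let φ : ℤᵐ⁰ →*₀ ℝ≥0 := (powMonoidWithZeroHom he.2).comp toReal
  have hφ : StrictMono φ := fun a b hab =>
    pow_lt_pow_left₀ (toReal_strictMono hab) (zero_le) he.2
  let u : Valuation Fc ℝ≥0 := (H.base.vp Fc hτ₀).map φ hφ.monotone
  have huB : ∀ b, u (algebraMap Bc Fc b) ≤ 1 := fun b => by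
    show φ _ ≤ 1
    rw [← map_one φ, hφ.le_iff_le]
    exact H.base.vp_le_one _ hτ₀ b
  have huT : u (algebraMap Bc Fc (Tc - algebraMap C Bc τ₀)) = toReal z := by
    show toReal (H.base.vp Fc hτ₀ _) ^ e = toReal z
    rw [H.base.vp_T, he.1, map_pow]
  have hlt1 : toReal z < 1 := by
    rw [← map_one toReal, toReal_strictMono.lt_iff_lt]; exact h
  have hult : u (algebraMap Bc Fc (Tc - algebraMap C Bc τ₀)) < 1 := by rw [huT]; exact hlt1
  -- agreement on `F₀`
  have hC1 : ∀ c : C, c ≠ 0 → u (algebraMap C Fc c) = 1 := fun c hc => by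
    show φ _ = 1
    rw [H.base.vp_const Fc hτ₀ hc, map_one]
  have hwu : ∀ f : F₀, (P.v.map toReal toReal_strictMono.monotone) (algebraMap F₀ K f) =
      u (i f) := by
    have hval : (P.v.map toReal toReal_strictMono.monotone).comap (algebraMap F₀ K) =
        u.comap i := by
      refine val_eq_of_gen (τ₀ := τ₀) (t₀ := t₀) ?_ ?_ H.gen ?_ ?_
      · intro c hc
        rw [Valuation.comap_apply, ← IsScalarTower.algebraMap_apply]
        show toReal _ = 1
        rw [P.const c hc, map_one]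
      · intro c hc
        rw [Valuation.comap_apply, H.i_C, hC1 c hc]
      · rw [Valuation.comap_apply, map_sub, ← IsScalarTower.algebraMap_apply]
        exact hlt1
      · rw [Valuation.comap_apply, map_sub, ← IsScalarTower.algebraMap_apply,
          Valuation.comap_apply, H.i_sub, huT]
        rfl
    intro f
    exact congrArg (fun V => V f) hval
  have hd := H.dn huB hτ₀ hult
  obtain ⟨j, W, hW1, hW2⟩ := H.pd.exists_ext _ hwu hd
  have hWB : ∀ b, W (algebraMap (B j) (F j) b) ≤ 1 := H.le_one fun b => by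
    rw [← H.sg_alg, hW2]; exact huB b
  have hnt : ∃ x : F j, W x ≠ 0 ∧ W x ≠ 1 := by
    refine ⟨sg j (algebraMap Bc Fc (Tc - algebraMap C Bc τ₀)), ?_, ?_⟩
    · rw [hW2, huT, _root_.map_ne_zero]; exact hz0
    · rw [hW2]; exact hult.ne
  obtain ⟨τ, hτ, hEq⟩ := (H.up j).exists_isEquiv W hWB hnt
  refine ⟨j, τ, hτ, ?_⟩
  apply Pl.ext
  refine eq_of_isEquiv_surj ?_ P.surj (H.surj j hτ)
  intro x y
  have h1 : P.v x ≤ P.v y ↔ W (io j x) ≤ W (io j y) := by
    rw [hW1, hW1]; exact toReal_strictMono.le_iff_le.symm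
  rw [h1]
  exact (hEq (io j x) (io j y)).symm

end CellCover

end Crest.Agent.R013.Pts3_315
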