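import Mathlib
import Crest.Agent.R013.Pts3_315
import Crest.Agent.R013.Cell4_408

/-!
# RED-PTS, part 4 (row 13): `BD k C` (bounded functions on the open unit disc) is a `CellRing`
-/

set_option autoImplicit false
set_option linter.style.haveILetI false
set_option linter.unusedSectionVars false
set_option linter.unusedVariables false

open scoped NNReal

namespace Crest.Agent.R013.Pts4_315

open Crest.Agent.R013.Pts1_315 Crest.Agent.R013.Pts2_315 Crest.Agent.R013.Pts3_315
open Crest.Agent.R013.Cell_408

variable {k C : Type*} [NontriviallyNormedField k] [CompleteSpace k] [IsUltrametricDist k]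
  [NormedField C] [IsUltrametricDist C] [NormedAlgebra k C] [Algebra.IsAlgebraic k C] [IsAlgClosed C]

variable (k C) in
/-- the coordinate of the open unit disc -/
noncomputable def XD : BD k C := ⟨PowerSeries.X, X_mem_BD⟩

theorem coe_prod (m : Multiset C) :
    (((m.map fun τ => XD k C - algebraMap C (BD k C) τ).prod : BD k C) : PowerSeries C) =
      (rootPoly m : PowerSeries C) := by
  have h1 : (((m.map fun τ => XD k C - algebraMap C (BD k C) τ).prod : BD k C) : PowerSeries C) =
      (BD k C).val (m.map fun τ => XD k C - algebraMap C (BD k C) τ).prod := rfl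
  have h2 : (rootPoly m : PowerSeries C) = Polynomial.coeToPowerSeries.ringHom (rootPoly m) := rfl
  rw [h1, h2, map_multiset_prod, rootPoly, map_multiset_prod, Multiset.map_map, Multiset.map_map]
  congr 1
  refine Multiset.map_congr rfl fun τ _ => ?_
  simp only [Function.comp_apply, map_sub, AlgHom.commutes]
  rw [Polynomial.coeToPowerSeries.ringHom_apply, Polynomial.coeToPowerSeries.ringHom_apply,
    Polynomial.coe_X, Polynomial.coe_C]
  rfl

theorem cellRing_BD (hk : DiscNorm k) : CellRing (XD k C) {τ : C | ‖τ‖ < 1} where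
  fac := by
    intro b hb
    have hb' : (b : PowerSeries C) ≠ 0 := fun h => hb (Subtype.ext h)
    obtain ⟨c, g, m, hc, hg, hfg, -, -⟩ := exists_normalise hk b.2 hb'
    obtain ⟨u, S, hu, -, hS, hgu⟩ := hg.exists_roots
    obtain ⟨v, hv, huv⟩ := hu.inv
    refine ⟨S, hS, Associated.symm ?_⟩
    have hcc : (PowerSeries.C c : PowerSeries C) * PowerSeries.C c⁻¹ = 1 := by
      rw [← map_mul, mul_inv_cancel₀ hc, map_one]
    refine ⟨⟨⟨PowerSeries.C c * u, mul_mem (C_mem_BD c) hu.mem⟩,
      ⟨PowerSeries.C c⁻¹ * v, mul_mem (C_mem_BD _) hv.mem⟩, Subtype.ext ?_, Subtype.ext ?_⟩, ?_⟩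
    · show PowerSeries.C c * u * (PowerSeries.C c⁻¹ * v) = 1
      linear_combination (u * v) * hcc + huv
    · show PowerSeries.C c⁻¹ * v * (PowerSeries.C c * u) = 1
      linear_combination (u * v) * hcc + huv
    · apply Subtype.ext
      show ((S.map fun τ => XD k C - algebraMap C (BD k C) τ).prod : BD k C).1 *
        (PowerSeries.C c * u) = b.1
      rw [coe_prod, hfg, hgu]
      ring
  ev := fun τ hτ => ⟨ev τ hτ, evp_X τ⟩
  nc := by
    intro c h
    have h1 := congrArg (fun f : BD k C => PowerSeries.coeff 1 (f : PowerSeries C)) h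
    have h2 : PowerSeries.coeff 1 ((algebraMap C (BD k C) c : BD k C) : PowerSeries C) = 0 := by
      show PowerSeries.coeff 1 (PowerSeries.C c) = 0
      rw [PowerSeries.coeff_C]; simp
    simp only [h2] at h1
    have h3 : PowerSeries.coeff 1 ((XD k C : BD k C) : PowerSeries C) = 1 := by
      show PowerSeries.coeff 1 (PowerSeries.X : PowerSeries C) = 1
      rw [PowerSeries.coeff_one_X]
    rw [h3] at h1
    exact one_ne_zero h1

end Crest.Agent.R013.Pts4_315
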