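import Mathlib
import Crest.Agent.R013.Pts4_315
import Crest.Agent.R013.SSDefs_332
import Crest.Agent.R013.EE4_809

/-!
# RED-PTS / CONN (row 13), part 1: functions without poles on a disc or an annulus cell
-/

set_option autoImplicit false
set_option linter.style.haveILetI false
set_option linter.unusedSectionVars false
set_option linter.unusedVariables false

open scoped NNReal
open WithZero

namespace Crest.Agent.R013.Conn_315

open Crest.Agent.R013.Pts2_315 Crest.Agent.R013.Pts4_315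
open Crest.Agent.R013.Cell_408 (BD DiscNorm evp ev FinDef)
open Crest.Agent.R013.EE809 Crest.Agent.R013.SSK_332

/-- a cell ring is the intersection of its local rings -/
theorem mem_range_of_local {C B F : Type*} [Field C] [CommRing B] [IsDomain B] [Algebra C B]
    {T : B} {S : Set C} (H : CellRing T S) [Field F] (φ : B →+* F) (a : F)
    (h1 : ∃ h : B, h ≠ 0 ∧ ∃ g, a * φ h = φ g)
    (h2 : ∀ τ ∈ S, ∃ h : B, ¬ (T - algebraMap C B τ ∣ h) ∧ ∃ g, a * φ h = φ g) :
    ∃ b, a = φ b := by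
  let I : Ideal B :=
    { carrier := {h | ∃ g, a * φ h = φ g}
      add_mem' := by
        rintro x y ⟨g, hg⟩ ⟨g', hg'⟩
        exact ⟨g + g', by rw [map_add, mul_add, hg, hg', map_add]⟩
      zero_mem' := ⟨0, by simp⟩
      smul_mem' := by
        rintro c x ⟨g, hg⟩
        refine ⟨c * g, ?_⟩
        rw [smul_eq_mul, map_mul, map_mul, ← hg]; ring }
  have hI : I = ⊤ := by
    by_contra hne
    obtain ⟨M, hM, hIM⟩ := Ideal.exists_le_maximal I hne
    have h0 : M ≠ ⊥ := by
      rintro rfl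
      obtain ⟨h, hh, hg⟩ := h1
      exact hh (by simpa using hIM (show h ∈ I from hg))
    obtain ⟨τ, hτ, hMτ⟩ := H.exists_of_prime hM.isPrime h0
    obtain ⟨h, hh, hg⟩ := h2 τ hτ
    have h3 : h ∈ M := hIM (show h ∈ I from hg)
    rw [hMτ, Ideal.mem_span_singleton] at h3
    exact hh h3
  have h3 : (1 : B) ∈ I := by rw [hI]; trivial
  obtain ⟨g, hg⟩ := h3
  exact ⟨g, by rw [← hg, map_one, mul_one]⟩

theorem tendsto_zpow_int {r : ℝ} (h0 : 0 ≤ r) (h1 : r < 1) :
    Filter.Tendsto (fun n : ℤ => r ^ n) Filter.atTop (nhds 0) := by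
  have h : Filter.Tendsto (fun n : ℤ => r ^ n.toNat) Filter.atTop (nhds 0) :=
    (tendsto_pow_atTop_nhds_zero_of_lt_one h0 h1).comp (Filter.tendsto_atTop.2 fun b =>
      (Filter.eventually_ge_atTop (b : ℤ)).mono (by intro n hn; omega))
  refine h.congr' ?_
  filter_upwards [Filter.eventually_ge_atTop 0] with n hn
  rw [← zpow_natCast, Int.toNat_of_nonneg hn]

theorem tendsto_zpow_int' {r : ℝ} (h1 : 1 < r) :
    Filter.Tendsto (fun n : ℤ => r ^ n) Filter.atBot (nhds 0) := by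
  have h := (tendsto_zpow_int (r := r⁻¹) (by positivity) (inv_lt_one_of_one_lt₀ h1)).comp
    Filter.tendsto_neg_atBot_atTop
  refine h.congr fun n => ?_
  simp

section EE

variable {k C : Type*} [NontriviallyNormedField k] [CompleteSpace k] [IsUltrametricDist k]
  [NormedField C] [IsUltrametricDist C] [NormedAlgebra k C] [Algebra.IsAlgebraic k C] [IsAlgClosed C]

/-! ### discs -/

theorem inD_iff {a : EE k C} : InD a ↔ ∃ b : BD k C, a = ofBD b := by
  constructor
  · intro h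
    refine ⟨posPart a, ?_⟩
    ext n
    rw [co_ofBD_posPart]
    split_ifs with hn
    · rfl
    · exact h n (by omega)
  · rintro ⟨b, rfl⟩ n hn
    exact co_ofBD_neg b hn

theorem evE_ofBD (τ : C) (b : BD k C) : evE τ (ofBD b) = evp τ b.1 := by
  rw [evE, evp]
  rw [← (Nat.cast_injective (R := ℤ)).tsum_eq]
  · refine tsum_congr fun n => ?_
    rw [co_ofBD_nat, zpow_natCast]
  · intro n hn
    rw [Function.mem_support] at hn
    rcases lt_or_ge n 0 with h | h
    · rw [co_ofBD_neg b h, zero_mul] at hn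
      exact absurd rfl hn
    · obtain ⟨m, rfl⟩ := Int.eq_ofNat_of_zero_le h
      exact ⟨m, rfl⟩

theorem lin_eq (τ : C) : (lin τ : EE k C) = ofBD (XD k C - algebraMap C (BD k C) τ) := by
  rw [map_sub, ofBD_algebraMap]
  show mono 1 1 _ - mono 0 τ _ = _
  have h1 : (mono 1 1 (Crest.Agent.R013.EE809.finDef_const (k := k) (1 : C)) : EE k C) =
      ofBD (XD k C) := by
    ext n
    rw [co_mono]
    rcases lt_or_ge n 0 with h | h
    · rw [co_ofBD_neg _ h, if_neg (by omega)]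
    · obtain ⟨m, rfl⟩ := Int.eq_ofNat_of_zero_le h
      rw [co_ofBD_nat]
      show _ = PowerSeries.coeff m (PowerSeries.X : PowerSeries C)
      rw [PowerSeries.coeff_X]
      norm_cast
  rw [h1]
  rfl

theorem ev_dvd_iff (hk : DiscNorm k) {τ : C} (hτ : ‖τ‖ < 1) (b : BD k C) :
    XD k C - algebraMap C (BD k C) τ ∣ b ↔ evp τ b.1 = 0 :=
  (cellRing_BD hk).ev_dvd_iff (e := ev τ hτ) (Crest.Agent.R013.Cell_408.evp_X τ)

/-- the order of `T - τ` is `1` -/
theorem od_lin {τ : C} (hτ : ‖τ‖ < 1) : od (lin τ : EE k C) = 1 := by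
  have hco : ∀ n : ℤ, (lin τ : EE k C).co n = (if n = 1 then 1 else 0) - (if n = 0 then τ else 0) := by
    intro n; rfl
  have hg : gn (lin τ : EE k C) = 1 := by
    apply le_antisymm
    · refine gn_le fun n => ?_
      rw [hco]
      split_ifs with h1 h2 h2
      · omega
      · simp
      · simpa using hτ.le
      · simp
    · have := le_gn (lin τ : EE k C) 1
      rw [hco] at this
      simpa using this
  refine od_eq_of ?_ ?_
  · rw [hg, hco]; simp
  · intro m hm
    rw [hg, hco]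
    split_ifs with h1 h2 h2
    · omega
    · omega
    · simpa using hτ
    · simp

theorem lin_ne_zero (τ : C) : (lin τ : EE k C) ≠ 0 := by
  intro h
  have h1 := congrArg (fun a : EE k C => a.co 1) h
  have h2 : (lin τ : EE k C).co 1 = (if (1 : ℤ) = 1 then (1 : C) else 0) - (if (1 : ℤ) = 0 then τ else 0) := rfl
  simp only [h2, co_zero] at h1
  norm_num at h1

/-! ### annuli -/

/-- evaluation is defined on the annulus -/
theorem summable_evE {c τ : C} (hc : c ≠ 0) (h1 : ‖c‖ < ‖τ‖) (h2 : ‖τ‖ < 1) {a : EE k C}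
    (ha : InA c a) : Summable fun n : ℤ => a.co n * τ ^ n := by
  obtain ⟨L, hL, h3⟩ := a.fd
  obtain ⟨L', hL', h4⟩ := Crest.Agent.R013.EE809.finDef_const (k := k) τ
  have hfd : FinDef k fun n : ℤ => a.co n * τ ^ n := by
    refine ⟨L ⊔ L', IntermediateField.finiteDimensional_sup L L', fun n => ?_⟩
    exact mul_mem ((le_sup_left : L ≤ L ⊔ L') (h3 n))
      (zpow_mem ((le_sup_right : L' ≤ L ⊔ L') (h4 ())) n)
  refine hfd.summable ?_
  have hτ0 : 0 < ‖τ‖ := (norm_pos_iff.2 hc).trans h1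
  have hc0 : 0 < ‖c‖ := norm_pos_iff.2 hc
  obtain ⟨M, hM⟩ := a.bd
  obtain ⟨N, hN⟩ := ha
  rw [show (Filter.cofinite : Filter ℤ) = Filter.atBot ⊔ Filter.atTop from Int.cofinite_eq,
    Filter.tendsto_sup]
  have hM0 : 0 ≤ M := (norm_nonneg _).trans (hM 0)
  constructor
  · have h5 : Filter.Tendsto (fun n : ℤ => N * (‖τ‖ / ‖c‖) ^ n) Filter.atBot (nhds 0) := by
      simpa using (tendsto_zpow_int' ((one_lt_div hc0).2 h1)).const_mul N
    refine squeeze_zero_norm (fun n => ?_) h5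
    rw [norm_mul, norm_zpow, div_zpow]
    calc ‖a.co n‖ * ‖τ‖ ^ n = (‖a.co n‖ * ‖c‖ ^ n) * (‖τ‖ ^ n / ‖c‖ ^ n) := by
          field_simp
      _ ≤ N * (‖τ‖ ^ n / ‖c‖ ^ n) := by
          refine mul_le_mul_of_nonneg_right (hN n) (by positivity)
  · have h5 : Filter.Tendsto (fun n : ℤ => M * ‖τ‖ ^ n) Filter.atTop (nhds 0) := by
      simpa using (tendsto_zpow_int hτ0.le h2).const_mul M
    refine squeeze_zero_norm (fun n => ?_) h5
    rw [norm_mul, norm_zpow]
    exact mul_le_mul_of_nonneg_right (hM n) (by positivity)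

theorem co_lin_mul (τ : C) (a : EE k C) (n : ℤ) : (lin τ * a).co n = a.co (n - 1) - τ * a.co n := by
  rw [lin, sub_mul, co_sub, co_mono_mul, co_mono_mul, one_mul, sub_zero]

theorem evE_lin_mul {c τ : C} (hc : c ≠ 0) (h1 : ‖c‖ < ‖τ‖) (h2 : ‖τ‖ < 1) {a : EE k C}
    (ha : InA c a) : evE τ (lin τ * a) = 0 := by
  have hs := summable_evE hc h1 h2 ha
  have hτ : τ ≠ 0 := by
    rintro rfl
    rw [norm_zero] at h1
    exact absurd h1 (not_lt.2 (norm_nonneg _))
  generalize hF : (fun n : ℤ => a.co n * τ ^ n) = F at hs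
  have hF' : ∀ n, F n = a.co n * τ ^ n := fun n => by rw [← hF]
  have h3 : ∀ n : ℤ, (lin τ * a).co n * τ ^ n = τ * F (n - 1) - τ * F n := by
    intro n
    rw [co_lin_mul, hF', hF', zpow_sub_one₀ hτ]
    field_simp
  have h4 : Summable fun n : ℤ => F (n - 1) :=
    (Equiv.summable_iff (Equiv.subRight (1 : ℤ))).2 hs
  have h5 : ∑' n : ℤ, F (n - 1) = ∑' n, F n := Equiv.tsum_eq (Equiv.subRight (1 : ℤ)) F
  have h6 : HasSum (fun n : ℤ => τ * F (n - 1) - τ * F n) (τ * (∑' n, F n) - τ * (∑' n, F n)) := by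
    have h7 := h4.hasSum
    rw [h5] at h7
    exact (h7.mul_left τ).sub (hs.hasSum.mul_left τ)
  rw [sub_self] at h6
  have h8 : (fun n : ℤ => (lin τ * a).co n * τ ^ n) = fun n : ℤ => τ * F (n - 1) - τ * F n :=
    funext h3
  rw [evE, h8]
  exact h6.tsum_eq

theorem flip_fd (c : C) (a : EE k C) : FinDef k fun n : ℤ => a.co (-n) * c ^ (-n) := by
  obtain ⟨L, hL, h3⟩ := a.fd
  obtain ⟨L', hL', h4⟩ := Crest.Agent.R013.EE809.finDef_const (k := k) c
  refine ⟨L ⊔ L', IntermediateField.finiteDimensional_sup L L', fun n => ?_⟩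
  exact mul_mem ((le_sup_left : L ≤ L ⊔ L') (h3 _))
    (zpow_mem ((le_sup_right : L' ≤ L ⊔ L') (h4 ())) _)

theorem flip_bd {c : C} {a : EE k C} (ha : InA c a) :
    ∃ M : ℝ, ∀ n : ℤ, ‖a.co (-n) * c ^ (-n)‖ ≤ M := by
  obtain ⟨M, hM⟩ := ha
  exact ⟨M, fun n => by rw [norm_mul, norm_zpow]; exact hM (-n)⟩

theorem flip_lim {c : C} (hc1 : ‖c‖ < 1) (a : EE k C) :
    Filter.Tendsto (fun n : ℤ => a.co (-n) * c ^ (-n)) Filter.atBot (nhds 0) := by
  obtain ⟨M, hM⟩ := a.bd
  have h5 : Filter.Tendsto (fun n : ℤ => M * ‖c‖ ^ (-n)) Filter.atBot (nhds 0) := by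
    have h6 := ((tendsto_zpow_int (norm_nonneg c) hc1).comp
      Filter.tendsto_neg_atBot_atTop).const_mul M
    rw [mul_zero] at h6
    exact h6
  refine squeeze_zero_norm (fun n => ?_) h5
  rw [norm_mul, norm_zpow]
  exact mul_le_mul_of_nonneg_right (hM _) (by positivity)

/-- the substitution `T ↦ c / T` -/
noncomputable def flipE {c : C} (hc : c ≠ 0) (hc1 : ‖c‖ < 1) (a : EE k C) (ha : InA c a) :
    EE k C :=
  mk' (fun n => a.co (-n) * c ^ (-n)) (flip_fd c a) (flip_bd ha) (flip_lim hc1 a)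

theorem co_flipE {c : C} (hc : c ≠ 0) (hc1 : ‖c‖ < 1) (a : EE k C) (ha : InA c a) (n : ℤ) :
    (flipE hc hc1 a ha).co n = a.co (-n) * c ^ (-n) := rfl

theorem flip_flipE {c : C} (hc : c ≠ 0) (hc1 : ‖c‖ < 1) (a : EE k C) (ha : InA c a) :
    Flip c a (flipE hc hc1 a ha) := fun n => rfl

theorem flip_mul {c : C} (hc : c ≠ 0) {a b a' b' : EE k C} (ha : Flip c a a') (hb : Flip c b b') :
    Flip c (a * b) (a' * b') := by
  intro n
  rw [co_mul, co_mul, ← tsum_mul_right, ← (Equiv.neg ℤ).tsum_eq]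
  refine tsum_congr fun i => ?_
  simp only [Equiv.neg_apply]
  rw [ha, hb, neg_neg]
  have h1 : -(n - -i) = -n - i := by ring
  rw [h1]
  have h2 : c ^ i * c ^ (-n - i) = c ^ (-n) := by
    rw [← zpow_add₀ hc]; congr 1; ring
  rw [← h2]; ring

theorem flip_symm {c : C} (hc : c ≠ 0) {a a' : EE k C} (ha : Flip c a a') : Flip c a' a := by
  intro n
  rw [ha (-n), neg_neg, mul_assoc, ← zpow_add₀ hc]
  simp

theorem flip_unique {c : C} {a a' a'' : EE k C} (h : Flip c a a') (h' : Flip c a a'') :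
    a' = a'' := by
  ext n; rw [h n, h' n]

theorem inA_of_flip {c : C} {a a' : EE k C} (h : Flip c a a') : InA c a := by
  obtain ⟨M, hM⟩ := a'.bd
  refine ⟨M, fun n => ?_⟩
  have := hM (-n)
  rwa [h (-n), neg_neg, norm_mul, norm_zpow] at this

/-- comparison of the norms at the two ends of an annulus -/
theorem gn_flip_ge (hk : DiscNorm k) {c : C} {a a' : EE k C} (h : Flip c a a') (ha : a ≠ 0) :
    gn a * ‖c‖ ^ (od a) ≤ gn a' := by
  have h1 := le_gn a' (-od a)
  rw [h (-od a), neg_neg, norm_mul, norm_zpow, norm_co_od hk ha] at h1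
  exact h1

end EE

end Crest.Agent.R013.Conn_315
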