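import Mathlib
import Crest.Agent.R013.Conn1_315
import Crest.Agent.R013.RR12_948

/-!
# RED-PTS / CONN (row 13), part 2: the graph of a semistable structure is connected
-/

set_option autoImplicit false
set_option linter.style.haveILetI false
set_option linter.unusedSectionVars false
set_option linter.unusedVariables false

open scoped NNReal
open WithZero

namespace Crest.Agent.R013.Conn_315

open Crest.Agent.R013.Pts2_315 Crest.Agent.R013.Pts4_315
open Crest.Agent.R013.Cell_408 (BD DiscNorm evp ev FinDef)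
open Crest.Agent.R013.EE809 Crest.Agent.R013.SSK_332 Crest.Agent.R013.Red332
open Crest.Agent.R013.RR7_948 Crest.Agent.R013.RR11_948 Crest.Agent.R013.RR12_948

variable {k C : Type*} [NontriviallyNormedField k] [CompleteSpace k] [IsUltrametricDist k]
  [NormedField C] [IsUltrametricDist C] [NormedAlgebra k C] [Algebra.IsAlgebraic k C]
  [IsAlgClosed C] [hk : Fact (DiscNorm k)]

/-- `AN c` is the intersection of its local rings (proved in `Conn3`) -/
def HAN (k C : Type*) [NontriviallyNormedField k] [CompleteSpace k]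
    [NormedField C] [IsUltrametricDist C] [NormedAlgebra k C] : Prop :=
  ∀ c : C, c ≠ 0 → ‖c‖ < 1 → ∀ a : EE k C,
    (∃ h : EE k C, h ≠ 0 ∧ InA c h ∧ InA c (a * h)) →
    (∀ τ : C, ‖c‖ < ‖τ‖ → ‖τ‖ < 1 → ∃ h : EE k C, InA c h ∧ evE τ h ≠ 0 ∧ InA c (a * h)) →
    InA c a

theorem od_ofBD_nonneg {b : BD k C} (hb : b ≠ 0) : 0 ≤ EE809.od (ofBD b) := by
  by_contra h
  push Not at h
  have h1 : (ofBD b : EE k C) ≠ 0 := fun h0 => hb (ofBD_injective (by rw [h0, map_zero]))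
  exact co_od_ne_zero hk.out h1 (co_ofBD_neg b h)

theorem od_ofBD_pos {b : BD k C} (hb : b ≠ 0) {τ : C} (hτ : ‖τ‖ < 1) (h : evp τ b.1 = 0) :
    0 < EE809.od (ofBD b) := by
  obtain ⟨b', rfl⟩ := (ev_dvd_iff hk.out hτ b).2 h
  have hb' : b' ≠ 0 := by rintro rfl; exact hb (mul_zero _)
  have h1 : (ofBD b' : EE k C) ≠ 0 := fun h0 => hb' (ofBD_injective (by rw [h0, map_zero]))
  rw [map_mul, ← lin_eq, od_mul hk.out (lin_ne_zero τ) h1, od_lin hτ]
  have := od_ofBD_nonneg (k := k) hb'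
  omega

theorem inA_mul {c : C} (hc : c ≠ 0) {x y : EE k C} (hx : InA c x) (hy : InA c y) :
    InA c (x * y) := by
  obtain ⟨M, hM⟩ := hx
  obtain ⟨N, hN⟩ := hy
  exact ⟨M * N, Bdd.mul (norm_pos_iff.2 hc) hM hN⟩

theorem inA_pow_lin {c : C} (hc : c ≠ 0) (τ : C) (m : ℕ) : InA c ((lin τ : EE k C) ^ m) := by
  have hcpos : 0 < ‖c‖ := norm_pos_iff.2 hc
  have hlin : InA c (lin τ : EE k C) := by
    refine ⟨max (‖(1 : C)‖ * ‖c‖ ^ (1 : ℤ)) (‖τ‖ * ‖c‖ ^ (0 : ℤ)), ?_⟩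
    exact Bdd.sub hcpos ((Bdd.mono hcpos 1 1 _).le (le_max_left _ _))
      ((Bdd.mono hcpos 0 τ _).le (le_max_right _ _))
  induction m with
  | zero => rw [pow_zero]; exact ⟨1, Bdd.one⟩
  | succ m ih => rw [pow_succ]; exact inA_mul hc ih hlin

variable {K : Type*} [Field K] [Algebra C K] (S : SSK k C K)

/-- a function without poles on a disc cell is a bounded series there -/
theorem disc_regular {d : S.Dir} (hd : S.IsDisc d) {f : K}
    (hf : ∀ τ hτ, (S.ptD d hd.1 hd.2 τ hτ).v f ≤ 1) : ∃ b : BD k C, S.em d f = ofBD b := by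
  by_cases hf0 : f = 0
  · exact ⟨0, by rw [hf0, map_zero, map_zero]⟩
  refine mem_range_of_local (cellRing_BD hk.out) (ofBD : BD k C →+* EE k C) (S.em d f) ?_ ?_
  · obtain ⟨g, h, h0, hg, hh, e⟩ := S.disc d hd.1 hd.2 f
    obtain ⟨g, rfl⟩ := inD_iff.1 hg
    obtain ⟨h, rfl⟩ := inD_iff.1 hh
    exact ⟨h, by rintro rfl; exact h0 (map_zero _), g, e⟩
  · intro τ hτ
    obtain ⟨a, b, g, h, hg, hh, eg, eh, e, ev⟩ := S.ptD_ord d hd.1 hd.2 τ hτ f hf0
    obtain ⟨g, rfl⟩ := inD_iff.1 hg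
    obtain ⟨h, rfl⟩ := inD_iff.1 hh
    have hle := hf τ hτ
    rw [ev, ← exp_zero, exp_le_exp] at hle
    have hba : b ≤ a := by omega
    obtain ⟨m, rfl⟩ := Nat.exists_eq_add_of_le hba
    refine ⟨h, ?_, (XD k C - algebraMap C (BD k C) τ) ^ m * g, ?_⟩
    · rw [ev_dvd_iff hk.out hτ, ← evE_ofBD]; exact eh
    · rw [map_mul, map_pow, ← lin_eq]
      have h1 : (lin τ : EE k C) ^ b ≠ 0 := pow_ne_zero _ (lin_ne_zero τ)
      refine mul_left_cancel₀ h1 ?_
      calc (lin τ : EE k C) ^ b * (S.em d f * ofBD h) = S.em d f * (lin τ ^ b * ofBD h) := by ring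
        _ = lin τ ^ (b + m) * ofBD g := e
        _ = lin τ ^ b * (lin τ ^ m * ofBD g) := by rw [pow_add]; ring

/-- zeros on a disc cell -/
theorem disc_lt_one_iff {d : S.Dir} (hd : S.IsDisc d) {f : K} (hf0 : f ≠ 0) {b : BD k C}
    (hb : S.em d f = ofBD b) {τ : C} (hτ : ‖τ‖ < 1) :
    (S.ptD d hd.1 hd.2 τ hτ).v f < 1 ↔ evp τ b.1 = 0 := by
  obtain ⟨m, n, g, h, hg, hh, eg, eh, e, ev⟩ := S.ptD_ord d hd.1 hd.2 τ hτ f hf0
  obtain ⟨g, rfl⟩ := inD_iff.1 hg
  obtain ⟨h, rfl⟩ := inD_iff.1 hh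
  have hp : Prime (XD k C - algebraMap C (BD k C) τ) := by
    rw [← Ideal.span_singleton_prime ((cellRing_BD hk.out).sub_ne_zero τ)]
    exact ((cellRing_BD hk.out).isMaximal hτ).isPrime
  have hg' : ¬ XD k C - algebraMap C (BD k C) τ ∣ g := by
    rw [ev_dvd_iff hk.out hτ, ← evE_ofBD]; exact eg
  have hh' : ¬ XD k C - algebraMap C (BD k C) τ ∣ h := by
    rw [ev_dvd_iff hk.out hτ, ← evE_ofBD]; exact eh
  rw [hb, lin_eq, ← map_pow, ← map_pow, ← map_mul, ← map_mul, ← map_mul] at e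
  replace e := ofBD_injective e
  rw [ev, ← exp_zero, exp_lt_exp, ← ev_dvd_iff hk.out hτ]
  have h0 : (XD k C - algebraMap C (BD k C) τ) ^ n ≠ 0 :=
    pow_ne_zero _ ((cellRing_BD hk.out).sub_ne_zero τ)
  have h0' : (XD k C - algebraMap C (BD k C) τ) ^ m ≠ 0 :=
    pow_ne_zero _ ((cellRing_BD hk.out).sub_ne_zero τ)
  constructor
  · intro hlt
    obtain ⟨r, rfl⟩ := Nat.exists_eq_add_of_lt (show n < m by omega)
    have h1 : b * h = (XD k C - algebraMap C (BD k C) τ) *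
        ((XD k C - algebraMap C (BD k C) τ) ^ r * g) := by
      refine mul_left_cancel₀ h0 ?_
      rw [pow_succ, pow_add] at e
      linear_combination e
    exact (hp.dvd_or_dvd ⟨_, h1⟩).resolve_right hh'
  · rintro ⟨b', rfl⟩
    by_contra hcon
    obtain ⟨r, rfl⟩ := Nat.exists_eq_add_of_le (show m ≤ n by omega)
    apply hg'
    refine ⟨b' * ((XD k C - algebraMap C (BD k C) τ) ^ r * h), ?_⟩
    refine mul_left_cancel₀ h0' ?_
    rw [pow_add] at e
    linear_combination -e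

/-- a function without poles on an annulus cell -/
theorem ann_regular (HA : HAN k C) (e : S.Ed) {f : K}
    (hf : ∀ τ h0 h1, (S.ptA e τ h0 h1).v f ≤ 1) :
    InA (S.cc e) (S.em (S.e0 e) f) ∧ Flip (S.cc e) (S.em (S.e0 e) f) (S.em (S.e1 e) f) := by
  have hc := S.cc_ne e
  have hc1 := S.cc_lt e
  obtain ⟨g, h, g', h', h0, hg, hh, fg, fh, e1, e2⟩ := S.ann e f
  have h0' : h' ≠ 0 := by
    rintro rfl
    apply h0
    exact flip_unique (flip_symm hc fh) (fun n => by simp)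
  have hin : InA (S.cc e) (S.em (S.e0 e) f) := by
    by_cases hf0 : f = 0
    · rw [hf0, map_zero]; exact ⟨0, fun n => by simp⟩
    refine HA _ hc hc1 _ ⟨h, h0, hh, by rw [e1]; exact hg⟩ ?_
    intro τ hτ0 hτ1
    obtain ⟨a, b, g, h, hg, hh, eg, eh, ee, ev⟩ := S.ptA_ord e τ hτ0 hτ1 f hf0
    have hle := hf τ hτ0 hτ1
    rw [ev, ← exp_zero, exp_le_exp] at hle
    have hba : b ≤ a := by omega
    obtain ⟨m, rfl⟩ := Nat.exists_eq_add_of_le hba
    refine ⟨h, hh, eh, ?_⟩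
    have h1 : (lin τ : EE k C) ^ b ≠ 0 := pow_ne_zero _ (lin_ne_zero τ)
    have h2 : S.em (S.e0 e) f * h = lin τ ^ m * g := by
      refine mul_left_cancel₀ h1 ?_
      calc (lin τ : EE k C) ^ b * (S.em (S.e0 e) f * h) =
          S.em (S.e0 e) f * (lin τ ^ b * h) := by ring
        _ = lin τ ^ (b + m) * g := ee
        _ = lin τ ^ b * (lin τ ^ m * g) := by rw [pow_add]; ring
    rw [h2]
    exact inA_mul hc (inA_pow_lin hc τ m) hg
  refine ⟨hin, ?_⟩
  have hfl := flip_flipE hc hc1 _ hin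
  have h3 : S.em (S.e1 e) f = flipE hc hc1 _ hin := by
    refine mul_right_cancel₀ h0' ?_
    rw [e2]
    have h4 := flip_mul hc hfl fh
    rw [e1] at h4
    exact flip_unique fg h4
  rw [h3]
  exact hfl

end Crest.Agent.R013.Conn_315
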