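import Mathlib
import Crest.Agent.R013.Conn2_315

/-!
# RED-PTS / CONN (row 13), part 3: the graph of a semistable structure is connected

`SSK.Conn` for every semistable structure (given `HAN`: `AN c` is the intersection of its local
rings).  Proof: the maximum principle on the graph.
-/

set_option autoImplicit false
set_option linter.style.haveILetI false
set_option linter.unusedSectionVars false
set_option linter.unusedVariables false

open scoped NNReal
open WithZero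

namespace Crest.Agent.R013.Conn_315

open Crest.Agent.R013.Pts2_315 Crest.Agent.R013.Pts4_315
open Crest.Agent.R013.Cell_408 (BD DiscNorm evp ev FinDef)
open Crest.Agent.R013.EE809 Crest.Agent.R013.SSK_332 Crest.Agent.R013.Red332
open Crest.Agent.R013.RR7_948 Crest.Agent.R013.RR8_948 Crest.Agent.R013.RR9_948
open Crest.Agent.R013.RR11_948 Crest.Agent.R013.RR12_948

variable {k C : Type*} [NontriviallyNormedField k] [CompleteSpace k] [IsUltrametricDist k]
  [NormedField C] [IsUltrametricDist C] [NormedAlgebra k C] [Algebra.IsAlgebraic k C]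
  [IsAlgClosed C] [hk : Fact (DiscNorm k)]

theorem algebraicClosure_bot {K : Type*} [Field K] [Algebra C K] :
    algebraicClosure C K = ⊥ := by
  rw [eq_bot_iff]
  intro x hx
  rw [mem_algebraicClosure_iff] at hx
  have hmon := minpoly.monic hx.isIntegral
  have hirr := minpoly.irreducible hx.isIntegral
  have hdeg := IsAlgClosed.degree_eq_one_of_irreducible C hirr
  obtain ⟨y, hy⟩ := minpoly.mem_range_of_degree_eq_one C x hdeg
  exact IntermediateField.mem_bot.2 ⟨y, hy⟩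

section vertex

variable {K : Type*} [Field K] [Algebra C K]

/-- **Kirchhoff** (weak form): a function whose reduction has no poles has constant reduction -/
theorem kirchhoff (w : Nm C K)
    (hff : ∃ i : Algebra (RatFunc (Ct C)) (kap w),
      IsScalarTower (Ct C) (RatFunc (Ct C)) (kap w) ∧
      FiniteDimensional (RatFunc (Ct C)) (kap w) ∧
      Algebra.IsSeparable (RatFunc (Ct C)) (kap w))
    {f : K} (hf : f ≠ 0) (h : ∀ x, 0 ≤ Red332.od w x f) : ∀ x, Red332.od w x f = 0 := by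
  obtain ⟨i, h1, h2, h3⟩ := hff
  intro x
  obtain ⟨hl0, hl⟩ := lc_spec w hf
  have hv : ∀ y : Pl (Ct C) (kap w), y.v (red w (f * (algebraMap C K (lc w f))⁻¹)) =
      exp (-Red332.od w y f) := by
    intro y
    rw [v_red_of_one y hl]
    congr 2
    rw [Red332.od_mul y hf, ← map_inv₀, Red332.od_C y (inv_ne_zero hl0), add_zero]
    rw [← map_inv₀, Ne, map_eq_zero]
    exact inv_ne_zero hl0
  set g := red w (f * (algebraMap C K (lc w f))⁻¹) with hg
  have hg0 : g ≠ 0 := red_ne_zero w hl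
  by_contra hne
  have hpos : 0 < Red332.od w x f := lt_of_le_of_ne (h x) (Ne.symm hne)
  have h4 : 1 < x.v g⁻¹ := by
    rw [map_inv₀, hv x, ← exp_neg, neg_neg, ← exp_zero, exp_lt_exp]
    exact hpos
  obtain ⟨Q, hQ⟩ := exists_lt_of_exists_gt (inv_ne_zero hg0) h4
  rw [map_inv₀, hv Q, ← exp_neg, neg_neg, ← exp_zero, exp_lt_exp] at hQ
  exact absurd (h Q) (not_le.2 hQ)

end vertex

variable {K : Type*} [Field K] [Algebra C K] (S : SSK k C K)

/-- there is an open disc at each vertex -/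
theorem exists_disc (v : S.V) : ∃ d : S.Dir, S.IsDisc d ∧ d.1 = v := by
  classical
  obtain ⟨i, h1, h2, h3⟩ := S.ff v
  haveI := S.fEd
  let F : S.Ed → Finset (Pl (Ct C) (kap (S.nm v))) := fun e =>
    (if h : (S.e0 e).1 = v then {h ▸ (S.e0 e).2} else ∅) ∪
    (if h : (S.e1 e).1 = v then {h ▸ (S.e1 e).2} else ∅)
  obtain ⟨x, hx⟩ := exists_notMem (k := Ct C) (K := kap (S.nm v)) (Finset.univ.biUnion F)
  refine ⟨⟨v, x⟩, ⟨fun e he => hx ?_, fun e he => hx ?_⟩, rfl⟩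
  · refine Finset.mem_biUnion.2 ⟨e, Finset.mem_univ _, Finset.mem_union_left _ ?_⟩
    have h : (S.e0 e).1 = v := by rw [← he]
    rw [dif_pos h, Finset.mem_singleton]
    have : ∀ (p : S.Dir) (hp : p.1 = v), (⟨v, x⟩ : S.Dir) = p → x = hp ▸ p.2 := by
      rintro p hp rfl
      rfl
    exact this _ h he
  · refine Finset.mem_biUnion.2 ⟨e, Finset.mem_univ _, Finset.mem_union_right _ ?_⟩
    have h : (S.e1 e).1 = v := by rw [← he]
    rw [dif_pos h, Finset.mem_singleton]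
    have : ∀ (p : S.Dir) (hp : p.1 = v), (⟨v, x⟩ : S.Dir) = p → x = hp ▸ p.2 := by
      rintro p hp rfl
      rfl
    exact this _ h he

theorem adj_symm {v w : S.V} (h : S.Adj v w) : S.Adj w v := by
  obtain ⟨e, h | h⟩ := h
  · exact ⟨e, Or.inr ⟨h.2, h.1⟩⟩
  · exact ⟨e, Or.inl ⟨h.2, h.1⟩⟩

theorem reach_symm {v w : S.V} (h : Relation.ReflTransGen S.Adj v w) :
    Relation.ReflTransGen S.Adj w v := by
  induction h with
  | refl => exact .refl
  | tail _ h ih => exact Relation.ReflTransGen.head (adj_symm S h) ih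

/-- `f` has no poles at the points of the cells which touch `A` -/
def Reg (A : Set S.V) (f : K) : Prop :=
  (∀ d (hd : S.IsDisc d), d.1 ∈ A → ∀ τ hτ, (S.ptD d hd.1 hd.2 τ hτ).v f ≤ 1) ∧
  ∀ e, (S.e0 e).1 ∈ A → ∀ τ h0 h1, (S.ptA e τ h0 h1).v f ≤ 1

theorem one_le_of_zpow_le {r : ℝ} (h0 : 0 < r) (h1 : r < 1) {n : ℤ} (h : r ^ n ≤ 1) : 0 ≤ n := by
  by_contra hn
  push Not at hn
  have := one_lt_zpow_of_neg₀ h0 h1 hn
  exact absurd h (not_le.2 this)

/-- orders at a maximising vertex -/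
theorem od_nonneg_of_max (HA : HAN k C) {A : Set S.V} (hA : ∀ v w, v ∈ A → S.Adj v w → w ∈ A)
    {f : K} (hf0 : f ≠ 0) (hf : Reg S A f) {v : S.V} (hv : v ∈ A)
    (hmax : ∀ w ∈ A, (S.nm w).v f ≤ (S.nm v).v f) (x : Pl (Ct C) (kap (S.nm v))) :
    0 ≤ Red332.od (S.nm v) x f := by
  have hem : ∀ d : S.Dir, S.em d f ≠ 0 := fun d => (map_ne_zero_iff _ (S.em d).injective).2 hf0
  have hodx := S.em_od ⟨v, x⟩ f hf0
  rw [← hodx]
  have hgpos : ∀ d : S.Dir, 0 < gn (S.em d f) := by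
    intro d
    rw [S.em_gn d f]
    exact NNReal.coe_pos.2 (zero_lt_iff.2 ((Valuation.ne_zero_iff _).2 hf0))
  by_cases h0 : ∃ e, (⟨v, x⟩ : S.Dir) = S.e0 e
  · obtain ⟨e, he⟩ := h0
    have hvA : (S.e0 e).1 ∈ A := by rw [← he]; exact hv
    have hwA : (S.e1 e).1 ∈ A := hA _ _ hvA ⟨e, Or.inl ⟨rfl, rfl⟩⟩
    obtain ⟨hin, hfl⟩ := ann_regular S HA e (f := f) (fun τ h0 h1 => hf.2 e hvA τ h0 h1)
    have h1 := gn_flip_ge hk.out hfl (hem _)
    have h2 : gn (S.em (S.e1 e) f) ≤ gn (S.em (S.e0 e) f) := by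
      rw [S.em_gn, S.em_gn, ← he]
      exact NNReal.coe_le_coe.2 (hmax _ hwA)
    rw [he]
    refine one_le_of_zpow_le (norm_pos_iff.2 (S.cc_ne e)) (S.cc_lt e) ?_
    have h3 := h1.trans h2
    by_contra h4
    push Not at h4
    exact absurd h3 (not_le.2 (lt_mul_of_one_lt_right (hgpos _) h4))
  by_cases h0' : ∃ e, (⟨v, x⟩ : S.Dir) = S.e1 e
  · obtain ⟨e, he⟩ := h0'
    have hvA : (S.e1 e).1 ∈ A := by rw [← he]; exact hv
    have hwA : (S.e0 e).1 ∈ A := hA _ _ hvA ⟨e, Or.inr ⟨rfl, rfl⟩⟩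
    obtain ⟨hin, hfl⟩ := ann_regular S HA e (f := f) (fun τ h0 h1 => hf.2 e hwA τ h0 h1)
    have h1 := gn_flip_ge hk.out (flip_symm (S.cc_ne e) hfl) (hem _)
    have h2 : gn (S.em (S.e0 e) f) ≤ gn (S.em (S.e1 e) f) := by
      rw [S.em_gn, S.em_gn, ← he]
      exact NNReal.coe_le_coe.2 (hmax _ hwA)
    rw [he]
    refine one_le_of_zpow_le (norm_pos_iff.2 (S.cc_ne e)) (S.cc_lt e) ?_
    have h3 := h1.trans h2
    by_contra h4
    push Not at h4
    exact absurd h3 (not_le.2 (lt_mul_of_one_lt_right (hgpos _) h4))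
  push Not at h0 h0'
  obtain ⟨b, hb⟩ := disc_regular S (d := ⟨v, x⟩) ⟨h0, h0'⟩ (f := f)
    (fun τ hτ => hf.1 _ ⟨h0, h0'⟩ hv τ hτ)
  rw [hb]
  refine od_ofBD_nonneg ?_
  rintro rfl
  rw [map_zero] at hb
  exact hem _ hb

/-- **the graph of a semistable structure is connected** -/
theorem conn_of_HAN [Algebra (RatFunc C) K] [IsScalarTower C (RatFunc C) K]
    [FiniteDimensional (RatFunc C) K] [Algebra.IsSeparable (RatFunc C) K]
    (HA : HAN k C) : S.Conn := by
  classical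
  haveI := S.fV
  haveI := S.fEd
  refine ⟨?_, ?_⟩
  · obtain ⟨P, -⟩ := exists_notMem (k := C) (K := K) ∅
    rcases S.pt_surj P with ⟨d, -⟩ | ⟨e, -⟩
    · exact ⟨d.1⟩
    · exact ⟨(S.e0 e).1⟩
  intro v0 v1
  by_contra hcon
  set A : Set S.V := {v | Relation.ReflTransGen S.Adj v0 v} with hAdef
  have hA : ∀ v w, v ∈ A → S.Adj v w → w ∈ A := fun v w hv h => Relation.ReflTransGen.tail hv h
  have hv0 : v0 ∈ A := Relation.ReflTransGen.refl
  have hv1 : v1 ∉ A := hcon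
  obtain ⟨d1, hd1, hd1v⟩ := exists_disc S v1
  obtain ⟨d0, hd0, hd0v⟩ := exists_disc S v0
  have h00 : ‖(0 : C)‖ < 1 := by rw [norm_zero]; exact one_pos
  set P1 := S.ptD d1 hd1.1 hd1.2 0 h00 with hP1
  obtain ⟨n, hn1, hn2⟩ : ∃ n : ℕ, 1 ≤ n ∧ 2 * (gen C K : ℤ) - 2 < (n - 1) * degP P1 := by
    refine ⟨(2 * gen C K + 1 : ℕ), by omega, ?_⟩
    have h1 : (1 : ℤ) ≤ degP P1 := by exact_mod_cast degP_pos P1
    have h2 : (0 : ℤ) ≤ gen C K := by positivity
    push_cast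
    nlinarith
  obtain ⟨f, hf1, hf2⟩ := exists_pole_order algebraicClosure_bot P1 n hn2 hn1
  -- `f` is regular on `A`
  have hneD : ∀ d (hd : S.IsDisc d), d.1 ∈ A → ∀ τ hτ, S.ptD d hd.1 hd.2 τ hτ ≠ P1 := by
    intro d hd hdA τ hτ h
    have h1 := (S.ptD_inj _ _ _ _ _ _ _ _ _ _ h).1
    rw [h1, hd1v] at hdA
    exact hv1 hdA
  have hneA : ∀ e τ h0 h1, S.ptA e τ h0 h1 ≠ P1 := fun e τ h0 h1 h =>
    S.ptDA _ _ _ _ _ _ _ _ _ h.symm
  have hregf : Reg S A f :=
    ⟨fun d hd hdA τ hτ => hf2 _ (hneD d hd hdA τ hτ), fun e _ τ h0 h1 => hf2 _ (hneA e τ h0 h1)⟩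
  obtain ⟨b, hb⟩ := disc_regular S hd0 (f := f) (fun τ hτ => hregf.1 d0 hd0 (hd0v ▸ hv0) τ hτ)
  set l : C := evp 0 b.1 with hl
  set f' : K := f - algebraMap C K l with hf'
  have hconst : ∀ P : Pl C K, P.v (algebraMap C K l) ≤ 1 := by
    intro P
    by_cases h : l = 0
    · rw [h, map_zero, map_zero]; exact zero_le
    · exact (P.const l h).le
  have hf0' : f' ≠ 0 := by
    intro h
    have h1 : f = algebraMap C K l := sub_eq_zero.1 h
    have h2 := hconst P1
    rw [← h1, hf1, ← exp_zero, exp_le_exp] at h2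
    omega
  have hreg : Reg S A f' := by
    refine ⟨fun d hd hdA τ hτ => ?_, fun e he τ h0 h1 => ?_⟩
    · exact (Valuation.map_sub _ _ _).trans (max_le (hregf.1 d hd hdA τ hτ) (hconst _))
    · exact (Valuation.map_sub _ _ _).trans (max_le (hregf.2 e he τ h0 h1) (hconst _))
  have hemC : S.em d0 (algebraMap C K l) = ofBD (algebraMap C (BD k C) l) := by
    ext n
    rw [S.em_C, ofBD_algebraMap, co_algebraMap]
  have hb' : S.em d0 f' = ofBD (b - algebraMap C (BD k C) l) := by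
    rw [hf', map_sub, hb, hemC, map_sub]
  have hpos : 0 < EE809.od (S.em d0 f') := by
    rw [hb']
    refine od_ofBD_pos (τ := 0) ?_ h00 ?_
    · intro h
      rw [h, map_zero] at hb'
      exact hf0' ((map_eq_zero_iff _ (S.em d0).injective).1 hb')
    · have h1 : evp (0 : C) (b - algebraMap C (BD k C) l).1 =
        ev 0 h00 (b - algebraMap C (BD k C) l) := rfl
      rw [h1, map_sub]
      have h2 : ev 0 h00 b = l := rfl
      rw [h2, sub_eq_zero]
      exact (((ev (k := k) 0 h00).commutes l)).symm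
  -- a maximising vertex
  obtain ⟨v', hv'A, hv'⟩ := Set.exists_max_image A (fun v => (S.nm v).v f') (Set.toFinite A)
    ⟨v0, hv0⟩
  have key : ∀ v ∈ A, (∀ w ∈ A, (S.nm w).v f' ≤ (S.nm v).v f') →
      ∀ x, Red332.od (S.nm v) x f' = 0 := by
    intro v hv hmax
    exact kirchhoff (S.nm v) (S.ff v) hf0' (od_nonneg_of_max S HA hA hf0' hreg hv hmax)
  have hem : ∀ d : S.Dir, S.em d f' ≠ 0 := fun d => (map_ne_zero_iff _ (S.em d).injective).2 hf0'
  have step : ∀ v w, v ∈ A → (∀ u ∈ A, (S.nm u).v f' ≤ (S.nm v).v f') → S.Adj v w →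
      ∀ u ∈ A, (S.nm u).v f' ≤ (S.nm w).v f' := by
    rintro v w hv hmax ⟨e, h | h⟩ u hu
    · obtain ⟨rfl, rfl⟩ := h
      refine (hmax u hu).trans ?_
      obtain ⟨hin, hfl⟩ := ann_regular S HA e (f := f') (fun τ h0 h1 => hreg.2 e hv τ h0 h1)
      have h1 := gn_flip_ge hk.out hfl (hem _)
      rw [S.em_od _ _ hf0', key _ hv hmax, zpow_zero, mul_one, S.em_gn, S.em_gn] at h1
      exact NNReal.coe_le_coe.1 h1
    · obtain ⟨rfl, rfl⟩ := h
      refine (hmax u hu).trans ?_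
      obtain ⟨hin, hfl⟩ := ann_regular S HA e (f := f')
        (fun τ h0 h1 => hreg.2 e (hA _ _ hv ⟨e, Or.inr ⟨rfl, rfl⟩⟩) τ h0 h1)
      have h1 := gn_flip_ge hk.out (flip_symm (S.cc_ne e) hfl) (hem _)
      rw [S.em_od _ _ hf0', key _ hv hmax, zpow_zero, mul_one, S.em_gn, S.em_gn] at h1
      exact NNReal.coe_le_coe.1 h1
  have hreach : ∀ w, Relation.ReflTransGen S.Adj v' w →
      w ∈ A ∧ ∀ u ∈ A, (S.nm u).v f' ≤ (S.nm w).v f' := by
    intro w hw
    induction hw with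
    | refl => exact ⟨hv'A, hv'⟩
    | tail _ h ih => exact ⟨hA _ _ ih.1 h, step _ _ ih.1 ih.2 h⟩
  obtain ⟨-, h0⟩ := hreach v0 (reach_symm S hv'A)
  have h1 := key v0 hv0 h0
  subst hd0v
  rw [S.em_od _ _ hf0', h1 d0.2] at hpos
  exact lt_irrefl _ hpos

end Crest.Agent.R013.Conn_315
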