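import Mathlib
import Crest.Agent.R013.Conn3_315
import Crest.Agent.R013.Pow3_931
import Crest.Agent.R013.AnW2_201

/-!
# RED-PTS / CONN (row 13), part 4: the annulus ring is a cell ring; `HAN`; connectedness

* `cellRing_AN` : the ring of bounded series on the open annulus `|c| < |T| < 1` is a `CellRing`
  (with 931's factorisation);
* `han` : it is the intersection of its local rings;
* `SSK.conn` : the graph of every semistable structure is connected.
-/

set_option autoImplicit false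
set_option linter.style.haveILetI false
set_option linter.unusedSectionVars false
set_option linter.unusedVariables false

open scoped NNReal
open WithZero

namespace Crest.Agent.R013.Conn_315

open Crest.Agent.R013.Pts2_315 Crest.Agent.R013.Pts4_315
open Crest.Agent.R013.Cell_408 (BD DiscNorm evp ev FinDef)
open Crest.Agent.R013.EE809 Crest.Agent.R013.SSK_332 Crest.Agent.R013.Red332
open Crest.Agent.R013.RR7_948

variable {k C : Type*} [NontriviallyNormedField k] [CompleteSpace k] [IsUltrametricDist k]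
  [NormedField C] [IsUltrametricDist C] [NormedAlgebra k C] [Algebra.IsAlgebraic k C]
  [IsAlgClosed C]

theorem T_mem_AN {c : C} {A : Subalgebra C (EE k C)} (hA : ∀ a, a ∈ A ↔ SSK_332.InA c a) (n : ℤ) :
    (T n : EE k C) ∈ A := (hA _).2 (Pow3_931.inA_T n)

theorem lin_eq_T (τ : C) : (lin τ : EE k C) = T 1 - algebraMap C (EE k C) τ := Pow2_931.lin_eq τ

/-- the ring of bounded series on the open annulus is a cell ring -/
theorem cellRing_AN (hk : DiscNorm k) {c : C} (hc : c ≠ 0) (hc1 : ‖c‖ < 1)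
    (A : Subalgebra C (EE k C)) (hA : ∀ a, a ∈ A ↔ SSK_332.InA c a) :
    CellRing (⟨T 1, T_mem_AN hA 1⟩ : A) {τ : C | ‖c‖ < ‖τ‖ ∧ ‖τ‖ < 1} := by
  obtain rfl : A = AnW_201.AN k C c := by ext a; exact hA a
  have hcoe : ∀ S : Multiset C, (((S.map fun τ => (⟨T 1, T_mem_AN hA 1⟩ : AnW_201.AN k C c) -
      algebraMap C _ τ).prod : AnW_201.AN k C c) : EE k C) = Pow2_931.rp S := by
    intro S
    induction S using Multiset.induction_on with
    | empty => simp [Pow2_931.rp]
    | cons τ S ih =>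
      rw [Multiset.map_cons, Multiset.prod_cons, Pow2_931.rp_cons, ← ih, lin_eq_T]
      rfl
  refine ⟨?_, ?_, ?_⟩
  · intro b hb
    have hb0 : b.1 ≠ 0 := fun h => hb (Subtype.ext h)
    obtain ⟨x, N, S, a, y, y', hx, hS, ha, hy, hfl, hy', hf⟩ :=
      Pow3_931.exists_factA hk hc hc1 b.2 hb0
    refine ⟨S, hS, ?_⟩
    obtain ⟨a', ha'p, ha'1, -, haa⟩ := Pow1_931.exists_inv_pos ha.pos ha.le ha.zero
    obtain ⟨z', hz'p, hz'1, -, hzz⟩ := Pow1_931.exists_inv_pos hy'.pos hy'.le hy'.zero
    obtain ⟨z, hz, -⟩ := Pow3_931.exists_flip hc hc1 (Pow3_931.InA.of_pos hc1 hz'p)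
    have hzfl : Flip c z z' := Pow3_931.Flip.symm hc hz
    have hyz : y * z = 1 := by
      have h1 := Pow3_931.Flip.mul hc hfl hzfl
      rw [hzz] at h1
      exact Pow3_931.Flip.eq (Pow3_931.Flip.symm hc h1) Pow3_931.Flip.one
    have iT : ∀ n : ℤ, (T n : EE k C) ∈ AnW_201.AN k C c := T_mem_AN hA
    have ia : a ∈ AnW_201.AN k C c := (hA a).2 (Pow3_931.InA.of_pos hc1 ha.pos)
    have ia' : a' ∈ AnW_201.AN k C c := (hA a').2 (Pow3_931.InA.of_pos hc1 ha'p)
    have iy : y ∈ AnW_201.AN k C c := (hA y).2 (inA_of_flip hfl)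
    have iz : z ∈ AnW_201.AN k C c := (hA z).2 (inA_of_flip hzfl)
    have hTT : (T N : EE k C) * T (-N) = 1 := by
      rw [T, T, mo_mul_mo, add_neg_cancel, one_mul]; rfl
    let u : (AnW_201.AN k C c)ˣ :=
      { val := algebraMap C _ x * ⟨T N, iT N⟩ * (⟨a, ia⟩ * ⟨y, iy⟩)
        inv := algebraMap C _ x⁻¹ * ⟨T (-N), iT (-N)⟩ * (⟨a', ia'⟩ * ⟨z, iz⟩)
        val_inv := by
          apply Subtype.ext
          change (algebraMap C (EE k C) x * T N * (a * y)) *
            (algebraMap C (EE k C) x⁻¹ * T (-N) * (a' * z)) = 1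
          have h1 : algebraMap C (EE k C) x * algebraMap C (EE k C) x⁻¹ = 1 := by
            rw [← map_mul, mul_inv_cancel₀ hx, map_one]
          calc _ = (algebraMap C (EE k C) x * algebraMap C (EE k C) x⁻¹) * (T N * T (-N)) *
                (a * a') * (y * z) := by ring
            _ = 1 := by rw [h1, hTT, haa, hyz]; ring
        inv_val := by
          apply Subtype.ext
          change (algebraMap C (EE k C) x⁻¹ * T (-N) * (a' * z)) *
            (algebraMap C (EE k C) x * T N * (a * y)) = 1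
          have h1 : algebraMap C (EE k C) x * algebraMap C (EE k C) x⁻¹ = 1 := by
            rw [← map_mul, mul_inv_cancel₀ hx, map_one]
          calc _ = (algebraMap C (EE k C) x * algebraMap C (EE k C) x⁻¹) * (T N * T (-N)) *
                (a * a') * (y * z) := by ring
            _ = 1 := by rw [h1, hTT, haa, hyz]; ring }
    have h2 : b = (S.map fun τ => (⟨T 1, T_mem_AN hA 1⟩ : AnW_201.AN k C c) -
        algebraMap C _ τ).prod * u := by
      apply Subtype.ext
      rw [MulMemClass.coe_mul, hcoe, hf]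
      change _ = Pow2_931.rp S * (algebraMap C (EE k C) x * T N * (a * y))
      ring
    rw [h2]
    exact Associated.symm ⟨u, rfl⟩
  · rintro τ ⟨h1, h2⟩
    refine ⟨AnW_201.evA hc τ h1 h2, ?_⟩
    change AnW_201.evE τ (T 1 : EE k C) = τ
    rw [T, AnW_201.evE_mo, one_mul, zpow_one]
  · intro x hx
    have h1 := congrArg (fun a : AnW_201.AN k C c => a.1.co 1) hx
    have h2 : ((⟨T 1, T_mem_AN hA 1⟩ : AnW_201.AN k C c)).1.co 1 = (1 : C) := by
      change (T 1 : EE k C).co 1 = 1
      rw [T, co_mo, if_pos rfl]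
    have h3 : ((algebraMap C (AnW_201.AN k C c) x).1.co 1 : C) = 0 := by
      change (algebraMap C (EE k C) x).co 1 = 0
      rw [co_algebraMap, if_neg one_ne_zero]
    simp only [h2, h3] at h1
    exact one_ne_zero h1

/-- divisibility by `T - τ` in the annulus ring -/
theorem dvd_AN_iff [hk : Fact (DiscNorm k)] {c : C} (hc : c ≠ 0) (hc1 : ‖c‖ < 1)
    {A : Subalgebra C (EE k C)} (hA : ∀ a, a ∈ A ↔ SSK_332.InA c a) {τ : C} (h1 : ‖c‖ < ‖τ‖)
    (h2 : ‖τ‖ < 1) (h : A) :
    (⟨T 1, T_mem_AN hA 1⟩ : A) - algebraMap C A τ ∣ h ↔ evE τ h.1 = 0 := by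
  obtain rfl : A = AnW_201.AN k C c := by ext a; exact hA a
  have he : AnW_201.evA hc τ h1 h2 (⟨T 1, T_mem_AN hA 1⟩ : AnW_201.AN k C c) = τ := by
    change AnW_201.evE τ (T 1 : EE k C) = τ
    rw [T, AnW_201.evE_mo, one_mul, zpow_one]
  exact (cellRing_AN hk.out hc hc1 (AnW_201.AN k C c) hA).ev_dvd_iff he

/-- the annulus ring is the intersection of its local rings -/
theorem han [hk : Fact (DiscNorm k)] : HAN k C := by
  intro c hc hc1 a h1 h2
  have hA : ∀ a, a ∈ AnW_201.AN k C c ↔ SSK_332.InA c a := fun a => Iff.rfl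
  haveI : IsDomain (AnW_201.AN k C c) := inferInstance
  have key : ∃ b : AnW_201.AN k C c, a = (AnW_201.AN k C c).val.toRingHom b := by
    refine mem_range_of_local (cellRing_AN hk.out hc hc1 (AnW_201.AN k C c) hA)
      ((AnW_201.AN k C c).val.toRingHom) a ?_ ?_
    · obtain ⟨h, h0, hh, hah⟩ := h1
      exact ⟨⟨h, hh⟩, fun h' => h0 (congrArg Subtype.val h'), ⟨_, hah⟩, rfl⟩
    · rintro τ ⟨hτ1, hτ2⟩
      obtain ⟨h, hh, hev, hah⟩ := h2 τ hτ1 hτ2
      refine ⟨⟨h, hh⟩, ?_, ⟨_, hah⟩, rfl⟩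
      rw [dvd_AN_iff hc hc1 hA hτ1 hτ2]
      exact hev
  obtain ⟨b, hb⟩ := key
  rw [hb]
  exact b.2

end Crest.Agent.R013.Conn_315

namespace Crest.Agent.R013.SSK_332.SSK

open Crest.Agent.R013.Cell_408 (DiscNorm)

/-- **the graph of every semistable structure is connected** -/
theorem conn {k C : Type*} [NontriviallyNormedField k] [CompleteSpace k] [IsUltrametricDist k]
    [NormedField C] [IsUltrametricDist C] [NormedAlgebra k C] [Algebra.IsAlgebraic k C]
    [IsAlgClosed C] [hk : Fact (DiscNorm k)] {K : Type*} [Field K] [Algebra C K]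
    [Algebra (RatFunc C) K] [IsScalarTower C (RatFunc C) K] [FiniteDimensional (RatFunc C) K]
    [Algebra.IsSeparable (RatFunc C) K] (S : SSK k C K) : S.Conn :=
  Crest.Agent.R013.Conn_315.conn_of_HAN S Crest.Agent.R013.Conn_315.han

end Crest.Agent.R013.SSK_332.SSK
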