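import Mathlib
import Crest.Agent.R013.GR3_921

/-!
# R013 / GR4: norms on function fields and their residue fields (helper921)

* `IsRes w ρ` : `ρ` is a (total) residue map of the norm `w`;
* `Red vC ρC w ρ` : `w` a norm of `L` extending `vC` on the constants, same value group;
* `exists_good_lift` (Lemma T): for `u ∉ C` some `(u - a)/c` has norm one and a non constant residue.
-/

set_option autoImplicit false
set_option linter.all false

namespace Crest.Agent.R013.GR4_921

open Polynomial Module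
open scoped NNReal
open Crest.Agent.R013.RR20_948 Crest.Agent.R013.GR2_921

/-- `ρ` is a residue map of the norm `w` (values outside `w ≤ 1` are irrelevant) -/
structure IsRes {L κ : Type*} [Field L] [Field κ] (w : Valuation L ℝ≥0) (ρ : L → κ) : Prop where
  add : ∀ x y, w x ≤ 1 → w y ≤ 1 → ρ (x + y) = ρ x + ρ y
  mul : ∀ x y, w x ≤ 1 → w y ≤ 1 → ρ (x * y) = ρ x * ρ y
  one : ρ 1 = 1
  zero_iff : ∀ x, w x ≤ 1 → (ρ x = 0 ↔ w x < 1)
  surj : ∀ y, ∃ x, w x ≤ 1 ∧ ρ x = y

namespace IsRes

variable {L κ : Type*} [Field L] [Field κ] {w : Valuation L ℝ≥0} {ρ : L → κ} (h : IsRes w ρ)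

include h

theorem zero : ρ 0 = 0 := (h.zero_iff 0 (by simp)).mpr (by simp)

theorem neg {x : L} (hx : w x ≤ 1) : ρ (-x) = -ρ x := by
  have h1 := h.add x (-x) hx (by rwa [Valuation.map_neg])
  rw [add_neg_cancel, h.zero] at h1
  exact (neg_eq_of_add_eq_zero_right h1.symm).symm

theorem sub {x y : L} (hx : w x ≤ 1) (hy : w y ≤ 1) : ρ (x - y) = ρ x - ρ y := by
  rw [sub_eq_add_neg, h.add x (-y) hx (by rwa [Valuation.map_neg]), h.neg hy, sub_eq_add_neg]

theorem eq_iff {x y : L} (hx : w x ≤ 1) (hy : w y ≤ 1) : ρ x = ρ y ↔ w (x - y) < 1 := by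
  rw [← h.zero_iff _ ((Valuation.map_sub _ _ _).trans (max_le hx hy)), h.sub hx hy, sub_eq_zero]

theorem ne_zero_iff {x : L} (hx : w x ≤ 1) : ρ x ≠ 0 ↔ w x = 1 := by
  rw [ne_eq, h.zero_iff x hx, not_lt]
  exact ⟨fun h1 => le_antisymm hx h1, fun h1 => h1.ge⟩

theorem pow {x : L} (hx : w x ≤ 1) (n : ℕ) : ρ (x ^ n) = ρ x ^ n := by
  induction n with
  | zero => rw [pow_zero, pow_zero, h.one]
  | succ n ih =>
    rw [pow_succ, pow_succ, h.mul _ _ (by rw [map_pow]; exact pow_le_one' hx n) hx, ih]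

theorem inv {x : L} (hx : w x = 1) : ρ x⁻¹ = (ρ x)⁻¹ := by
  have h0 : x ≠ 0 := by rintro rfl; simp at hx
  have h1 := h.mul x x⁻¹ hx.le (by rw [map_inv₀, hx, inv_one])
  rw [mul_inv_cancel₀ h0, h.one] at h1
  exact eq_inv_of_mul_eq_one_right h1.symm

theorem div {x y : L} (hx : w x ≤ 1) (hy : w y = 1) : ρ (x / y) = ρ x / ρ y := by
  rw [div_eq_mul_inv, div_eq_mul_inv, h.mul x y⁻¹ hx (by rw [map_inv₀, hy, inv_one]), h.inv hy]

theorem sum {ι : Type*} (s : Finset ι) (f : ι → L) (hf : ∀ i ∈ s, w (f i) ≤ 1) :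
    ρ (∑ i ∈ s, f i) = ∑ i ∈ s, ρ (f i) := by
  classical
  induction s using Finset.induction_on with
  | empty => simp [h.zero]
  | insert a s ha ih =>
    rw [Finset.sum_insert ha, Finset.sum_insert ha,
      h.add _ _ (hf a (Finset.mem_insert_self a s))
        (Valuation.map_sum_le _ fun i hi => hf i (Finset.mem_insert_of_mem hi)),
      ih fun i hi => hf i (Finset.mem_insert_of_mem hi)]

theorem prod {ι : Type*} (s : Finset ι) (f : ι → L) (hf : ∀ i ∈ s, w (f i) ≤ 1) :
    ρ (∏ i ∈ s, f i) = ∏ i ∈ s, ρ (f i) := by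
  classical
  induction s using Finset.induction_on with
  | empty => simp [h.one]
  | insert a s ha ih =>
    rw [Finset.prod_insert ha, Finset.prod_insert ha,
      h.mul _ _ (hf a (Finset.mem_insert_self a s))
        (by rw [map_prod]; exact Finset.prod_le_one' fun i hi => hf i (Finset.mem_insert_of_mem hi)),
      ih fun i hi => hf i (Finset.mem_insert_of_mem hi)]

/-- nonzero residues lift to units -/
theorem lift {y : κ} (hy : y ≠ 0) : ∃ x, w x = 1 ∧ ρ x = y := by
  obtain ⟨x, hx, rfl⟩ := h.surj y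
  exact ⟨x, (h.ne_zero_iff hx).mp hy, rfl⟩

end IsRes

/-- the standard residue map -/
theorem exists_isRes {L : Type*} [Field L] (w : Valuation L ℝ≥0) :
    ∃ ρ : L → IsLocalRing.ResidueField w.valuationSubring, IsRes w ρ ∧
      ∀ x (hx : w x ≤ 1), ρ x = IsLocalRing.residue w.valuationSubring ⟨x, hx⟩ := by
  classical
  refine ⟨fun x => if hx : w x ≤ 1 then IsLocalRing.residue w.valuationSubring ⟨x, hx⟩ else 0,
    ⟨?_, ?_, ?_, ?_, ?_⟩, fun x hx => dif_pos hx⟩
  · intro x y hx hy
    have hxy : w (x + y) ≤ 1 := (Valuation.map_add _ _ _).trans (max_le hx hy)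
    rw [dif_pos hx, dif_pos hy, dif_pos hxy, ← map_add]
    rfl
  · intro x y hx hy
    have hxy : w (x * y) ≤ 1 := by rw [map_mul]; exact mul_le_one' hx hy
    rw [dif_pos hx, dif_pos hy, dif_pos hxy, ← map_mul]
    rfl
  · have h1 : w (1 : L) ≤ 1 := by rw [map_one]
    rw [dif_pos h1]
    exact map_one _
  · intro x hx
    rw [dif_pos hx, IsLocalRing.residue_eq_zero_iff]
    exact Valuation.mem_maximalIdeal_iff _ w (a := ⟨x, hx⟩)
  · intro y
    obtain ⟨⟨x, hx⟩, rfl⟩ := IsLocalRing.residue_surjective y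
    exact ⟨x, hx, dif_pos hx⟩

/-- a norm `w` on `L` over the norm `vC` of `C`, with residue maps; value groups agree -/
structure Red {C L k κ : Type*} [Field C] [Field L] [Algebra C L] [Field k] [Field κ] [Algebra k κ]
    (vC : Valuation C ℝ≥0) (ρC : C → k) (w : Valuation L ℝ≥0) (ρ : L → κ) : Prop where
  resC : IsRes vC ρC
  res : IsRes w ρ
  norm : ∀ c, w (algebraMap C L c) = vC c
  comp : ∀ c, vC c ≤ 1 → ρ (algebraMap C L c) = algebraMap k κ (ρC c)
  val : ∀ f, f ≠ 0 → ∃ c : C, w f = vC c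

namespace Red

variable {C L k κ : Type*} [Field C] [Field L] [Algebra C L] [Field k] [Field κ] [Algebra k κ]
    {vC : Valuation C ℝ≥0} {ρC : C → k} {w : Valuation L ℝ≥0} {ρ : L → κ}
    (h : Red vC ρC w ρ)

include h

theorem val_ne {f : L} (hf : f ≠ 0) : ∃ c : C, c ≠ 0 ∧ w f = vC c := by
  obtain ⟨c, hc⟩ := h.val f hf
  refine ⟨c, ?_, hc⟩
  rintro rfl
  rw [map_zero] at hc
  exact hf ((Valuation.zero_iff w).mp hc)

/-- normalisation -/
theorem normalise {f : L} (hf : f ≠ 0) : ∃ c : C, c ≠ 0 ∧ w f = vC c ∧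
    w (f * algebraMap C L c⁻¹) = 1 := by
  obtain ⟨c, hc0, hc⟩ := h.val_ne hf
  refine ⟨c, hc0, hc, ?_⟩
  rw [map_mul, h.norm, hc, ← map_mul, mul_inv_cancel₀ hc0, map_one]

end Red

/-- approximable by a nonzero constant -/
def Appr {C L : Type*} [Field C] [Field L] [Algebra C L] (w : Valuation L ℝ≥0) (x : L) : Prop :=
  ∃ d : C, w (x - algebraMap C L d) < w x

section appr

variable {C L : Type*} [Field C] [Field L] [Algebra C L] {w : Valuation L ℝ≥0}

theorem w_eq_of_lt {x y : L} (h : w (x - y) < w x) : w y = w x := by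
  have h1 : w (x - y - x) = w x := Valuation.map_sub_eq_of_lt_right w h
  rwa [sub_sub_cancel_left, Valuation.map_neg] at h1

theorem Appr.mul {x y : L} (hx : Appr (C := C) w x) (hy : Appr (C := C) w y) :
    Appr (C := C) w (x * y) := by
  obtain ⟨d, hd⟩ := hx
  obtain ⟨e, he⟩ := hy
  have hx0 : 0 < w x := lt_of_le_of_lt zero_le hd
  have hy0 : 0 < w y := lt_of_le_of_lt zero_le he
  refine ⟨d * e, ?_⟩
  have h1 : x * y - algebraMap C L (d * e)
      = x * (y - algebraMap C L e) + (x - algebraMap C L d) * algebraMap C L e := by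
    rw [map_mul]; ring
  rw [h1]
  refine lt_of_le_of_lt (Valuation.map_add _ _ _) (max_lt ?_ ?_)
  · rw [map_mul, map_mul]
    exact mul_lt_mul_of_pos_left he hx0
  · rw [map_mul, map_mul, w_eq_of_lt he]
    exact mul_lt_mul_of_pos_right hd hy0

theorem Appr.const {c : C} (hc : c ≠ 0) : Appr (C := C) w (algebraMap C L c) := by
  refine ⟨c, ?_⟩
  rw [sub_self, map_zero, Valuation.pos_iff]
  simpa using hc

theorem Appr.prod {s : Multiset L} (hs : ∀ x ∈ s, Appr (C := C) w x) :
    Appr (C := C) w s.prod := by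
  induction s using Multiset.induction_on with
  | empty =>
    rw [Multiset.prod_zero, ← map_one (algebraMap C L)]
    exact Appr.const one_ne_zero
  | cons a s ih =>
    rw [Multiset.prod_cons]
    exact (hs a (Multiset.mem_cons_self a s)).mul
      (ih fun x hx => hs x (Multiset.mem_cons_of_mem hx))

theorem Appr.aeval [IsAlgClosed C] {u : L} (hu : ∀ a : C, Appr (C := C) w (u - algebraMap C L a))
    {f : C[X]} (hf : f ≠ 0) : Appr (C := C) w (Polynomial.aeval u f) := by
  have hsp : f.Splits := IsAlgClosed.splits f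
  rw [hsp.eq_prod_roots, map_mul, aeval_C, map_multiset_prod, Multiset.map_map]
  refine (Appr.const (leadingCoeff_ne_zero.mpr hf)).mul (Appr.prod ?_)
  intro x hx
  rw [Multiset.mem_map] at hx
  obtain ⟨a, _, rfl⟩ := hx
  simp only [Function.comp_apply, map_sub, aeval_X, aeval_C]
  exact hu a

end appr

section lemmaT

variable {C : Type*} [Field C] [IsAlgClosed C] [CharZero C] {L : Type*} [Field L] [Algebra C L]
  [Algebra (RatFunc C) L] [IsScalarTower C (RatFunc C) L] [FiniteDimensional (RatFunc C) L]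
  {k κ : Type*} [Field k] [IsAlgClosed k] [Field κ] [Algebra k κ]
  {vC : Valuation C ℝ≥0} {ρC : C → k} {w : Valuation L ℝ≥0} {ρ : L → κ}

/-- if the residue of every element of `C[u]` of norm `≤ 1` is constant then all residues are
constant -/
theorem residue_const (h : Red vC ρC w ρ) {u : L} (hu : Transcendental C u)
    (hc : ∀ f : C[X], w (aeval u f) ≤ 1 → ρ (aeval u f) ∈ Set.range (algebraMap k κ)) (z : κ) :
    z ∈ Set.range (algebraMap k κ) := by
  classical
  have hfin := ratAlg_finite u hu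
  letI := ratAlg u hu
  haveI := ratAlg_tower u hu
  haveI : FiniteDimensional (RatFunc C) L := hfin
  obtain ⟨t, ht, rfl⟩ := h.res.surj z
  -- `t` is algebraic over `C[u]`
  letI : Algebra C[X] L := ((algebraMap (RatFunc C) L).comp (algebraMap C[X] (RatFunc C))).toAlgebra
  haveI : IsScalarTower C[X] (RatFunc C) L := IsScalarTower.of_algebraMap_eq fun _ => rfl
  have halg : IsAlgebraic (RatFunc C) t := Algebra.IsAlgebraic.isAlgebraic t
  have halg2 : IsAlgebraic C[X] t := (IsFractionRing.isAlgebraic_iff C[X] (RatFunc C) L).mpr halg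
  obtain ⟨P, hP0, hP⟩ := halg2
  have hmap : ∀ f : C[X], algebraMap C[X] L f = aeval u f := by
    intro f
    show (ratHom u hu) (algebraMap C[X] (RatFunc C) f) = _
    unfold ratHom
    have h1 := RatFunc.liftAlgHom_apply_div (Polynomial.aeval u)
      (nonZeroDivisors_le_comap_nonZeroDivisors_of_injective _
        (transcendental_iff_injective.mp hu)) f 1
    simp only [map_one, div_one] at h1
    exact h1
  rw [aeval_eq_sum_range] at hP
  -- scale
  let W : ℕ → ℝ≥0 := fun i => w (aeval u (P.coeff i))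
  have hne : (Finset.range (P.natDegree + 1)).Nonempty := ⟨0, by simp⟩
  obtain ⟨j, hj, hjmax⟩ := Finset.exists_max_image (Finset.range (P.natDegree + 1)) W hne
  have hinj := transcendental_iff_injective.mp hu
  have hWj : aeval u (P.coeff j) ≠ 0 := by
    intro h0
    have h1 : W j = 0 := by show w _ = 0; rw [h0, map_zero]
    have h2 : W P.natDegree ≤ 0 := h1 ▸ hjmax P.natDegree (by simp)
    have h3 : aeval u (P.coeff P.natDegree) = 0 := (Valuation.zero_iff w).mp (le_antisymm h2 zero_le)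
    have h4 : P.coeff P.natDegree = 0 := by
      apply hinj
      show aeval u _ = aeval u 0
      rw [h3, map_zero]
    exact hP0 (leadingCoeff_eq_zero.mp h4)
  obtain ⟨c, hc0, hcj, hc1⟩ := h.normalise hWj
  let b : ℕ → L := fun i => aeval u (P.coeff i * Polynomial.C c⁻¹)
  have hb : ∀ i, b i = aeval u (P.coeff i) * algebraMap C L c⁻¹ := fun i => by
    show aeval u _ = _; rw [map_mul, aeval_C]
  have hb1 : ∀ i ∈ Finset.range (P.natDegree + 1), w (b i) ≤ 1 := by
    intro i hi
    rw [hb, map_mul]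
    calc _ ≤ w (aeval u (P.coeff j)) * w (algebraMap C L c⁻¹) := mul_le_mul_left (hjmax i hi) _
      _ = 1 := by rw [← map_mul]; exact hc1
  have hsum : ∑ i ∈ Finset.range (P.natDegree + 1), b i * t ^ i = 0 := by
    have h1 : ∑ i ∈ Finset.range (P.natDegree + 1), b i * t ^ i
        = (∑ i ∈ Finset.range (P.natDegree + 1), P.coeff i • t ^ i) * algebraMap C L c⁻¹ := by
      rw [Finset.sum_mul]
      refine Finset.sum_congr rfl fun i _ => ?_
      rw [hb, Algebra.smul_def, hmap]; ring
    rw [h1, hP, zero_mul]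
  choose e he using fun i : {i // i ∈ Finset.range (P.natDegree + 1)} =>
    hc (P.coeff i * Polynomial.C c⁻¹) (hb1 i i.2)
  let Q : k[X] := ∑ i : {i // i ∈ Finset.range (P.natDegree + 1)}, Polynomial.C (e i) * X ^ (i : ℕ)
  have hQz : aeval (ρ t) Q = 0 := by
    have h1 := congrArg ρ hsum
    rw [h.res.zero, h.res.sum _ _ (fun i hi => by
      rw [map_mul, map_pow]; exact mul_le_one' (hb1 i hi) (pow_le_one' ht i))] at h1
    show aeval (ρ t) (∑ i : {i // i ∈ Finset.range (P.natDegree + 1)},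
      Polynomial.C (e i) * X ^ (i : ℕ)) = 0
    rw [map_sum, ← h1, ← Finset.sum_coe_sort (Finset.range (P.natDegree + 1))
      (fun i => ρ (b i * t ^ i))]
    refine Finset.sum_congr rfl fun i _ => ?_
    rw [map_mul, map_pow, aeval_C, aeval_X, he i,
      h.res.mul _ _ (hb1 i i.2) (by rw [map_pow]; exact pow_le_one' ht i), h.res.pow ht]
  have hQ0 : Q ≠ 0 := by
    intro h0
    have h1 : Q.coeff j = e ⟨j, hj⟩ := by
      show (∑ i : {i // i ∈ Finset.range (P.natDegree + 1)},
        Polynomial.C (e i) * X ^ (i : ℕ)).coeff j = _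
      rw [finsetSum_coeff, Finset.sum_eq_single ⟨j, hj⟩]
      · rw [coeff_C_mul, coeff_X_pow, if_pos rfl, mul_one]
      · intro i _ hi
        rw [coeff_C_mul, coeff_X_pow, if_neg, mul_zero]
        intro hji; exact hi (Subtype.ext hji.symm)
      · intro h'; exact absurd (Finset.mem_univ _) h'
    rw [h0, coeff_zero] at h1
    have h2 := he ⟨j, hj⟩
    rw [← h1, map_zero] at h2
    have h3 : ρ (b j) ≠ 0 := by
      rw [h.res.ne_zero_iff (hb1 j hj), hb]; exact hc1
    exact h3 h2.symm
  have halgz : IsAlgebraic k (ρ t) := ⟨Q, hQ0, hQz⟩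
  have h1 : ρ t ∈ algebraicClosure k κ := mem_algebraicClosure_iff.mpr halgz
  rw [hc_of_isAlgClosed (k := k) (K := κ), IntermediateField.mem_bot] at h1
  exact h1

/-- **Lemma T** -/
theorem exists_good_lift (h : Red vC ρC w ρ) (hκ : ∃ z : κ, z ∉ Set.range (algebraMap k κ))
    {u : L} (hu : Transcendental C u) :
    ∃ a c : C, c ≠ 0 ∧ w ((u - algebraMap C L a) * algebraMap C L c⁻¹) = 1 ∧
      ρ ((u - algebraMap C L a) * algebraMap C L c⁻¹) ∉ Set.range (algebraMap k κ) := by
  by_contra hcon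
  push Not at hcon
  obtain ⟨z, hz⟩ := hκ
  apply hz
  -- every `u - a` is approximable
  have happr : ∀ a : C, Appr (C := C) w (u - algebraMap C L a) := by
    intro a
    have hne : u - algebraMap C L a ≠ 0 := by
      intro h0
      rw [sub_eq_zero.mp h0] at hu
      exact hu (isAlgebraic_algebraMap a)
    obtain ⟨c, hc0, hc, hc1⟩ := h.normalise hne
    obtain ⟨d, hd⟩ := hcon a c hc0 hc1
    obtain ⟨e, he1, he⟩ := h.resC.surj d
    have h1 : ρ ((u - algebraMap C L a) * algebraMap C L c⁻¹) = ρ (algebraMap C L e) := by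
      rw [h.comp e he1, he, hd]
    rw [h.res.eq_iff hc1.le (by rw [h.norm]; exact he1)] at h1
    refine ⟨e * c, ?_⟩
    have h2 : u - algebraMap C L a - algebraMap C L (e * c)
        = ((u - algebraMap C L a) * algebraMap C L c⁻¹ - algebraMap C L e) * algebraMap C L c := by
      rw [sub_mul, mul_assoc, ← map_mul (algebraMap C L) c⁻¹ c, inv_mul_cancel₀ hc0, map_one,
        mul_one, ← map_mul]
    rw [h2, map_mul, h.norm, hc]
    calc _ < 1 * vC c := mul_lt_mul_of_pos_right h1 (by rw [Valuation.pos_iff]; exact hc0)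
      _ = vC c := one_mul _
  refine residue_const h hu ?_ z
  intro f hf
  by_cases hf0 : f = 0
  · rw [hf0, map_zero, h.res.zero]; exact ⟨0, map_zero _⟩
  obtain ⟨d, hd⟩ := Appr.aeval happr hf0
  have hd1 : vC d ≤ 1 := by rw [← h.norm, w_eq_of_lt hd]; exact hf
  refine ⟨ρC d, ?_⟩
  rw [← h.comp d hd1, eq_comm, h.res.eq_iff hf (by rw [h.norm]; exact hd1)]
  exact lt_of_lt_of_le hd hf

end lemmaT

end Crest.Agent.R013.GR4_921
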