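import Crest.Agent.R013.A2d_275
import Crest.Agent.R013.Unr9_957

/-!
# Row 13, KUMV: Kummer extensions of prime degree `l` at a norm with `v l = 1`

`L = K(y)`, `y ^ l = h ∈ K`, `ζ ∈ K` a primitive `l`-th root of unity, `v` a nontrivial real
valuation of `K` with `v l = 1`.
* split case: `v (h / g ^ l - 1) < 1` for some `g`: exactly `l` extensions, `K` dense;
* inert case: no such `g`: exactly one extension; if `v h = 1` it is the maximum norm of the
  basis `1, y, .., y ^ (l - 1)`.
-/

set_option autoImplicit false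
set_option linter.all false

noncomputable section

namespace Crest.Agent.R013.Kumv_275

open scoped NNReal IntermediateField
open Polynomial
open Crest.Agent.R013.A2d_275 Crest.Agent.R013.Unr9_957

section basics

variable {K : Type*} [Field K] (v : Valuation K ℝ≥0)

/-- roots of unity have value one -/
lemma val_root {ζ : K} {n : ℕ} (hn : n ≠ 0) (h : ζ ^ n = 1) : v ζ = 1 := by
  have h1 : v ζ ^ n = 1 := by rw [← map_pow, h, map_one]
  exact (pow_eq_one_iff_of_nonneg zero_le hn).mp h1

/-- `1 - ζ ^ i` is a unit for a primitive `l`-th root of unity, `v l = 1`. -/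
lemma val_one_sub {l : ℕ} (hl : l.Prime) (hvl : v (l : K) = 1) {ζ : K} (hζ : IsPrimitiveRoot ζ l)
    {i : ℕ} (hi : ¬ l ∣ i) : v (1 - ζ ^ i) = 1 := by
  have hζi : IsPrimitiveRoot (ζ ^ i) l :=
    hζ.pow_of_coprime i ((Nat.Prime.coprime_iff_not_dvd hl).mpr hi).symm
  have hζ1 : v ζ = 1 := val_root v hl.ne_zero hζ.pow_eq_one
  have hle : ∀ j : ℕ, v (1 - (ζ ^ i) ^ j) ≤ 1 := by
    intro j
    refine (v.map_sub _ _).trans (max_le ?_ ?_)
    · rw [map_one]
    · rw [map_pow, map_pow, hζ1, one_pow, one_pow]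
  obtain ⟨m, rfl⟩ : ∃ m, l = m + 1 := ⟨l - 1, (Nat.succ_pred_eq_of_pos hl.pos).symm⟩
  have hm : 0 < m := by have := hl.two_le; omega
  have hprod := hζi.prod_one_sub_pow_eq_order
  have h1 : v (∏ j ∈ Finset.range m, (1 - (ζ ^ i) ^ (j + 1))) = 1 := by
    rw [hprod]
    have : ((m : K) + 1) = ((m + 1 : ℕ) : K) := by push_cast; rfl
    rw [this, hvl]
  rw [map_prod, ← Finset.mul_prod_erase _ _ (Finset.mem_range.mpr hm)] at h1
  have h2 : ∏ x ∈ (Finset.range m).erase 0, v (1 - (ζ ^ i) ^ (x + 1)) ≤ 1 :=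
    Finset.prod_le_one' fun j _ => hle (j + 1)
  have h3 := hle 1
  rw [zero_add] at h1
  rw [pow_one] at h1 h3
  refine le_antisymm h3 ?_
  by_contra hlt
  push Not at hlt
  have h4 : v (1 - ζ ^ i) * ∏ x ∈ (Finset.range m).erase 0, v (1 - (ζ ^ i) ^ (x + 1)) < 1 :=
    lt_of_le_of_lt (mul_le_of_le_one_right zero_le h2) hlt
  exact absurd h1 h4.ne

/-- distinct powers of `ζ` are at distance one -/
lemma val_sub {l : ℕ} (hl : l.Prime) (hvl : v (l : K) = 1) {ζ : K} (hζ : IsPrimitiveRoot ζ l)
    {i j : ℕ} (hi : i < l) (hj : j < l) (hij : i ≠ j) : v (ζ ^ i - ζ ^ j) = 1 := by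
  wlog hlt : i < j generalizing i j with H
  · rw [Valuation.map_sub_swap]
    exact H hj hi hij.symm (lt_of_le_of_ne (not_lt.mp hlt) hij.symm)
  have hζ1 : v ζ = 1 := val_root v hl.ne_zero hζ.pow_eq_one
  have h1 : ζ ^ i - ζ ^ j = ζ ^ i * (1 - ζ ^ (j - i)) := by
    rw [mul_sub, mul_one, ← pow_add, Nat.add_sub_cancel' hlt.le]
  rw [h1, map_mul, map_pow, hζ1, one_pow, one_mul]
  refine val_one_sub v hl hvl hζ ?_
  intro hd
  have := Nat.le_of_dvd (by omega) hd
  omega

/-- `a ^ l - b ^ l = ∏ (a - ζ ^ i b)` -/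
lemma pow_sub_pow_prod {l : ℕ} (hl : l.Prime) {ζ : K} (hζ : IsPrimitiveRoot ζ l) (a b : K) :
    a ^ l - b ^ l = ∏ i ∈ Finset.range l, (a - ζ ^ i * b) := by
  have h1 := X_pow_sub_C_eq_prod hζ hl.pos (rfl : b ^ l = b ^ l)
  have h2 := congrArg (Polynomial.eval a) h1
  simpa [Polynomial.eval_prod] using h2

end basics

section field

variable {K L : Type*} [Field K] [Field L] [Algebra K L] {l : ℕ} {h : K} {y : L} {ζ : K}

lemma isIntegral_y (hl : l.Prime) (hy : y ^ l = algebraMap K L h) : IsIntegral K y := by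
  refine ⟨X ^ l - C h, monic_X_pow_sub_C h hl.ne_zero, ?_⟩
  simp [hy]

lemma finDim (hl : l.Prime) (hy : y ^ l = algebraMap K L h) (htop : K⟮y⟯ = ⊤) :
    FiniteDimensional K L := by
  have h1 : FiniteDimensional K K⟮y⟯ := IntermediateField.adjoin.finiteDimensional (isIntegral_y hl hy)
  rw [htop] at h1
  exact LinearEquiv.finiteDimensional (IntermediateField.topEquiv (F := K) (E := L)).toLinearEquiv

lemma adjoin_top (hl : l.Prime) (hy : y ^ l = algebraMap K L h) (htop : K⟮y⟯ = ⊤) :
    Algebra.adjoin K {y} = ⊤ := by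
  have h1 := IntermediateField.adjoin_simple_toSubalgebra_of_isAlgebraic
    (isIntegral_y hl hy).isAlgebraic
  rw [← h1, htop, IntermediateField.top_toSubalgebra]

lemma minpoly_y (hl : l.Prime) (hy : y ^ l = algebraMap K L h) (hh : ∀ g : K, g ^ l ≠ h) :
    minpoly K y = X ^ l - C h := by
  refine (minpoly.eq_of_irreducible_of_monic (X_pow_sub_C_irreducible_of_prime hl hh) ?_
    (monic_X_pow_sub_C h hl.ne_zero)).symm
  simp [hy]

lemma finrank_L (hl : l.Prime) (hy : y ^ l = algebraMap K L h) (htop : K⟮y⟯ = ⊤)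
    (hh : ∀ g : K, g ^ l ≠ h) : Module.finrank K L = l := by
  have h1 := IntermediateField.adjoin.finrank (isIntegral_y hl hy)
  rw [htop, minpoly_y hl hy hh, natDegree_X_pow_sub_C, IntermediateField.finrank_top'] at h1
  exact h1

lemma normalKL (hl : l.Prime) (hζ : IsPrimitiveRoot ζ l) (hy : y ^ l = algebraMap K L h)
    (htop : K⟮y⟯ = ⊤) : Normal K L := by
  have hspl : IsSplittingField K L (X ^ l - C h) := by
    constructor
    · rw [Polynomial.map_sub, Polynomial.map_pow, Polynomial.map_C, Polynomial.map_X]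
      exact X_pow_sub_C_splits_of_isPrimitiveRoot
        (hζ.map_of_injective (algebraMap K _).injective) hy
    · rw [eq_top_iff, ← adjoin_top hl hy htop]
      apply Algebra.adjoin_mono
      rw [Set.singleton_subset_iff, mem_rootSet_of_ne (X_pow_sub_C_ne_zero hl.pos h),
        aeval_def, eval₂_sub, eval₂_X_pow, eval₂_C, hy, sub_self]
  exact Normal.of_isSplittingField (X ^ l - C h)

lemma exists_sigma (hl : l.Prime) (hζ : IsPrimitiveRoot ζ l) (hy : y ^ l = algebraMap K L h)
    (htop : K⟮y⟯ = ⊤) (hh : ∀ g : K, g ^ l ≠ h) (i : ℕ) :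
    ∃ σ : L ≃ₐ[K] L, σ y = algebraMap K L (ζ ^ i) * y := by
  have := normalKL hl hζ hy htop
  have := finDim hl hy htop
  have hy' : (algebraMap K L (ζ ^ i) * y) ^ l = algebraMap K L h := by
    rw [mul_pow, hy, ← map_pow, ← pow_mul, mul_comm i l, pow_mul, hζ.pow_eq_one, one_pow, map_one,
      one_mul]
  exact minpoly.exists_algEquiv_of_root' (K := K) (L := L) (y := y)
    (x := algebraMap K L (ζ ^ i) * y) (Algebra.IsAlgebraic.isAlgebraic y)
    (by
      rw [minpoly_y hl hy hh, map_sub, map_pow, aeval_X, aeval_C, hy', sub_self])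

lemma sigma_y (hl : l.Prime) (hζ : IsPrimitiveRoot ζ l) (hy : y ^ l = algebraMap K L h)
    (h0 : h ≠ 0) (σ : L ≃ₐ[K] L) : ∃ i < l, σ y = algebraMap K L (ζ ^ i) * y := by
  have hy0 : y ≠ 0 := by
    rintro rfl
    rw [zero_pow hl.ne_zero] at hy
    exact h0 ((map_eq_zero _).mp hy.symm)
  have h1 : (σ y / y) ^ l = 1 := by
    rw [div_pow, ← map_pow, hy, AlgEquiv.commutes, div_self]
    rw [Ne, map_eq_zero]
    exact h0
  have hζ' := hζ.map_of_injective (algebraMap K L).injective
  have : NeZero l := ⟨hl.ne_zero⟩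
  obtain ⟨i, hi, h2⟩ := hζ'.eq_pow_of_pow_eq_one h1
  refine ⟨i, hi, ?_⟩
  rw [map_pow, h2, div_mul_cancel₀ _ hy0]

lemma sigma_ext (hl : l.Prime) (hy : y ^ l = algebraMap K L h) (htop : K⟮y⟯ = ⊤)
    (σ τ : L ≃ₐ[K] L) (hst : σ y = τ y) : σ = τ := by
  have h1 : (σ : L →ₐ[K] L) = (τ : L →ₐ[K] L) := by
    refine AlgHom.ext_of_adjoin_eq_top (adjoin_top hl hy htop) ?_
    intro x hx
    rw [Set.mem_singleton_iff] at hx
    rw [hx]
    exact hst
  ext x
  exact DFunLike.congr_fun h1 x

end field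

section split

variable {K L : Type*} [Field K] [Field L] [Algebra K L] {l : ℕ} {h : K} {y : L} {ζ : K}
  (v : Valuation K ℝ≥0)

/-- Newton approximation of the `l`-th root of `a`, `v (a - 1) < 1`. -/
lemma newton (hl : l.Prime) (hvl : v (l : K) = 1) {a : K} (ha : v (a - 1) < 1) (n : ℕ) :
    ∃ c : K, v (c - 1) < 1 ∧ v (a - c ^ l) ≤ v (a - 1) ^ (n + 1) := by
  induction n with
  | zero => exact ⟨1, by simp, by simp⟩
  | succ n ih =>
    obtain ⟨c, hc1, hc2⟩ := ih
    set δ := v (a - 1) with hδ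
    have hvc : v c = 1 := by
      have h1 : v (1 + (c - 1)) = v 1 := Valuation.map_add_eq_of_lt_left v (by rwa [map_one])
      rw [add_sub_cancel, map_one] at h1
      exact h1
    have hc0 : c ≠ 0 := by
      rintro rfl
      rw [map_zero] at hvc
      exact zero_ne_one hvc
    have hl0 : (l : K) ≠ 0 := by
      intro h0
      rw [h0, map_zero] at hvl
      exact zero_ne_one hvl
    set d : K := (a - c ^ l) / ((l : K) * c ^ (l - 1)) with hd
    have hvd : v d ≤ δ ^ (n + 1) := by
      rw [hd, map_div₀, map_mul, map_pow, hvl, hvc, one_pow, mul_one, div_one]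
      exact hc2
    have hδ1 : δ ^ (n + 1) < 1 := pow_lt_one₀ zero_le ha (by omega)
    have hvd1 : v d ≤ 1 := (hvd.trans_lt hδ1).le
    let c' : v.integer := ⟨c, hvc.le⟩
    let d' : v.integer := ⟨d, hvd1⟩
    obtain ⟨k, hk⟩ := (X ^ l : (v.integer)[X]).binomExpansion c' d'
    refine ⟨c + d, ?_, ?_⟩
    · have h1 : c + d - 1 = (c - 1) + d := by ring
      rw [h1]
      exact (v.map_add _ _).trans_lt (max_lt hc1 (hvd.trans_lt hδ1))
    · have hk' : (c + d) ^ l = c ^ l + (l : K) * c ^ (l - 1) * d + (k : K) * d ^ 2 := by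
        have h2 := congrArg (Subtype.val : v.integer → K) hk
        simpa [derivative_X_pow] using h2
      have h3 : a - (c + d) ^ l = -((k : K) * d ^ 2) := by
        rw [hk', hd]
        have h4 : (l : K) * c ^ (l - 1) ≠ 0 := mul_ne_zero hl0 (pow_ne_zero _ hc0)
        rw [mul_div_cancel₀ _ h4]
        ring
      rw [h3, Valuation.map_neg, map_mul, map_pow]
      calc v (k : K) * v d ^ 2 ≤ 1 * (δ ^ (n + 1)) ^ 2 := by
            exact mul_le_mul' k.2 (pow_le_pow_left₀ zero_le hvd 2)
        _ = δ ^ (2 * (n + 1)) := by rw [one_mul, ← pow_mul, mul_comm]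
        _ ≤ δ ^ (n + 1 + 1) := pow_le_pow_of_le_one zero_le ha.le (by omega)

/-- in the split case every extension of `v` has exactly one index -/
lemma split_idx (hl : l.Prime) (hvl : v (l : K) = 1) (hζ : IsPrimitiveRoot ζ l)
    (hy : y ^ l = algebraMap K L h) {g : K} (hg : v (h / g ^ l - 1) < 1)
    (w : Valuation L ℝ≥0) (hw : w.comap (algebraMap K L) = v) :
    ∃ i < l, w (y / algebraMap K L g - algebraMap K L (ζ ^ i)) < 1 := by
  have hζ' := hζ.map_of_injective (algebraMap K L).injective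
  have hwv : ∀ a : K, w (algebraMap K L a) = v a := fun a => by rw [← hw]; rfl
  have h1 := pow_sub_pow_prod hl hζ' (y / algebraMap K L g) 1
  have h2 : (y / algebraMap K L g) ^ l - 1 ^ l = algebraMap K L (h / g ^ l - 1) := by
    rw [div_pow, hy, one_pow, map_sub, map_div₀, map_pow, map_one]
  rw [h2] at h1
  have h3 := congrArg w h1
  rw [hwv, map_prod] at h3
  by_contra hcon
  push Not at hcon
  have h4 : 1 ≤ ∏ i ∈ Finset.range l, w (y / algebraMap K L g - (algebraMap K L ζ) ^ i * 1) := by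
    refine Finset.one_le_prod' ?_
    intro i hi
    have := hcon i (Finset.mem_range.mp hi)
    rwa [mul_one, ← map_pow]
  rw [← h3] at h4
  exact absurd hg (not_lt.mpr h4)

lemma split_idx_unique (hl : l.Prime) (hvl : v (l : K) = 1) (hζ : IsPrimitiveRoot ζ l) {u : L}
    (w : Valuation L ℝ≥0) (hw : w.comap (algebraMap K L) = v) {i j : ℕ} (hi : i < l) (hj : j < l)
    (h1 : w (u - algebraMap K L (ζ ^ i)) < 1) (h2 : w (u - algebraMap K L (ζ ^ j)) < 1) :
    i = j := by
  by_contra hij
  have hwv : ∀ a : K, w (algebraMap K L a) = v a := fun a => by rw [← hw]; rfl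
  have h3 : algebraMap K L (ζ ^ i - ζ ^ j) =
      (u - algebraMap K L (ζ ^ j)) - (u - algebraMap K L (ζ ^ i)) := by
    rw [map_sub]; ring
  have h4 := val_sub v hl hvl hζ hi hj hij
  rw [← hwv, h3] at h4
  exact absurd h4 ((w.map_sub _ _).trans_lt (max_lt h2 h1)).ne

/-- in the split case `y` is a limit of elements of `K` -/
lemma split_y_near (hl : l.Prime) (hvl : v (l : K) = 1) (hζ : IsPrimitiveRoot ζ l)
    (hy : y ^ l = algebraMap K L h) {g : K} (hg : v (h / g ^ l - 1) < 1)
    (w : Valuation L ℝ≥0) (hw : w.comap (algebraMap K L) = v) (ε : ℝ≥0) (hε : 0 < ε) :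
    ∃ c : K, w (y - algebraMap K L c) < ε := by
  have hwv : ∀ a : K, w (algebraMap K L a) = v a := fun a => by rw [← hw]; rfl
  have hg0 : g ≠ 0 := by
    rintro rfl
    rw [zero_pow hl.ne_zero, div_zero, zero_sub, Valuation.map_neg, map_one] at hg
    exact lt_irrefl _ hg
  have hgL : algebraMap K L g ≠ 0 := by rwa [Ne, map_eq_zero]
  obtain ⟨i, hi, hiw⟩ := split_idx v hl hvl hζ hy hg w hw
  set u := y / algebraMap K L g with hu
  -- precision
  have hvg : 0 < v g := zero_lt_iff.mpr (by rwa [Ne, map_eq_zero])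
  obtain ⟨n, hn⟩ : ∃ n : ℕ, v (h / g ^ l - 1) ^ n < ε / v g :=
    exists_pow_lt_of_lt_one (div_pos hε hvg) hg
  obtain ⟨c, hc1, hc2⟩ := newton v hl hvl hg n
  refine ⟨g * (ζ ^ i * c), ?_⟩
  have hζ1 : v ζ = 1 := val_root v hl.ne_zero hζ.pow_eq_one
  have hζ' := hζ.map_of_injective (algebraMap K L).injective
  have hprod := pow_sub_pow_prod hl hζ' u (algebraMap K L c)
  have hul : u ^ l = algebraMap K L (h / g ^ l) := by
    rw [hu, div_pow, hy, map_div₀, map_pow]
  rw [hul, ← map_pow, ← map_sub] at hprod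
  have h3 := congrArg w hprod
  rw [hwv, map_prod] at h3
  have hother : ∀ j ∈ (Finset.range l).erase i,
      w (u - algebraMap K L ζ ^ j * algebraMap K L c) = 1 := by
    intro j hj
    rw [Finset.mem_erase, Finset.mem_range] at hj
    have h4 : u - algebraMap K L ζ ^ j * algebraMap K L c =
        algebraMap K L (ζ ^ i - ζ ^ j) + ((u - algebraMap K L (ζ ^ i)) +
          algebraMap K L (ζ ^ j * (-(c - 1)))) := by
      simp only [map_sub, map_mul, map_pow, map_neg, map_one]
      ring
    have h5 : w (algebraMap K L (ζ ^ i - ζ ^ j)) = 1 := by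
      rw [hwv]; exact val_sub v hl hvl hζ hi hj.2 (Ne.symm hj.1)
    have h6 : w ((u - algebraMap K L (ζ ^ i)) + algebraMap K L (ζ ^ j * (-(c - 1)))) < 1 := by
      refine (w.map_add _ _).trans_lt (max_lt hiw ?_)
      rw [hwv, map_mul, map_pow, hζ1, one_pow, one_mul, Valuation.map_neg]
      exact hc1
    rw [h4, Valuation.map_add_eq_of_lt_left w (by rw [h5]; exact h6), h5]
  rw [← Finset.mul_prod_erase _ _ (Finset.mem_range.mpr hi), Finset.prod_eq_one hother,
    mul_one] at h3
  have h7 : y - algebraMap K L (g * (ζ ^ i * c)) =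
      algebraMap K L g * (u - algebraMap K L ζ ^ i * algebraMap K L c) := by
    rw [mul_sub, hu, mul_div_cancel₀ _ hgL, map_mul, map_mul, map_pow]
  rw [h7, map_mul, hwv, ← h3]
  calc v g * v (h / g ^ l - c ^ l) ≤ v g * v (h / g ^ l - 1) ^ (n + 1) :=
        mul_le_mul_right hc2 _
    _ ≤ v g * v (h / g ^ l - 1) ^ n :=
        mul_le_mul_right (pow_le_pow_of_le_one zero_le hg.le (Nat.le_succ n)) _
    _ < v g * (ε / v g) := (mul_lt_mul_iff_right₀ hvg).mpr hn
    _ = ε := mul_div_cancel₀ _ hvg.ne'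

/-- elements which are limits of `K` form a subalgebra -/
lemma near_of_adjoin (w : Valuation L ℝ≥0) (hnear : ∀ ε : ℝ≥0, 0 < ε → ∃ c : K,
    w (y - algebraMap K L c) < ε) (hadj : Algebra.adjoin K {y} = ⊤) (z : L) (ε : ℝ≥0)
    (hε : 0 < ε) : ∃ c : K, w (z - algebraMap K L c) < ε := by
  have hz : z ∈ Algebra.adjoin K {y} := by rw [hadj]; trivial
  induction hz using Algebra.adjoin_induction generalizing ε with
  | mem x hx =>
    rw [Set.mem_singleton_iff] at hx
    rw [hx]
    exact hnear ε hε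
  | algebraMap r => exact ⟨r, by rw [sub_self, map_zero]; exact hε⟩
  | add x x' _ _ hx hx' =>
    obtain ⟨c, hc⟩ := hx ε hε
    obtain ⟨c', hc'⟩ := hx' ε hε
    refine ⟨c + c', ?_⟩
    have h1 : x + x' - algebraMap K L (c + c') = (x - algebraMap K L c) +
        (x' - algebraMap K L c') := by rw [map_add]; ring
    rw [h1]
    exact (w.map_add _ _).trans_lt (max_lt hc hc')
  | mul x x' _ _ hx hx' =>
    have hpos : 0 < w x' + 1 := by positivity
    obtain ⟨c, hc⟩ := hx (ε / (w x' + 1)) (div_pos hε hpos)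
    obtain ⟨c', hc'⟩ := hx' (ε / (w (algebraMap K L c) + 1)) (div_pos hε (by positivity))
    refine ⟨c * c', ?_⟩
    have h1 : x * x' - algebraMap K L (c * c') = (x - algebraMap K L c) * x' +
        algebraMap K L c * (x' - algebraMap K L c') := by rw [map_mul]; ring
    rw [h1]
    refine (w.map_add _ _).trans_lt (max_lt ?_ ?_)
    · rw [map_mul]
      calc w (x - algebraMap K L c) * w x' ≤ w (x - algebraMap K L c) * (w x' + 1) :=
            mul_le_mul_right (le_add_of_nonneg_right zero_le) _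
        _ < ε / (w x' + 1) * (w x' + 1) := (mul_lt_mul_iff_left₀ hpos).mpr hc
        _ = ε := div_mul_cancel₀ _ hpos.ne'
    · rw [map_mul]
      have hpos' : 0 < w (algebraMap K L c) + 1 := by positivity
      calc w (algebraMap K L c) * w (x' - algebraMap K L c')
          ≤ (w (algebraMap K L c) + 1) * w (x' - algebraMap K L c') :=
            mul_le_mul_left (le_add_of_nonneg_right zero_le) _
        _ < (w (algebraMap K L c) + 1) * (ε / (w (algebraMap K L c) + 1)) :=
            (mul_lt_mul_iff_right₀ hpos').mpr hc'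
        _ = ε := mul_div_cancel₀ _ hpos'.ne'

/-- **split case**: `K` is dense in `L` at every extension of `v`. -/
theorem split_dense (hl : l.Prime) (hvl : v (l : K) = 1) (hζ : IsPrimitiveRoot ζ l)
    (hy : y ^ l = algebraMap K L h) (htop : K⟮y⟯ = ⊤) {g : K} (hg : v (h / g ^ l - 1) < 1)
    (w : Valuation L ℝ≥0) (hw : w.comap (algebraMap K L) = v) (z : L) (ε : ℝ≥0) (hε : 0 < ε) :
    ∃ c : K, w (z - algebraMap K L c) < ε :=
  near_of_adjoin w (fun ε hε => split_y_near v hl hvl hζ hy hg w hw ε hε)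
    (adjoin_top hl hy htop) z ε hε

/-- **split case**: values do not change -/
theorem split_val (hl : l.Prime) (hvl : v (l : K) = 1) (hζ : IsPrimitiveRoot ζ l)
    (hy : y ^ l = algebraMap K L h) (htop : K⟮y⟯ = ⊤) {g : K} (hg : v (h / g ^ l - 1) < 1)
    (w : Valuation L ℝ≥0) (hw : w.comap (algebraMap K L) = v) (z : L) (hz : z ≠ 0) :
    ∃ c : K, w (z - algebraMap K L c) < w z ∧ v c = w z := by
  have hwz : 0 < w z := zero_lt_iff.mpr (by rwa [Ne, map_eq_zero])
  obtain ⟨c, hc⟩ := split_dense v hl hvl hζ hy htop hg w hw z (w z) hwz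
  refine ⟨c, hc, ?_⟩
  have h1 : w (algebraMap K L c) = w z := by
    have h2 : algebraMap K L c = z + -(z - algebraMap K L c) := by ring
    rw [h2]
    exact Valuation.map_add_eq_of_lt_left w (by rwa [Valuation.map_neg])
  rw [← h1, ← hw]
  rfl

/-- two extensions which agree on the generator up to small elements agree (split case) -/
theorem split_unique (hl : l.Prime) (hvl : v (l : K) = 1) (hζ : IsPrimitiveRoot ζ l)
    (h0 : h ≠ 0) (hy : y ^ l = algebraMap K L h) (htop : K⟮y⟯ = ⊤) {g : K}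
    (hg : v (h / g ^ l - 1) < 1) {i : ℕ} (hi : i < l) (w w' : Valuation L ℝ≥0)
    (hw : w.comap (algebraMap K L) = v) (hw' : w'.comap (algebraMap K L) = v)
    (h1 : w (y / algebraMap K L g - algebraMap K L (ζ ^ i)) < 1)
    (h2 : w' (y / algebraMap K L g - algebraMap K L (ζ ^ i)) < 1) : w = w' := by
  have hwv : ∀ a : K, w (algebraMap K L a) = v a := fun a => by rw [← hw]; rfl
  have hnorm := normalKL hl hζ hy htop
  obtain ⟨σ, hσ⟩ := exists_conj_normal w w' (hw.trans hw'.symm)
  obtain ⟨j, hj, hσj⟩ := sigma_y hl hζ hy h0 σ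
  have hζ1 : w (algebraMap K L ζ) = 1 := by rw [hwv]; exact val_root v hl.ne_zero hζ.pow_eq_one
  set u := y / algebraMap K L g with hu
  have hσu : σ u = algebraMap K L (ζ ^ j) * u := by
    rw [hu, map_div₀, hσj, AlgEquiv.commutes, mul_div_assoc]
  have h3 : w (algebraMap K L (ζ ^ j) * (u - algebraMap K L (ζ ^ i))) < 1 := by
    rw [map_mul, map_pow, map_pow, hζ1, one_pow, one_mul]
    exact h1
  rw [hσ, map_sub, hσu, AlgEquiv.commutes] at h2
  have h4 : algebraMap K L (ζ ^ i) * algebraMap K L (ζ ^ j - 1) =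
      (algebraMap K L (ζ ^ j) * u - algebraMap K L (ζ ^ i)) -
      algebraMap K L (ζ ^ j) * (u - algebraMap K L (ζ ^ i)) := by
    rw [map_sub, map_one]; ring
  have h5 : w (algebraMap K L (ζ ^ i) * algebraMap K L (ζ ^ j - 1)) < 1 := by
    rw [h4]
    exact (w.map_sub _ _).trans_lt (max_lt h2 h3)
  rw [map_mul, map_pow, map_pow, hζ1, one_pow, one_mul, hwv] at h5
  have hj0 : j = 0 := by
    by_contra hj0
    have h6 := val_sub v hl hvl hζ hj hl.pos hj0
    rw [pow_zero] at h6
    exact h5.ne h6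
  have hσ1 : σ = AlgEquiv.refl := by
    refine sigma_ext hl hy htop _ _ ?_
    rw [hσj, hj0, pow_zero, map_one, one_mul, AlgEquiv.coe_refl, id]
  ext x
  rw [hσ x, hσ1, AlgEquiv.coe_refl, id]

/-- every index occurs (split case) -/
theorem split_exists (hl : l.Prime) (hvl : v (l : K) = 1) (hζ : IsPrimitiveRoot ζ l)
    (hy : y ^ l = algebraMap K L h) (htop : K⟮y⟯ = ⊤) (hh : ∀ g : K, g ^ l ≠ h) {g : K}
    (hg : v (h / g ^ l - 1) < 1) {i : ℕ} (hi : i < l) : ∃ w : Valuation L ℝ≥0,
      w.comap (algebraMap K L) = v ∧ w (y / algebraMap K L g - algebraMap K L (ζ ^ i)) < 1 := by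
  have := finDim hl hy htop
  obtain ⟨w, hw⟩ := exists_extend_alg (E := L) v
  have hwv : ∀ a : K, w (algebraMap K L a) = v a := fun a => by rw [← hw]; rfl
  obtain ⟨j, hj, hjw⟩ := split_idx v hl hvl hζ hy hg w hw
  have hζ1 : w (algebraMap K L ζ) = 1 := by rw [hwv]; exact val_root v hl.ne_zero hζ.pow_eq_one
  obtain ⟨σ, hσ⟩ := exists_sigma hl hζ hy htop hh (i + (l - j))
  refine ⟨w.comap σ, ?_, ?_⟩
  · ext a
    rw [Valuation.comap_apply, Valuation.comap_apply]
    change ((w (σ (algebraMap K L a)) : ℝ≥0) : ℝ) = _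
    rw [AlgEquiv.commutes, hwv]
  · rw [Valuation.comap_apply]
    change w (σ (y / algebraMap K L g - algebraMap K L (ζ ^ i))) < 1
    have h2 : ζ ^ (i + (l - j)) * ζ ^ j = ζ ^ i := by
      rw [← pow_add]
      have : i + (l - j) + j = i + l := by omega
      rw [this, pow_add, hζ.pow_eq_one, mul_one]
    have h1 : σ (y / algebraMap K L g - algebraMap K L (ζ ^ i)) =
        algebraMap K L (ζ ^ (i + (l - j))) * (y / algebraMap K L g - algebraMap K L (ζ ^ j)) := by
      rw [map_sub, map_div₀, hσ, AlgEquiv.commutes, AlgEquiv.commutes, mul_sub, ← map_mul, h2,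
        mul_div_assoc]
    rw [h1, map_mul, map_pow, map_pow, hζ1, one_pow, one_mul]
    exact hjw

end split

section inert

variable {K L : Type*} [Field K] [Field L] [Algebra K L] {l : ℕ} {h : K} {y : L} {ζ : K}
  (v : Valuation K ℝ≥0)

/-- in the inert case `y` is not near `K` -/
lemma inert_far (hl : l.Prime) (hy : y ^ l = algebraMap K L h)
    (hg : ∀ g : K, ¬ v (h / g ^ l - 1) < 1) (w : Valuation L ℝ≥0)
    (hw : w.comap (algebraMap K L) = v) (u : K) : w y ≤ w (y - algebraMap K L u) := by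
  have hwv : ∀ a : K, w (algebraMap K L a) = v a := fun a => by rw [← hw]; rfl
  by_contra hlt
  push Not at hlt
  have h1 := pow_sub_pow_lt w hlt hl.ne_zero
  rw [hy, ← map_pow, ← map_sub, hwv, hwv] at h1
  have h2 : v (h - u ^ l) < v (u ^ l) := by
    have h3 : v (u ^ l) = v h := by
      have h4 : u ^ l = h + -(h - u ^ l) := by ring
      rw [h4]
      exact Valuation.map_add_eq_of_lt_left v (by rwa [Valuation.map_neg])
    rwa [h3]
  have hu0 : u ^ l ≠ 0 := by
    intro h0
    rw [h0, map_zero] at h2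
    exact not_lt_zero h2
  refine hg u ?_
  rw [← div_self hu0, ← sub_div, map_div₀, div_lt_one₀ (zero_lt_iff.mpr (by rwa [Ne, map_eq_zero]))]
  exact h2

/-- **inert case**: exactly one extension -/
theorem inert_unique [CharZero K] (hnt : ∃ a : K, 1 < v a) (hl : l.Prime)
    (hζ : IsPrimitiveRoot ζ l) (h0 : h ≠ 0) (hy : y ^ l = algebraMap K L h) (htop : K⟮y⟯ = ⊤)
    (hg : ∀ g : K, ¬ v (h / g ^ l - 1) < 1) (w w' : Valuation L ℝ≥0)
    (hw : w.comap (algebraMap K L) = v) (hw' : w'.comap (algebraMap K L) = v) : w = w' := by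
  have hnorm := normalKL hl hζ hy htop
  have hy0 : y ≠ 0 := by
    rintro rfl
    rw [zero_pow hl.ne_zero] at hy
    exact h0 ((map_eq_zero _).mp hy.symm)
  obtain ⟨W, hW, g, hgW, hgy⟩ := exists_ext_aut v hnt y hy0
    (fun W hW u => inert_far v hl hy hg W hW u)
  obtain ⟨i, hi, hgi⟩ := sigma_y hl hζ hy h0 g
  have hi0 : i ≠ 0 := by
    rintro rfl
    apply hgy
    rw [hgi, pow_zero, map_one, one_mul]
  have hpow : ∀ n : ℕ, (g ^ n) y = algebraMap K L (ζ ^ (i * n)) * y := by
    intro n
    induction n with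
    | zero => simp
    | succ n ih =>
      rw [pow_succ', AlgEquiv.mul_apply, ih, map_mul, AlgEquiv.commutes, hgi, ← mul_assoc,
        ← map_mul, ← pow_add]
      congr 3
  have hWinv : ∀ σ : L ≃ₐ[K] L, ∀ x, W (σ x) = W x := by
    intro σ x
    obtain ⟨j, hj, hσj⟩ := sigma_y hl hζ hy h0 σ
    have hcop : Nat.Coprime i l :=
      ((Nat.Prime.coprime_iff_not_dvd hl).mpr (fun hd => by
        have := Nat.le_of_dvd (Nat.pos_of_ne_zero hi0) hd
        omega)).symm
    obtain ⟨n, hn⟩ : ∃ n : ℕ, (i * n) % l = j := by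
      obtain ⟨m, -, hm⟩ := Nat.exists_mul_mod_eq_one_of_coprime hcop hl.one_lt
      refine ⟨m * j, ?_⟩
      rw [← mul_assoc, Nat.mul_mod, hm, one_mul, Nat.mod_mod, Nat.mod_eq_of_lt hj]
    have hσg : σ = g ^ n := by
      refine sigma_ext hl hy htop _ _ ?_
      rw [hσj, hpow, ← hn]
      congr 2
      rw [← Nat.mod_add_div (i * n) l, pow_add, pow_mul, hζ.pow_eq_one, one_pow, mul_one]
      simp
    rw [hσg]
    clear hσg hn
    induction n with
    | zero => simp
    | succ n ih => rw [pow_succ', AlgEquiv.mul_apply, hgW, ih]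
  have key : ∀ w'' : Valuation L ℝ≥0, w''.comap (algebraMap K L) = v → w'' = W := by
    intro w'' hw''
    obtain ⟨σ, hσ⟩ := exists_conj_normal W w'' (hW.trans hw''.symm)
    ext x
    rw [hσ x, hWinv]
  rw [key w hw, key w' hw']

/-- coefficients with respect to `1, y, .., y ^ (l - 1)` -/
lemma exists_coeffs (hl : l.Prime) (hy : y ^ l = algebraMap K L h) (htop : K⟮y⟯ = ⊤) (z : L) :
    ∃ a : ℕ → K, z = ∑ j ∈ Finset.range l, algebraMap K L (a j) * y ^ j := by
  have hz : z ∈ Algebra.adjoin K {y} := by rw [adjoin_top hl hy htop]; trivial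
  rw [Algebra.adjoin_singleton_eq_range_aeval] at hz
  obtain ⟨P, rfl⟩ := hz
  have hmon := monic_X_pow_sub_C h hl.ne_zero
  have h1 : aeval y (X ^ l - C h : K[X]) = 0 := by simp [hy]
  have h2 : aeval y P = aeval y (P %ₘ (X ^ l - C h)) := by
    conv_lhs => rw [← modByMonic_add_div P (X ^ l - C h)]
    rw [map_add, map_mul, h1, zero_mul, add_zero]
  have h3 : (P %ₘ (X ^ l - C h)).natDegree < l := by
    have h4 := natDegree_modByMonic_lt P hmon (by
      intro h5
      have h6 := congrArg natDegree h5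
      rw [natDegree_X_pow_sub_C, natDegree_one] at h6
      exact hl.ne_zero h6)
    rwa [natDegree_X_pow_sub_C] at h4
  refine ⟨fun j => (P %ₘ (X ^ l - C h)).coeff j, ?_⟩
  have h4 : (aeval y).toRingHom P = aeval y P := rfl
  rw [h4, h2, aeval_eq_sum_range' h3]
  exact Finset.sum_congr rfl fun j _ => by rw [Algebra.smul_def]

/-- the map of valuation rings -/
def resHom (w : Valuation L ℝ≥0) (hw : w.comap (algebraMap K L) = v) :
    v.valuationSubring →+* w.valuationSubring where
  toFun a := ⟨algebraMap K L a, by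
    have h1 : w (algebraMap K L a) = v a := DFunLike.congr_fun hw (a : K)
    rw [Valuation.mem_valuationSubring_iff, h1]
    exact a.2⟩
  map_one' := by ext; simp
  map_mul' a b := by ext; simp
  map_zero' := by ext; simp
  map_add' a b := by ext; simp

instance resHom_local (w : Valuation L ℝ≥0) (hw : w.comap (algebraMap K L) = v) :
    IsLocalHom (resHom v w hw) := by
  constructor
  intro a ha
  have h1 : w (algebraMap K L a) = v a := DFunLike.congr_fun hw (a : K)
  by_contra hn
  have h2 : a ∈ IsLocalRing.maximalIdeal v.valuationSubring := (IsLocalRing.mem_maximalIdeal _).mpr hn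
  rw [Valuation.mem_maximalIdeal_iff] at h2
  have h3 : resHom v w hw a ∈ IsLocalRing.maximalIdeal w.valuationSubring := by
    rw [Valuation.mem_maximalIdeal_iff]
    change w (algebraMap K L a) < 1
    rw [h1]
    exact h2
  exact (IsLocalRing.mem_maximalIdeal _).mp h3 ha

/-- the map of residue fields -/
def kMap (w : Valuation L ℝ≥0) (hw : w.comap (algebraMap K L) = v) :
    IsLocalRing.ResidueField v.valuationSubring →+* IsLocalRing.ResidueField w.valuationSubring :=
  IsLocalRing.ResidueField.map (resHom v w hw)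

/-- `h` is not an `l`-th power modulo `v` in the inert case -/
lemma res_not_pow (hl : l.Prime) (hvh : v h = 1) (hg : ∀ g : K, ¬ v (h / g ^ l - 1) < 1)
    (b : IsLocalRing.ResidueField v.valuationSubring) :
    b ^ l ≠ IsLocalRing.residue v.valuationSubring ⟨h, hvh.le⟩ := by
  intro hb
  obtain ⟨c, rfl⟩ := IsLocalRing.residue_surjective b
  rw [← map_pow, ← sub_eq_zero, ← map_sub, IsLocalRing.residue_eq_zero_iff,
    Valuation.mem_maximalIdeal_iff] at hb
  change v ((c : K) ^ l - h) < 1 at hb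
  have h1 : v ((c : K) ^ l) = 1 := by
    have h2 : (c : K) ^ l = h + ((c : K) ^ l - h) := by ring
    rw [h2, Valuation.map_add_eq_of_lt_left v (by rwa [hvh]), hvh]
  have h0 : (c : K) ^ l ≠ 0 := by
    intro h3
    rw [h3, map_zero] at h1
    exact zero_ne_one h1
  refine hg c ?_
  rw [← div_self h0, ← sub_div, map_div₀, h1, div_one, Valuation.map_sub_swap]
  exact hb

/-- the minimal polynomial of the residue of `y` (inert case, `v h = 1`) -/
theorem inert_indep (hl : l.Prime) (hy : y ^ l = algebraMap K L h) (hvh : v h = 1)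
    (hg : ∀ g : K, ¬ v (h / g ^ l - 1) < 1) (w : Valuation L ℝ≥0)
    (hw : w.comap (algebraMap K L) = v) (a : ℕ → K) (ha : ∀ i < l, v (a i) ≤ 1)
    (hs : w (∑ j ∈ Finset.range l, algebraMap K L (a j) * y ^ j) < 1) : ∀ i < l, v (a i) < 1 := by
  classical
  have hwv : ∀ a : K, w (algebraMap K L a) = v a := fun a => by rw [← hw]; rfl
  have hwy : w y = 1 := by
    have h1 : w y ^ l = 1 := by rw [← map_pow, hy, hwv, hvh]
    exact (pow_eq_one_iff_of_nonneg zero_le hl.ne_zero).mp h1
  letI : Algebra (IsLocalRing.ResidueField v.valuationSubring)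
    (IsLocalRing.ResidueField w.valuationSubring) := (kMap v w hw).toAlgebra
  let a' : ℕ → v.valuationSubring := fun i => if hi : i < l then ⟨a i, ha i hi⟩ else 0
  have ha' : ∀ i < l, ((a' i : v.valuationSubring) : K) = a i := by
    intro i hi
    simp only [a', dif_pos hi]
  let y' : w.valuationSubring := ⟨y, hwy.le⟩
  let hb : IsLocalRing.ResidueField v.valuationSubring :=
    IsLocalRing.residue v.valuationSubring ⟨h, hvh.le⟩
  let yb : IsLocalRing.ResidueField w.valuationSubring := IsLocalRing.residue _ y'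
  let P : (IsLocalRing.ResidueField v.valuationSubring)[X] :=
    ∑ j ∈ Finset.range l, C (IsLocalRing.residue _ (a' j)) * X ^ j
  have hirr : Irreducible (X ^ l - C hb) :=
    X_pow_sub_C_irreducible_of_prime hl (res_not_pow v hl hvh hg)
  have hyb : yb ^ l = algebraMap _ _ hb := by
    have h1 : y' ^ l = resHom v w hw ⟨h, hvh.le⟩ := by
      ext
      exact hy
    change (IsLocalRing.residue _ y') ^ l = _
    rw [← map_pow, h1]
    rfl
  have hmin : minpoly _ yb = X ^ l - C hb := by
    refine (minpoly.eq_of_irreducible_of_monic hirr ?_ (monic_X_pow_sub_C _ hl.ne_zero)).symm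
    rw [map_sub, map_pow, aeval_X, aeval_C, hyb, sub_self]
  have hP0 : aeval yb P = 0 := by
    have h1 : aeval yb P = IsLocalRing.residue _
        (∑ j ∈ Finset.range l, resHom v w hw (a' j) * y' ^ j) := by
      simp only [P, map_sum, map_mul, map_pow, aeval_X, aeval_C]
      rfl
    rw [h1, IsLocalRing.residue_eq_zero_iff, Valuation.mem_maximalIdeal_iff]
    have h2 : ((∑ j ∈ Finset.range l, resHom v w hw (a' j) * y' ^ j : w.valuationSubring) : L) =
        ∑ j ∈ Finset.range l, algebraMap K L (a j) * y ^ j := by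
      push_cast
      refine Finset.sum_congr rfl fun j hj => ?_
      have h3 : ((resHom v w hw (a' j) : w.valuationSubring) : L) =
        algebraMap K L (a' j : K) := rfl
      rw [h3, ha' j (Finset.mem_range.mp hj)]
    change w ((∑ j ∈ Finset.range l, resHom v w hw (a' j) * y' ^ j : w.valuationSubring) : L) < 1
    rw [h2]
    exact hs
  have hPdeg : P.degree < (l : WithBot ℕ) := by
    refine lt_of_le_of_lt (degree_sum_le _ _) ((Finset.sup_lt_iff (WithBot.bot_lt_coe l)).mpr ?_)
    intro j hj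
    refine lt_of_le_of_lt (degree_C_mul_X_pow_le _ _) ?_
    exact Nat.cast_lt.mpr (Finset.mem_range.mp hj)
  have hPz : P = 0 := by
    by_contra hne
    have h1 := minpoly.degree_le_of_ne_zero _ _ hne hP0
    rw [hmin, degree_X_pow_sub_C hl.pos] at h1
    exact absurd hPdeg (not_lt.mpr h1)
  intro i hi
  have h1 : P.coeff i = IsLocalRing.residue _ (a' i) := by
    simp only [P, finset_sum_coeff, coeff_C_mul, coeff_X_pow]
    rw [Finset.sum_eq_single i]
    · simp
    · intro j _ hj
      rw [if_neg hj.symm, mul_zero]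
    · intro hni
      exact absurd (Finset.mem_range.mpr hi) hni
  rw [hPz, coeff_zero] at h1
  have h2 := h1.symm
  rw [IsLocalRing.residue_eq_zero_iff, Valuation.mem_maximalIdeal_iff] at h2
  change v ((a' i : v.valuationSubring) : K) < 1 at h2
  rwa [ha' i hi] at h2

/-- **inert case, `v h = 1`**: the extension is the maximum norm of `1, y, .., y ^ (l - 1)` -/
theorem inert_norm (hl : l.Prime) (hy : y ^ l = algebraMap K L h) (hvh : v h = 1)
    (hg : ∀ g : K, ¬ v (h / g ^ l - 1) < 1) (w : Valuation L ℝ≥0)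
    (hw : w.comap (algebraMap K L) = v) (a : ℕ → K) :
    w (∑ j ∈ Finset.range l, algebraMap K L (a j) * y ^ j) =
      (Finset.range l).sup fun j => v (a j) := by
  have hwv : ∀ a : K, w (algebraMap K L a) = v a := fun a => by rw [← hw]; rfl
  have hwy : w y = 1 := by
    have h1 : w y ^ l = 1 := by rw [← map_pow, hy, hwv, hvh]
    exact (pow_eq_one_iff_of_nonneg zero_le hl.ne_zero).mp h1
  have hle : w (∑ j ∈ Finset.range l, algebraMap K L (a j) * y ^ j) ≤
      (Finset.range l).sup fun j => v (a j) := by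
    refine Valuation.map_sum_le _ fun j hj => ?_
    rw [map_mul, map_pow, hwy, one_pow, mul_one, hwv]
    exact Finset.le_sup (f := fun j => v (a j)) hj
  refine le_antisymm hle ?_
  by_contra hlt
  push Not at hlt
  obtain ⟨i, hi, him⟩ := Finset.exists_mem_eq_sup (Finset.range l)
    ⟨0, Finset.mem_range.mpr hl.pos⟩ (fun j => v (a j))
  rw [him] at hlt
  have hpos : 0 < v (a i) := lt_of_le_of_lt zero_le hlt
  have hai : a i ≠ 0 := by
    intro h0
    rw [h0, map_zero] at hpos
    exact lt_irrefl _ hpos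
  have h1 := inert_indep v hl hy hvh hg w hw (fun j => a j / a i) (by
      intro j hj
      rw [map_div₀]
      refine (div_le_one₀ hpos).mpr ?_
      rw [← him]
      exact Finset.le_sup (f := fun j => v (a j)) (Finset.mem_range.mpr hj)) (by
      have h2 : ∑ j ∈ Finset.range l, algebraMap K L (a j / a i) * y ^ j =
          (algebraMap K L (a i))⁻¹ * ∑ j ∈ Finset.range l, algebraMap K L (a j) * y ^ j := by
        rw [Finset.mul_sum]
        refine Finset.sum_congr rfl fun j _ => ?_
        rw [map_div₀]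
        ring
      rw [h2, map_mul, map_inv₀, hwv, inv_mul_lt_iff₀ hpos, mul_one]
      exact hlt) i (Finset.mem_range.mp hi)
  rw [div_self hai, map_one] at h1
  exact lt_irrefl _ h1

end inert

end Crest.Agent.R013.Kumv_275
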