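import Crest.Agent.R013.InhK1_275
import Crest.Agent.R013.Inh5_770
import Crest.Agent.R013.Kumv_275

/-!
# Row 13, INH-KUM 2: Kummer covers with all orders divisible by `N` split over the cells

`spl_of_kummer`: `L = K(y)`, `y ^ N = h`, `‖N‖ = 1`, all orders of `h` at the places of `K / C` and
at the directions of the semistable structure `S` divisible by `N`: `Spl S L` (770).
-/

set_option autoImplicit false
set_option linter.all false

noncomputable section

namespace Crest.Agent.R013.InhK_275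

open Polynomial WithZero
open scoped NNReal IntermediateField
open Crest.Agent.R013.Cell_408 Crest.Agent.R013.EE809 Crest.Agent.R013.Pow1_931
open Crest.Agent.R013.RR7_948 Crest.Agent.R013.Red332 Crest.Agent.R013.SSK_332
open Crest.Agent.R013.Pow3_931 Crest.Agent.R013.Inh_770

section general

variable {K L E : Type*} [Field K] [Field L] [Field E] [Algebra K L]

lemma isIntegral_of_pow {N : ℕ} (hN0 : 0 < N) {h : K} {y : L} (hy : y ^ N = algebraMap K L h) :
    IsIntegral K y := by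
  refine ⟨X ^ N - C h, monic_X_pow_sub_C h hN0.ne', ?_⟩
  simp [hy]

lemma adjoin_top' {N : ℕ} (hN0 : 0 < N) {h : K} {y : L} (hy : y ^ N = algebraMap K L h)
    (htop : K⟮y⟯ = ⊤) (z : L) : ∃ P : K[X], z = aeval y P := by
  have h1 := IntermediateField.adjoin_simple_toSubalgebra_of_isAlgebraic
    (isIntegral_of_pow hN0 hy).isAlgebraic
  have hz : z ∈ Algebra.adjoin K {y} := by
    rw [← h1, htop, IntermediateField.top_toSubalgebra]; trivial
  rw [Algebra.adjoin_singleton_eq_range_aeval] at hz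
  obtain ⟨P, hP⟩ := hz
  exact ⟨P, hP.symm⟩

/-- embeddings of a Kummer extension -/
lemma exists_hom (φ : K →+* E) {N : ℕ} (hN0 : 0 < N) {ζ : K} (hζ : IsPrimitiveRoot ζ N) {h : K}
    {y : L} (hy : y ^ N = algebraMap K L h) (htop : K⟮y⟯ = ⊤) {b0 : E} (hb0 : b0 ^ N = φ h) :
    (∃ ψ : L →+* E, ∀ f, ψ (algebraMap K L f) = φ f) ∧
    ∀ b : E, (minpoly K y).eval₂ φ b = 0 → ∃ ψ : L →+* E, (∀ f, ψ (algebraMap K L f) = φ f) ∧
      ψ y = b := by
  letI : Algebra K E := φ.toAlgebra
  have hsplit : ∀ s ∈ ({y} : Set L), IsIntegral K s ∧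
      ((minpoly K s).map (algebraMap K E)).Splits := by
    intro s hs
    rw [Set.mem_singleton_iff] at hs
    subst hs
    refine ⟨isIntegral_of_pow hN0 hy, ?_⟩
    have h1 : minpoly K s ∣ X ^ N - C h := minpoly.dvd K s (by simp [hy])
    have h2 : (X ^ N - C h : K[X]).map (algebraMap K E) = X ^ N - C (φ h) := by
      rw [Polynomial.map_sub, Polynomial.map_pow, map_X, map_C]
      rfl
    have h3 : (X ^ N - C (φ h) : E[X]).Splits :=
      X_pow_sub_C_splits_of_isPrimitiveRoot (hζ.map_of_injective φ.injective) hb0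
    refine Splits.of_dvd (h2 ▸ h3) ?_ (Polynomial.map_dvd _ h1)
    rw [h2]
    exact X_pow_sub_C_ne_zero hN0 _
  refine ⟨?_, ?_⟩
  · obtain ⟨ψ⟩ := IntermediateField.nonempty_algHom_of_adjoin_splits hsplit htop
    exact ⟨ψ.toRingHom, fun f => ψ.commutes f⟩
  · intro b hb
    obtain ⟨ψ, hψ⟩ := IntermediateField.exists_algHom_of_adjoin_splits_of_aeval (K := E) hsplit
      htop (x := y) (y := b) hb
    exact ⟨ψ.toRingHom, fun f => ψ.commutes f, hψ⟩

/-- `1 - ζ` is a unit for `ζ ≠ 1`, `ζ ^ N = 1`, `v N = 1` -/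
lemma val_sub_one (v : Valuation K ℝ≥0) {N : ℕ} (hN0 : 0 < N) (hvN : v (N : K) = 1) {ζ : K}
    (h1 : ζ ^ N = 1) (hne : ζ ≠ 1) : v (ζ - 1) = 1 := by
  have hζ := IsPrimitiveRoot.orderOf ζ
  set m := orderOf ζ with hm
  have hdvd : m ∣ N := orderOf_dvd_of_pow_eq_one h1
  have hm1 : m ≠ 1 := by
    intro h
    exact hne (orderOf_eq_one_iff.mp (hm ▸ h))
  have hm0 : m ≠ 0 := by
    rintro h
    rw [h, zero_dvd_iff] at hdvd
    exact hN0.ne' hdvd
  have hvle : ∀ j : ℕ, v (j : K) ≤ 1 := fun j => by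
    induction j with
    | zero => simp
    | succ j ih =>
      rw [Nat.cast_succ]
      exact (v.map_add _ _).trans (max_le ih (map_one v).le)
  have hvm : v (m : K) = 1 := by
    obtain ⟨r, hr⟩ := hdvd
    rw [hr, Nat.cast_mul, map_mul] at hvN
    refine le_antisymm (hvle m) ?_
    rw [← hvN]
    exact mul_le_of_le_one_right zero_le (hvle r)
  have hζ1 : v ζ = 1 := Kumv_275.val_root v hm0 hζ.pow_eq_one
  have hle : ∀ j : ℕ, v (1 - ζ ^ j) ≤ 1 := by
    intro j
    refine (v.map_sub _ _).trans (max_le (map_one v).le ?_)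
    rw [map_pow, hζ1, one_pow]
  obtain ⟨n, hn⟩ : ∃ n, m = n + 1 := ⟨m - 1, by omega⟩
  rw [hn] at hζ hvm
  have hn0 : 0 < n := by omega
  have hprod := hζ.prod_one_sub_pow_eq_order
  have h2 : v (∏ j ∈ Finset.range n, (1 - ζ ^ (j + 1))) = 1 := by
    rw [hprod]
    have : ((n : K) + 1) = ((n + 1 : ℕ) : K) := by push_cast; rfl
    rw [this, hvm]
  rw [map_prod, ← Finset.mul_prod_erase _ _ (Finset.mem_range.mpr hn0)] at h2
  have h3 : ∏ x ∈ (Finset.range n).erase 0, v (1 - ζ ^ (x + 1)) ≤ 1 :=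
    Finset.prod_le_one' fun j _ => hle (j + 1)
  have h4 := hle 1
  rw [zero_add] at h2
  rw [pow_one] at h2 h4
  rw [Valuation.map_sub_swap]
  refine le_antisymm h4 ?_
  by_contra hlt
  push Not at hlt
  have h5 : v (1 - ζ) * ∏ x ∈ (Finset.range n).erase 0, v (1 - ζ ^ (x + 1)) < 1 :=
    lt_of_le_of_lt (mul_le_of_le_one_right zero_le h3) hlt
  exact absurd h2 h5.ne

end general

section cells

variable {k : Type*} [NontriviallyNormedField k] [CompleteSpace k] [IsUltrametricDist k]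
variable {C : Type*} [NormedField C] [IsUltrametricDist C] [NormedAlgebra k C]
variable [Algebra.IsAlgebraic k C] [IsAlgClosed C] [hk : Fact (DiscNorm k)]

/-- quotients of series on the disc -/
def QD (a : EE k C) : Prop := ∃ g h : EE k C, h ≠ 0 ∧ InD g ∧ InD h ∧ a * h = g

lemma QD.add {a b : EE k C} (ha : QD a) (hb : QD b) : QD (a + b) := by
  obtain ⟨g, h, h0, h1, h2, h3⟩ := ha
  obtain ⟨g', h', h0', h1', h2', h3'⟩ := hb
  refine ⟨g * h' + g' * h, h * h', mul_ne_zero h0 h0', ?_, ?_, ?_⟩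
  · exact Pos.add (Pos.mul h1 h2') (Pos.mul h1' h2)
  · exact Pos.mul h2 h2'
  · rw [← h3, ← h3']; ring

lemma QD.mul {a b : EE k C} (ha : QD a) (hb : QD b) : QD (a * b) := by
  obtain ⟨g, h, h0, h1, h2, h3⟩ := ha
  obtain ⟨g', h', h0', h1', h2', h3'⟩ := hb
  exact ⟨g * g', h * h', mul_ne_zero h0 h0', Pos.mul h1 h1', Pos.mul h2 h2', by
    rw [← h3, ← h3']; ring⟩

/-- the two expansions of a quotient of bounded series on the annulus -/
def RA (c : C) (a a' : EE k C) : Prop := ∃ g h g' h' : EE k C, h ≠ 0 ∧ InA c g ∧ InA c h ∧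
    Flip c g g' ∧ Flip c h h' ∧ a * h = g ∧ a' * h' = g'

lemma inA_add {c : C} {a b : EE k C} (ha : InA c a) (hb : InA c b) : InA c (a + b) := by
  obtain ⟨M, hM⟩ := ha
  obtain ⟨N, hN⟩ := hb
  refine ⟨max M N, fun n => ?_⟩
  have h1 : ‖(a + b).co n‖ ≤ max ‖a.co n‖ ‖b.co n‖ := by
    rw [co_add]; exact IsUltrametricDist.norm_add_le_max _ _
  rcases le_total ‖a.co n‖ ‖b.co n‖ with h | h
  · rw [max_eq_right h] at h1
    exact (mul_le_mul_of_nonneg_right h1 (zpow_nonneg (norm_nonneg c) n)).trans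
      ((hN n).trans (le_max_right _ _))
  · rw [max_eq_left h] at h1
    exact (mul_le_mul_of_nonneg_right h1 (zpow_nonneg (norm_nonneg c) n)).trans
      ((hM n).trans (le_max_left _ _))

lemma RA.add {c : C} (hc : c ≠ 0) {a b a' b' : EE k C} (ha : RA c a a') (hb : RA c b b') :
    RA c (a + b) (a' + b') := by
  obtain ⟨g, h, g', h', h0, h1, h2, h3, h4, h5, h6⟩ := ha
  obtain ⟨p, q, p', q', i0, i1, i2, i3, i4, i5, i6⟩ := hb
  refine ⟨g * q + p * h, h * q, g' * q' + p' * h', h' * q', mul_ne_zero h0 i0,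
    inA_add (InA.mul hc h1 i2) (InA.mul hc i1 h2), InA.mul hc h2 i2,
    Flip.add (Flip.mul hc h3 i4) (Flip.mul hc i3 h4), Flip.mul hc h4 i4, ?_, ?_⟩
  · rw [← h5, ← i5]; ring
  · rw [← h6, ← i6]; ring

lemma RA.mul {c : C} (hc : c ≠ 0) {a b a' b' : EE k C} (ha : RA c a a') (hb : RA c b b') :
    RA c (a * b) (a' * b') := by
  obtain ⟨g, h, g', h', h0, h1, h2, h3, h4, h5, h6⟩ := ha
  obtain ⟨p, q, p', q', i0, i1, i2, i3, i4, i5, i6⟩ := hb
  refine ⟨g * p, h * q, g' * p', h' * q', mul_ne_zero h0 i0,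
    InA.mul hc h1 i1, InA.mul hc h2 i2, Flip.mul hc h3 i3, Flip.mul hc h4 i4, ?_, ?_⟩
  · rw [← h5, ← i5]; ring
  · rw [← h6, ← i6]; ring

lemma flip_zero' {c : C} {b : EE k C} (h : Flip c 0 b) : b = 0 := by
  ext n
  rw [h n, co_zero, zero_mul, co_zero]

lemma RA.zero {c : C} (hc : c ≠ 0) {a' : EE k C} (ha : RA c 0 a') : a' = 0 := by
  obtain ⟨g, h, g', h', h0, h1, h2, h3, h4, h5, h6⟩ := ha
  rw [zero_mul] at h5
  subst h5
  rw [flip_zero' h3] at h6
  rcases mul_eq_zero.mp h6 with h7 | h7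
  · exact h7
  · exfalso
    apply h0
    rw [h7] at h4
    exact flip_zero' (Flip.symm hc h4)

section main

variable {K : Type*} [Field K] [Algebra C K]
variable {L : Type*} [Field L] [Algebra C L] [Algebra K L] [IsScalarTower C K L]

/-- **INH-KUM**: a Kummer cover whose orders are divisible by `N` splits over the cells. -/
theorem spl_of_kummer (S : SSK k C K) {N : ℕ} (hN : ‖(N : C)‖ = 1) {h : K} (h0 : h ≠ 0)
    {y : L} (hy : y ^ N = algebraMap K L h) (htop : K⟮y⟯ = ⊤)
    (hdiv : ∀ P : Pl C K, ∃ m : ℤ, P.v h = exp ((N : ℤ) * m))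
    (hod : ∀ d : S.Dir, ∃ m : ℤ, Red332.od (S.nm d.1) d.2 h = N * m) : Nonempty (Spl S L) := by
  classical
  have hN0 : 0 < N := by
    rcases Nat.eq_zero_or_pos N with rfl | h
    · rw [Nat.cast_zero, norm_zero] at hN
      exact absurd hN zero_ne_one
    · exact h
  have hNC : (N : C) ≠ 0 := by
    intro h
    rw [h, norm_zero] at hN
    exact zero_ne_one hN
  -- roots of unity
  obtain ⟨ζ, hζ⟩ : ∃ ζ : C, IsPrimitiveRoot ζ N := by
    haveI : NeZero (N : C) := ⟨hNC⟩
    exact HasEnoughRootsOfUnity.exists_primitiveRoot C N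
  have hζK : IsPrimitiveRoot (algebraMap C K ζ) N :=
    hζ.map_of_injective (algebraMap C K).injective
  have hem0 : ∀ d, S.em d h ≠ 0 := fun d => (map_ne_zero_iff _ (S.em d).injective).2 h0
  -- roots of `em d h`
  have hroot : ∀ d : S.Dir, ∃ b : EE k C, b ^ N = S.em d h := by
    intro d
    obtain ⟨m, hm⟩ := hod d
    exact exists_root hN (hem0 d) (m := m) (by rw [S.em_od d h h0, hm])
  have hps0 : ∀ d : S.Dir, ∃ ψ : L →+* EE k C, ∀ f, ψ (algebraMap K L f) = S.em d f := by
    intro d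
    obtain ⟨b, hb⟩ := hroot d
    exact (exists_hom (S.em d) hN0 hζK hy htop hb).1
  choose ps0 hps0 using hps0
  -- the other side of an annulus
  have hann : ∀ e : S.Ed, ∃ ψ : L →+* EE k C, (∀ f, ψ (algebraMap K L f) = S.em (S.e1 e) f) ∧
      ∀ f, RA (S.cc e) (ps0 (S.e0 e) f) (ψ f) := by
    intro e
    have hc := S.cc_ne e
    obtain ⟨b, hb⟩ := hroot (S.e1 e)
    have hw : ps0 (S.e0 e) y ^ N = S.em (S.e0 e) h := by
      rw [← map_pow, hy, hps0]
    obtain ⟨g, H, g', H', i0, i1, i2, i3, i4, i5, η, hη, i6⟩ :=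
      Pow5_931.ann_pow S hk.out hN0 h0 hdiv e hw hb
    have hRK : ∀ f : K, RA (S.cc e) (S.em (S.e0 e) f) (S.em (S.e1 e) f) := by
      intro f
      obtain ⟨g, h, g', h', j0, j1, j2, j3, j4, j5, j6⟩ := S.ann e f
      exact ⟨g, h, g', h', j0, j1, j2, j3, j4, j5, j6⟩
    have hRy : RA (S.cc e) (ps0 (S.e0 e) y) (algebraMap C (EE k C) η * b) :=
      ⟨g, H, g', H', i0, i1, i2, i3, i4, i5, i6⟩
    have hRP : ∀ P : K[X], RA (S.cc e) (P.eval₂ (S.em (S.e0 e)) (ps0 (S.e0 e) y))
        (P.eval₂ (S.em (S.e1 e)) (algebraMap C (EE k C) η * b)) := by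
      intro P
      induction P using Polynomial.induction_on' with
      | add p q hp hq =>
        rw [eval₂_add, eval₂_add]
        exact RA.add hc hp hq
      | monomial n a =>
        rw [eval₂_monomial, eval₂_monomial]
        refine RA.mul hc (hRK a) ?_
        induction n with
        | zero =>
          rw [pow_zero, pow_zero]
          have := hRK 1
          rwa [map_one, map_one] at this
        | succ n ih =>
          rw [pow_succ, pow_succ]
          exact RA.mul hc ih hRy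
    have hmin : (minpoly K y).eval₂ (S.em (S.e1 e)) (algebraMap C (EE k C) η * b) = 0 := by
      have h1 := hRP (minpoly K y)
      have h2 : (minpoly K y).eval₂ (S.em (S.e0 e)) (ps0 (S.e0 e) y) = 0 := by
        have h3 : S.em (S.e0 e) = (ps0 (S.e0 e)).comp (algebraMap K L) := by
          ext1 f
          rw [RingHom.comp_apply, hps0]
        rw [h3, ← Polynomial.hom_eval₂]
        have h4 : (minpoly K y).eval₂ (algebraMap K L) y = 0 := minpoly.aeval K y
        rw [h4, map_zero]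
      rw [h2] at h1
      exact RA.zero hc h1
    obtain ⟨ψ, hψ, hψy⟩ := (exists_hom (S.em (S.e1 e)) hN0 hζK hy htop hb).2 _ hmin
    refine ⟨ψ, hψ, fun f => ?_⟩
    obtain ⟨P, rfl⟩ := adjoin_top' hN0 hy htop f
    have h1 := hRP P
    have h2 : ps0 (S.e0 e) (aeval y P) = P.eval₂ (S.em (S.e0 e)) (ps0 (S.e0 e) y) := by
      rw [aeval_def, Polynomial.hom_eval₂]
      congr 1
      ext1 f
      rw [RingHom.comp_apply, hps0]
    have h3 : ψ (aeval y P) = P.eval₂ (S.em (S.e1 e)) (algebraMap C (EE k C) η * b) := by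
      rw [aeval_def, Polynomial.hom_eval₂, hψy]
      congr 1
      ext1 f
      rw [RingHom.comp_apply, hψ]
    rw [h2, h3]
    exact h1
  choose q hqK hqR using hann
  let ps : S.Dir → L →+* EE k C := fun d =>
    if hd : ∃ e, d = S.e1 e then q hd.choose else ps0 d
  have he1 : ∀ e, ps (S.e1 e) = q e := by
    intro e
    have hd : ∃ e', S.e1 e = S.e1 e' := ⟨e, rfl⟩
    have h1 : hd.choose = e := by
      have h2 := hd.choose_spec
      exact (Sum.inr_injective (S.ends_inj (a₁ := Sum.inr e) (a₂ := Sum.inr hd.choose) h2)).symm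
    simp only [ps, dif_pos hd, h1]
  have he0 : ∀ e, ps (S.e0 e) = ps0 (S.e0 e) := by
    intro e
    have hd : ¬ ∃ e', S.e0 e = S.e1 e' := by
      rintro ⟨e', he'⟩
      have := S.ends_inj (a₁ := Sum.inl e) (a₂ := Sum.inr e') he'
      exact Sum.inl_ne_inr this
    simp only [ps, dif_neg hd]
  have hpsK : ∀ d f, ps d (algebraMap K L f) = S.em d f := by
    intro d f
    by_cases hd : ∃ e, d = S.e1 e
    · obtain ⟨e, rfl⟩ := hd
      rw [he1, hqK]
    · simp only [ps, dif_neg hd, hps0]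
  have hpsy : ∀ d, ps d y ^ N = S.em d h := by
    intro d
    rw [← map_pow, hy, hpsK]
  refine ⟨⟨ps, hpsK, ?_, ?_, ?_⟩⟩
  · intro e f
    rw [he0, he1]
    exact hqR e f
  · intro d hd f
    obtain ⟨P, rfl⟩ := adjoin_top' hN0 hy htop f
    have h2 : ps d (aeval y P) = P.eval₂ (S.em d) (ps d y) := by
      rw [aeval_def, Polynomial.hom_eval₂]
      congr 1
      ext1 f
      rw [RingHom.comp_apply, hpsK]
    have hK : ∀ f, QD (S.em d f) := fun f => S.disc d hd.1 hd.2 f
    have hyQ : QD (ps d y) := Pow5_931.disc_pow S hk.out hN0 h0 hdiv d hd (hpsy d)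
    rw [h2]
    change QD _
    induction P using Polynomial.induction_on' with
    | add p q hp hq =>
      rw [eval₂_add]
      exact QD.add (hp (by rw [aeval_def, Polynomial.hom_eval₂]; congr 1; ext1 f; rw [RingHom.comp_apply, hpsK]))
        (hq (by rw [aeval_def, Polynomial.hom_eval₂]; congr 1; ext1 f; rw [RingHom.comp_apply, hpsK]))
    | monomial n a =>
      rw [eval₂_monomial]
      refine QD.mul (hK a) ?_
      clear h2
      induction n with
      | zero =>
        rw [pow_zero]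
        have := hK 1
        rwa [map_one] at this
      | succ n ih =>
        rw [pow_succ]
        exact QD.mul ih hyQ
  · intro d σ hσ _
    have hy0 : y ≠ 0 := by
      rintro rfl
      rw [zero_pow hN0.ne'] at hy
      exact h0 ((map_eq_zero _).mp hy.symm)
    -- normalise
    obtain ⟨c, hc⟩ := (S.nm d.1).val h h0
    have hc0 : c ≠ 0 := by
      rintro rfl
      rw [nnnorm_zero] at hc
      exact h0 ((map_eq_zero (S.nm d.1).v).mp hc)
    obtain ⟨c', hc'⟩ := IsAlgClosed.exists_pow_nat_eq c hN0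
    have hc'0 : c' ≠ 0 := by
      rintro rfl
      rw [zero_pow hN0.ne'] at hc'
      exact hc0 hc'.symm
    set w : Valuation L ℝ≥0 := gnV.comap (ps d) with hw
    have hwK : ∀ f : K, w (algebraMap K L f) = (S.nm d.1).v f := by
      intro f
      rw [hw, Valuation.comap_apply, hpsK, Spl.em_gnV]
    have hwC : ∀ a : C, w (algebraMap C L a) = ‖a‖₊ := by
      intro a
      rw [IsScalarTower.algebraMap_apply C K L, hwK]
      exact (S.nm d.1).hC a
    have hwy : w y = ‖c'‖₊ := by
      have h1 : w y ^ N = ‖c'‖₊ ^ N := by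
        rw [← map_pow, hy, hwK, hc, ← hc', nnnorm_pow]
      exact (pow_left_inj₀ zero_le zero_le hN0.ne').mp h1
    -- `σ y = η y`
    have hη : (σ y / y) ^ N = 1 := by
      rw [div_pow, ← map_pow, hy, AlgEquiv.commutes, div_self]
      rw [Ne, map_eq_zero]
      exact h0
    have hη1 : σ y / y ≠ 1 := by
      intro h1
      apply hσ
      have h2 : σ y = y := by rwa [div_eq_one_iff_eq hy0] at h1
      ext z
      obtain ⟨P, rfl⟩ := adjoin_top' hN0 hy htop z
      rw [AlgEquiv.one_apply, ← Polynomial.aeval_algHom_apply, h2]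
    have hwN : w ((N : ℕ) : L) = 1 := by
      have h1 := hwC (N : C)
      rw [map_natCast] at h1
      rw [h1]
      ext
      exact hN
    have h3 := val_sub_one w hN0 hwN hη hη1
    have hcc : ‖c'‖₊ ≠ 0 := by rwa [Ne, nnnorm_eq_zero]
    refine ⟨y / algebraMap C L c', ?_, ?_⟩
    · rw [map_div₀, hwy, hwC, div_self hcc]
    · have h4 : σ (y / algebraMap C L c') - y / algebraMap C L c' =
          (σ y / y - 1) * (y / algebraMap C L c') := by
        rw [map_div₀, IsScalarTower.algebraMap_apply C K L, AlgEquiv.commutes]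
        field_simp
      rw [h4, map_mul, h3, map_div₀, hwy, hwC, div_self hcc, one_mul]

end main

end cells

end Crest.Agent.R013.InhK_275
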