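import Crest.Agent.R013.AnW2_201

/-!
# Row 13, leaf SS-ANW (helper201): Weierstrass theory on open annuli, part 3

The factorisation theorem (`exists_W`): every non-zero bounded series `a` on `|c| < |T| < 1` is
`a = A T^N ∏ (T - τ) u`, finitely many `τ` in the annulus, `u` a unit with `|u_0| = 1`,
`|u_n| ≤ 1`, `|u_n| |c|^n ≤ 1`.
-/

set_option autoImplicit false
set_option linter.unusedSectionVars false
set_option linter.style.haveILetI false

noncomputable section

open Filter Topology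
open Crest.Agent.R013.Cell_408 Crest.Agent.R013.EE809

namespace Crest.Agent.R013.AnW_201

variable {k C : Type*} [NontriviallyNormedField k] [NormedField C]
  [IsUltrametricDist C] [NormedAlgebra k C] [CompleteSpace k] [Algebra.IsAlgebraic k C]
variable {c : C}

/-! ### linear factors -/

/-- `T - τ` (same body as 332's `SSK_332.lin`) -/
def lin (τ : C) : EE k C := mo 1 1 - mo 0 τ

theorem lin_eq (τ : C) : (lin τ : EE k C) = T 1 - algebraMap C (EE k C) τ := rfl

theorem co_lin (τ : C) (n : ℤ) :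
    (lin τ : EE k C).co n = (if n = 1 then 1 else 0) - (if n = 0 then τ else 0) := rfl

theorem co_lin_one (τ : C) : (lin τ : EE k C).co 1 = 1 := by
  rw [co_lin, if_pos rfl, if_neg one_ne_zero, sub_zero]

theorem co_lin_zero (τ : C) : (lin τ : EE k C).co 0 = -τ := by
  rw [co_lin, if_neg zero_ne_one, if_pos rfl, zero_sub]

theorem co_lin_of (τ : C) {n : ℤ} (h0 : n ≠ 0) (h1 : n ≠ 1) : (lin τ : EE k C).co n = 0 := by
  rw [co_lin, if_neg h1, if_neg h0, sub_zero]

theorem gn_lin {τ : C} (hτ : ‖τ‖ ≤ 1) : gn (lin τ : EE k C) = 1 := by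
  have h : ∀ m, ‖(lin τ : EE k C).co m‖ ≤ ‖(lin τ : EE k C).co 1‖ := by
    intro m
    rw [co_lin_one, norm_one]
    rcases eq_or_ne m 0 with rfl | h0
    · rw [co_lin_zero, norm_neg]; exact hτ
    rcases eq_or_ne m 1 with rfl | h1
    · rw [co_lin_one, norm_one]
    · rw [co_lin_of τ h0 h1, norm_zero]; exact zero_le_one
  rw [gn_eq_of h, co_lin_one, norm_one]

theorem od_lin {τ : C} (hτ : ‖τ‖ < 1) : od (lin τ : EE k C) = 1 := by
  refine od_eq_of ?_ fun m hm => ?_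
  · rw [gn_lin hτ.le, co_lin_one, norm_one]
  · rw [gn_lin hτ.le]
    rcases eq_or_ne m 0 with rfl | h0
    · rw [co_lin_zero, norm_neg]; exact hτ
    · rw [co_lin_of τ h0 hm.ne, norm_zero]; exact zero_lt_one

theorem lin_ne_zero (τ : C) : (lin τ : EE k C) ≠ 0 := by
  intro h
  have := co_lin_one (k := k) τ
  rw [h, co_zero] at this
  exact zero_ne_one this

theorem inA_lin (c τ : C) : InA c (lin τ : EE k C) := (inA_mo c 1 1).sub (inA_mo c 0 τ)

theorem evE_lin {c t : C} (hct : ‖c‖ < ‖t‖) (ht : ‖t‖ < 1) (hc0 : c ≠ 0) (τ : C) :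
    evE t (lin τ : EE k C) = t - τ := by
  have h := evE_add hct ht hc0 (inA_lin (k := k) c τ) (inA_mo c 0 τ)
  have e : (lin τ + mo 0 τ : EE k C) = mo 1 1 := by rw [lin]; ring
  rw [e, evE_mo, evE_mo, zpow_one, zpow_zero, one_mul, mul_one] at h
  exact (sub_eq_of_eq_add h).symm

variable (k) in
/-- `T - τ` in `AN` -/
def linA (c τ : C) : AN k C c := ⟨lin τ, inA_lin c τ⟩

variable (k) in
/-- monomials in `AN` -/
def moA (c : C) (n : ℤ) (x : C) : AN k C c := ⟨mo n x, inA_mo c n x⟩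

theorem moA_mul_moA (n m : ℤ) (x y : C) : moA k c n x * moA k c m y = moA k c (n + m) (x * y) :=
  Subtype.ext (mo_mul_mo n m x y)

theorem moA_zero_one : moA k c 0 1 = 1 := rfl

theorem flipA_moA (hc0 : c ≠ 0) (hc1 : ‖c‖ < 1) (n : ℤ) (x : C) :
    flipA hc0 hc1 (moA k c n x) = moA k c (-n) (x * c ^ n) :=
  Subtype.ext (flip_mo (hc0 := hc0) (hc1 := hc1) n x)

theorem linA_eq (c τ : C) : linA k c τ = moA k c 1 1 - moA k c 0 τ := rfl

/-- `c T⁻¹ - ζ` -/
theorem flipA_linA (hc0 : c ≠ 0) (hc1 : ‖c‖ < 1) (ζ : C) :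
    flipA hc0 hc1 (linA k c ζ) = moA k c (-1) c - moA k c 0 ζ := by
  rw [linA_eq, map_sub, flipA_moA, flipA_moA, neg_zero, zpow_zero, mul_one, one_mul, zpow_one]

theorem flipA_linA' (hc0 : c ≠ 0) (hc1 : ‖c‖ < 1) {ζ : C} (hζ : ζ ≠ 0) :
    flipA hc0 hc1 (linA k c ζ) = moA k c (-1) (-ζ) * linA k c (c / ζ) := by
  rw [flipA_linA, linA_eq, mul_sub, moA_mul_moA, moA_mul_moA, neg_add_cancel, add_zero, mul_one]
  have e : -ζ * (c / ζ) = -c := by field_simp
  rw [e]
  have h1 : moA k c (-1) (-c) = -moA k c (-1) c := by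
    apply Subtype.ext
    ext n
    show (mo (-1) (-c) : EE k C).co n = (-(mo (-1) c : EE k C)).co n
    rw [co_neg, co_mo, co_mo]
    split_ifs <;> simp
  have h2 : moA k c 0 (-ζ) = -moA k c 0 ζ := by
    apply Subtype.ext
    ext n
    show (mo 0 (-ζ) : EE k C).co n = (-(mo 0 ζ : EE k C)).co n
    rw [co_neg, co_mo, co_mo]
    split_ifs <;> simp
  rw [h1, h2]
  ring

theorem co_flip_lin (hc0 : c ≠ 0) (hc1 : ‖c‖ < 1) (ζ : C) (n : ℤ) :
    (flipA hc0 hc1 (linA k c ζ)).1.co n = (if n = -1 then c else 0) - (if n = 0 then ζ else 0) := by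
  rw [flipA_linA]; rfl

theorem co_flip_lin_neg_one (hc0 : c ≠ 0) (hc1 : ‖c‖ < 1) (ζ : C) :
    (flipA hc0 hc1 (linA k c ζ)).1.co (-1) = c := by
  rw [co_flip_lin, if_pos rfl, if_neg (by decide), sub_zero]

theorem co_flip_lin_zero (hc0 : c ≠ 0) (hc1 : ‖c‖ < 1) (ζ : C) :
    (flipA hc0 hc1 (linA k c ζ)).1.co 0 = -ζ := by
  rw [co_flip_lin, if_neg (by decide), if_pos rfl, zero_sub]

theorem co_flip_lin_of (hc0 : c ≠ 0) (hc1 : ‖c‖ < 1) (ζ : C) {n : ℤ} (h0 : n ≠ 0) (h1 : n ≠ -1) :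
    (flipA hc0 hc1 (linA k c ζ)).1.co n = 0 := by
  rw [co_flip_lin, if_neg h1, if_neg h0, sub_zero]

theorem gn_flip_lin (hc0 : c ≠ 0) (hc1 : ‖c‖ < 1) (ζ : C) :
    gn (flipA hc0 hc1 (linA k c ζ)).1 = max ‖c‖ ‖ζ‖ := by
  refine le_antisymm (gn_le fun n => ?_) (max_le ?_ ?_)
  · rcases eq_or_ne n 0 with rfl | h0
    · rw [co_flip_lin_zero, norm_neg]; exact le_max_right _ _
    rcases eq_or_ne n (-1) with rfl | h1
    · rw [co_flip_lin_neg_one]; exact le_max_left _ _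
    · rw [co_flip_lin_of hc0 hc1 ζ h0 h1, norm_zero]; exact le_max_of_le_left (norm_nonneg _)
  · have := le_gn (flipA hc0 hc1 (linA k c ζ)).1 (-1)
    rwa [co_flip_lin_neg_one] at this
  · have := le_gn (flipA hc0 hc1 (linA k c ζ)).1 0
    rwa [co_flip_lin_zero, norm_neg] at this

/-- the order of `c T⁻¹ - ζ` -/
theorem od_flip_lin (hc0 : c ≠ 0) (hc1 : ‖c‖ < 1) {ζ : C} (h : ‖c‖ < ‖ζ‖) :
    od (flipA hc0 hc1 (linA k c ζ)).1 = 0 := by
  refine od_eq_of ?_ fun m hm => ?_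
  · rw [gn_flip_lin, co_flip_lin_zero, norm_neg, max_eq_right h.le]
  · rw [gn_flip_lin, max_eq_right h.le]
    rcases eq_or_ne m (-1) with rfl | h1
    · rw [co_flip_lin_neg_one]; exact h
    · rw [co_flip_lin_of hc0 hc1 ζ hm.ne h1, norm_zero]; exact (norm_nonneg _).trans_lt h

theorem od_flip_lin' (hc0 : c ≠ 0) (hc1 : ‖c‖ < 1) {ζ : C} (h : ‖ζ‖ ≤ ‖c‖) :
    od (flipA hc0 hc1 (linA k c ζ)).1 = -1 := by
  refine od_eq_of ?_ fun m hm => ?_
  · rw [gn_flip_lin, co_flip_lin_neg_one, max_eq_left h]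
  · rw [gn_flip_lin, max_eq_left h, co_flip_lin_of hc0 hc1 ζ (by omega) (by omega), norm_zero]
    exact norm_pos_iff.2 hc0

theorem flip_lin_ne_zero (hc0 : c ≠ 0) (hc1 : ‖c‖ < 1) (ζ : C) :
    (flipA hc0 hc1 (linA k c ζ)).1 ≠ 0 := by
  intro h
  have := co_flip_lin_neg_one (k := k) hc0 hc1 ζ
  rw [h, co_zero] at this
  exact hc0 this.symm

/-! ### units -/

/-- the unit series: `|u_0| = 1` dominates at both ends -/
structure IsUA (c : C) (u : EE k C) : Prop where
  le : ∀ n, ‖u.co n‖ ≤ 1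
  le' : ∀ n, ‖u.co n‖ * ‖c‖ ^ n ≤ 1
  zero : ‖u.co 0‖ = 1

theorem IsUA.inA {u : EE k C} (hu : IsUA c u) : InA c u := ⟨1, hu.le'⟩

theorem IsUA.gn {u : EE k C} (hu : IsUA c u) : gn u = 1 := by
  rw [gn_eq_of (n := 0) fun m => ?_]
  · exact hu.zero
  · rw [hu.zero]; exact hu.le m

theorem IsUA.ne_zero {u : EE k C} (hu : IsUA c u) : u ≠ 0 := by
  intro h
  have := hu.gn
  rw [h, gn_zero] at this
  exact zero_ne_one this

/-- the coefficients below `0` -/
theorem IsUA.lt (hc0 : c ≠ 0) (hc1 : ‖c‖ < 1) {u : EE k C} (hu : IsUA c u) {n : ℤ} (hn : n < 0) :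
    ‖u.co n‖ ≤ ‖c‖ := by
  have hc' : 0 < ‖c‖ := norm_pos_iff.2 hc0
  have h1 := hu.le' n
  rw [← le_div_iff₀ (zpow_pos hc' n), one_div, ← zpow_neg] at h1
  refine h1.trans ?_
  calc ‖c‖ ^ (-n) ≤ ‖c‖ ^ (1 : ℤ) := zpow_le_zpow_right_of_le_one₀ hc' hc1.le (by omega)
    _ = ‖c‖ := zpow_one _

/-- the coefficients above `0` at the inner end -/
theorem IsUA.lt' (hc0 : c ≠ 0) (hc1 : ‖c‖ < 1) {u : EE k C} (hu : IsUA c u) {n : ℤ} (hn : 0 < n) :
    ‖u.co n‖ * ‖c‖ ^ n ≤ ‖c‖ := by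
  have hc' : 0 < ‖c‖ := norm_pos_iff.2 hc0
  calc ‖u.co n‖ * ‖c‖ ^ n ≤ 1 * ‖c‖ ^ (1 : ℤ) :=
        mul_le_mul (hu.le n) (zpow_le_zpow_right_of_le_one₀ hc' hc1.le (by omega))
          (zpow_nonneg hc'.le _) zero_le_one
    _ = ‖c‖ := by rw [one_mul, zpow_one]

theorem IsUA.od (hc0 : c ≠ 0) (hc1 : ‖c‖ < 1) {u : EE k C} (hu : IsUA c u) : od u = 0 := by
  refine od_eq_of ?_ fun m hm => ?_
  · rw [hu.gn, hu.zero]
  · rw [hu.gn]; exact (hu.lt hc0 hc1 hm).trans_lt hc1

variable (k) in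
theorem isUA_one (c : C) : IsUA c (1 : EE k C) := by
  refine ⟨fun n => ?_, fun n => ?_, ?_⟩
  · rw [co_one]; split_ifs <;> simp
  · rw [co_one]
    split_ifs with h
    · rw [h]; simp
    · simp
  · rw [co_one, if_pos rfl, norm_one]

theorem IsUA.flip (hc0 : c ≠ 0) (hc1 : ‖c‖ < 1) {u : EE k C} (hu : IsUA c u) :
    IsUA c (flip c hc0 hc1 u hu.inA) := by
  have hc' : 0 < ‖c‖ := norm_pos_iff.2 hc0
  refine ⟨fun n => ?_, fun n => ?_, ?_⟩
  · rw [co_flip, norm_mul, norm_zpow]; exact hu.le' _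
  · rw [co_flip, norm_mul, norm_zpow, mul_assoc, ← zpow_add₀ hc'.ne', neg_add_cancel, zpow_zero,
      mul_one]
    exact hu.le _
  · rw [co_flip, neg_zero, zpow_zero, mul_one]; exact hu.zero

section Alg

variable [IsUltrametricDist k] [IsAlgClosed C]

theorem IsUA.mul (hk : DiscNorm k) (hc0 : c ≠ 0) (hc1 : ‖c‖ < 1) {u v : EE k C} (hu : IsUA c u)
    (hv : IsUA c v) : IsUA c (u * v) := by
  have hc' : 0 < ‖c‖ := norm_pos_iff.2 hc0
  refine ⟨fun n => ?_, fun n => ?_, ?_⟩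
  · refine (le_gn _ n).trans ((gn_mul_le _ _).trans ?_)
    rw [hu.gn, hv.gn, mul_one]
  · have := Bdd.mul hc' hu.le' hv.le' n
    rwa [mul_one] at this
  · have h1 := norm_co_od hk (mul_ne_zero' hk hu.ne_zero hv.ne_zero)
    rw [od_mul hk hu.ne_zero hv.ne_zero, hu.od hc0 hc1, hv.od hc0 hc1, add_zero, gn_mul hk, hu.gn,
      hv.gn, mul_one] at h1
    exact h1

theorem isUA_ofBD (hc0 : c ≠ 0) (hc1 : ‖c‖ < 1) {u : PowerSeries C} (hu : IsU k u) :
    IsUA c (ofBD (bd hu) : EE k C) := by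
  have hc' : 0 < ‖c‖ := norm_pos_iff.2 hc0
  refine ⟨fun n => (le_gn _ n).trans (gn_bd_le hu), fun n => ?_, ?_⟩
  · exact Bdd.ofBD hc' hc1.le zero_le_one (bd hu) hu.le n
  · have := co_ofBD_nat (bd hu) 0
    rw [Nat.cast_zero] at this
    rw [this]
    exact hu.zero

/-! ### products -/

theorem multiset_prod_ne_zero (hk : DiscNorm k) {ι : Type*} (S : Multiset ι) (f : ι → EE k C)
    (hf : ∀ i ∈ S, f i ≠ 0) : (S.map f).prod ≠ 0 := by
  induction S using Multiset.induction_on with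
  | empty => rw [Multiset.map_zero, Multiset.prod_zero]; exact one_ne_zero
  | cons i S ih =>
    rw [Multiset.map_cons, Multiset.prod_cons]
    exact mul_ne_zero' hk (hf i (Multiset.mem_cons_self i S))
      (ih fun j hj => hf j (Multiset.mem_cons_of_mem hj))

theorem od_multiset_prod (hk : DiscNorm k) {ι : Type*} (S : Multiset ι) (f : ι → EE k C)
    (hf : ∀ i ∈ S, f i ≠ 0) : od (S.map f).prod = (S.map fun i => od (f i)).sum := by
  induction S using Multiset.induction_on with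
  | empty => rw [Multiset.map_zero, Multiset.prod_zero, Multiset.map_zero, Multiset.sum_zero, od_one]
  | cons i S ih =>
    have h1 : ∀ j ∈ S, f j ≠ 0 := fun j hj => hf j (Multiset.mem_cons_of_mem hj)
    rw [Multiset.map_cons, Multiset.prod_cons, Multiset.map_cons, Multiset.sum_cons,
      od_mul hk (hf i (Multiset.mem_cons_self i S)) (multiset_prod_ne_zero hk S f h1), ih h1]

theorem gn_multiset_prod (hk : DiscNorm k) {ι : Type*} (S : Multiset ι) (f : ι → EE k C) :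
    gn (S.map f).prod = (S.map fun i => gn (f i)).prod := by
  induction S using Multiset.induction_on with
  | empty => rw [Multiset.map_zero, Multiset.prod_zero, Multiset.map_zero, Multiset.prod_zero, gn_one]
  | cons i S ih =>
    rw [Multiset.map_cons, Multiset.prod_cons, Multiset.map_cons, Multiset.prod_cons, gn_mul hk, ih]

theorem od_mo (n : ℤ) {x : C} (hx : x ≠ 0) : od (mo n x : EE k C) = n := od_mono n _ hx

theorem mo_ne_zero (n : ℤ) {x : C} (hx : x ≠ 0) : (mo n x : EE k C) ≠ 0 := by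
  intro h
  have := gn_mo (k := k) n x
  rw [h, gn_zero] at this
  exact hx (norm_eq_zero.1 this.symm)

/-- sums of nonpositive integers -/
theorem all_zero_of_sum (S : Multiset ℤ) (h : ∀ x ∈ S, x ≤ 0) (h0 : S.sum = 0) : ∀ x ∈ S, x = 0 := by
  induction S using Multiset.induction_on with
  | empty => intro x hx; exact absurd hx (Multiset.notMem_zero x)
  | cons a S ih =>
    have h1 : ∀ x ∈ S, x ≤ 0 := fun x hx => h x (Multiset.mem_cons_of_mem hx)
    have h2 : S.sum ≤ 0 := by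
      have := Multiset.sum_le_card_nsmul S 0 h1
      rwa [smul_zero] at this
    have h3 := h a (Multiset.mem_cons_self a S)
    rw [Multiset.sum_cons] at h0
    intro x hx
    rcases Multiset.mem_cons.1 hx with rfl | hx
    · omega
    · exact ih h1 (by omega) x hx

/-- `ofBD` of a polynomial with roots `S` -/
theorem ofBD_rootPoly (S : Multiset C) :
    (ofBD (⟨(rootPoly S : PowerSeries C), coe_mem_BD _⟩ : BD k C) : EE k C) = (S.map lin).prod := by
  induction S using Multiset.induction_on with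
  | empty =>
    rw [Multiset.map_zero, Multiset.prod_zero]
    have : (⟨(rootPoly (0 : Multiset C) : PowerSeries C), coe_mem_BD _⟩ : BD k C) = 1 := by
      apply Subtype.ext
      simp [rootPoly]
    rw [this, map_one]
  | cons τ S ih =>
    rw [Multiset.map_cons, Multiset.prod_cons, ← ih]
    have h1 : (⟨(rootPoly (τ ::ₘ S) : PowerSeries C), coe_mem_BD _⟩ : BD k C) =
        ⟨((Polynomial.X - Polynomial.C τ : Polynomial C) : PowerSeries C), coe_mem_BD _⟩ *
        ⟨(rootPoly S : PowerSeries C), coe_mem_BD _⟩ := by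
      apply Subtype.ext
      show (rootPoly (τ ::ₘ S) : PowerSeries C) =
        ((Polynomial.X - Polynomial.C τ : Polynomial C) : PowerSeries C) * (rootPoly S : PowerSeries C)
      rw [← Polynomial.coe_mul]
      congr 1
      rw [rootPoly, Multiset.map_cons, Multiset.prod_cons]; rfl
    rw [h1, map_mul]
    congr 1
    ext n
    rcases lt_or_ge n 0 with hn | hn
    · rw [co_ofBD_neg _ hn, co_lin_of τ (by omega) (by omega)]
    · obtain ⟨m, rfl⟩ := Int.eq_ofNat_of_zero_le hn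
      rw [co_ofBD_nat, co_lin]
      rw [Polynomial.coeff_coe, Polynomial.coeff_sub, Polynomial.coeff_X, Polynomial.coeff_C]
      congr 1
      · by_cases h : m = 1
        · rw [if_pos h.symm, if_pos (by omega)]
        · rw [if_neg (fun h' => h h'.symm), if_neg (by omega)]
      · by_cases h : m = 0
        · rw [if_pos h, if_pos (by omega)]
        · rw [if_neg h, if_neg (by omega)]

/-- products of monomials of degree `-1` -/
theorem prod_moA (S : Multiset C) :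
    (S.map fun ζ => moA k c (-1) (-ζ)).prod = moA k c (-(S.card : ℤ)) (S.map fun ζ => -ζ).prod := by
  induction S using Multiset.induction_on with
  | empty => simp [moA_zero_one]
  | cons ζ S ih =>
    rw [Multiset.map_cons, Multiset.prod_cons, ih, moA_mul_moA, Multiset.map_cons,
      Multiset.prod_cons, Multiset.card_cons]
    congr 1
    push_cast; ring

theorem val_prod_linA (S : Multiset C) :
    ((S.map (linA k c)).prod : AN k C c).1 = (S.map lin).prod := by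
  have := map_multiset_prod (AN k C c).val (S.map (linA k c))
  rw [Multiset.map_map] at this
  exact this

theorem co_ofBD_C (d : C) : (ofBD (⟨PowerSeries.C d, C_mem_BD d⟩ : BD k C) : EE k C) = mo 0 d := by
  ext n
  rcases lt_or_ge n 0 with hn | hn
  · rw [co_ofBD_neg _ hn, co_mo, if_neg hn.ne]
  · obtain ⟨m, rfl⟩ := Int.eq_ofNat_of_zero_le hn
    rw [co_ofBD_nat, co_mo, PowerSeries.coeff_C]
    by_cases h : m = 0
    · rw [if_pos h, if_pos (by omega)]
    · rw [if_neg h, if_neg (by omega)]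

/-- **(W)**: every non-zero bounded series on the open annulus `|c| < |T| < 1` is
`A T^N ∏ (T - τ) u`, `u` a unit -/
theorem exists_W (hk : DiscNorm k) (hc0 : c ≠ 0) (hc1 : ‖c‖ < 1) {a : EE k C} (ha : InA c a)
    (h0 : a ≠ 0) :
    ∃ (A : C) (N : ℤ) (S : Multiset C) (u v : EE k C), A ≠ 0 ∧
      (∀ τ ∈ S, ‖c‖ < ‖τ‖ ∧ ‖τ‖ < 1) ∧ IsUA c u ∧ IsUA c v ∧ u * v = 1 ∧
      a = mo N A * (S.map lin).prod * u := by
  obtain ⟨V, hV, y, hy0, hy1, hay⟩ := exists_outer hk h0
  have hA0 : a.co (od a) ≠ 0 := co_od_ne_zero hk h0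
  obtain ⟨V', hV', hVV⟩ := hV.inv
  generalize od a = N0 at hay hA0
  generalize a.co N0 = A0 at hay hA0
  -- `1 + y ∈ InA c`
  have e1 : 1 + y = mo (-N0) A0⁻¹ * ofBD (bd hV') * a := by
    rw [hay]
    calc 1 + y = (mo (-N0) A0⁻¹ * mo N0 A0) * (ofBD (bd hV) * ofBD (bd hV')) * (1 + y) := by
          rw [mo_mul_mo, bd_mul_inv hV hV' hVV, neg_add_cancel, inv_mul_cancel₀ hA0, mo_zero_one,
            one_mul, one_mul]
      _ = _ := by ring
  have hb : InA c (1 + y) := by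
    rw [e1]; exact ((inA_mo c _ _).mul (inA_ofBD hc1.le _)).mul ha
  have hb0 : 1 + y ≠ 0 := by
    intro h
    rw [h, mul_zero] at hay
    exact h0 hay
  let b : AN k C c := ⟨1 + y, hb⟩
  set G : AN k C c := flipA hc0 hc1 b with hG
  have hGP : ofBD (EE809.posPart G.1) = G.1 := by
    ext n
    rw [co_ofBD_posPart]
    split_ifs with hn
    · rfl
    · rw [hG, co_flipA]
      show 0 = (1 + y).co (-n) * c ^ (-n)
      rw [co_add, co_one, if_neg (by omega), hy0 _ (by omega), add_zero, zero_mul]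
  have hG0 : PowerSeries.coeff 0 (EE809.posPart G.1).1 = 1 := by
    rw [coeff_posPart, Nat.cast_zero, hG, co_flipA]
    show (1 + y).co (-0) * c ^ (-(0 : ℤ)) = 1
    rw [neg_zero, zpow_zero, mul_one, co_add, co_one, if_pos rfl, hy0 0 le_rfl, add_zero]
  have hGne : (EE809.posPart G.1).1 ≠ 0 := by
    intro h
    rw [h, map_zero] at hG0
    exact zero_ne_one hG0
  obtain ⟨d, g, m, hd, hg, hGd, -, -⟩ := exists_normalise hk (EE809.posPart G.1).2 hGne
  obtain ⟨U, S', hU, -, hS', hgU⟩ := hg.exists_roots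
  obtain ⟨U', hU', hUU⟩ := hU.inv
  -- the roots are not zero
  have hS0 : ∀ ζ ∈ S', ζ ≠ 0 := by
    rintro ζ hζ rfl
    rw [hGd, hgU, PowerSeries.coeff_zero_eq_constantCoeff_apply, map_mul, map_mul] at hG0
    have h1 : PowerSeries.constantCoeff (rootPoly S' : PowerSeries C) = 0 := by
      rw [← PowerSeries.coeff_zero_eq_constantCoeff_apply, Polynomial.coeff_coe,
        Polynomial.coeff_zero_eq_eval_zero, eval_rootPoly, Multiset.prod_eq_zero_iff,
        Multiset.mem_map]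
      exact ⟨0, hζ, by rw [sub_zero]⟩
    rw [h1, mul_zero, mul_zero] at hG0
    exact zero_ne_one hG0
  -- `G` as a product
  have hGprod : G.1 = mo 0 d * (ofBD (bd hU) * (S'.map lin).prod) := by
    rw [← hGP, ← ofBD_rootPoly, ← co_ofBD_C, ← map_mul, ← map_mul]
    congr 1
    apply Subtype.ext
    show (EE809.posPart G.1).1 = PowerSeries.C d * (U * (rootPoly S' : PowerSeries C))
    rw [hGd, hgU]
  let uA : AN k C c := ⟨ofBD (bd hU), (isUA_ofBD hc0 hc1 hU).inA⟩
  let uA' : AN k C c := ⟨ofBD (bd hU'), (isUA_ofBD hc0 hc1 hU').inA⟩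
  have huu : uA * uA' = 1 := Subtype.ext (bd_mul_inv hU hU' hUU)
  have hGA : G = moA k c 0 d * (uA * (S'.map (linA k c)).prod) := by
    apply Subtype.ext
    rw [hGprod]
    show mo 0 d * (ofBD (bd hU) * (S'.map lin).prod) =
      mo 0 d * (ofBD (bd hU) * ((S'.map (linA k c)).prod : AN k C c).1)
    rw [val_prod_linA]
  have hbA : b = moA k c 0 d * (flipA hc0 hc1 uA *
      (S'.map fun ζ => flipA hc0 hc1 (linA k c ζ)).prod) := by
    have h1 : b = flipA hc0 hc1 G := by rw [hG, flipA_flipA]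
    rw [h1, hGA, map_mul, map_mul, flipA_moA, neg_zero, zpow_zero, mul_one, map_multiset_prod,
      Multiset.map_map]
    rfl
  -- the roots are in the annulus
  have hbE : (1 + y : EE k C) = mo 0 d * ((flipA hc0 hc1 uA).1 *
      (S'.map fun ζ => (flipA hc0 hc1 (linA k c ζ)).1).prod) := by
    have h1 := congrArg Subtype.val hbA
    have h2 := map_multiset_prod (AN k C c).val (S'.map fun ζ => flipA hc0 hc1 (linA k c ζ))
    rw [Multiset.map_map] at h2
    have h3 : ((S'.map fun ζ => flipA hc0 hc1 (linA k c ζ)).prod : AN k C c).1 =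
      (S'.map fun ζ => (flipA hc0 hc1 (linA k c ζ)).1).prod := h2
    rw [← h3]
    exact h1
  have hfu : IsUA c (flipA hc0 hc1 uA).1 := (isUA_ofBD hc0 hc1 hU).flip hc0 hc1
  have hfu' : IsUA c (flipA hc0 hc1 uA').1 := (isUA_ofBD hc0 hc1 hU').flip hc0 hc1
  have hod : od (1 + y : EE k C) = 0 := by
    have h1 : ‖(1 + y : EE k C).co 0‖ = 1 := by
      rw [co_add, co_one, if_pos rfl, hy0 0 le_rfl, add_zero, norm_one]
    have h2 : gn (1 + y : EE k C) = 1 := by
      refine le_antisymm ((gn_add_le _ _).trans ?_) ?_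
      · rw [gn_one]; exact max_le le_rfl hy1.le
      · rw [← h1]; exact le_gn _ 0
    refine od_eq_of (by rw [h1, h2]) fun n hn => ?_
    rw [h2, co_add, co_one, if_neg hn.ne, zero_add]
    exact (le_gn y n).trans_lt hy1
  have hζ : ∀ ζ ∈ S', ‖c‖ < ‖ζ‖ := by
    have hne : ∀ ζ ∈ S', (flipA hc0 hc1 (linA k c ζ)).1 ≠ 0 := fun ζ _ =>
      flip_lin_ne_zero hc0 hc1 ζ
    have hprod := multiset_prod_ne_zero hk S' (fun ζ => (flipA hc0 hc1 (linA k c ζ)).1) hne
    rw [hbE, od_mul hk (mo_ne_zero 0 hd) (mul_ne_zero' hk hfu.ne_zero hprod), od_mo 0 hd,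
      od_mul hk hfu.ne_zero hprod, hfu.od hc0 hc1, zero_add, zero_add,
      od_multiset_prod hk S' _ hne] at hod
    intro ζ hζ
    by_contra hlt
    have h1 := all_zero_of_sum _ (fun x hx => by
      obtain ⟨ζ', -, rfl⟩ := Multiset.mem_map.1 hx
      rcases lt_or_ge ‖c‖ ‖ζ'‖ with h | h
      · rw [od_flip_lin hc0 hc1 h]
      · rw [od_flip_lin' hc0 hc1 h]; decide) hod (od (flipA hc0 hc1 (linA k c ζ)).1)
      (Multiset.mem_map_of_mem (fun ζ => od (flipA hc0 hc1 (linA k c ζ)).1) hζ)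
    rw [od_flip_lin' hc0 hc1 (not_lt.1 hlt)] at h1
    exact absurd h1 (by decide)
  -- the linear factors
  have hbA2 : b = moA k c 0 d * (flipA hc0 hc1 uA * (moA k c (-(S'.card : ℤ)) (S'.map fun ζ => -ζ).prod *
      ((S'.map fun ζ => c / ζ).map (linA k c)).prod)) := by
    rw [hbA, ← prod_moA, Multiset.map_map]
    congr 2
    have h1 : (S'.map fun ζ => flipA hc0 hc1 (linA k c ζ)) =
        S'.map fun ζ => moA k c (-1) (-ζ) * linA k c (c / ζ) :=
      Multiset.map_congr rfl fun ζ hζ' => flipA_linA' hc0 hc1 (hS0 ζ hζ')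
    rw [h1, Multiset.prod_map_mul]
    rfl
  set P : C := (S'.map fun ζ => -ζ).prod with hP
  have hP0 : P ≠ 0 := by
    rw [hP, Ne, Multiset.prod_eq_zero_iff, Multiset.mem_map]
    rintro ⟨ζ, hζ', h⟩
    exact hS0 ζ hζ' (neg_eq_zero.1 h)
  have hbE2 : (1 + y : EE k C) = mo 0 d * ((flipA hc0 hc1 uA).1 * (mo (-(S'.card : ℤ)) P *
      ((S'.map fun ζ => c / ζ).map lin).prod)) := by
    have h1 := congrArg Subtype.val hbA2
    have h3 : (((S'.map fun ζ => c / ζ).map (linA k c)).prod : AN k C c).1 =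
      ((S'.map fun ζ => c / ζ).map lin).prod := val_prod_linA _
    rw [← h3]
    exact h1
  refine ⟨A0 * (d * P), N0 + (0 + -(S'.card : ℤ)), S'.map fun ζ => c / ζ,
    ofBD (bd hV) * (flipA hc0 hc1 uA).1, ofBD (bd hV') * (flipA hc0 hc1 uA').1,
    mul_ne_zero hA0 (mul_ne_zero hd hP0), ?_, (isUA_ofBD hc0 hc1 hV).mul hk hc0 hc1 hfu,
    (isUA_ofBD hc0 hc1 hV').mul hk hc0 hc1 hfu', ?_, ?_⟩
  · intro τ hτ
    obtain ⟨ζ, hζ', rfl⟩ := Multiset.mem_map.1 hτ
    have h1 : 0 < ‖ζ‖ := norm_pos_iff.2 (hS0 ζ hζ')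
    rw [norm_div]
    refine ⟨?_, ?_⟩
    · rw [lt_div_iff₀ h1]
      exact mul_lt_of_lt_one_right (norm_pos_iff.2 hc0) (hS' ζ hζ')
    · rw [div_lt_one h1]; exact hζ ζ hζ'
  · have h1 : (flipA hc0 hc1 uA).1 * (flipA hc0 hc1 uA').1 = 1 := by
      have h2 : flipA hc0 hc1 uA * flipA hc0 hc1 uA' = 1 := by rw [← map_mul, huu, map_one]
      exact congrArg Subtype.val h2
    calc ofBD (bd hV) * (flipA hc0 hc1 uA).1 * (ofBD (bd hV') * (flipA hc0 hc1 uA').1) =
          (ofBD (bd hV) * ofBD (bd hV')) * ((flipA hc0 hc1 uA).1 * (flipA hc0 hc1 uA').1) := by ring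
      _ = 1 := by rw [h1, bd_mul_inv hV hV' hVV, mul_one]
  · rw [hay, hbE2, ← mo_mul_mo, ← mo_mul_mo]
    ring

end Alg

end Crest.Agent.R013.AnW_201
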