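import Mathlib
import Crest.Agent.R013.RedD1_310
import Crest.Agent.R013.Cell4_408

/-!
# R013 / RedD4: evaluation of two-sided series, cells, orders at points (helper310)
-/

set_option autoImplicit false
set_option linter.all false

namespace Crest.Agent.R013.RedD_310

open Filter Topology
open Crest.Agent.R013.Cell_408 (FinDef DiscNorm)
open Crest.Agent.R013.EE809 Crest.Agent.R013.SSK_332

variable {k : Type*} [NontriviallyNormedField k] [CompleteSpace k]
variable {C : Type*} [NormedField C] [IsUltrametricDist C] [NormedAlgebra k C]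
  [Algebra.IsAlgebraic k C]

/-! ### evaluation -/

/-- the series converges at `τ` -/
def Cv (τ : C) (a : EE k C) : Prop := Tendsto (fun n : ℤ => a.co n * τ ^ n) cofinite (𝓝 0)

omit [CompleteSpace k] [IsUltrametricDist C] in
theorem finDef_zpow {a : ℤ → C} (ha : FinDef k a) (τ : C) : FinDef k fun n : ℤ => a n * τ ^ n := by
  obtain ⟨L, hL, h1, h2⟩ := ha.common (finDef_const (k := k) τ)
  exact ⟨L, hL, fun n => mul_mem (h1 n) (zpow_mem (h2 ()) n)⟩

theorem Cv.summable {τ : C} {a : EE k C} (h : Cv τ a) : Summable fun n : ℤ => a.co n * τ ^ n := by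
  obtain ⟨L, hL, h1⟩ := finDef_zpow a.fd τ
  exact summable_of L h1 h

theorem evE_add {τ : C} {a b : EE k C} (ha : Cv τ a) (hb : Cv τ b) :
    evE τ (a + b) = evE τ a + evE τ b := by
  unfold evE
  rw [← ha.summable.tsum_add hb.summable]
  refine tsum_congr fun n => ?_
  rw [co_add, add_mul]

theorem evE_neg (τ : C) (a : EE k C) : evE τ (-a) = -evE τ a := by
  unfold evE
  rw [← tsum_neg]
  refine tsum_congr fun n => ?_
  rw [co_neg, neg_mul]

theorem Cv.add {τ : C} {a b : EE k C} (ha : Cv τ a) (hb : Cv τ b) : Cv τ (a + b) := by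
  have := Tendsto.add ha hb
  rw [add_zero] at this
  refine this.congr fun n => ?_
  rw [co_add, add_mul]

theorem Cv.neg {τ : C} {a : EE k C} (ha : Cv τ a) : Cv τ (-a) := by
  have := Tendsto.neg ha
  rw [neg_zero] at this
  refine this.congr fun n => ?_
  rw [co_neg, neg_mul]

theorem Cv.sub {τ : C} {a b : EE k C} (ha : Cv τ a) (hb : Cv τ b) : Cv τ (a - b) := by
  rw [sub_eq_add_neg]; exact ha.add hb.neg

theorem evE_sub {τ : C} {a b : EE k C} (ha : Cv τ a) (hb : Cv τ b) :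
    evE τ (a - b) = evE τ a - evE τ b := by
  rw [sub_eq_add_neg, evE_add ha hb.neg, evE_neg, ← sub_eq_add_neg]

/-- multiplicativity of the evaluation at `τ ≠ 0` -/
theorem evE_mul {τ : C} (hτ : τ ≠ 0) {a b : EE k C} (ha : Cv τ a) (hb : Cv τ b) :
    evE τ (a * b) = evE τ a * evE τ b := by
  haveI : NonarchimedeanRing C := Crest.Agent.R013.Cell_408.nonarchRing C
  have hs := ha.summable.mul_of_nonarchimedean hb.summable
  have e1 : evE τ a * evE τ b =
      ∑' p : ℤ × ℤ, (a.co p.1 * τ ^ p.1) * (b.co p.2 * τ ^ p.2) :=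
    ha.summable.tsum_mul_tsum hb.summable hs
  have hsh : ∀ p : ℤ × ℤ, (a.co (shearEquiv p).2 * b.co ((shearEquiv p).1 - (shearEquiv p).2))
      * τ ^ (shearEquiv p).1 = (a.co p.1 * τ ^ p.1) * (b.co p.2 * τ ^ p.2) := by
    intro p
    simp only [shearEquiv, Equiv.coe_fn_mk]
    rw [show p.1 + p.2 - p.1 = p.2 by ring, zpow_add₀ hτ]
    ring
  have hs2 : Summable fun q : ℤ × ℤ => (a.co q.2 * b.co (q.1 - q.2)) * τ ^ q.1 := by
    rw [← shearEquiv.summable_iff]
    exact hs.congr fun p => (hsh p).symm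
  have hfib : ∀ n : ℤ, Summable fun i : ℤ => (a.co i * b.co (n - i)) * τ ^ n :=
    fun n => (summable_conv a b n).mul_right (τ ^ n)
  rw [e1]
  have e2 : (∑' p : ℤ × ℤ, (a.co p.1 * τ ^ p.1) * (b.co p.2 * τ ^ p.2)) =
      ∑' q : ℤ × ℤ, (a.co q.2 * b.co (q.1 - q.2)) * τ ^ q.1 :=
    (tsum_congr fun p => (hsh p).symm).trans
      (shearEquiv.tsum_eq (fun q : ℤ × ℤ => (a.co q.2 * b.co (q.1 - q.2)) * τ ^ q.1))
  rw [e2, Summable.tsum_prod' (f := fun q : ℤ × ℤ => (a.co q.2 * b.co (q.1 - q.2)) * τ ^ q.1) hs2 hfib]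
  unfold evE
  refine tsum_congr fun n => ?_
  rw [co_mul]
  exact (tsum_mul_right (f := fun i : ℤ => a.co i * b.co (n - i)) (a := τ ^ n)).symm

theorem evE_zero_eq (a : EE k C) : evE 0 a = a.co 0 := by
  unfold evE
  rw [tsum_eq_single 0]
  · simp
  · intro n hn
    rw [zero_zpow n hn, mul_zero]

/-- `a` is a Laurent polynomial with terms `0, 1` : the value of `T - σ` -/
theorem co_lin (σ : C) (n : ℤ) : (lin σ : EE k C).co n =
    (if n = 1 then 1 else 0) - (if n = 0 then σ else 0) := rfl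

theorem evE_lin (τ σ : C) : evE τ (lin σ : EE k C) = τ - σ := by
  unfold evE
  rw [tsum_eq_sum (s := {0, 1})]
  · rw [Finset.sum_pair (by norm_num), co_lin, co_lin]
    simp
    ring
  · intro n hn
    simp only [Finset.mem_insert, Finset.mem_singleton, not_or] at hn
    rw [co_lin, if_neg hn.2, if_neg hn.1, sub_zero, zero_mul]

theorem evE_one (τ : C) : evE τ (1 : EE k C) = 1 := by
  unfold evE
  rw [tsum_eq_single 0]
  · rw [co_one, if_pos rfl, zpow_zero, one_mul]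
  · intro n hn
    rw [co_one, if_neg hn, zero_mul]

theorem lin_ne_zero (σ : C) : (lin σ : EE k C) ≠ 0 := by
  intro h
  have := congrArg (fun a : EE k C => a.co 1) h
  simp only [co_lin, co_zero] at this
  simp at this

theorem dFun_lin (σ : C) : dFun (lin σ : EE k C) = 1 := by
  ext n
  rw [co_dFun, co_lin, co_one]
  by_cases h : n = 0
  · rw [if_pos h, if_pos (by omega), if_neg (by omega), h]; simp
  · rw [if_neg h, if_neg (by omega)]
    by_cases h2 : n + 1 = 0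
    · rw [h2]; simp
    · rw [if_neg h2]; simp

/-! ### discs and annuli are rings -/

theorem InD.cv {a : EE k C} (h : InD a) {τ : C} (hτ : ‖τ‖ < 1) : Cv τ a := by
  obtain ⟨M, hM0, hM⟩ := a.bd'
  unfold Cv
  rw [Metric.tendsto_nhds]
  intro ε hε
  rw [eventually_cofinite]
  obtain ⟨N, hN⟩ : ∃ N : ℕ, M * ‖τ‖ ^ N < ε := by
    obtain ⟨N, hN⟩ := exists_pow_lt_of_lt_one (y := ‖τ‖) (x := ε / M) (by positivity) hτ
    exact ⟨N, by rw [lt_div_iff₀ hM0] at hN; rw [mul_comm]; exact hN⟩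
  refine (Set.finite_Icc (0 : ℤ) N).subset fun n hn => ?_
  rw [Set.mem_Icc]
  constructor
  · by_contra hlt
    apply hn
    rw [h n (not_le.1 hlt), zero_mul, dist_self]
    exact hε
  · by_contra hlt
    apply hn
    push Not at hlt
    rw [dist_zero_right, norm_mul, norm_zpow]
    have h1 : ‖τ‖ ^ n ≤ ‖τ‖ ^ N := by
      obtain ⟨m, rfl⟩ : ∃ m : ℕ, n = m := ⟨n.toNat, by omega⟩
      rw [zpow_natCast]
      exact pow_le_pow_of_le_one (norm_nonneg _) hτ.le (by omega)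
    calc ‖a.co n‖ * ‖τ‖ ^ n ≤ M * ‖τ‖ ^ N := mul_le_mul (hM n) h1 (by positivity) hM0.le
      _ < ε := hN

theorem InA.cv {c : C} {a : EE k C} (h : InA c a) {τ : C} (hτ : ‖τ‖ < 1) (hcτ : ‖c‖ < ‖τ‖)
    (hc : c ≠ 0) : Cv τ a := by
  obtain ⟨M, hM0, hM⟩ := a.bd'
  obtain ⟨M', hM'⟩ := h
  have hM'0 : 0 < max M' 1 := lt_max_of_lt_right one_pos
  have hτ0 : 0 < ‖τ‖ := (norm_nonneg c).trans_lt hcτ
  have hc0 : 0 < ‖c‖ := norm_pos_iff.2 hc
  unfold Cv
  rw [Metric.tendsto_nhds]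
  intro ε hε
  rw [eventually_cofinite]
  obtain ⟨N, hN⟩ : ∃ N : ℕ, M * ‖τ‖ ^ N < ε := by
    obtain ⟨N, hN⟩ := exists_pow_lt_of_lt_one (y := ‖τ‖) (x := ε / M) (by positivity) hτ
    exact ⟨N, by rw [lt_div_iff₀ hM0] at hN; rw [mul_comm]; exact hN⟩
  have hq : ‖c‖ / ‖τ‖ < 1 := by rw [div_lt_one hτ0]; exact hcτ
  obtain ⟨N', hN'⟩ : ∃ N' : ℕ, max M' 1 * (‖c‖ / ‖τ‖) ^ N' < ε := by
    obtain ⟨N, hN⟩ := exists_pow_lt_of_lt_one (y := ‖c‖ / ‖τ‖) (x := ε / max M' 1) (by positivity) hq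
    exact ⟨N, by rw [lt_div_iff₀ hM'0] at hN; rw [mul_comm]; exact hN⟩
  refine (Set.finite_Icc (-(N' : ℤ)) N).subset fun n hn => ?_
  rw [Set.mem_Icc]
  constructor
  · by_contra hlt
    apply hn
    push Not at hlt
    rw [dist_zero_right, norm_mul, norm_zpow]
    obtain ⟨m, rfl⟩ : ∃ m : ℕ, n = -m := ⟨(-n).toNat, by omega⟩
    have h1 : ‖a.co (-m)‖ * ‖τ‖ ^ (-(m : ℤ)) = (‖a.co (-m)‖ * ‖c‖ ^ (-(m : ℤ))) * (‖c‖ / ‖τ‖) ^ m := by
      rw [div_pow, zpow_neg, zpow_neg, zpow_natCast, zpow_natCast]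
      field_simp
    rw [h1]
    calc (‖a.co (-m)‖ * ‖c‖ ^ (-(m : ℤ))) * (‖c‖ / ‖τ‖) ^ m
        ≤ max M' 1 * (‖c‖ / ‖τ‖) ^ N' := by
          refine mul_le_mul ((hM' _).trans (le_max_left _ _)) ?_ (by positivity) hM'0.le
          exact pow_le_pow_of_le_one (by positivity) hq.le (by omega)
      _ < ε := hN'
  · by_contra hlt
    apply hn
    push Not at hlt
    rw [dist_zero_right, norm_mul, norm_zpow]
    have h1 : ‖τ‖ ^ n ≤ ‖τ‖ ^ N := by
      obtain ⟨m, rfl⟩ : ∃ m : ℕ, n = m := ⟨n.toNat, by omega⟩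
      rw [zpow_natCast]
      exact pow_le_pow_of_le_one (norm_nonneg _) hτ.le (by omega)
    calc ‖a.co n‖ * ‖τ‖ ^ n ≤ M * ‖τ‖ ^ N := mul_le_mul (hM n) h1 (by positivity) hM0.le
      _ < ε := hN

theorem InD.mul {a b : EE k C} (ha : InD a) (hb : InD b) : InD (a * b) := by
  intro n hn
  rw [co_mul]
  refine (tsum_congr fun i => ?_).trans tsum_zero
  rcases lt_or_ge i 0 with h | h
  · rw [ha i h, zero_mul]
  · rw [hb (n - i) (by omega), mul_zero]

theorem inA_iff {c : C} {a : EE k C} : InA c a ↔ ∃ M, Bdd ‖c‖ M a := Iff.rfl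

theorem InA.mul {c : C} (hc : c ≠ 0) {a b : EE k C} (ha : InA c a) (hb : InA c b) :
    InA c (a * b) := by
  obtain ⟨M, hM⟩ := ha
  obtain ⟨N, hN⟩ := hb
  exact ⟨_, Bdd.mul (norm_pos_iff.2 hc) hM hN⟩

variable (k C) in
/-- bounded series on the open disc -/
def rD : Subring (EE k C) where
  carrier := {a | InD a}
  mul_mem' := fun ha hb => InD.mul ha hb
  one_mem' := fun n hn => by rw [co_one, if_neg hn.ne]
  add_mem' := fun {a b} ha hb n hn => by rw [co_add, ha n hn, hb n hn, add_zero]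
  zero_mem' := fun n hn => rfl
  neg_mem' := fun {a} ha n hn => by rw [co_neg, ha n hn, neg_zero]

variable (k) in
/-- bounded series on the open annulus -/
def rA (c : C) (hc : c ≠ 0) : Subring (EE k C) where
  carrier := {a | InA c a}
  mul_mem' := fun ha hb => InA.mul hc ha hb
  one_mem' := ⟨1, Bdd.one⟩
  add_mem' := fun {a b} ha hb => by
    obtain ⟨M, hM⟩ := ha
    obtain ⟨N, hN⟩ := hb
    exact ⟨_, (Bdd.le hM (le_max_left M N)).add (norm_pos_iff.2 hc) (Bdd.le hN (le_max_right M N))⟩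
  zero_mem' := ⟨0, Bdd.zero le_rfl⟩
  neg_mem' := fun {a} ha => by
    obtain ⟨M, hM⟩ := ha
    exact ⟨M, fun n => by rw [co_neg, norm_neg]; exact hM n⟩

/-- a cell: a ring of series that can be evaluated on a set of points -/
structure CellI (k C : Type*) [NontriviallyNormedField k] [CompleteSpace k] [NormedField C]
    [IsUltrametricDist C] [NormedAlgebra k C] [Algebra.IsAlgebraic k C] where
  B : Subring (EE k C)
  S : Set C
  lin_mem : ∀ σ, lin σ ∈ B
  d_mem : ∀ a ∈ B, dFun a ∈ B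
  ev_add : ∀ τ ∈ S, ∀ a ∈ B, ∀ b ∈ B, evE τ (a + b) = evE τ a + evE τ b
  ev_mul : ∀ τ ∈ S, ∀ a ∈ B, ∀ b ∈ B, evE τ (a * b) = evE τ a * evE τ b

theorem inD_lin (σ : C) : InD (lin σ : EE k C) := by
  intro n hn
  rw [co_lin, if_neg (by omega), if_neg (by omega), sub_zero]

theorem inA_lin {c : C} (hc : c ≠ 0) (σ : C) : InA c (lin σ : EE k C) := by
  have h1 : (lin σ : EE k C) = T 1 - mo 0 σ := rfl
  have h2 : (T 1 : EE k C) ∈ rA k c hc :=
    ⟨_, Bdd.mono (norm_pos_iff.2 hc) 1 (1 : C) (finDef_const 1)⟩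
  have h3 : (mo 0 σ : EE k C) ∈ rA k c hc :=
    ⟨_, Bdd.mono (norm_pos_iff.2 hc) 0 σ (finDef_const σ)⟩
  rw [h1]
  exact sub_mem h2 h3

variable (k C) in
/-- the open unit disc -/
def cD : CellI k C where
  B := rD k C
  S := {τ | ‖τ‖ < 1}
  lin_mem := inD_lin
  d_mem := fun a ha => inD_dFun ha
  ev_add := fun τ hτ a ha b hb => evE_add (InD.cv ha hτ) (InD.cv hb hτ)
  ev_mul := fun τ hτ a ha b hb => by
    by_cases h0 : τ = 0
    · rw [h0, evE_zero_eq, evE_zero_eq, evE_zero_eq, co_mul, tsum_eq_single 0]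
      · rw [sub_zero]
      · intro i hi
        rcases lt_or_gt_of_ne hi with h | h
        · have := (show InD a from ha) i h
          rw [this, zero_mul]
        · have := (show InD b from hb) (0 - i) (by omega)
          rw [this, mul_zero]
    · exact evE_mul h0 (InD.cv ha hτ) (InD.cv hb hτ)

variable (k) in
/-- the open annulus `|c| < |T| < 1` -/
def cA (c : C) (hc : c ≠ 0) : CellI k C where
  B := rA k c hc
  S := {τ | ‖c‖ < ‖τ‖ ∧ ‖τ‖ < 1}
  lin_mem := inA_lin hc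
  d_mem := fun a ha => inA_dFun hc ha
  ev_add := fun τ hτ a ha b hb => evE_add (InA.cv ha hτ.2 hτ.1 hc) (InA.cv hb hτ.2 hτ.1 hc)
  ev_mul := fun τ hτ a ha b hb => by
    have h0 : τ ≠ 0 := by
      rintro rfl
      have := hτ.1
      rw [norm_zero] at this
      exact absurd this (not_lt.2 (norm_nonneg c))
    exact evE_mul h0 (InA.cv ha hτ.2 hτ.1 hc) (InA.cv hb hτ.2 hτ.1 hc)

end Crest.Agent.R013.RedD_310
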