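import Mathlib
import Crest.Agent.R013.RedD4_310
import Crest.Agent.R013.EE4_809

/-!
# R013 / RedD5: orders at the points of a cell, slope formula (helper310)
-/

set_option autoImplicit false
set_option linter.all false

namespace Crest.Agent.R013.RedD_310

open Filter Topology
open Crest.Agent.R013.Cell_408 (FinDef DiscNorm BD WD IsU rootPoly)
open Crest.Agent.R013.EE809 Crest.Agent.R013.SSK_332

section

variable {k : Type*} [NontriviallyNormedField k] [CompleteSpace k] [IsUltrametricDist k]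
variable {C : Type*} [NormedField C] [IsUltrametricDist C] [NormedAlgebra k C]
  [Algebra.IsAlgebraic k C] [IsAlgClosed C] [hk : Fact (DiscNorm k)]

theorem evE_zero (τ : C) : evE τ (0 : EE k C) = 0 := by
  unfold evE
  refine (tsum_congr fun n => ?_).trans tsum_zero
  rw [co_zero, zero_mul]

theorem ne_zero_of_evE {τ : C} {a : EE k C} (h : evE τ a ≠ 0) : a ≠ 0 := by
  rintro rfl
  exact h (evE_zero τ)

/-- `u` has order `n` at the point `τ` of the cell -/
def HasOrd (X : CellI k C) (τ : C) (u : EE k C) (n : ℤ) : Prop :=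
  ∃ (a b : ℕ) (g h : EE k C), g ∈ X.B ∧ h ∈ X.B ∧ evE τ g ≠ 0 ∧ evE τ h ≠ 0 ∧
    u * (lin τ ^ b * h) = lin τ ^ a * g ∧ n = (a : ℤ) - b

variable {X : CellI k C} {τ : C}

theorem ev_lin_mul (hτ : τ ∈ X.S) {g : EE k C} (hg : g ∈ X.B) (n : ℕ) :
    evE τ (lin τ ^ (n + 1) * g) = 0 := by
  rw [pow_succ', mul_assoc, X.ev_mul τ hτ _ (X.lin_mem τ) _
    (X.B.mul_mem (X.B.pow_mem (X.lin_mem τ) n) hg), evE_lin, sub_self, zero_mul]

theorem eq_of_lin_pow (hτ : τ ∈ X.S) {g g' : EE k C} (hg : g ∈ X.B) (hg' : g' ∈ X.B)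
    (h : evE τ g ≠ 0) (h' : evE τ g' ≠ 0) {m n : ℕ} (e : lin τ ^ m * g = lin τ ^ n * g') :
    m = n := by
  have key : ∀ {g g' : EE k C} (hg : g ∈ X.B) (hg' : g' ∈ X.B) (h : evE τ g ≠ 0) {m n : ℕ}
      (e : lin τ ^ m * g = lin τ ^ n * g'), n ≤ m := by
    intro g g' hg hg' h m n e
    by_contra hlt
    push Not at hlt
    obtain ⟨d, rfl⟩ : ∃ d, n = m + (d + 1) := ⟨n - m - 1, by omega⟩
    rw [pow_add, mul_assoc] at e
    have e' := mul_left_cancel₀ (pow_ne_zero m (lin_ne_zero τ)) e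
    exact h (by rw [e', ev_lin_mul hτ hg'])
  exact le_antisymm (key hg' hg h' e.symm) (key hg hg' h e)

theorem HasOrd.ne_zero {u : EE k C} {n : ℤ} (h : HasOrd X τ u n) : u ≠ 0 := by
  obtain ⟨a, b, g, h, hg, hh, hg0, hh0, e, -⟩ := h
  rintro rfl
  rw [zero_mul] at e
  exact mul_ne_zero (pow_ne_zero a (lin_ne_zero τ)) (ne_zero_of_evE hg0) e.symm

/-- the order is unique -/
theorem HasOrd.uniq (hτ : τ ∈ X.S) {u : EE k C} {n m : ℤ} (h : HasOrd X τ u n)
    (h' : HasOrd X τ u m) : n = m := by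
  have hu := h.ne_zero
  obtain ⟨a, b, g, h, hg, hh, hg0, hh0, e, rfl⟩ := h
  obtain ⟨a', b', g', h', hg', hh', hg0', hh0', e', rfl⟩ := h'
  have e1 : lin τ ^ (a + b') * (g * h') = lin τ ^ (a' + b) * (g' * h) := by
    calc lin τ ^ (a + b') * (g * h') = (lin τ ^ a * g) * (lin τ ^ b' * h') := by ring
      _ = (u * (lin τ ^ b' * h')) * (lin τ ^ b * h) := by rw [← e]; ring
      _ = lin τ ^ (a' + b) * (g' * h) := by rw [e']; ring
  have h1 := eq_of_lin_pow hτ (X.B.mul_mem hg hh') (X.B.mul_mem hg' hh)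
    (by rw [X.ev_mul τ hτ _ hg _ hh']; exact mul_ne_zero hg0 hh0')
    (by rw [X.ev_mul τ hτ _ hg' _ hh]; exact mul_ne_zero hg0' hh0) e1
  omega

theorem HasOrd.mul (hτ : τ ∈ X.S) {u u' : EE k C} {n m : ℤ} (h : HasOrd X τ u n)
    (h' : HasOrd X τ u' m) : HasOrd X τ (u * u') (n + m) := by
  obtain ⟨a, b, g, h, hg, hh, hg0, hh0, e, rfl⟩ := h
  obtain ⟨a', b', g', h', hg', hh', hg0', hh0', e', rfl⟩ := h'
  refine ⟨a + a', b + b', g * g', h * h', X.B.mul_mem hg hg', X.B.mul_mem hh hh', ?_, ?_, ?_, ?_⟩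
  · rw [X.ev_mul τ hτ _ hg _ hg']; exact mul_ne_zero hg0 hg0'
  · rw [X.ev_mul τ hτ _ hh _ hh']; exact mul_ne_zero hh0 hh0'
  · calc u * u' * (lin τ ^ (b + b') * (h * h')) = (u * (lin τ ^ b * h)) * (u' * (lin τ ^ b' * h')) := by
          ring
      _ = lin τ ^ (a + a') * (g * g') := by rw [e, e']; ring
  · push_cast; ring

theorem HasOrd.inv {u : EE k C} {n : ℤ} (h : HasOrd X τ u n) : HasOrd X τ u⁻¹ (-n) := by
  have hu := h.ne_zero
  obtain ⟨a, b, g, h, hg, hh, hg0, hh0, e, rfl⟩ := h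
  refine ⟨b, a, h, g, hh, hg, hh0, hg0, ?_, by ring⟩
  rw [← e, inv_mul_cancel_left₀ hu]

theorem HasOrd.div (hτ : τ ∈ X.S) {u u' : EE k C} {n m : ℤ} (h : HasOrd X τ u n)
    (h' : HasOrd X τ u' m) : HasOrd X τ (u / u') (n - m) := by
  rw [div_eq_mul_inv, sub_eq_add_neg]
  exact h.mul hτ h'.inv

theorem hasOrd_one : HasOrd X τ (1 : EE k C) 0 :=
  ⟨0, 0, 1, 1, X.B.one_mem, X.B.one_mem, by rw [evE_one]; exact one_ne_zero,
    by rw [evE_one]; exact one_ne_zero, by simp, by simp⟩

/-- the derivative of a uniformizer is a unit at the point -/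
theorem HasOrd.deriv (hτ : τ ∈ X.S) {t : EE k C} (ht : HasOrd X τ t 1) :
    HasOrd X τ (dFun t) 0 := by
  obtain ⟨a, b, g, h, hg, hh, hg0, hh0, e, hab⟩ := ht
  obtain rfl : a = b + 1 := by omega
  have e1 : t * h = lin τ * g := by
    have h1 : lin τ ^ b * (t * h) = lin τ ^ b * (lin τ * g) := by
      calc lin τ ^ b * (t * h) = t * (lin τ ^ b * h) := by ring
        _ = lin τ ^ b * (lin τ * g) := by rw [e]; ring
    exact mul_left_cancel₀ (pow_ne_zero b (lin_ne_zero τ)) h1
  have e2 := congrArg dFun e1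
  rw [dFun_mul, dFun_mul, dFun_lin] at e2
  -- dt * h ^ 2 = g * h + lin * (h * dg - g * dh)
  have e3 : dFun t * (h * h) = g * h + lin τ * (h * dFun g - g * dFun h) := by
    have : dFun t * (h * h) = h * (t * dFun h + h * dFun t) - (t * h) * dFun h := by ring
    rw [this, e2, e1]
    ring
  have hd1 := X.d_mem g hg
  have hd2 := X.d_mem h hh
  have hm : h * dFun g - g * dFun h ∈ X.B :=
    X.B.sub_mem (X.B.mul_mem hh hd1) (X.B.mul_mem hg hd2)
  refine ⟨0, 0, g * h + lin τ * (h * dFun g - g * dFun h), h * h,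
    X.B.add_mem (X.B.mul_mem hg hh) (X.B.mul_mem (X.lin_mem τ) hm), X.B.mul_mem hh hh, ?_, ?_, ?_,
    by simp⟩
  · rw [X.ev_add τ hτ _ (X.B.mul_mem hg hh) _ (X.B.mul_mem (X.lin_mem τ) hm),
      X.ev_mul τ hτ _ (X.lin_mem τ) _ hm, evE_lin, sub_self, zero_mul, add_zero,
      X.ev_mul τ hτ _ hg _ hh]
    exact mul_ne_zero hg0 hh0
  · rw [X.ev_mul τ hτ _ hh _ hh]
    exact mul_ne_zero hh0 hh0
  · rw [pow_zero, one_mul, one_mul, e3]

/-! ### factored elements -/

/-- product of the `T - σ` -/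
noncomputable def linP (k : Type*) {C : Type*} [NontriviallyNormedField k] [CompleteSpace k] [NormedField C]
    [IsUltrametricDist C] [NormedAlgebra k C] [Algebra.IsAlgebraic k C] (Z : Multiset C) : EE k C :=
  (Z.map fun σ => (lin σ : EE k C)).prod

theorem linP_add (Z Z' : Multiset C) : linP k (Z + Z') = linP k Z * linP k Z' := by
  unfold linP; rw [Multiset.map_add, Multiset.prod_add]

theorem linP_cons (σ : C) (Z : Multiset C) : linP k (σ ::ₘ Z) = lin σ * linP k Z := by
  unfold linP; rw [Multiset.map_cons, Multiset.prod_cons]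

theorem linP_zero : linP k (0 : Multiset C) = 1 := by
  unfold linP; rw [Multiset.map_zero, Multiset.prod_zero]

theorem linP_ne_zero (Z : Multiset C) : linP k Z ≠ 0 := by
  induction Z using Multiset.induction_on with
  | empty => rw [linP_zero]; exact one_ne_zero
  | cons σ Z ih => rw [linP_cons]; exact mul_ne_zero (lin_ne_zero σ) ih

theorem linP_mem (Z : Multiset C) : linP k Z ∈ X.B := by
  induction Z using Multiset.induction_on with
  | empty => rw [linP_zero]; exact X.B.one_mem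
  | cons σ Z ih => rw [linP_cons]; exact X.B.mul_mem (X.lin_mem σ) ih

theorem evE_linP_ne (hτ : τ ∈ X.S) {Z : Multiset C} (hZ : τ ∉ Z) : evE τ (linP k Z) ≠ 0 := by
  induction Z using Multiset.induction_on with
  | empty => rw [linP_zero, evE_one]; exact one_ne_zero
  | cons σ Z ih =>
    rw [linP_cons, X.ev_mul τ hτ _ (X.lin_mem σ) _ (linP_mem Z), evE_lin]
    rw [Multiset.mem_cons, not_or] at hZ
    exact mul_ne_zero (sub_ne_zero.2 hZ.1) (ih hZ.2)

open Classical in
theorem linP_split (τ : C) (Z : Multiset C) :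
    linP k Z = lin τ ^ (Z.count τ) * linP k (Z.filter fun σ => ¬ σ = τ) := by
  conv_lhs => rw [← Multiset.filter_add_not (fun σ => σ = τ) Z]
  rw [linP_add]
  congr 1
  have h1 : Z.filter (fun σ => σ = τ) = Multiset.replicate (Z.count τ) τ := by
    convert Multiset.filter_eq' Z τ
  unfold linP
  rw [h1, Multiset.map_replicate, Multiset.prod_replicate]

open Classical in
theorem hasOrd_linP (hτ : τ ∈ X.S) (Z : Multiset C) {e e' : EE k C} (he : e ∈ X.B) (he' : e' ∈ X.B)
    (h : e * e' = 1) : HasOrd X τ (linP k Z * e) (Z.count τ) := by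
  have hev : evE τ e ≠ 0 := by
    intro h0
    have := X.ev_mul τ hτ _ he _ he'
    rw [h, evE_one, h0, zero_mul] at this
    exact one_ne_zero this
  refine ⟨Z.count τ, 0, linP k (Z.filter fun σ => ¬ σ = τ) * e, 1,
    X.B.mul_mem (linP_mem _) he, X.B.one_mem, ?_, by rw [evE_one]; exact one_ne_zero, ?_, by simp⟩
  · rw [X.ev_mul τ hτ _ (linP_mem _) _ he]
    exact mul_ne_zero (evE_linP_ne hτ (by simp)) hev
  · rw [linP_split τ Z, pow_zero, one_mul, mul_one, mul_assoc]

/-- the multiplicities of a quotient of two products, as a function with finite support -/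
noncomputable def mlt (Z Z' : Multiset C) : C →₀ ℤ := by
  classical
  exact (Multiset.toFinsupp Z).mapRange (fun n : ℕ => (n : ℤ)) rfl
    - (Multiset.toFinsupp Z').mapRange (fun n : ℕ => (n : ℤ)) rfl

omit [IsUltrametricDist C] [IsAlgClosed C] in
open Classical in
theorem mlt_apply (Z Z' : Multiset C) (τ : C) : mlt Z Z' τ = (Z.count τ : ℤ) - Z'.count τ := by
  unfold mlt
  rw [Finsupp.sub_apply, Finsupp.mapRange_apply, Finsupp.mapRange_apply, Multiset.toFinsupp_apply,
    Multiset.toFinsupp_apply]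

omit [IsUltrametricDist C] [IsAlgClosed C] in
theorem mlt_sum (Z Z' : Multiset C) :
    ((mlt Z Z').sum fun _ n => n) = (Z.card : ℤ) - Z'.card := by
  classical
  have h1 : ∀ Y : Multiset C, (((Multiset.toFinsupp Y).mapRange (fun n : ℕ => (n : ℤ)) rfl).sum
      fun _ n => n) = (Y.card : ℤ) := by
    intro Y
    rw [Finsupp.sum_mapRange_index (fun _ => rfl)]
    have := Multiset.toFinsupp_sum_eq Y
    rw [← this]
    unfold Finsupp.sum
    push_cast
    rfl
  unfold mlt
  rw [Finsupp.sum_sub_index (fun _ _ _ => rfl), h1, h1]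

/-- a quotient of factored elements -/
theorem hasOrd_quot {u : EE k C} {Z Z' : Multiset C} {e e' e₂ e₂' : EE k C} (he : e ∈ X.B)
    (he' : e' ∈ X.B) (h : e * e' = 1) (he₂ : e₂ ∈ X.B) (he₂' : e₂' ∈ X.B) (h₂ : e₂ * e₂' = 1)
    (hu : u * (linP k Z' * e₂) = linP k Z * e) (hτ : τ ∈ X.S) : HasOrd X τ u (mlt Z Z' τ) := by
  classical
  rw [mlt_apply]
  have h1 : u = (linP k Z * e) / (linP k Z' * e₂) := by
    rw [eq_div_iff, hu]
    refine mul_ne_zero (linP_ne_zero _) ?_
    intro h0
    rw [h0, zero_mul] at h₂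
    exact zero_ne_one h₂
  rw [h1]
  exact (hasOrd_linP hτ Z he he' h).div hτ (hasOrd_linP hτ Z' he₂ he₂' h₂)

/-- a quotient of factored elements without poles is in the ring of the cell -/
theorem mem_of_nonneg {u : EE k C} {Z Z' : Multiset C} {e e₂ e₂' : EE k C} (he : e ∈ X.B)
    (he₂' : e₂' ∈ X.B) (h₂ : e₂ * e₂' = 1)
    (hu : u * (linP k Z' * e₂) = linP k Z * e) (hm : ∀ τ, 0 ≤ mlt Z Z' τ) : u ∈ X.B := by
  classical
  have hle : Z' ≤ Z := by
    rw [Multiset.le_iff_count]
    intro τ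
    have := hm τ
    rw [mlt_apply] at this
    omega
  obtain ⟨Y, rfl⟩ := Multiset.le_iff_exists_add.1 hle
  rw [linP_add] at hu
  have h1 : linP k Z' * (u * e₂) = linP k Z' * (linP k Y * e) := by
    calc linP k Z' * (u * e₂) = u * (linP k Z' * e₂) := by ring
      _ = linP k Z' * (linP k Y * e) := by rw [hu]; ring
  have h3 := mul_left_cancel₀ (linP_ne_zero Z') h1
  have h4 : u = linP k Y * e * e₂' := by
    calc u = u * e₂ * e₂' := by rw [mul_assoc, h₂, mul_one]
      _ = linP k Y * e * e₂' := by rw [h3]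
  rw [h4]
  exact X.B.mul_mem (X.B.mul_mem (linP_mem Y) he) he₂'

/-! ### Weierstrass factorisation on the disc -/

theorem gn_lin {σ : C} (hσ : ‖σ‖ ≤ 1) : gn (lin σ : EE k C) = 1 := by
  have h1 : (lin σ : EE k C).co 1 = 1 := by rw [co_lin]; simp
  have : gn (lin σ : EE k C) = ‖(lin σ : EE k C).co 1‖ := by
    refine gn_eq_of fun m => ?_
    rw [h1, norm_one, co_lin]
    by_cases hm : m = 1
    · rw [if_pos hm, if_neg (by omega), sub_zero, norm_one]
    · rw [if_neg hm, zero_sub, norm_neg]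
      split_ifs
      · exact hσ
      · rw [norm_zero]; exact zero_le_one
  rw [this, h1, norm_one]

theorem od_lin {σ : C} (hσ : ‖σ‖ < 1) : EE809.od (lin σ : EE k C) = 1 := by
  have h1 : (lin σ : EE k C).co 1 = 1 := by rw [co_lin]; simp
  refine od_eq_of (by rw [gn_lin hσ.le, h1, norm_one]) fun m hm => ?_
  rw [gn_lin hσ.le, co_lin, if_neg (by omega), zero_sub, norm_neg]
  split_ifs
  · exact hσ
  · rw [norm_zero]; exact zero_lt_one

theorem od_linP {Z : Multiset C} (hZ : ∀ σ ∈ Z, ‖σ‖ < 1) : EE809.od (linP k Z) = Z.card := by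
  induction Z using Multiset.induction_on with
  | empty => rw [linP_zero, EE809.od_one]; simp
  | cons σ Z ih =>
    rw [linP_cons, EE809.od_mul hk.out (lin_ne_zero σ) (linP_ne_zero Z),
      od_lin (hZ σ (Multiset.mem_cons_self σ Z)), ih fun τ h => hZ τ (Multiset.mem_cons_of_mem h),
      Multiset.card_cons]
    push_cast
    ring

theorem ofBD_posPart {a : EE k C} (ha : InD a) : ofBD (posPart a) = a := by
  ext n
  rw [co_ofBD_posPart]
  split_ifs with h
  · rfl
  · exact (ha n (not_le.1 h)).symm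

theorem inD_ofBD (f : BD k C) : InD (ofBD f : EE k C) := fun n hn => co_ofBD_neg f hn

/-- **Weierstrass factorisation on the disc** -/
theorem wD {a : EE k C} (ha0 : a ≠ 0) (ha : InD a) : ∃ Z : Multiset C, (∀ σ ∈ Z, ‖σ‖ < 1) ∧
    (Z.card : ℤ) = EE809.od a ∧ ∃ e e' : EE k C, InD e ∧ InD e' ∧ e * e' = 1 ∧
      a = linP k Z * e := by
  have hf0 : (posPart a).1 ≠ 0 := by
    intro h
    apply ha0
    rw [← ofBD_posPart ha]
    have : posPart a = 0 := Subtype.ext h
    rw [this, map_zero]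
  obtain ⟨c, g, m, hc, hg, hfg, -, -⟩ :=
    Crest.Agent.R013.Cell_408.exists_normalise hk.out (posPart a).2 hf0
  obtain ⟨u, Z, hu, hZc, hZ, hgu⟩ := hg.exists_roots
  obtain ⟨v, hv, huv⟩ := hu.inv
  let U : BD k C := ⟨u, hu.mem⟩
  let V : BD k C := ⟨v, hv.mem⟩
  have hUV : U * V = 1 := Subtype.ext huv
  let R : BD k C := ⟨(rootPoly Z : PowerSeries C), Crest.Agent.R013.Cell_408.coe_mem_BD _⟩
  have hR : (ofBD R : EE k C) = linP k Z := by
    have key : ∀ Y : Multiset C, ∀ (hY : (rootPoly Y : PowerSeries C) ∈ BD k C),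
        (ofBD (⟨(rootPoly Y : PowerSeries C), hY⟩ : BD k C) : EE k C) = linP k Y := by
      intro Y
      induction Y using Multiset.induction_on with
      | empty =>
        intro hY
        rw [linP_zero]
        have : (⟨(rootPoly (0 : Multiset C) : PowerSeries C), hY⟩ : BD k C) = 1 := by
          apply Subtype.ext
          show ((rootPoly (0 : Multiset C) : Polynomial C) : PowerSeries C) = 1
          unfold rootPoly
          rw [Multiset.map_zero, Multiset.prod_zero, Polynomial.coe_one]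
        rw [this, map_one]
      | cons σ Y ih =>
        intro hY
        have hl : ((Polynomial.X - Polynomial.C σ : Polynomial C) : PowerSeries C) ∈ BD k C :=
          Crest.Agent.R013.Cell_408.coe_mem_BD _
        have hY' : (rootPoly Y : PowerSeries C) ∈ BD k C :=
          Crest.Agent.R013.Cell_408.coe_mem_BD _
        have : (⟨(rootPoly (σ ::ₘ Y) : PowerSeries C), hY⟩ : BD k C) =
            ⟨((Polynomial.X - Polynomial.C σ : Polynomial C) : PowerSeries C), hl⟩ *
              ⟨(rootPoly Y : PowerSeries C), hY'⟩ := by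
          apply Subtype.ext
          show ((rootPoly (σ ::ₘ Y) : Polynomial C) : PowerSeries C) =
            ((Polynomial.X - Polynomial.C σ : Polynomial C) : PowerSeries C) *
              (rootPoly Y : PowerSeries C)
          unfold rootPoly
          rw [Multiset.map_cons, Multiset.prod_cons, Polynomial.coe_mul]
        rw [this, map_mul, ih, linP_cons]
        congr 1
        ext n
        rw [co_ofBD, co_lin]
        unfold psFun
        rw [Polynomial.coeff_coe, Polynomial.coeff_sub, Polynomial.coeff_X, Polynomial.coeff_C]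
        by_cases h0 : 0 ≤ n
        · obtain ⟨m, rfl⟩ := Int.eq_ofNat_of_zero_le h0
          rw [if_pos h0, Int.toNat_natCast]
          congr 1
          · by_cases h1 : m = 1
            · rw [if_pos h1.symm, if_pos (by omega)]
            · rw [if_neg (fun h => h1 h.symm), if_neg (by omega)]
          · by_cases h1 : m = 0
            · rw [if_pos h1, if_pos (by omega)]
            · rw [if_neg h1, if_neg (by omega)]
        · rw [if_neg h0, if_neg (by omega), if_neg (by omega), sub_zero]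
    exact key Z _
  have hP : posPart a = algebraMap C (BD k C) c * U * R := by
    apply Subtype.ext
    show (posPart a).1 = PowerSeries.C c * u * (rootPoly Z : PowerSeries C)
    rw [hfg, hgu, mul_assoc]
  have hcc : algebraMap C (EE k C) c * algebraMap C (EE k C) c⁻¹ = 1 := by
    rw [← map_mul, mul_inv_cancel₀ hc, map_one]
  have hce : ∀ d : C, InD (algebraMap C (EE k C) d) := fun d n hn => by
    rw [co_algebraMap, if_neg hn.ne]
  have ha' : a = linP k Z * (algebraMap C (EE k C) c * ofBD U) := by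
    conv_lhs => rw [← ofBD_posPart ha, hP, map_mul, map_mul, ofBD_algebraMap, hR]
    ring
  refine ⟨Z, hZ, ?_, algebraMap C (EE k C) c * ofBD U, algebraMap C (EE k C) c⁻¹ * ofBD V,
    InD.mul (hce c) (inD_ofBD U), InD.mul (hce c⁻¹) (inD_ofBD V), ?_, ha'⟩
  · have hu0 : (ofBD U : EE k C) ≠ 0 := by
      intro h0
      have h1 : (ofBD U * ofBD V : EE k C) = 1 := by rw [← map_mul, hUV, map_one]
      rw [h0, zero_mul] at h1
      exact zero_ne_one h1
    have hc0 : algebraMap C (EE k C) c ≠ 0 := by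
      intro h0
      rw [h0, zero_mul] at hcc
      exact zero_ne_one hcc
    have h1 : ‖(ofBD U : EE k C).co 0‖ = 1 := by
      have h2 := co_ofBD_nat U 0
      have h3 := hu.zero
      rw [Nat.cast_zero] at h2
      rw [h2]
      exact h3
    have h2 : EE809.od (ofBD U : EE k C) = 0 := by
      have hle : ∀ m, ‖(ofBD U : EE k C).co m‖ ≤ ‖(ofBD U : EE k C).co 0‖ := by
        intro m
        rw [h1]
        rcases lt_or_ge m 0 with hm | hm
        · rw [inD_ofBD U m hm, norm_zero]; exact zero_le_one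
        · obtain ⟨j, rfl⟩ := Int.eq_ofNat_of_zero_le hm
          rw [co_ofBD_nat]
          exact hu.le j
      refine od_eq_of (gn_eq_of hle).symm fun m hm => ?_
      rw [inD_ofBD U m hm, norm_zero]
      exact gn_pos hu0
    rw [ha', EE809.od_mul hk.out (linP_ne_zero Z) (mul_ne_zero hc0 hu0),
      EE809.od_mul hk.out hc0 hu0, h2, od_linP hZ]
    have h3 : EE809.od (algebraMap C (EE k C) c) = 0 := EE809.od_mono 0 (finDef_const c) hc
    rw [h3]
    ring
  · calc algebraMap C (EE k C) c * ofBD U * (algebraMap C (EE k C) c⁻¹ * ofBD V)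
        = (algebraMap C (EE k C) c * algebraMap C (EE k C) c⁻¹) * (ofBD U * ofBD V) := by ring
      _ = 1 := by rw [hcc, ← map_mul, hUV, map_one, mul_one]

/-- **slope formula on a disc** -/
theorem slopeD {u g h : EE k C} (hg : InD g) (hh : InD h) (hh0 : h ≠ 0) (hu : u * h = g)
    (hu0 : u ≠ 0) : ∃ m : C →₀ ℤ, (∀ τ, m τ ≠ 0 → ‖τ‖ < 1) ∧
      (∀ τ, ‖τ‖ < 1 → HasOrd (cD k C) τ u (m τ)) ∧ (m.sum fun _ n => n) = EE809.od u ∧
      ((∀ τ, 0 ≤ m τ) → InD u) := by
  classical
  have hg0 : g ≠ 0 := by rw [← hu]; exact mul_ne_zero hu0 hh0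
  obtain ⟨Z, hZ, hZc, e, e', he, he', hee, rfl⟩ := wD hg0 hg
  obtain ⟨Z', hZ', hZc', e₂, e₂', he₂, he₂', hee₂, rfl⟩ := wD hh0 hh
  refine ⟨mlt Z Z', fun τ hτ => ?_, fun τ hτ => ?_, ?_, fun hm => ?_⟩
  · rw [mlt_apply] at hτ
    by_cases h1 : τ ∈ Z
    · exact hZ τ h1
    · by_cases h2 : τ ∈ Z'
      · exact hZ' τ h2
      · rw [Multiset.count_eq_zero_of_notMem h1, Multiset.count_eq_zero_of_notMem h2, sub_self] at hτ
        exact absurd rfl hτ
  · exact hasOrd_quot (X := cD k C) he he' hee he₂ he₂' hee₂ hu hτ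
  · rw [mlt_sum, hZc, hZc', ← hu, EE809.od_mul hk.out hu0 hh0]
    ring
  · exact mem_of_nonneg (X := cD k C) he he₂' hee₂ hu hm

end

end Crest.Agent.R013.RedD_310
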