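import Mathlib
import Crest.Agent.R013.RedD5_310
import Crest.Agent.R013.AnW3_201

/-!
# R013 / RedD6: annuli: flip, slope formula (helper310)
-/

set_option autoImplicit false
set_option linter.all false

namespace Crest.Agent.R013.RedD_310

open Filter Topology
open Crest.Agent.R013.Cell_408 (FinDef DiscNorm)
open Crest.Agent.R013.EE809 Crest.Agent.R013.SSK_332

section flip

variable {k : Type*} [NontriviallyNormedField k] [CompleteSpace k]
variable {C : Type*} [NormedField C] [IsUltrametricDist C] [NormedAlgebra k C]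
  [Algebra.IsAlgebraic k C] {c : C}

theorem Flip.eq_flip (hc0 : c ≠ 0) (hc1 : ‖c‖ < 1) {a b : EE k C} (ha : InA c a) (h : Flip c a b) :
    b = AnW_201.flip c hc0 hc1 a ha := by
  ext n
  exact h n

theorem flip_flip' (hc0 : c ≠ 0) (hc1 : ‖c‖ < 1) {a : EE k C} (ha : InA c a) :
    Flip c a (AnW_201.flip c hc0 hc1 a ha) := fun n => rfl

theorem Flip.mul {hc0 : c ≠ 0} (hc1 : ‖c‖ < 1) {a b a' b' : EE k C} (ha : InA c a) (hb : InA c b)
    (h : Flip c a a') (h' : Flip c b b') : Flip c (a * b) (a' * b') := by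
  rw [Flip.eq_flip hc0 hc1 ha h, Flip.eq_flip hc0 hc1 hb h', ← AnW_201.flip_mul ha hb]
  exact flip_flip' hc0 hc1 _

theorem Flip.add {a b a' b' : EE k C} (h : Flip c a a') (h' : Flip c b b') :
    Flip c (a + b) (a' + b') := fun n => by
  rw [co_add, co_add, h n, h' n, add_mul]

theorem Flip.neg {a a' : EE k C} (h : Flip c a a') : Flip c (-a) (-a') := fun n => by
  rw [co_neg, co_neg, h n, neg_mul]

theorem Flip.sub {a b a' b' : EE k C} (h : Flip c a a') (h' : Flip c b b') :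
    Flip c (a - b) (a' - b') := by
  rw [sub_eq_add_neg, sub_eq_add_neg]; exact Flip.add h (Flip.neg h')

theorem Flip.ne_zero {a a' : EE k C} (hc : c ≠ 0) (h : Flip c a a') (ha : a ≠ 0) : a' ≠ 0 := by
  intro h0
  apply ha
  ext n
  have := h (-n)
  rw [h0, co_zero, neg_neg, eq_comm, mul_eq_zero] at this
  rcases this with h1 | h1
  · exact h1
  · exact absurd h1 (zpow_ne_zero _ hc)

theorem Flip.inA {a a' : EE k C} (hc : c ≠ 0) (h : Flip c a a') : InA c a' := by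
  obtain ⟨M, hM⟩ := a.bd
  have hc' : 0 < ‖c‖ := norm_pos_iff.2 hc
  refine ⟨M, fun n => ?_⟩
  rw [h n, norm_mul, norm_zpow, mul_assoc, ← zpow_add₀ hc'.ne', neg_add_cancel, zpow_zero, mul_one]
  exact hM _

theorem Flip.symm {a a' : EE k C} (hc : c ≠ 0) (h : Flip c a a') : Flip c a' a := fun n => by
  rw [h (-n), neg_neg, mul_assoc, ← zpow_add₀ hc, add_neg_cancel, zpow_zero, mul_one]

theorem Flip.uniq {a b b' : EE k C} (h : Flip c a b) (h' : Flip c a b') : b = b' := by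
  ext n; rw [h n, h' n]

/-- the derivative of the flipped series: `d/dT a(c/T) = -c T⁻² a'(c/T)` -/
theorem Flip.deriv {a a' : EE k C} (hc : c ≠ 0) (h : Flip c a a') :
    Flip c (dFun a) (mo 2 (-c⁻¹) * dFun a') := fun n => by
  rw [co_mo_mul, co_dFun, co_dFun, h]
  have e1 : -(n - 2 + 1) = -n + 1 := by ring
  have e2 : c ^ (-n + 1) = c ^ (-n) * c := by rw [zpow_add₀ hc, zpow_one]
  rw [e1, e2]
  push_cast
  field_simp
  ring

/-- `u'` is `u` seen from the other end of the annulus -/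
def FlipF (c : C) (u u' : EE k C) : Prop :=
  ∃ g h g' h' : EE k C, h ≠ 0 ∧ InA c g ∧ InA c h ∧ Flip c g g' ∧ Flip c h h' ∧ u * h = g ∧
    u' * h' = g'

end flip

section

variable {k : Type*} [NontriviallyNormedField k] [CompleteSpace k] [IsUltrametricDist k]
variable {C : Type*} [NormedField C] [IsUltrametricDist C] [NormedAlgebra k C]
  [Algebra.IsAlgebraic k C] [IsAlgClosed C] [hk : Fact (DiscNorm k)] {c : C}

theorem FlipF.mul (hc0 : c ≠ 0) (hc1 : ‖c‖ < 1) {u u' v v' : EE k C} (h : FlipF c u u')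
    (h' : FlipF c v v') : FlipF c (u * v) (u' * v') := by
  obtain ⟨a, b, a', b', hb0, ha, hb, e1, e2, e3, e4⟩ := h
  obtain ⟨p, q, p', q', hq0, hp, hq, f1, f2, f3, f4⟩ := h'
  refine ⟨a * p, b * q, a' * p', b' * q', mul_ne_zero hb0 hq0, InA.mul hc0 ha hp,
    InA.mul hc0 hb hq, Flip.mul (hc0 := hc0) hc1 ha hp e1 f1, Flip.mul (hc0 := hc0) hc1 hb hq e2 f2,
    ?_, ?_⟩
  · rw [← e3, ← f3]; ring
  · rw [← e4, ← f4]; ring

theorem FlipF.deriv (hc0 : c ≠ 0) (hc1 : ‖c‖ < 1) {u u' : EE k C} (h : FlipF c u u') :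
    FlipF c (dFun u) (mo 2 (-c⁻¹) * dFun u') := by
  obtain ⟨g, h, g', h', hb0, ha, hb, e1, e2, e3, e4⟩ := h
  have key : ∀ {u g h : EE k C}, u * h = g → dFun u * (h * h) = h * dFun g - g * dFun h := by
    intro u g h e
    have e' := congrArg dFun e
    rw [dFun_mul] at e'
    rw [← e', ← e]
    ring
  have hdg := inA_dFun hc0 ha
  have hdh := inA_dFun hc0 hb
  have hm : InA c (h * dFun g - g * dFun h) :=
    (rA k c hc0).sub_mem (InA.mul hc0 hb hdg) (InA.mul hc0 ha hdh)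
  refine ⟨h * dFun g - g * dFun h, h * h,
    h' * (mo 2 (-c⁻¹) * dFun g') - g' * (mo 2 (-c⁻¹) * dFun h'), h' * h', mul_ne_zero hb0 hb0,
    hm, InA.mul hc0 hb hb,
    Flip.sub (Flip.mul (hc0 := hc0) hc1 hb hdg e2 (Flip.deriv hc0 e1))
      (Flip.mul (hc0 := hc0) hc1 ha hdh e1 (Flip.deriv hc0 e2)),
    Flip.mul (hc0 := hc0) hc1 hb hb e2 e2, key e3, ?_⟩
  rw [mul_assoc, key e4]
  ring

/-- the order from the other side of a product of `T - τ` -/
theorem od_flip_linP (hc0 : c ≠ 0) (hc1 : ‖c‖ < 1) {Z : Multiset C} (hZ : ∀ σ ∈ Z, ‖c‖ < ‖σ‖)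
    {b : EE k C} (h : Flip c (linP k Z) b) : EE809.od b = 0 := by
  induction Z using Multiset.induction_on generalizing b with
  | empty =>
    rw [linP_zero] at h
    have : b = 1 := by
      ext n
      rw [h n, co_one, co_one]
      by_cases hn : n = 0
      · rw [hn]; simp
      · rw [if_neg (by omega), if_neg hn, zero_mul]
    rw [this, EE809.od_one]
  | cons σ Z ih =>
    have h1 : InA c (lin σ : EE k C) := inA_lin hc0 σ
    have h2 : InA c (linP k Z) := linP_mem (X := cA k c hc0) Z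
    have h3 : Flip c (linP k (σ ::ₘ Z)) (AnW_201.flip c hc0 hc1 (lin σ) h1 *
        AnW_201.flip c hc0 hc1 (linP k Z) h2) := by
      rw [linP_cons]
      exact Flip.mul (hc0 := hc0) hc1 h1 h2 (flip_flip' hc0 hc1 h1) (flip_flip' hc0 hc1 h2)
    rw [Flip.uniq h h3]
    have h4 : AnW_201.flip c hc0 hc1 (lin σ : EE k C) h1 ≠ 0 :=
      Flip.ne_zero hc0 (flip_flip' hc0 hc1 h1) (lin_ne_zero σ)
    have h5 : AnW_201.flip c hc0 hc1 (linP k Z) h2 ≠ 0 :=
      Flip.ne_zero hc0 (flip_flip' hc0 hc1 h2) (linP_ne_zero Z)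
    rw [EE809.od_mul hk.out h4 h5,
      ih (fun τ hτ => hZ τ (Multiset.mem_cons_of_mem hτ)) (flip_flip' hc0 hc1 h2), add_zero]
    exact AnW_201.od_flip_lin hc0 hc1 (hZ σ (Multiset.mem_cons_self σ Z))

/-- **Weierstrass factorisation on the annulus** (helper201's `exists_W`) -/
theorem wA (hc0 : c ≠ 0) (hc1 : ‖c‖ < 1) {a a' : EE k C} (ha0 : a ≠ 0) (ha : InA c a)
    (hf : Flip c a a') : ∃ Z : Multiset C, (∀ σ ∈ Z, ‖c‖ < ‖σ‖ ∧ ‖σ‖ < 1) ∧
    (Z.card : ℤ) = EE809.od a + EE809.od a' ∧ ∃ e e' : EE k C, InA c e ∧ InA c e' ∧ e * e' = 1 ∧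
      a = linP k Z * e := by
  obtain ⟨A, N, Z, u, v, hA, hZ, hu, hv, huv, rfl⟩ := AnW_201.exists_W hk.out hc0 hc1 ha ha0
  have hl : (Z.map AnW_201.lin).prod = linP k Z := rfl
  rw [hl] at hf ⊢
  have hmo : InA c (mo N A : EE k C) := AnW_201.inA_mo c N A
  have hmo' : InA c (mo (-N) A⁻¹ : EE k C) := AnW_201.inA_mo c (-N) A⁻¹
  have hlin : InA c (linP k Z) := linP_mem (X := cA k c hc0) Z
  have hmm : (mo N A * mo (-N) A⁻¹ : EE k C) = 1 := by
    rw [mo_mul_mo, add_neg_cancel, mul_inv_cancel₀ hA, mo_zero_one]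
  have hmo0 : (mo N A : EE k C) ≠ 0 := AnW_201.mo_ne_zero N hA
  refine ⟨Z, hZ, ?_, mo N A * u, mo (-N) A⁻¹ * v, InA.mul hc0 hmo hu.inA, InA.mul hc0 hmo' hv.inA,
    ?_, by ring⟩
  · have h1 := flip_flip' (k := k) hc0 hc1 hlin
    have h2 : Flip c (mo N A * linP k Z * u)
        (mo (-N) (A * c ^ N) * AnW_201.flip c hc0 hc1 (linP k Z) hlin *
          AnW_201.flip c hc0 hc1 u hu.inA) := by
      refine Flip.mul (hc0 := hc0) hc1 (InA.mul hc0 hmo hlin) hu.inA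
        (Flip.mul (hc0 := hc0) hc1 hmo hlin ?_ h1) (flip_flip' hc0 hc1 hu.inA)
      rw [← AnW_201.flip_mo (hc0 := hc0) (hc1 := hc1)]
      exact flip_flip' hc0 hc1 _
    have hAc : A * c ^ N ≠ 0 := mul_ne_zero hA (zpow_ne_zero _ hc0)
    rw [Flip.uniq hf h2, EE809.od_mul hk.out (mul_ne_zero hmo0 (linP_ne_zero Z)) hu.ne_zero,
      EE809.od_mul hk.out hmo0 (linP_ne_zero Z), AnW_201.od_mo N hA, hu.od hc0 hc1,
      od_linP fun σ hσ => (hZ σ hσ).2,
      EE809.od_mul hk.out (mul_ne_zero (AnW_201.mo_ne_zero _ hAc)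
        (Flip.ne_zero hc0 h1 (linP_ne_zero Z))) (hu.flip hc0 hc1).ne_zero,
      EE809.od_mul hk.out (AnW_201.mo_ne_zero _ hAc) (Flip.ne_zero hc0 h1 (linP_ne_zero Z)),
      AnW_201.od_mo _ hAc, (hu.flip hc0 hc1).od hc0 hc1,
      od_flip_linP hc0 hc1 (fun σ hσ => (hZ σ hσ).1) h1]
    ring
  · calc mo N A * u * (mo (-N) A⁻¹ * v) = (mo N A * mo (-N) A⁻¹) * (u * v) := by ring
      _ = 1 := by rw [hmm, huv, mul_one]

/-- **slope formula on an annulus** -/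
theorem slopeA (hc0 : c ≠ 0) (hc1 : ‖c‖ < 1) {u u' : EE k C} (hu0 : u ≠ 0) (h : FlipF c u u') :
    ∃ m : C →₀ ℤ, (∀ τ, m τ ≠ 0 → ‖c‖ < ‖τ‖ ∧ ‖τ‖ < 1) ∧
      (∀ τ, ‖c‖ < ‖τ‖ → ‖τ‖ < 1 → HasOrd (cA k c hc0) τ u (m τ)) ∧
      (m.sum fun _ n => n) = EE809.od u + EE809.od u' ∧
      ((∀ τ, 0 ≤ m τ) → InA c u ∧ Flip c u u') := by
  classical
  obtain ⟨g, h, g', h', hh0, hg, hh, e1, e2, e3, e4⟩ := h
  have hg0 : g ≠ 0 := by rw [← e3]; exact mul_ne_zero hu0 hh0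
  have hh0' : h' ≠ 0 := Flip.ne_zero hc0 e2 hh0
  have hg0' : g' ≠ 0 := Flip.ne_zero hc0 e1 hg0
  have hu0' : u' ≠ 0 := by
    rintro rfl
    rw [zero_mul] at e4
    exact hg0' e4.symm
  obtain ⟨Z, hZ, hZc, e, e', he, he', hee, hgf⟩ := wA hc0 hc1 hg0 hg e1
  obtain ⟨Z', hZ', hZc', e₂, e₂', he₂, he₂', hee₂, hhf⟩ := wA hc0 hc1 hh0 hh e2
  have hu : u * (linP k Z' * e₂) = linP k Z * e := by rw [← hgf, ← hhf, e3]
  refine ⟨mlt Z Z', fun τ hτ => ?_, fun τ hτ hτ' => ?_, ?_, fun hm => ?_⟩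
  · rw [mlt_apply] at hτ
    by_cases h1 : τ ∈ Z
    · exact hZ τ h1
    · by_cases h2 : τ ∈ Z'
      · exact hZ' τ h2
      · rw [Multiset.count_eq_zero_of_notMem h1, Multiset.count_eq_zero_of_notMem h2, sub_self] at hτ
        exact absurd rfl hτ
  · exact hasOrd_quot (X := cA k c hc0) he he' hee he₂ he₂' hee₂ hu ⟨hτ, hτ'⟩
  · rw [mlt_sum, hZc, hZc', ← e3, ← e4, EE809.od_mul hk.out hu0 hh0, EE809.od_mul hk.out hu0' hh0']
    ring
  · have h1 : InA c u := mem_of_nonneg (X := cA k c hc0) he he₂' hee₂ hu hm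
    refine ⟨h1, ?_⟩
    have h2 := flip_flip' (k := k) hc0 hc1 h1
    have h3 := Flip.mul (hc0 := hc0) hc1 h1 hh h2 e2
    rw [e3] at h3
    have h4 := Flip.uniq e1 h3
    rw [← e4] at h4
    rw [mul_right_cancel₀ hh0' h4]
    exact h2

end

end Crest.Agent.R013.RedD_310
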