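import Mathlib
import Crest.Agent.R013.RedD3_310
import Crest.Agent.R013.RedD6_310
import Crest.Agent.R013.GR3_921

/-!
# R013 / RedD7: semistable structures: slope formulas for functions and differentials, the genus
formula (helper310)
-/

set_option autoImplicit false
set_option linter.all false

namespace Crest.Agent.R013.RedD_310

open WithZero
open scoped NNReal
open Crest.Agent.R013.Cell_408 (FinDef DiscNorm)
open Crest.Agent.R013.EE809 Crest.Agent.R013.SSK_332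
open Crest.Agent.R013.RR7_948 Crest.Agent.R013.RR8_948 Crest.Agent.R013.RR9_948
open Crest.Agent.R013.RR11_948 Crest.Agent.R013.RR14_948
open Crest.Agent.R013.Red332 hiding od

theorem mapDom_apply {α β : Type*} [DecidableEq β] (f : α → β) (x : α →₀ ℤ) (b : β) :
    (x.mapDomain f) b = ∑ i ∈ x.support with f i = b, x i := by
  simp [Finsupp.mapDomain, Finsupp.sum, Finsupp.single_apply, Finset.sum_ite]

variable {k : Type*} [NontriviallyNormedField k] [CompleteSpace k] [IsUltrametricDist k]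
variable {C : Type*} [NormedField C] [IsUltrametricDist C] [NormedAlgebra k C]
  [Algebra.IsAlgebraic k C] [IsAlgClosed C] [hk : Fact (DiscNorm k)]
variable {K : Type*} [Field K] [Algebra C K] [Algebra (RatFunc C) K]
  [IsScalarTower C (RatFunc C) K] [FiniteDimensional (RatFunc C) K]
  [Algebra.IsSeparable (RatFunc C) K]

/-! ### the order of a differential at a point of a cell -/

/-- functions ⇒ differentials -/
theorem hasOrd_ex {X : CellI k C} {τ : C} (hτ : τ ∈ X.S) {em : K →+* EE k C}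
    (hC : ∀ (c : C) (n : ℤ), (em (algebraMap C K c)).co n = if n = 0 then c else 0)
    {P : Pl C K} (h : ∀ f, f ≠ 0 → HasOrd X τ (em f) (divf (k := C) f P)) {g : K} (hg : g ≠ 0) :
    HasOrd X τ (ex em g) ((divf (k := C) g + canD C K) P) := by
  obtain ⟨t, ht⟩ := P.surj (exp (-1))
  have ht0 : t ≠ 0 := by
    rintro rfl
    rw [map_zero] at ht
    exact exp_ne_zero ht.symm
  have hdt0 : del C K t ≠ 0 := RR15_948.del_uniformizer_ne_zero P ht
  have h1 : divf (k := C) t P = 1 := by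
    rw [v_eq ht0, exp_inj] at ht
    omega
  have h2 : divf (k := C) (del C K t) P = -canD C K P := by
    have h3 := Car5_700.v_del_eq P ht
    rw [v_eq hdt0, exp_inj] at h3
    omega
  have h4 := h t ht0
  rw [h1] at h4
  have h5 : HasOrd X τ (ex em (del C K t)) 0 := by
    rw [ex_del em hC]
    exact h4.deriv hτ
  have h6 : g / del C K t ≠ 0 := div_ne_zero hg hdt0
  have h7 : ex em g = em (g / del C K t) * ex em (del C K t) := by
    rw [← ex_mul, div_mul_cancel₀ _ hdt0]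
  rw [h7]
  have h8 := (h _ h6).mul hτ h5
  have h9 : (divf (k := C) (g / del C K t)) P + 0 = (divf (k := C) g + canD C K) P := by
    rw [div_eq_mul_inv, divf_mul hg (inv_ne_zero hdt0), divf_inv hdt0, Finsupp.add_apply,
      Finsupp.neg_apply, h2, Finsupp.add_apply]
    ring
  rwa [h9] at h8

variable (S : SSK k C K)

theorem hasOrd_ptD (d) (h0 h1) (τ : C) (hτ) {f : K} (hf : f ≠ 0) :
    HasOrd (cD k C) τ (S.em d f) (divf (k := C) f (S.ptD d h0 h1 τ hτ)) := by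
  obtain ⟨a, b, g, h, hg, hh, hg0, hh0, e, hv⟩ := S.ptD_ord d h0 h1 τ hτ f hf
  refine ⟨a, b, g, h, hg, hh, hg0, hh0, e, ?_⟩
  rw [v_eq hf, exp_inj] at hv
  omega

theorem hasOrd_ptA (e) (τ : C) (h0 h1) {f : K} (hf : f ≠ 0) :
    HasOrd (cA k (S.cc e) (S.cc_ne e)) τ (S.em (S.e0 e) f)
      (divf (k := C) f (S.ptA e τ h0 h1)) := by
  obtain ⟨a, b, g, h, hg, hh, hg0, hh0, e', hv⟩ := S.ptA_ord e τ h0 h1 f hf
  refine ⟨a, b, g, h, hg, hh, hg0, hh0, e', ?_⟩
  rw [v_eq hf, exp_inj] at hv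
  omega

theorem hasOrd_exD (d) (h0 h1) (τ : C) (hτ) {g : K} (hg : g ≠ 0) :
    HasOrd (cD k C) τ (ex (S.em d) g)
      ((divf (k := C) g + canD C K) (S.ptD d h0 h1 τ hτ)) :=
  hasOrd_ex (X := cD k C) hτ (S.em_C d) (fun f hf => hasOrd_ptD S d h0 h1 τ hτ hf) hg

theorem hasOrd_exA (e) (τ : C) (h0 h1) {g : K} (hg : g ≠ 0) :
    HasOrd (cA k (S.cc e) (S.cc_ne e)) τ (ex (S.em (S.e0 e)) g)
      ((divf (k := C) g + canD C K) (S.ptA e τ h0 h1)) :=
  hasOrd_ex (X := cA k (S.cc e) (S.cc_ne e)) ⟨h0, h1⟩ (S.em_C _)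
    (fun f hf => hasOrd_ptA S e τ h0 h1 hf) hg

/-! ### the expansions are in the fields of the cells -/

/-- quotients of bounded series on the disc -/
def QD (u : EE k C) : Prop := ∃ g h : EE k C, h ≠ 0 ∧ InD g ∧ InD h ∧ u * h = g

omit [Algebra (RatFunc C) K] [IsScalarTower C (RatFunc C) K] [FiniteDimensional (RatFunc C) K]
  [Algebra.IsSeparable (RatFunc C) K] [Field K] [Algebra C K] in
theorem deriv_quot {u g h : EE k C} (e : u * h = g) :
    dFun u * (h * h) = h * dFun g - g * dFun h := by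
  have e' := congrArg dFun e
  rw [dFun_mul] at e'
  rw [← e', ← e]
  ring

omit [Algebra (RatFunc C) K] [IsScalarTower C (RatFunc C) K] [FiniteDimensional (RatFunc C) K]
  [Algebra.IsSeparable (RatFunc C) K] [Field K] [Algebra C K] in
theorem QD.mul {u v : EE k C} (hu : QD u) (hv : QD v) : QD (u * v) := by
  obtain ⟨g, h, h0, hg, hh, e⟩ := hu
  obtain ⟨g', h', h0', hg', hh', e'⟩ := hv
  exact ⟨g * g', h * h', mul_ne_zero h0 h0', InD.mul hg hg', InD.mul hh hh', by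
    rw [← e, ← e']; ring⟩

omit [Algebra (RatFunc C) K] [IsScalarTower C (RatFunc C) K] [FiniteDimensional (RatFunc C) K]
  [Algebra.IsSeparable (RatFunc C) K] [Field K] [Algebra C K] in
theorem QD.deriv {u : EE k C} (hu : QD u) : QD (dFun u) := by
  obtain ⟨g, h, h0, hg, hh, e⟩ := hu
  refine ⟨h * dFun g - g * dFun h, h * h, mul_ne_zero h0 h0, ?_, InD.mul hh hh, deriv_quot e⟩
  exact (rD k C).sub_mem (InD.mul hh (inD_dFun hg)) (InD.mul hg (inD_dFun hh))

theorem qD_em (d) (h0 : ∀ e, d ≠ S.e0 e) (h1 : ∀ e, d ≠ S.e1 e) (f : K) : QD (S.em d f) := by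
  obtain ⟨g, h, hh0, hg, hh, e⟩ := S.disc d h0 h1 f
  exact ⟨g, h, hh0, hg, hh, e⟩

theorem qD_ex (d) (h0 : ∀ e, d ≠ S.e0 e) (h1 : ∀ e, d ≠ S.e1 e) (g : K) : QD (ex (S.em d) g) :=
  (qD_em S d h0 h1 g).mul (qD_em S d h0 h1 _).deriv

theorem flipF_em (e) (f : K) : FlipF (S.cc e) (S.em (S.e0 e) f) (S.em (S.e1 e) f) := by
  obtain ⟨g, h, g', h', hh0, hg, hh, e1, e2, e3, e4⟩ := S.ann e f
  exact ⟨g, h, g', h', hh0, hg, hh, e1, e2, e3, e4⟩

/-- the two expansions of a differential at an annulus: `u₁ = -c T⁻² u₀(c/T)` -/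
theorem flipF_ex (e) (g : K) :
    FlipF (S.cc e) (ex (S.em (S.e0 e)) g) (mo 2 (-(S.cc e)⁻¹) * ex (S.em (S.e1 e)) g) := by
  have h1 := (flipF_em S e g).mul (S.cc_ne e) (S.cc_lt e)
    ((flipF_em S e (xK C K)).deriv (S.cc_ne e) (S.cc_lt e))
  have h2 : S.em (S.e1 e) g * (mo 2 (-(S.cc e)⁻¹) * dFun (S.em (S.e1 e) (xK C K))) =
      mo 2 (-(S.cc e)⁻¹) * ex (S.em (S.e1 e)) g := by
    unfold ex
    rw [dT_apply]
    ring
  rw [h2] at h1
  exact h1

/-! ### slope formulas -/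

theorem dT_xK_ne_zero {em : K →+* EE k C} {w : Nm C K}
    (hC : ∀ (c : C) (n : ℤ), (em (algebraMap C K c)).co n = if n = 0 then c else 0)
    (hgn : ∀ f, gn (em f) = w.v f) (x : Pl (Ct C) (kap w))
    (hod : ∀ f, f ≠ 0 → EE809.od (em f) = Red332.od w x f) : dT k C (em (xK C K)) ≠ 0 := by
  intro h0
  obtain ⟨s, hs⟩ := x.surj (exp (-1))
  obtain ⟨t, ht, rfl⟩ := red_surj w s
  have ht1 : w.v t = 1 := by
    rw [← red_ne_zero_iff w ht]
    intro h0
    rw [h0, map_zero] at hs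
    exact exp_ne_zero hs.symm
  have h1 := (gn_dT_uniformizer x hC hgn hod ht1 hs).1
  rw [← ex_del em hC, ex, h0, mul_zero, gn_zero] at h1
  exact zero_ne_one h1

theorem ex_ne_zero (d : S.Dir) {g : K} (hg : g ≠ 0) : ex (S.em d) g ≠ 0 :=
  mul_ne_zero ((map_ne_zero _).2 hg)
    (dT_xK_ne_zero (S.em_C d) (S.em_gn d) d.2 (S.em_od d))

/-- **slope formula on a disc, functions** -/
theorem slope_fD (d) (h0 h1) {f : K} (hf : f ≠ 0) : ∃ m : C →₀ ℤ, (∀ τ, m τ ≠ 0 → ‖τ‖ < 1) ∧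
    (∀ τ hτ, m τ = divf (k := C) f (S.ptD d h0 h1 τ hτ)) ∧
    (m.sum fun _ n => n) = EE809.od (S.em d f) := by
  obtain ⟨g, h, hh0, hg, hh, e⟩ := qD_em S d h0 h1 f
  obtain ⟨m, hm, hm', hs, -⟩ := slopeD hg hh hh0 e ((map_ne_zero _).2 hf)
  exact ⟨m, hm, fun τ hτ => (hm' τ hτ).uniq (X := cD k C) hτ (hasOrd_ptD S d h0 h1 τ hτ hf), hs⟩

/-- **slope formula on an annulus, functions** -/
theorem slope_fA (e) {f : K} (hf : f ≠ 0) : ∃ m : C →₀ ℤ,
    (∀ τ, m τ ≠ 0 → ‖S.cc e‖ < ‖τ‖ ∧ ‖τ‖ < 1) ∧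
    (∀ τ h0 h1, m τ = divf (k := C) f (S.ptA e τ h0 h1)) ∧
    (m.sum fun _ n => n) = EE809.od (S.em (S.e0 e) f) + EE809.od (S.em (S.e1 e) f) := by
  obtain ⟨m, hm, hm', hs, -⟩ := slopeA (S.cc_ne e) (S.cc_lt e) ((map_ne_zero _).2 hf)
    (flipF_em S e f)
  exact ⟨m, hm, fun τ h0 h1 => (hm' τ h0 h1).uniq (X := cA k (S.cc e) (S.cc_ne e)) ⟨h0, h1⟩
    (hasOrd_ptA S e τ h0 h1 hf), hs⟩

/-- **slope formula on a disc, differentials** -/
theorem slope_gD (d) (h0 h1) {g : K} (hg : g ≠ 0) : ∃ m : C →₀ ℤ, (∀ τ, m τ ≠ 0 → ‖τ‖ < 1) ∧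
    (∀ τ hτ, m τ = (divf (k := C) g + canD C K) (S.ptD d h0 h1 τ hτ)) ∧
    (m.sum fun _ n => n) = EE809.od (ex (S.em d) g) ∧
    ((∀ τ, 0 ≤ m τ) → InD (ex (S.em d) g)) := by
  obtain ⟨a, b, hb0, ha, hb, e⟩ := qD_ex S d h0 h1 g
  obtain ⟨m, hm, hm', hs, hr⟩ := slopeD ha hb hb0 e (ex_ne_zero S d hg)
  exact ⟨m, hm, fun τ hτ => (hm' τ hτ).uniq (X := cD k C) hτ (hasOrd_exD S d h0 h1 τ hτ hg), hs, hr⟩

/-- **slope formula on an annulus, differentials** -/
theorem slope_gA (e) {g : K} (hg : g ≠ 0) : ∃ m : C →₀ ℤ,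
    (∀ τ, m τ ≠ 0 → ‖S.cc e‖ < ‖τ‖ ∧ ‖τ‖ < 1) ∧
    (∀ τ h0 h1, m τ = (divf (k := C) g + canD C K) (S.ptA e τ h0 h1)) ∧
    (m.sum fun _ n => n) = EE809.od (ex (S.em (S.e0 e)) g) + EE809.od (ex (S.em (S.e1 e)) g) + 2 ∧
    ((∀ τ, 0 ≤ m τ) → InA (S.cc e) (ex (S.em (S.e0 e)) g) ∧
      Flip (S.cc e) (ex (S.em (S.e0 e)) g) (mo 2 (-(S.cc e)⁻¹) * ex (S.em (S.e1 e)) g)) := by
  obtain ⟨m, hm, hm', hs, hr⟩ := slopeA (S.cc_ne e) (S.cc_lt e) (ex_ne_zero S _ hg)
    (flipF_ex S e g)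
  refine ⟨m, hm, fun τ h0 h1 => (hm' τ h0 h1).uniq (X := cA k (S.cc e) (S.cc_ne e)) ⟨h0, h1⟩
    (hasOrd_exA S e τ h0 h1 hg), ?_, hr⟩
  have h2 : -(S.cc e)⁻¹ ≠ 0 := neg_ne_zero.2 (inv_ne_zero (S.cc_ne e))
  rw [hs, EE809.od_mul hk.out (AnW_201.mo_ne_zero 2 h2) (ex_ne_zero S _ hg), AnW_201.od_mo 2 h2]
  ring

/-! ### the cell of a place -/

open Classical in
/-- the cell of a place -/
noncomputable def cellOf (P : Pl C K) : S.Dir ⊕ S.Ed :=
  if h : ∃ d h0 h1 τ hτ, P = S.ptD d h0 h1 τ hτ then Sum.inl h.choose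
  else Sum.inr ((S.pt_surj P).resolve_left h).choose

omit [IsUltrametricDist k] [IsAlgClosed C] hk [Algebra (RatFunc C) K]
  [IsScalarTower C (RatFunc C) K] [FiniteDimensional (RatFunc C) K]
  [Algebra.IsSeparable (RatFunc C) K] in
theorem cellOf_ptD (d h0 h1 τ hτ) : cellOf S (S.ptD d h0 h1 τ hτ) = Sum.inl d := by
  have h : ∃ d' h0' h1' τ' hτ', S.ptD d h0 h1 τ hτ = S.ptD d' h0' h1' τ' hτ' :=
    ⟨d, h0, h1, τ, hτ, rfl⟩
  unfold cellOf
  rw [dif_pos h]
  obtain ⟨h0', h1', τ', hτ', e⟩ := h.choose_spec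
  rw [← (S.ptD_inj _ _ _ _ _ _ _ _ _ _ e).1]

omit [IsUltrametricDist k] [IsAlgClosed C] hk [Algebra (RatFunc C) K]
  [IsScalarTower C (RatFunc C) K] [FiniteDimensional (RatFunc C) K]
  [Algebra.IsSeparable (RatFunc C) K] in
theorem cellOf_ptA (e τ h0 h1) : cellOf S (S.ptA e τ h0 h1) = Sum.inr e := by
  have h : ¬ ∃ d' h0' h1' τ' hτ', S.ptA e τ h0 h1 = S.ptD d' h0' h1' τ' hτ' := by
    rintro ⟨d', h0', h1', τ', hτ', e'⟩
    exact S.ptDA _ _ _ _ _ _ _ _ _ e'.symm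
  unfold cellOf
  rw [dif_neg h]
  obtain ⟨τ', h0', h1', e'⟩ := ((S.pt_surj (S.ptA e τ h0 h1)).resolve_left h).choose_spec
  rw [← (S.ptA_inj _ _ _ _ _ _ _ _ e').1]

omit [IsUltrametricDist k] [IsAlgClosed C] hk [Algebra (RatFunc C) K]
  [IsScalarTower C (RatFunc C) K] [FiniteDimensional (RatFunc C) K]
  [Algebra.IsSeparable (RatFunc C) K] in
/-- sum of a divisor over the points of a disc -/
theorem mapDomain_inl (E : Pl C K →₀ ℤ) (d) (h0 h1) (m : C →₀ ℤ) (hm : ∀ τ, m τ ≠ 0 → ‖τ‖ < 1)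
    (hm' : ∀ τ hτ, m τ = E (S.ptD d h0 h1 τ hτ)) :
    E.mapDomain (cellOf S) (Sum.inl d) = m.sum fun _ n => n := by
  classical
  rw [mapDom_apply]
  refine (Finset.sum_bij (fun τ hτ => S.ptD d h0 h1 τ (hm τ (Finsupp.mem_support_iff.1 hτ)))
    ?_ ?_ ?_ ?_).symm
  · intro τ hτ
    rw [Finset.mem_filter, Finsupp.mem_support_iff, ← hm' τ]
    exact ⟨Finsupp.mem_support_iff.1 hτ, cellOf_ptD S _ _ _ _ _⟩
  · intro τ hτ τ' hτ' e
    exact (S.ptD_inj _ _ _ _ _ _ _ _ _ _ e).2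
  · intro P hP
    rw [Finset.mem_filter, Finsupp.mem_support_iff] at hP
    rcases S.pt_surj P with ⟨d', h0', h1', τ, hτ, rfl⟩ | ⟨e, τ, h0', h1', rfl⟩
    · have h2 := hP.2
      rw [cellOf_ptD] at h2
      obtain rfl := Sum.inl.inj h2
      have h3 : τ ∈ m.support := by
        rw [Finsupp.mem_support_iff, hm' τ hτ]
        exact hP.1
      exact ⟨τ, h3, rfl⟩
    · have h2 := hP.2
      rw [cellOf_ptA] at h2
      exact absurd h2 (by simp)
  · intro τ hτ
    exact hm' τ _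

omit [IsUltrametricDist k] [IsAlgClosed C] hk [Algebra (RatFunc C) K]
  [IsScalarTower C (RatFunc C) K] [FiniteDimensional (RatFunc C) K]
  [Algebra.IsSeparable (RatFunc C) K] in
theorem mapDomain_inl_of_not (E : Pl C K →₀ ℤ) (d : S.Dir) (h : ¬ S.IsDisc d) :
    E.mapDomain (cellOf S) (Sum.inl d) = 0 := by
  classical
  rw [mapDom_apply]
  refine Finset.sum_eq_zero fun P hP => ?_
  rw [Finset.mem_filter] at hP
  exfalso
  rcases S.pt_surj P with ⟨d', h0', h1', τ, hτ, rfl⟩ | ⟨e, τ, h0', h1', rfl⟩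
  · have h2 := hP.2
    rw [cellOf_ptD] at h2
    obtain rfl := Sum.inl.inj h2
    exact h ⟨h0', h1'⟩
  · have h2 := hP.2
    rw [cellOf_ptA] at h2
    exact absurd h2 (by simp)

omit [IsUltrametricDist k] [IsAlgClosed C] hk [Algebra (RatFunc C) K]
  [IsScalarTower C (RatFunc C) K] [FiniteDimensional (RatFunc C) K]
  [Algebra.IsSeparable (RatFunc C) K] in
/-- sum of a divisor over the points of an annulus -/
theorem mapDomain_inr (E : Pl C K →₀ ℤ) (e) (m : C →₀ ℤ)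
    (hm : ∀ τ, m τ ≠ 0 → ‖S.cc e‖ < ‖τ‖ ∧ ‖τ‖ < 1)
    (hm' : ∀ τ h0 h1, m τ = E (S.ptA e τ h0 h1)) :
    E.mapDomain (cellOf S) (Sum.inr e) = m.sum fun _ n => n := by
  classical
  rw [mapDom_apply]
  refine (Finset.sum_bij (fun τ hτ => S.ptA e τ (hm τ (Finsupp.mem_support_iff.1 hτ)).1
    (hm τ (Finsupp.mem_support_iff.1 hτ)).2) ?_ ?_ ?_ ?_).symm
  · intro τ hτ
    rw [Finset.mem_filter, Finsupp.mem_support_iff, ← hm' τ]
    exact ⟨Finsupp.mem_support_iff.1 hτ, cellOf_ptA S _ _ _ _⟩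
  · intro τ hτ τ' hτ' e'
    exact (S.ptA_inj _ _ _ _ _ _ _ _ e').2
  · intro P hP
    rw [Finset.mem_filter, Finsupp.mem_support_iff] at hP
    rcases S.pt_surj P with ⟨d', h0', h1', τ, hτ, rfl⟩ | ⟨e', τ, h0', h1', rfl⟩
    · have h2 := hP.2
      rw [cellOf_ptD] at h2
      exact absurd h2 (by simp)
    · have h2 := hP.2
      rw [cellOf_ptA] at h2
      obtain rfl := Sum.inr.inj h2
      have h3 : τ ∈ m.support := by
        rw [Finsupp.mem_support_iff, hm' τ h0' h1']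
        exact hP.1
      exact ⟨τ, h3, rfl⟩
  · intro τ hτ
    exact hm' τ _ _

/-! ### the genus formula -/

open Classical in
/-- the cell at a direction -/
noncomputable def cellDir (d : S.Dir) : S.Dir ⊕ S.Ed :=
  if h : ∃ e, d = S.e0 e ∨ d = S.e1 e then Sum.inr h.choose else Sum.inl d

omit [IsUltrametricDist k] [IsAlgClosed C] hk [Algebra (RatFunc C) K]
  [IsScalarTower C (RatFunc C) K] [FiniteDimensional (RatFunc C) K]
  [Algebra.IsSeparable (RatFunc C) K] in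
theorem ends_inj' {e e' : S.Ed} {d : S.Dir} (h : d = S.e0 e ∨ d = S.e1 e)
    (h' : d = S.e0 e' ∨ d = S.e1 e') : e = e' := by
  rcases h with rfl | rfl <;> rcases h' with h' | h'
  · have := S.ends_inj (a₁ := Sum.inl e) (a₂ := Sum.inl e') h'
    exact Sum.inl.inj this
  · have := S.ends_inj (a₁ := Sum.inl e) (a₂ := Sum.inr e') h'
    exact absurd this (by simp)
  · have := S.ends_inj (a₁ := Sum.inr e) (a₂ := Sum.inl e') h'
    exact absurd this (by simp)
  · have := S.ends_inj (a₁ := Sum.inr e) (a₂ := Sum.inr e') h'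
    exact Sum.inr.inj this

omit [IsUltrametricDist k] [IsAlgClosed C] hk [Algebra (RatFunc C) K]
  [IsScalarTower C (RatFunc C) K] [FiniteDimensional (RatFunc C) K]
  [Algebra.IsSeparable (RatFunc C) K] in
theorem cellDir_end {e : S.Ed} {d : S.Dir} (h : d = S.e0 e ∨ d = S.e1 e) :
    cellDir S d = Sum.inr e := by
  have h' : ∃ e, d = S.e0 e ∨ d = S.e1 e := ⟨e, h⟩
  unfold cellDir
  rw [dif_pos h', ends_inj' S h'.choose_spec h]

omit [IsUltrametricDist k] [IsAlgClosed C] hk [Algebra (RatFunc C) K]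
  [IsScalarTower C (RatFunc C) K] [FiniteDimensional (RatFunc C) K]
  [Algebra.IsSeparable (RatFunc C) K] in
theorem cellDir_disc {d : S.Dir} (h : S.IsDisc d) : cellDir S d = Sum.inl d := by
  have h' : ¬ ∃ e, d = S.e0 e ∨ d = S.e1 e := by
    rintro ⟨e, h1 | h1⟩
    · exact h.1 e h1
    · exact h.2 e h1
  unfold cellDir
  rw [dif_neg h']

omit [IsUltrametricDist k] [IsAlgClosed C] hk [Algebra (RatFunc C) K]
  [IsScalarTower C (RatFunc C) K] [FiniteDimensional (RatFunc C) K]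
  [Algebra.IsSeparable (RatFunc C) K] in
theorem isDisc_iff {d : S.Dir} : ¬ S.IsDisc d ↔ ∃ e, d = S.e0 e ∨ d = S.e1 e := by
  unfold SSK.IsDisc
  constructor
  · intro h
    by_contra h'
    push Not at h'
    exact h ⟨fun e => (h' e).1, fun e => (h' e).2⟩
  · rintro ⟨e, h1 | h1⟩ ⟨h2, h3⟩
    · exact h2 e h1
    · exact h3 e h1

omit [IsUltrametricDist k] [IsAlgClosed C] hk [Algebra (RatFunc C) K]
  [IsScalarTower C (RatFunc C) K] [FiniteDimensional (RatFunc C) K]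
  [Algebra.IsSeparable (RatFunc C) K] in
theorem mapDir_inl (D : S.Dir →₀ ℤ) (d : S.Dir) (h : S.IsDisc d) :
    D.mapDomain (cellDir S) (Sum.inl d) = D d := by
  classical
  rw [mapDom_apply]
  rw [Finset.sum_eq_single d]
  · intro d' hd' hne
    rw [Finset.mem_filter] at hd'
    exfalso
    by_cases h2 : S.IsDisc d'
    · have h3 := hd'.2
      rw [cellDir_disc S h2] at h3
      exact hne (Sum.inl.inj h3)
    · obtain ⟨e, he⟩ := (isDisc_iff S).1 h2
      have h3 := hd'.2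
      rw [cellDir_end S he] at h3
      exact absurd h3 (by simp)
  · intro hd
    rw [Finset.mem_filter, not_and_or] at hd
    rcases hd with hd | hd
    · exact Finsupp.notMem_support_iff.1 hd
    · exact absurd (cellDir_disc S h) hd

omit [IsUltrametricDist k] [IsAlgClosed C] hk [Algebra (RatFunc C) K]
  [IsScalarTower C (RatFunc C) K] [FiniteDimensional (RatFunc C) K]
  [Algebra.IsSeparable (RatFunc C) K] in
theorem mapDir_inl_of_not (D : S.Dir →₀ ℤ) (d : S.Dir) (h : ¬ S.IsDisc d) :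
    D.mapDomain (cellDir S) (Sum.inl d) = 0 := by
  classical
  rw [mapDom_apply]
  refine Finset.sum_eq_zero fun d' hd' => ?_
  rw [Finset.mem_filter] at hd'
  exfalso
  by_cases h2 : S.IsDisc d'
  · have h3 := hd'.2
    rw [cellDir_disc S h2] at h3
    obtain rfl := Sum.inl.inj h3
    exact h h2
  · obtain ⟨e, he⟩ := (isDisc_iff S).1 h2
    have h3 := hd'.2
    rw [cellDir_end S he] at h3
    exact absurd h3 (by simp)

omit [IsUltrametricDist k] [IsAlgClosed C] hk [Algebra (RatFunc C) K]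
  [IsScalarTower C (RatFunc C) K] [FiniteDimensional (RatFunc C) K]
  [Algebra.IsSeparable (RatFunc C) K] in
theorem mapDir_inr (D : S.Dir →₀ ℤ) (e : S.Ed) :
    D.mapDomain (cellDir S) (Sum.inr e) = D (S.e0 e) + D (S.e1 e) := by
  classical
  have hne : S.e0 e ≠ S.e1 e := by
    intro h
    have := S.ends_inj (a₁ := Sum.inl e) (a₂ := Sum.inr e) h
    exact absurd this (by simp)
  rw [mapDom_apply, ← Finset.sum_pair hne]
  refine Finset.sum_subset ?_ ?_
  · intro d hd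
    rw [Finset.mem_filter] at hd
    rw [Finset.mem_insert, Finset.mem_singleton]
    by_cases h2 : S.IsDisc d
    · have h3 := hd.2
      rw [cellDir_disc S h2] at h3
      exact absurd h3 (by simp)
    · obtain ⟨e', he'⟩ := (isDisc_iff S).1 h2
      have h3 := hd.2
      rw [cellDir_end S he'] at h3
      rwa [Sum.inr.inj h3] at he'
  · intro d hd hd'
    rw [Finset.mem_insert, Finset.mem_singleton] at hd
    rw [Finset.mem_filter, not_and_or] at hd'
    rcases hd' with hd' | hd'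
    · exact Finsupp.notMem_support_iff.1 hd'
    · exact absurd (cellDir_end S hd) hd'

/-- a sum over all points is a sum over the cells -/
theorem sum_cells {g : K} (hg : g ≠ 0) (D : S.Dir →₀ ℤ)
    (hD : ∀ d, D d = EE809.od (ex (S.em d) g)) : letI := S.fEd
    ((divf (k := C) g + canD C K).sum fun _ n => n) =
      (D.sum fun _ n => n) + 2 * Fintype.card S.Ed := by
  classical
  letI := S.fEd
  set E := divf (k := C) g + canD C K with hE
  have key : E.mapDomain (cellOf S) = D.mapDomain (cellDir S) +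
      ∑ e : S.Ed, Finsupp.single (Sum.inr e) 2 := by
    ext c
    rw [Finsupp.add_apply, Finsupp.finsetSum_apply]
    rcases c with d | e
    · have h1 : (∑ e : S.Ed, (Finsupp.single (Sum.inr e : S.Dir ⊕ S.Ed) (2 : ℤ)) (Sum.inl d)) = 0 :=
        Finset.sum_eq_zero fun e _ => Finsupp.single_eq_of_ne (by simp)
      rw [h1, add_zero]
      by_cases hd : S.IsDisc d
      · obtain ⟨m, hm, hm', hs, -⟩ := slope_gD S d hd.1 hd.2 hg
        rw [mapDomain_inl S E d hd.1 hd.2 m hm hm', hs, mapDir_inl S D d hd, hD]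
      · rw [mapDomain_inl_of_not S E d hd, mapDir_inl_of_not S D d hd]
    · have h1 : (∑ e' : S.Ed, (Finsupp.single (Sum.inr e' : S.Dir ⊕ S.Ed) (2 : ℤ)) (Sum.inr e)) = 2 := by
        rw [Finset.sum_eq_single e]
        · exact Finsupp.single_eq_same
        · intro e' _ hne
          exact Finsupp.single_eq_of_ne (by simpa using hne.symm)
        · intro h
          exact absurd (Finset.mem_univ e) h
      rw [h1]
      obtain ⟨m, hm, hm', hs, -⟩ := slope_gA S e hg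
      rw [mapDomain_inr S E e m hm hm', hs, mapDir_inr, hD, hD]
  have h2 : ((E.mapDomain (cellOf S)).sum fun _ n => n) = E.sum fun _ n => n :=
    Finsupp.sum_mapDomain_index (fun _ => rfl) (fun _ _ _ => rfl)
  have h3 : ((D.mapDomain (cellDir S)).sum fun _ n => n) = D.sum fun _ n => n :=
    Finsupp.sum_mapDomain_index (fun _ => rfl) (fun _ _ _ => rfl)
  rw [← h2, key, Finsupp.sum_add_index' (fun _ => rfl) (fun _ _ _ => rfl), h3,
    ← Finsupp.sum_finset_sum_index (fun _ => rfl) (fun _ _ _ => rfl)]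
  congr 1
  rw [Finset.sum_congr rfl fun e _ => Finsupp.sum_single_index (h := fun _ n => n) rfl,
    Finset.sum_const, Finset.card_univ]
  ring

/-- **the genus formula** -/
theorem genus : letI := S.fV; letI := S.fEd
    (gen C K : ℤ) + Fintype.card S.V = (∑ v, (gv S v : ℤ)) + Fintype.card S.Ed + 1 := by
  letI := S.fV
  letI := S.fEd
  obtain ⟨D, hD, hs⟩ := sum_all S (one_ne_zero : (1 : K) ≠ 0)
  have h1 := sum_cells S (one_ne_zero : (1 : K) ≠ 0) D hD
  rw [hs, ← GR2_921.degD_eq_sum, degD_add, degD_divf one_ne_zero,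
    degD_canD GR2_921.hc_of_isAlgClosed, Finset.sum_sub_distrib, ← Finset.mul_sum,
    Finset.sum_const, Finset.card_univ] at h1
  simp only [nsmul_eq_mul] at h1
  linarith

/-- the genus formula for 921's `HasGen` -/
theorem genus_hasGen {g : ℕ} (hg : GR3_921.HasGen C K g) {γ : S.V → ℕ}
    (hγ : ∀ v, GR3_921.HasGen (Ct C) (kap (S.nm v)) (γ v)) : letI := S.fV; letI := S.fEd
    g + Fintype.card S.V = (∑ v, γ v) + Fintype.card S.Ed + 1 := by
  letI := S.fV
  letI := S.fEd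
  haveI := isAlgClosed_Ct (C := C)
  have h1 := genus S
  have h2 : ∀ v, gv S v = γ v := fun v => by
    letI := ffA S v
    haveI := ffA_tower S v
    haveI := ffA_fin S v
    haveI := ffA_sep S v
    exact (hγ v).eq_gen
  rw [hg.eq_gen] at h1
  have h3 : ((g + Fintype.card S.V : ℕ) : ℤ) = (((∑ v, γ v) + Fintype.card S.Ed + 1 : ℕ) : ℤ) := by
    push_cast
    rw [h1]
    congr 2
    exact Finset.sum_congr rfl fun v _ => by rw [h2]
  exact_mod_cast h3

end Crest.Agent.R013.RedD_310
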