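import Crest.Agent.R013.CB1e_903
import Crest.Agent.R013.RedD7_310
import Crest.Agent.R013.Conn4_315
import Crest.Agent.R013.InhK2_275
import Crest.Agent.R013.TP14_928
import Crest.Agent.R013.GR4_921

/-!
# C-B1, part f: the inputs of (A1)
-/

set_option autoImplicit false
set_option linter.unusedSectionVars false

namespace Crest.Agent.R013.CB1_903

open scoped NNReal
open WithZero Polynomial IntermediateField
open Crest.Agent.R013.RR7_948 Crest.Agent.R013.RR9_948 Crest.Agent.R013.RR11_948
open Crest.Agent.R013.RR12_948 Crest.Agent.R013.PicD_398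
open Crest.Agent.R013.RR18_948 Crest.Agent.R013.GR2_921
open Crest.Agent.R013.Red332 Crest.Agent.R013.SSK_332
open Crest.Agent.R013.CLiftN_903 Crest.Agent.R013.GR3_921
open Crest.Agent.R013.Cell_408 (DiscNorm)
open Crest.Agent.R013.Inh_770 (Spl)

universe u

section Defs

variable (k C : Type*) [NontriviallyNormedField k] [CompleteSpace k] [IsUltrametricDist k]
  [NormedField C] [IsUltrametricDist C] [NormedAlgebra k C] [Algebra.IsAlgebraic k C]
  [IsAlgClosed C] [Fact (DiscNorm k)]

/-- inheritance (770): a cover split over the cells has a semistable structure -/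
def InInh : Prop :=
  ∀ (K L : Type u) [Field K] [Field L] [Algebra C K] [Algebra C L] [Algebra K L]
    [IsScalarTower C K L] [FiniteDimensional K L] [IsGalois K L] [Algebra (RatFunc C) K]
    [IsScalarTower C (RatFunc C) K] [FiniteDimensional (RatFunc C) K]
    [Algebra.IsSeparable (RatFunc C) K] (S : SSK k C K), Spl S L →
    ∃ (SL : SSK k C L) (f : SL.V → S.V),
      (∀ w c, (SL.nm w).v (algebraMap K L c) = (S.nm (f w)).v c) ∧
      nE SL = Module.finrank K L * nE S

/-- existence (332, 315, 109) of a semistable structure with a prescribed disc -/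
def InDisc : Prop :=
  ∀ (K : Type u) [Field K] [Algebra C K] [Algebra (RatFunc C) K]
    [IsScalarTower C (RatFunc C) K] [FiniteDimensional (RatFunc C) K]
    [Algebra.IsSeparable (RatFunc C) K] (a r : C), r ≠ 0 →
    ∃ S : SSK k C K, ∀ w : Nm C K,
      w.v ((RR8_948.xK C K - algebraMap C K a) * algebraMap C K r⁻¹) ≤ 1 →
      Transcendental (Ct C) (red w ((RR8_948.xK C K - algebraMap C K a) * algebraMap C K r⁻¹)) →
      ∃ v, S.nm v = w

end Defs

section Thms

variable {k C : Type*} [NontriviallyNormedField k] [CompleteSpace k] [IsUltrametricDist k]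
  [NormedField C] [IsUltrametricDist C] [NormedAlgebra k C] [Algebra.IsAlgebraic k C]
  [IsAlgClosed C] [Fact (DiscNorm k)] [CharZero C]

theorem inGenus : InGenus.{u} k C := by
  intro K _ _ g hg S hS gv hgv
  obtain ⟨i, j, f, s, hgg⟩ := id hg
  let _ := i
  have _ := j
  have _ := f
  have _ := s
  have h1 := RedD_310.genus_hasGen S hg hgv
  let _ := S.fV
  let _ := S.fEd
  rw [finsum_eq_sum_of_fintype]
  unfold nV nE
  exact_mod_cast h1

/-- a finite extension of a function field is a function field -/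
theorem hasGen_of_finite {K L : Type*} [Field K] [Field L] [Algebra C K] [Algebra C L]
    [Algebra K L] [IsScalarTower C K L] [FiniteDimensional K L] {g : ℕ} (hg : HasGen C K g) :
    ∃ g', HasGen C L g' := by
  obtain ⟨i, j, f, s, hgg⟩ := id hg
  let _ := i
  have _ := j
  have _ := f
  have _ := s
  let _ : Algebra (RatFunc C) L := ((algebraMap K L).comp (algebraMap (RatFunc C) K)).toAlgebra
  have _ : IsScalarTower (RatFunc C) K L := IsScalarTower.of_algebraMap_eq fun x => rfl
  have _ : IsScalarTower C (RatFunc C) L := IsScalarTower.of_algebraMap_eq fun x => by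
    rw [IsScalarTower.algebraMap_apply C K L, IsScalarTower.algebraMap_apply C (RatFunc C) K]
    rfl
  have _ : FiniteDimensional (RatFunc C) L := FiniteDimensional.trans (RatFunc C) K L
  have _ : CharZero (RatFunc C) := charZero_of_injective_algebraMap
    (algebraMap C (RatFunc C)).injective
  have _ : Algebra.IsSeparable (RatFunc C) L := inferInstance
  exact ⟨_, hasGen_gen C L⟩

theorem inKum (hI : InInh.{u} k C) : InKum.{u} k C := by
  intro K L _ _ _ _ _ _ _ _ g hg S hS N hN hN1 h h0 y hy htop hdiv hod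
  obtain ⟨i, j, f, s, hgg⟩ := id hg
  let _ := i
  have _ := j
  have _ := f
  have _ := s
  obtain ⟨P⟩ := InhK_275.spl_of_kummer S hN1 h0 hy htop hdiv (fun d => hod d.1 d.2)
  obtain ⟨SL, ff, hff, hE⟩ := hI K L S P
  refine ⟨SL, ff, hff, hE, ?_⟩
  obtain ⟨g', hg'⟩ := hasGen_of_finite (L := L) hg
  obtain ⟨i', j', f', s', hgg'⟩ := id hg'
  let _ := i'
  have _ := j'
  have _ := f'
  have _ := s'
  exact SL.conn

/-- 332's norms are reductions in the sense of 921 -/
theorem red_of_nm {K : Type*} [Field K] [Algebra C K] (w : Nm C K) :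
    GR4_921.Red (NormedField.valuation (K := C)) rc w.v (red w) where
  resC :=
    { add := fun _ _ hx hy => rc_add hx hy
      mul := fun _ _ hx hy => rc_mul hx hy
      one := rc_one
      zero_iff := fun _ hx => rc_eq_zero_iff hx
      surj := fun y => rc_surj y }
  res :=
    { add := fun _ _ hx hy => red_add w hx hy
      mul := fun _ _ hx hy => red_mul w hx hy
      one := red_one w
      zero_iff := fun _ hx => red_eq_zero_iff w hx
      surj := fun y => red_surj w y }
  norm := fun c => w.hC c
  comp := fun c hc => red_C w c hc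
  val := fun f hf => w.val f hf

/-- a type 2 norm of a function field lies over the Gauss norm of a closed disc -/
theorem exists_disc {K : Type*} [Field K] [Algebra C K] [Algebra (RatFunc C) K]
    [IsScalarTower C (RatFunc C) K] [FiniteDimensional (RatFunc C) K]
    [Algebra.IsSeparable (RatFunc C) K] (w : Nm C K) {g : ℕ} (hg : HasGen (Ct C) (kap w) g) :
    ∃ a r : C, r ≠ 0 ∧ w.v ((RR8_948.xK C K - algebraMap C K a) * algebraMap C K r⁻¹) ≤ 1 ∧
      Transcendental (Ct C)
        (red w ((RR8_948.xK C K - algebraMap C K a) * algebraMap C K r⁻¹)) := by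
  obtain ⟨i, j, f, s, hgg⟩ := id hg
  let _ := i
  have _ := j
  have _ := f
  have _ := s
  have hx : Transcendental (Ct C) (RR8_948.xK (Ct C) (kap w)) := RR20_948.transcendental_xK
  obtain ⟨a, c, hc0, h1, h2⟩ := GR4_921.exists_good_lift (red_of_nm w)
    ⟨RR8_948.xK (Ct C) (kap w), fun ⟨c, hc⟩ => hx (hc ▸ isAlgebraic_algebraMap c)⟩
    (u := RR8_948.xK C K) RR20_948.transcendental_xK
  refine ⟨a, c, hc0, h1.le, fun halg => h2 ?_⟩
  have h3 : red w ((RR8_948.xK C K - algebraMap C K a) * algebraMap C K c⁻¹) ∈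
      algebraicClosure (Ct C) (kap w) := mem_algebraicClosure_iff.mpr halg
  rw [hc_of_isAlgClosed (k := Ct C) (K := kap w), IntermediateField.mem_bot] at h3
  exact h3

theorem inSS (hD : InDisc.{u} k C) : InSS.{u} k C := by
  intro K _ _ g hg
  obtain ⟨i, j, f, s, hgg⟩ := id hg
  let _ := i
  have _ := j
  have _ := f
  have _ := s
  refine ⟨?_, fun w g0 hg0 h1 => ?_⟩
  · obtain ⟨S, hS⟩ := hD K 0 1 one_ne_zero
    exact ⟨S, S.conn⟩
  · obtain ⟨a, r, hr, h2, h3⟩ := exists_disc w hg0
    obtain ⟨S, hS⟩ := hD K a r hr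
    exact ⟨S, S.conn, hS w h2 h3⟩

omit [IsUltrametricDist k] [CompleteSpace k] [NontriviallyNormedField k] [NormedAlgebra k C]
  [Algebra.IsAlgebraic k C] [IsAlgClosed C] [Fact (DiscNorm k)] [CharZero C] in
theorem norm_natCast_of_coprime (p : ℕ) [Fact p.Prime] [CharP (Ct C) p] (N : ℕ)
    (hN : N.Coprime p) : ‖(N : C)‖ = 1 := by
  have h1 : ‖(N : C)‖₊ ≤ 1 := by
    have : ‖(N : C)‖ ≤ 1 := IsUltrametricDist.norm_natCast_le_one C N
    exact_mod_cast this
  rcases h1.lt_or_eq with h2 | h2
  · exfalso
    rw [← rc_eq_zero_iff h1] at h2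
    have h3 : rc (N : C) = (N : Ct C) := by
      clear h2 h1 hN
      induction N with
      | zero => simpa using rc_zero
      | succ n ih =>
        rw [Nat.cast_succ, rc_add (by
          have : ‖(n : C)‖ ≤ 1 := IsUltrametricDist.norm_natCast_le_one C n
          exact_mod_cast this) (by simp), ih, rc_one, Nat.cast_succ]
    rw [h3, CharP.cast_eq_zero_iff (Ct C) p] at h2
    have h4 := (Nat.Prime.coprime_iff_not_dvd (Fact.out : p.Prime)).1 hN.symm
    exact h4 h2
  · rw [← coe_nnnorm, h2, NNReal.coe_one]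

end Thms

section Final

variable {k C : Type*} [NontriviallyNormedField k] [CompleteSpace k] [IsUltrametricDist k]
  [NormedField C] [IsUltrametricDist C] [NormedAlgebra k C] [Algebra.IsAlgebraic k C]
  [IsAlgClosed C] [Fact (DiscNorm k)] [CharZero C] (p : ℕ) [Fact p.Prime] [NormedAlgebra ℚ_[p] C]
  [Algebra.IsAlgebraic ℚ_[p] C]

/-- **(A1)**: four inputs -/
theorem a1_of (hD : InDisc.{u} k C) (hI : InInh.{u} k C) (hL : InLift.{u} C p)
    (hGR : InGR.{u} C) (K : Type u) [Field K] [Algebra C K] (g : ℕ) (hg : HasGen C K g)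
    (h2 : 2 ≤ g) : A1 k C K := by
  have _ := TP14_928.charP_Ct (C := C) p
  let _ := TP14_928.algCt (C := C) p
  have _ := TP14_928.isAlgebraic_Ct (C := C) p
  exact a1 p (norm_natCast_of_coprime p) (inSS hD) (inKum hI) hL inGenus hGR K g hg h2

end Final

end Crest.Agent.R013.CB1_903
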