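import Mathlib
import Crest.Agent.R013.Inh12_770

/-!
# Row 13, leaf C-INH (helper770), part 14: the action of the Galois group on the vertices
-/

set_option autoImplicit false
set_option linter.all false
open WithZero
open scoped NNReal
open Crest.Agent.R013.RR7_948 Crest.Agent.R013.Red332 Crest.Agent.R013.EE809
open Crest.Agent.R013.Cell_408 (FinDef DiscNorm)
open Crest.Agent.R013.SSK_332

namespace Crest.Agent.R013.Inh_770

variable {k : Type*} [NontriviallyNormedField k] [CompleteSpace k] [IsUltrametricDist k]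
variable {C : Type*} [NormedField C] [IsUltrametricDist C] [NormedAlgebra k C]
variable [Algebra.IsAlgebraic k C] [IsAlgClosed C] [hk : Fact (DiscNorm k)]
variable {K : Type*} [Field K] [Algebra C K]
variable {L : Type*} [Field L] [Algebra C L] [Algebra K L] [IsScalarTower C K L]
variable [FiniteDimensional K L] [IsGalois K L]
variable [Algebra (RatFunc C) K] [IsScalarTower C (RatFunc C) K]
  [FiniteDimensional (RatFunc C) K] [Algebra.IsSeparable (RatFunc C) K]

namespace Spl

variable {S : SSK k C K} (P : Spl S L) (hff : ∀ i, FFat (P.nmL i))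

/-- the image of a vertex -/
noncomputable def smV (a : L ≃ₐ[K] L) (w : (P.SL hff).V) : (P.SL hff).V :=
  (P.exists_act_V hff a w).choose

theorem smV_nm (a : L ≃ₐ[K] L) (w : (P.SL hff).V) (f : L) :
    ((P.SL hff).nm (P.smV hff a w)).v (a f) = ((P.SL hff).nm w).v f :=
  (P.exists_act_V hff a w).choose_spec.2 f

theorem vK_smV (a : L ≃ₐ[K] L) (w : (P.SL hff).V) :
    P.vK hff (P.smV hff a w) = P.vK hff w :=
  (P.exists_act_V hff a w).choose_spec.1

theorem eq_smV {a : L ≃ₐ[K] L} {w w' : (P.SL hff).V}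
    (h : ∀ f, ((P.SL hff).nm w').v (a f) = ((P.SL hff).nm w).v f) : w' = P.smV hff a w := by
  apply (P.SL hff).nm_inj
  apply Nm.ext'
  intro f
  have h1 := h (a.symm f)
  have h2 := P.smV_nm hff a w (a.symm f)
  rw [AlgEquiv.apply_symm_apply] at h1 h2
  rw [h1, h2]

/-- the action on the vertices: `(a • w)(a f) = w(f)` -/
@[reducible] noncomputable def actV : MulAction (L ≃ₐ[K] L) (P.SL hff).V where
  smul a w := P.smV hff a w
  one_smul w := (P.eq_smV hff (a := 1) (w := w) (w' := w) fun f => rfl).symm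
  mul_smul a b w := (P.eq_smV hff (a := a * b) (w := w) (w' := P.smV hff a (P.smV hff b w))
    fun f => by
      have h1 := P.smV_nm hff a (P.smV hff b w) (b f)
      have h2 := P.smV_nm hff b w f
      exact h1.trans h2).symm

theorem actV_nm (a : L ≃ₐ[K] L) (w : (P.SL hff).V) (f : L) :
    ((P.SL hff).nm ((P.actV hff).toSMul.smul a w)).v (a f) = ((P.SL hff).nm w).v f :=
  P.smV_nm hff a w f

/-- the outer end is equivariant -/
theorem e0_act_fst (a : L ≃ₐ[K] L) (e : (P.SL hff).Ed) :
    ((P.SL hff).e0 ((P.actE hff).toSMul.smul a e)).1 = P.smV hff a ((P.SL hff).e0 e).1 := by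
  apply P.eq_smV hff
  intro f
  have h1 := P.em_e0_act hff a e f
  apply NNReal.eq
  rw [← (P.SL hff).em_gn, ← (P.SL hff).em_gn, h1]

/-- the inner end is equivariant -/
theorem e1_act_fst (a : L ≃ₐ[K] L) (e : (P.SL hff).Ed) :
    ((P.SL hff).e1 ((P.actE hff).toSMul.smul a e)).1 = P.smV hff a ((P.SL hff).e1 e).1 := by
  apply P.eq_smV hff
  intro f
  have h1 := P.em_e1_act hff a e f
  apply NNReal.eq
  rw [← (P.SL hff).em_gn, ← (P.SL hff).em_gn, h1]

/-- the orbits of the vertices are the vertices of `K` -/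
theorem actV_orbit (w w' : (P.SL hff).V) (h : P.vK hff w = P.vK hff w') :
    ∃ a : L ≃ₐ[K] L, (P.actV hff).toSMul.smul a w = w' := by
  obtain ⟨a, ha⟩ := P.exists_conj_V hff w w' h
  exact ⟨a, (P.eq_smV hff ha).symm⟩

end Spl

end Crest.Agent.R013.Inh_770
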