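import Crest.Agent.R013.A2c_398
import Crest.Agent.R013.Inh14_770
import Crest.Agent.R013.CB1f_903

/-!
# R013 / C-A2, part d (helper398): counting the vertices of genus zero
-/

set_option autoImplicit false
set_option linter.all false

namespace Crest.Agent.R013.A2_398

open scoped NNReal
open Module IsLocalRing WithZero
open Crest.Agent.R013.Red332 Crest.Agent.R013.Kumv2_275 Crest.Agent.R013.SSK_332
open Crest.Agent.R013.RR7_948 Crest.Agent.R013.RR8_948 Crest.Agent.R013.RR9_948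
open Crest.Agent.R013.RR11_948 Crest.Agent.R013.CLiftN_903
open Crest.Agent.R013.CI3_398 Crest.Agent.R013.CI4_398
open Crest.Agent.R013.GR3_921 Crest.Agent.R013.Cell_408 Crest.Agent.R013.CB1_903
open Crest.Agent.R013.Inh_770

universe u

section n0

variable (p : ℕ) [hp : Fact p.Prime] {k : Type*} [NontriviallyNormedField k] [CompleteSpace k]
  [IsUltrametricDist k] {C : Type*} [NormedField C] [IsUltrametricDist C] [NormedAlgebra k C]
  [Algebra.IsAlgebraic k C] [IsAlgClosed C] [hk : Fact (DiscNorm k)] [CharZero C]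
  {K : Type*} [Field K] [Algebra C K] (S : SSK k C K)

/-- the vertices of genus zero -/
def V0 : Set S.V := {v | HasGen (Ct C) (kap (S.nm v)) 0}

/-- **fewer vertices of genus zero than edges** if the graph has a loop and the genus is `≥ 2` -/
theorem card_V0_lt {g : ℕ} (hg : HasGen C K g) (h2 : 2 ≤ g) (hS : S.Conn) (hVE : nV S ≤ nE S) :
    Nat.card (V0 S) < Nat.card S.Ed := by
  classical
  letI := S.fV
  letI := S.fEd
  have hgv : ∀ v : S.V, ∃ gv, HasGen (Ct C) (kap (S.nm v)) gv := by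
    intro v
    obtain ⟨i, j, f, s⟩ := S.ff v
    exact ⟨_, hasGen_gen _ _⟩
  choose gv hgv using hgv
  have h1 := inGenus K g hg S hS gv hgv
  rw [finsum_eq_sum_of_fintype] at h1
  have hV : nV S = Fintype.card S.V := rfl
  have hE : nE S = Fintype.card S.Ed := rfl
  rw [Nat.card_eq_fintype_card (α := S.Ed), ← hE, Nat.card_eq_fintype_card]
  by_cases hall : ∀ v, v ∈ V0 S
  · have h3 : ∑ v, (gv v : ℤ) = 0 := Finset.sum_eq_zero fun v _ => by
      rw [(hgv v).unique (hall v), Nat.cast_zero]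
    rw [h3] at h1
    have h4 : Fintype.card (V0 S) ≤ nV S := by
      rw [hV]
      exact Fintype.card_subtype_le _
    omega
  · push Not at hall
    obtain ⟨v, hv⟩ := hall
    have h4 : Fintype.card (V0 S) < nV S := by
      rw [hV]
      exact Fintype.card_subtype_lt hv
    omega

end n0

section zero

variable {k κ : Type*} [Field k] [IsAlgClosed k] [Field κ] [Algebra k κ]

/-- no COUNT data in genus zero -/
theorem not_count (p n : ℕ) (hn : 2 ≤ n) (u : κ) (h0 : HasGen k κ 0) : ¬ Count k κ p n u := by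
  rintro ⟨hu, E, hE, hord, -⟩
  obtain ⟨i, j, f, s, hgen⟩ := h0
  have hc : algebraicClosure k κ = ⊥ := CntF6_398.algClosed_const
  have h1 := (divf_eq_smul_iff hu n E).mpr hE
  have h2 : degD E = 0 := by
    have h3 := degD_divf (k := k) hu
    rw [h1, CntF4_398.degD_nsmul] at h3
    rcases mul_eq_zero.mp h3 with h4 | h4
    · omega
    · exact h4
  have h3 := ell_ge hc E
  rw [h2, hgen] at h3
  have h4 : PicD_398.cls E = 0 := PicD_398.ell_pos_deg_zero h2 (by omega)
  obtain ⟨f, hf, hfE⟩ := PicD_398.cls_eq_zero_iff.mp h4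
  have h5 : n ∣ 1 := by
    apply hord 1
    refine ⟨f, hf, fun P => ?_⟩
    rw [RR11_948.v_eq hf P, hfE]
    simp
  have := Nat.le_of_dvd one_pos h5
  omega

end zero

section fibre

variable {p : ℕ} [hp : Fact p.Prime] {k : Type*} [NontriviallyNormedField k] [CompleteSpace k]
  [IsUltrametricDist k] {C : Type*} [NormedField C] [IsUltrametricDist C] [NormedAlgebra k C]
  [Algebra.IsAlgebraic k C] [IsAlgClosed C] [hk : Fact (DiscNorm k)] [CharP (Ct C) p]
  {K : Type*} [Field K] [Algebra C K] [Algebra (RatFunc C) K] [IsScalarTower C (RatFunc C) K]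
  [FiniteDimensional (RatFunc C) K] [Algebra.IsSeparable (RatFunc C) K] {S : SSK k C K}
  {L : Type*} [Field L]
  [Algebra C L] [Algebra K L] [IsScalarTower C K L] [FiniteDimensional K L] [IsGalois K L]
  (D : A2Data p S L)

/-- `V0'` -/
theorem V0_def (v : S.V) : v ∈ V0 S ↔ HasGen (Ct C) (kap (S.nm v)) 0 := Iff.rfl

namespace A2Data

/-- the vertices of the cover over the vertices of genus zero -/
def V0' : Set D.spl.inh.V := {w | D.spl.vK D.spl.ffL w ∈ V0 S}

theorem dich (w : D.spl.inh.V) : (w ∈ D.V0' ∧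
      ∀ σ : L ≃ₐ[K] L, (∀ f, (D.spl.inh.nm w).v (σ f) = (D.spl.inh.nm w).v f) → σ = 1) ∨
    ∀ (B : Subgroup (L ≃ₐ[K] L)) [Fintype B],
      (∀ σ, σ ∈ B ↔ ∀ f, (D.spl.inh.nm w).v (σ f) = (D.spl.inh.nm w).v f) →
      ∀ a, ∑ b : B, D.c (a * b) = 0 :=
  D.dichotomy (D.spl.vK D.spl.ffL w) (D.spl.inh.nm w) (D.spl.vK_comap D.spl.ffL w)

/-- freeness on `V0'` -/
theorem free_V0' (w : D.spl.inh.V) (hw : w ∈ D.V0') (σ : L ≃ₐ[K] L)
    (hσ : ∀ f, (D.spl.inh.nm w).v (σ f) = (D.spl.inh.nm w).v f) : σ = 1 := by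
  have hV := D.vdat (D.spl.vK D.spl.ffL w)
  have h0 : HasGen (Ct C) (kap (S.nm (D.spl.vK D.spl.ffL w))) 0 := hw
  obtain ⟨g, hg, hgv, ⟨h1, h2⟩ | ⟨n, M, u, hn, hnp, hM, hNM, hred, hc⟩⟩ := hV
  · exact stab_trivial (resC C K L) (S.nm _) (D.spl.inh.nm w) (D.spl.vK_comap D.spl.ffL w)
      (fun a f => a.commutes f) D.y_ne (ζ := fun a => ((D.ζ a : Cˣ) : C)) D.ζ_y D.χ_ζ D.y_pow
      D.N_ne D.χ_inj hg hgv h2 ⟨σ, hσ⟩
  · -- COUNT data are impossible in genus zero
    exact absurd hc (not_count p n hn u h0)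

/-- off `V0'` the coset sums over the stabiliser vanish -/
theorem sum_stab (w : D.spl.inh.V) (hw : w ∉ D.V0') (B : Subgroup (L ≃ₐ[K] L)) [Fintype B]
    (hB : ∀ σ, σ ∈ B ↔ ∀ f, (D.spl.inh.nm w).v (σ f) = (D.spl.inh.nm w).v f)
    (a : L ≃ₐ[K] L) : ∑ b : B, D.c (a * b) = 0 := by
  rcases D.dich w with h | h
  · exact absurd h.1 hw
  · exact h B hB a

/-- `V0'` is stable and free: the vertices over `v ∈ V0` are a copy of the group -/
theorem card_V0' : Nat.card D.V0' = Module.finrank K L * Nat.card (V0 S) := by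
  classical
  choose s hs using D.spl.vK_surj D.spl.ffL
  have hconj := fun w w' h => D.spl.exists_conj_V D.spl.ffL w w' h
  let F : V0 S × (L ≃ₐ[K] L) → D.V0' := fun x =>
    ⟨D.spl.smV D.spl.ffL x.2 (s x.1.1), by
      change D.spl.vK D.spl.ffL (D.spl.smV D.spl.ffL x.2 (s x.1.1)) ∈ V0 S
      rw [D.spl.vK_smV, hs]
      exact x.1.2⟩
  have hF : Function.Bijective F := by
    constructor
    · rintro ⟨v, a⟩ ⟨v', a'⟩ h
      have h1 : D.spl.smV D.spl.ffL a (s v.1) = D.spl.smV D.spl.ffL a' (s v'.1) :=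
        congrArg Subtype.val h
      have h2 := congrArg (D.spl.vK D.spl.ffL) h1
      rw [D.spl.vK_smV, D.spl.vK_smV, hs, hs] at h2
      have h3 : v = v' := Subtype.ext h2
      subst h3
      have h4 : a'⁻¹ * a = 1 := by
        apply D.free_V0' (s v.1) (by
          change D.spl.vK D.spl.ffL (s v.1) ∈ V0 S
          rw [hs]
          exact v.2)
        intro f
        have h5 := D.spl.smV_nm D.spl.ffL a (s v.1) f
        have h6 := D.spl.smV_nm D.spl.ffL a' (s v.1) ((a'⁻¹ * a) f)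
        rw [← h1] at h6
        have h7 : a' ((a'⁻¹ * a) f) = a f := by
          change a' (a'.symm (a f)) = a f
          rw [AlgEquiv.apply_symm_apply]
        rw [h7] at h6
        exact h6.symm.trans h5
      have h5 : a = a' := (inv_mul_eq_one.mp h4).symm
      rw [h5]
    · rintro ⟨w, hw⟩
      obtain ⟨a, ha⟩ := hconj (s (D.spl.vK D.spl.ffL w)) w (hs _)
      refine ⟨(⟨D.spl.vK D.spl.ffL w, hw⟩, a), Subtype.ext ?_⟩
      exact (D.spl.eq_smV D.spl.ffL ha).symm
  rw [← Nat.card_eq_of_bijective F hF, Nat.card_prod, IsGalois.card_aut_eq_finrank, mul_comm]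

end A2Data

end fibre

end Crest.Agent.R013.A2_398
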