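import Crest.Agent.R013.Ax_280

/-!
# R013, leaf AX, part 2: Ax-Sen-Tate for completed fields   (helper280)

* `approx` : `x` in a valued field `C ⊇ L` in the closure of `L`, fixed by isometric extensions of
  all `s : L ≃ₐ[K] L`, is in the closure of `K`.
* `approx_subgroup` : the same for a closed subgroup `H` of `L ≃ₐ[k] L` and its fixed field.
* `w_inv` : a valuation of an algebraic extension of `ℚ_p` extending the `p`-adic norm is invariant
  under all `ℚ_p`-automorphisms.
* `ax_sen_tate` : normed version, base field finite over `ℚ_p`: fixed elements are in `K`.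
-/

set_option autoImplicit false

open scoped NNReal

namespace Crest.Agent.R013.Ax_280

noncomputable section

section approx

variable {K L : Type*} [Field K] [Field L] [Algebra K L] [CharZero L]
  [IsAlgClosed L] [Algebra.IsAlgebraic K L]
  (w : Valuation L ℝ≥0) {p : ℕ}

/-- **Ax-Sen-Tate**, approximation form -/
theorem approx (hpp : p.Prime) (hp : w (p : L) < 1)
    (hw : ∀ (s : L ≃ₐ[K] L) (x : L), w (s x) = w x)
    {C : Type*} [Field C] [Algebra L C] (wC : Valuation C ℝ≥0)
    (hext : ∀ a : L, wC (algebraMap L C a) = w a) (x : C)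
    (happ : ∀ ε : ℝ≥0, 0 < ε → ∃ a : L, wC (x - algebraMap L C a) < ε)
    (hfix : ∀ s : L ≃ₐ[K] L, ∃ t : C → C, (∀ y z, wC (t y - t z) = wC (y - z)) ∧
      (∀ a : L, t (algebraMap L C a) = algebraMap L C (s a)) ∧ t x = x) :
    ∀ ε : ℝ≥0, 0 < ε → ∃ b : K, wC (x - algebraMap L C (algebraMap K L b)) < ε := by
  have hp0 : w (p : L) ≠ 0 := by
    rw [ne_eq, map_eq_zero]
    exact_mod_cast hpp.ne_zero
  have hP1 : 1 ≤ (w (p : L))⁻¹ := (one_le_inv₀ (pos_iff_ne_zero.mpr hp0)).mpr hp.le
  intro ε hε
  have hδ : 0 < ε * (w (p : L)) ^ 2 := mul_pos hε (pow_pos (pos_iff_ne_zero.mpr hp0) 2)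
  obtain ⟨a, ha⟩ := happ _ hδ
  have hs : ∀ s : L ≃ₐ[K] L, w (s a - a) ≤ wC (x - algebraMap L C a) := by
    intro s
    obtain ⟨t, ht1, ht2, ht3⟩ := hfix s
    rw [← hext, map_sub, ← ht2]
    have e1 : t (algebraMap L C a) - algebraMap L C a
        = (t (algebraMap L C a) - t x) + (x - algebraMap L C a) := by
      rw [ht3]; ring
    rw [e1]
    refine (wC.map_add _ _).trans (max_le ?_ le_rfl)
    rw [ht1, Valuation.map_sub_swap]
  obtain ⟨b, hb⟩ := ax w hpp hp hw hs
  have hlt : wC (x - algebraMap L C a) * (w (p : L))⁻¹ ^ 2 < ε := by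
    have h2 : wC (x - algebraMap L C a) * (w (p : L))⁻¹ ^ 2
        < (ε * (w (p : L)) ^ 2) * (w (p : L))⁻¹ ^ 2 := by
      apply mul_lt_mul_of_pos_right ha
      exact pow_pos (inv_pos.mpr (pos_iff_ne_zero.mpr hp0)) 2
    have h3 : (ε * (w (p : L)) ^ 2) * (w (p : L))⁻¹ ^ 2 = ε := by
      rw [mul_assoc, ← mul_pow, mul_inv_cancel₀ hp0, one_pow, mul_one]
    rwa [h3] at h2
  refine ⟨b, ?_⟩
  have e2 : x - algebraMap L C (algebraMap K L b)
      = (x - algebraMap L C a) + algebraMap L C (a - algebraMap K L b) := by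
    rw [map_sub]; ring
  rw [e2]
  refine (wC.map_add _ _).trans_lt (max_lt ?_ ?_)
  · exact (le_mul_of_one_le_right zero_le (one_le_pow₀ hP1)).trans_lt hlt
  · rw [hext]
    exact hb.trans_lt hlt

end approx

section subgroup

variable {k L : Type*} [Field k] [Field L] [Algebra k L] [CharZero L]
  [IsAlgClosed L] [Algebra.IsAlgebraic k L]
  (w : Valuation L ℝ≥0) {p : ℕ}

/-- Ax-Sen-Tate for a closed subgroup: the fixed points of `H` are in the closure of the fixed
field of `H`. -/
theorem approx_subgroup (hpp : p.Prime) (hp : w (p : L) < 1)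
    (hw : ∀ (s : L ≃ₐ[k] L) (x : L), w (s x) = w x)
    (H : Subgroup (L ≃ₐ[k] L)) (hH : IsClosed (H : Set (L ≃ₐ[k] L)))
    {C : Type*} [Field C] [Algebra L C] (wC : Valuation C ℝ≥0)
    (hext : ∀ a : L, wC (algebraMap L C a) = w a) (x : C)
    (happ : ∀ ε : ℝ≥0, 0 < ε → ∃ a : L, wC (x - algebraMap L C a) < ε)
    (hfix : ∀ s ∈ H, ∃ t : C → C, (∀ y z, wC (t y - t z) = wC (y - z)) ∧
      (∀ a : L, t (algebraMap L C a) = algebraMap L C (s a)) ∧ t x = x) :
    ∀ ε : ℝ≥0, 0 < ε → ∃ b : L, (∀ s ∈ H, s b = b) ∧ wC (x - algebraMap L C b) < ε := by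
  have hk : CharZero k := by
    have := (algebraMap k L).injective
    exact (RingHom.charZero_iff this).mpr inferInstance
  have hcl : IsAlgClosure k L := ⟨inferInstance, inferInstance⟩
  have hgal : IsGalois k L := IsAlgClosure.isGalois k L
  have hfixH : (IntermediateField.fixedField H).fixingSubgroup = H :=
    InfiniteGalois.fixingSubgroup_fixedField ⟨H, hH⟩
  have halg : Algebra.IsAlgebraic (IntermediateField.fixedField H) L :=
    Algebra.IsAlgebraic.tower_top (K := k) (IntermediateField.fixedField H)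
  intro ε hε
  have hmem : ∀ s : L ≃ₐ[IntermediateField.fixedField H] L, s.restrictScalars k ∈ H := by
    intro s
    have h0 : s.restrictScalars k ∈ (IntermediateField.fixedField H).fixingSubgroup := by
      rw [IntermediateField.mem_fixingSubgroup_iff]
      intro y hy
      exact s.commutes ⟨y, hy⟩
    rwa [hfixH] at h0
  obtain ⟨b, hb⟩ := approx (K := IntermediateField.fixedField H) w hpp hp
    (fun s y => hw (s.restrictScalars k) y) wC hext x happ
    (fun s => hfix _ (hmem s)) ε hε
  exact ⟨b, fun s hs => b.2 ⟨s, hs⟩, hb⟩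

end subgroup

section padic

variable {p : ℕ} [Fact p.Prime]

/-- a valuation of an algebraic extension of `ℚ_p` extending the `p`-adic norm is the spectral
norm -/
theorem w_eq_spectralNorm {L : Type*} [Field L] [Algebra ℚ_[p] L] [Algebra.IsAlgebraic ℚ_[p] L]
    (w : Valuation L ℝ≥0) (hw : ∀ q : ℚ_[p], w (algebraMap ℚ_[p] L q) = ‖q‖₊) (x : L) :
    (w x : ℝ) = spectralNorm ℚ_[p] L x := by
  let f : AbsoluteValue L ℝ :=
    { toFun := fun x => (w x : ℝ)
      map_mul' := fun x y => by simp
      nonneg' := fun x => NNReal.coe_nonneg _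
      eq_zero' := fun x => by simp
      add_le' := fun x y => by
        have h := w.map_add x y
        have h2 : w (x + y) ≤ w x + w y :=
          h.trans (max_le (le_add_of_nonneg_right zero_le) (le_add_of_nonneg_left zero_le))
        exact_mod_cast h2 }
  exact spectralNorm_unique_field_norm_ext (f := f) (fun q => by
    change (w (algebraMap ℚ_[p] L q) : ℝ) = ‖q‖
    rw [hw]; rfl) x

/-- invariance under automorphisms -/
theorem w_inv {K L : Type*} [Field K] [Field L] [Algebra ℚ_[p] K] [Algebra K L] [Algebra ℚ_[p] L]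
    [IsScalarTower ℚ_[p] K L] [Algebra.IsAlgebraic ℚ_[p] L]
    (w : Valuation L ℝ≥0) (hw : ∀ q : ℚ_[p], w (algebraMap ℚ_[p] L q) = ‖q‖₊)
    (s : L ≃ₐ[K] L) (x : L) : w (s x) = w x := by
  have h1 := w_eq_spectralNorm w hw (s x)
  have h2 := w_eq_spectralNorm w hw x
  have h3 := spectralNorm_eq_of_equiv (K := ℚ_[p]) (s.restrictScalars ℚ_[p]) x
  have h4 : (w (s x) : ℝ) = (w x : ℝ) := by
    rw [h1, h2, h3]; rfl
  exact_mod_cast h4

/-- **Ax-Sen-Tate**: `K` finite over `ℚ_p`, `L` an algebraic closure of `K`, `C` an ultrametric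
normed field containing `L`: the elements of the closure of `L` in `C` fixed by the isometric
extensions of all automorphisms of `L/K` are in `K`. -/
theorem ax_sen_tate {K L C : Type*} [Field K] [Algebra ℚ_[p] K] [FiniteDimensional ℚ_[p] K]
    [Field L] [Algebra K L] [IsAlgClosed L] [Algebra.IsAlgebraic K L]
    [NormedField C] [NormedAlgebra ℚ_[p] C] [IsUltrametricDist C]
    [Algebra K C] [Algebra L C] [IsScalarTower K L C] [IsScalarTower ℚ_[p] K C]
    (x : C) (hx : x ∈ closure (Set.range (algebraMap L C)))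
    (hfix : ∀ s : L ≃ₐ[K] L, ∃ t : C → C, Isometry t ∧
      (∀ a : L, t (algebraMap L C a) = algebraMap L C (s a)) ∧ t x = x) :
    x ∈ Set.range (algebraMap K C) := by
  let _ : Algebra ℚ_[p] L := ((algebraMap K L).comp (algebraMap ℚ_[p] K)).toAlgebra
  have : IsScalarTower ℚ_[p] K L := IsScalarTower.of_algebraMap_eq fun _ => rfl
  have : Algebra.IsAlgebraic ℚ_[p] L := Algebra.IsAlgebraic.trans ℚ_[p] K L
  have hcz : CharZero L := by
    have h1 : CharZero K := (RingHom.charZero_iff (algebraMap ℚ_[p] K).injective).mp inferInstance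
    exact (RingHom.charZero_iff (algebraMap K L).injective).mp h1
  let wC : Valuation C ℝ≥0 :=
    { toFun := fun x => ‖x‖₊
      map_zero' := by simp
      map_one' := by simp
      map_mul' := by intro x y; simp
      map_add_le_max' := fun x y => by
        have := IsUltrametricDist.norm_add_le_max x y
        exact_mod_cast this }
  let w : Valuation L ℝ≥0 := wC.comap (algebraMap L C)
  have hwq : ∀ q : ℚ_[p], w (algebraMap ℚ_[p] L q) = ‖q‖₊ := by
    intro q
    change ‖algebraMap L C (algebraMap K L (algebraMap ℚ_[p] K q))‖₊ = ‖q‖₊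
    rw [← IsScalarTower.algebraMap_apply K L C, ← IsScalarTower.algebraMap_apply ℚ_[p] K C]
    exact nnnorm_algebraMap' C q
  have hpp : p.Prime := Fact.out
  have hp : w (p : L) < 1 := by
    have h1 : (p : L) = algebraMap ℚ_[p] L (p : ℚ_[p]) := by simp
    rw [h1, hwq]
    have := Padic.norm_p_lt_one (p := p)
    exact_mod_cast this
  have key := approx (K := K) w hpp hp (fun s y => w_inv w hwq s y) wC (fun a => rfl) x
    (by
      intro ε hε
      obtain ⟨y, ⟨a, rfl⟩, ha⟩ := Metric.mem_closure_iff.mp hx (ε : ℝ) (by exact_mod_cast hε)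
      refine ⟨a, ?_⟩
      rw [dist_eq_norm] at ha
      exact_mod_cast ha)
    (by
      intro s
      obtain ⟨t, ht1, ht2, ht3⟩ := hfix s
      refine ⟨t, fun y z => ?_, ht2, ht3⟩
      have := ht1.dist_eq y z
      rw [dist_eq_norm, dist_eq_norm] at this
      change ‖t y - t z‖₊ = ‖y - z‖₊
      exact NNReal.eq this)
  have hcl : IsClosed (Set.range (algebraMap K C)) := by
    have h1 : (Set.range (algebraMap K C)) =
        ((IsScalarTower.toAlgHom ℚ_[p] K C).toLinearMap.range : Set C) := by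
      ext y
      simp
    rw [h1]
    exact Submodule.closed_of_finiteDimensional _
  rw [← hcl.closure_eq]
  refine Metric.mem_closure_iff.mpr fun ε hε => ?_
  obtain ⟨b, hb⟩ := key ⟨ε, hε.le⟩ (by exact_mod_cast hε)
  refine ⟨algebraMap K C b, ⟨b, rfl⟩, ?_⟩
  rw [dist_eq_norm, IsScalarTower.algebraMap_apply K L C]
  exact_mod_cast hb

end padic

end

end Crest.Agent.R013.Ax_280
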