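import Mathlib

/-!
# R013, leaf LEMC (helper758's LEMMA C): algebra part   (helper251)

`Q` a field of characteristic zero, `Ω` an algebraically closed field over `Q`,
`B := algebraicClosure Q Ω`, `F` an intermediate field with `Ω/F` algebraic and `F ⊔ B = ⊤`.

* `fixed_mem` : elements of `Ω` fixed by `Gal(Ω/F)` lie in `F`.
* `exists_basis` : `Ω` has a `B`-basis of elements of `F` containing `1`.
* `kummer` : every `a ∈ F*` is `c * f ^ p` with `c ∈ (F ⊓ B)*`, `f ∈ F*` (no roots of unity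
  in `F` needed).
* `exists_proj` : `B`-linear projection `Ω → B` mapping `F` into `F ⊓ B`.
-/

set_option autoImplicit false
set_option linter.unusedSectionVars false
set_option linter.style.haveILetI false

open IntermediateField Polynomial

namespace Crest.Agent.R013.LemC1_251

variable {Q Ω : Type*} [Field Q] [Field Ω] [Algebra Q Ω] [IsAlgClosed Ω] [CharZero Ω]

theorem isGalois (F : IntermediateField Q Ω) [Algebra.IsAlgebraic F Ω] : IsGalois F Ω := by
  have : CharZero F := by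
    refine ⟨fun a b h => ?_⟩
    have : ((a : F) : Ω) = ((b : F) : Ω) := congrArg _ h
    exact_mod_cast this
  have : Normal F Ω := by
    refine ⟨fun x => ?_⟩
    exact IsAlgClosed.splits _
  exact {}

theorem fixed_mem (F : IntermediateField Q Ω) [Algebra.IsAlgebraic F Ω] (x : Ω)
    (h : ∀ σ : Ω ≃ₐ[F] Ω, σ x = x) : x ∈ F := by
  haveI := isGalois F
  have := (InfiniteGalois.mem_range_algebraMap_iff_fixed (k := F) x).2 h
  obtain ⟨y, rfl⟩ := this
  exact y.2

theorem apply_mem (F : IntermediateField Q Ω) (σ : Ω ≃ₐ[F] Ω) (x : Ω) (h : x ∈ F) : σ x = x :=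
  σ.commutes ⟨x, h⟩

theorem map_mem_B (F : IntermediateField Q Ω) (σ : Ω ≃ₐ[F] Ω) (x : Ω)
    (h : x ∈ algebraicClosure Q Ω) : σ x ∈ algebraicClosure Q Ω := by
  rw [mem_algebraicClosure_iff] at h ⊢
  exact IsAlgebraic.algHom (σ.restrictScalars Q : Ω ≃ₐ[Q] Ω).toAlgHom h

theorem exists_basis (F : IntermediateField Q Ω) (hsup : F ⊔ algebraicClosure Q Ω = ⊤) :
    ∃ (s : Set Ω) (b : Module.Basis s (algebraicClosure Q Ω) Ω) (i₀ : s),
      (∀ i, b i ∈ F) ∧ b i₀ = 1 := by
  have hspan : (⊤ : Submodule (algebraicClosure Q Ω) Ω) ≤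
      Submodule.span (algebraicClosure Q Ω) (F : Set Ω) := by
    intro x _
    have hx : x ∈ F ⊔ algebraicClosure Q Ω := by rw [hsup]; trivial
    have h2 : x ∈ (F ⊔ algebraicClosure Q Ω).toSubalgebra := hx
    rw [sup_toSubalgebra_of_isAlgebraic_right] at h2
    -- the span is a subalgebra
    have hmul : ∀ a ∈ Submodule.span (algebraicClosure Q Ω) (F : Set Ω),
        ∀ b ∈ Submodule.span (algebraicClosure Q Ω) (F : Set Ω),
        a * b ∈ Submodule.span (algebraicClosure Q Ω) (F : Set Ω) := by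
      intro a ha b hb
      have : a * b ∈ Submodule.span (algebraicClosure Q Ω) (F : Set Ω) *
          Submodule.span (algebraicClosure Q Ω) (F : Set Ω) := Submodule.mul_mem_mul ha hb
      rw [Submodule.span_mul_span] at this
      refine Submodule.span_mono ?_ this
      rintro _ ⟨u, hu, v, hv, rfl⟩
      exact mul_mem hu hv
    let S : Subalgebra Q Ω :=
      { carrier := {x | x ∈ Submodule.span (algebraicClosure Q Ω) (F : Set Ω)}
        mul_mem' := fun {a b} ha hb => hmul a ha b hb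
        add_mem' := fun {a b} ha hb => by
          simp only [Set.mem_ofPred_eq] at ha hb ⊢
          exact Submodule.add_mem _ ha hb
        algebraMap_mem' := fun r => Submodule.subset_span (F.algebraMap_mem r) }
    have hle : F.toSubalgebra ⊔ (algebraicClosure Q Ω).toSubalgebra ≤ S := by
      refine sup_le ?_ ?_
      · intro y hy
        exact Submodule.subset_span hy
      · intro y hy
        have : (⟨y, hy⟩ : algebraicClosure Q Ω) • (1 : Ω) ∈
            Submodule.span (algebraicClosure Q Ω) (F : Set Ω) :=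
          Submodule.smul_mem _ _ (Submodule.subset_span (one_mem F))
        have h3 : (⟨y, hy⟩ : algebraicClosure Q Ω) • (1 : Ω) = y := by
          rw [Algebra.smul_def]; simp
        rw [h3] at this
        exact this
    exact hle h2
  have hli : LinearIndepOn (algebraicClosure Q Ω) id ({1} : Set Ω) := by
    rw [linearIndepOn_singleton_iff]
    exact one_ne_zero
  have hst : ({1} : Set Ω) ⊆ (F : Set Ω) := by
    intro x hx
    rw [Set.mem_singleton_iff] at hx
    rw [hx]
    exact one_mem F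
  refine ⟨hli.extend hst, Module.Basis.extendLe hli hst hspan,
    ⟨1, hli.subset_extend hst rfl⟩, ?_, ?_⟩
  · intro i
    have := Module.Basis.extendLe_subset hli hst hspan
    exact this ⟨i, rfl⟩
  · rw [Module.Basis.extendLe_apply_self]

/-- The coordinates of `σ y` are the `σ`'s of the coordinates. -/
theorem repr_map (F : IntermediateField Q Ω) {ι : Type*}
    (b : Module.Basis ι (algebraicClosure Q Ω) Ω) (hb : ∀ i, b i ∈ F) (σ : Ω ≃ₐ[F] Ω) (y : Ω)
    (i : ι) : (b.repr (σ y) i).1 = σ (b.repr y i).1 := by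
  classical
  -- define the candidate coordinates
  let g : ι →₀ algebraicClosure Q Ω :=
    (b.repr y).mapRange (fun c => ⟨σ c.1, map_mem_B F σ c.1 c.2⟩) (by ext; simp)
  have hg : σ y = b.repr.symm g := by
    have h1 : y = (b.repr y).sum (fun i c => (c : Ω) * b i) := by
      conv_lhs => rw [← b.linearCombination_repr y]
      rw [Finsupp.linearCombination_apply]
      rfl
    conv_lhs => rw [h1]
    rw [Finsupp.sum, map_sum, b.repr_symm_apply, Finsupp.linearCombination_apply,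
      Finsupp.sum_mapRange_index (by simp)]
    rw [Finsupp.sum]
    refine Finset.sum_congr rfl fun j _ => ?_
    rw [map_mul, apply_mem F σ _ (hb j)]
    rfl
  rw [hg]
  simp [g]

/-- Kummer theory in `Ω = F·B`. -/
theorem kummer (F : IntermediateField Q Ω) [Algebra.IsAlgebraic F Ω]
    (hsup : F ⊔ algebraicClosure Q Ω = ⊤) {p : ℕ} (hp : 0 < p) {ζ : Ω} (hζ : IsPrimitiveRoot ζ p)
    (hζB : ζ ∈ algebraicClosure Q Ω) (a : Ω) (ha : a ∈ F) (ha0 : a ≠ 0) :
    ∃ c ∈ F ⊓ algebraicClosure Q Ω, ∃ f ∈ F, c ≠ 0 ∧ f ≠ 0 ∧ a = c * f ^ p := by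
  haveI : NeZero p := ⟨hp.ne'⟩
  obtain ⟨y, hy⟩ := IsAlgClosed.exists_pow_nat_eq a hp
  obtain ⟨s, b, i₀, hb, -⟩ := exists_basis F hsup
  have hy0 : y ≠ 0 := by
    rintro rfl
    rw [zero_pow hp.ne'] at hy
    exact ha0 hy.symm
  have hex : ∃ i, b.repr y i ≠ 0 := by
    by_contra hcon
    push Not at hcon
    apply hy0
    have : b.repr y = 0 := by ext i; simp [hcon i]
    simpa using this
  obtain ⟨i, hi⟩ := hex
  set c : Ω := (b.repr y i).1 with hc
  have hc0 : c ≠ 0 := by
    intro h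
    apply hi
    exact Subtype.ext h
  have hcB : c ∈ algebraicClosure Q Ω := (b.repr y i).2
  -- the character
  have hchar : ∀ σ : Ω ≃ₐ[F] Ω, ∃ χ : Ω, χ ^ p = 1 ∧ σ y = χ * y ∧ σ c = χ * c := by
    intro σ
    have h1 : (σ y / y) ^ p = 1 := by
      rw [div_pow, ← map_pow, hy, apply_mem F σ a ha, div_self ha0]
    obtain ⟨m, -, hm⟩ := hζ.eq_pow_of_pow_eq_one h1
    have h2 : σ y = ζ ^ m * y := by rw [hm, div_mul_cancel₀ _ hy0]
    refine ⟨ζ ^ m, by rw [hm]; exact h1, h2, ?_⟩
    rw [hc, ← repr_map F b hb σ y i, h2]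
    have : ζ ^ m * y = (⟨ζ ^ m, pow_mem hζB m⟩ : algebraicClosure Q Ω) • y := rfl
    rw [this, map_smul]
    rfl
  refine ⟨c ^ p, ⟨?_, pow_mem hcB p⟩, y / c, ?_, pow_ne_zero _ hc0, div_ne_zero hy0 hc0, ?_⟩
  · apply fixed_mem F
    intro σ
    obtain ⟨χ, h1, -, h3⟩ := hchar σ
    rw [map_pow, h3, mul_pow, h1, one_mul]
  · apply fixed_mem F
    intro σ
    obtain ⟨χ, h1, h2, h3⟩ := hchar σ
    have hχ : χ ≠ 0 := by
      rintro rfl
      rw [zero_pow hp.ne'] at h1
      exact zero_ne_one h1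
    rw [map_div₀, h2, h3, mul_div_mul_left _ _ hχ]
  · rw [div_pow, hy, mul_div_cancel₀]
    exact pow_ne_zero _ hc0

/-- A `B`-linear projection `Ω → B` which maps `F` into `F ⊓ B`. -/
theorem exists_proj (F : IntermediateField Q Ω) [Algebra.IsAlgebraic F Ω]
    (hsup : F ⊔ algebraicClosure Q Ω = ⊤) :
    ∃ Φ : Ω → Ω, (∀ x y, Φ (x + y) = Φ x + Φ y) ∧
      (∀ c ∈ algebraicClosure Q Ω, ∀ x, Φ (c * x) = c * Φ x) ∧
      (∀ x ∈ algebraicClosure Q Ω, Φ x = x) ∧ (∀ x ∈ F, Φ x ∈ F ⊓ algebraicClosure Q Ω) := by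
  obtain ⟨s, b, i₀, hb, h1⟩ := exists_basis F hsup
  have hlin : ∀ c ∈ algebraicClosure Q Ω, ∀ x : Ω,
      (b.repr (c * x) i₀).1 = c * (b.repr x i₀).1 := by
    intro c hc x
    have : c * x = (⟨c, hc⟩ : algebraicClosure Q Ω) • x := rfl
    rw [this, map_smul]
    rfl
  refine ⟨fun x => (b.repr x i₀).1, ?_, hlin, ?_, ?_⟩
  · intro x y
    simp
  · intro x hx
    have := hlin x hx 1
    rw [mul_one] at this
    simp only [this]
    rw [← h1, b.repr_self]
    simp
  · intro x hx
    refine ⟨?_, (b.repr x i₀).2⟩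
    apply fixed_mem F
    intro σ
    simp only
    rw [← repr_map F b hb σ x i₀, apply_mem F σ x hx]

/-- For `t ∈ B` elements of `F(t)` in `B` are polynomials in `t` over `F ⊓ B`. -/
theorem inf_adjoin (F : IntermediateField Q Ω) [Algebra.IsAlgebraic F Ω]
    (hsup : F ⊔ algebraicClosure Q Ω = ⊤) {ι : Type*} (s : Finset ι) (f e : ι → Ω)
    (hf : ∀ i ∈ s, f i ∈ F) (he : ∀ i ∈ s, e i ∈ algebraicClosure Q Ω)
    (hx : ∑ i ∈ s, f i * e i ∈ algebraicClosure Q Ω) :
    ∃ g : ι → Ω, (∀ i ∈ s, g i ∈ F ⊓ algebraicClosure Q Ω) ∧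
      ∑ i ∈ s, f i * e i = ∑ i ∈ s, g i * e i := by
  obtain ⟨Φ, hadd, hmul, hB, hF⟩ := exists_proj F hsup
  refine ⟨fun i => Φ (f i), fun i hi => hF _ (hf i hi), ?_⟩
  have h0 : Φ 0 = 0 := hB 0 (zero_mem _)
  have hsum : ∀ (t : Finset ι) (u : ι → Ω), Φ (∑ i ∈ t, u i) = ∑ i ∈ t, Φ (u i) := by
    classical
    intro t u
    induction t using Finset.induction_on with
    | empty => simp [h0]
    | insert a t ha ih => rw [Finset.sum_insert ha, Finset.sum_insert ha, hadd, ih]
  conv_lhs => rw [← hB _ hx, hsum]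
  refine Finset.sum_congr rfl fun i hi => ?_
  rw [mul_comm, hmul _ (he i hi), mul_comm]

end Crest.Agent.R013.LemC1_251
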