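import Mathlib

/-!
# R013, leaf AX: the theorem of Ax-Sen-Tate (Ax's elementary proof)   (helper280)

`L/K` algebraic, `L` algebraically closed, characteristic zero; `w` a valuation of `L` with values
in `ℝ≥0`, invariant under `Gal(L/K)`, with `w p < 1`.

* `ax` : if `w (σ a - a) ≤ A` for all `σ : L ≃ₐ[K] L`, there is `b : K` with
  `w (a - b) ≤ A * (w p)⁻¹ ^ 2`.
* `mem_closure_of_fixed` : the version for a larger field `C` in which `L` is dense.
-/

set_option autoImplicit false

open Polynomial
open scoped NNReal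

namespace Crest.Agent.R013.Ax_280

noncomputable section

/-! ### valuations of integers -/

section ints

variable {L : Type*} [Field L] (w : Valuation L ℝ≥0) {p : ℕ}

theorem w_nat_le_one (n : ℕ) : w (n : L) ≤ 1 := by
  induction n with
  | zero => simp
  | succ n ih =>
    push_cast
    exact (w.map_add _ _).trans (max_le ih (by simp))

theorem w_int_le_one (n : ℤ) : w (n : L) ≤ 1 := by
  obtain ⟨m, rfl | rfl⟩ := n.eq_nat_or_neg
  · exact_mod_cast w_nat_le_one w m
  · push_cast
    rw [Valuation.map_neg]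
    exact w_nat_le_one w m

/-- integers prime to `p` are units -/
theorem w_eq_one_of_coprime (hp : w (p : L) < 1) {n : ℕ} (h : Nat.Coprime n p) :
    w (n : L) = 1 := by
  have hb : IsCoprime (n : ℤ) (p : ℤ) := Nat.isCoprime_iff_coprime.mpr h
  obtain ⟨a, b, hab⟩ := hb
  refine le_antisymm (w_nat_le_one w n) ?_
  by_contra hlt
  push Not at hlt
  have h1 : (1 : L) = (a : L) * (n : L) + (b : L) * (p : L) := by
    have := congrArg (Int.cast : ℤ → L) hab.symm
    push_cast at this
    exact this
  have h2 : w (1 : L) < 1 := by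
    rw [h1]
    refine (w.map_add _ _).trans_lt (max_lt ?_ ?_)
    · rw [map_mul]
      exact (mul_le_of_le_one_left zero_le (w_int_le_one w a)).trans_lt hlt
    · rw [map_mul]
      exact (mul_le_of_le_one_left zero_le (w_int_le_one w b)).trans_lt hp
  simp at h2

theorem w_of_not_dvd (hpp : p.Prime) (hp : w (p : L) < 1) {n : ℕ} (h : ¬ p ∣ n) :
    w (n : L) = 1 :=
  w_eq_one_of_coprime w hp ((Nat.Prime.coprime_iff_not_dvd hpp).mpr h).symm

/-- `w (p^k m) = w p ^ k` for `m` prime to `p` -/
theorem w_pow_mul (hpp : p.Prime) (hp : w (p : L) < 1) {k m n : ℕ} (hn : n = p ^ k * m)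
    (h : ¬ p ∣ m) : w (n : L) = w (p : L) ^ k := by
  rw [hn]
  push_cast
  rw [map_mul, map_pow, w_of_not_dvd w hpp hp h, mul_one]

end ints

/-! ### binomial coefficients -/

/-- `p` does not divide `binom (p^k d) (p^k)` for `d` prime to `p` -/
theorem not_dvd_choose {p : ℕ} (hpp : p.Prime) (k d : ℕ) (hd : ¬ p ∣ d) :
    ¬ p ∣ (p ^ k * d).choose (p ^ k) := by
  have : Fact p.Prime := ⟨hpp⟩
  induction k with
  | zero => simpa using hd
  | succ k ih =>
    have h1 := Choose.choose_modEq_choose_mod_mul_choose_div_nat (p := p) (n := p ^ (k + 1) * d)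
      (k := p ^ (k + 1))
    have e1 : p ^ (k + 1) * d % p = 0 := by
      rw [pow_succ', mul_assoc]; exact Nat.mul_mod_right p _
    have e2 : p ^ (k + 1) % p = 0 := by
      rw [pow_succ']; exact Nat.mul_mod_right p _
    have e3 : p ^ (k + 1) * d / p = p ^ k * d := by
      rw [pow_succ', mul_assoc]; exact Nat.mul_div_cancel_left _ hpp.pos
    have e4 : p ^ (k + 1) / p = p ^ k := by
      rw [pow_succ']; exact Nat.mul_div_cancel_left _ hpp.pos
    rw [e1, e2, e3, e4] at h1
    simp only [Nat.choose_self, one_mul] at h1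
    intro h
    apply ih
    have := (Nat.modEq_zero_iff_dvd.mpr h)
    exact Nat.modEq_zero_iff_dvd.mp (h1.symm.trans this)

/-- `binom (p^(k+1)) (p^k)` is exactly divisible by `p` -/
theorem choose_prime_pow {p : ℕ} (hpp : p.Prime) (k : ℕ) :
    ∃ m, (p ^ (k + 1)).choose (p ^ k) = p ^ 1 * m ∧ ¬ p ∣ m := by
  have h1 : (p ^ (k + 1)).choose (p ^ k) ≠ 0 :=
    (Nat.choose_pos (Nat.pow_le_pow_right hpp.pos (Nat.le_succ k))).ne'
  have hf : ((p ^ (k + 1)).choose (p ^ k)).factorization p = 1 := by
    have h2 := Nat.factorization_choose_prime_pow_add_factorization (p := p) (n := k + 1)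
      (k := p ^ k) hpp (Nat.pow_le_pow_right hpp.pos (Nat.le_succ k)) (pow_pos hpp.pos k).ne'
    rw [hpp.factorization_pow] at h2
    simp at h2
    omega
  refine ⟨ordCompl[p] ((p ^ (k + 1)).choose (p ^ k)), ?_, Nat.not_dvd_ordCompl hpp h1⟩
  have := Nat.ordProj_mul_ordCompl_eq_self ((p ^ (k + 1)).choose (p ^ k)) p
  rw [hf] at this
  rw [hf]
  exact this.symm

/-! ### coefficients of products -/

section poly

variable {L : Type*} [Field L] (w : Valuation L ℝ≥0)

theorem coeff_bound {A : ℝ≥0} (s : Multiset L) (h : ∀ c ∈ s, w c ≤ A) :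
    ∀ m, m ≤ s.card → w ((s.map fun c => X + C c).prod.coeff m) ≤ A ^ (s.card - m) := by
  induction s using Multiset.induction_on with
  | empty =>
    intro m hm
    simp at hm
    subst hm
    simp
  | cons a s ih =>
    have ih' := ih (fun c hc => h c (Multiset.mem_cons_of_mem hc))
    have ha : w a ≤ A := h a (Multiset.mem_cons_self a s)
    intro m hm
    rw [Multiset.card_cons] at hm
    rw [Multiset.map_cons, Multiset.prod_cons, Multiset.card_cons, add_mul, coeff_add, coeff_C_mul]
    refine (w.map_add _ _).trans (max_le ?_ ?_)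
    · cases m with
      | zero => simp
      | succ m =>
        rw [coeff_X_mul]
        refine (ih' m (by omega)).trans (le_of_eq ?_)
        congr 1
        omega
    · rw [map_mul]
      rcases Nat.lt_or_ge s.card m with hlt | hge
      · have hdeg : (s.map fun c => X + C c).prod.coeff m = 0 := by
          apply coeff_eq_zero_of_natDegree_lt
          refine lt_of_le_of_lt (natDegree_multiset_prod_le _) ?_
          rw [Multiset.map_map]
          simpa using hlt
        rw [hdeg]
        simp
      · calc w a * w ((s.map fun c => X + C c).prod.coeff m)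
            ≤ A * A ^ (s.card - m) := mul_le_mul' ha (ih' m hge)
          _ = A ^ (s.card + 1 - m) := by
            rw [← pow_succ']
            congr 1
            omega

/-- if a product of `N ≥ 1` numbers is at most `B^N`, one of them is at most `B` -/
theorem exists_le_of_prod_le {B : ℝ≥0} (s : Multiset ℝ≥0) (hs : s ≠ 0)
    (h : s.prod ≤ B ^ s.card) : ∃ x ∈ s, x ≤ B := by
  by_contra hcon
  push Not at hcon
  have key : ∀ t : Multiset ℝ≥0, (∀ x ∈ t, B < x) → t ≠ 0 → B ^ t.card < t.prod := by
    intro t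
    induction t using Multiset.induction_on with
    | empty => intro _ h0; exact absurd rfl h0
    | cons a t ih =>
      intro ht _
      have ha : B < a := ht a (Multiset.mem_cons_self a t)
      rw [Multiset.card_cons, Multiset.prod_cons, pow_succ']
      by_cases h0 : t = 0
      · subst h0
        simpa using ha
      · have := ih (fun x hx => ht x (Multiset.mem_cons_of_mem hx)) h0
        exact mul_lt_mul'' ha this zero_le zero_le
  exact absurd h (not_le.mpr (key s hcon hs))

/-- ROOT LEMMA: a monic polynomial over an algebraically closed field with a small value has a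
root nearby. -/
theorem exists_root_near [IsAlgClosed L] (H : L[X]) (hd : 0 < H.natDegree) (x : L) {B : ℝ≥0}
    (h : w (H.eval x) ≤ w H.leadingCoeff * B ^ H.natDegree) :
    ∃ y, H.IsRoot y ∧ w (x - y) ≤ B := by
  have hH0 : H ≠ 0 := by rintro rfl; simp at hd
  have hsp : H.Splits := IsAlgClosed.splits H
  have h1 : H = C H.leadingCoeff * (H.roots.map fun a => X - C a).prod := hsp.eq_prod_roots
  have hc : H.roots.card = H.natDegree := hsp.natDegree_eq_card_roots.symm
  have h2 : H.eval x = H.leadingCoeff * (H.roots.map fun a => x - a).prod := by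
    conv_lhs => rw [h1]
    rw [eval_mul, eval_C, eval_multiset_prod, Multiset.map_map]
    simp
  have hl : w H.leadingCoeff ≠ 0 := by
    rw [ne_eq, map_eq_zero]
    exact leadingCoeff_ne_zero.mpr hH0
  rw [h2, map_mul] at h
  have h3 : w (H.roots.map fun a => x - a).prod ≤ B ^ H.natDegree :=
    le_of_mul_le_mul_left h (pos_iff_ne_zero.mpr hl)
  have h4 : w (H.roots.map fun a => x - a).prod = (H.roots.map fun a => w (x - a)).prod := by
    rw [map_multiset_prod, Multiset.map_map]
    rfl
  rw [h4] at h3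
  obtain ⟨z, hz, hzB⟩ := exists_le_of_prod_le (B := B) (H.roots.map fun a => w (x - a))
    (by
      intro h0
      have := congrArg Multiset.card h0
      rw [Multiset.card_map, hc, Multiset.card_zero] at this
      omega)
    (by rw [Multiset.card_map, hc]; exact h3)
  obtain ⟨a, ha, rfl⟩ := Multiset.mem_map.mp hz
  exact ⟨a, (mem_roots hH0).mp ha, hzB⟩

/-- the value of a Hasse derivative at a root all of whose conjugates are close -/
theorem hasseDeriv_bound {A : ℝ≥0} (s : Multiset L) (x : L) (h : ∀ c ∈ s, w (x - c) ≤ A) (m : ℕ)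
    (hm : m ≤ s.card) :
    w ((hasseDeriv m (s.map fun c => X - C c).prod).eval x) ≤ A ^ (s.card - m) := by
  rw [← taylor_coeff]
  have h1 : taylor x (s.map fun c => X - C c).prod
      = ((s.map fun c => x - c).map fun c => X + C c).prod := by
    rw [taylor_apply, multiset_prod_comp, Multiset.map_map, Multiset.map_map]
    congr 1
    apply Multiset.map_congr rfl
    intro c _
    simp only [Function.comp_apply, sub_comp, X_comp, C_comp, C_sub]
    ring
  rw [h1]
  have h2 := coeff_bound w (A := A) (s.map fun c => x - c) (by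
    intro c hc
    obtain ⟨a, ha, rfl⟩ := Multiset.mem_map.mp hc
    exact h a ha) m (by rw [Multiset.card_map]; exact hm)
  rwa [Multiset.card_map] at h2

end poly

/-! ### the theorem of Ax -/

section main

variable {K L : Type*} [Field K] [Field L] [Algebra K L] [CharZero L]
  (w : Valuation L ℝ≥0) {p : ℕ}

/-- exponent of the loss: `∑_{i < log_p n} 1/(p^i (p-1))` -/
def ee (p n : ℕ) : ℝ := ∑ i ∈ Finset.range (Nat.log p n), (1 : ℝ) / ((p : ℝ) ^ i * (p - 1))

theorem ee_mono {p : ℕ} (hpp : p.Prime) {m n : ℕ} (h : m ≤ n) : ee p m ≤ ee p n := by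
  unfold ee
  refine Finset.sum_le_sum_of_subset_of_nonneg ?_ ?_
  · intro i hi
    rw [Finset.mem_range] at hi ⊢
    exact hi.trans_le (Nat.log_mono_right h)
  · intro i _ _
    have : (1 : ℝ) < p := by exact_mod_cast hpp.one_lt
    have h2 : (0 : ℝ) < (p : ℝ) - 1 := by linarith
    positivity

theorem ee_pow {p : ℕ} (hpp : p.Prime) {m k : ℕ} (h : m < p ^ (k + 1)) :
    ee p m + 1 / ((p : ℝ) ^ k * (p - 1)) ≤ ee p (p ^ (k + 1)) := by
  have h1 : ee p (p ^ (k + 1)) = ee p (p ^ k) + 1 / ((p : ℝ) ^ k * (p - 1)) := by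
    unfold ee
    rw [Nat.log_pow hpp.one_lt, Nat.log_pow hpp.one_lt, Finset.sum_range_succ]
  rw [h1]
  have h2 : ee p m ≤ ee p (p ^ k) := by
    unfold ee
    rw [Nat.log_pow hpp.one_lt]
    refine Finset.sum_le_sum_of_subset_of_nonneg ?_ ?_
    · intro i hi
      rw [Finset.mem_range] at hi ⊢
      refine hi.trans_le ?_
      rcases Nat.eq_zero_or_pos m with rfl | hm
      · simp
      · have := Nat.log_lt_of_lt_pow hm.ne' h
        omega
    · intro i _ _
      have : (1 : ℝ) < p := by exact_mod_cast hpp.one_lt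
      have h2 : (0 : ℝ) < (p : ℝ) - 1 := by linarith
      positivity
  linarith

theorem ee_le_two {p : ℕ} (hpp : p.Prime) (n : ℕ) : ee p n ≤ 2 := by
  have hp2 : (2 : ℝ) ≤ p := by exact_mod_cast hpp.two_le
  have h2 : (1 : ℝ) ≤ (p : ℝ) - 1 := by linarith
  have h3 : ∀ N : ℕ, ∑ i ∈ Finset.range N, (1 : ℝ) / ((p : ℝ) ^ i * (p - 1)) ≤
      2 - 2 * (1 / 2) ^ N := by
    intro N
    induction N with
    | zero => simp
    | succ N ih =>
      rw [Finset.sum_range_succ]
      have h4 : (1 : ℝ) / ((p : ℝ) ^ N * (p - 1)) ≤ (1 / 2) ^ N := by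
        rw [one_div, one_div, inv_pow]
        apply inv_anti₀ (by positivity)
        calc (2 : ℝ) ^ N ≤ (p : ℝ) ^ N := by gcongr
          _ = (p : ℝ) ^ N * 1 := by ring
          _ ≤ (p : ℝ) ^ N * (p - 1) := by gcongr
      rw [pow_succ]
      linarith
  have h5 := h3 (Nat.log p n)
  have h6 : (0 : ℝ) ≤ (1 / 2) ^ (Nat.log p n) := by positivity
  unfold ee
  linarith

variable [IsAlgClosed L] [Algebra.IsAlgebraic K L]

/-- one step: a nearby element of smaller degree -/
theorem step (hw : ∀ (s : L ≃ₐ[K] L) (x : L), w (s x) = w x) {a : L} {A : ℝ≥0}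
    (ha : ∀ s : L ≃ₐ[K] L, w (s a - a) ≤ A) {m : ℕ} (hm : 0 < m)
    (hmn : m < (minpoly K a).natDegree) {B : ℝ≥0}
    (hB : A ^ ((minpoly K a).natDegree - m) ≤
      w (((minpoly K a).natDegree.choose m : ℕ) : L) * B ^ ((minpoly K a).natDegree - m)) :
    ∃ b : L, w (a - b) ≤ B ∧ (minpoly K b).natDegree ≤ (minpoly K a).natDegree - m := by
  have hK : CharZero K := by
    have := (algebraMap K L).injective
    exact (RingHom.charZero_iff this).mpr inferInstance
  have hcl : IsAlgClosure K L := ⟨inferInstance, inferInstance⟩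
  have hnorm : Normal K L := IsAlgClosure.normal K L
  set f := minpoly K a with hf
  set n := f.natDegree with hn
  have hint : IsIntegral K a := Algebra.IsIntegral.isIntegral a
  have hmonic : f.Monic := minpoly.monic hint
  set F := f.map (algebraMap K L) with hF
  have hFm : F.Monic := hmonic.map _
  have hFd : F.natDegree = n := hmonic.natDegree_map _
  have hsp : F.Splits := IsAlgClosed.splits F
  have h1 : F = (F.roots.map fun c => X - C c).prod := by
    have := hsp.eq_prod_roots
    rwa [hFm.leadingCoeff, C_1, one_mul] at this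
  have hc : F.roots.card = n := by rw [← hFd]; exact hsp.natDegree_eq_card_roots.symm
  have hroots : ∀ c ∈ F.roots, w (a - c) ≤ A := by
    intro c hc
    have hc' : aeval c f = 0 := by
      have := (mem_roots hFm.ne_zero).mp hc
      rwa [IsRoot.def, hF, eval_map_algebraMap] at this
    obtain ⟨s, hs⟩ := minpoly.exists_algEquiv_of_root' (Algebra.IsAlgebraic.isAlgebraic a) hc'
    have h2 := ha s
    rw [hs] at h2
    rwa [Valuation.map_sub_swap]
  set H := hasseDeriv m F with hH
  have hHd : H.natDegree = n - m := by rw [hH, natDegree_hasseDeriv, hFd]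
  have hHl : H.leadingCoeff = ((n.choose m : ℕ) : L) := by
    rw [leadingCoeff, hHd, hH, hasseDeriv_coeff, Nat.sub_add_cancel hmn.le]
    have : F.coeff n = 1 := by rw [← hFd]; exact hFm.coeff_natDegree
    rw [this, mul_one]
  have hval : w (H.eval a) ≤ A ^ (n - m) := by
    have := hasseDeriv_bound w F.roots a hroots m (by rw [hc]; exact hmn.le)
    rw [← h1, hc] at this
    exact this
  obtain ⟨b, hb, hbB⟩ := exists_root_near w H (by rw [hHd]; omega) a (B := B) (by
    rw [hHl, hHd]
    exact hval.trans hB)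
  refine ⟨b, hbB, ?_⟩
  have hH' : H = (hasseDeriv m f).map (algebraMap K L) := by
    rw [hH, hF]
    ext i
    simp [hasseDeriv_coeff]
  have hne : hasseDeriv m f ≠ 0 := by
    intro h0
    have : H.natDegree = 0 := by rw [hH', h0]; simp
    omega
  have hb' : aeval b (hasseDeriv m f) = 0 := by
    rw [IsRoot.def, hH', eval_map_algebraMap] at hb
    exact hb
  refine (natDegree_le_of_dvd (minpoly.dvd K b hb') hne).trans ?_
  exact natDegree_hasseDeriv_le _ _

/-- **Ax's theorem**, precise form -/
theorem ax_aux (hpp : p.Prime) (hp : w (p : L) < 1)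
    (hw : ∀ (s : L ≃ₐ[K] L) (x : L), w (s x) = w x) :
    ∀ (n : ℕ) (a : L) (A : ℝ≥0), (minpoly K a).natDegree ≤ n →
      (∀ s : L ≃ₐ[K] L, w (s a - a) ≤ A) →
      ∃ b : K, w (a - algebraMap K L b) ≤ A * (w (p : L))⁻¹ ^ (ee p n) := by
  have hp0 : w (p : L) ≠ 0 := by
    rw [ne_eq, map_eq_zero]
    exact_mod_cast hpp.ne_zero
  have hP1 : 1 ≤ (w (p : L))⁻¹ := (one_le_inv₀ (pos_iff_ne_zero.mpr hp0)).mpr hp.le
  intro n
  induction n using Nat.strong_induction_on with
  | _ n ih =>
    intro a A hn ha
    have hint : IsIntegral K a := Algebra.IsIntegral.isIntegral a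
    rcases Nat.lt_or_ge (minpoly K a).natDegree n with hlt | hge
    · obtain ⟨b, hb⟩ := ih _ hlt a A le_rfl ha
      refine ⟨b, hb.trans ?_⟩
      gcongr
      exact ee_mono hpp hlt.le
    have hneq : (minpoly K a).natDegree = n := le_antisymm hn hge
    have hn0 : 0 < n := by rw [← hneq]; exact minpoly.natDegree_pos hint
    -- degree one
    by_cases h1 : n = 1
    · have h2 : (minpoly K a).natDegree = 1 := by rw [hneq, h1]
      have h3 : a ∈ (algebraMap K L).range := by
        apply minpoly.mem_range_of_degree_eq_one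
        rw [degree_eq_natDegree (minpoly.ne_zero hint), h2]
        rfl
      obtain ⟨b, hb⟩ := h3
      refine ⟨b, ?_⟩
      rw [hb, sub_self, map_zero]
      exact zero_le
    -- write n = p^k d
    obtain ⟨k, d, hd, hnd⟩ := Nat.exists_eq_pow_mul_and_not_dvd hn0.ne' p hpp.ne_one
    have key : ∀ (m : ℕ) (B : ℝ≥0) (e : ℝ), 0 < m → m < n →
        A ^ (n - m) ≤ w ((n.choose m : ℕ) : L) * B ^ (n - m) → A ≤ B →
        B ≤ A * (w (p : L))⁻¹ ^ e → ee p (n - m) + e ≤ ee p n →
        ∃ b : K, w (a - algebraMap K L b) ≤ A * (w (p : L))⁻¹ ^ (ee p n) := by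
      intro m B e hm0 hmn hB hAB hBe hee
      obtain ⟨c, hc1, hc2⟩ := step w hw ha hm0 (by rw [hneq]; exact hmn) (B := B)
        (by rw [hneq]; exact hB)
      rw [hneq] at hc2
      have hc3 : ∀ s : L ≃ₐ[K] L, w (s c - c) ≤ B := by
        intro s
        have e1 : s c - c = (s a - a) + ((a - c) - s (a - c)) := by
          rw [map_sub]; ring
        rw [e1]
        refine (w.map_add _ _).trans (max_le ((ha s).trans hAB) ?_)
        refine (w.map_sub _ _).trans (max_le hc1 ?_)
        rw [hw]
        exact hc1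
      obtain ⟨b, hb⟩ := ih (n - m) (by omega) c B hc2 hc3
      refine ⟨b, ?_⟩
      have e2 : a - algebraMap K L b = (a - c) + (c - algebraMap K L b) := by ring
      rw [e2]
      have hee0 : 0 ≤ ee p (n - m) := by
        unfold ee
        refine Finset.sum_nonneg fun i _ => ?_
        have : (1 : ℝ) < p := by exact_mod_cast hpp.one_lt
        have h2 : (0 : ℝ) < (p : ℝ) - 1 := by linarith
        positivity
      have h4 : B * (w (p : L))⁻¹ ^ (ee p (n - m)) ≤ A * (w (p : L))⁻¹ ^ (ee p n) := by
        calc B * (w (p : L))⁻¹ ^ (ee p (n - m))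
            ≤ (A * (w (p : L))⁻¹ ^ e) * (w (p : L))⁻¹ ^ (ee p (n - m)) := by gcongr
          _ = A * (w (p : L))⁻¹ ^ (ee p (n - m) + e) := by
            rw [mul_assoc, ← NNReal.rpow_add (inv_ne_zero hp0), add_comm]
          _ ≤ A * (w (p : L))⁻¹ ^ (ee p n) := by
            gcongr
      have h5 : B ≤ B * (w (p : L))⁻¹ ^ (ee p (n - m)) :=
        le_mul_of_one_le_right zero_le (NNReal.one_le_rpow hP1 hee0)
      exact (w.map_add _ _).trans (max_le (hc1.trans (h5.trans h4)) (hb.trans h4))
    by_cases hd1 : d = 1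
    · -- n = p^k, k ≥ 1
      subst hd1
      rw [mul_one] at hnd
      obtain ⟨j, rfl⟩ : ∃ j, k = j + 1 := by
        cases k with
        | zero => exact absurd (by simpa using hnd) h1
        | succ j => exact ⟨j, rfl⟩
      obtain ⟨m', hm', hm''⟩ := choose_prime_pow hpp j
      have hpj : 0 < p ^ j := pow_pos hpp.pos j
      have hlt : p ^ j < p ^ (j + 1) := Nat.pow_lt_pow_right hpp.one_lt (Nat.lt_succ_self j)
      have hval : w ((n.choose (p ^ j) : ℕ) : L) = w (p : L) := by
        rw [hnd, w_pow_mul w hpp hp hm' hm'', pow_one]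
      have hcast : ((n - p ^ j : ℕ) : ℝ) = (p : ℝ) ^ j * (p - 1) := by
        rw [hnd, Nat.cast_sub hlt.le]
        push_cast
        ring
      have hpos : (0 : ℝ) < (p : ℝ) ^ j * (p - 1) := by
        have : (1 : ℝ) < p := by exact_mod_cast hpp.one_lt
        have h2 : (0 : ℝ) < (p : ℝ) - 1 := by linarith
        positivity
      refine key (p ^ j) (A * (w (p : L))⁻¹ ^ ((1 : ℝ) / ((p : ℝ) ^ j * (p - 1))))
        ((1 : ℝ) / ((p : ℝ) ^ j * (p - 1))) hpj (by rw [hnd]; exact hlt) ?_ ?_ le_rfl ?_
      · rw [hval, mul_pow, ← NNReal.rpow_natCast ((w (p : L))⁻¹ ^ _), ← NNReal.rpow_mul, hcast,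
          one_div_mul_cancel hpos.ne', NNReal.rpow_one, mul_comm (A ^ _), ← mul_assoc,
          mul_inv_cancel₀ hp0, one_mul]
      · exact le_mul_of_one_le_right zero_le (NNReal.one_le_rpow hP1 (by positivity))
      · rw [hnd]
        exact ee_pow hpp (by omega)
    · -- n = p^k d, d ≥ 2 prime to p
      have hd2 : 2 ≤ d := by
        rcases Nat.lt_or_ge d 2 with h | h
        · interval_cases d
          · simp at hnd; omega
          · exact absurd rfl hd1
        · exact h
      have hpk : 0 < p ^ k := pow_pos hpp.pos k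
      have hlt : p ^ k < n := by
        rw [hnd]
        nlinarith
      have hval : w ((n.choose (p ^ k) : ℕ) : L) = 1 := by
        rw [hnd]
        exact w_of_not_dvd w hpp hp (not_dvd_choose hpp k d hd)
      refine key (p ^ k) A 0 hpk hlt ?_ le_rfl (by simp) ?_
      · rw [hval, one_mul]
      · rw [add_zero]
        exact ee_mono hpp (Nat.sub_le _ _)

/-- **Ax's theorem** -/
theorem ax (hpp : p.Prime) (hp : w (p : L) < 1)
    (hw : ∀ (s : L ≃ₐ[K] L) (x : L), w (s x) = w x) {a : L} {A : ℝ≥0}
    (ha : ∀ s : L ≃ₐ[K] L, w (s a - a) ≤ A) :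
    ∃ b : K, w (a - algebraMap K L b) ≤ A * (w (p : L))⁻¹ ^ 2 := by
  have hp0 : w (p : L) ≠ 0 := by
    rw [ne_eq, map_eq_zero]
    exact_mod_cast hpp.ne_zero
  have hP1 : 1 ≤ (w (p : L))⁻¹ := (one_le_inv₀ (pos_iff_ne_zero.mpr hp0)).mpr hp.le
  obtain ⟨b, hb⟩ := ax_aux w hpp hp hw _ a A le_rfl ha
  refine ⟨b, hb.trans ?_⟩
  rw [← NNReal.rpow_natCast]
  gcongr
  · exact_mod_cast ee_le_two hpp _

end main

end

end Crest.Agent.R013.Ax_280
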