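import Mathlib
import Crest.Agent.R013.Ax_280

/-!
# R013, leaf LEMC (helper758's LEMMA C): valuation lemmas   (helper251)

Facts on a field `L` with a valuation `w : Valuation L ℝ≥0`, `w p < 1`: `p`-th powers near `1`,
differences of `p`-th roots of unity, roots of `X ^ p - X - c`, Vandermonde mod the maximal ideal.
-/

set_option autoImplicit false
set_option linter.unusedSectionVars false
set_option linter.style.haveILetI false

open scoped NNReal
open Finset

namespace Crest.Agent.R013.LemC2_251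

variable {L : Type*} [Field L] (w : Valuation L ℝ≥0) {p : ℕ}

theorem w_sum_le {ι : Type*} (s : Finset ι) (f : ι → L) (A : ℝ≥0) (h : ∀ i ∈ s, w (f i) ≤ A) :
    w (∑ i ∈ s, f i) ≤ A := by
  exact Valuation.map_sum_le w h

theorem w_sum_lt {ι : Type*} (s : Finset ι) (f : ι → L) (A : ℝ≥0) (hA : A ≠ 0)
    (h : ∀ i ∈ s, w (f i) < A) : w (∑ i ∈ s, f i) < A := by
  exact Valuation.map_sum_lt w hA h

/-- `(1 + y) ^ p = 1 + y ^ p + p y (1 + y s)`, `s` integral. -/
theorem one_add_pow (hpp : p.Prime) (y : L) (hy : w y ≤ 1) :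
    ∃ s : L, w s ≤ 1 ∧ (1 + y) ^ p = 1 + y ^ p + p * y * (1 + y * s) := by
  classical
  have h := add_pow_prime_eq hpp (1 : L) y
  rw [one_pow, mul_one] at h
  have hmem : p - 1 ∈ Ioo 0 p := by
    have := hpp.two_le
    rw [mem_Ioo]; omega
  refine ⟨∑ k ∈ (Ioo 0 p).erase (p - 1), y ^ (p - k - 2) * ((p.choose k / p : ℕ) : L), ?_, ?_⟩
  · apply w_sum_le
    intro k _
    rw [map_mul, map_pow]
    exact mul_le_one' (pow_le_one' hy _) (Ax_280.w_nat_le_one w _)
  · rw [h]
    congr 2
    rw [← Finset.add_sum_erase _ _ hmem, Finset.mul_sum]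
    congr 1
    · have h1 : p.choose (p - 1) = p := by
        rw [Nat.choose_symm hpp.one_le, Nat.choose_one_right]
      have h2 : p - (p - 1) - 1 = 0 := by have := hpp.one_le; omega
      rw [h1, h2, Nat.div_self hpp.pos]
      simp
    · refine Finset.sum_congr rfl fun k hk => ?_
      rw [Finset.mem_erase, mem_Ioo] at hk
      have h3 : p - k - 1 = (p - k - 2) + 1 := by omega
      rw [h3]
      simp only [one_pow]
      ring

theorem w_sub_pow (hpp : p.Prime) (y : L) (hy : w y ≤ 1) :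
    w ((1 + y) ^ p - 1 - y ^ p) ≤ w (p : L) * w y := by
  obtain ⟨s, hs, h⟩ := one_add_pow w hpp y hy
  have h1 : (1 + y) ^ p - 1 - y ^ p = p * y * (1 + y * s) := by rw [h]; ring
  rw [h1, map_mul, map_mul]
  refine mul_le_of_le_one_right' ?_
  refine (w.map_add _ _).trans (max_le (by simp) ?_)
  rw [map_mul]
  exact mul_le_one' hy hs

/-- If `w ((1 + y) ^ p - 1)` is larger than `w p ^ (p / (p - 1))` then it is a `p`-th power of
`w y` and `(1 + y) ^ p - 1 ≈ y ^ p`. -/
theorem large (hpp : p.Prime) (hp0 : w (p : L) ≠ 0) (y : L) (hy : w y ≤ 1)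
    (h : w (p : L) ^ p < w ((1 + y) ^ p - 1) ^ (p - 1)) :
    w ((1 + y) ^ p - 1) = w y ^ p ∧ w ((1 + y) ^ p - 1 - y ^ p) < w y ^ p := by
  have hpos : 0 < w (p : L) := pos_iff_ne_zero.2 hp0
  have hp1 : 0 < p - 1 := by have := hpp.two_le; omega
  have hpe : p - 1 + 1 = p := by have := hpp.two_le; omega
  have key := w_sub_pow w hpp y hy
  have hsplit : (1 + y) ^ p - 1 = y ^ p + ((1 + y) ^ p - 1 - y ^ p) := by ring
  -- first `w p < w y ^ (p-1)`
  have h1 : w (p : L) < w y ^ (p - 1) := by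
    by_contra hcon
    push Not at hcon
    have h2 : w ((1 + y) ^ p - 1) ≤ w (p : L) * w y := by
      rw [hsplit]
      refine (w.map_add _ _).trans (max_le ?_ key)
      have : w (y ^ p) = w y ^ (p - 1) * w y := by rw [map_pow, ← pow_succ, hpe]
      rw [this]
      exact mul_le_mul_left hcon _
    have h3 : w ((1 + y) ^ p - 1) ^ (p - 1) ≤ w (p : L) ^ p := by
      calc w ((1 + y) ^ p - 1) ^ (p - 1) ≤ (w (p : L) * w y) ^ (p - 1) :=
            pow_le_pow_left' h2 _
        _ = w (p : L) ^ (p - 1) * w y ^ (p - 1) := mul_pow _ _ _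
        _ ≤ w (p : L) ^ (p - 1) * w (p : L) := mul_le_mul_right hcon _
        _ = w (p : L) ^ p := by rw [← pow_succ, hpe]
    exact absurd h (not_lt.2 h3)
  have hy0 : 0 < w y := by
    rw [pos_iff_ne_zero]
    intro h0
    rw [h0, zero_pow hp1.ne'] at h1
    exact absurd h1 (not_lt.2 zero_le)
  have h4 : w ((1 + y) ^ p - 1 - y ^ p) < w y ^ p := by
    refine key.trans_lt ?_
    calc w (p : L) * w y < w y ^ (p - 1) * w y := by
          exact mul_lt_mul_of_pos_right h1 hy0
      _ = w y ^ p := by rw [← pow_succ, hpe]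
  refine ⟨?_, h4⟩
  rw [hsplit, Valuation.map_add_eq_of_lt_left]
  · rw [map_pow]
  · rw [map_pow]; exact h4

/-- The distance between a nontrivial `p`-th root of unity and `1`. -/
theorem root_of_unity (hpp : p.Prime) (hp : w (p : L) < 1) (ξ : L) (h1 : ξ ^ p = 1) (h2 : ξ ≠ 1) :
    w (ξ - 1) ^ (p - 1) = w (p : L) := by
  have hp1 : 0 < p - 1 := by have := hpp.two_le; omega
  have hpe : p - 1 + 1 = p := by have := hpp.two_le; omega
  have hw : w ξ = 1 := by
    have : w ξ ^ p = 1 := by rw [← map_pow, h1, map_one]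
    exact (pow_eq_one_iff_of_nonneg zero_le hpp.pos.ne').1 this
  have he : w (ξ - 1) ≤ 1 := (w.map_sub _ _).trans (by simp [hw])
  obtain ⟨s, hs, h⟩ := one_add_pow w hpp (ξ - 1) he
  have he0 : ξ - 1 ≠ 0 := sub_ne_zero.2 h2
  have h3 : (ξ - 1) ^ (p - 1) = - (p * (1 + (ξ - 1) * s)) := by
    have h4 : (ξ - 1) * ((ξ - 1) ^ (p - 1) + p * (1 + (ξ - 1) * s)) = 0 := by
      have h5 : (1 + (ξ - 1)) = ξ := by ring
      rw [h5, h1] at h
      have h6 : (ξ - 1) ^ p = (ξ - 1) ^ (p - 1) * (ξ - 1) := by rw [← pow_succ, hpe]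
      rw [h6] at h
      linear_combination -h
    rcases mul_eq_zero.1 h4 with h5 | h5
    · exact absurd h5 he0
    · linear_combination h5
  have hint : w (1 + (ξ - 1) * s) ≤ 1 := by
    refine (w.map_add _ _).trans (max_le (by simp) ?_)
    rw [map_mul]
    exact mul_le_one' he hs
  have h5 : w (ξ - 1) ^ (p - 1) ≤ w (p : L) := by
    rw [← map_pow, h3, Valuation.map_neg, map_mul]
    exact mul_le_of_le_one_right' hint
  have h6 : w (ξ - 1) < 1 := by
    by_contra hcon
    push Not at hcon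
    exact absurd (h5.trans_lt hp) (not_lt.2 (one_le_pow_of_one_le' hcon _))
  have h7 : w (1 + (ξ - 1) * s) = 1 := by
    rw [Valuation.map_add_eq_of_lt_left, map_one]
    rw [map_mul, map_one]
    exact mul_lt_one_of_lt_of_le h6 hs
  rw [← map_pow, h3, Valuation.map_neg, map_mul, h7, mul_one]

/-- A `p`-th root of an element near `1` can be chosen near `1`. -/
theorem exists_root_near (hpp : p.Prime) [IsAlgClosed L] [CharZero L] (x : L)
    (hx : w (1 - x) ^ (p - 1) < w (p : L) ^ p) :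
    ∃ y : L, y ^ p = x ∧ w (1 - y) ^ (p - 1) < w (p : L) := by
  obtain ⟨y, hy⟩ := IsAlgClosed.exists_pow_nat_eq x hpp.pos
  haveI : NeZero p := ⟨hpp.pos.ne'⟩
  haveI : NeZero (p : L) := ⟨by exact_mod_cast hpp.pos.ne'⟩
  obtain ⟨ζ, hζ⟩ := HasEnoughRootsOfUnity.exists_primitiveRoot L p
  have hprod := hζ.pow_sub_pow_eq_prod_sub_mul (1 : L) y hpp.pos
  rw [one_pow, hy] at hprod
  have hcard : (Polynomial.nthRootsFinset p (1 : L)).card = p := hζ.card_nthRootsFinset
  by_contra hcon
  push Not at hcon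
  have h1 : ∀ ξ ∈ Polynomial.nthRootsFinset p (1 : L), w (p : L) ≤ w (1 - ξ * y) ^ (p - 1) := by
    intro ξ hξ
    apply hcon
    rw [Polynomial.mem_nthRootsFinset hpp.pos] at hξ
    rw [mul_pow, hξ, one_mul, hy]
  have h2 : w (p : L) ^ p ≤ w (1 - x) ^ (p - 1) := by
    rw [hprod, map_prod, ← Finset.prod_pow]
    calc w (p : L) ^ p = ∏ _ξ ∈ Polynomial.nthRootsFinset p (1 : L), w (p : L) := by
          rw [Finset.prod_const, hcard]
      _ ≤ _ := Finset.prod_le_prod' h1
  exact absurd hx (not_lt.2 h2)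

/-! ### the residue map as a total function -/

open Classical in
/-- reduction of an integral element (junk `0` otherwise) -/
noncomputable def res (x : L) : IsLocalRing.ResidueField w.valuationSubring :=
  if h : w x ≤ 1 then IsLocalRing.residue _ ⟨x, h⟩ else 0

theorem res_of (x : L) (h : w x ≤ 1) : res w x = IsLocalRing.residue w.valuationSubring ⟨x, h⟩ :=
  dif_pos h

theorem res_add {x y : L} (hx : w x ≤ 1) (hy : w y ≤ 1) : res w (x + y) = res w x + res w y := by
  have h : w (x + y) ≤ 1 := (w.map_add _ _).trans (max_le hx hy)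
  rw [res_of w _ h, res_of w _ hx, res_of w _ hy, ← map_add]
  rfl

theorem res_sub {x y : L} (hx : w x ≤ 1) (hy : w y ≤ 1) : res w (x - y) = res w x - res w y := by
  have h : w (x - y) ≤ 1 := (w.map_sub _ _).trans (max_le hx hy)
  rw [res_of w _ h, res_of w _ hx, res_of w _ hy, ← map_sub]
  rfl

theorem res_mul {x y : L} (hx : w x ≤ 1) (hy : w y ≤ 1) : res w (x * y) = res w x * res w y := by
  have h : w (x * y) ≤ 1 := by rw [map_mul]; exact mul_le_one' hx hy
  rw [res_of w _ h, res_of w _ hx, res_of w _ hy, ← map_mul]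
  rfl

theorem res_pow {x : L} (hx : w x ≤ 1) (n : ℕ) : res w (x ^ n) = res w x ^ n := by
  have h : w (x ^ n) ≤ 1 := by rw [map_pow]; exact pow_le_one' hx n
  rw [res_of w _ h, res_of w _ hx, ← map_pow]
  rfl

theorem res_natCast (n : ℕ) : res w (n : L) = n := by
  rw [res_of w _ (Ax_280.w_nat_le_one w n), ← map_natCast (IsLocalRing.residue w.valuationSubring)]
  rfl

theorem res_one : res w (1 : L) = 1 := by
  simpa using res_natCast w 1

theorem res_zero : res w (0 : L) = 0 := by
  simpa using res_natCast w 0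

theorem res_sum {ι : Type*} (s : Finset ι) (f : ι → L) (h : ∀ i ∈ s, w (f i) ≤ 1) :
    res w (∑ i ∈ s, f i) = ∑ i ∈ s, res w (f i) := by
  classical
  induction s using Finset.induction_on with
  | empty => simp [res_zero]
  | insert a t ha ih =>
    rw [Finset.sum_insert ha, Finset.sum_insert ha, res_add w (h a (Finset.mem_insert_self _ _)),
      ih (fun i hi => h i (Finset.mem_insert_of_mem hi))]
    exact w_sum_le w _ _ _ (fun i hi => h i (Finset.mem_insert_of_mem hi))

theorem res_eq_zero {x : L} (hx : w x ≤ 1) : res w x = 0 ↔ w x < 1 := by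
  rw [res_of w _ hx, IsLocalRing.residue_eq_zero_iff, Valuation.mem_maximalIdeal_iff]

theorem res_eq {x y : L} (hx : w x ≤ 1) (hy : w y ≤ 1) : res w x = res w y ↔ w (x - y) < 1 := by
  rw [← sub_eq_zero, ← res_sub w hx hy, res_eq_zero]
  exact (w.map_sub _ _).trans (max_le hx hy)

theorem w_sub_eq_one {x y : L} (hx : w x ≤ 1) (hy : w y ≤ 1) (h : res w x ≠ res w y) :
    w (x - y) = 1 := by
  refine le_antisymm ((w.map_sub _ _).trans (max_le hx hy)) ?_
  by_contra hcon
  push Not at hcon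
  exact h ((res_eq w hx hy).2 hcon)

/-- Vandermonde modulo the maximal ideal (rows). -/
theorem vdm_rows {n : ℕ} (f v : Fin n → L) (hf : ∀ i, w (f i) ≤ 1) (hv : ∀ i, w (v i) ≤ 1)
    (hinj : ∀ i j, i ≠ j → ¬ w (f i - f j) < 1)
    (h : ∀ j, w (∑ i : Fin n, v i * f j ^ (i : ℕ)) < 1) (i : Fin n) : w (v i) < 1 := by
  have h1 : ∀ i j : Fin n, w (v i * f j ^ (i : ℕ)) ≤ 1 := by
    intro i j
    rw [map_mul, map_pow]
    exact mul_le_one' (hv i) (pow_le_one' (hf j) _)
  have h2 : (fun i => res w (v i)) = 0 := by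
    refine Matrix.eq_zero_of_forall_index_sum_mul_pow_eq_zero (f := fun i => res w (f i)) ?_ ?_
    · intro i j hij
      by_contra hne
      exact hinj i j hne ((res_eq w (hf i) (hf j)).1 hij)
    · intro j
      have h3 := (res_eq_zero w (w_sum_le w _ _ 1 (fun i _ => h1 i j))).2 (h j)
      rw [res_sum w _ _ (fun i _ => h1 i j)] at h3
      rw [← h3]
      refine Finset.sum_congr rfl fun i _ => ?_
      rw [res_mul w (hv i), res_pow w (hf j)]
      rw [map_pow]
      exact pow_le_one' (hf j) _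
  exact (res_eq_zero w (hv i)).1 (congrFun h2 i)

/-- Vandermonde modulo the maximal ideal (columns), with all coefficients `1`. -/
theorem vdm_cols {n : ℕ} (hn : 0 < n) (f : Fin n → L) (hf : ∀ i, w (f i) ≤ 1)
    (hinj : ∀ i j, i ≠ j → ¬ w (f i - f j) < 1) :
    ∃ i : Fin n, w (∑ j : Fin n, f j ^ (i : ℕ)) = 1 := by
  have hle : ∀ i : Fin n, w (∑ j : Fin n, f j ^ (i : ℕ)) ≤ 1 := by
    intro i
    apply w_sum_le
    intro j _
    rw [map_pow]
    exact pow_le_one' (hf j) _
  by_contra hcon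
  push Not at hcon
  have h2 : (fun _ : Fin n => (1 : IsLocalRing.ResidueField w.valuationSubring)) = 0 := by
    refine Matrix.eq_zero_of_forall_pow_sum_mul_pow_eq_zero (f := fun i => res w (f i)) ?_ ?_
    · intro i j hij
      by_contra hne
      exact hinj i j hne ((res_eq w (hf i) (hf j)).1 hij)
    · intro i
      have h3 := (res_eq_zero w (hle i)).2 (lt_of_le_of_ne (hle i) (hcon i))
      rw [res_sum w] at h3
      · rw [← h3]
        refine Finset.sum_congr rfl fun j _ => ?_
        rw [one_mul, res_pow w (hf j)]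
      · intro j _
        rw [map_pow]
        exact pow_le_one' (hf j) _
  exact one_ne_zero (congrFun h2 ⟨0, hn⟩)

/-! ### roots of `X ^ p - X - c` -/

theorem as_int (hpp : p.Prime) {y c : L} (hc : w c ≤ 1) (h : y ^ p - y = c) : w y ≤ 1 := by
  by_contra hcon
  push Not at hcon
  have h1 : w y < w (y ^ p) := by
    rw [map_pow]
    exact lt_self_pow₀ hcon hpp.one_lt
  have h2 : w (y ^ p - y) = w (y ^ p) := Valuation.map_sub_eq_of_lt_left w h1
  rw [h] at h2
  exact absurd (hcon.trans (h1.trans_le (h2.symm.le.trans hc))) (lt_irrefl _)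

/-- `(y + d)^p = y^p + d^p + p y d r` with `r` integral. -/
theorem add_pow' (hpp : p.Prime) {y d : L} (hy : w y ≤ 1) (hd : w d ≤ 1) :
    ∃ r : L, w r ≤ 1 ∧ (y + d) ^ p = y ^ p + d ^ p + p * y * d * r := by
  refine ⟨_, ?_, add_pow_prime_eq hpp y d⟩
  apply w_sum_le
  intro k _
  rw [map_mul, map_mul, map_pow, map_pow]
  exact mul_le_one' (mul_le_one' (pow_le_one' hy _) (pow_le_one' hd _)) (Ax_280.w_nat_le_one w _)

theorem as_sep (hpp : p.Prime) (hp : w (p : L) < 1) {y y' : L} (hy : w y ≤ 1) (hy' : w y' ≤ 1)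
    (h : y ^ p - y = y' ^ p - y') (hlt : w (y' - y) < 1) : y' = y := by
  have hp1 : 0 < p - 1 := by have := hpp.two_le; omega
  have hpe : p - 1 + 1 = p := by have := hpp.two_le; omega
  obtain ⟨r, hr, h1⟩ := add_pow' w hpp hy hlt.le
  rw [add_sub_cancel] at h1
  set d := y' - y with hd
  have h2 : d * (d ^ (p - 1) + p * y * r - 1) = 0 := by
    have h3 : d ^ p = d ^ (p - 1) * d := by rw [← pow_succ, hpe]
    rw [h3] at h1
    have h4 : y' = y + d := by rw [hd]; ring
    have h5 : y ^ p - y = y' ^ p - (y + d) := by rw [← h4]; exact h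
    linear_combination -h5 - h1
  rcases mul_eq_zero.1 h2 with h3 | h3
  · rw [hd] at h3
    exact sub_eq_zero.1 h3
  · exfalso
    have h4 : w (d ^ (p - 1) + p * y * r) < 1 := by
      refine w.map_add_lt ?_ ?_
      · rw [map_pow]
        exact pow_lt_one' hlt hp1.ne'
      · rw [map_mul, map_mul]
        exact mul_lt_one_of_lt_of_le (mul_lt_one_of_lt_of_le hp hy) hr
    rw [sub_eq_zero.1 h3, map_one] at h4
    exact lt_irrefl _ h4

theorem as_diff (hpp : p.Prime) (hp : w (p : L) < 1) {y y' : L} (hy : w y ≤ 1) (hy' : w y' ≤ 1)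
    (h : y ^ p - y = y' ^ p - y') : ∃ m : ℕ, w (y' - (y + m)) < 1 := by
  haveI : Fact p.Prime := ⟨hpp⟩
  have hd1 : w (y' - y) ≤ 1 := (w.map_sub _ _).trans (max_le hy' hy)
  obtain ⟨r, hr, h1⟩ := add_pow' w hpp hy hd1
  rw [add_sub_cancel] at h1
  set d := y' - y with hd
  haveI : CharP (IsLocalRing.ResidueField w.valuationSubring) p := by
    rw [CharP.charP_iff_prime_eq_zero hpp, ← res_natCast w p,
      res_eq_zero w (Ax_280.w_nat_le_one w p)]
    exact hp
  have h2 : res w d ^ p = res w d := by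
    rw [← res_pow w hd1, res_eq w (by rw [map_pow]; exact pow_le_one' hd1 _) hd1]
    have h3 : d ^ p - d = - (p * y * d * r) := by
      have h5 : y ^ p - y = y' ^ p - (y + d) := by
        have h4 : y' = y + d := by rw [hd]; ring
        rw [← h4]; exact h
      linear_combination -h1 - h5
    rw [h3, Valuation.map_neg, map_mul, map_mul, map_mul]
    exact mul_lt_one_of_lt_of_le (mul_lt_one_of_lt_of_le (mul_lt_one_of_lt_of_le hp hy) hd1) hr
  have h6 : ∃ m : ℕ, res w d = m := by
    rw [← Subfield.mem_bot_iff_pow_eq_self, ← ZMod.fieldRange_castHom_eq_bot p] at h2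
    obtain ⟨z, hz⟩ := h2
    obtain ⟨m, rfl⟩ := ZMod.natCast_zmod_surjective z
    exact ⟨m, by rw [← hz]; simp⟩
  obtain ⟨m, hm⟩ := h6
  refine ⟨m, ?_⟩
  rw [← res_natCast w m, res_eq w hd1 (Ax_280.w_nat_le_one w m)] at hm
  have h7 : y' - (y + m) = d - m := by rw [hd]; ring
  rw [h7]
  exact hm

end Crest.Agent.R013.LemC2_251
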