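import Mathlib
import Crest.Agent.R013.Ax_280

/-!
# R013, leaf LEMC (helper758's LEMMA C): finite dimensional `ℚ_p`-subspaces   (helper251)

`Ω` a field over `ℚ_[p]` with a valuation `w : Valuation Ω ℝ≥0` extending the `p`-adic norm,
`V` a finite dimensional `ℚ_[p]`-subspace:
* `net` : the unit ball of `V` has finite `ε`-nets;
* `closed` : `V` is closed for `w`.
-/

set_option autoImplicit false
set_option linter.unusedSectionVars false
set_option linter.style.haveILetI false

open scoped NNReal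

namespace Crest.Agent.R013.LemC3_251

variable {p : ℕ} [Fact p.Prime] {Ω : Type*} [Field Ω] [Algebra ℚ_[p] Ω]
  (w : Valuation Ω ℝ≥0)

/-- the absolute value of a rank one valuation -/
noncomputable def absv : AbsoluteValue Ω ℝ where
  toFun := fun x => (w x : ℝ)
  map_mul' := fun x y => by simp
  nonneg' := fun x => NNReal.coe_nonneg _
  eq_zero' := fun x => by simp
  add_le' := fun x y => by
    have h := w.map_add x y
    have h2 : w (x + y) ≤ w x + w y :=
      h.trans (max_le (le_add_of_nonneg_right zero_le) (le_add_of_nonneg_left zero_le))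
    exact_mod_cast h2

/-- the normed space structure over `ℚ_[p]` -/
@[reducible] noncomputable def nspace (hw : ∀ q : ℚ_[p], w (algebraMap ℚ_[p] Ω q) = ‖q‖₊) :
    letI := (absv w).toNormedField
    NormedSpace ℚ_[p] Ω :=
  letI := (absv w).toNormedField
  { norm_smul_le := fun q x => by
      rw [Algebra.smul_def]
      have : ‖(algebraMap ℚ_[p] Ω q) * x‖ = ‖q‖ * ‖x‖ := by
        rw [norm_mul]
        congr 1
        change (w (algebraMap ℚ_[p] Ω q) : ℝ) = ‖q‖
        rw [hw]; rfl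
      exact this.le }

theorem closed (hw : ∀ q : ℚ_[p], w (algebraMap ℚ_[p] Ω q) = ‖q‖₊) (V : Submodule ℚ_[p] Ω)
    [FiniteDimensional ℚ_[p] V] (x : Ω) (hx : ∀ ε : ℝ≥0, 0 < ε → ∃ v ∈ V, w (x - v) < ε) :
    x ∈ V := by
  letI := (absv w).toNormedField
  letI := nspace w hw
  have hc : IsClosed (V : Set Ω) := Submodule.closed_of_finiteDimensional V
  have : x ∈ closure (V : Set Ω) := by
    rw [Metric.mem_closure_iff]
    intro ε hε
    obtain ⟨v, hv, h⟩ := hx ⟨ε, hε.le⟩ hε
    refine ⟨v, hv, ?_⟩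
    rw [dist_eq_norm]
    exact h
  rwa [hc.closure_eq] at this

theorem net (hw : ∀ q : ℚ_[p], w (algebraMap ℚ_[p] Ω q) = ‖q‖₊) (V : Submodule ℚ_[p] Ω)
    [FiniteDimensional ℚ_[p] V] (ε : ℝ≥0) (hε : 0 < ε) :
    ∃ T : Finset Ω, (∀ t ∈ T, t ∈ V) ∧ ∀ x ∈ V, w x ≤ 1 → ∃ t ∈ T, w (x - t) < ε := by
  classical
  letI := (absv w).toNormedField
  letI := nspace w hw
  haveI : ProperSpace V := FiniteDimensional.proper ℚ_[p] V
  have hc : IsCompact (Metric.closedBall (0 : V) 1) := isCompact_closedBall _ _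
  obtain ⟨t, ht, hcov⟩ := hc.finite_cover_balls (e := (ε : ℝ)) (by exact_mod_cast hε)
  obtain ⟨htf, hcov⟩ := hcov
  refine ⟨htf.toFinset.image (fun v : V => (v : Ω)), ?_, ?_⟩
  · intro y hy
    rw [Finset.mem_image] at hy
    obtain ⟨v, -, rfl⟩ := hy
    exact v.2
  · intro x hx hx1
    have h1 : (⟨x, hx⟩ : V) ∈ Metric.closedBall (0 : V) 1 := by
      rw [Metric.mem_closedBall, dist_zero_right]
      exact hx1
    have h2 := hcov h1
    simp only [Set.mem_iUnion, Metric.mem_ball, exists_prop] at h2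
    obtain ⟨v, hv, h3⟩ := h2
    refine ⟨v, Finset.mem_image_of_mem _ (htf.mem_toFinset.2 hv), ?_⟩
    rw [dist_eq_norm] at h3
    exact h3

theorem charZero (_ : Algebra ℚ_[p] Ω) : CharZero Ω :=
  (RingHom.charZero_iff (algebraMap ℚ_[p] Ω).injective).mp inferInstance

theorem w_p (hw : ∀ q : ℚ_[p], w (algebraMap ℚ_[p] Ω q) = ‖q‖₊) :
    w (p : Ω) < 1 ∧ w (p : Ω) ≠ 0 := by
  have h1 : (p : Ω) = algebraMap ℚ_[p] Ω (p : ℚ_[p]) := by simp
  have hpp : p.Prime := Fact.out
  rw [h1, hw]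
  constructor
  · have := Padic.norm_p_lt_one (p := p)
    exact_mod_cast this
  · rw [Ne, nnnorm_eq_zero]
    exact_mod_cast hpp.pos.ne'

end Crest.Agent.R013.LemC3_251
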