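import Mathlib
import Crest.Agent.R013.LemC1_251
import Crest.Agent.R013.LemC2_251
import Crest.Agent.R013.LemC3_251

/-!
# R013, leaf LEMC (helper758's LEMMA C): `p`-th power classes   (helper251)

`F ⊆ Ω` "henselian" (`w` is `Gal(Ω/F)`-invariant), `Ω = F·B`, `B` the algebraic closure of `ℚ_p`,
`F ∩ B` finite over `ℚ_p`.

* `near_one` : elements of `F` near `1` are `p`-th powers in `F`;
* `finite_classes` : `F*/F*^p` is finite;
* `divisible`, `perfect` : if the value group of `F` is not discrete it is `p`-divisible and the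
  residue field of `F` is perfect;
* `discrete` : if the value group of `F` is discrete then `F ⊆ B`.
-/

set_option autoImplicit false
set_option linter.unusedSectionVars false
set_option linter.style.haveILetI false
set_option linter.unusedVariables false

open scoped NNReal
open IntermediateField Crest.Agent.R013

namespace Crest.Agent.R013.LemC4_251

variable {p : ℕ} [hpF : Fact p.Prime] {Ω : Type*} [Field Ω] [Algebra ℚ_[p] Ω] [IsAlgClosed Ω]
  (w : Valuation Ω ℝ≥0)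

/-- the standing hypotheses of LEMMA C -/
structure Hyp (w : Valuation Ω ℝ≥0) (F : IntermediateField ℚ_[p] Ω) : Prop where
  ext : ∀ q : ℚ_[p], w (algebraMap ℚ_[p] Ω q) = ‖q‖₊
  alg : Algebra.IsAlgebraic F Ω
  inv : ∀ (σ : Ω ≃ₐ[F] Ω) (a : Ω), w (σ a) = w a
  sup : F ⊔ algebraicClosure ℚ_[p] Ω = ⊤
  fin : FiniteDimensional ℚ_[p] (F ⊓ algebraicClosure ℚ_[p] Ω : IntermediateField ℚ_[p] Ω)

variable {w} {F : IntermediateField ℚ_[p] Ω}

theorem near_one (H : Hyp w F) (x : Ω) (hx : x ∈ F) (h : w (1 - x) ^ (p - 1) < w (p : Ω) ^ p) :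
    ∃ y ∈ F, y ^ p = x := by
  have hpp : p.Prime := hpF.out
  haveI := LemC3_251.charZero (p := p) (Ω := Ω) inferInstance
  obtain ⟨hp1, hp0⟩ := LemC3_251.w_p w H.ext
  haveI := H.alg
  have hq : 0 < p - 1 := by have := hpp.two_le; omega
  have hx1 : w (1 - x) < 1 := by
    by_contra hcon
    push Not at hcon
    have h1 : (1 : ℝ≥0) ≤ w (1 - x) ^ (p - 1) := one_le_pow_of_one_le' hcon _
    have h2 : w (p : Ω) ^ p ≤ 1 := pow_le_one' hp1.le _
    exact absurd (h1.trans_lt h) (not_lt.2 h2)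
  have hwx : w x = 1 := by
    have : x = 1 - (1 - x) := by ring
    rw [this, Valuation.map_sub_eq_of_lt_left, map_one]
    rw [map_one]; exact hx1
  obtain ⟨y, hy, hy1⟩ := LemC2_251.exists_root_near w hpp x h
  refine ⟨y, ?_, hy⟩
  have hwy : w y = 1 := by
    have : w y ^ p = 1 := by rw [← map_pow, hy, hwx]
    exact (pow_eq_one_iff_of_nonneg zero_le hpp.pos.ne').1 this
  have hy0 : y ≠ 0 := by
    rintro rfl
    rw [map_zero] at hwy
    exact zero_ne_one hwy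
  apply LemC1_251.fixed_mem F
  intro σ
  by_contra hne
  have h1 : (σ y / y) ^ p = 1 := by
    rw [div_pow, ← map_pow, hy, LemC1_251.apply_mem F σ x hx, div_self]
    rintro rfl
    rw [map_zero] at hwx
    exact zero_ne_one hwx
  have h2 : σ y / y ≠ 1 := fun h3 => hne ((div_eq_one_iff_eq hy0).1 h3)
  have h3 := LemC2_251.root_of_unity w hpp hp1 _ h1 h2
  have h4 : σ y / y - 1 = (σ y - y) / y := by field_simp
  have h5 : w (σ y - y) ≤ w (1 - y) := by
    have h6 : σ y - y = (1 - y) - σ (1 - y) := by rw [map_sub, map_one]; ring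
    rw [h6]
    refine (w.map_sub _ _).trans ?_
    rw [H.inv, max_self]
  rw [h4, map_div₀, hwy, div_one] at h3
  exact absurd hy1 (not_lt.2 (h3 ▸ pow_le_pow_left' h5 _))

/-- quantitative form used below -/
theorem near_one' (H : Hyp w F) (x : Ω) (hx : x ∈ F) (h : w (1 - x) < w (p : Ω) ^ p) :
    ∃ y ∈ F, y ^ p = x := by
  have hpp : p.Prime := hpF.out
  obtain ⟨hp1, hp0⟩ := LemC3_251.w_p w H.ext
  apply near_one H x hx
  have hq : 0 < p - 1 := by have := hpp.two_le; omega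
  have h1 : w (1 - x) ≤ 1 := h.le.trans (pow_le_one' hp1.le _)
  calc w (1 - x) ^ (p - 1) ≤ w (1 - x) ^ 1 := pow_le_pow_right_of_le_one' h1 hq
    _ = w (1 - x) := pow_one _
    _ < _ := h

theorem kummer (H : Hyp w F) (a : Ω) (ha : a ∈ F) (ha0 : a ≠ 0) :
    ∃ c ∈ F ⊓ algebraicClosure ℚ_[p] Ω, ∃ f ∈ F, c ≠ 0 ∧ f ≠ 0 ∧ a = c * f ^ p := by
  have hpp : p.Prime := hpF.out
  haveI := LemC3_251.charZero (p := p) (Ω := Ω) inferInstance
  haveI := H.alg
  haveI : NeZero p := ⟨hpp.pos.ne'⟩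
  haveI : NeZero (p : Ω) := ⟨by exact_mod_cast hpp.pos.ne'⟩
  obtain ⟨ζ, hζ⟩ : ∃ ζ : Ω, IsPrimitiveRoot ζ p := HasEnoughRootsOfUnity.exists_primitiveRoot Ω p
  have hζB : ζ ∈ algebraicClosure ℚ_[p] Ω := by
    rw [mem_algebraicClosure_iff]
    exact (hζ.isIntegral hpp.pos).tower_top.isAlgebraic
  exact LemC1_251.kummer F H.sup hpp.pos hζ hζB a ha ha0

theorem net (H : Hyp w F) (ε : ℝ≥0) (hε : 0 < ε) :
    ∃ T : Finset Ω, (∀ t ∈ T, t ∈ F ⊓ algebraicClosure ℚ_[p] Ω) ∧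
      ∀ x ∈ F ⊓ algebraicClosure ℚ_[p] Ω, w x ≤ 1 → ∃ t ∈ T, w (x - t) < ε := by
  haveI : FiniteDimensional ℚ_[p] (Subalgebra.toSubmodule
    (F ⊓ algebraicClosure ℚ_[p] Ω : IntermediateField ℚ_[p] Ω).toSubalgebra) := H.fin
  exact LemC3_251.net w H.ext (Subalgebra.toSubmodule
    (F ⊓ algebraicClosure ℚ_[p] Ω : IntermediateField ℚ_[p] Ω).toSubalgebra) ε hε

theorem finite_classes (H : Hyp w F) : ∃ S : Finset Ω, ∀ a ∈ F, a ≠ 0 →
    ∃ s ∈ S, s ∈ F ∧ s ≠ 0 ∧ ∃ f ∈ F, f ≠ 0 ∧ a = s * f ^ p := by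
  classical
  have hpp : p.Prime := hpF.out
  haveI := LemC3_251.charZero (p := p) (Ω := Ω) inferInstance
  obtain ⟨hp1, hp0⟩ := LemC3_251.w_p w H.ext
  have hpΩ : (p : Ω) ≠ 0 := by
    intro h; rw [h, map_zero] at hp0; exact hp0 rfl
  haveI := H.alg
  have hwpos : 0 < w (p : Ω) := pos_iff_ne_zero.2 hp0
  obtain ⟨T, hT, hcov⟩ := net H (w (p : Ω) ^ (2 * p)) (by positivity)
  have hpK : (p : Ω) ∈ F ⊓ algebraicClosure ℚ_[p] Ω := _root_.natCast_mem _ p
  refine ⟨T, fun a ha ha0 => ?_⟩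
  obtain ⟨c, hc, f, hf, hc0, hf0, hac⟩ := kummer H a ha ha0
  -- normalise `c`
  have hy : (1 : ℝ≥0) < (w (p : Ω) ^ p)⁻¹ :=
    (one_lt_inv₀ (by positivity)).2 (pow_lt_one' hp1 hpp.pos.ne')
  have hwc0 : w c ≠ 0 := by rwa [Ne, map_eq_zero]
  obtain ⟨n, hn1, hn2⟩ := NNReal.exists_mem_Ico_zpow hwc0 hy
  set g : Ω := (p : Ω) ^ (n + 1) with hg
  have hgK : g ∈ F ⊓ algebraicClosure ℚ_[p] Ω := zpow_mem hpK _
  have hg0 : g ≠ 0 := zpow_ne_zero _ hpΩ
  have hwg : w (g ^ p) = (((w (p : Ω) ^ p)⁻¹) ^ (n + 1))⁻¹ := by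
    rw [map_pow, hg, map_zpow₀, ← inv_zpow, inv_inv, ← zpow_natCast, ← zpow_natCast,
      ← zpow_mul, ← zpow_mul, mul_comm]
  have hc1 : w (c * g ^ p) ≤ 1 := by
    rw [map_mul, hwg]
    exact (mul_inv_le_one_of_le₀ hn2.le zero_le)
  have hc2 : w (p : Ω) ^ p ≤ w (c * g ^ p) := by
    rw [map_mul, hwg]
    rw [le_mul_inv_iff₀ (zpow_pos (zero_lt_one.trans hy) _)]
    rw [zpow_add₀ (zero_lt_one.trans hy).ne', zpow_one]
    have h1 : w (p : Ω) ^ p * (((w (p : Ω) ^ p)⁻¹) ^ n * (w (p : Ω) ^ p)⁻¹) =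
        ((w (p : Ω) ^ p)⁻¹) ^ n := by
      rw [mul_comm (((w (p : Ω) ^ p)⁻¹) ^ n), ← mul_assoc, mul_inv_cancel₀ (by positivity), one_mul]
    rw [h1]
    exact hn1
  obtain ⟨t, ht, htc⟩ := hcov (c * g ^ p) (mul_mem hc (pow_mem hgK p)) hc1
  have hcg0 : c * g ^ p ≠ 0 := mul_ne_zero hc0 (pow_ne_zero _ hg0)
  have hlt : w (p : Ω) ^ (2 * p) < w (p : Ω) ^ p :=
    pow_lt_pow_right_of_lt_one₀ hwpos hp1 (by have := hpp.pos; omega)
  have hwt : w t = w (c * g ^ p) := by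
    have h1 : t = c * g ^ p - (c * g ^ p - t) := by ring
    rw [h1]
    exact Valuation.map_sub_eq_of_lt_left w ((htc.trans hlt).trans_le hc2)
  have ht0 : t ≠ 0 := by
    rintro rfl
    rw [map_zero] at hwt
    exact hcg0 ((map_eq_zero w).1 hwt.symm)
  have htF : t ∈ F := (hT t ht).1
  have hgF : g ∈ F := hgK.1
  obtain ⟨y, hyF, hy⟩ := near_one' H (c * g ^ p / t)
    (div_mem (mul_mem hc.1 (pow_mem hgF p)) htF) (by
      have h1 : 1 - c * g ^ p / t = - ((c * g ^ p - t) / t) := by field_simp; ring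
      rw [h1, Valuation.map_neg, map_div₀, hwt, div_lt_iff₀ (lt_of_lt_of_le (by positivity) hc2)]
      calc w (c * g ^ p - t) < w (p : Ω) ^ (2 * p) := htc
        _ = w (p : Ω) ^ p * w (p : Ω) ^ p := by rw [← pow_add]; congr 1; omega
        _ ≤ _ := mul_le_mul_right hc2 _)
  have hy0 : y ≠ 0 := by
    rintro rfl
    rw [zero_pow hpp.pos.ne'] at hy
    exact div_ne_zero hcg0 ht0 hy.symm
  refine ⟨t, ht, htF, ht0, y * g⁻¹ * f, mul_mem (mul_mem hyF (inv_mem hgF)) hf,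
    mul_ne_zero (mul_ne_zero hy0 (inv_ne_zero hg0)) hf0, ?_⟩
  have h2 : c * g ^ p = t * y ^ p := by rw [hy]; field_simp
  rw [hac, mul_pow, mul_pow, inv_pow]
  have h3 : g ^ p ≠ 0 := pow_ne_zero _ hg0
  field_simp
  linear_combination h2

/-- Two elements of an infinite family have the same class. -/
theorem pigeon (H : Hyp w F) {ι : Type*} [Infinite ι] (u : ι → Ω) (hu : ∀ i, u i ∈ F)
    (hu0 : ∀ i, u i ≠ 0) : ∃ i j, i ≠ j ∧ ∃ f ∈ F, u i / u j = f ^ p := by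
  classical
  obtain ⟨S, hS⟩ := finite_classes H
  choose s hs hsF hs0 f hf hf0 he using fun i => hS (u i) (hu i) (hu0 i)
  obtain ⟨i, j, hij, h⟩ := Finite.exists_ne_map_eq_of_infinite (fun i => (⟨s i, hs i⟩ : S))
  refine ⟨i, j, hij, f i / f j, div_mem (hf i) (hf j), ?_⟩
  have h1 : s i = s j := congrArg Subtype.val h
  rw [he i, he j, h1, div_pow]
  have := hs0 j
  have := hf0 j
  field_simp

/-- `F ∩ B` has a uniformizer. -/
theorem unif (H : Hyp w F) : ∃ π ∈ F ⊓ algebraicClosure ℚ_[p] Ω, π ≠ 0 ∧ w π < 1 ∧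
    ∀ x ∈ F ⊓ algebraicClosure ℚ_[p] Ω, w x < 1 → w x ≤ w π := by
  classical
  have hpp : p.Prime := hpF.out
  obtain ⟨hp1, hp0⟩ := LemC3_251.w_p w H.ext
  have hpΩ : (p : Ω) ≠ 0 := by
    intro h; rw [h, map_zero] at hp0; exact hp0 rfl
  have hwpos : 0 < w (p : Ω) := pos_iff_ne_zero.2 hp0
  obtain ⟨T, hT, hcov⟩ := net H (w (p : Ω)) hwpos
  have hpK : (p : Ω) ∈ F ⊓ algebraicClosure ℚ_[p] Ω := _root_.natCast_mem _ p
  let T' : Finset Ω := insert (p : Ω) (T.filter (fun t => w (p : Ω) ≤ w t ∧ w t < 1))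
  obtain ⟨π, hπ, hmax⟩ := T'.exists_max_image w ⟨_, Finset.mem_insert_self _ _⟩
  have hpm : w (p : Ω) ≤ w π := hmax _ (Finset.mem_insert_self _ _)
  refine ⟨π, ?_, ?_, ?_, ?_⟩
  · rw [Finset.mem_insert] at hπ
    rcases hπ with rfl | h
    · exact hpK
    · exact hT _ (Finset.mem_filter.1 h).1
  · rintro rfl
    rw [map_zero] at hpm
    exact absurd hwpos (not_lt.2 hpm)
  · rw [Finset.mem_insert] at hπ
    rcases hπ with rfl | h
    · exact hp1
    · exact (Finset.mem_filter.1 h).2.2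
  · intro x hx hx1
    by_cases hxp : w x < w (p : Ω)
    · exact hxp.le.trans hpm
    · push Not at hxp
      obtain ⟨t, ht, htx⟩ := hcov x hx hx1.le
      have hwt : w t = w x := by
        have h1 : t = x - (x - t) := by ring
        rw [h1]
        exact Valuation.map_sub_eq_of_lt_left w (htx.trans_le hxp)
      rw [← hwt]
      apply hmax
      rw [Finset.mem_insert, Finset.mem_filter]
      right
      exact ⟨ht, by rw [hwt]; exact hxp, by rw [hwt]; exact hx1⟩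

/-- the value group of `F` is discrete -/
def Disc (w : Valuation Ω ℝ≥0) (F : IntermediateField ℚ_[p] Ω) : Prop :=
  ∃ ϖ ∈ F, ϖ ≠ 0 ∧ w ϖ < 1 ∧ ∀ x ∈ F, w x < 1 → w x ≤ w ϖ

theorem dense_one (H : Hyp w F) (hnd : ¬ Disc w F) (δ : ℝ≥0) (hδ : δ < 1) :
    ∃ y ∈ F, δ < w y ∧ w y < 1 := by
  obtain ⟨hp1, hp0⟩ := LemC3_251.w_p w H.ext
  have hwpos : 0 < w (p : Ω) := pos_iff_ne_zero.2 hp0
  have hpΩ : (p : Ω) ≠ 0 := by
    intro h; rw [h, map_zero] at hp0; exact hp0 rfl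
  by_contra hcon
  push Not at hcon
  have key : ∀ n : ℕ, ∃ y ∈ F, w (p : Ω) ≤ δ ^ n * w y ∧ w y < 1 := by
    intro n
    induction n with
    | zero => exact ⟨p, _root_.natCast_mem _ p, by simp, hp1⟩
    | succ n ih =>
      obtain ⟨y, hy, h1, h2⟩ := ih
      have hy0 : y ≠ 0 := by
        rintro rfl
        rw [map_zero, mul_zero] at h1
        exact absurd hwpos (not_lt.2 h1)
      have h3 : ∃ x ∈ F, w x < 1 ∧ w y < w x := by
        by_contra hc
        push Not at hc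
        exact hnd ⟨y, hy, hy0, h2, hc⟩
      obtain ⟨x, hx, hx1, hx2⟩ := h3
      have hwx : 0 < w x := lt_of_le_of_lt zero_le hx2
      have h4 : w (y / x) ≤ δ := by
        by_contra hc
        push Not at hc
        have h5 := hcon (y / x) (div_mem hy hx) hc
        rw [map_div₀] at h5
        exact absurd ((div_lt_one hwx).2 hx2) (not_lt.2 h5)
      rw [map_div₀, div_le_iff₀ hwx] at h4
      refine ⟨x, hx, ?_, hx1⟩
      calc w (p : Ω) ≤ δ ^ n * w y := h1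
        _ ≤ δ ^ n * (δ * w x) := mul_le_mul_right h4 _
        _ = δ ^ (n + 1) * w x := by ring
  obtain ⟨n, hn⟩ := NNReal.exists_pow_lt_of_lt_one hwpos hδ
  obtain ⟨y, -, h1, h2⟩ := key n
  have h3 : δ ^ n * w y ≤ δ ^ n := mul_le_of_le_one_right' h2.le
  exact absurd (h1.trans (h3.trans hn.le)) (not_le.2 (lt_of_le_of_ne (h1.trans h3) (by
    intro h4
    rw [← h4] at hn
    exact lt_irrefl _ hn) |>.trans hn |>.trans_le (le_refl _) |> fun h => absurd h (lt_irrefl _)))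

theorem dense (H : Hyp w F) (hnd : ¬ Disc w F) (r s : ℝ≥0) (hrs : r < s) :
    ∃ x ∈ F, r < w x ∧ w x < s := by
  have hs : 0 < s := lt_of_le_of_lt zero_le hrs
  obtain ⟨y, hy, h1, h2⟩ := dense_one H hnd (r / s) ((div_lt_one hs).2 hrs)
  have hwy : 0 < w y := lt_of_le_of_lt zero_le h1
  obtain ⟨n, hn1, hn2⟩ := NNReal.exists_mem_Ioc_zpow hs.ne' ((one_lt_inv₀ hwy).2 h2)
  refine ⟨y⁻¹ ^ n, zpow_mem (inv_mem hy) _, ?_, ?_⟩
  · rw [map_zpow₀, map_inv₀]
    rw [zpow_add₀ (inv_ne_zero hwy.ne'), zpow_one] at hn2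
    rw [div_lt_iff₀ hs] at h1
    calc r < w y * s := h1
      _ ≤ w y * ((w y)⁻¹ ^ n * (w y)⁻¹) := mul_le_mul_right hn2 _
      _ = (w y)⁻¹ ^ n := by
        rw [mul_comm ((w y)⁻¹ ^ n), ← mul_assoc, mul_inv_cancel₀ hwy.ne', one_mul]
  · rw [map_zpow₀, map_inv₀]
    exact hn1

/-- If the value group is not discrete, the value group is `p`-divisible and the residue field is
perfect. -/
theorem approx_pow (H : Hyp w F) (hnd : ¬ Disc w F) (a : Ω) (ha : a ∈ F) (ha0 : a ≠ 0) :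
    ∃ d ∈ F, w (a - d ^ p) < w a := by
  classical
  have hpp : p.Prime := hpF.out
  obtain ⟨hp1, hp0⟩ := LemC3_251.w_p w H.ext
  have hwpos : 0 < w (p : Ω) := pos_iff_ne_zero.2 hp0
  have hwa : 0 < w a := pos_iff_ne_zero.2 (by rwa [Ne, map_eq_zero])
  have hq : 0 < p - 1 := by have := hpp.two_le; omega
  -- the interval of values of `h`
  set r : ℝ≥0 := (w (p : Ω) / w a) ^ ((p : ℝ)⁻¹) with hr
  set s : ℝ≥0 := (1 / w a) ^ ((p : ℝ)⁻¹) with hs
  have hrp : r ^ p = w (p : Ω) / w a := NNReal.rpow_inv_natCast_pow _ hpp.pos.ne'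
  have hsp : s ^ p = 1 / w a := NNReal.rpow_inv_natCast_pow _ hpp.pos.ne'
  have hrs : r < s := by
    refine lt_of_pow_lt_pow_left₀ p zero_le ?_
    rw [hrp, hsp]
    exact div_lt_div_of_pos_right hp1 hwa
  let V : Type := {v : ℝ≥0 // r < v ∧ v < s ∧ ∃ x ∈ F, w x = v}
  haveI : Nonempty V := by
    obtain ⟨x, hx, h1, h2⟩ := dense H hnd r s hrs
    exact ⟨⟨w x, h1, h2, x, hx, rfl⟩⟩
  haveI : NoMaxOrder V := by
    refine ⟨fun v => ?_⟩
    obtain ⟨x, hx, h1, h2⟩ := dense H hnd v.1 s v.2.2.1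
    exact ⟨⟨w x, v.2.1.trans h1, h2, x, hx, rfl⟩, h1⟩
  haveI : Infinite V := NoMaxOrder.infinite
  have hV : ∀ v : V, ∃ x ∈ F, w x = v.1 := fun v => v.2.2.2
  choose h hhF hwh using hV
  have hlt1 : ∀ v : V, w (a * h v ^ p) < 1 := by
    intro v
    rw [map_mul, map_pow, hwh]
    have h1 : v.1 ^ p < s ^ p := pow_lt_pow_left₀ v.2.2.1 zero_le hpp.pos.ne'
    rw [hsp, lt_div_iff₀ hwa] at h1
    rwa [mul_comm]
  have hgtp : ∀ v : V, w (p : Ω) < w (a * h v ^ p) := by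
    intro v
    rw [map_mul, map_pow, hwh]
    have h1 : r ^ p < v.1 ^ p := pow_lt_pow_left₀ v.2.1 zero_le hpp.pos.ne'
    rw [hrp, div_lt_iff₀ hwa] at h1
    rwa [mul_comm]
  have hw1 : ∀ v : V, w (1 + a * h v ^ p) = 1 := by
    intro v
    rw [Valuation.map_add_eq_of_lt_left, map_one]
    rw [map_one]; exact hlt1 v
  have hu0 : ∀ v : V, 1 + a * h v ^ p ≠ 0 := by
    intro v h0
    have := hw1 v
    rw [h0, map_zero] at this
    exact zero_ne_one this
  obtain ⟨i, j, hij, f, hf, hfe⟩ := pigeon H (fun v : V => 1 + a * h v ^ p)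
    (fun v => add_mem (one_mem F) (mul_mem ha (pow_mem (hhF v) p))) hu0
  -- normal form: `w (h j) < w (h i)`
  have key : ∀ i j : V, ∀ f ∈ F, i.1 > j.1 → (1 + a * h i ^ p) / (1 + a * h j ^ p) = f ^ p →
      ∃ d ∈ F, w (a - d ^ p) < w a := by
    intro i j f hf hlt hfe
    have hwi : w (a * h j ^ p) < w (a * h i ^ p) := by
      rw [map_mul, map_pow, hwh, map_mul, map_pow, hwh]
      exact mul_lt_mul_of_pos_left (pow_lt_pow_left₀ hlt zero_le hpp.pos.ne') hwa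
    have hwf : w f = 1 := by
      have h1 : w f ^ p = 1 := by rw [← map_pow, ← hfe, map_div₀, hw1, hw1, div_one]
      exact (pow_eq_one_iff_of_nonneg zero_le hpp.pos.ne').1 h1
    set y := f - 1 with hy
    have hy1 : w y ≤ 1 := (w.map_sub _ _).trans (by simp [hwf])
    have hyf : 1 + y = f := by rw [hy]; ring
    have hval : (1 + y) ^ p - 1 = a * (h i ^ p - h j ^ p) / (1 + a * h j ^ p) := by
      rw [hyf, ← hfe]
      have := hu0 j
      field_simp
      ring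
    have hwval : w ((1 + y) ^ p - 1) = w (a * h i ^ p) := by
      rw [hval, map_div₀, hw1, div_one]
      have : a * (h i ^ p - h j ^ p) = a * h i ^ p - a * h j ^ p := by ring
      rw [this]
      exact Valuation.map_sub_eq_of_lt_left w hwi
    have hbig : w (p : Ω) ^ p < w ((1 + y) ^ p - 1) ^ (p - 1) := by
      rw [hwval]
      calc w (p : Ω) ^ p ≤ w (p : Ω) ^ (p - 1) :=
            pow_le_pow_right_of_le_one' hp1.le (Nat.sub_le _ _)
        _ < w (a * h i ^ p) ^ (p - 1) := pow_lt_pow_left₀ (hgtp i) zero_le hq.ne'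
    obtain ⟨h3, h4⟩ := LemC2_251.large w hpp hp0 y hy1 hbig
    have hhi0 : h i ≠ 0 := by
      intro h0
      have := hgtp i
      rw [h0, zero_pow hpp.pos.ne', mul_zero, map_zero] at this
      exact absurd this (not_lt.2 zero_le)
    refine ⟨y / h i, div_mem (sub_mem hf (one_mem F)) (hhF i), ?_⟩
    have h5 : w (a * h i ^ p - y ^ p) < w (a * h i ^ p) := by
      have h6 : a * h i ^ p - y ^ p = (a * h i ^ p - ((1 + y) ^ p - 1)) +
          ((1 + y) ^ p - 1 - y ^ p) := by ring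
      rw [h6]
      refine w.map_add_lt ?_ ?_
      · have h7 : a * h i ^ p - ((1 + y) ^ p - 1) =
            (a * h i ^ p * (a * h j ^ p) + a * h j ^ p) / (1 + a * h j ^ p) := by
          rw [hval]
          have := hu0 j
          field_simp
          ring
        rw [h7, map_div₀, hw1, div_one]
        refine w.map_add_lt ?_ hwi
        rw [map_mul]
        calc w (a * h i ^ p) * w (a * h j ^ p) ≤ 1 * w (a * h j ^ p) :=
              mul_le_mul_left (hlt1 i).le _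
          _ < _ := by rw [one_mul]; exact hwi
      · rw [← hwval, h3]; exact h4
    have h8 : a - (y / h i) ^ p = (a * h i ^ p - y ^ p) / h i ^ p := by
      rw [div_pow]
      have : h i ^ p ≠ 0 := pow_ne_zero _ hhi0
      field_simp
    rw [h8, map_div₀]
    have h9 : 0 < w (h i ^ p) := pos_iff_ne_zero.2 (by
      rw [Ne, map_eq_zero]; exact pow_ne_zero _ hhi0)
    rw [div_lt_iff₀ h9]
    rw [map_mul] at h5
    exact h5
  rcases lt_or_gt_of_ne (fun h => hij (Subtype.ext h) : i.1 ≠ j.1) with h1 | h1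
  · refine key j i f⁻¹ (inv_mem hf) h1 ?_
    rw [inv_pow, ← hfe, inv_div]
  · exact key i j f hf h1 hfe

end Crest.Agent.R013.LemC4_251
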