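import Mathlib
import Crest.Agent.R013.LemC4_251

/-!
# R013, leaf LEMC (helper758's LEMMA C): the discrete case   (helper251)

If the value group of `F` is discrete then `F` is finite over `ℚ_p`.
-/

set_option autoImplicit false
set_option linter.unusedSectionVars false
set_option linter.style.haveILetI false
set_option linter.unusedVariables false

open scoped NNReal
open IntermediateField Crest.Agent.R013 Crest.Agent.R013.LemC4_251

namespace Crest.Agent.R013.LemC5_251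

variable {p : ℕ} [hpF : Fact p.Prime] {Ω : Type*} [Field Ω] [Algebra ℚ_[p] Ω] [IsAlgClosed Ω]
  {w : Valuation Ω ℝ≥0} {F : IntermediateField ℚ_[p] Ω}

/-- The value group is generated by `w ϖ`. -/
theorem value_zpow {K : IntermediateField ℚ_[p] Ω} {ϖ : Ω} (hϖ : ϖ ∈ K) (hϖ0 : ϖ ≠ 0)
    (hϖ1 : w ϖ < 1) (hmax : ∀ x ∈ K, w x < 1 → w x ≤ w ϖ) (x : Ω) (hx : x ∈ K) (hx0 : x ≠ 0) :
    ∃ n : ℤ, w x = w ϖ ^ n := by
  have hwϖ : 0 < w ϖ := pos_iff_ne_zero.2 (by rwa [Ne, map_eq_zero])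
  have hwx : w x ≠ 0 := by rwa [Ne, map_eq_zero]
  obtain ⟨n, hn1, hn2⟩ := NNReal.exists_mem_Ico_zpow hwx ((one_lt_inv₀ hwϖ).2 hϖ1)
  have hz : w (x * ϖ ^ n) = w x * w ϖ ^ n := by rw [map_mul, map_zpow₀]
  have h1 : 1 ≤ w (x * ϖ ^ n) := by
    rw [hz]
    rw [inv_zpow] at hn1
    exact (inv_le_iff_one_le_mul₀ (zpow_pos hwϖ n)).1 hn1
  have h2 : w (x * ϖ ^ n) * w ϖ < 1 := by
    rw [hz, mul_assoc, ← zpow_add_one₀ hwϖ.ne']
    rw [inv_zpow] at hn2
    exact (lt_inv_mul_iff₀ (zpow_pos hwϖ _)).1 (by rwa [mul_one]) |> fun h => by rwa [mul_comm]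
  have h3 : w (x * ϖ ^ n) = 1 := by
    refine le_antisymm ?_ h1
    by_contra hcon
    push Not at hcon
    have h4 : w ((x * ϖ ^ n)⁻¹) < 1 := by
      rw [map_inv₀]
      exact inv_lt_one_of_one_lt₀ hcon
    have h5 := hmax _ (inv_mem (mul_mem hx (zpow_mem hϖ n))) h4
    rw [map_inv₀, inv_le_iff_one_le_mul₀ (zero_lt_one.trans hcon), mul_comm] at h5
    exact absurd h2 (not_lt.2 h5)
  refine ⟨-n, ?_⟩
  rw [hz] at h3
  rw [zpow_neg]
  exact eq_inv_of_mul_eq_one_left h3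

theorem residue_finite (H : Hyp w F) {ϖ : Ω} (hϖ : ϖ ∈ F) (hϖ0 : ϖ ≠ 0)
    (hϖ1 : w ϖ < 1) (hmax : ∀ x ∈ F, w x < 1 → w x ≤ w ϖ) :
    ∃ R : Finset Ω, (∀ r ∈ R, r ∈ F) ∧ ∀ x ∈ F, w x ≤ 1 → ∃ r ∈ R, w (x - r) < 1 := by
  classical
  have hpp : p.Prime := hpF.out
  obtain ⟨hp1, hp0⟩ := LemC3_251.w_p w H.ext
  have hwpos : 0 < w (p : Ω) := pos_iff_ne_zero.2 hp0
  have hwϖ : 0 < w ϖ := pos_iff_ne_zero.2 (by rwa [Ne, map_eq_zero])
  have hq : 0 < p - 1 := by have := hpp.two_le; omega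
  let K0 : Type _ := {x : IsLocalRing.ResidueField w.valuationSubring //
    ∃ c ∈ F, w c ≤ 1 ∧ LemC2_251.res w c = x}
  have hK0 : ∀ v : K0, ∃ c ∈ F, w c ≤ 1 ∧ LemC2_251.res w c = v.1 := fun v => v.2
  choose c hcF hc1 hcv using hK0
  have hw1 : ∀ v : K0, w (1 + c v * ϖ) = 1 := by
    intro v
    rw [Valuation.map_add_eq_of_lt_left, map_one]
    rw [map_one, map_mul, mul_comm]
    exact mul_lt_one_of_lt_of_le hϖ1 (hc1 v)
  have hu0 : ∀ v : K0, 1 + c v * ϖ ≠ 0 := by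
    intro v h0
    have := hw1 v
    rw [h0, map_zero] at this
    exact zero_ne_one this
  have hfin : Finite K0 := by
    by_contra hinf
    rw [not_finite_iff_infinite] at hinf
    obtain ⟨i, j, hij, f, hf, hfe⟩ := pigeon H (fun v : K0 => 1 + c v * ϖ)
      (fun v => add_mem (one_mem F) (mul_mem (hcF v) hϖ)) hu0
    have hwf : w f = 1 := by
      have h1 : w f ^ p = 1 := by rw [← map_pow, ← hfe, map_div₀, hw1, hw1, div_one]
      exact (pow_eq_one_iff_of_nonneg zero_le hpp.pos.ne').1 h1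
    have hcij : w (c i - c j) = 1 := by
      apply LemC2_251.w_sub_eq_one w (hc1 i) (hc1 j)
      rw [hcv, hcv]
      exact fun h => hij (Subtype.ext h)
    set y := f - 1 with hy
    have hy1 : w y ≤ 1 := (w.map_sub _ _).trans (by simp [hwf])
    have hyf : 1 + y = f := by rw [hy]; ring
    have hval : w ((1 + y) ^ p - 1) = w ϖ := by
      rw [hyf, ← hfe]
      have h1 : (1 + c i * ϖ) / (1 + c j * ϖ) - 1 = (c i - c j) * ϖ / (1 + c j * ϖ) := by
        rw [div_sub_one (hu0 j)]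
        congr 1
        ring
      rw [h1, map_div₀, map_mul, hcij, hw1, one_mul, div_one]
    have hpϖ : w (p : Ω) ≤ w ϖ := hmax _ (_root_.natCast_mem _ p) hp1
    have hbig : w (p : Ω) ^ p < w ((1 + y) ^ p - 1) ^ (p - 1) := by
      rw [hval]
      calc w (p : Ω) ^ p < w (p : Ω) ^ (p - 1) :=
            pow_lt_pow_right_of_lt_one₀ hwpos hp1 (Nat.sub_lt hpp.pos one_pos)
        _ ≤ w ϖ ^ (p - 1) := pow_le_pow_left' hpϖ _
    obtain ⟨h3, -⟩ := LemC2_251.large w hpp hp0 y hy1 hbig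
    rw [hval] at h3
    have hylt : w y < 1 := by
      by_contra hcon
      push Not at hcon
      have : (1 : ℝ≥0) ≤ w y ^ p := one_le_pow_of_one_le' hcon _
      rw [← h3] at this
      exact absurd hϖ1 (not_lt.2 this)
    have h4 := hmax y (sub_mem hf (one_mem F)) hylt
    have h5 : w y ^ p ≤ w ϖ ^ p := pow_le_pow_left' h4 _
    have h6 : w ϖ ^ p < w ϖ := by
      calc w ϖ ^ p < w ϖ ^ 1 := pow_lt_pow_right_of_lt_one₀ hwϖ hϖ1 hpp.one_lt
        _ = w ϖ := pow_one _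
    rw [← h3] at h5
    exact absurd h6 (not_lt.2 h5)
  haveI := Fintype.ofFinite K0
  refine ⟨Finset.univ.image c, ?_, ?_⟩
  · intro r hr
    rw [Finset.mem_image] at hr
    obtain ⟨v, -, rfl⟩ := hr
    exact hcF v
  · intro x hx hx1
    let v : K0 := ⟨LemC2_251.res w x, x, hx, hx1, rfl⟩
    refine ⟨c v, Finset.mem_image_of_mem _ (Finset.mem_univ _), ?_⟩
    rw [← LemC2_251.res_eq w hx1 (hc1 v), hcv v]

theorem discrete (H : Hyp w F) (hd : Disc w F) : F ≤ algebraicClosure ℚ_[p] Ω := by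
  classical
  have hpp : p.Prime := hpF.out
  obtain ⟨hp1, hp0⟩ := LemC3_251.w_p w H.ext
  have hpΩ : (p : Ω) ≠ 0 := by
    intro h; rw [h, map_zero] at hp0; exact hp0 rfl
  have hwpos : 0 < w (p : Ω) := pos_iff_ne_zero.2 hp0
  obtain ⟨ϖ, hϖ, hϖ0, hϖ1, hmax⟩ := hd
  have hwϖ : 0 < w ϖ := pos_iff_ne_zero.2 (by rwa [Ne, map_eq_zero])
  obtain ⟨R, hRF, hR⟩ := residue_finite H hϖ hϖ0 hϖ1 hmax
  obtain ⟨e', he'⟩ := value_zpow hϖ hϖ0 hϖ1 hmax (p : Ω) (_root_.natCast_mem _ p) hpΩ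
  have he'0 : 0 < e' := by
    by_contra hcon
    push Not at hcon
    have : 1 ≤ w ϖ ^ e' := one_le_zpow_of_nonpos₀ hwϖ hϖ1.le hcon
    rw [← he'] at this
    exact absurd hp1 (not_lt.2 this)
  obtain ⟨e, rfl⟩ := Int.eq_ofNat_of_zero_le he'0.le
  have he0 : 0 < e := by exact_mod_cast he'0
  rw [zpow_natCast] at he'
  -- the finite dimensional space
  let G : Finset Ω := (Finset.range e ×ˢ R).image (fun q => ϖ ^ q.1 * q.2)
  let V : Submodule ℚ_[p] Ω := Submodule.span ℚ_[p] (G : Set Ω)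
  haveI : FiniteDimensional ℚ_[p] V := FiniteDimensional.span_finset ℚ_[p] G
  have hGV : ∀ i < e, ∀ r ∈ R, ϖ ^ i * r ∈ V := by
    intro i hi r hr
    apply Submodule.subset_span
    exact Finset.mem_coe.2 (Finset.mem_image.2 ⟨(i, r), Finset.mem_product.2
      ⟨Finset.mem_range.2 hi, hr⟩, rfl⟩)
  have hVF : ∀ v ∈ V, v ∈ F := by
    intro v hv
    have : V ≤ Subalgebra.toSubmodule F.toSubalgebra := by
      rw [Submodule.span_le]
      intro x hx
      have hx' := Finset.mem_coe.1 hx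
      rw [Finset.mem_image] at hx'
      obtain ⟨q, hq, rfl⟩ := hx'
      have h : ϖ ^ q.1 * q.2 ∈ F := mul_mem (pow_mem hϖ _) (hRF _ (Finset.mem_product.1 hq).2)
      exact h
    exact this hv
  have hpV : ∀ (m : ℕ) (v : Ω), v ∈ V → (p : Ω) ^ m * v ∈ V := by
    intro m v hv
    have : (p : Ω) ^ m * v = ((p : ℚ_[p]) ^ m) • v := by
      rw [Algebra.smul_def]; simp
    rw [this]
    exact V.smul_mem _ hv
  have key : ∀ n : ℕ, ∀ x ∈ F, w x ≤ 1 → ∃ v ∈ V, w (x - v) ≤ w ϖ ^ n := by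
    intro n x hx hx1
    induction n with
    | zero => exact ⟨0, V.zero_mem, by simpa using hx1⟩
    | succ n ih =>
      obtain ⟨v, hv, hvn⟩ := ih
      set d : Ω := (p : Ω) ^ (n / e) * ϖ ^ (n % e) with hd
      have hwd : w d = w ϖ ^ n := by
        rw [hd, map_mul, map_pow, map_pow, he', ← pow_mul, ← pow_add, Nat.div_add_mod]
      have hd0 : d ≠ 0 := mul_ne_zero (pow_ne_zero _ hpΩ) (pow_ne_zero _ hϖ0)
      have hdF : d ∈ F := mul_mem (pow_mem (_root_.natCast_mem _ p) _) (pow_mem hϖ _)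
      have hwd0 : 0 < w d := pos_iff_ne_zero.2 (by rwa [Ne, map_eq_zero])
      have hzF : (x - v) / d ∈ F := div_mem (sub_mem hx (hVF v hv)) hdF
      obtain ⟨r, hr, hzr⟩ := hR ((x - v) / d) hzF (by
        rw [map_div₀, div_le_one hwd0, hwd]; exact hvn)
      have h1 := hmax _ (sub_mem hzF (hRF r hr)) hzr
      refine ⟨v + (p : Ω) ^ (n / e) * (ϖ ^ (n % e) * r),
        V.add_mem hv (hpV _ _ (hGV _ (Nat.mod_lt _ he0) r hr)), ?_⟩
      have h2 : x - (v + (p : Ω) ^ (n / e) * (ϖ ^ (n % e) * r)) = d * ((x - v) / d - r) := by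
        rw [mul_sub, mul_div_cancel₀ _ hd0, hd]
        ring
      rw [h2, map_mul, hwd, pow_succ]
      exact mul_le_mul_right h1 _
  have hint : ∀ x ∈ F, w x ≤ 1 → x ∈ V := by
    intro x hx hx1
    apply LemC3_251.closed w H.ext V
    intro ε hε
    obtain ⟨n, hn⟩ := NNReal.exists_pow_lt_of_lt_one hε hϖ1
    obtain ⟨v, hv, h⟩ := key n x hx hx1
    exact ⟨v, hv, h.trans_lt hn⟩
  have hall : ∀ x ∈ F, x ∈ V := by
    intro x hx
    by_cases hx0 : x = 0
    · rw [hx0]; exact V.zero_mem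
    have hwx : 0 < w x := pos_iff_ne_zero.2 (by rwa [Ne, map_eq_zero])
    obtain ⟨n, hn⟩ := NNReal.exists_pow_lt_of_lt_one (inv_pos.2 hwx) hp1
    have h1 : (p : Ω) ^ n * x ∈ V := by
      apply hint _ (mul_mem (pow_mem (_root_.natCast_mem _ p) _) hx)
      rw [map_mul, map_pow]
      have := mul_le_mul_left hn.le (w x)
      rwa [inv_mul_cancel₀ hwx.ne'] at this
    have h2 : x = ((p : ℚ_[p]) ^ n)⁻¹ • ((p : Ω) ^ n * x) := by
      rw [Algebra.smul_def, map_inv₀, map_pow, map_natCast, ← mul_assoc,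
        inv_mul_cancel₀ (pow_ne_zero _ hpΩ), one_mul]
    rw [h2]
    exact V.smul_mem _ h1
  have hle : Subalgebra.toSubmodule F.toSubalgebra ≤ V := fun x hx => hall x hx
  haveI : FiniteDimensional ℚ_[p] (Subalgebra.toSubmodule F.toSubalgebra) :=
    Submodule.finiteDimensional_of_le hle
  haveI : FiniteDimensional ℚ_[p] F := this
  haveI := Algebra.IsAlgebraic.of_finite ℚ_[p] F
  intro x hx
  rw [mem_algebraicClosure_iff]
  have h1 : IsAlgebraic ℚ_[p] (⟨x, hx⟩ : F) := Algebra.IsAlgebraic.isAlgebraic _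
  exact h1.algebraMap

end Crest.Agent.R013.LemC5_251
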