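import Mathlib
import Crest.Agent.R013.LemC5_251

/-!
# R013, leaf LEMC (helper758's LEMMA C): the non-discrete case, norms from the unramified
extension of degree `p`   (helper251)
-/

set_option autoImplicit false
set_option linter.unusedSectionVars false
set_option linter.style.haveILetI false
set_option linter.unusedVariables false

open scoped NNReal
open IntermediateField Polynomial Crest.Agent.R013 Crest.Agent.R013.LemC4_251

namespace Crest.Agent.R013.LemC6_251

variable {p : ℕ} [hpF : Fact p.Prime] {Ω : Type*} [Field Ω] [Algebra ℚ_[p] Ω] [IsAlgClosed Ω]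
  {w : Valuation Ω ℝ≥0} {F : IntermediateField ℚ_[p] Ω}

/-- A constant `c` such that `X ^ p - X - c` has no root in the residue field of `F ∩ B`. -/
theorem exists_as (H : Hyp w F) : ∃ c ∈ F ⊓ algebraicClosure ℚ_[p] Ω, w c ≤ 1 ∧
    ∀ y ∈ F ⊓ algebraicClosure ℚ_[p] Ω, w y ≤ 1 → ¬ w (y ^ p - y - c) < 1 := by
  classical
  have hpp : p.Prime := hpF.out
  by_contra hcon
  push Not at hcon
  let K1 : Type _ := {x : IsLocalRing.ResidueField w.valuationSubring //
    ∃ c ∈ F ⊓ algebraicClosure ℚ_[p] Ω, w c ≤ 1 ∧ LemC2_251.res w c = x}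
  obtain ⟨T, hT, hcov⟩ := net H 1 one_pos
  haveI : Finite K1 := by
    have hinj : Function.Injective (fun v : K1 => (⟨v.1, by
      obtain ⟨c, hc, hc1, hcv⟩ := v.2
      obtain ⟨t, ht, htc⟩ := hcov c hc hc1
      refine Finset.mem_coe.2 (Finset.mem_image.2 ⟨t, ht, ?_⟩)
      rw [← hcv, eq_comm]
      have hwt : w t ≤ 1 := by
        have h1 : t = c - (c - t) := by ring
        rw [h1]
        exact (w.map_sub _ _).trans (max_le hc1 htc.le)
      rw [LemC2_251.res_eq w hc1 hwt]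
      exact htc⟩ : ((T.image (LemC2_251.res w) :
        Finset (IsLocalRing.ResidueField w.valuationSubring)) :
        Set (IsLocalRing.ResidueField w.valuationSubring)))) := by
      intro a b hab
      have h1 := congrArg Subtype.val hab
      exact Subtype.ext h1
    exact Finite.of_injective _ hinj
  let φ : K1 → K1 := fun v => ⟨v.1 ^ p - v.1, by
    obtain ⟨c, hc, hc1, hcv⟩ := v.2
    refine ⟨c ^ p - c, sub_mem (pow_mem hc p) hc, ?_, ?_⟩
    · exact (w.map_sub _ _).trans (max_le (by rw [map_pow]; exact pow_le_one' hc1 _) hc1)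
    · rw [LemC2_251.res_sub w (by rw [map_pow]; exact pow_le_one' hc1 _) hc1,
        LemC2_251.res_pow w hc1, hcv]⟩
  have hsurj : Function.Surjective φ := by
    intro v
    obtain ⟨c, hc, hc1, hcv⟩ := v.2
    obtain ⟨y, hy, hy1, hyc⟩ := hcon c hc hc1
    refine ⟨⟨LemC2_251.res w y, y, hy, hy1, rfl⟩, Subtype.ext ?_⟩
    change LemC2_251.res w y ^ p - LemC2_251.res w y = v.1
    rw [← hcv, ← LemC2_251.res_pow w hy1, ← LemC2_251.res_sub w (by
      rw [map_pow]; exact pow_le_one' hy1 _) hy1, LemC2_251.res_eq w _ hc1]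
    · exact hyc
    · exact (w.map_sub _ _).trans (max_le (by rw [map_pow]; exact pow_le_one' hy1 _) hy1)
  have hinj := Finite.injective_iff_surjective.2 hsurj
  let z0 : K1 := ⟨0, 0, zero_mem _, by simp, LemC2_251.res_zero w⟩
  let z1 : K1 := ⟨1, 1, one_mem _, by simp, LemC2_251.res_one w⟩
  have h01 : φ z0 = φ z1 := by
    apply Subtype.ext
    change (0 : IsLocalRing.ResidueField w.valuationSubring) ^ p - 0 = 1 ^ p - 1
    rw [zero_pow hpp.pos.ne', one_pow, sub_self, sub_self]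
  have := congrArg Subtype.val (hinj h01)
  exact zero_ne_one this

/-- The Artin-Schreier root and the Galois orbit. -/
theorem exists_gen (H : Hyp w F) : ∃ (y : Ω) (τ : Ω ≃ₐ[F] Ω), y ∈ algebraicClosure ℚ_[p] Ω ∧
    w y ≤ 1 ∧ (∃ c ∈ F, y ^ p - y = c) ∧
    (∀ i j : Fin p, i ≠ j → ¬ w ((τ ^ (i : ℕ)) y - (τ ^ (j : ℕ)) y) < 1) ∧
    (∀ σ : Ω ≃ₐ[F] Ω, ∃ i : Fin p, σ y = (τ ^ (i : ℕ)) y) := by
  classical
  have hpp : p.Prime := hpF.out
  haveI := LemC3_251.charZero (p := p) (Ω := Ω) inferInstance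
  haveI := H.alg
  obtain ⟨hp1, hp0⟩ := LemC3_251.w_p w H.ext
  obtain ⟨c, hc, hc1, hcno⟩ := exists_as H
  -- the root
  obtain ⟨y, hy⟩ : ∃ y : Ω, y ^ p - y = c := by
    have hdeg : (X ^ p - X - C c : Polynomial Ω).degree ≠ 0 := by
      have h1 : (X ^ p - X - C c : Polynomial Ω) = X ^ p - (X + C c) := by ring
      rw [h1, degree_sub_eq_left_of_degree_lt]
      · rw [degree_X_pow]
        exact_mod_cast hpp.pos.ne'
      · rw [degree_X_pow]
        refine lt_of_le_of_lt (degree_add_le _ _) ?_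
        rw [degree_X]
        refine max_lt ?_ ?_
        · exact_mod_cast hpp.one_lt
        · exact lt_of_le_of_lt degree_C_le (by exact_mod_cast hpp.pos)
    obtain ⟨y, hy⟩ := IsAlgClosed.exists_root _ hdeg
    refine ⟨y, ?_⟩
    simp only [IsRoot.def, eval_sub, eval_pow, eval_X, eval_C] at hy
    linear_combination hy
  have hy1 : w y ≤ 1 := LemC2_251.as_int w hpp hc1 hy
  have hyB : y ∈ algebraicClosure ℚ_[p] Ω := by
    rw [mem_algebraicClosure_iff]
    have hcB : c ∈ algebraicClosure ℚ_[p] Ω := hc.2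
    have h1 : IsAlgebraic (algebraicClosure ℚ_[p] Ω) y := by
      refine ⟨X ^ p - X - C ⟨c, hcB⟩, ?_, ?_⟩
      · intro h0
        have h2 := congrArg (fun q => Polynomial.coeff q p) h0
        simp only [coeff_sub, coeff_X_pow, coeff_X, coeff_C, coeff_zero] at h2
        simp [hpp.one_lt.ne, hpp.pos.ne'] at h2
      · simp only [map_sub, map_pow, aeval_X, aeval_C]
        change y ^ p - y - c = 0
        rw [hy, sub_self]
    exact h1.restrictScalars _
  have hyF : y ∉ F := by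
    intro h
    apply hcno y ⟨h, hyB⟩ hy1
    rw [hy, sub_self, map_zero]
    exact one_pos
  have hconj : ∀ σ : Ω ≃ₐ[F] Ω, σ y ^ p - σ y = c := by
    intro σ
    rw [← map_pow, ← map_sub, hy, LemC1_251.apply_mem F σ c hc.1]
  have hσ1 : ∀ σ : Ω ≃ₐ[F] Ω, w (σ y) ≤ 1 := fun σ => by rw [H.inv]; exact hy1
  have hsep : ∀ σ σ' : Ω ≃ₐ[F] Ω, w (σ y - σ' y) < 1 → σ y = σ' y := by
    intro σ σ' h
    exact LemC2_251.as_sep w hpp hp1 (hσ1 σ') (hσ1 σ) ((hconj σ').trans (hconj σ).symm) h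
  obtain ⟨τ, hτ⟩ : ∃ τ : Ω ≃ₐ[F] Ω, τ y ≠ y := by
    by_contra hcon
    push Not at hcon
    exact hyF (LemC1_251.fixed_mem F y hcon)
  obtain ⟨m, hm⟩ := LemC2_251.as_diff w hpp hp1 hy1 (hσ1 τ) (hy.trans (hconj τ).symm)
  have hmp : ¬ p ∣ m := by
    rintro ⟨q, rfl⟩
    apply hτ
    have h1 : w (((p * q : ℕ) : Ω)) < 1 := by
      push_cast
      rw [map_mul]
      exact mul_lt_one_of_lt_of_le hp1 (Ax_280.w_nat_le_one w q)
    have h2 : w (τ y - (1 : Ω ≃ₐ[F] Ω) y) < 1 := by
      have h3 : τ y - (1 : Ω ≃ₐ[F] Ω) y = (τ y - (y + ((p * q : ℕ) : Ω))) + ((p * q : ℕ) : Ω) := by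
        rw [AlgEquiv.one_apply]; ring
      rw [h3]
      exact w.map_add_lt hm h1
    simpa using hsep τ 1 h2
  have hiter : ∀ i : ℕ, w ((τ ^ i) y - (y + (i : Ω) * m)) < 1 := by
    intro i
    induction i with
    | zero => simp
    | succ i ih =>
      have h1 : (τ ^ (i + 1)) y - (y + ((i + 1 : ℕ) : Ω) * m) =
          (τ ^ i) (τ y - (y + m)) + ((τ ^ i) y - (y + (i : Ω) * m)) := by
        rw [pow_succ, AlgEquiv.mul_apply, map_sub, map_add, map_natCast]
        push_cast
        ring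
      rw [h1]
      refine w.map_add_lt ?_ ih
      rw [H.inv]
      exact hm
  refine ⟨y, τ, hyB, hy1, ⟨c, hc.1, hy⟩, ?_, ?_⟩
  · -- distinctness
    have hmain : ∀ i j : ℕ, i < j → j < p → ¬ w ((τ ^ i) y - (τ ^ j) y) < 1 := by
      intro i j hij hjp hlt
      have h1 : ((j - i : ℕ) : Ω) * m = (y + (j : Ω) * m - (τ ^ j) y) -
          (y + (i : Ω) * m - (τ ^ i) y) - ((τ ^ i) y - (τ ^ j) y) := by
        rw [Nat.cast_sub hij.le]; ring
      have h2 : w (((j - i : ℕ) : Ω) * m) < 1 := by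
        rw [h1]
        refine w.map_sub_lt (w.map_sub_lt ?_ ?_) hlt
        · rw [w.map_sub_swap]; exact hiter j
        · rw [w.map_sub_swap]; exact hiter i
      have h3 : w (((j - i : ℕ) : Ω) * m) = 1 := by
        rw [map_mul, Ax_280.w_of_not_dvd w hpp hp1 hmp, mul_one,
          Ax_280.w_of_not_dvd w hpp hp1]
        intro hd
        have := Nat.le_of_dvd (by omega) hd
        omega
      exact absurd h3 h2.ne
    intro i j hij
    rcases lt_or_gt_of_ne (fun h => hij (Fin.ext h) : (i : ℕ) ≠ j) with h | h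
    · exact hmain i j h j.2
    · rw [w.map_sub_swap]
      exact hmain j i h i.2
  · intro σ
    obtain ⟨a, ha⟩ := LemC2_251.as_diff w hpp hp1 hy1 (hσ1 σ) (hy.trans (hconj σ).symm)
    -- find i with i m ≡ a mod p
    haveI : NeZero p := ⟨hpp.pos.ne'⟩
    have hm0 : (m : ZMod p) ≠ 0 := by
      rw [Ne, ZMod.natCast_eq_zero_iff]; exact hmp
    set i : ZMod p := (a : ZMod p) / m with hi
    have him : ((i.val * m : ℕ) : ZMod p) = a := by
      push_cast
      rw [ZMod.natCast_zmod_val, hi, div_mul_cancel₀ _ hm0]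
    have hw : w (((a : ℤ) - (i.val * m : ℕ) : ℤ) : Ω) < 1 := by
      have h1 : (p : ℤ) ∣ (a : ℤ) - (i.val * m : ℕ) := by
        rw [← ZMod.intCast_eq_intCast_iff_dvd_sub]
        simp only [Int.cast_natCast]
        exact him
      obtain ⟨q, hq⟩ := h1
      rw [hq]
      push_cast
      rw [map_mul]
      exact mul_lt_one_of_lt_of_le hp1 (Ax_280.w_int_le_one w q)
    refine ⟨⟨i.val, ZMod.val_lt i⟩, ?_⟩
    apply hsep σ (τ ^ i.val)
    have h2 : σ y - (τ ^ i.val) y = (σ y - (y + a)) - ((τ ^ i.val) y - (y + (i.val : Ω) * m)) +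
        (((a : ℤ) - (i.val * m : ℕ) : ℤ) : Ω) := by
      push_cast
      ring
    rw [h2]
    exact w.map_add_lt (w.map_sub_lt ha (hiter _)) hw

end Crest.Agent.R013.LemC6_251
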