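import Mathlib
import Crest.Agent.R013.LemC6_251

/-!
# R013, leaf LEMC (helper758's LEMMA C): the theorem   (helper251)

`lemmaC` : `k/ℚ_p` finite, `Ω` algebraically closed over `ℚ_p` with a rank one valuation `w`
extending the `p`-adic norm, `F` an intermediate field, `Ω/F` algebraic, `w` invariant under
`Gal(Ω/F)` (i.e. `F` henselian), `F ⊓ B` finite over `ℚ_p`, `F ⊔ B = ⊤` (`B` the algebraic closure
of `ℚ_p` in `Ω`).  Then `F ≤ B`, so `F` is finite over `ℚ_p`.
-/

set_option autoImplicit false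
set_option linter.unusedSectionVars false
set_option linter.style.haveILetI false
set_option linter.unusedVariables false

open scoped NNReal
open IntermediateField Crest.Agent.R013 Crest.Agent.R013.LemC4_251

namespace Crest.Agent.R013.LemC7_251

variable {p : ℕ} [hpF : Fact p.Prime] {Ω : Type*} [Field Ω] [Algebra ℚ_[p] Ω] [IsAlgClosed Ω]
  {w : Valuation Ω ℝ≥0} {F : IntermediateField ℚ_[p] Ω}

theorem prod_one_add {ι : Type*} (s : Finset ι) (θ : ι → Ω) (hθ : ∀ i ∈ s, w (θ i) ≤ 1) (a : Ω)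
    (ha : w a ≤ 1) : w (∏ i ∈ s, (1 + a * θ i) - 1 - a * ∑ i ∈ s, θ i) ≤ w a ^ 2 := by
  classical
  induction s using Finset.induction_on with
  | empty => simp
  | insert b s hb ih =>
    have hs : ∀ i ∈ s, w (θ i) ≤ 1 := fun i hi => hθ i (Finset.mem_insert_of_mem hi)
    have hb1 : w (θ b) ≤ 1 := hθ b (Finset.mem_insert_self _ _)
    rw [Finset.prod_insert hb, Finset.sum_insert hb]
    set P := ∏ i ∈ s, (1 + a * θ i) with hP
    set S := ∑ i ∈ s, θ i with hS
    have hS1 : w S ≤ 1 := LemC2_251.w_sum_le w _ _ _ hs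
    have h1 : (1 + a * θ b) * P - 1 - a * (θ b + S) =
        (P - 1 - a * S) * (1 + a * θ b) + a ^ 2 * (θ b * S) := by ring
    rw [h1]
    refine (w.map_add _ _).trans (max_le ?_ ?_)
    · rw [map_mul]
      refine (mul_le_of_le_one_right' ?_).trans (ih hs)
      refine (w.map_add _ _).trans (max_le (by simp) ?_)
      rw [map_mul]
      exact mul_le_one' ha hb1
    · rw [map_mul, map_pow, map_mul]
      exact mul_le_of_le_one_right' (mul_le_one' hb1 hS1)

section gen

variable (H : Hyp w F) {y : Ω} {τ : Ω ≃ₐ[F] Ω} (hyB : y ∈ algebraicClosure ℚ_[p] Ω)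
  (hy1 : w y ≤ 1)
  (hdist : ∀ i j : Fin p, i ≠ j → ¬ w ((τ ^ (i : ℕ)) y - (τ ^ (j : ℕ)) y) < 1)
  (horb : ∀ σ : Ω ≃ₐ[F] Ω, ∃ i : Fin p, σ y = (τ ^ (i : ℕ)) y)

include hdist horb in
theorem exists_perm (σ : Ω ≃ₐ[F] Ω) :
    ∃ e : Fin p ≃ Fin p, ∀ i : Fin p, σ ((τ ^ (i : ℕ)) y) = (τ ^ (e i : ℕ)) y := by
  choose g hg using fun i : Fin p => horb (σ * τ ^ (i : ℕ))
  have hinj : Function.Injective g := by
    intro i j hij
    by_contra hne
    have h1 : σ ((τ ^ (i : ℕ)) y) = σ ((τ ^ (j : ℕ)) y) := by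
      have h2 := hg i
      have h3 := hg j
      rw [AlgEquiv.mul_apply] at h2 h3
      rw [h2, h3, hij]
    have h4 := σ.injective h1
    apply hdist i j hne
    rw [h4, sub_self, map_zero]
    exact one_pos
  exact ⟨Equiv.ofBijective g (Finite.injective_iff_bijective.1 hinj), fun i => hg i⟩

/-- the norm of `aeval y r` -/
noncomputable def Nm (τ : Ω ≃ₐ[F] Ω) (y : Ω) (r : Polynomial F) : Ω :=
  ∏ i : Fin p, Polynomial.aeval ((τ ^ (i : ℕ)) y) r

theorem map_aeval (σ : Ω ≃ₐ[F] Ω) (z : Ω) (r : Polynomial F) :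
    σ (Polynomial.aeval z r) = Polynomial.aeval (σ z) r := by
  have := Polynomial.aeval_algHom_apply (σ : Ω →ₐ[F] Ω) z r
  exact this.symm

include H hdist horb in
theorem Nm_mem (r : Polynomial F) : Nm (p := p) τ y r ∈ F := by
  haveI := H.alg
  haveI := LemC3_251.charZero (p := p) (Ω := Ω) inferInstance
  apply LemC1_251.fixed_mem F
  intro σ
  obtain ⟨e, he⟩ := exists_perm hdist horb σ
  rw [Nm, map_prod]
  simp_rw [map_aeval, he]
  exact Equiv.prod_comp e (fun i : Fin p => Polynomial.aeval ((τ ^ (i : ℕ)) y) r)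

include H in
theorem w_Nm (r : Polynomial F) : w (Nm (p := p) τ y r) = w (Polynomial.aeval y r) ^ p := by
  rw [Nm, map_prod]
  simp_rw [← map_aeval, H.inv]
  simp

theorem Nm_mul (r s : Polynomial F) :
    Nm (p := p) τ y (r * s) = Nm (p := p) τ y r * Nm (p := p) τ y s := by
  rw [Nm, Nm, Nm, ← Finset.prod_mul_distrib]
  simp

include H hdist horb hy1 in
/-- A trace one element. -/
theorem exists_trace : ∃ (m : ℕ) (t : Ω), t ∈ F ∧ w t = 1 ∧
    ∑ i : Fin p, ((τ ^ (i : ℕ)) y) ^ m = t := by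
  haveI := H.alg
  haveI := LemC3_251.charZero (p := p) (Ω := Ω) inferInstance
  obtain ⟨m, hm⟩ := LemC2_251.vdm_cols w hpF.out.pos (fun i : Fin p => (τ ^ (i : ℕ)) y)
    (fun i => by rw [H.inv]; exact hy1) hdist
  refine ⟨m, _, ?_, hm, rfl⟩
  apply LemC1_251.fixed_mem F
  intro σ
  obtain ⟨e, he⟩ := exists_perm hdist horb σ
  rw [map_sum]
  simp_rw [map_pow, he]
  exact Equiv.sum_comp e (fun i : Fin p => ((τ ^ (i : ℕ)) y) ^ (m : ℕ))

include H hdist horb hy1 in
/-- Units near `1` are norms. -/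
theorem unit_norm (u : Ω) (hu : u ∈ F) (hu1 : w (1 - u) < 1) :
    ∃ r : Polynomial F, Polynomial.aeval y r ≠ 0 ∧ ∃ h ∈ F, h ≠ 0 ∧
      u = Nm (p := p) τ y r * h ^ p := by
  have hpp : p.Prime := hpF.out
  haveI := LemC3_251.charZero (p := p) (Ω := Ω) inferInstance
  obtain ⟨hp1, hp0⟩ := LemC3_251.w_p w H.ext
  have hwpos : 0 < w (p : Ω) := pos_iff_ne_zero.2 hp0
  obtain ⟨m, t, ht, hwt, hsum⟩ := exists_trace H hy1 hdist horb
  have ht0 : t ≠ 0 := by
    rintro rfl
    rw [map_zero] at hwt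
    exact zero_ne_one hwt
  have hτ1 : ∀ i : ℕ, w ((τ ^ i) y) ≤ 1 := fun i => by rw [H.inv]; exact hy1
  -- the elements `1 + a θ`
  have hstep : ∀ a ∈ F, w a < 1 → ∃ r : Polynomial F, w (Polynomial.aeval y r) = 1 ∧
      w (Nm (p := p) τ y r - 1 - a) ≤ w a ^ 2 := by
    intro a ha ha1
    let a' : F := ⟨a / t, div_mem ha ht⟩
    refine ⟨1 + Polynomial.C a' * Polynomial.X ^ m, ?_, ?_⟩
    · have h1 : Polynomial.aeval y (1 + Polynomial.C a' * Polynomial.X ^ m : Polynomial F) =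
          1 + a / t * y ^ m := by
        simp [a']
      rw [h1, Valuation.map_add_eq_of_lt_left, map_one]
      rw [map_one, map_mul, map_div₀, hwt, div_one, map_pow]
      exact mul_lt_one_of_lt_of_le ha1 (pow_le_one' hy1 _)
    · have h2 : Nm (p := p) τ y (1 + Polynomial.C a' * Polynomial.X ^ m : Polynomial F) =
          ∏ i : Fin p, (1 + a * (((τ ^ (i : ℕ)) y) ^ m / t)) := by
        rw [Nm]
        refine Finset.prod_congr rfl fun i _ => ?_
        have h3 : Polynomial.aeval ((τ ^ (i : ℕ)) y)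
            (1 + Polynomial.C a' * Polynomial.X ^ m : Polynomial F) =
            1 + a / t * ((τ ^ (i : ℕ)) y) ^ m := by
          simp [a']
        rw [h3]
        ring
      have h4 : ∑ i : Fin p, ((τ ^ (i : ℕ)) y) ^ m / t = 1 := by
        rw [← Finset.sum_div, hsum, div_self ht0]
      have h5 := prod_one_add (w := w) Finset.univ (fun i : Fin p => ((τ ^ (i : ℕ)) y) ^ m / t)
        (fun i _ => by
          rw [map_div₀, hwt, div_one, map_pow]
          exact pow_le_one' (hτ1 _) _) a ha1.le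
      rw [h4, mul_one] at h5
      rw [h2]
      exact h5
  have hiter : ∀ n : ℕ, ∃ r : Polynomial F, w (Polynomial.aeval y r) = 1 ∧
      w (1 - u / Nm (p := p) τ y r) ≤ w (1 - u) ^ (n + 1) := by
    intro n
    induction n with
    | zero =>
      refine ⟨1, by simp, ?_⟩
      have : Nm (p := p) τ y (1 : Polynomial F) = 1 := by simp [Nm]
      rw [this, div_one, zero_add, pow_one]
    | succ n ih =>
      obtain ⟨r, hr1, hr⟩ := ih
      set u' := u / Nm (p := p) τ y r with hu'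
      have hNF := Nm_mem H hdist horb r
      have hwN : w (Nm (p := p) τ y r) = 1 := by rw [w_Nm H, hr1, one_pow]
      have hN0 : Nm (p := p) τ y r ≠ 0 := by
        intro h0
        rw [h0, map_zero] at hwN
        exact zero_ne_one hwN
      have ha' : w (u' - 1) ≤ w (1 - u) ^ (n + 1) := by rw [w.map_sub_swap]; exact hr
      have ha1 : w (u' - 1) < 1 := ha'.trans_lt (pow_lt_one' hu1 (Nat.succ_ne_zero n))
      obtain ⟨r', hr'1, hr'⟩ := hstep (u' - 1) (sub_mem (div_mem hu hNF) (one_mem F)) ha1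
      have hwN' : w (Nm (p := p) τ y r') = 1 := by rw [w_Nm H, hr'1, one_pow]
      have hN'0 : Nm (p := p) τ y r' ≠ 0 := by
        intro h0
        rw [h0, map_zero] at hwN'
        exact zero_ne_one hwN'
      refine ⟨r * r', by rw [map_mul, map_mul, hr1, hr'1, one_mul], ?_⟩
      have h1 : 1 - u / Nm (p := p) τ y (r * r') =
          (Nm (p := p) τ y r' - 1 - (u' - 1)) / Nm (p := p) τ y r' := by
        rw [Nm_mul, hu']
        field_simp
        ring
      rw [h1, map_div₀, hwN', div_one]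
      refine hr'.trans ?_
      calc w (u' - 1) ^ 2 = w (u' - 1) * w (u' - 1) := pow_two _
        _ ≤ w (1 - u) ^ (n + 1) * w (1 - u) ^ (n + 1) := mul_le_mul' ha' ha'
        _ ≤ w (1 - u) ^ (n + 1) * w (1 - u) ^ 1 :=
            mul_le_mul_right (pow_le_pow_right_of_le_one' hu1.le (by omega)) _
        _ = w (1 - u) ^ (n + 1 + 1) := by rw [pow_one, pow_succ (w (1 - u)) (n + 1)]
  obtain ⟨n, hn⟩ := NNReal.exists_pow_lt_of_lt_one (a := w (p : Ω) ^ p) (by positivity) hu1
  obtain ⟨r, hr1, hr⟩ := hiter n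
  have hNF := Nm_mem H hdist horb r
  have hwN : w (Nm (p := p) τ y r) = 1 := by rw [w_Nm H, hr1, one_pow]
  have hN0 : Nm (p := p) τ y r ≠ 0 := by
    intro h0
    rw [h0, map_zero] at hwN
    exact zero_ne_one hwN
  have hlt : w (1 - u / Nm (p := p) τ y r) < w (p : Ω) ^ p := by
    refine (hr.trans ?_).trans_lt hn
    exact pow_le_pow_right_of_le_one' hu1.le (Nat.le_succ n)
  obtain ⟨h, hh, hhe⟩ := near_one' H _ (div_mem hu hNF) hlt
  have hu0 : u ≠ 0 := by
    rintro rfl
    rw [sub_zero, map_one] at hu1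
    exact lt_irrefl _ hu1
  refine ⟨r, ?_, h, hh, ?_, ?_⟩
  · intro h0
    rw [h0, map_zero] at hr1
    exact zero_ne_one hr1
  · rintro rfl
    rw [zero_pow hpp.pos.ne'] at hhe
    exact div_ne_zero hu0 hN0 hhe.symm
  · rw [hhe, mul_div_cancel₀ _ hN0]

include H hyB hdist hy1 in
/-- `F(y) ∩ B` is unramified over `F ∩ B`. -/
theorem value_unram (hc : ∃ c ∈ F, y ^ p - y = c) (s : Polynomial F)
    (hsB : Polynomial.aeval y s ∈ algebraicClosure ℚ_[p] Ω) (hs0 : Polynomial.aeval y s ≠ 0) :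
    ∃ e ∈ F ⊓ algebraicClosure ℚ_[p] Ω, e ≠ 0 ∧ w (Polynomial.aeval y s) = w e := by
  classical
  have hpp : p.Prime := hpF.out
  haveI := H.alg
  haveI := LemC3_251.charZero (p := p) (Ω := Ω) inferInstance
  obtain ⟨c, hcF, hyc⟩ := hc
  let q : Polynomial F := Polynomial.X ^ p - (Polynomial.X + Polynomial.C ⟨c, hcF⟩)
  have hqdeg : (Polynomial.X + Polynomial.C (⟨c, hcF⟩ : F) : Polynomial F).degree < p := by
    refine lt_of_le_of_lt (Polynomial.degree_add_le _ _) ?_
    rw [Polynomial.degree_X]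
    refine max_lt ?_ ?_
    · exact_mod_cast hpp.one_lt
    · exact lt_of_le_of_lt Polynomial.degree_C_le (by exact_mod_cast hpp.pos)
  have hqm : q.Monic := Polynomial.monic_X_pow_sub (by
    have h1 : ((p : ℕ) : WithBot ℕ) = ((p - 1 : ℕ) : WithBot ℕ) + 1 := by
      have : p = (p - 1) + 1 := by have := hpp.two_le; omega
      exact_mod_cast this
    exact hqdeg)
  have hqd : q.degree = p := by
    rw [Polynomial.degree_sub_eq_left_of_degree_lt] <;> rw [Polynomial.degree_X_pow]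
    exact hqdeg
  have hq0 : Polynomial.aeval y q = 0 := by
    simp only [q, map_sub, map_add, map_pow, Polynomial.aeval_X, Polynomial.aeval_C]
    change y ^ p - (y + c) = 0
    rw [← hyc]; ring
  set s' := s %ₘ q with hs'
  have hs'e : Polynomial.aeval y s' = Polynomial.aeval y s :=
    Polynomial.aeval_modByMonic_eq_self_of_root hq0
  have hs'd : s'.natDegree < p := by
    have h1 : s'.degree < p := by
      rw [← hqd]
      exact Polynomial.degree_modByMonic_lt _ hqm
    by_cases h0 : s' = 0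
    · rw [h0, Polynomial.natDegree_zero]; exact hpp.pos
    · exact (Polynomial.natDegree_lt_iff_degree_lt h0).2 h1
  rw [← hs'e] at hsB hs0 ⊢
  have hsum : Polynomial.aeval y s' = ∑ i ∈ Finset.range p, (s'.coeff i : Ω) * y ^ i := by
    rw [Polynomial.aeval_eq_sum_range' hs'd]
    rfl
  rw [hsum] at hsB
  obtain ⟨g, hg, hgs⟩ := LemC1_251.inf_adjoin F H.sup (Finset.range p)
    (fun i => (s'.coeff i : Ω)) (fun i => y ^ i) (fun i _ => (s'.coeff i).2)
    (fun i _ => pow_mem hyB i) hsB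
  have hx : Polynomial.aeval y s' = ∑ i ∈ Finset.range p, g i * y ^ i := hsum.trans hgs
  set x := Polynomial.aeval y s' with hxdef
  obtain ⟨j0, hj0, hmax⟩ := (Finset.range p).exists_max_image (fun i => w (g i))
    ⟨0, Finset.mem_range.2 hpp.pos⟩
  have hgj0 : g j0 ≠ 0 := by
    intro h0
    apply hs0
    rw [hx]
    refine Finset.sum_eq_zero fun i hi => ?_
    have h1 := hmax i hi
    rw [h0, map_zero] at h1
    have h2 : g i = 0 := (map_eq_zero w).1 (le_antisymm h1 zero_le)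
    rw [h2, zero_mul]
  have hwg : 0 < w (g j0) := pos_iff_ne_zero.2 (by rwa [Ne, map_eq_zero])
  refine ⟨g j0, hg j0 hj0, hgj0, ?_⟩
  by_contra hne
  have hle : w x ≤ w (g j0) := by
    rw [hx]
    apply LemC2_251.w_sum_le
    intro i hi
    rw [map_mul, map_pow]
    exact (mul_le_of_le_one_right' (pow_le_one' hy1 _)).trans (hmax i hi)
  have hlt : w x < w (g j0) := lt_of_le_of_ne hle hne
  have key := LemC2_251.vdm_rows w (fun i : Fin p => (τ ^ (i : ℕ)) y)
    (fun i : Fin p => g i / g j0) (fun i => by rw [H.inv]; exact hy1)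
    (fun i => by
      rw [map_div₀, div_le_one hwg]
      exact hmax i (Finset.mem_range.2 i.2)) hdist
    (fun j => by
      have h1 : ∑ i : Fin p, g i / g j0 * ((τ ^ (j : ℕ)) y) ^ (i : ℕ) =
          (τ ^ (j : ℕ)) (x / g j0) := by
        rw [hx, Finset.sum_div, map_sum, Finset.sum_range (fun i => (τ ^ (j : ℕ)) (g i * y ^ i / g j0))]
        refine Finset.sum_congr rfl fun i _ => ?_
        rw [map_div₀, map_mul, map_pow, LemC1_251.apply_mem F _ _ (hg i (Finset.mem_range.2 i.2)).1,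
          LemC1_251.apply_mem F _ _ (hg j0 hj0).1]
        ring
      rw [h1, H.inv, map_div₀, div_lt_one hwg]
      exact hlt) ⟨j0, Finset.mem_range.1 hj0⟩
  simp only at key
  rw [div_self hgj0, map_one] at key
  exact lt_irrefl _ key

end gen

/-- **LEMMA C** (helper758). -/
theorem lemmaC (H : Hyp w F) : F ≤ algebraicClosure ℚ_[p] Ω := by
  classical
  by_cases hd : Disc w F
  · exact LemC5_251.discrete H hd
  exfalso
  have hpp : p.Prime := hpF.out
  haveI := LemC3_251.charZero (p := p) (Ω := Ω) inferInstance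
  haveI := H.alg
  obtain ⟨π, hπ, hπ0, hπ1, hmax⟩ := unif H
  obtain ⟨y, τ, hyB, hy1, hyc, hdist, horb⟩ := LemC6_251.exists_gen H
  have hwπ : 0 < w π := pos_iff_ne_zero.2 (by rwa [Ne, map_eq_zero])
  -- `π = d ^ p * u`
  obtain ⟨d, hd, hdπ⟩ := approx_pow H hd π hπ.1 hπ0
  have hwd : w (d ^ p) = w π := by
    have h1 : d ^ p = π - (π - d ^ p) := by ring
    rw [h1]
    exact Valuation.map_sub_eq_of_lt_left w hdπ
  have hdp0 : d ^ p ≠ 0 := by
    intro h0
    rw [h0, map_zero] at hwd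
    exact absurd hwd.symm hwπ.ne'
  obtain ⟨r, hr0, h, hh, hh0, hu⟩ := unit_norm H hy1 hdist horb (π / d ^ p)
    (div_mem hπ.1 (pow_mem hd p)) (by
      have h1 : 1 - π / d ^ p = -((π - d ^ p) / d ^ p) := by field_simp; ring
      rw [h1, Valuation.map_neg, map_div₀, hwd, div_lt_one hwπ]
      exact hdπ)
  -- Kummer theory over `F(y)`
  let F1 : IntermediateField ℚ_[p] Ω := (IntermediateField.adjoin F {y}).restrictScalars ℚ_[p]
  have hFF1 : F ≤ F1 := by
    intro x hx
    exact (IntermediateField.adjoin F {y}).algebraMap_mem ⟨x, hx⟩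
  haveI : Algebra.IsAlgebraic F1 Ω := by
    have : Algebra.IsAlgebraic (IntermediateField.adjoin F {y}) Ω :=
      Algebra.IsAlgebraic.tower_top (K := F) _
    exact this
  have hsup1 : F1 ⊔ algebraicClosure ℚ_[p] Ω = ⊤ := by
    rw [eq_top_iff, ← H.sup]
    exact sup_le_sup_right hFF1 _
  have hF1 : ∀ x ∈ F1, ∃ s : Polynomial F, x = Polynomial.aeval y s := by
    intro x hx
    have h1 : x ∈ (IntermediateField.adjoin F {y}).toSubalgebra := hx
    rw [IntermediateField.adjoin_simple_toSubalgebra_of_isAlgebraic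
      (Algebra.IsAlgebraic.isAlgebraic y), Algebra.adjoin_singleton_eq_range_aeval] at h1
    obtain ⟨s, hs⟩ := h1
    exact ⟨s, hs.symm⟩
  have hF1' : ∀ s : Polynomial F, Polynomial.aeval y s ∈ F1 := by
    intro s
    have h1 : Polynomial.aeval y s ∈ (IntermediateField.adjoin F {y}).toSubalgebra := by
      rw [IntermediateField.adjoin_simple_toSubalgebra_of_isAlgebraic
        (Algebra.IsAlgebraic.isAlgebraic y), Algebra.adjoin_singleton_eq_range_aeval]
      exact ⟨s, rfl⟩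
    exact h1
  haveI : NeZero p := ⟨hpp.pos.ne'⟩
  haveI : NeZero (p : Ω) := ⟨by exact_mod_cast hpp.pos.ne'⟩
  obtain ⟨ζ, hζ⟩ : ∃ ζ : Ω, IsPrimitiveRoot ζ p := HasEnoughRootsOfUnity.exists_primitiveRoot Ω p
  have hζB : ζ ∈ algebraicClosure ℚ_[p] Ω := by
    rw [mem_algebraicClosure_iff]
    exact (hζ.isIntegral hpp.pos).tower_top.isAlgebraic
  obtain ⟨c, hc, g, hg, hc0, hg0, hcg⟩ :=
    LemC1_251.kummer F1 hsup1 hpp.pos hζ hζB _ (hF1' r) hr0
  obtain ⟨sc, hsc⟩ := hF1 c hc.1
  obtain ⟨sg, hsg⟩ := hF1 g hg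
  -- norms
  have hN : Nm (p := p) τ y r = Nm (p := p) τ y sc * Nm (p := p) τ y sg ^ p := by
    rw [Nm, Nm, Nm, ← Finset.prod_pow, ← Finset.prod_mul_distrib]
    refine Finset.prod_congr rfl fun i _ => ?_
    rw [← map_aeval, ← map_aeval, ← map_aeval, hcg, ← hsc, ← hsg, map_mul, map_pow]
  have hN1F := Nm_mem H hdist horb sc
  have hN2F := Nm_mem H hdist horb sg
  have hN1B : Nm (p := p) τ y sc ∈ algebraicClosure ℚ_[p] Ω := by
    rw [Nm]
    refine prod_mem fun i _ => ?_
    rw [← map_aeval, ← hsc]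
    exact LemC1_251.map_mem_B F _ c hc.2
  obtain ⟨e, he, he0, hwe⟩ := value_unram H hyB hy1 hdist hyc sc (by rw [← hsc]; exact hc.2)
    (by rw [← hsc]; exact hc0)
  have hwN1 : w (Nm (p := p) τ y sc) = w e ^ p := by rw [w_Nm H, hwe]
  have hN10 : Nm (p := p) τ y sc ≠ 0 := by
    intro h0
    rw [h0, map_zero] at hwN1
    exact he0 ((map_eq_zero w).1 (pow_eq_zero_iff hpp.pos.ne' |>.1 hwN1.symm))
  set D : Ω := d * h * Nm (p := p) τ y sg with hD
  have hDπ : π = D ^ p * Nm (p := p) τ y sc := by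
    have h1 : π = (π / d ^ p) * d ^ p := by rw [div_mul_cancel₀ _ hdp0]
    rw [h1, hu, hN, hD]
    ring
  have hDF : D ∈ F := mul_mem (mul_mem hd hh) hN2F
  have hDB : D ∈ algebraicClosure ℚ_[p] Ω := by
    have h1 : D ^ p ∈ algebraicClosure ℚ_[p] Ω := by
      have h2 : D ^ p = π / Nm (p := p) τ y sc := by
        rw [hDπ, mul_div_cancel_right₀ _ hN10]
      rw [h2]
      exact div_mem hπ.2 hN1B
    rw [mem_algebraicClosure_iff] at h1 ⊢
    exact IsAlgebraic.of_pow hpp.pos h1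
  have hval : w π = w (D * e) ^ p := by
    calc w π = w (D ^ p * Nm (p := p) τ y sc) := congrArg w hDπ
      _ = w (D ^ p) * w (Nm (p := p) τ y sc) := w.map_mul _ _
      _ = w D ^ p * w e ^ p := by rw [hwN1, w.map_pow]
      _ = w (D * e) ^ p := by rw [← mul_pow, ← w.map_mul]
  have hDe1 : w (D * e) < 1 := by
    by_contra hcon
    push Not at hcon
    have h1 : (1 : ℝ≥0) ≤ w (D * e) ^ p := one_le_pow_of_one_le' hcon _
    rw [← hval] at h1
    exact absurd hπ1 (not_lt.2 h1)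
  have h1 := hmax (D * e) (mul_mem ⟨hDF, hDB⟩ he) hDe1
  have h2 : w (D * e) ^ p ≤ w π ^ p := pow_le_pow_left' h1 _
  have h3 : w π ^ p < w π := by
    calc w π ^ p < w π ^ 1 := pow_lt_pow_right_of_lt_one₀ hwπ hπ1 hpp.one_lt
      _ = w π := pow_one _
  rw [← hval] at h2
  exact absurd h3 (not_lt.2 h2)

end Crest.Agent.R013.LemC7_251
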