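import Mathlib
import Crest.Agent.R013.LemC7_251

/-!
# R013, leaf LEMC: LEMMA C in the shape of helper275 (#2506)   (helper251)

`k/ℚ_p` finite, `F` a field over `k`, `Ω` algebraically closed and algebraic over `F`,
`W : Valuation Ω ℝ≥0` extending the `p`-adic norm and invariant under `Gal(Ω/F)`,
`algebraicClosure k F = ⊥`, and every element of `Gal(Ω/F)` that fixes the elements of `Ω`
algebraic over `k` is trivial.  Then `k → F` is surjective.
-/

set_option autoImplicit false
set_option linter.unusedSectionVars false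
set_option linter.style.haveILetI false
set_option linter.unusedVariables false

open scoped NNReal
open IntermediateField Crest.Agent.R013

namespace Crest.Agent.R013.LemC8_251

theorem lemC {p : ℕ} [Fact p.Prime] {k F Ω : Type*} [Field k] [Algebra ℚ_[p] k]
    [FiniteDimensional ℚ_[p] k] [Field F] [Algebra k F] [Field Ω] [IsAlgClosed Ω] [Algebra F Ω]
    [Algebra.IsAlgebraic F Ω] [Algebra k Ω] [IsScalarTower k F Ω]
    (W : Valuation Ω ℝ≥0)
    (hW : ∀ q : ℚ_[p], W (algebraMap k Ω (algebraMap ℚ_[p] k q)) = ‖q‖₊)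
    (hinv : ∀ (t : Ω ≃ₐ[F] Ω) (a : Ω), W (t a) = W a)
    (hcl : algebraicClosure k F = ⊥)
    (hfaith : ∀ t : Ω ≃ₐ[F] Ω, (∀ a : Ω, IsAlgebraic k a → t a = a) → t = 1) :
    Function.Surjective (algebraMap k F) := by
  classical
  letI : Algebra ℚ_[p] Ω := ((algebraMap k Ω).comp (algebraMap ℚ_[p] k)).toAlgebra
  letI : Algebra ℚ_[p] F := ((algebraMap k F).comp (algebraMap ℚ_[p] k)).toAlgebra
  haveI : IsScalarTower ℚ_[p] k Ω := IsScalarTower.of_algebraMap_eq fun _ => rfl
  haveI : IsScalarTower ℚ_[p] k F := IsScalarTower.of_algebraMap_eq fun _ => rfl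
  haveI : IsScalarTower ℚ_[p] F Ω := IsScalarTower.of_algebraMap_eq fun x => by
    change algebraMap k Ω (algebraMap ℚ_[p] k x) = algebraMap F Ω (algebraMap k F _)
    rw [← IsScalarTower.algebraMap_apply k F Ω]
  haveI hcz : CharZero Ω := LemC3_251.charZero (p := p) (Ω := Ω) inferInstance
  haveI : Algebra.IsAlgebraic ℚ_[p] k := Algebra.IsAlgebraic.of_finite _ _
  -- the intermediate field
  let F' : IntermediateField ℚ_[p] Ω := (IsScalarTower.toAlgHom ℚ_[p] F Ω).fieldRange
  have hF' : ∀ x : Ω, x ∈ F' ↔ ∃ y : F, algebraMap F Ω y = x := by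
    intro x
    rw [AlgHom.mem_fieldRange]
    rfl
  -- elements of `F'` algebraic over `ℚ_p` come from `k`
  have hk : ∀ x : F, IsAlgebraic ℚ_[p] (algebraMap F Ω x) → ∃ y : k, algebraMap k F y = x := by
    intro x hx
    have h1 : IsAlgebraic ℚ_[p] x := by
      rwa [isAlgebraic_algebraMap_iff (algebraMap F Ω).injective] at hx
    have h2 : IsAlgebraic k x := h1.extendScalars (algebraMap ℚ_[p] k).injective
    have h3 : x ∈ algebraicClosure k F := mem_algebraicClosure_iff.2 h2
    rw [hcl, IntermediateField.mem_bot] at h3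
    exact h3
  haveI hF'alg : Algebra.IsAlgebraic F' Ω := by
    refine ⟨fun x => ?_⟩
    obtain ⟨q, hq0, hq⟩ := Algebra.IsAlgebraic.isAlgebraic (R := F) x
    let φ : F →+* F' :=
      { toFun := fun y => ⟨algebraMap F Ω y, (hF' _).2 ⟨y, rfl⟩⟩
        map_one' := by ext; simp
        map_mul' := fun a b => by ext; simp
        map_zero' := by ext; simp
        map_add' := fun a b => by ext; simp }
    refine ⟨q.map φ, ?_, ?_⟩
    · rwa [Ne, Polynomial.map_eq_zero]
    · rw [Polynomial.aeval_def, Polynomial.eval₂_map]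
      exact hq
  -- automorphisms over `F'` are automorphisms over `F`
  have hlift : ∀ σ : Ω ≃ₐ[F'] Ω, ∃ t : Ω ≃ₐ[F] Ω, ∀ a, t a = σ a := by
    intro σ
    refine ⟨AlgEquiv.ofRingEquiv (f := σ.toRingEquiv) (fun y => ?_), fun a => rfl⟩
    have h1 : algebraMap F Ω y = algebraMap F' Ω ⟨algebraMap F Ω y, (hF' _).2 ⟨y, rfl⟩⟩ := rfl
    rw [h1]
    exact σ.commutes _
  have hsup : F' ⊔ algebraicClosure ℚ_[p] Ω = ⊤ := by
    rw [eq_top_iff]
    intro x _
    haveI : Algebra.IsAlgebraic (F' ⊔ algebraicClosure ℚ_[p] Ω : IntermediateField ℚ_[p] Ω) Ω := by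
      refine ⟨fun z => ?_⟩
      obtain ⟨q, hq0, hq⟩ := Algebra.IsAlgebraic.isAlgebraic (R := F') z
      refine ⟨q.map (IntermediateField.inclusion le_sup_left).toRingHom, ?_, ?_⟩
      · rwa [Ne, Polynomial.map_eq_zero]
      · rw [Polynomial.aeval_def, Polynomial.eval₂_map]
        exact hq
    apply LemC1_251.fixed_mem (F' ⊔ algebraicClosure ℚ_[p] Ω)
    intro σ
    -- `σ` restricts to an automorphism over `F`
    have h0 : ∃ t : Ω ≃ₐ[F] Ω, ∀ a, t a = σ a := by
      refine ⟨AlgEquiv.ofRingEquiv (f := σ.toRingEquiv) (fun y => ?_), fun a => rfl⟩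
      have h2 : algebraMap F Ω y ∈ F' ⊔ algebraicClosure ℚ_[p] Ω :=
        (le_sup_left : F' ≤ _) ((hF' _).2 ⟨y, rfl⟩)
      exact LemC1_251.apply_mem _ σ _ h2
    obtain ⟨t, ht⟩ := h0
    have h3 : t = 1 := by
      apply hfaith
      intro a ha
      rw [ht]
      have h4 : IsAlgebraic ℚ_[p] a := ha.restrictScalars _
      exact LemC1_251.apply_mem _ σ _
        ((le_sup_right : algebraicClosure ℚ_[p] Ω ≤ _) (mem_algebraicClosure_iff.2 h4))
    rw [← ht, h3, AlgEquiv.one_apply]
  have hfin : FiniteDimensional ℚ_[p]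
      (F' ⊓ algebraicClosure ℚ_[p] Ω : IntermediateField ℚ_[p] Ω) := by
    -- contained in the image of `k`
    let kΩ : Submodule ℚ_[p] Ω := LinearMap.range (IsScalarTower.toAlgHom ℚ_[p] k Ω).toLinearMap
    haveI : FiniteDimensional ℚ_[p] kΩ := inferInstance
    have hle : Subalgebra.toSubmodule
        (F' ⊓ algebraicClosure ℚ_[p] Ω : IntermediateField ℚ_[p] Ω).toSubalgebra ≤ kΩ := by
      intro x hx
      have hx' : x ∈ F' ⊓ algebraicClosure ℚ_[p] Ω := hx
      obtain ⟨y, rfl⟩ := (hF' x).1 hx'.1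
      obtain ⟨z, rfl⟩ := hk y (mem_algebraicClosure_iff.1 hx'.2)
      refine ⟨z, ?_⟩
      change algebraMap k Ω z = _
      rw [IsScalarTower.algebraMap_apply k F Ω]
    exact Submodule.finiteDimensional_of_le hle
  have H : LemC4_251.Hyp W F' := by
    refine ⟨hW, hF'alg, ?_, hsup, hfin⟩
    intro σ a
    obtain ⟨t, ht⟩ := hlift σ
    rw [← ht]
    exact hinv t a
  have hmain := LemC7_251.lemmaC H
  intro x
  exact hk x (mem_algebraicClosure_iff.1 (hmain ((hF' _).2 ⟨x, rfl⟩)))

end Crest.Agent.R013.LemC8_251
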