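import Mathlib
import Crest.Prelude.Def_SectConj
import Crest.Agent.R013.LemC8_251
import Crest.Agent.R013.A2a_275
import Crest.Agent.R013.Clause1Main_97

/-!
# R013, A2-NORM: a section fixes no norm on `maxUnramified` (given S0016)   (helper251)

Step (b) of helper275's #2506: `s` a section, `w : Valuation (maxUnramified k K) ℝ≥0` extending
the `p`-adic norm, invariant under `s γ` for all `γ`; if `maxUnramified` is dense in
`AlgebraicClosure K` for every extension of `w` (conclusion of S0016), contradiction.
-/

set_option autoImplicit false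
set_option linter.unusedSectionVars false
set_option linter.style.haveILetI false
set_option linter.unusedVariables false

open scoped NNReal Topology
open Crest.NumberTheoryR.Sect Crest.Agent.R013 Crest.Agent.R013.MaxUnr_97
  Crest.Agent.R013.Clause1_97 Crest.Agent.R013.Clause1Main_97

namespace Crest.Agent.R013.LemC9_251

variable {k : Type*} [Field k] {K : Type*} [Field K] [Algebra k K]

section FF

variable [CharZero k] [Algebra (RatFunc k) K] [IsScalarTower k (RatFunc k) K]
  [FiniteDimensional (RatFunc k) K]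

theorem isGalois_constField : IsGalois k (constField k K) := by
  have halg : Algebra.IsAlgebraic k (constField k K) :=
    ⟨fun c => by
      have h := isIntegral_constField c
      exact ((isIntegral_algebraMap_iff (algebraMap (constField k K)
        (maxUnramified k K)).injective).mp h).isAlgebraic⟩
  have hn : Normal k (constField k K) := by
    refine ⟨fun c => ?_⟩
    have h1 : (((minpoly k c).map (algebraMap k (constField k K))).map
        (algebraMap (constField k K) (maxUnramified k K))).Splits := by
      rw [Polynomial.map_map, ← IsScalarTower.algebraMap_eq]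
      exact splits_maxUnramified _
    refine Polynomial.Splits.of_splits_map (algebraMap (constField k K) (maxUnramified k K)) h1 ?_
    intro a ha
    rw [Polynomial.map_map, ← IsScalarTower.algebraMap_eq] at ha
    have hint : IsIntegral k a := by
      rw [← isAlgebraic_iff_isIntegral]
      refine ⟨minpoly k c, ?_, ?_⟩
      · exact minpoly.ne_zero (halg.isAlgebraic c).isIntegral
      · have := (Polynomial.mem_roots'.mp ha).2
        rwa [Polynomial.IsRoot, Polynomial.eval_map, ← Polynomial.aeval_def] at this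
    exact ⟨⟨a, mem_constField hint⟩, rfl⟩
  exact {}

end FF

/-- The group of lifts of a section is closed. -/
theorem isClosed_lifts {K : Type*} [Field K] {Ω : Type*} [Field Ω] [Algebra K Ω]
    [Algebra.IsIntegral K Ω] {M : IntermediateField K Ω} (W : Valuation Ω ℝ≥0) {G : Type*}
    [TopologicalSpace G] [CompactSpace G] (s : G → (M ≃ₐ[K] M)) (hs : Continuous s) :
    IsClosed {t : Ω ≃ₐ[K] Ω | (∃ γ, ∀ x : M, t x = s γ x) ∧ ∀ a, W (t a) = W a} := by
  have hMint : Algebra.IsIntegral K M := inferInstance
  have h1 : IsClosed {t : Ω ≃ₐ[K] Ω | ∀ a, W (t a) = W a} := by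
    rw [← isOpen_compl_iff]
    have h1 : {t : Ω ≃ₐ[K] Ω | ∀ a, W (t a) = W a}ᶜ = ⋃ (a : Ω) (b : Ω)
        (_ : W b ≠ W a), {g : Ω ≃ₐ[K] Ω | g a = b} := by
      ext g
      simp only [Set.mem_compl_iff, Set.mem_ofPred_eq, not_forall, Set.mem_iUnion]
      constructor
      · rintro ⟨a, ha⟩
        exact ⟨a, g a, ha, rfl⟩
      · rintro ⟨a, b, hab, h⟩
        exact ⟨a, by rw [h]; exact hab⟩
    rw [h1]
    refine isOpen_iUnion fun a => isOpen_iUnion fun b => isOpen_iUnion fun _ => ?_
    exact isOpen_apply_eq a b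
  have h2 : IsClosed {t : Ω ≃ₐ[K] Ω | ∃ γ, ∀ x : M, t x = s γ x} := by
    rw [← isOpen_compl_iff, isOpen_iff_mem_nhds]
    intro t ht
    have ht' : ∀ γ, ∃ x : M, t x ≠ s γ x := by
      intro γ
      by_contra hcon
      push Not at hcon
      exact ht ⟨γ, hcon⟩
    -- open cover of `G`
    have hopen : ∀ x : M, IsOpen {γ : G | t x ≠ s γ x} := by
      intro x
      by_cases hx : ∃ y : M, (y : Ω) = t x
      · obtain ⟨y, hy⟩ := hx
        have h3 : {γ : G | t x ≠ s γ x} = (s ⁻¹' {g : M ≃ₐ[K] M | g x = y})ᶜ := by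
          ext γ
          simp only [Set.mem_compl_iff, Set.mem_preimage, Set.mem_ofPred_eq, ← hy]
          constructor
          · intro h h4
            exact h (by rw [h4])
          · intro h h4
            exact h (Subtype.ext h4.symm)
        rw [h3, isOpen_compl_iff]
        refine IsClosed.preimage hs ?_
        -- complement is a union of open sets
        rw [← isOpen_compl_iff]
        have h5 : {g : M ≃ₐ[K] M | g x = y}ᶜ = ⋃ (z : M) (_ : z ≠ y),
            {g : M ≃ₐ[K] M | g x = z} := by
          ext g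
          simp only [Set.mem_compl_iff, Set.mem_ofPred_eq, Set.mem_iUnion]
          constructor
          · intro h
            exact ⟨g x, h, rfl⟩
          · rintro ⟨z, hz, h⟩
            rw [h]; exact hz
        rw [h5]
        exact isOpen_iUnion fun z => isOpen_iUnion fun _ => isOpen_apply_eq x z
      · have h3 : {γ : G | t x ≠ s γ x} = Set.univ := by
          ext γ
          simp only [Set.mem_ofPred_eq, Set.mem_univ, iff_true]
          intro h
          exact hx ⟨s γ x, h.symm⟩
        rw [h3]
        exact isOpen_univ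
    obtain ⟨S, hS⟩ := isCompact_univ.elim_finite_subcover (fun x : M => {γ : G | t x ≠ s γ x})
      hopen (fun γ _ => Set.mem_iUnion.2 (ht' γ))
    have h6 : (⋂ x ∈ S, {g : Ω ≃ₐ[K] Ω | g (x : Ω) = t x}) ∈ 𝓝 t := by
      rw [Filter.biInter_finset_mem]
      intro x _
      exact (isOpen_apply_eq (F := K) (x : Ω) (t x)).mem_nhds rfl
    refine Filter.mem_of_superset h6 ?_
    intro g hg
    rintro ⟨γ, hγ⟩
    have h7 := hS (Set.mem_univ γ)
    simp only [Set.mem_iUnion, Set.mem_ofPred_eq, exists_prop] at h7
    obtain ⟨x, hxS, hx⟩ := h7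
    have h8 := Set.mem_iInter₂.mp hg x hxS
    exact hx (by rw [← hγ]; exact h8.symm)
  have h9 : {t : Ω ≃ₐ[K] Ω | (∃ γ, ∀ x : M, t x = s γ x) ∧ ∀ a, W (t a) = W a} =
      {t : Ω ≃ₐ[K] Ω | ∃ γ, ∀ x : M, t x = s γ x} ∩ {t : Ω ≃ₐ[K] Ω | ∀ a, W (t a) = W a} := rfl
  rw [h9]
  exact h2.inter h1

/-- **No section-invariant norm**, given density of `maxUnramified` (conclusion of S0016). -/
theorem no_fixed_norm (p : ℕ) [Fact p.Prime] (k : Type*) [Field k] [Algebra ℚ_[p] k]
    [FiniteDimensional ℚ_[p] k] (K : Type*) [Field K] [Algebra k K] [Algebra (RatFunc k) K]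
    [IsScalarTower k (RatFunc k) K] [FiniteDimensional (RatFunc k) K]
    (hS16 : ∀ v : Valuation K ℝ≥0, ExtendsPadicNorm k K p v →
      ∀ w : Valuation (AlgebraicClosure K) ℝ≥0,
        w.comap (algebraMap K (AlgebraicClosure K)) = v →
        ∀ a : AlgebraicClosure K, ∀ ε : ℝ≥0, 0 < ε →
          ∃ b : maxUnramified k K, w (a - (b : AlgebraicClosure K)) < ε)
    (s : ConstGal k K →* PiGroup k K) (hs : IsSection k K s)
    (w : Valuation (maxUnramified k K) ℝ≥0)
    (hw : ∀ q : ℚ_[p], w (algebraMap k (maxUnramified k K) (algebraMap ℚ_[p] k q)) = ‖q‖₊)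
    (hfix : ∀ γ a, w (s γ a) = w a) : False := by
  classical
  haveI : CharZero k := charZero_of_injective_algebraMap (algebraMap ℚ_[p] k).injective
  haveI : CharZero K := charZero_of_injective_algebraMap (algebraMap k K).injective
  haveI : IsGalois K (maxUnramified k K) := isGalois_maxUnramified
  haveI : IsGalois k (constField k K) := isGalois_constField
  haveI : CompactSpace (ConstGal k K) := inferInstance
  haveI : IsGalois K (AlgebraicClosure K) := IsAlgClosure.isGalois K (AlgebraicClosure K)
  -- extend the norm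
  have hnt : ∃ a : maxUnramified k K, 1 < w a := by
    refine ⟨algebraMap k (maxUnramified k K) (algebraMap ℚ_[p] k ((p : ℚ_[p])⁻¹)), ?_⟩
    rw [hw, nnnorm_inv]
    have h1 := Padic.norm_p_lt_one (p := p)
    have h2 : ‖(p : ℚ_[p])‖₊ < 1 := by exact_mod_cast h1
    have h3 : 0 < ‖(p : ℚ_[p])‖₊ := by
      rw [pos_iff_ne_zero, Ne, nnnorm_eq_zero]
      exact_mod_cast (Fact.out : p.Prime).pos.ne'
    exact (one_lt_inv₀ h3).2 h2
  obtain ⟨W, hWM, hlift⟩ := A2a_275.exists_ext_lift (K := K) (Ω := AlgebraicClosure K) w hnt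
  have hWM' : ∀ x : maxUnramified k K, W (x : AlgebraicClosure K) = w x := by
    intro x
    rw [← hWM]; rfl
  have hWq : ∀ q : ℚ_[p],
      W (algebraMap k (AlgebraicClosure K) (algebraMap ℚ_[p] k q)) = ‖q‖₊ := by
    intro q
    rw [← hw q, ← hWM', IsScalarTower.algebraMap_apply k (maxUnramified k K) (AlgebraicClosure K)]
    rfl
  have hdense : ∀ a : AlgebraicClosure K, ∀ ε : ℝ≥0, 0 < ε →
      ∃ b : maxUnramified k K, W (a - algebraMap (maxUnramified k K) (AlgebraicClosure K) b) < ε := by
    refine hS16 (W.comap (algebraMap K (AlgebraicClosure K))) ?_ W rfl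
    intro q
    rw [Valuation.comap_apply, ← IsScalarTower.algebraMap_apply k K (AlgebraicClosure K)]
    exact hWq q
  have hlift' := hlift hdense
  -- the group of lifts
  let D : ClosedSubgroup (AlgebraicClosure K ≃ₐ[K] AlgebraicClosure K) :=
    { carrier := {t | (∃ γ, ∀ x : maxUnramified k K, t x = s γ x) ∧ ∀ a, W (t a) = W a}
      mul_mem' := by
        rintro a b ⟨⟨γ, hγ⟩, ha⟩ ⟨⟨δ, hδ⟩, hb⟩
        refine ⟨⟨γ * δ, fun x => ?_⟩, fun x => ?_⟩
        · rw [AlgEquiv.mul_apply, hδ, hγ, map_mul, AlgEquiv.mul_apply]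
        · rw [AlgEquiv.mul_apply, ha, hb]
      one_mem' := ⟨⟨1, fun x => by rw [map_one]; rfl⟩, fun x => rfl⟩
      inv_mem' := by
        rintro a ⟨⟨γ, hγ⟩, ha⟩
        refine ⟨⟨γ⁻¹, fun x => ?_⟩, fun x => ?_⟩
        · have h1 : a ((s γ⁻¹ x : maxUnramified k K) : AlgebraicClosure K) = x := by
            rw [hγ, map_inv]
            exact congrArg Subtype.val (AlgEquiv.apply_symm_apply (s γ) x)
          have h2 : a⁻¹ (a ((s γ⁻¹ x : maxUnramified k K) : AlgebraicClosure K)) =
              ((s γ⁻¹ x : maxUnramified k K) : AlgebraicClosure K) :=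
            AlgEquiv.symm_apply_apply a _
          rw [h1] at h2
          exact h2
        · have h1 := ha (a⁻¹ x)
          have h2 : a (a⁻¹ x) = x := AlgEquiv.apply_symm_apply a x
          rw [h2] at h1
          exact h1.symm
      isClosed' := isClosed_lifts W (fun γ => s γ) hs.1 }
  have hDmem : ∀ t : AlgebraicClosure K ≃ₐ[K] AlgebraicClosure K, t ∈ D.toSubgroup ↔
      (∃ γ, ∀ x : maxUnramified k K, t x = s γ x) ∧ ∀ a, W (t a) = W a := fun t => Iff.rfl
  have hDγ : ∀ γ : ConstGal k K, ∃ t ∈ D.toSubgroup, ∀ x : maxUnramified k K, t x = s γ x := by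
    intro γ
    obtain ⟨t, ht1, ht2⟩ := hlift' (s γ) (fun x => hfix γ x)
    exact ⟨t, ⟨⟨γ, fun x => ht1 x⟩, ht2⟩, fun x => ht1 x⟩
  let F : IntermediateField K (AlgebraicClosure K) := IntermediateField.fixedField D.toSubgroup
  have hFD : ∀ t : AlgebraicClosure K ≃ₐ[F] AlgebraicClosure K,
      t.restrictScalars K ∈ D.toSubgroup := by
    intro t
    have h1 : (IntermediateField.fixedField D.toSubgroup).fixingSubgroup = D.toSubgroup :=
      InfiniteGalois.fixingSubgroup_fixedField D
    rw [← h1, IntermediateField.mem_fixingSubgroup_iff]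
    intro x hx
    exact t.commutes ⟨x, hx⟩
  have hcl : algebraicClosure k F = ⊥ := by
    rw [eq_bot_iff]
    intro x hx
    rw [mem_algebraicClosure_iff] at hx
    have hx1 : IsIntegral k ((x : F) : AlgebraicClosure K) :=
      ((isIntegral_algebraMap_iff (algebraMap F (AlgebraicClosure K)).injective).mpr
        hx.isIntegral)
    let y : maxUnramified k K := ⟨x, mem_maxUnramified_of_isIntegral _ hx1⟩
    have hy1 : IsIntegral k y := by
      rw [← isIntegral_algebraMap_iff (algebraMap (maxUnramified k K)
        (AlgebraicClosure K)).injective]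
      exact hx1
    let c : constField k K := ⟨y, mem_constField hy1⟩
    have hfixc : ∀ γ : ConstGal k K, γ c = c := by
      intro γ
      obtain ⟨t, htD, ht⟩ := hDγ γ
      have h1 : t (x : AlgebraicClosure K) = x := x.2 ⟨t, htD⟩
      have h2 := ht y
      have h3 := hs.2 γ c
      refine Subtype.ext (Subtype.ext ?_)
      rw [← h3]
      change ((s γ y : maxUnramified k K) : AlgebraicClosure K) = x
      rw [← h2]
      exact h1
    obtain ⟨z, hz⟩ := (InfiniteGalois.mem_range_algebraMap_iff_fixed (k := k) c).2 hfixc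
    rw [IntermediateField.mem_bot]
    refine ⟨z, Subtype.ext ?_⟩
    have h4 := congrArg (fun c : constField k K =>
      ((c : maxUnramified k K) : AlgebraicClosure K)) hz
    exact h4
  have hsurj := LemC8_251.lemC (p := p) (k := k) (F := F) (Ω := AlgebraicClosure K) W hWq
    (fun t a => ((hDmem _).1 (hFD t)).2 a) hcl (by
      intro t ht
      obtain ⟨⟨γ, hγ⟩, hW⟩ := (hDmem _).1 (hFD t)
      -- `γ = 1`
      have hγ1 : γ = 1 := by
        refine AlgEquiv.ext fun c => Subtype.ext (Subtype.ext ?_)
        have h1 := hs.2 γ c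
        have h2 := hγ (c : maxUnramified k K)
        rw [h1] at h2
        rw [AlgEquiv.one_apply, ← h2]
        apply ht
        have h3 := isIntegral_constField c
        exact ((isIntegral_algebraMap_iff (algebraMap (maxUnramified k K)
          (AlgebraicClosure K)).injective).mpr h3).isAlgebraic
      have hM : ∀ x : maxUnramified k K, t (x : AlgebraicClosure K) = x := by
        intro x
        have h1 := hγ x
        rw [hγ1, map_one, AlgEquiv.one_apply] at h1
        exact h1
      refine AlgEquiv.ext fun a => ?_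
      rw [AlgEquiv.one_apply]
      by_contra hne
      have h0 : W (t a - a) ≠ 0 := by
        rw [Ne, map_eq_zero]
        exact sub_ne_zero.2 hne
      obtain ⟨b, hb⟩ := hdense a (W (t a - a)) (pos_iff_ne_zero.2 h0)
      have h1 : t a - a = t (a - b) - (a - b) := by rw [map_sub, hM]; ring
      have h2 : W (t a - a) ≤ W (a - b) := by
        rw [h1]
        refine (W.map_sub _ _).trans (max_le ?_ le_rfl)
        exact (hW _).le
      exact absurd hb (not_lt.2 h2))
  -- contradiction: `X` is not a constant
  obtain ⟨c, hc⟩ := hsurj (algebraMap K F (algebraMap (RatFunc k) K RatFunc.X))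
  have h1 : algebraMap k K c = algebraMap (RatFunc k) K RatFunc.X := by
    apply (algebraMap K F).injective
    rw [← IsScalarTower.algebraMap_apply k K F]
    exact hc
  rw [IsScalarTower.algebraMap_apply k (RatFunc k) K] at h1
  have h2 := (algebraMap (RatFunc k) K).injective h1
  have h3 := congrArg RatFunc.num h2
  rw [RatFunc.algebraMap_eq_C, RatFunc.num_C, RatFunc.num_X] at h3
  have h4 := congrArg Polynomial.natDegree h3
  rw [Polynomial.natDegree_C, Polynomial.natDegree_X] at h4
  exact zero_ne_one h4

end Crest.Agent.R013.LemC9_251
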