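import Crest.Agent.R013.Clause1Main_97
import Crest.Agent.R013.Ax2_280
import Crest.Agent.R013.LemC9_251
import Crest.Agent.R013.A2b_275

/-!
# Row 13, part A: the point of the space of seminorms defined by a place  (helper349)

`IsPt p k M φ` (helper275): `φ : M → [0,∞]` is a multiplicative ultrametric seminorm with poles extending the
`p`-adic norm.  For a valuation `vt` of `maxUnramified k K` over a rational place the function
`ptOf W vt` (norm of the residue, `∞` at the poles) is such a point; it is invariant under the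
decomposition group and determines the place.
-/

set_option autoImplicit false
set_option linter.style.haveILetI false

noncomputable section

namespace Crest.Agent.R013.APt_349

open Crest.NumberTheoryR.Sect
open Crest.Agent.R013.Places_97 Crest.Agent.R013.MaxUnr_97 Crest.Agent.R013.Clause1_97
  Crest.Agent.R013.Clause1Main_97 Crest.Agent.R013.A2b_275
open scoped NNReal ENNReal Topology

/-- The embedding of `ℚ_p` into an algebra over `k`. -/
abbrev iQ (p : ℕ) [Fact p.Prime] (k : Type*) [Field k] [Algebra ℚ_[p] k] (M : Type*) [Field M]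
    [Algebra k M] : ℚ_[p] →+* M := (algebraMap k M).comp (algebraMap ℚ_[p] k)

section spec

variable {p : ℕ} [Fact p.Prime]

/-- The spectral valuation. -/
def specVal (p : ℕ) [Fact p.Prime] (L : Type*) [Field L] [Algebra ℚ_[p] L]
    [Algebra.IsAlgebraic ℚ_[p] L] : Valuation L ℝ≥0 where
  toFun x := ⟨spectralNorm ℚ_[p] L x, spectralNorm_nonneg x⟩
  map_zero' := NNReal.eq spectralNorm_zero
  map_one' := NNReal.eq spectralNorm_one
  map_mul' x y := NNReal.eq (by
    have h := map_mul (spectralMulAlgNorm ℚ_[p] L) x y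
    exact h)
  map_add_le_max' x y := by
    have h := isNonarchimedean_spectralNorm (K := ℚ_[p]) (L := L) x y
    rcases le_max_iff.1 h with h1 | h1
    · exact le_max_of_le_left (NNReal.coe_le_coe.1 h1)
    · exact le_max_of_le_right (NNReal.coe_le_coe.1 h1)

theorem specVal_apply (L : Type*) [Field L] [Algebra ℚ_[p] L]
    [Algebra.IsAlgebraic ℚ_[p] L] (q : ℚ_[p]) : specVal p L (algebraMap ℚ_[p] L q) = ‖q‖₊ :=
  NNReal.eq (spectralNorm_extends q)

end spec

section const

variable {p : ℕ} [Fact p.Prime] {k : Type*} [Field k] [Algebra ℚ_[p] k] [FiniteDimensional ℚ_[p] k]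
  {L : Type*} [Field L] [Algebra k L] [Algebra.IsAlgebraic k L]

theorem exists_W : ∃ W : Valuation L ℝ≥0, ∀ q : ℚ_[p], W (iQ p k L q) = ‖q‖₊ := by
  letI : Algebra ℚ_[p] L := (iQ p k L).toAlgebra
  haveI : IsScalarTower ℚ_[p] k L := IsScalarTower.of_algebraMap_eq fun _ => rfl
  haveI : Algebra.IsAlgebraic ℚ_[p] L := Algebra.IsAlgebraic.trans ℚ_[p] k L
  exact ⟨specVal p L, fun q => specVal_apply L q⟩

theorem W_inv {W : Valuation L ℝ≥0} (hW : ∀ q : ℚ_[p], W (iQ p k L q) = ‖q‖₊) (s : L ≃ₐ[k] L)
    (x : L) : W (s x) = W x := by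
  letI : Algebra ℚ_[p] L := (iQ p k L).toAlgebra
  haveI : IsScalarTower ℚ_[p] k L := IsScalarTower.of_algebraMap_eq fun _ => rfl
  haveI : Algebra.IsAlgebraic ℚ_[p] L := Algebra.IsAlgebraic.trans ℚ_[p] k L
  exact Crest.Agent.R013.Ax_280.w_inv W hW s x

theorem W_unique {W W' : Valuation L ℝ≥0} (hW : ∀ q : ℚ_[p], W (iQ p k L q) = ‖q‖₊)
    (hW' : ∀ q : ℚ_[p], W' (iQ p k L q) = ‖q‖₊) (x : L) : W x = W' x := by
  letI : Algebra ℚ_[p] L := (iQ p k L).toAlgebra
  haveI : IsScalarTower ℚ_[p] k L := IsScalarTower.of_algebraMap_eq fun _ => rfl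
  haveI : Algebra.IsAlgebraic ℚ_[p] L := Algebra.IsAlgebraic.trans ℚ_[p] k L
  have h1 := Crest.Agent.R013.Ax_280.w_eq_spectralNorm W hW x
  have h2 := Crest.Agent.R013.Ax_280.w_eq_spectralNorm W' hW' x
  exact NNReal.eq (h1.trans h2.symm)

end const

section pt

variable {p : ℕ} [Fact p.Prime] {k : Type*} [Field k] [Algebra ℚ_[p] k]
  {K : Type*} [Field K] [Algebra k K]

/-- The point of `[0,∞]^M` given by a place: norm of the residue. -/
def ptOf (W : Valuation (constField k K) ℝ≥0) (vt : Valuation (maxUnramified k K) ℝ≥0)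
    (f : maxUnramified k K) : ℝ≥0∞ := by
  classical
  exact if h : ∃ c : constField k K, vt (f - c) < 1 then ((W h.choose : ℝ≥0) : ℝ≥0∞) else ⊤

variable (W : Valuation (constField k K) ℝ≥0) {vt : Valuation (maxUnramified k K) ℝ≥0}

theorem vt_k (hvt : LiesOverRationalPlace k K vt) (c : k) (hc : c ≠ 0) :
    vt (algebraMap k (maxUnramified k K) c) = 1 := by
  rw [IsScalarTower.algebraMap_apply k K]
  exact hvt.1.1 c hc

theorem vt_const (hvt : LiesOverRationalPlace k K vt) (c : constField k K) (hc : c ≠ 0) :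
    vt (c : maxUnramified k K) = 1 :=
  val_eq_one_of_isAlgebraic vt (vt_k hvt)
    (fun h => hc (Subtype.ext h)) (isIntegral_constField c)

theorem vt_const_le (hvt : LiesOverRationalPlace k K vt) (c : constField k K) :
    vt (c : maxUnramified k K) ≤ 1 := by
  rcases eq_or_ne c 0 with rfl | h
  · simp
  · exact (vt_const hvt c h).le

theorem vt_const_lt (hvt : LiesOverRationalPlace k K vt) {c : constField k K}
    (h : vt (c : maxUnramified k K) < 1) : c = 0 := by
  by_contra hc
  rw [vt_const hvt c hc] at h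
  exact lt_irrefl _ h

theorem ptOf_eq (hvt : LiesOverRationalPlace k K vt) {f : maxUnramified k K}
    {c : constField k K} (h : vt (f - c) < 1) : ptOf W vt f = (W c : ℝ≥0∞) := by
  classical
  have hex : ∃ c : constField k K, vt (f - c) < 1 := ⟨c, h⟩
  have h1 := hex.choose_spec
  have h2 : hex.choose - c = 0 := by
    apply vt_const_lt hvt
    have h3 : ((hex.choose - c : constField k K) : maxUnramified k K) =
        (f - c) - (f - hex.choose) := by
      push_cast; ring
    rw [h3]
    exact vt.map_sub_lt h h1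
  have h4 : hex.choose = c := sub_eq_zero.1 h2
  rw [ptOf, dif_pos hex, h4]

theorem ptOf_of_gt (hvt : LiesOverRationalPlace k K vt) {f : maxUnramified k K}
    (h : 1 < vt f) : ptOf W vt f = ⊤ := by
  classical
  have hex : ¬ ∃ c : constField k K, vt (f - c) < 1 := by
    rintro ⟨c, hc⟩
    have h1 : vt f ≤ 1 := by
      have h2 : f = (f - c) + c := by ring
      rw [h2]
      exact (vt.map_add _ _).trans (max_le hc.le (vt_const_le hvt c))
    exact not_lt.2 h1 h
  rw [ptOf, dif_neg hex]

section FF

variable [CharZero k] [Algebra (RatFunc k) K] [IsScalarTower k (RatFunc k) K]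
  [FiniteDimensional (RatFunc k) K]

theorem exists_res (hvt : LiesOverRationalPlace k K vt) {f : maxUnramified k K}
    (h : vt f ≤ 1) : ∃ c : constField k K, vt (f - c) < 1 := by
  obtain ⟨c, hc, h1⟩ := exists_const_near vt hvt f h
  exact ⟨⟨c, mem_constField hc⟩, h1⟩

theorem ptOf_eq_top_iff (hvt : LiesOverRationalPlace k K vt) (f : maxUnramified k K) :
    ptOf W vt f = ⊤ ↔ 1 < vt f := by
  constructor
  · intro h
    by_contra hcon
    push Not at hcon
    obtain ⟨c, hc⟩ := exists_res hvt hcon
    rw [ptOf_eq W hvt hc] at h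
    exact ENNReal.coe_ne_top h
  · exact ptOf_of_gt W hvt

theorem ptOf_eq_zero_iff (hvt : LiesOverRationalPlace k K vt) (f : maxUnramified k K) :
    ptOf W vt f = 0 ↔ vt f < 1 := by
  constructor
  · intro h
    have h1 : vt f ≤ 1 := by
      by_contra hcon
      push Not at hcon
      rw [ptOf_of_gt W hvt hcon] at h
      exact ENNReal.top_ne_zero h
    obtain ⟨c, hc⟩ := exists_res hvt h1
    rw [ptOf_eq W hvt hc] at h
    have h2 : W c = 0 := by exact_mod_cast h
    have h3 : c = 0 := (Valuation.zero_iff W).1 h2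
    rw [h3] at hc
    simpa using hc
  · intro h
    have h1 : vt (f - ((0 : constField k K) : maxUnramified k K)) < 1 := by simpa using h
    rw [ptOf_eq W hvt h1]
    simp

theorem ptOf_isPt (hW : ∀ q : ℚ_[p], W (iQ p k (constField k K) q) = ‖q‖₊)
    (hvt : LiesOverRationalPlace k K vt) :
    IsPt p k (maxUnramified k K) (ptOf W vt) where
  add a b := by
    by_cases ha : 1 < vt a
    · rw [ptOf_of_gt W hvt ha, top_sup_eq]; exact le_top
    by_cases hb : 1 < vt b
    · rw [ptOf_of_gt W hvt hb, sup_top_eq]; exact le_top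
    push Not at ha hb
    obtain ⟨c, hc⟩ := exists_res hvt ha
    obtain ⟨d, hd⟩ := exists_res hvt hb
    have h1 : vt (a + b - ((c + d : constField k K) : maxUnramified k K)) < 1 := by
      have h2 : a + b - ((c + d : constField k K) : maxUnramified k K) = (a - c) + (b - d) := by
        push_cast; ring
      rw [h2]
      exact vt.map_add_lt hc hd
    rw [ptOf_eq W hvt h1, ptOf_eq W hvt hc, ptOf_eq W hvt hd]
    exact_mod_cast W.map_add c d
  mul a b h1' h2' := by
    have h1 : ¬ (ptOf W vt a = 0 ∧ ptOf W vt b = ⊤) := by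
      rintro ⟨h, h'⟩
      rcases h1' with h3 | h3
      · exact h3 h
      · exact h3 h'
    have h2 : ¬ (ptOf W vt a = ⊤ ∧ ptOf W vt b = 0) := by
      rintro ⟨h, h'⟩
      rcases h2' with h3 | h3
      · exact h3 h'
      · exact h3 h
    by_cases ha : 1 < vt a
    · have h3 : ¬ vt b < 1 := by
        intro h
        exact h2 ⟨ptOf_of_gt W hvt ha, (ptOf_eq_zero_iff W hvt b).2 h⟩
      have h4 : 1 < vt (a * b) := by
        rw [map_mul]
        push Not at h3
        calc 1 < vt a := ha
          _ = vt a * 1 := (mul_one _).symm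
          _ ≤ vt a * vt b := by gcongr
      rw [ptOf_of_gt W hvt ha, ptOf_of_gt W hvt h4, ENNReal.top_mul]
      intro h
      exact h3 ((ptOf_eq_zero_iff W hvt b).1 h)
    by_cases hb : 1 < vt b
    · have h3 : ¬ vt a < 1 := by
        intro h
        exact h1 ⟨(ptOf_eq_zero_iff W hvt a).2 h, ptOf_of_gt W hvt hb⟩
      have h4 : 1 < vt (a * b) := by
        rw [map_mul]
        push Not at h3
        calc 1 < vt b := hb
          _ = 1 * vt b := (one_mul _).symm
          _ ≤ vt a * vt b := by gcongr
      rw [ptOf_of_gt W hvt hb, ptOf_of_gt W hvt h4, ENNReal.mul_top]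
      intro h
      exact h3 ((ptOf_eq_zero_iff W hvt a).1 h)
    push Not at ha hb
    obtain ⟨c, hc⟩ := exists_res hvt ha
    obtain ⟨d, hd⟩ := exists_res hvt hb
    have h1 : vt (a * b - ((c * d : constField k K) : maxUnramified k K)) < 1 := by
      have h2 : a * b - ((c * d : constField k K) : maxUnramified k K) =
          (a - c) * b + c * (b - d) := by
        push_cast; ring
      rw [h2]
      refine vt.map_add_lt ?_ ?_
      · rw [map_mul]
        exact mul_lt_one_of_nonneg_of_lt_one_left zero_le hc hb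
      · rw [map_mul]
        exact mul_lt_one_of_nonneg_of_lt_one_right (vt_const_le hvt c) zero_le hd
    rw [ptOf_eq W hvt h1, ptOf_eq W hvt hc, ptOf_eq W hvt hd, map_mul]
    exact ENNReal.coe_mul _ _
  inv a ha := by
    have hva : vt a ≠ 0 := (Valuation.ne_zero_iff vt).2 ha
    rcases lt_trichotomy (vt a) 1 with h | h | h
    · rw [(ptOf_eq_zero_iff W hvt a).2 h, ENNReal.inv_zero, ptOf_eq_top_iff W hvt, map_inv₀]
      exact (one_lt_inv₀ (pos_iff_ne_zero.2 hva)).2 h
    · obtain ⟨c, hc⟩ := exists_res hvt h.le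
      have hc0 : c ≠ 0 := by
        rintro rfl
        rw [ZeroMemClass.coe_zero, sub_zero, h] at hc
        exact lt_irrefl _ hc
      have hc1 := vt_const hvt c hc0
      have hc0' : (c : maxUnramified k K) ≠ 0 := fun h => hc0 (Subtype.ext h)
      have h1 : vt (a⁻¹ - ((c⁻¹ : constField k K) : maxUnramified k K)) < 1 := by
        have h2 : a⁻¹ - ((c⁻¹ : constField k K) : maxUnramified k K) =
            -(a - c) * (a⁻¹ * (c : maxUnramified k K)⁻¹) := by
          push_cast
          field_simp
          ring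
        rw [h2, map_mul, map_mul, Valuation.map_neg, map_inv₀, map_inv₀, h, hc1]
        simpa using hc
      rw [ptOf_eq W hvt h1, ptOf_eq W hvt hc, map_inv₀, ENNReal.coe_inv]
      exact (Valuation.ne_zero_iff W).2 hc0
    · rw [ptOf_of_gt W hvt h, ENNReal.inv_top, ptOf_eq_zero_iff W hvt, map_inv₀]
      exact inv_lt_one_of_one_lt₀ h
  ext q := by
    change ptOf W vt (iQ p k (maxUnramified k K) q) = _
    have h1 : vt (iQ p k (maxUnramified k K) q -
        ((iQ p k (constField k K) q : constField k K) : maxUnramified k K)) < 1 := by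
      have h2 : ((iQ p k (constField k K) q : constField k K) : maxUnramified k K) =
        iQ p k (maxUnramified k K) q := rfl
      rw [h2, sub_self, map_zero]
      exact zero_lt_one
    rw [ptOf_eq W hvt h1, hW]

theorem ptOf_inv [FiniteDimensional ℚ_[p] k]
    (hW : ∀ q : ℚ_[p], W (iQ p k (constField k K) q) = ‖q‖₊)
    (hvt : LiesOverRationalPlace k K vt) (g : PiGroup k K) (hg : g ∈ decomp k K vt)
    (f : maxUnramified k K) : ptOf W vt (g f) = ptOf W vt f := by
  haveI : IsGalois k (constField k K) := LemC9_251.isGalois_constField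
  by_cases hf : 1 < vt f
  · rw [ptOf_of_gt W hvt hf, ptOf_of_gt W hvt (by rw [hg f]; exact hf)]
  push Not at hf
  obtain ⟨c, hc⟩ := exists_res hvt hf
  have h1 : vt (g f - ((res g c : constField k K) : maxUnramified k K)) < 1 := by
    rw [coe_res, ← map_sub, hg]
    exact hc
  rw [ptOf_eq W hvt h1, ptOf_eq W hvt hc, W_inv hW]

theorem isEquiv_of_ptOf_eq {vt' : Valuation (maxUnramified k K) ℝ≥0}
    (hvt : LiesOverRationalPlace k K vt) (hvt' : LiesOverRationalPlace k K vt')
    (h : ptOf W vt = ptOf W vt') :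
    (vt.comap (algebraMap K (maxUnramified k K))).IsEquiv
      (vt'.comap (algebraMap K (maxUnramified k K))) := by
  rw [Valuation.isEquiv_iff_val_lt_one]
  intro x
  change vt _ < 1 ↔ vt' _ < 1
  rw [← ptOf_eq_zero_iff W hvt, ← ptOf_eq_zero_iff W hvt', h]

end FF

end pt

end Crest.Agent.R013.APt_349
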