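import Crest.Agent.R013.A2c_275
import Crest.Agent.R013.A2d_275
import Crest.Agent.R013.APt_349

/-!
Row 13, part A: points of arbitrary places of `maxUnramified k K` (after helper349's `ptOf`), and
the existence of a `τ`-fixed point from bad points (norms or type 1) at every finite level.
-/

set_option autoImplicit false
set_option linter.unusedSectionVars false

noncomputable section

namespace Crest.Agent.R013.A2e_275

open Crest.NumberTheoryR.Sect
open Crest.Agent.R013.Places_97 Crest.Agent.R013.MaxUnr_97 Crest.Agent.R013.Clause1_97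
  Crest.Agent.R013.Clause1Main_97 Crest.Agent.R013.A2b_275 Crest.Agent.R013.APt_349
open scoped NNReal ENNReal Topology

/-- `vt` is trivial on `k` and its residue field is given by constants. -/
def GoodPl (k : Type*) [Field k] (K : Type*) [Field K] [Algebra k K]
    (vt : Valuation (maxUnramified k K) ℝ≥0) : Prop :=
  (∀ c : k, c ≠ 0 → vt (algebraMap k (maxUnramified k K) c) = 1) ∧
    ∀ f : maxUnramified k K, vt f ≤ 1 → ∃ c : constField k K, vt (f - c) < 1

section pt

variable {p : ℕ} [Fact p.Prime] {k : Type*} [Field k] [Algebra ℚ_[p] k]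
  {K : Type*} [Field K] [Algebra k K]

/-- The point of `[0,∞]^M` given by a place: norm of the residue. -/
def ptG (W : Valuation (constField k K) ℝ≥0) (vt : Valuation (maxUnramified k K) ℝ≥0)
    (f : maxUnramified k K) : ℝ≥0∞ := by
  classical
  exact if h : ∃ c : constField k K, vt (f - c) < 1 then ((W h.choose : ℝ≥0) : ℝ≥0∞) else ⊤

variable (W : Valuation (constField k K) ℝ≥0) {vt : Valuation (maxUnramified k K) ℝ≥0}

theorem vt_k (hvt : GoodPl k K vt) (c : k) (hc : c ≠ 0) :
    vt (algebraMap k (maxUnramified k K) c) = 1 := by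
  exact hvt.1 c hc

theorem vt_const (hvt : GoodPl k K vt) (c : constField k K) (hc : c ≠ 0) :
    vt (c : maxUnramified k K) = 1 :=
  val_eq_one_of_isAlgebraic vt (vt_k hvt)
    (fun h => hc (Subtype.ext h)) (isIntegral_constField c)

theorem vt_const_le (hvt : GoodPl k K vt) (c : constField k K) :
    vt (c : maxUnramified k K) ≤ 1 := by
  rcases eq_or_ne c 0 with rfl | h
  · simp
  · exact (vt_const hvt c h).le

theorem vt_const_lt (hvt : GoodPl k K vt) {c : constField k K}
    (h : vt (c : maxUnramified k K) < 1) : c = 0 := by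
  by_contra hc
  rw [vt_const hvt c hc] at h
  exact lt_irrefl _ h

theorem ptG_eq (hvt : GoodPl k K vt) {f : maxUnramified k K}
    {c : constField k K} (h : vt (f - c) < 1) : ptG W vt f = (W c : ℝ≥0∞) := by
  classical
  have hex : ∃ c : constField k K, vt (f - c) < 1 := ⟨c, h⟩
  have h1 := hex.choose_spec
  have h2 : hex.choose - c = 0 := by
    apply vt_const_lt hvt
    have h3 : ((hex.choose - c : constField k K) : maxUnramified k K) =
        (f - c) - (f - hex.choose) := by
      push_cast; ring
    rw [h3]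
    exact vt.map_sub_lt h h1
  have h4 : hex.choose = c := sub_eq_zero.1 h2
  rw [ptG, dif_pos hex, h4]

theorem ptG_of_gt (hvt : GoodPl k K vt) {f : maxUnramified k K}
    (h : 1 < vt f) : ptG W vt f = ⊤ := by
  classical
  have hex : ¬ ∃ c : constField k K, vt (f - c) < 1 := by
    rintro ⟨c, hc⟩
    have h1 : vt f ≤ 1 := by
      have h2 : f = (f - c) + c := by ring
      rw [h2]
      exact (vt.map_add _ _).trans (max_le hc.le (vt_const_le hvt c))
    exact not_lt.2 h1 h
  rw [ptG, dif_neg hex]

section FF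

variable [CharZero k] [Algebra (RatFunc k) K] [IsScalarTower k (RatFunc k) K]
  [FiniteDimensional (RatFunc k) K]

theorem exists_res (hvt : GoodPl k K vt) {f : maxUnramified k K}
    (h : vt f ≤ 1) : ∃ c : constField k K, vt (f - c) < 1 := by
  exact hvt.2 f h

theorem ptG_eq_top_iff (hvt : GoodPl k K vt) (f : maxUnramified k K) :
    ptG W vt f = ⊤ ↔ 1 < vt f := by
  constructor
  · intro h
    by_contra hcon
    push Not at hcon
    obtain ⟨c, hc⟩ := exists_res hvt hcon
    rw [ptG_eq W hvt hc] at h
    exact ENNReal.coe_ne_top h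
  · exact ptG_of_gt W hvt

theorem ptG_eq_zero_iff (hvt : GoodPl k K vt) (f : maxUnramified k K) :
    ptG W vt f = 0 ↔ vt f < 1 := by
  constructor
  · intro h
    have h1 : vt f ≤ 1 := by
      by_contra hcon
      push Not at hcon
      rw [ptG_of_gt W hvt hcon] at h
      exact ENNReal.top_ne_zero h
    obtain ⟨c, hc⟩ := exists_res hvt h1
    rw [ptG_eq W hvt hc] at h
    have h2 : W c = 0 := by exact_mod_cast h
    have h3 : c = 0 := (Valuation.zero_iff W).1 h2
    rw [h3] at hc
    simpa using hc
  · intro h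
    have h1 : vt (f - ((0 : constField k K) : maxUnramified k K)) < 1 := by simpa using h
    rw [ptG_eq W hvt h1]
    simp

theorem ptG_isPt (hW : ∀ q : ℚ_[p], W (iQ p k (constField k K) q) = ‖q‖₊)
    (hvt : GoodPl k K vt) :
    IsPt p k (maxUnramified k K) (ptG W vt) where
  add a b := by
    by_cases ha : 1 < vt a
    · rw [ptG_of_gt W hvt ha, top_sup_eq]; exact le_top
    by_cases hb : 1 < vt b
    · rw [ptG_of_gt W hvt hb, sup_top_eq]; exact le_top
    push Not at ha hb
    obtain ⟨c, hc⟩ := exists_res hvt ha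
    obtain ⟨d, hd⟩ := exists_res hvt hb
    have h1 : vt (a + b - ((c + d : constField k K) : maxUnramified k K)) < 1 := by
      have h2 : a + b - ((c + d : constField k K) : maxUnramified k K) = (a - c) + (b - d) := by
        push_cast; ring
      rw [h2]
      exact vt.map_add_lt hc hd
    rw [ptG_eq W hvt h1, ptG_eq W hvt hc, ptG_eq W hvt hd]
    exact_mod_cast W.map_add c d
  mul a b h1' h2' := by
    have h1 : ¬ (ptG W vt a = 0 ∧ ptG W vt b = ⊤) := by
      rintro ⟨h, h'⟩
      rcases h1' with h3 | h3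
      · exact h3 h
      · exact h3 h'
    have h2 : ¬ (ptG W vt a = ⊤ ∧ ptG W vt b = 0) := by
      rintro ⟨h, h'⟩
      rcases h2' with h3 | h3
      · exact h3 h'
      · exact h3 h
    by_cases ha : 1 < vt a
    · have h3 : ¬ vt b < 1 := by
        intro h
        exact h2 ⟨ptG_of_gt W hvt ha, (ptG_eq_zero_iff W hvt b).2 h⟩
      have h4 : 1 < vt (a * b) := by
        rw [map_mul]
        push Not at h3
        calc 1 < vt a := ha
          _ = vt a * 1 := (mul_one _).symm
          _ ≤ vt a * vt b := by gcongr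
      rw [ptG_of_gt W hvt ha, ptG_of_gt W hvt h4, ENNReal.top_mul]
      intro h
      exact h3 ((ptG_eq_zero_iff W hvt b).1 h)
    by_cases hb : 1 < vt b
    · have h3 : ¬ vt a < 1 := by
        intro h
        exact h1 ⟨(ptG_eq_zero_iff W hvt a).2 h, ptG_of_gt W hvt hb⟩
      have h4 : 1 < vt (a * b) := by
        rw [map_mul]
        push Not at h3
        calc 1 < vt b := hb
          _ = 1 * vt b := (one_mul _).symm
          _ ≤ vt a * vt b := by gcongr
      rw [ptG_of_gt W hvt hb, ptG_of_gt W hvt h4, ENNReal.mul_top]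
      intro h
      exact h3 ((ptG_eq_zero_iff W hvt a).1 h)
    push Not at ha hb
    obtain ⟨c, hc⟩ := exists_res hvt ha
    obtain ⟨d, hd⟩ := exists_res hvt hb
    have h1 : vt (a * b - ((c * d : constField k K) : maxUnramified k K)) < 1 := by
      have h2 : a * b - ((c * d : constField k K) : maxUnramified k K) =
          (a - c) * b + c * (b - d) := by
        push_cast; ring
      rw [h2]
      refine vt.map_add_lt ?_ ?_
      · rw [map_mul]
        exact mul_lt_one_of_nonneg_of_lt_one_left zero_le hc hb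
      · rw [map_mul]
        exact mul_lt_one_of_nonneg_of_lt_one_right (vt_const_le hvt c) zero_le hd
    rw [ptG_eq W hvt h1, ptG_eq W hvt hc, ptG_eq W hvt hd, map_mul]
    exact ENNReal.coe_mul _ _
  inv a ha := by
    have hva : vt a ≠ 0 := (Valuation.ne_zero_iff vt).2 ha
    rcases lt_trichotomy (vt a) 1 with h | h | h
    · rw [(ptG_eq_zero_iff W hvt a).2 h, ENNReal.inv_zero, ptG_eq_top_iff W hvt, map_inv₀]
      exact (one_lt_inv₀ (pos_iff_ne_zero.2 hva)).2 h
    · obtain ⟨c, hc⟩ := exists_res hvt h.le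
      have hc0 : c ≠ 0 := by
        rintro rfl
        rw [ZeroMemClass.coe_zero, sub_zero, h] at hc
        exact lt_irrefl _ hc
      have hc1 := vt_const hvt c hc0
      have hc0' : (c : maxUnramified k K) ≠ 0 := fun h => hc0 (Subtype.ext h)
      have h1 : vt (a⁻¹ - ((c⁻¹ : constField k K) : maxUnramified k K)) < 1 := by
        have h2 : a⁻¹ - ((c⁻¹ : constField k K) : maxUnramified k K) =
            -(a - c) * (a⁻¹ * (c : maxUnramified k K)⁻¹) := by
          push_cast
          field_simp
          ring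
        rw [h2, map_mul, map_mul, Valuation.map_neg, map_inv₀, map_inv₀, h, hc1]
        simpa using hc
      rw [ptG_eq W hvt h1, ptG_eq W hvt hc, map_inv₀, ENNReal.coe_inv]
      exact (Valuation.ne_zero_iff W).2 hc0
    · rw [ptG_of_gt W hvt h, ENNReal.inv_top, ptG_eq_zero_iff W hvt, map_inv₀]
      exact inv_lt_one_of_one_lt₀ h
  ext q := by
    change ptG W vt (iQ p k (maxUnramified k K) q) = _
    have h1 : vt (iQ p k (maxUnramified k K) q -
        ((iQ p k (constField k K) q : constField k K) : maxUnramified k K)) < 1 := by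
      have h2 : ((iQ p k (constField k K) q : constField k K) : maxUnramified k K) =
        iQ p k (maxUnramified k K) q := rfl
      rw [h2, sub_self, map_zero]
      exact zero_lt_one
    rw [ptG_eq W hvt h1, hW]

theorem ptG_inv [FiniteDimensional ℚ_[p] k]
    (hW : ∀ q : ℚ_[p], W (iQ p k (constField k K) q) = ‖q‖₊)
    (hvt : GoodPl k K vt) (g : PiGroup k K) (hg : g ∈ decomp k K vt)
    (f : maxUnramified k K) : ptG W vt (g f) = ptG W vt f := by
  have : IsGalois k (constField k K) := A2c_275.isGalois_constField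
  by_cases hf : 1 < vt f
  · rw [ptG_of_gt W hvt hf, ptG_of_gt W hvt (by rw [hg f]; exact hf)]
  push Not at hf
  obtain ⟨c, hc⟩ := exists_res hvt hf
  have h1 : vt (g f - ((res g c : constField k K) : maxUnramified k K)) < 1 := by
    rw [coe_res, ← map_sub, hg]
    exact hc
  rw [ptG_eq W hvt h1, ptG_eq W hvt hc, W_inv hW]

end FF

end pt

section final

open Crest.Agent.R013.RR7_948 Crest.Agent.R013.RR8_948 Crest.Agent.R013.RR13_948
  Crest.Agent.R013.RR14_948

variable {p : ℕ} [Fact p.Prime] {k : Type*} [Field k] [Algebra ℚ_[p] k] [FiniteDimensional ℚ_[p] k]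
  {K : Type*} [Field K] [Algebra k K] [Algebra (RatFunc k) K] [IsScalarTower k (RatFunc k) K]
  [FiniteDimensional (RatFunc k) K]

/-- Every place of `maxUnramified` has constant residues. -/
theorem goodPl_of_isPlace [CharZero k] (vt : Valuation (maxUnramified k K) ℝ≥0)
    (hpl : IsPlace k (vt.comap (algebraMap K (maxUnramified k K)))) : GoodPl k K vt := by
  classical
  have hcharR : CharZero (RatFunc k) :=
    charZero_of_injective_algebraMap (algebraMap k (RatFunc k)).injective
  have hk : ∀ c : k, c ≠ 0 → vt (algebraMap k (maxUnramified k K) c) = 1 := by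
    intro c hc
    have := hpl.1 c hc
    rw [IsScalarTower.algebraMap_apply k K]
    exact this
  refine ⟨hk, ?_⟩
  intro x hx
  obtain ⟨L, hL, hxL⟩ := (Unr5_957.mem_maxUnramified_iff (k := k) (K := K)).mp x.2
  have hLM : L ≤ maxUnramified k K := le_sSup hL
  have hfd : FiniteDimensional K L := hL.1
  let ι : L →+* maxUnramified k K := (IntermediateField.inclusion hLM).toRingHom
  have := Unr4_957.tower_IF (k := k) (K := K) L
  have := Unr4_957.finite_IF (k := k) (K := K) L
  obtain ⟨P, hP⟩ := exists_place (k := k) (K := L) (vt.comap ι)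
    (by
      intro c hc
      rw [Valuation.comap_apply]
      exact hk c hc)
    (by
      obtain ⟨b, hb⟩ := hpl.2
      exact ⟨algebraMap K L b, hb⟩)
  let x' : L := ⟨(x : AlgebraicClosure K), hxL⟩
  have hιx : ι x' = x := rfl
  have hdeg : degE P ≠ ⊤ := by
    rw [RR11_948.degE_eq P]; exact ENat.natCast_ne_top _
  obtain ⟨f, hf0, hf⟩ := exists_poly_lt_one P hdeg (u := x') (hP.le_one_iff_le_one.mpr hx)
  have hf1 := hP.lt_one_iff_lt_one.mp hf
  have hf2 : vt (Polynomial.aeval x f) < 1 := by
    have h1 : ι (Polynomial.aeval x' f) = Polynomial.aeval x f := by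
      have h2 : ι (Polynomial.aeval x' f) = Polynomial.aeval (ι x') f :=
        (Polynomial.aeval_algHom_apply ((IntermediateField.inclusion hLM).restrictScalars k)
          x' f).symm
      rw [h2, hιx]
    rw [← h1]
    exact hf1
  have hsplit := splits_maxUnramified (K := K) f
  have hroots := hsplit.eq_prod_roots
  have hev : Polynomial.aeval x f =
      Polynomial.eval x (f.map (algebraMap k (maxUnramified k K))) := by
    rw [Polynomial.eval_map, Polynomial.aeval_def]
  rw [hev, hroots, Polynomial.eval_mul, Polynomial.eval_C, map_mul,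
    Polynomial.leadingCoeff_map, hk _ (Polynomial.leadingCoeff_ne_zero.mpr hf0), one_mul,
    Polynomial.eval_multiset_prod, map_multiset_prod, Multiset.map_map, Multiset.map_map] at hf2
  obtain ⟨c, hc, hac⟩ : ∃ c ∈ (f.map (algebraMap k (maxUnramified k K))).roots,
      vt (x - c) < 1 := by
    by_contra hcon
    push Not at hcon
    refine absurd hf2 (not_lt.mpr ?_)
    refine Multiset.one_le_prod ?_
    intro y hy
    obtain ⟨c, hc, rfl⟩ := Multiset.mem_map.mp hy
    simpa using hcon c hc
  have hcint : IsIntegral k c := by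
    rw [← isAlgebraic_iff_isIntegral]
    refine ⟨f, hf0, ?_⟩
    have := (Polynomial.mem_roots'.mp hc).2
    rwa [Polynomial.IsRoot, Polynomial.eval_map, ← Polynomial.aeval_def] at this
  exact ⟨⟨c, mem_constField hcint⟩, hac⟩

/-- Abstract form of the compactness argument. -/
theorem exists_tau_fixed_abs {p : ℕ} [Fact p.Prime] {k : Type*} [Field k] [Algebra ℚ_[p] k]
    {K M : Type*} [Field K] [Field M] [CharZero K] [Algebra K M] [Algebra k K] [Algebra k M]
    [IsScalarTower k K M] [IsGalois K M]
    (l : ℕ) (hl : l.Prime) (τ : M ≃ₐ[K] M) (hpro : ∀ a, ∃ n, (τ ^ l ^ n) a = a)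
    (z : M) (hτl : (τ ^ l) z = z)
    (hyp : ∀ L : IntermediateField K M, FiniteDimensional K L → (∀ a ∈ L, τ a = a) →
      ∃ φ : M → ℝ≥0∞, IsPt p k M φ ∧ ∃ g : M ≃ₐ[K] M, (∀ a ∈ L, g a = a) ∧
        (∀ a, φ (g a) = φ a) ∧ g z ≠ z) :
    ∃ φ : M → ℝ≥0∞, IsPt p k M φ ∧ ∀ a, φ (τ a) = φ a := by
  classical
  -- the index set
  let ι := {L : IntermediateField K M // FiniteDimensional K L ∧ ∀ a ∈ L, τ a = a}
  have hfix : ∀ L : IntermediateField K M, (∀ a ∈ L, τ a = a) ↔
      L ≤ IntermediateField.fixedField (Subgroup.zpowers τ) := by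
    intro L
    constructor
    · intro h a ha
      rw [IntermediateField.mem_fixedField_iff]
      intro f hf
      have h1 : τ ∈ MulAction.stabilizer (M ≃ₐ[K] M) a := h a ha
      have h2 : Subgroup.zpowers τ ≤ MulAction.stabilizer (M ≃ₐ[K] M) a :=
        (Subgroup.zpowers_le).mpr h1
      exact h2 hf
    · intro h a ha
      exact (IntermediateField.mem_fixedField_iff _ _).mp (h ha) τ (Subgroup.mem_zpowers τ)
  have hne : Nonempty ι := ⟨⟨⊥, inferInstance, by
    rw [hfix]; exact bot_le⟩⟩
  have hdir : IsDirectedOrder ι := ⟨fun L₁ L₂ => by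
    have h1 := L₁.2.1
    have h2 := L₂.2.1
    refine ⟨⟨L₁.1 ⊔ L₂.1, IntermediateField.finiteDimensional_sup _ _, ?_⟩,
      show L₁.1 ≤ L₁.1 ⊔ L₂.1 from le_sup_left, show L₂.1 ≤ L₁.1 ⊔ L₂.1 from le_sup_right⟩
    rw [hfix]
    exact sup_le ((hfix _).mp L₁.2.2) ((hfix _).mp L₂.2.2)⟩
  choose ψ hψ g hgfix hgW hgz using fun i : ι => hyp i.1 i.2.1 i.2.2
  let U : Ultrafilter ι := Ultrafilter.of Filter.atTop
  have hU : (U : Filter ι) ≤ Filter.atTop := Ultrafilter.of_le _
  -- eventually `ψ i (τ a) = ψ i a`
  have hev : ∀ a : M, ∀ᶠ i in (U : Filter ι), ψ i (τ a) = ψ i a := by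
    intro a
    apply hU
    let N0 : IntermediateField K M := IntermediateField.adjoin K {a, z}
    have hN0 : FiniteDimensional K N0 := by
      refine IntermediateField.finiteDimensional_adjoin ?_
      intro x _
      exact Algebra.IsIntegral.isIntegral x
    let N : IntermediateField K M := IntermediateField.normalClosure K N0 M
    have hNfd : FiniteDimensional K N := normalClosure.is_finiteDimensional K N0 M
    have hNgal : IsGalois K N := IsGalois.normalClosure K N0 M
    have hN0N : N0 ≤ N := N0.le_normalClosure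
    have haN : a ∈ N := hN0N (IntermediateField.subset_adjoin K _ (by simp))
    have hzN : z ∈ N := hN0N (IntermediateField.subset_adjoin K _ (by simp))
    have hm : ∃ m, ∀ b ∈ N, (τ ^ l ^ m) b = b := by
      obtain ⟨S, hS⟩ := (IntermediateField.essFiniteType_iff (K := N)).mp inferInstance
      choose n hn using hpro
      let m := S.sup n
      refine ⟨m, ?_⟩
      have h1 : ∀ x ∈ (S : Set M), (τ ^ l ^ m) • x = x := by
        intro x hx
        have h2 : n x ≤ m := Finset.le_sup (f := n) hx
        obtain ⟨d, hd⟩ := Nat.exists_eq_add_of_le h2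
        have h3 : (τ ^ l ^ n x) ∈ MulAction.stabilizer (M ≃ₐ[K] M) x := hn x
        have h4 : τ ^ l ^ m = (τ ^ l ^ n x) ^ (l ^ d) := by
          rw [← pow_mul, ← pow_add, hd]
        rw [h4]
        exact Subgroup.pow_mem _ h3 _
      intro b hb
      rw [← hS] at hb
      exact (IntermediateField.forall_mem_adjoin_smul_eq_self_iff K (S := (S : Set M))
        (τ ^ l ^ m)).mpr h1 b hb
    obtain ⟨m, hm⟩ := hm
    let i0 : ι := ⟨N ⊓ IntermediateField.fixedField (Subgroup.zpowers τ), by
      exact FiniteDimensional.of_injective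
        (IntermediateField.inclusion (inf_le_left :
          N ⊓ IntermediateField.fixedField (Subgroup.zpowers τ) ≤ N)).toLinearMap
        (fun x y hxy => Subtype.ext (congrArg (Subtype.val : N → M) hxy)), by
      rw [hfix]; exact inf_le_right⟩
    refine (Filter.eventually_ge_atTop i0).mono ?_
    intro i hi
    obtain ⟨t, ht⟩ := A2d_275.exists_zpow l hl τ (g i) N m hm z hzN hτl (by
      intro b hb hτb
      refine hgfix i b (hi ?_)
      refine ⟨hb, ?_⟩
      have h5 : IntermediateField.adjoin K {b} ≤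
          IntermediateField.fixedField (Subgroup.zpowers τ) := by
        rw [IntermediateField.adjoin_simple_le_iff, IntermediateField.mem_fixedField_iff]
        intro f hf
        have h1 : τ ∈ MulAction.stabilizer (M ≃ₐ[K] M) b := hτb
        exact ((Subgroup.zpowers_le).mpr h1) hf
      exact h5 (IntermediateField.mem_adjoin_simple_self K b)) (hgz i)
    rw [ht a haN]
    let D : Subgroup (M ≃ₐ[K] M) :=
      { carrier := {σ | ∀ b, ψ i (σ b) = ψ i b}
        mul_mem' := by
          intro x y hx hy b
          change ψ i (x (y b)) = ψ i b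
          rw [hx, hy]
        one_mem' := fun b => rfl
        inv_mem' := by
          intro x hx b
          have h1 := hx (x⁻¹ b)
          have h2 : x (x⁻¹ b) = b := AlgEquiv.apply_symm_apply x b
          rw [h2] at h1
          exact h1.symm }
    have hgD : g i ∈ D := hgW i
    exact (D.zpow_mem hgD t) a
  let Φ : M → ℝ≥0∞ := fun a => (U.map (fun i => ψ i a)).lim
  have hlim : ∀ a, Filter.Tendsto (fun i => ψ i a) U (𝓝 (Φ a)) := fun a =>
    Ultrafilter.le_nhds_lim (U.map (fun i => ψ i a))
  refine ⟨Φ, A2d_275.isPt_of_tendsto U ψ hψ Φ hlim, ?_⟩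
  intro a
  refine tendsto_nhds_unique (hlim (τ a)) ((hlim a).congr' ?_)
  filter_upwards [hev a] with i hi
  exact hi.symm

/-- If `z` is near `u` then `z ^ l / u ^ l` is near `1`. -/
lemma div_sub_one_lt {M : Type*} [Field M] (W : Valuation M ℝ≥0) {z u : M} (h : W (z - u) < W z)
    {l : ℕ} (hl : l ≠ 0) : u ≠ 0 ∧ W (z ^ l / u ^ l - 1) < 1 := by
  have hu0 : u ≠ 0 := by
    rintro rfl
    rw [sub_zero] at h
    exact lt_irrefl _ h
  have hWu : W u = W z := by
    have h1 : u = z - (z - u) := by ring
    have h2 : W (z - (z - u)) = W z := W.map_sub_eq_of_lt_left h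
    rw [← h1] at h2
    exact h2
  refine ⟨hu0, ?_⟩
  have h3 := A2d_275.pow_sub_pow_lt W h hl
  have h4 : z ^ l / u ^ l - 1 = (z ^ l - u ^ l) / u ^ l := by
    rw [sub_div, div_self (pow_ne_zero l hu0)]
  have h5 : 0 < W (u ^ l) := (Valuation.pos_iff W).mpr (pow_ne_zero l hu0)
  rw [h4, map_div₀, div_lt_one₀ h5, map_pow, hWu, ← map_pow]
  exact h3

/-- **Existence of a `τ`-fixed point** from bad points (norms or type 1) at every finite level. -/
theorem exists_tau_fixed_pt [CharZero k] (l : ℕ) (hl : l.Prime) (τ : PiGroup k K)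
    (hpro : ∀ a, ∃ n, (τ ^ l ^ n) a = a) (z : maxUnramified k K) (hz0 : z ≠ 0)
    (hτl : (τ ^ l) z = z) (hτz : τ (z ^ l) = z ^ l)
    (hyp : ∀ L : IntermediateField K (maxUnramified k K), FiniteDimensional K L →
      (∀ a ∈ L, τ a = a) → z ^ l ∈ L →
      ∃ L' : IntermediateField K (maxUnramified k K), L ≤ L' ∧ FiniteDimensional K L' ∧
        ∃ φ₀ : L' → ℝ≥0∞, IsPt p k L' φ₀ ∧
          ∀ h u : L', (h : maxUnramified k K) = z ^ l → u ≠ 0 → 1 ≤ φ₀ (h / u ^ l - 1)) :
    ∃ φ : maxUnramified k K → ℝ≥0∞, IsPt p k (maxUnramified k K) φ ∧ ∀ a, φ (τ a) = φ a := by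
  classical
  have hcharK : CharZero K := charZero_of_injective_algebraMap (algebraMap k K).injective
  have hcharR : CharZero (RatFunc k) :=
    charZero_of_injective_algebraMap (algebraMap k (RatFunc k)).injective
  have hgal : IsGalois K (maxUnramified k K) := isGalois_maxUnramified
  have halgC : Algebra.IsAlgebraic k (constField k K) := algebraicClosure.isAlgebraic _ _
  refine exists_tau_fixed_abs (p := p) (k := k) l hl τ hpro z hτl ?_
  intro L hLfd hLfix
  -- enlarge `L` by `z ^ l`
  let L₁ : IntermediateField K (maxUnramified k K) := L ⊔ IntermediateField.adjoin K {z ^ l}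
  have hfd1 : FiniteDimensional K (IntermediateField.adjoin K {z ^ l}) :=
    IntermediateField.adjoin.finiteDimensional (Algebra.IsIntegral.isIntegral _)
  have hfd2 : FiniteDimensional K L₁ := IntermediateField.finiteDimensional_sup _ _
  have hfix1 : ∀ a ∈ L₁, τ a = a := by
    have h1 : L₁ ≤ IntermediateField.fixedField (Subgroup.zpowers τ) := by
      refine sup_le ?_ ?_
      · intro a ha
        rw [IntermediateField.mem_fixedField_iff]
        intro f hf
        have h1 : τ ∈ MulAction.stabilizer (PiGroup k K) a := hLfix a ha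
        exact ((Subgroup.zpowers_le).mpr h1) hf
      · rw [IntermediateField.adjoin_simple_le_iff, IntermediateField.mem_fixedField_iff]
        intro f hf
        have h1 : τ ∈ MulAction.stabilizer (PiGroup k K) (z ^ l) := hτz
        exact ((Subgroup.zpowers_le).mpr h1) hf
    intro a ha
    exact (IntermediateField.mem_fixedField_iff _ _).mp (h1 ha) τ (Subgroup.mem_zpowers τ)
  have hmem1 : z ^ l ∈ L₁ :=
    (le_sup_right : _ ≤ L₁) (IntermediateField.mem_adjoin_simple_self K _)
  obtain ⟨L', hL', hfd', φ₀, hφ₀, hNP⟩ := hyp L₁ hfd2 hfix1 hmem1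
  have hLL' : L ≤ L' := le_sup_left.trans hL'
  let h' : L' := ⟨z ^ l, hL' hmem1⟩
  have hcharL : CharZero L' := charZero_of_injective_algebraMap (algebraMap K L').injective
  have hN : Normal L' (maxUnramified k K) := inferInstance
  have htow : IsScalarTower k L' (maxUnramified k K) := IsScalarTower.of_algebraMap_eq fun _ => rfl
  by_cases hfin : ∀ a, φ₀ a ≠ ∞
  · -- norm case
    let w := hφ₀.toValuation hfin
    have hw : ∀ c : ℚ_[p], w (algebraMap k L' (algebraMap ℚ_[p] k c)) = ‖c‖₊ := by
      intro c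
      apply ENNReal.coe_injective
      rw [hφ₀.coe_toValuation hfin, hφ₀.ext]
    have hnt : ∃ a : L', 1 < w a := by
      refine ⟨algebraMap k L' (algebraMap ℚ_[p] k ((p : ℚ_[p])⁻¹)), ?_⟩
      rw [hw, nnnorm_inv]
      have h1 := Padic.norm_p_lt_one (p := p)
      have h2 : ‖(p : ℚ_[p])‖₊ < 1 := by exact_mod_cast h1
      have h3 : 0 < ‖(p : ℚ_[p])‖₊ := by
        rw [nnnorm_pos]
        exact_mod_cast (Fact.out : p.Prime).ne_zero
      exact (one_lt_inv₀ h3).mpr h2
    obtain ⟨W, hWc, g, hg, hgz⟩ := A2d_275.exists_ext_aut w hnt z hz0 (by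
      intro W hW u
      by_contra hcon
      push Not at hcon
      obtain ⟨hu0, hlt⟩ := div_sub_one_lt W hcon hl.ne_zero
      have hu0' : u ≠ 0 := by
        rintro rfl
        exact hu0 (map_zero _)
      have h1 := hNP h' u rfl hu0'
      have h2 : W (z ^ l / (algebraMap L' (maxUnramified k K) u) ^ l - 1) = w (h' / u ^ l - 1) := by
        rw [← hW]; rfl
      rw [h2] at hlt
      rw [← hφ₀.coe_toValuation hfin] at h1
      exact absurd hlt (not_lt.mpr (by exact_mod_cast h1)))
    refine ⟨fun a => (W a : ℝ≥0∞), isPt_of_valuation W ?_, g.restrictScalars K, ?_, ?_, hgz⟩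
    · intro c
      have h1 : W (algebraMap L' (maxUnramified k K) (algebraMap k L' (algebraMap ℚ_[p] k c))) =
          w (algebraMap k L' (algebraMap ℚ_[p] k c)) := by
        rw [← hWc]; rfl
      rw [IsScalarTower.algebraMap_apply k L' (maxUnramified k K), h1, hw]
    · intro a ha
      exact g.commutes ⟨a, hLL' ha⟩
    · intro a
      change ((W (g a) : ℝ≥0) : ℝ≥0∞) = _
      rw [hg]
  · -- type 1 case
    push Not at hfin
    obtain ⟨a₀, ha₀⟩ := hfin
    let v := hφ₀.ring.valuation
    have hv1 : ∀ a, v a ≤ 1 ↔ φ₀ a ≠ ∞ := fun a => by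
      rw [ValuationSubring.valuation_le_one_iff]; rfl
    have hvlt : ∀ a, v a < 1 → φ₀ a = 0 := by
      intro a ha
      rcases eq_or_ne a 0 with rfl | ha0
      · exact hφ₀.map_zero
      have h1 : ¬ v a⁻¹ ≤ 1 := by
        rw [map_inv₀, not_le]
        exact (one_lt_inv₀ (zero_lt_iff.mpr ((Valuation.ne_zero_iff v).mpr ha0))).mpr ha
      rw [hv1, not_not, hφ₀.inv a ha0, ENNReal.inv_eq_top] at h1
      exact h1
    let _ : Algebra ℚ_[p] L' := ((algebraMap k L').comp (algebraMap ℚ_[p] k)).toAlgebra
    have : IsScalarTower ℚ_[p] k L' := IsScalarTower.of_algebraMap_eq fun _ => rfl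
    have hk_le : ∀ c : k, v (algebraMap k L' c) ≤ 1 := by
      intro c
      rw [hv1]
      refine hφ₀.ne_top_of_isIntegral ?_
      have h1 : IsIntegral ℚ_[p] c := Algebra.IsIntegral.isIntegral c
      exact h1.map (IsScalarTower.toAlgHom ℚ_[p] k L')
    have hk : ∀ c : k, c ≠ 0 → v (algebraMap k L' c) = 1 := by
      intro c hc
      refine le_antisymm (hk_le c) ?_
      have h1 := hk_le c⁻¹
      have h2 : v (algebraMap k L' c) ≠ 0 := by
        rw [Valuation.ne_zero_iff, map_ne_zero]
        exact hc
      rw [map_inv₀, map_inv₀] at h1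
      exact (inv_le_one₀ (zero_lt_iff.mpr h2)).mp h1
    have hnt : ∃ a : L', v a ≠ 0 ∧ v a ≠ 1 := by
      refine ⟨a₀, ?_, ?_⟩
      · intro h0
        have h1 : v a₀ ≤ 1 := by rw [h0]; exact zero_le_one
        exact (hv1 a₀).mp h1 ha₀
      · intro h0
        exact (hv1 a₀).mp h0.le ha₀
    have htR : IsScalarTower (RatFunc k) K L' := inferInstance
    have htK : IsScalarTower k (RatFunc k) L' := by
      refine IsScalarTower.of_algebraMap_eq (fun x => ?_)
      rw [IsScalarTower.algebraMap_apply (RatFunc k) K L',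
        ← IsScalarTower.algebraMap_apply k (RatFunc k) K, ← IsScalarTower.algebraMap_apply k K L']
    have hfR : FiniteDimensional (RatFunc k) L' := FiniteDimensional.trans (RatFunc k) K L'
    obtain ⟨PL, hPL⟩ := exists_place (k := k) (K := L') v hk hnt
    have hpl : IsPlace k (vR PL) := isPlace_vR PL
    have hequiv : (vR PL).IsEquiv v := (isEquiv_vR PL).symm.trans hPL
    have hnt1 : ∃ a : L', 1 < vR PL a := by
      obtain ⟨a, h0, h1⟩ := hpl.2
      rcases lt_or_gt_of_ne h1 with h2 | h2
      · refine ⟨a⁻¹, ?_⟩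
        rw [map_inv₀]
        exact (one_lt_inv₀ (pos_iff_ne_zero.mpr h0)).mpr h2
      · exact ⟨a, h2⟩
    obtain ⟨W, hWc, g, hg, hgz⟩ := A2d_275.exists_ext_aut (vR PL) hnt1 z hz0 (by
      intro W hW u
      by_contra hcon
      push Not at hcon
      obtain ⟨hu0, hlt⟩ := div_sub_one_lt W hcon hl.ne_zero
      have hu0' : u ≠ 0 := by
        rintro rfl
        exact hu0 (map_zero _)
      have h1 := hNP h' u rfl hu0'
      have h2 : W (z ^ l / (algebraMap L' (maxUnramified k K) u) ^ l - 1) =
          vR PL (h' / u ^ l - 1) := by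
        rw [← hW]; rfl
      rw [h2, hequiv.lt_one_iff_lt_one] at hlt
      rw [hvlt _ hlt] at h1
      exact absurd h1 (not_le.mpr zero_lt_one))
    have hplK : IsPlace k (W.comap (algebraMap K (maxUnramified k K))) := by
      have h1 : W.comap (algebraMap K (maxUnramified k K)) = (vR PL).comap (algebraMap K L') := by
        rw [← hWc]; rfl
      rw [h1]
      exact Unr3_957.isPlace_comap (F := K) hpl
    have hgood : GoodPl k K W := goodPl_of_isPlace W hplK
    obtain ⟨W₀, hW₀⟩ := exists_W (p := p) (k := k) (L := constField k K)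
    refine ⟨ptG W₀ W, ptG_isPt W₀ hW₀ hgood, g.restrictScalars K, ?_, ?_, hgz⟩
    · intro a ha
      exact g.commutes ⟨a, hLL' ha⟩
    · intro a
      exact ptG_inv W₀ hW₀ hgood (g.restrictScalars K) hg a

end final

end Crest.Agent.R013.A2e_275
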