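import Crest.Agent.R013.A2d_398

/-!
# R013 / C-A2, part e (helper398): `CInjS` (359) for a semistable structure of a field over the
Kummer cover
-/

set_option autoImplicit false
set_option linter.all false

namespace Crest.Agent.R013.A2_398

open scoped NNReal
open Module IsLocalRing WithZero
open Crest.Agent.R013.Red332 Crest.Agent.R013.Kumv2_275 Crest.Agent.R013.SSK_332
open Crest.Agent.R013.RR7_948 Crest.Agent.R013.RR8_948 Crest.Agent.R013.RR9_948
open Crest.Agent.R013.RR11_948
open Crest.Agent.R013.GR3_921 Crest.Agent.R013.Cell_408 Crest.Agent.R013.CB1_903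
open Crest.Agent.R013.Inh_770

section glue

variable {p : ℕ} [hp : Fact p.Prime] {k : Type*} [NontriviallyNormedField k] [CompleteSpace k]
  [IsUltrametricDist k] {C : Type*} [NormedField C] [IsUltrametricDist C] [NormedAlgebra k C]
  [Algebra.IsAlgebraic k C] [IsAlgClosed C] [hk : Fact (DiscNorm k)] [CharP (Ct C) p]
  [PerfectField (Ct C)]
  {K : Type*} [Field K] [Algebra C K] {S : SSK k C K}
  {L : Type*} [Field L]
  [Algebra C L] [Algebra K L] [IsScalarTower C K L] [FiniteDimensional K L] [IsGalois K L]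
  (D : A2Data p S L)
  {Y : Type*} [Field Y] [Algebra C Y] [Algebra K Y] [Algebra L Y]
  [IsScalarTower C K Y] [IsScalarTower C L Y] [IsScalarTower K L Y] (SY : SSK k C Y)
  (cov : (L ≃ₐ[K] L) →* (Y ≃ₐ[C] Y))
  (hcov : ∀ a f, cov a (algebraMap L Y f) = algebraMap L Y (a f))

include hcov in
/-- **`CInjS` for `Y`**: every vertex of `SY` lies over a norm of `L` over a vertex of `S`, with
the same residue field and the same stabiliser -/
theorem A2Data.cinjS (φ : ZMod p →+* Ct C)
    (h : ∀ W : SY.V, ∃ (v : S.V) (w : Nm C L) (_ : w.v.comap (algebraMap K L) = (S.nm v).v)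
      (hW : (SY.nm W).v.comap (algebraMap L Y) = w.v),
      Function.Surjective (kapMap w (SY.nm W) hW) ∧
      ∀ a : L ≃ₐ[K] L, (∀ f, w.v (a f) = w.v f) → ∀ f, (SY.nm W).v (cov a f) = (SY.nm W).v f) :
    M3_359.CInjS p SY cov (fun a => φ (PadicInt.toZMod (D.c a))) := by
  intro W
  obtain ⟨v, w, hw, hW, hsurj, hstab⟩ := h W
  exact D.cinj cov hcov v w hw (SY.nm W) hW hsurj hstab φ

/-- **`CInjS` for `L` itself** -/
theorem A2Data.cinjS_self [Algebra (RatFunc C) K] [IsScalarTower C (RatFunc C) K]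
    [FiniteDimensional (RatFunc C) K] [Algebra.IsSeparable (RatFunc C) K] (φ : ZMod p →+* Ct C) :
    M3_359.CInjS p D.spl.inh (resC C K L) (fun a => φ (PadicInt.toZMod (D.c a))) := by
  refine D.cinjS D.spl.inh (resC C K L) (fun a f => rfl) φ fun W => ?_
  have hW : (D.spl.inh.nm W).v.comap (algebraMap L L) = (D.spl.inh.nm W).v := by
    ext f
    rfl
  refine ⟨D.spl.vK D.spl.ffL W, D.spl.inh.nm W, D.spl.vK_comap D.spl.ffL W, hW, ?_,
    fun a ha f => ha f⟩
  intro z
  refine ⟨z, ?_⟩
  obtain ⟨f, -, rfl⟩ := red_surj (D.spl.inh.nm W) z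
  exact kapMap_red _ _ hW f

end glue

end Crest.Agent.R013.A2_398
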