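import Crest.Agent.R013.CY8_957

/-!
# R013 / CY9 (helper957): the rank of the `e`-part of the flows on the graph of `Y`
-/

set_option autoImplicit false
set_option linter.unusedSectionVars false
set_option linter.style.haveILetI false

namespace Crest.Agent.R013.CY_957

open scoped NNReal
open Module WithZero
open Crest.NumberTheoryR.Sect
open Crest.Agent.R013.RR7_948 Crest.Agent.R013.Cell_408 Crest.Agent.R013.EE809
open Crest.Agent.R013.SSK_332 Crest.Agent.R013.Inh_770 Crest.Agent.R013.Red332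
open Crest.Agent.R013.TopE1_957 Crest.Agent.R013.TopE4_957 Crest.Agent.R013.TopE7_957
open Crest.Agent.R013.Desc_372 Crest.Agent.R013.DEm_719 Crest.Agent.R013.DEm_719.GalAct
open Crest.Agent.R013.Kumv2_275 Crest.Agent.R013.Rank_770

variable {k C : Type*} [NontriviallyNormedField k] [CompleteSpace k] [IsUltrametricDist k]
  [NormedField C] [IsUltrametricDist C] [NormedAlgebra k C] [Algebra.IsAlgebraic k C]
  [IsAlgClosed C] [hk : Fact (DiscNorm k)]

variable {κ M K1 K Y₀ Y : Type*} [Field κ] [Field M] [Field K1] [Field K] [Field Y₀] [Field Y]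
  [Algebra k κ] [Algebra κ C] [IsScalarTower k κ C]
  [Algebra κ M] [Algebra κ K] [Algebra κ Y₀] [Algebra κ Y]
  [Algebra C K1] [Algebra C K] [Algebra C Y] [Algebra K1 K] [Algebra K1 Y] [Algebra K Y]
  [Algebra M K] [Algebra M Y₀] [Algebra M Y] [Algebra Y₀ Y]
  [IsScalarTower C K1 K] [IsScalarTower C K1 Y] [IsScalarTower C K Y] [IsScalarTower K1 K Y]
  [IsScalarTower κ C K] [IsScalarTower κ M K] [IsScalarTower κ C Y] [IsScalarTower κ Y₀ Y]
  [IsScalarTower M K Y] [IsScalarTower M Y₀ Y]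
  [FiniteDimensional K1 K] [IsGalois K1 K] [FiniteDimensional K1 Y] [IsGalois K1 Y]
  [FiniteDimensional K Y] [IsGalois K Y]
  [Algebra (RatFunc C) K1] [IsScalarTower C (RatFunc C) K1]
  [FiniteDimensional (RatFunc C) K1] [Algebra.IsSeparable (RatFunc C) K1]
  [CE κ C M K] [CE κ C Y₀ Y] {S : SSK k C K1} (P : Spl S K) (PY : Spl S Y)
variable (hs : ∀ w : Valuation Y ℝ≥0, (∀ c : C, w (algebraMap C Y c) ≤ ‖c‖₊) →
    SplitAt (w.comap (algebraMap M Y)) Y₀)
  (ρ : (K ≃ₐ[K1] K) →* (Y ≃ₐ[K1] Y))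
  (hρ : ∀ a (f : K), ρ a (algebraMap K Y f) = algebraMap K Y (a f))
  (hcomm : ∀ a (τ : Y ≃ₐ[K] Y) f, ρ a (τ f) = τ (ρ a f))
  (hcop : (finrank K Y).Coprime (finrank K1 K))

omit [Algebra k κ] [IsScalarTower k κ C] in
include hρ in
theorem ρ_injective : Function.Injective ρ := by
  rw [injective_iff_map_eq_one]
  intro a ha
  ext f
  apply (algebraMap K Y).injective
  rw [← hρ, ha]
  rfl

variable (κ) in
include κ hs hρ hcomm hcop in
/-- **C-RANK for `Y`.**  `F` any field of characteristic zero (`ℚ_[p]`), `e` an idempotent of the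
group algebra of `Gal(K/K1)`; every vertex `w` of `K` has a trivial stabiliser and lies over a
vertex of `K1` with `Q` (= genus zero), or `e` is killed by a subgroup of its stabiliser.
Then `n #Ed(S) ≤ dim (e·ker d) + n #{v : S.V | Q v}`. -/
theorem rank_top {F : Type*} [Field F] [CharZero F] [Fintype (K ≃ₐ[K1] K)]
    {e : (K ≃ₐ[K1] K) → F} (he : IsIdem e) (h0 : e ≠ 0) (Q : S.V → Prop)
    (hQ : ∀ w : P.inh.V, (Q (vI P w) ∧ ∀ a : K ≃ₐ[K1] K, Fix a (P.inh.nm w) → a = 1) ∨
      ∃ (B : Subgroup (K ≃ₐ[K1] K)) (_ : Fintype B), (∀ b ∈ B, Fix b (P.inh.nm w)) ∧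
        ∀ a, ∑ b : B, e (a * (b : K ≃ₐ[K1] K)) = 0)
    (d : (PY.inh.Ed → F) →ₗ[F] (PY.inh.V → F))
    (hd : letI := mV PY ρ; letI := mE PY ρ
      ∀ (a : K ≃ₐ[K1] K) f, d (act F PY.inh.Ed a f) = act F PY.inh.V a (d f)) :
    finrank K Y * Nat.card S.Ed ≤
      (letI := mE PY ρ; finrank F (eker e d)) + finrank K Y * Nat.card {v : S.V // Q v} := by
  classical
  letI := mV PY ρ
  letI := mE PY ρ
  haveI := PY.inh.fEd
  haveI := PY.inh.fV
  haveI : Finite S.V := @Finite.of_fintype _ S.fV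
  have hfix := fix_iff κ P PY hs ρ hρ hcomm hcop
  -- both alternatives exclude each other
  have hex : ∀ w : P.inh.V, (∀ a : K ≃ₐ[K1] K, Fix a (P.inh.nm w) → a = 1) → Q (vI P w) := by
    intro w hw
    rcases hQ w with h | ⟨B, hB, hB1, hB2⟩
    · exact h.1
    · exfalso
      apply h0
      have hB3 : ∀ b : B, b = 1 := fun b => Subtype.ext (hw b (hB1 b b.2))
      haveI : Unique B := ⟨⟨1⟩, hB3⟩
      funext a
      have h4 := hB2 a
      rw [Fintype.sum_unique] at h4
      have h5 : ((default : B) : K ≃ₐ[K1] K) = 1 := congrArg Subtype.val (hB3 default)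
      rw [h5, mul_one] at h4
      exact h4
  have hT : Nat.card (Triv P) ≤ Nat.card {v : S.V // Q v} := by
    refine Nat.card_le_card_of_injective (fun v : Triv P => (⟨v.1, ?_⟩ : {v : S.V // Q v})) ?_
    · obtain ⟨v, w, rfl, hw⟩ := v
      exact hex w hw
    · intro v v' h
      exact Subtype.ext (congrArg (fun x : {v : S.V // Q v} => x.1) h)
  have hmain := rank_ge he h0 (E := PY.inh.Ed) (V := PY.inh.V)
    (fun a x hx => free_mE PY ρ (ρ_injective ρ hρ) a x hx) (V0 PY ρ)
    (fun a w hw haw => by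
      apply hw
      intro f
      have h1 : ∀ f, (PY.inh.nm (a • w)).v (ρ a f) = (PY.inh.nm w).v f := nm_mV PY ρ a w
      have h2 := h1 f
      rw [haw] at h2
      exact h2)
    (fun w hw => by
      rcases hQ (vY P PY w) with h | ⟨B, hB, hB1, hB2⟩
      · exfalso
        apply hw
        intro a ha
        rw [hfix] at ha
        exact h.2 a ha
      · refine ⟨B, hB, fun b hb => ?_, hB2⟩
        have h1 := (mV_eq_iff PY ρ b w w).2 ((hfix b w).2 (hB1 b hb))
        exact h1) d hd (finrank K Y * Nat.card S.Ed) (finrank K Y * Nat.card (Triv P)) (by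
      rw [← Nat.card_eq_fintype_card, ← Nat.card_eq_fintype_card, card_Ed_top,
        IsGalois.card_aut_eq_finrank, ← finrank_mul_finrank K1 K Y]
      ring) (by
      rw [← Nat.card_eq_fintype_card]
      exact card_V0 κ P PY hs ρ hρ hcomm hcop)
  exact hmain.trans (Nat.add_le_add_left (Nat.mul_le_mul_left _ hT) _)

end Crest.Agent.R013.CY_957
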