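import Crest.Agent.R013.TP18_928

/-!
# R013 / C-FIN (helper928), part 5: equivariance of the boundary; extension of isometries

* `ActS S cov` : actions of `A` on the vertices and edges compatible with `cov`;
* `bdry_act` : the boundary is equivariant (hypothesis `hd` of `Rank_770.rank_ge`);
* `extF` : extension of an isometric endomorphism of `C` to the complete field `F`.
-/

set_option autoImplicit false
set_option linter.unusedSectionVars false
set_option linter.style.haveILetI false

namespace Crest.Agent.R013.Fin_928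

open scoped NNReal
open WithZero Module PadicInt
open Crest.Agent.R013.RR7_948 Crest.Agent.R013.RR8_948
open Crest.Agent.R013.Red332 Crest.Agent.R013.SSK_332 Crest.Agent.R013.TP_928

section act

variable {k : Type*} [NontriviallyNormedField k] [CompleteSpace k]
variable {C : Type*} [NormedField C] [IsUltrametricDist C] [NormedAlgebra k C]
  [Algebra.IsAlgebraic k C]
variable {K : Type*} [Field K] [Algebra C K] (S : SSK k C K)
variable {A : Type*} [Group A] [MulAction A S.Ed] [MulAction A S.V]

/-- the actions on vertices and edges are compatible with the action `cov` on `K` -/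
structure ActS (cov : A →* (K ≃ₐ[C] K)) : Prop where
  nmV : ∀ (a : A) (w : S.V) f, (S.nm (a • w)).v (cov a f) = (S.nm w).v f
  nm0 : ∀ (a : A) (e : S.Ed) f, (S.nm (S.e0 (a • e)).1).v (cov a f) = (S.nm (S.e0 e).1).v f
  nm1 : ∀ (a : A) (e : S.Ed) f, (S.nm (S.e1 (a • e)).1).v (cov a f) = (S.nm (S.e1 e).1).v f

variable {S} {cov : A →* (K ≃ₐ[C] K)}

theorem ActS.eq_of (h : ActS S cov) {a : A} {w w' : S.V}
    (hw : ∀ f, (S.nm w').v (cov a f) = (S.nm w).v f) : w' = a • w := by
  apply S.nm_inj
  apply Nm.ext'
  intro f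
  have h1 : f = cov a (cov a⁻¹ f) := by
    have h2 : cov a (cov a⁻¹ f) = (cov a * cov a⁻¹) f := rfl
    rw [h2, ← map_mul, mul_inv_cancel, map_one]
    rfl
  rw [h1, hw, h.nmV]

theorem ActS.e0_fst (h : ActS S cov) (a : A) (e : S.Ed) :
    (S.e0 (a • e)).1 = a • (S.e0 e).1 := h.eq_of (h.nm0 a e)

theorem ActS.e1_fst (h : ActS S cov) (a : A) (e : S.Ed) :
    (S.e1 (a • e)).1 = a • (S.e1 e).1 := h.eq_of (h.nm1 a e)

/-- the boundary is equivariant -/
theorem bdry_act {R : Type*} [Field R] (h : ActS S cov) (a : A) (lam : S.Ed → R) :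
    bdry S R (Rank_770.act R S.Ed a lam) = Rank_770.act R S.V a (bdry S R lam) := by
  classical
  haveI := S.fEd
  funext v
  rw [Rank_770.act_apply, bdry_apply, bdry_apply]
  simp only [Rank_770.act_apply]
  congr 1
  · refine (Fintype.sum_equiv (MulAction.toPerm a) _ _ fun e => ?_).symm
    change _ = if (S.e0 (a • e)).1 = v then lam (a⁻¹ • a • e) else 0
    rw [h.e0_fst, inv_smul_smul]
    refine if_congr ?_ rfl rfl
    rw [eq_inv_smul_iff]
  · refine (Fintype.sum_equiv (MulAction.toPerm a) _ _ fun e => ?_).symm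
    change _ = if (S.e1 (a • e)).1 = v then lam (a⁻¹ • a • e) else 0
    rw [h.e1_fst, inv_smul_smul]
    refine if_congr ?_ rfl rfl
    rw [eq_inv_smul_iff]

end act

section ext

variable {C F : Type*} [NormedField C] [NormedField F] [CompleteSpace F] (σ : C →+* F)
  (hσ : ∀ a, ‖σ a‖ = ‖a‖) (hd : DenseRange σ) (s : C →+* C) (hs : ∀ a, ‖s a‖ = ‖a‖)

/-- extension of an isometric endomorphism of `C` to `F` -/
noncomputable def extF : F →+* F :=
  IsDenseInducing.extendRingHom (i := σ) (f := σ.comp s)
    (AddMonoidHomClass.isometry_of_norm σ hσ).isUniformInducing hd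
    (AddMonoidHomClass.isometry_of_norm (σ.comp s)
      (fun a => by rw [RingHom.comp_apply, hσ, hs])).uniformContinuous

theorem extF_apply (a : C) : extF σ hσ hd s hs (σ a) = σ (s a) := by
  have hu := (AddMonoidHomClass.isometry_of_norm σ hσ).isUniformInducing
  have hc : Continuous (σ.comp s) := (AddMonoidHomClass.isometry_of_norm (σ.comp s)
      (fun a => by rw [RingHom.comp_apply, hσ, hs])).continuous
  exact (hu.isDenseInducing hd).extend_eq hc a

theorem continuous_extF : Continuous (extF σ hσ hd s hs) :=
  (uniformContinuous_uniformly_extend (AddMonoidHomClass.isometry_of_norm σ hσ).isUniformInducing hd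
    (AddMonoidHomClass.isometry_of_norm (σ.comp s)
      (fun a => by rw [RingHom.comp_apply, hσ, hs])).uniformContinuous).continuous

theorem norm_extF (x : F) : ‖extF σ hσ hd s hs x‖ = ‖x‖ := by
  refine hd.induction_on x ?_ fun a => ?_
  · exact isClosed_eq ((continuous_extF σ hσ hd s hs).norm) continuous_norm
  · rw [extF_apply, hσ, hs, hσ]

theorem isometry_extF : Isometry (extF σ hσ hd s hs) :=
  AddMonoidHomClass.isometry_of_norm _ (norm_extF σ hσ hd s hs)

end ext

end Crest.Agent.R013.Fin_928
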