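import Crest.Agent.R013.A2e_398
import Crest.Agent.R013.CY9_957
import Crest.Agent.R013.TP19_928

/-!
# R013 / C-A2, part f (helper398): `CInjS` and the rank for the field `Y` of 957's C-Y
-/

set_option autoImplicit false
set_option linter.all false

namespace Crest.Agent.R013.A2_398

open scoped NNReal
open Module IsLocalRing WithZero
open Crest.Agent.R013.Red332 Crest.Agent.R013.Kumv2_275 Crest.Agent.R013.SSK_332
open Crest.Agent.R013.RR7_948 Crest.Agent.R013.RR8_948 Crest.Agent.R013.RR9_948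
open Crest.Agent.R013.RR11_948
open Crest.Agent.R013.GR3_921 Crest.Agent.R013.Cell_408 Crest.Agent.R013.CB1_903
open Crest.Agent.R013.Inh_770 Crest.Agent.R013.TopE1_957 Crest.Agent.R013.Desc_372
open Crest.Agent.R013.CY_957 (vY nm_vY comap_vY kapMap_top fix_iff vI Fix mV mE)
open Crest.Agent.R013.Rank_770 Crest.Agent.R013.TP_928 Crest.Agent.R013.Fin_928

section top

variable {p : ℕ} [hp : Fact p.Prime] {k : Type*} [NontriviallyNormedField k] [CompleteSpace k]
  [IsUltrametricDist k] {C : Type*} [NormedField C] [IsUltrametricDist C] [NormedAlgebra k C]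
  [Algebra.IsAlgebraic k C] [IsAlgClosed C] [hk : Fact (DiscNorm k)] [CharP (Ct C) p]
  [PerfectField (Ct C)]

variable {κ M K1 K Y₀ Y : Type*} [Field κ] [Field M] [Field K1] [Field K] [Field Y₀] [Field Y]
  [Algebra k κ] [Algebra κ C] [IsScalarTower k κ C]
  [Algebra κ M] [Algebra κ K] [Algebra κ Y₀] [Algebra κ Y]
  [Algebra C K1] [Algebra C K] [Algebra C Y] [Algebra K1 K] [Algebra K1 Y] [Algebra K Y]
  [Algebra M K] [Algebra M Y₀] [Algebra M Y] [Algebra Y₀ Y]
  [IsScalarTower C K1 K] [IsScalarTower C K1 Y] [IsScalarTower C K Y] [IsScalarTower K1 K Y]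
  [IsScalarTower κ C K] [IsScalarTower κ M K] [IsScalarTower κ C Y] [IsScalarTower κ Y₀ Y]
  [IsScalarTower M K Y] [IsScalarTower M Y₀ Y]
  [FiniteDimensional K1 K] [IsGalois K1 K] [FiniteDimensional K1 Y] [IsGalois K1 Y]
  [FiniteDimensional K Y] [IsGalois K Y]
  [Algebra (RatFunc C) K1] [IsScalarTower C (RatFunc C) K1]
  [FiniteDimensional (RatFunc C) K1] [Algebra.IsSeparable (RatFunc C) K1]
  [CE κ C M K] [CE κ C Y₀ Y] {S : SSK k C K1} (D : A2Data p S K) (PY : Spl S Y)

variable (hs : ∀ w : Valuation Y ℝ≥0, (∀ c : C, w (algebraMap C Y c) ≤ ‖c‖₊) →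
    SplitAt (w.comap (algebraMap M Y)) Y₀)
  (ρ : (K ≃ₐ[K1] K) →* (Y ≃ₐ[K1] Y))
  (hρ : ∀ a (f : K), ρ a (algebraMap K Y f) = algebraMap K Y (a f))
  (hcomm : ∀ a (τ : Y ≃ₐ[K] Y) f, ρ a (τ f) = τ (ρ a f))
  (hcop : (Module.finrank K Y).Coprime (Module.finrank K1 K))

variable (κ) in
include κ hs hρ hcomm hcop in
/-- **`CInjS` for the field `Y` of C-Y** -/
theorem A2Data.cinjS_top (φ : ZMod p →+* Ct C) :
    M3_359.CInjS p PY.inh ((resC C K1 Y).comp ρ) (fun a => φ (PadicInt.toZMod (D.c a))) := by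
  refine D.cinjS PY.inh ((resC C K1 Y).comp ρ) (fun a f => hρ a f) φ fun W => ?_
  refine ⟨D.spl.vK D.spl.ffL (vY D.spl PY W), D.spl.inh.nm (vY D.spl PY W),
    D.spl.vK_comap D.spl.ffL _, comap_vY D.spl PY W, (kapMap_top κ D.spl PY hs W).2,
    fun a ha => ?_⟩
  exact (fix_iff κ D.spl PY hs ρ hρ hcomm hcop a W).2 ha

/-- the idempotent over `ℚ_[p]` -/
theorem A2Data.isIdem : Rank_770.IsIdem (fun a : K ≃ₐ[K1] K => (D.c a : ℚ_[p])) := by
  intro a
  have h := D.c_idem a
  have h2 := congrArg (fun z : ℤ_[p] => (z : ℚ_[p])) h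
  simpa using h2

theorem A2Data.cQ_ne : (fun a : K ≃ₐ[K1] K => (D.c a : ℚ_[p])) ≠ 0 := by
  intro h
  apply D.c_ne
  funext a
  have h1 : (D.c a : ℚ_[p]) = 0 := congrFun h a
  rw [← PadicInt.coe_zero] at h1
  exact Subtype.coe_injective h1

variable (κ) in
include κ hs hρ hcomm hcop in
/-- **C-RANK for the field `Y` of C-Y**: the rank of the `e`-part of the flows is at least the
degree of `Y / K` -/
theorem A2Data.rank_top [CharZero C] {g : ℕ} (hg : HasGen C K1 g) (h2 : 2 ≤ g) (hS : S.Conn)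
    (hVE : nV S ≤ nE S) (d : (PY.inh.Ed → ℚ_[p]) →ₗ[ℚ_[p]] (PY.inh.V → ℚ_[p]))
    (hd : letI := mV PY ρ; letI := mE PY ρ
      ∀ (a : K ≃ₐ[K1] K) f, d (act ℚ_[p] PY.inh.Ed a f) = act ℚ_[p] PY.inh.V a (d f)) :
    Module.finrank K Y ≤
      (letI := mE PY ρ; Module.finrank ℚ_[p] (eker (fun a : K ≃ₐ[K1] K => (D.c a : ℚ_[p])) d)) := by
  classical
  have hmain := CY_957.rank_top κ D.spl PY hs ρ hρ hcomm hcop D.isIdem D.cQ_ne
    (fun v => v ∈ V0 S) (fun w => by
      rcases D.dich w with h | h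
      · exact Or.inl ⟨h.1, fun a ha => h.2 a ha⟩
      · right
        let B : Subgroup (K ≃ₐ[K1] K) :=
          { carrier := {a | Fix a (D.spl.inh.nm w)}
            mul_mem' := fun {a b} ha hb f => (ha (b f)).trans (hb f)
            one_mem' := fun f => rfl
            inv_mem' := fun {a} ha f => by
              have h1 := ha (a⁻¹ f)
              have h2 : a (a⁻¹ f) = f := AlgEquiv.apply_symm_apply a f
              rw [h2] at h1
              exact h1.symm }
        have hB : ∀ b ∈ B, Fix b (D.spl.inh.nm w) := fun b hb => hb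
        refine ⟨B, Fintype.ofFinite B, hB, fun a => ?_⟩
        letI : Fintype B := Fintype.ofFinite B
        have h3 := h B (fun σ => Iff.rfl) a
        have h4 := congrArg (fun z : ℤ_[p] => (z : ℚ_[p])) h3
        simpa using h4) d hd
  have h0 := card_V0_lt S hg h2 hS hVE
  have h5 : Nat.card {v : S.V // v ∈ V0 S} + 1 ≤ Nat.card S.Ed := h0
  have h6 := Nat.mul_le_mul_left (Module.finrank K Y) h5
  rw [mul_add, mul_one] at h6
  omega

end top

end Crest.Agent.R013.A2_398
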