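import Mathlib

/-!
# Part A of row 13: from an `l`-Sylow subgroup to the whole profinite group

`fp4`: let `G` be profinite, `D` a closed subgroup of index prime to `l`, `h ∈ G` with
`h ^ (l ^ n) → 1`, and suppose that `y⁻¹ h ^ (l ^ n) y ∈ D → y ∈ D` for all `n`.  Then `D = ⊤`.
-/

namespace Crest.Agent.R013.Fp4_831

open Subgroup

section Finite

variable {G : Type*} [Group G]

/-- Finite fixed point lemma: an element `g` whose `l ^ k`-th power acts trivially on `G ⧸ K`,
`K` of finite index prime to `l`, has a fixed point on `G ⧸ K`. -/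
theorem exists_conj_mem {l : ℕ} (hl : l.Prime) (K : Subgroup G) (hK : ¬ l ∣ K.index) (g : G)
    (k : ℕ) (hg : ∀ y : G, y⁻¹ * g ^ (l ^ k) * y ∈ K) : ∃ y : G, y⁻¹ * g * y ∈ K := by
  have : Fact l.Prime := ⟨hl⟩
  have hK0 : K.index ≠ 0 := fun h => hK (h ▸ dvd_zero l)
  have hfin : Finite (G ⧸ K) := Subgroup.index_ne_zero_iff_finite.mp hK0
  let φ : G →* Equiv.Perm (G ⧸ K) := MulAction.toPermHom G (G ⧸ K)
  have hσ : (φ g) ^ (l ^ k) = 1 := by
    ext q
    induction q using QuotientGroup.induction_on with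
    | H y =>
      rw [← map_pow]
      change ((g ^ (l ^ k) * y : G) : G ⧸ K) = (y : G ⧸ K)
      rw [eq_comm, QuotientGroup.eq]
      simpa [mul_assoc] using hg y
  have hp : IsPGroup l (zpowers (φ g)) := by
    apply IsPGroup.of_card_dvd_pow (n := k)
    rw [Nat.card_zpowers]
    exact orderOf_dvd_of_pow_eq_one hσ
  obtain ⟨q, hq⟩ := hp.nonempty_fixed_point_of_prime_not_dvd_card (G ⧸ K)
    (by rwa [← Subgroup.index_eq_card])
  induction q using QuotientGroup.induction_on with
  | H y =>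
    refine ⟨y, ?_⟩
    have := hq ⟨φ g, mem_zpowers _⟩
    change ((g * y : G) : G ⧸ K) = (y : G ⧸ K) at this
    rw [eq_comm, QuotientGroup.eq] at this
    simpa [mul_assoc] using this

/-- `[G : K] = [N : N ∩ K] [G : N K]` for `N` normal of finite index. -/
theorem relIndex_mul_index_sup (N K : Subgroup G) [N.Normal] (hN : N.index ≠ 0) :
    K.relIndex N * (N ⊔ K).index = K.index := by
  have h1 : K.relIndex N * N.index = (K ⊓ N).index := by
    rw [← inf_relIndex_right]; exact relIndex_mul_index inf_le_right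
  have h2 : N.relIndex K * K.index = (K ⊓ N).index := by
    rw [← inf_relIndex_right, inf_comm]; exact relIndex_mul_index inf_le_left
  have h3 : N.relIndex K * (N ⊔ K).index = N.index := by
    rw [← relIndex_sup_left]; exact relIndex_mul_index le_sup_left
  have h4 : N.relIndex K ≠ 0 := fun h => hN (by rw [← h3, h, zero_mul])
  apply Nat.eq_of_mul_eq_mul_left (Nat.pos_of_ne_zero h4)
  rw [h2, ← h1, ← h3]; ring

/-- Relative form: for a normal subgroup `N` of finite index containing `g`, a solution of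
`y⁻¹ g y ∈ K` exists in every coset `x N`. -/
theorem exists_conj_mem_of_normal {l : ℕ} (hl : l.Prime) (N K : Subgroup G) [N.Normal]
    (hN : N.index ≠ 0)
    (hK : ¬ l ∣ K.index) (x g : G) (k : ℕ) (hgN : g ∈ N)
    (hg : ∀ y : G, y⁻¹ * g ^ (l ^ k) * y ∈ K) : ∃ y : G, x⁻¹ * y ∈ N ∧ y⁻¹ * g * y ∈ K := by
  have hdvd : (K.subgroupOf N).index ∣ K.index :=
    ⟨_, (relIndex_mul_index_sup N K hN).symm⟩
  have hg' : x⁻¹ * g * x ∈ N := by
    have := (inferInstance : N.Normal).conj_mem g hgN x⁻¹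
    simpa using this
  obtain ⟨y, hy⟩ := exists_conj_mem hl (K.subgroupOf N) (fun h => hK (h.trans hdvd))
    ⟨x⁻¹ * g * x, hg'⟩ k (by
      intro y
      rw [mem_subgroupOf]
      have := hg (x * y)
      have h2 : (x⁻¹ * g * x) ^ (l ^ k) = x⁻¹ * g ^ (l ^ k) * x := by
        simpa using (conj_pow (a := x⁻¹) (b := g) (i := l ^ k))
      simp only [coe_mul, InvMemClass.coe_inv, SubmonoidClass.mk_pow, h2]
      simpa [mul_assoc] using this)
  refine ⟨x * y, by simp, ?_⟩
  rw [mem_subgroupOf] at hy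
  simpa [mul_assoc] using hy

end Finite

section Profinite

variable {G : Type*} [Group G] [TopologicalSpace G] [IsTopologicalGroup G] [CompactSpace G]
  [TotallyDisconnectedSpace G]

/-- An open normal subgroup inside an open subgroup. -/
theorem exists_openNormal_le (U : Subgroup G) (hU : IsOpen (U : Set G)) :
    ∃ N : OpenNormalSubgroup G, (N : Subgroup G) ≤ U :=
  ProfiniteGrp.exist_openNormalSubgroup_sub_open_nhds_of_one hU U.one_mem

/-- A closed subgroup is the intersection of the `D N`, `N` open normal. -/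
theorem mem_of_forall_mem_sup (D : Subgroup G) (hD : IsClosed (D : Set G)) (z : G)
    (hz : ∀ N : OpenNormalSubgroup G, z ∈ D ⊔ (N : Subgroup G)) : z ∈ D := by
  have h := ProfiniteGrp.closedSubgroup_eq_sInf_open (⟨D, hD⟩ : ClosedSubgroup G)
  have h' : D = sInf {N : Subgroup G | IsOpen (N : Set G) ∧ D ≤ N} := h
  rw [h', mem_sInf]
  rintro V ⟨hVo, hDV⟩
  obtain ⟨N, hN⟩ := exists_openNormal_le V hVo
  exact (sup_le hDV hN) (hz N)

omit [TotallyDisconnectedSpace G] in
theorem index_ne_zero_of_isOpen (U : Subgroup G) (hU : IsOpen (U : Set G)) : U.index ≠ 0 := by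
  have := Subgroup.quotient_finite_of_isOpen U hU
  exact Subgroup.index_ne_zero_of_finite

/-- **(FP4)** `D` a closed subgroup of the profinite group `G`, of index prime to `l`; `h ∈ G`
with `h ^ (l ^ n) → 1`; if `y⁻¹ h ^ (l ^ n) y ∈ D` implies `y ∈ D` for all `y` and `n` then
`D = ⊤`. -/
theorem fp4 {l : ℕ} (hl : l.Prime) (D : Subgroup G) (hD : IsClosed (D : Set G))
    (hind : ∀ N : OpenNormalSubgroup G, ¬ l ∣ (D ⊔ (N : Subgroup G)).index)
    (h : G) (hh : ∀ N : OpenNormalSubgroup G, ∃ n : ℕ, h ^ (l ^ n) ∈ N)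
    (hU : ∀ (y : G) (n : ℕ), y⁻¹ * h ^ (l ^ n) * y ∈ D → y ∈ D) : D = ⊤ := by
  rw [eq_top_iff]
  rintro x -
  apply mem_of_forall_mem_sup D hD
  intro N
  obtain ⟨n, hn⟩ := hh N
  let g := h ^ (l ^ n)
  let F : OpenNormalSubgroup G → Set G := fun M =>
    {y | x⁻¹ * y ∈ N ∧ y⁻¹ * g * y ∈ D ⊔ (M : Subgroup G)}
  have hFne : ∀ M, (F M).Nonempty := by
    intro M
    obtain ⟨k, hk⟩ := hh M
    obtain ⟨y, hy1, hy2⟩ := exists_conj_mem_of_normal hl (N : Subgroup G)
      (D ⊔ (M : Subgroup G)) (index_ne_zero_of_isOpen _ N.isOpen) (hind M) x g k hn (by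
        intro y
        apply (le_sup_right : (M : Subgroup G) ≤ D ⊔ (M : Subgroup G))
        have h1 : g ^ (l ^ k) ∈ (M : Subgroup G) := by
          have : g ^ (l ^ k) = (h ^ (l ^ k)) ^ (l ^ n) := by
            simp only [g]
            rw [← pow_mul, ← pow_mul, mul_comm]
          rw [this]
          exact pow_mem hk _
        have := (inferInstance : (M : Subgroup G).Normal).conj_mem _ h1 y⁻¹
        simpa using this)
    exact ⟨y, hy1, hy2⟩
  have hFcl : ∀ M, IsClosed (F M) := by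
    intro M
    have h1 : IsClosed {y : G | x⁻¹ * y ∈ N} :=
      (N.toOpenSubgroup.isClosed).preimage (continuous_const.mul continuous_id)
    have h2 : IsClosed ((D ⊔ (M : Subgroup G) : Subgroup G) : Set G) :=
      Subgroup.isClosed_of_isOpen _ (Subgroup.isOpen_mono le_sup_right M.isOpen)
    exact h1.inter (h2.preimage (by fun_prop : Continuous fun y : G => y⁻¹ * g * y))
  have hFdir : Directed (· ⊇ ·) F := by
    intro M₁ M₂
    refine ⟨M₁ ⊓ M₂, ?_, ?_⟩
    · rintro y ⟨h1, h2⟩
      exact ⟨h1, (sup_le_sup_left (show ((M₁ ⊓ M₂ : OpenNormalSubgroup G) : Subgroup G) ≤ M₁ from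
        inf_le_left) D) h2⟩
    · rintro y ⟨h1, h2⟩
      exact ⟨h1, (sup_le_sup_left (show ((M₁ ⊓ M₂ : OpenNormalSubgroup G) : Subgroup G) ≤ M₂ from
        inf_le_right) D) h2⟩
  have : Nonempty (OpenNormalSubgroup G) := ⟨N⟩
  obtain ⟨y, hy⟩ := IsCompact.nonempty_iInter_of_directed_nonempty_isCompact_isClosed F hFdir hFne
    (fun M => (hFcl M).isCompact) hFcl
  rw [Set.mem_iInter] at hy
  have hyD : y ∈ D := hU y n (mem_of_forall_mem_sup D hD _ fun M => (hy M).2)
  have hxy : x⁻¹ * y ∈ (N : Subgroup G) := (hy N).1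
  have : x = y * (x⁻¹ * y)⁻¹ := by group
  rw [this]
  exact mul_mem (le_sup_left (a := D) hyD)
    (inv_mem ((le_sup_right : (N : Subgroup G) ≤ D ⊔ (N : Subgroup G)) hxy))

/-- `H` is a closed subgroup of `G` of index prime to `l` (as a supernatural number). -/
structure IsCoSylow (l : ℕ) (H : Subgroup G) : Prop where
  closed : IsClosed (H : Set G)
  not_dvd : ∀ N : OpenNormalSubgroup G, ¬ l ∣ (H ⊔ (N : Subgroup G)).index

omit [IsTopologicalGroup G] [CompactSpace G] [TotallyDisconnectedSpace G] in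
/-- A closed subgroup containing one of index prime to `l` is of index prime to `l`. -/
theorem IsCoSylow.mono {l : ℕ} {H D : Subgroup G} (hH : IsCoSylow l H) (hHD : H ≤ D)
    (hD : IsClosed (D : Set G)) : IsCoSylow l D :=
  ⟨hD, fun N h => hH.not_dvd N (h.trans (index_dvd_of_le (sup_le_sup_right hHD _)))⟩

/-- **(FP4), action version.**  -/
theorem fp4_smul {l : ℕ} (hl : l.Prime) {T : Type*} [MulAction G T] (w : T)
    (hcl : IsClosed (MulAction.stabilizer G w : Set G)) (H : Subgroup G) (hH : IsCoSylow l H)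
    (hHw : ∀ g ∈ H, g • w = w) (h : G)
    (hh : ∀ N : OpenNormalSubgroup G, ∃ n : ℕ, h ^ (l ^ n) ∈ N)
    (hU : ∀ (n : ℕ) (w' : T), h ^ (l ^ n) • w' = w' → w' = w) (g : G) : g • w = w := by
  have key : MulAction.stabilizer G w = ⊤ := by
    refine fp4 hl _ hcl (hH.mono (fun g hg => hHw g hg) hcl).not_dvd h hh ?_
    intro y n hy
    rw [MulAction.mem_stabilizer_iff] at hy ⊢
    apply hU n
    rw [mul_smul, mul_smul, inv_smul_eq_iff] at hy
    exact hy
  have : g ∈ MulAction.stabilizer G w := key ▸ mem_top g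
  exact this

end Profinite

end Crest.Agent.R013.Fp4_831
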