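import Mathlib
import Crest.Agent.R013.Fp4_831

/-!
# Pro-`l` Sylow subgroups of profinite groups

`exists_sylow`: a profinite group has a closed subgroup `H` of index prime to `l` (i.e.
`l ∤ [G : H N]` for every open normal `N`) which is pro-`l` (`h ^ (l ^ n) → 1` for `h ∈ H`).
`IsCoSylow.map`, `IsProl.map`: images.  `exists_pow_notMem_ker`: the element `h` needed in FP4.
-/

namespace Crest.Agent.R013.Fp4_831

open Subgroup

section Sylow

variable {G : Type*} [Group G] [TopologicalSpace G] [IsTopologicalGroup G] [CompactSpace G]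
  [TotallyDisconnectedSpace G]

/-- `H` is pro-`l`: the image of `H` in every finite quotient `G ⧸ N` is an `l`-group. -/
def IsProl (l : ℕ) (H : Subgroup G) : Prop :=
  ∀ h ∈ H, ∀ N : OpenNormalSubgroup G, ∃ n : ℕ, h ^ (l ^ n) ∈ N

omit [TopologicalSpace G] [IsTopologicalGroup G] [CompactSpace G]
  [TotallyDisconnectedSpace G] in
/-- `[H N : H' N]` divides `[H : H']` for `N` normal. -/
theorem relIndex_sup_dvd (H' H N : Subgroup G) [N.Normal] :
    (H' ⊔ N).relIndex (H ⊔ N) ∣ H'.relIndex H := by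
  have h1 := relIndex_map_map (QuotientGroup.mk' N) H' H
  rw [QuotientGroup.ker_mk'] at h1
  rw [← h1]
  -- now `(H'.map π).relIndex (H.map π) ∣ H'.relIndex H`
  rw [← relIndex_comap]
  exact relIndex_dvd_of_le_left _ (le_comap_map _ _)

omit [TotallyDisconnectedSpace G] in
/-- chain intersections of closed subgroups of index prime to `l` -/
theorem isCoSylow_sInf {l : ℕ} (c : Set (Subgroup G)) (hc : IsChain (· ≤ ·) c)
    (hne : c.Nonempty) (h : ∀ H ∈ c, IsCoSylow l H) : IsCoSylow l (sInf c) := by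
  have hcl : IsClosed ((sInf c : Subgroup G) : Set G) := by
    rw [coe_sInf]
    exact isClosed_biInter fun H hH => (h H hH).closed
  refine ⟨hcl, fun N => ?_⟩
  obtain ⟨H, hHc, hH⟩ : ∃ H ∈ c, H ≤ sInf c ⊔ (N : Subgroup G) := by
    have : Nonempty c := hne.to_subtype
    obtain ⟨⟨H, hHc⟩, hH⟩ := exists_subset_nhds_of_compactSpace (V := fun H : c => ((H : Subgroup G) : Set G))
      (by
        rintro ⟨H₁, h₁⟩ ⟨H₂, h₂⟩
        rcases hc.total h₁ h₂ with h' | h'
        · exact ⟨⟨H₁, h₁⟩, subset_rfl, h'⟩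
        · exact ⟨⟨H₂, h₂⟩, h', subset_rfl⟩)
      (fun H => (h H H.2).closed)
      (U := ((sInf c ⊔ (N : Subgroup G) : Subgroup G) : Set G)) (by
        intro x hx
        have hopen : IsOpen ((sInf c ⊔ (N : Subgroup G) : Subgroup G) : Set G) :=
          Subgroup.isOpen_mono le_sup_right N.isOpen
        apply hopen.mem_nhds
        apply (le_sup_left : sInf c ≤ sInf c ⊔ (N : Subgroup G))
        rw [mem_sInf]
        intro H hH
        exact Set.mem_iInter.mp hx ⟨H, hH⟩)
    exact ⟨H, hHc, hH⟩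
  have heq : sInf c ⊔ (N : Subgroup G) = H ⊔ (N : Subgroup G) :=
    le_antisymm (sup_le_sup_right (sInf_le hHc) _) (sup_le hH le_sup_right)
  rw [heq]
  exact (h H hHc).not_dvd N

/-- **Existence of pro-`l` Sylow subgroups** of a profinite group. -/
theorem exists_sylow {l : ℕ} (hl : l.Prime) : ∃ H : Subgroup G, IsCoSylow l H ∧ IsProl l H := by
  have : Fact l.Prime := ⟨hl⟩
  -- Zorn: a minimal closed subgroup of index prime to `l`
  have htop : IsCoSylow l (⊤ : Subgroup G) := by
    refine ⟨isClosed_univ, fun N => ?_⟩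
    rw [top_sup_eq, index_top]
    exact fun h => hl.one_lt.ne' (Nat.dvd_one.mp h)
  obtain ⟨H, hH, hmin⟩ : ∃ H : Subgroup G, IsCoSylow l H ∧ ∀ H' : Subgroup G, IsCoSylow l H' →
      H' ≤ H → H' = H := by
    obtain ⟨H, -, hH⟩ := @zorn_le_nonempty₀ (Subgroup G)ᵒᵈ _
      {H : (Subgroup G)ᵒᵈ | IsCoSylow l (OrderDual.ofDual H)}
      (fun c hc hchain y hy => ⟨OrderDual.toDual (sInf (OrderDual.toDual ⁻¹' c)),
        isCoSylow_sInf (OrderDual.toDual ⁻¹' c) (by
          intro a ha b hb hab
          exact (hchain ha hb (fun h => hab h)).symm) ⟨y, hy⟩ hc,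
        fun z hz => sInf_le (α := Subgroup G) hz⟩) (OrderDual.toDual ⊤) htop
    exact ⟨OrderDual.ofDual H, hH.prop, fun H' h1 h2 => le_antisymm h2 (hH.le_of_ge h1 h2)⟩
  refine ⟨H, hH, fun h hh N => ?_⟩
  -- Sylow subgroup of the image of `H` in `G ⧸ N`
  have hfin : Finite (G ⧸ (N : Subgroup G)) := Subgroup.quotient_finite_of_isOpen _ N.isOpen
  let π := QuotientGroup.mk' (N : Subgroup G)
  let φ : H →* G ⧸ (N : Subgroup G) := π.comp H.subtype
  let S : Sylow l φ.range := default
  let H'' : Subgroup H := (S : Subgroup φ.range).comap φ.rangeRestrict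
  let H' : Subgroup G := H''.map H.subtype
  have hle : H' ≤ H := by
    rintro x ⟨y, -, rfl⟩; exact y.2
  have hidx : ¬ l ∣ H'.relIndex H := by
    have h1 : H'.subgroupOf H = H'' := by
      ext x
      simp [H', mem_subgroupOf]
    change ¬ l ∣ (H'.subgroupOf H).index
    rw [h1, index_comap_of_surjective _ φ.rangeRestrict_surjective]
    exact S.not_dvd_index
  have hcl : IsClosed (H' : Set G) := by
    have h2 : (H' : Set G) = (H : Set G) ∩ {x | π x ∈ (S : Subgroup φ.range).map φ.range.subtype} := by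
      ext x
      constructor
      · rintro ⟨y, hy, rfl⟩
        refine ⟨y.2, ?_⟩
        exact ⟨φ.rangeRestrict y, hy, rfl⟩
      · rintro ⟨hx, z, hz, hzx⟩
        refine ⟨⟨x, hx⟩, ?_, rfl⟩
        have : φ.rangeRestrict ⟨x, hx⟩ = z := Subtype.ext hzx.symm
        change φ.rangeRestrict ⟨x, hx⟩ ∈ (S : Subgroup φ.range)
        rw [this]; exact hz
    rw [h2]
    apply hH.closed.inter
    have hπ : Continuous π := QuotientGroup.continuous_mk
    have : DiscreteTopology (G ⧸ (N : Subgroup G)) :=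
      inferInstanceAs (DiscreteTopology (G ⧸ N.toOpenSubgroup.toSubgroup))
    exact (isClosed_discrete _).preimage hπ
  have hco : IsCoSylow l H' := by
    refine ⟨hcl, fun M hM => ?_⟩
    have h3 := relIndex_mul_index (sup_le_sup_right hle (M : Subgroup G))
    rw [← h3] at hM
    rcases hl.dvd_mul.mp hM with h4 | h4
    · exact hidx (h4.trans (relIndex_sup_dvd H' H _))
    · exact hH.not_dvd M h4
  have heq : H' = H := hmin H' hco hle
  have hh' : h ∈ H' := heq ▸ hh
  obtain ⟨y, hy, rfl⟩ := hh'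
  obtain ⟨n, hn⟩ := S.2 ⟨φ.rangeRestrict y, hy⟩
  refine ⟨n, ?_⟩
  have h5 : φ (y ^ (l ^ n)) = 1 := by
    have := congrArg (fun z : (S : Subgroup φ.range) => ((z : φ.range) : G ⧸ (N : Subgroup G))) hn
    simpa using this
  have h6 : π ((y : G) ^ (l ^ n)) = 1 := by simpa [φ] using h5
  exact (QuotientGroup.eq_one_iff _).mp h6

end Sylow

end Crest.Agent.R013.Fp4_831
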