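import Crest.Agent.R013.APt_349
import Crest.Agent.R013.A2c_275
import Crest.Agent.R013.Syl_831

/-!
# Row 13, A-ASM: assembly of S0015 from the leaves of part A  (helper349)

Route of helper874 (#2717), checked by helper251 (#2868).  Inputs, each a `Prop`:

* `S16 p k K`       : the conclusion of S0016 for `K` (all `v`, `w`);
* `GalIn l P t`     : `l` prime, `P` an `l`-Sylow of `Gal(constField/k)`, `t ∈ P`, and `P` normalises
                      the closed subgroup generated by `t` (helper512, (T3)/(T4));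
* `ETau s t`        : `s t` fixes a point of `M` (helper854, (E));
* `UTau s l t`      : for every `n`, `s (t ^ l ^ n)` fixes at most one point (helper337, (U')).

Output `S0015_of`: the three clauses.
-/

set_option autoImplicit false
set_option linter.style.haveILetI false

noncomputable section

namespace Crest.Agent.R013.AAsm_349

open Crest.NumberTheoryR.Sect
open Crest.Agent.R013 Crest.Agent.R013.Clause1_97 Crest.Agent.R013.Clause1Main_97
  Crest.Agent.R013.A2b_275 Crest.Agent.R013.APt_349 Crest.Agent.R013.Fp4_831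
open scoped NNReal ENNReal Topology Pointwise

section defs

variable (p : ℕ) [Fact p.Prime] (k : Type*) [Field k] [Algebra ℚ_[p] k]
  (K : Type*) [Field K] [Algebra k K]

/-- The conclusion of S0016 for `K`. -/
def S16 : Prop :=
  ∀ v : Valuation K ℝ≥0, ExtendsPadicNorm k K p v →
    ∀ w : Valuation (AlgebraicClosure K) ℝ≥0,
      w.comap (algebraMap K (AlgebraicClosure K)) = v →
      ∀ a : AlgebraicClosure K, ∀ ε : ℝ≥0, 0 < ε →
        ∃ b : maxUnramified k K, w (a - (b : AlgebraicClosure K)) < ε

variable {k K}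

/-- (E) of #2717: `s t` fixes a point of `M = maxUnramified k K`. -/
def ETau (s : ConstGal k K →* PiGroup k K) (t : ConstGal k K) : Prop :=
  ∃ φ : maxUnramified k K → ℝ≥0∞, IsPt p k (maxUnramified k K) φ ∧ ∀ a, φ (s t a) = φ a

/-- (U') of #2717: `s (t ^ l ^ n)` fixes at most one point. -/
def UTau (s : ConstGal k K →* PiGroup k K) (l : ℕ) (t : ConstGal k K) : Prop :=
  ∀ n : ℕ, ∀ φ φ' : maxUnramified k K → ℝ≥0∞, IsPt p k (maxUnramified k K) φ →
    IsPt p k (maxUnramified k K) φ' → (∀ a, φ (s (t ^ l ^ n) a) = φ a) →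
    (∀ a, φ' (s (t ^ l ^ n) a) = φ' a) → φ = φ'

end defs

section gal

variable {k : Type*} [Field k] {K : Type*} [Field K] [Algebra k K]

/-- (A-TAU) of #2717: what the assembly needs about the local Galois group. -/
structure GalIn (l : ℕ) (P : Subgroup (ConstGal k K)) (t : ConstGal k K) : Prop where
  prime : l.Prime
  cosyl : IsClosed (P : Set (ConstGal k K)) ∧
    ∀ N : OpenNormalSubgroup (ConstGal k K), ¬ l ∣ (P ⊔ (N : Subgroup (ConstGal k K))).index
  prol : ∀ N : OpenNormalSubgroup (ConstGal k K), ∃ n : ℕ, t ^ (l ^ n) ∈ N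
  norm : ∀ g ∈ P, g⁻¹ * t * g ∈ closure (Subgroup.zpowers t : Set (ConstGal k K))

end gal

/-- Everything part A has to deliver besides S0016. -/
def PartA (p : ℕ) [Fact p.Prime] (k : Type*) [Field k] [Algebra ℚ_[p] k]
    (K : Type*) [Field K] [Algebra k K] : Prop :=
  ∃ (l : ℕ) (P : Subgroup (ConstGal k K)) (t : ConstGal k K), GalIn l P t ∧
    ∀ s : ConstGal k K →* PiGroup k K, IsSection k K s → ETau p s t ∧ UTau p s l t

section main

variable {p : ℕ} [Fact p.Prime] {k : Type*} [Field k] [Algebra ℚ_[p] k]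
  {K : Type*} [Field K] [Algebra k K]

/-- The space of points. -/
abbrev Pts (p : ℕ) [Fact p.Prime] (k : Type*) [Field k] [Algebra ℚ_[p] k]
    (K : Type*) [Field K] [Algebra k K] : Type _ :=
  {φ : maxUnramified k K → ℝ≥0∞ // IsPt p k (maxUnramified k K) φ}

theorem isPt_comp {φ : maxUnramified k K → ℝ≥0∞} (h : IsPt p k (maxUnramified k K) φ)
    (g : PiGroup k K) : IsPt p k (maxUnramified k K) (fun a => φ (g a)) where
  add a b := by
    rw [map_add]; exact h.add _ _
  mul a b h1 h2 := by
    rw [map_mul]; exact h.mul _ _ h1 h2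
  inv a ha := by
    change φ (g a⁻¹) = _
    rw [map_inv₀]; exact h.inv _ (by simpa using ha)
  ext c := by
    rw [IsScalarTower.algebraMap_apply k K (maxUnramified k K), AlgEquiv.commutes,
      ← IsScalarTower.algebraMap_apply k K (maxUnramified k K)]
    exact h.ext c

/-- The action of the constants through a section. -/
@[reducible] def act (s : ConstGal k K →* PiGroup k K) :
    MulAction (ConstGal k K) (Pts p k K) where
  smul g φ := ⟨fun a => φ.1 (s g⁻¹ a), isPt_comp φ.2 (s g⁻¹)⟩
  one_smul φ := by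
    apply Subtype.ext
    funext a
    change φ.1 (s 1⁻¹ a) = φ.1 a
    rw [inv_one, map_one]; rfl
  mul_smul g h φ := by
    apply Subtype.ext
    funext a
    change φ.1 (s (g * h)⁻¹ a) = φ.1 (s h⁻¹ (s g⁻¹ a))
    rw [mul_inv_rev, map_mul]; rfl

theorem act_val (s : ConstGal k K →* PiGroup k K) (g : ConstGal k K) (φ : Pts p k K)
    (a : maxUnramified k K) :
    letI := act (p := p) s
    (g • φ : Pts p k K).1 a = φ.1 (s g⁻¹ a) := rfl

theorem act_eq_iff (s : ConstGal k K →* PiGroup k K) (g : ConstGal k K) (φ : Pts p k K) :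
    letI := act (p := p) s
    (g • φ : Pts p k K) = φ ↔ ∀ a, φ.1 (s g a) = φ.1 a := by
  letI := act (p := p) s
  constructor
  · intro h a
    have h1 := congrArg (fun ψ : Pts p k K => ψ.1 (s g a)) h
    change φ.1 (s g⁻¹ (s g a)) = φ.1 (s g a) at h1
    have h2 : s g⁻¹ (s g a) = a := by
      rw [map_inv]
      exact AlgEquiv.symm_apply_apply (s g) a
    rw [h2] at h1
    exact h1.symm
  · intro h
    apply Subtype.ext
    funext a
    change φ.1 (s g⁻¹ a) = φ.1 a
    have h1 := h (s g⁻¹ a)
    have h2 : s g (s g⁻¹ a) = a := by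
      rw [map_inv]
      exact AlgEquiv.apply_symm_apply (s g) a
    rw [h2] at h1
    exact h1.symm

theorem isClosed_stab [IsGalois K (maxUnramified k K)] (s : ConstGal k K →* PiGroup k K)
    (hs : Continuous s) (φ : Pts p k K) :
    letI := act (p := p) s
    IsClosed (MulAction.stabilizer (ConstGal k K) φ : Set (ConstGal k K)) := by
  letI := act (p := p) s
  rw [← isOpen_compl_iff]
  have h1 : (MulAction.stabilizer (ConstGal k K) φ : Set (ConstGal k K))ᶜ =
      ⋃ (a : maxUnramified k K) (b : maxUnramified k K) (_ : φ.1 b ≠ φ.1 a),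
        s ⁻¹' {g : PiGroup k K | g a = b} := by
    ext g
    simp only [Set.mem_compl_iff, SetLike.mem_coe, MulAction.mem_stabilizer_iff, act_eq_iff,
      not_forall, Set.mem_iUnion]
    constructor
    · rintro ⟨a, ha⟩
      exact ⟨a, s g a, ha, rfl⟩
    · rintro ⟨a, b, hab, h⟩
      refine ⟨a, ?_⟩
      have h' : s g a = b := h
      rw [h']; exact hab
  rw [h1]
  refine isOpen_iUnion fun a => isOpen_iUnion fun b => isOpen_iUnion fun _ => ?_
  exact (isOpen_apply_eq a b).preimage hs

section FF

variable [FiniteDimensional ℚ_[p] k] [CharZero k] [Algebra (RatFunc k) K]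
  [IsScalarTower k (RatFunc k) K] [FiniteDimensional (RatFunc k) K]

/-- A point fixed by the whole section. -/
theorem exists_fixed (s : ConstGal k K →* PiGroup k K) (hs : IsSection k K s) {l : ℕ}
    {P : Subgroup (ConstGal k K)} {t : ConstGal k K} (hG : GalIn l P t) (hE : ETau p s t)
    (hU : UTau p s l t) :
    ∃ φ : maxUnramified k K → ℝ≥0∞, IsPt p k (maxUnramified k K) φ ∧
      ∀ γ a, φ (s γ a) = φ a := by
  haveI : CharZero K := charZero_of_injective_algebraMap (algebraMap k K).injective
  haveI : IsGalois K (maxUnramified k K) := MaxUnr_97.isGalois_maxUnramified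
  haveI : IsGalois k (constField k K) := LemC9_251.isGalois_constField
  haveI : CompactSpace (ConstGal k K) := inferInstance
  haveI : TotallyDisconnectedSpace (ConstGal k K) := inferInstance
  letI := act (p := p) s
  obtain ⟨φ, hφ, hfix⟩ := hE
  set w : Pts p k K := ⟨φ, hφ⟩ with hw
  have hcl := isClosed_stab s hs.1 w
  have htw : t • w = w := (act_eq_iff s t w).2 hfix
  have huniq : ∀ (n : ℕ) (w' : Pts p k K), t ^ (l ^ n) • w' = w' → w' = w := by
    intro n w' hw'
    apply Subtype.ext
    refine hU n w'.1 w.1 w'.2 w.2 ((act_eq_iff s _ w').1 hw') ((act_eq_iff s _ w).1 ?_)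
    have h9 : t ∈ MulAction.stabilizer (ConstGal k K) w := htw
    exact pow_mem h9 (l ^ n)
  have hcos : IsCoSylow l P := ⟨hG.cosyl.1, hG.cosyl.2⟩
  have hP : ∀ g ∈ P, g • w = w := by
    intro g hg
    apply huniq 0
    rw [pow_zero, pow_one]
    have h1 : g⁻¹ * t * g ∈ MulAction.stabilizer (ConstGal k K) w := by
      have h2 : closure (Subgroup.zpowers t : Set (ConstGal k K)) ⊆
          (MulAction.stabilizer (ConstGal k K) w : Set (ConstGal k K)) := by
        refine closure_minimal ?_ hcl
        have h3 : Subgroup.zpowers t ≤ MulAction.stabilizer (ConstGal k K) w :=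
          (Subgroup.zpowers_le).2 htw
        exact h3
      exact h2 (hG.norm g hg)
    have h4 : (g⁻¹ * t * g) • w = w := h1
    rw [mul_smul, mul_smul, inv_smul_eq_iff] at h4
    exact h4
  have hall : ∀ g : ConstGal k K, g • w = w :=
    fp4_smul hG.prime w hcl P hcos hP t hG.prol huniq
  exact ⟨φ, hφ, fun γ a => (act_eq_iff s γ w).1 (hall γ) a⟩

/-- **Clause (2) of S0015** from S0016 and part A. -/
theorem clause2 (h16 : S16 p k K) (hA : PartA p k K) (s : ConstGal k K →* PiGroup k K)
    (hs : IsSection k K s) :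
    ∃ vt : Valuation (maxUnramified k K) ℝ≥0, LiesOverRationalPlace k K vt ∧
      Set.range s = decomp k K vt := by
  obtain ⟨l, P, t, hG, h⟩ := hA
  obtain ⟨hE, hU⟩ := h s hs
  obtain ⟨φ, hφ, hinv⟩ := exists_fixed s hs hG hE hU
  refine A2c_275.clause2_of_point s hs hφ hinv ?_
  rintro ⟨w, hw, hfix⟩
  exact LemC9_251.no_fixed_norm p k K h16 s hs w hw hfix

/-- **Clause (3) of S0015** from part A. -/
theorem clause3 (hA : PartA p k K) (vt vt' : Valuation (maxUnramified k K) ℝ≥0)
    (h : LiesOverRationalPlace k K vt) (h' : LiesOverRationalPlace k K vt')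
    (hD : decomp k K vt = decomp k K vt') :
    (vt.comap (algebraMap K (maxUnramified k K))).IsEquiv
      (vt'.comap (algebraMap K (maxUnramified k K))) := by
  obtain ⟨l, P, t, hG, hst⟩ := hA
  obtain ⟨s, hs, hrange⟩ := clause1 vt h
  obtain ⟨-, hU⟩ := hst s hs
  haveI : Algebra.IsAlgebraic k (constField k K) := ⟨fun c => by
    have h1 := isIntegral_constField c
    exact ((isIntegral_algebraMap_iff (algebraMap (constField k K)
      (maxUnramified k K)).injective).mp h1).isAlgebraic⟩
  obtain ⟨W, hW⟩ := exists_W (p := p) (k := k) (L := constField k K)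
  have hmem : s (t ^ l ^ 0) ∈ decomp k K vt := hrange ▸ Set.mem_range_self _
  have h1 : ptOf W vt = ptOf W vt' := by
    refine hU 0 _ _ (ptOf_isPt W hW h) (ptOf_isPt W hW h') ?_ ?_
    · exact ptOf_inv W hW h _ hmem
    · exact ptOf_inv W hW h' _ (hD ▸ hmem)
  exact isEquiv_of_ptOf_eq W h h' h1

end FF

end main

/-- **S0015 from S0016 and part A.** -/
theorem S0015_of (p : ℕ) [Fact p.Prime] (k : Type) [Field k] [Algebra ℚ_[p] k]
    [FiniteDimensional ℚ_[p] k]
    (K : Type) [Field K] [Algebra k K] [Algebra (RatFunc k) K] [IsScalarTower k (RatFunc k) K]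
    [FunctionField k K] (h16 : S16 p k K) (hA : PartA p k K) :
    (∀ vt : Valuation (maxUnramified k K) ℝ≥0, LiesOverRationalPlace k K vt →
        ∃ s : ConstGal k K →* PiGroup k K, IsSection k K s ∧ Set.range s = decomp k K vt) ∧
    (∀ s : ConstGal k K →* PiGroup k K, IsSection k K s →
        ∃ vt : Valuation (maxUnramified k K) ℝ≥0, LiesOverRationalPlace k K vt ∧ Set.range s = decomp k K vt) ∧
    (∀ vt vt' : Valuation (maxUnramified k K) ℝ≥0, LiesOverRationalPlace k K vt → LiesOverRationalPlace k K vt' →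
        decomp k K vt = decomp k K vt' →
        (vt.comap (algebraMap K (maxUnramified k K))).IsEquiv (vt'.comap (algebraMap K (maxUnramified k K)))) := by
  haveI : CharZero k := charZero_of_injective_algebraMap (algebraMap ℚ_[p] k).injective
  exact ⟨clause1' p k K, fun s hs => clause2 h16 hA s hs,
    fun vt vt' h h' hD => clause3 hA vt vt' h h' hD⟩

end Crest.Agent.R013.AAsm_349
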