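import Mathlib

/-!
# Row 13, task A-E (existence of a `τ`-fixed point): the space of norms.

`NS C Ω vC` is the set of valuations `w : Ω → ℝ≥0` extending `vC : C → ℝ≥0`, with the topology of
pointwise convergence.  We prove that the sets `{w (y) ≥ 1}` and `{w (y) < 1} ∪ {w Gauss for y}`
are closed, and set up equivariant `μ_l`-valued functions.
-/

set_option autoImplicit false

noncomputable section

namespace Crest.Agent.R013.AE_854

open scoped NNReal Topology
open Filter

/-- The space of norms of `Ω` above the norm `vC` of `C`. -/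
def NS (C Ω : Type*) [Field C] [Field Ω] [Algebra C Ω] (vC : Valuation C ℝ≥0) : Type _ :=
  {w : Valuation Ω ℝ≥0 // ∀ a : C, w (algebraMap C Ω a) = vC a}

variable {C Ω : Type*} [Field C] [Field Ω] [Algebra C Ω] {vC : Valuation C ℝ≥0}

namespace NS

instance : TopologicalSpace (NS C Ω vC) :=
  TopologicalSpace.induced (fun (w : NS C Ω vC) (a : Ω) => w.1 a) inferInstance

theorem continuous_eval (a : Ω) : Continuous fun w : NS C Ω vC => w.1 a :=
  (continuous_apply a).comp continuous_induced_dom

/-- `w ∘ g` for an automorphism `g` of `Ω` over `C`. -/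
def comp (w : NS C Ω vC) (g : Ω →ₐ[C] Ω) : NS C Ω vC :=
  ⟨w.1.comap (g : Ω →+* Ω), fun a => by
    rw [Valuation.comap_apply]
    have : (g : Ω →+* Ω) (algebraMap C Ω a) = algebraMap C Ω a := g.commutes a
    rw [this, w.2]⟩

@[simp] theorem comp_apply (w : NS C Ω vC) (g : Ω →ₐ[C] Ω) (a : Ω) : (w.comp g).1 a = w.1 (g a) :=
  rfl

theorem ext {w w' : NS C Ω vC} (h : ∀ a, w.1 a = w'.1 a) : w = w' :=
  Subtype.ext (Valuation.ext h)

end NS

end Crest.Agent.R013.AE_854
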