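import Mathlib

/-!
# Row 13, task A-E: the induction over the circles (step (4) of the plan), abstract form.

`X` is a space with an action of a group `G`, `H` a commutative group with a pairing
`χ : H → Hom(G, μ)`.  A root family of `h` on `Z ⊆ X` is a continuous `c : Z → μ` with
`c (g w) = χ_h(g) c(w)`.
-/

set_option autoImplicit false
set_option linter.unusedSectionVars false
set_option linter.unusedVariables false

namespace Crest.Agent.R013.AE2_854

variable {X G μ H : Type*} [TopologicalSpace X] [Group G] [MulAction G X] [CommGroup μ]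
  [TopologicalSpace μ] [DiscreteTopology μ] [CommGroup H] (χ : H →* (G →* μ))

/-- `c` is a root family of `h` on `Z`. -/
structure IsRF (h : H) (Z : Set X) (c : X → μ) : Prop where
  cont : ContinuousOn c Z
  equi : ∀ g : G, ∀ w ∈ Z, c (g • w) = χ h g * c w

variable {χ}

theorem IsRF.mono {h : H} {Z Z' : Set X} {c : X → μ} (hc : IsRF χ h Z c) (hZ : Z' ⊆ Z) :
    IsRF χ h Z' c := ⟨hc.cont.mono hZ, fun g w hw => hc.equi g w (hZ hw)⟩

theorem IsRF.mul {h h' : H} {Z : Set X} {c c' : X → μ} (hc : IsRF χ h Z c)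
    (hc' : IsRF χ h' Z c') : IsRF χ (h * h') Z (fun w => c w * c' w) := by
  refine ⟨?_, fun g w hw => ?_⟩
  · have h1 := hc.cont
    have h2 := hc'.cont
    have : ContinuousOn (fun w => (c w, c' w)) Z := h1.prodMk h2
    exact (continuous_of_discreteTopology (f := fun q : μ × μ => q.1 * q.2)).comp_continuousOn this
  · simp only [hc.equi g w hw, hc'.equi g w hw, map_mul, MonoidHom.mul_apply]
    exact mul_mul_mul_comm _ _ _ _

theorem isRF_one (Z : Set X) : IsRF χ 1 Z (fun _ => 1) :=
  ⟨continuousOn_const, fun g w _ => by simp⟩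

theorem isRF_empty (h : H) : IsRF χ h (∅ : Set X) (fun _ => 1) :=
  ⟨continuousOn_const, fun g w hw => hw.elim⟩

/-- pasting -/
theorem IsRF.glue {h : H} {Z Z' : Set X} {c c' : X → μ} (hc : IsRF χ h Z c) (hc' : IsRF χ h Z' c')
    (hZ : IsClosed Z) (hZ' : IsClosed Z') (hs : ∀ g : G, ∀ w, w ∈ Z → g • w ∈ Z)
    (hag : ∀ w ∈ Z, w ∈ Z' → c w = c' w) : ∃ d : X → μ, IsRF χ h (Z ∪ Z') d := by
  classical
  have e1 : ∀ w ∈ Z, (if w ∈ Z then c w else c' w) = c w := fun w hw => if_pos hw
  have e2 : ∀ w ∈ Z', (if w ∈ Z then c w else c' w) = c' w := fun w hw => by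
    by_cases h1 : w ∈ Z
    · rw [if_pos h1]; exact hag w h1 hw
    · rw [if_neg h1]
  refine ⟨fun w => if w ∈ Z then c w else c' w, ?_, ?_⟩
  · refine ContinuousOn.union_of_isClosed ?_ ?_ hZ hZ'
    · exact hc.cont.congr e1
    · exact hc'.cont.congr e2
  · intro g w hw
    by_cases h1 : w ∈ Z
    · have h2 := hs g w h1
      show (if g • w ∈ Z then c (g • w) else c' (g • w)) = _ * (if w ∈ Z then c w else c' w)
      rw [if_pos h2, if_pos h1]; exact hc.equi g w h1
    · have h2 : g • w ∉ Z := fun h3 => h1 (by simpa using hs g⁻¹ _ h3)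
      show (if g • w ∈ Z then c (g • w) else c' (g • w)) = _ * (if w ∈ Z then c w else c' w)
      rw [if_neg h2, if_neg h1]
      exact hc'.equi g w (hw.resolve_left h1)

/-- **Induction over the circles.** `P' i` (closed disc parts) and `U i` are closed and stable,
cover `X`; the circles `P' i ∩ U i` are pairwise disjoint; no point is in all `U i`.  `T` is a
subgroup of `H` which contains enough one-circle classes.  Then a class with a root family on every
`P' i` has, after multiplication by an element of `T`, a root family on `X`. -/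
theorem exists_global (T : Subgroup H) (m : ℕ) (P' U : ℕ → Set X)
    (hP : ∀ i, IsClosed (P' i)) (hU : ∀ i, IsClosed (U i))
    (sP : ∀ i, ∀ g : G, ∀ w ∈ P' i, g • w ∈ P' i) (sU : ∀ i, ∀ g : G, ∀ w ∈ U i, g • w ∈ U i)
    (cov : ∀ i < m, ∀ w, w ∈ P' i ∨ w ∈ U i) (hm : ∀ w : X, ∃ i < m, w ∉ U i)
    (disj : ∀ i < m, ∀ j < m, i ≠ j → ∀ w, w ∈ P' i → w ∈ U i → w ∈ P' j → w ∈ U j → False)
    (one : ∀ i < m, ∀ s : X → μ, (∀ g : G, ∀ w, w ∈ P' i → w ∈ U i → s (g • w) = s w) →
      ∃ t ∈ T, ∃ u e : X → μ, IsRF χ t (U i) u ∧ IsRF χ t (P' i) e ∧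
        ∀ w, w ∈ P' i → w ∈ U i → u w = s w * e w)
    (h : H) (hh : ∀ i < m, ∃ c : X → μ, IsRF χ h (P' i) c) :
    ∃ t ∈ T, ∃ c : X → μ, IsRF χ (h * t) Set.univ c := by
  classical
  have key : ∀ n, n ≤ m → ∃ t ∈ T, (∀ i < m - n, ∃ c : X → μ, IsRF χ (h * t) (P' i) c) ∧
      ∃ c : X → μ, IsRF χ (h * t) {w : X | ∀ i < m - n, w ∈ U i} c := by
    intro n
    induction n with
    | zero =>
      intro _
      refine ⟨1, T.one_mem, by simpa using hh, fun _ => 1, ?_⟩
      have : {w : X | ∀ i < m - 0, w ∈ U i} = ∅ := by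
        ext w
        simp only [Set.mem_setOf_eq, Set.mem_empty_iff_false, iff_false, Nat.sub_zero]
        intro h1
        obtain ⟨i, hi, hw⟩ := hm w
        exact hw (h1 i hi)
      rw [this]
      exact isRF_empty _
    | succ n ih =>
      intro hn
      obtain ⟨t, ht, hPf, cV, hV⟩ := ih (by omega)
      obtain ⟨j, hj⟩ : ∃ j, m - n = j + 1 := ⟨m - n - 1, by omega⟩
      have hj' : m - (n + 1) = j := by omega
      have hjm : j < m := by omega
      rw [hj] at hPf hV
      rw [hj']
      obtain ⟨cP, hcP⟩ := hPf j (Nat.lt_succ_self j)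
      set V : Set X := {w | ∀ i < j, w ∈ U i} with hVdef
      set V1 : Set X := {w | ∀ i < j + 1, w ∈ U i} with hV1def
      have hV1 : ∀ w, w ∈ V1 ↔ w ∈ V ∧ w ∈ U j := by
        intro w
        constructor
        · intro h1
          exact ⟨fun i hi => h1 i (by omega), h1 j (Nat.lt_succ_self j)⟩
        · rintro ⟨h1, h2⟩ i hi
          rcases Nat.lt_succ_iff_lt_or_eq.mp hi with h3 | rfl
          · exact h1 i h3
          · exact h2
      have sV : ∀ g : G, ∀ w, w ∈ V → g • w ∈ V := fun g w hw i hi => sU i g w (hw i hi)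
      have sV' : ∀ g : G, ∀ w, w ∉ V → g • w ∉ V := fun g w hw h3 =>
        hw (by simpa using sV g⁻¹ _ h3)
      have cV' : IsClosed V := by
        have : V = ⋂ i, ⋂ (_ : i < j), U i := by
          ext w; simp [hVdef]
        rw [this]
        exact isClosed_iInter fun i => isClosed_iInter fun _ => hU i
      have cV1 : IsClosed V1 := by
        have : V1 = ⋂ i, ⋂ (_ : i < j + 1), U i := by
          ext w; simp [hV1def]
        rw [this]
        exact isClosed_iInter fun i => isClosed_iInter fun _ => hU i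
      -- the gluing data on the circle `j`
      obtain ⟨t', ht', u, e, hu, he, hue⟩ := one j hjm
        (fun w => if w ∈ V then cP w / cV w else 1) (by
          intro g w h1 h2
          by_cases h3 : w ∈ V
          · have h4 := sV g w h3
            show (if g • w ∈ V then cP (g • w) / cV (g • w) else 1) =
              if w ∈ V then cP w / cV w else 1
            rw [if_pos h4, if_pos h3, hcP.equi g w h1, hV.equi g w ((hV1 w).2 ⟨h3, h2⟩),
              mul_div_mul_left_eq_div]
          · have h4 := sV' g w h3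
            show (if g • w ∈ V then cP (g • w) / cV (g • w) else 1) =
              if w ∈ V then cP w / cV w else 1
            rw [if_neg h4, if_neg h3])
      refine ⟨t * t', T.mul_mem ht ht', fun i hi => ?_, ?_⟩
      · -- root family on `P' i`, `i < j`
        obtain ⟨ci, hci⟩ := hPf i (by omega)
        have hd : ∃ d, IsRF χ t' ((P' i ∩ U j) ∪ (P' i ∩ P' j)) d := by
          refine (hu.mono Set.inter_subset_right).glue (he.mono Set.inter_subset_right)
            ((hP i).inter (hU j)) ((hP i).inter (hP j))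
            (fun g w hw => ⟨sP i g w hw.1, sU j g w hw.2⟩) ?_
          intro w h1 h2
          rw [hue w h2.2 h1.2]
          have h3 : w ∉ V := fun h4 => disj i (by omega) j hjm (by omega) w h1.1 (h4 i hi) h2.2 h1.2
          show (if w ∈ V then cP w / cV w else 1) * e w = e w
          rw [if_neg h3, one_mul]
        obtain ⟨d, hd⟩ := hd
        have hsub : P' i ⊆ (P' i ∩ U j) ∪ (P' i ∩ P' j) := by
          intro w hw
          rcases cov j hjm w with h1 | h1
          · exact Or.inr ⟨hw, h1⟩
          · exact Or.inl ⟨hw, h1⟩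
        exact ⟨_, by rw [← mul_assoc]; exact hci.mul (hd.mono hsub)⟩
      · -- root family on `V`
        have hd : ∃ d, IsRF χ (h * t * t') (V1 ∪ (V ∩ P' j)) d := by
          refine (hV.mul (hu.mono (fun w hw => ((hV1 w).1 hw).2))).glue
            ((hcP.mul he).mono Set.inter_subset_right) cV1 (cV'.inter (hP j))
            (fun g w hw => (hV1 _).2 ⟨sV g w ((hV1 w).1 hw).1, sU j g w ((hV1 w).1 hw).2⟩) ?_
          intro w h1 h2
          have h3 := (hV1 w).1 h1
          rw [hue w h2.2 h3.2]
          show cV w * ((if w ∈ V then cP w / cV w else 1) * e w) = cP w * e w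
          rw [if_pos h2.1, ← mul_assoc, mul_div_cancel]
        obtain ⟨d, hd⟩ := hd
        refine ⟨d, ?_⟩
        rw [← mul_assoc]
        refine hd.mono ?_
        intro w hw
        rcases cov j hjm w with h1 | h1
        · exact Or.inr ⟨hw, h1⟩
        · exact Or.inl ((hV1 w).2 ⟨hw, h1⟩)
  obtain ⟨t, ht, -, c, hc⟩ := key m le_rfl
  refine ⟨t, ht, c, hc.mono ?_⟩
  intro w _ i hi
  omega

end Crest.Agent.R013.AE2_854
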