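import Crest.Agent.R013.RR20_948

/-!
# Row 13, A-E: a function field over `k` is a function field over a subfield `k₀` with `[k : k₀]`
finite.
-/

set_option autoImplicit false

noncomputable section

namespace Crest.Agent.R013.AECtx_854

open Polynomial Crest.Agent.R013.RR20_948
open scoped IntermediateField

variable {k₀ : Type*} (k : Type*) {L : Type*} [Field k₀] [Field k] [Algebra k₀ k] [FiniteDimensional k₀ k] [Field L]
  [Algebra k L] [Algebra k₀ L] [IsScalarTower k₀ k L] [Algebra (RatFunc k) L]
  [IsScalarTower k (RatFunc k) L] [FiniteDimensional (RatFunc k) L]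

include k in
/-- The function field context over `k₀`. -/
theorem exists_ctx : ∃ (_ : Algebra (RatFunc k₀) L), IsScalarTower k₀ (RatFunc k₀) L ∧
    FiniteDimensional (RatFunc k₀) L := by
  classical
  set y : L := algebraMap (RatFunc k) L RatFunc.X with hy
  have hyk : Transcendental k y := transcendental_xK (k := k) (K := L)
  have hy0 : Transcendental k₀ y := fun h => hyk (h.extendScalars (algebraMap k₀ k).injective)
  let alg : Algebra (RatFunc k₀) L := ratAlg y hy0
  have htow : IsScalarTower k₀ (RatFunc k₀) L := ratAlg_tower y hy0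
  refine ⟨alg, htow, ?_⟩
  have hX : algebraMap (RatFunc k₀) L RatFunc.X = y := ratHom_X y hy0
  let b := Module.finBasis k₀ k
  let S : Set L := Set.range fun i => algebraMap k L (b i)
  have hSfin : S.Finite := Set.finite_range _
  let B : IntermediateField (RatFunc k₀) L := IntermediateField.adjoin (RatFunc k₀) S
  have hB : FiniteDimensional (RatFunc k₀) B := by
    have := hSfin.to_subtype
    refine IntermediateField.finiteDimensional_adjoin ?_
    rintro _ ⟨i, rfl⟩
    have h1 : IsIntegral k₀ (b i) := Algebra.IsIntegral.isIntegral _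
    have h2 : IsIntegral k₀ (algebraMap k L (b i)) := h1.map (IsScalarTower.toAlgHom k₀ k L)
    exact h2.tower_top
  -- constants are in `B`
  have hk : ∀ c : k, algebraMap k L c ∈ B := by
    intro c
    rw [← b.sum_repr c, map_sum]
    refine sum_mem fun i _ => ?_
    rw [Algebra.smul_def, map_mul, ← IsScalarTower.algebraMap_apply k₀ k L,
      IsScalarTower.algebraMap_apply k₀ (RatFunc k₀) L]
    exact mul_mem (B.algebraMap_mem _) (IntermediateField.subset_adjoin _ _ ⟨i, rfl⟩)
  have hyB : y ∈ B := by rw [← hX]; exact B.algebraMap_mem _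
  have hpoly : ∀ f : k[X], algebraMap (RatFunc k) L (algebraMap k[X] (RatFunc k) f) ∈ B := by
    intro f
    induction f using Polynomial.induction_on' with
    | add f g hf hg => rw [map_add, map_add]; exact add_mem hf hg
    | monomial n c =>
      rw [← C_mul_X_pow_eq_monomial, map_mul, map_mul, map_pow, map_pow, RatFunc.algebraMap_X,
        RatFunc.algebraMap_C, ← RatFunc.algebraMap_eq_C,
        ← IsScalarTower.algebraMap_apply k (RatFunc k) L]
      exact mul_mem (hk c) (pow_mem hyB n)
  have hrat : ∀ f : RatFunc k, algebraMap (RatFunc k) L f ∈ B := by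
    intro f
    induction f using RatFunc.induction_on with
    | f P Q hQ => rw [map_div₀]; exact div_mem (hpoly P) (hpoly Q)
  -- `L` is finite over `B`
  have hLB : Module.Finite B L := by
    let e := Module.finBasis (RatFunc k) L
    refine ⟨⟨Finset.univ.image e, ?_⟩⟩
    rw [eq_top_iff]
    rintro x -
    rw [← e.sum_repr x]
    refine Submodule.sum_mem _ fun i _ => ?_
    have h1 : (e.repr x i) • e i = (⟨algebraMap (RatFunc k) L (e.repr x i), hrat _⟩ : B) • e i := by
      rw [Algebra.smul_def, Algebra.smul_def]; rfl
    rw [h1]
    refine Submodule.smul_mem _ _ (Submodule.subset_span ?_)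
    simp
  exact Module.Finite.trans B L

end Crest.Agent.R013.AECtx_854
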