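import Crest.Agent.R013.LemT5_874
import Crest.Agent.R013.A2e_275
import Crest.Agent.R013.AAsm_349
import Crest.Agent.R013.AECtx_854

/-!
# Row 13, task A-E: existence of a `τ`-fixed point (`ETau`), assembly.

`ONE` is the theorem of helpers 920 / 97 / 622: a class which is near an `l`-th power at every
point of `L` is a one-circle class.  With Lemma T (helper874) and the bridge of helper275 it gives
`ETau`.
-/

set_option autoImplicit false
set_option linter.unusedVariables false

noncomputable section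

namespace Crest.Agent.R013.AEAsm_854

open Crest.NumberTheoryR.Sect
open Crest.Agent.R013.Lift903 Crest.Agent.R013.Gl946 Crest.Agent.R013.LemT_874
  Crest.Agent.R013.A2b_275
open scoped NNReal ENNReal IntermediateField

/-- `h` is an `N`-th power on both sides of a circle of `ℚ_p(Y)`, `Y ∈ L`. -/
def OneCircle (p : ℕ) [Fact p.Prime] (L : Type) [Field L] [Algebra ℚ_[p] L] (N : ℕ) (h : L) :
    Prop :=
  ∃ (F : Type) (_ : Field F) (_ : Algebra ℚ_[p] F) (_ : Algebra F L) (_ : IsScalarTower ℚ_[p] F L)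
    (_ : FiniteDimensional F L) (E : Type) (_ : NormedField E) (_ : NormedAlgebra ℚ_[p] E)
    (_ : IsUltrametricDist E) (_ : CompleteSpace E) (_ : Algebra F E) (_ : IsScalarTower ℚ_[p] F E)
    (y : E) (hG : IsGauss ℚ_[p] y) (π : ℚ_[p]) (hπ : IsUnif π) (hd : DenseRat ℚ_[p] y)
    (hF : ∀ x : F, algebraMap F E x ∈ KY hG)
    (_ : ∀ z : E, z ∈ KY hG → z ∈ Set.range (algebraMap F E)),
    NPow (algebraMap_mem_RU hG hF) N h ∧ NPow (algebraMap_mem_FP hG hπ hd hF) N h

/-- Theorem (ONE) over `ℚ_p`. -/
def ONE (p : ℕ) [Fact p.Prime] : Prop :=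
  ∀ (L : Type) [Field L] [Algebra ℚ_[p] L] [Algebra (RatFunc ℚ_[p]) L]
    [IsScalarTower ℚ_[p] (RatFunc ℚ_[p]) L] [FiniteDimensional (RatFunc ℚ_[p]) L],
    ∀ (l : ℕ), l.Prime → l ≠ p → ∀ h : L, h ≠ 0 →
      (∀ φ : L → ℝ≥0∞, IsPt p ℚ_[p] L φ → ∃ u : L, u ≠ 0 ∧ φ (h / u ^ l - 1) < 1) →
      OneCircle p L l h

section main

variable {p : ℕ} [Fact p.Prime] {k : Type} [Field k] [Algebra ℚ_[p] k] [FiniteDimensional ℚ_[p] k]
  {K : Type} [Field K] [Algebra k K] [Algebra (RatFunc k) K] [IsScalarTower k (RatFunc k) K]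
  [FiniteDimensional (RatFunc k) K]

/-- Existence of a `τ`-fixed point, from (ONE) and the function field context over `ℚ_p`. -/
theorem etau_aux [CharZero k] [IsGalois k (constField k K)] (l : ℕ) (hl : l.Prime)
    (s : ConstGal k K →* PiGroup k K) (hs : IsSection k K s) {t : ConstGal k K}
    (ht : TameAt l t) (hpro : ∀ N : OpenNormalSubgroup (ConstGal k K), ∃ n : ℕ, t ^ (l ^ n) ∈ N)
    (z : constField k K) (hz0 : z ≠ 0) (c : k) (hzc : z ^ l = algebraMap k _ c) (htz : t z ≠ z)
    (one : ∀ L : IntermediateField K (maxUnramified k K), FiniteDimensional K L →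
      letI : Algebra ℚ_[p] L := ((algebraMap k L).comp (algebraMap ℚ_[p] k)).toAlgebra
      ∀ h : L, h ≠ 0 → (∀ φ : L → ℝ≥0∞, IsPt p k L φ → ∃ u : L, u ≠ 0 ∧ φ (h / u ^ l - 1) < 1) →
        OneCircle p L l h) :
    AAsm_349.ETau p s t := by
  classical
  -- the root of unity `ζ = t z / z`
  set ζ : constField k K := t z / z with hζ
  have htzl : (t z) ^ l = z ^ l := by
    rw [← map_pow, hzc, AlgEquiv.commutes]
  have hζl : ζ ^ l = 1 := by
    rw [hζ, div_pow, htzl, div_self (pow_ne_zero _ hz0)]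
  have hζ1 : ζ ≠ 1 := by
    intro h
    rw [hζ, div_eq_one_iff_eq hz0] at h
    exact htz h
  have htζ : t ζ = ζ := ht.mu 1 ζ (by rw [pow_one]; exact hζl)
  have htz' : t z = ζ * z := by rw [hζ, div_mul_cancel₀ _ hz0]
  have hpow : ∀ n : ℕ, (t ^ n) z = ζ ^ n * z := by
    intro n
    induction n with
    | zero => simp
    | succ n ih =>
      rw [pow_succ', AlgEquiv.mul_apply, ih, map_mul, map_pow, htζ, htz', pow_succ]; ring
  have hspow : ∀ (n : ℕ) (a : constField k K),
      (s t ^ n) (a : maxUnramified k K) = (((t ^ n) a : constField k K) : maxUnramified k K) := by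
    intro n a
    rw [← map_pow]
    exact hs.2 (t ^ n) a
  have hzM0 : (z : maxUnramified k K) ≠ 0 := by
    intro h
    exact hz0 (Subtype.ext h)
  have hzl : (z : maxUnramified k K) ^ l = algebraMap k (maxUnramified k K) c := by
    have := congrArg (Subtype.val : constField k K → maxUnramified k K) hzc
    exact this
  refine A2e_275.exists_tau_fixed_pt l hl (s t) ?_ (z : maxUnramified k K) hzM0 ?_ ?_ ?_
  · -- pro-`l`
    intro a
    let U : Subgroup (ConstGal k K) := (MulAction.stabilizer (PiGroup k K) a).comap s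
    have hU : IsOpen (U : Set (ConstGal k K)) := by
      have h1 : IsOpen ((MulAction.stabilizer (PiGroup k K) a : Subgroup (PiGroup k K)) :
          Set (PiGroup k K)) := stabilizer_isOpen_of_isIntegral (K := K) a
      exact h1.preimage hs.1
    obtain ⟨N, hN⟩ := Fp4_831.exists_openNormal_le U hU
    obtain ⟨n, hn⟩ := hpro N
    refine ⟨n, ?_⟩
    have h2 : t ^ (l ^ n) ∈ U := hN hn
    have h3 : s (t ^ (l ^ n)) • a = a := h2
    rw [map_pow] at h3
    exact h3
  · rw [hspow, hpow, hζl, one_mul]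
  · rw [hzl, IsScalarTower.algebraMap_apply k K (maxUnramified k K), AlgEquiv.commutes]
  · intro L hLfd hLfix hzL
    by_contra hcon
    push Not at hcon
    set ζM : maxUnramified k K := (ζ : maxUnramified k K) with hζM
    have hζMl : ζM ^ l = 1 := by
      have := congrArg (Subtype.val : constField k K → maxUnramified k K) hζl
      exact this
    have hζM1 : ζM ≠ 1 := fun h => hζ1 (Subtype.ext h)
    let L₁ : IntermediateField K (maxUnramified k K) := L ⊔ IntermediateField.adjoin K {ζM}
    have hfd1 : FiniteDimensional K (IntermediateField.adjoin K {ζM}) :=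
      IntermediateField.adjoin.finiteDimensional (Algebra.IsIntegral.isIntegral _)
    have hfd2 : FiniteDimensional K L₁ := IntermediateField.finiteDimensional_sup _ _
    have hfix1 : ∀ a ∈ L₁, s t a = a := by
      have h1 : L₁ ≤ IntermediateField.fixedField (Subgroup.zpowers (s t)) := by
        refine sup_le (fun a ha => ?_) ?_
        · rw [IntermediateField.mem_fixedField_iff]
          rintro _ ⟨n, rfl⟩
          have h2 : s t • a = a := hLfix a ha
          have h3 : s t ∈ MulAction.stabilizer (PiGroup k K) a := h2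
          exact (MulAction.stabilizer (PiGroup k K) a).zpow_mem h3 n
        · rw [IntermediateField.adjoin_le_iff]
          rintro _ rfl
          rw [SetLike.mem_coe, IntermediateField.mem_fixedField_iff]
          rintro _ ⟨n, rfl⟩
          have h2 : s t • ζM = ζM := by
            change s t (ζ : maxUnramified k K) = (ζ : maxUnramified k K)
            rw [hs.2 t ζ, htζ]
          have h3 : s t ∈ MulAction.stabilizer (PiGroup k K) ζM := h2
          exact (MulAction.stabilizer (PiGroup k K) ζM).zpow_mem h3 n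
      intro a ha
      exact (IntermediateField.mem_fixedField_iff _ _).mp (h1 ha) (s t) (Subgroup.mem_zpowers _)
    have hle : L ≤ L₁ := le_sup_left
    have hζL : ζM ∈ L₁ :=
      (le_sup_right : IntermediateField.adjoin K {ζM} ≤ L₁) (IntermediateField.mem_adjoin_simple_self K ζM)
    let h : L₁ := ⟨(z : maxUnramified k K) ^ l, hle hzL⟩
    have hh0 : h ≠ 0 := by
      intro h1
      exact pow_ne_zero l hzM0 (congrArg Subtype.val h1)
    have hprim : IsPrimitiveRoot (⟨ζM, hζL⟩ : L₁) l := by
      have h1 : orderOf (⟨ζM, hζL⟩ : L₁) = l := by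
        have : Fact l.Prime := ⟨hl⟩
        refine orderOf_eq_prime (Subtype.ext hζMl) fun h2 => hζM1 (congrArg Subtype.val h2)
      rw [← h1]
      exact IsPrimitiveRoot.orderOf _
    have hgood : ∀ φ : L₁ → ℝ≥0∞, IsPt p k L₁ φ → ∃ u : L₁, u ≠ 0 ∧ φ (h / u ^ l - 1) < 1 := by
      intro φ hφ
      obtain ⟨h', u, h1, h2, h3⟩ := hcon L₁ hle hfd2 φ hφ
      have h4 : h' = h := Subtype.ext h1
      subst h4
      exact ⟨u, h2, h3⟩
    have hone := one L₁ hfd2 h hh0 hgood
    let alg : Algebra ℚ_[p] L₁ := ((algebraMap k L₁).comp (algebraMap ℚ_[p] k)).toAlgebra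
    obtain ⟨F, _, _, _, hFt, _, E, _, _, _, _, _, _, y, hG, π, hπ, hd, hF, hF', n1, n2⟩ := hone
    have hκ : ∀ c : ℚ_[p], IsIntegral k (algebraMap F L₁ (algebraMap ℚ_[p] F c)) := by
      intro c
      rw [← IsScalarTower.algebraMap_apply ℚ_[p] F L₁]
      exact isIntegral_algebraMap
    have hfin := lemT_maxUnramified (k := k) (K := K) hG hπ hd hl s hs ht L₁ hfix1 hprim hF hF' hκ
      hh0 n1 n2 (x := (z : maxUnramified k K)) rfl
    rw [hs.2 t z] at hfin
    exact htz (Subtype.ext hfin)

/-- **(E) of #2717.** Existence of a point of `M` fixed by `s t`. -/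
theorem etau [CharZero k] [IsGalois k (constField k K)] (one : ONE p) (l : ℕ) (hl : l.Prime)
    (hlp : l ≠ p) (s : ConstGal k K →* PiGroup k K) (hs : IsSection k K s) {t : ConstGal k K}
    (ht : TameAt l t) (hpro : ∀ N : OpenNormalSubgroup (ConstGal k K), ∃ n : ℕ, t ^ (l ^ n) ∈ N)
    (z : constField k K) (hz0 : z ≠ 0) (c : k) (hzc : z ^ l = algebraMap k _ c) (htz : t z ≠ z) :
    AAsm_349.ETau p s t := by
  refine etau_aux l hl s hs ht hpro z hz0 c hzc htz ?_
  intro L hfd h hh hyp
  let alg : Algebra ℚ_[p] L := ((algebraMap k L).comp (algebraMap ℚ_[p] k)).toAlgebra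
  have htow : IsScalarTower ℚ_[p] k L := IsScalarTower.of_algebraMap_eq fun _ => rfl
  have h2 : IsScalarTower (RatFunc k) K L := inferInstance
  have h1 : IsScalarTower k (RatFunc k) L := by
    refine IsScalarTower.of_algebraMap_eq fun c => ?_
    rw [IsScalarTower.algebraMap_apply (RatFunc k) K L,
      ← IsScalarTower.algebraMap_apply k (RatFunc k) K, ← IsScalarTower.algebraMap_apply k K L]
  have h3 : FiniteDimensional (RatFunc k) L := FiniteDimensional.trans (RatFunc k) K L
  obtain ⟨i1, i2, i3⟩ := AECtx_854.exists_ctx (k₀ := ℚ_[p]) k (L := L)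
  refine one L l hl hlp h hh fun φ hφ => hyp φ ⟨hφ.add, hφ.mul, hφ.inv, fun c => ?_⟩
  have := hφ.ext c
  exact this

end main

end Crest.Agent.R013.AEAsm_854
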