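import Crest.Agent.R013.A2b_275

/-!
# Row 13, A-E: the point of a valuation ring.

For a valuation ring `W` of `L` with `ℤ_p ⊆ W`, `p ∈ m_W`, the function
`φ(a) = inf {p^(-m/n) : v(a)^n ≤ v(p)^m}` is a point of `L` (275's `IsPt`), and `φ(a) < 1` implies
`a ∈ m_W`.
-/

set_option autoImplicit false
set_option linter.unusedSectionVars false

noncomputable section

namespace Crest.Agent.R013.AEPt_854

open scoped NNReal ENNReal
open Crest.Agent.R013.A2b_275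

variable {L : Type*} [Field L] {Γ : Type*} [LinearOrderedCommGroupWithZero Γ]
  (v : Valuation L Γ) (ϖ : Γ) (q : ℝ≥0∞)

/-- The exponents. -/
def X (a : L) : Set ℝ≥0∞ :=
  {x | ∃ (n : ℕ) (m : ℤ), 0 < n ∧ v a ^ n ≤ ϖ ^ m ∧ x = q ^ (-((m : ℝ) / n))}

/-- The point. -/
def phi (a : L) : ℝ≥0∞ := sInf (X v ϖ q a)

variable {v ϖ q} (h0 : 0 < ϖ) (h1 : ϖ < 1) (q0 : 1 < q) (qt : q ≠ ∞)

include h0 h1 q0 qt

theorem zpow_anti {m m' : ℤ} : ϖ ^ m ≤ ϖ ^ m' ↔ m' ≤ m :=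
  zpow_le_zpow_iff_right_of_lt_one₀ h0 h1

theorem phi_le {a : L} {n : ℕ} {m : ℤ} (hn : 0 < n) (h : v a ^ n ≤ ϖ ^ m) :
    phi v ϖ q a ≤ q ^ (-((m : ℝ) / n)) := sInf_le ⟨n, m, hn, h, rfl⟩

theorem phi_mono {a b : L} (h : v a ≤ v b) : phi v ϖ q a ≤ phi v ϖ q b := by
  refine le_sInf ?_
  rintro _ ⟨n, m, hn, hm, rfl⟩
  exact phi_le h0 h1 q0 qt hn ((pow_le_pow_left₀ zero_le h n).trans hm)

theorem phi_mul_le {a b : L} {x y : ℝ≥0∞} (hx : x ∈ X v ϖ q a) (hy : y ∈ X v ϖ q b) :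
    phi v ϖ q (a * b) ≤ x * y := by
  obtain ⟨n, m, hn, hm, rfl⟩ := hx
  obtain ⟨n', m', hn', hm', rfl⟩ := hy
  have hq0 : q ≠ 0 := (zero_lt_one.trans q0).ne'
  have e1 : v (a * b) ^ (n * n') ≤ ϖ ^ (m * n' + m' * n) := by
    rw [map_mul, mul_pow, pow_mul, mul_comm n n', pow_mul, zpow_add₀ h0.ne', zpow_mul, zpow_mul,
      zpow_natCast, zpow_natCast]
    exact mul_le_mul' (pow_le_pow_left₀ zero_le hm n') (pow_le_pow_left₀ zero_le hm' n)
  refine (phi_le h0 h1 q0 qt (Nat.mul_pos hn hn') e1).trans (le_of_eq ?_)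
  rw [← ENNReal.rpow_add _ _ hq0 qt]
  congr 1
  have h3 : (n : ℝ) ≠ 0 := by exact_mod_cast hn.ne'
  have h4 : (n' : ℝ) ≠ 0 := by exact_mod_cast hn'.ne'
  push_cast
  field_simp
  ring

theorem phi_zpow (c : L) (j : ℤ) (hc : v c = ϖ ^ j) : phi v ϖ q c = q ^ (-(j : ℝ)) := by
  refine le_antisymm ?_ (le_sInf ?_)
  · have := phi_le (v := v) (q := q) h0 h1 q0 qt (a := c) (n := 1) (m := j) one_pos (by rw [pow_one, hc])
    simpa using this
  · rintro _ ⟨n, m, hn, hm, rfl⟩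
    rw [hc, ← zpow_natCast, ← zpow_mul, zpow_anti h0 h1 q0 qt] at hm
    refine ENNReal.rpow_le_rpow_of_exponent_le q0.le ?_
    have h3 : (0 : ℝ) < n := by exact_mod_cast hn
    rw [neg_le_neg_iff, div_le_iff₀ h3]
    exact_mod_cast hm

theorem phi_one : phi v ϖ q (1 : L) = 1 := by
  have := phi_zpow (v := v) h0 h1 q0 qt (1 : L) 0 (by simp)
  simpa using this

theorem phi_zero : phi v ϖ q (0 : L) = 0 := by
  by_contra hne
  have hpos : 0 < phi v ϖ q (0 : L) := pos_iff_ne_zero.mpr hne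
  have hall : ∀ m : ℕ, phi v ϖ q (0 : L) ≤ (q⁻¹) ^ m := by
    intro m
    have h2 := phi_le (v := v) (q := q) h0 h1 q0 qt (a := (0 : L)) (n := 1) (m := m) one_pos
      (by rw [map_zero, pow_one]; exact zero_le)
    refine h2.trans (le_of_eq ?_)
    rw [Nat.cast_one, div_one, Int.cast_natCast, ENNReal.rpow_neg, ENNReal.rpow_natCast,
      ENNReal.inv_pow]
  have hq : q⁻¹ < 1 := ENNReal.inv_lt_one.mpr q0
  have ht := ENNReal.tendsto_pow_atTop_nhds_zero_of_lt_one hq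
  have := ge_of_tendsto' ht hall
  exact hne (le_antisymm this bot_le)

omit h0 h1 in
theorem exists_rpow {c : ℝ≥0∞} (c0 : c ≠ 0) (ct : c ≠ ∞) : ∃ s : ℝ, q ^ s = c := by
  have hq0 : q ≠ 0 := (zero_lt_one.trans q0).ne'
  have hQ : 1 < q.toReal := by
    rw [← ENNReal.toReal_one]
    exact (ENNReal.toReal_lt_toReal ENNReal.one_ne_top qt).mpr q0
  refine ⟨Real.logb q.toReal c.toReal, ?_⟩
  rw [← ENNReal.toReal_eq_toReal_iff' (ENNReal.rpow_ne_top_of_ne_zero hq0 qt) ct,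
    ← ENNReal.toReal_rpow]
  exact Real.rpow_logb (zero_lt_one.trans hQ) hQ.ne' (ENNReal.toReal_pos c0 ct)

omit h0 h1 in
/-- Density of the rational exponents. -/
theorem exists_rat {A B : ℝ≥0∞} (h : A < B) :
    ∃ (n : ℕ) (m : ℤ), 0 < n ∧ A < q ^ (-((m : ℝ) / n)) ∧ q ^ (-((m : ℝ) / n)) < B := by
  obtain ⟨c, hAc, hcB⟩ := exists_between h
  obtain ⟨d, hcd, hdB⟩ := exists_between hcB
  obtain ⟨s, hs⟩ := exists_rpow q0 qt (c := c) (bot_le.trans_lt hAc).ne' (hcB.trans_le le_top).ne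
  obtain ⟨t, ht⟩ := exists_rpow q0 qt (c := d) (bot_le.trans_lt hcd).ne' (hdB.trans_le le_top).ne
  rw [← hs] at hAc hcd
  rw [← ht] at hcd hdB
  have hst : s < t := by
    by_contra h3
    exact absurd (ENNReal.rpow_le_rpow_of_exponent_le q0.le (not_lt.mp h3)) (not_le.mpr hcd)
  obtain ⟨r, hr1, hr2⟩ := exists_rat_btwn hst
  have e : -(((-r.num : ℤ) : ℝ) / (r.den : ℕ)) = (r : ℝ) := by
    push_cast
    rw [neg_div, neg_neg]
    exact_mod_cast congrArg (Rat.cast : ℚ → ℝ) (Rat.num_div_den r)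
  refine ⟨r.den, -r.num, r.den_pos, ?_, ?_⟩
  · rw [e]
    exact hAc.trans (ENNReal.rpow_lt_rpow_of_exponent_lt q0 qt hr1)
  · rw [e]
    exact (ENNReal.rpow_lt_rpow_of_exponent_lt q0 qt hr2).trans hdB

theorem phi_inv_le {a : L} (ha : a ≠ 0) : phi v ϖ q a⁻¹ ≤ (phi v ϖ q a)⁻¹ := by
  have hq0 : q ≠ 0 := (zero_lt_one.trans q0).ne'
  rw [ENNReal.le_inv_iff_le_inv]
  by_contra hlt
  rw [not_le] at hlt
  obtain ⟨n, m, hn, h3, h4⟩ := exists_rat q0 qt hlt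
  have hv : v a ≠ 0 := (Valuation.ne_zero_iff v).mpr ha
  have h5 : ϖ ^ m < v a ^ n := by
    by_contra h6
    exact absurd (phi_le h0 h1 q0 qt hn (not_lt.mp h6)) (not_le.mpr h4)
  have h6 : v a⁻¹ ^ n ≤ ϖ ^ (-m) := by
    rw [map_inv₀, inv_pow, zpow_neg]
    exact (inv_le_inv₀ (pow_pos (zero_lt_iff.mpr hv) n) (zpow_pos h0 m)).mpr h5.le
  have h7 := phi_le (q := q) h0 h1 q0 qt hn h6
  rw [ENNReal.inv_lt_iff_inv_lt, ← ENNReal.rpow_neg] at h3
  refine absurd h7 (not_le.mpr (lt_of_le_of_lt (le_of_eq ?_) h3))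
  congr 1
  push_cast
  ring

theorem X_ne {a : L} {x : ℝ≥0∞} (hx : x ∈ X v ϖ q a) : x ≠ 0 ∧ x ≠ ∞ := by
  obtain ⟨n, m, hn, hm, rfl⟩ := hx
  have hq0 : q ≠ 0 := (zero_lt_one.trans q0).ne'
  exact ⟨(ENNReal.rpow_pos (pos_iff_ne_zero.mpr hq0) qt).ne', ENNReal.rpow_ne_top_of_ne_zero hq0 qt⟩

theorem phi_inv {a : L} (ha : a ≠ 0) : phi v ϖ q a⁻¹ = (phi v ϖ q a)⁻¹ := by
  refine le_antisymm (phi_inv_le h0 h1 q0 qt ha) ?_
  refine le_sInf fun y hy => ?_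
  rw [ENNReal.inv_le_iff_inv_le]
  refine le_sInf fun x hx => ?_
  have h3 := phi_mul_le h0 h1 q0 qt hx hy
  rw [mul_inv_cancel₀ ha, phi_one h0 h1 q0 qt] at h3
  obtain ⟨hy0, hyt⟩ := X_ne h0 h1 q0 qt hy
  rw [ENNReal.inv_le_iff_le_mul (fun _ => hy0) (fun h => absurd h hyt)]
  rwa [mul_comm] at h3

theorem phi_mul_le' {a b : L} (hab : phi v ϖ q a ≠ 0 ∨ phi v ϖ q b ≠ ∞)
    (hba : phi v ϖ q b ≠ 0 ∨ phi v ϖ q a ≠ ∞) :
    phi v ϖ q (a * b) ≤ phi v ϖ q a * phi v ϖ q b := by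
  have key : ∀ x ∈ X v ϖ q a, phi v ϖ q (a * b) ≤ x * phi v ϖ q b := by
    intro x hx
    obtain ⟨x0, xt⟩ := X_ne h0 h1 q0 qt hx
    rw [mul_comm x, ← ENNReal.div_le_iff_le_mul (Or.inl x0) (Or.inl xt)]
    refine le_sInf fun y hy => ?_
    rw [ENNReal.div_le_iff_le_mul (Or.inl x0) (Or.inl xt)]
    exact (phi_mul_le h0 h1 q0 qt hx hy).trans_eq (mul_comm _ _)
  by_cases hb0 : phi v ϖ q b = 0
  · have hat : phi v ϖ q a ≠ ∞ := hba.resolve_left (fun h => h hb0)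
    obtain ⟨x, hx⟩ : (X v ϖ q a).Nonempty := by
      by_contra hne
      rw [Set.not_nonempty_iff_eq_empty] at hne
      exact hat (by rw [phi, hne, sInf_empty])
    have := key x hx
    rw [hb0, mul_zero] at this ⊢
    exact this
  by_cases hbt : phi v ϖ q b = ∞
  · have ha0 : phi v ϖ q a ≠ 0 := hab.resolve_right (fun h => h hbt)
    rw [hbt, ENNReal.mul_top ha0]
    exact le_top
  rw [← ENNReal.div_le_iff_le_mul (Or.inl hb0) (Or.inl hbt)]
  refine le_sInf fun x hx => ?_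
  rw [ENNReal.div_le_iff_le_mul (Or.inl hb0) (Or.inl hbt)]
  exact key x hx

theorem phi_mul {a b : L} (hab : phi v ϖ q a ≠ 0 ∨ phi v ϖ q b ≠ ∞)
    (hba : phi v ϖ q b ≠ 0 ∨ phi v ϖ q a ≠ ∞) :
    phi v ϖ q (a * b) = phi v ϖ q a * phi v ϖ q b := by
  refine le_antisymm (phi_mul_le' h0 h1 q0 qt hab hba) ?_
  have hz := phi_zero (v := v) (L := L) h0 h1 q0 qt
  by_cases ha : a = 0
  · rw [ha, hz, zero_mul]; exact zero_le
  by_cases hb : b = 0
  · rw [hb, hz, mul_zero]; exact zero_le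
  have h3 := phi_mul_le' (v := v) (a := a⁻¹) (b := b⁻¹) h0 h1 q0 qt
    (by
      rw [phi_inv h0 h1 q0 qt ha, phi_inv h0 h1 q0 qt hb, Ne, ENNReal.inv_eq_zero, Ne,
        ENNReal.inv_eq_top]
      exact hba.symm)
    (by
      rw [phi_inv h0 h1 q0 qt ha, phi_inv h0 h1 q0 qt hb, Ne, ENNReal.inv_eq_zero, Ne,
        ENNReal.inv_eq_top]
      exact hab.symm)
  rw [← mul_inv, phi_inv h0 h1 q0 qt ha, phi_inv h0 h1 q0 qt hb,
    phi_inv h0 h1 q0 qt (mul_ne_zero ha hb), ← ENNReal.mul_inv hab hba.symm,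
    ENNReal.inv_le_inv] at h3
  exact h3

theorem phi_add (a b : L) : phi v ϖ q (a + b) ≤ max (phi v ϖ q a) (phi v ϖ q b) := by
  rcases le_total (v a) (v b) with h | h
  · exact le_max_of_le_right (phi_mono h0 h1 q0 qt ((v.map_add a b).trans (max_le h le_rfl)))
  · exact le_max_of_le_left (phi_mono h0 h1 q0 qt ((v.map_add a b).trans (max_le le_rfl h)))

theorem lt_of_phi_lt {a : L} (h : phi v ϖ q a < 1) : v a < 1 := by
  obtain ⟨x, ⟨n, m, hn, hm, rfl⟩, hx⟩ := sInf_lt_iff.mp h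
  have hn' : (0 : ℝ) < n := by exact_mod_cast hn
  have hm0 : 0 < m := by
    by_contra h3
    have h4 : (0 : ℝ) ≤ -((m : ℝ) / n) := by
      rw [neg_nonneg]
      exact div_nonpos_of_nonpos_of_nonneg (by exact_mod_cast not_lt.mp h3) hn'.le
    have h5 := ENNReal.rpow_le_rpow_of_exponent_le q0.le h4
    rw [ENNReal.rpow_zero] at h5
    exact absurd hx (not_lt.mpr h5)
  have h3 : v a ^ n < 1 := hm.trans_lt (zpow_lt_one₀ h0 h1 hm0)
  by_contra h4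
  exact absurd h3 (not_lt.mpr (one_le_pow₀ (not_lt.mp h4)))

omit h0 h1 q0 qt in
/-- **The point of a valuation ring** `W ⊇ ℤ_p`, `p ∈ m_W`. -/
theorem exists_pt (p : ℕ) [Fact p.Prime] [Algebra ℚ_[p] L] (W : ValuationSubring L)
    (hW : ∀ c : ℚ_[p], ‖c‖ ≤ 1 → algebraMap ℚ_[p] L c ∈ W) (hp : W.valuation (p : L) < 1) :
    ∃ φ : L → ℝ≥0∞, IsPt p ℚ_[p] L φ ∧ ∀ a, φ a < 1 → W.valuation a < 1 := by
  have hp0 : (p : L) ≠ 0 := by
    rw [← map_natCast (algebraMap ℚ_[p] L), Ne, map_eq_zero]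
    exact_mod_cast (Fact.out : p.Prime).ne_zero
  have h0 : 0 < W.valuation (p : L) := zero_lt_iff.mpr ((Valuation.ne_zero_iff _).mpr hp0)
  have q0 : (1 : ℝ≥0∞) < (p : ℝ≥0∞) := by exact_mod_cast (Fact.out : p.Prime).one_lt
  have qt : (p : ℝ≥0∞) ≠ ∞ := ENNReal.natCast_ne_top p
  refine ⟨phi W.valuation (W.valuation (p : L)) (p : ℝ≥0∞), ⟨?_, ?_, ?_, ?_⟩, ?_⟩
  · exact phi_add h0 hp q0 qt
  · exact fun a b => phi_mul h0 hp q0 qt
  · exact fun a => phi_inv h0 hp q0 qt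
  · intro c
    by_cases hc : c = 0
    · rw [hc, map_zero, map_zero, phi_zero h0 hp q0 qt]
      simp
    have hcn : ‖c‖ ≠ 0 := norm_ne_zero_iff.mpr hc
    have hval : W.valuation (algebraMap ℚ_[p] L c) = W.valuation (p : L) ^ c.valuation := by
      set u : ℚ_[p] := c * (p : ℚ_[p]) ^ (-c.valuation) with hu
      have hpn : (p : ℚ_[p]) ≠ 0 := by exact_mod_cast (Fact.out : p.Prime).ne_zero
      have hun : ‖u‖ = 1 := by
        rw [hu, norm_mul, Padic.norm_eq_zpow_neg_valuation hc, norm_zpow, Padic.norm_p, inv_zpow,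
          ← zpow_neg, neg_neg, ← zpow_add₀ (by exact_mod_cast (Fact.out : p.Prime).ne_zero)]
        simp
      have hu0 : u ≠ 0 := by
        intro h; rw [h, norm_zero] at hun; exact zero_ne_one hun
      have h1 : W.valuation (algebraMap ℚ_[p] L u) = 1 := by
        refine le_antisymm ((W.valuation_le_one_iff _).mpr (hW u hun.le)) ?_
        have h2 := (W.valuation_le_one_iff _).mpr (hW u⁻¹ (by rw [norm_inv, hun, inv_one]))
        rw [map_inv₀, map_inv₀] at h2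
        have h3 : W.valuation (algebraMap ℚ_[p] L u) ≠ 0 :=
          (Valuation.ne_zero_iff _).mpr ((map_ne_zero _).mpr hu0)
        rwa [inv_le_one₀ (zero_lt_iff.mpr h3)] at h2
      have h2 : c = u * (p : ℚ_[p]) ^ c.valuation := by
        rw [hu, mul_assoc, ← zpow_add₀ hpn, neg_add_cancel, zpow_zero, mul_one]
      conv_lhs => rw [h2]
      rw [map_mul, map_mul, h1, one_mul, map_zpow₀, map_zpow₀, map_natCast]
    rw [show algebraMap ℚ_[p] L (algebraMap ℚ_[p] ℚ_[p] c) = algebraMap ℚ_[p] L c from rfl,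
      phi_zpow h0 hp q0 qt _ _ hval]
    have hq0 : (p : ℝ≥0∞) ≠ 0 := (zero_lt_one.trans q0).ne'
    rw [← ENNReal.toReal_eq_toReal_iff' (ENNReal.rpow_ne_top_of_ne_zero hq0 qt)
      ENNReal.coe_ne_top, ← ENNReal.toReal_rpow, ENNReal.toReal_natCast, ENNReal.coe_toReal,
      coe_nnnorm, Padic.norm_eq_zpow_neg_valuation hc, ← Real.rpow_intCast]
    push_cast
    rfl
  · exact fun a => lt_of_phi_lt h0 hp q0 qt

end Crest.Agent.R013.AEPt_854
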