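import Mathlib
import Crest.Agent.R013.Syl_831

/-!
# A-TAU, part 1: local Galois theory in abstract form   (row 13, helper512)

`k ⊆ Ω` Galois, `Ω` algebraically closed of characteristic `0`, `w` a Galois invariant valuation
on `Ω`.  `MU w` = roots of unity of order prime to the residue characteristic.  No ramification
theory: everything is proved with Lagrange resolvents and values.
-/

set_option autoImplicit false
set_option linter.unusedSectionVars false

open scoped NNReal
open Crest.Agent.R013.Fp4_831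

namespace Crest.Agent.R013.Tau1_512

/-! ### Krull topology -/

section Krull

variable {k Ω : Type*} [Field k] [Field Ω] [Algebra k Ω]

lemma isOpen_apply_eq [Algebra.IsIntegral k Ω] (a b : Ω) : IsOpen {g : Ω ≃ₐ[k] Ω | g a = b} := by
  rcases Set.eq_empty_or_nonempty {g : Ω ≃ₐ[k] Ω | g a = b} with h | ⟨g₀, hg₀⟩
  · rw [h]; exact isOpen_empty
  · have h1 : {g : Ω ≃ₐ[k] Ω | g a = b} = (fun g => g₀⁻¹ * g) ⁻¹'
        (MulAction.stabilizer (Ω ≃ₐ[k] Ω) a : Set (Ω ≃ₐ[k] Ω)) := by
      ext g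
      change g a = b ↔ g₀⁻¹ (g a) = a
      have hg₀' : g₀ a = b := hg₀
      constructor
      · intro h
        rw [h, ← hg₀']
        exact AlgEquiv.symm_apply_apply g₀ a
      · intro h
        have h2 := congrArg g₀ h
        rw [hg₀'] at h2
        rw [← h2]
        exact (AlgEquiv.apply_symm_apply g₀ (g a)).symm
    rw [h1]
    exact (stabilizer_isOpen_of_isIntegral a).preimage (by fun_prop)

lemma isClosed_apply_eq [Algebra.IsIntegral k Ω] (a b : Ω) :
    IsClosed {g : Ω ≃ₐ[k] Ω | g a = b} := by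
  have h : {g : Ω ≃ₐ[k] Ω | g a = b}ᶜ = ⋃ c : {c : Ω // c ≠ b}, {g : Ω ≃ₐ[k] Ω | g a = c} := by
    ext g
    simp
  rw [← isOpen_compl_iff, h]
  exact isOpen_iUnion fun c => isOpen_apply_eq a c

lemma isClosed_apply_ne [Algebra.IsIntegral k Ω] (a b : Ω) :
    IsClosed {g : Ω ≃ₐ[k] Ω | g a ≠ b} := by
  have h : {g : Ω ≃ₐ[k] Ω | g a ≠ b} = {g : Ω ≃ₐ[k] Ω | g a = b}ᶜ := rfl
  rw [h, isClosed_compl_iff]
  exact isOpen_apply_eq a b

variable [IsGalois k Ω]

/-- an open normal subgroup fixing `x` -/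
lemma exists_openNormal_fix (x : Ω) :
    ∃ N : OpenNormalSubgroup (Ω ≃ₐ[k] Ω), ∀ g ∈ N, g x = x := by
  obtain ⟨N, hN⟩ := exists_openNormal_le (MulAction.stabilizer (Ω ≃ₐ[k] Ω) x)
    (stabilizer_isOpen_of_isIntegral x)
  exact ⟨N, fun g hg => hN hg⟩

lemma exists_pow_fix {l : ℕ} {P : Subgroup (Ω ≃ₐ[k] Ω)} (hP : IsProl l P)
    {g : Ω ≃ₐ[k] Ω} (hg : g ∈ P) (x : Ω) : ∃ n, (g ^ l ^ n) x = x := by
  obtain ⟨N, hN⟩ := exists_openNormal_fix (k := k) x
  obtain ⟨n, hn⟩ := hP g hg N
  exact ⟨n, hN _ hn⟩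

end Krull

/-! ### Valuations and roots of unity -/

section Val

variable {Ω : Type*} [Field Ω] (w : Valuation Ω ℝ≥0)

/-- Roots of unity of order a unit for `w`. -/
def MU : Set Ω := {z | ∃ N : ℕ, 0 < N ∧ w (N : Ω) = 1 ∧ z ^ N = 1}

variable {w}

lemma one_mem_MU : (1 : Ω) ∈ MU w := ⟨1, one_pos, by simp, by simp⟩

lemma w_of_pow_eq_one {z : Ω} {N : ℕ} (hN : 0 < N) (hz : z ^ N = 1) : w z = 1 := by
  have h : w z ^ N = 1 := by rw [← map_pow, hz, map_one]
  exact (pow_eq_one_iff_of_nonneg zero_le hN.ne').1 h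

lemma w_MU {z : Ω} (hz : z ∈ MU w) : w z = 1 := by
  obtain ⟨N, hN, -, h⟩ := hz
  exact w_of_pow_eq_one hN h

lemma ne_zero_MU {z : Ω} (hz : z ∈ MU w) : z ≠ 0 := by
  rintro rfl
  have := w_MU hz
  simp at this

lemma mul_mem_MU {z z' : Ω} (hz : z ∈ MU w) (hz' : z' ∈ MU w) : z * z' ∈ MU w := by
  obtain ⟨N, hN, h1, h2⟩ := hz
  obtain ⟨N', hN', h1', h2'⟩ := hz'
  refine ⟨N * N', by positivity, by rw [Nat.cast_mul, map_mul, h1, h1', one_mul], ?_⟩
  rw [mul_pow, pow_mul, h2, mul_comm N N', pow_mul, h2', one_pow, one_pow, one_mul]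

lemma inv_mem_MU {z : Ω} (hz : z ∈ MU w) : z⁻¹ ∈ MU w := by
  obtain ⟨N, hN, h1, h2⟩ := hz
  exact ⟨N, hN, h1, by rw [inv_pow, h2, inv_one]⟩

lemma map_mem_MU {k : Type*} [Field k] [Algebra k Ω] (g : Ω ≃ₐ[k] Ω) {z : Ω} (hz : z ∈ MU w) :
    g z ∈ MU w := by
  obtain ⟨N, hN, h1, h2⟩ := hz
  exact ⟨N, hN, h1, by rw [← map_pow, h2, map_one]⟩

/-- (L1) nontrivial roots of unity of unit order are not congruent to `1`. -/
lemma w_sub_one {z : Ω} (hz : z ∈ MU w) (h1 : z ≠ 1) : w (z - 1) = 1 := by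
  obtain ⟨N, hN, hwN, hzN⟩ := id hz
  refine le_antisymm ?_ ?_
  · refine (w.map_sub _ _).trans ?_
    simp [w_MU hz]
  · by_contra hcon
    push Not at hcon
    have hpow : ∀ i : ℕ, w (z ^ i - 1) < 1 := by
      intro i
      induction i with
      | zero => simp
      | succ i ih =>
        have h2 : z ^ (i + 1) - 1 = z * (z ^ i - 1) + (z - 1) := by ring
        rw [h2]
        refine (w.map_add _ _).trans_lt (max_lt ?_ hcon)
        rw [map_mul, w_MU hz, one_mul]
        exact ih
    have hs : ∑ i ∈ Finset.range N, z ^ i = 0 := by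
      have h3 := mul_geom_sum z N
      rw [hzN, sub_self] at h3
      exact (mul_eq_zero.1 h3).resolve_left (sub_ne_zero.2 h1)
    have h4 : (N : Ω) = ∑ i ∈ Finset.range N, (1 - z ^ i) := by
      rw [Finset.sum_sub_distrib, hs]
      simp
    have h5 : w (N : Ω) < 1 := by
      rw [h4]
      apply Valuation.map_sum_lt _ one_ne_zero
      intro i _
      rw [Valuation.map_sub_swap]
      exact hpow i
    exact absurd hwN h5.ne

lemma w_sub_of_ne {z z' : Ω} (hz : z ∈ MU w) (hz' : z' ∈ MU w) (h : z ≠ z') :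
    w (z - z') = 1 := by
  have h0 := ne_zero_MU hz'
  have h1 : z - z' = (z * z'⁻¹ - 1) * z' := by
    field_simp
  have h2 : z * z'⁻¹ ≠ 1 := by
    intro h3
    exact h (by rw [← div_eq_mul_inv, div_eq_one_iff_eq h0] at h3; exact h3)
  rw [h1, map_mul, w_sub_one (mul_mem_MU hz (inv_mem_MU hz')) h2, w_MU hz', one_mul]

/-- (LV) coefficients of a polynomial from its values at points with unit differences. -/
lemma coeff_le_of_eval (s : Finset Ω) (hs : ∀ a ∈ s, w a ≤ 1)
    (hd : ∀ a ∈ s, ∀ b ∈ s, a ≠ b → w (a - b) = 1) (B : ℝ≥0) (q : Polynomial Ω)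
    (hq : q.degree < s.card) (hB : ∀ a ∈ s, w (q.eval a) ≤ B) (i : ℕ) : w (q.coeff i) ≤ B := by
  classical
  induction s using Finset.induction_on generalizing q i with
  | empty =>
    simp only [Finset.card_empty, Nat.cast_zero] at hq
    have : q = 0 := by
      by_contra h
      have := Polynomial.zero_le_degree_iff.2 h
      exact absurd hq (not_lt.2 this)
    simp [this]
  | insert a s ha ih =>
    have hs' : ∀ b ∈ s, w b ≤ 1 := fun b hb => hs b (Finset.mem_insert_of_mem hb)
    have hd' : ∀ b ∈ s, ∀ c ∈ s, b ≠ c → w (b - c) = 1 := fun b hb c hc =>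
      hd b (Finset.mem_insert_of_mem hb) c (Finset.mem_insert_of_mem hc)
    set r := q /ₘ (Polynomial.X - Polynomial.C a) with hr
    have hqr : q = Polynomial.C (q.eval a) + (Polynomial.X - Polynomial.C a) * r := by
      have := Polynomial.modByMonic_add_div q (Polynomial.X - Polynomial.C a)
      rw [Polynomial.modByMonic_X_sub_C_eq_C_eval] at this
      exact this.symm
    have hrdeg : r.degree < s.card := by
      rw [Finset.card_insert_of_notMem ha] at hq
      by_cases hr0 : r = 0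
      · rw [hr0, Polynomial.degree_zero]
        exact WithBot.bot_lt_coe _
      have hq0 : q ≠ 0 := by
        intro h0
        apply hr0
        rw [hr, h0, Polynomial.zero_divByMonic]
      rw [Polynomial.degree_eq_natDegree hq0] at hq
      rw [Polynomial.degree_eq_natDegree hr0]
      have h1 : r.natDegree = q.natDegree - 1 := by
        rw [hr, Polynomial.natDegree_divByMonic _ (Polynomial.monic_X_sub_C a),
          Polynomial.natDegree_X_sub_C]
      have h2 : q.natDegree < s.card + 1 := by exact_mod_cast hq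
      have h3 : 0 < q.natDegree := by
        by_contra h4
        have h5 : q.natDegree = 0 := by omega
        apply hr0
        rw [hr, Polynomial.divByMonic_eq_zero_iff (Polynomial.monic_X_sub_C a)]
        rw [Polynomial.degree_eq_natDegree hq0, h5, Polynomial.degree_X_sub_C]
        exact_mod_cast zero_lt_one
      have h6 : r.natDegree < s.card := by omega
      exact_mod_cast h6
    have hrB : ∀ b ∈ s, w (r.eval b) ≤ B := by
      intro b hb
      have hab : b ≠ a := fun h => ha (h ▸ hb)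
      have h1 : q.eval b = q.eval a + (b - a) * r.eval b := by
        conv_lhs => rw [hqr]
        simp
      have h2 : w (r.eval b) = w (q.eval b - q.eval a) := by
        have h3 : q.eval b - q.eval a = (b - a) * r.eval b := by rw [h1]; ring
        rw [h3, map_mul, hd b (Finset.mem_insert_of_mem hb) a (Finset.mem_insert_self a s) hab,
          one_mul]
      rw [h2]
      exact (w.map_sub _ _).trans (max_le (hB b (Finset.mem_insert_of_mem hb))
        (hB a (Finset.mem_insert_self a s)))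
    have key : ∀ j, w (r.coeff j) ≤ B := fun j => ih hs' hd' r hrdeg hrB j
    have hqa : w (q.eval a) ≤ B := hB a (Finset.mem_insert_self a s)
    have ha1 : w a ≤ 1 := hs a (Finset.mem_insert_self a s)
    rw [hqr, Polynomial.coeff_add, sub_mul, Polynomial.coeff_sub, Polynomial.coeff_C_mul]
    have haj : w (a * r.coeff i) ≤ B := by
      rw [map_mul]
      exact (mul_le_of_le_one_left zero_le ha1).trans (key i)
    refine (w.map_add _ _).trans (max_le ?_ ((w.map_sub _ _).trans (max_le ?_ haj)))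
    · cases i with
      | zero => simpa using hqa
      | succ i => simp
    · cases i with
      | zero => simp
      | succ i =>
        rw [Polynomial.coeff_X_mul]
        exact key i

end Val

/-! ### Galois invariant valuations -/

section Inv

variable {k Ω : Type*} [Field k] [Field Ω] [Algebra k Ω] {w : Valuation Ω ℝ≥0}

/-- (L3) -/
lemma w_map_sub_lt (hinv : ∀ (g : Ω ≃ₐ[k] Ω) x, w (g x) = w x)
    (hres : ∀ x : Ω, w x = 1 → ∃ z ∈ MU w, w (x - z) < 1)
    {g : Ω ≃ₐ[k] Ω} (hg : ∀ z ∈ MU w, g z = z) {x : Ω} (hx : w x = 1) : w (g x - x) < 1 := by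
  obtain ⟨z, hz, hxz⟩ := hres x hx
  have h1 : g x - x = g (x - z) - (x - z) := by
    rw [map_sub, hg z hz]; ring
  rw [h1]
  refine (w.map_sub _ _).trans_lt (max_lt ?_ hxz)
  rw [hinv]; exact hxz

/-- (L4) -/
lemma exists_w_pow [IsGalois k Ω] [IsAlgClosed Ω]
    (hinv : ∀ (g : Ω ≃ₐ[k] Ω) x, w (g x) = w x) {r : ℝ≥0}
    (hdisc : ∀ c : k, c ≠ 0 → ∃ n : ℤ, w (algebraMap k Ω c) = r ^ n) {y : Ω} (hy : y ≠ 0) :
    ∃ n : ℤ, w y ^ (minpoly k y).natDegree = r ^ n := by
  have hint : IsIntegral k y := Algebra.IsIntegral.isIntegral y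
  have hc0 : (minpoly k y).coeff 0 ≠ 0 := minpoly.coeff_zero_ne_zero hint hy
  obtain ⟨n, hn⟩ := hdisc _ hc0
  refine ⟨n, ?_⟩
  rw [← hn]
  set f := (minpoly k y).map (algebraMap k Ω) with hf
  have hmon : f.Monic := (minpoly.monic hint).map _
  have hsplit : f.Splits := IsAlgClosed.splits f
  have h1 : f.coeff 0 = (-1) ^ f.natDegree * f.roots.prod :=
    hsplit.coeff_zero_eq_prod_roots_of_monic hmon
  have h2 : f.coeff 0 = algebraMap k Ω ((minpoly k y).coeff 0) := by
    rw [hf, Polynomial.coeff_map]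
  rw [← h2, h1, map_mul, map_pow, Valuation.map_neg, map_one, one_pow, one_mul]
  have h3 : ∀ x ∈ f.roots, w x = w y := by
    intro x hx
    rw [Polynomial.mem_roots hmon.ne_zero, hf, Polynomial.IsRoot.def, Polynomial.eval_map_algebraMap]
      at hx
    obtain ⟨g, hg⟩ := minpoly.exists_algEquiv_of_root (K := k) (L := Ω)
      (Algebra.IsAlgebraic.isAlgebraic y) hx
    rw [← hg, hinv]
  rw [map_multiset_prod, Multiset.map_congr rfl h3, Multiset.map_const', Multiset.prod_replicate,
    ← hsplit.natDegree_eq_card_roots, hf, Polynomial.natDegree_map]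

end Inv

end Crest.Agent.R013.Tau1_512
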