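import Mathlib
import Crest.Agent.R013.Tau1_512

/-!
# A-TAU, part 2: the main lemmas   (row 13, helper512)

(INJ) `g ∈ P` fixing the roots of unity of unit order and all `ϖ^(1/l^n)` is trivial;
(SURJ) some `τ ∈ P` fixes the roots of unity of unit order and moves `ϖ^(1/l)`;
(CYC) some `φ ∈ P` acts on `μ_(l^∞)` with infinite order.
-/

set_option autoImplicit false
set_option linter.unusedSectionVars false

open scoped NNReal
open Crest.Agent.R013.Fp4_831
open Crest.Agent.R013.Tau1_512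

namespace Crest.Agent.R013.Tau2_512

variable {k Ω : Type*} [Field k] [Field Ω] [Algebra k Ω]

/-- The local hypotheses. -/
structure Hyp (k : Type*) {Ω : Type*} [Field k] [Field Ω] [Algebra k Ω] (w : Valuation Ω ℝ≥0)
    (l : ℕ) (ϖ : k) : Prop where
  inv : ∀ (g : Ω ≃ₐ[k] Ω) (x : Ω), w (g x) = w x
  prime : l.Prime
  wl : w (l : Ω) = 1
  pi_ne : ϖ ≠ 0
  pi_lt : w (algebraMap k Ω ϖ) < 1
  disc : ∀ c : k, c ≠ 0 → ∃ n : ℤ, w (algebraMap k Ω c) = w (algebraMap k Ω ϖ) ^ n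
  res : ∀ x : Ω, w x = 1 → ∃ z ∈ MU w, w (x - z) < 1
  mufin : ∀ F : IntermediateField k Ω, FiniteDimensional k F →
    {z : Ω | z ∈ F ∧ ∃ n : ℕ, z ^ l ^ n = 1}.Finite

section Compact

variable [IsGalois k Ω]

/-- intersections of decreasing sequences of closed subsets of the Galois group -/
lemma exists_mem_of_decr (A : ℕ → Set (Ω ≃ₐ[k] Ω)) (hcl : ∀ n, IsClosed (A n))
    (hne : ∀ n, (A n).Nonempty) (hdecr : ∀ n, A (n + 1) ⊆ A n) :
    ∃ g, ∀ n, g ∈ A n := by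
  obtain ⟨g, hg⟩ := IsCompact.nonempty_iInter_of_sequence_nonempty_isCompact_isClosed A
    hdecr hne (hcl 0).isCompact hcl
  exact ⟨g, fun n => Set.mem_iInter.1 hg n⟩

end Compact

section Inj

variable {w : Valuation Ω ℝ≥0} {l : ℕ} {ϖ : k} {P : Subgroup (Ω ≃ₐ[k] Ω)}

lemma mem_MU_of_pow (H : Hyp k w l ϖ) {z : Ω} {n : ℕ} (hz : z ^ l ^ n = 1) : z ∈ MU w :=
  ⟨l ^ n, pow_pos H.prime.pos n, by rw [Nat.cast_pow, map_pow, H.wl, one_pow], hz⟩

/-- Lagrange resolvents: an automorphism of order `l` on `x` has an eigenvector with eigenvalue a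
nontrivial `l`-th root of unity. -/
lemma exists_eigen [CharZero Ω] [IsAlgClosed Ω] (hl : l.Prime) {h : Ω ≃ₐ[k] Ω}
    (hmu : ∀ z : Ω, z ^ l = 1 → h z = z)
    {x : Ω} (hx : h x ≠ x) (hxl : (h ^ l) x = x) :
    ∃ y η : Ω, y ≠ 0 ∧ η ^ l = 1 ∧ η ≠ 1 ∧ h y = η * y := by
  have hl0 : (l : Ω) ≠ 0 := Nat.cast_ne_zero.2 hl.ne_zero
  have : NeZero (l : Ω) := ⟨hl0⟩
  have : NeZero l := ⟨hl.ne_zero⟩
  obtain ⟨ζ, hζ⟩ := HasEnoughRootsOfUnity.exists_primitiveRoot Ω l
  let Y : Ω → Ω := fun η => ∑ t ∈ Finset.range l, η ^ t * (h ^ t) x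
  have hY : ∀ η : Ω, η ^ l = 1 → h (Y η) = η⁻¹ * Y η := by
    intro η hη
    have hη0 : η ≠ 0 := by
      rintro rfl
      rw [zero_pow hl.ne_zero] at hη
      exact zero_ne_one hη
    have h1 : η * h (Y η) = ∑ t ∈ Finset.range l, η ^ (t + 1) * (h ^ (t + 1)) x := by
      simp only [Y]
      rw [map_sum, Finset.mul_sum]
      refine Finset.sum_congr rfl fun t _ => ?_
      rw [map_mul, map_pow, hmu η hη, pow_succ' η t, mul_assoc]
      congr 2
      rw [pow_succ']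
      rfl
    have h2 : ∑ t ∈ Finset.range l, η ^ (t + 1) * (h ^ (t + 1)) x = Y η := by
      have h3 := Finset.sum_range_succ' (fun t => η ^ t * (h ^ t) x) l
      have h4 := Finset.sum_range_succ (fun t => η ^ t * (h ^ t) x) l
      rw [h4] at h3
      simp only [hη, hxl, pow_zero, one_mul] at h3
      have h5 : (1 : Ω ≃ₐ[k] Ω) x = x := rfl
      rw [h5] at h3
      exact (add_right_cancel h3).symm
    exact (eq_inv_mul_iff_mul_eq₀ hη0).2 (h1.trans h2)
  have hsum : ∑ j ∈ Finset.range l, Y (ζ ^ j) = l * x := by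
    simp only [Y]
    rw [Finset.sum_comm]
    have h1 : ∀ t ∈ Finset.range l, t ≠ 0 → ∑ j ∈ Finset.range l, (ζ ^ j) ^ t * (h ^ t) x = 0 := by
      intro t ht ht0
      rw [← Finset.sum_mul]
      have h2 : ∑ j ∈ Finset.range l, (ζ ^ j) ^ t = 0 := by
        have h3 : ∀ j ∈ Finset.range l, (ζ ^ j) ^ t = (ζ ^ t) ^ j := by
          intro j _
          rw [← pow_mul, ← pow_mul, mul_comm]
        rw [Finset.sum_congr rfl h3]
        have h4 := mul_geom_sum (ζ ^ t) l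
        rw [← pow_mul, mul_comm t l, pow_mul, hζ.pow_eq_one, one_pow, sub_self] at h4
        refine (mul_eq_zero.1 h4).resolve_left (sub_ne_zero.2 ?_)
        intro h5
        have h6 := hζ.dvd_of_pow_eq_one t h5
        exact absurd (Nat.le_of_dvd (Nat.pos_of_ne_zero ht0) h6) (not_le.2 (Finset.mem_range.1 ht))
      rw [h2, zero_mul]
    rw [Finset.sum_eq_single_of_mem 0 (Finset.mem_range.2 hl.pos) h1]
    simp
  by_contra hcon
  push Not at hcon
  have hzero : ∀ j ∈ Finset.range l, j ≠ 0 → Y (ζ ^ j) = 0 := by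
    intro j hj hj0
    by_contra hne
    have h1 : (ζ ^ j) ^ l = 1 := by rw [← pow_mul, mul_comm, pow_mul, hζ.pow_eq_one, one_pow]
    refine hcon (Y (ζ ^ j)) ((ζ ^ j)⁻¹) hne (by rw [inv_pow, h1, inv_one]) ?_ (hY _ h1)
    intro h2
    rw [inv_eq_one] at h2
    have h6 := hζ.dvd_of_pow_eq_one j h2
    exact absurd (Nat.le_of_dvd (Nat.pos_of_ne_zero hj0) h6) (not_le.2 (Finset.mem_range.1 hj))
  rw [Finset.sum_eq_single_of_mem 0 (Finset.mem_range.2 hl.pos) hzero, pow_zero] at hsum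
  have h1 := hY 1 (one_pow l)
  rw [inv_one, one_mul, hsum, map_mul, map_natCast] at h1
  exact hx (mul_left_cancel₀ hl0 h1)

/-- (INJ) -/
theorem inj [CharZero Ω] [IsGalois k Ω] [IsAlgClosed Ω] (H : Hyp k w l ϖ) (hP : IsProl l P)
    {vp : ℕ → Ω}
    (hvp0 : vp 0 = algebraMap k Ω ϖ) (hvp : ∀ n, vp (n + 1) ^ l = vp n)
    {g : Ω ≃ₐ[k] Ω} (hg : g ∈ P) (hgMU : ∀ z ∈ MU w, g z = z) (hgvp : ∀ n, g (vp n) = vp n) :
    g = 1 := by
  by_contra hne
  obtain ⟨x, hx⟩ : ∃ x, g x ≠ x := by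
    by_contra hcon
    push Not at hcon
    exact hne (AlgEquiv.ext hcon)
  classical
  have hex := exists_pow_fix hP hg x
  obtain ⟨n, hn⟩ : ∃ n, Nat.find hex = n + 1 := by
    apply Nat.exists_eq_succ_of_ne_zero
    intro h0
    have h1 := Nat.find_spec hex
    rw [h0, pow_zero, pow_one] at h1
    exact hx h1
  have hxn1 : (g ^ l ^ (n + 1)) x = x := hn ▸ Nat.find_spec hex
  have hxn : (g ^ l ^ n) x ≠ x := Nat.find_min hex (by omega)
  set h := g ^ l ^ n with hh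
  have hpowfix : ∀ (y : Ω) (m : ℕ), g y = y → (g ^ m) y = y := by
    intro y m hy
    induction m with
    | zero => rfl
    | succ m ih =>
      rw [pow_succ]
      change (g ^ m) (g y) = y
      rw [hy, ih]
  have hhMU : ∀ z ∈ MU w, h z = z := fun z hz => hpowfix z _ (hgMU z hz)
  have hhvp : ∀ n, h (vp n) = vp n := fun n => hpowfix _ _ (hgvp n)
  have hhl : (h ^ l) x = x := by
    rw [hh, ← pow_mul, ← pow_succ]
    exact hxn1
  obtain ⟨y, η, hy0, hηl, hη1, hhy⟩ := exists_eigen H.prime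
    (fun z hz => hhMU z (mem_MU_of_pow H (n := 1) (by rwa [pow_one]))) hxn hhl
  have hηMU : η ∈ MU w := mem_MU_of_pow H (n := 1) (by rwa [pow_one])
  -- the value of `y`
  obtain ⟨m, hm⟩ := exists_w_pow H.inv H.disc hy0
  set d := (minpoly k y).natDegree with hd
  have hd0 : d ≠ 0 := (minpoly.natDegree_pos (Algebra.IsIntegral.isIntegral y)).ne'
  obtain ⟨b, s, hls, hds⟩ := Nat.exists_eq_pow_mul_and_not_dvd hd0 l H.prime.ne_one
  have hwpos : 0 < w y := pos_iff_ne_zero.2 (by rwa [Ne, map_eq_zero])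
  have hvpb : ∀ b, vp b ^ l ^ b = algebraMap k Ω ϖ := by
    intro b
    induction b with
    | zero => rw [pow_zero, pow_one, hvp0]
    | succ b ih => rw [pow_succ', pow_mul, hvp, ih]
  have hvpne : ∀ b, vp b ≠ 0 := by
    intro b h0
    have h1 := hvpb b
    rw [h0, zero_pow (pow_pos H.prime.pos b).ne'] at h1
    exact H.pi_ne ((map_eq_zero (algebraMap k Ω)).1 h1.symm)
  have hval : w y ^ s = w (vp b) ^ m := by
    have h1 : (w y ^ s) ^ l ^ b = (w (vp b) ^ m) ^ l ^ b := by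
      rw [← pow_mul, mul_comm s, ← hds, hm, ← hvpb b, map_pow, ← zpow_natCast, ← zpow_natCast,
        ← zpow_mul, ← zpow_mul, mul_comm]
    exact (pow_left_inj₀ zero_le zero_le (pow_pos H.prime.pos b).ne').1 h1
  -- Bezout
  have hcop : IsCoprime (s : ℤ) (l : ℤ) := by
    rw [Nat.isCoprime_iff_coprime, Nat.coprime_comm]
    exact (Nat.Prime.coprime_iff_not_dvd H.prime).2 hls
  obtain ⟨u, v, huv⟩ := hcop
  set c := vp b ^ (m * u) * (y ^ l) ^ v with hc
  have hyl0 : y ^ l ≠ 0 := pow_ne_zero _ hy0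
  have hc0 : c ≠ 0 := mul_ne_zero (zpow_ne_zero _ (hvpne b)) (zpow_ne_zero _ hyl0)
  have hwc : w y = w c := by
    rw [hc, map_mul, map_zpow₀, map_zpow₀, map_pow, zpow_mul, ← hval, ← zpow_natCast (w y) s,
      ← zpow_natCast (w y) l, ← zpow_mul, ← zpow_mul, ← zpow_add₀ hwpos.ne',
      show (s : ℤ) * u + l * v = 1 by rw [mul_comm (s : ℤ), mul_comm (l : ℤ)]; exact huv, zpow_one]
  have hhc : h c = c := by
    rw [hc, map_mul, map_zpow₀, map_zpow₀, map_pow, hhvp, hhy, mul_pow, hηl, one_mul]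
  have hux : w (y / c) = 1 := by
    rw [map_div₀, hwc, div_self]
    rwa [Ne, map_eq_zero]
  have h1 := w_map_sub_lt H.inv H.res hhMU hux
  have h2 : h (y / c) - y / c = (η - 1) * (y / c) := by
    rw [map_div₀, hhy, hhc]; ring
  rw [h2, map_mul, hux, mul_one, w_sub_one hηMU hη1] at h1
  exact lt_irrefl _ h1

end Inj

end Crest.Agent.R013.Tau2_512
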