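import Mathlib
import Crest.Agent.R013.Tau2_512

/-!
# A-TAU, part 3: (SURJ)   (row 13, helper512)
-/

set_option autoImplicit false
set_option linter.unusedSectionVars false

open scoped NNReal IntermediateField
open Crest.Agent.R013.Fp4_831
open Crest.Agent.R013.Tau1_512
open Crest.Agent.R013.Tau2_512

namespace Crest.Agent.R013.Tau3_512

variable {k Ω : Type*} [Field k] [Field Ω] [Algebra k Ω]
variable {w : Valuation Ω ℝ≥0} {l : ℕ} {ϖ : k} {P : Subgroup (Ω ≃ₐ[k] Ω)}

/-- An element of `F(ζ)`, `ζ` a root of unity of unit order, has the value of an element of `F`. -/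
lemma exists_same_value {F : Type*} [Field F] [CharZero F] [Algebra F Ω] [IsGalois F Ω]
    [IsAlgClosed Ω] (hinv : ∀ (g : Ω ≃ₐ[F] Ω) x, w (g x) = w x)
    {ζ : Ω} (hζ : ζ ∈ MU w) {a : Ω} (ha : a ∈ F⟮ζ⟯) (ha0 : a ≠ 0) :
    ∃ c : F, c ≠ 0 ∧ w (algebraMap F Ω c) = w a := by
  classical
  have hint : IsIntegral F ζ := Algebra.IsIntegral.isIntegral ζ
  obtain ⟨N, hN, hwN, hζN⟩ := id hζ
  obtain ⟨q, hqd, hq⟩ := (IntermediateField.adjoin.powerBasis hint).exists_eq_aeval ⟨a, ha⟩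
  rw [IntermediateField.adjoin.powerBasis_dim] at hqd
  have hqa : Polynomial.aeval ζ q = a := by
    have h1 := congrArg (algebraMap F⟮ζ⟯ Ω) hq
    rw [← Polynomial.aeval_algebraMap_apply, IntermediateField.adjoin.powerBasis_gen,
      IntermediateField.AdjoinSimple.algebraMap_gen] at h1
    exact h1.symm
  set m := minpoly F ζ with hm
  have hmsep : m.Separable := (minpoly.irreducible hint).separable
  have hcard := Polynomial.card_rootSet_eq_natDegree (K := Ω) hmsep (IsAlgClosed.splits _)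
  set s := (m.rootSet Ω).toFinset with hs
  have hscard : s.card = m.natDegree := by rw [hs, Set.toFinset_card, hcard]
  have hroot : ∀ b ∈ s, ∃ g : Ω ≃ₐ[F] Ω, g ζ = b := by
    intro b hb
    rw [hs, Set.mem_toFinset, Polynomial.mem_rootSet] at hb
    exact minpoly.exists_algEquiv_of_root' (Algebra.IsAlgebraic.isAlgebraic ζ) hb.2
  have hsMU : ∀ b ∈ s, b ∈ MU w := by
    intro b hb
    obtain ⟨g, rfl⟩ := hroot b hb
    exact map_mem_MU g hζ
  have hle : ∀ i, w (algebraMap F Ω (q.coeff i)) ≤ w a := by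
    intro i
    have := coeff_le_of_eval (w := w) s (fun b hb => (w_MU (hsMU b hb)).le)
      (fun b hb b' hb' hne => w_sub_of_ne (hsMU b hb) (hsMU b' hb') hne) (w a)
      (q.map (algebraMap F Ω)) ?_ ?_ i
    · rwa [Polynomial.coeff_map] at this
    · rw [hscard]
      rw [Polynomial.degree_map]
      exact (Polynomial.degree_le_natDegree).trans_lt (by exact_mod_cast hqd)
    · intro b hb
      obtain ⟨g, rfl⟩ := hroot b hb
      rw [Polynomial.eval_map_algebraMap]
      have h1 : Polynomial.aeval (g ζ) q = g a := by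
        rw [← hqa]
        exact Polynomial.aeval_algHom_apply g.toAlgHom ζ q
      rw [h1, hinv]
  have hge : ∃ i, w a ≤ w (algebraMap F Ω (q.coeff i)) := by
    by_contra hcon
    push Not at hcon
    have h1 : w a < w a := by
      conv_lhs => rw [← hqa, Polynomial.aeval_eq_sum_range]
      apply Valuation.map_sum_lt
      · rwa [Ne, map_eq_zero]
      · intro i _
        rw [Algebra.smul_def, map_mul, map_pow, w_MU hζ, one_pow, mul_one]
        exact hcon i
    exact lt_irrefl _ h1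
  obtain ⟨i, hi⟩ := hge
  have heq := le_antisymm (hle i) hi
  refine ⟨q.coeff i, ?_, heq⟩
  intro h0
  rw [h0, map_zero, map_zero] at heq
  exact ha0 ((map_eq_zero w).1 heq.symm)

/-- the degree over `k` of an element fixed by `P` is prime to `l` -/
lemma not_dvd_natDegree [IsGalois k Ω] (hco : IsCoSylow l P) {c : Ω} (hc : ∀ g ∈ P, g c = c) :
    ¬ l ∣ (minpoly k c).natDegree := by
  have hint : IsIntegral k c := Algebra.IsIntegral.isIntegral c
  have h1 : (minpoly k c).natDegree = (k⟮c⟯).fixingSubgroup.index := by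
    rw [← IntermediateField.finrank_eq_fixingSubgroup_index, IntermediateField.adjoin.finrank hint]
  obtain ⟨N, hN⟩ := exists_openNormal_fix (k := k) c
  have hle : P ⊔ (N : Subgroup (Ω ≃ₐ[k] Ω)) ≤ (k⟮c⟯).fixingSubgroup := by
    refine sup_le ?_ ?_
    · intro g hg
      rw [IntermediateField.mem_fixingSubgroup_iff]
      exact (IntermediateField.forall_mem_adjoin_smul_eq_self_iff k (S := {c}) g).2
        (by rintro x rfl; exact hc g hg)
    · intro g hg
      rw [IntermediateField.mem_fixingSubgroup_iff]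
      exact (IntermediateField.forall_mem_adjoin_smul_eq_self_iff k (S := {c}) g).2
        (by rintro x rfl; exact hN g hg)
  rw [h1]
  intro h2
  exact hco.not_dvd N (h2.trans (Subgroup.index_dvd_of_le hle))

/-- (SURJ) -/
theorem surj [CharZero Ω] [IsGalois k Ω] [IsAlgClosed Ω] (H : Hyp k w l ϖ)
    (hco : IsCoSylow l P) {a : Ω} (ha : a ^ l = algebraMap k Ω ϖ) :
    ∃ τ ∈ P, (∀ z ∈ MU w, τ z = z) ∧ τ a ≠ a := by
  by_contra hcon
  push Not at hcon
  -- Step 1
  obtain ⟨N, hN, hwN, hfix⟩ : ∃ N : ℕ, 0 < N ∧ w (N : Ω) = 1 ∧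
      ∀ τ ∈ P, (∀ z : Ω, z ^ N = 1 → τ z = z) → τ a = a := by
    by_contra hno
    push Not at hno
    let ι := {N : ℕ // 0 < N ∧ w (N : Ω) = 1}
    let A : ι → Set (Ω ≃ₐ[k] Ω) := fun N =>
      (P : Set (Ω ≃ₐ[k] Ω)) ∩ ((⋂ z : {z : Ω // z ^ (N : ℕ) = 1}, {g | g (z : Ω) = z}) ∩
        {g | g a ≠ a})
    have : Nonempty ι := ⟨⟨1, one_pos, by simp⟩⟩
    have hAcl : ∀ i, IsClosed (A i) := fun i =>
      hco.closed.inter ((isClosed_iInter fun z => isClosed_apply_eq _ _).inter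
        (isClosed_apply_ne _ _))
    have hdir : Directed (· ⊇ ·) A := by
      rintro ⟨N, hN, hwN⟩ ⟨N', hN', hwN'⟩
      refine ⟨⟨N * N', Nat.mul_pos hN hN', by rw [Nat.cast_mul, map_mul, hwN, hwN', one_mul]⟩,
        ?_, ?_⟩
      · rintro g ⟨h1, h2, h3⟩
        refine ⟨h1, ?_, h3⟩
        rw [Set.mem_iInter] at h2 ⊢
        rintro ⟨z, hz⟩
        exact h2 ⟨z, by change z ^ (N * N') = 1; rw [pow_mul, hz, one_pow]⟩
      · rintro g ⟨h1, h2, h3⟩
        refine ⟨h1, ?_, h3⟩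
        rw [Set.mem_iInter] at h2 ⊢
        rintro ⟨z, hz⟩
        exact h2 ⟨z, by change z ^ (N * N') = 1; rw [mul_comm, pow_mul, hz, one_pow]⟩
    have hne : ∀ i, (A i).Nonempty := by
      rintro ⟨N, hN, hwN⟩
      obtain ⟨τ, h1, h2, h3⟩ := hno N hN hwN
      exact ⟨τ, h1, Set.mem_iInter.2 fun z => h2 z z.2, h3⟩
    obtain ⟨g, hg⟩ := IsCompact.nonempty_iInter_of_directed_nonempty_isCompact_isClosed A hdir hne
      (fun i => (hAcl i).isCompact) hAcl
    rw [Set.mem_iInter] at hg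
    have hgP : g ∈ P := (hg (Classical.arbitrary ι)).1
    have hga : g a ≠ a := (hg (Classical.arbitrary ι)).2.2
    refine hga (hcon g hgP ?_)
    rintro z ⟨M, hM, hwM, hzM⟩
    have h1 := (hg ⟨M, hM, hwM⟩).2.1
    rw [Set.mem_iInter] at h1
    exact h1 ⟨z, hzM⟩
  -- Step 2
  have : NeZero (N : Ω) := ⟨Nat.cast_ne_zero.2 hN.ne'⟩
  have : NeZero N := ⟨hN.ne'⟩
  have hl0 := H.prime.ne_zero
  obtain ⟨ζ, hζ⟩ := HasEnoughRootsOfUnity.exists_primitiveRoot Ω N
  have hζMU : ζ ∈ MU w := ⟨N, hN, hwN, hζ.pow_eq_one⟩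
  let F := IntermediateField.fixedField P
  have hF : F.fixingSubgroup = P := InfiniteGalois.fixingSubgroup_fixedField ⟨P, hco.closed⟩
  have ha0 : a ≠ 0 := by
    rintro rfl
    rw [zero_pow hl0] at ha
    exact H.pi_ne ((map_eq_zero (algebraMap k Ω)).1 ha.symm)
  have hres : ∀ σ : Ω ≃ₐ[F] Ω, σ.restrictScalars k ∈ P := by
    intro σ
    rw [← hF, IntermediateField.mem_fixingSubgroup_iff]
    intro x hx
    exact σ.commutes ⟨x, hx⟩
  have haF : a ∈ F⟮ζ⟯ := by
    rw [← InfiniteGalois.fixedField_fixingSubgroup F⟮ζ⟯, IntermediateField.mem_fixedField_iff]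
    intro σ hσ
    have h1 : σ ζ = ζ := by
      rw [IntermediateField.mem_fixingSubgroup_iff] at hσ
      exact hσ ζ (IntermediateField.mem_adjoin_simple_self F ζ)
    refine hfix (σ.restrictScalars k) (hres σ) ?_
    intro z hz
    obtain ⟨i, -, rfl⟩ := hζ.eq_pow_of_pow_eq_one hz
    change σ (ζ ^ i) = ζ ^ i
    rw [map_pow, h1]
  -- Step 3
  obtain ⟨c, hc0, hc⟩ := exists_same_value (F := F)
    (fun σ x => H.inv (σ.restrictScalars k) x) hζMU haF ha0
  -- Step 4
  have hcP : ∀ g ∈ P, g (c : Ω) = c := by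
    intro g hg
    exact (IntermediateField.mem_fixedField_iff P (c : Ω)).1 c.2 g hg
  have hnd := not_dvd_natDegree hco hcP
  have hc0' : (c : Ω) ≠ 0 := by simpa using hc0
  obtain ⟨n, hn⟩ := exists_w_pow H.inv H.disc hc0'
  set d := (minpoly k (c : Ω)).natDegree with hd
  have hpos : 0 < w (algebraMap k Ω ϖ) := by
    rw [pos_iff_ne_zero, Ne, map_eq_zero, map_eq_zero]
    exact H.pi_ne
  have hc' : w (c : Ω) = w a := hc
  have h1 : w (algebraMap k Ω ϖ) ^ (d : ℤ) = w (algebraMap k Ω ϖ) ^ (n * l) := by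
    rw [zpow_mul, ← hn, hc']
    conv_lhs => rw [← ha]
    rw [map_pow, zpow_natCast, zpow_natCast, ← pow_mul, ← pow_mul, mul_comm]
  have h2 : (d : ℤ) = n * l := zpow_right_injective₀ hpos H.pi_lt.ne h1
  have h3 : (l : ℤ) ∣ (d : ℤ) := ⟨n, by rw [h2, mul_comm]⟩
  exact hnd (Int.natCast_dvd_natCast.1 h3)

end Crest.Agent.R013.Tau3_512
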