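import Mathlib
import Crest.Agent.R013.Tau3_512

/-!
# A-TAU, part 4: (CYC)   (row 13, helper512)
-/

set_option autoImplicit false
set_option linter.unusedSectionVars false

open scoped NNReal IntermediateField
open Crest.Agent.R013.Fp4_831
open Crest.Agent.R013.Tau1_512
open Crest.Agent.R013.Tau2_512

namespace Crest.Agent.R013.Tau4_512

variable {k Ω : Type*} [Field k] [Field Ω] [Algebra k Ω]
variable {w : Valuation Ω ℝ≥0} {l : ℕ} {ϖ : k} {P : Subgroup (Ω ≃ₐ[k] Ω)}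

section Mu

variable [CharZero Ω] [IsAlgClosed Ω]

lemma exists_prim (hl : l.Prime) (n : ℕ) : ∃ ζ : Ω, IsPrimitiveRoot ζ (l ^ n) := by
  have h0 : l ^ n ≠ 0 := pow_ne_zero _ hl.ne_zero
  have : NeZero ((l ^ n : ℕ) : Ω) := ⟨Nat.cast_ne_zero.2 h0⟩
  have : NeZero (l ^ n) := ⟨h0⟩
  exact HasEnoughRootsOfUnity.exists_primitiveRoot Ω (l ^ n)

/-- (B1) -/
lemma triv_of_pow (hl : l.Prime) {ψ : Ω ≃ₐ[k] Ω} (h2 : ∀ z : Ω, z ^ l ^ 2 = 1 → ψ z = z)
    (hψ : ∀ (n : ℕ) (z : Ω), z ^ l ^ n = 1 → (ψ ^ l) z = z) :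
    ∀ (n : ℕ) (z : Ω), z ^ l ^ n = 1 → ψ z = z := by
  intro n
  induction n with
  | zero =>
    intro z hz
    rw [pow_zero, pow_one] at hz
    rw [hz, map_one]
  | succ n ih =>
    intro z hz
    have hz0 : z ≠ 0 := by
      rintro rfl
      rw [zero_pow (pow_pos hl.pos _).ne'] at hz
      exact zero_ne_one hz
    have h3 : ψ (z ^ l) = z ^ l := ih (z ^ l) (by rw [← pow_mul, ← pow_succ']; exact hz)
    obtain ⟨y, hy⟩ := IsAlgClosed.exists_pow_nat_eq z hl.pos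
    have hy0 : y ≠ 0 := by
      rintro rfl
      rw [zero_pow hl.ne_zero] at hy
      exact hz0 hy.symm
    set δ := ψ y / y with hδ
    have hψy : ψ y = y * δ := by rw [hδ]; field_simp
    have hδl : z * δ ^ l = ψ z := by
      rw [← hy, map_pow, hψy, mul_pow]
    have hδ2 : δ ^ l ^ 2 = 1 := by
      have h4 : z ^ l * (δ ^ l) ^ l = z ^ l := by
        rw [← mul_pow, hδl, ← map_pow, h3]
      have h5 : (δ ^ l) ^ l = 1 := mul_left_cancel₀ (pow_ne_zero l hz0) (by rw [h4, mul_one])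
      rw [← pow_mul, ← sq] at h5
      exact h5
    have hψδ : ψ δ = δ := h2 δ hδ2
    have hpow : ∀ j : ℕ, (ψ ^ j) y = y * δ ^ j := by
      intro j
      induction j with
      | zero => simp
      | succ j ihj =>
        rw [pow_succ']
        change ψ ((ψ ^ j) y) = _
        rw [ihj, map_mul, map_pow, hψδ, hψy, pow_succ']
        ring
    have h6 : (ψ ^ l) y = y := hψ (n + 2) y (by
      rw [show l ^ (n + 2) = l * l ^ (n + 1) by ring, pow_mul, hy, hz])
    rw [hpow] at h6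
    have h7 : δ ^ l = 1 := mul_left_cancel₀ hy0 (by rw [h6, mul_one])
    rw [← hδl, h7, mul_one]

/-- (B2) -/
lemma triv_of_pow_pow (hl : l.Prime) {φ : Ω ≃ₐ[k] Ω} (h2 : ∀ z : Ω, z ^ l ^ 2 = 1 → φ z = z)
    (e : ℕ) (hφ : ∀ (n : ℕ) (z : Ω), z ^ l ^ n = 1 → (φ ^ l ^ e) z = z) :
    ∀ (n : ℕ) (z : Ω), z ^ l ^ n = 1 → φ z = z := by
  induction e with
  | zero => simpa using hφ
  | succ e ih =>
    apply ih
    apply triv_of_pow hl
    · intro z hz
      have h3 : ∀ j : ℕ, (φ ^ j) z = z := by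
        intro j
        induction j with
        | zero => rfl
        | succ j ihj =>
          rw [pow_succ']
          change φ ((φ ^ j) z) = z
          rw [ihj, h2 z hz]
      exact h3 _
    · intro n z hz
      rw [← pow_mul, ← pow_succ]
      exact hφ n z hz

end Mu

section Cyc

variable [CharZero k] [CharZero Ω] [IsAlgClosed Ω] [IsGalois k Ω]

/-- the stabiliser of a primitive `l ^ N`-th root of unity is the kernel of the cyclotomic
character mod `l ^ N` -/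
lemma mem_ker_iff {N : ℕ} {ζ : Ω} [NeZero (l ^ N)] (hζ : IsPrimitiveRoot ζ (l ^ N))
    (g : Ω ≃ₐ[k] Ω) : g ∈ (hζ.autToPow k).ker ↔ g ζ = ζ := by
  rw [MonoidHom.mem_ker]
  have hspec := hζ.autToPow_spec k g
  constructor
  · intro h
    rw [← hspec, h]
    by_cases hN : l ^ N = 1
    · have : ζ = 1 := by
        have := hζ.pow_eq_one
        rwa [hN, pow_one] at this
      rw [this, one_pow]
    · have : Fact (1 < l ^ N) := ⟨lt_of_le_of_ne (Nat.pos_of_ne_zero (NeZero.ne _)) (Ne.symm hN)⟩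
      rw [Units.val_one, ZMod.val_one, pow_one]
  · intro h
    rw [h] at hspec
    by_cases hN : l ^ N = 1
    · have hsub : ∀ n : ℕ, n = 1 → Subsingleton (ZMod n) := by
        rintro n rfl
        infer_instance
      have := hsub _ hN
      exact Units.ext (Subsingleton.elim _ _)
    · have h1l : 1 < l ^ N := lt_of_le_of_ne (Nat.pos_of_ne_zero (NeZero.ne _)) (Ne.symm hN)
      have h1 : ζ ^ ((hζ.autToPow k g : ZMod (l ^ N))).val = ζ ^ (1 : ℕ) := by
        rw [hspec, pow_one]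
      have h2 := hζ.pow_inj (ZMod.val_lt _) h1l h1
      apply Units.ext
      rw [Units.val_one, ← ZMod.natCast_zmod_val ((hζ.autToPow k g : ZMod (l ^ N))), h2,
        Nat.cast_one]

/-- The index of the stabiliser of a primitive `l ^ N`-th root of unity is bounded if the elements
of `P` trivial on `μ_(l ^ 2)` are trivial on all `μ_(l ^ n)`. -/
lemma finrank_bound (hl : l.Prime) (hco : IsCoSylow l P)
    (htriv : ∀ φ ∈ P, (∀ z : Ω, z ^ l ^ 2 = 1 → φ z = z) →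
      ∀ (n : ℕ) (z : Ω), z ^ l ^ n = 1 → φ z = z) {N : ℕ} {ζ : Ω}
    (hζ : IsPrimitiveRoot ζ (l ^ N)) :
    Module.finrank k k⟮ζ⟯ ≤ (l ^ 2).totient * (l - 1) := by
  have : NeZero (l ^ N) := ⟨pow_ne_zero _ hl.ne_zero⟩
  have : NeZero (l ^ 2) := ⟨pow_ne_zero _ hl.ne_zero⟩
  obtain ⟨ξ, hξ⟩ := exists_prim (Ω := Ω) hl 2
  set K := (hζ.autToPow k).ker with hK
  set K2 := (hξ.autToPow k).ker with hK2
  have hidx : ∀ {n : ℕ} {z : Ω} [NeZero (l ^ n)] (hz : IsPrimitiveRoot z (l ^ n)),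
      (hz.autToPow k).ker.index ∣ (l ^ n).totient := by
    intro n z _ hz
    rw [Subgroup.index_ker, ← ZMod.card_units_eq_totient, ← Nat.card_eq_fintype_card]
    exact Subgroup.card_subgroup_dvd_card _
  have hopen : IsOpen (K : Set (Ω ≃ₐ[k] Ω)) := by
    have h1 : (K : Set (Ω ≃ₐ[k] Ω)) = {g | g ζ = ζ} := by
      ext g
      exact mem_ker_iff hζ g
    rw [h1]
    exact isOpen_apply_eq ζ ζ
  let KN : OpenNormalSubgroup (Ω ≃ₐ[k] Ω) := ⟨⟨K, hopen⟩, inferInstanceAs K.Normal⟩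
  have hKN : ¬ l ∣ (P ⊔ K).index := hco.not_dvd KN
  have hK0 : K.index ≠ 0 := index_ne_zero_of_isOpen K hopen
  have h1 : K.relIndex P * (K ⊔ P).index = K.index := by
    rw [← Subgroup.relIndex_sup_left]; exact Subgroup.relIndex_mul_index le_sup_left
  have h2 : (K ⊔ P).index ∣ l - 1 := by
    rcases Nat.eq_zero_or_pos N with rfl | hN
    · have h3 : (K ⊔ P).index ∣ (l ^ 0).totient := (Subgroup.index_dvd_of_le le_sup_left).trans
        (hidx hζ)
      rw [pow_zero, Nat.totient_one] at h3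
      rw [Nat.dvd_one.1 h3]
      exact one_dvd _
    · have h3 : (K ⊔ P).index ∣ (l ^ N).totient := (Subgroup.index_dvd_of_le le_sup_left).trans
        (hidx hζ)
      rw [Nat.totient_prime_pow hl hN] at h3
      refine Nat.Coprime.dvd_of_dvd_mul_left ?_ h3
      rw [Nat.coprime_comm]
      apply Nat.Coprime.pow_left
      rw [sup_comm]
      exact (Nat.Prime.coprime_iff_not_dvd hl).2 hKN
  have h4 : K.relIndex P ∣ (l ^ 2).totient := by
    have h5 : K2 ⊓ P ≤ K := by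
      rintro g ⟨hg, hgP⟩
      have h6 : g ξ = ξ := (mem_ker_iff hξ g).1 hg
      refine (mem_ker_iff hζ g).2 (htriv g hgP ?_ N ζ hζ.pow_eq_one)
      intro z hz
      obtain ⟨i, -, rfl⟩ := hξ.eq_pow_of_pow_eq_one hz
      rw [map_pow, h6]
    have h7 : K.relIndex P ∣ K2.relIndex P := by
      rw [← Subgroup.inf_relIndex_right K2 P]
      exact Subgroup.relIndex_dvd_of_le_left P h5
    exact h7.trans ((Subgroup.relIndex_dvd_index_of_normal K2 P).trans (hidx hξ))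
  have h8 : K.index ≤ (l ^ 2).totient * (l - 1) := by
    rw [← h1]
    exact Nat.mul_le_mul
      (Nat.le_of_dvd (Nat.totient_pos.2 (pow_pos hl.pos 2)) h4)
      (Nat.le_of_dvd (Nat.sub_pos_of_lt hl.one_lt) h2)
  have h9 : K ≤ (k⟮ζ⟯).fixingSubgroup := by
    intro g hg
    rw [IntermediateField.mem_fixingSubgroup_iff]
    exact (IntermediateField.forall_mem_adjoin_smul_eq_self_iff k (S := {ζ}) g).2
      (by rintro x rfl; exact (mem_ker_iff hζ g).1 hg)
  rw [IntermediateField.finrank_eq_fixingSubgroup_index]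
  exact (Nat.le_of_dvd (Nat.pos_of_ne_zero hK0) (Subgroup.index_dvd_of_le h9)).trans h8

/-- (CYC) -/
theorem cyc (H : Hyp k w l ϖ) (hco : IsCoSylow l P) (hP : IsProl l P) :
    ∃ φ ∈ P, ∀ m : ℕ, 0 < m → ∃ (n : ℕ) (z : Ω), z ^ l ^ n = 1 ∧ (φ ^ m) z ≠ z := by
  have hl := H.prime
  obtain ⟨φ, hφP, hφ2, n₀, z₀, hz₀, hφz₀⟩ : ∃ φ ∈ P, (∀ z : Ω, z ^ l ^ 2 = 1 → φ z = z) ∧
      ∃ (n : ℕ) (z : Ω), z ^ l ^ n = 1 ∧ φ z ≠ z := by
    by_contra hcon
    push Not at hcon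
    choose ζ hζ using fun n => exists_prim (Ω := Ω) hl n
    have hbound : ∀ n, Module.finrank k k⟮ζ n⟯ ≤ (l ^ 2).totient * (l - 1) := fun n =>
      finrank_bound hl hco hcon (hζ n)
    have hfd : ∀ n, FiniteDimensional k k⟮ζ n⟯ := fun n =>
      IntermediateField.adjoin.finiteDimensional (Algebra.IsIntegral.isIntegral _)
    obtain ⟨N₀, hN₀⟩ : ∃ N₀, ∀ N, Module.finrank k k⟮ζ N⟯ ≤ Module.finrank k k⟮ζ N₀⟯ := by
      have hbdd : BddAbove (Set.range fun n => Module.finrank k k⟮ζ n⟯) :=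
        ⟨_, by rintro _ ⟨n, rfl⟩; exact hbound n⟩
      obtain ⟨N₀, hN₀⟩ := Nat.sSup_mem (Set.range_nonempty _) hbdd
      exact ⟨N₀, fun N => by
        have h1 : Module.finrank k k⟮ζ N₀⟯ = sSup (Set.range fun n => Module.finrank k k⟮ζ n⟯) :=
          hN₀
        rw [h1]
        exact le_csSup hbdd ⟨N, rfl⟩⟩
    have hmono : ∀ {m n : ℕ}, m ≤ n → k⟮ζ m⟯ ≤ k⟮ζ n⟯ := by
      intro m n hmn
      rw [IntermediateField.adjoin_simple_le_iff]
      have : NeZero (l ^ n) := ⟨pow_ne_zero _ hl.ne_zero⟩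
      obtain ⟨i, -, hi⟩ := (hζ n).eq_pow_of_pow_eq_one (ξ := ζ m) (by
        obtain ⟨j, rfl⟩ := Nat.exists_eq_add_of_le hmn
        rw [pow_add, pow_mul, (hζ m).pow_eq_one, one_pow])
      rw [← hi]
      exact pow_mem (IntermediateField.mem_adjoin_simple_self k _) i
    have hall : ∀ n, ζ n ∈ k⟮ζ N₀⟯ := by
      intro n
      rcases le_total n N₀ with h | h
      · exact hmono h (IntermediateField.mem_adjoin_simple_self k _)
      · have h1 : k⟮ζ N₀⟯ = k⟮ζ n⟯ :=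
          IntermediateField.eq_of_le_of_finrank_le (hmono h) (hN₀ n)
        rw [h1]
        exact IntermediateField.mem_adjoin_simple_self k _
    have hfin := H.mufin k⟮ζ N₀⟯ (hfd N₀)
    have hinj : Function.Injective ζ := by
      intro m n hmn
      have h1 := (hζ m).eq_orderOf
      rw [hmn, ← (hζ n).eq_orderOf] at h1
      exact Nat.pow_right_injective hl.two_le h1
    have hinf : Set.Infinite {z : Ω | z ∈ k⟮ζ N₀⟯ ∧ ∃ n : ℕ, z ^ l ^ n = 1} :=
      Set.infinite_of_injective_forall_mem hinj (fun n => ⟨hall n, n, (hζ n).pow_eq_one⟩)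
    exact hinf hfin
  refine ⟨φ, hφP, ?_⟩
  intro m hm
  by_contra hcon
  push Not at hcon
  obtain ⟨e, m', hm', rfl⟩ := Nat.exists_eq_pow_mul_and_not_dvd hm.ne' l hl.ne_one
  refine hφz₀ (triv_of_pow_pow hl hφ2 e ?_ n₀ z₀ hz₀)
  intro n z hz
  obtain ⟨j, hj⟩ := exists_pow_fix hP (pow_mem hφP (l ^ e)) z
  have h1 : ((φ ^ l ^ e) ^ m') z = z := by
    rw [← pow_mul]
    exact hcon n z hz
  have hcop : IsCoprime (m' : ℤ) ((l ^ j : ℕ) : ℤ) := by
    rw [Nat.isCoprime_iff_coprime]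
    apply Nat.Coprime.pow_right
    rw [Nat.coprime_comm]
    exact (Nat.Prime.coprime_iff_not_dvd hl).2 hm'
  obtain ⟨u, v, huv⟩ := hcop
  set ψ := φ ^ l ^ e with hψ
  have h2 : ψ ^ m' ∈ MulAction.stabilizer (Ω ≃ₐ[k] Ω) z := h1
  have h3 : ψ ^ l ^ j ∈ MulAction.stabilizer (Ω ≃ₐ[k] Ω) z := hj
  have h4 : ψ = (ψ ^ m') ^ u * (ψ ^ l ^ j) ^ v := by
    rw [← zpow_natCast ψ m', ← zpow_natCast ψ (l ^ j), ← zpow_mul, ← zpow_mul, ← zpow_add,
      mul_comm (m' : ℤ), mul_comm ((l ^ j : ℕ) : ℤ), huv, zpow_one]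
  have h5 : ψ ∈ MulAction.stabilizer (Ω ≃ₐ[k] Ω) z := by
    rw [h4]
    exact mul_mem (zpow_mem h2 u) (zpow_mem h3 v)
  exact h5

end Cyc

end Crest.Agent.R013.Tau4_512
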