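import Mathlib
import Crest.Agent.R013.Tau4_512

/-!
# A-TAU, part 5: the main theorem in abstract form   (row 13, helper512)

`exists_tauData : Hyp k w l ϖ → IsCoSylow l P → IsProl l P → ∃ τ φ vp, TauData w l ϖ P τ φ vp`.
-/

set_option autoImplicit false
set_option linter.unusedSectionVars false

open scoped NNReal IntermediateField
open Crest.Agent.R013.Fp4_831
open Crest.Agent.R013.Tau1_512
open Crest.Agent.R013.Tau2_512

namespace Crest.Agent.R013.Tau5_512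

variable {k Ω : Type*} [Field k] [Field Ω] [Algebra k Ω]
variable {w : Valuation Ω ℝ≥0} {l : ℕ} {ϖ : k} {P : Subgroup (Ω ≃ₐ[k] Ω)}

/-- The closure of the group generated by `τ`. -/
def Cl (τ : Ω ≃ₐ[k] Ω) : Subgroup (Ω ≃ₐ[k] Ω) := (Subgroup.zpowers τ).topologicalClosure

/-- The tame generator `τ` and the Frobenius like element `φ` of an `l`-Sylow subgroup `P` of
`Gal(Ω/k)`. -/
structure TauData (w : Valuation Ω ℝ≥0) (l : ℕ) (ϖ : k) (P : Subgroup (Ω ≃ₐ[k] Ω))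
    (τ φ : Ω ≃ₐ[k] Ω) (vp : ℕ → Ω) : Prop where
  /-- `τ` and `φ` are in `P` -/
  tau_mem : τ ∈ P
  phi_mem : φ ∈ P
  /-- (T1) `τ` fixes the roots of unity of unit order -/
  tau_MU : ∀ z ∈ MU w, τ z = z
  /-- (T2) `vp n = ϖ ^ (1 / l ^ n)`, `τ (vp n) / vp n` is a primitive `l ^ n`-th root of unity -/
  vp_zero : vp 0 = algebraMap k Ω ϖ
  vp_succ : ∀ n, vp (n + 1) ^ l = vp n
  vp_prim : ∀ n, IsPrimitiveRoot (τ (vp n) / vp n) (l ^ n)
  /-- (T3) -/
  mem_Cl : ∀ g ∈ P, (∀ z ∈ MU w, g z = z) → g ∈ Cl τ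
  /-- (T4) -/
  conj_mem : ∀ g ∈ P, g * τ * g⁻¹ ∈ Cl τ
  /-- (T5) -/
  phi_pow : ∀ m : ℕ, 0 < m → ∃ (n : ℕ) (z : Ω), z ^ l ^ n = 1 ∧ (φ ^ m) z ≠ z
  /-- (T6) -/
  conj_eq : ∀ g ∈ P, ∀ a n : ℕ, (∀ z : Ω, z ^ l ^ n = 1 → g z = z ^ a) →
    ∃ t ∈ Cl τ, g * τ * g⁻¹ = τ ^ a * t ^ l ^ n
  /-- (T7) -/
  between : ∀ a b : ℝ≥0, a < b → ∀ j : ℕ, ∃ x : Ω, (τ ^ l ^ j) x = x ∧ a < w x ∧ w x < b ∧
    ∀ y : Ω, y ^ l = x → (τ ^ l ^ j) y ≠ y
  /-- (T9) units of the fixed field of `τ ^ (l ^ j)` are `l`-divisible -/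
  unit_div : ∀ (j : ℕ) (x y : Ω), (τ ^ l ^ j) x = x → w x = 1 → y ^ l = x → (τ ^ l ^ j) y = y
  /-- (T10) the fixed field of `τ ^ (l ^ j)` modulo `l`-th powers is generated by `vp j` -/
  mod_pow : ∀ (j : ℕ) (x : Ω), (τ ^ l ^ j) x = x → x ≠ 0 → ∃ (i : ℤ) (y : Ω),
    (τ ^ l ^ j) y = y ∧ x = vp j ^ i * y ^ l

section Basic

variable [IsGalois k Ω]

lemma self_mem_Cl (τ : Ω ≃ₐ[k] Ω) : τ ∈ Cl τ :=
  (Subgroup.zpowers τ).le_topologicalClosure (Subgroup.mem_zpowers τ)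

lemma isClosed_Cl (τ : Ω ≃ₐ[k] Ω) : IsClosed (Cl τ : Set (Ω ≃ₐ[k] Ω)) :=
  Subgroup.isClosed_topologicalClosure _

lemma Cl_le {τ : Ω ≃ₐ[k] Ω} {D : Subgroup (Ω ≃ₐ[k] Ω)} (hD : IsClosed (D : Set (Ω ≃ₐ[k] Ω)))
    (hτ : τ ∈ D) : Cl τ ≤ D :=
  Subgroup.topologicalClosure_minimal _ (by rwa [Subgroup.zpowers_le]) hD

/-- what is fixed by `τ` is fixed by its closure -/
lemma Cl_fix {τ g : Ω ≃ₐ[k] Ω} (hg : g ∈ Cl τ) {x : Ω} (hx : τ x = x) : g x = x := by
  have h1 : Cl τ ≤ MulAction.stabilizer (Ω ≃ₐ[k] Ω) x :=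
    Cl_le (Subgroup.isClosed_of_isOpen _ (stabilizer_isOpen_of_isIntegral x)) hx
  exact h1 hg

lemma Cl_pow_le (τ : Ω ≃ₐ[k] Ω) (m : ℕ) : Cl (τ ^ m) ≤ Cl τ :=
  Cl_le (isClosed_Cl τ) (pow_mem (self_mem_Cl τ) m)

lemma pow_apply_of_fix {g : Ω ≃ₐ[k] Ω} {x : Ω} (hx : g x = x) (m : ℕ) : (g ^ m) x = x := by
  induction m with
  | zero => rfl
  | succ m ih =>
    rw [pow_succ']
    change g ((g ^ m) x) = x
    rw [ih, hx]

/-- `g x = z x` with `z` fixed by `g` -/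
lemma pow_apply_mul {g : Ω ≃ₐ[k] Ω} {x z : Ω} (hx : g x = z * x) (hz : g z = z) (m : ℕ) :
    (g ^ m) x = z ^ m * x := by
  induction m with
  | zero => simp
  | succ m ih =>
    rw [pow_succ']
    change g ((g ^ m) x) = _
    rw [ih, map_mul, map_pow, hx, hz]
    ring

/-- an element of a pro-`l` group multiplying `x` by a fixed `N`-th root of unity, `l ∤ N`, fixes
`x` -/
lemma fix_of_coprime {g : Ω ≃ₐ[k] Ω} (hl : l.Prime) (hpro : ∀ x : Ω, ∃ n, (g ^ l ^ n) x = x)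
    {x z : Ω} {N : ℕ} (hN : ¬ l ∣ N) (hx : g x = z * x) (hz : g z = z) (hzN : z ^ N = 1) :
    g x = x := by
  rcases eq_or_ne x 0 with rfl | hx0
  · rw [map_zero]
  obtain ⟨n, hn⟩ := hpro x
  rw [pow_apply_mul hx hz] at hn
  have h1 : z ^ l ^ n = 1 := mul_right_cancel₀ hx0 (by rw [hn, one_mul])
  have h2 : orderOf z ∣ l ^ n := orderOf_dvd_of_pow_eq_one h1
  have h3 : orderOf z ∣ N := orderOf_dvd_of_pow_eq_one hzN
  have h4 : Nat.Coprime (l ^ n) N := Nat.Coprime.pow_left n ((Nat.Prime.coprime_iff_not_dvd hl).2 hN)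
  have h5 : orderOf z = 1 := Nat.eq_one_of_dvd_coprimes h4 h2 h3
  rw [hx, orderOf_eq_one_iff.1 h5, one_mul]

end Basic

section Main

variable [CharZero k] [CharZero Ω] [IsAlgClosed Ω] [IsGalois k Ω]

/-- elements of the closure of `⟨τ⟩` with prescribed action on the `vp n` -/
lemma exists_Cl (hP : IsProl l P) (H : Hyp k w l ϖ) {τ : Ω ≃ₐ[k] Ω} {vp : ℕ → Ω}
    (hvp0 : vp 0 = algebraMap k Ω ϖ) (hvp : ∀ n, vp (n + 1) ^ l = vp n)
    (hcl : IsClosed (P : Set (Ω ≃ₐ[k] Ω))) (hτP : τ ∈ P)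
    (hτMU : ∀ z ∈ MU w, τ z = z) (hprim : ∀ n, IsPrimitiveRoot (τ (vp n) / vp n) (l ^ n))
    (e : ℕ) (s : Ω ≃ₐ[k] Ω) (hs : s ∈ P) (hsMU : ∀ z ∈ MU w, s z = z)
    (hse : s (vp e) = vp e) : ∃ t ∈ Cl τ, s = t ^ l ^ e := by
  have hl := H.prime
  have hvpb : ∀ b, vp b ^ l ^ b = algebraMap k Ω ϖ := by
    intro b
    induction b with
    | zero => rw [pow_zero, pow_one, hvp0]
    | succ b ih => rw [pow_succ', pow_mul, hvp, ih]
  have hvpne : ∀ b, vp b ≠ 0 := by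
    intro b h0
    have h1 := hvpb b
    rw [h0, zero_pow (pow_pos hl.pos b).ne'] at h1
    exact H.pi_ne ((map_eq_zero (algebraMap k Ω)).1 h1.symm)
  have hpow : ∀ m n, vp (m + n) ^ l ^ n = vp m := by
    intro m n
    induction n with
    | zero => simp
    | succ n ih => rw [← add_assoc, pow_succ', pow_mul, hvp, ih]
  let A : ℕ → Set (Ω ≃ₐ[k] Ω) := fun n => (Cl τ : Set (Ω ≃ₐ[k] Ω)) ∩
    (fun t => t ^ l ^ e) ⁻¹' {g | g (vp (e + n)) = s (vp (e + n))}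
  obtain ⟨t, ht⟩ := exists_mem_of_decr A
    (fun n => (isClosed_Cl τ).inter ((isClosed_apply_eq _ _).preimage (continuous_pow _)))
    (fun n => by
      have hζ := hprim (e + n)
      set ζ := τ (vp (e + n)) / vp (e + n) with hζdef
      have : NeZero (l ^ (e + n)) := ⟨pow_ne_zero _ hl.ne_zero⟩
      have hτv : τ (vp (e + n)) = ζ * vp (e + n) := by
        rw [hζdef]; field_simp [hvpne (e + n)]
      have hτζ : τ ζ = ζ := hτMU ζ (mem_MU_of_pow H hζ.pow_eq_one)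
      have h1 : (s (vp (e + n)) / vp (e + n)) ^ l ^ n = 1 := by
        rw [div_pow, ← map_pow, hpow, hse, div_self (hvpne e)]
      obtain ⟨i, -, hi⟩ := hζ.eq_pow_of_pow_eq_one (ξ := s (vp (e + n)) / vp (e + n)) (by
        rw [pow_add, mul_comm, pow_mul, h1, one_pow])
      have hi' : s (vp (e + n)) = ζ ^ i * vp (e + n) := by
        rw [hi]; field_simp [hvpne (e + n)]
      have h2 : l ^ (e + n) ∣ i * l ^ n := by
        apply hζ.dvd_of_pow_eq_one
        rw [pow_mul, hi, h1]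
      rw [pow_add] at h2
      obtain ⟨c, rfl⟩ := Nat.dvd_of_mul_dvd_mul_right (pow_pos hl.pos n) h2
      refine ⟨τ ^ c, pow_mem (self_mem_Cl τ) c, ?_⟩
      change ((τ ^ c) ^ l ^ e) (vp (e + n)) = s (vp (e + n))
      rw [hi', ← pow_mul, mul_comm c, pow_apply_mul hτv hτζ])
    (fun n => by
      rintro t ⟨ht1, ht2⟩
      refine ⟨ht1, ?_⟩
      change (t ^ l ^ e) (vp (e + n)) = s (vp (e + n))
      have ht2' : (t ^ l ^ e) (vp (e + (n + 1))) = s (vp (e + (n + 1))) := ht2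
      rw [← add_assoc] at ht2'
      rw [← hvp (e + n), map_pow, ht2', map_pow])
  have htC : t ∈ Cl τ := (ht 0).1
  refine ⟨t, htC, ?_⟩
  have htP : t ∈ P := Cl_le hcl hτP htC
  have htMU : ∀ z ∈ MU w, (t ^ l ^ e) z = z := fun z hz =>
    pow_apply_of_fix (Cl_fix htC (hτMU z hz)) _
  have key : (t ^ l ^ e)⁻¹ * s = 1 := by
    refine inj H hP hvp0 hvp (mul_mem (inv_mem (pow_mem htP _)) hs) ?_ ?_
    · intro z hz
      change (t ^ l ^ e)⁻¹ (s z) = z
      rw [hsMU z hz]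
      nth_rewrite 1 [← htMU z hz]
      exact AlgEquiv.symm_apply_apply _ _
    · intro n
      have h3 : (t ^ l ^ e) (vp (e + n)) = s (vp (e + n)) := (ht n).2
      have h4 : ((t ^ l ^ e)⁻¹ * s) (vp (e + n)) = vp (e + n) := by
        change (t ^ l ^ e)⁻¹ (s (vp (e + n))) = _
        rw [← h3]
        exact AlgEquiv.symm_apply_apply _ _
      have h5 : vp n = vp (n + e) ^ l ^ e := (hpow n e).symm
      rw [h5, map_pow, add_comm n e, h4]
  exact (inv_mul_eq_one.1 key).symm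

/-- (T9), (T10) and (T7) for an element `g` (`= τ ^ l ^ j`) of `P` fixing `MU` and `v = vp j` and
moving the `l`-th root `v'` of `v`. -/
lemma unit_div_aux (H : Hyp k w l ϖ) {g : Ω ≃ₐ[k] Ω} (hg : ∀ z ∈ MU w, g z = z) {x y : Ω}
    (hx : g x = x) (hwx : w x = 1) (hy : y ^ l = x) : g y = y := by
  have hwy : w y = 1 := by
    have h : w y ^ l = 1 := by rw [← map_pow, hy, hwx]
    exact (pow_eq_one_iff_of_nonneg zero_le H.prime.ne_zero).1 h
  have hy0 : y ≠ 0 := by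
    rintro rfl
    simp at hwy
  set η := g y / y with hη
  have hgy : g y = η * y := by rw [hη]; field_simp
  have hηl : η ^ l = 1 := by
    rw [hη, div_pow, ← map_pow, hy, hx, div_self]
    rw [← hy]
    exact pow_ne_zero _ hy0
  by_cases h1 : η = 1
  · rw [hgy, h1, one_mul]
  · have hηMU : η ∈ MU w := mem_MU_of_pow H (n := 1) (by rwa [pow_one])
    have h2 := w_map_sub_lt H.inv H.res hg hwy
    have h3 : g y - y = (η - 1) * y := by rw [hgy]; ring
    rw [h3, map_mul, hwy, mul_one, w_sub_one hηMU h1] at h2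
    exact absurd h2 (lt_irrefl _)

lemma mod_pow_aux (H : Hyp k w l ϖ) {g : Ω ≃ₐ[k] Ω} (hg : ∀ z ∈ MU w, g z = z) {vp : ℕ → Ω}
    (hvp0 : vp 0 = algebraMap k Ω ϖ) (hvp : ∀ n, vp (n + 1) ^ l = vp n) (j : ℕ)
    (hprim : ∀ n, IsPrimitiveRoot (g (vp (j + n)) / vp (j + n)) (l ^ n))
    {x : Ω} (hx : g x = x) (hx0 : x ≠ 0) :
    ∃ (i : ℤ) (y : Ω), g y = y ∧ x = vp j ^ i * y ^ l := by
  have hl := H.prime
  have hpow : ∀ m n, vp (m + n) ^ l ^ n = vp m := by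
    intro m n
    induction n with
    | zero => simp
    | succ n ih => rw [← add_assoc, pow_succ', pow_mul, hvp, ih]
  have hvpb : ∀ b, vp b ^ l ^ b = algebraMap k Ω ϖ := by
    intro b
    rw [← hvp0, ← hpow 0 b, zero_add]
  have hvpne : ∀ b, vp b ≠ 0 := by
    intro b h0
    have h1 := hvpb b
    rw [h0, zero_pow (pow_pos hl.pos b).ne'] at h1
    exact H.pi_ne ((map_eq_zero (algebraMap k Ω)).1 h1.symm)
  obtain ⟨m, hm⟩ := exists_w_pow H.inv H.disc hx0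
  set d := (minpoly k x).natDegree with hd
  have hd0 : d ≠ 0 := (minpoly.natDegree_pos (Algebra.IsIntegral.isIntegral x)).ne'
  obtain ⟨b, s, hls, hds⟩ := Nat.exists_eq_pow_mul_and_not_dvd hd0 l hl.ne_one
  -- `w x ^ s = w (vp (j + b)) ^ m'` with `m' = m * l ^ j`
  have hval : w x ^ s = w (vp (j + b)) ^ (m * (l ^ j : ℕ)) := by
    have h1 : (w x ^ s) ^ l ^ b = (w (vp (j + b)) ^ (m * (l ^ j : ℕ))) ^ l ^ b := by
      rw [← pow_mul, mul_comm s, ← hds, hm, ← hvpb (j + b), map_pow, ← zpow_natCast,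
        ← zpow_natCast, ← zpow_mul, ← zpow_mul]
      congr 1
      rw [pow_add]
      push_cast
      ring
    exact (pow_left_inj₀ zero_le zero_le (pow_pos hl.pos b).ne').1 h1
  set m' : ℤ := m * (l ^ j : ℕ) with hm'
  -- the unit `x ^ s / vp (j + b) ^ m'`
  set ζ := g (vp (j + b)) / vp (j + b) with hζdef
  have hζ : IsPrimitiveRoot ζ (l ^ b) := hprim b
  have hgv : g (vp (j + b)) = ζ * vp (j + b) := by
    rw [hζdef]; field_simp [hvpne (j + b)]
  have hζ0 : ζ ≠ 0 := hζ.ne_zero (pow_ne_zero _ hl.ne_zero)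
  have hζMU : ζ ^ m' ∈ MU w := by
    apply mem_MU_of_pow H (n := b)
    rw [← zpow_natCast, ← zpow_mul, mul_comm, zpow_mul, zpow_natCast, hζ.pow_eq_one, one_zpow]
  set q := x ^ s / vp (j + b) ^ m' with hq
  have hwq : w q = 1 := by
    rw [hq, map_div₀, map_pow, map_zpow₀, hval, div_self]
    apply zpow_ne_zero
    rw [Ne, map_eq_zero]
    exact hvpne _
  have hgq : g q = (ζ ^ m')⁻¹ * q := by
    rw [hq, map_div₀, map_pow, map_zpow₀, hgv, hx, mul_zpow]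
    field_simp
  have h1 : (ζ ^ m')⁻¹ = 1 := by
    by_contra hne
    have h2 := w_map_sub_lt H.inv H.res hg hwq
    have h3 : g q - q = ((ζ ^ m')⁻¹ - 1) * q := by rw [hgq]; ring
    rw [h3, map_mul, hwq, mul_one, w_sub_one (inv_mem_MU hζMU) hne] at h2
    exact lt_irrefl _ h2
  rw [inv_eq_one] at h1
  obtain ⟨m'', hm''⟩ : ((l ^ b : ℕ) : ℤ) ∣ m' := (hζ.zpow_eq_one_iff_dvd m').1 h1
  have hq' : x ^ s = vp j ^ m'' * q := by
    have h2 : vp (j + b) ^ m' = vp j ^ m'' := by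
      rw [hm'', zpow_mul, zpow_natCast, hpow]
    rw [hq, h2]
    field_simp [zpow_ne_zero m'' (hvpne j)]
  have hgq1 : g q = q := by rw [hgq, h1, inv_one, one_mul]
  obtain ⟨r, hr⟩ := IsAlgClosed.exists_pow_nat_eq q hl.pos
  have hgr : g r = r := unit_div_aux H hg hgq1 hwq hr
  have hq0 : q ≠ 0 := by
    intro h0
    rw [h0, map_zero] at hwq
    exact zero_ne_one hwq
  -- Bezout
  have hcop : IsCoprime (s : ℤ) (l : ℤ) := by
    rw [Nat.isCoprime_iff_coprime, Nat.coprime_comm]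
    exact (Nat.Prime.coprime_iff_not_dvd hl).2 hls
  obtain ⟨u, v, huv⟩ := hcop
  refine ⟨m'' * u, r ^ u * x ^ v, ?_, ?_⟩
  · rw [map_mul, map_zpow₀, map_zpow₀, hgr, hx]
  · have h4 : x = (x ^ s) ^ u * (x ^ l) ^ v := by
      rw [← zpow_natCast, ← zpow_natCast, ← zpow_mul, ← zpow_mul, ← zpow_add₀ hx0,
        mul_comm (s : ℤ), mul_comm (l : ℤ), huv, zpow_one]
    have e : ∀ (z : Ω) (i : ℤ), (z ^ l) ^ i = (z ^ i) ^ l := by
      intro z i
      rw [← zpow_natCast, ← zpow_natCast, ← zpow_mul, ← zpow_mul, mul_comm]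
    conv_lhs => rw [h4, hq', ← hr]
    rw [mul_zpow, mul_pow, zpow_mul, e r u, e x v]
    ring

lemma between_aux (H : Hyp k w l ϖ) {g : Ω ≃ₐ[k] Ω} (hg : ∀ z ∈ MU w, g z = z)
    (hpro : ∀ x : Ω, ∃ n, (g ^ l ^ n) x = x)
    {v v' : Ω} (hv0 : v ≠ 0) (hv1 : w v < 1) (hgv : g v = v) (hv' : v' ^ l = v)
    (hgv' : g v' ≠ v') {a b : ℝ≥0} (hab : a < b) :
    ∃ x : Ω, g x = x ∧ a < w x ∧ w x < b ∧ ∀ y : Ω, y ^ l = x → g y ≠ y := by
  have hl := H.prime
  have hl2 := hl.two_le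
  wlog ha : 0 < a generalizing a
  · have ha0 : a = 0 := nonpos_iff_eq_zero.1 (not_lt.1 ha)
    have hb2 : 0 < b / 2 := by
      have : 0 < b := by rwa [ha0] at hab
      positivity
    have hb3 : b / 2 < b := NNReal.half_lt_self (ne_of_gt (by rwa [ha0] at hab))
    obtain ⟨x, h1, h2, h3, h4⟩ := this hb3 hb2
    exact ⟨x, h1, by rw [ha0]; exact hb2.trans h2, h3, h4⟩
  have hb0 : 0 < b := ha.trans hab
  have hwv : 0 < w v := pos_iff_ne_zero.2 (by rwa [Ne, map_eq_zero])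
  -- choose a large exponent `N`, prime to `l`, with `w N = 1`
  obtain ⟨M, hM⟩ : ∃ M : ℕ, (a / b) ^ M < w v ^ 2 := by
    have h1 : a / b < 1 := (div_lt_one hb0).2 hab
    exact exists_pow_lt_of_lt_one (pow_pos hwv 2) h1
  obtain ⟨N, hMN, hlN, hwN⟩ : ∃ N : ℕ, M < N ∧ ¬ l ∣ N ∧ w (N : Ω) = 1 := by
    set A := l * (M + 1) + 1 with hA
    set B := l * (M + 1) * A + 1 with hB
    have hMA : M < A := by nlinarith
    have hMB : M < B := by nlinarith
    have hlA : ¬ l ∣ A := by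
      intro h
      have h2 : l ∣ 1 := (Nat.dvd_add_right (Dvd.intro _ rfl)).1 h
      exact hl.one_lt.ne' (Nat.dvd_one.1 h2)
    have hlB : ¬ l ∣ B := by
      intro h
      have h2 : l ∣ 1 := (Nat.dvd_add_right ⟨(M + 1) * A, by ring⟩).1 h
      exact hl.one_lt.ne' (Nat.dvd_one.1 h2)
    have hle : ∀ n : ℕ, w (n : Ω) ≤ 1 := by
      intro n
      induction n with
      | zero => simp
      | succ n ih =>
        rw [Nat.cast_succ]
        exact (w.map_add _ _).trans (max_le ih (by rw [map_one]))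
    by_cases h : w (A : Ω) = 1
    · exact ⟨A, hMA, hlA, h⟩
    · refine ⟨B, hMB, hlB, le_antisymm (hle B) ?_⟩
      by_contra hcon
      push Not at hcon
      have h2 : (1 : Ω) = (B : Ω) - ((l * (M + 1) : ℕ) : Ω) * (A : Ω) := by
        rw [hB]; push_cast; ring
      have h3 : w (1 : Ω) < 1 := by
        rw [h2]
        refine (w.map_sub _ _).trans_lt (max_lt hcon ?_)
        rw [map_mul]
        exact (mul_le_of_le_one_left zero_le (hle _)).trans_lt (lt_of_le_of_ne (hle A) h)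
      rw [map_one] at h3
      exact lt_irrefl _ h3
  have hN0 : 0 < N := (Nat.zero_le M).trans_lt hMN
  obtain ⟨β, hβ⟩ := IsAlgClosed.exists_pow_nat_eq v hN0
  have hβ0 : β ≠ 0 := by
    rintro rfl
    rw [zero_pow hN0.ne'] at hβ
    exact hv0 hβ.symm
  have hwβ : 0 < w β := pos_iff_ne_zero.2 (by rwa [Ne, map_eq_zero])
  have hwβ1 : w β < 1 := by
    by_contra hcon
    push Not at hcon
    have h1 : 1 ≤ w β ^ N := one_le_pow_of_one_le' hcon N
    rw [← map_pow, hβ] at h1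
    exact absurd hv1 (not_lt.2 h1)
  -- `g β = β`
  have hgβ : g β = β := by
    set ξ := g β / β with hξ
    have h1 : g β = ξ * β := by rw [hξ]; field_simp
    have h2 : ξ ^ N = 1 := by
      rw [hξ, div_pow, ← map_pow, hβ, hgv, div_self hv0]
    exact fix_of_coprime hl hpro hlN h1 (hg ξ ⟨N, hN0, hwN, h2⟩) h2
  -- step size
  have hstep : a / b < w β ^ 2 := by
    by_contra hcon
    push Not at hcon
    have h1 : (w β ^ 2) ^ N ≤ (a / b) ^ N := pow_le_pow_left' hcon N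
    have h2 : (w β ^ 2) ^ N = w v ^ 2 := by
      rw [← pow_mul, mul_comm, pow_mul, ← map_pow, hβ]
    rw [h2] at h1
    have h3 : (a / b) ^ N ≤ (a / b) ^ M :=
      pow_le_pow_of_le_one zero_le ((div_le_one hb0).2 hab.le) hMN.le
    exact absurd hM (not_lt.2 (h1.trans h3))
  -- the first power below `b`
  obtain ⟨r, hr1, hr2⟩ : ∃ r : ℤ, w β ^ r < b ∧ b ≤ w β ^ (r - 1) := by
    obtain ⟨n, hn1, hn2⟩ := NNReal.exists_mem_Ico_zpow (x := b) (y := (w β)⁻¹) hb0.ne'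
      ((one_lt_inv₀ hwβ).2 hwβ1)
    -- `(w β)⁻¹ ^ n ≤ b < (w β)⁻¹ ^ (n + 1)`
    rw [inv_zpow', ] at hn1 hn2
    rcases hn1.lt_or_eq with h | h
    · exact ⟨-n, h, by
        rw [show -n - 1 = -(n + 1) by ring]
        exact hn2.le⟩
    · refine ⟨-n + 1, ?_, ?_⟩
      · rw [zpow_add_one₀ hwβ.ne', h]
        exact mul_lt_of_lt_one_right hb0 hwβ1
      · rw [add_sub_cancel_right, h]
  have hr3 : a < w β ^ (r + 1) := by
    have h1 : w β ^ (r + 1) = w β ^ (r - 1) * w β ^ 2 := by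
      rw [← zpow_natCast (w β) 2, ← zpow_add₀ hwβ.ne']
      congr 1
      push_cast
      ring
    rw [h1]
    have h2 : a < b * w β ^ 2 := by
      rw [div_lt_iff₀ hb0] at hstep
      rwa [mul_comm]
    exact h2.trans_le (mul_le_mul_left hr2 _)
  have hr4 : w β ^ (r + 1) < b := by
    rw [zpow_add_one₀ hwβ.ne']
    exact (mul_lt_of_lt_one_right (zpow_pos hwβ r) hwβ1).trans hr1
  have hr5 : a < w β ^ r := by
    refine hr3.trans ?_
    rw [zpow_add_one₀ hwβ.ne']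
    exact mul_lt_of_lt_one_right (zpow_pos hwβ r) hwβ1
  -- not an `l`-th power
  have hnot : ∀ r : ℤ, ¬ (l : ℤ) ∣ r → ∀ y : Ω, y ^ l = β ^ r → g y ≠ y := by
    intro r hlr y hy hgy
    have hv'0 : v' ≠ 0 := by
      rintro rfl
      rw [zero_pow hl.ne_zero] at hv'
      exact hv0 hv'.symm
    -- `(y ^ N / v' ^ r) ^ l = 1`
    set η := y ^ N / v' ^ r with hη
    have hηl : η ^ l = 1 := by
      rw [hη, div_pow, ← pow_mul, mul_comm N, pow_mul, hy, ← zpow_natCast (v' ^ r) l, ← zpow_mul,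
        mul_comm r, zpow_mul, zpow_natCast, hv', ← zpow_natCast (β ^ r) N, ← zpow_mul, mul_comm r,
        zpow_mul, zpow_natCast, hβ, div_self]
      exact zpow_ne_zero _ hv0
    have hηMU : η ∈ MU w := mem_MU_of_pow H (n := 1) (by rwa [pow_one])
    have h1 : g (v' ^ r) = v' ^ r := by
      have h2 : v' ^ r = y ^ N / η := by
        have hη0 : η ≠ 0 := ne_zero_MU hηMU
        rw [eq_div_iff hη0, hη]
        field_simp [zpow_ne_zero r hv'0]
      rw [h2, map_div₀, map_pow, hgy, hg η hηMU]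
    -- hence `ξ ^ r = 1` for `ξ = g v' / v'`
    set ξ := g v' / v' with hξ
    have hξ1 : ξ ≠ 1 := by
      intro h
      rw [hξ, div_eq_one_iff_eq hv'0] at h
      exact hgv' h
    have hξl : ξ ^ l = 1 := by rw [hξ, div_pow, ← map_pow, hv', hgv, div_self hv0]
    have hξr : ξ ^ r = 1 := by
      rw [hξ, div_zpow, ← map_zpow₀, h1, div_self (zpow_ne_zero _ hv'0)]
    have hord : orderOf ξ = l := by
      have h2 : orderOf ξ ∣ l := orderOf_dvd_of_pow_eq_one hξl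
      rcases (Nat.dvd_prime hl).1 h2 with h3 | h3
      · exact absurd (orderOf_eq_one_iff.1 h3) hξ1
      · exact h3
    apply hlr
    have hξ0 : ξ ≠ 0 := by
      intro h
      rw [h, zero_pow hl.ne_zero] at hξl
      exact zero_ne_one hξl
    have h4 : (Units.mk0 ξ hξ0) ^ r = 1 := by
      apply Units.ext
      rw [Units.val_zpow_eq_zpow_val, Units.val_mk0, Units.val_one, hξr]
    have h5 := orderOf_dvd_iff_zpow_eq_one.2 h4
    rw [← orderOf_units, Units.val_mk0, hord] at h5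
    exact h5
  by_cases hlr : (l : ℤ) ∣ r
  · refine ⟨β ^ (r + 1), by rw [map_zpow₀, hgβ], by rwa [map_zpow₀], by rwa [map_zpow₀],
      hnot (r + 1) ?_⟩
    intro h
    have h1 : (l : ℤ) ∣ 1 := (Int.dvd_add_right hlr).1 h
    have h2 : l ∣ 1 := by exact_mod_cast h1
    exact hl.one_lt.ne' (Nat.dvd_one.1 h2)
  · exact ⟨β ^ r, by rw [map_zpow₀, hgβ], by rwa [map_zpow₀], by rwa [map_zpow₀], hnot r hlr⟩

/-- **A-TAU, abstract form.** -/
theorem exists_tauData (H : Hyp k w l ϖ) (hco : IsCoSylow l P) (hP : IsProl l P) :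
    ∃ (τ φ : Ω ≃ₐ[k] Ω) (vp : ℕ → Ω), TauData w l ϖ P τ φ vp := by
  classical
  have hl := H.prime
  -- the system `vp`
  choose rt hrt using fun x : Ω => IsAlgClosed.exists_pow_nat_eq x hl.pos
  obtain ⟨vp, hvp0, hvp⟩ : ∃ vp : ℕ → Ω, vp 0 = algebraMap k Ω ϖ ∧
      ∀ n, vp (n + 1) ^ l = vp n :=
    ⟨fun n => Nat.rec (algebraMap k Ω ϖ) (fun _ x => rt x) n, rfl, fun n => hrt _⟩
  have hpow : ∀ m n, vp (m + n) ^ l ^ n = vp m := by
    intro m n
    induction n with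
    | zero => simp
    | succ n ih => rw [← add_assoc, pow_succ', pow_mul, hvp, ih]
  have hvpb : ∀ b, vp b ^ l ^ b = algebraMap k Ω ϖ := by
    intro b
    rw [← hvp0, ← hpow 0 b, zero_add]
  have hvpne : ∀ b, vp b ≠ 0 := by
    intro b h0
    have h1 := hvpb b
    rw [h0, zero_pow (pow_pos hl.pos b).ne'] at h1
    exact H.pi_ne ((map_eq_zero (algebraMap k Ω)).1 h1.symm)
  obtain ⟨τ, hτP, hτMU, hτ1⟩ := Tau3_512.surj H hco (a := vp 1) ((hvp 0).trans hvp0)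
  obtain ⟨φ, hφP, hφ⟩ := Tau4_512.cyc H hco hP
  have hτ0 : τ (vp 0) = vp 0 := by rw [hvp0]; exact τ.commutes ϖ
  have hprim : ∀ n, IsPrimitiveRoot (τ (vp n) / vp n) (l ^ n) := by
    intro n
    have h1 : (τ (vp n) / vp n) ^ l ^ n = 1 := by
      rw [div_pow, ← map_pow, hvpb, τ.commutes, div_self]
      rw [Ne, map_eq_zero]
      exact H.pi_ne
    rcases Nat.eq_zero_or_pos n with rfl | hn
    · rw [pow_zero, IsPrimitiveRoot.one_right_iff]
      rw [hτ0, div_self (hvpne 0)]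
    · obtain ⟨m, rfl⟩ := Nat.exists_eq_succ_of_ne_zero hn.ne'
      have : Fact l.Prime := ⟨hl⟩
      refine IsPrimitiveRoot.iff_orderOf.2 (orderOf_eq_prime_pow ?_ h1)
      rw [div_pow, ← map_pow, Nat.succ_eq_add_one, add_comm m 1, hpow 1 m,
        div_eq_one_iff_eq (hvpne 1)]
      exact hτ1
  have hpro : ∀ (j : ℕ) (x : Ω), ∃ n, ((τ ^ l ^ j) ^ l ^ n) x = x := fun j x =>
    exists_pow_fix hP (pow_mem hτP _) x
  have hτj : ∀ j, ∀ z ∈ MU w, (τ ^ l ^ j) z = z := fun j z hz => pow_apply_of_fix (hτMU z hz) _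
  have hτv : ∀ n, τ (vp n) = (τ (vp n) / vp n) * vp n := by
    intro n
    field_simp [hvpne n]
  have hζMU : ∀ n, τ (vp n) / vp n ∈ MU w := fun n => mem_MU_of_pow H (hprim n).pow_eq_one
  have hτjv : ∀ j n, (τ ^ l ^ j) (vp n) = (τ (vp n) / vp n) ^ l ^ j * vp n := fun j n =>
    pow_apply_mul (hτv n) (hτMU _ (hζMU n)) _
  have hfixj : ∀ j, (τ ^ l ^ j) (vp j) = vp j := by
    intro j
    rw [hτjv, (hprim j).pow_eq_one, one_mul]
  have hprimj : ∀ j n, IsPrimitiveRoot ((τ ^ l ^ j) (vp (j + n)) / vp (j + n)) (l ^ n) := by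
    intro j n
    rw [hτjv, mul_div_assoc, div_self (hvpne _), mul_one]
    exact (hprim (j + n)).pow (pow_pos hl.pos _) (pow_add l j n)
  have hmemCl : ∀ g ∈ P, (∀ z ∈ MU w, g z = z) → g ∈ Cl τ := by
    intro g hg hgMU
    obtain ⟨t, ht, rfl⟩ := exists_Cl hP H hvp0 hvp hco.closed hτP hτMU hprim 0 g hg hgMU
      (by rw [hvp0]; exact g.commutes ϖ)
    rwa [pow_zero, pow_one]
  have hconj : ∀ g ∈ P, g * τ * g⁻¹ ∈ Cl τ := by
    intro g hg
    refine hmemCl _ (mul_mem (mul_mem hg hτP) (inv_mem hg)) ?_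
    intro z hz
    change g (τ (g⁻¹ z)) = z
    rw [hτMU _ (map_mem_MU g⁻¹ hz)]
    exact AlgEquiv.apply_symm_apply g z
  refine ⟨τ, φ, vp, hτP, hφP, hτMU, hvp0, hvp, hprim, hmemCl, hconj, hφ, ?_, ?_, ?_, ?_⟩
  · intro g hg a n hgz
    have hs : (τ ^ a)⁻¹ * (g * τ * g⁻¹) ∈ Cl τ :=
      mul_mem (inv_mem (pow_mem (self_mem_Cl τ) a)) (hconj g hg)
    have hsP : (τ ^ a)⁻¹ * (g * τ * g⁻¹) ∈ P := Cl_le hco.closed hτP hs
    have hsMU : ∀ z ∈ MU w, ((τ ^ a)⁻¹ * (g * τ * g⁻¹)) z = z := fun z hz =>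
      Cl_fix hs (hτMU z hz)
    obtain ⟨t, ht, hst⟩ := exists_Cl hP H hvp0 hvp hco.closed hτP hτMU hprim n _ hsP hsMU (by
      set ζ := τ (vp n) / vp n with hζ
      set ξ := g⁻¹ (vp n) / vp n with hξ
      have hξn : ξ ^ l ^ n = 1 := by
        rw [hξ, div_pow, ← map_pow, hvpb, AlgEquiv.commutes, div_self]
        rw [Ne, map_eq_zero]
        exact H.pi_ne
      have h1 : g⁻¹ (vp n) = ξ * vp n := by rw [hξ]; field_simp [hvpne n]
      have h2 : g (g⁻¹ (vp n)) = vp n := AlgEquiv.apply_symm_apply g _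
      have h3 : (g * τ * g⁻¹) (vp n) = ζ ^ a * vp n := by
        change g (τ (g⁻¹ (vp n))) = _
        have h4 : τ (g⁻¹ (vp n)) = ζ * g⁻¹ (vp n) := by
          rw [h1, map_mul, hτMU ξ (mem_MU_of_pow H hξn), hτv]
          ring
        rw [h4, map_mul, h2, hgz ζ (hprim n).pow_eq_one]
      change (τ ^ a)⁻¹ ((g * τ * g⁻¹) (vp n)) = vp n
      rw [h3, ← pow_apply_mul (hτv n) (hτMU _ (hζMU n))]
      exact AlgEquiv.symm_apply_apply (τ ^ a) _)
    exact ⟨t, ht, by rw [← hst, mul_inv_cancel_left]⟩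
  · intro a b hab j
    refine between_aux H (hτj j) (hpro j) (hvpne j) ?_ (hfixj j) (hvp j) ?_ hab
    · by_contra hcon
      push Not at hcon
      have h1 : 1 ≤ w (vp j) ^ l ^ j := one_le_pow_of_one_le' hcon _
      rw [← map_pow, hvpb] at h1
      exact absurd H.pi_lt (not_lt.2 h1)
    · intro h
      have h1 := hprimj j 1
      rw [h, div_self (hvpne (j + 1)), pow_one] at h1
      have h2 := h1.eq_orderOf
      rw [orderOf_one] at h2
      exact hl.ne_one h2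
  · intro j x y hx hwx hy
    exact unit_div_aux H (hτj j) hx hwx hy
  · intro j x hx hx0
    exact mod_pow_aux H (hτj j) hvp0 hvp j (hprimj j) hx hx0

end Main

end Crest.Agent.R013.Tau5_512
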