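import Crest.Agent.R013.LemT5_874
import Crest.Agent.R013.Tau5_512

/-!
# Lemma T (task A-T of row 13), part 6: `TameAt` from 512's `TauData`.
-/

set_option autoImplicit false

namespace Crest.Agent.R013.LemT_874

open Crest.Agent.R013.Fp4_831 Crest.Agent.R013.Tau1_512 Crest.Agent.R013.Tau5_512
open scoped NNReal

section Abstract

variable {k Ω : Type*} [Field k] [Field Ω] [Algebra k Ω] [IsGalois k Ω] {w : Valuation Ω ℝ≥0} {l : ℕ}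
  {ϖ : k} {P : Subgroup (Ω ≃ₐ[k] Ω)} {τ φ : Ω ≃ₐ[k] Ω} {vp : ℕ → Ω}

omit [IsGalois k Ω] in
/-- elements of the closure of `⟨τ⟩` have trivial `l^n`-th powers modulo `N` as soon as `τ` has. -/
theorem pow_mem_of_Cl (N : OpenNormalSubgroup (Ω ≃ₐ[k] Ω)) {n : ℕ} (hn : τ ^ l ^ n ∈ N)
    {c : Ω ≃ₐ[k] Ω} (hc : c ∈ Cl τ) : c ^ l ^ n ∈ N := by
  have h1 : c ∈ closure (Subgroup.zpowers τ : Set (Ω ≃ₐ[k] Ω)) := hc
  have hN : IsOpen ((N : Subgroup (Ω ≃ₐ[k] Ω)) : Set (Ω ≃ₐ[k] Ω)) := N.isOpen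
  have h2 : IsOpen ((fun x => c⁻¹ * x) ⁻¹' ((N : Subgroup (Ω ≃ₐ[k] Ω)) : Set (Ω ≃ₐ[k] Ω))) :=
    hN.preimage (continuous_const_mul c⁻¹)
  obtain ⟨x, hx1, hx2⟩ := mem_closure_iff.mp h1 _ h2 (by
    change c⁻¹ * c ∈ (N : Subgroup (Ω ≃ₐ[k] Ω))
    rw [inv_mul_cancel]
    exact one_mem _)
  obtain ⟨i, rfl⟩ := Subgroup.mem_zpowers_iff.mp hx2
  have hx1' : c⁻¹ * τ ^ i ∈ (N : Subgroup (Ω ≃ₐ[k] Ω)) := hx1
  have hnorm : (N : Subgroup (Ω ≃ₐ[k] Ω)).Normal := N.isNormal'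
  have h3 : (QuotientGroup.mk c : (Ω ≃ₐ[k] Ω) ⧸ (N : Subgroup (Ω ≃ₐ[k] Ω))) =
      QuotientGroup.mk (τ ^ i) := QuotientGroup.eq.mpr hx1'
  have h4 : (QuotientGroup.mk (c ^ l ^ n) : (Ω ≃ₐ[k] Ω) ⧸ (N : Subgroup (Ω ≃ₐ[k] Ω))) = 1 := by
    rw [QuotientGroup.mk_pow, h3, ← QuotientGroup.mk_pow, ← zpow_natCast (τ ^ i) (l ^ n), ← zpow_mul,
      mul_comm, zpow_mul, zpow_natCast, QuotientGroup.mk_zpow,
      (QuotientGroup.eq_one_iff _).mpr (show τ ^ l ^ n ∈ (N : Subgroup (Ω ≃ₐ[k] Ω)) from hn),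
      one_zpow]
  exact (QuotientGroup.eq_one_iff _).mp h4

theorem conj_of_tauData [IsAlgClosed Ω] [CharZero Ω] (H : TauData w l ϖ P τ φ vp) (hl : l.Prime)
    (hP : IsProl l P) (U : Subgroup (Ω ≃ₐ[k] Ω)) (hU : IsOpen (U : Set (Ω ≃ₐ[k] Ω))) :
    ∃ g ∈ U, ∃ B : ℕ, ∀ N : OpenNormalSubgroup (Ω ≃ₐ[k] Ω), ∃ e : ℕ,
      ¬ ((l ^ B : ℕ) : ℤ) ∣ (e : ℤ) - 1 ∧ (τ ^ e)⁻¹ * (g * τ * g⁻¹) ∈ N := by
  obtain ⟨m, hm, -, hmU⟩ := Subgroup.exists_pow_mem_of_index_ne_zero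
    (index_ne_zero_of_isOpen U hU) φ
  obtain ⟨B, z, hz, hgz⟩ := H.phi_pow m hm
  set g := φ ^ m with hg
  have hgP : g ∈ P := P.pow_mem H.phi_mem m
  refine ⟨g, hmU, B, fun N => ?_⟩
  obtain ⟨r, hr⟩ := hP τ H.tau_mem N
  set n := max B r with hn
  have hnr : τ ^ l ^ n ∈ N := by
    have h1 : l ^ n = l ^ r * l ^ (n - r) := by rw [← pow_add]; congr 1; omega
    rw [h1, pow_mul]
    exact pow_mem hr _
  have hln : 0 < l ^ n := pow_pos hl.pos n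
  have hne : NeZero ((l ^ n : ℕ) : Ω) := ⟨Nat.cast_ne_zero.mpr hln.ne'⟩
  have hne' : NeZero (l ^ n) := ⟨hln.ne'⟩
  obtain ⟨ξ, hξ⟩ := HasEnoughRootsOfUnity.exists_primitiveRoot Ω (l ^ n)
  obtain ⟨a, -, ha⟩ := hξ.eq_pow_of_pow_eq_one (ξ := g ξ)
    (by rw [← map_pow, hξ.pow_eq_one, map_one])
  have hga : ∀ x : Ω, x ^ l ^ n = 1 → g x = x ^ a := by
    intro x hx
    obtain ⟨i, -, rfl⟩ := hξ.eq_pow_of_pow_eq_one hx
    rw [map_pow, ← ha, ← pow_mul, ← pow_mul, mul_comm]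
  obtain ⟨c, hc, e⟩ := H.conj_eq g hgP a n hga
  refine ⟨a, fun hdvd => hgz ?_, ?_⟩
  · have hzn : z ^ l ^ n = 1 := by
      have h1 : l ^ n = l ^ B * l ^ (n - B) := by rw [← pow_add]; congr 1; omega
      rw [h1, pow_mul, hz, one_pow]
    have hz0 : z ≠ 0 := by
      rintro rfl
      rw [zero_pow (pow_pos hl.pos B).ne'] at hz
      exact zero_ne_one hz
    rw [hga z hzn]
    obtain ⟨q, hq⟩ := hdvd
    have h2 : z ^ ((a : ℤ) - 1) = 1 := by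
      rw [hq, zpow_mul, zpow_natCast, hz, one_zpow]
    have h3 : z ^ (a : ℤ) = z := by
      have : (a : ℤ) = ((a : ℤ) - 1) + 1 := by ring
      rw [this, zpow_add₀ hz0, h2, zpow_one, one_mul]
    rwa [zpow_natCast] at h3
  · rw [e, ← mul_assoc, inv_mul_cancel, one_mul]
    exact pow_mem_of_Cl N hnr hc

end Abstract

section Inst

open Crest.NumberTheoryR.Sect

variable {k : Type*} [Field k] {K : Type*} [Field K] [Algebra k K]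
  [IsGalois k (constField k K)] [IsAlgClosed (constField k K)] [CharZero (constField k K)]
  {w : Valuation (constField k K) ℝ≥0} {l : ℕ}
  {ϖ : k} {P : Subgroup (ConstGal k K)} {τ φ : ConstGal k K} {vp : ℕ → constField k K}

/-- **`TameAt` from `TauData`.** -/
theorem tameAt_of_tauData (H : TauData w l ϖ P τ φ vp) (hl : l.Prime)
    (hwl : w (l : constField k K) = 1) (hP : IsProl l P) : TameAt l τ where
  mu n z hz := by
    refine H.tau_MU z ⟨l ^ n, pow_pos hl.pos n, ?_, hz⟩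
    rw [Nat.cast_pow, map_pow, hwl, one_pow]
  conj U hU := conj_of_tauData H hl hP U hU

end Inst

end Crest.Agent.R013.LemT_874
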