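import Mathlib
import Crest.Agent.R013.Tau5_512
import Crest.Agent.R013.Ax2_280
import Crest.Agent.R013.LemC3_251
import Crest.Agent.R013.LemC2_251

/-!
# A-TAU, part 6: finite extensions of `ℚ_p`   (row 13, helper512)

`hyp_padic`: the hypotheses `Hyp` hold for `k` finite over `ℚ_p` and `Ω` an algebraic closure.
-/

set_option autoImplicit false
set_option linter.unusedSectionVars false

open scoped NNReal IntermediateField
open Crest.Agent.R013
open Crest.Agent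
open Crest.Agent.R013.Fp4_831
open Crest.Agent.R013.Tau1_512
open Crest.Agent.R013.Tau2_512

namespace Crest.Agent.R013.Tau6_512

variable {p : ℕ} [hpF : Fact p.Prime]

/-- `w (1 - x ^ p) < 1 → w (1 - x) < 1` -/
lemma w_one_sub_of_pow_prime {L : Type*} [Field L] (w : Valuation L ℝ≥0) (hpp : p.Prime)
    (hp : w (p : L) < 1) {x : L} (hx : w x ≤ 1) (h : w (1 - x ^ p) < 1) :
    w (1 - x) < 1 := by
  have hle : w (x - 1) ≤ 1 := (w.map_sub _ _).trans (by simp [hx])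
  have h1 := LemC2_251.w_sub_pow w hpp (x - 1) hle
  rw [show (1 + (x - 1)) = x by ring] at h1
  have h2 : w ((x - 1) ^ p) < 1 := by
    have h3 : (x - 1) ^ p = -(1 - x ^ p) - (x ^ p - 1 - (x - 1) ^ p) := by ring
    rw [h3]
    refine (w.map_sub _ _).trans_lt (max_lt ?_ ?_)
    · rwa [Valuation.map_neg]
    · exact h1.trans_lt (mul_lt_one_of_lt_of_le hp hle)
  rw [Valuation.map_sub_swap]
  by_contra hcon
  push Not at hcon
  rw [map_pow] at h2
  exact absurd h2 (not_lt.2 (one_le_pow_of_one_le' hcon p))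

/-- `w (1 - x ^ (p ^ a)) < 1 → w (1 - x) < 1` -/
lemma w_one_sub_of_pow {L : Type*} [Field L] (w : Valuation L ℝ≥0) (hpp : p.Prime)
    (hp : w (p : L) < 1) {x : L} (hx : w x ≤ 1) (a : ℕ) (h : w (1 - x ^ p ^ a) < 1) :
    w (1 - x) < 1 := by
  induction a with
  | zero => simpa using h
  | succ a ih =>
    apply ih
    apply w_one_sub_of_pow_prime w hpp hp
    · rw [map_pow]; exact pow_le_one₀ zero_le hx
    · rw [← pow_mul, ← pow_succ]; exact h

/-- an element some power of which is near `1` is near a root of unity of order prime to `p` -/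
lemma near_MU {L : Type*} [Field L] [IsAlgClosed L] [CharZero L] (w : Valuation L ℝ≥0)
    (hpp : p.Prime) (hp : w (p : L) < 1) {x : L} (hx : w x ≤ 1) {M : ℕ} (hM : 0 < M)
    (h : w (1 - x ^ M) < 1) : ∃ z ∈ MU w, w (x - z) < 1 := by
  obtain ⟨a, M', hM', rfl⟩ := Nat.exists_eq_pow_mul_and_not_dvd hM.ne' p hpp.ne_one
  have hM'0 : 0 < M' := Nat.pos_of_mul_pos_left hM
  have h1 : w (1 - x ^ M') < 1 := by
    apply w_one_sub_of_pow w hpp hp _ a
    · rwa [← pow_mul, mul_comm M']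
    · rw [map_pow]; exact pow_le_one₀ zero_le hx
  have hwM' : w (M' : L) = 1 := Ax_280.w_of_not_dvd w hpp hp hM'
  have : NeZero M' := ⟨hM'0.ne'⟩
  have : NeZero (M' : L) := ⟨Nat.cast_ne_zero.2 hM'0.ne'⟩
  obtain ⟨ζ, hζ⟩ := HasEnoughRootsOfUnity.exists_primitiveRoot L M'
  have hprod := hζ.pow_sub_pow_eq_prod_sub_mul x (1 : L) hM'0
  by_contra hcon
  push Not at hcon
  have h2 : ∀ ξ ∈ Polynomial.nthRootsFinset M' (1 : L), 1 ≤ w (x - ξ * 1) := by
    intro ξ hξ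
    rw [Polynomial.mem_nthRootsFinset hM'0] at hξ
    rw [mul_one]
    exact hcon ξ ⟨M', hM'0, hwM', hξ⟩
  have h3 : 1 ≤ w (x ^ M' - 1) := by
    rw [one_pow] at hprod
    rw [hprod, map_prod]
    exact Finset.one_le_prod' h2
  rw [Valuation.map_sub_swap] at h3
  exact absurd h1 (not_lt.2 h3)

section Padic

variable {Ω : Type*} [Field Ω] [Algebra ℚ_[p] Ω] {w : Valuation Ω ℝ≥0}

/-- finite pigeonhole in finite dimensional subspaces -/
lemma pigeon (hw : ∀ q : ℚ_[p], w (algebraMap ℚ_[p] Ω q) = ‖q‖₊) (V : Submodule ℚ_[p] Ω)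
    [FiniteDimensional ℚ_[p] V] {S : Set Ω} (hSV : ∀ x ∈ S, x ∈ V) (hS1 : ∀ x ∈ S, w x ≤ 1)
    (hd : ∀ x ∈ S, ∀ y ∈ S, x ≠ y → w (x - y) = 1) : S.Finite := by
  classical
  obtain ⟨T, -, hT⟩ := LemC3_251.net w hw V 1 one_pos
  choose! t htT ht using fun x (hx : x ∈ S) => hT x (hSV x hx) (hS1 x hx)
  refine Set.Finite.of_finite_image (f := t) (T.finite_toSet.subset ?_) ?_
  · rintro _ ⟨x, hx, rfl⟩
    exact htT x hx
  · intro x hx y hy hxy
    by_contra hne
    have h1 := hd x hx y hy hne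
    have h2 : x - y = (x - t x) - (y - t y) := by rw [hxy]; ring
    have h3 : w (x - y) < 1 := by
      rw [h2]
      exact (w.map_sub _ _).trans_lt (max_lt (ht x hx) (ht y hy))
    exact absurd h1 h3.ne

/-- every unit is near a root of unity -/
lemma res_padic [IsAlgClosed Ω] [Algebra.IsAlgebraic ℚ_[p] Ω]
    (hw : ∀ q : ℚ_[p], w (algebraMap ℚ_[p] Ω q) = ‖q‖₊) (x : Ω) (hx : w x = 1) :
    ∃ z ∈ MU w, w (x - z) < 1 := by
  have hpp : p.Prime := hpF.out
  have hcz : CharZero Ω := LemC3_251.charZero (p := p) inferInstance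
  obtain ⟨hp1, hp0⟩ := LemC3_251.w_p w hw
  have hfd : FiniteDimensional ℚ_[p] ℚ_[p]⟮x⟯ :=
    IntermediateField.adjoin.finiteDimensional (Algebra.IsIntegral.isIntegral x)
  let V : Submodule ℚ_[p] Ω := Subalgebra.toSubmodule (ℚ_[p]⟮x⟯).toSubalgebra
  have hfdV : FiniteDimensional ℚ_[p] V := hfd
  have hmem : ∀ n : ℕ, x ^ n ∈ V := fun n =>
    pow_mem (IntermediateField.mem_adjoin_simple_self ℚ_[p] x : x ∈ ℚ_[p]⟮x⟯) n
  obtain ⟨T, -, hT⟩ := LemC3_251.net w hw V 1 one_pos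
  choose t htT ht using fun n : ℕ => hT (x ^ n) (hmem n) (by rw [map_pow, hx, one_pow])
  obtain ⟨i, j, hij, hEq⟩ : ∃ i j : ℕ, i < j ∧ t i = t j := by
    have h1 : ¬ Function.Injective (fun n : ℕ => (⟨t n, htT n⟩ : T)) := fun hinj =>
      (Finite.of_injective _ hinj).false
    rw [Function.Injective] at h1
    push Not at h1
    obtain ⟨i, j, h2, h3⟩ := h1
    have h2' : t i = t j := congrArg Subtype.val h2
    rcases lt_or_gt_of_ne h3 with h | h
    · exact ⟨i, j, h, h2'⟩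
    · exact ⟨j, i, h, h2'.symm⟩
  have h2 : w (x ^ i - x ^ j) < 1 := by
    have h3 : x ^ i - x ^ j = (x ^ i - t i) - (x ^ j - t j) := by rw [hEq]; ring
    rw [h3]
    exact (w.map_sub _ _).trans_lt (max_lt (ht i) (ht j))
  obtain ⟨M, rfl⟩ := Nat.exists_eq_add_of_lt hij
  refine near_MU w hpp hp1 hx.le (M := M + 1) (Nat.succ_pos M) ?_
  have h4 : x ^ i - x ^ (i + M + 1) = x ^ i * (1 - x ^ (M + 1)) := by ring
  rw [h4, map_mul, map_pow, hx, one_pow, one_mul] at h2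
  exact h2

end Padic

section Main

variable {k Ω : Type*} [Field k] [Algebra ℚ_[p] k] [FiniteDimensional ℚ_[p] k] [Field Ω]
  [Algebra k Ω] [Algebra ℚ_[p] Ω] [IsScalarTower ℚ_[p] k Ω] [IsAlgClosed Ω]
  [Algebra.IsAlgebraic k Ω] {w : Valuation Ω ℝ≥0}

/-- the value group of a finite extension of `ℚ_p` is cyclic -/
lemma exists_unif (hw : ∀ q : ℚ_[p], w (algebraMap ℚ_[p] Ω q) = ‖q‖₊) :
    ∃ ϖ : k, ϖ ≠ 0 ∧ w (algebraMap k Ω ϖ) < 1 ∧
      ∀ c : k, c ≠ 0 → ∃ n : ℤ, w (algebraMap k Ω c) = w (algebraMap k Ω ϖ) ^ n := by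
  classical
  have hpp : p.Prime := hpF.out
  have hcz : CharZero Ω := LemC3_251.charZero (p := p) inferInstance
  obtain ⟨hp1, hp0⟩ := LemC3_251.w_p w hw
  have halg : Algebra.IsAlgebraic ℚ_[p] Ω := Algebra.IsAlgebraic.trans ℚ_[p] k Ω
  have hcl : IsAlgClosure ℚ_[p] Ω := ⟨inferInstance, inferInstance⟩
  have hgal : IsGalois ℚ_[p] Ω := IsAlgClosure.isGalois ℚ_[p] Ω
  have hwpos : 0 < w (p : Ω) := pos_iff_ne_zero.2 hp0
  set D := (Module.finrank ℚ_[p] k).factorial with hD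
  have hD0 : D ≠ 0 := Nat.factorial_ne_zero _
  -- values
  have hdisc : ∀ c : ℚ_[p], c ≠ 0 → ∃ n : ℤ, w (algebraMap ℚ_[p] Ω c) = w (p : Ω) ^ n := by
    intro c hc
    refine ⟨c.valuation, ?_⟩
    have h1 : (p : Ω) = algebraMap ℚ_[p] Ω (p : ℚ_[p]) := by simp
    rw [h1, hw, hw]
    apply NNReal.eq
    push_cast
    rw [Padic.norm_eq_zpow_neg_valuation hc, Padic.norm_p, inv_zpow,
      zpow_neg]
  have hval : ∀ c : k, c ≠ 0 → ∃ n : ℤ, w (algebraMap k Ω c) ^ D = w (p : Ω) ^ n := by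
    intro c hc
    have hc' : algebraMap k Ω c ≠ 0 := by rwa [Ne, map_eq_zero]
    obtain ⟨n, hn⟩ := exists_w_pow (k := ℚ_[p]) (fun g x => Ax_280.w_inv w hw g x) hdisc hc'
    have hint : IsIntegral ℚ_[p] c := Algebra.IsIntegral.isIntegral c
    have hmp : minpoly ℚ_[p] (algebraMap k Ω c) = minpoly ℚ_[p] c :=
      minpoly.algebraMap_eq (algebraMap k Ω).injective c
    have hle : (minpoly ℚ_[p] (algebraMap k Ω c)).natDegree ≤ Module.finrank ℚ_[p] k := by
      rw [hmp]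
      exact minpoly.natDegree_le c
    have hpos : 0 < (minpoly ℚ_[p] (algebraMap k Ω c)).natDegree := by
      rw [hmp]
      exact minpoly.natDegree_pos hint
    obtain ⟨e, he⟩ := Nat.dvd_factorial hpos hle
    refine ⟨n * e, ?_⟩
    rw [hD, he, pow_mul, hn, zpow_mul, zpow_natCast]
  -- a minimal positive exponent
  have hex : ∃ n : ℕ, 0 < n ∧ ∃ c : k, c ≠ 0 ∧ w (algebraMap k Ω c) ^ D = w (p : Ω) ^ n :=
    ⟨D, Nat.pos_of_ne_zero hD0, (p : k), by
      have hczk : CharZero k := LemC3_251.charZero (p := p) inferInstance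
      exact Nat.cast_ne_zero.2 hpp.ne_zero, by rw [map_natCast]⟩
  obtain ⟨hn0, ϖ, hϖ0, hϖ⟩ := Nat.find_spec hex
  have hmin := fun m => Nat.find_min (H := hex) (m := m)
  set n₀ := Nat.find hex with hn₀
  have hϖ1 : w (algebraMap k Ω ϖ) < 1 := by
    by_contra hcon
    push Not at hcon
    have h1 : 1 ≤ w (algebraMap k Ω ϖ) ^ D := one_le_pow_of_one_le' hcon D
    rw [hϖ] at h1
    exact absurd (pow_lt_one₀ zero_le hp1 hn0.ne') (not_lt.2 h1)
  have hwϖ : 0 < w (algebraMap k Ω ϖ) := by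
    rw [pos_iff_ne_zero, Ne, map_eq_zero, map_eq_zero]; exact hϖ0
  have hmax : ∀ c : k, c ≠ 0 → w (algebraMap k Ω c) < 1 →
      w (algebraMap k Ω c) ≤ w (algebraMap k Ω ϖ) := by
    intro c hc hc1
    by_contra hcon
    push Not at hcon
    obtain ⟨n, hn⟩ := hval c hc
    have h1 : w (algebraMap k Ω ϖ) ^ D < w (algebraMap k Ω c) ^ D :=
      pow_lt_pow_left₀ hcon zero_le hD0
    have h2 : w (algebraMap k Ω c) ^ D < 1 := pow_lt_one₀ zero_le hc1 hD0
    rw [hϖ, hn, ← zpow_natCast] at h1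
    rw [hn] at h2
    have h3 : n < n₀ := by
      by_contra h4
      push Not at h4
      exact absurd h1 (not_lt.2 (zpow_le_zpow_right_of_le_one₀ hwpos hp1.le h4))
    have h4 : 0 < n := by
      by_contra h5
      push Not at h5
      exact absurd h2 (not_lt.2 (one_le_zpow_of_nonpos₀ hwpos hp1.le h5))
    obtain ⟨m, rfl⟩ := Int.eq_ofNat_of_zero_le h4.le
    refine hmin m (by exact_mod_cast h3) ⟨by exact_mod_cast h4, c, hc, ?_⟩
    rw [hn]
    exact zpow_natCast _ _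
  refine ⟨ϖ, hϖ0, hϖ1, ?_⟩
  intro x hx0
  have hwx : w (algebraMap k Ω x) ≠ 0 := by rwa [Ne, map_eq_zero, map_eq_zero]
  obtain ⟨n, hn1, hn2⟩ := NNReal.exists_mem_Ico_zpow hwx ((one_lt_inv₀ hwϖ).2 hϖ1)
  have hz : w (algebraMap k Ω (x * ϖ ^ n)) = w (algebraMap k Ω x) * w (algebraMap k Ω ϖ) ^ n := by
    rw [map_mul, map_zpow₀, map_mul, map_zpow₀]
  have h1 : 1 ≤ w (algebraMap k Ω (x * ϖ ^ n)) := by
    rw [hz]
    rw [inv_zpow] at hn1
    exact (inv_le_iff_one_le_mul₀ (zpow_pos hwϖ n)).1 hn1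
  have h2 : w (algebraMap k Ω (x * ϖ ^ n)) * w (algebraMap k Ω ϖ) < 1 := by
    rw [hz, mul_assoc, ← zpow_add_one₀ hwϖ.ne']
    rw [inv_zpow] at hn2
    exact (lt_inv_mul_iff₀ (zpow_pos hwϖ _)).1 (by rwa [mul_one]) |> fun h => by rwa [mul_comm]
  have h3 : w (algebraMap k Ω (x * ϖ ^ n)) = 1 := by
    refine le_antisymm ?_ h1
    by_contra hcon
    push Not at hcon
    have h4 : w (algebraMap k Ω ((x * ϖ ^ n)⁻¹)) < 1 := by
      rw [map_inv₀, map_inv₀]
      exact inv_lt_one_of_one_lt₀ hcon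
    have h5 := hmax _ (inv_ne_zero (mul_ne_zero hx0 (zpow_ne_zero _ hϖ0))) h4
    rw [map_inv₀, map_inv₀, inv_le_iff_one_le_mul₀ (zero_lt_one.trans hcon), mul_comm] at h5
    exact absurd h2 (not_lt.2 h5)
  refine ⟨-n, ?_⟩
  rw [hz] at h3
  rw [zpow_neg]
  exact eq_inv_of_mul_eq_one_left h3

/-- **The hypotheses of A-TAU for finite extensions of `ℚ_p`.** -/
theorem hyp_padic (hw : ∀ q : ℚ_[p], w (algebraMap ℚ_[p] Ω q) = ‖q‖₊) :
    ∃ ϖ : k, ∀ l : ℕ, l.Prime → l ≠ p → Hyp k w l ϖ := by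
  have hpp : p.Prime := hpF.out
  have hcz : CharZero Ω := LemC3_251.charZero (p := p) inferInstance
  obtain ⟨hp1, hp0⟩ := LemC3_251.w_p w hw
  have halg : Algebra.IsAlgebraic ℚ_[p] Ω := Algebra.IsAlgebraic.trans ℚ_[p] k Ω
  obtain ⟨ϖ, h1, h2, h3⟩ := exists_unif (k := k) (w := w) hw
  refine ⟨ϖ, fun l hl hlp => ⟨fun g x => Ax_280.w_inv w hw g x, hl, ?_, h1, h2, h3,
    fun x hx => res_padic hw x hx, ?_⟩⟩
  · exact Ax_280.w_of_not_dvd w hpp hp1 fun h => hlp ((Nat.prime_dvd_prime_iff_eq hpp hl).1 h).symm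
  · intro F hF
    have hwl : w (l : Ω) = 1 :=
      Ax_280.w_of_not_dvd w hpp hp1 fun h => hlp ((Nat.prime_dvd_prime_iff_eq hpp hl).1 h).symm
    let V : Submodule ℚ_[p] Ω := (Subalgebra.toSubmodule F.toSubalgebra).restrictScalars ℚ_[p]
    have hfdV : FiniteDimensional ℚ_[p] V := by
      have : FiniteDimensional ℚ_[p] F := FiniteDimensional.trans ℚ_[p] k F
      exact this
    have hMU : ∀ x ∈ {z : Ω | z ∈ F ∧ ∃ n : ℕ, z ^ l ^ n = 1}, x ∈ MU w := by
      rintro z ⟨-, n, hn⟩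
      exact ⟨l ^ n, pow_pos hl.pos n, by rw [Nat.cast_pow, map_pow, hwl, one_pow], hn⟩
    exact pigeon hw V (fun x hx => hx.1) (fun x hx => (w_MU (hMU x hx)).le)
      (fun x hx y hy hne => w_sub_of_ne (hMU x hx) (hMU y hy) hne)

/-- the norm of an algebraic extension of `ℚ_p` as a valuation -/
lemma exists_norm (L : Type*) [Field L] [Algebra ℚ_[p] L] [Algebra.IsAlgebraic ℚ_[p] L] :
    ∃ w : Valuation L ℝ≥0, ∀ q : ℚ_[p], w (algebraMap ℚ_[p] L q) = ‖q‖₊ := by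
  refine ⟨{ toFun := fun a => (spectralNorm ℚ_[p] L a).toNNReal
            map_zero' := by rw [spectralNorm_zero, Real.toNNReal_zero]
            map_one' := by rw [spectralNorm_one, Real.toNNReal_one]
            map_mul' := fun x y => by
              rw [← Real.toNNReal_mul (spectralNorm_nonneg _)]
              congr 1
              exact spectralAlgNorm_mul x y
            map_add_le_max' := fun x y => by
              have h := isNonarchimedean_spectralNorm (K := ℚ_[p]) (L := L) x y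
              rcases le_total (spectralNorm ℚ_[p] L x) (spectralNorm ℚ_[p] L y) with h1 | h1
              · rw [max_eq_right h1] at h
                exact (Real.toNNReal_mono h).trans (le_max_right _ _)
              · rw [max_eq_left h1] at h
                exact (Real.toNNReal_mono h).trans (le_max_left _ _) }, fun q => ?_⟩
  change (spectralNorm ℚ_[p] L (algebraMap ℚ_[p] L q)).toNNReal = _
  rw [spectralNorm_extends]
  exact norm_toNNReal

/-- **A-TAU for finite extensions of `ℚ_p`.** -/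
theorem exists_padic (hw : ∀ q : ℚ_[p], w (algebraMap ℚ_[p] Ω q) = ‖q‖₊) :
    ∃ ϖ : k, ∀ l : ℕ, l.Prime → l ≠ p → Hyp k w l ϖ ∧
      ∃ (P : Subgroup (Ω ≃ₐ[k] Ω)) (τ φ : Ω ≃ₐ[k] Ω) (vp : ℕ → Ω),
        IsCoSylow l P ∧ IsProl l P ∧ Tau5_512.TauData w l ϖ P τ φ vp := by
  have hczΩ : CharZero Ω := LemC3_251.charZero (p := p) inferInstance
  have hczk : CharZero k := LemC3_251.charZero (p := p) inferInstance
  have hcl : IsAlgClosure k Ω := ⟨inferInstance, inferInstance⟩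
  have hgal : IsGalois k Ω := IsAlgClosure.isGalois k Ω
  obtain ⟨ϖ, h⟩ := hyp_padic (k := k) (w := w) hw
  refine ⟨ϖ, fun l hl hlp => ?_⟩
  have H := h l hl hlp
  obtain ⟨P, hco, hP⟩ := exists_sylow (G := Ω ≃ₐ[k] Ω) hl
  obtain ⟨τ, φ, vp, hT⟩ := Tau5_512.exists_tauData H hco hP
  exact ⟨H, P, τ, φ, vp, hco, hP, hT⟩

end Main

end Crest.Agent.R013.Tau6_512
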