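import Mathlib
import Crest.Agent.R013.Tau6_512
import Crest.Agent.R013.AAsm_349

/-!
# A-TAU, part 7: the instance for `ConstGal k K`   (row 13, helper512)

* `isAlgClosed_constField`, `isAlgClosure_constField`;
* `exists_const`: for a valuation `W` of `constField k K` extending the norm of `ℚ_p`, one
  uniformiser `ϖ` of `k`, and for every prime `l ≠ p` data `P, τ, φ, vp` with
  `TauData W l ϖ P τ φ vp` and 349's `GalIn l P τ`;
* `exists_root_mod` : approximate roots in a subfield containing the roots of unity of unit order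
  (337's `hC`).
-/

set_option autoImplicit false
set_option linter.unusedSectionVars false
set_option linter.style.haveILetI false

open scoped NNReal
open Crest.NumberTheoryR.Sect
open Crest.Agent.R013
open Crest.Agent.R013.Fp4_831
open Crest.Agent.R013.Tau1_512
open Crest.Agent.R013.Tau2_512
open Crest.Agent.R013.Clause1_97 Crest.Agent.R013.MaxUnr_97

namespace Crest.Agent.R013.Tau7_512

section Root

variable {Ω : Type*} [Field Ω] {w : Valuation Ω ℝ≥0}

lemma w_eval_sub_le {P : Polynomial Ω} (hP : ∀ i, w (P.coeff i) ≤ 1) {a b : Ω} (ha : w a ≤ 1)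
    (hb : w b ≤ 1) : w (P.eval a - P.eval b) ≤ w (a - b) := by
  rw [Polynomial.eval_eq_sum_range, Polynomial.eval_eq_sum_range, ← Finset.sum_sub_distrib]
  apply w.map_sum_le
  intro i _
  rw [← mul_sub, map_mul]
  refine (mul_le_of_le_one_left zero_le (hP i)).trans ?_
  have h1 : a ^ i - b ^ i = (∑ j ∈ Finset.range i, a ^ j * b ^ (i - 1 - j)) * (a - b) :=
    ((Commute.all a b).geom_sum₂_mul i).symm
  rw [h1, map_mul]
  refine mul_le_of_le_one_left zero_le ?_
  apply w.map_sum_le
  intro j _
  rw [map_mul, map_pow, map_pow]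
  exact mul_le_one' (pow_le_one₀ zero_le ha) (pow_le_one₀ zero_le hb)

/-- roots of monic integral polynomials are integral -/
lemma w_root_le {P : Polynomial Ω} (hm : P.Monic) (hP : ∀ i, w (P.coeff i) ≤ 1) {a : Ω}
    (ha : P.eval a = 0) : w a ≤ 1 := by
  by_contra hcon
  push Not at hcon
  have h0 : P.natDegree ≠ 0 := by
    intro h
    rw [Polynomial.eq_C_of_natDegree_eq_zero h, Polynomial.eval_C] at ha
    have h1 := hm.coeff_natDegree
    rw [h, ha] at h1
    exact zero_ne_one h1
  have h1 : a ^ P.natDegree = -∑ i ∈ Finset.range P.natDegree, P.coeff i * a ^ i := by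
    rw [Polynomial.eval_eq_sum_range, Finset.sum_range_succ, hm.coeff_natDegree, one_mul] at ha
    exact eq_neg_of_add_eq_zero_right ha
  have hwa : 0 < w a := zero_lt_one.trans hcon
  have h2 : w (a ^ P.natDegree) < w a ^ P.natDegree := by
    rw [h1, Valuation.map_neg]
    apply w.map_sum_lt (pow_ne_zero _ hwa.ne')
    intro i hi
    rw [map_mul, map_pow]
    refine (mul_le_of_le_one_left zero_le (hP i)).trans_lt ?_
    exact pow_lt_pow_right₀ hcon (Finset.mem_range.1 hi)
  rw [map_pow] at h2
  exact lt_irrefl _ h2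

/-- **Approximate roots.** `C` any field containing the roots of unity of unit order. -/
theorem exists_root_mod [IsAlgClosed Ω] (hres : ∀ x : Ω, w x = 1 → ∃ z ∈ MU w, w (x - z) < 1)
    {C : Type*} [Field C] [Algebra C Ω] (hC : ∀ z ∈ MU w, z ∈ Set.range (algebraMap C Ω))
    (P : Polynomial C) (hm : P.Monic) (hd : P.natDegree ≠ 0)
    (hP : ∀ i, w (algebraMap C Ω (P.coeff i)) ≤ 1) :
    ∃ c : C, w (algebraMap C Ω c) ≤ 1 ∧ w (algebraMap C Ω (P.eval c)) < 1 := by
  set Q := P.map (algebraMap C Ω) with hQ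
  have hQm : Q.Monic := hm.map _
  have hQc : ∀ i, w (Q.coeff i) ≤ 1 := fun i => by rw [hQ, Polynomial.coeff_map]; exact hP i
  obtain ⟨α, hα⟩ := IsAlgClosed.exists_root Q (by
    rw [hQ, Polynomial.degree_map]
    intro h
    exact hd (Polynomial.natDegree_eq_of_degree_eq_some h))
  have hα0 : Q.eval α = 0 := hα
  have hα1 := w_root_le hQm hQc hα0
  have heval : ∀ c : C, algebraMap C Ω (P.eval c) = Q.eval (algebraMap C Ω c) := by
    intro c
    rw [hQ, Polynomial.eval_map, Polynomial.eval₂_at_apply]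
  rcases hα1.lt_or_eq with h | h
  · refine ⟨0, by simp, ?_⟩
    rw [heval, map_zero]
    have h1 := w_eval_sub_le hQc (a := 0) (b := α) (by simp) hα1
    rw [hα0, sub_zero, zero_sub, Valuation.map_neg] at h1
    exact h1.trans_lt h
  · obtain ⟨z, hz, hαz⟩ := hres α h
    obtain ⟨c, rfl⟩ := hC z hz
    refine ⟨c, (w_MU hz).le, ?_⟩
    rw [heval]
    have h1 := w_eval_sub_le hQc (w_MU hz).le hα1
    rw [hα0, sub_zero, Valuation.map_sub_swap] at h1
    exact h1.trans_lt hαz

end Root

section Const

variable {p : ℕ} [Fact p.Prime] {k : Type*} [Field k] [Algebra ℚ_[p] k] [FiniteDimensional ℚ_[p] k]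
  {K : Type*} [Field K] [Algebra k K] [CharZero k] [Algebra (RatFunc k) K]
  [IsScalarTower k (RatFunc k) K] [FiniteDimensional (RatFunc k) K]

omit [FiniteDimensional ℚ_[p] k] [Algebra ℚ_[p] k] [Fact p.Prime] in
theorem isAlgClosure_constField : IsAlgClosure k (constField k K) := by
  have halg : Algebra.IsAlgebraic k (constField k K) :=
    ⟨fun c => by
      have h := isIntegral_constField c
      exact ((isIntegral_algebraMap_iff (algebraMap (constField k K)
        (maxUnramified k K)).injective).mp h).isAlgebraic⟩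
  apply IsAlgClosure.of_splits
  intro P hPm _
  have h1 : ((P.map (algebraMap k (constField k K))).map
      (algebraMap (constField k K) (maxUnramified k K))).Splits := by
    rw [Polynomial.map_map, ← IsScalarTower.algebraMap_eq]
    exact splits_maxUnramified _
  refine Polynomial.Splits.of_splits_map (algebraMap (constField k K) (maxUnramified k K)) h1 ?_
  intro a ha
  rw [Polynomial.map_map, ← IsScalarTower.algebraMap_eq] at ha
  have hint : IsIntegral k a := by
    rw [← isAlgebraic_iff_isIntegral]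
    refine ⟨P, hPm.ne_zero, ?_⟩
    have := (Polynomial.mem_roots'.mp ha).2
    rwa [Polynomial.IsRoot, Polynomial.eval_map, ← Polynomial.aeval_def] at this
  exact ⟨⟨a, mem_constField hint⟩, rfl⟩

omit [FiniteDimensional ℚ_[p] k] [Algebra ℚ_[p] k] [Fact p.Prime] in
theorem isAlgClosed_constField : IsAlgClosed (constField k K) :=
  (isAlgClosure_constField (k := k) (K := K)).isAlgClosed

/-- **A-TAU for `ConstGal k K`.** `W` = any valuation of `constField k K` extending the norm of
`ℚ_p`. -/
theorem exists_const (W : Valuation (constField k K) ℝ≥0)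
    (hW : ∀ q : ℚ_[p], W (APt_349.iQ p k (constField k K) q) = ‖q‖₊) :
    ∃ ϖ : k, ∀ l : ℕ, l.Prime → l ≠ p → Hyp k W l ϖ ∧
      ∃ (P : Subgroup (ConstGal k K)) (τ φ : ConstGal k K) (vp : ℕ → constField k K),
        IsCoSylow l P ∧ IsProl l P ∧ Tau5_512.TauData W l ϖ P τ φ vp ∧ AAsm_349.GalIn l P τ := by
  have hcl : IsAlgClosure k (constField k K) := isAlgClosure_constField
  have hacl : IsAlgClosed (constField k K) := hcl.isAlgClosed
  have halg : Algebra.IsAlgebraic k (constField k K) := hcl.isAlgebraic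
  letI : Algebra ℚ_[p] (constField k K) := (APt_349.iQ p k (constField k K)).toAlgebra
  have : IsScalarTower ℚ_[p] k (constField k K) := IsScalarTower.of_algebraMap_eq fun _ => rfl
  obtain ⟨ϖ, h⟩ := Tau6_512.exists_padic (k := k) (Ω := constField k K) (w := W) hW
  refine ⟨ϖ, fun l hl hlp => ?_⟩
  obtain ⟨H, P, τ, φ, vp, hco, hP, hT⟩ := h l hl hlp
  refine ⟨H, P, τ, φ, vp, hco, hP, hT, hl, ⟨hco.closed, hco.not_dvd⟩, hP τ hT.tau_mem, ?_⟩
  intro g hg
  have h1 := hT.conj_mem g⁻¹ (inv_mem hg)
  rw [inv_inv] at h1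
  exact h1

/-- elements of `MU W` are in the fixed field of any `σ` fixing them -/
lemma mem_fixed {Ω : Type*} [Field Ω] [Algebra k Ω] {w : Valuation Ω ℝ≥0} {σ : Ω ≃ₐ[k] Ω}
    (hσ : ∀ z ∈ MU w, σ z = z) (C : IntermediateField k Ω) (hC : ∀ c, c ∈ C ↔ σ c = c) :
    ∀ z ∈ MU w, z ∈ Set.range (algebraMap C Ω) := fun z hz => ⟨⟨z, (hC z).2 (hσ z hz)⟩, rfl⟩

end Const

end Crest.Agent.R013.Tau7_512
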