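import Crest.Agent.R013.OneD_622
import Crest.Agent.R013.AEPt_854
import Crest.Agent.R013.LemT6_874
import Crest.Agent.R013.Tau7_512

/-!
# Row 13, A-E: the final form of `ETau`, and `PartA`.

* `p1Stmt_of_ring` : 622's `P1Stmt` (hypothesis on points) from its form with a hypothesis on
  valuation rings;
* `etau_tauData` : `ETau p s τ` from 622's `P1Stmt` and 512's data;
* `partA_of` : 349's `PartA` from `P1Stmt` and `UTau`.
-/

set_option autoImplicit false
set_option linter.unusedVariables false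

noncomputable section

namespace Crest.Agent.R013.AEFin_854

open Crest.NumberTheoryR.Sect
open Crest.Agent.R013 Crest.Agent.R013.Fp4_831 Crest.Agent.R013.Tau2_512
  Crest.Agent.R013.Tau5_512 Crest.Agent.R013.LemT_874 Crest.Agent.R013.A2b_275
  Crest.Agent.R013.One_622
open scoped NNReal ENNReal

/-- points ⟹ valuation rings -/
theorem ring_of_pt {p : ℕ} [Fact p.Prime] {L : Type*} [Field L] [Algebra ℚ_[p] L] {h : L} {l : ℕ}
    (H : ∀ φ : L → ℝ≥0∞, IsPt p ℚ_[p] L φ → ∃ u : L, u ≠ 0 ∧ φ (h / u ^ l - 1) < 1)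
    (W : ValuationSubring L) (hW : RZ (p : ℚ_[p]) W) :
    ∃ u : L, u ≠ 0 ∧ W.valuation (h / u ^ l - 1) < 1 := by
  obtain ⟨φ, h1, h2⟩ := AEPt_854.exists_pt p W hW.mem (by
    have := hW.lt
    rwa [map_natCast] at this)
  obtain ⟨u, hu, h3⟩ := H φ h1
  exact ⟨u, hu, h2 _ h3⟩

/-- **P1**, with the hypothesis on valuation rings. -/
def P1Ring (p : ℕ) [Fact p.Prime] : Prop :=
  ∀ (L : Type) [Field L] [Algebra ℚ_[p] L] [Algebra (RatFunc ℚ_[p]) L]
    [IsScalarTower ℚ_[p] (RatFunc ℚ_[p]) L] [FiniteDimensional (RatFunc ℚ_[p]) L],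
    ∀ (l : ℕ), l.Prime → l ≠ p → ∀ h : L, h ≠ 0 →
      (∀ W : ValuationSubring L, RZ (p : ℚ_[p]) W →
        ∃ u : L, u ≠ 0 ∧ W.valuation (h / u ^ l - 1) < 1) →
      ∃ (ι : Type) (s : Finset ι) (u : ι → L) (u₀ : L) (m : ℕ), P1 (isUnif_p p) s u h l u₀ m

theorem p1Stmt_of_ring {p : ℕ} [Fact p.Prime] (H : P1Ring p) : P1Stmt p := by
  intro L _ _ _ _ _ l hl hlp h h0 hloc
  exact H L l hl hlp h h0 (ring_of_pt hloc)

section main

variable {p : ℕ} [Fact p.Prime] {k : Type} [Field k] [Algebra ℚ_[p] k] [FiniteDimensional ℚ_[p] k]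
  {K : Type} [Field K] [Algebra k K] [Algebra (RatFunc k) K] [IsScalarTower k (RatFunc k) K]
  [FiniteDimensional (RatFunc k) K]

/-- **(E) of #2717** from 512's data. -/
theorem etau_tauData (H1 : P1Stmt p) {W : Valuation (constField k K) ℝ≥0} {l : ℕ} {ϖ : k}
    (hlp : l ≠ p) (H : Hyp k W l ϖ) {P : Subgroup (ConstGal k K)} {τ φ : ConstGal k K}
    {vp : ℕ → constField k K} (hP : IsProl l P) (hT : TauData W l ϖ P τ φ vp)
    (s : ConstGal k K →* PiGroup k K) (hs : IsSection k K s) : AAsm_349.ETau p s τ := by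
  have hchar : CharZero k := charZero_of_injective_algebraMap (algebraMap ℚ_[p] k).injective
  have hacl : IsAlgClosed (constField k K) := Tau7_512.isAlgClosed_constField
  have hgal : IsGalois k (constField k K) := by
    have : IsAlgClosure k (constField k K) := Tau7_512.isAlgClosure_constField
    exact IsAlgClosure.isGalois k (constField k K)
  have hchar' : CharZero (constField k K) :=
    charZero_of_injective_algebraMap (algebraMap k (constField k K)).injective
  have hl := H.prime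
  have hv0 : vp 1 ^ l = algebraMap k _ ϖ := by rw [hT.vp_succ 0, hT.vp_zero]
  have hne : vp 1 ≠ 0 := by
    intro h
    rw [h, zero_pow hl.ne_zero] at hv0
    exact H.pi_ne ((map_eq_zero _).mp hv0.symm)
  refine AEAsm_854.etau (one_of_p1 H1) l hl hlp s hs (tameAt_of_tauData hT hl H.wl hP)
    (hP τ hT.tau_mem) (vp 1) hne ϖ hv0 ?_
  intro h
  have h1 := hT.vp_prim 1
  rw [h, div_self hne, pow_one] at h1
  exact hl.one_lt.ne' (h1.unique IsPrimitiveRoot.one)

/-- What `A-U` (helper337) has to deliver. -/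
def UIn (p : ℕ) [Fact p.Prime] (k : Type) [Field k] [Algebra ℚ_[p] k] (K : Type) [Field K]
    [Algebra k K] : Prop :=
  ∀ (W : Valuation (constField k K) ℝ≥0)
    (_ : ∀ q : ℚ_[p], W (APt_349.iQ p k (constField k K) q) = ‖q‖₊) (l : ℕ) (_ : l.Prime)
    (_ : l ≠ p) (_ : l ≠ 2) (ϖ : k) (_ : Hyp k W l ϖ) (P : Subgroup (ConstGal k K))
    (τ φ : ConstGal k K) (vp : ℕ → constField k K) (_ : IsCoSylow l P) (_ : IsProl l P)
    (_ : TauData W l ϖ P τ φ vp) (s : ConstGal k K →* PiGroup k K) (_ : IsSection k K s),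
    AAsm_349.UTau p s l τ

/-- **`PartA`** from (P1) and (U'). -/
theorem partA_of (H1 : P1Stmt p) (HU : UIn p k K) : AAsm_349.PartA p k K := by
  have hchar : CharZero k := charZero_of_injective_algebraMap (algebraMap ℚ_[p] k).injective
  have hcl : IsAlgClosure k (constField k K) := Tau7_512.isAlgClosure_constField
  have halg : Algebra.IsAlgebraic k (constField k K) := hcl.isAlgebraic
  obtain ⟨W, hW⟩ := APt_349.exists_W (p := p) (k := k) (L := constField k K)
  obtain ⟨ϖ, h⟩ := Tau7_512.exists_const W hW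
  obtain ⟨l, hl1, hl⟩ := Nat.exists_infinite_primes (p + 3)
  have hlp : l ≠ p := by omega
  have hl2 : l ≠ 2 := by omega
  obtain ⟨H, P, τ, φ, vp, hco, hP, hT, hG⟩ := h l hl hlp
  exact ⟨l, P, τ, hG, fun s hs => ⟨etau_tauData H1 hlp H hP hT s hs,
    HU W hW l hl hlp hl2 ϖ H P τ φ vp hco hP hT s hs⟩⟩

end main

end Crest.Agent.R013.AEFin_854
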