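import Crest.Agent.R013.EE4_809

/-!
# Row 13, leaf COMP-AN (helper243): the ring `AN c` of bounded series on the open annulus
`|c| < |T| < 1`, its field of fractions `FA c` inside `EE k C`, and the flip `T ↦ c / T`
-/

set_option autoImplicit false
set_option linter.unusedSectionVars false
open Filter Topology
open Crest.Agent.R013.Cell_408 (FinDef DiscNorm exists_max BD)
open Crest.Agent.R013.EE809

namespace Crest.Agent.R013.CAn_243

variable {k : Type*} [NontriviallyNormedField k] [CompleteSpace k]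
variable {C : Type*} [NormedField C] [IsUltrametricDist C] [NormedAlgebra k C]
variable [Algebra.IsAlgebraic k C]

section ring

variable (k) in
/-- **The ring of bounded series on the open annulus `|c| < |T| < 1`.** -/
noncomputable def AN (c : C) : Subalgebra C (EE k C) where
  carrier := {a | ∃ M : ℝ, Bdd ‖c‖ M a}
  mul_mem' := by
    rintro a b ⟨M, hM⟩ ⟨N, hN⟩
    by_cases hc : c = 0
    · refine ⟨‖(a * b).co 0‖, fun n => ?_⟩
      rw [hc, norm_zero]
      by_cases hn : n = 0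
      · rw [hn, zpow_zero, mul_one]
      · rw [zero_zpow n hn, mul_zero]; exact norm_nonneg _
    · exact ⟨M * N, hM.mul (norm_pos_iff.2 hc) hN⟩
  add_mem' := by
    rintro a b ⟨M, hM⟩ ⟨N, hN⟩
    refine ⟨max M N, fun n => ?_⟩
    rw [co_add]
    have h0 : 0 ≤ ‖c‖ ^ n := zpow_nonneg (norm_nonneg c) n
    calc ‖a.co n + b.co n‖ * ‖c‖ ^ n ≤ max ‖a.co n‖ ‖b.co n‖ * ‖c‖ ^ n :=
          mul_le_mul_of_nonneg_right (IsUltrametricDist.norm_add_le_max _ _) h0
      _ = max (‖a.co n‖ * ‖c‖ ^ n) (‖b.co n‖ * ‖c‖ ^ n) := max_mul_of_nonneg _ _ h0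
      _ ≤ max M N := max_le_max (hM n) (hN n)
  algebraMap_mem' x := by
    refine ⟨‖x‖, fun n => ?_⟩
    rw [co_algebraMap]
    split_ifs with h
    · rw [h, zpow_zero, mul_one]
    · rw [norm_zero, zero_mul]; exact norm_nonneg _

theorem mem_AN {c : C} {a : EE k C} : a ∈ AN k c ↔ ∃ M : ℝ, Bdd ‖c‖ M a := Iff.rfl

/-- on `AN c` one bound for both ends -/
theorem AN.bd2 {c : C} {a : EE k C} (h : a ∈ AN k c) :
    ∃ M : ℝ, 0 < M ∧ (∀ n, ‖a.co n‖ ≤ M) ∧ ∀ n, ‖a.co n‖ * ‖c‖ ^ n ≤ M := by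
  obtain ⟨M, hM⟩ := h
  obtain ⟨N, hN, hN'⟩ := a.bd'
  exact ⟨max M N, lt_max_of_lt_right hN, fun n => (hN' n).trans (le_max_right _ _),
    fun n => (hM n).trans (le_max_left _ _)⟩

theorem mo_mem_AN (c : C) (n : ℤ) (x : C) : (mo n x : EE k C) ∈ AN k c := by
  refine ⟨‖x‖ * ‖c‖ ^ n, fun m => ?_⟩
  rw [co_mo]
  split_ifs with h
  · rw [h]
  · rw [norm_zero, zero_mul]
    exact mul_nonneg (norm_nonneg _) (zpow_nonneg (norm_nonneg _) _)

theorem T_mem_AN (c : C) (n : ℤ) : (T n : EE k C) ∈ AN k c := mo_mem_AN c n 1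

theorem ofBD_mem_AN {c : C} (hc : ‖c‖ ≤ 1) (f : BD k C) : (ofBD f : EE k C) ∈ AN k c := by
  obtain ⟨M, hM⟩ := f.2.2
  refine ⟨max M 0, fun n => ?_⟩
  rcases lt_or_ge n 0 with h | h
  · rw [co_ofBD_neg _ h, norm_zero, zero_mul]; exact le_max_right _ _
  · obtain ⟨m, rfl⟩ := Int.eq_ofNat_of_zero_le h
    rw [co_ofBD_nat, zpow_natCast]
    exact (mul_le_of_le_one_right (norm_nonneg _) (pow_le_one₀ (norm_nonneg _) hc)).trans
      ((hM m).trans (le_max_left _ _))

theorem AN_mono {c c' : C} (hc : c ≠ 0) (h : ‖c‖ ≤ ‖c'‖) (h1 : ‖c'‖ ≤ 1) : AN k c ≤ AN k c' := by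
  intro a ha
  obtain ⟨M, hM, h2, h3⟩ := AN.bd2 ha
  exact ⟨M, Bdd.interp (norm_pos_iff.2 hc) h h1 h3 (fun n => by
    rw [one_zpow, mul_one]; exact h2 n)⟩

/-! ### flip -/

/-- `T ↦ c / T` -/
noncomputable def flipFun (c : C) (hc0 : c ≠ 0) (hc1 : ‖c‖ < 1) (a : AN k c) : AN k c :=
  ⟨mk' (fun n => a.1.co (-n) * c ^ (-n))
    (by
      obtain ⟨L, hL, h1, h2⟩ := a.1.fd.common (finDef_const (k := k) c)
      exact ⟨L, hL, fun n => mul_mem (h1 _) (zpow_mem (h2 ()) _)⟩)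
    (by
      obtain ⟨M, hM⟩ := a.2
      refine ⟨M, fun n => ?_⟩
      rw [norm_mul, norm_zpow]
      exact hM _)
    (by
      obtain ⟨M, hM0, hM⟩ := a.1.bd'
      have h1 : Tendsto (fun n : ℤ => M * ‖c‖ ^ (-n)) atBot (𝓝 0) := by
        have h2 : Tendsto (fun n : ℕ => M * ‖c‖ ^ n) atTop (𝓝 (M * 0)) :=
          (tendsto_pow_atTop_nhds_zero_of_lt_one (norm_nonneg _) hc1).const_mul M
        rw [mul_zero] at h2
        rw [Metric.tendsto_nhds] at h2 ⊢
        intro ε hε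
        obtain ⟨N, hN⟩ := eventually_atTop.1 (h2 ε hε)
        rw [eventually_atBot]
        refine ⟨-N, fun n hn => ?_⟩
        have h3 := hN (-n).toNat (by omega)
        have h4 : (((-n).toNat : ℕ) : ℤ) = -n := Int.toNat_of_nonneg (by omega)
        rw [← zpow_natCast, h4] at h3
        exact h3
      refine squeeze_zero_norm (fun n => ?_) h1
      rw [norm_mul, norm_zpow]
      exact mul_le_mul_of_nonneg_right (hM _) (zpow_nonneg (norm_nonneg _) _)),
   by
    obtain ⟨M, hM⟩ := a.1.bd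
    refine ⟨M, fun n => ?_⟩
    rw [co_mk', norm_mul, norm_zpow, mul_assoc, ← zpow_add₀ (norm_ne_zero_iff.2 hc0),
      neg_add_cancel, zpow_zero, mul_one]
    exact hM _⟩

theorem co_flipFun (c : C) (hc0 : c ≠ 0) (hc1 : ‖c‖ < 1) (a : AN k c) (n : ℤ) :
    (flipFun c hc0 hc1 a).1.co n = a.1.co (-n) * c ^ (-n) := rfl

theorem flipFun_flipFun (c : C) (hc0 : c ≠ 0) (hc1 : ‖c‖ < 1) (a : AN k c) :
    flipFun c hc0 hc1 (flipFun c hc0 hc1 a) = a := by
  apply Subtype.ext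
  ext n
  rw [co_flipFun, co_flipFun, neg_neg, mul_assoc, ← zpow_add₀ hc0, add_neg_cancel, zpow_zero,
    mul_one]

/-- **The flip** `T ↦ c / T`, an automorphism of `AN c`. -/
noncomputable def flip (c : C) (hc0 : c ≠ 0) (hc1 : ‖c‖ < 1) : AN k c ≃ₐ[C] AN k c where
  toFun := flipFun c hc0 hc1
  invFun := flipFun c hc0 hc1
  left_inv := flipFun_flipFun c hc0 hc1
  right_inv := flipFun_flipFun c hc0 hc1
  map_mul' a b := by
    apply Subtype.ext
    ext n
    rw [MulMemClass.coe_mul, co_mul, co_flipFun, MulMemClass.coe_mul, co_mul, ← tsum_mul_right,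
      ← (Equiv.neg ℤ).tsum_eq]
    refine tsum_congr fun i => ?_
    rw [Equiv.neg_apply, co_flipFun, co_flipFun, neg_sub,
      show -n - -i = i - n by ring, show -n = (-i) + (i - n) by ring, zpow_add₀ hc0]
    ring
  map_add' a b := by
    apply Subtype.ext
    ext n
    rw [AddMemClass.coe_add, co_add, co_flipFun, AddMemClass.coe_add, co_add, co_flipFun,
      co_flipFun, add_mul]
  commutes' x := by
    apply Subtype.ext
    ext n
    rw [co_flipFun]
    show (algebraMap C (EE k C) x).co (-n) * c ^ (-n) = (algebraMap C (EE k C) x).co n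
    rw [co_algebraMap, co_algebraMap]
    by_cases h : n = 0
    · rw [h]; simp
    · rw [if_neg h, if_neg (by omega), zero_mul]

theorem co_flip (c : C) (hc0 : c ≠ 0) (hc1 : ‖c‖ < 1) (a : AN k c) (n : ℤ) :
    (flip c hc0 hc1 a).1.co n = a.1.co (-n) * c ^ (-n) := rfl

@[simp] theorem flip_flip (c : C) (hc0 : c ≠ 0) (hc1 : ‖c‖ < 1) (a : AN k c) :
    flip c hc0 hc1 (flip c hc0 hc1 a) = a := flipFun_flipFun c hc0 hc1 a

theorem flip_mo (c : C) (hc0 : c ≠ 0) (hc1 : ‖c‖ < 1) (n : ℤ) (x : C) :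
    flip c hc0 hc1 (⟨mo n x, mo_mem_AN c n x⟩ : AN k c) =
      (⟨mo (-n) (x * c ^ n), mo_mem_AN c _ _⟩ : AN k c) := by
  apply Subtype.ext
  ext m
  rw [co_flip]
  show (mo n x : EE k C).co (-m) * c ^ (-m) = (mo (-n) (x * c ^ n) : EE k C).co m
  rw [co_mo, co_mo]
  by_cases h : m = -n
  · rw [if_pos h, if_pos (by omega), h, neg_neg]
  · rw [if_neg h, if_neg (by omega), zero_mul]

theorem flip_eq_zero {c : C} {hc0 : c ≠ 0} {hc1 : ‖c‖ < 1} {a : AN k c} :
    flip c hc0 hc1 a = 0 ↔ a = 0 := map_eq_zero_iff _ (flip c hc0 hc1).injective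

/-- bounds of the flip -/
theorem norm_co_flip (c : C) (hc0 : c ≠ 0) (hc1 : ‖c‖ < 1) (a : AN k c) (n : ℤ) :
    ‖(flip c hc0 hc1 a).1.co n‖ = ‖a.1.co (-n)‖ * ‖c‖ ^ (-n) := by
  rw [co_flip, norm_mul, norm_zpow]

theorem norm_co_flip' (c : C) (hc0 : c ≠ 0) (hc1 : ‖c‖ < 1) (a : AN k c) (n : ℤ) :
    ‖(flip c hc0 hc1 a).1.co n‖ * ‖c‖ ^ n = ‖a.1.co (-n)‖ := by
  rw [norm_co_flip, mul_assoc, ← zpow_add₀ (norm_ne_zero_iff.2 hc0), neg_add_cancel, zpow_zero,
    mul_one]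

end ring

section field

variable [IsUltrametricDist k] [IsAlgClosed C] [hk : Fact (DiscNorm k)]

variable (k) in
/-- **The field of fractions of `AN c`** inside `EE k C`. -/
noncomputable def FA (c : C) : IntermediateField C (EE k C) where
  carrier := {x | ∃ g ∈ AN k c, ∃ h ∈ AN k c, h ≠ 0 ∧ x * h = g}
  mul_mem' := by
    rintro x y ⟨g, hg, h, hh, h0, e⟩ ⟨g', hg', h', hh', h0', e'⟩
    exact ⟨g * g', mul_mem hg hg', h * h', mul_mem hh hh', mul_ne_zero h0 h0', by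
      rw [← e, ← e']; ring⟩
  add_mem' := by
    rintro x y ⟨g, hg, h, hh, h0, e⟩ ⟨g', hg', h', hh', h0', e'⟩
    exact ⟨g * h' + g' * h, add_mem (mul_mem hg hh') (mul_mem hg' hh), h * h', mul_mem hh hh',
      mul_ne_zero h0 h0', by rw [← e, ← e']; ring⟩
  algebraMap_mem' x := ⟨algebraMap C _ x, (AN k c).algebraMap_mem x, 1, one_mem _, one_ne_zero, by
    rw [mul_one]⟩
  inv_mem' := by
    rintro x ⟨g, hg, h, hh, h0, e⟩
    by_cases hx : x = 0
    · rw [hx, inv_zero]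
      exact ⟨0, zero_mem _, 1, one_mem _, one_ne_zero, by rw [mul_one]⟩
    · refine ⟨h, hh, g, hg, ?_, ?_⟩
      · rw [← e]; exact mul_ne_zero hx h0
      · rw [← e, inv_mul_cancel_left₀ hx]

theorem mem_FA {c : C} {x : EE k C} :
    x ∈ FA k c ↔ ∃ g ∈ AN k c, ∃ h ∈ AN k c, h ≠ 0 ∧ x * h = g := Iff.rfl

theorem AN_le_FA (c : C) {x : EE k C} (h : x ∈ AN k c) : x ∈ FA k c :=
  ⟨x, h, 1, one_mem _, one_ne_zero, mul_one _⟩

theorem FA_mono {c c' : C} (hc : c ≠ 0) (h : ‖c‖ ≤ ‖c'‖) (h1 : ‖c'‖ ≤ 1) : FA k c ≤ FA k c' := by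
  rintro x ⟨g, hg, h', hh', h0, e⟩
  exact ⟨g, AN_mono hc h h1 hg, h', AN_mono hc h h1 hh', h0, e⟩

noncomputable instance (c : C) : Algebra (AN k c) (FA k c) :=
  ((AN k c).val.codRestrict (FA k c).toSubalgebra fun x => AN_le_FA c x.2).toRingHom.toAlgebra

theorem coe_algebraMap_FA (c : C) (x : AN k c) :
    ((algebraMap (AN k c) (FA k c) x : FA k c) : EE k C) = x := rfl

instance (c : C) : IsScalarTower C (AN k c) (FA k c) := IsScalarTower.of_algebraMap_eq fun _ => rfl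

theorem algebraMap_FA_injective (c : C) : Function.Injective (algebraMap (AN k c) (FA k c)) := by
  intro x y h
  apply Subtype.ext
  exact congrArg (fun z : FA k c => (z : EE k C)) h

instance (c : C) : IsFractionRing (AN k c) (FA k c) where
  map_units y := by
    refine IsUnit.mk0 _ fun h => ?_
    have h1 := algebraMap_FA_injective c (h.trans (map_zero _).symm)
    exact nonZeroDivisors.ne_zero y.2 h1
  surj := by
    rintro ⟨x, g, hg, h, hh, h0, e⟩
    refine ⟨(⟨g, hg⟩, ⟨⟨h, hh⟩, mem_nonZeroDivisors_of_ne_zero fun h1 => h0 ?_⟩), ?_⟩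
    · exact congrArg (fun z : AN k c => (z : EE k C)) h1
    · apply Subtype.ext
      exact e
  exists_of_eq := by
    intro x y h
    exact ⟨1, by rw [algebraMap_FA_injective c h]⟩

/-- extension of an injective homomorphism from `AN c` to `FA c` -/
noncomputable def liftFA {c : C} {F : Type*} [Field F] [Algebra C F] (φ : AN k c →ₐ[C] F)
    (hφ : Function.Injective φ) : FA k c →ₐ[C] F :=
  IsFractionRing.liftAlgHom (A := AN k c) (K := FA k c) (g := φ) hφ

theorem liftFA_algebraMap {c : C} {F : Type*} [Field F] [Algebra C F] (φ : AN k c →ₐ[C] F)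
    (hφ : Function.Injective φ) (a : AN k c) :
    liftFA φ hφ (algebraMap (AN k c) (FA k c) a) = φ a :=
  IsFractionRing.lift_algebraMap hφ _

theorem FA_div_surj {c : C} (x : FA k c) : ∃ a b : AN k c, b ≠ 0 ∧
    algebraMap (AN k c) (FA k c) a / algebraMap (AN k c) (FA k c) b = x := by
  obtain ⟨a, b, hb, e⟩ := IsFractionRing.div_surjective (A := AN k c) x
  exact ⟨a, b, nonZeroDivisors.ne_zero hb, e⟩

/-- uniqueness -/
theorem FA_hom_ext {c : C} {F : Type*} [Field F] [Algebra C F] {φ ψ : FA k c →ₐ[C] F}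
    (h : ∀ a : AN k c, φ (algebraMap (AN k c) (FA k c) a) = ψ (algebraMap (AN k c) (FA k c) a)) :
    φ = ψ := by
  ext x
  obtain ⟨a, b, hb, rfl⟩ := FA_div_surj x
  rw [map_div₀, map_div₀, h, h]

theorem flip_FA_injective (c : C) (hc0 : c ≠ 0) (hc1 : ‖c‖ < 1) : Function.Injective
    ((IsScalarTower.toAlgHom C (AN k c) (FA k c)).comp (flip c hc0 hc1).toAlgHom) := by
  intro x y h
  exact (flip c hc0 hc1).injective (algebraMap_FA_injective c h)

/-- the flip on `FA c` -/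
noncomputable def flipF (c : C) (hc0 : c ≠ 0) (hc1 : ‖c‖ < 1) : FA k c →ₐ[C] FA k c :=
  liftFA ((IsScalarTower.toAlgHom C (AN k c) (FA k c)).comp (flip c hc0 hc1).toAlgHom)
    (flip_FA_injective c hc0 hc1)

theorem flipF_algebraMap (c : C) (hc0 : c ≠ 0) (hc1 : ‖c‖ < 1) (a : AN k c) :
    flipF c hc0 hc1 (algebraMap (AN k c) (FA k c) a)
      = algebraMap (AN k c) (FA k c) (flip c hc0 hc1 a) :=
  liftFA_algebraMap _ _ _

theorem flipF_flipF (c : C) (hc0 : c ≠ 0) (hc1 : ‖c‖ < 1) (x : FA k c) :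
    flipF c hc0 hc1 (flipF c hc0 hc1 x) = x := by
  obtain ⟨a, b, hb, rfl⟩ := IsFractionRing.div_surjective (A := AN k c) x
  rw [map_div₀, map_div₀, flipF_algebraMap, flipF_algebraMap, flipF_algebraMap, flipF_algebraMap,
    flip_flip, flip_flip]

end field

end Crest.Agent.R013.CAn_243
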