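import Mathlib

/-!
Row 13, task B-ASL (helper930).  Artin-Schreier input of (B3) of CORE 3 (#2070).

`κ` a field of characteristic `p`, `c ≠ 0`, `m` prime to `p`, `L / κ(t)` a field, `y ∈ L` with
`y ^ p - y = c t ^ m`.
* `val_y` : for EVERY valuation `v` of `L` trivial on `κ` there is `g ≠ 0` with `v y = (v g) ^ m`.
* `minpoly_eq`, `finrank_adjoin` : `X ^ p - X - c t ^ m` is the minimal polynomial of `y` over `κ(t)`.
* `not_pow` : if `l` is prime, `l ∣ m` and `[L : κ(t)]` is finite and prime to `l`, then `y` is not an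
  `l`-th power in `L`.
-/

set_option autoImplicit false
set_option linter.unusedSectionVars false

noncomputable section

namespace Crest.Agent.R013.ASL_930

open Polynomial

/-! ### valuations -/

section Val

variable {L : Type*} [Field L] {Γ : Type*} [LinearOrderedCommGroupWithZero Γ] (v : Valuation L Γ)

/-- If the nonzero terms of a finite sum have pairwise different values, then the value of the sum
dominates the value of every term. -/
lemma le_map_sum_of_ne {ι : Type*} (s : Finset ι) (f : ι → L)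
    (hf : ∀ i ∈ s, ∀ j ∈ s, i ≠ j → f i ≠ 0 → f j ≠ 0 → v (f i) ≠ v (f j)) :
    ∀ i ∈ s, v (f i) ≤ v (∑ j ∈ s, f j) := by
  classical
  intro i hi
  by_cases hfi : f i = 0
  · simp [hfi]
  obtain ⟨i0, hi0, hmax⟩ := s.exists_max_image (fun j => v (f j)) ⟨i, hi⟩
  have h0 : f i0 ≠ 0 := by
    intro h
    have := hmax i hi
    rw [h, map_zero] at this
    exact hfi ((Valuation.zero_iff v).1 (le_antisymm this zero_le))
  have hlt : v (∑ j ∈ s.erase i0, f j) < v (f i0) := by
    apply Valuation.map_sum_lt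
    · exact (Valuation.ne_zero_iff v).2 h0
    · intro j hj
      have hj' := Finset.mem_erase.1 hj
      by_cases hfj : f j = 0
      · rw [hfj, map_zero]; exact zero_lt_iff.2 ((Valuation.ne_zero_iff v).2 h0)
      · exact lt_of_le_of_ne (hmax j hj'.2) (hf j hj'.2 i0 hi0 hj'.1 hfj h0)
  have : v (∑ j ∈ s, f j) = v (f i0) := by
    rw [← Finset.add_sum_erase s f hi0]
    exact Valuation.map_add_eq_of_lt_left v hlt
  rw [this]
  exact hmax i hi

end Val

variable {κ : Type*} [Field κ] {L : Type*} [Field L] [Algebra κ L]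

section Infty

variable {Γ : Type*} [LinearOrderedCommGroupWithZero Γ] (v : Valuation L Γ)
  (hv : ∀ a : κ, a ≠ 0 → v (algebraMap κ L a) = 1) {t : L} (ht : 1 < v t)

include hv ht

/-- the value of a polynomial in `t` at a place at infinity -/
lemma val_aeval (P : κ[X]) (hP : P ≠ 0) : v (aeval t P) = v t ^ P.natDegree := by
  have ht0 : (0 : Γ) < v t := lt_trans zero_lt_one ht
  have key : ∀ (n : ℕ) (P : κ[X]), P.natDegree < n → v (aeval t P) ≤ v t ^ (n - 1) := by
    intro n P hn
    rw [aeval_eq_sum_range' hn]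
    apply Valuation.map_sum_le
    intro i hi
    rw [Algebra.smul_def, map_mul, map_pow]
    have hi' := Finset.mem_range.1 hi
    by_cases hc : P.coeff i = 0
    · simp [hc]
    · rw [hv _ hc, one_mul]
      exact pow_le_pow_right₀ ht.le (by omega)
  rcases Nat.eq_zero_or_pos P.natDegree with h0 | hpos
  · rw [h0, pow_zero]
    obtain ⟨a, rfl⟩ : ∃ a, P = C a := ⟨P.coeff 0, eq_C_of_natDegree_eq_zero h0⟩
    rw [aeval_C]
    exact hv a (by rintro rfl; simp at hP)
  · have hlead : v (algebraMap κ L P.leadingCoeff * t ^ P.natDegree) = v t ^ P.natDegree := by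
      rw [map_mul, map_pow, hv _ (leadingCoeff_ne_zero.2 hP), one_mul]
    have hdec : aeval t P = aeval t P.eraseLead
        + algebraMap κ L P.leadingCoeff * t ^ P.natDegree := by
      simpa [-eraseLead_add_C_mul_X_pow] using
        congrArg (aeval t) (P.eraseLead_add_C_mul_X_pow).symm
    have hlt : v (aeval t P.eraseLead) < v (algebraMap κ L P.leadingCoeff * t ^ P.natDegree) := by
      rw [hlead]
      rcases P.eraseLead_natDegree_lt_or_eraseLead_eq_zero with h | h
      · exact lt_of_le_of_lt (key _ _ h) (pow_lt_pow_right₀ ht (by omega))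
      · rw [h]; simpa using pow_pos ht0 _
    rw [hdec, Valuation.map_add_eq_of_lt_right v hlt, hlead]

end Infty

/-! ### the Artin-Schreier relation -/

section AS

variable {p : ℕ} {c : κ} {m : ℕ} {t y : L}

/-- **divisibility of the divisor of `y`**: every valuation of `L`, trivial on `κ`, has at `y` an
`m`-th power value. -/
theorem val_y (hc : c ≠ 0) (hpm : p.Coprime m)
    (hAS : y ^ p - y = algebraMap κ L c * t ^ m)
    {Γ : Type*} [LinearOrderedCommGroupWithZero Γ] (v : Valuation L Γ)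
    (hv : ∀ a : κ, a ≠ 0 → v (algebraMap κ L a) = 1) (hp : 1 < p) (ht : t ≠ 0) :
    ∃ g : L, g ≠ 0 ∧ v y = v g ^ m := by
  have hvt : v (y ^ p - y) = v t ^ m := by rw [hAS, map_mul, map_pow, hv c hc, one_mul]
  have hy0 : y ≠ 0 := by
    rintro rfl
    rw [zero_pow (by omega), sub_zero, map_zero] at hvt
    exact (pow_ne_zero m ((Valuation.ne_zero_iff v).2 ht)) hvt.symm
  have hvy : v y ≠ 0 := (Valuation.ne_zero_iff v).2 hy0
  rcases lt_trichotomy (v y) 1 with h | h | h
  · -- `v y < 1`
    have hlt : v (y ^ p) < v y := by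
      rw [map_pow]
      calc v y ^ p < v y ^ 1 := pow_lt_pow_right_of_lt_one₀ (zero_lt_iff.2 hvy) h hp
        _ = v y := pow_one _
    refine ⟨t, ht, ?_⟩
    rw [← hvt, Valuation.map_sub_eq_of_lt_right v hlt]
  · exact ⟨1, one_ne_zero, by simp [h]⟩
  · have hlt : v y < v (y ^ p) := by
      rw [map_pow]
      calc v y = v y ^ 1 := (pow_one _).symm
        _ < v y ^ p := pow_lt_pow_right₀ h hp
    have h1 : v y ^ p = v t ^ m := by
      rw [← hvt, Valuation.map_sub_eq_of_lt_left v hlt, map_pow]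
    have hbez : (p : ℤ) * Int.gcdA p m + m * Int.gcdB p m = 1 := by
      have := Nat.gcd_eq_gcd_ab p m
      rw [hpm.gcd_eq_one] at this
      exact_mod_cast this.symm
    refine ⟨t ^ Int.gcdA p m * y ^ Int.gcdB p m,
      mul_ne_zero (zpow_ne_zero _ ht) (zpow_ne_zero _ hy0), ?_⟩
    have h2 : v y ^ (p : ℤ) = v t ^ (m : ℤ) := by simpa using h1
    rw [map_mul, map_zpow₀, map_zpow₀, mul_pow, ← zpow_natCast, ← zpow_natCast, ← zpow_mul,
      ← zpow_mul]
    calc v y = v y ^ (1 : ℤ) := (zpow_one _).symm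
      _ = v y ^ ((p : ℤ) * Int.gcdA p m + m * Int.gcdB p m) := by rw [hbez]
      _ = (v y ^ (p : ℤ)) ^ (Int.gcdA p m) * v y ^ ((m : ℤ) * Int.gcdB p m) := by
          rw [zpow_add₀ hvy, zpow_mul]
      _ = _ := by rw [h2, ← zpow_mul, mul_comm (m : ℤ) (Int.gcdA p m),
            mul_comm (m : ℤ) (Int.gcdB p m)]

/-- at a place at infinity the values of `a_i(t) y^i`, `i < p`, are pairwise different -/
lemma term_le (hc : c ≠ 0) (hpm : p.Coprime m)
    (hAS : y ^ p - y = algebraMap κ L c * t ^ m)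
    {Γ : Type*} [LinearOrderedCommGroupWithZero Γ] (v : Valuation L Γ)
    (hv : ∀ a : κ, a ≠ 0 → v (algebraMap κ L a) = 1) (hp : 1 < p) (hm : 0 < m) (ht : 1 < v t) :
    1 < v y ∧ v y ^ p = v t ^ m ∧ ∀ a : ℕ → κ[X], ∀ i ∈ Finset.range p,
      v (aeval t (a i) * y ^ i) ≤ v (∑ j ∈ Finset.range p, aeval t (a j) * y ^ j) := by
  have hvt : v (y ^ p - y) = v t ^ m := by rw [hAS, map_mul, map_pow, hv c hc, one_mul]
  have hbig : 1 < v (y ^ p - y) := by rw [hvt]; exact one_lt_pow₀ ht hm.ne'
  have h : 1 < v y := by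
    by_contra hle
    push Not at hle
    have : v (y ^ p - y) ≤ 1 := by
      apply Valuation.map_sub_le
      · rw [map_pow]; exact pow_le_one₀ zero_le hle
      · exact hle
    exact absurd hbig (not_lt.2 this)
  have hlt : v y < v (y ^ p) := by
    rw [map_pow]
    calc v y = v y ^ 1 := (pow_one _).symm
      _ < v y ^ p := pow_lt_pow_right₀ h hp
  have h1 : v y ^ p = v t ^ m := by
    rw [← hvt, Valuation.map_sub_eq_of_lt_left v hlt, map_pow]
  refine ⟨h, h1, fun a => ?_⟩
  apply le_map_sum_of_ne v (Finset.range p) (fun j => aeval t (a j) * y ^ j)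
  intro i hi j hj hij hi0 hj0 heq
  have hai : a i ≠ 0 := by intro h0; apply hi0; simp [h0]
  have haj : a j ≠ 0 := by intro h0; apply hj0; simp [h0]
  have e : (v (aeval t (a i) * y ^ i)) ^ p = (v (aeval t (a j) * y ^ j)) ^ p := by
    rw [heq]
  rw [map_mul, map_mul, val_aeval v hv ht _ hai, val_aeval v hv ht _ haj, map_pow, map_pow,
    mul_pow, mul_pow, ← pow_mul, ← pow_mul, ← pow_mul, ← pow_mul, mul_comm i p, mul_comm j p,
    pow_mul (v y), pow_mul (v y), h1, ← pow_mul, ← pow_mul, ← pow_add, ← pow_add] at e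
  have e' := (pow_right_injective₀ (lt_trans zero_lt_one ht) ht.ne') e
  -- `deg a_i * p + m i = deg a_j * p + m j`
  have hmod : (m * i) % p = (m * j) % p := by
    have := congrArg (· % p) e'
    simpa [Nat.add_mod, Nat.mul_mod_left] using this
  have : i % p = j % p := Nat.ModEq.cancel_left_of_coprime (m := p) (by simpa using hpm) hmod
  rw [Nat.mod_eq_of_lt (Finset.mem_range.1 hi), Nat.mod_eq_of_lt (Finset.mem_range.1 hj)] at this
  exact hij this

/-- existence of a place at infinity -/
lemma exists_infty (ht : Transcendental κ t) :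
    ∃ V : ValuationSubring L, (∀ a : κ, a ≠ 0 → V.valuation (algebraMap κ L a) = 1) ∧
      1 < V.valuation t := by
  have ht0 : t ≠ 0 := by rintro rfl; exact ht (isAlgebraic_zero)
  have hti : Transcendental κ t⁻¹ := by rwa [Transcendental, IsAlgebraic.inv_iff]
  set A : Subring L := (Algebra.adjoin κ {t⁻¹}).toSubring with hA
  have hmem : t⁻¹ ∈ A := Algebra.subset_adjoin (Set.mem_singleton _)
  have hI : Ideal.span {(⟨t⁻¹, hmem⟩ : A)} ≠ ⊤ := by
    intro htop
    obtain ⟨⟨q, hq⟩, hq1⟩ := Ideal.mem_span_singleton'.1 ((Ideal.eq_top_iff_one _).1 htop)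
    have hq1' : q * t⁻¹ = 1 := congrArg Subtype.val hq1
    have hq2 : q ∈ Algebra.adjoin κ {t⁻¹} := hq
    rw [Algebra.adjoin_singleton_eq_range_aeval] at hq2
    obtain ⟨Q, rfl⟩ := hq2
    apply hti
    refine ⟨Q * X - 1, ?_, by simpa [sub_eq_zero] using hq1'⟩
    intro h0
    have := congrArg (eval 0) h0
    simp at this
  obtain ⟨B, hAB, hBI⟩ := Ideal.image_subset_nonunits_valuationSubring _ hI
  refine ⟨B, fun a ha => ?_, ?_⟩
  · have h1 : algebraMap κ L a ∈ B := hAB ((Algebra.adjoin κ {t⁻¹}).algebraMap_mem a)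
    have h2 : (algebraMap κ L a)⁻¹ ∈ B := by
      rw [← map_inv₀]; exact hAB ((Algebra.adjoin κ {t⁻¹}).algebraMap_mem a⁻¹)
    have h1' := (B.valuation_le_one_iff _).2 h1
    have h2' := (B.valuation_le_one_iff _).2 h2
    rw [map_inv₀] at h2'
    have h3 : B.valuation (algebraMap κ L a) ≠ 0 :=
      (Valuation.ne_zero_iff _).2 (by simpa using ha)
    exact le_antisymm h1' ((inv_le_one₀ (zero_lt_iff.2 h3)).1 h2')
  · have h1 : t⁻¹ ∈ B.nonunits := hBI ⟨⟨t⁻¹, hmem⟩, Ideal.subset_span rfl, rfl⟩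
    have h2 : B.valuation t⁻¹ < 1 := (ValuationSubring.mem_nonunits_iff B).1 h1
    rw [map_inv₀] at h2
    have h3 : B.valuation t ≠ 0 := (Valuation.ne_zero_iff _).2 ht0
    exact (inv_lt_one₀ (zero_lt_iff.2 h3)).1 h2

end AS

/-! ### the field `κ(t)(y)` -/

section Core

variable {p : ℕ} [hp : Fact p.Prime] [CharP κ p] {c : κ} {m : ℕ}
  {K : Type*} [Field K] [Algebra κ[X] K] [IsFractionRing κ[X] K]
  [Algebra K L] [Algebra κ[X] L] [IsScalarTower κ[X] K L] [IsScalarTower κ κ[X] L]
  {y : L}

lemma aeval_algebraMap_X (P : κ[X]) : aeval (algebraMap κ[X] L X) P = algebraMap κ[X] L P := by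
  rw [aeval_algebraMap_apply, aeval_X_left_apply]

include K in
lemma transcendental_X : Transcendental κ (algebraMap κ[X] L X) := by
  rw [transcendental_iff]
  intro P hP
  rw [aeval_algebraMap_X, IsScalarTower.algebraMap_apply κ[X] K L] at hP
  have h1 := (algebraMap K L).injective (hP.trans (map_zero _).symm)
  exact (IsFractionRing.injective κ[X] K) (h1.trans (map_zero _).symm)

variable (K) in
/-- the Artin-Schreier polynomial -/
def asPoly (p : ℕ) (c : κ) (m : ℕ) : K[X] := X ^ p - X - C (algebraMap κ[X] K (C c * X ^ m))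

omit [IsFractionRing κ[X] K] [CharP κ p] in
lemma asPoly_natDegree : (asPoly K p c m).natDegree = p := by
  have h1 : (asPoly K p c m) = X ^ p - (X + C (algebraMap κ[X] K (C c * X ^ m))) := by
    rw [asPoly]; ring
  rw [h1]
  rw [natDegree_sub_eq_left_of_natDegree_lt]
  · simp
  · rw [natDegree_X_add_C, natDegree_X_pow]; exact hp.out.one_lt

omit [IsFractionRing κ[X] K] [CharP κ p] in
lemma asPoly_monic : (asPoly K p c m).Monic := by
  have h1 : (asPoly K p c m) = X ^ p - (X + C (algebraMap κ[X] K (C c * X ^ m))) := by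
    rw [asPoly]; ring
  rw [h1]
  apply (monic_X_pow p).sub_of_left
  rw [degree_X_add_C, degree_X_pow]
  exact_mod_cast hp.out.one_lt

omit hp [IsFractionRing κ[X] K] [CharP κ p] [IsScalarTower κ κ[X] L] in
lemma aeval_asPoly (hAS : y ^ p - y = algebraMap κ[X] L (C c * X ^ m)) :
    aeval y (asPoly K p c m) = 0 := by
  simp only [asPoly, map_sub, map_pow, aeval_X, aeval_C, ← IsScalarTower.algebraMap_apply, hAS,
    sub_self]

/-- no nonzero polynomial of degree `< p` over `κ[t]` vanishes at `y` -/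
lemma no_relation (hc : c ≠ 0) (hpm : p.Coprime m) (hm : 0 < m)
    (hAS : y ^ p - y = algebraMap κ[X] L (C c * X ^ m))
    (ht : Transcendental κ (algebraMap κ[X] L X)) (Q : κ[X][X]) (hQ : Q.natDegree < p)
    (h0 : aeval y Q = 0) : Q = 0 := by
  obtain ⟨V, hV, hVt⟩ := exists_infty ht
  have hAS' : y ^ p - y = algebraMap κ L c * (algebraMap κ[X] L X) ^ m := by
    rw [hAS, map_mul, map_pow, IsScalarTower.algebraMap_apply κ κ[X] L]; rfl
  obtain ⟨hy1, -, hle⟩ := term_le hc hpm hAS' V.valuation hV hp.out.one_lt hm hVt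
  have hy0 : y ≠ 0 := by rintro rfl; simp at hy1
  ext1 i
  by_cases hi : i < p
  · have h1 := hle (fun j => Q.coeff j) i (Finset.mem_range.2 hi)
    have h2 : ∑ j ∈ Finset.range p, aeval (algebraMap κ[X] L X) (Q.coeff j) * y ^ j = 0 := by
      rw [← h0, aeval_eq_sum_range' hQ]
      refine Finset.sum_congr rfl fun j _ => ?_
      rw [aeval_algebraMap_X, Algebra.smul_def]
    rw [h2, map_zero, le_zero_iff, Valuation.zero_iff, mul_eq_zero] at h1
    rcases h1 with h1 | h1
    · by_contra hne
      rw [coeff_zero] at hne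
      have := val_aeval V.valuation hV hVt _ hne
      rw [h1, map_zero] at this
      exact pow_ne_zero _ (lt_trans zero_lt_one hVt).ne' this.symm
    · exact absurd h1 (pow_ne_zero _ hy0)
  · rw [coeff_zero]
    exact coeff_eq_zero_of_natDegree_lt (by omega)

variable (K) in
/-- `X ^ p - X - c t ^ m` is the minimal polynomial of `y` over `κ(t)`. -/
theorem minpoly_eq (hc : c ≠ 0) (hpm : p.Coprime m) (hm : 0 < m)
    (hAS : y ^ p - y = algebraMap κ[X] L (C c * X ^ m)) :
    minpoly K y = asPoly K p c m := by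
  symm
  apply minpoly.unique_of_degree_le_degree_minpoly K y asPoly_monic (aeval_asPoly hAS)
  have hint : IsIntegral K y := ⟨asPoly K p c m, asPoly_monic, aeval_asPoly hAS⟩
  rw [degree_eq_natDegree asPoly_monic.ne_zero, degree_eq_natDegree (minpoly.ne_zero hint),
    asPoly_natDegree]
  by_contra hlt
  push Not at hlt
  have hlt' : (minpoly K y).natDegree < p := by exact_mod_cast hlt
  set Q := IsLocalization.integerNormalization (nonZeroDivisors κ[X]) (minpoly K y) with hQ
  have hQ0 : aeval y Q = 0 :=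
    IsLocalization.integerNormalization_aeval_eq_zero _ _ (minpoly.aeval K y)
  have hQd : Q.natDegree < p := by
    refine lt_of_le_of_lt ?_ hlt'
    rw [natDegree_le_iff_coeff_eq_zero]
    intro N hN
    by_contra hne
    have := IsLocalization.integerNormalization_support (nonZeroDivisors κ[X]) (minpoly K y)
      (mem_support_iff.2 hne)
    exact (mem_support_iff.1 this) (coeff_eq_zero_of_natDegree_lt hN)
  have := no_relation hc hpm hm hAS (transcendental_X (K := K)) Q hQd hQ0
  exact minpoly.ne_zero hint (IsFractionRing.integerNormalization_eq_zero_iff.1 this)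

variable (K) in
theorem isIntegral_y (hAS : y ^ p - y = algebraMap κ[X] L (C c * X ^ m)) : IsIntegral K y :=
  ⟨asPoly K p c m, asPoly_monic, aeval_asPoly hAS⟩

variable (K) in
theorem finrank_adjoin (hc : c ≠ 0) (hpm : p.Coprime m) (hm : 0 < m)
    (hAS : y ^ p - y = algebraMap κ[X] L (C c * X ^ m)) :
    Module.finrank K (IntermediateField.adjoin K {y}) = p := by
  rw [IntermediateField.adjoin.finrank (isIntegral_y K hAS), minpoly_eq K hc hpm hm hAS,
    asPoly_natDegree]

omit hp [IsFractionRing κ[X] K] in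
variable (K) in
lemma derivative_asPoly : derivative (asPoly K p c m) = -1 := by
  have hcp : ((p : ℕ) : K) = 0 := by
    have h : algebraMap κ[X] K (C ((p : ℕ) : κ)) = 0 := by rw [CharP.cast_eq_zero, C_0, map_zero]
    rwa [map_natCast, map_natCast] at h
  rw [asPoly, derivative_sub, derivative_sub, derivative_X_pow, derivative_C, derivative_X, hcp,
    C_0, zero_mul, zero_sub, sub_zero]

omit hp [IsFractionRing κ[X] K] in
variable (K) in
lemma separable_asPoly : (asPoly K p c m).Separable := by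
  rw [Polynomial.Separable, derivative_asPoly]
  exact isCoprime_one_right.neg_right

omit [IsFractionRing κ[X] K] [CharP κ p] [IsScalarTower κ κ[X] L] in
variable (c m) in
lemma intPoly_monic : (X ^ p - (X + C (C c * X ^ m)) : κ[X][X]).Monic := by
  apply (monic_X_pow p).sub_of_left
  rw [degree_X_add_C, degree_X_pow]
  exact_mod_cast hp.out.one_lt

omit [IsFractionRing κ[X] K] [CharP κ p] [IsScalarTower κ κ[X] L] in
variable (c m) in
lemma intPoly_natDegree : (X ^ p - (X + C (C c * X ^ m)) : κ[X][X]).natDegree = p := by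
  rw [natDegree_sub_eq_left_of_natDegree_lt]
  · simp
  · rw [natDegree_X_add_C, natDegree_X_pow]; exact hp.out.one_lt

open IntermediateField in
/-- the elements of `κ(t)(y)` integral over `κ[t]` lie in `κ[t][y]` -/
theorem integral_mem_adjoin (hc : c ≠ 0) (hpm : p.Coprime m) (hm : 0 < m)
    (hAS : y ^ p - y = algebraMap κ[X] L (C c * X ^ m)) (z : K⟮y⟯) (hz : IsIntegral κ[X] z) :
    (z : L) ∈ Algebra.adjoin κ[X] ({y} : Set L) := by
  have hint := isIntegral_y K hAS
  have hmin := minpoly_eq K hc hpm hm hAS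
  have : FiniteDimensional K K⟮y⟯ := adjoin.finiteDimensional hint
  have : Algebra.IsSeparable K K⟮y⟯ := by
    rw [isSeparable_adjoin_simple_iff_isSeparable, IsSeparable, hmin]
    exact separable_asPoly K
  set pb := adjoin.powerBasis hint with hpb
  have hgen : ((pb.gen : K⟮y⟯) : L) = y := by rw [hpb, adjoin.powerBasis_gen]; rfl
  have hgi : IsIntegral κ[X] pb.gen := by
    refine ⟨X ^ p - (X + C (C c * X ^ m)), intPoly_monic c m, ?_⟩
    rw [eval₂_sub, eval₂_add, eval₂_X_pow, eval₂_X, eval₂_C]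
    apply Subtype.ext
    show (pb.gen : L) ^ p - ((pb.gen : L) + algebraMap κ[X] L (C c * X ^ m)) = 0
    rw [hgen, ← hAS]
    ring
  have h1 := Algebra.discr_mul_isIntegral_mem_adjoin (R := κ[X]) K (B := pb) hgi hz
  have hmg : minpoly K pb.gen = asPoly K p c m := by
    rw [hpb, adjoin.powerBasis_gen, minpoly_gen, hmin]
  rw [Algebra.discr_powerBasis_eq_norm, hmg, derivative_asPoly] at h1
  have h2 : Algebra.norm K (aeval pb.gen (-1 : K[X])) = (-1) ^ Module.finrank K K⟮y⟯ := by
    rw [← Algebra.norm_algebraMap]; simp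
  rw [h2, ← pow_add] at h1
  have h3 : z ∈ Algebra.adjoin κ[X] ({pb.gen} : Set K⟮y⟯) := by
    rcases neg_one_pow_eq_or K (Module.finrank K K⟮y⟯ *
      (Module.finrank K K⟮y⟯ - 1) / 2 + Module.finrank K K⟮y⟯) with h | h
    · rw [h, one_smul] at h1; exact h1
    · rw [h, neg_smul, one_smul] at h1
      simpa using neg_mem h1
  have h4 : (z : L) ∈ (Algebra.adjoin κ[X] ({pb.gen} : Set K⟮y⟯)).map
      ((IntermediateField.val K⟮y⟯).restrictScalars κ[X]) := ⟨z, h3, rfl⟩
  rw [← Algebra.adjoin_image, Set.image_singleton] at h4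
  have h5 : ((IntermediateField.val K⟮y⟯).restrictScalars κ[X]) pb.gen = y := hgen
  rw [h5] at h4
  exact h4

/-- the elements of `κ(t)(y)` integral over `κ[t]` are `∑_{j < p} a_j(t) y ^ j` -/
theorem exists_expansion (hAS : y ^ p - y = algebraMap κ[X] L (C c * X ^ m)) (z : L)
    (hz : z ∈ Algebra.adjoin κ[X] ({y} : Set L)) :
    ∃ a : ℕ → κ[X], z = ∑ j ∈ Finset.range p, aeval (algebraMap κ[X] L X) (a j) * y ^ j := by
  rw [Algebra.adjoin_singleton_eq_range_aeval] at hz
  obtain ⟨Q, rfl⟩ := hz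
  set F : κ[X][X] := X ^ p - (X + C (C c * X ^ m)) with hF
  have hFm : F.Monic := intPoly_monic c m
  have hF0 : aeval y F = 0 := by
    rw [hF, map_sub, map_add, map_pow, aeval_X, aeval_C, ← hAS]; ring
  refine ⟨fun j => (Q %ₘ F).coeff j, ?_⟩
  have h1 : aeval y Q = aeval y (Q %ₘ F) := by
    conv_lhs => rw [← modByMonic_add_div Q F]
    rw [map_add, map_mul, hF0, zero_mul, add_zero]
  have h2 : (Q %ₘ F).natDegree < p := by
    have := natDegree_modByMonic_lt Q hFm (by
      intro h
      have := congrArg natDegree h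
      rw [hF, intPoly_natDegree, natDegree_one] at this
      exact hp.out.ne_zero this)
    rwa [hF, intPoly_natDegree, ← hF] at this
  show aeval y Q = _
  rw [h1, aeval_eq_sum_range' h2]
  refine Finset.sum_congr rfl fun j _ => ?_
  rw [aeval_algebraMap_X, Algebra.smul_def]

open IntermediateField in
variable (K) in
/-- `y` is not an `l`-th power in `κ(t)(y)`, `l > 1`, not even up to a constant. -/
theorem not_pow_adjoin (hc : c ≠ 0) (hpm : p.Coprime m) (hm : 0 < m)
    (hAS : y ^ p - y = algebraMap κ[X] L (C c * X ^ m)) (l : ℕ) (hl : 1 < l)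
    (e : κ) (he : e ≠ 0) (z : K⟮y⟯) : (z : L) ^ l ≠ algebraMap κ L e * y := by
  intro hzl
  have hyi : IsIntegral κ[X] y := by
    refine ⟨X ^ p - (X + C (C c * X ^ m)), intPoly_monic c m, ?_⟩
    rw [eval₂_sub, eval₂_add, eval₂_X_pow, eval₂_X, eval₂_C, ← hAS]
    ring
  have hei : IsIntegral κ[X] (algebraMap κ L e) := by
    rw [IsScalarTower.algebraMap_apply κ κ[X] L]; exact isIntegral_algebraMap
  have hzi : IsIntegral κ[X] z := by
    have h1 : IsIntegral κ[X] (z : L) := by
      apply IsIntegral.of_pow (n := l) (by omega)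
      rw [hzl]; exact hei.mul hyi
    exact (isIntegral_algHom_iff ((IntermediateField.val K⟮y⟯).restrictScalars κ[X])
      Subtype.val_injective).1 h1
  obtain ⟨a, ha⟩ := exists_expansion hAS _ (integral_mem_adjoin hc hpm hm hAS z hzi)
  have htr : Transcendental κ (algebraMap κ[X] L X) := transcendental_X (L := L) (K := K)
  obtain ⟨V, hV, hVt⟩ := exists_infty htr
  have hAS' : y ^ p - y = algebraMap κ L c * (algebraMap κ[X] L X) ^ m := by
    rw [hAS, map_mul, map_pow, IsScalarTower.algebraMap_apply κ κ[X] L]; rfl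
  obtain ⟨hy1, hyp, hle⟩ := term_le hc hpm hAS' V.valuation hV hp.out.one_lt hm hVt
  have hzl' : V.valuation (z : L) ^ l = V.valuation y := by
    rw [← map_pow, hzl, map_mul, hV e he, one_mul]
  have hvz : V.valuation (z : L) < V.valuation y := by
    rw [← hzl']
    have h1 : 1 < V.valuation (z : L) := by
      by_contra h
      push Not at h
      rw [← hzl'] at hy1
      exact absurd hy1 (not_lt.2 (pow_le_one₀ zero_le h))
    calc V.valuation (z : L) = V.valuation (z : L) ^ 1 := (pow_one _).symm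
      _ < _ := pow_lt_pow_right₀ h1 hl
  have ha0 : ∀ j ∈ Finset.range p, j ≠ 0 → a j = 0 := by
    intro j hj hj0
    by_contra hne
    have h1 := hle a j hj
    rw [← ha, map_mul, val_aeval V.valuation hV hVt _ hne, map_pow] at h1
    have h2 : V.valuation y ≤ V.valuation (algebraMap κ[X] L X) ^ (a j).natDegree *
        V.valuation y ^ j := by
      calc V.valuation y = 1 * V.valuation y ^ 1 := by rw [one_mul, pow_one]
        _ ≤ _ := mul_le_mul' (one_le_pow₀ hVt.le) (pow_le_pow_right₀ hy1.le (by omega))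
    exact absurd hvz (not_lt.2 (h2.trans h1))
  have hz0 : (z : L) = aeval (algebraMap κ[X] L X) (a 0) := by
    rw [ha, Finset.sum_eq_single 0]
    · rw [pow_zero, mul_one]
    · intro j hj hj0
      rw [ha0 j hj hj0, map_zero, zero_mul]
    · intro h0
      exact absurd (Finset.mem_range.2 hp.out.pos) h0
  -- now `e y = a_0(t) ^ l` is in `κ[t]`
  have hQ := no_relation hc hpm hm hAS htr
    (X - C (C e⁻¹ * a 0 ^ l)) (by rw [natDegree_X_sub_C]; exact hp.out.one_lt) (by
      have h1 : algebraMap κ[X] L (C e⁻¹) = (algebraMap κ L e)⁻¹ := by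
        rw [← map_inv₀, IsScalarTower.algebraMap_apply κ κ[X] L]; rfl
      rw [map_sub, aeval_X, aeval_C, map_mul, map_pow, ← aeval_algebraMap_X (L := L) (a 0),
        ← hz0, hzl, h1, inv_mul_cancel_left₀ (by simpa using he), sub_self])
  exact X_sub_C_ne_zero _ hQ

open IntermediateField in
variable (K) in
/-- **`y` is not an `l`-th power**, up to a constant, in any finite extension of `κ(t)` of degree
prime to `l > 1`. -/
theorem not_pow_const (hc : c ≠ 0) (hpm : p.Coprime m) (hm : 0 < m)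
    (hAS : y ^ p - y = algebraMap κ[X] L (C c * X ^ m)) (l : ℕ) (hl : 1 < l)
    [FiniteDimensional K L] (hd : (Module.finrank K L).Coprime l)
    (e : κ) (he : e ≠ 0) (z : L) : z ^ l ≠ algebraMap κ L e * y := by
  intro hzl
  have hy0 : y ≠ 0 := by
    rintro rfl
    have h1 : algebraMap κ[X] L (C c * X ^ m) = 0 := by
      rw [← hAS, zero_pow hp.out.ne_zero, sub_zero]
    rw [IsScalarTower.algebraMap_apply κ[X] K L] at h1
    have h2 := (algebraMap K L).injective (h1.trans (map_zero _).symm)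
    have h3 := (IsFractionRing.injective κ[X] K) (h2.trans (map_zero _).symm)
    rcases mul_eq_zero.1 h3 with h | h
    · exact hc (C_eq_zero.1 h)
    · exact pow_ne_zero m X_ne_zero h
  have hmem : algebraMap κ L e * y ∈ K⟮y⟯ := by
    refine mul_mem ?_ (mem_adjoin_simple_self K y)
    rw [IsScalarTower.algebraMap_apply κ κ[X] L, IsScalarTower.algebraMap_apply κ[X] K L]
    exact K⟮y⟯.algebraMap_mem _
  set w : K⟮y⟯ := ⟨_, hmem⟩ with hw
  have hw0 : w ≠ 0 := by
    intro h
    have := congrArg Subtype.val h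
    exact mul_ne_zero (by simpa using he) hy0 this
  set d := Module.finrank K⟮y⟯ L with hdd
  have hdl : d.Coprime l := by
    refine Nat.Coprime.coprime_dvd_left ?_ hd
    exact ⟨Module.finrank K K⟮y⟯, by rw [hdd, mul_comm, Module.finrank_mul_finrank]⟩
  set n := Algebra.norm K⟮y⟯ z with hn
  have h1 : n ^ l = w ^ d := by
    rw [hn, ← map_pow, hzl, hdd, ← Algebra.norm_algebraMap]
    rfl
  have hn0 : n ≠ 0 := by
    intro h
    rw [h, zero_pow (by omega)] at h1
    exact pow_ne_zero _ hw0 h1.symm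
  have hbez : (d : ℤ) * Int.gcdA d l + l * Int.gcdB d l = 1 := by
    have := Nat.gcd_eq_gcd_ab d l
    rw [hdl.gcd_eq_one] at this
    exact_mod_cast this.symm
  have h2 : n ^ (l : ℤ) = w ^ (d : ℤ) := by simpa using h1
  apply not_pow_adjoin K hc hpm hm hAS l hl e he (n ^ Int.gcdA d l * w ^ Int.gcdB d l)
  have h3 : (n ^ Int.gcdA d l * w ^ Int.gcdB d l) ^ l = w := by
    rw [mul_pow, ← zpow_natCast, ← zpow_natCast, ← zpow_mul, ← zpow_mul, mul_comm _ (l : ℤ),
      mul_comm _ (l : ℤ), zpow_mul n, h2, ← zpow_mul, ← zpow_add₀ hw0, hbez, zpow_one]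
  have h4 := congrArg Subtype.val h3
  rw [hw] at h4
  exact h4

open IntermediateField in
variable (K) in
/-- **`y` is not an `l`-th power** in any finite extension of `κ(t)` of degree prime to `l > 1`. -/
theorem not_pow (hc : c ≠ 0) (hpm : p.Coprime m) (hm : 0 < m)
    (hAS : y ^ p - y = algebraMap κ[X] L (C c * X ^ m)) (l : ℕ) (hl : 1 < l)
    [FiniteDimensional K L] (hd : (Module.finrank K L).Coprime l) (z : L) : z ^ l ≠ y := by
  have := not_pow_const K hc hpm hm hAS l hl hd 1 one_ne_zero z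
  rwa [map_one, one_mul] at this

end Core

/-! ### the same for an arbitrary transcendental `t` in `L` -/

section Trans

variable {p : ℕ} [hp : Fact p.Prime] [CharP κ p] {c : κ} {m : ℕ} {t y : L}

open IntermediateField in
/-- **`y` is not an `l`-th power**, up to a constant: `t ∈ L` transcendental over `κ`,
`y ^ p - y = c t ^ m`, `p ∤ m`, `[L : κ(t)]` finite and prime to `l > 1`. -/
theorem not_pow_const' (ht : Transcendental κ t) (hc : c ≠ 0) (hpm : p.Coprime m) (hm : 0 < m)
    (hAS : y ^ p - y = algebraMap κ L c * t ^ m) (l : ℕ) (hl : 1 < l)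
    [FiniteDimensional κ⟮t⟯ L] (hd : (Module.finrank κ⟮t⟯ L).Coprime l)
    (e : κ) (he : e ≠ 0) (z : L) : z ^ l ≠ algebraMap κ L e * y := by
  let a1 : Algebra κ[X] κ⟮t⟯ := (aeval (AdjoinSimple.gen κ t) : κ[X] →ₐ[κ] κ⟮t⟯).toRingHom.toAlgebra
  let a2 : Algebra κ[X] L := (aeval t : κ[X] →ₐ[κ] L).toRingHom.toAlgebra
  have m1 : ∀ P : κ[X], algebraMap κ[X] κ⟮t⟯ P = aeval (AdjoinSimple.gen κ t) P := fun _ => rfl
  have m2 : ∀ P : κ[X], algebraMap κ[X] L P = aeval t P := fun _ => rfl
  have m3 : ∀ P : κ[X], algebraMap κ⟮t⟯ L (algebraMap κ[X] κ⟮t⟯ P) = aeval t P := by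
    intro P
    rw [m1, ← aeval_algebraMap_apply]; rfl
  have s1 : IsScalarTower κ[X] κ⟮t⟯ L := IsScalarTower.of_algebraMap_eq fun P => by rw [m3, m2]
  have s2 : IsScalarTower κ κ[X] L := IsScalarTower.of_algebraMap_eq fun a => by
    rw [m2]; exact (aeval_C t a).symm
  have inj : Function.Injective (algebraMap κ[X] κ⟮t⟯) := by
    rw [injective_iff_map_eq_zero]
    intro P hP
    have h1 : aeval t P = 0 := by rw [← m3, hP, map_zero]
    exact (transcendental_iff.1 ht) P h1
  have f1 : FaithfulSMul κ[X] κ⟮t⟯ := (faithfulSMul_iff_algebraMap_injective _ _).2 inj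
  have s3 : IsFractionRing κ[X] κ⟮t⟯ := by
    apply IsFractionRing.of_field
    intro z
    obtain ⟨r, s, hrs⟩ := (mem_adjoin_simple_iff κ (z : L)).1 z.2
    refine ⟨r, s, ?_⟩
    apply (algebraMap κ⟮t⟯ L).injective
    rw [map_div₀, m3, m3]
    exact hrs
  refine not_pow_const κ⟮t⟯ hc hpm hm ?_ l hl hd e he z
  rw [hAS, m2, map_mul, map_pow, aeval_X, aeval_C]

open IntermediateField in
/-- `e = 1` -/
theorem not_pow' (ht : Transcendental κ t) (hc : c ≠ 0) (hpm : p.Coprime m) (hm : 0 < m)
    (hAS : y ^ p - y = algebraMap κ L c * t ^ m) (l : ℕ) (hl : 1 < l)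
    [FiniteDimensional κ⟮t⟯ L] (hd : (Module.finrank κ⟮t⟯ L).Coprime l) (z : L) : z ^ l ≠ y := by
  have := not_pow_const' ht hc hpm hm hAS l hl hd 1 one_ne_zero z
  rwa [map_one, one_mul] at this

end Trans

end Crest.Agent.R013.ASL_930
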