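import Mathlib

/-!
# R013 / AVal (helper168): values at the rank two rings under a vertex

`A ≤ O_w` valuation subrings of `K`.  Elements congruent modulo `m_w` have the same `A`-values, and an
Artin-Schreier function modulo `m_w` has an `m`-th power as `A`-value.
-/

set_option autoImplicit false

namespace Crest.Agent.R013.AVal_168

variable {K : Type*} [Field K] {Γ : Type*} [LinearOrderedCommGroupWithZero Γ] {w : Valuation K Γ}
  {A : ValuationSubring K}

theorem lt_one (hA : A ≤ w.valuationSubring) {x : K} (hx : w x < 1) : A.valuation x < 1 := by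
  by_contra hcon
  push Not at hcon
  have hx0 : x ≠ 0 := by
    rintro rfl
    rw [map_zero] at hcon
    exact absurd hcon (not_le.2 zero_lt_one)
  have h1 : x⁻¹ ∈ A := by
    rw [← A.valuation_le_one_iff, map_inv₀]
    exact inv_le_one_of_one_le₀ hcon
  have h2 : w x⁻¹ ≤ 1 := hA h1
  rw [map_inv₀] at h2
  have h3 : w x ≠ 0 := (Valuation.ne_zero_iff _).2 hx0
  have h4 : 1 ≤ w x := by
    have := (inv_le_one₀ (zero_lt_iff.2 h3)).1 h2
    exact this
  exact absurd hx (not_lt.2 h4)

/-- elements congruent modulo `m_w`, of `w`-value one, have the same `A`-value -/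
theorem val_eq (hA : A ≤ w.valuationSubring) {x y : K} (hy : w y = 1) (hxy : w (x - y) < 1) :
    A.valuation x = A.valuation y := by
  have hy0 : y ≠ 0 := by
    rintro rfl
    rw [map_zero] at hy
    exact zero_ne_one hy
  have h1 : A.valuation ((x - y) / y) < 1 := by
    refine lt_one hA ?_
    rw [map_div₀, hy, div_one]
    exact hxy
  rw [map_div₀, div_lt_one₀ (zero_lt_iff.2 ((Valuation.ne_zero_iff _).2 hy0))] at h1
  have h2 : x = y + (x - y) := by ring
  rw [h2]
  exact Valuation.map_add_eq_of_lt_left _ h1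

/-- elements congruent modulo `m_w`, of `w`-value one: the quotient is a `1`-unit at `A` -/
theorem div_sub_one_lt (hA : A ≤ w.valuationSubring) {x y : K} (hy : w y = 1)
    (hxy : w (x - y) < 1) : A.valuation (x / y - 1) < 1 := by
  have hy0 : y ≠ 0 := by
    rintro rfl
    rw [map_zero] at hy
    exact zero_ne_one hy
  refine lt_one hA ?_
  rw [div_sub_one hy0, map_div₀, hy, div_one]
  exact hxy

/-- an Artin-Schreier function is a unit -/
theorem as_val_eq_one {p : ℕ} (hp : 1 < p) {y b : K} (hb : w b = 1) (hy : w (y ^ p - y - b) < 1) :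
    w y = 1 := by
  have h1 : w (y ^ p - y) = 1 := by
    have h2 : y ^ p - y = b + (y ^ p - y - b) := by ring
    rw [h2, Valuation.map_add_eq_of_lt_left _ (by rw [hb]; exact hy), hb]
  rcases lt_trichotomy (w y) 1 with h | h | h
  · exfalso
    have h2 : w (y ^ p - y) < 1 := by
      refine Valuation.map_sub_lt _ ?_ h
      rw [map_pow]
      exact pow_lt_one₀ zero_le h (by omega)
    exact h2.ne h1
  · exact h
  · exfalso
    have h3 : w y < w (y ^ p) := by
      rw [map_pow]
      calc w y = w y ^ 1 := (pow_one _).symm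
        _ < w y ^ p := pow_lt_pow_right₀ h hp
    rw [Valuation.map_sub_eq_of_lt_left w h3, map_pow] at h1
    exact (one_lt_pow₀ h (by omega)).ne' h1

/-- **the `A`-value of an Artin-Schreier function is an `m`-th power** -/
theorem exists_val_eq_pow {p m : ℕ} (hp : 1 < p) (hpm : p.Coprime m) (hA : A ≤ w.valuationSubring)
    {y a t : K} (ha : w a = 1) (haA : A.valuation a = 1) (ht : w t = 1)
    (hy : w (y ^ p - y - a * t ^ m) < 1) :
    ∃ g : K, g ≠ 0 ∧ A.valuation y = A.valuation g ^ m := by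
  have hb : w (a * t ^ m) = 1 := by rw [map_mul, map_pow, ha, ht, one_pow, one_mul]
  have ht0 : t ≠ 0 := by
    rintro rfl
    rw [map_zero] at ht
    exact zero_ne_one ht
  have hwy := as_val_eq_one hp hb hy
  have hy0 : y ≠ 0 := by
    rintro rfl
    rw [map_zero] at hwy
    exact zero_ne_one hwy
  set v := A.valuation with hv
  have hvt : v (y ^ p - y) = v t ^ m := by
    rw [val_eq hA hb hy, map_mul, haA, one_mul, map_pow]
  have hvy : v y ≠ 0 := (Valuation.ne_zero_iff v).2 hy0
  rcases lt_trichotomy (v y) 1 with h | h | h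
  · have hlt : v (y ^ p) < v y := by
      rw [map_pow]
      calc v y ^ p < v y ^ 1 := pow_lt_pow_right_of_lt_one₀ (zero_lt_iff.2 hvy) h hp
        _ = v y := pow_one _
    refine ⟨t, ht0, ?_⟩
    rw [← hvt, Valuation.map_sub_eq_of_lt_right v hlt]
  · exact ⟨1, one_ne_zero, by simp [h]⟩
  · have hlt : v y < v (y ^ p) := by
      rw [map_pow]
      calc v y = v y ^ 1 := (pow_one _).symm
        _ < v y ^ p := pow_lt_pow_right₀ h hp
    have h1 : v y ^ p = v t ^ m := by
      rw [← hvt, Valuation.map_sub_eq_of_lt_left v hlt, map_pow]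
    have hbez : (p : ℤ) * Int.gcdA p m + m * Int.gcdB p m = 1 := by
      have := Nat.gcd_eq_gcd_ab p m
      rw [hpm.gcd_eq_one] at this
      exact_mod_cast this.symm
    refine ⟨t ^ Int.gcdA p m * y ^ Int.gcdB p m,
      mul_ne_zero (zpow_ne_zero _ ht0) (zpow_ne_zero _ hy0), ?_⟩
    have h2 : v y ^ (p : ℤ) = v t ^ (m : ℤ) := by simpa using h1
    rw [map_mul, map_zpow₀, map_zpow₀, mul_pow, ← zpow_natCast, ← zpow_natCast, ← zpow_mul,
      ← zpow_mul]
    calc v y = v y ^ (1 : ℤ) := (zpow_one _).symm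
      _ = v y ^ ((p : ℤ) * Int.gcdA p m + m * Int.gcdB p m) := by rw [hbez]
      _ = (v y ^ (p : ℤ)) ^ (Int.gcdA p m) * v y ^ ((m : ℤ) * Int.gcdB p m) := by
          rw [zpow_add₀ hvy, zpow_mul]
      _ = _ := by rw [h2, ← zpow_mul, mul_comm (m : ℤ) (Int.gcdA p m),
            mul_comm (m : ℤ) (Int.gcdB p m)]

/-- the input of the patching lemma at the rank two rings below the vertex -/
theorem exists_unit_mul_pow {p m l : ℕ} (hp : 1 < p) (hpm : p.Coprime m) (hlm : l ∣ m)
    (hA : A ≤ w.valuationSubring) {y a t h : K} (ha : w a = 1) (haA : A.valuation a = 1)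
    (ht : w t = 1) (hy : w (y ^ p - y - a * t ^ m) < 1) (hh : w (h - y) < 1) :
    ∃ g : K, g ≠ 0 ∧ A.valuation (h * g ^ l) = 1 := by
  obtain ⟨g, hg, hgy⟩ := exists_val_eq_pow hp hpm hA ha haA ht hy
  have hb : w (a * t ^ m) = 1 := by rw [map_mul, map_pow, ha, ht, one_pow, one_mul]
  obtain ⟨r, rfl⟩ := hlm
  have hg0 : A.valuation g ≠ 0 := (Valuation.ne_zero_iff _).2 hg
  refine ⟨(g ^ r)⁻¹, inv_ne_zero (pow_ne_zero _ hg), ?_⟩
  rw [map_mul, val_eq hA (as_val_eq_one hp hb hy) hh, hgy, map_pow, map_inv₀, map_pow, inv_pow,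
    ← pow_mul, mul_comm r l]
  exact mul_inv_cancel₀ (pow_ne_zero _ hg0)

end Crest.Agent.R013.AVal_168
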