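import Crest.Agent.R013.EE4_809
import Crest.Agent.R013.Cell4_408

/-!
# Row 13, leaf SS-ANW (helper201): Weierstrass theory on open annuli, part 1

The factorisation at the outer boundary: every `a ≠ 0` in 809's `EE k C` is
`a = A T^N V (1 + y)`, `V` a unit power series (408's `IsU`), `y` a series in `T⁻¹` without constant
term with coefficients `≤ θ < 1` (`exists_outer`).
-/

set_option autoImplicit false
set_option linter.unusedSectionVars false
set_option linter.style.haveILetI false

noncomputable section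

open Filter Topology
open Crest.Agent.R013.Cell_408 Crest.Agent.R013.EE809

namespace Crest.Agent.R013.AnW_201

variable {k C : Type*} [NontriviallyNormedField k] [NormedField C]
  [IsUltrametricDist C] [NormedAlgebra k C]

section neg

/-- the negative part -/
def mn (f : EE k C) : EE k C := mk' (fun n => if n < 0 then f.co n else 0)
  (by
    obtain ⟨L, hL, h⟩ := f.fd
    refine ⟨L, hL, fun n => ?_⟩
    dsimp only
    split_ifs
    · exact h n
    · exact zero_mem _)
  (by
    obtain ⟨M, hM⟩ := f.bd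
    refine ⟨M, fun n => ?_⟩
    split_ifs
    · exact hM n
    · rw [norm_zero]; exact (norm_nonneg _).trans (hM 0))
  (by
    refine f.lim.congr' ?_
    filter_upwards [eventually_lt_atBot 0] with n hn
    rw [if_pos hn])

theorem co_mn (f : EE k C) (n : ℤ) : (mn f).co n = if n < 0 then f.co n else 0 := rfl

theorem mn_sub (f g : EE k C) : mn (f - g) = mn f - mn g := by
  ext n
  rw [co_sub, co_mn, co_mn, co_mn]
  split_ifs
  · rw [co_sub]
  · rw [sub_zero]

end neg

variable [CompleteSpace k]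

theorem gn_mn_le (f : EE k C) : gn (mn f) ≤ gn f := by
  refine gn_le fun n => ?_
  rw [co_mn]
  split_ifs
  · exact le_gn f n
  · rw [norm_zero]; exact gn_nonneg f

theorem InL.mn {L : IntermediateField k C} {f : EE k C} (hf : InL L f) : InL L (mn f) := fun n => by
  rw [co_mn]
  split_ifs
  · exact hf n
  · exact zero_mem _

/-! ### the linear fixed point -/

section fix

variable (h : EE k C)

/-- iteration -/
def W : ℕ → EE k C
  | 0 => 0
  | j + 1 => -mn (h + h * W j)

theorem W_zero : W h 0 = 0 := rfl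
theorem W_succ (j : ℕ) : W h (j + 1) = -mn (h + h * W h j) := rfl

theorem W_diff (j : ℕ) : W h (j + 2) - W h (j + 1) = -mn (h * (W h (j + 1) - W h j)) := by
  rw [W_succ h (j + 1), W_succ h j, neg_sub_neg, ← mn_sub]
  have : h + h * W h j - (h + h * -mn (h + h * W h j)) = -(h * (W h (j + 1) - W h j)) := by
    rw [W_succ]; ring
  rw [this]
  ext n
  rw [co_mn, co_neg, co_neg, co_mn]
  split_ifs
  · rfl
  · rw [neg_zero]

variable {h} {θ : ℝ}

theorem W_bd (hθ0 : 0 ≤ θ) (hh : gn h ≤ θ) : ∀ j, gn (W h (j + 1) - W h j) ≤ θ ^ (j + 1)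
  | 0 => by
    rw [W_succ, W_zero, mul_zero, add_zero, sub_zero, gn_neg, zero_add, pow_one]
    exact (gn_mn_le h).trans hh
  | j + 1 => by
    rw [W_diff, pow_succ' θ (j + 1), gn_neg]
    refine (gn_mn_le _).trans ((gn_mul_le _ _).trans ?_)
    exact mul_le_mul hh (W_bd hθ0 hh j) (gn_nonneg _) hθ0

theorem W_L {L : IntermediateField k C} [FiniteDimensional k L] (hL : InL L h) : ∀ j, InL L (W h j)
  | 0 => fun _ => zero_mem _
  | j + 1 => by
    rw [W_succ]
    exact (InL.mn (hL.add (hL.mul (W_L hL j)))).neg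

theorem W_sub_le (hθ0 : 0 ≤ θ) (hθ1 : θ < 1) (hh : gn h ≤ θ) (J j : ℕ) (hj : J ≤ j) :
    gn (W h j - W h J) ≤ θ ^ (J + 1) := by
  induction j, hj using Nat.le_induction with
  | base => rw [sub_self, gn_zero]; positivity
  | succ j hj ih =>
    have e : W h (j + 1) - W h J = (W h (j + 1) - W h j) + (W h j - W h J) := by ring
    rw [e]
    refine (gn_add_le _ _).trans (max_le ?_ ih)
    exact (W_bd hθ0 hh j).trans (pow_le_pow_of_le_one hθ0 hθ1.le (by omega))

theorem W_co_nonneg (j : ℕ) {n : ℤ} (hn : 0 ≤ n) : (W h j).co n = 0 := by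
  cases j with
  | zero => rfl
  | succ j => rw [W_succ, co_neg, co_mn, if_neg (not_lt.2 hn), neg_zero]

/-- **the linear fixed point** -/
theorem exists_fix (hh : gn h < 1) :
    ∃ w : EE k C, (∀ n, 0 ≤ n → w.co n = 0) ∧ gn w ≤ gn h ∧ ∀ n < 0, ((1 + h) * (1 + w)).co n = 0 := by
  set θ := gn h with hθ
  have hθ0 : 0 ≤ θ := gn_nonneg h
  obtain ⟨L, hL, hmem⟩ := h.exists_inL
  have hpow : Tendsto (fun j : ℕ => θ ^ (j + 1)) atTop (𝓝 0) :=
    (tendsto_pow_atTop_nhds_zero_of_lt_one hθ0 hh).comp (tendsto_add_atTop_nat 1)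
  obtain ⟨w, -, hw⟩ := complete_of L (W h) (W_L hmem) (fun j => θ ^ (j + 1)) hpow
    (fun m n hmn => W_sub_le hθ0 hh le_rfl m n hmn)
  have hco : ∀ n, 0 ≤ n → w.co n = 0 := by
    intro n hn
    have h1 : ∀ j, ‖w.co n‖ ≤ θ ^ (j + 1) := by
      intro j
      have h2 := (le_gn (w - W h j) n).trans (hw j)
      rwa [co_sub, W_co_nonneg j hn, sub_zero] at h2
    exact norm_le_zero_iff.1 (ge_of_tendsto' hpow h1)
  refine ⟨w, hco, ?_, fun n hn => ?_⟩
  · have := hw 0
    rwa [W_zero, sub_zero, zero_add, pow_one] at this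
  · have key : ∀ J, ‖((1 + h) * (1 + w)).co n‖ ≤ θ ^ (J + 1) := by
      intro J
      have e1 : (1 + h) * (1 + w) = 1 + (h + h * W h J) + W h (J + 1) + (w - W h (J + 1)) +
          h * (w - W h J) := by ring
      rw [e1]
      have e2 : (1 + (h + h * W h J) + W h (J + 1) + (w - W h (J + 1)) +
          h * (w - W h J)).co n = (w - W h (J + 1)).co n + (h * (w - W h J)).co n := by
        rw [co_add, co_add, co_add, co_add, co_one, if_neg hn.ne, W_succ, co_neg, co_mn, if_pos hn]
        ring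
      rw [e2]
      refine (IsUltrametricDist.norm_add_le_max _ _).trans (max_le ?_ ?_)
      · exact (le_gn _ n).trans ((hw (J + 1)).trans (pow_le_pow_of_le_one hθ0 hh.le (by omega)))
      · refine (le_gn _ n).trans ((gn_mul_le _ _).trans ?_)
        calc gn h * gn (w - W h J) ≤ 1 * θ ^ (J + 1) :=
              mul_le_mul hh.le (hw J) (gn_nonneg _) zero_le_one
          _ = _ := one_mul _
    have h0 : ‖((1 + h) * (1 + w)).co n‖ ≤ 0 := ge_of_tendsto' hpow key
    exact norm_le_zero_iff.1 h0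

/-- elements of `1 + E⁻` near `1` are invertible in `1 + E⁻` -/
theorem exists_inv_neg {w : EE k C} (hw : gn w < 1) (hw0 : ∀ n, 0 ≤ n → w.co n = 0) :
    ∃ y : EE k C, (∀ n, 0 ≤ n → y.co n = 0) ∧ gn y ≤ gn w ∧ (1 + w) * (1 + y) = 1 := by
  obtain ⟨y, h1, h2, h3⟩ := exists_fix hw
  refine ⟨y, h1, h2, ?_⟩
  ext n
  rcases lt_or_ge n 0 with hn | hn
  · rw [h3 n hn, co_one, if_neg hn.ne]
  · have e : (1 + w) * (1 + y) = 1 + w + y + w * y := by ring
    rw [e, co_add, co_add, co_add, hw0 n hn, h1 n hn, add_zero, add_zero]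
    have : (w * y).co n = 0 := by
      rw [co_mul]
      refine (tsum_congr fun i => ?_).trans tsum_zero
      rcases lt_or_ge i 0 with hi | hi
      · rw [h1 (n - i) (by omega), mul_zero]
      · rw [hw0 i hi, zero_mul]
    rw [this, add_zero]

end fix

/-! ### the factorisation at the outer boundary -/

section outer

variable [IsUltrametricDist k] [Algebra.IsAlgebraic k C] [IsAlgClosed C]

/-- a normalised unit as an element of `BD` -/
def bd {u : PowerSeries C} (hu : IsU k u) : BD k C := ⟨u, hu.mem⟩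

theorem gn_bd_le {u : PowerSeries C} (hu : IsU k u) : gn (ofBD (bd hu)) ≤ 1 :=
  bdd_one_iff.1 (Bdd.ofBD one_pos le_rfl zero_le_one _ hu.le)

theorem bd_mul_inv {u v : PowerSeries C} (hu : IsU k u) (hv : IsU k v) (h : u * v = 1) :
    ofBD (bd hu) * ofBD (bd hv) = (1 : EE k C) := by
  rw [← map_mul]
  have : bd hu * bd hv = (1 : BD k C) := Subtype.ext h
  rw [this, map_one]

theorem exists_outer (hk : DiscNorm k) {a : EE k C} (ha : a ≠ 0) :
    ∃ (V : PowerSeries C) (hV : IsU k V) (y : EE k C), (∀ n, 0 ≤ n → y.co n = 0) ∧ gn y < 1 ∧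
      a = mo (od a) (a.co (od a)) * ofBD (bd hV) * (1 + y) := by
  set u := nrm a with hu
  -- the nonnegative part of `u`
  have hP : IsU k (EE809.posPart u).1 := by
    refine ⟨(EE809.posPart u).2.1, fun n => ?_, ?_⟩
    · rw [coeff_posPart]; exact nrm_le hk ha _
    · rw [coeff_posPart, Nat.cast_zero, hu, nrm_zero_coeff hk ha, norm_one]
  obtain ⟨P', hP', hPP⟩ := hP.inv
  have hbP : (bd hP : BD k C) = EE809.posPart u := rfl
  set δ := u - ofBD (EE809.posPart u) with hδ
  have hδ1 : gn δ < 1 := gn_sub_posPart_lt one_pos fun n hn => nrm_lt hk ha hn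
  set h := δ * ofBD (bd hP') with hh
  have hh1 : gn h < 1 := by
    refine lt_of_le_of_lt (gn_mul_le _ _) ?_
    calc gn δ * gn (ofBD (bd hP')) ≤ gn δ * 1 :=
          mul_le_mul_of_nonneg_left (gn_bd_le hP') (gn_nonneg _)
      _ < 1 := by rw [mul_one]; exact hδ1
  have hPinv : ofBD (EE809.posPart u) * ofBD (bd hP') = (1 : EE k C) := bd_mul_inv hP hP' hPP
  have hu1 : u = ofBD (EE809.posPart u) * (1 + h) := by
    have e : u = ofBD (EE809.posPart u) + δ := by rw [hδ]; ring
    rw [mul_add, mul_one, hh]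
    have e2 : ofBD (EE809.posPart u) * (δ * ofBD (bd hP')) = δ := by
      calc ofBD (EE809.posPart u) * (δ * ofBD (bd hP')) =
            δ * (ofBD (EE809.posPart u) * ofBD (bd hP')) := by ring
        _ = δ := by rw [hPinv, mul_one]
    rw [e2]; exact e
  obtain ⟨w, hw0, hw1, hw2⟩ := exists_fix hh1
  have hw1' : gn w < 1 := hw1.trans_lt hh1
  obtain ⟨y, hy0, hy1, hwy⟩ := exists_inv_neg hw1' hw0
  -- `(1 + h) (1 + w)` is a power series
  set q := (1 + h) * (1 + w) with hq
  have hqP : ofBD (EE809.posPart q) = q := by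
    ext n
    rw [co_ofBD_posPart]
    split_ifs with hn
    · rfl
    · exact (hw2 n (by omega)).symm
  have hq1 : gn (q - 1) < 1 := by
    have e : q - 1 = h + w + h * w := by rw [hq]; ring
    rw [e]
    refine (gn_add_le _ _).trans_lt (max_lt ((gn_add_le _ _).trans_lt (max_lt hh1 hw1')) ?_)
    refine (gn_mul_le _ _).trans_lt ?_
    calc gn h * gn w ≤ 1 * gn w := mul_le_mul_of_nonneg_right hh1.le (gn_nonneg _)
      _ < 1 := by rw [one_mul]; exact hw1'
  have hQ : IsU k (EE809.posPart q).1 := by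
    refine ⟨(EE809.posPart q).2.1, fun n => ?_, ?_⟩
    · rw [coeff_posPart]
      have e : q.co n = (q - 1).co n + (1 : EE k C).co n := by rw [co_sub]; ring
      rw [e]
      refine (IsUltrametricDist.norm_add_le_max _ _).trans (max_le ?_ ?_)
      · exact (le_gn _ _).trans hq1.le
      · exact (le_gn _ _).trans (by rw [gn_one])
    · rw [coeff_posPart]
      have e : q.co 0 = 1 + (q - 1).co 0 := by rw [co_sub, co_one, if_pos rfl]; ring
      have h3 : ‖(q - 1).co 0‖ < ‖(1 : C)‖ := by
        rw [norm_one]; exact (le_gn _ _).trans_lt hq1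
      show ‖q.co 0‖ = 1
      rw [e, IsUltrametricDist.norm_add_eq_max_of_norm_ne_norm h3.ne', max_eq_left h3.le, norm_one]
  -- conclusion
  have hmul : IsU k ((EE809.posPart u).1 * (EE809.posPart q).1) := by
    have hm : (EE809.posPart u * EE809.posPart q : BD k C).1 = (EE809.posPart u).1 * (EE809.posPart q).1 := rfl
    refine ⟨(EE809.posPart u * EE809.posPart q : BD k C).2.1, fun n => ?_, ?_⟩
    · rw [PowerSeries.coeff_mul]
      refine IsUltrametricDist.norm_sum_le_of_forall_le_of_nonneg zero_le_one fun p _ => ?_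
      rw [norm_mul]
      exact mul_le_one₀ (hP.le _) (norm_nonneg _) (hQ.le _)
    · rw [PowerSeries.coeff_zero_eq_constantCoeff_apply, map_mul, norm_mul,
        ← PowerSeries.coeff_zero_eq_constantCoeff_apply,
        ← PowerSeries.coeff_zero_eq_constantCoeff_apply, hP.zero, hQ.zero, one_mul]
  refine ⟨_, hmul, y, hy0, hy1.trans_lt hw1', ?_⟩
  have e1 : ofBD (bd hmul) = ofBD (EE809.posPart u) * ofBD (EE809.posPart q) := by
    rw [← map_mul]; rfl
  rw [e1, hqP]
  have e2 : q * (1 + y) = 1 + h := by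
    rw [hq, mul_assoc, hwy, mul_one]
  calc a = mo (od a) (a.co (od a)) * u := (mo_mul_nrm hk ha).symm
    _ = mo (od a) (a.co (od a)) * (ofBD (EE809.posPart u) * (1 + h)) := by rw [← hu1]
    _ = mo (od a) (a.co (od a)) * (ofBD (EE809.posPart u) * q) * (1 + y) := by
        rw [← e2]; ring

end outer

end Crest.Agent.R013.AnW_201
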