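import Crest.Agent.R013.AnW3_201

/-!
# Row 13, leaf SS-ANW (helper201): Weierstrass theory on open annuli, part 4

`Fac c a` : the data of a factorisation `a = A T^N ∏ (T - τ) u`; the numbers: `od`, `gn` at both
ends, values, number of zeros (`Fac.card`), zeros and orders at a point (`zr`).
-/

set_option autoImplicit false
set_option linter.unusedSectionVars false
set_option linter.unusedVariables false
set_option linter.style.haveILetI false

noncomputable section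

open Filter Topology
open Crest.Agent.R013.Cell_408 Crest.Agent.R013.EE809

namespace Crest.Agent.R013.AnW_201

variable {k C : Type*} [NontriviallyNormedField k] [NormedField C]
  [IsUltrametricDist C] [NormedAlgebra k C] [CompleteSpace k] [Algebra.IsAlgebraic k C]
  [IsUltrametricDist k] [IsAlgClosed C]
variable {c : C}

/-- the data of a factorisation `a = A T^N ∏ (T - τ) u` -/
structure Fac (c : C) (a : EE k C) where
  A : C
  N : ℤ
  S : Multiset C
  u : EE k C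
  v : EE k C
  hA : A ≠ 0
  hS : ∀ τ ∈ S, ‖c‖ < ‖τ‖ ∧ ‖τ‖ < 1
  hu : IsUA c u
  hv : IsUA c v
  huv : u * v = 1
  eq : a = mo N A * (S.map lin).prod * u

theorem exists_fac (hk : DiscNorm k) (hc0 : c ≠ 0) (hc1 : ‖c‖ < 1) {a : EE k C} (ha : InA c a)
    (h0 : a ≠ 0) : Nonempty (Fac c a) := by
  obtain ⟨A, N, S, u, v, h1, h2, h3, h4, h5, h6⟩ := exists_W hk hc0 hc1 ha h0
  exact ⟨⟨A, N, S, u, v, h1, h2, h3, h4, h5, h6⟩⟩

theorem inA_prod_lin (c : C) (S : Multiset C) : InA c ((S.map lin).prod : EE k C) := by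
  rw [← val_prod_linA (c := c)]; exact Subtype.property _

theorem prod_lin_ne_zero (hk : DiscNorm k) (S : Multiset C) : (S.map lin).prod ≠ (0 : EE k C) :=
  multiset_prod_ne_zero hk S lin fun τ _ => lin_ne_zero τ

theorem od_prod_lin (hk : DiscNorm k) {S : Multiset C} (hS : ∀ τ ∈ S, ‖τ‖ < 1) :
    od ((S.map lin).prod : EE k C) = S.card := by
  rw [od_multiset_prod hk S lin fun τ _ => lin_ne_zero τ]
  have h1 : (S.map fun τ => od (lin τ : EE k C)) = S.map fun _ => (1 : ℤ) :=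
    Multiset.map_congr rfl fun τ hτ => od_lin (hS τ hτ)
  rw [h1, Multiset.map_const', Multiset.sum_replicate, nsmul_eq_mul, mul_one]

theorem gn_prod_lin (hk : DiscNorm k) {S : Multiset C} (hS : ∀ τ ∈ S, ‖τ‖ < 1) :
    gn ((S.map lin).prod : EE k C) = 1 := by
  rw [gn_multiset_prod hk S lin]
  have h1 : (S.map fun τ => gn (lin τ : EE k C)) = S.map fun _ => (1 : ℝ) :=
    Multiset.map_congr rfl fun τ hτ => gn_lin (hS τ hτ).le
  rw [h1, Multiset.map_const', Multiset.prod_replicate, one_pow]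

theorem evE_prod_lin {t : C} (hc0 : c ≠ 0) (hct : ‖c‖ < ‖t‖) (ht : ‖t‖ < 1) (S : Multiset C) :
    evE t ((S.map lin).prod : EE k C) = (S.map fun τ => t - τ).prod := by
  have h1 := map_multiset_prod (evA (k := k) hc0 t hct ht) (S.map (linA k c))
  rw [Multiset.map_map] at h1
  have h2 : evA (k := k) hc0 t hct ht (S.map (linA k c)).prod =
      evE t ((S.map (linA k c)).prod : AN k C c).1 := rfl
  rw [h2, val_prod_linA] at h1
  rw [h1]
  congr 1
  exact Multiset.map_congr rfl fun τ _ => evE_lin hct ht hc0 τ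

theorem norm_evE_unit {t : C} (hc0 : c ≠ 0) (hct : ‖c‖ < ‖t‖) (ht : ‖t‖ < 1) {u v : EE k C}
    (hu : IsUA c u) (hv : IsUA c v) (huv : u * v = 1) : ‖evE t u‖ = 1 := by
  have hc' : 0 < ‖c‖ := norm_pos_iff.2 hc0
  have key : ∀ w : EE k C, IsUA c w → ‖evE t w‖ ≤ 1 := fun w hw =>
    norm_evE_le (Bdd.interp hc' hct.le ht.le hw.le' fun n => by
      rw [one_zpow, mul_one]; exact hw.le n)
  have h1 := key u hu
  have h2 := key v hv
  have h3 : evE t u * evE t v = 1 := by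
    rw [← evE_mul hct ht hc0 hu.inA hv.inA, huv]
    have := evE_mo (k := k) t 0 1
    rwa [zpow_zero, mul_one] at this
  have h4 := congrArg norm h3
  rw [norm_mul, norm_one] at h4
  nlinarith [norm_nonneg (evE t u), norm_nonneg (evE t v)]

theorem prod_lin_count [DecidableEq C] (S : Multiset C) (t : C) :
    ((S.map lin).prod : EE k C) =
      lin t ^ (S.count t) * ((S.filter fun τ => ¬ τ = t).map lin).prod := by
  conv_lhs => rw [← Multiset.filter_add_not (fun τ => τ = t) S]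
  rw [Multiset.map_add, Multiset.prod_add, Multiset.filter_eq', Multiset.map_replicate,
    Multiset.prod_replicate]

theorem IsUA.inv_zero (hk : DiscNorm k) (hc0 : c ≠ 0) (hc1 : ‖c‖ < 1) {u : EE k C} (hu : IsUA c u) :
    ∃ v, IsUA c v ∧ u * v = 1 := by
  have hc' : 0 < ‖c‖ := norm_pos_iff.2 hc0
  obtain ⟨A, N, S, w, w', hA, hS, hw, hw', hww, e⟩ := exists_W hk hc0 hc1 hu.inA hu.ne_zero
  -- order at the outer end
  have h1 := hu.od hc0 hc1
  rw [e, od_mul hk (mul_ne_zero' hk (mo_ne_zero N hA) (prod_lin_ne_zero hk S)) hw.ne_zero,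
    od_mul hk (mo_ne_zero N hA) (prod_lin_ne_zero hk S), od_mo N hA,
    od_prod_lin hk fun τ hτ => (hS τ hτ).2, hw.od hc0 hc1] at h1
  -- order at the inner end
  have h2 := (hu.flip hc0 hc1).od hc0 hc1
  have h3 : (⟨u, hu.inA⟩ : AN k C c) = moA k c N A * (S.map (linA k c)).prod * ⟨w, hw.inA⟩ := by
    apply Subtype.ext
    show u = mo N A * ((S.map (linA k c)).prod : AN k C c).1 * w
    rw [val_prod_linA]; exact e
  have h4 := congrArg (fun x => (flipA hc0 hc1 x).1) h3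
  rw [map_mul, map_mul, flipA_moA, map_multiset_prod, Multiset.map_map] at h4
  have h5 : (S.map (⇑(flipA hc0 hc1) ∘ linA k c)).prod.1 =
      (S.map fun ζ => (flipA hc0 hc1 (linA k c ζ)).1).prod := by
    have := map_multiset_prod (AN k C c).val (S.map (⇑(flipA hc0 hc1) ∘ linA k c))
    rw [Multiset.map_map] at this
    exact this
  have hne : ∀ ζ ∈ S, (flipA hc0 hc1 (linA k c ζ)).1 ≠ 0 := fun ζ _ => flip_lin_ne_zero hc0 hc1 ζ
  have hprod := multiset_prod_ne_zero hk S (fun ζ => (flipA hc0 hc1 (linA k c ζ)).1) hne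
  have hAc : A * c ^ N ≠ 0 := mul_ne_zero hA (zpow_ne_zero _ hc0)
  have h6 : AnW_201.flip c hc0 hc1 u hu.inA = mo (-N) (A * c ^ N) *
      (S.map fun ζ => (flipA hc0 hc1 (linA k c ζ)).1).prod * AnW_201.flip c hc0 hc1 w hw.inA := by
    rw [← h5]; exact h4
  rw [h6, od_mul hk (mul_ne_zero' hk (mo_ne_zero _ hAc) hprod) (hw.flip hc0 hc1).ne_zero,
    od_mul hk (mo_ne_zero _ hAc) hprod, od_mo _ hAc, (hw.flip hc0 hc1).od hc0 hc1,
    od_multiset_prod hk S _ hne] at h2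
  have h7 : (S.map fun ζ => EE809.od (flipA hc0 hc1 (linA k c ζ)).1) = S.map fun _ => (0 : ℤ) :=
    Multiset.map_congr rfl fun τ hτ => od_flip_lin hc0 hc1 (hS τ hτ).1
  rw [h7, Multiset.map_const', Multiset.sum_replicate, smul_zero] at h2
  have hN : N = 0 := by omega
  have hcard : S.card = 0 := by omega
  rw [Multiset.card_eq_zero] at hcard
  rw [hN, hcard, Multiset.map_zero, Multiset.prod_zero, mul_one] at e
  have hAn : ‖A‖ = 1 := by
    have := hu.gn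
    rwa [e, gn_mul hk, gn_mo, hw.gn, mul_one] at this
  have hmo : IsUA c (mo 0 A⁻¹ : EE k C) := by
    refine ⟨fun n => ?_, fun n => ?_, ?_⟩
    · rw [co_mo]; split_ifs
      · rw [norm_inv, hAn, inv_one]
      · rw [norm_zero]; exact zero_le_one
    · rw [co_mo]; split_ifs with h
      · rw [h, norm_inv, hAn, inv_one, zpow_zero, mul_one]
      · rw [norm_zero, zero_mul]; exact zero_le_one
    · rw [co_mo, if_pos rfl, norm_inv, hAn, inv_one]
  refine ⟨mo 0 A⁻¹ * w', hmo.mul hk hc0 hc1 hw', ?_⟩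
  calc u * (mo 0 A⁻¹ * w') = (mo 0 A * mo 0 A⁻¹) * (w * w') := by rw [e]; ring
    _ = 1 := by rw [mo_mul_mo, hww, add_zero, mul_inv_cancel₀ hA, mo_zero_one, mul_one]

namespace Fac

variable {a b : EE k C}

theorem inA (F : Fac c a) : InA c a := by
  rw [F.eq]; exact ((inA_mo c _ _).mul (inA_prod_lin c F.S)).mul F.hu.inA

theorem ne_zero (hk : DiscNorm k) (F : Fac c a) : a ≠ 0 := by
  rw [F.eq]
  exact mul_ne_zero' hk (mul_ne_zero' hk (mo_ne_zero _ F.hA) (prod_lin_ne_zero hk F.S)) F.hu.ne_zero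

theorem od_eq (hk : DiscNorm k) (hc0 : c ≠ 0) (hc1 : ‖c‖ < 1) (F : Fac c a) :
    od a = F.N + F.S.card := by
  conv_lhs => rw [F.eq]
  rw [od_mul hk (mul_ne_zero' hk (mo_ne_zero _ F.hA) (prod_lin_ne_zero hk F.S)) F.hu.ne_zero,
    od_mul hk (mo_ne_zero _ F.hA) (prod_lin_ne_zero hk F.S), od_mo _ F.hA,
    od_prod_lin hk fun τ hτ => (F.hS τ hτ).2, F.hu.od hc0 hc1, add_zero]

theorem gn_eq (hk : DiscNorm k) (F : Fac c a) : gn a = ‖F.A‖ := by
  conv_lhs => rw [F.eq]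
  rw [gn_mul hk, gn_mul hk, gn_mo, gn_prod_lin hk fun τ hτ => (F.hS τ hτ).2, F.hu.gn, mul_one,
    mul_one]

/-- the other end -/
theorem flip_eq (hc0 : c ≠ 0) (hc1 : ‖c‖ < 1) (F : Fac c a) :
    flip c hc0 hc1 a F.inA = mo (-F.N) (F.A * c ^ F.N) *
      (F.S.map fun ζ => (flipA hc0 hc1 (linA k c ζ)).1).prod * flip c hc0 hc1 F.u F.hu.inA := by
  have h3 : (⟨a, F.inA⟩ : AN k C c) =
      moA k c F.N F.A * (F.S.map (linA k c)).prod * ⟨F.u, F.hu.inA⟩ := by
    apply Subtype.ext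
    show a = mo F.N F.A * ((F.S.map (linA k c)).prod : AN k C c).1 * F.u
    rw [val_prod_linA]; exact F.eq
  have h4 := congrArg (fun x => (flipA hc0 hc1 x).1) h3
  rw [map_mul, map_mul, flipA_moA, map_multiset_prod, Multiset.map_map] at h4
  have h5 : (F.S.map (⇑(flipA hc0 hc1) ∘ linA k c)).prod.1 =
      (F.S.map fun ζ => (flipA hc0 hc1 (linA k c ζ)).1).prod := by
    have := map_multiset_prod (AN k C c).val (F.S.map (⇑(flipA hc0 hc1) ∘ linA k c))
    rw [Multiset.map_map] at this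
    exact this
  rw [← h5]; exact h4

theorem od_flip (hk : DiscNorm k) (hc0 : c ≠ 0) (hc1 : ‖c‖ < 1) (F : Fac c a) :
    od (flip c hc0 hc1 a F.inA) = -F.N := by
  have hne : ∀ ζ ∈ F.S, (flipA hc0 hc1 (linA k c ζ)).1 ≠ 0 := fun ζ _ => flip_lin_ne_zero hc0 hc1 ζ
  have hprod := multiset_prod_ne_zero hk F.S (fun ζ => (flipA hc0 hc1 (linA k c ζ)).1) hne
  have hAc : F.A * c ^ F.N ≠ 0 := mul_ne_zero F.hA (zpow_ne_zero _ hc0)
  have h7 : (F.S.map fun ζ => od (flipA hc0 hc1 (linA k c ζ)).1) = F.S.map fun _ => (0 : ℤ) :=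
    Multiset.map_congr rfl fun τ hτ => od_flip_lin hc0 hc1 (F.hS τ hτ).1
  rw [F.flip_eq hc0 hc1, od_mul hk (mul_ne_zero' hk (mo_ne_zero _ hAc) hprod)
    (F.hu.flip hc0 hc1).ne_zero, od_mul hk (mo_ne_zero _ hAc) hprod, od_mo _ hAc,
    (F.hu.flip hc0 hc1).od hc0 hc1, od_multiset_prod hk F.S _ hne, h7, Multiset.map_const',
    Multiset.sum_replicate, smul_zero, add_zero, add_zero]

theorem gn_flip (hk : DiscNorm k) (hc0 : c ≠ 0) (hc1 : ‖c‖ < 1) (F : Fac c a) :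
    gn (flip c hc0 hc1 a F.inA) = ‖F.A‖ * ‖c‖ ^ F.N * (F.S.map fun τ => ‖τ‖).prod := by
  rw [F.flip_eq hc0 hc1, gn_mul hk, gn_mul hk, gn_mo, gn_multiset_prod hk,
    (F.hu.flip hc0 hc1).gn, mul_one, norm_mul, norm_zpow]
  congr 2
  refine Multiset.map_congr rfl fun τ hτ => ?_
  rw [gn_flip_lin, max_eq_right (F.hS τ hτ).1.le]

/-- **number of zeros** = sum of the orders at the two ends -/
theorem card (hk : DiscNorm k) (hc0 : c ≠ 0) (hc1 : ‖c‖ < 1) (F : Fac c a) :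
    (F.S.card : ℤ) = od a + od (flip c hc0 hc1 a F.inA) := by
  rw [F.od_eq hk hc0 hc1, F.od_flip hk hc0 hc1]; ring

/-- the value at a point -/
theorem evE_eq {t : C} (hc0 : c ≠ 0) (hct : ‖c‖ < ‖t‖) (ht : ‖t‖ < 1) (F : Fac c a) :
    evE t a = F.A * t ^ F.N * (F.S.map fun τ => t - τ).prod * evE t F.u := by
  conv_lhs => rw [F.eq]
  rw [evE_mul hct ht hc0 ((inA_mo c _ _).mul (inA_prod_lin c F.S)) F.hu.inA,
    evE_mul hct ht hc0 (inA_mo c _ _) (inA_prod_lin c F.S), evE_mo, evE_prod_lin hc0 hct ht]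

theorem norm_evE {t : C} (hc0 : c ≠ 0) (hct : ‖c‖ < ‖t‖) (ht : ‖t‖ < 1) (F : Fac c a) :
    ‖evE t a‖ = ‖F.A‖ * ‖t‖ ^ F.N * (F.S.map fun τ => ‖t - τ‖).prod := by
  rw [F.evE_eq hc0 hct ht, norm_mul, norm_mul, norm_mul, norm_zpow,
    norm_evE_unit hc0 hct ht F.hu F.hv F.huv, mul_one]
  congr 1
  have := map_multiset_prod (normHom : C →*₀ ℝ) (F.S.map fun τ => t - τ)
  simpa [Multiset.map_map, Function.comp_def] using this

theorem evE_eq_zero {t : C} (hc0 : c ≠ 0) (hct : ‖c‖ < ‖t‖) (ht : ‖t‖ < 1) (F : Fac c a) :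
    evE t a = 0 ↔ t ∈ F.S := by
  have ht0 : t ≠ 0 := by
    rintro rfl
    rw [norm_zero] at hct
    exact absurd (norm_nonneg c) (not_le.2 hct)
  rw [← norm_eq_zero, F.norm_evE hc0 hct ht, mul_eq_zero, or_iff_right, Multiset.prod_eq_zero_iff,
    Multiset.mem_map]
  · constructor
    · rintro ⟨τ, hτ, h0⟩
      rw [norm_eq_zero, sub_eq_zero] at h0
      rwa [h0]
    · intro h
      exact ⟨t, h, by simp⟩
  · exact mul_ne_zero (norm_ne_zero_iff.2 F.hA) (zpow_ne_zero _ (norm_ne_zero_iff.2 ht0))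

open Classical in
/-- splitting off the zeros at `t` -/
theorem order {t : C} (hc0 : c ≠ 0) (hct : ‖c‖ < ‖t‖) (ht : ‖t‖ < 1) (F : Fac c a) :
    ∃ g : EE k C, InA c g ∧ evE t g ≠ 0 ∧ a = lin t ^ (F.S.count t) * g := by
  have ht0 : t ≠ 0 := by
    rintro rfl
    rw [norm_zero] at hct
    exact absurd (norm_nonneg c) (not_le.2 hct)
  refine ⟨mo F.N F.A * ((F.S.filter fun τ => ¬ τ = t).map lin).prod * F.u,
    ((inA_mo c _ _).mul (inA_prod_lin c _)).mul F.hu.inA, ?_, ?_⟩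
  · rw [evE_mul hct ht hc0 ((inA_mo c _ _).mul (inA_prod_lin c _)) F.hu.inA,
      evE_mul hct ht hc0 (inA_mo c _ _) (inA_prod_lin c _), evE_mo, evE_prod_lin hc0 hct ht]
    refine mul_ne_zero (mul_ne_zero (mul_ne_zero F.hA (zpow_ne_zero _ ht0)) ?_) ?_
    · rw [Ne, Multiset.prod_eq_zero_iff, Multiset.mem_map]
      rintro ⟨τ, hτ, h0⟩
      exact (Multiset.mem_filter.1 hτ).2 (sub_eq_zero.1 h0).symm
    · rw [← norm_ne_zero_iff, norm_evE_unit hc0 hct ht F.hu F.hv F.huv]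
      exact one_ne_zero
  · conv_lhs => rw [F.eq, prod_lin_count F.S t]
    ring

/-- products -/
def mul (hk : DiscNorm k) (hc0 : c ≠ 0) (hc1 : ‖c‖ < 1) (F : Fac c a) (F' : Fac c b) :
    Fac c (a * b) where
  A := F.A * F'.A
  N := F.N + F'.N
  S := F.S + F'.S
  u := F.u * F'.u
  v := F.v * F'.v
  hA := mul_ne_zero F.hA F'.hA
  hS τ hτ := by
    rcases Multiset.mem_add.1 hτ with h | h
    · exact F.hS τ h
    · exact F'.hS τ h
  hu := F.hu.mul hk hc0 hc1 F'.hu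
  hv := F.hv.mul hk hc0 hc1 F'.hv
  huv := by
    calc F.u * F'.u * (F.v * F'.v) = (F.u * F.v) * (F'.u * F'.v) := by ring
      _ = 1 := by rw [F.huv, F'.huv, one_mul]
  eq := by
    conv_lhs => rw [F.eq, F'.eq]
    rw [Multiset.map_add, Multiset.prod_add, ← mo_mul_mo]
    ring

end Fac

/-! ### uniqueness -/

theorem evE_pow {t : C} (hc0 : c ≠ 0) (hct : ‖c‖ < ‖t‖) (ht : ‖t‖ < 1) {a : EE k C} (ha : InA c a)
    (n : ℕ) : InA c (a ^ n) ∧ evE t (a ^ n) = evE t a ^ n := by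
  induction n with
  | zero =>
    rw [pow_zero, pow_zero]
    refine ⟨inA_one c, ?_⟩
    have := evE_mo (k := k) t 0 1
    rwa [zpow_zero, mul_one] at this
  | succ n ih =>
    rw [pow_succ, pow_succ]
    exact ⟨ih.1.mul ha, by rw [evE_mul hct ht hc0 ih.1 ha, ih.2]⟩

theorem order_le (hk : DiscNorm k) {t : C} (hc0 : c ≠ 0) (hct : ‖c‖ < ‖t‖) (ht : ‖t‖ < 1)
    {n n' : ℕ} {g g' : EE k C} (hg : InA c g) (hg' : InA c g') (h0 : evE t g ≠ 0)
    (h : lin t ^ n * g = lin t ^ n' * g') : n' ≤ n := by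
  by_contra hlt
  rw [not_le] at hlt
  obtain ⟨m, rfl⟩ : ∃ m, n' = n + (m + 1) := ⟨n' - n - 1, by omega⟩
  rw [pow_add, mul_assoc] at h
  have hpow : (lin t : EE k C) ^ n ≠ 0 := by
    clear h hlt
    induction n with
    | zero => rw [pow_zero]; exact one_ne_zero
    | succ n ih => rw [pow_succ]; exact mul_ne_zero' hk ih (lin_ne_zero t)
  have h1 : lin t ^ n * (g - lin t ^ (m + 1) * g') = 0 := by rw [mul_sub, h, sub_self]
  have h2 : g - lin t ^ (m + 1) * g' = 0 := by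
    by_contra hne
    exact mul_ne_zero' hk hpow hne h1
  rw [sub_eq_zero] at h2
  apply h0
  have h3 := evE_pow hc0 hct ht (inA_lin (k := k) c t) (m + 1)
  rw [h2, evE_mul hct ht hc0 h3.1 hg', h3.2, evE_lin hct ht hc0, sub_self,
    zero_pow (Nat.succ_ne_zero m), zero_mul]

theorem order_unique (hk : DiscNorm k) {t : C} (hc0 : c ≠ 0) (hct : ‖c‖ < ‖t‖) (ht : ‖t‖ < 1)
    {n n' : ℕ} {g g' : EE k C} (hg : InA c g) (hg' : InA c g') (h0 : evE t g ≠ 0)
    (h0' : evE t g' ≠ 0) (h : lin t ^ n * g = lin t ^ n' * g') : n = n' :=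
  le_antisymm (order_le hk hc0 hct ht hg' hg h0' h.symm) (order_le hk hc0 hct ht hg hg' h0 h)

theorem Fac.S_unique (hk : DiscNorm k) (hc0 : c ≠ 0) {a : EE k C} (F F' : Fac c a) :
    F.S = F'.S := by
  classical
  refine Multiset.ext.2 fun t => ?_
  by_cases h : ‖c‖ < ‖t‖ ∧ ‖t‖ < 1
  · obtain ⟨g, hg, hg0, e⟩ := F.order hc0 h.1 h.2
    obtain ⟨g', hg', hg0', e'⟩ := F'.order hc0 h.1 h.2
    have := order_unique hk hc0 h.1 h.2 hg hg' hg0 hg0' (by rw [← e, ← e'])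
    convert this
  · rw [Multiset.count_eq_zero_of_notMem fun ht => h (F.hS t ht),
      Multiset.count_eq_zero_of_notMem fun ht => h (F'.hS t ht)]

open Classical in
/-- the multiset of zeros of `a` on the annulus `|c| < |T| < 1` -/
def zr (c : C) (a : EE k C) : Multiset C := if h : Nonempty (Fac c a) then h.some.S else 0

theorem Fac.S_eq (hk : DiscNorm k) (hc0 : c ≠ 0) {a : EE k C} (F : Fac c a) : F.S = zr c a := by
  rw [zr, dif_pos ⟨F⟩]
  exact F.S_unique hk hc0 _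

section zr

variable (hk : DiscNorm k) (hc0 : c ≠ 0) (hc1 : ‖c‖ < 1)
include hk hc0 hc1

theorem zr_mul {a b : EE k C} (ha : InA c a) (hb : InA c b) (ha0 : a ≠ 0) (hb0 : b ≠ 0) :
    zr c (a * b) = zr c a + zr c b := by
  obtain ⟨F⟩ := exists_fac hk hc0 hc1 ha ha0
  obtain ⟨F'⟩ := exists_fac hk hc0 hc1 hb hb0
  rw [← (F.mul hk hc0 hc1 F').S_eq hk hc0, ← F.S_eq hk hc0, ← F'.S_eq hk hc0]
  rfl

theorem mem_zr_norm {a : EE k C} (ha : InA c a) (h0 : a ≠ 0) {t : C} (ht : t ∈ zr c a) :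
    ‖c‖ < ‖t‖ ∧ ‖t‖ < 1 := by
  obtain ⟨F⟩ := exists_fac hk hc0 hc1 ha h0
  rw [← F.S_eq hk hc0] at ht
  exact F.hS t ht

theorem mem_zr {a : EE k C} (ha : InA c a) (h0 : a ≠ 0) {t : C} (hct : ‖c‖ < ‖t‖) (ht : ‖t‖ < 1) :
    t ∈ zr c a ↔ evE t a = 0 := by
  obtain ⟨F⟩ := exists_fac hk hc0 hc1 ha h0
  rw [← F.S_eq hk hc0, F.evE_eq_zero hc0 hct ht]

/-- **number of zeros** = sum of the orders at the two ends -/
theorem card_zr {a : EE k C} (ha : InA c a) (h0 : a ≠ 0) :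
    ((zr c a).card : ℤ) = od a + od (flip c hc0 hc1 a ha) := by
  obtain ⟨F⟩ := exists_fac hk hc0 hc1 ha h0
  rw [← F.S_eq hk hc0]
  exact F.card hk hc0 hc1

/-- the norms at the two ends -/
theorem gn_flip {a : EE k C} (ha : InA c a) (h0 : a ≠ 0) :
    gn (flip c hc0 hc1 a ha) =
      gn a * ‖c‖ ^ (-od (flip c hc0 hc1 a ha)) * ((zr c a).map fun τ => ‖τ‖).prod := by
  obtain ⟨F⟩ := exists_fac hk hc0 hc1 ha h0
  rw [← F.S_eq hk hc0]
  have h1 := F.gn_flip hk hc0 hc1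
  have h2 := F.od_flip hk hc0 hc1
  rw [h1, h2, neg_neg, F.gn_eq hk]

/-- the norm of a value -/
theorem norm_evE {a : EE k C} (ha : InA c a) (h0 : a ≠ 0) {t : C} (hct : ‖c‖ < ‖t‖)
    (ht : ‖t‖ < 1) :
    ‖evE t a‖ = gn a * ‖t‖ ^ (-od (flip c hc0 hc1 a ha)) *
      ((zr c a).map fun τ => ‖t - τ‖).prod := by
  obtain ⟨F⟩ := exists_fac hk hc0 hc1 ha h0
  rw [← F.S_eq hk hc0]
  have h2 := F.od_flip hk hc0 hc1
  rw [F.norm_evE hc0 hct ht, h2, neg_neg, F.gn_eq hk]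

open Classical in
/-- splitting off the zeros at `t` -/
theorem order_zr {a : EE k C} (ha : InA c a) (h0 : a ≠ 0) {t : C} (hct : ‖c‖ < ‖t‖)
    (ht : ‖t‖ < 1) :
    ∃ g : EE k C, InA c g ∧ evE t g ≠ 0 ∧ a = lin t ^ ((zr c a).count t) * g := by
  obtain ⟨F⟩ := exists_fac hk hc0 hc1 ha h0
  rw [← F.S_eq hk hc0]
  exact F.order hc0 hct ht

open Classical in
/-- the order at `t` -/
theorem count_zr {a g : EE k C} (ha : InA c a) (h0 : a ≠ 0) {t : C} (hct : ‖c‖ < ‖t‖)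
    (ht : ‖t‖ < 1) {n : ℕ} (hg : InA c g) (hg0 : evE t g ≠ 0) (e : a = lin t ^ n * g) :
    (zr c a).count t = n := by
  obtain ⟨g', hg', hg0', e'⟩ := order_zr hk hc0 hc1 ha h0 hct ht
  exact order_unique hk hc0 hct ht hg' hg hg0' hg0 (by rw [← e', ← e])

theorem evE_zero_iff_dvd {a : EE k C} (ha : InA c a) {t : C} (hct : ‖c‖ < ‖t‖) (ht : ‖t‖ < 1) :
    evE t a = 0 ↔ ∃ b : EE k C, InA c b ∧ a = lin t * b := by
  classical
  constructor
  · intro h
    rcases eq_or_ne a 0 with rfl | h0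
    · exact ⟨0, by simpa using (inA_mo c 0 (0 : C) : InA c (mo 0 0 : EE k C)).sub (inA_mo c 0 (0 : C)),
        by rw [mul_zero]⟩
    obtain ⟨g, hg, hg0, e⟩ := order_zr hk hc0 hc1 ha h0 hct ht
    have h1 : (zr c a).count t ≠ 0 := by
      rw [Multiset.count_ne_zero]
      exact (mem_zr hk hc0 hc1 ha h0 hct ht).2 h
    obtain ⟨m, hm⟩ := Nat.exists_eq_succ_of_ne_zero h1
    refine ⟨lin t ^ m * g, ((evE_pow hc0 hct ht (inA_lin c t) m).1).mul hg, ?_⟩
    rw [hm, Nat.succ_eq_add_one, pow_succ'] at e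
    rw [← mul_assoc]; exact e
  · rintro ⟨b, hb, rfl⟩
    rw [evE_mul hct ht hc0 (inA_lin c t) hb, evE_lin hct ht hc0, sub_self, zero_mul]

/-- units of the annulus: no zeros -/
theorem isUnit_iff {a : EE k C} (ha : InA c a) (h0 : a ≠ 0) :
    (∃ b, InA c b ∧ a * b = 1) ↔ zr c a = 0 := by
  constructor
  · rintro ⟨b, hb, hab⟩
    have hb0 : b ≠ 0 := by
      rintro rfl
      rw [mul_zero] at hab
      exact zero_ne_one hab
    have h1 : zr c (1 : EE k C) = 0 := by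
      let F : Fac c (1 : EE k C) :=
        { A := 1, N := 0, S := 0, u := 1, v := 1, hA := one_ne_zero,
          hS := fun τ hτ => absurd hτ (Multiset.notMem_zero τ), hu := isUA_one k c,
          hv := isUA_one k c, huv := one_mul 1,
          eq := by rw [mo_zero_one, Multiset.map_zero, Multiset.prod_zero, one_mul, one_mul] }
      exact (F.S_eq hk hc0).symm
    have h2 := zr_mul hk hc0 hc1 ha hb h0 hb0
    rw [hab, h1] at h2
    exact (add_eq_zero.1 h2.symm).1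
  · intro h
    obtain ⟨F⟩ := exists_fac hk hc0 hc1 ha h0
    have hS : F.S = 0 := by rw [F.S_eq hk hc0, h]
    refine ⟨mo (-F.N) F.A⁻¹ * F.v, (inA_mo c _ _).mul F.hv.inA, ?_⟩
    have e := F.eq
    rw [hS, Multiset.map_zero, Multiset.prod_zero, mul_one] at e
    calc a * (mo (-F.N) F.A⁻¹ * F.v) = (mo F.N F.A * F.u) * (mo (-F.N) F.A⁻¹ * F.v) := by rw [← e]
      _ = (mo F.N F.A * mo (-F.N) F.A⁻¹) * (F.u * F.v) := by ring
      _ = 1 := by
        rw [mo_mul_mo, F.huv, mul_inv_cancel₀ F.hA, add_neg_cancel, mo_zero_one, mul_one]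

end zr

end Crest.Agent.R013.AnW_201
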