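import Crest.Agent.R013.AnW4_201
import Crest.Agent.R013.AN1_243
import Crest.Agent.R013.SSDefs_332

/-!
# Row 13, leaf SS-ANW (helper201): Weierstrass theory on open annuli, part 5

The interfaces: 332's language (`SSK_332.InA`, `Flip`, `lin`, `evE`): the slope formula and the
order at a point for quotients of bounded series; 243's `CAn_243.AN`, `flip`.
-/

set_option autoImplicit false
set_option linter.unusedSectionVars false
set_option linter.unusedVariables false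
set_option linter.style.haveILetI false

noncomputable section

open Filter Topology
open Crest.Agent.R013.Cell_408 Crest.Agent.R013.EE809

namespace Crest.Agent.R013.AnW_201

variable {k C : Type*} [NontriviallyNormedField k] [NormedField C]
  [IsUltrametricDist C] [NormedAlgebra k C] [CompleteSpace k] [Algebra.IsAlgebraic k C]
  [IsUltrametricDist k] [IsAlgClosed C]
variable {c : C}

/-! ### 332's language -/

theorem inA_iff {c : C} {a : EE k C} : SSK_332.InA c a ↔ InA c a := Iff.rfl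

theorem lin_eq332 (τ : C) : (SSK_332.lin τ : EE k C) = lin τ := rfl

theorem evE_eq332 (t : C) (a : EE k C) : SSK_332.evE t a = evE t a := rfl

/-- `Flip` and `flip` -/
theorem eq_flip (hc0 : c ≠ 0) (hc1 : ‖c‖ < 1) {a b : EE k C} (ha : InA c a)
    (h : SSK_332.Flip c a b) : b = flip c hc0 hc1 a ha := by
  ext n; rw [h n, co_flip]

theorem flip_spec (hc0 : c ≠ 0) (hc1 : ‖c‖ < 1) {a : EE k C} (ha : InA c a) :
    SSK_332.Flip c a (flip c hc0 hc1 a ha) := fun n => rfl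

theorem Flip_symm (hc0 : c ≠ 0) {a b : EE k C} (h : SSK_332.Flip c a b) : SSK_332.Flip c b a := by
  intro n
  rw [h (-n), neg_neg, mul_assoc, ← zpow_add₀ hc0, add_neg_cancel, zpow_zero, mul_one]

theorem Flip_ne_zero (hc0 : c ≠ 0) {a b : EE k C} (h : SSK_332.Flip c a b) (ha : a ≠ 0) :
    b ≠ 0 := by
  rintro rfl
  apply ha
  ext n
  rw [Flip_symm hc0 h n, co_zero, zero_mul, co_zero]

theorem Flip_inA (hc0 : c ≠ 0) (hc1 : ‖c‖ < 1) {a b : EE k C} (ha : InA c a)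
    (h : SSK_332.Flip c a b) : InA c b := by
  rw [eq_flip hc0 hc1 ha h]; exact inA_flip ha

section quot

variable (hk : DiscNorm k) (hc0 : c ≠ 0) (hc1 : ‖c‖ < 1)
include hk hc0 hc1

/-- number of zeros, in terms of `Flip` -/
theorem card_zr' {a b : EE k C} (ha : InA c a) (h0 : a ≠ 0) (h : SSK_332.Flip c a b) :
    ((zr c a).card : ℤ) = od a + od b := by
  rw [eq_flip hc0 hc1 ha h]
  exact card_zr hk hc0 hc1 ha h0

/-- **the slope formula** for quotients: the sum of the orders at the two ends is the degree of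
the divisor on the annulus -/
theorem slope {z g h z' g' h' : EE k C} (hg : InA c g) (hh : InA c h) (hg0 : g ≠ 0) (hh0 : h ≠ 0)
    (e : z * h = g) (fg : SSK_332.Flip c g g') (fh : SSK_332.Flip c h h') (e' : z' * h' = g') :
    od z + od z' = ((zr c g).card : ℤ) - ((zr c h).card : ℤ) := by
  have hz : z ≠ 0 := by rintro rfl; rw [zero_mul] at e; exact hg0 e.symm
  have hg'0 := Flip_ne_zero hc0 fg hg0
  have hh'0 := Flip_ne_zero hc0 fh hh0
  have hz' : z' ≠ 0 := by rintro rfl; rw [zero_mul] at e'; exact hg'0 e'.symm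
  have h1 := od_mul hk hz hh0
  have h2 := od_mul hk hz' hh'0
  rw [e] at h1
  rw [e'] at h2
  have h3 := card_zr' hk hc0 hc1 hg hg0 fg
  have h4 := card_zr' hk hc0 hc1 hh hh0 fh
  omega

/-- the norms at the two ends, for quotients -/
theorem gn_quot {z g h z' g' h' : EE k C} (hg : InA c g) (hh : InA c h) (hg0 : g ≠ 0) (hh0 : h ≠ 0)
    (e : z * h = g) (fg : SSK_332.Flip c g g') (fh : SSK_332.Flip c h h') (e' : z' * h' = g') :
    gn z' * ((zr c h).map fun τ => ‖τ‖).prod =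
      gn z * ‖c‖ ^ (-od z') * ((zr c g).map fun τ => ‖τ‖).prod := by
  have hc' : 0 < ‖c‖ := norm_pos_iff.2 hc0
  have hz : z ≠ 0 := by rintro rfl; rw [zero_mul] at e; exact hg0 e.symm
  have hg'0 := Flip_ne_zero hc0 fg hg0
  have hh'0 := Flip_ne_zero hc0 fh hh0
  have hz' : z' ≠ 0 := by rintro rfl; rw [zero_mul] at e'; exact hg'0 e'.symm
  have h1 := gn_mul hk z h
  have h2 := gn_mul hk z' h'
  rw [e] at h1
  rw [e'] at h2
  have h3 := od_mul hk hz' hh'0
  rw [e'] at h3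
  have h4 := gn_flip hk hc0 hc1 hg hg0
  have h5 := gn_flip hk hc0 hc1 hh hh0
  rw [← eq_flip hc0 hc1 hg fg] at h4
  rw [← eq_flip hc0 hc1 hh fh] at h5
  have hh'p : 0 < gn h' := gn_pos hh'0
  have hhp : 0 < gn h := gn_pos hh0
  rw [h2, h1, h5, h3] at h4
  have h6 : ‖c‖ ^ (-(od z' + od h')) = ‖c‖ ^ (-od z') * ‖c‖ ^ (-od h') := by
    rw [← zpow_add₀ hc'.ne']; congr 1; ring
  rw [h6] at h4
  have h7 : gn h * ‖c‖ ^ (-od h') ≠ 0 := (mul_pos hhp (zpow_pos hc' _)).ne'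
  have h8 : (gn h * ‖c‖ ^ (-od h')) * (gn z' * ((zr c h).map fun τ => ‖τ‖).prod) =
      (gn h * ‖c‖ ^ (-od h')) * (gn z * ‖c‖ ^ (-od z') * ((zr c g).map fun τ => ‖τ‖).prod) := by
    calc _ = gn z' * (gn h * ‖c‖ ^ (-od h') * ((zr c h).map fun τ => ‖τ‖).prod) := by ring
      _ = gn z * gn h * (‖c‖ ^ (-od z') * ‖c‖ ^ (-od h')) *
          ((zr c g).map fun τ => ‖τ‖).prod := h4
      _ = _ := by ring
  exact mul_left_cancel₀ h7 h8

open Classical in
/-- the order of a quotient at a point, in the form of 332's `ptA_ord` -/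
theorem exists_ptA {z g h : EE k C} (hg : InA c g) (hh : InA c h) (hg0 : g ≠ 0) (hh0 : h ≠ 0)
    (e : z * h = g) {t : C} (hct : ‖c‖ < ‖t‖) (ht : ‖t‖ < 1) :
    ∃ g₁ h₁ : EE k C, SSK_332.InA c g₁ ∧ SSK_332.InA c h₁ ∧ SSK_332.evE t g₁ ≠ 0 ∧
      SSK_332.evE t h₁ ≠ 0 ∧
      z * (SSK_332.lin t ^ ((zr c h).count t) * h₁) = SSK_332.lin t ^ ((zr c g).count t) * g₁ := by
  obtain ⟨g₁, hg₁, hg₁0, eg⟩ := order_zr hk hc0 hc1 hg hg0 hct ht
  obtain ⟨h₁, hh₁, hh₁0, eh⟩ := order_zr hk hc0 hc1 hh hh0 hct ht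
  refine ⟨g₁, h₁, hg₁, hh₁, hg₁0, hh₁0, ?_⟩
  show z * (lin t ^ ((zr c h).count t) * h₁) = lin t ^ ((zr c g).count t) * g₁
  rw [← eg, ← eh, e]

open Classical in
/-- uniqueness of the order of a quotient at a point -/
theorem ptA_unique {z g h : EE k C} (hg : InA c g) (hh : InA c h) (hg0 : g ≠ 0) (hh0 : h ≠ 0)
    (e : z * h = g) {t : C} (hct : ‖c‖ < ‖t‖) (ht : ‖t‖ < 1) {a b : ℕ} {g₁ h₁ : EE k C}
    (hg₁ : SSK_332.InA c g₁) (hh₁ : SSK_332.InA c h₁) (hg₁0 : SSK_332.evE t g₁ ≠ 0)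
    (hh₁0 : SSK_332.evE t h₁ ≠ 0) (e₁ : z * (SSK_332.lin t ^ b * h₁) = SSK_332.lin t ^ a * g₁) :
    (b : ℤ) - a = (zr c h).count t - (zr c g).count t := by
  obtain ⟨g₂, hg₂, hg₂0, eg⟩ := order_zr hk hc0 hc1 hg hg0 hct ht
  obtain ⟨h₂, hh₂, hh₂0, eh⟩ := order_zr hk hc0 hc1 hh hh0 hct ht
  have e₁' : z * (lin t ^ b * h₁) = lin t ^ a * g₁ := e₁
  have hg₁' : InA c g₁ := hg₁
  have hh₁' : InA c h₁ := hh₁
  -- `lin^(n + b) g₂ h₁ = lin^(a + m) g₁ h₂`
  have key : lin t ^ ((zr c g).count t + b) * (g₂ * h₁) = lin t ^ (a + (zr c h).count t) * (g₁ * h₂) := by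
    calc lin t ^ ((zr c g).count t + b) * (g₂ * h₁) =
          (lin t ^ ((zr c g).count t) * g₂) * (lin t ^ b * h₁) := by rw [pow_add]; ring
      _ = (z * h) * (lin t ^ b * h₁) := by rw [← eg, e]
      _ = (z * (lin t ^ b * h₁)) * h := by ring
      _ = (lin t ^ a * g₁) * (lin t ^ ((zr c h).count t) * h₂) := by rw [e₁', ← eh]
      _ = _ := by rw [pow_add]; ring
  have := order_unique hk hc0 hct ht (hg₂.mul hh₁') (hg₁'.mul hh₂)
    (by rw [evE_mul hct ht hc0 hg₂ hh₁']; exact mul_ne_zero hg₂0 hh₁0)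
    (by rw [evE_mul hct ht hc0 hg₁' hh₂]; exact mul_ne_zero hg₁0 hh₂0) key
  omega

end quot

/-! ### 243's `AN` -/

theorem mem_AN243 {a : EE k C} : a ∈ CAn_243.AN k c ↔ InA c a := Iff.rfl

/-- the two versions of the annulus ring -/
def toAN243 (c : C) : AN k C c ≃ₐ[C] CAn_243.AN k c :=
  Subalgebra.equivOfEq _ _ (by ext a; exact Iff.rfl)

theorem coe_toAN243 (a : AN k C c) : (toAN243 c a).1 = a.1 := rfl

theorem flip243 (hc0 : c ≠ 0) (hc1 : ‖c‖ < 1) (a : CAn_243.AN k c) :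
    (CAn_243.flip c hc0 hc1 a).1 = flip c hc0 hc1 a.1 a.2 := by
  ext n; rfl

end Crest.Agent.R013.AnW_201
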