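import Crest.Agent.R013.AnW5_201
import Crest.Agent.R013.Pts2_315

/-!
# Row 13, leaf SS-ANW (helper201): the annulus ring is a `CellRing` (315)
-/

set_option autoImplicit false
set_option linter.unusedSectionVars false
set_option linter.unusedVariables false
set_option linter.style.haveILetI false

noncomputable section

open Filter Topology
open Crest.Agent.R013.Cell_408 Crest.Agent.R013.EE809
open Crest.Agent.R013.Pts2_315

namespace Crest.Agent.R013.AnW_201

variable {k C : Type*} [NontriviallyNormedField k] [NormedField C]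
  [IsUltrametricDist C] [NormedAlgebra k C] [CompleteSpace k] [Algebra.IsAlgebraic k C]
  [IsUltrametricDist k] [IsAlgClosed C]
variable {c : C}

theorem isDomain_AN (hk : DiscNorm k) (c : C) : IsDomain (CAn_243.AN k c) := by
  have h : NoZeroDivisors (CAn_243.AN k c) := ⟨fun {a b} hab => by
    by_contra hc
    rw [not_or] at hc
    have h1 : a.1 ≠ 0 := fun h => hc.1 (Subtype.ext h)
    have h2 : b.1 ≠ 0 := fun h => hc.2 (Subtype.ext h)
    exact mul_ne_zero' hk h1 h2 (congrArg Subtype.val hab)⟩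
  have h' : Nontrivial (CAn_243.AN k c) := ⟨⟨0, 1, fun h => zero_ne_one (congrArg Subtype.val h)⟩⟩
  exact NoZeroDivisors.to_isDomain _

variable (k) in
/-- the coordinate -/
def TA (c : C) : CAn_243.AN k c := ⟨T 1, CAn_243.T_mem_AN c 1⟩

theorem coe_sub_TA (c τ : C) :
    (TA k c - algebraMap C (CAn_243.AN k c) τ).1 = lin τ := rfl

theorem coe_prod_TA (c : C) (m : Multiset C) :
    ((m.map fun τ => TA k c - algebraMap C (CAn_243.AN k c) τ).prod).1 = (m.map lin).prod := by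
  have := map_multiset_prod (CAn_243.AN k c).val
    (m.map fun τ => TA k c - algebraMap C (CAn_243.AN k c) τ)
  rw [Multiset.map_map] at this
  exact this

/-- evaluation on 243's ring -/
def evA243 (hc0 : c ≠ 0) (t : C) (hct : ‖c‖ < ‖t‖) (ht : ‖t‖ < 1) : CAn_243.AN k c →ₐ[C] C :=
  (evA hc0 t hct ht).comp (toAN243 c).symm.toAlgHom

theorem evA243_apply (hc0 : c ≠ 0) (t : C) (hct : ‖c‖ < ‖t‖) (ht : ‖t‖ < 1)
    (a : CAn_243.AN k c) : evA243 hc0 t hct ht a = evE t a.1 := rfl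

/-- `a` and the product of its linear factors -/
theorem associated_prod (hk : DiscNorm k) (hc0 : c ≠ 0) (hc1 : ‖c‖ < 1) (a : CAn_243.AN k c)
    (h0 : a ≠ 0) :
    Associated a ((zr c a.1).map fun τ => TA k c - algebraMap C (CAn_243.AN k c) τ).prod := by
  have ha0 : a.1 ≠ 0 := fun h => h0 (Subtype.ext h)
  obtain ⟨F⟩ := exists_fac hk hc0 hc1 a.2 ha0
  rw [← F.S_eq hk hc0]
  let w : CAn_243.AN k c := ⟨mo F.N F.A * F.u, (inA_mo c _ _).mul F.hu.inA⟩
  let w' : CAn_243.AN k c := ⟨mo (-F.N) F.A⁻¹ * F.v, (inA_mo c _ _).mul F.hv.inA⟩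
  have h1 : w * w' = 1 := by
    apply Subtype.ext
    show (mo F.N F.A * F.u) * (mo (-F.N) F.A⁻¹ * F.v) = 1
    calc (mo F.N F.A * F.u) * (mo (-F.N) F.A⁻¹ * F.v) =
          (mo F.N F.A * mo (-F.N) F.A⁻¹) * (F.u * F.v) := by ring
      _ = 1 := by
        rw [mo_mul_mo, F.huv, mul_inv_cancel₀ F.hA, add_neg_cancel, mo_zero_one, mul_one]
  have h2 : w' * w = 1 := by rw [mul_comm]; exact h1
  refine Associated.symm ⟨⟨w, w', h1, h2⟩, ?_⟩
  apply Subtype.ext
  show ((F.S.map fun τ => TA k c - algebraMap C (CAn_243.AN k c) τ).prod).1 *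
    (mo F.N F.A * F.u) = a.1
  rw [coe_prod_TA]
  conv_rhs => rw [F.eq]
  ring

/-- **the ring of bounded functions on the open annulus is a `CellRing`** -/
theorem cellRing_AN (hk : DiscNorm k) (hc0 : c ≠ 0) (hc1 : ‖c‖ < 1) :
    letI := isDomain_AN (k := k) hk c
    CellRing (TA k c) {τ : C | ‖c‖ < ‖τ‖ ∧ ‖τ‖ < 1} := by
  letI := isDomain_AN (k := k) hk c
  refine ⟨fun b hb => ?_, fun τ hτ => ?_, fun x hx => ?_⟩
  · have hb0 : b.1 ≠ 0 := fun h => hb (Subtype.ext h)
    exact ⟨zr c b.1, fun τ hτ => mem_zr_norm hk hc0 hc1 b.2 hb0 hτ,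
      associated_prod hk hc0 hc1 b hb⟩
  · refine ⟨evA243 hc0 τ hτ.1 hτ.2, ?_⟩
    rw [evA243_apply]
    show evE τ (mo 1 1 : EE k C) = τ
    rw [evE_mo, one_mul, zpow_one]
  · have h1 := congrArg (fun a : CAn_243.AN k c => a.1.co 1) hx
    have h2 : (mo 1 1 : EE k C).co 1 = (mo 0 x : EE k C).co 1 := h1
    rw [co_mo, co_mo, if_pos rfl, if_neg one_ne_zero] at h2
    exact one_ne_zero h2

/-- the same with the field structure of `EE k C` in the context -/
theorem cellRing_AN' [hk : Fact (DiscNorm k)] (hc0 : c ≠ 0) (hc1 : ‖c‖ < 1) :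
    CellRing (TA k c) {τ : C | ‖c‖ < ‖τ‖ ∧ ‖τ‖ < 1} :=
  cellRing_AN hk.out hc0 hc1

end Crest.Agent.R013.AnW_201
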