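import Mathlib
import Crest.Agent.R013.Desc2_372
import Crest.Agent.R013.RR20_948

/-!
# R013 / Desc3 (helper372): the rational function field under a constant extension

`ratCE`: the `C(X)`-structure of `K`, `X ↦ x`, where `x` is the image of `X` in `K₀`;
a `k(X)`-basis of `K₀` is a `C(X)`-basis of `K`.
-/

set_option autoImplicit false
set_option linter.all false

namespace Crest.Agent.R013.Desc_372

open TensorProduct Module Polynomial
open Crest.Agent.R013.RR8_948 Crest.Agent.R013.RR20_948

theorem rat_poly {F L : Type*} [Field F] [Field L] [Algebra F L] [Algebra (RatFunc F) L]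
    [IsScalarTower F (RatFunc F) L] (p : F[X]) :
    algebraMap (RatFunc F) L (algebraMap F[X] (RatFunc F) p) = Polynomial.aeval (xK F L) p := by
  induction p using Polynomial.induction_on' with
  | add p q hp hq => rw [map_add, map_add, map_add, hp, hq]
  | monomial n c =>
    rw [← Polynomial.C_mul_X_pow_eq_monomial]
    simp only [map_mul, map_pow, RatFunc.algebraMap_C, RatFunc.algebraMap_X, Polynomial.aeval_C,
      Polynomial.aeval_X]
    rw [← RR2_948.algebraMap_eq_C, ← IsScalarTower.algebraMap_apply]
    rfl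

namespace CE

section rat

variable (k C K₀ K : Type*) [Field k] [Field C] [Field K₀] [Field K] [Algebra k C]
    [Algebra k K₀] [Algebra C K] [Algebra K₀ K] [Algebra k K] [IsScalarTower k C K]
    [IsScalarTower k K₀ K] [CE k C K₀ K]

variable {k K₀} in
theorem transcendental_algebraMap {y : K₀} (hy : Transcendental k y) :
    Transcendental C (algebraMap K₀ K y) := by
  have halg := (‹CE k C K₀ K› : CE k C K₀ K).alg
  intro h
  have h1 : IsIntegral C (algebraMap K₀ K y) := h.isIntegral
  have : Algebra.IsIntegral k C := Algebra.isAlgebraic_iff_isIntegral.1 halg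
  have h2 : IsIntegral k (algebraMap K₀ K y) := isIntegral_trans (R := k) _ h1
  have h3 : IsIntegral k y := (isIntegral_algebraMap_iff (algebraMap K₀ K).injective).1 h2
  exact hy h3.isAlgebraic

omit [CE k C K₀ K] [Field C] [Algebra k C] [Algebra C K] [IsScalarTower k C K] [Field K]
  [Algebra K₀ K] [Algebra k K] [IsScalarTower k K₀ K] in
variable {K₀} in
/-- the monomials times a `k(x)`-independent family are `k`-independent -/
theorem indep_mono [Algebra (RatFunc k) K₀] [IsScalarTower k (RatFunc k) K₀] {ι : Type*}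
    {b : ι → K₀} (hb : LinearIndependent (RatFunc k) b) :
    LinearIndependent k (fun p : ι × ℕ => xK k K₀ ^ p.2 * b p.1) := by
  have h1 : LinearIndependent k (fun n : ℕ => (RatFunc.X : RatFunc k) ^ n) := by
    have h2 := (Polynomial.basisMonomials k).linearIndependent.map'
      (IsScalarTower.toAlgHom k k[X] (RatFunc k)).toLinearMap
      (LinearMap.ker_eq_bot.2 (IsFractionRing.injective k[X] (RatFunc k)))
    have h3 : (fun n : ℕ => (RatFunc.X : RatFunc k) ^ n) =
        (IsScalarTower.toAlgHom k k[X] (RatFunc k)).toLinearMap ∘ (Polynomial.basisMonomials k) := by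
      funext n
      simp only [Function.comp_apply, Polynomial.coe_basisMonomials, AlgHom.toLinearMap_apply]
      rw [← Polynomial.X_pow_eq_monomial]
      simp
    rw [h3]; exact h2
  have h2 := linearIndependent_smul h1 hb
  refine (linearIndependent_equiv' (Equiv.prodComm ι ℕ) ?_).2 h2
  funext p
  simp only [Function.comp_apply, Equiv.prodComm_apply, Prod.fst_swap, Prod.snd_swap]
  rw [Algebra.smul_def, map_pow]
  rfl

variable [Algebra (RatFunc k) K₀] [IsScalarTower k (RatFunc k) K₀]

/-- the `C(X)`-structure of `K` -/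
@[reducible] noncomputable def ratCE : Algebra (RatFunc C) K :=
  ratAlg (algebraMap K₀ K (xK k K₀)) (transcendental_algebraMap C K transcendental_xK)

theorem ratCE_tower : letI := ratCE k C K₀ K; IsScalarTower C (RatFunc C) K :=
  ratAlg_tower (algebraMap K₀ K (xK k K₀)) (transcendental_algebraMap C K transcendental_xK)

theorem ratCE_xK : letI := ratCE k C K₀ K; xK C K = algebraMap K₀ K (xK k K₀) :=
  ratAlg_xK (algebraMap K₀ K (xK k K₀)) (transcendental_algebraMap C K transcendental_xK)

variable [Algebra (RatFunc C) K] [IsScalarTower C (RatFunc C) K]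

variable {k C K₀ K} in
/-- the two structures are compatible -/
theorem exists_rat (hx : xK C K = algebraMap K₀ K (xK k K₀)) (a : RatFunc k) :
    ∃ A : RatFunc C, algebraMap (RatFunc C) K A = algebraMap K₀ K (algebraMap (RatFunc k) K₀ a) := by
  have h1 : ∀ p : k[X], algebraMap (RatFunc C) K
      (algebraMap C[X] (RatFunc C) (p.map (algebraMap k C))) =
      algebraMap K₀ K (algebraMap (RatFunc k) K₀ (algebraMap k[X] (RatFunc k) p)) := by
    intro p
    rw [rat_poly, rat_poly, hx, aeval_map_algebraMap, aeval_algebraMap_apply]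
  refine ⟨algebraMap C[X] (RatFunc C) (a.num.map (algebraMap k C)) /
    algebraMap C[X] (RatFunc C) (a.denom.map (algebraMap k C)), ?_⟩
  rw [map_div₀, h1, h1, ← map_div₀, ← map_div₀, RatFunc.num_div_denom]

variable {k C K₀ K} in
theorem indep_rat (hx : xK C K = algebraMap K₀ K (xK k K₀)) {ι : Type*} {b : ι → K₀}
    (hb : LinearIndependent (RatFunc k) b) :
    LinearIndependent (RatFunc C) (fun i => algebraMap K₀ K (b i)) := by
  classical
  have h1 := linearIndependent_left k C K₀ K (indep_mono k hb)
  rw [linearIndependent_iff'] at h1 ⊢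
  intro s A hA i hi
  obtain ⟨d, hd⟩ := IsLocalization.exist_integer_multiples (nonZeroDivisors C[X]) s A
  have hd0 : algebraMap C[X] (RatFunc C) (d : C[X]) ≠ 0 := by
    rw [ne_eq, FaithfulSMul.algebraMap_eq_zero_iff]
    exact nonZeroDivisors.ne_zero d.2
  have hP : ∀ j, ∃ P : C[X], j ∈ s → algebraMap C[X] (RatFunc C) P =
      algebraMap C[X] (RatFunc C) (d : C[X]) * A j := by
    intro j
    by_cases hj : j ∈ s
    · obtain ⟨P, hP⟩ := hd j hj
      exact ⟨P, fun _ => by rw [hP, Algebra.smul_def]⟩
    · exact ⟨0, fun h => absurd h hj⟩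
  choose P hP using hP
  have h2 : ∑ j ∈ s, Polynomial.aeval (xK C K) (P j) * algebraMap K₀ K (b j) = 0 := by
    have h3 : ∀ j ∈ s, Polynomial.aeval (xK C K) (P j) * algebraMap K₀ K (b j) =
        algebraMap (RatFunc C) K (algebraMap C[X] (RatFunc C) (d : C[X])) *
          (A j • algebraMap K₀ K (b j)) := by
      intro j hj
      rw [← rat_poly, hP j hj, map_mul, Algebra.smul_def, mul_assoc]
    rw [Finset.sum_congr rfl h3, ← Finset.mul_sum, hA, mul_zero]
  let N := s.sup fun j => (P j).natDegree + 1
  have h3 : ∀ j ∈ s, Polynomial.aeval (xK C K) (P j) =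
      ∑ n ∈ Finset.range N, (P j).coeff n • xK C K ^ n := by
    intro j hj
    apply Polynomial.aeval_eq_sum_range'
    exact lt_of_lt_of_le (Nat.lt_succ_self _) (Finset.le_sup (f := fun j => (P j).natDegree + 1) hj)
  have h4 : ∑ p ∈ s ×ˢ Finset.range N, (P p.1).coeff p.2 •
      algebraMap K₀ K (xK k K₀ ^ p.2 * b p.1) = 0 := by
    rw [Finset.sum_product, ← h2]
    refine Finset.sum_congr rfl fun j hj => ?_
    rw [h3 j hj, Finset.sum_mul]
    refine Finset.sum_congr rfl fun n _ => ?_
    rw [map_mul, map_pow, hx, smul_mul_assoc]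
  have h5 : P i = 0 := by
    ext n
    rw [coeff_zero]
    by_cases hn : n < N
    · exact h1 _ _ h4 (i, n) (Finset.mem_product.2 ⟨hi, Finset.mem_range.2 hn⟩)
    · apply Polynomial.coeff_eq_zero_of_natDegree_lt
      have : (P i).natDegree + 1 ≤ N := Finset.le_sup (f := fun j => (P j).natDegree + 1) hi
      omega
  have h6 := hP i hi
  rw [h5, map_zero] at h6
  exact (mul_eq_zero.1 h6.symm).resolve_left hd0

/-- a `k(X)`-basis of `K₀` is a `C(X)`-basis of `K` -/
noncomputable def basisRat (hx : xK C K = algebraMap K₀ K (xK k K₀)) {ι : Type*}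
    (b : Basis ι (RatFunc k) K₀) : Basis ι (RatFunc C) K :=
  Basis.mk (indep_rat hx b.linearIndependent) (by
    intro f _
    obtain ⟨n, c, g, rfl⟩ := exists_sum k C K₀ K f
    refine Submodule.sum_mem _ fun i _ => ?_
    rw [← Algebra.smul_def]
    refine Submodule.smul_of_tower_mem _ _ ?_
    rw [← b.linearCombination_repr (g i), Finsupp.linearCombination_apply, Finsupp.sum, map_sum]
    refine Submodule.sum_mem _ fun j _ => ?_
    obtain ⟨A, hA⟩ := exists_rat hx (b.repr (g i) j)
    rw [Algebra.smul_def, map_mul, ← hA, ← Algebra.smul_def]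
    exact Submodule.smul_mem _ _ (Submodule.subset_span ⟨j, rfl⟩))

@[simp] theorem basisRat_apply (hx : xK C K = algebraMap K₀ K (xK k K₀)) {ι : Type*}
    (b : Basis ι (RatFunc k) K₀) (i : ι) : basisRat k C K₀ K hx b i = algebraMap K₀ K (b i) := by
  simp [basisRat]

variable {k C K₀ K} in
theorem finrank_rat (hx : xK C K = algebraMap K₀ K (xK k K₀)) :
    finrank (RatFunc C) K = finrank (RatFunc k) K₀ := by
  let b := Basis.ofVectorSpace (RatFunc k) K₀
  rw [finrank_eq_nat_card_basis b, finrank_eq_nat_card_basis (basisRat k C K₀ K hx b)]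

theorem finite_rat [FiniteDimensional (RatFunc k) K₀] (hx : xK C K = algebraMap K₀ K (xK k K₀)) :
    FiniteDimensional (RatFunc C) K :=
  Module.Finite.of_basis (basisRat k C K₀ K hx (Module.finBasis (RatFunc k) K₀))

end rat

section inside

variable (k K₀ : Type*) {Ω : Type*} [Field k] [Field K₀] [Field Ω] [Algebra k K₀] [Algebra K₀ Ω]
  [Algebra k Ω] [IsScalarTower k K₀ Ω]

/-- the compositum `K₀ C` inside `Ω` is `lev K₀ Ω C` -/
theorem lev_eq_adjoin (C : IntermediateField k Ω) :
    lev K₀ Ω C = IntermediateField.adjoin K₀ (C : Set Ω) := by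
  unfold lev
  rw [Algebra.algebraMap_self]
  congr 1
  ext x
  simp

/-- `K₀ C` is the constant extension of `K₀` to `C`, for `C` between `k` and `Ω`, separable
algebraic over `k`, if `k` is algebraically closed in `K₀` -/
theorem ce_inside (hc : algebraicClosure k K₀ = ⊥) (C : IntermediateField k Ω)
    [Algebra.IsSeparable k C] : CE k C K₀ (lev K₀ Ω C) := by
  apply of_hc k C K₀ (lev K₀ Ω C) hc
  rw [eq_top_iff]
  rintro ⟨f, hf⟩ _
  have h1 : lev K₀ Ω C ≤ (IntermediateField.adjoin K₀ (Set.range (algebraMap C (lev K₀ Ω C)))).map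
      (lev K₀ Ω C).val := by
    rw [lev_le_iff]
    intro c hc
    exact ⟨algebraMap C (lev K₀ Ω C) ⟨c, hc⟩, IntermediateField.subset_adjoin _ _ ⟨_, rfl⟩, rfl⟩
  obtain ⟨g, hg, hgf⟩ := h1 hf
  have : g = ⟨f, hf⟩ := Subtype.ext hgf
  rw [← this]
  exact hg

/-- the case `C = algebraicClosure k Ω`, characteristic zero -/
theorem ce_closure [CharZero k] (hc : algebraicClosure k K₀ = ⊥) :
    CE k (algebraicClosure k Ω) K₀ (lev K₀ Ω (algebraicClosure k Ω)) := by
  have : Algebra.IsAlgebraic k (algebraicClosure k Ω) := inferInstance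
  exact ce_inside k K₀ hc _

end inside

end CE

end Crest.Agent.R013.Desc_372
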