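import Mathlib
import Crest.Agent.R013.RR19_948
import Crest.Agent.R013.CntB1_491

/-!
# R013 / CntB2: constant extensions, places (helper491)

`Pl k' L = Pl k L` for `k'/k` finite (`plEquiv`), the residue field of a place, and for a constant
extension `K' = K·k'`: `res : Pl k' K' → Pl k K`, the coordinate criterion, unramifiedness.
-/

set_option autoImplicit false
set_option linter.all false

namespace Crest.Agent.R013.CntB2_491

open Polynomial WithZero Module
open Crest.Agent.R013.RR1_948 Crest.Agent.R013.RR7_948 Crest.Agent.R013.RR8_948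
open Crest.Agent.R013.RR9_948 Crest.Agent.R013.RR11_948 Crest.Agent.R013.RR12_948
open Crest.Agent.R013.RR13_948 Crest.Agent.R013.RR18_948 Crest.Agent.R013.RR19_948
open Crest.Agent.R013.CntB1_491

section pl

variable {k k' L : Type*} [Field k] [Field k'] [Field L] [Algebra k k'] [Algebra k L]
  [Algebra k' L] [IsScalarTower k k' L]

/-- a valuation trivial on `k` is trivial on an algebraic extension -/
theorem eq_one_of_algebraic [Algebra.IsAlgebraic k k'] {Γ : Type*}
    [LinearOrderedCommGroupWithZero Γ] (v : Valuation L Γ)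
    (hk : ∀ c : k, c ≠ 0 → v (algebraMap k L c) = 1) (c : k') (hc : c ≠ 0) :
    v (algebraMap k' L c) = 1 := by
  have h0 : ∀ c : k, v (algebraMap k L c) ≤ 1 := by
    intro c
    by_cases h : c = 0
    · rw [h, map_zero, map_zero]; exact zero_le_one
    · exact (hk c h).le
  have h1 : ∀ c : k', v (algebraMap k' L c) ≤ 1 := by
    intro c
    apply le_one_of_integral (S := k) v h0
    exact (Algebra.IsIntegral.isIntegral (R := k) c).map (IsScalarTower.toAlgHom k k' L)
  refine le_antisymm (h1 c) ?_
  have h2 := h1 c⁻¹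
  rw [map_inv₀, map_inv₀] at h2
  have h3 : v (algebraMap k' L c) ≠ 0 := (Valuation.ne_zero_iff _).mpr (by simpa using hc)
  exact (inv_le_one₀ (zero_lt_iff.mpr h3)).mp h2

variable (k) in
/-- a place of `L/k'` is a place of `L/k` -/
def down (Q : Pl k' L) : Pl k L where
  v := Q.v
  const c hc := by
    rw [IsScalarTower.algebraMap_apply k k' L]
    exact Q.const _ (by simpa using hc)
  surj := Q.surj

@[simp] theorem down_v (Q : Pl k' L) : (down k Q).v = Q.v := rfl

variable (k') in
/-- a place of `L/k` is a place of `L/k'` -/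
def up [Algebra.IsAlgebraic k k'] (P : Pl k L) : Pl k' L where
  v := P.v
  const c hc := eq_one_of_algebraic P.v P.const c hc
  surj := P.surj

@[simp] theorem up_v [Algebra.IsAlgebraic k k'] (P : Pl k L) : (up k' P).v = P.v := rfl

@[simp] theorem down_up [Algebra.IsAlgebraic k k'] (P : Pl k L) : down k (up k' P) = P := rfl

@[simp] theorem up_down [Algebra.IsAlgebraic k k'] (Q : Pl k' L) : up k' (down k Q) = Q := rfl

theorem down_injective : Function.Injective (down k : Pl k' L → Pl k L) := by
  intro P Q h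
  exact Pl.ext (show (down k P).v = (down k Q).v by rw [h])

variable (k k' L) in
/-- `Pl k' L = Pl k L` -/
def plEquiv [Algebra.IsAlgebraic k k'] : Pl k' L ≃ Pl k L where
  toFun := down k
  invFun := up k'
  left_inv := up_down
  right_inv := down_up

theorem restrictScalars_ball (Q : Pl k' L) (n : ℤ) :
    (ball Q n).restrictScalars k = ball (down k Q) n := by
  ext x
  rw [Submodule.restrictScalars_mem, mem_ball, mem_ball, down_v]

theorem length_restrictScalars [FiniteDimensional k k'] {M : Type*} [AddCommGroup M] [Module k' M]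
    [Module k M] [IsScalarTower k k' M] {n : ℕ} (h : Module.length k' M = n) :
    Module.length k M = (finrank k k' * n : ℕ) := by
  obtain ⟨h1, h2⟩ := RR10_948.finite_of_length h
  haveI : Module.Finite k M := Module.Finite.trans k' M
  rw [Module.length_eq_finrank, ← finrank_mul_finrank k k' M, h2]

theorem ri_restrictScalars [FiniteDimensional k k'] {V : Type*} [AddCommGroup V] [Module k' V]
    [Module k V] [IsScalarTower k k' V] {P Q : Submodule k' V} {n : ℕ} (h : ri P Q = n) :
    ri (P.restrictScalars k) (Q.restrictScalars k) = (finrank k k' * n : ℕ) := by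
  unfold ri at h ⊢
  rw [← length_restrictScalars (k := k) h]
  refine LinearEquiv.length_eq ?_
  let f : (Q.restrictScalars k) →ₗ[k] (Q ⧸ P.submoduleOf Q) :=
    { toFun := fun x => Submodule.Quotient.mk ⟨x.1, x.2⟩
      map_add' := fun x y => rfl
      map_smul' := fun c x => by
        rw [RingHom.id_apply]
        rfl }
  have hf : Function.Surjective f := by
    intro y
    obtain ⟨x, rfl⟩ := Submodule.Quotient.mk_surjective _ y
    exact ⟨⟨x.1, x.2⟩, rfl⟩
  have hker : LinearMap.ker f = (P.restrictScalars k).submoduleOf (Q.restrictScalars k) := by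
    ext x
    rw [LinearMap.mem_ker]
    show (Submodule.Quotient.mk ⟨x.1, x.2⟩ : Q ⧸ P.submoduleOf Q) = 0 ↔ _
    rw [Submodule.Quotient.mk_eq_zero]
    rfl
  exact (Submodule.quotEquivOfEq _ _ hker.symm).trans (f.quotKerEquivOfSurjective hf)

theorem degE_down [FiniteDimensional k k'] (Q : Pl k' L) {n : ℕ} (h : degE Q = n) :
    degE (down k Q) = (finrank k k' * n : ℕ) := by
  unfold degE at h ⊢
  rw [← restrictScalars_ball, ← restrictScalars_ball, ri_restrictScalars h]

theorem degP_down [FiniteDimensional k k'] [Algebra (RatFunc k') L]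
    [IsScalarTower k' (RatFunc k') L] [FiniteDimensional (RatFunc k') L]
    [Algebra.IsSeparable (RatFunc k') L] (Q : Pl k' L) :
    degP (down k Q) = finrank k k' * degP Q := by
  have h := degE_down (k := k) Q (degE_eq Q)
  unfold degP at h ⊢
  rw [h, ENat.toNat_natCast]

end pl

section residue

variable {k K : Type*} [Field k] [Field K] [Algebra k K]

theorem algebraMap_mem_OO (P : Pl k K) (c : k) : algebraMap k K c ∈ OO P := by
  rw [mem_OO]
  by_cases h0 : c = 0
  · rw [h0, map_zero, map_zero]; exact zero_le_one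
  · exact (P.const c h0).le

/-- the valuation ring of a place as a `k`-algebra -/
noncomputable instance algOO (P : Pl k K) : Algebra k (OO P) :=
  ((algebraMap k K).codRestrict (OO P) (algebraMap_mem_OO P)).toAlgebra

instance (P : Pl k K) : IsScalarTower k (OO P) K := IsScalarTower.of_algebraMap_eq fun _ => rfl

/-- the residue field -/
abbrev Kap (P : Pl k K) := IsLocalRing.ResidueField (OO P)

theorem mem_maximalIdeal {P : Pl k K} {x : OO P} :
    x ∈ IsLocalRing.maximalIdeal (OO P) ↔ P.v x < 1 := by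
  rw [IsLocalRing.mem_maximalIdeal, mem_nonunits_iff]
  constructor
  · intro h
    by_contra h2
    rw [not_lt] at h2
    apply h
    have h3 : P.v (x : K) = 1 := le_antisymm (mem_OO.mp x.2) h2
    have h4 : (x : K) ≠ 0 := by
      intro h0
      rw [h0, map_zero] at h3
      exact zero_ne_one h3
    refine isUnit_iff_exists_inv.mpr ⟨⟨(x : K)⁻¹, ?_⟩, ?_⟩
    · rw [mem_OO, map_inv₀, h3, inv_one]
    · ext
      exact mul_inv_cancel₀ h4
  · intro h h2
    obtain ⟨y, hy⟩ := isUnit_iff_exists_inv.mp h2
    have h3 : P.v (x : K) * P.v (y : K) = 1 := by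
      rw [← map_mul, ← map_one P.v]
      congr 1
      exact congrArg Subtype.val hy
    have h4 : P.v (x : K) * P.v (y : K) ≤ P.v (x : K) * 1 := mul_le_mul_right (mem_OO.mp y.2) _
    rw [h3, mul_one] at h4
    exact absurd h (not_lt.mpr h4)

theorem length_Kap (P : Pl k K) : Module.length k (Kap P) = degE P := by
  unfold degE ri
  symm
  refine LinearEquiv.length_eq ?_
  let f : (ball P 0) →ₗ[k] Kap P :=
    { toFun := fun x => IsLocalRing.residue (OO P) ⟨x.1, by
        have := mem_ball.mp x.2
        rwa [exp_zero] at this⟩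
      map_add' := fun x y => rfl
      map_smul' := fun c x => by
        rw [RingHom.id_apply, Algebra.smul_def]
        rw [IsScalarTower.algebraMap_apply k (OO P) (Kap P)]
        rw [IsLocalRing.ResidueField.algebraMap_eq, ← map_mul]
        congr 1
        ext
        show c • (x : K) = algebraMap k K c * x
        rw [Algebra.smul_def] }
  have hf : Function.Surjective f := by
    intro y
    obtain ⟨x, rfl⟩ := IsLocalRing.residue_surjective y
    exact ⟨⟨x.1, mem_ball.mpr (by rw [exp_zero]; exact x.2)⟩, rfl⟩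
  have hker : LinearMap.ker f = (ball P (-1)).submoduleOf (ball P 0) := by
    ext x
    rw [LinearMap.mem_ker]
    show IsLocalRing.residue (OO P) _ = 0 ↔ _
    rw [IsLocalRing.residue_eq_zero_iff, mem_maximalIdeal]
    exact (RR2_948.lt_one_iff _).trans (mem_ball (f := (x : K)) (P := P)).symm
  exact (Submodule.quotEquivOfEq _ _ hker.symm).trans (f.quotKerEquivOfSurjective hf)

theorem finite_Kap {P : Pl k K} {n : ℕ} (h : degE P = n) :
    Module.Finite k (Kap P) ∧ finrank k (Kap P) = n :=
  RR10_948.finite_of_length ((length_Kap P).trans h)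

variable {L : Type*} [Field L] [Algebra k L] [Algebra K L] [IsScalarTower k K L]

/-- the map of valuation rings -/
noncomputable def ooMap (P : Pl k K) (Q : Pl k L)
    (h : ∀ f : K, P.v f ≤ 1 → Q.v (algebraMap K L f) ≤ 1) : OO P →ₐ[k] OO Q :=
  { ((algebraMap K L).comp (OO P).subtype).codRestrict (OO Q) (fun x => h x.1 x.2) with
    commutes' := fun c => by
      ext
      show algebraMap K L (algebraMap k K c) = algebraMap k L c
      rw [← IsScalarTower.algebraMap_apply] }

theorem ooMap_coe (P : Pl k K) (Q : Pl k L)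
    (h : ∀ f : K, P.v f ≤ 1 → Q.v (algebraMap K L f) ≤ 1) (x : OO P) :
    (ooMap P Q h x : L) = algebraMap K L x := rfl

theorem isLocalHom_ooMap (P : Pl k K) (Q : Pl k L)
    (h : ∀ f : K, P.v f ≤ 1 → Q.v (algebraMap K L f) ≤ 1)
    (h' : ∀ f : K, P.v f < 1 → Q.v (algebraMap K L f) < 1) :
    IsLocalHom (ooMap P Q h).toRingHom := by
  refine ⟨fun x hx => ?_⟩
  by_contra hcon
  have h1 : P.v (x : K) < 1 := mem_maximalIdeal.mp ((IsLocalRing.mem_maximalIdeal _).mpr hcon)
  have h2 := h' _ h1
  have h3 : ooMap P Q h x ∈ IsLocalRing.maximalIdeal (OO Q) := mem_maximalIdeal.mpr h2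
  exact (IsLocalRing.mem_maximalIdeal _).mp h3 hx

/-- the map of residue fields -/
noncomputable def kapMap (P : Pl k K) (Q : Pl k L)
    (h : ∀ f : K, P.v f ≤ 1 → Q.v (algebraMap K L f) ≤ 1)
    (h' : ∀ f : K, P.v f < 1 → Q.v (algebraMap K L f) < 1) : Kap P →ₐ[k] Kap Q :=
  letI := isLocalHom_ooMap P Q h h'
  { IsLocalRing.ResidueField.map (ooMap P Q h).toRingHom with
    commutes' := fun c => by
      rw [IsScalarTower.algebraMap_apply k (OO P) (Kap P),
        IsScalarTower.algebraMap_apply k (OO Q) (Kap Q), IsLocalRing.ResidueField.algebraMap_eq,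
        IsLocalRing.ResidueField.algebraMap_eq]
      show IsLocalRing.residue (OO Q) (ooMap P Q h (algebraMap k (OO P) c)) = _
      rw [AlgHom.commutes] }

theorem kapMap_residue (P : Pl k K) (Q : Pl k L)
    (h : ∀ f : K, P.v f ≤ 1 → Q.v (algebraMap K L f) ≤ 1)
    (h' : ∀ f : K, P.v f < 1 → Q.v (algebraMap K L f) < 1) (x : OO P) :
    kapMap P Q h h' (IsLocalRing.residue (OO P) x) = IsLocalRing.residue (OO Q) (ooMap P Q h x) :=
  rfl

theorem dvd_of_le (P : Pl k K) (Q : Pl k L)
    (h : ∀ f : K, P.v f ≤ 1 → Q.v (algebraMap K L f) ≤ 1)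
    (h' : ∀ f : K, P.v f < 1 → Q.v (algebraMap K L f) < 1) {n m : ℕ} (hP : degE P = n)
    (hQ : degE Q = m) : n ∣ m := by
  letI : Algebra (Kap P) (Kap Q) := (kapMap P Q h h').toRingHom.toAlgebra
  haveI : IsScalarTower k (Kap P) (Kap Q) :=
    IsScalarTower.of_algebraMap_eq fun c => ((kapMap P Q h h').commutes c).symm
  obtain ⟨h1, h2⟩ := finite_Kap hP
  obtain ⟨h3, h4⟩ := finite_Kap hQ
  rw [← h2, ← h4, ← finrank_mul_finrank k (Kap P) (Kap Q)]
  exact Dvd.intro _ rfl

end residue

section ext

variable {k : Type*} [Field k] {K : Type*} [Field K] [Algebra k K] [Algebra (RatFunc k) K]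
  [IsScalarTower k (RatFunc k) K] [FiniteDimensional (RatFunc k) K]
  [Algebra.IsSeparable (RatFunc k) K]
  {L : Type*} [Field L] [Algebra k L] [Algebra K L] [IsScalarTower k K L]
  [FiniteDimensional K L] [Algebra.IsSeparable K L]

/-- the residue degree is an integer -/
theorem degP_under_dvd (Q : Pl k L) : degP (under K Q) ∣ degP Q :=
  dvd_of_le (under K Q) Q (fun f hf => (under_le_one_iff Q f).mp hf)
    (fun f hf => (under_lt_one_iff Q f).mp hf) (degE_eq _) (degE_eq_of_ext K Q)

end ext

section ce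

variable {k k' K K' : Type*} [Field k] [Field k'] [Field K] [Field K'] [Algebra k k']
  [Algebra k K] [Algebra k' K'] [Algebra K K'] [Algebra k K'] [IsScalarTower k k' K']
  [IsScalarTower k K K'] [FiniteDimensional k k'] [Algebra.IsSeparable k k']
  [FiniteDimensional K K'] [Algebra.IsSeparable K K']
  [Algebra (RatFunc k) K] [IsScalarTower k (RatFunc k) K] [FiniteDimensional (RatFunc k) K]
  [Algebra.IsSeparable (RatFunc k) K]
  [Algebra (RatFunc k') K'] [IsScalarTower k' (RatFunc k') K'] [FiniteDimensional (RatFunc k') K']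
  [Algebra.IsSeparable (RatFunc k') K']

variable (k K) in
/-- restriction of places -/
noncomputable def res (Q : Pl k' K') : Pl k K := under K (down k Q)

theorem res_le_one_iff (Q : Pl k' K') (f : K) :
    (res k K Q).v f ≤ 1 ↔ Q.v (algebraMap K K' f) ≤ 1 := under_le_one_iff (down k Q) f

theorem res_lt_one_iff (Q : Pl k' K') (f : K) :
    (res k K Q).v f < 1 ↔ Q.v (algebraMap K K' f) < 1 := under_lt_one_iff (down k Q) f

theorem res_eq_iff {Q : Pl k' K'} {P : Pl k K} :
    res k K Q = P ↔ ∀ f : K, P.v f ≤ 1 → Q.v (algebraMap K K' f) ≤ 1 := under_eq_iff_le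

/-- integrality over the valuation ring of `P` is seen at the places above `P` -/
theorem isIntegral_of_le (P : Pl k K) (x : K')
    (hx : ∀ Q : Pl k' K', res k K Q = P → Q.v x ≤ 1) : IsIntegral (OO P) x := by
  by_contra hcon
  have hxR : x ∉ (integralClosure (OO P) K').toSubring := hcon
  obtain ⟨V, hV, hxV⟩ := Subring.exists_le_valuationSubring_of_isIntegrallyClosedIn hxR
  have hP : ∀ f : K, P.v f ≤ 1 → V.valuation (algebraMap K K' f) ≤ 1 := by
    intro f hf
    rw [ValuationSubring.valuation_le_one_iff]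
    apply hV
    exact Subalgebra.algebraMap_mem (integralClosure (OO P) K') (⟨f, hf⟩ : OO P)
  have hk : ∀ c : k, c ≠ 0 → V.valuation (algebraMap k K' c) = 1 := by
    intro c hc
    rw [IsScalarTower.algebraMap_apply k K K']
    apply le_antisymm (hP _ (P.const c hc).le)
    have h2 := hP _ (P.const c⁻¹ (inv_ne_zero hc)).le
    rw [map_inv₀, map_inv₀, map_inv₀] at h2
    have h3 : V.valuation (algebraMap K K' (algebraMap k K c)) ≠ 0 :=
      (Valuation.ne_zero_iff _).mpr (by simpa using hc)
    exact (inv_le_one₀ (zero_lt_iff.mpr h3)).mp h2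
  have hk' : ∀ c : k', c ≠ 0 → V.valuation (algebraMap k' K' c) = 1 := fun c hc =>
    eq_one_of_algebraic V.valuation hk c hc
  have hx1 : ¬ V.valuation x ≤ 1 := by rwa [ValuationSubring.valuation_le_one_iff]
  obtain ⟨Q, hQ⟩ := exists_place (k := k') V.valuation hk' ⟨x, fun h0 => hx1 (by
    rw [h0]; exact zero_le_one), fun h1 => hx1 h1.le⟩
  apply hx1
  rw [← hQ.le_one_iff_le_one]
  apply hx
  rw [res_eq_iff]
  intro f hf
  rw [hQ.le_one_iff_le_one]
  exact hP f hf

/-- **coordinate criterion** -/
theorem repr_le_one (h : IsCE k k' K K') {ι : Type*} [Fintype ι] (b : Basis ι k k') (P : Pl k K)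
    (x : K') (hx : ∀ Q : Pl k' K', res k K Q = P → Q.v x ≤ 1) (i : ι) :
    P.v ((h.basis b).repr x i) ≤ 1 := by
  classical
  obtain ⟨c, hc⟩ := h.exists_dual b
  have h1 := isIntegral_of_le P x hx
  have h2 : IsIntegral (OO P) (algebraMap k' K' (c i)) := by
    have h3 : IsIntegral k (algebraMap k' K' (c i)) :=
      (Algebra.IsIntegral.isIntegral (R := k) (c i)).map (IsScalarTower.toAlgHom k k' K')
    haveI : IsScalarTower k (OO P) K' := IsScalarTower.of_algebraMap_eq fun c => by
      rw [IsScalarTower.algebraMap_apply k K K']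
      rfl
    exact h3.tower_top
  have h4 : IsIntegral (OO P) ((h.basis b).repr x i) := by
    rw [hc]
    exact Algebra.isIntegral_trace (h1.mul h2)
  obtain ⟨y, hy⟩ := IsIntegrallyClosed.isIntegral_iff.mp h4
  rw [← hy]
  exact y.2

/-- the trace of a function small at all places above `P` is small -/
theorem trace_lt_one (P : Pl k K) (z : K') (hz : ∀ Q : Pl k' K', res k K Q = P → Q.v z < 1) :
    P.v (Algebra.trace K K' z) < 1 := by
  classical
  obtain ⟨A, hA, hloc⟩ := IsLocalRing.exists_factor_valuationRing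
    (algebraMap (OO P) (AlgebraicClosure K'))
  have hP : ∀ f : K, P.v f ≤ 1 → A.valuation (algebraMap K (AlgebraicClosure K') f) ≤ 1 := by
    intro f hf
    rw [ValuationSubring.valuation_le_one_iff]
    exact hA ⟨f, hf⟩
  have hP1 : ∀ f : K, P.v f = 1 → A.valuation (algebraMap K (AlgebraicClosure K') f) = 1 := by
    intro f hf
    have hf0 : f ≠ 0 := by
      rintro rfl
      rw [map_zero] at hf
      exact zero_ne_one hf
    apply le_antisymm (hP _ hf.le)
    have h2 := hP f⁻¹ (by rw [map_inv₀, hf, inv_one])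
    rw [map_inv₀, map_inv₀] at h2
    have h3 : A.valuation (algebraMap K (AlgebraicClosure K') f) ≠ 0 :=
      (Valuation.ne_zero_iff _).mpr (by simpa using hf0)
    exact (inv_le_one₀ (zero_lt_iff.mpr h3)).mp h2
  have hPlt : ∀ f : K, P.v f < 1 → A.valuation (algebraMap K (AlgebraicClosure K') f) < 1 := by
    intro f hf
    have hf' : f ∈ OO P := hf.le
    have h1 : ¬ IsUnit (⟨f, hf'⟩ : OO P) :=
      (IsLocalRing.mem_maximalIdeal _).mp (mem_maximalIdeal.mpr hf)
    have h2 : ¬ IsUnit (((algebraMap (OO P) (AlgebraicClosure K')).codRestrict A.toSubring hA)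
        ⟨f, hf'⟩) := fun h => h1 (hloc.map_nonunit _ h)
    rcases (hP f hf.le).lt_or_eq with h | h
    · exact h
    · exfalso
      exact h2 ((ValuationSubring.valuation_eq_one_iff A ⟨_, hA ⟨f, hf'⟩⟩).mpr h)
  obtain ⟨t, ht0, ht⟩ := exists_v_eq P (-1)
  have ht1 : P.v t < 1 := by rw [ht, ← exp_zero, exp_lt_exp]; norm_num
  have key : ∀ σ : K' →ₐ[K] AlgebraicClosure K', A.valuation (σ z) < 1 := by
    intro σ
    set w : Valuation K' A.ValueGroup := A.valuation.comap (σ : K' →+* AlgebraicClosure K') with hw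
    have hwK : ∀ f : K, w (algebraMap K K' f) = A.valuation (algebraMap K (AlgebraicClosure K') f) := by
      intro f
      rw [hw, Valuation.comap_apply]
      congr 1
      exact σ.commutes f
    have hk : ∀ c : k, c ≠ 0 → w (algebraMap k K' c) = 1 := by
      intro c hc
      rw [IsScalarTower.algebraMap_apply k K K', hwK]
      exact hP1 _ (P.const c hc)
    have hk' : ∀ c : k', c ≠ 0 → w (algebraMap k' K' c) = 1 := fun c hc =>
      eq_one_of_algebraic w hk c hc
    have hnt : w (algebraMap K K' t) < 1 := by rw [hwK]; exact hPlt t ht1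
    obtain ⟨Q, hQ⟩ := exists_place (k := k') w hk' ⟨algebraMap K K' t,
      (Valuation.ne_zero_iff _).mpr (by simpa using ht0), hnt.ne⟩
    have h1 : res k K Q = P := by
      rw [res_eq_iff]
      intro f hf
      rw [hQ.le_one_iff_le_one, hwK]
      exact hP f hf
    have h2 := hz Q h1
    rw [hQ.lt_one_iff_lt_one] at h2
    exact h2
  have h3 : A.valuation (algebraMap K (AlgebraicClosure K') (Algebra.trace K K' z)) < 1 := by
    rw [trace_eq_sum_embeddings (AlgebraicClosure K')]
    exact A.valuation.map_sum_lt one_ne_zero fun σ _ => key σ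
  by_contra hcon
  rw [not_lt] at hcon
  have h4 : P.v (Algebra.trace K K' z) ≠ 0 := fun h0 => by
    rw [h0] at hcon
    exact absurd hcon (not_le.mpr zero_lt_one)
  have h5 : P.v (Algebra.trace K K' z)⁻¹ ≤ 1 := by
    rw [map_inv₀]
    exact (inv_le_one₀ (zero_lt_iff.mpr h4)).mpr hcon
  have h6 := hP _ h5
  rw [map_inv₀, map_inv₀] at h6
  have h7 : A.valuation (algebraMap K (AlgebraicClosure K') (Algebra.trace K K' z)) ≠ 0 := by
    rw [Valuation.ne_zero_iff]
    rw [Valuation.ne_zero_iff] at h4
    simpa using h4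
  exact absurd h3 (not_lt.mpr ((inv_le_one₀ (zero_lt_iff.mpr h7)).mp h6))

theorem repr_lt_one (h : IsCE k k' K K') {ι : Type*} [Fintype ι] (b : Basis ι k k') (P : Pl k K)
    (x : K') (hx : ∀ Q : Pl k' K', res k K Q = P → Q.v x < 1) (i : ι) :
    P.v ((h.basis b).repr x i) < 1 := by
  classical
  obtain ⟨c, hc⟩ := h.exists_dual b
  rw [hc]
  apply trace_lt_one (k' := k')
  intro Q hQ
  rw [map_mul]
  by_cases h0 : c i = 0
  · rw [h0, map_zero, map_zero, mul_zero]; exact zero_lt_one
  · rw [Q.const _ h0, mul_one]; exact hx Q hQ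

/-- constant extensions are unramified -/
theorem eR_eq_one (h : IsCE k k' K K') (Q : Pl k' K') : eR K (down k Q) = 1 := by
  classical
  set P := res k K Q with hP
  obtain ⟨y, hy0, hy⟩ := exists_prescribed
    ((above K' P).image (up k')) (fun _ : Pl k' K' => (-1 : ℤ))
  have hy1 : ∀ Q' : Pl k' K', res k K Q' = P → Q'.v y = exp (-1) := by
    intro Q' hQ'
    apply hy
    rw [Finset.mem_image]
    exact ⟨down k Q', mem_above.mpr hQ', rfl⟩
  let b := Module.finBasis k k'
  have h1 : ∀ i, P.v ((h.basis b).repr y i) < 1 := fun i =>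
    repr_lt_one h b P y (fun Q' hQ' => by
      rw [hy1 Q' hQ', ← exp_zero, exp_lt_exp]; norm_num) i
  have h2 : ∀ i, Q.v (algebraMap K K' ((h.basis b).repr y i)) ≤ exp (-(eR K (down k Q) : ℤ)) := by
    intro i
    by_cases h0 : (h.basis b).repr y i = 0
    · rw [h0, map_zero, map_zero]; exact zero_le
    · have h3 : P.v ((h.basis b).repr y i) = exp (log (P.v ((h.basis b).repr y i))) :=
        (exp_log ((Valuation.ne_zero_iff _).mpr h0)).symm
      have h4 := h1 i
      rw [h3, ← exp_zero, exp_lt_exp] at h4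
      have h5 := v_algebraMap_exp (down k Q) h3
      rw [down_v] at h5
      rw [h5, exp_le_exp]
      have h6 := eR_pos (K := K) (down k Q)
      nlinarith
  have h3 := h.val_le_of_repr Q.v Q.const b y h2
  rw [hy1 Q rfl, exp_le_exp] at h3
  have h6 := eR_pos (K := K) (down k Q)
  omega

/-- **`v_Q(f) = v_P(f)`** -/
theorem res_v (h : IsCE k k' K K') (Q : Pl k' K') (f : K) :
    (res k K Q).v f = Q.v (algebraMap K K' f) := by
  have h1 := v_algebraMap (down k Q) f
  rw [eR_eq_one h Q, pow_one, down_v] at h1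
  exact h1.symm

/-- coordinate criterion -/
theorem repr_le (h : IsCE k k' K K') {ι : Type*} [Fintype ι] (b : Basis ι k k') (P : Pl k K)
    (x : K') (n : ℤ) (hx : ∀ Q : Pl k' K', res k K Q = P → Q.v x ≤ exp n) (i : ι) :
    P.v ((h.basis b).repr x i) ≤ exp n := by
  obtain ⟨t, ht0, ht⟩ := exists_v_eq P n
  have h1 : P.v ((h.basis b).repr (t⁻¹ • x) i) ≤ 1 := by
    apply repr_le_one h b P
    intro Q hQ
    have h2 : Q.v (algebraMap K K' t) = exp n := by rw [← res_v h, hQ, ht]
    rw [Algebra.smul_def, map_mul, map_inv₀, map_inv₀, h2]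
    calc (exp n)⁻¹ * Q.v x ≤ (exp n)⁻¹ * exp n := mul_le_mul_right (hx Q hQ) _
      _ = 1 := inv_mul_cancel₀ exp_ne_zero
  rw [map_smul, Finsupp.smul_apply, smul_eq_mul, map_mul, map_inv₀, ht] at h1
  calc P.v ((h.basis b).repr x i) = exp n * ((exp n)⁻¹ * P.v ((h.basis b).repr x i)) := by
        rw [mul_inv_cancel_left₀ exp_ne_zero]
    _ ≤ exp n * 1 := mul_le_mul_right h1 _
    _ = exp n := mul_one _

/-- coordinate criterion, converse -/
theorem le_of_repr (h : IsCE k k' K K') {ι : Type*} [Fintype ι] (b : Basis ι k k') (Q : Pl k' K')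
    (x : K') (n : ℤ) (hx : ∀ i, (res k K Q).v ((h.basis b).repr x i) ≤ exp n) :
    Q.v x ≤ exp n :=
  h.val_le_of_repr Q.v Q.const b x fun i => by rw [← res_v h]; exact hx i

variable (k' K') in
/-- the places above `P` -/
noncomputable def fib (P : Pl k K) : Finset (Pl k' K') := by
  classical
  exact (above K' P).image (up k')

theorem mem_fib {P : Pl k K} {Q : Pl k' K'} : Q ∈ fib k' K' P ↔ res k K Q = P := by
  classical
  unfold fib
  rw [Finset.mem_image]
  constructor
  · rintro ⟨R, hR, rfl⟩
    exact mem_above.mp hR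
  · intro h
    exact ⟨down k Q, mem_above.mpr h, rfl⟩

theorem fib_nonempty (P : Pl k K) : (fib k' K' P).Nonempty := by
  classical
  obtain ⟨R, hR⟩ := above_nonempty (L := K') P
  exact ⟨up k' R, mem_fib.mpr (mem_above.mp hR)⟩

theorem res_surjective : Function.Surjective (res k K : Pl k' K' → Pl k K) := fun P => by
  obtain ⟨Q, hQ⟩ := fib_nonempty (k' := k') (K' := K') P
  exact ⟨Q, mem_fib.mp hQ⟩

/-- **`∑_{Q | P} deg Q = deg P`** -/
theorem sum_degP (h : IsCE k k' K K') (P : Pl k K) : ∑ Q ∈ fib k' K' P, degP Q = degP P := by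
  classical
  have h1 := sum_eR_degP (L := K') P
  rw [h.finrank_eq] at h1
  have h2 : ∑ Q ∈ above K' P, eR K Q * degP Q = finrank k k' * ∑ Q ∈ fib k' K' P, degP Q := by
    unfold fib
    rw [Finset.sum_image (fun x _ y _ hxy => by
      have := congrArg (down k) hxy
      simpa using this), Finset.mul_sum]
    refine Finset.sum_congr rfl fun R _ => ?_
    have h3 := eR_eq_one h (up k' R)
    rw [down_up] at h3
    rw [h3, one_mul, ← degP_down (k := k) (up k' R), down_up]
  rw [h2] at h1
  exact Nat.eq_of_mul_eq_mul_left (Module.finrank_pos) h1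

end ce

end Crest.Agent.R013.CntB2_491
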