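import Mathlib
import Crest.Agent.R013.PicD_398
import Crest.Agent.R013.CntB2_491

/-!
# R013 / CntB3: constant extensions, conorm, genus, class group (helper491)
-/

set_option autoImplicit false
set_option linter.all false

namespace Crest.Agent.R013.CntB3_491

open Polynomial WithZero Module
open Crest.Agent.R013.RR1_948 Crest.Agent.R013.RR7_948 Crest.Agent.R013.RR8_948
open Crest.Agent.R013.RR9_948 Crest.Agent.R013.RR11_948 Crest.Agent.R013.RR12_948
open Crest.Agent.R013.RR13_948 Crest.Agent.R013.RR18_948 Crest.Agent.R013.PicD_398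
open Crest.Agent.R013.CntB1_491 Crest.Agent.R013.CntB2_491

variable {k k' K K' : Type*} [Field k] [Field k'] [Field K] [Field K'] [Algebra k k']
  [Algebra k K] [Algebra k' K'] [Algebra K K'] [Algebra k K'] [IsScalarTower k k' K']
  [IsScalarTower k K K'] [FiniteDimensional k k'] [Algebra.IsSeparable k k']
  [FiniteDimensional K K'] [Algebra.IsSeparable K K']
  [Algebra (RatFunc k) K] [IsScalarTower k (RatFunc k) K] [FiniteDimensional (RatFunc k) K]
  [Algebra.IsSeparable (RatFunc k) K]
  [Algebra (RatFunc k') K'] [IsScalarTower k' (RatFunc k') K'] [FiniteDimensional (RatFunc k') K']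
  [Algebra.IsSeparable (RatFunc k') K']

variable (k' K') in
/-- the conorm of a divisor in a constant extension -/
noncomputable def con (D : Pl k K →₀ ℤ) : Pl k' K' →₀ ℤ := by
  classical
  exact Finsupp.onFinset (D.support.biUnion (fib k' K')) (fun Q => D (res k K Q)) (fun Q hQ => by
    rw [Finset.mem_biUnion]
    exact ⟨res k K Q, Finsupp.mem_support_iff.mpr hQ, mem_fib.mpr rfl⟩)

@[simp] theorem con_apply (D : Pl k K →₀ ℤ) (Q : Pl k' K') : con k' K' D Q = D (res k K Q) := rfl

variable (k k' K K') in
/-- the conorm as a homomorphism -/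
noncomputable def conHom : (Pl k K →₀ ℤ) →+ (Pl k' K' →₀ ℤ) where
  toFun := con k' K'
  map_zero' := by ext Q; simp
  map_add' D E := by ext Q; simp

theorem conHom_apply (D : Pl k K →₀ ℤ) : conHom k k' K K' D = con k' K' D := rfl

theorem con_zero : con k' K' (0 : Pl k K →₀ ℤ) = 0 := (conHom k k' K K').map_zero

theorem con_add (D E : Pl k K →₀ ℤ) : con k' K' (D + E) = con k' K' D + con k' K' E :=
  (conHom k k' K K').map_add D E

theorem con_neg (D : Pl k K →₀ ℤ) : con k' K' (-D) = -con k' K' D :=
  (conHom k k' K K').map_neg D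

theorem con_sub (D E : Pl k K →₀ ℤ) : con k' K' (D - E) = con k' K' D - con k' K' E :=
  (conHom k k' K K').map_sub D E

theorem con_zsmul (n : ℤ) (D : Pl k K →₀ ℤ) : con k' K' (n • D) = n • con k' K' D :=
  map_zsmul (conHom k k' K K') n D

theorem con_nonneg {D : Pl k K →₀ ℤ} (hD : 0 ≤ D) : 0 ≤ con k' K' D := fun Q => hD (res k K Q)

theorem con_single (P : Pl k K) (n : ℤ) :
    con k' K' (Finsupp.single P n) = ∑ Q ∈ fib k' K' P, Finsupp.single Q n := by
  classical
  ext Q
  rw [con_apply, Finsupp.finset_sum_apply]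
  by_cases h : res k K Q = P
  · rw [h, Finsupp.single_eq_same, Finset.sum_eq_single Q, Finsupp.single_eq_same]
    · intro R _ hR
      rw [Finsupp.single_apply, if_neg hR]
    · intro hQ
      exact absurd (mem_fib.mpr h) hQ
  · rw [Finsupp.single_apply, if_neg (Ne.symm h)]
    symm
    apply Finset.sum_eq_zero
    intro R hR
    rw [Finsupp.single_apply, if_neg]
    rintro rfl
    exact h (mem_fib.mp hR)

theorem con_injective : Function.Injective (con k' K' : (Pl k K →₀ ℤ) → (Pl k' K' →₀ ℤ)) := by
  intro D E h
  ext P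
  obtain ⟨Q, rfl⟩ := res_surjective (k' := k') (K' := K') P
  rw [← con_apply, ← con_apply, h]

theorem degD_sum {k L : Type*} [Field k] [Field L] [Algebra k L] {ι : Type*} (s : Finset ι)
    (D : ι → (Pl k L →₀ ℤ)) : degD (∑ i ∈ s, D i) = ∑ i ∈ s, degD (D i) := by
  classical
  induction s using Finset.induction_on with
  | empty => rw [Finset.sum_empty, Finset.sum_empty, degD_zero]
  | insert a s ha ih => rw [Finset.sum_insert ha, Finset.sum_insert ha, degD_add, ih]

/-- **the degree is preserved** -/
theorem degD_con (h : IsCE k k' K K') (D : Pl k K →₀ ℤ) : degD (con k' K' D) = degD D := by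
  classical
  induction D using Finsupp.induction_linear with
  | zero => rw [con_zero, degD_zero, degD_zero]
  | add D E hD hE => rw [con_add, degD_add, degD_add, hD, hE]
  | single P n =>
    rw [con_single, degD_sum, degD_single, ← sum_degP h P, Nat.cast_sum, Finset.mul_sum]
    exact Finset.sum_congr rfl fun Q _ => degD_single Q n

theorem mem_LD_con (h : IsCE k k' K K') {ι : Type*} [Fintype ι] (b : Basis ι k k')
    {D : Pl k K →₀ ℤ} {x : K'} :
    x ∈ LD (con k' K' D) ↔ ∀ i, (h.basis b).repr x i ∈ LD D := by
  constructor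
  · intro hx i
    rw [mem_LD]
    intro P
    apply repr_le h b P x
    rintro Q rfl
    exact mem_LD.mp hx Q
  · intro hx
    rw [mem_LD]
    intro Q
    rw [con_apply]
    apply le_of_repr h b Q x
    intro i
    exact mem_LD.mp (hx i) _

theorem algebraMap_mem_LD_con (h : IsCE k k' K K') {D : Pl k K →₀ ℤ} {f : K} :
    algebraMap K K' f ∈ LD (con k' K' D) ↔ f ∈ LD D := by
  rw [mem_LD, mem_LD]
  constructor
  · intro hf P
    obtain ⟨Q, rfl⟩ := res_surjective (k' := k') (K' := K') P
    rw [res_v h]
    exact hf Q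
  · intro hf Q
    rw [con_apply, ← res_v h]
    exact hf _

/-- **`ℓ` is preserved** -/
theorem ell_con (h : IsCE k k' K K') (D : Pl k K →₀ ℤ) : ell (con k' K' D) = ell D := by
  classical
  let b := Module.finBasis k k'
  have h1 : finrank k (LD (con k' K' D)) = finrank k k' * ell (con k' K' D) :=
    (finrank_mul_finrank k k' (LD (con k' K' D))).symm
  let e : LD (con k' K' D) ≃ₗ[k] (Fin (finrank k k') → LD D) :=
    { toFun := fun x i => ⟨(h.basis b).repr x.1 i, (mem_LD_con h b).mp x.2 i⟩
      map_add' := fun x y => by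
        ext i
        show (h.basis b).repr (x.1 + y.1) i = (h.basis b).repr x.1 i + (h.basis b).repr y.1 i
        rw [map_add, Finsupp.add_apply]
      map_smul' := fun c x => by
        ext i
        show (h.basis b).repr (c • x.1) i = c • (h.basis b).repr x.1 i
        rw [← algebraMap_smul K c x.1, map_smul, Finsupp.smul_apply, algebraMap_smul]
      invFun := fun y => ⟨(h.basis b).repr.symm (Finsupp.equivFunOnFinite.symm fun i => (y i : K)), by
        rw [mem_LD_con h b]
        intro i
        rw [LinearEquiv.apply_symm_apply]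
        exact (y i).2⟩
      left_inv := fun x => by
        ext
        show (h.basis b).repr.symm (Finsupp.equivFunOnFinite.symm
          fun i => (h.basis b).repr x.1 i) = x.1
        rw [LinearEquiv.symm_apply_eq]
        ext i
        rfl
      right_inv := fun y => by
        ext i
        show (h.basis b).repr ((h.basis b).repr.symm _) i = _
        rw [LinearEquiv.apply_symm_apply]
        rfl }
  have h2 : finrank k (LD (con k' K' D)) = finrank k k' * ell D := by
    haveI := LD_finite D
    rw [e.finrank_eq, Module.finrank_pi_fintype, Finset.sum_const, Finset.card_univ,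
      Fintype.card_fin, smul_eq_mul]
    rfl
  rw [h1] at h2
  exact Nat.eq_of_mul_eq_mul_left Module.finrank_pos h2

/-- divisors of functions of `K` -/
theorem con_divf (h : IsCE k k' K K') {f : K} (hf : f ≠ 0) :
    con k' K' (divf (k := k) f) = divf (algebraMap K K' f) := by
  have hf' : algebraMap K K' f ≠ 0 := by simpa using hf
  ext Q
  have h1 := v_eq hf' Q
  have h2 := v_eq hf (res k K Q)
  rw [res_v h, h1, exp_inj] at h2
  rw [con_apply]
  omega

/-- **the genus is preserved** -/
theorem gen_eq (h : IsCE k k' K K') : gen k' K' = gen k K := by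
  obtain ⟨D, hD⟩ := RR19_948.exists_degD_gt (k := k) (K := K)
    (max (2 * (gen k K : ℤ) - 2) (2 * (gen k' K' : ℤ) - 2))
  have h1 := ell_eq_of_lt h.hc (D := D) (lt_of_le_of_lt (le_max_left _ _) hD)
  have h2 := ell_eq_of_lt h.hc' (D := con k' K' D)
    (by rw [degD_con h]; exact lt_of_le_of_lt (le_max_right _ _) hD)
  rw [degD_con h, ell_con h, h1] at h2
  omega

/-- the conorm on divisor classes -/
noncomputable def conPic (h : IsCE k k' K K') : Pic k K →+ Pic k' K' :=
  QuotientAddGroup.map (Prin k K) (Prin k' K') (conHom k k' K K') (by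
    rintro _ ⟨f, hf, rfl⟩
    exact ⟨algebraMap K K' f, by simpa using hf, (con_divf h hf).symm⟩)

theorem conPic_cls (h : IsCE k k' K K') (D : Pl k K →₀ ℤ) :
    conPic h (cls D) = cls (con k' K' D) := rfl

theorem degPic_conPic (h : IsCE k k' K K') (z : Pic k K) : degPic (conPic h z) = degPic z := by
  obtain ⟨D, rfl⟩ := cls_surjective z
  rw [conPic_cls, degPic_cls, degPic_cls, degD_con h]

theorem ellPic_conPic (h : IsCE k k' K K') (z : Pic k K) : ellPic (conPic h z) = ellPic z := by
  obtain ⟨D, rfl⟩ := cls_surjective z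
  rw [conPic_cls, ellPic_cls, ellPic_cls, ell_con h]

theorem ell_pos_of_cls_eq_zero {D : Pl k K →₀ ℤ} (hD : cls D = 0) : 0 < ell D := by
  obtain ⟨f, hf, h1⟩ := cls_eq_zero_iff.mp hD
  rw [ell_pos_iff]
  refine ⟨f⁻¹, inv_ne_zero hf, ?_⟩
  rw [divf_inv hf, h1, add_neg_cancel]

/-- the conorm is injective on classes -/
theorem conPic_injective (h : IsCE k k' K K') : Function.Injective (conPic h) := by
  rw [injective_iff_map_eq_zero]
  intro z hz
  obtain ⟨D, rfl⟩ := cls_surjective z
  rw [conPic_cls] at hz
  have h1 : degD D = 0 := by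
    rw [← degD_con h, ← degPic_cls, hz, map_zero]
  exact ell_pos_deg_zero h1 (by rw [← ell_con h]; exact ell_pos_of_cls_eq_zero hz)

end Crest.Agent.R013.CntB3_491
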