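import Mathlib
import Crest.Agent.R013.Desc3_372
import Crest.Agent.R013.CntB3_491

/-!
# R013 / Desc4 (helper372): places of an algebraic constant extension

`resC k K₀ P`: the place of `K₀/k` below the place `P` of `K/C`; unramified; surjective;
finite fibres; for a finite set of places there is a finite level `k'` over which they are the only
places above their restrictions; then they are fixed by `Gam k'` and rational.
-/

set_option autoImplicit false
set_option linter.all false

namespace Crest.Agent.R013.Desc_372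

open TensorProduct Module Polynomial WithZero
open Crest.Agent.R013.RR7_948 Crest.Agent.R013.RR8_948 Crest.Agent.R013.RR9_948
open Crest.Agent.R013.RR11_948 Crest.Agent.R013.RR12_948 Crest.Agent.R013.RR13_948
open Crest.Agent.R013.RR18_948 Crest.Agent.R013.RR19_948 Crest.Agent.R013.RR20_948
open Crest.Agent.R013.CntB1_491 Crest.Agent.R013.CntB2_491

section res

variable (k : Type*) {C : Type*} (K₀ : Type*) {K : Type*} [Field k] [Field C] [Field K₀] [Field K]
  [Algebra k C] [Algebra k K₀] [Algebra C K] [Algebra K₀ K] [Algebra k K] [IsScalarTower k C K]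
  [IsScalarTower k K₀ K] [Algebra.IsAlgebraic K₀ K]
  [Algebra (RatFunc k) K₀] [IsScalarTower k (RatFunc k) K₀] [FiniteDimensional (RatFunc k) K₀]
  [Algebra.IsSeparable (RatFunc k) K₀]

theorem exists_resC (P : Pl C K) : ∃ Q : Pl k K₀, Q.v.IsEquiv (P.v.comap (algebraMap K₀ K)) := by
  apply exists_place
  · intro c hc
    rw [Valuation.comap_apply, ← IsScalarTower.algebraMap_apply,
      IsScalarTower.algebraMap_apply k C K]
    exact P.const _ (by simpa using hc)
  · by_contra hcon
    push Not at hcon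
    have h1 : ∀ c : K₀, c ≠ 0 → P.v (algebraMap K₀ K c) = 1 := by
      intro c hc
      exact hcon c ((Valuation.ne_zero_iff _).mpr hc)
    obtain ⟨t, ht⟩ := P.surj (exp (-1))
    have ht0 : t ≠ 0 := by
      rintro rfl; rw [map_zero] at ht; exact exp_ne_zero ht.symm
    have h2 := eq_one_of_algebraic (k := K₀) (k' := K) (L := K) P.v h1 t ht0
    rw [Algebra.algebraMap_self, RingHom.id_apply, ht, ← exp_zero] at h2
    exact absurd (exp_injective h2) (by norm_num)

/-- the place below -/
noncomputable def resC (P : Pl C K) : Pl k K₀ := (exists_resC k K₀ P).choose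

theorem resC_isEquiv (P : Pl C K) : (resC k K₀ P).v.IsEquiv (P.v.comap (algebraMap K₀ K)) :=
  (exists_resC k K₀ P).choose_spec

variable {k K₀}

theorem resC_le_one_iff (P : Pl C K) (f : K₀) :
    (resC k K₀ P).v f ≤ 1 ↔ P.v (algebraMap K₀ K f) ≤ 1 :=
  (resC_isEquiv k K₀ P).le_one_iff_le_one

theorem resC_lt_one_iff (P : Pl C K) (f : K₀) :
    (resC k K₀ P).v f < 1 ↔ P.v (algebraMap K₀ K f) < 1 :=
  (resC_isEquiv k K₀ P).lt_one_iff_lt_one

theorem resC_eq_iff {P : Pl C K} {Q : Pl k K₀} :
    resC k K₀ P = Q ↔ ∀ f : K₀, Q.v f ≤ 1 → P.v (algebraMap K₀ K f) ≤ 1 := by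
  constructor
  · rintro rfl f hf
    exact (resC_le_one_iff P f).mp hf
  · intro h
    exact (pl_eq_of_le fun f hf => (resC_le_one_iff P f).mpr (h f hf)).symm

/-- every place of `K₀/k` lies below a place of `K/C` -/
theorem resC_surjective [Algebra.IsAlgebraic k C]
    [Algebra (RatFunc C) K] [IsScalarTower C (RatFunc C) K] [FiniteDimensional (RatFunc C) K]
    [Algebra.IsSeparable (RatFunc C) K] :
    Function.Surjective (resC k K₀ : Pl C K → Pl k K₀) := by
  intro Q
  obtain ⟨t, ht0, ht⟩ := exists_v_eq Q (-1)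
  -- `t⁻¹` is not integral over `O_Q`
  have hx : algebraMap K₀ K t⁻¹ ∉ (integralClosure (OO Q) K).toSubring := by
    intro h
    have h1 : IsIntegral (OO Q) (algebraMap K₀ K t⁻¹) := h
    have h2 : IsIntegral (OO Q) t⁻¹ :=
      (isIntegral_algebraMap_iff (algebraMap K₀ K).injective).1 h1
    have h3 := IsIntegrallyClosed.isIntegral_iff.1 h2
    obtain ⟨y, hy⟩ := h3
    have h4 : Q.v t⁻¹ ≤ 1 := by rw [← hy]; exact y.2
    rw [map_inv₀, ht, ← exp_neg, neg_neg, ← exp_zero, exp_le_exp] at h4
    norm_num at h4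
  obtain ⟨V, hV, hxV⟩ := Subring.exists_le_valuationSubring_of_isIntegrallyClosedIn hx
  have hP : ∀ f : K₀, Q.v f ≤ 1 → V.valuation (algebraMap K₀ K f) ≤ 1 := by
    intro f hf
    rw [ValuationSubring.valuation_le_one_iff]
    apply hV
    exact Subalgebra.algebraMap_mem (integralClosure (OO Q) K) (⟨f, hf⟩ : OO Q)
  have hk : ∀ c : k, c ≠ 0 → V.valuation (algebraMap k K c) = 1 := by
    intro c hc
    rw [IsScalarTower.algebraMap_apply k K₀ K]
    apply le_antisymm (hP _ (Q.const c hc).le)
    have h2 := hP _ (Q.const c⁻¹ (inv_ne_zero hc)).le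
    rw [map_inv₀, map_inv₀, map_inv₀] at h2
    have h3 : V.valuation (algebraMap K₀ K (algebraMap k K₀ c)) ≠ 0 :=
      (Valuation.ne_zero_iff _).mpr (by simpa using hc)
    exact (inv_le_one₀ (zero_lt_iff.mpr h3)).mp h2
  have hk' : ∀ c : C, c ≠ 0 → V.valuation (algebraMap C K c) = 1 := fun c hc =>
    eq_one_of_algebraic V.valuation hk c hc
  have hx1 : ¬ V.valuation (algebraMap K₀ K t⁻¹) ≤ 1 := by
    rwa [ValuationSubring.valuation_le_one_iff]
  obtain ⟨P, hPV⟩ := exists_place (k := C) V.valuation hk' ⟨algebraMap K₀ K t⁻¹, fun h0 => hx1 (by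
    rw [h0]; exact zero_le_one), fun h1 => hx1 h1.le⟩
  refine ⟨P, ?_⟩
  rw [resC_eq_iff]
  intro f hf
  rw [hPV.le_one_iff_le_one]
  exact hP f hf

end res

section level

open CE

variable {k C K₀ K : Type*} [Field k] [Field C] [Field K₀] [Field K]
  [Algebra k C] [Algebra k K₀] [Algebra C K] [Algebra K₀ K] [Algebra k K] [IsScalarTower k C K]
  [IsScalarTower k K₀ K]

variable (K₀ K) in
/-- the rational function field at level `k'` -/
@[reducible] noncomputable def levRat [CE k C K₀ K] [Algebra (RatFunc k) K₀]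
    [IsScalarTower k (RatFunc k) K₀] (k' : IntermediateField k C) :
    Algebra (RatFunc k') (lev K₀ K k') := ratCE k k' K₀ (lev K₀ K k')

attribute [local instance] levRat

section inst

variable [CE k C K₀ K] [Algebra (RatFunc k) K₀] [IsScalarTower k (RatFunc k) K₀]

theorem levRat_tower (k' : IntermediateField k C) :
    IsScalarTower k' (RatFunc k') (lev K₀ K k') := ratCE_tower k k' K₀ (lev K₀ K k')

attribute [local instance] levRat_tower

theorem levRat_xK (k' : IntermediateField k C) :
    xK k' (lev K₀ K k') = algebraMap K₀ (lev K₀ K k') (xK k K₀) := ratCE_xK k k' K₀ (lev K₀ K k')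

theorem levRat_finite [FiniteDimensional (RatFunc k) K₀] (k' : IntermediateField k C) :
    FiniteDimensional (RatFunc k') (lev K₀ K k') :=
  finite_rat k k' K₀ (lev K₀ K k') (levRat_xK k')

end inst

attribute [local instance] levRat_tower levRat_finite

variable [h : CE k C K₀ K] [CharZero k]
  [Algebra (RatFunc k) K₀] [IsScalarTower k (RatFunc k) K₀] [FiniteDimensional (RatFunc k) K₀]

include h in
theorem charZero_K₀ : CharZero K₀ := charZero_of_injective_algebraMap (algebraMap k K₀).injective

variable (K₀ K) in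
theorem finite_lev (k' : IntermediateField k C) [FiniteDimensional k k'] :
    FiniteDimensional K₀ (lev K₀ K k') :=
  Module.Finite.of_basis (basisR k k' K₀ (lev K₀ K k') (Module.finBasis k k'))

variable (K₀ K) in
theorem sep_lev (k' : IntermediateField k C) [FiniteDimensional k k'] :
    Algebra.IsSeparable K₀ (lev K₀ K k') := by
  have := charZero_K₀ (k := k) (C := C) (K₀ := K₀) (K := K)
  have := finite_lev K₀ K k'
  infer_instance

theorem isAlg_lev (k' : IntermediateField k C) : Algebra.IsAlgebraic (lev K₀ K k') K := by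
  have := CE.isAlgebraic k C K₀ K
  exact Algebra.IsAlgebraic.tower_top (K := K₀) (lev K₀ K k')

attribute [local instance] finite_lev sep_lev isAlg_lev

/-- restriction in two steps -/
theorem res_resC (k' : IntermediateField k C) [FiniteDimensional k k'] [Algebra.IsAlgebraic K₀ K]
    (P : Pl C K) : CntB2_491.res k K₀ (resC k' (lev K₀ K k') P) = resC k K₀ P := by
  rw [res_eq_iff]
  intro f hf
  rw [resC_le_one_iff, ← IsScalarTower.algebraMap_apply]
  exact (resC_le_one_iff P f).1 hf

omit h [CharZero k] [Algebra (RatFunc k) K₀] [IsScalarTower k (RatFunc k) K₀]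
  [FiniteDimensional (RatFunc k) K₀] in
/-- a place which restricts to a place with a uniformizer generating its value group -/
theorem v_eq_of_unif {L : Type*} [Field L] [Algebra k L] [Algebra L K] {Q : Pl k L} {P : Pl C K}
    (hQ : Q.v.IsEquiv (P.v.comap (algebraMap L K))) {t : L}
    (ht : P.v (algebraMap L K t) = exp (-1)) (f : L) : P.v (algebraMap L K f) = Q.v f := by
  obtain ⟨u, hu⟩ := Q.surj (exp (-1))
  have ht0 : Q.v t ≠ 0 := by
    rw [Valuation.ne_zero_iff]
    rintro rfl
    rw [map_zero, map_zero] at ht; exact exp_ne_zero ht.symm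
  obtain ⟨m, hm⟩ : ∃ m : ℤ, Q.v t = exp m := ⟨log (Q.v t), (exp_log ht0).symm⟩
  have h1 := eq_zpow_of_isEquiv hQ hu hm
  have h2 := lt_one_of_isEquiv hQ hu
  rw [Valuation.comap_apply] at h1 h2
  rw [Valuation.comap_apply] at h1
  have hu0 : P.v (algebraMap L K u) ≠ 0 := by
    rw [Valuation.ne_zero_iff]
    intro h0
    have : u = 0 := by simpa using h0
    rw [this, map_zero] at hu; exact exp_ne_zero hu.symm
  obtain ⟨e, he⟩ : ∃ e : ℤ, P.v (algebraMap L K u) = exp e :=
    ⟨log (P.v (algebraMap L K u)), (exp_log hu0).symm⟩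
  rw [he, ← exp_zero, exp_lt_exp] at h2
  rw [ht, he, ← exp_zsmul] at h1
  have h3 := exp_injective h1
  rw [smul_eq_mul] at h3
  have he1 : e = -1 := by
    have h4 : e ∣ 1 := ⟨m, by linarith⟩
    have h5 := Int.natAbs_dvd_natAbs.2 h4
    rw [Int.natAbs_one, Nat.dvd_one] at h5
    omega
  by_cases hf : f = 0
  · rw [hf, map_zero, map_zero, map_zero]
  · have hf0 : Q.v f ≠ 0 := (Valuation.ne_zero_iff _).mpr hf
    have hn := (exp_log hf0).symm
    have h6 := eq_zpow_of_isEquiv hQ hu hn
    rw [Valuation.comap_apply, Valuation.comap_apply, he, he1, ← exp_zsmul] at h6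
    rw [h6, hn, log_exp]
    congr 1
    simp

/-- **constant extensions are unramified** -/
theorem resC_v (hc : algebraicClosure k K₀ = ⊥) [Algebra.IsAlgebraic K₀ K] (P : Pl C K) (f : K₀) :
    (resC k K₀ P).v f = P.v (algebraMap K₀ K f) := by
  obtain ⟨t, ht⟩ := P.surj (exp (-1))
  obtain ⟨k', hk', htk⟩ := exists_lev (k := k) (C := C) K₀ K ({t} : Set K) (Set.finite_singleton t)
  have htl : t ∈ lev K₀ K k' := htk rfl
  have halg : Algebra.IsAlgebraic k C := h.alg
  have hce := isCE_lev k C K₀ K hc k'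
  have h1 := v_eq_of_unif (Q := resC k' (lev K₀ K k') P) (P := P)
    (resC_isEquiv k' (lev K₀ K k') P) (t := ⟨t, htl⟩) ht
  rw [← res_resC k' P, res_v hce, ← h1, ← IsScalarTower.algebraMap_apply]

/-- the same at level `k'` -/
theorem resC_lev_v (hc : algebraicClosure k K₀ = ⊥) [Algebra.IsAlgebraic K₀ K]
    (k' : IntermediateField k C) [FiniteDimensional k k'] (P : Pl C K) (f : lev K₀ K k') :
    (resC k' (lev K₀ K k') P).v f = P.v (f : K) := by
  have halg : Algebra.IsAlgebraic k C := h.alg
  have hce := isCE_lev k C K₀ K hc k'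
  exact resC_v (k := k') (C := C) (K₀ := lev K₀ K k') (K := K) hce.hc' P f

end level

end Crest.Agent.R013.Desc_372
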