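import Crest.Agent.R013.LemC1_623
import Crest.Agent.R013.Desc3_372
import Crest.Agent.R013.Desc4_372

/-!
# Constant extensions of circle fields (row 13, leaf LEMW / B-ANN, part 2)

`E` a circle field over `k`, `Ω` an algebraically closed normed field over `E`.  Then `k` is
algebraically closed in `E`, and for every finite `k'/k` inside `Ω` the compositum
`E' = lev E Ω k'` is a circle field over `k'`.
-/

set_option autoImplicit false
set_option linter.unusedSectionVars false
set_option linter.style.haveILetI false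

namespace Crest.Agent.R013.LemC623

open Polynomial Crest.Agent.R013.Gl946 Crest.Agent.R013.Desc_372 Crest.Agent.R013.Desc_372.CE

/-- uniformisers exist when balls are compact. -/
theorem exists_unif (F : Type*) [NontriviallyNormedField F] [IsUltrametricDist F] [ProperSpace F] :
    ∃ π : F, IsUnif π := by
  have hcl : IsClosed (Metric.ball (0 : F) 1) := IsUltrametricDist.isClosed_ball 0 1
  have hK : IsCompact (Metric.ball (0 : F) 1) :=
    Metric.isCompact_of_isClosed_isBounded hcl Metric.isBounded_ball
  obtain ⟨a, ha0, ha1⟩ := NormedField.exists_norm_lt_one F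
  obtain ⟨x, hx, hmax⟩ := hK.exists_isMaxOn ⟨a, by simpa using ha1⟩
    (continuous_norm (E := F)).continuousOn
  have hx1 : ‖x‖ < 1 := by simpa using hx
  have hle : ∀ a : F, ‖a‖ < 1 → ‖a‖ ≤ ‖x‖ := fun a ha => hmax (by simpa using ha)
  exact ⟨x, ha0.trans_le (hle a ha1), hx1, hle⟩

section setup

variable {k : Type*} [NontriviallyNormedField k] [CompleteSpace k] [IsUltrametricDist k]
  [CharZero k] {E : Type*} [NormedField E] [NormedAlgebra k E] [IsUltrametricDist E]
  {Ω : Type*} [NormedField Ω] [NormedAlgebra k Ω] [NormedAlgebra E Ω] [IsScalarTower k E Ω]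
  [IsUltrametricDist Ω] [IsAlgClosed Ω] {y : E}

theorem isGauss_map (hG : IsGauss k y) : IsGauss k (algebraMap E Ω y) where
  norm_le := by rw [norm_algebraMap']; exact hG.norm_le
  coeff_le f i := by
    rw [aeval_algebraMap_apply, norm_algebraMap']; exact hG.coeff_le f i

omit [NormedField Ω] [NormedAlgebra k Ω] [NormedAlgebra E Ω] [IsScalarTower k E Ω]
  [IsUltrametricDist Ω] [IsAlgClosed Ω] in
/-- `k` is algebraically closed in `E`. -/
theorem algClosed_in (Ω : Type*) [NormedField Ω] [NormedAlgebra k Ω] [NormedAlgebra E Ω]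
    [IsScalarTower k E Ω] [IsUltrametricDist Ω] [IsAlgClosed Ω] (hG : IsGauss k y)
    (hd : DenseRat k y) : algebraicClosure k E = ⊥ := by
  rw [eq_bot_iff]
  intro c hc
  rw [mem_algebraicClosure_iff] at hc
  have hc' : IsAlgebraic k (algebraMap E Ω c) := hc.algebraMap
  set F : IntermediateField k Ω := algebraicClosure k Ω with hF
  have key : ∀ ε : ℝ, 0 < ε → ∃ a : k, ‖c - algebraMap k E a‖ < ε := by
    intro ε hε
    obtain ⟨f, g, hg, hfg⟩ := hd c ε hε
    have hgy := hG.aeval_ne_zero hg
    set c' : F := ⟨algebraMap E Ω c, mem_algebraicClosure_iff.2 hc'⟩ with hc'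
    set h : F[X] := C c' * g.map (algebraMap k F) - f.map (algebraMap k F) with hh
    have h1 := gauss_alg (isGauss_map (Ω := Ω) hG) F h
    have h2 : aeval (algebraMap E Ω y) h = algebraMap E Ω (c * aeval y g - aeval y f) := by
      rw [hh, map_sub, map_mul, aeval_C, aeval_map_algebraMap, aeval_map_algebraMap, map_sub,
        map_mul, aeval_algebraMap_apply, aeval_algebraMap_apply]
      rfl
    have h3 : ‖c * aeval y g - aeval y f‖ < ε * ‖aeval y g‖ := by
      have e : c * aeval y g - aeval y f = (c - aeval y f / aeval y g) * aeval y g := by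
        field_simp
      rw [e, norm_mul]
      exact mul_lt_mul_of_pos_right hfg (norm_pos_iff.2 hgy)
    rw [h2, norm_algebraMap'] at h1
    have h4 : ‖aeval y g‖ = gn g := gn_eq_of_isGauss hG g
    obtain ⟨i, hi⟩ := exists_gn g
    have hgi : g.coeff i ≠ 0 := by
      intro h0
      rw [h0, norm_zero] at hi
      rw [hi, norm_eq_zero] at h4
      exact hgy h4
    have h5 : ‖h.coeff i‖ < ε * ‖g.coeff i‖ := by
      refine lt_of_le_of_lt (coeff_le_gn h i) ?_
      rw [← h1, ← hi, ← h4]
      exact h3
    have h6 : ((h.coeff i : F) : Ω) = algebraMap E Ω (c * algebraMap k E (g.coeff i) -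
        algebraMap k E (f.coeff i)) := by
      rw [hh, coeff_sub, coeff_C_mul, coeff_map, coeff_map, map_sub, map_mul,
        ← IsScalarTower.algebraMap_apply, ← IsScalarTower.algebraMap_apply]
      rfl
    have h7 : ‖h.coeff i‖ = ‖c * algebraMap k E (g.coeff i) - algebraMap k E (f.coeff i)‖ := by
      rw [← norm_algebraMap' Ω (c * algebraMap k E (g.coeff i) - algebraMap k E (f.coeff i)), ← h6]
      rfl
    refine ⟨f.coeff i / g.coeff i, ?_⟩
    have hgi' : algebraMap k E (g.coeff i) ≠ 0 := by simpa using hgi
    have e : c - algebraMap k E (f.coeff i / g.coeff i) =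
        (c * algebraMap k E (g.coeff i) - algebraMap k E (f.coeff i)) /
          algebraMap k E (g.coeff i) := by
      rw [map_div₀]; field_simp
    rw [e, norm_div, norm_algebraMap', div_lt_iff₀ (norm_pos_iff.2 hgi), ← h7]
    exact h5
  have hcl : IsClosed (Set.range (algebraMap k E)) :=
    (algebraMap_isometry k E).isClosedEmbedding.isClosed_range
  have hmem : c ∈ closure (Set.range (algebraMap k E)) := by
    rw [Metric.mem_closure_iff]
    intro ε hε
    obtain ⟨a, ha⟩ := key ε hε
    exact ⟨_, ⟨a, rfl⟩, by rw [dist_eq_norm]; exact ha⟩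
  rw [hcl.closure_eq] at hmem
  exact IntermediateField.mem_bot.2 hmem

/-! ### finite levels -/

variable (E) in
/-- `E k'` as a normed algebra over `k'`. -/
noncomputable instance levNA (k' : IntermediateField k Ω) : NormedAlgebra k' (lev E Ω k') :=
  { levAlg E Ω k' with
    norm_smul_le := fun c x => by
      rw [Algebra.smul_def, norm_mul]
      rfl }

theorem ce_E (hG : IsGauss k y) (hd : DenseRat k y) (k' : IntermediateField k Ω)
    [Algebra.IsAlgebraic k k'] : CE k k' E (lev E Ω k') :=
  ce_inside k E (algClosed_in Ω hG hd) k'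

theorem finite_E (hG : IsGauss k y) (hd : DenseRat k y) (k' : IntermediateField k Ω)
    [FiniteDimensional k k'] : FiniteDimensional E (lev E Ω k') := by
  haveI := ce_E hG hd k'
  exact Module.Finite.of_basis (basisR k k' E (lev E Ω k') (Module.finBasis k k'))

theorem complete_E [CompleteSpace E] (hG : IsGauss k y) (hd : DenseRat k y)
    (k' : IntermediateField k Ω) [FiniteDimensional k k'] : CompleteSpace (lev E Ω k') := by
  haveI := finite_E hG hd k'
  letI : NontriviallyNormedField E :=
    { (inferInstance : NormedField E) with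
      non_trivial := by
        obtain ⟨a, ha⟩ := NormedField.exists_one_lt_norm k
        exact ⟨algebraMap k E a, by rw [norm_algebraMap']; exact ha⟩ }
  exact FiniteDimensional.complete E (lev E Ω k')

theorem complete_k (k' : IntermediateField k Ω) [FiniteDimensional k k'] : CompleteSpace k' :=
  FiniteDimensional.complete k k'

theorem proper_k [ProperSpace k] (k' : IntermediateField k Ω) [FiniteDimensional k k'] :
    ProperSpace k' := FiniteDimensional.proper k k'

/-- `k'` is nontrivially normed -/
@[reducible] def nnK (k' : IntermediateField k Ω) : NontriviallyNormedField k' :=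
  { (inferInstance : NormedField k') with
    non_trivial := by
      obtain ⟨a, ha⟩ := NormedField.exists_one_lt_norm k
      exact ⟨algebraMap k k' a, by rw [norm_algebraMap']; exact ha⟩ }

theorem exists_unif_k [ProperSpace k] (k' : IntermediateField k Ω) [FiniteDimensional k k'] :
    ∃ π' : k', IsUnif π' := by
  letI := nnK k'
  haveI := proper_k k'
  exact exists_unif k'

/-- `y` in the level `k'` -/
noncomputable def yl (y : E) (k' : IntermediateField k Ω) : lev E Ω k' := algebraMap E (lev E Ω k') y

theorem coe_yl (y : E) (k' : IntermediateField k Ω) : ((yl y k' : lev E Ω k') : Ω) =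
    algebraMap E Ω y := rfl

theorem coe_aeval_lev (y : E) (k' : IntermediateField k Ω) (f : k'[X]) :
    ((aeval (yl y k') f : lev E Ω k') : Ω) = aeval (algebraMap E Ω y) f := by
  have h := aeval_algebraMap_apply Ω (yl y k') f
  have e : algebraMap (lev E Ω k') Ω (yl y k') = algebraMap E Ω y := rfl
  rw [e] at h
  exact h.symm

/-- **The Gauss norm at the level `k'`.** -/
theorem isGauss_lev (hG : IsGauss k y) (k' : IntermediateField k Ω) [Algebra.IsAlgebraic k k'] :
    IsGauss k' (yl y k') where
  norm_le := by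
    change ‖((yl y k' : lev E Ω k') : Ω)‖ ≤ 1
    rw [coe_yl, norm_algebraMap']; exact hG.norm_le
  coeff_le f i := by
    change _ ≤ ‖((aeval (yl y k') f : lev E Ω k') : Ω)‖
    rw [coe_aeval_lev, gauss_alg (isGauss_map hG) k' f]
    exact coeff_le_gn f i

/-- the embedding `E → E'` is isometric -/
theorem norm_algMap_lev (k' : IntermediateField k Ω) (z : E) :
    ‖algebraMap E (lev E Ω k') z‖ = ‖z‖ := norm_algebraMap' _ z

theorem aeval_yl (y : E) (k' : IntermediateField k Ω) (f : k[X]) :
    aeval (yl y k') (f.map (algebraMap k k')) = algebraMap E (lev E Ω k') (aeval y f) := by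
  apply Subtype.ext
  rw [coe_aeval_lev, aeval_map_algebraMap]
  change _ = algebraMap E Ω (aeval y f)
  rw [aeval_algebraMap_apply]

/-- elements approximated by rational functions -/
theorem dense_lev (hG : IsGauss k y) (hd : DenseRat k y) (k' : IntermediateField k Ω)
    [Algebra.IsAlgebraic k k'] : DenseRat k' (yl y k') := by
  haveI := ce_E hG hd k'
  have hG' := isGauss_lev hG k'
  -- the set of limits of rational functions is closed under addition and multiplication by constants
  have hadd : ∀ x x' : lev E Ω k',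
      (∀ ε : ℝ, 0 < ε → ∃ f g : k'[X], g ≠ 0 ∧ ‖x - aeval (yl y k') f / aeval (yl y k') g‖ < ε) →
      (∀ ε : ℝ, 0 < ε → ∃ f g : k'[X], g ≠ 0 ∧ ‖x' - aeval (yl y k') f / aeval (yl y k') g‖ < ε) →
      ∀ ε : ℝ, 0 < ε → ∃ f g : k'[X], g ≠ 0 ∧
        ‖x + x' - aeval (yl y k') f / aeval (yl y k') g‖ < ε := by
    intro x x' hx hx' ε hε
    obtain ⟨f, g, hg, h1⟩ := hx ε hε
    obtain ⟨f', g', hg', h1'⟩ := hx' ε hε
    refine ⟨f * g' + g * f', g * g', mul_ne_zero hg hg', ?_⟩
    have e : x + x' - aeval (yl y k') (f * g' + g * f') / aeval (yl y k') (g * g') =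
        (x - aeval (yl y k') f / aeval (yl y k') g) +
          (x' - aeval (yl y k') f' / aeval (yl y k') g') := by
      have n1 := hG'.aeval_ne_zero hg
      have n2 := hG'.aeval_ne_zero hg'
      rw [map_add, map_mul, map_mul, map_mul]
      field_simp
      ring
    rw [e]
    exact (nadd _ _).trans_lt (max_lt h1 h1')
  intro x
  obtain ⟨n, c, e, hx⟩ := exists_sum k k' E (lev E Ω k') x
  rw [hx]
  refine Finset.sum_induction _ (fun x => ∀ ε : ℝ, 0 < ε → ∃ f g : k'[X], g ≠ 0 ∧
    ‖x - aeval (yl y k') f / aeval (yl y k') g‖ < ε) hadd ?_ ?_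
  · intro ε hε
    exact ⟨0, 1, one_ne_zero, by simpa using hε⟩
  · intro i _ ε hε
    obtain ⟨B, hB0, hB⟩ : ∃ B : ℝ, 0 < B ∧ ‖algebraMap k' (lev E Ω k') (c i)‖ ≤ B :=
      ⟨‖algebraMap k' (lev E Ω k') (c i)‖ + 1, by positivity, by linarith⟩
    obtain ⟨f, g, hg, h1⟩ := hd (e i) (ε / B) (div_pos hε hB0)
    refine ⟨C (c i) * f.map (algebraMap k k'), g.map (algebraMap k k'), ?_, ?_⟩
    · rw [Ne, Polynomial.map_eq_zero]; exact hg
    · rw [map_mul, aeval_C, aeval_yl, aeval_yl, mul_div_assoc, ← mul_sub, ← map_div₀, ← map_sub,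
        norm_mul, norm_algMap_lev]
      calc _ ≤ B * ‖e i - aeval y f / aeval y g‖ := by gcongr
        _ < B * (ε / B) := by gcongr
        _ = ε := by field_simp

end setup

end Crest.Agent.R013.LemC623
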