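import Crest.Agent.R013.TopB_803
import Crest.Agent.R013.LemC2_623

/-!
# Row 13, part B: the interface between LEMW + ANNU (623) and the end step (669)

`AnnP` (= the statement of 623's `lemw`, σ-form): from a non-bridge over `U` (92's `NBOut`) over a
circle field `E` over `k`, inside a big field `Ω`: a finite extension `k'` of `k`, a function
`f ≠ 0` of `U k'` with all orders divisible by `n` and `f = y z ^ n`, `z ∈ E k'`.
-/

set_option autoImplicit false
set_option linter.unusedSectionVars false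
set_option linter.style.haveILetI false

namespace Crest.Agent.R013.AnnP_669

open scoped NNReal
open Crest.NumberTheoryR.Sect
open Crest.Agent.R013.BTor4_914 (LDiv)
open Crest.Agent.R013.Gl946 Crest.Agent.R013.NB_92 Crest.Agent.R013.CutCov_92
  Crest.Agent.R013.Half_930 Crest.Agent.R013.Desc_372 Crest.Agent.R013.Desc_372.CE

/-- **LEMW + ANNU** (623). -/
def AnnP : Prop :=
  ∀ {k E Ω U V : Type} [NontriviallyNormedField k] [ProperSpace k] [IsUltrametricDist k]
    [CharZero k] [NormedField E] [NormedAlgebra k E] [IsUltrametricDist E]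
    [CompleteSpace E] [NormedField Ω] [NormedAlgebra k Ω] [NormedAlgebra E Ω] [IsScalarTower k E Ω]
    [IsUltrametricDist Ω] [IsAlgClosed Ω] {y : E} (hG : IsGauss k y) {ϖ : k} (hϖ : IsUnif ϖ)
    (hd : DenseRat k y) {s : ℝ≥0} (hs : 1 < s) {n : ℕ} (_ : 0 < n)
    (_ : (s : ℝ)⁻¹ ≤ ‖(n : k)‖ ^ 2) [Field U] [Algebra k U] [CommRing V] [Algebra E V] {d : ℕ}
    (X : Edge (gaussDatum hG hϖ hd) V d) (j : U →+* V) (σ : V →ₐ[E] E)
    (_ : NBOut (gaussDatum hG hϖ hd) (Am hG hϖ hd hs) (Ap hG hϖ hd hs) U V d X j σ)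
    (_ : ∀ c : k, σ (j (algebraMap k U c)) = algebraMap k E c) (xU : U) (_ : σ (j xU) = y)
    [Algebra U Ω] [IsScalarTower k U Ω]
    (_ : ∀ u : U, algebraMap U Ω u = algebraMap E Ω (σ (j u))),
    ∃ (k' : IntermediateField k Ω) (_ : FiniteDimensional k k') (f : lev U Ω k')
      (z : lev E Ω k'), f ≠ 0 ∧ LDiv k' n f ∧ z ≠ 0 ∧
        (f : Ω) = algebraMap E Ω y * (z : Ω) ^ n

end Crest.Agent.R013.AnnP_669
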