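import Mathlib

/-!
# R013 / BTor1: ord at a prime of a UFD, elements with all orders divisible by `l` (helper914)
-/

set_option autoImplicit false
set_option linter.all false

namespace Crest.Agent.R013.BTor1_914

open WithZero

section ufd

variable {A : Type*} [CommRing A] [IsDomain A] [WfDvdMonoid A]

theorem fm {q a : A} (hq : Prime q) (ha : a ≠ 0) : FiniteMultiplicity q a :=
  FiniteMultiplicity.of_not_isUnit hq.not_unit ha

/-- the valuation of a prime element -/
noncomputable def vq {q : A} (hq : Prime q) : Valuation A ℤᵐ⁰ := by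
  classical
  exact
  { toFun := fun a => if a = 0 then 0 else exp (-(multiplicity q a : ℤ))
    map_zero' := by simp
    map_one' := by
      rw [if_neg one_ne_zero, multiplicity_of_one_right hq.not_unit]
      simp
    map_mul' := fun a b => by
      by_cases ha : a = 0
      · simp [ha]
      by_cases hb : b = 0
      · simp [hb]
      rw [if_neg ha, if_neg hb, if_neg (mul_ne_zero ha hb),
        multiplicity_mul hq (fm hq (mul_ne_zero ha hb)), ← exp_add]
      congr 1
      push_cast
      ring
    map_add_le_max' := fun a b => by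
      by_cases ha : a = 0
      · simp [ha]
      by_cases hb : b = 0
      · simp [hb]
      by_cases hab : a + b = 0
      · rw [if_pos hab]; exact zero_le
      rw [if_neg ha, if_neg hb, if_neg hab, le_max_iff, exp_le_exp, exp_le_exp]
      have h := min_le_emultiplicity_add (p := q) (a := a) (b := b)
      rw [(fm hq ha).emultiplicity_eq_multiplicity, (fm hq hb).emultiplicity_eq_multiplicity,
        (fm hq hab).emultiplicity_eq_multiplicity, min_le_iff] at h
      rcases h with h | h
      · left
        have : multiplicity q a ≤ multiplicity q (a + b) := by exact_mod_cast h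
        omega
      · right
        have : multiplicity q b ≤ multiplicity q (a + b) := by exact_mod_cast h
        omega }

theorem vq_apply {q : A} (hq : Prime q) {a : A} (ha : a ≠ 0) :
    vq hq a = exp (-(multiplicity q a : ℤ)) := by
  classical
  show (if a = 0 then 0 else exp (-(multiplicity q a : ℤ))) = _
  rw [if_neg ha]

variable {FA : Type*} [Field FA] [Algebra A FA] [IsFractionRing A FA]

/-- the valuation on the fraction field -/
noncomputable def wq (FA : Type*) [Field FA] [Algebra A FA] [IsFractionRing A FA] {q : A}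
    (hq : Prime q) : Valuation FA ℤᵐ⁰ :=
  (vq hq).extendToLocalization (S := nonZeroDivisors A) (fun a ha => by
    have ha0 : a ≠ 0 := nonZeroDivisors.ne_zero ha
    simp only [Ideal.primeCompl, Valuation.supp]
    show vq hq a ≠ 0
    rw [vq_apply hq ha0]
    exact exp_ne_zero) FA

theorem wq_algebraMap {q : A} (hq : Prime q) {a : A} (ha : a ≠ 0) :
    wq FA hq (algebraMap A FA a) = exp (-(multiplicity q a : ℤ)) := by
  unfold wq
  rw [Valuation.extendToLocalization_apply_map_apply, vq_apply hq ha]

/-- **root form** -/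
theorem exists_root_form {π : A} (hπ : Prime π) {l : ℕ} (hl : 0 < l) (a : A) (ha : a ≠ 0)
    (h : ∀ q : A, Prime q → ¬ Associated q π → l ∣ multiplicity q a)
    (hprime : ∀ a : A, a ≠ 0 → ¬ IsUnit a → ∃ q, Prime q ∧ q ∣ a) :
    ∃ (u : Aˣ) (n : ℕ) (g : A), a = u * π ^ n * g ^ l := by
  revert ha h
  refine WellFounded.induction (wellFounded_dvdNotUnit (α := A))
    (C := fun a => a ≠ 0 → (∀ q : A, Prime q → ¬ Associated q π → l ∣ multiplicity q a) →
      ∃ (u : Aˣ) (n : ℕ) (g : A), a = u * π ^ n * g ^ l) a ?_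
  intro a IH ha h
  by_cases hu : IsUnit a
  · obtain ⟨u, rfl⟩ := hu
    exact ⟨u, 0, 1, by simp⟩
  obtain ⟨q, hq, b, rfl⟩ := hprime a ha hu
  have hb0 : b ≠ 0 := right_ne_zero_of_mul ha
  by_cases hqπ : Associated q π
  · obtain ⟨u0, hu0⟩ := hqπ
    obtain ⟨u, n, g, hg⟩ := IH b ⟨hb0, q, hq.not_unit, mul_comm _ _⟩ hb0 (by
      intro q' hq' hne
      have h1 := h q' hq' hne
      rw [multiplicity_mul hq' (fm hq' ha)] at h1
      have h2 : multiplicity q' q = 0 := by
        rw [multiplicity_eq_zero]
        intro hd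
        exact hne ((hq'.associated_of_dvd hq hd).trans ⟨u0, hu0⟩)
      rwa [h2, zero_add] at h1)
    refine ⟨u0⁻¹ * u, n + 1, g, ?_⟩
    rw [hg, ← hu0]
    push_cast
    have e : (↑u0⁻¹ : A) * (↑u0 : A) = 1 := by simp
    calc q * (↑u * (q * ↑u0) ^ n * g ^ l)
        = 1 * (↑u * (q * ↑u0) ^ n * g ^ l * q) := by ring
      _ = _ := by rw [← e]; ring
  · have h1 := h q hq hqπ
    have h2 : 0 < multiplicity q (q * b) := multiplicity_pos_of_dvd (Dvd.intro _ rfl)
    have h3 : l ≤ multiplicity q (q * b) := Nat.le_of_dvd h2 h1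
    obtain ⟨c, hc⟩ := pow_dvd_of_le_multiplicity h3
    have hc0 : c ≠ 0 := by
      rintro rfl
      rw [mul_zero] at hc
      exact ha hc
    obtain ⟨u, n, g, hg⟩ := IH c (by
      rw [hc]
      refine ⟨hc0, q ^ l, ?_, mul_comm _ _⟩
      intro hun
      exact hq.not_unit (isUnit_of_dvd_unit (dvd_pow_self q hl.ne') hun)) hc0 (by
      intro q' hq' hne
      have h4 := h q' hq' hne
      rw [hc] at h4 ha
      rw [multiplicity_mul hq' (fm hq' ha), FiniteMultiplicity.multiplicity_pow hq' (fm hq' hq.ne_zero)] at h4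
      exact (Nat.dvd_add_right (Dvd.intro _ rfl)).mp h4)
    refine ⟨u, n, q * g, ?_⟩
    rw [hc, hg, mul_pow]
    ring

end ufd

section ufd2

variable {A : Type*} [CommRing A] [IsDomain A] [UniqueFactorizationMonoid A]
  {FA : Type*} [Field FA] [Algebra A FA] [IsFractionRing A FA]

/-- **root form in the fraction field** -/
theorem exists_root_frac {π : A} (hπ : Prime π) {l : ℕ} (hl : 0 < l) (f : FA) (hf : f ≠ 0)
    (h : ∀ (q : A) (hq : Prime q), ¬ Associated q π → ∃ m : ℤ, wq FA hq f = exp (l * m)) :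
    ∃ (u : Aˣ) (n : ℤ) (g : FA), g ≠ 0 ∧
      f = algebraMap A FA u * algebraMap A FA π ^ n * g ^ l := by
  obtain ⟨a, b, hb, rfl⟩ := IsFractionRing.div_surjective (A := A) f
  have hb0 : b ≠ 0 := nonZeroDivisors.ne_zero hb
  have hinj := IsFractionRing.injective A FA
  have hb1 : algebraMap A FA b ≠ 0 := fun h0 => hb0 (hinj (by rw [h0, map_zero]))
  have ha0 : a ≠ 0 := by
    rintro rfl
    rw [map_zero, zero_div] at hf
    exact hf rfl
  have hab : a * b ^ (l - 1) ≠ 0 := mul_ne_zero ha0 (pow_ne_zero _ hb0)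
  obtain ⟨u, n, g, hg⟩ := exists_root_form hπ hl (a * b ^ (l - 1)) hab (by
    intro q hq hne
    obtain ⟨m, hm⟩ := h q hq hne
    rw [map_div₀, wq_algebraMap hq ha0, wq_algebraMap hq hb0, ← exp_sub, exp_inj] at hm
    rw [multiplicity_mul hq (fm hq hab), FiniteMultiplicity.multiplicity_pow hq (fm hq hb0)]
    have h1 : (l : ℤ) ∣ ((multiplicity q a + (l - 1) * multiplicity q b : ℕ) : ℤ) := by
      have hl1 : ((l - 1 : ℕ) : ℤ) = (l : ℤ) - 1 := by
        push_cast [Nat.cast_sub hl]
        rfl
      refine ⟨multiplicity q b - m, ?_⟩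
      push_cast
      rw [hl1]
      have : (multiplicity q a : ℤ) = multiplicity q b - l * m := by linarith
      rw [this]
      ring
    exact_mod_cast h1) (fun a ha hu => by
      obtain ⟨q, hq, hqa⟩ := WfDvdMonoid.exists_irreducible_factor hu ha
      exact ⟨q, UniqueFactorizationMonoid.irreducible_iff_prime.mp hq, hqa⟩)
  have hg0 : g ≠ 0 := by
    rintro rfl
    rw [zero_pow hl.ne', mul_zero] at hg
    exact hab hg
  have hg1 : algebraMap A FA g ≠ 0 := fun h0 => hg0 (hinj (by rw [h0, map_zero]))
  refine ⟨u, n, algebraMap A FA g / algebraMap A FA b, div_ne_zero hg1 hb1, ?_⟩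
  have h2 := congrArg (algebraMap A FA) hg
  rw [map_mul, map_mul, map_mul, map_pow, map_pow, map_pow] at h2
  rw [zpow_natCast, div_pow, mul_div_assoc', ← h2]
  obtain ⟨s, rfl⟩ := Nat.exists_eq_succ_of_ne_zero hl.ne'
  rw [Nat.succ_sub_one, div_eq_div_iff hb1 (pow_ne_zero _ hb1), pow_succ]
  ring

end ufd2

end Crest.Agent.R013.BTor1_914
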