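import Mathlib
import Crest.Agent.R013.BTor1_914
import Crest.Agent.R013.RR13_948

/-!
# R013 / BTor2: (ROOT) a function with all orders divisible by `l` is, up to a constant, an `l`-th
power on every disc (helper914)

`O` discrete valuation ring, `k = Frac O`, `l` a unit of `O`; `FA = Frac O[[X]]`; `ι : L → FA`.
-/

set_option autoImplicit false
set_option linter.all false

namespace Crest.Agent.R013.BTor2_914

open WithZero PowerSeries
open Crest.Agent.R013.RR7_948 Crest.Agent.R013.RR8_948 Crest.Agent.R013.RR9_948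
open Crest.Agent.R013.RR11_948 Crest.Agent.R013.RR12_948 Crest.Agent.R013.RR13_948
open Crest.Agent.R013.BTor1_914

section unit

variable {O : Type*} [CommRing O] [IsDomain O]

/-- a power series with constant term one is an `l`-th power -/
theorem exists_root_one {l : ℕ} (hl : IsUnit (l : O)) (f : O⟦X⟧) (hf : constantCoeff f = 1) :
    ∃ w : O⟦X⟧, w ^ l = f ∧ constantCoeff w = 1 := by
  have hl0 : l ≠ 0 := by
    rintro rfl
    rw [Nat.cast_zero] at hl
    exact hl.ne_zero rfl
  let I : Ideal O⟦X⟧ := Ideal.span {X}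
  have hI : ∀ a : O⟦X⟧, a ∈ I ↔ constantCoeff a = 0 := fun a => by
    rw [Ideal.mem_span_singleton, X_dvd_iff]
  have hH : HenselianRing O⟦X⟧ I := inferInstance
  obtain ⟨w, hw, hw1⟩ := hH.is_henselian (Polynomial.X ^ l - Polynomial.C f)
    (Polynomial.monic_X_pow_sub_C _ hl0) 1 (by
      rw [hI]
      simp [hf]) (by
      have h1 : ((Polynomial.X ^ l - Polynomial.C f : Polynomial O⟦X⟧).derivative).eval 1 =
          PowerSeries.C (l : O) := by
        rw [Polynomial.derivative_sub, Polynomial.derivative_C, sub_zero,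
          Polynomial.derivative_X_pow]
        simp
      rw [h1]
      exact (hl.map PowerSeries.C).map _)
  refine ⟨w, ?_, ?_⟩
  · have := hw
    rw [Polynomial.IsRoot.def, Polynomial.eval_sub, Polynomial.eval_pow, Polynomial.eval_X,
      Polynomial.eval_C, sub_eq_zero] at this
    exact this
  · rw [hI, map_sub, map_one, sub_eq_zero] at hw1
    exact hw1

/-- a unit is a constant times an `l`-th power -/
theorem exists_root_unit {l : ℕ} (hl : IsUnit (l : O)) (u : (O⟦X⟧)ˣ) :
    ∃ (c : Oˣ) (w : O⟦X⟧), (u : O⟦X⟧) = PowerSeries.C (c : O) * w ^ l ∧ constantCoeff w = 1 := by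
  let c : Oˣ := Units.map (constantCoeff (R := O)).toMonoidHom u
  have hc : (c : O) = constantCoeff (u : O⟦X⟧) := rfl
  obtain ⟨w, hw, hw1⟩ := exists_root_one hl (PowerSeries.C (c⁻¹ : Oˣ).val * (u : O⟦X⟧)) (by
    rw [map_mul, constantCoeff_C, ← hc, Units.inv_mul])
  refine ⟨c, w, ?_, hw1⟩
  rw [hw, ← mul_assoc, ← map_mul, Units.mul_inv, map_one, one_mul]

theorem C_dvd_iff (a : O) (f : O⟦X⟧) : PowerSeries.C a ∣ f ↔ ∀ n, a ∣ coeff n f := by
  constructor
  · rintro ⟨g, rfl⟩ n
    rw [coeff_C_mul]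
    exact Dvd.intro _ rfl
  · intro h
    choose g hg using h
    refine ⟨PowerSeries.mk g, ?_⟩
    ext n
    rw [coeff_C_mul, coeff_mk]
    exact hg n

theorem prime_C {ϖ : O} (hϖ : Prime ϖ) : Prime (PowerSeries.C ϖ : O⟦X⟧) := by
  haveI : (Ideal.span {ϖ}).IsPrime := (Ideal.span_singleton_prime hϖ.ne_zero).mpr hϖ
  let φ := PowerSeries.map (Ideal.Quotient.mk (Ideal.span {ϖ}))
  have hφ : ∀ f : O⟦X⟧, φ f = 0 ↔ PowerSeries.C ϖ ∣ f := by
    intro f
    rw [C_dvd_iff]
    constructor
    · intro h n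
      have := congrArg (coeff n) h
      simp only [φ, coeff_map, map_zero] at this
      rwa [Ideal.Quotient.eq_zero_iff_dvd] at this
    · intro h
      ext n
      simp only [φ, coeff_map, map_zero]
      rw [Ideal.Quotient.eq_zero_iff_dvd]
      exact h n
  refine ⟨?_, ?_, ?_⟩
  · intro h
    apply hϖ.ne_zero
    have := congrArg (constantCoeff) h
    simpa using this
  · intro h
    apply hϖ.not_unit
    have := h.map (constantCoeff (R := O))
    simpa using this
  · intro a b hab
    rw [← hφ, map_mul, mul_eq_zero, hφ, hφ] at hab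
    exact hab

end unit

section root

variable {O : Type*} [CommRing O] [IsDomain O] [IsDiscreteValuationRing O]
  {k : Type*} [Field k] [Algebra O k] [IsFractionRing O k]
  {FA : Type*} [Field FA] [Algebra O⟦X⟧ FA] [IsFractionRing O⟦X⟧ FA] [Algebra k FA]

/-- the order at a prime `≠ (ϖ)` is trivial on the constants -/
theorem wq_const (hc : ∀ a : O, algebraMap k FA (algebraMap O k a) =
      algebraMap O⟦X⟧ FA (PowerSeries.C a)) {ϖ : O} (hϖ : Irreducible ϖ) {q : O⟦X⟧}
    (hq : Prime q) (hne : ¬ Associated q (PowerSeries.C ϖ)) {c : k} (hc0 : c ≠ 0) :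
    wq FA hq (algebraMap k FA c) = 1 := by
  have hinj := IsFractionRing.injective O k
  have key : ∀ a : O, a ≠ 0 → wq FA hq (algebraMap k FA (algebraMap O k a)) = 1 := by
    intro a ha
    obtain ⟨n, u, rfl⟩ := IsDiscreteValuationRing.eq_unit_mul_pow_irreducible ha hϖ
    have hC : (PowerSeries.C (↑u * ϖ ^ n) : O⟦X⟧) ≠ 0 := fun h => ha (by
      have := congrArg constantCoeff h
      simpa using this)
    rw [hc, wq_algebraMap hq hC]
    have h1 : multiplicity q (PowerSeries.C (↑u * ϖ ^ n) : O⟦X⟧) = 0 := by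
      rw [multiplicity_eq_zero]
      intro hd
      rw [map_mul, map_pow] at hd
      rcases hq.dvd_or_dvd hd with h | h
      · exact hq.not_unit (isUnit_of_dvd_unit h (u.isUnit.map _))
      · exact hne (hq.associated_of_dvd (prime_C hϖ.prime) (hq.dvd_of_dvd_pow h))
    rw [h1]
    simp
  obtain ⟨a, b, hb, rfl⟩ := IsFractionRing.div_surjective (A := O) c
  have hb0 : b ≠ 0 := nonZeroDivisors.ne_zero hb
  have ha0 : a ≠ 0 := by
    rintro rfl
    rw [map_zero, zero_div] at hc0
    exact hc0 rfl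
  rw [map_div₀, map_div₀, key a ha0, key b hb0, div_one]

variable {L : Type*} [Field L] [Algebra k L] [Algebra (RatFunc k) L]
  [IsScalarTower k (RatFunc k) L] [FiniteDimensional (RatFunc k) L]
  [Algebra.IsSeparable (RatFunc k) L]

/-- **(ROOT)** -/
theorem root (hc : ∀ a : O, algebraMap k FA (algebraMap O k a) =
      algebraMap O⟦X⟧ FA (PowerSeries.C a)) (ι : L →ₐ[k] FA) {l : ℕ} (hl : IsUnit (l : O))
    {h : L} (h0 : h ≠ 0) (hdiv : ∀ Q : Pl k L, (l : ℤ) ∣ divf (k := k) h Q) :
    ∃ c : k, c ≠ 0 ∧ ∃ g : FA, g ≠ 0 ∧ ι h = algebraMap k FA c * g ^ l := by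
  have hl0 : 0 < l := by
    rcases Nat.eq_zero_or_pos l with h | h
    · rw [h, Nat.cast_zero] at hl
      exact absurd rfl hl.ne_zero
    · exact h
  obtain ⟨ϖ, hϖ⟩ := IsDiscreteValuationRing.exists_irreducible O
  have hpr : Prime (PowerSeries.C ϖ : O⟦X⟧) := prime_C hϖ.prime
  have hιh : ι h ≠ 0 := by simpa using h0
  obtain ⟨u, n, g, hg0, hg⟩ := exists_root_frac (FA := FA) hpr hl0 (ι h) hιh (by
    intro q hq hne
    let w : Valuation L ℤᵐ⁰ := (wq FA hq).comap (ι : L →+* FA)
    have hw : ∀ x, w x = wq FA hq (ι x) := fun _ => rfl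
    have hwc : ∀ c : k, c ≠ 0 → w (algebraMap k L c) = 1 := by
      intro c hc0
      rw [hw, ι.commutes]
      exact wq_const hc hϖ hq hne hc0
    by_cases hnt : ∃ a : L, w a ≠ 0 ∧ w a ≠ 1
    · obtain ⟨P, hP⟩ := exists_place w hwc hnt
      obtain ⟨t, ht⟩ := P.surj (exp (-1))
      obtain ⟨m, hm⟩ := hdiv P
      have h1 : P.v h = exp (-(l * m)) := by rw [v_eq h0, hm]
      have h2 := eq_zpow_of_isEquiv hP ht h1
      have ht0 : w t ≠ 0 := by
        rw [Valuation.ne_zero_iff]
        rintro rfl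
        rw [map_zero] at ht
        exact exp_ne_zero ht.symm
      refine ⟨m * log (w t), ?_⟩
      rw [← hw, h2, neg_neg]
      conv_lhs => rw [← exp_log ht0]
      rw [← exp_zsmul, smul_eq_mul]
      congr 1
      ring
    · push Not at hnt
      refine ⟨0, ?_⟩
      rw [← hw, mul_zero, exp_zero]
      exact hnt h ((Valuation.ne_zero_iff _).mpr h0))
  obtain ⟨c, w, hw, hw1⟩ := exists_root_unit hl u
  have hw0 : w ≠ 0 := by
    rintro rfl
    simp at hw1
  have hinj := IsFractionRing.injective O⟦X⟧ FA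
  have hinj' := IsFractionRing.injective O k
  have hϖk : algebraMap O k ϖ ≠ 0 := fun h => hϖ.ne_zero (hinj' (by rw [h, map_zero]))
  have hck : algebraMap O k c ≠ 0 := fun h => c.ne_zero (hinj' (by rw [h, map_zero]))
  refine ⟨algebraMap O k c * algebraMap O k ϖ ^ n, mul_ne_zero hck (zpow_ne_zero _ hϖk),
    algebraMap O⟦X⟧ FA w * g, mul_ne_zero (fun h => hw0 (hinj (by rw [h, map_zero]))) hg0, ?_⟩
  rw [hg, hw, map_mul, map_mul, map_zpow₀, hc, hc, map_pow, mul_pow]
  ring

end root

end Crest.Agent.R013.BTor2_914
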