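import Crest.Agent.R013.Gl1_946

/-!
# Patching, part 2: a complete field `E` with a dense Gauss-normed `k(y)`.

`E` complete ultrametric, `k → E` isometric, discretely valued; `y : E` with the norm of `E` on `k[y]`
being the Gauss norm and `k(y)` dense.  `AU` = closure of `k[1/y]` (analytic functions on `|y| ≥ 1`),
`AP` = closure of `{f/g : g ∈ O[y], g(0) = 1}` (functions on the open disc `|y| < 1`).
We prove `E = AU + AP` with norm bounds, and `AP ∩ y^m AU ⊆ k[y]`.
-/

set_option autoImplicit false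

namespace Crest.Agent.R013.Gl946

open Filter Topology Polynomial

variable {k E : Type*} [NormedField k] [NormedField E] [NormedAlgebra k E]

/-- The norm of `E` restricted to `k[y]` is the Gauss norm. -/
structure IsGauss (k : Type*) {E : Type*} [NormedField k] [NormedField E] [NormedAlgebra k E]
    (y : E) : Prop where
  norm_le : ‖y‖ ≤ 1
  coeff_le : ∀ (f : k[X]) (i : ℕ), ‖f.coeff i‖ ≤ ‖aeval y f‖

/-- `π` is a uniformizer of `k`: `0 < ‖π‖ < 1` and `‖a‖ < 1 → ‖a‖ ≤ ‖π‖`. -/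
structure IsUnif {k : Type*} [NormedField k] (π : k) : Prop where
  pos : 0 < ‖π‖
  lt_one : ‖π‖ < 1
  le : ∀ a : k, ‖a‖ < 1 → ‖a‖ ≤ ‖π‖

theorem nsub [IsUltrametricDist E] (a b : E) : ‖a - b‖ ≤ max ‖a‖ ‖b‖ := by
  have := IsUltrametricDist.norm_add_le_max a (-b)
  rwa [norm_neg, ← sub_eq_add_neg] at this

theorem nadd [IsUltrametricDist E] (a b : E) : ‖a + b‖ ≤ max ‖a‖ ‖b‖ :=
  IsUltrametricDist.norm_add_le_max a b

theorem norm_aeval_C (y : E) (c : k) : ‖aeval y (C c)‖ = ‖c‖ := by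
  rw [aeval_C, norm_algebraMap']

namespace IsGauss

variable {y : E} (hG : IsGauss k y)

include hG

theorem norm_eq : ‖y‖ = 1 := by
  refine le_antisymm hG.norm_le ?_
  have := hG.coeff_le X 1
  simpa using this

theorem ne_zero : y ≠ 0 := by
  intro h
  have := hG.norm_eq
  rw [h, norm_zero] at this
  norm_num at this

theorem norm_aeval_X_pow (n : ℕ) : ‖aeval y (X ^ n : k[X])‖ = 1 := by
  rw [map_pow, aeval_X, norm_pow, hG.norm_eq, one_pow]

theorem aeval_le [IsUltrametricDist E] (f : k[X]) {r : ℝ} (hr : 0 ≤ r)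
    (h : ∀ i, ‖f.coeff i‖ ≤ r) : ‖aeval y f‖ ≤ r := by
  rw [aeval_eq_sum_range]
  refine IsUltrametricDist.norm_sum_le_of_forall_le_of_nonneg hr fun i _ => ?_
  rw [norm_smul, norm_pow, hG.norm_eq, one_pow, mul_one]
  exact h i

theorem aeval_ne_zero {f : k[X]} (hf : f ≠ 0) : aeval y f ≠ 0 := by
  intro h
  apply hf
  ext i
  have := hG.coeff_le f i
  rw [h, norm_zero] at this
  simpa using this

theorem injective : Function.Injective (aeval y : k[X] →ₐ[k] E) := by
  refine (injective_iff_map_eq_zero _).2 fun f hf => ?_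
  by_contra h
  exact hG.aeval_ne_zero h hf

/-- The Gauss norm is attained; take the minimal index. -/
theorem exists_index [IsUltrametricDist E] {f : k[X]} (hf : f ≠ 0) :
    ∃ m, ‖f.coeff m‖ = ‖aeval y f‖ ∧ ∀ i < m, ‖f.coeff i‖ < ‖aeval y f‖ := by
  classical
  have hex : ∃ m, ‖f.coeff m‖ = ‖aeval y f‖ := by
    by_contra hcon
    push Not at hcon
    have h1 : ∀ i, ‖f.coeff i‖ < ‖aeval y f‖ := fun i => lt_of_le_of_ne (hG.coeff_le f i) (hcon i)
    have hpos : 0 < ‖aeval y f‖ := norm_pos_iff.2 (hG.aeval_ne_zero hf)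
    -- the sup over the finite support is `< ‖aeval y f‖`
    obtain ⟨r, hr0, hr1, hr2⟩ : ∃ r : ℝ, 0 ≤ r ∧ r < ‖aeval y f‖ ∧ ∀ i, ‖f.coeff i‖ ≤ r := by
      have hs : f.support.Nonempty := by rwa [support_nonempty]
      refine ⟨f.support.sup' hs fun i => ‖f.coeff i‖, ?_, ?_, ?_⟩
      · obtain ⟨i, hi⟩ := hs
        exact (norm_nonneg (f.coeff i)).trans
          (Finset.le_sup' (fun i => ‖f.coeff i‖) hi)
      · rw [Finset.sup'_lt_iff]
        exact fun i _ => h1 i
      · intro i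
        by_cases hi : i ∈ f.support
        · exact Finset.le_sup' (fun i => ‖f.coeff i‖) hi
        · rw [notMem_support_iff.1 hi, norm_zero]
          obtain ⟨j, hj⟩ := hs
          exact (norm_nonneg (f.coeff j)).trans (Finset.le_sup' (fun i => ‖f.coeff i‖) hj)
    exact absurd (hG.aeval_le f hr0 hr2) (not_le.2 hr1)
  refine ⟨Nat.find hex, Nat.find_spec hex, fun i hi => ?_⟩
  exact lt_of_le_of_ne (hG.coeff_le f i) (Nat.find_min hex hi)

end IsGauss

/-- Splitting a polynomial at degree `m`. -/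
theorem split_low {k : Type*} [Field k] (g : k[X]) (m : ℕ) :
    ∃ l g' : k[X], g = l + X ^ m * g' ∧ (∀ i, i < m → l.coeff i = g.coeff i) ∧
      (∀ i, m ≤ i → l.coeff i = 0) ∧ (∀ i, g'.coeff i = g.coeff (i + m)) := by
  induction m with
  | zero => exact ⟨0, g, by simp, by simp, by simp, by simp⟩
  | succ m ih =>
    obtain ⟨l, g', h1, h2, h3, h4⟩ := ih
    refine ⟨l + C (g'.coeff 0) * X ^ m, g'.divX, ?_, ?_, ?_, ?_⟩
    · have := divX_mul_X_add g'
      calc g = l + X ^ m * g' := h1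
        _ = l + X ^ m * (divX g' * X + C (g'.coeff 0)) := by rw [this]
        _ = _ := by ring
    · intro i hi
      rw [coeff_add, coeff_C_mul_X_pow]
      rcases Nat.lt_succ_iff_lt_or_eq.1 hi with h | h
      · rw [if_neg (by omega), add_zero, h2 i h]
      · subst h
        rw [if_pos rfl, h3 i le_rfl, zero_add, h4, Nat.zero_add]
    · intro i hi
      rw [coeff_add, coeff_C_mul_X_pow, h3 i (by omega), if_neg (by omega), add_zero]
    · intro i
      rw [coeff_divX, h4]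
      congr 1; omega

namespace IsGauss

variable {y : E} (hG : IsGauss k y)

include hG

/-- Division by `g` with `g(0) = 1` modulo `X^m`, with norm control. -/
theorem trunc_div [IsUltrametricDist E] (g : k[X]) (hg : ‖aeval y g‖ ≤ 1) (hg0 : g.coeff 0 = 1)
    (f : k[X]) (m : ℕ) :
    ∃ a b : k[X], f = g * a + X ^ m * b ∧ (∀ i, m ≤ i → a.coeff i = 0) ∧
      ‖aeval y a‖ ≤ ‖aeval y f‖ ∧ ‖aeval y b‖ ≤ ‖aeval y f‖ := by
  induction m with
  | zero => exact ⟨0, f, by simp, by simp, by simp, le_rfl⟩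
  | succ m ih =>
    obtain ⟨a, b, h1, h2, h3, h4⟩ := ih
    set c := b.coeff 0 with hc
    have hcb : ‖c‖ ≤ ‖aeval y f‖ := (hG.coeff_le b 0).trans h4
    have h5 := divX_mul_X_add (b - C c * g)
    have h6 : (b - C c * g).coeff 0 = 0 := by
      rw [coeff_sub, coeff_C_mul, hg0, mul_one, sub_self]
    rw [h6, C_0, add_zero] at h5
    refine ⟨a + C c * X ^ m, (b - C c * g).divX, ?_, ?_, ?_, ?_⟩
    · calc f = g * a + X ^ m * b := h1
        _ = g * (a + C c * X ^ m) + X ^ m * (b - C c * g) := by ring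
        _ = g * (a + C c * X ^ m) + X ^ m * ((b - C c * g).divX * X) := by rw [h5]
        _ = _ := by ring
    · intro i hi
      rw [coeff_add, coeff_C_mul_X_pow, h2 i (by omega), if_neg (by omega), add_zero]
    · rw [map_add, map_mul]
      refine (nadd _ _).trans (max_le h3 ?_)
      rw [norm_mul, norm_aeval_C, hG.norm_aeval_X_pow, mul_one]
      exact hcb
    · have h7 : ‖aeval y (b - C c * g).divX‖ = ‖aeval y (b - C c * g)‖ := by
        conv_rhs => rw [← h5, map_mul, norm_mul, aeval_X, hG.norm_eq, mul_one]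
      rw [h7, map_sub]
      refine (nsub _ _).trans (max_le h4 ?_)
      rw [map_mul, norm_mul, norm_aeval_C]
      calc ‖c‖ * ‖aeval y g‖ ≤ ‖c‖ * 1 := mul_le_mul_of_nonneg_left hg (norm_nonneg _)
        _ ≤ _ := by rw [mul_one]; exact hcb

omit hG in
theorem norm_of_coeff_zero (hG : IsGauss k y) (g : k[X]) (hg : ‖aeval y g‖ ≤ 1)
    (hg0 : g.coeff 0 = 1) : ‖aeval y g‖ = 1 := by
  refine le_antisymm hg ?_
  have := hG.coeff_le g 0
  rwa [hg0, norm_one] at this

end IsGauss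

/-- The dense part of `AP`: `f/g` with `g ∈ O[y]`, `g(0) = 1`. -/
def AP0 (k : Type*) {E : Type*} [NormedField k] [NormedField E] [NormedAlgebra k E] (y : E) :
    Set E :=
  {z | ∃ f g : k[X], ‖aeval y g‖ ≤ 1 ∧ g.coeff 0 = 1 ∧ z = aeval y f / aeval y g}

/-- `AP0` as a subalgebra. -/
def AP0alg {y : E} (hG : IsGauss k y) : Subalgebra k E where
  carrier := AP0 k y
  mul_mem' := by
    rintro _ _ ⟨f, g, h1, h2, rfl⟩ ⟨f', g', h1', h2', rfl⟩
    refine ⟨f * f', g * g', ?_, ?_, ?_⟩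
    · rw [map_mul, norm_mul]; exact mul_le_one₀ h1 (norm_nonneg _) h1'
    · rw [mul_coeff_zero, h2, h2', one_mul]
    · rw [map_mul, map_mul, div_mul_div_comm]
  add_mem' := by
    rintro _ _ ⟨f, g, h1, h2, rfl⟩ ⟨f', g', h1', h2', rfl⟩
    have n1 : aeval y g ≠ 0 := hG.aeval_ne_zero (by rintro rfl; simp at h2)
    have n2 : aeval y g' ≠ 0 := hG.aeval_ne_zero (by rintro rfl; simp at h2')
    refine ⟨f * g' + g * f', g * g', ?_, ?_, ?_⟩
    · rw [map_mul, norm_mul]; exact mul_le_one₀ h1 (norm_nonneg _) h1'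
    · rw [mul_coeff_zero, h2, h2', one_mul]
    · rw [map_mul, map_add, map_mul, map_mul, div_add_div _ _ n1 n2]
  algebraMap_mem' := by
    intro c
    refine ⟨C c, 1, ?_, ?_, ?_⟩
    · rw [map_one, norm_one]
    · simp
    · rw [map_one, div_one, aeval_C]

/-- The ring `AP` of functions on the open disc `|y| < 1`. -/
noncomputable def AP {y : E} (hG : IsGauss k y) : Subalgebra k E := (AP0alg hG).topologicalClosure

/-- The ring `AU` of functions on `|y| ≥ 1`. -/
noncomputable def AU (k : Type*) {E : Type*} [NormedField k] [NormedField E] [NormedAlgebra k E]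
    (y : E) : Subalgebra k E :=
  (aeval (y⁻¹) : k[X] →ₐ[k] E).range.topologicalClosure

theorem isClosed_AP {y : E} (hG : IsGauss k y) : IsClosed (AP hG : Set E) :=
  Subalgebra.isClosed_topologicalClosure _

theorem isClosed_AU (y : E) : IsClosed (AU k y : Set E) :=
  Subalgebra.isClosed_topologicalClosure _

theorem AP0_le_AP {y : E} (hG : IsGauss k y) : AP0alg hG ≤ AP hG :=
  Subalgebra.le_topologicalClosure _

theorem aeval_inv_mem_AU (y : E) (f : k[X]) : aeval (y⁻¹) f ∈ AU k y :=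
  Subalgebra.le_topologicalClosure _ ⟨f, rfl⟩

theorem aeval_mem_AP {y : E} (hG : IsGauss k y) (f : k[X]) : aeval y f ∈ AP hG := by
  refine AP0_le_AP hG ⟨f, 1, ?_, ?_, ?_⟩
  · rw [map_one, norm_one]
  · simp
  · rw [map_one, div_one]

/-- Approximation to exact: a Banach-space style argument. -/
theorem exact_of_approx [CompleteSpace E] [IsUltrametricDist E] (A B : AddSubgroup E)
    (hA : IsClosed (A : Set E)) (hB : IsClosed (B : Set E)) (q : ℝ) (hq0 : 0 ≤ q) (hq : q < 1)
    (happ : ∀ x : E, ∃ a ∈ A, ∃ b ∈ B, ‖x - (a + b)‖ ≤ q * ‖x‖ ∧ ‖a‖ ≤ ‖x‖ ∧ ‖b‖ ≤ ‖x‖)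
    (x : E) : ∃ a ∈ A, ∃ b ∈ B, x = a + b ∧ ‖a‖ ≤ ‖x‖ ∧ ‖b‖ ≤ ‖x‖ := by
  choose α hαA β hβB h1 h2 h3 using happ
  set s : ℕ → E := fun n => Nat.rec x (fun _ z => z - (α z + β z)) n with hs
  have s0 : s 0 = x := rfl
  have sS : ∀ n, s (n + 1) = s n - (α (s n) + β (s n)) := fun n => rfl
  have sN : ∀ n, ‖s n‖ ≤ q ^ n * ‖x‖ := by
    intro n
    induction n with
    | zero => rw [s0]; simp
    | succ n ih =>
      rw [sS]
      calc _ ≤ q * ‖s n‖ := h1 _
        _ ≤ q * (q ^ n * ‖x‖) := mul_le_mul_of_nonneg_left ih hq0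
        _ = _ := by ring
  have hgeo : Summable fun n => q ^ n * ‖x‖ := (summable_geometric_of_lt_one hq0 hq).mul_right _
  have hsa : Summable fun n => α (s n) :=
    Summable.of_norm_bounded hgeo fun n => (h2 _).trans (sN n)
  have hsb : Summable fun n => β (s n) :=
    Summable.of_norm_bounded hgeo fun n => (h3 _).trans (sN n)
  have sle : ∀ n, ‖s n‖ ≤ ‖x‖ := fun n => (sN n).trans (by
    have : q ^ n ≤ 1 := pow_le_one₀ hq0 hq.le
    calc q ^ n * ‖x‖ ≤ 1 * ‖x‖ := mul_le_mul_of_nonneg_right this (norm_nonneg _)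
      _ = ‖x‖ := one_mul _)
  have hpart : ∀ n, ∑ i ∈ Finset.range n, α (s i) + ∑ i ∈ Finset.range n, β (s i) = x - s n := by
    intro n
    induction n with
    | zero => simp [s0]
    | succ n ih =>
      rw [Finset.sum_range_succ, Finset.sum_range_succ, sS]
      linear_combination ih
  refine ⟨∑' n, α (s n), ?_, ∑' n, β (s n), ?_, ?_, ?_, ?_⟩
  · exact hA.mem_of_tendsto hsa.hasSum.tendsto_sum_nat
      (Eventually.of_forall fun n => A.sum_mem fun i _ => hαA _)
  · exact hB.mem_of_tendsto hsb.hasSum.tendsto_sum_nat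
      (Eventually.of_forall fun n => B.sum_mem fun i _ => hβB _)
  · have t1 := hsa.hasSum.tendsto_sum_nat.add hsb.hasSum.tendsto_sum_nat
    have t2 : Tendsto (fun n => x - s n) atTop (𝓝 (x - 0)) := by
      refine Tendsto.const_sub x (squeeze_zero_norm sN ?_)
      have := (tendsto_pow_atTop_nhds_zero_of_lt_one hq0 hq).mul_const ‖x‖
      simpa using this
    simp only [hpart] at t1
    have := tendsto_nhds_unique t2 t1
    simpa using this
  · exact IsUltrametricDist.norm_tsum_le_of_forall_le_of_nonneg (norm_nonneg _)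
      fun n => (h2 _).trans (sle n)
  · exact IsUltrametricDist.norm_tsum_le_of_forall_le_of_nonneg (norm_nonneg _)
      fun n => (h3 _).trans (sle n)


section Dec

variable [IsUltrametricDist E] {y : E} (hG : IsGauss k y)

/-- `k(y)` is dense in `E`. -/
def DenseRat (k : Type*) {E : Type*} [NormedField k] [NormedField E] [NormedAlgebra k E]
    (y : E) : Prop :=
  ∀ (x : E) (ε : ℝ), 0 < ε → ∃ f g : k[X], g ≠ 0 ∧ ‖x - aeval y f / aeval y g‖ < ε

include hG in
/-- Partial fractions up to `‖π‖`. -/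
theorem approx_frac {π : k} (hπ : IsUnif π) (f g : k[X]) (hg : g ≠ 0) :
    ∃ a ∈ AU k y, ∃ b ∈ AP0alg hG,
      ‖aeval y f / aeval y g - (a + b)‖ ≤ ‖π‖ * ‖aeval y f / aeval y g‖ ∧
      ‖a‖ ≤ ‖aeval y f / aeval y g‖ ∧ ‖b‖ ≤ ‖aeval y f / aeval y g‖ := by
  obtain ⟨m, hm, hlt⟩ := hG.exists_index hg
  set c := g.coeff m with hc
  have hgn : 0 < ‖aeval y g‖ := norm_pos_iff.2 (hG.aeval_ne_zero hg)
  have hc0 : c ≠ 0 := by
    intro h
    rw [h, norm_zero] at hm
    exact hgn.ne hm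
  obtain ⟨l, g', h1, h2, h3, h4⟩ := split_low (C c⁻¹ * g) m
  have hcn : ‖c‖ = ‖aeval y g‖ := hm
  have hcg : ‖aeval y (C c⁻¹ * g)‖ = 1 := by
    rw [map_mul, norm_mul, norm_aeval_C, norm_inv, hcn]
    exact inv_mul_cancel₀ hgn.ne'
  have hco : ∀ i, ‖(C c⁻¹ * g).coeff i‖ ≤ 1 := fun i => (hG.coeff_le _ i).trans hcg.le
  have hl : ‖aeval y l‖ ≤ ‖π‖ := by
    refine hG.aeval_le l hπ.pos.le fun i => ?_
    rcases lt_or_ge i m with h | h
    · rw [h2 i h]
      refine hπ.le _ ?_
      rw [coeff_C_mul, norm_mul, norm_inv, hcn]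
      rw [inv_mul_lt_iff₀ hgn, mul_one]
      exact hlt i h
    · rw [h3 i h, norm_zero]; exact hπ.pos.le
  have hg'1 : ‖aeval y g'‖ ≤ 1 := hG.aeval_le g' zero_le_one fun i => by rw [h4]; exact hco _
  have hg'0 : g'.coeff 0 = 1 := by
    rw [h4, coeff_C_mul, Nat.zero_add]
    exact inv_mul_cancel₀ hc0
  have hg'n : ‖aeval y g'‖ = 1 := hG.norm_of_coeff_zero g' hg'1 hg'0
  obtain ⟨a, b, e1, e2, e3, e4⟩ := hG.trunc_div g' hg'1 hg'0 (C c⁻¹ * f) m
  have hfn : ‖aeval y (C c⁻¹ * f)‖ = ‖aeval y f / aeval y g‖ := by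
    rw [map_mul, norm_mul, norm_aeval_C, norm_inv, hcn, norm_div, mul_comm]; rfl
  have hy0 : aeval y (X ^ m : k[X]) ≠ 0 := by
    intro h
    have := hG.norm_aeval_X_pow m
    rw [h, norm_zero] at this
    norm_num at this
  have hg'ne : aeval y g' ≠ 0 := by
    intro h
    rw [h, norm_zero] at hg'n
    norm_num at hg'n
  have hcgne : aeval y (C c⁻¹ * g) ≠ 0 := by
    intro h
    rw [h, norm_zero] at hcg
    norm_num at hcg
  have hfrac : aeval y f / aeval y g = aeval y (C c⁻¹ * f) / aeval y (C c⁻¹ * g) := by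
    rw [map_mul, map_mul, mul_div_mul_left]
    intro h
    have := norm_aeval_C y c⁻¹
    rw [h, norm_zero] at this
    exact hc0 (inv_eq_zero.1 (norm_eq_zero.1 this.symm))
  refine ⟨aeval y a / aeval y (X ^ m : k[X]), ?_, aeval y b / aeval y g', ?_, ?_, ?_, ?_⟩
  · -- polynomial in 1/y
    have : aeval y a / aeval y (X ^ m : k[X]) =
        aeval (y⁻¹) (∑ i ∈ Finset.range (a.natDegree + 1), C (a.coeff i) * X ^ (m - i)) := by
      rw [aeval_eq_sum_range, Finset.sum_div, map_sum]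
      refine Finset.sum_congr rfl fun i _ => ?_
      rw [map_mul, aeval_C, map_pow, map_pow, aeval_X, aeval_X, Algebra.smul_def]
      rcases lt_or_ge i m with h | h
      · have hy := hG.ne_zero
        have : y ^ m = y ^ i * y ^ (m - i) := by rw [← pow_add]; congr 1; omega
        rw [this, inv_pow]
        field_simp
      · rw [e2 i h]; simp
    rw [this]
    exact aeval_inv_mem_AU y _
  · exact ⟨b, g', hg'1, hg'0, rfl⟩
  · rw [← hfn, hfrac]
    have h5 : aeval y (C c⁻¹ * f) / aeval y (C c⁻¹ * g) -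
        (aeval y a / aeval y (X ^ m : k[X]) + aeval y b / aeval y g') =
        - (aeval y (C c⁻¹ * f) * aeval y l) /
          (aeval y (C c⁻¹ * g) * (aeval y (X ^ m : k[X]) * aeval y g')) := by
      have h6 : aeval y a / aeval y (X ^ m : k[X]) + aeval y b / aeval y g' =
          aeval y (C c⁻¹ * f) / (aeval y (X ^ m : k[X]) * aeval y g') := by
        rw [div_add_div _ _ hy0 hg'ne, e1, map_add, map_mul, map_mul]
        congr 1; ring
      have h7 : aeval y (C c⁻¹ * g) = aeval y l + aeval y (X ^ m : k[X]) * aeval y g' := by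
        rw [h1, map_add, map_mul]
      rw [h6, div_sub_div _ _ hcgne (mul_ne_zero hy0 hg'ne)]
      congr 1
      rw [h7]; ring
    rw [h5, norm_div, norm_neg, norm_mul, norm_mul, norm_mul, hcg, hG.norm_aeval_X_pow, hg'n]
    rw [mul_one, mul_one, div_one, mul_comm]
    exact mul_le_mul_of_nonneg_right hl (norm_nonneg _)
  · rw [norm_div, hG.norm_aeval_X_pow, div_one, ← hfn]; exact e3
  · rw [norm_div, hg'n, div_one, ← hfn]; exact e4

/-- **Decomposition** `E = AU + AP` with norm control. -/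
theorem dec [CompleteSpace E] {π : k} (hπ : IsUnif π) (hd : DenseRat k y) (x : E) :
    ∃ a ∈ AU k y, ∃ b ∈ AP hG, x = a + b ∧ ‖a‖ ≤ ‖x‖ ∧ ‖b‖ ≤ ‖x‖ := by
  have key := exact_of_approx (E := E) (AU k y).toSubring.toAddSubgroup
    (AP hG).toSubring.toAddSubgroup (isClosed_AU y) (isClosed_AP hG) ‖π‖ hπ.pos.le hπ.lt_one
  refine key (fun x => ?_) x
  by_cases hx : x = 0
  · subst hx
    exact ⟨0, zero_mem _, 0, zero_mem _, by simp, by simp, by simp⟩
  have hxn : 0 < ‖x‖ := norm_pos_iff.2 hx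
  obtain ⟨f, g, hg, hfg⟩ := hd x (‖π‖ * ‖x‖) (mul_pos hπ.pos hxn)
  have hlt : ‖x - aeval y f / aeval y g‖ < ‖x‖ := hfg.trans (by
    calc ‖π‖ * ‖x‖ < 1 * ‖x‖ := mul_lt_mul_of_pos_right hπ.lt_one hxn
      _ = ‖x‖ := one_mul _)
  have hle : ‖aeval y f / aeval y g‖ ≤ ‖x‖ := by
    have : aeval y f / aeval y g = x - (x - aeval y f / aeval y g) := by ring
    rw [this]
    exact (nsub _ _).trans (max_le le_rfl hlt.le)
  obtain ⟨a, ha, b, hb, e1, e2, e3⟩ := approx_frac hG hπ f g hg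
  refine ⟨a, ha, b, AP0_le_AP hG hb, ?_, e2.trans hle, e3.trans hle⟩
  have : x - (a + b) = (x - aeval y f / aeval y g) + (aeval y f / aeval y g - (a + b)) := by ring
  rw [this]
  exact (nadd _ _).trans (max_le hfg.le (e1.trans (mul_le_mul_of_nonneg_left hle hπ.pos.le)))

include hG in
/-- If `g ∈ O[y]` has `g(0) = 1` and the low coefficients of `q g` are small, so are those of `q`. -/
theorem low_small (g : k[X]) (hg : ‖aeval y g‖ ≤ 1) (hg0 : g.coeff 0 = 1) (q : k[X]) (d : ℕ)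
    {r : ℝ} (hr : 0 ≤ r) (h : ∀ i < d, ‖(q * g).coeff i‖ ≤ r) : ∀ i < d, ‖q.coeff i‖ ≤ r := by
  intro i
  induction i using Nat.strong_induction_on with
  | _ i ih =>
    intro hi
    have h1 : (q * g).coeff i = ∑ a ∈ Finset.range i, q.coeff a * g.coeff (i - a) + q.coeff i := by
      rw [coeff_mul, Finset.Nat.sum_antidiagonal_eq_sum_range_succ_mk, Finset.sum_range_succ,
        Nat.sub_self, hg0, mul_one]
    have h2 : algebraMap k E (q.coeff i) = algebraMap k E ((q * g).coeff i) -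
        ∑ a ∈ Finset.range i, algebraMap k E (q.coeff a * g.coeff (i - a)) := by
      rw [h1, map_add, map_sum]; ring
    rw [← norm_algebraMap' E, h2]
    refine (nsub _ _).trans (max_le ?_ ?_)
    · rw [norm_algebraMap']; exact h i hi
    · refine IsUltrametricDist.norm_sum_le_of_forall_le_of_nonneg hr fun a ha => ?_
      rw [Finset.mem_range] at ha
      rw [norm_algebraMap', norm_mul]
      have h3 := ih a ha (ha.trans hi)
      have h4 := (hG.coeff_le g (i - a)).trans hg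
      calc _ ≤ r * 1 := mul_le_mul h3 h4 (norm_nonneg _) hr
        _ = r := mul_one r

/-- Approximation of `AP ∩ y^m AU` by polynomials. -/
theorem approx_poly {π : k} (hπ : IsUnif π) (m : ℕ) (w : E) (hw : w ∈ AP hG)
    (hw' : w / y ^ m ∈ AU k y) :
    ∃ p : k[X], (∀ i, m < i → p.coeff i = 0) ∧ ‖w - aeval y p‖ ≤ ‖π‖ * ‖w‖ := by
  by_cases hw0 : w = 0
  · subst hw0
    exact ⟨0, by simp, by simp⟩
  have hwn : 0 < ‖w‖ := norm_pos_iff.2 hw0
  set r := ‖π‖ * ‖w‖ with hr
  have hr0 : 0 < r := mul_pos hπ.pos hwn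
  obtain ⟨z, hz, hzw⟩ := Metric.mem_closure_iff.1 (show w ∈ closure (AP0alg hG : Set E) from hw)
    r hr0
  obtain ⟨f, g, hg1, hg0, rfl⟩ := hz
  rw [dist_eq_norm] at hzw
  obtain ⟨z', hz', hzw'⟩ := Metric.mem_closure_iff.1
    (show w / y ^ m ∈ closure (((aeval (y⁻¹) : k[X] →ₐ[k] E).range : Subalgebra k E) : Set E)
      from hw') r hr0
  obtain ⟨h, rfl⟩ := hz'
  rw [dist_eq_norm] at hzw'
  have hgn := hG.norm_of_coeff_zero g hg1 hg0
  have hgne : aeval y g ≠ 0 := by
    intro h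
    rw [h, norm_zero] at hgn
    norm_num at hgn
  set d := h.natDegree with hd
  set q : k[X] := ∑ i ∈ Finset.range (d + 1), C (h.coeff i) * X ^ (m + d - i) with hq
  have hy := hG.ne_zero
  have hqy : y ^ m * aeval (y⁻¹) h = aeval y q / y ^ d := by
    rw [eq_div_iff (pow_ne_zero _ hy), aeval_eq_sum_range, hq, map_sum, Finset.mul_sum,
      Finset.sum_mul]
    refine Finset.sum_congr rfl fun i hi => ?_
    rw [Finset.mem_range] at hi
    rw [map_mul, aeval_C, map_pow, aeval_X, Algebra.smul_def]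
    have e1 : y ^ m * y ^ d = y ^ i * y ^ (m + d - i) := by
      rw [← pow_add, ← pow_add]; congr 1; omega
    calc y ^ m * (algebraMap k E (h.coeff i) * y⁻¹ ^ i) * y ^ d
        = algebraMap k E (h.coeff i) * (y ^ m * y ^ d) * y⁻¹ ^ i := by ring
      _ = algebraMap k E (h.coeff i) * y ^ (m + d - i) * (y ^ i * y⁻¹ ^ i) := by rw [e1]; ring
      _ = _ := by rw [← mul_pow, mul_inv_cancel₀ hy, one_pow, mul_one]
  have hqdeg : ∀ i, m + d < i → q.coeff i = 0 := by
    intro i hi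
    rw [hq, finsetSum_coeff]
    refine Finset.sum_eq_zero fun j _ => ?_
    rw [coeff_C_mul_X_pow, if_neg (by omega)]
  have hA : ‖w - y ^ m * aeval (y⁻¹) h‖ ≤ r := by
    have e : w - y ^ m * aeval (y⁻¹) h = y ^ m * (w / y ^ m - aeval (y⁻¹) h) := by
      rw [mul_sub, mul_div_cancel₀ _ (pow_ne_zero _ hy)]
    rw [e, norm_mul, norm_pow, hG.norm_eq, one_pow, one_mul]
    exact hzw'.le
  -- compare
  have hB : ‖aeval y (f * X ^ d - q * g)‖ ≤ r := by
    have e : aeval y (f * X ^ d - q * g) =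
        (aeval y g * y ^ d) * ((w - y ^ m * aeval (y⁻¹) h) - (w - aeval y f / aeval y g)) := by
      rw [hqy, map_sub, map_mul, map_mul, map_pow, aeval_X]
      have hyd := pow_ne_zero d hy
      field_simp
      ring
    rw [e, norm_mul, norm_mul, norm_pow, hG.norm_eq, one_pow, hgn, one_mul, one_mul]
    exact (nsub _ _).trans (max_le hA hzw.le)
  have hC : ∀ i < d, ‖(q * g).coeff i‖ ≤ r := by
    intro i hi
    have e := (hG.coeff_le (f * X ^ d - q * g) i).trans hB
    rw [coeff_sub, coeff_mul_X_pow', if_neg (by omega), zero_sub, norm_neg] at e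
    exact e
  have hD := low_small hG g hg1 hg0 q d hr0.le hC
  obtain ⟨l, p, e1, e2, e3, e4⟩ := split_low q d
  refine ⟨p, fun i hi => by rw [e4]; exact hqdeg _ (by omega), ?_⟩
  have hl : ‖aeval y l‖ ≤ r := hG.aeval_le l hr0.le fun i => by
    rcases lt_or_ge i d with hi | hi
    · rw [e2 i hi]; exact hD i hi
    · rw [e3 i hi, norm_zero]; exact hr0.le
  have e5 : w - aeval y p = (w - y ^ m * aeval (y⁻¹) h) + aeval y l / y ^ d := by
    rw [hqy, e1, map_add, map_mul, map_pow, aeval_X]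
    have hyd := pow_ne_zero d hy
    field_simp
    ring
  rw [e5]
  refine (nadd _ _).trans (max_le hA ?_)
  rw [norm_div, norm_pow, hG.norm_eq, one_pow, div_one]
  exact hl

/-- **Intersection.** `AP ∩ y^m AU ⊆ k[y]`. -/
theorem inter_poly [CompleteSpace k] {π : k} (hπ : IsUnif π) (m : ℕ) (w : E) (hw : w ∈ AP hG)
    (hw' : w / y ^ m ∈ AU k y) : ∃ p : k[X], w = aeval y p := by
  let inst : NontriviallyNormedField k :=
    { (inferInstance : NormedField k) with
      non_trivial := ⟨π⁻¹, by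
        rw [norm_inv]; exact (one_lt_inv₀ hπ.pos).2 hπ.lt_one⟩ }
  set P : Submodule k E := Submodule.span k (Set.range fun i : Fin (m + 1) => y ^ (i : ℕ)) with hP
  have hfin : FiniteDimensional k P := FiniteDimensional.span_of_finite k (Set.finite_range _)
  have hcl : IsClosed (P : Set E) := Submodule.closed_of_finiteDimensional P
  have hmem : ∀ p : k[X], (∀ i, m < i → p.coeff i = 0) → aeval y p ∈ P := by
    intro p hp
    rw [aeval_eq_sum_range' (n := m + 1) (Nat.lt_succ_of_le (natDegree_le_iff_coeff_eq_zero.2 hp))]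
    refine P.sum_mem fun i hi => P.smul_mem _ (Submodule.subset_span ⟨⟨i, Finset.mem_range.1 hi⟩, rfl⟩)
  have hPAP : ∀ z ∈ P, z ∈ AP hG := by
    intro z hz
    have : P ≤ Subalgebra.toSubmodule (AP hG) := by
      rw [hP, Submodule.span_le]
      rintro _ ⟨i, rfl⟩
      have := aeval_mem_AP hG (X ^ (i : ℕ) : k[X])
      rw [map_pow, aeval_X] at this
      exact this
    exact this hz
  have hPAU : ∀ z ∈ P, z / y ^ m ∈ AU k y := by
    intro z hz
    refine Submodule.span_induction ?_ ?_ ?_ ?_ hz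
    · rintro _ ⟨i, rfl⟩
      have h1 : y ^ (i : ℕ) / y ^ m = aeval (y⁻¹) (X ^ (m - i) : k[X]) := by
        rw [map_pow, aeval_X, inv_pow, div_eq_iff (pow_ne_zero _ hG.ne_zero),
          eq_inv_mul_iff_mul_eq₀ (pow_ne_zero _ hG.ne_zero), ← pow_add]
        congr 1; have := i.2; omega
      simp only []
      rw [h1]
      exact aeval_inv_mem_AU y _
    · rw [zero_div]; exact zero_mem _
    · intro a b _ _ ha hb; rw [add_div]; exact add_mem ha hb
    · intro c a _ ha
      rw [smul_div_assoc]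
      exact (AU k y).smul_mem ha c
  have happ : ∀ n : ℕ, ∃ z ∈ P, ‖w - z‖ ≤ ‖π‖ ^ n * ‖w‖ := by
    intro n
    induction n with
    | zero => exact ⟨0, P.zero_mem, by simp⟩
    | succ n ih =>
      obtain ⟨z, hz, hzn⟩ := ih
      obtain ⟨p, hp, hpn⟩ := approx_poly hG hπ m (w - z) (sub_mem hw (hPAP z hz))
        (by rw [sub_div]; exact sub_mem hw' (hPAU z hz))
      refine ⟨z + aeval y p, P.add_mem hz (hmem p hp), ?_⟩
      rw [← sub_sub]
      calc _ ≤ ‖π‖ * ‖w - z‖ := hpn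
        _ ≤ ‖π‖ * (‖π‖ ^ n * ‖w‖) := mul_le_mul_of_nonneg_left hzn hπ.pos.le
        _ = _ := by ring
  have hwP : w ∈ P := by
    rw [← SetLike.mem_coe, ← hcl.closure_eq, Metric.mem_closure_iff]
    intro ε hε
    have ht : Tendsto (fun n : ℕ => ‖π‖ ^ n * ‖w‖) atTop (𝓝 0) := by
      have := (tendsto_pow_atTop_nhds_zero_of_lt_one hπ.pos.le hπ.lt_one).mul_const ‖w‖
      simpa using this
    obtain ⟨n, hn⟩ := (ht.eventually (gt_mem_nhds hε)).exists
    obtain ⟨z, hz, hzn⟩ := happ n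
    exact ⟨z, hz, by rw [dist_eq_norm]; exact hzn.trans_lt hn⟩
  have : P ≤ LinearMap.range (aeval y : k[X] →ₐ[k] E).toLinearMap := by
    rw [hP, Submodule.span_le]
    rintro _ ⟨i, rfl⟩
    exact ⟨X ^ (i : ℕ), by simp⟩
  obtain ⟨p, hp⟩ := this hwP
  exact ⟨p, hp.symm⟩

end Dec

end Crest.Agent.R013.Gl946
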