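import Crest.Agent.R013.LemD3_323

/-!
# Lemma D of #2097 (S1), fourth part: Lemma D for convergent power series
-/

namespace Crest.Agent.R013.LemD_323

open Filter Topology PowerSeries

variable {F : Type*} [NontriviallyNormedField F]
variable {k : Type*} [NontriviallyNormedField k] [NormedAlgebra F k]

/-- the formal multilinear series of a power series along the subfield `F` -/
noncomputable def fms (F : Type*) [NontriviallyNormedField F] [NormedAlgebra F k]
    (f : PowerSeries k) : FormalMultilinearSeries F F k :=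
  fun n => ContinuousMultilinearMap.mkPiRing F (Fin n) (coeff n f)

theorem norm_fms (f : PowerSeries k) (n : ℕ) : ‖fms F f n‖ = ‖coeff n f‖ := by
  simp [fms]

variable [IsUltrametricDist k] [CompleteSpace k]

theorem hasFPS {r : ℝ} {f : PowerSeries k} (hf : Bd r f) {s : F} (hs : ‖s‖ < r) :
    HasFPowerSeriesOnBall (fun z : F => ev f (algebraMap F k z))
      (fms F (shift (algebraMap F k s) f)) s (ENNReal.ofReal r) := by
  have hr : 0 < r := (norm_nonneg s).trans_lt hs
  have hs' : ‖algebraMap F k s‖ < r := by rwa [norm_algebraMap']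
  obtain ⟨C, hC0, hC⟩ := hf.nonneg_bound hr.le
  refine ⟨?_, by simpa using hr, ?_⟩
  · have h1 := (fms F (shift (algebraMap F k s) f)).le_radius_of_bound C (r := r.toNNReal)
      (fun n => by
        rw [norm_fms, Real.coe_toNNReal r hr.le]
        exact bd_shift hC0 hC hs' n)
    exact h1
  · intro y hy
    have hy' : ‖y‖ < r := by
      have h2 : y ∈ Metric.eball (0 : F) (ENNReal.ofReal r) := hy
      rw [Metric.eball_ofReal] at h2
      simpa using h2
    have hy'' : ‖algebraMap F k y‖ < r := by rwa [norm_algebraMap']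
    have h3 := (summable_ev (hf.shift hs') hy'').hasSum
    rw [show (∑' n, coeff n (shift (algebraMap F k s) f) * (algebraMap F k y) ^ n) =
      ev (shift (algebraMap F k s) f) (algebraMap F k y) from rfl,
      ev_shift hf hs' hy'', ← map_add] at h3
    convert! h3 using 2 with n
    simp [fms, Algebra.smul_def, mul_comm]

theorem analyticAt_ev {r : ℝ} {f : PowerSeries k} (hf : Bd r f) {s : F} (hs : ‖s‖ < r) :
    AnalyticAt F (fun z : F => ev f (algebraMap F k z)) s :=
  (hasFPS hf hs).analyticAt

theorem iteratedDeriv_ev {r : ℝ} {f : PowerSeries k} (hf : Bd r f) {s : F} (hs : ‖s‖ < r)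
    (l : ℕ) : iteratedDeriv l (fun z : F => ev f (algebraMap F k z)) s =
      (l.factorial : k) * coeff l (shift (algebraMap F k s) f) := by
  have h1 := (hasFPS hf hs).factorial_smul (1 : F) l
  rw [iteratedDeriv_eq_iteratedFDeriv, ← h1]
  simp [fms]

/-- a convergent power series whose values near `0 ∈ F` vanish is zero -/
theorem eq_zero_of_ev {r : ℝ} (hr : 0 < r) {f : PowerSeries k} (hf : Bd r f)
    (h : ∀ᶠ z in 𝓝 (0 : F), ev f (algebraMap F k z) = 0) : f = 0 := by
  have hs : ‖(0 : F)‖ < r := by simpa using hr
  have h1 : HasFPowerSeriesAt (fun z : F => ev f (algebraMap F k z))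
      (fms F (shift (algebraMap F k 0) f)) 0 := (hasFPS hf hs).hasFPowerSeriesAt
  have h2 : HasFPowerSeriesAt (0 : F → k) (fms F (shift (algebraMap F k 0) f)) 0 :=
    h1.congr (by filter_upwards [h] with z hz; exact hz)
  have h3 := h2.eq_zero
  ext n
  have h4 : fms F (shift (algebraMap F k 0) f) n = 0 := by rw [h3]; rfl
  have h5 : coeff n (shift (algebraMap F k (0 : F)) f) = 0 := by
    have := norm_fms (F := F) (shift (algebraMap F k (0 : F)) f) n
    rw [h4, norm_zero] at this
    exact norm_eq_zero.mp this.symm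
  rw [coeff_shift, tsum_eq_single 0] at h5
  · simpa using h5
  · intro b hb
    simp [hb]

/-- LEMMA D (power series form).  `F` complete field of characteristic `0`
(for example `ℚ_[p]`), `k/F` finite, `U` a finite dimensional `F`-space, `f : U → k⟦X⟧` injective
`F`-linear with values convergent on a disc of radius `r`, `m [k:F] < dim U`.  Then there are
arbitrarily small `s ∈ F` and `u ∈ U` such that the Taylor expansion of `f u` at `s` has order
exactly `m`. -/
theorem lemD_ps [CompleteSpace F] [CharZero F] [FiniteDimensional F k]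
    {U : Type*} [AddCommGroup U] [Module F U] [FiniteDimensional F U]
    (f : U →ₗ[F] PowerSeries k) (hinj : Function.Injective f) {r : ℝ} (hr : 0 < r)
    (hf : ∀ u, Bd r (f u)) (m : ℕ) (hm : m * Module.finrank F k < Module.finrank F U)
    {ε : ℝ} (hε : 0 < ε) :
    ∃ s : F, ‖s‖ < ε ∧ ∃ u : U,
      (∀ l < m, coeff l (shift (algebraMap F k s) (f u)) = 0) ∧
        coeff m (shift (algebraMap F k s) (f u)) ≠ 0 := by
  classical
  have : CharZero k := charZero_of_injective_algebraMap (algebraMap F k).injective
  let B := Module.finBasis F U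
  have hev : ∀ (c : Fin (Module.finrank F U) → F) (z : F), ‖z‖ < r →
      ∑ i, c i • ev (f (B i)) (algebraMap F k z) = ev (f (∑ i, c i • B i)) (algebraMap F k z) := by
    intro c z hz
    have hz' : ‖algebraMap F k z‖ < r := by rwa [norm_algebraMap']
    unfold ev
    simp_rw [← tsum_const_smul'']
    rw [← Summable.tsum_finsetSum]
    · congr 1
      funext n
      simp [map_sum, Finset.sum_mul]
    · intro i _
      exact (summable_ev (hf (B i)) hz').const_smul (c i)
  have hball : ∀ᶠ z in 𝓝 (0 : F), ‖z‖ < r := by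
    filter_upwards [Metric.ball_mem_nhds (0 : F) hr] with z hz
    simpa using hz
  have hball' : ∀ᶠ z in 𝓝 (0 : F), ‖z‖ < ε := by
    filter_upwards [Metric.ball_mem_nhds (0 : F) hε] with z hz
    simpa using hz
  have key := lemD' (F := F) (V := k) (fun i z => ev (f (B i)) (algebraMap F k z))
    (fun i => analyticAt_ev (hf (B i)) (by simpa using hr)) (fun c hc => ?_) m (by simpa using hm)
  · obtain ⟨s, ⟨c, h1, h2⟩, hs1, hs2⟩ := (key.and_eventually (hball.and hball')).exists
    have h3 : (fun z : F => ∑ i, c i • ev (f (B i)) (algebraMap F k z)) =ᶠ[𝓝 s]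
        fun z => ev (f (∑ i, c i • B i)) (algebraMap F k z) := by
      have h4 : ∀ᶠ z in 𝓝 s, ‖z‖ < r := by
        have := (isOpen_lt continuous_norm continuous_const (f := fun z : F => ‖z‖)
          (g := fun _ => r)).mem_nhds hs1
        exact this
      filter_upwards [h4] with z hz
      exact hev c z hz
    refine ⟨s, hs2, ∑ i, c i • B i, fun l hl => ?_, fun h0 => ?_⟩
    · have h5 := h1 l hl
      rw [h3.iteratedDeriv_eq l, iteratedDeriv_ev (hf _) hs1 l] at h5
      rcases mul_eq_zero.mp h5 with h6 | h6
      · exact absurd h6 (Nat.cast_ne_zero.mpr l.factorial_ne_zero)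
      · exact h6
    · apply h2
      rw [h3.iteratedDeriv_eq m, iteratedDeriv_ev (hf _) hs1 m, h0, mul_zero]
  · have h4 : f (∑ i, c i • B i) = 0 := by
      apply eq_zero_of_ev (F := F) hr (hf _)
      filter_upwards [hc, hball] with z e1 e2
      rw [← hev c z e2]
      exact e1
    have h5 : ∑ i, c i • B i = 0 := hinj (by rw [h4, map_zero])
    funext i
    exact (Fintype.linearIndependent_iff.mp B.linearIndependent) c h5 i

/-- LEMMA D, power series form, with the order of the Taylor expansion. -/
theorem lemD_order [CompleteSpace F] [CharZero F] [FiniteDimensional F k]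
    {U : Type*} [AddCommGroup U] [Module F U] [FiniteDimensional F U]
    (f : U →ₗ[F] PowerSeries k) (hinj : Function.Injective f) {r : ℝ} (hr : 0 < r)
    (hf : ∀ u, Bd r (f u)) (m : ℕ) (hm : m * Module.finrank F k < Module.finrank F U)
    {ε : ℝ} (hε : 0 < ε) :
    ∃ s : F, ‖s‖ < ε ∧ ∃ u : U, (shift (algebraMap F k s) (f u)).order = m := by
  obtain ⟨s, hs, u, h1, h2⟩ := lemD_ps f hinj hr hf m hm hε
  exact ⟨s, hs, u, PowerSeries.order_eq_nat.mpr ⟨h2, h1⟩⟩

end Crest.Agent.R013.LemD_323
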