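import Crest.Agent.R013.Good1_940
import Crest.Agent.R013.LemD4_323
import Crest.Agent.R013.Gl2_946

/-!
# R013 / Good3: bounded power series on a disc and the circle fields inside it (helper940)

* `shift_mul`, `shift_derivative`, `shift_shift` for 323's Taylor expansion `shift q f`.
* `tsum_shift` : evaluation of `shift q f` at `z ∈ E` is the evaluation of `f` at `q + z`.
* `evq` : `bsub R →+* E`, `X ↦ q + c y`, `E` a circle field (`IsGauss k y`), injective with
  `‖evq f‖ = sup_n ‖coeff n (shift q f)‖ ‖c‖ ^ n`; `frq : FractionRing (bsub R) →+* E`.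
* `dense_of_const` : a field containing `X` and a dense set of constants has dense image in `E`.
-/

set_option autoImplicit false
set_option linter.unusedSectionVars false

namespace Crest.Agent.R013.Good3_940

open PowerSeries
open scoped NNReal
open Crest.Agent.R013.KAS2_940 (Bd)
open Crest.Agent.R013.KAS3_940 Crest.Agent.R013.Good1_940 Crest.Agent.R013.Gl946
open Crest.Agent.R013.LemD_323 (shift coeff_shift ev_shift summable_shift)

section Shift

variable {k : Type*} [NontriviallyNormedField k]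

theorem toBd {r C : ℝ} {f : k⟦X⟧} (hf : Bd r C f) : LemD_323.Bd r f := ⟨C, hf⟩

theorem ofBd {r : ℝ} {f : k⟦X⟧} (hf : LemD_323.Bd r f) : ∃ C, Bd r C f := hf

theorem ev_eq (f : k⟦X⟧) (t : k) :
    LemD_323.ev f t = ∑' m, algebraMap k k (coeff m f) * t ^ m := rfl

variable [IsUltrametricDist k] [CompleteSpace k]

theorem bd_shift' {r C : ℝ} {f : k⟦X⟧} (hf : Bd r C f) {s : k} (hs : ‖s‖ < r) :
    Bd r C (shift s f) := LemD_323.bd_shift hf.nonneg hf hs

theorem eq_of_ev {r C D : ℝ} (hr : 0 < r) {f g : k⟦X⟧} (hf : Bd r C f) (hg : Bd r D g)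
    (h : ∀ t : k, ‖t‖ < r → LemD_323.ev f t = LemD_323.ev g t) : f = g := by
  have h1 : Bd r (max C D) (f - g) :=
    (hf.mono (le_max_left _ _)).sub hr.le (hg.mono (le_max_right _ _))
  have h2 : ∀ t : k, ‖t‖ < r → LemD_323.ev (f - g) t = 0 := by
    intro t ht
    have h3 : LemD_323.ev (f - g) t = LemD_323.ev f t - LemD_323.ev g t := by
      rw [ev_eq, ev_eq, ev_eq,
        ← ((summable_norm (E := k) hf ht).of_norm).tsum_sub ((summable_norm (E := k) hg ht).of_norm)]
      refine tsum_congr fun m => ?_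
      rw [map_sub, map_sub, sub_mul]
    rw [h3, h t ht, sub_self]
  have h4 : f - g = 0 := by
    refine LemD_323.eq_zero_of_ev (F := k) hr (toBd h1) ?_
    filter_upwards [Metric.ball_mem_nhds (0 : k) hr] with z hz
    exact h2 z (by simpa using hz)
  exact sub_eq_zero.mp h4

theorem ev_mul {r C D : ℝ} {f g : k⟦X⟧} (hf : Bd r C f) (hg : Bd r D g) {t : k} (ht : ‖t‖ < r) :
    LemD_323.ev (f * g) t = LemD_323.ev f t * LemD_323.ev g t := by
  rw [ev_eq, ev_eq, ev_eq]
  exact tsum_mul' (E := k) hf hg ht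

theorem norm_add_lt' {r : ℝ} {s t : k} (hs : ‖s‖ < r) (ht : ‖t‖ < r) : ‖s + t‖ < r :=
  (IsUltrametricDist.norm_add_le_max s t).trans_lt (max_lt hs ht)

theorem shift_mul {r C D : ℝ} (hr : 0 < r) {f g : k⟦X⟧} (hf : Bd r C f) (hg : Bd r D g) {s : k}
    (hs : ‖s‖ < r) : shift s (f * g) = shift s f * shift s g := by
  refine eq_of_ev hr (bd_shift' (hf.mul hr hg) hs) ((bd_shift' hf hs).mul hr (bd_shift' hg hs)) ?_
  intro t ht
  rw [ev_mul (bd_shift' hf hs) (bd_shift' hg hs) ht, ev_shift (toBd (hf.mul hr hg)) hs ht,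
    ev_shift (toBd hf) hs ht, ev_shift (toBd hg) hs ht]
  exact ev_mul hf hg (norm_add_lt' hs ht)

theorem shift_shift {r C : ℝ} (hr : 0 < r) {f : k⟦X⟧} (hf : Bd r C f) {s : k} (hs : ‖s‖ < r) :
    shift (-s) (shift s f) = f := by
  have hs' : ‖-s‖ < r := by rwa [norm_neg]
  refine eq_of_ev hr (bd_shift' (bd_shift' hf hs) hs') hf ?_
  intro t ht
  rw [ev_shift (toBd (bd_shift' hf hs)) hs' ht, ev_shift (toBd hf) hs (norm_add_lt' hs' ht)]
  congr 1
  ring

omit [IsUltrametricDist k] [CompleteSpace k] in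
theorem shift_zero (s : k) : shift s (0 : k⟦X⟧) = 0 := by
  ext l
  rw [coeff_shift, map_zero]
  simp

theorem shift_ne_zero {r C : ℝ} (hr : 0 < r) {f : k⟦X⟧} (hf : Bd r C f) {s : k} (hs : ‖s‖ < r)
    (h : f ≠ 0) : shift s f ≠ 0 := by
  intro h0
  have := shift_shift hr hf hs
  rw [h0, shift_zero] at this
  exact h this.symm

omit [IsUltrametricDist k] [CompleteSpace k] in
theorem shift_derivative (s : k) (f : k⟦X⟧) : shift s (d⁄dX k f) = d⁄dX k (shift s f) := by
  ext l
  rw [coeff_derivative, coeff_shift, coeff_shift, ← tsum_mul_right]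
  refine tsum_congr fun n => ?_
  rw [coeff_derivative]
  have h1 : (n + l + 1) * (n + l).choose l = (n + l + 1).choose (l + 1) * (l + 1) :=
    Nat.add_one_mul_choose_eq (n + l) l
  have h2 := congrArg (Nat.cast : ℕ → k) h1
  push_cast at h2
  have h3 : n + (l + 1) = n + l + 1 := rfl
  rw [h3]
  push_cast
  linear_combination (coeff (n + l + 1) f * s ^ n) * h2

end Shift

section Eval

variable {k E : Type*} [NontriviallyNormedField k] [IsUltrametricDist k] [CompleteSpace k]
  [NormedField E] [IsUltrametricDist E] [NormedAlgebra k E] [CompleteSpace E]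

theorem tsum_shift {r C : ℝ} {f : k⟦X⟧} (hf : Bd r C f) {q : k} (hq : ‖q‖ < r) {z : E}
    (hz : ‖z‖ < r) : (∑' m, algebraMap k E (coeff m (shift q f)) * z ^ m) =
      ∑' m, algebraMap k E (coeff m f) * (algebraMap k E q + z) ^ m := by
  let nnE : NontriviallyNormedField E :=
    { ‹NormedField E› with
      non_trivial := by
        obtain ⟨a, ha⟩ := NontriviallyNormedField.non_trivial (α := k)
        exact ⟨algebraMap k E a, by rwa [norm_algebraMap']⟩ }
  have hfE : LemD_323.Bd r (PowerSeries.map (algebraMap k E) f) :=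
    ⟨C, fun n => by rw [coeff_map, norm_algebraMap']; exact hf n⟩
  have hqE : ‖algebraMap k E q‖ < r := by rwa [norm_algebraMap']
  have h1 := ev_shift (k := E) hfE hqE hz
  have h2 : shift (algebraMap k E q) (PowerSeries.map (algebraMap k E) f) =
      PowerSeries.map (algebraMap k E) (shift q f) := by
    ext l
    rw [coeff_shift, coeff_map, coeff_shift]
    have hc : Continuous (algebraMap k E) := (algebraMapCLM k E).continuous
    rw [(summable_shift (toBd hf) hq l).map_tsum (algebraMap k E) hc]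
    refine tsum_congr fun n => ?_
    rw [map_mul, map_mul, map_natCast, map_pow, coeff_map]
  rw [h2] at h1
  have h3 : ∀ (g : k⟦X⟧) (t : E), LemD_323.ev (PowerSeries.map (algebraMap k E) g) t =
      ∑' m, algebraMap k E (coeff m g) * t ^ m := by
    intro g t
    refine tsum_congr fun m => ?_
    rw [coeff_map]
  rw [h3, h3] at h1
  exact h1

/-- the coefficients of a bounded series are bounded by its norm in a circle field -/
theorem coeff_le_norm {r C : ℝ} {f : k⟦X⟧} (hf : Bd r C f) {y : E} (hy : IsGauss k y) {c : k}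
    (hc : ‖c‖ < r) (n : ℕ) :
    ‖coeff n f‖ * ‖c‖ ^ n ≤ ‖∑' m, algebraMap k E (coeff m f) * (algebraMap k E c * y) ^ m‖ := by
  have hcy : ‖algebraMap k E c * y‖ < r := by
    rw [norm_mul, norm_algebraMap', hy.norm_eq, mul_one]; exact hc
  have hs := ((summable_norm (E := E) hf hcy).of_norm).hasSum.tendsto_sum_nat.norm
  refine ge_of_tendsto hs ?_
  filter_upwards [Filter.eventually_gt_atTop n] with N hN
  have h1 := hy.coeff_le (∑ m ∈ Finset.range N, Polynomial.monomial m (coeff m f * c ^ m)) n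
  rw [Polynomial.finsetSum_coeff, Finset.sum_eq_single n] at h1
  · rw [Polynomial.coeff_monomial, if_pos rfl, norm_mul, norm_pow] at h1
    refine h1.trans (le_of_eq ?_)
    congr 1
    rw [map_sum]
    refine Finset.sum_congr rfl fun m _ => ?_
    rw [Polynomial.aeval_monomial, map_mul, map_pow, mul_pow, mul_assoc]
  · intro m _ hm
    rw [Polynomial.coeff_monomial, if_neg hm]
  · intro h
    exact absurd (Finset.mem_range.mpr hN) h

/-- the point `q + c y` of the circle field -/
noncomputable def pt (q c : k) (y : E) : E := algebraMap k E q + algebraMap k E c * y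

omit [CompleteSpace k] [IsUltrametricDist k] [CompleteSpace E] in
theorem norm_pt_lt {r : ℝ} {q c : k} {y : E} (hy : IsGauss k y) (hq : ‖q‖ < r) (hc : ‖c‖ < r) :
    ‖pt q c y‖ < r := by
  refine (IsUltrametricDist.norm_add_le_max _ _).trans_lt (max_lt ?_ ?_)
  · rwa [norm_algebraMap']
  · rwa [norm_mul, norm_algebraMap', hy.norm_eq, mul_one]

/-- **evaluation of the bounded functions of the disc of radius `r` at the circle `(q, ‖c‖)`** -/
noncomputable def evq {r : ℝ} (hr : 0 < r) {q c : k} {y : E} (hy : IsGauss k y) (hq : ‖q‖ < r)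
    (hc : ‖c‖ < r) : bsub (K := k) r hr →+* E :=
  ev hr (pt q c y) (norm_pt_lt hy hq hc)

theorem evq_X {r : ℝ} {hr : 0 < r} {q c : k} {y : E} {hy : IsGauss k y} {hq : ‖q‖ < r}
    {hc : ‖c‖ < r} : evq hr hy hq hc ⟨X, X_mem⟩ = pt q c y := ev_X

theorem evq_C {r : ℝ} {hr : 0 < r} {q c : k} {y : E} {hy : IsGauss k y} {hq : ‖q‖ < r}
    {hc : ‖c‖ < r} (a : k) : evq hr hy hq hc ⟨C a, C_mem a⟩ = algebraMap k E a := ev_C a

/-- Taylor expansion at `q` in the ring of bounded series -/
noncomputable def shiftB {r : ℝ} (hr : 0 < r) {q : k} (hq : ‖q‖ < r) (f : bsub (K := k) r hr) :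
    bsub (K := k) r hr :=
  ⟨shift q f.1, _, bd_shift' f.2.choose_spec hq⟩

theorem norm_cy_lt {r : ℝ} {c : k} {y : E} (hy : IsGauss k y) (hc : ‖c‖ < r) :
    ‖algebraMap k E c * y‖ < r := by
  rwa [norm_mul, norm_algebraMap', hy.norm_eq, mul_one]

theorem evq_eq_shift {r : ℝ} {hr : 0 < r} {q c : k} {y : E} {hy : IsGauss k y} {hq : ‖q‖ < r}
    {hc : ‖c‖ < r} (f : bsub (K := k) r hr) :
    evq hr hy hq hc f = ev hr (algebraMap k E c * y) (norm_cy_lt hy hc) (shiftB hr hq f) := by
  rw [evq, ev_apply, ev_apply, shiftB, tsum_shift f.2.choose_spec hq (norm_cy_lt hy hc)]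
  rfl

theorem coeff_le_norm_evq {r : ℝ} {hr : 0 < r} {q c : k} {y : E} {hy : IsGauss k y} {hq : ‖q‖ < r}
    {hc : ‖c‖ < r} (f : bsub (K := k) r hr) (n : ℕ) :
    ‖coeff n (shift q f.1)‖ * ‖c‖ ^ n ≤ ‖evq hr hy hq hc f‖ := by
  rw [evq_eq_shift, ev_apply]
  exact coeff_le_norm (bd_shift' f.2.choose_spec hq) hy hc n

theorem norm_evq_le_iff {r : ℝ} {hr : 0 < r} {q c : k} {y : E} {hy : IsGauss k y} {hq : ‖q‖ < r}
    {hc : ‖c‖ < r} (f : bsub (K := k) r hr) (B : ℝ) :
    ‖evq hr hy hq hc f‖ ≤ B ↔ Bd ‖c‖ B (shift q f.1) := by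
  constructor
  · intro h n
    exact (coeff_le_norm_evq f n).trans h
  · intro h
    rw [evq_eq_shift]
    refine norm_ev_le _ ?_
    rw [norm_mul, norm_algebraMap', hy.norm_eq, mul_one]
    exact h

theorem evq_injective {r : ℝ} {hr : 0 < r} {q c : k} {y : E} {hy : IsGauss k y} {hq : ‖q‖ < r}
    {hc : ‖c‖ < r} (hc0 : c ≠ 0) : Function.Injective (evq (E := E) hr hy hq hc) := by
  rw [injective_iff_map_eq_zero]
  intro f hf
  by_contra hne
  have h1 : f.1 ≠ 0 := fun h => hne (Subtype.ext h)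
  have h2 := shift_ne_zero hr f.2.choose_spec hq h1
  refine h2 (PowerSeries.ext fun n => ?_)
  have h3 := coeff_le_norm_evq (hy := hy) (hq := hq) (hc := hc) f n
  rw [hf, norm_zero] at h3
  have h4 : 0 < ‖c‖ ^ n := pow_pos (norm_pos_iff.mpr hc0) n
  have h5 : ‖coeff n (shift q f.1)‖ ≤ 0 := by
    by_contra hcon
    rw [not_le] at hcon
    exact absurd h3 (not_le.mpr (mul_pos hcon h4))
  rw [map_zero]
  exact norm_le_zero_iff.mp h5

instance {r : ℝ} (hr : 0 < r) : IsDomain (bsub (K := k) r hr) := inferInstance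

/-- the field of fractions of the bounded functions on the disc of radius `r` -/
abbrev FDisc (k : Type*) [NontriviallyNormedField k] [IsUltrametricDist k] (r : ℝ) (hr : 0 < r) :
    Type _ := FractionRing (bsub (K := k) r hr)

/-- **the disc field maps to the circle field** -/
noncomputable def frq {r : ℝ} (hr : 0 < r) {q c : k} {y : E} (hy : IsGauss k y) (hq : ‖q‖ < r)
    (hc : ‖c‖ < r) (hc0 : c ≠ 0) : FDisc k r hr →+* E :=
  IsFractionRing.lift (evq_injective (hr := hr) (hy := hy) (hq := hq) (hc := hc) hc0)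

theorem frq_algebraMap {r : ℝ} {hr : 0 < r} {q c : k} {y : E} {hy : IsGauss k y} {hq : ‖q‖ < r}
    {hc : ‖c‖ < r} {hc0 : c ≠ 0} (f : bsub (K := k) r hr) :
    frq hr hy hq hc hc0 (algebraMap _ (FDisc k r hr) f) = evq hr hy hq hc f :=
  IsFractionRing.lift_algebraMap _ f

/-- **density**: a field with a map to the disc field, containing `X` and a dense set of constants,
has dense image in the circle field. -/
theorem dense_of_const {r : ℝ} {hr : 0 < r} {q c : k} {y : E} {hy : IsGauss k y}
    (hd : DenseRat k y) {hq : ‖q‖ < r} {hc : ‖c‖ < r} {hc0 : c ≠ 0} {K : Type*} [Field K]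
    (iota : K →+* FDisc k r hr) {x : K} (hx : iota x = algebraMap _ _ (⟨X, X_mem⟩ : bsub (K := k) r hr))
    (hK : ∀ (a : k) (ε : ℝ), 0 < ε → ∃ (b : K) (b' : k), ‖a - b'‖ < ε ∧
      iota b = algebraMap _ _ (⟨C b', C_mem b'⟩ : bsub (K := k) r hr)) :
    DenseRange ((frq hr hy hq hc hc0).comp iota) := by
  set j := (frq hr hy hq hc hc0).comp iota with hj
  let S : Subfield E := j.fieldRange.topologicalClosure
  have hS : ∀ z : E, z ∈ S ↔ z ∈ closure (Set.range j) := by
    intro z
    change z ∈ closure (j.fieldRange : Set E) ↔ _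
    rw [RingHom.coe_fieldRange]
  have hSc : IsClosed (S : Set E) := Subfield.isClosed_topologicalClosure _
  have hconst : ∀ a : k, algebraMap k E a ∈ S := by
    intro a
    rw [hS, Metric.mem_closure_iff]
    intro ε hε
    obtain ⟨b, b', h1, h2⟩ := hK a ε hε
    refine ⟨j b, ⟨b, rfl⟩, ?_⟩
    rw [hj, RingHom.comp_apply, h2, frq_algebraMap, evq_C, dist_eq_norm, ← map_sub,
      norm_algebraMap']
    exact h1
  have hpt : pt q c y ∈ S := by
    rw [hS]
    refine subset_closure ⟨x, ?_⟩
    rw [hj, RingHom.comp_apply, hx, frq_algebraMap, evq_X]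
  have hcE : algebraMap k E c ≠ 0 := (map_ne_zero _).mpr hc0
  have hyS : y ∈ S := by
    have h1 : y = (pt q c y - algebraMap k E q) / algebraMap k E c := by
      rw [pt, add_sub_cancel_left, mul_div_cancel_left₀ _ hcE]
    rw [h1]
    exact S.div_mem (S.sub_mem hpt (hconst q)) (hconst c)
  have hpoly : ∀ f : Polynomial k, Polynomial.aeval y f ∈ S := by
    intro f
    induction f using Polynomial.induction_on' with
    | add f g hf hg => rw [map_add]; exact S.add_mem hf hg
    | monomial n a =>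
      rw [Polynomial.aeval_monomial]
      exact S.mul_mem (hconst a) (S.pow_mem hyS n)
  intro z
  rw [← hS]
  have h1 : z ∈ closure (S : Set E) := by
    rw [Metric.mem_closure_iff]
    intro ε hε
    obtain ⟨f, g, _, h⟩ := hd z ε hε
    exact ⟨_, S.div_mem (hpoly f) (hpoly g), by rw [dist_eq_norm]; exact h⟩
  rwa [hSc.closure_eq] at h1

end Eval

end Crest.Agent.R013.Good3_940
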