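import Mathlib
import Crest.Agent.R013.BTor2_914
import Crest.Agent.R013.Good3_940

/-!
# R013 / BTor3: (ROOT) for the disc fields `FDisc` of 940 (helper914)
-/

set_option autoImplicit false
set_option linter.all false

namespace Crest.Agent.R013.BTor3_914

open WithZero PowerSeries
open scoped NNReal
open Crest.Agent.R013.RR7_948 Crest.Agent.R013.RR11_948
open Crest.Agent.R013.Gl946 Crest.Agent.R013.KAS1_940 Crest.Agent.R013.KAS3_940
open Crest.Agent.R013.Good1_940 Crest.Agent.R013.Good3_940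
open Crest.Agent.R013.BTor1_914 Crest.Agent.R013.BTor2_914

section dvr

variable (k : Type*) [NormedField k] [IsUltrametricDist k]

/-- the closed unit ball -/
noncomputable abbrev OO : ValuationSubring k := (NormedField.valuation (K := k)).valuationSubring

variable {k}

theorem mem_OO {a : k} : a ∈ OO k ↔ ‖a‖ ≤ 1 := by
  rw [Valuation.mem_valuationSubring_iff]
  show ‖a‖₊ ≤ 1 ↔ _
  rw [← NNReal.coe_le_coe]
  rfl

theorem isUnit_iff {a : OO k} : IsUnit a ↔ ‖(a : k)‖ = 1 := by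
  constructor
  · rintro ⟨u, rfl⟩
    have h1 : ‖((u : OO k) : k)‖ ≤ 1 := mem_OO.mp (u : OO k).2
    have h2 : ‖((↑u⁻¹ : OO k) : k)‖ ≤ 1 := mem_OO.mp (↑u⁻¹ : OO k).2
    have h3 : ((u : OO k) : k) * ((↑u⁻¹ : OO k) : k) = 1 := by
      have := congrArg (Subtype.val) (Units.mul_inv u)
      exact this
    have h4 := congrArg norm h3
    rw [norm_mul, norm_one] at h4
    nlinarith [norm_nonneg ((u : OO k) : k), norm_nonneg ((↑u⁻¹ : OO k) : k)]
  · intro h
    have ha : (a : k) ≠ 0 := by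
      intro h0
      rw [h0, norm_zero] at h
      exact zero_ne_one h
    have hb : (a : k)⁻¹ ∈ OO k := mem_OO.mpr (by rw [norm_inv, h, inv_one])
    exact IsUnit.of_mul_eq_one ⟨(a : k)⁻¹, hb⟩ (Subtype.ext (mul_inv_cancel₀ ha))

/-- the unit ball of a discretely valued field is a discrete valuation ring -/
theorem isDVR {π : k} (hπ : IsUnif π) : IsDiscreteValuationRing (OO k) := by
  have hπ0 : π ≠ 0 := norm_pos_iff.mp hπ.pos
  let p : OO k := ⟨π, mem_OO.mpr hπ.lt_one.le⟩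
  have hp : Irreducible p := by
    rw [irreducible_iff]
    refine ⟨fun h => ?_, fun a b hab => ?_⟩
    · have := isUnit_iff.mp h
      exact absurd this hπ.lt_one.ne
    · by_contra hcon
      rw [not_or] at hcon
      have ha : ‖(a : k)‖ < 1 := lt_of_le_of_ne (mem_OO.mp a.2) (fun h => hcon.1 (isUnit_iff.mpr h))
      have hb : ‖(b : k)‖ < 1 := lt_of_le_of_ne (mem_OO.mp b.2) (fun h => hcon.2 (isUnit_iff.mpr h))
      have h1 : π = (a : k) * (b : k) := congrArg Subtype.val hab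
      have h2 : ‖π‖ = ‖(a : k)‖ * ‖(b : k)‖ := by
        conv_lhs => rw [h1]
        exact norm_mul _ _
      have h3 := hπ.le _ ha
      have h4 := hπ.le _ hb
      have h5 := hπ.pos
      have h6 := hπ.lt_one
      nlinarith [norm_nonneg (a : k), norm_nonneg (b : k)]
  refine IsDiscreteValuationRing.ofHasUnitMulPowIrreducibleFactorization ⟨p, hp, ?_⟩
  intro x hx
  have hx0 : (x : k) ≠ 0 := fun h => hx (Subtype.ext h)
  have hxpos : 0 < ‖(x : k)‖ := norm_pos_iff.mpr hx0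
  obtain ⟨N, hN⟩ := exists_pow_lt_of_lt_one hxpos hπ.lt_one
  have hex : ∃ n, ‖π‖ ^ n < ‖(x : k)‖ := ⟨N, hN⟩
  let n := Nat.find hex
  have hn : ‖π‖ ^ n < ‖(x : k)‖ := Nat.find_spec hex
  have hn0 : n ≠ 0 := by
    intro h
    rw [h, pow_zero] at hn
    exact absurd hn (not_lt.mpr (mem_OO.mp x.2))
  obtain ⟨m, hm⟩ := Nat.exists_eq_succ_of_ne_zero hn0
  have hm1 : ‖(x : k)‖ ≤ ‖π‖ ^ m := by
    have := Nat.find_min hex (show m < n by omega)
    exact not_lt.mp this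
  have hpm : 0 < ‖π‖ ^ m := pow_pos hπ.pos _
  let u : k := (x : k) / π ^ m
  have hu1 : ‖u‖ ≤ 1 := by
    rw [norm_div, norm_pow]
    exact div_le_one_of_le₀ hm1 hpm.le
  have hu2 : ‖π‖ < ‖u‖ := by
    rw [norm_div, norm_pow, lt_div_iff₀ hpm, ← pow_succ', ← Nat.succ_eq_add_one, ← hm]
    exact hn
  have hu3 : ‖u‖ = 1 := by
    by_contra h
    exact absurd (hπ.le u (lt_of_le_of_ne hu1 h)) (not_le.mpr hu2)
  let u' : OO k := ⟨u, mem_OO.mpr hu1⟩
  have hu' : IsUnit u' := isUnit_iff.mpr hu3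
  refine ⟨m, hu'.unit, ?_⟩
  apply Subtype.ext
  show π ^ m * u = x
  simp only [u]
  field_simp

end dvr

section disc

variable {k : Type*} [NontriviallyNormedField k] [IsUltrametricDist k]

/-- `f(X) ↦ f(X / ρ)` from the power series with integral coefficients -/
noncomputable def toB {ρ : k} (hρ : ρ ≠ 0) :
    (OO k)⟦X⟧ →+* bsub (K := k) ‖ρ‖ (norm_pos_iff.mpr hρ) :=
  ((PowerSeries.rescale ρ⁻¹).comp (PowerSeries.map (OO k).subtype)).codRestrict _ (fun f => by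
    refine ⟨1, fun n => ?_⟩
    rw [RingHom.comp_apply, coeff_rescale, coeff_map, norm_mul, norm_pow, norm_inv]
    have h1 : ‖(OO k).subtype (coeff n f)‖ ≤ 1 := mem_OO.mp (coeff n f).2
    have h2 : 0 < ‖ρ‖ := norm_pos_iff.mpr hρ
    calc (‖ρ‖⁻¹) ^ n * ‖(OO k).subtype (coeff n f)‖ * ‖ρ‖ ^ n
        = ‖(OO k).subtype (coeff n f)‖ * ((‖ρ‖⁻¹) ^ n * ‖ρ‖ ^ n) := by ring
      _ = ‖(OO k).subtype (coeff n f)‖ := by
          rw [← mul_pow, inv_mul_cancel₀ h2.ne', one_pow, mul_one]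
      _ ≤ 1 := h1)

theorem coe_toB {ρ : k} (hρ : ρ ≠ 0) (f : (OO k)⟦X⟧) (n : ℕ) :
    coeff n (toB hρ f).1 = ρ⁻¹ ^ n * (coeff n f : OO k) := by
  show coeff n ((PowerSeries.rescale ρ⁻¹) (PowerSeries.map (OO k).subtype f)) = _
  rw [coeff_rescale, coeff_map]
  rfl

theorem toB_injective {ρ : k} (hρ : ρ ≠ 0) : Function.Injective (toB hρ) := by
  intro f g h
  ext n
  have h1 := congrArg (fun F => coeff n F.1) h
  simp only [coe_toB] at h1
  exact mul_left_cancel₀ (pow_ne_zero _ (inv_ne_zero hρ)) h1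

theorem toB_C {ρ : k} (hρ : ρ ≠ 0) (a : OO k) :
    toB hρ (PowerSeries.C a) = ⟨PowerSeries.C (a : k), C_mem _⟩ := by
  apply Subtype.ext
  ext n
  rw [coe_toB]
  show _ = coeff n (PowerSeries.C (a : k))
  rw [coeff_C, coeff_C]
  split_ifs with h
  · subst h; simp
  · simp

/-- every bounded series becomes integral after multiplication by a constant -/
theorem exists_toB {ρ : k} (hρ : ρ ≠ 0) (g : bsub (K := k) ‖ρ‖ (norm_pos_iff.mpr hρ)) :
    ∃ (a : OO k) (f : (OO k)⟦X⟧), a ≠ 0 ∧ ⟨PowerSeries.C (a : k), C_mem _⟩ * g = toB hρ f := by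
  obtain ⟨B, hB⟩ := g.2
  have h2 : 0 < ‖ρ‖ := norm_pos_iff.mpr hρ
  obtain ⟨b, hb⟩ := NormedField.exists_lt_norm k (max B 1)
  have hb0 : b ≠ 0 := by
    rintro rfl
    rw [norm_zero] at hb
    exact absurd hb (not_lt.mpr (le_trans zero_le_one (le_max_right _ _)))
  have hbpos : 0 < ‖b‖ := norm_pos_iff.mpr hb0
  have hb1 : ‖b⁻¹‖ ≤ 1 := by
    rw [norm_inv]
    exact inv_le_one_of_one_le₀ ((le_max_right _ _).trans hb.le)
  have hcoef : ∀ n, ‖b⁻¹ * (ρ ^ n * coeff n g.1)‖ ≤ 1 := by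
    intro n
    rw [norm_mul, norm_mul, norm_pow, norm_inv, mul_comm (‖ρ‖ ^ n)]
    have h3 := hB n
    have h4 : ‖coeff n g.1‖ * ‖ρ‖ ^ n ≤ ‖b‖ := h3.trans ((le_max_left _ _).trans hb.le)
    calc ‖b‖⁻¹ * (‖coeff n g.1‖ * ‖ρ‖ ^ n) ≤ ‖b‖⁻¹ * ‖b‖ := by gcongr
      _ = 1 := inv_mul_cancel₀ hbpos.ne'
  refine ⟨⟨b⁻¹, mem_OO.mpr hb1⟩, PowerSeries.mk fun n =>
    ⟨b⁻¹ * (ρ ^ n * coeff n g.1), mem_OO.mpr (hcoef n)⟩, ?_, ?_⟩
  · intro h
    exact inv_ne_zero hb0 (congrArg Subtype.val h)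
  · apply Subtype.ext
    ext n
    rw [coe_toB, coeff_mk]
    show coeff n (PowerSeries.C (b⁻¹ : k) * g.1) = ρ⁻¹ ^ n * (b⁻¹ * (ρ ^ n * coeff n g.1))
    rw [coeff_C_mul, inv_pow]
    have : ρ ^ n ≠ 0 := pow_ne_zero _ hρ
    field_simp

/-- the structure of an `O[[X]]`-algebra on the disc field -/
@[reducible] noncomputable def algO {ρ : k} (hρ : ρ ≠ 0) :
    Algebra (OO k)⟦X⟧ (FDisc k ‖ρ‖ (norm_pos_iff.mpr hρ)) :=
  ((algebraMap (bsub (K := k) ‖ρ‖ (norm_pos_iff.mpr hρ))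
    (FDisc k ‖ρ‖ (norm_pos_iff.mpr hρ))).comp (toB hρ)).toAlgebra

theorem isFractionRing_algO {ρ : k} (hρ : ρ ≠ 0) :
    letI := algO hρ
    IsFractionRing (OO k)⟦X⟧ (FDisc k ‖ρ‖ (norm_pos_iff.mpr hρ)) := by
  letI := algO hρ
  have hinj : Function.Injective (algebraMap (OO k)⟦X⟧ (FDisc k ‖ρ‖ (norm_pos_iff.mpr hρ))) :=
    (IsFractionRing.injective (bsub (K := k) ‖ρ‖ (norm_pos_iff.mpr hρ)) _).comp (toB_injective hρ)
  haveI : FaithfulSMul (OO k)⟦X⟧ (FDisc k ‖ρ‖ (norm_pos_iff.mpr hρ)) :=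
    (faithfulSMul_iff_algebraMap_injective _ _).mpr hinj
  refine IsFractionRing.of_field _ _ fun z => ?_
  obtain ⟨g, h, hh, rfl⟩ := IsFractionRing.div_surjective
    (A := bsub (K := k) ‖ρ‖ (norm_pos_iff.mpr hρ)) z
  have hh0 : h ≠ 0 := nonZeroDivisors.ne_zero hh
  obtain ⟨a, f, ha, hf⟩ := exists_toB hρ g
  obtain ⟨a', f', ha', hf'⟩ := exists_toB hρ h
  have key : ∀ (a : OO k), a ≠ 0 → algebraMap (bsub (K := k) ‖ρ‖ (norm_pos_iff.mpr hρ))
      (FDisc k ‖ρ‖ (norm_pos_iff.mpr hρ)) ⟨PowerSeries.C (a : k), C_mem _⟩ ≠ 0 := by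
    intro a ha h0
    rw [← map_zero (algebraMap (bsub (K := k) ‖ρ‖ (norm_pos_iff.mpr hρ))
      (FDisc k ‖ρ‖ (norm_pos_iff.mpr hρ)))] at h0
    have h1 := IsFractionRing.injective (bsub (K := k) ‖ρ‖ (norm_pos_iff.mpr hρ))
      (FDisc k ‖ρ‖ (norm_pos_iff.mpr hρ)) h0
    have h2 := congrArg (fun F => constantCoeff F.1) h1
    simp at h2
    exact ha h2
  have hhF : algebraMap (bsub (K := k) ‖ρ‖ (norm_pos_iff.mpr hρ))
      (FDisc k ‖ρ‖ (norm_pos_iff.mpr hρ)) h ≠ 0 := fun h0 => hh0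
    (IsFractionRing.injective (bsub (K := k) ‖ρ‖ (norm_pos_iff.mpr hρ))
      (FDisc k ‖ρ‖ (norm_pos_iff.mpr hρ)) (by rw [h0, map_zero]))
  refine ⟨PowerSeries.C a' * f, PowerSeries.C a * f', ?_⟩
  show _ = algebraMap (bsub (K := k) ‖ρ‖ (norm_pos_iff.mpr hρ))
      (FDisc k ‖ρ‖ (norm_pos_iff.mpr hρ)) (toB hρ (PowerSeries.C a' * f)) /
      algebraMap (bsub (K := k) ‖ρ‖ (norm_pos_iff.mpr hρ))
      (FDisc k ‖ρ‖ (norm_pos_iff.mpr hρ)) (toB hρ (PowerSeries.C a * f'))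
  rw [map_mul (toB hρ), map_mul (toB hρ), toB_C, toB_C, ← hf, ← hf', map_mul, map_mul, map_mul,
    map_mul]
  have h3 := key a ha
  have h4 := key a' ha'
  field_simp

theorem bsub_le {R r : ℝ} (hR : 0 < R) (hr : 0 < r) (hrR : r ≤ R) :
    bsub (K := k) R hR ≤ bsub (K := k) r hr := fun f hf => by
  obtain ⟨B, hB⟩ := hf
  refine ⟨B, fun n => (le_trans ?_ (hB n))⟩
  gcongr

/-- restriction to a smaller disc -/
noncomputable def resB {R r : ℝ} (hR : 0 < R) (hr : 0 < r) (hrR : r ≤ R) :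
    bsub (K := k) R hR →+* bsub (K := k) r hr := Subring.inclusion (bsub_le hR hr hrR)

theorem resB_injective {R r : ℝ} (hR : 0 < R) (hr : 0 < r) (hrR : r ≤ R) :
    Function.Injective (resB (k := k) hR hr hrR) := Subring.inclusion_injective _

theorem coe_resB {R r : ℝ} (hR : 0 < R) (hr : 0 < r) (hrR : r ≤ R) (f : bsub (K := k) R hR) :
    (resB hR hr hrR f).1 = f.1 := rfl

/-- restriction to a smaller disc, fraction fields -/
noncomputable def resF {R r : ℝ} (hR : 0 < R) (hr : 0 < r) (hrR : r ≤ R) :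
    FDisc k R hR →+* FDisc k r hr :=
  IsFractionRing.lift (A := bsub (K := k) R hR) (K := FDisc k R hR)
    (g := (algebraMap (bsub (K := k) r hr) (FDisc k r hr)).comp (resB hR hr hrR))
    (by
      rw [RingHom.coe_comp]
      exact (IsFractionRing.injective _ _).comp (resB_injective hR hr hrR))

theorem resF_algebraMap {R r : ℝ} (hR : 0 < R) (hr : 0 < r) (hrR : r ≤ R)
    (f : bsub (K := k) R hR) : resF hR hr hrR (algebraMap _ (FDisc k R hR) f) =
      algebraMap _ (FDisc k r hr) (resB hR hr hrR f) := by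
  unfold resF
  rw [IsFractionRing.lift_algebraMap]
  rfl

/-- the constants of the disc field -/
noncomputable def cF {R : ℝ} (hR : 0 < R) : k →+* FDisc k R hR :=
  (algebraMap (bsub (K := k) R hR) (FDisc k R hR)).comp
    ((PowerSeries.C (R := k)).codRestrict _ fun a => C_mem a)

theorem cF_apply {R : ℝ} (hR : 0 < R) (a : k) :
    cF hR a = algebraMap (bsub (K := k) R hR) (FDisc k R hR) ⟨PowerSeries.C a, C_mem a⟩ := rfl

theorem resF_cF {R r : ℝ} (hR : 0 < R) (hr : 0 < r) (hrR : r ≤ R) (a : k) :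
    resF hR hr hrR (cF hR a) = cF hr a := by
  rw [cF_apply, cF_apply, resF_algebraMap]
  rfl

/-- compatibility with the evaluation at a circle -/
theorem frq_resF [CompleteSpace k] {E : Type*} [NontriviallyNormedField E] [IsUltrametricDist E]
    [NormedAlgebra k E] [CompleteSpace E] {R r : ℝ} (hR : 0 < R) (hr : 0 < r) (hrR : r ≤ R)
    {q c : k} {y : E} (hy : IsGauss k y) (hq : ‖q‖ < r) (hc : ‖c‖ < r) (hc0 : c ≠ 0)
    (f : FDisc k R hR) :
    frq hr hy hq hc hc0 (resF hR hr hrR f) =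
      frq hR hy (hq.trans_le hrR) (hc.trans_le hrR) hc0 f := by
  obtain ⟨a, b, hb, rfl⟩ := IsFractionRing.div_surjective (A := bsub (K := k) R hR) f
  rw [map_div₀, map_div₀, map_div₀, resF_algebraMap, resF_algebraMap, frq_algebraMap,
    frq_algebraMap, frq_algebraMap, frq_algebraMap]
  rfl

variable {L : Type*} [Field L] [Algebra k L] [Algebra (RatFunc k) L]
  [IsScalarTower k (RatFunc k) L] [FiniteDimensional (RatFunc k) L]
  [Algebra.IsSeparable (RatFunc k) L]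

/-- **(ROOT) for disc fields** -/
theorem root_FDisc {π : k} (hπ : IsUnif π) {R : ℝ} (hR : 0 < R) {ρ : k} (hρ0 : ρ ≠ 0)
    (hρ : ‖ρ‖ ≤ R) (kap : L →+* FDisc k R hR) (hk : ∀ c : k, kap (algebraMap k L c) = cF hR c)
    {l : ℕ} (hl : ‖(l : k)‖ = 1) {h : L} (h0 : h ≠ 0)
    (hdiv : ∀ Q : Pl k L, (l : ℤ) ∣ divf (k := k) h Q) :
    ∃ c : k, c ≠ 0 ∧ ∃ g : FDisc k ‖ρ‖ (norm_pos_iff.mpr hρ0), g ≠ 0 ∧
      resF hR (norm_pos_iff.mpr hρ0) hρ (kap h) = cF _ c * g ^ l := by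
  haveI := isDVR hπ
  letI := algO hρ0
  haveI := isFractionRing_algO hρ0
  letI : Algebra k (FDisc k ‖ρ‖ (norm_pos_iff.mpr hρ0)) := (cF (norm_pos_iff.mpr hρ0)).toAlgebra
  let ι : L →ₐ[k] FDisc k ‖ρ‖ (norm_pos_iff.mpr hρ0) :=
    { (resF hR (norm_pos_iff.mpr hρ0) hρ).comp kap with
      commutes' := fun c => by
        show resF hR (norm_pos_iff.mpr hρ0) hρ (kap (algebraMap k L c)) = _
        rw [hk, resF_cF]
        rfl }
  have hlu : IsUnit (l : OO k) := by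
    rw [isUnit_iff]
    simpa using hl
  exact root (O := OO k) (k := k) (FA := FDisc k ‖ρ‖ (norm_pos_iff.mpr hρ0)) (fun a => by
    show cF _ (a : k) = algebraMap (bsub (K := k) ‖ρ‖ (norm_pos_iff.mpr hρ0))
      (FDisc k ‖ρ‖ (norm_pos_iff.mpr hρ0)) (toB hρ0 (PowerSeries.C a))
    rw [toB_C]
    rfl) ι hlu h0 hdiv

end disc

end Crest.Agent.R013.BTor3_914
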