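import Mathlib
import Crest.Agent.R013.BTor3_914

/-!
# R013 / BTor4: (ROOT) with the hypothesis on `ℝ≥0`-valued places (no `RatFunc` structure needed)
(helper914)
-/

set_option autoImplicit false
set_option linter.all false

namespace Crest.Agent.R013.BTor4_914

open WithZero PowerSeries
open scoped NNReal
open Crest.NumberTheoryR.Sect
open Crest.Agent.R013.RR13_948
open Crest.Agent.R013.Gl946 Crest.Agent.R013.KAS1_940 Crest.Agent.R013.KAS3_940
open Crest.Agent.R013.Good1_940 Crest.Agent.R013.Good3_940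
open Crest.Agent.R013.BTor1_914 Crest.Agent.R013.BTor2_914 Crest.Agent.R013.BTor3_914

/-- the value of `h` is an `l`-th power of a value at every place trivial on `k` -/
def LDiv (k : Type*) [Field k] {L : Type*} [Field L] [Algebra k L] (l : ℕ) (h : L) : Prop :=
  ∀ u : Valuation L ℝ≥0, IsPlace k u → ∃ a : L, u h = u a ^ l

section root

variable {O : Type*} [CommRing O] [IsDomain O] [IsDiscreteValuationRing O]
  {k : Type*} [Field k] [Algebra O k] [IsFractionRing O k]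
  {FA : Type*} [Field FA] [Algebra O⟦X⟧ FA] [IsFractionRing O⟦X⟧ FA] [Algebra k FA]
  {L : Type*} [Field L] [Algebra k L]

/-- **(ROOT)**, second form -/
theorem root' (hc : ∀ a : O, algebraMap k FA (algebraMap O k a) =
      algebraMap O⟦X⟧ FA (PowerSeries.C a)) (ι : L →ₐ[k] FA) {l : ℕ} (hl : IsUnit (l : O))
    {h : L} (h0 : h ≠ 0) (hdiv : LDiv k l h) :
    ∃ c : k, c ≠ 0 ∧ ∃ g : FA, g ≠ 0 ∧ ι h = algebraMap k FA c * g ^ l := by
  have hl0 : 0 < l := by
    rcases Nat.eq_zero_or_pos l with h | h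
    · rw [h, Nat.cast_zero] at hl
      exact absurd rfl hl.ne_zero
    · exact h
  obtain ⟨ϖ, hϖ⟩ := IsDiscreteValuationRing.exists_irreducible O
  have hpr : Prime (PowerSeries.C ϖ : O⟦X⟧) := prime_C hϖ.prime
  have hιh : ι h ≠ 0 := by simpa using h0
  obtain ⟨u, n, g, hg0, hg⟩ := exists_root_frac (FA := FA) hpr hl0 (ι h) hιh (by
    intro q hq hne
    let w : Valuation L ℤᵐ⁰ := (wq FA hq).comap (ι : L →+* FA)
    have hw : ∀ x, w x = wq FA hq (ι x) := fun _ => rfl
    have hwc : ∀ c : k, c ≠ 0 → w (algebraMap k L c) = 1 := by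
      intro c hc0
      rw [hw, ι.commutes]
      exact wq_const hc hϖ hq hne hc0
    let w' : Valuation L ℝ≥0 := w.map toReal toReal_strictMono.monotone
    have hw' : ∀ x, w' x = toReal (w x) := fun _ => rfl
    by_cases hnt : ∃ a : L, w a ≠ 0 ∧ w a ≠ 1
    · have hpl : IsPlace k w' := by
        refine ⟨fun c hc0 => by rw [hw', hwc c hc0, map_one], ?_⟩
        obtain ⟨a, ha0, ha1⟩ := hnt
        refine ⟨a, ?_, ?_⟩
        · rw [hw']
          intro h0
          exact ha0 (toReal_strictMono.injective (by rw [h0, map_zero]))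
        · rw [hw']
          intro h0
          exact ha1 (toReal_strictMono.injective (by rw [h0, map_one]))
      obtain ⟨a, ha⟩ := hdiv w' hpl
      rw [hw', hw', ← map_pow] at ha
      have ha' : w h = w a ^ l := toReal_strictMono.injective ha
      have hwh : w h ≠ 0 := (Valuation.ne_zero_iff _).mpr h0
      have hwa : w a ≠ 0 := by
        intro h1
        rw [h1, zero_pow hl0.ne'] at ha'
        exact hwh ha'
      refine ⟨log (w a), ?_⟩
      rw [← hw, ha']
      conv_lhs => rw [← exp_log hwa]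
      rw [← exp_nsmul, nsmul_eq_mul]
    · push Not at hnt
      refine ⟨0, ?_⟩
      rw [← hw, mul_zero, exp_zero]
      exact hnt h ((Valuation.ne_zero_iff _).mpr h0))
  obtain ⟨c, w, hw, hw1⟩ := exists_root_unit hl u
  have hw0 : w ≠ 0 := by
    rintro rfl
    simp at hw1
  have hinj := IsFractionRing.injective O⟦X⟧ FA
  have hinj' := IsFractionRing.injective O k
  have hϖk : algebraMap O k ϖ ≠ 0 := fun h => hϖ.ne_zero (hinj' (by rw [h, map_zero]))
  have hck : algebraMap O k c ≠ 0 := fun h => c.ne_zero (hinj' (by rw [h, map_zero]))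
  refine ⟨algebraMap O k c * algebraMap O k ϖ ^ n, mul_ne_zero hck (zpow_ne_zero _ hϖk),
    algebraMap O⟦X⟧ FA w * g, mul_ne_zero (fun h => hw0 (hinj (by rw [h, map_zero]))) hg0, ?_⟩
  rw [hg, hw, map_mul, map_mul, map_zpow₀, hc, hc, map_pow, mul_pow]
  ring

end root

section disc

variable {k : Type*} [NontriviallyNormedField k] [IsUltrametricDist k]
  {L : Type*} [Field L] [Algebra k L]

/-- **(ROOT) for disc fields**, second form -/
theorem root_FDisc' {π : k} (hπ : IsUnif π) {R : ℝ} (hR : 0 < R) {ρ : k} (hρ0 : ρ ≠ 0)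
    (hρ : ‖ρ‖ ≤ R) (kap : L →+* FDisc k R hR) (hk : ∀ c : k, kap (algebraMap k L c) = cF hR c)
    {l : ℕ} (hl : ‖(l : k)‖ = 1) {h : L} (h0 : h ≠ 0) (hdiv : LDiv k l h) :
    ∃ c : k, c ≠ 0 ∧ ∃ g : FDisc k ‖ρ‖ (norm_pos_iff.mpr hρ0), g ≠ 0 ∧
      resF hR (norm_pos_iff.mpr hρ0) hρ (kap h) = cF _ c * g ^ l := by
  haveI := isDVR hπ
  letI := algO hρ0
  haveI := isFractionRing_algO hρ0
  letI : Algebra k (FDisc k ‖ρ‖ (norm_pos_iff.mpr hρ0)) := (cF (norm_pos_iff.mpr hρ0)).toAlgebra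
  let ι : L →ₐ[k] FDisc k ‖ρ‖ (norm_pos_iff.mpr hρ0) :=
    { (resF hR (norm_pos_iff.mpr hρ0) hρ).comp kap with
      commutes' := fun c => by
        show resF hR (norm_pos_iff.mpr hρ0) hρ (kap (algebraMap k L c)) = _
        rw [hk, resF_cF]
        rfl }
  have hlu : IsUnit (l : OO k) := by
    rw [isUnit_iff]
    simpa using hl
  exact root' (O := OO k) (k := k) (FA := FDisc k ‖ρ‖ (norm_pos_iff.mpr hρ0)) (fun a => by
    show cF _ (a : k) = algebraMap (bsub (K := k) ‖ρ‖ (norm_pos_iff.mpr hρ0))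
      (FDisc k ‖ρ‖ (norm_pos_iff.mpr hρ0)) (toB hρ0 (PowerSeries.C a))
    rw [toB_C]
    rfl) ι hlu h0 hdiv

/-- normalised form: after division by a constant, `kap h` is an `l`-th power on `|x| < |ρ|` -/
theorem exists_root_FDisc {π : k} (hπ : IsUnif π) {R : ℝ} (hR : 0 < R) {ρ : k} (hρ0 : ρ ≠ 0)
    (hρ : ‖ρ‖ ≤ R) (kap : L →+* FDisc k R hR) (hk : ∀ c : k, kap (algebraMap k L c) = cF hR c)
    {l : ℕ} (hl : ‖(l : k)‖ = 1) {h : L} (h0 : h ≠ 0) (hdiv : LDiv k l h) :
    ∃ c : k, c ≠ 0 ∧ ∃ g : FDisc k ‖ρ‖ (norm_pos_iff.mpr hρ0), g ≠ 0 ∧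
      resF hR (norm_pos_iff.mpr hρ0) hρ (kap (algebraMap k L c * h)) = g ^ l := by
  obtain ⟨c, hc, g, hg, hgl⟩ := root_FDisc' hπ hR hρ0 hρ kap hk hl h0 hdiv
  refine ⟨c⁻¹, inv_ne_zero hc, g, hg, ?_⟩
  rw [map_mul, map_mul, hk, resF_cF, hgl, ← mul_assoc, ← map_mul, inv_mul_cancel₀ hc, map_one,
    one_mul]

end disc

end Crest.Agent.R013.BTor4_914
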