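import Mathlib

/-!
# Weierstrass rings (row 13, leaf LEMW, part 1)

`E` a field over `k`, `A` a subalgebra of `E`, `t ∈ A` transcendental, such that every nonzero element
of `A` is a unit of `A` times a polynomial in `t`, and every irreducible polynomial is a unit of `A` or
"stays prime".  We develop the valuations `v_P` of the fraction field of `A` for the irreducible
polynomials `P` of the second kind, and show: if `B ≠ 0` in the fraction field is locally at each such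
`P` an `n`-th power times a unit, then `B = u * r ^ n` with `u` a unit of `A` and `r ∈ k(t)`.
-/

set_option autoImplicit false
set_option linter.unusedSectionVars false

namespace Crest.Agent.R013.LemW623

open Polynomial

variable {k E : Type*} [Field k] [Field E] [Algebra k E]

/-- `a` is a unit of the subalgebra `S` of the field `E`. -/
structure UnitIn (S : Subalgebra k E) (a : E) : Prop where
  ne : a ≠ 0
  mem : a ∈ S
  inv_mem : a⁻¹ ∈ S

namespace UnitIn

variable {S T : Subalgebra k E} {a b : E}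

theorem one : UnitIn S (1 : E) := ⟨one_ne_zero, one_mem _, by rw [inv_one]; exact one_mem _⟩

theorem mul (ha : UnitIn S a) (hb : UnitIn S b) : UnitIn S (a * b) :=
  ⟨mul_ne_zero ha.ne hb.ne, mul_mem ha.mem hb.mem, by
    rw [mul_inv]; exact mul_mem ha.inv_mem hb.inv_mem⟩

theorem inv (ha : UnitIn S a) : UnitIn S a⁻¹ :=
  ⟨inv_ne_zero ha.ne, ha.inv_mem, by rw [inv_inv]; exact ha.mem⟩

theorem div (ha : UnitIn S a) (hb : UnitIn S b) : UnitIn S (a / b) := by
  rw [div_eq_mul_inv]; exact ha.mul hb.inv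

theorem pow (ha : UnitIn S a) (n : ℕ) : UnitIn S (a ^ n) := by
  induction n with
  | zero => rw [pow_zero]; exact one
  | succ n ih => rw [pow_succ]; exact ih.mul ha

theorem zpow (ha : UnitIn S a) (n : ℤ) : UnitIn S (a ^ n) := by
  cases n with
  | ofNat n => rw [Int.ofNat_eq_natCast, zpow_natCast]; exact ha.pow n
  | negSucc n => rw [zpow_negSucc]; exact (ha.pow _).inv

theorem algMap {c : k} (hc : c ≠ 0) : UnitIn S (algebraMap k E c) :=
  ⟨by simpa using hc, S.algebraMap_mem c, by rw [← map_inv₀]; exact S.algebraMap_mem _⟩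

theorem mono (h : S ≤ T) (ha : UnitIn S a) : UnitIn T a := ⟨ha.ne, h ha.mem, h ha.inv_mem⟩

theorem of_mul_eq_one (ha : a ∈ S) (hb : b ∈ S) (h : a * b = 1) : UnitIn S a :=
  ⟨left_ne_zero_of_mul_eq_one h, ha, by rw [← eq_inv_of_mul_eq_one_right h]; exact hb⟩

end UnitIn

/-- Weierstrass rings. -/
structure Wr (k : Type*) {E : Type*} [Field k] [Field E] [Algebra k E] (A : Subalgebra k E)
    (t : E) : Prop where
  t_mem : t ∈ A
  transc : Transcendental k t
  weier : ∀ a ∈ A, a ≠ 0 → ∃ (u : E) (p : k[X]), UnitIn A u ∧ a = u * aeval t p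
  prime : ∀ P : k[X], Irreducible P →
    UnitIn A (aeval t P) ∨ ∀ f : k[X], aeval t f / aeval t P ∈ A → P ∣ f

/-- `P` is irreducible and stays prime in `A`. -/
structure InP (A : Subalgebra k E) (t : E) (P : k[X]) : Prop where
  irr : Irreducible P
  dvd : ∀ f : k[X], aeval t f / aeval t P ∈ A → P ∣ f

/-- The fraction field of `A` (as a set). -/
def Fr (A : Subalgebra k E) (t : E) : Set E :=
  {x | ∃ a ∈ A, ∃ g : k[X], g ≠ 0 ∧ x = a / aeval t g}

/-- The local ring at `P` of the fraction field of `A` (as a set). -/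
def OP (A : Subalgebra k E) (t : E) (P : k[X]) : Set E :=
  {x | ∃ a ∈ A, ∃ g : k[X], ¬ P ∣ g ∧ x = a / aeval t g}

/-- `v_P(x) = m`. -/
def IsV (A : Subalgebra k E) (t : E) (P : k[X]) (x : E) (m : ℤ) : Prop :=
  ∃ (u : E) (f g : k[X]), UnitIn A u ∧ ¬ P ∣ f ∧ ¬ P ∣ g ∧
    x = u * aeval t P ^ m * (aeval t f / aeval t g)

theorem aeval_ne_zero' {t : E} (ht : Transcendental k t) {p : k[X]} (hp : p ≠ 0) :
    aeval t p ≠ 0 := fun h => hp ((transcendental_iff.1 ht) p h)

theorem aeval_injective' {t : E} (ht : Transcendental k t) :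
    Function.Injective (aeval t : k[X] →ₐ[k] E) :=
  transcendental_iff_injective.1 ht

theorem ne_zero_of_not_dvd {P f : k[X]} (h : ¬ P ∣ f) : f ≠ 0 := by
  rintro rfl; exact h (dvd_zero P)

namespace Wr

variable {A : Subalgebra k E} {t : E} (h : Wr k A t)

include h

theorem aeval_mem (p : k[X]) : aeval t p ∈ A := by
  have : aeval t p = (aeval (⟨t, h.t_mem⟩ : A) p : A) := by
    rw [← Subalgebra.coe_val, ← aeval_algHom_apply]; rfl
  rw [this]; exact (aeval (⟨t, h.t_mem⟩ : A) p).2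

theorem unit_or_in {P : k[X]} (hP : Irreducible P) : UnitIn A (aeval t P) ∨ InP A t P := by
  rcases h.prime P hP with h1 | h1
  · exact Or.inl h1
  · exact Or.inr ⟨hP, h1⟩

theorem ae_ne {p : k[X]} (hp : p ≠ 0) : aeval t p ≠ 0 := aeval_ne_zero' h.transc hp

/-- Normal form of a nonzero element of the fraction field. -/
theorem normal {x : E} (hx : x ∈ Fr A t) (hx0 : x ≠ 0) :
    ∃ (u : E) (f g : k[X]), UnitIn A u ∧ f ≠ 0 ∧ g ≠ 0 ∧ x = u * (aeval t f / aeval t g) := by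
  obtain ⟨a, ha, g, hg, rfl⟩ := hx
  have ha0 : a ≠ 0 := by rintro rfl; simp at hx0
  obtain ⟨u, p, hu, rfl⟩ := h.weier a ha ha0
  refine ⟨u, p, g, hu, ?_, hg, by rw [mul_div_assoc]⟩
  rintro rfl; simp at ha0

theorem mem_Fr_of_normal {u : E} {f g : k[X]} (hu : UnitIn A u) (hg : g ≠ 0) :
    u * (aeval t f / aeval t g) ∈ Fr A t :=
  ⟨u * aeval t f, mul_mem hu.mem (h.aeval_mem f), g, hg, by rw [mul_div_assoc]⟩

theorem subset_Fr {a : E} (ha : a ∈ A) : a ∈ Fr A t := ⟨a, ha, 1, one_ne_zero, by simp⟩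

theorem Fr_mul {x y : E} (hx : x ∈ Fr A t) (hy : y ∈ Fr A t) : x * y ∈ Fr A t := by
  obtain ⟨a, ha, g, hg, rfl⟩ := hx
  obtain ⟨a', ha', g', hg', rfl⟩ := hy
  exact ⟨a * a', mul_mem ha ha', g * g', mul_ne_zero hg hg', by rw [map_mul, div_mul_div_comm]⟩

theorem Fr_add {x y : E} (hx : x ∈ Fr A t) (hy : y ∈ Fr A t) : x + y ∈ Fr A t := by
  obtain ⟨a, ha, g, hg, rfl⟩ := hx
  obtain ⟨a', ha', g', hg', rfl⟩ := hy
  exact ⟨a * aeval t g' + aeval t g * a', add_mem (mul_mem ha (h.aeval_mem _))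
    (mul_mem (h.aeval_mem _) ha'), g * g', mul_ne_zero hg hg', by
      rw [map_mul, div_add_div _ _ (h.ae_ne hg) (h.ae_ne hg')]⟩

theorem Fr_neg {x : E} (hx : x ∈ Fr A t) : -x ∈ Fr A t := by
  obtain ⟨a, ha, g, hg, rfl⟩ := hx
  exact ⟨-a, neg_mem ha, g, hg, by rw [neg_div]⟩

theorem Fr_inv {x : E} (hx : x ∈ Fr A t) : x⁻¹ ∈ Fr A t := by
  by_cases hx0 : x = 0
  · rw [hx0, inv_zero]; exact h.subset_Fr (zero_mem _)
  · obtain ⟨u, f, g, hu, hf, hg, rfl⟩ := h.normal hx hx0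
    rw [mul_inv, inv_div]
    exact h.mem_Fr_of_normal hu.inv hf

/-- The fraction field of a Weierstrass ring as a subfield. -/
def frac : Subfield E where
  carrier := Fr A t
  mul_mem' := h.Fr_mul
  one_mem' := h.subset_Fr (one_mem _)
  add_mem' := h.Fr_add
  zero_mem' := h.subset_Fr (zero_mem _)
  neg_mem' := h.Fr_neg
  inv_mem' := fun _ hx => h.Fr_inv hx

theorem mem_frac {x : E} : x ∈ h.frac ↔ x ∈ Fr A t := Iff.rfl

/-! ### The valuation -/

theorem isV_ne {P : k[X]} (hP : P ≠ 0) {x : E} {m : ℤ} (hx : IsV A t P x m) : x ≠ 0 := by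
  obtain ⟨u, f, g, hu, hf, hg, rfl⟩ := hx
  exact mul_ne_zero (mul_ne_zero hu.ne (zpow_ne_zero _ (h.ae_ne hP)))
    (div_ne_zero (h.ae_ne (ne_zero_of_not_dvd hf)) (h.ae_ne (ne_zero_of_not_dvd hg)))

omit h in
theorem not_dvd_mul {P f g : k[X]} (hP : Irreducible P) (hf : ¬ P ∣ f) (hg : ¬ P ∣ g) :
    ¬ P ∣ f * g := by
  intro hh
  rcases hP.prime.dvd_or_dvd hh with h1 | h1
  · exact hf h1
  · exact hg h1

theorem isV_mul {P : k[X]} (hP : Irreducible P) {x x' : E} {m m' : ℤ} (hx : IsV A t P x m)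
    (hx' : IsV A t P x' m') : IsV A t P (x * x') (m + m') := by
  obtain ⟨u, f, g, hu, hf, hg, rfl⟩ := hx
  obtain ⟨u', f', g', hu', hf', hg', rfl⟩ := hx'
  refine ⟨u * u', f * f', g * g', hu.mul hu', not_dvd_mul hP hf hf', not_dvd_mul hP hg hg', ?_⟩
  rw [zpow_add₀ (h.ae_ne hP.ne_zero), map_mul, map_mul]
  have := h.ae_ne (ne_zero_of_not_dvd hg)
  have := h.ae_ne (ne_zero_of_not_dvd hg')
  field_simp

theorem isV_inv {P : k[X]} {x : E} {m : ℤ} (hx : IsV A t P x m) :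
    IsV A t P x⁻¹ (-m) := by
  obtain ⟨u, f, g, hu, hf, hg, rfl⟩ := hx
  refine ⟨u⁻¹, g, f, hu.inv, hg, hf, ?_⟩
  rw [mul_inv, mul_inv, inv_div, zpow_neg]

theorem isV_unit {P : k[X]} (hP : Irreducible P) {u : E} (hu : UnitIn A u) : IsV A t P u 0 :=
  ⟨u, 1, 1, hu, hP.prime.not_dvd_one, hP.prime.not_dvd_one, by simp⟩

theorem isV_pow {P : k[X]} (hP : Irreducible P) {x : E} {m : ℤ} (hx : IsV A t P x m) (n : ℕ) :
    IsV A t P (x ^ n) (n * m) := by
  induction n with
  | zero => rw [pow_zero, Nat.cast_zero, zero_mul]; exact h.isV_unit hP UnitIn.one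
  | succ n ih =>
    rw [pow_succ, Nat.cast_succ, add_mul, one_mul]
    exact h.isV_mul hP ih hx

theorem isV_poly {P : k[X]} (hP : Irreducible P) {f : k[X]} (hf : ¬ P ∣ f) :
    IsV A t P (aeval t f) 0 :=
  ⟨1, f, 1, UnitIn.one, hf, hP.prime.not_dvd_one, by simp⟩

theorem isV_P {P : k[X]} (hP : Irreducible P) : IsV A t P (aeval t P) 1 :=
  ⟨1, 1, 1, UnitIn.one, hP.prime.not_dvd_one, hP.prime.not_dvd_one, by simp⟩

theorem isV_exists {P : k[X]} (hP : Irreducible P) {x : E} (hx : x ∈ Fr A t) (hx0 : x ≠ 0) :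
    ∃ m, IsV A t P x m := by
  obtain ⟨u, f, g, hu, hf, hg, rfl⟩ := h.normal hx hx0
  obtain ⟨f', e1, hf'⟩ := (FiniteMultiplicity.of_not_isUnit hP.not_isUnit
    hf).exists_eq_pow_mul_and_not_dvd
  obtain ⟨g', e2, hg'⟩ := (FiniteMultiplicity.of_not_isUnit hP.not_isUnit
    hg).exists_eq_pow_mul_and_not_dvd
  refine ⟨(multiplicity P f : ℤ) - multiplicity P g, u, f', g', hu, hf', hg', ?_⟩
  have hPt := h.ae_ne hP.ne_zero
  have h1 := h.ae_ne (ne_zero_of_not_dvd hg')
  conv_lhs => rw [e1, e2]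
  rw [map_mul, map_mul, map_pow, map_pow, zpow_sub₀ hPt, zpow_natCast, zpow_natCast]
  field_simp

theorem isV_one_eq {P : k[X]} (hP : InP A t P) {m : ℤ} (h1 : IsV A t P 1 m) : m = 0 := by
  have key : ∀ (m : ℕ), IsV A t P 1 ((m : ℤ) + 1) → False := by
    rintro m ⟨u, f, g, hu, hf, hg, e⟩
    apply hg
    apply hP.dvd
    have hPt := h.ae_ne hP.irr.ne_zero
    have hgt := h.ae_ne (ne_zero_of_not_dvd hg)
    have : aeval t g / aeval t P = u * aeval t (P ^ m * f) := by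
      rw [map_mul, map_pow, div_eq_iff hPt]
      have e' : aeval t g = u * aeval t P ^ ((m : ℤ) + 1) * aeval t f := by
        rw [← mul_div_assoc, eq_div_iff hgt, one_mul] at e
        exact e
      rw [e', zpow_add₀ hPt, zpow_natCast, zpow_one]
      ring
    rw [this]
    exact mul_mem hu.mem (h.aeval_mem _)
  rcases lt_trichotomy m 0 with h0 | h0 | h0
  · exfalso
    have h2 := h.isV_inv h1
    rw [inv_one] at h2
    obtain ⟨j, hj⟩ : ∃ j : ℕ, -m = (j : ℤ) + 1 := ⟨(-m - 1).toNat, by omega⟩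
    rw [hj] at h2
    exact key j h2
  · exact h0
  · exfalso
    obtain ⟨j, hj⟩ : ∃ j : ℕ, m = (j : ℤ) + 1 := ⟨(m - 1).toNat, by omega⟩
    rw [hj] at h1
    exact key j h1

theorem isV_unique {P : k[X]} (hP : InP A t P) {x : E} {m m' : ℤ} (hx : IsV A t P x m)
    (hx' : IsV A t P x m') : m = m' := by
  have h1 := h.isV_mul hP.irr hx (h.isV_inv hx')
  rw [mul_inv_cancel₀ (h.isV_ne hP.irr.ne_zero hx)] at h1
  have := h.isV_one_eq hP h1
  omega

/-! ### The local rings -/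

theorem OP_subset_Fr {P : k[X]} : OP A t P ⊆ Fr A t := by
  rintro x ⟨a, ha, g, hg, rfl⟩
  exact ⟨a, ha, g, ne_zero_of_not_dvd hg, rfl⟩

theorem OP_mul {P : k[X]} (hP : Irreducible P) {x y : E} (hx : x ∈ OP A t P)
    (hy : y ∈ OP A t P) : x * y ∈ OP A t P := by
  obtain ⟨a, ha, g, hg, rfl⟩ := hx
  obtain ⟨a', ha', g', hg', rfl⟩ := hy
  exact ⟨a * a', mul_mem ha ha', g * g', not_dvd_mul hP hg hg', by
    rw [map_mul, div_mul_div_comm]⟩

theorem OP_add {P : k[X]} (hP : Irreducible P) {x y : E} (hx : x ∈ OP A t P)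
    (hy : y ∈ OP A t P) : x + y ∈ OP A t P := by
  obtain ⟨a, ha, g, hg, rfl⟩ := hx
  obtain ⟨a', ha', g', hg', rfl⟩ := hy
  exact ⟨a * aeval t g' + aeval t g * a', add_mem (mul_mem ha (h.aeval_mem _))
    (mul_mem (h.aeval_mem _) ha'), g * g', not_dvd_mul hP hg hg', by
      rw [map_mul, div_add_div _ _ (h.ae_ne (ne_zero_of_not_dvd hg))
        (h.ae_ne (ne_zero_of_not_dvd hg'))]⟩

theorem OP_neg {P : k[X]} {x : E} (hx : x ∈ OP A t P) : -x ∈ OP A t P := by
  obtain ⟨a, ha, g, hg, rfl⟩ := hx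
  exact ⟨-a, neg_mem ha, g, hg, by rw [neg_div]⟩

theorem subset_OP {P : k[X]} (hP : Irreducible P) {a : E} (ha : a ∈ A) : a ∈ OP A t P :=
  ⟨a, ha, 1, hP.prime.not_dvd_one, by simp⟩

/-- The local ring as a subring. -/
def locRing {P : k[X]} (hP : Irreducible P) : Subring E where
  carrier := OP A t P
  mul_mem' := h.OP_mul hP
  one_mem' := h.subset_OP hP (one_mem _)
  add_mem' := h.OP_add hP
  zero_mem' := h.subset_OP hP (zero_mem _)
  neg_mem' := h.OP_neg

theorem mem_locRing {P : k[X]} (hP : Irreducible P) {x : E} :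
    x ∈ h.locRing hP ↔ x ∈ OP A t P := Iff.rfl

theorem mem_OP_of_isV {P : k[X]} {x : E} {m : ℤ} (hm : 0 ≤ m)
    (hx : IsV A t P x m) : x ∈ OP A t P := by
  obtain ⟨u, f, g, hu, hf, hg, rfl⟩ := hx
  obtain ⟨j, rfl⟩ := Int.eq_ofNat_of_zero_le hm
  refine ⟨u * aeval t (P ^ j * f), mul_mem hu.mem (h.aeval_mem _), g, hg, ?_⟩
  rw [zpow_natCast, map_mul, map_pow]
  ring

theorem isV_nonneg {P : k[X]} (hP : InP A t P) {x : E} {m : ℤ} (hx : x ∈ OP A t P)
    (hm : IsV A t P x m) : 0 ≤ m := by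
  have hx0 := h.isV_ne hP.irr.ne_zero hm
  obtain ⟨a, ha, g, hg, rfl⟩ := hx
  have ha0 : a ≠ 0 := by rintro rfl; simp at hx0
  obtain ⟨u, p, hu, rfl⟩ := h.weier a ha ha0
  have hp : p ≠ 0 := by rintro rfl; simp at ha0
  obtain ⟨p', e1, hp'⟩ := (FiniteMultiplicity.of_not_isUnit hP.irr.not_isUnit
    hp).exists_eq_pow_mul_and_not_dvd
  have h2 : IsV A t P (u * aeval t p / aeval t g) (multiplicity P p : ℤ) := by
    refine ⟨u, p', g, hu, hp', hg, ?_⟩
    conv_lhs => rw [e1]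
    rw [map_mul, map_pow, zpow_natCast]
    ring
  rw [h.isV_unique hP hm h2]
  positivity

theorem OP_or_inv {P : k[X]} (hP : Irreducible P) {x : E} (hx : x ∈ Fr A t) :
    x ∈ OP A t P ∨ x⁻¹ ∈ OP A t P := by
  by_cases hx0 : x = 0
  · left; rw [hx0]; exact h.subset_OP hP (zero_mem _)
  obtain ⟨m, hm⟩ := h.isV_exists hP hx hx0
  rcases le_total 0 m with h0 | h0
  · exact Or.inl (h.mem_OP_of_isV h0 hm)
  · exact Or.inr (h.mem_OP_of_isV (by omega) (h.isV_inv hm))

/-- The local ring is integrally closed. -/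
theorem OP_integral {P : k[X]} (hP : Irreducible P) {x : E} (hx : x ∈ Fr A t) (q : E[X])
    (hq : q.Monic) (hc : ∀ i, q.coeff i ∈ OP A t P) (hr : q.eval x = 0) : x ∈ OP A t P := by
  rcases h.OP_or_inv hP hx with h1 | h1
  · exact h1
  by_cases hx0 : x = 0
  · rw [hx0]; exact h.subset_OP hP (zero_mem _)
  have hd : q.natDegree ≠ 0 := by
    intro hd
    have : q = 1 := by
      rw [Polynomial.eq_C_of_natDegree_eq_zero hd]
      have := hq.coeff_natDegree
      rw [hd] at this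
      rw [this, C_1]
    rw [this, eval_one] at hr
    exact one_ne_zero hr
  obtain ⟨d, hd'⟩ := Nat.exists_eq_succ_of_ne_zero hd
  rw [eval_eq_sum_range, Finset.sum_range_succ, hq.coeff_natDegree, one_mul, hd'] at hr
  have e : x = -∑ i ∈ Finset.range (d + 1), q.coeff i * x⁻¹ ^ (d - i) := by
    have hxd : x ^ d ≠ 0 := pow_ne_zero _ hx0
    apply mul_right_cancel₀ hxd
    rw [neg_mul, Finset.sum_mul]
    have h3 : x * x ^ d = x ^ d.succ := by rw [Nat.succ_eq_add_one]; ring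
    rw [h3, eq_neg_iff_add_eq_zero, add_comm]
    rw [← hr]
    congr 1
    refine Finset.sum_congr rfl fun i hi => ?_
    rw [Finset.mem_range] at hi
    have h4 : x ^ d = x ^ i * x ^ (d - i) := by rw [← pow_add]; congr 1; omega
    rw [h4]
    have h5 : x⁻¹ ^ (d - i) * x ^ (d - i) = 1 := by
      rw [← mul_pow, inv_mul_cancel₀ hx0, one_pow]
    calc q.coeff i * x⁻¹ ^ (d - i) * (x ^ i * x ^ (d - i))
        = q.coeff i * x ^ i * (x⁻¹ ^ (d - i) * x ^ (d - i)) := by ring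
      _ = _ := by rw [h5, mul_one]
  rw [e]
  have hin : ∑ i ∈ Finset.range (d + 1), q.coeff i * x⁻¹ ^ (d - i) ∈ h.locRing hP :=
    sum_mem fun i _ => mul_mem (hc i) (pow_mem h1 _)
  exact (h.locRing hP).neg_mem hin

theorem isV_zero_of_OP {P : k[X]} (hP : InP A t P) {w : E} (h0 : w ≠ 0) (h1 : w ∈ OP A t P)
    (h2 : w⁻¹ ∈ OP A t P) : IsV A t P w 0 := by
  obtain ⟨m, hm⟩ := h.isV_exists hP.irr (h.OP_subset_Fr h1) h0
  have h3 := h.isV_nonneg hP h1 hm
  have h4 := h.isV_nonneg hP h2 (h.isV_inv hm)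
  have : m = 0 := by omega
  rwa [this] at hm

end Wr

/-- `x` is locally at every prime of `A` an `n`-th power times a unit. -/
def LocPow (A : Subalgebra k E) (t : E) (n : ℕ) (x : E) : Prop :=
  ∀ P : k[X], InP A t P → ∃ c w : E, c ∈ Fr A t ∧ w ∈ OP A t P ∧ w⁻¹ ∈ OP A t P ∧ x = c ^ n * w

namespace Wr

variable {A : Subalgebra k E} {t : E} (h : Wr k A t)

include h

theorem dvd_of_locPow {n : ℕ} (hn : 0 < n) {x : E} (hx0 : x ≠ 0) (hx : LocPow A t n x) {P : k[X]}
    (hP : InP A t P) {m : ℤ} (hm : IsV A t P x m) : (n : ℤ) ∣ m := by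
  obtain ⟨c, w, hc, hw, hw', rfl⟩ := hx P hP
  have hw0 : w ≠ 0 := right_ne_zero_of_mul hx0
  have hc0 : c ≠ 0 := by
    rintro rfl
    rw [zero_pow hn.ne', zero_mul] at hx0
    exact hx0 rfl
  obtain ⟨j, hj⟩ := h.isV_exists hP.irr hc hc0
  have h1 := h.isV_mul hP.irr (h.isV_pow hP.irr hj n) (h.isV_zero_of_OP hP hw0 hw hw')
  rw [h.isV_unique hP hm h1, add_zero]
  exact dvd_mul_right _ _

theorem poly_pow {n : ℕ} (hn : 0 < n) (N : ℕ) : ∀ (F : k[X]), F ≠ 0 → F.natDegree ≤ N →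
    (∀ P, InP A t P → ∀ m, IsV A t P (aeval t F) m → (n : ℤ) ∣ m) →
    ∃ (u : E) (r : k[X]), UnitIn A u ∧ r ≠ 0 ∧ aeval t F = u * aeval t r ^ n := by
  induction N with
  | zero =>
    intro F hF hd _
    rw [Polynomial.eq_C_of_natDegree_le_zero hd]
    refine ⟨algebraMap k E (F.coeff 0), 1, UnitIn.algMap ?_, one_ne_zero, by simp⟩
    intro h0
    apply hF
    rw [Polynomial.eq_C_of_natDegree_le_zero hd, h0, C_0]
  | succ N ih =>
    intro F hF hd hv
    by_cases hu : IsUnit F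
    · refine ih F hF ?_ hv
      rw [Polynomial.natDegree_eq_zero_of_isUnit hu]
      exact Nat.zero_le _
    obtain ⟨P, hP, F1, rfl⟩ := WfDvdMonoid.exists_irreducible_factor hu hF
    have hF1 : F1 ≠ 0 := right_ne_zero_of_mul hF
    have hPd : 0 < P.natDegree := hP.natDegree_pos
    rw [natDegree_mul hP.ne_zero hF1] at hd
    rcases h.unit_or_in hP with h1 | h1
    · obtain ⟨u, r, hu', hr, e⟩ := ih F1 hF1 (by omega) (by
        intro Q hQ m hm
        refine hv Q hQ m ?_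
        rw [map_mul]
        have := h.isV_mul hQ.irr (h.isV_unit hQ.irr h1) hm
        rwa [zero_add] at this)
      exact ⟨aeval t P * u, r, h1.mul hu', hr, by rw [map_mul, e]; ring⟩
    · -- `P ^ n ∣ F`
      obtain ⟨F2, e2, hF2⟩ := (FiniteMultiplicity.of_not_isUnit hP.not_isUnit
        hF1).exists_eq_pow_mul_and_not_dvd
      set j := multiplicity P F1 with hj
      have h2 : IsV A t P (aeval t (P * F1)) ((j : ℤ) + 1) := by
        refine ⟨1, F2, 1, UnitIn.one, hF2, hP.prime.not_dvd_one, ?_⟩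
        conv_lhs => rw [e2]
        rw [map_mul, map_mul, map_pow, zpow_add₀ (h.ae_ne hP.ne_zero), zpow_natCast, zpow_one,
          map_one]
        ring
      have h3 := hv P h1 _ h2
      obtain ⟨i, hi⟩ : ∃ i : ℕ, j + 1 = n + i := by
        have h4 : (n : ℤ) ≤ (j : ℤ) + 1 := Int.le_of_dvd (by positivity) h3
        exact ⟨j + 1 - n, by omega⟩
      have e3 : P * F1 = P ^ n * (P ^ i * F2) := by
        rw [e2, ← mul_assoc, ← pow_succ', hi, pow_add, mul_assoc]
      have hF3 : P ^ i * F2 ≠ 0 := by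
        refine mul_ne_zero (pow_ne_zero _ hP.ne_zero) (ne_zero_of_not_dvd hF2)
      have hdeg : (P * F1).natDegree = n * P.natDegree + (P ^ i * F2).natDegree := by
        rw [e3, natDegree_mul (pow_ne_zero _ hP.ne_zero) hF3, natDegree_pow]
      rw [natDegree_mul hP.ne_zero hF1] at hdeg
      have hnP : 0 < n * P.natDegree := Nat.mul_pos hn hPd
      obtain ⟨u, r, hu', hr, e⟩ := ih (P ^ i * F2) hF3 (by omega) (by
        intro Q hQ m hm
        obtain ⟨l, hl⟩ := h.isV_exists hQ.irr (h.subset_Fr (h.aeval_mem P)) (h.ae_ne hP.ne_zero)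
        have h5 := h.isV_mul hQ.irr (h.isV_pow hQ.irr hl n) hm
        have h6 : aeval t P ^ n * aeval t (P ^ i * F2) = aeval t (P * F1) := by
          rw [e3, map_mul (aeval t) (P ^ n), map_pow]
        rw [h6] at h5
        have h7 := hv Q hQ _ h5
        exact (Int.dvd_add_right (dvd_mul_right _ _)).1 h7)
      refine ⟨u, P * r, hu', mul_ne_zero hP.ne_zero hr, ?_⟩
      rw [e3, map_mul (aeval t) (P ^ n), e, map_pow, map_mul, mul_pow]
      ring

/-- A nonzero element of the fraction field which is locally an `n`-th power times a unit is a unit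
times an `n`-th power of a rational function. -/
theorem pow_of_locPow {n : ℕ} (hn : 0 < n) {x : E} (hx : x ∈ Fr A t) (hx0 : x ≠ 0)
    (hl : LocPow A t n x) :
    ∃ (u : E) (f g : k[X]), UnitIn A u ∧ f ≠ 0 ∧ g ≠ 0 ∧
      x = u * (aeval t f / aeval t g) ^ n := by
  obtain ⟨u, f, g, hu, hf, hg, rfl⟩ := h.normal hx hx0
  obtain ⟨m, rfl⟩ := Nat.exists_eq_succ_of_ne_zero hn.ne'
  have hft := h.ae_ne hf
  have hgt := h.ae_ne hg
  obtain ⟨u', r, hu', hr, e⟩ := h.poly_pow hn _ (f * g ^ m) (mul_ne_zero hf (pow_ne_zero _ hg))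
    le_rfl (by
      intro P hP j hj
      obtain ⟨l, hl'⟩ := h.isV_exists hP.irr (h.subset_Fr (h.aeval_mem g)) hgt
      have h1 := h.isV_mul hP.irr (h.isV_mul hP.irr (h.isV_unit hP.irr hu) hj)
        (h.isV_inv (h.isV_pow hP.irr hl' m.succ))
      have h2 : u * aeval t (f * g ^ m) * (aeval t g ^ m.succ)⁻¹ =
          u * (aeval t f / aeval t g) := by
        rw [map_mul, map_pow, Nat.succ_eq_add_one, pow_succ]
        field_simp
      rw [h2] at h1
      have h3 := h.dvd_of_locPow hn hx0 hl hP h1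
      rw [zero_add] at h3
      exact (Int.dvd_add_left (Dvd.dvd.neg_right (dvd_mul_right _ _))).1 h3)
  refine ⟨u * u', r, g, hu.mul hu', hr, hg, ?_⟩
  rw [map_mul, map_pow] at e
  have e' : aeval t f = u' * aeval t r ^ m.succ / aeval t g ^ m := by
    rw [eq_div_iff (pow_ne_zero _ hgt)]; exact e
  rw [e', div_pow, Nat.succ_eq_add_one]
  field_simp
  ring

end Wr

end Crest.Agent.R013.LemW623
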