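import Crest.Agent.R013.Annu5_930
import Crest.Agent.R013.LemW1_623

/-!
# Functions on a closed annulus, part 6: `AN` is a Weierstrass ring (623's `Wr`); series
-/

set_option autoImplicit false
set_option linter.unusedSectionVars false

namespace Crest.Agent.R013.Annu_930

open Filter Topology Polynomial Crest.Agent.R013.Gl946 Crest.Agent.R013.LemW623
open scoped NNReal

variable {k E : Type*} [NormedField k] [NormedField E] [NormedAlgebra k E]
  [IsUltrametricDist E] {y : E}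

section Wr

variable (hG : IsGauss k y) {s : ℝ≥0} (hs : 1 < s)

theorem transcendental (hG : IsGauss k y) : Transcendental k y := by
  rw [transcendental_iff]
  intro p hp
  by_contra h
  exact hG.aeval_ne_zero h hp

theorem unitIn_of_isUnit {u : AN hG hs} (hu : IsUnit u) : UnitIn (AN hG hs) (u : E) := by
  obtain ⟨z, rfl⟩ := hu
  exact UnitIn.of_mul_eq_one (z : AN hG hs).2 (↑z⁻¹ : AN hG hs).2 (congrArg Subtype.val z.mul_inv)

variable [CompleteSpace k] [CompleteSpace E] {π : k} (hπ : IsUnif π)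

include hπ in
/-- (A1) of 623 #3325. -/
theorem wr_AN : Wr k (AN hG hs) y where
  t_mem := (yA hG hs).2
  transc := transcendental hG
  weier := by
    intro a ha ha0
    obtain ⟨u, G, hu, hG0, e⟩ := weierstrass_AN hG hs hπ ⟨a, ha⟩ fun h => ha0 (congrArg Subtype.val h)
    refine ⟨u, G, unitIn_of_isUnit hG hs hu, ?_⟩
    rw [← coe_phi hG hs]
    exact congrArg Subtype.val e
  prime := by
    intro P hP
    by_cases hu : IsUnit (phi hG hs P)
    · left
      have := unitIn_of_isUnit hG hs hu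
      rwa [coe_phi] at this
    · right
      intro f hf
      refine dvd_of_dvd hG hs hP hu ⟨⟨_, hf⟩, Subtype.ext ?_⟩
      change ((phi hG hs f : AN hG hs) : E) = (phi hG hs P : AN hG hs) * (aeval y f / aeval y P)
      rw [coe_phi, coe_phi, mul_div_cancel₀ _ (hG.aeval_ne_zero hP.ne_zero)]

omit [CompleteSpace k] [CompleteSpace E] in
/-- (A2) of 623 #3325. -/
theorem unitIn_form {u : E} (hu : UnitIn (AN hG hs) u) :
    ∃ (c : k) (m : ℤ) (ε : E), c ≠ 0 ∧ u = algebraMap k E c * y ^ m * (1 + ε) ∧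
      ‖ε‖ < (s : ℝ)⁻¹ := by
  obtain ⟨c, m, ε, θ, hc, hf, -, -, -, hε⟩ := unit_form hG hs hu.mem hu.inv_mem
    (mul_inv_cancel₀ hu.ne)
  exact ⟨c, m, ε, hc, by rw [hf, Algebra.smul_def], hε⟩

include hπ in
theorem mem_MN_iff_Fr {z : E} : z ∈ MN hG hs ↔ z ∈ Fr (AN hG hs) y := by
  constructor
  · rintro ⟨a, ha, b, hb, h1, rfl⟩
    have h := wr_AN hG hs hπ
    rw [div_eq_mul_inv]
    exact h.Fr_mul (h.subset_Fr ha) (h.Fr_inv (h.subset_Fr hb))
  · rintro ⟨a, ha, g, hg, rfl⟩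
    exact ⟨a, ha, _, aeval_mem_AN hG hs g, hG.aeval_ne_zero hg, rfl⟩

include hπ in
/-- `LocPow` form of ANNU. -/
theorem annu_locPow {n : ℕ} (hn : 0 < n) {x : E} (hx : x ∈ MN hG hs) (hx0 : x ≠ 0)
    (hdiv : LocPow (AN hG hs) y n x) :
    ∃ (c : k) (m : ℤ) (f g : k[X]) (ε : E), c ≠ 0 ∧ f ≠ 0 ∧ g ≠ 0 ∧ ‖ε‖ < (s : ℝ)⁻¹ ∧
      x = algebraMap k E c * y ^ m * (1 + ε) * (aeval y f / aeval y g) ^ n := by
  have h := wr_AN hG hs hπ
  obtain ⟨u, f, g, hu, hf, hg, e⟩ := h.pow_of_locPow hn ((mem_MN_iff_Fr hG hs hπ).1 hx) hx0 hdiv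
  obtain ⟨c, m, ε, hc, e', hε⟩ := unitIn_form hG hs hu
  exact ⟨c, m, f, g, ε, hc, hf, hg, hε, by rw [e, e']⟩

end Wr

section Series

variable (hG : IsGauss k y) {s : ℝ≥0} (hs : 1 < s)

/-- A convergent Laurent series with the growth of the annulus is in `AN`. -/
theorem hasSum_mem_AN_of_growth (a : ℤ → k) (ha : ∀ ε : ℝ≥0, 0 < ε → ∀ᶠ n in cofinite,
    ‖a n‖₊ ≤ w s ε ε n) {x : E} (hx : HasSum (fun n => a n • y ^ n) x) : x ∈ AN hG hs := by
  classical
  intro ε hε
  have hfin : {n | ¬ ‖a n‖₊ ≤ w s ε ε n}.Finite := ha ε hε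
  set S := hfin.toFinset with hS
  refine ⟨∑ n ∈ S, Finsupp.single n (a n), ?_⟩
  have e : ev k y (∑ n ∈ S, Finsupp.single n (a n)) = ∑ n ∈ S, a n • y ^ n := by
    rw [map_sum]; exact Finset.sum_congr rfl fun n _ => ev_single _ _ _
  rw [e]
  have h1 : Tendsto (fun T : Finset ℤ => ∑ n ∈ T, a n • y ^ n - ∑ n ∈ S, a n • y ^ n) atTop
      (𝓝 (x - ∑ n ∈ S, a n • y ^ n)) := hx.sub_const _
  refine (isClosed_B s ε ε).mem_of_tendsto h1 (eventually_atTop.2 ⟨S, fun T hT => ?_⟩)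
  rw [← Finset.sum_sdiff hT, add_sub_cancel_right]
  refine AddSubgroup.sum_mem _ fun n hn => smul_mem_Box ?_
  rw [Finset.mem_sdiff] at hn
  by_contra hcon
  exact hn.2 (hfin.mem_toFinset.2 hcon)

/-- Power series converging on a disc of radius `R > s`. -/
theorem hasSum_mem_AN_of_bounded (a : ℕ → k) {R C : ℝ≥0} (hR : s < R)
    (ha : ∀ n, ‖a n‖₊ * R ^ n ≤ C) {x : E} (hx : HasSum (fun n => a n • y ^ n) x) :
    x ∈ AN hG hs := by
  classical
  have hsp : 0 < s := zero_lt_one.trans hs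
  have hRp : 0 < R := hsp.trans hR
  let b : ℤ → k := fun n => if 0 ≤ n then a n.toNat else 0
  refine hasSum_mem_AN_of_growth hG hs b ?_ ?_
  · intro ε hε
    have hq : (s / R : ℝ≥0) < 1 := by rwa [div_lt_one hRp]
    have ht : Tendsto (fun n : ℕ => (C : ℝ≥0) * (s / R) ^ n) atTop (𝓝 0) := by
      simpa using (tendsto_pow_atTop_nhds_zero_of_lt_one (r := s / R) zero_le hq).const_mul C
    obtain ⟨N, hN⟩ := eventually_atTop.1 (ht.eventually (gt_mem_nhds hε))
    have hsub : {n : ℤ | ¬ ‖b n‖₊ ≤ w s ε ε n} ⊆ Set.Icc 0 (N : ℤ) := by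
      intro n hn
      by_contra hcon
      apply hn
      rcases lt_or_ge n 0 with h0 | h0
      · simp [b, not_le.2 h0]
      · have hnN : N ≤ n.toNat := by
          rw [Set.mem_Icc] at hcon
          push Not at hcon
          have := hcon h0
          omega
        have h2 := hN _ hnN
        obtain ⟨m, rfl⟩ := Int.eq_ofNat_of_zero_le h0
        simp only [b, if_pos h0, Int.toNat_natCast] at h2 ⊢
        have h3 : ‖a m‖₊ ≤ C / R ^ m := by
          rw [le_div_iff₀ (pow_pos hRp _)]; exact ha m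
        have h4 : C / R ^ m = C * (s / R) ^ m * s ^ (-(m : ℤ)) := by
          rw [zpow_neg, zpow_natCast, div_pow]
          field_simp
        have h5 : ‖a m‖₊ ≤ ε * s ^ (-(m : ℤ)) := by
          refine h3.trans ?_
          rw [h4]
          exact mul_le_mul_left h2.le _
        refine le_min h5 (h5.trans (mul_le_mul_right (zpow_le_zpow_right₀ hs.le (by omega)) _))
    exact (Set.finite_Icc _ _).subset hsub
  · have hinj : Function.Injective (fun n : ℕ => (n : ℤ)) := Nat.cast_injective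
    have h0 : ∀ n : ℤ, n ∉ Set.range (fun n : ℕ => (n : ℤ)) → b n • y ^ n = 0 := by
      intro n hn
      have : ¬ 0 ≤ n := fun h => hn ⟨n.toNat, Int.toNat_of_nonneg h⟩
      simp [b, this]
    rw [← hinj.hasSum_iff h0]
    convert hx using 1
    funext n
    simp [b]

end Series

section Root

variable [CompleteSpace E]

/-- `1`-units close to `1` are `n`-th powers. -/
theorem exists_pow_eq_of_lt {n : ℕ} (hn : (n : E) ≠ 0) {a : E} (ha : ‖a - 1‖ < ‖(n : E)‖ ^ 2) :
    ∃ z : E, z ^ n = a ∧ ‖z - 1‖ ≤ ‖a - 1‖ / ‖(n : E)‖ := by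
  classical
  have hn0 : 0 < ‖(n : E)‖ := norm_pos_iff.2 hn
  have hn1 : ‖(n : E)‖ ≤ 1 := by
    have : ∀ m : ℕ, ‖(m : E)‖ ≤ 1 := by
      intro m
      induction m with
      | zero => simp
      | succ m ih => rw [Nat.cast_succ]; exact (nadd _ _).trans (max_le ih (by simp))
    exact this n
  have nat_le : ∀ m : ℕ, ‖(m : E)‖ ≤ 1 := by
    intro m
    induction m with
    | zero => simp
    | succ m ih => rw [Nat.cast_succ]; exact (nadd _ _).trans (max_le ih (by simp))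
  set q := ‖a - 1‖ / ‖(n : E)‖ ^ 2 with hq
  have hq1 : q < 1 := by rw [hq, div_lt_one (by positivity)]; exact ha
  have hq0 : 0 ≤ q := by positivity
  set ρ := ‖a - 1‖ / ‖(n : E)‖ with hρ
  have hρ0 : 0 ≤ ρ := by positivity
  have hρq : ρ = q * ‖(n : E)‖ := by rw [hρ, hq]; field_simp
  have hρn : ρ < ‖(n : E)‖ := by
    rw [hρq]; calc q * ‖(n : E)‖ < 1 * ‖(n : E)‖ := mul_lt_mul_of_pos_right hq1 hn0
      _ = _ := one_mul _
  have hρ1 : ρ < 1 := hρn.trans_le hn1
  -- expansion of `(z + t) ^ n` for `‖z‖ = 1`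
  have key : ∀ z t : E, ‖z‖ ≤ 1 → ‖t‖ ≤ 1 → ‖(z + t) ^ n - z ^ n - n * z ^ (n - 1) * t‖ ≤ ‖t‖ ^ 2 := by
    intro z t hz ht
    obtain ⟨c, hc, hc1⟩ : ∃ c : E, (z + t) ^ n = z ^ n + n * z ^ (n - 1) * t + c * t ^ 2 ∧
        ‖c‖ ≤ 1 := by
      clear_value ρ q
      have : ∀ m : ℕ, ∃ c : E, (z + t) ^ m = z ^ m + m * z ^ (m - 1) * t + c * t ^ 2 ∧ ‖c‖ ≤ 1 := by
        intro m
        induction m with
        | zero => exact ⟨0, by simp, by simp⟩
        | succ m ih =>
          obtain ⟨c, hc, hc1⟩ := ih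
          refine ⟨m * z ^ (m - 1) + c * (z + t), ?_, ?_⟩
          · rw [pow_succ, hc]
            rcases m with _ | m
            · simp; ring
            · simp only [Nat.add_sub_cancel, Nat.cast_succ]
              ring
          · refine (nadd _ _).trans (max_le ?_ ?_)
            · rw [norm_mul, norm_pow]
              exact mul_le_one₀ (nat_le m) (by positivity) (pow_le_one₀ (norm_nonneg _) hz)
            · rw [norm_mul]
              exact mul_le_one₀ hc1 (norm_nonneg _) ((nadd _ _).trans (max_le hz ht))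
      exact this n
    have e : (z + t) ^ n - z ^ n - n * z ^ (n - 1) * t = c * t ^ 2 := by rw [hc]; ring
    rw [e, norm_mul, norm_pow]
    calc ‖c‖ * ‖t‖ ^ 2 ≤ 1 * ‖t‖ ^ 2 := mul_le_mul_of_nonneg_right hc1 (by positivity)
      _ = _ := one_mul _
  -- Newton iteration
  let F : E → E := fun z => z - (z ^ n - a) / (n * z ^ (n - 1))
  have hstep : ∀ (i : ℕ) (z : E), ‖z - 1‖ ≤ ρ ∧ ‖z ^ n - a‖ ≤ q ^ i * ‖a - 1‖ →
      ‖F z - 1‖ ≤ ρ ∧ ‖F z ^ n - a‖ ≤ q ^ (i + 1) * ‖a - 1‖ ∧ ‖F z - z‖ ≤ q ^ i * ρ := by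
    rintro i z ⟨h1, h2⟩
    have hz1 : ‖z‖ = 1 := by
      have h3 : ‖z - 1‖ < 1 := h1.trans_lt hρ1
      apply le_antisymm
      · have : z = (z - 1) + 1 := by ring
        rw [this]; exact (nadd _ _).trans (max_le h3.le (by simp))
      · by_contra hcon
        push Not at hcon
        have h4 : ‖(1 : E)‖ < 1 := by
          have : (1 : E) = z - (z - 1) := by ring
          rw [this]; exact (nsub _ _).trans_lt (max_lt hcon h3)
        rw [norm_one] at h4
        exact lt_irrefl _ h4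
    have hz0 : z ≠ 0 := by rintro rfl; rw [norm_zero] at hz1; norm_num at hz1
    set t := -((z ^ n - a) / (n * z ^ (n - 1))) with ht
    have hFz : F z = z + t := by change z - _ = z + -_; ring
    have htn : ‖t‖ ≤ q ^ i * ρ := by
      rw [ht, norm_neg, norm_div, norm_mul, norm_pow, hz1, one_pow, mul_one, hρ, ← mul_div_assoc]
      exact div_le_div_of_nonneg_right h2 hn0.le
    have htρ : ‖t‖ ≤ ρ := htn.trans (by
      calc q ^ i * ρ ≤ 1 * ρ := mul_le_mul_of_nonneg_right (pow_le_one₀ hq0 hq1.le) hρ0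
        _ = ρ := one_mul _)
    refine ⟨?_, ?_, ?_⟩
    · rw [hFz]
      have : z + t - 1 = (z - 1) + t := by ring
      rw [this]; exact (nadd _ _).trans (max_le h1 htρ)
    · have e : F z ^ n - a = (z + t) ^ n - z ^ n - n * z ^ (n - 1) * t := by
        have h5 : (n : E) * z ^ (n - 1) * t = -(z ^ n - a) := by
          rw [ht]; field_simp
        rw [hFz, h5]; ring
      rw [e]
      refine (key z t hz1.le (htρ.trans hρ1.le)).trans ?_
      have h6 : ρ * ρ = q * ‖a - 1‖ := by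
        rw [hρ, hq]; field_simp
      calc ‖t‖ ^ 2 ≤ (q ^ i * ρ) ^ 2 := by gcongr
        _ = q ^ i * (q ^ i * (ρ * ρ)) := by ring
        _ = q ^ i * (q ^ (i + 1) * ‖a - 1‖) := by rw [h6]; ring
        _ ≤ 1 * (q ^ (i + 1) * ‖a - 1‖) :=
          mul_le_mul_of_nonneg_right (pow_le_one₀ hq0 hq1.le) (by positivity)
        _ = _ := one_mul _
    · rw [hFz, add_sub_cancel_left]; exact htn
  let Z : ℕ → E := fun i => F^[i] 1
  have Z0 : Z 0 = 1 := rfl
  have ZS : ∀ i, Z (i + 1) = F (Z i) := fun i => Function.iterate_succ_apply' F i 1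
  have hZ : ∀ i, ‖Z i - 1‖ ≤ ρ ∧ ‖Z i ^ n - a‖ ≤ q ^ i * ‖a - 1‖ := by
    intro i
    induction i with
    | zero => rw [Z0]; refine ⟨by simpa using hρ0, ?_⟩; rw [one_pow, norm_sub_rev]; simp
    | succ i ih => rw [ZS]; exact ⟨(hstep i _ ih).1, (hstep i _ ih).2.1⟩
  have hcau : CauchySeq Z := by
    refine cauchySeq_of_le_geometric q ρ hq1 fun i => ?_
    rw [dist_comm, dist_eq_norm, ZS, mul_comm]
    exact (hstep i _ (hZ i)).2.2
  obtain ⟨z, hz⟩ := cauchySeq_tendsto_of_complete hcau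
  refine ⟨z, ?_, ?_⟩
  · have h1 : Tendsto (fun i => Z i ^ n - a) atTop (𝓝 (z ^ n - a)) := (hz.pow n).sub_const a
    have h2 : Tendsto (fun i => Z i ^ n - a) atTop (𝓝 0) := by
      refine squeeze_zero_norm (fun i => (hZ i).2) ?_
      simpa using (tendsto_pow_atTop_nhds_zero_of_lt_one hq0 hq1).mul_const ‖a - 1‖
    exact sub_eq_zero.1 (tendsto_nhds_unique h1 h2)
  · exact le_of_tendsto (hz.sub_const 1).norm (Eventually.of_forall fun i => (hZ i).1)

end Root

end Crest.Agent.R013.Annu_930
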