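import Mathlib
import Crest.Agent.R013.RR20_948
import Crest.Agent.R013.CntB3_491

/-!
# R013 / CntB7: existence of constant extensions (helper491)
-/

set_option autoImplicit false
set_option linter.all false

namespace Crest.Agent.R013.CntB7_491

open Polynomial WithZero Module
open Crest.Agent.R013.RR7_948 Crest.Agent.R013.RR8_948 Crest.Agent.R013.RR20_948
open Crest.Agent.R013.CntB1_491 Crest.Agent.R013.CntB2_491 Crest.Agent.R013.CntB3_491

section basics

variable {k k' K K' : Type*} [Field k] [Field k'] [Field K] [Field K'] [Algebra k k']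
  [Algebra k K] [Algebra k' K'] [Algebra K K'] [Algebra k K'] [IsScalarTower k k' K']
  [IsScalarTower k K K']

/-- a constant extension by a separable extension is separable -/
theorem isSeparable_of_isCE (h : IsCE k k' K K') [FiniteDimensional k k']
    [Algebra.IsSeparable k k'] : Algebra.IsSeparable K K' := by
  haveI := h.finiteDimensional
  have h1 : IntermediateField.adjoin K (Set.range (algebraMap k' K')) = ⊤ := by
    rw [IntermediateField.adjoin_eq_top_iff_of_isAlgebraic
      (fun x _ => Algebra.IsAlgebraic.isAlgebraic x)]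
    exact h.gen
  have h2 : IntermediateField.adjoin K (Set.range (algebraMap k' K')) ≤ separableClosure K K' := by
    rw [IntermediateField.adjoin_le_iff]
    rintro _ ⟨c, rfl⟩
    have h3 : IsSeparable k (algebraMap k' K' c) := by
      have h4 : IsSeparable k c := Algebra.IsSeparable.isSeparable k c
      exact IsSeparable.map (IsScalarTower.toAlgHom k k' K') (algebraMap k' K').injective h4
    exact mem_separableClosure_iff.mpr (h3.tower_top K)
  rw [h1] at h2
  exact (separableClosure.eq_top_iff K K').mp (top_unique h2)

/-- trivial constant extension -/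
theorem isCE_refl (hc : algebraicClosure k K = ⊥) : IsCE k k K K where
  gen := by
    rw [eq_top_iff]
    intro x _
    exact Subalgebra.algebraMap_mem (Algebra.adjoin K (Set.range (algebraMap k K))) x
  hc := hc

variable {k'' K'' : Type*} [Field k''] [Field K''] [Algebra k' k''] [Algebra k'' K'']
  [Algebra K' K''] [Algebra k' K''] [IsScalarTower k' k'' K''] [IsScalarTower k' K' K'']
  [Algebra k k''] [Algebra K K''] [IsScalarTower K K' K'']

/-- transitivity -/
theorem isCE_trans (h : IsCE k k' K K') (h' : IsCE k' k'' K' K'') : IsCE k k'' K K'' where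
  gen := by
    rw [eq_top_iff]
    intro x hx0
    have hx : x ∈ Algebra.adjoin K' (Set.range (algebraMap k'' K'')) := by rw [h'.gen]; trivial
    clear hx0
    induction hx using Algebra.adjoin_induction with
    | mem x hx => exact Algebra.subset_adjoin hx
    | algebraMap y =>
      have hy : y ∈ Algebra.adjoin K (Set.range (algebraMap k' K')) := by rw [h.gen]; trivial
      induction hy using Algebra.adjoin_induction with
      | mem y hy =>
        obtain ⟨c, rfl⟩ := hy
        apply Algebra.subset_adjoin
        refine ⟨algebraMap k' k'' c, ?_⟩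
        rw [← IsScalarTower.algebraMap_apply, ← IsScalarTower.algebraMap_apply]
      | algebraMap z =>
        rw [← IsScalarTower.algebraMap_apply]
        exact Subalgebra.algebraMap_mem _ _
      | add a b _ _ ha hb => rw [map_add]; exact add_mem ha hb
      | mul a b _ _ ha hb => rw [map_mul]; exact mul_mem ha hb
    | add a b _ _ ha hb => exact add_mem ha hb
    | mul a b _ _ ha hb => exact mul_mem ha hb
  hc := h.hc

end basics

section rat

variable {k k' K K' : Type*} [Field k] [Field k'] [Field K] [Field K'] [Algebra k k']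
  [Algebra k K] [Algebra k' K'] [Algebra K K'] [Algebra k K'] [IsScalarTower k k' K']
  [IsScalarTower k K K'] [Algebra (RatFunc k) K] [IsScalarTower k (RatFunc k) K]
  [FiniteDimensional (RatFunc k) K] [Algebra.IsSeparable (RatFunc k) K]

/-- `x` stays transcendental -/
theorem transcendental_algebraMap_xK [Algebra.IsAlgebraic k k'] :
    Transcendental k' (algebraMap K K' (xK k K)) := by
  intro h
  have h1 : IsAlgebraic k (algebraMap K K' (xK k K)) := h.restrictScalars k
  have h2 := (isAlgebraic_algebraMap_iff (algebraMap K K').injective).mp h1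
  exact transcendental_xK h2

/-- the `k'(X)`-structure of `K'` -/
theorem exists_rat [Algebra.IsAlgebraic k k'] [FiniteDimensional K K']
    [Algebra.IsSeparable K K'] :
    ∃ (i1 : Algebra (RatFunc k') K') (i2 : IsScalarTower k' (RatFunc k') K')
      (i3 : FiniteDimensional (RatFunc k') K') (i4 : Algebra.IsSeparable (RatFunc k') K'),
      xK k' K' = algebraMap K K' (xK k K) := by
  let y := algebraMap K K' (xK k K)
  have hy : Transcendental k' y := transcendental_algebraMap_xK
  letI i1 : Algebra (RatFunc k') K' := ratAlg y hy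
  haveI i2 : IsScalarTower k' (RatFunc k') K' := ratAlg_tower y hy
  -- the map `k(X) → k'(X)`
  let j : RatFunc k →+* RatFunc k' := RatFunc.liftRingHom
    ((algebraMap k'[X] (RatFunc k')).comp (Polynomial.mapRingHom (algebraMap k k')))
    (nonZeroDivisors_le_comap_nonZeroDivisors_of_injective _
      ((RatFunc.algebraMap_injective k').comp
        (Polynomial.map_injective _ (algebraMap k k').injective)))
  have hjp : ∀ p : k[X], j (algebraMap k[X] (RatFunc k) p)
      = algebraMap k'[X] (RatFunc k') (p.map (algebraMap k k')) := fun p =>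
    RatFunc.liftRingHom_algebraMap _ _ p
  letI : Algebra (RatFunc k) (RatFunc k') := j.toAlgebra
  letI : Algebra (RatFunc k) K' := ((algebraMap K K').comp (algebraMap (RatFunc k) K)).toAlgebra
  haveI t1 : IsScalarTower (RatFunc k) K K' := IsScalarTower.of_algebraMap_eq fun _ => rfl
  have hj : (algebraMap (RatFunc k') K').comp j = algebraMap (RatFunc k) K' := by
    apply IsLocalization.ringHom_ext (nonZeroDivisors k[X])
    apply Polynomial.ringHom_ext
    · intro c
      show algebraMap (RatFunc k') K' (j (algebraMap k[X] (RatFunc k) (C c)))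
        = algebraMap K K' (algebraMap (RatFunc k) K (algebraMap k[X] (RatFunc k) (C c)))
      rw [hjp, Polynomial.map_C, RatFunc.algebraMap_C, RatFunc.algebraMap_C,
        ← RatFunc.algebraMap_eq_C, ← RatFunc.algebraMap_eq_C,
        ← IsScalarTower.algebraMap_apply k' (RatFunc k') K', ← IsScalarTower.algebraMap_apply k k' K',
        ← IsScalarTower.algebraMap_apply k (RatFunc k) K, ← IsScalarTower.algebraMap_apply k K K']
    · show algebraMap (RatFunc k') K' (j (algebraMap k[X] (RatFunc k) X))
        = algebraMap K K' (algebraMap (RatFunc k) K (algebraMap k[X] (RatFunc k) X))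
      rw [hjp, Polynomial.map_X, RatFunc.algebraMap_X, RatFunc.algebraMap_X]
      exact ratAlg_xK y hy
  haveI t2 : IsScalarTower (RatFunc k) (RatFunc k') K' :=
    IsScalarTower.of_algebraMap_eq fun r => (RingHom.congr_fun hj r).symm
  haveI : FiniteDimensional (RatFunc k) K' := FiniteDimensional.trans (RatFunc k) K K'
  haveI : Algebra.IsSeparable (RatFunc k) K' := Algebra.IsSeparable.trans (RatFunc k) K K'
  refine ⟨i1, i2, ?_, ?_, ratAlg_xK y hy⟩
  · exact Module.Finite.of_restrictScalars_finite (RatFunc k) (RatFunc k') K'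
  · exact Algebra.isSeparable_tower_top_of_isSeparable (RatFunc k) (RatFunc k') K'

end rat

section exist

universe u v w

/-- existence of constant extensions -/
theorem exists_isCE (k : Type*) (k' : Type*) (K : Type u) [Field k] [Field k'] [Field K]
    [Algebra k k'] [Algebra k K] [FiniteDimensional k k'] (hc : algebraicClosure k K = ⊥) :
    ∃ (K' : Type u) (_ : Field K') (_ : Algebra k' K') (_ : Algebra K K') (_ : Algebra k K')
      (_ : IsScalarTower k k' K') (_ : IsScalarTower k K K'), IsCE k k' K K' := by
  let ι : k' →ₐ[k] AlgebraicClosure K := IsAlgClosed.lift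
  let K' : IntermediateField K (AlgebraicClosure K) := IntermediateField.adjoin K (Set.range ι)
  have hι : ∀ c, ι c ∈ K' := fun c => IntermediateField.subset_adjoin K _ ⟨c, rfl⟩
  letI a1 : Algebra k' K' := ((ι : k' →+* AlgebraicClosure K).codRestrict K' hι).toAlgebra
  letI t1 : IsScalarTower k k' K' := IsScalarTower.of_algebraMap_eq fun c => by
    ext
    show algebraMap k (AlgebraicClosure K) c = ι (algebraMap k k' c)
    rw [ι.commutes]
  refine ⟨K', inferInstance, a1, inferInstance, inferInstance, t1, inferInstance, ⟨?_, hc⟩⟩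
  apply Subalgebra.map_injective (f := K'.val) Subtype.val_injective
  rw [AlgHom.map_adjoin, Algebra.map_top, ← Set.range_comp]
  have h1 : (K'.val ∘ (algebraMap k' K') : k' → AlgebraicClosure K) = ι := rfl
  rw [h1, ← IntermediateField.adjoin_toSubalgebra]
  ext x
  rw [AlgHom.mem_range]
  constructor
  · intro hx
    exact ⟨⟨x, hx⟩, rfl⟩
  · rintro ⟨y, rfl⟩
    exact y.2

/-- a constant extension of the function field `K/k`, with all its instances -/
structure CExt (k : Type u) (K : Type v) [Field k] [Field K] [Algebra k K]
    [Algebra (RatFunc k) K] where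
  /-- the constants -/
  k' : Type w
  /-- the field -/
  K' : Type v
  [fk : Field k']
  [fK : Field K']
  [a1 : Algebra k k']
  [a2 : Algebra k' K']
  [a3 : Algebra K K']
  [a4 : Algebra k K']
  [t1 : IsScalarTower k k' K']
  [t2 : IsScalarTower k K K']
  [d1 : FiniteDimensional k k']
  [s1 : Algebra.IsSeparable k k']
  [d2 : FiniteDimensional K K']
  [s2 : Algebra.IsSeparable K K']
  [r1 : Algebra (RatFunc k') K']
  [r2 : IsScalarTower k' (RatFunc k') K']
  [r3 : FiniteDimensional (RatFunc k') K']
  [r4 : Algebra.IsSeparable (RatFunc k') K']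
  ce : IsCE k k' K K'
  hX : xK k' K' = algebraMap K K' (xK k K)

attribute [instance] CExt.fk CExt.fK CExt.a1 CExt.a2 CExt.a3 CExt.a4 CExt.t1 CExt.t2 CExt.d1
  CExt.s1 CExt.d2 CExt.s2 CExt.r1 CExt.r2 CExt.r3 CExt.r4

variable {k : Type u} {K : Type v} [Field k] [Field K] [Algebra k K] [Algebra (RatFunc k) K]
  [IsScalarTower k (RatFunc k) K] [FiniteDimensional (RatFunc k) K]
  [Algebra.IsSeparable (RatFunc k) K]

/-- **existence** -/
theorem exists_CExt (hc : algebraicClosure k K = ⊥) (k' : Type w) [Field k'] [Algebra k k']
    [FiniteDimensional k k'] [Algebra.IsSeparable k k'] :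
    ∃ E : CExt.{u, v, w} k K, Nonempty (k' ≃ₐ[k] E.k') ∧ finrank k E.k' = finrank k k' := by
  obtain ⟨K', _, _, _, _, _, _, h⟩ := exists_isCE k k' K hc
  haveI := h.finiteDimensional
  haveI := isSeparable_of_isCE h
  obtain ⟨i1, i2, i3, i4, hX⟩ := exists_rat (k := k) (k' := k') (K := K) (K' := K')
  exact ⟨{ k' := k', K' := K', ce := h, hX := hX }, ⟨AlgEquiv.refl⟩, rfl⟩

/-- existence over a finite field, of any degree -/
theorem exists_CExt_of_finite [Finite k] (hc : algebraicClosure k K = ⊥) (m : ℕ) (hm : m ≠ 0) :
    ∃ E : CExt.{u, v, w} k K, finrank k E.k' = m := by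
  haveI : Fact (ringChar k).Prime := ⟨CharP.char_is_prime k (ringChar k)⟩
  haveI : NeZero m := ⟨hm⟩
  obtain ⟨E, _, hE⟩ := exists_CExt.{u, v, w} hc
    (ULift.{w} (FiniteField.Extension k (ringChar k) m))
  refine ⟨E, ?_⟩
  rw [hE, (ULift.moduleEquiv (R := k) (M := FiniteField.Extension k (ringChar k) m)).finrank_eq,
    FiniteField.finrank_extension]

theorem hc_CExt (E : CExt.{u, v, w} k K) : algebraicClosure E.k' E.K' = ⊥ := E.ce.hc'

instance [Finite k] (E : CExt.{u, v, w} k K) : Finite E.k' := Module.finite_of_finite k

/-- the trivial extension -/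
noncomputable def CExt.refl (hc : algebraicClosure k K = ⊥) : CExt.{u, v, u} k K where
  k' := k
  K' := K
  ce := isCE_refl hc
  hX := rfl

end exist

section trans

universe u v w w'

variable {k : Type u} {K : Type v} [Field k] [Field K] [Algebra k K] [Algebra (RatFunc k) K]
  [IsScalarTower k (RatFunc k) K] [FiniteDimensional (RatFunc k) K]
  [Algebra.IsSeparable (RatFunc k) K]

/-- constant extension of a constant extension -/
@[reducible] noncomputable def CExt.trans (E : CExt.{u, v, w} k K) (F : CExt.{w, v, w'} E.k' E.K') :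
    CExt.{u, v, w'} k K :=
  letI b1 : Algebra k F.k' := ((algebraMap E.k' F.k').comp (algebraMap k E.k')).toAlgebra
  letI b3 : Algebra K F.K' := ((algebraMap E.K' F.K').comp (algebraMap K E.K')).toAlgebra
  letI b4 : Algebra k F.K' := ((algebraMap K F.K').comp (algebraMap k K)).toAlgebra
  haveI c1 : IsScalarTower k E.k' F.k' := IsScalarTower.of_algebraMap_eq fun _ => rfl
  haveI c2 : IsScalarTower K E.K' F.K' := IsScalarTower.of_algebraMap_eq fun _ => rfl
  haveI c3 : IsScalarTower k K F.K' := IsScalarTower.of_algebraMap_eq fun _ => rfl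
  haveI c4 : IsScalarTower k F.k' F.K' := IsScalarTower.of_algebraMap_eq fun x => by
    show algebraMap E.K' F.K' (algebraMap K E.K' (algebraMap k K x))
      = algebraMap F.k' F.K' (algebraMap E.k' F.k' (algebraMap k E.k' x))
    rw [← IsScalarTower.algebraMap_apply k K E.K', ← IsScalarTower.algebraMap_apply E.k' F.k' F.K',
      IsScalarTower.algebraMap_apply E.k' E.K' F.K', ← IsScalarTower.algebraMap_apply k E.k' E.K']
  haveI : FiniteDimensional k F.k' := FiniteDimensional.trans k E.k' F.k'
  haveI : Algebra.IsSeparable k F.k' := Algebra.IsSeparable.trans k E.k' F.k'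
  haveI : FiniteDimensional K F.K' := FiniteDimensional.trans K E.K' F.K'
  haveI : Algebra.IsSeparable K F.K' := Algebra.IsSeparable.trans K E.K' F.K'
  { k' := F.k'
    K' := F.K'
    ce := isCE_trans (k := k) (k' := E.k') (K := K) (K' := E.K') E.ce F.ce
    hX := by
      rw [F.hX, E.hX]
      rfl }

theorem CExt.finrank_trans (E : CExt.{u, v, w} k K) (F : CExt.{w, v, w'} E.k' E.K') :
    finrank k (E.trans F).k' = finrank k E.k' * finrank E.k' F.k' := by
  letI b1 : Algebra k F.k' := ((algebraMap E.k' F.k').comp (algebraMap k E.k')).toAlgebra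
  haveI c1 : IsScalarTower k E.k' F.k' := IsScalarTower.of_algebraMap_eq fun _ => rfl
  exact (finrank_mul_finrank k E.k' F.k').symm

end trans

end Crest.Agent.R013.CntB7_491
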