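import Mathlib
import Crest.Agent.R013.Hens1_899

/-!
R013 / HENS, part 2 (helper899): the decomposition field of a finite Galois extension is immediate
(any value group).
-/

set_option autoImplicit false

namespace Crest.Agent.R013.Hens_899

open Polynomial

section Newton

variable {N : Type*} [Field N] {Γ : Type*} [LinearOrderedCommGroupWithZero Γ]

theorem aux_max {v a b t M : Γ} (h : v ≤ max a b) (h1 : a * t < M) (h2 : b * t < M) :
    v * t < M := by
  rcases le_max_iff.1 h with h | h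
  · exact lt_of_le_of_lt (by gcongr) h1
  · exact lt_of_le_of_lt (by gcongr) h2

/-- Newton polygon at a radius `c` which is not the value of a root: the Gauss norm is attained
at exactly one index. -/
theorem newton_ne {ι : Type*} (w : Valuation N Γ) {c : Γ} (hc : c ≠ 0) (s : Finset ι) (r : ι → N)
    (h : ∀ i ∈ s, w (r i) ≠ c) :
    ∃ (k : ℕ) (M : Γ), M ≠ 0 ∧ w ((∏ i ∈ s, (X - C (r i))).coeff k) * c ^ k = M ∧
      ∀ j, j ≠ k → w ((∏ i ∈ s, (X - C (r i))).coeff j) * c ^ j < M := by
  classical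
  have hc0 : 0 < c := zero_lt_iff.2 hc
  induction s using Finset.induction_on with
  | empty =>
    refine ⟨0, 1, one_ne_zero, by simp, fun j hj => ?_⟩
    rw [Finset.prod_empty, coeff_one, if_neg hj, map_zero, zero_mul]
    exact zero_lt_one
  | insert i s hi ih =>
    obtain ⟨k, M, hM, hk, hj⟩ := ih fun j hj => h j (Finset.mem_insert_of_mem hj)
    have hri : w (r i) ≠ c := h i (Finset.mem_insert_self _ _)
    have hM0 : 0 < M := zero_lt_iff.2 hM
    rw [Finset.prod_insert hi]
    set Q := ∏ i ∈ s, (X - C (r i)) with hQ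
    have hle : ∀ j, w (Q.coeff j) * c ^ j ≤ M := by
      intro j
      by_cases hjk : j = k
      · rw [hjk, hk]
      · exact (hj j hjk).le
    have h0 : ((X - C (r i)) * Q).coeff 0 = - (r i * Q.coeff 0) := by simp [sub_mul]
    have h1 : ∀ j, ((X - C (r i)) * Q).coeff (j + 1) = Q.coeff j - r i * Q.coeff (j + 1) := by
      intro j
      rw [sub_mul, coeff_sub, coeff_X_mul, coeff_C_mul]
    have e1 : ∀ j, w (Q.coeff j) * c ^ (j + 1) = w (Q.coeff j) * c ^ j * c := by
      intro j; rw [pow_succ, mul_assoc]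
    have e2 : ∀ j, w (r i * Q.coeff j) * c ^ j = w (r i) * (w (Q.coeff j) * c ^ j) := by
      intro j; rw [map_mul, mul_assoc]
    rcases lt_or_gt_of_ne hri with hlt | hgt
    · -- small root
      refine ⟨k + 1, M * c, mul_ne_zero hM hc, ?_, ?_⟩
      · rw [h1]
        have hlt' : w (r i * Q.coeff (k + 1)) < w (Q.coeff k) := by
          have h3 : w (r i * Q.coeff (k + 1)) * c ^ (k + 1) < w (Q.coeff k) * c ^ (k + 1) := by
            rw [e2, e1, hk]
            calc w (r i) * (w (Q.coeff (k + 1)) * c ^ (k + 1)) ≤ w (r i) * M := by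
                  gcongr; exact hle _
              _ < c * M := by gcongr
              _ = M * c := mul_comm _ _
          exact lt_of_mul_lt_mul_right h3 zero_le
        rw [Valuation.map_sub_eq_of_lt_left w hlt', e1, hk]
      · intro j hjk
        rcases j with _ | j
        · rw [h0, Valuation.map_neg, e2]
          calc w (r i) * (w (Q.coeff 0) * c ^ 0) ≤ w (r i) * M := by gcongr; exact hle _
            _ < c * M := by gcongr
            _ = M * c := mul_comm _ _
        · rw [h1]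
          have hjk' : j ≠ k := fun h => hjk (by rw [h])
          have h4 : w (Q.coeff j) * c ^ (j + 1) < M * c := by
            rw [e1]; gcongr; exact hj j hjk'
          have h5 : w (r i * Q.coeff (j + 1)) * c ^ (j + 1) < M * c := by
            rw [e2]
            calc w (r i) * (w (Q.coeff (j + 1)) * c ^ (j + 1)) ≤ w (r i) * M := by
                  gcongr; exact hle _
              _ < c * M := by gcongr
              _ = M * c := mul_comm _ _
          exact aux_max (Valuation.map_sub w _ _) h4 h5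
    · -- big root
      have hri0 : w (r i) ≠ 0 := (lt_trans hc0 hgt).ne'
      have hri0' : 0 < w (r i) := zero_lt_iff.2 hri0
      refine ⟨k, w (r i) * M, mul_ne_zero hri0 hM, ?_, ?_⟩
      · rcases k with _ | k
        · rw [h0, Valuation.map_neg, e2, hk]
        · rw [h1]
          have hlt' : w (Q.coeff k) < w (r i * Q.coeff (k + 1)) := by
            have h3 : w (Q.coeff k) * c ^ (k + 1) < w (r i * Q.coeff (k + 1)) * c ^ (k + 1) := by
              rw [e2, e1, hk]
              calc w (Q.coeff k) * c ^ k * c ≤ M * c := by gcongr; exact hle _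
                _ < M * w (r i) := by gcongr
                _ = w (r i) * M := mul_comm _ _
            exact lt_of_mul_lt_mul_right h3 zero_le
          rw [Valuation.map_sub_eq_of_lt_right w hlt', e2, hk]
      · intro j hjk
        rcases j with _ | j
        · rw [h0, Valuation.map_neg, e2]
          gcongr
          exact hj 0 hjk
        · rw [h1]
          have h4 : w (Q.coeff j) * c ^ (j + 1) < w (r i) * M := by
            rw [e1]
            calc w (Q.coeff j) * c ^ j * c ≤ M * c := by gcongr; exact hle _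
              _ < M * w (r i) := by gcongr
              _ = w (r i) * M := mul_comm _ _
          have h5 : w (r i * Q.coeff (j + 1)) * c ^ (j + 1) < w (r i) * M := by
            rw [e2]
            gcongr
            exact hj _ hjk
          exact aux_max (Valuation.map_sub w _ _) h4 h5

/-- one root of value `c`, no other one: two neighbouring coefficients have quotient `c`. -/
theorem newton_one {ι : Type*} [DecidableEq ι] (w : Valuation N Γ) (s : Finset ι) (r : ι → N)
    (i₀ : ι) (hi₀ : i₀ ∉ s) (hr : r i₀ ≠ 0) (h : ∀ i ∈ s, w (r i) ≠ w (r i₀)) :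
    ∃ k : ℕ, (∏ i ∈ insert i₀ s, (X - C (r i))).coeff (k + 1) ≠ 0 ∧
      w ((∏ i ∈ insert i₀ s, (X - C (r i))).coeff k) =
        w ((∏ i ∈ insert i₀ s, (X - C (r i))).coeff (k + 1)) * w (r i₀) := by
  classical
  set c := w (r i₀) with hcdef
  have hc : c ≠ 0 := (Valuation.ne_zero_iff w).2 hr
  have hc0 : 0 < c := zero_lt_iff.2 hc
  obtain ⟨k, M, hM, hk, hj⟩ := newton_ne w hc s r h
  have hM0 : 0 < M := zero_lt_iff.2 hM
  rw [Finset.prod_insert hi₀]
  set Q := ∏ i ∈ s, (X - C (r i)) with hQ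
  have h0 : ((X - C (r i₀)) * Q).coeff 0 = - (r i₀ * Q.coeff 0) := by simp [sub_mul]
  have h1 : ∀ j, ((X - C (r i₀)) * Q).coeff (j + 1) = Q.coeff j - r i₀ * Q.coeff (j + 1) := by
    intro j
    rw [sub_mul, coeff_sub, coeff_X_mul, coeff_C_mul]
  have e1 : ∀ j, w (Q.coeff j) * c ^ (j + 1) = w (Q.coeff j) * c ^ j * c := by
    intro j; rw [pow_succ, mul_assoc]
  have e2 : ∀ j, w (r i₀ * Q.coeff j) * c ^ j = c * (w (Q.coeff j) * c ^ j) := by
    intro j; rw [map_mul, mul_assoc]
  have hQk : w (Q.coeff k) ≠ 0 := by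
    intro h0'
    rw [h0', zero_mul] at hk
    exact hM hk.symm
  have A : w (((X - C (r i₀)) * Q).coeff (k + 1)) = w (Q.coeff k) := by
    rw [h1]
    refine Valuation.map_sub_eq_of_lt_left w ?_
    have h3 : w (r i₀ * Q.coeff (k + 1)) * c ^ (k + 1) < w (Q.coeff k) * c ^ (k + 1) := by
      rw [e2, e1, hk]
      calc c * (w (Q.coeff (k + 1)) * c ^ (k + 1)) < c * M := by
            gcongr; exact hj _ (by omega)
        _ = M * c := mul_comm _ _
    exact lt_of_mul_lt_mul_right h3 zero_le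
  have B : w (((X - C (r i₀)) * Q).coeff k) = w (r i₀ * Q.coeff k) := by
    rcases k with _ | k
    · rw [h0, Valuation.map_neg]
    · rw [h1]
      refine Valuation.map_sub_eq_of_lt_right w ?_
      have h3 : w (Q.coeff k) * c ^ (k + 1) < w (r i₀ * Q.coeff (k + 1)) * c ^ (k + 1) := by
        rw [e2, e1, hk]
        calc w (Q.coeff k) * c ^ k * c < M * c := by gcongr; exact hj _ (by omega)
          _ = c * M := mul_comm _ _
      exact lt_of_mul_lt_mul_right h3 zero_le
  refine ⟨k, ?_, ?_⟩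
  · intro h5
    rw [h5, map_zero] at A
    exact hQk A.symm
  · rw [A, B, map_mul, mul_comm]

end Newton

section Fin

variable {K N : Type*} [Field K] [Field N] [Algebra K N] [FiniteDimensional K N] [IsGalois K N]
variable {Γ : Type*} [LinearOrderedCommGroupWithZero Γ]

/-- the decomposition group -/
def decomp (K : Type*) {N : Type*} [Field K] [Field N] [Algebra K N] {Γ : Type*}
    [LinearOrderedCommGroupWithZero Γ] (w : Valuation N Γ) : Subgroup (N ≃ₐ[K] N) where
  carrier := {σ | ∀ x, w (σ x) = w x}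
  one_mem' := fun _ => rfl
  mul_mem' := fun {σ τ} hσ hτ x => by
    change w (σ (τ x)) = w x
    rw [hσ, hτ]
  inv_mem' := fun {σ} hσ x => by
    have h := hσ (σ⁻¹ x)
    rw [← AlgEquiv.mul_apply, mul_inv_cancel, AlgEquiv.one_apply] at h
    exact h.symm

theorem mem_decomp {K N : Type*} [Field K] [Field N] [Algebra K N] {Γ : Type*}
    [LinearOrderedCommGroupWithZero Γ] {w : Valuation N Γ} {σ : N ≃ₐ[K] N} :
    σ ∈ decomp K w ↔ ∀ x, w (σ x) = w x := Iff.rfl

theorem mem_decomp_of_le {K N : Type*} [Field K] [Field N] [Algebra K N] [Algebra.IsAlgebraic K N]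
    {Γ : Type*} [LinearOrderedCommGroupWithZero Γ] {w : Valuation N Γ} {σ : N ≃ₐ[K] N}
    (h : ∀ x, w x ≤ 1 → w (σ x) ≤ 1) : σ ∈ decomp K w := eq_of_le_one_imp w σ h

/-- A `D`-invariant `β`, `w β = 1`, `w (σ β) < 1` off `D`. -/
theorem exists_beta (w : Valuation N Γ) :
    ∃ β : N, (∀ σ ∈ decomp K w, σ β = β) ∧ w β = 1 ∧
      ∀ σ : N ≃ₐ[K] N, σ ∉ decomp K w → w (σ β) < 1 := by
  classical
  obtain ⟨b, hb1, hb2, -⟩ := exists_sep (K := K) w
    (fun σ : {σ : N ≃ₐ[K] N // σ ∉ decomp K w} => w.comap ((σ : N ≃ₐ[K] N) : N →+* N))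
    (fun σ a ha => by
      change w ((σ : N ≃ₐ[K] N) (algebraMap K N a)) ≤ 1
      rw [AlgEquiv.commutes]; exact ha)
    (fun σ => by
      by_contra hcon
      push Not at hcon
      exact σ.2 (mem_decomp_of_le hcon))
  have hb2' : ∀ σ : N ≃ₐ[K] N, σ ∉ decomp K w → w (σ b) < 1 := fun σ hσ => hb2 ⟨σ, hσ⟩
  refine ⟨∏ g : decomp K w, (g : N ≃ₐ[K] N) b, ?_, ?_, ?_⟩
  · intro σ hσ
    rw [map_prod]
    exact Fintype.prod_equiv (Equiv.mulLeft (⟨σ, hσ⟩ : decomp K w)) _ _ fun g => rfl
  · rw [map_prod]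
    exact Finset.prod_eq_one fun g _ => by rw [g.2 b, hb1]
  · intro σ hσ
    rw [map_prod, map_prod]
    have h1 : ∀ g : decomp K w, w (σ ((g : N ≃ₐ[K] N) b)) < 1 := by
      intro g
      refine hb2' (σ * g) fun h => hσ ?_
      have := mul_mem h (inv_mem g.2)
      rwa [mul_assoc, mul_inv_cancel, mul_one] at this
    rw [← Finset.mul_prod_erase Finset.univ (fun g : decomp K w => w (σ ((g : N ≃ₐ[K] N) b)))
      (Finset.mem_univ (1 : decomp K w))]
    calc w (σ (((1 : decomp K w) : N ≃ₐ[K] N) b)) *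
          ∏ g ∈ Finset.univ.erase (1 : decomp K w), w (σ ((g : N ≃ₐ[K] N) b))
        ≤ w (σ (((1 : decomp K w) : N ≃ₐ[K] N) b)) * 1 := by
          gcongr
          exact Finset.prod_le_one' fun g _ => (h1 g).le
      _ < 1 := by rw [mul_one]; exact h1 1

/-- the function `gD ↦ g y` for `D`-invariant `y` -/
noncomputable def orb (w : Valuation N Γ) (y : N) (q : (N ≃ₐ[K] N) ⧸ decomp K w) : N :=
  q.out y

omit [FiniteDimensional K N] [IsGalois K N] in
theorem orb_mk {w : Valuation N Γ} {y : N} (hy : ∀ σ ∈ decomp K w, σ y = y) (g : N ≃ₐ[K] N) :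
    orb w y (g : (N ≃ₐ[K] N) ⧸ decomp K w) = g y := by
  obtain ⟨h, hh⟩ := QuotientGroup.mk_out_eq_mul (decomp K w) g
  rw [orb, hh, AlgEquiv.mul_apply, hy _ h.2]

omit [FiniteDimensional K N] [IsGalois K N] in
theorem orb_smul {w : Valuation N Γ} {y : N} (hy : ∀ σ ∈ decomp K w, σ y = y) (τ : N ≃ₐ[K] N)
    (q : (N ≃ₐ[K] N) ⧸ decomp K w) : τ (orb w y q) = orb w y (τ • q) := by
  induction q using QuotientGroup.induction_on with
  | H g =>
    rw [orb_mk hy, MulAction.Quotient.smul_coe, orb_mk hy]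
    rfl

theorem mem_range_of_fixed {x : N} (h : ∀ τ : N ≃ₐ[K] N, τ x = x) :
    ∃ a : K, algebraMap K N a = x := by
  have h1 : x ∈ (⊥ : IntermediateField K N) := by
    rw [IsGalois.mem_bot_iff_fixed]; exact h
  exact IntermediateField.mem_bot.1 h1

/-- **The decomposition field has the same residue field.** -/
theorem residue_fin (w : Valuation N Γ) {a : N} (ha : ∀ σ ∈ decomp K w, σ a = a) (ha1 : w a ≤ 1) :
    ∃ b : K, w (a - algebraMap K N b) < 1 := by
  classical
  obtain ⟨β, hβ, hβ1, hβ2⟩ := exists_beta (K := K) w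
  obtain ⟨s, hs, hs1, hsV⟩ := exists_denom (K := K) w (Algebra.IsAlgebraic.isAlgebraic a) ha1
  have hsD : ∀ σ ∈ decomp K w, σ s = s := by
    intro σ hσ
    have h1 : Algebra.adjoin K {a} ≤ AlgHom.equalizer (σ : N →ₐ[K] N) (AlgHom.id K N) := by
      rw [Algebra.adjoin_le_iff]
      intro y hy
      rw [Set.mem_singleton_iff] at hy
      rw [hy]
      exact ha σ hσ
    exact h1 hs
  have hint : ∀ σ : N ≃ₐ[K] N, w (σ s) ≤ 1 ∧ w (σ (s * a)) ≤ 1 := by
    intro σ
    exact hsV (w.comap (σ : N →+* N)).valuationSubring fun c hc => by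
      rw [Valuation.mem_valuationSubring_iff]
      change w (σ (algebraMap K N c)) ≤ 1
      rw [AlgEquiv.commutes]; exact hc
  -- the partial traces
  have key : ∀ y : N, (∀ σ ∈ decomp K w, σ y = y) → (∀ σ : N ≃ₐ[K] N, w (σ y) ≤ 1) →
      ∃ t : K, w (algebraMap K N t - β * y) < 1 := by
    intro y hy hy1
    have hD : ∀ σ ∈ decomp K w, σ (β * y) = β * y := by
      intro σ hσ; rw [map_mul, hβ σ hσ, hy σ hσ]
    obtain ⟨t, ht⟩ := mem_range_of_fixed (K := K)
      (x := ∑ q : (N ≃ₐ[K] N) ⧸ decomp K w, orb w (β * y) q) (by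
        intro τ
        rw [map_sum]
        exact Fintype.sum_equiv (MulAction.toPerm τ) _ _ fun q => orb_smul hD τ q)
    refine ⟨t, ?_⟩
    rw [ht, ← Finset.add_sum_erase Finset.univ _
      (Finset.mem_univ ((1 : N ≃ₐ[K] N) : (N ≃ₐ[K] N) ⧸ decomp K w)), orb_mk hD, AlgEquiv.one_apply,
      add_sub_cancel_left]
    refine Valuation.map_sum_lt w one_ne_zero fun q hq => ?_
    have hq1 : q ≠ ((1 : N ≃ₐ[K] N) : (N ≃ₐ[K] N) ⧸ decomp K w) := (Finset.mem_erase.1 hq).1
    induction q using QuotientGroup.induction_on with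
    | H g =>
      have hg : g ∉ decomp K w := by
        intro h
        refine hq1 ?_
        rw [eq_comm, QuotientGroup.eq]
        simpa using h
      rw [orb_mk hD, map_mul, map_mul]
      calc w (g β) * w (g y) ≤ w (g β) * 1 := by gcongr; exact hy1 g
        _ < 1 := by rw [mul_one]; exact hβ2 g hg
  obtain ⟨t₁, ht₁⟩ := key (s * a) (fun σ hσ => by rw [map_mul, hsD σ hσ, ha σ hσ])
    fun σ => (hint σ).2
  obtain ⟨t₂, ht₂⟩ := key s hsD fun σ => (hint σ).1
  have hw2 : w (algebraMap K N t₂) = 1 := by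
    have h1 : algebraMap K N t₂ = β * s + (algebraMap K N t₂ - β * s) := by ring
    rw [h1, Valuation.map_add_eq_of_lt_left w (by rw [map_mul, hβ1, hs1, mul_one]; exact ht₂),
      map_mul, hβ1, hs1, mul_one]
  have h20 : algebraMap K N t₂ ≠ 0 := by
    intro h; rw [h, map_zero] at hw2; exact zero_ne_one hw2
  refine ⟨t₁ / t₂, ?_⟩
  have h3 : a - algebraMap K N (t₁ / t₂) =
      (a * (algebraMap K N t₂ - β * s) - (algebraMap K N t₁ - β * (s * a))) /
        algebraMap K N t₂ := by
    rw [map_div₀]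
    field_simp
    ring
  rw [h3, map_div₀, hw2, div_one]
  refine Valuation.map_sub_lt w ?_ ht₁
  rw [map_mul]
  calc w a * w (algebraMap K N t₂ - β * s) ≤ 1 * w (algebraMap K N t₂ - β * s) := by gcongr
    _ < 1 := by rw [one_mul]; exact ht₂

/-- **The decomposition field has the same value group.** -/
theorem value_fin (w : Valuation N Γ) {a : N} (ha : ∀ σ ∈ decomp K w, σ a = a) (ha0 : a ≠ 0) :
    ∃ b : K, b ≠ 0 ∧ w (algebraMap K N b) = w a := by
  classical
  obtain ⟨β, hβ, hβ1, hβ2⟩ := exists_beta (K := K) w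
  have hβ0 : β ≠ 0 := by
    intro h; rw [h, map_zero] at hβ1; exact zero_ne_one hβ1
  -- choose m
  have hfin : (⋃ σ : {σ : N ≃ₐ[K] N // σ ∉ decomp K w},
      {m : ℕ | w ((σ : N ≃ₐ[K] N) β) ^ m * w ((σ : N ≃ₐ[K] N) a) = w a}).Finite := by
    refine Set.finite_iUnion fun σ => ?_
    refine Set.Subsingleton.finite ?_
    have hlt := hβ2 σ.1 σ.2
    have hpos : 0 < w ((σ : N ≃ₐ[K] N) β) :=
      zero_lt_iff.2 ((Valuation.ne_zero_iff w).2 ((_root_.map_ne_zero _).2 hβ0))
    have hσa : w ((σ : N ≃ₐ[K] N) a) ≠ 0 :=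
      (Valuation.ne_zero_iff w).2 ((_root_.map_ne_zero _).2 ha0)
    have aux : ∀ m m' : ℕ, m < m' →
        w ((σ : N ≃ₐ[K] N) β) ^ m * w ((σ : N ≃ₐ[K] N) a) = w a →
        w ((σ : N ≃ₐ[K] N) β) ^ m' * w ((σ : N ≃ₐ[K] N) a) = w a → False := by
      intro m m' hmm h1 h2
      have h3 := mul_right_cancel₀ hσa (h1.trans h2.symm)
      have h4 : w ((σ : N ≃ₐ[K] N) β) ^ m' < w ((σ : N ≃ₐ[K] N) β) ^ m :=
        pow_lt_pow_right_of_lt_one₀ hpos hlt hmm
      rw [h3] at h4
      exact lt_irrefl _ h4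
    intro m hm m' hm'
    rcases lt_trichotomy m m' with h | h | h
    · exact (aux m m' h hm hm').elim
    · exact h
    · exact (aux m' m h hm' hm).elim
  obtain ⟨m, hm⟩ := hfin.exists_notMem
  have hm' : ∀ σ : N ≃ₐ[K] N, σ ∉ decomp K w → w (σ β) ^ m * w (σ a) ≠ w a := by
    intro σ hσ h
    exact hm (Set.mem_iUnion.2 ⟨⟨σ, hσ⟩, h⟩)
  set γ : N := β ^ m * a with hγ
  have hγ0 : γ ≠ 0 := mul_ne_zero (pow_ne_zero _ hβ0) ha0
  have hγD : ∀ σ ∈ decomp K w, σ γ = γ := by
    intro σ hσ; rw [hγ, map_mul, map_pow, hβ σ hσ, ha σ hσ]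
  have hwγ : w γ = w a := by rw [hγ, map_mul, map_pow, hβ1, one_pow, one_mul]
  have hne : ∀ σ : N ≃ₐ[K] N, σ ∉ decomp K w → w (σ γ) ≠ w a := by
    intro σ hσ
    rw [hγ, map_mul, map_pow, map_mul, map_pow]
    exact hm' σ hσ
  set q₀ : (N ≃ₐ[K] N) ⧸ decomp K w := ((1 : N ≃ₐ[K] N) : (N ≃ₐ[K] N) ⧸ decomp K w) with hq₀
  have horb0 : orb w γ q₀ = γ := by rw [hq₀, orb_mk hγD, AlgEquiv.one_apply]
  obtain ⟨k, hk1, hk2⟩ := newton_one w (Finset.univ.erase q₀) (orb w γ) q₀
    (Finset.notMem_erase _ _) (by rw [horb0]; exact hγ0) (by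
      intro q hq
      have hq1 : q ≠ q₀ := (Finset.mem_erase.1 hq).1
      induction q using QuotientGroup.induction_on with
      | H g =>
        have hg : g ∉ decomp K w := by
          intro h
          refine hq1 ?_
          rw [hq₀, eq_comm, QuotientGroup.eq]
          simpa using h
        rw [orb_mk hγD, horb0, hwγ]
        exact hne g hg)
  rw [Finset.insert_erase (Finset.mem_univ q₀)] at hk1 hk2
  set P : N[X] := ∏ q : (N ≃ₐ[K] N) ⧸ decomp K w, (X - C (orb w γ q)) with hP
  have hinv : ∀ (τ : N ≃ₐ[K] N), P.map (τ : N →+* N) = P := by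
    intro τ
    rw [hP, Polynomial.map_prod]
    refine Fintype.prod_equiv (MulAction.toPerm τ) _ _ fun q => ?_
    rw [Polynomial.map_sub, map_X, map_C]
    congr 2
    exact orb_smul hγD τ q
  have hK : ∀ j, ∃ a : K, algebraMap K N a = P.coeff j := by
    intro j
    refine mem_range_of_fixed fun τ => ?_
    conv_rhs => rw [← hinv τ]
    rw [coeff_map]; rfl
  obtain ⟨b₁, hb₁⟩ := hK (k + 1)
  obtain ⟨b₀, hb₀⟩ := hK k
  have hb₁0 : b₁ ≠ 0 := by
    intro h; rw [h, map_zero] at hb₁; exact hk1 hb₁.symm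
  have hw1 : w (algebraMap K N b₁) ≠ 0 :=
    (Valuation.ne_zero_iff w).2 ((_root_.map_ne_zero _).2 hb₁0)
  have hval : w (algebraMap K N (b₀ / b₁)) = w a := by
    rw [map_div₀, map_div₀, hb₀, hk2, ← hb₁, horb0, hwγ, mul_comm, mul_div_assoc, div_self hw1,
      mul_one]
  refine ⟨b₀ / b₁, ?_, hval⟩
  intro h
  rw [h, map_zero, map_zero] at hval
  exact (Valuation.ne_zero_iff w).2 ha0 hval.symm

end Fin

end Crest.Agent.R013.Hens_899
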