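import Mathlib
import Crest.Agent.R013.Hens2_899

/-!
R013 / HENS, part 3 (helper899): the henselisation `hens K w` of `K` inside a Galois extension `Ω`
(any value group): conjugacy of extensions, `Gal(Ω/hens) = decomp`, `hens/K` is immediate.
-/

set_option autoImplicit false

namespace Crest.Agent.R013.Hens_899

section Inf

variable {K Ω : Type*} [Field K] [Field Ω] [Algebra K Ω]
variable {Γ Γ' : Type*} [LinearOrderedCommGroupWithZero Γ] [LinearOrderedCommGroupWithZero Γ']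

theorem isOpen_eval [Algebra.IsAlgebraic K Ω] (a : Ω) (T : Set Ω) :
    IsOpen {g : Ω ≃ₐ[K] Ω | g a ∈ T} := by
  rw [isOpen_iff_mem_nhds]
  intro g₀ hg₀
  have h1 : IsOpen (MulAction.stabilizer (Ω ≃ₐ[K] Ω) a : Set (Ω ≃ₐ[K] Ω)) :=
    stabilizer_isOpen_of_isIntegral (K := K) (L := Ω) a
  have h2 : IsOpen ((fun g : Ω ≃ₐ[K] Ω => g₀⁻¹ * g) ⁻¹'
      (MulAction.stabilizer (Ω ≃ₐ[K] Ω) a : Set (Ω ≃ₐ[K] Ω))) :=
    h1.preimage (continuous_const_mul g₀⁻¹)
  refine Filter.mem_of_superset (h2.mem_nhds ?_) ?_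
  · simp
  · intro g hg
    have h3 : (g₀⁻¹ * g) • a = a := hg
    have h4 : g a = g₀ a := by
      have : g₀ ((g₀⁻¹ * g) • a) = g₀ a := by rw [h3]
      rw [← this]
      change g a = g₀ (g₀⁻¹ (g a))
      rw [← AlgEquiv.mul_apply, mul_inv_cancel, AlgEquiv.one_apply]
    change g a ∈ T
    rw [h4]
    exact hg₀

theorem isClosed_eval [Algebra.IsAlgebraic K Ω] (a : Ω) (T : Set Ω) :
    IsClosed {g : Ω ≃ₐ[K] Ω | g a ∈ T} := by
  rw [← isOpen_compl_iff]
  exact isOpen_eval a Tᶜ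

/-- **Conjugacy of the extensions of a valuation** to an arbitrary Galois extension. -/
theorem exists_conj [IsGalois K Ω] (w₁ : Valuation Ω Γ) (w₂ : Valuation Ω Γ')
    (h : ∀ a : K, w₁ (algebraMap K Ω a) ≤ 1 ↔ w₂ (algebraMap K Ω a) ≤ 1) :
    ∃ σ : Ω ≃ₐ[K] Ω, ∀ x, w₁ (σ x) ≤ 1 ↔ w₂ x ≤ 1 := by
  classical
  set t : Ω → Set (Ω ≃ₐ[K] Ω) := fun x => {σ | w₁ (σ x) ≤ 1 ↔ w₂ x ≤ 1} with ht
  have hcl : ∀ x, IsClosed (t x) := by
    intro x
    exact isClosed_eval x {y | w₁ y ≤ 1 ↔ w₂ x ≤ 1}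
  have hfin : ∀ s : Finset Ω, (⋂ x ∈ s, t x).Nonempty := by
    intro s
    let N : FiniteGaloisIntermediateField K Ω :=
      FiniteGaloisIntermediateField.adjoin K (s : Set Ω)
    have hsN : ∀ x ∈ s, x ∈ N.toIntermediateField := fun x hx =>
      FiniteGaloisIntermediateField.subset_adjoin K (s : Set Ω) hx
    obtain ⟨τ, hτ⟩ := conj_fin (K := K) (N := N.toIntermediateField)
      (w₁.comap (algebraMap N.toIntermediateField Ω))
      (w₂.comap (algebraMap N.toIntermediateField Ω)) (fun a => h a)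
    refine ⟨τ.liftNormal Ω, ?_⟩
    rw [Set.mem_iInter₂]
    intro x hx
    have h1 := hτ ⟨x, hsN x hx⟩
    have h2 : (τ.liftNormal Ω) x = algebraMap N.toIntermediateField Ω (τ ⟨x, hsN x hx⟩) :=
      AlgEquiv.liftNormal_commutes τ Ω (⟨x, hsN x hx⟩ : N.toIntermediateField)
    change w₁ ((τ.liftNormal Ω) x) ≤ 1 ↔ w₂ x ≤ 1
    rw [h2]
    exact h1
  obtain ⟨σ, hσ⟩ := CompactSpace.iInter_nonempty hcl hfin
  exact ⟨σ, fun x => (Set.mem_iInter.1 hσ x)⟩

theorem isClosed_decomp [Algebra.IsAlgebraic K Ω] (w : Valuation Ω Γ) :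
    IsClosed (decomp K w : Set (Ω ≃ₐ[K] Ω)) := by
  have : (decomp K w : Set (Ω ≃ₐ[K] Ω)) = ⋂ x : Ω, {g | g x ∈ {y | w y = w x}} := by
    ext g
    rw [Set.mem_iInter]
    exact Iff.rfl
  rw [this]
  exact isClosed_iInter fun x => isClosed_eval x _

/-- the henselisation of `(K, w)` inside `Ω` -/
def hens (K : Type*) {Ω : Type*} [Field K] [Field Ω] [Algebra K Ω] {Γ : Type*}
    [LinearOrderedCommGroupWithZero Γ] (w : Valuation Ω Γ) : IntermediateField K Ω :=
  IntermediateField.fixedField (decomp K w)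

theorem mem_hens {w : Valuation Ω Γ} {a : Ω} :
    a ∈ hens K w ↔ ∀ σ ∈ decomp K w, σ a = a := by
  rw [hens, IntermediateField.mem_fixedField_iff]

theorem fixingSubgroup_hens [IsGalois K Ω] (w : Valuation Ω Γ) :
    (hens K w).fixingSubgroup = decomp K w :=
  InfiniteGalois.fixingSubgroup_fixedField (⟨decomp K w, isClosed_decomp w⟩ :
    ClosedSubgroup (Ω ≃ₐ[K] Ω))

/-- `(F, w)` is henselian: all automorphisms of `Ω/F` preserve `w`. -/
def Inv (F : Type*) {Ω : Type*} [Field F] [Field Ω] [Algebra F Ω] {Γ : Type*}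
    [LinearOrderedCommGroupWithZero Γ] (w : Valuation Ω Γ) : Prop :=
  ∀ (σ : Ω ≃ₐ[F] Ω) (x : Ω), w (σ x) = w x

theorem inv_hens [IsGalois K Ω] (w : Valuation Ω Γ) : Inv (hens K w) w := by
  intro σ x
  have h1 : σ.restrictScalars K ∈ decomp K w := by
    rw [← fixingSubgroup_hens, IntermediateField.mem_fixingSubgroup_iff]
    intro y hy
    exact σ.commutes ⟨y, hy⟩
  exact h1 x

theorem Inv.of_le {F : IntermediateField K Ω} {w : Valuation Ω Γ} (hF : Inv F w)
    {E : IntermediateField K Ω} (h : F ≤ E) : Inv E w := by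
  intro σ x
  let τ : Ω ≃ₐ[F] Ω :=
    { σ.toRingEquiv with commutes' := fun r => σ.commutes ⟨r.1, h r.2⟩ }
  exact hF τ x

/-- `hens` is the smallest henselian intermediate field -/
theorem hens_le_of_inv [IsGalois K Ω] {w : Valuation Ω Γ} {F : IntermediateField K Ω} :
    hens K w ≤ F ↔ Inv F w := by
  constructor
  · exact fun h => (inv_hens w).of_le h
  · intro h
    have h1 : F.fixingSubgroup ≤ decomp K w := by
      intro σ hσ x
      rw [IntermediateField.mem_fixingSubgroup_iff] at hσ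
      exact h { σ.toRingEquiv with commutes' := fun r => hσ r.1 r.2 } x
    intro x hx
    rw [← InfiniteGalois.fixedField_fixingSubgroup F, IntermediateField.mem_fixedField_iff]
    intro σ hσ
    exact mem_hens.1 hx σ (h1 hσ)

/-- an element fixed by the automorphisms over `F` lies in `F` -/
theorem mem_range_of_fixed' [IsGalois K Ω] {x : Ω} (h : ∀ τ : Ω ≃ₐ[K] Ω, τ x = x) :
    ∃ a : K, algebraMap K Ω a = x :=
  (InfiniteGalois.mem_range_algebraMap_iff_fixed x).2 h

/-- **Uniqueness of the extension** of `w` from a henselian field. -/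
theorem Inv.unique [IsGalois K Ω] {w : Valuation Ω Γ} (hw : Inv K w) (w' : Valuation Ω Γ')
    (h : ∀ a : K, w (algebraMap K Ω a) ≤ 1 ↔ w' (algebraMap K Ω a) ≤ 1) (x : Ω) :
    w x ≤ 1 ↔ w' x ≤ 1 := by
  obtain ⟨σ, hσ⟩ := exists_conj w w' h
  rw [← hσ, hw]

theorem Inv.isEquiv [IsGalois K Ω] {w : Valuation Ω Γ} (hw : Inv K w) (w' : Valuation Ω Γ')
    (h : ∀ a : K, w (algebraMap K Ω a) ≤ 1 ↔ w' (algebraMap K Ω a) ≤ 1) : w.IsEquiv w' := by
  rw [Valuation.isEquiv_iff_val_le_one]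
  exact fun {x} => hw.unique w' h x

/-- automorphisms of a finite Galois layer preserving `w` extend to elements of `decomp` -/
theorem exists_lift [IsGalois K Ω] (w : Valuation Ω Γ) (N : IntermediateField K Ω) [Normal K N]
    (τ : N ≃ₐ[K] N) (hτ : ∀ x : N, w (τ x) = w x) :
    ∃ σ ∈ decomp K w, ∀ x : N, σ x = τ x := by
  set ρ := τ.liftNormal Ω with hρ
  have hρN : ∀ x : N, ρ x = τ x := fun x => AlgEquiv.liftNormal_commutes τ Ω x
  have : IsGalois N Ω := inferInstance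
  obtain ⟨g, hg⟩ := exists_conj (K := N) (w.comap (ρ : Ω →+* Ω)) w (fun a => by
    change w (ρ a) ≤ 1 ↔ w a ≤ 1
    rw [hρN, hτ])
  refine ⟨ρ * g.restrictScalars K, ?_, ?_⟩
  · refine mem_decomp_of_le fun x hx => ?_
    exact (hg x).2 hx
  · intro x
    have h1 : g (x : Ω) = x := g.commutes x
    rw [AlgEquiv.mul_apply]
    change ρ (g x) = _
    rw [h1, hρN]

theorem exists_layer [IsGalois K Ω] (a : Ω) :
    ∃ N : IntermediateField K Ω, FiniteDimensional K N ∧ IsGalois K N ∧ a ∈ N := by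
  let N : FiniteGaloisIntermediateField K Ω := FiniteGaloisIntermediateField.adjoin K {a}
  exact ⟨N.toIntermediateField, inferInstance, inferInstance,
    FiniteGaloisIntermediateField.subset_adjoin K {a} (Set.mem_singleton a)⟩

/-- **(H3), residue field** -/
theorem residue_hens [IsGalois K Ω] {w : Valuation Ω Γ} {a : Ω} (ha : a ∈ hens K w)
    (ha1 : w a ≤ 1) : ∃ b : K, w (a - algebraMap K Ω b) < 1 := by
  obtain ⟨N, hN1, hN2, haN⟩ := exists_layer (K := K) a
  exact residue_fin (K := K) (w.comap (algebraMap N Ω)) (a := (⟨a, haN⟩ : N)) (by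
    intro τ hτ
    obtain ⟨σ, hσ, hστ⟩ := exists_lift w N τ hτ
    apply Subtype.ext
    rw [← hστ]
    exact mem_hens.1 ha σ hσ) ha1

/-- **(H3), value group** -/
theorem value_hens [IsGalois K Ω] {w : Valuation Ω Γ} {a : Ω} (ha : a ∈ hens K w)
    (ha0 : a ≠ 0) : ∃ b : K, b ≠ 0 ∧ w (algebraMap K Ω b) = w a := by
  obtain ⟨N, hN1, hN2, haN⟩ := exists_layer (K := K) a
  exact value_fin (K := K) (w.comap (algebraMap N Ω)) (a := (⟨a, haN⟩ : N)) (by
    intro τ hτ
    obtain ⟨σ, hσ, hστ⟩ := exists_lift w N τ hτ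
    apply Subtype.ext
    rw [← hστ]
    exact mem_hens.1 ha σ hσ) (fun h => ha0 (congrArg Subtype.val h))

/-- **(H3), combined** -/
theorem approx_hens [IsGalois K Ω] {w : Valuation Ω Γ} {a : Ω} (ha : a ∈ hens K w)
    (ha0 : a ≠ 0) : ∃ b : K, b ≠ 0 ∧ w (a - algebraMap K Ω b) < w a := by
  obtain ⟨b₀, hb₀, hv⟩ := value_hens ha ha0
  have hb₀' : algebraMap K Ω b₀ ≠ 0 := (_root_.map_ne_zero _).2 hb₀
  have hwb : w (algebraMap K Ω b₀) ≠ 0 := (Valuation.ne_zero_iff w).2 hb₀'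
  have h1 : w (a / algebraMap K Ω b₀) = 1 := by rw [map_div₀, hv, div_self (hv ▸ hwb)]
  obtain ⟨b₁, hb₁⟩ := residue_hens (K := K) (w := w) (a := a / algebraMap K Ω b₀)
    (div_mem ha ((hens K w).algebraMap_mem b₀)) h1.le
  have h2 : a - algebraMap K Ω (b₀ * b₁) =
      algebraMap K Ω b₀ * (a / algebraMap K Ω b₀ - algebraMap K Ω b₁) := by
    rw [map_mul]; field_simp
  have h3 : w (a - algebraMap K Ω (b₀ * b₁)) < w a := by
    rw [h2, map_mul, ← hv]
    calc w (algebraMap K Ω b₀) * w (a / algebraMap K Ω b₀ - algebraMap K Ω b₁)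
        < w (algebraMap K Ω b₀) * 1 := by
          gcongr
          exact zero_lt_iff.2 hwb
      _ = w (algebraMap K Ω b₀) := mul_one _
  refine ⟨b₀ * b₁, ?_, h3⟩
  intro h
  rw [h, map_zero, sub_zero] at h3
  exact lt_irrefl _ h3

/-- **(H5)** henselisation of an extension: `hens L w = L ⊔ hens K w`. -/
theorem hens_sup [IsGalois K Ω] (w : Valuation Ω Γ) (L : IntermediateField K Ω) :
    (hens L w).restrictScalars K = L ⊔ hens K w := by
  apply le_antisymm
  · intro x hx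
    rw [← InfiniteGalois.fixedField_fixingSubgroup (L ⊔ hens K w),
      IntermediateField.mem_fixedField_iff]
    intro σ hσ
    rw [IntermediateField.mem_fixingSubgroup_iff] at hσ
    let τ : Ω ≃ₐ[L] Ω :=
      { σ.toRingEquiv with
        commutes' := fun r => hσ r.1 ((le_sup_left : L ≤ L ⊔ hens K w) r.2) }
    have hτ : τ ∈ decomp L w := by
      intro y
      have h1 : σ ∈ decomp K w := by
        rw [← fixingSubgroup_hens, IntermediateField.mem_fixingSubgroup_iff]
        exact fun z hz => hσ z ((le_sup_right : hens K w ≤ L ⊔ hens K w) hz)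
      exact h1 y
    exact mem_hens.1 (show x ∈ hens L w from hx) τ hτ
  · apply sup_le
    · intro x hx
      exact (hens L w).algebraMap_mem ⟨x, hx⟩
    · intro x hx
      change x ∈ hens L w
      rw [mem_hens]
      intro τ hτ
      exact mem_hens.1 hx (τ.restrictScalars K) fun y => hτ y

end Inf

end Crest.Agent.R013.Hens_899
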