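import Mathlib
import Crest.Agent.R013.SE_669
import Crest.Agent.R013.Unr5_957
import Crest.Agent.R013.Hens3_899
import Crest.Agent.R013.A2a_275

/-!
# Row 13, B-CUTOFF, part 1: closures for valuations and unramifiedness at a place
-/

set_option autoImplicit false
set_option linter.unusedSectionVars false

namespace Crest.Agent.R013.Cof1_669

open scoped NNReal Topology
open Filter Crest.NumberTheoryR.Sect
open Crest.Agent.R013.SE_669 Crest.Agent.R013.Unr1_957 Crest.Agent.R013.Unr2_957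
  Crest.Agent.R013.Unr3_957 Crest.Agent.R013.Unr4_957 Crest.Agent.R013.Unr5_957

section Closure

variable {Ω : Type*} [Field Ω] (v : Valuation Ω ℝ≥0)

theorem mem_cl {F : Set Ω} {a : Ω} : a ∈ cl v F ↔ ∀ ε : ℝ≥0, 0 < ε → ∃ b ∈ F, v (a - b) < ε :=
  Iff.rfl

theorem subset_cl (F : Set Ω) : F ⊆ cl v F := fun a ha ε hε => ⟨a, ha, by simpa using hε⟩

theorem cl_mono {F G : Set Ω} (h : F ⊆ G) : cl v F ⊆ cl v G := fun a ha ε hε => by
  obtain ⟨b, hb, h1⟩ := ha ε hε
  exact ⟨b, h hb, h1⟩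

theorem cl_trans {F G : Set Ω} (h : F ⊆ cl v G) : cl v F ⊆ cl v G := by
  intro a ha ε hε
  obtain ⟨b, hb, h1⟩ := ha ε hε
  obtain ⟨c, hc, h2⟩ := h hb ε hε
  refine ⟨c, hc, ?_⟩
  have : a - c = (a - b) + (b - c) := by ring
  rw [this]
  exact (v.map_add _ _).trans_lt (max_lt h1 h2)

/-- values of elements of the closure -/
theorem exists_val_eq {F : Set Ω} {a : Ω} (ha : a ∈ cl v F) (h0 : a ≠ 0) :
    ∃ b ∈ F, v b = v a := by
  obtain ⟨b, hb, h1⟩ := ha (v a) ((Valuation.pos_iff v).mpr h0)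
  refine ⟨b, hb, ?_⟩
  rw [Valuation.map_sub_swap] at h1
  exact Valuation.map_eq_of_sub_lt v h1

/-- approximation of the inverse -/
theorem exists_near_inv {a : Ω} (h0 : a ≠ 0) {ε : ℝ≥0} (hε : 0 < ε) :
    ∃ δ : ℝ≥0, 0 < δ ∧ ∀ b, v (a - b) < δ → v (a⁻¹ - b⁻¹) < ε := by
  have hva : 0 < v a := (Valuation.pos_iff v).mpr h0
  refine ⟨min (v a) (ε * v a * v a), lt_min hva (by positivity), fun b hb => ?_⟩
  have h1 : v (a - b) < v a := hb.trans_le (min_le_left _ _)
  have h2 : v (a - b) < ε * v a * v a := hb.trans_le (min_le_right _ _)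
  have hvb : v b = v a := by
    rw [Valuation.map_sub_swap] at h1
    exact Valuation.map_eq_of_sub_lt v h1
  have hb0 : b ≠ 0 := by
    rintro rfl
    rw [map_zero] at hvb
    exact hva.ne hvb
  have e : a⁻¹ - b⁻¹ = (b - a) / (a * b) := by
    field_simp
  rw [e, map_div₀, map_mul, hvb, Valuation.map_sub_swap, div_lt_iff₀ (by positivity)]
  rwa [mul_assoc] at h2

/-- the closure of a subfield -/
def clF (F : Subfield Ω) : Subfield Ω where
  carrier := cl v (F : Set Ω)
  zero_mem' := subset_cl v _ F.zero_mem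
  one_mem' := subset_cl v _ F.one_mem
  add_mem' := by
    intro a b ha hb ε hε
    obtain ⟨a', ha', h1⟩ := ha ε hε
    obtain ⟨b', hb', h2⟩ := hb ε hε
    refine ⟨a' + b', F.add_mem ha' hb', ?_⟩
    have : a + b - (a' + b') = (a - a') + (b - b') := by ring
    rw [this]
    exact (v.map_add _ _).trans_lt (max_lt h1 h2)
  neg_mem' := by
    intro a ha ε hε
    obtain ⟨a', ha', h1⟩ := ha ε hε
    refine ⟨-a', F.neg_mem ha', ?_⟩
    have : -a - -a' = -(a - a') := by ring
    rwa [this, Valuation.map_neg]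
  mul_mem' := by
    intro a b ha hb ε hε
    obtain ⟨a', ha', h1⟩ := ha (ε / (v b + 1)) (by positivity)
    obtain ⟨b', hb', h2⟩ := hb (ε / (v a' + 1)) (by positivity)
    refine ⟨a' * b', F.mul_mem ha' hb', ?_⟩
    have : a * b - a' * b' = (a - a') * b + a' * (b - b') := by ring
    rw [this]
    refine (v.map_add _ _).trans_lt (max_lt ?_ ?_)
    · rw [map_mul]
      calc v (a - a') * v b ≤ v (a - a') * (v b + 1) := by gcongr; simp
        _ < ε / (v b + 1) * (v b + 1) := by gcongr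
        _ = ε := by field_simp
    · rw [map_mul]
      calc v a' * v (b - b') ≤ (v a' + 1) * v (b - b') := by gcongr; simp
        _ < (v a' + 1) * (ε / (v a' + 1)) := by gcongr
        _ = ε := by field_simp
  inv_mem' := by
    intro a ha
    by_cases h0 : a = 0
    · subst h0
      rw [inv_zero]
      exact subset_cl v _ F.zero_mem
    · intro ε hε
      obtain ⟨δ, hδ, h1⟩ := exists_near_inv v h0 hε
      obtain ⟨b, hb, h2⟩ := ha δ hδ
      exact ⟨b⁻¹, F.inv_mem hb, h1 b h2⟩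

theorem mem_clF {F : Subfield Ω} {a : Ω} : a ∈ clF v F ↔ a ∈ cl v (F : Set Ω) := Iff.rfl

/-- the closure of an intermediate field -/
def clI {K : Type*} [Field K] [Algebra K Ω] (F : IntermediateField K Ω) : IntermediateField K Ω :=
  { clF v F.toSubfield with
    algebraMap_mem' := fun r => subset_cl v _ (F.algebraMap_mem r) }

theorem mem_clI {K : Type*} [Field K] [Algebra K Ω] {F : IntermediateField K Ω} {a : Ω} :
    a ∈ clI v F ↔ a ∈ cl v (F : Set Ω) := Iff.rfl

theorem le_clI {K : Type*} [Field K] [Algebra K Ω] (F : IntermediateField K Ω) : F ≤ clI v F :=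
  fun _ ha => subset_cl v _ ha

/-- transport by an automorphism -/
theorem mem_cl_comap {Ω' : Type*} [Field Ω'] (v : Valuation Ω ℝ≥0) (σ : Ω' →+* Ω) {F : Set Ω'}
    {a : Ω'} : a ∈ cl (v.comap σ) F ↔ σ a ∈ cl v (σ '' F) := by
  constructor
  · intro h ε hε
    obtain ⟨b, hb, h1⟩ := h ε hε
    refine ⟨σ b, ⟨b, hb, rfl⟩, ?_⟩
    rwa [Valuation.comap_apply, map_sub] at h1
  · intro h ε hε
    obtain ⟨_, ⟨b, hb, rfl⟩, h1⟩ := h ε hε
    refine ⟨b, hb, ?_⟩
    rwa [Valuation.comap_apply, map_sub]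

end Closure

section UnrAt

variable {K : Type*} [Field K] {Ω : Type*} [Field Ω] [Algebra K Ω]

/-- all values of `v` on `F` are values on `K` -/
def UnrAt (K : Type*) [Field K] {Ω : Type*} [Field Ω] [Algebra K Ω] (v : Valuation Ω ℝ≥0)
    (F : Set Ω) : Prop :=
  ∀ b ∈ F, b ≠ 0 → ∃ a : K, v b = v (algebraMap K Ω a)

theorem UnrAt.mono {v : Valuation Ω ℝ≥0} {F G : Set Ω} (h : UnrAt K v G) (hFG : F ⊆ G) :
    UnrAt K v F := fun b hb h0 => h b (hFG hb) h0

theorem UnrAt.of_cl {v : Valuation Ω ℝ≥0} {F G : Set Ω} (h : UnrAt K v G) (hFG : F ⊆ cl v G) :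
    UnrAt K v F := by
  intro b hb h0
  obtain ⟨c, hc, h1⟩ := exists_val_eq v (hFG hb) h0
  have hc0 : c ≠ 0 := by
    rintro rfl
    rw [map_zero] at h1
    exact h0 ((Valuation.zero_iff v).mp h1.symm)
  obtain ⟨a, ha⟩ := h c hc hc0
  exact ⟨a, by rw [← h1, ha]⟩

theorem unrAt_comap {v : Valuation Ω ℝ≥0} (σ : Ω ≃ₐ[K] Ω) {F : Set Ω} :
    UnrAt K (v.comap (σ : Ω →+* Ω)) F ↔ UnrAt K v (σ '' F) := by
  constructor
  · rintro h _ ⟨b, hb, rfl⟩ h0
    obtain ⟨a, ha⟩ := h b hb (fun h => h0 (by rw [h, map_zero]))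
    refine ⟨a, ?_⟩
    rw [Valuation.comap_apply, Valuation.comap_apply] at ha
    simpa using ha
  · intro h b hb h0
    obtain ⟨a, ha⟩ := h (σ b) ⟨b, hb, rfl⟩ (fun h => h0 (by simpa using h))
    refine ⟨a, ?_⟩
    rw [Valuation.comap_apply, Valuation.comap_apply]
    simpa using ha

end UnrAt

section Sup

variable {k : Type*} [Field k] {K : Type*} [Field K] [Algebra k K]
variable [CharZero k] [Algebra (RatFunc k) K] [IsScalarTower k (RatFunc k) K]
  [FiniteDimensional (RatFunc k) K]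

local notation "Kb" => AlgebraicClosure K

theorem tower_kLb (L : IntermediateField K Kb) : IsScalarTower k L Kb :=
  IsScalarTower.of_algebraMap_eq (fun _ => rfl)

/-- inertia criterion for `UnrAt` -/
theorem unrAt_iff {L N : IntermediateField K Kb} (h : L ≤ N) [FiniteDimensional K N]
    [IsGalois K N] {v : Valuation Kb ℝ≥0} (hv : IsPlace k v) :
    UnrAt K v (L : Set Kb) ↔ ∀ σ ∈ Iner K (v.comap (algebraMap N Kb)), ∀ x : N,
      (x : Kb) ∈ L → σ x = x := by
  have hK := charZero_K k K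
  have hmem : ∀ x : N, x ∈ IntermediateField.restrict h ↔ (x : Kb) ∈ L :=
    fun x => IntermediateField.mem_restrict h x
  have hpl : IsPlace k (v.comap (algebraMap N Kb)) := by
    have : Algebra.IsAlgebraic N Kb := Algebra.IsAlgebraic.tower_top (K := K) N
    have : IsScalarTower k N Kb := tower_kLb N
    exact isPlace_comap (F := N) hv
  obtain ⟨c, hc⟩ := gen_place (isPlace_base hpl)
  have h1 := val_eq_iff_iner hc (place_natCast hpl) (IntermediateField.restrict h)
  constructor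
  · intro h2 σ hσ x hx
    refine h1.mp ?_ σ hσ x ((hmem x).mpr hx)
    intro b hb hb0
    obtain ⟨a, ha⟩ := h2 (b : Kb) ((hmem b).mp hb) (fun h0 => hb0 (Subtype.ext h0))
    exact ⟨a, ha⟩
  · intro h2 b hb hb0
    obtain ⟨a, ha⟩ := h1.mpr (fun σ hσ x hx => h2 σ hσ x ((hmem x).mp hx)) ⟨b, h hb⟩
      ((hmem _).mpr hb) (fun h0 => hb0 (congrArg (fun z : N => (z : Kb)) h0))
    exact ⟨a, ha⟩

theorem unrAt_sup {L₁ L₂ : IntermediateField K Kb} [FiniteDimensional K L₁]
    [FiniteDimensional K L₂] {v : Valuation Kb ℝ≥0} (hv : IsPlace k v)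
    (h₁ : UnrAt K v (L₁ : Set Kb)) (h₂ : UnrAt K v (L₂ : Set Kb)) :
    UnrAt K v ((L₁ ⊔ L₂ : IntermediateField K Kb) : Set Kb) := by
  have : FiniteDimensional K (L₁ ⊔ L₂ : IntermediateField K Kb) :=
    IntermediateField.finiteDimensional_sup L₁ L₂
  obtain ⟨N, hLN, hN1, hN2⟩ := exists_galois k (L₁ ⊔ L₂)
  have hL1 : L₁ ≤ N := le_sup_left.trans hLN
  have hL2 : L₂ ≤ N := le_sup_right.trans hLN
  have e1 := (unrAt_iff hL1 hv).mp h₁
  have e2 := (unrAt_iff hL2 hv).mp h₂
  refine (unrAt_iff hLN hv).mpr fun σ hσ x hx => ?_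
  rw [sup_eq_iSup] at hx
  refine fix_iSup σ _ ?_ ?_ hx
  · intro b
    cases b
    · exact hL2
    · exact hL1
  · intro b y hy
    cases b
    · exact e2 σ hσ y hy
    · exact e1 σ hσ y hy

/-- extension of a place of a subfield to the algebraic closure -/
theorem exists_place_ext {L : IntermediateField K Kb} (w : Valuation L ℝ≥0) (hw : IsPlace k w) :
    ∃ v : Valuation Kb ℝ≥0, v.comap (algebraMap L Kb) = w ∧ IsPlace k v := by
  have hnt : ∃ a : L, 1 < w a := by
    obtain ⟨a, h0, h1⟩ := hw.2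
    rcases lt_or_gt_of_ne h1 with h | h
    · refine ⟨a⁻¹, ?_⟩
      rw [map_inv₀]
      exact (one_lt_inv₀ (pos_of_ne_zero h0)).mpr h
    · exact ⟨a, h⟩
  have : Algebra.IsAlgebraic L Kb := Algebra.IsAlgebraic.tower_top (K := K) L
  have : IsScalarTower k L Kb := tower_kLb L
  obtain ⟨j, hj⟩ := A2a_275.exists_j (Ω := Kb) w
  have h := A2a_275.Wof_comap w hnt j hj
  exact ⟨_, h, isPlace_of_comap (F := L) (by rw [h]; exact hw)⟩

theorem unr_of_unrAt {L : IntermediateField K Kb} [FiniteDimensional K L]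
    (h : ∀ v : Valuation Kb ℝ≥0, IsPlace k v → UnrAt K v (L : Set Kb)) :
    IsUnramifiedEverywhere k K L := by
  refine ⟨inferInstance, fun w hw b hb => ?_⟩
  obtain ⟨v, hv, hpl⟩ := exists_place_ext w hw
  obtain ⟨a, ha⟩ := h v hpl b b.2 (fun h0 => hb (Subtype.ext h0))
  refine ⟨a, ?_⟩
  rw [← hv]
  exact ha

theorem unrAt_of_unr {L : IntermediateField K Kb} (h : IsUnramifiedEverywhere k K L)
    (v : Valuation Kb ℝ≥0) (hv : IsPlace k v) : UnrAt K v (L : Set Kb) := by
  have : Algebra.IsAlgebraic L Kb := Algebra.IsAlgebraic.tower_top (K := K) L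
  have : IsScalarTower k L Kb := tower_kLb L
  intro b hb h0
  obtain ⟨a, ha⟩ := h.2 (v.comap (algebraMap L Kb)) (isPlace_comap (F := L) hv) ⟨b, hb⟩
    (fun h => h0 (congrArg (fun z : L => (z : Kb)) h))
  exact ⟨a, ha⟩

end Sup

end Crest.Agent.R013.Cof1_669
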