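import Mathlib
import Crest.Agent.R013.Cof1_669
import Crest.Agent.R013.MaxUnr_97

/-!
# Row 13, B-CUTOFF, part 2: geometric places of `AlgebraicClosure K`
-/

set_option autoImplicit false
set_option linter.unusedSectionVars false

namespace Crest.Agent.R013.Cof2_669

open scoped NNReal Topology
open Filter Polynomial Crest.NumberTheoryR.Sect
open Crest.Agent.R013.SE_669 Crest.Agent.R013.Unr3_957 Crest.Agent.R013.Unr4_957
  Crest.Agent.R013.Cof1_669

variable {k : Type*} [Field k] {K : Type*} [Field K] [Algebra k K]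

local notation "Kb" => AlgebraicClosure K

/-- the constants `k̄` inside `AlgebraicClosure K` -/
noncomputable abbrev kb (k : Type*) [Field k] (K : Type*) [Field K] [Algebra k K] :
    IntermediateField k (AlgebraicClosure K) := algebraicClosure k (AlgebraicClosure K)

theorem mem_kb {c : Kb} : c ∈ kb k K ↔ IsIntegral k c := by
  rw [mem_algebraicClosure_iff, isAlgebraic_iff_isIntegral]

theorem val_const {v : Valuation Kb ℝ≥0} (hv : IsPlace k v) {c : Kb} (hc : c ∈ kb k K)
    (h0 : c ≠ 0) : v c = 1 :=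
  Places_97.val_eq_one_of_isAlgebraic v hv.1 h0 (mem_kb.mp hc)

theorem val_const_le {v : Valuation Kb ℝ≥0} (hv : IsPlace k v) {c : Kb} (hc : c ∈ kb k K) :
    v c ≤ 1 := by
  by_cases h0 : c = 0
  · rw [h0, map_zero]; exact zero_le_one
  · exact (val_const hv hc h0).le

/-- the geometric function field `K k̄` -/
noncomputable def Kgeo (k : Type*) [Field k] (K : Type*) [Field K] [Algebra k K] :
    IntermediateField K (AlgebraicClosure K) :=
  IntermediateField.adjoin K (kb k K : Set (AlgebraicClosure K))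

theorem kb_le_Kgeo {c : Kb} (hc : c ∈ kb k K) : c ∈ Kgeo k K :=
  IntermediateField.subset_adjoin K _ hc

/-- two valuations define the same geometric place -/
def SameGeo (k : Type*) [Field k] {K : Type*} [Field K] [Algebra k K]
    (v v' : Valuation (AlgebraicClosure K) ℝ≥0) : Prop :=
  ∀ f ∈ Kgeo k K, v f ≤ 1 ↔ v' f ≤ 1

section poly

/-- polynomials at an element of value `≤ 1` -/
theorem val_aeval_le {v : Valuation Kb ℝ≥0} (hv : IsPlace k v) {f : Kb} (hf : v f ≤ 1)
    (q : (kb k K)[X]) : v (aeval f q) ≤ 1 := by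
  rw [aeval_eq_sum_range]
  refine v.map_sum_le fun i _ => ?_
  rw [Algebra.smul_def, map_mul, map_pow]
  exact mul_le_one₀ (val_const_le hv (q.coeff i).2) zero_le (pow_le_one₀ zero_le hf)

theorem val_aeval_of_coeff {v : Valuation Kb ℝ≥0} (hv : IsPlace k v) {f : Kb} (hf : v f < 1)
    (q : (kb k K)[X]) (hq : q.coeff 0 ≠ 0) : v (aeval f q) = 1 := by
  have h1 : aeval f q = aeval f q.divX * f + algebraMap (kb k K) Kb (q.coeff 0) := by
    conv_lhs => rw [← q.divX_mul_X_add]
    rw [map_add, map_mul, aeval_X, aeval_C]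
  have h2 : v (aeval f q.divX * f) < 1 := by
    rw [map_mul]
    exact mul_lt_one_of_nonneg_of_lt_one_right (val_aeval_le hv hf.le _) zero_le hf
  have h3 : v (algebraMap (kb k K) Kb (q.coeff 0)) = 1 :=
    val_const hv (q.coeff 0).2 (fun h => hq (Subtype.ext h))
  rw [h1, Valuation.map_add_eq_of_lt_right v (by rw [h3]; exact h2), h3]

theorem val_aeval {v : Valuation Kb ℝ≥0} (hv : IsPlace k v) {f : Kb} (hf : v f < 1)
    (q : (kb k K)[X]) (hq : q ≠ 0) : v (aeval f q) = v f ^ q.rootMultiplicity 0 := by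
  obtain ⟨g, hg, hg2⟩ := exists_eq_pow_rootMultiplicity_mul_and_not_dvd q hq 0
  rw [map_zero, sub_zero] at hg hg2
  have h1 : v (aeval f g) = 1 := by
    refine val_aeval_of_coeff hv hf g ?_
    rwa [X_dvd_iff] at hg2
  conv_lhs => rw [hg]
  rw [map_mul, map_pow, aeval_X, map_mul, map_pow, h1, mul_one]

theorem transc_of_lt {v : Valuation Kb ℝ≥0} (hv : IsPlace k v) {f : Kb} (hf : v f < 1)
    (hf0 : f ≠ 0) {q : (kb k K)[X]} (hq : q ≠ 0) : aeval f q ≠ 0 := by
  intro h
  have h1 := val_aeval hv hf q hq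
  rw [h, map_zero] at h1
  have : v f ≠ 0 := (Valuation.ne_zero_iff v).mpr hf0
  exact (pow_ne_zero _ this) h1.symm

end poly

instance isAlgClosed_kb : IsAlgClosed (kb k K) := (algebraicClosure.isAlgClosure k Kb).isAlgClosed

/-- value of a polynomial as a product over its roots -/
theorem val_aeval_roots {v : Valuation Kb ℝ≥0} (hv : IsPlace k v) (g : Kb) {q : (kb k K)[X]}
    (hq : q ≠ 0) : v (aeval g q) = (q.roots.map fun c : kb k K => v (g - (c : Kb))).prod := by
  have h1 := (IsAlgClosed.splits q).eq_prod_roots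
  have h2 : aeval g q = algebraMap (kb k K) Kb q.leadingCoeff *
      (q.roots.map fun c : kb k K => g - (c : Kb)).prod := by
    conv_lhs => rw [h1]
    rw [map_mul, aeval_C, map_multiset_prod, Multiset.map_map]
    congr 2
    refine Multiset.map_congr rfl fun c _ => ?_
    simp [IntermediateField.algebraMap_apply]
  have h3 : v (algebraMap (kb k K) Kb q.leadingCoeff) = 1 :=
    val_const hv (q.leadingCoeff).2 (fun h => hq (leadingCoeff_eq_zero.mp (Subtype.ext h)))
  rw [h2, map_mul, h3, one_mul, map_multiset_prod, Multiset.map_map]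
  rfl

theorem exists_root_lt {v : Valuation Kb ℝ≥0} (hv : IsPlace k v) {g : Kb} (hg : v g ≤ 1)
    {q : (kb k K)[X]} (hq : q ≠ 0) (h : v (aeval g q) < 1) :
    ∃ c ∈ kb k K, v (g - c) < 1 := by
  by_contra hcon
  push Not at hcon
  rw [val_aeval_roots hv g hq] at h
  have h1 : ∀ c : kb k K, v (g - (c : Kb)) = 1 := by
    intro c
    refine le_antisymm ?_ (hcon c c.2)
    refine (v.map_sub _ _).trans (max_le hg (val_const_le hv c.2))
  have h2 : (q.roots.map fun c : kb k K => v (g - (c : Kb))).prod = 1 := by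
    refine Multiset.prod_eq_one fun x hx => ?_
    obtain ⟨c, _, rfl⟩ := Multiset.mem_map.mp hx
    exact h1 c
  rw [h2] at h
  exact lt_irrefl _ h

section ff

variable [CharZero k] [Algebra (RatFunc k) K] [IsScalarTower k (RatFunc k) K]
  [FiniteDimensional (RatFunc k) K]

/-- the transcendental generator -/
noncomputable def tt (k : Type*) [Field k] (K : Type*) [Field K] [Algebra (RatFunc k) K] :
    AlgebraicClosure K :=
  algebraMap K (AlgebraicClosure K) (algebraMap (RatFunc k) K RatFunc.X)

theorem tower_RKb : IsScalarTower k (RatFunc k) Kb := by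
  refine IsScalarTower.of_algebraMap_eq fun x => ?_
  change algebraMap K Kb (algebraMap k K x) =
    algebraMap K Kb (algebraMap (RatFunc k) K (algebraMap k (RatFunc k) x))
  rw [← IsScalarTower.algebraMap_apply k (RatFunc k) K]

theorem alg_RKb : Algebra.IsAlgebraic (RatFunc k) Kb :=
  Algebra.IsAlgebraic.trans (RatFunc k) K Kb

theorem algebraMap_poly (q : k[X]) :
    algebraMap (RatFunc k) Kb (algebraMap k[X] (RatFunc k) q) = aeval (tt k K) q := by
  have := tower_RKb (k := k) (K := K)
  have h : (aeval (tt k K) : k[X] →ₐ[k] Kb) =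
      (IsScalarTower.toAlgHom k (RatFunc k) Kb).comp (IsScalarTower.toAlgHom k k[X] (RatFunc k)) := by
    refine algHom_ext ?_
    rw [aeval_X]
    simp only [AlgHom.comp_apply, IsScalarTower.coe_toAlgHom', RatFunc.algebraMap_X]
    rfl
  rw [h]
  rfl

theorem aeval_map_kb (g : Kb) (q : k[X]) :
    aeval g (q.map (algebraMap k (kb k K))) = aeval g q := by
  rw [aeval_map_algebraMap]

/-- a parameter at a place -/
theorem exists_param {v : Valuation Kb ℝ≥0} (hv : IsPlace k v) :
    1 < v (tt k K) ∨ ∃ c ∈ kb k K, v (tt k K - c) < 1 := by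
  rw [or_iff_not_imp_left, not_lt]
  intro ht
  have := tower_RKb (k := k) (K := K)
  have := alg_RKb (k := k) (K := K)
  have hpl : IsPlace k (v.comap (algebraMap (RatFunc k) Kb)) := Unr3_957.isPlace_comap hv
  obtain ⟨a, ha0, ha1⟩ := hpl.2
  by_contra hcon
  have hpoly : ∀ q : k[X], q ≠ 0 → v (aeval (tt k K) q) = 1 := by
    intro q hq
    have hq' : q.map (algebraMap k (kb k K)) ≠ 0 :=
      (Polynomial.map_ne_zero_iff (algebraMap k (kb k K)).injective).mpr hq
    rw [← aeval_map_kb]
    refine le_antisymm (val_aeval_le hv ht _) ?_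
    by_contra h
    exact hcon (exists_root_lt hv ht hq' (not_le.mp h))
  have ha : a ≠ 0 := by rintro rfl; exact ha0 (map_zero _)
  apply ha1
  rw [Valuation.comap_apply, ← RatFunc.num_div_denom a, map_div₀, map_div₀, algebraMap_poly,
    algebraMap_poly, hpoly _ (RatFunc.num_ne_zero ha), hpoly _ a.denom_ne_zero, div_one]

/-- `f` is a parameter of `k̄(t)` at a point of the projective line -/
def IsPar (f : Kb) : Prop := f = (tt k K)⁻¹ ∨ ∃ c ∈ kb k K, f = tt k K - c

end ff

end Crest.Agent.R013.Cof2_669
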