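import Mathlib
import Crest.Agent.R013.Cof2_669

/-!
# Row 13, B-CUTOFF, part 3: geometric places over a point of the projective line, residues,
rational descent
-/

set_option autoImplicit false
set_option linter.unusedSectionVars false

namespace Crest.Agent.R013.Cof3_669

open scoped NNReal Topology
open Filter Polynomial Crest.NumberTheoryR.Sect
open Crest.Agent.R013.SE_669 Crest.Agent.R013.Unr3_957 Crest.Agent.R013.Unr4_957
  Crest.Agent.R013.Cof1_669 Crest.Agent.R013.Cof2_669

variable {k : Type*} [Field k] {K : Type*} [Field K] [Algebra k K]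

local notation "Kb" => AlgebraicClosure K

/-- `k̄(f)` -/
noncomputable abbrev F0 (k : Type*) [Field k] {K : Type*} [Field K] [Algebra k K]
    (f : AlgebraicClosure K) : IntermediateField (kb k K) (AlgebraicClosure K) :=
  IntermediateField.adjoin (kb k K) {f}

section resid

/-- the elements of `k̄(f)`, `v f < 1`: either of value `< 1`, or congruent to a constant -/
theorem res_F0 {v : Valuation Kb ℝ≥0} (hv : IsPlace k v) {f : Kb} (hf : v f < 1) (hf0 : f ≠ 0)
    {a : Kb} (ha : a ∈ F0 k f) (ha1 : v a ≤ 1) : ∃ c ∈ kb k K, v (a - c) < 1 := by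
  obtain ⟨p, q, rfl⟩ := (IntermediateField.mem_adjoin_simple_iff _ _).mp ha
  by_cases hp : p = 0
  · exact ⟨0, zero_mem _, by simp [hp]⟩
  by_cases hq : q = 0
  · exact ⟨0, zero_mem _, by simp [hq]⟩
  obtain ⟨p1, hp1, hp2⟩ := exists_eq_pow_rootMultiplicity_mul_and_not_dvd p hp 0
  obtain ⟨q1, hq1, hq2⟩ := exists_eq_pow_rootMultiplicity_mul_and_not_dvd q hq 0
  rw [map_zero, sub_zero] at hp1 hp2 hq1 hq2
  rw [X_dvd_iff] at hp2 hq2
  have hvp := val_aeval hv hf p hp
  have hvq := val_aeval hv hf q hq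
  have hf1 : 0 < v f := (Valuation.pos_iff v).mpr hf0
  have hle : q.rootMultiplicity 0 ≤ p.rootMultiplicity 0 := by
    by_contra hlt
    push Not at hlt
    have h1 : v f ^ (q.rootMultiplicity 0) < v f ^ (p.rootMultiplicity 0) :=
      pow_lt_pow_right_of_lt_one₀ hf1 hf hlt
    have h2 : v (aeval f p / aeval f q) = v f ^ (p.rootMultiplicity 0) /
        v f ^ (q.rootMultiplicity 0) := by rw [map_div₀, hvp, hvq]
    rw [h2, div_le_one (by positivity)] at ha1
    exact absurd ha1 (not_le.mpr h1)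
  rcases hle.lt_or_eq with hlt | heq
  · refine ⟨0, zero_mem _, ?_⟩
    rw [sub_zero, map_div₀, hvp, hvq, div_lt_one (by positivity)]
    exact pow_lt_pow_right_of_lt_one₀ hf1 hf hlt
  · set n := p.rootMultiplicity 0 with hn
    have hq1n : q = X ^ n * q1 := by rw [hq1, heq]
    have e1 : aeval f p / aeval f q = aeval f p1 / aeval f q1 := by
      rw [hp1, hq1n, map_mul, map_mul, map_pow, aeval_X, mul_div_mul_left]
      exact pow_ne_zero _ hf0
    have hvq1 : v (aeval f q1) = 1 := val_aeval_of_coeff hv hf q1 hq2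
    have hq1ne : aeval f q1 ≠ 0 := by
      intro h
      rw [h, map_zero] at hvq1
      exact zero_ne_one hvq1
    have hc0 : (q1.coeff 0 : Kb) ≠ 0 := fun h => hq2 (Subtype.ext h)
    refine ⟨(p1.coeff 0 : Kb) / (q1.coeff 0 : Kb), div_mem (p1.coeff 0).2 (q1.coeff 0).2, ?_⟩
    have e2 : aeval f p / aeval f q - (p1.coeff 0 : Kb) / (q1.coeff 0 : Kb) =
        aeval f (C (q1.coeff 0) * p1 - C (p1.coeff 0) * q1) / (aeval f q1 * (q1.coeff 0 : Kb)) := by
      rw [e1, map_sub, map_mul, map_mul, aeval_C, aeval_C]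
      have : ∀ z : kb k K, algebraMap (kb k K) Kb z = (z : Kb) := fun _ => rfl
      rw [this, this]
      field_simp
    have hr : (C (q1.coeff 0) * p1 - C (p1.coeff 0) * q1).coeff 0 = 0 := by
      simp [mul_comm]
    have h3 : v (aeval f (C (q1.coeff 0) * p1 - C (p1.coeff 0) * q1)) < 1 := by
      set r := C (q1.coeff 0) * p1 - C (p1.coeff 0) * q1
      have h1 : aeval f r = aeval f r.divX * f := by
        conv_lhs => rw [← r.divX_mul_X_add, hr]
        rw [map_add, map_mul, aeval_X, aeval_C, map_zero, add_zero]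
      rw [h1, map_mul]
      exact mul_lt_one_of_nonneg_of_lt_one_right (val_aeval_le hv hf.le _) zero_le hf
    rw [e2, map_div₀, map_mul, hvq1, val_const hv (q1.coeff 0).2 hc0, mul_one, div_one]
    exact h3

/-- all places with `v f < 1` agree on `k̄(f)` -/
theorem equiv_F0 {v v' : Valuation Kb ℝ≥0} (hv : IsPlace k v) (hv' : IsPlace k v') {f : Kb}
    (hf : v f < 1) (hf' : v' f < 1) (hf0 : f ≠ 0) {a : Kb} (ha : a ∈ F0 k f) :
    v a ≤ 1 ↔ v' a ≤ 1 := by
  have key : ∀ {v : Valuation Kb ℝ≥0}, IsPlace k v → v f < 1 → ∀ p q : (kb k K)[X], p ≠ 0 → q ≠ 0 →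
      (v (aeval f p / aeval f q) ≤ 1 ↔ q.rootMultiplicity 0 ≤ p.rootMultiplicity 0) := by
    intro v hv hf p q hp hq
    have hf1 : 0 < v f := (Valuation.pos_iff v).mpr hf0
    rw [map_div₀, val_aeval hv hf p hp, val_aeval hv hf q hq, div_le_one (by positivity)]
    exact pow_le_pow_iff_right_of_lt_one₀ hf1 hf
  obtain ⟨p, q, rfl⟩ := (IntermediateField.mem_adjoin_simple_iff _ _).mp ha
  by_cases hp : p = 0
  · simp [hp]
  by_cases hq : q = 0
  · simp [hq]
  rw [key hv hf p q hp hq, key hv' hf' p q hp hq]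

end resid

section ff

variable [CharZero k] [Algebra (RatFunc k) K] [IsScalarTower k (RatFunc k) K]
  [FiniteDimensional (RatFunc k) K]

theorem tt_mem_F0 {f : Kb} (hf : IsPar (k := k) (K := K) f) : tt k K ∈ F0 k f := by
  have h1 : f ∈ F0 k f := IntermediateField.mem_adjoin_simple_self _ f
  rcases hf with rfl | ⟨c, hc, rfl⟩
  · have := inv_mem h1
    rwa [inv_inv] at this
  · have h2 : c ∈ F0 k (tt k K - c) := (F0 k (tt k K - c)).algebraMap_mem ⟨c, hc⟩
    have := add_mem h1 h2
    rwa [sub_add_cancel] at this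

theorem range_le_F0 {f : Kb} (hf : IsPar (k := k) (K := K) f) (a : RatFunc k) :
    algebraMap (RatFunc k) Kb a ∈ F0 k f := by
  have hp : ∀ q : k[X], aeval (tt k K) q ∈ F0 k f := by
    intro q
    rw [← aeval_map_kb, aeval_eq_sum_range]
    refine sum_mem fun i _ => ?_
    rw [Algebra.smul_def]
    exact mul_mem ((F0 k f).algebraMap_mem _) (pow_mem (tt_mem_F0 hf) i)
  rw [← RatFunc.num_div_denom a, map_div₀, algebraMap_poly, algebraMap_poly]
  exact div_mem (hp _) (hp _)

theorem alg_F0 {f : Kb} (hf : IsPar (k := k) (K := K) f) : Algebra.IsAlgebraic (F0 k f) Kb := by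
  let φ : RatFunc k →+* F0 k f :=
    (algebraMap (RatFunc k) Kb).codRestrict (F0 k f).toSubfield (range_le_F0 hf)
  let : Algebra (RatFunc k) (F0 k f) := φ.toAlgebra
  have : IsScalarTower (RatFunc k) (F0 k f) Kb := IsScalarTower.of_algebraMap_eq (fun x => rfl)
  have := alg_RKb (k := k) (K := K)
  exact Algebra.IsAlgebraic.tower_top (K := RatFunc k) (F0 k f)

theorem galois_F0 {f : Kb} (hf : IsPar (k := k) (K := K) f) : IsGalois (F0 k f) Kb := by
  have := alg_F0 hf
  have := charZero_K k K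
  have : CharZero (F0 k f) := charZero_of_injective_algebraMap (algebraMap (kb k K) (F0 k f)).injective
  have : IsAlgClosure (F0 k f) Kb := ⟨inferInstance, inferInstance⟩
  have : Normal (F0 k f) Kb := inferInstance
  exact IsGalois.mk

/-- a parameter at every place -/
theorem exists_par {v : Valuation Kb ℝ≥0} (hv : IsPlace k v) :
    ∃ f : Kb, IsPar (k := k) (K := K) f ∧ v f < 1 ∧ f ≠ 0 := by
  have htr : ∀ c ∈ kb k K, tt k K ≠ c := by
    intro c hc h
    have h1 : IsAlgebraic k (tt k K) := by rw [h]; exact mem_algebraicClosure_iff.mp hc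
    have := tower_RKb (k := k) (K := K)
    have h2 : IsAlgebraic k (algebraMap (RatFunc k) Kb RatFunc.X) := h1
    rw [isAlgebraic_algebraMap_iff (algebraMap (RatFunc k) Kb).injective] at h2
    exact RatFunc.transcendental_X h2
  rcases exists_param (k := k) (K := K) hv with h | ⟨c, hc, h⟩
  · refine ⟨(tt k K)⁻¹, Or.inl rfl, ?_, ?_⟩
    · rw [map_inv₀]
      exact inv_lt_one_of_one_lt₀ h
    · exact inv_ne_zero (htr 0 (zero_mem _))
  · exact ⟨tt k K - c, Or.inr ⟨c, hc, rfl⟩, h, sub_ne_zero.mpr (htr c hc)⟩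

/-- **Residues are constants**. -/
theorem exists_const_near {v : Valuation Kb ℝ≥0} (hv : IsPlace k v) {g : Kb} (hg : v g ≤ 1) :
    ∃ c ∈ kb k K, v (g - c) < 1 := by
  obtain ⟨f, hfp, hf, hf0⟩ := exists_par (k := k) (K := K) hv
  have := alg_F0 hfp
  obtain ⟨P, hP0, hPg⟩ := Algebra.IsAlgebraic.isAlgebraic (R := F0 k f) g
  obtain ⟨i0, hi0, hmax⟩ := P.support.exists_max_image (fun i => v (P.coeff i : Kb))
    (by rwa [nonempty_support_iff])
  have hne : P.coeff i0 ≠ 0 := mem_support_iff.mp hi0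
  have hne' : (P.coeff i0 : Kb) ≠ 0 := fun h => hne (Subtype.ext h)
  have hv0 : 0 < v (P.coeff i0 : Kb) := (Valuation.pos_iff v).mpr hne'
  set a : ℕ → F0 k f := fun i => P.coeff i / P.coeff i0 with ha
  have ha1 : ∀ i, v (a i : Kb) ≤ 1 := by
    intro i
    have : (a i : Kb) = (P.coeff i : Kb) / (P.coeff i0 : Kb) := rfl
    rw [this, map_div₀, div_le_one hv0]
    by_cases hi : i ∈ P.support
    · exact hmax i hi
    · rw [notMem_support_iff] at hi
      rw [hi]
      simp
  have hsum : ∑ i ∈ Finset.range (P.natDegree + 1), (a i : Kb) * g ^ i = 0 := by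
    have h1 : aeval g P = ∑ i ∈ Finset.range (P.natDegree + 1), (P.coeff i : Kb) * g ^ i := by
      rw [aeval_eq_sum_range]
      rfl
    have h2 : ∑ i ∈ Finset.range (P.natDegree + 1), (a i : Kb) * g ^ i =
        (∑ i ∈ Finset.range (P.natDegree + 1), (P.coeff i : Kb) * g ^ i) / (P.coeff i0 : Kb) := by
      rw [Finset.sum_div]
      refine Finset.sum_congr rfl fun i _ => ?_
      have : (a i : Kb) = (P.coeff i : Kb) / (P.coeff i0 : Kb) := rfl
      rw [this]
      ring
    rw [h2, ← h1, hPg, zero_div]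
  have hres : ∀ i, ∃ c ∈ kb k K, v ((a i : Kb) - c) < 1 := fun i =>
    res_F0 hv hf hf0 (a i).2 (ha1 i)
  choose c hc hc1 using hres
  let q : (kb k K)[X] := ∑ i ∈ Finset.range (P.natDegree + 1), C (⟨c i, hc i⟩ : kb k K) * X ^ i
  have hqc : ∀ i ∈ Finset.range (P.natDegree + 1), q.coeff i = ⟨c i, hc i⟩ := by
    intro i hi
    simp only [q, finsetSum_coeff, coeff_C_mul, coeff_X_pow, mul_ite, mul_one, mul_zero]
    rw [Finset.sum_ite_eq]
    simp [hi]
  have hi0' : i0 ∈ Finset.range (P.natDegree + 1) := by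
    rw [Finset.mem_range]
    exact Nat.lt_succ_of_le (le_natDegree_of_mem_supp i0 hi0)
  have hq0 : q ≠ 0 := by
    intro h
    have h1 := hqc i0 hi0'
    rw [h, coeff_zero] at h1
    have h2 : c i0 = 0 := (congrArg (fun z : kb k K => (z : Kb)) h1).symm
    have h3 := hc1 i0
    have h4 : (a i0 : Kb) = 1 := by
      have : (a i0 : Kb) = (P.coeff i0 : Kb) / (P.coeff i0 : Kb) := rfl
      rw [this, div_self hne']
    rw [h2, h4, sub_zero, map_one] at h3
    exact lt_irrefl _ h3
  have hqv : v (aeval g q) < 1 := by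
    have h1 : aeval g q = ∑ i ∈ Finset.range (P.natDegree + 1), c i * g ^ i := by
      simp only [q, map_sum, map_mul, aeval_C, map_pow, aeval_X]
      rfl
    have h2 : aeval g q = - ∑ i ∈ Finset.range (P.natDegree + 1), ((a i : Kb) - c i) * g ^ i := by
      rw [h1]
      have : ∑ i ∈ Finset.range (P.natDegree + 1), ((a i : Kb) - c i) * g ^ i =
          ∑ i ∈ Finset.range (P.natDegree + 1), (a i : Kb) * g ^ i -
            ∑ i ∈ Finset.range (P.natDegree + 1), c i * g ^ i := by
        rw [← Finset.sum_sub_distrib]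
        exact Finset.sum_congr rfl fun i _ => by ring
      rw [this, hsum]
      ring
    rw [h2, Valuation.map_neg]
    refine v.map_sum_lt one_ne_zero fun i _ => ?_
    rw [map_mul, map_pow]
    exact mul_lt_one_of_nonneg_of_lt_one_left zero_le (hc1 i) (pow_le_one₀ zero_le hg)
  exact exists_root_lt hv hg hq0 hqv

end ff

end Crest.Agent.R013.Cof3_669
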