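import Mathlib
import Crest.Agent.R013.Cof3_669
import Crest.Agent.R013.Unr11_957

/-!
# Row 13, B-CUTOFF, part 4: finiteness of geometric places over a point, branch places, constants,
rational descent
-/

set_option autoImplicit false
set_option linter.unusedSectionVars false

namespace Crest.Agent.R013.Cof4_669

open scoped NNReal Topology
open Filter Polynomial Crest.NumberTheoryR.Sect
open Crest.Agent.R013.SE_669 Crest.Agent.R013.Unr3_957 Crest.Agent.R013.Unr4_957
  Crest.Agent.R013.Cof1_669 Crest.Agent.R013.Cof2_669 Crest.Agent.R013.Cof3_669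

variable {k : Type*} [Field k] {K : Type*} [Field K] [Algebra k K]

local notation "Kb" => AlgebraicClosure K

theorem SameGeo.symm {v v' : Valuation Kb ℝ≥0} (h : SameGeo k v v') : SameGeo k v' v :=
  fun f hf => (h f hf).symm

theorem SameGeo.trans {v v' v'' : Valuation Kb ℝ≥0} (h : SameGeo k v v')
    (h' : SameGeo k v' v'') : SameGeo k v v'' :=
  fun f hf => (h f hf).trans (h' f hf)

theorem SameGeo.lt_one {v v' : Valuation Kb ℝ≥0} (h : SameGeo k v v') {f : Kb}
    (hf : f ∈ Kgeo k K) (hlt : v f < 1) : v' f < 1 := by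
  by_cases h0 : f = 0
  · rw [h0, map_zero]; exact zero_lt_one
  by_contra hcon
  push Not at hcon
  have h1 : v' f⁻¹ ≤ 1 := by
    rw [map_inv₀]
    exact inv_le_one_of_one_le₀ hcon
  have h2 : v f⁻¹ ≤ 1 := (h _ (inv_mem hf)).mpr h1
  rw [map_inv₀] at h2
  have hpos : 0 < v f := (Valuation.pos_iff v).mpr h0
  have h3 : 1 < (v f)⁻¹ := (one_lt_inv₀ hpos).mpr hlt
  exact absurd h2 (not_le.mpr h3)

section ff

variable [CharZero k] [Algebra (RatFunc k) K] [IsScalarTower k (RatFunc k) K]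
  [FiniteDimensional (RatFunc k) K]

/-- finitely many geometric places over a point of the projective line -/
theorem finite_over {f : Kb} (hfp : IsPar (k := k) (K := K) f) (hf0 : f ≠ 0) :
    ∃ Ps : List (Valuation Kb ℝ≥0), (∀ P ∈ Ps, IsPlace k P) ∧
      ∀ v : Valuation Kb ℝ≥0, IsPlace k v → v f < 1 → ∃ P ∈ Ps, SameGeo k P v := by
  classical
  by_cases hex : ∃ v₀ : Valuation Kb ℝ≥0, IsPlace k v₀ ∧ v₀ f < 1
  swap
  · refine ⟨[], by simp, fun v hv hvf => absurd ⟨v, hv, hvf⟩ hex⟩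
  obtain ⟨v₀, hv₀, hv₀f⟩ := hex
  have := galois_F0 hfp
  let S := {v : Valuation Kb ℝ≥0 // IsPlace k v ∧ v f < 1}
  have hσ : ∀ v : S, ∃ σ : Kb ≃ₐ[F0 k f] Kb, ∀ x, v₀ (σ x) ≤ 1 ↔ v.1 x ≤ 1 := fun v =>
    Hens_899.exists_conj v₀ v.1 (fun a => equiv_F0 hv₀ v.2.1 hv₀f v.2.2 hf0 a.2)
  choose σ hσ using hσ
  -- restriction to `K` over `RatFunc k`
  let Φ : S → (K →ₐ[RatFunc k] Kb) := fun v =>
    { (σ v : Kb →+* Kb).comp (algebraMap K Kb) with
      commutes' := fun a => by
        change σ v (algebraMap K Kb (algebraMap (RatFunc k) K a)) = algebraMap (RatFunc k) Kb a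
        exact (σ v).commutes ⟨algebraMap (RatFunc k) Kb a, range_le_F0 hfp a⟩ }
  have hfin : Finite (K →ₐ[RatFunc k] Kb) := inferInstance
  have hfinR : (Set.range Φ).Finite := Set.toFinite _
  let sec : (K →ₐ[RatFunc k] Kb) → Valuation Kb ℝ≥0 := fun ρ =>
    if h : ∃ v : S, Φ v = ρ then (Classical.choose h).1 else v₀
  refine ⟨hfinR.toFinset.toList.map sec, ?_, ?_⟩
  · intro P hP
    obtain ⟨ρ, _, rfl⟩ := List.mem_map.mp hP
    simp only [sec]
    split_ifs with h
    · exact (Classical.choose h).2.1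
    · exact hv₀
  · intro v hv hvf
    let v' : S := ⟨v, hv, hvf⟩
    have hex' : ∃ u : S, Φ u = Φ v' := ⟨v', rfl⟩
    refine ⟨sec (Φ v'), List.mem_map.mpr ⟨Φ v', by simp, rfl⟩, ?_⟩
    have hsec : sec (Φ v') = (Classical.choose hex').1 := by simp only [sec, dif_pos hex']
    rw [hsec]
    set u := Classical.choose hex' with hu
    have hu' : Φ u = Φ v' := Classical.choose_spec hex'
    have hag : ∀ g ∈ Kgeo k K, σ u g = σ v' g := by
      intro g hg
      unfold Kgeo at hg
      induction hg using IntermediateField.adjoin_induction with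
      | mem c hc =>
        have h1 := (σ u).commutes (algebraMap (kb k K) (F0 k f) ⟨c, hc⟩)
        have h2 := (σ v').commutes (algebraMap (kb k K) (F0 k f) ⟨c, hc⟩)
        exact h1.trans h2.symm
      | algebraMap x => exact congrArg (fun φ : K →ₐ[RatFunc k] Kb => φ x) hu'
      | add x y _ _ hx hy => rw [map_add, map_add, hx, hy]
      | inv x _ hx => rw [map_inv₀, map_inv₀, hx]
      | mul x y _ _ hx hy => rw [map_mul, map_mul, hx, hy]
    intro g hg
    rw [← hσ u g, hag g hg, hσ v' g]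

theorem exists_root_mem {v : Valuation Kb ℝ≥0} (hv : IsPlace k v) {g : Kb} (hg : v g ≤ 1)
    {q : (kb k K)[X]} (hq : q ≠ 0) (h : v (aeval g q) < 1) :
    ∃ c : kb k K, c ∈ q.roots ∧ v (g - (c : Kb)) < 1 := by
  by_contra hcon
  push Not at hcon
  rw [val_aeval_roots hv g hq] at h
  have h2 : (q.roots.map fun c : kb k K => v (g - (c : Kb))).prod = 1 := by
    refine Multiset.prod_eq_one fun x hx => ?_
    obtain ⟨c, hc, rfl⟩ := Multiset.mem_map.mp hx
    refine le_antisymm ?_ (hcon c hc)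
    exact (v.map_sub _ _).trans (max_le hg (val_const_le hv c.2))
  rw [h2] at h
  exact lt_irrefl _ h

/-- finitely many geometric places at which an element of `k(t)` has a pole -/
theorem finite_pole (x : RatFunc k) :
    ∃ Ps : List (Valuation Kb ℝ≥0), (∀ P ∈ Ps, IsPlace k P) ∧
      ∀ v : Valuation Kb ℝ≥0, IsPlace k v → 1 < v (algebraMap (RatFunc k) Kb x) →
        ∃ P ∈ Ps, SameGeo k P v := by
  classical
  have htr : ∀ c ∈ kb k K, tt k K ≠ c := by
    intro c hc h
    have h1 : IsAlgebraic k (tt k K) := by rw [h]; exact mem_algebraicClosure_iff.mp hc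
    have := tower_RKb (k := k) (K := K)
    have h2 : IsAlgebraic k (algebraMap (RatFunc k) Kb RatFunc.X) := h1
    rw [isAlgebraic_algebraMap_iff (algebraMap (RatFunc k) Kb).injective] at h2
    exact RatFunc.transcendental_X h2
  -- for every parameter a list
  have hpar : ∀ f : {f : Kb // IsPar (k := k) (K := K) f ∧ f ≠ 0},
      ∃ Ps : List (Valuation Kb ℝ≥0), (∀ P ∈ Ps, IsPlace k P) ∧
      ∀ v : Valuation Kb ℝ≥0, IsPlace k v → v f.1 < 1 → ∃ P ∈ Ps, SameGeo k P v :=
    fun f => finite_over f.2.1 f.2.2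
  choose Ls hLs1 hLs2 using hpar
  let q : (kb k K)[X] := (x.denom).map (algebraMap k (kb k K))
  have hq0 : q ≠ 0 := (Polynomial.map_ne_zero_iff (algebraMap k (kb k K)).injective).mpr
    x.denom_ne_zero
  let f₀ : {f : Kb // IsPar (k := k) (K := K) f ∧ f ≠ 0} :=
    ⟨(tt k K)⁻¹, Or.inl rfl, inv_ne_zero (htr 0 (zero_mem _))⟩
  let fc : kb k K → {f : Kb // IsPar (k := k) (K := K) f ∧ f ≠ 0} := fun c =>
    ⟨tt k K - c, Or.inr ⟨c, c.2, rfl⟩, sub_ne_zero.mpr (htr c c.2)⟩
  refine ⟨Ls f₀ ++ (q.roots.toList.map fun c => Ls (fc c)).flatten, ?_, ?_⟩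
  · intro P hP
    rw [List.mem_append] at hP
    rcases hP with hP | hP
    · exact hLs1 f₀ P hP
    · obtain ⟨l, hl, hPl⟩ := List.mem_flatten.mp hP
      obtain ⟨c, _, rfl⟩ := List.mem_map.mp hl
      exact hLs1 _ P hPl
  · intro v hv hvx
    rcases lt_or_ge 1 (v (tt k K)) with ht | ht
    · have h1 : v (tt k K)⁻¹ < 1 := by rw [map_inv₀]; exact inv_lt_one_of_one_lt₀ ht
      obtain ⟨P, hP, hPv⟩ := hLs2 f₀ v hv h1
      exact ⟨P, List.mem_append.mpr (Or.inl hP), hPv⟩
    · have h1 : v (aeval (tt k K) q) < 1 := by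
        rw [← RatFunc.num_div_denom x, map_div₀, map_div₀, algebraMap_poly, algebraMap_poly] at hvx
        rw [aeval_map_kb]
        by_contra hcon
        push Not at hcon
        have h2 : v (aeval (tt k K) x.num) ≤ 1 := by
          rw [← aeval_map_kb]; exact val_aeval_le hv ht _
        have h3 : v (aeval (tt k K) x.num) / v (aeval (tt k K) x.denom) ≤ 1 :=
          div_le_one_of_le₀ (h2.trans hcon) zero_le
        exact absurd hvx (not_lt.mpr h3)
      obtain ⟨c, hc, hvc⟩ := exists_root_mem hv ht hq0 h1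
      obtain ⟨P, hP, hPv⟩ := hLs2 (fc c) v hv hvc
      refine ⟨P, List.mem_append.mpr (Or.inr (List.mem_flatten.mpr ⟨Ls (fc c), ?_, hP⟩)), hPv⟩
      exact List.mem_map.mpr ⟨c, Multiset.mem_toList.mpr hc, rfl⟩

/-- **branch places**: finitely many geometric places -/
theorem finite_branch (L : IntermediateField K Kb) [FiniteDimensional K L] :
    ∃ Ps : List (Valuation Kb ℝ≥0), (∀ P ∈ Ps, IsPlace k P) ∧
      ∀ v v' : Valuation Kb ℝ≥0, IsPlace k v → IsPlace k v' →
        (∀ g : K, v (algebraMap K Kb g) ≤ 1 ↔ v' (algebraMap K Kb g) ≤ 1) →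
        ¬ UnrAt K v' (L : Set Kb) → ∃ P ∈ Ps, SameGeo k P v := by
  classical
  have := finite_IF (k := k) L
  have : CharZero (RatFunc k) :=
    charZero_of_injective_algebraMap (algebraMap k (RatFunc k)).injective
  obtain ⟨S, hS⟩ := Unr8_957.exists_finset_unrAt (K := RatFunc k) (L := L)
  choose Ls hLs1 hLs2 using finite_pole (k := k) (K := K)
  refine ⟨(S.toList.map Ls).flatten, ?_, ?_⟩
  · intro P hP
    obtain ⟨l, hl, hPl⟩ := List.mem_flatten.mp hP
    obtain ⟨c, _, rfl⟩ := List.mem_map.mp hl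
    exact hLs1 _ P hPl
  · intro v v' hv hv' hvv' hun
    have h1 : ∃ x ∈ S, 1 < v' (algebraMap (RatFunc k) Kb x) := by
      by_contra hcon
      push Not at hcon
      apply hun
      have := tower_RKb (k := k) (K := K)
      have := alg_RKb (k := k) (K := K)
      have hpl : IsPlace k (v'.comap (algebraMap (RatFunc k) Kb)) := Unr3_957.isPlace_comap hv'
      obtain ⟨c, hc⟩ := gen_ratFunc hpl
      have h2 := hS _ c hc (place_natCast hpl) hcon
      intro b hb h0
      obtain ⟨a, ha⟩ := h2 (v'.comap (algebraMap L Kb)) rfl ⟨b, hb⟩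
      exact ⟨algebraMap (RatFunc k) K a, ha⟩
    obtain ⟨x, hx, hx1⟩ := h1
    have h2 : 1 < v (algebraMap (RatFunc k) Kb x) := by
      by_contra hcon
      push Not at hcon
      have h3 := (hvv' (algebraMap (RatFunc k) K x)).mp hcon
      exact absurd hx1 (not_lt.mpr h3)
    obtain ⟨P, hP, hPv⟩ := hLs2 x v hv h2
    refine ⟨P, List.mem_flatten.mpr ⟨Ls x, List.mem_map.mpr ⟨x, ?_, rfl⟩, hP⟩, hPv⟩
    exact Finset.mem_toList.mpr hx

end ff

end Crest.Agent.R013.Cof4_669
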