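import Mathlib
import Crest.Agent.R013.Cof4_669

/-!
# Row 13, B-CUTOFF, part 5: constants of `K C`, rational descent of a geometric place
-/

set_option autoImplicit false
set_option linter.unusedSectionVars false

namespace Crest.Agent.R013.Cof5_669

open scoped NNReal Topology
open Filter Polynomial Crest.NumberTheoryR.Sect
open Crest.Agent.R013.SE_669 Crest.Agent.R013.Unr3_957 Crest.Agent.R013.Unr4_957
  Crest.Agent.R013.Cof1_669 Crest.Agent.R013.Cof2_669 Crest.Agent.R013.Cof3_669
  Crest.Agent.R013.Cof4_669

variable {k : Type*} [Field k] {K : Type*} [Field K] [Algebra k K]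

local notation "Kb" => AlgebraicClosure K

/-- the field `K C` -/
noncomputable def KC (K : Type*) [Field K] {k : Type*} [Field k] [Algebra k K]
    (C : IntermediateField k (AlgebraicClosure K)) : IntermediateField K (AlgebraicClosure K) :=
  IntermediateField.adjoin K (C : Set (AlgebraicClosure K))

theorem le_KC {C : IntermediateField k Kb} {c : Kb} (hc : c ∈ C) : c ∈ KC K C :=
  IntermediateField.subset_adjoin K _ hc

theorem KC_mono {C C' : IntermediateField k Kb} (h : C ≤ C') : KC K C ≤ KC K C' :=
  IntermediateField.adjoin.mono K _ _ h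

theorem le_kb (C : IntermediateField k Kb) [FiniteDimensional k C] : C ≤ kb k K := by
  intro c hc
  rw [mem_kb]
  have h1 : IsIntegral k (⟨c, hc⟩ : C) := Algebra.IsIntegral.isIntegral _
  exact (isIntegral_algebraMap_iff (algebraMap C Kb).injective).mpr h1

theorem KC_le_Kgeo (C : IntermediateField k Kb) [FiniteDimensional k C] : KC K C ≤ Kgeo k K :=
  IntermediateField.adjoin.mono K _ _ (le_kb C)

theorem finite_KC (C : IntermediateField k Kb) [FiniteDimensional k C] :
    FiniteDimensional K (KC K C) := by
  obtain ⟨S, hS⟩ := (IntermediateField.essFiniteType_iff).mp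
    (inferInstance : Algebra.EssFiniteType k C)
  have hST : ∀ x ∈ (S : Set Kb), IsIntegral K x := by
    intro x hx
    have h1 : x ∈ C := by
      rw [← hS]
      exact IntermediateField.subset_adjoin k _ hx
    exact (mem_kb.mp (le_kb C h1)).tower_top
  have h2 : KC K C = IntermediateField.adjoin K (S : Set Kb) := by
    refine le_antisymm ?_ (IntermediateField.adjoin.mono K _ _ ?_)
    · unfold KC
      rw [IntermediateField.adjoin_le_iff]
      intro c hc
      rw [← hS] at hc
      induction hc using IntermediateField.adjoin_induction with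
      | mem x hx => exact IntermediateField.subset_adjoin K _ hx
      | algebraMap x =>
        have : algebraMap k Kb x = algebraMap K Kb (algebraMap k K x) := rfl
        rw [this]
        exact (IntermediateField.adjoin K (S : Set Kb)).algebraMap_mem _
      | add x y _ _ hx hy => exact add_mem hx hy
      | inv x _ hx => exact inv_mem hx
      | mul x y _ _ hx hy => exact mul_mem hx hy
    · intro x hx
      rw [← hS]
      exact IntermediateField.subset_adjoin k _ hx
  rw [h2]
  exact IntermediateField.finiteDimensional_adjoin fun x hx => hST x hx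

section

variable [CharZero k]

theorem isGalois_Kb (k : Type*) [Field k] [CharZero k] (K : Type*) [Field K] [Algebra k K] :
    IsGalois K (AlgebraicClosure K) := by
  have := charZero_K k K
  exact IsGalois.mk

/-- **constants of `K C`** -/
theorem const_mem (hc : algebraicClosure k K = ⊥) (C : IntermediateField k Kb)
    [FiniteDimensional k C] {c : Kb} (hcK : c ∈ KC K C) (hck : c ∈ kb k K) : c ∈ C := by
  have hKc := charZero_K k K
  have : IsGalois K Kb := isGalois_Kb k K
  have hci : IsIntegral k c := mem_kb.mp hck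
  have : FiniteDimensional k (IntermediateField.adjoin k {c}) :=
    IntermediateField.adjoin.finiteDimensional hci
  set D : IntermediateField k Kb := C ⊔ IntermediateField.adjoin k {c} with hD
  have hDfd : FiniteDimensional k D := IntermediateField.finiteDimensional_sup _ _
  have hDalg : Algebra.IsAlgebraic k D := inferInstance
  set N : IntermediateField k Kb := IntermediateField.normalClosure k D Kb with hN
  have hDN : D ≤ N := D.le_normalClosure
  have hNfd : FiniteDimensional k N := normalClosure.is_finiteDimensional k D Kb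
  have hNn : Normal k N := by
    have h1 : IsNormalClosure k D N :=
      Algebra.IsAlgebraic.isNormalClosure_normalClosure fun x => IsAlgClosed.splits _
    exact h1.normal
  have hNg : IsGalois k N := IsGalois.mk
  have hCN : C ≤ N := le_sup_left.trans hDN
  have hcN : c ∈ N := hDN (le_sup_right (a := C) (IntermediateField.mem_adjoin_simple_self k c))
  let ρ : (Kb ≃ₐ[K] Kb) →* (N ≃ₐ[k] N) :=
    (AlgEquiv.restrictNormalHom N).comp (AlgEquiv.restrictScalarsHom k)
  have hρ : ∀ (σ : Kb ≃ₐ[K] Kb) (x : N), ((ρ σ x : N) : Kb) = σ x := by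
    intro σ x
    exact AlgEquiv.restrictNormal_commutes (σ.restrictScalars k) N x
  have hfix : IntermediateField.fixedField ρ.range = ⊥ := by
    rw [eq_bot_iff]
    intro x hx
    rw [IntermediateField.mem_fixedField_iff] at hx
    have h1 : ∀ σ : Kb ≃ₐ[K] Kb, σ (x : Kb) = x := by
      intro σ
      rw [← hρ]
      exact congrArg (fun z : N => (z : Kb)) (hx _ ⟨σ, rfl⟩)
    obtain ⟨y, hy⟩ := Hens_899.mem_range_of_fixed' h1
    have h2 : y ∈ algebraicClosure k K := by
      rw [mem_algebraicClosure_iff]
      have h3 : IsAlgebraic k (algebraMap K Kb y) := by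
        rw [hy]
        have : IsAlgebraic k x := Algebra.IsAlgebraic.isAlgebraic x
        exact (isAlgebraic_algebraMap_iff (algebraMap N Kb).injective).mpr this
      exact (isAlgebraic_algebraMap_iff (algebraMap K Kb).injective).mp h3
    rw [hc] at h2
    obtain ⟨z, hz⟩ := IntermediateField.mem_bot.mp h2
    refine IntermediateField.mem_bot.mpr ⟨z, ?_⟩
    apply Subtype.ext
    rw [← hy, ← hz]
    rfl
  have htop : ρ.range = ⊤ := by
    rw [← IntermediateField.fixingSubgroup_fixedField ρ.range, hfix,
      IntermediateField.fixingSubgroup_bot]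
  -- descend
  let CN : IntermediateField k N := IntermediateField.restrict hCN
  have h3 : (⟨c, hcN⟩ : N) ∈ CN := by
    rw [← IsGalois.fixedField_fixingSubgroup CN, IntermediateField.mem_fixedField_iff]
    intro τ hτ
    have hτr : τ ∈ ρ.range := by rw [htop]; exact Subgroup.mem_top τ
    obtain ⟨σ, rfl⟩ := hτr
    apply Subtype.ext
    rw [hρ]
    have h4 : ∀ z ∈ KC K C, σ z = z := by
      intro z hz
      unfold KC at hz
      induction hz using IntermediateField.adjoin_induction with
      | mem d hd =>
        have h5 := (IntermediateField.mem_fixingSubgroup_iff _ _).mp hτ ⟨d, hCN hd⟩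
          ((IntermediateField.mem_restrict hCN _).mpr hd)
        have h6 := congrArg (fun z : N => (z : Kb)) h5
        rwa [hρ] at h6
      | algebraMap x => exact σ.commutes x
      | add x y _ _ hx hy => rw [map_add, hx, hy]
      | inv x _ hx => rw [map_inv₀, hx]
      | mul x y _ _ hx hy => rw [map_mul, hx, hy]
    exact h4 c hcK
  exact (IntermediateField.mem_restrict hCN _).mp h3

end

theorem exists_C_of_mem {g : Kb} (hg : g ∈ Kgeo k K) :
    ∃ C : IntermediateField k Kb, FiniteDimensional k C ∧ g ∈ KC K C := by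
  obtain ⟨T, hT, hgT⟩ := IntermediateField.exists_finset_of_mem_adjoin hg
  refine ⟨IntermediateField.adjoin k (T : Set Kb), ?_, ?_⟩
  · exact IntermediateField.finiteDimensional_adjoin fun x hx => mem_kb.mp (hT hx)
  · exact IntermediateField.adjoin.mono K _ _ (IntermediateField.subset_adjoin k _) hgT

theorem val_aut_place {P : Valuation Kb ℝ≥0} (hP : IsPlace k P) (σ : Kb ≃ₐ[K] Kb) :
    IsPlace k (P.comap (σ : Kb →+* Kb)) := by
  refine ⟨fun c hc => ?_, ?_⟩
  · have h1 : σ (algebraMap k Kb c) = algebraMap k Kb c := σ.commutes (algebraMap k K c)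
    rw [Valuation.comap_apply]
    change P (σ (algebraMap k Kb c)) = 1
    rw [h1]
    exact hP.1 c hc
  · obtain ⟨a, h0, h1⟩ := hP.2
    refine ⟨σ.symm a, ?_, ?_⟩
    · rw [Valuation.comap_apply]
      change P (σ (σ.symm a)) ≠ 0
      rwa [AlgEquiv.apply_symm_apply]
    · rw [Valuation.comap_apply]
      change P (σ (σ.symm a)) ≠ 1
      rwa [AlgEquiv.apply_symm_apply]

section ff

variable [CharZero k] [Algebra (RatFunc k) K] [IsScalarTower k (RatFunc k) K]
  [FiniteDimensional (RatFunc k) K]

/-- **rational descent** -/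
theorem exists_rational (hc : algebraicClosure k K = ⊥) {P : Valuation Kb ℝ≥0}
    (hP : IsPlace k P) (C₀ : IntermediateField k Kb) [FiniteDimensional k C₀] :
    ∃ C : IntermediateField k Kb, C₀ ≤ C ∧ FiniteDimensional k C ∧
      (∀ g ∈ KC K C, P g ≤ 1 → ∃ c ∈ C, P (g - c) < 1) ∧
      ∀ v : Valuation Kb ℝ≥0, IsPlace k v → (∀ g ∈ KC K C, v g ≤ 1 ↔ P g ≤ 1) →
        SameGeo k v P := by
  classical
  obtain ⟨f, hfp, hPf, hf0⟩ := exists_par (k := k) (K := K) hP
  obtain ⟨Ps, hPs1, hPs2⟩ := finite_over hfp hf0
  -- `f` in some `K C`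
  have hf : ∃ C : IntermediateField k Kb, FiniteDimensional k C ∧ f ∈ KC K C := by
    refine exists_C_of_mem ?_
    rcases hfp with rfl | ⟨c, hck, rfl⟩
    · exact inv_mem ((Kgeo k K).algebraMap_mem _)
    · exact sub_mem ((Kgeo k K).algebraMap_mem _) (kb_le_Kgeo hck)
  obtain ⟨Cf, hCf, hfC⟩ := hf
  -- separation
  have hsep : ∀ l : List (Valuation Kb ℝ≥0), ∃ C : IntermediateField k Kb,
      C₀ ⊔ Cf ≤ C ∧ FiniteDimensional k C ∧ ∀ Q ∈ l, ¬ SameGeo k Q P →
        ∃ g ∈ KC K C, ¬ (Q g ≤ 1 ↔ P g ≤ 1) := by
    intro l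
    induction l with
    | nil => exact ⟨C₀ ⊔ Cf, le_rfl, IntermediateField.finiteDimensional_sup _ _, by simp⟩
    | cons Q l ih =>
      obtain ⟨C, hC1, hC2, hC3⟩ := ih
      by_cases hQ : SameGeo k Q P
      · refine ⟨C, hC1, hC2, ?_⟩
        intro Q' hQ' hn
        rcases List.mem_cons.mp hQ' with rfl | h
        · exact absurd hQ hn
        · exact hC3 Q' h hn
      · have hQ' := hQ
        unfold SameGeo at hQ'
        push Not at hQ'
        have hex : ∃ g ∈ Kgeo k K, ¬ (Q g ≤ 1 ↔ P g ≤ 1) := by
          by_contra hcon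
          push Not at hcon
          exact hQ fun g hg => by
            have := hcon g hg
            tauto
        obtain ⟨g, hg, hgn⟩ := hex
        obtain ⟨C', hC', hgC'⟩ := exists_C_of_mem hg
        refine ⟨C ⊔ C', hC1.trans le_sup_left, IntermediateField.finiteDimensional_sup _ _, ?_⟩
        intro Q' hQ' hn
        rcases List.mem_cons.mp hQ' with rfl | h
        · exact ⟨g, KC_mono le_sup_right hgC', hgn⟩
        · obtain ⟨g', hg', hgn'⟩ := hC3 Q' h hn
          exact ⟨g', KC_mono le_sup_left hg', hgn'⟩
  obtain ⟨C, hC1, hC2, hC3⟩ := hsep Ps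
  have hfC' : f ∈ KC K C := KC_mono (le_sup_right.trans hC1) hfC
  have huniq : ∀ v : Valuation Kb ℝ≥0, IsPlace k v → (∀ g ∈ KC K C, v g ≤ 1 ↔ P g ≤ 1) →
      SameGeo k v P := by
    intro v hv hvP
    have hvf : v f < 1 := by
      by_contra hcon
      push Not at hcon
      have h1 : v f⁻¹ ≤ 1 := by
        rw [map_inv₀]
        exact inv_le_one_of_one_le₀ hcon
      have h2 := (hvP _ (inv_mem hfC')).mp h1
      rw [map_inv₀] at h2
      have hpos : 0 < P f := (Valuation.pos_iff P).mpr hf0
      exact absurd h2 (not_le.mpr ((one_lt_inv₀ hpos).mpr hPf))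
    obtain ⟨Q, hQ, hQv⟩ := hPs2 v hv hvf
    have hQP : SameGeo k Q P := by
      by_contra hn
      obtain ⟨g, hg, hgn⟩ := hC3 Q hQ hn
      exact hgn ((hQv g (KC_le_Kgeo C hg)).trans (hvP g hg))
    exact Cof4_669.SameGeo.trans (Cof4_669.SameGeo.symm hQv) hQP
  refine ⟨C, le_sup_left.trans hC1, hC2, ?_, huniq⟩
  intro g hg hg1
  obtain ⟨c, hck, hc1⟩ := exists_const_near (k := k) hP hg1
  refine ⟨c, ?_, hc1⟩
  refine const_mem hc C ?_ hck
  -- `c` is fixed by all automorphisms over `K C`
  have hKch := charZero_K k K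
  have : CharZero (KC K C) := charZero_of_injective_algebraMap (algebraMap K (KC K C)).injective
  have : Algebra.IsAlgebraic (KC K C) Kb := Algebra.IsAlgebraic.tower_top (K := K) (KC K C)
  have : IsAlgClosure (KC K C) Kb := ⟨inferInstance, inferInstance⟩
  have : Normal (KC K C) Kb := inferInstance
  have : IsGalois (KC K C) Kb := IsGalois.mk
  have hfix : ∀ τ : Kb ≃ₐ[KC K C] Kb, τ c = c := by
    intro τ
    let σ : Kb ≃ₐ[K] Kb := τ.restrictScalars K
    have hτ : ∀ z ∈ KC K C, σ z = z := fun z hz => τ.commutes ⟨z, hz⟩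
    have hpl := val_aut_place hP σ
    have hsg : SameGeo k (P.comap (σ : Kb →+* Kb)) P := by
      refine huniq _ hpl fun z hz => ?_
      rw [Valuation.comap_apply]
      change P (σ z) ≤ 1 ↔ _
      rw [hτ z hz]
    have h1 : (P.comap (σ : Kb →+* Kb)) (g - c) < 1 :=
      Cof4_669.SameGeo.lt_one (Cof4_669.SameGeo.symm hsg)
        (sub_mem (KC_le_Kgeo C hg) (kb_le_Kgeo hck)) hc1
    rw [Valuation.comap_apply] at h1
    change P (σ (g - c)) < 1 at h1
    rw [map_sub, hτ g hg] at h1
    have h2 : P (σ c - c) < 1 := by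
      have : σ c - c = (g - c) - (g - σ c) := by ring
      rw [this]
      exact (P.map_sub _ _).trans_lt (max_lt hc1 h1)
    have h3 : σ c ∈ kb k K := by
      rw [mem_kb] at hck ⊢
      exact hck.map (σ.restrictScalars k)
    by_contra hne
    have h4 := val_const hP (sub_mem h3 hck) (sub_ne_zero.mpr hne)
    rw [h4] at h2
    exact lt_irrefl _ h2
  obtain ⟨a, ha⟩ := Hens_899.mem_range_of_fixed' hfix
  rw [← ha]
  exact a.2

end ff

end Crest.Agent.R013.Cof5_669
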