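import Mathlib
import Crest.Agent.R013.Cof5_669
import Crest.Agent.R013.CntB7_491
import Crest.Agent.R013.RR17_948

/-!
# Row 13, B-CUTOFF, part 6: (SE) over a finite constant extension, transported to the
algebraic closure of `K`
-/

set_option autoImplicit false
set_option linter.unusedSectionVars false

namespace Crest.Agent.R013.Cof6_669

open scoped NNReal Topology
open Filter Polynomial Crest.NumberTheoryR.Sect
open Crest.Agent.R013.SE_669 Crest.Agent.R013.Unr3_957 Crest.Agent.R013.Unr4_957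
  Crest.Agent.R013.Cof1_669 Crest.Agent.R013.Cof2_669 Crest.Agent.R013.Cof3_669
  Crest.Agent.R013.Cof4_669 Crest.Agent.R013.Cof5_669

section alg

variable {k : Type*} [Field k] {K : Type*} [Field K] [Algebra k K]

local notation "Kb" => AlgebraicClosure K

/-- `C → K C` -/
noncomputable def ιC (C : IntermediateField k Kb) : C →+* KC K C where
  toFun c := ⟨c, le_KC c.2⟩
  map_one' := rfl
  map_mul' _ _ := rfl
  map_zero' := rfl
  map_add' _ _ := rfl

theorem adjoin_top (C : IntermediateField k Kb) [FiniteDimensional k C] :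
    Algebra.adjoin K (Set.range (ιC C)) = ⊤ := by
  rw [eq_top_iff]
  rintro ⟨x, hx⟩ -
  have halg : ∀ y ∈ (C : Set Kb), IsAlgebraic K y := fun y hy => Algebra.IsAlgebraic.isAlgebraic y
  have h1 : (KC K C).toSubalgebra = Algebra.adjoin K (C : Set Kb) := by
    unfold KC
    exact IntermediateField.adjoin_toSubalgebra_of_isAlgebraic halg
  have hx' : x ∈ Algebra.adjoin K (C : Set Kb) := by rw [← h1]; exact hx
  have h2 : ∀ y (hy : y ∈ Algebra.adjoin K (C : Set Kb)), ∃ h : y ∈ KC K C,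
      (⟨y, h⟩ : KC K C) ∈ Algebra.adjoin K (Set.range (ιC C)) := by
    intro y hy
    induction hy using Algebra.adjoin_induction with
    | mem z hz => exact ⟨le_KC hz, Algebra.subset_adjoin ⟨⟨z, hz⟩, rfl⟩⟩
    | algebraMap z => exact ⟨(KC K C).algebraMap_mem z, Subalgebra.algebraMap_mem _ z⟩
    | add a b _ _ ha hb =>
      obtain ⟨ha1, ha2⟩ := ha
      obtain ⟨hb1, hb2⟩ := hb
      exact ⟨add_mem ha1 hb1, add_mem ha2 hb2⟩
    | mul a b _ _ ha hb =>
      obtain ⟨ha1, ha2⟩ := ha
      obtain ⟨hb1, hb2⟩ := hb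
      exact ⟨mul_mem ha1 hb1, mul_mem ha2 hb2⟩
  exact (h2 x hx').2

end alg

section main

variable {k : Type} [Field k] {K : Type} [Field K] [Algebra k K]

local notation "Kb" => AlgebraicClosure K

/-- the universal hypothesis -/
def SEall (p : ℕ) [Fact p.Prime] : Prop :=
  ∀ (k : Type) [Field k] [Algebra ℚ_[p] k] [FiniteDimensional ℚ_[p] k] (K : Type) [Field K]
    [Algebra k K] [Algebra (RatFunc k) K] [IsScalarTower k (RatFunc k) K] [FunctionField k K],
    algebraicClosure k K = ⊥ → 2 ≤ genus k K → SE p k K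

theorem SE_local (p : ℕ) [Fact p.Prime] (hSE : SEall p) [Algebra ℚ_[p] k]
    [FiniteDimensional ℚ_[p] k] [Algebra (RatFunc k) K] [IsScalarTower k (RatFunc k) K]
    [FunctionField k K] (hc : algebraicClosure k K = ⊥) (hg : 2 ≤ genus k K)
    (C₀ : IntermediateField k Kb) [FiniteDimensional k C₀] {P : Valuation Kb ℝ≥0}
    (hP : IsPlace k P) (hrat : ∀ g ∈ KC K C₀, P g ≤ 1 → ∃ c ∈ C₀, P (g - c) < 1)
    {x : Kb} (hx : x ∈ KC K C₀) (hx1 : P x < 1) (hx2 : ∀ g ∈ KC K C₀, P g < 1 → P g ≤ P x)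
    (e : ℕ) (he : 0 < e) (δ : ℝ≥0) (hδ : 0 < δ) :
    ∃ (C : IntermediateField k Kb) (π ξ : Kb) (v : Valuation Kb ℝ≥0),
      C₀ ≤ C ∧ FiniteDimensional k C ∧ π ∈ C ∧ π ≠ 0 ∧ v π < δ ∧
      ExtendsPadicNorm k Kb p v ∧ IsCircle K C P x (v π) v ∧ ξ ^ e = x ∧
      ξ ∈ cl v (maxUnramified k K : Set Kb) := by
  have hk0 : CharZero k := charZero_of_injective_algebraMap (algebraMap ℚ_[p] k).injective
  have hK0 := charZero_K k K
  have hKfd : FiniteDimensional (RatFunc k) K := inferInstance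
  have : CharZero (RatFunc k) :=
    charZero_of_injective_algebraMap (algebraMap k (RatFunc k)).injective
  -- the constant extension
  set L : IntermediateField K Kb := KC K C₀ with hL
  let iA : Algebra C₀ L := (ιC C₀).toAlgebra
  have iT : IsScalarTower k C₀ L := IsScalarTower.of_algebraMap_eq (fun _ => rfl)
  let iQ : Algebra ℚ_[p] C₀ := ((algebraMap k C₀).comp (algebraMap ℚ_[p] k)).toAlgebra
  have iQT : IsScalarTower ℚ_[p] k C₀ := IsScalarTower.of_algebraMap_eq (fun _ => rfl)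
  have iQf : FiniteDimensional ℚ_[p] C₀ := FiniteDimensional.trans ℚ_[p] k C₀
  have iLf : FiniteDimensional K L := finite_KC C₀
  have hC0 : CharZero C₀ := charZero_of_injective_algebraMap (algebraMap k C₀).injective
  have hce : CntB1_491.IsCE k C₀ K L := ⟨adjoin_top C₀, hc⟩
  obtain ⟨i1, i2, i3, i4, -⟩ := CntB7_491.exists_rat (k := k) (k' := C₀) (K := K) (K' := L)
  have hcL : algebraicClosure C₀ L = ⊥ := hce.hc'
  have hgL : 2 ≤ genus C₀ L := by
    rw [RR17_948.genus_eq_gen, CntB3_491.gen_eq hce, ← RR17_948.genus_eq_gen]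
    exact hg
  have iFF : FunctionField C₀ L := i3
  have hSEL := hSE C₀ L hcL hgL
  -- the identification of the algebraic closures
  have iLKb : Algebra.IsAlgebraic L Kb := Algebra.IsAlgebraic.tower_top (K := K) L
  have iLcl : IsAlgClosure L Kb := ⟨inferInstance, iLKb⟩
  let ε : AlgebraicClosure L ≃ₐ[L] Kb := IsAlgClosure.equiv L (AlgebraicClosure L) Kb
  have hεL : ∀ l : L, ε (algebraMap L (AlgebraicClosure L) l) = (l : Kb) := fun l => ε.commutes l
  have hεC : ∀ c : C₀, ε (algebraMap C₀ (AlgebraicClosure L) c) = (c : Kb) := fun c =>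
    hεL (algebraMap C₀ L c)
  have hεs : ∀ y : Kb, ε (ε.symm y) = y := fun y => ε.apply_symm_apply y
  have hεs' : ∀ y, ε.symm (ε y) = y := fun y => ε.symm_apply_apply y
  let P' : Valuation (AlgebraicClosure L) ℝ≥0 := P.comap (ε : AlgebraicClosure L →+* Kb)
  have hP' : ∀ y, P' y = P (ε y) := fun y => rfl
  have hP'L : ∀ l : L, (P'.comap (algebraMap L (AlgebraicClosure L))) l = P (l : Kb) := by
    intro l
    rw [Valuation.comap_apply, hP', hεL]
  have hplL : IsPlace k (P.comap (algebraMap L Kb)) := by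
    have : IsScalarTower k L Kb := tower_kLb L
    exact Unr3_957.isPlace_comap (F := L) hP
  have hpl : IsPlace C₀ (P'.comap (algebraMap L (AlgebraicClosure L))) := by
    refine ⟨fun c hc0 => ?_, ?_⟩
    · rw [hP'L]
      exact val_const hP (le_kb C₀ c.2) (fun h => hc0 (Subtype.ext h))
    · obtain ⟨a, h0, h1⟩ := hplL.2
      exact ⟨a, by rw [hP'L]; exact h0, by rw [hP'L]; exact h1⟩
  have hratL : IsRationalPlace C₀ L (P'.comap (algebraMap L (AlgebraicClosure L))) := by
    refine ⟨hpl, fun a ha => ?_⟩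
    rw [hP'L] at ha
    obtain ⟨c, hcC, hcP⟩ := hrat a a.2 ha
    exact ⟨⟨c, hcC⟩, by rw [hP'L]; exact hcP⟩
  have hunif : IsUniformizerAt (P'.comap (algebraMap L (AlgebraicClosure L))) (⟨x, hx⟩ : L) := by
    refine ⟨by rw [hP'L]; exact hx1, fun a ha => ?_⟩
    rw [hP'L] at ha ⊢
    rw [hP'L]
    exact hx2 a a.2 ha
  obtain ⟨C', π', ξ', v', hfd, hπC, hπ0, hπδ, hpn, hcirc, hξ, hcl⟩ :=
    hSEL P' ⟨x, hx⟩ hratL hunif e he δ hδ
  have hx' : ε (algebraMap L (AlgebraicClosure L) ⟨x, hx⟩) = x := hεL _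
  -- the constants
  let ε₀ : AlgebraicClosure L →ₐ[C₀] Kb :=
    { (ε : AlgebraicClosure L →+* Kb) with commutes' := fun c => hεC c }
  have hε₀ : ∀ y, ε₀ y = ε y := fun _ => rfl
  let C : IntermediateField k Kb := (C'.map ε₀).restrictScalars k
  have hmemC : ∀ y : Kb, y ∈ C ↔ ∃ y' ∈ C', ε y' = y := by
    intro y
    change y ∈ (C'.map ε₀) ↔ _
    rw [IntermediateField.mem_map]
    rfl
  let v : Valuation Kb ℝ≥0 := v'.comap (ε.symm : Kb →+* AlgebraicClosure L)
  have hv : ∀ y, v (ε y) = v' y := by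
    intro y
    change v' (ε.symm (ε y)) = v' y
    rw [hεs']
  have hpsum : ∀ (c : ℕ → AlgebraicClosure L) (n : ℕ),
      ε (psum c (algebraMap L (AlgebraicClosure L) ⟨x, hx⟩) n) = psum (fun i => ε (c i)) x n := by
    intro c n
    unfold psum
    rw [map_sum]
    refine Finset.sum_congr rfl fun i _ => ?_
    rw [map_mul, map_pow, hx']
  refine ⟨C, ε π', ε ξ', v, ?_, ?_, ?_, ?_, ?_, ?_, ?_, ?_, ?_⟩
  · intro c hcC
    rw [hmemC]
    exact ⟨algebraMap C₀ (AlgebraicClosure L) ⟨c, hcC⟩, C'.algebraMap_mem _, hεC ⟨c, hcC⟩⟩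
  · have h1 : FiniteDimensional C₀ (C'.map ε₀) :=
      (C'.equivMap ε₀).toLinearEquiv.finiteDimensional
    have h2 : IsScalarTower k C₀ (C'.map ε₀) := IsScalarTower.of_algebraMap_eq (fun _ => rfl)
    exact FiniteDimensional.trans k C₀ (C'.map ε₀)
  · exact (hmemC _).mpr ⟨π', hπC, rfl⟩
  · intro h
    exact hπ0 (ε.injective (by rw [h, map_zero]))
  · rw [hv]; exact hπδ
  · intro q
    have h1 := hpn q
    rw [← hv] at h1
    rw [← h1]
    congr 1
    exact (hεC (algebraMap k C₀ (algebraMap ℚ_[p] k q))).symm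
  · rw [hv]
    constructor
    · intro n c hcC
      have h1 : ∀ i, ∃ y' ∈ C', ε y' = c i := fun i => (hmemC _).mp (hcC i)
      choose c' hc' hcc' using h1
      have h2 := hcirc.gauss n c' hc'
      have h3 : psum c x n = ε (psum c' (algebraMap L (AlgebraicClosure L) ⟨x, hx⟩) n) := by
        rw [hpsum]
        congr 1
        funext i
        exact (hcc' i).symm
      rw [h3, hv, h2]
      refine Finset.sup_congr rfl fun i _ => ?_
      rw [← hcc' i, hv]
    · intro f
      obtain ⟨G, H, hG, hH, hH0, ⟨R, B, hR, hB⟩, ht1, ht2⟩ := hcirc.disc (algebraMap K L f)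
      have h4 : ∀ n, algebraMap K Kb f * psum (fun i => ε (H i)) x n - psum (fun i => ε (G i)) x n =
          ε (algebraMap L (AlgebraicClosure L) (algebraMap K L f) *
            psum H (algebraMap L (AlgebraicClosure L) ⟨x, hx⟩) n -
            psum G (algebraMap L (AlgebraicClosure L) ⟨x, hx⟩) n) := by
        intro n
        rw [map_sub, map_mul, hpsum, hpsum, hεL]
        rfl
      refine ⟨fun i => ε (G i), fun i => ε (H i), fun i => (hmemC _).mpr ⟨_, hG i, rfl⟩,
        fun i => (hmemC _).mpr ⟨_, hH i, rfl⟩, ?_, ⟨R, B, hR, fun i => ?_⟩, ?_, ?_⟩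
      · obtain ⟨i, hi⟩ := hH0
        refine ⟨i, fun h => hi (ε.injective ?_)⟩
        rw [map_zero]
        exact h
      · rw [hv, hv]; exact hB i
      · simp_rw [h4, hv]
        exact ht1
      · simp_rw [h4]
        exact ht2
  · rw [← map_pow, hξ, hx']
  · intro η hη
    obtain ⟨b', hb', hb1⟩ := hcl η hη
    have hUnr : Unr10_957.UnrEv k K L := by
      have h1 : L ≤ maxUnramified k K := by
        rw [hL]
        unfold KC
        rw [IntermediateField.adjoin_le_iff]
        intro c hcC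
        exact MaxUnr_97.mem_maxUnramified_of_isIntegral c (mem_kb.mp (le_kb C₀ hcC))
      exact (Unr10_957.unr_iff_unrEv.mp (Unr5_957.le_maxUnramified_iff.mp h1)).2
    refine ⟨ε b', ?_, ?_⟩
    · exact (Unr10_957.mem_maxUnramified_transport (k := k) (K := K) (k₁ := C₀) (L := L) hUnr
        (ε.restrictScalars K) b').mp hb'
    · rw [← map_sub, hv]
      exact hb1

end main

end Crest.Agent.R013.Cof6_669
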