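import Crest.Agent.R013.Puis2_702

/-!
# Row 13 (helper702): convergent Laurent series are relatively algebraically closed
-/

set_option autoImplicit false

open Polynomial
open scoped NNReal

namespace Crest.Agent.R013.Puis_702

open Crest.Agent.R013.Eis_863

section Conv

variable {Ω : Type*} [Field Ω] (v : Valuation Ω ℝ≥0)

local notation "oPS" => HahnSeries.ofPowerSeries ℤ Ω

theorem hO (x : Ω) : ∃ d ∈ v.integer, d ≠ 0 ∧ d * x ∈ v.integer := by
  by_cases h : v x ≤ 1
  · exact ⟨1, v.integer.one_mem, one_ne_zero, by rwa [one_mul]⟩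
  · have hx : x ≠ 0 := by rintro rfl; simp at h
    refine ⟨x⁻¹, ?_, inv_ne_zero hx, ?_⟩
    · rw [Valuation.mem_integer_iff, map_inv₀]
      exact inv_le_one_of_one_le₀ (not_le.1 h).le
    · rw [inv_mul_cancel₀ hx]
      exact v.integer.one_mem

/-- convergent Laurent series: `X ^ N * z` is a convergent power series for some `N` -/
def CL (z : LaurentSeries Ω) : Prop :=
  ∃ (N : ℕ) (w : PowerSeries Ω), oPS (PowerSeries.X ^ N) * z = oPS w ∧ Conv v.integer w

variable {v}

theorem conv_X_pow (n : ℕ) : Conv v.integer (PowerSeries.X ^ n : PowerSeries Ω) :=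
  (convS v.integer).pow_mem (mem_convS.1 conv_X) n

theorem CL.conv {z : LaurentSeries Ω} (h : CL v z) {M : ℕ} {w : PowerSeries Ω}
    (hw : oPS (PowerSeries.X ^ M) * z = oPS w) : Conv v.integer w := by
  obtain ⟨N, w', h1, h2⟩ := h
  apply Conv.of_X_pow_mul (n := N)
  have : PowerSeries.X ^ N * w = PowerSeries.X ^ M * w' := by
    apply ofPS_injective
    rw [map_mul, map_mul, ← hw, ← h1]
    ring
  rw [this]
  exact (conv_X_pow M).mul h2

theorem CL.of_conv {w : PowerSeries Ω} (h : Conv v.integer w) : CL v (oPS w) :=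
  ⟨0, w, by rw [pow_zero, map_one, one_mul], h⟩

theorem CL.conv_ps {w : PowerSeries Ω} (h : CL v (oPS w)) : Conv v.integer w :=
  h.conv (M := 0) (by rw [pow_zero, map_one, one_mul])

theorem CL.mul {z z' : LaurentSeries Ω} (h : CL v z) (h' : CL v z') : CL v (z * z') := by
  obtain ⟨N, w, h1, h2⟩ := h
  obtain ⟨N', w', h1', h2'⟩ := h'
  refine ⟨N + N', w * w', ?_, h2.mul h2'⟩
  rw [pow_add, map_mul, map_mul, ← h1, ← h1']
  ring

theorem CL.add {z z' : LaurentSeries Ω} (h : CL v z) (h' : CL v z') : CL v (z + z') := by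
  obtain ⟨N, w, h1, h2⟩ := h
  obtain ⟨N', w', h1', h2'⟩ := h'
  refine ⟨N + N', PowerSeries.X ^ N' * w + PowerSeries.X ^ N * w', ?_,
    ((conv_X_pow N').mul h2).add ((conv_X_pow N).mul h2')⟩
  rw [pow_add, map_mul, map_add, map_mul, map_mul, ← h1, ← h1']
  ring

theorem Conv.inv {u : PowerSeries Ω} (h : Conv v.integer u)
    (hu : PowerSeries.constantCoeff u ≠ 0) : Conv v.integer u⁻¹ := by
  have h1 : u * u⁻¹ = 1 := PowerSeries.mul_inv_cancel u hu
  have hu0 : u ≠ 0 := by rintro rfl; simp at hu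
  refine conv_of_root (hO v) (P := Polynomial.C u * Polynomial.X - 1) (fun i => ?_) ?_ ?_
  · rw [coeff_sub, coeff_C_mul, coeff_X, coeff_one]
    refine (convS v.integer).sub_mem ?_ ?_
    · split_ifs
      · rw [mul_one]; exact h
      · rw [mul_zero]; exact (convS v.integer).zero_mem
    · split_ifs
      · exact (convS v.integer).one_mem
      · exact (convS v.integer).zero_mem
  · rw [eval_sub, eval_mul, eval_C, eval_X, eval_one, h1, sub_self]
  · rw [derivative_sub, derivative_one, sub_zero, derivative_C_mul, derivative_X, mul_one, eval_C]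
    exact hu0

theorem CL.inv {z : LaurentSeries Ω} (h : CL v z) : CL v z⁻¹ := by
  by_cases hz : z = 0
  · rw [hz, inv_zero]
    exact ⟨0, 0, by rw [mul_zero, map_zero], (convS v.integer).zero_mem⟩
  obtain ⟨N, w, h1, h2⟩ := h
  have hw : w ≠ 0 := by
    rintro rfl
    rw [map_zero, mul_eq_zero] at h1
    rcases h1 with h1 | h1
    · rw [map_eq_zero_iff _ ofPS_injective] at h1
      exact pow_ne_zero _ PowerSeries.X_ne_zero h1
    · exact hz h1
  obtain ⟨m, u, hu0, hu⟩ : ∃ (m : ℕ) (u : PowerSeries Ω), PowerSeries.constantCoeff u ≠ 0 ∧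
      w = PowerSeries.X ^ m * u := by
    refine ⟨w.order.toNat, _, ?_, (PowerSeries.X_pow_order_mul_divXPowOrder).symm⟩
    rwa [Ne, PowerSeries.constantCoeff_divXPowOrder_eq_zero_iff]
  have huc : Conv v.integer u := Conv.of_X_pow_mul (n := m) (hu ▸ h2)
  refine ⟨m, PowerSeries.X ^ N * u⁻¹, ?_, (conv_X_pow N).mul (Conv.inv huc hu0)⟩
  apply mul_right_cancel₀ hz
  rw [mul_assoc, inv_mul_cancel₀ hz, mul_one, map_mul]
  have h3 : oPS (PowerSeries.X ^ N) * oPS u⁻¹ * z = oPS w * oPS u⁻¹ := by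
    rw [← h1]; ring
  rw [h3, hu, ← map_mul, mul_assoc, PowerSeries.mul_inv_cancel u hu0, mul_one]

variable (v) in
/-- the field of convergent Laurent series -/
def convL : Subfield (LaurentSeries Ω) where
  carrier := {z | CL v z}
  mul_mem' h h' := h.mul h'
  one_mem' := by
    have := CL.of_conv (v := v) (w := 1) (convS v.integer).one_mem
    rwa [map_one] at this
  add_mem' h h' := h.add h'
  zero_mem' := by
    have := CL.of_conv (v := v) (w := 0) (convS v.integer).zero_mem
    rwa [map_zero] at this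
  neg_mem' {z} := by
    rintro ⟨N, w, h1, h2⟩
    exact ⟨N, -w, by rw [mul_neg, h1, map_neg], (convS v.integer).neg_mem h2⟩
  inv_mem' z h := CL.inv h

theorem mem_convL {z : LaurentSeries Ω} : z ∈ convL v ↔ CL v z := Iff.rfl

theorem scaleRoots_comp {R : Type*} [CommRing R] (p : R[X]) (s : R) :
    (p.scaleRoots s).comp (C s * X) = C (s ^ p.natDegree) * p := by
  ext i
  rw [comp_C_mul_X_coeff, coeff_scaleRoots, coeff_C_mul]
  rcases le_or_gt i p.natDegree with h | h
  · have : s ^ (p.natDegree - i) * s ^ i = s ^ p.natDegree := by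
      rw [← pow_add, Nat.sub_add_cancel h]
    linear_combination (p.coeff i) * this
  · rw [coeff_eq_zero_of_natDegree_lt h, zero_mul, zero_mul, mul_zero]

theorem derivative_scaleRoots_eval {R : Type*} [CommRing R] (p : R[X]) (s z : R) :
    (p.scaleRoots s).derivative.eval (s * z) * s = s ^ p.natDegree * p.derivative.eval z := by
  have h := congrArg (fun q => (derivative q).eval z) (scaleRoots_comp p s)
  simp only [derivative_comp, derivative_C_mul, derivative_X, mul_one, eval_mul, eval_C,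
    eval_comp, eval_X] at h
  linear_combination h

/-- **Convergent Laurent series are relatively algebraically closed** (characteristic zero). -/
theorem conv_of_alg [CharZero Ω] (z : LaurentSeries Ω) (hz : IsAlgebraic (convL v) z) :
    z ∈ convL v := by
  have hint := hz.isIntegral
  set P := minpoly (convL v) z with hP
  have hPm : P.Monic := minpoly.monic hint
  have hc1 : CharZero (LaurentSeries Ω) :=
    charZero_of_injective_ringHom (HahnSeries.C_injective : Function.Injective
      (HahnSeries.C : Ω →+* LaurentSeries Ω))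
  have : CharZero (convL v) := (algebraMap (convL v) (LaurentSeries Ω)).charZero
  have hsep : P.Separable := (minpoly.irreducible hint).separable
  set f : (LaurentSeries Ω)[X] := P.map (algebraMap (convL v) (LaurentSeries Ω)) with hf
  have hfm : f.Monic := hPm.map _
  have hfz : f.eval z = 0 := by
    rw [hf, eval_map_algebraMap]; exact minpoly.aeval _ _
  have hfz' : f.derivative.eval z ≠ 0 := by
    rw [hf, derivative_map, eval_map_algebraMap]
    exact hsep.aeval_derivative_ne_zero (minpoly.aeval _ _)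
  have hfc : ∀ i, f.coeff i ∈ convL v := fun i => by rw [hf, coeff_map]; exact (P.coeff i).2
  obtain ⟨N, hN⟩ := exists_scale f hfm
  obtain ⟨N2, hN2⟩ := exists_pow_mul z
  set s := oPS (PowerSeries.X ^ (N + N2)) with hs
  have hsc : s ∈ convL v := CL.of_conv (conv_X_pow _)
  have hs0 : s ≠ 0 := by
    rw [hs, Ne, map_eq_zero_iff _ ofPS_injective]
    exact pow_ne_zero _ PowerSeries.X_ne_zero
  obtain ⟨w, hw⟩ := hN2 (N + N2) (by omega)
  have hsm : (f.scaleRoots s).Monic := (monic_scaleRoots_iff s).2 hfm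
  have hl : f.scaleRoots s ∈ lifts (HahnSeries.ofPowerSeries ℤ Ω) := by
    rw [lifts_iff_coeff_lifts]
    intro i
    obtain ⟨a, ha⟩ := hN i
    refine ⟨a * (PowerSeries.X ^ N2) ^ (f.natDegree - i), ?_⟩
    rw [map_mul, ← ha, coeff_scaleRoots, coeff_scaleRoots, hs, pow_add, map_mul, mul_pow,
      map_pow _ _ (f.natDegree - i)]
    ring
  obtain ⟨g, hg, -, hgm⟩ := lifts_and_natDegree_eq_and_monic hl hsm
  have hgc : ∀ i, Conv v.integer (g.coeff i) := by
    intro i
    apply CL.conv_ps
    rw [← coeff_map, hg, coeff_scaleRoots]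
    exact (convL v).mul_mem (hfc i) ((convL v).pow_mem hsc _)
  have hroot : g.eval w = 0 := by
    apply ofPS_injective
    rw [map_zero, ← Polynomial.eval₂_at_apply, ← eval_map, hg, ← hw, scaleRoots_eval_mul, hfz,
      mul_zero]
  have hroot' : g.derivative.eval w ≠ 0 := by
    intro h
    have h1 := congrArg oPS h
    rw [map_zero, ← Polynomial.eval₂_at_apply, ← eval_map, ← derivative_map, hg, ← hw] at h1
    have h2 := derivative_scaleRoots_eval f s z
    rw [h1, zero_mul] at h2
    rcases mul_eq_zero.1 h2.symm with h3 | h3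
    · exact pow_ne_zero _ hs0 h3
    · exact hfz' h3
  have hwc : Conv v.integer w := conv_of_root (hO v) hgc hroot hroot'
  have h3 : s * z ∈ convL v := by
    rw [hw]; exact CL.of_conv hwc
  have h4 : z = s⁻¹ * (s * z) := by rw [← mul_assoc, inv_mul_cancel₀ hs0, one_mul]
  rw [h4]
  exact (convL v).mul_mem ((convL v).inv_mem hsc) h3

end Conv


section Bdd

variable {Ω : Type*} [Field Ω] {v : Valuation Ω ℝ≥0}

local notation "oPS" => HahnSeries.ofPowerSeries ℤ Ω

theorem coeff_shift {z : LaurentSeries Ω} {N : ℕ} {w : PowerSeries Ω}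
    (h : oPS (PowerSeries.X ^ N) * z = oPS w) (i : ℤ) :
    z.coeff i = (oPS w).coeff (i + N) := by
  rw [← h, map_pow, HahnSeries.ofPowerSeries_X, HahnSeries.single_pow]
  have h2 : (N • (1 : ℤ)) = (N : ℤ) := by simp
  rw [h2, one_pow, HahnSeries.coeff_single_mul, one_mul, add_sub_cancel_right]

theorem CL.bdd {z : LaurentSeries Ω} (h : CL v z) :
    ∃ ρ : ℝ≥0, 0 < ρ ∧ ∃ B : ℝ≥0, ∀ i : ℤ, v (z.coeff i) * ρ ^ i ≤ B := by
  obtain ⟨N, w, h1, b, hb, hb0, c, hc, hc0, h2⟩ := h
  have hb1 : 0 < v b := zero_lt_iff.2 ((Valuation.ne_zero_iff _).2 hb0)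
  have hc1 : 0 < v c := zero_lt_iff.2 ((Valuation.ne_zero_iff _).2 hc0)
  refine ⟨v b, hb1, (v c)⁻¹ * (v b ^ N)⁻¹, fun i => ?_⟩
  rw [coeff_shift h1 i, PowerSeries.coeff_coe]
  split_ifs with hi
  · rw [map_zero, zero_mul]; exact zero_le
  · obtain ⟨n, hn⟩ : ∃ n : ℕ, i + N = n := ⟨(i + N).toNat, by omega⟩
    rw [hn, Int.natAbs_natCast]
    have h3 := h2 n
    rw [PowerSeries.coeff_C_mul, PowerSeries.coeff_rescale, Valuation.mem_integer_iff, map_mul,
      map_mul, map_pow] at h3
    have h4 : (v b) ^ i = (v b) ^ n * ((v b) ^ N)⁻¹ := by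
      have : i = n - N := by omega
      rw [this, zpow_sub₀ hb1.ne', zpow_natCast, zpow_natCast, div_eq_mul_inv]
    rw [h4, ← mul_assoc]
    refine mul_le_mul' ?_ le_rfl
    calc v (PowerSeries.coeff n w) * v b ^ n
        = (v c)⁻¹ * (v c * (v b ^ n * v (PowerSeries.coeff n w))) := by
          rw [← mul_assoc, inv_mul_cancel₀ hc1.ne', one_mul, mul_comm]
      _ ≤ (v c)⁻¹ * 1 := mul_le_mul' le_rfl h3
      _ = (v c)⁻¹ := mul_one _

theorem cl_of_bdd {z : LaurentSeries Ω} {ρ B : ℝ≥0} (hρ : 0 < ρ)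
    (h : ∀ i : ℤ, v (z.coeff i) * ρ ^ i ≤ B) : CL v z := by
  obtain ⟨N, hN⟩ := exists_pow_mul z
  obtain ⟨w, hw⟩ := hN N le_rfl
  refine ⟨N, w, hw, ?_⟩
  have hwn : ∀ n : ℕ, v (PowerSeries.coeff n w) * ρ ^ n ≤ B * ρ ^ N := by
    intro n
    have h1 := coeff_shift hw (n - N : ℤ)
    rw [sub_add_cancel, PowerSeries.coeff_coe, if_neg (by omega), Int.natAbs_natCast] at h1
    have h2 := h (n - N)
    rw [h1, zpow_sub₀ hρ.ne', zpow_natCast, zpow_natCast, ← mul_div_assoc,
      div_le_iff₀ (pow_pos hρ N)] at h2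
    exact h2
  by_cases ht : ∃ t : Ω, t ≠ 0 ∧ v t < 1
  · obtain ⟨t, ht0, ht1⟩ := ht
    have htp : 0 < v t := zero_lt_iff.2 ((Valuation.ne_zero_iff _).2 ht0)
    obtain ⟨a, ha⟩ := exists_pow_lt_of_lt_one hρ ht1
    obtain ⟨a', ha'⟩ := exists_pow_lt_of_lt_one (show (0 : ℝ≥0) < (B * ρ ^ N + 1)⁻¹ by positivity) ht1
    refine ⟨t ^ a, ?_, pow_ne_zero _ ht0, t ^ a', ?_, pow_ne_zero _ ht0, fun n => ?_⟩
    · rw [Valuation.mem_integer_iff, map_pow]; exact pow_le_one₀ zero_le ht1.le
    · rw [Valuation.mem_integer_iff, map_pow]; exact pow_le_one₀ zero_le ht1.le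
    · rw [PowerSeries.coeff_C_mul, PowerSeries.coeff_rescale, Valuation.mem_integer_iff, map_mul,
        map_mul, map_pow, map_pow, map_pow]
      calc v t ^ a' * ((v t ^ a) ^ n * v (PowerSeries.coeff n w))
          ≤ (B * ρ ^ N + 1)⁻¹ * (ρ ^ n * v (PowerSeries.coeff n w)) := by gcongr
        _ ≤ (B * ρ ^ N + 1)⁻¹ * (B * ρ ^ N) := by
            refine mul_le_mul' le_rfl ?_
            rw [mul_comm]; exact hwn n
        _ ≤ (B * ρ ^ N + 1)⁻¹ * (B * ρ ^ N + 1) := by gcongr; exact le_self_add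
        _ = 1 := inv_mul_cancel₀ (by positivity)
  · push Not at ht
    have hall : ∀ x : Ω, v x ≤ 1 := by
      intro x
      by_contra hx
      have hx0 : x ≠ 0 := by rintro rfl; simp at hx
      have h1 := ht x⁻¹ (inv_ne_zero hx0)
      rw [map_inv₀, one_le_inv₀ (zero_lt_iff.2 ((Valuation.ne_zero_iff _).2 hx0))] at h1
      exact hx h1
    exact Conv.of_int fun n => hall _

theorem bdd_mono {z : LaurentSeries Ω} {ρ ρ' B : ℝ≥0} (hρ' : 0 < ρ') (hle : ρ' ≤ ρ)
    (h : ∀ i : ℤ, v (z.coeff i) * ρ ^ i ≤ B) : ∃ B' : ℝ≥0, ∀ i : ℤ, v (z.coeff i) * ρ' ^ i ≤ B' := by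
  have hρ : 0 < ρ := hρ'.trans_le hle
  refine ⟨B * (ρ' / ρ) ^ (min z.order 0), fun i => ?_⟩
  by_cases hi : i < z.order
  · rw [HahnSeries.coeff_eq_zero_of_lt_order hi, map_zero, zero_mul]; exact zero_le
  · push Not at hi
    have h1 : v (z.coeff i) * ρ' ^ i = v (z.coeff i) * ρ ^ i * (ρ' / ρ) ^ i := by
      rw [div_zpow, mul_assoc, mul_div_cancel₀]
      exact zpow_ne_zero _ hρ.ne'
    rw [h1]
    have h2 : (ρ' / ρ) ^ i ≤ (ρ' / ρ) ^ (min z.order 0) :=
      zpow_le_zpow_right_of_le_one₀ (by positivity) (div_le_one_of_le₀ hle zero_le)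
        ((min_le_left _ _).trans hi)
    exact mul_le_mul' (h i) h2

theorem bdd_common (s : Finset (LaurentSeries Ω)) (h : ∀ z ∈ s, CL v z) :
    ∃ ρ : ℝ≥0, 0 < ρ ∧ ∃ B : ℝ≥0, ∀ z ∈ s, ∀ i : ℤ, v (z.coeff i) * ρ ^ i ≤ B := by
  classical
  induction s using Finset.induction_on with
  | empty => exact ⟨1, one_pos, 0, by simp⟩
  | insert a s ha ih =>
    obtain ⟨ρ, hρ, B, hB⟩ := ih fun z hz => h z (Finset.mem_insert_of_mem hz)
    obtain ⟨ρ', hρ', B', hB'⟩ := (h a (Finset.mem_insert_self a s)).bdd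
    have hm : 0 < min ρ ρ' := lt_min hρ hρ'
    obtain ⟨B1, hB1⟩ := bdd_mono hm (min_le_right _ _) hB'
    have h2 : ∀ z : s, ∃ B2 : ℝ≥0, ∀ i : ℤ, v (z.1.coeff i) * (min ρ ρ') ^ i ≤ B2 := fun z =>
      bdd_mono hm (min_le_left _ _) (hB z.1 z.2)
    choose B2 hB2 using h2
    refine ⟨min ρ ρ', hm, B1 + ∑ z : s, B2 z, fun z hz i => ?_⟩
    rcases Finset.mem_insert.1 hz with rfl | hz
    · exact (hB1 i).trans le_self_add
    · refine (hB2 ⟨z, hz⟩ i).trans (le_trans ?_ le_add_self)
      exact Finset.single_le_sum (f := B2) (fun _ _ => zero_le) (Finset.mem_univ (⟨z, hz⟩ : s))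

theorem CL.expL {z : LaurentSeries Ω} (h : CL v z) (e : ℕ) (he : e ≠ 0) : CL v (expL e he z) := by
  obtain ⟨N, w, h1, b, hb, hb0, c, hc, hc0, h2⟩ := h
  refine ⟨e * N, PowerSeries.expand e he w, ?_, b, hb, hb0, c, hc, hc0, fun n => ?_⟩
  · have h3 := congrArg (Puis_702.expL e he) h1
    rw [map_mul, expL_ofPowerSeries, expL_ofPowerSeries, map_pow, PowerSeries.expand_X,
      ← pow_mul] at h3
    exact h3
  · rw [PowerSeries.coeff_C_mul, PowerSeries.coeff_rescale, Valuation.mem_integer_iff]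
    by_cases hn : e ∣ n
    · obtain ⟨m, rfl⟩ := hn
      rw [PowerSeries.coeff_expand_mul, map_mul, map_mul, map_pow]
      have h3 := h2 m
      rw [PowerSeries.coeff_C_mul, PowerSeries.coeff_rescale, Valuation.mem_integer_iff, map_mul,
        map_mul, map_pow] at h3
      refine le_trans ?_ h3
      have : v b ^ (e * m) ≤ v b ^ m :=
        pow_le_pow_right_of_le_one' hb (Nat.le_mul_of_pos_left m (Nat.pos_of_ne_zero he))
      gcongr
    · rw [PowerSeries.coeff_expand_of_not_dvd _ _ _ hn, mul_zero, mul_zero, map_zero]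
      exact zero_le

end Bdd


section Kum

variable {C Ω : Type*} [Field C] [Field Ω] [Algebra C Ω]

/-- **(KUM)** `C` a field of characteristic zero, `Ω` an algebraically closed extension with a
valuation `v` with values in `ℝ≥0`, `f` a monic polynomial over `C((X))` with convergent
coefficients: after `X ↦ X ^ e` it is a product of linear factors `T - r`, the `r` being Laurent
series with coefficients in one finite extension `C'` of `C`, bounded on one disc. -/
theorem kum [CharZero C] [IsAlgClosed Ω] (v : Valuation Ω ℝ≥0) (f : (LaurentSeries C)[X])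
    (hf : f.Monic) (hb : ∀ i, mapL (algebraMap C Ω) (f.coeff i) ∈ convL v) :
    ∃ e, ∃ he : e ≠ 0, ∃ C' : IntermediateField C Ω, FiniteDimensional C C' ∧
      ∃ R : Multiset (LaurentSeries Ω), (∀ r ∈ R, ∀ i, r.coeff i ∈ C') ∧
        (∃ ρ : ℝ≥0, 0 < ρ ∧ ∃ B : ℝ≥0, ∀ r ∈ R, ∀ i : ℤ, v (r.coeff i) * ρ ^ i ≤ B) ∧
        f.map ((expL e he).comp (mapL (algebraMap C Ω))) =
          (R.map fun r => X - Polynomial.C r).prod := by
  classical
  have : CharZero Ω := charZero_of_injective_algebraMap (algebraMap C Ω).injective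
  obtain ⟨e, he, C', hC', R, hR, h⟩ := puiseux (Ω := Ω) f hf
  refine ⟨e, he, C', hC', R, hR, ?_, h⟩
  have hcl : ∀ r ∈ R.toFinset, CL v r := by
    intro r hr
    rw [Multiset.mem_toFinset] at hr
    refine conv_of_alg r ?_
    set F := f.map ((expL e he).comp (mapL (algebraMap C Ω))) with hF
    have hFm : F.Monic := hf.map _
    have hFr : F.eval r = 0 := by
      have hd : X - Polynomial.C r ∣ F := by
        rw [h]; exact Multiset.dvd_prod (Multiset.mem_map_of_mem _ hr)
      exact dvd_iff_isRoot.1 hd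
    have hl : F ∈ lifts (algebraMap (convL v) (LaurentSeries Ω)) := by
      rw [lifts_iff_coeff_lifts]
      intro i
      have h1 : F.coeff i ∈ convL v := by
        rw [hF, coeff_map]
        exact CL.expL (hb i) e he
      exact ⟨⟨F.coeff i, h1⟩, rfl⟩
    obtain ⟨g, hg, -, hgm⟩ := lifts_and_natDegree_eq_and_monic hl hFm
    refine ⟨g, hgm.ne_zero, ?_⟩
    rw [← eval_map_algebraMap, hg]
    exact hFr
  obtain ⟨ρ, hρ, B, hB⟩ := bdd_common R.toFinset hcl
  exact ⟨ρ, hρ, B, fun r hr i => hB r (Multiset.mem_toFinset.2 hr) i⟩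

theorem cl_C {v : Valuation Ω ℝ≥0} (c : Ω) : CL v (HahnSeries.C c) := by
  have := CL.of_conv (v := v) (w := PowerSeries.C c) (conv_C (hO v) c)
  rwa [HahnSeries.ofPowerSeries_C] at this

theorem cl_X {v : Valuation Ω ℝ≥0} : CL v (HahnSeries.single (1 : ℤ) (1 : Ω)) := by
  have := CL.of_conv (v := v) (w := PowerSeries.X) conv_X
  rwa [HahnSeries.ofPowerSeries_X] at this

/-- **(DISC)** `j : K → C((X))` with `K` algebraic over `C(x)`, `j x = X`: all `j a` converge. -/
theorem disc [CharZero Ω] {K : Type*} [Field K] [Algebra C K] (v : Valuation Ω ℝ≥0)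
    (j : K →+* LaurentSeries C) (hjC : ∀ c, j (algebraMap C K c) = HahnSeries.C c) (x : K)
    (hjx : j x = HahnSeries.single (1 : ℤ) (1 : C))
    (hx : Algebra.IsAlgebraic (IntermediateField.adjoin C {x}) K) (a : K) :
    mapL (algebraMap C Ω) (j a) ∈ convL v := by
  have key : ∀ b ∈ IntermediateField.adjoin C {x},
      mapL (algebraMap C Ω) (j b) ∈ convL v := by
    intro b hb
    induction hb using IntermediateField.adjoin_induction with
    | mem y hy =>
      rw [Set.mem_singleton_iff.1 hy, hjx]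
      have : mapL (algebraMap C Ω) (HahnSeries.single (1 : ℤ) (1 : C)) =
          HahnSeries.single (1 : ℤ) (1 : Ω) := by
        ext i
        rw [coeff_mapL, HahnSeries.coeff_single, HahnSeries.coeff_single]
        split_ifs <;> simp
      rw [this]
      exact cl_X
    | algebraMap c =>
      rw [hjC]
      have : mapL (algebraMap C Ω) (HahnSeries.C c) = HahnSeries.C (algebraMap C Ω c) := by
        ext i
        rw [coeff_mapL, HahnSeries.C_apply, HahnSeries.C_apply, HahnSeries.coeff_single,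
          HahnSeries.coeff_single]
        split_ifs <;> simp
      rw [this]
      exact cl_C _
    | add a b _ _ ha hb => rw [map_add, map_add]; exact (convL v).add_mem ha hb
    | inv a _ ha => rw [map_inv₀, map_inv₀]; exact (convL v).inv_mem ha
    | mul a b _ _ ha hb => rw [map_mul, map_mul]; exact (convL v).mul_mem ha hb
  refine conv_of_alg _ ?_
  obtain ⟨P, hP0, hP⟩ := hx.isAlgebraic a
  let φ : IntermediateField.adjoin C {x} →+* convL v :=
    { toFun := fun b => ⟨mapL (algebraMap C Ω) (j b), key b b.2⟩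
      map_one' := by ext1; simp
      map_mul' := fun a b => by ext1; simp
      map_zero' := by ext1; simp
      map_add' := fun a b => by ext1; simp }
  refine ⟨P.map φ, (Polynomial.map_ne_zero_iff φ.injective).2 hP0, ?_⟩
  rw [← eval_map_algebraMap, Polynomial.map_map]
  have h1 : (algebraMap (convL v) (LaurentSeries Ω)).comp φ =
      ((mapL (algebraMap C Ω)).comp j).comp (algebraMap (IntermediateField.adjoin C {x}) K) := rfl
  rw [h1, ← Polynomial.map_map]
  have h2 : (P.map (algebraMap (IntermediateField.adjoin C {x}) K)).eval a = 0 := by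
    rw [eval_map_algebraMap]; exact hP
  have h3 : mapL (algebraMap C Ω) (j a) = ((mapL (algebraMap C Ω)).comp j) a := rfl
  rw [h3, eval_map, Polynomial.eval₂_at_apply, h2, map_zero]

end Kum

end Crest.Agent.R013.Puis_702
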