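import Mathlib
import Crest.Agent.R013.Cof5_669
import Crest.Agent.R013.Puis3_702
import Crest.Agent.R013.RR20_948

/-!
# Row 13, B-CUTOFF, part 7: Puiseux expansions evaluated in the completion: every algebraic
function of `x` is, near `x = 0`, in the closure of `k̄(x^(1/e))`.
-/

set_option autoImplicit false
set_option linter.unusedSectionVars false

namespace Crest.Agent.R013.Cof7_669

open scoped NNReal Topology
open Filter Polynomial
open Crest.Agent.R013.SE_669 Crest.Agent.R013.Cof1_669 Crest.Agent.R013.Puis_702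

section ev

variable {A : Type*} [Field A] {Ω : Type*} [Field Ω] (φ : A →+* Ω) (v : Valuation Ω ℝ≥0)

/-- power series with coefficients bounded at radius `ρ` -/
def Bd (φ : A →+* Ω) (v : Valuation Ω ℝ≥0) (ρ : ℝ≥0) : Subring (PowerSeries A) where
  carrier := {g | ∃ B : ℝ≥0, ∀ n : ℕ, v (φ (PowerSeries.coeff n g)) * ρ ^ n ≤ B}
  mul_mem' := by
    rintro g h ⟨B, hB⟩ ⟨B', hB'⟩
    refine ⟨B * B', fun n => ?_⟩
    by_cases hρ : ρ ^ n = 0
    · rw [hρ, mul_zero]; exact zero_le
    have hρ' : 0 < ρ ^ n := pos_of_ne_zero hρ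
    rw [PowerSeries.coeff_mul, map_sum, ← le_div_iff₀ hρ']
    refine v.map_sum_le fun p hp => ?_
    rw [Finset.HasAntidiagonal.mem_antidiagonal] at hp
    rw [le_div_iff₀ hρ']
    have h1 : v (φ (PowerSeries.coeff p.1 g * PowerSeries.coeff p.2 h)) * ρ ^ n =
        (v (φ (PowerSeries.coeff p.1 g)) * ρ ^ p.1) *
          (v (φ (PowerSeries.coeff p.2 h)) * ρ ^ p.2) := by
      rw [map_mul, map_mul, ← hp, pow_add]
      ring
    rw [h1]
    exact mul_le_mul' (hB _) (hB' _)
  one_mem' := by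
    refine ⟨1, fun n => ?_⟩
    rw [PowerSeries.coeff_one]
    split_ifs with h
    · subst h; simp
    · simp
  add_mem' := by
    rintro g h ⟨B, hB⟩ ⟨B', hB'⟩
    refine ⟨max B B', fun n => ?_⟩
    rw [map_add, map_add]
    rcases le_total (v (φ (PowerSeries.coeff n g))) (v (φ (PowerSeries.coeff n h))) with hle | hle
    · have h1 := v.map_add (φ (PowerSeries.coeff n g)) (φ (PowerSeries.coeff n h))
      rw [max_eq_right hle] at h1
      exact (mul_le_mul_left h1 _).trans ((hB' n).trans (le_max_right _ _))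
    · have h1 := v.map_add (φ (PowerSeries.coeff n g)) (φ (PowerSeries.coeff n h))
      rw [max_eq_left hle] at h1
      exact (mul_le_mul_left h1 _).trans ((hB n).trans (le_max_left _ _))
  zero_mem' := ⟨0, fun n => by simp⟩
  neg_mem' := by
    rintro g ⟨B, hB⟩
    refine ⟨B, fun n => ?_⟩
    rw [map_neg, map_neg, Valuation.map_neg]
    exact hB n

theorem mem_Bd {ρ : ℝ≥0} {g : PowerSeries A} :
    g ∈ Bd φ v ρ ↔ ∃ B : ℝ≥0, ∀ n : ℕ, v (φ (PowerSeries.coeff n g)) * ρ ^ n ≤ B := Iff.rfl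

variable {φ v}

theorem summable_term {ρ : ℝ≥0} {g : PowerSeries A} (hg : g ∈ Bd φ v ρ) {ξ : Ω} (hξ : v ξ < ρ) :
    Summable fun n => ‖A2a_275.toCpl v (φ (PowerSeries.coeff n g) * ξ ^ n)‖ := by
  obtain ⟨B, hB⟩ := hg
  have hρ : 0 < ρ := (zero_le (a := v ξ)).trans_lt hξ
  have hq : ((v ξ / ρ : ℝ≥0) : ℝ) < 1 := by
    have : v ξ / ρ < 1 := (div_lt_one hρ).mpr hξ
    exact_mod_cast this
  refine Summable.of_nonneg_of_le (fun n => norm_nonneg _) (fun n => ?_)
    ((summable_geometric_of_lt_one (NNReal.coe_nonneg _) hq).mul_left (B : ℝ))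
  rw [A2a_275.norm_toCpl, map_mul, map_pow]
  have h1 : v (φ (PowerSeries.coeff n g)) * v ξ ^ n ≤ B * (v ξ / ρ) ^ n := by
    have h2 : v ξ ^ n = ρ ^ n * (v ξ / ρ) ^ n := by
      rw [← mul_pow, mul_div_cancel₀ _ hρ.ne']
    rw [h2, ← mul_assoc]
    gcongr
    exact hB n
  exact_mod_cast h1

/-- evaluation of bounded power series in the completion -/
noncomputable def ev {ρ : ℝ≥0} {ξ : Ω} (hξ : v ξ < ρ) : Bd φ v ρ →+* A2a_275.Cpl v where
  toFun g := ∑' n, A2a_275.toCpl v (φ (PowerSeries.coeff n (g : PowerSeries A)) * ξ ^ n)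
  map_one' := by
    rw [tsum_eq_single 0]
    · simp
    · intro n hn
      change A2a_275.toCpl v (φ (PowerSeries.coeff n (1 : PowerSeries A)) * ξ ^ n) = 0
      rw [PowerSeries.coeff_one, if_neg hn]
      simp
  map_zero' := by
    have : ∀ n, A2a_275.toCpl v (φ (PowerSeries.coeff n ((0 : Bd φ v ρ) : PowerSeries A)) * ξ ^ n)
        = 0 := by
      intro n
      change A2a_275.toCpl v (φ (PowerSeries.coeff n (0 : PowerSeries A)) * ξ ^ n) = 0
      simp
    simp_rw [this, tsum_zero]
  map_add' g h := by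
    have hg := (summable_term g.2 hξ).of_norm
    have hh := (summable_term h.2 hξ).of_norm
    rw [← hg.tsum_add hh]
    refine tsum_congr fun n => ?_
    rw [← map_add, ← add_mul, ← map_add]
    congr 2
  map_mul' g h := by
    have hg := summable_term g.2 hξ
    have hh := summable_term h.2 hξ
    rw [tsum_mul_tsum_eq_tsum_sum_antidiagonal_of_summable_norm hg hh]
    refine tsum_congr fun n => ?_
    change A2a_275.toCpl v (φ (PowerSeries.coeff n ((g : PowerSeries A) * (h : PowerSeries A))) * ξ ^ n) = _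
    rw [PowerSeries.coeff_mul, map_sum, Finset.sum_mul, map_sum]
    refine Finset.sum_congr rfl fun p hp => ?_
    rw [Finset.HasAntidiagonal.mem_antidiagonal] at hp
    rw [← map_mul]
    congr 1
    rw [map_mul, ← hp, pow_add]
    ring

theorem tendsto_ev {ρ : ℝ≥0} {ξ : Ω} (hξ : v ξ < ρ) (g : Bd φ v ρ) :
    Tendsto (fun N => A2a_275.toCpl v (psum (fun n => φ (PowerSeries.coeff n (g : PowerSeries A))) ξ N))
      atTop (𝓝 (ev hξ g)) := by
  have h := ((summable_term g.2 hξ).of_norm).hasSum.tendsto_sum_nat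
  refine h.congr fun N => ?_
  rw [← map_sum]
  rfl

end ev

section kum

open Crest.Agent.R013.Cof2_669 in
/-- integral equations over `k[x]` -/
theorem exists_rel {k : Type*} [Field k] [CharZero k] {L : Type*} [Field L] [Algebra k L]
    [Algebra (RatFunc k) L] [IsScalarTower k (RatFunc k) L] [FiniteDimensional (RatFunc k) L]
    (y : L) (hy : Transcendental k y) (a : L) :
    ∃ q : k[X], q ≠ 0 ∧ ∃ F : k[X][X], F.Monic ∧
      F.eval₂ (aeval y : k[X] →ₐ[k] L).toRingHom (aeval y q * a) = 0 := by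
  have hfin := RR20_948.ratAlg_finite (k := k) (K := L) y hy
  let i := RR20_948.ratAlg y hy
  have hfin' : @FiniteDimensional (RatFunc k) L _ _ i.toModule := hfin
  have halg : @Algebra.IsAlgebraic (RatFunc k) L _ _ i := by
    let _ := i
    exact Algebra.IsAlgebraic.of_finite (RatFunc k) L
  let j : Algebra k[X] L := (aeval y : k[X] →ₐ[k] L).toRingHom.toAlgebra
  have hT : @IsScalarTower k[X] (RatFunc k) L _ i.toSMul j.toSMul := by
    let _ := i
    refine IsScalarTower.of_algebraMap_eq fun p => ?_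
    have h : (aeval y : k[X] →ₐ[k] L) =
        (RR20_948.ratHom y hy).comp (IsScalarTower.toAlgHom k k[X] (RatFunc k)) := by
      refine algHom_ext ?_
      rw [aeval_X]
      simp only [AlgHom.comp_apply, IsScalarTower.coe_toAlgHom', RatFunc.algebraMap_X]
      exact (RR20_948.ratHom_X y hy).symm
    exact congrArg (fun g : k[X] →ₐ[k] L => g p) h
  have halg2 : @Algebra.IsAlgebraic k[X] L _ _ j := by
    let _ := i
    exact (IsFractionRing.comap_isAlgebraic_iff (K := RatFunc k)).mpr halg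
  obtain ⟨q, hq0, hq⟩ := (halg2.isAlgebraic a).exists_integral_multiple
  obtain ⟨F, hF1, hF2⟩ := hq
  refine ⟨q, hq0, F, hF1, ?_⟩
  have : (q • a : L) = aeval y q * a := by
    rw [Algebra.smul_def]
    rfl
  rw [← this]
  exact hF2

theorem C_mem_Bd {A : Type*} [Field A] {Ω : Type*} [Field Ω] (φ : A →+* Ω)
    (v : Valuation Ω ℝ≥0) (ρ : ℝ≥0) (c : A) : (PowerSeries.C c) ∈ Bd φ v ρ := by
  refine ⟨v (φ c), fun n => ?_⟩
  rw [PowerSeries.coeff_C]
  split_ifs with h
  · subst h; simp
  · simp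

theorem X_mem_Bd {A : Type*} [Field A] {Ω : Type*} [Field Ω] (φ : A →+* Ω)
    (v : Valuation Ω ℝ≥0) (ρ : ℝ≥0) : (PowerSeries.X) ∈ Bd φ v ρ := by
  refine ⟨ρ, fun n => ?_⟩
  rw [PowerSeries.coeff_X]
  split_ifs with h
  · subst h; simp
  · simp

theorem ev_C {A : Type*} [Field A] {Ω : Type*} [Field Ω] {φ : A →+* Ω}
    {v : Valuation Ω ℝ≥0} {ρ : ℝ≥0} {ξ : Ω} (hξ : v ξ < ρ) (c : A) :
    ev hξ ⟨PowerSeries.C c, C_mem_Bd φ v ρ c⟩ = A2a_275.toCpl v (φ c) := by
  change ∑' n, A2a_275.toCpl v (φ (PowerSeries.coeff n (PowerSeries.C c)) * ξ ^ n) = _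
  rw [tsum_eq_single 0]
  · rw [PowerSeries.coeff_zero_C]; simp
  · intro n hn
    rw [PowerSeries.coeff_C, if_neg hn]
    simp

theorem ev_X {A : Type*} [Field A] {Ω : Type*} [Field Ω] {φ : A →+* Ω}
    {v : Valuation Ω ℝ≥0} {ρ : ℝ≥0} {ξ : Ω} (hξ : v ξ < ρ) :
    ev hξ ⟨PowerSeries.X, X_mem_Bd φ v ρ⟩ = A2a_275.toCpl v ξ := by
  change ∑' n, A2a_275.toCpl v (φ (PowerSeries.coeff n PowerSeries.X) * ξ ^ n) = _
  rw [tsum_eq_single 1]
  · rw [PowerSeries.coeff_one_X]; simp
  · intro n hn
    rw [PowerSeries.coeff_X, if_neg hn]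
    simp

/-- roots of polynomials with convergent coefficients are convergent -/
theorem conv_root {A : Type*} [Field A] [CharZero A] (u : Valuation A ℝ≥0)
    {g : (PowerSeries A)[X]} (hg : g.Monic)
    (hc : ∀ i, HahnSeries.ofPowerSeries ℤ A (g.coeff i) ∈ convL u) {r : PowerSeries A}
    (hr : g.eval r = 0) : HahnSeries.ofPowerSeries ℤ A r ∈ convL u := by
  apply conv_of_alg
  have h1 : (g.map (HahnSeries.ofPowerSeries ℤ A)) ∈
      lifts (algebraMap (convL u) (LaurentSeries A)) := by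
    rw [lifts_iff_coeff_lifts]
    intro i
    exact ⟨⟨_, hc i⟩, by rw [coeff_map]; rfl⟩
  obtain ⟨P, hP, -, hPm⟩ := lifts_and_natDegree_eq_and_monic h1 (hg.map _)
  refine ⟨P, hPm.ne_zero, ?_⟩
  rw [aeval_def, eval₂_eq_eval_map, hP, eval_map, Polynomial.eval₂_at_apply, hr, map_zero]

end kum

section main

open Crest.Agent.R013.Cof2_669 Crest.Agent.R013.Unr4_957

variable {k : Type*} [Field k] {K : Type*} [Field K] [Algebra k K]

local notation "Kb" => AlgebraicClosure K

variable [CharZero k] [Algebra (RatFunc k) K] [IsScalarTower k (RatFunc k) K]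
  [FiniteDimensional (RatFunc k) K]

/-- **Puiseux** in the closure: for every norm on a small circle around `x = 0` the algebraic
element `a` is in the closure of every field containing `k̄` and (in its closure) an `e`-th root of
`x` -/
theorem kum_Kb (w : Valuation Kb ℝ≥0) (x a : Kb) (hx : Transcendental k x) :
    ∃ e : ℕ, e ≠ 0 ∧ ∃ R₀ : ℝ≥0, 0 < R₀ ∧ ∀ v : Valuation Kb ℝ≥0,
      (∀ c ∈ kb k K, v c = w c) → ∀ ξ : Kb, ξ ^ e = x → v x < R₀ →
      ∀ S : Subfield Kb, (∀ c ∈ kb k K, c ∈ S) → ξ ∈ cl v (S : Set Kb) →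
        a ∈ cl v (S : Set Kb) := by
  classical
  have hK0 := charZero_K k K
  -- the relation
  have hrel : ∃ q : k[X], q ≠ 0 ∧ ∃ F : k[X][X], F.Monic ∧
      F.eval₂ (aeval x : k[X] →ₐ[k] Kb).toRingHom (aeval x q * a) = 0 := by
    let L : IntermediateField K Kb := IntermediateField.adjoin K {x, a}
    have hLf : FiniteDimensional K L := by
      refine IntermediateField.finiteDimensional_adjoin (S := {x, a}) fun z _ => ?_
      exact Algebra.IsIntegral.isIntegral z
    have := finite_IF (k := k) L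
    have := tower_IF (k := k) L
    have hxL : x ∈ L := IntermediateField.subset_adjoin K _ (by simp)
    have haL : a ∈ L := IntermediateField.subset_adjoin K _ (by simp)
    have : IsScalarTower k L Kb := tower_kLb L
    have htr : Transcendental k (⟨x, hxL⟩ : L) := by
      intro h
      exact hx ((isAlgebraic_algebraMap_iff (algebraMap L Kb).injective).mpr h)
    obtain ⟨q, hq0, F, hF, hFe⟩ := exists_rel (k := k) (L := L) ⟨x, hxL⟩ htr ⟨a, haL⟩
    refine ⟨q, hq0, F, hF, ?_⟩
    have h1 : ∀ p : k[X], algebraMap L Kb (aeval (⟨x, hxL⟩ : L) p) = aeval x p := fun p =>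
      (aeval_algebraMap_apply Kb (⟨x, hxL⟩ : L) p).symm
    have h2 := congrArg (algebraMap L Kb) hFe
    rw [map_zero, Polynomial.hom_eval₂, map_mul, h1] at h2
    have h3 : (algebraMap L Kb).comp (aeval (⟨x, hxL⟩ : L) : k[X] →ₐ[k] L).toRingHom =
        (aeval x : k[X] →ₐ[k] Kb).toRingHom := RingHom.ext h1
    rw [h3] at h2
    exact h2
  obtain ⟨q, hq0, F, hF, hFe⟩ := hrel
  have hA0 : CharZero (kb k K) := charZero_of_injective_algebraMap (algebraMap k (kb k K)).injective
  let γ : k[X] →+* PowerSeries (kb k K) :=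
    (Polynomial.coeToPowerSeries.ringHom).comp (Polynomial.mapRingHom (algebraMap k (kb k K)))
  obtain ⟨e, he, hs⟩ := puiseux_ps (F.map γ) (hF.map γ)
  set γe : k[X] →+* PowerSeries (kb k K) := (ex e he).comp γ with hγe
  have hγC : ∀ c : k, γe (C c) = PowerSeries.C (algebraMap k (kb k K) c) := by
    intro c
    rw [hγe, RingHom.comp_apply, ex_apply]
    have : γ (C c) = PowerSeries.C (algebraMap k (kb k K) c) := by
      simp only [γ, RingHom.comp_apply, coe_mapRingHom, map_C]
      exact Polynomial.coe_C _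
    rw [this]
    exact PowerSeries.expand_C _ _ _
  have hγX : γe X = PowerSeries.X ^ e := by
    rw [hγe, RingHom.comp_apply, ex_apply]
    have : γ X = PowerSeries.X := by
      simp only [γ, RingHom.comp_apply, coe_mapRingHom, map_X]
      exact Polynomial.coe_X
    rw [this]
    exact PowerSeries.expand_X _ _
  rw [Polynomial.map_map, ← hγe] at hs
  set g : (PowerSeries (kb k K))[X] := F.map γe with hg
  have hgm : g.Monic := hF.map _
  have hgprod := hs.eq_prod_roots_of_monic hgm
  -- convergence of the roots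
  let u : Valuation (kb k K) ℝ≥0 := w.comap (algebraMap (kb k K) Kb)
  have hγconv : ∀ p : k[X], HahnSeries.ofPowerSeries ℤ (kb k K) (γe p) ∈ convL u := by
    intro p
    induction p using Polynomial.induction_on' with
    | add p q hp hq => rw [map_add, map_add]; exact (convL u).add_mem hp hq
    | monomial n c =>
      rw [← C_mul_X_pow_eq_monomial, map_mul, map_mul, map_pow, map_pow, hγC, hγX]
      refine (convL u).mul_mem ?_ ((convL u).pow_mem ?_ n)
      · exact CL.of_conv (Eis_863.conv_C (hO u) _)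
      · rw [map_pow]
        refine (convL u).pow_mem ?_ e
        have := CL.of_conv (v := u) (conv_X_pow (v := u) 1)
        rwa [pow_one] at this
  have hroots : ∀ r ∈ g.roots, HahnSeries.ofPowerSeries ℤ (kb k K) r ∈ convL u := by
    intro r hr
    refine conv_root u hgm (fun i => ?_) (isRoot_of_mem_roots hr)
    rw [hg, coeff_map]
    exact hγconv _
  obtain ⟨ρ, hρ, B, hB⟩ := bdd_common (v := u)
    (g.roots.toFinset.image (HahnSeries.ofPowerSeries ℤ (kb k K))) (by
      intro z hz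
      obtain ⟨r, hr, rfl⟩ := Finset.mem_image.mp hz
      exact hroots r (Multiset.mem_toFinset.mp hr))
  have hBr : ∀ r ∈ g.roots, ∀ n : ℕ, w ((PowerSeries.coeff n r : kb k K) : Kb) * ρ ^ n ≤ B := by
    intro r hr n
    have h1 := hB _ (Finset.mem_image_of_mem _ (Multiset.mem_toFinset.mpr hr)) (n : ℤ)
    rw [PowerSeries.coeff_coe, if_neg (by omega), Int.natAbs_natCast, zpow_natCast] at h1
    exact h1
  refine ⟨e, he, ρ ^ e, by positivity, ?_⟩
  intro v hvw ξ hξ hvx S hS hξS
  have hvξ : v ξ < ρ := by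
    rw [← hξ, map_pow] at hvx
    exact lt_of_pow_lt_pow_left₀ e zero_le hvx
  let φ : kb k K →+* Kb := algebraMap (kb k K) Kb
  have hrBd : ∀ r ∈ g.roots, r ∈ Bd φ v ρ := by
    intro r hr
    refine ⟨B, fun n => ?_⟩
    have h1 : v (φ (PowerSeries.coeff n r)) = w ((PowerSeries.coeff n r : kb k K) : Kb) :=
      hvw _ (PowerSeries.coeff n r).2
    rw [h1]
    exact hBr r hr n
  have hγBd : ∀ p : k[X], γe p ∈ Bd φ v ρ := by
    intro p
    induction p using Polynomial.induction_on' with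
    | add p q hp hq => rw [map_add]; exact (Bd φ v ρ).add_mem hp hq
    | monomial n c =>
      rw [← C_mul_X_pow_eq_monomial, map_mul, map_pow, hγC, hγX]
      exact (Bd φ v ρ).mul_mem (C_mem_Bd _ _ _ _)
        ((Bd φ v ρ).pow_mem ((Bd φ v ρ).pow_mem (X_mem_Bd _ _ _) e) n)
  let ψ : k[X] →+* Bd φ v ρ := γe.codRestrict (Bd φ v ρ) hγBd
  let E : Bd φ v ρ →+* A2a_275.Cpl v := ev hvξ
  have hEψ : E.comp ψ = (A2a_275.toCpl v).comp (aeval x : k[X] →ₐ[k] Kb).toRingHom := by
    refine Polynomial.ringHom_ext (fun c => ?_) ?_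
    · have h1 : ψ (C c) = ⟨PowerSeries.C (algebraMap k (kb k K) c), C_mem_Bd φ v ρ _⟩ :=
        Subtype.ext (hγC c)
      rw [RingHom.comp_apply, h1]
      change ev hvξ _ = A2a_275.toCpl v (aeval x (C c))
      rw [ev_C, aeval_C]
      rfl
    · have h1 : ψ X = ⟨PowerSeries.X, X_mem_Bd φ v ρ⟩ ^ e := Subtype.ext hγX
      rw [RingHom.comp_apply, h1, map_pow]
      change (ev hvξ _) ^ e = A2a_275.toCpl v (aeval x X)
      rw [ev_X, aeval_X, ← hξ, map_pow]
  -- the product decomposition over `Bd`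
  let gB : (Bd φ v ρ)[X] := (g.roots.attach.map fun r => X - C (⟨r.1, hrBd r.1 r.2⟩ : Bd φ v ρ)).prod
  have hgB : F.map ψ = gB := by
    apply Polynomial.map_injective (Bd φ v ρ).subtype Subtype.val_injective
    rw [Polynomial.map_map]
    have h1 : (Bd φ v ρ).subtype.comp ψ = γe := RingHom.ext fun p => rfl
    rw [h1, ← hg]
    conv_lhs => rw [hgprod]
    simp only [gB]
    rw [Polynomial.map_multiset_prod, Multiset.map_map]
    conv_lhs => rw [← Multiset.attach_map_val g.roots, Multiset.map_map]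
    congr 1
    refine Multiset.map_congr rfl fun r _ => ?_
    simp
  set a' : Kb := aeval x q * a with ha'
  have hzero : (F.map ψ).eval₂ E (A2a_275.toCpl v a') = 0 := by
    rw [eval₂_map, hEψ, ← Polynomial.hom_eval₂, hFe, map_zero]
  rw [hgB, eval₂_eq_eval_map] at hzero
  simp only [gB] at hzero
  rw [Polynomial.map_multiset_prod, Multiset.map_map, eval_multiset_prod, Multiset.map_map,
    Multiset.prod_eq_zero_iff, Multiset.mem_map] at hzero
  obtain ⟨r, -, hr⟩ := hzero
  simp only [Function.comp_apply, Polynomial.map_sub, Polynomial.map_X, Polynomial.map_C,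
    eval_sub, eval_X, eval_C, sub_eq_zero] at hr
  -- `a'` is a limit
  have hkS : ∀ c ∈ kb k K, c ∈ clF v S := fun c hc => subset_cl v _ (hS c hc)
  have hps : ∀ N, psum (fun n => φ (PowerSeries.coeff n r.1)) ξ N ∈ clF v S := by
    intro N
    unfold psum
    exact sum_mem fun i _ => mul_mem (hkS _ (PowerSeries.coeff i r.1).2) (pow_mem hξS i)
  have ha'S : a' ∈ clF v S := by
    have h1 : a' ∈ cl v ((clF v S : Subfield Kb) : Set Kb) := by
      intro ε hε
      have h2 := tendsto_ev hvξ (⟨r.1, hrBd r.1 r.2⟩ : Bd φ v ρ)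
      rw [← show A2a_275.toCpl v a' = ev hvξ (⟨r.1, hrBd r.1 r.2⟩ : Bd φ v ρ) from hr] at h2
      rw [Metric.tendsto_atTop] at h2
      obtain ⟨N, hN⟩ := h2 ε (by exact_mod_cast hε)
      refine ⟨_, hps N, ?_⟩
      have h3 := hN N le_rfl
      rw [dist_comm, dist_eq_norm, ← map_sub, A2a_275.norm_toCpl] at h3
      exact_mod_cast h3
    exact cl_trans v (fun z hz => hz) h1
  have hxS : x ∈ clF v S := by
    rw [← hξ]
    exact pow_mem hξS e
  have hqx : aeval x q ∈ clF v S := by
    rw [aeval_eq_sum_range]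
    refine sum_mem fun i _ => ?_
    rw [Algebra.smul_def]
    refine mul_mem (hkS _ ?_) (pow_mem hxS i)
    exact (kb k K).algebraMap_mem _
  have hq1 : aeval x q ≠ 0 := fun h => hx ⟨q, hq0, h⟩
  have ha : a = a' / aeval x q := by
    rw [ha']
    field_simp
  have h5 : a ∈ clF v S := by
    rw [ha]
    exact div_mem ha'S hqx
  exact h5

end main

end Crest.Agent.R013.Cof7_669
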