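import Mathlib
import Crest.Agent.R013.Cof5_669
import Crest.Agent.R013.Unr9_957

/-!
# Row 13, B-CUTOFF, part 8: Krasner's lemma for closures, reduction to a finite subextension,
uniqueness of the norm on the constants, rescaling of places
-/

set_option autoImplicit false
set_option linter.unusedSectionVars false

namespace Crest.Agent.R013.Cof8_669

open scoped NNReal Topology
open Filter Polynomial Crest.NumberTheoryR.Sect
open Crest.Agent.R013.SE_669 Crest.Agent.R013.Cof1_669 Crest.Agent.R013.A2a_275

section krasner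

variable {F : Type*} [Field F] [CharZero F] {Ω : Type*} [Field Ω] [IsAlgClosed Ω] [Algebra F Ω]
  [Algebra.IsAlgebraic F Ω]

/-- a valued algebraic extension inside the algebraic closure of the completion -/
theorem exists_spec (v : Valuation Ω ℝ≥0)
    (hnt : ∃ a : F, 1 < (v.comap (algebraMap F Ω)) a) :
    ∃ j : Ω →+* AlgebraicClosure (Cpl (v.comap (algebraMap F Ω))),
      (∀ x : F, j (algebraMap F Ω x) = algebraMap (Cpl (v.comap (algebraMap F Ω))) _
        (toCpl (v.comap (algebraMap F Ω)) x)) ∧
      ∀ x : Ω, Wof (v.comap (algebraMap F Ω)) hnt j x = v x := by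
  set w := v.comap (algebraMap F Ω) with hw
  obtain ⟨j, hj⟩ := exists_j (Ω := Ω) w
  have h1 := Wof_comap w hnt j hj
  have : IsAlgClosure F Ω := ⟨inferInstance, inferInstance⟩
  have : Normal F Ω := inferInstance
  obtain ⟨σ, hσ⟩ := Unr9_957.exists_conj_normal (Wof w hnt j) v h1
  refine ⟨j.comp (σ : Ω →+* Ω), fun x => ?_, fun x => ?_⟩
  · rw [RingHom.comp_apply]
    change j (σ (algebraMap F Ω x)) = _
    rw [σ.commutes, hj]
  · rw [hσ x]
    rfl

/-- **Krasner**: if `b ∈ F` is closer to `α` than all conjugates of `α` then `α` is in the closure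
of `F` -/
theorem mem_cl_of_krasner (v : Valuation Ω ℝ≥0)
    (hnt : ∃ a : F, 1 < v (algebraMap F Ω a)) (α : Ω) (b : F)
    (h : ∀ α' : Ω, (minpoly F α).aeval α' = 0 → α' ≠ α → v (α - algebraMap F Ω b) < v (α - α')) :
    α ∈ cl v (Set.range (algebraMap F Ω)) := by
  set w := v.comap (algebraMap F Ω) with hw
  have hnt' : ∃ a : F, 1 < w a := hnt
  obtain ⟨j, hj, hjv⟩ := exists_spec v hnt'
  let _ := nnf w hnt'
  have hc0 : CharZero (Cpl w) := charZero_of_injective_ringHom (toCpl w).injective
  have hsp : ∀ x : Ω, spectralNorm (Cpl w) (AlgebraicClosure (Cpl w)) (j x) = (v x : ℝ) := by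
    intro x
    rw [← hjv x, coe_Wof]
  have hfix : ∀ τ : AlgebraicClosure (Cpl w) ≃ₐ[Cpl w] AlgebraicClosure (Cpl w), τ (j α) = j α := by
    intro τ
    -- `τ (j α)` is a conjugate
    set m := minpoly F α with hm
    have hint : IsIntegral F α := Algebra.IsIntegral.isIntegral α
    have hroot : (m.map ((algebraMap (Cpl w) (AlgebraicClosure (Cpl w))).comp (toCpl w))).eval
        (τ (j α)) = 0 := by
      have h1 : (m.map (algebraMap F Ω)).eval α = 0 := by
        rw [eval_map_algebraMap]; exact minpoly.aeval F α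
      have h2 : (m.map ((algebraMap (Cpl w) (AlgebraicClosure (Cpl w))).comp (toCpl w))).eval
          (j α) = 0 := by
        have h3 : (algebraMap (Cpl w) (AlgebraicClosure (Cpl w))).comp (toCpl w) =
            j.comp (algebraMap F Ω) := RingHom.ext fun x => (hj x).symm
        rw [h3, ← Polynomial.map_map, eval_map, Polynomial.eval₂_at_apply, h1, map_zero]
      have h4 : ((τ : AlgebraicClosure (Cpl w) →+* AlgebraicClosure (Cpl w)).comp
          ((algebraMap (Cpl w) (AlgebraicClosure (Cpl w))).comp (toCpl w))) =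
          (algebraMap (Cpl w) (AlgebraicClosure (Cpl w))).comp (toCpl w) :=
        RingHom.ext fun x => τ.commutes (toCpl w x)
      have h5 := congrArg (τ : AlgebraicClosure (Cpl w) →+* AlgebraicClosure (Cpl w)) h2
      rw [map_zero, ← Polynomial.eval₂_at_apply, ← eval_map, Polynomial.map_map, h4] at h5
      exact h5
    have hex : ∃ α' : Ω, m.aeval α' = 0 ∧ j α' = τ (j α) := by
      have h3 : (algebraMap (Cpl w) (AlgebraicClosure (Cpl w))).comp (toCpl w) =
          j.comp (algebraMap F Ω) := RingHom.ext fun x => (hj x).symm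
      rw [h3, ← Polynomial.map_map] at hroot
      have hs : (m.map (algebraMap F Ω)).Splits := IsAlgClosed.splits _
      have hm0 : m.map (algebraMap F Ω) ≠ 0 := by
        rw [Polynomial.map_ne_zero_iff (algebraMap F Ω).injective]
        exact minpoly.ne_zero hint
      obtain ⟨α', hα'⟩ := hs.mem_range_of_isRoot hm0 (i := j) hroot
      refine ⟨α', ?_, hα'⟩
      have h6 : j ((m.map (algebraMap F Ω)).eval α') = 0 := by
        rw [← Polynomial.eval₂_at_apply, ← eval_map, hα']
        exact hroot
      rw [map_eq_zero] at h6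
      rwa [eval_map_algebraMap] at h6
    obtain ⟨α', hα', hjα'⟩ := hex
    have hval : v (α' - algebraMap F Ω b) = v (α - algebraMap F Ω b) := by
      have h7 : ((v (α' - algebraMap F Ω b) : ℝ≥0) : ℝ) = v (α - algebraMap F Ω b) := by
        rw [← hsp, ← hsp, spectralNorm_eq_of_equiv τ (j (α - algebraMap F Ω b)), map_sub, map_sub,
          map_sub, hjα', hj, τ.commutes]
      exact_mod_cast h7
    by_contra hne
    have hne' : α' ≠ α := by
      rintro rfl
      exact hne hjα'.symm
    have h8 := h α' hα' hne'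
    have h9 : v (α - α') ≤ v (α - algebraMap F Ω b) := by
      have : α - α' = (α - algebraMap F Ω b) - (α' - algebraMap F Ω b) := by ring
      rw [this]
      refine (v.map_sub _ _).trans ?_
      rw [hval, max_self]
    exact absurd h8 (not_lt.mpr h9)
  have hgal : IsGalois (Cpl w) (AlgebraicClosure (Cpl w)) := IsGalois.mk
  obtain ⟨z, hz⟩ := Hens_899.mem_range_of_fixed' hfix
  intro ε hε
  obtain ⟨c, hc⟩ := (denseRange_toCpl w).exists_dist_lt z (ε := (ε : ℝ)) (by exact_mod_cast hε)
  refine ⟨algebraMap F Ω c, ⟨c, rfl⟩, ?_⟩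
  have h10 : ((v (α - algebraMap F Ω c) : ℝ≥0) : ℝ) < ε := by
    rw [← hsp, map_sub, hj, ← hz, ← map_sub, spectralNorm_extends, ← dist_eq_norm]
    exact hc
  exact_mod_cast h10

end krasner

section fin

variable {K : Type*} [Field K] [CharZero K] {Ω : Type*} [Field Ω] [IsAlgClosed Ω] [Algebra K Ω]
  [Algebra.IsAlgebraic K Ω]

/-- an element of the closure of `M` is in the closure of a finite subextension -/
theorem exists_finite (v : Valuation Ω ℝ≥0) (hnt : ∃ a : K, 1 < v (algebraMap K Ω a))
    (M : IntermediateField K Ω) (α : Ω) (hα : α ∈ cl v (M : Set Ω)) :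
    ∃ F : IntermediateField K Ω, F ≤ M ∧ FiniteDimensional K F ∧ α ∈ cl v (F : Set Ω) := by
  classical
  -- the minimal distance
  have hδ : ∃ δ : ℝ≥0, 0 < δ ∧ ∀ α' : Ω, (minpoly K α).aeval α' = 0 → α' ≠ α →
      δ ≤ v (α - α') := by
    let s : Finset Ω := (((minpoly K α).map (algebraMap K Ω)).roots.toFinset).erase α
    have hmem : ∀ α' : Ω, (minpoly K α).aeval α' = 0 → α' ≠ α → α' ∈ s := by
      intro α' h1 h2
      rw [Finset.mem_erase, Multiset.mem_toFinset, mem_roots]
      · refine ⟨h2, ?_⟩
        rw [IsRoot.def, eval_map_algebraMap]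
        exact h1
      · rw [Polynomial.map_ne_zero_iff (algebraMap K Ω).injective]
        exact minpoly.ne_zero (Algebra.IsIntegral.isIntegral α)
    by_cases hs : s.Nonempty
    · obtain ⟨β, hβ, hmin⟩ := s.exists_min_image (fun z => v (α - z)) hs
      refine ⟨v (α - β), ?_, fun α' h1 h2 => hmin α' (hmem α' h1 h2)⟩
      rw [Valuation.pos_iff, sub_ne_zero]
      exact fun h => (Finset.mem_erase.mp hβ).1 h.symm
    · refine ⟨1, one_pos, fun α' h1 h2 => ?_⟩
      exact absurd ⟨α', hmem α' h1 h2⟩ hs
  obtain ⟨δ, hδ0, hδ⟩ := hδ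
  obtain ⟨b, hb, hbα⟩ := hα δ hδ0
  have hbi : IsIntegral K b := Algebra.IsIntegral.isIntegral b
  refine ⟨IntermediateField.adjoin K {b}, ?_, IntermediateField.adjoin.finiteDimensional hbi, ?_⟩
  · rw [IntermediateField.adjoin_simple_le_iff]; exact hb
  · set F := IntermediateField.adjoin K {b} with hF
    have hc0 : CharZero F := charZero_of_injective_algebraMap (algebraMap K F).injective
    have halg : Algebra.IsAlgebraic F Ω := Algebra.IsAlgebraic.tower_top (K := K) F
    have hb' : b ∈ F := IntermediateField.mem_adjoin_simple_self K b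
    have h := mem_cl_of_krasner (F := F) v (by
      obtain ⟨a, ha⟩ := hnt
      exact ⟨algebraMap K F a, ha⟩) α ⟨b, hb'⟩ (by
      intro α' h1 h2
      refine hbα.trans_le (hδ α' ?_ h2)
      have h3 : minpoly F α ∣ (minpoly K α).map (algebraMap K F) :=
        minpoly.dvd_map_of_isScalarTower K F α
      obtain ⟨q, hq⟩ := h3
      have h4 : aeval α' ((minpoly K α).map (algebraMap K F)) = 0 := by
        rw [hq, map_mul, h1, zero_mul]
      rwa [aeval_map_algebraMap] at h4)
    refine cl_mono v ?_ h
    rintro _ ⟨z, rfl⟩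
    exact z.2

end fin

end Crest.Agent.R013.Cof8_669
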