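import Mathlib
import Crest.Agent.R013.Cof7_669
import Crest.Agent.R013.Cof8_669
import Crest.Agent.R013.Cof6_669

/-!
# Row 13, B-CUTOFF, part 9: norms on the constants, the field `K_U`, rescaling
-/

set_option autoImplicit false
set_option linter.unusedSectionVars false

namespace Crest.Agent.R013.Cof9_669

open scoped NNReal Topology
open Filter Polynomial Crest.NumberTheoryR.Sect
open Crest.Agent.R013.SE_669 Crest.Agent.R013.Cof1_669 Crest.Agent.R013.Cof2_669
  Crest.Agent.R013.Cof3_669 Crest.Agent.R013.Cof4_669 Crest.Agent.R013.Cof5_669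
  Crest.Agent.R013.Cof8_669 Crest.Agent.R013.Unr4_957

variable {k : Type*} [Field k] {K : Type*} [Field K] [Algebra k K]

local notation "Kb" => AlgebraicClosure K

section norm

variable (p : ℕ) [Fact p.Prime] [Algebra ℚ_[p] k] [FiniteDimensional ℚ_[p] k]

/-- uniqueness of the norm on the constants -/
theorem norm_unique {v w : Valuation Kb ℝ≥0} (hv : ExtendsPadicNorm k Kb p v)
    (hw : ExtendsPadicNorm k Kb p w) {c : Kb} (hc : c ∈ kb k K) : v c = w c := by
  let _ : Algebra ℚ_[p] (kb k K) := ((algebraMap k (kb k K)).comp (algebraMap ℚ_[p] k)).toAlgebra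
  have : IsScalarTower ℚ_[p] k (kb k K) := IsScalarTower.of_algebraMap_eq fun _ => rfl
  have : Algebra.IsAlgebraic ℚ_[p] k := Algebra.IsAlgebraic.of_finite _ _
  have : Algebra.IsAlgebraic k (kb k K) := inferInstance
  have : Algebra.IsAlgebraic ℚ_[p] (kb k K) := Algebra.IsAlgebraic.trans ℚ_[p] k (kb k K)
  have key : ∀ {u : Valuation Kb ℝ≥0}, ExtendsPadicNorm k Kb p u →
      ((u c : ℝ≥0) : ℝ) = spectralNorm ℚ_[p] (kb k K) ⟨c, hc⟩ := by
    intro u hu
    let f : AbsoluteValue (kb k K) ℝ :=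
      A2a_275.absOf (u.comap (algebraMap (kb k K) Kb))
    have hf : ∀ q : ℚ_[p], f (algebraMap ℚ_[p] (kb k K) q) = ‖q‖ := by
      intro q
      have h1 := hu q
      have h2 : ((u (algebraMap k Kb (algebraMap ℚ_[p] k q)) : ℝ≥0) : ℝ) = ‖q‖ := by
        rw [h1]; rfl
      exact h2
    exact spectralNorm_unique_field_norm_ext hf ⟨c, hc⟩
  have h1 := (key hv).trans (key hw).symm
  exact_mod_cast h1

theorem one_lt_norm {v : Valuation Kb ℝ≥0} (hv : ExtendsPadicNorm k Kb p v) :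
    ∃ a : K, 1 < v (algebraMap K Kb a) := by
  refine ⟨algebraMap k K (algebraMap ℚ_[p] k ((p : ℚ_[p])⁻¹)), ?_⟩
  have h1 := hv ((p : ℚ_[p])⁻¹)
  change 1 < v (algebraMap k Kb (algebraMap ℚ_[p] k ((p : ℚ_[p])⁻¹)))
  rw [h1, nnnorm_inv, ← NNReal.coe_lt_coe]
  rw [NNReal.coe_one, NNReal.coe_inv, coe_nnnorm, Padic.norm_p, inv_inv]
  exact_mod_cast (Fact.out : p.Prime).one_lt

/-- conjugate norms -/
theorem norm_aut {v : Valuation Kb ℝ≥0} (hv : ExtendsPadicNorm k Kb p v) (σ : Kb ≃ₐ[K] Kb) :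
    ExtendsPadicNorm k Kb p (v.comap (σ : Kb →+* Kb)) := by
  intro q
  rw [← hv q, Valuation.comap_apply]
  congr 1
  exact σ.commutes _

end norm

section KU

variable [CharZero k] [Algebra (RatFunc k) K] [IsScalarTower k (RatFunc k) K]
  [FiniteDimensional (RatFunc k) K]

/-- automorphisms act on closures -/
theorem mem_cl_aut (v : Valuation Kb ℝ≥0) (σ : Kb ≃ₐ[K] Kb) {F : IntermediateField K Kb}
    (hF : ∀ z ∈ F, σ z ∈ F) (hF' : ∀ z ∈ F, σ.symm z ∈ F) {a : Kb} :
    a ∈ cl (v.comap (σ : Kb →+* Kb)) (F : Set Kb) ↔ σ a ∈ cl v (F : Set Kb) := by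
  rw [mem_cl_comap]
  have h : ((σ : Kb →+* Kb) '' (F : Set Kb)) = (F : Set Kb) := by
    ext z
    constructor
    · rintro ⟨y, hy, rfl⟩
      exact hF y hy
    · intro hz
      exact ⟨σ.symm z, hF' z hz, σ.apply_symm_apply z⟩
  rw [h]
  rfl

theorem aut_mem_M (σ : Kb ≃ₐ[K] Kb) {z : Kb} (hz : z ∈ maxUnramified k K) :
    σ z ∈ maxUnramified k K :=
  MaxUnr_97.map_maxUnramified_le σ.toAlgHom ⟨z, hz, rfl⟩

/-- the field `K_U` -/
theorem exists_KU (v₀ : Valuation Kb ℝ≥0) (hnt : ∃ a : K, 1 < v₀ (algebraMap K Kb a))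
    (C : IntermediateField k Kb) [FiniteDimensional k C] (α : Kb)
    (hα : ∀ v : Valuation Kb ℝ≥0, (∀ g ∈ KC K C, v g = v₀ g) →
      α ∈ cl v (maxUnramified k K : Set Kb)) :
    ∃ KU : IntermediateField K Kb, FiniteDimensional K KU ∧ KU ≤ maxUnramified k K ∧
      KC K C ≤ KU ∧ ∀ v : Valuation Kb ℝ≥0, (∀ g ∈ KC K C, v g = v₀ g) →
        α ∈ cl v (KU : Set Kb) := by
  classical
  have hK0 := charZero_K k K
  -- a finite field good for all conjugates
  have hfin : ∀ s : Finset Kb, ∃ F : IntermediateField K Kb, F ≤ maxUnramified k K ∧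
      FiniteDimensional K F ∧ ∀ β ∈ s, β ∈ cl v₀ (maxUnramified k K : Set Kb) →
        β ∈ cl v₀ (F : Set Kb) := by
    intro s
    induction s using Finset.induction_on with
    | empty => exact ⟨⊥, bot_le, inferInstance, by simp⟩
    | insert β s _ ih =>
      obtain ⟨F, hF1, hF2, hF3⟩ := ih
      by_cases hβ : β ∈ cl v₀ (maxUnramified k K : Set Kb)
      · obtain ⟨F', hF1', hF2', hF3'⟩ := exists_finite v₀ hnt (maxUnramified k K) β hβ
        refine ⟨F ⊔ F', sup_le hF1 hF1', IntermediateField.finiteDimensional_sup _ _, ?_⟩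
        intro γ hγ hγM
        rcases Finset.mem_insert.mp hγ with rfl | hγ
        · exact cl_mono v₀ (le_sup_right : F' ≤ F ⊔ F') hF3'
        · exact cl_mono v₀ (le_sup_left : F ≤ F ⊔ F') (hF3 γ hγ hγM)
      · refine ⟨F, hF1, hF2, fun γ hγ hγM => ?_⟩
        rcases Finset.mem_insert.mp hγ with rfl | hγ
        · exact absurd hγM hβ
        · exact hF3 γ hγ hγM
  obtain ⟨F, hF1, hF2, hF3⟩ := hfin ((minpoly K α).aroots Kb).toFinset
  have hnM : Normal K (maxUnramified k K) := MaxUnr_97.normal_maxUnramified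
  have hKbn : Normal K Kb := by
    have := isGalois_Kb k K
    exact this.to_normal
  set N := IntermediateField.normalClosure K F Kb with hN
  have hNM : N ≤ maxUnramified k K :=
    (IntermediateField.normalClosure_le_iff_of_normal).mpr hF1
  have hFN : F ≤ N := F.le_normalClosure
  have hNf : FiniteDimensional K N := normalClosure.is_finiteDimensional K F Kb
  have hNn : Normal K N := normalClosure.normal K F Kb
  have hCf : FiniteDimensional K (KC K C) := finite_KC C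
  have hCM : KC K C ≤ maxUnramified k K := by
    unfold KC
    rw [IntermediateField.adjoin_le_iff]
    intro c hcC
    exact MaxUnr_97.mem_maxUnramified_of_isIntegral c (mem_kb.mp (le_kb C hcC))
  refine ⟨KC K C ⊔ N, IntermediateField.finiteDimensional_sup _ _, sup_le hCM hNM, le_sup_left, ?_⟩
  intro v hv
  -- `v = v₀ ∘ σ`, `σ` over `K C`
  have hc0 : CharZero (KC K C) := charZero_of_injective_algebraMap (algebraMap K (KC K C)).injective
  have halg : Algebra.IsAlgebraic (KC K C) Kb := Algebra.IsAlgebraic.tower_top (K := K) (KC K C)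
  have : IsAlgClosure (KC K C) Kb := ⟨inferInstance, inferInstance⟩
  have : Normal (KC K C) Kb := inferInstance
  obtain ⟨τ, hτ⟩ := Unr9_957.exists_conj_normal (F := KC K C) v₀ v (by
    ext g
    change ((v₀ (g : Kb) : ℝ≥0) : ℝ) = ((v (g : Kb) : ℝ≥0) : ℝ)
    rw [hv g g.2])
  let σ : Kb ≃ₐ[K] Kb := τ.restrictScalars K
  have hσv : v = v₀.comap (σ : Kb →+* Kb) := by
    ext x
    rw [hτ x]
    rfl
  have hσC : ∀ z ∈ KC K C, σ z = z := fun z hz => τ.commutes ⟨z, hz⟩
  have hσN : ∀ (ρ : Kb ≃ₐ[K] Kb), ∀ z ∈ N, ρ z ∈ N := by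
    intro ρ z hz
    exact (IntermediateField.normal_iff_forall_map_le.mp hNn ρ.toAlgHom) ⟨z, hz, rfl⟩
  have hst : ∀ (ρ : Kb ≃ₐ[K] Kb), (∀ z ∈ KC K C, ρ z = z) → ∀ z ∈ KC K C ⊔ N, ρ z ∈ KC K C ⊔ N := by
    intro ρ hρ
    have h1 : (KC K C ⊔ N) ≤ (KC K C ⊔ N).comap ρ.toAlgHom := by
      refine sup_le ?_ ?_
      · intro z hz
        change ρ z ∈ KC K C ⊔ N
        rw [hρ z hz]
        exact (le_sup_left : KC K C ≤ _) hz
      · intro z hz
        exact (le_sup_right : N ≤ KC K C ⊔ N) (hσN ρ z hz)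
    exact fun z hz => h1 hz
  have hσC' : ∀ z ∈ KC K C, σ.symm z = z := by
    intro z hz
    rw [AlgEquiv.symm_apply_eq, hσC z hz]
  have hαM := hα v hv
  rw [hσv, mem_cl_aut v₀ σ (fun z hz => aut_mem_M σ hz) (fun z hz => aut_mem_M σ.symm hz)] at hαM
  rw [hσv, mem_cl_aut v₀ σ (hst σ hσC) (hst σ.symm hσC')]
  have hmem : σ α ∈ ((minpoly K α).aroots Kb).toFinset := by
    rw [Multiset.mem_toFinset, mem_aroots]
    refine ⟨minpoly.ne_zero (Algebra.IsIntegral.isIntegral α), ?_⟩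
    have : aeval (σ α) (minpoly K α) = σ (aeval α (minpoly K α)) :=
      aeval_algHom_apply σ.toAlgHom α _
    rw [this, minpoly.aeval, map_zero]
  exact cl_mono v₀ (hFN.trans le_sup_right) (hF3 _ hmem hαM)

end KU

section rescale

/-- a power of a valuation -/
noncomputable def powV {Ω : Type*} [Field Ω] (v : Valuation Ω ℝ≥0) (s : ℝ) (hs : 0 < s) :
    Valuation Ω ℝ≥0 where
  toFun x := v x ^ s
  map_zero' := by rw [map_zero, NNReal.zero_rpow hs.ne']
  map_one' := by rw [map_one, NNReal.one_rpow]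
  map_mul' x y := by rw [map_mul, NNReal.mul_rpow]
  map_add_le_max' x y := by
    rcases le_max_iff.mp (v.map_add x y) with h | h
    · exact le_max_of_le_left (NNReal.rpow_le_rpow h hs.le)
    · exact le_max_of_le_right (NNReal.rpow_le_rpow h hs.le)

theorem powV_apply {Ω : Type*} [Field Ω] (v : Valuation Ω ℝ≥0) (s : ℝ) (hs : 0 < s) (x : Ω) :
    powV v s hs x = v x ^ s := rfl

theorem cl_powV {Ω : Type*} [Field Ω] (v : Valuation Ω ℝ≥0) (s : ℝ) (hs : 0 < s) (F : Set Ω) :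
    cl (powV v s hs) F = cl v F := by
  ext a
  constructor
  · intro h ε hε
    obtain ⟨b, hb, h1⟩ := h (ε ^ s) (NNReal.rpow_pos hε)
    refine ⟨b, hb, ?_⟩
    rw [powV_apply] at h1
    exact (NNReal.rpow_lt_rpow_iff hs).mp h1
  · intro h ε hε
    obtain ⟨b, hb, h1⟩ := h (ε ^ s⁻¹) (NNReal.rpow_pos hε)
    refine ⟨b, hb, ?_⟩
    rw [powV_apply]
    have h2 := (NNReal.rpow_lt_rpow_iff hs).mpr h1
    rwa [NNReal.rpow_inv_rpow hs.ne'] at h2

theorem isPlace_powV {v : Valuation Kb ℝ≥0} (hv : IsPlace k v) (s : ℝ) (hs : 0 < s) :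
    IsPlace k (powV v s hs) := by
  refine ⟨fun c hc => ?_, ?_⟩
  · rw [powV_apply, hv.1 c hc, NNReal.one_rpow]
  · obtain ⟨a, h0, h1⟩ := hv.2
    refine ⟨a, ?_, ?_⟩
    · rw [powV_apply]
      exact (NNReal.rpow_pos (pos_of_ne_zero h0)).ne'
    · rw [powV_apply]
      intro h
      apply h1
      have h2 : (v a ^ s) ^ s⁻¹ = 1 := by rw [h, NNReal.one_rpow]
      rwa [NNReal.rpow_rpow_inv hs.ne'] at h2

/-- equivalent places on a field with a uniformiser can be rescaled to be equal -/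
theorem exists_rescale {v P : Valuation Kb ℝ≥0} {F : IntermediateField K Kb}
    (h : ∀ g ∈ F, v g ≤ 1 ↔ P g ≤ 1) {x : Kb} (hx : x ∈ F) (hx0 : x ≠ 0) (hx1 : P x < 1)
    (hx2 : ∀ g ∈ F, P g < 1 → P g ≤ P x) :
    ∃ (s : ℝ) (hs : 0 < s), ∀ g ∈ F, powV v s hs g = P g := by
  have hPx : 0 < P x := (Valuation.pos_iff P).mpr hx0
  have hvx0 : 0 < v x := (Valuation.pos_iff v).mpr hx0
  -- `<`
  have hlt : ∀ g ∈ F, g ≠ 0 → (v g < 1 ↔ P g < 1) := by
    intro g hg hg0
    have h1 := h _ (inv_mem hg)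
    rw [map_inv₀, map_inv₀, inv_le_one₀ ((Valuation.pos_iff v).mpr hg0),
      inv_le_one₀ ((Valuation.pos_iff P).mpr hg0)] at h1
    rw [← not_le, ← not_le, h1]
  have hvx : v x < 1 := (hlt x hx hx0).mpr hx1
  have heq : ∀ g ∈ F, P g = 1 → v g = 1 := by
    intro g hg h1
    have hg0 : g ≠ 0 := by
      rintro rfl
      rw [map_zero] at h1
      exact zero_ne_one h1
    refine le_antisymm ((h g hg).mpr h1.le) ?_
    by_contra hcon
    push Not at hcon
    exact absurd ((hlt g hg hg0).mp hcon) (by rw [h1]; exact lt_irrefl _)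
  -- discreteness
  have hdisc : ∀ g ∈ F, g ≠ 0 → ∃ n : ℤ, P g = P x ^ n := by
    intro g hg hg0
    have hPg : 0 < P g := (Valuation.pos_iff P).mpr hg0
    obtain ⟨n, hn1, hn2⟩ := exists_mem_Ioc_zpow (y := (P x)⁻¹) hPg ((one_lt_inv₀ hPx).mpr hx1)
    rw [inv_zpow] at hn1 hn2
    refine ⟨-(n + 1), ?_⟩
    have hxn : 0 < P x ^ (n + 1) := zpow_pos hPx _
    have h1 : P (g * x ^ (n + 1)) ≤ 1 := by
      rw [map_mul, map_zpow₀]
      calc P g * P x ^ (n + 1) ≤ (P x ^ (n + 1))⁻¹ * P x ^ (n + 1) := by gcongr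
        _ = 1 := inv_mul_cancel₀ hxn.ne'
    have h2 : P x < P (g * x ^ (n + 1)) := by
      rw [map_mul, map_zpow₀, zpow_add_one₀ hPx.ne']
      calc P x = (P x ^ n)⁻¹ * (P x ^ n * P x) := by
            rw [← mul_assoc, inv_mul_cancel₀ (zpow_pos hPx n).ne', one_mul]
        _ < P g * (P x ^ n * P x) := by
            have : 0 < P x ^ n * P x := mul_pos (zpow_pos hPx n) hPx
            gcongr
    have h3 : P (g * x ^ (n + 1)) = 1 := by
      refine le_antisymm h1 ?_
      by_contra hcon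
      push Not at hcon
      exact absurd (hx2 _ (mul_mem hg (zpow_mem hx _)) hcon) (not_le.mpr h2)
    rw [map_mul, map_zpow₀] at h3
    rw [zpow_neg]
    exact eq_inv_of_mul_eq_one_left h3
  have hlogP : Real.log (P x) < 0 := Real.log_neg (by exact_mod_cast hPx) (by exact_mod_cast hx1)
  have hlogv : Real.log (v x) < 0 := Real.log_neg (by exact_mod_cast hvx0) (by exact_mod_cast hvx)
  have hs : 0 < Real.log (P x) / Real.log (v x) := div_pos_of_neg_of_neg hlogP hlogv
  refine ⟨_, hs, fun g hg => ?_⟩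
  have hxs : v x ^ (Real.log (P x) / Real.log (v x)) = P x := by
    rw [← NNReal.coe_inj, NNReal.coe_rpow, Real.rpow_def_of_pos (by exact_mod_cast hvx0),
      mul_div_cancel₀ _ hlogv.ne, Real.exp_log (by exact_mod_cast hPx)]
  by_cases hg0 : g = 0
  · rw [hg0, map_zero, map_zero]
  obtain ⟨n, hn⟩ := hdisc g hg hg0
  have h1 : P (g * x ^ (-n)) = 1 := by
    rw [map_mul, map_zpow₀, hn, ← zpow_add₀ hPx.ne', add_neg_cancel, zpow_zero]
  have h2 := heq _ (mul_mem hg (zpow_mem hx _)) h1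
  rw [map_mul, map_zpow₀, zpow_neg, mul_inv_eq_one₀ (zpow_pos hvx0 n).ne'] at h2
  rw [powV_apply, h2, hn, ← NNReal.rpow_intCast, ← NNReal.rpow_mul, mul_comm, NNReal.rpow_mul,
    hxs, NNReal.rpow_intCast]

end rescale

end Crest.Agent.R013.Cof9_669
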