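import Mathlib
import Crest.Agent.R013.Cof9_669

/-!
# Row 13, B-CUTOFF, part 10: the statement `S0016` from (SE) and the cutting theorem (CUT-END)
-/

set_option autoImplicit false
set_option linter.unusedSectionVars false

namespace Crest.Agent.R013.Cof10_669

open scoped NNReal Topology
open Filter Polynomial Crest.NumberTheoryR.Sect
open Crest.Agent.R013.SE_669 Crest.Agent.R013.Unr3_957 Crest.Agent.R013.Unr4_957
  Crest.Agent.R013.Cof1_669 Crest.Agent.R013.Cof2_669 Crest.Agent.R013.Cof3_669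
  Crest.Agent.R013.Cof4_669 Crest.Agent.R013.Cof5_669 Crest.Agent.R013.Cof6_669
  Crest.Agent.R013.Cof7_669 Crest.Agent.R013.Cof8_669 Crest.Agent.R013.Cof9_669

/-- **(CUT-END)**, the cutting theorem (for 946) -/
def CutEnd (p : ℕ) [Fact p.Prime] (k : Type*) [Field k] [Algebra ℚ_[p] k] (K : Type*) [Field K]
    [Algebra k K] : Prop :=
  ∀ (C : IntermediateField k (AlgebraicClosure K)) [FiniteDimensional k C]
    (π x : AlgebraicClosure K) (P v₀ : Valuation (AlgebraicClosure K) ℝ≥0),
    π ∈ C → π ≠ 0 → x ∈ KC K C → x ≠ 0 → IsPlace k P → P x < 1 →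
    ExtendsPadicNorm k (AlgebraicClosure K) p v₀ → IsCircle K C P x (v₀ π) v₀ →
    ∀ (KU L : IntermediateField K (AlgebraicClosure K)) [FiniteDimensional K KU]
      [FiniteDimensional K L], KC K C ≤ KU → KC K C ≤ L →
    (∀ v : Valuation (AlgebraicClosure K) ℝ≥0, ExtendsPadicNorm k (AlgebraicClosure K) p v →
      (∀ g ∈ KC K C, v g = v₀ g) →
      (L : Set (AlgebraicClosure K)) ⊆ cl v (KU : Set (AlgebraicClosure K))) →
    ∀ w : Valuation (AlgebraicClosure K) ℝ≥0, ExtendsPadicNorm k (AlgebraicClosure K) p w →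
      w π ≤ w x →
    ∃ A' : IntermediateField K (AlgebraicClosure K), FiniteDimensional K A' ∧ KU ≤ A' ∧
      (L : Set (AlgebraicClosure K)) ⊆ cl w (A' : Set (AlgebraicClosure K)) ∧
      ∀ v : Valuation (AlgebraicClosure K) ℝ≥0, IsPlace k v →
        ((∃ s : AlgebraicClosure K ≃ₐ[K] AlgebraicClosure K, (∀ z ∈ KU, s z = z) ∧
            (A' : Set (AlgebraicClosure K)) ⊆
              cl v (s '' ((L ⊔ KU : IntermediateField K (AlgebraicClosure K)) :
                Set (AlgebraicClosure K)))) ∨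
          (A' : Set (AlgebraicClosure K)) ⊆ cl v (KU : Set (AlgebraicClosure K))) ∧
        ((∀ g ∈ KC K C, v g = P g) →
          (A' : Set (AlgebraicClosure K)) ⊆ cl v (KU : Set (AlgebraicClosure K)))

section base

variable {k : Type*} [Field k] {K : Type*} [Field K] [Algebra k K]

local notation "Kb" => AlgebraicClosure K

theorem KC_le_M (C : IntermediateField k Kb) [FiniteDimensional k C]
    [CharZero k] [Algebra (RatFunc k) K] [IsScalarTower k (RatFunc k) K]
    [FiniteDimensional (RatFunc k) K] : KC K C ≤ maxUnramified k K := by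
  unfold KC
  rw [IntermediateField.adjoin_le_iff]
  intro c hcC
  exact MaxUnr_97.mem_maxUnramified_of_isIntegral c (mem_kb.mp (le_kb C hcC))

theorem kb_le_M [CharZero k] [Algebra (RatFunc k) K] [IsScalarTower k (RatFunc k) K]
    [FiniteDimensional (RatFunc k) K] {c : Kb} (hc : c ∈ kb k K) : c ∈ maxUnramified k K :=
  MaxUnr_97.mem_maxUnramified_of_isIntegral c (mem_kb.mp hc)

/-- conjugate valuations over `K C` -/
theorem exists_conj_KC [CharZero k] (C : IntermediateField k Kb) (v₀ v : Valuation Kb ℝ≥0)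
    (h : ∀ g ∈ KC K C, v g = v₀ g) [FiniteDimensional k C] :
    ∃ σ : Kb ≃ₐ[K] Kb, v = v₀.comap (σ : Kb →+* Kb) ∧ ∀ z ∈ KC K C, σ z = z := by
  have hK0 := charZero_K k K
  have hc0 : CharZero (KC K C) := charZero_of_injective_algebraMap (algebraMap K (KC K C)).injective
  have halg : Algebra.IsAlgebraic (KC K C) Kb := Algebra.IsAlgebraic.tower_top (K := K) (KC K C)
  have : IsAlgClosure (KC K C) Kb := ⟨inferInstance, inferInstance⟩
  have : Normal (KC K C) Kb := inferInstance
  obtain ⟨τ, hτ⟩ := Unr9_957.exists_conj_normal (F := KC K C) v₀ v (by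
    ext g
    change ((v₀ (g : Kb) : ℝ≥0) : ℝ) = ((v (g : Kb) : ℝ≥0) : ℝ)
    rw [h g g.2])
  refine ⟨τ.restrictScalars K, ?_, fun z hz => τ.commutes ⟨z, hz⟩⟩
  ext x
  rw [hτ x]
  rfl

/-- a finite subfield of `maxUnramified` is unramified everywhere -/
theorem unrAt_of_le_M [CharZero k] [Algebra (RatFunc k) K] [IsScalarTower k (RatFunc k) K]
    [FiniteDimensional (RatFunc k) K] {F : IntermediateField K Kb} [FiniteDimensional K F]
    (hF : F ≤ maxUnramified k K) {v : Valuation Kb ℝ≥0} (hv : IsPlace k v) :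
    UnrAt K v (F : Set Kb) :=
  unrAt_of_unr (Unr5_957.le_maxUnramified_iff.mp hF) v hv

/-- closures under roots of unity -/
theorem root_mem_cl [CharZero k] [Algebra (RatFunc k) K] [IsScalarTower k (RatFunc k) K]
    [FiniteDimensional (RatFunc k) K] {v : Valuation Kb ℝ≥0} {x ξ ξ' : Kb} {e : ℕ} (he : 0 < e)
    (hξ : ξ ^ e = x) (hξ' : ξ' ^ e = x) (hx : x ≠ 0)
    (h : ξ ∈ cl v (maxUnramified k K : Set Kb)) : ξ' ∈ cl v (maxUnramified k K : Set Kb) := by
  have hξ0 : ξ ≠ 0 := by
    rintro rfl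
    rw [zero_pow he.ne'] at hξ
    exact hx hξ.symm
  have h1 : (ξ' / ξ) ^ e = 1 := by
    rw [div_pow, hξ, hξ', div_self hx]
  have h2 : ξ' / ξ ∈ kb k K := by
    rw [mem_kb]
    exact IsIntegral.of_pow he (by rw [h1]; exact isIntegral_one)
  have h3 : ξ' / ξ ∈ clI v (maxUnramified k K) := le_clI v _ (kb_le_M h2)
  have h4 : ξ ∈ clI v (maxUnramified k K) := h
  have h5 := mul_mem h3 h4
  rw [div_mul_cancel₀ _ hξ0] at h5
  exact h5

end base

section main

variable {k : Type} [Field k] {K : Type} [Field K] [Algebra k K]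

local notation "Kb" => AlgebraicClosure K

/-- **the induction** -/
theorem induct (p : ℕ) [Fact p.Prime] (hSE : SEall p) [Algebra ℚ_[p] k]
    [FiniteDimensional ℚ_[p] k] [Algebra (RatFunc k) K] [IsScalarTower k (RatFunc k) K]
    [FunctionField k K] (hc : algebraicClosure k K = ⊥) (hg : 2 ≤ genus k K)
    (hCut : CutEnd p k K) (w : Valuation Kb ℝ≥0) (hw : ExtendsPadicNorm k Kb p w) :
    ∀ (Ps : List (Valuation Kb ℝ≥0)), (∀ P ∈ Ps, IsPlace k P) →
    ∀ (C : IntermediateField k Kb) [FiniteDimensional k C] (L : IntermediateField K Kb)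
      [FiniteDimensional K L],
      (∀ v v' : Valuation Kb ℝ≥0, IsPlace k v → IsPlace k v' →
        (∀ g ∈ KC K C, v g ≤ 1 ↔ v' g ≤ 1) → ¬ UnrAt K v' (L : Set Kb) →
        ∃ P ∈ Ps, SameGeo k P v) →
      (L : Set Kb) ⊆ cl w (maxUnramified k K : Set Kb) := by
  have hk0 : CharZero k := charZero_of_injective_algebraMap (algebraMap ℚ_[p] k).injective
  have hK0 := charZero_K k K
  have hKfd : FiniteDimensional (RatFunc k) K := inferInstance
  intro Ps
  induction Ps with
  | nil =>
    intro _ C _ L _ h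
    have h1 : IsUnramifiedEverywhere k K L := by
      refine unr_of_unrAt fun v hv => ?_
      by_contra hcon
      obtain ⟨P, hP, -⟩ := h v v hv hv (fun _ _ => Iff.rfl) hcon
      simp at hP
    have h2 : L ≤ maxUnramified k K := Unr5_957.le_maxUnramified_iff.mpr h1
    exact fun a ha => subset_cl w _ (h2 ha)
  | cons P Ps' ih =>
    intro hPs C _ L _ h
    have hP : IsPlace k P := hPs P (by simp)
    obtain ⟨C₁, hCC₁, hC₁f, hrat, -⟩ := exists_rational hc hP C
    -- a uniformiser
    have hKC₁f : FiniteDimensional K (KC K C₁) := finite_KC C₁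
    have := finite_IF (k := k) (KC K C₁)
    have := tower_IF (k := k) (KC K C₁)
    have : IsScalarTower k (KC K C₁) Kb := tower_kLb (KC K C₁)
    have : Algebra.IsAlgebraic (KC K C₁) Kb := Algebra.IsAlgebraic.tower_top (K := K) (KC K C₁)
    obtain ⟨⟨x, hxm⟩, hx0', hx1', hx2'⟩ := Places_97.exists_uniformizer
      (P.comap (algebraMap (KC K C₁) Kb)) (isPlace_comap (F := KC K C₁) hP)
    have hPx0 : P x ≠ 0 := hx0'
    have hx1 : P x < 1 := hx1'
    have hx2 : ∀ g ∈ KC K C₁, P g < 1 → P g ≤ P x := fun g hg h1 => hx2' ⟨g, hg⟩ h1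
    have hx0 : x ≠ 0 := by
      rintro rfl
      exact hPx0 (map_zero P)
    have hxt : Transcendental k x := by
      intro hcon
      have h1 : P x = 1 := val_const hP (mem_kb.mpr hcon.isIntegral) hx0
      exact hx1.ne h1
    -- primitive element
    obtain ⟨α, hα⟩ : ∃ α : Kb, L = IntermediateField.adjoin K {α} := by
      obtain ⟨β, hβ⟩ := Field.exists_primitive_element K L
      refine ⟨(β : Kb), ?_⟩
      have h1 := congrArg IntermediateField.lift hβ
      rw [IntermediateField.lift_adjoin_simple, IntermediateField.lift_top] at h1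
      exact h1.symm
    obtain ⟨e, he, R₀, hR₀, hkum⟩ := kum_Kb w x α hxt
    have hwx : 0 < w x := (Valuation.pos_iff w).mpr hx0
    obtain ⟨C₂, π, ξ, v₀, hC₁₂, hC₂f, hπ, hπ0, hπδ, hv₀, hcirc, hξe, hξM⟩ :=
      SE_local p hSE hc hg C₁ hP hrat hxm hx1 hx2 e (Nat.pos_of_ne_zero he) (min R₀ (w x))
        (lt_min hR₀ hwx)
    have hv₀x : v₀ x = v₀ π := by
      have h1 := hcirc.gauss 2 (fun i => if i = 1 then 1 else 0) (by
        intro i
        by_cases hi : i = 1
        · simp [hi, C₂.one_mem]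
        · simp [hi, C₂.zero_mem])
      simpa [psum, Finset.sum_range_succ, Finset.sup_insert, Finset.range_add_one] using h1
    have hxm₂ : x ∈ KC K C₂ := KC_mono hC₁₂ hxm
    -- `α` is in the closure of `M` for the norms over the circle
    have hαM : ∀ v : Valuation Kb ℝ≥0, (∀ g ∈ KC K C₂, v g = v₀ g) →
        α ∈ cl v (maxUnramified k K : Set Kb) := by
      intro v hv
      obtain ⟨σ, hσ, hσC⟩ := exists_conj_KC C₂ v₀ v hv
      have hvn : ExtendsPadicNorm k Kb p v := by
        rw [hσ]; exact norm_aut p hv₀ σ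
      have h1 : ξ ∈ cl v (maxUnramified k K : Set Kb) := by
        rw [hσ, mem_cl_aut v₀ σ (fun z hz => aut_mem_M σ hz) (fun z hz => aut_mem_M σ.symm hz)]
        refine root_mem_cl (Nat.pos_of_ne_zero he) hξe ?_ hx0 hξM
        rw [← map_pow, hξe, hσC x hxm₂]
      refine hkum v (fun c hc => norm_unique p hvn hw hc) ξ hξe ?_
        (maxUnramified k K).toSubfield (fun c hc => kb_le_M hc) h1
      rw [hv x hxm₂, hv₀x]
      exact hπδ.trans_le (min_le_left _ _)
    obtain ⟨a₁, ha₁⟩ := one_lt_norm (k := k) (K := K) p hv₀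
    obtain ⟨KU, hKUf, hKUM, hKCU, hKUα⟩ := exists_KU v₀ ⟨a₁, ha₁⟩ C₂ α hαM
    have hKC₂f : FiniteDimensional K (KC K C₂) := finite_KC C₂
    have hL'f : FiniteDimensional K (L ⊔ KC K C₂ : IntermediateField K Kb) :=
      IntermediateField.finiteDimensional_sup L (KC K C₂)
    -- the cutting theorem
    have hcut1 : ∀ v : Valuation Kb ℝ≥0, ExtendsPadicNorm k Kb p v →
        (∀ g ∈ KC K C₂, v g = v₀ g) →
        ((L ⊔ KC K C₂ : IntermediateField K Kb) : Set Kb) ⊆ cl v (KU : Set Kb) := by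
      intro v _ hv
      have h1 : (L ⊔ KC K C₂ : IntermediateField K Kb) ≤ clI v KU := by
        refine sup_le ?_ (hKCU.trans (le_clI v KU))
        rw [hα, IntermediateField.adjoin_simple_le_iff]
        exact hKUα v hv
      exact fun z hz => h1 hz
    have hwπ : w π ≤ w x := by
      rw [norm_unique p hw hv₀ (le_kb C₂ hπ)]
      exact (hπδ.trans_le (min_le_right _ _)).le
    obtain ⟨A', hA'f, hKUA', hLA', hA'pl⟩ := hCut C₂ π x P v₀ hπ hπ0 hxm₂ hx0 hP hx1 hv₀ hcirc KU
      (L ⊔ KC K C₂) hKCU le_sup_right hcut1 w hw hwπ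
    -- the induction hypothesis
    have hIH : (A' : Set Kb) ⊆ cl w (maxUnramified k K : Set Kb) := by
      refine ih (fun Q hQ => hPs Q (List.mem_cons_of_mem _ hQ)) C₂ A' ?_
      intro v v' hv hv' hvv' hun
      obtain ⟨h1, -⟩ := hA'pl v' hv'
      have hKUun : ∀ u : Valuation Kb ℝ≥0, IsPlace k u → UnrAt K u (KU : Set Kb) :=
        fun u hu => unrAt_of_le_M hKUM hu
      rcases h1 with ⟨s, hs1, hs2⟩ | h1
      swap
      · exact absurd (UnrAt.of_cl (hKUun v' hv') h1) hun
      have h2 : ¬ UnrAt K (v'.comap (s : Kb →+* Kb)) (L : Set Kb) := by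
        intro h3
        apply hun
        refine UnrAt.of_cl ?_ hs2
        rw [← unrAt_comap]
        have hpl := val_aut_place hv' s
        refine UnrAt.mono (unrAt_sup hpl h3 (hKUun _ hpl)) ?_
        have h4 : (L ⊔ KC K C₂ ⊔ KU : IntermediateField K Kb) ≤ L ⊔ KU :=
          sup_le (sup_le le_sup_left (hKCU.trans le_sup_right)) le_sup_right
        exact h4
      obtain ⟨Q, hQ, hQv⟩ := h v (v'.comap (s : Kb →+* Kb)) hv (val_aut_place hv' s) (by
        intro g hg
        have hg2 : g ∈ KC K C₂ := KC_mono (hCC₁.trans hC₁₂) hg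
        rw [Valuation.comap_apply]
        change v g ≤ 1 ↔ v' (s g) ≤ 1
        rw [hs1 g (hKCU hg2)]
        exact hvv' g hg2) h2
      rcases List.mem_cons.mp hQ with rfl | hQ
      · exfalso
        -- `v'` is `P` on `K C₂`
        have hPv' : ∀ g ∈ KC K C₂, v' g ≤ 1 ↔ Q g ≤ 1 := by
          intro g hg
          rw [← hvv' g hg]
          exact (hQv g (KC_le_Kgeo C₂ hg)).symm
        have := finite_IF (k := k) (KC K C₂)
        have := tower_IF (k := k) (KC K C₂)
        have : IsScalarTower k (KC K C₂) Kb := tower_kLb (KC K C₂)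
        have : Algebra.IsAlgebraic (KC K C₂) Kb :=
          Algebra.IsAlgebraic.tower_top (K := K) (KC K C₂)
        obtain ⟨⟨y, hym⟩, hy0', hy1', hy2'⟩ := Places_97.exists_uniformizer
          (Q.comap (algebraMap (KC K C₂) Kb)) (isPlace_comap (F := KC K C₂) hP)
        have hy0 : y ≠ 0 := by
          rintro rfl
          exact hy0' (map_zero Q)
        obtain ⟨r, hr, hrP⟩ := exists_rescale hPv' hym hy0 hy1'
          (fun g hg h1 => hy2' ⟨g, hg⟩ h1)
        obtain ⟨-, h5⟩ := hA'pl (powV v' r hr) (isPlace_powV hv' r hr)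
        have h6 := h5 hrP
        rw [cl_powV] at h6
        exact hun (UnrAt.of_cl (hKUun v' hv') h6)
      · exact ⟨Q, hQ, hQv⟩
    intro z hz
    have h7 : z ∈ cl w (A' : Set Kb) := hLA' ((le_sup_left : L ≤ L ⊔ KC K C₂) hz)
    exact cl_trans w hIH h7

/-- **density** -/
theorem dense (p : ℕ) [Fact p.Prime] (hSE : SEall p) [Algebra ℚ_[p] k]
    [FiniteDimensional ℚ_[p] k] [Algebra (RatFunc k) K] [IsScalarTower k (RatFunc k) K]
    [FunctionField k K] (hc : algebraicClosure k K = ⊥) (hg : 2 ≤ genus k K)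
    (hCut : CutEnd p k K) (w : Valuation Kb ℝ≥0) (hw : ExtendsPadicNorm k Kb p w) (a : Kb) :
    a ∈ cl w (maxUnramified k K : Set Kb) := by
  have hk0 : CharZero k := charZero_of_injective_algebraMap (algebraMap ℚ_[p] k).injective
  have hK0 := charZero_K k K
  have hKfd : FiniteDimensional (RatFunc k) K := inferInstance
  have hLf : FiniteDimensional K (IntermediateField.adjoin K {a}) :=
    IntermediateField.adjoin.finiteDimensional (Algebra.IsIntegral.isIntegral a)
  obtain ⟨Ps, hPs1, hPs2⟩ := finite_branch (k := k) (IntermediateField.adjoin K {a})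
  refine induct p hSE hc hg hCut w hw Ps hPs1 ⊥ (IntermediateField.adjoin K {a}) ?_
    (IntermediateField.mem_adjoin_simple_self K a)
  intro v v' hv hv' hvv' hun
  exact hPs2 v v' hv hv' (fun g => hvv' _ ((KC K ⊥).algebraMap_mem g)) hun

/-- **`S0016` from (SE) and the cutting theorem** -/
theorem s0016_of (p : ℕ) [Fact p.Prime] (hSE : SEall p) (k : Type) [Field k] [Algebra ℚ_[p] k]
    [FiniteDimensional ℚ_[p] k]
    (K : Type) [Field K] [Algebra k K] [Algebra (RatFunc k) K] [IsScalarTower k (RatFunc k) K]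
    [FunctionField k K] (hc : algebraicClosure k K = ⊥) (hg : 2 ≤ genus k K)
    (hCut : CutEnd p k K)
    (v : Valuation K ℝ≥0) (hv : ExtendsPadicNorm k K p v)
    (w : Valuation (AlgebraicClosure K) ℝ≥0)
    (hw : w.comap (algebraMap K (AlgebraicClosure K)) = v) :
    ∀ a : AlgebraicClosure K, ∀ ε : ℝ≥0, 0 < ε →
      ∃ b : maxUnramified k K, w (a - (b : AlgebraicClosure K)) < ε := by
  intro a ε hε
  have hw' : ExtendsPadicNorm k (AlgebraicClosure K) p w := by
    intro q
    rw [← hv q, ← hw]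
    rfl
  obtain ⟨b, hb, h1⟩ := dense p hSE hc hg hCut w hw' a ε hε
  exact ⟨⟨b, hb⟩, h1⟩

end main

end Crest.Agent.R013.Cof10_669
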