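import Mathlib
import Crest.Agent.R013.Cof10_669
import Crest.Agent.R013.Annu6_930

/-!
# Row 13, part B, last step (BR): from the annulus to (SE)

`U` is unramified everywhere over `K`, contains the constants `C` and is embedded (`ι`) in the field
`E` of the circle `|x| = |π|`; `h : U` has all its orders divisible by `e` and
`ι h = c y^m (1 + ε) g^e` with `m ≡ ± 1 mod e` and `‖ε‖ < ‖e‖²`. Then the `e`-th roots of `x` are in
the closure of `maxUnramified` for every norm of `AlgebraicClosure K` which extends the norm of `U`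
defined by `ι`: this is (SE).
-/

set_option autoImplicit false
set_option linter.unusedSectionVars false

namespace Crest.Agent.R013.CofBR_669

open scoped NNReal Topology
open Filter Polynomial Crest.NumberTheoryR.Sect
open Crest.Agent.R013.SE_669 Crest.Agent.R013.Unr3_957 Crest.Agent.R013.Unr4_957
  Crest.Agent.R013.Cof1_669 Crest.Agent.R013.Cof2_669 Crest.Agent.R013.Cof10_669

section root

variable {Ω : Type*} [Field Ω] [IsAlgClosed Ω]

/-- if `a` is approximated by `e`-th powers of elements of `F` then an `e`-th root of `a` is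
approximated by elements of `F` -/
theorem exists_root_cl {v : Valuation Ω ℝ≥0} {F : Set Ω} {e : ℕ} (he : 0 < e) (a : Ω)
    (h : ∀ ε : ℝ≥0, 0 < ε → ∃ u ∈ F, v (u ^ e - a) < ε) : ∃ η ∈ cl v F, η ^ e = a := by
  classical
  by_contra hcon
  push Not at hcon
  have hmon : (X ^ e - C a : Polynomial Ω).Monic := monic_X_pow_sub_C a he.ne'
  have hroots : ∀ r ∈ (X ^ e - C a : Polynomial Ω).roots, ∃ ε : ℝ≥0, 0 < ε ∧ ∀ u ∈ F, ε ≤ v (u - r) := by
    intro r hr
    have hr1 : r ^ e = a := by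
      have := (mem_roots'.mp hr).2
      simpa [sub_eq_zero] using this
    have hr2 : r ∉ cl v F := fun h1 => hcon r h1 hr1
    have hr3 : ¬ ∀ ε : ℝ≥0, 0 < ε → ∃ b ∈ F, v (r - b) < ε := hr2
    push Not at hr3
    obtain ⟨ε, hε, h1⟩ := hr3
    exact ⟨ε, hε, fun u hu => by rw [Valuation.map_sub_swap]; exact h1 u hu⟩
  choose! ε hε0 hε using hroots
  have hpos : 0 < ((X ^ e - C a : Polynomial Ω).roots.map ε).prod := by
    apply pos_of_ne_zero
    intro h0
    rw [Multiset.prod_eq_zero_iff] at h0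
    obtain ⟨r, hr, hr0⟩ := Multiset.mem_map.mp h0
    exact (hε0 r hr).ne' hr0
  obtain ⟨u, hu, hlt⟩ := h _ hpos
  have hprod : u ^ e - a = ((X ^ e - C a : Polynomial Ω).roots.map fun r => u - r).prod := by
    have h1 := (IsAlgClosed.splits (X ^ e - C a : Polynomial Ω)).eq_prod_roots_of_monic hmon
    have h2 := congrArg (eval u) h1
    rw [eval_multiset_prod, Multiset.map_map] at h2
    simpa using h2
  rw [hprod, map_multiset_prod, Multiset.map_map] at hlt
  refine absurd hlt (not_lt.mpr ?_)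
  refine Multiset.prod_map_le_prod_map₀ _ _ (fun r _ => zero_le) ?_
  intro r hr
  exact hε r hr u hu

end root

section br1

variable {k : Type*} [Field k] {K : Type*} [Field K] [Algebra k K]
variable [CharZero k] [Algebra (RatFunc k) K] [IsScalarTower k (RatFunc k) K]
  [FiniteDimensional (RatFunc k) K]

local notation "Kb" => AlgebraicClosure K

theorem exists_pow_kb {c : Kb} (hc : c ∈ kb k K) {e : ℕ} (he : 0 < e) :
    ∃ γ ∈ kb k K, γ ^ e = c := by
  obtain ⟨γ, hγ⟩ := IsAlgClosed.exists_pow_nat_eq c he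
  refine ⟨γ, ?_, hγ⟩
  rw [mem_kb]
  exact IsIntegral.of_pow he (by rw [hγ]; exact mem_kb.mp hc)

/-- **BR, on the algebraic closure of `K`** -/
theorem br1 {v : Valuation Kb ℝ≥0} {e : ℕ} (he : 0 < e) {h c x h' g y : Kb}
    (hy : y ∈ cl v (maxUnramified k K : Set Kb)) (hyh : y ^ e = h)
    (hc : c ∈ kb k K) (hc0 : c ≠ 0) (hx0 : x ≠ 0)
    (hxM : x ∈ cl v (maxUnramified k K : Set Kb)) (hg : g ∈ cl v (maxUnramified k K : Set Kb))
    (hg0 : g ≠ 0) (hh0 : h' ≠ 0)
    (hh' : ∀ ε : ℝ≥0, 0 < ε → ∃ u ∈ cl v (maxUnramified k K : Set Kb), v (u ^ e - h') < ε)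
    (m q : ℤ) (hm : m = e * q + 1 ∨ m = e * q - 1)
    (heq : h = c * x ^ m * h' * g ^ e) {ξ : Kb} (hξ : ξ ^ e = x) :
    ξ ∈ cl v (maxUnramified k K : Set Kb) := by
  obtain ⟨γ, hγ, hγe⟩ := exists_pow_kb hc he
  obtain ⟨η, hη, hηe⟩ := exists_root_cl he h' hh'
  have hη' : η ∈ clI v (maxUnramified k K) := cl_trans v (F := cl v (maxUnramified k K : Set Kb))
    (G := (maxUnramified k K : Set Kb)) (fun a ha => ha) hη
  have hγ' : γ ∈ clI v (maxUnramified k K) := le_clI v _ (kb_le_M hγ)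
  have hy' : y ∈ clI v (maxUnramified k K) := hy
  have hg' : g ∈ clI v (maxUnramified k K) := hg
  have hx' : x ∈ clI v (maxUnramified k K) := hxM
  have hγ0 : γ ≠ 0 := by
    rintro rfl
    rw [zero_pow he.ne'] at hγe
    exact hc0 hγe.symm
  have hη0 : η ≠ 0 := by
    rintro rfl
    rw [zero_pow he.ne'] at hηe
    exact hh0 hηe.symm
  -- `z = y / (γ x^q η g)`, `z^e = x^{±1}`
  set z := y / (γ * x ^ q * η * g) with hz
  have hzM : z ∈ clI v (maxUnramified k K) :=
    div_mem hy' (mul_mem (mul_mem (mul_mem hγ' (zpow_mem hx' q)) hη') hg')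
  have hze : z ^ e = x ^ (m - e * q) := by
    rw [hz, div_pow, hyh, mul_pow, mul_pow, mul_pow, hγe, hηe, ← zpow_natCast (x ^ q) e,
      ← zpow_mul, heq, zpow_sub₀ hx0, mul_comm q (e : ℤ)]
    have hge : g ^ e ≠ 0 := pow_ne_zero _ hg0
    have hxe : x ^ ((e : ℤ) * q) ≠ 0 := zpow_ne_zero _ hx0
    field_simp
  rcases hm with hm | hm
  · have h1 : z ^ e = x := by
      rw [hze, hm, add_sub_cancel_left, zpow_one]
    exact root_mem_cl he h1 hξ hx0 hzM
  · have h1 : z⁻¹ ^ e = x := by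
      rw [inv_pow, hze, hm, sub_sub_cancel_left, zpow_neg, zpow_one, inv_inv]
    exact root_mem_cl he h1 hξ hx0 (inv_mem hzM)

end br1

section gauss

variable {k' : Type*} [NormedField k'] {E : Type*} [NormedField E] [IsUltrametricDist E]
  [NormedAlgebra k' E] {y : E}

/-- the Gauss norm of a partial sum -/
theorem nnnorm_sum_eq (hG : Gl946.IsGauss k' y) (n : ℕ) (a : ℕ → k') :
    ‖∑ i ∈ Finset.range n, algebraMap k' E (a i) * y ^ i‖₊ = (Finset.range n).sup fun i => ‖a i‖₊ := by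
  classical
  have h1 : ∑ i ∈ Finset.range n, algebraMap k' E (a i) * y ^ i =
      aeval y (∑ i ∈ Finset.range n, monomial i (a i)) := by
    rw [map_sum]
    exact Finset.sum_congr rfl fun i _ => (aeval_monomial (A := E) y).symm
  apply le_antisymm
  · have hval : ∀ z : E, (NormedField.valuation (K := E) : Valuation E ℝ≥0) z = ‖z‖₊ :=
      fun _ => rfl
    rw [← hval]
    refine Valuation.map_sum_le _ fun i hi => ?_
    rw [hval]
    have h2 : ‖algebraMap k' E (a i) * y ^ i‖₊ ≤ ‖a i‖₊ := by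
      rw [nnnorm_mul, nnnorm_pow, nnnorm_algebraMap']
      have h3 : ‖y‖₊ ≤ 1 := hG.norm_le
      exact mul_le_of_le_one_right zero_le (pow_le_one₀ zero_le h3)
    exact h2.trans (Finset.le_sup (f := fun i => ‖a i‖₊) hi)
  · refine Finset.sup_le fun i hi => ?_
    rw [h1]
    have h2 := hG.coeff_le (∑ i ∈ Finset.range n, monomial i (a i)) i
    have h3 : (∑ i ∈ Finset.range n, monomial i (a i)).coeff i = a i := by
      rw [finsetSum_coeff]
      simp only [coeff_monomial]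
      rw [Finset.sum_ite_eq' (Finset.range n) i]
      simp [hi]
    rw [h3] at h2
    exact h2

end gauss

section se

variable {k : Type*} [Field k] {K : Type*} [Field K] [Algebra k K]
variable [CharZero k] [Algebra (RatFunc k) K] [IsScalarTower k (RatFunc k) K]
  [FiniteDimensional (RatFunc k) K]

local notation "Kb" => AlgebraicClosure K

/-- the norm on the algebraic closure -/
theorem exists_norm_ext {U : IntermediateField K Kb} {E : Type*} [NormedField E]
    [IsUltrametricDist E] (ι : U →+* E) (hnt : ∃ a : U, 1 < ‖ι a‖₊) :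
    ∃ v : Valuation Kb ℝ≥0, ∀ a : U, v (a : Kb) = ‖ι a‖₊ := by
  let w : Valuation U ℝ≥0 := (NormedField.valuation (K := E)).comap ι
  have hnt' : ∃ a : U, 1 < w a := hnt
  have : Algebra.IsAlgebraic U Kb := Algebra.IsAlgebraic.tower_top (K := K) U
  obtain ⟨j, hj⟩ := A2a_275.exists_j (Ω := Kb) w
  have h := A2a_275.Wof_comap w hnt' j hj
  refine ⟨A2a_275.Wof w hnt' j, fun a => ?_⟩
  have h1 := congrArg (fun z : Valuation U ℝ≥0 => z a) h
  exact h1

/-- **BR**, membership in the closure for a given norm `v` of the algebraic closure -/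
theorem mem_cl_of_form (x : K) {e : ℕ} (he : 0 < e)
    {k' : Type*} [NormedField k'] {E : Type*} [NormedField E] [IsUltrametricDist E]
    [CompleteSpace E] [NormedAlgebra k' E] {y : E} (hG : Gl946.IsGauss k' y)
    (hd : Gl946.DenseRat k' y)
    (U : IntermediateField K Kb) (hU : IsUnramifiedEverywhere k K U)
    (ι : U →+* E) (j : k' →+* U) (hj : ∀ a, ι (j a) = algebraMap k' E a)
    (hkb : ∀ a, (j a : Kb) ∈ kb k K)
    {π : k'} (hπ0 : π ≠ 0) (hιx : ι (algebraMap K U x) = algebraMap k' E π * y)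
    {v : Valuation Kb ℝ≥0} (hv : ∀ a : U, v (a : Kb) = ‖ι a‖₊)
    {h : U} (hh0 : h ≠ 0) (hdiv : ∀ u : Valuation U ℝ≥0, IsPlace k u → ∃ a : U, u h = u a ^ e)
    {c : k'} {m q : ℤ} (hm : m = e * q + 1 ∨ m = e * q - 1) {A D : k'[X]} {ε : E}
    (hε : ‖ε‖ < ‖(e : E)‖ ^ 2)
    (hform : ι h = c • y ^ m * (1 + ε) * (aeval y A / aeval y D) ^ e)
    {ξ : Kb} (hξ : ξ ^ e = algebraMap K Kb x) : ξ ∈ cl v (maxUnramified k K : Set Kb) := by
  classical
  have hK0 := charZero_K k K
  have hUf := hU.1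
  have hU0 : CharZero U := charZero_of_injective_algebraMap (algebraMap K U).injective
  have hE0 : CharZero E := charZero_of_injective_ringHom ι.injective
  have hjπ0 : j π ≠ 0 := (_root_.map_ne_zero j).mpr hπ0
  have hιπ0 : algebraMap k' E π ≠ 0 := (_root_.map_ne_zero (algebraMap k' E)).mpr hπ0
  -- the elements of `U`
  set yU : U := algebraMap K U x / j π with hyU
  have hιy : ι yU = y := by
    rw [hyU, map_div₀, hιx, hj, mul_div_cancel_left₀ _ hιπ0]
  have hιpoly : ∀ F : k'[X], ι (F.eval₂ j yU) = aeval y F := by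
    intro F
    rw [Polynomial.hom_eval₂, hιy, aeval_def]
    congr 1
    ext a
    exact hj a
  have hιh0 : ι h ≠ 0 := (_root_.map_ne_zero ι).mpr hh0
  have hq0 : aeval y A / aeval y D ≠ 0 := by
    intro h0
    rw [h0, zero_pow he.ne', mul_zero] at hform
    exact hιh0 hform
  have hc0 : c ≠ 0 := by
    rintro rfl
    rw [zero_smul, zero_mul, zero_mul] at hform
    exact hιh0 hform
  have hε0 : 1 + ε ≠ 0 := by
    intro h0
    rw [h0, mul_zero, zero_mul] at hform
    exact hιh0 hform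
  have hy0 : y ≠ 0 := hG.ne_zero
  have hyU0 : yU ≠ 0 := by
    intro h0
    rw [h0, map_zero] at hιy
    exact hy0 hιy.symm
  have hxU0 : algebraMap K U x ≠ 0 := by
    intro h0
    rw [h0, map_zero] at hιx
    exact mul_ne_zero hιπ0 hy0 hιx.symm
  set gU : U := A.eval₂ j yU / D.eval₂ j yU with hgU
  have hιg : ι gU = aeval y A / aeval y D := by
    rw [hgU, map_div₀, hιpoly, hιpoly]
  have hgU0 : gU ≠ 0 := by
    intro h0
    rw [h0, map_zero] at hιg
    exact hq0 hιg.symm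
  set h'U : U := h / (j c * yU ^ m * gU ^ e) with hh'U
  have hιh' : ι h'U = 1 + ε := by
    rw [hh'U, map_div₀, map_mul, map_mul, map_zpow₀, map_pow, hj, hιy, hιg, hform,
      Algebra.smul_def]
    have h1 : algebraMap k' E c ≠ 0 := (_root_.map_ne_zero _).mpr hc0
    have h2 : y ^ m ≠ 0 := zpow_ne_zero _ hy0
    have h3 : (aeval y A / aeval y D) ^ e ≠ 0 := pow_ne_zero _ hq0
    field_simp
  have hh'U0 : h'U ≠ 0 := by
    intro h0
    rw [h0, map_zero] at hιh'
    exact hε0 hιh'.symm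
  have hform' : h = (j c * (j π ^ m)⁻¹) * algebraMap K U x ^ m * h'U * gU ^ e := by
    rw [hh'U, hyU, div_zpow]
    have h1 : j c ≠ 0 := (_root_.map_ne_zero _).mpr hc0
    have h2 : (j π) ^ m ≠ 0 := zpow_ne_zero _ hjπ0
    have h3 : gU ^ e ≠ 0 := pow_ne_zero _ hgU0
    have h4 : (algebraMap K U x) ^ m ≠ 0 := zpow_ne_zero _ hxU0
    field_simp
  -- membership
  have hUM : ∀ a : U, (a : Kb) ∈ maxUnramified k K := fun a =>
    Unr5_957.le_maxUnramified_iff.mpr hU a.2
  have hUcl : ∀ a : U, (a : Kb) ∈ cl v (maxUnramified k K : Set Kb) := fun a =>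
    subset_cl v _ (hUM a)
  obtain ⟨yh, hyh⟩ := IsAlgClosed.exists_pow_nat_eq (h : Kb) he
  have hyhM : yh ∈ maxUnramified k K :=
    Unr10_957.kummer_mem_maxUnramified hU he.ne' hdiv hyh
  -- approximation
  have heE : (e : E) ≠ 0 := Nat.cast_ne_zero.mpr he.ne'
  obtain ⟨z, hze, -⟩ := Annu_930.exists_pow_eq_of_lt heE (a := 1 + ε)
    (by rw [add_sub_cancel_left]; exact hε)
  have happ : ∀ ε' : ℝ≥0, 0 < ε' → ∃ u ∈ cl v (maxUnramified k K : Set Kb),
      v (u ^ e - (h'U : Kb)) < ε' := by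
    intro ε' hε'
    have hcont := (continuous_pow (M := E) e).tendsto z
    rw [Metric.tendsto_nhds_nhds] at hcont
    obtain ⟨r, hr, hr2⟩ := hcont ε' (by exact_mod_cast hε')
    obtain ⟨f, g, -, hfg⟩ := hd z r hr
    refine ⟨((f.eval₂ j yU / g.eval₂ j yU : U) : Kb), hUcl _, ?_⟩
    have h1 : v (((f.eval₂ j yU / g.eval₂ j yU : U) : Kb) ^ e - (h'U : Kb)) =
        ‖(aeval y f / aeval y g) ^ e - (1 + ε)‖₊ := by
      rw [← hιpoly, ← hιpoly, ← map_div₀, ← hιh', ← map_pow, ← map_sub, ← hv]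
      rfl
    rw [h1, ← hze, ← NNReal.coe_lt_coe, coe_nnnorm, ← dist_eq_norm]
    refine hr2 ?_
    rwa [dist_comm, dist_eq_norm]
  refine br1 he (h := (h : Kb)) (c := (j c * (j π ^ m)⁻¹ : U)) (x := algebraMap K Kb x)
    (h' := (h'U : Kb)) (g := (gU : Kb)) (y := yh) (subset_cl v _ hyhM) hyh ?_ ?_ ?_ ?_
    (hUcl gU) ?_ ?_ happ m q hm ?_ hξ
  · have h1 : ((j c * (j π ^ m)⁻¹ : U) : Kb) = (j c : Kb) * ((j π : Kb) ^ m)⁻¹ := by
      push_cast; rfl
    rw [h1]
    exact mul_mem (hkb c) (inv_mem (zpow_mem (hkb π) m))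
  · intro h0
    have h1 : (j c * (j π ^ m)⁻¹ : U) = 0 := Subtype.ext h0
    exact mul_ne_zero ((_root_.map_ne_zero j).mpr hc0) (inv_ne_zero (zpow_ne_zero _ hjπ0)) h1
  · intro h0
    exact hxU0 (Subtype.ext h0)
  · exact hUcl (algebraMap K U x)
  · intro h0
    exact hgU0 (Subtype.ext h0)
  · intro h0
    exact hh'U0 (Subtype.ext h0)
  · have h1 := congrArg (fun t : U => (t : Kb)) hform'
    exact h1

/-- **BR** -/
theorem se_of_form (p : ℕ) [Fact p.Prime] [Algebra ℚ_[p] k] (P : Valuation Kb ℝ≥0) (x : K)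
    {e : ℕ} (he : 0 < e) {δ : ℝ≥0}
    (C : IntermediateField k Kb) [FiniteDimensional k C]
    {k' : Type*} [NormedField k'] {E : Type*} [NormedField E] [IsUltrametricDist E]
    [CompleteSpace E] [NormedAlgebra k' E] {y : E} (hG : Gl946.IsGauss k' y)
    (hd : Gl946.DenseRat k' y)
    (U : IntermediateField K Kb) (hU : IsUnramifiedEverywhere k K U)
    (ι : U →+* E) (j : k' →+* U) (hj : ∀ a, ι (j a) = algebraMap k' E a)
    (hjC : ∀ a, (j a : Kb) ∈ C) (hCj : ∀ c ∈ C, ∃ a, (j a : Kb) = c)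
    (hp : ∀ q : ℚ_[p], ‖ι (algebraMap K U (algebraMap k K (algebraMap ℚ_[p] k q)))‖ = ‖q‖)
    {π : k'} (hπ0 : π ≠ 0) (hπδ : ‖π‖₊ < δ)
    (hιx : ι (algebraMap K U x) = algebraMap k' E π * y)
    (hdisc : ∀ f : K, ∃ G H : ℕ → k', (∃ i, H i ≠ 0) ∧
      (∃ R B : ℝ≥0, ‖π‖₊ < R ∧ ∀ i, ‖G i‖₊ * R ^ i ≤ B ∧ ‖H i‖₊ * R ^ i ≤ B) ∧
      Tendsto (fun n => ι (algebraMap K U f) *
          ∑ i ∈ Finset.range n, algebraMap k' E (H i) * (algebraMap k' E π * y) ^ i
        - ∑ i ∈ Finset.range n, algebraMap k' E (G i) * (algebraMap k' E π * y) ^ i)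
        atTop (𝓝 0) ∧
      Tendsto (fun n => P (algebraMap K Kb f * psum (fun i => (j (H i) : Kb)) (algebraMap K Kb x) n
        - psum (fun i => (j (G i) : Kb)) (algebraMap K Kb x) n)) atTop (𝓝 0))
    {h : U} (hh0 : h ≠ 0) (hdiv : ∀ u : Valuation U ℝ≥0, IsPlace k u → ∃ a : U, u h = u a ^ e)
    {c : k'} {m q : ℤ} (hm : m = e * q + 1 ∨ m = e * q - 1) {A D : k'[X]} {ε : E}
    (hε : ‖ε‖ < ‖(e : E)‖ ^ 2)
    (hform : ι h = c • y ^ m * (1 + ε) * (aeval y A / aeval y D) ^ e) :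
    ∃ (C : IntermediateField k Kb) (π ξ : Kb) (v : Valuation Kb ℝ≥0),
      FiniteDimensional k C ∧ π ∈ C ∧ π ≠ 0 ∧ v π < δ ∧ ExtendsPadicNorm k Kb p v ∧
      IsCircle K C P (algebraMap K Kb x) (v π) v ∧ ξ ^ e = algebraMap K Kb x ∧
      ξ ∈ cl v (maxUnramified k K : Set Kb) := by
  classical
  have hK0 := charZero_K k K
  have hUf := hU.1
  have hnt : ∃ a : U, 1 < ‖ι a‖₊ := by
    refine ⟨algebraMap K U (algebraMap k K (algebraMap ℚ_[p] k ((p : ℚ_[p])⁻¹))), ?_⟩
    rw [← NNReal.coe_lt_coe, coe_nnnorm, hp, norm_inv, Padic.norm_p, inv_inv]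
    exact_mod_cast (Fact.out : p.Prime).one_lt
  obtain ⟨v, hv⟩ := exists_norm_ext ι hnt
  have hvK : ∀ f : K, v (algebraMap K Kb f) = ‖ι (algebraMap K U f)‖₊ := fun f =>
    hv (algebraMap K U f)
  have hvj : ∀ a : k', v (j a : Kb) = ‖a‖₊ := fun a => by
    rw [hv, hj, nnnorm_algebraMap']
  have hvp : ExtendsPadicNorm k Kb p v := by
    intro r
    have h1 : algebraMap k Kb (algebraMap ℚ_[p] k r) =
        algebraMap K Kb (algebraMap k K (algebraMap ℚ_[p] k r)) := rfl
    rw [h1, hvK]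
    exact NNReal.eq (hp r)
  have hιU : ∀ (n : ℕ) (a : ℕ → k'), ι (∑ i ∈ Finset.range n, j (a i) * (algebraMap K U x) ^ i) =
      ∑ i ∈ Finset.range n, algebraMap k' E (a i) * (algebraMap k' E π * y) ^ i := by
    intro n a
    rw [map_sum]
    refine Finset.sum_congr rfl fun i _ => ?_
    rw [map_mul, map_pow, hj, hιx]
  have hpsum : ∀ (n : ℕ) (a : ℕ → k'), psum (fun i => (j (a i) : Kb)) (algebraMap K Kb x) n =
      ((∑ i ∈ Finset.range n, j (a i) * (algebraMap K U x) ^ i : U) : Kb) := by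
    intro n a
    rw [psum]
    push_cast
    rfl
  have hcirc : IsCircle K C P (algebraMap K Kb x) (v (j π : Kb)) v := by
    refine ⟨?_, ?_⟩
    · intro n c' hc'
      choose a ha using fun i => hCj (c' i) (hc' i)
      have h1 : c' = fun i => (j (a i) : Kb) := funext fun i => (ha i).symm
      rw [h1, hpsum, hv, hιU]
      have h2 : ∑ i ∈ Finset.range n, algebraMap k' E (a i) * (algebraMap k' E π * y) ^ i =
          ∑ i ∈ Finset.range n, algebraMap k' E (a i * π ^ i) * y ^ i := by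
        refine Finset.sum_congr rfl fun i _ => ?_
        rw [map_mul, map_pow]; ring
      rw [h2, nnnorm_sum_eq hG]
      refine Finset.sup_congr rfl fun i _ => ?_
      rw [hvj, hvj, nnnorm_mul, nnnorm_pow]
    · intro f
      obtain ⟨G, H, hH, ⟨R, B, hR, hB⟩, h1, h2⟩ := hdisc f
      refine ⟨fun i => (j (G i) : Kb), fun i => (j (H i) : Kb), fun i => hjC _, fun i => hjC _, ?_,
        ⟨R, B, ?_, ?_⟩, ?_, h2⟩
      · obtain ⟨i, hi⟩ := hH
        refine ⟨i, fun h0 => hi ?_⟩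
        have h3 : j (H i) = 0 := Subtype.ext h0
        exact (map_eq_zero j).mp h3
      · rw [hvj]; exact hR
      · intro i
        rw [hvj, hvj]
        exact hB i
      · have h3 : ∀ n, v (algebraMap K Kb f * psum (fun i => (j (H i) : Kb)) (algebraMap K Kb x) n
            - psum (fun i => (j (G i) : Kb)) (algebraMap K Kb x) n) =
            ‖ι (algebraMap K U f) *
              ∑ i ∈ Finset.range n, algebraMap k' E (H i) * (algebraMap k' E π * y) ^ i
              - ∑ i ∈ Finset.range n, algebraMap k' E (G i) * (algebraMap k' E π * y) ^ i‖₊ := by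
          intro n
          rw [hpsum, hpsum, ← hιU, ← hιU, ← map_mul, ← map_sub, ← hv]
          rfl
        simp only [h3]
        have h4 := h1.nnnorm
        rwa [nnnorm_zero] at h4
  -- the root
  obtain ⟨ξ, hξ⟩ := IsAlgClosed.exists_pow_nat_eq (algebraMap K Kb x) he
  have hπK : (j π : Kb) ≠ 0 := by
    intro h0
    exact hπ0 ((map_eq_zero j).mp (Subtype.ext h0))
  exact ⟨C, (j π : Kb), ξ, v, inferInstance, hjC π, hπK, by rw [hvj]; exact hπδ, hvp, hcirc, hξ,
    mem_cl_of_form x he hG hd U hU ι j hj (fun a => Cof5_669.le_kb C (hjC a)) hπ0 hιx hv hh0 hdiv hm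
      hε hform hξ⟩

end se

end Crest.Agent.R013.CofBR_669
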