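import Crest.Agent.R013.Set9_803

/-!
# Row 13, B-SET, part 10: the data of `GOOD`
-/

set_option autoImplicit false
set_option linter.unusedSectionVars false

noncomputable section

namespace Crest.Agent.R013.Set_803

open scoped NNReal Topology
open Filter Crest.NumberTheoryR.Sect Crest.Agent.R013.A2a_275 Crest.Agent.R013.Gl946
  Crest.Agent.R013.SE_669 Crest.Agent.R013.CGood_588

variable {p : ℕ} [Fact p.Prime] {k : Type*} [Field k] [Algebra ℚ_[p] k] {K : Type*} [Field K]
  [Algebra k K]

/-- The data of `GOOD` are a `DiscData` (`x` in `K`, `η ≤ 1`). -/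
theorem discData_of_good {P : Valuation (AlgebraicClosure K) ℝ≥0} {x : K}
    (hP : IsRationalPlace k K (P.comap (algebraMap K (AlgebraicClosure K))))
    (hx : IsUniformizerAt (P.comap (algebraMap K (AlgebraicClosure K))) x)
    {η : ℝ≥0} (hη : η ≤ 1) {C : IntermediateField k (AlgebraicClosure K)} [FiniteDimensional k C]
    {π q c : AlgebraicClosure K} {v : Valuation (AlgebraicClosure K) ℝ≥0} (hq : q ∈ C) (hc : c ∈ C)
    (hc0 : c ≠ 0) (hvq : v q < η * v π) (hvc : v c < η * v π)
    (hv : ExtendsPadicNorm k (AlgebraicClosure K) p v) {R : ℝ≥0} (hR : v π < η * R)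
    (hG : GaussAt C ((algebraMap K (AlgebraicClosure K) x - q) / c) v) :
    DiscData p v P C R (algebraMap K (AlgebraicClosure K) x) q c := by
  have h1 : v π < R := hR.trans_le ((mul_le_mul_left hη _).trans (one_mul R).le)
  have h2 : η * v π ≤ v π := (mul_le_mul_left hη _).trans (one_mul _).le
  have h3 : ∀ a : k, P (algebraMap k (AlgebraicClosure K) a) ≤ 1 := by
    intro a
    by_cases ha : a = 0
    · rw [ha, map_zero, map_zero]; exact zero_le
    · have := hP.1.1 a ha
      rw [Valuation.comap_apply, ← IsScalarTower.algebraMap_apply] at this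
      exact this.le
  exact
    { hv := hv
      hP := fun a => place_le_one h3 (isAlgebraic_of_mem a.2)
      hPx := hx.1
      qC := hq
      cC := hc
      c0 := hc0
      qR := (hvq.trans_le h2).trans h1
      cR := (hvc.trans_le h2).trans h1
      gauss := hG }

end Crest.Agent.R013.Set_803
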