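import Mathlib
import Crest.Agent.R013.CofBR_669
import Crest.Agent.R013.BTor4_914
import Crest.Agent.R013.Set10_803

/-!
# Row 13, part B, last step: from `f = y z ^ n` in a big field to the closure of `maxUnramified`
-/

set_option autoImplicit false
set_option linter.unusedSectionVars false

namespace Crest.Agent.R013.BRLast_669

open scoped NNReal Topology
open Filter Polynomial Crest.NumberTheoryR.Sect
open Crest.Agent.R013.SE_669 Crest.Agent.R013.Unr3_957 Crest.Agent.R013.Unr4_957
  Crest.Agent.R013.Cof1_669 Crest.Agent.R013.Cof2_669 Crest.Agent.R013.Cof5_669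
  Crest.Agent.R013.Cof10_669 Crest.Agent.R013.CofBR_669 Crest.Agent.R013.BTor4_914

section transport

/-- `LDiv` along an isomorphism of fields whose constants are integral over the new constants -/
theorem LDiv_transport {k₁ k₂ F₁ F₂ : Type*} [Field k₁] [Field k₂] [Field F₁] [Field F₂]
    [Algebra k₁ F₁] [Algebra k₂ F₂] (e : F₁ ≃+* F₂)
    (hk : ∀ a : k₁, IsIntegral k₂ (e (algebraMap k₁ F₁ a))) {n : ℕ} {f : F₁}
    (h : LDiv k₁ n f) : LDiv k₂ n (e f) := by
  intro u hu
  have hpl : IsPlace k₁ (u.comap (e : F₁ →+* F₂)) := by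
    refine ⟨fun c hc => ?_, ?_⟩
    · -- an integral element has value one
      have h1 : ∀ z : F₂, IsIntegral k₂ z → u z ≤ 1 := by
        intro z hz
        exact Set_803.place_le_one (fun c => by
          by_cases h0 : c = 0
          · rw [h0, map_zero, map_zero]; exact zero_le_one
          · exact (hu.1 c h0).le) hz.isAlgebraic
      rw [Valuation.comap_apply]
      have h2 : e (algebraMap k₁ F₁ c) ≠ 0 := by
        intro h0
        have h3 := (map_eq_zero_iff e e.injective).mp h0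
        exact hc ((map_eq_zero (algebraMap k₁ F₁)).mp h3)
      refine le_antisymm (h1 _ (hk c)) ?_
      have h3 := h1 _ (hk c⁻¹)
      rw [map_inv₀, map_inv₀, map_inv₀] at h3
      exact (inv_le_one₀ ((Valuation.pos_iff u).mpr h2)).mp h3
    · obtain ⟨a, h0, h1⟩ := hu.2
      refine ⟨e.symm a, ?_, ?_⟩
      · rw [Valuation.comap_apply]
        change u (e (e.symm a)) ≠ 0
        rwa [RingEquiv.apply_symm_apply]
      · rw [Valuation.comap_apply]
        change u (e (e.symm a)) ≠ 1
        rwa [RingEquiv.apply_symm_apply]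
  obtain ⟨a, ha⟩ := h _ hpl
  exact ⟨e a, ha⟩

end transport

section core

variable {k : Type*} [Field k] {K : Type*} [Field K] [Algebra k K]
variable [CharZero k] [Algebra (RatFunc k) K] [IsScalarTower k (RatFunc k) K]
  [FiniteDimensional (RatFunc k) K]

local notation "Kb" => AlgebraicClosure K

theorem sup_unr {U : IntermediateField K Kb} (hU : IsUnramifiedEverywhere k K U)
    (C' : IntermediateField k Kb) [FiniteDimensional k C'] :
    IsUnramifiedEverywhere k K (U ⊔ KC K C' : IntermediateField K Kb) := by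
  have := hU.1
  have := finite_KC (K := K) C'
  have := IntermediateField.finiteDimensional_sup U (KC K C')
  exact Unr5_957.le_maxUnramified_iff.mp (sup_le (Unr5_957.le_maxUnramified_iff.mpr hU) (KC_le_M C'))

/-- **last step**, in a big field -/
theorem last_core (x : K) (hx0 : x ≠ 0) {n : ℕ} (hn : 0 < n)
    {Om : Type*} [NormedField Om] (emb : Kb →+* Om)
    {v : Valuation Kb ℝ≥0} (hv : ∀ a, v a = ‖emb a‖₊)
    {V : IntermediateField K Kb} (hV : IsUnramifiedEverywhere k K V)
    {f₀ : V} (hf0 : f₀ ≠ 0) (hdiv : LDiv k n f₀) {π : Kb} (hπ : π ∈ kb k K) (hπ0 : π ≠ 0)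
    {z : Om} (heq : emb (f₀ : Kb) = emb (algebraMap K Kb x / π) * z ^ n)
    (happ : ∀ ε : ℝ, 0 < ε → ∃ u ∈ V, ‖z - emb u‖ < ε) {ξ : Kb} (hξ : ξ ^ n = algebraMap K Kb x) :
    ξ ∈ cl v (maxUnramified k K : Set Kb) := by
  classical
  have hVf := hV.1
  have hVM : V ≤ maxUnramified k K := Unr5_957.le_maxUnramified_iff.mpr hV
  have hxK : algebraMap K Kb x ≠ 0 := (_root_.map_ne_zero _).mpr hx0
  have hf0' : (f₀ : Kb) ≠ 0 := fun h => hf0 (Subtype.ext h)
  obtain ⟨y, hy⟩ := IsAlgClosed.exists_pow_nat_eq (f₀ : Kb) hn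
  have hyM : y ∈ maxUnramified k K := Unr10_957.kummer_mem_maxUnramified hV hn.ne' hdiv hy
  -- `z` comes from `Kb`
  set a : Kb := (f₀ : Kb) * π / algebraMap K Kb x with ha
  have ha0 : a ≠ 0 := div_ne_zero (mul_ne_zero hf0' hπ0) hxK
  have hza : z ^ n = emb a := by
    have h1 : emb (algebraMap K Kb x / π) ≠ 0 := (_root_.map_ne_zero _).mpr (div_ne_zero hxK hπ0)
    apply mul_left_cancel₀ h1
    rw [← heq, ← map_mul, ha]
    congr 1
    field_simp
  have hz : ∃ z₀ : Kb, emb z₀ = z := by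
    have h1 : ((X ^ n - C a : Kb[X]).map emb).roots = ((X ^ n - C a : Kb[X]).roots).map emb :=
      (IsAlgClosed.splits _).roots_map emb
    have h2 : z ∈ ((X ^ n - C a : Kb[X]).map emb).roots := by
      rw [mem_roots']
      refine ⟨?_, ?_⟩
      · exact ((monic_X_pow_sub_C a hn.ne').map emb).ne_zero
      · simp [hza]
    rw [h1, Multiset.mem_map] at h2
    obtain ⟨z₀, -, h3⟩ := h2
    exact ⟨z₀, h3⟩
  obtain ⟨z₀, rfl⟩ := hz
  have hz₀ : z₀ ^ n = a := emb.injective (by rw [map_pow, hza])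
  have hz₀0 : z₀ ≠ 0 := by
    rintro rfl
    rw [zero_pow hn.ne'] at hz₀
    exact ha0 hz₀.symm
  have hz₀cl : z₀ ∈ cl v (maxUnramified k K : Set Kb) := by
    intro ε hε
    obtain ⟨u, hu, h1⟩ := happ ε (by exact_mod_cast hε)
    refine ⟨u, hVM hu, ?_⟩
    rw [hv, map_sub]
    exact_mod_cast h1
  refine br1 hn (h := (f₀ : Kb)) (c := π⁻¹) (x := algebraMap K Kb x) (h' := 1) (g := z₀) (y := y)
    (subset_cl v _ hyM) hy (inv_mem hπ) (inv_ne_zero hπ0) hxK
    (subset_cl v _ ((maxUnramified k K).algebraMap_mem x)) hz₀cl hz₀0 one_ne_zero ?_ 1 0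
    (Or.inl (by simp)) ?_ hξ
  · intro ε hε
    refine ⟨1, subset_cl v _ (maxUnramified k K).one_mem, ?_⟩
    rw [one_pow, sub_self, map_zero]
    exact hε
  · rw [hz₀, ha, zpow_one]
    field_simp

end core

end Crest.Agent.R013.BRLast_669
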