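import Mathlib
import Crest.Agent.R013.BRLast1_669

/-!
# Row 13, part B, last step: the constants of a finite extension inside a big field
-/

set_option autoImplicit false
set_option linter.unusedSectionVars false

namespace Crest.Agent.R013.BRLast_669

open scoped NNReal Topology
open Filter Polynomial Crest.NumberTheoryR.Sect
open Crest.Agent.R013.SE_669 Crest.Agent.R013.Unr3_957 Crest.Agent.R013.Unr4_957
  Crest.Agent.R013.Cof1_669 Crest.Agent.R013.Cof2_669 Crest.Agent.R013.Cof5_669
  Crest.Agent.R013.Cof10_669 Crest.Agent.R013.CofBR_669 Crest.Agent.R013.BTor4_914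

/-- every element of a field algebraic over the image of an algebraically closed field is in the
image -/
theorem exists_preimage {A B : Type*} [Field A] [IsAlgClosed A] [Field B] (emb : A →+* B) {b : B}
    {f : A[X]} (hf : f ≠ 0) (h : f.eval₂ emb b = 0) : ∃ a : A, emb a = b ∧ f.eval a = 0 := by
  have h1 : (f.map emb).roots = f.roots.map emb := (IsAlgClosed.splits f).roots_map emb
  have h2 : b ∈ (f.map emb).roots := by
    rw [mem_roots']
    refine ⟨(Polynomial.map_ne_zero_iff emb.injective).mpr hf, ?_⟩
    rw [IsRoot.def, eval_map]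
    exact h
  rw [h1, Multiset.mem_map] at h2
  obtain ⟨a, ha, h3⟩ := h2
  exact ⟨a, h3, (mem_roots'.mp ha).2⟩

section consts

variable {k : Type*} [Field k] {A : Type*} [Field A] [IsAlgClosed A] [Algebra k A]
variable {κ : Type*} [Field κ] {Om : Type*} [Field Om] [Algebra κ Om]

/-- The preimage in `A` of a finite extension `k'` of (the image of) `C` inside `Om`. -/
theorem exists_consts (emb : A →+* Om) (C : IntermediateField k A) [FiniteDimensional k C]
    (j : κ →+* A) (hj : ∀ a, emb (j a) = algebraMap κ Om a) (hjC : ∀ a, j a ∈ C)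
    (hCj : ∀ c ∈ C, ∃ a, j a = c) (k' : IntermediateField κ Om) [FiniteDimensional κ k'] :
    ∃ C' : IntermediateField k A, FiniteDimensional k C' ∧ C ≤ C' ∧
      ∀ a : Om, a ∈ k' ↔ ∃ b ∈ C', emb b = a := by
  classical
  have hkk : ∀ a : κ, algebraMap κ Om a ∈ k' := fun a => k'.algebraMap_mem a
  let C' : IntermediateField k A :=
    { k'.toSubfield.comap emb with
      algebraMap_mem' := by
        intro r
        change emb (algebraMap k A r) ∈ k'
        obtain ⟨a, ha⟩ := hCj _ (C.algebraMap_mem r)
        rw [← ha, hj]
        exact hkk a }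
  have hmem : ∀ b, b ∈ C' ↔ emb b ∈ k' := fun b => Iff.rfl
  have hCC' : C ≤ C' := by
    intro c hc
    obtain ⟨a, rfl⟩ := hCj c hc
    rw [hmem, hj]
    exact hkk a
  -- integrality
  have hjint : ∀ a : κ, IsIntegral k (j a) := by
    intro a
    have h1 : IsIntegral k (⟨j a, hjC a⟩ : C) := Algebra.IsIntegral.isIntegral _
    exact h1.map C.val
  have hpre : ∀ a ∈ k', ∃ b : A, emb b = a ∧ IsIntegral k b := by
    intro a ha
    have h1 : IsIntegral κ (⟨a, ha⟩ : k') := Algebra.IsIntegral.isIntegral _
    have h2 : IsIntegral κ a := h1.map k'.val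
    obtain ⟨f, hfm, hf⟩ := h2
    have h3 : (f.map j).Monic := hfm.map j
    have h4 : (f.map j).eval₂ emb a = 0 := by
      rw [eval₂_map]
      have h5 : emb.comp j = algebraMap κ Om := RingHom.ext hj
      rw [h5]; exact hf
    obtain ⟨b, hb, hb2⟩ := exists_preimage emb h3.ne_zero h4
    refine ⟨b, hb, ?_⟩
    -- `b` is integral over `C`, hence over `k`
    have h6 : IsIntegral C b := by
      let jC : κ →+* C := ⟨⟨⟨fun a => ⟨j a, hjC a⟩, Subtype.ext (map_one j)⟩,
        fun a b => Subtype.ext (map_mul j a b)⟩, Subtype.ext (map_zero j),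
        fun a b => Subtype.ext (map_add j a b)⟩
      refine ⟨f.map jC, hfm.map jC, ?_⟩
      rw [eval₂_map]
      have h7 : (algebraMap C A).comp jC = j := RingHom.ext fun _ => rfl
      rw [h7, ← eval_map]
      exact hb2
    exact isIntegral_trans b h6
  refine ⟨C', ?_, hCC', ?_⟩
  · -- finite dimension
    let B := Module.finBasis κ k'
    choose c hc hci using fun i => hpre (B i : Om) (B i).2
    have hle : C' ≤ C ⊔ IntermediateField.adjoin k (Set.range c) := by
      intro b hb
      have hb' := (hmem b).mp hb
      have h1 := B.sum_repr ⟨emb b, hb'⟩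
      have h2 := congrArg (fun t : k' => (t : Om)) h1
      simp only at h2
      have h3 : b = ∑ i, j (B.repr ⟨emb b, hb'⟩ i) * c i := by
        apply emb.injective
        rw [map_sum]
        refine h2.symm.trans ?_
        push_cast
        refine Finset.sum_congr rfl fun i _ => ?_
        rw [map_mul, hj, hc, Algebra.smul_def]
      rw [h3]
      refine sum_mem fun i _ => mul_mem ?_ ?_
      · exact (le_sup_left : C ≤ _) (hjC _)
      · exact (le_sup_right : IntermediateField.adjoin k (Set.range c) ≤ _)
          (IntermediateField.subset_adjoin k _ ⟨i, rfl⟩)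
    have hf1 : FiniteDimensional k (IntermediateField.adjoin k (Set.range c)) := by
      refine IntermediateField.finiteDimensional_adjoin ?_
      rintro _ ⟨i, rfl⟩
      exact hci i
    have hf2 : FiniteDimensional k (C ⊔ IntermediateField.adjoin k (Set.range c) :
      IntermediateField k A) := IntermediateField.finiteDimensional_sup _ _
    exact FiniteDimensional.of_injective (IntermediateField.inclusion hle).toLinearMap
      (IntermediateField.inclusion hle).injective
  · intro a
    constructor
    · intro ha
      obtain ⟨b, hb, -⟩ := hpre a ha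
      exact ⟨b, by rw [hmem, hb]; exact ha, hb⟩
    · rintro ⟨b, hb, rfl⟩
      exact hb

end consts

end Crest.Agent.R013.BRLast_669
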