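import Mathlib
import Crest.Agent.R013.BRLast2_669
import Crest.Agent.R013.AnnP_669

/-!
# Row 13, part B, end step: from `AnnP` to the closure of `maxUnramified`
-/

set_option autoImplicit false
set_option linter.unusedSectionVars false
set_option linter.style.haveILetI false

namespace Crest.Agent.R013.BRLast_669

open scoped NNReal Topology
open Filter Polynomial Crest.NumberTheoryR.Sect
open Crest.Agent.R013.SE_669 Crest.Agent.R013.Unr3_957 Crest.Agent.R013.Unr4_957
  Crest.Agent.R013.Cof1_669 Crest.Agent.R013.Cof2_669 Crest.Agent.R013.Cof5_669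
  Crest.Agent.R013.Cof10_669 Crest.Agent.R013.CofBR_669 Crest.Agent.R013.BTor4_914
  Crest.Agent.R013.AnnP_669
open Crest.Agent.R013.Gl946 Crest.Agent.R013.NB_92 Crest.Agent.R013.CutCov_92
  Crest.Agent.R013.Half_930 Crest.Agent.R013.Desc_372 Crest.Agent.R013.Desc_372.CE
  Crest.Agent.R013.LemC623

/-- a big field: an algebraically closed valued field over `E` -/
theorem exists_big (k E : Type) [NormedField k] [NontriviallyNormedField E] [NormedAlgebra k E]
    [IsUltrametricDist E] [CompleteSpace E] :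
    ∃ (Om : Type) (_ : NormedField Om) (_ : NormedAlgebra k Om) (_ : NormedAlgebra E Om),
      IsScalarTower k E Om ∧ IsUltrametricDist Om ∧ IsAlgClosed Om := by
  let Om := AlgebraicClosure E
  letI n1 : NormedField Om := spectralNorm.normedField E Om
  letI n2 : NormedAlgebra E Om := spectralNorm.normedAlgebra E Om
  letI n3 : NormedAlgebra k Om :=
    { ((algebraMap E Om).comp (algebraMap k E)).toAlgebra with
      norm_smul_le := fun c x => by
        change ‖algebraMap E Om (algebraMap k E c) * x‖ ≤ ‖c‖ * ‖x‖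
        rw [norm_mul, norm_algebraMap', norm_algebraMap'] }
  refine ⟨Om, n1, n3, n2, ?_, ?_, (inferInstance : IsAlgClosed (AlgebraicClosure E))⟩
  · exact @IsScalarTower.of_algebraMap_eq k E Om _ _ _ _ n2.toAlgebra n3.toAlgebra fun _ => rfl
  refine IsUltrametricDist.isUltrametricDist_of_forall_norm_add_le_max_norm ?_
  intro x y
  exact isNonarchimedean_spectralNorm (K := E) (L := Om) x y

section lev

variable {k : Type*} [Field k] {K : Type*} [Field K] [Algebra k K]

local notation "Kb" => AlgebraicClosure K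

/-- The level `U k'` inside the big field is the image of `U C'`. -/
theorem mem_lev_iff_emb {κ Om : Type*} [Field κ] [Field Om] [Algebra κ Om]
    (U : IntermediateField K Kb) [Algebra κ U] [Algebra U Om] [IsScalarTower κ U Om]
    (emb : Kb →+* Om) (hemb : ∀ u : U, emb (u : Kb) = algebraMap U Om u)
    (k' : IntermediateField κ Om) (C' : IntermediateField k Kb)
    (hk' : ∀ a : Om, a ∈ k' ↔ ∃ b ∈ C', emb b = a) (a : Om) :
    a ∈ lev U Om k' ↔ ∃ b ∈ (U ⊔ KC K C' : IntermediateField K Kb), emb b = a := by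
  constructor
  · intro ha
    -- the image of `U C'` as an intermediate field
    let S : IntermediateField U Om :=
      { (U ⊔ KC K C' : IntermediateField K Kb).toSubfield.map emb with
        algebraMap_mem' := fun u => ⟨(u : Kb), (le_sup_left : U ≤ U ⊔ KC K C') u.2, hemb u⟩ }
    have hS : lev U Om k' ≤ S := by
      rw [lev_le_iff]
      intro c hc
      obtain ⟨b, hb, hbc⟩ := (hk' c).mp hc
      exact ⟨b, (le_sup_right : KC K C' ≤ U ⊔ KC K C') (le_KC hb), hbc⟩
    obtain ⟨b, hb, hba⟩ := hS ha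
    exact ⟨b, hb, hba⟩
  · rintro ⟨b, hb, rfl⟩
    let T : IntermediateField K Kb :=
      { (lev U Om k').toSubfield.comap emb with
        algebraMap_mem' := fun r => by
          change emb (algebraMap K Kb r) ∈ lev U Om k'
          have h1 : emb (algebraMap K Kb r) = algebraMap U Om (algebraMap K U r) :=
            hemb (algebraMap K U r)
          rw [h1]
          exact (lev U Om k').algebraMap_mem _ }
    have hT : (U ⊔ KC K C' : IntermediateField K Kb) ≤ T := by
      refine sup_le ?_ ?_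
      · intro u hu
        change emb u ∈ lev U Om k'
        rw [show emb u = algebraMap U Om ⟨u, hu⟩ from hemb ⟨u, hu⟩]
        exact (lev U Om k').algebraMap_mem _
      · unfold KC
        rw [IntermediateField.adjoin_le_iff]
        intro c hc
        change emb c ∈ lev U Om k'
        exact algebraMap_mem_lev U Om k' ((hk' _).mpr ⟨c, hc, rfl⟩)
    exact hT hb

end lev

section main

variable {k : Type} [Field k] {K : Type} [Field K] [Algebra k K]
variable [CharZero k] [Algebra (RatFunc k) K] [IsScalarTower k (RatFunc k) K]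
  [FiniteDimensional (RatFunc k) K]

local notation "Kb" => AlgebraicClosure K

/-- **End step**, abstract constants -/
theorem end_abs (hAnn : AnnP) {κ E : Type} [NontriviallyNormedField κ] [ProperSpace κ]
    [IsUltrametricDist κ] [CharZero κ] [NontriviallyNormedField E] [NormedAlgebra κ E]
    [IsUltrametricDist E] [CompleteSpace E] {y : E} (hG : IsGauss κ y) {ϖ : κ} (hϖ : IsUnif ϖ)
    (hd : DenseRat κ y) {s : ℝ≥0} (hs : 1 < s) {n : ℕ} (hn : 0 < n)
    (hsn : (s : ℝ)⁻¹ ≤ ‖(n : κ)‖ ^ 2)
    (C : IntermediateField k Kb) [FiniteDimensional k C] (U : IntermediateField K Kb)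
    (hU : IsUnramifiedEverywhere k K U) (j₀ : κ →+* U) (hjC : ∀ a, (j₀ a : Kb) ∈ C)
    (hCj : ∀ c ∈ C, ∃ a, (j₀ a : Kb) = c)
    {V : Type} [CommRing V] [Algebra E V] {d : ℕ} (X : Edge (gaussDatum hG hϖ hd) V d)
    (j : U →+* V) (σ : V →ₐ[E] E)
    (hNB : NBOut (gaussDatum hG hϖ hd) (Am hG hϖ hd hs) (Ap hG hϖ hd hs) U V d X j σ)
    (hσj : ∀ a : κ, σ (j (j₀ a)) = algebraMap κ E a)
    (x : K) (hx0 : x ≠ 0) {π : κ} (hπ0 : π ≠ 0)
    (hσx : σ (j (algebraMap K U x)) = algebraMap κ E π * y) :
    ∃ v' : Valuation Kb ℝ≥0, (∀ u : U, v' (u : Kb) = ‖σ (j u)‖₊) ∧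
      ∀ ξ : Kb, ξ ^ n = algebraMap K Kb x → ξ ∈ cl v' (maxUnramified k K : Set Kb) := by
  classical
  have hK0 := charZero_K k K
  have hUf := hU.1
  obtain ⟨Om, n1, n2, n3, tOm, uOm, aOm⟩ := exists_big κ E
  letI iκU : Algebra κ U := j₀.toAlgebra
  letI iUOm : Algebra U Om := ((algebraMap E Om).comp (σ.toRingHom.comp j)).toAlgebra
  have hUOm : ∀ u : U, algebraMap U Om u = algebraMap E Om (σ (j u)) := fun _ => rfl
  have tκ : IsScalarTower κ U Om := IsScalarTower.of_algebraMap_eq fun a => by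
    rw [hUOm]
    change _ = algebraMap E Om (σ (j (j₀ a)))
    rw [hσj, ← IsScalarTower.algebraMap_apply]
  have hjπ0 : j₀ π ≠ 0 := (_root_.map_ne_zero j₀).mpr hπ0
  have hEπ0 : algebraMap κ E π ≠ 0 := (_root_.map_ne_zero _).mpr hπ0
  -- `y` comes from `U`
  set xU : U := algebraMap K U x / j₀ π with hxU
  have hyU : σ (j xU) = y := by
    have h1 : ∀ u : U, (σ.toRingHom.comp j) u = σ (j u) := fun _ => rfl
    rw [hxU, ← h1, map_div₀ (σ.toRingHom.comp j), h1, h1, hσx, hσj,
      mul_div_cancel_left₀ _ hEπ0]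
  obtain ⟨k', hk'f, f, z, hf0, hfdiv, hz0, hfz⟩ := hAnn (k := κ) (E := E) (Ω := Om) (U := U)
    (V := V) hG hϖ hd hs hn hsn X j σ hNB hσj xU hyU hUOm
  -- the embedding of `Kb`
  have aU : Algebra.IsAlgebraic U Kb := Algebra.IsAlgebraic.tower_top (K := K) U
  let embA : Kb →ₐ[U] Om := IsAlgClosed.lift
  let emb : Kb →+* Om := embA.toRingHom
  have hemb : ∀ u : U, emb (u : Kb) = algebraMap U Om u := fun u => embA.commutes u
  let v' : Valuation Kb ℝ≥0 := (NormedField.valuation (K := Om)).comap emb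
  have hv' : ∀ a, v' a = ‖emb a‖₊ := fun _ => rfl
  refine ⟨v', fun u => by rw [hv', hemb, hUOm, nnnorm_algebraMap'], ?_⟩
  intro ξ hξ
  -- the constants
  obtain ⟨C', hC'f, hCC', hk'C⟩ := exists_consts (k := k) (A := Kb) emb C
    ((algebraMap U Kb).comp j₀) (fun a => by
      change emb (j₀ a : Kb) = _
      rw [hemb]
      exact (IsScalarTower.algebraMap_apply κ U Om a).symm) hjC hCj k'
  set W : IntermediateField K Kb := U ⊔ KC K C' with hW
  have hWu : IsUnramifiedEverywhere k K W := sup_unr hU C'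
  have hUW : U ≤ W := le_sup_left
  have hCW : ∀ c ∈ C', c ∈ W := fun c hc => (le_sup_right : KC K C' ≤ W) (le_KC hc)
  have hlev : ∀ a : Om, a ∈ lev U Om k' ↔ ∃ b ∈ W, emb b = a := fun a =>
    mem_lev_iff_emb U emb hemb k' C' hk'C a
  -- the isomorphism `lev U Om k' ≃ W`
  let φ : W →+* lev U Om k' :=
    (emb.comp (algebraMap W Kb)).codRestrict (lev U Om k') fun b => (hlev _).mpr ⟨b, b.2, rfl⟩
  have hφ : ∀ b : W, ((φ b : lev U Om k') : Om) = emb (b : Kb) := fun _ => rfl
  have hφb : Function.Bijective φ := by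
    refine ⟨φ.injective, fun a => ?_⟩
    obtain ⟨b, hb, hba⟩ := (hlev a).mp a.2
    exact ⟨⟨b, hb⟩, Subtype.ext hba⟩
  let e : lev U Om k' ≃+* W := (RingEquiv.ofBijective φ hφb).symm
  have he : ∀ a : lev U Om k', emb ((e a : W) : Kb) = (a : Om) := by
    intro a
    have h1 : φ (e a) = a := (RingEquiv.ofBijective φ hφb).apply_symm_apply a
    rw [← hφ, h1]
  set f₀ : W := e f with hf₀
  have hf₀0 : f₀ ≠ 0 := by
    rw [hf₀]
    exact (map_ne_zero_iff e e.injective).mpr hf0
  have hdiv : LDiv k n f₀ := by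
    refine LDiv_transport e (fun a => ?_) hfdiv
    -- constants
    have h1 := he (algebraMap k' (lev U Om k') a)
    obtain ⟨b, hb, hba⟩ := (hk'C _).mp a.2
    have h2 : ((e (algebraMap k' (lev U Om k') a) : W) : Kb) = b := by
      apply emb.injective
      rw [h1, hba]
      rfl
    have h3 : IsIntegral k (⟨b, hb⟩ : C') := Algebra.IsIntegral.isIntegral _
    have h4 : IsIntegral k b := h3.map C'.val
    have h5 : IsIntegral k ((e (algebraMap k' (lev U Om k') a) : W) : Kb) := by
      rw [h2]; exact h4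
    have tW : IsScalarTower k W Kb := tower_kLb W
    exact (isIntegral_algebraMap_iff (algebraMap W Kb).injective).mp h5
  -- the core
  have hπkb : ((j₀ π : U) : Kb) ∈ kb k K := Cof5_669.le_kb C (hjC π)
  have hπKb0 : ((j₀ π : U) : Kb) ≠ 0 := fun h => hjπ0 (Subtype.ext h)
  have hembx : emb (algebraMap K Kb x / ((j₀ π : U) : Kb)) = algebraMap E Om y := by
    have h1 : algebraMap K Kb x / ((j₀ π : U) : Kb) = ((xU : U) : Kb) := by
      rw [hxU]; push_cast; rfl
    rw [h1, hemb, hUOm, hyU]
  refine last_core x hx0 hn emb hv' hWu hf₀0 hdiv hπkb hπKb0 (z := (z : Om)) ?_ ?_ hξ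
  · rw [hf₀, he, hfz, hembx]
  · intro ε hε
    have hden := dense_lev (Ω := Om) hG hd k'
    obtain ⟨F, G, -, hFG⟩ := hden z ε hε
    -- the values of polynomials come from `W`
    have hval : ∀ F : k'[X], ∃ b ∈ W, emb b = ((aeval (yl y k') F : lev E Om k') : Om) := by
      intro F
      rw [coe_aeval_lev, aeval_eq_sum_range]
      have hy1 : ∃ b ∈ W, emb b = algebraMap E Om y :=
        ⟨(xU : Kb), hUW xU.2, by rw [hemb, hUOm, hyU]⟩
      obtain ⟨by', hby, hby'⟩ := hy1
      have hc : ∀ i, ∃ b ∈ W, emb b = ((F.coeff i : k') : Om) := fun i => by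
        obtain ⟨b, hb, hb'⟩ := (hk'C _).mp (F.coeff i).2
        exact ⟨b, hCW b hb, hb'⟩
      choose bc hbc hbc' using hc
      refine ⟨∑ i ∈ Finset.range (F.natDegree + 1), bc i * by' ^ i,
        sum_mem fun i _ => mul_mem (hbc i) (pow_mem hby i), ?_⟩
      rw [map_sum]
      refine Finset.sum_congr rfl fun i _ => ?_
      rw [map_mul, map_pow, hbc', hby', Algebra.smul_def]
      rfl
    obtain ⟨bF, hbF, hbF'⟩ := hval F
    obtain ⟨bG, hbG, hbG'⟩ := hval G
    refine ⟨bF / bG, div_mem hbF hbG, ?_⟩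
    rw [map_div₀, hbF', hbG']
    exact hFG

end main

end Crest.Agent.R013.BRLast_669
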