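import Mathlib
import Crest.Agent.R013.BRLast3_669

/-!
# Row 13, part B, end step: `EndP p` from `AnnP`
-/

set_option autoImplicit false
set_option linter.unusedSectionVars false
set_option linter.style.haveILetI false

namespace Crest.Agent.R013.BRLast_669

open scoped NNReal Topology
open Filter Polynomial Crest.NumberTheoryR.Sect
open Crest.Agent.R013.SE_669 Crest.Agent.R013.Unr3_957 Crest.Agent.R013.Unr4_957
  Crest.Agent.R013.AnnP_669 Crest.Agent.R013.Set_803 Crest.Agent.R013.VData_803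
open Crest.Agent.R013.Gl946 Crest.Agent.R013.NB_92 Crest.Agent.R013.CutCov_92
  Crest.Agent.R013.Half_930
open Crest.Agent.R013.BTor6_914 (Lbar LC)

/-- **The end step** -/
theorem endP (p : ℕ) [Fact p.Prime] (hAnn : AnnP) : TopB_803.EndP p := by
  intro e he s hs hse k _ _ _ K _ _ _ _ _ hc hg P x hP hx π v hNB
  classical
  obtain ⟨C, hCf, hπC, π0, q, c, R, D, hKSD, hπR, E, iE, A, uE, cE, y, hy, hd, ϖ, hϖ, U, V, iV,
    iEV, d, X, j, σ, hUf, hUM, hCU, hNBO, hσ⟩ := hNB
  haveI hk0 : CharZero k := charZero_of_injective_algebraMap (algebraMap ℚ_[p] k).injective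
  letI i1 := nC D.hv C
  haveI := ultra_nC D.hv C
  haveI := complete_nC D.hv C
  haveI := proper_nC D.hv C
  letI := A
  have hC0 : CharZero C := charZero_of_injective_algebraMap (algebraMap k C).injective
  let j₀ : C →+* U := (algebraMap C (AlgebraicClosure K)).codRestrict U fun a => hCU a a.2
  have hj₀ : ∀ a : C, ((j₀ a : U) : AlgebraicClosure K) = a := fun _ => rfl
  have hCLC : ∀ a ∈ C, a ∈ LC (⊥ : IntermediateField K (AlgebraicClosure K)) C := fun a ha =>
    (le_sup_right : IntermediateField.adjoin K (C : Set (AlgebraicClosure K)) ≤ _)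
      (IntermediateField.subset_adjoin K _ ha)
  have hρ0 : (⟨π, hπC⟩ : C) ≠ 0 := fun h => π0 (congrArg Subtype.val h)
  have hσj : ∀ a : C, σ (j (j₀ a)) = algebraMap C E a := fun a =>
    (hσ a (hCLC a a.2) (hCU a a.2) (D.C_le_SD a)).trans
      (D.iota_const A hy ⟨π, hπC⟩ hπR hρ0 a (D.C_le_SD a))
  have hσx : σ (j (algebraMap K U x)) = algebraMap C E ⟨π, hπC⟩ * y :=
    (hσ (algebraMap K (AlgebraicClosure K) x) (IntermediateField.algebraMap_mem _ x)
      (U.algebraMap_mem x) D.x_mem_SD).trans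
      (D.iota_x A hy ⟨π, hπC⟩ hπR hρ0 D.x_mem_SD)
  have hy1 : ‖y‖ = 1 := IsGauss.norm_eq hy
  have hx0 : x ≠ 0 := by
    rintro rfl
    rw [map_zero, map_zero, map_zero] at hσx
    rcases mul_eq_zero.mp hσx.symm with h | h
    · exact hρ0 ((_root_.map_eq_zero _).mp h)
    · rw [h, norm_zero] at hy1; exact zero_ne_one hy1
  have hnC : ∀ a : C, ‖a‖ = v (a : AlgebraicClosure K) := norm_nC D.hv C
  have hsn : (s : ℝ)⁻¹ ≤ ‖((e : ℕ) : C)‖ ^ 2 := by
    have h1 := D.hv (e : ℚ_[p])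
    rw [map_natCast, map_natCast] at h1
    have h2 : (((e : ℕ) : C) : AlgebraicClosure K) = (e : AlgebraicClosure K) := by simp
    rw [hnC, h2, h1]
    exact_mod_cast hse
  have hU : IsUnramifiedEverywhere k K U := Unr5_957.le_maxUnramified_iff.mp hUM
  obtain ⟨v', hv'U, hv'⟩ := end_abs hAnn hy hϖ hd hs he hsn C U hU j₀ (fun a => a.2)
    (fun c hc => ⟨⟨c, hc⟩, rfl⟩) X j σ hNBO hσj x hx0 hρ0 hσx
  obtain ⟨ξ, hξ⟩ := IsAlgClosed.exists_pow_nat_eq (algebraMap K (AlgebraicClosure K) x) he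
  have hv'C : ∀ a ∈ C, v' a = v a := by
    intro a ha
    have h1 := hv'U (j₀ ⟨a, ha⟩)
    rw [hσj, nnnorm_algebraMap'] at h1
    rw [hj₀] at h1
    rw [h1]
    exact NNReal.coe_injective (hnC ⟨a, ha⟩)
  have hLU : LC (⊥ : IntermediateField K (AlgebraicClosure K)) C ≤ U := by
    refine sup_le bot_le ?_
    rw [IntermediateField.adjoin_le_iff]
    exact fun a ha => hCU a ha
  have hLSD : ∀ f ∈ LC (⊥ : IntermediateField K (AlgebraicClosure K)) C, f ∈ D.SD := by
    refine D.sup_le_SDK (L := ⊥) (fun f hf => ?_) (C : Set (AlgebraicClosure K))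
      (fun a ha => D.C_le_SD ⟨a, ha⟩)
    obtain ⟨g, rfl⟩ := IntermediateField.mem_bot.mp hf
    exact hKSD g
  refine ⟨C, ξ, v', hCf, hπC, hv'C π hπC, ?_, ?_, hξ, hv' ξ hξ⟩
  · intro a
    have h1 : algebraMap k (AlgebraicClosure K) (algebraMap ℚ_[p] k a) ∈ C := C.algebraMap_mem _
    rw [hv'C _ h1]
    exact D.hv a
  · refine D.isCircle A hy ⟨π, hπC⟩ hπR hρ0
      (LC (⊥ : IntermediateField K (AlgebraicClosure K)) C).toSubfield hLSD
      (fun f => IntermediateField.algebraMap_mem _ f) hCLC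
      (IntermediateField.algebraMap_mem _ x) v' ?_
    intro f hf
    have h1 := hv'U ⟨f, hLU hf⟩
    rw [hσ f hf (hLU hf) (hLSD f hf)] at h1
    change v' f = _ at h1
    rw [h1]
    rfl

end Crest.Agent.R013.BRLast_669
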