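import Mathlib
import Crest.Agent.R013.BTor4_914
import Crest.Agent.R013.Unr11_957

/-!
# R013 / BTor6: from a nontrivial `l`-torsion class over `k̄` to a finite level, inside
`Ω = AlgebraicClosure K` (helper914)
-/

set_option autoImplicit false
set_option linter.all false

namespace Crest.Agent.R013.BTor6_914

open WithZero
open scoped NNReal IntermediateField
open Crest.NumberTheoryR.Sect
open Crest.Agent.R013.RR7_948 Crest.Agent.R013.RR8_948 Crest.Agent.R013.RR11_948
open Crest.Agent.R013.RR13_948
open Crest.Agent.R013.BTor4_914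

section desc

/-- more constants -/
theorem LDiv.mono {k k' L : Type*} [Field k] [Field k'] [Field L] [Algebra k k'] [Algebra k L]
    [Algebra k' L] [IsScalarTower k k' L] {l : ℕ} {h : L} (hL : LDiv k l h) : LDiv k' l h := by
  intro u hu
  refine hL u ⟨fun c hc => ?_, hu.2⟩
  rw [IsScalarTower.algebraMap_apply k k' L]
  exact hu.1 _ (by simpa using hc)

/-- fewer constants (algebraic) -/
theorem LDiv.of_alg {k k' L : Type*} [Field k] [Field k'] [Field L] [Algebra k k'] [Algebra k L]
    [Algebra k' L] [IsScalarTower k k' L] [Algebra.IsAlgebraic k k'] {l : ℕ} {h : L}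
    (hL : LDiv k' l h) : LDiv k l h := by
  intro u hu
  refine hL u ⟨fun c hc => ?_, hu.2⟩
  refine Unr9_957.trivial_of_trivial (F := k) (E := k') (u.comap (algebraMap k' L)) ?_ c hc
  intro x hx
  show u (algebraMap k' L (algebraMap k k' x)) = 1
  rw [← IsScalarTower.algebraMap_apply k k' L]
  exact hu.1 x hx

variable {k : Type*} [Field k] [CharZero k] {F : Type*} [Field F] [Algebra k F]
  [Algebra (RatFunc k) F] [IsScalarTower k (RatFunc k) F] [FiniteDimensional (RatFunc k) F]
  {E : Type*} [Field E] [Algebra F E] [Algebra k E] [IsScalarTower k F E]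

/-- `E/F` generated by constants is algebraic -/
theorem isAlgebraic_of_adjoin (hgen : IntermediateField.adjoin F {x : E | IsIntegral k x} = ⊤) :
    Algebra.IsAlgebraic F E := by
  have h1 : Algebra.IsAlgebraic F (IntermediateField.adjoin F {x : E | IsIntegral k x}) := by
    refine IntermediateField.isAlgebraic_adjoin ?_
    intro x hx
    have hx' : IsIntegral k x := hx
    exact hx'.tower_top
  rw [hgen] at h1
  refine ⟨fun x => ?_⟩
  have h2 := h1.isAlgebraic (⟨x, IntermediateField.mem_top⟩ : (⊤ : IntermediateField F E))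
  exact (isAlgebraic_algebraMap_iff (algebraMap (⊤ : IntermediateField F E) E).injective).mpr h2

/-- **descent of `LDiv` along an extension generated by constants** -/
theorem ldiv_desc (hgen : IntermediateField.adjoin F {x : E | IsIntegral k x} = ⊤) {l : ℕ} {f : F}
    (hf : LDiv k l (algebraMap F E f)) : LDiv k l f := by
  classical
  haveI := isAlgebraic_of_adjoin (k := k) hgen
  intro u hu
  obtain ⟨w, hw⟩ := Unr9_957.exists_extend_alg (E := E) u
  have hwu : ∀ a : F, w (algebraMap F E a) = u a := fun a => by rw [← hw]; rfl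
  have hwp : IsPlace k w := by
    refine ⟨fun c hc => ?_, ?_⟩
    · rw [IsScalarTower.algebraMap_apply k F E, hwu]
      exact hu.1 c hc
    · obtain ⟨a, ha0, ha1⟩ := hu.2
      exact ⟨algebraMap F E a, by rw [hwu]; exact ha0, by rw [hwu]; exact ha1⟩
  obtain ⟨b, hb⟩ := hf w hwp
  rw [hwu] at hb
  -- `b` lies in a finite extension generated by constants
  have hbm : b ∈ IntermediateField.adjoin F {x : E | IsIntegral k x} := by
    rw [hgen]; exact IntermediateField.mem_top
  obtain ⟨T, hT, hbT⟩ := IntermediateField.exists_finset_of_mem_adjoin hbm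
  let F₁ : IntermediateField F E := IntermediateField.adjoin F (T : Set E)
  haveI : FiniteDimensional F F₁ := by
    refine IntermediateField.finiteDimensional_adjoin fun x hx => ?_
    have hx' : IsIntegral k x := hT hx
    exact hx'.tower_top
  haveI : IsScalarTower k F₁ E := IsScalarTower.of_algebraMap_eq fun x => by
    rw [IsScalarTower.algebraMap_apply k F F₁, ← IsScalarTower.algebraMap_apply F F₁ E,
      ← IsScalarTower.algebraMap_apply k F E]
  have hgen₁ : IntermediateField.adjoin F {x : F₁ | IsIntegral k x} = ⊤ := by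
    rw [eq_top_iff]
    rintro ⟨f, hf⟩ _
    have h1 : F₁ ≤ (IntermediateField.adjoin F {x : F₁ | IsIntegral k x}).map F₁.val := by
      rw [IntermediateField.adjoin_le_iff]
      intro x hx
      have hx1 : x ∈ F₁ := IntermediateField.subset_adjoin _ _ hx
      refine ⟨⟨x, hx1⟩, IntermediateField.subset_adjoin _ _ ?_, rfl⟩
      have hx' : IsIntegral k x := hT hx
      show IsIntegral k (⟨x, hx1⟩ : F₁)
      rw [← isIntegral_algHom_iff (IsScalarTower.toAlgHom k F₁ E)
        (by exact (algebraMap F₁ E).injective)]
      exact hx'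
    obtain ⟨g, hg, hgf⟩ := h1 hf
    have : g = ⟨f, hf⟩ := Subtype.ext hgf
    rw [← this]
    exact hg
  have hun : Unr10_957.UnrEv k F F₁ := Unr11_957.unrEv_const hgen₁
  obtain ⟨a, ha⟩ := hun u hu (w.comap (algebraMap F₁ E)) (by
    ext x
    show (w (algebraMap F₁ E (algebraMap F F₁ x)) : ℝ) = u x
    rw [← IsScalarTower.algebraMap_apply F F₁ E, hwu]) ⟨b, hbT⟩
  have ha' : w b = u a := ha
  exact ⟨a, by rw [hb, ha']⟩

end desc

section omega

variable {k : Type*} [Field k] [CharZero k] {K : Type*} [Field K] [Algebra k K]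
  [Algebra (RatFunc k) K] [IsScalarTower k (RatFunc k) K] [FiniteDimensional (RatFunc k) K]

/-- `L k̄` -/
noncomputable def Lbar (k : Type*) [Field k] {K : Type*} [Field K] [Algebra k K]
    (L : IntermediateField K (AlgebraicClosure K)) : IntermediateField K (AlgebraicClosure K) :=
  L ⊔ IntermediateField.adjoin K {x | IsIntegral k x}

/-- `L C` -/
noncomputable def LC {k : Type*} [Field k] {K : Type*} [Field K] [Algebra k K]
    (L : IntermediateField K (AlgebraicClosure K))
    (C : IntermediateField k (AlgebraicClosure K)) : IntermediateField K (AlgebraicClosure K) :=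
  L ⊔ IntermediateField.adjoin K (C : Set (AlgebraicClosure K))

theorem LC_le_Lbar {L : IntermediateField K (AlgebraicClosure K)}
    {C : IntermediateField k (AlgebraicClosure K)} [FiniteDimensional k C] :
    LC L C ≤ Lbar k L := by
  refine sup_le_sup_left (IntermediateField.adjoin.mono _ _ _ ?_) _
  intro x hx
  have h1 : IsIntegral k (⟨x, hx⟩ : C) := (Algebra.IsIntegral.isIntegral (R := k) (A := C) _)
  exact h1.map C.val

theorem LC_mono {L : IntermediateField K (AlgebraicClosure K)}
    {C C' : IntermediateField k (AlgebraicClosure K)} (h : C ≤ C') : LC L C ≤ LC L C' :=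
  sup_le_sup_left (IntermediateField.adjoin.mono _ _ _ h) _

/-- every element of `L k̄` lies in `L C` with `C/k` finite -/
theorem exists_LC {L : IntermediateField K (AlgebraicClosure K)} {f : AlgebraicClosure K}
    (hf : f ∈ Lbar k L) : ∃ C : IntermediateField k (AlgebraicClosure K),
      FiniteDimensional k C ∧ f ∈ LC L C := by
  classical
  have h1 : Lbar k L = IntermediateField.adjoin K ((L : Set (AlgebraicClosure K)) ∪
      {x | IsIntegral k x}) := by
    unfold Lbar
    rw [IntermediateField.adjoin_union, IntermediateField.adjoin_self]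
  rw [h1] at hf
  obtain ⟨T, hT, hfT⟩ := IntermediateField.exists_finset_of_mem_adjoin hf
  let S : Set (AlgebraicClosure K) := {x | x ∈ T ∧ IsIntegral k x}
  have hS : S.Finite := (Finset.finite_toSet T).subset fun x hx => hx.1
  haveI := hS.to_subtype
  refine ⟨IntermediateField.adjoin k S,
    IntermediateField.finiteDimensional_adjoin fun x hx => hx.2, ?_⟩
  have h2 : IntermediateField.adjoin K (T : Set (AlgebraicClosure K)) ≤
      LC L (IntermediateField.adjoin k S) := by
    rw [IntermediateField.adjoin_le_iff]
    intro x hx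
    rcases hT hx with h | h
    · exact (le_sup_left : L ≤ _) h
    · exact (le_sup_right : IntermediateField.adjoin K _ ≤ LC L (IntermediateField.adjoin k S))
        (IntermediateField.subset_adjoin _ _ (IntermediateField.subset_adjoin _ _ ⟨hx, h⟩))
  exact h2 hfT

/-- `LDiv` descends from `L k̄` to every `U` between -/
theorem ldiv_of_bar {L U : IntermediateField K (AlgebraicClosure K)} [FiniteDimensional K U]
    (hLU : L ≤ U) (hU : U ≤ Lbar k L) {l : ℕ} {f : AlgebraicClosure K} (hf : f ∈ U)
    (h : LDiv k l (⟨f, hU hf⟩ : Lbar k L)) : LDiv k l (⟨f, hf⟩ : U) := by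
  haveI : FiniteDimensional (RatFunc k) U := Unr4_957.finite_IF U
  haveI : IsScalarTower k (RatFunc k) U := Unr4_957.tower_IF U
  letI : Algebra U (Lbar k L) := (IntermediateField.inclusion hU).toRingHom.toAlgebra
  haveI : IsScalarTower k U (Lbar k L) := IsScalarTower.of_algebraMap_eq fun x => rfl
  refine ldiv_desc (k := k) (F := U) (E := Lbar k L) ?_ h
  rw [eq_top_iff]
  rintro ⟨x, hx⟩ _
  -- push to `Ω`
  letI : Algebra U (AlgebraicClosure K) := inferInstance
  haveI : IsScalarTower U (Lbar k L) (AlgebraicClosure K) :=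
    IsScalarTower.of_algebraMap_eq fun x => rfl
  let A : IntermediateField U (Lbar k L) :=
    IntermediateField.adjoin U {x : Lbar k L | IsIntegral k x}
  let φ : Lbar k L →ₐ[U] AlgebraicClosure K := IsScalarTower.toAlgHom U (Lbar k L) _
  let B : IntermediateField K (AlgebraicClosure K) := (A.map φ).restrictScalars K
  have hB : Lbar k L ≤ B := by
    unfold Lbar
    refine sup_le ?_ ?_
    · intro y hy
      exact ⟨⟨y, hU (hLU hy)⟩, A.algebraMap_mem ⟨y, hLU hy⟩, rfl⟩
    · rw [IntermediateField.adjoin_le_iff]
      intro y hy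
      have hy1 : y ∈ Lbar k L := (le_sup_right : IntermediateField.adjoin K _ ≤ Lbar k L)
        (IntermediateField.subset_adjoin _ _ hy)
      refine ⟨⟨y, hy1⟩, IntermediateField.subset_adjoin _ _ ?_, rfl⟩
      have hy' : IsIntegral k y := hy
      show IsIntegral k (⟨y, hy1⟩ : Lbar k L)
      rw [← isIntegral_algHom_iff (IsScalarTower.toAlgHom k (Lbar k L) (AlgebraicClosure K))
        (by exact (algebraMap (Lbar k L) (AlgebraicClosure K)).injective)]
      exact hy'
  obtain ⟨g, hg, hgf⟩ := hB hx
  have : g = ⟨x, hx⟩ := Subtype.ext hgf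
  rw [← this]
  exact hg

/-- **(B-TOR), existence.** `htors`: over `k̄` there is a class of order `l`. -/
theorem exists_btor {L : IntermediateField K (AlgebraicClosure K)}
    (hL : IsUnramifiedEverywhere k K L) {l : ℕ} (hl : l ≠ 0)
    (htors : ∃ f : Lbar k L, f ≠ 0 ∧ LDiv k l f ∧ ∀ g : Lbar k L, g ^ l ≠ f) :
    ∃ C : IntermediateField k (AlgebraicClosure K), FiniteDimensional k C ∧
      ∃ f : AlgebraicClosure K, f ∈ LC L C ∧ f ≠ 0 ∧ (∀ g ∈ Lbar k L, g ^ l ≠ f) ∧
        (∀ y : AlgebraicClosure K, y ^ l = f → y ∈ maxUnramified k K) ∧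
        ∀ U : IntermediateField K (AlgebraicClosure K), FiniteDimensional K U → L ≤ U →
          U ≤ Lbar k L → ∀ hf : f ∈ U, LDiv k l (⟨f, hf⟩ : U) := by
  obtain ⟨⟨f, hfm⟩, hf0, hfd, hfn⟩ := htors
  obtain ⟨C, hC, hfC⟩ := exists_LC hfm
  haveI := hC
  haveI := hL.1
  have key : ∀ U : IntermediateField K (AlgebraicClosure K), FiniteDimensional K U → L ≤ U →
      U ≤ Lbar k L → ∀ hf : f ∈ U, LDiv k l (⟨f, hf⟩ : U) := by
    intro U hUf hLU hU hf
    exact ldiv_of_bar hLU hU hf hfd
  -- `L C` is finite and unramified over `K`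
  have hCm : (C : Set (AlgebraicClosure K)) ⊆ maxUnramified k K := by
    intro x hx
    have h1 : IsIntegral k (⟨x, hx⟩ : C) := (Algebra.IsIntegral.isIntegral (R := k) (A := C) _)
    have h2 : IsIntegral k x := h1.map C.val
    exact MaxUnr_97.mem_maxUnramified_of_isIntegral _ h2
  haveI : FiniteDimensional K (IntermediateField.adjoin K (C : Set (AlgebraicClosure K))) := by
    obtain ⟨s, hs⟩ : ∃ s : Finset (AlgebraicClosure K), IntermediateField.adjoin k
        (s : Set (AlgebraicClosure K)) = C := by
      have h1 : Algebra.EssFiniteType k C := inferInstance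
      exact IntermediateField.essFiniteType_iff.mp h1
    have h1 : IntermediateField.adjoin K (C : Set (AlgebraicClosure K)) =
        IntermediateField.adjoin K (s : Set (AlgebraicClosure K)) := by
      apply le_antisymm
      · rw [IntermediateField.adjoin_le_iff]
        intro x hx
        have hx' : x ∈ C := hx
        rw [← hs] at hx'
        have h3 : IntermediateField.adjoin k (s : Set (AlgebraicClosure K)) ≤
            (IntermediateField.adjoin K (s : Set (AlgebraicClosure K))).restrictScalars k := by
          rw [IntermediateField.adjoin_le_iff]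
          exact IntermediateField.subset_adjoin K _
        exact h3 hx'
      · refine IntermediateField.adjoin.mono _ _ _ ?_
        rw [← hs]
        exact IntermediateField.subset_adjoin _ _
    rw [h1]
    exact IntermediateField.finiteDimensional_adjoin fun x hx => Algebra.IsIntegral.isIntegral x
  haveI : FiniteDimensional K (LC L C) := by
    unfold LC
    infer_instance
  have hLC : IsUnramifiedEverywhere k K (LC L C) := by
    refine Unr5_957.le_maxUnramified_iff.mp ?_
    unfold LC
    refine sup_le (Unr5_957.le_maxUnramified_iff.mpr hL) ?_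
    rw [IntermediateField.adjoin_le_iff]
    exact hCm
  refine ⟨C, hC, f, hfC, fun h => hf0 (Subtype.ext h), ?_, ?_, key⟩
  · intro g hg hgl
    exact hfn ⟨g, hg⟩ (Subtype.ext hgl)
  · intro y hy
    exact Unr10_957.kummer_mem_maxUnramified hLC hl (h := ⟨f, hfC⟩)
      (key (LC L C) inferInstance le_sup_left LC_le_Lbar hfC) hy

end omega

end Crest.Agent.R013.BTor6_914
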