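import Crest.Agent.R013.GoodP_797
import Crest.Agent.R013.BTor6_914

/-!
# Row 13, part B: the interface `VData` (vertex data) and the statement `BMain`

* `VData p k K P x η C π q c R v M l Y` : the input of part B at one circle `|x| = |π|`.
* `SEAt p k K P x e π r` : the output of part B at this circle.
* `BMain p`, `VSupply p`, and `SE` from them (captain's decision #3848).
-/

set_option autoImplicit false

namespace Crest.Agent.R013.VData_803

open scoped NNReal Topology
open Filter Crest.NumberTheoryR.Sect SE_669 CGood_588 GoodP_797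
open Crest.Agent.R013.BTor6_914 (Lbar LC)

/-- **Vertex data** at the circle `|x| = |π|`: a disc embedding of `K` (radius `R > |π| / η`), a norm
`v` which is the Gauss norm of centre `q` and radius `|c|` (`|q|, |c| < η |π|`), a finite extension
`M` of `K` inside `maxUnramified` containing the constants `C`, a prime `l ≠ p`, and an element
`Y ∈ M` such that (V1) the value of `Y` is an `l`-th power at every valuation ring of `M k̄` below
`v`, (V2) the residue of `Y` at `v` is not an `l`-th power in the residue field of `M k̄`. -/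
structure VData (p : ℕ) [Fact p.Prime] (k : Type*) [Field k] [Algebra ℚ_[p] k] (K : Type*) [Field K]
    [Algebra k K] (P : Valuation (AlgebraicClosure K) ℝ≥0) (x : K) (η : ℝ≥0)
    (C : IntermediateField k (AlgebraicClosure K)) (π q c : AlgebraicClosure K) (R : ℝ≥0)
    (v : Valuation (AlgebraicClosure K) ℝ≥0) (M : IntermediateField K (AlgebraicClosure K))
    (l : ℕ) (Y : AlgebraicClosure K) : Prop where
  finC : FiniteDimensional k C
  πC : π ∈ C
  qC : q ∈ C
  cC : c ∈ C
  π0 : π ≠ 0
  c0 : c ≠ 0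
  hv : ExtendsPadicNorm k (AlgebraicClosure K) p v
  hq : v q < η * v π
  hc : v c < η * v π
  hR : v π < η * R
  disc : DiscEmb K C P (algebraMap K (AlgebraicClosure K) x) R v
  gauss : GaussAt C ((algebraMap K (AlgebraicClosure K) x - q) / c) v
  finM : FiniteDimensional K M
  CM : ∀ a ∈ C, a ∈ M
  MU : M ≤ maxUnramified k K
  lprime : l.Prime
  lp : l ≠ p
  YM : Y ∈ M
  vY : v Y = 1
  V1 : ∀ A : ValuationSubring (Lbar k M), (∀ a ∈ A, v (a : AlgebraicClosure K) ≤ 1) →
    ∃ g : Lbar k M, g ≠ 0 ∧ A.valuation (⟨Y, (le_sup_left : M ≤ Lbar k M) YM⟩ * g ^ l) = 1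
  V2 : ∀ g ∈ Lbar k M, ¬ v (Y - g ^ l) < 1

/-- The output of part B at the circle `|x| = |π| = r`, for the exponent `e`. -/
def SEAt (p : ℕ) [Fact p.Prime] (k : Type*) [Field k] [Algebra ℚ_[p] k] (K : Type*) [Field K]
    [Algebra k K] (P : Valuation (AlgebraicClosure K) ℝ≥0) (x : K) (e : ℕ)
    (π : AlgebraicClosure K) (r : ℝ≥0) : Prop :=
  ∃ (C : IntermediateField k (AlgebraicClosure K)) (ξ : AlgebraicClosure K)
    (v : Valuation (AlgebraicClosure K) ℝ≥0),
    FiniteDimensional k C ∧ π ∈ C ∧ v π = r ∧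
    ExtendsPadicNorm k (AlgebraicClosure K) p v ∧
    IsCircle K C P (algebraMap K (AlgebraicClosure K) x) r v ∧
    ξ ^ e = algebraMap K (AlgebraicClosure K) x ∧
    ξ ∈ cl v (maxUnramified k K : Set (AlgebraicClosure K))

/-- **B-MAIN** (scale-wise): for every `e` there is `η > 0`, depending only on `p` and `e`, such that
vertex data at the scale `η` at the circle `|x| = |π|` give (SE) on this circle. -/
def BMain (p : ℕ) [Fact p.Prime] : Prop :=
  ∀ e : ℕ, 0 < e → ∃ η : ℝ≥0, 0 < η ∧
    ∀ (k : Type) [Field k] [Algebra ℚ_[p] k] [FiniteDimensional ℚ_[p] k] (K : Type) [Field K]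
      [Algebra k K] [Algebra (RatFunc k) K] [IsScalarTower k (RatFunc k) K] [FunctionField k K],
      algebraicClosure k K = ⊥ → 2 ≤ genus k K →
      ∀ (P : Valuation (AlgebraicClosure K) ℝ≥0) (x : K),
        IsRationalPlace k K (P.comap (algebraMap K (AlgebraicClosure K))) →
        IsUniformizerAt (P.comap (algebraMap K (AlgebraicClosure K))) x →
        ∀ (C : IntermediateField k (AlgebraicClosure K)) (π q c : AlgebraicClosure K) (R : ℝ≥0)
          (v : Valuation (AlgebraicClosure K) ℝ≥0)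
          (M : IntermediateField K (AlgebraicClosure K)) (l : ℕ) (Y : AlgebraicClosure K),
          VData p k K P x η C π q c R v M l Y → SEAt p k K P x e π (v π)

/-- **The supplier of vertex data** (797): `GOOD'` at the scale `(δ, η)` gives vertex data. -/
def VSupply (p : ℕ) [Fact p.Prime] : Prop :=
  ∀ (k : Type) [Field k] [Algebra ℚ_[p] k] [FiniteDimensional ℚ_[p] k] (K : Type) [Field K]
    [Algebra k K] [Algebra (RatFunc k) K] [IsScalarTower k (RatFunc k) K] [FunctionField k K],
    algebraicClosure k K = ⊥ → 2 ≤ genus k K →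
    ∀ (P : Valuation (AlgebraicClosure K) ℝ≥0) (x : K),
      IsRationalPlace k K (P.comap (algebraMap K (AlgebraicClosure K))) →
      IsUniformizerAt (P.comap (algebraMap K (AlgebraicClosure K))) x →
      ∀ δ η : ℝ≥0, η ≤ 1 → GoodAt p k K P x δ η →
        ∃ (C : IntermediateField k (AlgebraicClosure K)) (π q c : AlgebraicClosure K) (R : ℝ≥0)
          (v : Valuation (AlgebraicClosure K) ℝ≥0)
          (M : IntermediateField K (AlgebraicClosure K)) (l : ℕ) (Y : AlgebraicClosure K),
          v π < δ ∧ VData p k K P x η C π q c R v M l Y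

/-- a weaker scale -/
theorem GoodAt.mono {p : ℕ} [Fact p.Prime] {k : Type*} [Field k] [Algebra ℚ_[p] k] {K : Type*}
    [Field K] [Algebra k K] {P : Valuation (AlgebraicClosure K) ℝ≥0} {x : K} {δ δ' η η' : ℝ≥0}
    (hδ : δ ≤ δ') (hη : η ≤ η') (h : GoodAt p k K P x δ η) : GoodAt p k K P x δ' η' := by
  obtain ⟨C, π, q, c, v, h1, h2, h3, h4, h5, h6, h7, h8, h9, h10, ⟨R, hR, hD⟩, h12, h13⟩ := h
  refine ⟨C, π, q, c, v, h1, h2, h3, h4, h5, h6, h7.trans_le hδ, ?_, ?_, h10, ⟨R, ?_, hD⟩, h12, h13⟩
  · exact h8.trans_le (mul_le_mul_left hη _)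
  · exact h9.trans_le (mul_le_mul_left hη _)
  · exact hR.trans_le (mul_le_mul_left hη _)

theorem VData.mono {p : ℕ} [Fact p.Prime] {k : Type*} [Field k] [Algebra ℚ_[p] k] {K : Type*}
    [Field K] [Algebra k K] {P : Valuation (AlgebraicClosure K) ℝ≥0} {x : K} {η η' : ℝ≥0}
    {C : IntermediateField k (AlgebraicClosure K)} {π q c : AlgebraicClosure K} {R : ℝ≥0}
    {v : Valuation (AlgebraicClosure K) ℝ≥0} {M : IntermediateField K (AlgebraicClosure K)}
    {l : ℕ} {Y : AlgebraicClosure K} (hη : η ≤ η') (h : VData p k K P x η C π q c R v M l Y) :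
    VData p k K P x η' C π q c R v M l Y :=
  { h with
    hq := h.hq.trans_le (mul_le_mul_left hη _)
    hc := h.hc.trans_le (mul_le_mul_left hη _)
    hR := h.hR.trans_le (mul_le_mul_left hη _) }

/-- **(SE) from `GOOD'`**, the supplier of vertex data and B-MAIN. -/
theorem SE_of {p : ℕ} [Fact p.Prime] (hB : BMain p) (hV : VSupply p)
    (k : Type) [Field k] [Algebra ℚ_[p] k] [FiniteDimensional ℚ_[p] k] (K : Type) [Field K]
    [Algebra k K] [Algebra (RatFunc k) K] [IsScalarTower k (RatFunc k) K] [FunctionField k K]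
    (hc : algebraicClosure k K = ⊥) (hg : 2 ≤ genus k K) (hG : GOODP p k K) : SE p k K := by
  intro P x hP hx e he δ hδ
  obtain ⟨η, hη, hη'⟩ := hB e he
  have h1 := hG P x hP hx δ (min η 1) hδ (lt_min hη one_pos)
  obtain ⟨C, π, q, c, R, v, M, l, Y, hπδ, hD⟩ := hV k K hc hg P x hP hx δ (min η 1)
    (min_le_right _ _) h1
  obtain ⟨C', ξ, v', h2, h3, h4, h5, h6, h7, h8⟩ := hη' k K hc hg P x hP hx C π q c R v M l Y
    (hD.mono (min_le_left _ _))
  refine ⟨C', π, ξ, v', h2, h3, hD.π0, ?_, h5, ?_, h7, h8⟩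
  · rw [h4]; exact hπδ
  · rw [h4]; exact h6

end Crest.Agent.R013.VData_803
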