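import Crest.Agent.R013.LiftM_168
import Crest.Agent.R013.VData_803

/-!
# R013 / LiftOut (helper168): LIFT-L from the vertex data `VData`

`LiftOut` : the statement of 92 (post 4000); `liftOut : VData … → LiftOut …`.
-/

set_option autoImplicit false
set_option linter.style.haveILetI false
set_option linter.unusedSectionVars false

namespace Crest.Agent.R013.LiftOut_168

open Polynomial Module IntermediateField
open scoped NNReal
open Crest.NumberTheoryR.Sect
open Crest.Agent.R013.LiftA_168 Crest.Agent.R013.LiftK_168 Crest.Agent.R013.LiftL_168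
  Crest.Agent.R013.LiftM_168 Crest.Agent.R013.SE_669 Crest.Agent.R013.CGood_588
  Crest.Agent.R013.VData_803
open Crest.Agent.R013.BTor6_914 (Lbar LC)
open Crest.Agent.R013.BTor4_914 (LDiv)

theorem LC_eq_lv {k : Type*} [Field k] {K : Type*} [Field K] [Algebra k K]
    (M : IntermediateField K (AlgebraicClosure K))
    (C : IntermediateField k (AlgebraicClosure K)) : LC M C = lv M C := rfl

theorem Lbar_eq_lv {k : Type*} [Field k] {K : Type*} [Field K] [Algebra k K]
    (M : IntermediateField K (AlgebraicClosure K)) :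
    Lbar k M = lv M (algebraicClosure k (AlgebraicClosure K)) := by
  have h : ({x | IsIntegral k x} : Set (AlgebraicClosure K)) =
      (algebraicClosure k (AlgebraicClosure K) : Set (AlgebraicClosure K)) := by
    ext x
    exact (mem_algebraicClosure_iff' (F := k)).symm
  unfold Lbar lv
  rw [h]

/-- **The output of LIFT-L**: `h ∈ M C1` whose divisor is divisible by `l` (a), which is an `l`-th
power up to `1`-units at all norms with `|t| > 1` (b), and is not an `l`-th power up to `1`-units at
`v`, over any finite extension of the constants (c). -/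
def LiftOut (p : ℕ) [Fact p.Prime] (k : Type*) [Field k] [Algebra ℚ_[p] k] (K : Type*) [Field K]
    [Algebra k K] (C : IntermediateField k (AlgebraicClosure K)) (t : AlgebraicClosure K)
    (v : Valuation (AlgebraicClosure K) ℝ≥0) (M : IntermediateField K (AlgebraicClosure K))
    (l : ℕ) : Prop :=
  ∃ (C1 : IntermediateField k (AlgebraicClosure K)) (h : AlgebraicClosure K)
    (hU : h ∈ LC M C1), FiniteDimensional k C1 ∧ C ≤ C1 ∧ h ≠ 0 ∧
    LDiv k l (⟨h, hU⟩ : LC M C1) ∧
    (∀ w : Valuation (AlgebraicClosure K) ℝ≥0, ExtendsPadicNorm k (AlgebraicClosure K) p w →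
      1 < w t → ∃ g ∈ LC M C1, w (h - g ^ l) < w h) ∧
    (∀ g ∈ Lbar k M, ¬ v (h - g ^ l) < v h)

section main

variable {p : ℕ} [hp : Fact p.Prime] {k : Type*} [Field k] [Algebra ℚ_[p] k]
  [FiniteDimensional ℚ_[p] k] {K : Type*} [Field K] [Algebra k K] [Algebra (RatFunc k) K]
  [IsScalarTower k (RatFunc k) K] [FiniteDimensional (RatFunc k) K]

/-- clause (c) at every finite level -/
theorem not_pow_LC (p : ℕ) [hp : Fact p.Prime] {k : Type*} [Field k] [Algebra ℚ_[p] k]
    {K : Type*} [Field K] [Algebra k K] [Algebra (RatFunc k) K]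
    [IsScalarTower k (RatFunc k) K] [FiniteDimensional (RatFunc k) K] {v : Valuation (AlgebraicClosure K) ℝ≥0}
    {M : IntermediateField K (AlgebraicClosure K)} {l : ℕ} {h : AlgebraicClosure K}
    (hc : ∀ g ∈ Lbar k M, ¬ v (h - g ^ l) < v h)
    (C' : IntermediateField k (AlgebraicClosure K)) [FiniteDimensional k C']
    {g : AlgebraicClosure K} (hg : g ∈ LC M C') : ¬ v (h - g ^ l) < v h := by
  haveI : CharZero k := charZero_of_injective_algebraMap (algebraMap ℚ_[p] k).injective
  exact hc g (BTor6_914.LC_le_Lbar hg)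

/-- **LIFT-L**: vertex data give `LiftOut`. -/
theorem liftOut {P : Valuation (AlgebraicClosure K) ℝ≥0} {x : K} {η : ℝ≥0}
    {C : IntermediateField k (AlgebraicClosure K)} {π q c : AlgebraicClosure K} {R : ℝ≥0}
    {v : Valuation (AlgebraicClosure K) ℝ≥0} {M : IntermediateField K (AlgebraicClosure K)}
    {l : ℕ} {Y : AlgebraicClosure K} (hD : VData p k K P x η C π q c R v M l Y) :
    LiftOut p k K C ((algebraMap K (AlgebraicClosure K) x - q) / c) v M l := by
  haveI : CharZero k := charZero_of_injective_algebraMap (algebraMap ℚ_[p] k).injective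
  haveI := hD.finC
  haveI := hD.finM
  have hCD : C ≤ algebraicClosure k (AlgebraicClosure K) := by
    intro c hc
    have h1 : IsIntegral k (⟨c, hc⟩ : C) := Algebra.IsIntegral.isIntegral _
    exact mem_algebraicClosure_iff.2 (h1.map C.val).isAlgebraic
  haveI : IsAlgClosed (algebraicClosure k (AlgebraicClosure K)) := IsAlgClosure.isAlgClosed k
  have htM : (algebraMap K (AlgebraicClosure K) x - q) / c ∈ M :=
    div_mem (sub_mem (M.algebraMap_mem x) (hD.CM _ hD.qC)) (hD.CM _ hD.cC)
  have hpl : p.Coprime l := (Nat.coprime_primes hp.out hD.lprime).2 hD.lp.symm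
  have hV1 := hD.V1
  have hV2 := hD.V2
  have key : ∀ (U : IntermediateField K (AlgebraicClosure K)) (hU : Lbar k M = U) (hY : Y ∈ U),
      ∀ A : ValuationSubring U, (∀ a ∈ A, v (a : AlgebraicClosure K) ≤ 1) →
        ∃ g : U, g ≠ 0 ∧ A.valuation (⟨Y, hY⟩ * g ^ l) = 1 := by
    intro U hU hY
    subst hU
    exact hV1
  obtain ⟨C1, h, hU, h1, h2, -, h3, h4, h5, h6⟩ :=
    liftV_aux (M := M) hD.hv hCD (fun w hw c => cst_unique hD.hv hw c c.2) htM
      (isG_closure hCD hD.gauss) hD.lprime.ne_zero hpl (z := Y)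
      (le_lv M (algebraicClosure k (AlgebraicClosure K)) hD.YM) hD.vY
      (key _ (Lbar_eq_lv M) _) (by rw [← Lbar_eq_lv]; exact hV2)
  exact ⟨C1, h, hU, h1, h2, h3, h4, h5, by rw [Lbar_eq_lv]; exact h6⟩

end main

end Crest.Agent.R013.LiftOut_168
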