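import Crest.Agent.R013.TopB_803
import Crest.Agent.R013.LiftOut_168

/-!
# Row 13, part B: `LiftP` is a theorem (168's `liftOut`)
-/

set_option autoImplicit false

namespace Crest.Agent.R013.TopL_803

open Crest.Agent.R013.TopB_803

/-- **LIFT-L** for vertex data. -/
theorem liftP (p : ℕ) [Fact p.Prime] : LiftP p := by
  intro k _ _ _ K _ _ _ _ _ P x hP hx η hη C π q c R v M l Y hV
  exact LiftOut_168.liftOut hV

end Crest.Agent.R013.TopL_803
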