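import Crest.Agent.R013.OneC_622
import Crest.Agent.R013.AEAsm_854
import Crest.Agent.R013.RR20_948

/-!
# (ONE) of row 13, part D: 854's statement `ONE p` from the P1 data
-/

set_option autoImplicit false

namespace Crest.Agent.R013.One_622

open Polynomial Gl946 Lift903 LemT_874 AEAsm_854 A2b_275
open scoped TensorProduct ENNReal

section Fin

variable {k K : Type*} [Field k] [Field K] [Algebra k K] [Algebra (RatFunc k) K]
  [IsScalarTower k (RatFunc k) K] [FiniteDimensional (RatFunc k) K]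

/-- `K / k(x)` is finite for every transcendental `x`. -/
theorem finite_adjoin (x : K) (hx : Transcendental k x) :
    FiniteDimensional (IntermediateField.adjoin k {x}) K := by
  have h := RR20_948.ratAlg_finite x hx
  let e : RatFunc k ≃ₐ[k] IntermediateField.adjoin k {x} := RatFunc.algEquivOfTranscendental x hx
  refine @Module.Finite.of_equiv_equiv (RatFunc k) K (IntermediateField.adjoin k {x}) K _ _ _ _
    (RR20_948.ratAlg x hx) _ e.toRingEquiv (RingEquiv.refl K) ?_ h
  have hpoly : ∀ f : k[X], ((e (algebraMap k[X] (RatFunc k) f) : IntermediateField.adjoin k {x}) :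
      K) = aeval x f := by
    intro f
    rw [RatFunc.algEquivOfTranscendental_algebraMap]
    simp
  have hpoly' : ∀ f : k[X], @algebraMap (RatFunc k) K _ _ (RR20_948.ratAlg x hx)
      (algebraMap k[X] (RatFunc k) f) = aeval x f := by
    intro f
    change RR20_948.ratHom x hx (algebraMap k[X] (RatFunc k) f) = _
    have h1 := RatFunc.liftAlgHom_apply_div (Polynomial.aeval x)
      (nonZeroDivisors_le_comap_nonZeroDivisors_of_injective _
        (transcendental_iff_injective.mp hx)) f (1 : k[X])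
    simp only [map_one, div_one] at h1
    exact h1
  ext z
  change ((e z : IntermediateField.adjoin k {x}) : K) =
    @algebraMap (RatFunc k) K _ _ (RR20_948.ratAlg x hx) z
  rw [← RatFunc.num_div_denom z, map_div₀, map_div₀, IntermediateField.coe_div, hpoly, hpoly,
    hpoly', hpoly']

end Fin

/-- **P1** of #3256 over `ℚ_p`. -/
def P1Stmt (p : ℕ) [Fact p.Prime] : Prop :=
  ∀ (L : Type) [Field L] [Algebra ℚ_[p] L] [Algebra (RatFunc ℚ_[p]) L]
    [IsScalarTower ℚ_[p] (RatFunc ℚ_[p]) L] [FiniteDimensional (RatFunc ℚ_[p]) L],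
    ∀ (l : ℕ), l.Prime → l ≠ p → ∀ h : L, h ≠ 0 →
      (∀ φ : L → ℝ≥0∞, IsPt p ℚ_[p] L φ → ∃ u : L, u ≠ 0 ∧ φ (h / u ^ l - 1) < 1) →
      ∃ (ι : Type) (s : Finset ι) (u : ι → L) (u₀ : L) (m : ℕ), P1 (isUnif_p p) s u h l u₀ m

theorem one_of_p1 {p : ℕ} [Fact p.Prime] (H : P1Stmt p) : ONE p := by
  intro L _ _ _ _ _ l hl hlp h h0 hloc
  obtain ⟨ι, s, u, u₀, m, P⟩ := H L l hl hlp h h0 hloc
  obtain ⟨F, E, i1, i2, i3, i4, j1, j2, j3, j4, j5, j6, j7, y, hG, hd, hF, hF', h1, h2⟩ :=
    one_p p hl hlp h0 P (fun x hx => finite_adjoin x hx)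
  exact ⟨F, j1, j4, j2, j6, j7, E, i1, i2, i3, i4, j3, j5, y, hG, (p : ℚ_[p]), isUnif_p p, hd, hF,
    hF', h1, h2⟩

end Crest.Agent.R013.One_622
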