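import Crest.Agent.R013.OneP1_920
import Crest.Agent.R013.OneD_622
import Crest.Agent.R013.AEPt_854

/-!
# Theorem (ONE) of row 13: `P1Stmt` of helper622, hence `ONE`
-/

set_option autoImplicit false

namespace Crest.Agent.R013.OneP1_920

open Polynomial One_622 A2b_275
open scoped ENNReal

section Lift

variable {k : Type*} [NormedField k] [IsUltrametricDist k] {L : Type*} [Field L] [Algebra k L]

/-- integral polynomials live over the unit ball -/
theorem exists_lift (Q : k[X]) (hQ : ∀ j, ‖Q.coeff j‖ ≤ 1) :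
    ∃ Q' : (R0 k)[X], (∀ j, ((Q'.coeff j : R0 k) : k) = Q.coeff j) ∧
      ∀ f : L, aeval f Q' = aeval f Q := by
  classical
  have h1 : (↑Q.coeffs : Set k) ⊆ R0 k := by
    intro c hc
    obtain ⟨j, _, rfl⟩ := mem_coeffs_iff.1 (by exact_mod_cast hc)
    exact hQ j
  refine ⟨Q.toSubring (R0 k) h1, fun j => coeff_toSubring _ _ _, fun f => ?_⟩
  have h2 : (Q.toSubring (R0 k) h1).map (R0 k).subtype = Q := map_toSubring _ _ _
  conv_rhs => rw [← h2]
  rw [aeval_def, aeval_def, eval₂_map]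
  rfl

end Lift

theorem p1Stmt (p : ℕ) [Fact p.Prime] : P1Stmt p := by
  intro L _ _ _ _ _ l hl hlp h h0 hloc
  have hU := isUnif_p p
  have hπ0 : (p : ℚ_[p]) ≠ 0 := norm_pos_iff.1 hU.pos
  have htX : Transcendental ℚ_[p] (algebraMap (RatFunc ℚ_[p]) L RatFunc.X) := by
    have h1 : Transcendental ℚ_[p] (RatFunc.X : RatFunc ℚ_[p]) := RatFunc.transcendental_X
    exact (transcendental_algebraMap_iff (algebraMap (RatFunc ℚ_[p]) L).injective).2 h1
  obtain ⟨s, u₀, m, h1, h2, h3, h4, h5, h6⟩ := p1 (L := L) (k := ℚ_[p]) hπ0 (fun c hc => hU.le c hc)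
    (fun f hf g => by
      have := finite_adjoin f hf
      exact Algebra.IsAlgebraic.isAlgebraic g)
    _ htX h0 hl.two_le (fun W hW hp => by
      obtain ⟨φ, hφ, hφ1⟩ := AEPt_854.exists_pt p W hW (by simpa using hp)
      obtain ⟨u, hu, hu1⟩ := hloc φ hφ
      exact ⟨u, hu, hφ1 _ hu1⟩)
  refine ⟨L, s, fun b => b, u₀, m, h1, h2, h3, h4, ?_, ?_⟩
  · intro W hW hp
    exact h5 W (fun c hc => hW ⟨c, hc⟩) hp
  · intro W hW hp i hi _ hQ
    refine h6 W (fun c hc => hW ⟨c, hc⟩) hp i hi fun Q hQ' => ?_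
    obtain ⟨Q', hc, he⟩ := exists_lift (L := L) Q hQ'.1
    rw [← he]
    refine hQ Q' ?_
    obtain ⟨j, hj⟩ := hQ'.2
    refine ⟨j, fun hmem => ?_⟩
    rw [mem_span_pi0, hc, hj] at hmem
    exact lt_irrefl _ hmem

/-- **Theorem (ONE)** -/
theorem one (p : ℕ) [Fact p.Prime] : AEAsm_854.ONE p := one_of_p1 (p1Stmt p)

end Crest.Agent.R013.OneP1_920
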