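import Crest.Agent.R013.UAsm_854
import Crest.Agent.R013.OneP1S_920

/-!
# Row 13: `PartA` (helper349) from `S16`, 337's `HStmt` and 512's constants `CAt`.
-/

set_option autoImplicit false

namespace Crest.Agent.R013.PartA_854

open Crest.NumberTheoryR.Sect
open Crest.Agent.R013 Crest.Agent.R013.Tau2_512 Crest.Agent.R013.Tau5_512
  Crest.Agent.R013.UAsm_854
open scoped NNReal

variable {p : ℕ} [Fact p.Prime] {k K : Type} [Field k] [Algebra ℚ_[p] k] [FiniteDimensional ℚ_[p] k]
    [Field K] [Algebra k K] [Algebra (RatFunc k) K] [IsScalarTower k (RatFunc k) K]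
    [FiniteDimensional (RatFunc k) K]

/-- **Part A** from `S16`, `HStmt` and `CAt`. -/
theorem partA (HS : UH_337.HStmt p k K) (h16 : AAsm_349.S16 p k K)
    (HC : ∀ (W : Valuation (constField k K) ℝ≥0)
      (_ : ∀ q : ℚ_[p], W (APt_349.iQ p k (constField k K) q) = ‖q‖₊) (l : ℕ) (_ : l ≠ p) (ϖ : k)
      (_ : Hyp k W l ϖ) (P : Subgroup (ConstGal k K)) (τ φ : ConstGal k K)
      (vp : ℕ → constField k K) (_ : TauData W l ϖ P τ φ vp)
      (s : ConstGal k K →* PiGroup k K) (_ : IsSection k K s) (j : ℕ),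
      CAt p k K W (s (τ ^ l ^ j))) : AAsm_349.PartA p k K :=
  AEFin_854.partA_of (OneP1_920.p1Stmt p) (uin_of HS h16 HC)

end Crest.Agent.R013.PartA_854
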