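import Crest.Agent.R013.RZ2_365

/-!
# Residue field of the composite valuations over an algebraically closed field of constants
(row 13, LIFT; helper365)
-/

set_option autoImplicit false

open scoped NNReal Polynomial
open Polynomial (aeval)

namespace Crest.Agent.R013.RZ_365

section Residue

variable {C : Type*} [Field C] (nC : Valuation C ℝ≥0)

variable {K : Type*} [Field K] [Algebra C K] (O : ValuationSubring K)
  (h1 : ∀ c : C, nC c ≤ 1 → algebraMap C K c ∈ O)
  (h1' : ∀ c : C, nC c < 1 → O.valuation (algebraMap C K c) < 1)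

include h1 h1' in
theorem map_le_iff (a b : C) (hb : b ≠ 0) :
    O.valuation (algebraMap C K a) ≤ O.valuation (algebraMap C K b) ↔ nC a ≤ nC b := by
  have hb' : (algebraMap C K b) ≠ 0 := (map_ne_zero _).2 hb
  have hnb : nC b ≠ 0 := (nC.ne_zero_iff).2 hb
  have hOb : O.valuation (algebraMap C K b) ≠ 0 := (Valuation.ne_zero_iff _).2 hb'
  have key : algebraMap C K (a / b) ∈ O ↔ nC (a / b) ≤ 1 := by
    refine ⟨fun h => ?_, h1 _⟩
    by_contra hcon
    push Not at hcon
    have hab : a / b ≠ 0 := by
      intro h0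
      rw [h0, map_zero] at hcon
      exact absurd hcon (by simp)
    have h2 : O.valuation (algebraMap C K (a / b)⁻¹) < 1 := by
      refine h1' _ ?_
      rw [map_inv₀]
      exact inv_lt_one_of_one_lt₀ hcon
    rw [val_lt_one_iff, map_inv₀, inv_inv] at h2
    rcases h2 with h2 | h2
    · exact inv_ne_zero ((map_ne_zero _).2 hab) h2
    · exact h2 h
  rw [← ValuationSubring.valuation_le_one_iff, map_div₀, map_div₀, map_div₀,
    div_le_one₀ (zero_lt_iff.2 hOb), div_le_one₀ (pos_iff_ne_zero.2 hnb)] at key
  exact key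

/-- The residue field of `C` is algebraically closed. -/
def ResClosed : Prop :=
  ∀ P : C[X], P.Monic → P.natDegree ≠ 0 → (∀ i, nC (P.coeff i) ≤ 1) →
    ∃ c, nC c ≤ 1 ∧ nC (P.eval c) < 1

theorem resClosed_of_isAlgClosed [IsAlgClosed C] : ResClosed nC := by
  intro P hP hdeg hint
  obtain ⟨c, hc⟩ := IsAlgClosed.exists_root P (by
    rw [Polynomial.degree_eq_natDegree hP.ne_zero]
    exact_mod_cast hdeg)
  refine ⟨c, ?_, by rw [Polynomial.IsRoot.def.1 hc, map_zero]; exact one_pos⟩
  by_contra hcon
  push Not at hcon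
  have hc0 : nC c ≠ 0 := (zero_lt_one.trans hcon).ne'
  have h1 : P.eval c = c ^ P.natDegree + ∑ i ∈ Finset.range P.natDegree, P.coeff i * c ^ i := by
    rw [Polynomial.eval_eq_sum_range, Finset.sum_range_succ, add_comm, hP.coeff_natDegree, one_mul]
  have h2 : nC (∑ i ∈ Finset.range P.natDegree, P.coeff i * c ^ i) < nC (c ^ P.natDegree) := by
    refine Valuation.map_sum_lt _ (by rw [map_pow]; exact pow_ne_zero _ hc0) fun i hi => ?_
    rw [map_mul, map_pow, map_pow]
    calc nC (P.coeff i) * nC c ^ i ≤ 1 * nC c ^ i := mul_le_mul_left (hint i) _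
      _ < nC c ^ P.natDegree := by
        rw [one_mul]
        exact pow_lt_pow_right₀ hcon (Finset.mem_range.1 hi)
  have h3 : nC (P.eval c) = nC (c ^ P.natDegree) := by
    rw [h1]
    exact Valuation.map_add_eq_of_lt_left _ h2
  rw [Polynomial.IsRoot.def.1 hc, map_zero, map_pow] at h3
  exact pow_ne_zero _ hc0 h3.symm

theorem int_aeval {a : K} (ha : O.valuation a ≤ 1) (h1 : ∀ c : C, nC c ≤ 1 → algebraMap C K c ∈ O)
    (H : C[X]) (hH : ∀ i, nC (H.coeff i) ≤ 1) : O.valuation (aeval a H) ≤ 1 := by
  rw [Polynomial.aeval_eq_sum_range]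
  refine Valuation.map_sum_le _ fun i _ => ?_
  rw [Algebra.smul_def, map_mul, map_pow]
  exact mul_le_one' ((ValuationSubring.valuation_le_one_iff _ _).2 (h1 _ (hH i)))
    (pow_le_one' ha i)

include h1 h1' in
/-- monic case -/
theorem exists_sub_lt_of_monic (hC : ResClosed nC) (a : K) (ha : O.valuation a ≤ 1) (n : ℕ) :
    ∀ G : C[X], G.Monic → G.natDegree = n → (∀ i, nC (G.coeff i) ≤ 1) →
      O.valuation (aeval a G) < 1 →
      ∃ c : C, nC c ≤ 1 ∧ O.valuation (a - algebraMap C K c) < 1 := by
  induction n with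
  | zero =>
    intro G hG hdeg _ hGa
    rw [Polynomial.eq_one_of_monic_natDegree_zero hG hdeg, map_one, map_one] at hGa
    exact absurd hGa (lt_irrefl _)
  | succ n ih =>
    intro G hG hdeg hint hGa
    obtain ⟨c, hc, hcG⟩ := hC G hG (by omega) hint
    by_cases hac : O.valuation (a - algebraMap C K c) < 1
    · exact ⟨c, hc, hac⟩
    have hac1 : O.valuation (a - algebraMap C K c) = 1 :=
      le_antisymm ((Valuation.map_sub _ _ _).trans (max_le ha
        ((ValuationSubring.valuation_le_one_iff _ _).2 (h1 c hc)))) (not_lt.1 hac)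
    set H := G /ₘ (Polynomial.X - Polynomial.C c) with hH
    have hmX : (Polynomial.X - Polynomial.C c : C[X]).Monic := Polynomial.monic_X_sub_C c
    have hdecomp : G = (Polynomial.X - Polynomial.C c) * H + Polynomial.C (G.eval c) := by
      conv_lhs => rw [← Polynomial.modByMonic_add_div G (Polynomial.X - Polynomial.C c)]
      rw [Polynomial.modByMonic_X_sub_C_eq_C_eval]
      ring
    have hHm : H.Monic := by
      rw [Polynomial.Monic, hH, Polynomial.leadingCoeff_divByMonic_of_monic hmX, hG.leadingCoeff]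
      rw [Polynomial.degree_X_sub_C, Polynomial.degree_eq_natDegree hG.ne_zero, hdeg]
      exact_mod_cast Nat.succ_le_succ (Nat.zero_le n)
    have hHdeg : H.natDegree = n := by
      rw [hH, Polynomial.natDegree_divByMonic _ hmX, hdeg, Polynomial.natDegree_X_sub_C]
      rfl
    -- the coefficients of the quotient are integral (descending induction)
    have hHint : ∀ i, nC (H.coeff i) ≤ 1 := by
      have hrec : ∀ i, H.coeff i = G.coeff (i + 1) + c * H.coeff (i + 1) := by
        intro i
        have h4 := congrArg (fun P : C[X] => P.coeff (i + 1)) hdecomp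
        simp only [Polynomial.coeff_add, sub_mul, Polynomial.coeff_sub, Polynomial.coeff_X_mul,
          Polynomial.coeff_C_mul, Polynomial.coeff_C_succ, add_zero] at h4
        rw [h4]; ring
      intro i
      by_cases hi : n < i
      · rw [Polynomial.coeff_eq_zero_of_natDegree_lt (by rw [hHdeg]; exact hi), map_zero]
        exact zero_le
      · push Not at hi
        obtain ⟨j, hj⟩ := Nat.exists_eq_add_of_le hi
        induction j generalizing i with
        | zero =>
          have : i = H.natDegree := by omega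
          rw [this, hHm.coeff_natDegree, map_one]
        | succ j ihj =>
          rw [hrec]
          refine (nC.map_add _ _).trans (max_le (hint _) ?_)
          rw [map_mul]
          exact mul_le_one' hc (ihj (i + 1) (by omega) (by omega))
    refine ih H hHm hHdeg hHint ?_
    have h5 : aeval a G = (a - algebraMap C K c) * aeval a H + algebraMap C K (G.eval c) := by
      conv_lhs => rw [hdecomp]
      rw [map_add, map_mul, map_sub, Polynomial.aeval_X, Polynomial.aeval_C, Polynomial.aeval_C]
    have h6 : (a - algebraMap C K c) * aeval a H = aeval a G - algebraMap C K (G.eval c) := by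
      rw [h5]; ring
    have h7 : O.valuation ((a - algebraMap C K c) * aeval a H) < 1 := by
      rw [h6]
      exact lt_of_le_of_lt (Valuation.map_sub _ _ _) (max_lt hGa (h1' _ hcG))
    rwa [map_mul, hac1, one_mul] at h7

include h1 h1' in
/-- An element of `O` which satisfies, modulo `𝔪_O`, a primitive polynomial with coefficients in `C`
is congruent to an element of `C`. -/
theorem exists_sub_lt_of_aeval (hC : ResClosed nC) (a : K) (ha : O.valuation a ≤ 1) (G : C[X])
    (hint : ∀ i, nC (G.coeff i) ≤ 1) (m : ℕ)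
    (hm : nC (G.coeff m) = 1) (hG : O.valuation (aeval a G) < 1) :
    ∃ c : C, nC c ≤ 1 ∧ O.valuation (a - algebraMap C K c) < 1 := by
  classical
  -- remove the small coefficients
  set s := G.support.filter (fun i => nC (G.coeff i) = 1) with hs
  set G1 : C[X] := ∑ i ∈ s, Polynomial.monomial i (G.coeff i) with hG1
  have hc1 : ∀ i, G1.coeff i = if nC (G.coeff i) = 1 then G.coeff i else 0 := by
    intro i
    rw [hG1, Polynomial.finsetSum_coeff]
    simp only [Polynomial.coeff_monomial]
    rw [Finset.sum_ite_eq']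
    by_cases hi : nC (G.coeff i) = 1
    · have hi0 : G.coeff i ≠ 0 := by
        intro h0; rw [h0, map_zero] at hi; exact zero_ne_one hi
      rw [if_pos hi, if_pos (Finset.mem_filter.2 ⟨Polynomial.mem_support_iff.2 hi0, hi⟩)]
    · have hi' : ¬ i ∈ s := fun h => hi (Finset.mem_filter.1 h).2
      rw [if_neg hi, if_neg hi']
  have hG10 : G1 ≠ 0 := by
    intro h0
    have := hc1 m
    rw [h0, Polynomial.coeff_zero, if_pos hm] at this
    rw [← this, map_zero] at hm
    exact zero_ne_one hm
  have hlead : nC G1.leadingCoeff = 1 := by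
    have h4 := hc1 G1.natDegree
    by_contra hcon
    have h5 : ¬ nC (G.coeff G1.natDegree) = 1 := by
      intro h6
      rw [if_pos h6] at h4
      exact hcon (by rw [Polynomial.leadingCoeff, h4]; exact h6)
    rw [if_neg h5] at h4
    exact Polynomial.leadingCoeff_ne_zero.2 hG10 h4
  have hl0 : G1.leadingCoeff ≠ 0 := Polynomial.leadingCoeff_ne_zero.2 hG10
  have hval1 : O.valuation (aeval a G1) < 1 := by
    have h4 : aeval a G1 = aeval a G - aeval a (G - G1) := by rw [map_sub]; ring
    rw [h4]
    refine lt_of_le_of_lt (Valuation.map_sub _ _ _) (max_lt hG ?_)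
    rw [Polynomial.aeval_eq_sum_range]
    refine Valuation.map_sum_lt _ one_ne_zero fun i _ => ?_
    rw [Algebra.smul_def, map_mul, map_pow]
    refine lt_of_le_of_lt (mul_le_of_le_one_right' (pow_le_one' ha i)) (h1' _ ?_)
    rw [Polynomial.coeff_sub, hc1]
    split_ifs with h5
    · rw [sub_self, map_zero]; exact one_pos
    · rw [sub_zero]; exact lt_of_le_of_ne (hint i) h5
  set G2 : C[X] := Polynomial.C G1.leadingCoeff⁻¹ * G1 with hG2
  have hinv : nC G1.leadingCoeff⁻¹ = 1 := by rw [map_inv₀, hlead, inv_one]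
  have hG2m : G2.Monic := by
    rw [hG2, Polynomial.Monic, Polynomial.leadingCoeff_mul, Polynomial.leadingCoeff_C,
      inv_mul_cancel₀ hl0]
  refine exists_sub_lt_of_monic nC O h1 h1' hC a ha _ G2 hG2m rfl ?_ ?_
  · intro i
    rw [hG2, Polynomial.coeff_C_mul, map_mul, hinv, one_mul, hc1]
    split_ifs with h5
    · exact h5.le
    · rw [map_zero]; exact zero_le
  · rw [hG2, map_mul, Polynomial.aeval_C, map_mul]
    refine lt_of_le_of_lt (mul_le_of_le_one_left' ?_) hval1
    exact (ValuationSubring.valuation_le_one_iff _ _).2 (h1 _ hinv.le)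

end Residue

section Composite

variable {C K : Type*} [Field C] [Field K] [Algebra C K] (nC : Valuation C ℝ≥0) {π : C}
  (hπ0 : π ≠ 0) {z : K} (hz0 : z ≠ 0) {O : ValuationSubring K}
  (h1 : ∀ c : C, nC c ≤ 1 → algebraMap C K c ∈ O) (h2 : O.valuation z < 1)
  (h3 : ∀ n : ℕ, O.valuation (algebraMap C K π / z ^ n) < 1)

include hπ0 h1 h3 in
theorem map_lt_one (c : C) (hc : nC c < 1) : O.valuation (algebraMap C K c) < 1 := by
  have := small_div nC hπ0 h1 h3 c hc 0
  rwa [pow_zero, div_one] at this

include hπ0 hz0 h1 h2 h3 in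
/-- Elements of `C(z)` in `O` are congruent to constants. -/
theorem exists_const_of_ratio (P Q : C[X]) (hQ : aeval z Q ≠ 0)
    (hle : O.valuation (aeval z P / aeval z Q) ≤ 1) :
    ∃ c : C, nC c ≤ 1 ∧ O.valuation (aeval z P / aeval z Q - algebraMap C K c) < 1 := by
  rcases lt_or_eq_of_le hle with hlt | heq
  · exact ⟨0, by rw [map_zero]; exact zero_le, by rwa [map_zero, sub_zero]⟩
  have hP0 : P ≠ 0 := by
    rintro rfl
    rw [map_zero, zero_div, map_zero] at heq
    exact zero_ne_one heq
  have hQ0 : Q ≠ 0 := by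
    rintro rfl
    exact hQ (map_zero _)
  obtain ⟨e, he, hle1, hP⟩ := exists_coeff' nC hπ0 hz0 h1 h2 h3 P hP0
  obtain ⟨f, hf, hle2, hQ'⟩ := exists_coeff' nC hπ0 hz0 h1 h2 h3 Q hQ0
  set p := P.coeff e with hp
  set q := Q.coeff f with hq
  have hp' : algebraMap C K p ≠ 0 := (map_ne_zero _).2 he
  have hq' : algebraMap C K q ≠ 0 := (map_ne_zero _).2 hf
  have hze : ∀ n : ℕ, z ^ n ≠ 0 := fun n => pow_ne_zero _ hz0
  have hPv : O.valuation (aeval z P) = O.valuation (algebraMap C K p * z ^ e) := by
    have h4 := Valuation.map_add_eq_of_lt_left O.valuation hP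
    rwa [add_comm, sub_add_cancel] at h4
  have hQv : O.valuation (aeval z Q) = O.valuation (algebraMap C K q * z ^ f) := by
    have h4 := Valuation.map_add_eq_of_lt_left O.valuation hQ'
    rwa [add_comm, sub_add_cancel] at h4
  have hQne : O.valuation (aeval z Q) ≠ 0 := (Valuation.ne_zero_iff _).2 hQ
  have hPQ : O.valuation (algebraMap C K p * z ^ e) = O.valuation (algebraMap C K q * z ^ f) := by
    rw [← hPv, ← hQv]
    rw [map_div₀, div_eq_one_iff_eq hQne] at heq
    exact heq
  -- a constant and a power of `z` have equal value only if the power is trivial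
  have key : ∀ (a b : C) (i j : ℕ), a ≠ 0 → b ≠ 0 → i < j →
      O.valuation (algebraMap C K a * z ^ i) ≠ O.valuation (algebraMap C K b * z ^ j) := by
    intro a b i j ha hb hij h
    have hb' : algebraMap C K b ≠ 0 := (map_ne_zero _).2 hb
    have ha' : algebraMap C K a ≠ 0 := (map_ne_zero _).2 ha
    have h5 : O.valuation (algebraMap C K (a / b) / z ^ (j - i)) = 1 := by
      have h6 : algebraMap C K (a / b) / z ^ (j - i) =
          (algebraMap C K a * z ^ i) / (algebraMap C K b * z ^ j) := by
        have : z ^ j = z ^ (j - i) * z ^ i := by rw [← pow_add, Nat.sub_add_cancel hij.le]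
        rw [this, map_div₀]
        have := hze i
        have := hze (j - i)
        field_simp
      rw [h6, map_div₀, h, div_self]
      exact (Valuation.ne_zero_iff _).2 (mul_ne_zero hb' (hze j))
    have h7 : O.valuation (algebraMap C K (a / b)) < 1 := by
      have h8 : algebraMap C K (a / b) = (algebraMap C K (a / b) / z ^ (j - i)) * z ^ (j - i) := by
        rw [div_mul_cancel₀ _ (hze _)]
      rw [h8, map_mul, h5, one_mul, map_pow]
      exact pow_lt_one₀ zero_le h2 (Nat.sub_pos_of_lt hij).ne'
    have h9 : nC (a / b) < 1 := by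
      by_contra hcon
      push Not at hcon
      have h10 : algebraMap C K (a / b)⁻¹ ∈ O := h1 _ (by
        rw [map_inv₀]; exact inv_le_one_of_one_le₀ hcon)
      rw [val_lt_one_iff] at h7
      rcases h7 with h7 | h7
      · exact (map_ne_zero _).2 (div_ne_zero ha hb) h7
      · rw [map_inv₀] at h10; exact h7 h10
    have h11 := small_div nC hπ0 h1 h3 (a / b) h9 (j - i)
    rw [h5] at h11
    exact lt_irrefl _ h11
  have hef : e = f := by
    rcases lt_trichotomy e f with h | h | h
    · exact absurd hPQ (key p q e f he hf h)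
    · exact h
    · exact absurd hPQ.symm (key q p f e hf he h)
  subst hef
  have hval1 : O.valuation (algebraMap C K (p / q)) = 1 := by
    have h6 : algebraMap C K (p / q) =
        (algebraMap C K p * z ^ e) / (algebraMap C K q * z ^ e) := by
      rw [map_div₀]
      have := hze e
      field_simp
    rw [h6, map_div₀, hPQ, div_self]
    exact (Valuation.ne_zero_iff _).2 (mul_ne_zero hq' (hze e))
  refine ⟨p / q, ?_, ?_⟩
  · have h5 := map_le_iff nC O h1 (map_lt_one nC hπ0 h1 h3) (p / q) 1 one_ne_zero
    rw [map_one, map_one, map_one] at h5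
    exact h5.1 hval1.le
  · -- `P / Q - p / q = ((P - p z^e) q z^e - p z^e (Q - q z^e)) / (Q q z^e)`
    have h6 : aeval z P / aeval z Q - algebraMap C K (p / q) =
        ((aeval z P - algebraMap C K p * z ^ e) / aeval z Q) -
          algebraMap C K (p / q) * ((aeval z Q - algebraMap C K q * z ^ e) / aeval z Q) := by
      rw [map_div₀]
      field_simp
      ring
    rw [h6]
    refine lt_of_le_of_lt (Valuation.map_sub _ _ _) (max_lt ?_ ?_)
    · rw [map_div₀, div_lt_one₀ (zero_lt_iff.2 hQne), hQv, ← hPQ]
      exact hP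
    · rw [map_mul, hval1, one_mul, map_div₀, div_lt_one₀ (zero_lt_iff.2 hQne), hQv]
      exact hQ'

open IntermediateField in
include hπ0 hz0 h1 h2 h3 in
/-- **Residue lemma.** The residue field of a composite valuation is that of the constants
(`C` with algebraically closed residue field). -/
theorem exists_const' (hC : ResClosed nC) (halg : ∀ a : K, IsAlgebraic C⟮z⟯ a) (a : K)
    (ha : a ∈ O) :
    ∃ c : C, nC c ≤ 1 ∧ O.valuation (a - algebraMap C K c) < 1 := by
  classical
  have ha1 : O.valuation a ≤ 1 := (ValuationSubring.valuation_le_one_iff _ _).2 ha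
  obtain ⟨P, hP, hPa⟩ := halg a
  have hne : P.support.Nonempty := Polynomial.support_nonempty.2 hP
  obtain ⟨m, hm, hmax⟩ := Finset.exists_max_image P.support
    (fun i => O.valuation (P.coeff i : K)) hne
  have hm0 : P.coeff m ≠ 0 := Polynomial.mem_support_iff.1 hm
  have hm0' : (P.coeff m : K) ≠ 0 := fun h => hm0 (Subtype.ext h)
  have hmv : O.valuation (P.coeff m : K) ≠ 0 := (Valuation.ne_zero_iff _).2 hm0'
  have hbO : ∀ i, O.valuation ((P.coeff i : K) / (P.coeff m : K)) ≤ 1 := by
    intro i
    by_cases hi : P.coeff i = 0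
    · rw [hi]; simp
    · rw [map_div₀, div_le_one₀ (zero_lt_iff.2 hmv)]
      exact hmax i (Polynomial.mem_support_iff.2 hi)
  have hex : ∀ i, ∃ c : C, nC c ≤ 1 ∧
      O.valuation ((P.coeff i : K) / (P.coeff m : K) - algebraMap C K c) < 1 := by
    intro i
    have hmem : (P.coeff i : K) / (P.coeff m : K) ∈ C⟮z⟯ := div_mem (P.coeff i).2 (P.coeff m).2
    obtain ⟨R, Q, hRQ⟩ := (IntermediateField.mem_adjoin_simple_iff C _).1 hmem
    by_cases hQ : aeval z Q = 0
    · rw [hQ, div_zero] at hRQ
      refine ⟨0, by rw [map_zero]; exact zero_le, ?_⟩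
      rw [hRQ]; simp
    · have := hbO i
      rw [hRQ] at this ⊢
      exact exists_const_of_ratio nC hπ0 hz0 h1 h2 h3 R Q hQ this
  choose c hc hcv using hex
  set G : C[X] := ∑ i ∈ P.support, Polynomial.monomial i (c i) with hG
  have hGc : G.coeff m = c m := by
    rw [hG, Polynomial.finsetSum_coeff]
    rw [Finset.sum_eq_single m]
    · simp
    · intro i _ hi
      rw [Polynomial.coeff_monomial, if_neg hi]
    · intro h; exact absurd hm h
  have hcm : nC (G.coeff m) = 1 := by
    rw [hGc]
    refine le_antisymm (hc m) ?_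
    by_contra hcon
    push Not at hcon
    have h4 := map_lt_one nC hπ0 h1 h3 (c m) hcon
    have h5 := hcv m
    rw [div_self hm0'] at h5
    have h6 : (1 : K) = (1 - algebraMap C K (c m)) + algebraMap C K (c m) := by ring
    have h7 : O.valuation (1 : K) < 1 := by
      rw [h6]
      exact lt_of_le_of_lt (Valuation.map_add _ _ _) (max_lt h5 h4)
    rw [map_one] at h7
    exact lt_irrefl _ h7
  have hGa : O.valuation (aeval a G) < 1 := by
    have h4 : aeval a G = ∑ i ∈ P.support,
        (-((P.coeff i : K) / (P.coeff m : K) - algebraMap C K (c i)) * a ^ i) := by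
      have h5 : ∑ i ∈ P.support, (P.coeff i : K) / (P.coeff m : K) * a ^ i = 0 := by
        have h6 : aeval a P = ∑ i ∈ P.support, (P.coeff i : K) * a ^ i := by
          rw [Polynomial.aeval_def, Polynomial.eval₂_eq_sum, Polynomial.sum_def]
          rfl
        rw [hPa] at h6
        have h7 : ∑ i ∈ P.support, (P.coeff i : K) / (P.coeff m : K) * a ^ i =
            (P.coeff m : K)⁻¹ * ∑ i ∈ P.support, (P.coeff i : K) * a ^ i := by
          rw [Finset.mul_sum]
          refine Finset.sum_congr rfl fun i _ => ?_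
          ring
        rw [h7, ← h6, mul_zero]
      have h8 : aeval a G = ∑ i ∈ P.support, algebraMap C K (c i) * a ^ i := by
        rw [hG, map_sum]
        refine Finset.sum_congr rfl fun i _ => ?_
        rw [Polynomial.aeval_monomial]
      rw [h8]
      calc ∑ i ∈ P.support, algebraMap C K (c i) * a ^ i
          = ∑ i ∈ P.support, algebraMap C K (c i) * a ^ i -
            ∑ i ∈ P.support, (P.coeff i : K) / (P.coeff m : K) * a ^ i := by rw [h5, sub_zero]
        _ = _ := by
          rw [← Finset.sum_sub_distrib]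
          refine Finset.sum_congr rfl fun i _ => ?_
          ring
    rw [h4]
    refine Valuation.map_sum_lt _ one_ne_zero fun i _ => ?_
    rw [map_mul, Valuation.map_neg, map_pow]
    exact lt_of_le_of_lt (mul_le_of_le_one_right' (pow_le_one' ha1 i)) (hcv i)
  refine exists_sub_lt_of_aeval nC O h1 (map_lt_one nC hπ0 h1 h3) hC a ha1 G ?_ m hcm hGa
  intro i
  rw [hG, Polynomial.finsetSum_coeff]
  simp only [Polynomial.coeff_monomial]
  rw [Finset.sum_ite_eq']
  split_ifs
  · exact hc i
  · rw [map_zero]; exact zero_le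

open IntermediateField in
include hπ0 hz0 h1 h2 h3 in
/-- Units are `N`-th powers up to `1`-units. -/
theorem exists_pow_of_unit' (hC : ResClosed nC) (halg : ∀ a : K, IsAlgebraic C⟮z⟯ a) (N : ℕ)
    (hN : N ≠ 0) (u : K) (hu : O.valuation u = 1) :
    ∃ c : C, c ≠ 0 ∧ nC c = 1 ∧ O.valuation (u * algebraMap C K c ^ N - 1) < 1 := by
  have huO : u ∈ O := (ValuationSubring.valuation_le_one_iff _ _).1 hu.le
  obtain ⟨c, hc, hcv⟩ := exists_const' nC hπ0 hz0 h1 h2 h3 hC halg u huO
  have hc1 : nC c = 1 := by
    refine le_antisymm hc ?_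
    by_contra hcon
    push Not at hcon
    have h4 := map_lt_one nC hπ0 h1 h3 c hcon
    have h5 : O.valuation u < 1 := by
      have h6 : u = (u - algebraMap C K c) + algebraMap C K c := by ring
      rw [h6]
      exact lt_of_le_of_lt (Valuation.map_add _ _ _) (max_lt hcv h4)
    rw [hu] at h5
    exact lt_irrefl _ h5
  have hc0 : c ≠ 0 := by
    rintro rfl
    rw [map_zero] at hc1
    exact zero_ne_one hc1
  -- an approximate `N`-th root of `c⁻¹`
  obtain ⟨d, hd, hdN⟩ := hC (Polynomial.X ^ N - Polynomial.C c⁻¹) (Polynomial.monic_X_pow_sub_C _ hN)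
    (by rw [Polynomial.natDegree_X_pow_sub_C]; exact hN) (by
      intro i
      rw [Polynomial.coeff_sub, Polynomial.coeff_X_pow, Polynomial.coeff_C]
      refine (nC.map_sub _ _).trans (max_le ?_ ?_)
      · split_ifs
        · rw [map_one]
        · rw [map_zero]; exact zero_le
      · split_ifs
        · rw [map_inv₀, hc1, inv_one]
        · rw [map_zero]; exact zero_le)
  rw [Polynomial.eval_sub, Polynomial.eval_pow, Polynomial.eval_X, Polynomial.eval_C] at hdN
  have hci : nC c⁻¹ = 1 := by rw [map_inv₀, hc1, inv_one]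
  have hdN1 : nC (d ^ N) = 1 := by
    have h4 : d ^ N = c⁻¹ + (d ^ N - c⁻¹) := by ring
    rw [h4, Valuation.map_add_eq_of_lt_left _ (by rw [hci]; exact hdN), hci]
  have hd1 : nC d = 1 := by
    rw [map_pow] at hdN1
    exact pow_left_injective hN (hdN1.trans (one_pow N).symm)
  have hcO : O.valuation (algebraMap C K c) = 1 := by
    have h4 := map_le_iff nC O h1 (map_lt_one nC hπ0 h1 h3) 1 c hc0
    rw [map_one, map_one, map_one] at h4
    exact le_antisymm ((ValuationSubring.valuation_le_one_iff _ _).2 (h1 c hc)) (h4.2 hc1.ge)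
  refine ⟨d, ?_, hd1, ?_⟩
  · rintro rfl
    rw [map_zero] at hd1
    exact zero_ne_one hd1
  · have hc' : algebraMap C K c ≠ 0 := (map_ne_zero _).2 hc0
    have h5 : u * algebraMap C K d ^ N - 1 = u * algebraMap C K (d ^ N - c⁻¹) +
        (u - algebraMap C K c) * algebraMap C K c⁻¹ := by
      rw [map_sub, map_pow, map_inv₀]
      field_simp
      ring
    rw [h5]
    refine lt_of_le_of_lt (Valuation.map_add _ _ _) (max_lt ?_ ?_)
    · rw [map_mul, hu, one_mul]
      exact map_lt_one nC hπ0 h1 h3 _ hdN
    · rw [map_mul, map_inv₀, map_inv₀, hcO, inv_one, mul_one]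
      exact hcv

open IntermediateField in
include hπ0 hz0 h1 h2 h3 in
/-- **Residue lemma**, `C` algebraically closed. -/
theorem exists_const [IsAlgClosed C] (halg : ∀ a : K, IsAlgebraic C⟮z⟯ a) (a : K)
    (ha : a ∈ O) : ∃ c : C, nC c ≤ 1 ∧ O.valuation (a - algebraMap C K c) < 1 :=
  exists_const' nC hπ0 hz0 h1 h2 h3 (resClosed_of_isAlgClosed nC) halg a ha

open IntermediateField in
include hπ0 hz0 h1 h2 h3 in
/-- Units are `N`-th powers up to `1`-units, `C` algebraically closed. -/
theorem exists_pow_of_unit [IsAlgClosed C] (halg : ∀ a : K, IsAlgebraic C⟮z⟯ a) (N : ℕ)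
    (hN : N ≠ 0) (u : K) (hu : O.valuation u = 1) :
    ∃ c : C, c ≠ 0 ∧ nC c = 1 ∧ O.valuation (u * algebraMap C K c ^ N - 1) < 1 :=
  exists_pow_of_unit' nC hπ0 hz0 h1 h2 h3 (resClosed_of_isAlgClosed nC) halg N hN u hu

end Composite

end Crest.Agent.R013.RZ_365
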