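import Crest.Agent.R013.Tau7_512
import Crest.Agent.R013.RZ3_365

/-!
# Row 13, part A, leaf A-U, (C): the field of constants fixed by `s (τ ^ l ^ j)`   (helper512)

`constants` : the intermediate field `C` of `M = maxUnramified k K` of the elements algebraic over
`k` and fixed by `s (τ ^ l ^ j)`, with the valuation induced by `W`: the residue field is
algebraically closed and the value group is not discrete.
-/

set_option autoImplicit false
set_option linter.unusedSectionVars false
set_option linter.style.haveILetI false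

open scoped NNReal
open Crest.NumberTheoryR.Sect
open Crest.Agent.R013
open Crest.Agent.R013.Fp4_831
open Crest.Agent.R013.Tau1_512
open Crest.Agent.R013.Tau2_512
open Crest.Agent.R013.Clause1_97 Crest.Agent.R013.MaxUnr_97

namespace Crest.Agent.R013.UC_512

variable {k : Type*} [Field k] {K : Type*} [Field K] [Algebra k K]

/-- The elements of `maxUnramified k K` algebraic over `k` and fixed by `σ`. -/
def fixC (σ : PiGroup k K) : IntermediateField k (maxUnramified k K) where
  carrier := {c | IsAlgebraic k c ∧ σ c = c}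
  mul_mem' ha hb := ⟨ha.1.mul hb.1, by rw [map_mul, ha.2, hb.2]⟩
  one_mem' := ⟨isAlgebraic_one, map_one σ⟩
  add_mem' ha hb := ⟨ha.1.add hb.1, by rw [map_add, ha.2, hb.2]⟩
  zero_mem' := ⟨isAlgebraic_zero, map_zero σ⟩
  algebraMap_mem' c := ⟨isAlgebraic_algebraMap c, by
    rw [IsScalarTower.algebraMap_apply k K (maxUnramified k K), AlgEquiv.commutes]⟩
  inv_mem' c hc := ⟨hc.1.inv, by rw [map_inv₀, hc.2]⟩

lemma mem_fixC {σ : PiGroup k K} {c : maxUnramified k K} :
    c ∈ fixC σ ↔ IsAlgebraic k c ∧ σ c = c := Iff.rfl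

lemma fixC_le (σ : PiGroup k K) : fixC σ ≤ constField k K := fun _ hc =>
  mem_algebraicClosure_iff.2 hc.1

variable {p : ℕ} [Fact p.Prime] [Algebra ℚ_[p] k] [CharZero k] [Algebra (RatFunc k) K]
  [IsScalarTower k (RatFunc k) K] [FiniteDimensional (RatFunc k) K]

/-- **(C) of #4015.** -/
theorem constants {W : Valuation (constField k K) ℝ≥0}
    (hW : ∀ q : ℚ_[p], W (APt_349.iQ p k (constField k K) q) = ‖q‖₊) {l : ℕ} {ϖ : k}
    (H : Hyp k W l ϖ) {P : Subgroup (ConstGal k K)} {τ φ : ConstGal k K}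
    {vp : ℕ → constField k K} (hT : Tau5_512.TauData W l ϖ P τ φ vp)
    (s : ConstGal k K →* PiGroup k K) (hs : IsSection k K s) (j : ℕ) :
    ∃ (C : IntermediateField k (maxUnramified k K)) (nC : Valuation C ℝ≥0),
      Algebra.IsAlgebraic k C ∧
      (∀ c, c ∈ C ↔ IsAlgebraic k c ∧ s (τ ^ l ^ j) c = c) ∧
      (∀ q : ℚ_[p], nC (algebraMap k C (algebraMap ℚ_[p] k q)) = ‖q‖₊) ∧
      (∀ c : C, ∀ c' : constField k K,
        (c' : maxUnramified k K) = (c : maxUnramified k K) → nC c = W c') ∧
      RZ_365.ResClosed nC ∧ (∀ r : ℝ≥0, r < 1 → ∃ c, r < nC c ∧ nC c < 1) := by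
  have hacl : IsAlgClosed (constField k K) := Tau7_512.isAlgClosed_constField
  have hgal : IsGalois k (constField k K) := by
    have : IsAlgClosure k (constField k K) := Tau7_512.isAlgClosure_constField
    exact IsAlgClosure.isGalois k (constField k K)
  let C := fixC (s (τ ^ l ^ j))
  let ι : C →ₐ[k] constField k K := IntermediateField.inclusion (fixC_le (s (τ ^ l ^ j)))
  have hι : ∀ c : C, ((ι c : constField k K) : maxUnramified k K) = (c : maxUnramified k K) :=
    fun c => rfl
  letI : Algebra C (constField k K) := ι.toRingHom.toAlgebra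
  have hmem : ∀ x : constField k K, (τ ^ l ^ j) x = x → ∃ c : C, ι c = x := by
    intro x hx
    refine ⟨⟨x, ⟨mem_algebraicClosure_iff.1 x.2, ?_⟩⟩, rfl⟩
    rw [hs.2, hx]
  refine ⟨C, W.comap ι.toRingHom, ?_, fun c => Iff.rfl, ?_, ?_, ?_, ?_⟩
  · exact ⟨fun c => by
      have h := c.2.1
      exact (isAlgebraic_algebraMap_iff (algebraMap C (maxUnramified k K)).injective).1 h⟩
  · intro q
    rw [← hW q]
    change W (ι (algebraMap k C (algebraMap ℚ_[p] k q))) = _
    rw [AlgHom.commutes]
    rfl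
  · intro c c' h
    change W (ι c) = W c'
    congr 1
    apply Subtype.ext
    rw [hι, h]
  · intro Q hQ hd hi
    refine Tau7_512.exists_root_mod (w := W) H.res (C := C) ?_ Q hQ hd hi
    intro z hz
    obtain ⟨c, hc⟩ := hmem z (Tau5_512.pow_apply_of_fix (hT.tau_MU z hz) _)
    exact ⟨c, hc⟩
  · intro r hr
    obtain ⟨x, hx, h1, h2, -⟩ := hT.between r 1 hr j
    obtain ⟨c, rfl⟩ := hmem x hx
    exact ⟨c, h1, h2⟩

end Crest.Agent.R013.UC_512
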