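import Crest.Agent.R013.TopS_803
import Crest.Agent.R013.TopL_803
import Crest.Agent.R013.UFin_337

/-!
# Row 13: `S0015` and `S0016` from B-NB, the end step and `GOODP`
-/

set_option autoImplicit false

namespace Crest.Agent.R013.TopR_803

open scoped NNReal Topology
open Filter Crest.NumberTheoryR Crest.NumberTheoryR.Sect SE_669 CGood_588 GoodP_797 VData_803 TopB_803
  TopS_803

/-- **B-MAIN from B-NB and the end step.** -/
theorem bMain_of' {p : ℕ} [Fact p.Prime] (h2 : NBP p) (h3 : EndP p) : BMain p :=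
  bMain_of (TopL_803.liftP p) h2 h3

/-- **`S0016` from B-NB, the end step and GOODP.** -/
theorem s0016_of {p : ℕ} [Fact p.Prime] (h2 : NBP p) (h3 : EndP p)
    (hG : GOODPall p) (k : Type) [Field k]
    [Algebra ℚ_[p] k] [FiniteDimensional ℚ_[p] k]
    (K : Type) [Field K] [Algebra k K] [Algebra (RatFunc k) K] [IsScalarTower k (RatFunc k) K]
    [FunctionField k K] (hc : algebraicClosure k K = ⊥) (hg : 2 ≤ genus k K)
    (v : Valuation K ℝ≥0) (hv : ExtendsPadicNorm k K p v)
    (w : Valuation (AlgebraicClosure K) ℝ≥0)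
    (hw : w.comap (algebraMap K (AlgebraicClosure K)) = v) :
    ∀ a : AlgebraicClosure K, ∀ ε : ℝ≥0, 0 < ε →
      ∃ b : maxUnramified k K, w (a - (b : AlgebraicClosure K)) < ε :=
  TopS_803.s0016_of (bMain_of' h2 h3) hG k K hc hg v hv w hw

/-- **`S0015` from B-MAIN and GOODP.** -/
theorem s0015_of {p : ℕ} [Fact p.Prime] (hB : BMain p) (hG : GOODPall p) (k : Type) [Field k]
    [Algebra ℚ_[p] k] [FiniteDimensional ℚ_[p] k]
    (K : Type) [Field K] [Algebra k K] [Algebra (RatFunc k) K] [IsScalarTower k (RatFunc k) K]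
    [FunctionField k K] (hc : algebraicClosure k K = ⊥) (hg : 2 ≤ genus k K) :
    (∀ vt : Valuation (maxUnramified k K) ℝ≥0, LiesOverRationalPlace k K vt →
        ∃ s : ConstGal k K →* PiGroup k K, IsSection k K s ∧ Set.range s = decomp k K vt) ∧
    (∀ s : ConstGal k K →* PiGroup k K, IsSection k K s →
        ∃ vt : Valuation (maxUnramified k K) ℝ≥0, LiesOverRationalPlace k K vt ∧
          Set.range s = decomp k K vt) ∧
    (∀ vt vt' : Valuation (maxUnramified k K) ℝ≥0, LiesOverRationalPlace k K vt →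
        LiesOverRationalPlace k K vt' → decomp k K vt = decomp k K vt' →
        (vt.comap (algebraMap K (maxUnramified k K))).IsEquiv
          (vt'.comap (algebraMap K (maxUnramified k K)))) :=
  UFin_337.S0015_of_S16 p k K fun v hv w hw =>
    TopS_803.s0016_of hB hG k K hc hg v hv w hw

end Crest.Agent.R013.TopR_803
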