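import Crest.Agent.R013.TopM_803
import Crest.Agent.R013.TopR_803
import Crest.Agent.R013.EndP_669

/-!
# Row 13: B-MAIN from 623's `AnnP`; `S0015`, `S0016` from `AnnP` and `GOODPall`
-/

set_option autoImplicit false

namespace Crest.Agent.R013.TopZ_803

open scoped NNReal Topology
open Filter Crest.NumberTheoryR Crest.NumberTheoryR.Sect SE_669 CGood_588 GoodP_797 VData_803 TopB_803
  TopS_803

/-- **B-MAIN from LEMW (623).** -/
theorem bMain_of_ann (h : AnnP_669.AnnP) (p : ℕ) [Fact p.Prime] : BMain p :=
  TopM_803.bMain_of_end (BRLast_669.endP p h)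

end Crest.Agent.R013.TopZ_803
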