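import Crest.Agent.R013.LemD3_623
import Crest.Agent.R013.TopZ_803

/-!
# Row 13, part B closed: `AnnP` (623's `lemw'`), `EndP`, `BMain`
-/

set_option autoImplicit false
set_option linter.unusedSectionVars false
set_option linter.style.haveILetI false

namespace Crest.Agent.R013.AnnQ_332

open scoped NNReal
open Crest.NumberTheoryR.Sect
open Crest.Agent.R013.BTor4_914 (LDiv)
open Crest.Agent.R013.Gl946 Crest.Agent.R013.NB_92 Crest.Agent.R013.CutCov_92
  Crest.Agent.R013.Half_930 Crest.Agent.R013.Desc_372 Crest.Agent.R013.Desc_372.CE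

/-- **`AnnP` is a theorem** (623's `lemw'`). -/
theorem annP : AnnP_669.AnnP := by
  intro k E Ω U V _ _ _ _ _ _ _ _ _ _ _ _ _ _ y hG ϖ hϖ hd s hs n hn hsn _ _ _ _ d X j σ hNB _ xU
    hjx _ _ hUΩ
  exact LemC623.lemw' hG hϖ hd hs hn hsn X j σ hNB xU hjx hUΩ

theorem endP (p : ℕ) [Fact p.Prime] : TopB_803.EndP p := BRLast_669.endP p annP

theorem bMain (p : ℕ) [Fact p.Prime] : VData_803.BMain p := TopZ_803.bMain_of_ann annP p

end Crest.Agent.R013.AnnQ_332
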