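import Crest.Agent.R013.LemW9_623

/-!
# A function of slope one (row 13, leaf LEMW, part 10)

Over an algebraically closed field of constants, with divisible `Pic⁰ W`: there is `h : U` with
`div h ∈ n Div U` and `ord (ι h) ≡ 1` modulo `n`.
-/

set_option autoImplicit false
set_option linter.unusedSectionVars false

namespace Crest.Agent.R013.LemW623

open Polynomial WithZero
open Crest.Agent.R013.RR7_948 Crest.Agent.R013.RR8_948 Crest.Agent.R013.RR9_948
open Crest.Agent.R013.RR11_948 Crest.Agent.R013.RR12_948 Crest.Agent.R013.RR13_948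
open Crest.Agent.R013.RR18_948 Crest.Agent.R013.RR20_948 Crest.Agent.R013.RR21_948
open Crest.Agent.R013.RR22_948

/-- `Pic⁰` is divisible. -/
def DivPic (k W : Type*) [Field k] [Field W] [Algebra k W] [Algebra (RatFunc k) W]
    [IsScalarTower k (RatFunc k) W] [FiniteDimensional (RatFunc k) W]
    [Algebra.IsSeparable (RatFunc k) W] : Prop :=
  ∀ (D : Pl k W →₀ ℤ), degD D = 0 → ∀ n : ℕ, 0 < n →
    ∃ (E : Pl k W →₀ ℤ) (f : W), f ≠ 0 ∧ D = (n : ℤ) • E + divf (k := k) f

variable {k : Type*} [Field k] [IsAlgClosed k] {E : Type*} [Field E] [Algebra k E]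
  [Algebra (RatFunc k) E] [IsScalarTower k (RatFunc k) E]

section

variable {W : Type*} [Field W] [Algebra k W] [Algebra (RatFunc k) W]
  [IsScalarTower k (RatFunc k) W] [FiniteDimensional (RatFunc k) W]
  [Algebra.IsSeparable (RatFunc k) W]

omit [IsAlgClosed k] in
theorem over_iff_under (Q : Pl k W) :
    Over (RatFunc.X)⁻¹ X Q ↔ under (RatFunc k) Q = pinf k := by
  have h0 : Over (RatFunc.X)⁻¹ X Q ↔ (under (RatFunc k) Q).v (RatFunc.X)⁻¹ < 1 := by
    rw [under_lt_one_iff, Over, aeval_X]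
  rw [h0]
  constructor
  · intro h
    have hX : (RatFunc.X : RatFunc k) ≠ 0 := RatFunc.X_ne_zero
    have h1 : 1 < (under (RatFunc k) Q).v RatFunc.X := by
      rw [map_inv₀] at h
      have hne : (under (RatFunc k) Q).v RatFunc.X ≠ 0 := by
        rw [Valuation.ne_zero_iff]; exact hX
      exact (inv_lt_one₀ (zero_lt_iff.2 hne)).1 h
    have h2 := isEquiv_vinf (under (RatFunc k) Q).v (under (RatFunc k) Q).const h1
    exact Pl.ext (eq_of_isEquiv_surj h2 (under (RatFunc k) Q).surj (pinf k).surj)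
  · intro h
    rw [h, map_inv₀, pinf_v, RR2_948.vinf_X, ← exp_neg, ← exp_zero, exp_lt_exp]
    norm_num

end

namespace Bk

variable {A A' : Subalgebra k E} {y : E} (h : Bk k A A' y)
variable {W U : Type*} [Field W] [Algebra k W] [Algebra (RatFunc k) W]
  [IsScalarTower k (RatFunc k) W] [FiniteDimensional (RatFunc k) W]
  [Algebra.IsSeparable (RatFunc k) W]
  [Field U] [Algebra k U] [Algebra (RatFunc k) U] [IsScalarTower k (RatFunc k) U]
  [FiniteDimensional (RatFunc k) U] [Algebra.IsSeparable (RatFunc k) U]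
  [Algebra U W] [IsScalarTower k U W] [IsScalarTower (RatFunc k) U W] [FiniteDimensional U W]
  [Algebra.IsSeparable U W]

include h

/-- **A function of slope one.** -/
theorem exists_slope_one {n : ℕ} (hn : 0 < n) (hyX : algebraMap (RatFunc k) E RatFunc.X = y)
    {V : Type*} [CommRing V] [Algebra E V] [Module.Finite E V] [Algebra (RatFunc k) V]
    [IsScalarTower (RatFunc k) E V]
    (σ : W ≃ₐ[U] W) (α β : W →ₐ[RatFunc k] V) (ι : V →+* E)
    (hrel : ∀ w, Algebra.norm E (α w) * ι (β w) = Algebra.norm E (β w) * ι (β (σ w)))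
    (hα : ∀ w, Algebra.norm E (α w) ∈ Fr A' y⁻¹) (hβ : ∀ w, Algebra.norm E (β w) ∈ Fr A y)
    (hσ : ∀ w : W, algebraMap U W (Algebra.norm U w) = ∏ i ∈ Finset.range n, (σ ^ i) w)
    (hU : ∀ u : U, Algebra.norm E (α (algebraMap U W u)) =
      algebraMap (RatFunc k) E (Algebra.norm (RatFunc k) u))
    (hDIV : DivPic k W) :
    ∃ f : U, f ≠ 0 ∧ (∀ P : Pl k U, (n : ℤ) ∣ divf (k := k) f P) ∧
      (n : ℤ) ∣ h.ord (ι (β (algebraMap U W f))) - 1 := by
  classical
  -- a place over infinity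
  obtain ⟨Q₀, hQ₀⟩ := above_nonempty (L := W) (pinf k)
  rw [mem_above] at hQ₀
  set s : W ≃ₐ[k] W := σ.restrictScalars k with hs
  set Q₁ : Pl k W := mapPl s Q₀ with hQ₁
  have hsapp : ∀ w, s w = σ w := fun w => rfl
  -- θ
  obtain ⟨θ, hθ, hθv⟩ := exists_prescribed (k := k) (above W (pinf k))
    (fun Q => if Q = Q₀ then -1 else 0)
  have hθd : ∀ Q, under (RatFunc k) Q = pinf k →
      divf (k := k) θ Q = if Q = Q₀ then 1 else 0 := by
    intro Q hQ
    have h1 := hθv Q (mem_above.2 hQ)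
    rw [v_eq (k := k) hθ, exp_inj] at h1
    split_ifs at h1 ⊢ <;> omega
  -- places over infinity are stable
  have hst : ∀ Q : Pl k W, under (RatFunc k) Q = pinf k →
      under (RatFunc k) (mapPl s.symm Q) = pinf k := by
    intro Q hQ
    have h1 : Q = mapPl s (mapPl s.symm Q) := by simp
    have h2 := under_mapPl (k := k) (K := RatFunc k) (L := W) (L' := W)
      (σ.symm.restrictScalars (RatFunc k)) Q
    rw [← hQ]
    exact h2
  have hσθd : ∀ Q : Pl k W, under (RatFunc k) Q = pinf k →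
      divf (k := k) (σ θ) Q = if Q = Q₁ then 1 else 0 := by
    intro Q hQ
    have h1 : divf (k := k) (s θ) Q = divf (k := k) θ (mapPl s.symm Q) := by
      rw [divf_map]; rfl
    rw [← hsapp, h1, hθd _ (hst Q hQ)]
    congr 1
    rw [eq_iff_iff]
    constructor
    · intro h2
      rw [hQ₁, ← h2]; simp
    · intro h2
      rw [h2, hQ₁]; simp
  -- the divisor
  set D : Pl k W →₀ ℤ := Finsupp.single Q₀ 1 - Finsupp.single Q₁ 1 with hD
  have hdeg : degD D = 0 := by
    rw [hD, degD_sub, degD_single, degD_single, hQ₁, degP_mapPl]; ring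
  obtain ⟨Ed, φ, hφ, hDE⟩ := hDIV D hdeg n hn
  have hφd : ∀ Q, divf (k := k) φ Q = D Q - n * Ed Q := by
    intro Q
    rw [hDE, Finsupp.add_apply, Finsupp.smul_apply, smul_eq_mul]; ring
  have hQ₁u : under (RatFunc k) Q₁ = pinf k := by
    have h2 := under_mapPl (k := k) (K := RatFunc k) (L := W) (L' := W)
      (σ.restrictScalars (RatFunc k)) Q₀
    rw [← hQ₀]
    exact h2
  have hDap : ∀ Q, D Q = (if Q = Q₀ then 1 else 0) - (if Q = Q₁ then 1 else 0) := by
    intro Q
    rw [hD, Finsupp.sub_apply, Finsupp.single_apply, Finsupp.single_apply]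
    simp only [eq_comm]
  have hd : ∀ Q : Pl k W, ¬ Over (RatFunc.X)⁻¹ X Q → (n : ℤ) ∣ divf (k := k) φ Q := by
    intro Q hQ
    rw [over_iff_under] at hQ
    have h1 : Q ≠ Q₀ := by rintro rfl; exact hQ hQ₀
    have h2 : Q ≠ Q₁ := by rintro rfl; exact hQ hQ₁u
    rw [hφd, hDap, if_neg h1, if_neg h2]
    simp
  have hd' : ∀ Q : Pl k W, Over (RatFunc.X)⁻¹ X Q →
      (n : ℤ) ∣ divf (k := k) φ Q + divf (k := k) (σ θ) Q - divf (k := k) θ Q := by
    intro Q hQ
    rw [over_iff_under] at hQ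
    rw [hφd, hDap, hσθd Q hQ, hθd Q hQ]
    refine ⟨-Ed Q, ?_⟩
    ring
  have hσpow : ∀ (i : ℕ) (w : W),
      ((((σ : W →ₐ[U] W).restrictScalars (RatFunc k)) ^ i) w) = (σ ^ i) w := by
    intro i
    induction i with
    | zero => intro w; rfl
    | succ i ih =>
      intro w
      rw [pow_succ, pow_succ]
      exact ih (σ w)
  have hσθ : ∏ i ∈ Finset.range n, Algebra.norm E
      (α ((((σ : W →ₐ[U] W).restrictScalars (RatFunc k)) ^ i) θ)) =
      algebraMap (RatFunc k) E (Algebra.norm (RatFunc k) θ) := by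
    rw [← map_prod, ← map_prod]
    simp only [hσpow]
    rw [← hσ, hU, Algebra.norm_norm]
  have key := h.slope_div hn hyX ((σ : W →ₐ[U] W).restrictScalars (RatFunc k)) α β ι hrel hα hβ
    φ θ hφ hθ hd hd' hσθ (pinf k) (by
      rw [map_inv₀, pinf_v, RR2_948.vinf_X, ← exp_neg, ← exp_zero, exp_lt_exp]; norm_num)
  -- the order of the norm of θ
  have hNθ : divf (k := k) (Algebra.norm (RatFunc k) θ) (pinf k) = 1 := by
    rw [divf_norm_of_degP (k := k) hθ (pinf k) (by
      intro Q _
      rw [degP_pinf, CE5_280.degP_eq_one])]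
    rw [Finset.sum_congr rfl fun Q hQ => hθd Q (mem_above.1 hQ)]
    rw [Finset.sum_ite_eq', if_pos (mem_above.2 hQ₀)]
  rw [hNθ] at key
  refine ⟨Algebra.norm U φ, Algebra.norm_ne_zero_iff.mpr hφ, ?_, ?_⟩
  · intro P
    rw [divf_norm_of_degP (k := k) hφ P (by
      intro Q _
      rw [CE5_280.degP_eq_one, CE5_280.degP_eq_one])]
    rw [Finset.sum_congr rfl fun Q _ => hφd Q, Finset.sum_sub_distrib]
    refine dvd_sub ?_ ?_
    · -- the two points lie over the same place
      have hu : under U Q₁ = under U Q₀ := by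
        have h2 := under_mapPl (k := k) (K := U) (L := W) (L' := W) σ Q₀
        exact h2
      rw [Finset.sum_congr rfl fun Q _ => hDap Q, Finset.sum_sub_distrib, Finset.sum_ite_eq',
        Finset.sum_ite_eq']
      have h3 : (Q₀ ∈ above W P) ↔ (Q₁ ∈ above W P) := by rw [mem_above, mem_above, hu]
      by_cases h4 : Q₀ ∈ above W P
      · rw [if_pos h4, if_pos (h3.1 h4), sub_self]; exact dvd_zero _
      · rw [if_neg h4, if_neg (fun h5 => h4 (h3.2 h5)), sub_self]; exact dvd_zero _
    · exact Finset.dvd_sum fun Q _ => dvd_mul_right _ _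
  · have e : ∏ i ∈ Finset.range n,
        ι (β ((((σ : W →ₐ[U] W).restrictScalars (RatFunc k)) ^ i) φ)) =
        ι (β (algebraMap U W (Algebra.norm U φ))) := by
      rw [hσ, map_prod, map_prod]
      simp only [hσpow]
    rw [e] at key
    exact key

end Bk

end Crest.Agent.R013.LemW623
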