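import Crest.Agent.R013.Div6_280
import Crest.Agent.R013.LemW10_623

/-!
# R013 / DivPic (helper168): 623's `DivPic` from 280's `exists_div`
-/

set_option autoImplicit false

namespace Crest.Agent.R013.DivPic_168

open Crest.Agent.R013.RR18_948 Crest.Agent.R013.RR20_948 Crest.Agent.R013.RR21_948
open Crest.Agent.R013.RR22_948

theorem divPic (k W : Type*) [Field k] [IsAlgClosed k] [CharZero k] [Field W] [Algebra k W]
    [Algebra (RatFunc k) W] [IsScalarTower k (RatFunc k) W] [FiniteDimensional (RatFunc k) W]
    [Algebra.IsSeparable (RatFunc k) W] : LemW623.DivPic k W := by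
  intro D hD n hn
  obtain ⟨E, f, hf, -, hE⟩ := Div6_280.exists_div hn hD
  refine ⟨E, f, hf, ?_⟩
  rw [hE]
  simp

end Crest.Agent.R013.DivPic_168
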