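import Crest.Agent.R013.LemD2_623
import Crest.Agent.R013.DivPic_168

/-!
# LEMW without the hypothesis on divisors (row 13, part B)
-/

set_option autoImplicit false
set_option linter.unusedSectionVars false

namespace Crest.Agent.R013.LemC623

open Module Polynomial Crest.Agent.R013.Gl946 Crest.Agent.R013.Desc_372
  Crest.Agent.R013.Desc_372.CE
open Crest.Agent.R013.LemW623 Crest.Agent.R013.RR7_948 Crest.Agent.R013.RR8_948
  Crest.Agent.R013.RR9_948 Crest.Agent.R013.RR11_948 Crest.Agent.R013.BTor4_914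
open Crest.Agent.R013.CutCov_92 Crest.Agent.R013.NB_92 Crest.Agent.R013.Half_930
  Crest.Agent.R013.Annu_930
open Crest.NumberTheoryR.Sect
open scoped NNReal

/-- divisibility of the Picard group of degree zero (168/280 over 948's Riemann-Roch) -/
theorem divStmt : DIVStmt :=
  fun κ W _ _ _ _ _ _ _ _ _ => DivPic_168.divPic κ W

section

variable {k E Ω : Type} [NontriviallyNormedField k] [ProperSpace k] [IsUltrametricDist k]
  [CharZero k] [NormedField E] [NormedAlgebra k E] [IsUltrametricDist E] [CompleteSpace E]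
  [NormedField Ω] [NormedAlgebra k Ω] [NormedAlgebra E Ω] [IsScalarTower k E Ω]
  [IsUltrametricDist Ω] [IsAlgClosed Ω] {y : E}

/-- **LEMW.** From the output of B-NB at the circle field `E = k(y)^`: a finite extension `k'` of
`k` in `Ω`, an `f ∈ U k'` with all orders divisible by `n` and `f = y z ^ n` with `z ∈ E k'`. -/
theorem lemw' (hG : IsGauss k y) {ϖ : k} (hϖ : IsUnif ϖ)
    (hd : DenseRat k y) {s : ℝ≥0} (hs : 1 < s) {n : ℕ} (hn : 0 < n)
    (hsn : (s : ℝ)⁻¹ ≤ ‖(n : k)‖ ^ 2) {U V : Type} [Field U] [Algebra k U] [CommRing V]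
    [Algebra E V] {d : ℕ} (X : Edge (gaussDatum hG hϖ hd) V d) (j : U →+* V) (σ : V →ₐ[E] E)
    (hNB : NBOut (gaussDatum hG hϖ hd) (Am hG hϖ hd hs) (Ap hG hϖ hd hs) U V d X j σ)
    (xU : U) (hjx : σ (j xU) = y) [Algebra U Ω] [IsScalarTower k U Ω]
    (hUΩ : ∀ u, algebraMap U Ω u = algebraMap E Ω (σ (j u))) :
    ∃ (k' : IntermediateField k Ω) (_ : FiniteDimensional k k') (f : lev U Ω k')
      (z : lev E Ω k'), f ≠ 0 ∧ LDiv k' n f ∧ z ≠ 0 ∧
      (f : Ω) = algebraMap E Ω y * (z : Ω) ^ n :=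
  lemw divStmt hG hϖ hd hs hn hsn X j σ hNB xU hjx hUΩ

end

end Crest.Agent.R013.LemC623
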