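import Crest.Agent.R013.AnnP_669
import Crest.Agent.R013.LemD3_623

/-!
# Row 13, part B: `AnnP` is a theorem (623's `lemw'`)
-/

set_option autoImplicit false
set_option linter.unusedSectionVars false

namespace Crest.Agent.R013.AnnP_669

/-- **`AnnP`**, from 623's `lemw'` -/
theorem annP : AnnP := by
  intro k E Ω U V _ _ _ _ _ _ _ _ _ _ _ _ _ _ y hG ϖ hϖ hd s hs n hn hsn _ _ _ _ d X j σ hNB _
    xU hx _ _ hU
  exact LemC623.lemw' hG hϖ hd hs hn hsn X j σ hNB xU hx hU

end Crest.Agent.R013.AnnP_669
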