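import Crest.Agent.R013.Gl3_946

/-!
# Functions on a closed annulus, part 1: boxes

`E` complete ultrametric over `k`, `y : E` with the Gauss norm on `k[y]` (`IsGauss k y`).
* `ev y p = ∑ p n • y ^ n` for `p : ℤ →₀ k` (Laurent polynomials);
* `Box k y b` : the closed additive subgroup of `E` generated by the `c • y ^ n`, `‖c‖ ≤ b n`;
* `w s α β n = min (α * s ^ (-n)) (β * s ^ n)`: the box `B k y s α β` consists of the functions on
  `1/s < |y| < s` which are bounded by `α` near `|y| = s` and by `β` near `|y| = 1/s`.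
-/

set_option autoImplicit false
set_option linter.unusedSectionVars false

namespace Crest.Agent.R013.Annu_930

open Filter Topology Polynomial Crest.Agent.R013.Gl946
open scoped NNReal

variable {k E : Type*} [NormedField k] [NormedField E] [NormedAlgebra k E]

/-- Laurent polynomials in `y`. -/
noncomputable def ev (k : Type*) {E : Type*} [NormedField k] [NormedField E] [NormedAlgebra k E]
    (y : E) : (ℤ →₀ k) →ₗ[k] E :=
  Finsupp.linearCombination k (fun n : ℤ => y ^ n)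

theorem ev_single (y : E) (n : ℤ) (c : k) : ev k y (Finsupp.single n c) = c • y ^ n := by
  simp [ev]

theorem ev_apply (y : E) (p : ℤ →₀ k) : ev k y p = p.sum fun n c => c • y ^ n := rfl

theorem ev_eq_sum (y : E) (p : ℤ →₀ k) (s : Finset ℤ) (hs : p.support ⊆ s) :
    ev k y p = ∑ n ∈ s, p n • y ^ n := by
  rw [ev_apply, Finsupp.sum_of_support_subset p hs _ (by simp)]

variable {y : E}

theorem nnadd_k (E : Type*) [NormedField E] [NormedAlgebra k E] [IsUltrametricDist E] (a b : k) :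
    ‖a + b‖₊ ≤ max ‖a‖₊ ‖b‖₊ := by
  have h := IsUltrametricDist.norm_add_le_max (algebraMap k E a) (algebraMap k E b)
  rw [← map_add, norm_algebraMap', norm_algebraMap', norm_algebraMap'] at h
  exact_mod_cast h

theorem ny (hG : IsGauss k y) : ‖y‖₊ = 1 :=
  NNReal.eq hG.norm_eq

theorem nyz (hG : IsGauss k y) (n : ℤ) : ‖y ^ n‖ = 1 := by
  rw [norm_zpow, hG.norm_eq, one_zpow]

/-- Shift of a Laurent polynomial into a polynomial. -/
theorem exists_shift (hG : IsGauss k y) (p : ℤ →₀ k) (m : ℤ) :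
    ∃ (N : ℕ) (f : k[X]), 0 ≤ m + N ∧ aeval y f = y ^ N * ev k y p ∧
      ∀ n : ℤ, 0 ≤ n + N → f.coeff (n + N).toNat = p n := by
  classical
  obtain ⟨N, hN⟩ : ∃ N : ℕ, ∀ i ∈ insert m p.support, 0 ≤ i + (N : ℤ) := by
    refine ⟨∑ i ∈ insert m p.support, i.natAbs, fun i hi => ?_⟩
    have h1 : i.natAbs ≤ ∑ i ∈ insert m p.support, i.natAbs :=
      Finset.single_le_sum (f := fun i : ℤ => i.natAbs) (fun _ _ => Nat.zero_le _) hi
    omega
  refine ⟨N, ∑ i ∈ p.support, monomial (i + N).toNat (p i), hN m (Finset.mem_insert_self _ _),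
    ?_, ?_⟩
  · rw [map_sum, ev_apply, Finsupp.sum, Finset.mul_sum]
    refine Finset.sum_congr rfl fun i hi => ?_
    have hi' := hN i (Finset.mem_insert_of_mem hi)
    rw [aeval_monomial, Algebra.smul_def]
    have : y ^ (i + N).toNat = y ^ N * y ^ i := by
      rw [← zpow_natCast, Int.toNat_of_nonneg hi', zpow_add₀ hG.ne_zero, zpow_natCast, mul_comm]
    rw [this]; ring
  · intro n hn
    rw [finsetSum_coeff]
    by_cases hnp : n ∈ p.support
    · rw [Finset.sum_eq_single_of_mem n hnp]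
      · rw [coeff_monomial, if_pos rfl]
      · intro i hi hin
        have hi' := hN i (Finset.mem_insert_of_mem hi)
        rw [coeff_monomial, if_neg]
        omega
    · rw [Finsupp.notMem_support_iff.1 hnp]
      refine Finset.sum_eq_zero fun i hi => ?_
      have hi' := hN i (Finset.mem_insert_of_mem hi)
      rw [coeff_monomial, if_neg]
      intro h
      apply hnp
      have : i = n := by omega
      rwa [← this]

theorem coeff_le (hG : IsGauss k y) (p : ℤ →₀ k) (n : ℤ) : ‖p n‖ ≤ ‖ev k y p‖ := by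
  obtain ⟨N, f, h1, h2, h3⟩ := exists_shift hG p n
  have h4 := hG.coeff_le f (n + N).toNat
  rw [h3 n h1, h2, norm_mul, norm_pow, hG.norm_eq, one_pow, one_mul] at h4
  exact h4

theorem ev_ne_zero (hG : IsGauss k y) {p : ℤ →₀ k} (hp : p ≠ 0) : ev k y p ≠ 0 := by
  intro h
  apply hp
  ext n
  have := coeff_le hG p n
  rw [h, norm_zero] at this
  simpa using this

theorem ev_injective (hG : IsGauss k y) : Function.Injective (ev k y) :=
  (injective_iff_map_eq_zero _).2 fun p hp => by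
    by_contra h
    exact ev_ne_zero hG h hp

theorem ev_mul_ev (hG : IsGauss k y) (p q : ℤ →₀ k) :
    ∃ r, ev k y r = ev k y p * ev k y q := by
  change ev k y p * ev k y q ∈ LinearMap.range (ev k y)
  induction p using Finsupp.induction_linear with
  | zero => rw [map_zero, zero_mul]; exact zero_mem _
  | add p p' h h' => rw [map_add, add_mul]; exact add_mem h h'
  | single i c =>
    induction q using Finsupp.induction_linear with
    | zero => rw [map_zero, mul_zero]; exact zero_mem _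
    | add p p' h h' => rw [map_add, mul_add]; exact add_mem h h'
    | single j d =>
      refine ⟨Finsupp.single (i + j) (c * d), ?_⟩
      rw [ev_single, ev_single, ev_single, zpow_add₀ hG.ne_zero, smul_mul_smul_comm]

theorem aeval_eq_ev (f : k[X]) : ∃ p : ℤ →₀ k, ev k y p = aeval y f ∧
    ∀ n : ℕ, p n = f.coeff n := by
  refine ⟨∑ i ∈ Finset.range (f.natDegree + 1), Finsupp.single (i : ℤ) (f.coeff i), ?_, ?_⟩
  · rw [map_sum, aeval_eq_sum_range]
    refine Finset.sum_congr rfl fun i _ => ?_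
    rw [ev_single, zpow_natCast]
  · intro n
    rw [Finsupp.finsetSum_apply]
    by_cases hn : n ∈ Finset.range (f.natDegree + 1)
    · rw [Finset.sum_eq_single_of_mem n hn]
      · simp
      · intro i _ hin
        rw [Finsupp.single_apply, if_neg]
        exact_mod_cast hin
    · rw [coeff_eq_zero_of_natDegree_lt (by rw [Finset.mem_range] at hn; omega)]
      refine Finset.sum_eq_zero fun i hi => ?_
      rw [Finsupp.single_apply, if_neg]
      rintro h
      apply hn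
      have : i = n := by exact_mod_cast h
      rwa [← this]

/-! ### Boxes -/

/-- Finite sums of monomials `c • y ^ n`, `‖c‖ ≤ b n`. -/
def Box0 (k : Type*) {E : Type*} [NormedField k] [NormedField E] [NormedAlgebra k E] (y : E)
    (b : ℤ → ℝ≥0) : AddSubgroup E :=
  AddSubgroup.closure {x | ∃ (n : ℤ) (c : k), ‖c‖₊ ≤ b n ∧ x = c • y ^ n}

/-- The closed subgroup generated by the monomials `c • y ^ n`, `‖c‖ ≤ b n`. -/
def Box (k : Type*) {E : Type*} [NormedField k] [NormedField E] [NormedAlgebra k E] (y : E)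
    (b : ℤ → ℝ≥0) : AddSubgroup E :=
  (Box0 k y b).topologicalClosure

theorem isClosed_Box (b : ℤ → ℝ≥0) : IsClosed (Box k y b : Set E) :=
  AddSubgroup.isClosed_topologicalClosure _

theorem Box0_le_Box (b : ℤ → ℝ≥0) : Box0 k y b ≤ Box k y b :=
  AddSubgroup.le_topologicalClosure _

theorem smul_mem_Box0 {b : ℤ → ℝ≥0} {c : k} {n : ℤ} (h : ‖c‖₊ ≤ b n) : c • y ^ n ∈ Box0 k y b :=
  AddSubgroup.subset_closure ⟨n, c, h, rfl⟩

theorem smul_mem_Box {b : ℤ → ℝ≥0} {c : k} {n : ℤ} (h : ‖c‖₊ ≤ b n) : c • y ^ n ∈ Box k y b :=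
  Box0_le_Box b (smul_mem_Box0 h)

theorem Box0_mono {b b' : ℤ → ℝ≥0} (h : ∀ n, b n ≤ b' n) : Box0 k y b ≤ Box0 k y b' := by
  refine AddSubgroup.closure_mono ?_
  rintro _ ⟨n, c, hc, rfl⟩
  exact ⟨n, c, hc.trans (h n), rfl⟩

theorem Box_mono {b b' : ℤ → ℝ≥0} (h : ∀ n, b n ≤ b' n) : Box k y b ≤ Box k y b' :=
  AddSubgroup.topologicalClosure_mono (Box0_mono h)

theorem ev_mem_Box0 {b : ℤ → ℝ≥0} {p : ℤ →₀ k} (h : ∀ n, ‖p n‖₊ ≤ b n) :
    ev k y p ∈ Box0 k y b := by
  rw [ev_apply]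
  exact AddSubgroup.sum_mem _ fun n _ => smul_mem_Box0 (h n)

theorem ev_mem_Box {b : ℤ → ℝ≥0} {p : ℤ →₀ k} (h : ∀ n, ‖p n‖₊ ≤ b n) : ev k y p ∈ Box k y b :=
  Box0_le_Box b (ev_mem_Box0 h)

section Ultra

variable [IsUltrametricDist E]

theorem exists_of_mem_Box0 {b : ℤ → ℝ≥0} {x : E} (hx : x ∈ Box0 k y b) :
    ∃ p : ℤ →₀ k, (∀ n, ‖p n‖₊ ≤ b n) ∧ x = ev k y p := by
  refine AddSubgroup.closure_induction ?_ ?_ ?_ ?_ hx
  · rintro _ ⟨n, c, hc, rfl⟩
    refine ⟨Finsupp.single n c, fun m => ?_, (ev_single _ _ _).symm⟩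
    rw [Finsupp.single_apply]
    split_ifs with h
    · rw [← h]; exact hc
    · simp
  · exact ⟨0, by simp, by simp⟩
  · rintro _ _ _ _ ⟨p, hp, rfl⟩ ⟨q, hq, rfl⟩
    exact ⟨p + q, fun n => (nnadd_k E _ _).trans (max_le (hp n) (hq n)), by rw [map_add]⟩
  · rintro _ _ ⟨p, hp, rfl⟩
    exact ⟨-p, fun n => by simpa using hp n, by rw [map_neg]⟩

theorem exists_near {b : ℤ → ℝ≥0} {x : E} (hx : x ∈ Box k y b) {ε : ℝ} (hε : 0 < ε) :
    ∃ p : ℤ →₀ k, (∀ n, ‖p n‖₊ ≤ b n) ∧ ‖x - ev k y p‖ < ε := by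
  obtain ⟨z, hz, hzx⟩ := Metric.mem_closure_iff.1
    (show x ∈ closure (Box0 k y b : Set E) from hx) ε hε
  obtain ⟨p, hp, rfl⟩ := exists_of_mem_Box0 hz
  exact ⟨p, hp, by rw [← dist_eq_norm]; exact hzx⟩

omit [IsUltrametricDist E] in
theorem nnsub_k' (E : Type*) [NormedField E] [NormedAlgebra k E] [IsUltrametricDist E] (a b : k) :
    ‖a‖₊ ≤ max ‖b‖₊ ‖a - b‖₊ := by
  have := nnadd_k E b (a - b)
  rwa [add_sub_cancel] at this

/-- A Laurent polynomial is in the box iff its coefficients are bounded. -/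
theorem ev_mem_Box_iff (hG : IsGauss k y) {b : ℤ → ℝ≥0} {p : ℤ →₀ k} :
    ev k y p ∈ Box k y b ↔ ∀ n, ‖p n‖₊ ≤ b n := by
  refine ⟨fun h n => ?_, ev_mem_Box⟩
  refine le_of_forall_pos_le_add fun ε hε => ?_
  obtain ⟨q, hq, hpq⟩ := exists_near h (ε := ε) (by exact_mod_cast hε)
  rw [← map_sub] at hpq
  have h1 := (coeff_le hG (p - q) n).trans hpq.le
  rw [Finsupp.sub_apply] at h1
  have h2 : ‖p n - q n‖₊ ≤ ε := by exact_mod_cast h1
  refine (nnsub_k' E (p n) (q n)).trans (max_le ((hq n).trans ?_) (h2.trans ?_))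
  · exact le_self_add
  · exact le_add_self

omit [IsUltrametricDist E] in
/-- Products of boxes. -/
theorem mul_mem_Box (hG : IsGauss k y) {b b' b'' : ℤ → ℝ≥0}
    (hb : ∀ i j, b i * b' j ≤ b'' (i + j)) {x x' : E} (hx : x ∈ Box k y b)
    (hx' : x' ∈ Box k y b') : x * x' ∈ Box k y b'' := by
  refine map_mem_closure₂ (f := fun a b : E => a * b) continuous_mul hx hx' ?_
  intro a ha a' ha'
  refine AddSubgroup.closure_induction ?_ ?_ ?_ ?_ ha
  · rintro _ ⟨i, c, hc, rfl⟩
    refine AddSubgroup.closure_induction ?_ ?_ ?_ ?_ ha'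
    · rintro _ ⟨j, d, hd, rfl⟩
      have : c • y ^ i * d • y ^ j = (c * d) • y ^ (i + j) := by
        rw [zpow_add₀ hG.ne_zero, smul_mul_smul_comm]
      rw [this]
      refine smul_mem_Box0 ((nnnorm_mul c d).le.trans ((mul_le_mul' hc hd).trans (hb i j)))
    · rw [mul_zero]; exact zero_mem _
    · intro u v _ _ hu hv; rw [mul_add]; exact add_mem hu hv
    · intro u _ hu; rw [mul_neg]; exact neg_mem hu
  · simp only [zero_mul]; exact zero_mem _
  · intro u v _ _ hu hv; simp only [add_mul]; exact add_mem hu hv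
  · intro u _ hu; simp only [neg_mul]; exact neg_mem hu

/-- Elements of a box are bounded. -/
theorem norm_le_of_mem_Box (hG : IsGauss k y) {b : ℤ → ℝ≥0} {r : ℝ≥0} (hb : ∀ n, b n ≤ r)
    {x : E} (hx : x ∈ Box k y b) : ‖x‖ ≤ r := by
  have hcl : IsClosed {x : E | ‖x‖ ≤ r} := isClosed_le continuous_norm continuous_const
  refine closure_minimal (s := (Box0 k y b : Set E)) ?_ hcl hx
  intro z hz
  refine AddSubgroup.closure_induction ?_ ?_ ?_ ?_ hz
  · rintro _ ⟨n, c, hc, rfl⟩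
    change ‖c • y ^ n‖ ≤ r
    rw [norm_smul, nyz hG, mul_one]
    exact_mod_cast hc.trans (hb n)
  · change ‖(0 : E)‖ ≤ r
    rw [norm_zero]; exact r.2
  · intro u v _ _ hu hv
    exact (nadd u v).trans (max_le hu hv)
  · intro u _ hu
    change ‖-u‖ ≤ r
    rw [norm_neg]; exact hu

/-- Multiplication by a monomial. -/
theorem smul_mul_mem_Box (hG : IsGauss k y) {b b' : ℤ → ℝ≥0} {c : k} {m : ℤ}
    (hb : ∀ n, ‖c‖₊ * b n ≤ b' (m + n)) {x : E} (hx : x ∈ Box k y b) :
    c • y ^ m * x ∈ Box k y b' := by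
  have h1 : c • y ^ m ∈ Box k y (fun n => if n = m then ‖c‖₊ else 0) :=
    smul_mem_Box (by simp)
  refine mul_mem_Box hG ?_ h1 hx
  intro i j
  split_ifs with h
  · rw [h]; exact hb j
  · simp

/-- Splitting off one coefficient. -/
theorem exists_coeff [CompleteSpace k] (hG : IsGauss k y) {b : ℤ → ℝ≥0} {x : E}
    (hx : x ∈ Box k y b) (m : ℤ) :
    ∃ c : k, ‖c‖₊ ≤ b m ∧ x - c • y ^ m ∈ Box k y (fun n => if n = m then 0 else b n) := by
  choose p hp hpx using fun i : ℕ => exists_near hx (ε := 1 / ((i : ℝ) + 1)) (by positivity)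
  have hlim : Tendsto (fun i => ev k y (p i)) atTop (𝓝 x) := by
    rw [tendsto_iff_norm_sub_tendsto_zero]
    refine squeeze_zero (fun _ => norm_nonneg _) (fun i => ?_)
      tendsto_one_div_add_atTop_nhds_zero_nat
    rw [norm_sub_rev]; exact (hpx i).le
  have hc : CauchySeq fun i => (p i) m := by
    have h1 := hlim.cauchySeq
    rw [Metric.cauchySeq_iff] at h1 ⊢
    intro ε hε
    obtain ⟨N, hN⟩ := h1 ε hε
    refine ⟨N, fun i hi j hj => ?_⟩
    refine lt_of_le_of_lt ?_ (hN i hi j hj)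
    rw [dist_eq_norm, dist_eq_norm, ← map_sub]
    exact coeff_le hG (p i - p j) m
  obtain ⟨c, hcl⟩ := cauchySeq_tendsto_of_complete hc
  refine ⟨c, ?_, ?_⟩
  · exact le_of_tendsto hcl.nnnorm (Eventually.of_forall fun i => hp i m)
  · have h2 : Tendsto (fun i => ev k y (p i) - (p i) m • y ^ m) atTop (𝓝 (x - c • y ^ m)) :=
      hlim.sub (hcl.smul_const _)
    refine (isClosed_Box _).mem_of_tendsto h2 (Eventually.of_forall fun i => ?_)
    rw [← ev_single, ← map_sub]
    refine ev_mem_Box fun n => ?_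
    rw [Finsupp.sub_apply, Finsupp.single_apply]
    by_cases hn : n = m
    · subst hn; simp
    · rw [if_neg (Ne.symm hn), sub_zero, if_neg hn]; exact hp i n

end Ultra

/-! ### The weights -/

/-- `w s α β n = min (α s^(-n)) (β s^n)`. -/
noncomputable def w (s α β : ℝ≥0) (n : ℤ) : ℝ≥0 := min (α * s ^ (-n)) (β * s ^ n)

theorem w_mono {s α β α' β' : ℝ≥0} (h : α ≤ α') (h' : β ≤ β') (n : ℤ) :
    w s α β n ≤ w s α' β' n :=
  min_le_min (mul_le_mul_left h _) (mul_le_mul_left h' _)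

theorem w_mul (s α β α' β' : ℝ≥0) (hs : s ≠ 0) (i j : ℤ) :
    w s α β i * w s α' β' j ≤ w s (α * α') (β * β') (i + j) := by
  refine le_min ?_ ?_
  · refine (mul_le_mul' (min_le_left _ _) (min_le_left _ _)).trans (le_of_eq ?_)
    rw [neg_add, zpow_add₀ hs]; ring
  · refine (mul_le_mul' (min_le_right _ _) (min_le_right _ _)).trans (le_of_eq ?_)
    rw [zpow_add₀ hs]; ring

theorem mul_w (s α β t : ℝ≥0) (n : ℤ) : t * w s α β n = w s (t * α) (t * β) n := by
  rw [w, w, mul_min_of_nonneg _ _ (zero_le : (0:ℝ≥0) ≤ t)]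
  congr 1 <;> ring

theorem w_le {s α β r : ℝ≥0} (hs : 1 ≤ s) (hα : α ≤ r) (hβ : β ≤ r) (n : ℤ) : w s α β n ≤ r := by
  rcases le_total 0 n with h | h
  · refine (min_le_left _ _).trans ?_
    calc α * s ^ (-n) ≤ r * 1 := mul_le_mul' hα (zpow_le_one_of_nonpos₀ hs (by omega))
      _ = r := mul_one r
  · refine (min_le_right _ _).trans ?_
    calc β * s ^ n ≤ r * 1 := mul_le_mul' hβ (zpow_le_one_of_nonpos₀ hs h)
      _ = r := mul_one r

theorem w_le' {s θ : ℝ≥0} (hs : 1 ≤ s) {n : ℤ} (hn : n ≠ 0) : w s θ θ n ≤ θ / s := by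
  have hs0 : s ≠ 0 := (zero_lt_one.trans_le hs).ne'
  rcases lt_or_gt_of_ne hn with h | h
  · refine (min_le_right _ _).trans ?_
    rw [div_eq_mul_inv, ← zpow_neg_one]
    exact mul_le_mul_right (zpow_le_zpow_right₀ hs (by omega)) _
  · refine (min_le_left _ _).trans ?_
    rw [div_eq_mul_inv, ← zpow_neg_one]
    exact mul_le_mul_right (zpow_le_zpow_right₀ hs (by omega)) _

theorem w_pos {s α β : ℝ≥0} (hs : 0 < s) (hα : 0 < α) (hβ : 0 < β) (n : ℤ) : 0 < w s α β n :=
  lt_min (mul_pos hα (zpow_pos hs _)) (mul_pos hβ (zpow_pos hs _))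

/-- The box of the annulus `1/s < |y| < s` with bounds `α` (outer) and `β` (inner). -/
noncomputable def B (k : Type*) {E : Type*} [NormedField k] [NormedField E] [NormedAlgebra k E]
    (y : E) (s α β : ℝ≥0) : AddSubgroup E := Box k y (w s α β)

theorem B_mono {s α β α' β' : ℝ≥0} (h : α ≤ α') (h' : β ≤ β') : B k y s α β ≤ B k y s α' β' :=
  Box_mono fun n => w_mono h h' n

theorem isClosed_B (s α β : ℝ≥0) : IsClosed (B k y s α β : Set E) := isClosed_Box _

section Ultra2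

variable [IsUltrametricDist E]

theorem mul_mem_B (hG : IsGauss k y) {s : ℝ≥0} (hs : s ≠ 0) {α β α' β' : ℝ≥0} {x x' : E}
    (hx : x ∈ B k y s α β) (hx' : x' ∈ B k y s α' β') : x * x' ∈ B k y s (α * α') (β * β') :=
  mul_mem_Box hG (w_mul s α β α' β' hs) hx hx'

theorem norm_le_of_mem_B (hG : IsGauss k y) {s α β r : ℝ≥0} (hs : 1 ≤ s) (hα : α ≤ r)
    (hβ : β ≤ r) {x : E} (hx : x ∈ B k y s α β) : ‖x‖ ≤ r :=
  norm_le_of_mem_Box hG (w_le hs hα hβ) hx

/-- Every Laurent polynomial is in a box. -/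
theorem exists_ev_mem_B {s : ℝ≥0} (hs : 0 < s) (p : ℤ →₀ k) :
    ∃ t : ℝ≥0, ev k y p ∈ B k y s t t := by
  refine ⟨∑ n ∈ p.support, ‖p n‖₊ * (max (s ^ n) (s ^ (-n))), ev_mem_Box fun n => ?_⟩
  by_cases hn : n ∈ p.support
  · have h1 : ‖p n‖₊ * max (s ^ n) (s ^ (-n)) ≤
        ∑ n ∈ p.support, ‖p n‖₊ * (max (s ^ n) (s ^ (-n))) :=
      Finset.single_le_sum (f := fun n => ‖p n‖₊ * (max (s ^ n) (s ^ (-n))))
        (fun _ _ => zero_le) hn
    have h2 : s ^ n * s ^ (-n) = 1 := by rw [← zpow_add₀ hs.ne', add_neg_cancel, zpow_zero]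
    refine le_min ?_ ?_
    · calc ‖p n‖₊ = ‖p n‖₊ * s ^ n * s ^ (-n) := by rw [mul_assoc, h2, mul_one]
        _ ≤ _ := mul_le_mul_left ((mul_le_mul_right (le_max_left _ _) _).trans h1) _
    · calc ‖p n‖₊ = ‖p n‖₊ * s ^ (-n) * s ^ n := by
            rw [mul_assoc, mul_comm (s ^ (-n)), h2, mul_one]
        _ ≤ _ := mul_le_mul_left ((mul_le_mul_right (le_max_right _ _) _).trans h1) _
  · rw [Finsupp.notMem_support_iff.1 hn]; simp

end Ultra2

end Crest.Agent.R013.Annu_930
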