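import Crest.Agent.R013.Annu1_930

/-!
# Functions on a closed annulus, part 2: the ring `AN`, Newton data, division

`AN hG hs` (`1 < s`) = functions on `1/s ≤ |y| ≤ s` = elements of `E` which are approximated by
Laurent polynomials uniformly on this annulus.  Main result: `division`.
-/

set_option autoImplicit false
set_option linter.unusedSectionVars false

namespace Crest.Agent.R013.Annu_930

open Filter Topology Polynomial Crest.Agent.R013.Gl946
open scoped NNReal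

variable {k E : Type*} [NormedField k] [NormedField E] [NormedAlgebra k E]
  [IsUltrametricDist E] {y : E}

theorem ev_mem_B_iff (hG : IsGauss k y) {s α β : ℝ≥0} {p : ℤ →₀ k} :
    ev k y p ∈ B k y s α β ↔ ∀ n, ‖p n‖₊ ≤ w s α β n := ev_mem_Box_iff hG

/-- being approximated by Laurent polynomials -/
def IsAN (k : Type*) {E : Type*} [NormedField k] [NormedField E] [NormedAlgebra k E] (y : E)
    (s : ℝ≥0) (x : E) : Prop :=
  ∀ ε : ℝ≥0, 0 < ε → ∃ p : ℤ →₀ k, x - ev k y p ∈ B k y s ε ε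

theorem IsAN.exists_B {s : ℝ≥0} (hs : 1 < s) {x : E} (hx : IsAN k y s x) :
    ∃ t : ℝ≥0, x ∈ B k y s t t := by
  obtain ⟨p, hp⟩ := hx 1 zero_lt_one
  obtain ⟨t, ht⟩ := exists_ev_mem_B (y := y) (zero_lt_one.trans hs) p
  refine ⟨max 1 t, ?_⟩
  have : x = (x - ev k y p) + ev k y p := by ring
  rw [this]
  exact add_mem (B_mono (le_max_left _ _) (le_max_left _ _) hp)
    (B_mono (le_max_right _ _) (le_max_right _ _) ht)

/-- The functions on the closed annulus `1/s ≤ |y| ≤ s`. -/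
noncomputable def AN (hG : IsGauss k y) {s : ℝ≥0} (hs : 1 < s) : Subalgebra k E where
  carrier := {x | IsAN k y s x}
  mul_mem' := by
    intro x x' hx hx' ε hε
    have hs0 : s ≠ 0 := (zero_lt_one.trans hs).ne'
    obtain ⟨t, ht⟩ := hx.exists_B hs
    obtain ⟨p', hp'⟩ := hx' (ε / (t + 1)) (div_pos hε (by positivity))
    obtain ⟨t', ht'⟩ := exists_ev_mem_B (y := y) (zero_lt_one.trans hs) p'
    obtain ⟨p, hp⟩ := hx (ε / (t' + 1)) (div_pos hε (by positivity))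
    obtain ⟨r, hr⟩ := ev_mul_ev hG p p'
    refine ⟨r, ?_⟩
    have e : x * x' - ev k y r = x * (x' - ev k y p') + (x - ev k y p) * ev k y p' := by
      rw [hr]; ring
    have aux : ∀ u : ℝ≥0, u * (ε / (u + 1)) ≤ ε := by
      intro u
      rw [mul_div_left_comm]
      calc ε * (u / (u + 1)) ≤ ε * 1 := mul_le_mul_right
            (div_le_one_of_le₀ le_self_add zero_le) _
        _ = ε := mul_one ε
    rw [e]
    refine add_mem (B_mono (aux t) (aux t) (mul_mem_B hG hs0 ht hp')) ?_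
    refine B_mono ?_ ?_ (mul_mem_B hG hs0 hp ht')
    · rw [mul_comm]; exact aux t'
    · rw [mul_comm]; exact aux t'
  add_mem' := by
    intro x x' hx hx' ε hε
    obtain ⟨p, hp⟩ := hx ε hε
    obtain ⟨p', hp'⟩ := hx' ε hε
    refine ⟨p + p', ?_⟩
    rw [map_add, add_sub_add_comm]
    exact add_mem hp hp'
  algebraMap_mem' := by
    intro c ε _
    refine ⟨Finsupp.single 0 c, ?_⟩
    rw [ev_single, zpow_zero, Algebra.smul_def, mul_one, sub_self]
    exact zero_mem _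

theorem mem_AN (hG : IsGauss k y) {s : ℝ≥0} (hs : 1 < s) {x : E} :
    x ∈ AN hG hs ↔ ∀ ε : ℝ≥0, 0 < ε → ∃ p : ℤ →₀ k, x - ev k y p ∈ B k y s ε ε := Iff.rfl

theorem ev_mem_AN (hG : IsGauss k y) {s : ℝ≥0} (hs : 1 < s) (p : ℤ →₀ k) :
    ev k y p ∈ AN hG hs := fun _ _ => ⟨p, by rw [sub_self]; exact zero_mem _⟩

theorem zpow_mem_AN (hG : IsGauss k y) {s : ℝ≥0} (hs : 1 < s) (n : ℤ) : y ^ n ∈ AN hG hs := by
  have := ev_mem_AN hG hs (Finsupp.single n 1)
  rwa [ev_single, one_smul] at this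

theorem aeval_mem_AN (hG : IsGauss k y) {s : ℝ≥0} (hs : 1 < s) (f : k[X]) :
    aeval y f ∈ AN hG hs := by
  obtain ⟨p, hp, -⟩ := aeval_eq_ev (y := y) f
  rw [← hp]
  exact ev_mem_AN hG hs p

theorem w_self_mono {s t : ℝ≥0} (hst : s ≤ t) (h1 : 1 ≤ s) (ε : ℝ≥0) (n : ℤ) :
    w t ε ε n ≤ w s ε ε n := by
  have hs0 : s ≠ 0 := (zero_lt_one.trans_le h1).ne'
  have ht1 : 1 ≤ t := h1.trans hst
  rcases le_total 0 n with hn | hn
  · refine (min_le_left _ _).trans (le_min ?_ ?_)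
    · refine mul_le_mul_right ?_ _
      rw [zpow_neg, zpow_neg]
      exact inv_anti₀ (zpow_pos (zero_lt_one.trans_le h1) _) (zpow_le_zpow_left₀ hn zero_le hst)
    · refine mul_le_mul_right ?_ _
      calc t ^ (-n) ≤ 1 := zpow_le_one_of_nonpos₀ ht1 (by omega)
        _ ≤ s ^ n := one_le_zpow₀ h1 hn
  · refine (min_le_right _ _).trans (le_min ?_ ?_)
    · refine mul_le_mul_right ?_ _
      calc t ^ n ≤ 1 := zpow_le_one_of_nonpos₀ ht1 hn
        _ ≤ s ^ (-n) := one_le_zpow₀ h1 (by omega)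
    · refine mul_le_mul_right ?_ _
      have e1 : t ^ n = (t ^ (-n))⁻¹ := by rw [zpow_neg, inv_inv]
      have e2 : s ^ n = (s ^ (-n))⁻¹ := by rw [zpow_neg, inv_inv]
      rw [e1, e2]
      exact inv_anti₀ (zpow_pos (zero_lt_one.trans_le h1) _)
        (zpow_le_zpow_left₀ (by omega) zero_le hst)

/-- Shrinking the annulus. -/
theorem AN_anti (hG : IsGauss k y) {s t : ℝ≥0} (hs : 1 < s) (hst : s ≤ t) :
    AN hG (hs.trans_le hst) ≤ AN hG hs := by
  intro x hx ε hε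
  obtain ⟨p, hp⟩ := hx ε hε
  exact ⟨p, Box_mono (w_self_mono hst hs.le ε) hp⟩

/-! ### Completeness -/

theorem hasSum_mem_B [CompleteSpace E] (hG : IsGauss k y) {s : ℝ≥0} (hs : 1 < s) {α β θ : ℝ≥0}
    (hθ : θ < 1) {q : ℕ → E} (hq : ∀ i, q i ∈ B k y s (θ ^ i * α) (θ ^ i * β)) :
    ∃ Q : E, HasSum q Q ∧
      ∀ m, Q - ∑ i ∈ Finset.range m, q i ∈ B k y s (θ ^ m * α) (θ ^ m * β) := by
  have hθ' : (θ : ℝ) < 1 := by exact_mod_cast hθ
  have hsum : Summable q := by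
    refine Summable.of_norm_bounded (g := fun i => (θ : ℝ) ^ i * (max α β : ℝ≥0)) ?_ fun i => ?_
    · exact (summable_geometric_of_lt_one θ.2 hθ').mul_right _
    · have := norm_le_of_mem_B hG hs.le (r := θ ^ i * max α β)
        (mul_le_mul_right (le_max_left _ _) _) (mul_le_mul_right (le_max_right _ _) _) (hq i)
      simpa using this
  refine ⟨∑' i, q i, hsum.hasSum, fun m => ?_⟩
  have h1 : Tendsto (fun n => ∑ i ∈ Finset.range n, q i - ∑ i ∈ Finset.range m, q i) atTop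
      (𝓝 (∑' i, q i - ∑ i ∈ Finset.range m, q i)) :=
    hsum.hasSum.tendsto_sum_nat.sub_const _
  refine (isClosed_B s _ _).mem_of_tendsto h1 (eventually_atTop.2 ⟨m, fun n hn => ?_⟩)
  rw [Finset.sum_range_sub_sum_range hn]
  refine AddSubgroup.sum_mem _ fun i hi => ?_
  rw [Finset.mem_filter, Finset.mem_range] at hi
  have : θ ^ i ≤ θ ^ m := pow_le_pow_right_of_le_one' hθ.le hi.2
  exact B_mono (mul_le_mul_left this _) (mul_le_mul_left this _) (hq i)

theorem hasSum_mem_AN [CompleteSpace E] (hG : IsGauss k y) {s : ℝ≥0} (hs : 1 < s) {t θ : ℝ≥0}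
    (hθ : θ < 1) {q : ℕ → E} (hq : ∀ i, q i ∈ B k y s (θ ^ i * t) (θ ^ i * t))
    (hq' : ∀ i, q i ∈ AN hG hs) : ∃ Q ∈ AN hG hs, HasSum q Q ∧ Q ∈ B k y s t t := by
  obtain ⟨Q, h1, h2⟩ := hasSum_mem_B hG hs hθ hq
  refine ⟨Q, fun ε hε => ?_, h1, by simpa using h2 0⟩
  obtain ⟨m, hm⟩ : ∃ m : ℕ, θ ^ m * t ≤ ε := by
    have hθ' : (θ : ℝ) < 1 := by exact_mod_cast hθ
    have : Tendsto (fun m : ℕ => (θ : ℝ) ^ m * t) atTop (𝓝 0) := by
      simpa using (tendsto_pow_atTop_nhds_zero_of_lt_one θ.2 hθ').mul_const (t : ℝ)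
    obtain ⟨m, hm⟩ := (this.eventually (gt_mem_nhds (show (0:ℝ) < ε by exact_mod_cast hε))).exists
    exact ⟨m, by exact_mod_cast hm.le⟩
  have h3 : ∑ i ∈ Finset.range m, q i ∈ AN hG hs := sum_mem fun i _ => hq' i
  obtain ⟨p, hp⟩ := h3 ε hε
  refine ⟨p, ?_⟩
  have : Q - ev k y p = (Q - ∑ i ∈ Finset.range m, q i) + (∑ i ∈ Finset.range m, q i - ev k y p) := by
    ring
  rw [this]
  exact add_mem (B_mono hm hm (h2 m)) hp

/-! ### Newton data -/

/-- Newton data of `f`: `f = ev p + u`, the polynomial `p` has a dominating last coefficient at `μ`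
for `|y| = s` and a dominating first coefficient at `ν` for `|y| = 1/s`; `θ < 1` bounds the rest. -/
structure ND (k : Type*) {E : Type*} [NormedField k] [NormedField E] [NormedAlgebra k E] (y : E)
    (s : ℝ≥0) (f : E) (δ : ℝ≥0) (ν μ : ℤ) (p : ℤ →₀ k) (u : E) (θ α β : ℝ≥0) : Prop where
  hθ0 : 0 < θ
  hθ : θ < 1
  hα : 0 < α
  hβ : 0 < β
  le : ν ≤ μ
  eq : f = ev k y p + u
  bd : ∀ n, ‖p n‖₊ ≤ w s α β n
  out : ∀ n, n < ν ∨ μ < n → ‖p n‖₊ ≤ θ * w s α β n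
  hμ : ‖p μ‖₊ = α * s ^ (-μ)
  hν : ‖p ν‖₊ = β * s ^ ν
  hu : u ∈ B k y s (θ * α) (θ * β)
  hu' : u ∈ B k y s δ δ

theorem exists_newton_aux {s : ℝ≥0} (hs : 1 < s) (p : ℤ →₀ k) (hp : p ≠ 0) :
    ∃ (ν μ : ℤ) (α β : ℝ≥0), 0 < α ∧ 0 < β ∧ ν ≤ μ ∧ (∀ n, ‖p n‖₊ ≤ w s α β n) ∧
      (∀ n, n < ν ∨ μ < n → ‖p n‖₊ < w s α β n) ∧ ‖p μ‖₊ = α * s ^ (-μ) ∧
      ‖p ν‖₊ = β * s ^ ν := by
  classical
  have hs0 : s ≠ 0 := (zero_lt_one.trans hs).ne'
  have hsp : 0 < s := zero_lt_one.trans hs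
  have hS : p.support.Nonempty := Finsupp.support_nonempty_iff.2 hp
  obtain ⟨m0, hm0, hmax⟩ := Finset.exists_max_image p.support (fun n => ‖p n‖₊ * s ^ n) hS
  obtain ⟨n0, hn0, hmax'⟩ := Finset.exists_max_image p.support (fun n => ‖p n‖₊ * s ^ (-n)) hS
  set α := ‖p m0‖₊ * s ^ m0 with hα
  set β := ‖p n0‖₊ * s ^ (-n0) with hβ
  have hα0 : 0 < α := mul_pos (nnnorm_pos.2 (Finsupp.mem_support_iff.1 hm0)) (zpow_pos hsp _)
  have hβ0 : 0 < β := mul_pos (nnnorm_pos.2 (Finsupp.mem_support_iff.1 hn0)) (zpow_pos hsp _)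
  set T := p.support.filter fun n => ‖p n‖₊ * s ^ n = α with hT
  set T' := p.support.filter fun n => ‖p n‖₊ * s ^ (-n) = β with hT'
  have hTn : T.Nonempty := ⟨m0, Finset.mem_filter.2 ⟨hm0, rfl⟩⟩
  have hTn' : T'.Nonempty := ⟨n0, Finset.mem_filter.2 ⟨hn0, rfl⟩⟩
  set μ := T.max' hTn with hμ
  set ν := T'.min' hTn' with hν
  have hμT : μ ∈ T := T.max'_mem hTn
  have hνT : ν ∈ T' := T'.min'_mem hTn'
  have zz : ∀ n : ℤ, s ^ n * s ^ (-n) = 1 := fun n => by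
    rw [← zpow_add₀ hs0, add_neg_cancel, zpow_zero]
  have hle : ∀ n, ‖p n‖₊ * s ^ n ≤ α := by
    intro n
    by_cases hn : n ∈ p.support
    · exact hmax n hn
    · rw [Finsupp.notMem_support_iff.1 hn]; simp
  have hle' : ∀ n, ‖p n‖₊ * s ^ (-n) ≤ β := by
    intro n
    by_cases hn : n ∈ p.support
    · exact hmax' n hn
    · rw [Finsupp.notMem_support_iff.1 hn]; simp
  have c1 : ∀ n, ‖p n‖₊ = ‖p n‖₊ * s ^ n * s ^ (-n) := fun n => by rw [mul_assoc, zz, mul_one]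
  have c2 : ∀ n, ‖p n‖₊ = ‖p n‖₊ * s ^ (-n) * s ^ n := fun n => by
    rw [mul_assoc, mul_comm (s ^ (-n)), zz, mul_one]
  have b1 : ∀ n, ‖p n‖₊ ≤ α * s ^ (-n) := fun n => by
    rw [c1 n]; exact mul_le_mul_left (hle n) _
  have b2 : ∀ n, ‖p n‖₊ ≤ β * s ^ n := fun n => by
    rw [c2 n]; exact mul_le_mul_left (hle' n) _
  have hpμ : ‖p μ‖₊ = α * s ^ (-μ) := by
    have := (Finset.mem_filter.1 hμT).2
    rw [c1 μ, this]
  have hpν : ‖p ν‖₊ = β * s ^ ν := by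
    have := (Finset.mem_filter.1 hνT).2
    rw [c2 ν, this]
  have hlt : ∀ n, n < ν ∨ μ < n → ‖p n‖₊ < w s α β n := by
    rintro n (hn | hn)
    · have h1 : ‖p n‖₊ * s ^ (-n) < β := by
        refine lt_of_le_of_ne (hle' n) fun h => ?_
        by_cases hnS : n ∈ p.support
        · exact absurd (T'.min'_le n (Finset.mem_filter.2 ⟨hnS, h⟩)) (not_le.2 hn)
        · rw [Finsupp.notMem_support_iff.1 hnS, nnnorm_zero, zero_mul] at h
          exact hβ0.ne h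
      have h2 : ‖p n‖₊ < β * s ^ n := by
        rw [c2 n]; exact mul_lt_mul_of_pos_right h1 (zpow_pos hsp _)
      refine lt_min (h2.trans_le ?_) h2
      have h3 : β = ‖p ν‖₊ * s ^ (-ν) := ((Finset.mem_filter.1 hνT).2).symm
      rw [h3]
      calc ‖p ν‖₊ * s ^ (-ν) * s ^ n ≤ α * s ^ (-ν) * s ^ (-ν) * s ^ n :=
            mul_le_mul_left (mul_le_mul_left (b1 ν) _) _
        _ = α * s ^ (-ν + -ν + n) := by
            rw [zpow_add₀ hs0, zpow_add₀ hs0]; ring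
        _ ≤ α * s ^ (-n) := mul_le_mul_right (zpow_le_zpow_right₀ hs.le (by omega)) _
    · have h1 : ‖p n‖₊ * s ^ n < α := by
        refine lt_of_le_of_ne (hle n) fun h => ?_
        by_cases hnS : n ∈ p.support
        · exact absurd (T.le_max' n (Finset.mem_filter.2 ⟨hnS, h⟩)) (not_le.2 hn)
        · rw [Finsupp.notMem_support_iff.1 hnS, nnnorm_zero, zero_mul] at h
          exact hα0.ne h
      have h2 : ‖p n‖₊ < α * s ^ (-n) := by
        rw [c1 n]; exact mul_lt_mul_of_pos_right h1 (zpow_pos hsp _)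
      refine lt_min h2 (h2.trans_le ?_)
      have h3 : α = ‖p μ‖₊ * s ^ μ := ((Finset.mem_filter.1 hμT).2).symm
      rw [h3]
      calc ‖p μ‖₊ * s ^ μ * s ^ (-n) ≤ β * s ^ μ * s ^ μ * s ^ (-n) :=
            mul_le_mul_left (mul_le_mul_left (b2 μ) _) _
        _ = β * s ^ (μ + μ + -n) := by
            rw [zpow_add₀ hs0, zpow_add₀ hs0]; ring
        _ ≤ β * s ^ n := mul_le_mul_right (zpow_le_zpow_right₀ hs.le (by omega)) _
  refine ⟨ν, μ, α, β, hα0, hβ0, ?_, fun n => le_min (b1 n) (b2 n), hlt, hpμ, hpν⟩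
  by_contra hcon
  push Not at hcon
  have h1 := hlt ν (Or.inr hcon)
  rw [hpν] at h1
  exact absurd h1 (not_lt.2 (min_le_right _ _))

theorem exists_newton (hG : IsGauss k y) {s : ℝ≥0} (hs : 1 < s) {f : E} (hf : f ∈ AN hG hs)
    (hf0 : f ≠ 0) {δ : ℝ≥0} (hδ : 0 < δ) :
    ∃ ν μ p u θ α β, ND k y s f δ ν μ p u θ α β := by
  classical
  have hsp : 0 < s := zero_lt_one.trans hs
  have hfn : 0 < ‖f‖₊ := nnnorm_pos.2 hf0
  set ε0 := ‖f‖₊ / 2 with hε0
  have hε0p : 0 < ε0 := div_pos hfn two_pos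
  have hε0f : ε0 < ‖f‖₊ := NNReal.half_lt_self hfn.ne'
  obtain ⟨p0, hp0⟩ := hf ε0 hε0p
  obtain ⟨n0, hn0⟩ : ∃ n0, ε0 < ‖p0 n0‖₊ := by
    by_contra hcon
    push Not at hcon
    have h1 : ‖ev k y p0‖ ≤ ε0 := norm_le_of_mem_Box hG (b := fun _ => ε0) (fun _ => le_rfl)
      (ev_mem_Box hcon)
    have h2 := norm_le_of_mem_B hG hs.le le_rfl le_rfl hp0
    have h3 : ‖f‖ ≤ ε0 := by
      have : f = (f - ev k y p0) + ev k y p0 := by ring
      rw [this]
      exact (nadd _ _).trans (max_le h2 h1)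
    exact absurd hε0f (not_lt.2 (by exact_mod_cast h3))
  set L := w s ‖p0 n0‖₊ ‖p0 n0‖₊ n0 with hL
  set L' := ‖p0 n0‖₊ * min (s ^ n0) (s ^ (-n0)) with hL'
  have ha0 : 0 < ‖p0 n0‖₊ := hε0p.trans hn0
  have hL'0 : 0 < L' := mul_pos ha0 (lt_min (zpow_pos hsp _) (zpow_pos hsp _))
  set ε1 := min (min ε0 δ) (L' / 2) with hε1
  have hε1p : 0 < ε1 := lt_min (lt_min hε0p hδ) (div_pos hL'0 two_pos)
  have hε1L : ε1 < L' := (min_le_right _ _).trans_lt (NNReal.half_lt_self hL'0.ne')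
  obtain ⟨p, hp⟩ := hf ε1 hε1p
  have hpn0 : ‖p0 n0‖₊ ≤ ‖p n0‖₊ := by
    have h1 : ev k y (p0 - p) ∈ B k y s ε0 ε0 := by
      have : ev k y (p0 - p) = (f - ev k y p) - (f - ev k y p0) := by rw [map_sub]; ring
      rw [this]
      have h2 : ε1 ≤ ε0 := (min_le_left _ _).trans (min_le_left _ _)
      exact sub_mem (B_mono h2 h2 hp) hp0
    have h2 := (ev_mem_B_iff hG).1 h1 n0
    have h3 : ‖p0 n0 - p n0‖₊ ≤ ε0 := h2.trans (w_le hs.le le_rfl le_rfl _)
    rcases le_max_iff.1 (nnsub_k' E (p0 n0) (p n0)) with h | h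
    · exact h
    · exact absurd hn0 (not_lt.2 (h.trans h3))
  have hp0' : p ≠ 0 := by
    rintro rfl
    rw [Finsupp.zero_apply, nnnorm_zero] at hpn0
    exact absurd ha0 (not_lt.2 hpn0)
  obtain ⟨ν, μ, α, β, hα, hβ, hνμ, hbd, hout, hμ, hν⟩ := exists_newton_aux hs p hp0'
  have hs0 : s ≠ 0 := hsp.ne'
  have zz : ∀ n : ℤ, s ^ n * s ^ (-n) = 1 := fun n => by
    rw [← zpow_add₀ hs0, add_neg_cancel, zpow_zero]
  have hαL : ε1 < α := by
    refine hε1L.trans_le ?_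
    have h1 := (hbd n0).trans (min_le_left _ _)
    calc L' ≤ ‖p0 n0‖₊ * s ^ n0 := mul_le_mul_right (min_le_left _ _) _
      _ ≤ ‖p n0‖₊ * s ^ n0 := mul_le_mul_left hpn0 _
      _ ≤ α * s ^ (-n0) * s ^ n0 := mul_le_mul_left h1 _
      _ = α := by rw [mul_assoc, mul_comm (s ^ (-n0)), zz, mul_one]
  have hβL : ε1 < β := by
    refine hε1L.trans_le ?_
    have h1 := (hbd n0).trans (min_le_right _ _)
    calc L' ≤ ‖p0 n0‖₊ * s ^ (-n0) := mul_le_mul_right (min_le_right _ _) _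
      _ ≤ ‖p n0‖₊ * s ^ (-n0) := mul_le_mul_left hpn0 _
      _ ≤ β * s ^ n0 * s ^ (-n0) := mul_le_mul_left h1 _
      _ = β := by rw [mul_assoc, zz, mul_one]
  set O := p.support.filter fun n => n < ν ∨ μ < n with hO
  set θ := max (max (O.sup fun n => ‖p n‖₊ / w s α β n) (1 / 2)) (max (ε1 / α) (ε1 / β)) with hθ
  have hwp : ∀ n, 0 < w s α β n := w_pos hsp hα hβ
  have hθ1 : θ < 1 := by
    refine max_lt (max_lt ?_ (by norm_num)) (max_lt ?_ ?_)
    · rw [Finset.sup_lt_iff (by simp)]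
      intro n hn
      rw [div_lt_one (hwp n)]
      exact hout n (Finset.mem_filter.1 hn).2
    · rwa [div_lt_one hα]
    · rwa [div_lt_one hβ]
  have hε1α : ε1 ≤ θ * α := by
    have : ε1 / α ≤ θ := (le_max_left _ _).trans (le_max_right _ _)
    rwa [div_le_iff₀ hα] at this
  have hε1β : ε1 ≤ θ * β := by
    have : ε1 / β ≤ θ := (le_max_right _ _).trans (le_max_right _ _)
    rwa [div_le_iff₀ hβ] at this
  refine ⟨ν, μ, p, f - ev k y p, θ, α, β, ?_, hθ1, hα, hβ, hνμ, by ring, hbd, ?_, hμ, hν, ?_, ?_⟩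
  · exact lt_of_lt_of_le (by norm_num : (0:ℝ≥0) < 1 / 2) ((le_max_right _ _).trans (le_max_left _ _))
  · intro n hn
    by_cases hnS : n ∈ p.support
    · have h1 : ‖p n‖₊ / w s α β n ≤ O.sup fun n => ‖p n‖₊ / w s α β n :=
        Finset.le_sup (f := fun n => ‖p n‖₊ / w s α β n) (Finset.mem_filter.2 ⟨hnS, hn⟩)
      have h2 : ‖p n‖₊ / w s α β n ≤ θ := h1.trans ((le_max_left _ _).trans (le_max_left _ _))
      rwa [div_le_iff₀ (hwp n)] at h2
    · rw [Finsupp.notMem_support_iff.1 hnS]; simp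
  · exact B_mono hε1α hε1β hp
  · have : ε1 ≤ δ := (min_le_left _ _).trans (min_le_right _ _)
    exact B_mono this this hp

/-! ### Division -/

/-- Division of monomials (one direction). -/
theorem div_mono {Y : E} (hY : Y ≠ 0) {s : ℝ≥0} (hs : s ≠ 0) (D : AddSubgroup E) (P : ℤ →₀ k)
    (ν μ : ℤ) (hsupp : ∀ n, P n ≠ 0 → ν ≤ n ∧ n ≤ μ) {A : ℝ≥0} (hA : 0 < A)
    (hP : ∀ n, ‖P n‖₊ ≤ A * s ^ (-n)) (hlead : ‖P μ‖₊ = A * s ^ (-μ)) (t : ℝ≥0)
    (hD1 : ∀ m : ℤ, 0 ≤ m → ∀ c : k, ‖c‖₊ ≤ t * s ^ (-m) → ev k Y P * (c • Y ^ m) ∈ D)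
    (hD2 : ∀ m : ℤ, ν ≤ m → m ≤ μ → ∀ c : k, c • Y ^ m ∈ D) (j : ℕ) :
    ∀ n : ℤ, ν ≤ n → n ≤ μ + j → ∀ c : k, ‖c‖₊ ≤ t * (A * s ^ (-n)) → c • Y ^ n ∈ D := by
  classical
  induction j with
  | zero =>
    intro n h1 h2 c _
    exact hD2 n h1 (by simpa using h2) c
  | succ j ih =>
    intro n h1 h2 c hc
    rcases lt_or_ge μ n with h3 | h3
    swap
    · exact hD2 n h1 h3 c
    have hPμ : P μ ≠ 0 := by
      rw [← nnnorm_pos, hlead]
      exact mul_pos hA (zpow_pos (pos_iff_ne_zero.2 hs) _)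
    have hPμs : μ ∈ P.support := Finsupp.mem_support_iff.2 hPμ
    set d := c * (P μ)⁻¹ with hd
    have e1 : ev k Y P * (d • Y ^ (n - μ)) = c • Y ^ n +
        ∑ i ∈ P.support.erase μ, (d * P i) • Y ^ (n - μ + i) := by
      rw [ev_apply, Finsupp.sum, Finset.sum_mul, ← Finset.add_sum_erase _ _ hPμs]
      congr 1
      · rw [smul_mul_smul_comm, ← zpow_add₀ hY, hd, mul_comm c, mul_inv_cancel_left₀ hPμ]
        congr 2; ring
      · refine Finset.sum_congr rfl fun i _ => ?_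
        rw [smul_mul_smul_comm, ← zpow_add₀ hY, mul_comm (P i) d]
        congr 2; ring
    have hdn : ‖d‖₊ ≤ t * s ^ (-(n - μ)) := by
      rw [hd, nnnorm_mul, nnnorm_inv, hlead]
      have hpos : 0 < A * s ^ (-μ) := mul_pos hA (zpow_pos (pos_iff_ne_zero.2 hs) _)
      rw [mul_inv_le_iff₀ hpos]
      refine hc.trans (le_of_eq ?_)
      have : s ^ (-n) = s ^ (-(n - μ)) * s ^ (-μ) := by
        rw [← zpow_add₀ hs]; congr 1; ring
      rw [this]; ring
    have e2 : c • Y ^ n = ev k Y P * (d • Y ^ (n - μ)) -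
        ∑ i ∈ P.support.erase μ, (d * P i) • Y ^ (n - μ + i) := by rw [e1]; ring
    rw [e2]
    refine sub_mem (hD1 _ (by omega) _ hdn) (AddSubgroup.sum_mem _ fun i hi => ?_)
    rw [Finset.mem_erase, Finsupp.mem_support_iff] at hi
    have hi2 := hsupp i hi.2
    have hi3 : i < μ := lt_of_le_of_ne hi2.2 hi.1
    refine ih (n - μ + i) (by omega) (by push_cast at h2 ⊢; omega) _ ?_
    calc ‖d * P i‖₊ = ‖d‖₊ * ‖P i‖₊ := nnnorm_mul _ _
      _ ≤ (t * s ^ (-(n - μ))) * (A * s ^ (-i)) := mul_le_mul' hdn (hP i)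
      _ = t * (A * s ^ (-(n - μ + i))) := by
        have : s ^ (-(n - μ + i)) = s ^ (-(n - μ)) * s ^ (-i) := by
          rw [← zpow_add₀ hs]; congr 1; ring
        rw [this]; ring

/-- Span of `y ^ i`, `ν ≤ i ≤ μ`. -/
def VV (k : Type*) {E : Type*} [NormedField k] [NormedField E] [NormedAlgebra k E] (y : E)
    (ν μ : ℤ) : Submodule k E :=
  Submodule.span k (Set.range fun i : Finset.Icc ν μ => y ^ (i : ℤ))

theorem smul_mem_VV {ν μ n : ℤ} (h1 : ν ≤ n) (h2 : n ≤ μ) (c : k) : c • y ^ n ∈ VV k y ν μ :=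
  Submodule.smul_mem _ _ (Submodule.subset_span ⟨⟨n, Finset.mem_Icc.2 ⟨h1, h2⟩⟩, rfl⟩)

theorem exists_of_mem_VV {ν μ : ℤ} {x : E} (hx : x ∈ VV k y ν μ) :
    ∃ r : ℤ →₀ k, ev k y r = x ∧ ∀ n, r n ≠ 0 → ν ≤ n ∧ n ≤ μ := by
  classical
  refine Submodule.span_induction ?_ ?_ ?_ ?_ hx
  · rintro _ ⟨⟨i, hi⟩, rfl⟩
    refine ⟨Finsupp.single i 1, by rw [ev_single, one_smul], fun n hn => ?_⟩
    rw [Finsupp.single_apply] at hn
    have : i = n := by by_contra h; exact hn (if_neg h)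
    rw [← this]; exact Finset.mem_Icc.1 hi
  · exact ⟨0, by simp, by simp⟩
  · rintro _ _ _ _ ⟨p, rfl, hp⟩ ⟨q, rfl, hq⟩
    refine ⟨p + q, map_add _ _ _, fun n hn => ?_⟩
    by_cases h : p n = 0
    · refine hq n fun h' => hn ?_
      rw [Finsupp.add_apply, h, h', add_zero]
    · exact hp n h
  · rintro c _ _ ⟨p, rfl, hp⟩
    refine ⟨c • p, map_smul _ _ _, fun n hn => hp n fun h => hn ?_⟩
    rw [Finsupp.smul_apply, h, smul_zero]

theorem VV_le_AN (hG : IsGauss k y) {s : ℝ≥0} (hs : 1 < s) {ν μ : ℤ} {x : E}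
    (hx : x ∈ VV k y ν μ) : x ∈ AN hG hs := by
  obtain ⟨r, rfl, -⟩ := exists_of_mem_VV hx
  exact ev_mem_AN hG hs r

theorem isClosed_VV [CompleteSpace k] {π : k} (hπ : IsUnif π) (ν μ : ℤ) :
    IsClosed (VV k y ν μ : Set E) := by
  let inst : NontriviallyNormedField k :=
    { (inferInstance : NormedField k) with
      non_trivial := ⟨π⁻¹, by
        rw [norm_inv]; exact (one_lt_inv₀ hπ.pos).2 hπ.lt_one⟩ }
  have hfin : FiniteDimensional k (VV k y ν μ) :=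
    FiniteDimensional.span_of_finite k (Set.finite_range _)
  exact Submodule.closed_of_finiteDimensional _

/-- the mirror `n ↦ p (-n)` -/
noncomputable def mir (p : ℤ →₀ k) : ℤ →₀ k := Finsupp.equivMapDomain (Equiv.neg ℤ) p

theorem mir_apply (p : ℤ →₀ k) (n : ℤ) : mir p n = p (-n) := by
  rw [mir, Finsupp.equivMapDomain_apply]; rfl

theorem ev_mir (p : ℤ →₀ k) : ev k y⁻¹ (mir p) = ev k y p := by
  rw [ev, mir, Finsupp.linearCombination_equivMapDomain]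
  congr 2
  funext n
  simp [Equiv.neg_apply]

variable {s : ℝ≥0} {f : E} {δ : ℝ≥0} {ν μ : ℤ} {p : ℤ →₀ k} {u : E} {θ α β : ℝ≥0}

/-- Division of Laurent polynomials by the polynomial part of `p` supported in `[ν, μ]`. -/
theorem ND.div_poly (hG : IsGauss k y) (hs : 1 < s) (h : ND k y s f δ ν μ p u θ α β)
    (P : ℤ →₀ k) (hP : ∀ n, P n = if ν ≤ n ∧ n ≤ μ then p n else 0) (t : ℝ≥0) (g : ℤ →₀ k)
    (hg : ∀ n, ‖g n‖₊ ≤ t * w s α β n) :
    ∃ q : E, q ∈ AN hG hs ∧ q ∈ B k y s t t ∧ ∃ r ∈ VV k y ν μ, ev k y g = ev k y P * q + r := by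
  have hsp : 0 < s := zero_lt_one.trans hs
  have hs0 : s ≠ 0 := hsp.ne'
  -- the group `D`
  let Q : AddSubgroup E := (AN hG hs).toSubmodule.toAddSubgroup ⊓ B k y s t t
  let D : AddSubgroup E := (Q.map (AddMonoidHom.mulLeft (ev k y P))) ⊔ (VV k y ν μ).toAddSubgroup
  have hD1 : ∀ (m : ℤ) (c : k), ‖c‖₊ ≤ w s t t m → ev k y P * (c • y ^ m) ∈ D := by
    intro m c hc
    refine AddSubgroup.mem_sup_left ⟨c • y ^ m, ⟨?_, smul_mem_Box hc⟩, rfl⟩
    exact (AN hG hs).smul_mem (zpow_mem_AN hG hs m) c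
  have hD2 : ∀ m : ℤ, ν ≤ m → m ≤ μ → ∀ c : k, c • y ^ m ∈ D := fun m h1 h2 c =>
    AddSubgroup.mem_sup_right (smul_mem_VV h1 h2 c)
  have wpos : ∀ m : ℤ, 0 ≤ m → t * s ^ (-m) ≤ w s t t m := fun m hm =>
    le_min le_rfl (mul_le_mul_right (zpow_le_zpow_right₀ hs.le (by omega)) _)
  have wneg : ∀ m : ℤ, 0 ≤ m → t * s ^ (-m) ≤ w s t t (-m) := fun m hm =>
    le_min (mul_le_mul_right (zpow_le_zpow_right₀ hs.le (by omega)) _) le_rfl
  have key : ∀ (n : ℤ) (c : k), ‖c‖₊ ≤ t * w s α β n → c • y ^ n ∈ D := by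
    intro n c hc
    rcases lt_or_ge μ n with h1 | h1
    · refine div_mono hG.ne_zero hs0 D P ν μ ?_ h.hα ?_ ?_ t ?_ hD2 (n - μ).toNat n
        (h.le.trans h1.le) (by omega) c (hc.trans (mul_le_mul_right (min_le_left _ _) _))
      · intro i hi
        by_contra hcon
        exact hi (by rw [hP, if_neg hcon])
      · intro i
        rw [hP]
        split_ifs
        · exact (h.bd i).trans (min_le_left _ _)
        · simp
      · rw [hP, if_pos ⟨h.le, le_rfl⟩, h.hμ]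
      · intro m hm c hc
        exact hD1 m c (hc.trans (wpos m hm))
    rcases lt_or_ge n ν with h2 | h2
    · have hy' : (y⁻¹ : E) ≠ 0 := inv_ne_zero hG.ne_zero
      have e : c • y ^ n = c • (y⁻¹) ^ (-n) := by rw [inv_zpow', neg_neg]
      rw [e]
      refine div_mono hy' hs0 D (mir P) (-μ) (-ν) ?_ h.hβ ?_ ?_ t ?_ ?_ (ν - n).toNat
        (-n) ?_ ?_ c (hc.trans (mul_le_mul_right ?_ _))
      · intro i hi
        rw [mir_apply] at hi
        by_contra hcon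
        exact hi (by rw [hP, if_neg (by omega)])
      · intro i
        rw [mir_apply, hP]
        split_ifs
        · have := (h.bd (-i)).trans (min_le_right _ _)
          exact this
        · simp
      · rw [mir_apply, neg_neg, hP, if_pos ⟨le_rfl, h.le⟩, h.hν]
      · intro m hm c hc
        rw [ev_mir]
        have e' : (y⁻¹ : E) ^ m = y ^ (-m) := by rw [inv_zpow']
        rw [e']
        exact hD1 (-m) c (hc.trans (wneg m hm))
      · intro m h3 h4 c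
        have e' : (y⁻¹ : E) ^ m = y ^ (-m) := by rw [inv_zpow']
        rw [e']
        exact hD2 (-m) (by omega) (by omega) c
      · have := h.le; omega
      · omega
      · rw [neg_neg]; exact min_le_right _ _
    · exact hD2 n h2 h1 c
  have hgD : ev k y g ∈ D := by
    rw [ev_apply]
    exact AddSubgroup.sum_mem _ fun n _ => key n _ (hg n)
  obtain ⟨_, ⟨q, ⟨hq1, hq2⟩, rfl⟩, r, hr, e⟩ := AddSubgroup.mem_sup.1 hgD
  exact ⟨q, hq1, hq2, r, hr, e.symm⟩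

/-- One step of the division by `f`. -/
theorem ND.approx_div (hG : IsGauss k y) (hs : 1 < s) (h : ND k y s f δ ν μ p u θ α β)
    (hf : f ∈ AN hG hs) {t : ℝ≥0} (ht : 0 < t) {g : E} (hg : g ∈ AN hG hs)
    (hgB : g ∈ B k y s (t * α) (t * β)) :
    ∃ q : E, q ∈ AN hG hs ∧ q ∈ B k y s t t ∧ ∃ r ∈ VV k y ν μ,
      g - (f * q + r) ∈ AN hG hs ∧ g - (f * q + r) ∈ B k y s (θ * t * α) (θ * t * β) := by
  classical
  have hsp : 0 < s := zero_lt_one.trans hs
  have hs0 : s ≠ 0 := hsp.ne'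
  set P : ℤ →₀ k := p.filter (fun n => ν ≤ n ∧ n ≤ μ) with hPdef
  have hP : ∀ n, P n = if ν ≤ n ∧ n ≤ μ then p n else 0 := fun n => by
    rw [hPdef, Finsupp.filter_apply]
  -- `f = ev P + u'`
  have hu' : f - ev k y P ∈ B k y s (θ * α) (θ * β) := by
    have e : f - ev k y P = ev k y (p - P) + u := by rw [h.eq, map_sub]; ring
    rw [e]
    refine add_mem ((ev_mem_B_iff hG).2 fun n => ?_) h.hu
    rw [← mul_w, Finsupp.sub_apply, hP]
    split_ifs with hn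
    · rw [sub_self, nnnorm_zero]; exact zero_le
    · rw [sub_zero]; exact h.out n (by omega)
  set ε := θ * t * min α β with hε
  have hεp : 0 < ε := mul_pos (mul_pos h.hθ0 ht) (lt_min h.hα h.hβ)
  obtain ⟨g0, hg0⟩ := hg ε hεp
  have hεα : ε ≤ θ * t * α := mul_le_mul_right (min_le_left _ _) _
  have hεβ : ε ≤ θ * t * β := mul_le_mul_right (min_le_right _ _) _
  have hθt : θ * t ≤ t := by
    calc θ * t ≤ 1 * t := mul_le_mul_left h.hθ.le _
      _ = t := one_mul t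
  have hg0B : ev k y g0 ∈ B k y s (t * α) (t * β) := by
    have e : ev k y g0 = g - (g - ev k y g0) := by ring
    rw [e]
    exact sub_mem hgB (B_mono (hεα.trans (mul_le_mul_left hθt _))
      (hεβ.trans (mul_le_mul_left hθt _)) hg0)
  obtain ⟨q, hq1, hq2, r, hr, e⟩ := h.div_poly hG hs P hP t g0 fun n => by
    rw [mul_w]; exact (ev_mem_B_iff hG).1 hg0B n
  refine ⟨q, hq1, hq2, r, hr, ?_, ?_⟩
  · exact sub_mem hg (add_mem (mul_mem hf hq1) (VV_le_AN hG hs hr))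
  · have e2 : g - (f * q + r) = (g - ev k y g0) - (f - ev k y P) * q := by
      rw [e]; ring
    rw [e2]
    refine sub_mem (B_mono hεα hεβ hg0) ?_
    refine B_mono (le_of_eq ?_) (le_of_eq ?_) (mul_mem_B hG hs0 hu' hq2) <;> ring

/-- **Division on the annulus.** -/
theorem ND.division [CompleteSpace k] [CompleteSpace E] {π : k} (hπ : IsUnif π)
    (hG : IsGauss k y) (hs : 1 < s) (h : ND k y s f δ ν μ p u θ α β)
    (hf : f ∈ AN hG hs) {g : E} (hg : g ∈ AN hG hs) :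
    ∃ q ∈ AN hG hs, ∃ r ∈ VV k y ν μ, g = f * q + r := by
  have hsp : 0 < s := zero_lt_one.trans hs
  obtain ⟨t, ht, hgB⟩ : ∃ t : ℝ≥0, 0 < t ∧ g ∈ B k y s (t * α) (t * β) := by
    obtain ⟨t0, ht0⟩ := IsAN.exists_B hs hg
    refine ⟨(t0 + 1) / min α β, div_pos (by positivity) (lt_min h.hα h.hβ), B_mono ?_ ?_ ht0⟩
    · rw [div_mul_eq_mul_div, le_div_iff₀ (lt_min h.hα h.hβ)]
      exact mul_le_mul' le_self_add (min_le_left _ _)
    · rw [div_mul_eq_mul_div, le_div_iff₀ (lt_min h.hα h.hβ)]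
      exact mul_le_mul' le_self_add (min_le_right _ _)
  have H : ∀ (i : ℕ) (z : E), z ∈ AN hG hs ∧ z ∈ B k y s (θ ^ i * t * α) (θ ^ i * t * β) →
      ∃ q r : E, q ∈ AN hG hs ∧ q ∈ B k y s (θ ^ i * t) (θ ^ i * t) ∧ r ∈ VV k y ν μ ∧
        z - (f * q + r) ∈ AN hG hs ∧
        z - (f * q + r) ∈ B k y s (θ ^ (i + 1) * t * α) (θ ^ (i + 1) * t * β) := by
    rintro i z ⟨hz1, hz2⟩
    obtain ⟨q, h1, h2, r, h3, h4, h5⟩ := h.approx_div hG hs hf
      (t := θ ^ i * t) (mul_pos (pow_pos h.hθ0 _) ht) hz1 hz2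
    refine ⟨q, r, h1, h2, h3, h4, ?_⟩
    have e : θ * (θ ^ i * t) = θ ^ (i + 1) * t := by rw [pow_succ]; ring
    rwa [e] at h5
  choose! Q R hQ1 hQ2 hR hN1 hN2 using H
  set G : ℕ → E := fun n => Nat.rec g (fun i z => z - (f * Q i z + R i z)) n with hGdef
  have G0 : G 0 = g := rfl
  have GS : ∀ i, G (i + 1) = G i - (f * Q i (G i) + R i (G i)) := fun i => rfl
  have hGi : ∀ i, G i ∈ AN hG hs ∧ G i ∈ B k y s (θ ^ i * t * α) (θ ^ i * t * β) := by
    intro i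
    induction i with
    | zero => rw [G0]; exact ⟨hg, by simpa using hgB⟩
    | succ i ih => rw [GS]; exact ⟨hN1 i _ ih, hN2 i _ ih⟩
  obtain ⟨q, hqAN, hqsum, -⟩ := hasSum_mem_AN hG hs h.hθ (q := fun i => Q i (G i))
    (fun i => hQ2 i _ (hGi i)) (fun i => hQ1 i _ (hGi i))
  refine ⟨q, hqAN, g - f * q, ?_, by ring⟩
  have hpart : ∀ n, ∑ i ∈ Finset.range n, R i (G i) =
      g - f * ∑ i ∈ Finset.range n, Q i (G i) - G n := by
    intro n
    induction n with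
    | zero => simp [G0]
    | succ n ih => rw [Finset.sum_range_succ, Finset.sum_range_succ, ih, GS]; ring
  have hG0 : Tendsto G atTop (𝓝 0) := by
    have hθ' : (θ : ℝ) < 1 := by exact_mod_cast h.hθ
    refine squeeze_zero_norm (a := fun i : ℕ => (θ : ℝ) ^ i * (t * max α β : ℝ≥0)) (fun i => ?_) ?_
    · have := norm_le_of_mem_B hG hs.le (r := θ ^ i * (t * max α β))
        (by rw [mul_assoc]; exact mul_le_mul_right (mul_le_mul_right (le_max_left _ _) _) _)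
        (by rw [mul_assoc]; exact mul_le_mul_right (mul_le_mul_right (le_max_right _ _) _) _)
        (hGi i).2
      simpa using this
    · simpa using (tendsto_pow_atTop_nhds_zero_of_lt_one θ.2 hθ').mul_const
        ((t * max α β : ℝ≥0) : ℝ)
  have hlim : Tendsto (fun n => ∑ i ∈ Finset.range n, R i (G i)) atTop (𝓝 (g - f * q - 0)) := by
    simp only [hpart]
    exact ((hqsum.tendsto_sum_nat.const_mul f).const_sub g).sub hG0
  rw [sub_zero] at hlim
  exact (isClosed_VV hπ ν μ).mem_of_tendsto hlim (Eventually.of_forall fun n =>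
    Submodule.sum_mem _ fun i _ => hR i _ (hGi i))

end Crest.Agent.R013.Annu_930
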