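import Crest.Agent.R013.Annu2_930

/-!
# Functions on a closed annulus, part 3: units, Weierstrass preparation, principal ideals
-/

set_option autoImplicit false
set_option linter.unusedSectionVars false

namespace Crest.Agent.R013.Annu_930

open Filter Topology Polynomial Crest.Agent.R013.Gl946
open scoped NNReal

variable {k E : Type*} [NormedField k] [NormedField E] [NormedAlgebra k E]
  [IsUltrametricDist E] {y : E}

/-! ### The mirror `y ↦ 1/y` -/

theorem isGauss_inv (hG : IsGauss k y) : IsGauss k y⁻¹ where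
  norm_le := by rw [norm_inv, hG.norm_eq, inv_one]
  coeff_le := by
    intro f i
    obtain ⟨p, hp, hpc⟩ := aeval_eq_ev (y := y⁻¹) f
    have h1 : mir (mir p) = p := by ext n; rw [mir_apply, mir_apply, neg_neg]
    have h2 : aeval y⁻¹ f = ev k y (mir p) := by
      rw [← hp, ← ev_mir (y := y) (mir p), h1]
    rw [h2, ← hpc i]
    have := coeff_le hG (mir p) (-(i : ℤ))
    rwa [mir_apply, neg_neg] at this

theorem Box_inv (b : ℤ → ℝ≥0) : Box k y⁻¹ b = Box k y (fun n => b (-n)) := by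
  have : Box0 k y⁻¹ b = Box0 k y (fun n => b (-n)) := by
    unfold Box0
    congr 1
    ext x
    constructor
    · rintro ⟨n, c, hc, rfl⟩
      exact ⟨-n, c, by dsimp only; rwa [neg_neg], by rw [inv_zpow']⟩
    · rintro ⟨n, c, hc, rfl⟩
      exact ⟨-n, c, hc, by rw [inv_zpow', neg_neg]⟩
  rw [Box, Box, this]

theorem w_neg (s α β : ℝ≥0) (n : ℤ) : w s α β (-n) = w s β α n := by
  rw [w, w, neg_neg, min_comm]

theorem B_inv (s α β : ℝ≥0) : B k y⁻¹ s α β = B k y s β α := by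
  rw [B, B, Box_inv]
  congr 1
  funext n
  exact w_neg s α β n

theorem ND.inv {s : ℝ≥0} {f : E} {δ : ℝ≥0} {ν μ : ℤ} {p : ℤ →₀ k} {u : E} {θ α β : ℝ≥0}
    (h : ND k y s f δ ν μ p u θ α β) : ND k y⁻¹ s f δ (-μ) (-ν) (mir p) u θ β α where
  hθ0 := h.hθ0
  hθ := h.hθ
  hα := h.hβ
  hβ := h.hα
  le := neg_le_neg h.le
  eq := by rw [ev_mir]; exact h.eq
  bd n := by rw [mir_apply, ← w_neg]; exact h.bd _
  out n hn := by
    rw [mir_apply, ← w_neg]
    exact h.out _ (by omega)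
  hμ := by rw [mir_apply, neg_neg]; exact h.hν
  hν := by rw [mir_apply, neg_neg]; exact h.hμ
  hu := by rw [B_inv]; exact h.hu
  hu' := by rw [B_inv]; exact h.hu'

/-! ### Dominating terms of products -/

/-- the bound for the remainder after the dominating term at `μ`, for `|y| = s` -/
noncomputable def lb (s α θ : ℝ≥0) (μ n : ℤ) : ℝ≥0 :=
  if n < μ then α * s ^ (-n) else θ * α * s ^ (-n)

theorem ND.rest {s : ℝ≥0} {f : E} {δ : ℝ≥0} {ν μ : ℤ} {p : ℤ →₀ k} {u : E} {θ α β : ℝ≥0}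
    (h : ND k y s f δ ν μ p u θ α β) {θ' : ℝ≥0} (hθ' : θ ≤ θ') (hθ1 : θ' ≤ 1) :
    f - p μ • y ^ μ ∈ Box k y (lb s α θ' μ) := by
  have e : f - p μ • y ^ μ = ev k y (p - Finsupp.single μ (p μ)) + u := by
    rw [map_sub, ev_single, h.eq]; ring
  rw [e]
  have hle : ∀ n, θ * α * s ^ (-n) ≤ lb s α θ' μ n := by
    intro n
    unfold lb
    split_ifs
    · exact mul_le_mul_left ((mul_le_mul_left (hθ'.trans hθ1) _).trans (one_mul α).le) _
    · exact mul_le_mul_left (mul_le_mul_left hθ' _) _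
  refine add_mem (ev_mem_Box fun n => ?_) (Box_mono (fun n => ?_) h.hu)
  · rw [Finsupp.sub_apply, Finsupp.single_apply]
    rcases lt_trichotomy n μ with hn | hn | hn
    · rw [if_neg (by omega), sub_zero, lb, if_pos hn]
      exact (h.bd n).trans (min_le_left _ _)
    · subst hn; rw [if_pos rfl, sub_self, nnnorm_zero]; exact zero_le
    · rw [if_neg (by omega), sub_zero]
      refine le_trans ?_ (hle n)
      rw [mul_assoc]
      exact (h.out n (Or.inr hn)).trans (mul_le_mul_right (min_le_left _ _) _)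
  · exact (min_le_left _ _).trans (hle n)

theorem lb_mul {s : ℝ≥0} (hs : s ≠ 0) (α α' θ : ℝ≥0) (hθ : θ ≤ 1) (μ μ' i j : ℤ) :
    lb s α θ μ i * lb s α' θ μ' j ≤ lb s (α * α') θ (μ + μ') (i + j) := by
  have e : s ^ (-(i + j)) = s ^ (-i) * s ^ (-j) := by
    rw [neg_add, zpow_add₀ hs]
  unfold lb
  rw [e]
  have hθθ : θ * θ ≤ θ := (mul_le_mul_right hθ _).trans (mul_one θ).le
  split_ifs with h1 h2 h3 h4 h5 h6
  · exact le_of_eq (by ring)
  · omega
  · calc α * s ^ (-i) * (θ * α' * s ^ (-j)) = θ * (α * α' * (s ^ (-i) * s ^ (-j))) := by ring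
      _ ≤ 1 * (α * α' * (s ^ (-i) * s ^ (-j))) := mul_le_mul_left hθ _
      _ = _ := one_mul _
  · exact le_of_eq (by ring)
  · calc θ * α * s ^ (-i) * (α' * s ^ (-j)) = θ * (α * α' * (s ^ (-i) * s ^ (-j))) := by ring
      _ ≤ 1 * (α * α' * (s ^ (-i) * s ^ (-j))) := mul_le_mul_left hθ _
      _ = _ := one_mul _
  · exact le_of_eq (by ring)
  · omega
  · calc θ * α * s ^ (-i) * (θ * α' * s ^ (-j)) = θ * θ * (α * α' * (s ^ (-i) * s ^ (-j))) := by
          ring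
      _ ≤ θ * (α * α' * (s ^ (-i) * s ^ (-j))) := mul_le_mul_left hθθ _
      _ = _ := by ring

theorem lead_mul (hG : IsGauss k y) {s : ℝ≥0} (hs : 1 < s) {f f' : E}
    {δ : ℝ≥0} {ν μ : ℤ} {p : ℤ →₀ k} {u : E} {θ α β : ℝ≥0} (h : ND k y s f δ ν μ p u θ α β)
    {δ' : ℝ≥0} {ν' μ' : ℤ} {p' : ℤ →₀ k} {u' : E} {θ' α' β' : ℝ≥0}
    (h' : ND k y s f' δ' ν' μ' p' u' θ' α' β') (hff : f * f' = 1) : μ + μ' = 0 := by
  by_contra hne
  have hsp : 0 < s := zero_lt_one.trans hs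
  have hs0 : s ≠ 0 := hsp.ne'
  set Θ := max θ θ' with hΘ
  have hΘ1 : Θ < 1 := max_lt h.hθ h'.hθ
  have r1 := h.rest (le_max_left θ θ') hΘ1.le
  have r2 := h'.rest (le_max_right θ θ') hΘ1.le
  have e1 : ∀ n, ‖p μ‖₊ * lb s α' Θ μ' n ≤ lb s (α * α') Θ (μ + μ') (μ + n) := by
    intro n
    rw [h.hμ]
    have e : s ^ (-(μ + n)) = s ^ (-μ) * s ^ (-n) := by rw [neg_add, zpow_add₀ hs0]
    unfold lb
    rw [e]
    split_ifs with h1 h2 h3
    · exact le_of_eq (by ring)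
    · omega
    · omega
    · exact le_of_eq (by ring)
  have e2 : ∀ n, ‖p' μ'‖₊ * lb s α Θ μ n ≤ lb s (α * α') Θ (μ + μ') (μ' + n) := by
    intro n
    rw [h'.hμ]
    have e : s ^ (-(μ' + n)) = s ^ (-μ') * s ^ (-n) := by rw [neg_add, zpow_add₀ hs0]
    unfold lb
    rw [e]
    split_ifs with h1 h2 h3
    · exact le_of_eq (by ring)
    · omega
    · omega
    · exact le_of_eq (by ring)
  have hmem : ev k y (Finsupp.single 0 1 - Finsupp.single (μ + μ') (p μ * p' μ')) ∈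
      Box k y (lb s (α * α') Θ (μ + μ')) := by
    have e3 : ev k y (Finsupp.single 0 1 - Finsupp.single (μ + μ') (p μ * p' μ')) =
        p μ • y ^ μ * (f' - p' μ' • y ^ μ') + p' μ' • y ^ μ' * (f - p μ • y ^ μ) +
          (f - p μ • y ^ μ) * (f' - p' μ' • y ^ μ') := by
      rw [map_sub, ev_single, ev_single, one_smul, zpow_zero]
      have : (p μ * p' μ') • y ^ (μ + μ') = p μ • y ^ μ * p' μ' • y ^ μ' := by
        rw [zpow_add₀ hG.ne_zero, smul_mul_smul_comm]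
      rw [this, ← hff]; ring
    rw [e3]
    refine add_mem (add_mem (smul_mul_mem_Box hG e1 r2) (smul_mul_mem_Box hG e2 r1)) ?_
    exact mul_mem_Box hG (lb_mul hs0 α α' Θ hΘ1.le μ μ') r1 r2
  have h1 := (ev_mem_Box_iff hG).1 hmem (μ + μ')
  rw [Finsupp.sub_apply, Finsupp.single_apply, Finsupp.single_apply, if_neg (Ne.symm hne),
    if_pos rfl, zero_sub, nnnorm_neg, nnnorm_mul, h.hμ, h'.hμ, lb, if_neg (lt_irrefl _)] at h1
  have e4 : α * s ^ (-μ) * (α' * s ^ (-μ')) = α * α' * s ^ (-(μ + μ')) := by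
    rw [neg_add, zpow_add₀ hs0]; ring
  rw [e4, mul_assoc Θ] at h1
  have hpos : 0 < α * α' * s ^ (-(μ + μ')) := mul_pos (mul_pos h.hα h'.hα) (zpow_pos hsp _)
  have h2 : Θ * (α * α' * s ^ (-(μ + μ'))) < 1 * (α * α' * s ^ (-(μ + μ'))) :=
    mul_lt_mul_of_pos_right hΘ1 hpos
  rw [one_mul] at h2
  exact absurd h1 (not_le.2 h2)

/-- **Units of `AN`**: one dominating term on the whole annulus. -/
theorem unit_form (hG : IsGauss k y) {s : ℝ≥0} (hs : 1 < s) {f f' : E} (hf : f ∈ AN hG hs)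
    (hf' : f' ∈ AN hG hs) (hff : f * f' = 1) :
    ∃ (c : k) (j : ℤ) (ε : E) (θ : ℝ≥0), c ≠ 0 ∧ f = c • y ^ j * (1 + ε) ∧ ε ∈ AN hG hs ∧
      θ < 1 ∧ ε ∈ B k y s θ θ ∧ ‖ε‖ < (s : ℝ)⁻¹ := by
  have hsp : 0 < s := zero_lt_one.trans hs
  have hs0 : s ≠ 0 := hsp.ne'
  have hf0 : f ≠ 0 := left_ne_zero_of_mul_eq_one hff
  have hf0' : f' ≠ 0 := right_ne_zero_of_mul_eq_one hff
  have hfn : 0 < ‖f‖₊ := nnnorm_pos.2 hf0
  obtain ⟨ν, μ, p, u, θ, α, β, h⟩ := exists_newton hG hs hf hf0 (δ := ‖f‖₊ / (2 * s))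
    (by positivity)
  obtain ⟨ν', μ', p', u', θ', α', β', h'⟩ := exists_newton hG hs hf' hf0' zero_lt_one
  have h1 := lead_mul hG hs h h' hff
  have h2 := lead_mul (isGauss_inv hG) hs h.inv h'.inv hff
  have h3 := h.le
  have h4 := h'.le
  obtain rfl : ν = μ := by omega
  set c := p ν with hc
  have hcn : 0 < ‖c‖₊ := by rw [h.hν]; exact mul_pos h.hβ (zpow_pos hsp _)
  have hc0 : c ≠ 0 := nnnorm_pos.1 hcn
  have zz : ∀ n : ℤ, s ^ n * s ^ (-n) = 1 := fun n => by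
    rw [← zpow_add₀ hs0, add_neg_cancel, zpow_zero]
  have hα : α = ‖c‖₊ * s ^ ν := by
    rw [h.hμ, mul_assoc, mul_comm (s ^ (-ν)), zz, mul_one]
  have hβ : β = ‖c‖₊ * s ^ (-ν) := by
    rw [h.hν, mul_assoc, zz, mul_one]
  have hy := hG.ne_zero
  have hcy : c • y ^ ν ≠ 0 := smul_ne_zero hc0 (zpow_ne_zero _ hy)
  have hcyn : ‖c • y ^ ν‖ = ‖c‖ := by rw [norm_smul, nyz hG, mul_one]
  -- the inverse of the monomial
  have hinv : (c • y ^ ν)⁻¹ = c⁻¹ • y ^ (-ν) := by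
    rw [zpow_neg, smul_inv₀]
  set ε := c⁻¹ • y ^ (-ν) * (f - c • y ^ ν) with hε
  have hfe : f = c • y ^ ν * (1 + ε) := by
    rw [hε, ← hinv, mul_add, mul_one, mul_inv_cancel_left₀ hcy]; ring
  have hrest : f - c • y ^ ν = ev k y (p - Finsupp.single ν c) + u := by
    rw [map_sub, ev_single, h.eq]; ring
  have hpc : ∀ n, ‖(p - Finsupp.single ν c) n‖₊ ≤ if n = ν then 0 else θ * w s α β n := by
    intro n
    rw [Finsupp.sub_apply, Finsupp.single_apply]
    split_ifs with h5 h6 h7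
    · rw [← h5, sub_self, nnnorm_zero]
    · exact absurd h5.symm h6
    · exact absurd h7.symm h5
    · rw [sub_zero]; exact h.out n (by omega)
  have hB : f - c • y ^ ν ∈ B k y s (θ * α) (θ * β) := by
    rw [hrest]
    refine add_mem ((ev_mem_B_iff hG).2 fun n => (hpc n).trans ?_) h.hu
    rw [← mul_w]
    split_ifs
    · exact zero_le
    · exact le_rfl
  -- norm
  have hw : ∀ n, n ≠ ν → w s α β n ≤ ‖c‖₊ / s := by
    intro n hn
    rw [w, hα, hβ, mul_assoc, mul_assoc, ← zpow_add₀ hs0, ← zpow_add₀ hs0, div_eq_mul_inv,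
      ← zpow_neg_one]
    rcases lt_or_gt_of_ne hn with h5 | h5
    · exact (min_le_right _ _).trans (mul_le_mul_right (zpow_le_zpow_right₀ hs.le (by omega)) _)
    · exact (min_le_left _ _).trans (mul_le_mul_right (zpow_le_zpow_right₀ hs.le (by omega)) _)
  have hn1 : ‖ev k y (p - Finsupp.single ν c)‖ ≤ (θ * (‖c‖₊ / s) : ℝ≥0) := by
    refine norm_le_of_mem_Box hG (b := fun n => if n = ν then 0 else θ * w s α β n) ?_
      (ev_mem_Box hpc)
    intro n
    split_ifs with h5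
    · exact zero_le
    · exact mul_le_mul_right (hw n h5) _
  have hn2 : ‖u‖ ≤ (‖f‖₊ / (2 * s) : ℝ≥0) := norm_le_of_mem_B hG hs.le le_rfl le_rfl h.hu'
  have hδ : ‖f‖₊ / (2 * s) < ‖f‖₊ / s :=
    div_lt_div_of_pos_left hfn hsp (by
      calc s = 1 * s := (one_mul s).symm
        _ < 2 * s := mul_lt_mul_of_pos_right one_lt_two hsp)
  have hfs : ‖f‖₊ / s ≤ ‖f‖₊ := div_le_self zero_le hs.le
  have hcs : ‖c‖₊ / s ≤ ‖c‖₊ := div_le_self zero_le hs.le
  have hθc : θ * (‖c‖₊ / s) < ‖c‖₊ / s := by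
    calc θ * (‖c‖₊ / s) < 1 * (‖c‖₊ / s) := mul_lt_mul_of_pos_right h.hθ (div_pos hcn hsp)
      _ = _ := one_mul _
  have hfc : ‖f‖₊ ≤ ‖c‖₊ := by
    by_contra hcon
    push Not at hcon
    have h6 : ‖f‖ < ‖f‖ := by
      have e : f = c • y ^ ν + (ev k y (p - Finsupp.single ν c) + u) := by rw [← hrest]; ring
      have h7 : ‖c • y ^ ν + (ev k y (p - Finsupp.single ν c) + u)‖ < ‖f‖ := by
        refine (nadd _ _).trans_lt (max_lt ?_ ((nadd _ _).trans_lt (max_lt ?_ ?_)))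
        · rw [hcyn]; exact_mod_cast hcon
        · refine hn1.trans_lt ?_
          have : θ * (‖c‖₊ / s) < ‖f‖₊ := (hθc.trans_le hcs).trans hcon
          exact_mod_cast this
        · refine hn2.trans_lt ?_
          have : ‖f‖₊ / (2 * s) < ‖f‖₊ := hδ.trans_le hfs
          exact_mod_cast this
      rwa [← e] at h7
    exact lt_irrefl _ h6
  refine ⟨c, ν, ε, θ, hc0, hfe, ?_, h.hθ, ?_, ?_⟩
  · refine mul_mem ((AN hG hs).smul_mem (zpow_mem_AN hG hs _) _) (sub_mem hf ?_)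
    exact (AN hG hs).smul_mem (zpow_mem_AN hG hs _) _
  · refine smul_mul_mem_Box hG (b := w s (θ * α) (θ * β)) (fun n => ?_) hB
    have hcc : ‖c‖₊⁻¹ * ‖c‖₊ = 1 := inv_mul_cancel₀ hcn.ne'
    rw [nnnorm_inv, mul_w]
    refine min_le_min (le_of_eq ?_) (le_of_eq ?_)
    · rw [hα, neg_add, neg_neg, zpow_add₀ hs0]
      linear_combination (θ * s ^ ν * s ^ (-n)) * hcc
    · rw [hβ, zpow_add₀ hs0]
      linear_combination (θ * s ^ (-ν) * s ^ n) * hcc
  · rw [hε, norm_mul, norm_smul, nyz hG, mul_one, norm_inv, hrest,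
      inv_mul_lt_iff₀ (by exact_mod_cast hcn)]
    have h8 : ‖c‖ * (s : ℝ)⁻¹ = ((‖c‖₊ / s : ℝ≥0) : ℝ) := by
      rw [NNReal.coe_div, coe_nnnorm, div_eq_mul_inv]
    rw [h8]
    refine (nadd _ _).trans_lt (max_lt (hn1.trans_lt ?_) (hn2.trans_lt ?_))
    · exact_mod_cast hθc
    · have : ‖f‖₊ / (2 * s) < ‖c‖₊ / s := hδ.trans_le (by
        exact div_le_div_of_nonneg_right hfc hsp.le)
      exact_mod_cast this

end Crest.Agent.R013.Annu_930
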