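import Crest.Agent.R013.Annu3_930

/-!
# Functions on a closed annulus, part 4: Weierstrass preparation, `AN` is a principal ideal domain,
the field `MN` of meromorphic functions, divisors
-/

set_option autoImplicit false
set_option linter.unusedSectionVars false

namespace Crest.Agent.R013.Annu_930

open Filter Topology Polynomial Crest.Agent.R013.Gl946
open scoped NNReal

variable {k E : Type*} [NormedField k] [NormedField E] [NormedAlgebra k E]
  [IsUltrametricDist E] {y : E}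

section Ring

variable (hG : IsGauss k y) {s : ℝ≥0} (hs : 1 < s)

/-- `y` as an element of `AN`. -/
noncomputable def yA : AN hG hs := ⟨y, by simpa using zpow_mem_AN hG hs 1⟩

theorem coe_yA : ((yA hG hs : AN hG hs) : E) = y := rfl

/-- `k[X] → AN`, `X ↦ y`. -/
noncomputable def phi : k[X] →ₐ[k] AN hG hs := aeval (yA hG hs)

theorem coe_phi (F : k[X]) : ((phi hG hs F : AN hG hs) : E) = aeval y F := by
  have : ((AN hG hs).val.comp (phi hG hs)) = aeval y := by
    refine Polynomial.algHom_ext ?_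
    simp [phi, coe_yA]
  exact congrArg (fun g : k[X] →ₐ[k] E => g F) this

theorem phi_X : phi hG hs X = yA hG hs := by simp [phi]

theorem phi_ne_zero {F : k[X]} (hF : F ≠ 0) : phi hG hs F ≠ 0 := by
  intro h
  have := coe_phi hG hs F
  rw [h] at this
  exact hG.aeval_ne_zero hF this.symm

theorem isUnit_yA : IsUnit (yA hG hs) := by
  refine IsUnit.of_mul_eq_one ⟨y⁻¹, by simpa using zpow_mem_AN hG hs (-1)⟩ ?_
  ext
  exact mul_inv_cancel₀ hG.ne_zero

theorem isUnit_phi_C {c : k} (hc : c ≠ 0) : IsUnit (phi hG hs (C c)) :=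
  (isUnit_C.2 (isUnit_iff_ne_zero.2 hc)).map _

variable [CompleteSpace k] [CompleteSpace E] {π : k} (hπ : IsUnif π)

include hπ

/-- Division by a nonzero element of `AN`. -/
theorem division (f : AN hG hs) (hf : f ≠ 0) : ∃ ν μ : ℤ, ∀ g : AN hG hs, ∃ q r : AN hG hs,
    g = f * q + r ∧ (r : E) ∈ VV k y ν μ := by
  have hf0 : (f : E) ≠ 0 := fun h => hf (Subtype.ext h)
  obtain ⟨ν, μ, p, u, θ, α, β, h⟩ := exists_newton hG hs f.2 hf0 zero_lt_one
  refine ⟨ν, μ, fun g => ?_⟩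
  obtain ⟨q, hq, r, hr, e⟩ := h.division hπ hG hs f.2 g.2
  exact ⟨⟨q, hq⟩, ⟨r, VV_le_AN hG hs hr⟩, Subtype.ext e, hr⟩

omit [CompleteSpace k] [CompleteSpace E] hπ in
/-- A Laurent polynomial is `y^(-N)` times a polynomial. -/
theorem exists_pow_mul {ν μ : ℤ} (r : AN hG hs) (hr : (r : E) ∈ VV k y ν μ) :
    ∃ (N : ℕ) (F : k[X]), yA hG hs ^ N * r = phi hG hs F := by
  obtain ⟨ρ, hρ, -⟩ := exists_of_mem_VV hr
  obtain ⟨N, F, -, h2, -⟩ := exists_shift hG ρ 0
  refine ⟨N, F, Subtype.ext ?_⟩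
  rw [coe_phi, h2, hρ]
  rfl

/-- Every nonzero element of `AN` divides a nonzero polynomial. -/
theorem exists_dvd_poly (f : AN hG hs) (hf : f ≠ 0) : ∃ F : k[X], F ≠ 0 ∧ f ∣ phi hG hs F := by
  classical
  obtain ⟨ν, μ, hdiv⟩ := division hG hs hπ f hf
  obtain ⟨q, r, e, hr⟩ := hdiv ⟨y ^ (μ + 1), zpow_mem_AN hG hs _⟩
  obtain ⟨ρ, hρ, hsupp⟩ := exists_of_mem_VV hr
  obtain ⟨N, F, h1, h2, h3⟩ := exists_shift hG (Finsupp.single (μ + 1) 1 - ρ) (μ + 1)
  refine ⟨F, ?_, yA hG hs ^ N * q, Subtype.ext ?_⟩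
  · rintro rfl
    have h4 := h3 (μ + 1) h1
    rw [coeff_zero, Finsupp.sub_apply, Finsupp.single_apply, if_pos rfl] at h4
    have h5 : ρ (μ + 1) = 0 := by
      by_contra hcon
      have := (hsupp _ hcon).2
      omega
    rw [h5, sub_zero] at h4
    exact zero_ne_one h4
  · have e' : y ^ (μ + 1) = (f : E) * (q : E) + (r : E) := congrArg Subtype.val e
    rw [coe_phi, h2, map_sub, ev_single, one_smul, hρ, e', add_sub_cancel_right]
    change y ^ N * ((f : E) * q) = f * (y ^ N * q)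
    ring

/-- Modulo a nonzero polynomial prime to `y`, every function on the annulus is a polynomial. -/
theorem exists_mod (P : k[X]) (hP : P.coeff 0 ≠ 0) (g : AN hG hs) :
    ∃ (q : AN hG hs) (G : k[X]), g = phi hG hs P * q + phi hG hs G := by
  have hP0 : P ≠ 0 := by rintro rfl; exact hP (coeff_zero 0)
  set I : Ideal (AN hG hs) := Ideal.span {phi hG hs P} with hI
  set ψ : k[X] →+* AN hG hs ⧸ I := (Ideal.Quotient.mk I).comp (phi hG hs).toRingHom with hψ
  have hψa : ∀ F, ψ F = Ideal.Quotient.mk I (phi hG hs F) := fun F => rfl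
  suffices h : Ideal.Quotient.mk I g ∈ ψ.range by
    obtain ⟨G, hG'⟩ := h
    have h1 : g - phi hG hs G ∈ I := by
      rw [← Ideal.Quotient.mk_eq_mk_iff_sub_mem, ← hG', hψa]
    obtain ⟨q, hq⟩ := Ideal.mem_span_singleton.1 h1
    exact ⟨q, G, by rw [← hq]; ring⟩
  obtain ⟨z, hz⟩ := isUnit_yA hG hs
  -- `1/y` is in the range
  have hinv : Ideal.Quotient.mk I (↑z⁻¹ : AN hG hs) ∈ ψ.range := by
    refine ⟨C (-(P.coeff 0)⁻¹) * P.divX, ?_⟩
    rw [hψa]
    refine (Ideal.Quotient.mk_eq_mk_iff_sub_mem _ _).2 ?_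
    refine Ideal.mem_span_singleton.2 ⟨-(↑z⁻¹ : AN hG hs) * phi hG hs (C (P.coeff 0)⁻¹), ?_⟩
    have e1 : phi hG hs P = phi hG hs P.divX * yA hG hs + phi hG hs (C (P.coeff 0)) := by
      conv_lhs => rw [← divX_mul_X_add P]
      rw [map_add, map_mul, phi_X]
    have e2 : phi hG hs (C (P.coeff 0)) * phi hG hs (C (P.coeff 0)⁻¹) = 1 := by
      rw [← map_mul, ← C_mul, mul_inv_cancel₀ hP, map_one, map_one]
    have e3 : yA hG hs * (↑z⁻¹ : AN hG hs) = 1 := by rw [← hz]; exact z.mul_inv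
    rw [e1, map_mul, C_neg, map_neg]
    linear_combination (phi hG hs (C (P.coeff 0)⁻¹) * phi hG hs P.divX) * e3 +
      (↑z⁻¹ : AN hG hs) * e2
  obtain ⟨ν, μ, hdiv⟩ := division hG hs hπ (phi hG hs P) (phi_ne_zero hG hs hP0)
  obtain ⟨q, r, e, hr⟩ := hdiv g
  obtain ⟨N, F, hF⟩ := exists_pow_mul hG hs r hr
  have e4 : r = (↑z⁻¹ : AN hG hs) ^ N * phi hG hs F := by
    rw [← hF, ← hz, ← mul_assoc, ← mul_pow, z.inv_mul, one_pow, one_mul]
  have e5 : Ideal.Quotient.mk I g = Ideal.Quotient.mk I (↑z⁻¹ : AN hG hs) ^ N * ψ F := by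
    rw [hψa, ← map_pow, ← map_mul, ← e4]
    refine (Ideal.Quotient.mk_eq_mk_iff_sub_mem _ _).2 ?_
    rw [e, add_sub_cancel_right]
    exact Ideal.mem_span_singleton.2 ⟨q, rfl⟩
  rw [e5]
  exact mul_mem (pow_mem hinv N) ⟨F, rfl⟩

omit [CompleteSpace k] [CompleteSpace E] hπ in
/-- If `P` is irreducible and not invertible on the annulus then `P ∣ F` in `AN` implies `P ∣ F`. -/
theorem dvd_of_dvd {P F : k[X]} (hP : Irreducible P) (hu : ¬ IsUnit (phi hG hs P))
    (h : phi hG hs P ∣ phi hG hs F) : P ∣ F := by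
  by_contra hcon
  obtain ⟨a, b, hab⟩ := (hP.coprime_iff_not_dvd.2 hcon)
  apply hu
  refine isUnit_of_dvd_one ?_
  have e : phi hG hs a * phi hG hs P + phi hG hs b * phi hG hs F = 1 := by
    rw [← map_mul, ← map_mul, ← map_add, hab, map_one]
  rw [← e]
  exact dvd_add (Dvd.intro_left _ rfl) (h.mul_left _)

omit [CompleteSpace k] [CompleteSpace E] hπ in
theorem pow_dvd_of_pow_dvd {P : k[X]} (hP : Irreducible P) (hu : ¬ IsUnit (phi hG hs P)) (n : ℕ) :
    ∀ F : k[X], phi hG hs P ^ n ∣ phi hG hs F → P ^ n ∣ F := by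
  induction n with
  | zero => intro F _; simp
  | succ n ih =>
    intro F hF
    obtain ⟨F1, rfl⟩ := dvd_of_dvd hG hs hP hu ((dvd_pow_self _ (Nat.succ_ne_zero n)).trans hF)
    rw [pow_succ', map_mul] at hF
    rw [pow_succ']
    exact mul_dvd_mul_left P (ih F1 ((mul_dvd_mul_iff_left (phi_ne_zero hG hs hP.ne_zero)).1 hF))

/-- An irreducible polynomial is invertible on the annulus or a prime element of `AN`. -/
theorem isUnit_or_prime (P : k[X]) (hP : Irreducible P) :
    IsUnit (phi hG hs P) ∨ Prime (phi hG hs P) := by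
  by_cases hP0 : P.coeff 0 = 0
  · left
    obtain ⟨Q, rfl⟩ := X_dvd_iff.2 hP0
    rcases hP.isUnit_or_isUnit rfl with h | h
    · exact absurd h not_isUnit_X
    · rw [map_mul, phi_X]
      exact (isUnit_yA hG hs).mul (h.map _)
  by_cases hu : IsUnit (phi hG hs P)
  · exact Or.inl hu
  right
  refine ⟨phi_ne_zero hG hs hP.ne_zero, hu, fun a b hab => ?_⟩
  obtain ⟨qa, A, ha⟩ := exists_mod hG hs hπ P hP0 a
  obtain ⟨qb, Bp, hb⟩ := exists_mod hG hs hπ P hP0 b
  have h1 : phi hG hs P ∣ phi hG hs (A * Bp) := by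
    have e : phi hG hs (A * Bp) = a * b - phi hG hs P * (qa * b + qb * phi hG hs A) := by
      rw [map_mul, ha, hb]; ring
    rw [e]
    exact dvd_sub hab (Dvd.intro _ rfl)
  have h2 := dvd_of_dvd hG hs hP hu h1
  rcases hP.prime.dvd_or_dvd h2 with h3 | h3
  · left; rw [ha]; exact dvd_add (Dvd.intro _ rfl) (_root_.map_dvd (phi hG hs) h3)
  · right; rw [hb]; exact dvd_add (Dvd.intro _ rfl) (_root_.map_dvd (phi hG hs) h3)

/-- A divisor in `AN` of a nonzero polynomial is a unit times a polynomial. -/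
theorem exists_of_mul_eq (F : k[X]) : F ≠ 0 → ∀ f g : AN hG hs, f * g = phi hG hs F →
    ∃ (u : AN hG hs) (G : k[X]), IsUnit u ∧ G ≠ 0 ∧ f = u * phi hG hs G := by
  induction F using WfDvdMonoid.induction_on_irreducible with
  | zero => intro h; exact absurd rfl h
  | unit U hU =>
    intro _ f g h
    exact ⟨f, 1, isUnit_of_mul_isUnit_left (y := g) (by rw [h]; exact hU.map _), one_ne_zero,
      by rw [map_one, mul_one]⟩
  | mul F P hF hP ih =>
    intro _ f g h
    rw [map_mul] at h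
    rcases isUnit_or_prime hG hs hπ P hP with hu | hp
    · obtain ⟨z, hz⟩ := hu
      refine ih hF f (g * ↑z⁻¹) ?_
      rw [← mul_assoc, h, ← hz, mul_comm (z : AN hG hs), mul_assoc, z.mul_inv, mul_one]
    · rcases hp.dvd_or_dvd (show phi hG hs P ∣ f * g from ⟨_, h⟩) with ⟨f1, hf1⟩ | ⟨g1, hg1⟩
      · have h1 : f1 * g = phi hG hs F := by
          apply mul_left_cancel₀ hp.ne_zero
          rw [← h, hf1]; ring
        obtain ⟨u, G, hu, hG0, e⟩ := ih hF f1 g h1
        exact ⟨u, P * G, hu, mul_ne_zero hP.ne_zero hG0, by rw [hf1, e, map_mul]; ring⟩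
      · refine ih hF f g1 ?_
        apply mul_left_cancel₀ hp.ne_zero
        rw [← h, hg1]; ring

/-- **Weierstrass preparation** on the closed annulus. -/
theorem weierstrass_AN (f : AN hG hs) (hf : f ≠ 0) :
    ∃ (u : AN hG hs) (G : k[X]), IsUnit u ∧ G ≠ 0 ∧ f = u * phi hG hs G := by
  obtain ⟨F, hF, g, hg⟩ := exists_dvd_poly hG hs hπ f hf
  exact exists_of_mul_eq hG hs hπ F hF f g hg.symm

/-- `AN` is a principal ideal domain; all ideals are generated by polynomials. -/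
theorem exists_span (I : Ideal (AN hG hs)) : ∃ G : k[X], I = Ideal.span {phi hG hs G} := by
  have : IsPrincipalIdealRing k[X] := inferInstance
  obtain ⟨G, hGI⟩ := (this.principal (I.comap (phi hG hs).toRingHom)).principal
  have hGI' : I.comap (phi hG hs).toRingHom = Ideal.span {G} := hGI
  refine ⟨G, le_antisymm (fun f hf => ?_) ?_⟩
  · by_cases hf0 : f = 0
    · rw [hf0]; exact zero_mem _
    obtain ⟨u, F, ⟨z, hz⟩, hF, e⟩ := weierstrass_AN hG hs hπ f hf0
    have h1 : F ∈ I.comap (phi hG hs).toRingHom := by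
      change phi hG hs F ∈ I
      have : phi hG hs F = ↑z⁻¹ * f := by rw [e, ← hz, ← mul_assoc, z.inv_mul, one_mul]
      rw [this]
      exact I.mul_mem_left _ hf
    rw [hGI', Ideal.mem_span_singleton] at h1
    rw [Ideal.mem_span_singleton, e]
    exact (_root_.map_dvd (phi hG hs) h1).mul_left _
  · rw [Ideal.span_singleton_le_iff_mem]
    have : G ∈ I.comap (phi hG hs).toRingHom := by
      rw [hGI']; exact Ideal.mem_span_singleton_self G
    exact this

theorem isPrincipalIdealRing_AN : IsPrincipalIdealRing (AN hG hs) :=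
  ⟨fun I => by
    obtain ⟨G, h⟩ := exists_span hG hs hπ I
    exact ⟨⟨phi hG hs G, h⟩⟩⟩

omit [CompleteSpace k] [CompleteSpace E] hπ in
/-- A product of units. -/
theorem isUnit_phi_of (F : k[X]) : F ≠ 0 → (∀ P, Irreducible P → P ∣ F → IsUnit (phi hG hs P)) →
    IsUnit (phi hG hs F) := by
  induction F using WfDvdMonoid.induction_on_irreducible with
  | zero => intro h; exact absurd rfl h
  | unit U hU => intro _ _; exact hU.map _
  | mul F P hF hP ih =>
    intro _ h
    rw [map_mul]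
    exact (h P hP (Dvd.intro _ rfl)).mul (ih hF fun Q hQ hQF => h Q hQ (hQF.mul_left _))

end Ring

/-! ### The field of meromorphic functions -/

section Field

variable (hG : IsGauss k y) {s : ℝ≥0} (hs : 1 < s)

/-- Meromorphic functions on `1/s ≤ |y| ≤ s`. -/
noncomputable def MN : IntermediateField k E where
  carrier := {z | ∃ a ∈ AN hG hs, ∃ b ∈ AN hG hs, b ≠ 0 ∧ z = a / b}
  mul_mem' := by
    rintro _ _ ⟨a, ha, b, hb, h1, rfl⟩ ⟨a', ha', b', hb', h1', rfl⟩
    exact ⟨a * a', mul_mem ha ha', b * b', mul_mem hb hb', mul_ne_zero h1 h1',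
      by rw [div_mul_div_comm]⟩
  add_mem' := by
    rintro _ _ ⟨a, ha, b, hb, h1, rfl⟩ ⟨a', ha', b', hb', h1', rfl⟩
    exact ⟨a * b' + b * a', add_mem (mul_mem ha hb') (mul_mem hb ha'), b * b', mul_mem hb hb',
      mul_ne_zero h1 h1', by rw [div_add_div _ _ h1 h1']⟩
  algebraMap_mem' := fun c => ⟨algebraMap k E c, (AN hG hs).algebraMap_mem c, 1, one_mem _,
    one_ne_zero, by rw [div_one]⟩
  inv_mem' := by
    rintro _ ⟨a, ha, b, hb, h1, rfl⟩
    by_cases h : a = 0
    · exact ⟨0, zero_mem _, 1, one_mem _, one_ne_zero, by simp [h]⟩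
    · exact ⟨b, hb, a, ha, h, by rw [inv_div]⟩

theorem mem_MN {z : E} : z ∈ MN hG hs ↔ ∃ a ∈ AN hG hs, ∃ b ∈ AN hG hs, b ≠ 0 ∧ z = a / b :=
  Iff.rfl

theorem AN_le_MN {z : E} (hz : z ∈ AN hG hs) : z ∈ MN hG hs :=
  ⟨z, hz, 1, one_mem _, one_ne_zero, by rw [div_one]⟩

theorem KY_le_MN : KY hG ≤ (MN hG hs).toSubfield := by
  rintro _ ⟨f, g, hg, rfl⟩
  exact ⟨_, aeval_mem_AN hG hs f, _, aeval_mem_AN hG hs g, hG.aeval_ne_zero hg, rfl⟩

theorem MN_anti {t : ℝ≥0} (hst : s ≤ t) : MN hG (hs.trans_le hst) ≤ MN hG hs := by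
  rintro _ ⟨a, ha, b, hb, h1, rfl⟩
  exact ⟨a, AN_anti hG hs hst ha, b, AN_anti hG hs hst hb, h1, rfl⟩

noncomputable instance algAM : Algebra (AN hG hs) (MN hG hs) :=
  ((AN hG hs).val.toRingHom.codRestrict (MN hG hs).toSubfield.toSubring
    fun x => AN_le_MN hG hs x.2 : AN hG hs →+* (MN hG hs).toSubfield.toSubring).toAlgebra

theorem coe_algAM (x : AN hG hs) : ((algebraMap (AN hG hs) (MN hG hs) x : MN hG hs) : E) = x := rfl

instance isFrac : IsFractionRing (AN hG hs) (MN hG hs) := by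
  have : FaithfulSMul (AN hG hs) (MN hG hs) := by
    rw [faithfulSMul_iff_algebraMap_injective]
    intro a b h
    exact Subtype.ext (congrArg (fun z : MN hG hs => (z : E)) h)
  refine IsFractionRing.of_field _ _ fun z => ?_
  obtain ⟨a, ha, b, hb, h1, e⟩ := z.2
  exact ⟨⟨a, ha⟩, ⟨b, hb⟩, Subtype.ext e⟩

end Field

end Crest.Agent.R013.Annu_930
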