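import Crest.Agent.R013.Annu4_930

/-!
# Functions on a closed annulus, part 5: functions whose divisor is divisible by `n`

Main results: `annu` (for `x ∈ MN`), `annu_algHom` (for a field `U` embedded in `MN`).
-/

set_option autoImplicit false
set_option linter.unusedSectionVars false

namespace Crest.Agent.R013.Annu_930

open Filter Topology Polynomial Crest.Agent.R013.Gl946 IsDedekindDomain WithZero
open scoped NNReal

variable {k E : Type*} [NormedField k] [NormedField E] [NormedAlgebra k E]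
  [IsUltrametricDist E] {y : E}

section Main

variable (hG : IsGauss k y) {s : ℝ≥0} (hs : 1 < s) [CompleteSpace k] [CompleteSpace E]

/-- `phi` with values in the field `MN`. -/
noncomputable def phiM : k[X] →+* MN hG hs :=
  (algebraMap (AN hG hs) (MN hG hs)).comp (phi hG hs).toRingHom

omit [CompleteSpace k] [CompleteSpace E] in
theorem coe_phiM (F : k[X]) : ((phiM hG hs F : MN hG hs) : E) = aeval y F := coe_phi hG hs F

omit [CompleteSpace k] [CompleteSpace E] in
theorem phiM_ne_zero {F : k[X]} (hF : F ≠ 0) : phiM hG hs F ≠ 0 := by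
  intro h
  have := coe_phiM hG hs F
  rw [h] at this
  exact hG.aeval_ne_zero hF this.symm

variable [IsPrincipalIdealRing (AN hG hs)]

omit [CompleteSpace k] [CompleteSpace E] in
theorem val_unit (v : HeightOneSpectrum (AN hG hs)) {u : AN hG hs} (hu : IsUnit u) :
    v.valuation (MN hG hs) (algebraMap (AN hG hs) (MN hG hs) u) = 1 := by
  rw [v.valuation_of_algebraMap, HeightOneSpectrum.intValuation_eq_one_iff]
  intro h
  exact v.isPrime.ne_top (Ideal.eq_top_of_isUnit_mem _ h hu)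

omit [CompleteSpace k] [CompleteSpace E] in
theorem exists_exp (v : HeightOneSpectrum (AN hG hs)) {x : MN hG hs} (hx : x ≠ 0) :
    ∃ i : ℤ, v.valuation (MN hG hs) x = exp i :=
  ⟨_, (exp_log ((Valuation.ne_zero_iff _).2 hx)).symm⟩

/-- every valuation of `x` at the points of the annulus is divisible by `n` -/
def DivBy (n : ℕ) (x : MN hG hs) : Prop :=
  ∀ v : HeightOneSpectrum (AN hG hs), ∃ j : ℤ, v.valuation (MN hG hs) x = exp ((n : ℤ) * j)

omit [CompleteSpace k] [CompleteSpace E] in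
theorem DivBy.mul {n : ℕ} {x x' : MN hG hs} (h : DivBy hG hs n x) (h' : DivBy hG hs n x') :
    DivBy hG hs n (x * x') := by
  intro v
  obtain ⟨j, hj⟩ := h v
  obtain ⟨j', hj'⟩ := h' v
  exact ⟨j + j', by rw [map_mul, hj, hj', ← exp_add, mul_add]⟩

omit [CompleteSpace k] [CompleteSpace E] in
theorem DivBy.pow {n : ℕ} {x : MN hG hs} (hx : x ≠ 0) : DivBy hG hs n (x ^ n) := by
  intro v
  obtain ⟨i, hi⟩ := exists_exp hG hs v hx
  exact ⟨i, by rw [map_pow, hi, ← exp_nsmul, nsmul_eq_mul]⟩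

omit [CompleteSpace k] [CompleteSpace E] in
theorem DivBy.inv {n : ℕ} {x : MN hG hs} (h : DivBy hG hs n x) : DivBy hG hs n x⁻¹ := by
  intro v
  obtain ⟨j, hj⟩ := h v
  exact ⟨-j, by rw [map_inv₀, hj, ← exp_neg, mul_neg]⟩

omit [CompleteSpace k] [CompleteSpace E] in
theorem DivBy.unit {n : ℕ} {u : AN hG hs} (hu : IsUnit u) :
    DivBy hG hs n (algebraMap (AN hG hs) (MN hG hs) u) := by
  intro v
  exact ⟨0, by rw [val_unit hG hs v hu, mul_zero, exp_zero]⟩

/-- Polynomials with divisor on the annulus divisible by `n`. -/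
theorem divBy_poly {π : k} (hπ : IsUnif π) {n : ℕ} (hn : 0 < n) (d : ℕ) :
    ∀ F : k[X], F ≠ 0 → F.natDegree ≤ d → DivBy hG hs n (phiM hG hs F) →
      ∃ W G : k[X], IsUnit (phi hG hs W) ∧ G ≠ 0 ∧ F = W * G ^ n := by
  induction d with
  | zero =>
    intro F hF hd _
    obtain ⟨c, hc⟩ := natDegree_eq_zero.1 (Nat.le_zero.1 hd)
    refine ⟨F, 1, ?_, one_ne_zero, by simp⟩
    rw [← hc]
    refine isUnit_phi_C hG hs ?_
    rintro rfl
    apply hF; rw [← hc, C_0]
  | succ d ih =>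
    intro F hF hd hdiv
    by_cases hu : IsUnit (phi hG hs F)
    · exact ⟨F, 1, hu, one_ne_zero, by simp⟩
    obtain ⟨P, hP, hPF, hPu⟩ : ∃ P, Irreducible P ∧ P ∣ F ∧ ¬ IsUnit (phi hG hs P) := by
      by_contra hcon
      push Not at hcon
      exact hu (isUnit_phi_of hG hs F hF hcon)
    have hprime : Prime (phi hG hs P) := (isUnit_or_prime hG hs hπ P hP).resolve_left hPu
    let v : HeightOneSpectrum (AN hG hs) :=
      { asIdeal := Ideal.span {phi hG hs P}
        isPrime := (Ideal.span_singleton_prime hprime.ne_zero).2 hprime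
        ne_bot := by rw [Ne, Ideal.span_singleton_eq_bot]; exact hprime.ne_zero }
    obtain ⟨j, hj⟩ := hdiv v
    have hj' : v.intValuation (phi hG hs F) = exp ((n : ℤ) * j) := by
      rw [← v.valuation_of_algebraMap (K := MN hG hs)]; exact hj
    have hlt : v.intValuation (phi hG hs F) < 1 := by
      rw [v.intValuation_lt_one_iff_mem]
      exact Ideal.mem_span_singleton.2 (_root_.map_dvd (phi hG hs) hPF)
    rw [hj', ← exp_zero, exp_lt_exp] at hlt
    have hle : (n : ℤ) * j ≤ -(n : ℤ) := by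
      have : j ≤ -1 := by
        by_contra hcon
        push Not at hcon
        have : 0 ≤ j := by omega
        have := mul_nonneg (Int.natCast_nonneg n) this
        omega
      nlinarith [Int.natCast_nonneg n]
    have h1 : phi hG hs P ^ n ∣ phi hG hs F := by
      have h2 : v.intValuation (phi hG hs F) ≤ exp (-(n : ℤ)) := by rw [hj', exp_le_exp]; exact hle
      rw [v.intValuation_le_pow_iff_dvd, Ideal.dvd_span_singleton] at h2
      have h3 : v.asIdeal ^ n = Ideal.span {phi hG hs P ^ n} := Ideal.span_singleton_pow _ _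
      rw [h3, Ideal.mem_span_singleton] at h2
      exact h2
    obtain ⟨F1, rfl⟩ := pow_dvd_of_pow_dvd hG hs hP hPu n F h1
    have hF1 : F1 ≠ 0 := right_ne_zero_of_mul hF
    have hPn : P ^ n ≠ 0 := left_ne_zero_of_mul hF
    have hdeg : F1.natDegree ≤ d := by
      rw [natDegree_mul hPn hF1, natDegree_pow] at hd
      have : 0 < P.natDegree := hP.natDegree_pos
      have : 0 < n * P.natDegree := Nat.mul_pos hn this
      omega
    have hdiv1 : DivBy hG hs n (phiM hG hs F1) := by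
      have e : phiM hG hs F1 = phiM hG hs (P ^ n * F1) * ((phiM hG hs P) ^ n)⁻¹ := by
        rw [map_mul, map_pow]
        field_simp [phiM_ne_zero hG hs hP.ne_zero]
      rw [e]
      exact DivBy.mul hG hs hdiv (DivBy.inv hG hs (DivBy.pow hG hs (phiM_ne_zero hG hs hP.ne_zero)))
    obtain ⟨W, G, hW, hG0, e⟩ := ih F1 hF1 hdeg hdiv1
    exact ⟨W, P * G, hW, mul_ne_zero hP.ne_zero hG0, by rw [e]; ring⟩

/-- **Functions with divisor divisible by `n` on the annulus**, abstract form. -/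
theorem divBy_form {π : k} (hπ : IsUnif π) {n : ℕ} (hn : 0 < n) (x : MN hG hs) (hx : x ≠ 0)
    (hdiv : DivBy hG hs n x) : ∃ (u : AN hG hs) (A D : k[X]), IsUnit u ∧ A ≠ 0 ∧ D ≠ 0 ∧
      (x : E) = u * (aeval y A / aeval y D) ^ n := by
  obtain ⟨a, ha, b, hb, hb0, e⟩ := x.2
  have ha0 : a ≠ 0 := by
    rintro rfl
    apply hx
    apply Subtype.ext
    rw [e, zero_div]; rfl
  obtain ⟨u1, F1, ⟨z1, rfl⟩, hF1, e1⟩ := weierstrass_AN hG hs hπ ⟨a, ha⟩
    (fun h => ha0 (congrArg Subtype.val h))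
  obtain ⟨u2, F2, ⟨z2, rfl⟩, hF2, e2⟩ := weierstrass_AN hG hs hπ ⟨b, hb⟩
    (fun h => hb0 (congrArg Subtype.val h))
  have e1' : a = (z1 : AN hG hs) * aeval y F1 := by
    have := congrArg Subtype.val e1
    rw [← coe_phi hG hs F1]; exact this
  have e2' : b = (z2 : AN hG hs) * aeval y F2 := by
    have := congrArg Subtype.val e2
    rw [← coe_phi hG hs F2]; exact this
  have hF1n := hG.aeval_ne_zero hF1
  have hF2n := hG.aeval_ne_zero hF2
  have hz2 : (((z2 : AN hG hs) : AN hG hs) : E) ≠ 0 := by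
    intro h; apply hb0; rw [e2', h, zero_mul]
  have hz2' : ((↑z2⁻¹ : AN hG hs) : E) = (((z2 : AN hG hs) : AN hG hs) : E)⁻¹ := by
    refine eq_inv_of_mul_eq_one_left ?_
    exact congrArg Subtype.val z2.inv_mul
  have hz1' : ((↑z1⁻¹ : AN hG hs) : E) * (((z1 : AN hG hs) : AN hG hs) : E) = 1 :=
    congrArg Subtype.val z1.inv_mul
  obtain ⟨m, rfl⟩ : ∃ m, n = m + 1 := ⟨n - 1, by omega⟩
  set F := F1 * F2 ^ m with hF
  have hF0 : F ≠ 0 := mul_ne_zero hF1 (pow_ne_zero _ hF2)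
  have eF : phiM hG hs F = x * algebraMap (AN hG hs) (MN hG hs) ((z2 : AN hG hs) * ↑z1⁻¹) *
      (phiM hG hs F2) ^ (m + 1) := by
    apply Subtype.ext
    change ((phiM hG hs F : MN hG hs) : E) = (x : E) * ((z2 : AN hG hs) * ((↑z1⁻¹ : AN hG hs) : E)) *
      ((phiM hG hs F2 : MN hG hs) : E) ^ (m + 1)
    rw [coe_phiM, coe_phiM, e, e1', e2', hF, map_mul, map_pow]
    have : (z1 : AN hG hs) * aeval y F1 / ((z2 : AN hG hs) * aeval y F2) *
        (((z2 : AN hG hs) : E) * ((↑z1⁻¹ : AN hG hs) : E)) * aeval y F2 ^ (m + 1) =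
        (((↑z1⁻¹ : AN hG hs) : E) * (z1 : AN hG hs)) * aeval y F1 * aeval y F2 ^ m := by
      field_simp
      ring
    rw [this, hz1', one_mul]
  have hdF : DivBy hG hs (m + 1) (phiM hG hs F) := by
    rw [eF]
    refine DivBy.mul hG hs (DivBy.mul hG hs hdiv ?_) (DivBy.pow hG hs (phiM_ne_zero hG hs hF2))
    exact DivBy.unit hG hs (z2.isUnit.mul z1⁻¹.isUnit)
  obtain ⟨W, G, hW, hG0, eW⟩ := divBy_poly hG hs hπ hn _ F hF0 le_rfl hdF
  refine ⟨z1 * ↑z2⁻¹ * phi hG hs W, G, F2, ((z1.isUnit.mul z2⁻¹.isUnit).mul hW), hG0, hF2, ?_⟩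
  change (x : E) = (z1 : AN hG hs) * ((↑z2⁻¹ : AN hG hs) : E) * ((phi hG hs W : AN hG hs) : E) *
    (aeval y G / aeval y F2) ^ (m + 1)
  have e3 : aeval y F1 * aeval y F2 ^ m = aeval y W * aeval y G ^ (m + 1) := by
    rw [← map_pow, ← map_mul, ← map_pow, ← map_mul, ← eW]
  rw [coe_phi, hz2', e, e1', e2', div_pow]
  have e4 : (z1 : AN hG hs) * (((z2 : AN hG hs) : AN hG hs) : E)⁻¹ * aeval y W *
      (aeval y G ^ (m + 1) / aeval y F2 ^ (m + 1)) =
      (z1 : AN hG hs) * (((z2 : AN hG hs) : AN hG hs) : E)⁻¹ *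
        (aeval y W * aeval y G ^ (m + 1)) / aeval y F2 ^ (m + 1) := by ring
  rw [e4, ← e3]
  field_simp
  ring

end Main

section Final

variable (hG : IsGauss k y) {s : ℝ≥0} (hs : 1 < s) [CompleteSpace k] [CompleteSpace E]

/-- **ANNU.** A meromorphic function `x` on the closed annulus `1/s ≤ |y| ≤ s` all of whose orders
are divisible by `n` is `c y^m g^n (1 + ε)` with `g ∈ k(y)` and `‖ε‖ < 1/s`. -/
theorem annu {π : k} (hπ : IsUnif π) {n : ℕ} (hn : 0 < n) (x : MN hG hs) (hx : x ≠ 0)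
    (hdiv : ∀ v : Valuation (MN hG hs) ℤᵐ⁰, (∀ a ∈ AN hG hs, ∀ h : a ∈ MN hG hs, v ⟨a, h⟩ ≤ 1) →
      (∃ F : k[X], ∀ h : aeval y F ∈ MN hG hs, v ⟨aeval y F, h⟩ = exp (-1 : ℤ)) →
      ∃ j : ℤ, v x = exp ((n : ℤ) * j)) :
    ∃ (c : k) (m : ℤ) (A D : k[X]) (ε : E), c ≠ 0 ∧ A ≠ 0 ∧ D ≠ 0 ∧ ‖ε‖ < (s : ℝ)⁻¹ ∧
      (x : E) = c • y ^ m * (1 + ε) * (aeval y A / aeval y D) ^ n := by
  have hpid := isPrincipalIdealRing_AN hG hs hπ
  obtain ⟨u, A, D, hu, hA, hD, e⟩ := divBy_form hG hs hπ hn x hx fun v => by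
    refine hdiv (v.valuation (MN hG hs)) (fun a ha h => ?_) ?_
    · exact v.valuation_le_one (K := MN hG hs) ⟨a, ha⟩
    · obtain ⟨G, hGv⟩ := exists_span hG hs hπ v.asIdeal
      have hG0 : phi hG hs G ≠ 0 := by
        intro h0
        rw [h0, Ideal.span_singleton_eq_bot.2 rfl] at hGv
        exact v.ne_bot hGv
      refine ⟨G, fun h => ?_⟩
      have e1 : (⟨aeval y G, h⟩ : MN hG hs) = algebraMap (AN hG hs) (MN hG hs) (phi hG hs G) :=
        Subtype.ext (coe_phi hG hs G).symm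
      rw [e1, v.valuation_of_algebraMap]
      exact v.intValuation_singleton hG0 hGv
  obtain ⟨z, rfl⟩ := hu
  obtain ⟨c, m, ε, θ, hc, hf, -, -, -, hε⟩ := unit_form hG hs (z : AN hG hs).2 (↑z⁻¹ : AN hG hs).2
    (congrArg Subtype.val z.mul_inv)
  exact ⟨c, m, A, D, ε, hc, hA, hD, hε, by rw [e, hf]⟩

/-- **ANNU for a subfield.** `U` is a field over `k` embedded in the field of meromorphic functions
on the closed annulus `1/s ≤ |y| ≤ s`, with `y ∈ U`. If all discrete valuations of `U/k` of `h` are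
divisible by `n` then `h = c y^m g^n (1 + ε)` with `g ∈ k(y)` and `‖ε‖ < 1/s`. -/
theorem annu_algHom {π : k} (hπ : IsUnif π) {U : Type*} [Field U] [Algebra k U] (ι : U →ₐ[k] E)
    (hι : ∀ z, ι z ∈ MN hG hs) {yU : U} (hy : ι yU = y) {n : ℕ} (hn : 0 < n) {h : U} (h0 : h ≠ 0)
    (hdiv : ∀ v : Valuation U ℤᵐ⁰, (∀ c : k, c ≠ 0 → v (algebraMap k U c) = 1) →
      Function.Surjective v → ∃ j : ℤ, v h = exp ((n : ℤ) * j)) :
    ∃ (c : k) (m : ℤ) (A D : k[X]) (ε : E), c ≠ 0 ∧ A ≠ 0 ∧ D ≠ 0 ∧ ‖ε‖ < (s : ℝ)⁻¹ ∧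
      ι h = c • y ^ m * (1 + ε) * (aeval y A / aeval y D) ^ n := by
  let ι' : U →+* MN hG hs := (ι.codRestrict (MN hG hs).toSubalgebra hι).toRingHom
  have hι' : ∀ z, ((ι' z : MN hG hs) : E) = ι z := fun z => rfl
  have hh0 : ι' h ≠ 0 := (map_ne_zero ι').2 h0
  obtain ⟨c, m, A, D, ε, hc, hA, hD, hε, e⟩ := annu hG hs hπ hn (ι' h) hh0 fun v h1 ⟨F, h2⟩ => by
    refine hdiv (v.comap ι') ?_ ?_
    · intro c hc
      rw [Valuation.comap_apply]
      have e1 : ∀ c : k, ι' (algebraMap k U c) =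
          ⟨algebraMap k E c, AN_le_MN hG hs ((AN hG hs).algebraMap_mem c)⟩ :=
        fun c => Subtype.ext (ι.commutes c)
      refine le_antisymm (by rw [e1]; exact h1 _ ((AN hG hs).algebraMap_mem c) _) ?_
      have h3 : v (ι' (algebraMap k U c⁻¹)) ≤ 1 := by
        rw [e1]; exact h1 _ ((AN hG hs).algebraMap_mem _) _
      have h4 : v (ι' (algebraMap k U c)) * v (ι' (algebraMap k U c⁻¹)) = 1 := by
        rw [← map_mul, ← map_mul, ← map_mul, mul_inv_cancel₀ hc, map_one, map_one, map_one]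
      calc (1 : ℤᵐ⁰) = v (ι' (algebraMap k U c)) * v (ι' (algebraMap k U c⁻¹)) := h4.symm
        _ ≤ v (ι' (algebraMap k U c)) * 1 := mul_le_mul_right h3 _
        _ = _ := mul_one _
    · have hF : ι (aeval yU F) = aeval y F := by rw [← aeval_algHom_apply, hy]
      have hFv : v (ι' (aeval yU F)) = exp (-1 : ℤ) := by
        have h5 : ι' (aeval yU F) = ⟨aeval y F, AN_le_MN hG hs (aeval_mem_AN hG hs F)⟩ :=
          Subtype.ext hF
        rw [h5]; exact h2 _
      intro z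
      by_cases hz : z = 0
      · exact ⟨0, by rw [hz, map_zero]⟩
      · refine ⟨(aeval yU F) ^ (-(log z)), ?_⟩
        rw [Valuation.comap_apply, map_zpow₀, map_zpow₀, hFv, ← exp_zsmul, smul_eq_mul,
          neg_mul_neg, mul_one, exp_log hz]
  exact ⟨c, m, A, D, ε, hc, hA, hD, hε, by rw [← hι', e]⟩

end Final

end Crest.Agent.R013.Annu_930
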