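import Mathlib

/-!
# R013 / KAS2: exponentials of power series over an ultrametric field and Gauss bounds (helper940)

`K` a normed field, ultrametric, char 0, `lam ^ (p-1) = -p`, `‖lam‖ < 1`.
* `Bd r C f` : `‖coeff m f‖ * r ^ m ≤ C` for all `m` (Gauss norm at radius `r` at most `C`).
* `ex F = exp(F)` for `F(0) = 0`; `ex_bd`: `Bd r C F`, `C ≤ ‖lam‖` imply `Bd r (C * (C / ‖lam‖)) (ex F - 1 - F)`.
* `antid` : primitive; `antid_bd`.
* `kas_formal` : the structure of a solution of `u' = (omega + delta * eta) * u` on small discs.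
-/

set_option autoImplicit false

namespace Crest.Agent.R013.KAS2_940

open PowerSeries Finset

variable {K : Type*} [NormedField K]

/-- the Gauss norm at radius `r` is at most `C` -/
def Bd (r C : ℝ) (f : K⟦X⟧) : Prop := ∀ m, ‖coeff m f‖ * r ^ m ≤ C

theorem Bd.mono {r C D : ℝ} {f : K⟦X⟧} (h : Bd r C f) (hCD : C ≤ D) : Bd r D f :=
  fun m => (h m).trans hCD

theorem Bd.nonneg {r C : ℝ} {f : K⟦X⟧} (h : Bd r C f) : 0 ≤ C := by
  have := h 0
  rw [pow_zero, mul_one] at this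
  exact (norm_nonneg _).trans this

theorem Bd.mono_left {r s C : ℝ} {f : K⟦X⟧} (h : Bd s C f) (hr : 0 ≤ r) (hrs : r ≤ s) :
    Bd r C f := by
  intro m
  refine le_trans ?_ (h m)
  gcongr

theorem bd_zero {r C : ℝ} (hC : 0 ≤ C) : Bd r C (0 : K⟦X⟧) := by
  intro m; simpa using hC

theorem bd_C {r : ℝ} (a : K) : Bd r ‖a‖ (C a) := by
  intro m
  rw [coeff_C]
  split_ifs with h
  · subst h; simp
  · simp

theorem bd_one {r : ℝ} : Bd r 1 (1 : K⟦X⟧) := by
  have := bd_C (r := r) (1 : K)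
  rwa [map_one, norm_one] at this

theorem bd_monomial {r : ℝ} (hr : 0 ≤ r) (n : ℕ) (a : K) : Bd r (‖a‖ * r ^ n) (monomial n a) := by
  intro m
  rw [coeff_monomial]
  split_ifs with h
  · subst h; rfl
  · simp; positivity

theorem Bd.neg {r C : ℝ} {f : K⟦X⟧} (hf : Bd r C f) : Bd r C (-f) := by
  intro m
  rw [map_neg, norm_neg]
  exact hf m

variable [IsUltrametricDist K]

theorem Bd.add {r C : ℝ} (hr : 0 ≤ r) {f g : K⟦X⟧} (hf : Bd r C f) (hg : Bd r C g) :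
    Bd r C (f + g) := by
  intro m
  rw [map_add]
  have h1 := IsUltrametricDist.norm_add_le_max (coeff m f) (coeff m g)
  have hrm : 0 ≤ r ^ m := pow_nonneg hr m
  rcases le_total ‖coeff m f‖ ‖coeff m g‖ with h | h
  · rw [max_eq_right h] at h1
    exact (mul_le_mul_of_nonneg_right h1 hrm).trans (hg m)
  · rw [max_eq_left h] at h1
    exact (mul_le_mul_of_nonneg_right h1 hrm).trans (hf m)

theorem Bd.sub {r C : ℝ} (hr : 0 ≤ r) {f g : K⟦X⟧} (hf : Bd r C f) (hg : Bd r C g) :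
    Bd r C (f - g) := by
  rw [sub_eq_add_neg]; exact hf.add hr hg.neg

theorem Bd.mul {r C D : ℝ} (hr : 0 < r) {f g : K⟦X⟧} (hf : Bd r C f) (hg : Bd r D g) :
    Bd r (C * D) (f * g) := by
  intro m
  rw [coeff_mul]
  have hC := hf.nonneg
  have hD := hg.nonneg
  have hrm : 0 < r ^ m := pow_pos hr m
  rw [← le_div_iff₀ hrm]
  refine IsUltrametricDist.norm_sum_le_of_forall_le_of_nonneg (by positivity) ?_
  rintro ⟨i, j⟩ hij
  rw [HasAntidiagonal.mem_antidiagonal] at hij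
  simp only at hij ⊢
  rw [le_div_iff₀ hrm, norm_mul, ← hij, pow_add]
  calc ‖coeff i f‖ * ‖coeff j g‖ * (r ^ i * r ^ j)
      = (‖coeff i f‖ * r ^ i) * (‖coeff j g‖ * r ^ j) := by ring
    _ ≤ C * D := mul_le_mul (hf i) (hg j) (by positivity) hC

theorem Bd.pow {r C : ℝ} (hr : 0 < r) {f : K⟦X⟧} (hf : Bd r C f) (n : ℕ) :
    Bd r (C ^ n) (f ^ n) := by
  induction n with
  | zero => rw [pow_zero, pow_zero]; exact bd_one
  | succ n ih => rw [pow_succ, pow_succ]; exact ih.mul hr hf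

/-! ### norms of integers -/

theorem norm_natCast_eq_one {p : ℕ} (hp : p.Prime) (hp1 : ‖(p : K)‖ < 1) {m : ℕ} (hm : ¬ p ∣ m) :
    ‖(m : K)‖ = 1 := by
  refine le_antisymm (IsUltrametricDist.norm_natCast_le_one K m) ?_
  by_contra hcon
  rw [not_le] at hcon
  have hcop : IsCoprime (p : ℤ) (m : ℤ) := by
    rw [Nat.isCoprime_iff_coprime]
    exact (Nat.Prime.coprime_iff_not_dvd hp).mpr hm
  obtain ⟨a, b, hab⟩ := hcop
  have h1 : ((a : ℤ) : K) * (p : K) + ((b : ℤ) : K) * (m : K) = 1 := by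
    have := congrArg (Int.cast : ℤ → K) hab
    push_cast at this
    exact this
  have ha : ‖((a : ℤ) : K) * (p : K)‖ < 1 := by
    rw [norm_mul]
    calc ‖((a : ℤ) : K)‖ * ‖(p : K)‖ ≤ 1 * ‖(p : K)‖ := by
          gcongr; exact IsUltrametricDist.norm_intCast_le_one K a
      _ < 1 := by rwa [one_mul]
  have hb : ‖((b : ℤ) : K) * (m : K)‖ < 1 := by
    rw [norm_mul]
    calc ‖((b : ℤ) : K)‖ * ‖(m : K)‖ ≤ 1 * ‖(m : K)‖ := by
          gcongr; exact IsUltrametricDist.norm_intCast_le_one K b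
      _ < 1 := by rwa [one_mul]
  have := IsUltrametricDist.norm_add_le_max (((a : ℤ) : K) * (p : K)) (((b : ℤ) : K) * (m : K))
  rw [h1, norm_one] at this
  exact absurd this (not_le.mpr (max_lt ha hb))

theorem norm_natCast_eq {p : ℕ} (hp : p.Prime) (hp1 : ‖(p : K)‖ < 1) {m : ℕ} (hm : m ≠ 0) :
    ‖(m : K)‖ = ‖(p : K)‖ ^ padicValNat p m := by
  have := Fact.mk hp
  obtain ⟨c, hc⟩ : p ^ padicValNat p m ∣ m := pow_padicValNat_dvd
  have hc' : ¬ p ∣ c := by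
    intro h
    obtain ⟨d, rfl⟩ := h
    have : p ^ (padicValNat p m + 1) ∣ m := ⟨d, by rw [pow_succ, mul_assoc]; exact hc⟩
    exact pow_succ_padicValNat_not_dvd hm this
  conv_lhs => rw [hc]
  rw [Nat.cast_mul, norm_mul, norm_natCast_eq_one hp hp1 hc', mul_one, Nat.cast_pow, norm_pow]

/-- `‖lam‖ ^ (d-1) ≤ ‖d!‖` -/
theorem norm_factorial_ge {p : ℕ} (hp : p.Prime) {l : ℝ} (hl0 : 0 < l) (hl1 : l < 1)
    (hl : l ^ (p - 1) = ‖(p : K)‖) (d : ℕ) :
    l ^ d ≤ ‖((d + 1).factorial : K)‖ := by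
  have := Fact.mk hp
  have hp1 : ‖(p : K)‖ < 1 := by
    rw [← hl]
    exact pow_lt_one₀ hl0.le hl1 (by have := hp.two_le; omega)
  rw [norm_natCast_eq hp hp1 (Nat.factorial_ne_zero _), ← hl, ← pow_mul]
  refine pow_le_pow_of_le_one hl0.le hl1.le ?_
  have := sub_one_mul_padicValNat_factorial_lt_of_ne_zero p (Nat.succ_ne_zero d)
  simp only [Nat.succ_eq_add_one] at this
  omega

theorem norm_nat_ge {p : ℕ} (hp : p.Prime) {l : ℝ} (hl0 : 0 < l) (hl1 : l < 1)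
    (hl : l ^ (p - 1) = ‖(p : K)‖) (d : ℕ) :
    l ^ d ≤ ‖((d + 1 : ℕ) : K)‖ := by
  refine (norm_factorial_ge hp hl0 hl1 hl d).trans ?_
  rw [Nat.factorial_succ, Nat.cast_mul, norm_mul]
  calc ‖((d + 1 : ℕ) : K)‖ * ‖(d.factorial : K)‖ ≤ ‖((d + 1 : ℕ) : K)‖ * 1 := by
        gcongr; exact IsUltrametricDist.norm_natCast_le_one K _
    _ = _ := mul_one _

/-! ### exponentials -/

omit [IsUltrametricDist K] in
theorem ode_unique [CharZero K] {a f g : K⟦X⟧} (hf : d⁄dX K f = a * f) (hg : d⁄dX K g = a * g)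
    (h0 : constantCoeff f = constantCoeff g) : f = g := by
  have key : ∀ n, coeff n (f - g) = 0 := by
    intro n
    induction n using Nat.strong_induction_on with
    | _ n ih =>
      rcases n with _ | n
      · rw [coeff_zero_eq_constantCoeff_apply, map_sub, h0, sub_self]
      · have h1 : d⁄dX K (f - g) = a * (f - g) := by rw [map_sub, hf, hg, mul_sub]
        have h2 := congrArg (coeff n) h1
        rw [coeff_derivative, coeff_mul] at h2
        rw [Finset.sum_eq_zero] at h2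
        · have h3 : ((n : K) + 1) ≠ 0 := by exact_mod_cast Nat.succ_ne_zero n
          exact (mul_eq_zero.mp h2).resolve_right h3
        · rintro ⟨i, j⟩ hij
          rw [HasAntidiagonal.mem_antidiagonal] at hij
          simp only at hij ⊢
          rw [ih j (by omega), mul_zero]
  rw [← sub_eq_zero]
  ext n
  rw [key n, map_zero]

variable [CharZero K] [Algebra ℚ K]

/-- `exp(F)` -/
noncomputable def ex (F : K⟦X⟧) : K⟦X⟧ := (exp K).subst F

omit [IsUltrametricDist K] [CharZero K] in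
theorem derivative_ex {F : K⟦X⟧} (hF : constantCoeff F = 0) :
    d⁄dX K (ex F) = d⁄dX K F * ex F := by
  rw [ex, derivative_subst (HasSubst.of_constantCoeff_zero' hF), derivative_exp, mul_comm]

omit [IsUltrametricDist K] [CharZero K] in
theorem coeff_ex {F : K⟦X⟧} (hF : constantCoeff F = 0) (m : ℕ) :
    coeff m (ex F) = ∑ᶠ d : ℕ, ((d.factorial : K))⁻¹ * coeff m (F ^ d) := by
  rw [ex, coeff_subst' (HasSubst.of_constantCoeff_zero' hF)]
  refine finsum_congr fun d => ?_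
  rw [coeff_exp, smul_eq_mul]
  congr 1
  rw [one_div, map_inv₀, map_natCast]

omit [IsUltrametricDist K] [CharZero K] [Algebra ℚ K] in
theorem coeff_pow_eq_zero {F : K⟦X⟧} (hF : constantCoeff F = 0) {m d : ℕ} (h : m < d) :
    coeff m (F ^ d) = 0 := by
  have h1 : (X : K⟦X⟧) ∣ F := X_dvd_iff.mpr hF
  exact (X_pow_dvd_iff.mp (pow_dvd_pow_of_dvd h1 d)) m h

omit [IsUltrametricDist K] [CharZero K] in
theorem coeff_ex' {F : K⟦X⟧} (hF : constantCoeff F = 0) (m N : ℕ) (hN : m < N) :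
    coeff m (ex F) = ∑ d ∈ range N, ((d.factorial : K))⁻¹ * coeff m (F ^ d) := by
  rw [coeff_ex hF]
  refine finsum_eq_sum_of_support_subset _ ?_
  intro d hd
  rw [Finset.mem_coe, mem_range]
  by_contra hcon
  rw [not_lt] at hcon
  refine hd ?_
  simp only
  rw [coeff_pow_eq_zero hF (lt_of_lt_of_le hN hcon), mul_zero]

omit [IsUltrametricDist K] [CharZero K] in
theorem constantCoeff_ex {F : K⟦X⟧} (hF : constantCoeff F = 0) : constantCoeff (ex F) = 1 := by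
  rw [← coeff_zero_eq_constantCoeff_apply, coeff_ex' hF 0 1 (by norm_num)]
  simp

omit [CharZero K] in
theorem ex_bd {p : ℕ} (hp : p.Prime) {l : ℝ} (hl0 : 0 < l) (hl1 : l < 1)
    (hl : l ^ (p - 1) = ‖(p : K)‖) {r : ℝ} (hr : 0 < r) {F : K⟦X⟧}
    (hF : constantCoeff F = 0) {B : ℝ} (hB : Bd r B F) (hBl : B ≤ l) :
    Bd r (B * (B / l)) (ex F - 1 - F) := by
  intro m
  have hB0 := hB.nonneg
  have hrm : 0 < r ^ m := pow_pos hr m
  rw [← le_div_iff₀ hrm]
  have h1 : coeff m (ex F - 1 - F) =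
      ∑ d ∈ range (m + 1), (((d + 2).factorial : K))⁻¹ * coeff m (F ^ (d + 2)) := by
    rw [map_sub, map_sub, coeff_ex' hF m (m + 1 + 2) (by omega), sum_range_succ', sum_range_succ']
    simp
  rw [h1]
  refine IsUltrametricDist.norm_sum_le_of_forall_le_of_nonneg (by positivity) ?_
  intro d _
  rw [le_div_iff₀ hrm, norm_mul, norm_inv]
  have h2 := (hB.pow hr (d + 2)) m
  have h3 := norm_factorial_ge (K := K) hp hl0 hl1 hl (d + 1)
  have h4 : (0 : ℝ) < l ^ (d + 1) := pow_pos hl0 _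
  have h5 : ‖(((d + 2).factorial : ℕ) : K)‖⁻¹ ≤ (l ^ (d + 1))⁻¹ := by
    gcongr
  calc ‖(((d + 2).factorial : ℕ) : K)‖⁻¹ * ‖coeff m (F ^ (d + 2))‖ * r ^ m
      = ‖(((d + 2).factorial : ℕ) : K)‖⁻¹ * (‖coeff m (F ^ (d + 2))‖ * r ^ m) := by ring
    _ ≤ (l ^ (d + 1))⁻¹ * B ^ (d + 2) := by
        gcongr
    _ = B * (B / l) * (B / l) ^ d := by
        rw [pow_succ, pow_add, div_pow, mul_inv]; field_simp
    _ ≤ B * (B / l) * 1 := by
        gcongr
        exact pow_le_one₀ (by positivity) ((div_le_one hl0).mpr hBl)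
    _ = _ := mul_one _

omit [CharZero K] in
theorem ex_bd_one {p : ℕ} (hp : p.Prime) {l : ℝ} (hl0 : 0 < l) (hl1 : l < 1)
    (hl : l ^ (p - 1) = ‖(p : K)‖) {r : ℝ} (hr : 0 < r) {F : K⟦X⟧}
    (hF : constantCoeff F = 0) {B : ℝ} (hB : Bd r B F) (hBl : B ≤ l) :
    Bd r 1 (ex F) := by
  have hB0 := hB.nonneg
  have h1 := ex_bd hp hl0 hl1 hl hr hF hB hBl
  have h2 : B * (B / l) ≤ 1 := by
    calc B * (B / l) ≤ 1 * 1 := by
          gcongr
          · exact hBl.trans hl1.le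
          · exact (div_le_one hl0).mpr hBl
      _ = 1 := one_mul _
  have h3 : ex F = (ex F - 1 - F) + (1 + F) := by ring
  rw [h3]
  exact (h1.mono h2).add hr.le (bd_one.add hr.le (hB.mono (hBl.trans hl1.le)))

/-! ### primitives -/

/-- the primitive without constant term -/
noncomputable def antid (f : K⟦X⟧) : K⟦X⟧ := X * PowerSeries.mk fun m => coeff m f / ((m + 1 : ℕ) : K)

omit [IsUltrametricDist K] [CharZero K] [Algebra ℚ K] in
theorem constantCoeff_antid (f : K⟦X⟧) : constantCoeff (antid f) = 0 := by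
  rw [antid, map_mul, constantCoeff_X, zero_mul]

omit [IsUltrametricDist K] [CharZero K] [Algebra ℚ K] in
theorem coeff_antid (f : K⟦X⟧) (m : ℕ) :
    coeff (m + 1) (antid f) = coeff m f / ((m + 1 : ℕ) : K) := by
  rw [antid, coeff_succ_X_mul, coeff_mk]

omit [IsUltrametricDist K] [Algebra ℚ K] in
theorem derivative_antid (f : K⟦X⟧) : d⁄dX K (antid f) = f := by
  ext m
  rw [coeff_derivative, coeff_antid]
  have h3 : ((m + 1 : ℕ) : K) ≠ 0 := Nat.cast_ne_zero.mpr (Nat.succ_ne_zero m)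
  have h4 : ((m : K) + 1) = ((m + 1 : ℕ) : K) := by push_cast; rfl
  rw [h4, div_mul_cancel₀ _ h3]

omit [Algebra ℚ K] [CharZero K] in
theorem antid_bd {p : ℕ} (hp : p.Prime) {l : ℝ} (hl0 : 0 < l) (hl1 : l < 1)
    (hl : l ^ (p - 1) = ‖(p : K)‖) {r B : ℝ} (hr : 0 < r) {f : K⟦X⟧} (hf : Bd r B f) :
    Bd (r * l) (B * (r * l)) (antid f) := by
  intro m
  have hB0 := hf.nonneg
  rcases m with _ | m
  · rw [coeff_zero_eq_constantCoeff_apply, constantCoeff_antid, norm_zero, zero_mul]; positivity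
  · rw [coeff_antid, norm_div]
    have h1 := norm_nat_ge (K := K) hp hl0 hl1 hl m
    have h2 := hf m
    have h3 : (0 : ℝ) < l ^ m := pow_pos hl0 m
    calc ‖coeff m f‖ / ‖((m + 1 : ℕ) : K)‖ * (r * l) ^ (m + 1)
        ≤ ‖coeff m f‖ / (l ^ m) * (r * l) ^ (m + 1) := by gcongr
      _ = (‖coeff m f‖ * r ^ m) * (r * l) := by
          rw [mul_pow, pow_succ r, pow_succ l]; field_simp
      _ ≤ B * (r * l) := by gcongr

/-! ### functional equation -/

omit [IsUltrametricDist K] in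
theorem ex_add {F G : K⟦X⟧} (hF : constantCoeff F = 0) (hG : constantCoeff G = 0) :
    ex (F + G) = ex F * ex G := by
  have hFG : constantCoeff (F + G) = 0 := by rw [map_add, hF, hG, add_zero]
  refine ode_unique (a := d⁄dX K (F + G)) (derivative_ex hFG) ?_ ?_
  · rw [Derivation.leibniz, derivative_ex hF, derivative_ex hG, map_add, smul_eq_mul, smul_eq_mul]
    ring
  · rw [map_mul, constantCoeff_ex hFG, constantCoeff_ex hF, constantCoeff_ex hG, one_mul]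

omit [IsUltrametricDist K] in
theorem ex_zero : ex (0 : K⟦X⟧) = 1 := by
  have h0 : constantCoeff (0 : K⟦X⟧) = 0 := map_zero _
  refine ode_unique (a := 0) ?_ ?_ ?_
  · rw [derivative_ex h0, map_zero]
  · rw [← map_one (C (R := K)), derivative_C, zero_mul]
  · rw [constantCoeff_ex h0, map_one]

omit [IsUltrametricDist K] in
theorem ex_mul_neg {F : K⟦X⟧} (hF : constantCoeff F = 0) : ex F * ex (-F) = 1 := by
  have hF' : constantCoeff (-F) = 0 := by rw [map_neg, hF, neg_zero]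
  rw [← ex_add hF hF', add_neg_cancel, ex_zero]

omit [IsUltrametricDist K] in
theorem ex_nat {F : K⟦X⟧} (hF : constantCoeff F = 0) {N : ℕ} (hN : N ≠ 0) :
    ex F = ex (C ((N : K)⁻¹) * F) ^ N := by
  have hN' : (N : K) ≠ 0 := Nat.cast_ne_zero.mpr hN
  have hcF : constantCoeff (C ((N : K)⁻¹) * F) = 0 := by rw [map_mul, hF, mul_zero]
  refine ode_unique (a := d⁄dX K F) (derivative_ex hF) ?_ ?_
  · rw [derivative_pow, derivative_ex hcF, Derivation.leibniz, derivative_C, smul_zero, add_zero,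
      smul_eq_mul]
    have h1 : (N : K⟦X⟧) * C ((N : K)⁻¹) = 1 := by
      rw [← map_natCast (C (R := K)), ← map_mul, mul_inv_cancel₀ hN', map_one]
    obtain ⟨M, rfl⟩ := Nat.exists_eq_succ_of_ne_zero hN
    rw [Nat.succ_eq_add_one, Nat.add_sub_cancel, pow_succ]
    linear_combination (ex (C (((M + 1 : ℕ) : K)⁻¹) * F) ^ (M + 1) * d⁄dX K F) * h1
  · rw [map_pow, constantCoeff_ex hF, constantCoeff_ex hcF, one_pow]

omit [IsUltrametricDist K] [CharZero K] [Algebra ℚ K] in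
theorem Bd.C_mul {r B : ℝ} {f : K⟦X⟧} (hf : Bd r B f) (a : K) : Bd r (‖a‖ * B) (C a * f) := by
  intro m
  rw [coeff_C_mul, norm_mul, mul_assoc]
  gcongr
  exact hf m

omit [IsUltrametricDist K] [CharZero K] [Algebra ℚ K] in
/-- the tail of a power series -/
theorem tail_bd {f : K⟦X⟧} {R B : ℝ} (hR : 0 < R) (hf : Bd R B f) {k : ℕ}
    (h0 : ∀ m < k, coeff m f = 0) {s : ℝ} (hs : 0 < s) (hsR : s ≤ R) :
    Bd s (B / R ^ (k + 1) * s ^ (k + 1)) (f - monomial k (coeff k f)) := by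
  intro m
  have hB := hf.nonneg
  rw [map_sub, coeff_monomial]
  rcases lt_trichotomy m k with h | h | h
  · rw [if_neg h.ne, h0 m h, sub_zero, norm_zero, zero_mul]; positivity
  · subst h; rw [if_pos rfl, sub_self, norm_zero, zero_mul]; positivity
  · rw [if_neg h.ne', sub_zero]
    obtain ⟨j, rfl⟩ : ∃ j, m = k + 1 + j := ⟨m - (k + 1), by omega⟩
    have h2 := hf (k + 1 + j)
    have h1 : ‖coeff (k + 1 + j) f‖ ≤ B / R ^ (k + 1 + j) := (le_div_iff₀ (pow_pos hR _)).mpr h2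
    calc ‖coeff (k + 1 + j) f‖ * s ^ (k + 1 + j)
        ≤ B / R ^ (k + 1 + j) * s ^ (k + 1 + j) := by gcongr
      _ = B / R ^ (k + 1) * s ^ (k + 1) * (s / R) ^ j := by
          rw [pow_add R, pow_add s, div_pow]; field_simp
      _ ≤ B / R ^ (k + 1) * s ^ (k + 1) * 1 := by
          gcongr
          exact pow_le_one₀ (by positivity) ((div_le_one hR).mpr hsR)
      _ = _ := mul_one _

/-- **structure of `u' = (omega + eta) u` on a small disc** -/
theorem kas_formal {p : ℕ} (hp : p.Prime) {l : ℝ} (hl0 : 0 < l) (hl1 : l < 1)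
    (hl : l ^ (p - 1) = ‖(p : K)‖) {om : K⟦X⟧} {R D : ℝ} (hR : 0 < R) (hom : Bd R D om) {i : ℕ}
    (h0 : ∀ m < i, coeff m om = 0) (hi : coeff i om ≠ 0) :
    ∃ rs : ℝ, 0 < rs ∧ ∀ (n : ℕ) (r : ℝ), 0 < r → r < rs →
      ‖coeff i om / ((i + 1 : ℕ) : K)‖ * r ^ (i + 1) = ‖(p : K)‖ ^ n * l ^ p →
      ∃ r1 : ℝ, r < r1 ∧ r1 < rs ∧ ∀ eta : K⟦X⟧, Bd R (‖(p : K)‖ ^ (n + 1) / R) eta →
        ∀ u : K⟦X⟧, constantCoeff u = 1 → d⁄dX K u = (om + eta) * u →
          ∃ A A2 B e : K⟦X⟧, u = A ^ p ^ (n + 1) * B ^ p ^ n ∧ A * A2 = 1 ∧ Bd r1 1 A2 ∧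
            B = 1 + monomial (i + 1) (coeff i om / ((i + 1 : ℕ) : K) / (p : K) ^ n) + e ∧
            constantCoeff A = 1 ∧ constantCoeff B = 1 ∧
            Bd r1 1 A ∧ Bd r1 1 B ∧ Bd r1 1 e ∧ ∃ th : ℝ, th < l ^ p ∧ Bd r th e := by
  have hp1 : ‖(p : K)‖ < 1 := by
    rw [← hl]
    exact pow_lt_one₀ hl0.le hl1 (by have := hp.two_le; omega)
  have hp0 : 0 < ‖(p : K)‖ := by rw [← hl]; exact pow_pos hl0 _
  have hpK : (p : K) ≠ 0 := norm_pos_iff.mp hp0
  set F := antid om with hF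
  have hF0 : constantCoeff F = 0 := constantCoeff_antid om
  have hFb : Bd (R * l) (D * (R * l)) F := antid_bd hp hl0 hl1 hl hR hom
  have hD0 : 0 ≤ D := hom.nonneg
  set b : K := coeff i om / ((i + 1 : ℕ) : K) with hb
  have hcF : coeff (i + 1) F = b := coeff_antid om i
  have hb0 : b ≠ 0 := div_ne_zero hi (Nat.cast_ne_zero.mpr (Nat.succ_ne_zero i))
  have hbn : 0 < ‖b‖ := norm_pos_iff.mpr hb0
  have hF1 : ∀ m < i + 1, coeff m F = 0 := by
    intro m hm
    rcases m with _ | m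
    · rw [coeff_zero_eq_constantCoeff_apply, hF0]
    · rw [hF, coeff_antid, h0 m (by omega), zero_div]
  have hRl : 0 < R * l := mul_pos hR hl0
  set M : ℝ := D * (R * l) / (R * l) ^ (i + 1 + 1) with hM
  have hM0 : 0 ≤ M := by positivity
  -- the radius
  obtain ⟨rs, hrs0, hrs1, hrs2⟩ : ∃ rs : ℝ, 0 < rs ∧ rs ≤ R * l ∧ M * rs ≤ ‖b‖ := by
    refine ⟨min (R * l) (‖b‖ / (M + 1)), ?_, min_le_left _ _, ?_⟩
    · exact lt_min hRl (by positivity)
    · calc M * min (R * l) (‖b‖ / (M + 1)) ≤ (M + 1) * (‖b‖ / (M + 1)) := by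
            gcongr
            · linarith
            · exact min_le_right _ _
        _ = ‖b‖ := by field_simp
  refine ⟨rs, hrs0, fun n r hr hrrs hrn => ?_⟩
  -- the bigger radius
  have hlp : l ^ p < l := by
    calc l ^ p < l ^ 1 := pow_lt_pow_right_of_lt_one₀ hl0 hl1 hp.one_lt
      _ = l := pow_one l
  have hev : ∀ᶠ s : ℝ in nhds r, ‖b‖ * s ^ (i + 1) < ‖(p : K)‖ ^ n * l ∧ s < rs := by
    refine Filter.Eventually.and ?_ ?_
    · have hcont : Continuous fun s : ℝ => ‖b‖ * s ^ (i + 1) := by fun_prop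
      refine hcont.continuousAt.eventually_lt continuousAt_const ?_
      rw [hrn]
      gcongr
    · exact (continuous_id.continuousAt.eventually_lt continuousAt_const hrrs)
  obtain ⟨r1, ⟨⟨hr1a, hr1b⟩, hr1c⟩⟩ : ∃ r1 : ℝ, (‖b‖ * r1 ^ (i + 1) < ‖(p : K)‖ ^ n * l ∧ r1 < rs) ∧
      r < r1 := by
    have h1 : ∀ᶠ s : ℝ in nhdsWithin r (Set.Ioi r),
        (‖b‖ * s ^ (i + 1) < ‖(p : K)‖ ^ n * l ∧ s < rs) ∧ r < s :=
      (hev.filter_mono nhdsWithin_le_nhds).and self_mem_nhdsWithin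
    exact h1.exists
  have hr1 : 0 < r1 := hr.trans hr1c
  refine ⟨r1, hr1c, hr1b, fun eta heta u hu0 hu => ?_⟩
  set G := antid eta with hG
  have hG0 : constantCoeff G = 0 := constantCoeff_antid eta
  have hGb : Bd (R * l) (‖(p : K)‖ ^ (n + 1) / R * (R * l)) G := antid_bd hp hl0 hl1 hl hR heta
  have hP : (p ^ (n + 1) : ℕ) ≠ 0 := pow_ne_zero _ hp.ne_zero
  have hQ : (p ^ n : ℕ) ≠ 0 := pow_ne_zero _ hp.ne_zero
  set A := ex (C (((p ^ (n + 1) : ℕ) : K)⁻¹) * G) with hA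
  set B := ex (C (((p ^ n : ℕ) : K)⁻¹) * F) with hB
  have hFn0 : constantCoeff (C (((p ^ n : ℕ) : K)⁻¹) * F) = 0 := by rw [map_mul, hF0, mul_zero]
  have hGn0 : constantCoeff (C (((p ^ (n + 1) : ℕ) : K)⁻¹) * G) = 0 := by
    rw [map_mul, hG0, mul_zero]
  have hu1 : u = A ^ p ^ (n + 1) * B ^ p ^ n := by
    rw [hA, hB, ← ex_nat hG0 hP, ← ex_nat hF0 hQ, ← ex_add hG0 hF0]
    have hGF : constantCoeff (G + F) = 0 := by rw [map_add, hG0, hF0, add_zero]
    refine ode_unique (a := om + eta) hu ?_ ?_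
    · rw [derivative_ex hGF, map_add, hG, hF, derivative_antid, derivative_antid, add_comm]
    · rw [hu0, constantCoeff_ex hGF]
  -- norms of the constants
  have hnP : ‖(((p ^ (n + 1) : ℕ) : K)⁻¹)‖ = (‖(p : K)‖ ^ (n + 1))⁻¹ := by
    rw [norm_inv, Nat.cast_pow, norm_pow]
  have hnQ : ‖(((p ^ n : ℕ) : K)⁻¹)‖ = (‖(p : K)‖ ^ n)⁻¹ := by
    rw [norm_inv, Nat.cast_pow, norm_pow]
  -- A
  have hGn1 : Bd r1 l (C (((p ^ (n + 1) : ℕ) : K)⁻¹) * G) := by
    refine Bd.mono_left ?_ hr1.le (hr1b.le.trans hrs1)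
    have := hGb.C_mul (((p ^ (n + 1) : ℕ) : K)⁻¹)
    rw [hnP] at this
    refine this.mono (le_of_eq ?_)
    field_simp
  have hA1 : Bd r1 1 A := ex_bd_one hp hl0 hl1 hl hr1 hGn0 (B := l) hGn1 le_rfl
  have hGn0' : constantCoeff (-(C (((p ^ (n + 1) : ℕ) : K)⁻¹) * G)) = 0 := by
    rw [map_neg, hGn0, neg_zero]
  have hA2 : Bd r1 1 (ex (-(C (((p ^ (n + 1) : ℕ) : K)⁻¹) * G))) :=
    ex_bd_one hp hl0 hl1 hl hr1 hGn0' (B := l) hGn1.neg le_rfl
  -- F = leading + tail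
  have htail : ∀ s : ℝ, 0 < s → s ≤ R * l → Bd s (M * s ^ (i + 1 + 1)) (F - monomial (i + 1) b) := by
    intro s hs hsR
    have := tail_bd hRl hFb hF1 hs hsR
    rwa [hcF] at this
  have hFs : ∀ s : ℝ, 0 < s → s ≤ rs → Bd s (‖b‖ * s ^ (i + 1)) F := by
    intro s hs hsrs
    have h1 : F = monomial (i + 1) b + (F - monomial (i + 1) b) := by ring
    rw [h1]
    refine (bd_monomial hs.le (i + 1) b).add hs.le ((htail s hs (hsrs.trans hrs1)).mono ?_)
    calc M * s ^ (i + 1 + 1) = (M * s) * s ^ (i + 1) := by ring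
      _ ≤ ‖b‖ * s ^ (i + 1) := by
          gcongr
          exact (mul_le_mul_of_nonneg_left hsrs hM0).trans hrs2
  -- B at radius r1
  have hB1 : Bd r1 1 B := by
    refine ex_bd_one hp hl0 hl1 hl hr1 hFn0 (B := l) ?_ le_rfl
    have := (hFs r1 hr1 hr1b.le).C_mul (((p ^ n : ℕ) : K)⁻¹)
    rw [hnQ] at this
    refine this.mono ?_
    calc (‖(p : K)‖ ^ n)⁻¹ * (‖b‖ * r1 ^ (i + 1)) ≤ (‖(p : K)‖ ^ n)⁻¹ * (‖(p : K)‖ ^ n * l) := by
          gcongr
      _ = l := by field_simp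
  set c : K := b / (p : K) ^ n with hc
  have hcm : C (((p ^ n : ℕ) : K)⁻¹) * (monomial (i + 1) b) = monomial (i + 1) c := by
    ext m
    rw [coeff_C_mul, coeff_monomial, coeff_monomial, hc, Nat.cast_pow]
    split_ifs
    · rw [div_eq_inv_mul]
    · rw [mul_zero]
  have hcn : ‖c‖ = (‖(p : K)‖ ^ n)⁻¹ * ‖b‖ := by rw [hc, norm_div, norm_pow]; field_simp
  have hpn : 0 < ‖(p : K)‖ ^ n := pow_pos hp0 n
  refine ⟨A, ex (-(C (((p ^ (n + 1) : ℕ) : K)⁻¹) * G)), B, B - 1 - monomial (i + 1) c, hu1,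
    ex_mul_neg hGn0, hA2, by ring, constantCoeff_ex hGn0,
    constantCoeff_ex hFn0, hA1, hB1, ?_, ?_⟩
  · refine (hB1.sub hr1.le bd_one).sub hr1.le ((bd_monomial hr1.le (i + 1) c).mono ?_)
    rw [hcn]
    calc (‖(p : K)‖ ^ n)⁻¹ * ‖b‖ * r1 ^ (i + 1)
        = (‖(p : K)‖ ^ n)⁻¹ * (‖b‖ * r1 ^ (i + 1)) := by ring
      _ ≤ (‖(p : K)‖ ^ n)⁻¹ * (‖(p : K)‖ ^ n * l) := by gcongr
      _ = l := by field_simp
      _ ≤ 1 := hl1.le
  · -- the error at radius r
    have hFr : Bd r (l ^ p) (C (((p ^ n : ℕ) : K)⁻¹) * F) := by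
      have := (hFs r hr hrrs.le).C_mul (((p ^ n : ℕ) : K)⁻¹)
      rw [hnQ, hrn] at this
      refine this.mono (le_of_eq ?_)
      field_simp
    have h1 := ex_bd hp hl0 hl1 hl hr hFn0 hFr hlp.le
    have h2 : Bd r ((‖(p : K)‖ ^ n)⁻¹ * (M * r ^ (i + 1 + 1)))
        (C (((p ^ n : ℕ) : K)⁻¹) * (F - monomial (i + 1) b)) := by
      have := (htail r hr (hrrs.le.trans hrs1)).C_mul (((p ^ n : ℕ) : K)⁻¹)
      rwa [hnQ] at this
    have h3 : l ^ p * (l ^ p / l) < l ^ p := by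
      calc l ^ p * (l ^ p / l) < l ^ p * 1 := by
            gcongr
            exact (div_lt_one hl0).mpr hlp
        _ = l ^ p := mul_one _
    have h4 : (‖(p : K)‖ ^ n)⁻¹ * (M * r ^ (i + 1 + 1)) < l ^ p := by
      calc (‖(p : K)‖ ^ n)⁻¹ * (M * r ^ (i + 1 + 1))
          = (‖(p : K)‖ ^ n)⁻¹ * ((M * r) * r ^ (i + 1)) := by ring
        _ < (‖(p : K)‖ ^ n)⁻¹ * (‖b‖ * r ^ (i + 1)) := by
            gcongr
            rcases hM0.eq_or_lt with h | h
            · rw [← h, zero_mul]; exact hbn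
            · exact lt_of_lt_of_le (mul_lt_mul_of_pos_left hrrs h) hrs2
        _ = l ^ p := by rw [hrn]; field_simp
    refine ⟨max (l ^ p * (l ^ p / l)) ((‖(p : K)‖ ^ n)⁻¹ * (M * r ^ (i + 1 + 1))),
      max_lt h3 h4, ?_⟩
    have h5 : B - 1 - monomial (i + 1) c = (B - 1 - C (((p ^ n : ℕ) : K)⁻¹) * F) +
        C (((p ^ n : ℕ) : K)⁻¹) * (F - monomial (i + 1) b) := by
      rw [mul_sub, hcm]; ring
    rw [h5]
    exact (h1.mono (le_max_left _ _)).add hr.le (h2.mono (le_max_right _ _))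

end Crest.Agent.R013.KAS2_940
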