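import Mathlib
import Crest.Agent.R013.KAS2_940

/-!
# R013 / HU1: the analytic function `H_u` (helper522)

`F` a complete ultrametric field of characteristic `0` with `‖p‖ < 1`.
`U1 F` = units `u` of `F⟦T⟧` with `u(0) = 1` and integral coefficients.
* `dl u = u'/u`.
* `exists_unique_lim` : `W (n+1) = W n * G ^ (p^n)` implies that there is a unique `H` which is
  `W n * (p^n-th power)` for every `n`.
-/

set_option autoImplicit false
set_option linter.all false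

open scoped NNReal
open PowerSeries Filter Topology

namespace Crest.Agent.R013.HU1_522

open Crest.Agent.R013.KAS2_940 (Bd)

section Basic

variable {F : Type*} [NormedField F] [IsUltrametricDist F]

/-- integral coefficients -/
def Int1 (f : F⟦X⟧) : Prop := ∀ n, ‖coeff n f‖ ≤ 1

theorem int1_iff {f : F⟦X⟧} : Int1 f ↔ Bd 1 1 f := by
  unfold Int1 Bd
  simp

theorem Int1.mul {f g : F⟦X⟧} (hf : Int1 f) (hg : Int1 g) : Int1 (f * g) := by
  rw [int1_iff] at *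
  have := KAS2_940.Bd.mul one_pos hf hg
  rwa [one_mul] at this

theorem int1_one : Int1 (1 : F⟦X⟧) := by
  rw [int1_iff]; exact KAS2_940.bd_one

theorem Int1.add {f g : F⟦X⟧} (hf : Int1 f) (hg : Int1 g) : Int1 (f + g) := by
  rw [int1_iff] at *
  exact KAS2_940.Bd.add zero_le_one hf hg

theorem Int1.sub {f g : F⟦X⟧} (hf : Int1 f) (hg : Int1 g) : Int1 (f - g) := by
  rw [int1_iff] at *
  exact KAS2_940.Bd.sub zero_le_one hf hg

theorem Int1.pow {f : F⟦X⟧} (hf : Int1 f) (n : ℕ) : Int1 (f ^ n) := by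
  induction n with
  | zero => rw [pow_zero]; exact int1_one
  | succ n ih => rw [pow_succ]; exact ih.mul hf

theorem Int1.derivative {f : F⟦X⟧} (hf : Int1 f) : Int1 (d⁄dX F f) := by
  intro n
  rw [coeff_derivative, norm_mul]
  have h1 : ‖((n : F) + 1)‖ ≤ 1 := by
    have := IsUltrametricDist.norm_natCast_le_one F (n + 1)
    rwa [Nat.cast_add, Nat.cast_one] at this
  calc ‖coeff (n + 1) f‖ * ‖(n : F) + 1‖ ≤ 1 * 1 :=
        mul_le_mul (hf _) h1 (norm_nonneg _) zero_le_one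
    _ = 1 := one_mul 1

theorem int1_of_mul_eq_one {f g : F⟦X⟧} (hf : Int1 f) (h0 : coeff 0 f = 1) (h : f * g = 1) :
    Int1 g := by
  have hg0 : coeff 0 g = 1 := by
    have h1 := congrArg constantCoeff h
    rw [map_mul, map_one, ← coeff_zero_eq_constantCoeff_apply, ← coeff_zero_eq_constantCoeff_apply,
      h0, one_mul] at h1
    exact h1
  intro n
  induction n using Nat.strong_induction_on with
  | _ n ih =>
    rcases Nat.eq_zero_or_pos n with hn | hn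
    · subst hn; rw [hg0]; simp
    · have h1 := congrArg (coeff n) h
      rw [coeff_mul, coeff_one, if_neg hn.ne'] at h1
      have h2 : (0, n) ∈ Finset.HasAntidiagonal.antidiagonal n := by simp
      rw [← Finset.add_sum_erase _ _ h2] at h1
      simp only [h0, one_mul] at h1
      have h3 : coeff n g = -∑ x ∈ (Finset.HasAntidiagonal.antidiagonal n).erase (0, n),
          coeff x.1 f * coeff x.2 g :=
        eq_neg_of_add_eq_zero_left h1
      rw [h3, norm_neg]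
      refine IsUltrametricDist.norm_sum_le_of_forall_le_of_nonneg zero_le_one ?_
      intro x hx
      rw [Finset.mem_erase, Finset.HasAntidiagonal.mem_antidiagonal] at hx
      have hlt : x.2 < n := by
        rcases Nat.eq_zero_or_pos x.1 with h4 | h4
        · exfalso
          apply hx.1
          ext
          · exact h4
          · simp; omega
        · omega
      rw [norm_mul]
      calc ‖coeff x.1 f‖ * ‖coeff x.2 g‖ ≤ 1 * 1 :=
            mul_le_mul (hf _) (ih _ hlt) (norm_nonneg _) zero_le_one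
        _ = 1 := one_mul 1

variable (F) in
/-- units with constant term `1` and integral coefficients -/
def U1 : Subgroup (F⟦X⟧)ˣ where
  carrier := {u | coeff 0 (u : F⟦X⟧) = 1 ∧ Int1 (u : F⟦X⟧)}
  mul_mem' := by
    rintro a b ⟨ha0, ha⟩ ⟨hb0, hb⟩
    refine ⟨?_, ?_⟩
    · rw [Units.val_mul]
      simp only [coeff_zero_eq_constantCoeff, RingHom.coe_coe, map_mul] at ha0 hb0 ⊢
      rw [ha0, hb0, one_mul]
    · rw [Units.val_mul]
      exact ha.mul hb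
  one_mem' := ⟨by simp, by rw [Units.val_one]; exact int1_one⟩
  inv_mem' := by
    rintro a ⟨ha0, ha⟩
    have h := a.mul_inv
    refine ⟨?_, int1_of_mul_eq_one ha ha0 h⟩
    have h1 := congrArg constantCoeff h
    simp only [coeff_zero_eq_constantCoeff, RingHom.coe_coe, map_mul, map_one] at ha0 h1 ⊢
    rw [ha0, one_mul] at h1
    exact h1

theorem U1.const (u : U1 F) : constantCoeff ((u : (F⟦X⟧)ˣ) : F⟦X⟧) = 1 := by
  have := u.2.1
  rwa [coeff_zero_eq_constantCoeff_apply] at this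

theorem U1.int (u : U1 F) : Int1 ((u : (F⟦X⟧)ˣ) : F⟦X⟧) := u.2.2

theorem U1.ext' {u v : U1 F} (h : ((u : (F⟦X⟧)ˣ) : F⟦X⟧) = ((v : (F⟦X⟧)ˣ) : F⟦X⟧)) : u = v :=
  Subtype.ext (Units.ext h)

/-- make an element of `U1` -/
noncomputable def U1.mk' (f : F⟦X⟧) (h0 : constantCoeff f = 1) (h : Int1 f) : U1 F :=
  ⟨⟨f, PowerSeries.invOfUnit f 1, PowerSeries.mul_invOfUnit f 1 (by simpa using h0),
    by rw [mul_comm]; exact PowerSeries.mul_invOfUnit f 1 (by simpa using h0)⟩,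
   by rw [coeff_zero_eq_constantCoeff_apply]; exact h0, h⟩

theorem U1.mk'_val (f : F⟦X⟧) (h0 : constantCoeff f = 1) (h : Int1 f) :
    ((U1.mk' f h0 h : (F⟦X⟧)ˣ) : F⟦X⟧) = f := rfl

/-- logarithmic derivative -/
noncomputable def dlU (u : (F⟦X⟧)ˣ) : F⟦X⟧ := d⁄dX F (u : F⟦X⟧) * ((u⁻¹ : (F⟦X⟧)ˣ) : F⟦X⟧)

theorem dlU_mul_val (u : (F⟦X⟧)ˣ) : dlU u * (u : F⟦X⟧) = d⁄dX F (u : F⟦X⟧) := by
  rw [dlU, mul_assoc, Units.inv_mul, mul_one]

theorem dlU_mul (u v : (F⟦X⟧)ˣ) : dlU (u * v) = dlU u + dlU v := by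
  have h : dlU (u * v) * ((u * v : (F⟦X⟧)ˣ) : F⟦X⟧) = (dlU u + dlU v) * ((u * v : (F⟦X⟧)ˣ) : F⟦X⟧) := by
    rw [dlU_mul_val, Units.val_mul, Derivation.leibniz, ← dlU_mul_val u, ← dlU_mul_val v]
    simp only [smul_eq_mul]
    ring
  exact (Units.mul_left_inj (u * v)).mp h

/-- logarithmic derivative of an element of `U1` -/
noncomputable def dl (u : U1 F) : F⟦X⟧ := dlU (u : (F⟦X⟧)ˣ)

theorem dl_mul (u v : U1 F) : dl (u * v) = dl u + dl v := dlU_mul _ _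

theorem dl_one : dl (1 : U1 F) = 0 := by
  have := dl_mul (1 : U1 F) 1
  rw [mul_one] at this
  exact left_eq_add.mp this

theorem dl_inv (u : U1 F) : dl u⁻¹ = -dl u := by
  have := dl_mul u u⁻¹
  rw [mul_inv_cancel, dl_one] at this
  exact (neg_eq_of_add_eq_zero_right this.symm).symm

theorem dl_pow (u : U1 F) (n : ℕ) : dl (u ^ n) = n • dl u := by
  induction n with
  | zero => simp [dl_one]
  | succ n ih => rw [pow_succ, dl_mul, ih, succ_nsmul]

theorem dl_spec (u : U1 F) : d⁄dX F ((u : (F⟦X⟧)ˣ) : F⟦X⟧) = dl u * ((u : (F⟦X⟧)ˣ) : F⟦X⟧) :=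
  (dlU_mul_val _).symm

theorem dl_int (u : U1 F) : Int1 (dl u) := by
  unfold dl dlU
  exact (U1.int u).derivative.mul (U1.int u⁻¹)

theorem dl_eq_zero_iff [CharZero F] {u : U1 F} : dl u = 0 ↔ u = 1 := by
  constructor
  · intro h
    have h1 := dl_spec u
    rw [h, zero_mul] at h1
    apply U1.ext'
    have h2 : ((u : (F⟦X⟧)ˣ) : F⟦X⟧) = 1 := by
      apply PowerSeries.derivative.ext
      · rw [h1]; simp
      · rw [U1.const]; simp
    rw [h2]; rfl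
  · rintro rfl; exact dl_one

theorem dl_injective [CharZero F] : Function.Injective (dl : U1 F → F⟦X⟧) := by
  intro u v h
  have h1 : dl (u * v⁻¹) = 0 := by rw [dl_mul, dl_inv, h, add_neg_cancel]
  rw [dl_eq_zero_iff] at h1
  exact mul_inv_eq_one.mp h1

theorem eq_one_of_pow_eq_one [CharZero F] {u : U1 F} {n : ℕ} (hn : n ≠ 0) (h : u ^ n = 1) : u = 1 := by
  have h1 := dl_pow u n
  rw [h, dl_one] at h1
  rw [← dl_eq_zero_iff]
  rw [nsmul_eq_mul] at h1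
  rcases mul_eq_zero.mp h1.symm with h2 | h2
  · exfalso
    have h3 := congrArg constantCoeff h2
    rw [map_natCast, map_zero] at h3
    exact hn (by exact_mod_cast h3)
  · exact h2

theorem pow_injective [CharZero F] {n : ℕ} (hn : n ≠ 0) : Function.Injective fun u : U1 F => u ^ n := by
  intro u v h
  have h1 : (u * v⁻¹) ^ n = 1 := by
    rw [mul_pow, inv_pow]
    simp only at h
    rw [h, mul_inv_cancel]
  exact mul_inv_eq_one.mp (eq_one_of_pow_eq_one hn h1)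

/-- the coefficients of a power: `‖l‖ ‖coeff l (u^N)‖ ≤ ‖N‖` -/
theorem coeff_pow_le (u : U1 F) (N l : ℕ) :
    ‖((l + 1 : ℕ) : F)‖ * ‖coeff (l + 1) (((u ^ N : U1 F) : (F⟦X⟧)ˣ) : F⟦X⟧)‖ ≤ ‖(N : F)‖ := by
  have h1 : coeff l (d⁄dX F (((u ^ N : U1 F) : (F⟦X⟧)ˣ) : F⟦X⟧)) =
      coeff (l + 1) (((u ^ N : U1 F) : (F⟦X⟧)ˣ) : F⟦X⟧) * ((l : F) + 1) := coeff_derivative _ _
  have h2 : ‖coeff l (d⁄dX F (((u ^ N : U1 F) : (F⟦X⟧)ˣ) : F⟦X⟧))‖ ≤ ‖(N : F)‖ := by
    rw [dl_spec, dl_pow, nsmul_eq_mul, mul_assoc]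
    have h3 : (N : F⟦X⟧) = C (N : F) := by simp
    rw [h3, coeff_C_mul, norm_mul]
    calc ‖(N : F)‖ * ‖coeff l (dl u * (((u ^ N : U1 F) : (F⟦X⟧)ˣ) : F⟦X⟧))‖ ≤ ‖(N : F)‖ * 1 := by
          gcongr
          exact ((dl_int u).mul (U1.int _)) l
      _ = ‖(N : F)‖ := mul_one _
  rw [h1, norm_mul] at h2
  rw [mul_comm]
  push_cast
  exact h2

theorem coeff_dl_pow_le (u : U1 F) (N l : ℕ) : ‖coeff l (dl (u ^ N))‖ ≤ ‖(N : F)‖ := by
  rw [dl_pow, nsmul_eq_mul]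
  have h3 : (N : F⟦X⟧) = C (N : F) := by simp
  rw [h3, coeff_C_mul, norm_mul]
  calc ‖(N : F)‖ * ‖coeff l (dl u)‖ ≤ ‖(N : F)‖ * 1 := by
        gcongr
        exact dl_int u l
    _ = ‖(N : F)‖ := mul_one _

end Basic

section Limit

variable {F : Type*} [NormedField F] [IsUltrametricDist F] [CharZero F]
  {p : ℕ} (hp : ‖(p : F)‖ < 1)

include hp

theorem tendsto_norm_pow : Tendsto (fun n => ‖((p ^ n : ℕ) : F)‖) atTop (𝓝 0) := by
  have : (fun n => ‖((p ^ n : ℕ) : F)‖) = fun n => ‖(p : F)‖ ^ n := by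
    funext n; rw [Nat.cast_pow, norm_pow]
  rw [this]
  exact tendsto_pow_atTop_nhds_zero_of_lt_one (norm_nonneg _) hp

/-- an element which is a `p^n`-th power for all `n` is `1` -/
theorem eq_one_of_forall_pow {u : U1 F} (h : ∀ n, ∃ V : U1 F, u = V ^ (p ^ n)) : u = 1 := by
  rw [← dl_eq_zero_iff]
  ext l
  have h1 : ∀ n, ‖coeff l (dl u)‖ ≤ ‖((p ^ n : ℕ) : F)‖ := by
    intro n
    obtain ⟨V, hV⟩ := h n
    rw [hV]
    exact coeff_dl_pow_le V _ l
  have h2 : ‖coeff l (dl u)‖ ≤ 0 :=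
    ge_of_tendsto' (tendsto_norm_pow hp) h1
  have h3 := norm_le_zero_iff.mp h2
  rw [h3]; simp

variable [CompleteSpace F]

/-- coefficientwise convergence -/
theorem exists_coeff_lim (W : ℕ → U1 F) (hW : ∀ n, ∃ G : U1 F, W (n + 1) = W n * G ^ (p ^ n)) :
    ∃ H : U1 F, ∀ l, Tendsto (fun n => coeff l ((W n : (F⟦X⟧)ˣ) : F⟦X⟧)) atTop
      (𝓝 (coeff l ((H : (F⟦X⟧)ˣ) : F⟦X⟧))) := by
  have hc : ∀ l, ∃ a, Tendsto (fun n => coeff l ((W n : (F⟦X⟧)ˣ) : F⟦X⟧)) atTop (𝓝 a) := by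
    intro l
    -- a constant bounding `1/‖j‖`, `1 ≤ j ≤ l`
    set M : ℝ := 1 + ∑ j ∈ Finset.range l, ‖((j + 1 : ℕ) : F)‖⁻¹ with hM
    have hMpos : 0 < M := by positivity
    apply cauchySeq_tendsto_of_complete
    refine cauchySeq_of_le_geometric ‖(p : F)‖ M hp fun n => ?_
    obtain ⟨G, hG⟩ := hW n
    rw [dist_eq_norm, norm_sub_rev, hG]
    have h1 : (((W n * G ^ (p ^ n) : U1 F) : (F⟦X⟧)ˣ) : F⟦X⟧) =
        ((W n : (F⟦X⟧)ˣ) : F⟦X⟧) + ((W n : (F⟦X⟧)ˣ) : F⟦X⟧) *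
          ((((G ^ (p ^ n) : U1 F) : (F⟦X⟧)ˣ) : F⟦X⟧) - 1) := by
      rw [Subgroup.coe_mul, Units.val_mul]; ring
    rw [h1, map_add, add_sub_cancel_left, coeff_mul]
    refine IsUltrametricDist.norm_sum_le_of_forall_le_of_nonneg (by positivity) ?_
    intro x hx
    rw [Finset.HasAntidiagonal.mem_antidiagonal] at hx
    rw [norm_mul]
    have h2 : ‖coeff x.2 ((((G ^ (p ^ n) : U1 F) : (F⟦X⟧)ˣ) : F⟦X⟧) - 1)‖ ≤ M * ‖(p : F)‖ ^ n := by
      rcases Nat.eq_zero_or_pos x.2 with h0 | h0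
      · rw [h0, map_sub, coeff_zero_eq_constantCoeff_apply, coeff_zero_eq_constantCoeff_apply,
          U1.const, map_one, sub_self, norm_zero]
        positivity
      · obtain ⟨j, hj⟩ : ∃ j, x.2 = j + 1 := ⟨x.2 - 1, by omega⟩
        rw [hj, map_sub, coeff_one, if_neg (by omega), sub_zero]
        have h3 := coeff_pow_le G (p ^ n) j
        have h4 : 0 < ‖((j + 1 : ℕ) : F)‖ := by
          rw [norm_pos_iff]; exact_mod_cast Nat.succ_ne_zero j
        have h5 : ‖coeff (j + 1) (((G ^ (p ^ n) : U1 F) : (F⟦X⟧)ˣ) : F⟦X⟧)‖ ≤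
            ‖((j + 1 : ℕ) : F)‖⁻¹ * ‖((p ^ n : ℕ) : F)‖ := by
          rw [← div_eq_inv_mul, le_div_iff₀ h4, mul_comm]
          exact h3
        have h6 : ‖((j + 1 : ℕ) : F)‖⁻¹ ≤ M := by
          have : ‖((j + 1 : ℕ) : F)‖⁻¹ ≤ ∑ j ∈ Finset.range l, ‖((j + 1 : ℕ) : F)‖⁻¹ :=
            Finset.single_le_sum (f := fun j : ℕ => ‖((j + 1 : ℕ) : F)‖⁻¹)
              (fun _ _ => by positivity) (Finset.mem_range.mpr (by omega))
          rw [hM]; linarith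
        rw [Nat.cast_pow, norm_pow] at h5
        exact h5.trans (mul_le_mul_of_nonneg_right h6 (by positivity))
    calc ‖coeff x.1 ((W n : (F⟦X⟧)ˣ) : F⟦X⟧)‖ * ‖coeff x.2 ((((G ^ (p ^ n) : U1 F) : (F⟦X⟧)ˣ) : F⟦X⟧) - 1)‖
        ≤ 1 * (M * ‖(p : F)‖ ^ n) := mul_le_mul (U1.int _ _) h2 (norm_nonneg _) zero_le_one
      _ = M * ‖(p : F)‖ ^ n := one_mul _
  choose a ha using hc
  refine ⟨U1.mk' (PowerSeries.mk a) ?_ ?_, fun l => ?_⟩
  · have h1 := ha 0
    have h2 : (fun n => coeff 0 ((W n : (F⟦X⟧)ˣ) : F⟦X⟧)) = fun _ => (1 : F) := by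
      funext n; rw [coeff_zero_eq_constantCoeff_apply, U1.const]
    rw [h2] at h1
    have h3 : a 0 = 1 := tendsto_nhds_unique h1 tendsto_const_nhds
    rw [← coeff_zero_eq_constantCoeff_apply, coeff_mk, h3]
  · intro l
    rw [coeff_mk]
    exact le_of_tendsto' (ha l).norm fun n => U1.int (W n) l
  · rw [U1.mk'_val, coeff_mk]
    exact ha l

theorem exists_lim (W : ℕ → U1 F) (hW : ∀ n, ∃ G : U1 F, W (n + 1) = W n * G ^ (p ^ n)) :
    ∃ H : U1 F, (∀ n, ∃ V : U1 F, H = W n * V ^ (p ^ n)) ∧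
      ∀ l, Tendsto (fun n => coeff l ((W n : (F⟦X⟧)ˣ) : F⟦X⟧)) atTop
        (𝓝 (coeff l ((H : (F⟦X⟧)ˣ) : F⟦X⟧))) := by
  obtain ⟨H, hH⟩ := exists_coeff_lim hp W hW
  refine ⟨H, fun n => ?_, hH⟩
  · -- the product of the `G m ^ (p^(m-n))`
    choose G hG using hW
    let W' : ℕ → U1 F := fun k => ∏ m ∈ Finset.range k, G (n + m) ^ (p ^ m)
    have hW' : ∀ k, ∃ G' : U1 F, W' (k + 1) = W' k * G' ^ (p ^ k) := fun k =>
      ⟨G (n + k), by simp only [W']; rw [Finset.prod_range_succ]⟩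
    obtain ⟨V, hV⟩ := exists_coeff_lim hp W' hW'
    refine ⟨V, ?_⟩
    have hrel : ∀ k, W (n + k) = W n * (W' k) ^ (p ^ n) := by
      intro k
      induction k with
      | zero => simp [W']
      | succ k ih =>
        rw [← add_assoc, hG, ih]
        simp only [W']
        rw [Finset.prod_range_succ, mul_pow, ← pow_mul, ← pow_add, add_comm k n, mul_assoc]
    apply U1.ext'
    open scoped PowerSeries.WithPiTopology in
    have hT1 : Tendsto (fun k => ((W (n + k) : (F⟦X⟧)ˣ) : F⟦X⟧)) atTop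
        (𝓝 ((H : (F⟦X⟧)ˣ) : F⟦X⟧)) := by
      rw [PowerSeries.WithPiTopology.tendsto_iff_coeff_tendsto]
      intro l
      exact (hH l).comp (Filter.tendsto_atTop_mono (fun k => Nat.le_add_left k n) tendsto_id)
    open scoped PowerSeries.WithPiTopology in
    have hT2 : Tendsto (fun k => ((W' k : (F⟦X⟧)ˣ) : F⟦X⟧)) atTop
        (𝓝 ((V : (F⟦X⟧)ˣ) : F⟦X⟧)) := by
      rw [PowerSeries.WithPiTopology.tendsto_iff_coeff_tendsto]
      intro l
      exact hV l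
    open scoped PowerSeries.WithPiTopology in
    have hT3 : Tendsto (fun k => ((W n : (F⟦X⟧)ˣ) : F⟦X⟧) * ((W' k : (F⟦X⟧)ˣ) : F⟦X⟧) ^ (p ^ n)) atTop
        (𝓝 (((W n : (F⟦X⟧)ˣ) : F⟦X⟧) * ((V : (F⟦X⟧)ˣ) : F⟦X⟧) ^ (p ^ n))) :=
      (hT2.pow _).const_mul _
    have h4 : (fun k => ((W (n + k) : (F⟦X⟧)ˣ) : F⟦X⟧)) =
        fun k => ((W n : (F⟦X⟧)ˣ) : F⟦X⟧) * ((W' k : (F⟦X⟧)ˣ) : F⟦X⟧) ^ (p ^ n) := by
      funext k
      rw [hrel k]
      simp
    open scoped PowerSeries.WithPiTopology in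
    have h5 : ((H : (F⟦X⟧)ˣ) : F⟦X⟧) =
        ((W n : (F⟦X⟧)ˣ) : F⟦X⟧) * ((V : (F⟦X⟧)ˣ) : F⟦X⟧) ^ (p ^ n) := by
      rw [h4] at hT1
      exact tendsto_nhds_unique hT1 hT3
    rw [h5]
    simp

/-- **the limit** -/
theorem exists_unique_lim (W : ℕ → U1 F) (hW : ∀ n, ∃ G : U1 F, W (n + 1) = W n * G ^ (p ^ n)) :
    ∃! H : U1 F, ∀ n, ∃ V : U1 F, H = W n * V ^ (p ^ n) := by
  obtain ⟨H, hHW, -⟩ := exists_lim hp W hW
  refine ⟨H, hHW, fun H' hH' => ?_⟩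
  have h1 : H' * H⁻¹ = 1 := by
    apply eq_one_of_forall_pow hp
    intro n
    obtain ⟨V, hV⟩ := hHW n
    obtain ⟨V', hV'⟩ := hH' n
    refine ⟨V' * V⁻¹, ?_⟩
    rw [hV, hV', mul_pow, inv_pow, mul_inv, mul_mul_mul_comm, mul_inv_cancel, one_mul]
  exact mul_inv_eq_one.mp h1

end Limit

end Crest.Agent.R013.HU1_522
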