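import Mathlib
import Crest.Agent.R013.HU1_522

/-!
# R013 / HU2: `H_u` and `omega_u` for a homomorphism `phi : G → U1 F` (helper522)

`Cmp p h`: `h (n+1) = h n * g^(p^n)` (an element of the `p`-adic completion of `G`).
* `limH`, `omega` and their functorial properties.
* coefficients in subfields.
-/

set_option autoImplicit false
set_option linter.all false

open scoped NNReal
open PowerSeries Filter Topology

namespace Crest.Agent.R013.HU2_522

open Crest.Agent.R013.HU1_522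

theorem norm_sub_le_max522 {F : Type*} [NormedField F] [IsUltrametricDist F] (a b : F) :
    ‖a - b‖ ≤ max ‖a‖ ‖b‖ := by
  rw [sub_eq_add_neg, ← norm_neg b]
  exact IsUltrametricDist.norm_add_le_max _ _

section Map

variable {F F' : Type*} [NormedField F] [IsUltrametricDist F] [NormedField F'] [IsUltrametricDist F']

/-- isometric ring homomorphisms act on `U1` -/
noncomputable def mapU (σ : F →+* F') (hσ : ∀ a, ‖σ a‖ = ‖a‖) : U1 F →* U1 F' where
  toFun u := ⟨Units.map (PowerSeries.map σ : F⟦X⟧ →* F'⟦X⟧) (u : (F⟦X⟧)ˣ), by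
    refine ⟨?_, fun n => ?_⟩
    · rw [Units.coe_map]
      show coeff 0 (PowerSeries.map σ _) = 1
      rw [coeff_map, coeff_zero_eq_constantCoeff_apply, U1.const, map_one]
    · rw [Units.coe_map]
      show ‖coeff n (PowerSeries.map σ _)‖ ≤ 1
      rw [coeff_map, hσ]
      exact U1.int u n⟩
  map_one' := by
    apply Subtype.ext
    simp
  map_mul' u v := by
    apply Subtype.ext
    simp

theorem mapU_val (σ : F →+* F') (hσ : ∀ a, ‖σ a‖ = ‖a‖) (u : U1 F) :
    ((mapU σ hσ u : (F'⟦X⟧)ˣ) : F'⟦X⟧) = PowerSeries.map σ ((u : (F⟦X⟧)ˣ) : F⟦X⟧) := rfl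

theorem derivative_map (σ : F →+* F') (f : F⟦X⟧) :
    d⁄dX F' (PowerSeries.map σ f) = PowerSeries.map σ (d⁄dX F f) := by
  ext n
  rw [coeff_derivative, coeff_map, coeff_map, coeff_derivative, map_mul, map_add, map_natCast,
    map_one]

theorem dl_mapU (σ : F →+* F') (hσ : ∀ a, ‖σ a‖ = ‖a‖) (u : U1 F) :
    dl (mapU σ hσ u) = PowerSeries.map σ (dl u) := by
  have h1 := dl_spec (mapU σ hσ u)
  have h2 : PowerSeries.map σ (dl u) * ((mapU σ hσ u : (F'⟦X⟧)ˣ) : F'⟦X⟧) =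
      d⁄dX F' ((mapU σ hσ u : (F'⟦X⟧)ˣ) : F'⟦X⟧) := by
    rw [mapU_val, derivative_map, dl_spec u, map_mul]
  rw [← h2] at h1
  exact ((Units.mul_left_inj _).mp h1).symm

end Map

section Coeff

variable {F : Type*} [NormedField F] [IsUltrametricDist F] [CharZero F]

/-- coefficients in a subfield -/
def In (L : Subfield F) (f : F⟦X⟧) : Prop := ∀ n, coeff n f ∈ L

theorem In.mul {L : Subfield F} {f g : F⟦X⟧} (hf : In L f) (hg : In L g) : In L (f * g) := by
  intro n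
  rw [coeff_mul]
  exact sum_mem fun x _ => mul_mem (hf _) (hg _)

theorem In.derivative {L : Subfield F} {f : F⟦X⟧} (hf : In L f) : In L (d⁄dX F f) := by
  intro n
  rw [coeff_derivative]
  exact mul_mem (hf _) (add_mem (natCast_mem _ _) (one_mem _))

/-- a series of `U1` has coefficients in `L` as soon as its logarithmic derivative has -/
theorem In.of_dl {L : Subfield F} {u : U1 F} (h : In L (dl u)) : In L ((u : (F⟦X⟧)ˣ) : F⟦X⟧) := by
  intro n
  induction n using Nat.strong_induction_on with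
  | _ n ih =>
    rcases Nat.eq_zero_or_pos n with hn | hn
    · subst hn
      rw [coeff_zero_eq_constantCoeff_apply, U1.const]
      exact one_mem _
    · obtain ⟨m, rfl⟩ : ∃ m, n = m + 1 := ⟨n - 1, by omega⟩
      have h1 := congrArg (coeff m) (dl_spec u)
      rw [coeff_derivative, coeff_mul] at h1
      have h2 : ((m : F) + 1) ≠ 0 := by exact_mod_cast Nat.succ_ne_zero m
      have h3 : coeff (m + 1) ((u : (F⟦X⟧)ˣ) : F⟦X⟧) =
          (∑ x ∈ Finset.HasAntidiagonal.antidiagonal m,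
            coeff x.1 (dl u) * coeff x.2 ((u : (F⟦X⟧)ˣ) : F⟦X⟧)) / ((m : F) + 1) := by
        rw [← h1, mul_div_cancel_right₀ _ h2]
      rw [h3]
      refine div_mem (sum_mem fun x hx => mul_mem (h _) (ih _ ?_))
        (add_mem (natCast_mem _ _) (one_mem _))
      rw [Finset.HasAntidiagonal.mem_antidiagonal] at hx
      omega

theorem In.inv {L : Subfield F} {u : U1 F} (h : In L ((u : (F⟦X⟧)ˣ) : F⟦X⟧)) :
    In L ((u⁻¹ : U1 F) : (F⟦X⟧)ˣ) := by
  intro n
  have hu : ((u : (F⟦X⟧)ˣ) : F⟦X⟧) * (((u⁻¹ : U1 F) : (F⟦X⟧)ˣ) : F⟦X⟧) = 1 := by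
    rw [← Units.val_mul, ← Subgroup.coe_mul, mul_inv_cancel]; rfl
  induction n using Nat.strong_induction_on with
  | _ n ih =>
    rcases Nat.eq_zero_or_pos n with hn | hn
    · subst hn
      rw [coeff_zero_eq_constantCoeff_apply, U1.const]
      exact one_mem _
    · have h1 := congrArg (coeff n) hu
      rw [coeff_mul, coeff_one, if_neg hn.ne'] at h1
      have h2 : (0, n) ∈ Finset.HasAntidiagonal.antidiagonal n := by simp
      rw [← Finset.add_sum_erase _ _ h2] at h1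
      simp only [coeff_zero_eq_constantCoeff_apply, U1.const, one_mul] at h1
      rw [eq_neg_of_add_eq_zero_left h1]
      refine neg_mem (sum_mem fun x hx => mul_mem (h _) (ih _ ?_))
      rw [Finset.mem_erase, Finset.HasAntidiagonal.mem_antidiagonal] at hx
      rcases Nat.eq_zero_or_pos x.1 with h4 | h4
      · exfalso
        apply hx.1
        ext
        · exact h4
        · simp; omega
      · omega

theorem In.dl {L : Subfield F} {u : U1 F} (h : In L ((u : (F⟦X⟧)ˣ) : F⟦X⟧)) : In L (dl u) := by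
  unfold HU1_522.dl HU1_522.dlU
  exact h.derivative.mul h.inv

theorem In.of_pow {L : Subfield F} {u : U1 F} {m : ℕ} (hm : m ≠ 0)
    (h : In L (((u ^ m : U1 F) : (F⟦X⟧)ˣ) : F⟦X⟧)) : In L ((u : (F⟦X⟧)ˣ) : F⟦X⟧) := by
  apply In.of_dl
  intro n
  have h1 := h.dl n
  rw [dl_pow, nsmul_eq_mul] at h1
  have h3 : (m : F⟦X⟧) = C (m : F) := by simp
  rw [h3, coeff_C_mul] at h1
  have h4 : (m : F) ≠ 0 := by exact_mod_cast hm
  have h5 : coeff n (HU1_522.dl u) = (m : F)⁻¹ * ((m : F) * coeff n (HU1_522.dl u)) := by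
    rw [← mul_assoc, inv_mul_cancel₀ h4, one_mul]
  rw [h5]
  exact mul_mem (inv_mem (natCast_mem _ _)) h1

theorem In.umul {L : Subfield F} {u v : U1 F} (hu : In L ((u : (F⟦X⟧)ˣ) : F⟦X⟧))
    (hv : In L ((v : (F⟦X⟧)ˣ) : F⟦X⟧)) : In L (((u * v : U1 F) : (F⟦X⟧)ˣ) : F⟦X⟧) := by
  rw [Subgroup.coe_mul, Units.val_mul]
  exact hu.mul hv

end Coeff

section Lim

variable {F : Type*} [NormedField F] [IsUltrametricDist F] [CharZero F] [CompleteSpace F]
  {p : ℕ} {G : Type*} [CommGroup G]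

/-- compatible sequence: an element of the `p`-adic completion of `G` -/
def Cmp (p : ℕ) (h : ℕ → G) : Prop := ∀ n, ∃ g, h (n + 1) = h n * g ^ (p ^ n)

theorem Cmp.mul {h h' : ℕ → G} (H : Cmp p h) (H' : Cmp p h') : Cmp p (fun n => h n * h' n) := by
  intro n
  obtain ⟨g, hg⟩ := H n
  obtain ⟨g', hg'⟩ := H' n
  refine ⟨g * g', ?_⟩
  simp only
  rw [hg, hg', mul_pow, mul_mul_mul_comm]

theorem Cmp.inv {h : ℕ → G} (H : Cmp p h) : Cmp p (fun n => (h n)⁻¹) := by
  intro n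
  obtain ⟨g, hg⟩ := H n
  refine ⟨g⁻¹, ?_⟩
  simp only
  rw [hg, mul_inv, inv_pow]

theorem Cmp.map {G' : Type*} [CommGroup G'] {h : ℕ → G} (H : Cmp p h) (φ : G →* G') :
    Cmp p (fun n => φ (h n)) := by
  intro n
  obtain ⟨g, hg⟩ := H n
  exact ⟨φ g, by simp only; rw [hg, map_mul, map_pow]⟩

/-- same class modulo `p^n`-th powers at every level -/
def Eqv (p : ℕ) (h h' : ℕ → G) : Prop := ∀ n, ∃ g, h' n = h n * g ^ (p ^ n)

open Classical in
/-- the limit `H_u ∈ U1 F` of `phi (h n)` -/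
noncomputable def limH (p : ℕ) (φ : G →* U1 F) (h : ℕ → G) : U1 F :=
  if H : ∃ H : U1 F, ∀ n, ∃ V : U1 F, H = φ (h n) * V ^ (p ^ n) then H.choose else 1

variable (hp : ‖(p : F)‖ < 1) (φ : G →* U1 F)

include hp

theorem limH_spec {h : ℕ → G} (H : Cmp p h) (n : ℕ) :
    ∃ V : U1 F, limH p φ h = φ (h n) * V ^ (p ^ n) := by
  have hex : ∃ H : U1 F, ∀ n, ∃ V : U1 F, H = φ (h n) * V ^ (p ^ n) :=
    (exists_unique_lim hp (fun n => φ (h n)) (H.map φ)).exists
  unfold limH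
  rw [dif_pos hex]
  exact hex.choose_spec n

theorem limH_unique {h : ℕ → G} (H : Cmp p h) {u : U1 F}
    (hu : ∀ n, ∃ V : U1 F, u = φ (h n) * V ^ (p ^ n)) : limH p φ h = u :=
  (exists_unique_lim hp (fun n => φ (h n)) (H.map φ)).unique (fun n => limH_spec hp φ H n) hu

theorem limH_mul {h h' : ℕ → G} (H : Cmp p h) (H' : Cmp p h') :
    limH p φ (fun n => h n * h' n) = limH p φ h * limH p φ h' := by
  refine limH_unique hp φ (H.mul H') fun n => ?_
  obtain ⟨V, hV⟩ := limH_spec hp φ H n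
  obtain ⟨V', hV'⟩ := limH_spec hp φ H' n
  exact ⟨V * V', by rw [hV, hV', map_mul, mul_pow, mul_mul_mul_comm]⟩

theorem limH_inv {h : ℕ → G} (H : Cmp p h) :
    limH p φ (fun n => (h n)⁻¹) = (limH p φ h)⁻¹ := by
  refine limH_unique hp φ H.inv fun n => ?_
  obtain ⟨V, hV⟩ := limH_spec hp φ H n
  exact ⟨V⁻¹, by rw [hV, map_inv, mul_inv, inv_pow]⟩

theorem limH_congr {h h' : ℕ → G} (H : Cmp p h) (H' : Cmp p h') (e : Eqv p h h') :
    limH p φ h = limH p φ h' := by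
  refine limH_unique hp φ H fun n => ?_
  obtain ⟨V, hV⟩ := limH_spec hp φ H' n
  obtain ⟨g, hg⟩ := e n
  exact ⟨φ g * V, by rw [hV, hg, map_mul, map_pow, mul_pow, mul_assoc]⟩

theorem limH_const (g : G) : limH p φ (fun _ => g) = φ g := by
  refine limH_unique hp φ (fun n => ⟨1, by simp⟩) fun n => ⟨1, by simp⟩

/-- naturality: `σ` an isometric endomorphism of `F`, `s` an endomorphism of `G` -/
theorem limH_map {G' : Type*} [CommGroup G'] (s : G →* G') (φ' : G' →* U1 F) (σ : F →+* F)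
    (hσ : ∀ a, ‖σ a‖ = ‖a‖) (hs : ∀ g, φ' (s g) = mapU σ hσ (φ g)) {h : ℕ → G} (H : Cmp p h) :
    limH p φ' (fun n => s (h n)) = mapU σ hσ (limH p φ h) := by
  refine limH_unique hp φ' (H.map s) fun n => ?_
  obtain ⟨V, hV⟩ := limH_spec hp φ H n
  exact ⟨mapU σ hσ V, by rw [hV, hs, map_mul, map_pow]⟩

/-- coefficientwise limit -/
theorem tendsto_coeff {h : ℕ → G} (H : Cmp p h) (l : ℕ) :
    Tendsto (fun n => coeff l ((φ (h n) : (F⟦X⟧)ˣ) : F⟦X⟧)) atTop
      (𝓝 (coeff l ((limH p φ h : (F⟦X⟧)ˣ) : F⟦X⟧))) := by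
  obtain ⟨u, hu, hu'⟩ := exists_lim hp (fun n => φ (h n)) (H.map φ)
  rw [limH_unique hp φ H hu]
  exact hu' l

omit [CharZero F] [CompleteSpace F] hp in
/-- `omega_u` -/
noncomputable def omega (p : ℕ) (φ : G →* U1 F) (h : ℕ → G) : F⟦X⟧ := dl (limH p φ h)

omit hp in
theorem omega_int (h : ℕ → G) : Int1 (omega p φ h) := dl_int _

theorem omega_spec {h : ℕ → G} (H : Cmp p h) (n : ℕ) :
    ∃ V : U1 F, omega p φ h = dl (φ (h n)) + (p ^ n) • dl V := by
  obtain ⟨V, hV⟩ := limH_spec hp φ H n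
  exact ⟨V, by rw [omega, hV, dl_mul, dl_pow]⟩

theorem norm_omega_sub_le {h : ℕ → G} (H : Cmp p h) (n l : ℕ) :
    ‖coeff l (omega p φ h) - coeff l (dl (φ (h n)))‖ ≤ ‖(p : F)‖ ^ n := by
  obtain ⟨V, hV⟩ := limH_spec hp φ H n
  rw [omega, hV, dl_mul, map_add, add_sub_cancel_left, ← norm_pow, ← Nat.cast_pow]
  exact coeff_dl_pow_le V _ l

theorem omega_mul {h h' : ℕ → G} (H : Cmp p h) (H' : Cmp p h') :
    omega p φ (fun n => h n * h' n) = omega p φ h + omega p φ h' := by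
  rw [omega, limH_mul hp φ H H', dl_mul]; rfl

theorem omega_inv {h : ℕ → G} (H : Cmp p h) :
    omega p φ (fun n => (h n)⁻¹) = -omega p φ h := by
  rw [omega, limH_inv hp φ H, dl_inv]; rfl

theorem omega_congr {h h' : ℕ → G} (H : Cmp p h) (H' : Cmp p h') (e : Eqv p h h') :
    omega p φ h = omega p φ h' := by
  rw [omega, limH_congr hp φ H H' e]; rfl

theorem omega_map {G' : Type*} [CommGroup G'] (s : G →* G') (φ' : G' →* U1 F) (σ : F →+* F)
    (hσ : ∀ a, ‖σ a‖ = ‖a‖) (hs : ∀ g, φ' (s g) = mapU σ hσ (φ g)) {h : ℕ → G} (H : Cmp p h) :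
    omega p φ' (fun n => s (h n)) = PowerSeries.map σ (omega p φ h) := by
  rw [omega, limH_map hp φ s φ' σ hσ hs H, dl_mapU]; rfl

theorem omega_eq_zero_iff {h : ℕ → G} (H : Cmp p h) :
    omega p φ h = 0 ↔ ∀ n l, ‖coeff l (dl (φ (h n)))‖ ≤ ‖(p : F)‖ ^ n := by
  constructor
  · intro h0 n l
    have := norm_omega_sub_le hp φ H n l
    rwa [h0, map_zero, zero_sub, norm_neg] at this
  · intro h0
    ext l
    have h1 : ∀ n, ‖coeff l (omega p φ h)‖ ≤ ‖(p : F)‖ ^ n := by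
      intro n
      have h2 := norm_omega_sub_le hp φ H n l
      have h3 : coeff l (omega p φ h) =
          (coeff l (omega p φ h) - coeff l (dl (φ (h n)))) + coeff l (dl (φ (h n))) := by ring
      rw [h3]
      exact (IsUltrametricDist.norm_add_le_max _ _).trans (max_le h2 (h0 n l))
    have h2 : ‖coeff l (omega p φ h)‖ ≤ 0 :=
      ge_of_tendsto' (tendsto_pow_atTop_nhds_zero_of_lt_one (norm_nonneg _) hp) h1
    rw [norm_le_zero_iff.mp h2]; simp

/-- exponents: `h' n = h n ^ (a n)`, `a n → α` -/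
theorem omega_pow {h h' : ℕ → G} (H : Cmp p h) (H' : Cmp p h') (a : ℕ → ℕ) (α : F)
    (ha : ∀ n, ‖(a n : F) - α‖ ≤ ‖(p : F)‖ ^ n) (e : ∀ n, h' n = h n ^ a n) :
    omega p φ h' = α • omega p φ h := by
  ext l
  rw [coeff_smul, smul_eq_mul, ← sub_eq_zero, ← norm_le_zero_iff]
  refine ge_of_tendsto' (tendsto_pow_atTop_nhds_zero_of_lt_one (norm_nonneg _) hp) (fun n => ?_)
  have h1 := norm_omega_sub_le hp φ H n l
  have h2 := norm_omega_sub_le hp φ H' n l
  rw [e n, map_pow, dl_pow, nsmul_eq_mul] at h2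
  have h3 : (a n : F⟦X⟧) = C (a n : F) := by simp
  rw [h3, coeff_C_mul] at h2
  have h4 : coeff l (omega p φ h') - α * coeff l (omega p φ h) =
      (coeff l (omega p φ h') - (a n : F) * coeff l (dl (φ (h n)))) +
        ((a n : F) - α) * coeff l (dl (φ (h n))) -
        α * (coeff l (omega p φ h) - coeff l (dl (φ (h n)))) := by ring
  have hα : ‖α‖ ≤ 1 := by
    have h5 := ha 0
    have h6 : α = (a 0 : F) - ((a 0 : F) - α) := by ring
    rw [h6]
    refine (norm_sub_le_max522 _ _).trans (max_le ?_ ?_)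
    · exact IsUltrametricDist.norm_natCast_le_one F _
    · simpa using h5
  rw [h4]
  refine (norm_sub_le_max522 _ _).trans (max_le
    ((IsUltrametricDist.norm_add_le_max _ _).trans (max_le h2 ?_)) ?_)
  · rw [norm_mul]
    calc ‖(a n : F) - α‖ * ‖coeff l (dl (φ (h n)))‖ ≤ ‖(p : F)‖ ^ n * 1 :=
          mul_le_mul (ha n) (dl_int _ _) (norm_nonneg _) (by positivity)
      _ = _ := mul_one _
  · rw [norm_mul]
    calc ‖α‖ * ‖coeff l (omega p φ h) - coeff l (dl (φ (h n)))‖ ≤ 1 * ‖(p : F)‖ ^ n :=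
          mul_le_mul hα h1 (norm_nonneg _) zero_le_one
      _ = _ := one_mul _

/-- if `omega_u` has coefficients in `L` and `phi (h n)` has coefficients in `L' ⊇ L`, then
`H_u` has coefficients in `L` and `H_u = phi (h n) V^(p^n)` with `V` over `L'` -/
theorem limH_in {h : ℕ → G} (H : Cmp p h) {L L' : Subfield F} (hL : In L (omega p φ h))
    (hLL : L ≤ L') (n : ℕ) (hn : In L' ((φ (h n) : (F⟦X⟧)ˣ) : F⟦X⟧)) (hp0 : p ≠ 0) :
    In L ((limH p φ h : (F⟦X⟧)ˣ) : F⟦X⟧) ∧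
    ∃ V : U1 F, In L' ((V : (F⟦X⟧)ˣ) : F⟦X⟧) ∧ limH p φ h = φ (h n) * V ^ (p ^ n) := by
  have h1 : In L ((limH p φ h : (F⟦X⟧)ˣ) : F⟦X⟧) := In.of_dl hL
  refine ⟨h1, ?_⟩
  obtain ⟨V, hV⟩ := limH_spec hp φ H n
  refine ⟨V, ?_, hV⟩
  apply In.of_pow (m := p ^ n) (pow_ne_zero _ hp0)
  have h2 : V ^ (p ^ n) = (φ (h n))⁻¹ * limH p φ h := by rw [hV]; group
  rw [h2]
  exact In.umul hn.inv fun l => hLL (h1 l)

end Lim

end Crest.Agent.R013.HU2_522
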