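import Mathlib

/-!
# The `p`-adic completion `PC p G = lim G / G^(p^n)` of a commutative group, as a `ℤ_p`-module

Functorial, with the canonical map `PC.of : G → PC p G`, and `PC p (Multiplicative ℤ) ≃ ℤ_p`.
-/

set_option autoImplicit false

namespace Crest.Agent.R013.PC_588

open Function

section Defs

variable (p : ℕ) (G : Type*) [CommGroup G]

/-- The subgroup of `p^n`-th powers. -/
def pw (n : ℕ) : Subgroup G := (powMonoidHom (p ^ n) : G →* G).range

variable {G} in
theorem mem_pw {n : ℕ} {g : G} : g ∈ pw p G n ↔ ∃ h : G, h ^ (p ^ n) = g := by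
  simp [pw, MonoidHom.mem_range]

theorem pw_succ_le (n : ℕ) : pw p G (n + 1) ≤ pw p G n := by
  intro g hg
  obtain ⟨h, rfl⟩ := (mem_pw p).1 hg
  exact (mem_pw p).2 ⟨h ^ p, by rw [← pow_mul, pow_succ']⟩

theorem pw_le {m n : ℕ} (hmn : m ≤ n) : pw p G n ≤ pw p G m := by
  intro g hg
  obtain ⟨h, rfl⟩ := (mem_pw p).1 hg
  obtain ⟨d, rfl⟩ := Nat.exists_eq_add_of_le hmn
  exact (mem_pw p).2 ⟨h ^ (p ^ d), by rw [← pow_mul, ← pow_add, add_comm]⟩

/-- `G / G^(p^n)`, written additively. -/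
def Q (n : ℕ) : Type _ := Additive (G ⧸ pw p G n)

noncomputable instance (n : ℕ) : AddCommGroup (Q p G n) :=
  inferInstanceAs (AddCommGroup (Additive (G ⧸ pw p G n)))

/-- The class of an element. -/
def qmk (n : ℕ) (g : G) : Q p G n := Additive.ofMul (QuotientGroup.mk g)

variable {G} in
theorem qmk_mul (n : ℕ) (g h : G) : qmk p G n (g * h) = qmk p G n g + qmk p G n h := rfl

variable {G} in
theorem qmk_one (n : ℕ) : qmk p G n 1 = 0 := rfl

variable {G} in
theorem qmk_inv (n : ℕ) (g : G) : qmk p G n g⁻¹ = - qmk p G n g := rfl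

variable {G} in
theorem qmk_div (n : ℕ) (g h : G) : qmk p G n (g / h) = qmk p G n g - qmk p G n h := rfl

variable {G} in
theorem qmk_pow (n : ℕ) (g : G) (m : ℕ) : qmk p G n (g ^ m) = m • qmk p G n g := rfl

variable {G} in
theorem qmk_surj (n : ℕ) (a : Q p G n) : ∃ g : G, qmk p G n g = a := by
  obtain ⟨g, hg⟩ := QuotientGroup.mk_surjective (s := pw p G n) (Additive.toMul (a : Additive _))
  exact ⟨g, congrArg Additive.ofMul hg⟩

variable {G} in
theorem qmk_eq_zero {n : ℕ} {g : G} : qmk p G n g = 0 ↔ ∃ h : G, h ^ (p ^ n) = g := by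
  rw [← mem_pw]
  exact QuotientGroup.eq_one_iff (N := pw p G n) g

variable {G} in
theorem qmk_eq_iff {n : ℕ} {g g' : G} : qmk p G n g = qmk p G n g' ↔ ∃ h : G, g = g' * h ^ (p ^ n) := by
  rw [← sub_eq_zero, ← qmk_div, qmk_eq_zero]
  constructor
  · rintro ⟨h, hh⟩
    exact ⟨h, by rw [hh]; simp⟩
  · rintro ⟨h, hh⟩
    exact ⟨h, by rw [hh]; simp⟩

theorem pow_smul_Q (n : ℕ) (a : Q p G n) : (p ^ n) • a = 0 := by
  obtain ⟨g, rfl⟩ := qmk_surj p n a
  rw [← qmk_pow, qmk_eq_zero]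
  exact ⟨g, rfl⟩

noncomputable instance zmodQ (n : ℕ) : Module (ZMod (p ^ n)) (Q p G n) :=
  AddCommGroup.zmodModule (pow_smul_Q p G n)

variable [Fact p.Prime]

noncomputable instance padicQ (n : ℕ) : Module ℤ_[p] (Q p G n) :=
  Module.compHom _ (PadicInt.toZModPow (p := p) n)

theorem padic_smul_def (n : ℕ) (z : ℤ_[p]) (a : Q p G n) :
    z • a = (PadicInt.toZModPow n z) • a := rfl

theorem padic_smul_eq (n : ℕ) (z : ℤ_[p]) (m : ℕ) (h : PadicInt.toZModPow n z = (m : ZMod (p ^ n)))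
    (a : Q p G n) : z • a = m • a := by
  rw [padic_smul_def, h, Nat.cast_smul_eq_nsmul]

theorem exists_nat_rep (n : ℕ) (z : ℤ_[p]) : ∃ m : ℕ, PadicInt.toZModPow n z = (m : ZMod (p ^ n)) := by
  have : NeZero (p ^ n) := ⟨(pow_pos (Fact.out : p.Prime).pos n).ne'⟩
  exact ⟨(PadicInt.toZModPow n z).val, by simp⟩

/-- Two representatives at once: a natural number congruent to `z` modulo `p^n` for all small `n`. -/
theorem exists_nat_rep' (n : ℕ) (z : ℤ_[p]) :
    ∃ m : ℕ, ∀ i ≤ n, PadicInt.toZModPow i z = (m : ZMod (p ^ i)) := by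
  obtain ⟨m, hm⟩ := exists_nat_rep p n z
  refine ⟨m, fun i hi => ?_⟩
  have h1 := PadicInt.cast_toZModPow (p := p) i n hi z
  rw [hm] at h1
  rw [← h1, ZMod.cast_natCast (pow_dvd_pow p hi)]

end Defs

section Maps

variable (p : ℕ) {G H K : Type*} [CommGroup G] [CommGroup H] [CommGroup K] [Fact p.Prime]

/-- An additive map between `ℤ_p`-modules killed by `p^n`, `p^m` is `ℤ_p`-linear (special case). -/
theorem map_padic_smul {n m : ℕ} (f : Q p G n →+ Q p H m) (z : ℤ_[p]) (a : Q p G n) :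
    f (z • a) = z • f a := by
  obtain ⟨N, hN⟩ := exists_nat_rep' p (max n m) z
  rw [padic_smul_eq p G n z N (hN n (le_max_left _ _)), map_nsmul,
    padic_smul_eq p H m z N (hN m (le_max_right _ _))]

/-- The transition map. -/
noncomputable def tr (n : ℕ) : Q p G (n + 1) →ₗ[ℤ_[p]] Q p G n where
  toFun := fun a => Additive.ofMul
    (QuotientGroup.map (pw p G (n + 1)) (pw p G n) (MonoidHom.id G) (pw_succ_le p G n)
      (Additive.toMul (a : Additive _)))
  map_add' a b := by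
    obtain ⟨g, rfl⟩ := qmk_surj p _ a
    obtain ⟨h, rfl⟩ := qmk_surj p _ b
    rfl
  map_smul' z a := by
    let f : Q p G (n + 1) →+ Q p G n :=
      { toFun := fun a => Additive.ofMul
          (QuotientGroup.map (pw p G (n + 1)) (pw p G n) (MonoidHom.id G) (pw_succ_le p G n)
            (Additive.toMul (a : Additive _)))
        map_zero' := rfl
        map_add' := by
          intro a b
          obtain ⟨g, rfl⟩ := qmk_surj p _ a
          obtain ⟨h, rfl⟩ := qmk_surj p _ b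
          rfl }
    exact map_padic_smul p f z a

@[simp] theorem tr_qmk (n : ℕ) (g : G) : tr p n (qmk p G (n + 1) g) = qmk p G n g := rfl

/-- Functoriality of `G / G^(p^n)`. -/
noncomputable def qmap (f : G →* H) (n : ℕ) : Q p G n →ₗ[ℤ_[p]] Q p H n where
  toFun := fun a => Additive.ofMul
    (QuotientGroup.map (pw p G n) (pw p H n) f (by
      intro g hg
      obtain ⟨h, rfl⟩ := (mem_pw p).1 hg
      exact (mem_pw p).2 ⟨f h, by rw [map_pow]⟩)
      (Additive.toMul (a : Additive _)))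
  map_add' a b := by
    obtain ⟨g, rfl⟩ := qmk_surj p _ a
    obtain ⟨h, rfl⟩ := qmk_surj p _ b
    exact congrArg Additive.ofMul (congrArg QuotientGroup.mk (map_mul f g h))
  map_smul' z a := by
    let F : Q p G n →+ Q p H n :=
      { toFun := fun a => Additive.ofMul
          (QuotientGroup.map (pw p G n) (pw p H n) f (by
            intro g hg
            obtain ⟨h, rfl⟩ := (mem_pw p).1 hg
            exact (mem_pw p).2 ⟨f h, by rw [map_pow]⟩)
            (Additive.toMul (a : Additive _)))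
        map_zero' := congrArg Additive.ofMul (congrArg QuotientGroup.mk (map_one f))
        map_add' := by
          intro a b
          obtain ⟨g, rfl⟩ := qmk_surj p _ a
          obtain ⟨h, rfl⟩ := qmk_surj p _ b
          exact congrArg Additive.ofMul (congrArg QuotientGroup.mk (map_mul f g h)) }
    exact map_padic_smul p F z a

@[simp] theorem qmap_qmk (f : G →* H) (n : ℕ) (g : G) :
    qmap p f n (qmk p G n g) = qmk p H n (f g) := rfl

theorem tr_qmap (f : G →* H) (n : ℕ) (a : Q p G (n + 1)) :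
    tr p n (qmap p f (n + 1) a) = qmap p f n (tr p n a) := by
  obtain ⟨g, rfl⟩ := qmk_surj p _ a
  rfl

end Maps

/-- The `p`-adic completion of the commutative group `G`, as a `ℤ_p`-module. -/
noncomputable def PC (p : ℕ) [Fact p.Prime] (G : Type*) [CommGroup G] :
    Submodule ℤ_[p] (∀ n, Q p G n) where
  carrier := {u | ∀ n, tr p n (u (n + 1)) = u n}
  add_mem' {a b} ha hb n := by
    simp only [Pi.add_apply, map_add, ha n, hb n]
  zero_mem' n := by simp
  smul_mem' z a ha n := by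
    simp only [Pi.smul_apply, map_smul, ha n]

section PC

variable {p : ℕ} [Fact p.Prime] {G H K : Type*} [CommGroup G] [CommGroup H] [CommGroup K]

theorem PC.tr_apply (u : PC p G) (n : ℕ) : tr p n ((u : ∀ n, Q p G n) (n + 1)) = (u : ∀ n, Q p G n) n :=
  u.2 n

@[ext] theorem PC.ext {u v : PC p G} (h : ∀ n, (u : ∀ n, Q p G n) n = (v : ∀ n, Q p G n) n) : u = v :=
  Subtype.ext (funext h)

/-- `g` represents `u` at level `n`. -/
def Rep (u : PC p G) (n : ℕ) (g : G) : Prop := qmk p G n g = (u : ∀ n, Q p G n) n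

theorem exists_rep (u : PC p G) (n : ℕ) : ∃ g, Rep u n g := qmk_surj p n _

theorem Rep.eq_iff {u : PC p G} {n : ℕ} {g g' : G} (h : Rep u n g) :
    Rep u n g' ↔ ∃ h : G, g' = g * h ^ (p ^ n) := by
  unfold Rep at *
  rw [← h, qmk_eq_iff]

theorem Rep.of_le {u : PC p G} {n m : ℕ} (hm : m ≤ n) {g : G} (h : Rep u n g) : Rep u m g := by
  induction n, hm using Nat.le_induction with
  | base => exact h
  | succ n hmn ih =>
    apply ih
    unfold Rep at *
    rw [← PC.tr_apply u n, ← h, tr_qmk]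

theorem Rep.add {u v : PC p G} {n : ℕ} {g h : G} (hg : Rep u n g) (hh : Rep v n h) :
    Rep (u + v) n (g * h) := by
  unfold Rep at *
  rw [qmk_mul, hg, hh]; rfl

theorem Rep.neg {u : PC p G} {n : ℕ} {g : G} (hg : Rep u n g) : Rep (-u) n g⁻¹ := by
  unfold Rep at *
  rw [qmk_inv, hg]; rfl

theorem Rep.sub {u v : PC p G} {n : ℕ} {g h : G} (hg : Rep u n g) (hh : Rep v n h) :
    Rep (u - v) n (g / h) := by
  unfold Rep at *
  rw [qmk_div, hg, hh]; rfl

theorem Rep.smul {u : PC p G} {n : ℕ} {g : G} (hg : Rep u n g) (z : ℤ_[p]) (m : ℕ)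
    (hm : PadicInt.toZModPow n z = (m : ZMod (p ^ n))) : Rep (z • u) n (g ^ m) := by
  unfold Rep at *
  rw [qmk_pow, hg, ← padic_smul_eq p G n z m hm]; rfl

theorem Rep.zero_iff {n : ℕ} {g : G} : Rep (0 : PC p G) n g ↔ ∃ h : G, h ^ (p ^ n) = g :=
  qmk_eq_zero p

theorem Rep.nsmul {u : PC p G} {n : ℕ} {g : G} (hg : Rep u n g) (m : ℕ) : Rep (m • u) n (g ^ m) := by
  unfold Rep at *
  rw [qmk_pow, hg]; rfl

theorem PC.eq_of_rep {u v : PC p G} (h : ∀ n, ∃ g, Rep u n g ∧ Rep v n g) : u = v := by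
  ext n
  obtain ⟨g, h1, h2⟩ := h n
  exact h1.symm.trans h2

theorem PC.eq_zero_iff {u : PC p G} :
    u = 0 ↔ ∀ n g, Rep u n g → ∃ h : G, h ^ (p ^ n) = g := by
  constructor
  · rintro rfl n g hg
    exact Rep.zero_iff.1 hg
  · intro h
    ext n
    obtain ⟨g, hg⟩ := exists_rep u n
    rw [← hg]
    exact (qmk_eq_zero p).2 (h n g hg)

/-- Construct an element from a compatible sequence of representatives. -/
noncomputable def PC.seq (g : ℕ → G) (hg : ∀ n, ∃ h : G, g (n + 1) = g n * h ^ (p ^ n)) : PC p G :=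
  ⟨fun n => qmk p G n (g n), fun n => by
    change tr p n (qmk p G (n + 1) (g (n + 1))) = qmk p G n (g n)
    rw [tr_qmk, qmk_eq_iff]
    exact hg n⟩

theorem PC.rep_seq (g : ℕ → G) (hg : ∀ n, ∃ h : G, g (n + 1) = g n * h ^ (p ^ n)) (n : ℕ) :
    Rep (PC.seq (p := p) g hg) n (g n) := rfl

/-- The canonical map. -/
noncomputable def PC.of : G →* Multiplicative (PC p G) where
  toFun g := Multiplicative.ofAdd ⟨fun n => qmk p G n g, fun _ => rfl⟩
  map_one' := rfl
  map_mul' _ _ := rfl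

theorem PC.rep_of (g : G) (n : ℕ) : Rep (Multiplicative.toAdd (PC.of (p := p) g)) n g := rfl

/-- Functoriality. -/
noncomputable def PC.map (f : G →* H) : PC p G →ₗ[ℤ_[p]] PC p H where
  toFun u := ⟨fun n => qmap p f n ((u : ∀ n, Q p G n) n), fun n => by
    change tr p n (qmap p f (n + 1) _) = _
    rw [tr_qmap, PC.tr_apply]⟩
  map_add' a b := by
    ext n
    exact map_add (qmap p f n) _ _
  map_smul' z a := by
    ext n
    exact map_smul (qmap p f n) _ _

theorem PC.map_apply (f : G →* H) (u : PC p G) (n : ℕ) :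
    (PC.map f u : ∀ n, Q p H n) n = qmap p f n ((u : ∀ n, Q p G n) n) := rfl

theorem Rep.map {u : PC p G} {n : ℕ} {g : G} (hg : Rep u n g) (f : G →* H) :
    Rep (PC.map f u) n (f g) := by
  unfold Rep at *
  rw [PC.map_apply, ← hg, qmap_qmk]

theorem PC.map_id (u : PC p G) : PC.map (MonoidHom.id G) u = u := by
  refine PC.eq_of_rep fun n => ?_
  obtain ⟨g, hg⟩ := exists_rep u n
  exact ⟨g, hg.map (MonoidHom.id G), hg⟩

theorem PC.map_comp (f : G →* H) (g : H →* K) (u : PC p G) :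
    PC.map g (PC.map f u) = PC.map (g.comp f) u := by
  refine PC.eq_of_rep fun n => ?_
  obtain ⟨x, hx⟩ := exists_rep u n
  exact ⟨g (f x), (hx.map f).map g, hx.map (g.comp f)⟩

/-- No `p`-torsion: if `p^m • u = 0` and `G` has the property that `g^p` a `p^(n+1)`-th power implies
`g` a `p^n`-th power (e.g. `p`-th roots of unity are `p`-divisible), then `u = 0`. -/
theorem PC.eq_zero_of_smul (hG : ∀ g : G, g ^ p = 1 → ∀ n, ∃ h : G, h ^ (p ^ n) = g)
    {u : PC p G} (h : (p : ℤ_[p]) • u = 0) : u = 0 := by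
  rw [PC.eq_zero_iff]
  intro n g hg
  obtain ⟨g', hg'⟩ := exists_rep u (n + 1)
  obtain ⟨a, ha⟩ := hg.eq_iff.1 (hg'.of_le (Nat.le_succ n))
  have h1 : Rep ((p : ℤ_[p]) • u) (n + 1) (g' ^ p) := by
    have := hg'.nsmul p
    rwa [← Nat.cast_smul_eq_nsmul ℤ_[p] p u] at this
  rw [h] at h1
  obtain ⟨b, hb⟩ := Rep.zero_iff.1 h1
  have h2 : (g' / b ^ (p ^ n)) ^ p = 1 := by
    rw [div_pow, ← pow_mul, ← pow_succ, hb]; simp
  obtain ⟨c, hc⟩ := hG _ h2 n
  refine ⟨c * b * a⁻¹, ?_⟩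
  rw [mul_pow, mul_pow, hc, inv_pow]
  rw [ha]
  simp

end PC

/-! ### `PC p (Multiplicative ℤ) ≃ ℤ_p` -/

section Int

variable {p : ℕ} [Fact p.Prime]

omit [Fact p.Prime] in
/-- `p^n ∣ a` iff `a` vanishes in `(Multiplicative ℤ)/p^n`. -/
theorem qmk_int_eq_zero {n : ℕ} {a : ℤ} :
    qmk p (Multiplicative ℤ) n (Multiplicative.ofAdd a) = 0 ↔ (p ^ n : ℤ) ∣ a := by
  rw [qmk_eq_zero]
  constructor
  · rintro ⟨h, hh⟩
    refine ⟨Multiplicative.toAdd h, ?_⟩
    have := congrArg Multiplicative.toAdd hh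
    simpa [toAdd_pow, mul_comm] using this.symm
  · rintro ⟨b, rfl⟩
    refine ⟨Multiplicative.ofAdd b, ?_⟩
    rw [← ofAdd_nsmul]
    simp

/-- `z ∈ ℤ_p` as an element of `PC p (Multiplicative ℤ)`. -/
noncomputable def ofPadic : ℤ_[p] →ₗ[ℤ_[p]] PC p (Multiplicative ℤ) :=
  LinearMap.toSpanSingleton ℤ_[p] _
    (Multiplicative.toAdd (PC.of (p := p) (Multiplicative.ofAdd (1 : ℤ))))

theorem rep_ofPadic (z : ℤ_[p]) (n m : ℕ) (hm : PadicInt.toZModPow n z = (m : ZMod (p ^ n))) :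
    Rep (ofPadic z) n (Multiplicative.ofAdd (m : ℤ)) := by
  have h := (PC.rep_of (p := p) (Multiplicative.ofAdd (1 : ℤ)) n).smul z m hm
  rw [← ofAdd_nsmul] at h
  simpa [ofPadic] using h

theorem ofPadic_injective : Injective (ofPadic (p := p)) := by
  rw [injective_iff_map_eq_zero]
  intro z hz
  have h0 : ∀ n, PadicInt.toZModPow n z = 0 := by
    intro n
    obtain ⟨m, hm⟩ := exists_nat_rep p n z
    have h := rep_ofPadic z n m hm
    rw [hz] at h
    have h1 : qmk p (Multiplicative ℤ) n (Multiplicative.ofAdd (m : ℤ)) = 0 := h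
    rw [qmk_int_eq_zero] at h1
    rw [hm, ZMod.natCast_eq_zero_iff]
    exact_mod_cast h1
  exact (PadicInt.ext_of_toZModPow (p := p)).1 (fun n => by rw [h0 n, map_zero])

theorem ofPadic_surjective : Surjective (ofPadic (p := p)) := by
  intro u
  choose g hg using fun n => exists_rep u n
  let a : ℕ → ℤ := fun n => Multiplicative.toAdd (g n)
  have ha : ∀ n, (p ^ n : ℤ) ∣ a (n + 1) - a n := by
    intro n
    obtain ⟨h, hh⟩ := (hg n).eq_iff.1 ((hg (n + 1)).of_le (Nat.le_succ n))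
    refine ⟨Multiplicative.toAdd h, ?_⟩
    have := congrArg Multiplicative.toAdd hh
    simp only [toAdd_mul, toAdd_pow, nsmul_eq_mul, Nat.cast_pow] at this
    simp only [a]
    rw [this]; ring
  -- the limit
  have hc : CauchySeq fun n => ((a n : ℤ) : ℤ_[p]) := by
    rw [cauchySeq_iff_le_tendsto_0]
    refine ⟨fun n => (p : ℝ) ^ (-(n : ℤ)), fun n => by positivity, ?_, ?_⟩
    · intro n m N hn hm
      have key : ∀ m, N ≤ m → ‖((a m : ℤ) : ℤ_[p]) - ((a N : ℤ) : ℤ_[p])‖ ≤ (p : ℝ) ^ (-(N : ℤ)) := by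
        intro m hm
        induction m, hm using Nat.le_induction with
        | base => simp
        | succ m hNm ih =>
          have e : ((a (m + 1) : ℤ) : ℤ_[p]) - ((a N : ℤ) : ℤ_[p]) =
              (((a (m + 1) - a m : ℤ)) : ℤ_[p]) + (((a m : ℤ) : ℤ_[p]) - ((a N : ℤ) : ℤ_[p])) := by
            push_cast; ring
          rw [e]
          refine (PadicInt.nonarchimedean _ _).trans (max_le ?_ ih)
          rw [PadicInt.norm_int_le_pow_iff_dvd]
          exact (pow_dvd_pow _ hNm).trans (ha m)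
      have h1 := key n hn
      have h2 := key m hm
      rw [dist_eq_norm]
      have e : ((a n : ℤ) : ℤ_[p]) - ((a m : ℤ) : ℤ_[p]) =
          (((a n : ℤ) : ℤ_[p]) - ((a N : ℤ) : ℤ_[p])) + -(((a m : ℤ) : ℤ_[p]) - ((a N : ℤ) : ℤ_[p])) := by
        ring
      rw [e]
      refine (PadicInt.nonarchimedean _ _).trans (max_le h1 ?_)
      rwa [norm_neg]
    · have hp : (1 : ℝ) < p := by exact_mod_cast (Fact.out : p.Prime).one_lt
      have : Filter.Tendsto (fun n : ℕ => ((p : ℝ)⁻¹) ^ n) Filter.atTop (nhds 0) :=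
        tendsto_pow_atTop_nhds_zero_of_lt_one (by positivity) (inv_lt_one_of_one_lt₀ hp)
      refine this.congr fun n => ?_
      rw [zpow_neg, zpow_natCast, inv_pow]
  obtain ⟨z, hz⟩ := cauchySeq_tendsto_of_complete hc
  refine ⟨z, ?_⟩
  refine PC.eq_of_rep fun n => ?_
  -- z ≡ a m mod p^n for some m ≥ n
  have hev : ∀ᶠ m in Filter.atTop, ‖((a m : ℤ) : ℤ_[p]) - z‖ ≤ (p : ℝ) ^ (-(n : ℤ)) := by
    have hpos : (0 : ℝ) < (p : ℝ) ^ (-(n : ℤ)) := by
      have : (0 : ℝ) < p := by exact_mod_cast (Fact.out : p.Prime).pos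
      positivity
    have := (Metric.tendsto_nhds.1 hz) _ hpos
    filter_upwards [this] with m hm
    rw [dist_eq_norm] at hm
    exact hm.le
  obtain ⟨m, hm1, hm2⟩ := (hev.and (Filter.eventually_ge_atTop n)).exists
  obtain ⟨N, hN⟩ := exists_nat_rep p n z
  refine ⟨Multiplicative.ofAdd (N : ℤ), rep_ofPadic z n N hN, ?_⟩
  have h1 : Rep u n (g m) := (hg m).of_le hm2
  refine h1.eq_iff.2 ?_
  have h2 : PadicInt.toZModPow n ((a m : ℤ) : ℤ_[p]) = PadicInt.toZModPow n z := by
    rw [← sub_eq_zero, ← map_sub, ← RingHom.mem_ker, PadicInt.ker_toZModPow,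
      ← PadicInt.norm_le_pow_iff_mem_span_pow]
    exact hm1
  rw [map_intCast, hN] at h2
  have h3 : (p ^ n : ℤ) ∣ (N : ℤ) - a m := by
    have : ((a m : ℤ) : ZMod (p ^ n)) = ((N : ℤ) : ZMod (p ^ n)) := by
      rw [h2]; simp
    rw [ZMod.intCast_eq_intCast_iff_dvd_sub] at this
    exact_mod_cast this
  obtain ⟨c, hc⟩ := h3
  refine ⟨Multiplicative.ofAdd c, ?_⟩
  have h4 : (N : ℤ) = a m + (p ^ n : ℤ) * c := by rw [← hc]; ring
  apply Multiplicative.toAdd.injective
  rw [h4]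
  simp [a, toAdd_pow, mul_comm]

/-- `ℤ_p ≃ PC p (Multiplicative ℤ)`. -/
noncomputable def padicEquiv : ℤ_[p] ≃ₗ[ℤ_[p]] PC p (Multiplicative ℤ) :=
  LinearEquiv.ofBijective ofPadic ⟨ofPadic_injective, ofPadic_surjective⟩

/-- The `ℤ_p`-valued extension of a homomorphism `G → ℤ`. -/
noncomputable def PC.toPadic {G : Type*} [CommGroup G] (f : G →* Multiplicative ℤ) :
    PC p G →ₗ[ℤ_[p]] ℤ_[p] :=
  padicEquiv.symm.toLinearMap ∘ₗ PC.map f

theorem PC.toPadic_rep {G : Type*} [CommGroup G] (f : G →* Multiplicative ℤ) (u : PC p G) (n : ℕ)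
    (g : G) (h : Rep u n g) :
    PadicInt.toZModPow n (PC.toPadic f u) = ((Multiplicative.toAdd (f g) : ℤ) : ZMod (p ^ n)) := by
  set z := PC.toPadic f u with hz
  have h1 : ofPadic z = PC.map f u := by
    have := padicEquiv.apply_symm_apply (PC.map f u)
    exact this
  obtain ⟨N, hN⟩ := exists_nat_rep p n z
  have h2 := rep_ofPadic z n N hN
  rw [h1] at h2
  obtain ⟨c, hc⟩ := (h.map f).eq_iff.1 h2
  rw [hN]
  have h3 := congrArg Multiplicative.toAdd hc
  simp only [toAdd_ofAdd, toAdd_mul, toAdd_pow, nsmul_eq_mul, Nat.cast_pow] at h3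
  have h4 : ((N : ℤ) : ZMod (p ^ n)) = ((Multiplicative.toAdd (f g) + (p : ℤ) ^ n * Multiplicative.toAdd c : ℤ) : ZMod (p ^ n)) := by
    rw [h3]
  have h5 : ((p : ZMod (p ^ n)) ^ n) = 0 := by
    have := ZMod.natCast_self (p ^ n)
    push_cast at this
    exact this
  push_cast at h4
  rw [h5] at h4
  simpa using h4

theorem PC.toPadic_eq_zero_iff {G : Type*} [CommGroup G] (f : G →* Multiplicative ℤ) (u : PC p G) :
    PC.toPadic f u = 0 ↔ ∀ n g, Rep u n g → (p ^ n : ℤ) ∣ Multiplicative.toAdd (f g) := by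
  constructor
  · intro h n g hg
    have := PC.toPadic_rep f u n g hg
    rw [h, map_zero] at this
    rw [eq_comm, ZMod.intCast_zmod_eq_zero_iff_dvd] at this
    exact_mod_cast this
  · intro h
    refine (PadicInt.ext_of_toZModPow (p := p)).1 fun n => ?_
    obtain ⟨g, hg⟩ := exists_rep u n
    rw [PC.toPadic_rep f u n g hg, map_zero]
    have := h n g hg
    rw [ZMod.intCast_zmod_eq_zero_iff_dvd]
    exact_mod_cast this

end Int

end Crest.Agent.R013.PC_588
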