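import Mathlib
import Crest.Agent.R013.PC_588
import Crest.Agent.R013.HU2_522

/-!
# R013 / HU4: `H u` and `omega u` for `u ∈ PC p G` (helper522)

`phi : G →* U1 F`, `F` complete.  `Hu phi u : U1 F`, `Om phi u = dl (Hu phi u) : F⟦X⟧`.
-/

set_option autoImplicit false
set_option linter.all false

open Filter Topology PowerSeries

namespace Crest.Agent.R013.HU4_522

open Crest.Agent.R013.PC_588 Crest.Agent.R013.HU1_522 Crest.Agent.R013.HU2_522

variable {F : Type*} [NormedField F] [IsUltrametricDist F] [CharZero F] [CompleteSpace F]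
  {p : ℕ} [Fact p.Prime] {G G' : Type*} [CommGroup G] [CommGroup G']

/-- a sequence of representatives -/
noncomputable def sq (u : PC p G) (n : ℕ) : G := (exists_rep u n).choose

omit [CharZero F] [CompleteSpace F] in
theorem rep_sq (u : PC p G) (n : ℕ) : Rep u n (sq u n) := (exists_rep u n).choose_spec

/-- any sequence of representatives is compatible -/
theorem cmp_of_rep {u : PC p G} {h : ℕ → G} (hh : ∀ n, Rep u n (h n)) : Cmp p h := fun n =>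
  (hh n).eq_iff.1 ((hh (n + 1)).of_le (Nat.le_succ n))

theorem eqv_of_rep {u : PC p G} {h h' : ℕ → G} (hh : ∀ n, Rep u n (h n))
    (hh' : ∀ n, Rep u n (h' n)) : Eqv p h h' := fun n => (hh n).eq_iff.1 (hh' n)

/-- `H_u` -/
noncomputable def Hu (φ : G →* U1 F) (u : PC p G) : U1 F := limH p φ (sq u)

/-- `omega_u` -/
noncomputable def Om (φ : G →* U1 F) (u : PC p G) : F⟦X⟧ := dl (Hu φ u)

variable (hp : ‖(p : F)‖ < 1) (φ : G →* U1 F)

include hp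

theorem Hu_eq {u : PC p G} {h : ℕ → G} (hh : ∀ n, Rep u n (h n)) : Hu φ u = limH p φ h :=
  limH_congr hp φ (cmp_of_rep (rep_sq u)) (cmp_of_rep hh) (eqv_of_rep (rep_sq u) hh)

theorem Om_eq {u : PC p G} {h : ℕ → G} (hh : ∀ n, Rep u n (h n)) : Om φ u = omega p φ h := by
  rw [Om, Hu_eq hp φ hh, omega]

/-- **specification** -/
theorem Hu_spec {u : PC p G} {n : ℕ} {g : G} (hg : Rep u n g) :
    ∃ V : U1 F, Hu φ u = φ g * V ^ (p ^ n) := by
  obtain ⟨V, hV⟩ := limH_spec hp φ (cmp_of_rep (rep_sq u)) n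
  obtain ⟨a, ha⟩ := hg.eq_iff.1 (rep_sq u n)
  exact ⟨φ a * V, by rw [Hu, hV, ha, map_mul, map_pow, mul_pow, mul_assoc]⟩

theorem Hu_unique {u : PC p G} {H : U1 F}
    (h : ∀ n, ∃ g, Rep u n g ∧ ∃ V : U1 F, H = φ g * V ^ (p ^ n)) : Hu φ u = H := by
  choose g hg hV using h
  rw [Hu_eq hp φ hg]
  exact limH_unique hp φ (cmp_of_rep hg) hV

theorem Hu_add (u v : PC p G) : Hu φ (u + v) = Hu φ u * Hu φ v := by
  refine Hu_unique hp φ fun n => ⟨sq u n * sq v n, (rep_sq u n).add (rep_sq v n), ?_⟩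
  obtain ⟨V, hV⟩ := Hu_spec hp φ (rep_sq u n)
  obtain ⟨W, hW⟩ := Hu_spec hp φ (rep_sq v n)
  exact ⟨V * W, by rw [hV, hW, map_mul, mul_pow, mul_mul_mul_comm]⟩

theorem Hu_zero : Hu φ (0 : PC p G) = 1 := by
  refine Hu_unique hp φ fun n => ⟨1, Rep.zero_iff.2 ⟨1, one_pow _⟩, 1, by simp⟩

theorem Hu_neg (u : PC p G) : Hu φ (-u) = (Hu φ u)⁻¹ := by
  rw [_root_.eq_inv_iff_mul_eq_one, ← Hu_add hp, neg_add_cancel, Hu_zero hp]

theorem Hu_of (g : G) : Hu φ (Multiplicative.toAdd (PC.of (p := p) g)) = φ g :=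
  Hu_unique hp φ fun n => ⟨g, PC.rep_of g n, 1, by simp⟩

theorem Hu_nsmul (u : PC p G) (m : ℕ) : Hu φ (m • u) = (Hu φ u) ^ m := by
  induction m with
  | zero => rw [zero_smul, Hu_zero hp, pow_zero]
  | succ m ih => rw [succ_nsmul, Hu_add hp, ih, pow_succ]

/-- naturality: `s : G → G'`, `sigma` isometric -/
theorem Hu_map (s : G →* G') (φ' : G' →* U1 F) (σ : F →+* F)
    (hσ : ∀ a, ‖σ a‖ = ‖a‖) (hs : ∀ g, φ' (s g) = mapU σ hσ (φ g)) (u : PC p G) :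
    Hu φ' (PC.map s u) = mapU σ hσ (Hu φ u) := by
  refine Hu_unique hp φ' fun n => ⟨s (sq u n), (rep_sq u n).map s, ?_⟩
  obtain ⟨V, hV⟩ := Hu_spec hp φ (rep_sq u n)
  exact ⟨mapU σ hσ V, by rw [hV, hs, map_mul, map_pow]⟩

omit [CompleteSpace F] hp in
theorem Om_int (u : PC p G) : Int1 (Om φ u) := dl_int _

theorem Om_add (u v : PC p G) : Om φ (u + v) = Om φ u + Om φ v := by
  rw [Om, Hu_add hp, dl_mul]; rfl

theorem Om_zero : Om φ (0 : PC p G) = 0 := by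
  rw [Om, Hu_zero hp, dl_one]

theorem Om_neg (u : PC p G) : Om φ (-u) = -Om φ u := by
  rw [Om, Hu_neg hp, dl_inv]; rfl

theorem Om_of (g : G) : Om φ (Multiplicative.toAdd (PC.of (p := p) g)) = dl (φ g) := by
  rw [Om, Hu_of hp]

theorem Om_map (s : G →* G') (φ' : G' →* U1 F) (σ : F →+* F)
    (hσ : ∀ a, ‖σ a‖ = ‖a‖) (hs : ∀ g, φ' (s g) = mapU σ hσ (φ g)) (u : PC p G) :
    Om φ' (PC.map s u) = PowerSeries.map σ (Om φ u) := by
  rw [Om, Hu_map hp φ s φ' σ hσ hs, dl_mapU]; rfl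

theorem norm_Om_sub_le {u : PC p G} {n : ℕ} {g : G} (hg : Rep u n g) (l : ℕ) :
    ‖coeff l (Om φ u) - coeff l (dl (φ g))‖ ≤ ‖(p : F)‖ ^ n := by
  obtain ⟨V, hV⟩ := Hu_spec hp φ hg
  rw [Om, hV, dl_mul, map_add, add_sub_cancel_left, ← norm_pow, ← Nat.cast_pow]
  exact coeff_dl_pow_le V _ l

/-- `omega_u = 0` iff `dl (phi h_n)` is divisible by `p^n` for (some / all) representatives. -/
theorem Om_eq_zero_iff {u : PC p G} :
    Om φ u = 0 ↔ ∀ n, ∃ g, Rep u n g ∧ ∀ l, ‖coeff l (dl (φ g))‖ ≤ ‖(p : F)‖ ^ n := by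
  constructor
  · intro h0 n
    refine ⟨sq u n, rep_sq u n, fun l => ?_⟩
    have := norm_Om_sub_le hp φ (rep_sq u n) l
    rwa [h0, map_zero, zero_sub, norm_neg] at this
  · intro h0
    ext l
    have h1 : ∀ n, ‖coeff l (Om φ u)‖ ≤ ‖(p : F)‖ ^ n := by
      intro n
      obtain ⟨g, hg, h3⟩ := h0 n
      have h2 := norm_Om_sub_le hp φ hg l
      have h4 : coeff l (Om φ u) =
          (coeff l (Om φ u) - coeff l (dl (φ g))) + coeff l (dl (φ g)) := by ring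
      rw [h4]
      exact (IsUltrametricDist.norm_add_le_max _ _).trans (max_le h2 (h3 l))
    have h2 : ‖coeff l (Om φ u)‖ ≤ 0 :=
      ge_of_tendsto' (tendsto_pow_atTop_nhds_zero_of_lt_one (norm_nonneg _) hp) h1
    rw [norm_le_zero_iff.mp h2]; simp

theorem norm_dl_le_of_Om_eq_zero {u : PC p G} (h0 : Om φ u = 0) {n : ℕ} {g : G} (hg : Rep u n g)
    (l : ℕ) : ‖coeff l (dl (φ g))‖ ≤ ‖(p : F)‖ ^ n := by
  have := norm_Om_sub_le hp φ hg l
  rwa [h0, map_zero, zero_sub, norm_neg] at this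

theorem Hu_eq_one_iff {u : PC p G} : Hu φ u = 1 ↔ Om φ u = 0 := dl_eq_zero_iff.symm

omit hp in
/-- `z ≡ m mod p^n` in `ℤ_p` gives the same in `F`. -/
theorem norm_algebraMap_sub_le [Algebra ℤ_[p] F] (hZ : ∀ z : ℤ_[p], ‖algebraMap ℤ_[p] F z‖ ≤ 1)
    (z : ℤ_[p]) (m n : ℕ) (hm : PadicInt.toZModPow n z = (m : ZMod (p ^ n))) :
    ‖(m : F) - algebraMap ℤ_[p] F z‖ ≤ ‖(p : F)‖ ^ n := by
  have h1 : (m : ℤ_[p]) - z ∈ RingHom.ker (PadicInt.toZModPow (p := p) n) := by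
    rw [RingHom.mem_ker, map_sub, map_natCast, hm, sub_self]
  rw [PadicInt.ker_toZModPow, Ideal.mem_span_singleton] at h1
  obtain ⟨w, hw⟩ := h1
  have h2 : (m : F) - algebraMap ℤ_[p] F z = (p : F) ^ n * algebraMap ℤ_[p] F w := by
    rw [← map_natCast (algebraMap ℤ_[p] F) m, ← map_sub, hw, map_mul, map_pow, map_natCast]
  rw [h2, norm_mul, norm_pow]
  exact mul_le_of_le_one_right (by positivity) (hZ w)

/-- `ℤ_p`-linearity -/
theorem Om_smul [Algebra ℤ_[p] F] (hZ : ∀ z : ℤ_[p], ‖algebraMap ℤ_[p] F z‖ ≤ 1) (z : ℤ_[p])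
    (u : PC p G) : Om φ (z • u) = algebraMap ℤ_[p] F z • Om φ u := by
  choose a ha using fun n => exists_nat_rep p n z
  rw [Om_eq hp φ (rep_sq u), Om_eq hp φ (fun n => (rep_sq u n).smul z (a n) (ha n))]
  exact omega_pow hp φ (cmp_of_rep (rep_sq u))
    (cmp_of_rep (u := z • u) fun n => (rep_sq u n).smul z (a n) (ha n)) a _
    (fun n => norm_algebraMap_sub_le hZ z (a n) n (ha n)) (fun n => rfl)

/-- coefficients: `omega_u` over `L` and `phi g` over `L' ⊇ L` gives `H_u` over `L` and the factor `V`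
over `L'`. -/
theorem Hu_in {u : PC p G} {L L' : Subfield F} (hL : In L (Om φ u)) (hLL : L ≤ L') {n : ℕ} {g : G}
    (hg : Rep u n g) (hgL : In L' ((φ g : (F⟦X⟧)ˣ) : F⟦X⟧)) :
    In L ((Hu φ u : (F⟦X⟧)ˣ) : F⟦X⟧) ∧
      ∃ V : U1 F, Hu φ u = φ g * V ^ (p ^ n) ∧ In L' ((V : (F⟦X⟧)ˣ) : F⟦X⟧) := by
  have h1 : In L ((Hu φ u : (F⟦X⟧)ˣ) : F⟦X⟧) := In.of_dl hL
  refine ⟨h1, ?_⟩
  obtain ⟨V, hV⟩ := Hu_spec hp φ hg
  refine ⟨V, hV, ?_⟩
  have hp0 : p ^ n ≠ 0 := pow_ne_zero _ (Fact.out : p.Prime).ne_zero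
  apply In.of_pow hp0
  have h2 : V ^ (p ^ n) = (φ g)⁻¹ * Hu φ u := by rw [hV, inv_mul_cancel_left]
  rw [h2]
  exact In.umul hgL.inv (fun m => hLL (h1 m))

end Crest.Agent.R013.HU4_522
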