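import Mathlib
import Crest.Agent.R013.RR14_948

/-!
# R013 / CE1: specialisation (Nullstellensatz), domain property of `Ω ⊗ K`, places from
homomorphisms, residues (helper280)
-/

set_option autoImplicit false
set_option linter.all false

namespace Crest.Agent.R013.CE1_280

open WithZero Module TensorProduct Polynomial
open Crest.Agent.R013.RR7_948 Crest.Agent.R013.RR8_948 Crest.Agent.R013.RR9_948
open Crest.Agent.R013.RR11_948 Crest.Agent.R013.RR13_948

section NSS

variable {F : Type*} [Field F] [IsAlgClosed F]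

/-- a finitely generated algebra over an algebraically closed field has a point -/
theorem exists_algHom (A : Type*) [CommRing A] [Algebra F A] [Algebra.FiniteType F A]
    [Nontrivial A] : Nonempty (A →ₐ[F] F) := by
  obtain ⟨m, hm⟩ := Ideal.exists_maximal A
  let _i := Ideal.Quotient.field m
  have := finite_of_finite_type_of_isJacobsonRing F (A ⧸ m)
  have h := IsAlgClosed.algebraMap_bijective_of_isIntegral (k := F) (K := A ⧸ m)
  exact ⟨((AlgEquiv.ofBijective (Algebra.ofId F (A ⧸ m)) h).symm : (A ⧸ m) →ₐ[F] F).comp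
    (Ideal.Quotient.mkₐ F m)⟩

/-- specialisation of finitely many elements of a field extension, nonzero elements stay nonzero -/
theorem exists_spec (M : Type*) [Field M] [Algebra F M] (S : Finset M) :
    ∃ (A : Subalgebra F M) (ψ : A →ₐ[F] F), (∀ x ∈ S, x ∈ A) ∧
      ∀ x : A, (x : M) ∈ S → (x : M) ≠ 0 → ψ x ≠ 0 := by
  classical
  let T : Finset M := S ∪ S.image (fun x => x⁻¹)
  let A : Subalgebra F M := Algebra.adjoin F (T : Set M)
  have : Algebra.FiniteType F A := by
    rw [← Subalgebra.fg_iff_finiteType]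
    exact ⟨T, rfl⟩
  obtain ⟨ψ⟩ := exists_algHom (F := F) A
  refine ⟨A, ψ, fun x hx => Algebra.subset_adjoin (by simp [T, hx]), ?_⟩
  intro x hx hx0 h
  have hinv : (x : M)⁻¹ ∈ A := Algebra.subset_adjoin (by
    have : (x : M)⁻¹ ∈ T := by
      simp only [T, Finset.mem_union, Finset.mem_image]
      exact Or.inr ⟨x, hx, rfl⟩
    exact this)
  have h1 : x * ⟨(x : M)⁻¹, hinv⟩ = 1 := by
    apply Subtype.ext
    simp [hx0]
  have h2 := congrArg ψ h1
  rw [map_mul, h, zero_mul, map_one] at h2
  exact zero_ne_one h2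

variable (Ω K : Type*) [Field Ω] [Algebra F Ω] [Field K] [Algebra F K]

omit [IsAlgClosed F] in
theorem map_val_injective (A : Subalgebra F K) :
    Function.Injective (Algebra.TensorProduct.map (AlgHom.id Ω Ω) A.val) := by
  have h := Module.Flat.lTensor_preserves_injective_linearMap (M := Ω) A.val.toLinearMap
    (Subtype.val_injective)
  exact h

/-- `Ω ⊗ K` is a domain if the base field is algebraically closed -/
instance isDomain_tensor : IsDomain (Ω ⊗[F] K) := by
  classical
  have hnt : Nontrivial (Ω ⊗[F] K) := inferInstance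
  have : NoZeroDivisors (Ω ⊗[F] K) := by
    refine ⟨?_⟩
    intro s t hst
    by_contra hcon
    push Not at hcon
    obtain ⟨hs, ht⟩ := hcon
    let b := Basis.ofVectorSpace F Ω
    obtain ⟨c, rfl⟩ := TensorProduct.eq_repr_basis_left b s
    obtain ⟨c', rfl⟩ := TensorProduct.eq_repr_basis_left b t
    obtain ⟨i, hi⟩ : ∃ i, c i ≠ 0 := by
      by_contra h
      push Not at h
      exact hs (by rw [show c = 0 from Finsupp.ext h]; simp)
    obtain ⟨j, hj⟩ : ∃ j, c' j ≠ 0 := by
      by_contra h
      push Not at h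
      exact ht (by rw [show c' = 0 from Finsupp.ext h]; simp)
    obtain ⟨A, ψ, hA, hψ⟩ := exists_spec (F := F) K
      (c.support.image c ∪ c'.support.image c')
    have hcA : ∀ i, c i ∈ A := by
      intro i
      by_cases h : c i = 0
      · rw [h]; exact A.zero_mem
      · apply hA
        simp only [Finset.mem_union, Finset.mem_image]
        exact Or.inl ⟨i, by simpa using h, rfl⟩
    have hcA' : ∀ i, c' i ∈ A := by
      intro i
      by_cases h : c' i = 0
      · rw [h]; exact A.zero_mem
      · apply hA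
        simp only [Finset.mem_union, Finset.mem_image]
        exact Or.inr ⟨i, by simpa using h, rfl⟩
    let d : Ω ⊗[F] A := ∑ i ∈ c.support, b i ⊗ₜ ⟨c i, hcA i⟩
    let d' : Ω ⊗[F] A := ∑ i ∈ c'.support, b i ⊗ₜ ⟨c' i, hcA' i⟩
    have hd : Algebra.TensorProduct.map (AlgHom.id Ω Ω) A.val d = c.sum fun i n => b i ⊗ₜ n := by
      simp only [d, map_sum, Algebra.TensorProduct.map_tmul, Finsupp.sum]
      rfl
    have hd' : Algebra.TensorProduct.map (AlgHom.id Ω Ω) A.val d' = c'.sum fun i n => b i ⊗ₜ n := by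
      simp only [d', map_sum, Algebra.TensorProduct.map_tmul, Finsupp.sum]
      rfl
    have h0 : d * d' = 0 := by
      apply map_val_injective Ω K A
      rw [map_mul, hd, hd', hst, map_zero]
    let φ : Ω ⊗[F] A →ₐ[Ω] Ω := Algebra.TensorProduct.lift (AlgHom.id Ω Ω)
      ((Algebra.ofId F Ω).comp ψ) (fun _ _ => Commute.all _ _)
    have h1 := congrArg φ h0
    rw [map_mul, map_zero, mul_eq_zero] at h1
    have key : ∀ (c : (Basis.ofVectorSpaceIndex F Ω) →₀ K) (hc : ∀ i, c i ∈ A),
        φ (∑ i ∈ c.support, b i ⊗ₜ ⟨c i, hc i⟩) = 0 → ∀ i, ψ ⟨c i, hc i⟩ = 0 := by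
      intro c hc h i
      rw [map_sum] at h
      simp only [φ, Algebra.TensorProduct.lift_tmul, AlgHom.id_apply, AlgHom.comp_apply,
        Algebra.ofId_apply] at h
      have h2 : ∑ i ∈ c.support, ψ ⟨c i, hc i⟩ • b i = 0 := by
        rw [← h]
        refine Finset.sum_congr rfl fun i _ => ?_
        rw [Algebra.smul_def, mul_comm]
      by_cases hi : i ∈ c.support
      · exact linearIndependent_iff'.mp b.linearIndependent c.support _ h2 i hi
      · have : (⟨c i, hc i⟩ : A) = 0 := by
          apply Subtype.ext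
          simpa using hi
        rw [this, map_zero]
    rcases h1 with h1 | h1
    · have := key c hcA h1 i
      refine hψ ⟨c i, hcA i⟩ ?_ hi this
      simp only [Finset.mem_union, Finset.mem_image]
      exact Or.inl ⟨i, by simpa using hi, rfl⟩
    · have := key c' hcA' h1 j
      refine hψ ⟨c' j, hcA' j⟩ ?_ hj this
      simp only [Finset.mem_union, Finset.mem_image]
      exact Or.inr ⟨j, by simpa using hj, rfl⟩
  exact NoZeroDivisors.to_isDomain _

end NSS

section Ext

variable {k : Type*} [Field k] {K : Type*} [Field K] [Algebra k K]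
  [Algebra (RatFunc k) K] [IsScalarTower k (RatFunc k) K] [FiniteDimensional (RatFunc k) K]
  [Algebra.IsSeparable (RatFunc k) K]

/-- a proper nonzero ideal of a subalgebra is centred at some place -/
theorem exists_pl_of_ideal (O : Subalgebra k K) (I : Ideal O) (hI : I ≠ ⊤)
    (hI0 : ∃ a ∈ I, (a : K) ≠ 0) :
    ∃ P : Pl k K, (∀ a : O, P.v (a : K) ≤ 1) ∧ ∀ a ∈ I, P.v ((a : O) : K) < 1 := by
  obtain ⟨V, hV, hIV⟩ := Ideal.image_subset_nonunits_valuationSubring (A := O.toSubring)
    (I : Ideal O.toSubring) hI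
  have hO : ∀ a : O, V.valuation (a : K) ≤ 1 := by
    intro a
    rw [V.valuation_le_one_iff]
    exact hV a.2
  have hI1 : ∀ a : O, a ∈ I → V.valuation (a : K) < 1 := by
    intro a ha
    exact (V.mem_nonunits_iff).mp (hIV ⟨a, ha, rfl⟩)
  obtain ⟨P, hP⟩ := exists_place (k := k) V.valuation (by
    intro c hc
    refine le_antisymm (hO ⟨algebraMap k K c, O.algebraMap_mem c⟩) ?_
    have h1 := hO ⟨algebraMap k K c⁻¹, O.algebraMap_mem c⁻¹⟩
    simp only [map_inv₀] at h1
    have h2 : 0 < V.valuation (algebraMap k K c) := by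
      rw [Valuation.pos_iff]; simpa using hc
    exact (inv_le_one₀ h2).mp h1) (by
    obtain ⟨a, ha, ha0⟩ := hI0
    exact ⟨a, (Valuation.ne_zero_iff _).mpr ha0, (hI1 a ha).ne⟩)
  exact ⟨P, fun a => hP.le_one_iff_le_one.mpr (hO a), fun a ha => hP.lt_one_iff_lt_one.mpr (hI1 a ha)⟩

/-- a place centred at a point of a subalgebra -/
theorem exists_pl_of_hom (O : Subalgebra k K) (ψ : O →ₐ[k] k)
    (hψ : ∃ a : O, (a : K) ≠ algebraMap k K (ψ a)) :
    ∃ P : Pl k K, ∀ a : O, P.v ((a : K) - algebraMap k K (ψ a)) < 1 := by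
  have hker : ∀ a : O, a - algebraMap k O (ψ a) ∈ RingHom.ker ψ := by
    intro a
    rw [RingHom.mem_ker, map_sub, AlgHom.commutes]
    exact sub_self _
  obtain ⟨P, hP, hP1⟩ := exists_pl_of_ideal O (RingHom.ker ψ) (by
    intro h
    have h1 : (1 : O) ∈ RingHom.ker ψ := by rw [h]; trivial
    rw [RingHom.mem_ker, map_one] at h1
    exact one_ne_zero h1) (by
    obtain ⟨a, ha⟩ := hψ
    refine ⟨a - algebraMap k O (ψ a), hker a, ?_⟩
    intro h
    exact ha (sub_eq_zero.mp h))
  exact ⟨P, fun a => hP1 _ (hker a)⟩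

omit [Algebra (RatFunc k) K] [IsScalarTower k (RatFunc k) K] [FiniteDimensional (RatFunc k) K]
  [Algebra.IsSeparable (RatFunc k) K] in
theorem v_algebraMap_le (P : Pl k K) (c : k) : P.v (algebraMap k K c) ≤ 1 := by
  by_cases hc : c = 0
  · simp [hc]
  · rw [P.const c hc]

omit [Algebra (RatFunc k) K] [IsScalarTower k (RatFunc k) K] [FiniteDimensional (RatFunc k) K]
  [Algebra.IsSeparable (RatFunc k) K] in
theorem v_algebraMap_lt (P : Pl k K) {c : k} (h : P.v (algebraMap k K c) < 1) : c = 0 := by
  by_contra hc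
  rw [P.const c hc] at h
  exact lt_irrefl _ h

omit [Algebra (RatFunc k) K] [IsScalarTower k (RatFunc k) K] [FiniteDimensional (RatFunc k) K]
  [Algebra.IsSeparable (RatFunc k) K] in
theorem residue_unique (P : Pl k K) {f : K} {c c' : k} (h : P.v (f - algebraMap k K c) < 1)
    (h' : P.v (f - algebraMap k K c') < 1) : c = c' := by
  have h1 : P.v (algebraMap k K (c - c')) < 1 := by
    have : algebraMap k K (c - c') = (f - algebraMap k K c') - (f - algebraMap k K c) := by
      rw [map_sub]; ring
    rw [this]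
    exact lt_of_le_of_lt (Valuation.map_sub _ _ _) (max_lt h' h)
  exact sub_eq_zero.mp (v_algebraMap_lt P h1)

/-- residues over an algebraically closed field of constants -/
theorem exists_residue [IsAlgClosed k] (P : Pl k K) {f : K} (hf : P.v f ≤ 1) :
    ∃ c : k, P.v (f - algebraMap k K c) < 1 := by
  obtain ⟨p, hp0, hp⟩ := RR14_948.exists_poly_lt_one P (by rw [degE_eq]; exact ENat.coe_ne_top _) hf
  have hs := IsAlgClosed.splits p
  by_contra hcon
  push Not at hcon
  have h1 : ∀ c : k, P.v (f - algebraMap k K c) = 1 := fun c =>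
    le_antisymm ((Valuation.map_sub _ _ _).trans (max_le hf (v_algebraMap_le P c))) (hcon c)
  have h2 : aeval f p = algebraMap k K p.leadingCoeff *
      (p.roots.map fun a => f - algebraMap k K a).prod := by
    conv_lhs => rw [hs.eq_prod_roots]
    rw [map_mul, aeval_C, map_multiset_prod, Multiset.map_map]
    congr 2
    refine Multiset.map_congr rfl fun a _ => ?_
    simp
  rw [h2, map_mul, map_multiset_prod, Multiset.map_map] at hp
  have h3 : (Multiset.map (P.v ∘ fun a => f - algebraMap k K a) p.roots).prod = 1 := by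
    apply Multiset.prod_eq_one
    intro x hx
    rw [Multiset.mem_map] at hx
    obtain ⟨a, _, rfl⟩ := hx
    exact h1 a
  rw [h3, mul_one, P.const _ (leadingCoeff_ne_zero.mpr hp0)] at hp
  exact lt_irrefl _ hp

end Ext

end Crest.Agent.R013.CE1_280
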