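import Mathlib
import Crest.Agent.R013.CE1_280

/-!
# R013 / CE2: structure of `Ω ⊗ K` modulo `x - a` (helper280)
-/

set_option autoImplicit false
set_option linter.all false

namespace Crest.Agent.R013.CE2_280

open WithZero Module TensorProduct Polynomial nonZeroDivisors
open Crest.Agent.R013.RR7_948 Crest.Agent.R013.RR8_948 Crest.Agent.R013.RR9_948
open Crest.Agent.R013.RR11_948 Crest.Agent.R013.RR13_948 Crest.Agent.R013.CE1_280

section Basic

variable {F K Ω : Type*} [Field F] [Field K] [Algebra F K] [Field Ω] [Algebra F Ω]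

/-- evaluation of `Ω ⊗ K` at an `Ω`-point of `K` -/
noncomputable def ev (Q : K →ₐ[F] Ω) : Ω ⊗[F] K →ₐ[Ω] Ω :=
  Algebra.TensorProduct.lift (AlgHom.id Ω Ω) Q (fun _ _ => Commute.all _ _)

@[simp] theorem ev_tmul (Q : K →ₐ[F] Ω) (c : Ω) (f : K) : ev Q (c ⊗ₜ f) = c * Q f := by
  simp [ev]

/-- the element `x - a` of `Ω ⊗ K` -/
noncomputable def piT (F K : Type*) {Ω : Type*} [Field F] [Field K] [Algebra F K] [Field Ω]
    [Algebra F Ω] [Algebra (RatFunc F) K] (a : Ω) : Ω ⊗[F] K := 1 ⊗ₜ xK F K - a ⊗ₜ 1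

theorem ev_piT [Algebra (RatFunc F) K] (Q : K →ₐ[F] Ω) (a : Ω) :
    ev Q (piT F K a) = Q (xK F K) - a := by
  simp [piT]

theorem transcendental_of_notMem [IsAlgClosed F] {a : Ω} (ha : a ∉ Set.range (algebraMap F Ω)) :
    Transcendental F a := by
  intro h
  exact ha (minpoly.mem_range_of_degree_eq_one F a
    (IsAlgClosed.degree_eq_one_of_irreducible F (minpoly.irreducible h.isIntegral)))

/-- `F(X) → Ω`, `X ↦ a` -/
noncomputable def rho {a : Ω} (ha : Transcendental F a) : RatFunc F →ₐ[F] Ω :=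
  RatFunc.liftAlgHom (aeval a) (by
    intro p hp
    rw [Submonoid.mem_comap, mem_nonZeroDivisors_iff_ne_zero]
    exact fun h => nonZeroDivisors.ne_zero hp ((transcendental_iff.mp ha) p h))

theorem rho_algebraMap {a : Ω} (ha : Transcendental F a) (p : F[X]) :
    rho ha (algebraMap F[X] (RatFunc F) p) = aeval a p := by
  have h := RatFunc.liftAlgHom_apply_div (φ := aeval (R := F) a) (hφ := by
    intro p hp
    rw [Submonoid.mem_comap, mem_nonZeroDivisors_iff_ne_zero]
    exact fun h => nonZeroDivisors.ne_zero hp ((transcendental_iff.mp ha) p h)) p 1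
  rw [map_one, div_one, map_one, div_one] at h
  exact h

theorem algHom_ratFunc_eq {B : Type*} [CommRing B] {f g : RatFunc F →+* B}
    (h : ∀ p : F[X], f (algebraMap F[X] (RatFunc F) p) = g (algebraMap F[X] (RatFunc F) p)) :
    f = g := by
  apply IsLocalization.ringHom_ext (F[X]⁰)
  ext1
  · ext p
    exact h _
  · exact h _

/-- a polynomial in `x` -/
theorem algebraMap_poly_K [Algebra (RatFunc F) K] [IsScalarTower F (RatFunc F) K] (p : F[X]) :
    algebraMap (RatFunc F) K (algebraMap F[X] (RatFunc F) p) = aeval (xK F K) p := by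
  have h : (algebraMap (RatFunc F) K).comp (algebraMap F[X] (RatFunc F)) =
      (aeval (R := F) (xK F K) : F[X] →ₐ[F] K).toRingHom := by
    ext1
    · ext c
      simp only [RingHom.comp_apply, AlgHom.toRingHom_eq_coe, RingHom.coe_coe, aeval_C]
      rw [RatFunc.algebraMap_C, ← RR2_948.algebraMap_eq_C, ← IsScalarTower.algebraMap_apply]
    · simp [xK]
  exact congrArg (fun f => f p) h

theorem algHom_algebraMap [Algebra (RatFunc F) K] [IsScalarTower F (RatFunc F) K]
    (Q : K →ₐ[F] Ω) {a : Ω} (ha : Transcendental F a) (hQ : Q (xK F K) = a) (r : RatFunc F) :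
    Q (algebraMap (RatFunc F) K r) = rho ha r := by
  have h : (Q : K →+* Ω).comp (algebraMap (RatFunc F) K) = (rho ha : RatFunc F →+* Ω) := by
    apply algHom_ratFunc_eq
    intro p
    simp only [RingHom.comp_apply, RingHom.coe_coe]
    rw [rho_algebraMap, algebraMap_poly_K]
    show Q (aeval (xK F K) p) = _
    rw [← Polynomial.aeval_algHom_apply, hQ]
  exact congrArg (fun f => f r) h

theorem ratFunc_congr [Algebra (RatFunc F) K] [IsScalarTower F (RatFunc F) K]
    {a : Ω} (ha : Transcendental F a) (r : RatFunc F) :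
    (1 ⊗ₜ algebraMap (RatFunc F) K r - rho ha r ⊗ₜ 1 : Ω ⊗[F] K) ∈ Ideal.span {piT F K a} := by
  rw [← Ideal.Quotient.eq]
  have h : ((Ideal.Quotient.mk (Ideal.span {piT F K a})).comp
      (Algebra.TensorProduct.includeRight : K →ₐ[F] Ω ⊗[F] K).toRingHom).comp
        (algebraMap (RatFunc F) K) =
      ((Ideal.Quotient.mk (Ideal.span {piT F K a})).comp
      (Algebra.TensorProduct.includeLeftRingHom : Ω →+* Ω ⊗[F] K)).comp
        (rho ha : RatFunc F →+* Ω) := by
    apply algHom_ratFunc_eq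
    intro p
    simp only [RingHom.comp_apply, RingHom.coe_coe, AlgHom.toRingHom_eq_coe]
    rw [rho_algebraMap, algebraMap_poly_K, Ideal.Quotient.eq, Ideal.mem_span_singleton]
    have h1 := Polynomial.sub_dvd_eval_sub (1 ⊗ₜ xK F K : Ω ⊗[F] K) (a ⊗ₜ 1)
      (p.map (algebraMap F (Ω ⊗[F] K)))
    rw [Polynomial.eval_map_algebraMap, Polynomial.eval_map_algebraMap] at h1
    have h2 : aeval (1 ⊗ₜ xK F K : Ω ⊗[F] K) p =
        (Algebra.TensorProduct.includeRight : K →ₐ[F] Ω ⊗[F] K) (aeval (xK F K) p) := by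
      rw [← Polynomial.aeval_algHom_apply]; rfl
    have h3 : aeval (a ⊗ₜ 1 : Ω ⊗[F] K) p =
        (Algebra.TensorProduct.includeLeft : Ω →ₐ[F] Ω ⊗[F] K) (aeval a p) := by
      rw [← Polynomial.aeval_algHom_apply]; rfl
    rw [h2, h3] at h1
    exact h1
  exact congrArg (fun f => f r) h

variable [Algebra (RatFunc F) K] [IsScalarTower F (RatFunc F) K]

theorem exists_repr {ι : Type*} [Fintype ι] (b : Basis ι (RatFunc F) K) {a : Ω}
    (ha : Transcendental F a) (t : Ω ⊗[F] K) :
    ∃ s : ι → Ω, t - ∑ i, s i ⊗ₜ b i ∈ Ideal.span {piT F K a} := by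
  induction t with
  | zero => exact ⟨0, by simp⟩
  | add t t' h h' =>
    obtain ⟨s, hs⟩ := h
    obtain ⟨s', hs'⟩ := h'
    refine ⟨s + s', ?_⟩
    have : t + t' - ∑ i, (s + s') i ⊗ₜ b i = (t - ∑ i, s i ⊗ₜ b i) + (t' - ∑ i, s' i ⊗ₜ b i) := by
      simp only [Pi.add_apply, TensorProduct.add_tmul, Finset.sum_add_distrib]
      abel
    rw [this]
    exact Ideal.add_mem _ hs hs'
  | tmul c f =>
    refine ⟨fun i => c * rho ha (b.repr f i), ?_⟩
    have h1 : (c ⊗ₜ f : Ω ⊗[F] K) = ∑ i, c ⊗ₜ (b.repr f i • b i) := by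
      rw [← TensorProduct.tmul_sum, b.sum_repr]
    rw [h1, ← Finset.sum_sub_distrib]
    refine Ideal.sum_mem _ fun i _ => ?_
    have h2 : (c ⊗ₜ (b.repr f i • b i) - (c * rho ha (b.repr f i)) ⊗ₜ b i : Ω ⊗[F] K) =
        (c ⊗ₜ b i) * (1 ⊗ₜ algebraMap (RatFunc F) K (b.repr f i) - rho ha (b.repr f i) ⊗ₜ 1) := by
      rw [mul_sub, Algebra.TensorProduct.tmul_mul_tmul, Algebra.TensorProduct.tmul_mul_tmul,
        mul_one, mul_one, Algebra.smul_def, mul_comm (b i)]
    rw [h2]
    exact Ideal.mul_mem_left _ _ (ratFunc_congr ha _)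

variable [FiniteDimensional (RatFunc F) K] [Algebra.IsSeparable (RatFunc F) K] [IsAlgClosed Ω]

/-- a basis of `K / F(x)` and an enumeration of the points over `a` with invertible matrix -/
theorem exists_matrix {a : Ω} (ha : Transcendental F a) :
    ∃ (d : ℕ) (b : Basis (Fin d) (RatFunc F) K) (Q : Fin d → K →ₐ[F] Ω),
      (∀ j, Q j (xK F K) = a) ∧ (∀ R : K →ₐ[F] Ω, R (xK F K) = a → ∃ j, R = Q j) ∧
      (Matrix.of fun i j => Q j (b i)).det ≠ 0 := by
  classical
  letI := (rho ha : RatFunc F →ₐ[F] Ω).toRingHom.toAlgebra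
  haveI : IsScalarTower F (RatFunc F) Ω := IsScalarTower.of_algebraMap_eq fun c => by
    show _ = rho ha _
    rw [AlgHom.commutes]
  let d := finrank (RatFunc F) K
  let b := Module.finBasis (RatFunc F) K
  let e : Fin d ≃ (K →ₐ[RatFunc F] Ω) := Fintype.equivOfCardEq (by
    rw [Fintype.card_fin]
    exact (AlgHom.card (RatFunc F) K Ω).symm)
  refine ⟨d, b, fun j => (e j).restrictScalars F, ?_, ?_, ?_⟩
  · intro j
    show e j (algebraMap (RatFunc F) K RatFunc.X) = a
    rw [AlgHom.commutes]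
    show rho ha RatFunc.X = a
    rw [← RatFunc.algebraMap_X, rho_algebraMap, aeval_X]
  · intro R hR
    let R' : K →ₐ[RatFunc F] Ω :=
      { toRingHom := (R : K →+* Ω)
        commutes' := fun r => algHom_algebraMap R ha hR r }
    refine ⟨e.symm R', ?_⟩
    ext f
    show R f = (e (e.symm R')) f
    rw [Equiv.apply_symm_apply]
    rfl
  · have h := Algebra.discr_eq_det_embeddingsMatrixReindex_pow_two (RatFunc F) Ω b e
    have h1 := Algebra.discr_not_zero_of_basis (RatFunc F) b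
    intro h0
    have h2 : (Algebra.embeddingsMatrixReindex (RatFunc F) Ω b e) =
        Matrix.of fun i j => (e j).restrictScalars F (b i) := by
      ext i j
      simp [Algebra.embeddingsMatrixReindex, Algebra.embeddingsMatrix]
    rw [h2, h0, zero_pow two_ne_zero, map_eq_zero] at h
    exact h1 h

/-- an element of `Ω ⊗ K` vanishing at all points over `a` is divisible by `x - a` -/
theorem mem_of_forall {a : Ω} (ha : Transcendental F a) {t : Ω ⊗[F] K}
    (h : ∀ Q : K →ₐ[F] Ω, Q (xK F K) = a → ev Q t = 0) :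
    ∃ t' : Ω ⊗[F] K, t = piT F K a * t' := by
  obtain ⟨d, b, Q, hQ, -, hdet⟩ := exists_matrix (F := F) (K := K) ha
  obtain ⟨s, hs⟩ := exists_repr b ha t
  rw [Ideal.mem_span_singleton] at hs
  have h1 : ∀ j, ∑ i, s i * Q j (b i) = 0 := by
    intro j
    obtain ⟨u, hu⟩ := hs
    have h2 := congrArg (ev (Q j)) hu
    rw [map_sub, h _ (hQ j), map_mul, ev_piT, hQ j, sub_self, zero_mul, zero_sub, neg_eq_zero,
      map_sum] at h2
    simpa using h2
  have h2 : s = 0 := by
    have := Matrix.eq_zero_of_vecMul_eq_zero hdet (v := s) (by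
      ext j
      simp only [Matrix.vecMul, dotProduct, Matrix.of_apply, Pi.zero_apply]
      exact h1 j)
    exact this
  rw [h2] at hs
  simp only [Pi.zero_apply, TensorProduct.zero_tmul, Finset.sum_const_zero, sub_zero] at hs
  exact hs

theorem exists_idem {a : Ω} (ha : Transcendental F a) (Q₀ : K →ₐ[F] Ω) (h₀ : Q₀ (xK F K) = a) :
    ∃ e : Ω ⊗[F] K, ev Q₀ e = 1 ∧ ∀ Q : K →ₐ[F] Ω, Q (xK F K) = a → Q ≠ Q₀ → ev Q e = 0 := by
  classical
  obtain ⟨d, b, Q, hQ, hall, hdet⟩ := exists_matrix (F := F) (K := K) ha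
  obtain ⟨j₀, hj₀⟩ := hall Q₀ h₀
  let M : Matrix (Fin d) (Fin d) Ω := Matrix.of fun i j => Q j (b i)
  let s : Fin d → Ω := fun i => M⁻¹ j₀ i
  have hs : ∀ j, ∑ i, s i * Q j (b i) = if j = j₀ then 1 else 0 := by
    intro j
    have h1 : (M⁻¹ * M) j₀ j = (1 : Matrix (Fin d) (Fin d) Ω) j₀ j := by
      rw [Matrix.nonsing_inv_mul _ (Ne.isUnit hdet)]
    rw [Matrix.mul_apply, Matrix.one_apply] at h1
    rw [show (if j = j₀ then (1 : Ω) else 0) = if j₀ = j then 1 else 0 by
      simp [eq_comm]]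
    exact h1
  have hinj : ∀ j, Q j = Q j₀ → j = j₀ := by
    intro j hj
    by_contra hne
    have h1 := hs j
    have h2 := hs j₀
    rw [if_neg hne, hj] at h1
    rw [if_pos rfl, h1] at h2
    exact zero_ne_one h2
  refine ⟨∑ i, s i ⊗ₜ b i, ?_, ?_⟩
  · rw [map_sum, hj₀]
    simp only [ev_tmul]
    rw [hs j₀, if_pos rfl]
  · intro R hR hne
    obtain ⟨j, rfl⟩ := hall R hR
    rw [map_sum]
    simp only [ev_tmul]
    rw [hs j, if_neg]
    rintro rfl
    exact hne hj₀.symm

/-- local divisibility at a point -/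
theorem exists_mul_eq (Q : K →ₐ[F] Ω) (ha : Transcendental F (Q (xK F K))) {t : Ω ⊗[F] K}
    (ht : ev Q t = 0) :
    ∃ e t' : Ω ⊗[F] K, ev Q e = 1 ∧ e * t = piT F K (Q (xK F K)) * t' := by
  obtain ⟨e, he, he'⟩ := exists_idem ha Q rfl
  obtain ⟨t', ht'⟩ := mem_of_forall ha (t := e * t) (by
    intro R hR
    rw [map_mul]
    by_cases h : R = Q
    · rw [h, ht, mul_zero]
    · rw [he' R hR h, zero_mul])
  exact ⟨e, t', he, ht'⟩

omit [FiniteDimensional (RatFunc F) K] [Algebra.IsSeparable (RatFunc F) K] [IsAlgClosed Ω] in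
theorem xK_notMem_range : xK F K ∉ Set.range (algebraMap F K) := by
  rintro ⟨c, hc⟩
  have h1 : algebraMap (RatFunc F) K (RatFunc.X - RatFunc.C c) = 0 := by
    rw [map_sub, ← RR2_948.algebraMap_eq_C, ← IsScalarTower.algebraMap_apply, hc]
    exact sub_self _
  rw [map_eq_zero] at h1
  have h2 : algebraMap F[X] (RatFunc F) (X - C c) = 0 := by
    rw [map_sub, RatFunc.algebraMap_X, RatFunc.algebraMap_C]; exact h1
  exact X_sub_C_ne_zero c ((map_eq_zero_iff _ (RatFunc.algebraMap_injective F)).mp h2)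

omit [FiniteDimensional (RatFunc F) K] [Algebra.IsSeparable (RatFunc F) K] [IsAlgClosed Ω] in
/-- the `x`-coordinate of a point is transcendental -/
theorem transcendental_x [IsAlgClosed F] (Q : K →ₐ[F] Ω) : Transcendental F (Q (xK F K)) := by
  apply transcendental_of_notMem
  rintro ⟨c, hc⟩
  apply xK_notMem_range (F := F) (K := K)
  refine ⟨c, ?_⟩
  have h : Q (algebraMap F K c) = Q (xK F K) := by rw [AlgHom.commutes, hc]
  exact (Q : K →+* Ω).injective h

end Basic

end Crest.Agent.R013.CE2_280
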