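import Mathlib
import Crest.Agent.R013.CE2_280

/-!
# R013 / CE3: places of the constant field extension `K_Ω` (helper280)

`ι : K → L`, `IsCE ι`: `L` is the field of fractions of `Ω ⊗_F K`. Every place of `L/Ω` is either
over a place of `K/F` (`Over`) or a point `Q : K →ₐ[F] Ω` (`At`).
-/

set_option autoImplicit false
set_option linter.all false

namespace Crest.Agent.R013.CE3_280

open WithZero Module TensorProduct Polynomial nonZeroDivisors
open Crest.Agent.R013.RR7_948 Crest.Agent.R013.RR8_948 Crest.Agent.R013.RR9_948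
open Crest.Agent.R013.RR11_948 Crest.Agent.R013.RR13_948 Crest.Agent.R013.CE1_280
open Crest.Agent.R013.CE2_280

section Defs

variable {F K Ω L : Type*} [Field F] [Field K] [Algebra F K] [Field Ω] [Algebra F Ω]
  [Field L] [Algebra Ω L] [Algebra F L] [IsScalarTower F Ω L]

/-- the natural map `Ω ⊗ K → L` -/
noncomputable def mu (ι : K →ₐ[F] L) : Ω ⊗[F] K →ₐ[Ω] L :=
  Algebra.TensorProduct.lift (Algebra.ofId Ω L) ι (fun _ _ => Commute.all _ _)

@[simp] theorem mu_tmul (ι : K →ₐ[F] L) (c : Ω) (f : K) :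
    mu ι (c ⊗ₜ f) = algebraMap Ω L c * ι f := by
  simp [mu, Algebra.ofId_apply]

/-- `L` is the constant field extension of `K` to `Ω` -/
structure IsCE (Ω : Type*) [Field Ω] [Algebra F Ω] [Algebra Ω L] [IsScalarTower F Ω L]
    (ι : K →ₐ[F] L) : Prop where
  inj : Function.Injective (mu (Ω := Ω) ι)
  frac : ∀ f : L, ∃ a b : Ω ⊗[F] K, b ≠ 0 ∧ f * mu ι b = mu ι a

/-- the place `w` is centred at the point `Q` -/
def At (ι : K →ₐ[F] L) (w : Pl Ω L) (Q : K →ₐ[F] Ω) : Prop :=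
  ∀ f : K, w.v (ι f - algebraMap Ω L (Q f)) < 1

/-- the place `w` lies over the place `P` of `K` -/
def Over (ι : K →ₐ[F] L) (w : Pl Ω L) (P : Pl F K) : Prop :=
  (∀ f : K, P.v f ≤ 1 → w.v (ι f) ≤ 1) ∧ (∀ f : K, P.v f < 1 → w.v (ι f) < 1)

variable {ι : K →ₐ[F] L} {w : Pl Ω L} {Q : K →ₐ[F] Ω}

theorem IsCE.ne_zero (h : IsCE Ω ι) {t : Ω ⊗[F] K} (ht : t ≠ 0) : mu (Ω := Ω) ι t ≠ 0 := by
  intro h0
  exact ht (h.inj (by rw [h0, map_zero]))

theorem lt_one_iff_le {x : ℤᵐ⁰} : x < 1 ↔ x ≤ exp (-1) := RR2_948.lt_one_iff x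

theorem tmul_ne [Algebra (RatFunc F) K] [IsScalarTower F (RatFunc F) K] (c : Ω) :
    (1 ⊗ₜ xK F K : Ω ⊗[F] K) ≠ c ⊗ₜ 1 := by
  intro h2
  obtain ⟨φ, hφ⟩ := Projective.exists_dual_eq_one F (one_ne_zero : (1 : Ω) ≠ 0)
  have h3 := congrArg (fun t => TensorProduct.lid F K (φ.rTensor K t)) h2
  simp only [LinearMap.rTensor_tmul, TensorProduct.lid_tmul, hφ, one_smul] at h3
  apply xK_notMem_range (F := F) (K := K)
  exact ⟨φ c, by rw [h3, Algebra.algebraMap_eq_smul_one]⟩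

theorem piT_ne_zero [Algebra (RatFunc F) K] [IsScalarTower F (RatFunc F) K] (c : Ω) :
    piT F K c ≠ 0 := fun h0 => tmul_ne c (sub_eq_zero.mp h0)

/-- residue of a tensor -/
theorem At.ev (h : At ι w Q) (t : Ω ⊗[F] K) :
    w.v (mu ι t - algebraMap Ω L (CE2_280.ev Q t)) < 1 := by
  induction t with
  | zero => simp
  | add t t' h h' =>
    rw [map_add, map_add, map_add, add_sub_add_comm]
    exact lt_of_le_of_lt (Valuation.map_add _ _ _) (max_lt h h')
  | tmul c f =>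
    rw [mu_tmul, ev_tmul, map_mul, ← mul_sub, map_mul]
    calc _ ≤ 1 * w.v (ι f - algebraMap Ω L (Q f)) :=
          mul_le_mul_left (v_algebraMap_le w c) _
      _ < 1 := by rw [one_mul]; exact h f

theorem At.le_one (h : At ι w Q) (t : Ω ⊗[F] K) : w.v (mu ι t) ≤ 1 := by
  have h1 : mu ι t = (mu ι t - algebraMap Ω L (CE2_280.ev Q t)) +
      algebraMap Ω L (CE2_280.ev Q t) := by ring
  rw [h1]
  exact (Valuation.map_add _ _ _).trans (max_le (h.ev t).le (v_algebraMap_le w _))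

theorem At.lt_one_iff (h : At ι w Q) (t : Ω ⊗[F] K) :
    w.v (mu ι t) < 1 ↔ CE2_280.ev Q t = 0 := by
  constructor
  · intro h1
    apply v_algebraMap_lt w
    have h2 : algebraMap Ω L (CE2_280.ev Q t) =
        mu ι t - (mu ι t - algebraMap Ω L (CE2_280.ev Q t)) := by ring
    rw [h2]
    exact lt_of_le_of_lt (Valuation.map_sub _ _ _) (max_lt h1 (h.ev t))
  · intro h1
    have := h.ev t
    rwa [h1, map_zero, sub_zero] at this

theorem At.eq_one (h : At ι w Q) {t : Ω ⊗[F] K} (ht : CE2_280.ev Q t ≠ 0) :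
    w.v (mu ι t) = 1 :=
  le_antisymm (h.le_one t) (not_lt.mp fun h1 => ht ((h.lt_one_iff t).mp h1))

theorem At.iota_eq_one (h : At ι w Q) {f : K} (hf : f ≠ 0) : w.v (ι f) = 1 := by
  have h1 : ι f = mu (Ω := Ω) ι (1 ⊗ₜ f) := by simp
  rw [h1]
  apply h.eq_one
  rw [ev_tmul, one_mul]
  exact fun h0 => hf ((Q : K →+* Ω).injective (by rw [map_zero]; exact h0))

/-- the centre of a place which is trivial on `K` -/
theorem exists_At [IsAlgClosed Ω] [Algebra (RatFunc Ω) L] [IsScalarTower Ω (RatFunc Ω) L]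
    [FiniteDimensional (RatFunc Ω) L] [Algebra.IsSeparable (RatFunc Ω) L]
    (hw : ∀ f : K, f ≠ 0 → w.v (ι f) = 1) : ∃ Q : K →ₐ[F] Ω, At ι w Q := by
  have hle : ∀ f : K, w.v (ι f) ≤ 1 := by
    intro f
    by_cases hf : f = 0
    · simp [hf]
    · exact (hw f hf).le
  choose r hr using fun f : K => exists_residue w (hle f)
  have huniq : ∀ f c, w.v (ι f - algebraMap Ω L c) < 1 → r f = c := fun f c h =>
    residue_unique w (hr f) h
  have hrle : ∀ c : Ω, w.v (algebraMap Ω L c) ≤ 1 := v_algebraMap_le w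
  refine ⟨{ toFun := r, map_one' := ?_, map_mul' := ?_, map_zero' := ?_, map_add' := ?_,
            commutes' := ?_ }, hr⟩
  · apply huniq; simp
  · intro f g
    apply huniq
    have : ι (f * g) - algebraMap Ω L (r f * r g) =
        ι f * (ι g - algebraMap Ω L (r g)) + (ι f - algebraMap Ω L (r f)) *
          algebraMap Ω L (r g) := by
      rw [map_mul, map_mul]; ring
    rw [this]
    refine lt_of_le_of_lt (Valuation.map_add _ _ _) (max_lt ?_ ?_)
    · rw [map_mul]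
      calc _ ≤ 1 * w.v (ι g - algebraMap Ω L (r g)) := mul_le_mul_left (hle f) _
        _ < 1 := by rw [one_mul]; exact hr g
    · rw [map_mul]
      calc _ ≤ w.v (ι f - algebraMap Ω L (r f)) * 1 := mul_le_mul_right (hrle _) _
        _ < 1 := by rw [mul_one]; exact hr f
  · apply huniq; simp
  · intro f g
    apply huniq
    have : ι (f + g) - algebraMap Ω L (r f + r g) =
        (ι f - algebraMap Ω L (r f)) + (ι g - algebraMap Ω L (r g)) := by
      rw [map_add, map_add]; ring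
    rw [this]
    exact lt_of_le_of_lt (Valuation.map_add _ _ _) (max_lt (hr f) (hr g))
  · intro c
    apply huniq
    rw [AlgHom.commutes, ← IsScalarTower.algebraMap_apply, sub_self, map_zero]
    exact zero_lt_one

end Defs

section Points

variable {F K Ω L : Type*} [Field F] [IsAlgClosed F] [Field K] [Algebra F K]
  [Algebra (RatFunc F) K] [IsScalarTower F (RatFunc F) K] [FiniteDimensional (RatFunc F) K]
  [Algebra.IsSeparable (RatFunc F) K]
  [Field Ω] [Algebra F Ω] [IsAlgClosed Ω]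
  [Field L] [Algebra Ω L] [Algebra F L] [IsScalarTower F Ω L]
  {ι : K →ₐ[F] L} {w w' : Pl Ω L} {Q : K →ₐ[F] Ω}

omit [IsAlgClosed F] [IsScalarTower F (RatFunc F) K] [FiniteDimensional (RatFunc F) K]
  [Algebra.IsSeparable (RatFunc F) K] [IsAlgClosed Ω] in
theorem At.pi_lt (h : At ι w Q) : w.v (mu ι (piT F K (Q (xK F K)))) ≤ exp (-1) := by
  rw [← lt_one_iff_le, h.lt_one_iff, ev_piT, sub_self]

/-- local form of an element of `Ω ⊗ K` at a point -/
theorem At.exists_form_aux (hι : IsCE Ω ι) (h : At ι w Q) (m : ℕ) :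
    ∀ t : Ω ⊗[F] K, t ≠ 0 → exp (-(m : ℤ)) ≤ w.v (mu ι t) →
    ∃ (k : ℕ) (e t' : Ω ⊗[F] K), CE2_280.ev Q e ≠ 0 ∧ CE2_280.ev Q t' ≠ 0 ∧
      e * t = piT F K (Q (xK F K)) ^ k * t' := by
  induction m with
  | zero =>
    intro t ht hm
    refine ⟨0, 1, t, by simp, ?_, by simp⟩
    intro h0
    rw [← h.lt_one_iff] at h0
    simp at hm
    exact absurd h0 (not_lt.mpr hm)
  | succ m ih =>
    intro t ht hm
    by_cases h0 : CE2_280.ev Q t = 0
    · obtain ⟨e, t', he, het⟩ := exists_mul_eq Q (transcendental_x Q) h0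
      have he0 : e ≠ 0 := by
        rintro rfl
        simp at he
      have ht' : t' ≠ 0 := by
        rintro rfl
        rw [mul_zero] at het
        exact (mul_ne_zero he0 ht) het
      have h1 := congrArg (fun s => w.v (mu ι s)) het
      simp only [map_mul] at h1
      rw [h.eq_one (by rw [he]; exact one_ne_zero), one_mul] at h1
      obtain ⟨k, e', t'', he', ht'', heq⟩ := ih t' ht' (by
        have h2 : exp (-((m + 1 : ℕ) : ℤ)) ≤ exp (-1) * w.v (mu ι t') := by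
          refine hm.trans ?_
          rw [h1]
          exact mul_le_mul_left h.pi_lt _
        have h3 : exp (-((m + 1 : ℕ) : ℤ)) = exp (-1) * exp (-(m : ℤ)) := by
          rw [← exp_add]; congr 1; push_cast; ring
        rw [h3] at h2
        exact (mul_le_mul_iff_right₀ (by simp)).mp h2)
      refine ⟨k + 1, e' * e, t'', ?_, ht'', ?_⟩
      · rw [map_mul, he, mul_one]; exact he'
      · rw [mul_assoc, het, pow_succ, mul_assoc, mul_left_comm, heq]
        ring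
    · exact ⟨0, 1, t, by simp, h0, by simp⟩

theorem At.exists_form_T (hι : IsCE Ω ι) (h : At ι w Q) {t : Ω ⊗[F] K} (ht : t ≠ 0) :
    ∃ (k : ℕ) (e t' : Ω ⊗[F] K), CE2_280.ev Q e ≠ 0 ∧ CE2_280.ev Q t' ≠ 0 ∧
      e * t = piT F K (Q (xK F K)) ^ k * t' := by
  have h1 : w.v (mu ι t) ≠ 0 := (Valuation.ne_zero_iff _).mpr (hι.ne_zero ht)
  refine h.exists_form_aux hι (-log (w.v (mu ι t))).toNat t ht ?_
  conv_rhs => rw [← exp_log h1]
  rw [exp_le_exp]
  have h2 := Int.self_le_toNat (-log (w.v (mu ι t)))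
  omega

/-- local form of an element of `L` at a point -/
theorem At.exists_form (hι : IsCE Ω ι) (h : At ι w Q) {f : L} (hf : f ≠ 0) :
    ∃ (k : ℤ) (u₁ u₂ : Ω ⊗[F] K), CE2_280.ev Q u₁ ≠ 0 ∧ CE2_280.ev Q u₂ ≠ 0 ∧
      f * mu ι u₂ = mu ι (piT F K (Q (xK F K))) ^ k * mu ι u₁ := by
  obtain ⟨a, b, hb, hab⟩ := hι.frac f
  have ha : a ≠ 0 := by
    rintro rfl
    rw [map_zero] at hab
    exact (mul_ne_zero hf (hι.ne_zero hb)) hab
  obtain ⟨k, e, t, he, ht, heq⟩ := h.exists_form_T hι ha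
  obtain ⟨k', e', t', he', ht', heq'⟩ := h.exists_form_T hι hb
  have hpi : mu ι (piT F K (Q (xK F K))) ≠ 0 := hι.ne_zero (piT_ne_zero _)
  refine ⟨(k : ℤ) - k', t * e', e * t', ?_, ?_, ?_⟩
  · rw [map_mul]; exact mul_ne_zero ht he'
  · rw [map_mul]; exact mul_ne_zero he ht'
  · have h1 := congrArg (mu ι) heq
    have h2 := congrArg (mu ι) heq'
    rw [map_mul, map_mul, map_pow] at h1 h2
    have h3 : mu ι b ≠ 0 := hι.ne_zero hb
    have hpk : mu ι (piT F K (Q (xK F K))) ^ k' ≠ 0 := pow_ne_zero _ hpi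
    rw [zpow_sub₀ hpi, zpow_natCast, zpow_natCast, map_mul, map_mul]
    rw [div_mul_eq_mul_div, eq_div_iff hpk]
    apply mul_right_cancel₀ h3
    calc f * (mu ι e * mu ι t') * mu ι (piT F K (Q (xK F K))) ^ k' * mu ι b
        = (f * mu ι b) * mu ι e * (mu ι (piT F K (Q (xK F K))) ^ k' * mu ι t') := by ring
      _ = mu ι a * mu ι e * (mu ι e' * mu ι b) := by rw [hab, h2]
      _ = (mu ι e * mu ι a) * mu ι e' * mu ι b := by ring
      _ = _ := by rw [h1]; ring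

theorem At.v_eq_zpow (hι : IsCE Ω ι) (h : At ι w Q) {f : L} {k : ℤ} {u₁ u₂ : Ω ⊗[F] K}
    (h₁ : CE2_280.ev Q u₁ ≠ 0) (h₂ : CE2_280.ev Q u₂ ≠ 0)
    (hf : f * mu ι u₂ = mu ι (piT F K (Q (xK F K))) ^ k * mu ι u₁) :
    w.v f = w.v (mu ι (piT F K (Q (xK F K)))) ^ k := by
  have h3 := congrArg w.v hf
  rwa [map_mul, map_mul, h.eq_one h₁, h.eq_one h₂, mul_one, mul_one, map_zpow₀] at h3

/-- `x - Q(x)` is a uniformizer at `Q` -/
theorem At.v_pi (hι : IsCE Ω ι) (h : At ι w Q) :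
    w.v (mu ι (piT F K (Q (xK F K)))) = exp (-1) := by
  obtain ⟨f, hf⟩ := w.surj (exp (-1))
  have hf0 : f ≠ 0 := by
    rintro rfl; rw [map_zero] at hf; exact exp_ne_zero hf.symm
  obtain ⟨k, u₁, u₂, h₁, h₂, heq⟩ := h.exists_form hι hf0
  have h3 := h.v_eq_zpow hι h₁ h₂ heq
  have h4 := h.pi_lt
  have h5 : w.v (mu ι (piT F K (Q (xK F K)))) ≠ 0 := by
    intro h0
    rw [h0, hf] at h3
    by_cases hk : k = 0
    · rw [hk, zpow_zero, ← exp_zero, exp_inj] at h3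
      omega
    · rw [zero_zpow k hk] at h3
      exact exp_ne_zero h3
  obtain ⟨m, hm⟩ : ∃ m : ℤ, w.v (mu ι (piT F K (Q (xK F K)))) = exp m :=
    ⟨_, (exp_log h5).symm⟩
  rw [hm] at h3 h4 ⊢
  rw [exp_le_exp] at h4
  rw [hf, ← exp_zsmul, exp_inj, smul_eq_mul] at h3
  have h6 : m ∣ 1 := ⟨-k, by linear_combination -h3⟩
  have h7 := Int.isUnit_iff.mp (isUnit_of_dvd_one h6)
  congr 1
  omega

theorem At.v_eq (hι : IsCE Ω ι) (h : At ι w Q) {f : L} {k : ℤ} {u₁ u₂ : Ω ⊗[F] K}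
    (h₁ : CE2_280.ev Q u₁ ≠ 0) (h₂ : CE2_280.ev Q u₂ ≠ 0)
    (hf : f * mu ι u₂ = mu ι (piT F K (Q (xK F K))) ^ k * mu ι u₁) :
    w.v f = exp (-k) := by
  rw [h.v_eq_zpow hι h₁ h₂ hf, h.v_pi hι, ← exp_zsmul]
  simp

theorem At.unique (hι : IsCE Ω ι) (h : At ι w Q) (h' : At ι w' Q) : w = w' := by
  apply Pl.ext
  ext f
  by_cases hf : f = 0
  · simp [hf]
  · obtain ⟨k, u₁, u₂, h₁, h₂, heq⟩ := h.exists_form hι hf
    rw [h.v_eq hι h₁ h₂ heq, h'.v_eq hι h₁ h₂ heq]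

omit [IsAlgClosed F] [Algebra (RatFunc F) K] [IsScalarTower F (RatFunc F) K]
  [FiniteDimensional (RatFunc F) K] [Algebra.IsSeparable (RatFunc F) K] [IsAlgClosed Ω] in
theorem At.unique_point {Q' : K →ₐ[F] Ω} (h : At ι w Q) (h' : At ι w Q') : Q = Q' := by
  ext f
  exact residue_unique w (h f) (h' f)

variable [Algebra (RatFunc Ω) L] [IsScalarTower Ω (RatFunc Ω) L]
  [FiniteDimensional (RatFunc Ω) L] [Algebra.IsSeparable (RatFunc Ω) L]

omit [IsAlgClosed Ω] [FiniteDimensional (RatFunc F) K] [Algebra.IsSeparable (RatFunc F) K] in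
/-- existence of the place of a point -/
theorem exists_place_At (hι : IsCE Ω ι) (Q : K →ₐ[F] Ω) : ∃ w : Pl Ω L, At ι w Q := by
  let e := AlgEquiv.ofInjective (mu (Ω := Ω) ι) hι.inj
  let ψ : (mu (Ω := Ω) ι).range →ₐ[Ω] Ω := (CE2_280.ev Q).comp e.symm.toAlgHom
  have hψ : ∀ t : Ω ⊗[F] K, ψ ⟨mu ι t, ⟨t, rfl⟩⟩ = CE2_280.ev Q t := by
    intro t
    have : e.symm ⟨mu ι t, ⟨t, rfl⟩⟩ = t := by
      rw [AlgEquiv.symm_apply_eq]
      rfl
    show CE2_280.ev Q (e.symm ⟨mu ι t, ⟨t, rfl⟩⟩) = _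
    rw [this]
  obtain ⟨w, hw⟩ := exists_pl_of_hom (mu (Ω := Ω) ι).range ψ (by
    refine ⟨⟨mu (Ω := Ω) ι (1 ⊗ₜ[F] xK F K), ⟨_, rfl⟩⟩, ?_⟩
    rw [hψ]
    intro h0
    refine tmul_ne (F := F) (K := K) (CE2_280.ev Q (1 ⊗ₜ[F] xK F K)) (hι.inj ?_)
    rw [mu_tmul ι (CE2_280.ev Q (1 ⊗ₜ[F] xK F K)) 1, map_one, mul_one]
    exact h0)
  refine ⟨w, fun f => ?_⟩
  have h1 := hw ⟨mu (Ω := Ω) ι (1 ⊗ₜ[F] f), ⟨_, rfl⟩⟩
  rw [hψ] at h1
  simpa using h1

/-- the place of `L` attached to a point -/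
noncomputable def plQ (hι : IsCE Ω ι) (Q : K →ₐ[F] Ω) : Pl Ω L := (exists_place_At hι Q).choose

omit [IsAlgClosed Ω] [FiniteDimensional (RatFunc F) K] [Algebra.IsSeparable (RatFunc F) K] in
theorem plQ_At (hι : IsCE Ω ι) (Q : K →ₐ[F] Ω) : At ι (plQ hι Q) Q :=
  (exists_place_At hι Q).choose_spec

omit [IsAlgClosed Ω] [FiniteDimensional (RatFunc F) K] [Algebra.IsSeparable (RatFunc F) K] in
theorem plQ_injective (hι : IsCE Ω ι) : Function.Injective (plQ hι) := by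
  intro Q Q' h
  have h1 := plQ_At hι Q
  rw [h] at h1
  exact h1.unique_point (plQ_At hι Q')

end Points

end Crest.Agent.R013.CE3_280
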