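import Mathlib
import Crest.Agent.R013.CE3_280

/-!
# R013 / CE4: places of `L = K_Ω` over the places of `K` (helper280)
-/

set_option autoImplicit false
set_option linter.all false

namespace Crest.Agent.R013.CE3_280

open WithZero Module TensorProduct Polynomial nonZeroDivisors
open Crest.Agent.R013.RR7_948 Crest.Agent.R013.RR8_948 Crest.Agent.R013.RR9_948
open Crest.Agent.R013.RR11_948 Crest.Agent.R013.RR13_948 Crest.Agent.R013.CE1_280
open Crest.Agent.R013.CE2_280 Crest.Agent.R013.CE3_280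

section Const

variable {F K Ω L : Type*} [Field F] [IsAlgClosed F] [Field K] [Algebra F K]
  [Algebra (RatFunc F) K] [IsScalarTower F (RatFunc F) K] [FiniteDimensional (RatFunc F) K]
  [Algebra.IsSeparable (RatFunc F) K]
  [Field Ω] [Algebra F Ω]
  [Field L] [Algebra Ω L] [Algebra F L] [IsScalarTower F Ω L]
  {ι : K →ₐ[F] L} {w w' : Pl Ω L} {P : Pl F K}

theorem exists_Over (hw : ¬ ∀ f : K, f ≠ 0 → w.v (ι f) = 1) : ∃ P : Pl F K, Over ι w P := by
  push Not at hw
  obtain ⟨f, hf0, hf⟩ := hw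
  obtain ⟨P, hP⟩ := exists_place (k := F) (w.v.comap (ι : K →+* L)) (by
    intro c hc
    rw [Valuation.comap_apply]
    show w.v (ι (algebraMap F K c)) = 1
    rw [AlgHom.commutes, IsScalarTower.algebraMap_apply F Ω L]
    exact w.const _ (by simpa using hc)) ⟨f, by
      rw [Valuation.comap_apply]
      exact ⟨(Valuation.ne_zero_iff _).mpr (by simpa using hf0), hf⟩⟩
  exact ⟨P, fun g hg => hP.le_one_iff_le_one.mp hg, fun g hg => hP.lt_one_iff_lt_one.mp hg⟩

omit [IsAlgClosed F] [Algebra (RatFunc F) K] [IsScalarTower F (RatFunc F) K]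
  [FiniteDimensional (RatFunc F) K] [Algebra.IsSeparable (RatFunc F) K] in
theorem Over.iota_eq_one (h : Over ι w P) {f : K} (hf : P.v f = 1) : w.v (ι f) = 1 := by
  have hf0 : f ≠ 0 := by
    rintro rfl; simp at hf
  refine le_antisymm (h.1 f hf.le) ?_
  have h1 := h.1 f⁻¹ (by rw [map_inv₀, hf, inv_one])
  rw [map_inv₀, map_inv₀] at h1
  have h2 : 0 < w.v (ι f) := by
    rw [Valuation.pos_iff]; simpa using hf0
  exact (inv_le_one₀ h2).mp h1

omit [IsAlgClosed F] [Algebra (RatFunc F) K] [IsScalarTower F (RatFunc F) K]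
  [FiniteDimensional (RatFunc F) K] [Algebra.IsSeparable (RatFunc F) K] in
theorem Over.v_zpow (h : Over ι w P) {u : K} (hu : P.v u = exp (-1)) {f : K} {n : ℤ}
    (hf : P.v f = exp n) : w.v (ι f) = w.v (ι u) ^ (-n) := by
  have hu0 : u ≠ 0 := by
    rintro rfl; rw [map_zero] at hu; exact exp_ne_zero hu.symm
  have h1 := h.iota_eq_one (f := f * u ^ n) (by
    rw [map_mul, map_zpow₀, hf, hu, ← exp_zsmul, ← exp_add]; simp)
  rw [map_mul, map_zpow₀, map_mul, map_zpow₀] at h1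
  rw [zpow_neg]
  exact eq_inv_of_mul_eq_one_left h1

/-- value of a tensor in terms of a linearly independent family of `Ω / F` (Gauss) -/
theorem Over.gauss (h : Over ι w P) {u : K} (hu : P.v u = exp (-1)) {κ : Type*}
    {b : κ → Ω} (hb : LinearIndependent F b) (c : κ →₀ K) (n : ℤ)
    (hle : ∀ i, P.v (c i) ≤ exp n) {i₀ : κ}
    (hi₀ : P.v (c i₀) = exp n) :
    w.v (mu ι (c.sum fun i f => b i ⊗ₜ f)) = w.v (ι u) ^ (-n) := by
  classical
  have hu0 : u ≠ 0 := by
    rintro rfl; rw [map_zero] at hu; exact exp_ne_zero hu.symm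
  have hg : ∀ i, P.v (c i * u ^ n) ≤ 1 := by
    intro i
    rw [map_mul, map_zpow₀, hu, ← exp_zsmul]
    calc _ ≤ exp n * exp (n • (-1)) := mul_le_mul_left (hle i) _
      _ = 1 := by rw [← exp_add]; simp
  choose r hr using fun i => exists_residue P (hg i)
  have hr0 : r i₀ ≠ 0 := by
    intro h0
    have h1 := hr i₀
    rw [h0, map_zero, sub_zero, map_mul, map_zpow₀, hi₀, hu, ← exp_zsmul, ← exp_add] at h1
    simp at h1
  have hsum : algebraMap Ω L (∑ i ∈ c.support, r i • b i) ≠ 0 := by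
    rw [ne_eq, map_eq_zero]
    intro h0
    have h1 := linearIndependent_iff'.mp hb c.support r h0 i₀ (by
      rw [Finsupp.mem_support_iff]
      intro h2
      rw [h2, map_zero] at hi₀
      exact exp_ne_zero hi₀.symm)
    exact hr0 h1
  have hs1 : w.v (algebraMap Ω L (∑ i ∈ c.support, r i • b i)) = 1 :=
    w.const _ (fun h0 => hsum (by rw [h0, map_zero]))
  have hdiff : mu ι (c.sum fun i f => b i ⊗ₜ f) * ι u ^ n -
      algebraMap Ω L (∑ i ∈ c.support, r i • b i) =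
      ∑ i ∈ c.support, algebraMap Ω L (b i) * ι (c i * u ^ n - algebraMap F K (r i)) := by
    rw [Finsupp.sum, map_sum, Finset.sum_mul, map_sum, ← Finset.sum_sub_distrib]
    refine Finset.sum_congr rfl fun i _ => ?_
    rw [mu_tmul, map_sub, map_mul, map_zpow₀, AlgHom.commutes, Algebra.smul_def, map_mul,
      ← IsScalarTower.algebraMap_apply]
    ring
  have hlt : w.v (mu ι (c.sum fun i f => b i ⊗ₜ f) * ι u ^ n -
      algebraMap Ω L (∑ i ∈ c.support, r i • b i)) < 1 := by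
    rw [hdiff]
    refine Valuation.map_sum_lt _ one_ne_zero fun i _ => ?_
    rw [map_mul]
    calc _ ≤ 1 * w.v (ι (c i * u ^ n - algebraMap F K (r i))) :=
          mul_le_mul_left (v_algebraMap_le w _) _
      _ < 1 := by rw [one_mul]; exact h.2 _ (hr i)
  have h1 : w.v (mu ι (c.sum fun i f => b i ⊗ₜ f) * ι u ^ n) = 1 := by
    have h2 := Valuation.map_add_eq_of_lt_right (v := w.v)
      (x := mu ι (c.sum fun i f => b i ⊗ₜ f) * ι u ^ n -
        algebraMap Ω L (∑ i ∈ c.support, r i • b i))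
      (y := algebraMap Ω L (∑ i ∈ c.support, r i • b i)) (by rw [hs1]; exact hlt)
    rw [sub_add_cancel, hs1] at h2
    exact h2
  rw [map_mul, map_zpow₀] at h1
  rw [zpow_neg]
  exact eq_inv_of_mul_eq_one_left h1

omit [IsAlgClosed F] [Algebra (RatFunc F) K] [IsScalarTower F (RatFunc F) K]
  [FiniteDimensional (RatFunc F) K] [Algebra.IsSeparable (RatFunc F) K] in
theorem exists_max {κ : Type*} (P : Pl F K) {c : κ →₀ K} (hc : c ≠ 0) :
    ∃ (n : ℤ) (i₀ : κ), P.v (c i₀) = exp n ∧ ∀ i, P.v (c i) ≤ exp n := by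
  classical
  have hne : c.support.Nonempty := Finsupp.support_nonempty_iff.mpr hc
  obtain ⟨i₀, hi₀, hmax⟩ := Finset.exists_max_image c.support (fun i => P.v (c i)) hne
  have h1 : P.v (c i₀) ≠ 0 := (Valuation.ne_zero_iff _).mpr (Finsupp.mem_support_iff.mp hi₀)
  refine ⟨log (P.v (c i₀)), i₀, (exp_log h1).symm, ?_⟩
  intro i
  rw [exp_log h1]
  by_cases hi : c i = 0
  · rw [hi, map_zero]; exact zero_le
  · exact hmax i (Finsupp.mem_support_iff.mpr hi)

theorem Over.v_u (hι : IsCE Ω ι) (h : Over ι w P) {u : K} (hu : P.v u = exp (-1)) :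
    w.v (ι u) = exp (-1) := by
  classical
  let b := Basis.ofVectorSpace F Ω
  have hu0 : u ≠ 0 := by
    rintro rfl; rw [map_zero] at hu; exact exp_ne_zero hu.symm
  have key : ∀ t : Ω ⊗[F] K, t ≠ 0 → ∃ n : ℤ, w.v (mu ι t) = w.v (ι u) ^ n := by
    intro t ht
    obtain ⟨c, rfl⟩ := TensorProduct.eq_repr_basis_left b t
    obtain ⟨n, i₀, hi₀, hle⟩ := exists_max P (c := c) (by
      rintro rfl; exact ht (by simp))
    exact ⟨-n, h.gauss hu b.linearIndependent c n hle hi₀⟩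
  obtain ⟨f, hf⟩ := w.surj (exp (-1))
  have hf0 : f ≠ 0 := by
    rintro rfl; rw [map_zero] at hf; exact exp_ne_zero hf.symm
  obtain ⟨a, b', hb', hab⟩ := hι.frac f
  have ha : a ≠ 0 := by
    rintro rfl
    rw [map_zero] at hab
    exact (mul_ne_zero hf0 (hι.ne_zero hb')) hab
  obtain ⟨n, hn⟩ := key a ha
  obtain ⟨n', hn'⟩ := key b' hb'
  have h5 : w.v (ι u) ≠ 0 := (Valuation.ne_zero_iff _).mpr (by simpa using hu0)
  have h3 : exp (-1) = w.v (ι u) ^ (n - n') := by
    have h6 := congrArg w.v hab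
    rw [map_mul, hn, hn', hf] at h6
    rw [zpow_sub₀ h5, ← h6, mul_div_assoc, div_self (zpow_ne_zero _ h5), mul_one]
  have h4 : w.v (ι u) ≤ exp (-1) := by
    rw [← lt_one_iff_le]
    apply h.2
    rw [hu, ← exp_zero, exp_lt_exp]; norm_num
  obtain ⟨m, hm⟩ : ∃ m : ℤ, w.v (ι u) = exp m := ⟨_, (exp_log h5).symm⟩
  rw [hm] at h3 h4 ⊢
  rw [exp_le_exp] at h4
  rw [← exp_zsmul, exp_inj, smul_eq_mul] at h3
  have h6 : m ∣ 1 := ⟨-(n - n'), by linear_combination -h3⟩
  have h7 := Int.isUnit_iff.mp (isUnit_of_dvd_one h6)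
  congr 1
  omega

theorem Over.v_iota (hι : IsCE Ω ι) (h : Over ι w P) (f : K) : w.v (ι f) = P.v f := by
  obtain ⟨u, hu⟩ := P.surj (exp (-1))
  by_cases hf : f = 0
  · simp [hf]
  · have h1 : P.v f = exp (log (P.v f)) := (exp_log ((Valuation.ne_zero_iff _).mpr hf)).symm
    rw [h.v_zpow hu h1, h.v_u hι hu, ← exp_zsmul]
    conv_rhs => rw [h1]
    simp

theorem Over.v_sum_eq' (hι : IsCE Ω ι) (h : Over ι w P) {κ : Type*} {b : κ → Ω}
    (hb : LinearIndependent F b)
    (c : κ →₀ K) (n : ℤ) (hle : ∀ i, P.v (c i) ≤ exp n) {i₀ : κ} (hi₀ : P.v (c i₀) = exp n) :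
    w.v (mu ι (c.sum fun i f => b i ⊗ₜ f)) = exp n := by
  obtain ⟨u, hu⟩ := P.surj (exp (-1))
  rw [h.gauss hu hb c n hle hi₀, h.v_u hι hu, ← exp_zsmul]
  simp

theorem Over.v_sum_eq (hι : IsCE Ω ι) (h : Over ι w P) {κ : Type*} (b : Basis κ F Ω)
    (c : κ →₀ K) (n : ℤ) (hle : ∀ i, P.v (c i) ≤ exp n) {i₀ : κ} (hi₀ : P.v (c i₀) = exp n) :
    w.v (mu ι (c.sum fun i f => b i ⊗ₜ f)) = exp n :=
  h.v_sum_eq' hι b.linearIndependent c n hle hi₀

theorem Over.v_sum_le_iff (hι : IsCE Ω ι) (h : Over ι w P) {κ : Type*} (b : Basis κ F Ω)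
    (c : κ →₀ K) (n : ℤ) :
    w.v (mu ι (c.sum fun i f => b i ⊗ₜ f)) ≤ exp n ↔ ∀ i, P.v (c i) ≤ exp n := by
  by_cases hc : c = 0
  · subst hc; simp
  · obtain ⟨m, i₀, hi₀, hle⟩ := exists_max P hc
    rw [h.v_sum_eq hι b c m hle hi₀]
    constructor
    · intro h1 i
      exact (hle i).trans h1
    · intro h1
      rw [← hi₀]
      exact h1 i₀

theorem Over.unique (hι : IsCE Ω ι) (h : Over ι w P) (h' : Over ι w' P) : w = w' := by
  classical
  let b := Basis.ofVectorSpace F Ω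
  have key : ∀ t : Ω ⊗[F] K, w.v (mu ι t) = w'.v (mu ι t) := by
    intro t
    by_cases ht : t = 0
    · simp [ht]
    · obtain ⟨c, rfl⟩ := TensorProduct.eq_repr_basis_left b t
      obtain ⟨n, i₀, hi₀, hle⟩ := exists_max P (c := c) (by
        rintro rfl; exact ht (by simp))
      rw [h.v_sum_eq hι b c n hle hi₀, h'.v_sum_eq hι b c n hle hi₀]
  apply Pl.ext
  ext f
  obtain ⟨a, b', hb', hab⟩ := hι.frac f
  have h1 := congrArg w.v hab
  have h2 := congrArg w'.v hab
  rw [map_mul, key a, key b'] at h1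
  rw [map_mul, ← h1] at h2
  exact (mul_right_cancel₀ ((Valuation.ne_zero_iff _).mpr (hι.ne_zero hb')) h2).symm

theorem Over.unique_place (hι : IsCE Ω ι) {P' : Pl F K} (h : Over ι w P) (h' : Over ι w P') :
    P = P' := by
  apply Pl.ext
  ext f
  rw [← h.v_iota hι, ← h'.v_iota hι]

/-- a place is not both over a place of `K` and centred at a point -/
theorem Over.not_At (hι : IsCE Ω ι) (h : Over ι w P) {Q : K →ₐ[F] Ω} (h' : At ι w Q) : False := by
  obtain ⟨u, hu⟩ := P.surj (exp (-1))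
  have hu0 : u ≠ 0 := by
    rintro rfl; rw [map_zero] at hu; exact exp_ne_zero hu.symm
  have h1 := h.v_u hι hu
  rw [h'.iota_eq_one hu0, ← exp_zero, exp_inj] at h1
  omega

end Const

section Exist

variable {F K Ω L : Type*} [Field F] [IsAlgClosed F] [Field K] [Algebra F K]
  [Algebra (RatFunc F) K] [IsScalarTower F (RatFunc F) K] [FiniteDimensional (RatFunc F) K]
  [Algebra.IsSeparable (RatFunc F) K]
  [Field Ω] [Algebra F Ω]
  [Field L] [Algebra Ω L] [Algebra F L] [IsScalarTower F Ω L]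
  [Algebra (RatFunc Ω) L] [IsScalarTower Ω (RatFunc Ω) L]
  [FiniteDimensional (RatFunc Ω) L] [Algebra.IsSeparable (RatFunc Ω) L]
  {ι : K →ₐ[F] L}

/-- the valuation ring of a place as a subalgebra -/
def valSub (P : Pl F K) : Subalgebra F K where
  carrier := {f | P.v f ≤ 1}
  mul_mem' {a b} ha hb := by
    simp only [Set.mem_ofPred_eq] at ha hb ⊢
    rw [map_mul]
    exact mul_le_one' ha hb
  add_mem' {a b} ha hb := by
    simp only [Set.mem_ofPred_eq] at ha hb ⊢
    exact (Valuation.map_add _ _ _).trans (max_le ha hb)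
  algebraMap_mem' c := v_algebraMap_le P c

omit [IsAlgClosed F] [Algebra (RatFunc F) K] [IsScalarTower F (RatFunc F) K]
  [FiniteDimensional (RatFunc F) K] [Algebra.IsSeparable (RatFunc F) K] in
theorem mem_valSub {P : Pl F K} {f : K} : f ∈ valSub P ↔ P.v f ≤ 1 := by
  rw [← SetLike.mem_coe]; simp [valSub]

omit [IsAlgClosed F] [FiniteDimensional (RatFunc F) K] [Algebra.IsSeparable (RatFunc F) K]
  [Algebra (RatFunc F) K] [IsScalarTower F (RatFunc F) K] in
theorem exists_place_Over (hι : IsCE Ω ι) (P : Pl F K) : ∃ w : Pl Ω L, Over ι w P := by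
  obtain ⟨u, hu⟩ := P.surj (exp (-1))
  have hu0 : u ≠ 0 := by
    rintro rfl; rw [map_zero] at hu; exact exp_ne_zero hu.symm
  have hu1 : P.v u ≤ 1 := by rw [hu, ← exp_zero, exp_le_exp]; norm_num
  let m : Ω ⊗[F] (valSub P) →ₐ[Ω] Ω ⊗[F] K :=
    Algebra.TensorProduct.map (AlgHom.id Ω Ω) (valSub P).val
  let O : Subalgebra Ω L := ((mu (Ω := Ω) ι).comp m).range
  have hO : ∀ f : K, P.v f ≤ 1 → ι f ∈ O := by
    intro f hf
    refine ⟨(1 : Ω) ⊗ₜ[F] (⟨f, mem_valSub.mpr hf⟩ : valSub P), ?_⟩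
    show mu ι (m ((1 : Ω) ⊗ₜ[F] (⟨f, mem_valSub.mpr hf⟩ : valSub P))) = ι f
    simp [m]
  obtain ⟨φ, hφ⟩ := Projective.exists_dual_eq_one F (one_ne_zero : (1 : Ω) ≠ 0)
  let Φ : Ω ⊗[F] K →ₗ[F] K := (TensorProduct.lid F K).toLinearMap.comp (φ.rTensor K)
  have hΦ1 : ∀ t : Ω ⊗[F] (valSub P), P.v (Φ (m t)) ≤ 1 := by
    intro t
    induction t with
    | zero => simp
    | add t t' h h' =>
      rw [map_add, map_add]
      exact (Valuation.map_add _ _ _).trans (max_le h h')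
    | tmul c f =>
      have : Φ (m (c ⊗ₜ f)) = algebraMap F K (φ c) * (f : K) := by
        simp [Φ, m, Algebra.smul_def]
      rw [this, map_mul]
      exact mul_le_one' (v_algebraMap_le P _) (mem_valSub.mp f.2)
  have hΦ2 : ∀ t : Ω ⊗[F] K, Φ (t * (1 ⊗ₜ u)) = Φ t * u := by
    intro t
    induction t with
    | zero => simp
    | add t t' h h' => rw [add_mul, map_add, map_add, h, h', add_mul]
    | tmul c f =>
      rw [Algebra.TensorProduct.tmul_mul_tmul, mul_one]
      simp [Φ, smul_mul_assoc]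
  let I : Ideal O := Ideal.span {⟨ι u, hO u hu1⟩}
  obtain ⟨w, hw, hw1⟩ := exists_pl_of_ideal O I (by
    intro htop
    have h1 : (1 : O) ∈ I := by rw [htop]; trivial
    rw [Ideal.mem_span_singleton'] at h1
    obtain ⟨⟨a, t, rfl⟩, ha⟩ := h1
    have h2 := congrArg (Subtype.val) ha
    have h3 : mu ι (m t * (1 ⊗ₜ u)) = mu ι (1 : Ω ⊗[F] K) := by
      rw [map_mul, map_one]
      have h4 : mu (Ω := Ω) ι (1 ⊗ₜ u) = ι u := by simp
      rw [h4]
      exact h2
    have h4 := congrArg Φ (hι.inj h3)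
    rw [hΦ2] at h4
    have h5 : Φ 1 = 1 := by
      rw [Algebra.TensorProduct.one_def]
      simp [Φ, hφ]
    have h6 := congrArg P.v h4
    rw [h5, map_one, map_mul, hu] at h6
    have h7 : (1 : ℤᵐ⁰) ≤ exp (-1) := by
      calc 1 = P.v (Φ (m t)) * exp (-1) := h6.symm
        _ ≤ 1 * exp (-1) := mul_le_mul_left (hΦ1 t) _
        _ = exp (-1) := one_mul _
    rw [← exp_zero, exp_le_exp] at h7
    omega) ⟨⟨ι u, hO u hu1⟩, Ideal.subset_span rfl, by simpa using hu0⟩
  have hwu : w.v (ι u) < 1 := hw1 _ (Ideal.subset_span rfl)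
  refine ⟨w, fun f hf => hw ⟨ι f, hO f hf⟩, fun f hf => ?_⟩
  have h1 : P.v (f * u⁻¹) ≤ 1 := by
    rw [lt_one_iff_le] at hf
    rw [map_mul, map_inv₀, hu, ← exp_neg]
    calc _ ≤ exp (-1) * exp (- -1) := mul_le_mul_left hf _
      _ = 1 := by rw [← exp_add]; simp
  have h2 := hw ⟨_, hO _ h1⟩
  have h3 : ι f = ι (f * u⁻¹) * ι u := by
    rw [← map_mul, mul_assoc, inv_mul_cancel₀ hu0, mul_one]
  rw [h3, map_mul]
  calc _ ≤ 1 * w.v (ι u) := mul_le_mul_left h2 _
    _ < 1 := by rw [one_mul]; exact hwu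

/-- the place of `L` over a place of `K` -/
noncomputable def conP (hι : IsCE Ω ι) (P : Pl F K) : Pl Ω L := (exists_place_Over hι P).choose

omit [IsAlgClosed F] [FiniteDimensional (RatFunc F) K] [Algebra.IsSeparable (RatFunc F) K]
  [Algebra (RatFunc F) K] [IsScalarTower F (RatFunc F) K] in
theorem conP_Over (hι : IsCE Ω ι) (P : Pl F K) : Over ι (conP hι P) P :=
  (exists_place_Over hι P).choose_spec

theorem conP_injective (hι : IsCE Ω ι) : Function.Injective (conP hι) := by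
  intro P P' h
  have h1 := conP_Over hι P
  rw [h] at h1
  exact h1.unique_place hι (conP_Over hι P')

theorem conP_ne_plQ (hι : IsCE Ω ι) (P : Pl F K) (Q : K →ₐ[F] Ω) : conP hι P ≠ plQ hι Q := by
  intro h
  have h1 := conP_Over hι P
  rw [h] at h1
  exact h1.not_At hι (plQ_At hι Q)

/-- classification of the places of `L` -/
theorem cases [IsAlgClosed Ω] (hι : IsCE Ω ι) (w : Pl Ω L) :
    (∃ P, w = conP hι P) ∨ (∃ Q, w = plQ hι Q) := by
  by_cases hw : ∀ f : K, f ≠ 0 → w.v (ι f) = 1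
  · obtain ⟨Q, hQ⟩ := exists_At hw
    exact Or.inr ⟨Q, hQ.unique hι (plQ_At hι Q)⟩
  · obtain ⟨P, hP⟩ := exists_Over hw
    exact Or.inl ⟨P, hP.unique hι (conP_Over hι P)⟩

end Exist

end Crest.Agent.R013.CE3_280
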