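import Mathlib
import Crest.Agent.R013.CE4_280
import Crest.Agent.R013.RR12_948

/-!
# R013 / CE5: `L(D_Ω) = L(D) ⊗ Ω`, the genus does not change (helper280)
-/

set_option autoImplicit false
set_option linter.all false

namespace Crest.Agent.R013.CE5_280

open WithZero Module TensorProduct Polynomial nonZeroDivisors
open Crest.Agent.R013.RR7_948 Crest.Agent.R013.RR8_948 Crest.Agent.R013.RR9_948
open Crest.Agent.R013.RR11_948 Crest.Agent.R013.RR13_948 Crest.Agent.R013.CE1_280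
open Crest.Agent.R013.CE2_280 Crest.Agent.R013.CE3_280

section AlgClosed

variable {k K : Type*} [Field k] [Field K] [Algebra k K]

theorem algebraicClosure_eq_bot [IsAlgClosed k] : algebraicClosure k K = ⊥ := by
  rw [eq_bot_iff]
  intro f hf
  rw [mem_algebraicClosure_iff] at hf
  rw [IntermediateField.mem_bot]
  exact minpoly.mem_range_of_degree_eq_one k f
    (IsAlgClosed.degree_eq_one_of_irreducible k (minpoly.irreducible hf.isIntegral))

variable [Algebra (RatFunc k) K] [IsScalarTower k (RatFunc k) K] [FiniteDimensional (RatFunc k) K]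
  [Algebra.IsSeparable (RatFunc k) K]

/-- all places have degree one -/
theorem degP_eq_one [IsAlgClosed k] (P : Pl k K) : degP P = 1 := by
  let g : k →ₗ[k] (ball P 0 ⧸ (ball P (-1)).submoduleOf (ball P 0)) :=
    (Submodule.mkQ _).comp (LinearMap.codRestrict (ball P 0) (Algebra.linearMap k K)
      (fun c => by rw [mem_ball, exp_zero]; exact v_algebraMap_le P c))
  have hg : Function.Bijective g := by
    constructor
    · rw [← LinearMap.ker_eq_bot, LinearMap.ker_eq_bot']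
      intro c hc
      simp only [g, LinearMap.comp_apply, Submodule.mkQ_apply] at hc
      rw [Submodule.Quotient.mk_eq_zero, Submodule.submoduleOf, Submodule.mem_comap, mem_ball,
        ← lt_one_iff_le] at hc
      exact v_algebraMap_lt P hc
    · intro y
      obtain ⟨⟨f, hf⟩, rfl⟩ := Submodule.Quotient.mk_surjective _ y
      rw [mem_ball, exp_zero] at hf
      obtain ⟨c, hc⟩ := exists_residue P hf
      refine ⟨c, ?_⟩
      simp only [g, LinearMap.comp_apply, Submodule.mkQ_apply]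
      rw [Submodule.Quotient.eq, Submodule.submoduleOf, Submodule.mem_comap, mem_ball,
        ← lt_one_iff_le]
      rw [Valuation.map_sub_swap] at hc
      exact hc
  have h1 : degE P = 1 := by
    unfold degE RR1_948.ri
    rw [← (LinearEquiv.ofBijective g hg).length_eq]
    exact Module.length_eq_one_iff.mpr inferInstance
  unfold degP
  rw [h1]
  rfl

theorem degD_eq_sum [IsAlgClosed k] (D : Pl k K →₀ ℤ) : degD D = D.sum fun _ n => n := by
  unfold degD
  refine Finsupp.sum_congr fun P _ => ?_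
  rw [degP_eq_one]; simp

end AlgClosed

section Reg

variable {F K Ω L : Type*} [Field F] [IsAlgClosed F] [Field K] [Algebra F K]
  [Algebra (RatFunc F) K] [IsScalarTower F (RatFunc F) K] [FiniteDimensional (RatFunc F) K]
  [Algebra.IsSeparable (RatFunc F) K]
  [Field Ω] [Algebra F Ω] [IsAlgClosed Ω]
  [Field L] [Algebra Ω L] [Algebra F L] [IsScalarTower F Ω L]
  [Algebra (RatFunc Ω) L] [IsScalarTower Ω (RatFunc Ω) L]
  [FiniteDimensional (RatFunc Ω) L] [Algebra.IsSeparable (RatFunc Ω) L]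
  {ι : K →ₐ[F] L}

theorem mem_range_of_pi_mul (hι : IsCE Ω ι) {a : Ω} {f : L}
    (hf : ∃ t : Ω ⊗[F] K, mu ι t = mu ι (piT F K a) * f)
    (hreg : ∀ Q : K →ₐ[F] Ω, (plQ hι Q).v f ≤ 1) : ∃ t : Ω ⊗[F] K, mu ι t = f := by
  obtain ⟨t, ht⟩ := hf
  by_cases ha : a ∈ Set.range (algebraMap F Ω)
  · obtain ⟨c, rfl⟩ := ha
    have h0 : xK F K - algebraMap F K c ≠ 0 := by
      intro h0
      exact xK_notMem_range (F := F) (K := K) ⟨c, (sub_eq_zero.mp h0).symm⟩
    have h1 : piT F K (algebraMap F Ω c) = 1 ⊗ₜ (xK F K - algebraMap F K c) := by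
      unfold piT
      rw [TensorProduct.tmul_sub]
      congr 1
      rw [Algebra.algebraMap_eq_smul_one, Algebra.algebraMap_eq_smul_one, TensorProduct.smul_tmul]
    refine ⟨(1 ⊗ₜ (xK F K - algebraMap F K c)⁻¹) * t, ?_⟩
    rw [map_mul, ht, ← mul_assoc, ← map_mul, h1, Algebra.TensorProduct.tmul_mul_tmul,
      inv_mul_cancel₀ h0, mul_one, ← Algebra.TensorProduct.one_def, map_one, one_mul]
  · have ha' := transcendental_of_notMem ha
    obtain ⟨t', ht'⟩ := mem_of_forall (K := K) ha' (t := t) (by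
      intro Q hQ
      rw [← (plQ_At hι Q).lt_one_iff, ht, map_mul]
      have h1 : (plQ hι Q).v (mu ι (piT F K a)) < 1 := by
        rw [(plQ_At hι Q).lt_one_iff, ev_piT, hQ, sub_self]
      calc _ ≤ (plQ hι Q).v (mu ι (piT F K a)) * 1 := mul_le_mul_right (hreg Q) _
        _ < 1 := by rwa [mul_one])
    refine ⟨t', ?_⟩
    apply mul_left_cancel₀ (hι.ne_zero (piT_ne_zero (F := F) (K := K) a))
    rw [← ht, ht', map_mul]

theorem v_aeval_le_one (w : Pl Ω L) {y : L} (hy : w.v y ≤ 1) (q : (Polynomial Ω)) : w.v (aeval y q) ≤ 1 :=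
  RR14_948.v_aeval_le w hy q

theorem mem_range_of_poly_mul (hι : IsCE Ω ι) (n : ℕ) :
    ∀ q : (Polynomial Ω), q ≠ 0 → q.natDegree = n → ∀ f : L,
    (∃ t : Ω ⊗[F] K, mu ι t = aeval (ι (xK F K)) q * f) →
    (∀ Q : K →ₐ[F] Ω, (plQ hι Q).v f ≤ 1) → ∃ t : Ω ⊗[F] K, mu ι t = f := by
  induction n with
  | zero =>
    intro q hq hn f hf hreg
    obtain ⟨t, ht⟩ := hf
    rw [eq_C_of_natDegree_eq_zero hn] at hq ht
    have hc : q.coeff 0 ≠ 0 := fun h => hq (by rw [h, C_0])
    rw [aeval_C] at ht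
    refine ⟨(q.coeff 0)⁻¹ • t, ?_⟩
    rw [map_smul, ht, Algebra.smul_def, ← mul_assoc, ← map_mul, inv_mul_cancel₀ hc, map_one,
      one_mul]
  | succ n ih =>
    intro q hq hn f hf hreg
    obtain ⟨a, ha⟩ := IsAlgClosed.exists_root q (by
      intro h0
      rw [degree_eq_natDegree hq, hn] at h0
      have : n + 1 = 0 := by exact_mod_cast h0
      omega)
    obtain ⟨q₁, rfl⟩ := dvd_iff_isRoot.mpr ha
    have hq₁ : q₁ ≠ 0 := right_ne_zero_of_mul hq
    have hn₁ : q₁.natDegree = n := by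
      rw [natDegree_mul (X_sub_C_ne_zero a) hq₁, natDegree_X_sub_C] at hn
      omega
    obtain ⟨t, ht⟩ := hf
    have hvx : ∀ Q : K →ₐ[F] Ω, (plQ hι Q).v (ι (xK F K)) ≤ 1 := fun Q => by
      have := (plQ_At hι Q).le_one (1 ⊗ₜ xK F K)
      simpa using this
    refine ih q₁ hq₁ hn₁ f (mem_range_of_pi_mul hι (a := a) ⟨t, ?_⟩ ?_) hreg
    · rw [ht, map_mul, map_sub, aeval_X, aeval_C, piT, map_sub, mu_tmul, mu_tmul]
      simp only [map_one, one_mul, mul_one]
      ring
    · intro Q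
      rw [map_mul]
      exact mul_le_one' (v_aeval_le_one _ (hvx Q) _) (hreg Q)

omit [IsAlgClosed Ω] in
/-- every nonzero element of `Ω ⊗ K` divides a nonzero polynomial in `x` -/
theorem exists_dvd_poly (hι : IsCE Ω ι) (hx : xK Ω L = ι (xK F K)) {b : Ω ⊗[F] K} (hb : b ≠ 0) :
    ∃ (q : (Polynomial Ω)) (s : Ω ⊗[F] K), q ≠ 0 ∧ aeval (1 ⊗ₜ xK F K : Ω ⊗[F] K) q = b * s := by
  letI := (aeval (R := Ω) (1 ⊗ₜ xK F K : Ω ⊗[F] K)).toRingHom.toAlgebra
  letI := algPoly Ω L
  haveI := towerPoly Ω L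
  have hmu : ∀ q : (Polynomial Ω), mu ι (algebraMap (Polynomial Ω) (Ω ⊗[F] K) q) = algebraMap (Polynomial Ω) L q := by
    intro q
    show mu ι (aeval (R := Ω) (1 ⊗ₜ xK F K : Ω ⊗[F] K) q) = _
    rw [← Polynomial.aeval_algHom_apply, mu_tmul, map_one, one_mul, ← hx, ← algebraMap_poly_K]
    rfl
  let m : Ω ⊗[F] K →ₐ[(Polynomial Ω)] L :=
    { toRingHom := ((mu (Ω := Ω) ι : Ω ⊗[F] K →ₐ[Ω] L) : Ω ⊗[F] K →+* L), commutes' := hmu }
  have h1 : IsAlgebraic (Polynomial Ω) (m b) :=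
    (IsFractionRing.isAlgebraic_iff (Polynomial Ω) (RatFunc Ω) L).mpr (Algebra.IsAlgebraic.isAlgebraic _)
  have h2 : IsAlgebraic (Polynomial Ω) b := (isAlgebraic_algHom_iff m (hι.inj)).mp h1
  obtain ⟨q, hq, s, hs⟩ := h2.exists_nonzero_dvd (mem_nonZeroDivisors_of_ne_zero hb)
  exact ⟨q, s, hq, hs⟩

/-- a function regular at all points lies in `Ω ⊗ K` -/
theorem mem_range_of_reg (hι : IsCE Ω ι) (hx : xK Ω L = ι (xK F K)) {f : L}
    (hreg : ∀ Q : K →ₐ[F] Ω, (plQ hι Q).v f ≤ 1) : ∃ t : Ω ⊗[F] K, mu ι t = f := by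
  obtain ⟨a, b, hb, hab⟩ := hι.frac f
  obtain ⟨q, s, hq, hs⟩ := exists_dvd_poly hι hx hb
  refine mem_range_of_poly_mul hι q.natDegree q hq rfl f ⟨s * a, ?_⟩ hreg
  have h1 := congrArg (mu ι) hs
  rw [← Polynomial.aeval_algHom_apply, mu_tmul, map_one, one_mul, map_mul] at h1
  rw [h1, map_mul, ← hab]
  ring

/-- the base change of a divisor -/
noncomputable def base (hι : IsCE Ω ι) : (Pl F K →₀ ℤ) →+ (Pl Ω L →₀ ℤ) :=
  Finsupp.mapDomain.addMonoidHom (conP hι)

omit [IsAlgClosed Ω] in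
theorem base_conP (hι : IsCE Ω ι) (D : Pl F K →₀ ℤ) (P : Pl F K) :
    base hι D (conP hι P) = D P :=
  Finsupp.mapDomain_apply (conP_injective hι) D P

omit [IsAlgClosed Ω] in
theorem base_plQ (hι : IsCE Ω ι) (D : Pl F K →₀ ℤ) (Q : K →ₐ[F] Ω) :
    base hι D (plQ hι Q) = 0 := by
  apply Finsupp.mapDomain_of_notMem_range
  rintro ⟨P, hP⟩
  exact conP_ne_plQ hι P Q hP

omit [IsAlgClosed Ω] in
theorem base_single (hι : IsCE Ω ι) (P : Pl F K) (n : ℤ) :
    base hι (Finsupp.single P n) = Finsupp.single (conP hι P) n :=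
  Finsupp.mapDomain_single

theorem degD_base (hι : IsCE Ω ι) (D : Pl F K →₀ ℤ) : degD (base hι D) = degD D := by
  rw [degD_eq_sum, degD_eq_sum]
  exact Finsupp.sum_mapDomain_index (fun _ => rfl) (fun _ _ _ => rfl)

variable (Ω) in
/-- `Ω ⊗ L(D) → L` -/
noncomputable def lam (ι : K →ₐ[F] L) (D : Pl F K →₀ ℤ) : Ω ⊗[F] (LD D) →ₗ[Ω] L :=
  (mu (Ω := Ω) ι).toLinearMap.comp ((LD D).subtype.baseChange Ω)

omit [IsAlgClosed F] [Algebra (RatFunc F) K] [IsScalarTower F (RatFunc F) K]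
  [FiniteDimensional (RatFunc F) K] [Algebra.IsSeparable (RatFunc F) K] [IsAlgClosed Ω]
  [Algebra (RatFunc Ω) L] [IsScalarTower Ω (RatFunc Ω) L]
  [FiniteDimensional (RatFunc Ω) L] [Algebra.IsSeparable (RatFunc Ω) L] in
@[simp] theorem lam_tmul (D : Pl F K →₀ ℤ) (c : Ω) (g : LD D) :
    lam Ω ι D (c ⊗ₜ g) = algebraMap Ω L c * ι g := by
  simp [lam]

omit [IsAlgClosed F] [Algebra (RatFunc F) K] [IsScalarTower F (RatFunc F) K]
  [FiniteDimensional (RatFunc F) K] [Algebra.IsSeparable (RatFunc F) K] [IsAlgClosed Ω]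
  [Algebra (RatFunc Ω) L] [IsScalarTower Ω (RatFunc Ω) L]
  [FiniteDimensional (RatFunc Ω) L] [Algebra.IsSeparable (RatFunc Ω) L] in
theorem lam_injective (hι : IsCE Ω ι) (D : Pl F K →₀ ℤ) : Function.Injective (lam Ω ι D) := by
  have h := Module.Flat.lTensor_preserves_injective_linearMap (M := Ω) (LD D).subtype
    (Subtype.val_injective)
  exact hι.inj.comp h

theorem range_lam (hι : IsCE Ω ι) (hx : xK Ω L = ι (xK F K)) (D : Pl F K →₀ ℤ) :
    LinearMap.range (lam Ω ι D) = LD (base hι D) := by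
  classical
  apply le_antisymm
  · rintro _ ⟨t, rfl⟩
    induction t with
    | zero => rw [map_zero]; exact Submodule.zero_mem _
    | add t t' h h' => rw [map_add]; exact Submodule.add_mem _ h h'
    | tmul c g =>
      rw [lam_tmul, ← Algebra.smul_def]
      refine Submodule.smul_mem _ _ ?_
      rw [mem_LD]
      intro w
      rcases cases hι w with ⟨P, rfl⟩ | ⟨Q, rfl⟩
      · rw [base_conP, (conP_Over hι P).v_iota hι]
        exact mem_LD.mp g.2 P
      · rw [base_plQ, exp_zero]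
        by_cases hg : (g : K) = 0
        · simp [hg]
        · exact ((plQ_At hι Q).iota_eq_one hg).le
  · intro f hf
    rw [mem_LD] at hf
    obtain ⟨t, rfl⟩ := mem_range_of_reg hι hx (f := f) (by
      intro Q
      have := hf (plQ hι Q)
      rwa [base_plQ, exp_zero] at this)
    let b := Basis.ofVectorSpace F Ω
    obtain ⟨c, rfl⟩ := TensorProduct.eq_repr_basis_left b t
    have hc : ∀ i, c i ∈ LD D := by
      intro i
      rw [mem_LD]
      intro P
      have h1 := hf (conP hι P)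
      rw [base_conP, (conP_Over hι P).v_sum_le_iff hι b] at h1
      exact h1 i
    refine ⟨∑ i ∈ c.support, b i ⊗ₜ ⟨c i, hc i⟩, ?_⟩
    rw [map_sum, Finsupp.sum, map_sum]
    refine Finset.sum_congr rfl fun i _ => ?_
    rw [lam_tmul, mu_tmul]

/-- **base change does not change the dimension of Riemann-Roch spaces** -/
theorem ell_base (hι : IsCE Ω ι) (hx : xK Ω L = ι (xK F K)) (D : Pl F K →₀ ℤ) :
    ell (base hι D) = ell D := by
  unfold ell
  rw [← range_lam hι hx D, LinearMap.finrank_range_of_inj (lam_injective hι D),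
    Module.finrank_baseChange]

/-- **the genus does not change** -/
theorem gen_eq (hι : IsCE Ω ι) (hx : xK Ω L = ι (xK F K)) : gen Ω L = gen F K := by
  obtain ⟨P, -⟩ := RR12_948.exists_notMem (∅ : Finset (Pl F K))
  let N : ℤ := 2 * (gen F K : ℤ) + 2 * (gen Ω L : ℤ)
  have h1 : degD (Finsupp.single P N) = N := by rw [degD_single, degP_eq_one]; simp
  have h2 := ell_eq_of_lt (algebraicClosure_eq_bot (k := F) (K := K))
    (D := Finsupp.single P N) (by rw [h1]; omega)
  have h3 := ell_eq_of_lt (algebraicClosure_eq_bot (k := Ω) (K := L))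
    (D := base hι (Finsupp.single P N)) (by rw [degD_base, h1]; omega)
  rw [ell_base hι hx, degD_base, h2] at h3
  omega

/-- the base change of the canonical divisor is canonical -/
theorem exists_canD (hι : IsCE Ω ι) (hx : xK Ω L = ι (xK F K)) :
    ∃ f : L, f ≠ 0 ∧ base hι (canD F K) = canD Ω L + divf f := by
  apply exists_eq_add_divf (algebraicClosure_eq_bot (k := Ω) (K := L))
  · rw [degD_base, degD_canD (algebraicClosure_eq_bot (k := F) (K := K)), gen_eq hι hx]
  · rw [ell_base hι hx, gen_eq hι hx]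
    rfl

theorem ell_canD_sub (hι : IsCE Ω ι) (hx : xK Ω L = ι (xK F K)) (E : Pl Ω L →₀ ℤ) :
    ell (canD Ω L - E) = ell (base hι (canD F K) - E) := by
  obtain ⟨f, hf, h⟩ := exists_canD hι hx
  rw [h, show canD Ω L + divf f - E = (canD Ω L - E) + divf f by abel, ell_add_divf _ hf]

end Reg

end Crest.Agent.R013.CE5_280
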