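import Mathlib

/-!
# R013 / NC1: norm comparison on finite dimensional spaces of functions (helper522)

`C` an algebraically closed valued field (rank one, NOT complete), `K / C(x)` finite, `w` a
valuation of `K` extending the one of `C` with `inf_{a ∈ C} w (x - a) > 0` (types 2, 3, 4).
Then `w` is equivalent to the maximum norm on every finite dimensional `C`-subspace of `K`.
Proof: Nullstellensatz for the norm form.
-/

set_option autoImplicit false
set_option linter.all false

open scoped NNReal

namespace Crest.Agent.R013.NC1_522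

section Bound

variable {C : Type*} [Field C] (v : Valuation C ℝ≥0)

/-- polynomials are bounded on the unit polydisc -/
theorem exists_bound_eval {ι : Type*} (P : MvPolynomial ι C) :
    ∃ B : ℝ≥0, 0 < B ∧ ∀ a : ι → C, (∀ i, v (a i) ≤ 1) → v (MvPolynomial.eval a P) ≤ B := by
  induction P using MvPolynomial.induction_on with
  | C c =>
    refine ⟨v c + 1, by positivity, fun a _ => ?_⟩
    rw [MvPolynomial.eval_C]
    exact le_self_add
  | add p q hp hq =>
    obtain ⟨B1, h1, h1'⟩ := hp
    obtain ⟨B2, h2, h2'⟩ := hq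
    refine ⟨max B1 B2, lt_max_of_lt_left h1, fun a ha => ?_⟩
    rw [map_add]
    exact (v.map_add _ _).trans (max_le_max (h1' a ha) (h2' a ha))
  | mul_X p i hp =>
    obtain ⟨B1, h1, h1'⟩ := hp
    refine ⟨B1, h1, fun a ha => ?_⟩
    rw [map_mul, MvPolynomial.eval_X, map_mul]
    calc v (MvPolynomial.eval a p) * v (a i) ≤ B1 * 1 := mul_le_mul' (h1' a ha) (ha i)
      _ = B1 := mul_one _

/-- a system of forms without common zero is bounded below on the unit polydisc -/
theorem exists_lower [IsAlgClosed C] {ι σ : Type*} [Finite ι] [Finite σ]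
    (D : σ → MvPolynomial ι C)
    (h : ∀ a : ι → C, (∀ l, MvPolynomial.eval a (D l) = 0) → a = 0) :
    ∃ ε : ℝ≥0, 0 < ε ∧ ∀ a : ι → C, (∀ i, v (a i) ≤ 1) → ∀ i, v (a i) = 1 →
      ∃ l, ε ≤ v (MvPolynomial.eval a (D l)) := by
  classical
  cases nonempty_fintype ι
  cases nonempty_fintype σ
  have key : ∀ i : ι, ∃ ε : ℝ≥0, 0 < ε ∧ ∀ a : ι → C, (∀ i, v (a i) ≤ 1) → v (a i) = 1 →
      ∃ l, ε ≤ v (MvPolynomial.eval a (D l)) := by
    intro i
    have h1 : (MvPolynomial.X i : MvPolynomial ι C) ∈ (Ideal.span (Set.range D)).radical := by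
      rw [← MvPolynomial.vanishingIdeal_zeroLocus_eq_radical (K := C) (Ideal.span (Set.range D)),
        MvPolynomial.mem_vanishingIdeal_iff]
      intro a ha
      rw [MvPolynomial.mem_zeroLocus_iff] at ha
      have h2 : a = 0 := h a fun l => by
        have := ha (D l) (Ideal.subset_span ⟨l, rfl⟩)
        rwa [MvPolynomial.aeval_eq_eval] at this
      rw [h2]
      simp
    obtain ⟨m, hm⟩ := h1
    obtain ⟨A, hA⟩ := (Ideal.mem_span_range_iff_exists_fun).mp hm
    choose B hB hB' using fun l => exists_bound_eval v (A l)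
    have hpos : 0 < (1 + ∑ l, B l) := by positivity
    refine ⟨(1 + ∑ l, B l)⁻¹, by positivity, fun a ha hai => ?_⟩
    by_contra hcon
    push Not at hcon
    have h3 : v (∑ l, MvPolynomial.eval a (A l) * MvPolynomial.eval a (D l)) = 1 := by
      have := congrArg (MvPolynomial.eval a) hA
      rw [map_sum, map_pow, MvPolynomial.eval_X] at this
      simp only [map_mul] at this
      rw [this, map_pow, hai, one_pow]
    have h4 : v (∑ l, MvPolynomial.eval a (A l) * MvPolynomial.eval a (D l)) < 1 := by
      refine Valuation.map_sum_lt v one_ne_zero fun l _ => ?_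
      rw [map_mul]
      have h5 : B l < 1 + ∑ l, B l := by
        have : B l ≤ ∑ l, B l := Finset.single_le_sum (fun _ _ => zero_le') (Finset.mem_univ l)
        exact lt_of_le_of_lt this (by rw [add_comm]; exact lt_add_one _)
      calc v (MvPolynomial.eval a (A l)) * v (MvPolynomial.eval a (D l))
          ≤ B l * (1 + ∑ l, B l)⁻¹ := mul_le_mul' (hB' l a ha) (hcon l).le
        _ < (1 + ∑ l, B l) * (1 + ∑ l, B l)⁻¹ := by
            exact mul_lt_mul_of_pos_right h5 (by positivity)
        _ = 1 := mul_inv_cancel₀ hpos.ne'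
    exact absurd h3 h4.ne
  choose ε hε hε' using key
  by_cases hι : Nonempty ι
  · obtain ⟨i0, hi0⟩ := Finite.exists_min ε
    exact ⟨ε i0, hε i0, fun a ha i hi => by
      obtain ⟨l, hl⟩ := hε' i a ha hi
      exact ⟨l, (hi0 i).trans hl⟩⟩
  · exact ⟨1, one_pos, fun a ha i => absurd ⟨i⟩ hι⟩

end Bound

section Poly

open Polynomial

variable {C : Type*} [Field C] (v : Valuation C ℝ≥0)
  {K : Type*} [Field K] [Algebra C K] (w : Valuation K ℝ≥0) (hw : ∀ c : C, w (algebraMap C K c) = v c)
  (x : K)

include hw in
theorem exists_lin (hx : ∃ ε : ℝ≥0, 0 < ε ∧ ∀ a : C, ε ≤ w (x - algebraMap C K a)) :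
    ∃ ε : ℝ≥0, 0 < ε ∧ ∀ a : C, ε ≤ w (x - algebraMap C K a) ∧
      ε * v a ≤ w (x - algebraMap C K a) := by
  obtain ⟨ε, h0, h⟩ := hx
  have hM : (0 : ℝ≥0) < max 1 (w x) := lt_max_of_lt_left one_pos
  refine ⟨min 1 (ε / max 1 (w x)), lt_min one_pos (div_pos h0 hM), fun a => ⟨?_, ?_⟩⟩
  · refine le_trans (min_le_right _ _) (le_trans ?_ (h a))
    exact div_le_of_le_mul₀ (by positivity) (by positivity)
      (le_mul_of_one_le_right (by positivity) (le_max_left _ _))
  · by_cases hc : w x < v a
    · have : w (x - algebraMap C K a) = v a := by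
        rw [Valuation.map_sub_swap, ← hw a]
        exact Valuation.map_sub_eq_of_lt_left _ (by rwa [hw])
      rw [this]
      calc min 1 (ε / max 1 (w x)) * v a ≤ 1 * v a := mul_le_mul' (min_le_left _ _) le_rfl
        _ = v a := one_mul _
    · push Not at hc
      refine le_trans ?_ (h a)
      calc min 1 (ε / max 1 (w x)) * v a ≤ (ε / max 1 (w x)) * max 1 (w x) :=
            mul_le_mul' (min_le_right _ _) (hc.trans (le_max_right _ _))
        _ = ε := div_mul_cancel₀ _ hM.ne'

include hw in
/-- coefficients of polynomials are controlled by the value at `x` -/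
theorem poly_lb [IsAlgClosed C] (hx : ∃ ε : ℝ≥0, 0 < ε ∧ ∀ a : C, ε ≤ w (x - algebraMap C K a))
    (d : ℕ) : ∃ ε : ℝ≥0, 0 < ε ∧ ∀ P : C[X], P.natDegree ≤ d → ∀ l,
      ε * v (P.coeff l) ≤ w (aeval x P) := by
  obtain ⟨ε', h0, h'⟩ := exists_lin v w hw x hx
  induction d with
  | zero =>
    refine ⟨1, one_pos, fun P hP l => ?_⟩
    have hP' : P = Polynomial.C (P.coeff 0) := eq_C_of_natDegree_le_zero hP
    rw [one_mul, hP', aeval_C, hw]
    by_cases hl : l = 0
    · subst hl; simp
    · rw [coeff_C_ne_zero hl]; simp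
  | succ d ih =>
    obtain ⟨ε, hε, h⟩ := ih
    refine ⟨min ε (ε' * ε), lt_min hε (mul_pos h0 hε), fun P hP l => ?_⟩
    by_cases hd : P.natDegree ≤ d
    · exact le_trans (mul_le_mul' (min_le_left _ _) le_rfl) (h P hd l)
    · have hdeg : P.degree ≠ 0 := by
        intro hz
        rw [natDegree_eq_of_degree_eq_some hz] at hd
        exact hd (Nat.zero_le _)
      obtain ⟨a, ha⟩ := IsAlgClosed.exists_root P hdeg
      obtain ⟨Q, hQ⟩ := dvd_iff_isRoot.mpr ha
      have hP0 : P ≠ 0 := by
        rintro rfl
        exact hd (by simp)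
      have hQ0 : Q ≠ 0 := by
        rintro rfl
        exact hP0 (by rw [hQ, mul_zero])
      have hQd : Q.natDegree ≤ d := by
        have := congrArg natDegree hQ
        rw [natDegree_mul (X_sub_C_ne_zero a) hQ0, natDegree_X_sub_C] at this
        omega
      have hval : w (aeval x P) = w (x - algebraMap C K a) * w (aeval x Q) := by
        rw [hQ, map_mul, map_sub, aeval_X, aeval_C, map_mul]
      rw [hval]
      refine le_trans (mul_le_mul' (min_le_right _ _) le_rfl) ?_
      have hco : P.coeff l = (X * Q).coeff l - a * Q.coeff l := by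
        rw [hQ, sub_mul, coeff_sub, coeff_C_mul]
      rw [hco]
      have h1 : ε' * ε * v ((X * Q).coeff l) ≤ w (x - algebraMap C K a) * w (aeval x Q) := by
        cases l with
        | zero => simp
        | succ l =>
          rw [coeff_X_mul, mul_assoc]
          exact mul_le_mul' (h' a).1 (h Q hQd l)
      have h2 : ε' * ε * v (a * Q.coeff l) ≤ w (x - algebraMap C K a) * w (aeval x Q) := by
        rw [map_mul]
        calc ε' * ε * (v a * v (Q.coeff l)) = (ε' * v a) * (ε * v (Q.coeff l)) := by ring
          _ ≤ _ := mul_le_mul' (h' a).2 (h Q hQd l)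
      calc ε' * ε * v ((X * Q).coeff l - a * Q.coeff l)
          ≤ ε' * ε * max (v ((X * Q).coeff l)) (v (a * Q.coeff l)) :=
            mul_le_mul' le_rfl (v.map_sub _ _)
        _ = max (ε' * ε * v ((X * Q).coeff l)) (ε' * ε * v (a * Q.coeff l)) :=
            mul_max_of_nonneg _ _ (by positivity)
        _ ≤ _ := max_le h1 h2

include hw in
/-- polynomials in `x` with coefficients polynomials are bounded on the unit polydisc -/
theorem exists_bound_eval₂ {ι : Type*} (P : (MvPolynomial ι C)[X]) :
    ∃ B : ℝ≥0, 0 < B ∧ ∀ a : ι → C, (∀ i, v (a i) ≤ 1) →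
      w (aeval x (P.map (MvPolynomial.eval a))) ≤ B := by
  induction P using Polynomial.induction_on' with
  | add p q hp hq =>
    obtain ⟨B1, h1, h1'⟩ := hp
    obtain ⟨B2, h2, h2'⟩ := hq
    refine ⟨max B1 B2, lt_max_of_lt_left h1, fun a ha => ?_⟩
    rw [Polynomial.map_add, map_add]
    exact (w.map_add _ _).trans (max_le_max (h1' a ha) (h2' a ha))
  | monomial n c =>
    obtain ⟨B, h, h'⟩ := exists_bound_eval v c
    refine ⟨B * (w x ^ n + 1), by positivity, fun a ha => ?_⟩
    rw [map_monomial, aeval_monomial, map_mul, hw, map_pow]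
    exact mul_le_mul' (h' a ha) le_self_add

end Poly

section Main

open Polynomial

variable {C : Type*} [Field C] [IsAlgClosed C] (v : Valuation C ℝ≥0)
  {K : Type*} [Field K] [Algebra C K] [Algebra (RatFunc C) K] [IsScalarTower C (RatFunc C) K]
  [FiniteDimensional (RatFunc C) K]
  (w : Valuation K ℝ≥0) (hw : ∀ c : C, w (algebraMap C K c) = v c)

include hw in
/-- **norm equivalence**: lower bound on a finite dimensional space, normalised vectors -/
theorem lower_aux
    (hx : ∃ ε : ℝ≥0, 0 < ε ∧ ∀ a : C, ε ≤ w (algebraMap (RatFunc C) K RatFunc.X - algebraMap C K a))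
    {ι : Type*} [Fintype ι] (e : ι → K) (he : LinearIndependent C e) :
    ∃ c : ℝ≥0, 0 < c ∧ ∀ a : ι → C, (∀ i, v (a i) ≤ 1) → ∀ i, v (a i) = 1 →
      c ≤ w (∑ j, algebraMap C K (a j) * e j) := by
  classical
  set F := RatFunc C with hF
  set x : K := algebraMap (RatFunc C) K RatFunc.X with hxdef
  -- basis of K over F
  let b := Module.finBasis F K
  set n := Module.finrank F K
  have hn : 0 < n := Module.finrank_pos
  -- common denominator
  obtain ⟨q, hq⟩ := IsLocalization.exist_integer_multiples_of_finset (nonZeroDivisors C[X])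
    (Finset.univ.image fun z : ι × Fin n × Fin n =>
      Algebra.leftMulMatrix b (e z.1) z.2.1 z.2.2 : Finset F)
  have hq' : ∀ j k l, ∃ r : C[X], algebraMap C[X] F r =
      (q : C[X]) • Algebra.leftMulMatrix b (e j) k l := by
    intro j k l
    exact hq _ (Finset.mem_image.mpr ⟨(j, k, l), Finset.mem_univ _, rfl⟩)
  choose A hA using hq'
  set qK : K := algebraMap F K (algebraMap C[X] F (q : C[X])) with hqK
  have hq0 : algebraMap C[X] F (q : C[X]) ≠ 0 := by
    have := nonZeroDivisors.coe_ne_zero q
    rw [ne_eq, map_eq_zero_iff _ (IsFractionRing.injective C[X] F)]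
    exact this
  have hqK0 : qK ≠ 0 := by
    rw [hqK, ne_eq, map_eq_zero]
    exact hq0
  -- the generic matrix
  let G : Matrix (Fin n) (Fin n) (MvPolynomial ι C)[X] :=
    ∑ j, (Polynomial.C (MvPolynomial.X j) : (MvPolynomial ι C)[X]) •
      (Matrix.of (A j)).map (Polynomial.map MvPolynomial.C)
  let M : (ι → C) → Matrix (Fin n) (Fin n) C[X] := fun a =>
    ∑ j, (Polynomial.C (a j) : C[X]) • Matrix.of (A j)
  have hGM : ∀ a : ι → C, (Polynomial.mapRingHom (MvPolynomial.eval a)).mapMatrix G = M a := by
    intro a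
    simp only [G, M, map_sum]
    refine Finset.sum_congr rfl fun j _ => ?_
    ext k l : 2
    simp only [RingHom.mapMatrix_apply, Matrix.map_apply, Matrix.smul_apply, smul_eq_mul,
      Polynomial.coe_mapRingHom, Polynomial.map_mul, Polynomial.map_C, MvPolynomial.eval_X,
      Polynomial.map_map, Matrix.of_apply]
    congr 1
    have : (MvPolynomial.eval a).comp (MvPolynomial.C : C →+* MvPolynomial ι C) = RingHom.id C := by
      ext c; simp
    rw [this, Polynomial.map_id]
  have hdetM : ∀ a, (M a).det = (G.det).map (MvPolynomial.eval a) := by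
    intro a
    rw [← hGM a, ← RingHom.map_det]
    rfl
  have hadjM : ∀ a k l, (M a).adjugate k l = (G.adjugate k l).map (MvPolynomial.eval a) := by
    intro a k l
    rw [← hGM a, ← RingHom.map_adjugate]
    rfl
  -- relation with multiplication by `q f`
  have hMmul : ∀ a : ι → C, (algebraMap C[X] F).mapMatrix (M a) =
      Algebra.leftMulMatrix b (qK * ∑ j, algebraMap C K (a j) * e j) := by
    intro a
    have h1 : qK * ∑ j, algebraMap C K (a j) * e j =
        ∑ j, (algebraMap C[X] F (Polynomial.C (a j)) * algebraMap C[X] F (q : C[X])) • e j := by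
      rw [Finset.mul_sum]
      refine Finset.sum_congr rfl fun j _ => ?_
      rw [Algebra.smul_def, map_mul, hqK, IsScalarTower.algebraMap_apply C F K]
      have h2 : algebraMap C F (a j) = algebraMap C[X] F (Polynomial.C (a j)) := by
        rw [IsScalarTower.algebraMap_apply C C[X] F]; rfl
      rw [h2]
      ring
    rw [h1, map_sum, map_sum]
    refine Finset.sum_congr rfl fun j _ => ?_
    have h3 : Algebra.leftMulMatrix b
        ((algebraMap C[X] F (Polynomial.C (a j)) * algebraMap C[X] F (q : C[X])) • e j) =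
        (algebraMap C[X] F (Polynomial.C (a j)) * algebraMap C[X] F (q : C[X])) •
          Algebra.leftMulMatrix b (e j) := map_smul _ _ _
    rw [h3]
    ext k l
    have h4 : algebraMap C[X] F (A j k l) =
        algebraMap C[X] F (q : C[X]) * Algebra.leftMulMatrix b (e j) k l := by
      rw [hA, Algebra.smul_def]
    simp only [RingHom.mapMatrix_apply, Matrix.map_apply, Matrix.smul_apply, smul_eq_mul,
      Matrix.of_apply, map_mul, h4]
    ring
  -- D_l
  set d := G.det.natDegree with hd
  let D : Fin (d + 1) → MvPolynomial ι C := fun l => G.det.coeff l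
  have hD : ∀ a : ι → C, (∀ l, MvPolynomial.eval a (D l) = 0) → a = 0 := by
    intro a ha
    have h1 : (M a).det = 0 := by
      rw [hdetM]
      ext l
      rw [Polynomial.coeff_map, Polynomial.coeff_zero]
      by_cases hl : l < d + 1
      · exact ha ⟨l, hl⟩
      · rw [coeff_eq_zero_of_natDegree_lt (by omega), map_zero]
    have h2 : Algebra.norm F (qK * ∑ j, algebraMap C K (a j) * e j) = 0 := by
      rw [Algebra.norm_eq_matrix_det b, ← hMmul, ← RingHom.map_det, h1, map_zero]
    rw [Algebra.norm_eq_zero_iff] at h2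
    have h3 := (mul_eq_zero.mp h2).resolve_left hqK0
    have h4 := Fintype.linearIndependent_iff.mp he a (by
      rw [← h3]
      exact Finset.sum_congr rfl fun j _ => Algebra.smul_def _ _)
    funext j
    exact h4 j
  obtain ⟨ε0, hε0, hlow⟩ := exists_lower v D hD
  obtain ⟨ε1, hε1, hpoly⟩ := poly_lb v w hw x hx d
  -- bound of the adjugate
  let i0 : Fin n := ⟨0, hn⟩
  choose B hB hB' using fun k => exists_bound_eval₂ v w hw x (G.adjugate k i0)
  -- bound of the basis
  set S : ℝ≥0 := 1 + ∑ k, B k * w (b k) with hS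
  have hSpos : 0 < S := by positivity
  have hwb : 0 < w (b i0) := by
    rw [Valuation.pos_iff]
    exact b.ne_zero i0
  have hwq : 0 < w qK := by rwa [Valuation.pos_iff]
  have hcpos : 0 < ε1 * ε0 * w (b i0) / (w qK * S) := by positivity
  refine ⟨ε1 * ε0 * w (b i0) / (w qK * S), hcpos, fun a ha i hi => ?_⟩
  set f := ∑ j, algebraMap C K (a j) * e j with hf
  -- the cofactor
  let g : K := ∑ k, aeval x ((M a).adjugate k i0) * b k
  have haev : ∀ P : C[X], aeval x P = algebraMap F K (algebraMap C[X] F P) := by
    intro P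
    have h1 : ((algebraMap F K).comp (algebraMap C[X] F)) = (aeval x : C[X] →ₐ[C] K).toRingHom := by
      refine Polynomial.ringHom_ext (fun c => ?_) ?_
      · simp only [RingHom.comp_apply, AlgHom.toRingHom_eq_coe, RingHom.coe_coe, aeval_C]
        rw [IsScalarTower.algebraMap_apply C F K, IsScalarTower.algebraMap_apply C C[X] F]
        rfl
      · simp only [RingHom.comp_apply, AlgHom.toRingHom_eq_coe, RingHom.coe_coe, aeval_X]
        rw [hxdef, RatFunc.algebraMap_X]
    exact (RingHom.congr_fun h1 P).symm
  have hprod : qK * f * g = aeval x (M a).det * b i0 := by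
    have h1 : ∀ k, qK * f * b k = ∑ l, algebraMap F K (algebraMap C[X] F (M a l k)) * b l := by
      intro k
      have h2 := b.sum_repr (qK * f * b k)
      rw [← h2]
      refine Finset.sum_congr rfl fun l _ => ?_
      rw [Algebra.smul_def]
      congr 2
      have h3 := congrFun (congrFun (hMmul a) l) k
      rw [Algebra.leftMulMatrix_eq_repr_mul] at h3
      rw [← h3]
      rfl
    calc qK * f * g = ∑ k, aeval x ((M a).adjugate k i0) * (qK * f * b k) := by
          simp only [g, Finset.mul_sum]
          refine Finset.sum_congr rfl fun k _ => by ring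
      _ = ∑ k, ∑ l, aeval x (M a l k * (M a).adjugate k i0) * b l := by
          refine Finset.sum_congr rfl fun k _ => ?_
          rw [h1, Finset.mul_sum]
          refine Finset.sum_congr rfl fun l _ => ?_
          rw [map_mul, haev (M a l k)]
          ring
      _ = ∑ l, aeval x (((M a) * (M a).adjugate) l i0) * b l := by
          rw [Finset.sum_comm]
          refine Finset.sum_congr rfl fun l _ => ?_
          rw [Matrix.mul_apply, map_sum, Finset.sum_mul]
      _ = aeval x (M a).det * b i0 := by
          rw [Matrix.mul_adjugate]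
          rw [Finset.sum_eq_single i0]
          · simp
          · intro l _ hl
            simp [Matrix.smul_apply, Matrix.one_apply_ne hl]
          · intro h; exact absurd (Finset.mem_univ _) h
  have hg : w g ≤ S := by
    refine Valuation.map_sum_le w fun k _ => ?_
    rw [map_mul, hadjM]
    calc w (aeval x ((G.adjugate k i0).map (MvPolynomial.eval a))) * w (b k)
        ≤ B k * w (b k) := mul_le_mul' (hB' k a ha) le_rfl
      _ ≤ ∑ k, B k * w (b k) := Finset.single_le_sum (f := fun k => B k * w (b k))
          (fun _ _ => zero_le') (Finset.mem_univ k)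
      _ ≤ S := by rw [hS]; exact le_add_self
  obtain ⟨l, hl⟩ := hlow a ha i hi
  have hdet : ε1 * ε0 ≤ w (aeval x (M a).det) := by
    have h1 : (M a).det.natDegree ≤ d := by
      rw [hdetM]
      exact natDegree_map_le
    have h2 := hpoly _ h1 l
    refine le_trans (mul_le_mul' le_rfl ?_) h2
    rw [hdetM, Polynomial.coeff_map]
    exact hl
  have hfin : ε1 * ε0 * w (b i0) ≤ w f * (w qK * S) := by
    calc ε1 * ε0 * w (b i0) ≤ w (aeval x (M a).det) * w (b i0) := mul_le_mul' hdet le_rfl
      _ = w (qK * f * g) := by rw [hprod, map_mul]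
      _ = w qK * w f * w g := by rw [map_mul, map_mul]
      _ ≤ w qK * w f * S := mul_le_mul' le_rfl hg
      _ = w f * (w qK * S) := by ring
  exact div_le_of_le_mul₀ (by positivity) (by positivity) hfin

include hw in
/-- **norm equivalence**: lower bound on a finite dimensional space -/
theorem lower
    (hx : ∃ ε : ℝ≥0, 0 < ε ∧ ∀ a : C, ε ≤ w (algebraMap (RatFunc C) K RatFunc.X - algebraMap C K a))
    {ι : Type*} [Fintype ι] (e : ι → K) (he : LinearIndependent C e) :
    ∃ c : ℝ≥0, 0 < c ∧ ∀ a : ι → C, ∀ i, c * v (a i) ≤ w (∑ j, algebraMap C K (a j) * e j) := by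
  classical
  obtain ⟨c, hc, h⟩ := lower_aux v w hw hx e he
  refine ⟨c, hc, fun a i => ?_⟩
  by_cases hz : a = 0
  · subst hz; simp
  · haveI : Nonempty ι := ⟨i⟩
    obtain ⟨m, hm⟩ := Finite.exists_max fun j => v (a j)
    have ham : a m ≠ 0 := by
      intro h0
      apply hz
      funext j
      have := hm j
      rw [h0, map_zero] at this
      simpa using this
    have hvm : v (a m) ≠ 0 := (Valuation.ne_zero_iff _).mpr ham
    have h1 := h (fun j => a j / a m) (fun j => by
      rw [map_div₀]
      exact div_le_one_of_le₀ (hm j) (by positivity)) m (by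
      show v (a m / a m) = 1
      rw [div_self ham, map_one])
    have h2 : w (∑ j, algebraMap C K (a j) * e j) =
        v (a m) * w (∑ j, algebraMap C K (a j / a m) * e j) := by
      rw [← hw, ← map_mul, Finset.mul_sum]
      congr 1
      refine Finset.sum_congr rfl fun j _ => ?_
      rw [← mul_assoc, ← map_mul, mul_div_cancel₀ _ ham]
    rw [h2, mul_comm c]
    exact mul_le_mul' (hm i) h1

end Main

end Crest.Agent.R013.NC1_522
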