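import Mathlib
import Crest.Agent.R013.RR19_948
import Crest.Agent.R013.NC1_522

/-!
# R013 / NC2: LEMMA NC (norm comparison on functions with boundedly many poles) (helper522)

`C` algebraically closed valued field, `K` a function field over `C` (948's context), `w1, w2`
valuations of `K` extending the one of `C`, of types 2, 3, 4 (`inf_a w (x - a) > 0`).  Then
`w1 f ≥ c w2 f` for all `f` with at most `N` poles.
-/

set_option autoImplicit false
set_option linter.all false

open scoped NNReal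

namespace Crest.Agent.R013.NC2_522

open WithZero
open Crest.Agent.R013.RR7_948 Crest.Agent.R013.RR8_948 Crest.Agent.R013.RR9_948
open Crest.Agent.R013.RR11_948 Crest.Agent.R013.RR19_948

variable {C : Type*} [Field C] [IsAlgClosed C] (v : Valuation C ℝ≥0)
  {K : Type*} [Field K] [Algebra C K] [Algebra (RatFunc C) K] [IsScalarTower C (RatFunc C) K]
  [FiniteDimensional (RatFunc C) K]

theorem algClosure_eq_bot : algebraicClosure C K = ⊥ := by
  rw [eq_bot_iff]
  intro y hy
  rw [mem_algebraicClosure_iff] at hy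
  obtain ⟨c, hc⟩ := minpoly.mem_range_of_degree_eq_one C y
    (IsAlgClosed.degree_eq_one_of_irreducible C (minpoly.irreducible hy.isIntegral))
  exact ⟨c, hc⟩

/-- a norm is equivalent to the maximum norm, two norms are equivalent on `L(D)` -/
theorem equiv_on (w1 w2 : Valuation K ℝ≥0) (h1 : ∀ c : C, w1 (algebraMap C K c) = v c)
    (h2 : ∀ c : C, w2 (algebraMap C K c) = v c)
    (hx : ∃ ε : ℝ≥0, 0 < ε ∧ ∀ a : C, ε ≤ w1 (algebraMap (RatFunc C) K RatFunc.X - algebraMap C K a))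
    (V : Submodule C K) [Module.Finite C V] :
    ∃ c : ℝ≥0, 0 < c ∧ ∀ f ∈ V, c * w2 f ≤ w1 f := by
  classical
  let b := Module.finBasis C V
  have hb : LinearIndependent C (fun i => (b i : K)) :=
    b.linearIndependent.map' V.subtype (Submodule.ker_subtype V)
  obtain ⟨c, hc, h⟩ := NC1_522.lower v w1 h1 hx (fun i => (b i : K)) hb
  set S : ℝ≥0 := 1 + ∑ i, w2 (b i) with hS
  have hSpos : 0 < S := by positivity
  refine ⟨c / S, by positivity, fun f hf => ?_⟩
  have hf' : f = ∑ j, algebraMap C K (b.repr ⟨f, hf⟩ j) * (b j : K) := by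
    have h5 : f = ((∑ i, (b.repr ⟨f, hf⟩) i • b i : V) : K) :=
      (congrArg (Subtype.val) (b.sum_repr ⟨f, hf⟩)).symm
    refine h5.trans ?_
    rw [AddSubmonoidClass.coe_finset_sum]
    refine Finset.sum_congr rfl fun j _ => ?_
    rw [Submodule.coe_smul, Algebra.smul_def]
  have hle : w2 f ≤ S * (w1 f / c) := by
    conv_lhs => rw [hf']
    refine Valuation.map_sum_le w2 fun i _ => ?_
    rw [map_mul, h2, mul_comm]
    refine mul_le_mul' ?_ ?_
    · calc w2 (b i) ≤ ∑ i, w2 (b i) := Finset.single_le_sum (f := fun i => w2 (b i))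
            (fun _ _ => zero_le') (Finset.mem_univ i)
        _ ≤ S := by rw [hS]; exact le_add_self
    · rw [le_div_iff₀ hc, mul_comm]
      have := h (fun j => b.repr ⟨f, hf⟩ j) i
      rwa [← hf'] at this
  calc c / S * w2 f ≤ c / S * (S * (w1 f / c)) := mul_le_mul' le_rfl hle
    _ = w1 f := by field_simp

variable [Algebra.IsSeparable (RatFunc C) K]

/-- **LEMMA NC** -/
theorem nc (w1 w2 : Valuation K ℝ≥0) (h1 : ∀ c : C, w1 (algebraMap C K c) = v c)
    (h2 : ∀ c : C, w2 (algebraMap C K c) = v c)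
    (hx1 : ∃ ε : ℝ≥0, 0 < ε ∧ ∀ a : C, ε ≤ w1 (algebraMap (RatFunc C) K RatFunc.X - algebraMap C K a))
    (hx2 : ∃ ε : ℝ≥0, 0 < ε ∧ ∀ a : C, ε ≤ w2 (algebraMap (RatFunc C) K RatFunc.X - algebraMap C K a))
    (N : ℤ) :
    ∃ c : ℝ≥0, 0 < c ∧ ∀ (f : K) (E : Pl C K →₀ ℤ), 0 ≤ E → degD E ≤ N → f ∈ LD E →
      c * w2 f ≤ w1 f := by
  obtain ⟨E0, hE0⟩ := exists_degD_gt (k := C) (K := K) (N + gen C K)
  haveI := LD_finite (k := C) (K := K) E0
  obtain ⟨c1, hc1, H1⟩ := equiv_on v w1 w2 h1 h2 hx1 (LD E0)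
  obtain ⟨c2, hc2, H2⟩ := equiv_on v w2 w1 h2 h1 hx2 (LD E0)
  refine ⟨c1 * c2, by positivity, fun f E hE hN hf => ?_⟩
  by_cases hf0 : f = 0
  · subst hf0; simp
  -- `b`
  have hell := ell_ge (k := C) (K := K) algClosure_eq_bot (E0 - E)
  have hdeg : degD (E0 - E) = degD E0 - degD E := by
    rw [sub_eq_add_neg, degD_add, degD_neg, sub_eq_add_neg]
  rw [hdeg] at hell
  have hpos : 0 < ell (E0 - E) := by
    have : (0 : ℤ) < ell (E0 - E) := by linarith
    exact_mod_cast this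
  obtain ⟨⟨b, hb⟩, hb0⟩ : ∃ b : LD (E0 - E), b ≠ 0 := by
    haveI := LD_finite (k := C) (K := K) (E0 - E)
    haveI := Module.finrank_pos_iff.mp (show 0 < Module.finrank C (LD (E0 - E)) from hpos)
    exact exists_ne 0
  have hb0' : b ≠ 0 := by
    rintro rfl
    exact hb0 rfl
  have hbE0 : b ∈ LD E0 := by
    rw [mem_LD] at hb ⊢
    intro P
    refine (hb P).trans (exp_le_exp.mpr ?_)
    have := hE P
    simp only [Finsupp.coe_sub, Pi.sub_apply, Finsupp.coe_zero, Pi.zero_apply] at this ⊢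
    linarith
  have haE0 : f * b ∈ LD E0 := by
    rw [mem_LD] at hf hb ⊢
    intro P
    rw [map_mul]
    calc P.v f * P.v b ≤ exp (E P) * exp ((E0 - E) P) := mul_le_mul' (hf P) (hb P)
      _ = exp (E0 P) := by
        rw [← exp_add]
        congr 1
        simp
  have e1 := H1 _ haE0
  have e2 := H2 _ hbE0
  rw [map_mul, map_mul] at e1
  have hb1 : 0 < w1 b := by rwa [Valuation.pos_iff]
  have hb2 : 0 < w2 b := by rwa [Valuation.pos_iff]
  -- c1 * (w2 f * w2 b) ≤ w1 f * w1 b,  c2 * w1 b ≤ w2 b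
  have e3 : c1 * c2 * w2 f * w1 b ≤ w1 f * w1 b := by
    calc c1 * c2 * w2 f * w1 b = c1 * (w2 f * (c2 * w1 b)) := by ring
      _ ≤ c1 * (w2 f * w2 b) := mul_le_mul' le_rfl (mul_le_mul' le_rfl e2)
      _ ≤ w1 f * w1 b := e1
  exact le_of_mul_le_mul_right e3 hb1

end Crest.Agent.R013.NC2_522
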