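import Mathlib
import Crest.Agent.R013.RR17_948
import Crest.Agent.R013.CE5_280
import Crest.Agent.R013.NC2_522

/-!
# R013 / HU5: representatives with few zeros, logarithmic derivatives (helper522)

`K` a function field over `C` algebraically closed of characteristic `0`.
* `v_dlog_le` : `dlog h = del h / h` has at most a simple pole (relative to `canD`) at the zeros and
  poles of `h`, none elsewhere.
* `exists_rep` : `div h = m D` has a representative `h f^m` with divisor `m (E - g P0)`, `E ≥ 0`.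
* `exists_dlog_rep` : the logarithmic derivatives of these lie in `L(E')` with `deg E' ≤ N`.
* `dlog_compare` : comparison of two norms on them.
-/

set_option autoImplicit false
set_option linter.all false

open scoped NNReal

namespace Crest.Agent.R013.HU5_522

open WithZero
open Crest.Agent.R013.RR7_948 Crest.Agent.R013.RR8_948 Crest.Agent.R013.RR9_948
open Crest.Agent.R013.RR11_948 Crest.Agent.R013.RR12_948 Crest.Agent.R013.RR13_948
open Crest.Agent.R013.RR14_948
open Crest.Agent.R013.RR15_948 Crest.Agent.R013.RR16_948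
open Crest.Agent.R013.RR17_948
open Crest.Agent.R013.CE5_280

variable {C : Type*} [Field C] [CharZero C]
  {K : Type*} [Field K] [Algebra C K] [Algebra (RatFunc C) K] [IsScalarTower C (RatFunc C) K]
  [FiniteDimensional (RatFunc C) K]

theorem v_dlog_le_one {P : Pl C K} {h : K} (h0 : divf (k := C) h P = 0) (hh : h ≠ 0) :
    P.v (del C K h / h) ≤ exp (canD C K P) := by
  obtain ⟨t, ht0, ht⟩ := exists_v_eq P (-1)
  have h1 : P.v h = 1 := by rw [v_eq hh P, h0, neg_zero, exp_zero]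
  rw [map_div₀, h1, div_one, ← v_del_eq P ht]
  exact del_le_uniformizer P ht h1.le

theorem v_dlog_le {P : Pl C K} {h : K} (hh : h ≠ 0) :
    P.v (del C K h / h) ≤ exp (canD C K P + 1) := by
  by_cases h0 : divf (k := C) h P = 0
  · refine (v_dlog_le_one h0 hh).trans ?_
    rw [exp_le_exp]; omega
  obtain ⟨t, ht0, ht⟩ := exists_v_eq P (-1)
  have h1 := v_del_pow P (del C K) ht (fun u hu => del_le_uniformizer P ht hu)
    (del_uniformizer_ne_zero P ht) (v_eq hh P) h0
  rw [map_div₀, h1, v_eq hh P, v_del_eq P ht, ← exp_add, ← exp_sub, exp_le_exp]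
  omega

theorem dlog_mem {h : K} (hh : h ≠ 0) {E : Pl C K →₀ ℤ} (hE : 0 ≤ E)
    (hE1 : ∀ P, divf (k := C) h P ≠ 0 → 1 ≤ E P) : del C K h / h ∈ LD (canD C K + E) := by
  rw [mem_LD]
  intro P
  rw [Finsupp.add_apply]
  by_cases h0 : divf (k := C) h P = 0
  · refine (v_dlog_le_one h0 hh).trans ?_
    rw [exp_le_exp]
    have := hE P
    rw [Finsupp.zero_apply] at this
    omega
  · refine (v_dlog_le hh).trans ?_
    rw [exp_le_exp]
    have := hE1 P h0
    omega

theorem degD_nonneg {E : Pl C K →₀ ℤ} (hE : 0 ≤ E) : 0 ≤ degD E := by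
  unfold degD
  exact Finsupp.sum_nonneg fun P _ => mul_nonneg (hE P) (by positivity)

theorem degD_smul (m : ℤ) (E : Pl C K →₀ ℤ) : degD (m • E) = m * degD E := by
  unfold degD
  rw [Finsupp.sum_smul_index (fun P => by simp), Finsupp.mul_sum]
  exact Finsupp.sum_congr fun P _ => by simp [mul_assoc]

theorem divf_pow {f : K} (hf : f ≠ 0) (m : ℕ) : divf (k := C) (f ^ m) = (m : ℤ) • divf f := by
  induction m with
  | zero => simp [divf_one]
  | succ m ih =>
    rw [pow_succ, divf_mul (pow_ne_zero m hf) hf, ih]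
    ext P
    simp only [Finsupp.add_apply, Finsupp.smul_apply, smul_eq_mul]
    push_cast
    ring

variable [IsAlgClosed C]

/-- a representative of the class of `h` modulo `m`-th powers with divisor `m (E - g P0)` -/
theorem exists_rep (P0 : Pl C K) {h : K} (hh : h ≠ 0) {m : ℕ} (hm : m ≠ 0)
    (hdiv : ∀ P : Pl C K, (m : ℤ) ∣ divf h P) :
    ∃ f : K, f ≠ 0 ∧ ∃ E : Pl C K →₀ ℤ, 0 ≤ E ∧ degD E = gen C K ∧
      divf (h * f ^ m) = (m : ℤ) • (E - Finsupp.single P0 (gen C K : ℤ)) := by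
  have hm' : (m : ℤ) ≠ 0 := by exact_mod_cast hm
  let D : Pl C K →₀ ℤ := (divf (k := C) h).mapRange (fun z => z / m) (by simp)
  have hD : divf h = (m : ℤ) • D := by
    ext P
    rw [Finsupp.smul_apply, Finsupp.mapRange_apply, smul_eq_mul, Int.mul_ediv_cancel' (hdiv P)]
  have hdeg : degD D = 0 := by
    have h1 := degD_divf (k := C) hh
    rw [hD, degD_smul] at h1
    exact (mul_eq_zero.mp h1).resolve_left hm'
  have hell := ell_ge (k := C) (K := K) NC2_522.algClosure_eq_bot (D + Finsupp.single P0 (gen C K : ℤ))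
  rw [degD_add, hdeg, degD_single, degP_eq_one] at hell
  have h2 : LD (D + Finsupp.single P0 (gen C K : ℤ)) ≠ ⊥ := by
    intro h0
    unfold ell at hell
    rw [h0] at hell
    simp at hell
  obtain ⟨f, hf, hf0⟩ := Submodule.exists_mem_ne_zero_of_ne_bot h2
  rw [mem_LD_iff hf0] at hf
  refine ⟨f, hf0, _, hf, ?_, ?_⟩
  · rw [degD_add, degD_add, hdeg, degD_single, degP_eq_one, degD_divf hf0]; simp
  · rw [divf_mul hh (pow_ne_zero m hf0), divf_pow hf0, hD]
    ext P
    simp only [Finsupp.add_apply, Finsupp.smul_apply, Finsupp.sub_apply, smul_eq_mul]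
    ring

theorem exists_pl : Nonempty (Pl C K) := by
  obtain ⟨D, hD⟩ := RR19_948.exists_degD_gt (k := C) (K := K) 0
  by_contra hcon
  rw [not_nonempty_iff] at hcon
  have : D = 0 := by ext P; exact hcon.elim P
  rw [this, degD_zero] at hD
  exact lt_irrefl _ hD

/-- uniform bound for the logarithmic derivatives -/
theorem exists_dlog_rep (C K : Type*) [Field C] [CharZero C] [Field K] [Algebra C K]
    [Algebra (RatFunc C) K] [IsScalarTower C (RatFunc C) K]
    [FiniteDimensional (RatFunc C) K] [IsAlgClosed C] :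
    ∃ N : ℤ, ∀ (m : ℕ) (h : K), m ≠ 0 → h ≠ 0 → (∀ P : Pl C K, (m : ℤ) ∣ divf h P) →
      ∃ f : K, f ≠ 0 ∧ ∃ E : Pl C K →₀ ℤ, 0 ≤ E ∧ degD E ≤ N ∧
        del C K (h * f ^ m) / (h * f ^ m) ∈ LD E := by
  obtain ⟨P0⟩ := exists_pl (C := C) (K := K)
  refine ⟨degD (canD C K ⊔ 0) + gen C K + 1, fun m h hm hh hdiv => ?_⟩
  obtain ⟨f, hf0, E, hE, hEdeg, hfd⟩ := exists_rep P0 hh hm hdiv
  have hne : h * f ^ m ≠ 0 := mul_ne_zero hh (pow_ne_zero m hf0)
  have hE' : 0 ≤ E + Finsupp.single P0 1 := add_nonneg hE (Finsupp.single_nonneg.mpr zero_le_one)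
  have h1 : del C K (h * f ^ m) / (h * f ^ m) ∈ LD (canD C K + (E + Finsupp.single P0 1)) := by
    refine dlog_mem hne hE' fun P hP => ?_
    rw [hfd] at hP
    have h2 := hE P
    rw [Finsupp.zero_apply] at h2
    rw [Finsupp.add_apply]
    by_cases hPP : P0 = P
    · subst hPP
      rw [Finsupp.single_eq_same]
      omega
    · rw [Finsupp.single_eq_of_ne' hPP]
      rw [Finsupp.smul_apply, Finsupp.sub_apply, Finsupp.single_eq_of_ne' hPP, sub_zero] at hP
      have h3 : E P ≠ 0 := fun h => hP (by rw [h, smul_zero])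
      omega
  refine ⟨f, hf0, (canD C K ⊔ 0) + (E + Finsupp.single P0 1), add_nonneg le_sup_right hE', ?_, ?_⟩
  · rw [degD_add, degD_add, degD_single, degP_eq_one, hEdeg]
    push_cast
    linarith
  · rw [mem_LD] at h1 ⊢
    intro P
    refine (h1 P).trans ?_
    rw [exp_le_exp, Finsupp.add_apply, Finsupp.add_apply (canD C K ⊔ 0)]
    have : (canD C K) P ≤ (canD C K ⊔ 0) P := le_sup_left (a := canD C K) (b := 0) P
    linarith

/-- **comparison of two norms on logarithmic derivatives** -/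
theorem dlog_compare (v : Valuation C ℝ≥0) (w1 w2 : Valuation K ℝ≥0)
    (h1 : ∀ c : C, w1 (algebraMap C K c) = v c)
    (h2 : ∀ c : C, w2 (algebraMap C K c) = v c)
    (hx1 : ∃ ε : ℝ≥0, 0 < ε ∧ ∀ a : C, ε ≤ w1 (algebraMap (RatFunc C) K RatFunc.X - algebraMap C K a))
    (hx2 : ∃ ε : ℝ≥0, 0 < ε ∧ ∀ a : C, ε ≤ w2 (algebraMap (RatFunc C) K RatFunc.X - algebraMap C K a)) :
    ∃ c : ℝ≥0, 0 < c ∧ ∀ (m : ℕ) (h : K), m ≠ 0 → h ≠ 0 → (∀ P : Pl C K, (m : ℤ) ∣ divf h P) →
      ∃ f : K, f ≠ 0 ∧ c * w2 (del C K (h * f ^ m) / (h * f ^ m)) ≤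
        w1 (del C K (h * f ^ m) / (h * f ^ m)) := by
  obtain ⟨N, hN⟩ := exists_dlog_rep C K
  obtain ⟨c, hc, H⟩ := NC2_522.nc v w1 w2 h1 h2 hx1 hx2 N
  refine ⟨c, hc, fun m h hm hh hdiv => ?_⟩
  obtain ⟨f, hf0, E, hE, hdeg, hmem⟩ := hN m h hm hh hdiv
  exact ⟨f, hf0, H _ E hE hdeg hmem⟩

end Crest.Agent.R013.HU5_522
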