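import Mathlib
import Crest.Agent.R013.Cell4_408
import Crest.Agent.R013.HU2_522

/-!
# R013 / HU3: the unit part `nu : Kˣ → U1 C` of functions on a disc (helper522)

`Q` a field, `j : BD k C → Q` injective, `iota : K → Q` with image in `Frac (j (BD k C))`.
* `dec` : a nonzero `f ∈ BD` is `c * u * prod (T - tau)` with `u ∈ U1 C`, uniquely.
* `nu : Kˣ →* U1 C`.
-/

set_option autoImplicit false
set_option linter.all false

open scoped NNReal
open PowerSeries

namespace Crest.Agent.R013.HU3_522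

open Crest.Agent.R013.Cell_408 Crest.Agent.R013.HU1_522 Crest.Agent.R013.HU2_522

variable {k C : Type*} [NontriviallyNormedField k] [CompleteSpace k] [IsUltrametricDist k]
  [NormedField C] [IsUltrametricDist C] [NormedAlgebra k C] [Algebra.IsAlgebraic k C] [IsAlgClosed C]

/-- decomposition of an element of `BD` -/
structure Dec (k : Type*) {C : Type*} [NontriviallyNormedField k] [NormedField C]
    [IsUltrametricDist C] [NormedAlgebra k C]
    (f : C⟦X⟧) (c : C) (u : U1 C) (S : Multiset C) : Prop where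
  c0 : c ≠ 0
  lt : ∀ τ ∈ S, ‖τ‖ < 1
  fin : FinDef k fun n => coeff n ((u : (C⟦X⟧)ˣ) : C⟦X⟧)
  eq : f = PowerSeries.C c * ((u : (C⟦X⟧)ˣ) : C⟦X⟧) * (rootPoly S : C⟦X⟧)

theorem Dec.isU {f : C⟦X⟧} {c : C} {u : U1 C} {S : Multiset C} (h : Dec k f c u S) :
    IsU k ((u : (C⟦X⟧)ˣ) : C⟦X⟧) where
  fin := h.fin
  le := U1.int u
  zero := by rw [coeff_zero_eq_constantCoeff_apply, U1.const, norm_one]

theorem exists_dec (hk : DiscNorm k) {f : C⟦X⟧} (hf : f ∈ BD k C) (h0 : f ≠ 0) :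
    ∃ (c : C) (u : U1 C) (S : Multiset C), Dec k f c u S := by
  obtain ⟨c, g, m, hc, hg, hfg, -, -⟩ := exists_normalise hk hf h0
  obtain ⟨u, S, hu, -, hS, hgu⟩ := hg.exists_roots
  set a := coeff 0 u with ha
  have ha1 : ‖a‖ = 1 := hu.zero
  have ha0 : a ≠ 0 := norm_ne_zero_iff.mp (by rw [ha1]; exact one_ne_zero)
  let u' : U1 C := U1.mk' (PowerSeries.C a⁻¹ * u) (by
      rw [map_mul, constantCoeff_C, ← coeff_zero_eq_constantCoeff_apply, ← ha,
        inv_mul_cancel₀ ha0]) (by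
      intro n
      rw [coeff_C_mul, norm_mul, norm_inv, ha1, inv_one, one_mul]
      exact hu.le n)
  refine ⟨c * a, u', S, mul_ne_zero hc ha0, hS, ?_, ?_⟩
  · obtain ⟨L, hL, h3, h4⟩ := hu.fin.common (finDef_const (k := k) (ι := Unit) a)
    refine ⟨L, hL, fun n => ?_⟩
    show coeff n (PowerSeries.C a⁻¹ * u) ∈ L
    rw [coeff_C_mul]
    exact mul_mem (inv_mem (h4 ())) (h3 n)
  · show f = PowerSeries.C (c * a) * (PowerSeries.C a⁻¹ * u) * _
    rw [hfg, hgu, map_mul]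
    have : (PowerSeries.C a : C⟦X⟧) * PowerSeries.C a⁻¹ = 1 := by rw [← map_mul, mul_inv_cancel₀ ha0, map_one]
    linear_combination (-(PowerSeries.C c) * u * (rootPoly S : C⟦X⟧)) * this

theorem rootPoly_zero : rootPoly (0 : Multiset C) = 1 := by simp [rootPoly]

theorem rootPoly_cons (τ : C) (S : Multiset C) :
    rootPoly (τ ::ₘ S) = (Polynomial.X - Polynomial.C τ) * rootPoly S := by simp [rootPoly]

theorem rootPoly_add (S T : Multiset C) : rootPoly (S + T) = rootPoly S * rootPoly T := by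
  simp [rootPoly]

theorem rootPoly_monic (S : Multiset C) : (rootPoly S).Monic :=
  Polynomial.monic_multiset_prod_of_monic _ _ fun τ _ => Polynomial.monic_X_sub_C τ

theorem rootPoly_ne_zero (S : Multiset C) : (rootPoly S : C⟦X⟧) ≠ 0 := by
  rw [ne_eq, Polynomial.coe_eq_zero_iff]
  exact (rootPoly_monic S).ne_zero

theorem U1.coe_ne_zero (u : U1 C) : ((u : (C⟦X⟧)ˣ) : C⟦X⟧) ≠ 0 := Units.ne_zero _

theorem Dec.mul {f g : C⟦X⟧} {c d : C} {u v : U1 C} {S T : Multiset C} (hf : Dec k f c u S)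
    (hg : Dec k g d v T) : Dec k (f * g) (c * d) (u * v) (S + T) where
  c0 := mul_ne_zero hf.c0 hg.c0
  lt τ hτ := by
    rcases Multiset.mem_add.mp hτ with h | h
    · exact hf.lt _ h
    · exact hg.lt _ h
  fin := by
    obtain ⟨L, hL, h1, h2⟩ := hf.fin.common hg.fin
    refine ⟨L, hL, fun n => ?_⟩
    show coeff n (((u : (C⟦X⟧)ˣ) : C⟦X⟧) * ((v : (C⟦X⟧)ˣ) : C⟦X⟧)) ∈ L
    rw [coeff_mul]
    exact sum_mem fun x _ => mul_mem (h1 _) (h2 _)
  eq := by
    rw [hf.eq, hg.eq, rootPoly_add, Polynomial.coe_mul, Subgroup.coe_mul, Units.val_mul, map_mul]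
    ring

theorem evp_dec {f : C⟦X⟧} {c : C} {u : U1 C} {S : Multiset C} (h : Dec k f c u S) {t : C}
    (ht : ‖t‖ < 1) : evp t f = 0 ↔ t ∈ S := by
  have h1 : evp t f = c * evp t (((u : (C⟦X⟧)ˣ) : C⟦X⟧) * (rootPoly S : C⟦X⟧)) := by
    rw [h.eq, mul_assoc, evp_mul (C_mem_BD c) (mul_mem h.isU.mem (coe_mem_BD _)) ht, evp_C]
  rw [h1, mul_eq_zero, or_iff_right h.c0, evp_roots_eq_zero h.isU S ht]

theorem dec_unique_aux : ∀ (S : Multiset C) (T : Multiset C) (f : C⟦X⟧) (c d : C) (u v : U1 C),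
    Dec k f c u S → Dec k f d v T → S = T ∧ c = d ∧ u = v := by
  intro S
  induction S using Multiset.induction_on with
  | empty =>
    intro T f c d u v hf hg
    have hT : T = 0 := by
      rw [Multiset.eq_zero_iff_forall_notMem]
      intro τ hτ
      have h1 := (evp_dec hg (hg.lt τ hτ)).mpr hτ
      have h2 := (evp_dec hf (hg.lt τ hτ)).mp h1
      simp at h2
    subst hT
    have h1 := hf.eq
    rw [hg.eq] at h1
    rw [rootPoly_zero] at h1
    simp only [Polynomial.coe_one, mul_one] at h1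
    have h2 := congrArg constantCoeff h1
    rw [map_mul, map_mul, constantCoeff_C, constantCoeff_C, U1.const, U1.const, mul_one,
      mul_one] at h2
    refine ⟨rfl, h2.symm, ?_⟩
    rw [h2] at h1
    have h3 : (PowerSeries.C c : C⟦X⟧) ≠ 0 := by
      rw [ne_eq, map_eq_zero_iff _ PowerSeries.C_injective]; exact hf.c0
    exact (U1.ext' (mul_left_cancel₀ h3 h1)).symm
  | cons τ S ih =>
    intro T f c d u v hf hg
    have hτ : ‖τ‖ < 1 := hf.lt τ (Multiset.mem_cons_self τ S)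
    have h1 := (evp_dec hf hτ).mpr (Multiset.mem_cons_self τ S)
    have h2 := (evp_dec hg hτ).mp h1
    obtain ⟨T', rfl⟩ := Multiset.exists_cons_of_mem h2
    have h3 := hf.eq
    rw [hg.eq, rootPoly_cons, rootPoly_cons, Polynomial.coe_mul, Polynomial.coe_mul] at h3
    have h4 : (((Polynomial.X - Polynomial.C τ : Polynomial C)) : C⟦X⟧) ≠ 0 := by
      rw [ne_eq, Polynomial.coe_eq_zero_iff]
      exact Polynomial.X_sub_C_ne_zero τ
    have h5 : PowerSeries.C d * ((v : (C⟦X⟧)ˣ) : C⟦X⟧) * (rootPoly T' : C⟦X⟧) =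
        PowerSeries.C c * ((u : (C⟦X⟧)ˣ) : C⟦X⟧) * (rootPoly S : C⟦X⟧) := by
      apply mul_left_cancel₀ h4
      linear_combination h3
    have hf' : Dec k (PowerSeries.C c * ((u : (C⟦X⟧)ˣ) : C⟦X⟧) * (rootPoly S : C⟦X⟧)) c u S :=
      ⟨hf.c0, fun t ht => hf.lt t (Multiset.mem_cons_of_mem ht), hf.fin, rfl⟩
    have hg' : Dec k (PowerSeries.C c * ((u : (C⟦X⟧)ˣ) : C⟦X⟧) * (rootPoly S : C⟦X⟧)) d v T' :=
      ⟨hg.c0, fun t ht => hg.lt t (Multiset.mem_cons_of_mem ht), hg.fin, h5.symm⟩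
    obtain ⟨e1, e2, e3⟩ := ih T' _ c d u v hf' hg'
    exact ⟨by rw [e1], e2, e3⟩

theorem Dec.unique {f : C⟦X⟧} {c d : C} {u v : U1 C} {S T : Multiset C} (hf : Dec k f c u S)
    (hg : Dec k f d v T) : S = T ∧ c = d ∧ u = v := dec_unique_aux S T f c d u v hf hg

section Frac

variable (hk : DiscNorm k) {Q : Type*} [CommRing Q] (j : BD k C →+* Q) (hj : Function.Injective j)
  {K : Type*} [Field K] (ι : K →+* Q) (hι : ∀ z, ∃ a b : BD k C, b ≠ 0 ∧ ι z * j b = j a)

/-- a presentation of `z ∈ K` on the disc: `iota z = c * u * prod_S (T - tau) / prod_T (T - tau)` -/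
structure Pres (j : BD k C →+* Q) (ι : K →+* Q) (z : K) (c : C) (u : U1 C) (S T : Multiset C) :
    Prop where
  ex : ∃ (a b : BD k C), ι z * j b = j a ∧ Dec k (a : C⟦X⟧) c u S ∧ Dec k (b : C⟦X⟧) 1 1 T

include hk hj hι in
theorem exists_pres {z : K} (hz : z ≠ 0) : ∃ c u S T, Pres j ι z c u S T := by
  obtain ⟨a, b, hb, hab⟩ := hι z
  have hjb : j b ≠ 0 := (map_ne_zero_iff j hj).mpr hb
  have hja : j a ≠ 0 := by
    intro h0
    apply hjb
    have h1 : ι z⁻¹ * ι z = 1 := by rw [← map_mul, inv_mul_cancel₀ hz, map_one]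
    calc j b = ι z⁻¹ * (ι z * j b) := by rw [← mul_assoc, h1, one_mul]
      _ = 0 := by rw [hab, h0, mul_zero]
  have ha : a ≠ 0 := (map_ne_zero_iff j hj).mp hja
  obtain ⟨c, u, S, hS⟩ := exists_dec hk a.2 (fun h => ha (Subtype.ext h))
  obtain ⟨d, v, T, hT⟩ := exists_dec hk b.2 (fun h => hb (Subtype.ext h))
  -- multiply by the inverse of the unit part of `b`
  obtain ⟨w, hw, hvw⟩ := hT.isU.inv
  have hw' : w = (((v⁻¹ : U1 C) : (C⟦X⟧)ˣ) : C⟦X⟧) := by
    have h1 : ((v : (C⟦X⟧)ˣ) : C⟦X⟧) * (((v⁻¹ : U1 C) : (C⟦X⟧)ˣ) : C⟦X⟧) = 1 := by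
      rw [← Units.val_mul, ← Subgroup.coe_mul, mul_inv_cancel]; rfl
    exact mul_left_cancel₀ (U1.coe_ne_zero v) (hvw.trans h1.symm)
  have hW : Dec k (PowerSeries.C d⁻¹ * w) d⁻¹ v⁻¹ 0 :=
    ⟨inv_ne_zero hT.c0, fun τ h => absurd h (Multiset.notMem_zero τ), by rw [← hw']; exact hw.fin,
      by rw [rootPoly_zero, Polynomial.coe_one, mul_one, hw']⟩
  let e : BD k C := ⟨PowerSeries.C d⁻¹ * w, mul_mem (C_mem_BD _) hw.mem⟩
  refine ⟨c * d⁻¹, u * v⁻¹, S, T, ⟨a * e, b * e, ?_, ?_, ?_⟩⟩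
  · rw [map_mul, map_mul, ← hab]; ring
  · have := hS.mul hW
    rwa [add_zero] at this
  · have := hT.mul hW
    rw [add_zero, mul_inv_cancel₀ hT.c0, mul_inv_cancel] at this
    exact this

include hj in
theorem Pres.unique {z : K} {c d : C} {u v : U1 C} {S T S' T' : Multiset C}
    (h : Pres j ι z c u S T) (h' : Pres j ι z d v S' T') :
    c = d ∧ u = v ∧ S + T' = S' + T := by
  obtain ⟨a, b, hab, ha, hb⟩ := h.ex
  obtain ⟨a', b', hab', ha', hb'⟩ := h'.ex
  have h1 : a * b' = a' * b := by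
    apply hj
    rw [map_mul, map_mul, ← hab, ← hab']
    ring
  have e1 := ha.mul hb'
  have e2 := ha'.mul hb
  have h2 : (a : C⟦X⟧) * (b' : C⟦X⟧) = (a' : C⟦X⟧) * (b : C⟦X⟧) := congrArg Subtype.val h1
  rw [h2] at e1
  obtain ⟨x1, x2, x3⟩ := e1.unique e2
  rw [mul_one, mul_one] at x2 x3
  exact ⟨x2, x3, x1⟩

theorem Pres.mul {z z' : K} {c d : C} {u v : U1 C} {S T S' T' : Multiset C}
    (h : Pres j ι z c u S T) (h' : Pres j ι z' d v S' T') :
    Pres j ι (z * z') (c * d) (u * v) (S + S') (T + T') := by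
  obtain ⟨a, b, hab, ha, hb⟩ := h.ex
  obtain ⟨a', b', hab', ha', hb'⟩ := h'.ex
  refine ⟨a * a', b * b', ?_, ha.mul ha', ?_⟩
  · rw [map_mul, map_mul, map_mul, ← hab, ← hab']; ring
  · have := hb.mul hb'
    rwa [one_mul, one_mul] at this

theorem pres_one : Pres j ι (1 : K) 1 1 0 0 := by
  refine ⟨1, 1, by rw [map_one, one_mul], ?_, ?_⟩ <;>
  · refine ⟨one_ne_zero, fun τ h => absurd h (Multiset.notMem_zero τ), ?_, ?_⟩
    · refine ⟨⊥, inferInstance, fun n => ?_⟩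
      show coeff n (1 : C⟦X⟧) ∈ (⊥ : IntermediateField k C)
      rw [coeff_one]
      split_ifs
      · exact one_mem _
      · exact zero_mem _
    · rw [rootPoly_zero]; simp

/-- `iota z * j (prod_T (T - tau)) = j (c * u * prod_S (T - tau))` -/
theorem Pres.eq {z : K} {c : C} {u : U1 C} {S T : Multiset C} (h : Pres j ι z c u S T) :
    ∃ (hu : ((u : (C⟦X⟧)ˣ) : C⟦X⟧) ∈ BD k C),
      ι z * j ⟨(rootPoly T : C⟦X⟧), coe_mem_BD _⟩ =
        j ⟨PowerSeries.C c, C_mem_BD c⟩ * j ⟨((u : (C⟦X⟧)ˣ) : C⟦X⟧), hu⟩ *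
          j ⟨(rootPoly S : C⟦X⟧), coe_mem_BD _⟩ := by
  obtain ⟨a, b, hab, ha, hb⟩ := h.ex
  refine ⟨ha.isU.mem, ?_⟩
  have h1 : b = ⟨(rootPoly T : C⟦X⟧), coe_mem_BD _⟩ := by
    apply Subtype.ext
    have h2 := hb.eq
    rw [map_one, one_mul] at h2
    have h3 : (((1 : U1 C) : (C⟦X⟧)ˣ) : C⟦X⟧) = 1 := rfl
    rw [h3, one_mul] at h2
    exact h2
  have h4 : a = ⟨PowerSeries.C c, C_mem_BD c⟩ * ⟨((u : (C⟦X⟧)ˣ) : C⟦X⟧), ha.isU.mem⟩ *
      ⟨(rootPoly S : C⟦X⟧), coe_mem_BD _⟩ := Subtype.ext ha.eq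
  rw [← map_mul, ← map_mul, ← h4, ← h1, hab]

/-- **the unit part** -/
noncomputable def nu : Kˣ →* U1 C where
  toFun z := (exists_pres hk j hj ι hι z.ne_zero).choose_spec.choose
  map_one' := by
    obtain ⟨S, T, h⟩ := (exists_pres hk j hj ι hι (1 : Kˣ).ne_zero).choose_spec.choose_spec
    have := (Pres.unique j hj ι h (pres_one j ι)).2.1
    exact this
  map_mul' z z' := by
    obtain ⟨S, T, h⟩ := (exists_pres hk j hj ι hι (z * z').ne_zero).choose_spec.choose_spec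
    obtain ⟨S1, T1, h1⟩ := (exists_pres hk j hj ι hι z.ne_zero).choose_spec.choose_spec
    obtain ⟨S2, T2, h2⟩ := (exists_pres hk j hj ι hι z'.ne_zero).choose_spec.choose_spec
    exact (Pres.unique j hj ι h (Pres.mul j ι h1 h2)).2.1

theorem nu_eq {z : Kˣ} {c : C} {u : U1 C} {S T : Multiset C} (h : Pres j ι (z : K) c u S T) :
    nu hk j hj ι hι z = u := by
  obtain ⟨S', T', h'⟩ := (exists_pres hk j hj ι hι z.ne_zero).choose_spec.choose_spec
  exact (Pres.unique j hj ι h' h).2.1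

theorem nu_pres (z : Kˣ) : ∃ c S T, Pres j ι (z : K) c (nu hk j hj ι hι z) S T := by
  obtain ⟨S', T', h'⟩ := (exists_pres hk j hj ι hι z.ne_zero).choose_spec.choose_spec
  exact ⟨_, S', T', h'⟩

/-! ### multiplicities -/

include hj in
theorem Pres.count_eq {z : K} {c d : C} {u v : U1 C} {S T S' T' : Multiset C} [DecidableEq C]
    (h : Pres j ι z c u S T) (h' : Pres j ι z d v S' T') (τ : C) :
    (S.count τ : ℤ) - T.count τ = S'.count τ - T'.count τ := by
  have h1 := congrArg (Multiset.count τ) (Pres.unique j hj ι h h').2.2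
  rw [Multiset.count_add, Multiset.count_add] at h1
  omega

open Classical in
/-- the order of vanishing of `iota z` at `tau` -/
noncomputable def ordp (τ : C) : Kˣ →* Multiplicative ℤ where
  toFun z := Multiplicative.ofAdd
    (((exists_pres hk j hj ι hι z.ne_zero).choose_spec.choose_spec.choose.count τ : ℤ) -
      (exists_pres hk j hj ι hι z.ne_zero).choose_spec.choose_spec.choose_spec.choose.count τ)
  map_one' := by
    have h := (exists_pres hk j hj ι hι (1 : Kˣ).ne_zero).choose_spec.choose_spec.choose_spec.choose_spec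
    rw [← ofAdd_zero]
    congr 1
    exact (Pres.count_eq j hj ι h (pres_one j ι) τ).trans (by simp)
  map_mul' z z' := by
    have h := (exists_pres hk j hj ι hι (z * z').ne_zero).choose_spec.choose_spec.choose_spec.choose_spec
    have h1 := (exists_pres hk j hj ι hι z.ne_zero).choose_spec.choose_spec.choose_spec.choose_spec
    have h2 := (exists_pres hk j hj ι hι z'.ne_zero).choose_spec.choose_spec.choose_spec.choose_spec
    rw [← ofAdd_add]
    congr 1
    refine (Pres.count_eq j hj ι h (Pres.mul j ι h1 h2) τ).trans ?_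
    rw [Multiset.count_add, Multiset.count_add]
    push_cast
    ring

theorem ordp_eq [DecidableEq C] {z : Kˣ} {c : C} {u : U1 C} {S T : Multiset C}
    (h : Pres j ι (z : K) c u S T) (τ : C) :
    Multiplicative.toAdd (ordp hk j hj ι hι τ z) = (S.count τ : ℤ) - T.count τ := by
  classical
  have h' := (exists_pres hk j hj ι hι z.ne_zero).choose_spec.choose_spec.choose_spec.choose_spec
  have h1 := Pres.count_eq j hj ι h' h τ
  unfold ordp
  simp only [MonoidHom.coe_mk, OneHom.coe_mk, toAdd_ofAdd]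
  convert h1

/-- cancel common zeros -/
theorem Pres.cancel {z : K} {c : C} {u : U1 C} {S T R : Multiset C}
    (h : Pres j ι z c u (S + R) (T + R))
    (hQ : ∀ a b : Q, a * j ⟨(rootPoly R : C⟦X⟧), coe_mem_BD _⟩ =
      b * j ⟨(rootPoly R : C⟦X⟧), coe_mem_BD _⟩ → a = b) : Pres j ι z c u S T := by
  obtain ⟨a, b, hab, ha, hb⟩ := h.ex
  have hfa : FinDef k fun n => coeff n ((u : (C⟦X⟧)ˣ) : C⟦X⟧) := ha.fin
  obtain ⟨hu, heq⟩ := Pres.eq j ι h
  have hR : ∀ S' : Multiset C, (⟨(rootPoly (S' + R) : C⟦X⟧), coe_mem_BD _⟩ : BD k C) =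
      ⟨(rootPoly S' : C⟦X⟧), coe_mem_BD _⟩ * ⟨(rootPoly R : C⟦X⟧), coe_mem_BD _⟩ := by
    intro S'
    apply Subtype.ext
    show (rootPoly (S' + R) : C⟦X⟧) = (rootPoly S' : C⟦X⟧) * (rootPoly R : C⟦X⟧)
    rw [rootPoly_add, Polynomial.coe_mul]
  rw [hR, hR, map_mul, map_mul, ← mul_assoc, ← mul_assoc] at heq
  have h1 := hQ _ _ heq
  refine ⟨⟨⟨PowerSeries.C c, C_mem_BD c⟩ * ⟨((u : (C⟦X⟧)ˣ) : C⟦X⟧), hu⟩ *
          ⟨(rootPoly S : C⟦X⟧), coe_mem_BD _⟩, ⟨(rootPoly T : C⟦X⟧), coe_mem_BD _⟩, ?_, ?_, ?_⟩⟩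
  · rw [map_mul, map_mul]; exact h1
  · exact ⟨ha.c0, fun τ hτ => ha.lt τ (Multiset.mem_add.mpr (Or.inl hτ)), hfa, rfl⟩
  · refine ⟨one_ne_zero, fun τ hτ => hb.lt τ (Multiset.mem_add.mpr (Or.inl hτ)), hb.fin, ?_⟩
    show (rootPoly T : C⟦X⟧) = _
    rw [map_one, one_mul]
    show (rootPoly T : C⟦X⟧) = 1 * _
    rw [one_mul]

theorem exists_nsmul {m : ℕ} (hm : m ≠ 0) {S : Multiset C} [DecidableEq C]
    (h : ∀ τ, m ∣ S.count τ) : ∃ S', S = m • S' := by
  refine ⟨∑ τ ∈ S.toFinset, Multiset.replicate (S.count τ / m) τ, ?_⟩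
  ext τ
  rw [Multiset.count_nsmul, Multiset.count_sum']
  simp only [Multiset.count_replicate]
  rw [Finset.sum_ite_eq' S.toFinset τ]
  split_ifs with h1
  · exact (Nat.mul_div_cancel' (h τ)).symm
  · rw [Multiset.mem_toFinset] at h1
    rw [Multiset.count_eq_zero_of_notMem h1, mul_zero]

/-- **divisible multiplicities** -/
theorem Pres.divisible [DecidableEq C] {z : K} {c : C} {u : U1 C} {S T : Multiset C}
    (h : Pres j ι z c u S T) (hQ : ∀ a b q : Q, q ≠ 0 → a * q = b * q → a = b) (hj' : Function.Injective j)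
    {m : ℕ} (hm : m ≠ 0) (hd : ∀ τ, (m : ℤ) ∣ (S.count τ : ℤ) - T.count τ) :
    ∃ S' T' : Multiset C, Pres j ι z c u (m • S') (m • T') := by
  have hS : S = (S - T) + (S ∩ T) := by
    ext τ
    rw [Multiset.count_add, Multiset.count_sub, Multiset.count_inter]; omega
  have hT : T = (T - S) + (S ∩ T) := by
    ext τ
    rw [Multiset.count_add, Multiset.count_sub, Multiset.count_inter]; omega
  have h1 : Pres j ι z c u (S - T) (T - S) := by
    have h2 : Pres j ι z c u ((S - T) + (S ∩ T)) ((T - S) + (S ∩ T)) := by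
      rw [← hS, ← hT]; exact h
    refine Pres.cancel j ι h2 fun a b hab => hQ a b _ ?_ hab
    rw [ne_eq, map_eq_zero_iff j hj']
    intro h3
    exact rootPoly_ne_zero (S ∩ T) (congrArg Subtype.val h3)
  obtain ⟨S', hS'⟩ := exists_nsmul (S := S - T) hm (fun τ => by
    rw [Multiset.count_sub]
    have := hd τ
    rcases le_or_gt (S.count τ) (T.count τ) with h4 | h4
    · rw [Nat.sub_eq_zero_of_le h4]; exact dvd_zero _
    · have h5 : ((S.count τ - T.count τ : ℕ) : ℤ) = (S.count τ : ℤ) - T.count τ := by omega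
      rw [← h5] at this
      exact_mod_cast this)
  obtain ⟨T', hT'⟩ := exists_nsmul (S := T - S) hm (fun τ => by
    rw [Multiset.count_sub]
    have := (dvd_neg.mpr (hd τ))
    rcases le_or_gt (T.count τ) (S.count τ) with h4 | h4
    · rw [Nat.sub_eq_zero_of_le h4]; exact dvd_zero _
    · have h5 : ((T.count τ - S.count τ : ℕ) : ℤ) = -((S.count τ : ℤ) - T.count τ) := by omega
      rw [← h5] at this
      exact_mod_cast this)
  refine ⟨S', T', ?_⟩
  rw [← hS', ← hT']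
  exact h1

end Frac

end Crest.Agent.R013.HU3_522
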