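import Crest.Agent.R013.EE2_809
import Crest.Agent.R013.Cell4_408

/-!
# R013 / HU6: the derivation `T d/dT` on `EE k C`; the residue of a logarithmic derivative (helper522)

* `th : EE k C → EE k C`, `(th a).co n = n * a.co n`, a derivation, norm non-increasing;
* `bdE : BD k C →+* EE k C`;
* `res_dlog` : `f g = 1` implies `(th f * g).co 0 = od f`; hence `‖od f‖ ≤ gn (th f * g)`.
-/

set_option autoImplicit false
set_option linter.all false
open Filter Topology
open Crest.Agent.R013.Cell_408

namespace Crest.Agent.R013.HU6_522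

open Crest.Agent.R013.EE809

variable {k : Type*} [NontriviallyNormedField k] [CompleteSpace k]
variable {C : Type*} [NormedField C] [IsUltrametricDist C] [NormedAlgebra k C]

theorem norm_intCast_le_one (n : ℤ) : ‖(n : C)‖ ≤ 1 :=
  IsUltrametricDist.norm_intCast_le_one C n

/-- the derivation `T d/dT` -/
noncomputable def th (a : EE k C) : EE k C :=
  mk' (fun n => (n : C) * a.co n)
    (by
      obtain ⟨L, hL, h⟩ := a.fd
      exact ⟨L, hL, fun n => mul_mem (intCast_mem L n) (h n)⟩)
    (by
      obtain ⟨M, hM⟩ := a.bd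
      refine ⟨M, fun n => ?_⟩
      rw [norm_mul]
      exact (mul_le_of_le_one_left (norm_nonneg _) (norm_intCast_le_one n)).trans (hM n))
    (by
      have h := a.lim
      rw [tendsto_zero_iff_norm_tendsto_zero] at h ⊢
      refine squeeze_zero (fun n => norm_nonneg _) (fun n => ?_) h
      rw [norm_mul]
      exact mul_le_of_le_one_left (norm_nonneg _) (norm_intCast_le_one n))

@[simp] theorem co_th (a : EE k C) (n : ℤ) : (th a).co n = (n : C) * a.co n := rfl

theorem th_add (a b : EE k C) : th (a + b) = th a + th b := by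
  ext n; simp [mul_add]

theorem th_sub (a b : EE k C) : th (a - b) = th a - th b := by
  ext n; simp [mul_sub]

theorem th_neg (a : EE k C) : th (-a) = -th a := by
  ext n; simp

theorem th_zero : th (0 : EE k C) = 0 := by
  ext n; simp

theorem th_mul (a b : EE k C) : th (a * b) = a * th b + b * th a := by
  ext n
  rw [co_th, co_add, mul_comm b (th a), co_mul, co_mul, co_mul, ← tsum_mul_left,
    ← (summable_conv a (th b) n).tsum_add (summable_conv (th a) b n)]
  refine tsum_congr fun i => ?_
  rw [co_th, co_th]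
  push_cast
  ring

theorem th_mono (n : ℤ) (c : C) (hc : FinDef k (fun _ : Unit => c)) :
    th (mono n c hc : EE k C) = (n : EE k C) * mono n c hc := by
  have h1 : ((n : EE k C)).co 0 = (n : C) ∧ ∀ m, m ≠ 0 → ((n : EE k C)).co m = 0 := by
    have key : ∀ m : ℤ, ((n : EE k C)).co m = if m = 0 then (n : C) else 0 := by
      intro m
      induction n using Int.induction_on with
      | zero => simp
      | succ i ih => 
        push_cast at ih ⊢
        rw [co_add, ih, co_one]
        split_ifs <;> simp
      | pred i ih => 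
        push_cast at ih ⊢
        rw [co_sub, ih, co_one]
        split_ifs <;> simp
    exact ⟨by rw [key, if_pos rfl], fun m hm => by rw [key, if_neg hm]⟩
  ext m
  rw [mul_comm, co_mono_mul, co_th, co_mono]
  by_cases h : m = n
  · subst h
    rw [if_pos rfl, sub_self, h1.1, mul_comm]
  · rw [if_neg h, h1.2 _ (sub_ne_zero.mpr h)]; simp

theorem th_const (c : C) (hc : FinDef k (fun _ : Unit => c)) : th (mono 0 c hc : EE k C) = 0 := by
  rw [th_mono]; simp

theorem th_one : th (1 : EE k C) = 0 := th_const 1 finDef_one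

theorem th_pow (a : EE k C) (n : ℕ) : th (a ^ (n + 1)) = ((n : EE k C) + 1) * a ^ n * th a := by
  induction n with
  | zero => simp
  | succ n ih =>
    rw [pow_succ, th_mul, ih]
    push_cast
    ring

theorem gn_th_le (a : EE k C) : gn (th a) ≤ gn a := gn_le fun n => by
  rw [co_th, norm_mul]
  exact (mul_le_of_le_one_left (norm_nonneg _) (norm_intCast_le_one n)).trans (le_gn a n)

/-! ### power series -/

section BDsec

variable [Algebra.IsAlgebraic k C]

/-- `BD k C ⊆ EE k C` -/
noncomputable def bdF (f : BD k C) : EE k C :=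
  mk' (fun n => if 0 ≤ n then PowerSeries.coeff n.toNat (f : PowerSeries C) else 0)
    (by
      obtain ⟨L, hL, h⟩ := f.2.1
      refine ⟨L, hL, fun n => ?_⟩
      show (if 0 ≤ n then _ else _) ∈ L
      split_ifs
      · exact h _
      · exact zero_mem _)
    (by
      obtain ⟨M, hM⟩ := f.2.2
      refine ⟨M, fun n => ?_⟩
      show ‖(if 0 ≤ n then _ else _)‖ ≤ M
      split_ifs
      · exact hM _
      · rw [norm_zero]; exact (norm_nonneg _).trans (hM 0))
    (by
      refine tendsto_const_nhds.congr' ?_
      filter_upwards [eventually_lt_atBot 0] with m hm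
      rw [if_neg (not_le.mpr hm)])

theorem co_bdF (f : BD k C) (n : ℤ) :
    (bdF f).co n = if 0 ≤ n then PowerSeries.coeff n.toNat (f : PowerSeries C) else 0 := rfl

theorem co_bdF_nat (f : BD k C) (n : ℕ) :
    (bdF f).co n = PowerSeries.coeff n (f : PowerSeries C) := by
  rw [co_bdF, if_pos (by omega), Int.toNat_natCast]

theorem co_bdF_neg (f : BD k C) {n : ℤ} (hn : n < 0) : (bdF f).co n = 0 := by
  rw [co_bdF, if_neg (not_le.mpr hn)]

/-- support in nonnegative degrees -/
def NN (a : EE k C) : Prop := ∀ n < 0, a.co n = 0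

theorem NN.co_mul_neg {a b : EE k C} (ha : NN a) (hb : NN b) : NN (a * b) := by
  intro n hn
  rw [co_mul]
  rw [tsum_congr (g := fun _ => (0 : C)), tsum_zero]
  intro i
  rcases lt_or_ge i 0 with h | h
  · rw [ha i h, zero_mul]
  · rw [hb (n - i) (by omega), mul_zero]

theorem NN.co_mul_nat {a b : EE k C} (ha : NN a) (hb : NN b) (n : ℕ) :
    (a * b).co n = ∑ x ∈ Finset.HasAntidiagonal.antidiagonal n, a.co x.1 * b.co x.2 := by
  classical
  rw [co_mul, Finset.Nat.sum_antidiagonal_eq_sum_range_succ (fun i j => a.co i * b.co j)]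
  rw [tsum_eq_sum (s := (Finset.range (n + 1)).map Nat.castEmbedding)]
  · rw [Finset.sum_map]
    refine Finset.sum_congr rfl fun i hi => ?_
    rw [Finset.mem_range] at hi
    simp only [Nat.castEmbedding_apply]
    rw [Nat.cast_sub (by omega)]
  · intro i hi
    rcases lt_or_ge i 0 with h | h
    · rw [ha i h, zero_mul]
    · rcases le_or_gt i n with h2 | h2
      · exfalso
        apply hi
        rw [Finset.mem_map]
        exact ⟨i.toNat, by rw [Finset.mem_range]; omega, by simp [h]⟩
      · rw [hb (n - i) (by omega), mul_zero]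

theorem nn_bdF (f : BD k C) : NN (bdF f) := fun n hn => co_bdF_neg f hn

/-- the embedding of the functions on the disc -/
noncomputable def bdE : BD k C →+* EE k C where
  toFun := bdF
  map_one' := by
    ext n
    rw [co_bdF, co_one]
    show (if 0 ≤ n then PowerSeries.coeff n.toNat (1 : PowerSeries C) else 0) = _
    rw [PowerSeries.coeff_one]
    by_cases h : n = 0
    · subst h; simp
    · rw [if_neg h]
      split_ifs with h1 h2
      · exfalso; omega
      · rfl
      · rfl
  map_mul' f g := by
    ext n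
    rcases lt_or_ge n 0 with h | h
    · rw [co_bdF_neg _ h, (nn_bdF f).co_mul_neg (nn_bdF g) n h]
    · obtain ⟨m, rfl⟩ := Int.eq_ofNat_of_zero_le h
      rw [co_bdF_nat, (nn_bdF f).co_mul_nat (nn_bdF g)]
      show PowerSeries.coeff m ((f : PowerSeries C) * (g : PowerSeries C)) = _
      rw [PowerSeries.coeff_mul]
      refine Finset.sum_congr rfl fun x _ => ?_
      rw [co_bdF_nat, co_bdF_nat]
  map_zero' := by
    ext n
    rw [co_bdF]
    show (if 0 ≤ n then PowerSeries.coeff n.toNat (0 : PowerSeries C) else 0) = _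
    simp
  map_add' f g := by
    ext n
    rw [co_add, co_bdF, co_bdF, co_bdF]
    show (if 0 ≤ n then PowerSeries.coeff n.toNat ((f : PowerSeries C) + (g : PowerSeries C)) else 0)
      = _
    split_ifs <;> simp

theorem bdE_apply (f : BD k C) : bdE f = bdF f := rfl

theorem bdE_injective : Function.Injective (bdE : BD k C →+* EE k C) := by
  intro f g h
  apply Subtype.ext
  ext n
  have h1 := congrArg (fun a => EE.co a (n : ℤ)) h
  simpa only [bdE_apply, co_bdF_nat] using h1

/-- `co 0` of `th a * b` for `a, b` without negative powers -/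
theorem NN.th_mul_co_zero {a b : EE k C} (ha : NN a) (hb : NN b) : (th a * b).co 0 = 0 := by
  have h1 : NN (th a) := fun n hn => by rw [co_th, ha n hn, mul_zero]
  have h2 := h1.co_mul_nat hb 0
  simpa using h2

end BDsec

/-! ### logarithmic derivatives -/

theorem dlog_mul {f g f' g' : EE k C} (h : f * g = 1) (h' : f' * g' = 1) :
    th (f * f') * (g * g') = th f * g + th f' * g' := by
  rw [th_mul]
  linear_combination (th f' * g') * h + (th f * g) * h'

theorem dlog_small [CharZero C] {x g : EE k C} (hx : gn x < 1) (h : (1 - x) * g = 1) :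
    (th (1 - x) * g).co 0 = 0 := by
  have hx0 := gn_nonneg x
  have h1 : ∀ N : ℕ, (x ^ N * th x).co 0 = 0 := by
    intro N
    have h2 : (th (x ^ (N + 1))).co 0 = 0 := by rw [co_th]; simp
    rw [th_pow, mul_assoc] at h2
    have h3 : (((N : EE k C) + 1) * (x ^ N * th x)).co 0 = ((N : C) + 1) * (x ^ N * th x).co 0 := by
      have h4 : (N : EE k C) + 1 = (((N + 1 : ℕ) : ℤ) : EE k C) := by push_cast; ring
      have h5 : ∀ a : EE k C, ∀ m : ℕ, ((m : EE k C) * a).co 0 = (m : C) * a.co 0 := by
        intro a m
        induction m with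
        | zero => simp
        | succ m ih => push_cast; rw [add_mul, add_mul, co_add, ih, one_mul, one_mul]
      have h6 := h5 (x ^ N * th x) (N + 1)
      push_cast at h6
      exact h6
    rw [h3] at h2
    exact (mul_eq_zero.mp h2).resolve_left (by exact_mod_cast N.succ_ne_zero)
  have h2 : ∀ N : ℕ, (∑ i ∈ Finset.range N, x ^ i * th x).co 0 = 0 := by
    intro N
    induction N with
    | zero => simp
    | succ N ih => rw [Finset.sum_range_succ, co_add, ih, h1, add_zero]
  have h3 : ∀ N : ℕ, th (1 - x) * g = -(∑ i ∈ Finset.range N, x ^ i * th x) - g * x ^ N * th x := by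
    intro N
    have h4 : (∑ i ∈ Finset.range N, x ^ i * th x) = (∑ i ∈ Finset.range N, x ^ i) * th x := by
      rw [Finset.sum_mul]
    have h5 : (∑ i ∈ Finset.range N, x ^ i) = g * (1 - x ^ N) := by
      rw [← mul_neg_geom_sum x N]
      linear_combination (-(∑ i ∈ Finset.range N, x ^ i)) * h
    rw [h4, h5, th_sub, th_one]
    ring
  have h4 : ∀ N : ℕ, ‖(th (1 - x) * g).co 0‖ ≤ (gn g * gn (th x)) * gn x ^ N := by
    intro N
    rw [h3 N, co_sub, co_neg, h2, neg_zero, zero_sub, norm_neg]
    refine (le_gn _ 0).trans ((gn_mul_le _ _).trans ?_)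
    calc gn (g * x ^ N) * gn (th x) ≤ (gn g * gn x ^ N) * gn (th x) := by
          refine mul_le_mul_of_nonneg_right ((gn_mul_le _ _).trans ?_) (gn_nonneg _)
          exact mul_le_mul_of_nonneg_left (gn_pow_le x N) (gn_nonneg g)
      _ = _ := by ring
  have h5 : Tendsto (fun N : ℕ => (gn g * gn (th x)) * gn x ^ N) atTop (𝓝 0) := by
    have := (tendsto_pow_atTop_nhds_zero_of_lt_one hx0 hx).const_mul (gn g * gn (th x))
    rwa [mul_zero] at this
  exact norm_le_zero_iff.mp (ge_of_tendsto' h5 h4)

section Disc

variable [IsUltrametricDist k] [Algebra.IsAlgebraic k C] [IsAlgClosed C] [CharZero C]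

/-- normalised case -/
theorem dlog_norm (hk : DiscNorm k) {f g : EE k C} (h : f * g = 1) (h0 : f.co 0 = 1)
    (h1 : ∀ n, ‖f.co n‖ ≤ 1) (h2 : ∀ n < 0, ‖f.co n‖ < 1) : (th f * g).co 0 = 0 := by
  -- the nonnegative part
  let u : PowerSeries C := PowerSeries.mk fun n => f.co n
  have hu : IsU k u := by
    refine ⟨?_, fun n => ?_, ?_⟩
    · obtain ⟨L, hL, hm⟩ := f.fd
      exact ⟨L, hL, fun n => by simp only [u, PowerSeries.coeff_mk]; exact hm _⟩
    · simp only [u, PowerSeries.coeff_mk]; exact h1 _
    · simp only [u, PowerSeries.coeff_mk]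
      push_cast
      rw [h0, norm_one]
  obtain ⟨v, hv, huv⟩ := hu.inv
  let U : BD k C := ⟨u, hu.mem⟩
  let V : BD k C := ⟨v, hv.mem⟩
  have hUV : bdE U * bdE V = 1 := by
    rw [← map_mul]
    have : U * V = 1 := Subtype.ext huv
    rw [this, map_one]
  have hgV : gn (bdE V) ≤ 1 := gn_le fun n => by
    rw [bdE_apply, co_bdF]
    split_ifs
    · exact hv.le _
    · rw [norm_zero]; exact zero_le_one
  let m := f - bdE U
  have hm : gn m < 1 := by
    have hco : ∀ n, ‖m.co n‖ < 1 := by
      intro n
      rcases lt_or_ge n 0 with hn | hn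
      · have : m.co n = f.co n := by
          simp only [m, co_sub, bdE_apply, co_bdF_neg U hn, sub_zero]
        rw [this]; exact h2 n hn
      · obtain ⟨l, rfl⟩ := Int.eq_ofNat_of_zero_le hn
        have : m.co l = 0 := by
          simp only [m, co_sub, bdE_apply, co_bdF_nat]
          simp only [U, u, PowerSeries.coeff_mk, sub_self]
        rw [this, norm_zero]; exact zero_lt_one
    by_cases hm0 : m = 0
    · rw [hm0, gn_zero]; exact zero_lt_one
    · obtain ⟨n, hn⟩ := exists_gn hk hm0
      rw [← hn]; exact hco n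
  have hx : gn (-(m * bdE V)) < 1 := by
    rw [gn_neg]
    refine lt_of_le_of_lt (gn_mul_le _ _) ?_
    calc gn m * gn (bdE V) ≤ gn m * 1 := mul_le_mul_of_nonneg_left hgV (gn_nonneg _)
      _ < 1 := by rw [mul_one]; exact hm
  have hfx : 1 - -(m * bdE V) = f * bdE V := by
    simp only [m]
    linear_combination -hUV
  have hinv : (1 - -(m * bdE V)) * (g * bdE U) = 1 := by
    rw [hfx]
    linear_combination (bdE U * bdE V) * h + hUV
  have h3 := dlog_small hx hinv
  rw [hfx, dlog_mul h (by rw [mul_comm]; exact hUV : bdE V * bdE U = 1), co_add] at h3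
  have h4 : (th (bdE V) * bdE U).co 0 = 0 := (nn_bdF V).th_mul_co_zero (nn_bdF U)
  rw [h4, add_zero] at h3
  exact h3

theorem mono_mul_mono (n m : ℤ) (c d : C) (hc : FinDef k (fun _ : Unit => c))
    (hd : FinDef k (fun _ : Unit => d)) (h : FinDef k (fun _ : Unit => c * d)) :
    (mono n c hc * mono m d hd : EE k C) = mono (n + m) (c * d) h := by
  ext l
  rw [co_mono_mul, co_mono, co_mono]
  by_cases h1 : l = n + m
  · rw [if_pos h1, if_pos (by omega)]
  · rw [if_neg h1, if_neg (by omega), mul_zero]

/-- **the residue of the logarithmic derivative is the order** -/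
theorem res_dlog (hk : DiscNorm k) {f g : EE k C} (h : f * g = 1) :
    (th f * g).co 0 = (od f : C) := by
  have h01 : (1 : EE k C) ≠ 0 := by
    intro h0
    have := congrArg (fun a => EE.co a 0) h0
    simp [co_one] at this
  have hf : f ≠ 0 := by
    rintro rfl
    rw [zero_mul] at h
    exact h01 h.symm
  set n := od f with hn
  set c := f.co n with hc
  have hc0 : c ≠ 0 := co_od_ne_zero hk hf
  let A : EE k C := mono (-n) c⁻¹ (EE809.finDef_const _)
  let B : EE k C := mono n c (EE809.finDef_const _)
  have hBA : B * A = 1 := by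
    simp only [A, B]
    rw [mono_mul_mono _ _ _ _ _ _ (EE809.finDef_const _), one_def]
    congr 1
    · omega
    · exact mul_inv_cancel₀ hc0
  have hco : ∀ m, (A * f).co m = c⁻¹ * f.co (m + n) := by
    intro m
    simp only [A]
    rw [co_mono_mul, sub_neg_eq_add]
  have hcg : ‖c‖ = gn f := norm_co_od hk hf
  have hgpos : 0 < gn f := gn_pos hf
  have h1 : (A * f) * (B * g) = 1 := by linear_combination (f * g) * hBA + h
  have h2 : (th (A * f) * (B * g)).co 0 = 0 := by
    refine dlog_norm hk h1 ?_ ?_ ?_
    · rw [hco, zero_add, ← hc, inv_mul_cancel₀ hc0]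
    · intro m
      rw [hco, norm_mul, norm_inv, hcg, inv_mul_le_one₀ hgpos]
      exact le_gn f _
    · intro m hm
      rw [hco, norm_mul, norm_inv, hcg, inv_mul_lt_one₀ hgpos]
      exact norm_lt_of_lt_od hf (by omega)
  have h3 : (th (A * f) * (B * g)) = th A * B + th f * g :=
    dlog_mul (by rw [mul_comm]; exact hBA) h
  have h4 : (th A * B).co 0 = -(n : C) := by
    simp only [A, B]
    rw [mul_comm, co_mono_mul, co_th, co_mono]
    rw [if_pos (by omega), ← mul_assoc, mul_comm c, mul_assoc, mul_inv_cancel₀ hc0]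
    push_cast
    ring
  rw [h3, co_add, h4] at h2
  linear_combination h2

theorem norm_od_le (hk : DiscNorm k) {f g : EE k C} (h : f * g = 1) :
    ‖(od f : C)‖ ≤ gn (th f * g) := by
  rw [← res_dlog hk h]
  exact le_gn _ 0

end Disc

end Crest.Agent.R013.HU6_522
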