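import Mathlib
import Crest.Agent.R013.HU6_522
import Crest.Agent.R013.HU3_522
import Crest.Agent.R013.RR17_948

/-!
# R013 / HU7: `th (em f) = em (del f) * th (em x)`; bounds for logarithmic derivatives (helper522)

* `dlog_em` : `th (em f) * em f⁻¹ = em (del f / f) * th (em x)`;
* `dlog_disc` : if the divisor of `z` on the disc is divisible by `m` then
  `dlog (em z) = X * dl (nu z) + m * (..)`; hence the two bounds `gn_dlog_le`, `coeff_dl_le`;
* `wE em` : the valuation `gn ∘ em`, `exists_eps` : it is not of type 1.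
-/

set_option autoImplicit false
set_option linter.all false
open Filter Topology
open scoped NNReal
open Crest.Agent.R013.Cell_408

namespace Crest.Agent.R013.HU7_522

open Crest.Agent.R013.RR7_948 Crest.Agent.R013.RR8_948 Crest.Agent.R013.RR14_948
open Crest.Agent.R013.RR13_948
open Crest.Agent.R013.EE809 Crest.Agent.R013.HU6_522 Crest.Agent.R013.HU3_522
open Crest.Agent.R013.HU1_522

section Der

variable {C : Type*} [Field C] {K : Type*} [Field K] [Algebra C K]
  [Algebra (RatFunc C) K] [IsScalarTower C (RatFunc C) K] [Algebra.IsSeparable (RatFunc C) K]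
  {R : Type*} [CommRing R]

/-- a `C`-derivation `K → R` along `em : K → R` is determined by the value at `x` -/
theorem derivation_eq (em : K →+* R) (D : K → R) (hadd : ∀ a b, D (a + b) = D a + D b)
    (hmul : ∀ a b, D (a * b) = em a * D b + em b * D a) (hc : ∀ c : C, D (algebraMap C K c) = 0)
    (f : K) : D f = em (del C K f) * D (xK C K) := by
  letI : Module K R := Module.compHom R em
  letI : Module C R := Module.compHom R (em.comp (algebraMap C K))
  have hsm : ∀ (a : K) (r : R), a • r = em a * r := fun a r => rfl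
  have hsmC : ∀ (a : C) (r : R), a • r = em (algebraMap C K a) * r := fun a r => rfl
  haveI : IsScalarTower C K R := ⟨fun a b r => by
    rw [hsm, hsm, hsmC, Algebra.smul_def, map_mul, mul_assoc]⟩
  let D' : Derivation C K R := Derivation.mk'
    { toFun := D
      map_add' := hadd
      map_smul' := fun c a => by
        rw [Algebra.smul_def, hmul, hc, mul_zero, add_zero, RingHom.id_apply, hsmC] }
    (fun a b => by
      show D (a * b) = a • D b + b • D a
      rw [hmul, hsm, hsm])
  have h1 : D f = D'.liftKaehlerDifferential (KaehlerDifferential.D C K f) :=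
    (Derivation.liftKaehlerDifferential_comp_D D' f).symm
  have h2 : D (xK C K) = D'.liftKaehlerDifferential (KaehlerDifferential.D C K (xK C K)) :=
    (Derivation.liftKaehlerDifferential_comp_D D' (xK C K)).symm
  rw [h1, D_eq, map_smul, hsm, h2]

end Der

variable {k : Type*} [NontriviallyNormedField k] [CompleteSpace k] [IsUltrametricDist k]
variable {C : Type*} [NormedField C] [IsUltrametricDist C] [NormedAlgebra k C] [CharZero C]
  [Algebra.IsAlgebraic k C] [IsAlgClosed C]
  {K : Type*} [Field K]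

/-! ### generalities on embeddings -/

section Emb

variable (em : K →+* EE k C)

theorem em_mul_inv {f : K} (hf : f ≠ 0) : em f * em f⁻¹ = 1 := by
  rw [← map_mul, mul_inv_cancel₀ hf, map_one]

theorem one_ne_zero_EE : (1 : EE k C) ≠ 0 := by
  intro h0
  have := congrArg (fun a => EE.co a 0) h0
  simp [co_one] at this

theorem em_ne_zero {f : K} (hf : f ≠ 0) : em f ≠ 0 := by
  intro h
  have h1 := em_mul_inv em hf
  rw [h, zero_mul] at h1
  exact one_ne_zero_EE h1.symm

/-- the valuation `gn ∘ em` -/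
noncomputable def wE (hk : DiscNorm k) : Valuation K ℝ≥0 where
  toFun f := ⟨gn (em f), gn_nonneg _⟩
  map_zero' := by
    apply NNReal.eq
    show gn (em 0) = 0
    rw [map_zero, gn_zero]
  map_one' := by
    apply NNReal.eq
    show gn (em 1) = 1
    rw [map_one, gn_one]
  map_mul' f g := by
    apply NNReal.eq
    show gn (em (f * g)) = gn (em f) * gn (em g)
    rw [map_mul, gn_mul hk]
  map_add_le_max' f g := by
    rw [← NNReal.coe_le_coe, NNReal.coe_max]
    show gn (em (f + g)) ≤ max (gn (em f)) (gn (em g))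
    rw [map_add]
    exact gn_add_le _ _

theorem wE_apply (hk : DiscNorm k) (f : K) : ((wE em hk f : ℝ≥0) : ℝ) = gn (em f) := rfl

/-- the order `od ∘ em` as a homomorphism -/
noncomputable def odE (hk : DiscNorm k) : Kˣ →* Multiplicative ℤ where
  toFun z := Multiplicative.ofAdd (od (em (z : K)))
  map_one' := by
    rw [Units.val_one, map_one, od_one, ofAdd_zero]
  map_mul' z z' := by
    rw [← ofAdd_add, Units.val_mul, map_mul, od_mul hk (em_ne_zero em z.ne_zero)
      (em_ne_zero em z'.ne_zero)]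

theorem odE_apply (hk : DiscNorm k) (z : Kˣ) :
    Multiplicative.toAdd (odE em hk z) = od (em (z : K)) := rfl

end Emb

/-! ### the derivation -/

section Deriv

variable [Algebra C K] [Algebra (RatFunc C) K] [IsScalarTower C (RatFunc C) K]
  [FiniteDimensional (RatFunc C) K] (em : K →+* EE k C)
  (hc : ∀ c : C, em (algebraMap C K c) = mono 0 c (EE809.finDef_const c))

include hc in
theorem th_em (f : K) : th (em f) = em (del C K f) * th (em (xK C K)) := by
  refine derivation_eq (C := C) em (fun a => th (em a)) (fun a b => ?_) (fun a b => ?_)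
    (fun c => ?_) f
  · rw [map_add, th_add]
  · rw [map_mul, th_mul]
  · rw [hc, th_const]

include hc in
theorem dlog_em (f : K) :
    th (em f) * em f⁻¹ = em (del C K f / f) * th (em (xK C K)) := by
  rw [th_em em hc f, div_eq_mul_inv, map_mul]
  ring

theorem xK_ne_algebraMap (a : C) : xK C K - algebraMap C K a ≠ 0 := by
  intro h
  rw [sub_eq_zero] at h
  have h1 : algebraMap (RatFunc C) K RatFunc.X = algebraMap (RatFunc C) K (algebraMap C (RatFunc C) a) := by
    rw [← IsScalarTower.algebraMap_apply]; exact h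
  have h2 := (algebraMap (RatFunc C) K).injective h1
  have h3 : (RatFunc.X : RatFunc C).eval (RingHom.id C) (a + 1) =
      (algebraMap C (RatFunc C) a).eval (RingHom.id C) (a + 1) := by rw [h2]
  rw [RatFunc.eval_X, RatFunc.algebraMap_eq_C, RatFunc.eval_C] at h3
  simp at h3

include hc in
/-- `em x` is not constant -/
theorem exists_co_ne_zero : ∃ n : ℤ, n ≠ 0 ∧ (em (xK C K)).co n ≠ 0 := by
  by_contra hcon
  push Not at hcon
  set a := (em (xK C K)).co 0 with ha
  apply em_ne_zero em (xK_ne_algebraMap (K := K) a)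
  rw [map_sub, hc]
  ext n
  rw [co_sub, co_mono, co_zero]
  by_cases h : n = 0
  · subst h; rw [if_pos rfl, ← ha, sub_self]
  · rw [if_neg h, hcon n h, sub_zero]

include hc in
/-- the valuation is of type 2 (not of type 1) -/
theorem exists_eps (hk : DiscNorm k) : ∃ ε : ℝ≥0, 0 < ε ∧ ∀ a : C,
    ε ≤ wE em hk (algebraMap (RatFunc C) K RatFunc.X - algebraMap C K a) := by
  obtain ⟨n, hn, hco⟩ := exists_co_ne_zero em hc
  refine ⟨‖(em (xK C K)).co n‖₊, by simpa using hco, fun a => ?_⟩
  rw [← NNReal.coe_le_coe, wE_apply, coe_nnnorm]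
  have h1 : (em (algebraMap (RatFunc C) K RatFunc.X - algebraMap C K a)).co n =
      (em (xK C K)).co n := by
    rw [map_sub, hc, co_sub, co_mono, if_neg hn, sub_zero]; rfl
  rw [← h1]
  exact le_gn _ n

include hc in
theorem th_em_x_ne_zero : th (em (xK C K)) ≠ 0 := by
  obtain ⟨n, hn, hco⟩ := exists_co_ne_zero em hc
  intro h
  have h1 := congrArg (fun a => EE.co a n) h
  simp only [co_th, co_zero] at h1
  rcases mul_eq_zero.mp h1 with h2 | h2
  · exact hn (by exact_mod_cast h2)
  · exact hco h2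

include hc in
theorem wE_algebraMap (hk : DiscNorm k) (c : C) : wE em hk (algebraMap C K c) = ‖c‖₊ := by
  apply NNReal.eq
  rw [wE_apply, hc, gn_mono, coe_nnnorm]

end Deriv

/-! ### the disc -/

section Disc

theorem co_natCast_mul (a : EE k C) (m : ℕ) (n : ℤ) : ((m : EE k C) * a).co n = (m : C) * a.co n := by
  induction m with
  | zero => simp
  | succ m ih => push_cast; rw [add_mul, add_mul, co_add, ih, one_mul, one_mul]

theorem gn_natCast_mul_le (a : EE k C) (m : ℕ) : gn ((m : EE k C) * a) ≤ ‖(m : C)‖ * gn a := gn_le fun n => by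
  rw [co_natCast_mul, norm_mul]
  exact mul_le_mul_of_nonneg_left (le_gn a n) (norm_nonneg _)

theorem gn_bdE_le {f : BD k C} {B : ℝ} (h : ∀ n, ‖PowerSeries.coeff n (f : PowerSeries C)‖ ≤ B) :
    gn (bdE f) ≤ B := gn_le fun n => by
  rw [bdE_apply, co_bdF]
  split_ifs
  · exact h _
  · rw [norm_zero]; exact (norm_nonneg _).trans (h 0)

theorem gn_rootPoly (hk : DiscNorm k) (S : Multiset C) (hS : ∀ τ ∈ S, ‖τ‖ < 1) :
    gn (bdE (⟨(rootPoly S : PowerSeries C), coe_mem_BD _⟩ : BD k C)) = 1 := by
  induction S using Multiset.induction_on with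
  | empty =>
    have : (⟨(rootPoly (0 : Multiset C) : PowerSeries C), coe_mem_BD _⟩ : BD k C) = 1 := by
      apply Subtype.ext
      show (rootPoly (0 : Multiset C) : PowerSeries C) = 1
      rw [rootPoly_zero, Polynomial.coe_one]
    rw [this, map_one, gn_one]
  | cons τ S ih =>
    have h1 : (⟨(rootPoly (τ ::ₘ S) : PowerSeries C), coe_mem_BD _⟩ : BD k C) =
        ⟨((Polynomial.X - Polynomial.C τ : Polynomial C) : PowerSeries C), coe_mem_BD _⟩ *
          ⟨(rootPoly S : PowerSeries C), coe_mem_BD _⟩ := by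
      apply Subtype.ext
      show (rootPoly (τ ::ₘ S) : PowerSeries C) =
        ((Polynomial.X - Polynomial.C τ : Polynomial C) : PowerSeries C) * (rootPoly S : PowerSeries C)
      rw [rootPoly_cons, Polynomial.coe_mul]
    rw [h1, map_mul, gn_mul hk, ih (fun t ht => hS t (Multiset.mem_cons_of_mem ht)), mul_one]
    apply le_antisymm
    · refine gn_bdE_le fun n => ?_
      show ‖PowerSeries.coeff n ((Polynomial.X - Polynomial.C τ : Polynomial C) : PowerSeries C)‖ ≤ 1
      rw [Polynomial.coeff_coe, Polynomial.coeff_sub, Polynomial.coeff_X, Polynomial.coeff_C]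
      refine (HU2_522.norm_sub_le_max522 _ _).trans (max_le ?_ ?_)
      · split_ifs <;> simp
      · split_ifs
        · exact (hS τ (Multiset.mem_cons_self τ S)).le
        · simp
    · refine le_trans ?_ (le_gn _ ((1 : ℕ) : ℤ))
      rw [bdE_apply, co_bdF_nat]
      show 1 ≤ ‖PowerSeries.coeff 1 ((Polynomial.X - Polynomial.C τ : Polynomial C) : PowerSeries C)‖
      rw [Polynomial.coeff_coe, Polynomial.coeff_sub, Polynomial.coeff_X, Polynomial.coeff_C]
      simp

theorem gn_th_rootPoly_le (hk : DiscNorm k) (S : Multiset C) (hS : ∀ τ ∈ S, ‖τ‖ < 1) :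
    gn (th (bdE (⟨(rootPoly S : PowerSeries C), coe_mem_BD _⟩ : BD k C))) ≤ 1 :=
  (gn_th_le _).trans (gn_rootPoly hk S hS).le

/-- the logarithmic derivative of a unit of the disc -/
theorem co_dlog_unit {u : U1 C} (U V : BD k C) (hU : (U : PowerSeries C) = ((u : (PowerSeries C)ˣ) : PowerSeries C))
    (hUV : U * V = 1) (n : ℤ) : (th (bdE U) * bdE V).co n =
      if 0 < n then PowerSeries.coeff (n - 1).toNat (dl u) else 0 := by
  have hVu : (V : PowerSeries C) = (((u : (PowerSeries C)ˣ)⁻¹ : (PowerSeries C)ˣ) : PowerSeries C) := by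
    have h1 : (U : PowerSeries C) * (V : PowerSeries C) = 1 := congrArg Subtype.val hUV
    rw [hU] at h1
    exact (Units.inv_eq_of_mul_eq_one_right h1).symm
  have hNN : NN (th (bdE U)) := fun m hm => by rw [co_th, bdE_apply, co_bdF_neg U hm, mul_zero]
  rcases lt_or_ge n 0 with h | h
  · rw [if_neg (by omega)]
    exact hNN.co_mul_neg (nn_bdF V) n h
  · obtain ⟨m, rfl⟩ := Int.eq_ofNat_of_zero_le h
    have h0 : (th (bdE U) * bdE V).co m = _ := hNN.co_mul_nat (nn_bdF V) m
    rw [h0]
    have h1 : ∑ x ∈ Finset.HasAntidiagonal.antidiagonal m, (th (bdE U)).co x.1 * (bdF V).co x.2 =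
        PowerSeries.coeff m ((PowerSeries.X * PowerSeries.derivative C (U : PowerSeries C)) *
          (V : PowerSeries C)) := by
      rw [PowerSeries.coeff_mul]
      refine Finset.sum_congr rfl fun x _ => ?_
      rw [co_th, bdE_apply, co_bdF_nat, co_bdF_nat]
      congr 1
      rcases Nat.eq_zero_or_pos x.1 with h0 | h0
      · rw [h0]; simp
      · obtain ⟨y, hy⟩ := Nat.exists_eq_succ_of_ne_zero h0.ne'
        rw [hy, Nat.succ_eq_add_one, PowerSeries.coeff_succ_X_mul]
        rw [PowerSeries.coeff_derivative]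
        push_cast
        ring
    rw [h1, mul_assoc, hU, hVu]
    have h2 : PowerSeries.derivative C ((u : (PowerSeries C)ˣ) : PowerSeries C) *
        (((u : (PowerSeries C)ˣ)⁻¹ : (PowerSeries C)ˣ) : PowerSeries C) = dl u := rfl
    rw [h2]
    rcases Nat.eq_zero_or_pos m with h0 | h0
    · subst h0; simp
    · obtain ⟨y, rfl⟩ := Nat.exists_eq_succ_of_ne_zero h0.ne'
      rw [Nat.succ_eq_add_one, PowerSeries.coeff_succ_X_mul, if_pos (by omega)]
      congr 2
      omega

/-- `dlog (em z)` for a divisor divisible by `m` on the disc -/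
theorem dlog_disc (hk : DiscNorm k) (em : K →+* EE k C) {z : K} (hz : z ≠ 0) {c : C} {u : U1 C}
    {S T : Multiset C} {m : ℕ} (hm : m ≠ 0) (h : Pres bdE em z c u (m • S) (m • T)) :
    ∃ A D U V : EE k C, gn A = 1 ∧ gn D = 1 ∧ gn (th A) ≤ 1 ∧ gn (th D) ≤ 1 ∧
      (∀ n, (th U * V).co n = if 0 < n then PowerSeries.coeff (n - 1).toNat (dl u) else 0) ∧
      (th (em z) * em z⁻¹) * (A * D) =
        (th U * V) * (A * D) + (m : EE k C) * (A * th D - D * th A) := by
  obtain ⟨a, b, hab, ha, hb⟩ := h.ex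
  obtain ⟨hu, heq⟩ := Pres.eq bdE em h
  have hpow : ∀ R : Multiset C, bdE (⟨(rootPoly (m • R) : PowerSeries C), coe_mem_BD _⟩ : BD k C) =
      bdE (⟨(rootPoly R : PowerSeries C), coe_mem_BD _⟩ : BD k C) ^ m := by
    intro R
    rw [← map_pow]
    congr 1
    apply Subtype.ext
    show (rootPoly (m • R) : PowerSeries C) = (rootPoly R : PowerSeries C) ^ m
    rw [← Polynomial.coe_pow]
    congr 1
    clear hm h ha hb heq
    induction m with
    | zero => simp [rootPoly_zero]
    | succ m ih => rw [succ_nsmul, rootPoly_add, ih, pow_succ]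
  have hS : ∀ τ ∈ S, ‖τ‖ < 1 := fun τ hτ => ha.lt τ (by
    rw [Multiset.mem_nsmul]; exact ⟨hm, hτ⟩)
  have hT : ∀ τ ∈ T, ‖τ‖ < 1 := fun τ hτ => hb.lt τ (by
    rw [Multiset.mem_nsmul]; exact ⟨hm, hτ⟩)
  rw [hpow, hpow] at heq
  set A : EE k C := bdE (⟨(rootPoly T : PowerSeries C), coe_mem_BD _⟩ : BD k C) with hA
  set D : EE k C := bdE (⟨(rootPoly S : PowerSeries C), coe_mem_BD _⟩ : BD k C) with hD
  obtain ⟨v, hv, huv⟩ := ha.isU.inv
  let U' : BD k C := ⟨((u : (PowerSeries C)ˣ) : PowerSeries C), hu⟩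
  let V' : BD k C := ⟨v, hv.mem⟩
  have hUV' : U' * V' = 1 := Subtype.ext huv
  have hUV : bdE U' * bdE V' = 1 := by rw [← map_mul, hUV', map_one]
  have hgA : gn A = 1 := gn_rootPoly hk T hT
  have hgD : gn D = 1 := gn_rootPoly hk S hS
  have hA0 : A ≠ 0 := by
    intro h0; rw [h0, gn_zero] at hgA; exact zero_ne_one hgA
  refine ⟨A, D, bdE U', bdE V', hgA, hgD, (gn_th_le _).trans hgA.le, (gn_th_le _).trans hgD.le,
    co_dlog_unit U' V' rfl hUV', ?_⟩
  set cc : EE k C := bdE (⟨PowerSeries.C c, C_mem_BD c⟩ : BD k C) with hcc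
  have hccth : th cc = 0 := by
    ext n
    rw [co_th, hcc, bdE_apply, co_bdF, co_zero]
    split_ifs with hn
    · show (n : C) * PowerSeries.coeff n.toNat (PowerSeries.C c) = 0
      rw [PowerSeries.coeff_C]
      split_ifs with h1
      · have : n = 0 := by omega
        rw [this]; simp
      · rw [mul_zero]
    · rw [mul_zero]
  have hcc0 : cc ≠ 0 := by
    intro h0
    have h1 : cc.co ((0 : ℕ) : ℤ) = (0 : EE k C).co ((0 : ℕ) : ℤ) := by rw [h0]
    rw [hcc, bdE_apply, co_bdF_nat, co_zero] at h1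
    apply ha.c0
    simpa using h1
  set U := bdE U' with hU
  set V := bdE V' with hV
  have heq' : em z * A ^ m = cc * U * D ^ m := heq
  obtain ⟨n, rfl⟩ := Nat.exists_eq_succ_of_ne_zero hm
  have hd := congrArg th heq'
  rw [th_mul, th_mul, th_mul, hccth, Nat.succ_eq_add_one, th_pow, th_pow] at hd
  have hE := em_mul_inv em hz
  -- multiply out
  have hkey : (em z * A ^ (n + 1)) * ((th (em z) * em z⁻¹) * (A * D)) =
      (em z * A ^ (n + 1)) * ((th U * V) * (A * D) + (((n + 1 : ℕ) : EE k C)) * (A * th D - D * th A)) := by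
    push_cast
    rw [Nat.succ_eq_add_one] at heq'
    linear_combination (A * D) * hd + (A ^ (n + 1) * th (em z) * A * D) * hE -
      (th U * V * A * D + ((n : EE k C) + 1) * A * th D) * heq' -
      (cc * D ^ (n + 1) * th U * A * D) * hUV
  have hne : em z * A ^ (n + 1) ≠ 0 := by
    refine mul_ne_zero' hk (em_ne_zero em hz) ?_
    clear hkey hd heq' heq hpow h ha hb hm
    induction n with
    | zero => simpa using hA0
    | succ n ih => rw [pow_succ]; exact mul_ne_zero' hk ih hA0
  by_contra hcon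
  have h1 := mul_ne_zero' hk hne (sub_ne_zero.mpr hcon)
  apply h1
  rw [mul_sub, sub_eq_zero]
  exact hkey

/-- upper bound for `dlog` by the unit part -/
theorem gn_dlog_le (hk : DiscNorm k) (em : K →+* EE k C) {z : K} (hz : z ≠ 0) {c : C} {u : U1 C}
    {S T : Multiset C} {m : ℕ} (hm : m ≠ 0) (h : Pres bdE em z c u (m • S) (m • T)) {B : ℝ}
    (hB : ∀ l, ‖PowerSeries.coeff l (dl u)‖ ≤ B) :
    gn (th (em z) * em z⁻¹) ≤ max ‖(m : C)‖ B := by
  obtain ⟨A, D, U, V, hA, hD, hA', hD', hUV, heq⟩ := dlog_disc hk em hz hm h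
  have h1 : gn (A * D) = 1 := by rw [gn_mul hk, hA, hD, one_mul]
  have h2 : gn (th (em z) * em z⁻¹) = gn ((th (em z) * em z⁻¹) * (A * D)) := by
    rw [gn_mul hk _ (A * D), h1, mul_one]
  rw [h2, heq]
  refine (gn_add_le _ _).trans (max_le ?_ ?_)
  · rw [gn_mul hk _ (A * D), h1, mul_one]
    refine le_max_of_le_right (gn_le fun n => ?_)
    rw [hUV]
    split_ifs
    · exact hB _
    · rw [norm_zero]; exact (norm_nonneg _).trans (hB 0)
  · refine le_max_of_le_left ((gn_natCast_mul_le _ _).trans ?_)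
    refine mul_le_of_le_one_right (norm_nonneg _) ((gn_sub_le _ _).trans (max_le ?_ ?_))
    · rw [gn_mul hk, hA, one_mul]; exact hD'
    · rw [gn_mul hk, hD, one_mul]; exact hA'

/-- upper bound for the unit part by `dlog` -/
theorem coeff_dl_le (hk : DiscNorm k) (em : K →+* EE k C) {z : K} (hz : z ≠ 0) {c : C} {u : U1 C}
    {S T : Multiset C} {m : ℕ} (hm : m ≠ 0) (h : Pres bdE em z c u (m • S) (m • T)) (l : ℕ) :
    ‖PowerSeries.coeff l (dl u)‖ ≤ max ‖(m : C)‖ (gn (th (em z) * em z⁻¹)) := by
  obtain ⟨A, D, U, V, hA, hD, hA', hD', hUV, heq⟩ := dlog_disc hk em hz hm h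
  have h1 : gn (A * D) = 1 := by rw [gn_mul hk, hA, hD, one_mul]
  have h2 : gn (th U * V) = gn ((th U * V) * (A * D)) := by
    rw [gn_mul hk _ (A * D), h1, mul_one]
  have h3 : (th U * V) * (A * D) = (th (em z) * em z⁻¹) * (A * D) -
      (m : EE k C) * (A * th D - D * th A) := by rw [heq]; ring
  have h4 : ‖PowerSeries.coeff l (dl u)‖ ≤ gn (th U * V) := by
    have h5 := le_gn (th U * V) ((l : ℤ) + 1)
    rw [hUV, if_pos (by omega)] at h5
    have h6 : ((l : ℤ) + 1 - 1).toNat = l := by omega
    rwa [h6] at h5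
  refine h4.trans ?_
  rw [h2, h3]
  refine (gn_sub_le _ _).trans (max_le ?_ ?_)
  · rw [gn_mul hk _ (A * D), h1, mul_one]
    exact le_max_right _ _
  · refine le_max_of_le_left ((gn_natCast_mul_le _ _).trans ?_)
    refine mul_le_of_le_one_right (norm_nonneg _) ((gn_sub_le _ _).trans (max_le ?_ ?_))
    · rw [gn_mul hk, hA, one_mul]; exact hD'
    · rw [gn_mul hk, hD, one_mul]; exact hA'

end Disc

end Crest.Agent.R013.HU7_522
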