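import Mathlib
import Crest.Agent.R013.HU3_522
import Crest.Agent.R013.RR19_948

/-!
# R013 / HU8: multiplicities of functions on a disc; `ordp tau` is a valuation, a multiple of a place
(helper522)

* `mult tau f` for `0 ≠ f ∈ BD k C`, `le_mult_iff`, `mult_mul`, `mult_add`;
* `ordp_eq_mult`;  `ordv tau : Valuation K ℤᵐ⁰`;
* `ordp_eq_divf` : there are a place `P` and `e : ℤ` with `ordp tau z = e * divf z P` for all `z`.
-/

set_option autoImplicit false
set_option linter.all false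

open scoped NNReal
open PowerSeries

namespace Crest.Agent.R013.HU8_522

open Crest.Agent.R013.Cell_408 Crest.Agent.R013.HU1_522 Crest.Agent.R013.HU2_522
open Crest.Agent.R013.HU3_522

variable {k C : Type*} [NontriviallyNormedField k] [CompleteSpace k] [IsUltrametricDist k]
  [NormedField C] [IsUltrametricDist C] [NormedAlgebra k C] [Algebra.IsAlgebraic k C] [IsAlgClosed C]

theorem pow_mem_BD (τ : C) (m : ℕ) :
    (((Polynomial.X - Polynomial.C τ : Polynomial C) ^ m : Polynomial C) : C⟦X⟧) ∈ BD k C :=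
  coe_mem_BD _

theorem rootPoly_replicate (τ : C) (m : ℕ) :
    rootPoly (Multiset.replicate m τ) = (Polynomial.X - Polynomial.C τ) ^ m := by
  simp [rootPoly]

theorem Dec.le_count [DecidableEq C] {f : C⟦X⟧} {c : C} {u : U1 C} {S : Multiset C}
    (hk : DiscNorm k) (h : Dec k f c u S) {τ : C} (hτ : ‖τ‖ < 1) {m : ℕ} {g : C⟦X⟧}
    (hg : g ∈ BD k C) (hfg : f = (((Polynomial.X - Polynomial.C τ) ^ m : Polynomial C) : C⟦X⟧) * g) :
    m ≤ S.count τ := by
  have hf0 : f ≠ 0 := by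
    rw [h.eq]
    refine mul_ne_zero (mul_ne_zero ?_ (U1.coe_ne_zero u)) (rootPoly_ne_zero S)
    rw [ne_eq, map_eq_zero_iff _ PowerSeries.C_injective]; exact h.c0
  have hg0 : g ≠ 0 := by rintro rfl; rw [mul_zero] at hfg; exact hf0 hfg
  obtain ⟨d, v, T, hT⟩ := exists_dec hk hg hg0
  have h1 : Dec k (((Polynomial.X - Polynomial.C τ) ^ m : Polynomial C) : C⟦X⟧) 1 1
      (Multiset.replicate m τ) := by
    refine ⟨one_ne_zero, fun t ht => by rw [Multiset.eq_of_mem_replicate ht]; exact hτ, ?_, ?_⟩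
    · refine ⟨⊥, inferInstance, fun n => ?_⟩
      show coeff n (1 : C⟦X⟧) ∈ (⊥ : IntermediateField k C)
      rw [coeff_one]
      split_ifs
      · exact one_mem _
      · exact zero_mem _
    · rw [rootPoly_replicate, map_one, one_mul]
      show _ = 1 * _
      rw [one_mul]
  have h2 := h1.mul hT
  rw [← hfg] at h2
  have h3 := (h.unique h2).1
  rw [h3, Multiset.count_add, Multiset.count_replicate_self]
  omega

theorem Dec.exists_factor [DecidableEq C] {f : C⟦X⟧} {c : C} {u : U1 C} {S : Multiset C}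
    (h : Dec k f c u S) {τ : C} {m : ℕ} (hm : m ≤ S.count τ) :
    ∃ g ∈ BD k C, f = (((Polynomial.X - Polynomial.C τ) ^ m : Polynomial C) : C⟦X⟧) * g := by
  have h1 : Multiset.replicate m τ ≤ S := Multiset.le_count_iff_replicate_le.mp hm
  obtain ⟨T, rfl⟩ := Multiset.le_iff_exists_add.mp h1
  refine ⟨PowerSeries.C c * ((u : (C⟦X⟧)ˣ) : C⟦X⟧) * (rootPoly T : C⟦X⟧),
    mul_mem (mul_mem (C_mem_BD c) h.isU.mem) (coe_mem_BD _), ?_⟩
  rw [h.eq, rootPoly_add, rootPoly_replicate, Polynomial.coe_mul]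
  ring

open Classical in
/-- the multiplicity of `tau` as a zero of `f` -/
noncomputable def mult (hk : DiscNorm k) (τ : C) (f : BD k C) : ℕ :=
  if h : (f : C⟦X⟧) = 0 then 0 else
    (exists_dec hk f.2 h).choose_spec.choose_spec.choose.count τ

theorem mult_eq [DecidableEq C] (hk : DiscNorm k) (τ : C) {f : BD k C} {c : C} {u : U1 C}
    {S : Multiset C} (h : Dec k (f : C⟦X⟧) c u S) : mult hk τ f = S.count τ := by
  have hf0 : (f : C⟦X⟧) ≠ 0 := by
    rw [h.eq]
    refine mul_ne_zero (mul_ne_zero ?_ (U1.coe_ne_zero u)) (rootPoly_ne_zero S)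
    rw [ne_eq, map_eq_zero_iff _ PowerSeries.C_injective]; exact h.c0
  unfold mult
  rw [dif_neg hf0]
  have h1 := (exists_dec hk f.2 hf0).choose_spec.choose_spec.choose_spec
  have h2 := (h1.unique h).1
  rw [h2]
  convert rfl

theorem coe_ne_zero {f : BD k C} (hf : f ≠ 0) : (f : C⟦X⟧) ≠ 0 := fun h => hf (Subtype.ext h)

theorem mult_mul (hk : DiscNorm k) (τ : C) {f g : BD k C} (hf : f ≠ 0) (hg : g ≠ 0) :
    mult hk τ (f * g) = mult hk τ f + mult hk τ g := by
  classical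
  obtain ⟨c, u, S, hS⟩ := exists_dec hk f.2 (coe_ne_zero hf)
  obtain ⟨d, v, T, hT⟩ := exists_dec hk g.2 (coe_ne_zero hg)
  rw [mult_eq hk τ hS, mult_eq hk τ hT, mult_eq (f := f * g) hk τ (hS.mul hT), Multiset.count_add]

theorem le_mult_iff (hk : DiscNorm k) {τ : C} (hτ : ‖τ‖ < 1) {f : BD k C} (hf : f ≠ 0) {m : ℕ} :
    m ≤ mult hk τ f ↔ (⟨_, pow_mem_BD τ m⟩ : BD k C) ∣ f := by
  classical
  obtain ⟨c, u, S, hS⟩ := exists_dec hk f.2 (coe_ne_zero hf)
  rw [mult_eq hk τ hS]
  constructor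
  · intro h
    obtain ⟨g, hg, hfg⟩ := Dec.exists_factor hS h
    exact ⟨⟨g, hg⟩, Subtype.ext hfg⟩
  · rintro ⟨g, hg⟩
    exact Dec.le_count hk hS hτ g.2 (congrArg Subtype.val hg)

theorem mult_add (hk : DiscNorm k) {τ : C} (hτ : ‖τ‖ < 1) {f g : BD k C} (hf : f ≠ 0) (hg : g ≠ 0)
    (hfg : f + g ≠ 0) : min (mult hk τ f) (mult hk τ g) ≤ mult hk τ (f + g) := by
  rw [le_mult_iff hk hτ hfg]
  exact dvd_add ((le_mult_iff hk hτ hf).mp (min_le_left _ _))
    ((le_mult_iff hk hτ hg).mp (min_le_right _ _))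

section Frac

variable (hk : DiscNorm k) {Q : Type*} [CommRing Q] (j : BD k C →+* Q) (hj : Function.Injective j)
  {K : Type*} [Field K] (ι : K →+* Q) (hι : ∀ z, ∃ a b : BD k C, b ≠ 0 ∧ ι z * j b = j a)

theorem BD_mul_ne_zero {a b : BD k C} (ha : a ≠ 0) (hb : b ≠ 0) : a * b ≠ 0 := by
  intro h
  have h1 : (a : C⟦X⟧) * (b : C⟦X⟧) = 0 := congrArg Subtype.val h
  rcases mul_eq_zero.mp h1 with h2 | h2
  · exact ha (Subtype.ext h2)
  · exact hb (Subtype.ext h2)

include hj in
theorem num_ne_zero {z : K} (hz : z ≠ 0) {a b : BD k C} (hb : b ≠ 0) (hab : ι z * j b = j a) :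
    a ≠ 0 := by
  have hjb : j b ≠ 0 := (map_ne_zero_iff j hj).mpr hb
  rintro rfl
  apply hjb
  have h1 : ι z⁻¹ * ι z = 1 := by rw [← map_mul, inv_mul_cancel₀ hz, map_one]
  calc j b = ι z⁻¹ * (ι z * j b) := by rw [← mul_assoc, h1, one_mul]
    _ = 0 := by rw [hab, map_zero, mul_zero]

theorem ordp_eq_mult {z : Kˣ} {a b : BD k C} (hb : b ≠ 0) (hab : ι z * j b = j a) (τ : C) :
    Multiplicative.toAdd (ordp hk j hj ι hι τ z) = (mult hk τ a : ℤ) - mult hk τ b := by
  classical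
  have ha : a ≠ 0 := num_ne_zero j hj ι z.ne_zero hb hab
  obtain ⟨c, u, S, T, hp⟩ := exists_pres hk j hj ι hι z.ne_zero
  obtain ⟨a', b', hab', ha', hb'⟩ := hp.ex
  rw [ordp_eq hk j hj ι hι hp τ, ← mult_eq hk τ ha', ← mult_eq hk τ hb']
  have hb'0 : b' ≠ 0 := by
    rintro rfl
    have h1 := hb'.eq
    have h2 : (PowerSeries.C (1 : C) * (((1 : U1 C) : (C⟦X⟧)ˣ) : C⟦X⟧) * (rootPoly T : C⟦X⟧)) ≠ 0 := by
      refine mul_ne_zero (mul_ne_zero ?_ (U1.coe_ne_zero 1)) (rootPoly_ne_zero T)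
      rw [map_one]; exact one_ne_zero
    exact h2 h1.symm
  have ha'0 : a' ≠ 0 := num_ne_zero j hj ι z.ne_zero hb'0 hab'
  have h1 : a * b' = a' * b := by
    apply hj
    rw [map_mul, map_mul, ← hab, ← hab']
    ring
  have h2 := mult_mul hk τ ha hb'0
  rw [h1, mult_mul hk τ ha'0 hb] at h2
  omega

theorem ordp_add {τ : C} (hτ : ‖τ‖ < 1) {z z' w : Kˣ} (h : (w : K) = z + z') :
    min (Multiplicative.toAdd (ordp hk j hj ι hι τ z)) (Multiplicative.toAdd (ordp hk j hj ι hι τ z'))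
      ≤ Multiplicative.toAdd (ordp hk j hj ι hι τ w) := by
  obtain ⟨a, b, hb, hab⟩ := hι z
  obtain ⟨a', b', hb', hab'⟩ := hι z'
  have ha := num_ne_zero j hj ι z.ne_zero hb hab
  have ha' := num_ne_zero j hj ι z'.ne_zero hb' hab'
  have hbb := BD_mul_ne_zero hb hb'
  have hw : ι w * j (b * b') = j (a * b' + a' * b) := by
    rw [h, map_add, map_add, map_mul, map_mul, map_mul, ← hab, ← hab']; ring
  have hs := num_ne_zero j hj ι w.ne_zero hbb hw
  have h1 := mult_add hk hτ (BD_mul_ne_zero ha hb') (BD_mul_ne_zero ha' hb) hs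
  rw [ordp_eq_mult hk j hj ι hι hb hab, ordp_eq_mult hk j hj ι hι hb' hab',
    ordp_eq_mult hk j hj ι hι hbb hw]
  rw [mult_mul hk τ ha hb', mult_mul hk τ ha' hb] at h1
  rw [mult_mul hk τ hb hb']
  push_cast
  rcases min_le_iff.mp h1 with h2 | h2
  · exact (min_le_left _ _).trans (by omega)
  · exact (min_le_right _ _).trans (by omega)

open WithZero Classical in
/-- `ordp tau` as a valuation -/
noncomputable def ordv (τ : C) (hτ : ‖τ‖ < 1) : Valuation K ℤᵐ⁰ where
  toFun z := if h : z = 0 then 0 else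
    exp (-(Multiplicative.toAdd (ordp hk j hj ι hι τ (Units.mk0 z h))))
  map_zero' := by simp
  map_one' := by
    rw [dif_neg one_ne_zero]
    have : Units.mk0 (1 : K) one_ne_zero = 1 := by ext; rfl
    rw [this, map_one]
    rfl
  map_mul' x y := by
    by_cases hx : x = 0
    · subst hx; simp
    by_cases hy : y = 0
    · subst hy; simp
    rw [dif_neg hx, dif_neg hy, dif_neg (mul_ne_zero hx hy), ← exp_add]
    have : Units.mk0 (x * y) (mul_ne_zero hx hy) = Units.mk0 x hx * Units.mk0 y hy := by ext; rfl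
    rw [this, map_mul, toAdd_mul]
    congr 1
    ring
  map_add_le_max' x y := by
    by_cases hx : x = 0
    · subst hx; simp
    by_cases hy : y = 0
    · subst hy; simp
    by_cases hxy : x + y = 0
    · rw [dif_pos hxy]; exact zero_le
    rw [dif_neg hx, dif_neg hy, dif_neg hxy, le_max_iff, exp_le_exp, exp_le_exp]
    have h1 := ordp_add hk j hj ι hι hτ (z := Units.mk0 x hx) (z' := Units.mk0 y hy)
      (w := Units.mk0 (x + y) hxy) rfl
    rcases min_le_iff.mp h1 with h2 | h2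
    · left; omega
    · right; omega

open WithZero Classical in
theorem ordv_apply {τ : C} (hτ : ‖τ‖ < 1) (z : Kˣ) :
    ordv hk j hj ι hι τ hτ (z : K) = exp (-(Multiplicative.toAdd (ordp hk j hj ι hι τ z))) := by
  show (if h : (z : K) = 0 then 0 else
    exp (-(Multiplicative.toAdd (ordp hk j hj ι hι τ (Units.mk0 (z : K) h))))) = _
  rw [dif_neg z.ne_zero, Units.mk0_val]

end Frac

section Place

open WithZero
open Crest.Agent.R013.RR7_948 Crest.Agent.R013.RR8_948 Crest.Agent.R013.RR9_948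
open Crest.Agent.R013.RR11_948 Crest.Agent.R013.RR12_948 Crest.Agent.R013.RR13_948

variable [CharZero C] (hk : DiscNorm k) {Q : Type*} [CommRing Q] (j : BD k C →+* Q)
  (hj : Function.Injective j)
  {K : Type*} [Field K] [Algebra C K] [Algebra (RatFunc C) K] [IsScalarTower C (RatFunc C) K]
  [FiniteDimensional (RatFunc C) K]
  (ι : K →+* Q) (hι : ∀ z, ∃ a b : BD k C, b ≠ 0 ∧ ι z * j b = j a)
  (hιc : ∀ c : C, ι (algebraMap C K c) = j ⟨PowerSeries.C c, C_mem_BD c⟩)

include hιc in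
theorem ordp_const {τ : C} (hτ : ‖τ‖ < 1) {c : C} (hc : c ≠ 0) :
    ordv hk j hj ι hι τ hτ (algebraMap C K c) = 1 := by
  classical
  have hc' : algebraMap C K c ≠ 0 := (map_ne_zero _).mpr hc
  have hp : Pres j ι (algebraMap C K c) c 1 0 0 := by
    refine ⟨⟨PowerSeries.C c, C_mem_BD c⟩, 1, by rw [map_one, mul_one, hιc], ?_, ?_⟩
    · refine ⟨hc, fun τ h => absurd h (Multiset.notMem_zero τ), ?_, ?_⟩
      · refine ⟨⊥, inferInstance, fun n => ?_⟩
        show coeff n (1 : C⟦X⟧) ∈ (⊥ : IntermediateField k C)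
        rw [coeff_one]
        split_ifs
        · exact one_mem _
        · exact zero_mem _
      · rw [rootPoly_zero, Polynomial.coe_one, mul_one]
        show PowerSeries.C c = PowerSeries.C c * 1
        rw [mul_one]
    · refine ⟨one_ne_zero, fun τ h => absurd h (Multiset.notMem_zero τ), ?_, ?_⟩
      · refine ⟨⊥, inferInstance, fun n => ?_⟩
        show coeff n (1 : C⟦X⟧) ∈ (⊥ : IntermediateField k C)
        rw [coeff_one]
        split_ifs
        · exact one_mem _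
        · exact zero_mem _
      · rw [rootPoly_zero, Polynomial.coe_one, mul_one, map_one, one_mul]; rfl
  have h1 := ordv_apply hk j hj ι hι hτ (Units.mk0 _ hc')
  rw [Units.val_mk0] at h1
  rw [h1, ordp_eq hk j hj ι hι (z := Units.mk0 _ hc') hp τ]
  simp

include hιc in
/-- `ordp tau` is a multiple of the order at a place -/
theorem ordp_eq_divf {τ : C} (hτ : ‖τ‖ < 1) : ∃ (P : Pl C K) (e : ℤ), ∀ z : Kˣ,
    Multiplicative.toAdd (ordp hk j hj ι hι τ z) = e * divf (k := C) (z : K) P := by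
  by_cases hnt : ∃ z : Kˣ, Multiplicative.toAdd (ordp hk j hj ι hι τ z) ≠ 0
  · obtain ⟨z0, hz0⟩ := hnt
    obtain ⟨P, hP⟩ := exists_place (k := C) (ordv hk j hj ι hι τ hτ)
      (fun c hc => ordp_const hk j hj ι hι hιc hτ hc)
      ⟨z0, by
        rw [ordv_apply]; exact exp_ne_zero, by
        rw [ordv_apply, ← exp_zero, ne_eq, exp_inj]; omega⟩
    obtain ⟨t, ht0, ht⟩ := exists_v_eq P (-1)
    refine ⟨P, Multiplicative.toAdd (ordp hk j hj ι hι τ (Units.mk0 t ht0)), fun z => ?_⟩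
    have h1 := eq_zpow_of_isEquiv hP ht (v_eq z.ne_zero P)
    have h2 := ordv_apply hk j hj ι hι hτ z
    have h3 := ordv_apply hk j hj ι hι hτ (Units.mk0 t ht0)
    rw [Units.val_mk0] at h3
    rw [h2, h3, ← exp_zsmul, exp_inj, smul_eq_mul, neg_neg] at h1
    linarith
  · push Not at hnt
    obtain ⟨P⟩ : Nonempty (Pl C K) := by
      obtain ⟨D, hD⟩ := RR19_948.exists_degD_gt (k := C) (K := K) 0
      by_contra hcon
      rw [not_nonempty_iff] at hcon
      have : D = 0 := by ext P; exact hcon.elim P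
      rw [this, degD_zero] at hD
      exact lt_irrefl _ hD
    exact ⟨P, 0, fun z => by rw [hnt z, zero_mul]⟩

include hιc in
/-- divisibility of the divisor gives divisibility of the multiplicities on the disc -/
theorem dvd_ordp {m : ℤ} {z : Kˣ} (h : ∀ P : Pl C K, m ∣ divf (k := C) (z : K) P) {τ : C}
    (hτ : ‖τ‖ < 1) : m ∣ Multiplicative.toAdd (ordp hk j hj ι hι τ z) := by
  obtain ⟨P, e, hP⟩ := ordp_eq_divf hk j hj ι hι hιc hτ
  rw [hP z]
  exact (h P).mul_left e

end Place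

end Crest.Agent.R013.HU8_522
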