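import Mathlib
import Crest.Agent.R013.HU4_522
import Crest.Agent.R013.HU5_522
import Crest.Agent.R013.HU7_522
import Crest.Agent.R013.HU8_522

/-!
# R013 / HU9: the differential `omega_u` of a disc cell; VANISHING and NONVANISHING (helper522)

Data: `C` algebraically closed of characteristic `0`, algebraic over the complete discretely valued
field `k`; `K` a function field over `C` (948); `em : K →+* EE k C` (809) `C`-linear; a DISC END is
an `em` with values in `Frac BD` (`hι`).  `u ∈ PC p Kˣ` with `p^n ∣ div h_n` for all representatives.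

* `hu_disc` : `em h_n * (B ^ p^n) = c * nu h_n * (A ^ p^n)`, `A, B` monic polynomials with roots in
  the open disc;
* `om_zero_of` : `gn (dlog (em h_n)) ≤ |p^n|` for all `n` implies `omega u = 0` on the disc;
* `slope_eq_zero` : **if `omega u = 0` on ONE disc end `em1`, then the slope of `u` at EVERY end `em2`
  vanishes.**
-/

set_option autoImplicit false
set_option linter.all false
open Filter Topology
open scoped NNReal
open Crest.Agent.R013.Cell_408

namespace Crest.Agent.R013.HU9_522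

open Crest.Agent.R013.RR7_948 Crest.Agent.R013.RR8_948 Crest.Agent.R013.RR11_948
open Crest.Agent.R013.RR14_948
open Crest.Agent.R013.RR13_948
open Crest.Agent.R013.EE809 Crest.Agent.R013.HU6_522 Crest.Agent.R013.HU3_522
open Crest.Agent.R013.HU1_522 Crest.Agent.R013.HU7_522 Crest.Agent.R013.PC_588
open Crest.Agent.R013.HU8_522 Crest.Agent.R013.HU4_522 Crest.Agent.R013.HU2_522

section PAdic

variable {C : Type*} [NormedField C] [IsUltrametricDist C] [CharZero C] {p : ℕ} [Fact p.Prime]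

theorem norm_eq_one_of_not_dvd (hp : ‖(p : C)‖ < 1) {a : ℤ} (h : ¬ (p : ℤ) ∣ a) : ‖(a : C)‖ = 1 := by
  have h1 : IsCoprime (p : ℤ) a :=
    (Nat.prime_iff_prime_int.mp (Fact.out : p.Prime)).coprime_iff_not_dvd.mpr h
  obtain ⟨x, y, hxy⟩ := h1
  refine le_antisymm (IsUltrametricDist.norm_intCast_le_one C a) ?_
  by_contra hlt
  rw [not_le] at hlt
  have h2 : ((1 : ℤ) : C) = (x : C) * (p : C) + (y : C) * (a : C) := by
    rw [← hxy]; push_cast; ring
  have h3 : ‖((1 : ℤ) : C)‖ < 1 := by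
    rw [h2]
    refine lt_of_le_of_lt (IsUltrametricDist.norm_add_le_max _ _) (max_lt ?_ ?_)
    · rw [norm_mul]
      exact lt_of_le_of_lt (mul_le_of_le_one_left (norm_nonneg _)
        (IsUltrametricDist.norm_intCast_le_one C x)) hp
    · rw [norm_mul]
      exact lt_of_le_of_lt (mul_le_of_le_one_left (norm_nonneg _)
        (IsUltrametricDist.norm_intCast_le_one C y)) hlt
  rw [Int.cast_one, norm_one] at h3
  exact lt_irrefl _ h3

theorem norm_p_pos : 0 < ‖(p : C)‖ := by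
  rw [norm_pos_iff]
  exact_mod_cast (Fact.out : p.Prime).ne_zero

theorem dvd_of_norm_le (hp : ‖(p : C)‖ < 1) (M : ℕ) {a : ℤ} (h : ‖(a : C)‖ ≤ ‖(p : C)‖ ^ M) :
    ((p : ℤ) ^ M) ∣ a := by
  induction M generalizing a with
  | zero => simp
  | succ M ih =>
    have h1 : (p : ℤ) ∣ a := by
      by_contra hcon
      rw [norm_eq_one_of_not_dvd hp hcon] at h
      have : ‖(p : C)‖ ^ (M + 1) < 1 := pow_lt_one₀ (norm_nonneg _) hp (Nat.succ_ne_zero M)
      exact absurd h (not_le.mpr this)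
    obtain ⟨b, rfl⟩ := h1
    have h2 : ‖(b : C)‖ ≤ ‖(p : C)‖ ^ M := by
      push_cast at h
      rw [norm_mul, pow_succ, mul_comm (‖(p : C)‖ ^ M)] at h
      exact le_of_mul_le_mul_left h norm_p_pos
    rw [pow_succ, mul_comm]
    exact mul_dvd_mul_left _ (ih h2)

theorem norm_le_of_dvd {M : ℕ} {a : ℤ} (h : ((p : ℤ) ^ M) ∣ a) : ‖(a : C)‖ ≤ ‖(p : C)‖ ^ M := by
  obtain ⟨b, rfl⟩ := h
  push_cast
  rw [norm_mul, norm_pow]
  exact mul_le_of_le_one_right (by positivity) (IsUltrametricDist.norm_intCast_le_one C b)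

end PAdic

variable {k : Type*} [NontriviallyNormedField k] [CompleteSpace k] [IsUltrametricDist k]
variable {C : Type*} [NormedField C] [IsUltrametricDist C] [NormedAlgebra k C] [CharZero C]
  [Algebra.IsAlgebraic k C] [IsAlgClosed C]
  {K : Type*} [Field K] [Algebra C K] [Algebra (RatFunc C) K] [IsScalarTower C (RatFunc C) K]
  [FiniteDimensional (RatFunc C) K]
  {p : ℕ} [Fact p.Prime]

/-- divisor condition: every representative of `u` modulo `p^n`-th powers has divisor divisible by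
`p^n` (`u ∈ T_p`) -/
def DivP (C : Type*) [Field C] {K : Type*} [Field K] [Algebra C K] [Algebra (RatFunc C) K]
    [IsScalarTower C (RatFunc C) K] [FiniteDimensional (RatFunc C) K]
    [Algebra.IsSeparable (RatFunc C) K] {p : ℕ} [Fact p.Prime] (u : PC p Kˣ) : Prop :=
  ∀ n (h : Kˣ), Rep u n h → ∀ P : Pl C K, ((p ^ n : ℕ) : ℤ) ∣ divf (k := C) (h : K) P

theorem bdE_C (hc0 : C) : (bdE ⟨PowerSeries.C hc0, C_mem_BD hc0⟩ : EE k C) =
    mono 0 hc0 (EE809.finDef_const hc0) := by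
  ext n
  rw [bdE_apply, co_bdF, co_mono]
  show (if 0 ≤ n then PowerSeries.coeff n.toNat (PowerSeries.C hc0) else 0) = _
  rw [PowerSeries.coeff_C]
  by_cases h : n = 0
  · subst h; simp
  · rw [if_neg h]
    split_ifs with h1 h2
    · exfalso; omega
    · rfl
    · rfl

section Disc

variable (hk : DiscNorm k) (em : K →+* EE k C)
  (hc : ∀ c : C, em (algebraMap C K c) = mono 0 c (EE809.finDef_const c))
  (hι : ∀ z, ∃ a b : BD k C, b ≠ 0 ∧ em z * bdE b = bdE a)

/-- the unit part on the disc end `em` -/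
noncomputable def nuE : Kˣ →* U1 C := nu hk bdE bdE_injective em hι

theorem EE_cancel (hk : DiscNorm k) (a b q : EE k C) (hq : q ≠ 0) (h : a * q = b * q) : a = b := by
  by_contra hcon
  exact mul_ne_zero' hk (sub_ne_zero.mpr hcon) hq (by rw [sub_mul, h, sub_self])

include hc in
/-- presentation with divisible divisor -/
theorem exists_pres_div {m : ℕ} (hm : m ≠ 0) {z : Kˣ}
    (hz : ∀ P : Pl C K, (m : ℤ) ∣ divf (k := C) (z : K) P) :
    ∃ c S T, Pres bdE em (z : K) c (nuE hk em hι z) (m • S) (m • T) := by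
  classical
  obtain ⟨c, S, T, h⟩ := nu_pres hk bdE bdE_injective em hι z
  have hιc : ∀ c : C, em (algebraMap C K c) = bdE ⟨PowerSeries.C c, C_mem_BD c⟩ := fun c => by
    rw [hc, bdE_C]
  have hcount : ∀ τ, (m : ℤ) ∣ (S.count τ : ℤ) - T.count τ := by
    intro τ
    by_cases hτ : ‖τ‖ < 1
    · rw [← ordp_eq hk bdE bdE_injective em hι h τ]
      exact dvd_ordp hk bdE bdE_injective em hι hιc hz hτ
    · obtain ⟨a, b, -, ha, hb⟩ := h.ex
      have h1 : τ ∉ S := fun hmem => hτ (ha.lt τ hmem)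
      have h2 : τ ∉ T := fun hmem => hτ (hb.lt τ hmem)
      rw [Multiset.count_eq_zero_of_notMem h1, Multiset.count_eq_zero_of_notMem h2]
      simp
  obtain ⟨S', T', h'⟩ := Pres.divisible bdE em h (EE_cancel hk) bdE_injective hm hcount
  exact ⟨c, S', T', h'⟩

include hc in
/-- **`h_n` on the disc**: `em z * B ^ m = c * nu z * A ^ m` with `A, B` products of `T - tau` -/
theorem hu_disc {m : ℕ} (hm : m ≠ 0) {z : Kˣ}
    (hz : ∀ P : Pl C K, (m : ℤ) ∣ divf (k := C) (z : K) P) :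
    ∃ (c : C) (S T : Multiset C), c ≠ 0 ∧ (∀ τ ∈ S, ‖τ‖ < 1) ∧ (∀ τ ∈ T, ‖τ‖ < 1) ∧
      ∃ hu : ((nuE hk em hι z : (PowerSeries C)ˣ) : PowerSeries C) ∈ BD k C,
      em z * (bdE ⟨(rootPoly T : PowerSeries C), coe_mem_BD _⟩) ^ m =
        bdE ⟨PowerSeries.C c, C_mem_BD c⟩ * bdE ⟨_, hu⟩ *
          (bdE ⟨(rootPoly S : PowerSeries C), coe_mem_BD _⟩) ^ m := by
  obtain ⟨c, S, T, h⟩ := exists_pres_div hk em hc hι hm hz
  obtain ⟨a, b, hab, ha, hb⟩ := h.ex
  obtain ⟨hu, heq⟩ := Pres.eq bdE em h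
  have hpow : ∀ R : Multiset C, bdE (⟨(rootPoly (m • R) : PowerSeries C), coe_mem_BD _⟩ : BD k C) =
      bdE (⟨(rootPoly R : PowerSeries C), coe_mem_BD _⟩ : BD k C) ^ m := by
    intro R
    rw [← map_pow]
    congr 1
    apply Subtype.ext
    show (rootPoly (m • R) : PowerSeries C) = (rootPoly R : PowerSeries C) ^ m
    rw [← Polynomial.coe_pow]
    congr 1
    clear hm hz h ha hb heq
    induction m with
    | zero => simp [rootPoly_zero]
    | succ m ih => rw [succ_nsmul, rootPoly_add, ih, pow_succ]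
  rw [hpow, hpow] at heq
  exact ⟨c, S, T, ha.c0, fun τ hτ => ha.lt τ (by rw [Multiset.mem_nsmul]; exact ⟨hm, hτ⟩),
    fun τ hτ => hb.lt τ (by rw [Multiset.mem_nsmul]; exact ⟨hm, hτ⟩), hu, heq⟩

/-! ### over a complete field `F ⊇ C` -/

variable {F : Type*} [NormedField F] [IsUltrametricDist F] [CharZero F] [CompleteSpace F]
  (σ : C →+* F) (hσ : ∀ a, ‖σ a‖ = ‖a‖)

/-- `nu` with values in `U1 F` -/
noncomputable def nuF : Kˣ →* U1 F := (mapU σ hσ).comp (nuE hk em hι)

theorem norm_coeff_dl_nuF (z : Kˣ) (l : ℕ) :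
    ‖PowerSeries.coeff l (dl (nuF hk em hι σ hσ z))‖ =
      ‖PowerSeries.coeff l (dl (nuE hk em hι z))‖ := by
  show ‖PowerSeries.coeff l (dl (mapU σ hσ (nuE hk em hι z)))‖ = _
  rw [dl_mapU, PowerSeries.coeff_map, hσ]

include hσ in
theorem norm_p_F : ‖(p : F)‖ = ‖(p : C)‖ := by rw [← hσ (p : C), map_natCast]

/-- **`H_u`** of the disc end `em` -/
noncomputable def HuE (u : PC p Kˣ) : U1 F := Hu (nuF hk em hι σ hσ) u

/-- **`omega_u`** of the disc end `em` -/
noncomputable def OmE (u : PC p Kˣ) : PowerSeries F := Om (nuF hk em hι σ hσ) u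

variable (hp : ‖(p : C)‖ < 1)

include hp hc in
/-- M3-clause: small logarithmic derivatives give `omega_u = 0` -/
theorem om_zero_of {u : PC p Kˣ} (hu : DivP C u)
    (h : ∀ n, ∃ z : Kˣ, Rep u n z ∧ gn (th (em (z : K)) * em (z : K)⁻¹) ≤ ‖(p : C)‖ ^ n) :
    OmE hk em hι σ hσ u = 0 := by
  have hpF : ‖(p : F)‖ < 1 := by rw [norm_p_F σ hσ]; exact hp
  refine (Om_eq_zero_iff hpF _).mpr fun n => ?_
  obtain ⟨z, hz, hb⟩ := h n
  refine ⟨z, hz, fun l => ?_⟩
  have hpn : p ^ n ≠ 0 := pow_ne_zero _ (Fact.out : p.Prime).ne_zero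
  obtain ⟨c, S, T, hpres⟩ := exists_pres_div hk em hc hι hpn (hu n z hz)
  rw [norm_coeff_dl_nuF, norm_p_F σ hσ]
  refine (coeff_dl_le hk em z.ne_zero hpn hpres l).trans (max_le ?_ hb)
  push_cast
  rw [norm_pow]

include hp hc in
/-- if `omega_u = 0` then all logarithmic derivatives are small -/
theorem dlog_le_of_om_zero {u : PC p Kˣ} (hu : DivP C u) (h0 : OmE hk em hι σ hσ u = 0) {n : ℕ}
    {z : Kˣ} (hz : Rep u n z) : gn (th (em (z : K)) * em (z : K)⁻¹) ≤ ‖(p : C)‖ ^ n := by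
  have hpF : ‖(p : F)‖ < 1 := by rw [norm_p_F σ hσ]; exact hp
  have hpn : p ^ n ≠ 0 := pow_ne_zero _ (Fact.out : p.Prime).ne_zero
  obtain ⟨c, S, T, hpres⟩ := exists_pres_div hk em hc hι hpn (hu n z hz)
  refine (gn_dlog_le hk em z.ne_zero hpn hpres (B := ‖(p : C)‖ ^ n) fun l => ?_).trans
    (max_le ?_ le_rfl)
  · rw [← norm_coeff_dl_nuF hk em hι σ hσ, ← norm_p_F (p := p) σ hσ]
    exact norm_dl_le_of_Om_eq_zero hpF _ h0 hz l
  · push_cast
    rw [norm_pow]

end Disc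

/-- **NONVANISHING, core**: if the logarithmic derivatives of the representatives are `≤ |p^n|` at one
end `em1`, then the slope vanishes at every end `em2`. -/
theorem slope_eq_zero_of_dlog (hk : DiscNorm k) (hp : ‖(p : C)‖ < 1) (em1 em2 : K →+* EE k C)
    (hc1 : ∀ c : C, em1 (algebraMap C K c) = mono 0 c (EE809.finDef_const c))
    (hc2 : ∀ c : C, em2 (algebraMap C K c) = mono 0 c (EE809.finDef_const c))
    {u : PC p Kˣ} (hu : DivP C u)
    (h : ∀ n (z : Kˣ), Rep u n z → gn (th (em1 (z : K)) * em1 (z : K)⁻¹) ≤ ‖(p : C)‖ ^ n) :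
    PC.toPadic (odE em2 hk) u = 0 := by
  rw [PC.toPadic_eq_zero_iff]
  intro n g hg
  -- comparison
  obtain ⟨c, hcpos, H⟩ := HU5_522.dlog_compare ((wE em1 hk).comap (algebraMap C K))
    (wE em1 hk) (wE em2 hk) (fun a => rfl)
    (fun a => by rw [Valuation.comap_apply, wE_algebraMap em1 hc1, wE_algebraMap em2 hc2])
    (exists_eps em1 hc1 hk) (exists_eps em2 hc2 hk)
  set G1 := gn (th (em1 (xK C K))) with hG1
  set G2 := gn (th (em2 (xK C K))) with hG2
  have hG1pos : 0 < G1 := gn_pos (th_em_x_ne_zero em1 hc1)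
  have hG2pos : 0 < G2 := gn_pos (th_em_x_ne_zero em2 hc2)
  have hcpos' : (0 : ℝ) < c := by exact_mod_cast hcpos
  set M : ℝ := G2 / (c * G1) with hM
  have hMpos : 0 < M := by positivity
  -- the bound at level `N`
  have key : ∀ N : ℕ, ∃ z : Kˣ, Rep u N z ∧ ‖(od (em2 (z : K)) : C)‖ ≤ M * ‖(p : C)‖ ^ N := by
    intro N
    obtain ⟨z, hz⟩ := exists_rep u N
    have hpn : p ^ N ≠ 0 := pow_ne_zero _ (Fact.out : p.Prime).ne_zero
    obtain ⟨f, hf0, hf⟩ := H (p ^ N) (z : K) hpn z.ne_zero (hu N z hz)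
    let z' : Kˣ := z * (Units.mk0 f hf0) ^ (p ^ N)
    have hz' : Rep u N z' := hz.eq_iff.2 ⟨_, rfl⟩
    have hval : (z' : K) = (z : K) * f ^ (p ^ N) := by
      simp only [z']; push_cast; rfl
    refine ⟨z', hz', ?_⟩
    have h1 := h N z' hz'
    rw [dlog_em em1 hc1, gn_mul hk, ← hG1] at h1
    have h2 := norm_od_le hk (em_mul_inv em2 z'.ne_zero)
    rw [dlog_em em2 hc2, gn_mul hk, ← hG2] at h2
    rw [← hval] at hf
    have h3 : (c : ℝ) * gn (em2 (del C K (z' : K) / (z' : K))) ≤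
        gn (em1 (del C K (z' : K) / (z' : K))) := by
      have := NNReal.coe_le_coe.mpr hf
      rwa [NNReal.coe_mul, wE_apply, wE_apply] at this
    refine h2.trans ?_
    set a := gn (em1 (del C K (z' : K) / (z' : K)))
    set b := gn (em2 (del C K (z' : K) / (z' : K)))
    have h4 : b ≤ a / c := by rw [le_div_iff₀ hcpos', mul_comm]; exact h3
    have h5 : a ≤ ‖(p : C)‖ ^ N / G1 := by rw [le_div_iff₀ hG1pos]; exact h1
    calc b * G2 ≤ (‖(p : C)‖ ^ N / G1 / c) * G2 := by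
          refine mul_le_mul_of_nonneg_right (h4.trans ?_) hG2pos.le
          exact div_le_div_of_nonneg_right h5 hcpos'.le
      _ = M * ‖(p : C)‖ ^ N := by rw [hM]; field_simp
  -- choose `N` large
  have hlim : Tendsto (fun N : ℕ => M * ‖(p : C)‖ ^ N) atTop (𝓝 0) := by
    have := (tendsto_pow_atTop_nhds_zero_of_lt_one (norm_nonneg (p : C)) hp).const_mul M
    rwa [mul_zero] at this
  have hpos : 0 < ‖(p : C)‖ ^ n := pow_pos norm_p_pos n
  obtain ⟨N, hN1, hN2⟩ := (((Metric.tendsto_nhds.1 hlim) _ hpos).and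
    (eventually_ge_atTop n)).exists
  obtain ⟨z, hz, hzb⟩ := key N
  have h1 : ‖(od (em2 (z : K)) : C)‖ ≤ ‖(p : C)‖ ^ n := by
    refine hzb.trans ?_
    rw [Real.dist_eq, sub_zero] at hN1
    exact (le_abs_self _).trans hN1.le
  have h2 := dvd_of_norm_le hp n h1
  obtain ⟨y, hy⟩ := (hz.of_le hN2).eq_iff.1 hg
  rw [hy, map_mul, map_pow, toAdd_mul, toAdd_pow, odE_apply]
  refine dvd_add h2 ?_
  rw [nsmul_eq_mul]
  exact dvd_mul_of_dvd_left (by push_cast; exact dvd_rfl) _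

/-- **NONVANISHING**: if `omega_u = 0` on the disc end `em1`, the slope of `u` vanishes at every end -/
theorem slope_eq_zero (hk : DiscNorm k) (hp : ‖(p : C)‖ < 1) (em1 em2 : K →+* EE k C)
    (hc1 : ∀ c : C, em1 (algebraMap C K c) = mono 0 c (EE809.finDef_const c))
    (hc2 : ∀ c : C, em2 (algebraMap C K c) = mono 0 c (EE809.finDef_const c))
    (hι : ∀ z, ∃ a b : BD k C, b ≠ 0 ∧ em1 z * bdE b = bdE a)
    {F : Type*} [NormedField F] [IsUltrametricDist F] [CharZero F] [CompleteSpace F]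
    (σ : C →+* F) (hσ : ∀ a, ‖σ a‖ = ‖a‖)
    {u : PC p Kˣ} (hu : DivP C u) (h0 : OmE hk em1 hι σ hσ u = 0) :
    PC.toPadic (odE em2 hk) u = 0 :=
  slope_eq_zero_of_dlog hk hp em1 em2 hc1 hc2 hu fun n z hz =>
    dlog_le_of_om_zero hk em1 hc1 hι σ hσ hp hu h0 hz

end Crest.Agent.R013.HU9_522
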