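import Mathlib
import Crest.Agent.R013.HU9_522

/-!
# R013 / HU11: equivariance of `nu`, `H_u`, `omega_u` (helper522)

`tau : C →ₐ[k] C` isometric; `EEmap tau : EE k C →+* EE k C`, `BDmap tau : BD k C →+* BD k C`
(coefficientwise).  If `em' (s z) = EEmap tau (em z)` then `nuE em' (s z) = mapU tau (nuE em z)` and
`HuE em' (s u) = mapU tauF (HuE em u)` for an isometric extension `tauF : F → F` of `tau`.
-/

set_option autoImplicit false
set_option linter.all false
open Filter Topology
open scoped NNReal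
open Crest.Agent.R013.Cell_408

namespace Crest.Agent.R013.HU11_522

open Crest.Agent.R013.EE809 Crest.Agent.R013.HU6_522 Crest.Agent.R013.HU3_522
open Crest.Agent.R013.HU1_522 Crest.Agent.R013.HU7_522 Crest.Agent.R013.PC_588
open Crest.Agent.R013.HU8_522 Crest.Agent.R013.HU4_522 Crest.Agent.R013.HU2_522
open Crest.Agent.R013.HU9_522

variable {k : Type*} [NontriviallyNormedField k] [CompleteSpace k] [IsUltrametricDist k]
variable {C : Type*} [NormedField C] [IsUltrametricDist C] [NormedAlgebra k C]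

theorem FinDef.map {ι : Type*} {a : ι → C} (h : FinDef k a) (τ : C →ₐ[k] C) :
    FinDef k fun i => τ (a i) := by
  obtain ⟨L, hL, h1⟩ := h
  refine ⟨L.map τ, ?_, fun i => ⟨a i, h1 i, rfl⟩⟩
  exact Module.Finite.equiv (IntermediateField.equivMap L τ).toLinearEquiv

section Maps

variable (τ : C →ₐ[k] C) (hτ : ∀ a, ‖τ a‖ = ‖a‖)

theorem continuous_of_norm (hτ : ∀ a, ‖τ a‖ = ‖a‖) : Continuous τ := by
  have h : Isometry τ := AddMonoidHomClass.isometry_of_norm τ hτ
  exact h.continuous

/-- coefficientwise action on two-sided series -/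
noncomputable def EEf (a : EE k C) : EE k C :=
  mk' (fun n => τ (a.co n)) (FinDef.map a.fd τ)
    (by
      obtain ⟨M, hM⟩ := a.bd
      exact ⟨M, fun n => by rw [hτ]; exact hM n⟩)
    (by
      have h := ((continuous_of_norm τ hτ).tendsto 0).comp a.lim
      rw [map_zero] at h
      exact h)

theorem co_EEf (a : EE k C) (n : ℤ) : (EEf τ hτ a).co n = τ (a.co n) := rfl

noncomputable def EEmap : EE k C →+* EE k C where
  toFun := EEf τ hτ
  map_one' := by
    ext n
    rw [co_EEf, co_one]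
    split_ifs <;> simp
  map_mul' a b := by
    ext n
    rw [co_EEf, co_mul, co_mul]
    have h := (summable_conv a b n).hasSum.map τ (continuous_of_norm τ hτ)
    rw [← h.tsum_eq]
    refine tsum_congr fun i => ?_
    simp only [Function.comp_apply]
    rw [map_mul, co_EEf, co_EEf]
  map_zero' := by
    ext n
    rw [co_EEf, co_zero, map_zero]
  map_add' a b := by
    ext n
    rw [co_EEf, co_add, map_add, co_add, co_EEf, co_EEf]

theorem co_EEmap (a : EE k C) (n : ℤ) : (EEmap τ hτ a).co n = τ (a.co n) := rfl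

theorem gn_EEmap (a : EE k C) : gn (EEmap τ hτ a) = gn a := by
  unfold gn
  simp only [co_EEmap, hτ]

theorem od_EEmap (a : EE k C) : od (EEmap τ hτ a) = od a := by
  unfold od
  rw [gn_EEmap]
  simp only [co_EEmap, hτ]

theorem th_EEmap (a : EE k C) : th (EEmap τ hτ a) = EEmap τ hτ (th a) := by
  ext n
  rw [co_th, co_EEmap, co_EEmap, co_th, map_mul, map_intCast]

theorem EEmap_mono (n : ℤ) (c : C) (hc : FinDef k (fun _ : Unit => c)) :
    EEmap τ hτ (mono n c hc) = mono n (τ c) (FinDef.map hc τ) := by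
  ext m
  rw [co_EEmap, co_mono, co_mono]
  split_ifs <;> simp

variable [Algebra.IsAlgebraic k C]

/-- coefficientwise action on the functions of the disc -/
noncomputable def BDmap : BD k C →+* BD k C where
  toFun f := ⟨PowerSeries.map (τ : C →+* C) (f : PowerSeries C), by
    obtain ⟨h1, M, hM⟩ := f.2
    refine ⟨?_, M, fun n => ?_⟩
    · exact FinDef.map h1 τ
    · rw [PowerSeries.coeff_map]
      show ‖τ _‖ ≤ M
      rw [hτ]; exact hM n⟩
  map_one' := Subtype.ext (map_one _)
  map_mul' f g := Subtype.ext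
    (map_mul (PowerSeries.map (τ : C →+* C)) (f : PowerSeries C) (g : PowerSeries C))
  map_zero' := Subtype.ext (map_zero _)
  map_add' f g := Subtype.ext
    (map_add (PowerSeries.map (τ : C →+* C)) (f : PowerSeries C) (g : PowerSeries C))

theorem BDmap_val (f : BD k C) :
    ((BDmap τ hτ f : BD k C) : PowerSeries C) = PowerSeries.map (τ : C →+* C) (f : PowerSeries C) := rfl

theorem BDmap_injective : Function.Injective (BDmap τ hτ) := by
  intro f g h
  apply Subtype.ext
  ext n
  have h1 := congrArg (fun a : BD k C => PowerSeries.coeff n (a : PowerSeries C)) h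
  simp only [BDmap_val, PowerSeries.coeff_map] at h1
  exact (τ : C →+* C).injective h1

theorem EEmap_bdE (f : BD k C) : EEmap τ hτ (bdE f) = bdE (BDmap τ hτ f) := by
  ext n
  rw [co_EEmap, bdE_apply, bdE_apply, co_bdF, co_bdF, BDmap_val]
  split_ifs
  · rw [PowerSeries.coeff_map]; rfl
  · rw [map_zero]

theorem map_rootPoly (S : Multiset C) :
    PowerSeries.map (τ : C →+* C) (rootPoly S : PowerSeries C) = (rootPoly (S.map τ) : PowerSeries C) := by
  have h1 : rootPoly (S.map τ) = (rootPoly S).map (τ : C →+* C) := by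
    unfold rootPoly
    rw [Polynomial.map_multiset_prod, Multiset.map_map, Multiset.map_map]
    congr 1
    refine Multiset.map_congr rfl fun t _ => ?_
    simp
  rw [h1]
  ext n
  rw [PowerSeries.coeff_map, Polynomial.coeff_coe, Polynomial.coeff_coe, Polynomial.coeff_map]

theorem Dec.map {f : PowerSeries C} {c : C} {u : U1 C} {S : Multiset C} (h : Dec k f c u S) :
    Dec k (PowerSeries.map (τ : C →+* C) f) (τ c) (mapU (τ : C →+* C) hτ u) (S.map τ) where
  c0 := (map_ne_zero _).mpr h.c0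
  lt t ht := by
    obtain ⟨s, hs, rfl⟩ := Multiset.mem_map.mp ht
    rw [hτ]; exact h.lt s hs
  fin := by
    rw [mapU_val]
    exact FinDef.map h.fin τ
  eq := by
    rw [h.eq, map_mul, map_mul, map_rootPoly, mapU_val, PowerSeries.map_C]
    rfl

variable [IsAlgClosed C] {K K' : Type*} [Field K] [Field K'] (em : K →+* EE k C)
  (em' : K' →+* EE k C) {z : K} {z' : K'} (hz : em' z' = EEmap τ hτ (em z))

include hz in
theorem Pres.map {c : C} {u : U1 C} {S T : Multiset C} (h : Pres bdE em z c u S T) :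
    Pres bdE em' z' (τ c) (mapU (τ : C →+* C) hτ u) (S.map τ) (T.map τ) := by
  obtain ⟨a, b, hab, ha, hb⟩ := h.ex
  refine ⟨BDmap τ hτ a, BDmap τ hτ b, ?_, Dec.map τ hτ ha, ?_⟩
  · rw [hz, ← EEmap_bdE, ← EEmap_bdE, ← map_mul, hab]
  · have := Dec.map τ hτ hb
    rw [map_one, map_one] at this
    exact this

end Maps

section Equivariance

variable [Algebra.IsAlgebraic k C] [IsAlgClosed C] [CharZero C] (hk : DiscNorm k)
  (τ : C →ₐ[k] C) (hτ : ∀ a, ‖τ a‖ = ‖a‖)
  {K K' : Type*} [Field K] [Field K'] (em : K →+* EE k C) (em' : K' →+* EE k C)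
  (hι : ∀ z, ∃ a b : BD k C, b ≠ 0 ∧ em z * bdE b = bdE a)
  (hι' : ∀ z, ∃ a b : BD k C, b ≠ 0 ∧ em' z * bdE b = bdE a)
  (s : Kˣ →* K'ˣ) (hs : ∀ z : Kˣ, em' (s z : K') = EEmap τ hτ (em (z : K)))

include hs in
theorem nuE_map (z : Kˣ) : nuE hk em' hι' (s z) = mapU (τ : C →+* C) hτ (nuE hk em hι z) := by
  obtain ⟨c, S, T, h⟩ := nu_pres hk bdE bdE_injective em hι z
  exact nu_eq hk bdE bdE_injective em' hι' (Pres.map τ hτ em em' (hs z) h)

variable {F : Type*} [NormedField F] [IsUltrametricDist F] [CharZero F] [CompleteSpace F]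
  (σ : C →+* F) (hσ : ∀ a, ‖σ a‖ = ‖a‖) (τF : F →+* F) (hτF : ∀ a, ‖τF a‖ = ‖a‖)
  (hτσ : ∀ a, τF (σ a) = σ (τ a)) {p : ℕ} [Fact p.Prime] (hp : ‖(p : C)‖ < 1)

include hs hτσ in
omit [CharZero F] [CompleteSpace F] in
theorem nuF_map (z : Kˣ) :
    nuF hk em' hι' σ hσ (s z) = mapU τF hτF (nuF hk em hι σ hσ z) := by
  show mapU σ hσ (nuE hk em' hι' (s z)) = mapU τF hτF (mapU σ hσ (nuE hk em hι z))
  rw [nuE_map hk τ hτ em em' hι hι' s hs]
  apply U1.ext'
  rw [mapU_val, mapU_val, mapU_val, mapU_val]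
  ext n
  rw [PowerSeries.coeff_map, PowerSeries.coeff_map, PowerSeries.coeff_map, PowerSeries.coeff_map, hτσ]
  rfl

include hs hτσ hp in
/-- **equivariance of `H_u`** -/
theorem HuE_map (u : PC p Kˣ) :
    HuE hk em' hι' σ hσ (PC.map s u) = mapU τF hτF (HuE hk em hι σ hσ u) := by
  have hpF : ‖(p : F)‖ < 1 := by rw [norm_p_F σ hσ]; exact hp
  exact Hu_map hpF _ s _ τF hτF (nuF_map hk τ hτ em em' hι hι' s hs σ hσ τF hτF hτσ) u

include hs hτσ hp hτF in
/-- **equivariance of `omega_u`** -/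
theorem OmE_map (u : PC p Kˣ) :
    OmE hk em' hι' σ hσ (PC.map s u) = PowerSeries.map τF (OmE hk em hι σ hσ u) := by
  have hpF : ‖(p : F)‖ < 1 := by rw [norm_p_F σ hσ]; exact hp
  exact Om_map hpF _ s _ τF hτF (nuF_map hk τ hτ em em' hι hι' s hs σ hσ τF hτF hτσ) u

end Equivariance

end Crest.Agent.R013.HU11_522
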