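import Crest.Agent.R013.Disc_702
import Crest.Agent.R013.HU11_522
import Crest.Agent.R013.EE4_809
import Crest.Agent.R013.Desc1_372

/-!
# R013 / DE6 (helper561): the disc end of a rational place, over the algebraic closure

`k` complete, discretely valued, `C/k` algebraic, `K₀/k` a function field, `K = K₀ ⊗_k C`
(`CE k C K₀ K` of 372), `P` a rational place of `K₀` with uniformiser `t`.  For `ρ ∈ k`, `ρ ≠ 0`
small there is `em : K →+* EE k C` with `em c = c`, `em t = ρ T`, with values in `Frac BD`,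
equivariant for the isometric automorphisms of `C/k`.
-/

set_option autoImplicit false
set_option linter.all false

open scoped NNReal

namespace Crest.Agent.R013.DE6_561

open Crest.Agent.R013.Cell_408 Crest.Agent.R013.EE809 Crest.Agent.R013.HU6_522
open Crest.Agent.R013.HU9_522 Crest.Agent.R013.HU11_522 Crest.Agent.R013.Desc_372
open Crest.Agent.R013.KAS2_940 Crest.Agent.R013.KAS3_940 Crest.Agent.R013.Lau_702

section pushout

variable {k C K₀ K : Type*} [Field k] [Field C] [Field K₀] [Field K] [Algebra k C] [Algebra k K₀]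
    [Algebra C K] [Algebra K₀ K] [Algebra k K] [IsScalarTower k C K] [IsScalarTower k K₀ K]

/-- universal property of the constant extension, for ring homomorphisms -/
theorem exists_hom [h : CE k C K₀ K] {A : Type*} [CommRing A] (f : C →+* A) (g : K₀ →+* A)
    (hfg : ∀ a : k, f (algebraMap k C a) = g (algebraMap k K₀ a)) :
    ∃ φ : K →+* A, (∀ c, φ (algebraMap C K c) = f c) ∧ ∀ x, φ (algebraMap K₀ K x) = g x := by
  have := h.po
  letI : Algebra k A := (f.comp (algebraMap k C)).toAlgebra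
  let f' : C →ₐ[k] A := { f with commutes' := fun _ => rfl }
  let g' : K₀ →ₐ[k] A := { g with commutes' := fun a => (hfg a).symm }
  refine ⟨(Algebra.pushoutDesc (R := k) (S := C) (R' := K₀) K f' g'
    (fun _ _ => mul_comm _ _)).toRingHom, fun c => ?_, fun x => ?_⟩
  · exact Algebra.pushoutDesc_left (R := k) (S := C) (R' := K₀) K f' g'
      (fun _ _ => mul_comm _ _) c
  · exact Algebra.pushoutDesc_right (R := k) (S := C) (R' := K₀) K f' g'
      (fun _ _ => mul_comm _ _) x

end pushout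

section scale

variable {k : Type*} [NontriviallyNormedField k] [CompleteSpace k] [IsUltrametricDist k]
  {C : Type*} [NormedField C] [IsUltrametricDist C] [NormedAlgebra k C] [Algebra.IsAlgebraic k C]

/-- `f(T) ↦ f(ρ T)` with coefficients in `C` -/
noncomputable def scH (k C : Type*) [NontriviallyNormedField k] [NormedField C] [NormedAlgebra k C]
    (ρ : k) : PowerSeries k →+* PowerSeries C :=
  (PowerSeries.map (algebraMap k C)).comp (PowerSeries.rescale ρ)

theorem coeff_scH (ρ : k) (f : PowerSeries k) (n : ℕ) :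
    PowerSeries.coeff n (scH k C ρ f) = algebraMap k C (ρ ^ n * PowerSeries.coeff n f) := by
  rw [scH, RingHom.comp_apply, PowerSeries.coeff_map, PowerSeries.coeff_rescale]

theorem scH_mem (ρ : k) (hρ : 0 < ‖ρ‖) {f : PowerSeries k} (hf : f ∈ bsub (K := k) ‖ρ‖ hρ) :
    scH k C ρ f ∈ BD k C := by
  obtain ⟨M, hM⟩ := hf
  refine ⟨⟨⊥, inferInstance, fun n => ?_⟩, M, fun n => ?_⟩
  · dsimp only
    rw [coeff_scH]
    exact IntermediateField.algebraMap_mem _ _
  · rw [coeff_scH, norm_algebraMap', norm_mul, norm_pow, mul_comm]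
    exact hM n

/-- the ring homomorphism `f(T) ↦ f(ρ T)` from the series bounded at radius `|ρ|` -/
noncomputable def scB (C : Type*) [NormedField C] [IsUltrametricDist C] [NormedAlgebra k C]
    [Algebra.IsAlgebraic k C] (ρ : k) (hρ : 0 < ‖ρ‖) : bsub (K := k) ‖ρ‖ hρ →+* BD k C :=
  ((scH k C ρ).comp (bsub (K := k) ‖ρ‖ hρ).subtype).codRestrict (BD k C)
    (fun f => scH_mem ρ hρ f.2)

theorem scB_val (ρ : k) (hρ : 0 < ‖ρ‖) (f : bsub (K := k) ‖ρ‖ hρ) :
    ((scB C ρ hρ f : BD k C) : PowerSeries C) = scH k C ρ (f : PowerSeries k) := rfl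

theorem scB_injective (ρ : k) (hρ : 0 < ‖ρ‖) : Function.Injective (scB C ρ hρ) := by
  intro f g h
  apply Subtype.ext
  ext n
  have h1 := congrArg (fun a : BD k C => PowerSeries.coeff n (a : PowerSeries C)) h
  simp only [scB_val, coeff_scH] at h1
  have h2 := (algebraMap k C).injective h1
  exact mul_left_cancel₀ (pow_ne_zero n (norm_pos_iff.mp hρ)) h2

theorem BDmap_scB (τ : C →ₐ[k] C) (hτ : ∀ a, ‖τ a‖ = ‖a‖) (ρ : k) (hρ : 0 < ‖ρ‖)
    (f : bsub (K := k) ‖ρ‖ hρ) : BDmap τ hτ (scB C ρ hρ f) = scB C ρ hρ f := by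
  apply Subtype.ext
  ext n
  rw [BDmap_val, PowerSeries.coeff_map, scB_val, coeff_scH]
  exact τ.commutes _

theorem bdE_ne_zero {f : BD k C} (hf : f ≠ 0) : (bdE f : EE k C) ≠ 0 := by
  intro h
  exact hf (bdE_injective (by rw [h, map_zero]))

end scale

section em

variable {k : Type*} [NontriviallyNormedField k] [CompleteSpace k] [IsUltrametricDist k]
  {C : Type*} [NormedField C] [IsUltrametricDist C] [NormedAlgebra k C]
  {K₀ K : Type*} [Field K₀] [Field K] [Algebra k K₀]
    [Algebra C K] [Algebra K₀ K] [Algebra k K] [IsScalarTower k C K] [IsScalarTower k K₀ K]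

/-- the properties of the disc end `em` of a rational place of `K₀` with parameter `t = ρ T` -/
structure IsEm [Algebra.IsAlgebraic k C] [CE k C K₀ K] (em : K →+* EE k C) (t : K₀) (ρ : k) :
    Prop where
  ρ0 : ρ ≠ 0
  const : ∀ c : C, em (algebraMap C K c) = mono 0 c (EE809.finDef_const c)
  par : em (algebraMap K₀ K t) = mono 1 (algebraMap k C ρ) (EE809.finDef_const _)
  frac : ∀ z, ∃ a b : BD k C, b ≠ 0 ∧ em z * bdE b = bdE a
  /-- elements of `K₀` are quotients of series with coefficients in `k` -/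
  frac₀ : ∀ z : K₀, ∃ a b : BD k C, b ≠ 0 ∧ em (algebraMap K₀ K z) * bdE b = bdE a ∧
    (∀ n, PowerSeries.coeff n (a : PowerSeries C) ∈ Set.range (algebraMap k C)) ∧
    ∀ n, PowerSeries.coeff n (b : PowerSeries C) ∈ Set.range (algebraMap k C)
  equiv : ∀ (s : C ≃ₐ[k] C) (hs : ∀ a, ‖(s : C →ₐ[k] C) a‖ = ‖a‖) (z : K),
    em (CE.lift k C K₀ K s z) = EEmap (s : C →ₐ[k] C) hs (em z)

/-- the elements of `K` which are quotients of bounded series form a subring -/
theorem frac_subring [Algebra.IsAlgebraic k C] [IsAlgClosed C] (hk : DiscNorm k) (em : K →+* EE k C) :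
    ∃ S : Subring K, ∀ z, z ∈ S ↔ ∃ a b : BD k C, b ≠ 0 ∧ em z * bdE b = bdE a := by
  have hmul : ∀ {b b' : BD k C}, b ≠ 0 → b' ≠ 0 → b * b' ≠ 0 := by
    intro b b' hb hb' h
    have h1 := mul_ne_zero' hk (bdE_ne_zero hb) (bdE_ne_zero hb')
    rw [← map_mul, h, map_zero] at h1
    exact h1 rfl
  refine ⟨{ carrier := {z | ∃ a b : BD k C, b ≠ 0 ∧ em z * bdE b = bdE a}
            mul_mem' := ?_, one_mem' := ?_, add_mem' := ?_, zero_mem' := ?_, neg_mem' := ?_ },
      fun z => Iff.rfl⟩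
  · rintro x y ⟨a, b, hb, h⟩ ⟨a', b', hb', h'⟩
    refine ⟨a * a', b * b', hmul hb hb', ?_⟩
    rw [map_mul, map_mul, map_mul, ← h, ← h']
    ring
  · exact ⟨1, 1, one_ne_zero, by rw [map_one, map_one, one_mul]⟩
  · rintro x y ⟨a, b, hb, h⟩ ⟨a', b', hb', h'⟩
    refine ⟨a * b' + a' * b, b * b', hmul hb hb', ?_⟩
    rw [map_mul, map_add, map_add, map_mul, map_mul, ← h, ← h']
    ring
  · exact ⟨0, 1, one_ne_zero, by rw [map_zero, map_zero, zero_mul]⟩
  · rintro x ⟨a, b, hb, h⟩
    refine ⟨-a, b, hb, ?_⟩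
    rw [map_neg, map_neg, ← h]
    ring

variable [Algebra (RatFunc k) K₀] [IsScalarTower k (RatFunc k) K₀]
  [FiniteDimensional (RatFunc k) K₀]

/-- **the disc end of a rational place** -/
theorem exists_em [CharZero k] [Algebra.IsAlgebraic k C] [IsAlgClosed C] (hk : DiscNorm k) [h : CE k C K₀ K]
    {P : Valuation K₀ ℝ≥0} {t : K₀} (hP : RP (k := k) P t) :
    ∃ r0 : ℝ, 0 < r0 ∧ ∀ ρ : k, ρ ≠ 0 → ‖ρ‖ ≤ r0 → ∃ em : K →+* EE k C, IsEm em t ρ := by
  haveI : Fact (DiscNorm k) := ⟨hk⟩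
  haveI : CharZero C := charZero_of_injective_algebraMap (algebraMap k C).injective
  obtain ⟨j, h1, h2, h3, h4, h5, r0, hr0, hr⟩ := Disc_702.exists_disc_emb hP
  refine ⟨r0, hr0, fun ρ hρ0 hρ => ?_⟩
  have hρpos : 0 < ‖ρ‖ := norm_pos_iff.mpr hρ0
  obtain ⟨jr, e1, e2, e3⟩ := hr ‖ρ‖ hρpos hρ
  let e0 : bsub (K := k) ‖ρ‖ hρpos →+* EE k C := bdE.comp (scB C ρ hρpos)
  have he0 : Function.Injective e0 := bdE_injective.comp (scB_injective ρ hρpos)
  let e : Good3_940.FDisc k ‖ρ‖ hρpos →+* EE k C :=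
    IsFractionRing.lift (A := bsub (K := k) ‖ρ‖ hρpos) (K := Good3_940.FDisc k ‖ρ‖ hρpos)
      (L := EE k C) he0
  have hea : ∀ f, e (algebraMap _ (Good3_940.FDisc k ‖ρ‖ hρpos) f) = bdE (scB C ρ hρpos f) :=
    fun f => IsFractionRing.lift_algebraMap he0 f
  have hagree : ∀ a : k, algebraMap C (EE k C) (algebraMap k C a) =
      (e.comp jr) (algebraMap k K₀ a) := by
    intro a
    rw [RingHom.comp_apply, e2, hea]
    ext n
    rw [co_algebraMap, bdE_apply, co_bdF, scB_val]
    by_cases hn : n = 0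
    · subst hn
      rw [if_pos rfl, if_pos le_rfl, coeff_scH]
      simp
    · rw [if_neg hn]
      split_ifs with h0
      · rw [coeff_scH, PowerSeries.coeff_C, if_neg (by omega), mul_zero, map_zero]
      · rfl
  obtain ⟨em, hem1, hem2⟩ := exists_hom (k := k) (C := C) (K₀ := K₀) (K := K)
    (algebraMap C (EE k C)) (e.comp jr) hagree
  have hfr : ∀ z : K₀, ∃ a b : bsub (K := k) ‖ρ‖ hρpos, b ≠ 0 ∧
      em (algebraMap K₀ K z) * bdE (scB C ρ hρpos b) = bdE (scB C ρ hρpos a) := by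
    intro z
    obtain ⟨a, b, hb, hab⟩ := IsFractionRing.div_surjective (A := bsub (K := k) ‖ρ‖ hρpos) (jr z)
    have hb0 : b ≠ 0 := nonZeroDivisors.ne_zero hb
    refine ⟨a, b, hb0, ?_⟩
    rw [hem2, RingHom.comp_apply, ← hab, map_div₀, hea, hea, div_mul_cancel₀]
    exact bdE_ne_zero (fun h0 => hb0 (scB_injective ρ hρpos (by rw [h0, map_zero])))
  have hsc : ∀ {b : bsub (K := k) ‖ρ‖ hρpos}, b ≠ 0 → scB C ρ hρpos b ≠ 0 := fun {b} hb h0 =>
    hb (scB_injective ρ hρpos (by rw [h0, map_zero]))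
  refine ⟨em, hρ0, fun c => ?_, ?_, ?_, ?_, ?_⟩
  · rw [hem1]; rfl
  · rw [hem2, RingHom.comp_apply, e3, hea]
    ext n
    rw [bdE_apply, co_bdF, scB_val, co_mono]
    by_cases hn : n = 1
    · subst hn
      rw [if_pos (by norm_num), if_pos rfl, coeff_scH]
      simp
    · rw [if_neg hn]
      split_ifs with h0
      · rw [coeff_scH, PowerSeries.coeff_X, if_neg (by omega), mul_zero, map_zero]
      · rfl
  · obtain ⟨S, hS⟩ := frac_subring hk em
    intro z
    rw [← hS]
    obtain ⟨n, c, g, rfl⟩ := CE.exists_sum k C K₀ K z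
    refine S.sum_mem fun i _ => S.mul_mem ?_ ?_
    · rw [hS]
      refine ⟨⟨PowerSeries.C (c i), C_mem_BD (c i)⟩, 1, one_ne_zero, ?_⟩
      rw [map_one, mul_one, bdE_C, hem1]
      rfl
    · rw [hS]
      obtain ⟨a, b, hb, hab⟩ := hfr (g i)
      exact ⟨_, _, hsc hb, hab⟩
  · intro z
    obtain ⟨a, b, hb, hab⟩ := hfr z
    refine ⟨_, _, hsc hb, hab, fun n => ?_, fun n => ?_⟩
    · rw [scB_val, coeff_scH]; exact ⟨_, rfl⟩
    · rw [scB_val, coeff_scH]; exact ⟨_, rfl⟩
  · intro s hs z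
    have key : (em.comp ((CE.lift k C K₀ K s : K ≃ₐ[K₀] K) : K →+* K)) =
        (EEmap (s : C →ₐ[k] C) hs).comp em := by
      refine CE.ringHom_ext k C K₀ K (fun c => ?_) (fun g => ?_)
      · rw [RingHom.comp_apply, RingHom.comp_apply]
        show em (CE.lift k C K₀ K s (algebraMap C K c)) = _
        rw [CE.lift_algebraMap, hem1, hem1]
        ext n
        rw [co_EEmap, co_algebraMap, co_algebraMap]
        split_ifs
        · rfl
        · rw [map_zero]
      · rw [RingHom.comp_apply, RingHom.comp_apply]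
        show em (CE.lift k C K₀ K s (algebraMap K₀ K g)) = _
        rw [AlgEquiv.commutes]
        obtain ⟨a, b, hb, hab⟩ := hfr g
        have h6 := congrArg (EEmap (s : C →ₐ[k] C) hs) hab
        rw [map_mul, EEmap_bdE, EEmap_bdE, BDmap_scB, BDmap_scB, ← hab] at h6
        exact (mul_right_cancel₀ (bdE_ne_zero (hsc hb)) h6).symm
    exact congrArg (fun φ : K →+* EE k C => φ z) key

end em

end Crest.Agent.R013.DE6_561
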