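import Crest.Agent.R013.DescP1_429
import Crest.Agent.R013.RR12_948
import Crest.Agent.R013.CE1_280

/-!
# R013 / DescP2 (helper429): places of `K = K₀ ⊗_k C` and the levels `K₀[k']`

`comapPl s P` (valuation `f ↦ v_P (s f)`), `Inv k' P`: `P` is fixed by `Gam K₀ K k'`.
-/

set_option autoImplicit false
set_option linter.all false

namespace Crest.Agent.R013.DescP_429

open Module WithZero Crest.Agent.R013.Desc_372
open Crest.Agent.R013.RR7_948 Crest.Agent.R013.RR8_948 Crest.Agent.R013.RR9_948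
open Crest.Agent.R013.RR11_948 Crest.Agent.R013.RR12_948

section places

variable (k C : Type*) {K₀ K : Type*} [Field k] [Field C] [Field K₀] [Field K] [Algebra k C]
    [Algebra k K₀]
    [Algebra C K] [Algebra K₀ K] [Algebra k K] [IsScalarTower k C K] [IsScalarTower k K₀ K]

/-- the place `f ↦ v_P (s f)` -/
noncomputable def comapPl [Normal k C] (s : K ≃ₐ[K₀] K) (P : Pl C K) : Pl C K where
  v := P.v.comap (s : K →+* K)
  const := fun c hc => by
    show P.v (s (algebraMap C K c)) = 1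
    rw [← CE.algebraMap_res k C K₀ K]
    exact P.const _ (by simpa using hc)
  surj := fun y => by
    obtain ⟨t, ht⟩ := P.surj y
    exact ⟨s.symm t, by show P.v (s (s.symm t)) = y; rw [s.apply_symm_apply]; exact ht⟩

theorem comapPl_v [Normal k C] (s : K ≃ₐ[K₀] K) (P : Pl C K) (f : K) :
    (comapPl k C s P).v f = P.v (s f) := rfl

theorem comapPl_mul [Normal k C] (s t : K ≃ₐ[K₀] K) (P : Pl C K) :
    comapPl k C (s * t) P = comapPl k C t (comapPl k C s P) := rfl

theorem comapPl_one [Normal k C] (P : Pl C K) : comapPl k C (1 : K ≃ₐ[K₀] K) P = P := by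
  ext f; rfl

/-- `P` is fixed by `Gam K₀ K k'` -/
def Inv {k C : Type*} (K₀ : Type*) {K : Type*} [Field k] [Field C] [Field K₀] [Field K]
    [Algebra k C] [Algebra k K₀]
    [Algebra C K] [Algebra K₀ K] [Algebra k K] [IsScalarTower k C K] [IsScalarTower k K₀ K]
    (k' : IntermediateField k C) (P : Pl C K) : Prop :=
  ∀ s ∈ CE.Gam K₀ K k', ∀ f : K, P.v (s f) = P.v f

variable {k C}

theorem Inv.mono {k' k'' : IntermediateField k C} (h : k' ≤ k'') {P : Pl C K}
    (hP : Inv K₀ k' P) : Inv K₀ k'' P := fun s hs => hP s (CE.Gam_anti h hs)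

theorem inv_iff [Normal k C] {k' : IntermediateField k C} {P : Pl C K} :
    Inv K₀ k' P ↔ ∀ s ∈ CE.Gam K₀ K k', comapPl k C s P = P := by
  constructor
  · intro h s hs
    ext f
    exact h s hs f
  · intro h s hs f
    rw [← comapPl_v k C s P f, h s hs]

variable [Algebra (RatFunc C) K] [IsScalarTower C (RatFunc C) K] [FiniteDimensional (RatFunc C) K]
  [Algebra.IsSeparable (RatFunc C) K]

/-- a function with exactly one pole pins down the place -/
theorem inv_of_pole [Normal k C] {k' : IntermediateField k C} {P : Pl C K} {h : K}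
    (h1 : 1 < P.v h) (h2 : ∀ Q : Pl C K, Q ≠ P → Q.v h ≤ 1) (h3 : h ∈ CE.lev K₀ K k') :
    Inv K₀ k' P := by
  rw [inv_iff]
  intro s hs
  by_contra hne
  have h4 := h2 _ hne
  rw [comapPl_v, CE.mem_Gam'.1 hs h h3] at h4
  exact absurd h1 (not_lt.2 h4)

/-- every finite set of places is fixed by some `Gam k'`, `k'/k` finite -/
theorem exists_inv [Normal k C] [h : CE k C K₀ K] (hc : algebraicClosure C K = ⊥)
    (S : Finset (Pl C K)) :
    ∃ k' : IntermediateField k C, FiniteDimensional k k' ∧ ∀ P ∈ S, Inv K₀ k' P := by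
  classical
  have hex : ∀ P : Pl C K, ∃ h : K, 1 < P.v h ∧ ∀ Q : Pl C K, Q ≠ P → Q.v h ≤ 1 := by
    intro P
    have hd := degP_pos P
    obtain ⟨f, h1, h2⟩ := exists_pole_order hc P (2 * gen C K + 1) (by
      push_cast
      have : (1 : ℤ) ≤ degP P := by exact_mod_cast hd
      nlinarith [Int.natCast_nonneg (gen C K)]) (by omega)
    refine ⟨f, ?_, h2⟩
    rw [h1, ← exp_zero, exp_lt_exp]
    positivity
  choose h h1 h2 using hex
  obtain ⟨k', hk', hS⟩ := CE.exists_lev (k := k) (C := C) K₀ K (h '' (S : Set (Pl C K)))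
    (S.finite_toSet.image h)
  exact ⟨k', hk', fun P hP => inv_of_pole (h1 P) (h2 P) (hS ⟨P, hP, rfl⟩)⟩

/-- an invariant place is rational over `k'` -/
theorem Inv.rational [IsGalois k C] [IsAlgClosed C] [h : CE k C K₀ K]
    {k' : IntermediateField k C} {P : Pl C K} (hP : Inv K₀ k' P) {f : K}
    (hf : f ∈ CE.lev K₀ K k') (hPf : P.v f ≤ 1) :
    ∃ c ∈ k', P.v (f - algebraMap C K c) < 1 := by
  obtain ⟨c, hc⟩ := CE1_280.exists_residue P hPf
  refine ⟨c, mem_of_fix k C (K₀ := K₀) (K := K) fun s hs => ?_, hc⟩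
  have h1 : P.v (s (f - algebraMap C K c)) < 1 := by rw [hP s hs]; exact hc
  rw [map_sub, CE.mem_Gam'.1 hs f hf] at h1
  have h2 : P.v (s (algebraMap C K c) - algebraMap C K c) < 1 := by
    have h3 : s (algebraMap C K c) - algebraMap C K c =
        (f - algebraMap C K c) - (f - s (algebraMap C K c)) := by ring
    rw [h3]
    exact (Valuation.map_sub _ _ _).trans_lt (max_lt hc h1)
  rw [← CE.algebraMap_res k C K₀ K, ← map_sub] at h2
  by_contra hne
  have h4 : CE.res k C K₀ K s c - c ≠ 0 := by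
    intro h0
    apply hne
    rw [← CE.algebraMap_res k C K₀ K, sub_eq_zero.1 h0]
  rw [P.const _ h4] at h2
  exact lt_irrefl _ h2

/-- invariant divisors -/
theorem LD_stable [Normal k C] {s : K ≃ₐ[K₀] K} {D : Pl C K →₀ ℤ}
    (hD : ∀ Q : Pl C K, D (comapPl k C s Q) = D Q) {f : K} (hf : f ∈ LD D) : s f ∈ LD D := by
  rw [mem_LD] at hf ⊢
  intro Q
  rw [← comapPl_v k C s Q f, ← hD Q]
  exact hf _

/-- a divisor supported on invariant places is invariant -/
theorem divisor_inv [Normal k C] {k' : IntermediateField k C} {D : Pl C K →₀ ℤ}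
    (hD : ∀ P ∈ D.support, Inv K₀ k' P) {s : K ≃ₐ[K₀] K} (hs : s ∈ CE.Gam K₀ K k') (Q : Pl C K) :
    D (comapPl k C s Q) = D Q := by
  by_cases h1 : Q ∈ D.support
  · rw [inv_iff.1 (hD Q h1) s hs]
  · by_cases h2 : comapPl k C s Q ∈ D.support
    · exfalso
      apply h1
      have h3 := inv_iff.1 (hD _ h2) s⁻¹ (inv_mem hs)
      rw [← comapPl_mul, mul_inv_cancel, comapPl_one] at h3
      rw [h3]; exact h2
    · rw [Finsupp.notMem_support_iff.1 h1, Finsupp.notMem_support_iff.1 h2]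

/-- `L(D)` has a basis in `K₀[k']` for an invariant divisor `D` -/
theorem exists_basis_LD [IsGalois k C] [h : CE k C K₀ K] {k' : IntermediateField k C}
    {D : Pl C K →₀ ℤ}
    (hD : ∀ s ∈ CE.Gam K₀ K k', ∀ Q : Pl C K, D (comapPl k C s Q) = D Q) :
    ∃ b : Basis (Fin (ell D)) C (LD D), ∀ i, (b i : K) ∈ CE.lev K₀ K k' := by
  have := RR11_948.LD_finite D
  exact exists_basis_lev k C (LD D) fun s hs f hf => LD_stable (hD s hs) hf

theorem span_LD [IsGalois k C] [h : CE k C K₀ K] {k' : IntermediateField k C}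
    {D : Pl C K →₀ ℤ}
    (hD : ∀ s ∈ CE.Gam K₀ K k', ∀ Q : Pl C K, D (comapPl k C s Q) = D Q) :
    LD D = Submodule.span C {f | f ∈ LD D ∧ f ∈ CE.lev K₀ K k'} :=
  span_lev k C (LD D) fun s hs f hf => LD_stable (hD s hs) hf

/-- functions in `L(D)` with the exact pole order at an invariant place descend -/
theorem exists_lev_pole [IsGalois k C] [h : CE k C K₀ K] {k' : IntermediateField k C}
    {D : Pl C K →₀ ℤ}
    (hD : ∀ s ∈ CE.Gam K₀ K k', ∀ Q : Pl C K, D (comapPl k C s Q) = D Q) {P : Pl C K}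
    (hex : ∃ f ∈ LD D, P.v f = exp (D P)) :
    ∃ f ∈ LD D, f ∈ CE.lev K₀ K k' ∧ P.v f = exp (D P) := by
  obtain ⟨f, hf, hPf⟩ := hex
  by_contra hcon
  push Not at hcon
  have h1 : Submodule.span C {f | f ∈ LD D ∧ f ∈ CE.lev K₀ K k'} ≤ ball P (D P - 1) := by
    rw [Submodule.span_le]
    rintro g ⟨hg1, hg2⟩
    have h2 := hcon g hg1 hg2
    have h3 := (mem_LD.1 hg1) P
    rw [SetLike.mem_coe, mem_ball]
    exact RR2_948.lt_exp_iff _ _ |>.1 (lt_of_le_of_ne h3 h2)
  rw [← span_LD hD] at h1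
  have h4 := h1 hf
  rw [mem_ball, hPf, exp_le_exp] at h4
  omega

/-- uniformizers in the level, with prescribed pole -/
theorem Inv.exists_uniformizer [IsGalois k C] [h : CE k C K₀ K] (hc : algebraicClosure C K = ⊥)
    {k' : IntermediateField k C} {P : Pl C K} (hP : Inv K₀ k' P) :
    ∃ t ∈ CE.lev K₀ K k', P.v t = exp (-1) := by
  have hd : (1 : ℤ) ≤ degP P := by exact_mod_cast degP_pos P
  have key : ∀ n : ℕ, 2 * gen C K + 1 ≤ n → ∃ f ∈ CE.lev K₀ K k', P.v f = exp (n : ℤ) := by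
    intro n hn
    obtain ⟨f, h1, h2⟩ := exists_pole_order hc P n (by
      have : (2 * (gen C K : ℤ) + 1) ≤ n := by exact_mod_cast hn
      nlinarith [Int.natCast_nonneg (gen C K)]) (by omega)
    have hval : (Finsupp.single P (n : ℤ) : Pl C K →₀ ℤ) P = n := by simp
    obtain ⟨g, h3, h4, h5⟩ := exists_lev_pole (k' := k') (D := Finsupp.single P (n : ℤ))
      (K₀ := K₀) (k := k) (P := P)
      (fun s hs Q => divisor_inv (k' := k') (fun R hR => by
        have : R = P := by
          have h6 := Finsupp.support_single_subset hR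
          simpa using h6
        rw [this]; exact hP) hs Q) ⟨f, by
          rw [mem_LD]
          intro Q
          by_cases hQ : Q = P
          · subst hQ; rw [hval, h1]
          · rw [Finsupp.single_eq_of_ne hQ, exp_zero]; exact h2 Q hQ, by rw [hval, h1]⟩
    exact ⟨g, h4, by rw [h5, hval]⟩
  obtain ⟨f, hf1, hf2⟩ := key (2 * gen C K + 1) le_rfl
  obtain ⟨g, hg1, hg2⟩ := key (2 * gen C K + 2) (by omega)
  refine ⟨f / g, div_mem hf1 hg1, ?_⟩
  rw [map_div₀, hf2, hg2, ← exp_sub]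
  congr 1
  push_cast
  ring

/-- the divisor of a function supported on invariant places: the function descends -/
theorem exists_lev_of_divf [IsGalois k C] [h : CE k C K₀ K] (hc : algebraicClosure C K = ⊥)
    {k' : IntermediateField k C} {f : K} (hf : f ≠ 0)
    (hD : ∀ s ∈ CE.Gam K₀ K k', ∀ Q : Pl C K, divf (k := C) f (comapPl k C s Q) = divf f Q) :
    ∃ (c : C) (f₀ : K), c ≠ 0 ∧ f₀ ∈ CE.lev K₀ K k' ∧ f₀ ≠ 0 ∧ f = c • f₀ := by
  refine exists_lev_of_smul k C hf fun s hs => ?_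
  have hsf : s f ≠ 0 := by simpa using hf
  have h1 : s f * f⁻¹ ∈ LD (0 : Pl C K →₀ ℤ) := by
    rw [mem_LD]
    intro Q
    rw [Finsupp.coe_zero, Pi.zero_apply, exp_zero, map_mul, map_inv₀, ← comapPl_v k C s Q f,
      v_eq hf, v_eq hf, hD s hs Q, mul_inv_cancel₀ (exp_ne_zero)]
  rw [LD_zero hc, Submodule.mem_one] at h1
  obtain ⟨c, hc'⟩ := h1
  refine ⟨c, ?_⟩
  rw [Algebra.smul_def, hc', mul_assoc, inv_mul_cancel₀ hf, mul_one]

end places

end Crest.Agent.R013.DescP_429
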