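import Crest.Agent.R013.HAx_381
import Crest.Agent.R013.HU11_522
import Crest.Agent.R013.DE6_561
import Crest.Agent.R013.DescP2_429

/-!
# Row 13, RK2 (561's T2): Ax-Sen-Tate for a line of forms (helper920)

* `ax_line` : a Galois stable set of power series over the completion `F`, any two of them
  proportional, consists of multiples of ONE power series with coefficients in `k`;
* `divP_map` : `DivP` is stable under `K ≃ₐ[K₀] K`;
* `omE_line` : the same for the forms `OmE u`, `u ∈ DivP`.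
-/

set_option autoImplicit false
set_option linter.all false

open scoped NNReal

namespace Crest.Agent.R013.AxL_920

open PowerSeries
open Crest.Agent.R013.HAx_381 (fixed_mem)

section abs

variable (p : ℕ) [Fact p.Prime] {k C F : Type*} [Field k] [Algebra ℚ_[p] k]
  [FiniteDimensional ℚ_[p] k] [Field C] [Algebra k C] [IsAlgClosed C] [Algebra.IsAlgebraic k C]
  [NormedField F] [NormedAlgebra ℚ_[p] F] [IsUltrametricDist F] [CompleteSpace F]
  [Algebra k F] [Algebra C F] [IsScalarTower k C F] [IsScalarTower ℚ_[p] k F]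

include p in
/-- **Ax-Sen-Tate for a line** -/
theorem ax_line (hd : DenseRange (algebraMap C F)) (S : Set (PowerSeries F))
    (hS : ∀ (s : C ≃ₐ[k] C) (t : F →+* F), Isometry t →
      (∀ a : C, t (algebraMap C F a) = algebraMap C F (s a)) → ∀ f ∈ S, PowerSeries.map t f ∈ S)
    (hprop : ∀ f ∈ S, ∀ g ∈ S, ∀ i j, coeff i f * coeff j g = coeff j f * coeff i g) :
    ∃ w : PowerSeries k, w ≠ 0 ∧
      ∀ f ∈ S, ∃ c : F, f = PowerSeries.C c * PowerSeries.map (algebraMap k F) w := by
  by_cases h0 : ∀ f ∈ S, f = 0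
  · refine ⟨1, one_ne_zero, fun f hf => ⟨0, ?_⟩⟩
    rw [h0 f hf, map_zero, zero_mul]
  push Not at h0
  obtain ⟨f0, hf0, hne⟩ := h0
  obtain ⟨i0, hi0⟩ : ∃ i, coeff i f0 ≠ 0 := by
    by_contra hcon
    push Not at hcon
    exact hne (by ext i; rw [hcon i, map_zero])
  -- the normalised coefficients are fixed
  have hfix : ∀ j, (coeff i0 f0)⁻¹ * coeff j f0 ∈ Set.range (algebraMap k F) := by
    intro j
    refine fixed_mem (p := p) (L := C) hd _ fun s t ht hta => ?_
    have h1 := hprop _ (hS s t ht hta f0 hf0) f0 hf0 i0 j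
    rw [coeff_map, coeff_map] at h1
    have h2 : t (coeff i0 f0) ≠ 0 := (map_ne_zero t).mpr hi0
    rw [map_mul, map_inv₀]
    field_simp
    linear_combination -h1
  choose w hw using hfix
  refine ⟨PowerSeries.mk w, ?_, fun f hf => ⟨coeff i0 f, ?_⟩⟩
  · intro h
    have h1 := congrArg (coeff i0) h
    rw [coeff_mk, map_zero] at h1
    have h2 := hw i0
    rw [h1, map_zero, inv_mul_cancel₀ hi0] at h2
    exact zero_ne_one h2
  · ext j
    rw [coeff_C_mul, coeff_map, coeff_mk, hw]
    have h1 := hprop f hf f0 hf0 i0 j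
    field_simp
    linear_combination -h1

end abs

section div

open Crest.Agent.R013.PC_588 Crest.Agent.R013.HU9_522 Crest.Agent.R013.DescP_429
open Crest.Agent.R013.RR7_948 Crest.Agent.R013.RR11_948 Crest.Agent.R013.Desc_372 WithZero

variable {k : Type*} [Field k] {C : Type*} [Field C] [Algebra k C] [Normal k C]
  {K₀ K : Type*} [Field K₀] [Field K] [Algebra k K₀]
  [Algebra C K] [Algebra K₀ K] [Algebra k K] [IsScalarTower k C K] [IsScalarTower k K₀ K]
  [Algebra (RatFunc C) K] [IsScalarTower C (RatFunc C) K] [FiniteDimensional (RatFunc C) K]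
  [Algebra.IsSeparable (RatFunc C) K] {p : ℕ} [Fact p.Prime]

/-- one representative is enough -/
theorem divP_of_rep {u : PC p Kˣ}
    (h : ∀ n, ∃ z : Kˣ, Rep u n z ∧ ∀ P : Pl C K, ((p ^ n : ℕ) : ℤ) ∣ divf (k := C) (z : K) P) :
    DivP C u := by
  intro n z' hz' P
  obtain ⟨z, hz, hdiv⟩ := h n
  obtain ⟨y, rfl⟩ := hz.eq_iff.1 hz'
  have h1 : divf (k := C) ((z * y ^ p ^ n : Kˣ) : K) P =
      divf (k := C) (z : K) P + (p ^ n : ℕ) * divf (k := C) (y : K) P := by
    rw [Units.val_mul, Units.val_pow_eq_pow_val, divf_mul z.ne_zero (pow_ne_zero _ y.ne_zero),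
      Finsupp.add_apply]
    congr 1
    have h2 := v_eq (k := C) (pow_ne_zero (p ^ n) y.ne_zero) P
    rw [map_pow, v_eq (k := C) y.ne_zero P, ← exp_nsmul, exp_inj] at h2
    rw [nsmul_eq_mul] at h2
    linarith
  rw [h1]
  exact dvd_add (hdiv P) (Dvd.intro _ rfl)

include k in
theorem divP_map (s : K ≃ₐ[K₀] K) {u : PC p Kˣ} (hu : DivP C u) :
    DivP C (PC.map (Units.map ((s : K →+* K) : K →* K)) u) := by
  refine divP_of_rep fun n => ?_
  obtain ⟨z, hz⟩ := exists_rep u n
  refine ⟨_, hz.map _, fun P => ?_⟩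
  have h1 := hu n z hz (comapPl k C s P)
  have hsz : s (z : K) ≠ 0 := by simp
  have h2 : divf (k := C) (z : K) (comapPl k C s P) = divf (k := C) (s (z : K)) P := by
    have e1 := v_eq (k := C) z.ne_zero (comapPl k C s P)
    rw [comapPl_v, v_eq (k := C) hsz P, exp_inj] at e1
    omega
  rw [h2] at h1
  exact h1

end div

section line

open Crest.Agent.R013.Cell_408 (DiscNorm)
open Crest.Agent.R013.PC_588 Crest.Agent.R013.HU9_522 Crest.Agent.R013.HU11_522
open Crest.Agent.R013.HU6_522 Crest.Agent.R013.EE809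
open Crest.Agent.R013.RR7_948 Crest.Agent.R013.RR11_948 Crest.Agent.R013.Desc_372
open Crest.Agent.R013.DE6_561

variable (p : ℕ) [Fact p.Prime]
  {k : Type*} [NontriviallyNormedField k] [CompleteSpace k] [IsUltrametricDist k]
  [Algebra ℚ_[p] k] [FiniteDimensional ℚ_[p] k]
  {C : Type*} [NormedField C] [IsUltrametricDist C] [NormedAlgebra k C] [CharZero C]
  [Algebra.IsAlgebraic k C] [IsAlgClosed C]
  {K₀ K : Type*} [Field K₀] [Field K] [Algebra k K₀]
  [Algebra C K] [Algebra K₀ K] [Algebra k K] [IsScalarTower k C K] [IsScalarTower k K₀ K]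
  [Algebra (RatFunc C) K] [IsScalarTower C (RatFunc C) K] [FiniteDimensional (RatFunc C) K]
  [CE k C K₀ K]
  {F : Type*} [NormedField F] [NormedAlgebra ℚ_[p] F] [IsUltrametricDist F] [CompleteSpace F]
  [CharZero F] [Algebra k F] [Algebra C F] [IsScalarTower k C F] [IsScalarTower ℚ_[p] k F]
  (hσ : ∀ a : C, ‖algebraMap C F a‖ = ‖a‖)

include hσ p in
theorem norm_gal (s : C ≃ₐ[k] C) (a : C) : ‖(s : C →ₐ[k] C) a‖ = ‖a‖ := by
  have h := HAx_381.norm_inv (p := p) (C := F) s a
  rwa [hσ, hσ] at h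

/-- **Ax-Sen-Tate for the forms `OmE u`** (T2): if all of them are proportional they are multiples of
one power series with coefficients in `k` -/
theorem omE_line (hk : DiscNorm k) (hp : ‖(p : C)‖ < 1) (hd : DenseRange (algebraMap C F))
    {em : K →+* EE k C} {t : K₀} {ρ : k} (hem : IsEm em t ρ)
    (hprop : ∀ u u' : PC p Kˣ, DivP C u → DivP C u' → ∀ i j,
      coeff i (OmE hk em hem.frac (algebraMap C F) hσ u) *
          coeff j (OmE hk em hem.frac (algebraMap C F) hσ u') =
        coeff j (OmE hk em hem.frac (algebraMap C F) hσ u) *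
          coeff i (OmE hk em hem.frac (algebraMap C F) hσ u')) :
    ∃ w : PowerSeries k, w ≠ 0 ∧ ∀ u : PC p Kˣ, DivP C u →
      ∃ c : F, OmE hk em hem.frac (algebraMap C F) hσ u =
        PowerSeries.C c * PowerSeries.map (algebraMap k F) w := by
  have h1 := ax_line p (k := k) (C := C) hd
    {f | ∃ u : PC p Kˣ, DivP C u ∧ f = OmE hk em hem.frac (algebraMap C F) hσ u} ?_ ?_
  · obtain ⟨w, hw0, hw⟩ := h1
    exact ⟨w, hw0, fun u hu => hw _ ⟨u, hu, rfl⟩⟩
  · rintro s t ht hta _ ⟨u, hu, rfl⟩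
    haveI : Normal k C := by
      haveI : IsAlgClosure k C := ⟨inferInstance, inferInstance⟩
      exact IsAlgClosure.normal k C
    refine ⟨PC.map (Units.map (((CE.lift k C K₀ K s : K ≃ₐ[K₀] K) : K →+* K) : K →* K)) u,
      divP_map (k := k) (CE.lift k C K₀ K s) hu, ?_⟩
    have hτF : ∀ a, ‖t a‖ = ‖a‖ := fun a => by
      have := ht.norm_map_of_map_zero (map_zero t) a
      exact this
    symm
    exact OmE_map hk (s : C →ₐ[k] C) (norm_gal p hσ s) em em hem.frac hem.frac
      (Units.map (((CE.lift k C K₀ K s : K ≃ₐ[K₀] K) : K →+* K) : K →* K))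
      (fun z => hem.equiv s (norm_gal p hσ s) z) (algebraMap C F) hσ t hτF
      (fun a => hta a) hp u
  · rintro _ ⟨u, hu, rfl⟩ _ ⟨u', hu', rfl⟩ i j
    exact hprop u u' hu hu' i j

end line

end Crest.Agent.R013.AxL_920
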