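import Mathlib
import Crest.Agent.R013.BTor4_914
import Crest.Agent.R013.Desc3_372
import Crest.Agent.R013.Unr11_957

/-!
# R013 / BTor5: an `l`-torsion class over `C = k̄` lives at a finite level (helper914)
-/

set_option autoImplicit false
set_option linter.all false

namespace Crest.Agent.R013.BTor5_914

open WithZero
open scoped NNReal IntermediateField
open Crest.NumberTheoryR.Sect
open Crest.Agent.R013.RR7_948 Crest.Agent.R013.RR8_948 Crest.Agent.R013.RR11_948
open Crest.Agent.R013.RR13_948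
open Crest.Agent.R013.Desc_372 Crest.Agent.R013.Desc_372.CE
open Crest.Agent.R013.BTor4_914

section base

variable (k C K₀ K : Type*) [Field k] [Field C] [Field K₀] [Field K] [Algebra k C]
    [Algebra k K₀] [Algebra C K] [Algebra K₀ K] [Algebra k K] [IsScalarTower k C K]
    [IsScalarTower k K₀ K] [CharZero k]
    [Algebra (RatFunc k) K₀] [IsScalarTower k (RatFunc k) K₀] [FiniteDimensional (RatFunc k) K₀]
    [Algebra (RatFunc C) K] [IsScalarTower C (RatFunc C) K] [FiniteDimensional (RatFunc C) K]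
    [Algebra.IsSeparable (RatFunc C) K]

/-- a finite level is generated by constants -/
theorem adjoin_lev [h : CE k C K₀ K] (k' : IntermediateField k C) :
    IntermediateField.adjoin K₀ {x : lev K₀ K k' | IsIntegral k x} = ⊤ := by
  have halg := h.alg
  rw [eq_top_iff]
  rintro ⟨f, hf⟩ _
  have h1 : lev K₀ K k' ≤ (IntermediateField.adjoin K₀ {x : lev K₀ K k' | IsIntegral k x}).map
      (lev K₀ K k').val := by
    unfold lev
    rw [IntermediateField.adjoin_le_iff]
    rintro _ ⟨c, hc, rfl⟩
    have hc' : algebraMap C K c ∈ lev K₀ K k' := algebraMap_mem_lev K₀ K k' hc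
    refine ⟨⟨algebraMap C K c, hc'⟩, IntermediateField.subset_adjoin _ _ ?_, rfl⟩
    have h2 : IsIntegral k c := (Algebra.IsAlgebraic.isAlgebraic c).isIntegral
    have h3 : IsIntegral k (algebraMap C K c) := h2.map (IsScalarTower.toAlgHom k C K)
    show IsIntegral k (⟨algebraMap C K c, hc'⟩ : lev K₀ K k')
    rw [← isIntegral_algHom_iff (IsScalarTower.toAlgHom k (lev K₀ K k') K)
      (by exact (algebraMap (lev K₀ K k') K).injective)]
    exact h3
  obtain ⟨g, hg, hgf⟩ := h1 hf
  have : g = ⟨f, hf⟩ := Subtype.ext hgf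
  rw [← this]
  exact hg

/-- a finite level is finite over the base -/
theorem finite_lev [h : CE k C K₀ K] (k' : IntermediateField k C) [FiniteDimensional k k'] :
    FiniteDimensional K₀ (lev K₀ K k') := by
  have halg := h.alg
  obtain ⟨s, hs⟩ : ∃ s : Finset C, IntermediateField.adjoin k (s : Set C) = k' :=
    by
    have h1 : Algebra.EssFiniteType k k' := inferInstance
    exact IntermediateField.essFiniteType_iff.mp h1
  have h1 : lev K₀ K k' = IntermediateField.adjoin K₀ (algebraMap C K '' (s : Set C)) := by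
    apply le_antisymm
    · rw [lev_le_iff]
      intro c hc
      rw [← hs] at hc
      induction hc using IntermediateField.adjoin_induction with
      | mem x hx => exact IntermediateField.subset_adjoin _ _ ⟨x, hx, rfl⟩
      | algebraMap x =>
        rw [← IsScalarTower.algebraMap_apply k C K, IsScalarTower.algebraMap_apply k K₀ K]
        exact IntermediateField.algebraMap_mem _ _
      | add x y _ _ hx hy => rw [map_add]; exact add_mem hx hy
      | inv x _ hx => rw [map_inv₀]; exact inv_mem hx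
      | mul x y _ _ hx hy => rw [map_mul]; exact mul_mem hx hy
    · rw [IntermediateField.adjoin_le_iff]
      rintro _ ⟨c, hc, rfl⟩
      apply algebraMap_mem_lev
      rw [← hs]
      exact IntermediateField.subset_adjoin _ _ hc
  rw [h1]
  refine IntermediateField.finiteDimensional_adjoin ?_
  rintro _ ⟨c, hc, rfl⟩
  have h2 : IsIntegral k c := (Algebra.IsAlgebraic.isAlgebraic c).isIntegral
  exact (h2.map (IsScalarTower.toAlgHom k C K)).tower_top

/-- **orders divisible by `l` descend** -/
theorem ldiv_base [h : CE k C K₀ K] {l : ℕ} {h₀ : K₀} (h0 : h₀ ≠ 0) {D : Pl C K →₀ ℤ}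
    (hD : divf (k := C) (algebraMap K₀ K h₀) = (l : ℤ) • D) : LDiv k l h₀ := by
  have halg := h.alg
  haveI := isAlgebraic k C K₀ K
  intro u hu
  obtain ⟨w, hw⟩ := Unr9_957.exists_extend_alg (E := K) u
  have hwu : ∀ a : K₀, w (algebraMap K₀ K a) = u a := fun a => by rw [← hw]; rfl
  have hwC : ∀ c : C, c ≠ 0 → w (algebraMap C K c) = 1 := by
    intro c hc
    refine Unr9_957.trivial_of_trivial (F := k) (E := C) (w.comap (algebraMap C K)) ?_ c hc
    intro x hx
    show w (algebraMap C K (algebraMap k C x)) = 1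
    rw [← IsScalarTower.algebraMap_apply k C K, IsScalarTower.algebraMap_apply k K₀ K, hwu]
    exact hu.1 x hx
  obtain ⟨P, hP⟩ := exists_place (k := C) w hwC (by
    obtain ⟨a, ha0, ha1⟩ := hu.2
    exact ⟨algebraMap K₀ K a, by rw [hwu]; exact ha0, by rw [hwu]; exact ha1⟩)
  obtain ⟨t, ht⟩ := P.surj (exp (-1))
  have hne : algebraMap K₀ K h₀ ≠ 0 := by simpa using h0
  have h1 : P.v (algebraMap K₀ K h₀) = exp (-(l * D P)) := by
    rw [v_eq hne, hD]
    simp
  have h2 := eq_zpow_of_isEquiv hP ht h1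
  rw [neg_neg, hwu] at h2
  -- `w t` is a value of `u`
  obtain ⟨k₁, hk₁, htk⟩ := exists_lev (k := k) (C := C) K₀ K {t} (Set.finite_singleton t)
  haveI := hk₁
  haveI := finite_lev k C K₀ K k₁
  have hun : Unr10_957.UnrEv k K₀ (lev K₀ K k₁) := Unr11_957.unrEv_const (adjoin_lev k C K₀ K k₁)
  obtain ⟨a, ha⟩ := hun u hu (w.comap (algebraMap (lev K₀ K k₁) K)) (by
    ext x
    show (w (algebraMap (lev K₀ K k₁) K (algebraMap K₀ (lev K₀ K k₁) x)) : ℝ) = u x
    rw [← IsScalarTower.algebraMap_apply K₀ (lev K₀ K k₁) K, hwu]) ⟨t, htk rfl⟩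
  have ha' : w t = u a := ha
  refine ⟨a ^ (D P), ?_⟩
  rw [h2, ha', map_zpow₀, ← zpow_natCast, ← zpow_mul, mul_comm]

end base

section main

variable (k C K₀ K : Type*) [Field k] [Field C] [Field K₀] [Field K] [Algebra k C]
    [Algebra k K₀] [Algebra C K] [Algebra K₀ K] [Algebra k K] [IsScalarTower k C K]
    [IsScalarTower k K₀ K] [CharZero k]
    [Algebra (RatFunc k) K₀] [IsScalarTower k (RatFunc k) K₀] [FiniteDimensional (RatFunc k) K₀]
    [Algebra (RatFunc C) K] [IsScalarTower C (RatFunc C) K] [FiniteDimensional (RatFunc C) K]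
    [Algebra.IsSeparable (RatFunc C) K]

/-- at every level -/
theorem ldiv_lev [h : CE k C K₀ K] {l : ℕ} {k' : IntermediateField k C} (h₀ : lev K₀ K k')
    (h0 : h₀ ≠ 0) {D : Pl C K →₀ ℤ} (hD : divf (k := C) (h₀ : K) = (l : ℤ) • D) :
    LDiv k' l h₀ := by
  letI := ratCE k k' K₀ (lev K₀ K k')
  haveI := ratCE_tower k k' K₀ (lev K₀ K k')
  haveI : FiniteDimensional (RatFunc k') (lev K₀ K k') :=
    finite_rat k k' K₀ (lev K₀ K k') (ratCE_xK k k' K₀ (lev K₀ K k'))
  haveI : CharZero k' := charZero_of_injective_algebraMap (algebraMap k k').injective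
  exact ldiv_base k' C (lev K₀ K k') K h0 hD

/-- **(B-TOR), existence**: a torsion class of order `l` over `C` gives `h` at a finite level, all
of whose orders are divisible by `l`, which is not an `l`-th power over `C` -/
theorem exists_level [h : CE k C K₀ K] {l : ℕ} (hl : l ≠ 0)
    (htors : ∃ (D : Pl C K →₀ ℤ) (f : K), f ≠ 0 ∧ divf (k := C) f = (l : ℤ) • D ∧
      ∀ g : K, g ≠ 0 → divf (k := C) g ≠ D) :
    ∃ k' : IntermediateField k C, FiniteDimensional k k' ∧ ∃ f : K, f ≠ 0 ∧ (∀ g : K, g ^ l ≠ f) ∧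
      ∀ k'' : IntermediateField k C, k' ≤ k'' → ∃ f₀ : lev K₀ K k'', (f₀ : K) = f ∧
        LDiv k'' l f₀ := by
  obtain ⟨D, f, hf0, hfD, hD⟩ := htors
  obtain ⟨k', hk', hfk⟩ := exists_lev (k := k) (C := C) K₀ K {f} (Set.finite_singleton f)
  refine ⟨k', hk', f, hf0, ?_, ?_⟩
  · intro g hg
    have hg0 : g ≠ 0 := by
      rintro rfl
      rw [zero_pow hl] at hg
      exact hf0 hg.symm
    apply hD g hg0
    have h1 : ∀ n : ℕ, divf (k := C) (g ^ n) = (n : ℤ) • divf (k := C) g := by
      intro n
      induction n with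
      | zero => simp [divf_one]
      | succ n ih =>
        rw [pow_succ, divf_mul (pow_ne_zero _ hg0) hg0, ih]
        push_cast
        rw [add_smul, one_smul]
    have h2 := h1 l
    rw [hg, hfD] at h2
    have hl' : (l : ℤ) ≠ 0 := by exact_mod_cast hl
    exact (smul_right_injective _ hl' h2).symm
  · intro k'' hk''
    have hm : f ∈ lev K₀ K k'' := lev_mono K₀ K hk'' (hfk rfl)
    exact ⟨⟨f, hm⟩, rfl, ldiv_lev k C K₀ K ⟨f, hm⟩ (fun h0 => hf0 (congrArg Subtype.val h0)) hfD⟩

end main

end Crest.Agent.R013.BTor5_914
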