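import Mathlib
import Crest.Agent.R013.Desc4_372
import Crest.Agent.R013.CE5_280

/-!
# R013 / Desc5 (helper372): finite fibres, isolation of places at a finite level, invariance under
`Gam k'`, rationality; `conC`, `ell`, degree and genus.
-/

set_option autoImplicit false
set_option linter.all false

namespace Crest.Agent.R013.Desc_372

open TensorProduct Module Polynomial WithZero
open Crest.Agent.R013.RR7_948 Crest.Agent.R013.RR8_948 Crest.Agent.R013.RR9_948
open Crest.Agent.R013.RR11_948 Crest.Agent.R013.RR12_948 Crest.Agent.R013.RR13_948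
open Crest.Agent.R013.RR18_948 Crest.Agent.R013.RR19_948 Crest.Agent.R013.RR20_948
open Crest.Agent.R013.CntB1_491 Crest.Agent.R013.CntB2_491

open CE

attribute [local instance] levRat levRat_tower levRat_finite finite_lev sep_lev isAlg_lev

variable {k C K₀ K : Type*} [Field k] [Field C] [Field K₀] [Field K]
  [Algebra k C] [Algebra k K₀] [Algebra C K] [Algebra K₀ K] [Algebra k K] [IsScalarTower k C K]
  [IsScalarTower k K₀ K]

variable [h : CE k C K₀ K] [CharZero k]
  [Algebra (RatFunc k) K₀] [IsScalarTower k (RatFunc k) K₀] [FiniteDimensional (RatFunc k) K₀]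

/-- finitely many different places are separated at a finite level -/
theorem exists_sep_level (S : Finset (Pl C K)) : ∃ k' : IntermediateField k C,
    FiniteDimensional k k' ∧ ∀ P ∈ S, ∀ P' ∈ S, (∀ f ∈ lev K₀ K k', P'.v f = P.v f) → P' = P := by
  classical
  have h1 : ∀ P P' : Pl C K, ∃ f : K, P'.v f = P.v f → P' = P := by
    intro P P'
    by_cases hPP : P' = P
    · exact ⟨0, fun _ => hPP⟩
    · by_contra hcon
      push Not at hcon
      apply hPP
      apply Pl.ext
      ext f
      exact (hcon f).1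
  choose g hg using h1
  obtain ⟨k', hk', hT⟩ := exists_lev (k := k) (C := C) K₀ K
    ((fun p : Pl C K × Pl C K => g p.1 p.2) '' (S ×ˢ S : Finset _)) (Set.Finite.image _ (Finset.finite_toSet _))
  refine ⟨k', hk', fun P hP P' hP' hf => hg P P' (hf _ (hT ⟨(P, P'), ?_, rfl⟩))⟩
  simp [hP, hP']

/-- `P` is the only place of `K/C` with the given restriction to level `k'` -/
def Uniq (K₀ : Type*) {K : Type*} [Field K₀] [Field K] [Algebra C K] [Algebra K₀ K]
    (k' : IntermediateField k C) (P : Pl C K) : Prop :=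
  ∀ P' : Pl C K, (∀ f ∈ lev K₀ K k', P'.v f = P.v f) → P' = P

omit h [CharZero k] [Algebra (RatFunc k) K₀] [IsScalarTower k (RatFunc k) K₀]
  [FiniteDimensional (RatFunc k) K₀] in
theorem Uniq.mono {k' k'' : IntermediateField k C} (hk : k' ≤ k'') {P : Pl C K}
    (hP : Uniq K₀ k' P) : Uniq K₀ k'' P :=
  fun P' hP' => hP P' fun f hf => hP' f (lev_mono K₀ K hk hf)

variable [Algebra.IsAlgebraic K₀ K]

theorem resC_lev_eq_iff (hc : algebraicClosure k K₀ = ⊥) (k' : IntermediateField k C)
    [FiniteDimensional k k'] (P P' : Pl C K) :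
    resC k' (lev K₀ K k') P' = resC k' (lev K₀ K k') P ↔ ∀ f ∈ lev K₀ K k', P'.v f = P.v f := by
  constructor
  · intro h1 f hf
    rw [← resC_lev_v hc k' P' ⟨f, hf⟩, h1, resC_lev_v hc k' P ⟨f, hf⟩]
  · intro h1
    apply Pl.ext
    ext f
    rw [resC_lev_v hc k' P', resC_lev_v hc k' P, h1 f f.2]

/-- the fibres have at most `deg P` elements -/
theorem card_le_degP (hc : algebraicClosure k K₀ = ⊥) (Q : Pl k K₀) (S : Finset (Pl C K))
    (hS : ∀ P ∈ S, resC k K₀ P = Q) : S.card ≤ degP Q := by
  classical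
  have halg : Algebra.IsAlgebraic k C := h.alg
  obtain ⟨k', hk', hsep⟩ := exists_sep_level (K₀ := K₀) S (k := k)
  have hce := isCE_lev k C K₀ K hc k'
  rw [← sum_degP hce Q]
  have h1 : (S.image (resC k' (lev K₀ K k'))) ⊆ fib k' (lev K₀ K k') Q := by
    intro R hR
    obtain ⟨P, hP, rfl⟩ := Finset.mem_image.1 hR
    rw [mem_fib, res_resC]
    exact hS P hP
  have h2 : (S.image (resC k' (lev K₀ K k'))).card = S.card := by
    apply Finset.card_image_of_injOn
    intro P hP P' hP' hPP
    exact hsep P' hP' P hP ((resC_lev_eq_iff hc k' P' P).1 hPP)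
  calc S.card = (S.image (resC k' (lev K₀ K k'))).card := h2.symm
    _ ≤ (fib k' (lev K₀ K k') Q).card := Finset.card_le_card h1
    _ = ∑ R ∈ fib k' (lev K₀ K k') Q, 1 := by simp
    _ ≤ ∑ R ∈ fib k' (lev K₀ K k') Q, degP R := Finset.sum_le_sum fun R _ => degP_pos R

theorem finite_fibre (hc : algebraicClosure k K₀ = ⊥) (Q : Pl k K₀) :
    {P : Pl C K | resC k K₀ P = Q}.Finite := by
  classical
  by_contra hinf
  obtain ⟨S, hS, hcard⟩ := Set.Infinite.exists_subset_card_eq hinf (degP Q + 1)
  have h1 := card_le_degP hc Q S (fun P hP => hS hP)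
  omega

/-- **isolation**: finitely many places are isolated at a finite level -/
theorem exists_uniq (hc : algebraicClosure k K₀ = ⊥) (S : Set (Pl C K)) (hS : S.Finite) :
    ∃ k' : IntermediateField k C, FiniteDimensional k k' ∧ ∀ P ∈ S, Uniq K₀ k' P := by
  classical
  have h1 : (⋃ P ∈ S, {P' : Pl C K | resC k K₀ P' = resC k K₀ P}).Finite :=
    hS.biUnion fun P _ => finite_fibre hc _
  obtain ⟨k', hk', hsep⟩ := exists_sep_level (K₀ := K₀) h1.toFinset (k := k)
  refine ⟨k', hk', fun P hP P' hPP => ?_⟩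
  apply hsep P _ P' _ hPP
  · rw [Set.Finite.mem_toFinset, Set.mem_iUnion₂]
    exact ⟨P, hP, rfl⟩
  · rw [Set.Finite.mem_toFinset, Set.mem_iUnion₂]
    refine ⟨P, hP, ?_⟩
    show resC k K₀ P' = resC k K₀ P
    rw [← res_resC k' P', ← res_resC k' P, (resC_lev_eq_iff hc k' P P').2 hPP]

/-- **invariance** -/
theorem Uniq.v_eq [Normal k C] {k' : IntermediateField k C} {P : Pl C K} (hP : Uniq K₀ k' P)
    {s : K ≃ₐ[K₀] K} (hs : s ∈ Gam K₀ K k') (f : K) : P.v (s f) = P.v f := by
  let P' : Pl C K :=
    { v := P.v.comap (s : K →+* K)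
      const := fun c hc => by
        rw [Valuation.comap_apply]
        show P.v (s (algebraMap C K c)) = 1
        rw [← algebraMap_res k C K₀ K s]
        exact P.const _ (by simpa using hc)
      surj := fun y => by
        obtain ⟨g, hg⟩ := P.surj y
        exact ⟨s.symm g, by
          rw [Valuation.comap_apply]
          show P.v (s (s.symm g)) = y
          rw [AlgEquiv.apply_symm_apply, hg]⟩ }
  have h1 : P' = P := by
    apply hP
    intro g hg
    show P.v (s g) = P.v g
    rw [mem_Gam'.1 hs g hg]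
  have h2 : P'.v f = P.v (s f) := rfl
  rw [← h2, h1]

/-- **rationality** -/
theorem Uniq.rational [IsGalois k C] [IsAlgClosed C] [Algebra (RatFunc C) K]
    [IsScalarTower C (RatFunc C) K] [FiniteDimensional (RatFunc C) K]
    [Algebra.IsSeparable (RatFunc C) K] {k' : IntermediateField k C} {P : Pl C K}
    (hP : Uniq K₀ k' P) {f : K} (hf : f ∈ lev K₀ K k') (hf1 : P.v f ≤ 1) :
    ∃ c ∈ k', P.v (f - algebraMap C K c) < 1 := by
  obtain ⟨c, hc⟩ := CE1_280.exists_residue P hf1
  refine ⟨c, ?_, hc⟩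
  have h3 : IntermediateField.fixedField k'.fixingSubgroup = k' :=
    InfiniteGalois.fixedField_fixingSubgroup k'
  rw [← h3, IntermediateField.mem_fixedField_iff]
  intro t ht
  rw [IntermediateField.mem_fixingSubgroup_iff] at ht
  have hs : lift k C K₀ K t ∈ Gam K₀ K k' := by
    rw [mem_Gam]
    intro c hc
    rw [lift_algebraMap, ht c hc]
  have h4 : P.v (f - algebraMap C K (t c)) < 1 := by
    have h5 := hP.v_eq hs (f - algebraMap C K c)
    rw [map_sub, mem_Gam'.1 hs f hf, lift_algebraMap] at h5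
    rw [h5]; exact hc
  exact (CE1_280.residue_unique P hc h4).symm

omit h [CharZero k] [Algebra (RatFunc k) K₀] [IsScalarTower k (RatFunc k) K₀]
  [FiniteDimensional (RatFunc k) K₀] [Algebra.IsAlgebraic K₀ K] [Field C] [Field K] [Algebra k C]
  [Algebra C K] [Algebra K₀ K] [Algebra k K] [IsScalarTower k C K] [IsScalarTower k K₀ K] in
/-- a rational place has degree one -/
theorem degP_eq_one_of_rational (P : Pl k K₀)
    (hr : ∀ f : K₀, P.v f ≤ 1 → ∃ c : k, P.v (f - algebraMap k K₀ c) < 1) : degP P = 1 := by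
  let g : k →ₗ[k] (ball P 0 ⧸ (ball P (-1)).submoduleOf (ball P 0)) :=
    (Submodule.mkQ _).comp (LinearMap.codRestrict (ball P 0) (Algebra.linearMap k K₀)
      (fun c => by rw [mem_ball, exp_zero]; exact CE1_280.v_algebraMap_le P c))
  have hg : Function.Bijective g := by
    constructor
    · rw [← LinearMap.ker_eq_bot, LinearMap.ker_eq_bot']
      intro c hc
      simp only [g, LinearMap.comp_apply, Submodule.mkQ_apply] at hc
      rw [Submodule.Quotient.mk_eq_zero, Submodule.submoduleOf, Submodule.mem_comap, mem_ball,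
        ← CE3_280.lt_one_iff_le] at hc
      exact CE1_280.v_algebraMap_lt P hc
    · intro y
      obtain ⟨⟨f, hf⟩, rfl⟩ := Submodule.Quotient.mk_surjective _ y
      rw [mem_ball, exp_zero] at hf
      obtain ⟨c, hc⟩ := hr f hf
      refine ⟨c, ?_⟩
      simp only [g, LinearMap.comp_apply, Submodule.mkQ_apply]
      rw [Submodule.Quotient.eq, Submodule.submoduleOf, Submodule.mem_comap, mem_ball,
        ← CE3_280.lt_one_iff_le]
      rw [Valuation.map_sub_swap] at hc
      exact hc
  have h1 : degE P = 1 := by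
    unfold degE RR1_948.ri
    rw [← (LinearEquiv.ofBijective g hg).length_eq]
    exact Module.length_eq_one_iff.mpr inferInstance
  unfold degP
  rw [h1]
  rfl

section con

variable [IsGalois k C] [IsAlgClosed C] [Algebra (RatFunc C) K]
    [IsScalarTower C (RatFunc C) K] [FiniteDimensional (RatFunc C) K]
    [Algebra.IsSeparable (RatFunc C) K]

theorem Uniq.degP_eq_one (hc : algebraicClosure k K₀ = ⊥) {k' : IntermediateField k C}
    [FiniteDimensional k k'] {P : Pl C K} (hP : Uniq K₀ k' P) :
    degP (resC k' (lev K₀ K k') P) = 1 := by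
  apply degP_eq_one_of_rational
  intro f hf
  rw [resC_lev_v hc k' P] at hf
  obtain ⟨c, hck, hc1⟩ := hP.rational f.2 hf
  refine ⟨⟨c, hck⟩, ?_⟩
  rw [resC_lev_v hc k' P]
  exact hc1

/-- all places of `K/C` above a place of level `k'` -/
theorem card_fibre (hc : algebraicClosure k K₀ = ⊥) (Q : Pl k K₀) (S : Finset (Pl C K))
    (hS : ∀ P, P ∈ S ↔ resC k K₀ P = Q) : S.card = degP Q := by
  classical
  have halg : Algebra.IsAlgebraic k C := h.alg
  obtain ⟨k', hk', hsep⟩ := exists_uniq (K₀ := K₀) hc (S : Set (Pl C K)) S.finite_toSet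
  have hce := isCE_lev k C K₀ K hc k'
  have halg' : Algebra.IsAlgebraic k' C := (ce_lev' K₀ K k').alg
  have h1 : fib k' (lev K₀ K k') Q = S.image (resC k' (lev K₀ K k')) := by
    ext R
    rw [mem_fib, Finset.mem_image]
    constructor
    · intro hR
      obtain ⟨P, hP⟩ := resC_surjective (k := k') (C := C) (K₀ := lev K₀ K k') (K := K) R
      refine ⟨P, ?_, hP⟩
      rw [hS, ← res_resC k' P, hP, hR]
    · rintro ⟨P, hP, rfl⟩
      rw [res_resC]
      exact (hS P).1 hP
  rw [← sum_degP hce Q, h1, Finset.sum_image, Finset.card_eq_sum_ones]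
  · refine Finset.sum_congr rfl fun P hP => ?_
    exact ((hsep P hP).degP_eq_one hc).symm
  · intro P hP P' hP' hPP
    exact hsep P' hP' P ((resC_lev_eq_iff hc k' P' P).1 hPP)

/-- pull-back of divisors -/
noncomputable def conC (hc : algebraicClosure k K₀ = ⊥) (D : Pl k K₀ →₀ ℤ) : Pl C K →₀ ℤ :=
  Finsupp.onFinset ((Set.Finite.biUnion D.support.finite_toSet
    fun Q _ => finite_fibre (C := C) (K := K) hc Q).toFinset) (fun P => D (resC k K₀ P)) (by
    intro P hP
    rw [Set.Finite.mem_toFinset, Set.mem_iUnion₂]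
    exact ⟨resC k K₀ P, by simpa using hP, rfl⟩)

@[simp] theorem conC_apply (hc : algebraicClosure k K₀ = ⊥) (D : Pl k K₀ →₀ ℤ) (P : Pl C K) :
    conC hc D P = D (resC k K₀ P) := rfl

theorem conC_add (hc : algebraicClosure k K₀ = ⊥) (D E : Pl k K₀ →₀ ℤ) :
    (conC hc (D + E) : Pl C K →₀ ℤ) = conC hc D + conC hc E := by
  ext P; simp

theorem conC_zero (hc : algebraicClosure k K₀ = ⊥) :
    (conC hc (0 : Pl k K₀ →₀ ℤ) : Pl C K →₀ ℤ) = 0 := by
  ext P; simp

theorem conC_neg (hc : algebraicClosure k K₀ = ⊥) (D : Pl k K₀ →₀ ℤ) :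
    (conC hc (-D) : Pl C K →₀ ℤ) = -conC hc D := by
  ext P; simp

theorem conC_zsmul (hc : algebraicClosure k K₀ = ⊥) (n : ℤ) (D : Pl k K₀ →₀ ℤ) :
    (conC hc (n • D) : Pl C K →₀ ℤ) = n • conC hc D := by
  ext P; simp

theorem conC_injective (hc : algebraicClosure k K₀ = ⊥) :
    Function.Injective (conC hc : (Pl k K₀ →₀ ℤ) → (Pl C K →₀ ℤ)) := by
  have halg : Algebra.IsAlgebraic k C := h.alg
  intro D E hDE
  ext Q
  obtain ⟨P, rfl⟩ := resC_surjective (k := k) (C := C) (K₀ := K₀) (K := K) Q
  rw [← conC_apply hc D P, ← conC_apply hc E P, hDE]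

/-- **degrees are preserved** -/
theorem degD_conC (hc : algebraicClosure k K₀ = ⊥) (D : Pl k K₀ →₀ ℤ) :
    degD (conC hc D : Pl C K →₀ ℤ) = degD D := by
  classical
  induction D using Finsupp.induction_linear with
  | zero => rw [conC_zero, degD_zero, degD_zero]
  | add D E hD hE => rw [conC_add, degD_add, degD_add, hD, hE]
  | single Q n =>
    let S := (finite_fibre (C := C) (K := K) hc Q).toFinset
    have hS : ∀ P, P ∈ S ↔ resC k K₀ P = Q := by
      intro P; rw [Set.Finite.mem_toFinset]; rfl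
    have h1 : (conC hc (Finsupp.single Q n) : Pl C K →₀ ℤ) = ∑ P ∈ S, Finsupp.single P n := by
      ext P
      rw [conC_apply, Finsupp.finset_sum_apply, Finsupp.single_apply]
      by_cases hP : Q = resC k K₀ P
      · rw [if_pos hP, Finset.sum_eq_single P]
        · simp
        · intro P' _ hne; exact Finsupp.single_eq_of_ne' hne
        · intro hn; exact absurd ((hS P).2 hP.symm) hn
      · rw [if_neg hP]
        symm
        apply Finset.sum_eq_zero
        intro P' hP'
        apply Finsupp.single_eq_of_ne'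
        rintro rfl
        exact hP ((hS P').1 hP').symm
    rw [h1, CntB3_491.degD_sum, degD_single, ← card_fibre hc Q S hS]
    have h2 : ∀ P ∈ S, degD (Finsupp.single P n) = n := by
      intro P _
      rw [degD_single, CE5_280.degP_eq_one]; simp
    rw [Finset.sum_congr rfl h2, Finset.sum_const]
    simp [mul_comm]

/-- divisors of functions -/
theorem conC_divf (hc : algebraicClosure k K₀ = ⊥) {f : K₀} (hf : f ≠ 0) :
    (conC hc (divf (k := k) f) : Pl C K →₀ ℤ) = divf (algebraMap K₀ K f) := by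
  have hf' : algebraMap K₀ K f ≠ 0 := by simpa using hf
  ext P
  have h1 := v_eq hf (resC k K₀ P)
  have h2 := v_eq hf' P
  rw [resC_v hc, h2] at h1
  have h3 := exp_injective h1
  rw [conC_apply]
  omega

theorem algebraMap_mem_LD_conC (hc : algebraicClosure k K₀ = ⊥) {D : Pl k K₀ →₀ ℤ} {f : K₀} :
    algebraMap K₀ K f ∈ LD (conC hc D : Pl C K →₀ ℤ) ↔ f ∈ LD D := by
  have halg : Algebra.IsAlgebraic k C := h.alg
  rw [mem_LD, mem_LD]
  constructor
  · intro hf Q
    obtain ⟨P, rfl⟩ := resC_surjective (k := k) (C := C) (K₀ := K₀) (K := K) Q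
    rw [resC_v hc]
    exact hf P
  · intro hf P
    rw [conC_apply, ← resC_v hc]
    exact hf _

/-- **`ℓ` is preserved** -/
theorem ell_conC (hc : algebraicClosure k K₀ = ⊥) (D : Pl k K₀ →₀ ℤ) :
    ell (conC hc D : Pl C K →₀ ℤ) = ell D := by
  classical
  have halg : Algebra.IsAlgebraic k C := h.alg
  apply le_antisymm
  · -- a basis of `L(D_C)` lies in a finite level
    have hfin := LD_finite (conC hc D : Pl C K →₀ ℤ)
    let b := Module.finBasis C (LD (conC hc D : Pl C K →₀ ℤ))
    obtain ⟨k', hk', hT⟩ := exists_lev (k := k) (C := C) K₀ K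
      (Set.range fun i => ((b i : LD (conC hc D : Pl C K →₀ ℤ)) : K)) (Set.finite_range _)
    have hce := isCE_lev k C K₀ K hc k'
    rw [← CntB3_491.ell_con hce D]
    have hmem : ∀ i, (⟨(b i : K), hT ⟨i, rfl⟩⟩ : lev K₀ K k') ∈
        LD (CntB3_491.con k' (lev K₀ K k') D) := by
      intro i
      rw [mem_LD]
      intro R
      have halg' : Algebra.IsAlgebraic k' C := (ce_lev' K₀ K k').alg
      obtain ⟨P, rfl⟩ := resC_surjective (k := k') (C := C) (K₀ := lev K₀ K k') (K := K) R
      rw [resC_lev_v hc k' P, CntB3_491.con_apply, res_resC]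
      exact mem_LD.mp (b i).2 P
    have hli : LinearIndependent k' (fun i => (⟨⟨(b i : K), hT ⟨i, rfl⟩⟩, hmem i⟩ :
        LD (CntB3_491.con k' (lev K₀ K k') D))) := by
      have h1 : LinearIndependent C (fun i => (b i : K)) :=
        b.linearIndependent.map' (LD (conC hc D : Pl C K →₀ ℤ)).subtype
          (LinearMap.ker_eq_bot.2 Subtype.val_injective)
      have h2 : LinearIndependent k' (fun i => (b i : K)) :=
        h1.restrict_scalars' k'
      have h3 : LinearIndependent k' (fun i => (⟨(b i : K), hT ⟨i, rfl⟩⟩ : lev K₀ K k')) :=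
        LinearIndependent.of_comp
          (IsScalarTower.toAlgHom k' (lev K₀ K k') K).toLinearMap h2
      exact LinearIndependent.of_comp (LD (CntB3_491.con k' (lev K₀ K k') D)).subtype h3
    have := LD_finite (CntB3_491.con k' (lev K₀ K k') D)
    have h4 := hli.fintype_card_le_finrank
    rw [Fintype.card_fin] at h4
    exact h4
  · have hfin := LD_finite D
    have := LD_finite (conC hc D : Pl C K →₀ ℤ)
    let b := Module.finBasis k (LD D)
    have hmem : ∀ i, algebraMap K₀ K (b i) ∈ LD (conC hc D : Pl C K →₀ ℤ) := fun i =>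
      (algebraMap_mem_LD_conC hc).2 (b i).2
    have h1 : LinearIndependent k (fun i => ((b i : LD D) : K₀)) :=
      b.linearIndependent.map' (LD D).subtype (LinearMap.ker_eq_bot.2 Subtype.val_injective)
    have h2 := linearIndependent_left k C K₀ K h1
    have h3 : LinearIndependent C (fun i => (⟨algebraMap K₀ K (b i), hmem i⟩ :
        LD (conC hc D : Pl C K →₀ ℤ))) :=
      LinearIndependent.of_comp (LD (conC hc D : Pl C K →₀ ℤ)).subtype h2
    have h4 := h3.fintype_card_le_finrank
    rw [Fintype.card_fin] at h4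
    exact h4

/-- **the genus is preserved** -/
theorem gen_eqC (hc : algebraicClosure k K₀ = ⊥) : gen C K = gen k K₀ := by
  have hcC : algebraicClosure C K = ⊥ := CE5_280.algebraicClosure_eq_bot
  obtain ⟨D, hD⟩ := exists_degD_gt (k := k) (K := K₀)
    (max (2 * (gen k K₀ : ℤ) - 2) (2 * (gen C K : ℤ) - 2))
  have h1 := ell_eq_of_lt hc (lt_of_le_of_lt (le_max_left _ _) hD)
  have h2 := ell_eq_of_lt hcC (D := (conC hc D : Pl C K →₀ ℤ)) (by
    rw [degD_conC hc]
    exact lt_of_le_of_lt (le_max_right _ _) hD)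
  rw [ell_conC hc, degD_conC hc] at h2
  omega

end con

end Crest.Agent.R013.Desc_372
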