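import Mathlib
import Crest.Agent.R013.RR19_948

/-!
# R013 / RHP1: relative different exponents on charts, any characteristic (helper240)
-/

set_option autoImplicit false
set_option linter.all false

namespace Crest.Agent.R013.RHP_240

open Polynomial WithZero Module IsDedekindDomain nonZeroDivisors
open Crest.Agent.R013.RR1_948 Crest.Agent.R013.RR2_948 Crest.Agent.R013.RR3_948
open Crest.Agent.R013.RR4_948 Crest.Agent.R013.RR5_948 Crest.Agent.R013.RR6_948
open Crest.Agent.R013.RR16_948

attribute [local instance] FractionRing.liftAlgebra FractionRing.isScalarTower_liftAlgebra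

section Count

variable {O O' : Type*} [CommRing O] [IsDedekindDomain O] [CommRing O'] [IsDedekindDomain O']
  [Algebra O O'] [Module.IsTorsionFree O O']

theorem mem_pow_iff {O : Type*} [CommRing O] [IsDedekindDomain O] (w : HeightOneSpectrum O)
    (x : O) (n : ℕ) : x ∈ w.asIdeal ^ n ↔ w.intValuation x ≤ exp (-(n : ℤ)) := by
  rw [w.intValuation_le_pow_iff_mem]

/-- exponent of the extension of an ideal -/
theorem count_map (w : HeightOneSpectrum O) (w' : HeightOneSpectrum O') {e : ℕ}
    (hval : ∀ x : O, w'.intValuation (algebraMap O O' x) = w.intValuation x ^ e)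
    {I : Ideal O} (hI : I ≠ ⊥) :
    (Associates.mk w'.asIdeal).count (Associates.mk (I.map (algebraMap O O'))).factors =
      e * (Associates.mk w.asIdeal).count (Associates.mk I).factors := by
  classical
  set n := (Associates.mk w.asIdeal).count (Associates.mk I).factors with hn
  have hI0 : Associates.mk I ≠ 0 := Associates.mk_ne_zero.mpr hI
  have hirr := w.associates_irreducible
  have hirr' := w'.associates_irreducible
  have hmap0 : I.map (algebraMap O O') ≠ ⊥ := by
    rw [ne_eq, Ideal.map_eq_bot_iff_of_injective (FaithfulSMul.algebraMap_injective O O')]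
    exact hI
  have hmap0' : Associates.mk (I.map (algebraMap O O')) ≠ 0 := Associates.mk_ne_zero.mpr hmap0
  have h1 : w.asIdeal ^ n ∣ I := by
    rw [← Associates.mk_le_mk_iff_dvd, Associates.mk_pow, Associates.prime_pow_dvd_iff_le hI0 hirr]
  have h2 : ¬ w.asIdeal ^ (n + 1) ∣ I := by
    rw [← Associates.mk_le_mk_iff_dvd, Associates.mk_pow, Associates.prime_pow_dvd_iff_le hI0 hirr]
    omega
  have h3 : ¬ I ≤ w.asIdeal ^ (n + 1) := by rwa [← Ideal.dvd_iff_le]
  obtain ⟨a, haI, ha⟩ := Set.not_subset.mp h3
  have hale : w.intValuation a ≤ exp (-(n : ℤ)) :=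
    (mem_pow_iff w a n).mp (Ideal.dvd_iff_le.mp h1 haI)
  have hagt : exp (-((n + 1 : ℕ) : ℤ)) < w.intValuation a := by
    rw [← not_le]
    intro h
    exact ha ((mem_pow_iff w a (n + 1)).mpr h)
  have hane : w.intValuation a ≠ 0 := fun h => by
    rw [h] at hagt; exact not_lt.mpr zero_le hagt
  have hav : w.intValuation a = exp (-(n : ℤ)) := by
    rw [← exp_log hane] at hale hagt ⊢
    rw [exp_le_exp] at hale
    rw [exp_lt_exp] at hagt
    push_cast at hagt
    rw [exp_inj]
    omega
  have hle : w'.asIdeal ^ (e * n) ∣ I.map (algebraMap O O') := by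
    rw [Ideal.dvd_iff_le, Ideal.map_le_iff_le_comap]
    intro x hx
    rw [Ideal.mem_comap, mem_pow_iff, hval]
    have hxw : w.intValuation x ≤ exp (-(n : ℤ)) :=
      (mem_pow_iff w x n).mp (Ideal.dvd_iff_le.mp h1 hx)
    calc w.intValuation x ^ e ≤ exp (-(n : ℤ)) ^ e := pow_le_pow_left₀ zero_le hxw e
      _ = exp (-((e * n : ℕ) : ℤ)) := by
        rw [← exp_nsmul]; congr 1; push_cast; simp
  have hnle : ¬ w'.asIdeal ^ (e * n + 1) ∣ I.map (algebraMap O O') := by
    intro h
    have h4 := Ideal.dvd_iff_le.mp h (Ideal.mem_map_of_mem _ haI)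
    rw [mem_pow_iff, hval, hav, ← exp_nsmul, exp_le_exp] at h4
    push_cast at h4
    simp only [smul_neg, nsmul_eq_mul] at h4
    omega
  have h5 : e * n ≤ (Associates.mk w'.asIdeal).count
      (Associates.mk (I.map (algebraMap O O'))).factors := by
    rw [← Associates.prime_pow_dvd_iff_le hmap0' hirr', ← Associates.mk_pow,
      Associates.mk_le_mk_iff_dvd]
    exact hle
  have h6 : ¬ e * n + 1 ≤ (Associates.mk w'.asIdeal).count
      (Associates.mk (I.map (algebraMap O O'))).factors := by
    rw [← Associates.prime_pow_dvd_iff_le hmap0' hirr', ← Associates.mk_pow,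
      Associates.mk_le_mk_iff_dvd]
    exact hnle
  omega

end Count

section Exponent

variable (S F K L : Type*) {O O' : Type*} [CommRing S] [IsDomain S] [IsPrincipalIdealRing S]
  [Field F] [Algebra S F] [IsFractionRing S F]
  [Field K] [Algebra F K] [FiniteDimensional F K] [Algebra.IsSeparable F K] [Algebra S K]
  [IsScalarTower S F K]
  [CommRing O] [IsDedekindDomain O] [Algebra S O] [Algebra O K] [IsScalarTower S O K]
  [IsIntegralClosure O S K] [IsFractionRing O K]
  [Field L] [Algebra F L] [FiniteDimensional F L] [Algebra.IsSeparable F L] [Algebra S L]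
  [IsScalarTower S F L] [Algebra K L] [IsScalarTower F K L]
  [CommRing O'] [IsDedekindDomain O'] [Algebra S O'] [Algebra O' L] [IsScalarTower S O' L]
  [IsIntegralClosure O' S L] [IsFractionRing O' L]
  [Algebra O O'] [IsScalarTower S O O'] [Algebra O L] [IsScalarTower O O' L]
  [IsScalarTower O K L]

include F K in
theorem injective_S_O : Function.Injective (algebraMap S O) := by
  have h1 : Function.Injective (algebraMap S K) := by
    rw [IsScalarTower.algebraMap_eq S F K]
    exact (algebraMap F K).injective.comp (IsFractionRing.injective S F)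
  rw [IsScalarTower.algebraMap_eq S O K] at h1
  exact Function.Injective.of_comp h1

include K L in
theorem injective_O_O' : Function.Injective (algebraMap O O') := by
  have h1 : Function.Injective (algebraMap O L) := by
    rw [IsScalarTower.algebraMap_eq O K L]
    exact (algebraMap K L).injective.comp (IsFractionRing.injective O K)
  rw [IsScalarTower.algebraMap_eq O O' L] at h1
  exact Function.Injective.of_comp h1

include S F K L in
theorem setup : Module.IsTorsionFree S O ∧ Module.IsTorsionFree S O' ∧
    Module.IsTorsionFree O O' ∧ Module.Finite S O ∧ Module.Finite S O' ∧ Module.Finite O O' := by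
  haveI : FaithfulSMul S O :=
    (faithfulSMul_iff_algebraMap_injective S O).mpr (injective_S_O S F K)
  haveI : FaithfulSMul S O' :=
    (faithfulSMul_iff_algebraMap_injective S O').mpr (injective_S_O S F L)
  haveI : FaithfulSMul O O' :=
    (faithfulSMul_iff_algebraMap_injective O O').mpr (injective_O_O' K L)
  haveI h1 : Module.Finite S O := IsIntegralClosure.finite S F K O
  haveI h2 : Module.Finite S O' := IsIntegralClosure.finite S F L O'
  exact ⟨inferInstance, inferInstance, inferInstance, h1, h2,
    Module.Finite.of_restrictScalars_finite S O O'⟩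

theorem diffD_eq_count (w : HeightOneSpectrum O) [Module.IsTorsionFree S O]
    [Module.Finite S O] :
    diffD S F K O w =
      ((Associates.mk w.asIdeal).count (Associates.mk (differentIdeal S O)).factors : ℤ) := by
  haveI := isSeparable_fractionRing S F K O
  have hD0 : differentIdeal S O ≠ ⊥ := differentIdeal_ne_bot
  rw [diffD_apply, ← FractionalIdeal.count_inv, ← coeIdeal_differentIdeal S F K O,
    FractionalIdeal.count_coe K w hD0]

/-- transitivity of different exponents, with the lower bound `e - 1` -/
theorem exists_exponent (w : HeightOneSpectrum O) (w' : HeightOneSpectrum O') {e : ℕ}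
    (hval : ∀ x : O, w'.intValuation (algebraMap O O' x) = w.intValuation x ^ e)
    [Module.IsTorsionFree O O'] [Module.Finite O O'] :
    ∃ d : ℕ, diffD S F L O' w' = d + e * diffD S F K O w ∧ e - 1 ≤ d ∧
      (d = 0 ↔ ¬ w'.asIdeal ∣ differentIdeal O O') := by
  classical
  obtain ⟨i1, i2, _, i4, i5, _⟩ := setup S F K L (O := O) (O' := O')
  haveI := isSeparable_fractionRing S F K O
  haveI := isSeparable_fractionRing S F L O'
  haveI hsep : Algebra.IsSeparable (FractionRing O) (FractionRing O') :=
    Algebra.isSeparable_tower_top_of_isSeparable (FractionRing S) _ _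
  have hD0 : differentIdeal S O ≠ ⊥ := differentIdeal_ne_bot
  have hD0' : differentIdeal S O' ≠ ⊥ := differentIdeal_ne_bot
  have hR0 : differentIdeal O O' ≠ ⊥ := differentIdeal_ne_bot
  have hmap0 : (differentIdeal S O).map (algebraMap O O') ≠ ⊥ := by
    rw [ne_eq, Ideal.map_eq_bot_iff_of_injective (FaithfulSMul.algebraMap_injective O O')]
    exact hD0
  have hirr' := w'.associates_irreducible
  have htr : differentIdeal S O' =
      differentIdeal O O' * (differentIdeal S O).map (algebraMap O O') :=
    differentIdeal_eq_differentIdeal_mul_differentIdeal S O O'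
  have h3 : Associates.mk (differentIdeal O O') ≠ 0 := Associates.mk_ne_zero.mpr hR0
  have hcount : (Associates.mk w'.asIdeal).count (Associates.mk (differentIdeal S O')).factors =
      (Associates.mk w'.asIdeal).count (Associates.mk (differentIdeal O O')).factors +
      e * (Associates.mk w.asIdeal).count (Associates.mk (differentIdeal S O)).factors := by
    rw [htr, ← Associates.mk_mul_mk, Associates.count_mul h3 (Associates.mk_ne_zero.mpr hmap0) hirr',
      count_map w w' hval hD0]
  refine ⟨(Associates.mk w'.asIdeal).count (Associates.mk (differentIdeal O O')).factors, ?_, ?_, ?_⟩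
  · rw [diffD_eq_count S F L w', diffD_eq_count S F K w, hcount]
    push_cast
    ring
  · rw [← Associates.prime_pow_dvd_iff_le h3 hirr', ← Associates.mk_pow,
      Associates.mk_le_mk_iff_dvd]
    haveI : w.asIdeal.IsMaximal := w.isMaximal
    refine pow_sub_one_dvd_differentIdeal O w'.asIdeal e w.ne_bot ?_
    rw [Ideal.dvd_iff_le, Ideal.map_le_iff_le_comap]
    intro x hx
    rw [Ideal.mem_comap, mem_pow_iff, hval]
    have h4 : w.intValuation x ≤ exp (-((1 : ℕ) : ℤ)) := by
      rw [← mem_pow_iff, pow_one]; exact hx
    calc w.intValuation x ^ e ≤ exp (-((1 : ℕ) : ℤ)) ^ e := pow_le_pow_left₀ zero_le h4 e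
      _ = exp (-(e : ℤ)) := by rw [← exp_nsmul]; congr 1; simp
  · constructor
    · intro h0 hdvd
      have h4 : 1 ≤ (Associates.mk w'.asIdeal).count
          (Associates.mk (differentIdeal O O')).factors := by
        rw [← Associates.prime_pow_dvd_iff_le h3 hirr', pow_one, Associates.mk_le_mk_iff_dvd]
        exact hdvd
      omega
    · intro h
      by_contra h0
      have h4 : 1 ≤ (Associates.mk w'.asIdeal).count
          (Associates.mk (differentIdeal O O')).factors := by omega
      rw [← Associates.prime_pow_dvd_iff_le h3 hirr', pow_one, Associates.mk_le_mk_iff_dvd] at h4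
      exact h h4

/-- unramified (`e = 1`, separable residue extension): the different is trivial -/
theorem not_dvd_of_unramified {O O' : Type*} [CommRing O] [IsDedekindDomain O]
    [CommRing O'] [IsDedekindDomain O'] [Algebra O O']
    [Module.IsTorsionFree O O'] [Module.Finite O O']
    [Algebra.IsSeparable (FractionRing O) (FractionRing O')]
    (w : HeightOneSpectrum O) (w' : HeightOneSpectrum O')
    (hval : ∀ x : O, w'.intValuation (algebraMap O O' x) = w.intValuation x)
    [w'.asIdeal.LiesOver w.asIdeal]
    [Algebra.IsSeparable (O ⧸ w.asIdeal) (O' ⧸ w'.asIdeal)] :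
    ¬ w'.asIdeal ∣ differentIdeal O O' := by
  classical
  haveI : w.asIdeal.IsMaximal := w.isMaximal
  haveI : w'.asIdeal.IsMaximal := w'.isMaximal
  obtain ⟨Q, hQ⟩ : w'.asIdeal ∣ w.asIdeal.map (algebraMap O O') := by
    rw [Ideal.dvd_iff_le, Ideal.map_le_iff_le_comap]
    intro x hx
    rw [Ideal.mem_comap, ← pow_one w'.asIdeal, mem_pow_iff, hval, ← mem_pow_iff, pow_one]
    exact hx
  have h2 : ¬ w'.asIdeal ^ 2 ∣ w.asIdeal.map (algebraMap O O') := by
    intro h
    have h3 : ¬ w.asIdeal ≤ w.asIdeal ^ 2 := by
      intro h4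
      have h5 := w.isMaximal
      have h6 : w.asIdeal = w.asIdeal ^ 2 := le_antisymm h4 (Ideal.pow_le_self two_ne_zero)
      have h7 : w.asIdeal * 1 = w.asIdeal * w.asIdeal := by rw [mul_one, ← pow_two]; exact h6
      have h8 := mul_left_cancel₀ w.ne_bot h7
      exact h5.ne_top (by rw [← h8]; exact Ideal.one_eq_top)
    obtain ⟨a, haI, ha⟩ := Set.not_subset.mp h3
    apply ha
    have h4 := Ideal.dvd_iff_le.mp h (Ideal.mem_map_of_mem _ haI)
    rw [mem_pow_iff, hval, ← mem_pow_iff] at h4
    exact h4
  have hQw : ¬ w'.asIdeal ∣ Q := by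
    rintro ⟨Q', rfl⟩
    apply h2
    rw [hQ, pow_two, ← mul_assoc]
    exact dvd_mul_right _ _
  have hcop : IsCoprime w'.asIdeal Q := by
    rw [Ideal.isCoprime_iff_sup_eq]
    by_contra hne
    have h := w'.isMaximal.eq_of_le hne le_sup_left
    apply hQw
    rw [Ideal.dvd_iff_le, h]
    exact le_sup_right
  exact not_dvd_differentIdeal_of_isCoprime_of_isSeparable O w'.asIdeal Q hcop hQ.symm

end Exponent

end Crest.Agent.R013.RHP_240
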