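import Mathlib
import Crest.Agent.R013.RHP1_240

/-!
# R013 / RHP2: Riemann-Hurwitz in any characteristic (helper240)
-/

set_option autoImplicit false
set_option linter.all false

namespace Crest.Agent.R013.RHP_240

open Polynomial WithZero Module IsDedekindDomain nonZeroDivisors
open Crest.Agent.R013.RR1_948 Crest.Agent.R013.RR2_948 Crest.Agent.R013.RR3_948
open Crest.Agent.R013.RR4_948 Crest.Agent.R013.RR5_948 Crest.Agent.R013.RR6_948
open Crest.Agent.R013.RR7_948 Crest.Agent.R013.RR8_948 Crest.Agent.R013.RR9_948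
open Crest.Agent.R013.RR10_948
open Crest.Agent.R013.RR11_948 Crest.Agent.R013.RR12_948 Crest.Agent.R013.RR13_948
open Crest.Agent.R013.RR14_948 Crest.Agent.R013.RR15_948 Crest.Agent.R013.RR16_948
open Crest.Agent.R013.RR17_948 Crest.Agent.R013.RR18_948 Crest.Agent.R013.RR19_948

attribute [local instance] FractionRing.liftAlgebra FractionRing.isScalarTower_liftAlgebra

section Local

variable {k : Type*} [Field k] {K : Type*} [Field K] [Algebra k K] [Algebra (RatFunc k) K]
  [IsScalarTower k (RatFunc k) K] [FiniteDimensional (RatFunc k) K]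
  [Algebra.IsSeparable (RatFunc k) K]
  {L : Type*} [Field L] [Algebra k L] [Algebra K L] [IsScalarTower k K L]
  [FiniteDimensional K L] [Algebra.IsSeparable K L]
  [Algebra (RatFunc k) L] [IsScalarTower k (RatFunc k) L] [FiniteDimensional (RatFunc k) L]
  [Algebra.IsSeparable (RatFunc k) L] [IsScalarTower (RatFunc k) K L]

/-- the local statement on a chart -/
theorem chart_aux (S : Type*) {O O' : Type*} [CommRing S] [IsDomain S] [IsPrincipalIdealRing S]
    [Algebra S (RatFunc k)] [IsFractionRing S (RatFunc k)]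
    [Algebra S K] [IsScalarTower S (RatFunc k) K]
    [CommRing O] [IsDedekindDomain O] [Algebra S O] [Algebra O K] [IsScalarTower S O K]
    [IsIntegralClosure O S K] [IsFractionRing O K]
    [Algebra S L] [IsScalarTower S (RatFunc k) L]
    [CommRing O'] [IsDedekindDomain O'] [Algebra S O'] [Algebra O' L] [IsScalarTower S O' L]
    [IsIntegralClosure O' S L] [IsFractionRing O' L]
    [Algebra O O'] [IsScalarTower S O O'] [Algebra O L] [IsScalarTower O O' L]
    [IsScalarTower O K L]
    [Algebra k O] [IsScalarTower k O K] [Algebra k O'] [IsScalarTower k O' L]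
    (w : HeightOneSpectrum O) (w' : HeightOneSpectrum O')
    (hu : under K (ofH w' : Pl k L) = ofH w) :
    ∃ d : ℕ, diffD S (RatFunc k) L O' w' =
        d + eR K (ofH w' : Pl k L) * diffD S (RatFunc k) K O w ∧
      eR K (ofH w' : Pl k L) - 1 ≤ d ∧
      (PerfectField k → (d = 0 ↔ eR K (ofH w' : Pl k L) = 1)) := by
  classical
  obtain ⟨i1, i2, i3, i4, i5, i6⟩ := setup S (RatFunc k) K L (O := O) (O' := O')
  have hval : ∀ x : O, w'.intValuation (algebraMap O O' x) =
      w.intValuation x ^ eR K (ofH w' : Pl k L) := by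
    intro x
    have h1 := v_algebraMap (ofH w' : Pl k L) (algebraMap O K x)
    rw [hu] at h1
    have h2 : (ofH w : Pl k K).v (algebraMap O K x) = w.intValuation x :=
      HeightOneSpectrum.valuation_of_algebraMap w x
    have h3 : (ofH w' : Pl k L).v (algebraMap K L (algebraMap O K x)) =
        w'.intValuation (algebraMap O O' x) := by
      rw [← IsScalarTower.algebraMap_apply O K L, IsScalarTower.algebraMap_apply O O' L]
      exact HeightOneSpectrum.valuation_of_algebraMap w' _
    rw [← h2, ← h3]
    exact h1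
  obtain ⟨d, hd, hd1, hd2⟩ := exists_exponent S (RatFunc k) K L w w' hval
  refine ⟨d, hd, hd1, fun hp => ?_⟩
  constructor
  · intro h0
    have := eR_pos (K := K) (ofH w' : Pl k L)
    omega
  · intro h1
    rw [hd2]
    have hval' : ∀ x : O, w'.intValuation (algebraMap O O' x) = w.intValuation x := by
      intro x; rw [hval, h1, pow_one]
    haveI hlies : w'.asIdeal.LiesOver w.asIdeal := by
      constructor
      ext x
      rw [Ideal.mem_comap, ← pow_one w.asIdeal, ← pow_one w'.asIdeal, mem_pow_iff, mem_pow_iff,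
        hval']
    haveI := isSeparable_fractionRing S (RatFunc k) K O
    haveI := isSeparable_fractionRing S (RatFunc k) L O'
    haveI hsep : Algebra.IsSeparable (FractionRing O) (FractionRing O') :=
      Algebra.isSeparable_tower_top_of_isSeparable (FractionRing S) _ _
    haveI : w.asIdeal.IsMaximal := w.isMaximal
    haveI : w'.asIdeal.IsMaximal := w'.isMaximal
    haveI htow : IsScalarTower k O O' := by
      refine IsScalarTower.of_algebraMap_eq fun c => ?_
      apply IsFractionRing.injective O' L
      rw [← IsScalarTower.algebraMap_apply O O' L, IsScalarTower.algebraMap_apply O K L,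
        ← IsScalarTower.algebraMap_apply k O K, ← IsScalarTower.algebraMap_apply k K L,
        ← IsScalarTower.algebraMap_apply k O' L]
    letI : Field (O ⧸ w.asIdeal) := Ideal.Quotient.field _
    letI : Field (O' ⧸ w'.asIdeal) := Ideal.Quotient.field _
    haveI hfin : Module.Finite k (O ⧸ w.asIdeal) := by
      have h2 := degE_ofH (k := k) (K := K) w
      rw [RR11_948.degE_eq] at h2
      exact (finite_of_length h2.symm).1
    haveI hfin' : Module.Finite k (O' ⧸ w'.asIdeal) := by
      have h2 := degE_ofH (k := k) (K := L) w'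
      rw [RR11_948.degE_eq] at h2
      exact (finite_of_length h2.symm).1
    haveI : IsScalarTower k (O ⧸ w.asIdeal) (O' ⧸ w'.asIdeal) := by
      refine IsScalarTower.of_algebraMap_eq fun c => ?_
      have h2 : algebraMap k (O ⧸ w.asIdeal) c = Ideal.Quotient.mk _ (algebraMap k O c) := rfl
      have h3 : algebraMap k (O' ⧸ w'.asIdeal) c = Ideal.Quotient.mk _ (algebraMap k O' c) := rfl
      rw [h2, h3, Ideal.Quotient.algebraMap_mk_of_liesOver,
        ← IsScalarTower.algebraMap_apply k O O']
    haveI : Algebra.IsAlgebraic k (O ⧸ w.asIdeal) := Algebra.IsAlgebraic.of_finite _ _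
    haveI : PerfectField (O ⧸ w.asIdeal) := Algebra.IsAlgebraic.perfectField (K := k)
    haveI : Algebra.IsAlgebraic k (O' ⧸ w'.asIdeal) := Algebra.IsAlgebraic.of_finite _ _
    haveI : Algebra.IsAlgebraic (O ⧸ w.asIdeal) (O' ⧸ w'.asIdeal) :=
      Algebra.IsAlgebraic.tower_top (K := k) _
    haveI : Algebra.IsSeparable (O ⧸ w.asIdeal) (O' ⧸ w'.asIdeal) := inferInstance
    exact not_dvd_of_unramified w w' hval'

/-- the algebra structure between integral closures -/
@[reducible] noncomputable def algOO (S K L : Type*) [CommRing S] [Field K] [Field L] [Algebra S K]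
    [Algebra S L] [Algebra K L] [IsScalarTower S K L] :
    Algebra (integralClosure S K) (integralClosure S L) :=
  (((algebraMap K L).comp (algebraMap (integralClosure S K) K)).codRestrict (integralClosure S L)
    (fun x => by
      have h : IsIntegral S (x : K) := (mem_integralClosure_iff S K).mp x.2
      have h2 : IsIntegral S (algebraMap K L (x : K)) := h.algebraMap
      exact (mem_integralClosure_iff S L).mpr h2)).toAlgebra

theorem ramD_aux (Q : Pl k L) : ∃ d : ℕ, ramD k K L Q = d ∧ eR K Q - 1 ≤ d ∧
    (PerfectField k → (d = 0 ↔ eR K Q = 1)) := by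
  use_charts k, K
  use_charts k, L
  have hcanK : canD k K = WD k K (integralClosure (Polynomial k) K)
    (integralClosure (Rinf k) K) := rfl
  have hcanL : canD k L = WD k L (integralClosure (Polynomial k) L)
    (integralClosure (Rinf k) L) := rfl
  haveI t1 : IsScalarTower k[X] K L := IsScalarTower.of_algebraMap_eq fun x =>
    IsScalarTower.algebraMap_apply (RatFunc k) K L _
  haveI t2 : IsScalarTower (Rinf k) K L := IsScalarTower.of_algebraMap_eq fun x =>
    IsScalarTower.algebraMap_apply (RatFunc k) K L _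
  have hram : ramD k K L Q = canD k L Q - eR K Q * canD k K (under K Q) := by
    unfold ramD
    rw [Finsupp.sub_apply, con_apply]
  rcases le_or_gt (Q.v (xK k L)) 1 with h | h
  · obtain ⟨w', rfl⟩ := exists_ofH₀ (A₀ := integralClosure (Polynomial k) L) Q h
    have hP : (under K (ofH w' : Pl k L)).v (xK k K) ≤ 1 := by
      rw [under_le_one_iff, algebraMap_xK]; exact h
    obtain ⟨w, hw⟩ := exists_ofH₀ (A₀ := integralClosure (Polynomial k) K)
      (under K (ofH w' : Pl k L)) hP
    letI := algOO k[X] K L
    haveI : IsScalarTower k[X] (integralClosure k[X] K) (integralClosure k[X] L) :=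
      IsScalarTower.of_algebraMap_eq fun x => Subtype.ext
        (IsScalarTower.algebraMap_apply k[X] K L x)
    haveI : IsScalarTower (integralClosure k[X] K) (integralClosure k[X] L) L :=
      IsScalarTower.of_algebraMap_eq fun x => rfl
    obtain ⟨d, hd, hd1, hd2⟩ := chart_aux (k := k) (K := K) (L := L) k[X] w w' hw.symm
    refine ⟨d, ?_, hd1, hd2⟩
    rw [hram, hcanL, hcanK, ← hw, WD_ofH₀, WD_ofH₀, hd]
    ring
  · obtain ⟨w', rfl⟩ := exists_ofH₁ (A₁ := integralClosure (Rinf k) L) Q h
    have hP : 1 < (under K (ofH w' : Pl k L)).v (xK k K) := by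
      rw [← not_le, under_le_one_iff, algebraMap_xK, not_le]; exact h
    obtain ⟨w, hw⟩ := exists_ofH₁ (A₁ := integralClosure (Rinf k) K)
      (under K (ofH w' : Pl k L)) hP
    letI := algOO (Rinf k) K L
    haveI : IsScalarTower (Rinf k) (integralClosure (Rinf k) K) (integralClosure (Rinf k) L) :=
      IsScalarTower.of_algebraMap_eq fun x => Subtype.ext
        (IsScalarTower.algebraMap_apply (Rinf k) K L x)
    haveI : IsScalarTower (integralClosure (Rinf k) K) (integralClosure (Rinf k) L) L :=
      IsScalarTower.of_algebraMap_eq fun x => rfl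
    obtain ⟨d, hd, hd1, hd2⟩ := chart_aux (k := k) (K := K) (L := L) (Rinf k) w w' hw.symm
    refine ⟨d, ?_, hd1, hd2⟩
    have hpole : poleX k L (integralClosure (Rinf k) L) w' =
        eR K (ofH w' : Pl k L) * poleX k K (integralClosure (Rinf k) K) w := by
      have h1 := poleX_spec (k := k) (K := L) (integralClosure (Rinf k) L) w'
      have h2 := poleX_spec (k := k) (K := K) (integralClosure (Rinf k) K) w
      rw [hw] at h2
      have h3 := v_algebraMap_exp (K := K) (ofH w' : Pl k L) h2
      rw [algebraMap_xK, h1, exp_inj] at h3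
      exact h3
    rw [hram, hcanL, hcanK, ← hw, WD_ofH₁, WD_ofH₁, hd, hpole]
    ring

/-- the ramification divisor is at least `e - 1` -/
theorem ramD_ge (Q : Pl k L) : (eR K Q : ℤ) - 1 ≤ ramD k K L Q := by
  obtain ⟨d, hd, hd1, _⟩ := ramD_aux (K := K) Q
  rw [hd]
  omega

theorem ramD_nonneg (Q : Pl k L) : 0 ≤ ramD k K L Q := by
  obtain ⟨d, hd, _, _⟩ := ramD_aux (K := K) Q
  rw [hd]
  exact Nat.cast_nonneg d

theorem ramD_eq_zero_iff [hp : PerfectField k] (Q : Pl k L) :
    ramD k K L Q = 0 ↔ eR K Q = 1 := by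
  obtain ⟨d, hd, _, hd2⟩ := ramD_aux (K := K) Q
  rw [hd, ← hd2 hp]
  exact_mod_cast Iff.rfl

theorem degD_ramD_nonneg : 0 ≤ degD (ramD k K L) := by
  unfold degD
  exact Finset.sum_nonneg fun Q _ => mul_nonneg (ramD_nonneg Q) (Nat.cast_nonneg _)

theorem degD_ramD_eq_zero_iff [hp : PerfectField k] :
    degD (ramD k K L) = 0 ↔ ∀ Q : Pl k L, eR K Q = 1 := by
  constructor
  · intro h Q
    rw [← ramD_eq_zero_iff]
    by_contra hne
    have hsupp : Q ∈ (ramD k K L).support := Finsupp.mem_support_iff.mpr hne
    unfold degD at h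
    have h1 := (Finset.sum_eq_zero_iff_of_nonneg
      (fun Q' _ => mul_nonneg (ramD_nonneg (K := K) Q') (Nat.cast_nonneg _))).mp h Q hsupp
    have h2 : 0 < degP Q := RR11_948.degP_pos Q
    rcases mul_eq_zero.mp h1 with h3 | h3
    · exact hne h3
    · have : degP Q = 0 := by exact_mod_cast h3
      omega
  · intro h
    have : ramD k K L = 0 := by
      ext Q
      rw [Finsupp.zero_apply, ramD_eq_zero_iff]
      exact h Q
    rw [this, degD_zero]

/-- **Riemann-Hurwitz inequality**, any characteristic, `L/K` separable -/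
theorem hurwitz_ge (hcK : algebraicClosure k K = ⊥) (hcL : algebraicClosure k L = ⊥) :
    finrank K L * (2 * (gen k K : ℤ) - 2) ≤ 2 * (gen k L : ℤ) - 2 := by
  rw [hurwitz (K := K) hcK hcL]
  have := degD_ramD_nonneg (k := k) (K := K) (L := L)
  linarith

/-- **Riemann-Hurwitz**: equality iff unramified -/
theorem hurwitz_eq_iff [PerfectField k] (hcK : algebraicClosure k K = ⊥)
    (hcL : algebraicClosure k L = ⊥) :
    2 * (gen k L : ℤ) - 2 = finrank K L * (2 * (gen k K : ℤ) - 2) ↔
      ∀ Q : Pl k L, eR K Q = 1 := by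
  rw [← degD_ramD_eq_zero_iff, hurwitz (K := K) hcK hcL]
  constructor <;> intro h <;> linarith

theorem gen_le (hcK : algebraicClosure k K = ⊥) (hcL : algebraicClosure k L = ⊥) :
    gen k K ≤ gen k L := by
  rcases Nat.eq_zero_or_pos (gen k K) with h0 | h0
  · omega
  · have h1 := hurwitz_ge (L := L) hcK hcL
    have h2 : 1 ≤ finrank K L := Module.finrank_pos
    have h3 : (0 : ℤ) ≤ 2 * (gen k K : ℤ) - 2 := by omega
    have h4 : (2 * (gen k K : ℤ) - 2) ≤ finrank K L * (2 * (gen k K : ℤ) - 2) := by
      have : (1 : ℤ) ≤ finrank K L := by exact_mod_cast h2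
      nlinarith
    omega

theorem gen_lt (hcK : algebraicClosure k K = ⊥) (hcL : algebraicClosure k L = ⊥)
    (hg : 2 ≤ gen k K) (hn : 2 ≤ finrank K L) : gen k K < gen k L := by
  have h1 := hurwitz_ge (L := L) hcK hcL
  have h3 : (0 : ℤ) < 2 * (gen k K : ℤ) - 2 := by omega
  have h4 : 2 * (2 * (gen k K : ℤ) - 2) ≤ finrank K L * (2 * (gen k K : ℤ) - 2) := by
    have : (2 : ℤ) ≤ finrank K L := by exact_mod_cast hn
    nlinarith
  omega

end Local

end Crest.Agent.R013.RHP_240
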