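import Mathlib
import Crest.Agent.R013.BTor6_914
import Crest.Agent.R013.BTor5_914
import Crest.Agent.R013.Desc5_372
import Crest.Agent.R013.RHP2_240

/-!
# R013 / BTor7: nontrivial `l`-torsion over `L k̄` (the hypothesis `htors` of BTor6) from the
existence of `l`-torsion over algebraically closed constants (TORS, 235) (helper914)
-/

set_option autoImplicit false
set_option linter.all false

universe u v w

namespace Crest.Agent.R013.BTor7_914

open WithZero Module
open scoped NNReal IntermediateField
open Crest.NumberTheoryR.Sect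
open Crest.Agent.R013.RR7_948 Crest.Agent.R013.RR8_948 Crest.Agent.R013.RR11_948
open Crest.Agent.R013.RR13_948
open Crest.Agent.R013.Desc_372 Crest.Agent.R013.Desc_372.CE
open Crest.Agent.R013.BTor4_914 Crest.Agent.R013.BTor6_914

section one

variable {F : Type*} [Field F] [CharZero F] {L : Type*} [Field L] [Algebra F L]
  [Algebra (RatFunc F) L] [IsScalarTower F (RatFunc F) L] [FiniteDimensional (RatFunc F) L]

/-- `l | div f` in the form `LDiv` -/
theorem ldiv_of_divf {l : ℕ} {f : L} (h0 : f ≠ 0) {D : Pl F L →₀ ℤ}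
    (hD : divf (k := F) f = (l : ℤ) • D) : LDiv F l f := by
  intro u hu
  obtain ⟨P, hP⟩ := exists_place (k := F) u hu.1 hu.2
  obtain ⟨t, ht⟩ := P.surj (exp (-1))
  have h1 : P.v f = exp (-(l * D P)) := by
    rw [v_eq h0, hD]
    simp
  have h2 := eq_zpow_of_isEquiv hP ht h1
  rw [neg_neg] at h2
  refine ⟨t ^ (D P), ?_⟩
  rw [h2, map_zpow₀, ← zpow_natCast, ← zpow_mul, mul_comm]

theorem divf_pow {f : L} (h0 : f ≠ 0) (n : ℕ) :
    divf (k := F) (f ^ n) = (n : ℤ) • divf (k := F) f := by
  induction n with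
  | zero => simp [divf_one]
  | succ n ih =>
    rw [pow_succ, divf_mul (pow_ne_zero _ h0) h0, ih]
    push_cast
    rw [add_smul, one_smul]

theorem no_root {l : ℕ} (hl : l ≠ 0) {f : L} (h0 : f ≠ 0) {D : Pl F L →₀ ℤ}
    (hD : divf (k := F) f = (l : ℤ) • D) (hn : ∀ g : L, g ≠ 0 → divf (k := F) g ≠ D) (g : L) :
    g ^ l ≠ f := by
  intro hg
  have hg0 : g ≠ 0 := by
    rintro rfl
    rw [zero_pow hl] at hg
    exact h0 hg.symm
  apply hn g hg0
  have h2 := divf_pow (F := F) hg0 l
  rw [hg, hD] at h2
  have hl' : (l : ℤ) ≠ 0 := by exact_mod_cast hl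
  exact (smul_right_injective _ hl' h2).symm

end one

/-- existence of `l`-torsion (235) -/
def TORS : Prop := ∀ (F : Type u) (L : Type v) [Field F] [CharZero F] [IsAlgClosed F] [Field L]
  [Algebra F L] [Algebra (RatFunc F) L] [IsScalarTower F (RatFunc F) L]
  [FiniteDimensional (RatFunc F) L], 1 ≤ gen F L → ∀ l : ℕ, l.Prime →
    ∃ (D : Pl F L →₀ ℤ) (f : L), f ≠ 0 ∧ divf (k := F) f = (l : ℤ) • D ∧
      ∀ g : L, g ≠ 0 → divf (k := F) g ≠ D

section abs

theorem algebraicClosure_eq_bot' {F L : Type*} [Field F] [IsAlgClosed F] [Field L] [Algebra F L] :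
    algebraicClosure F L = ⊥ := CE5_280.algebraicClosure_eq_bot

/-- the context of 948 on `M / F` and the genus -/
theorem exists_ctx (k F K Kb M : Type*) [Field k] [CharZero k] [Field F] [CharZero F]
    [IsAlgClosed F] [Field K] [Field Kb] [Field M] [Algebra k F] [Algebra k K] [Algebra F Kb]
    [Algebra K Kb] [Algebra k Kb] [IsScalarTower k F Kb] [IsScalarTower k K Kb] [CE k F K Kb]
    [Algebra Kb M] [FiniteDimensional Kb M] [Algebra F M] [IsScalarTower F Kb M]
    [Algebra (RatFunc k) K] [IsScalarTower k (RatFunc k) K] [FiniteDimensional (RatFunc k) K]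
    (hc : algebraicClosure k K = ⊥) :
    ∃ (_ : Algebra (RatFunc F) M) (_ : IsScalarTower F (RatFunc F) M)
      (_ : FiniteDimensional (RatFunc F) M), gen k K ≤ gen F M := by
  haveI : CharZero K := charZero_of_injective_algebraMap (algebraMap k K).injective
  haveI : CharZero Kb := charZero_of_injective_algebraMap (algebraMap k Kb).injective
  have halg : Algebra.IsAlgebraic k F := (‹CE k F K Kb› : CE k F K Kb).alg
  haveI : IsGalois k F := by
    haveI : IsAlgClosure k F := ⟨inferInstance, halg⟩
    haveI : Normal k F := IsAlgClosure.normal k F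
    exact {}
  haveI : Algebra.IsAlgebraic K Kb := isAlgebraic k F K Kb
  letI i1 : Algebra (RatFunc F) Kb := ratCE k F K Kb
  haveI i2 : IsScalarTower F (RatFunc F) Kb := ratCE_tower k F K Kb
  haveI i3 : FiniteDimensional (RatFunc F) Kb := finite_rat k F K Kb (ratCE_xK k F K Kb)
  letI j1 : Algebra (RatFunc F) M :=
    ((algebraMap Kb M).comp (algebraMap (RatFunc F) Kb)).toAlgebra
  haveI j0 : IsScalarTower (RatFunc F) Kb M := IsScalarTower.of_algebraMap_eq fun _ => rfl
  haveI j2 : IsScalarTower F (RatFunc F) M := IsScalarTower.of_algebraMap_eq fun x => by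
    rw [IsScalarTower.algebraMap_apply F Kb M, IsScalarTower.algebraMap_apply F (RatFunc F) Kb]
    rfl
  haveI j3 : FiniteDimensional (RatFunc F) M := FiniteDimensional.trans (RatFunc F) Kb M
  refine ⟨j1, j2, j3, ?_⟩
  rw [← gen_eqC (k := k) (C := F) (K₀ := K) (K := Kb) hc]
  exact RHP_240.gen_le algebraicClosure_eq_bot' algebraicClosure_eq_bot'

theorem exists_abs (tors : TORS.{u, v}) (k : Type*) (F : Type u) (K Kb : Type*) (M : Type v)
    [Field k] [CharZero k] [Field F]
    [IsAlgClosed F] [Field K] [Field Kb] [Field M] [Algebra k F] [Algebra k K] [Algebra F Kb]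
    [Algebra K Kb] [Algebra k Kb] [IsScalarTower k F Kb] [IsScalarTower k K Kb] [CE k F K Kb]
    [Algebra Kb M] [FiniteDimensional Kb M] [Algebra F M] [IsScalarTower F Kb M]
    [Algebra (RatFunc k) K] [IsScalarTower k (RatFunc k) K] [FiniteDimensional (RatFunc k) K]
    (hc : algebraicClosure k K = ⊥) (hg : 1 ≤ gen k K) {l : ℕ} (hl : l.Prime) :
    ∃ f : M, f ≠ 0 ∧ LDiv F l f ∧ ∀ g : M, g ^ l ≠ f := by
  haveI : CharZero F := charZero_of_injective_algebraMap (algebraMap k F).injective
  obtain ⟨i1, i2, i3, h⟩ := exists_ctx k F K Kb M hc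
  obtain ⟨D, f, hf, hD, hn⟩ := tors F M (hg.trans h) l hl
  exact ⟨f, hf, ldiv_of_divf hf hD, no_root hl.ne_zero hf hD hn⟩

end abs

section omega

variable {k : Type u} [Field k] [CharZero k] {K : Type u} [Field K] [Algebra k K]
  [Algebra (RatFunc k) K] [IsScalarTower k (RatFunc k) K] [FiniteDimensional (RatFunc k) K]

theorem lev_le_Lbar (L : IntermediateField K (AlgebraicClosure K)) :
    lev K (AlgebraicClosure K) (algebraicClosure k (AlgebraicClosure K)) ≤ Lbar k L := by
  rw [lev_eq_adjoin]
  unfold Lbar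
  refine le_trans ?_ le_sup_right
  refine IntermediateField.adjoin.mono _ _ _ ?_
  intro x hx
  exact (mem_algebraicClosure_iff.mp hx).isIntegral

theorem Lbar_eq (L : IntermediateField K (AlgebraicClosure K)) :
    Lbar k L = L ⊔ lev K (AlgebraicClosure K) (algebraicClosure k (AlgebraicClosure K)) := by
  rw [lev_eq_adjoin]
  unfold Lbar
  congr 2

/-- **`htors` from TORS** -/
theorem exists_htors (tors : TORS.{u, u}) (hc : algebraicClosure k K = ⊥) (hg : 1 ≤ gen k K)
    (L : IntermediateField K (AlgebraicClosure K)) [FiniteDimensional K L] {l : ℕ}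
    (hl : l.Prime) :
    ∃ f : Lbar k L, f ≠ 0 ∧ LDiv k l f ∧ ∀ g : Lbar k L, g ^ l ≠ f := by
  let Ω := AlgebraicClosure K
  let F : IntermediateField k Ω := algebraicClosure k Ω
  let Kb : IntermediateField K Ω := lev K Ω F
  haveI hce : CE k F K Kb := ce_closure k K hc
  haveI : IsAlgClosure k F := algebraicClosure.isAlgClosure k Ω
  haveI : IsAlgClosed F := IsAlgClosure.isAlgClosed k
  have hle : Kb ≤ Lbar k L := lev_le_Lbar L
  let M : IntermediateField Kb Ω := IntermediateField.extendScalars hle
  haveI : FiniteDimensional Kb M := by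
    obtain ⟨s, hs⟩ : ∃ s : Finset Ω, IntermediateField.adjoin K (s : Set Ω) = L := by
      have h1 : Algebra.EssFiniteType K L := inferInstance
      exact IntermediateField.essFiniteType_iff.mp h1
    have h2 : M = IntermediateField.adjoin Kb (s : Set Ω) := by
      apply le_antisymm
      · intro x hx
        have hx' : x ∈ Lbar k L := hx
        rw [Lbar_eq] at hx'
        have h3 : L ⊔ Kb ≤ (IntermediateField.adjoin Kb (s : Set Ω)).restrictScalars K := by
          refine sup_le ?_ ?_
          · rw [← hs, IntermediateField.adjoin_le_iff]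
            exact IntermediateField.subset_adjoin Kb _
          · intro y hy
            exact (IntermediateField.adjoin Kb (s : Set Ω)).algebraMap_mem ⟨y, hy⟩
        exact h3 hx'
      · rw [IntermediateField.adjoin_le_iff]
        intro y hy
        have h3 : L ≤ Lbar k L := le_sup_left
        refine h3 ?_
        rw [← hs]
        exact IntermediateField.subset_adjoin _ _ hy
    rw [h2]
    exact IntermediateField.finiteDimensional_adjoin fun x hx => Algebra.IsIntegral.isIntegral x
  letI : Algebra F M := ((algebraMap Kb M).comp (algebraMap F Kb)).toAlgebra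
  haveI : IsScalarTower F Kb M := IsScalarTower.of_algebraMap_eq fun _ => rfl
  obtain ⟨f, hf, hdiv, hn⟩ := exists_abs tors k F K Kb M hc hg hl
  haveI : IsScalarTower k F M := IsScalarTower.of_algebraMap_eq fun _ => rfl
  have h1 : LDiv k l f := LDiv.of_alg (k' := F) hdiv
  exact ⟨⟨f.1, f.2⟩, fun h => hf (Subtype.ext (congrArg Subtype.val h)),
    h1, fun g hgl => hn ⟨g.1, g.2⟩ (Subtype.ext (congrArg Subtype.val hgl))⟩

end omega

end Crest.Agent.R013.BTor7_914
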