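import Crest.Agent.R013.Set2_803

/-!
# Row 13, B-SET, part 3: the subfield `SD` of the elements expanded on the disc of radius `R`, and the
embedding `kap : SD →+* FDisc C R`.
-/

set_option autoImplicit false
set_option linter.unusedSectionVars false
set_option linter.style.haveILetI false

noncomputable section

namespace Crest.Agent.R013.Set_803

open scoped NNReal Topology
open Filter PowerSeries Crest.NumberTheoryR.Sect Crest.Agent.R013.A2a_275 Crest.Agent.R013.Gl946
  Crest.Agent.R013.SE_669 Crest.Agent.R013.KAS2_940 Crest.Agent.R013.KAS3_940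
  Crest.Agent.R013.Good1_940 Crest.Agent.R013.Good3_940 Crest.Agent.R013.CGood_588

variable {k : Type*} [Field k] {Ω : Type*} [Field Ω] [Algebra k Ω]
variable {p : ℕ} [hp : Fact p.Prime] [Algebra ℚ_[p] k] {v P : Valuation Ω ℝ≥0}
  {C : IntermediateField k Ω}

theorem psum_eq_aeval (f : Polynomial C) (t : Ω) (n : ℕ) (hn : f.natDegree < n) :
    psum (fun i => ((f.coeff i : C) : Ω)) t n = Polynomial.aeval t f := by
  rw [Polynomial.aeval_eq_sum_range' hn, psum]
  exact Finset.sum_congr rfl fun i _ => by rw [Algebra.smul_def]; rfl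

theorem gaussAt_norm {t : Ω} (hG : GaussAt C t v) : v t = 1 := by
  have h := hG 2 (fun i => if i = 1 then 1 else 0) (fun i => by
    split_ifs
    · exact one_mem _
    · exact zero_mem _)
  have h1 : psum (fun i => if i = 1 then (1 : Ω) else 0) t 2 = t := by
    simp [psum]
  rw [h1] at h
  rw [h]
  apply le_antisymm
  · refine Finset.sup_le fun i _ => ?_
    split_ifs <;> simp
  · refine le_trans ?_ (Finset.le_sup (b := 1) (by simp))
    simp

/-- `Cpl v` as a normed algebra over `C`. -/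
@[reducible] def nalgC (hv : ExtendsPadicNorm k Ω p v) (C : IntermediateField k Ω) :
    letI := nC hv C; NormedAlgebra C (Cpl v) := nalg0 v C

/-- the Gauss norm in the setting of 946 -/
theorem isGauss_of_gaussAt (hv : ExtendsPadicNorm k Ω p v) {t : Ω} (hG : GaussAt C t v) :
    letI := nC hv C; letI := nalgC hv C; IsGauss C (toCpl v t) := by
  letI := nC hv C
  letI := nalgC hv C
  have key : ∀ f : Polynomial C, Polynomial.aeval (toCpl v t) f = toCpl v (Polynomial.aeval t f) := by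
    intro f
    have h1 : (toCpl v) (Polynomial.aeval t f) = Polynomial.eval₂ ((toCpl v).comp (algebraMap C Ω))
        (toCpl v t) f := by
      rw [Polynomial.aeval_def, Polynomial.hom_eval₂]
    rw [h1, Polynomial.aeval_def]
    rfl
  have key2 : ∀ (f : Polynomial C) (i : ℕ), (v ((f.coeff i : C) : Ω) : ℝ) ≤
      ‖toCpl v (Polynomial.aeval t f)‖ := by
    intro f i
    rw [norm_toCpl, ← psum_eq_aeval f t (max f.natDegree i + 1) (by omega),
      hG _ _ (fun i => (f.coeff i : C).2)]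
    have := Finset.le_sup (f := fun i => v ((f.coeff i : C) : Ω))
      (s := Finset.range (max f.natDegree i + 1)) (b := i) (by simp)
    exact_mod_cast this
  refine ⟨?_, fun f i => ?_⟩
  · rw [norm_toCpl, gaussAt_norm hG]; simp
  · have h1 := key2 f i
    rw [← key f] at h1
    rw [norm_nC hv C]
    exact h1

section Kap

/-- The data of a disc `|x| < R` with constants `C`, a norm `v` which is the Gauss norm of centre `q`
and radius `|c|`, and a place `P`, trivial on `C`, with `P x < 1`. -/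
structure DiscData (p : ℕ) [Fact p.Prime] [Algebra ℚ_[p] k] (v P : Valuation Ω ℝ≥0)
    (C : IntermediateField k Ω) (R : ℝ≥0) (x q c : Ω) : Prop where
  hv : ExtendsPadicNorm k Ω p v
  hP : ∀ a : C, P (a : Ω) ≤ 1
  hPx : P x < 1
  qC : q ∈ C
  cC : c ∈ C
  c0 : c ≠ 0
  qR : v q < R
  cR : v c < R
  gauss : GaussAt C ((x - q) / c) v

namespace DiscData

variable {R : ℝ≥0} {x q c : Ω} (D : DiscData p v P C R x q c)

include D

theorem hR : 0 < R := lt_of_le_of_lt zero_le D.cR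

theorem x_eq : x = q + c * ((x - q) / c) := by
  rw [mul_div_cancel₀ _ D.c0]; ring

theorem hx : v x < R := by
  rw [D.x_eq]
  refine (v.map_add _ _).trans_lt (max_lt D.qR ?_)
  rw [map_mul, gaussAt_norm D.gauss, mul_one]
  exact D.cR

theorem point [FiniteDimensional ℚ_[p] k] [FiniteDimensional k C] (F : BS v C R D.hR) :
    letI := nC D.hv C; letI := nalgC D.hv C
    haveI := ultra_nC D.hv C
    haveI := complete_nC D.hv C
    evW v C R D.hR x D.hx F = evq (k := C) (E := Cpl v) (r := (R : ℝ)) (by exact_mod_cast D.hR)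
      (q := ⟨q, D.qC⟩) (c := ⟨c, D.cC⟩) (isGauss_of_gaussAt D.hv D.gauss)
      (by rw [norm_nC D.hv C]; exact_mod_cast D.qR) (by rw [norm_nC D.hv C]; exact_mod_cast D.cR)
      F := by
  letI := nC D.hv C
  letI := nalgC D.hv C
  haveI := ultra_nC D.hv C
  haveI := complete_nC D.hv C
  have h1 : toCpl v x = pt (k := C) (⟨q, D.qC⟩ : C) ⟨c, D.cC⟩ (toCpl v ((x - q) / c)) := by
    conv_lhs => rw [D.x_eq, map_add, map_mul]
    rfl
  rw [evq, ev_apply, ← h1]
  rfl

theorem evW_injective [FiniteDimensional ℚ_[p] k] [FiniteDimensional k C] :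
    Function.Injective (evW v C R D.hR x D.hx) := by
  letI := nC D.hv C
  letI := nalgC D.hv C
  haveI := ultra_nC D.hv C
  haveI := complete_nC D.hv C
  intro F G h
  rw [D.point, D.point] at h
  refine evq_injective (k := C) (E := Cpl v) (r := (R : ℝ)) ?_ h
  intro h0
  exact D.c0 (congrArg Subtype.val h0)

theorem rep_inv [FiniteDimensional ℚ_[p] k] [FiniteDimensional k C] {f : Ω} (hf : f ≠ 0)
    {G H : C⟦X⟧} (h : IsRep v P C R x f G H) : IsRep v P C R x f⁻¹ H G := by
  have e1 := h.v_eq (hR := D.hR) (hx := D.hx)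
  have hH : evW v C R D.hR x D.hx ⟨H, mem_BS.2 h.bH⟩ ≠ 0 := by
    intro h0
    have h1 := D.evW_injective (h0.trans (map_zero _).symm)
    exact h.ne (congrArg Subtype.val h1)
  have hf' : toCpl v f ≠ 0 := (map_ne_zero _).2 hf
  have hf'' : toCpl P f ≠ 0 := (map_ne_zero _).2 hf
  refine isRep_of D.hR D.hx D.hP D.hPx ?_ (mem_BS.2 h.bH) (mem_BS.2 h.bG) ?_ ?_
  · rintro rfl
    have h2 : (⟨0, mem_BS.2 h.bG⟩ : BS v C R D.hR) = 0 := rfl
    rw [h2, map_zero] at e1
    exact (mul_ne_zero hf' hH) e1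
  · rw [map_inv₀, ← e1, inv_mul_cancel_left₀ hf']
  · rw [map_inv₀, ← h.P_eq D.hP (hx := D.hPx), inv_mul_cancel_left₀ hf'']

/-- **The subfield of the elements expanded on the disc.** -/
def SD [FiniteDimensional ℚ_[p] k] [FiniteDimensional k C] : Subfield Ω where
  carrier := {f | ∃ G H : C⟦X⟧, IsRep v P C R x f G H}
  mul_mem' := by
    rintro f f' ⟨G, H, h⟩ ⟨G', H', h'⟩
    exact ⟨_, _, h.mul D.hR D.hx D.hP D.hPx h'⟩
  one_mem' := ⟨_, _, IsRep.const D.hR D.hx D.hP D.hPx (1 : C)⟩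
  add_mem' := by
    rintro f f' ⟨G, H, h⟩ ⟨G', H', h'⟩
    exact ⟨_, _, h.add D.hR D.hx D.hP D.hPx h'⟩
  zero_mem' := ⟨_, _, IsRep.const D.hR D.hx D.hP D.hPx (0 : C)⟩
  neg_mem' := by
    rintro f ⟨G, H, h⟩
    have h1 := (IsRep.const D.hR D.hx D.hP D.hPx (-1 : C)).mul D.hR D.hx D.hP D.hPx h
    have h2 : (((-1 : C) : C) : Ω) * f = -f := by simp
    rw [h2] at h1
    exact ⟨_, _, h1⟩
  inv_mem' := by
    rintro f ⟨G, H, h⟩
    by_cases hf : f = 0
    · have h1 := IsRep.const D.hR D.hx D.hP D.hPx (0 : C)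
      rw [hf, inv_zero]
      exact ⟨_, _, h1⟩
    · exact ⟨H, G, D.rep_inv hf h⟩

theorem mem_SD [FiniteDimensional ℚ_[p] k] [FiniteDimensional k C] {f : Ω} :
    f ∈ D.SD ↔ ∃ G H : C⟦X⟧, IsRep v P C R x f G H := Iff.rfl

theorem C_le_SD [FiniteDimensional ℚ_[p] k] [FiniteDimensional k C] (a : C) : (a : Ω) ∈ D.SD :=
  ⟨_, _, IsRep.const D.hR D.hx D.hP D.hPx a⟩

theorem x_mem_SD [FiniteDimensional ℚ_[p] k] [FiniteDimensional k C] : x ∈ D.SD :=
  ⟨_, _, IsRep.X D.hR D.hx D.hP D.hPx⟩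

omit D in
theorem isRep_of_discEmb {L : Type*} [Field L] [Algebra L Ω] (h : DiscEmb L C P x R v) (f : L) :
    ∃ G H : C⟦X⟧, IsRep v P C R x (algebraMap L Ω f) G H := by
  obtain ⟨G, H, hG, hH, ⟨i, hi⟩, ⟨B, hB⟩, l1, l2⟩ := h f
  have e1 : cf (PowerSeries.mk fun i => (⟨G i, hG i⟩ : C)) = G := by
    funext j; simp [cf, coeff_mk]
  have e2 : cf (PowerSeries.mk fun i => (⟨H i, hH i⟩ : C)) = H := by
    funext j; simp [cf, coeff_mk]
  refine ⟨PowerSeries.mk fun i => ⟨G i, hG i⟩, PowerSeries.mk fun i => ⟨H i, hH i⟩, ?_, ?_, ?_, ?_,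
    ?_⟩
  · intro h0
    apply hi
    rw [← e2, h0]
    simp [cf]
  · rw [e1]; exact ⟨B, fun i => (hB i).1⟩
  · rw [e2]; exact ⟨B, fun i => (hB i).2⟩
  · rw [e1, e2]; exact l1
  · rw [e1, e2]; exact l2

/-- bounded series on the disc, in fractions -/
abbrev FD : Type _ := FractionRing (BS v C R D.hR)

/-- evaluation of the disc field in the completion at `v` -/
def evF [FiniteDimensional ℚ_[p] k] [FiniteDimensional k C] : D.FD →+* Cpl v :=
  IsFractionRing.lift D.evW_injective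

theorem evF_algebraMap [FiniteDimensional ℚ_[p] k] [FiniteDimensional k C] (F : BS v C R D.hR) :
    D.evF (algebraMap (BS v C R D.hR) D.FD F) = evW v C R D.hR x D.hx F :=
  IsFractionRing.lift_algebraMap _ F

theorem evF_rep [FiniteDimensional ℚ_[p] k] [FiniteDimensional k C] {f : Ω} {G H : C⟦X⟧}
    (h : IsRep v P C R x f G H) :
    D.evF (algebraMap (BS v C R D.hR) D.FD ⟨G, mem_BS.2 h.bG⟩ / algebraMap (BS v C R D.hR) D.FD ⟨H, mem_BS.2 h.bH⟩) =
      toCpl v f := by
  have hH : evW v C R D.hR x D.hx ⟨H, mem_BS.2 h.bH⟩ ≠ 0 := by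
    intro h0
    have h1 := D.evW_injective (h0.trans (map_zero _).symm)
    exact h.ne (congrArg Subtype.val h1)
  rw [map_div₀, D.evF_algebraMap, D.evF_algebraMap, ← h.v_eq (hR := D.hR) (hx := D.hx),
    mul_div_cancel_right₀ _ hH]

theorem exists_kap [FiniteDimensional ℚ_[p] k] [FiniteDimensional k C] :
    ∃ κ : D.SD →+* D.FD, ∀ f, D.evF (κ f) = toCpl v (f : Ω) := by
  have key : ∀ f : D.SD, ∃ g : D.FD, D.evF g = toCpl v (f : Ω) := by
    rintro ⟨f, G, H, h⟩
    exact ⟨_, D.evF_rep h⟩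
  choose κ hκ using key
  have inj : Function.Injective D.evF := D.evF.injective
  refine ⟨{ toFun := κ, map_one' := inj ?_, map_mul' := fun f g => inj ?_, map_zero' := inj ?_,
            map_add' := fun f g => inj ?_ }, hκ⟩
  · rw [hκ, map_one]; exact map_one (toCpl v)
  · rw [map_mul, hκ, hκ, hκ]; exact map_mul (toCpl v) _ _
  · rw [hκ, map_zero]; exact map_zero (toCpl v)
  · rw [map_add, hκ, hκ, hκ]; exact map_add (toCpl v) _ _

/-- **the expansion on the disc** -/
def kap [FiniteDimensional ℚ_[p] k] [FiniteDimensional k C] : D.SD →+* D.FD :=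
  D.exists_kap.choose

theorem evF_kap [FiniteDimensional ℚ_[p] k] [FiniteDimensional k C] (f : D.SD) :
    D.evF (D.kap f) = toCpl v (f : Ω) := D.exists_kap.choose_spec f

theorem kap_rep [FiniteDimensional ℚ_[p] k] [FiniteDimensional k C] {f : Ω} {G H : C⟦X⟧}
    (h : IsRep v P C R x f G H) (hf : f ∈ D.SD) : D.kap ⟨f, hf⟩ =
      algebraMap (BS v C R D.hR) D.FD ⟨G, mem_BS.2 h.bG⟩ / algebraMap (BS v C R D.hR) D.FD ⟨H, mem_BS.2 h.bH⟩ :=
  D.evF.injective (by rw [D.evF_kap, D.evF_rep h])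

theorem kap_const [FiniteDimensional ℚ_[p] k] [FiniteDimensional k C] (a : C)
    (ha : (a : Ω) ∈ D.SD) :
    D.kap ⟨a, ha⟩ = algebraMap (BS v C R D.hR) D.FD ⟨PowerSeries.C a, C_mem_BS v R D.hR a⟩ := by
  have h := D.kap_rep (IsRep.const D.hR D.hx D.hP D.hPx a) ha
  rw [h]
  have : (⟨1, mem_BS.2 (IsRep.const D.hR D.hx D.hP D.hPx a).bH⟩ : BS v C R D.hR) = 1 := rfl
  rw [this, map_one, div_one]

theorem kap_x [FiniteDimensional ℚ_[p] k] [FiniteDimensional k C] (hx : x ∈ D.SD) :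
    D.kap ⟨x, hx⟩ = algebraMap (BS v C R D.hR) D.FD ⟨PowerSeries.X, X_mem_BS v R D.hR⟩ := by
  have h := D.kap_rep (IsRep.X D.hR D.hx D.hP D.hPx) hx
  rw [h]
  have : (⟨1, mem_BS.2 (IsRep.X (C := C) D.hR D.hx D.hP D.hPx).bH⟩ : BS v C R D.hR) = 1 := rfl
  rw [this, map_one, div_one]

end DiscData

end Kap

end Crest.Agent.R013.Set_803
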