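import Mathlib
import Crest.Agent.R013.BTor7_914
import Crest.Agent.R013.Set3_803

/-!
# R013 / BTor8: (OUT): the `l`-torsion datum in the language of B-SET (803) (helper914)
-/

set_option autoImplicit false
set_option linter.all false

noncomputable section

namespace Crest.Agent.R013.BTor8_914

open scoped NNReal Topology IntermediateField
open Filter PowerSeries Crest.NumberTheoryR.Sect Crest.Agent.R013.A2a_275 Crest.Agent.R013.Gl946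
  Crest.Agent.R013.SE_669 Crest.Agent.R013.KAS1_940 Crest.Agent.R013.KAS2_940
  Crest.Agent.R013.KAS3_940
  Crest.Agent.R013.Good1_940 Crest.Agent.R013.Good3_940 Crest.Agent.R013.CGood_588
  Crest.Agent.R013.Set_803 Crest.Agent.R013.BTor3_914 Crest.Agent.R013.BTor4_914

section place

variable {k : Type*} [Field k] {Ω : Type*} [Field Ω] [Algebra k Ω] {P : Valuation Ω ℝ≥0}
  {C : IntermediateField k Ω}

theorem place_one (hP : ∀ a : C, P (a : Ω) ≤ 1) {a : C} (ha : a ≠ 0) : P (a : Ω) = 1 := by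
  apply le_antisymm (hP a)
  have h1 := hP a⁻¹
  have h2 : ((a⁻¹ : C) : Ω) = (a : Ω)⁻¹ := by push_cast; rfl
  have ha' : (a : Ω) ≠ 0 := by simpa using ha
  rw [h2, map_inv₀] at h1
  exact (inv_le_one₀ (zero_lt_iff.mpr ((Valuation.ne_zero_iff P).mpr ha'))).mp h1

theorem norm_evW_le (hP : ∀ a : C, P (a : Ω) ≤ 1) {x : Ω} (hx : P x < 1) (G : C⟦X⟧) :
    ‖evW P C 1 one_pos x hx ⟨G, mem_BS_place hP G⟩‖ ≤ 1 := by
  letI := nfld P C
  haveI := ultra_nfld P C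
  letI := nalg0 P C
  refine norm_ev_le (k := C) (E := Cpl P) (r1 := ((1 : ℝ≥0) : ℝ)) _ ?_
  intro n
  have h1 : ‖coeff n G‖ = P (coeff n G : C) := nfld_norm P C _
  show ‖coeff n G‖ * _ ≤ 1
  rw [h1, norm_toCpl]
  have h2 : P (coeff n G : C) ≤ 1 := hP _
  have h3 : (P x) ^ n ≤ 1 := pow_le_one₀ zero_le hx.le
  exact_mod_cast mul_le_one' h2 h3

theorem evW_place_injective (hP : ∀ a : C, P (a : Ω) ≤ 1) {x : Ω} (hx : P x < 1) (hx0 : x ≠ 0)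
    {H : C⟦X⟧} (hH : H ≠ 0) : evW P C 1 one_pos x hx ⟨H, mem_BS_place hP H⟩ ≠ 0 := by
  obtain ⟨H₁, hH₁⟩ : X ^ H.order.toNat ∣ H := X_pow_order_dvd
  set n := H.order.toNat with hn
  have hc : constantCoeff H₁ ≠ 0 := by
    have h1 : coeff n H ≠ 0 := coeff_order hH
    rw [hH₁, show n = 0 + n by omega, coeff_X_pow_mul', if_pos (by omega)] at h1
    simpa using h1
  obtain ⟨H₂, hH₂⟩ : X ∣ H₁ - PowerSeries.C (constantCoeff H₁) := by
    rw [X_dvd_iff]; simp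
  have e1 : (⟨H, mem_BS_place hP H⟩ : BS P C 1 one_pos) =
      ⟨PowerSeries.X, X_mem_BS P 1 one_pos⟩ ^ n * (⟨PowerSeries.C (constantCoeff H₁),
        C_mem_BS P 1 one_pos _⟩ + ⟨PowerSeries.X, X_mem_BS P 1 one_pos⟩ *
        ⟨H₂, mem_BS_place hP H₂⟩) := by
    apply Subtype.ext
    show H = X ^ n * (PowerSeries.C (constantCoeff H₁) + X * H₂)
    rw [← hH₂, add_sub_cancel, ← hH₁]
  rw [e1, map_mul, map_pow, map_add, map_mul, evW_X, evW_C]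
  have hx' : toCpl P x ≠ 0 := (map_ne_zero _).2 hx0
  refine mul_ne_zero (pow_ne_zero _ hx') ?_
  intro h0
  have h1 : toCpl P ((constantCoeff H₁ : C) : Ω) =
      -(toCpl P x * evW P C 1 one_pos x hx ⟨H₂, mem_BS_place hP H₂⟩) := by
    rw [eq_neg_iff_add_eq_zero]; exact h0
  have h2 := congrArg (fun z => ‖z‖) h1
  simp only [norm_neg, norm_mul, norm_toCpl] at h2
  rw [place_one hP hc] at h2
  have h3 := norm_evW_le hP hx H₂
  have h4 : (P x : ℝ) < 1 := by exact_mod_cast hx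
  have h5 : (P x : ℝ) * ‖evW P C 1 one_pos x hx ⟨H₂, mem_BS_place hP H₂⟩‖ < 1 :=
    (mul_le_of_le_one_right (NNReal.coe_nonneg _) h3).trans_lt h4
  rw [← h2] at h5
  norm_num at h5

end place

section out

variable {k : Type*} [Field k] {Ω : Type*} [Field Ω] [Algebra k Ω]
variable {p : ℕ} [hp : Fact p.Prime] [Algebra ℚ_[p] k] {v P : Valuation Ω ℝ≥0}
  {C : IntermediateField k Ω} {R : ℝ≥0} {x q c : Ω}

theorem x_ne_zero (D : DiscData p v P C R x q c) : x ≠ 0 := by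
  rintro rfl
  have h := D.gauss 2 (fun i => if i = 0 then q / c else if i = 1 then 1 else 0) (fun i => by
    split_ifs
    · exact C.div_mem D.qC D.cC
    · exact one_mem _
    · exact zero_mem _)
  have h1 : psum (fun i => if i = 0 then q / c else if i = 1 then (1 : Ω) else 0)
      ((0 - q) / c) 2 = 0 := by
    simp [psum, Finset.sum_range_succ]
    ring
  rw [h1, map_zero] at h
  have h2 := Finset.le_sup (f := fun i => v (if i = 0 then q / c else if i = 1 then (1 : Ω) else 0))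
    (s := Finset.range 2) (b := 1) (by simp)
  rw [← h] at h2
  simp at h2

variable [FiniteDimensional ℚ_[p] k] [FiniteDimensional k C]

/-- the structure map `C → FD` -/
theorem kap_algebraMap (D : DiscData p v P C R x q c) (a : C) (ha : (a : Ω) ∈ D.SD) :
    letI := nC D.hv C; haveI := ultra_nC D.hv C
    D.kap ⟨a, ha⟩ = cF (k := C) (R := (R : ℝ)) (by exact_mod_cast D.hR) a := D.kap_const a ha

/-- **(OUT), disc field form**: `U` any field with an embedding in `SD`, linear over `C` -/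
theorem out_FDisc (D : DiscData p v P C R x q c) {U : Type*} [Field U] [Algebra C U]
    (j : U →+* D.SD) (hj : ∀ a : C, (j (algebraMap C U a) : Ω) = a) {l : ℕ} (hl : v (l : Ω) = 1)
    {h : U} (h0 : h ≠ 0) (hdiv : LDiv C l h) {ρ : C} (hρ0 : ρ ≠ 0) (hρ : v (ρ : Ω) ≤ R) :
    letI := nC D.hv C; haveI := ultra_nC D.hv C
    ∃ a : C, a ≠ 0 ∧ ∃ g : FDisc C ‖ρ‖ (norm_pos_iff.mpr hρ0), g ≠ 0 ∧
      resF (k := C) (R := (R : ℝ)) (by exact_mod_cast D.hR) (norm_pos_iff.mpr hρ0)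
        (by rw [norm_nC]; exact_mod_cast hρ) (D.kap (j (algebraMap C U a * h))) = g ^ l := by
  letI := nC D.hv C
  haveI := ultra_nC D.hv C
  obtain ⟨π, hπ⟩ := exists_unif D.hv C
  refine exists_root_FDisc (π := π) hπ (by exact_mod_cast D.hR) hρ0
    (by rw [norm_nC]; exact_mod_cast hρ) (D.kap.comp j) ?_ ?_ h0 hdiv
  · intro a
    have h1 : j (algebraMap C U a) = ⟨(a : Ω), D.C_le_SD a⟩ := Subtype.ext (hj a)
    show D.kap (j (algebraMap C U a)) = _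
    rw [h1]
    exact kap_algebraMap D a _
  · rw [norm_nC]
    push_cast
    rw [hl]
    rfl

/-- from the disc field form to the series form -/
theorem rep_of_FDisc (D : DiscData p v P C R x q c) {l : ℕ} {ρ : C} (hρ0 : ρ ≠ 0)
    (hρ : v (ρ : Ω) ≤ R) (hxρ : v x < v (ρ : Ω)) (f : D.SD)
    (hf : letI := nC D.hv C; haveI := ultra_nC D.hv C
      ∃ g : FDisc C ‖ρ‖ (norm_pos_iff.mpr hρ0), g ≠ 0 ∧
        resF (k := C) (R := (R : ℝ)) (by exact_mod_cast D.hR) (norm_pos_iff.mpr hρ0)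
          (by rw [norm_nC]; exact_mod_cast hρ) (D.kap f) = g ^ l) :
    ∃ G H : C⟦X⟧, G ≠ 0 ∧ H ≠ 0 ∧
      (∃ B : ℝ≥0, ∀ i, v (cf G i) * v (ρ : Ω) ^ i ≤ B) ∧
      (∃ B : ℝ≥0, ∀ i, v (cf H i) * v (ρ : Ω) ^ i ≤ B) ∧
      IsRep v P C (v (ρ : Ω)) x (f : Ω) (G ^ l) (H ^ l) := by
  letI := nC D.hv C
  haveI := ultra_nC D.hv C
  have hρn : ‖ρ‖ = v (ρ : Ω) := norm_nC D.hv C ρ
  have hρ1 : 0 < v (ρ : Ω) := lt_of_le_of_lt zero_le hxρ
  obtain ⟨g, hg, hgl⟩ := hf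
  obtain ⟨G, H, hH, rfl⟩ := IsFractionRing.div_surjective
    (A := bsub (K := C) ‖ρ‖ (norm_pos_iff.mpr hρ0)) g
  have hH0 : (H : C⟦X⟧) ≠ 0 := fun h => nonZeroDivisors.ne_zero hH (Subtype.ext h)
  have hG0 : (G : C⟦X⟧) ≠ 0 := by
    intro h
    apply hg
    have : G = 0 := Subtype.ext h
    rw [this, map_zero, zero_div]
  obtain ⟨f, G₀, H₀, hrep⟩ := f
  have bGR : G₀ ∈ BS v C R D.hR := mem_BS.2 hrep.bG
  have bHR : H₀ ∈ BS v C R D.hR := mem_BS.2 hrep.bH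
  have hk' : D.kap ⟨f, G₀, H₀, hrep⟩ =
      algebraMap (BS v C R D.hR) D.FD ⟨G₀, bGR⟩ /
        algebraMap (BS v C R D.hR) D.FD ⟨H₀, bHR⟩ :=
    D.kap_rep hrep ⟨G₀, H₀, hrep⟩
  rw [hk'] at hgl
  -- cross multiplication
  have hR' : (0 : ℝ) < (R : ℝ) := by exact_mod_cast D.hR
  have hρR' : ‖ρ‖ ≤ (R : ℝ) := by rw [hρn]; exact_mod_cast hρ
  have e1 : resF (k := C) (R := (R : ℝ)) hR' (norm_pos_iff.mpr hρ0) hρR'
      (algebraMap (bsub (K := C) (R : ℝ) hR') (FDisc C (R : ℝ) hR') ⟨G₀, bGR⟩ /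
        algebraMap (bsub (K := C) (R : ℝ) hR') (FDisc C (R : ℝ) hR') ⟨H₀, bHR⟩) =
      (algebraMap (bsub (K := C) ‖ρ‖ (norm_pos_iff.mpr hρ0))
          (FDisc C ‖ρ‖ (norm_pos_iff.mpr hρ0)) G /
        algebraMap (bsub (K := C) ‖ρ‖ (norm_pos_iff.mpr hρ0))
          (FDisc C ‖ρ‖ (norm_pos_iff.mpr hρ0)) H) ^ l := hgl
  rw [map_div₀, resF_algebraMap, resF_algebraMap, div_pow] at e1
  have hne1 : algebraMap (bsub (K := C) ‖ρ‖ (norm_pos_iff.mpr hρ0))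
      (FDisc C ‖ρ‖ (norm_pos_iff.mpr hρ0)) (resB hR' (norm_pos_iff.mpr hρ0) hρR'
        ⟨H₀, bHR⟩) ≠ 0 := by
    intro h0
    have h1 := IsFractionRing.injective (bsub (K := C) ‖ρ‖ (norm_pos_iff.mpr hρ0))
      (FDisc C ‖ρ‖ (norm_pos_iff.mpr hρ0)) (h0.trans (map_zero _).symm)
    exact hrep.ne (congrArg Subtype.val h1)
  have hne2 : algebraMap (bsub (K := C) ‖ρ‖ (norm_pos_iff.mpr hρ0))
      (FDisc C ‖ρ‖ (norm_pos_iff.mpr hρ0)) H ^ l ≠ 0 := by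
    refine pow_ne_zero _ fun h0 => ?_
    have h1 := IsFractionRing.injective (bsub (K := C) ‖ρ‖ (norm_pos_iff.mpr hρ0))
      (FDisc C ‖ρ‖ (norm_pos_iff.mpr hρ0)) (h0.trans (map_zero _).symm)
    exact hH0 (congrArg Subtype.val h1)
  rw [div_eq_div_iff hne1 hne2, ← map_pow, ← map_pow, ← map_mul, ← map_mul] at e1
  have e2 := IsFractionRing.injective (bsub (K := C) ‖ρ‖ (norm_pos_iff.mpr hρ0))
    (FDisc C ‖ρ‖ (norm_pos_iff.mpr hρ0)) e1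
  have e3 : G₀ * (H : C⟦X⟧) ^ l = (G : C⟦X⟧) ^ l * H₀ := congrArg Subtype.val e2
  -- bounds
  have mem_of : ∀ F : bsub (K := C) ‖ρ‖ (norm_pos_iff.mpr hρ0), (F : C⟦X⟧) ∈ BS v C (v (ρ : Ω)) hρ1 := by
    intro F
    obtain ⟨F, B, hB⟩ := F
    refine ⟨B, fun n => ?_⟩
    have h1 : ‖coeff n F‖ * ‖ρ‖ ^ n ≤ B := hB n
    rw [hρn] at h1
    exact h1
  have mG := mem_of G
  have mH := mem_of H
  refine ⟨(G : C⟦X⟧), (H : C⟦X⟧), hG0, hH0, mem_BS.1 mG, mem_BS.1 mH, ?_⟩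
  have hev : ∀ (F : C⟦X⟧) (h1 : F ∈ BS v C R D.hR) (h2 : F ∈ BS v C (v (ρ : Ω)) hρ1),
      evW v C (v (ρ : Ω)) hρ1 x hxρ ⟨F, h2⟩ = evW v C R D.hR x D.hx ⟨F, h1⟩ := fun F h1 h2 => rfl
  have bG₀ : G₀ ∈ BS v C (v (ρ : Ω)) hρ1 := by
    obtain ⟨B, hB⟩ := hrep.bG
    exact mem_BS.2 ⟨B, fun i => (mul_le_mul_right (pow_le_pow_left₀ zero_le hρ i) _).trans (hB i)⟩
  have bH₀ : H₀ ∈ BS v C (v (ρ : Ω)) hρ1 := by
    obtain ⟨B, hB⟩ := hrep.bH
    exact mem_BS.2 ⟨B, fun i => (mul_le_mul_right (pow_le_pow_left₀ zero_le hρ i) _).trans (hB i)⟩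
  refine isRep_of hρ1 hxρ D.hP D.hPx (pow_ne_zero _ hH0) (pow_mem mG l) (pow_mem mH l) ?_ ?_
  · have f1 := hrep.v_eq (hR := D.hR) (hx := D.hx)
    rw [← hev _ bGR bG₀, ← hev _ bHR bH₀] at f1
    have f2 : evW v C (v (ρ : Ω)) hρ1 x hxρ ⟨G₀, bG₀⟩ *
        evW v C (v (ρ : Ω)) hρ1 x hxρ ⟨(H : C⟦X⟧) ^ l, pow_mem mH l⟩ =
        evW v C (v (ρ : Ω)) hρ1 x hxρ ⟨(G : C⟦X⟧) ^ l, pow_mem mG l⟩ *
        evW v C (v (ρ : Ω)) hρ1 x hxρ ⟨H₀, bH₀⟩ := by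
      rw [← map_mul, ← map_mul]
      congr 1
      exact Subtype.ext e3
    rw [← f1] at f2
    have f3 : evW v C (v (ρ : Ω)) hρ1 x hxρ ⟨H₀, bH₀⟩ ≠ 0 := by
      rw [hev _ bHR bH₀]
      intro h0
      have h1 := D.evW_injective (h0.trans (map_zero _).symm)
      exact hrep.ne (congrArg Subtype.val h1)
    apply mul_right_cancel₀ f3
    rw [← f2]; ring
  · have f1 := hrep.P_eq D.hP (hx := D.hPx)
    have f2 : evW P C 1 one_pos x D.hPx ⟨G₀, mem_BS_place D.hP _⟩ *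
        evW P C 1 one_pos x D.hPx ⟨(H : C⟦X⟧) ^ l, mem_BS_place D.hP _⟩ =
        evW P C 1 one_pos x D.hPx ⟨(G : C⟦X⟧) ^ l, mem_BS_place D.hP _⟩ *
        evW P C 1 one_pos x D.hPx ⟨H₀, mem_BS_place D.hP _⟩ := by
      rw [← map_mul, ← map_mul]
      congr 1
      exact Subtype.ext e3
    rw [← f1] at f2
    have f3 := evW_place_injective D.hP D.hPx (x_ne_zero D) hrep.ne
    apply mul_right_cancel₀ f3
    rw [← f2]; ring

/-- **(OUT), series form** -/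
theorem out_rep (D : DiscData p v P C R x q c) {U : Type*} [Field U] [Algebra C U]
    (j : U →+* D.SD) (hj : ∀ a : C, (j (algebraMap C U a) : Ω) = a) {l : ℕ} (hl : v (l : Ω) = 1)
    {h : U} (h0 : h ≠ 0) (hdiv : LDiv C l h) {ρ : C} (hρ0 : ρ ≠ 0) (hρ : v (ρ : Ω) ≤ R)
    (hxρ : v x < v (ρ : Ω)) :
    ∃ a : C, a ≠ 0 ∧ ∃ G H : C⟦X⟧, G ≠ 0 ∧ H ≠ 0 ∧
      (∃ B : ℝ≥0, ∀ i, v (cf G i) * v (ρ : Ω) ^ i ≤ B) ∧
      (∃ B : ℝ≥0, ∀ i, v (cf H i) * v (ρ : Ω) ^ i ≤ B) ∧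
      IsRep v P C (v (ρ : Ω)) x ((a : Ω) * (j h : Ω)) (G ^ l) (H ^ l) := by
  obtain ⟨a, ha, hg⟩ := out_FDisc D j hj hl h0 hdiv hρ0 hρ
  refine ⟨a, ha, ?_⟩
  have hjh : (j (algebraMap C U a * h) : Ω) = (a : Ω) * (j h : Ω) := by
    rw [map_mul]
    show (j (algebraMap C U a) : Ω) * _ = _
    rw [hj]
  rw [← hjh]
  exact rep_of_FDisc D hρ0 hρ hxρ _ hg

end out

end Crest.Agent.R013.BTor8_914
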