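import Crest.Agent.R013.Set7_803

/-!
# Row 13, B-SET, part 8: extension of the constants, the circle norm, the data of `GOOD`
-/

set_option autoImplicit false
set_option linter.unusedSectionVars false
set_option linter.style.haveILetI false

noncomputable section

namespace Crest.Agent.R013.Set_803

open scoped NNReal Topology
open Filter PowerSeries Crest.NumberTheoryR.Sect Crest.Agent.R013.A2a_275 Crest.Agent.R013.Gl946
  Crest.Agent.R013.SE_669 Crest.Agent.R013.KAS2_940 Crest.Agent.R013.KAS3_940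
  Crest.Agent.R013.Good1_940 Crest.Agent.R013.Good3_940 Crest.Agent.R013.CGood_588

variable {k : Type*} [Field k] {Ω : Type*} [Field Ω] [Algebra k Ω]
variable {p : ℕ} [hp : Fact p.Prime] [Algebra ℚ_[p] k] {v P : Valuation Ω ℝ≥0}
  {C C' : IntermediateField k Ω}

/-- a place is trivial on the elements algebraic over `k` -/
theorem place_le_one {P : Valuation Ω ℝ≥0} (hP : ∀ c : k, P (algebraMap k Ω c) ≤ 1) {a : Ω}
    (ha : IsAlgebraic k a) : P a ≤ 1 := by
  by_contra hcon
  push Not at hcon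
  obtain ⟨f, hm, hf⟩ := ha.isIntegral
  have h1 : a ^ f.natDegree = -∑ i ∈ Finset.range f.natDegree, algebraMap k Ω (f.coeff i) * a ^ i := by
    have h2 := hf
    rw [← Polynomial.aeval_def, Polynomial.aeval_eq_sum_range, Finset.sum_range_succ] at h2
    have h3 : f.coeff f.natDegree = 1 := hm
    rw [h3, one_smul] at h2
    rw [eq_neg_iff_add_eq_zero, add_comm]
    rw [← h2]
    congr 1
    exact Finset.sum_congr rfl fun i _ => (Algebra.smul_def _ _).symm
  rcases Nat.eq_zero_or_pos f.natDegree with h0 | h0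
  · have := Polynomial.eq_one_of_monic_natDegree_zero hm h0
    rw [this] at hf
    simp at hf
  have h2 : P (a ^ f.natDegree) ≤ P a ^ (f.natDegree - 1) := by
    rw [h1, Valuation.map_neg]
    refine P.map_sum_le fun i hi => ?_
    rw [map_mul, map_pow]
    rw [Finset.mem_range] at hi
    calc _ ≤ 1 * P a ^ (f.natDegree - 1) := mul_le_mul' (hP _)
          (pow_le_pow_right₀ hcon.le (by omega))
      _ = _ := one_mul _
  rw [map_pow] at h2
  have h3 : P a ^ (f.natDegree - 1) < P a ^ f.natDegree := pow_lt_pow_right₀ hcon (by omega)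
  exact absurd h2 (not_le.2 h3)

theorem isAlgebraic_of_mem [FiniteDimensional k C] {a : Ω} (ha : a ∈ C) : IsAlgebraic k a := by
  have h1 : IsAlgebraic k (⟨a, ha⟩ : C) := Algebra.IsAlgebraic.isAlgebraic _
  exact h1.algebraMap

namespace DiscData

variable {R : ℝ≥0} {x q c : Ω} (D : DiscData p v P C R x q c)

include D

omit D in
theorem place_le {k : Type*} [Field k] {Ω : Type*} [Field Ω] [Algebra k Ω]
    [Algebra ℚ_[p] k] {v P : Valuation Ω ℝ≥0} {C : IntermediateField k Ω} {R : ℝ≥0} {x q c : Ω}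
    (D : DiscData p v P C R x q c) {a : Ω} (ha : IsAlgebraic k a) : P a ≤ 1 :=
  place_le_one (fun c => D.hP ⟨algebraMap k Ω c, C.algebraMap_mem c⟩) ha

theorem mono (hC : C ≤ C') [FiniteDimensional k C'] : DiscData p v P C' R x q c where
  hv := D.hv
  hP a := D.place_le (isAlgebraic_of_mem a.2)
  hPx := D.hPx
  qC := hC D.qC
  cC := hC D.cC
  c0 := D.c0
  qR := D.qR
  cR := D.cR
  gauss := Set_803.GaussAt.mono D.gauss fun _ ha => isAlgebraic_of_mem ha

/-- a smaller disc -/
theorem res {R' : ℝ≥0} (hq : v q < R') (hc : v c < R') : DiscData p v P C R' x q c where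
  hv := D.hv
  hP := D.hP
  hPx := D.hPx
  qC := D.qC
  cC := D.cC
  c0 := D.c0
  qR := hq
  cR := hc
  gauss := D.gauss

end DiscData

/-- extension of the constants of a power series -/
def incl (h : C ≤ C') : C →+* C' := (IntermediateField.inclusion h).toRingHom

theorem cf_map (h : C ≤ C') (G : C⟦X⟧) : cf (PowerSeries.map (incl h) G) = cf G := by
  funext i
  simp only [cf, PowerSeries.coeff_map]
  rfl

theorem IsRep.mono {R : ℝ≥0} {x f : Ω} {G H : C⟦X⟧} (hC : C ≤ C') (h : IsRep v P C R x f G H) :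
    IsRep v P C' R x f (PowerSeries.map (incl hC) G) (PowerSeries.map (incl hC) H) where
  ne h0 := h.ne (PowerSeries.map_injective _ (incl hC).injective (h0.trans (map_zero _).symm))
  bG := by rw [cf_map]; exact h.bG
  bH := by rw [cf_map]; exact h.bH
  lv := by rw [cf_map, cf_map]; exact h.lv
  lP := by rw [cf_map, cf_map]; exact h.lP

theorem IsRep.res {R R' : ℝ≥0} {x f : Ω} {G H : C⟦X⟧} (hR : R' ≤ R) (h : IsRep v P C R x f G H) :
    IsRep v P C R' x f G H where
  ne := h.ne
  bG := by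
    obtain ⟨B, hB⟩ := h.bG
    exact ⟨B, fun i => (mul_le_mul_right (pow_le_pow_left' hR i) _).trans (hB i)⟩
  bH := by
    obtain ⟨B, hB⟩ := h.bH
    exact ⟨B, fun i => (mul_le_mul_right (pow_le_pow_left' hR i) _).trans (hB i)⟩
  lv := h.lv
  lP := h.lP

namespace DiscData

variable {R : ℝ≥0} {x q c : Ω} (D : DiscData p v P C R x q c)
  [FiniteDimensional ℚ_[p] k] [FiniteDimensional k C]

/-- Elements expanded on the disc, for more constants. -/
theorem SD_mono (hC : C ≤ C') [FiniteDimensional k C'] : D.SD ≤ (D.mono hC).SD := by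
  rintro f ⟨G, H, h⟩
  exact ⟨_, _, h.mono hC⟩

theorem SD_res {R' : ℝ≥0} (hR : R' ≤ R) (hq : v q < R') (hc : v c < R') :
    D.SD ≤ (D.res hq hc).SD := by
  rintro f ⟨G, H, h⟩
  exact ⟨_, _, h.res hR⟩

theorem le_SD {L : Type*} [Field L] [Algebra L Ω] (h : DiscEmb L C P x R v) (f : L) :
    algebraMap L Ω f ∈ D.SD := isRep_of_discEmb h f

/-- `SD` as an intermediate field -/
def SDK {K : Type*} [Field K] [Algebra K Ω] (h : ∀ f : K, algebraMap K Ω f ∈ D.SD) :
    IntermediateField K Ω := D.SD.toIntermediateField h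

theorem mem_SDK {K : Type*} [Field K] [Algebra K Ω] (h : ∀ f : K, algebraMap K Ω f ∈ D.SD) {a : Ω} :
    a ∈ D.SDK h ↔ a ∈ D.SD := Iff.rfl

/-- `L C' ⊂ SD` -/
theorem sup_le_SDK {K : Type*} [Field K] [Algebra K Ω] {L : IntermediateField K Ω}
    (hL : ∀ f ∈ L, f ∈ D.SD) (S : Set Ω) (hS : ∀ a ∈ S, a ∈ D.SD) :
    ∀ f ∈ L ⊔ IntermediateField.adjoin K S, f ∈ D.SD := by
  have hK : ∀ f : K, algebraMap K Ω f ∈ D.SD := fun f => hL _ (L.algebraMap_mem f)
  have h1 : L ⊔ IntermediateField.adjoin K S ≤ D.SDK hK := by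
    refine sup_le (fun f hf => hL f hf) ?_
    rw [IntermediateField.adjoin_le_iff]
    exact hS
  exact fun f hf => h1 hf

end DiscData

end Crest.Agent.R013.Set_803
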