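import Mathlib
import Crest.Agent.R013.BTor8_914
import Crest.Agent.R013.Set8_803

/-!
# R013 / BTor9: B-TOR, final form (helper914)
-/

set_option autoImplicit false
set_option linter.all false

universe u

noncomputable section

namespace Crest.Agent.R013.BTor9_914

open scoped NNReal Topology IntermediateField
open Filter PowerSeries Crest.NumberTheoryR.Sect Crest.Agent.R013.A2a_275 Crest.Agent.R013.Gl946
  Crest.Agent.R013.SE_669 Crest.Agent.R013.KAS1_940 Crest.Agent.R013.KAS2_940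
  Crest.Agent.R013.KAS3_940 Crest.Agent.R013.RR11_948
  Crest.Agent.R013.Good1_940 Crest.Agent.R013.Good3_940 Crest.Agent.R013.CGood_588
  Crest.Agent.R013.Set_803 Crest.Agent.R013.BTor3_914 Crest.Agent.R013.BTor4_914
  Crest.Agent.R013.BTor6_914 Crest.Agent.R013.BTor7_914 Crest.Agent.R013.BTor8_914

section props

variable {k : Type*} [Field k] [CharZero k] {K : Type*} [Field K] [Algebra k K]
  [Algebra (RatFunc k) K] [IsScalarTower k (RatFunc k) K] [FiniteDimensional (RatFunc k) K]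

theorem mem_unr {C : IntermediateField k (AlgebraicClosure K)} [FiniteDimensional k C]
    {x : AlgebraicClosure K} (hx : x ∈ C) : x ∈ maxUnramified k K := by
  have h1 : IsIntegral k (⟨x, hx⟩ : C) := (Algebra.IsIntegral.isIntegral (R := k) (A := C) _)
  have h2 : IsIntegral k x := h1.map C.val
  exact MaxUnr_97.mem_maxUnramified_of_isIntegral _ h2

/-- `L C / K` is finite -/
theorem finite_LC {L : IntermediateField K (AlgebraicClosure K)} [FiniteDimensional K L]
    (C : IntermediateField k (AlgebraicClosure K)) [FiniteDimensional k C] :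
    FiniteDimensional K (LC L C) := by
  haveI : FiniteDimensional K (IntermediateField.adjoin K (C : Set (AlgebraicClosure K))) := by
    obtain ⟨s, hs⟩ : ∃ s : Finset (AlgebraicClosure K), IntermediateField.adjoin k
        (s : Set (AlgebraicClosure K)) = C := by
      have h1 : Algebra.EssFiniteType k C := inferInstance
      exact IntermediateField.essFiniteType_iff.mp h1
    have h1 : IntermediateField.adjoin K (C : Set (AlgebraicClosure K)) =
        IntermediateField.adjoin K (s : Set (AlgebraicClosure K)) := by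
      apply le_antisymm
      · rw [IntermediateField.adjoin_le_iff]
        intro x hx
        have hx' : x ∈ C := hx
        rw [← hs] at hx'
        have h3 : IntermediateField.adjoin k (s : Set (AlgebraicClosure K)) ≤
            (IntermediateField.adjoin K (s : Set (AlgebraicClosure K))).restrictScalars k := by
          rw [IntermediateField.adjoin_le_iff]
          exact IntermediateField.subset_adjoin K _
        exact h3 hx'
      · refine IntermediateField.adjoin.mono _ _ _ ?_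
        rw [← hs]
        exact IntermediateField.subset_adjoin _ _
    rw [h1]
    exact IntermediateField.finiteDimensional_adjoin fun x hx => Algebra.IsIntegral.isIntegral x
  unfold LC
  infer_instance

/-- `L C / K` is unramified -/
theorem unr_LC {L : IntermediateField K (AlgebraicClosure K)} (hL : IsUnramifiedEverywhere k K L)
    (C : IntermediateField k (AlgebraicClosure K)) [FiniteDimensional k C] :
    IsUnramifiedEverywhere k K (LC L C) := by
  haveI := hL.1
  haveI := finite_LC (L := L) C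
  refine Unr5_957.le_maxUnramified_iff.mp ?_
  unfold LC
  refine sup_le (Unr5_957.le_maxUnramified_iff.mpr hL) ?_
  rw [IntermediateField.adjoin_le_iff]
  intro x hx
  exact mem_unr (C := C) hx

/-- multiplication by constants -/
theorem ldiv_mul {F M : Type*} [Field F] [Field M] [Algebra F M] {l : ℕ} {f : M}
    (h : LDiv F l f) {a : F} (ha : a ≠ 0) : LDiv F l (algebraMap F M a * f) := by
  intro u hu
  obtain ⟨b, hb⟩ := h u hu
  exact ⟨b, by rw [map_mul, hu.1 a ha, one_mul, hb]⟩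

end props

theorem v_nat {k : Type*} [Field k] {Ω : Type*} [Field Ω] [Algebra k Ω] {p : ℕ} [Fact p.Prime]
    [Algebra ℚ_[p] k] {v : Valuation Ω ℝ≥0} (hv : ExtendsPadicNorm k Ω p v) {l : ℕ}
    (hl : l.Prime) (hlp : l ≠ p) : v (l : Ω) = 1 := by
  have h1 := hv (l : ℚ_[p])
  rw [map_natCast, map_natCast] at h1
  rw [h1]
  have h2 : ‖(l : ℚ_[p])‖ = 1 := by
    rw [Padic.norm_natCast_eq_one_iff]
    exact (Nat.coprime_primes (Fact.out) hl).2 (Ne.symm hlp)
  exact NNReal.eq h2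

section pieces

variable {k : Type*} [Field k] {Ω : Type*} [Field Ω] [Algebra k Ω]
variable {p : ℕ} [hp : Fact p.Prime] [Algebra ℚ_[p] k] {v P : Valuation Ω ℝ≥0}
  {C : IntermediateField k Ω} {R : ℝ≥0} {x q c : Ω}
  [FiniteDimensional ℚ_[p] k] [FiniteDimensional k C]

/-- the root over the disc, for an intermediate field -/
theorem out_IF {K : Type*} [Field K] [Algebra k K] [Algebra K Ω] [IsScalarTower k K Ω]
    (D : DiscData p v P C R x q c) (U : IntermediateField K Ω)
    (hU : ∀ f ∈ U, f ∈ D.SD) (hCU : ∀ a ∈ C, a ∈ U) {l : ℕ} (hl : v (l : Ω) = 1)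
    {f : Ω} (hfU : f ∈ U) (hf0 : f ≠ 0) (hdiv : LDiv k l (⟨f, hfU⟩ : U)) {ρ : C} (hρ0 : ρ ≠ 0)
    (hρ : v (ρ : Ω) ≤ R) :
    ∃ a : C, a ≠ 0 ∧ ∀ (hh : (a : Ω) * f ∈ D.SD),
      letI := nC D.hv C; haveI := ultra_nC D.hv C
      ∃ g : FDisc C ‖ρ‖ (norm_pos_iff.mpr hρ0), g ≠ 0 ∧
        resF (k := C) (R := (R : ℝ)) (by exact_mod_cast D.hR) (norm_pos_iff.mpr hρ0)
          (by rw [norm_nC]; exact_mod_cast hρ) (D.kap ⟨(a : Ω) * f, hh⟩) = g ^ l := by
  letI algU : Algebra C U :=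
    ((algebraMap C Ω).codRestrict U.toSubring fun a => hCU a a.2).toAlgebra
  haveI : IsScalarTower k C U := IsScalarTower.of_algebraMap_eq fun a => by
    apply Subtype.ext
    rfl
  have hdU : LDiv C l (⟨f, hfU⟩ : U) := LDiv.mono hdiv
  have hfU0 : (⟨f, hfU⟩ : U) ≠ 0 := fun h => hf0 (congrArg (fun z : U => (z : Ω)) h)
  let j : U →+* D.SD := (algebraMap U Ω).codRestrict D.SD fun f => hU f f.2
  have hj : ∀ a : C, (j (algebraMap C U a) : Ω) = a := fun a => rfl
  obtain ⟨a, ha, hroot⟩ := out_FDisc D j hj hl hfU0 hdU hρ0 hρ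
  refine ⟨a, ha, fun hm => ?_⟩
  have e : j (algebraMap C U a * ⟨f, hfU⟩) = ⟨(a : Ω) * f, hm⟩ := Subtype.ext rfl
  rw [e] at hroot
  exact hroot

end pieces

section bar

variable {k K : Type u} [Field k] [CharZero k] [Field K] [Algebra k K]
  [Algebra (RatFunc k) K] [IsScalarTower k (RatFunc k) K] [FiniteDimensional (RatFunc k) K]

theorem mem_Lbar_of_integral {L : IntermediateField K (AlgebraicClosure K)}
    {a : AlgebraicClosure K} (ha : IsIntegral k a) : a ∈ Lbar k L :=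
  (le_sup_right : IntermediateField.adjoin K _ ≤ Lbar k L)
    (IntermediateField.subset_adjoin _ _ ha)

theorem ldiv_bar_mul {L : IntermediateField K (AlgebraicClosure K)}
    {C : IntermediateField k (AlgebraicClosure K)} [FiniteDimensional k C] (a : C) (ha : a ≠ 0)
    {l : ℕ} {f : AlgebraicClosure K} (hf : f ∈ Lbar k L)
    (hd : LDiv k l (⟨f, hf⟩ : Lbar k L)) (hm : (a : AlgebraicClosure K) * f ∈ Lbar k L) :
    LDiv k l (⟨(a : AlgebraicClosure K) * f, hm⟩ : Lbar k L) := by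
  have hI : ∀ a : C, IsIntegral k (a : AlgebraicClosure K) := fun a =>
    (Algebra.IsIntegral.isIntegral (R := k) (A := C) a).map C.val
  letI algB : Algebra C (Lbar k L) :=
    ((algebraMap C (AlgebraicClosure K)).codRestrict (Lbar k L).toSubring
      fun a => mem_Lbar_of_integral (hI a)).toAlgebra
  haveI : IsScalarTower k C (Lbar k L) := IsScalarTower.of_algebraMap_eq fun a => by
    apply Subtype.ext
    rfl
  have h1 : LDiv C l (⟨f, hf⟩ : Lbar k L) := LDiv.mono hd
  have h2 : LDiv C l (algebraMap C (Lbar k L) a * ⟨f, hf⟩) := ldiv_mul h1 ha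
  have h3 : LDiv k l (algebraMap C (Lbar k L) a * ⟨f, hf⟩) := LDiv.of_alg (k' := C) h2
  have e : (⟨(a : AlgebraicClosure K) * f, hm⟩ : Lbar k L) =
      algebraMap C (Lbar k L) a * ⟨f, hf⟩ := Subtype.ext rfl
  rw [e]
  exact h3

theorem no_root_mul {L : IntermediateField K (AlgebraicClosure K)}
    {a : AlgebraicClosure K} (ha : IsIntegral k a) (ha0 : a ≠ 0) {l : ℕ} (hl : 0 < l)
    {f : AlgebraicClosure K} (hf : ∀ g ∈ Lbar k L, g ^ l ≠ f) : ∀ g ∈ Lbar k L, g ^ l ≠ a * f := by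
  intro g hg hgl
  obtain ⟨α, hα⟩ := IsAlgClosed.exists_pow_nat_eq a hl
  have hα0 : α ≠ 0 := by
    rintro rfl
    rw [zero_pow hl.ne'] at hα
    exact ha0 hα.symm
  have hαI : IsIntegral k α := by
    refine IsIntegral.of_pow hl ?_
    rw [hα]; exact ha
  have hαL : α ∈ Lbar k L := mem_Lbar_of_integral hαI
  refine hf (g / α) (div_mem hg hαL) ?_
  rw [div_pow, hgl, hα, mul_div_cancel_left₀ _ ha0]

end bar

section main

variable {k K : Type u} [Field k] [CharZero k] [Field K] [Algebra k K]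
  [Algebra (RatFunc k) K] [IsScalarTower k (RatFunc k) K] [FiniteDimensional (RatFunc k) K]
  {p : ℕ} [Fact p.Prime] [Algebra ℚ_[p] k] [FiniteDimensional ℚ_[p] k]
  {v P : Valuation (AlgebraicClosure K) ℝ≥0}
  {C : IntermediateField k (AlgebraicClosure K)} [FiniteDimensional k C] {R : ℝ≥0}
  {x q c : AlgebraicClosure K}

/-- **B-TOR.** `D`: the disc data of GOOD for the constants `C` (B-SET), `L/K` finite, unramified,
expanded on the disc; `C₁ ≥ C` any larger constants, `ρ ∈ C₁`, `|x|_v < |ρ| ≤ R`.  There are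
constants `C₂ ≥ C₁` and `h ∈ L C₂` such that `h` is not an `l`-th power in `L k̄`, the `l`-th roots
of `h` lie in `maxUnramified k K`, and the expansion of `h` on the disc `|x| < |ρ|` is an `l`-th
power. -/
theorem exists_out (tors : TORS.{u, u}) (hc : algebraicClosure k K = ⊥) (hg : 1 ≤ gen k K)
    (D : DiscData p v P C R x q c) {L : IntermediateField K (AlgebraicClosure K)}
    (hL : IsUnramifiedEverywhere k K L) (hLD : ∀ f ∈ L, f ∈ D.SD) {l : ℕ} (hl : l.Prime)
    (hlp : l ≠ p) (C₁ : IntermediateField k (AlgebraicClosure K)) [FiniteDimensional k C₁]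
    (hC₁ : C ≤ C₁) {ρ : AlgebraicClosure K} (hρ : ρ ∈ C₁) (hρv : ρ ≠ 0) (hρR : v ρ ≤ R) :
    ∃ (C₂ : IntermediateField k (AlgebraicClosure K)) (_ : FiniteDimensional k C₂)
      (hC₂ : C₁ ≤ C₂) (D₂ : DiscData p v P C₂ R x q c) (h : AlgebraicClosure K)
      (hρ0 : (⟨ρ, hC₂ hρ⟩ : C₂) ≠ 0),
      (∀ f ∈ LC L C₂, f ∈ D₂.SD) ∧ h ∈ LC L C₂ ∧ h ≠ 0 ∧ (∀ g ∈ Lbar k L, g ^ l ≠ h) ∧
      (∀ y : AlgebraicClosure K, y ^ l = h → y ∈ maxUnramified k K) ∧
      (∀ U : IntermediateField K (AlgebraicClosure K), FiniteDimensional K U → L ≤ U →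
        U ≤ Lbar k L → ∀ hf : h ∈ U, LDiv k l (⟨h, hf⟩ : U)) ∧
      ∀ (hh : h ∈ D₂.SD),
        letI := nC D₂.hv C₂; haveI := ultra_nC D₂.hv C₂
        ∃ g : FDisc C₂ ‖(⟨ρ, hC₂ hρ⟩ : C₂)‖ (norm_pos_iff.mpr hρ0), g ≠ 0 ∧
          resF (k := C₂) (R := (R : ℝ)) (by exact_mod_cast D₂.hR) (norm_pos_iff.mpr hρ0)
            (by rw [norm_nC]; exact_mod_cast hρR) (D₂.kap ⟨h, hh⟩) = g ^ l := by
  haveI := hL.1
  obtain ⟨⟨f, hfm⟩, hf0, hfd, hfn⟩ := exists_htors tors hc hg L hl
  have hfne : f ≠ 0 := fun h => hf0 (Subtype.ext h)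
  have hfn' : ∀ g ∈ Lbar k L, g ^ l ≠ f := fun g hg hgl => hfn ⟨g, hg⟩ (Subtype.ext hgl)
  clear hfn hf0
  obtain ⟨C', hC', hfC'⟩ := exists_LC hfm
  haveI := hC'
  obtain ⟨C₂, i₂, hC₂, hC'₂⟩ : ∃ (C₂ : IntermediateField k (AlgebraicClosure K))
      (_ : FiniteDimensional k C₂), C₁ ≤ C₂ ∧ C' ≤ C₂ :=
    ⟨C₁ ⊔ C', IntermediateField.finiteDimensional_sup C₁ C', le_sup_left, le_sup_right⟩
  have D₂ : DiscData p v P C₂ R x q c := D.mono (hC₁.trans hC₂)
  have hLC₂ : ∀ f ∈ LC L C₂, f ∈ D₂.SD :=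
    D₂.sup_le_SDK (fun f hf => D.SD_mono (hC₁.trans hC₂) (hLD f hf)) (C₂ : Set (AlgebraicClosure K))
      fun a ha => D₂.C_le_SD ⟨a, ha⟩
  have hfC : f ∈ LC L C₂ := LC_mono hC'₂ hfC'
  have hρ0 : (⟨ρ, hC₂ hρ⟩ : C₂) ≠ 0 := fun h => hρv (congrArg Subtype.val h)
  have hCU : ∀ a ∈ C₂, a ∈ LC L C₂ := fun a ha =>
    (le_sup_right : IntermediateField.adjoin K _ ≤ LC L C₂)
      (IntermediateField.subset_adjoin _ _ ha)
  have hUbar : LC L C₂ ≤ Lbar k L := LC_le_Lbar
  haveI hfin : FiniteDimensional K (LC L C₂) := finite_LC C₂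
  have hLU : L ≤ LC L C₂ := le_sup_left
  have hdU : LDiv k l (⟨f, hfC⟩ : LC L C₂) := ldiv_of_bar (U := LC L C₂) hLU hUbar hfC hfd
  obtain ⟨a, ha, hroot⟩ := out_IF D₂ (LC L C₂) hLC₂ hCU (v_nat D.hv hl hlp) hfC hfne hdU hρ0 hρR
  have ha0 : (a : AlgebraicClosure K) ≠ 0 := fun h => ha (Subtype.ext h)
  have haI : IsIntegral k (a : AlgebraicClosure K) :=
    (Algebra.IsIntegral.isIntegral (R := k) (A := C₂) a).map C₂.val
  have hU : (a : AlgebraicClosure K) * f ∈ LC L C₂ := mul_mem (hCU a a.2) hfC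
  have hdB := ldiv_bar_mul a ha hfm hfd (hUbar hU)
  have key : ∀ V : IntermediateField K (AlgebraicClosure K), FiniteDimensional K V → L ≤ V →
      V ≤ Lbar k L → ∀ hf : (a : AlgebraicClosure K) * f ∈ V,
      LDiv k l (⟨(a : AlgebraicClosure K) * f, hf⟩ : V) := by
    intro V hVf hLV hV hf
    exact ldiv_of_bar hLV hV hf hdB
  exact ⟨C₂, i₂, hC₂, D₂, (a : AlgebraicClosure K) * f, hρ0, hLC₂, hU, mul_ne_zero ha0 hfne,
    no_root_mul haI ha0 hl.pos hfn',
    fun y hy => Unr10_957.kummer_mem_maxUnramified (unr_LC hL C₂) hl.ne_zero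
      (h := ⟨(a : AlgebraicClosure K) * f, hU⟩) (key (LC L C₂) hfin hLU hUbar hU) hy,
    key, hroot⟩

end main

end Crest.Agent.R013.BTor9_914
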