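import Mathlib
import Crest.Agent.R013.CE5_280

/-!
# R013 / CE6: derivations of `Ω` and of `L = K_Ω` (helper280)
-/

set_option autoImplicit false
set_option linter.all false

namespace Crest.Agent.R013.CE6_280

open WithZero Module TensorProduct nonZeroDivisors
open Crest.Agent.R013.RR7_948 Crest.Agent.R013.RR8_948 Crest.Agent.R013.RR9_948
open Crest.Agent.R013.RR11_948 Crest.Agent.R013.RR13_948 Crest.Agent.R013.CE1_280
open Crest.Agent.R013.CE2_280 Crest.Agent.R013.CE3_280 Crest.Agent.R013.CE5_280

section Extend

variable {R A B : Type*} [CommRing R] [CommRing A] [CommRing B] [Algebra R A] [Algebra R B]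
  [Algebra A B] [IsScalarTower R A B]

/-- extension of derivations along formally smooth maps -/
theorem exists_extend [hsm : Algebra.FormallySmooth A B] (δ : Derivation R A B) :
    ∃ D : Derivation R B B, ∀ a, D (algebraMap A B a) = δ a := by
  let τ : A →+* TrivSqZeroExt B B :=
    { toFun := fun a => TrivSqZeroExt.inl (algebraMap A B a) + TrivSqZeroExt.inr (δ a)
      map_one' := by ext <;> simp
      map_zero' := by ext <;> simp
      map_add' := by intro a b; ext <;> simp
      map_mul' := by
        intro a b
        ext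
        · simp
        · simp only [map_mul, TrivSqZeroExt.snd_add, TrivSqZeroExt.snd_inl,
            TrivSqZeroExt.snd_inr, zero_add, TrivSqZeroExt.snd_mul, TrivSqZeroExt.fst_add,
            TrivSqZeroExt.fst_inl, TrivSqZeroExt.fst_inr, add_zero, Derivation.leibniz,
            Algebra.smul_def, smul_eq_mul, op_smul_eq_smul]
          simp only [Algebra.algebraMap_self, RingHom.id_apply] }
  letI algτ : Algebra A (TrivSqZeroExt B B) := τ.toAlgebra
  let g : TrivSqZeroExt B B →ₐ[A] B :=
    { toRingHom := (TrivSqZeroExt.fstHom B B B : TrivSqZeroExt B B →+* B)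
      commutes' := by
        intro a
        show TrivSqZeroExt.fst (τ a) = _
        simp [τ] }
  have hg : Function.Surjective g := fun b => ⟨TrivSqZeroExt.inl b,
    TrivSqZeroExt.fst_inl B b⟩
  have hk : IsNilpotent (RingHom.ker g) := by
    refine ⟨2, ?_⟩
    rw [Ideal.zero_eq_bot, eq_bot_iff]
    refine (le_of_eq (pow_two (RingHom.ker g))).trans ?_
    rw [Ideal.mul_le]
    intro a ha b hb
    have ha' : TrivSqZeroExt.fst a = 0 := ha
    have hb' : TrivSqZeroExt.fst b = 0 := hb
    rw [Ideal.mem_bot]
    ext
    · simp [ha']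
    · simp [ha', hb']
  let l : B →ₐ[A] TrivSqZeroExt B B :=
    Algebra.FormallySmooth.liftOfSurjective (AlgHom.id A B) g hg hk
  have hl : ∀ b, TrivSqZeroExt.fst (l b) = b := fun b =>
    Algebra.FormallySmooth.liftOfSurjective_apply (AlgHom.id A B) g hg hk b
  have hla : ∀ a, l (algebraMap A B a) = τ a := fun a => l.commutes a
  refine ⟨Derivation.mk'
    { toFun := fun b => TrivSqZeroExt.snd (l b)
      map_add' := by intro a b; simp
      map_smul' := by
        intro r b
        have h1 : l (algebraMap R B r) = TrivSqZeroExt.inl (algebraMap R B r) := by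
          rw [IsScalarTower.algebraMap_apply R A B, hla]
          ext <;> simp [τ]
        rw [Algebra.smul_def, map_mul, h1]
        simp [Algebra.smul_def] } ?_, ?_⟩
  · intro a b
    show TrivSqZeroExt.snd (l (a * b)) = a • TrivSqZeroExt.snd (l b) + b • TrivSqZeroExt.snd (l a)
    rw [map_mul, TrivSqZeroExt.snd_mul, hl, hl, op_smul_eq_smul]
  · intro a
    show TrivSqZeroExt.snd (l (algebraMap A B a)) = _
    rw [hla]
    simp [τ]

end Extend

section OnOmega

variable {M Ω : Type*} [Field M] [Field Ω] [Algebra M Ω] [CharZero M]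

/-- a transcendental element is moved by some derivation -/
theorem exists_derivation {z : Ω} (hz : Transcendental M z) :
    ∃ d : Derivation M Ω Ω, d z = 1 := by
  classical
  have h1 : AlgebraicIndepOn M id ({z} : Set Ω) :=
    (algebraicIndependent_singleton_iff (x := fun i : ({z} : Set Ω) => (id (i : Ω)))
      (⟨z, rfl⟩ : ({z} : Set Ω))).mpr hz
  obtain ⟨s, hs, hs'⟩ := exists_isTranscendenceBasis_superset h1
  let A := MvPolynomial s M
  letI algA : Algebra A Ω := (MvPolynomial.aeval (R := M) ((↑) : s → Ω)).toRingHom.toAlgebra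
  haveI : IsScalarTower M A Ω := IsScalarTower.of_algebraMap_eq fun c => by
    show _ = MvPolynomial.aeval (R := M) ((↑) : s → Ω) (MvPolynomial.C c)
    simp
  have hinj : Function.Injective (algebraMap A Ω) := hs'.1
  haveI : FaithfulSMul A Ω := (faithfulSMul_iff_algebraMap_injective A Ω).mpr hinj
  letI algF : Algebra (FractionRing A) Ω := FractionRing.liftAlgebra A Ω
  haveI : IsScalarTower A (FractionRing A) Ω := FractionRing.isScalarTower_liftAlgebra A Ω
  haveI : Algebra.FormallyEtale A (FractionRing A) := Algebra.FormallyEtale.of_isLocalization A⁰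
  haveI halg0 : Algebra.IsAlgebraic A Ω := by
    have h2 := hs'.isAlgebraic
    refine Algebra.IsAlgebraic.of_ringHom_of_comp_eq (hs'.1.aevalEquiv : _ ≃ₐ[M] _).toRingEquiv.toRingHom
      (RingHom.id Ω) (hs'.1.aevalEquiv).surjective Function.injective_id ?_
    exact RingHom.ext fun p => hs'.1.algebraMap_aevalEquiv p
  haveI halg : Algebra.IsAlgebraic (FractionRing A) Ω :=
    (IsFractionRing.comap_isAlgebraic_iff (A := A) (K := FractionRing A) (C := Ω)).mp halg0
  haveI : CharZero (FractionRing A) := charZero_of_injective_algebraMap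
    (algebraMap M (FractionRing A)).injective
  haveI : Algebra.FormallyEtale (FractionRing A) Ω := Algebra.FormallyEtale.of_isSeparable _ _
  haveI : Algebra.FormallyEtale A Ω := Algebra.FormallyEtale.comp A (FractionRing A) Ω
  have hzs : z ∈ s := hs rfl
  let δ : Derivation M A Ω := MvPolynomial.mkDerivation M
    (fun i : s => if i = ⟨z, hzs⟩ then (1 : Ω) else 0)
  obtain ⟨d, hd⟩ := exists_extend δ
  refine ⟨d, ?_⟩
  have h2 := hd (MvPolynomial.X ⟨z, hzs⟩)
  have h3 : algebraMap A Ω (MvPolynomial.X ⟨z, hzs⟩) = z := by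
    show MvPolynomial.aeval (R := M) ((↑) : s → Ω) (MvPolynomial.X ⟨z, hzs⟩) = z
    simp
  rw [h3] at h2
  rw [h2, MvPolynomial.mkDerivation_X, if_pos rfl]

end OnOmega

end Crest.Agent.R013.CE6_280
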