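import Mathlib
import Crest.Agent.R013.CE6_280

/-!
# R013 / CE7: derivations of `L = K_Ω` trivial on `K`, logarithmic derivatives at places (helper280)
-/

set_option autoImplicit false
set_option linter.all false

namespace Crest.Agent.R013.CE7_280

open WithZero Module TensorProduct nonZeroDivisors
open Crest.Agent.R013.RR7_948 Crest.Agent.R013.RR8_948 Crest.Agent.R013.RR9_948
open Crest.Agent.R013.RR11_948 Crest.Agent.R013.RR13_948 Crest.Agent.R013.CE1_280
open Crest.Agent.R013.CE2_280 Crest.Agent.R013.CE3_280 Crest.Agent.R013.CE5_280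
open Crest.Agent.R013.CE6_280

section Defs

variable {F K Ω L : Type*} [Field F] [Field K] [Algebra F K]
  [Field Ω] [Algebra F Ω] [Field L] [Algebra Ω L] [Algebra F L] [IsScalarTower F Ω L]

/-- `D` extends `d` and kills `K` -/
structure IsExt (ι : K →ₐ[F] L) (d : Derivation F Ω Ω) (D : Derivation F L L) : Prop where
  const : ∀ c : Ω, D (algebraMap Ω L c) = algebraMap Ω L (d c)
  iota : ∀ f : K, D (ι f) = 0

variable {ι : K →ₐ[F] L} {d : Derivation F Ω Ω} {D : Derivation F L L}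

theorem IsExt.mu_tmul (h : IsExt ι d D) (c : Ω) (f : K) :
    D (mu ι (c ⊗ₜ f)) = mu ι (d c ⊗ₜ f) := by
  rw [CE3_280.mu_tmul, CE3_280.mu_tmul, D.leibniz, h.const, h.iota]
  simp [mul_comm]

/-- `D` preserves `Ω ⊗ K` -/
theorem IsExt.mu (h : IsExt ι d D) (t : Ω ⊗[F] K) :
    ∃ s : Ω ⊗[F] K, D (CE3_280.mu ι t) = CE3_280.mu ι s := by
  induction t with
  | zero => exact ⟨0, by simp⟩
  | add t t' h h' =>
    obtain ⟨s, hs⟩ := h
    obtain ⟨s', hs'⟩ := h'
    exact ⟨s + s', by rw [map_add, map_add, map_add, hs, hs']⟩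
  | tmul c f => exact ⟨_, h.mu_tmul c f⟩

end Defs

section Exist

variable {F K Ω L : Type*} [Field F] [IsAlgClosed F] [Field K] [Algebra F K]
  [Field Ω] [Algebra F Ω] [Field L] [Algebra Ω L] [Algebra F L] [IsScalarTower F Ω L]
  {ι : K →ₐ[F] L}

theorem exists_ext (hι : IsCE Ω ι) (d : Derivation F Ω Ω) : ∃ D : Derivation F L L,
    IsExt ι d D := by
  letI : Algebra (Ω ⊗[F] K) L := (CE3_280.mu (Ω := Ω) ι).toRingHom.toAlgebra
  have halg : ∀ t : Ω ⊗[F] K, algebraMap (Ω ⊗[F] K) L t = CE3_280.mu ι t := fun t => rfl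
  haveI : FaithfulSMul (Ω ⊗[F] K) L := (faithfulSMul_iff_algebraMap_injective _ _).mpr hι.inj
  haveI : IsScalarTower F (Ω ⊗[F] K) L := IsScalarTower.of_algebraMap_eq fun c => by
    rw [halg, IsScalarTower.algebraMap_apply F Ω (Ω ⊗[F] K), AlgHom.commutes,
      ← IsScalarTower.algebraMap_apply]
  haveI : IsFractionRing (Ω ⊗[F] K) L := IsFractionRing.of_field _ _ fun z => by
    obtain ⟨a, b, hb, hab⟩ := hι.frac z
    exact ⟨a, b, by
      rw [halg, halg, eq_div_iff (hι.ne_zero hb)]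
      exact hab⟩
  haveI : Algebra.FormallyEtale (Ω ⊗[F] K) L :=
    Algebra.FormallyEtale.of_isLocalization (nonZeroDivisors (Ω ⊗[F] K))
  let δ₀ : Ω ⊗[F] K →ₗ[F] Ω ⊗[F] K := (d : Ω →ₗ[F] Ω).rTensor K
  have hδ₀ : ∀ a b : Ω ⊗[F] K, δ₀ (a * b) = a * δ₀ b + b * δ₀ a := by
    intro a b
    induction a with
    | zero => simp
    | add a a' h h' => rw [add_mul, map_add, h, h', map_add]; ring
    | tmul c f =>
      induction b with
      | zero => simp
      | add b b' h h' => rw [mul_add, map_add, h, h', map_add]; ring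
      | tmul c' f' =>
        simp only [δ₀, Algebra.TensorProduct.tmul_mul_tmul, LinearMap.rTensor_tmul,
          Derivation.coeFn_coe, Derivation.leibniz, smul_eq_mul, TensorProduct.add_tmul]
        rw [mul_comm f' f]
  let δ : Derivation F (Ω ⊗[F] K) L := Derivation.mk'
    (((CE3_280.mu (Ω := Ω) ι).toLinearMap.restrictScalars F).comp δ₀) (by
      intro a b
      simp only [LinearMap.comp_apply, LinearMap.restrictScalars_apply, AlgHom.toLinearMap_apply,
        hδ₀, map_add, map_mul, Algebra.smul_def, halg])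
  obtain ⟨D, hD⟩ := exists_extend δ
  have hδ : ∀ c f, δ (c ⊗ₜ f) = CE3_280.mu ι (d c ⊗ₜ f) := by
    intro c f
    simp [δ, δ₀]
  refine ⟨D, ?_, ?_⟩
  · intro c
    have h1 := hD (c ⊗ₜ 1)
    rw [hδ, halg, CE3_280.mu_tmul, CE3_280.mu_tmul, map_one, mul_one, mul_one] at h1
    exact h1
  · intro f
    have h1 := hD (1 ⊗ₜ f)
    rw [hδ, halg, CE3_280.mu_tmul, CE3_280.mu_tmul, map_one, one_mul] at h1
    rw [h1]; simp

end Exist

section DLog

variable {R L : Type*} [CommRing R] [Field L] [Algebra R L] (D : Derivation R L L)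

theorem dlog_mul {x y : L} (hx : x ≠ 0) (hy : y ≠ 0) :
    D (x * y) / (x * y) = D x / x + D y / y := by
  rw [D.leibniz, smul_eq_mul, smul_eq_mul]
  field_simp
  ring

theorem dlog_zpow {x : L} (hx : x ≠ 0) (n : ℤ) : D (x ^ n) / x ^ n = n * (D x / x) := by
  rw [Derivation.leibniz_zpow, zpow_sub_one₀ hx]
  simp only [zsmul_eq_mul, smul_eq_mul]
  have : x ^ n ≠ 0 := zpow_ne_zero _ hx
  field_simp

end DLog

section Points

variable {F K Ω L : Type*} [Field F] [IsAlgClosed F] [Field K] [Algebra F K]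
  [Algebra (RatFunc F) K] [IsScalarTower F (RatFunc F) K] [FiniteDimensional (RatFunc F) K]
  [Algebra.IsSeparable (RatFunc F) K]
  [Field Ω] [Algebra F Ω] [IsAlgClosed Ω]
  [Field L] [Algebra Ω L] [Algebra F L] [IsScalarTower F Ω L]
  {ι : K →ₐ[F] L} {w : Pl Ω L} {Q : K →ₐ[F] Ω} {P : Pl F K}
  {d : Derivation F Ω Ω} {D : Derivation F L L}

omit [IsAlgClosed F] [IsScalarTower F (RatFunc F) K] [FiniteDimensional (RatFunc F) K]
  [Algebra.IsSeparable (RatFunc F) K] [IsAlgClosed Ω] in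
theorem IsExt.pi (hD : IsExt ι d D) (a : Ω) :
    D (CE3_280.mu ι (piT F K a)) = - algebraMap Ω L (d a) := by
  rw [piT, map_sub, map_sub, hD.mu_tmul, hD.mu_tmul]
  simp

omit [IsAlgClosed F] [IsScalarTower F (RatFunc F) K] [FiniteDimensional (RatFunc F) K]
  [Algebra.IsSeparable (RatFunc F) K] [IsAlgClosed Ω] [Algebra (RatFunc F) K] in
theorem dlog_unit (hD : IsExt ι d D) (h : At ι w Q) {u : Ω ⊗[F] K} (hu : ev Q u ≠ 0) :
    w.v (D (CE3_280.mu ι u) / CE3_280.mu ι u) ≤ 1 := by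
  obtain ⟨s, hs⟩ := hD.mu u
  rw [hs, map_div₀, h.eq_one hu, div_one]
  exact h.le_one s

theorem int_le_one (w : Pl Ω L) (k : ℤ) : w.v (k : L) ≤ 1 := by
  have : (k : L) = algebraMap Ω L (k : Ω) := by simp
  rw [this]
  exact v_algebraMap_le w _

/-- the logarithmic derivative at a point -/
theorem dlog_At (hι : IsCE Ω ι) (hD : IsExt ι d D) (h : At ι w Q) {f : L} (hf : f ≠ 0) {k : ℤ}
    (hk : w.v f = exp (-k)) :
    w.v (D f / f - k * (D (CE3_280.mu ι (piT F K (Q (xK F K)))) /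
      CE3_280.mu ι (piT F K (Q (xK F K))))) ≤ 1 := by
  obtain ⟨k', u₁, u₂, h₁, h₂, heq⟩ := h.exists_form hι hf
  have h3 := h.v_eq hι h₁ h₂ heq
  rw [hk, exp_inj] at h3
  have hkk : k = k' := by omega
  subst hkk
  have hpi : CE3_280.mu ι (piT F K (Q (xK F K))) ≠ 0 := hι.ne_zero (piT_ne_zero _)
  have hu₁ : CE3_280.mu ι u₁ ≠ 0 := hι.ne_zero (by rintro rfl; simp at h₁)
  have hu₂ : CE3_280.mu ι u₂ ≠ 0 := hι.ne_zero (by rintro rfl; simp at h₂)
  have h4 : D (f * CE3_280.mu ι u₂) / (f * CE3_280.mu ι u₂) =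
      D (CE3_280.mu ι (piT F K (Q (xK F K))) ^ k * CE3_280.mu ι u₁) /
        (CE3_280.mu ι (piT F K (Q (xK F K))) ^ k * CE3_280.mu ι u₁) := by rw [heq]
  rw [dlog_mul D hf hu₂, dlog_mul D (zpow_ne_zero _ hpi) hu₁, dlog_zpow D hpi] at h4
  have h5 : D f / f - k * (D (CE3_280.mu ι (piT F K (Q (xK F K)))) /
      CE3_280.mu ι (piT F K (Q (xK F K)))) =
      D (CE3_280.mu ι u₁) / CE3_280.mu ι u₁ - D (CE3_280.mu ι u₂) / CE3_280.mu ι u₂ := by
    linear_combination h4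
  rw [h5]
  exact (Valuation.map_sub _ _ _).trans (max_le (dlog_unit hD h h₁) (dlog_unit hD h h₂))

theorem dlog_pi (hι : IsCE Ω ι) (hD : IsExt ι d D) (h : At ι w Q) (hd : d (Q (xK F K)) ≠ 0) :
    w.v (D (CE3_280.mu ι (piT F K (Q (xK F K)))) / CE3_280.mu ι (piT F K (Q (xK F K)))) =
      exp 1 := by
  rw [hD.pi, map_div₀, Valuation.map_neg, w.const _ hd, h.v_pi hι, one_div, ← exp_neg]
  simp

theorem dlog_At_le (hι : IsCE Ω ι) (hD : IsExt ι d D) (h : At ι w Q) {f : L} (hf : f ≠ 0) :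
    w.v (D f / f) ≤ exp 1 := by
  obtain ⟨k, hk⟩ : ∃ k : ℤ, w.v f = exp (-k) :=
    ⟨-log (w.v f), by rw [neg_neg, exp_log ((Valuation.ne_zero_iff _).mpr hf)]⟩
  have h1 := dlog_At hι hD h hf hk
  have h2 : D f / f = (D f / f - k * (D (CE3_280.mu ι (piT F K (Q (xK F K)))) /
      CE3_280.mu ι (piT F K (Q (xK F K))))) + k * (D (CE3_280.mu ι (piT F K (Q (xK F K)))) /
      CE3_280.mu ι (piT F K (Q (xK F K)))) := by ring
  have hle : (1 : ℤᵐ⁰) ≤ exp 1 := by rw [← exp_zero, exp_le_exp]; norm_num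
  rw [h2]
  refine (Valuation.map_add _ _ _).trans (max_le (h1.trans hle) ?_)
  rw [map_mul]
  by_cases hd : d (Q (xK F K)) = 0
  · rw [hD.pi, hd, map_zero, neg_zero, zero_div, map_zero, mul_zero]
    exact zero_le
  · rw [dlog_pi hι hD h hd]
    calc _ ≤ 1 * exp 1 := mul_le_mul_left (int_le_one w k) _
      _ = exp 1 := one_mul _

theorem dlog_At_le_one (hι : IsCE Ω ι) (hD : IsExt ι d D) (h : At ι w Q) {f : L} (hf : f ≠ 0)
    (hc : w.v f = 1 ∨ d (Q (xK F K)) = 0) : w.v (D f / f) ≤ 1 := by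
  obtain ⟨k, hk⟩ : ∃ k : ℤ, w.v f = exp (-k) :=
    ⟨-log (w.v f), by rw [neg_neg, exp_log ((Valuation.ne_zero_iff _).mpr hf)]⟩
  have h1 := dlog_At hι hD h hf hk
  have h2 : (k : L) * (D (CE3_280.mu ι (piT F K (Q (xK F K)))) /
      CE3_280.mu ι (piT F K (Q (xK F K)))) = 0 := by
    rcases hc with hc | hc
    · rw [hc, ← exp_zero, exp_inj] at hk
      have : k = 0 := by omega
      rw [this]; simp
    · rw [hD.pi, hc]; simp
  rwa [h2, sub_zero] at h1

theorem dlog_At_ne_zero [CharZero Ω] (hι : IsCE Ω ι) (hD : IsExt ι d D) (h : At ι w Q) {f : L}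
    (hf : f ≠ 0) (h1 : w.v f ≠ 1) (hd : d (Q (xK F K)) ≠ 0) : D f ≠ 0 := by
  obtain ⟨k, hk⟩ : ∃ k : ℤ, w.v f = exp (-k) :=
    ⟨-log (w.v f), by rw [neg_neg, exp_log ((Valuation.ne_zero_iff _).mpr hf)]⟩
  have h2 := dlog_At hι hD h hf hk
  intro h0
  rw [h0, zero_div, zero_sub, Valuation.map_neg, map_mul, dlog_pi hι hD h hd] at h2
  have hk0 : k ≠ 0 := by
    rintro rfl
    exact h1 (by rw [hk]; simp)
  have h3 : w.v (k : L) = 1 := by
    have : (k : L) = algebraMap Ω L (k : Ω) := by simp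
    rw [this]
    exact w.const _ (by exact_mod_cast hk0)
  rw [h3, one_mul, ← exp_zero, exp_le_exp] at h2
  omega

/-- the logarithmic derivative at a place over `K` -/
theorem dlog_Over_T (hι : IsCE Ω ι) (hD : IsExt ι d D) (h : Over ι w P) (t : Ω ⊗[F] K) :
    w.v (D (CE3_280.mu ι t)) ≤ w.v (CE3_280.mu ι t) := by
  classical
  by_cases ht : t = 0
  · simp [ht]
  let b := Basis.ofVectorSpace F Ω
  obtain ⟨c, rfl⟩ := TensorProduct.eq_repr_basis_left b t
  obtain ⟨n, i₀, hi₀, hle⟩ := exists_max P (c := c) (by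
    rintro rfl; exact ht (by simp))
  rw [h.v_sum_eq hι b c n hle hi₀, Finsupp.sum, map_sum, map_sum]
  refine Valuation.map_sum_le _ fun i _ => ?_
  rw [hD.mu_tmul, CE3_280.mu_tmul, map_mul, h.v_iota hι]
  calc _ ≤ 1 * exp n := mul_le_mul' (v_algebraMap_le w _) (hle i)
    _ = exp n := one_mul _

theorem dlog_Over (hι : IsCE Ω ι) (hD : IsExt ι d D) (h : Over ι w P) {f : L} (hf : f ≠ 0) :
    w.v (D f / f) ≤ 1 := by
  obtain ⟨a, b, hb, hab⟩ := hι.frac f
  have ha : a ≠ 0 := by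
    rintro rfl
    rw [map_zero] at hab
    exact (mul_ne_zero hf (hι.ne_zero hb)) hab
  have h4 : D (f * CE3_280.mu ι b) / (f * CE3_280.mu ι b) =
      D (CE3_280.mu ι a) / CE3_280.mu ι a := by rw [hab]
  rw [dlog_mul D hf (hι.ne_zero hb)] at h4
  have h5 : D f / f = D (CE3_280.mu ι a) / CE3_280.mu ι a -
      D (CE3_280.mu ι b) / CE3_280.mu ι b := by linear_combination h4
  have key : ∀ t : Ω ⊗[F] K, t ≠ 0 → w.v (D (CE3_280.mu ι t) / CE3_280.mu ι t) ≤ 1 := by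
    intro t ht
    rw [map_div₀]
    exact div_le_one_of_le₀ (dlog_Over_T hι hD h t) zero_le
  rw [h5]
  exact (Valuation.map_sub _ _ _).trans (max_le (key a ha) (key b hb))

end Points

end Crest.Agent.R013.CE7_280
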