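import Mathlib
import Crest.Agent.R013.CE7_280

/-!
# R013 / CE8: independence of points, construction of `K_Ω` (helper280)
-/

set_option autoImplicit false
set_option linter.all false

namespace Crest.Agent.R013.CE8_280

open WithZero Module TensorProduct nonZeroDivisors
open Crest.Agent.R013.RR7_948 Crest.Agent.R013.RR8_948 Crest.Agent.R013.RR9_948
open Crest.Agent.R013.RR11_948 Crest.Agent.R013.RR13_948 Crest.Agent.R013.CE1_280
open Crest.Agent.R013.CE2_280 Crest.Agent.R013.CE3_280 Crest.Agent.R013.CE5_280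
open Crest.Agent.R013.CE6_280 Crest.Agent.R013.CE7_280

section Dvd

variable {F K N : Type*} [Field F] [IsAlgClosed F] [Field K] [Algebra F K]
  [Algebra (RatFunc F) K] [IsScalarTower F (RatFunc F) K] [FiniteDimensional (RatFunc F) K]
  [Field N] [Algebra F N]

/-- every nonzero element of `N ⊗ K` divides a nonzero polynomial in `x` -/
theorem exists_dvd_poly' {b : N ⊗[F] K} (hb : b ≠ 0) :
    ∃ (q : Polynomial N) (s : N ⊗[F] K), q ≠ 0 ∧
      Polynomial.aeval (1 ⊗ₜ xK F K : N ⊗[F] K) q = b * s := by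
  letI algN : Algebra (Polynomial N) (N ⊗[F] K) :=
    (Polynomial.aeval (R := N) (1 ⊗ₜ xK F K : N ⊗[F] K)).toRingHom.toAlgebra
  have halgN : ∀ q : Polynomial N, algebraMap (Polynomial N) (N ⊗[F] K) q =
      Polynomial.aeval (1 ⊗ₜ xK F K : N ⊗[F] K) q := fun q => rfl
  letI algF := algPoly F K
  haveI := towerPoly F K
  have hK : ∀ f : K, IsAlgebraic (Polynomial F) f := fun f =>
    (IsFractionRing.isAlgebraic_iff (Polynomial F) (RatFunc F) K).mpr
      (Algebra.IsAlgebraic.isAlgebraic _)
  have h1 : ∀ f : K, IsAlgebraic (Polynomial N) (1 ⊗ₜ f : N ⊗[F] K) := by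
    intro f
    refine (hK f).ringHom_of_comp_eq (Polynomial.mapRingHom (algebraMap F N))
      (Algebra.TensorProduct.includeRight : K →ₐ[F] N ⊗[F] K).toRingHom
      (Polynomial.map_injective _ (algebraMap F N).injective) ?_
    ext1
    · ext c
      show Polynomial.aeval (1 ⊗ₜ[F] xK F K : N ⊗[F] K) ((Polynomial.C c).map (algebraMap F N)) =
        (1 : N) ⊗ₜ[F] (algebraMap (Polynomial F) K (Polynomial.C c))
      have : algebraMap (Polynomial F) K (Polynomial.C c) = algebraMap F K c := by
        rw [IsScalarTower.algebraMap_apply (Polynomial F) (RatFunc F) K, RatFunc.algebraMap_C,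
          ← RR2_948.algebraMap_eq_C, ← IsScalarTower.algebraMap_apply]
      rw [this, Polynomial.map_C, Polynomial.aeval_C, ← IsScalarTower.algebraMap_apply]
      exact ((Algebra.TensorProduct.includeRight : K →ₐ[F] N ⊗[F] K).commutes c).symm
    · show Polynomial.aeval (1 ⊗ₜ[F] xK F K : N ⊗[F] K) (Polynomial.X.map (algebraMap F N)) =
        (1 : N) ⊗ₜ[F] (algebraMap (Polynomial F) K Polynomial.X)
      rw [Polynomial.map_X, Polynomial.aeval_X, ← xK_eq_poly]
  have h2 : ∀ t : N ⊗[F] K, IsAlgebraic (Polynomial N) t := by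
    intro t
    induction t with
    | zero => exact isAlgebraic_zero
    | add t t' h h' => exact h.add h'
    | tmul c f =>
      have : (c ⊗ₜ f : N ⊗[F] K) = algebraMap (Polynomial N) (N ⊗[F] K) (Polynomial.C c) *
          (1 ⊗ₜ f) := by
        rw [halgN, Polynomial.aeval_C, Algebra.TensorProduct.algebraMap_apply,
          Algebra.TensorProduct.tmul_mul_tmul]
        simp
      rw [this]
      exact (isAlgebraic_algebraMap _).mul (h1 f)
  obtain ⟨q, hq, s, hs⟩ := (h2 b).exists_nonzero_dvd (mem_nonZeroDivisors_of_ne_zero hb)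
  exact ⟨q, s, hq, hs⟩

variable {Ω : Type*} [Field Ω] [Algebra F Ω] [Algebra N Ω] [IsScalarTower F N Ω]

/-- the natural map `N ⊗ K → Ω` at a point `Q` -/
noncomputable def nu (N : Type*) [Field N] [Algebra F N] [Algebra N Ω] [IsScalarTower F N Ω]
    (Q : K →ₐ[F] Ω) : N ⊗[F] K →ₐ[N] Ω :=
  Algebra.TensorProduct.lift (Algebra.ofId N Ω) Q (fun _ _ => Commute.all _ _)

omit [IsAlgClosed F] [Algebra (RatFunc F) K] [IsScalarTower F (RatFunc F) K]
  [FiniteDimensional (RatFunc F) K] in
@[simp] theorem nu_tmul (Q : K →ₐ[F] Ω) (c : N) (f : K) :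
    nu N Q (c ⊗ₜ f) = algebraMap N Ω c * Q f := by
  simp [nu, Algebra.ofId_apply]

/-- a point transcendental over `N` gives an embedding of `N ⊗ K` -/
theorem nu_injective (Q : K →ₐ[F] Ω) (hQ : Transcendental N (Q (xK F K))) :
    Function.Injective (nu N Q) := by
  rw [injective_iff_map_eq_zero]
  intro t ht
  by_contra h0
  obtain ⟨q, s, hq, hs⟩ := exists_dvd_poly' h0
  have h1 := congrArg (nu N Q) hs
  rw [map_mul, ht, zero_mul, ← Polynomial.aeval_algHom_apply, nu_tmul, map_one, one_mul] at h1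
  exact hq ((transcendental_iff.mp hQ) q h1)

omit [IsAlgClosed F] [Algebra (RatFunc F) K] [IsScalarTower F (RatFunc F) K]
  [FiniteDimensional (RatFunc F) K] in
/-- tensors of linearly independent elements -/
theorem coeff_eq_zero {κ : Type*} [Fintype κ] {ω : κ → K} (hω : LinearIndependent F ω) (c : κ → N)
    (h1 : ∑ j, c j ⊗ₜ[F] ω j = 0) : c = 0 := by
  classical
  have h2 : ∀ j, ∃ φ : K →ₗ[F] F, ∀ i, φ (ω i) = if i = j then 1 else 0 := by
    intro j
    let b := Basis.extend hω.linearIndepOn_id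
    let e : κ → (hω.linearIndepOn_id.extend (Set.subset_univ _)) := fun i =>
      ⟨ω i, Basis.subset_extend _ ⟨i, rfl⟩⟩
    have hbe : ∀ i, b (e i) = ω i := fun i => by
      simp [b, e, Basis.extend_apply_self]
    refine ⟨b.coord (e j), fun i => ?_⟩
    rw [← hbe i, Basis.coord_apply, Basis.repr_self, Finsupp.single_apply]
    have : (e i = e j) ↔ i = j := by
      constructor
      · intro h
        exact hω.injective (congrArg Subtype.val h)
      · rintro rfl; rfl
    simp [this]
  ext j
  obtain ⟨φ, hφ⟩ := h2 j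
  have h3 := congrArg (fun t => TensorProduct.rid F N (φ.lTensor N t)) h1
  simp only [map_sum, LinearMap.lTensor_tmul, TensorProduct.rid_tmul, map_zero, hφ] at h3
  simpa using h3

/-- a point transcendental over `N` is linearly disjoint from `N` -/
theorem eq_zero_of_sum_eq_zero (Q : K →ₐ[F] Ω) (hQ : Transcendental N (Q (xK F K)))
    {κ : Type*} [Fintype κ] {ω : κ → K} (hω : LinearIndependent F ω) (c : κ → N)
    (h : ∑ j, algebraMap N Ω (c j) * Q (ω j) = 0) : c = 0 := by
  classical
  have h1 : ∑ j, c j ⊗ₜ[F] ω j = 0 := by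
    apply nu_injective Q hQ
    rw [map_sum, map_zero]
    simpa using h
  exact coeff_eq_zero hω c h1

end Dvd

end Crest.Agent.R013.CE8_280
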