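import Mathlib
import Crest.Agent.R013.CE8_280

/-!
# R013 / CE9: construction of `K_Ω` (helper280)
-/

set_option autoImplicit false
set_option linter.all false

namespace Crest.Agent.R013.CE9_280

open WithZero Module TensorProduct nonZeroDivisors
open Crest.Agent.R013.RR7_948 Crest.Agent.R013.RR8_948 Crest.Agent.R013.RR9_948
open Crest.Agent.R013.RR11_948 Crest.Agent.R013.RR13_948 Crest.Agent.R013.CE1_280
open Crest.Agent.R013.CE2_280 Crest.Agent.R013.CE3_280 Crest.Agent.R013.CE5_280
open Crest.Agent.R013.CE6_280 Crest.Agent.R013.CE7_280 Crest.Agent.R013.CE8_280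

section Construct

variable (F K Ω : Type*) [Field F] [IsAlgClosed F] [Field K] [Algebra F K] [Field Ω]
  [Algebra F Ω]

/-- the constant field extension `K_Ω` -/
def KO : Type _ := FractionRing (Ω ⊗[F] K)

noncomputable instance : Field (KO F K Ω) := inferInstanceAs (Field (FractionRing (Ω ⊗[F] K)))

noncomputable instance : Algebra (Ω ⊗[F] K) (KO F K Ω) :=
  inferInstanceAs (Algebra (Ω ⊗[F] K) (FractionRing (Ω ⊗[F] K)))

instance : IsFractionRing (Ω ⊗[F] K) (KO F K Ω) :=
  inferInstanceAs (IsFractionRing (Ω ⊗[F] K) (FractionRing (Ω ⊗[F] K)))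

noncomputable instance : Algebra Ω (KO F K Ω) :=
  ((algebraMap (Ω ⊗[F] K) (KO F K Ω)).comp (algebraMap Ω (Ω ⊗[F] K))).toAlgebra

noncomputable instance : Algebra F (KO F K Ω) :=
  ((algebraMap Ω (KO F K Ω)).comp (algebraMap F Ω)).toAlgebra

instance : IsScalarTower F Ω (KO F K Ω) := IsScalarTower.of_algebraMap_eq fun _ => rfl

instance : IsScalarTower Ω (Ω ⊗[F] K) (KO F K Ω) := IsScalarTower.of_algebraMap_eq fun _ => rfl

/-- the embedding `K → K_Ω` -/
noncomputable def iota : K →ₐ[F] KO F K Ω :=
  { toRingHom := (algebraMap (Ω ⊗[F] K) (KO F K Ω)).comp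
      (Algebra.TensorProduct.includeRight : K →ₐ[F] Ω ⊗[F] K).toRingHom
    commutes' := by
      intro c
      show algebraMap (Ω ⊗[F] K) (KO F K Ω)
        ((Algebra.TensorProduct.includeRight : K →ₐ[F] Ω ⊗[F] K) (algebraMap F K c)) =
        algebraMap (Ω ⊗[F] K) (KO F K Ω) (algebraMap Ω (Ω ⊗[F] K) (algebraMap F Ω c))
      rw [AlgHom.commutes, IsScalarTower.algebraMap_apply F Ω (Ω ⊗[F] K)] }

theorem iota_apply (f : K) : iota F K Ω f = algebraMap (Ω ⊗[F] K) (KO F K Ω) (1 ⊗ₜ f) := rfl

theorem mu_eq (t : Ω ⊗[F] K) : mu (iota F K Ω) t = algebraMap (Ω ⊗[F] K) (KO F K Ω) t := by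
  induction t with
  | zero => simp
  | add t t' h h' => rw [map_add, map_add, h, h']
  | tmul c f =>
    rw [mu_tmul, iota_apply, IsScalarTower.algebraMap_apply Ω (Ω ⊗[F] K), ← map_mul,
      Algebra.TensorProduct.algebraMap_apply, Algebra.TensorProduct.tmul_mul_tmul]
    simp

theorem isCE : IsCE Ω (iota F K Ω) where
  inj := by
    intro a b h
    rw [mu_eq, mu_eq] at h
    exact IsFractionRing.injective _ _ h
  frac := by
    intro f
    obtain ⟨a, b, hb, rfl⟩ := IsFractionRing.div_surjective (A := Ω ⊗[F] K) f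
    refine ⟨a, b, nonZeroDivisors.ne_zero hb, ?_⟩
    rw [mu_eq, mu_eq, div_mul_cancel₀]
    exact (map_ne_zero_iff _ (IsFractionRing.injective (Ω ⊗[F] K) (KO F K Ω))).mpr
      (nonZeroDivisors.ne_zero hb)

variable [Algebra (RatFunc F) K] [IsScalarTower F (RatFunc F) K]

theorem transcendental_iota : Transcendental Ω (iota F K Ω (xK F K)) := by
  rw [transcendental_iff]
  intro q hq
  have hinj : Function.Injective (Polynomial.aeval (R := F) (xK F K)) := by
    rw [← transcendental_iff_injective]
    exact transcendental_of_notMem (xK_notMem_range (F := F) (K := K))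
  have hind : LinearIndependent F (fun n : Fin (q.natDegree + 1) => xK F K ^ (n : ℕ)) := by
    have h1 := (Polynomial.basisMonomials F).linearIndependent.map'
      (Polynomial.aeval (R := F) (xK F K)).toLinearMap (LinearMap.ker_eq_bot.mpr hinj)
    have h2 := h1.comp (fun n : Fin (q.natDegree + 1) => (n : ℕ)) Fin.val_injective
    have h3 : (fun n : Fin (q.natDegree + 1) => xK F K ^ (n : ℕ)) =
        ((Polynomial.aeval (R := F) (xK F K)).toLinearMap ∘ (Polynomial.basisMonomials F)) ∘
          (fun n : Fin (q.natDegree + 1) => (n : ℕ)) := by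
      ext n
      simp [← Polynomial.X_pow_eq_monomial]
    rw [h3]
    exact h2
  have h3 := coeff_eq_zero (N := Ω) hind (fun n => q.coeff n) (by
    apply (isCE F K Ω).inj
    rw [map_sum, map_zero, ← hq, Polynomial.aeval_eq_sum_range, Finset.sum_range]
    refine Finset.sum_congr rfl fun i _ => ?_
    rw [mu_tmul, map_pow, Algebra.smul_def])
  ext n
  by_cases hn : n < q.natDegree + 1
  · exact congrFun h3 ⟨n, hn⟩
  · rw [Polynomial.coeff_zero]
    exact Polynomial.coeff_eq_zero_of_natDegree_lt (by omega)

theorem aeval_injective :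
    Function.Injective (Polynomial.aeval (R := Ω) (iota F K Ω (xK F K))).toRingHom := by
  have := transcendental_iff_injective.mp (transcendental_iota F K Ω)
  exact this

noncomputable instance : Algebra (RatFunc Ω) (KO F K Ω) :=
  (IsFractionRing.lift (A := Polynomial Ω) (K := RatFunc Ω) (aeval_injective F K Ω)).toAlgebra

theorem algebraMap_ratFunc_poly (q : Polynomial Ω) :
    algebraMap (RatFunc Ω) (KO F K Ω) (algebraMap (Polynomial Ω) (RatFunc Ω) q) =
      Polynomial.aeval (iota F K Ω (xK F K)) q :=
  IsFractionRing.lift_algebraMap (aeval_injective F K Ω) q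

instance : IsScalarTower Ω (RatFunc Ω) (KO F K Ω) := IsScalarTower.of_algebraMap_eq fun c => by
  rw [RR2_948.algebraMap_eq_C, ← RatFunc.algebraMap_C, algebraMap_ratFunc_poly,
    Polynomial.aeval_C]

theorem xK_eq : xK Ω (KO F K Ω) = iota F K Ω (xK F K) := by
  unfold xK
  rw [← RatFunc.algebraMap_X, algebraMap_ratFunc_poly, Polynomial.aeval_X]
  rfl

theorem map_algebraMap_injective :
    Function.Injective ((algebraMap (Polynomial Ω) (RatFunc Ω)).comp
      (Polynomial.mapRingHom (algebraMap F Ω))) :=
  (RatFunc.algebraMap_injective Ω).comp (Polynomial.map_injective _ (algebraMap F Ω).injective)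

/-- `F(X) → Ω(X)` -/
noncomputable def theta : RatFunc F →+* RatFunc Ω :=
  IsFractionRing.lift (A := Polynomial F) (K := RatFunc F) (map_algebraMap_injective F Ω)

theorem theta_comp : (algebraMap (RatFunc Ω) (KO F K Ω)).comp (theta F Ω) =
    (iota F K Ω : K →+* KO F K Ω).comp (algebraMap (RatFunc F) K) := by
  apply algHom_ratFunc_eq
  intro p
  simp only [RingHom.comp_apply]
  have h1 : theta F Ω (algebraMap (Polynomial F) (RatFunc F) p) =
      algebraMap (Polynomial Ω) (RatFunc Ω) (p.map (algebraMap F Ω)) :=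
    IsFractionRing.lift_algebraMap (map_algebraMap_injective F Ω) p
  rw [h1, algebraMap_ratFunc_poly, algebraMap_poly_K]
  show _ = iota F K Ω (Polynomial.aeval (xK F K) p)
  rw [← Polynomial.aeval_algHom_apply, Polynomial.aeval_map_algebraMap]

instance [FiniteDimensional (RatFunc F) K] : FiniteDimensional (RatFunc Ω) (KO F K Ω) := by
  let b := Module.finBasis (RatFunc F) K
  let S : Set (KO F K Ω) := Set.range fun i => iota F K Ω (b i)
  have hint : ∀ f : K, IsIntegral (RatFunc Ω) (iota F K Ω f) := by
    intro f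
    exact (Algebra.IsIntegral.isIntegral (R := RatFunc F) f).map_of_comp_eq (theta F Ω)
      (iota F K Ω : K →+* KO F K Ω) (theta_comp F K Ω)
  have hK : ∀ f : K, iota F K Ω f ∈ IntermediateField.adjoin (RatFunc Ω) S := by
    intro f
    rw [← b.sum_repr f, map_sum]
    refine sum_mem fun i _ => ?_
    rw [Algebra.smul_def, map_mul]
    refine mul_mem ?_ (IntermediateField.subset_adjoin _ _ ⟨i, rfl⟩)
    have h1 := congrArg (fun g => g (b.repr f i)) (theta_comp F K Ω)
    simp only [RingHom.comp_apply] at h1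
    rw [show iota F K Ω (algebraMap (RatFunc F) K (b.repr f i)) =
      algebraMap (RatFunc Ω) (KO F K Ω) (theta F Ω (b.repr f i)) from h1.symm]
    exact IntermediateField.algebraMap_mem _ _
  have htop : IntermediateField.adjoin (RatFunc Ω) S = ⊤ := by
    rw [eq_top_iff]
    intro f _
    have hmu : ∀ t : Ω ⊗[F] K, mu (iota F K Ω) t ∈ IntermediateField.adjoin (RatFunc Ω) S := by
      intro t
      induction t with
      | zero => rw [map_zero]; exact zero_mem _
      | add t t' h h' => rw [map_add]; exact add_mem h h'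
      | tmul c g =>
        rw [mu_tmul]
        refine mul_mem ?_ (hK g)
        rw [IsScalarTower.algebraMap_apply Ω (RatFunc Ω)]
        exact IntermediateField.algebraMap_mem _ _
    obtain ⟨a, c, hc, hac⟩ := (isCE F K Ω).frac f
    have h1 : f = mu (iota F K Ω) a / mu (iota F K Ω) c := by
      rw [eq_div_iff ((isCE F K Ω).ne_zero hc)]
      exact hac
    rw [h1]
    exact div_mem (hmu a) (hmu c)
  have hS : S.Finite := Set.finite_range _
  haveI := hS.to_subtype
  have h2 : FiniteDimensional (RatFunc Ω) (IntermediateField.adjoin (RatFunc Ω) S) :=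
    IntermediateField.finiteDimensional_adjoin (by
      rintro _ ⟨i, rfl⟩
      exact hint _)
  rw [htop] at h2
  exact (IntermediateField.topEquiv (F := RatFunc Ω) (E := KO F K Ω)).toLinearEquiv.finiteDimensional

instance [CharZero F] : CharZero (KO F K Ω) :=
  charZero_of_injective_algebraMap (algebraMap F (KO F K Ω)).injective

end Construct

end Crest.Agent.R013.CE9_280
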