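import Mathlib
import Crest.Agent.R013.CE8_280

/-!
# R013 / CE10: rigidity, generic points (helper280)
-/

set_option autoImplicit false
set_option linter.all false

namespace Crest.Agent.R013.CE10_280

open WithZero Module TensorProduct nonZeroDivisors
open Crest.Agent.R013.RR7_948 Crest.Agent.R013.RR8_948 Crest.Agent.R013.RR9_948
open Crest.Agent.R013.RR11_948 Crest.Agent.R013.RR13_948 Crest.Agent.R013.CE1_280
open Crest.Agent.R013.CE2_280 Crest.Agent.R013.CE3_280 Crest.Agent.R013.CE5_280
open Crest.Agent.R013.CE6_280 Crest.Agent.R013.CE7_280 Crest.Agent.R013.CE8_280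

section Rig

variable {F K Ω L : Type*} [Field F] [IsAlgClosed F] [Field K] [Algebra F K]
  [Algebra (RatFunc F) K] [IsScalarTower F (RatFunc F) K] [FiniteDimensional (RatFunc F) K]
  [Algebra.IsSeparable (RatFunc F) K]
  [Field Ω] [Algebra F Ω] [IsAlgClosed Ω]
  [Field L] [Algebra Ω L] [Algebra F L] [IsScalarTower F Ω L]
  [Algebra (RatFunc Ω) L] [IsScalarTower Ω (RatFunc Ω) L]
  [FiniteDimensional (RatFunc Ω) L] [Algebra.IsSeparable (RatFunc Ω) L]
  {ι : K →ₐ[F] L}

/-- there is a place over `K` outside any finite set -/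
theorem exists_conP_eq_one (hι : IsCE Ω ι) {h : L} (h0 : h ≠ 0) :
    ∃ P : Pl F K, (conP hι P).v h = 1 := by
  classical
  have hfin := finite_ne_one (k := Ω) h0
  have hfin' : {P : Pl F K | (conP hι P).v h ≠ 1}.Finite :=
    Set.Finite.preimage (f := conP hι) ((conP_injective hι).injOn) hfin
  obtain ⟨P, hP⟩ := RR12_948.exists_notMem hfin'.toFinset
  refine ⟨P, ?_⟩
  by_contra hcon
  exact hP (by simpa using hcon)

theorem mem_one_of_ell_eq_one {E : Pl Ω L →₀ ℤ} (hE : 0 ≤ E) (hell : ell E = 1) {f : L}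
    (hf : f ∈ LD E) : ∃ c : Ω, f = algebraMap Ω L c := by
  have h1 : (1 : L) ∈ LD E := by
    rw [mem_LD]
    intro P
    rw [map_one, ← exp_zero, exp_le_exp]
    exact hE P
  haveI := LD_finite E
  have h2 := (finrank_eq_one_iff_of_nonzero' (⟨1, h1⟩ : LD E) (by
    intro h
    exact one_ne_zero (congrArg Subtype.val h))).mp hell ⟨f, hf⟩
  obtain ⟨c, hc⟩ := h2
  refine ⟨c, ?_⟩
  have h3 := congrArg Subtype.val hc
  rw [Algebra.algebraMap_eq_smul_one]
  exact h3.symm

/-- **rigidity** -/
theorem rig [CharZero Ω] (hι : IsCE Ω ι) {d : Derivation F Ω Ω} {D : Derivation F L L}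
    (hD : IsExt ι d D) {E : Pl Ω L →₀ ℤ} (hE : 0 ≤ E) (hell : ell E = 1) {h : L} (h0 : h ≠ 0)
    (hyp : ∀ Q : K →ₐ[F] Ω, (plQ hι Q).v h ≠ 1 → d (Q (xK F K)) = 0 ∨ 1 ≤ E (plQ hι Q)) :
    ∀ Q : K →ₐ[F] Ω, (plQ hι Q).v h ≠ 1 → d (Q (xK F K)) = 0 := by
  have hmem : D h / h ∈ LD E := by
    rw [mem_LD]
    intro w
    have hEw : (1 : ℤᵐ⁰) ≤ exp (E w) := by
      rw [← exp_zero, exp_le_exp]; exact hE w
    rcases cases hι w with ⟨P, rfl⟩ | ⟨Q, rfl⟩
    · exact (dlog_Over hι hD (conP_Over hι P) h0).trans hEw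
    · by_cases h1 : (plQ hι Q).v h = 1
      · exact (dlog_At_le_one hι hD (plQ_At hι Q) h0 (Or.inl h1)).trans hEw
      · rcases hyp Q h1 with h2 | h2
        · exact (dlog_At_le_one hι hD (plQ_At hι Q) h0 (Or.inr h2)).trans hEw
        · refine (dlog_At_le hι hD (plQ_At hι Q) h0).trans ?_
          rw [exp_le_exp]
          exact h2
  obtain ⟨lam, hlam⟩ := mem_one_of_ell_eq_one hE hell hmem
  rw [div_eq_iff h0] at hlam
  obtain ⟨P, hP⟩ := exists_conP_eq_one hι h0
  obtain ⟨r, hr⟩ := exists_residue (conP hι P) hP.le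
  have hr0 : r ≠ 0 := by
    rintro rfl
    rw [map_zero, sub_zero, hP] at hr
    exact lt_irrefl _ hr
  -- the residue satisfies the same differential equation
  have hdr : d r = lam * r := by
    have h1 : (conP hι P).v (D (h - algebraMap Ω L r)) < 1 := by
      by_cases h2 : h - algebraMap Ω L r = 0
      · rw [h2]; simp
      · have h3 := dlog_Over hι hD (conP_Over hι P) h2
        rw [map_div₀] at h3
        have h4 : 0 < (conP hι P).v (h - algebraMap Ω L r) := by
          rw [Valuation.pos_iff]; exact h2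
        exact lt_of_le_of_lt ((div_le_one₀ h4).mp h3) hr
    rw [map_sub, hD.const, hlam] at h1
    have h5 : (conP hι P).v (algebraMap Ω L (d r - lam * r)) < 1 := by
      have h6 : algebraMap Ω L (d r - lam * r) =
          algebraMap Ω L lam * (h - algebraMap Ω L r) -
            (algebraMap Ω L lam * h - algebraMap Ω L (d r)) := by
        rw [map_sub, map_mul]; ring
      rw [h6]
      refine lt_of_le_of_lt (Valuation.map_sub _ _ _) (max_lt ?_ h1)
      rw [map_mul]
      calc _ ≤ 1 * (conP hι P).v (h - algebraMap Ω L r) :=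
            mul_le_mul_left (v_algebraMap_le _ _) _
        _ < 1 := by rw [one_mul]; exact hr
    exact sub_eq_zero.mp (v_algebraMap_lt _ h5)
  have hrL : algebraMap Ω L r ≠ 0 := by simpa using hr0
  have hh' : D (h / algebraMap Ω L r) = 0 := by
    rw [D.leibniz_div, hD.const, hlam, hdr, map_mul]
    simp only [smul_eq_mul]
    ring
  intro Q hQ
  by_contra hd
  refine dlog_At_ne_zero hι hD (plQ_At hι Q) (f := h / algebraMap Ω L r)
    (div_ne_zero h0 hrL) ?_ hd hh'
  rw [map_div₀, (plQ hι Q).const r hr0, div_one]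
  exact hQ

end Rig

section Generic

variable {F K Ω : Type*} [Field F] [IsAlgClosed F] [Field K] [Algebra F K]
  [Algebra (RatFunc F) K] [IsScalarTower F (RatFunc F) K] [FiniteDimensional (RatFunc F) K]
  [Field Ω] [Algebra F Ω] [IsAlgClosed Ω]

/-- the relative algebraic closure of the field generated by some elements -/
noncomputable def acl (F : Type*) {Ω : Type*} [Field F] [Field Ω] [Algebra F Ω] (S : Set Ω) :
    IntermediateField F Ω :=
  (algebraicClosure (IntermediateField.adjoin F S) Ω).restrictScalars F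

omit [IsAlgClosed F] [IsAlgClosed Ω] in
theorem mem_acl {S : Set Ω} {y : Ω} : y ∈ acl F S ↔ IsAlgebraic (IntermediateField.adjoin F S) y :=
  mem_algebraicClosure_iff

instance isAlgClosed_acl (S : Set Ω) : IsAlgClosed (acl F S) := by
  have h : IsAlgClosed (algebraicClosure (IntermediateField.adjoin F S) Ω) :=
    (algebraicClosure.isAlgClosure (IntermediateField.adjoin F S) Ω).isAlgClosed
  exact h

omit [IsAlgClosed F] [IsAlgClosed Ω] in
theorem subset_acl {S : Set Ω} {y : Ω} (hy : y ∈ S) : y ∈ acl F S := by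
  rw [mem_acl]
  exact isAlgebraic_algebraMap (⟨y, IntermediateField.subset_adjoin F S hy⟩ :
    IntermediateField.adjoin F S)

/-- values of a point lie in every algebraically closed subfield containing the value of `x` -/
theorem mem_of_point {N : IntermediateField F Ω} [IsAlgClosed N] (Q : K →ₐ[F] Ω)
    (hQ : Q (xK F K) ∈ N) (f : K) : Q f ∈ N := by
  have hr : ∀ r : RatFunc F, Q (algebraMap (RatFunc F) K r) ∈ N := by
    intro r
    obtain ⟨p, q, hq, rfl⟩ := IsFractionRing.div_surjective (A := Polynomial F) r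
    have hp : ∀ p : Polynomial F,
        Q (algebraMap (RatFunc F) K (algebraMap (Polynomial F) (RatFunc F) p)) ∈ N := by
      intro p
      rw [algebraMap_poly_K, ← Polynomial.aeval_algHom_apply]
      have h1 : Polynomial.aeval (Q (xK F K)) p =
          ((Polynomial.aeval (⟨Q (xK F K), hQ⟩ : N) p : N) : Ω) := by
        have := Polynomial.aeval_algHom_apply N.val (⟨Q (xK F K), hQ⟩ : N) p
        exact this
      rw [h1]
      exact SetLike.coe_mem _
    rw [map_div₀, map_div₀]
    exact div_mem (hp p) (hp q)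
  let φ : RatFunc F →+* N := ((Q : K →+* Ω).comp (algebraMap (RatFunc F) K)).codRestrict N hr
  have hint : IsIntegral N (Q f) := by
    refine (Algebra.IsIntegral.isIntegral (R := RatFunc F) f).map_of_comp_eq φ (Q : K →+* Ω) ?_
    ext r
    rfl
  have h2 : Q f ∈ Set.range (algebraMap N Ω) := by
    by_contra h3
    exact transcendental_of_notMem h3 hint.isAlgebraic
  obtain ⟨y, hy⟩ := h2
  rw [← hy]
  exact y.2

/-- **generic points impose independent conditions** -/
theorem det_ne_zero {g : ℕ} {ω : Fin g → K} (hω : LinearIndependent F ω)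
    (Q : Fin g → K →ₐ[F] Ω) (hz : AlgebraicIndependent F fun i => Q i (xK F K)) :
    (Matrix.of fun i j => Q i (ω j)).det ≠ 0 := by
  classical
  intro h0
  obtain ⟨v, hv, hvM⟩ := Matrix.exists_vecMul_eq_zero_iff.mpr h0
  obtain ⟨i₁, hi₁⟩ : ∃ i, v i ≠ 0 := by
    by_contra h; push Not at h; exact hv (funext h)
  let T : Finset (Fin g) := Finset.univ.filter fun i => v i ≠ 0
  have hT : T.Nonempty := ⟨i₁, by simp [T, hi₁]⟩
  let i₀ := T.max' hT
  have hi₀ : v i₀ ≠ 0 := by
    have := T.max'_mem hT
    simpa [T] using this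
  have hgt : ∀ i, i₀ < i → v i = 0 := by
    intro i hi
    by_contra h
    have h1 := T.le_max' i (by simp [T, h])
    exact absurd hi (not_lt.mpr h1)
  let S : Set Ω := (fun i => Q i (xK F K)) '' {k | k < i₀}
  let N := acl F S
  have hN : ∀ k, k < i₀ → ∀ f, Q k f ∈ N := fun k hk f =>
    mem_of_point (N := acl F S) (Q k) (subset_acl (S := S) ⟨k, hk, rfl⟩) f
  have htr : Transcendental N (Q i₀ (xK F K)) := by
    apply transcendental_of_notMem
    rintro ⟨y, hy⟩
    have h1 : Q i₀ (xK F K) ∈ N := by rw [← hy]; exact y.2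
    rw [mem_acl, IntermediateField.isAlgebraic_adjoin_iff] at h1
    exact hz.transcendental_adjoin (s := {k | k < i₀}) (i := i₀) (by simp) h1
  let Λ : (Fin g → N) →ₗ[N] ({k : Fin g // k < i₀} → N) :=
    { toFun := fun c k => ∑ j, c j * (⟨Q k (ω j), hN k k.2 _⟩ : N)
      map_add' := by
        intro c c'
        ext k
        simp [add_mul, Finset.sum_add_distrib]
      map_smul' := by
        intro a c
        ext k
        simp [Finset.mul_sum, mul_assoc] }
  have hker : LinearMap.ker Λ ≠ ⊥ := by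
    apply LinearMap.ker_ne_bot_of_finrank_lt
    rw [finrank_fintype_fun_eq_card, finrank_fintype_fun_eq_card, Fintype.card_fin]
    calc Fintype.card {k : Fin g // k < i₀} < Fintype.card (Fin g) :=
          Fintype.card_subtype_lt (x := i₀) (by simp)
      _ = g := Fintype.card_fin g
  obtain ⟨c, hc, hc0⟩ := Submodule.exists_mem_ne_zero_of_ne_bot hker
  have hck : ∀ k, k < i₀ → ∑ j, algebraMap N Ω (c j) * Q k (ω j) = 0 := by
    intro k hk
    have h1 := congrFun (LinearMap.mem_ker.mp hc) ⟨k, hk⟩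
    have h2 := congrArg (algebraMap N Ω) h1
    simp only [Λ, LinearMap.coe_mk, AddHom.coe_mk, map_sum, map_mul, Pi.zero_apply,
      map_zero] at h2
    exact h2
  apply hc0
  apply eq_zero_of_sum_eq_zero (Q i₀) htr hω c
  have h3 : ∑ j, algebraMap N Ω (c j) * (∑ i, v i * Q i (ω j)) = 0 := by
    refine Finset.sum_eq_zero fun j _ => ?_
    have h4 := congrFun hvM j
    simp only [Matrix.vecMul, dotProduct, Matrix.of_apply, Pi.zero_apply] at h4
    rw [h4, mul_zero]
  have h5 : ∑ i, v i * (∑ j, algebraMap N Ω (c j) * Q i (ω j)) = 0 := by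
    rw [← h3]
    simp only [Finset.mul_sum]
    rw [Finset.sum_comm]
    refine Finset.sum_congr rfl fun j _ => Finset.sum_congr rfl fun i _ => ?_
    ring
  rw [Finset.sum_eq_single i₀] at h5
  · exact (mul_eq_zero.mp h5).resolve_left hi₀
  · intro i _ hne
    rcases lt_or_gt_of_ne hne with h | h
    · rw [hck i h, mul_zero]
    · rw [hgt i h, zero_mul]
  · intro h; exact absurd (Finset.mem_univ _) h

end Generic

section GenericDivisor

variable {F K Ω L : Type*} [Field F] [IsAlgClosed F] [Field K] [Algebra F K]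
  [Algebra (RatFunc F) K] [IsScalarTower F (RatFunc F) K] [FiniteDimensional (RatFunc F) K]
  [Algebra.IsSeparable (RatFunc F) K]
  [Field Ω] [Algebra F Ω] [IsAlgClosed Ω]
  [Field L] [Algebra Ω L] [Algebra F L] [IsScalarTower F Ω L]
  [Algebra (RatFunc Ω) L] [IsScalarTower Ω (RatFunc Ω) L]
  [FiniteDimensional (RatFunc Ω) L] [Algebra.IsSeparable (RatFunc Ω) L]
  {ι : K →ₐ[F] L}

/-- sum of points -/
noncomputable def sumQ (hι : IsCE Ω ι) {g : ℕ} (Q : Fin g → K →ₐ[F] Ω) : Pl Ω L →₀ ℤ :=
  ∑ i, Finsupp.single (plQ hι (Q i)) 1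

theorem sumQ_nonneg (hι : IsCE Ω ι) {g : ℕ} (Q : Fin g → K →ₐ[F] Ω) : 0 ≤ sumQ hι Q := by
  classical
  intro w
  rw [Finsupp.zero_apply, sumQ, Finsupp.finset_sum_apply]
  refine Finset.sum_nonneg fun i _ => ?_
  rw [Finsupp.single_apply]
  split_ifs <;> norm_num

theorem one_le_sumQ (hι : IsCE Ω ι) {g : ℕ} (Q : Fin g → K →ₐ[F] Ω) (i : Fin g) :
    1 ≤ sumQ hι Q (plQ hι (Q i)) := by
  classical
  rw [sumQ, Finsupp.finset_sum_apply]
  calc (1 : ℤ) = (Finsupp.single (plQ hι (Q i)) (1 : ℤ)) (plQ hι (Q i)) := by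
        rw [Finsupp.single_eq_same]
    _ ≤ _ := Finset.single_le_sum (f := fun j => (Finsupp.single (plQ hι (Q j)) (1 : ℤ))
        (plQ hι (Q i))) (fun j _ => by
          show (0 : ℤ) ≤ (Finsupp.single (plQ hι (Q j)) (1 : ℤ)) (plQ hι (Q i))
          rw [Finsupp.single_apply]; split_ifs <;> norm_num) (Finset.mem_univ i)

theorem sumQ_conP (hι : IsCE Ω ι) {g : ℕ} (Q : Fin g → K →ₐ[F] Ω) (P : Pl F K) :
    sumQ hι Q (conP hι P) = 0 := by
  classical
  rw [sumQ, Finsupp.finset_sum_apply]
  refine Finset.sum_eq_zero fun i _ => ?_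
  rw [Finsupp.single_apply, if_neg]
  exact fun h => conP_ne_plQ hι P (Q i) h.symm

theorem degD_sumQ (hι : IsCE Ω ι) {g : ℕ} (Q : Fin g → K →ₐ[F] Ω) : degD (sumQ hι Q) = g := by
  have h : ∀ (s : Finset (Fin g)), degD (∑ i ∈ s, Finsupp.single (plQ hι (Q i)) (1 : ℤ)) =
      s.card := by
    classical
    intro s
    induction s using Finset.induction_on with
    | empty => simp [degD_zero]
    | insert a s ha ih =>
      rw [Finset.sum_insert ha, degD_add, ih, degD_single, degP_eq_one, Finset.card_insert_of_notMem ha]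
      push_cast; ring
  have := h Finset.univ
  rw [Finset.card_univ, Fintype.card_fin] at this
  exact this

/-- `ℓ = 1` for a sum of `g` generic points -/
theorem ell_sumQ (hι : IsCE Ω ι) (hx : xK Ω L = ι (xK F K)) (Q : Fin (gen F K) → K →ₐ[F] Ω)
    (hz : AlgebraicIndependent F fun i => Q i (xK F K)) : ell (sumQ hι Q) = 1 := by
  classical
  have hrr := riemann_roch (algebraicClosure_eq_bot (k := Ω) (K := L)) (sumQ hι Q)
  rw [degD_sumQ, gen_eq hι hx, ell_canD_sub hι hx] at hrr
  have hzero : ell (base hι (canD F K) - sumQ hι Q) = 0 := by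
    unfold ell
    have hbot : LD (base hι (canD F K) - sumQ hι Q) = ⊥ := by
      rw [eq_bot_iff]
      intro f hf
      rw [mem_LD] at hf
      have hf1 : f ∈ LD (base hι (canD F K)) := by
        rw [mem_LD]
        intro w
        refine (hf w).trans ?_
        rw [exp_le_exp, Finsupp.sub_apply]
        have := sumQ_nonneg hι Q w
        rw [Finsupp.zero_apply] at this
        omega
      rw [← range_lam hι hx] at hf1
      obtain ⟨t, rfl⟩ := hf1
      haveI := LD_finite (canD F K)
      let ω := Module.finBasis F (LD (canD F K))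
      obtain ⟨c, rfl⟩ := TensorProduct.eq_repr_basis_right ω t
      -- the coefficients
      have hsum : lam Ω ι (canD F K) (c.sum fun i m => m ⊗ₜ ω i) =
          mu ι (∑ i, c i ⊗ₜ[F] ((ω i : LD (canD F K)) : K)) := by
        rw [Finsupp.sum_fintype _ _ (fun i => by simp), map_sum, map_sum]
        refine Finset.sum_congr rfl fun i _ => ?_
        rw [lam_tmul, mu_tmul]
      rw [hsum] at hf ⊢
      have hωK : LinearIndependent F (fun i => ((ω i : LD (canD F K)) : K)) :=
        ω.linearIndependent.map' (LD (canD F K)).subtype (Submodule.ker_subtype _)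
      have hdet := det_ne_zero (ω := fun i : Fin (gen F K) => ((ω i : LD (canD F K)) : K)) hωK Q hz
      have hc : c = 0 := by
        have h1 := Matrix.eq_zero_of_mulVec_eq_zero hdet (v := fun i => c i) (by
          ext i
          have h2 := hf (plQ hι (Q i))
          have h3 : (plQ hι (Q i)).v (mu ι (∑ i, c i ⊗ₜ[F] ((ω i : LD (canD F K)) : K))) < 1 := by
            refine lt_of_le_of_lt h2 ?_
            rw [Finsupp.sub_apply, base_plQ, ← exp_zero, exp_lt_exp]
            have := one_le_sumQ hι Q i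
            omega
          rw [(plQ_At hι (Q i)).lt_one_iff, map_sum] at h3
          simp only [ev_tmul] at h3
          simp only [Matrix.mulVec, dotProduct, Matrix.of_apply, Pi.zero_apply]
          rw [← h3]
          exact Finset.sum_congr rfl fun j _ => mul_comm _ _)
        ext i
        exact congrFun h1 i
      rw [hc]
      simp
    rw [hbot]
    simp
  rw [hzero] at hrr
  push_cast at hrr
  omega

end GenericDivisor

end Crest.Agent.R013.CE10_280
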