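import Mathlib
import Crest.Agent.R013.CE10_280

/-!
# R013 / Div1: the generic relation `n E + E'' ~ (n+1) g P₀` (helper280)
-/

set_option autoImplicit false
set_option linter.all false

namespace Crest.Agent.R013.Div1_280

open WithZero Module TensorProduct nonZeroDivisors
open Crest.Agent.R013.RR7_948 Crest.Agent.R013.RR8_948 Crest.Agent.R013.RR9_948
open Crest.Agent.R013.RR11_948 Crest.Agent.R013.RR13_948 Crest.Agent.R013.CE1_280
open Crest.Agent.R013.CE2_280 Crest.Agent.R013.CE3_280 Crest.Agent.R013.CE5_280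
open Crest.Agent.R013.CE6_280 Crest.Agent.R013.CE7_280 Crest.Agent.R013.CE8_280
open Crest.Agent.R013.CE10_280

section GnDef

variable (k K : Type*) [Field k] [Field K] [Algebra k K] [Algebra (RatFunc k) K]
  [IsScalarTower k (RatFunc k) K] [FiniteDimensional (RatFunc k) K]
  [Algebra.IsSeparable (RatFunc k) K]

/-- divisors whose class is divisible by `n` -/
noncomputable def Gn (n : ℕ) : AddSubgroup (Pl k K →₀ ℤ) where
  carrier := {D | ∃ (E : Pl k K →₀ ℤ) (f : K), f ≠ 0 ∧ D = n • E + divf f}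
  add_mem' := by
    rintro _ _ ⟨E, f, hf, rfl⟩ ⟨E', f', hf', rfl⟩
    refine ⟨E + E', f * f', mul_ne_zero hf hf', ?_⟩
    rw [divf_mul hf hf', smul_add]
    abel
  zero_mem' := ⟨0, 1, one_ne_zero, by rw [divf_one]; simp⟩
  neg_mem' := by
    rintro _ ⟨E, f, hf, rfl⟩
    refine ⟨-E, f⁻¹, inv_ne_zero hf, ?_⟩
    rw [divf_inv hf, smul_neg]
    abel

variable {k K}

theorem mem_Gn {n : ℕ} {D : Pl k K →₀ ℤ} :
    D ∈ Gn k K n ↔ ∃ (E : Pl k K →₀ ℤ) (f : K), f ≠ 0 ∧ D = n • E + divf f := Iff.rfl

theorem divf_mem_Gn (n : ℕ) {f : K} (hf : f ≠ 0) : divf (k := k) f ∈ Gn k K n :=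
  ⟨0, f, hf, by simp⟩

theorem nsmul_mem_Gn (n : ℕ) (E : Pl k K →₀ ℤ) : n • E ∈ Gn k K n :=
  ⟨E, 1, one_ne_zero, by rw [divf_one]; simp⟩

theorem degD_nsmul (n : ℕ) (E : Pl k K →₀ ℤ) : degD (n • E) = n * degD E := by
  induction n with
  | zero => simp [degD_zero]
  | succ n ih =>
    rw [succ_nsmul, degD_add, ih]
    push_cast; ring

theorem degD_nonneg {D : Pl k K →₀ ℤ} (hD : 0 ≤ D) : 0 ≤ degD D := by
  unfold degD
  exact Finsupp.sum_nonneg fun P _ => mul_nonneg (hD P) (by positivity)

theorem eq_zero_of_nonneg {D : Pl k K →₀ ℤ} (hD : 0 ≤ D) (h : degD D = 0) : D = 0 := by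
  ext P
  by_contra hP
  rw [Finsupp.zero_apply] at hP
  have hpos : 0 < degD D := by
    unfold degD
    refine Finset.sum_pos' (fun Q _ => mul_nonneg (hD Q) (by positivity)) ⟨P, ?_, ?_⟩
    · exact Finsupp.mem_support_iff.mpr hP
    · have h3 : 0 < D P := lt_of_le_of_ne (hD P) (Ne.symm hP)
      have h4 : 0 < (degP P : ℤ) := by exact_mod_cast degP_pos P
      exact mul_pos h3 h4
  omega

end GnDef

section Main

variable {F K Ω L : Type*} [Field F] [IsAlgClosed F] [CharZero F] [Field K] [Algebra F K]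
  [Algebra (RatFunc F) K] [IsScalarTower F (RatFunc F) K] [FiniteDimensional (RatFunc F) K]
  [Algebra.IsSeparable (RatFunc F) K]
  [Field Ω] [Algebra F Ω] [IsAlgClosed Ω]
  [Field L] [Algebra Ω L] [Algebra F L] [IsScalarTower F Ω L]
  [Algebra (RatFunc Ω) L] [IsScalarTower Ω (RatFunc Ω) L]
  [FiniteDimensional (RatFunc Ω) L] [Algebra.IsSeparable (RatFunc Ω) L]
  {ι : K →ₐ[F] L}

omit [CharZero F] [IsAlgClosed F] [Algebra.IsSeparable (RatFunc F) K] in
/-- a point with prescribed transcendental `x`-coordinate -/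
theorem exists_point {a : Ω} (ha : Transcendental F a) : ∃ Q : K →ₐ[F] Ω, Q (xK F K) = a := by
  letI := (rho ha : RatFunc F →ₐ[F] Ω).toRingHom.toAlgebra
  haveI : IsScalarTower F (RatFunc F) Ω := IsScalarTower.of_algebraMap_eq fun c => by
    show _ = rho ha _
    rw [AlgHom.commutes]
  let Q : K →ₐ[RatFunc F] Ω := IsAlgClosed.lift
  refine ⟨Q.restrictScalars F, ?_⟩
  show Q (algebraMap (RatFunc F) K RatFunc.X) = a
  rw [AlgHom.commutes]
  show rho ha RatFunc.X = a
  rw [← RatFunc.algebraMap_X, rho_algebraMap, Polynomial.aeval_X]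

/-- key step: from generic points to generic points -/
theorem exists_generic_relation (hι : IsCE Ω ι) (hx : xK Ω L = ι (xK F K))
    {z : Fin (gen F K) → Ω} (hz : IsTranscendenceBasis F z) {n : ℕ} (hn : 0 < n) (P₀ : Pl F K) :
    ∃ R : Fin (gen F K) → K →ₐ[F] Ω, IsTranscendenceBasis F (fun i => R i (xK F K)) ∧
      sumQ hι R - base hι (Finsupp.single P₀ (gen F K : ℤ)) ∈ Gn Ω L n := by
  classical
  haveI : CharZero Ω := charZero_of_injective_algebraMap (algebraMap F Ω).injective
  choose Q hQ using fun i => exists_point (K := K) (hz.1.transcendental i)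
  have hQz : (fun i => Q i (xK F K)) = z := funext hQ
  have hell := ell_sumQ hι hx Q (by rw [hQz]; exact hz.1)
  let D₀ : Pl Ω L →₀ ℤ := base hι (Finsupp.single P₀ (((n + 1) * gen F K : ℕ) : ℤ)) - n • sumQ hι Q
  have hD₀ : degD D₀ = gen F K := by
    rw [degD_sub, degD_base, degD_single, degP_eq_one, degD_nsmul, degD_sumQ]
    push_cast; ring
  have h1 : 1 ≤ ell D₀ := by
    have := ell_ge (algebraicClosure_eq_bot (k := Ω) (K := L)) D₀
    rw [hD₀, gen_eq hι hx] at this
    have h2 : (1 : ℤ) ≤ ell D₀ := by linarith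
    exact_mod_cast h2
  have h2 : LD D₀ ≠ ⊥ := by
    intro h0
    unfold ell at h1
    rw [h0] at h1
    simp at h1
  obtain ⟨h, hh, hh0⟩ := Submodule.exists_mem_ne_zero_of_ne_bot h2
  rw [mem_LD_iff hh0] at hh
  set E : Pl Ω L →₀ ℤ := D₀ + divf h with hE
  have hEdeg : degD E = gen F K := by rw [hE, degD_add, degD_divf hh0, hD₀, add_zero]
  have hEpt : ∀ R : K →ₐ[F] Ω, E (plQ hι R) =
      divf h (plQ hι R) - n * sumQ hι Q (plQ hι R) := by
    intro R
    rw [hE, Finsupp.add_apply]
    show D₀ (plQ hι R) + _ = _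
    rw [Finsupp.sub_apply, base_plQ, Finsupp.smul_apply]
    simp only [nsmul_eq_mul]
    ring
  -- the support of `E` among the points
  have hfin : {R : K →ₐ[F] Ω | E (plQ hι R) ≠ 0}.Finite := by
    have h3 : {w : Pl Ω L | E w ≠ 0}.Finite := by
      refine E.support.finite_toSet.subset fun w hw => ?_
      simpa using hw
    exact h3.preimage (f := plQ hι) ((plQ_injective hι).injOn)
  let S : Finset (K →ₐ[F] Ω) := hfin.toFinset
  have hS : ∀ R, R ∈ S ↔ E (plQ hι R) ≠ 0 := fun R => by simp [S]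
  let T : Set Ω := Set.range fun R : S => (R : K →ₐ[F] Ω) (xK F K)
  -- the coordinates of `Q` are algebraic over those of `S`
  have halg : ∀ i, IsAlgebraic (Algebra.adjoin F T) (z i) := by
    intro i
    by_contra hcon
    rw [← IntermediateField.isAlgebraic_adjoin_iff] at hcon
    obtain ⟨d, hd⟩ := exists_derivation (M := IntermediateField.adjoin F T) hcon
    let d' : Derivation F Ω Ω := d.restrictScalars F
    obtain ⟨D, hD⟩ := exists_ext hι d'
    have hrig := rig hι hD (sumQ_nonneg hι Q) hell hh0 (by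
      intro R hR
      by_cases hRS : R ∈ S
      · left
        have h3 : R (xK F K) ∈ IntermediateField.adjoin F T :=
          IntermediateField.subset_adjoin _ _ ⟨⟨R, hRS⟩, rfl⟩
        have h4 := d.map_algebraMap (⟨R (xK F K), h3⟩ : IntermediateField.adjoin F T)
        exact h4
      · right
        have h3 : E (plQ hι R) = 0 := by
          by_contra h4; exact hRS ((hS R).mpr h4)
        rw [hEpt] at h3
        have h4 : divf (k := Ω) h (plQ hι R) ≠ 0 := by
          intro h5
          apply hR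
          rw [v_eq hh0, h5]; simp
        have h5 := sumQ_nonneg hι Q (plQ hι R)
        rw [Finsupp.zero_apply] at h5
        by_contra h6
        have h7 : sumQ hι Q (plQ hι R) = 0 := by omega
        rw [h7] at h3
        apply h4
        linarith)
    have h3 := hrig (Q i) (by
      intro h4
      have h5 : divf (k := Ω) h (plQ hι (Q i)) = 0 := by
        rw [v_eq hh0, ← exp_zero, exp_inj] at h4
        omega
      have h6 := hEpt (Q i)
      rw [h5] at h6
      have h7 := hh (plQ hι (Q i))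
      rw [Finsupp.zero_apply] at h7
      have h8 := one_le_sumQ hι Q i
      have h9 : (0 : ℤ) < n := by exact_mod_cast hn
      have h10 : 0 < (n : ℤ) * sumQ hι Q (plQ hι (Q i)) := by positivity
      omega)
    rw [hQ i] at h3
    have h4 : d' (z i) = 1 := hd
    rw [h4] at h3
    exact one_ne_zero h3
  have hdegsum : ∀ s : Finset (K →ₐ[F] Ω),
      degD (∑ R ∈ s, Finsupp.single (plQ hι R) (1 : ℤ)) = s.card := by
    intro s
    induction s using Finset.induction_on with
    | empty => simp [degD_zero]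
    | insert a s ha ih =>
      rw [Finset.sum_insert ha, degD_add, ih, degD_single, degP_eq_one,
        Finset.card_insert_of_notMem ha]
      push_cast; ring
  have hnonneg : 0 ≤ E - ∑ R ∈ S, Finsupp.single (plQ hι R) (1 : ℤ) := by
    intro w
    rw [Finsupp.zero_apply, Finsupp.sub_apply, Finsupp.finset_sum_apply]
    rcases cases hι w with ⟨P, rfl⟩ | ⟨R, rfl⟩
    · have h4 : ∑ R ∈ S, (Finsupp.single (plQ hι R) (1 : ℤ)) (conP hι P) = 0 :=
        Finset.sum_eq_zero fun R _ => by
          rw [Finsupp.single_apply, if_neg (fun h => conP_ne_plQ hι P R h.symm)]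
      rw [h4, sub_zero]
      exact hh _
    · have h4 : ∑ R' ∈ S, (Finsupp.single (plQ hι R') (1 : ℤ)) (plQ hι R) =
          if R ∈ S then 1 else 0 := by
        simp only [Finsupp.single_apply, (plQ_injective hι).eq_iff]
        rw [Finset.sum_ite_eq' S R (fun _ => (1 : ℤ))]
      rw [h4]
      have h5 : 0 ≤ E (plQ hι R) := hh _
      split_ifs with h6
      · have := (hS R).mp h6
        omega
      · omega
  have hcardS : S.card ≤ gen F K := by
    have h3 := degD_nonneg hnonneg
    rw [degD_sub, hdegsum, hEdeg] at h3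
    omega
  -- `Ω` is algebraic over the coordinates of `S`
  haveI halgΩ : Algebra.IsAlgebraic (Algebra.adjoin F T) Ω := by
    have h3 := hz.isAlgebraic
    refine ⟨fun y => ?_⟩
    refine IsAlgebraic.adjoin_of_forall_isAlgebraic (s := Set.range z) (t := T) ?_
      (h3.isAlgebraic y)
    rintro _ ⟨⟨i, rfl⟩, _⟩
    exact halg i
  have htr := hz.lift_cardinalMk_eq_trdeg
  have hb : IsTranscendenceBasis F (fun R : S => (R : K →ₐ[F] Ω) (xK F K)) := by
    apply Algebra.IsAlgebraic.isTranscendenceBasis_of_lift_le_trdeg_of_finite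
    rw [Cardinal.mk_fin, Cardinal.lift_natCast] at htr
    have h3 : Algebra.trdeg F Ω = (gen F K : ℕ) := by
      have := htr.symm
      rwa [Cardinal.lift_id'] at this
    rw [h3, Cardinal.lift_natCast, Cardinal.mk_coe_finset, Cardinal.lift_natCast]
    exact_mod_cast hcardS
  have hcard : Fintype.card S = gen F K := by
    have h3 := hb.lift_cardinalMk_eq hz
    rw [Cardinal.mk_fin, Cardinal.lift_natCast, Cardinal.mk_fintype, Cardinal.lift_natCast] at h3
    exact_mod_cast h3
  have hcard' : S.card = gen F K := by rw [← hcard, Fintype.card_coe]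
  have hEeq : E = ∑ R ∈ S, Finsupp.single (plQ hι R) (1 : ℤ) := by
    apply sub_eq_zero.mp
    apply eq_zero_of_nonneg hnonneg
    rw [degD_sub, hdegsum, hEdeg, hcard', sub_self]
  let e : Fin (gen F K) ≃ S := (Fintype.equivFinOfCardEq hcard).symm
  refine ⟨fun i => (e i : K →ₐ[F] Ω), ?_, ?_⟩
  · exact hb.comp_equiv e
  · have h3 : sumQ hι (fun i => (e i : K →ₐ[F] Ω)) = E := by
      rw [hEeq, sumQ, Equiv.sum_comp e (fun R : S => Finsupp.single (plQ hι (R : K →ₐ[F] Ω)) (1 : ℤ)),
        Finset.sum_coe_sort S (fun R => Finsupp.single (plQ hι R) (1 : ℤ))]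
    rw [h3]
    refine ⟨base hι (Finsupp.single P₀ (gen F K : ℤ)) - sumQ hι Q, h, hh0, ?_⟩
    rw [hE]
    have h4 : base hι (Finsupp.single P₀ (((n + 1) * gen F K : ℕ) : ℤ)) =
        n • base hι (Finsupp.single P₀ (gen F K : ℤ)) +
          base hι (Finsupp.single P₀ (gen F K : ℤ)) := by
      rw [base_single, base_single, Finsupp.smul_single, ← Finsupp.single_add]
      congr 1
      push_cast
      simp
      ring
    show base hι (Finsupp.single P₀ (((n + 1) * gen F K : ℕ) : ℤ)) - n • sumQ hι Q + divf h -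
      base hι (Finsupp.single P₀ (gen F K : ℤ)) = _
    rw [h4, smul_sub]
    abel

end Main

end Crest.Agent.R013.Div1_280
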