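import Mathlib
import Crest.Agent.R013.Div1_280
import Crest.Agent.R013.CE9_280

/-!
# R013 / Div2: automorphisms of `Ω`, moving (helper280)
-/

set_option autoImplicit false
set_option linter.all false

namespace Crest.Agent.R013.Div2_280

open WithZero Module TensorProduct nonZeroDivisors
open Crest.Agent.R013.RR7_948 Crest.Agent.R013.RR8_948 Crest.Agent.R013.RR9_948
open Crest.Agent.R013.RR11_948 Crest.Agent.R013.RR13_948 Crest.Agent.R013.CE1_280
open Crest.Agent.R013.CE2_280 Crest.Agent.R013.CE3_280 Crest.Agent.R013.CE5_280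
open Crest.Agent.R013.CE6_280 Crest.Agent.R013.CE7_280 Crest.Agent.R013.CE8_280
open Crest.Agent.R013.CE9_280 Crest.Agent.R013.CE10_280 Crest.Agent.R013.Div1_280

theorem exists_ringEquiv (M Ω₁ Ω₂ : Type*) [Field M] [Field Ω₁] [Field Ω₂] [Algebra M Ω₁]
    [Algebra M Ω₂] [IsAlgClosed Ω₁] [IsAlgClosed Ω₂] [Algebra.IsAlgebraic M Ω₁]
    [Algebra.IsAlgebraic M Ω₂] :
    ∃ e : Ω₁ ≃+* Ω₂, ∀ y : M, e (algebraMap M Ω₁ y) = algebraMap M Ω₂ y := by
  haveI : IsAlgClosure M Ω₁ := ⟨inferInstance, inferInstance⟩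
  haveI : IsAlgClosure M Ω₂ := ⟨inferInstance, inferInstance⟩
  exact ⟨(IsAlgClosure.equiv M Ω₁ Ω₂).toRingEquiv, fun y => (IsAlgClosure.equiv M Ω₁ Ω₂).commutes y⟩

/-- exchange in transcendence degree one -/
theorem exchange {N Ω : Type*} [Field N] [Field Ω] [Algebra N Ω] {a b : Ω}
    (ha : Transcendental N a) (hb : Transcendental N b)
    (halg : Algebra.IsAlgebraic (Algebra.adjoin N {a}) Ω) :
    Algebra.IsAlgebraic (Algebra.adjoin N {b}) Ω := by
  have hra : Set.range (fun _ : Unit => a) = {a} := Set.range_const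
  have hrb : Set.range (fun _ : Unit => b) = {b} := Set.range_const
  have h1 : IsTranscendenceBasis N (fun _ : Unit => a) := by
    rw [isTranscendenceBasis_iff_algebraicIndependent_isAlgebraic]
    refine ⟨(algebraicIndependent_unique_type_iff).mpr ha, ?_⟩
    rw [hra]
    exact halg
  have h2 : AlgebraicIndependent N (fun _ : Unit => b) :=
    (algebraicIndependent_unique_type_iff).mpr hb
  have h3 : IsTranscendenceBasis N (fun _ : Unit => b) := by
    apply h2.isTranscendenceBasis_of_lift_trdeg_le_of_finite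
    rw [← h1.lift_cardinalMk_eq_trdeg]
  have h4 := h3.isAlgebraic
  rw [hrb] at h4
  exact h4

section Auto

variable {F K Ω : Type*} [Field F] [IsAlgClosed F] [Field K] [Algebra F K]
  [Algebra (RatFunc F) K] [IsScalarTower F (RatFunc F) K] [FiniteDimensional (RatFunc F) K]
  [Field Ω] [Algebra F Ω] [IsAlgClosed Ω]

variable {N : Type*} [Field N] [Algebra F N] [Algebra N Ω] [IsScalarTower F N Ω]

/-- `Frac (N ⊗ K) → Ω` at a point transcendental over `N` -/
noncomputable def phi (Q : K →ₐ[F] Ω) (hQ : Transcendental N (Q (xK F K))) :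
    KO F K N →ₐ[N] Ω :=
  IsFractionRing.liftAlgHom (A := N ⊗[F] K) (K := KO F K N) (g := nu N Q) (nu_injective Q hQ)

omit [IsAlgClosed Ω] in
theorem phi_algebraMap (Q : K →ₐ[F] Ω) (hQ : Transcendental N (Q (xK F K))) (t : N ⊗[F] K) :
    phi Q hQ (algebraMap _ _ t) = nu N Q t :=
  IsFractionRing.lift_algebraMap (A := N ⊗[F] K) (K := KO F K N)
    (g := (nu N Q).toRingHom) (nu_injective Q hQ) t

omit [IsAlgClosed Ω] in
theorem phi_iota (Q : K →ₐ[F] Ω) (hQ : Transcendental N (Q (xK F K))) (f : K) :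
    phi Q hQ (iota F K N f) = Q f := by
  rw [iota_apply, phi_algebraMap, nu_tmul, map_one, one_mul]

omit [IsAlgClosed Ω] in
theorem isAlgebraic_phi (Q : K →ₐ[F] Ω) (hQ : Transcendental N (Q (xK F K)))
    (halg : Algebra.IsAlgebraic (Algebra.adjoin N {Q (xK F K)}) Ω) :
    @Algebra.IsAlgebraic (KO F K N) Ω _ _ (phi Q hQ).toRingHom.toAlgebra := by
  letI algMΩ : Algebra (KO F K N) Ω := (phi Q hQ).toRingHom.toAlgebra
  letI algP : Algebra (Polynomial N) (KO F K N) := algPoly N (KO F K N)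
  letI algPΩ : Algebra (Polynomial N) Ω :=
    (Polynomial.aeval (R := N) (Q (xK F K))).toRingHom.toAlgebra
  haveI : IsScalarTower (Polynomial N) (KO F K N) Ω :=
    IsScalarTower.of_algebraMap_eq fun p => by
      show Polynomial.aeval (R := N) (Q (xK F K)) p = phi Q hQ (algebraMap (RatFunc N) (KO F K N)
        (algebraMap (Polynomial N) (RatFunc N) p))
      rw [algebraMap_ratFunc_poly, ← Polynomial.aeval_algHom_apply, phi_iota]
  haveI : Algebra.IsAlgebraic (Polynomial N) Ω := by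
    let f : Polynomial N →+* Algebra.adjoin N {Q (xK F K)} :=
      (Polynomial.aeval (R := N) (⟨Q (xK F K), Algebra.self_mem_adjoin_singleton N _⟩ :
        Algebra.adjoin N {Q (xK F K)})).toRingHom
    refine Algebra.IsAlgebraic.of_ringHom_of_comp_eq f (RingHom.id Ω) ?_ Function.injective_id ?_
    · rintro ⟨y, hy⟩
      have hy' := hy
      rw [Algebra.adjoin_singleton_eq_range_aeval] at hy'
      obtain ⟨p, hp⟩ := hy'
      refine ⟨p, Subtype.ext ?_⟩
      refine Eq.trans ?_ hp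
      exact (Polynomial.aeval_algHom_apply (Algebra.adjoin N {Q (xK F K)}).val _ p).symm
    · refine RingHom.ext fun p => ?_
      exact (Polynomial.aeval_algHom_apply (Algebra.adjoin N {Q (xK F K)}).val _ p).symm
  have hinj : Function.Injective (algebraMap (Polynomial N) (KO F K N)) := by
    have h1 : Function.Injective (algebraMap (Polynomial N) Ω) :=
      transcendental_iff_injective.mp hQ
    intro p q hpq
    apply h1
    rw [IsScalarTower.algebraMap_apply (Polynomial N) (KO F K N) Ω, hpq,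
      ← IsScalarTower.algebraMap_apply]
  exact Algebra.IsAlgebraic.extendScalars hinj

/-- automorphisms of `Ω` moving a point -/
theorem exists_auto' (Q R : K →ₐ[F] Ω)
    (hQ : Transcendental N (Q (xK F K))) (hR : Transcendental N (R (xK F K)))
    (halg : Algebra.IsAlgebraic (Algebra.adjoin N {Q (xK F K)}) Ω) :
    ∃ σ : Ω ≃+* Ω, (∀ y : N, σ (algebraMap N Ω y) = algebraMap N Ω y) ∧
      ∀ f : K, σ (Q f) = R f := by
  have halg' := exchange hQ hR halg
  obtain ⟨e, he⟩ := @exists_ringEquiv (KO F K N) Ω Ω _ _ _ (phi Q hQ).toRingHom.toAlgebra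
    (phi R hR).toRingHom.toAlgebra _ _ (isAlgebraic_phi Q hQ halg) (isAlgebraic_phi R hR halg')
  have he' : ∀ y : KO F K N, e (phi Q hQ y) = phi R hR y := fun y => he y
  refine ⟨e, fun y => ?_, fun f => ?_⟩
  · have h1 := he' (algebraMap N (KO F K N) y)
    rwa [AlgHom.commutes, AlgHom.commutes] at h1
  · have h1 := he' (iota F K N f)
    rwa [phi_iota, phi_iota] at h1

theorem exists_auto {N : IntermediateField F Ω} [IsAlgClosed N] (Q R : K →ₐ[F] Ω)
    (hQ : Q (xK F K) ∉ N) (hR : R (xK F K) ∉ N)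
    (halg : Algebra.IsAlgebraic (Algebra.adjoin N {Q (xK F K)}) Ω) :
    ∃ σ : Ω ≃ₐ[F] Ω, (∀ y ∈ N, σ y = y) ∧ ∀ f : K, σ (Q f) = R f := by
  have htr : ∀ a : Ω, a ∉ N → Transcendental N a := by
    intro a ha
    apply transcendental_of_notMem
    rintro ⟨y, rfl⟩
    exact ha y.2
  obtain ⟨e, he, he'⟩ := exists_auto' Q R (htr _ hQ) (htr _ hR) halg
  have hN : ∀ y ∈ N, e y = y := fun y hy => he ⟨y, hy⟩
  exact ⟨AlgEquiv.ofRingEquiv (f := e) (fun c => hN _ (N.algebraMap_mem c)), hN, he'⟩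

end Auto

section Act

variable {F K Ω L : Type*} [Field F] [IsAlgClosed F] [Field K] [Algebra F K]
  [Algebra (RatFunc F) K] [IsScalarTower F (RatFunc F) K] [FiniteDimensional (RatFunc F) K]
  [Algebra.IsSeparable (RatFunc F) K]
  [Field Ω] [Algebra F Ω]
  [Field L] [Algebra Ω L] [Algebra F L] [IsScalarTower F Ω L]
  {ι : K →ₐ[F] L}

/-- `s` is a semilinear automorphism of `L` trivial on `K` -/
structure IsLift (ι : K →ₐ[F] L) (σ : Ω ≃ₐ[F] Ω) (s : L ≃+* L) : Prop where
  const : ∀ c : Ω, s (algebraMap Ω L c) = algebraMap Ω L (σ c)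
  iota : ∀ f : K, s (ι f) = ι f

omit [Algebra (RatFunc F) K] [IsScalarTower F (RatFunc F) K] [FiniteDimensional (RatFunc F) K]
  [Algebra.IsSeparable (RatFunc F) K] in
theorem exists_lift (hι : IsCE Ω ι) (σ : Ω ≃ₐ[F] Ω) : ∃ s : L ≃+* L, IsLift ι σ s := by
  letI : Algebra (Ω ⊗[F] K) L := (CE3_280.mu (Ω := Ω) ι).toRingHom.toAlgebra
  have halg : ∀ t : Ω ⊗[F] K, algebraMap (Ω ⊗[F] K) L t = CE3_280.mu ι t := fun t => rfl
  haveI : FaithfulSMul (Ω ⊗[F] K) L := (faithfulSMul_iff_algebraMap_injective _ _).mpr hι.inj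
  haveI : IsFractionRing (Ω ⊗[F] K) L := IsFractionRing.of_field _ _ fun z => by
    obtain ⟨a, b, hb, hab⟩ := hι.frac z
    exact ⟨a, b, by
      rw [halg, halg, eq_div_iff (hι.ne_zero hb)]
      exact hab⟩
  let h : Ω ⊗[F] K ≃+* Ω ⊗[F] K :=
    (Algebra.TensorProduct.congr σ (AlgEquiv.refl : K ≃ₐ[F] K)).toRingEquiv
  have hh : ∀ c f, h (c ⊗ₜ f) = σ c ⊗ₜ f := fun c f => rfl
  refine ⟨IsFractionRing.ringEquivOfRingEquiv (K := L) (L := L) h, ?_, ?_⟩
  · intro c
    have h1 := IsFractionRing.ringEquivOfRingEquiv_algebraMap (K := L) (L := L) h (c ⊗ₜ 1)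
    rw [hh, halg, halg, mu_tmul, mu_tmul, map_one, mul_one, mul_one] at h1
    exact h1
  · intro f
    have h1 := IsFractionRing.ringEquivOfRingEquiv_algebraMap (K := L) (L := L) h (1 ⊗ₜ f)
    rw [hh, halg, halg, mu_tmul, mu_tmul, map_one, map_one, one_mul, map_one, one_mul] at h1
    exact h1

variable {σ : Ω ≃ₐ[F] Ω} {s : L ≃+* L}

/-- action on places -/
noncomputable def act (hs : IsLift ι σ s) (w : Pl Ω L) : Pl Ω L where
  v := w.v.comap (s.symm : L →+* L)
  const := by
    intro c hc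
    have h1 : s.symm (algebraMap Ω L c) = algebraMap Ω L (σ.symm c) := by
      rw [RingEquiv.symm_apply_eq, hs.const, AlgEquiv.apply_symm_apply]
    rw [Valuation.comap_apply]
    show w.v (s.symm (algebraMap Ω L c)) = 1
    rw [h1]
    exact w.const _ (by simpa using hc)
  surj := by
    intro y
    obtain ⟨f, hf⟩ := w.surj y
    refine ⟨s f, ?_⟩
    rw [Valuation.comap_apply]
    show w.v (s.symm (s f)) = y
    rw [RingEquiv.symm_apply_apply, hf]

omit [IsAlgClosed F] [Algebra (RatFunc F) K] [IsScalarTower F (RatFunc F) K]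
  [FiniteDimensional (RatFunc F) K] [Algebra.IsSeparable (RatFunc F) K] in
theorem act_v (hs : IsLift ι σ s) (w : Pl Ω L) (f : L) : (act hs w).v (s f) = w.v f := by
  show w.v (s.symm (s f)) = w.v f
  rw [RingEquiv.symm_apply_apply]

omit [IsAlgClosed F] [Algebra (RatFunc F) K] [IsScalarTower F (RatFunc F) K]
  [FiniteDimensional (RatFunc F) K] [Algebra.IsSeparable (RatFunc F) K] in
theorem act_injective (hs : IsLift ι σ s) : Function.Injective (act hs) := by
  intro w w' h
  apply Pl.ext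
  ext f
  rw [← act_v hs w, ← act_v hs w', h]

omit [IsAlgClosed F] [Algebra (RatFunc F) K] [IsScalarTower F (RatFunc F) K]
  [FiniteDimensional (RatFunc F) K] [Algebra.IsSeparable (RatFunc F) K] in
theorem act_surjective (hs : IsLift ι σ s) : Function.Surjective (act hs) := by
  have hs' : IsLift ι σ.symm s.symm :=
    ⟨fun c => by rw [RingEquiv.symm_apply_eq, hs.const, AlgEquiv.apply_symm_apply],
      fun f => by rw [RingEquiv.symm_apply_eq, hs.iota]⟩
  intro w
  refine ⟨act hs' w, ?_⟩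
  apply Pl.ext
  ext f
  show w.v (s (s.symm f)) = w.v f
  rw [RingEquiv.apply_symm_apply]

variable [IsAlgClosed Ω] [Algebra (RatFunc Ω) L] [IsScalarTower Ω (RatFunc Ω) L]
  [FiniteDimensional (RatFunc Ω) L] [Algebra.IsSeparable (RatFunc Ω) L]

theorem act_plQ (hι : IsCE Ω ι) (hs : IsLift ι σ s) (Q : K →ₐ[F] Ω) :
    act hs (plQ hι Q) = plQ hι ((σ : Ω →ₐ[F] Ω).comp Q) := by
  have h1 : At ι (act hs (plQ hι Q)) ((σ : Ω →ₐ[F] Ω).comp Q) := by
    intro f
    have h2 : ι f - algebraMap Ω L (((σ : Ω →ₐ[F] Ω).comp Q) f) =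
        s (ι f - algebraMap Ω L (Q f)) := by
      rw [map_sub, hs.iota, hs.const]
      rfl
    rw [h2, act_v]
    exact plQ_At hι Q f
  exact h1.unique hι (plQ_At hι _)

theorem act_conP (hι : IsCE Ω ι) (hs : IsLift ι σ s) (P : Pl F K) :
    act hs (conP hι P) = conP hι P := by
  have h0 : ∀ f : K, (act hs (conP hι P)).v (ι f) = (conP hι P).v (ι f) := by
    intro f
    rw [← act_v hs (conP hι P) (ι f), hs.iota]
  have h1 : Over ι (act hs (conP hι P)) P :=
    ⟨fun f hf => by rw [h0]; exact (conP_Over hι P).1 f hf,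
      fun f hf => by rw [h0]; exact (conP_Over hι P).2 f hf⟩
  exact h1.unique hι (conP_Over hι P)

theorem mapDomain_divf (hs : IsLift ι σ s) {f : L} (hf : f ≠ 0) :
    (divf (k := Ω) f).mapDomain (act hs) = divf (k := Ω) (s f) := by
  ext w
  obtain ⟨w, rfl⟩ := act_surjective hs w
  rw [Finsupp.mapDomain_apply (act_injective hs)]
  have h1 := act_v hs w f
  rw [v_eq hf, v_eq (by simpa using hf), exp_inj] at h1
  omega

theorem mapDomain_mem_Gn (hs : IsLift ι σ s) {n : ℕ} {D : Pl Ω L →₀ ℤ} (hD : D ∈ Gn Ω L n) :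
    D.mapDomain (act hs) ∈ Gn Ω L n := by
  obtain ⟨E, f, hf, rfl⟩ := hD
  refine ⟨E.mapDomain (act hs), s f, by simpa using hf, ?_⟩
  rw [Finsupp.mapDomain_add, mapDomain_divf hs hf]
  congr 1
  exact map_nsmul (Finsupp.mapDomain.addMonoidHom (act hs)) n E

theorem mapDomain_base (hι : IsCE Ω ι) (hs : IsLift ι σ s) (D : Pl F K →₀ ℤ) :
    (base hι D).mapDomain (act hs) = base hι D := by
  unfold base
  show (D.mapDomain (conP hι)).mapDomain (act hs) = D.mapDomain (conP hι)
  rw [← Finsupp.mapDomain_comp]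
  congr 1
  funext P
  exact act_conP hι hs P

theorem mapDomain_sumQ (hι : IsCE Ω ι) (hs : IsLift ι σ s) {g : ℕ} (Q : Fin g → K →ₐ[F] Ω) :
    (sumQ hι Q).mapDomain (act hs) = sumQ hι fun i => (σ : Ω →ₐ[F] Ω).comp (Q i) := by
  unfold sumQ
  rw [← Finsupp.mapDomain.addMonoidHom_apply, map_sum]
  refine Finset.sum_congr rfl fun i _ => ?_
  rw [Finsupp.mapDomain.addMonoidHom_apply, Finsupp.mapDomain_single, act_plQ]

end Act

end Crest.Agent.R013.Div2_280
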