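import Mathlib
import Crest.Agent.R013.Div2_280

/-!
# R013 / Div3: `base D` is divisible over `Ω` (helper280)
-/

set_option autoImplicit false
set_option linter.all false

namespace Crest.Agent.R013.Div3_280

open WithZero Module TensorProduct nonZeroDivisors
open Crest.Agent.R013.RR7_948 Crest.Agent.R013.RR8_948 Crest.Agent.R013.RR9_948
open Crest.Agent.R013.RR11_948 Crest.Agent.R013.RR13_948 Crest.Agent.R013.CE1_280
open Crest.Agent.R013.CE2_280 Crest.Agent.R013.CE3_280 Crest.Agent.R013.CE5_280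
open Crest.Agent.R013.CE6_280 Crest.Agent.R013.CE7_280 Crest.Agent.R013.CE8_280
open Crest.Agent.R013.CE9_280 Crest.Agent.R013.CE10_280 Crest.Agent.R013.Div1_280
open Crest.Agent.R013.Div2_280

theorem adjoin_le_restrictScalars {F N Ω κ : Type*} [Field F] [Field N] [Field Ω] [Algebra F N]
    [Algebra N Ω] [Algebra F Ω] [IsScalarTower F N Ω] (x : κ → Ω) (i₀ : κ)
    (hN : ∀ i, i ≠ i₀ → ∃ y : N, algebraMap N Ω y = x i) :
    Algebra.adjoin F (Set.range x) ≤ (Algebra.adjoin N {x i₀}).restrictScalars F := by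
  classical
  rw [Algebra.adjoin_le_iff]
  rintro _ ⟨i, rfl⟩
  rw [SetLike.mem_coe, Subalgebra.mem_restrictScalars]
  by_cases hi : i = i₀
  · rw [hi]; exact Algebra.subset_adjoin (Set.mem_singleton (x i₀))
  · obtain ⟨y, hy⟩ := hN i hi
    rw [← hy]
    exact Subalgebra.algebraMap_mem (Algebra.adjoin N {x i₀}) _

theorem isAlgebraic_of_ringHom {R₁ R₂ Ω : Type*} [CommRing R₁] [CommRing R₂] [Field Ω]
    [Algebra R₁ Ω] [Algebra R₂ Ω]
    (f : R₁ →+* R₂) (hf : ∀ y, algebraMap R₂ Ω (f y) = algebraMap R₁ Ω y)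
    (hinj : Function.Injective (algebraMap R₁ Ω)) {y : Ω} (h : IsAlgebraic R₁ y) :
    IsAlgebraic R₂ y := by
  have hfi : Function.Injective f := by
    intro a b hab
    apply hinj
    rw [← hf, ← hf, hab]
  exact h.ringHom_of_comp_eq f (RingHom.id Ω) hfi (RingHom.ext hf)

/-- change of base field for algebraicity -/
theorem isAlgebraic_adjoin_singleton {F N Ω κ : Type*} [Field F] [Field N] [Field Ω] [Algebra F N]
    [Algebra N Ω] [Algebra F Ω] [IsScalarTower F N Ω] (x : κ → Ω) (i₀ : κ)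
    (hN : ∀ i, i ≠ i₀ → ∃ y : N, algebraMap N Ω y = x i)
    (h : Algebra.IsAlgebraic (Algebra.adjoin F (Set.range x)) Ω) :
    Algebra.IsAlgebraic (Algebra.adjoin N {x i₀}) Ω := by
  refine ⟨fun y => isAlgebraic_of_ringHom (R₁ := Algebra.adjoin F (Set.range x))
    (R₂ := Algebra.adjoin N {x i₀})
    ((Subalgebra.inclusion (adjoin_le_restrictScalars x i₀ hN)).toRingHom) ?_ ?_ (h.isAlgebraic y)⟩
  · intro y; rfl
  · exact Subtype.val_injective

section Moving

variable {F K Ω L : Type*} [Field F] [IsAlgClosed F] [CharZero F] [Field K] [Algebra F K]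
  [Algebra (RatFunc F) K] [IsScalarTower F (RatFunc F) K] [FiniteDimensional (RatFunc F) K]
  [Algebra.IsSeparable (RatFunc F) K]
  [Field Ω] [Algebra F Ω] [IsAlgClosed Ω]
  [Field L] [Algebra Ω L] [Algebra F L] [IsScalarTower F Ω L]
  [Algebra (RatFunc Ω) L] [IsScalarTower Ω (RatFunc Ω) L]
  [FiniteDimensional (RatFunc Ω) L] [Algebra.IsSeparable (RatFunc Ω) L]
  {ι : K →ₐ[F] L}

/-- all points outside some algebraically closed subfield have the same class modulo `n` -/
theorem exists_N (hι : IsCE Ω ι) (hx : xK Ω L = ι (xK F K))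
    {z : Fin (gen F K) → Ω} (hz : IsTranscendenceBasis F z) {n : ℕ} (hn : 0 < n) (P₀ : Pl F K)
    (hg : 0 < gen F K) :
    ∃ (N : IntermediateField F Ω) (_ : IsAlgClosed N) (Q₁ : K →ₐ[F] Ω), Q₁ (xK F K) ∉ N ∧
      ∀ R : K →ₐ[F] Ω, R (xK F K) ∉ N →
        Finsupp.single (plQ hι R) (1 : ℤ) - Finsupp.single (plQ hι Q₁) 1 ∈ Gn Ω L n := by
  classical
  obtain ⟨R, hR, hmem⟩ := exists_generic_relation hι hx hz hn P₀
  let i₀ : Fin (gen F K) := ⟨0, hg⟩
  let S : Set Ω := (fun i => R i (xK F K)) '' {i | i ≠ i₀}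
  have hcl : IsAlgClosed (acl F S) := isAlgClosed_acl S
  have hN : ∀ i, i ≠ i₀ → ∀ f, R i f ∈ acl F S := fun i hi f =>
    mem_of_point (N := acl F S) (R i) (subset_acl (S := S) ⟨i, hi, rfl⟩) f
  have hQ₁ : R i₀ (xK F K) ∉ acl F S := by
    intro h1
    rw [mem_acl, IntermediateField.isAlgebraic_adjoin_iff] at h1
    exact hR.1.transcendental_adjoin (s := {i | i ≠ i₀}) (i := i₀) (by simp) h1
  -- algebraicity
  have halg : Algebra.IsAlgebraic (Algebra.adjoin (acl F S) {R i₀ (xK F K)}) Ω :=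
    isAlgebraic_adjoin_singleton (N := acl F S) (fun i => R i (xK F K)) i₀
      (fun i hi => ⟨⟨_, hN i hi _⟩, rfl⟩) hR.isAlgebraic
  refine ⟨acl F S, hcl, R i₀, hQ₁, fun R' hR' => ?_⟩
  obtain ⟨σ, hσ, hσR⟩ := exists_auto (R i₀) R' hQ₁ hR' halg
  obtain ⟨s, hs⟩ := exists_lift hι σ
  have h2 := mapDomain_mem_Gn hs hmem
  rw [← Finsupp.mapDomain.addMonoidHom_apply, map_sub, Finsupp.mapDomain.addMonoidHom_apply,
    Finsupp.mapDomain.addMonoidHom_apply, mapDomain_sumQ hι hs, mapDomain_base hι hs] at h2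
  have h3 := (Gn Ω L n).sub_mem h2 hmem
  have h4 : sumQ hι (fun i => (σ : Ω →ₐ[F] Ω).comp (R i)) -
      base hι (Finsupp.single P₀ (gen F K : ℤ)) -
      (sumQ hι R - base hι (Finsupp.single P₀ (gen F K : ℤ))) =
      Finsupp.single (plQ hι R') (1 : ℤ) - Finsupp.single (plQ hι (R i₀)) 1 := by
    have h5 : sumQ hι (fun i => (σ : Ω →ₐ[F] Ω).comp (R i)) - sumQ hι R =
        Finsupp.single (plQ hι R') (1 : ℤ) - Finsupp.single (plQ hι (R i₀)) 1 := by
      unfold sumQ
      rw [← Finset.sum_sub_distrib, Finset.sum_eq_single i₀]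
      · have h6 : (σ : Ω →ₐ[F] Ω).comp (R i₀) = R' := by
          ext f
          exact hσR f
        simp only [h6]
      · intro i _ hi
        have h6 : (σ : Ω →ₐ[F] Ω).comp (R i) = R i := by
          ext f
          exact hσ _ (hN i hi f)
        simp only [h6, sub_self]
      · intro h; exact absurd (Finset.mem_univ _) h
    rw [← h5]
    abel
  rw [h4] at h3
  exact h3

omit [CharZero F] in
/-- a function in `L(A_Ω)` all of whose zeros are points outside `N` -/
theorem exists_good_function (hι : IsCE Ω ι) (hx : xK Ω L = ι (xK F K))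
    {N : IntermediateField F Ω} [IsAlgClosed N] {z₀ : Ω} (hz₀ : z₀ ∉ N)
    {A : Pl F K →₀ ℤ} (hA : 2 * (gen F K : ℤ) ≤ degD A) :
    ∃ f : L, f ≠ 0 ∧ 0 ≤ base hι A + divf f ∧
      (∀ P, (base hι A + divf f : Pl Ω L →₀ ℤ) (conP hι P) = 0) ∧
      ∀ R : K →ₐ[F] Ω, (base hι A + divf f : Pl Ω L →₀ ℤ) (plQ hι R) ≠ 0 →
        R (xK F K) ∉ N := by
  classical
  haveI := LD_finite A
  let g := Module.finBasis F (LD A)
  let m := Module.finrank F (LD A)
  let c : Fin m → Ω := fun j => z₀ ^ (j : ℕ)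
  have htr : Transcendental N z₀ := by
    apply transcendental_of_notMem
    rintro ⟨y, rfl⟩
    exact hz₀ y.2
  have hcN : LinearIndependent N c := by
    have h1 := (Polynomial.basisMonomials N).linearIndependent.map'
      (Polynomial.aeval (R := N) z₀).toLinearMap
      (LinearMap.ker_eq_bot.mpr (transcendental_iff_injective.mp htr))
    have h2 := h1.comp (fun j : Fin m => (j : ℕ)) Fin.val_injective
    have h3 : c = ((Polynomial.aeval (R := N) z₀).toLinearMap ∘ (Polynomial.basisMonomials N)) ∘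
          (fun n : Fin m => (n : ℕ)) := by
      ext n
      simp [c, ← Polynomial.X_pow_eq_monomial]
    rw [h3]
    exact h2
  have hcF : LinearIndependent F c := hcN.restrict_scalars (by
    intro a b hab
    simpa [Algebra.smul_def] using hab)
  let t : Ω ⊗[F] K := ∑ j, c j ⊗ₜ[F] ((g j : LD A) : K)
  let c' : Fin m →₀ K := Finsupp.equivFunOnFinite.symm fun j => ((g j : LD A) : K)
  have hc' : (c'.sum fun i f => c i ⊗ₜ[F] f) = t := by
    rw [Finsupp.sum_fintype _ _ (fun i => by simp)]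
    rfl
  have hell : ∀ P : Pl F K, ∃ j, P.v ((g j : LD A) : K) = exp (A P) := by
    intro P
    by_contra hcon
    push Not at hcon
    have hle : LD A ≤ LD (A - Finsupp.single P 1) := by
      have h1 : ∀ j, ((g j : LD A) : K) ∈ LD (A - Finsupp.single P 1) := by
        intro j
        rw [mem_LD]
        intro P'
        rw [Finsupp.sub_apply, Finsupp.single_apply]
        have h2 := mem_LD.mp (g j).2 P'
        split_ifs with h3
        · subst h3
          rw [← RR2_948.lt_exp_iff]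
          exact lt_of_le_of_ne h2 (hcon j)
        · rw [sub_zero]; exact h2
      intro f hf
      have h3 := g.sum_repr ⟨f, hf⟩
      have h4 : f = ∑ j, g.repr ⟨f, hf⟩ j • ((g j : LD A) : K) := by
        have h5 := congrArg (LD A).subtype h3
        rw [map_sum] at h5
        simp only [map_smul, Submodule.subtype_apply] at h5
        exact h5.symm
      rw [h4]
      exact Submodule.sum_mem _ fun j _ => Submodule.smul_mem _ _ (h1 j)
    haveI := LD_finite (A - Finsupp.single P 1)
    have h6 := Submodule.finrank_mono hle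
    have h7 := ell_eq_of_lt (algebraicClosure_eq_bot (k := F) (K := K)) (D := A) (by omega)
    have h8 : degD (A - Finsupp.single P 1) = degD A - 1 := by
      rw [degD_sub, degD_single, degP_eq_one]; simp
    have h9 := ell_eq_of_lt (algebraicClosure_eq_bot (k := F) (K := K))
      (D := A - Finsupp.single P 1) (by omega)
    unfold ell at h7 h9
    rw [h8] at h9
    omega
  have hfP : ∀ P : Pl F K, (conP hι P).v (mu ι t) = exp (A P) := by
    intro P
    obtain ⟨j, hj⟩ := hell P
    rw [← hc']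
    exact (conP_Over hι P).v_sum_eq' hι hcF c' (A P) (fun i => mem_LD.mp (g i).2 P) (i₀ := j) hj
  have hf0 : mu ι t ≠ 0 := by
    obtain ⟨P, -⟩ := RR12_948.exists_notMem (∅ : Finset (Pl F K))
    intro h0
    have := hfP P
    rw [h0, map_zero] at this
    exact exp_ne_zero this.symm
  have hmem : mu ι t ∈ LD (base hι A) := by
    rw [← range_lam hι hx]
    refine ⟨∑ j, c j ⊗ₜ[F] (g j : LD A), ?_⟩
    rw [map_sum, map_sum]
    refine Finset.sum_congr rfl fun j _ => ?_
    rw [lam_tmul, mu_tmul]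
  refine ⟨mu ι t, hf0, (mem_LD_iff hf0).mp hmem, fun P => ?_, fun R hR hRN => hR ?_⟩
  · have h1 := hfP P
    rw [v_eq hf0, exp_inj] at h1
    rw [Finsupp.add_apply, base_conP]
    omega
  · have hRN' : ∀ f, R f ∈ N := mem_of_point R hRN
    have h1 : ev R t ≠ 0 := by
      intro h0
      simp only [t, map_sum, ev_tmul] at h0
      have h2 : ∑ j, (⟨R ((g j : LD A) : K), hRN' _⟩ : N) • c j = 0 := by
        rw [← h0]
        refine Finset.sum_congr rfl fun j _ => ?_
        rw [Algebra.smul_def, mul_comm]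
        rfl
      have h3 := Fintype.linearIndependent_iff.mp hcN _ h2
      -- some basis vector exists
      obtain ⟨P, -⟩ := RR12_948.exists_notMem (∅ : Finset (Pl F K))
      obtain ⟨j, hj⟩ := hell P
      have h4 := congrArg Subtype.val (h3 j)
      have h5 : ((g j : LD A) : K) = 0 := (R : K →+* Ω).injective (by rw [map_zero]; exact h4)
      rw [h5, map_zero] at hj
      exact exp_ne_zero hj.symm
    have h2 := (plQ_At hι R).eq_one h1
    rw [v_eq hf0, ← exp_zero, exp_inj] at h2
    rw [Finsupp.add_apply, base_plQ]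
    omega

/-- divisors of large degree on `K` -/
theorem base_sub_mem_Gn (hι : IsCE Ω ι) (hx : xK Ω L = ι (xK F K)) {n : ℕ}
    {N : IntermediateField F Ω} [IsAlgClosed N] {Q₁ : K →ₐ[F] Ω} (hQ₁ : Q₁ (xK F K) ∉ N)
    (hcl : ∀ R : K →ₐ[F] Ω, R (xK F K) ∉ N →
        Finsupp.single (plQ hι R) (1 : ℤ) - Finsupp.single (plQ hι Q₁) 1 ∈ Gn Ω L n)
    {A : Pl F K →₀ ℤ} (hA : 2 * (gen F K : ℤ) ≤ degD A) :
    base hι A - degD A • Finsupp.single (plQ hι Q₁) (1 : ℤ) ∈ Gn Ω L n := by
  classical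
  obtain ⟨f, hf0, hf1, hf2, hf3⟩ := exists_good_function hι hx hQ₁ hA
  set B : Pl Ω L →₀ ℤ := base hι A + divf f with hB
  have hBdeg : degD B = degD A := by rw [hB, degD_add, degD_divf hf0, degD_base, add_zero]
  have h1 : B - degD A • Finsupp.single (plQ hι Q₁) (1 : ℤ) ∈ Gn Ω L n := by
    have h2 : B - degD A • Finsupp.single (plQ hι Q₁) (1 : ℤ) =
        B.sum fun w m => m • (Finsupp.single w (1 : ℤ) - Finsupp.single (plQ hι Q₁) 1) := by
      have h3 : (B.sum fun w m => m • (Finsupp.single w (1 : ℤ) -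
          Finsupp.single (plQ hι Q₁) (1 : ℤ))) =
          (B.sum fun w m => Finsupp.single w m) -
            (B.sum fun _ m => m) • Finsupp.single (plQ hι Q₁) (1 : ℤ) := by
        rw [Finsupp.sum, Finsupp.sum, Finsupp.sum, Finset.sum_smul, ← Finset.sum_sub_distrib]
        refine Finset.sum_congr rfl fun w _ => ?_
        rw [smul_sub, Finsupp.smul_single, smul_eq_mul, mul_one]
      rw [h3, Finsupp.sum_single, ← degD_eq_sum, hBdeg]
    rw [h2]
    refine AddSubgroup.sum_mem _ fun w hw => ?_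
    rw [Finsupp.mem_support_iff] at hw
    refine AddSubgroup.zsmul_mem _ ?_ _
    rcases cases hι w with ⟨P, rfl⟩ | ⟨R, rfl⟩
    · exact absurd (hf2 P) hw
    · exact hcl R (hf3 R hw)
  have h4 : base hι A - degD A • Finsupp.single (plQ hι Q₁) (1 : ℤ) =
      (B - degD A • Finsupp.single (plQ hι Q₁) (1 : ℤ)) - divf f := by
    rw [hB]; abel
  rw [h4]
  exact AddSubgroup.sub_mem _ h1 (divf_mem_Gn n hf0)

/-- **divisors of degree zero on `K` become divisible by `n` over `Ω`** -/
theorem base_mem_Gn (hι : IsCE Ω ι) (hx : xK Ω L = ι (xK F K))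
    {z : Fin (gen F K) → Ω} (hz : IsTranscendenceBasis F z) {n : ℕ} (hn : 0 < n)
    {D : Pl F K →₀ ℤ} (hD : degD D = 0) : base hι D ∈ Gn Ω L n := by
  classical
  obtain ⟨P₀, -⟩ := RR12_948.exists_notMem (∅ : Finset (Pl F K))
  rcases Nat.eq_zero_or_pos (gen F K) with hg | hg
  · -- genus zero: `D` is principal
    have h1 := ell_ge (algebraicClosure_eq_bot (k := Ω) (K := L)) (base hι D)
    rw [degD_base, hD, gen_eq hι hx, hg] at h1
    have h2 : 1 ≤ ell (base hι D) := by
      have : (1 : ℤ) ≤ ell (base hι D) := by simpa using h1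
      exact_mod_cast this
    have h3 : LD (base hι D) ≠ ⊥ := by
      intro h0
      unfold ell at h2
      rw [h0] at h2
      simp at h2
    obtain ⟨f, hf, hf0⟩ := Submodule.exists_mem_ne_zero_of_ne_bot h3
    rw [mem_LD_iff hf0] at hf
    have h4 : base hι D + divf f = 0 := eq_zero_of_nonneg hf (by
      rw [degD_add, degD_base, hD, degD_divf hf0, add_zero])
    rw [eq_neg_of_add_eq_zero_left h4]
    exact AddSubgroup.neg_mem _ (divf_mem_Gn n hf0)
  · obtain ⟨N, hN, Q₁, hQ₁, hcl⟩ := exists_N hι hx hz hn P₀ hg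
    let M : Pl F K →₀ ℤ := Finsupp.single P₀ (2 * (gen F K : ℤ))
    have hM : degD M = 2 * (gen F K : ℤ) := by rw [degD_single, degP_eq_one]; simp
    have h1 := base_sub_mem_Gn hι hx hQ₁ hcl (A := D + M) (by rw [degD_add, hD, hM, zero_add])
    have h2 := base_sub_mem_Gn hι hx hQ₁ hcl (A := M) (by rw [hM])
    have h3 := AddSubgroup.sub_mem _ h1 h2
    rw [degD_add, hD, zero_add, map_add] at h3
    have h4 : base hι D + base hι M - degD M • Finsupp.single (plQ hι Q₁) (1 : ℤ) -
        (base hι M - degD M • Finsupp.single (plQ hι Q₁) (1 : ℤ)) = base hι D := by abel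
    rwa [h4] at h3

end Moving

end Crest.Agent.R013.Div3_280
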