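import Mathlib
import Crest.Agent.R013.Div3_280

/-!
# R013 / Div4: descent of divisibility (helper280)
-/

set_option autoImplicit false
set_option linter.all false

namespace Crest.Agent.R013.Div4_280

open WithZero Module TensorProduct nonZeroDivisors
open Crest.Agent.R013.RR7_948 Crest.Agent.R013.RR8_948 Crest.Agent.R013.RR9_948
open Crest.Agent.R013.RR11_948 Crest.Agent.R013.RR13_948 Crest.Agent.R013.CE1_280
open Crest.Agent.R013.CE2_280 Crest.Agent.R013.CE3_280 Crest.Agent.R013.CE5_280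
open Crest.Agent.R013.CE6_280 Crest.Agent.R013.CE7_280 Crest.Agent.R013.CE8_280
open Crest.Agent.R013.CE9_280 Crest.Agent.R013.CE10_280 Crest.Agent.R013.Div1_280

section Sub

variable {F K Ω : Type*} [Field F] [Field K] [Algebra F K] [Field Ω] [Algebra F Ω]

/-- the map `A ⊗ O → Ω ⊗ K` -/
noncomputable def jmap (A : Subalgebra F Ω) (O : Subalgebra F K) : A ⊗[F] O →ₐ[F] Ω ⊗[F] K :=
  Algebra.TensorProduct.map A.val O.val

@[simp] theorem jmap_tmul (A : Subalgebra F Ω) (O : Subalgebra F K) (a : A) (y : O) :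
    jmap A O (a ⊗ₜ y) = (a : Ω) ⊗ₜ (y : K) := by
  simp [jmap]

theorem jmap_injective (A : Subalgebra F Ω) (O : Subalgebra F K) :
    Function.Injective (jmap A O) :=
  TensorProduct.map_injective_of_flat_flat A.val.toLinearMap O.val.toLinearMap
    Subtype.val_injective Subtype.val_injective

/-- every tensor is supported on finite sets -/
theorem exists_support (s : Ω ⊗[F] K) : ∃ (C : Finset Ω) (Y : Finset K),
    ∀ (A : Subalgebra F Ω) (O : Subalgebra F K), (∀ c ∈ C, c ∈ A) → (∀ y ∈ Y, y ∈ O) →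
      ∃ s' : A ⊗[F] O, jmap A O s' = s := by
  classical
  induction s with
  | zero => exact ⟨∅, ∅, fun A O _ _ => ⟨0, map_zero _⟩⟩
  | add s t hs ht =>
    obtain ⟨C, Y, h⟩ := hs
    obtain ⟨C', Y', h'⟩ := ht
    refine ⟨C ∪ C', Y ∪ Y', fun A O hA hO => ?_⟩
    obtain ⟨s', hs'⟩ := h A O (fun c hc => hA c (Finset.mem_union_left _ hc))
      (fun y hy => hO y (Finset.mem_union_left _ hy))
    obtain ⟨t', ht'⟩ := h' A O (fun c hc => hA c (Finset.mem_union_right _ hc))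
      (fun y hy => hO y (Finset.mem_union_right _ hy))
    exact ⟨s' + t', by rw [map_add, hs', ht']⟩
  | tmul c f =>
    refine ⟨{c}, {f}, fun A O hA hO => ?_⟩
    exact ⟨(⟨c, hA c (Finset.mem_singleton_self _)⟩ : A) ⊗ₜ
      (⟨f, hO f (Finset.mem_singleton_self _)⟩ : O), by simp⟩

/-- specialisation `A ⊗ O → K` -/
noncomputable def spec {A : Subalgebra F Ω} (ρ : A →ₐ[F] F) (O : Subalgebra F K) :
    A ⊗[F] O →ₐ[F] K :=
  Algebra.TensorProduct.productMap ((Algebra.ofId F K).comp ρ) O.val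

@[simp] theorem spec_tmul {A : Subalgebra F Ω} (ρ : A →ₐ[F] F) (O : Subalgebra F K) (a : A)
    (y : O) : spec ρ O (a ⊗ₜ y) = algebraMap F K (ρ a) * (y : K) := by
  simp [spec, Algebra.ofId_apply]

/-- specialisation at a point -/
noncomputable def psi {A : Subalgebra F Ω} (ρ : A →ₐ[F] F) {O : Subalgebra F K} (Q : K →ₐ[F] Ω)
    (hQ : ∀ y ∈ O, Q y ∈ A) : O →ₐ[F] F :=
  ρ.comp ((Q.comp O.val).codRestrict A fun y => hQ y y.2)

theorem psi_apply {A : Subalgebra F Ω} (ρ : A →ₐ[F] F) {O : Subalgebra F K} (Q : K →ₐ[F] Ω)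
    (hQ : ∀ y ∈ O, Q y ∈ A) (y : O) : psi ρ Q hQ y = ρ ⟨Q y, hQ y y.2⟩ := rfl

theorem ev_mem {A : Subalgebra F Ω} {O : Subalgebra F K} (Q : K →ₐ[F] Ω)
    (hQ : ∀ y ∈ O, Q y ∈ A) (s : A ⊗[F] O) : ev Q (jmap A O s) ∈ A := by
  induction s with
  | zero => rw [map_zero, map_zero]; exact A.zero_mem
  | add s t hs ht => rw [map_add, map_add]; exact A.add_mem hs ht
  | tmul a y => rw [jmap_tmul, ev_tmul]; exact A.mul_mem a.2 (hQ y y.2)

theorem ev_add_sub {A : Subalgebra F Ω} {O : Subalgebra F K} (Q : K →ₐ[F] Ω)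
    (hQ : ∀ y ∈ O, Q y ∈ A) (ρ : A →ₐ[F] F) (s t : A ⊗[F] O) :
    ρ ⟨ev Q (jmap A O (s + t)), ev_mem Q hQ (s + t)⟩ =
      ρ ⟨ev Q (jmap A O s), ev_mem Q hQ s⟩ + ρ ⟨ev Q (jmap A O t), ev_mem Q hQ t⟩ := by
  rw [← map_add]
  congr 1
  apply Subtype.ext
  show ev Q (jmap A O (s + t)) = ev Q (jmap A O s) + ev Q (jmap A O t)
  rw [map_add, map_add]

/-- residues of specialised tensors -/
theorem spec_residue {A : Subalgebra F Ω} {O : Subalgebra F K} (Q : K →ₐ[F] Ω)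
    (hQ : ∀ y ∈ O, Q y ∈ A) (ρ : A →ₐ[F] F) {P : Pl F K}
    (hP : ∀ y : O, P.v ((y : K) - algebraMap F K (psi ρ Q hQ y)) < 1) (s : A ⊗[F] O) :
    P.v (spec ρ O s - algebraMap F K (ρ ⟨ev Q (jmap A O s), ev_mem Q hQ s⟩)) < 1 := by
  induction s with
  | zero =>
    have h1 : (⟨ev Q (jmap A O 0), ev_mem Q hQ 0⟩ : A) = 0 := by
      apply Subtype.ext
      show ev Q (jmap A O 0) = 0
      rw [map_zero, map_zero]
    rw [h1]; simp
  | add s t hs ht =>
    rw [ev_add_sub Q hQ ρ, map_add, map_add, add_sub_add_comm]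
    exact lt_of_le_of_lt (Valuation.map_add _ _ _) (max_lt hs ht)
  | tmul a y =>
    have h1 : (⟨ev Q (jmap A O (a ⊗ₜ y)), ev_mem Q hQ (a ⊗ₜ y)⟩ : A) = a * ⟨Q y, hQ y y.2⟩ := by
      apply Subtype.ext
      show ev Q (jmap A O (a ⊗ₜ y)) = (a : Ω) * Q y
      rw [jmap_tmul, ev_tmul]
    rw [h1, map_mul, map_mul, spec_tmul, ← psi_apply ρ Q hQ y, ← mul_sub, map_mul]
    calc _ ≤ 1 * P.v ((y : K) - algebraMap F K (psi ρ Q hQ y)) :=
          mul_le_mul_left (v_algebraMap_le P _) _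
      _ < 1 := by rw [one_mul]; exact hP y

end Sub

section Descent

variable {F K Ω L : Type*} [Field F] [IsAlgClosed F] [Field K] [Algebra F K]
  [Algebra (RatFunc F) K] [IsScalarTower F (RatFunc F) K] [FiniteDimensional (RatFunc F) K]
  [Algebra.IsSeparable (RatFunc F) K]
  [Field Ω] [Algebra F Ω] [IsAlgClosed Ω]
  [Field L] [Algebra Ω L] [Algebra F L] [IsScalarTower F Ω L]
  [Algebra (RatFunc Ω) L] [IsScalarTower Ω (RatFunc Ω) L]
  [FiniteDimensional (RatFunc Ω) L] [Algebra.IsSeparable (RatFunc Ω) L]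
  {ι : K →ₐ[F] L}

/-- **specialisation of an effective divisor**: `f ∈ L(D)_Ω` with zeros of order `k Q` at finitely
many points specialises to `f' ∈ L(D)` with zeros of order `k Q` at distinct places `P Q` outside
the support of `D` -/
theorem exists_specialization (hι : IsCE Ω ι) (hx : xK Ω L = ι (xK F K)) {D : Pl F K →₀ ℤ}
    {f : L} (hf0 : f ≠ 0) (hf : f ∈ LD (base hι D)) (S : Finset (K →ₐ[F] Ω))
    (k : (K →ₐ[F] Ω) → ℕ) (hk : ∀ Q, (plQ hι Q).v f = exp (-(k Q : ℤ))) :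
    ∃ (f' : K) (P : (K →ₐ[F] Ω) → Pl F K), f' ≠ 0 ∧ f' ∈ LD D ∧
      (∀ Q ∈ S, (P Q).v f' ≤ exp (-(k Q : ℤ))) ∧ (∀ Q ∈ S, D (P Q) = 0) ∧
      (∀ Q ∈ S, ∀ Q' ∈ S, P Q = P Q' → Q = Q') := by
  classical
  haveI := LD_finite D
  let g := Module.finBasis F (LD D)
  rw [← range_lam hι hx] at hf
  obtain ⟨t₀, rfl⟩ := hf
  obtain ⟨c, rfl⟩ := TensorProduct.eq_repr_basis_right g t₀
  let t : Ω ⊗[F] K := ∑ j, c j ⊗ₜ[F] ((g j : LD D) : K)
  have ht : lam Ω ι D (c.sum fun i m => m ⊗ₜ g i) = mu ι t := by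
    rw [Finsupp.sum_fintype _ _ (fun i => by simp), map_sum, map_sum]
    refine Finset.sum_congr rfl fun i _ => ?_
    rw [lam_tmul, mu_tmul]
  rw [ht] at hf0 hk
  have ht0 : t ≠ 0 := by
    intro h; rw [h, map_zero] at hf0; exact hf0 rfl
  obtain ⟨j₀, hj₀⟩ : ∃ j, c j ≠ 0 := by
    by_contra h
    push Not at h
    exact ht0 (Finset.sum_eq_zero fun j _ => by rw [h j, TensorProduct.zero_tmul])
  -- local forms at the points
  have hform : ∀ Q : K →ₐ[F] Ω, ∃ e t' : Ω ⊗[F] K, ev Q e ≠ 0 ∧ ev Q t' ≠ 0 ∧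
      e * t = piT F K (Q (xK F K)) ^ (k Q) * t' := by
    intro Q
    obtain ⟨m, e, t', he, ht', heq⟩ := (plQ_At hι Q).exists_form_T hι ht0
    have h1 := congrArg (fun s => (plQ hι Q).v (mu ι s)) heq
    simp only [map_mul, map_pow] at h1
    rw [(plQ_At hι Q).eq_one he, (plQ_At hι Q).eq_one ht', hk, (plQ_At hι Q).v_pi hι, one_mul,
      mul_one, ← exp_nsmul, exp_inj] at h1
    have h2 : m = k Q := by
      simp at h1
      exact_mod_cast h1.symm
    subst h2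
    exact ⟨e, t', he, ht', heq⟩
  choose e t' he ht' heq using hform
  -- supports
  choose Ce Ye hCe using fun Q : K →ₐ[F] Ω => exists_support (e Q)
  choose Ct Yt hCt using fun Q : K →ₐ[F] Ω => exists_support (t' Q)
  have hsep : ∀ Q Q' : K →ₐ[F] Ω, ∃ y : K, Q ≠ Q' → Q y ≠ Q' y := by
    intro Q Q'
    by_cases h : Q = Q'
    · exact ⟨0, fun h' => absurd h h'⟩
    · by_contra hcon
      push Not at hcon
      exact h (AlgHom.ext fun y => (hcon y).2)
  choose sep hsep using hsep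
  have hres : ∀ P : Pl F K, ∃ r : F, P.v (xK F K) ≤ 1 → P.v (xK F K - algebraMap F K r) < 1 := by
    intro P
    by_cases h : P.v (xK F K) ≤ 1
    · obtain ⟨r, hr⟩ := exists_residue P h
      exact ⟨r, fun _ => hr⟩
    · exact ⟨0, fun h' => absurd h' h⟩
  choose res hres using hres
  let Y : Finset K := {xK F K} ∪ (Finset.univ.image fun j => ((g j : LD D) : K)) ∪
    (S.biUnion Ye ∪ S.biUnion Yt) ∪ (S ×ˢ S).image (fun p => sep p.1 p.2)
  let T : Finset Ω := (Finset.univ.image fun j => c j) ∪ (S.biUnion Ce ∪ S.biUnion Ct) ∪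
    (S ×ˢ Y).image (fun p => p.1 p.2) ∪ S.image (fun Q => ev Q (e Q)) ∪
    (S ×ˢ S).image (fun p => p.1 (sep p.1 p.2) - p.2 (sep p.1 p.2)) ∪
    (S ×ˢ D.support).image (fun p => p.1 (xK F K) - algebraMap F Ω (res p.2))
  obtain ⟨A, ρ, hA, hρ⟩ := exists_spec (F := F) Ω T
  let O : Subalgebra F K := Algebra.adjoin F (Y : Set K)
  have hYO : ∀ y ∈ Y, y ∈ O := fun y hy => Algebra.subset_adjoin hy
  have hxY : xK F K ∈ Y := by simp [Y]
  have hgO : ∀ j, ((g j : LD D) : K) ∈ O := fun j => hYO _ (by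
    simp only [Y, Finset.mem_union, Finset.mem_image, Finset.mem_univ, true_and]
    exact Or.inl (Or.inl (Or.inr ⟨j, rfl⟩)))
  have hcA : ∀ j, c j ∈ A := fun j => hA _ (by
    simp only [T, Finset.mem_union, Finset.mem_image, Finset.mem_univ, true_and]
    exact Or.inl (Or.inl (Or.inl (Or.inl (Or.inl ⟨j, rfl⟩)))))
  have hQO : ∀ Q ∈ S, ∀ y ∈ O, Q y ∈ A := by
    intro Q hQ
    have h1 : O ≤ A.comap Q := Algebra.adjoin_le fun y hy => hA _ (by
      simp only [T, Finset.mem_union]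
      exact Or.inl (Or.inl (Or.inl (Or.inr (Finset.mem_image.mpr
        ⟨(Q, y), Finset.mem_product.mpr ⟨hQ, hy⟩, rfl⟩)))))
    exact fun y hy => h1 hy
  -- the places
  have hP : ∀ Q : K →ₐ[F] Ω, ∃ P : Pl F K, ∀ hQ : Q ∈ S,
      ∀ y : O, P.v ((y : K) - algebraMap F K (psi ρ Q (hQO Q hQ) y)) < 1 := by
    intro Q
    by_cases hQ : Q ∈ S
    · obtain ⟨P, hP⟩ := exists_pl_of_hom O (psi ρ Q (hQO Q hQ)) ⟨⟨xK F K, hYO _ hxY⟩, by
        intro h
        exact xK_notMem_range (F := F) (K := K) ⟨_, h.symm⟩⟩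
      exact ⟨P, fun _ => hP⟩
    · obtain ⟨P, -⟩ := RR12_948.exists_notMem (∅ : Finset (Pl F K))
      exact ⟨P, fun h => absurd h hQ⟩
  choose P hP using hP
  -- the specialised function
  let tA : A ⊗[F] O := ∑ j, (⟨c j, hcA j⟩ : A) ⊗ₜ[F] (⟨((g j : LD D) : K), hgO j⟩ : O)
  have htA : jmap A O tA = t := by
    simp only [tA, t, map_sum, jmap_tmul]
  have hspec : spec ρ O tA = ∑ j, ρ ⟨c j, hcA j⟩ • ((g j : LD D) : K) := by
    simp only [tA, map_sum, spec_tmul, Algebra.smul_def]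
  refine ⟨spec ρ O tA, P, ?_, ?_, ?_, ?_, ?_⟩
  · intro h0
    rw [hspec] at h0
    have hgK : LinearIndependent F (fun j => ((g j : LD D) : K)) :=
      g.linearIndependent.map' (LD D).subtype (Submodule.ker_subtype _)
    have h1 := Fintype.linearIndependent_iff.mp hgK _ h0 j₀
    refine hρ ⟨c j₀, hcA j₀⟩ ?_ hj₀ h1
    simp only [T, Finset.mem_union, Finset.mem_image, Finset.mem_univ, true_and]
    exact Or.inl (Or.inl (Or.inl (Or.inl (Or.inl ⟨j₀, rfl⟩))))
  · rw [hspec]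
    exact Submodule.sum_mem _ fun j _ => Submodule.smul_mem _ _ (g j).2
  · intro Q hQ
    obtain ⟨eA, heA⟩ := hCe Q A O (fun c hc => hA _ (by
      simp only [T, Finset.mem_union]
      exact Or.inl (Or.inl (Or.inl (Or.inl (Or.inr (Or.inl (Finset.mem_biUnion.mpr
        ⟨Q, hQ, hc⟩))))))))
      (fun y hy => hYO _ (by
        simp only [Y, Finset.mem_union]
        exact Or.inl (Or.inr (Or.inl (Finset.mem_biUnion.mpr ⟨Q, hQ, hy⟩)))))
    obtain ⟨t'A, ht'A⟩ := hCt Q A O (fun c hc => hA _ (by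
      simp only [T, Finset.mem_union]
      exact Or.inl (Or.inl (Or.inl (Or.inl (Or.inr (Or.inr (Finset.mem_biUnion.mpr
        ⟨Q, hQ, hc⟩))))))))
      (fun y hy => hYO _ (by
        simp only [Y, Finset.mem_union]
        exact Or.inl (Or.inr (Or.inr (Finset.mem_biUnion.mpr ⟨Q, hQ, hy⟩)))))
    have hxO : xK F K ∈ O := hYO _ hxY
    let πA : A ⊗[F] O := 1 ⊗ₜ[F] (⟨xK F K, hxO⟩ : O) -
      (⟨Q (xK F K), hQO Q hQ _ hxO⟩ : A) ⊗ₜ[F] 1
    have hπA : jmap A O πA = piT F K (Q (xK F K)) := by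
      simp [πA, piT]
    have h1 : eA * tA = πA ^ (k Q) * t'A := by
      apply jmap_injective
      rw [map_mul, map_mul, map_pow, heA, htA, hπA, ht'A]
      exact heq Q
    have h2 := congrArg (fun s => (P Q).v (spec ρ O s)) h1
    simp only [map_mul, map_pow] at h2
    have hres1 := spec_residue Q (hQO Q hQ) ρ (hP Q hQ)
    have h3 : (P Q).v (spec ρ O eA) = 1 := by
      have h4 := hres1 eA
      have h5 : ρ ⟨ev Q (jmap A O eA), ev_mem Q (hQO Q hQ) eA⟩ ≠ 0 := by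
        apply hρ
        · show ev Q (jmap A O eA) ∈ T
          rw [heA]
          simp only [T, Finset.mem_union]
          exact Or.inl (Or.inl (Or.inr (Finset.mem_image.mpr ⟨Q, hQ, rfl⟩)))
        · show ev Q (jmap A O eA) ≠ 0
          rw [heA]
          exact he Q
      have h6 := (P Q).const _ h5
      have h7 := Valuation.map_add_eq_of_lt_right (v := (P Q).v)
        (x := spec ρ O eA - algebraMap F K (ρ ⟨ev Q (jmap A O eA), ev_mem Q (hQO Q hQ) eA⟩))
        (y := algebraMap F K (ρ ⟨ev Q (jmap A O eA), ev_mem Q (hQO Q hQ) eA⟩)) (by rw [h6]; exact h4)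
      rwa [sub_add_cancel, h6] at h7
    have h8 : (P Q).v (spec ρ O πA) ≤ exp (-1) := by
      rw [← lt_one_iff_le]
      have h9 := hP Q hQ ⟨xK F K, hxO⟩
      have h10 : spec ρ O πA = xK F K - algebraMap F K (psi ρ Q (hQO Q hQ) ⟨xK F K, hxO⟩) := by
        rw [psi_apply]
        simp [πA]
      rw [h10]
      exact h9
    have h11 : (P Q).v (spec ρ O t'A) ≤ 1 := by
      have h12 : spec ρ O t'A = (spec ρ O t'A -
          algebraMap F K (ρ ⟨ev Q (jmap A O t'A), ev_mem Q (hQO Q hQ) t'A⟩)) +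
          algebraMap F K (ρ ⟨ev Q (jmap A O t'A), ev_mem Q (hQO Q hQ) t'A⟩) := by ring
      rw [h12]
      exact (Valuation.map_add _ _ _).trans (max_le (hres1 t'A).le (v_algebraMap_le _ _))
    rw [h3, one_mul] at h2
    rw [h2]
    calc (P Q).v (spec ρ O πA) ^ (k Q) * (P Q).v (spec ρ O t'A)
        ≤ exp (-1) ^ (k Q) * 1 := mul_le_mul' (pow_le_pow_left' h8 _) h11
      _ = exp (-(k Q : ℤ)) := by
        rw [mul_one, ← exp_nsmul]
        congr 1
        simp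
  · intro Q hQ
    by_contra hD
    have hxO : xK F K ∈ O := hYO _ hxY
    have h1 := hP Q hQ ⟨xK F K, hxO⟩
    have hle : (P Q).v (xK F K) ≤ 1 := by
      have h2 : xK F K = (xK F K - algebraMap F K (psi ρ Q (hQO Q hQ) ⟨xK F K, hxO⟩)) +
        algebraMap F K (psi ρ Q (hQO Q hQ) ⟨xK F K, hxO⟩) := by ring
      rw [h2]
      exact (Valuation.map_add _ _ _).trans (max_le h1.le (v_algebraMap_le _ _))
    have h2 := residue_unique (P Q) h1 (hres (P Q) hle)
    have hmem : Q (xK F K) - algebraMap F Ω (res (P Q)) ∈ T := by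
      simp only [T, Finset.mem_union]
      exact Or.inr (Finset.mem_image.mpr ⟨(Q, P Q), Finset.mem_product.mpr
        ⟨hQ, by simpa using hD⟩, rfl⟩)
    have hne : Q (xK F K) - algebraMap F Ω (res (P Q)) ≠ 0 := by
      intro h3
      have h4 := transcendental_x Q
      rw [sub_eq_zero.mp h3] at h4
      exact h4 (isAlgebraic_algebraMap _)
    have h3 := hρ ⟨_, hA _ hmem⟩ hmem hne
    apply h3
    have h4 : (⟨Q (xK F K) - algebraMap F Ω (res (P Q)), hA _ hmem⟩ : A) =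
        ⟨Q (xK F K), hQO Q hQ _ hxO⟩ - algebraMap F A (res (P Q)) := Subtype.ext rfl
    rw [h4, map_sub, AlgHom.commutes]
    rw [psi_apply] at h2
    show ρ ⟨Q (xK F K), hQO Q hQ _ hxO⟩ - res (P Q) = 0
    rw [← h2]
    exact sub_self _
  · intro Q hQ Q' hQ' hPQ
    by_contra hne
    have hy : sep Q Q' ∈ O := hYO _ (by
      simp only [Y, Finset.mem_union]
      exact Or.inr (Finset.mem_image.mpr ⟨(Q, Q'), Finset.mem_product.mpr ⟨hQ, hQ'⟩, rfl⟩))
    have h1 := hP Q hQ ⟨_, hy⟩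
    have h2 := hP Q' hQ' ⟨_, hy⟩
    rw [← hPQ] at h2
    have h3 := residue_unique (P Q) h1 h2
    have hmem : Q (sep Q Q') - Q' (sep Q Q') ∈ T := by
      simp only [T, Finset.mem_union]
      exact Or.inl (Or.inr (Finset.mem_image.mpr ⟨(Q, Q'), Finset.mem_product.mpr
        ⟨hQ, hQ'⟩, rfl⟩))
    have h4 := hρ ⟨_, hA _ hmem⟩ hmem (sub_ne_zero.mpr (hsep Q Q' hne))
    apply h4
    have h5 : (⟨Q (sep Q Q') - Q' (sep Q Q'), hA _ hmem⟩ : A) =
        ⟨Q (sep Q Q'), hQO Q hQ _ hy⟩ - ⟨Q' (sep Q Q'), hQO Q' hQ' _ hy⟩ := Subtype.ext rfl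
    rw [h5, map_sub]
    rw [psi_apply, psi_apply] at h3
    rw [h3]
    exact sub_self _

end Descent

end Crest.Agent.R013.Div4_280
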