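import Mathlib
import Crest.Agent.R013.Div4_280

/-!
# R013 / Div5: descent of divisibility and the theorem `Pic⁰(K)` is divisible (helper280)
-/

set_option autoImplicit false
set_option linter.all false

namespace Crest.Agent.R013.Div5_280

open WithZero Module TensorProduct nonZeroDivisors
open Crest.Agent.R013.RR7_948 Crest.Agent.R013.RR8_948 Crest.Agent.R013.RR9_948
open Crest.Agent.R013.RR11_948 Crest.Agent.R013.RR13_948 Crest.Agent.R013.CE1_280
open Crest.Agent.R013.CE2_280 Crest.Agent.R013.CE3_280 Crest.Agent.R013.CE5_280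
open Crest.Agent.R013.CE6_280 Crest.Agent.R013.CE7_280 Crest.Agent.R013.CE8_280
open Crest.Agent.R013.CE9_280 Crest.Agent.R013.CE10_280 Crest.Agent.R013.Div1_280
open Crest.Agent.R013.Div3_280 Crest.Agent.R013.Div4_280

section Descent

variable {F K Ω L : Type*} [Field F] [IsAlgClosed F] [Field K] [Algebra F K]
  [Algebra (RatFunc F) K] [IsScalarTower F (RatFunc F) K] [FiniteDimensional (RatFunc F) K]
  [Algebra.IsSeparable (RatFunc F) K]
  [Field Ω] [Algebra F Ω] [IsAlgClosed Ω]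
  [Field L] [Algebra Ω L] [Algebra F L] [IsScalarTower F Ω L]
  [Algebra (RatFunc Ω) L] [IsScalarTower Ω (RatFunc Ω) L]
  [FiniteDimensional (RatFunc Ω) L] [Algebra.IsSeparable (RatFunc Ω) L]
  {ι : K →ₐ[F] L}

/-- **descent of divisibility** along a constant field extension of algebraically closed fields -/
theorem descend (hι : IsCE Ω ι) (hx : xK Ω L = ι (xK F K)) {n : ℕ} (hn : 0 < n)
    {D : Pl F K →₀ ℤ} (hD : degD D = 0) (hmem : base hι D ∈ Gn Ω L n) : D ∈ Gn F K n := by
  classical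
  obtain ⟨E, h, hh, hE⟩ := hmem
  obtain ⟨P₀, -⟩ := RR12_948.exists_notMem (∅ : Finset (Pl F K))
  have hdegE : degD E = 0 := by
    have h1 := congrArg degD hE
    rw [degD_base, hD, degD_add, degD_divf hh, degD_nsmul, add_zero] at h1
    have h2 : (n : ℤ) ≠ 0 := by exact_mod_cast hn.ne'
    exact (mul_eq_zero.mp h1.symm).resolve_left h2
  -- an effective representative
  obtain ⟨h₁, hh₁0, hh₁⟩ : ∃ h₁ : L, h₁ ≠ 0 ∧
      0 ≤ E + base hι (Finsupp.single P₀ (gen F K : ℤ)) + divf h₁ := by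
    have hdeg : degD (E + base hι (Finsupp.single P₀ (gen F K : ℤ))) = gen F K := by
      rw [degD_add, hdegE, degD_base, degD_single, degP_eq_one]
      push_cast; ring
    have h1 : 1 ≤ ell (E + base hι (Finsupp.single P₀ (gen F K : ℤ))) := by
      have := ell_ge (algebraicClosure_eq_bot (k := Ω) (K := L))
        (E + base hι (Finsupp.single P₀ (gen F K : ℤ)))
      rw [hdeg, gen_eq hι hx] at this
      have h2 : (1 : ℤ) ≤ ell (E + base hι (Finsupp.single P₀ (gen F K : ℤ))) := by linarith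
      exact_mod_cast h2
    have h2 : LD (E + base hι (Finsupp.single P₀ (gen F K : ℤ))) ≠ ⊥ := by
      intro h0
      unfold ell at h1
      rw [h0] at h1
      simp at h1
    obtain ⟨h₁, hh₁, hh₁0⟩ := Submodule.exists_mem_ne_zero_of_ne_bot h2
    rw [mem_LD_iff hh₁0] at hh₁
    exact ⟨h₁, hh₁0, hh₁⟩
  obtain ⟨E', hE'⟩ : ∃ E' : Pl Ω L →₀ ℤ,
      E' = E + base hι (Finsupp.single P₀ (gen F K : ℤ)) + divf h₁ := ⟨_, rfl⟩
  rw [← hE'] at hh₁
  have hdegE' : degD E' = gen F K := by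
    rw [hE', degD_add, degD_add, hdegE, degD_base, degD_single, degP_eq_one, degD_divf hh₁0]
    push_cast; ring
  set D₁ : Pl F K →₀ ℤ := D + n • Finsupp.single P₀ (gen F K : ℤ) with hD₁
  have hpow0 : h₁ ^ n ≠ 0 := pow_ne_zero _ hh₁0
  have hdivpow : ∀ m : ℕ, divf (k := Ω) (h₁ ^ m) = m • divf h₁ := by
    intro m
    induction m with
    | zero => rw [pow_zero, divf_one, zero_smul]
    | succ m ih => rw [pow_succ, divf_mul (pow_ne_zero _ hh₁0) hh₁0, ih, succ_nsmul]
  set f : L := h₁ ^ n * h⁻¹ with hf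
  have hf0 : f ≠ 0 := mul_ne_zero hpow0 (inv_ne_zero hh)
  have hdivf : divf (k := Ω) f = n • E' - base hι D₁ := by
    rw [hf, divf_mul hpow0 (inv_ne_zero hh), divf_inv hh, hdivpow, hD₁, map_add, map_nsmul, hE, hE',
      smul_add, smul_add]
    abel
  -- constant part
  set Ec : Pl F K →₀ ℤ := E'.comapDomain (conP hι) (conP_injective hι).injOn with hEc
  have hEc' : ∀ P, Ec P = E' (conP hι P) := fun P => Finsupp.comapDomain_apply _ _ _ _
  set D₂ : Pl F K →₀ ℤ := D₁ - n • Ec with hD₂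
  have hfp : ∀ Q : K →ₐ[F] Ω, divf (k := Ω) f (plQ hι Q) = n * E' (plQ hι Q) := by
    intro Q
    rw [hdivf, Finsupp.sub_apply, base_plQ, Finsupp.smul_apply, sub_zero, nsmul_eq_mul]
  have hfL : f ∈ LD (base hι D₂) := by
    rw [mem_LD_iff hf0]
    intro w
    rcases cases hι w with ⟨P, rfl⟩ | ⟨Q, rfl⟩
    · show 0 ≤ base hι D₂ (conP hι P) + divf f (conP hι P)
      have e1 : divf (k := Ω) f (conP hι P) = n * E' (conP hι P) - D₁ P := by
        rw [hdivf, Finsupp.sub_apply, base_conP, Finsupp.smul_apply, nsmul_eq_mul]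
      have e2 : D₂ P = D₁ P - n * E' (conP hι P) := by
        rw [hD₂, Finsupp.sub_apply, Finsupp.smul_apply, hEc', nsmul_eq_mul]
      rw [base_conP, e1, e2]
      apply le_of_eq
      ring
    · show 0 ≤ base hι D₂ (plQ hι Q) + divf f (plQ hι Q)
      rw [base_plQ, hfp, zero_add]
      exact mul_nonneg (by positivity) (hh₁ _)
  let k : (K →ₐ[F] Ω) → ℕ := fun Q => n * (E' (plQ hι Q)).toNat
  have hkZ : ∀ Q, ((k Q : ℕ) : ℤ) = n * E' (plQ hι Q) := by
    intro Q
    show ((n * (E' (plQ hι Q)).toNat : ℕ) : ℤ) = _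
    push_cast
    rw [Int.toNat_of_nonneg (hh₁ _)]
  have hk : ∀ Q, (plQ hι Q).v f = exp (-(k Q : ℤ)) := by
    intro Q
    rw [v_eq (k := Ω) hf0, hfp, hkZ]
  have hfin : {Q : K →ₐ[F] Ω | E' (plQ hι Q) ≠ 0}.Finite := by
    have h1 : {Q : K →ₐ[F] Ω | E' (plQ hι Q) ≠ 0} = plQ hι ⁻¹' (E'.support : Set (Pl Ω L)) := by
      ext Q; simp
    rw [h1]
    exact E'.support.finite_toSet.preimage (plQ_injective hι).injOn
  obtain ⟨f', P, hf'0, hf', hvP, hDP, hinj⟩ :=
    exists_specialization hι hx hf0 hfL hfin.toFinset k hk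
  set S := hfin.toFinset with hS
  have hSmem : ∀ Q, Q ∉ S → E' (plQ hι Q) = 0 := by
    intro Q hQ
    by_contra h'
    exact hQ (by rw [hS, Set.Finite.mem_toFinset]; exact h')
  -- the decomposition of `E'`
  have hdec : E' = base hι Ec + ∑ Q ∈ S, Finsupp.single (plQ hι Q) (E' (plQ hι Q)) := by
    ext w
    rw [Finsupp.add_apply, Finsupp.finsetSum_apply S]
    rcases cases hι w with ⟨P, rfl⟩ | ⟨Q, rfl⟩
    · rw [base_conP, hEc', Finset.sum_eq_zero, add_zero]
      intro Q hQ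
      exact Finsupp.single_eq_of_ne (conP_ne_plQ hι P Q)
    · rw [base_plQ, zero_add]
      by_cases hQ : Q ∈ S
      · rw [Finset.sum_eq_single_of_mem Q hQ, Finsupp.single_eq_same]
        intro Q' hQ' hne
        exact Finsupp.single_eq_of_ne (fun h' => hne (plQ_injective hι h').symm)
      · rw [hSmem Q hQ, Finset.sum_eq_zero]
        intro Q' hQ'
        exact Finsupp.single_eq_of_ne (fun h' => hQ (plQ_injective hι h' ▸ hQ'))
  have hdegsum : ∀ (T : Finset (K →ₐ[F] Ω)), degD (∑ Q ∈ T, Finsupp.single (plQ hι Q)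
      (E' (plQ hι Q))) = ∑ Q ∈ T, E' (plQ hι Q) := by
    intro T
    induction T using Finset.induction_on with
    | empty => simp [degD_zero]
    | insert Q T hQ ih =>
      rw [Finset.sum_insert hQ, Finset.sum_insert hQ, degD_add, ih, degD_single, degP_eq_one]
      simp
  have hdegP : ∀ (T : Finset (K →ₐ[F] Ω)), degD (∑ Q ∈ T, Finsupp.single (P Q)
      (E' (plQ hι Q))) = ∑ Q ∈ T, E' (plQ hι Q) := by
    intro T
    induction T using Finset.induction_on with
    | empty => simp [degD_zero]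
    | insert Q T hQ ih =>
      rw [Finset.sum_insert hQ, Finset.sum_insert hQ, degD_add, ih, degD_single, degP_eq_one]
      simp
  have hdeg₁ : degD Ec + ∑ Q ∈ S, E' (plQ hι Q) = gen F K := by
    rw [← hdegE', ← degD_base hι Ec, ← hdegsum S, ← degD_add, ← hdec]
  set Z : Pl F K →₀ ℤ := ∑ Q ∈ S, Finsupp.single (P Q) (E' (plQ hι Q)) with hZ
  have hdeg₂ : degD (D₂ + divf f' - n • Z) = 0 := by
    rw [degD_sub, degD_add, degD_divf hf'0, degD_nsmul, hZ, hdegP, hD₂, degD_sub, degD_nsmul, hD₁,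
      degD_add, degD_nsmul, degD_single, degP_eq_one, hD]
    push_cast
    linear_combination (-(n : ℤ)) * hdeg₁
  have hnonneg : 0 ≤ D₂ + divf f' - n • Z := by
    intro R
    rw [Finsupp.zero_apply, Finsupp.sub_apply, Finsupp.smul_apply, Finsupp.add_apply]
    by_cases hR : ∃ Q ∈ S, P Q = R
    · obtain ⟨Q, hQ, rfl⟩ := hR
      have h1 : Z (P Q) = E' (plQ hι Q) := by
        rw [hZ, Finsupp.finsetSum_apply, Finset.sum_eq_single_of_mem Q hQ, Finsupp.single_eq_same]
        intro Q' hQ' hne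
        exact Finsupp.single_eq_of_ne (fun h' => hne (hinj Q' hQ' Q hQ h'.symm))
      have h2 := hvP Q hQ
      rw [v_eq (k := F) hf'0, exp_le_exp] at h2
      rw [h1, hDP Q hQ, zero_add, nsmul_eq_mul, ← hkZ]
      linarith
    · have h1 : Z R = 0 := by
        rw [hZ, Finsupp.finsetSum_apply, Finset.sum_eq_zero]
        intro Q hQ
        exact Finsupp.single_eq_of_ne (fun h' => hR ⟨Q, hQ, h'.symm⟩)
      rw [mem_LD_iff hf'0] at hf'
      rw [h1, smul_zero, sub_zero]
      exact hf' R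
  have hfinal := eq_zero_of_nonneg hnonneg hdeg₂
  refine ⟨Z + Ec - Finsupp.single P₀ (gen F K : ℤ), f'⁻¹, inv_ne_zero hf'0, ?_⟩
  rw [divf_inv hf'0]
  have h1 : D₂ = n • Z - divf f' := by
    rw [← sub_eq_zero, ← hfinal]
    abel
  have h2 : D = D₂ + n • Ec - n • Finsupp.single P₀ (gen F K : ℤ) := by
    rw [hD₂, hD₁]; abel
  rw [h2, h1, smul_sub, smul_add]
  abel

end Descent

end Crest.Agent.R013.Div5_280
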