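import Mathlib
import Crest.Agent.R013.Div5_280

/-!
# R013 / Div6: `Pic⁰` of a function field over an algebraically closed field of characteristic zero
is divisible (helper280)
-/

set_option autoImplicit false
set_option linter.all false
namespace Crest.Agent.R013.Div6_280
open WithZero Module TensorProduct nonZeroDivisors
open Crest.Agent.R013.RR7_948 Crest.Agent.R013.RR8_948 Crest.Agent.R013.RR9_948
open Crest.Agent.R013.RR11_948 Crest.Agent.R013.RR13_948 Crest.Agent.R013.CE1_280
open Crest.Agent.R013.CE2_280 Crest.Agent.R013.CE3_280 Crest.Agent.R013.CE5_280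
open Crest.Agent.R013.CE6_280 Crest.Agent.R013.CE7_280 Crest.Agent.R013.CE8_280
open Crest.Agent.R013.CE9_280 Crest.Agent.R013.CE10_280 Crest.Agent.R013.Div1_280
open Crest.Agent.R013.Div3_280 Crest.Agent.R013.Div4_280 Crest.Agent.R013.Div5_280

universe u

/-- an algebraically closed field with a prescribed finite transcendence basis -/
theorem exists_omega (F : Type u) [Field F] (m : ℕ) :
    ∃ (Ω : Type u) (_ : Field Ω) (_ : Algebra F Ω)
    (_ : IsAlgClosed Ω) (z : Fin m → Ω), IsTranscendenceBasis F z := by
  let M := FractionRing (MvPolynomial (Fin m) F)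
  have h0 : IsTranscendenceBasis F (MvPolynomial.X : Fin m → MvPolynomial (Fin m) F) := 
    IsTranscendenceBasis.mvPolynomial (Fin m) F
  haveI : Algebra.IsAlgebraic (MvPolynomial (Fin m) F) (AlgebraicClosure M) :=
    (IsFractionRing.comap_isAlgebraic_iff (A := MvPolynomial (Fin m) F) (K := M)
      (C := AlgebraicClosure M)).mpr inferInstance
  haveI : FaithfulSMul (MvPolynomial (Fin m) F) (AlgebraicClosure M) := by
    rw [faithfulSMul_iff_algebraMap_injective,
      IsScalarTower.algebraMap_eq (MvPolynomial (Fin m) F) M (AlgebraicClosure M)]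
    exact (algebraMap M (AlgebraicClosure M)).injective.comp
      (IsFractionRing.injective (MvPolynomial (Fin m) F) M)
  have h1 := h0.algebraMap_comp (A := AlgebraicClosure M)
  exact ⟨AlgebraicClosure M, inferInstance, inferInstance, inferInstance, _, h1⟩

section Final

variable {F : Type u} {K : Type*} [Field F] [IsAlgClosed F] [CharZero F] [Field K] [Algebra F K]
  [Algebra (RatFunc F) K] [IsScalarTower F (RatFunc F) K] [FiniteDimensional (RatFunc F) K]
  [Algebra.IsSeparable (RatFunc F) K]

/-- **`Pic⁰` of a function field over an algebraically closed field of characteristic zero is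
divisible.** -/
theorem exists_div {n : ℕ} (hn : 0 < n) {D : Pl F K →₀ ℤ} (hD : degD D = 0) :
    ∃ (E : Pl F K →₀ ℤ) (f : K), f ≠ 0 ∧ degD E = 0 ∧ D = n • E + divf f := by
  obtain ⟨Ω, _, _, _, z, hz⟩ := exists_omega F (gen F K)
  haveI : CharZero Ω := charZero_of_injective_algebraMap (algebraMap F Ω).injective
  haveI : CharZero (RatFunc Ω) :=
    charZero_of_injective_algebraMap (algebraMap Ω (RatFunc Ω)).injective
  have h1 := base_mem_Gn (isCE F K Ω) (xK_eq F K Ω) hz hn hD
  obtain ⟨E, f, hf, hE⟩ := descend (isCE F K Ω) (xK_eq F K Ω) hn hD h1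
  refine ⟨E, f, hf, ?_, hE⟩
  have h2 := congrArg degD hE
  rw [hD, degD_add, degD_nsmul, degD_divf hf, add_zero] at h2
  have h3 : (n : ℤ) ≠ 0 := by exact_mod_cast hn.ne'
  exact (mul_eq_zero.mp h2.symm).resolve_left h3

end Final

end Crest.Agent.R013.Div6_280
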