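import Mathlib
import Crest.Agent.R013.Div6_280

/-!
# R013 / Rig: torsion classes of `K_Ω` come from `K` (helper280)
-/

set_option autoImplicit false
set_option linter.all false

namespace Crest.Agent.R013.Rig_280

open WithZero Module TensorProduct nonZeroDivisors
open Crest.Agent.R013.RR7_948 Crest.Agent.R013.RR8_948 Crest.Agent.R013.RR9_948
open Crest.Agent.R013.RR11_948 Crest.Agent.R013.RR13_948 Crest.Agent.R013.CE1_280
open Crest.Agent.R013.CE2_280 Crest.Agent.R013.CE3_280 Crest.Agent.R013.CE5_280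
open Crest.Agent.R013.CE6_280 Crest.Agent.R013.CE7_280 Crest.Agent.R013.CE8_280
open Crest.Agent.R013.CE9_280 Crest.Agent.R013.CE10_280 Crest.Agent.R013.Div1_280
open Crest.Agent.R013.Div3_280 Crest.Agent.R013.Div4_280 Crest.Agent.R013.Div5_280
open Crest.Agent.R013.Div6_280

section General

variable {k K : Type*} [Field k] [IsAlgClosed k] [Field K] [Algebra k K] [Algebra (RatFunc k) K]
  [IsScalarTower k (RatFunc k) K] [FiniteDimensional (RatFunc k) K]
  [Algebra.IsSeparable (RatFunc k) K]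

omit [IsAlgClosed k] in
theorem ell_eq_zero_iff' {D : Pl k K →₀ ℤ} :
    ell D = 0 ↔ LD D = ⊥ := by
  haveI := LD_finite D
  exact Submodule.finrank_eq_zero

/-- adding one point raises the dimension at most by one -/
theorem ell_le_one_of_sub {E : Pl k K →₀ ℤ} {P : Pl k K}
    (h : ell (E - Finsupp.single P 1) = 0) : ell E ≤ 1 := by
  classical
  have hbot := ell_eq_zero_iff'.mp h
  have hP : ∀ f ∈ LD E, f ≠ 0 → P.v f = exp (E P) := by
    intro f hf hf0
    rw [mem_LD] at hf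
    by_contra hne
    apply hf0
    rw [← Submodule.mem_bot k, ← hbot, mem_LD]
    intro Q
    by_cases hQ : Q = P
    · subst hQ
      have h1 : Q.v f < exp (E Q) := lt_of_le_of_ne (hf Q) hne
      rw [Finsupp.sub_apply, Finsupp.single_eq_same]
      rw [← RR2_948.lt_exp_iff]
      exact h1
    · rw [Finsupp.sub_apply, Finsupp.single_eq_of_ne hQ, sub_zero]
      exact hf Q
  by_cases h0 : LD E = ⊥
  · rw [ell_eq_zero_iff'.mpr h0]; exact Nat.zero_le _
  obtain ⟨f, hf, hf0⟩ := Submodule.exists_mem_ne_zero_of_ne_bot h0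
  refine finrank_le_one (⟨f, hf⟩ : LD E) ?_
  rintro ⟨g, hg⟩
  by_cases hg0 : g = 0
  · exact ⟨0, by rw [zero_smul]; exact Subtype.ext hg0.symm⟩
  have h1 : P.v (g / f) = 1 := by
    rw [map_div₀, hP g hg hg0, hP f hf hf0, div_self (by simp)]
  obtain ⟨c, hc⟩ := exists_residue P h1.le
  refine ⟨c, Subtype.ext ?_⟩
  show c • f = g
  by_contra hne
  have hmem : g - c • f ∈ LD E := Submodule.sub_mem _ hg (Submodule.smul_mem _ _ hf)
  have h2 := hP _ hmem (sub_ne_zero.mpr (Ne.symm hne))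
  have h3 : g - c • f = (g / f - algebraMap k K c) * f := by
    rw [sub_mul, div_mul_cancel₀ _ hf0, Algebra.smul_def]
  rw [h3, map_mul, hP f hf hf0] at h2
  have h4 : (P.v (g / f - algebraMap k K c)) * exp (E P) < 1 * exp (E P) :=
    mul_lt_mul_of_pos_right hc (by simp)
  rw [h2, one_mul] at h4
  exact lt_irrefl _ h4

/-- every divisor class of degree zero has an effective representative `E - r P` with `ell E = 1` -/
theorem exists_reduced (D : Pl k K →₀ ℤ) (hD : degD D = 0) (P : Pl k K) :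
    ∃ (r : ℕ) (h : K), h ≠ 0 ∧ 0 ≤ D + Finsupp.single P (r : ℤ) + divf h ∧
      ell (D + Finsupp.single P (r : ℤ) + divf h) = 1 := by
  classical
  have hex : ∃ r : ℕ, 1 ≤ ell (D + Finsupp.single P (r : ℤ)) := by
    refine ⟨gen k K, ?_⟩
    have := ell_ge (algebraicClosure_eq_bot (k := k) (K := K))
      (D + Finsupp.single P (gen k K : ℤ))
    rw [degD_add, degD_single, degP_eq_one, hD] at this
    have h2 : (1 : ℤ) ≤ ell (D + Finsupp.single P (gen k K : ℤ)) := by
      push_cast at this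
      linarith
    exact_mod_cast h2
  obtain ⟨r, hr, hmin⟩ : ∃ r : ℕ, 1 ≤ ell (D + Finsupp.single P (r : ℤ)) ∧
      ∀ m < r, ¬ 1 ≤ ell (D + Finsupp.single P (m : ℤ)) :=
    ⟨Nat.find hex, Nat.find_spec hex, fun m hm => Nat.find_min hex hm⟩
  have hle : ell (D + Finsupp.single P (r : ℤ)) ≤ 1 := by
    apply ell_le_one_of_sub (P := P)
    rcases Nat.eq_zero_or_pos r with rfl | hpos
    · apply ell_of_degD_neg
      rw [degD_sub, degD_add, degD_single, degD_single, degP_eq_one, hD]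
      norm_num
    · have h1 := hmin (r - 1) (by omega)
      have h2 : D + Finsupp.single P (r : ℤ) - Finsupp.single P 1 =
          D + Finsupp.single P ((r - 1 : ℕ) : ℤ) := by
        rw [add_sub_assoc, ← Finsupp.single_sub]
        congr 2
        omega
      rw [h2]
      omega
  have hne : LD (D + Finsupp.single P (r : ℤ)) ≠ ⊥ := by
    intro h0
    rw [ell_eq_zero_iff'.mpr h0] at hr
    omega
  obtain ⟨h, hh, hh0⟩ := Submodule.exists_mem_ne_zero_of_ne_bot hne
  refine ⟨r, h, hh0, (mem_LD_iff hh0).mp hh, ?_⟩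
  rw [ell_add_divf _ hh0]
  omega

end General

section Rig

variable {F K Ω L : Type*} [Field F] [IsAlgClosed F] [CharZero F] [Field K] [Algebra F K]
  [Algebra (RatFunc F) K] [IsScalarTower F (RatFunc F) K] [FiniteDimensional (RatFunc F) K]
  [Algebra.IsSeparable (RatFunc F) K]
  [Field Ω] [Algebra F Ω] [IsAlgClosed Ω]
  [Field L] [Algebra Ω L] [Algebra F L] [IsScalarTower F Ω L]
  [Algebra (RatFunc Ω) L] [IsScalarTower Ω (RatFunc Ω) L]
  [FiniteDimensional (RatFunc Ω) L] [Algebra.IsSeparable (RatFunc Ω) L]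
  {ι : K →ₐ[F] L}

/-- an effective divisor with `ell = 1`, a positive multiple of which is constant up to
equivalence, is constant -/
theorem eq_base_of_ell_eq_one (hι : IsCE Ω ι) {E : Pl Ω L →₀ ℤ} (hE : 0 ≤ E) (hell : ell E = 1)
    {n : ℕ} (hn : 0 < n) {h : L} (h0 : h ≠ 0) {D₁ : Pl F K →₀ ℤ}
    (hyp : n • E = base hι D₁ + divf h) : ∃ E₀ : Pl F K →₀ ℤ, E = base hι E₀ := by
  classical
  haveI : CharZero Ω := charZero_of_injective_algebraMap (algebraMap F Ω).injective
  have hpt : ∀ Q : K →ₐ[F] Ω, n * E (plQ hι Q) = divf h (plQ hι Q) := by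
    intro Q
    have := congrArg (fun D => D (plQ hι Q)) hyp
    simp only [Finsupp.smul_apply, Finsupp.add_apply, base_plQ, zero_add, nsmul_eq_mul] at this
    exact this
  have hv : ∀ Q : K →ₐ[F] Ω, (plQ hι Q).v h = 1 := by
    intro Q
    by_contra hne
    obtain ⟨d, hd⟩ := exists_derivation (M := F) (transcendental_x (F := F) Q)
    obtain ⟨D, hD⟩ := exists_ext hι d
    have h1 := rig hι hD hE hell h0 (fun Q' hQ' => Or.inr (by
      rw [v_eq (k := Ω) h0, ← exp_zero] at hQ'
      have h2 : divf h (plQ hι Q') ≠ 0 := fun h3 => hQ' (by rw [h3, neg_zero])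
      rw [← hpt] at h2
      have h3 : E (plQ hι Q') ≠ 0 := fun h4 => h2 (by rw [h4, mul_zero])
      have h4 : 0 ≤ E (plQ hι Q') := hE _
      omega)) Q hne
    rw [hd] at h1
    exact one_ne_zero h1
  have hzero : ∀ Q : K →ₐ[F] Ω, E (plQ hι Q) = 0 := by
    intro Q
    have h1 := hv Q
    rw [v_eq (k := Ω) h0, ← exp_zero, exp_inj] at h1
    have h2 := hpt Q
    have h3 : (n : ℤ) * E (plQ hι Q) = 0 := by omega
    rcases mul_eq_zero.mp h3 with h4 | h4
    · exact absurd (by exact_mod_cast h4) hn.ne'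
    · exact h4
  refine ⟨E.comapDomain (conP hι) (conP_injective hι).injOn, ?_⟩
  ext w
  rcases cases hι w with ⟨P, rfl⟩ | ⟨Q, rfl⟩
  · rw [base_conP, Finsupp.comapDomain_apply]
  · rw [base_plQ, hzero]

/-- principal divisors descend -/
theorem exists_divf_of_base (hι : IsCE Ω ι) (hx : xK Ω L = ι (xK F K)) {D : Pl F K →₀ ℤ} {h : L}
    (h0 : h ≠ 0) (hD : base hι D = divf h) : ∃ f : K, f ≠ 0 ∧ D = divf f := by
  have h1 : degD D = 0 := by rw [← degD_base hι, hD, degD_divf h0]
  have h2 : ell (base hι D) ≠ 0 := by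
    rw [Ne, ell_eq_zero_iff', Submodule.eq_bot_iff]
    intro h3
    apply inv_ne_zero h0
    apply h3
    rw [mem_LD_iff (inv_ne_zero h0), divf_inv h0, hD]
    simp
  rw [ell_base hι hx, Ne, ell_eq_zero_iff'] at h2
  obtain ⟨f, hf, hf0⟩ := Submodule.exists_mem_ne_zero_of_ne_bot h2
  refine ⟨f⁻¹, inv_ne_zero hf0, ?_⟩
  rw [mem_LD_iff hf0] at hf
  have h3 := eq_zero_of_nonneg hf (by rw [degD_add, h1, degD_divf hf0, add_zero])
  rw [divf_inv hf0]
  exact eq_neg_of_add_eq_zero_left h3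

/-- **rigidity of torsion**: every `n`-torsion class of `K_Ω` comes from `K` -/
theorem torsion_rigid (hι : IsCE Ω ι) (hx : xK Ω L = ι (xK F K)) {n : ℕ} (hn : 0 < n)
    {D : Pl Ω L →₀ ℤ} {f : L} (hf : f ≠ 0) (hD : n • D = divf f) :
    ∃ (D₀ : Pl F K →₀ ℤ) (f₀ : K) (h : L), f₀ ≠ 0 ∧ h ≠ 0 ∧ n • D₀ = divf f₀ ∧
      D = base hι D₀ + divf h := by
  classical
  have hdeg : degD D = 0 := by
    have h1 := congrArg degD hD
    rw [degD_nsmul, degD_divf hf] at h1
    rcases mul_eq_zero.mp h1 with h2 | h2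
    · exact absurd (by exact_mod_cast h2) hn.ne'
    · exact h2
  obtain ⟨P₀, -⟩ := RR12_948.exists_notMem (∅ : Finset (Pl F K))
  obtain ⟨r, h, hh0, hE, hell⟩ := exists_reduced D hdeg (conP hι P₀)
  have hpow : ∀ m : ℕ, divf (k := Ω) (h ^ m) = m • divf h := by
    intro m
    induction m with
    | zero => rw [pow_zero, divf_one, zero_smul]
    | succ m ih => rw [pow_succ, divf_mul (pow_ne_zero _ hh0) hh0, ih, succ_nsmul]
  obtain ⟨E₀, hE₀⟩ := eq_base_of_ell_eq_one hι hE hell hn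
    (h := f * h ^ n) (mul_ne_zero hf (pow_ne_zero _ hh0))
    (D₁ := n • Finsupp.single P₀ (r : ℤ)) (by
      rw [divf_mul hf (pow_ne_zero _ hh0), hpow, smul_add, smul_add, hD, map_nsmul, base_single]
      abel)
  have hDeq : D = base hι (E₀ - Finsupp.single P₀ (r : ℤ)) + divf h⁻¹ := by
    rw [map_sub, ← hE₀, base_single, divf_inv hh0]
    abel
  obtain ⟨f₀, hf₀, h1⟩ := exists_divf_of_base hι hx (D := n • (E₀ - Finsupp.single P₀ (r : ℤ)))
    (h := f * h ^ n) (mul_ne_zero hf (pow_ne_zero _ hh0)) (by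
      rw [divf_mul hf (pow_ne_zero _ hh0), hpow, ← hD, map_nsmul, map_sub, ← hE₀, base_single,
        ← smul_add]
      congr 1
      abel)
  exact ⟨_, f₀, h⁻¹, hf₀, inv_ne_zero hh0, h1, hDeq⟩

end Rig

end Crest.Agent.R013.Rig_280
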