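import Mathlib

/-!
# Row 13, leaf SS-ONE (helper863): power series expansions

`R` a `C`-algebra, `s : R` a non zero divisor such that `C → R/s` is bijective.  Expansion in powers
of `s` is a ring homomorphism `R → C⟦X⟧` (`expand`), `s ↦ X`.
-/

set_option autoImplicit false

open PowerSeries

namespace Crest.Agent.R013.Exp_863

variable {C R : Type*} [Field C] [CommRing R] [Algebra C R]

variable (C) in
/-- `s` is a non zero divisor and `C → R/s` is bijective -/
structure IsUnif (s : R) : Prop where
  nzd : ∀ a, s * a = 0 → a = 0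
  ex : ∀ f : R, ∃ c : C, s ∣ f - algebraMap C R c
  inj : ∀ c : C, s ∣ algebraMap C R c → c = 0

namespace IsUnif

variable {s : R} (h : IsUnif C s)

include h in
theorem ex' (f : R) : ∃ (c : C) (q : R), f = algebraMap C R c + s * q := by
  obtain ⟨c, q, hq⟩ := h.ex f
  exact ⟨c, q, by rw [← hq]; ring⟩

/-- constant term -/
noncomputable def c0 (f : R) : C := (h.ex' f).choose

/-- quotient -/
noncomputable def q (f : R) : R := (h.ex' f).choose_spec.choose

theorem eq (f : R) : f = algebraMap C R (h.c0 f) + s * h.q f := (h.ex' f).choose_spec.choose_spec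

include h in
theorem uniq {c c' : C} {a a' : R} (e : algebraMap C R c + s * a = algebraMap C R c' + s * a') :
    c = c' ∧ a = a' := by
  have h1 : c = c' := by
    have : s ∣ algebraMap C R (c - c') := ⟨a' - a, by
      rw [map_sub]; linear_combination e⟩
    exact sub_eq_zero.1 (h.inj _ this)
  refine ⟨h1, ?_⟩
  subst h1
  have : s * (a - a') = 0 := by linear_combination e
  exact sub_eq_zero.1 (h.nzd _ this)

theorem c0_q_of_eq {f : R} {c : C} {a : R} (e : f = algebraMap C R c + s * a) :
    h.c0 f = c ∧ h.q f = a := h.uniq ((h.eq f).symm.trans e)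

theorem c0_add (f g : R) : h.c0 (f + g) = h.c0 f + h.c0 g ∧ h.q (f + g) = h.q f + h.q g := by
  refine h.c0_q_of_eq ?_
  conv_lhs => rw [h.eq f, h.eq g]
  rw [map_add]; ring

theorem c0_mul (f g : R) : h.c0 (f * g) = h.c0 f * h.c0 g ∧
    h.q (f * g) = algebraMap C R (h.c0 f) * h.q g + h.q f * g := by
  refine h.c0_q_of_eq ?_
  have e : f * g = algebraMap C R (h.c0 f) * g + s * h.q f * g := by
    conv_lhs => rw [h.eq f]
    ring
  rw [e]
  have e2 : algebraMap C R (h.c0 f) * g = algebraMap C R (h.c0 f * h.c0 g) +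
      s * (algebraMap C R (h.c0 f) * h.q g) := by
    conv_lhs => rw [h.eq g]
    rw [map_mul]; ring
  rw [e2]; ring

theorem c0_const (c : C) : h.c0 (algebraMap C R c) = c ∧ h.q (algebraMap C R c) = 0 :=
  h.c0_q_of_eq (by simp)

theorem c0_s : h.c0 s = 0 ∧ h.q s = 1 := h.c0_q_of_eq (by simp)

/-- the expansion as a function -/
noncomputable def ex1 (f : R) : C⟦X⟧ := PowerSeries.mk fun n => h.c0 (h.q^[n] f)

theorem ex1_eq (f : R) : h.ex1 f = PowerSeries.C (h.c0 f) + X * h.ex1 (h.q f) := by
  ext n
  cases n with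
  | zero => simp [ex1]
  | succ n => simp [ex1, Function.iterate_succ_apply]

theorem coeff_zero_ex1 (f : R) : coeff 0 (h.ex1 f) = h.c0 f := by simp [ex1]

theorem coeff_succ_ex1 (n : ℕ) (f : R) : coeff (n + 1) (h.ex1 f) = coeff n (h.ex1 (h.q f)) := by
  simp [ex1, Function.iterate_succ_apply]

theorem ex1_add (f g : R) : h.ex1 (f + g) = h.ex1 f + h.ex1 g := by
  ext n
  induction n generalizing f g with
  | zero => rw [map_add, coeff_zero_ex1, coeff_zero_ex1, coeff_zero_ex1, (h.c0_add f g).1]
  | succ n ih =>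
    rw [coeff_succ_ex1, (h.c0_add f g).2, ih, map_add, map_add, coeff_succ_ex1, coeff_succ_ex1]

theorem ex1_const (c : C) : h.ex1 (algebraMap C R c) = PowerSeries.C c := by
  have h0 : h.ex1 0 = 0 := by
    have := h.ex1_add 0 0
    simpa using this
  rw [ex1_eq, (h.c0_const c).1, (h.c0_const c).2, h0]
  simp

theorem ex1_mul (f g : R) : h.ex1 (f * g) = h.ex1 f * h.ex1 g := by
  have key : ∀ (n : ℕ) (f g : R), coeff n (h.ex1 (f * g)) = coeff n (h.ex1 f * h.ex1 g) := by
    intro n
    induction n using Nat.strong_induction_on with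
    | _ n ih =>
      intro f g
      have e : h.ex1 f * h.ex1 g = PowerSeries.C (h.c0 f * h.c0 g) +
          X * (PowerSeries.C (h.c0 f) * h.ex1 (h.q g) + h.ex1 (h.q f) * h.ex1 g) := by
        conv_lhs => rw [h.ex1_eq f]
        rw [add_mul]
        conv_lhs => enter [1]; rw [h.ex1_eq g]
        rw [map_mul]; ring
      rw [e]
      cases n with
      | zero => simp [coeff_zero_ex1, (h.c0_mul f g).1]
      | succ n =>
        rw [coeff_succ_ex1, (h.c0_mul f g).2, map_add, coeff_succ_C, zero_add, coeff_succ_X_mul,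
          h.ex1_add, map_add, map_add, ih n (Nat.lt_succ_self n), ih n (Nat.lt_succ_self n),
          h.ex1_const]
  ext n
  exact key n f g

theorem ex1_s : h.ex1 s = X := by
  rw [ex1_eq, h.c0_s.1, h.c0_s.2]
  have : (1 : R) = algebraMap C R 1 := (map_one _).symm
  rw [this, h.ex1_const]
  simp

/-- **Expansion in powers of `s`.** -/
noncomputable def expand : R →ₐ[C] C⟦X⟧ where
  toFun := h.ex1
  map_one' := by
    have : (1 : R) = algebraMap C R 1 := (map_one _).symm
    rw [this, h.ex1_const, map_one]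
  map_mul' := h.ex1_mul
  map_zero' := by
    have := h.ex1_add 0 0
    simpa using this
  map_add' := h.ex1_add
  commutes' c := by
    rw [h.ex1_const]; rfl

@[simp] theorem expand_s : h.expand s = X := h.ex1_s

theorem constantCoeff_expand (f : R) : constantCoeff (h.expand f) = h.c0 f := by
  rw [← coeff_zero_eq_constantCoeff_apply]
  exact h.coeff_zero_ex1 f

theorem expand_eq (f : R) : h.expand f = PowerSeries.C (h.c0 f) + X * h.expand (h.q f) :=
  h.ex1_eq f

theorem dvd_iff (f : R) : s ∣ f ↔ constantCoeff (h.expand f) = 0 := by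
  rw [constantCoeff_expand]
  constructor
  · rintro ⟨a, rfl⟩
    exact (h.c0_q_of_eq (c := 0) (a := a) (by simp)).1
  · intro h0
    rw [h.eq f, h0]
    simp

theorem pow_dvd_iff (n : ℕ) (f : R) : s ^ n ∣ f ↔ X ^ n ∣ h.expand f := by
  induction n generalizing f with
  | zero => simp
  | succ n ih =>
    constructor
    · rintro ⟨a, rfl⟩
      exact ⟨h.expand a, by rw [map_mul, map_pow, expand_s]⟩
    · intro hd
      have h1 : s ∣ f := by
        rw [h.dvd_iff, ← X_dvd_iff]
        exact (dvd_pow_self X (Nat.succ_ne_zero n)).trans hd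
      obtain ⟨a, rfl⟩ := h1
      rw [map_mul, expand_s, pow_succ'] at hd
      have h2 : X ^ n ∣ h.expand a := by
        obtain ⟨b, hb⟩ := hd
        refine ⟨b, ?_⟩
        have : (X : C⟦X⟧) * (h.expand a - X ^ n * b) = 0 := by
          rw [mul_sub, hb]; ring
        rcases mul_eq_zero.1 this with h3 | h3
        · exact absurd h3 X_ne_zero
        · exact sub_eq_zero.1 h3
      rw [pow_succ']
      exact mul_dvd_mul_left s ((ih a).2 h2)

theorem expand_injective (hs : ∀ f : R, (∀ n, s ^ n ∣ f) → f = 0) :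
    Function.Injective h.expand := by
  rw [injective_iff_map_eq_zero]
  intro f hf
  refine hs f fun n => ?_
  rw [h.pow_dvd_iff, hf]
  exact dvd_zero _

end IsUnif

/-- a power series `X w`, `w(0) ≠ 0`, is a uniformizer of `C⟦X⟧` -/
theorem isUnif_X_mul (w : C⟦X⟧) (hw : constantCoeff w ≠ 0) : IsUnif C (X * w) where
  nzd a ha := by
    rcases mul_eq_zero.1 ha with h | h
    · rcases mul_eq_zero.1 h with h | h
      · exact absurd h X_ne_zero
      · rw [h] at hw; simp at hw
    · exact h
  ex f := by
    refine ⟨constantCoeff f, ?_⟩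
    have hu : IsUnit w := by
      rw [PowerSeries.isUnit_iff_constantCoeff]
      exact isUnit_iff_ne_zero.2 hw
    have h1 : (X : C⟦X⟧) ∣ f - algebraMap C C⟦X⟧ (constantCoeff f) := by
      rw [X_dvd_iff, map_sub]
      have : algebraMap C C⟦X⟧ (constantCoeff f) = PowerSeries.C (constantCoeff f) := rfl
      rw [this, constantCoeff_C, sub_self]
    exact hu.mul_right_dvd.2 h1
  inj c hc := by
    have h1 : (X : C⟦X⟧) ∣ algebraMap C C⟦X⟧ c := (dvd_mul_right X w).trans hc
    have : algebraMap C C⟦X⟧ c = PowerSeries.C c := rfl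
    rw [this, X_dvd_iff, constantCoeff_C] at h1
    exact h1

end Crest.Agent.R013.Exp_863
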