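import Mathlib

/-!
# Row 13, leaf TORS (helper235), part 1: the valuation of a prime of a factorial domain and
factorisation modulo `N`-th powers.
-/

set_option autoImplicit false

namespace Crest.Agent.R013.Tors1_235

open WithZero

section PV

variable {R : Type*} [CommRing R] [IsDomain R] [WfDvdMonoid R]

theorem fin_mult {π : R} (hπ : Prime π) {a : R} (ha : a ≠ 0) : FiniteMultiplicity π a :=
  FiniteMultiplicity.of_prime_left hπ ha

open Classical in
/-- the valuation of a prime, on the ring -/
noncomputable def rv {π : R} (hπ : Prime π) : Valuation R ℤᵐ⁰ where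
  toFun a := if a = 0 then 0 else exp (-(multiplicity π a : ℤ))
  map_zero' := by simp
  map_one' := by
    rw [if_neg one_ne_zero, multiplicity_of_one_right hπ.not_isUnit]
    simp
  map_mul' a b := by
    by_cases ha : a = 0
    · simp [ha]
    by_cases hb : b = 0
    · simp [hb]
    rw [if_neg (mul_ne_zero ha hb), if_neg ha, if_neg hb,
      multiplicity_mul hπ (fin_mult hπ (mul_ne_zero ha hb)), ← exp_add]
    congr 1
    push_cast
    ring
  map_add_le_max' a b := by
    by_cases ha : a = 0
    · simp [ha]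
    by_cases hb : b = 0
    · simp [hb]
    by_cases hab : a + b = 0
    · rw [if_pos hab]; exact zero_le
    rw [if_neg hab, if_neg ha, if_neg hb]
    have h1 : min (multiplicity π a) (multiplicity π b) ≤ multiplicity π (a + b) := by
      refine (fin_mult hπ hab).le_multiplicity_of_pow_dvd ?_
      refine dvd_add ?_ ?_
      · exact (pow_dvd_pow π (min_le_left _ _)).trans (pow_multiplicity_dvd π a)
      · exact (pow_dvd_pow π (min_le_right _ _)).trans (pow_multiplicity_dvd π b)
    rw [le_max_iff, exp_le_exp, exp_le_exp]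
    rcases min_choice (multiplicity π a) (multiplicity π b) with h | h <;> omega

theorem rv_apply {π : R} (hπ : Prime π) {a : R} (ha : a ≠ 0) :
    rv hπ a = exp (-(multiplicity π a : ℤ)) := by
  classical
  exact if_neg ha

variable (M : Type*) [Field M] [Algebra R M] [IsFractionRing R M]

theorem supp_le {π : R} (hπ : Prime π) : nonZeroDivisors R ≤ (rv hπ).supp.primeCompl := by
  intro a ha h
  have ha0 : a ≠ 0 := nonZeroDivisors.ne_zero ha
  have h1 : rv hπ a = 0 := h
  rw [rv_apply hπ ha0] at h1
  exact exp_ne_zero h1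

/-- the valuation of a prime, on the fraction field -/
noncomputable def pv {π : R} (hπ : Prime π) : Valuation M ℤᵐ⁰ :=
  (rv hπ).extendToLocalization (supp_le hπ) M

theorem pv_algebraMap {π : R} (hπ : Prime π) (a : R) : pv M hπ (algebraMap R M a) = rv hπ a :=
  Valuation.extendToLocalization_apply_map_apply _ _ _ _

theorem pv_le_one {π : R} (hπ : Prime π) (a : R) : pv M hπ (algebraMap R M a) ≤ 1 := by
  rw [pv_algebraMap]
  by_cases ha : a = 0
  · simp [ha]
  · rw [rv_apply hπ ha, ← exp_zero, exp_le_exp]; omega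

theorem pv_lt_one_iff {π : R} (hπ : Prime π) (a : R) :
    pv M hπ (algebraMap R M a) < 1 ↔ π ∣ a := by
  rw [pv_algebraMap]
  by_cases ha : a = 0
  · simp [ha]
  · rw [rv_apply hπ ha, ← exp_zero, exp_lt_exp]
    constructor
    · intro h
      by_contra h2
      have := multiplicity_eq_zero.2 h2
      omega
    · intro h
      have := multiplicity_ne_zero.2 h
      omega

theorem pv_eq_one_iff {π : R} (hπ : Prime π) (a : R) :
    pv M hπ (algebraMap R M a) = 1 ↔ ¬ π ∣ a := by
  rw [← pv_lt_one_iff M hπ a, not_lt]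
  exact ⟨fun h => h.ge, fun h => le_antisymm (pv_le_one M hπ a) h⟩

theorem pv_self {π : R} (hπ : Prime π) : pv M hπ (algebraMap R M π) = exp (-1) := by
  rw [pv_algebraMap, rv_apply hπ hπ.ne_zero, multiplicity_self]
  simp

theorem pv_unit {π : R} (hπ : Prime π) (u : Rˣ) : pv M hπ (algebraMap R M u) = 1 := by
  rw [pv_eq_one_iff]
  intro h
  exact hπ.not_isUnit (isUnit_of_dvd_unit h u.isUnit)

end PV

section Fact

variable {R : Type*} [CommRing R] [IsDomain R] [UniqueFactorizationMonoid R]

/-- an element of a factorial domain whose multiplicities outside a finite set of primes are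
divisible by `N` is a product of a unit, elements of the set and an `N`-th power -/
theorem fact_ring {ι : Type*} [Fintype ι] (q : ι → R) (N : ℕ) (a : R) (ha : a ≠ 0)
    (h : ∀ π : R, Prime π → (∀ i, ¬ Associated π (q i)) → N ∣ multiplicity π a) :
    ∃ (u : Rˣ) (e : ι → ℕ) (g : R), g ≠ 0 ∧ a = u * (∏ i, q i ^ e i) * g ^ N := by
  classical
  induction a using UniqueFactorizationMonoid.induction_on_coprime with
  | h0 => exact absurd rfl ha
  | h1 hx =>
    obtain ⟨u, rfl⟩ := hx
    exact ⟨u, fun _ => 0, 1, one_ne_zero, by simp⟩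
  | @hpr p i hp =>
    by_cases hq : ∃ j, Associated p (q j)
    · obtain ⟨j, hj⟩ := hq
      obtain ⟨v, hv⟩ := (hj.pow_pow (n := i)).symm
      refine ⟨v, fun j' => if j' = j then i else 0, 1, one_ne_zero, ?_⟩
      have h1 : (∏ j', q j' ^ (if j' = j then i else 0)) = q j ^ i := by
        rw [Finset.prod_eq_single j]
        · simp
        · intro b _ hb
          simp [hb]
        · intro hj
          exact absurd (Finset.mem_univ j) hj
      rw [h1, ← hv]
      ring
    · push Not at hq
      have h1 := h p hp hq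
      rw [multiplicity_pow_self_of_prime hp] at h1
      obtain ⟨m, hm⟩ := h1
      refine ⟨1, fun _ => 0, p ^ m, pow_ne_zero _ hp.ne_zero, ?_⟩
      rw [← pow_mul, hm, mul_comm m N]
      simp
  | @hcp x y hxy hx hy =>
    have hx0 : x ≠ 0 := left_ne_zero_of_mul ha
    have hy0 : y ≠ 0 := right_ne_zero_of_mul ha
    have key : ∀ π : R, Prime π → (∀ i, ¬ Associated π (q i)) →
        N ∣ multiplicity π x ∧ N ∣ multiplicity π y := by
      intro π hπ hπq
      have h1 := h π hπ hπq
      rw [multiplicity_mul hπ (fin_mult hπ ha)] at h1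
      by_cases hd : π ∣ x
      · have hd' : ¬ π ∣ y := fun hd' => hπ.not_isUnit (hxy hd hd')
        have h2 := multiplicity_eq_zero.2 hd'
        rw [h2] at h1 ⊢
        exact ⟨h1, dvd_zero _⟩
      · have h2 := multiplicity_eq_zero.2 hd
        rw [h2] at h1 ⊢
        rw [zero_add] at h1
        exact ⟨dvd_zero _, h1⟩
    obtain ⟨u, e, g, hg, hx1⟩ := hx hx0 (fun π hπ hq => (key π hπ hq).1)
    obtain ⟨u', e', g', hg', hy1⟩ := hy hy0 (fun π hπ hq => (key π hπ hq).2)
    refine ⟨u * u', fun i => e i + e' i, g * g', mul_ne_zero hg hg', ?_⟩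
    conv_lhs => rw [hx1, hy1]
    simp only [pow_add, Finset.prod_mul_distrib, Units.val_mul, mul_pow]
    ring

/-- the same for an element of the fraction field -/
theorem fact_field (M : Type*) [Field M] [Algebra R M] [IsFractionRing R M]
    {ι : Type*} [Fintype ι] (q : ι → R) {N : ℕ} (hN : 0 < N) (h : M) (h0 : h ≠ 0)
    (hyp : ∀ (π : R) (hπ : Prime π), (∀ i, ¬ Associated π (q i)) →
      (N : ℤ) ∣ log (pv M hπ h)) :
    ∃ (u : Rˣ) (e : ι → ℕ) (g : M), g ≠ 0 ∧
      h = algebraMap R M u * (∏ i, algebraMap R M (q i) ^ e i) * g ^ N := by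
  obtain ⟨a, b, hb, rfl⟩ := IsFractionRing.div_surjective (A := R) h
  have hb0 : b ≠ 0 := nonZeroDivisors.ne_zero hb
  have hbM : algebraMap R M b ≠ 0 := by
    simpa using hb0
  have ha0 : a ≠ 0 := by
    rintro rfl
    simp at h0
  have haM : algebraMap R M a ≠ 0 := by
    simpa using ha0
  obtain ⟨u, e, g, hg, h1⟩ := fact_ring q N (a * b ^ (N - 1)) (mul_ne_zero ha0 (pow_ne_zero _ hb0))
    (by
      intro π hπ hq
      have h2 := hyp π hπ hq
      rw [map_div₀, pv_algebraMap, pv_algebraMap, rv_apply hπ ha0, rv_apply hπ hb0,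
        ← exp_sub, log_exp] at h2
      rw [multiplicity_mul hπ (fin_mult hπ (mul_ne_zero ha0 (pow_ne_zero _ hb0))),
        (fin_mult hπ hb0).multiplicity_pow hπ]
      obtain ⟨m, rfl⟩ : ∃ m, N = m + 1 := ⟨N - 1, by omega⟩
      rw [Nat.add_sub_cancel]
      have h3 : ((m + 1 : ℕ) : ℤ) ∣ ((multiplicity π a + m * multiplicity π b : ℕ) : ℤ) := by
        push_cast at h2 ⊢
        obtain ⟨k, hk⟩ := h2
        exact ⟨multiplicity π b - k, by linear_combination -hk⟩
      exact_mod_cast h3)
  refine ⟨u, e, algebraMap R M g / algebraMap R M b, div_ne_zero (by simpa using hg) hbM, ?_⟩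
  have h2 := congrArg (algebraMap R M) h1
  rw [map_mul, map_pow, map_mul, map_mul, map_pow, map_prod] at h2
  simp only [map_pow] at h2
  rw [div_pow, mul_div_assoc', ← h2, div_eq_div_iff hbM (pow_ne_zero _ hbM), mul_assoc]
  congr 1
  obtain ⟨m, rfl⟩ : ∃ m, N = m + 1 := ⟨N - 1, by omega⟩
  rw [Nat.add_sub_cancel, pow_succ]

end Fact

end Crest.Agent.R013.Tors1_235
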