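import Mathlib
import Crest.Agent.R013.Tors1_235

/-!
# Row 13, leaf TORS (helper235), part 2: reduction modulo a prime `δ` of a factorial domain with a
section `C : S → R` of `R → R/δ`, and the order of the leading coefficient along `δ`.
-/

set_option autoImplicit false
set_option linter.all false

namespace Crest.Agent.R013.Tors2_235

open WithZero
open Crest.Agent.R013.Tors1_235

section Red

variable {R S : Type*} [CommRing R] [CommRing S]

/-- `C : S → R/δ` is bijective -/
structure IsRed (C : S →+* R) (δ : R) : Prop where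
  ex : ∀ f : R, ∃ r : S, δ ∣ f - C r
  inj : ∀ r : S, δ ∣ C r → r = 0

variable {C : S →+* R} {δ : R} (h : IsRed C δ)

namespace IsRed

/-- the reduction, as a function -/
noncomputable def rf (f : R) : S := (h.ex f).choose

theorem dvd_sub_rf (f : R) : δ ∣ f - C (h.rf f) := (h.ex f).choose_spec

theorem rf_eq {f : R} {r : S} (hr : δ ∣ f - C r) : h.rf f = r := by
  have h1 : δ ∣ C (h.rf f - r) := by
    have h2 := dvd_sub hr (h.dvd_sub_rf f)
    rw [map_sub]
    convert h2 using 1
    ring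
  exact sub_eq_zero.1 (h.inj _ h1)

/-- the reduction -/
noncomputable def ρ : R →+* S where
  toFun := h.rf
  map_one' := h.rf_eq (by simp)
  map_zero' := h.rf_eq (by simp)
  map_add' f g := h.rf_eq (by
    have h2 := dvd_add (h.dvd_sub_rf f) (h.dvd_sub_rf g)
    rw [map_add]
    convert h2 using 1
    ring)
  map_mul' f g := h.rf_eq (by
    have h2 := dvd_add ((h.dvd_sub_rf f).mul_right g) ((h.dvd_sub_rf g).mul_left (C (h.rf f)))
    rw [map_mul]
    convert h2 using 1
    ring)

theorem dvd_sub (f : R) : δ ∣ f - C (h.ρ f) := h.dvd_sub_rf f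

theorem ρ_eq {f : R} {r : S} (hr : δ ∣ f - C r) : h.ρ f = r := h.rf_eq hr

@[simp] theorem ρ_C (r : S) : h.ρ (C r) = r := h.ρ_eq (by simp)

theorem ρ_eq_zero_iff (f : R) : h.ρ f = 0 ↔ δ ∣ f := by
  constructor
  · intro h0
    have := h.dvd_sub f
    rwa [h0, map_zero, sub_zero] at this
  · intro hd
    exact h.ρ_eq (by rwa [map_zero, sub_zero])

end IsRed

end Red

section Nu

variable {R S : Type*} [CommRing R] [IsDomain R] [WfDvdMonoid R] [CommRing S] [IsDomain S]
  [WfDvdMonoid S] {C : S →+* R} {δ : R} (h : IsRed C δ) (hδ : Prime δ) {τ : S} (hτ : Prime τ)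

/-- the cofactor of the maximal power of `δ` -/
noncomputable def cof (δ : R) (a : R) : R := (pow_multiplicity_dvd δ a).choose

theorem eq_cof (δ a : R) : a = δ ^ multiplicity δ a * cof δ a :=
  (pow_multiplicity_dvd δ a).choose_spec

include hδ in
theorem not_dvd_cof {a : R} (ha : a ≠ 0) : ¬ δ ∣ cof δ a := by
  intro hd
  apply (fin_mult hδ ha).not_pow_dvd_of_multiplicity_lt (Nat.lt_succ_self _)
  obtain ⟨c, hc⟩ := hd
  refine ⟨c, ?_⟩
  conv_lhs => rw [eq_cof δ a, hc]
  rw [pow_succ]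
  ring

include hδ in
theorem cof_eq {a b : R} {m : ℕ} (hab : a = δ ^ m * b) (hb : ¬ δ ∣ b) : cof δ a = b := by
  have h1 : multiplicity δ a = m := by
    apply multiplicity_eq_of_dvd_of_not_dvd
    · exact ⟨b, hab⟩
    · rintro ⟨c, hc⟩
      rw [hab, pow_succ, mul_assoc] at hc
      exact hb ⟨c, mul_left_cancel₀ (pow_ne_zero _ hδ.ne_zero) hc⟩
  have h2 := eq_cof δ a
  rw [h1] at h2
  exact (mul_left_cancel₀ (pow_ne_zero m hδ.ne_zero) (hab.symm.trans h2)).symm

include hδ in
theorem cof_mul {a b : R} (ha : a ≠ 0) (hb : b ≠ 0) : cof δ (a * b) = cof δ a * cof δ b := by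
  apply cof_eq hδ (m := multiplicity δ a + multiplicity δ b)
  · conv_lhs => rw [eq_cof δ a, eq_cof δ b]
    ring
  · intro hd
    rcases hδ.dvd_or_dvd hd with h1 | h1
    · exact not_dvd_cof hδ ha h1
    · exact not_dvd_cof hδ hb h1

variable (τ) in
/-- order at `τ` of the leading coefficient along `δ` -/
noncomputable def nu0 (a : R) : ℤ := multiplicity τ (h.ρ (cof δ a))

include hδ in
theorem nu0_of_not_dvd {a : R} (ha : ¬ δ ∣ a) : nu0 h τ a = multiplicity τ (h.ρ a) := by
  unfold nu0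
  rw [cof_eq hδ (m := 0) (by simp) ha]

include hδ hτ in
theorem nu0_mul {a b : R} (ha : a ≠ 0) (hb : b ≠ 0) :
    nu0 h τ (a * b) = nu0 h τ a + nu0 h τ b := by
  unfold nu0
  have h1 : h.ρ (cof δ a) ≠ 0 := fun h0 => not_dvd_cof hδ ha ((h.ρ_eq_zero_iff _).1 h0)
  have h2 : h.ρ (cof δ b) ≠ 0 := fun h0 => not_dvd_cof hδ hb ((h.ρ_eq_zero_iff _).1 h0)
  rw [cof_mul hδ ha hb, map_mul, multiplicity_mul hτ (fin_mult hτ (mul_ne_zero h1 h2))]
  push_cast
  ring

variable {M : Type*} [Field M] [Algebra R M] [IsFractionRing R M]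

variable (τ) in
/-- the same on the fraction field -/
noncomputable def nu (z : M) : ℤ :=
  nu0 h τ (IsLocalization.sec (nonZeroDivisors R) z).1 -
    nu0 h τ ((IsLocalization.sec (nonZeroDivisors R) z).2 : R)

include hδ hτ in
theorem nu_div {a b : R} (ha : a ≠ 0) (hb : b ≠ 0) :
    nu h τ (algebraMap R M a / algebraMap R M b) = nu0 h τ a - nu0 h τ b := by
  set z := algebraMap R M a / algebraMap R M b with hz
  have hz' := IsLocalization.sec_spec (nonZeroDivisors R) z
  have hdef : nu h τ z = nu0 h τ (IsLocalization.sec (nonZeroDivisors R) z).1 -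
    nu0 h τ ((IsLocalization.sec (nonZeroDivisors R) z).2 : R) := rfl
  have hb' : ((IsLocalization.sec (nonZeroDivisors R) z).2 : R) ≠ 0 :=
    nonZeroDivisors.ne_zero (IsLocalization.sec (nonZeroDivisors R) z).2.2
  generalize ((IsLocalization.sec (nonZeroDivisors R) z).2 : R) = b' at hz' hdef hb'
  generalize (IsLocalization.sec (nonZeroDivisors R) z).1 = a' at hz' hdef
  have hbM : algebraMap R M b ≠ 0 := by simpa using hb
  have hb'M : algebraMap R M b' ≠ 0 := by simpa using hb'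
  have haM : algebraMap R M a ≠ 0 := by simpa using ha
  have ha' : a' ≠ 0 := by
    rintro rfl
    rw [map_zero, hz] at hz'
    exact mul_ne_zero (div_ne_zero haM hbM) hb'M hz'
  have h1 : algebraMap R M (a' * b) = algebraMap R M (a * b') := by
    rw [map_mul, map_mul, ← hz', hz]
    field_simp
  have h2 : a' * b = a * b' := IsFractionRing.injective R M h1
  have h3 := congrArg (nu0 h τ) h2
  rw [nu0_mul h hδ hτ ha' hb, nu0_mul h hδ hτ ha hb'] at h3
  rw [hdef]
  linarith

include hδ in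
theorem nu0_one : nu0 h τ (1 : R) = 0 ∨ ¬ Prime τ := by
  by_cases hτ : Prime τ
  · left
    rw [nu0_of_not_dvd h hδ (fun hd => hδ.not_isUnit (isUnit_of_dvd_one hd)), map_one,
      multiplicity_of_one_right hτ.not_isUnit]
    rfl
  · exact Or.inr hτ

include hδ hτ in
theorem nu_algebraMap {a : R} (ha : a ≠ 0) : nu h τ (algebraMap R M a) = nu0 h τ a := by
  have h1 := nu_div (M := M) h hδ hτ ha one_ne_zero
  rw [map_one, div_one] at h1
  rw [h1, (nu0_one h hδ).resolve_right (not_not.2 hτ), sub_zero]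

include hδ hτ in
theorem nu_mul {y z : M} (hy : y ≠ 0) (hz : z ≠ 0) : nu h τ (y * z) = nu h τ y + nu h τ z := by
  obtain ⟨a, b, hb, rfl⟩ := IsFractionRing.div_surjective (A := R) y
  obtain ⟨c, d, hd, rfl⟩ := IsFractionRing.div_surjective (A := R) z
  have hb0 : b ≠ 0 := nonZeroDivisors.ne_zero hb
  have hd0 : d ≠ 0 := nonZeroDivisors.ne_zero hd
  have ha0 : a ≠ 0 := by rintro rfl; simp at hy
  have hc0 : c ≠ 0 := by rintro rfl; simp at hz
  rw [div_mul_div_comm, ← map_mul, ← map_mul, nu_div h hδ hτ (mul_ne_zero ha0 hc0)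
    (mul_ne_zero hb0 hd0), nu_div h hδ hτ ha0 hb0, nu_div h hδ hτ hc0 hd0, nu0_mul h hδ hτ ha0 hc0,
    nu0_mul h hδ hτ hb0 hd0]
  ring

include hδ hτ in
theorem nu_one : nu h τ (1 : M) = 0 := by
  have h1 := nu_mul (M := M) h hδ hτ (one_ne_zero (α := M)) one_ne_zero
  rw [mul_one] at h1
  linarith

include hδ hτ in
theorem nu_pow {y : M} (hy : y ≠ 0) (n : ℕ) : nu h τ (y ^ n) = n * nu h τ y := by
  induction n with
  | zero => simp [nu_one h hδ hτ]
  | succ n ih =>
    rw [pow_succ, nu_mul h hδ hτ (pow_ne_zero n hy) hy, ih]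
    push_cast
    ring

include hδ hτ in
theorem nu_inv {y : M} (hy : y ≠ 0) : nu h τ y⁻¹ = - nu h τ y := by
  have h1 := nu_mul (M := M) h hδ hτ hy (inv_ne_zero hy)
  rw [mul_inv_cancel₀ hy, nu_one h hδ hτ] at h1
  linarith

include hδ hτ in
theorem nu_zpow {y : M} (hy : y ≠ 0) (n : ℤ) : nu h τ (y ^ n) = n * nu h τ y := by
  obtain ⟨m, rfl | rfl⟩ := n.eq_nat_or_neg
  · rw [zpow_natCast, nu_pow h hδ hτ hy]
  · rw [zpow_neg, zpow_natCast, nu_inv h hδ hτ (pow_ne_zero _ hy), nu_pow h hδ hτ hy]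
    ring

include hδ hτ in
theorem nu_delta : nu h τ (algebraMap R M δ) = 0 := by
  rw [nu_algebraMap h hδ hτ hδ.ne_zero]
  unfold nu0
  rw [cof_eq hδ (a := δ) (b := 1) (m := 1) (by simp)
    (fun hd => hδ.not_isUnit (isUnit_of_dvd_one hd)), map_one,
    multiplicity_of_one_right hτ.not_isUnit]
  rfl

include hδ hτ in
theorem nu_unit (u : Rˣ) : nu h τ (algebraMap R M u) = 0 := by
  rw [nu_algebraMap h hδ hτ u.ne_zero, nu0_of_not_dvd h hδ
    (fun hd => hδ.not_isUnit (isUnit_of_dvd_unit hd u.isUnit))]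
  have h1 : ¬ τ ∣ h.ρ u := fun hd => hτ.not_isUnit (isUnit_of_dvd_unit hd (u.isUnit.map h.ρ))
  rw [multiplicity_eq_zero.2 h1]
  rfl

include hδ hτ in
theorem nu_of_not_dvd {a : R} (ha : ¬ δ ∣ a) :
    nu h τ (algebraMap R M a) = multiplicity τ (h.ρ a) := by
  rw [nu_algebraMap h hδ hτ (by rintro rfl; exact ha (dvd_zero _)), nu0_of_not_dvd h hδ ha]

include hδ hτ in
/-- the order of the leading coefficient of an element which is congruent to a constant -/
theorem nu_of_lt {z : M} {r : S} (hr : r ≠ 0)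
    (hz : pv M hδ (z - algebraMap R M (C r)) < 1) : nu h τ z = multiplicity τ r := by
  have hCr : ¬ δ ∣ C r := fun hd => hr (h.inj r hd)
  have h1 : pv M hδ z = 1 := by
    have h2 : pv M hδ (algebraMap R M (C r)) = 1 := (pv_eq_one_iff M hδ _).2 hCr
    have h3 := Valuation.map_add_eq_of_lt_right (v := pv M hδ)
      (x := z - algebraMap R M (C r)) (y := algebraMap R M (C r)) (by rw [h2]; exact hz)
    rwa [sub_add_cancel, h2] at h3
  obtain ⟨a, b, hb, rfl⟩ := IsFractionRing.div_surjective (A := R) z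
  have hb0 : b ≠ 0 := nonZeroDivisors.ne_zero hb
  have ha0 : a ≠ 0 := by
    rintro rfl
    simp at h1
  have hbM : algebraMap R M b ≠ 0 := by simpa using hb0
  have hm : multiplicity δ a = multiplicity δ b := by
    rw [map_div₀, pv_algebraMap, pv_algebraMap, rv_apply hδ ha0, rv_apply hδ hb0,
      ← exp_sub, ← exp_zero, exp_inj] at h1
    omega
  have hcb : cof δ b ≠ 0 := by
    intro h0; exact not_dvd_cof hδ hb0 (by rw [h0]; exact dvd_zero _)
  have hcbM : algebraMap R M (cof δ b) ≠ 0 := by simpa using hcb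
  have h2 : algebraMap R M a / algebraMap R M b =
      algebraMap R M (cof δ a) / algebraMap R M (cof δ b) := by
    rw [div_eq_div_iff hbM hcbM, ← map_mul, ← map_mul]
    congr 1
    conv_lhs => rw [eq_cof δ a]
    conv_rhs => rw [eq_cof δ b]
    rw [hm]
    ring
  rw [nu_div h hδ hτ ha0 hb0]
  have h3 : δ ∣ cof δ a - C r * cof δ b := by
    rw [← pv_lt_one_iff M hδ]
    rw [h2] at hz
    have h4 : algebraMap R M (cof δ a - C r * cof δ b) =
        (algebraMap R M (cof δ a) / algebraMap R M (cof δ b) - algebraMap R M (C r)) *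
          algebraMap R M (cof δ b) := by
      rw [map_sub, map_mul]
      field_simp
    rw [h4, map_mul, (pv_eq_one_iff M hδ _).2 (not_dvd_cof hδ hb0), mul_one]
    exact hz
  have h5 : h.ρ (cof δ a) = r * h.ρ (cof δ b) := by
    have := (h.ρ_eq_zero_iff _).2 h3
    rw [map_sub, map_mul, h.ρ_C] at this
    exact sub_eq_zero.1 this
  unfold nu0
  have h6 : h.ρ (cof δ b) ≠ 0 := fun h0 => not_dvd_cof hδ hb0 ((h.ρ_eq_zero_iff _).1 h0)
  rw [h5, multiplicity_mul hτ (fin_mult hτ (mul_ne_zero hr h6))]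
  push_cast
  ring

end Nu

end Crest.Agent.R013.Tors2_235
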