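import Mathlib
import Crest.Agent.R013.Tors2_235

/-!
# Row 13, leaf TORS (helper235), part 3: the ring `F⟦t⟧⟦X⟧`, the primes `t`, `X`, `X - t` and the
relation between orders and leading coefficients.
-/

set_option autoImplicit false
set_option linter.all false

namespace Crest.Agent.R013.Tors3_235

open WithZero PowerSeries
open Crest.Agent.R013.Tors1_235 Crest.Agent.R013.Tors2_235

variable {F : Type*} [Field F]

theorem prime_of_lin (f : (F⟦X⟧)⟦X⟧) (h0 : constantCoeff (constantCoeff f) = 0)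
    (h1 : coeff 1 (constantCoeff f) ≠ 0 ∨ constantCoeff (coeff 1 f) ≠ 0) : Prime f := by
  rw [← irreducible_iff_prime]
  have key : ∀ a : (F⟦X⟧)⟦X⟧, ¬ IsUnit a → constantCoeff (constantCoeff a) = 0 := by
    intro a ha
    by_contra h2
    apply ha
    rw [PowerSeries.isUnit_iff_constantCoeff, PowerSeries.isUnit_iff_constantCoeff]
    exact isUnit_iff_ne_zero.2 h2
  constructor
  · intro hu
    rw [PowerSeries.isUnit_iff_constantCoeff, PowerSeries.isUnit_iff_constantCoeff, h0] at hu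
    exact not_isUnit_zero hu
  · intro a b hab
    by_contra hcon
    push Not at hcon
    have ha := key a hcon.1
    have hb := key b hcon.2
    rcases h1 with h1 | h1
    · apply h1
      rw [hab, map_mul, coeff_mul]
      rw [show Finset.HasAntidiagonal.antidiagonal 1 = {((0 : ℕ), (1 : ℕ)), (1, 0)} from rfl]
      rw [Finset.sum_pair (by decide)]
      simp only [coeff_zero_eq_constantCoeff_apply]
      rw [ha, hb]
      simp
    · apply h1
      rw [hab, coeff_mul]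
      rw [show Finset.HasAntidiagonal.antidiagonal 1 = {((0 : ℕ), (1 : ℕ)), (1, 0)} from rfl]
      rw [Finset.sum_pair (by decide)]
      simp only [coeff_zero_eq_constantCoeff_apply, map_add, map_mul]
      rw [ha, hb]
      simp

variable (F) in
/-- the inner variable -/
noncomputable def tt : (F⟦X⟧)⟦X⟧ := C X

variable (F) in
/-- the difference of the variables -/
noncomputable def dd : (F⟦X⟧)⟦X⟧ := X - C X

theorem prime_tt : Prime (tt F) := by
  apply prime_of_lin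
  · simp [tt]
  · left
    simp [tt]

theorem prime_XX : Prime (X : (F⟦X⟧)⟦X⟧) := X_prime

theorem prime_dd : Prime (dd F) := by
  apply prime_of_lin
  · simp [dd]
  · right
    simp [dd, coeff_one_X, coeff_C]

theorem isRed_X : IsRed (C : F⟦X⟧ →+* (F⟦X⟧)⟦X⟧) X where
  ex f := ⟨constantCoeff f, by
    rw [X_dvd_iff, map_sub, constantCoeff_C, sub_self]⟩
  inj r hr := by
    rwa [X_dvd_iff, constantCoeff_C] at hr

/-- `∑_j t^j f_(i+j)` -/
noncomputable def gs (f : (F⟦X⟧)⟦X⟧) (i : ℕ) : F⟦X⟧ :=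
  PowerSeries.mk fun n => ∑ p ∈ Finset.HasAntidiagonal.antidiagonal n, coeff p.1 (coeff (i + p.2) f)

theorem gs_eq (f : (F⟦X⟧)⟦X⟧) (i : ℕ) : gs f i = coeff i f + X * gs f (i + 1) := by
  ext n
  cases n with
  | zero => simp [gs]
  | succ n =>
    rw [map_add, coeff_succ_X_mul]
    simp only [gs, coeff_mk]
    rw [Finset.Nat.antidiagonal_succ', Finset.sum_cons]
    congr 1
    rw [Finset.sum_map]
    refine Finset.sum_congr rfl fun p _ => ?_
    show coeff p.1 (coeff (i + (p.2 + 1)) f) = _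
    rw [show i + (p.2 + 1) = i + 1 + p.2 by omega]

theorem isRed_dd : IsRed (C : F⟦X⟧ →+* (F⟦X⟧)⟦X⟧) (dd F) where
  ex f := ⟨gs f 0, PowerSeries.mk fun i => gs f (i + 1), by
    ext1 i
    cases i with
    | zero =>
      rw [map_sub, coeff_zero_C]
      simp only [dd, sub_mul, map_sub, coeff_zero_X_mul, coeff_C_mul, coeff_mk]
      rw [gs_eq f 0]
      ring
    | succ i =>
      rw [map_sub, coeff_succ_C]
      simp only [dd, sub_mul, map_sub, coeff_succ_X_mul, coeff_C_mul, coeff_mk]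
      rw [gs_eq f (i + 1)]
      ring⟩
  inj r hr := by
    obtain ⟨q, hq⟩ := hr
    have h1 : ∀ i, coeff i q = X * coeff (i + 1) q := by
      intro i
      have h2 := congrArg (coeff (i + 1)) hq
      simp only [dd, sub_mul, map_sub, coeff_succ_X_mul, coeff_C_mul, coeff_succ_C] at h2
      exact (sub_eq_zero.1 h2.symm)
    have h2 : ∀ (k i : ℕ), X ^ k ∣ coeff i q := by
      intro k
      induction k with
      | zero => intro i; simp
      | succ k ih =>
        intro i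
        rw [h1 i, pow_succ']
        exact mul_dvd_mul_left X (ih (i + 1))
    have h3 : q = 0 := by
      ext i m
      have h4 := X_pow_dvd_iff.1 (h2 (m + 1) i) m (Nat.lt_succ_self m)
      rw [h4]
      simp
    rw [h3, mul_zero] at hq
    have h5 := congrArg constantCoeff hq
    simpa using h5

theorem ρX_apply (f : (F⟦X⟧)⟦X⟧) : (isRed_X (F := F)).ρ f = constantCoeff f :=
  (isRed_X (F := F)).ρ_eq (by rw [X_dvd_iff, map_sub, constantCoeff_C, sub_self])

theorem ρX_tt : (isRed_X (F := F)).ρ (tt F) = X := by rw [ρX_apply]; simp [tt]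

theorem ρX_dd : (isRed_X (F := F)).ρ (dd F) = - X := by rw [ρX_apply]; simp [dd]

theorem ρd_tt : (isRed_dd (F := F)).ρ (tt F) = X := (isRed_dd (F := F)).ρ_C X

theorem ρd_X : (isRed_dd (F := F)).ρ X = X := (isRed_dd (F := F)).ρ_eq (by
  rw [dd])

theorem not_X_dvd_tt : ¬ (X : (F⟦X⟧)⟦X⟧) ∣ tt F := by
  rw [← (isRed_X (F := F)).ρ_eq_zero_iff, ρX_tt]; exact X_ne_zero

theorem not_X_dvd_dd : ¬ (X : (F⟦X⟧)⟦X⟧) ∣ dd F := by
  rw [← (isRed_X (F := F)).ρ_eq_zero_iff, ρX_dd, neg_eq_zero]; exact X_ne_zero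

theorem not_dd_dvd_tt : ¬ dd F ∣ tt F := by
  rw [← (isRed_dd (F := F)).ρ_eq_zero_iff, ρd_tt]; exact X_ne_zero

theorem not_dd_dvd_X : ¬ dd F ∣ X := by
  rw [← (isRed_dd (F := F)).ρ_eq_zero_iff, ρd_X]; exact X_ne_zero

theorem not_tt_dvd_of {f : (F⟦X⟧)⟦X⟧} (h : constantCoeff (coeff 1 f) ≠ 0) : ¬ tt F ∣ f := by
  rintro ⟨q, rfl⟩
  apply h
  simp [tt]

theorem not_tt_dvd_X : ¬ tt F ∣ X := not_tt_dvd_of (by simp)

theorem not_tt_dvd_dd : ¬ tt F ∣ dd F := not_tt_dvd_of (by simp [dd, coeff_C])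

variable {M : Type*} [Field M] [Algebra ((F⟦X⟧)⟦X⟧) M] [IsFractionRing ((F⟦X⟧)⟦X⟧) M]

/-- order of the leading coefficient along `X = 0` -/
noncomputable def nuX (z : M) : ℤ := nu (isRed_X (F := F)) X z

/-- order of the leading coefficient along the diagonal -/
noncomputable def nuD (z : M) : ℤ := nu (isRed_dd (F := F)) X z

theorem algebraMap_ne {f : (F⟦X⟧)⟦X⟧} (hf : f ≠ 0) : algebraMap _ M f ≠ 0 := by
  simpa using hf

theorem nuX_tt : nuX (F := F) (algebraMap _ M (tt F)) = 1 := by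
  unfold nuX
  rw [nu_of_not_dvd isRed_X prime_XX X_prime not_X_dvd_tt, ρX_tt, multiplicity_self]
  rfl

theorem nuX_dd : nuX (F := F) (algebraMap _ M (dd F)) = 1 := by
  unfold nuX
  rw [nu_of_not_dvd isRed_X prime_XX X_prime not_X_dvd_dd, ρX_dd, multiplicity_neg,
    multiplicity_self]
  rfl

theorem nuX_X : nuX (F := F) (algebraMap ((F⟦X⟧)⟦X⟧) M X) = 0 := nu_delta isRed_X prime_XX X_prime

theorem nuD_tt : nuD (F := F) (algebraMap _ M (tt F)) = 1 := by
  unfold nuD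
  rw [nu_of_not_dvd isRed_dd prime_dd X_prime not_dd_dvd_tt, ρd_tt, multiplicity_self]
  rfl

theorem nuD_X : nuD (F := F) (algebraMap ((F⟦X⟧)⟦X⟧) M X) = 1 := by
  unfold nuD
  rw [nu_of_not_dvd isRed_dd prime_dd X_prime not_dd_dvd_X, ρd_X, multiplicity_self]
  rfl

theorem nuD_dd : nuD (F := F) (algebraMap _ M (dd F)) = 0 := nu_delta isRed_dd prime_dd X_prime

variable (M) in
theorem pv_of_not_dvd {R : Type*} [CommRing R] [IsDomain R] [WfDvdMonoid R] [Algebra R M]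
    [IsFractionRing R M] {π a : R} (hπ : Prime π) (ha : ¬ π ∣ a) :
    log (pv M hπ (algebraMap R M a)) = 0 := by
  rw [(pv_eq_one_iff M hπ a).2 ha, ← exp_zero, log_exp]

theorem fact_hom {R : Type*} [CommRing R] [IsDomain R] [UniqueFactorizationMonoid R]
    {M : Type*} [Field M] [Algebra R M] [IsFractionRing R M]
    {ι : Type*} [Fintype ι] (q : ι → R) (hq : ∀ i, q i ≠ 0) {N : ℕ} (hN : 0 < N) (h : M)
    (h0 : h ≠ 0)
    (hyp : ∀ (π : R) (hπ : Prime π), (∀ i, ¬ Associated π (q i)) →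
      (N : ℤ) ∣ log (pv M hπ h)) :
    ∃ e : ι → ℕ, ∀ G : M → ℤ, (∀ y z, y ≠ 0 → z ≠ 0 → G (y * z) = G y + G z) →
      (∀ u : Rˣ, G (algebraMap R M u) = 0) →
      (N : ℤ) ∣ G h - ∑ i, (e i : ℤ) * G (algebraMap R M (q i)) := by
  classical
  obtain ⟨u, e, g, hg, h1⟩ := fact_field M q hN h h0 hyp
  refine ⟨e, fun G hG hGu => ?_⟩
  have hG1 : G 1 = 0 := by
    have := hGu 1
    simpa using this
  have hpow : ∀ (y : M), y ≠ 0 → ∀ n : ℕ, G (y ^ n) = n * G y := by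
    intro y hy n
    induction n with
    | zero => simp [hG1]
    | succ n ih =>
      rw [pow_succ, hG _ _ (pow_ne_zero n hy) hy, ih]
      push_cast
      ring
  have hprod : ∀ s : Finset ι, G (∏ i ∈ s, algebraMap R M (q i) ^ e i) =
      ∑ i ∈ s, (e i : ℤ) * G (algebraMap R M (q i)) := by
    intro s
    induction s using Finset.induction_on with
    | empty => simp [hG1]
    | insert a s ha ih =>
      rw [Finset.prod_insert ha, Finset.sum_insert ha, hG, hpow, ih]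
      · simpa using hq a
      · exact pow_ne_zero _ (by simpa using hq a)
      · exact Finset.prod_ne_zero_iff.2 fun i _ => pow_ne_zero _ (by simpa using hq i)
  have hu : algebraMap R M u ≠ 0 := by simpa using u.ne_zero
  have hp : (∏ i, algebraMap R M (q i) ^ e i) ≠ 0 :=
    Finset.prod_ne_zero_iff.2 fun i _ => pow_ne_zero _ (by simpa using hq i)
  rw [h1, hG _ _ (mul_ne_zero hu hp) (pow_ne_zero _ hg), hG _ _ hu hp, hGu, hpow _ hg, hprod]
  exact ⟨G g, by ring⟩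

theorem fact3 {R : Type*} [CommRing R] [IsDomain R] [UniqueFactorizationMonoid R]
    {M : Type*} [Field M] [Algebra R M] [IsFractionRing R M]
    (q₀ q₁ q₂ : R) (h₀ : q₀ ≠ 0) (h₁ : q₁ ≠ 0) (h₂ : q₂ ≠ 0) {N : ℕ} (hN : 0 < N) (h : M)
    (h0 : h ≠ 0)
    (hyp : ∀ (π : R) (hπ : Prime π), ¬ Associated π q₀ → ¬ Associated π q₁ → ¬ Associated π q₂ →
      (N : ℤ) ∣ log (pv M hπ h)) :
    ∃ e₀ e₁ e₂ : ℤ, ∀ G : M → ℤ, (∀ y z, y ≠ 0 → z ≠ 0 → G (y * z) = G y + G z) →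
      (∀ u : Rˣ, G (algebraMap R M u) = 0) →
      (N : ℤ) ∣ G h - (e₀ * G (algebraMap R M q₀) + e₁ * G (algebraMap R M q₁) +
        e₂ * G (algebraMap R M q₂)) := by
  obtain ⟨e, he⟩ := fact_hom (![q₀, q₁, q₂] : Fin 3 → R) (by
    intro i
    fin_cases i
    · exact h₀
    · exact h₁
    · exact h₂) hN h h0 (by
    intro π hπ h
    exact hyp π hπ (h 0) (h 1) (h 2))
  refine ⟨e 0, e 1, e 2, fun G h1 h2 => ?_⟩
  have h3 := he G h1 h2
  rw [Fin.sum_univ_three] at h3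
  exact h3

theorem log_pv_mul {R : Type*} [CommRing R] [IsDomain R] [WfDvdMonoid R]
    {M : Type*} [Field M] [Algebra R M] [IsFractionRing R M] {π : R} (hπ : Prime π) (y z : M)
    (hy : y ≠ 0) (hz : z ≠ 0) : log (pv M hπ (y * z)) = log (pv M hπ y) + log (pv M hπ z) := by
  rw [map_mul, log_mul ((Valuation.ne_zero_iff _).2 hy) ((Valuation.ne_zero_iff _).2 hz)]

theorem log_pv_unit {R : Type*} [CommRing R] [IsDomain R] [WfDvdMonoid R]
    {M : Type*} [Field M] [Algebra R M] [IsFractionRing R M] {π : R} (hπ : Prime π) (u : Rˣ) :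
    log (pv M hπ (algebraMap R M u)) = 0 := by
  rw [pv_unit, ← exp_zero, log_exp]

theorem log_pv_self {R : Type*} [CommRing R] [IsDomain R] [WfDvdMonoid R]
    {M : Type*} [Field M] [Algebra R M] [IsFractionRing R M] {π : R} (hπ : Prime π) :
    log (pv M hπ (algebraMap R M π)) = -1 := by
  rw [pv_self, log_exp]

/-- the conclusion of `fact3` at `t`, `X`, `X - t` -/
def Form (F : Type*) [Field F] {M : Type*} [Field M] [Algebra ((F⟦X⟧)⟦X⟧) M] (N : ℕ) (z : M)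
    (e₀ e₁ e₂ : ℤ) : Prop :=
  ∀ G : M → ℤ, (∀ y z, y ≠ 0 → z ≠ 0 → G (y * z) = G y + G z) →
      (∀ u : ((F⟦X⟧)⟦X⟧)ˣ, G (algebraMap ((F⟦X⟧)⟦X⟧) M u) = 0) →
      (N : ℤ) ∣ G z - (e₀ * G (algebraMap _ M (tt F)) + e₁ * G (algebraMap ((F⟦X⟧)⟦X⟧) M X) +
        e₂ * G (algebraMap _ M (dd F)))

theorem exists_Form {N : ℕ} (hN : 0 < N) {z : M} (hz : z ≠ 0)
    (hyp : ∀ (π : (F⟦X⟧)⟦X⟧) (hπ : Prime π), ¬ Associated π (tt F) → ¬ Associated π X →
      ¬ Associated π (dd F) → (N : ℤ) ∣ log (pv M hπ z)) :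
    ∃ e₀ e₁ e₂ : ℤ, Form F N z e₀ e₁ e₂ :=
  fact3 (M := M) (tt F) X (dd F) prime_tt.ne_zero prime_XX.ne_zero
    prime_dd.ne_zero hN z hz hyp

section

variable {N : ℕ} {z : M} {e₀ e₁ e₂ : ℤ} (he : Form F N z e₀ e₁ e₂)

include he

theorem Form.nuX : (N : ℤ) ∣ nuX (F := F) z - (e₀ + e₂) := by
  have h1 := he (Tors3_235.nuX (F := F))
    (fun y z hy hz => nu_mul isRed_X prime_XX X_prime hy hz)
    (fun u => nu_unit isRed_X prime_XX X_prime u)
  rw [nuX_tt, nuX_X, nuX_dd] at h1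
  simpa using h1

theorem Form.nuD : (N : ℤ) ∣ nuD (F := F) z - (e₀ + e₁) := by
  have h1 := he (Tors3_235.nuD (F := F))
    (fun y z hy hz => nu_mul isRed_dd prime_dd X_prime hy hz)
    (fun u => nu_unit isRed_dd prime_dd X_prime u)
  rw [nuD_tt, nuD_X, nuD_dd] at h1
  simpa using h1

theorem Form.pv {π : (F⟦X⟧)⟦X⟧} (hπ : Prime π) : (N : ℤ) ∣ log (pv M hπ z) -
    (e₀ * log (pv M hπ (algebraMap _ M (tt F))) +
      e₁ * log (pv M hπ (algebraMap ((F⟦X⟧)⟦X⟧) M X)) +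
        e₂ * log (pv M hπ (algebraMap _ M (dd F)))) := by
  refine he (fun z => log (Tors1_235.pv M hπ z)) ?_ ?_
  · intro y z hy hz
    exact log_pv_mul hπ y z hy hz
  · intro u
    exact log_pv_unit hπ u

omit he

theorem ltt : log (Tors1_235.pv M (prime_tt (F := F)) (algebraMap _ M (tt F))) = -1 :=
  log_pv_self (R := (F⟦X⟧)⟦X⟧) _

theorem ltX : log (Tors1_235.pv M (prime_tt (F := F)) (algebraMap ((F⟦X⟧)⟦X⟧) M X)) = 0 :=
  pv_of_not_dvd (R := (F⟦X⟧)⟦X⟧) M prime_tt not_tt_dvd_X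

theorem ltd : log (Tors1_235.pv M (prime_tt (F := F)) (algebraMap _ M (dd F))) = 0 :=
  pv_of_not_dvd (R := (F⟦X⟧)⟦X⟧) M prime_tt not_tt_dvd_dd

theorem lXt : log (Tors1_235.pv M (prime_XX (F := F)) (algebraMap _ M (tt F))) = 0 :=
  pv_of_not_dvd (R := (F⟦X⟧)⟦X⟧) M prime_XX not_X_dvd_tt

theorem lXX : log (Tors1_235.pv M (prime_XX (F := F)) (algebraMap ((F⟦X⟧)⟦X⟧) M X)) = -1 :=
  log_pv_self (R := (F⟦X⟧)⟦X⟧) _

theorem lXd : log (Tors1_235.pv M (prime_XX (F := F)) (algebraMap _ M (dd F))) = 0 :=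
  pv_of_not_dvd (R := (F⟦X⟧)⟦X⟧) M prime_XX not_X_dvd_dd

theorem ldt : log (Tors1_235.pv M (prime_dd (F := F)) (algebraMap _ M (tt F))) = 0 :=
  pv_of_not_dvd (R := (F⟦X⟧)⟦X⟧) M prime_dd not_dd_dvd_tt

theorem ldX : log (Tors1_235.pv M (prime_dd (F := F)) (algebraMap ((F⟦X⟧)⟦X⟧) M X)) = 0 :=
  pv_of_not_dvd (R := (F⟦X⟧)⟦X⟧) M prime_dd not_dd_dvd_X

theorem ldd : log (Tors1_235.pv M (prime_dd (F := F)) (algebraMap _ M (dd F))) = -1 :=
  log_pv_self (R := (F⟦X⟧)⟦X⟧) _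

include he

theorem Form.pvt : (N : ℤ) ∣ log (Tors1_235.pv M (prime_tt (F := F)) z) + e₀ := by
  have h1 := he.pv prime_tt
  rw [ltt (F := F) (M := M), ltX, ltd] at h1
  convert h1 using 1
  ring

theorem Form.pvX : (N : ℤ) ∣ log (Tors1_235.pv M (prime_XX (F := F)) z) + e₁ := by
  have h1 := he.pv prime_XX
  rw [lXt (F := F) (M := M), lXX, lXd] at h1
  convert h1 using 1
  ring

theorem Form.pvd : (N : ℤ) ∣ log (Tors1_235.pv M (prime_dd (F := F)) z) + e₂ := by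
  have h1 := he.pv prime_dd
  rw [ldt (F := F) (M := M), ldX, ldd] at h1
  convert h1 using 1
  ring

end

/-- **orders of an element without zeros outside `t`, `X`, `X - t` modulo `N`** -/
theorem key {N : ℕ} (hN : 0 < N) {z : M} (hz : z ≠ 0)
    (hyp : ∀ (π : (F⟦X⟧)⟦X⟧) (hπ : Prime π), ¬ Associated π (tt F) → ¬ Associated π X →
      ¬ Associated π (dd F) → (N : ℤ) ∣ log (pv M hπ z)) :
    (N : ℤ) ∣ nuX (F := F) z + log (pv M (prime_tt (F := F)) z) + log (pv M (prime_dd (F := F)) z) ∧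
    (N : ℤ) ∣ nuD (F := F) z + log (pv M (prime_tt (F := F)) z) +
      log (pv M (prime_XX (F := F)) z) := by
  obtain ⟨e₀, e₁, e₂, he⟩ := exists_Form hN hz hyp
  obtain ⟨k1, hk1⟩ := he.nuX
  obtain ⟨k2, hk2⟩ := he.nuD
  obtain ⟨k3, hk3⟩ := he.pvt
  obtain ⟨k4, hk4⟩ := he.pvd
  obtain ⟨k5, hk5⟩ := he.pvX
  constructor
  · exact ⟨k1 + k3 + k4, by linear_combination hk1 + hk3 + hk4⟩
  · exact ⟨k2 + k3 + k5, by linear_combination hk2 + hk3 + hk5⟩

end Crest.Agent.R013.Tors3_235
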