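import Mathlib
import Crest.Agent.R013.Tors3_235
import Crest.Agent.R013.Exp_863
import Crest.Agent.R013.CE5_280

/-!
# Row 13, leaf TORS (helper235), part 4: expansions at a place and the embeddings of `K` into the
fraction field of `F⟦t⟧⟦X⟧`.
-/

set_option autoImplicit false
set_option linter.all false

namespace Crest.Agent.R013.Tors4_235

open WithZero PowerSeries TensorProduct
open Crest.Agent.R013.RR7_948 Crest.Agent.R013.RR11_948 Crest.Agent.R013.CE1_280
open Crest.Agent.R013.CE3_280 Crest.Agent.R013.Exp_863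
open Crest.Agent.R013.Tors1_235 Crest.Agent.R013.Tors2_235 Crest.Agent.R013.Tors3_235

variable {F K : Type*} [Field F] [IsAlgClosed F] [Field K] [Algebra F K]
  [Algebra (RatFunc F) K] [IsScalarTower F (RatFunc F) K] [FiniteDimensional (RatFunc F) K]
  [Algebra.IsSeparable (RatFunc F) K]

/-- a uniformizer of a place -/
noncomputable def unif (P : Pl F K) : K := (P.surj (exp (-1))).choose

omit [IsAlgClosed F] [Algebra (RatFunc F) K] [IsScalarTower F (RatFunc F) K]
  [FiniteDimensional (RatFunc F) K] [Algebra.IsSeparable (RatFunc F) K] in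
theorem v_unif (P : Pl F K) : P.v (unif P) = exp (-1) := (P.surj (exp (-1))).choose_spec

omit [IsAlgClosed F] [Algebra (RatFunc F) K] [IsScalarTower F (RatFunc F) K]
  [FiniteDimensional (RatFunc F) K] [Algebra.IsSeparable (RatFunc F) K] in
theorem unif_ne_zero (P : Pl F K) : unif P ≠ 0 := by
  intro h0
  have := v_unif P
  rw [h0, map_zero] at this
  exact exp_ne_zero this.symm

omit [IsAlgClosed F] [Algebra (RatFunc F) K] [IsScalarTower F (RatFunc F) K]
  [FiniteDimensional (RatFunc F) K] [Algebra.IsSeparable (RatFunc F) K] in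
theorem v_unif_lt (P : Pl F K) : P.v (unif P) < 1 := by
  rw [v_unif, ← exp_zero, exp_lt_exp]; norm_num

/-- the uniformizer in the valuation ring -/
noncomputable def su (P : Pl F K) : valSub P := ⟨unif P, mem_valSub.mpr (v_unif_lt P).le⟩

omit [IsAlgClosed F] [Algebra (RatFunc F) K] [IsScalarTower F (RatFunc F) K]
  [FiniteDimensional (RatFunc F) K] [Algebra.IsSeparable (RatFunc F) K] in
theorem su_pow_dvd_iff (P : Pl F K) (n : ℕ) (f : valSub P) :
    su P ^ n ∣ f ↔ P.v (f : K) ≤ exp (-(n : ℤ)) := by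
  have hv : P.v (unif P ^ n) = exp (-(n : ℤ)) := by
    rw [map_pow, v_unif, ← exp_nsmul]
    simp
  constructor
  · rintro ⟨g, rfl⟩
    have h1 : P.v ((g : valSub P) : K) ≤ 1 := mem_valSub.1 g.2
    show P.v (unif P ^ n * (g : K)) ≤ _
    rw [map_mul, hv]
    calc _ ≤ exp (-(n : ℤ)) * 1 := mul_le_mul_right h1 _
      _ = _ := mul_one _
  · intro h
    refine ⟨⟨(f : K) / unif P ^ n, mem_valSub.mpr ?_⟩, ?_⟩
    · rw [map_div₀, hv]
      exact div_le_one_of_le₀ h zero_le
    · apply Subtype.ext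
      show (f : K) = unif P ^ n * ((f : K) / unif P ^ n)
      rw [mul_div_cancel₀ _ (pow_ne_zero n (unif_ne_zero P))]

theorem isUnif (P : Pl F K) : IsUnif F (su P) where
  nzd a ha := by
    rcases mul_eq_zero.1 ha with h | h
    · exact absurd (congrArg Subtype.val h) (unif_ne_zero P)
    · exact h
  ex f := by
    obtain ⟨c, hc⟩ := exists_residue P (mem_valSub.1 f.2)
    refine ⟨c, ?_⟩
    have h1 := (su_pow_dvd_iff P 1 (f - algebraMap F (valSub P) c)).2 (by
      show P.v ((f : K) - algebraMap F K c) ≤ _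
      rw [Nat.cast_one, ← lt_one_iff_le]
      exact hc)
    rwa [pow_one] at h1
  inj c hc := by
    rw [← pow_one (su P), su_pow_dvd_iff, Nat.cast_one, ← lt_one_iff_le] at hc
    exact v_algebraMap_lt P hc

/-- expansion at a place -/
noncomputable def ex (P : Pl F K) : valSub P →ₐ[F] F⟦X⟧ := (isUnif P).expand

theorem ex_su (P : Pl F K) : ex P (su P) = X := (isUnif P).expand_s

theorem X_pow_dvd_ex (P : Pl F K) (n : ℕ) (f : valSub P) :
    X ^ n ∣ ex P f ↔ P.v (f : K) ≤ exp (-(n : ℤ)) := by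
  rw [← su_pow_dvd_iff]
  exact ((isUnif P).pow_dvd_iff n f).symm

theorem ex_injective (P : Pl F K) : Function.Injective (ex P) := by
  apply (isUnif P).expand_injective
  intro f hf
  by_contra hf0
  have h1 : P.v (f : K) ≠ 0 := (Valuation.ne_zero_iff _).2 (fun h => hf0 (Subtype.ext h))
  have h2 := (su_pow_dvd_iff P (-log (P.v (f : K)) + 1).toNat f).1 (hf _)
  conv_lhs at h2 => rw [← exp_log h1]
  rw [exp_le_exp] at h2
  have h3 := Int.self_le_toNat (-log (P.v (f : K)) + 1)
  omega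

theorem ex_isUnit (P : Pl F K) {f : valSub P} (hf : P.v (f : K) = 1) : IsUnit (ex P f) := by
  have h1 := (X_pow_dvd_ex P 1 f).not.2 (by
    rw [hf, ← exp_zero, exp_le_exp]; norm_num)
  rw [pow_one, X_dvd_iff] at h1
  rw [PowerSeries.isUnit_iff_constantCoeff]
  exact isUnit_iff_ne_zero.2 h1

instance isFrac (P : Pl F K) : IsFractionRing (valSub P) K := by
  have : FaithfulSMul (valSub P) K := by
    rw [faithfulSMul_iff_algebraMap_injective]
    exact Subtype.val_injective
  apply IsFractionRing.of_field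
  intro z
  rcases le_or_gt (P.v z) 1 with h | h
  · exact ⟨⟨z, mem_valSub.2 h⟩, 1, by rw [map_one, div_one]; rfl⟩
  · refine ⟨1, ⟨z⁻¹, mem_valSub.2 ?_⟩, ?_⟩
    · rw [map_inv₀]
      exact inv_le_one_of_one_le₀ h.le
    · rw [map_one]
      show z = 1 / z⁻¹
      rw [one_div, inv_inv]

section emb

variable {M : Type*} [Field M] [Algebra F M] (ψ : F⟦X⟧ →ₐ[F] M) (hψ : Function.Injective ψ)

/-- the embedding of `K` given by the expansion at `P` and an embedding of `F⟦X⟧` -/
noncomputable def emb (P : Pl F K) : K →ₐ[F] M :=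
  IsFractionRing.liftAlgHom (g := ψ.comp (ex P)) (hψ.comp (ex_injective P))

theorem emb_val (P : Pl F K) (a : valSub P) : emb ψ hψ P (a : K) = ψ (ex P a) := by
  unfold emb
  have h1 := IsFractionRing.lift_algebraMap (K := K) (g := (ψ.comp (ex P)).toRingHom)
    (hψ.comp (ex_injective P)) a
  exact h1

theorem emb_unif (P : Pl F K) : emb ψ hψ P (unif P) = ψ X := by
  have h1 := emb_val ψ hψ P (su P)
  rw [ex_su] at h1
  exact h1

theorem emb_of_le (P : Pl F K) {a : K} (ha : P.v a ≤ 1) :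
    emb ψ hψ P a = ψ (ex P ⟨a, mem_valSub.2 ha⟩) := emb_val ψ hψ P ⟨a, mem_valSub.2 ha⟩

theorem emb_form (P : Pl F K) {a : K} {n : ℤ} (ha : P.v a = exp n) :
    ∃ u : (F⟦X⟧)ˣ, emb ψ hψ P a = ψ u * ψ X ^ (-n) := by
  have h1 : P.v (a * unif P ^ n) = 1 := by
    rw [map_mul, map_zpow₀, ha, v_unif, ← exp_zsmul, ← exp_add]
    simp
  obtain ⟨u, hu⟩ := ex_isUnit P (f := ⟨a * unif P ^ n, mem_valSub.2 h1.le⟩) h1
  refine ⟨u, ?_⟩
  have h2 := emb_of_le ψ hψ P h1.le
  rw [← hu, map_mul, map_zpow₀, emb_unif] at h2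
  rw [← h2, mul_assoc, ← zpow_add₀]
  · simp
  · intro h0
    have h3 := hψ (h0.trans (map_zero ψ).symm)
    exact X_ne_zero h3

end emb

end Crest.Agent.R013.Tors4_235
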