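import Mathlib
import Crest.Agent.R013.Tors4_235

/-!
# Row 13, leaf TORS (helper235), part 5: the embedding of `L = Frac (K ⊗ K)` into the fraction field
of `F⟦t⟧⟦X⟧` given by two places.
-/

set_option autoImplicit false
set_option linter.all false

namespace Crest.Agent.R013.Tors5_235

open WithZero PowerSeries TensorProduct Module
open Crest.Agent.R013.RR7_948 Crest.Agent.R013.RR11_948 Crest.Agent.R013.CE1_280
open Crest.Agent.R013.CE3_280 Crest.Agent.R013.Exp_863
open Crest.Agent.R013.Tors1_235 Crest.Agent.R013.Tors2_235 Crest.Agent.R013.Tors3_235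
open Crest.Agent.R013.Tors4_235

section Hom

theorem algC {F : Type*} [Field F] (c : F) : algebraMap F ((F⟦X⟧)⟦X⟧) c = C (C c) := by
  rw [PowerSeries.algebraMap_apply]
  rfl

variable (F M : Type*) [Field F] [Field M] [Algebra F M] [Algebra ((F⟦X⟧)⟦X⟧) M]
  [IsScalarTower F ((F⟦X⟧)⟦X⟧) M]

/-- power series in the outer variable -/
noncomputable def psA : F⟦X⟧ →ₐ[F] M :=
  (IsScalarTower.toAlgHom F ((F⟦X⟧)⟦X⟧) M).comp (mapAlgHom (Algebra.ofId F (F⟦X⟧)))

/-- power series in the inner variable -/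
noncomputable def psB : F⟦X⟧ →ₐ[F] M :=
  (IsScalarTower.toAlgHom F ((F⟦X⟧)⟦X⟧) M).comp
    { toRingHom := (C : F⟦X⟧ →+* (F⟦X⟧)⟦X⟧), commutes' := fun c => (algC c).symm }

variable {F M}

theorem psA_apply (f : F⟦X⟧) : psA F M f = algebraMap _ M (PowerSeries.map C f) := by
  show algebraMap _ M (mapAlgHom (Algebra.ofId F (F⟦X⟧)) f) = _
  rw [mapAlgHom_apply]
  rfl

theorem psB_apply (f : F⟦X⟧) : psB F M f = algebraMap _ M (C f) := rfl

theorem psB_X : psB F M X = algebraMap _ M (tt F) := rfl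

theorem psA_X : psA F M X = algebraMap ((F⟦X⟧)⟦X⟧) M X := by
  rw [psA_apply, map_X]

variable [IsFractionRing ((F⟦X⟧)⟦X⟧) M]

theorem map_C_injective : Function.Injective (PowerSeries.map (C : F →+* F⟦X⟧)) := by
  intro f g h
  ext n
  have h1 := congrArg (coeff n) h
  rw [coeff_map, coeff_map] at h1
  exact C_injective h1

theorem psA_injective : Function.Injective (psA F M) := by
  intro f g h
  rw [psA_apply, psA_apply] at h
  exact map_C_injective (IsFractionRing.injective ((F⟦X⟧)⟦X⟧) M h)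

theorem psB_injective : Function.Injective (psB F M) := by
  intro f g h
  rw [psB_apply, psB_apply] at h
  exact C_injective (IsFractionRing.injective ((F⟦X⟧)⟦X⟧) M h)

end Hom

variable {F K : Type*} [Field F] [IsAlgClosed F] [Field K] [Algebra F K]
  [Algebra (RatFunc F) K] [IsScalarTower F (RatFunc F) K] [FiniteDimensional (RatFunc F) K]
  [Algebra.IsSeparable (RatFunc F) K]
variable (M : Type*) [Field M] [Algebra F M] [Algebra ((F⟦X⟧)⟦X⟧) M]
  [IsScalarTower F ((F⟦X⟧)⟦X⟧) M] [IsFractionRing ((F⟦X⟧)⟦X⟧) M]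

/-- expansion at `P` in the outer variable -/
noncomputable def al (P : Pl F K) : K →ₐ[F] M := emb (psA F M) psA_injective P

/-- expansion at `c` in the inner variable -/
noncomputable def be (c : Pl F K) : K →ₐ[F] M := emb (psB F M) psB_injective c

theorem al_unif (P : Pl F K) : al M P (unif P) = algebraMap ((F⟦X⟧)⟦X⟧) M X :=
  (emb_unif _ _ P).trans psA_X

theorem be_unif (c : Pl F K) : be M c (unif c) = algebraMap ((F⟦X⟧)⟦X⟧) M (tt F) :=
  (emb_unif _ _ c).trans psB_X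

theorem al_form (P : Pl F K) {a : K} {n : ℤ} (ha : P.v a = exp n) :
    ∃ u : ((F⟦X⟧)⟦X⟧)ˣ, al M P a = algebraMap _ M (u : (F⟦X⟧)⟦X⟧) *
      algebraMap ((F⟦X⟧)⟦X⟧) M X ^ (-n) := by
  obtain ⟨u, hu⟩ := emb_form (psA F M) psA_injective P ha
  refine ⟨Units.map (PowerSeries.map (C : F →+* F⟦X⟧)).toMonoidHom u, ?_⟩
  rw [psA_X, psA_apply] at hu
  exact hu

theorem be_form (c : Pl F K) {a : K} {n : ℤ} (ha : c.v a = exp n) :
    ∃ u : ((F⟦X⟧)⟦X⟧)ˣ, be M c a = algebraMap _ M (u : (F⟦X⟧)⟦X⟧) *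
      algebraMap ((F⟦X⟧)⟦X⟧) M (tt F) ^ (-n) := by
  obtain ⟨u, hu⟩ := emb_form (psB F M) psB_injective c ha
  refine ⟨Units.map (C : F⟦X⟧ →+* (F⟦X⟧)⟦X⟧).toMonoidHom u, ?_⟩
  rw [psB_X, psB_apply] at hu
  exact hu

omit [IsAlgClosed F] [Algebra (RatFunc F) K] [IsScalarTower F (RatFunc F) K]
  [FiniteDimensional (RatFunc F) K] [Algebra.IsSeparable (RatFunc F) K] in
theorem exists_exp (P : Pl F K) {a : K} (ha : a ≠ 0) : ∃ n : ℤ, P.v a = exp n :=
  ⟨log (P.v a), (exp_log ((Valuation.ne_zero_iff _).2 ha)).symm⟩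

theorem pv_al (P : Pl F K) {a : K} (ha : a ≠ 0) {π : (F⟦X⟧)⟦X⟧} (hπ : Prime π)
    (h : ¬ π ∣ X) : pv M hπ (al M P a) = 1 := by
  obtain ⟨n, hn⟩ := exists_exp P ha
  obtain ⟨u, hu⟩ := al_form M P hn
  rw [hu, map_mul, map_zpow₀, pv_unit, (pv_eq_one_iff M hπ _).2 h, one_zpow, one_mul]

theorem pv_be (c : Pl F K) {a : K} (ha : a ≠ 0) {π : (F⟦X⟧)⟦X⟧} (hπ : Prime π)
    (h : ¬ π ∣ tt F) : pv M hπ (be M c a) = 1 := by
  obtain ⟨n, hn⟩ := exists_exp c ha
  obtain ⟨u, hu⟩ := be_form M c hn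
  rw [hu, map_mul, map_zpow₀, pv_unit, (pv_eq_one_iff M hπ _).2 h, one_zpow, one_mul]

theorem pvX_al (P : Pl F K) (a : K) : pv M (prime_XX (F := F)) (al M P a) = P.v a := by
  by_cases ha : a = 0
  · rw [ha, map_zero, map_zero, map_zero]
  obtain ⟨n, hn⟩ := exists_exp P ha
  obtain ⟨u, hu⟩ := al_form M P hn
  have h1 : pv M (prime_XX (F := F)) (algebraMap ((F⟦X⟧)⟦X⟧) M X) = exp (-1) :=
    pv_self (R := (F⟦X⟧)⟦X⟧) M _
  have h2 : pv M (prime_XX (F := F)) (algebraMap _ M (u : (F⟦X⟧)⟦X⟧)) = 1 :=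
    pv_unit (R := (F⟦X⟧)⟦X⟧) M _ u
  rw [hu, map_mul, map_zpow₀, h1, h2, hn, one_mul, ← exp_zsmul]
  simp

theorem pvt_be (c : Pl F K) (a : K) : pv M (prime_tt (F := F)) (be M c a) = c.v a := by
  by_cases ha : a = 0
  · rw [ha, map_zero, map_zero, map_zero]
  obtain ⟨n, hn⟩ := exists_exp c ha
  obtain ⟨u, hu⟩ := be_form M c hn
  have h1 : pv M (prime_tt (F := F)) (algebraMap _ M (tt F)) = exp (-1) :=
    pv_self (R := (F⟦X⟧)⟦X⟧) M _
  have h2 : pv M (prime_tt (F := F)) (algebraMap _ M (u : (F⟦X⟧)⟦X⟧)) = 1 :=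
    pv_unit (R := (F⟦X⟧)⟦X⟧) M _ u
  rw [hu, map_mul, map_zpow₀, h1, h2, hn, one_mul, ← exp_zsmul]
  simp

/-- the embedding of the tensor product -/
noncomputable def ph0 (P c : Pl F K) : K ⊗[F] K →ₐ[F] M :=
  Algebra.TensorProduct.lift (be M c) (al M P) (fun _ _ => Commute.all _ _)

theorem ph0_tmul (P c : Pl F K) (b a : K) : ph0 M P c (b ⊗ₜ a) = be M c b * al M P a := by
  simp [ph0]

theorem ph0_injective (P c : Pl F K) : Function.Injective (ph0 M P c) := by
  classical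
  rw [injective_iff_map_eq_zero]
  intro t ht
  let b := Basis.ofVectorSpace F K
  obtain ⟨f, rfl⟩ := TensorProduct.eq_repr_basis_left b t
  -- common denominators
  obtain ⟨k, hk⟩ : ∃ k : ℕ, ∀ i ∈ f.support, P.v (f i * unif P ^ k) ≤ 1 := by
    refine ⟨f.support.sup (fun i => (log (P.v (f i))).toNat), fun i hi => ?_⟩
    obtain ⟨n, hn⟩ := exists_exp P (Finsupp.mem_support_iff.1 hi)
    have h1 := Finset.le_sup (f := fun i => (log (P.v (f i))).toNat) hi
    rw [map_mul, map_pow, v_unif, hn, ← exp_nsmul, ← exp_add, ← exp_zero, exp_le_exp]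
    simp only [hn, log_exp] at h1
    have h2 := Int.self_le_toNat n
    simp only [smul_eq_mul, nsmul_eq_mul]
    omega
  obtain ⟨l, hl⟩ : ∃ l : ℕ, ∀ i ∈ f.support, c.v (b i * unif c ^ l) ≤ 1 := by
    refine ⟨f.support.sup (fun i => (log (c.v (b i))).toNat), fun i hi => ?_⟩
    obtain ⟨n, hn⟩ := exists_exp c (b.ne_zero i)
    have h1 := Finset.le_sup (f := fun i => (log (c.v (b i))).toNat) hi
    rw [map_mul, map_pow, v_unif, hn, ← exp_nsmul, ← exp_add, ← exp_zero, exp_le_exp]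
    simp only [hn, log_exp] at h1
    have h2 := Int.self_le_toNat n
    simp only [smul_eq_mul, nsmul_eq_mul]
    omega
  let ga : _ → F⟦X⟧ := fun i => if h : P.v (f i * unif P ^ k) ≤ 1 then
    ex P ⟨_, mem_valSub.2 h⟩ else 0
  let ba : _ → F⟦X⟧ := fun i => if h : c.v (b i * unif c ^ l) ≤ 1 then
    ex c ⟨_, mem_valSub.2 h⟩ else 0
  have hga : ∀ i ∈ f.support, al M P (f i * unif P ^ k) =
      algebraMap _ M (PowerSeries.map C (ga i)) := by
    intro i hi
    unfold al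
    rw [emb_of_le _ _ P (hk i hi), psA_apply]
    simp only [ga]
    rw [dif_pos (hk i hi)]
  have hba : ∀ i ∈ f.support, be M c (b i * unif c ^ l) =
      algebraMap _ M ((C : F⟦X⟧ →+* (F⟦X⟧)⟦X⟧) (ba i)) := by
    intro i hi
    unfold be
    rw [emb_of_le _ _ c (hl i hi), psB_apply]
    simp only [ba]
    rw [dif_pos (hl i hi)]
  have hsum : ∑ i ∈ f.support, (C : F⟦X⟧ →+* (F⟦X⟧)⟦X⟧) (ba i) * PowerSeries.map C (ga i) = 0 := by
    apply IsFractionRing.injective ((F⟦X⟧)⟦X⟧) M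
    rw [map_sum, map_zero]
    have h1 : ∑ i ∈ f.support, algebraMap _ M ((C : F⟦X⟧ →+* (F⟦X⟧)⟦X⟧) (ba i) *
        PowerSeries.map C (ga i)) = (∑ i ∈ f.support, be M c (b i) * al M P (f i)) *
        (be M c (unif c) ^ l * al M P (unif P) ^ k) := by
      rw [Finset.sum_mul]
      refine Finset.sum_congr rfl fun i hi => ?_
      rw [map_mul, ← hga i hi, ← hba i hi, map_mul, map_mul, map_pow, map_pow]
      ring
    rw [h1]
    have h2 : ∑ i ∈ f.support, be M c (b i) * al M P (f i) = 0 := by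
      rw [Finsupp.sum, map_sum] at ht
      simpa only [ph0_tmul] using ht
    rw [h2, zero_mul]
  have hcoef : ∀ n : ℕ, ∑ i ∈ f.support, (coeff n (ga i)) • ba i = 0 := by
    intro n
    have h1 := congrArg (coeff n) hsum
    rw [map_sum, map_zero] at h1
    rw [← h1]
    refine Finset.sum_congr rfl fun i _ => ?_
    rw [coeff_C_mul, coeff_map, mul_comm, smul_eq_C_mul]
  have hlin : ∀ n : ℕ, ∀ i ∈ f.support, coeff n (ga i) = 0 := by
    intro n
    have h1 : ∑ i ∈ f.support, (coeff n (ga i)) • b i = 0 := by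
      have h2 : be M c ((∑ i ∈ f.support, (coeff n (ga i)) • b i) * unif c ^ l) = 0 := by
        rw [Finset.sum_mul, map_sum]
        have h3 := congrArg (fun y => algebraMap ((F⟦X⟧)⟦X⟧) M (C y)) (hcoef n)
        simp only [map_sum, map_zero] at h3
        rw [← h3]
        refine Finset.sum_congr rfl fun i hi => ?_
        rw [smul_mul_assoc, map_smul, hba i hi, smul_eq_C_mul, map_mul, map_mul, Algebra.smul_def,
          IsScalarTower.algebraMap_apply F ((F⟦X⟧)⟦X⟧) M, algC]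
      rw [_root_.map_eq_zero, mul_eq_zero] at h2
      rcases h2 with h2 | h2
      · exact h2
      · exact absurd h2 (pow_ne_zero _ (unif_ne_zero c))
    exact linearIndependent_iff'.mp b.linearIndependent f.support _ h1
  have hf : ∀ i ∈ f.support, f i = 0 := by
    intro i hi
    have h1 : ga i = 0 := by
      ext n
      rw [hlin n i hi, map_zero]
    have h2 := hga i hi
    rw [h1, map_zero, map_zero, _root_.map_eq_zero, mul_eq_zero] at h2
    rcases h2 with h2 | h2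
    · exact h2
    · exact absurd h2 (pow_ne_zero _ (unif_ne_zero P))
  rw [Finsupp.sum]
  refine Finset.sum_eq_zero fun i hi => ?_
  rw [hf i hi, tmul_zero]

end Crest.Agent.R013.Tors5_235
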