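import Mathlib
import Crest.Agent.R013.Tors5_235

/-!
# Row 13, leaf TORS (helper235), part 6: the diagonal of `K ⊗ K`.
-/

set_option autoImplicit false
set_option linter.all false

namespace Crest.Agent.R013.Tors6_235

open WithZero TensorProduct Module
open Crest.Agent.R013.RR7_948 Crest.Agent.R013.RR11_948 Crest.Agent.R013.CE1_280
open Crest.Agent.R013.RR8_948 Crest.Agent.R013.RR9_948
open Crest.Agent.R013.CE2_280 Crest.Agent.R013.CE3_280

variable (F K : Type*) [Field F] [IsAlgClosed F] [Field K] [Algebra F K]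
  [Algebra (RatFunc F) K] [IsScalarTower F (RatFunc F) K] [FiniteDimensional (RatFunc F) K]
  [Algebra.IsSeparable (RatFunc F) K]

/-- multiplication -/
noncomputable abbrev evd : K ⊗[F] K →ₐ[K] K := CE2_280.ev (AlgHom.id F K)

/-- `1 ⊗ x - x ⊗ 1` -/
noncomputable abbrev piD : K ⊗[F] K := piT F K (xK F K)

variable {F K}

omit [FiniteDimensional (RatFunc F) K] [Algebra.IsSeparable (RatFunc F) K] in
theorem ratFunc_mem (r : RatFunc F) :
    (1 ⊗ₜ algebraMap (RatFunc F) K r - algebraMap (RatFunc F) K r ⊗ₜ 1 : K ⊗[F] K) ∈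
      Ideal.span {piD F K} := by
  have ht : Transcendental F (xK F K) := transcendental_x (AlgHom.id F K)
  have h1 := ratFunc_congr (K := K) ht r
  rwa [← algHom_algebraMap (AlgHom.id F K) ht rfl r] at h1

theorem exists_diag : ∃ e : K ⊗[F] K, evd F K e = 1 ∧
    ∀ s : K, (1 ⊗ₜ s - s ⊗ₜ 1 : K ⊗[F] K) * e ∈ Ideal.span {piD F K} := by
  have hunr : Algebra.FormallyUnramified (RatFunc F) K :=
    Algebra.FormallyUnramified.of_isSeparable (RatFunc F) K
  obtain ⟨t₀, ht₀, ht₁⟩ :=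
    (Algebra.FormallyUnramified.iff_exists_tensorProduct (R := RatFunc F) (S := K)).1 hunr
  let J : Ideal (K ⊗[F] K) := Ideal.span {piD F K}
  let mk : K ⊗[F] K →+* (K ⊗[F] K) ⧸ J := Ideal.Quotient.mk J
  let iL : K →+* K ⊗[F] K := Algebra.TensorProduct.includeLeftRingHom
  let iR : K →+* K ⊗[F] K := (Algebra.TensorProduct.includeRight : K →ₐ[F] K ⊗[F] K).toRingHom
  have hL : ∀ r : RatFunc F, mk (iL (algebraMap (RatFunc F) K r)) =
      algebraMap (RatFunc F) ((K ⊗[F] K) ⧸ J) r := fun r => rfl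
  have hR : ∀ r : RatFunc F, mk (iR (algebraMap (RatFunc F) K r)) =
      algebraMap (RatFunc F) ((K ⊗[F] K) ⧸ J) r := by
    intro r
    rw [← hL]
    show Ideal.Quotient.mk J _ = Ideal.Quotient.mk J _
    rw [Ideal.Quotient.eq]
    exact ratFunc_mem r
  let fL : K →ₐ[RatFunc F] (K ⊗[F] K) ⧸ J := { toRingHom := mk.comp iL, commutes' := hL }
  let fR : K →ₐ[RatFunc F] (K ⊗[F] K) ⧸ J := { toRingHom := mk.comp iR, commutes' := hR }
  let θ : K ⊗[RatFunc F] K →ₐ[RatFunc F] (K ⊗[F] K) ⧸ J :=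
    Algebra.TensorProduct.lift fL fR (fun _ _ => Commute.all _ _)
  have hθ : ∀ a b : K, θ (a ⊗ₜ b) = mk (a ⊗ₜ b) := by
    intro a b
    simp only [θ, Algebra.TensorProduct.lift_tmul]
    show mk (iL a) * mk (iR b) = _
    rw [← map_mul]
    congr 1
    show (a ⊗ₜ[F] (1 : K)) * ((1 : K) ⊗ₜ[F] b) = a ⊗ₜ b
    rw [Algebra.TensorProduct.tmul_mul_tmul, one_mul, mul_one]
  obtain ⟨e, he⟩ := Ideal.Quotient.mk_surjective (θ t₀)
  -- evaluation on the quotient
  have hev0 : ∀ a ∈ J, (evd F K).toRingHom a = 0 := by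
    intro a ha
    obtain ⟨c, rfl⟩ := Ideal.mem_span_singleton.1 ha
    show evd F K _ = 0
    rw [map_mul]
    have : evd F K (piD F K) = 0 := by
      show CE2_280.ev _ _ = 0
      rw [ev_piT]
      exact sub_self _
    rw [this, zero_mul]
  let evq : (K ⊗[F] K) ⧸ J →+* K := Ideal.Quotient.lift J (evd F K).toRingHom hev0
  have hevq : ∀ t : K ⊗[RatFunc F] K, evq (θ t) = Algebra.TensorProduct.lmul' (RatFunc F) t := by
    intro t
    induction t with
    | zero => simp
    | add a b ha hb => rw [map_add, map_add, map_add, ha, hb]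
    | tmul a b =>
      rw [hθ]
      show evd F K (a ⊗ₜ b) = _
      rw [Algebra.TensorProduct.lmul'_apply_tmul]
      show CE2_280.ev _ _ = _
      rw [ev_tmul]
      rfl
  refine ⟨e, ?_, ?_⟩
  · have h1 := hevq t₀
    rw [← he, ht₁] at h1
    exact h1
  · intro s
    have h1 := congrArg θ (ht₀ s)
    rw [map_mul, map_sub, hθ, hθ, ← he, map_zero] at h1
    show _ ∈ J
    rw [← Ideal.Quotient.eq_zero_iff_mem, map_mul, map_sub]
    exact h1

/-- local equation of the diagonal -/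
theorem exists_mul_eq {t : K ⊗[F] K} (ht : evd F K t = 0) :
    ∃ e t' : K ⊗[F] K, evd F K e = 1 ∧ e * t = piD F K * t' := by
  obtain ⟨e, he, hs⟩ := exists_diag (F := F) (K := K)
  have key : ∀ t : K ⊗[F] K, (t - evd F K t ⊗ₜ 1) * e ∈ Ideal.span {piD F K} := by
    intro t
    induction t with
    | zero => simp
    | add a b ha hb =>
      rw [map_add, TensorProduct.add_tmul, add_sub_add_comm, add_mul]
      exact Ideal.add_mem _ ha hb
    | tmul a b =>
      have h1 : evd F K (a ⊗ₜ b) = a * b := by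
        show CE2_280.ev _ _ = _
        rw [ev_tmul]
        rfl
      have h2 : (a ⊗ₜ b - evd F K (a ⊗ₜ b) ⊗ₜ 1 : K ⊗[F] K) =
          (a ⊗ₜ 1) * (1 ⊗ₜ b - b ⊗ₜ 1) := by
        rw [h1, mul_sub, Algebra.TensorProduct.tmul_mul_tmul, Algebra.TensorProduct.tmul_mul_tmul,
          one_mul, mul_one, mul_one]
      rw [h2, mul_assoc]
      exact Ideal.mul_mem_left _ _ (hs b)
  have h1 := key t
  rw [ht, TensorProduct.zero_tmul, sub_zero, Ideal.mem_span_singleton] at h1
  obtain ⟨t', ht'⟩ := h1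
  exact ⟨e, t', he, by rw [mul_comm, ht']⟩

end Crest.Agent.R013.Tors6_235
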