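import Mathlib
import Crest.Agent.R013.Tors6_235
import Crest.Agent.R013.RR14_948

/-!
# Row 13, leaf TORS (helper235), part 7: leading coefficients of functions on the product along the
diagonal, along `P × C`, and uniqueness of the vertical valuation.
-/

set_option autoImplicit false
set_option linter.all false

namespace Crest.Agent.R013.Tors7_235

open WithZero TensorProduct Module
open Crest.Agent.R013.RR7_948 Crest.Agent.R013.RR11_948 Crest.Agent.R013.CE1_280
open Crest.Agent.R013.RR8_948 Crest.Agent.R013.RR9_948 Crest.Agent.R013.RR14_948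
open Crest.Agent.R013.CE2_280 Crest.Agent.R013.CE3_280 Crest.Agent.R013.Tors6_235

section Gen

variable {L : Type*} [Field L] (w : Valuation L ℤᵐ⁰)

theorem eq_one_of_sub_lt {x y : L} (h : w (x - y) < 1) (hy : w y = 1) : w x = 1 := by
  have h2 := Valuation.map_add_eq_of_lt_right (v := w) (x := x - y) (y := y) (by rw [hy]; exact h)
  rwa [sub_add_cancel, hy] at h2

theorem mul_sub_lt {x y x' y' : L} (h : w (x - x') < 1) (h' : w (y - y') < 1) (hy : w y ≤ 1)
    (hx : w x' ≤ 1) : w (x * y - x' * y') < 1 := by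
  have e : x * y - x' * y' = (x - x') * y + x' * (y - y') := by ring
  rw [e]
  refine lt_of_le_of_lt (Valuation.map_add _ _ _) (max_lt ?_ ?_)
  · rw [map_mul]
    calc _ ≤ w (x - x') * 1 := mul_le_mul_right hy _
      _ < 1 := by rw [mul_one]; exact h
  · rw [map_mul]
    calc _ ≤ 1 * w (y - y') := mul_le_mul_left hx _
      _ < 1 := by rw [one_mul]; exact h'

theorem div_sub_lt {x y x' y' : L} (h : w (x - x') < 1) (h' : w (y - y') < 1) (hy : w y' = 1)
    (hx : w x' = 1) : w (x / y - x' / y') < 1 := by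
  have hyy := eq_one_of_sub_lt w h' hy
  have hxx := eq_one_of_sub_lt w h hx
  have hy0 : y ≠ 0 := by rintro rfl; simp at hyy
  have hy0' : y' ≠ 0 := by rintro rfl; simp at hy
  have e : x / y - x' / y' = ((x - x') * y' - x' * (y - y')) / (y * y') := by
    field_simp
    ring
  rw [e, map_div₀, map_mul, hyy, hy, mul_one, div_one]
  refine lt_of_le_of_lt (Valuation.map_sub _ _ _) (max_lt ?_ ?_)
  · rw [map_mul, hy, mul_one]; exact h
  · rw [map_mul, hx, one_mul]; exact h'

end Gen

variable {F K : Type*} [Field F] [IsAlgClosed F] [Field K] [Algebra F K]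
  [Algebra (RatFunc F) K] [IsScalarTower F (RatFunc F) K] [FiniteDimensional (RatFunc F) K]
  [Algebra.IsSeparable (RatFunc F) K]
  {L : Type*} [Field L] [Algebra K L] [Algebra F L] [IsScalarTower F K L]
  {ι : K →ₐ[F] L}

/-- valuations of `L` centred on the diagonal -/
def AtQ (ι : K →ₐ[F] L) (w : Valuation L ℤᵐ⁰) : Prop :=
  (∀ b : K, b ≠ 0 → w (algebraMap K L b) = 1) ∧ ∀ f : K, w (ι f - algebraMap K L f) < 1

/-- valuations of `L` centred on `P × C` -/
def OverP (ι : K →ₐ[F] L) (P : Pl F K) (w : Valuation L ℤᵐ⁰) : Prop :=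
  (∀ b : K, b ≠ 0 → w (algebraMap K L b) = 1) ∧ (∀ f : K, P.v f ≤ 1 → w (ι f) ≤ 1) ∧
    ∀ f : K, P.v f < 1 → w (ι f) < 1

theorem cle {w : Valuation L ℤᵐ⁰} (hw : ∀ b : K, b ≠ 0 → w (algebraMap K L b) = 1) (b : K) :
    w (algebraMap K L b) ≤ 1 := by
  by_cases hb : b = 0
  · simp [hb]
  · exact (hw b hb).le

theorem clt {w : Valuation L ℤᵐ⁰} (hw : ∀ b : K, b ≠ 0 → w (algebraMap K L b) = 1) {b : K}
    (h : w (algebraMap K L b) < 1) : b = 0 := by
  by_contra hb
  rw [hw b hb] at h
  exact lt_irrefl _ h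

theorem evd_tmul (a b : K) : evd F K (a ⊗ₜ b) = a * b := by
  show CE2_280.ev _ _ = _
  rw [ev_tmul]
  rfl

section Q

variable {w : Valuation L ℤᵐ⁰}

theorem AtQ.ev (h : AtQ ι w) (t : K ⊗[F] K) :
    w (mu ι t - algebraMap K L (evd F K t)) < 1 := by
  induction t with
  | zero => simp
  | add t t' h h' =>
    rw [map_add, map_add, map_add, add_sub_add_comm]
    exact lt_of_le_of_lt (Valuation.map_add _ _ _) (max_lt h h')
  | tmul c f =>
    rw [mu_tmul, evd_tmul, map_mul, ← mul_sub, map_mul]
    calc _ ≤ 1 * w (ι f - algebraMap K L f) :=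
          mul_le_mul_left (cle h.1 c) _
      _ < 1 := by rw [one_mul]; exact h.2 f

theorem AtQ.le_one (h : AtQ ι w) (t : K ⊗[F] K) : w (mu ι t) ≤ 1 := by
  have h1 : mu ι t = (mu ι t - algebraMap K L (evd F K t)) +
      algebraMap K L (evd F K t) := by ring
  rw [h1]
  exact (Valuation.map_add _ _ _).trans (max_le (h.ev t).le (cle h.1 _))

theorem AtQ.lt_one_iff (h : AtQ ι w) (t : K ⊗[F] K) :
    w (mu ι t) < 1 ↔ evd F K t = 0 := by
  constructor
  · intro h1
    apply clt h.1
    have h2 : algebraMap K L (evd F K t) =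
        mu ι t - (mu ι t - algebraMap K L (evd F K t)) := by ring
    rw [h2]
    exact lt_of_le_of_lt (Valuation.map_sub _ _ _) (max_lt h1 (h.ev t))
  · intro h1
    have := h.ev t
    rwa [h1, map_zero, sub_zero] at this

theorem AtQ.eq_one (h : AtQ ι w) {t : K ⊗[F] K} (ht : evd F K t ≠ 0) :
    w (mu ι t) = 1 :=
  le_antisymm (h.le_one t) (not_lt.mp fun h1 => ht ((h.lt_one_iff t).mp h1))

theorem evd_piD : evd F K (piD F K) = 0 := by
  show CE2_280.ev _ _ = 0
  rw [ev_piT]
  exact sub_self _

theorem AtQ.pi_le (h : AtQ ι w) : w (mu ι (piD F K)) ≤ exp (-1) := by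
  rw [← lt_one_iff_le, h.lt_one_iff, evd_piD]

theorem piD_ne_zero : piD F K ≠ 0 := piT_ne_zero _

theorem AtQ.exists_form_aux (hι : IsCE K ι) (h : AtQ ι w) (m : ℕ) :
    ∀ t : K ⊗[F] K, t ≠ 0 → exp (-(m : ℤ)) ≤ w (mu ι t) →
    ∃ (k : ℕ) (e t' : K ⊗[F] K), evd F K e ≠ 0 ∧ evd F K t' ≠ 0 ∧
      e * t = piD F K ^ k * t' := by
  induction m with
  | zero =>
    intro t ht hm
    refine ⟨0, 1, t, by rw [map_one]; exact one_ne_zero, ?_, by simp⟩
    intro h0
    rw [← h.lt_one_iff] at h0
    simp at hm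
    exact absurd h0 (not_lt.mpr hm)
  | succ m ih =>
    intro t ht hm
    by_cases h0 : evd F K t = 0
    · obtain ⟨e, t', he, het⟩ := Tors6_235.exists_mul_eq h0
      have he0 : e ≠ 0 := by
        rintro rfl
        rw [map_zero] at he
        exact zero_ne_one he
      have ht' : t' ≠ 0 := by
        rintro rfl
        rw [mul_zero] at het
        exact (mul_ne_zero he0 ht) het
      have h1 := congrArg (fun s => w (mu ι s)) het
      simp only [map_mul] at h1
      rw [h.eq_one (by rw [he]; exact one_ne_zero), one_mul] at h1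
      obtain ⟨k, e', t'', he', ht'', heq⟩ := ih t' ht' (by
        have h2 : exp (-((m + 1 : ℕ) : ℤ)) ≤ exp (-1) * w (mu ι t') := by
          refine hm.trans ?_
          rw [h1]
          exact mul_le_mul_left h.pi_le _
        have h3 : exp (-((m + 1 : ℕ) : ℤ)) = exp (-1) * exp (-(m : ℤ)) := by
          rw [← exp_add]; congr 1; push_cast; ring
        rw [h3] at h2
        exact (mul_le_mul_iff_right₀ (by simp)).mp h2)
      refine ⟨k + 1, e' * e, t'', ?_, ht'', ?_⟩
      · rw [map_mul, he, mul_one]; exact he'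
      · rw [mul_assoc, het, pow_succ, mul_assoc, mul_left_comm, heq]
        ring
    · exact ⟨0, 1, t, by rw [map_one]; exact one_ne_zero, h0, by simp⟩

theorem AtQ.exists_form_T (hι : IsCE K ι) (h : AtQ ι w) {t : K ⊗[F] K} (ht : t ≠ 0) :
    ∃ (k : ℕ) (e t' : K ⊗[F] K), evd F K e ≠ 0 ∧ evd F K t' ≠ 0 ∧
      e * t = piD F K ^ k * t' := by
  have h1 : w (mu ι t) ≠ 0 := (Valuation.ne_zero_iff _).mpr (hι.ne_zero ht)
  refine h.exists_form_aux hι (-log (w (mu ι t))).toNat t ht ?_
  conv_rhs => rw [← exp_log h1]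
  rw [exp_le_exp]
  have h2 := Int.self_le_toNat (-log (w (mu ι t)))
  omega

/-- local form of an element of `L` along the diagonal -/
theorem AtQ.exists_form (hι : IsCE K ι) (h : AtQ ι w) {f : L} (hf : f ≠ 0) :
    ∃ (k : ℤ) (u₁ u₂ : K ⊗[F] K), evd F K u₁ ≠ 0 ∧ evd F K u₂ ≠ 0 ∧
      f * mu ι u₂ = mu ι (piD F K) ^ k * mu ι u₁ := by
  obtain ⟨a, b, hb, hab⟩ := hι.frac f
  have ha : a ≠ 0 := by
    rintro rfl
    rw [map_zero] at hab
    exact (mul_ne_zero hf (hι.ne_zero hb)) hab
  obtain ⟨k, e, t, he, ht, heq⟩ := h.exists_form_T hι ha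
  obtain ⟨k', e', t', he', ht', heq'⟩ := h.exists_form_T hι hb
  have hpi : mu ι (piD F K) ≠ 0 := hι.ne_zero (piT_ne_zero _)
  refine ⟨(k : ℤ) - k', t * e', e * t', ?_, ?_, ?_⟩
  · rw [map_mul]; exact mul_ne_zero ht he'
  · rw [map_mul]; exact mul_ne_zero he ht'
  · have h1 := congrArg (mu ι) heq
    have h2 := congrArg (mu ι) heq'
    rw [map_mul, map_mul, map_pow] at h1 h2
    have h3 : mu ι b ≠ 0 := hι.ne_zero hb
    have hpk : mu ι (piD F K) ^ k' ≠ 0 := pow_ne_zero _ hpi
    rw [zpow_sub₀ hpi, zpow_natCast, zpow_natCast, map_mul, map_mul]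
    rw [div_mul_eq_mul_div, eq_div_iff hpk]
    apply mul_right_cancel₀ h3
    calc f * (mu ι e * mu ι t') * mu ι (piD F K) ^ k' * mu ι b
        = (f * mu ι b) * mu ι e * (mu ι (piD F K) ^ k' * mu ι t') := by ring
      _ = mu ι a * mu ι e * (mu ι e' * mu ι b) := by rw [hab, h2]
      _ = (mu ι e * mu ι a) * mu ι e' * mu ι b := by ring
      _ = _ := by rw [h1]; ring

theorem mu_piD : mu (Ω := K) ι (piD F K) = ι (xK F K) - algebraMap K L (xK F K) := by
  show mu (Ω := K) ι (1 ⊗ₜ xK F K - xK F K ⊗ₜ 1) = _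
  rw [map_sub, mu_tmul, mu_tmul, map_one, map_one, one_mul, mul_one]

/-- the leading coefficient along the diagonal -/
theorem lead_Q (hι : IsCE K ι) (h : AtQ ι w) {f : L} (hf : f ≠ 0) :
    ∃ (k : ℤ) (r : K), r ≠ 0 ∧ ∀ w : Valuation L ℤᵐ⁰, AtQ ι w →
      w (f / (ι (xK F K) - algebraMap K L (xK F K)) ^ k - algebraMap K L r) < 1 := by
  obtain ⟨k, u₁, u₂, h₁, h₂, heq⟩ := h.exists_form hι hf
  refine ⟨k, evd F K u₁ / evd F K u₂, div_ne_zero h₁ h₂, fun w hw => ?_⟩
  have hpi : mu ι (piD F K) ≠ 0 := hι.ne_zero (piT_ne_zero _)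
  have hu₂ : mu ι u₂ ≠ 0 := by
    intro h0
    have := hw.eq_one h₂
    rw [h0, map_zero] at this
    exact zero_ne_one this
  rw [← mu_piD]
  have e : f / mu ι (piD F K) ^ k = mu ι u₁ / mu ι u₂ := by
    rw [div_eq_div_iff (zpow_ne_zero _ hpi) hu₂, heq]
    ring
  rw [e, map_div₀]
  exact div_sub_lt w (hw.ev u₁) (hw.ev u₂) (hw.1 _ h₂) (hw.1 _ h₁)

end Q

section Der

variable {w : Valuation L ℤᵐ⁰}

theorem exists_der (hι : IsCE K ι) (h : AtQ ι w) (f : K) :
    ∃ d : K, ∀ w : Valuation L ℤᵐ⁰, AtQ ι w →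
      w ((ι f - algebraMap K L f) / (ι (xK F K) - algebraMap K L (xK F K)) -
        algebraMap K L d) < 1 := by
  by_cases hf : ι f - algebraMap K L f = 0
  · exact ⟨0, fun w _ => by rw [hf]; simp⟩
  obtain ⟨k, r, hr, hk⟩ := lead_Q hι h hf
  have hpi : ι (xK F K) - algebraMap K L (xK F K) ≠ 0 := by
    rw [← mu_piD]; exact hι.ne_zero (piT_ne_zero _)
  have hk1 : 1 ≤ k := by
    have h1 := eq_one_of_sub_lt w (hk w h) (h.1 r hr)
    have h2 := h.2 f
    have h3 := h.2 (xK F K)
    rw [map_div₀, map_zpow₀] at h1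
    by_contra hcon
    push Not at hcon
    have hw0 : 0 < w (ι (xK F K) - algebraMap K L (xK F K)) := (Valuation.pos_iff w).2 hpi
    have h4 : 1 ≤ w (ι (xK F K) - algebraMap K L (xK F K)) ^ k := by
      obtain ⟨m, rfl⟩ : ∃ m : ℕ, k = -(m : ℤ) := ⟨(-k).toNat, by omega⟩
      rw [zpow_neg, zpow_natCast]
      exact (one_le_inv₀ (pow_pos hw0 m)).2 (pow_le_one₀ zero_le h3.le)
    have h5 : w (ι f - algebraMap K L f) = w (ι (xK F K) - algebraMap K L (xK F K)) ^ k := by
      rwa [div_eq_one_iff_eq (ne_of_gt (lt_of_lt_of_le zero_lt_one h4))] at h1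
    rw [h5] at h2
    exact absurd h4 (not_le.2 h2)
  rcases eq_or_lt_of_le hk1 with hk2 | hk2
  · refine ⟨r, fun w hw => ?_⟩
    have := hk w hw
    rwa [← hk2, zpow_one] at this
  · refine ⟨0, fun w hw => ?_⟩
    rw [map_zero, sub_zero]
    have h1 := eq_one_of_sub_lt w (hk w hw) (hw.1 r hr)
    have e : (ι f - algebraMap K L f) / (ι (xK F K) - algebraMap K L (xK F K)) =
        ((ι f - algebraMap K L f) / (ι (xK F K) - algebraMap K L (xK F K)) ^ k) *
          (ι (xK F K) - algebraMap K L (xK F K)) ^ (k - 1) := by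
      rw [zpow_sub_one₀ hpi, div_mul_eq_mul_div, eq_div_iff (zpow_ne_zero _ hpi), div_eq_mul_inv]
      ring
    rw [e, map_mul, h1, one_mul, map_zpow₀]
    obtain ⟨m, hm⟩ : ∃ m : ℕ, k - 1 = (m + 1 : ℕ) := ⟨(k - 2).toNat, by omega⟩
    rw [hm, zpow_natCast, pow_succ]
    calc _ ≤ 1 * w (ι (xK F K) - algebraMap K L (xK F K)) :=
          mul_le_mul_left (pow_le_one₀ zero_le (hw.2 _).le) _
      _ < 1 := by rw [one_mul]; exact hw.2 _

theorem der_unique (h : AtQ ι w) {y : L} {d d' : K} (h1 : w (y - algebraMap K L d) < 1)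
    (h2 : w (y - algebraMap K L d') < 1) : d = d' := by
  have h3 : w (algebraMap K L (d - d')) < 1 := by
    have : algebraMap K L (d - d') = (y - algebraMap K L d') - (y - algebraMap K L d) := by
      rw [map_sub]; ring
    rw [this]
    exact lt_of_le_of_lt (Valuation.map_sub _ _ _) (max_lt h2 h1)
  exact sub_eq_zero.1 (clt h.1 h3)

/-- **the derivative is the leading coefficient of `f(s) - f(t)`** -/
theorem del_rel (hι : IsCE K ι) (h : AtQ ι w) (f : K) (w' : Valuation L ℤᵐ⁰) (hw' : AtQ ι w') :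
    w' ((ι f - algebraMap K L f) / (ι (xK F K) - algebraMap K L (xK F K)) -
        algebraMap K L (del F K f)) < 1 := by
  choose d hd using exists_der hι h
  have hpi : ι (xK F K) - algebraMap K L (xK F K) ≠ 0 := by
    rw [← mu_piD]; exact hι.ne_zero (piT_ne_zero _)
  have huniq : ∀ f c, w ((ι f - algebraMap K L f) / (ι (xK F K) - algebraMap K L (xK F K)) -
        algebraMap K L c) < 1 → d f = c := fun f c hc => der_unique h (hd f w h) hc
  let D : Derivation F K K := Derivation.mk'
    { toFun := d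
      map_add' := by
        intro f g
        apply huniq
        have e : (ι (f + g) - algebraMap K L (f + g)) / (ι (xK F K) - algebraMap K L (xK F K)) -
            algebraMap K L (d f + d g) =
            ((ι f - algebraMap K L f) / (ι (xK F K) - algebraMap K L (xK F K)) -
              algebraMap K L (d f)) +
            ((ι g - algebraMap K L g) / (ι (xK F K) - algebraMap K L (xK F K)) -
              algebraMap K L (d g)) := by
          rw [map_add, map_add, map_add]; ring
        rw [e]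
        exact lt_of_le_of_lt (Valuation.map_add _ _ _) (max_lt (hd f w h) (hd g w h))
      map_smul' := by
        intro c f
        apply huniq
        have e : (ι (c • f) - algebraMap K L (c • f)) / (ι (xK F K) - algebraMap K L (xK F K)) -
            algebraMap K L (c • d f) = algebraMap K L (algebraMap F K c) *
            ((ι f - algebraMap K L f) / (ι (xK F K) - algebraMap K L (xK F K)) -
              algebraMap K L (d f)) := by
          rw [Algebra.smul_def, Algebra.smul_def, map_mul, map_mul, map_mul, AlgHom.commutes,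
            IsScalarTower.algebraMap_apply F K L]
          ring
        show w ((ι (c • f) - algebraMap K L (c • f)) / (ι (xK F K) - algebraMap K L (xK F K)) -
            algebraMap K L (c • d f)) < 1
        rw [e, map_mul]
        calc _ ≤ 1 * w ((ι f - algebraMap K L f) / (ι (xK F K) - algebraMap K L (xK F K)) -
              algebraMap K L (d f)) := mul_le_mul_left (cle h.1 _) _
          _ < 1 := by rw [one_mul]; exact hd f w h }
    (by
      intro f g
      show d (f * g) = f • d g + g • d f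
      apply huniq
      have e : (ι (f * g) - algebraMap K L (f * g)) / (ι (xK F K) - algebraMap K L (xK F K)) -
            algebraMap K L (f • d g + g • d f) =
            (ι f * ((ι g - algebraMap K L g) / (ι (xK F K) - algebraMap K L (xK F K))) -
              algebraMap K L f * algebraMap K L (d g)) +
            (((ι f - algebraMap K L f) / (ι (xK F K) - algebraMap K L (xK F K))) *
              algebraMap K L g - algebraMap K L (d f) * algebraMap K L g) := by
          rw [smul_eq_mul, smul_eq_mul, map_add, map_mul, map_mul, map_mul, map_mul]; ring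
      rw [e]
      have hle : ∀ f, w ((ι f - algebraMap K L f) / (ι (xK F K) - algebraMap K L (xK F K))) ≤ 1 := by
        intro f
        have h1 : (ι f - algebraMap K L f) / (ι (xK F K) - algebraMap K L (xK F K)) =
          ((ι f - algebraMap K L f) / (ι (xK F K) - algebraMap K L (xK F K)) -
            algebraMap K L (d f)) + algebraMap K L (d f) := by ring
        rw [h1]
        exact (Valuation.map_add _ _ _).trans (max_le (hd f w h).le (cle h.1 _))
      refine lt_of_le_of_lt (Valuation.map_add _ _ _) (max_lt ?_ ?_)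
      · exact mul_sub_lt w (h.2 f) (hd g w h) (hle g) (cle h.1 _)
      · rw [← sub_mul, map_mul]
        calc _ ≤ w ((ι f - algebraMap K L f) / (ι (xK F K) - algebraMap K L (xK F K)) -
              algebraMap K L (d f)) * 1 := mul_le_mul_right (cle h.1 _) _
          _ < 1 := by rw [mul_one]; exact hd f w h)
  have hDx : D (xK F K) = 1 := by
    show d (xK F K) = 1
    apply huniq
    rw [div_self hpi, map_one, sub_self, map_zero]
    exact zero_lt_one
  have hD : ∀ f, D f = del F K f := by
    intro f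
    have h1 := congrArg D.liftKaehlerDifferential (D_eq F K f)
    rw [Derivation.liftKaehlerDifferential_comp_D, map_smul,
      Derivation.liftKaehlerDifferential_comp_D, hDx, smul_eq_mul, mul_one] at h1
    exact h1
  have := hd f w' hw'
  rw [← hD f]
  exact this

end Der

end Crest.Agent.R013.Tors7_235
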