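import Mathlib
import Crest.Agent.R013.Tors7_235

/-!
# Row 13, leaf TORS (helper235), part 8: leading coefficients along `P × C` and uniqueness of the
vertical valuations.
-/

set_option autoImplicit false
set_option linter.all false

namespace Crest.Agent.R013.Tors8_235

open WithZero TensorProduct Module
open Crest.Agent.R013.RR7_948 Crest.Agent.R013.RR11_948 Crest.Agent.R013.CE1_280
open Crest.Agent.R013.RR8_948 Crest.Agent.R013.RR9_948 Crest.Agent.R013.RR14_948
open Crest.Agent.R013.CE2_280 Crest.Agent.R013.CE3_280 Crest.Agent.R013.Tors6_235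
open Crest.Agent.R013.Tors7_235

variable {F K : Type*} [Field F] [IsAlgClosed F] [Field K] [Algebra F K]
  [Algebra (RatFunc F) K] [IsScalarTower F (RatFunc F) K] [FiniteDimensional (RatFunc F) K]
  [Algebra.IsSeparable (RatFunc F) K]
  {L : Type*} [Field L] [Algebra K L] [Algebra F L] [IsScalarTower F K L]
  {ι : K →ₐ[F] L}

theorem lead_P_T (P : Pl F K) {u : K} (hu : P.v u = exp (-1)) {t : K ⊗[F] K} (ht : t ≠ 0) :
    ∃ (n : ℤ) (r : K), r ≠ 0 ∧ ∀ w : Valuation L ℤᵐ⁰, OverP ι P w →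
      w (mu ι t * ι u ^ n - algebraMap K L r) < 1 := by
  classical
  let b := Basis.ofVectorSpace F K
  obtain ⟨c, rfl⟩ := TensorProduct.eq_repr_basis_left b t
  obtain ⟨n, i₀, hi₀, hle⟩ := exists_max P (c := c) (by
    rintro rfl; exact ht (by simp))
  have hu0 : u ≠ 0 := by
    rintro rfl; rw [map_zero] at hu; exact exp_ne_zero hu.symm
  have hg : ∀ i, P.v (c i * u ^ n) ≤ 1 := by
    intro i
    rw [map_mul, map_zpow₀, hu, ← exp_zsmul]
    calc _ ≤ exp n * exp (n • (-1)) := mul_le_mul_left (hle i) _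
      _ = 1 := by rw [← exp_add]; simp
  choose r hr using fun i => exists_residue P (hg i)
  have hr0 : r i₀ ≠ 0 := by
    intro h0
    have h1 := hr i₀
    rw [h0, map_zero, sub_zero, map_mul, map_zpow₀, hi₀, hu, ← exp_zsmul, ← exp_add] at h1
    simp at h1
  have hsum : (∑ i ∈ c.support, r i • b i) ≠ 0 := by
    intro h0
    have h1 := linearIndependent_iff'.mp b.linearIndependent c.support r h0 i₀ (by
      rw [Finsupp.mem_support_iff]
      intro h2
      rw [h2, map_zero] at hi₀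
      exact exp_ne_zero hi₀.symm)
    exact hr0 h1
  refine ⟨n, ∑ i ∈ c.support, r i • b i, hsum, fun w hw => ?_⟩
  have hdiff : mu ι (c.sum fun i f => b i ⊗ₜ f) * ι u ^ n -
      algebraMap K L (∑ i ∈ c.support, r i • b i) =
      ∑ i ∈ c.support, algebraMap K L (b i) * ι (c i * u ^ n - algebraMap F K (r i)) := by
    rw [Finsupp.sum, map_sum, Finset.sum_mul, map_sum, ← Finset.sum_sub_distrib]
    refine Finset.sum_congr rfl fun i _ => ?_
    rw [mu_tmul, map_sub, map_mul, map_zpow₀, AlgHom.commutes, Algebra.smul_def, map_mul,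
      ← IsScalarTower.algebraMap_apply]
    ring
  rw [hdiff]
  refine Valuation.map_sum_lt _ one_ne_zero fun i _ => ?_
  rw [map_mul]
  calc _ ≤ 1 * w (ι (c i * u ^ n - algebraMap F K (r i))) :=
        mul_le_mul_left (cle hw.1 _) _
    _ < 1 := by rw [one_mul]; exact hw.2.2 _ (hr i)

/-- the leading coefficient along `P × C` -/
theorem lead_P (hι : IsCE K ι) (P : Pl F K) {u : K} (hu : P.v u = exp (-1)) {f : L} (hf : f ≠ 0) :
    ∃ (k : ℤ) (r : K), r ≠ 0 ∧ ∀ w : Valuation L ℤᵐ⁰, OverP ι P w →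
      w (f / ι u ^ k - algebraMap K L r) < 1 := by
  obtain ⟨a, b, hb, hab⟩ := hι.frac f
  have ha : a ≠ 0 := by
    rintro rfl
    rw [map_zero] at hab
    exact (mul_ne_zero hf (hι.ne_zero hb)) hab
  have hu0 : ι u ≠ 0 := by
    intro h0
    rw [_root_.map_eq_zero] at h0
    rw [h0, map_zero] at hu
    exact exp_ne_zero hu.symm
  obtain ⟨n, r, hr, hn⟩ := lead_P_T (ι := ι) P hu ha
  obtain ⟨m, s, hs, hm⟩ := lead_P_T (ι := ι) P hu hb
  refine ⟨m - n, r / s, div_ne_zero hr hs, fun w hw => ?_⟩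
  have hb' : mu ι b ≠ 0 := hι.ne_zero hb
  have e : f / ι u ^ (m - n) = (mu ι a * ι u ^ n) / (mu ι b * ι u ^ m) := by
    rw [div_eq_div_iff (zpow_ne_zero _ hu0) (mul_ne_zero hb' (zpow_ne_zero _ hu0)), ← hab,
      zpow_sub₀ hu0]
    field_simp
  rw [e, map_div₀]
  exact div_sub_lt w (hn w hw) (hm w hw) (hw.1 _ hs) (hw.1 _ hr)

/-- vertical valuations -/
def Vert (ι : K →ₐ[F] L) (c : Pl F K) (w : Valuation L ℤᵐ⁰) : Prop :=
  (∀ b : K, w (algebraMap K L b) = c.v b) ∧ ∀ f : K, f ≠ 0 → w (ι f) = 1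

theorem Vert.gauss {c : Pl F K} {w : Valuation L ℤᵐ⁰} (hw : Vert ι c w) {κ : Type*}
    (b : Basis κ F K) (a : κ →₀ K) (n : ℤ) (hle : ∀ i, c.v (a i) ≤ exp n) {i₀ : κ}
    (hi₀ : c.v (a i₀) = exp n) :
    w (mu ι (a.sum fun i f => f ⊗ₜ b i)) = exp n := by
  classical
  obtain ⟨u, hu⟩ := c.surj (exp (-1))
  have hu0 : u ≠ 0 := by
    rintro rfl; rw [map_zero] at hu; exact exp_ne_zero hu.symm
  have hg : ∀ i, c.v (a i * u ^ n) ≤ 1 := by
    intro i
    rw [map_mul, map_zpow₀, hu, ← exp_zsmul]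
    calc _ ≤ exp n * exp (n • (-1)) := mul_le_mul_left (hle i) _
      _ = 1 := by rw [← exp_add]; simp
  choose r hr using fun i => exists_residue c (hg i)
  have hr0 : r i₀ ≠ 0 := by
    intro h0
    have h1 := hr i₀
    rw [h0, map_zero, sub_zero, map_mul, map_zpow₀, hi₀, hu, ← exp_zsmul, ← exp_add] at h1
    simp at h1
  have hsum : (∑ i ∈ a.support, r i • b i) ≠ 0 := by
    intro h0
    have h1 := linearIndependent_iff'.mp b.linearIndependent a.support r h0 i₀ (by
      rw [Finsupp.mem_support_iff]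
      intro h2
      rw [h2, map_zero] at hi₀
      exact exp_ne_zero hi₀.symm)
    exact hr0 h1
  have hιle : ∀ f : K, w (ι f) ≤ 1 := by
    intro f
    by_cases hf : f = 0
    · simp [hf]
    · exact (hw.2 f hf).le
  have hdiff : mu ι (a.sum fun i f => f ⊗ₜ b i) * algebraMap K L u ^ n -
      ι (∑ i ∈ a.support, r i • b i) =
      ∑ i ∈ a.support, algebraMap K L (a i * u ^ n - algebraMap F K (r i)) * ι (b i) := by
    rw [Finsupp.sum, map_sum, Finset.sum_mul, map_sum, ← Finset.sum_sub_distrib]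
    refine Finset.sum_congr rfl fun i _ => ?_
    rw [mu_tmul, map_sub, map_mul, map_zpow₀, Algebra.smul_def, map_mul, AlgHom.commutes,
      ← IsScalarTower.algebraMap_apply]
    ring
  have h1 : w (mu ι (a.sum fun i f => f ⊗ₜ b i) * algebraMap K L u ^ n) = 1 := by
    apply eq_one_of_sub_lt w (y := ι (∑ i ∈ a.support, r i • b i))
    · rw [hdiff]
      refine Valuation.map_sum_lt _ one_ne_zero fun i _ => ?_
      rw [map_mul, hw.1]
      calc _ ≤ c.v (a i * u ^ n - algebraMap F K (r i)) * 1 := mul_le_mul_right (hιle _) _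
        _ < 1 := by rw [mul_one]; exact hr i
    · exact hw.2 _ hsum
  rw [map_mul, map_zpow₀, hw.1, hu, ← exp_zsmul] at h1
  have h2 := eq_inv_of_mul_eq_one_left h1
  rw [h2, ← exp_neg]
  simp

/-- **uniqueness of the vertical valuation** -/
theorem Vert.unique (hι : IsCE K ι) {c : Pl F K} {w w' : Valuation L ℤᵐ⁰} (hw : Vert ι c w)
    (hw' : Vert ι c w') (f : L) : w f = w' f := by
  classical
  let b := Basis.ofVectorSpace F K
  have key : ∀ t : K ⊗[F] K, w (mu ι t) = w' (mu ι t) := by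
    intro t
    by_cases ht : t = 0
    · simp [ht]
    · obtain ⟨a, rfl⟩ := TensorProduct.eq_repr_basis_right b t
      obtain ⟨n, i₀, hi₀, hle⟩ := exists_max c (c := a) (by
        rintro rfl; exact ht (by simp))
      rw [hw.gauss b a n hle hi₀, hw'.gauss b a n hle hi₀]
  obtain ⟨x, y, hy, hxy⟩ := hι.frac f
  have hy' : mu ι y ≠ 0 := hι.ne_zero hy
  have e : f = mu ι x / mu ι y := by
    rw [eq_div_iff hy']; exact hxy
  rw [e, map_div₀, map_div₀, key, key]

end Crest.Agent.R013.Tors8_235
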