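import Mathlib
import Crest.Agent.R013.Tors8_235

/-!
# Row 13, leaf TORS (helper235), part 9: the embeddings of `L` at the points of the surface `C × C`
and the valuations which they induce.
-/

set_option autoImplicit false
set_option linter.all false

namespace Crest.Agent.R013.Tors9_235

open WithZero PowerSeries TensorProduct Module
open Crest.Agent.R013.RR7_948 Crest.Agent.R013.RR11_948 Crest.Agent.R013.CE1_280
open Crest.Agent.R013.RR8_948 Crest.Agent.R013.RR9_948 Crest.Agent.R013.RR12_948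
open Crest.Agent.R013.CE3_280
open Crest.Agent.R013.Tors1_235 Crest.Agent.R013.Tors2_235 Crest.Agent.R013.Tors3_235
open Crest.Agent.R013.Tors4_235 Crest.Agent.R013.Tors5_235 Crest.Agent.R013.Tors7_235
open Crest.Agent.R013.Tors8_235

variable {F K : Type*} [Field F] [IsAlgClosed F] [Field K] [Algebra F K]
  [Algebra (RatFunc F) K] [IsScalarTower F (RatFunc F) K] [FiniteDimensional (RatFunc F) K]
  [Algebra.IsSeparable (RatFunc F) K]
variable (M : Type*) [Field M] [Algebra F M] [Algebra ((F⟦X⟧)⟦X⟧) M]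
  [IsScalarTower F ((F⟦X⟧)⟦X⟧) M] [IsFractionRing ((F⟦X⟧)⟦X⟧) M]
variable {L : Type*} [Field L] [Algebra K L] [Algebra F L] [IsScalarTower F K L]
  {ι : K →ₐ[F] L}

/-- the embedding at the point `(P, c)` -/
theorem exists_ph (hι : IsCE K ι) (P c : Pl F K) : ∃ φ : L →+* M,
    (∀ b : K, φ (algebraMap K L b) = be M c b) ∧ ∀ a : K, φ (ι a) = al M P a := by
  letI : Algebra (K ⊗[F] K) L := (mu (Ω := K) ι).toRingHom.toAlgebra
  have halg : ∀ t : K ⊗[F] K, algebraMap (K ⊗[F] K) L t = mu ι t := fun t => rfl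
  haveI : FaithfulSMul (K ⊗[F] K) L := by
    rw [faithfulSMul_iff_algebraMap_injective]
    exact hι.inj
  haveI : IsFractionRing (K ⊗[F] K) L := by
    apply IsFractionRing.of_field
    intro z
    obtain ⟨a, b, hb, hab⟩ := hι.frac z
    refine ⟨a, b, ?_⟩
    rw [halg, halg, eq_div_iff (hι.ne_zero hb), hab]
  let φ : L →+* M := IsFractionRing.lift (g := (ph0 M P c).toRingHom) (ph0_injective M P c)
  have hφ : ∀ t : K ⊗[F] K, φ (mu ι t) = ph0 M P c t := fun t =>
    IsFractionRing.lift_algebraMap (K := L) (g := (ph0 M P c).toRingHom) (ph0_injective M P c) t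
  refine ⟨φ, fun b => ?_, fun a => ?_⟩
  · have h1 := hφ (b ⊗ₜ 1)
    rw [mu_tmul, ph0_tmul, map_one, map_one, mul_one, mul_one] at h1
    exact h1
  · have h1 := hφ (1 ⊗ₜ a)
    rw [mu_tmul, ph0_tmul, map_one, map_one, one_mul, one_mul] at h1
    exact h1

variable {M}

section Val

variable {P c : Pl F K} {φ : L →+* M} (hb : ∀ b : K, φ (algebraMap K L b) = be M c b)
  (ha : ∀ a : K, φ (ι a) = al M P a)

include hb in
theorem triv {π : (F⟦X⟧)⟦X⟧} (hπ : Prime π) (h : ¬ π ∣ tt F) (b : K) (hb0 : b ≠ 0) :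
    (pv M hπ).comap φ (algebraMap K L b) = 1 := by
  rw [Valuation.comap_apply, hb, pv_be M c hb0 hπ h]

include hb ha in
theorem vert : Vert ι c ((pv M (prime_tt (F := F))).comap φ) := by
  constructor
  · intro b
    rw [Valuation.comap_apply, hb, pvt_be]
  · intro f hf
    rw [Valuation.comap_apply, ha, pv_al M P hf _ not_tt_dvd_X]

include hb ha in
theorem overP : OverP ι P ((pv M (prime_XX (F := F))).comap φ) := by
  refine ⟨triv hb _ not_X_dvd_tt, fun f hf => ?_, fun f hf => ?_⟩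
  · rwa [Valuation.comap_apply, ha, pvX_al]
  · rwa [Valuation.comap_apply, ha, pvX_al]

include ha in
theorem overP_norm : ((pv M (prime_XX (F := F))).comap φ) (ι (unif P)) = exp (-1) := by
  rw [Valuation.comap_apply, ha, pvX_al, v_unif]

theorem dd_dvd (f : F⟦X⟧) : dd F ∣ PowerSeries.map C f - C f := by
  have h1 : (isRed_dd (F := F)).ρ (PowerSeries.map C f) = f := by
    apply (isRed_dd (F := F)).ρ_eq
    have h2 : gs (PowerSeries.map (C : F →+* F⟦X⟧) f) 0 = f := by
      ext n
      rw [gs, coeff_mk]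
      rw [Finset.sum_eq_single ((0 : ℕ), n)]
      · simp
      · rintro ⟨a, b⟩ hab hne
        rw [Finset.HasAntidiagonal.mem_antidiagonal] at hab
        have ha : a ≠ 0 := by
          rintro rfl
          apply hne
          simp only [zero_add] at hab
          rw [hab]
        simp only [coeff_map]
        rw [coeff_C, if_neg ha]
      · intro hn
        exact absurd (by simp) hn
    conv_rhs => rw [← h2]
    refine ⟨PowerSeries.mk fun i => gs (PowerSeries.map (C : F →+* F⟦X⟧) f) (i + 1), ?_⟩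
    rw [h2]
    ext1 i
    cases i with
    | zero =>
      rw [map_sub, coeff_zero_C]
      simp only [dd, sub_mul, map_sub, coeff_zero_X_mul, coeff_C_mul, coeff_mk]
      have h3 := gs_eq (PowerSeries.map (C : F →+* F⟦X⟧) f) 0
      rw [h2] at h3
      rw [zero_add] at h3
      linear_combination (exp := 1) -h3
    | succ i =>
      rw [map_sub, coeff_succ_C]
      simp only [dd, sub_mul, map_sub, coeff_succ_X_mul, coeff_C_mul, coeff_mk]
      rw [gs_eq (PowerSeries.map (C : F →+* F⟦X⟧) f) (i + 1)]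
      ring
  have h3 := (isRed_dd (F := F)).dvd_sub (PowerSeries.map C f)
  rwa [h1] at h3

end Val

section Diag

variable {c : Pl F K} {φ : L →+* M} (hb : ∀ b : K, φ (algebraMap K L b) = be M c b)
  (ha : ∀ a : K, φ (ι a) = al M c a)

include hb ha in
theorem phi_diff (f : K) (hf : c.v f ≤ 1) : ∃ q : (F⟦X⟧)⟦X⟧,
    φ (ι f - algebraMap K L f) = algebraMap _ M (dd F * q) := by
  obtain ⟨q, hq⟩ := dd_dvd (ex c ⟨f, mem_valSub.2 hf⟩)
  refine ⟨q, ?_⟩
  rw [map_sub, ha, hb, al, be, emb_of_le _ _ c hf, emb_of_le _ _ c hf, psA_apply, psB_apply,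
    ← map_sub, hq]

include hb ha in
theorem atQ : AtQ ι ((pv M (prime_dd (F := F))).comap φ) := by
  have htr := triv hb (prime_dd (F := F)) not_dd_dvd_tt
  have hle : ∀ f : K, c.v f ≤ 1 →
      (pv M (prime_dd (F := F))).comap φ (ι f - algebraMap K L f) < 1 := by
    intro f hf
    obtain ⟨q, hq⟩ := phi_diff hb ha f hf
    rw [Valuation.comap_apply, hq]
    have h1 : pv M (prime_dd (F := F)) (algebraMap _ M (dd F * q)) < 1 :=
      (pv_lt_one_iff (R := (F⟦X⟧)⟦X⟧) M _ _).2 (dvd_mul_right _ _)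
    exact h1
  refine ⟨htr, fun f => ?_⟩
  rcases le_or_gt (c.v f) 1 with hf | hf
  · exact hle f hf
  · have hf0 : f ≠ 0 := by rintro rfl; simp at hf
    have h1 : c.v f⁻¹ ≤ 1 := by
      rw [map_inv₀]; exact inv_le_one_of_one_le₀ hf.le
    have h2 := hle _ h1
    have h3 : (pv M (prime_dd (F := F))).comap φ (ι f⁻¹) = 1 := by
      rw [Valuation.comap_apply, ha]
      exact pv_al M c (inv_ne_zero hf0) _ not_dd_dvd_X
    have h4 := htr f⁻¹ (inv_ne_zero hf0)
    have h5 : ι f - algebraMap K L f =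
        - (ι f⁻¹ - algebraMap K L f⁻¹) / (ι f⁻¹ * algebraMap K L f⁻¹) := by
      have h6 : ι f ≠ 0 := by simpa using hf0
      have h7 : algebraMap K L f ≠ 0 := by simpa using hf0
      rw [map_inv₀, map_inv₀]
      field_simp
      ring
    rw [h5, map_div₀, map_mul, h3, h4, mul_one, div_one, Valuation.map_neg]
    exact h2

include hb ha in
theorem phi_unif : φ (ι (unif c) - algebraMap K L (unif c)) = algebraMap _ M (dd F) := by
  rw [map_sub, ha, hb, al_unif, be_unif, ← map_sub]
  rfl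

include hb ha in
theorem atQ_norm : ((pv M (prime_dd (F := F))).comap φ) (ι (unif c) - algebraMap K L (unif c)) =
    exp (-1) := by
  rw [Valuation.comap_apply, phi_unif hb ha]
  exact pv_self (R := (F⟦X⟧)⟦X⟧) M _

end Diag

section Class

variable {P c : Pl F K} {φ : L →+* M} (hb : ∀ b : K, φ (algebraMap K L b) = be M c b)
  (ha : ∀ a : K, φ (ι a) = al M P a)

omit [IsAlgClosed F] in
theorem exists_sep {P Q : Pl F K} (h : P ≠ Q) : ∃ f : K, P.v (f - 1) < 1 ∧ Q.v f < 1 := by
  classical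
  obtain ⟨f, hf⟩ := weak_approx ({P, Q} : Finset (Pl F K)) (fun R => if R = P then 1 else 0) 1
  refine ⟨f, ?_, ?_⟩
  · have h1 := hf P (by simp)
    rw [if_pos rfl] at h1
    rwa [lt_one_iff_le]
  · have h1 := hf Q (by simp)
    rw [if_neg h.symm, sub_zero] at h1
    rwa [lt_one_iff_le]

include ha in
theorem class_overP {P₀ : Pl F K} {π : (F⟦X⟧)⟦X⟧} (hπ : Prime π)
    (h : OverP ι P₀ ((pv M hπ).comap φ)) : P = P₀ ∧ π ∣ X := by
  have hPP : P = P₀ := by
    by_contra hne
    obtain ⟨f, hf1, hf2⟩ := exists_sep hne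
    have h1 := h.2.2 f hf2
    have hPf : P.v f = 1 := eq_one_of_sub_lt P.v hf1 (map_one _)
    obtain ⟨u, hu⟩ := al_form M P (n := 0) (by rw [hPf, exp_zero])
    rw [Valuation.comap_apply, ha, hu, neg_zero, zpow_zero, mul_one, pv_unit] at h1
    exact lt_irrefl _ h1
  refine ⟨hPP, ?_⟩
  subst hPP
  have h1 := h.2.2 (unif P) (v_unif_lt P)
  rw [Valuation.comap_apply, ha, al_unif, pv_lt_one_iff] at h1
  exact h1

include hb ha in
theorem class_atQ {π : (F⟦X⟧)⟦X⟧} (hπ : Prime π)
    (h : AtQ ι ((pv M hπ).comap φ)) : P = c ∧ π ∣ dd F := by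
  have hPc : P = c := by
    by_contra hne
    obtain ⟨f, hf1, hf2⟩ := exists_sep hne
    have h1 := h.2 f
    have hPf : P.v f = 1 := eq_one_of_sub_lt P.v hf1 (map_one _)
    rw [Valuation.comap_apply, map_sub, ha, hb, al, be, emb_of_le _ _ P hPf.le,
      emb_of_le _ _ c hf2.le, psA_apply, psB_apply, ← map_sub, pv_lt_one_iff] at h1
    apply hπ.not_isUnit
    refine isUnit_of_dvd_unit h1 ?_
    rw [PowerSeries.isUnit_iff_constantCoeff, PowerSeries.isUnit_iff_constantCoeff]
    have h2 : constantCoeff (ex c ⟨f, mem_valSub.2 hf2.le⟩) = 0 := by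
      rw [← X_dvd_iff, ← pow_one X, X_pow_dvd_ex, Nat.cast_one, ← lt_one_iff_le]
      exact hf2
    have h3 := ex_isUnit P (f := ⟨f, mem_valSub.2 hPf.le⟩) hPf
    rw [PowerSeries.isUnit_iff_constantCoeff] at h3
    rw [map_sub, map_sub, constantCoeff_C, h2, sub_zero]
    have h4 : constantCoeff (PowerSeries.map C (ex P ⟨f, mem_valSub.2 hPf.le⟩)) =
        (C : F →+* F⟦X⟧) (constantCoeff (ex P ⟨f, mem_valSub.2 hPf.le⟩)) := by
      rw [← coeff_zero_eq_constantCoeff_apply, coeff_map, coeff_zero_eq_constantCoeff_apply]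
    rw [h4, constantCoeff_C]
    exact h3
  refine ⟨hPc, ?_⟩
  subst hPc
  have h1 := h.2 (unif P)
  rw [Valuation.comap_apply, phi_unif hb ha, pv_lt_one_iff] at h1
  exact h1

end Class

end Crest.Agent.R013.Tors9_235
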