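import Mathlib
import Crest.Agent.R013.Tors9_235
import Crest.Agent.R013.RR17_948

/-!
# Row 13, leaf TORS (helper235), part 10: CORE.  If a function on `C × C` has divisor
`Δ - P₀ × C` modulo `N` (over the generic point of the second factor) then `N ∣ 2 g`.
-/

set_option autoImplicit false
set_option linter.all false

namespace Crest.Agent.R013.Tors10_235

open WithZero PowerSeries TensorProduct Module
open Crest.Agent.R013.RR7_948 Crest.Agent.R013.RR11_948 Crest.Agent.R013.CE1_280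
open Crest.Agent.R013.RR8_948 Crest.Agent.R013.RR9_948 Crest.Agent.R013.RR12_948
open Crest.Agent.R013.RR14_948 Crest.Agent.R013.RR17_948
open Crest.Agent.R013.CE3_280 Crest.Agent.R013.CE5_280
open Crest.Agent.R013.Tors1_235 Crest.Agent.R013.Tors2_235 Crest.Agent.R013.Tors3_235
open Crest.Agent.R013.Tors4_235 Crest.Agent.R013.Tors5_235 Crest.Agent.R013.Tors7_235
open Crest.Agent.R013.Tors8_235 Crest.Agent.R013.Tors9_235

section Nu

variable {R S : Type*} [CommRing R] [IsDomain R] [WfDvdMonoid R] [CommRing S] [IsDomain S]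
  [WfDvdMonoid S] {C : S →+* R} {δ : R} (h : IsRed C δ) (hδ : Prime δ) {τ : S} (hτ : Prime τ)
  {M : Type*} [Field M] [Algebra R M] [IsFractionRing R M]

include hδ hτ in
theorem nu_eq_of_sub {y z : M} (hy : pv M hδ y = 1) (hz : pv M hδ (z - y) < 1) :
    nu h τ z = nu h τ y := by
  have hy0 : y ≠ 0 := by rintro rfl; simp at hy
  have hz1 : pv M hδ z = 1 := eq_one_of_sub_lt _ hz hy
  have hz0 : z ≠ 0 := by rintro rfl; simp at hz1
  have h1 : nu h τ (z / y) = multiplicity τ (1 : S) := by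
    apply nu_of_lt h hδ hτ one_ne_zero
    have e : z / y - algebraMap R M (C 1) = (z - y) / y := by
      rw [map_one, map_one, sub_div, div_self hy0]
    rw [e, map_div₀, hy, div_one]
    exact hz
  rw [multiplicity_of_one_right hτ.not_isUnit] at h1
  have e : z = (z / y) * y := by rw [div_mul_cancel₀ _ hy0]
  rw [e, nu_mul h hδ hτ (div_ne_zero hz0 hy0) hy0, h1]
  simp

end Nu

variable {F K : Type*} [Field F] [IsAlgClosed F] [Field K] [Algebra F K]
  [Algebra (RatFunc F) K] [IsScalarTower F (RatFunc F) K] [FiniteDimensional (RatFunc F) K]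
  [Algebra.IsSeparable (RatFunc F) K]
variable {M : Type*} [Field M] [Algebra F M] [Algebra ((F⟦X⟧)⟦X⟧) M]
  [IsScalarTower F ((F⟦X⟧)⟦X⟧) M] [IsFractionRing ((F⟦X⟧)⟦X⟧) M]
variable {L : Type*} [Field L] [Algebra K L] [Algebra F L] [IsScalarTower F K L]
  {ι : K →ₐ[F] L}

theorem nuX_be (c : Pl F K) {b : K} {n : ℤ} (hb : c.v b = exp n) :
    nuX (F := F) (be M c b) = -n := by
  obtain ⟨u, hu⟩ := be_form M c hb
  have ht : algebraMap _ M (tt F) ≠ 0 := algebraMap_ne prime_tt.ne_zero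
  have h0 := nuX_tt (F := F) (M := M)
  unfold nuX at h0 ⊢
  rw [hu, nu_mul isRed_X prime_XX X_prime (algebraMap_ne u.ne_zero) (zpow_ne_zero _ ht),
    nu_unit isRed_X prime_XX X_prime, nu_zpow isRed_X prime_XX X_prime ht, h0]
  ring

theorem nuD_be (c : Pl F K) {b : K} {n : ℤ} (hb : c.v b = exp n) :
    nuD (F := F) (be M c b) = -n := by
  obtain ⟨u, hu⟩ := be_form M c hb
  have ht : algebraMap _ M (tt F) ≠ 0 := algebraMap_ne prime_tt.ne_zero
  have h0 := nuD_tt (F := F) (M := M)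
  unfold nuD at h0 ⊢
  rw [hu, nu_mul isRed_dd prime_dd X_prime (algebraMap_ne u.ne_zero) (zpow_ne_zero _ ht),
    nu_unit isRed_dd prime_dd X_prime, nu_zpow isRed_dd prime_dd X_prime ht, h0]
  ring

/-- the hypothesis of CORE: the divisor of `h` over `K` is `Q - P₀` modulo `N` -/
structure DivMod (ι : K →ₐ[F] L) (P₀ : Pl F K) (N : ℕ) (h : L) : Prop where
  oth : ∀ w : Valuation L ℤᵐ⁰, (∀ b : K, b ≠ 0 → w (algebraMap K L b) = 1) → ¬ AtQ ι w →
    ¬ OverP ι P₀ w → (N : ℤ) ∣ log (w h)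
  atQ : ∀ w : Valuation L ℤᵐ⁰, AtQ ι w → (∃ f : K, w (ι f - algebraMap K L f) = exp (-1)) →
    (N : ℤ) ∣ log (w h) + 1
  ovr : ∀ w : Valuation L ℤᵐ⁰, OverP ι P₀ w → (∃ f : K, w (ι f) = exp (-1)) →
    (N : ℤ) ∣ log (w h) - 1

section Emb

variable {P c P₀ : Pl F K} {φ : L →+* M} {N : ℕ} {h : L}

/-- the relation at a point of the surface -/
theorem point_key (hb : ∀ b : K, φ (algebraMap K L b) = be M c b)
    (ha : ∀ a : K, φ (ι a) = al M P a) (hN : 0 < N) (h0 : h ≠ 0) (hd : DivMod ι P₀ N h) :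
    (N : ℤ) ∣ nuX (F := F) (φ h) + log (((pv M (prime_tt (F := F))).comap φ) h) +
      log (((pv M (prime_dd (F := F))).comap φ) h) ∧
    (N : ℤ) ∣ nuD (F := F) (φ h) + log (((pv M (prime_tt (F := F))).comap φ) h) +
      log (((pv M (prime_XX (F := F))).comap φ) h) := by
  have hz : φ h ≠ 0 := by simpa using h0
  refine key hN hz ?_
  intro π hπ h1 h2 h3
  have n1 : ¬ π ∣ tt F := fun hd => h1 (hπ.associated_of_dvd prime_tt hd)
  have n2 : ¬ π ∣ X := fun hd => h2 (hπ.associated_of_dvd prime_XX hd)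
  have n3 : ¬ π ∣ dd F := fun hd => h3 (hπ.associated_of_dvd prime_dd hd)
  exact hd.oth ((pv M hπ).comap φ) (triv hb hπ n1) (fun hq => n3 (class_atQ hb ha hπ hq).2)
    (fun hq => n2 (class_overP ha hπ hq).2)

open Classical in
/-- the order along `P × C`, `P ≠ P₀` -/
theorem rel_P (hι : IsCE K ι) (hb : ∀ b : K, φ (algebraMap K L b) = be M c b)
    (ha : ∀ a : K, φ (ι a) = al M P a) (hN : 0 < N) (h0 : h ≠ 0) (hd : DivMod ι P₀ N h)
    (hP : P ≠ P₀) {k : ℤ} {r : K} (hr : r ≠ 0)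
    (hk : ∀ w : Valuation L ℤᵐ⁰, OverP ι P w → w (h / ι (unif P) ^ k - algebraMap K L r) < 1) :
    (N : ℤ) ∣ -log (c.v r) + log (((pv M (prime_tt (F := F))).comap φ) h) -
      (if c = P then 1 else 0) := by
  have h1 := (point_key hb ha hN h0 hd).1
  have hov := overP hb ha
  have h2 := hk _ hov
  rw [Valuation.comap_apply, map_sub, map_div₀, map_zpow₀, hb, ha, al_unif] at h2
  have hX : algebraMap ((F⟦X⟧)⟦X⟧) M X ≠ 0 := algebraMap_ne prime_XX.ne_zero
  have h3 : nuX (F := F) (φ h / algebraMap ((F⟦X⟧)⟦X⟧) M X ^ k) = nuX (F := F) (be M c r) :=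
    nu_eq_of_sub isRed_X prime_XX X_prime (pv_be M c hr _ not_X_dvd_tt) h2
  obtain ⟨n, hn⟩ := exists_exp c hr
  have h4 : nuX (F := F) (φ h) = -n := by
    have e : φ h = (φ h / algebraMap ((F⟦X⟧)⟦X⟧) M X ^ k) * algebraMap ((F⟦X⟧)⟦X⟧) M X ^ k := by
      rw [div_mul_cancel₀ _ (zpow_ne_zero _ hX)]
    have hφ : φ h ≠ 0 := by simpa using h0
    rw [nuX_be c hn] at h3
    have h5 := nuX_X (F := F) (M := M)
    unfold nuX at h3 h5 ⊢
    rw [e, nu_mul isRed_X prime_XX X_prime (div_ne_zero hφ (zpow_ne_zero _ hX))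
      (zpow_ne_zero _ hX), nu_zpow isRed_X prime_XX X_prime hX, h5, h3]
    ring
  rw [h4] at h1
  rw [hn, log_exp]
  -- the diagonal term
  have h5 : (N : ℤ) ∣ log (((pv M (prime_dd (F := F))).comap φ) h) + (if c = P then 1 else 0) := by
    split_ifs with hc
    · subst hc
      exact hd.atQ _ (atQ hb ha) ⟨unif c, atQ_norm hb ha⟩
    · rw [add_zero]
      exact hd.oth _ (triv hb _ not_dd_dvd_tt)
        (fun hq => hc (class_atQ hb ha _ hq).1.symm)
        (fun hq => hP (class_overP ha _ hq).1)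
  obtain ⟨a, ha'⟩ := h1
  obtain ⟨b, hb'⟩ := h5
  exact ⟨a - b, by linear_combination ha' - hb'⟩

open Classical in
/-- the order along the diagonal -/
theorem rel_Q [CharZero F] (hι : IsCE K ι) (hb : ∀ b : K, φ (algebraMap K L b) = be M c b)
    (ha : ∀ a : K, φ (ι a) = al M c a) (hN : 0 < N) (h0 : h ≠ 0) (hd : DivMod ι P₀ N h)
    {k : ℤ} {r : K} (hr : r ≠ 0)
    (hk : ∀ w : Valuation L ℤᵐ⁰, AtQ ι w →
      w (h / (ι (xK F K) - algebraMap K L (xK F K)) ^ k - algebraMap K L r) < 1) :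
    (N : ℤ) ∣ canD F K c - log (c.v r) + log (((pv M (prime_tt (F := F))).comap φ) h) +
      (if c = P₀ then 1 else 0) := by
  have h1 := (point_key hb ha hN h0 hd).2
  have hat := atQ hb ha
  set w := (pv M (prime_dd (F := F))).comap φ with hw
  have hpi : ι (xK F K) - algebraMap K L (xK F K) ≠ 0 := by
    rw [← mu_piD]; exact hι.ne_zero (CE3_280.piT_ne_zero _)
  set D := ι (xK F K) - algebraMap K L (xK F K) with hD
  have hφ : φ h ≠ 0 := by simpa using h0
  have hφD : φ D ≠ 0 := by simpa using hpi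
  have hdd : algebraMap _ M (dd F) ≠ 0 := algebraMap_ne prime_dd.ne_zero
  -- the derivative of the uniformizer
  have hvd := v_del_eq c (v_unif c)
  have hdel0 : del F K (unif c) ≠ 0 := by
    intro h0
    rw [h0, map_zero] at hvd
    exact exp_ne_zero hvd.symm
  have h2 := del_rel hι hat (unif c) w hat
  rw [← hD] at h2
  have h2' := h2
  rw [hw, Valuation.comap_apply, map_sub, map_div₀, phi_unif hb ha, hb] at h2
  have h3 : nuD (F := F) (algebraMap _ M (dd F) / φ D) = nuD (F := F) (be M c (del F K (unif c))) :=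
    nu_eq_of_sub isRed_dd prime_dd X_prime (pv_be M c hdel0 _ not_dd_dvd_tt) h2
  have h4 : nuD (F := F) (φ D) = canD F K c := by
    have h5 := nuD_dd (F := F) (M := M)
    rw [nuD_be c hvd] at h3
    unfold nuD at h3 h5 ⊢
    rw [div_eq_mul_inv, nu_mul isRed_dd prime_dd X_prime hdd (inv_ne_zero hφD),
      nu_inv isRed_dd prime_dd X_prime hφD, h5] at h3
    linarith
  -- the leading coefficient
  have h5 := hk w hat
  have h5' := h5
  rw [hw, Valuation.comap_apply, map_sub, map_div₀, map_zpow₀, hb] at h5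
  have h6 : nuD (F := F) (φ h / φ D ^ k) = nuD (F := F) (be M c r) :=
    nu_eq_of_sub isRed_dd prime_dd X_prime (pv_be M c hr _ not_dd_dvd_tt) h5
  obtain ⟨n, hn⟩ := exists_exp c hr
  have h7 : nuD (F := F) (φ h) = -n + k * canD F K c := by
    have e : φ h = (φ h / φ D ^ k) * φ D ^ k := by
      rw [div_mul_cancel₀ _ (zpow_ne_zero _ hφD)]
    rw [nuD_be c hn] at h6
    unfold nuD at h4 h6 ⊢
    rw [e, nu_mul isRed_dd prime_dd X_prime (div_ne_zero hφ (zpow_ne_zero _ hφD))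
      (zpow_ne_zero _ hφD), nu_zpow isRed_dd prime_dd X_prime hφD, h4, h6]
  -- the multiplicity of the diagonal
  have hwD : w D = exp (-1) := by
    have h8 := eq_one_of_sub_lt w h2' (hat.1 _ hdel0)
    have h9 : w (ι (unif c) - algebraMap K L (unif c)) = exp (-1) := atQ_norm hb ha
    rw [map_div₀, h9] at h8
    have h10 : w D ≠ 0 := (Valuation.ne_zero_iff _).2 hpi
    rw [div_eq_one_iff_eq h10] at h8
    exact h8.symm
  have hk1 : (N : ℤ) ∣ k - 1 := by
    have h8 := eq_one_of_sub_lt w h5' (hat.1 _ hr)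
    rw [map_div₀, map_zpow₀, hwD, ← exp_zsmul] at h8
    rw [div_eq_one_iff_eq exp_ne_zero] at h8
    have h9 := hd.atQ w hat ⟨unif c, atQ_norm hb ha⟩
    rw [h8, log_exp] at h9
    obtain ⟨a, ha'⟩ := h9
    exact ⟨-a, by simp only [smul_eq_mul] at ha'; linear_combination -ha'⟩
  have hX : (N : ℤ) ∣ log (((pv M (prime_XX (F := F))).comap φ) h) -
      (if c = P₀ then 1 else 0) := by
    split_ifs with hc
    · subst hc
      exact hd.ovr _ (overP hb ha) ⟨unif c, overP_norm ha⟩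
    · rw [sub_zero]
      exact hd.oth _ (triv hb _ not_X_dvd_tt)
        (fun hq => not_X_dvd_dd (class_atQ hb ha _ hq).2)
        (fun hq => hc (class_overP ha _ hq).1)
  rw [h7] at h1
  rw [hn, log_exp]
  obtain ⟨a, ha'⟩ := h1
  obtain ⟨b, hb'⟩ := hk1
  obtain ⟨d, hd'⟩ := hX
  exact ⟨a - b * canD F K c - d, by linear_combination ha' - canD F K c * hb' - hd'⟩

end Emb

/-- **CORE** -/
theorem core [CharZero F] (hι : IsCE K ι) {N : ℕ} (hN : 0 < N) {P₀ : Pl F K} {h : L} (h0 : h ≠ 0)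
    (hd : DivMod ι P₀ N h) : (N : ℤ) ∣ 2 * (gen F K : ℤ) := by
  classical
  let M := FractionRing ((F⟦X⟧)⟦X⟧)
  obtain ⟨P, hP⟩ := exists_notMem ({P₀} : Finset (Pl F K))
  have hP0 : P ≠ P₀ := by simpa using hP
  -- a diagonal valuation
  obtain ⟨φ₀, hb₀, ha₀⟩ := exists_ph M hι P₀ P₀
  obtain ⟨k, r, hr, hk⟩ := lead_Q hι (atQ hb₀ ha₀) h0
  obtain ⟨k', r', hr', hk'⟩ := lead_P hι P (v_unif P) h0
  have key : ∀ c : Pl F K, (N : ℤ) ∣ (canD F K + divf r - divf r' + Finsupp.single P₀ 1 +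
      Finsupp.single P 1 : Pl F K →₀ ℤ) c := by
    intro c
    obtain ⟨φ, hb, ha⟩ := exists_ph M hι c c
    obtain ⟨φ', hb', ha'⟩ := exists_ph M hι P c
    obtain ⟨a, h1⟩ := rel_Q hι hb ha hN h0 hd hr hk
    obtain ⟨b, h2⟩ := rel_P hι hb' ha' hN h0 hd hP0 hr' hk'
    have h3 : ((pv M (prime_tt (F := F))).comap φ) h = ((pv M (prime_tt (F := F))).comap φ') h :=
      Vert.unique hι (vert hb ha) (vert hb' ha') h
    rw [h3] at h1
    rw [v_eq hr, log_exp] at h1
    rw [v_eq hr', log_exp] at h2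
    simp only [Finsupp.add_apply, Finsupp.sub_apply, Finsupp.single_apply]
    refine ⟨a - b, ?_⟩
    have e1 : (if P₀ = c then (1 : ℤ) else 0) = if c = P₀ then 1 else 0 := by
      by_cases hc : c = P₀
      · rw [if_pos hc, if_pos hc.symm]
      · rw [if_neg hc, if_neg (fun h => hc h.symm)]
    have e2 : (if P = c then (1 : ℤ) else 0) = if c = P then 1 else 0 := by
      by_cases hc : c = P
      · rw [if_pos hc, if_pos hc.symm]
      · rw [if_neg hc, if_neg (fun h => hc h.symm)]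
    rw [e1, e2]
    linear_combination h1 - h2
  have hdeg : degD (canD F K + divf r - divf r' + Finsupp.single P₀ 1 +
      Finsupp.single P 1 : Pl F K →₀ ℤ) =
      2 * (gen F K : ℤ) := by
    rw [degD_add, degD_add, sub_eq_add_neg, degD_add, degD_add, degD_neg, degD_single, degD_single,
      degD_divf hr, degD_divf hr', degD_canD algebraicClosure_eq_bot, degP_eq_one, degP_eq_one]
    push_cast
    ring
  rw [← hdeg, degD_eq_sum]
  exact Finset.dvd_sum fun c _ => key c

end Crest.Agent.R013.Tors10_235
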