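import Mathlib
import Crest.Agent.R013.CE5_280
import Crest.Agent.R013.CntB2_491

/-!
# Row 13, leaf TORS (helper235), part 11: algebraic constant extensions are unramified.

`K ⊆ Ω` algebraic, `Ω` algebraically closed, char 0, `W = Ω L`, `P` a place of `W/Ω`: the value group
of `P` on `L` is everything.
-/

set_option autoImplicit false
set_option linter.all false

namespace Crest.Agent.R013.Tors11_235

open WithZero Module Polynomial
open Crest.Agent.R013.RR7_948 Crest.Agent.R013.RR11_948 Crest.Agent.R013.CE1_280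

section Ram

variable {K Ω L W : Type*} [Field K] [Field Ω] [Field L] [Field W] [Algebra K Ω] [Algebra K L]
  [Algebra K W] [Algebra Ω W] [Algebra L W] [IsScalarTower K Ω W] [IsScalarTower K L W]
  [IsAlgClosed Ω] [Algebra.IsAlgebraic K Ω] [CharZero K]
  [Algebra (RatFunc Ω) W] [IsScalarTower Ω (RatFunc Ω) W] [FiniteDimensional (RatFunc Ω) W]
  [Algebra.IsSeparable (RatFunc Ω) W]

/-- regular elements of `L` at `P` -/
def OL (L : Type*) [Field L] [Algebra L W] (P : Pl Ω W) : Submonoid W where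
  carrier := {x | ∃ f : L, algebraMap L W f = x ∧ P.v x ≤ 1}
  one_mem' := ⟨1, by simp, by simp⟩
  mul_mem' := by
    rintro _ _ ⟨f, rfl, hf⟩ ⟨g, rfl, hg⟩
    exact ⟨f * g, map_mul _ _ _, by rw [map_mul]; exact mul_le_one' hf hg⟩

/-- the `Ω`-algebra generated by the regular elements of `L` -/
noncomputable def BB (L : Type*) [Field L] [Algebra L W] (P : Pl Ω W) : Subalgebra Ω W :=
  Algebra.adjoin Ω (OL L P : Set W)

theorem mem_BB_of {P : Pl Ω W} {f : L} (hf : P.v (algebraMap L W f) ≤ 1) :
    algebraMap L W f ∈ BB L P := Algebra.subset_adjoin ⟨f, rfl, hf⟩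

theorem mem_BB_iff {P : Pl Ω W} {z : W} (hz : z ∈ BB L P) :
    ∃ c : W →₀ Ω, (c.support : Set W) ⊆ (OL L P : Set W) ∧ (c.sum fun x r => r • x) = z := by
  rw [BB, ← Subalgebra.mem_toSubmodule, Algebra.adjoin_eq_span, Submonoid.closure_eq] at hz
  rwa [Submodule.mem_span_set] at hz

theorem v_le_of_mem_BB {P : Pl Ω W} {z : W} (hz : z ∈ BB L P) : P.v z ≤ 1 := by
  obtain ⟨c, hc, rfl⟩ := mem_BB_iff hz
  rw [Finsupp.sum]
  refine Valuation.map_sum_le _ fun x hx => ?_
  obtain ⟨f, _, hf⟩ := hc hx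
  rw [Algebra.smul_def, map_mul]
  exact mul_le_one' (v_algebraMap_le P _) hf

theorem aeval_mem_BB {P : Pl Ω W} {x : W} (hx : x ∈ BB L P) (q : (Polynomial Ω)) :
    aeval x q ∈ BB L P := by
  have h1 : Algebra.adjoin Ω ({x} : Set W) ≤ BB L P := by
    rw [Algebra.adjoin_le_iff]
    rintro _ rfl
    exact hx
  exact h1 (aeval_mem_adjoin_singleton Ω x)

/-- values of polynomials -/
theorem v_aeval_sub_lt {P : Pl Ω W} {θ : W} {t : Ω} (hθ : P.v (θ - algebraMap Ω W t) < 1)
    (q : (Polynomial Ω)) : P.v (aeval θ q - algebraMap Ω W (q.eval t)) < 1 := by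
  have h1 : P.v θ ≤ 1 := by
    have e : θ = (θ - algebraMap Ω W t) + algebraMap Ω W t := by ring
    rw [e]
    exact (Valuation.map_add _ _ _).trans (max_le hθ.le (v_algebraMap_le P _))
  obtain ⟨q', hq'⟩ : (X - C t) ∣ q - C (q.eval t) := dvd_iff_isRoot.2 (by simp)
  have h2 : aeval θ q - algebraMap Ω W (q.eval t) = (θ - algebraMap Ω W t) * aeval θ q' := by
    have := congrArg (aeval θ) hq'
    simpa using this
  rw [h2, map_mul]
  calc _ ≤ P.v (θ - algebraMap Ω W t) * 1 := mul_le_mul_right (RR14_948.v_aeval_le P h1 _) _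
    _ < 1 := by rw [mul_one]; exact hθ

/-- the residues of the regular elements of `L` -/
def kap (K : Type*) [Field K] [Algebra K Ω] (L : Type*) [Field L] [Algebra K L] [Algebra L W]
    [Algebra K W] [IsScalarTower K Ω W] [IsScalarTower K L W] (P : Pl Ω W) :
    IntermediateField K Ω where
  carrier := {t | ∃ f : L, P.v (algebraMap L W f) ≤ 1 ∧
    P.v (algebraMap L W f - algebraMap Ω W t) < 1}
  mul_mem' := by
    rintro s t ⟨f, hf, hf'⟩ ⟨g, hg, hg'⟩
    refine ⟨f * g, by rw [map_mul, map_mul]; exact mul_le_one' hf hg, ?_⟩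
    have e : algebraMap L W (f * g) - algebraMap Ω W (s * t) =
      algebraMap L W f * (algebraMap L W g - algebraMap Ω W t) +
        (algebraMap L W f - algebraMap Ω W s) * algebraMap Ω W t := by
      rw [map_mul, map_mul]; ring
    rw [e]
    refine lt_of_le_of_lt (Valuation.map_add _ _ _) (max_lt ?_ ?_)
    · rw [map_mul]
      calc _ ≤ 1 * P.v (algebraMap L W g - algebraMap Ω W t) := mul_le_mul_left hf _
        _ < 1 := by rw [one_mul]; exact hg'
    · rw [map_mul]
      calc _ ≤ P.v (algebraMap L W f - algebraMap Ω W s) * 1 :=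
            mul_le_mul_right (v_algebraMap_le P _) _
        _ < 1 := by rw [mul_one]; exact hf'
  add_mem' := by
    rintro s t ⟨f, hf, hf'⟩ ⟨g, hg, hg'⟩
    refine ⟨f + g, by rw [map_add]; exact (Valuation.map_add _ _ _).trans (max_le hf hg), ?_⟩
    have e : algebraMap L W (f + g) - algebraMap Ω W (s + t) =
      (algebraMap L W f - algebraMap Ω W s) + (algebraMap L W g - algebraMap Ω W t) := by
      rw [map_add, map_add]; ring
    rw [e]
    exact lt_of_le_of_lt (Valuation.map_add _ _ _) (max_lt hf' hg')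
  algebraMap_mem' c := ⟨algebraMap K L c, by
    rw [← IsScalarTower.algebraMap_apply, IsScalarTower.algebraMap_apply K Ω W]
    exact v_algebraMap_le P _, by
    rw [← IsScalarTower.algebraMap_apply, ← IsScalarTower.algebraMap_apply, sub_self, map_zero]
    exact zero_lt_one⟩
  inv_mem' := by
    rintro t ⟨f, hf, hf'⟩
    by_cases ht : t = 0
    · subst ht
      exact ⟨0, by simp, by simp⟩
    · have h1 : P.v (algebraMap Ω W t) = 1 := P.const t ht
      have h2 : P.v (algebraMap L W f) = 1 := by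
        have h3 := Valuation.map_add_eq_of_lt_right (v := P.v)
          (x := algebraMap L W f - algebraMap Ω W t) (y := algebraMap Ω W t) (by rwa [h1])
        rwa [sub_add_cancel, h1] at h3
      have hf0 : algebraMap L W f ≠ 0 := by
        intro h0
        rw [h0, map_zero] at h2
        exact zero_ne_one h2
      have ht0 : algebraMap Ω W t ≠ 0 := by simpa using ht
      refine ⟨f⁻¹, by rw [map_inv₀, map_inv₀, h2, inv_one], ?_⟩
      have e : algebraMap L W f⁻¹ - algebraMap Ω W t⁻¹ =
          -(algebraMap L W f - algebraMap Ω W t) / (algebraMap L W f * algebraMap Ω W t) := by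
        rw [map_inv₀, map_inv₀]
        field_simp
        ring
      rw [e, map_div₀, map_mul, h1, h2, mul_one, div_one, Valuation.map_neg]
      exact hf'

theorem mem_kap {P : Pl Ω W} {t : Ω} : t ∈ kap K L P ↔ ∃ f : L, P.v (algebraMap L W f) ≤ 1 ∧
    P.v (algebraMap L W f - algebraMap Ω W t) < 1 := Iff.rfl

variable (K) in
include K in
/-- **the key step**: regular elements of `Ω L` which vanish at `P` are divisible by the generator
of the maximal ideal of `L` -/
theorem step {P : Pl Ω W} {ℓ : L} (hℓ0 : ℓ ≠ 0)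
    (hℓ : ∀ f : L, P.v (algebraMap L W f) < 1 →
      P.v (algebraMap L W f) ≤ P.v (algebraMap L W ℓ)) {z : W} (hz : z ∈ BB L P)
    (hz1 : P.v z < 1) :
    ∃ b z' : W, b ∈ BB L P ∧ z' ∈ BB L P ∧ P.v b = 1 ∧ b * z = algebraMap L W ℓ * z' := by
  classical
  obtain ⟨c, hc, hcz⟩ := mem_BB_iff hz
  have hℓW : algebraMap L W ℓ ≠ 0 := by simpa using hℓ0
  -- division by ℓ
  have hdiv : ∀ f : L, P.v (algebraMap L W f) < 1 →
      ∃ g ∈ BB L P, algebraMap L W f = algebraMap L W ℓ * g := by
    intro f hf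
    refine ⟨algebraMap L W (f / ℓ), mem_BB_of ?_, ?_⟩
    · rw [map_div₀, map_div₀]
      exact div_le_one_of_le₀ (hℓ f hf) zero_le
    · rw [map_div₀, mul_div_cancel₀ _ hℓW]
  -- residues
  choose! fx hfx hfx1 using fun (x : W) (hx : x ∈ (c.support : Set W)) => hc hx
  choose! χ hχ using fun (x : W) (hx : P.v x ≤ 1) => exists_residue P hx
  let T : Finset Ω := c.support.image χ
  let E : IntermediateField K Ω := IntermediateField.adjoin K (T : Set Ω)
  haveI : FiniteDimensional K E := IntermediateField.finiteDimensional_adjoin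
    (fun x _ => (Algebra.IsAlgebraic.isAlgebraic (R := K) x).isIntegral)
  have hE : E ≤ kap K L P := by
    rw [IntermediateField.adjoin_le_iff]
    intro t ht
    obtain ⟨x, hx, rfl⟩ := Finset.mem_image.1 (Finset.mem_coe.1 ht)
    have hx' : x ∈ (c.support : Set W) := hx
    exact mem_kap.2 ⟨fx x, by rw [hfx x hx']; exact hfx1 x hx', by
      rw [hfx x hx']; exact hχ x (hfx1 x hx')⟩
  let pb := Field.powerBasisOfFiniteOfSeparable K E
  obtain ⟨θ, hθ1, hθ⟩ := mem_kap.1 (hE pb.gen.2)
  have hpoly : ∀ x ∈ c.support, ∃ g : K[X], χ x = aeval (pb.gen : Ω) g := by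
    intro x hx
    have h1 : χ x ∈ E := IntermediateField.subset_adjoin K _
      (Finset.mem_coe.2 (Finset.mem_image_of_mem χ hx))
    obtain ⟨g, hg⟩ := pb.exists_eq_aeval' ⟨χ x, h1⟩
    refine ⟨g, ?_⟩
    have h2 := congrArg (algebraMap E Ω) hg
    rw [← aeval_algebraMap_apply] at h2
    exact h2
  choose! g hg using hpoly
  -- polynomials over K evaluated at θ lie in L
  have hKL : ∀ q : K[X], aeval (algebraMap L W θ) (q.map (algebraMap K Ω)) =
      algebraMap L W (aeval θ q) := by
    intro q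
    rw [aeval_map_algebraMap, aeval_algebraMap_apply]
  let G : (Polynomial Ω) := ∑ x ∈ c.support, C (c x) * (g x).map (algebraMap K Ω)
  have hsub : ∀ x ∈ c.support, P.v (x - algebraMap L W (aeval θ (g x))) < 1 := by
    intro x hx
    have h1 := v_aeval_sub_lt hθ ((g x).map (algebraMap K Ω))
    rw [hKL] at h1
    have h2 : ((g x).map (algebraMap K Ω)).eval (pb.gen : Ω) = χ x := by
      rw [hg x hx, eval_map_algebraMap]
    rw [h2] at h1
    have e : x - algebraMap L W (aeval θ (g x)) = (x - algebraMap Ω W (χ x)) -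
        (algebraMap L W (aeval θ (g x)) - algebraMap Ω W (χ x)) := by ring
    rw [e]
    exact lt_of_le_of_lt (Valuation.map_sub _ _ _) (max_lt (hχ x (hfx1 x hx)) h1)
  have hdiff : ∃ y ∈ BB L P, z - aeval (algebraMap L W θ) G = algebraMap L W ℓ * y := by
    have h1 : ∀ x ∈ c.support, ∃ y ∈ BB L P, x - algebraMap L W (aeval θ (g x)) =
        algebraMap L W ℓ * y := by
      intro x hx
      have hx' : x ∈ (c.support : Set W) := hx
      have h2 := hsub x hx
      have e : x - algebraMap L W (aeval θ (g x)) = algebraMap L W (fx x - aeval θ (g x)) := by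
        rw [map_sub, hfx x hx']
      rw [e] at h2 ⊢
      exact hdiv _ h2
    choose! y hy hy' using h1
    refine ⟨∑ x ∈ c.support, c x • y x, Subalgebra.sum_mem _ fun x hx =>
      Subalgebra.smul_mem _ (hy x hx) _, ?_⟩
    have e : z - aeval (algebraMap L W θ) G =
        ∑ x ∈ c.support, c x • (x - algebraMap L W (aeval θ (g x))) := by
      rw [← hcz, Finsupp.sum]
      simp only [G, map_sum, map_mul, aeval_C, hKL, Algebra.smul_def, mul_sub,
        Finset.sum_sub_distrib]
    rw [e, Finset.mul_sum]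
    refine Finset.sum_congr rfl fun x hx => ?_
    rw [hy' x hx, mul_smul_comm]
  obtain ⟨y, hyB, hy⟩ := hdiff
  -- G vanishes at the residue
  have hG0 : G.eval (pb.gen : Ω) = 0 := by
    apply v_algebraMap_lt P
    have h1 := v_aeval_sub_lt hθ G
    have h2 : P.v (algebraMap L W ℓ * y) ≤ P.v (algebraMap L W ℓ) := by
      rw [map_mul]
      calc _ ≤ P.v (algebraMap L W ℓ) * 1 := mul_le_mul_right (v_le_of_mem_BB hyB) _
        _ = _ := mul_one _
    by_cases hℓ1 : P.v (algebraMap L W ℓ) < 1
    · have e : algebraMap Ω W (G.eval (pb.gen : Ω)) = z - algebraMap L W ℓ * y -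
          (aeval (algebraMap L W θ) G - algebraMap Ω W (G.eval (pb.gen : Ω))) := by
        rw [← hy]; ring
      rw [e]
      refine lt_of_le_of_lt (Valuation.map_sub _ _ _) (max_lt ?_ h1)
      exact lt_of_le_of_lt (Valuation.map_sub _ _ _) (max_lt hz1 (lt_of_le_of_lt h2 hℓ1))
    · -- then the differences vanish to order `< 1` anyway
      have h3 : P.v (z - aeval (algebraMap L W θ) G) < 1 := by
        have e : z - aeval (algebraMap L W θ) G =
            ∑ x ∈ c.support, c x • (x - algebraMap L W (aeval θ (g x))) := by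
          rw [← hcz, Finsupp.sum]
          simp only [G, map_sum, map_mul, aeval_C, hKL, Algebra.smul_def, mul_sub,
            Finset.sum_sub_distrib]
        rw [e]
        refine Valuation.map_sum_lt _ one_ne_zero fun x hx => ?_
        rw [Algebra.smul_def, map_mul]
        calc _ ≤ 1 * P.v (x - algebraMap L W (aeval θ (g x))) :=
              mul_le_mul_left (v_algebraMap_le P _) _
          _ < 1 := by rw [one_mul]; exact hsub x hx
      have e : algebraMap Ω W (G.eval (pb.gen : Ω)) = z - (z - aeval (algebraMap L W θ) G) -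
          (aeval (algebraMap L W θ) G - algebraMap Ω W (G.eval (pb.gen : Ω))) := by
        ring
      rw [e]
      refine lt_of_le_of_lt (Valuation.map_sub _ _ _) (max_lt ?_ h1)
      exact lt_of_le_of_lt (Valuation.map_sub _ _ _) (max_lt hz1 h3)
  obtain ⟨G₁, hG₁⟩ := dvd_iff_isRoot.2 (show IsRoot G (pb.gen : Ω) from hG0)
  -- the minimal polynomial
  have hint : IsIntegral K (pb.gen : Ω) := (Algebra.IsAlgebraic.isAlgebraic _).isIntegral
  set m : K[X] := minpoly K (pb.gen : Ω) with hm
  have hm0 : (m.map (algebraMap K Ω)).eval (pb.gen : Ω) = 0 := by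
    rw [eval_map_algebraMap]; exact minpoly.aeval _ _
  obtain ⟨m₁, hm₁⟩ := dvd_iff_isRoot.2 (show IsRoot (m.map (algebraMap K Ω)) (pb.gen : Ω) from hm0)
  have hm₁0 : m₁.eval (pb.gen : Ω) ≠ 0 := by
    have hsep : m.Separable := (minpoly.irreducible hint).separable
    have h1 : (derivative (m.map (algebraMap K Ω))).eval (pb.gen : Ω) ≠ 0 := by
      rw [derivative_map, eval_map_algebraMap]
      exact hsep.aeval_derivative_ne_zero (minpoly.aeval _ _)
    rw [hm₁, derivative_mul] at h1
    simpa using h1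
  have hbB : aeval (algebraMap L W θ) m₁ ∈ BB L P :=
    aeval_mem_BB (mem_BB_of hθ1) m₁
  have hGB : aeval (algebraMap L W θ) G₁ ∈ BB L P :=
    aeval_mem_BB (mem_BB_of hθ1) G₁
  have hb1 : P.v (aeval (algebraMap L W θ) m₁) = 1 := by
    have h1 := v_aeval_sub_lt hθ m₁
    have h2 : P.v (algebraMap Ω W (m₁.eval (pb.gen : Ω))) = 1 := P.const _ hm₁0
    have h3 := Valuation.map_add_eq_of_lt_right (v := P.v)
      (x := aeval (algebraMap L W θ) m₁ - algebraMap Ω W (m₁.eval (pb.gen : Ω)))
      (y := algebraMap Ω W (m₁.eval (pb.gen : Ω))) (by rwa [h2])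
    rwa [sub_add_cancel, h2] at h3
  obtain ⟨m', hm'B, hm'⟩ := hdiv (aeval θ m) (by
    rw [← hKL]
    have h1 := v_aeval_sub_lt hθ (m.map (algebraMap K Ω))
    rwa [hm0, map_zero, sub_zero] at h1)
  refine ⟨aeval (algebraMap L W θ) m₁, aeval (algebraMap L W θ) m₁ * y +
    m' * aeval (algebraMap L W θ) G₁, hbB, Subalgebra.add_mem _ (Subalgebra.mul_mem _ hbB hyB)
    (Subalgebra.mul_mem _ hm'B hGB), hb1, ?_⟩
  have h1 : aeval (algebraMap L W θ) m₁ * aeval (algebraMap L W θ) G =
      algebraMap L W ℓ * m' * aeval (algebraMap L W θ) G₁ := by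
    rw [← hm', ← hKL, hm₁, hG₁, map_mul, map_mul]
    ring
  have h2 : z = (z - aeval (algebraMap L W θ) G) + aeval (algebraMap L W θ) G := by ring
  rw [h2, mul_add, h1, hy]
  ring

variable (K) in
include K in
/-- **constant extensions are unramified** -/
theorem exists_unif (hgen : Algebra.adjoin Ω (Set.range (algebraMap L W)) = ⊤)
    [Algebra.IsAlgebraic L W] (P : Pl Ω W) : ∃ ℓ : L, P.v (algebraMap L W ℓ) = exp (-1) := by
  classical
  -- L carries a nontrivial value
  obtain ⟨ℓ₀, hℓ₀⟩ : ∃ f : L, f ≠ 0 ∧ P.v (algebraMap L W f) < 1 := by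
    by_contra hcon
    push Not at hcon
    have h1 : ∀ c : L, c ≠ 0 → P.v (algebraMap L W c) = 1 := by
      intro c hc
      refine le_antisymm ?_ (hcon c hc)
      have h2 := hcon c⁻¹ (inv_ne_zero hc)
      rw [map_inv₀, map_inv₀] at h2
      have h3 : 0 < P.v (algebraMap L W c) := by
        rw [Valuation.pos_iff]; simpa using hc
      exact (one_le_inv₀ h3).1 h2
    obtain ⟨z, hz⟩ := P.surj (exp (-1))
    have hz0 : z ≠ 0 := by rintro rfl; rw [map_zero] at hz; exact exp_ne_zero hz.symm
    have h4 := CntB2_491.eq_one_of_algebraic (k := L) (k' := W) (L := W) P.v h1 z hz0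
    have h5 : P.v z = 1 := h4
    rw [hz, ← exp_zero, exp_inj] at h5
    norm_num at h5
  have hex : ∃ e : ℕ, 0 < e ∧ ∃ f : L, P.v (algebraMap L W f) = exp (-(e : ℤ)) := by
    have h1 : P.v (algebraMap L W ℓ₀) ≠ 0 := by
      rw [Valuation.ne_zero_iff]; simpa using hℓ₀.1
    have h2 := hℓ₀.2
    rw [← exp_log h1, ← exp_zero, exp_lt_exp] at h2
    refine ⟨(-log (P.v (algebraMap L W ℓ₀))).toNat, by omega, ℓ₀, ?_⟩
    rw [Int.toNat_of_nonneg (by omega), neg_neg, exp_log h1]
  obtain ⟨he0, ℓ, hℓ⟩ := Nat.find_spec hex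
  set e := Nat.find hex with he
  have hmin : ∀ f : L, P.v (algebraMap L W f) < 1 →
      P.v (algebraMap L W f) ≤ P.v (algebraMap L W ℓ) := by
    intro f hf
    by_cases hf0 : f = 0
    · rw [hf0, map_zero, map_zero]; exact zero_le
    have h1 : P.v (algebraMap L W f) ≠ 0 := by
      rw [Valuation.ne_zero_iff]; simpa using hf0
    have h2 := hf
    rw [← exp_log h1, ← exp_zero, exp_lt_exp] at h2
    have h3 : e ≤ (-log (P.v (algebraMap L W f))).toNat := by
      apply Nat.find_min' hex
      refine ⟨by omega, f, ?_⟩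
      rw [Int.toNat_of_nonneg (by omega), neg_neg, exp_log h1]
    rw [hℓ, ← exp_log h1, exp_le_exp]
    omega
  have hℓ0 : ℓ ≠ 0 := by
    rintro rfl
    rw [map_zero, map_zero] at hℓ
    exact exp_ne_zero hℓ.symm
  have hℓW : algebraMap L W ℓ ≠ 0 := by simpa using hℓ0
  -- values of BB
  have hdvd : ∀ (n : ℕ) (z : W), z ∈ BB L P → z ≠ 0 → (-log (P.v z)).toNat = n →
      (e : ℤ) ∣ log (P.v z) := by
    intro n
    induction n using Nat.strong_induction_on with
    | _ n ih =>
      intro z hz hz0 hn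
      have hle := v_le_of_mem_BB hz
      have hvz : P.v z ≠ 0 := (Valuation.ne_zero_iff _).2 hz0
      rcases eq_or_lt_of_le hle with h1 | h1
      · rw [h1, ← exp_zero, log_exp]
        exact dvd_zero _
      · obtain ⟨b, z', hb, hz', hb1, hbz⟩ := step K hℓ0 hmin hz h1
        have hz'0 : z' ≠ 0 := by
          rintro rfl
          rw [mul_zero, mul_eq_zero] at hbz
          rcases hbz with h2 | h2
          · rw [h2, map_zero] at hb1
            exact zero_ne_one hb1
          · exact hz0 h2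
        have hvz' : P.v z' ≠ 0 := (Valuation.ne_zero_iff _).2 hz'0
        have h2 := congrArg P.v hbz
        rw [map_mul, map_mul, hb1, one_mul, hℓ] at h2
        have h3 : log (P.v z) = -(e : ℤ) + log (P.v z') := by
          rw [h2, log_mul exp_ne_zero hvz', log_exp]
        rw [← exp_log hvz, ← exp_zero, exp_lt_exp] at h1
        have h4 := v_le_of_mem_BB hz'
        rw [← exp_log hvz', ← exp_zero, exp_le_exp] at h4
        obtain ⟨k, hk⟩ := ih (-log (P.v z')).toNat (by omega) z' hz' hz'0 rfl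
        exact ⟨k - 1, by rw [h3, hk]; ring⟩
  -- a uniformizer
  obtain ⟨u, hu⟩ := P.surj (exp (-1))
  have hu0 : u ≠ 0 := by rintro rfl; rw [map_zero] at hu; exact exp_ne_zero hu.symm
  have huB : ∀ u ∈ Algebra.adjoin Ω (Set.range (algebraMap L W)),
      ∃ k : ℕ, algebraMap L W ℓ ^ k * u ∈ BB L P := by
    intro u hu'
    induction hu' using Algebra.adjoin_induction with
    | mem x hx =>
      obtain ⟨f, rfl⟩ := hx
      by_cases hf0 : f = 0
      · exact ⟨0, by rw [hf0, map_zero, mul_zero]; exact Subalgebra.zero_mem _⟩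
      have h1 : P.v (algebraMap L W f) ≠ 0 := by
        rw [Valuation.ne_zero_iff]; simpa using hf0
      obtain ⟨n, hn⟩ : ∃ n : ℤ, P.v (algebraMap L W f) = exp n := ⟨_, (exp_log h1).symm⟩
      refine ⟨n.toNat, ?_⟩
      rw [← map_pow, ← map_mul]
      apply mem_BB_of
      rw [map_mul, map_mul, map_pow, map_pow, hℓ, ← exp_nsmul, hn, ← exp_add, ← exp_zero,
        exp_le_exp]
      have h2 := Int.self_le_toNat n
      rw [nsmul_eq_mul]
      have h3 : (1 : ℤ) ≤ e := by exact_mod_cast he0
      have h4 : (0 : ℤ) ≤ (n.toNat : ℤ) := Int.natCast_nonneg _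
      nlinarith
    | algebraMap r => exact ⟨0, by rw [pow_zero, one_mul]; exact Subalgebra.algebraMap_mem _ r⟩
    | add x y _ _ hx hy =>
      obtain ⟨k, hk⟩ := hx
      obtain ⟨k', hk'⟩ := hy
      refine ⟨k + k', ?_⟩
      have hℓB : algebraMap L W ℓ ∈ BB L P := mem_BB_of (by
        rw [hℓ, ← exp_zero, exp_le_exp]; omega)
      have e1 : algebraMap L W ℓ ^ (k + k') * (x + y) =
          algebraMap L W ℓ ^ k' * (algebraMap L W ℓ ^ k * x) +
            algebraMap L W ℓ ^ k * (algebraMap L W ℓ ^ k' * y) := by ring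
      rw [e1]
      exact Subalgebra.add_mem _ (Subalgebra.mul_mem _ (Subalgebra.pow_mem _ hℓB _) hk)
        (Subalgebra.mul_mem _ (Subalgebra.pow_mem _ hℓB _) hk')
    | mul x y _ _ hx hy =>
      obtain ⟨k, hk⟩ := hx
      obtain ⟨k', hk'⟩ := hy
      refine ⟨k + k', ?_⟩
      have e1 : algebraMap L W ℓ ^ (k + k') * (x * y) =
          (algebraMap L W ℓ ^ k * x) * (algebraMap L W ℓ ^ k' * y) := by ring
      rw [e1]
      exact Subalgebra.mul_mem _ hk hk'
  obtain ⟨k, hk⟩ := huB u (by rw [hgen]; trivial)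
  have h1 := hdvd _ _ hk (mul_ne_zero (pow_ne_zero _ hℓW) hu0) rfl
  have h2 : log (P.v (algebraMap L W ℓ ^ k * u)) = k * (-(e : ℤ)) + -1 := by
    rw [map_mul, map_pow, hℓ, hu, ← exp_nsmul, ← exp_add, log_exp, nsmul_eq_mul]
  rw [h2] at h1
  have h3 : (e : ℤ) ∣ 1 := by
    obtain ⟨j, hj⟩ := h1
    exact ⟨-k - j, by linear_combination -hj⟩
  have h4 : e = 1 := by
    have := Int.le_of_dvd one_pos h3
    omega
  refine ⟨ℓ, ?_⟩
  rw [hℓ, h4]
  rfl

end Ram

end Crest.Agent.R013.Tors11_235
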