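import Mathlib
import Crest.Agent.R013.Tors11_235

/-!
# Row 13, leaf TORS (helper235), part 12: places above a valuation and the Galois action for a
constant extension `W = Ω L`.
-/

set_option autoImplicit false
set_option linter.all false

namespace Crest.Agent.R013.Tors12_235

open WithZero Module
open Crest.Agent.R013.RR7_948 Crest.Agent.R013.RR8_948 Crest.Agent.R013.RR11_948
open Crest.Agent.R013.RR13_948 Crest.Agent.R013.CE1_280

variable {K Ω L W : Type*} [Field K] [Field Ω] [Field L] [Field W] [Algebra K Ω] [Algebra K L]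
  [Algebra K W] [Algebra Ω W] [Algebra L W] [IsScalarTower K Ω W] [IsScalarTower K L W]
  [IsAlgClosed Ω] [Algebra.IsAlgebraic K Ω] [CharZero K]

section Above

variable [Algebra (RatFunc Ω) W] [IsScalarTower Ω (RatFunc Ω) W] [FiniteDimensional (RatFunc Ω) W]
  [Algebra.IsSeparable (RatFunc Ω) W]

/-- every valuation of `L` trivial on `K` extends to a place of `W` -/
theorem exists_above (w : Valuation L ℤᵐ⁰)
    (hw : ∀ b : K, b ≠ 0 → w (algebraMap K L b) = 1) (hnt : ∃ a : L, w a ≠ 0 ∧ w a ≠ 1) :
    ∃ P : Pl Ω W, w.IsEquiv (P.v.comap (algebraMap L W)) := by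
  let A : ValuationSubring L := w.valuationSubring
  have hA : ∀ f : L, f ∈ A ↔ w f ≤ 1 := fun f => Iff.rfl
  obtain ⟨Q, hQ, hQA⟩ := Ideal.exists_ideal_over_maximal_of_isIntegral
    (S := integralClosure A W) (IsLocalRing.maximalIdeal A) (by
      have h1 : Function.Injective (algebraMap A (integralClosure A W)) := by
        intro a b hab
        have h2 := congrArg Subtype.val hab
        have h3 : algebraMap L W a = algebraMap L W b := h2
        exact Subtype.ext ((algebraMap L W).injective h3)
      rw [(RingHom.injective_iff_ker_eq_bot _).1 h1]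
      exact bot_le)
  obtain ⟨V, hV, hQV⟩ := Ideal.image_subset_nonunits_valuationSubring
    (A := (integralClosure A W).toSubring) (Q : Ideal (integralClosure A W).toSubring) hQ.ne_top
  have hVA : ∀ f : L, w f ≤ 1 → V.valuation (algebraMap L W f) ≤ 1 := by
    intro f hf
    rw [V.valuation_le_one_iff]
    apply hV
    exact (algebraMap A (integralClosure A W) ⟨f, (hA f).2 hf⟩).2
  have hVm : ∀ f : L, w f < 1 → V.valuation (algebraMap L W f) < 1 := by
    intro f hf
    have h1 : (⟨f, (hA f).2 hf.le⟩ : A) ∈ IsLocalRing.maximalIdeal A := by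
      rw [IsLocalRing.mem_maximalIdeal, mem_nonunits_iff]
      intro hu
      obtain ⟨g, hg⟩ := isUnit_iff_exists_inv.1 hu
      have h2 := congrArg (fun a : A => w (a : L)) hg
      have h3 : w (f * (g : L)) = 1 := by
        have : w (f * (g : L)) = w ((1 : A) : L) := h2
        rw [this]
        exact map_one w
      rw [map_mul] at h3
      have h4 : w (g : L) ≤ 1 := (hA _).1 g.2
      have h5 : w f * w (g : L) < 1 := by
        calc _ ≤ w f * 1 := mul_le_mul_right h4 _
          _ < 1 := by rw [mul_one]; exact hf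
      exact absurd h3 h5.ne
    rw [← hQA, Ideal.mem_comap] at h1
    exact (V.mem_nonunits_iff).mp (hQV ⟨_, h1, rfl⟩)
  have hVK : ∀ c : K, V.valuation (algebraMap K W c) ≤ 1 := by
    intro c
    rw [IsScalarTower.algebraMap_apply K L W]
    apply hVA
    by_cases hc : c = 0
    · simp [hc]
    · exact (hw c hc).le
  have hVΩ : ∀ c : Ω, V.valuation (algebraMap Ω W c) ≤ 1 := by
    intro c
    apply le_one_of_integral (S := K) V.valuation hVK
    exact ((Algebra.IsAlgebraic.isAlgebraic (R := K) c).isIntegral).map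
      (IsScalarTower.toAlgHom K Ω W)
  obtain ⟨a, ha0, ha1⟩ := hnt
  obtain ⟨a', ha0', ha1'⟩ : ∃ a : L, a ≠ 0 ∧ w a < 1 := by
    have haa : a ≠ 0 := (Valuation.ne_zero_iff _).1 ha0
    rcases lt_or_gt_of_ne ha1 with h | h
    · exact ⟨a, haa, h⟩
    · exact ⟨a⁻¹, inv_ne_zero haa, by rw [map_inv₀]; exact inv_lt_one_of_one_lt₀ h⟩
  obtain ⟨P, hP⟩ := exists_place (k := Ω) V.valuation (by
    intro c hc
    refine le_antisymm (hVΩ c) ?_
    have h1 := hVΩ c⁻¹
    rw [map_inv₀, map_inv₀] at h1
    have h2 : 0 < V.valuation (algebraMap Ω W c) := by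
      rw [Valuation.pos_iff]; simpa using hc
    exact (inv_le_one₀ h2).1 h1) ⟨algebraMap L W a', by
      rw [Valuation.ne_zero_iff]; simpa using ha0', (hVm a' ha1').ne⟩
  refine ⟨P, ?_⟩
  apply Valuation.isEquiv_of_val_le_one
  intro f
  rw [Valuation.comap_apply]
  constructor
  · intro h
    rw [hP.le_one_iff_le_one]
    exact hVA f h
  · intro h
    by_contra hcon
    push Not at hcon
    have hf0 : f ≠ 0 := by rintro rfl; simp at hcon
    have h1 : w f⁻¹ < 1 := by rw [map_inv₀]; exact inv_lt_one_of_one_lt₀ hcon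
    have h2 := hVm _ h1
    rw [← hP.lt_one_iff_lt_one, map_inv₀, map_inv₀] at h2
    have h3 : 0 < P.v (algebraMap L W f) := by
      rw [Valuation.pos_iff]; simpa using hf0
    rw [inv_lt_one₀ h3] at h2
    exact absurd h (not_le.2 h2)

end Above

section Gal

variable (K Ω L W)

/-- `W` is generated by `L` and `Ω` -/
def Gen : Prop := Algebra.adjoin Ω (Set.range (algebraMap L W)) = ⊤

variable {K Ω L W}

include K in
variable (K) in
theorem isAlgebraic (hgen : Gen Ω L W) : Algebra.IsAlgebraic L W := by
  refine ⟨fun x => ?_⟩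
  have hx : x ∈ Algebra.adjoin Ω (Set.range (algebraMap L W)) := by rw [hgen]; trivial
  induction hx using Algebra.adjoin_induction with
  | mem x hx =>
    obtain ⟨f, rfl⟩ := hx
    exact isAlgebraic_algebraMap f
  | algebraMap r =>
    have h1 : IsIntegral K (algebraMap Ω W r) :=
      ((Algebra.IsAlgebraic.isAlgebraic (R := K) r).isIntegral).map (IsScalarTower.toAlgHom K Ω W)
    exact h1.tower_top.isAlgebraic
  | add x y _ _ hx hy => exact hx.add hy
  | mul x y _ _ hx hy => exact hx.mul hy

include K in
variable (K) in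
theorem isGalois (hgen : Gen Ω L W) : IsGalois L W := by
  haveI := isAlgebraic K hgen
  haveI : CharZero L := charZero_of_injective_algebraMap (algebraMap K L).injective
  have hE : IntermediateField.adjoin L (Set.range (algebraMap Ω W)) = ⊤ := by
    rw [eq_top_iff]
    intro x _
    have hx : x ∈ Algebra.adjoin Ω (Set.range (algebraMap L W)) := by rw [hgen]; trivial
    induction hx using Algebra.adjoin_induction with
    | mem x hx =>
      obtain ⟨f, rfl⟩ := hx
      exact IntermediateField.algebraMap_mem _ f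
    | algebraMap r => exact IntermediateField.subset_adjoin L _ ⟨r, rfl⟩
    | add x y _ _ hx hy =>
      exact IntermediateField.add_mem _ (hx IntermediateField.mem_top) (hy IntermediateField.mem_top)
    | mul x y _ _ hx hy =>
      exact IntermediateField.mul_mem _ (hx IntermediateField.mem_top) (hy IntermediateField.mem_top)
  haveI : Normal L W := by
    rw [normal_iff]
    intro x
    refine ⟨(Algebra.IsAlgebraic.isAlgebraic x).isIntegral, ?_⟩
    apply IntermediateField.splits_of_mem_adjoin L W (S := Set.range (algebraMap Ω W)) (L := W)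
    · rintro _ ⟨r, rfl⟩
      refine ⟨(Algebra.IsAlgebraic.isAlgebraic _).isIntegral, ?_⟩
      have hr : IsIntegral K r := (Algebra.IsAlgebraic.isAlgebraic r).isIntegral
      have h1 : ((minpoly K r).map (algebraMap K Ω)).Splits := IsAlgClosed.splits _
      have h2 := h1.map (algebraMap Ω W)
      rw [Polynomial.map_map, ← IsScalarTower.algebraMap_eq] at h2
      have h3 : minpoly L (algebraMap Ω W r) ∣ (minpoly K r).map (algebraMap K L) := by
        have h4 := minpoly.dvd_map_of_isScalarTower K L (algebraMap Ω W r)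
        have h6 : minpoly K (algebraMap Ω W r) = minpoly K r :=
          minpoly.algebraMap_eq (algebraMap Ω W).injective r
        rwa [h6] at h4
      have h5 := Polynomial.map_dvd (algebraMap L W) h3
      rw [Polynomial.map_map, ← IsScalarTower.algebraMap_eq] at h5
      exact h2.of_dvd (Polynomial.map_ne_zero (minpoly.ne_zero hr)) h5
    · rw [hE]; exact IntermediateField.mem_top
  exact { }

include K in
variable (K) in
/-- `Ω` is stable under `Gal(W/L)` -/
theorem exists_eq (τ : W ≃ₐ[L] W) (c : Ω) : ∃ c' : Ω, algebraMap Ω W c' = τ (algebraMap Ω W c) := by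
  have h1 : IsIntegral K (algebraMap Ω W c) :=
    ((Algebra.IsAlgebraic.isAlgebraic (R := K) c).isIntegral).map (IsScalarTower.toAlgHom K Ω W)
  have h2 : IsIntegral K (τ (algebraMap Ω W c)) :=
    h1.map (τ.toAlgHom.restrictScalars K)
  have h3 : IsIntegral Ω (τ (algebraMap Ω W c)) := h2.tower_top
  exact minpoly.mem_range_of_degree_eq_one Ω _
    (IsAlgClosed.degree_eq_one_of_irreducible Ω (minpoly.irreducible h3))

/-- the action on places -/
noncomputable def tw (K : Type*) [Field K] [CharZero K] [Algebra K Ω] [Algebra K L] [Algebra K W]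
    [IsScalarTower K Ω W] [IsScalarTower K L W] [Algebra.IsAlgebraic K Ω]
    (τ : W ≃ₐ[L] W) (P : Pl Ω W) : Pl Ω W where
  v := P.v.comap (τ : W →+* W)
  const c hc := by
    obtain ⟨c', hc'⟩ := exists_eq K τ c
    rw [Valuation.comap_apply]
    show P.v (τ (algebraMap Ω W c)) = 1
    rw [← hc']
    apply P.const
    rintro rfl
    rw [map_zero] at hc'
    have h1 : algebraMap Ω W c = 0 := by
      rw [← map_eq_zero τ, ← hc']
    exact hc (by simpa using h1)
  surj m := by
    obtain ⟨x, hx⟩ := P.surj m
    refine ⟨τ.symm x, ?_⟩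
    rw [Valuation.comap_apply]
    show P.v (τ (τ.symm x)) = m
    rw [AlgEquiv.apply_symm_apply, hx]

theorem tw_v (τ : W ≃ₐ[L] W) (P : Pl Ω W) (x : W) : (tw K τ P).v x = P.v (τ x) := rfl

theorem tw_symm_tw (τ : W ≃ₐ[L] W) (P : Pl Ω W) : tw K τ (tw K τ.symm P) = P := by
  apply Pl.ext
  ext x
  rw [tw_v, tw_v, AlgEquiv.symm_apply_apply]

theorem tw_tw_symm (τ : W ≃ₐ[L] W) (P : Pl Ω W) : tw K τ.symm (tw K τ P) = P := by
  apply Pl.ext
  ext x
  rw [tw_v, tw_v, AlgEquiv.apply_symm_apply]

variable (K) in
/-- the permutation of the places -/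
noncomputable def twE (τ : W ≃ₐ[L] W) : Pl Ω W ≃ Pl Ω W where
  toFun := tw K τ
  invFun := tw K τ.symm
  left_inv := tw_tw_symm τ
  right_inv := tw_symm_tw τ

end Gal

end Crest.Agent.R013.Tors12_235
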