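import Mathlib
import Crest.Agent.R013.Tors12_235

/-!
# Row 13, leaf TORS (helper235), part 13: descent of a function whose divisor is invariant modulo `N`
(reduced divisors instead of Hilbert 90).
-/

set_option autoImplicit false
set_option linter.all false

namespace Crest.Agent.R013.Tors13_235

open WithZero Module
open Crest.Agent.R013.RR7_948 Crest.Agent.R013.RR8_948 Crest.Agent.R013.RR9_948
open Crest.Agent.R013.RR11_948 Crest.Agent.R013.RR12_948
open Crest.Agent.R013.RR13_948 Crest.Agent.R013.CE1_280 Crest.Agent.R013.CE5_280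
open Crest.Agent.R013.Tors12_235

section AC

variable {Ω W : Type*} [Field Ω] [Field W] [Algebra Ω W] [IsAlgClosed Ω]
  [Algebra (RatFunc Ω) W] [IsScalarTower Ω (RatFunc Ω) W] [FiniteDimensional (RatFunc Ω) W]
  [Algebra.IsSeparable (RatFunc Ω) W]

theorem ell_step (D : Pl Ω W →₀ ℤ) (P : Pl Ω W) :
    ell D ≤ ell (D - Finsupp.single P 1) + 1 := by
  have h1 := riemann_roch (algebraicClosure_eq_bot (k := Ω) (K := W)) D
  have h2 := riemann_roch (algebraicClosure_eq_bot (k := Ω) (K := W)) (D - Finsupp.single P 1)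
  have h3 : ell (canD Ω W - D) ≤ ell (canD Ω W - (D - Finsupp.single P 1)) := by
    apply ell_mono
    have e : canD Ω W - (D - Finsupp.single P 1) = (canD Ω W - D) + Finsupp.single P 1 := by abel
    rw [e]
    exact le_add_of_nonneg_right (Finsupp.single_nonneg.2 zero_le_one)
  rw [degD_sub, degD_single, degP_eq_one] at h2
  have h3' : (ell (canD Ω W - D) : ℤ) ≤ ell (canD Ω W - (D - Finsupp.single P 1)) := by
    exact_mod_cast h3
  have h4 : (ell D : ℤ) ≤ ell (D - Finsupp.single P 1) + 1 := by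
    rw [h1, h2]
    push_cast
    linarith
  exact_mod_cast h4

theorem exists_of_ell_pos {D : Pl Ω W →₀ ℤ} (h : 0 < ell D) :
    ∃ f : W, f ≠ 0 ∧ 0 ≤ D + divf f := by
  have h2 : LD D ≠ ⊥ := by
    intro h0
    unfold ell at h
    rw [h0] at h
    simp at h
  obtain ⟨f, hf, hf0⟩ := Submodule.exists_mem_ne_zero_of_ne_bot h2
  exact ⟨f, hf0, (mem_LD_iff hf0).1 hf⟩

/-- reduced representatives -/
theorem reduce (E : Pl Ω W →₀ ℤ) (hE : degD E = 0) (P : Pl Ω W) :
    ∃ (n : ℕ) (f : W), f ≠ 0 ∧ ell (E + Finsupp.single P (n : ℤ)) = 1 ∧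
      0 ≤ E + Finsupp.single P (n : ℤ) + divf f := by
  classical
  have hex : ∃ n : ℕ, 0 < ell (E + Finsupp.single P (n : ℤ)) := by
    refine ⟨gen Ω W, ?_⟩
    have h1 := ell_ge (algebraicClosure_eq_bot (k := Ω) (K := W))
      (E + Finsupp.single P ((gen Ω W : ℕ) : ℤ))
    rw [degD_add, hE, degD_single, degP_eq_one] at h1
    have h2 : (0 : ℤ) < ell (E + Finsupp.single P ((gen Ω W : ℕ) : ℤ)) := by
      push_cast at h1
      linarith
    exact_mod_cast h2
  have hn := Nat.find_spec hex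
  set n := Nat.find hex with hndef
  obtain ⟨f, hf, hf'⟩ := exists_of_ell_pos hn
  refine ⟨n, f, hf, ?_, hf'⟩
  have h1 : ell (E + Finsupp.single P (n : ℤ) - Finsupp.single P 1) = 0 := by
    rcases Nat.eq_zero_or_pos n with h0 | h0
    · apply ell_of_degD_neg
      rw [h0, degD_sub, degD_add, hE, degD_single, degD_single, degP_eq_one]
      norm_num
    · have h2 : ¬ 0 < ell (E + Finsupp.single P ((n - 1 : ℕ) : ℤ)) :=
        Nat.find_min hex (by omega)
      have e : E + Finsupp.single P (n : ℤ) - Finsupp.single P 1 =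
          E + Finsupp.single P ((n - 1 : ℕ) : ℤ) := by
        rw [add_sub_assoc, ← Finsupp.single_sub, Nat.cast_sub h0]
        norm_num
      rw [e]
      omega
  have h2 := ell_step (E + Finsupp.single P (n : ℤ)) P
  rw [h1] at h2
  omega

theorem exists_const {f g : W} (hf : f ≠ 0) (hg : g ≠ 0)
    (h : divf (k := Ω) f = divf g) : ∃ c : Ω, c ≠ 0 ∧ f = algebraMap Ω W c * g := by
  have h1 : ∀ P : Pl Ω W, P.v (f / g) ≤ 1 := by
    intro P
    rw [map_div₀, v_eq hf, v_eq hg, h, div_self exp_ne_zero]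
  have h2 : IsAlgebraic Ω (f / g) := isAlgebraic_of_no_poles (k := Ω) h1
  obtain ⟨c, hc⟩ := minpoly.mem_range_of_degree_eq_one Ω (f / g)
    (IsAlgClosed.degree_eq_one_of_irreducible Ω (minpoly.irreducible h2.isIntegral))
  refine ⟨c, ?_, by rw [hc, div_mul_cancel₀ _ hg]⟩
  rintro rfl
  rw [map_zero] at hc
  exact div_ne_zero hf hg hc.symm

theorem divf_eq_zero_of_ell {D : Pl Ω W →₀ ℤ} (hD : 0 ≤ D) (hD1 : ell D = 1) {u : W} (hu : u ≠ 0)
    (h : 0 ≤ D + divf u) : divf (k := Ω) u = 0 := by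
  have h1 : (1 : W) ∈ LD D := by
    rw [mem_LD_iff one_ne_zero, divf_one, add_zero]; exact hD
  have h2 : u ∈ LD D := (mem_LD_iff hu).2 h
  have h3 : finrank Ω (LD D) = 1 := hD1
  obtain ⟨c, hc⟩ := (finrank_eq_one_iff_of_nonzero' (⟨1, h1⟩ : LD D) (by
    intro h0
    exact one_ne_zero (congrArg Subtype.val h0))).1 h3 ⟨u, h2⟩
  have h4 : c • (1 : W) = u := congrArg Subtype.val hc
  have hc0 : c ≠ 0 := by
    rintro rfl
    rw [zero_smul] at h4
    exact hu h4.symm
  ext P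
  have h5 := v_eq hu P
  rw [← h4, Algebra.smul_def, mul_one, P.const c hc0, ← exp_zero, exp_inj] at h5
  rw [Finsupp.zero_apply, ← h4, Algebra.smul_def, mul_one]
  omega

end AC

section Descent

variable {K Ω L W : Type*} [Field K] [Field Ω] [Field L] [Field W] [Algebra K Ω] [Algebra K L]
  [Algebra K W] [Algebra Ω W] [Algebra L W] [IsScalarTower K Ω W] [IsScalarTower K L W]
  [IsAlgClosed Ω] [Algebra.IsAlgebraic K Ω] [CharZero K]
  [Algebra (RatFunc Ω) W] [IsScalarTower Ω (RatFunc Ω) W] [FiniteDimensional (RatFunc Ω) W]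
  [Algebra.IsSeparable (RatFunc Ω) W]

variable (K) in
/-- the action on divisors -/
noncomputable def twD (τ : W ≃ₐ[L] W) (E : Pl Ω W →₀ ℤ) : Pl Ω W →₀ ℤ :=
  E.equivMapDomain (twE K τ).symm

theorem twD_apply (τ : W ≃ₐ[L] W) (E : Pl Ω W →₀ ℤ) (P : Pl Ω W) :
    twD K τ E P = E (tw K τ P) := by
  unfold twD
  rw [Finsupp.equivMapDomain_apply]
  rfl

theorem divf_tau (τ : W ≃ₐ[L] W) {h : W} (h0 : h ≠ 0) :
    divf (k := Ω) (τ h) = twD K τ (divf h) := by
  have h0' : τ h ≠ 0 := by simpa using h0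
  ext P
  rw [twD_apply]
  have h1 := v_eq h0' P
  have h2 := v_eq h0 (tw K τ P)
  rw [tw_v, h1, exp_inj] at h2
  omega

theorem twD_single (τ : W ≃ₐ[L] W) {P : Pl Ω W} (hP : tw K τ P = P) (n : ℤ) :
    twD K τ (Finsupp.single P n) = Finsupp.single P n := by
  classical
  ext R
  rw [twD_apply, Finsupp.single_apply, Finsupp.single_apply]
  by_cases h : P = R
  · subst h
    rw [if_pos hP.symm, if_pos rfl]
  · rw [if_neg h, if_neg]
    intro h1
    apply h
    apply (twE K τ).injective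
    show tw K τ P = tw K τ R
    rw [hP, h1]

theorem twD_add (τ : W ≃ₐ[L] W) (D E : Pl Ω W →₀ ℤ) :
    twD K τ (D + E) = twD K τ D + twD K τ E := by
  ext P
  rw [Finsupp.add_apply, twD_apply, twD_apply, twD_apply, Finsupp.add_apply]

theorem twD_sub (τ : W ≃ₐ[L] W) (D E : Pl Ω W →₀ ℤ) :
    twD K τ (D - E) = twD K τ D - twD K τ E := by
  ext P
  rw [Finsupp.sub_apply, twD_apply, twD_apply, twD_apply, Finsupp.sub_apply]

theorem twD_nonneg (τ : W ≃ₐ[L] W) {D : Pl Ω W →₀ ℤ} (h : 0 ≤ D) : 0 ≤ twD K τ D := by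
  intro P
  rw [twD_apply]
  exact h _

variable (K) in
include K in
/-- **descent** -/
theorem descent (hgen : Gen Ω L W) {N : ℕ} (hN : 0 < N) {P₀ Q₀ : Pl Ω W}
    (hP₀ : ∀ τ : W ≃ₐ[L] W, tw K τ P₀ = P₀) (hQ₀ : ∀ τ : W ≃ₐ[L] W, tw K τ Q₀ = Q₀)
    (hT : ∀ (D : Pl Ω W →₀ ℤ) (f : W), f ≠ 0 → N • D = divf f → ∃ g : W, g ≠ 0 ∧ D = divf g)
    {E : Pl Ω W →₀ ℤ} (hE : degD E = 0) {h : W} (h0 : h ≠ 0)
    (hh : Finsupp.single Q₀ 1 - Finsupp.single P₀ 1 = N • E + divf h) :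
    ∃ (h' : L) (E' : Pl Ω W →₀ ℤ), h' ≠ 0 ∧
      Finsupp.single Q₀ 1 - Finsupp.single P₀ 1 = N • E' + divf (algebraMap L W h') := by
  obtain ⟨n, f, hf, hell, hnn⟩ := reduce E hE P₀
  set E₁ := E + divf f with hE₁
  set h₁ := h / f ^ N with hh₁
  have hfN : f ^ N ≠ 0 := pow_ne_zero _ hf
  have hh₁0 : h₁ ≠ 0 := div_ne_zero h0 hfN
  have hpow : ∀ m : ℕ, divf (k := Ω) (f ^ m) = m • divf f := by
    intro m
    induction m with
    | zero => rw [pow_zero, divf_one, zero_smul]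
    | succ m ih => rw [pow_succ, divf_mul (pow_ne_zero m hf) hf, ih, succ_nsmul]
  have hrel : Finsupp.single Q₀ 1 - Finsupp.single P₀ 1 = N • E₁ + divf h₁ := by
    rw [hh, hE₁, hh₁, div_eq_mul_inv, divf_mul h0 (inv_ne_zero hfN), divf_inv hfN, hpow, smul_add]
    abel
  have hD₁ : 0 ≤ E₁ + Finsupp.single P₀ (n : ℤ) := by
    have e : E₁ + Finsupp.single P₀ (n : ℤ) = E + Finsupp.single P₀ (n : ℤ) + divf f := by
      rw [hE₁]; abel
    rw [e]; exact hnn
  have hell₁ : ell (E₁ + Finsupp.single P₀ (n : ℤ)) = 1 := by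
    have e : E₁ + Finsupp.single P₀ (n : ℤ) = E + Finsupp.single P₀ (n : ℤ) + divf f := by
      rw [hE₁]; abel
    rw [e, ell_add_divf _ hf, hell]
  -- invariance
  have hinv : ∀ τ : W ≃ₐ[L] W, twD K τ E₁ = E₁ ∧ divf (k := Ω) (τ h₁) = divf h₁ := by
    intro τ
    have h1 : τ h₁ ≠ 0 := by simpa using hh₁0
    have h2 : Finsupp.single Q₀ 1 - Finsupp.single P₀ 1 = N • twD K τ E₁ + divf (k := Ω) (τ h₁) := by
      have h3 := congrArg (twD K τ) hrel
      rw [twD_sub, twD_single τ (hQ₀ τ), twD_single τ (hP₀ τ), twD_add, ← divf_tau τ hh₁0] at h3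
      rw [h3]
      congr 1
      ext P
      rw [twD_apply, Finsupp.smul_apply, Finsupp.smul_apply, twD_apply]
    obtain ⟨u, hu, hDu⟩ := hT (twD K τ E₁ - E₁) (h₁ / τ h₁) (div_ne_zero hh₁0 h1) (by
      rw [div_eq_mul_inv, divf_mul hh₁0 (inv_ne_zero h1), divf_inv h1, smul_sub]
      have h3 := hrel.symm.trans h2
      have h4 : N • twD K τ E₁ - N • E₁ = divf (k := Ω) h₁ - divf (τ h₁) := by
        rw [sub_eq_sub_iff_add_eq_add, ← h3]
        abel
      rw [h4]; abel)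
    have h3 : divf (k := Ω) u = 0 := by
      apply divf_eq_zero_of_ell hD₁ hell₁ hu
      have e : E₁ + Finsupp.single P₀ (n : ℤ) + divf u =
          twD K τ (E₁ + Finsupp.single P₀ (n : ℤ)) := by
        rw [twD_add, twD_single τ (hP₀ τ), ← hDu]; abel
      rw [e]
      exact twD_nonneg τ hD₁
    rw [h3] at hDu
    have h4 : twD K τ E₁ = E₁ := sub_eq_zero.1 hDu
    refine ⟨h4, ?_⟩
    rw [h4, hrel] at h2
    exact (add_left_cancel h2).symm
  -- normalisation at `P₀`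
  haveI := Tors12_235.isAlgebraic K hgen
  haveI := Tors12_235.isGalois K hgen
  obtain ⟨ℓ, hℓ⟩ := Tors11_235.exists_unif K hgen P₀
  have hℓ0 : algebraMap L W ℓ ≠ 0 := by
    intro h0
    rw [h0, map_zero] at hℓ
    exact exp_ne_zero hℓ.symm
  obtain ⟨m, hm⟩ : ∃ m : ℤ, P₀.v h₁ = exp m :=
    ⟨log (P₀.v h₁), (exp_log ((Valuation.ne_zero_iff _).2 hh₁0)).symm⟩
  have h1 : P₀.v (h₁ * algebraMap L W ℓ ^ m) = 1 := by
    rw [map_mul, map_zpow₀, hm, hℓ, ← exp_zsmul, ← exp_add]; simp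
  obtain ⟨c, hc⟩ := exists_residue P₀ h1.le
  have hc0 : c ≠ 0 := by
    rintro rfl
    rw [map_zero, sub_zero, h1] at hc
    exact lt_irrefl _ hc
  have hcW : algebraMap Ω W c ≠ 0 := by simpa using hc0
  set h₃ := h₁ / algebraMap Ω W c with hh₃
  have hh₃0 : h₃ ≠ 0 := div_ne_zero hh₁0 hcW
  have hres : P₀.v (h₃ * algebraMap L W ℓ ^ m - 1) < 1 := by
    have e : h₃ * algebraMap L W ℓ ^ m - 1 =
        (h₁ * algebraMap L W ℓ ^ m - algebraMap Ω W c) / algebraMap Ω W c := by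
      rw [hh₃]
      field_simp
    rw [e, map_div₀, P₀.const c hc0, div_one]
    exact hc
  have hfix : ∀ τ : W ≃ₐ[L] W, τ h₃ = h₃ := by
    intro τ
    have h1 : τ h₁ ≠ 0 := by simpa using hh₁0
    obtain ⟨a, ha0, ha⟩ := exists_const (Ω := Ω) h1 hh₁0 (hinv τ).2
    obtain ⟨c', hc'⟩ := exists_eq K τ c
    have hτc : τ (algebraMap Ω W c) ≠ 0 := by simpa using hc0
    have hc'0 : algebraMap Ω W c' ≠ 0 := by rw [hc']; exact hτc
    have hb : ∃ b : Ω, τ h₃ = algebraMap Ω W b * h₃ := by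
      refine ⟨a * c / c', ?_⟩
      rw [hh₃, map_div₀, ha, ← hc', map_div₀, map_mul]
      field_simp
    obtain ⟨b, hb⟩ := hb
    have h2 : P₀.v (τ (h₃ * algebraMap L W ℓ ^ m) - 1) < 1 := by
      have h3 : P₀.v (τ (h₃ * algebraMap L W ℓ ^ m - 1)) < 1 := by
        rw [← tw_v (K := K) τ P₀, hP₀ τ]
        exact hres
      rwa [map_sub, map_one] at h3
    have h3 : τ (h₃ * algebraMap L W ℓ ^ m) = algebraMap Ω W b * (h₃ * algebraMap L W ℓ ^ m) := by
      rw [map_mul, map_zpow₀, AlgEquiv.commutes, hb]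
      ring
    rw [h3] at h2
    have h4 : P₀.v (h₃ * algebraMap L W ℓ ^ m) = 1 := by
      have h5 := Valuation.map_add_eq_of_lt_right (v := P₀.v)
        (x := h₃ * algebraMap L W ℓ ^ m - 1) (y := 1) (by rw [map_one]; exact hres)
      rwa [sub_add_cancel, map_one] at h5
    have h5 : P₀.v (algebraMap Ω W (b - 1)) < 1 := by
      have e : algebraMap Ω W (b - 1) * (h₃ * algebraMap L W ℓ ^ m) =
          (algebraMap Ω W b * (h₃ * algebraMap L W ℓ ^ m) - 1) -
            (h₃ * algebraMap L W ℓ ^ m - 1) := by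
        rw [map_sub, map_one]; ring
      have h6 : P₀.v (algebraMap Ω W (b - 1) * (h₃ * algebraMap L W ℓ ^ m)) < 1 := by
        rw [e]
        exact lt_of_le_of_lt (Valuation.map_sub _ _ _) (max_lt h2 hres)
      rwa [map_mul, h4, mul_one] at h6
    have h6 : b = 1 := sub_eq_zero.1 (v_algebraMap_lt P₀ h5)
    rw [hb, h6, map_one, one_mul]
  obtain ⟨h', hh'⟩ := (InfiniteGalois.mem_range_algebraMap_iff_fixed (k := L) h₃).2 hfix
  refine ⟨h', E₁, ?_, ?_⟩
  · rintro rfl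
    rw [map_zero] at hh'
    exact hh₃0 hh'.symm
  · rw [hh', hrel, hh₃, div_eq_mul_inv, divf_mul hh₁0 (inv_ne_zero hcW), divf_inv hcW]
    have h2 : divf (k := Ω) (algebraMap Ω W c) = 0 := by
      ext P
      have h3 := v_eq (k := Ω) hcW P
      rw [P.const c hc0, ← exp_zero, exp_inj] at h3
      rw [Finsupp.zero_apply]
      omega
    rw [h2, neg_zero, add_zero]

end Descent

end Crest.Agent.R013.Tors13_235
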