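import Mathlib
import Crest.Agent.R013.Tors10_235
import Crest.Agent.R013.Tors13_235

/-!
# Row 13, leaf TORS (helper235), part 14: the subfield `L = Frac (K ⊗ K)` of `W = Frac (Ω ⊗ K)` and the
transfer of divisors.
-/

set_option autoImplicit false
set_option linter.all false

namespace Crest.Agent.R013.Tors14_235

open WithZero Module TensorProduct
open Crest.Agent.R013.RR7_948 Crest.Agent.R013.RR8_948 Crest.Agent.R013.RR9_948
open Crest.Agent.R013.RR11_948 Crest.Agent.R013.RR12_948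
open Crest.Agent.R013.RR13_948 Crest.Agent.R013.CE1_280 Crest.Agent.R013.CE3_280
open Crest.Agent.R013.CE5_280
open Crest.Agent.R013.Tors7_235 Crest.Agent.R013.Tors10_235
open Crest.Agent.R013.Tors12_235 Crest.Agent.R013.Tors13_235

variable {F K Ω W : Type*} [Field F] [IsAlgClosed F] [CharZero F] [Field K] [Algebra F K]
  [Algebra (RatFunc F) K] [IsScalarTower F (RatFunc F) K] [FiniteDimensional (RatFunc F) K]
  [Algebra.IsSeparable (RatFunc F) K]
  [Field Ω] [IsAlgClosed Ω] [Algebra F Ω] [Algebra K Ω] [IsScalarTower F K Ω]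
  [Algebra.IsAlgebraic K Ω]
  [Field W] [Algebra Ω W] [Algebra F W] [IsScalarTower F Ω W] [Algebra K W] [IsScalarTower K Ω W]
  [IsScalarTower F K W]
  {ι : K →ₐ[F] W}

/-- the subfield generated by the two copies of `K` -/
def LL (ι : K →ₐ[F] W) : IntermediateField K W := IntermediateField.adjoin K (Set.range ι)

omit [IsAlgClosed F] [CharZero F] [Algebra (RatFunc F) K] [IsScalarTower F (RatFunc F) K]
  [FiniteDimensional (RatFunc F) K] [Algebra.IsSeparable (RatFunc F) K] [IsScalarTower F K W] in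
theorem mem_LL (f : K) : ι f ∈ LL ι := IntermediateField.subset_adjoin K _ ⟨f, rfl⟩

/-- the second copy of `K` -/
noncomputable def iL (ι : K →ₐ[F] W) : K →ₐ[F] LL ι where
  toFun f := ⟨ι f, mem_LL f⟩
  map_one' := Subtype.ext (map_one ι)
  map_mul' a b := Subtype.ext (map_mul ι a b)
  map_zero' := Subtype.ext (map_zero ι)
  map_add' a b := Subtype.ext (map_add ι a b)
  commutes' c := Subtype.ext (ι.commutes c)

theorem iL_coe (f : K) : algebraMap (LL ι) W (iL ι f) = ι f := rfl

theorem alg_coe (b : K) : algebraMap (LL ι) W (algebraMap K (LL ι) b) = algebraMap K W b := rfl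

/-- `K ⊗ K → Ω ⊗ K` -/
noncomputable def th : K ⊗[F] K →ₐ[F] Ω ⊗[F] K :=
  Algebra.TensorProduct.map (IsScalarTower.toAlgHom F K Ω) (AlgHom.id F K)

theorem th_injective : Function.Injective (th (F := F) (K := K) (Ω := Ω)) := by
  have h := Module.Flat.rTensor_preserves_injective_linearMap (M := K)
    (IsScalarTower.toAlgHom F K Ω).toLinearMap (algebraMap K Ω).injective
  exact h

theorem mu_th (t : K ⊗[F] K) :
    mu (Ω := Ω) ι (th t) = algebraMap (LL ι) W (mu (Ω := K) (iL ι) t) := by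
  induction t with
  | zero => simp
  | add a b ha hb => rw [map_add, map_add, map_add, map_add, ha, hb]
  | tmul a b =>
    rw [mu_tmul, map_mul, alg_coe, iL_coe]
    show mu ι ((algebraMap K Ω a) ⊗ₜ b) = _
    rw [mu_tmul, ← IsScalarTower.algebraMap_apply]

theorem isCE_L (hι : IsCE Ω ι) : IsCE K (iL ι) where
  inj := by
    intro a b h
    apply th_injective (Ω := Ω)
    apply hι.inj
    rw [mu_th, mu_th, h]
  frac := by
    intro f
    obtain ⟨r, hr, s, hs, hf⟩ := IntermediateField.mem_adjoin_iff_div.1 f.2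
    have key : ∀ r ∈ Algebra.adjoin K (Set.range ι), ∃ t : K ⊗[F] K,
        r = algebraMap (LL ι) W (mu (Ω := K) (iL ι) t) := by
      intro r hr
      induction hr using Algebra.adjoin_induction with
      | mem x hx =>
        obtain ⟨g, rfl⟩ := hx
        exact ⟨1 ⊗ₜ g, by rw [mu_tmul, map_one, one_mul, iL_coe]⟩
      | algebraMap b => exact ⟨b ⊗ₜ 1, by rw [mu_tmul, map_one, mul_one, alg_coe]⟩
      | add x y _ _ hx hy =>
        obtain ⟨t, ht⟩ := hx
        obtain ⟨t', ht'⟩ := hy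
        exact ⟨t + t', by rw [map_add, map_add, ht, ht']⟩
      | mul x y _ _ hx hy =>
        obtain ⟨t, ht⟩ := hx
        obtain ⟨t', ht'⟩ := hy
        exact ⟨t * t', by rw [map_mul, map_mul, ht, ht']⟩
    obtain ⟨a, ha⟩ := key r hr
    obtain ⟨b, hb⟩ := key s hs
    by_cases hb0 : b = 0
    · refine ⟨0, 1, one_ne_zero, ?_⟩
      rw [hb0, map_zero, map_zero] at hb
      rw [hb, div_zero] at hf
      have hf0 : f = 0 := Subtype.ext hf
      rw [hf0, map_zero, zero_mul]
    · refine ⟨a, b, hb0, ?_⟩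
      have hs0 : s ≠ 0 := by
        rw [hb]
        intro h0
        apply hb0
        apply th_injective (Ω := Ω)
        apply hι.inj
        rw [mu_th, h0, map_zero, map_zero]
      apply (algebraMap (LL ι) W).injective
      rw [map_mul, ← ha, ← hb]
      show (f : W) * s = r
      rw [hf, div_mul_cancel₀ _ hs0]

theorem gen_L (hι : IsCE Ω ι) : Gen Ω (LL ι) W := by
  unfold Gen
  -- `W` is the ring generated over `LL` by `Ω`
  let S : Subalgebra (LL ι) W := Algebra.adjoin (LL ι) (Set.range (algebraMap Ω W))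
  have hmu : ∀ t : Ω ⊗[F] K, mu (Ω := Ω) ι t ∈ S := by
    intro t
    induction t with
    | zero => rw [map_zero]; exact S.zero_mem
    | add a b ha hb => rw [map_add]; exact S.add_mem ha hb
    | tmul a b =>
      rw [mu_tmul]
      exact S.mul_mem (Algebra.subset_adjoin ⟨a, rfl⟩) (S.algebraMap_mem (iL ι b))
  have hint : ∀ x ∈ S, IsIntegral (LL ι) x := by
    intro x hx
    induction hx using Algebra.adjoin_induction with
    | mem x hx =>
      obtain ⟨r, rfl⟩ := hx
      have h1 : IsIntegral K (algebraMap Ω W r) :=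
        ((Algebra.IsAlgebraic.isAlgebraic (R := K) r).isIntegral).map
          (IsScalarTower.toAlgHom K Ω W)
      exact h1.tower_top
    | algebraMap r => exact isIntegral_algebraMap
    | add x y _ _ hx hy => exact hx.add hy
    | mul x y _ _ hx hy => exact hx.mul hy
  have htop : ∀ x : W, x ∈ S := by
    intro x
    obtain ⟨a, b, hb, hab⟩ := hι.frac x
    have h1 : x = mu ι a * (mu ι b)⁻¹ := by
      rw [← hab, mul_inv_cancel_right₀ (hι.ne_zero hb)]
    rw [h1]
    exact S.mul_mem (hmu a) ((hint _ (hmu b)).inv_mem (hmu b))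
  rw [eq_top_iff]
  intro x _
  have hx := htop x
  induction hx using Algebra.adjoin_induction with
  | mem x hx =>
    obtain ⟨r, rfl⟩ := hx
    exact Subalgebra.algebraMap_mem _ r
  | algebraMap r => exact Algebra.subset_adjoin ⟨r, rfl⟩
  | add x y _ _ hx hy => exact Subalgebra.add_mem _ (hx trivial) (hy trivial)
  | mul x y _ _ hx hy => exact Subalgebra.mul_mem _ (hx trivial) (hy trivial)

section Pt

variable [Algebra (RatFunc Ω) W] [IsScalarTower Ω (RatFunc Ω) W] [FiniteDimensional (RatFunc Ω) W]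
  [Algebra.IsSeparable (RatFunc Ω) W]

/-- the generic point -/
noncomputable def Qg (F K Ω : Type*) [Field F] [Field K] [Algebra F K] [Field Ω] [Algebra F Ω]
    [Algebra K Ω] [IsScalarTower F K Ω] : K →ₐ[F] Ω := IsScalarTower.toAlgHom F K Ω

theorem Qg_coe (f : K) : algebraMap Ω W (Qg F K Ω f) = algebraMap K W f :=
  (IsScalarTower.algebraMap_apply K Ω W f).symm

variable [CharZero K]

theorem tw_Q (hι : IsCE Ω ι) (τ : W ≃ₐ[LL ι] W) :
    tw K τ (plQ hι (Qg F K Ω)) = plQ hι (Qg F K Ω) := by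
  have h1 : At ι (tw K τ (plQ hι (Qg F K Ω))) (Qg F K Ω) := by
    intro f
    rw [tw_v, map_sub, Qg_coe, ← alg_coe (ι := ι), ← iL_coe, AlgEquiv.commutes, AlgEquiv.commutes,
      iL_coe, alg_coe, ← Qg_coe (F := F) (Ω := Ω)]
    exact plQ_At hι (Qg F K Ω) f
  exact h1.unique hι (plQ_At hι _)

theorem tw_P (hι : IsCE Ω ι) (P : Pl F K) (τ : W ≃ₐ[LL ι] W) :
    tw K τ (conP hι P) = conP hι P := by
  have h0 : ∀ f : K, τ (ι f) = ι f := by
    intro f
    rw [← iL_coe, AlgEquiv.commutes]
  have h1 : Over ι (tw K τ (conP hι P)) P := by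
    refine ⟨fun f hf => ?_, fun f hf => ?_⟩
    · rw [tw_v, h0]
      exact (conP_Over hι P).1 f hf
    · rw [tw_v, h0]
      exact (conP_Over hι P).2 f hf
  exact h1.unique hι (conP_Over hι P)

/-- the place of `L` below a place of `W` -/
noncomputable def below (hι : IsCE Ω ι) (P : Pl Ω W) : Pl K (LL ι) where
  v := P.v.comap (algebraMap (LL ι) W)
  const c hc := by
    rw [Valuation.comap_apply, alg_coe, IsScalarTower.algebraMap_apply K Ω W]
    exact P.const _ (by simpa using hc)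
  surj m := by
    haveI := Tors12_235.isAlgebraic K (gen_L hι)
    obtain ⟨ℓ, hℓ⟩ := Tors11_235.exists_unif K (gen_L hι) P
    induction m using WithZero.expRecOn with
    | zero => exact ⟨0, by simp⟩
    | exp m =>
      refine ⟨ℓ ^ (-m), ?_⟩
      rw [Valuation.comap_apply, map_zpow₀, map_zpow₀, hℓ, ← exp_zsmul]
      simp

theorem below_v (hι : IsCE Ω ι) (P : Pl Ω W) (x : LL ι) :
    (below hι P).v x = P.v (algebraMap (LL ι) W x) := rfl

/-- the transfer of a divisor relation to `L` -/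
theorem divMod (hι : IsCE Ω ι) {N : ℕ} {P₀ : Pl F K} {h : LL ι} (h0 : h ≠ 0)
    {E : Pl Ω W →₀ ℤ}
    (hE : Finsupp.single (plQ hι (Qg F K Ω)) 1 - Finsupp.single (conP hι P₀) 1 =
      N • E + divf (algebraMap (LL ι) W h)) : DivMod (iL ι) P₀ N h := by
  classical
  have h0' : algebraMap (LL ι) W h ≠ 0 := by simpa using h0
  -- above
  have habove : ∀ w : Valuation (LL ι) ℤᵐ⁰, (∀ b : K, b ≠ 0 → w (algebraMap K (LL ι) b) = 1) →
      (∃ a : LL ι, w a ≠ 0 ∧ w a ≠ 1) → ∃ P : Pl Ω W, (below hι P).v.IsEquiv w := by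
    intro w hw hnt
    obtain ⟨P, hP⟩ := exists_above (Ω := Ω) (W := W) w hw hnt
    exact ⟨P, hP.symm⟩
  have hval : ∀ P : Pl Ω W, log ((below hι P).v h) =
      (N : ℤ) * E P - ((if plQ hι (Qg F K Ω) = P then 1 else 0) -
        (if conP hι P₀ = P then 1 else 0)) := by
    intro P
    rw [below_v, v_eq h0', log_exp]
    have h1 := congrArg (fun D : Pl Ω W →₀ ℤ => D P) hE
    simp only [Finsupp.sub_apply, Finsupp.add_apply, Finsupp.smul_apply, Finsupp.single_apply,
      nsmul_eq_mul] at h1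
    rw [h1]
    ring
  have hlog : ∀ (w : Valuation (LL ι) ℤᵐ⁰) (P : Pl Ω W), (below hι P).v.IsEquiv w →
      ∃ k : ℤ, 0 < k ∧ ∀ f : LL ι, f ≠ 0 → log (w f) = k * log ((below hι P).v f) := by
    intro w P hP
    obtain ⟨ℓ, hℓ⟩ := (below hι P).surj (exp (-1))
    have hℓ1 := lt_one_of_isEquiv hP hℓ
    have hℓ0 : ℓ ≠ 0 := by
      rintro rfl
      rw [map_zero] at hℓ
      exact exp_ne_zero hℓ.symm
    have hwℓ : w ℓ ≠ 0 := (Valuation.ne_zero_iff _).2 hℓ0
    rw [← exp_log hwℓ, ← exp_zero, exp_lt_exp] at hℓ1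
    refine ⟨-log (w ℓ), by omega, fun f hf => ?_⟩
    have hf' : (below hι P).v f ≠ 0 := (Valuation.ne_zero_iff _).2 hf
    rw [eq_zpow_of_isEquiv hP hℓ (exp_log hf').symm, log_zpow]
    simp only [smul_eq_mul]
    ring
  have hatQ : ∀ (w : Valuation (LL ι) ℤᵐ⁰) (P : Pl Ω W), (below hι P).v.IsEquiv w →
      (∀ b : K, b ≠ 0 → w (algebraMap K (LL ι) b) = 1) →
      (AtQ (iL ι) w ↔ plQ hι (Qg F K Ω) = P) := by
    intro w P hP hw
    constructor
    · intro hq
      have h1 : At ι P (Qg F K Ω) := by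
        intro f
        have h2 := hq.2 f
        rw [← hP.lt_one_iff_lt_one, below_v, map_sub, iL_coe, alg_coe] at h2
        rw [Qg_coe]
        exact h2
      exact (plQ_At hι _).unique hι h1
    · rintro rfl
      refine ⟨hw, fun f => ?_⟩
      rw [← hP.lt_one_iff_lt_one, below_v, map_sub, iL_coe, alg_coe,
        ← Qg_coe (F := F) (Ω := Ω)]
      exact plQ_At hι _ f
  have hovP : ∀ (w : Valuation (LL ι) ℤᵐ⁰) (P : Pl Ω W), (below hι P).v.IsEquiv w →
      (∀ b : K, b ≠ 0 → w (algebraMap K (LL ι) b) = 1) →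
      (OverP (iL ι) P₀ w ↔ conP hι P₀ = P) := by
    intro w P hP hw
    constructor
    · intro hq
      have h1 : Over ι P P₀ := by
        refine ⟨fun f hf => ?_, fun f hf => ?_⟩
        · have h2 := hq.2.1 f hf
          rw [← hP.le_one_iff_le_one, below_v, iL_coe] at h2
          exact h2
        · have h2 := hq.2.2 f hf
          rw [← hP.lt_one_iff_lt_one, below_v, iL_coe] at h2
          exact h2
      exact (conP_Over hι _).unique hι h1
    · rintro rfl
      refine ⟨hw, fun f hf => ?_, fun f hf => ?_⟩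
      · rw [← hP.le_one_iff_le_one, below_v, iL_coe]
        exact (conP_Over hι _).1 f hf
      · rw [← hP.lt_one_iff_lt_one, below_v, iL_coe]
        exact (conP_Over hι _).2 f hf
  have hk1 : ∀ (k n : ℤ), 0 < k → -1 = k * n → k = 1 := by
    intro k n hk h1
    have h2 : k ∣ 1 := ⟨-n, by linear_combination -h1⟩
    have h3 := Int.le_of_dvd one_pos h2
    omega
  constructor
  · intro w hw hnQ hnP
    by_cases hnt : ∃ a : LL ι, w a ≠ 0 ∧ w a ≠ 1
    · obtain ⟨P, hP⟩ := habove w hw hnt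
      obtain ⟨k, -, hk⟩ := hlog w P hP
      rw [hatQ w P hP hw] at hnQ
      rw [hovP w P hP hw] at hnP
      rw [hk h h0, hval, if_neg hnQ, if_neg hnP]
      exact ⟨k * E P, by ring⟩
    · push Not at hnt
      have h1 := hnt h ((Valuation.ne_zero_iff _).2 h0)
      rw [h1, ← exp_zero, log_exp]
      exact dvd_zero _
  · intro w hq hn
    obtain ⟨f, hf⟩ := hn
    have hnt : ∃ a : LL ι, w a ≠ 0 ∧ w a ≠ 1 := ⟨_, by rw [hf]; exact exp_ne_zero, by
      rw [hf, ← exp_zero, Ne, exp_inj]; norm_num⟩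
    obtain ⟨P, hP⟩ := habove w hq.1 hnt
    obtain ⟨k, hkpos, hk⟩ := hlog w P hP
    have h1 := (hatQ w P hP hq.1).1 hq
    have hf0 : iL ι f - algebraMap K (LL ι) f ≠ 0 := by
      intro h2
      rw [h2, map_zero] at hf
      exact exp_ne_zero hf.symm
    have h2 := hk _ hf0
    rw [hf, log_exp] at h2
    have h3 := hk1 _ _ hkpos h2
    rw [hk h h0, h3, hval, if_pos h1, if_neg (by rw [← h1]; exact conP_ne_plQ hι P₀ _)]
    exact ⟨E P, by ring⟩
  · intro w hq hn
    obtain ⟨f, hf⟩ := hn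
    have hnt : ∃ a : LL ι, w a ≠ 0 ∧ w a ≠ 1 := ⟨_, by rw [hf]; exact exp_ne_zero, by
      rw [hf, ← exp_zero, Ne, exp_inj]; norm_num⟩
    obtain ⟨P, hP⟩ := habove w hq.1 hnt
    obtain ⟨k, hkpos, hk⟩ := hlog w P hP
    have h1 := (hovP w P hP hq.1).1 hq
    have hf0 : iL ι f ≠ 0 := by
      intro h2
      rw [h2, map_zero] at hf
      exact exp_ne_zero hf.symm
    have h2 := hk _ hf0
    rw [hf, log_exp] at h2
    have h3 := hk1 _ _ hkpos h2
    rw [hk h h0, h3, hval, if_pos h1, if_neg (by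
      rw [← h1]; exact (conP_ne_plQ hι P₀ _).symm)]
    exact ⟨E P, by ring⟩

end Pt

end Crest.Agent.R013.Tors14_235
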