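import Mathlib
import Crest.Agent.R013.Tors14_235
import Crest.Agent.R013.CE9_280
import Crest.Agent.R013.Div6_280
import Crest.Agent.R013.Rig_280

/-!
# Row 13, leaf TORS (helper235), part 15: existence of `l`-torsion.
-/

set_option autoImplicit false
set_option linter.all false

namespace Crest.Agent.R013.Tors15_235

open WithZero Module TensorProduct
open Crest.Agent.R013.RR7_948 Crest.Agent.R013.RR8_948 Crest.Agent.R013.RR9_948
open Crest.Agent.R013.RR11_948 Crest.Agent.R013.RR12_948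
open Crest.Agent.R013.RR13_948 Crest.Agent.R013.CE1_280 Crest.Agent.R013.CE3_280
open Crest.Agent.R013.CE5_280 Crest.Agent.R013.CE9_280
open Crest.Agent.R013.Tors7_235 Crest.Agent.R013.Tors10_235
open Crest.Agent.R013.Tors12_235 Crest.Agent.R013.Tors13_235 Crest.Agent.R013.Tors14_235

section BaseDivf

variable {F Ω K L : Type*} [Field F] [Field Ω] [Algebra F Ω] [Field K] [Algebra F K] [Field L]
  [Algebra Ω L] [Algebra F L] [IsScalarTower F Ω L] [Algebra (RatFunc F) K]
  [IsScalarTower F (RatFunc F) K] [FiniteDimensional (RatFunc F) K]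
  [Algebra.IsSeparable (RatFunc F) K]
  [Algebra (RatFunc Ω) L] [IsScalarTower Ω (RatFunc Ω) L] [FiniteDimensional (RatFunc Ω) L]
  [Algebra.IsSeparable (RatFunc Ω) L] [IsAlgClosed F] [IsAlgClosed Ω] {ι : K →ₐ[F] L}

/-- the conorm of a principal divisor -/
theorem base_divf (hι : IsCE Ω ι) {f : K} (hf : f ≠ 0) :
    base hι (divf f) = divf (ι f) := by
  have hf' : ι f ≠ 0 := by simpa using hf
  ext w
  rcases CE3_280.cases hι w with ⟨P, rfl⟩ | ⟨Q, rfl⟩
  · have h1 := (conP_Over hι P).v_iota hι f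
    rw [v_eq hf', v_eq hf, exp_inj] at h1
    rw [base_conP]
    omega
  · have h1 := (plQ_At hι Q).iota_eq_one hf
    rw [v_eq hf', ← exp_zero, exp_inj] at h1
    rw [base_plQ]
    omega

end BaseDivf

/-- torsion-freeness for a prime implies torsion-freeness for its powers -/
theorem pow_torsion {k K : Type*} [Field k] [Field K] [Algebra k K] [Algebra (RatFunc k) K]
    [IsScalarTower k (RatFunc k) K] [FiniteDimensional (RatFunc k) K]
    [Algebra.IsSeparable (RatFunc k) K] {l : ℕ}
    (h : ∀ (D : Pl k K →₀ ℤ) (f : K), f ≠ 0 → l • D = divf f → ∃ g : K, g ≠ 0 ∧ D = divf g)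
    (m : ℕ) : ∀ (D : Pl k K →₀ ℤ) (f : K), f ≠ 0 → (l ^ m) • D = divf f →
      ∃ g : K, g ≠ 0 ∧ D = divf g := by
  induction m with
  | zero =>
    intro D f hf hD
    exact ⟨f, hf, by rw [← hD, pow_zero, one_smul]⟩
  | succ m ih =>
    intro D f hf hD
    obtain ⟨g, hg, hg'⟩ := h (l ^ m • D) f hf (by rw [← hD, pow_succ', mul_smul])
    exact ih D g hg hg'

/-- **existence of `l`-torsion classes**: over an algebraically closed field of characteristic zero
a function field of genus `≥ 1` has, for every prime `l`, a non principal divisor `D` with `l D`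
principal -/
theorem tors {F : Type*} {K : Type*} [Field F] [IsAlgClosed F] [CharZero F] [Field K]
    [Algebra F K] [Algebra (RatFunc F) K] [IsScalarTower F (RatFunc F) K]
    [FiniteDimensional (RatFunc F) K] [Algebra.IsSeparable (RatFunc F) K]
    (hg : 1 ≤ gen F K) {l : ℕ} (hl : l.Prime) :
    ∃ (D : Pl F K →₀ ℤ) (f : K), f ≠ 0 ∧ l • D = divf f ∧ ∀ g : K, g ≠ 0 → D ≠ divf g := by
  by_contra hcon
  push Not at hcon
  have hT : ∀ (D : Pl F K →₀ ℤ) (f : K), f ≠ 0 → l • D = divf f →
      ∃ g : K, g ≠ 0 ∧ D = divf g := fun D f hf hD => hcon D f hf hD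
  -- a large power of `l`
  obtain ⟨m, hm⟩ : ∃ m : ℕ, 2 * gen F K < l ^ m := ⟨2 * gen F K, Nat.lt_pow_self hl.one_lt⟩
  have hN : 0 < l ^ m := pow_pos hl.pos m
  have hT' := pow_torsion hT m
  -- the constant field extension to the algebraic closure of `K`
  haveI : CharZero K := charZero_of_injective_algebraMap (algebraMap F K).injective
  let Ω := AlgebraicClosure K
  haveI : CharZero Ω := charZero_of_injective_algebraMap (algebraMap K Ω).injective
  haveI : CharZero (RatFunc Ω) :=
    charZero_of_injective_algebraMap (algebraMap Ω (RatFunc Ω)).injective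
  let W := KO F K Ω
  letI algKW : Algebra K W := ((algebraMap Ω W).comp (algebraMap K Ω)).toAlgebra
  haveI tow1 : IsScalarTower K Ω W := IsScalarTower.of_algebraMap_eq fun _ => rfl
  haveI tow2 : IsScalarTower F K W := IsScalarTower.of_algebraMap_eq fun c => by
    rw [IsScalarTower.algebraMap_apply F Ω W, IsScalarTower.algebraMap_apply K Ω W,
      ← IsScalarTower.algebraMap_apply F K Ω]
  let ι : K →ₐ[F] W := iota F K Ω
  have hι : IsCE Ω ι := isCE F K Ω
  have hx : xK Ω W = ι (xK F K) := xK_eq F K Ω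
  obtain ⟨P₀, -⟩ := exists_notMem (∅ : Finset (Pl F K))
  -- divisibility
  have hdeg : degD (Finsupp.single (plQ hι (Qg F K Ω)) 1 - Finsupp.single (conP hι P₀) 1 :
      Pl Ω W →₀ ℤ) = 0 := by
    rw [degD_sub, degD_single, degD_single, degP_eq_one, degP_eq_one]
    norm_num
  obtain ⟨E, h, hh0, hE, hh⟩ := Div6_280.exists_div hN hdeg
  -- descent
  obtain ⟨h', E', h0', hE'⟩ := descent K (gen_L hι) hN (fun τ => tw_P hι P₀ τ)
    (fun τ => tw_Q hι τ) (by
      intro D f hf hD
      obtain ⟨D₀, f₀, g, hf₀, hg0, hD₀, hDg⟩ := Rig_280.torsion_rigid hι hx hN hf hD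
      obtain ⟨g₀, hg₀, hg₀'⟩ := hT' D₀ f₀ hf₀ hD₀
      have hι0 : ι g₀ ≠ 0 := by simpa using hg₀
      refine ⟨ι g₀ * g, mul_ne_zero hι0 hg0, ?_⟩
      rw [hDg, hg₀', divf_mul hι0 hg0, base_divf hι hg₀]) hE hh0 hh
  have hdm := divMod hι h0' hE'
  have hcore := core (isCE_L hι) hN h0' hdm
  have h1 : l ^ m ∣ 2 * gen F K := by exact_mod_cast hcore
  have h2 := Nat.le_of_dvd (by omega) h1
  omega

end Crest.Agent.R013.Tors15_235
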