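import Mathlib
import Crest.Agent.R013.BTor9_914
import Crest.Agent.R013.Tors15_235

/-!
# R013 / BTor10: B-TOR, unconditional (TORS of 235) (helper914)
-/

set_option autoImplicit false
set_option linter.all false

universe u v

noncomputable section

namespace Crest.Agent.R013.BTor10_914

open scoped NNReal Topology IntermediateField
open Crest.NumberTheoryR.Sect Crest.Agent.R013.Gl946 Crest.Agent.R013.RR11_948
  Crest.Agent.R013.Good1_940 Crest.Agent.R013.Good3_940 Crest.Agent.R013.CGood_588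
  Crest.Agent.R013.Set_803 Crest.Agent.R013.BTor3_914 Crest.Agent.R013.BTor4_914
  Crest.Agent.R013.BTor6_914 Crest.Agent.R013.BTor7_914

theorem tors : TORS.{u, v} := by
  intro F L _ _ _ _ _ _ _ _ hg l hl
  obtain ⟨D, f, hf, hD, hn⟩ := Tors15_235.tors (F := F) (K := L) hg hl
  exact ⟨D, f, hf, by rw [← hD, natCast_zsmul], fun g hg h => hn g hg h.symm⟩

section main

variable {k K : Type u} [Field k] [CharZero k] [Field K] [Algebra k K]
  [Algebra (RatFunc k) K] [IsScalarTower k (RatFunc k) K] [FiniteDimensional (RatFunc k) K]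

/-- nontrivial `l`-torsion over `L k̄` -/
theorem exists_htors (hc : algebraicClosure k K = ⊥) (hg : 1 ≤ gen k K)
    (L : IntermediateField K (AlgebraicClosure K)) [FiniteDimensional K L] {l : ℕ}
    (hl : l.Prime) :
    ∃ f : Lbar k L, f ≠ 0 ∧ LDiv k l f ∧ ∀ g : Lbar k L, g ^ l ≠ f :=
  BTor7_914.exists_htors tors hc hg L hl

variable {p : ℕ} [Fact p.Prime] [Algebra ℚ_[p] k] [FiniteDimensional ℚ_[p] k]
  {v P : Valuation (AlgebraicClosure K) ℝ≥0}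
  {C : IntermediateField k (AlgebraicClosure K)} [FiniteDimensional k C] {R : ℝ≥0}
  {x q c : AlgebraicClosure K}

/-- **B-TOR, unconditional.** -/
theorem exists_out (hc : algebraicClosure k K = ⊥) (hg : 1 ≤ gen k K)
    (D : DiscData p v P C R x q c) {L : IntermediateField K (AlgebraicClosure K)}
    (hL : IsUnramifiedEverywhere k K L) (hLD : ∀ f ∈ L, f ∈ D.SD) {l : ℕ} (hl : l.Prime)
    (hlp : l ≠ p) (C₁ : IntermediateField k (AlgebraicClosure K)) [FiniteDimensional k C₁]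
    (hC₁ : C ≤ C₁) {ρ : AlgebraicClosure K} (hρ : ρ ∈ C₁) (hρv : ρ ≠ 0) (hρR : v ρ ≤ R) :
    ∃ (C₂ : IntermediateField k (AlgebraicClosure K)) (_ : FiniteDimensional k C₂)
      (hC₂ : C₁ ≤ C₂) (D₂ : DiscData p v P C₂ R x q c) (h : AlgebraicClosure K)
      (hρ0 : (⟨ρ, hC₂ hρ⟩ : C₂) ≠ 0),
      (∀ f ∈ LC L C₂, f ∈ D₂.SD) ∧ h ∈ LC L C₂ ∧ h ≠ 0 ∧ (∀ g ∈ Lbar k L, g ^ l ≠ h) ∧
      (∀ y : AlgebraicClosure K, y ^ l = h → y ∈ maxUnramified k K) ∧
      (∀ U : IntermediateField K (AlgebraicClosure K), FiniteDimensional K U → L ≤ U →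
        U ≤ Lbar k L → ∀ hf : h ∈ U, LDiv k l (⟨h, hf⟩ : U)) ∧
      ∀ (hh : h ∈ D₂.SD),
        letI := nC D₂.hv C₂; haveI := ultra_nC D₂.hv C₂
        ∃ g : FDisc C₂ ‖(⟨ρ, hC₂ hρ⟩ : C₂)‖ (norm_pos_iff.mpr hρ0), g ≠ 0 ∧
          resF (k := C₂) (R := (R : ℝ)) (by exact_mod_cast D₂.hR) (norm_pos_iff.mpr hρ0)
            (by rw [norm_nC]; exact_mod_cast hρR) (D₂.kap ⟨h, hh⟩) = g ^ l :=
  BTor9_914.exists_out tors hc hg D hL hLD hl hlp C₁ hC₁ hρ hρv hρR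

/-- **B-TOR for the base field `K` itself** (`L = ⊥`, as in `VData_803`) -/
theorem exists_out_bot (hc : algebraicClosure k K = ⊥) (hg : 1 ≤ gen k K)
    (D : DiscData p v P C R x q c)
    (hK : ∀ f : K, algebraMap K (AlgebraicClosure K) f ∈ D.SD) {l : ℕ} (hl : l.Prime)
    (hlp : l ≠ p) (C₁ : IntermediateField k (AlgebraicClosure K)) [FiniteDimensional k C₁]
    (hC₁ : C ≤ C₁) {ρ : AlgebraicClosure K} (hρ : ρ ∈ C₁) (hρv : ρ ≠ 0) (hρR : v ρ ≤ R) :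
    ∃ (C₂ : IntermediateField k (AlgebraicClosure K)) (_ : FiniteDimensional k C₂)
      (hC₂ : C₁ ≤ C₂) (D₂ : DiscData p v P C₂ R x q c) (h : AlgebraicClosure K)
      (hρ0 : (⟨ρ, hC₂ hρ⟩ : C₂) ≠ 0),
      (∀ f ∈ LC (⊥ : IntermediateField K (AlgebraicClosure K)) C₂, f ∈ D₂.SD) ∧
      h ∈ LC (⊥ : IntermediateField K (AlgebraicClosure K)) C₂ ∧ h ≠ 0 ∧
      (∀ g ∈ Lbar k (⊥ : IntermediateField K (AlgebraicClosure K)), g ^ l ≠ h) ∧
      (∀ y : AlgebraicClosure K, y ^ l = h → y ∈ maxUnramified k K) ∧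
      (∀ U : IntermediateField K (AlgebraicClosure K), FiniteDimensional K U →
        U ≤ Lbar k (⊥ : IntermediateField K (AlgebraicClosure K)) →
        ∀ hf : h ∈ U, LDiv k l (⟨h, hf⟩ : U)) ∧
      ∀ (hh : h ∈ D₂.SD),
        letI := nC D₂.hv C₂; haveI := ultra_nC D₂.hv C₂
        ∃ g : FDisc C₂ ‖(⟨ρ, hC₂ hρ⟩ : C₂)‖ (norm_pos_iff.mpr hρ0), g ≠ 0 ∧
          resF (k := C₂) (R := (R : ℝ)) (by exact_mod_cast D₂.hR) (norm_pos_iff.mpr hρ0)
            (by rw [norm_nC]; exact_mod_cast hρR) (D₂.kap ⟨h, hh⟩) = g ^ l := by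
  obtain ⟨C₂, i₂, hC₂, D₂, h, hρ0, h1, h2, h3, h4, h5, h6, h7⟩ :=
    exists_out hc hg D (L := ⊥) (Unr5_957.le_maxUnramified_iff.mp bot_le) (by
      intro f hf
      obtain ⟨a, rfl⟩ := IntermediateField.mem_bot.1 hf
      exact hK a) hl hlp C₁ hC₁ hρ hρv hρR
  exact ⟨C₂, i₂, hC₂, D₂, h, hρ0, h1, h2, h3, h4, h5, fun U hU hU' hf => h6 U hU bot_le hU' hf, h7⟩

end main

end Crest.Agent.R013.BTor10_914
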