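import Mathlib

/-!
# R013 / Beta1 (helper116): ultrafilter limits in vector spaces over `ℚ_p`

`Lim p U h x`: the sequence `h` lies eventually in a finite dimensional subspace and converges weakly to `x`
along the filter `U`.  `limS p U W`: the limit of a sequence of subspaces.  If `W n` has constant
dimension and lies in a fixed finite dimensional subspace, so does the limit, with the same dimension.
-/

set_option autoImplicit false

namespace Crest.Agent.R013.Beta1_116

open Filter Topology Module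

variable (p : ℕ) [Fact p.Prime]

section Vec

variable {K : Type*} [AddCommGroup K] [Module ℚ_[p] K]

/-- `h n → x` along `U`: eventually in a finite dimensional subspace, and weakly convergent -/
def Lim (U : Filter ℕ) (h : ℕ → K) (x : K) : Prop :=
  (∃ V : Submodule ℚ_[p] K, FiniteDimensional ℚ_[p] V ∧ ∀ᶠ n in U, h n ∈ V) ∧
    ∀ l : K →ₗ[ℚ_[p]] ℚ_[p], Tendsto (fun n => l (h n)) U (𝓝 (l x))

variable {p}

theorem Lim.congr {U : Filter ℕ} {h h' : ℕ → K} {x : K} (H : Lim p U h x)
    (e : ∀ᶠ n in U, h n = h' n) : Lim p U h' x := by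
  obtain ⟨⟨V, hV, hm⟩, hl⟩ := H
  refine ⟨⟨V, hV, ?_⟩, fun l => ?_⟩
  · filter_upwards [hm, e] with n h1 h2
    rwa [← h2]
  · refine (hl l).congr' ?_
    filter_upwards [e] with n h2
    rw [h2]

theorem lim_const (U : Filter ℕ) (x : K) : Lim p U (fun _ => x) x :=
  ⟨⟨ℚ_[p] ∙ x, inferInstance, Eventually.of_forall fun _ => Submodule.mem_span_singleton_self x⟩,
    fun _ => tendsto_const_nhds⟩

theorem Lim.add {U : Filter ℕ} {h h' : ℕ → K} {x x' : K} (H : Lim p U h x) (H' : Lim p U h' x') :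
    Lim p U (fun n => h n + h' n) (x + x') := by
  obtain ⟨⟨V, hV, hm⟩, hl⟩ := H
  obtain ⟨⟨V', hV', hm'⟩, hl'⟩ := H'
  refine ⟨⟨V ⊔ V', inferInstance, ?_⟩, fun l => ?_⟩
  · filter_upwards [hm, hm'] with n h1 h2
    exact add_mem (Submodule.mem_sup_left h1) (Submodule.mem_sup_right h2)
  · simpa only [map_add] using (hl l).add (hl' l)

theorem Lim.smul {U : Filter ℕ} {h : ℕ → K} {x : K} (H : Lim p U h x) {c : ℕ → ℚ_[p]} {a : ℚ_[p]}
    (hc : Tendsto c U (𝓝 a)) : Lim p U (fun n => c n • h n) (a • x) := by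
  obtain ⟨⟨V, hV, hm⟩, hl⟩ := H
  refine ⟨⟨V, inferInstance, ?_⟩, fun l => ?_⟩
  · filter_upwards [hm] with n h1
    exact V.smul_mem _ h1
  · simpa only [map_smul, smul_eq_mul] using hc.mul (hl l)

theorem Lim.map {U : Filter ℕ} {h : ℕ → K} {x : K} (H : Lim p U h x) {K' : Type*} [AddCommGroup K']
    [Module ℚ_[p] K'] (T : K →ₗ[ℚ_[p]] K') : Lim p U (fun n => T (h n)) (T x) := by
  obtain ⟨⟨V, hV, hm⟩, hl⟩ := H
  refine ⟨⟨V.map T, inferInstance, ?_⟩, fun l => ?_⟩
  · filter_upwards [hm] with n h1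
    exact Submodule.mem_map_of_mem h1
  · exact hl (l.comp T)

theorem Lim.neg {U : Filter ℕ} {h : ℕ → K} {x : K} (H : Lim p U h x) :
    Lim p U (fun n => -h n) (-x) := H.map (-LinearMap.id)

theorem Lim.sub {U : Filter ℕ} {h h' : ℕ → K} {x x' : K} (H : Lim p U h x) (H' : Lim p U h' x') :
    Lim p U (fun n => h n - h' n) (x - x') := by
  simpa only [sub_eq_add_neg] using H.add H'.neg

theorem lim_sum {U : Filter ℕ} {ι : Type*} (s : Finset ι) {h : ι → ℕ → K} {x : ι → K}
    (H : ∀ i ∈ s, Lim p U (h i) (x i)) : Lim p U (fun n => ∑ i ∈ s, h i n) (∑ i ∈ s, x i) := by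
  classical
  induction s using Finset.induction_on with
  | empty => simpa using lim_const U (0 : K)
  | insert i s hi ih =>
    simp only [Finset.sum_insert hi]
    exact (H i (Finset.mem_insert_self _ _)).add
      (ih fun j hj => H j (Finset.mem_insert_of_mem hj))

/-- a functional separating a point from a subspace -/
theorem exists_functional (W : Submodule ℚ_[p] K) {x : K} (hx : x ∉ W) :
    ∃ l : K →ₗ[ℚ_[p]] ℚ_[p], l x = 1 ∧ ∀ w ∈ W, l w = 0 := by
  obtain ⟨f, hf, hW⟩ := Submodule.exists_le_ker_of_notMem hx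
  refine ⟨(f x)⁻¹ • f, ?_, fun w hw => ?_⟩
  · simp [hf]
  · have : f w = 0 := hW hw
    simp [this]

theorem Lim.mem {U : Filter ℕ} [U.NeBot] {h : ℕ → K} {x : K} (H : Lim p U h x)
    {W : Submodule ℚ_[p] K} (hW : ∀ᶠ n in U, h n ∈ W) : x ∈ W := by
  by_contra hx
  obtain ⟨l, hl1, hl0⟩ := exists_functional W hx
  have h1 := H.2 l
  have h2 : Tendsto (fun n => l (h n)) U (𝓝 0) := by
    refine tendsto_const_nhds.congr' ?_
    filter_upwards [hW] with n hn
    rw [hl0 _ hn]
  have h3 := tendsto_nhds_unique h1 h2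
  rw [hl1] at h3
  exact one_ne_zero h3

theorem Lim.unique {U : Filter ℕ} [U.NeBot] {h : ℕ → K} {x y : K} (H : Lim p U h x)
    (H' : Lim p U h y) : x = y := by
  have h1 := H.sub H'
  have h2 := h1.mem (W := ⊥) (Eventually.of_forall fun n => by simp)
  rw [Submodule.mem_bot, sub_eq_zero] at h2
  exact h2

theorem Lim.eventually_ne {U : Ultrafilter ℕ} {h : ℕ → K} {x : K} (H : Lim p (U : Filter ℕ) h x)
    (hx : x ≠ 0) : ∀ᶠ n in (U : Filter ℕ), h n ≠ 0 := by
  by_contra hcon
  have h1 : ∀ᶠ n in (U : Filter ℕ), ¬ (h n ≠ 0) := Ultrafilter.eventually_not.mpr hcon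
  refine hx ?_
  have h2 := H.mem (W := ⊥) (by filter_upwards [h1] with n hn; simpa using hn)
  simpa using h2

/-- coordinates on a finite dimensional subspace by global functionals -/
theorem exists_coord (V : Submodule ℚ_[p] K) [FiniteDimensional ℚ_[p] V] :
    ∃ (s : ℕ) (b : Fin s → K) (l : Fin s → (K →ₗ[ℚ_[p]] ℚ_[p])), (∀ i, b i ∈ V) ∧
      (∀ v ∈ V, v = ∑ i, l i v • b i) ∧ (∀ i j, l i (b j) = if i = j then 1 else 0) := by
  classical
  let B := Module.finBasis ℚ_[p] V
  have hex : ∀ i, ∃ l : K →ₗ[ℚ_[p]] ℚ_[p], l.comp V.subtype = B.coord i := fun i =>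
    LinearMap.exists_extend _
  choose l hl using hex
  have hl' : ∀ i (v : V), l i v = B.repr v i := fun i v => by
    have := LinearMap.congr_fun (hl i) v
    simpa using this
  refine ⟨_, fun i => (B i : K), l, fun i => (B i).2, fun v hv => ?_, fun i j => ?_⟩
  · have h1 := congrArg Subtype.val (B.sum_repr ⟨v, hv⟩)
    rw [AddSubmonoidClass.coe_finsetSum] at h1
    refine h1.symm.trans ?_
    refine Finset.sum_congr rfl fun i _ => ?_
    rw [Submodule.coe_smul]
    congr 1
    exact (hl' i ⟨v, hv⟩).symm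
  · rw [hl' i (B j), B.repr_self, Finsupp.single_apply]
    simp only [eq_comm]

theorem lim_of_coord {U : Filter ℕ} {ι : Type*} (s : Finset ι) (v : ι → K) {c : ι → ℕ → ℚ_[p]}
    {a : ι → ℚ_[p]} (hc : ∀ i ∈ s, Tendsto (c i) U (𝓝 (a i))) :
    Lim p U (fun n => ∑ i ∈ s, c i n • v i) (∑ i ∈ s, a i • v i) :=
  lim_sum s fun i hi => (lim_const U (v i)).smul (hc i hi)

theorem exists_tendsto (U : Ultrafilter ℕ) {c : ℕ → ℚ_[p]} (hc : ∀ᶠ n in (U : Filter ℕ), ‖c n‖ ≤ 1) :
    ∃ a, ‖a‖ ≤ 1 ∧ Tendsto c U (𝓝 a) := by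
  have h1 : IsCompact (Metric.closedBall (0 : ℚ_[p]) 1) := isCompact_closedBall 0 1
  obtain ⟨a, ha, hle⟩ := h1.ultrafilter_le_nhds' (U.map c) (by
    rw [Ultrafilter.mem_map]
    filter_upwards [hc] with n hn
    simpa using hn)
  exact ⟨a, by simpa using ha, hle⟩

/-- normalisation: a sequence of non-zero vectors has a non-zero limit after scaling -/
theorem exists_normalise (U : Ultrafilter ℕ) (V : Submodule ℚ_[p] K) [FiniteDimensional ℚ_[p] V]
    {h : ℕ → K} (hV : ∀ᶠ n in (U : Filter ℕ), h n ∈ V) (h0 : ∀ᶠ n in (U : Filter ℕ), h n ≠ 0) :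
    ∃ a : ℕ → ℚ_[p], (∀ n, a n ≠ 0) ∧ ∃ x : K, x ≠ 0 ∧ Lim p U (fun n => a n • h n) x := by
  classical
  obtain ⟨s, b, l, hb, hsum, hlb⟩ := exists_coord V
  have key : ∃ i, ∀ᶠ n in (U : Filter ℕ), l i (h n) ≠ 0 ∧ ∀ j, ‖l j (h n)‖ ≤ ‖l i (h n)‖ := by
    by_contra hcon
    have h1 : ∀ i, ∀ᶠ n in (U : Filter ℕ), ¬ (l i (h n) ≠ 0 ∧ ∀ j, ‖l j (h n)‖ ≤ ‖l i (h n)‖) := by
      intro i
      exact Ultrafilter.eventually_not.mpr (fun hh => hcon ⟨i, hh⟩)
    have h2 := eventually_all.mpr h1
    obtain ⟨n, hn1, hn2, hn3⟩ := (h2.and (hV.and h0)).exists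
    have hne : Nonempty (Fin s) := by
      by_contra hemp
      rw [not_nonempty_iff] at hemp
      exact hn3 (by rw [hsum _ hn2]; simp)
    obtain ⟨i, hi⟩ := Finite.exists_max (fun i => ‖l i (h n)‖)
    refine hn1 i ⟨?_, hi⟩
    intro hzero
    apply hn3
    rw [hsum _ hn2]
    refine Finset.sum_eq_zero fun j _ => ?_
    have : ‖l j (h n)‖ ≤ 0 := by simpa [hzero] using hi j
    rw [norm_le_zero_iff.mp this, zero_smul]
  obtain ⟨i, hi⟩ := key
  let a : ℕ → ℚ_[p] := fun n => if l i (h n) = 0 then 1 else (l i (h n))⁻¹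
  have ha : ∀ n, a n ≠ 0 := fun n => by
    by_cases hz : l i (h n) = 0
    · simp [a, hz]
    · simp [a, hz]
  have hbd : ∀ j, ∀ᶠ n in (U : Filter ℕ), ‖l j (a n • h n)‖ ≤ 1 := by
    intro j
    filter_upwards [hi] with n hn
    rw [map_smul, smul_eq_mul, norm_mul]
    simp only [a, if_neg hn.1, norm_inv]
    rw [inv_mul_le_iff₀ (norm_pos_iff.mpr hn.1), mul_one]
    exact hn.2 j
  choose c hc1 hc2 using fun j => exists_tendsto U (hbd j)
  refine ⟨a, ha, ∑ j, c j • b j, ?_, ?_⟩
  · intro h0'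
    have h1 := congrArg (l i) h0'
    rw [map_sum, map_zero] at h1
    simp only [map_smul, hlb, smul_eq_mul, mul_ite, mul_one, mul_zero, Finset.sum_ite_eq,
      Finset.mem_univ, if_true] at h1
    have h2 : Tendsto (fun n => l i (a n • h n)) U (𝓝 1) := by
      refine tendsto_const_nhds.congr' ?_
      filter_upwards [hi] with n hn
      rw [map_smul, smul_eq_mul]
      simp only [a, if_neg hn.1]
      rw [inv_mul_cancel₀ hn.1]
    have h3 := tendsto_nhds_unique (hc2 i) h2
    rw [h1] at h3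
    exact zero_ne_one h3
  · refine (lim_of_coord Finset.univ b (fun j _ => hc2 j)).congr ?_
    filter_upwards [hV] with n hn
    exact (hsum _ (V.smul_mem _ hn)).symm

/-- the limit of a sequence of subspaces -/
def limS (p : ℕ) [Fact p.Prime] {K : Type*} [AddCommGroup K] [Module ℚ_[p] K] (U : Filter ℕ)
    (W : ℕ → Submodule ℚ_[p] K) : Submodule ℚ_[p] K where
  carrier := {x | ∃ h : ℕ → K, (∀ n, h n ∈ W n) ∧ Lim p U h x}
  add_mem' := by
    rintro x y ⟨h, h1, h2⟩ ⟨h', h1', h2'⟩
    exact ⟨_, fun n => add_mem (h1 n) (h1' n), h2.add h2'⟩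
  zero_mem' := ⟨fun _ => 0, fun n => zero_mem _, lim_const U 0⟩
  smul_mem' := by
    rintro c x ⟨h, h1, h2⟩
    exact ⟨fun n => c • h n, fun n => (W n).smul_mem c (h1 n), h2.smul tendsto_const_nhds⟩

theorem mem_limS {U : Filter ℕ} {W : ℕ → Submodule ℚ_[p] K} {x : K} :
    x ∈ limS p U W ↔ ∃ h : ℕ → K, (∀ n, h n ∈ W n) ∧ Lim p U h x := Iff.rfl

theorem mem_limS_of_eventually {U : Filter ℕ} {W : ℕ → Submodule ℚ_[p] K} {x : K} {h : ℕ → K}
    (h1 : ∀ᶠ n in U, h n ∈ W n) (h2 : Lim p U h x) : x ∈ limS p U W := by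
  classical
  refine ⟨fun n => if h n ∈ W n then h n else 0, fun n => ?_, h2.congr ?_⟩
  · by_cases hn : h n ∈ W n
    · simp [hn]
    · simp [hn]
  · filter_upwards [h1] with n hn
    simp [hn]

theorem limS_le {U : Filter ℕ} [U.NeBot] {W : ℕ → Submodule ℚ_[p] K} {V : Submodule ℚ_[p] K}
    (hV : ∀ᶠ n in U, W n ≤ V) : limS p U W ≤ V := by
  rintro x ⟨h, h1, h2⟩
  exact h2.mem (hV.mono fun n hn => hn (h1 n))

theorem limS_mono {U : Filter ℕ} {W W' : ℕ → Submodule ℚ_[p] K} (h : ∀ᶠ n in U, W n ≤ W' n) :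
    limS p U W ≤ limS p U W' := by
  rintro x ⟨g, h1, h2⟩
  exact mem_limS_of_eventually (h.mono fun n hn => hn (h1 n)) h2

/-- **compactness of the Grassmannian**: the limit of `r`-dimensional subspaces is `r`-dimensional -/
theorem finrank_limS (U : Ultrafilter ℕ) (V : Submodule ℚ_[p] K) [FiniteDimensional ℚ_[p] V] (r : ℕ) :
    ∀ (W : ℕ → Submodule ℚ_[p] K), (∀ᶠ n in (U : Filter ℕ), W n ≤ V) →
      (∀ᶠ n in (U : Filter ℕ), finrank ℚ_[p] (W n) = r) →
      finrank ℚ_[p] (limS p (U : Filter ℕ) W) = r := by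
  induction r with
  | zero =>
    intro W hV hr
    have h1 : limS p (U : Filter ℕ) W = ⊥ := by
      rw [eq_bot_iff]
      refine limS_le ?_
      filter_upwards [hV, hr] with n h1 h2
      have : FiniteDimensional ℚ_[p] (W n) := Submodule.finiteDimensional_of_le h1
      exact le_of_eq (Submodule.finrank_eq_zero.mp h2)
    rw [h1]
    simp
  | succ r ih =>
    intro W hV hr
    have hex : ∀ᶠ n in (U : Filter ℕ), ∃ h ∈ W n, h ≠ 0 := by
      filter_upwards [hV, hr] with n h1 h2
      have h3 : W n ≠ ⊥ := by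
        intro h3
        rw [h3] at h2
        simp at h2
      exact Submodule.exists_mem_ne_zero_of_ne_bot h3
    classical
    let h : ℕ → K := fun n => if hn : ∃ h ∈ W n, h ≠ 0 then hn.choose else 0
    have hW : ∀ n, h n ∈ W n := fun n => by
      by_cases hn : ∃ h ∈ W n, h ≠ 0
      · simp only [h, dif_pos hn]
        exact hn.choose_spec.1
      · simp only [h, dif_neg hn]
        exact zero_mem _
    have h0 : ∀ᶠ n in (U : Filter ℕ), h n ≠ 0 := by
      filter_upwards [hex] with n hn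
      simp only [h, dif_pos hn]
      exact hn.choose_spec.2
    obtain ⟨a, ha, x, hx, hlim⟩ := exists_normalise U V (h := h) (hV.mono fun n hn => hn (hW n)) h0
    obtain ⟨l, hl1, -⟩ := exists_functional (⊥ : Submodule ℚ_[p] K) (x := x) (by simpa using hx)
    -- the sequence `g n = a n • h n`
    have hg : ∀ n, a n • h n ∈ W n := fun n => (W n).smul_mem _ (hW n)
    have hlg : ∀ᶠ n in (U : Filter ℕ), l (a n • h n) ≠ 0 := by
      have h1 := hlim.2 l
      rw [hl1] at h1
      exact h1.eventually_ne one_ne_zero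
    let W' : ℕ → Submodule ℚ_[p] K := fun n => W n ⊓ LinearMap.ker l
    have hW' : finrank ℚ_[p] (limS p (U : Filter ℕ) W') = r := by
      refine ih W' (hV.mono fun n hn => inf_le_left.trans hn) ?_
      filter_upwards [hV, hr, hlg] with n h1 h2 h3
      have : FiniteDimensional ℚ_[p] (W n) := Submodule.finiteDimensional_of_le h1
      have h4 := LinearMap.finrank_range_add_finrank_ker (l.domRestrict (W n))
      have h5 : finrank ℚ_[p] (LinearMap.range (l.domRestrict (W n))) = 1 := by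
        have : LinearMap.range (l.domRestrict (W n)) = ⊤ := by
          rw [LinearMap.range_eq_top]
          intro c
          refine ⟨(c * (l (a n • h n))⁻¹) • ⟨a n • h n, hg n⟩, ?_⟩
          rw [map_smul, LinearMap.domRestrict_apply, smul_eq_mul, mul_assoc, inv_mul_cancel₀ h3,
            mul_one]
        rw [this]
        simp
      have h6 : LinearMap.ker (l.domRestrict (W n)) = (W' n).comap (W n).subtype := by
        ext y
        simp [W']
      have h7 : finrank ℚ_[p] (LinearMap.ker (l.domRestrict (W n))) = finrank ℚ_[p] (W' n) := by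
        rw [h6]
        exact (Submodule.comapSubtypeEquivOfLe inf_le_left).finrank_eq
      rw [h5, h7, h2] at h4
      omega
    have hfin' : FiniteDimensional ℚ_[p] (limS p (U : Filter ℕ) W') :=
      Submodule.finiteDimensional_of_le (limS_le (V := V) (hV.mono fun n hn => inf_le_left.trans hn))
    have hxl : l x ≠ 0 := by rw [hl1]; exact one_ne_zero
    have hker : limS p (U : Filter ℕ) W' ≤ LinearMap.ker l :=
      limS_le (Eventually.of_forall fun n => inf_le_right)
    have hsup : limS p (U : Filter ℕ) W = (ℚ_[p] ∙ x) ⊔ limS p (U : Filter ℕ) W' := by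
      apply le_antisymm
      · rintro y ⟨g, hg1, hg2⟩
        have h1 : Lim p (U : Filter ℕ) (fun n => g n - (l (g n) * (l (a n • h n))⁻¹) • (a n • h n))
            (y - (l y * (l x)⁻¹) • x) :=
          hg2.sub (hlim.smul ((hg2.2 l).mul ((hlim.2 l).inv₀ hxl)))
        have h2 : y - (l y * (l x)⁻¹) • x ∈ limS p (U : Filter ℕ) W' := by
          refine mem_limS_of_eventually ?_ h1
          filter_upwards [hlg] with n hn
          refine ⟨sub_mem (hg1 n) ((W n).smul_mem _ (hg n)), ?_⟩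
          show l _ = 0
          rw [map_sub, map_smul l _ (a n • h n), smul_eq_mul, mul_assoc,
            inv_mul_cancel₀ hn, mul_one, sub_self]
        have h3 : y = (l y * (l x)⁻¹) • x + (y - (l y * (l x)⁻¹) • x) := by abel
        rw [h3]
        exact add_mem (Submodule.mem_sup_left (Submodule.smul_mem _ _
          (Submodule.mem_span_singleton_self x))) (Submodule.mem_sup_right h2)
      · rw [sup_le_iff]
        constructor
        · rw [Submodule.span_singleton_le_iff_mem]
          exact ⟨_, hg, hlim⟩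
        · exact limS_mono (Eventually.of_forall fun n => inf_le_left)
    have hdisj : Disjoint (ℚ_[p] ∙ x) (limS p (U : Filter ℕ) W') := by
      rw [Submodule.disjoint_def]
      intro y hy1 hy2
      obtain ⟨c, rfl⟩ := Submodule.mem_span_singleton.mp hy1
      have h1 : l (c • x) = 0 := hker hy2
      rw [map_smul, hl1, smul_eq_mul, mul_one] at h1
      rw [h1, zero_smul]
    have h8 := Submodule.finrank_sup_add_finrank_inf_eq (ℚ_[p] ∙ x) (limS p (U : Filter ℕ) W')
    rw [hdisj.eq_bot, finrank_bot, add_zero, finrank_span_singleton hx, hW', ← hsup] at h8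
    omega

end Vec

end Crest.Agent.R013.Beta1_116
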