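import Mathlib
import Crest.Agent.R013.RR12_948
import Crest.Agent.R013.PicD_398

/-!
# R013 / NidA: Riemann-Roch facts for the compactness of `Pic0` (helper429)

`R` a divisor of degree `r ≥ 3g+1`.  Effective divisors `E` of degree `r` correspond to the
`k`-subspaces `LD (2R - E)` of `LD (2R)`; these are characterised by their dimension and by
the dimension of `s₁ LD (3R) + s₂ LD (3R)` (`exists_eff`).
-/

set_option autoImplicit false
set_option linter.unusedSectionVars false
set_option linter.style.haveILetI false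

namespace Crest.Agent.R013.NidA_429

open WithZero Module
open Crest.Agent.R013.RR7_948 Crest.Agent.R013.RR8_948 Crest.Agent.R013.RR9_948
open Crest.Agent.R013.RR11_948 Crest.Agent.R013.PicD_398

variable {k : Type*} [Field k] {K : Type*} [Field K] [Algebra k K] [Algebra (RatFunc k) K]
  [IsScalarTower k (RatFunc k) K] [FiniteDimensional (RatFunc k) K]
  [Algebra.IsSeparable (RatFunc k) K]

theorem ell_le_of_nonneg (hc : algebraicClosure k K = ⊥) {D : Pl k K →₀ ℤ} (hD : 0 ≤ D) :
    (ell D : ℤ) ≤ degD D + 1 := by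
  have h := riemann_roch hc D
  have h1 : ell (canD k K - D) ≤ ell (canD k K) := ell_mono (by
    intro P
    have := hD P
    rw [Finsupp.sub_apply]
    rw [Finsupp.zero_apply] at this
    omega)
  have h2 : gen k K = ell (canD k K) := rfl
  omega

theorem ell_le_max (hc : algebraicClosure k K = ⊥) (D : Pl k K →₀ ℤ) :
    (ell D : ℤ) ≤ max 0 (degD D + 1) := by
  rcases Nat.eq_zero_or_pos (ell D) with h | h
  · rw [h]; exact le_max_left _ _
  · obtain ⟨f, hf, h1⟩ := ell_pos_iff.mp h
    have h2 := ell_le_of_nonneg hc h1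
    rw [ell_add_divf _ hf, degD_add, degD_divf hf, add_zero] at h2
    exact h2.trans (le_max_right _ _)

theorem degD_single_one (P : Pl k K) : degD (Finsupp.single P (1 : ℤ)) = degP P := by
  rw [degD_single, one_mul]

/-- `LD A` has no base points in degree `≥ 3g` -/
theorem bpf (hc : algebraicClosure k K = ⊥) {A : Pl k K →₀ ℤ}
    (hA : 3 * (gen k K : ℤ) ≤ degD A) (P : Pl k K) : ∃ s ∈ LD A, P.v s = exp (A P) := by
  classical
  have hlt : ell (A - Finsupp.single P 1) < ell A := by
    have h1 := ell_ge hc A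
    have h2 : degD (A - Finsupp.single P 1) = degD A - degP P := by
      rw [degD_sub, degD_single_one]
    have h3 : 0 < (degP P : ℤ) := by exact_mod_cast degP_pos P
    by_cases h : 2 * (gen k K : ℤ) - 2 < degD (A - Finsupp.single P 1)
    · have h4 := ell_eq_of_lt hc h
      omega
    · have h4 := ell_le_max hc (A - Finsupp.single P 1)
      rcases le_total (degD (A - Finsupp.single P 1) + 1) 0 with h5 | h5
      · rw [max_eq_left h5] at h4
        omega
      · rw [max_eq_right h5] at h4
        omega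
  by_contra hcon
  push Not at hcon
  have hle : LD A ≤ LD (A - Finsupp.single P 1) := by
    intro s hs
    have hs' := hs
    rw [mem_LD] at hs ⊢
    intro Q
    rw [Finsupp.sub_apply, Finsupp.single_apply]
    by_cases hQ : P = Q
    · subst hQ
      rw [if_pos rfl]
      have h1 := lt_of_le_of_ne (hs P) (hcon s hs')
      exact (Crest.Agent.R013.RR2_948.lt_exp_iff _ _).mp h1
    · rw [if_neg hQ, sub_zero]
      exact hs Q
  haveI := LD_finite (A - Finsupp.single P 1)
  have := Submodule.finrank_mono hle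
  unfold ell at hlt
  omega

theorem mem_LD_sub (hc : algebraicClosure k K = ⊥) {A B : Pl k K →₀ ℤ}
    (hA : 3 * (gen k K : ℤ) ≤ degD A) {f : K} (h : ∀ s ∈ LD A, f * s ∈ LD B) :
    f ∈ LD (B - A) := by
  rw [mem_LD]
  intro P
  obtain ⟨s, hs, hs1⟩ := bpf hc hA P
  have h1 := mem_LD.mp (h s hs) P
  rw [map_mul, hs1] at h1
  rw [Finsupp.sub_apply]
  by_cases hf : P.v f = 0
  · rw [hf]; exact zero_le
  · obtain ⟨n, hn⟩ : ∃ n : ℤ, P.v f = exp n := ⟨_, (exp_log hf).symm⟩
    rw [hn, ← exp_add, exp_le_exp] at h1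
    rw [hn, exp_le_exp]
    omega

theorem mul_mem_LD {A B : Pl k K →₀ ℤ} {f g : K} (hf : f ∈ LD A) (hg : g ∈ LD B) :
    f * g ∈ LD (A + B) := by
  rw [mem_LD] at *
  intro P
  rw [map_mul, Finsupp.add_apply, exp_add]
  exact mul_le_mul' (hf P) (hg P)

theorem mem_LD_of_divf {D : Pl k K →₀ ℤ} {f : K} (hf : f ≠ 0) (h : 0 ≤ D + divf (k := k) f) :
    f ∈ LD D := (mem_LD_iff hf).mpr h

/-- multiplication by `f` as a `k`-linear map -/
noncomputable def mulL (k : Type*) [Field k] {K : Type*} [Field K] [Algebra k K] (f : K) :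
    K →ₗ[k] K := LinearMap.mulLeft k f

omit [Algebra (RatFunc k) K] [IsScalarTower k (RatFunc k) K] [FiniteDimensional (RatFunc k) K]
  [Algebra.IsSeparable (RatFunc k) K] in
theorem mulL_apply (f x : K) : mulL k f x = f * x := rfl

omit [Algebra (RatFunc k) K] [IsScalarTower k (RatFunc k) K] [FiniteDimensional (RatFunc k) K]
  [Algebra.IsSeparable (RatFunc k) K] in
theorem mulL_injective {f : K} (hf : f ≠ 0) : Function.Injective (mulL k f) := by
  intro x y h
  exact mul_left_cancel₀ hf h

omit [Algebra (RatFunc k) K] [IsScalarTower k (RatFunc k) K] [FiniteDimensional (RatFunc k) K]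
  [Algebra.IsSeparable (RatFunc k) K] in
theorem finrank_map_mulL (S : Submodule k K) {f : K} (hf : f ≠ 0) :
    finrank k (S.map (mulL k f)) = finrank k S :=
  (Submodule.equivMapOfInjective (mulL k f) (mulL_injective hf) S).symm.finrank_eq

theorem ell_pos_of (hc : algebraicClosure k K = ⊥) {D : Pl k K →₀ ℤ}
    (h : (gen k K : ℤ) ≤ degD D) : 0 < ell D := by
  have := ell_ge hc D
  omega

/-- the main recognition lemma: limits of the spaces `LD (2R - E)` are of this form -/
theorem exists_eff [Infinite k] (hc : algebraicClosure k K = ⊥) {R : Pl k K →₀ ℤ}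
    (hR : 3 * (gen k K : ℤ) + 1 ≤ degD R) {S : Submodule k K} (hS : S ≤ LD (2 • R))
    (hdim : (finrank k S : ℤ) = degD R + 1 - gen k K)
    (hmul : ∀ s₁ ∈ S, ∀ s₂ ∈ S, (finrank k ((LD (3 • R)).map (mulL k s₁) ⊔
      (LD (3 • R)).map (mulL k s₂) : Submodule k K) : ℤ) ≤ 4 * degD R + 1 - gen k K) :
    ∃ E : Pl k K →₀ ℤ, 0 ≤ E ∧ degD E = degD R ∧ S = LD (2 • R - E) := by
  classical
  have hg0 : (0 : ℤ) ≤ gen k K := Int.natCast_nonneg _
  have hd2 : degD (2 • R) = 2 * degD R := by rw [two_nsmul, degD_add]; ring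
  have hd3 : degD (3 • R) = 3 * degD R := by
    rw [show (3 : ℕ) • R = 2 • R + R from by rw [succ_nsmul], degD_add, hd2]; ring
  haveI := LD_finite (2 • R)
  haveI : Module.Finite k S := Module.Finite.of_injective (Submodule.inclusion hS)
    (Submodule.inclusion_injective hS)
  -- a nonzero element of `S`
  obtain ⟨s₀, hs₀, hs₀0⟩ : ∃ s ∈ S, s ≠ 0 := by
    by_contra hcon
    push Not at hcon
    have : S = ⊥ := (Submodule.eq_bot_iff S).mpr hcon
    rw [this, finrank_bot] at hdim
    push_cast at hdim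
    omega
  -- the fixed divisor
  obtain ⟨E, hE0, hE, hEmax⟩ : ∃ E : Pl k K →₀ ℤ, 0 ≤ E ∧ S ≤ LD (2 • R - E) ∧
      ∀ E' : Pl k K →₀ ℤ, 0 ≤ E' → S ≤ LD (2 • R - E') → degD E' ≤ degD E := by
    let p : ℕ → Prop := fun n => ∃ E : Pl k K →₀ ℤ, 0 ≤ E ∧ S ≤ LD (2 • R - E) ∧ degD E = n
    have hbd : ∀ E' : Pl k K →₀ ℤ, 0 ≤ E' → S ≤ LD (2 • R - E') → degD E' ≤ 2 * degD R := by
      intro E' _ h
      by_contra hcon
      push Not at hcon
      exact hs₀0 (eq_zero_of_degD_neg (D := 2 • R - E') (by rw [degD_sub, hd2]; omega) (h hs₀))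
    have hp0 : p 0 := ⟨0, le_refl _, by rw [sub_zero]; exact hS, by rw [degD_zero]; rfl⟩
    have hspec := Nat.findGreatest_spec (P := p) (n := (2 * degD R).toNat) (Nat.zero_le _) hp0
    obtain ⟨E, h1, h2, h3⟩ := hspec
    refine ⟨E, h1, h2, fun E' h4 h5 => ?_⟩
    have h6 : 0 ≤ degD E' := degD_nonneg h4
    have h7 := hbd E' h4 h5
    have h8 : p (degD E').toNat := ⟨E', h4, h5, by omega⟩
    have h9 := Nat.le_findGreatest (P := p) (n := (2 * degD R).toNat) (m := (degD E').toNat)
      (by omega) h8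
    omega
  set A := 2 • R - E with hAdef
  -- `S` is base point free in `LD A`
  have hfree : ∀ P : Pl k K, ∃ s ∈ S, P.v s = exp (A P) := by
    intro P
    by_contra hcon
    push Not at hcon
    have hle : S ≤ LD (2 • R - (E + Finsupp.single P 1)) := by
      intro s hs
      have hs' := mem_LD.mp (hE hs)
      rw [mem_LD]
      intro Q
      rw [← sub_sub, ← hAdef, Finsupp.sub_apply, Finsupp.single_apply]
      by_cases hQ : P = Q
      · subst hQ
        rw [if_pos rfl]
        exact (Crest.Agent.R013.RR2_948.lt_exp_iff _ _).mp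
          (lt_of_le_of_ne (hs' P) (hcon s hs))
      · rw [if_neg hQ, sub_zero]
        exact hs' Q
    have h1 := hEmax (E + Finsupp.single P 1) (add_nonneg hE0 (by
      intro Q
      rw [Finsupp.single_apply, Finsupp.zero_apply]
      split_ifs <;> norm_num)) hle
    rw [degD_add, degD_single_one] at h1
    have h3 : 0 < (degP P : ℤ) := by exact_mod_cast degP_pos P
    omega
  -- a second function
  obtain ⟨s₁, hs₁, hs₁0, hcov⟩ : ∃ s₁ ∈ S, s₁ ≠ 0 ∧
      ∀ P : Pl k K, P.v s₀ = exp (A P) ∨ P.v s₁ = exp (A P) := by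
    let Bad : Finset (Pl k K) := (divf (k := k) s₀).support ∪ A.support
    have hBad : ∀ P ∉ Bad, P.v s₀ = exp (A P) := by
      intro P hP
      rw [Finset.mem_union, not_or, Finsupp.notMem_support_iff, Finsupp.notMem_support_iff] at hP
      rw [v_eq hs₀0, hP.1, hP.2, neg_zero]
    let W : Pl k K → Submodule k S := fun P => (LD (A - Finsupp.single P 1)).comap S.subtype
    have hW : ∀ P s, s ∈ W P ↔ (s : K) ∈ LD (A - Finsupp.single P 1) := fun P s => Iff.rfl
    let 𝒮 : Finset (Submodule k S) := insert ⊥ (Bad.image W)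
    have hne : ⊤ ∉ 𝒮 := by
      intro h
      rw [Finset.mem_insert, Finset.mem_image] at h
      rcases h with h | ⟨P, hP, h⟩
      · have h1 : (⟨s₀, hs₀⟩ : S) ∈ (⊥ : Submodule k S) := h ▸ Submodule.mem_top
        rw [Submodule.mem_bot] at h1
        exact hs₀0 (congrArg Subtype.val h1)
      · obtain ⟨s, hs, hs1⟩ := hfree P
        have h1 : (⟨s, hs⟩ : S) ∈ W P := h ▸ Submodule.mem_top
        rw [hW] at h1
        have h2 := mem_LD.mp h1 P
        rw [Finsupp.sub_apply, Finsupp.single_eq_same] at h2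
        simp only at h2
        rw [hs1, exp_le_exp] at h2
        omega
    have hun := Subspace.biUnion_ne_univ_of_top_notMem hne
    obtain ⟨s, hs⟩ := (Set.ne_univ_iff_exists_notMem _).mp hun
    simp only [Set.mem_iUnion, not_exists] at hs
    refine ⟨s, s.2, ?_, ?_⟩
    · intro h0
      refine hs ⊥ (Finset.mem_insert_self _ _) ?_
      rw [SetLike.mem_coe, Submodule.mem_bot]
      exact Subtype.ext h0
    · intro P
      by_cases hP : P ∈ Bad
      · right
        have h1 : s ∉ W P := fun h =>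
          hs (W P) (Finset.mem_insert_of_mem (Finset.mem_image_of_mem _ hP)) h
        rw [hW, mem_LD] at h1
        push Not at h1
        obtain ⟨Q, hQ⟩ := h1
        have h2 := mem_LD.mp (hE s.2)
        rw [Finsupp.sub_apply, Finsupp.single_apply] at hQ
        by_cases hPQ : P = Q
        · subst hPQ
          rw [if_pos rfl] at hQ
          refine le_antisymm (h2 P) (not_lt.mp fun hlt => ?_)
          have h3 := (Crest.Agent.R013.RR2_948.lt_exp_iff _ _).mp hlt
          exact absurd h3 (not_le.mpr hQ)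
        · rw [if_neg hPQ, sub_zero] at hQ
          exact absurd (h2 Q) (not_le.mpr hQ)
      · left
        exact hBad P hP
  -- the intersection
  have hinf : (LD (3 • R)).map (mulL k s₀) ⊓ (LD (3 • R)).map (mulL k s₁) =
      (LD (3 • R - A)).map (mulL k (s₀ * s₁)) := by
    ext y
    rw [Submodule.mem_inf, Submodule.mem_map, Submodule.mem_map, Submodule.mem_map]
    constructor
    · rintro ⟨⟨a, ha, hay⟩, ⟨b, hb, hby⟩⟩
      rw [mulL_apply] at hay hby
      refine ⟨y / (s₀ * s₁), ?_, by rw [mulL_apply, mul_div_cancel₀ _ (mul_ne_zero hs₀0 hs₁0)]⟩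
      have e1 : y / (s₀ * s₁) * s₁ = a := by rw [← hay]; field_simp
      have e2 : y / (s₀ * s₁) * s₀ = b := by rw [← hby]; field_simp
      rw [mem_LD] at ha hb ⊢
      intro P
      by_cases hc0 : P.v (y / (s₀ * s₁)) = 0
      · rw [hc0]; exact zero_le
      obtain ⟨n, hn⟩ : ∃ n : ℤ, P.v (y / (s₀ * s₁)) = exp n := ⟨_, (exp_log hc0).symm⟩
      rw [hn, exp_le_exp, Finsupp.sub_apply]
      rcases hcov P with h | h
      · have h1 := hb P
        rw [← e2, map_mul, hn, h, ← exp_add, exp_le_exp] at h1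
        omega
      · have h1 := ha P
        rw [← e1, map_mul, hn, h, ← exp_add, exp_le_exp] at h1
        omega
    · rintro ⟨c, hc1, rfl⟩
      rw [mulL_apply]
      have h0 : s₀ ∈ LD A := hE hs₀
      have h1 : s₁ ∈ LD A := hE hs₁
      refine ⟨⟨c * s₁, ?_, by rw [mulL_apply]; ring⟩, ⟨c * s₀, ?_, by rw [mulL_apply]; ring⟩⟩
      · have := mul_mem_LD hc1 h1
        rwa [sub_add_cancel] at this
      · have := mul_mem_LD hc1 h0
        rwa [sub_add_cancel] at this
  haveI h3fin := LD_finite (3 • R)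
  haveI : FiniteDimensional k ((LD (3 • R)).map (mulL k s₀)) := inferInstance
  haveI : FiniteDimensional k ((LD (3 • R)).map (mulL k s₁)) := inferInstance
  have hsum := Submodule.finrank_sup_add_finrank_inf_eq ((LD (3 • R)).map (mulL k s₀))
    ((LD (3 • R)).map (mulL k s₁))
  rw [hinf, finrank_map_mulL _ hs₀0, finrank_map_mulL _ hs₁0,
    finrank_map_mulL _ (mul_ne_zero hs₀0 hs₁0)] at hsum
  have hdE : 0 ≤ degD E := degD_nonneg hE0
  have h3A : degD (3 • R - A) = degD R + degD E := by
    rw [hAdef, degD_sub, degD_sub, hd3, hd2]; ring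
  have e1 := ell_eq_of_lt hc (D := 3 • R) (by rw [hd3]; omega)
  have e2 := ell_eq_of_lt hc (D := 3 • R - A) (by rw [h3A]; omega)
  have e3 := hmul s₀ hs₀ s₁ hs₁
  have hδ : degD R ≤ degD E := by
    unfold ell at e1 e2
    rw [hd3] at e1
    rw [h3A] at e2
    omega
  haveI := LD_finite A
  have hle : finrank k S ≤ finrank k (LD A) := Submodule.finrank_mono hE
  have hdA : degD A = 2 * degD R - degD E := by rw [hAdef, degD_sub, hd2]
  have hδ' : degD E = degD R ∧ (ell A : ℤ) = degD R + 1 - gen k K := by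
    by_cases h : 2 * (gen k K : ℤ) - 2 < degD A
    · have e4 := ell_eq_of_lt hc h
      have e4' := e4
      unfold ell at e4
      constructor <;> omega
    · exfalso
      have h4 := ell_le_max hc A
      unfold ell at h4
      rcases le_total (degD A + 1) 0 with h5 | h5
      · rw [max_eq_left h5] at h4
        omega
      · rw [max_eq_right h5] at h4
        omega
  refine ⟨E, hE0, hδ'.1, Submodule.eq_of_le_of_finrank_eq hE ?_⟩
  have h5 : (finrank k (LD A) : ℤ) = degD R + 1 - gen k K := hδ'.2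
  rw [← hdim] at h5
  exact_mod_cast h5.symm

end Crest.Agent.R013.NidA_429
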