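import Mathlib
import Crest.Agent.R013.Beta1_116
import Crest.Agent.R013.NidA_429

/-!
# R013 / Beta2 (helper116): limits of effective divisors over a p-adic field

`k/ℚ_p` finite, `R` a divisor of degree `r ≥ 3g+1`.  A sequence of effective divisors `E n` of
degree `r` has a limit along every ultrafilter (`exists_cv`): `lim LD (2R - E n) = LD (2R - E)`;
limits are compatible with relations `E n + F n + G n = A + div (h n)` (`rel3`).
-/

set_option autoImplicit false
set_option linter.all false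

namespace Crest.Agent.R013.Beta2_116

open Filter Topology Module
open Crest.Agent.R013.RR7_948 Crest.Agent.R013.RR8_948 Crest.Agent.R013.RR9_948
open Crest.Agent.R013.RR11_948 Crest.Agent.R013.PicD_398 Crest.Agent.R013.NidA_429
open Crest.Agent.R013.Beta1_116

section mul

variable {p : ℕ} [Fact p.Prime] {K : Type*} [Field K] [Algebra ℚ_[p] K]

theorem lim_mul {U : Filter ℕ} [U.NeBot] {h h' : ℕ → K} {x x' : K} (H : Lim p U h x)
    (H' : Lim p U h' x') : Lim p U (fun n => h n * h' n) (x * x') := by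
  obtain ⟨⟨V, hV, hm⟩, hl⟩ := H
  obtain ⟨⟨V', hV', hm'⟩, hl'⟩ := H'
  have hx : x ∈ V := Lim.mem ⟨⟨V, hV, hm⟩, hl⟩ hm
  have hx' : x' ∈ V' := Lim.mem ⟨⟨V', hV', hm'⟩, hl'⟩ hm'
  obtain ⟨s, b, l, _, hsum, _⟩ := exists_coord V
  obtain ⟨s', b', l', _, hsum', _⟩ := exists_coord V'
  have key : ∀ a ∈ V, ∀ a' ∈ V', a * a' = ∑ q : Fin s × Fin s', (l q.1 a * l' q.2 a') •
      (b q.1 * b' q.2) := by
    intro a ha a' ha'
    conv_lhs => rw [hsum a ha, hsum' a' ha']
    rw [Finset.sum_mul_sum, ← Finset.univ_product_univ, Finset.sum_product]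
    refine Finset.sum_congr rfl fun i _ => Finset.sum_congr rfl fun j _ => ?_
    rw [smul_mul_smul_comm]
  rw [key x hx x' hx']
  refine (lim_of_coord Finset.univ (fun q : Fin s × Fin s' => b q.1 * b' q.2)
    (c := fun q n => l q.1 (h n) * l' q.2 (h' n)) (a := fun q => l q.1 x * l' q.2 x')
    (fun q _ => (hl (l q.1)).mul (hl' (l' q.2)))).congr ?_
  filter_upwards [hm, hm'] with n h1 h2
  exact (key _ h1 _ h2).symm

/-- division: `u n → u ≠ 0`, `u n * c n → a`, `c n` in a fixed finite dimensional space -/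
theorem exists_div (U : Ultrafilter ℕ) (V : Submodule ℚ_[p] K) [FiniteDimensional ℚ_[p] V]
    {u c : ℕ → K} {x a : K} (hu : Lim p (U : Filter ℕ) u x) (hx : x ≠ 0)
    (hc : ∀ᶠ n in (U : Filter ℕ), c n ∈ V)
    (ha : Lim p (U : Filter ℕ) (fun n => u n * c n) a) :
    ∃ y ∈ V, Lim p (U : Filter ℕ) c y ∧ x * y = a := by
  by_cases h0 : ∀ᶠ n in (U : Filter ℕ), c n ≠ 0
  · obtain ⟨t, ht, z, hz, hlim⟩ := exists_normalise U V hc h0
    have h1 : Lim p (U : Filter ℕ) (fun n => t n • (u n * c n)) (x * z) :=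
      (lim_mul hu hlim).congr (Eventually.of_forall fun n => by rw [mul_smul_comm])
    by_cases h2 : ∀ᶠ n in (U : Filter ℕ), ‖t n‖ ≤ 1
    · obtain ⟨τ, _, hτ⟩ := exists_tendsto U h2
      have h3 := h1.unique (ha.smul hτ)
      have hτ0 : τ ≠ 0 := by
        rintro rfl
        rw [zero_smul] at h3
        exact mul_ne_zero hx hz h3
      have h4 : Lim p (U : Filter ℕ) c (τ⁻¹ • z) :=
        (hlim.smul (hτ.inv₀ hτ0)).congr (Eventually.of_forall fun n => by
          rw [smul_smul, inv_mul_cancel₀ (ht n), one_smul])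
      refine ⟨τ⁻¹ • z, h4.mem hc, h4, (lim_mul hu h4).unique ha⟩
    · have h2' : ∀ᶠ n in (U : Filter ℕ), ‖(t n)⁻¹‖ ≤ 1 := by
        have h3 : ∀ᶠ n in (U : Filter ℕ), ¬ ‖t n‖ ≤ 1 := Ultrafilter.eventually_not.mpr h2
        filter_upwards [h3] with n hn
        rw [norm_inv]
        exact inv_le_one_of_one_le₀ (not_le.mp hn).le
      obtain ⟨τ, _, hτ⟩ := exists_tendsto U h2'
      have h4 : Lim p (U : Filter ℕ) c (τ • z) :=
        (hlim.smul hτ).congr (Eventually.of_forall fun n => by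
          rw [smul_smul, inv_mul_cancel₀ (ht n), one_smul])
      refine ⟨τ • z, h4.mem hc, h4, (lim_mul hu h4).unique ha⟩
  · have h1 : ∀ᶠ n in (U : Filter ℕ), ¬ (c n ≠ 0) := Ultrafilter.eventually_not.mpr h0
    have h2 : Lim p (U : Filter ℕ) c 0 := (lim_const _ 0).congr (by
      filter_upwards [h1] with n hn
      exact (not_not.mp hn).symm)
    exact ⟨0, V.zero_mem, h2, (lim_mul hu h2).unique ha⟩

end mul

section limK

variable (p : ℕ) [Fact p.Prime] {k : Type*} [Field k] [Algebra ℚ_[p] k] {K : Type*} [Field K]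
  [Algebra k K] [Algebra ℚ_[p] K] [IsScalarTower ℚ_[p] k K]

/-- the limit of a sequence of `k`-subspaces -/
noncomputable def limK (U : Filter ℕ) (W : ℕ → Submodule k K) : Submodule k K where
  __ := limS p U (fun n => (W n).restrictScalars ℚ_[p])
  smul_mem' := by
    rintro c x ⟨h, h1, h2⟩
    refine ⟨fun n => c • h n, fun n => (W n).smul_mem c (h1 n), ?_⟩
    exact h2.map ((LinearMap.lsmul k K c).restrictScalars ℚ_[p])

variable {p}

theorem mem_limK {U : Filter ℕ} {W : ℕ → Submodule k K} {x : K} :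
    x ∈ limK p U W ↔ ∃ h : ℕ → K, (∀ n, h n ∈ W n) ∧ Lim p U h x := Iff.rfl

theorem mem_limK_of_eventually {U : Filter ℕ} {W : ℕ → Submodule k K} {x : K} {h : ℕ → K}
    (h1 : ∀ᶠ n in U, h n ∈ W n) (h2 : Lim p U h x) : x ∈ limK p U W :=
  mem_limS_of_eventually (W := fun n => (W n).restrictScalars ℚ_[p]) h1 h2

theorem limK_le {U : Filter ℕ} [U.NeBot] {W : ℕ → Submodule k K} {V : Submodule k K}
    (hV : ∀ᶠ n in U, W n ≤ V) : limK p U W ≤ V := by
  rintro x ⟨h, h1, h2⟩
  exact h2.mem (W := V.restrictScalars ℚ_[p]) (hV.mono fun n hn => hn (h1 n))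

theorem limK_const {U : Filter ℕ} [U.NeBot] (W : Submodule k K) : limK p U (fun _ => W) = W :=
  le_antisymm (limK_le (Eventually.of_forall fun _ => le_rfl)) fun x hx =>
    ⟨fun _ => x, fun _ => hx, lim_const U x⟩

variable [FiniteDimensional ℚ_[p] k]

theorem finrank_limK (U : Ultrafilter ℕ) (V : Submodule k K) [FiniteDimensional k V] (r : ℕ)
    (W : ℕ → Submodule k K) (hV : ∀ᶠ n in (U : Filter ℕ), W n ≤ V)
    (hr : ∀ᶠ n in (U : Filter ℕ), finrank k (W n) = r) :
    finrank k (limK p (U : Filter ℕ) W) = r := by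
  have hfV : FiniteDimensional ℚ_[p] (V.restrictScalars ℚ_[p]) := by
    have : FiniteDimensional ℚ_[p] V := FiniteDimensional.trans ℚ_[p] k V
    exact this
  have key : ∀ S : Submodule k K, finrank ℚ_[p] (S.restrictScalars ℚ_[p]) =
      finrank ℚ_[p] k * finrank k S := fun S => (finrank_mul_finrank ℚ_[p] k S).symm
  have h1 := finrank_limS U (V.restrictScalars ℚ_[p]) (finrank ℚ_[p] k * r)
    (fun n => (W n).restrictScalars ℚ_[p]) hV (by
      filter_upwards [hr] with n hn
      rw [key, hn])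
  have h2 : limS p (U : Filter ℕ) (fun n => (W n).restrictScalars ℚ_[p]) =
      (limK p (U : Filter ℕ) W).restrictScalars ℚ_[p] := rfl
  rw [h2, key] at h1
  exact Nat.eq_of_mul_eq_mul_left finrank_pos h1

end limK

section div

variable {p : ℕ} [Fact p.Prime] {k : Type*} [Field k] [Algebra ℚ_[p] k] [FiniteDimensional ℚ_[p] k]
  {K : Type*} [Field K] [Algebra k K] [Algebra (RatFunc k) K]
  [IsScalarTower k (RatFunc k) K] [FiniteDimensional (RatFunc k) K]
  [Algebra.IsSeparable (RatFunc k) K] [Algebra ℚ_[p] K] [IsScalarTower ℚ_[p] k K]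

/-- `E n → E'` along `U` (relative to `R`) -/
def Cv (p : ℕ) [Fact p.Prime] {k : Type*} [Field k] [Algebra ℚ_[p] k]
    {K : Type*} [Field K] [Algebra k K] [Algebra ℚ_[p] K] [IsScalarTower ℚ_[p] k K]
    (R : Pl k K →₀ ℤ) (U : Filter ℕ) (E : ℕ → Pl k K →₀ ℤ) (E' : Pl k K →₀ ℤ) : Prop :=
  limK p U (fun n => LD (2 • R - E n)) = LD (2 • R - E')

theorem infinite_k (p : ℕ) [Fact p.Prime] (k : Type*) [Field k] [Algebra ℚ_[p] k] : Infinite k :=
  Infinite.of_injective (algebraMap ℚ_[p] k) (algebraMap ℚ_[p] k).injective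

theorem ell_eq (hc : algebraicClosure k K = ⊥) {D : Pl k K →₀ ℤ} {d : ℤ} (hd : degD D = d)
    (h : 2 * (gen k K : ℤ) - 2 < d) : finrank k (LD D) = (d + 1 - gen k K).toNat := by
  have h1 := ell_eq_of_lt hc (D := D) (by rw [hd]; exact h)
  rw [hd] at h1
  unfold ell at h1
  omega

/-- **limits of effective divisors exist** -/
theorem exists_cv (U : Ultrafilter ℕ) (hc : algebraicClosure k K = ⊥) {R : Pl k K →₀ ℤ}
    (hR : 3 * (gen k K : ℤ) + 1 ≤ degD R) {E : ℕ → Pl k K →₀ ℤ}
    (hE : ∀ᶠ n in (U : Filter ℕ), 0 ≤ E n ∧ degD (E n) = degD R) :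
    ∃ E' : Pl k K →₀ ℤ, 0 ≤ E' ∧ degD E' = degD R ∧ Cv p R (U : Filter ℕ) E E' := by
  have := infinite_k p k
  have hg0 : (0 : ℤ) ≤ gen k K := Int.natCast_nonneg _
  have hd2 : degD (2 • R) = 2 * degD R := by rw [two_nsmul, degD_add]; ring
  have hd3 : degD (3 • R) = 3 * degD R := by
    rw [show (3 : ℕ) • R = 2 • R + R from by rw [succ_nsmul], degD_add, hd2]; ring
  have hd5 : degD (5 • R) = 5 * degD R := by
    rw [show (5 : ℕ) • R = 3 • R + 2 • R from by rw [← add_nsmul], degD_add, hd2, hd3]; ring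
  have hle : ∀ᶠ n in (U : Filter ℕ), LD (2 • R - E n) ≤ LD (2 • R) := by
    filter_upwards [hE] with n hn
    exact Crest.Agent.R013.RR12_948.LD_mono (sub_le_self _ hn.1)
  haveI := LD_finite (2 • R)
  haveI := LD_finite (5 • R)
  obtain ⟨E', h1, h2, h3⟩ := exists_eff hc hR (S := limK p (U : Filter ℕ)
    (fun n => LD (2 • R - E n))) (limK_le hle) (by
      rw [finrank_limK U (LD (2 • R)) (degD R + 1 - gen k K).toNat _ hle (by
        filter_upwards [hE] with n hn
        exact ell_eq hc (by rw [degD_sub, hd2, hn.2]; ring) (by omega))]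
      omega) (by
      intro s₁ hs₁ s₂ hs₂
      have hT : finrank k (limK p (U : Filter ℕ) (fun n => LD (5 • R - E n))) =
          (4 * degD R + 1 - gen k K).toNat := by
        refine finrank_limK U (LD (5 • R)) _ _ ?_ ?_
        · filter_upwards [hE] with n hn
          exact Crest.Agent.R013.RR12_948.LD_mono (sub_le_self _ hn.1)
        · filter_upwards [hE] with n hn
          exact ell_eq hc (by rw [degD_sub, hd5, hn.2]; ring) (by omega)
      have hTf : FiniteDimensional k (limK p (U : Filter ℕ) (fun n => LD (5 • R - E n))) := by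
        refine Submodule.finiteDimensional_of_le (S₂ := LD (5 • R)) (limK_le ?_)
        filter_upwards [hE] with n hn
        exact Crest.Agent.R013.RR12_948.LD_mono (sub_le_self _ hn.1)
      have hsub : ∀ s ∈ limK p (U : Filter ℕ) (fun n => LD (2 • R - E n)),
          (LD (3 • R)).map (mulL k s) ≤ limK p (U : Filter ℕ) (fun n => LD (5 • R - E n)) := by
        rintro s ⟨t, ht1, ht2⟩ _ ⟨f, hf, rfl⟩
        refine ⟨fun n => t n * f, fun n => ?_, ?_⟩
        · have h1 := mul_mem_LD (ht1 n) hf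
          rwa [show 2 • R - E n + 3 • R = 5 • R - E n from by
            rw [show (5 : ℕ) • R = 2 • R + 3 • R from by rw [← add_nsmul]]; abel] at h1
        · exact lim_mul ht2 (lim_const _ f)
      have h4 := Submodule.finrank_mono (sup_le (hsub s₁ hs₁) (hsub s₂ hs₂))
      rw [hT] at h4
      omega)
  exact ⟨E', h1, h2, h3⟩

theorem cv_const {U : Ultrafilter ℕ} (R E : Pl k K →₀ ℤ) :
    Cv p R (U : Filter ℕ) (fun _ => E) E := limK_const _

theorem mem_LD_neg_divf {x : K} (hx : x ≠ 0) : x ∈ LD (-divf (k := k) x) :=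
  (mem_LD_iff hx).mpr (by rw [neg_add_cancel])

/-- **limits respect linear relations** -/
theorem rel3 (U : Ultrafilter ℕ) (hc : algebraicClosure k K = ⊥) {R : Pl k K →₀ ℤ}
    (hR : 3 * (gen k K : ℤ) + 1 ≤ degD R) {E F G : ℕ → Pl k K →₀ ℤ} {E' F' G' A : Pl k K →₀ ℤ}
    (hE' : degD E' = degD R) (hF' : degD F' = degD R) (hG' : degD G' = degD R)
    (hA : degD A = 3 * degD R)
    (hE : Cv p R (U : Filter ℕ) E E') (hF : Cv p R (U : Filter ℕ) F F')
    (hG : Cv p R (U : Filter ℕ) G G') {h : ℕ → K} {x : K}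
    (hh : ∀ᶠ n in (U : Filter ℕ), h n ≠ 0 ∧ E n + F n + G n = A + divf (h n))
    (hx : Lim p (U : Filter ℕ) h x) (hx0 : x ≠ 0) : E' + F' + G' = A + divf x := by
  have hd2 : degD (2 • R) = 2 * degD R := by rw [two_nsmul, degD_add]; ring
  haveI hf6 := LD_finite (6 • R - A)
  have hfin6 : FiniteDimensional ℚ_[p] ((LD (6 • R - A)).restrictScalars ℚ_[p]) := by
    have : FiniteDimensional ℚ_[p] (LD (6 • R - A)) :=
      FiniteDimensional.trans ℚ_[p] k (LD (6 • R - A))
    exact this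
  have key : ∀ a ∈ LD (2 • R - E'), ∀ b ∈ LD (2 • R - F'), ∀ c ∈ LD (2 • R - G'),
      a * b * c ∈ LD (-divf x + (6 • R - A)) := by
    intro a ha b hb c hc'
    rw [← hE] at ha
    rw [← hF] at hb
    rw [← hG] at hc'
    obtain ⟨a', ha1, ha2⟩ := ha
    obtain ⟨b', hb1, hb2⟩ := hb
    obtain ⟨c', hc1, hc2⟩ := hc'
    have hprod : Lim p (U : Filter ℕ) (fun n => a' n * b' n * c' n) (a * b * c) :=
      lim_mul (lim_mul ha2 hb2) hc2
    obtain ⟨y, hy1, -, hy2⟩ := exists_div U ((LD (6 • R - A)).restrictScalars ℚ_[p]) hx hx0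
      (c := fun n => (h n)⁻¹ * (a' n * b' n * c' n)) (a := a * b * c) (by
        filter_upwards [hh] with n hn
        have h1 : (h n)⁻¹ ∈ LD (divf (k := k) (h n)) := by
          rw [mem_LD_iff (inv_ne_zero hn.1), divf_inv hn.1, add_neg_cancel]
        have h2 := mul_mem_LD h1 (mul_mem_LD (mul_mem_LD (ha1 n) (hb1 n)) (hc1 n))
        have h3 : divf (k := k) (h n) + (2 • R - E n + (2 • R - F n) + (2 • R - G n)) =
            6 • R - A := by
          have h4 : 2 • R - E n + (2 • R - F n) + (2 • R - G n) = 6 • R - (E n + F n + G n) := by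
            rw [show (6 : ℕ) • R = 2 • R + 2 • R + 2 • R from by rw [← add_nsmul, ← add_nsmul]]
            abel
          rw [h4, hn.2]
          abel
        rw [h3] at h2
        exact h2) (hprod.congr (by
        filter_upwards [hh] with n hn
        rw [← mul_assoc (h n), mul_inv_cancel₀ hn.1, one_mul]))
    rw [← hy2]
    exact mul_mem_LD (mem_LD_neg_divf hx0) hy1
  have h1 : ∀ a ∈ LD (2 • R - E'), ∀ b ∈ LD (2 • R - F'),
      a * b ∈ LD (-divf x + (6 • R - A) - (2 • R - G')) := fun a ha b hb =>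
    mem_LD_sub hc (by rw [degD_sub, hd2, hG']; omega) fun c hc' => key a ha b hb c hc'
  have h2 : ∀ a ∈ LD (2 • R - E'),
      a ∈ LD (-divf x + (6 • R - A) - (2 • R - G') - (2 • R - F')) := fun a ha =>
    mem_LD_sub hc (by rw [degD_sub, hd2, hF']; omega) fun b hb => h1 a ha b hb
  have h3 : (1 : K) ∈ LD (-divf x + (6 • R - A) - (2 • R - G') - (2 • R - F') - (2 • R - E')) :=
    mem_LD_sub hc (by rw [degD_sub, hd2, hE']; omega) fun a ha => by
      rw [one_mul]; exact h2 a ha
  have h4 : -divf (k := k) x + (6 • R - A) - (2 • R - G') - (2 • R - F') - (2 • R - E') =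
      E' + F' + G' - (A + divf x) := by
    rw [show (6 : ℕ) • R = 2 • R + 2 • R + 2 • R from by rw [← add_nsmul, ← add_nsmul]]
    abel
  rw [h4, mem_LD_iff one_ne_zero, divf_one, add_zero] at h3
  have h5 := eq_zero_of_nonneg h3 (by
    rw [degD_sub, degD_add, degD_add, degD_add, degD_divf hx0, hE', hF', hG', hA]; ring)
  exact sub_eq_zero.mp h5

end div

end Crest.Agent.R013.Beta2_116
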