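import Mathlib
import Crest.Agent.R013.Beta2_116

/-!
# R013 / Beta3 (helper116): residues modulo `p ^ j` of subspaces of a lattice
-/

set_option autoImplicit false
set_option linter.all false

namespace Crest.Agent.R013.Beta3_116

open Filter Topology Module
open Crest.Agent.R013.Beta1_116

variable {p : ℕ} [Fact p.Prime] {K : Type*} [AddCommGroup K] [Module ℚ_[p] K]

/-- the residues modulo `p ^ j` of the integral elements of `S` -/
def kapS {s : ℕ} (l : Fin s → K →ₗ[ℚ_[p]] ℚ_[p]) (j : ℕ) (S : Set K) :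
    Set (Fin s → ZMod (p ^ j)) :=
  {t | ∃ x ∈ S, ∃ hx : ∀ i, ‖l i x‖ ≤ 1, ∀ i, t i = PadicInt.toZModPow j ⟨l i x, hx i⟩}

theorem toZModPow_eq_iff (j : ℕ) (a b : ℤ_[p]) :
    PadicInt.toZModPow j a = PadicInt.toZModPow j b ↔ ‖(a : ℚ_[p]) - b‖ ≤ (p : ℝ) ^ (-(j : ℤ)) := by
  rw [← sub_eq_zero, ← map_sub, ← RingHom.mem_ker, PadicInt.ker_toZModPow,
    ← PadicInt.norm_le_pow_iff_mem_span_pow]
  rw [PadicInt.norm_def, PadicInt.coe_sub]

variable {s : ℕ} {b : Fin s → K} {l : Fin s → K →ₗ[ℚ_[p]] ℚ_[p]} {V : Submodule ℚ_[p] K}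

theorem finite_of_sum (hsum : ∀ v ∈ V, v = ∑ i, l i v • b i) : FiniteDimensional ℚ_[p] V := by
  have h : V ≤ Submodule.span ℚ_[p] (Set.range b) := fun v hv => by
    rw [hsum v hv]
    exact Submodule.sum_mem _ fun i _ => Submodule.smul_mem _ _ (Submodule.subset_span ⟨i, rfl⟩)
  have : FiniteDimensional ℚ_[p] (Submodule.span ℚ_[p] (Set.range b)) :=
    FiniteDimensional.span_of_finite ℚ_[p] (Set.finite_range b)
  exact Submodule.finiteDimensional_of_le h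

/-- (E1) equal residues modulo `p ^ n` for all `n`: the limits agree -/
theorem limS_le_of_kap (U : Ultrafilter ℕ) (hU : (U : Filter ℕ) ≤ atTop)
    (hsum : ∀ v ∈ V, v = ∑ i, l i v • b i)
    {W W' : ℕ → Submodule ℚ_[p] K} (hW : ∀ᶠ n in (U : Filter ℕ), W n ≤ V)
    (hW' : ∀ᶠ n in (U : Filter ℕ), W' n ≤ V)
    (h : ∀ᶠ n in (U : Filter ℕ), kapS l n (W n : Set K) ⊆ kapS l n (W' n)) :
    limS p (U : Filter ℕ) W ≤ limS p (U : Filter ℕ) W' := by
  classical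
  rintro x ⟨g, hg, hlim⟩
  have hxV : x ∈ V := hlim.mem (hW.mono fun n hn => hn (hg n))
  -- scaling
  obtain ⟨c, hc0, hc⟩ : ∃ c : ℚ_[p], c ≠ 0 ∧ ∀ i, ‖l i (c • x)‖ < 1 := by
    obtain ⟨M, hM⟩ : ∃ M : ℝ, ∀ i, ‖l i x‖ ≤ M := by
      obtain ⟨M, hM⟩ := (Set.finite_range fun i => ‖l i x‖).bddAbove
      exact ⟨M, fun i => hM ⟨i, rfl⟩⟩
    obtain ⟨t, ht⟩ := exists_pow_lt_of_lt_one (show (0 : ℝ) < 1 / (|M| + 1) by positivity)
      (show ‖(p : ℚ_[p])‖ < 1 from Padic.norm_p_lt_one)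
    refine ⟨(p : ℚ_[p]) ^ t, pow_ne_zero _ (by exact_mod_cast (Fact.out : p.Prime).ne_zero),
      fun i => ?_⟩
    rw [map_smul, smul_eq_mul, norm_mul, norm_pow]
    calc ‖(p : ℚ_[p])‖ ^ t * ‖l i x‖ ≤ ‖(p : ℚ_[p])‖ ^ t * |M| := by
          gcongr
          exact (hM i).trans (le_abs_self M)
      _ ≤ 1 / (|M| + 1) * |M| := by gcongr
      _ < 1 := by
          rw [one_div, inv_mul_lt_iff₀ (by positivity), mul_one]
          linarith
  have hcl : Lim p (U : Filter ℕ) (fun n => c • g n) (c • x) :=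
    hlim.smul tendsto_const_nhds
  have hint : ∀ᶠ n in (U : Filter ℕ), ∀ i, ‖l i (c • g n)‖ ≤ 1 := by
    rw [eventually_all]
    intro i
    have h1 := (hcl.2 (l i)).norm
    exact (h1.eventually (gt_mem_nhds (hc i))).mono fun n hn => hn.le
  -- the other sequence
  have hex : ∀ᶠ n in (U : Filter ℕ), ∃ y ∈ W' n, ∀ i, ‖l i (c • g n) - l i y‖ ≤ (p : ℝ) ^ (-(n : ℤ)) := by
    filter_upwards [hint, h] with n h1 h2
    obtain ⟨y, hy, hy1, hy2⟩ := h2 (⟨c • g n, (W n).smul_mem c (hg n), h1, fun i => rfl⟩ :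
      (fun i => PadicInt.toZModPow n ⟨l i (c • g n), h1 i⟩) ∈ kapS l n (W n : Set K))
    exact ⟨y, hy, fun i => (toZModPow_eq_iff n ⟨l i (c • g n), h1 i⟩ ⟨l i y, hy1 i⟩).mp (hy2 i)⟩
  let y : ℕ → K := fun n => if hn : ∃ y ∈ W' n, ∀ i, ‖l i (c • g n) - l i y‖ ≤ (p : ℝ) ^ (-(n : ℤ))
    then hn.choose else 0
  have hy : ∀ᶠ n in (U : Filter ℕ), y n ∈ W' n ∧
      ∀ i, ‖l i (c • g n) - l i (y n)‖ ≤ (p : ℝ) ^ (-(n : ℤ)) := by
    filter_upwards [hex] with n hn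
    simp only [y, dif_pos hn]
    exact hn.choose_spec
  have hp1 : Tendsto (fun n : ℕ => (p : ℝ) ^ (-(n : ℤ))) (U : Filter ℕ) (𝓝 0) := by
    have h1 : Tendsto (fun n : ℕ => ((p : ℝ)⁻¹) ^ n) atTop (𝓝 0) :=
      tendsto_pow_atTop_nhds_zero_of_lt_one (by positivity)
        (inv_lt_one_of_one_lt₀ (by exact_mod_cast (Fact.out : p.Prime).one_lt))
    refine (h1.mono_left hU).congr fun n => ?_
    rw [zpow_neg, zpow_natCast, inv_pow]
  have hylim : ∀ i, Tendsto (fun n => l i (y n)) (U : Filter ℕ) (𝓝 (l i (c • x))) := by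
    intro i
    have h1 : Tendsto (fun n => l i (c • g n) - l i (y n)) (U : Filter ℕ) (𝓝 0) := by
      refine squeeze_zero_norm' ?_ hp1
      filter_upwards [hy] with n hn
      exact hn.2 i
    have h2 := (hcl.2 (l i)).sub h1
    rw [sub_zero] at h2
    refine h2.congr fun n => ?_
    ring
  have hyL : Lim p (U : Filter ℕ) y (c • x) := by
    rw [hsum (c • x) (V.smul_mem c hxV)]
    refine (lim_of_coord Finset.univ b (fun i _ => hylim i)).congr ?_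
    filter_upwards [hy, hW'] with n h1 h2
    exact (hsum _ (h2 h1.1)).symm
  have h3 : c • x ∈ limS p (U : Filter ℕ) W' :=
    mem_limS_of_eventually (hy.mono fun n hn => hn.1) hyL
  have h4 := (limS p (U : Filter ℕ) W').smul_mem c⁻¹ h3
  rwa [smul_smul, inv_mul_cancel₀ hc0, one_smul] at h4

/-- (E2) if the limits agree, the residues modulo `p ^ j` agree eventually -/
theorem kap_subset_of_limS (U : Ultrafilter ℕ)
    (hsum : ∀ v ∈ V, v = ∑ i, l i v • b i)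
    {W W' : ℕ → Submodule ℚ_[p] K} (hW : ∀ᶠ n in (U : Filter ℕ), W n ≤ V)
    (h : limS p (U : Filter ℕ) W ≤ limS p (U : Filter ℕ) W') (j : ℕ) :
    ∀ᶠ n in (U : Filter ℕ), kapS l j (W n : Set K) ⊆ kapS l j (W' n) := by
  classical
  by_contra hcon
  have h1 : ∀ᶠ n in (U : Filter ℕ), ¬ kapS l j (W n : Set K) ⊆ kapS l j (W' n) :=
    Ultrafilter.eventually_not.mpr hcon
  have h2 : ∀ᶠ n in (U : Filter ℕ), ∃ x ∈ W n, ∃ hx : ∀ i, ‖l i x‖ ≤ 1,
      (fun i => PadicInt.toZModPow j ⟨l i x, hx i⟩) ∉ kapS l j (W' n : Set K) := by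
    filter_upwards [h1] with n hn
    rw [Set.not_subset] at hn
    obtain ⟨t, ⟨x, hx, hx1, hx2⟩, ht⟩ := hn
    refine ⟨x, hx, hx1, ?_⟩
    rwa [← funext hx2]
  let x : ℕ → K := fun n => if hn : ∃ x ∈ W n, ∃ hx : ∀ i, ‖l i x‖ ≤ 1,
      (fun i => PadicInt.toZModPow j ⟨l i x, hx i⟩) ∉ kapS l j (W' n : Set K) then hn.choose else 0
  have hx : ∀ᶠ n in (U : Filter ℕ), x n ∈ W n ∧ ∃ hx : ∀ i, ‖l i (x n)‖ ≤ 1,
      (fun i => PadicInt.toZModPow j ⟨l i (x n), hx i⟩) ∉ kapS l j (W' n : Set K) := by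
    filter_upwards [h2] with n hn
    simp only [x, dif_pos hn]
    exact hn.choose_spec
  choose c hc1 hc2 using fun i => exists_tendsto U (c := fun n => l i (x n))
    (hx.mono fun n hn => hn.2.choose i)
  have hxL : Lim p (U : Filter ℕ) x (∑ i, c i • b i) := by
    refine (lim_of_coord Finset.univ b (fun i _ => hc2 i)).congr ?_
    filter_upwards [hx, hW] with n h1 h2
    exact (hsum _ (h2 h1.1)).symm
  obtain ⟨y, hy, hyL⟩ := h (mem_limS_of_eventually (hx.mono fun n hn => hn.1) hxL)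
  have hpp : (0 : ℝ) < (p : ℝ) ^ (-(j : ℤ)) := by
    have : (0 : ℝ) < p := by exact_mod_cast (Fact.out : p.Prime).pos
    positivity
  have hp1 : (p : ℝ) ^ (-(j : ℤ)) ≤ 1 := by
    rw [zpow_neg, zpow_natCast]
    exact inv_le_one_of_one_le₀ (one_le_pow₀ (by exact_mod_cast (Fact.out : p.Prime).one_lt.le))
  have hclose : ∀ᶠ n in (U : Filter ℕ), ∀ i, ‖l i (x n) - l i (y n)‖ ≤ (p : ℝ) ^ (-(j : ℤ)) := by
    rw [eventually_all]
    intro i
    have h3 := ((hxL.2 (l i)).sub (hyL.2 (l i))).norm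
    rw [sub_self, norm_zero] at h3
    exact (h3.eventually (gt_mem_nhds hpp)).mono fun n hn => hn.le
  obtain ⟨n, ⟨hn1, hn2, hn3⟩, hn4⟩ := (hx.and hclose).exists
  have hyint : ∀ i, ‖l i (y n)‖ ≤ 1 := by
    intro i
    have h5 : l i (y n) = l i (x n) - (l i (x n) - l i (y n)) := by ring
    rw [h5, sub_eq_add_neg]
    refine (Padic.nonarchimedean _ _).trans (max_le (hn2 i) ?_)
    rw [norm_neg]
    exact (hn4 i).trans hp1
  exact hn3 ⟨y n, hy n, hyint, fun i =>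
    (toZModPow_eq_iff j ⟨l i (x n), hn2 i⟩ ⟨l i (y n), hyint i⟩).mpr (hn4 i)⟩

end Crest.Agent.R013.Beta3_116
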