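import Mathlib
import Crest.Agent.R013.Beta3_116

/-!
# R013 / Beta4 (helper116): (beta) = no infinitely divisible class in `Pic0(K/k)`, `k/ℚ_p` finite
-/

set_option autoImplicit false
set_option linter.all false

namespace Crest.Agent.R013.Beta4_116

open Filter Topology Module
open Crest.Agent.R013.RR7_948 Crest.Agent.R013.RR8_948 Crest.Agent.R013.RR9_948
open Crest.Agent.R013.RR11_948 Crest.Agent.R013.PicD_398 Crest.Agent.R013.NidA_429
open Crest.Agent.R013.Beta1_116 Crest.Agent.R013.Beta2_116 Crest.Agent.R013.Beta3_116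

variable {p : ℕ} [Fact p.Prime] {k : Type*} [Field k] [Algebra ℚ_[p] k] [FiniteDimensional ℚ_[p] k]
  {K : Type*} [Field K] [Algebra k K] [Algebra (RatFunc k) K]
  [IsScalarTower k (RatFunc k) K] [FiniteDimensional (RatFunc k) K]
  [Algebra.IsSeparable (RatFunc k) K] [Algebra ℚ_[p] K] [IsScalarTower ℚ_[p] k K]

/-- effective of the degree of `R` -/
def Eff (R E : Pl k K →₀ ℤ) : Prop := 0 ≤ E ∧ degD E = degD R

theorem deg2 (R : Pl k K →₀ ℤ) : degD (2 • R) = 2 * degD R := by rw [two_nsmul, degD_add]; ring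

theorem deg3 (R : Pl k K →₀ ℤ) : degD (3 • R) = 3 * degD R := by
  rw [show (3 : ℕ) • R = 2 • R + R from by rw [succ_nsmul], degD_add, deg2]; ring

theorem fin_rs (D : Pl k K →₀ ℤ) : FiniteDimensional ℚ_[p] ((LD D).restrictScalars ℚ_[p]) := by
  haveI := LD_finite D
  have : FiniteDimensional ℚ_[p] (LD D) := FiniteDimensional.trans ℚ_[p] k (LD D)
  exact this

/-- a convergent sequence of sections of `3R - G n - F n` -/
theorem step (U : Ultrafilter ℕ) (hc : algebraicClosure k K = ⊥) {R : Pl k K →₀ ℤ}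
    (hR : 3 * (gen k K : ℤ) + 1 ≤ degD R) {G F : ℕ → Pl k K →₀ ℤ} {G' F' : Pl k K →₀ ℤ}
    (hG : ∀ n, Eff R (G n)) (hF : ∀ n, Eff R (F n)) (hG' : Eff R G') (hF' : Eff R F')
    (cG : Cv p R (U : Filter ℕ) G G') (cF : Cv p R (U : Filter ℕ) F F') {y : ℕ → K} {x : K}
    (hy : ∀ n, y n ∈ LD (3 • R - G n - F n)) (hlim : Lim p (U : Filter ℕ) y x) (hx : x ≠ 0) :
    ∃ (H : ℕ → Pl k K →₀ ℤ) (H' : Pl k K →₀ ℤ), (∀ n, Eff R (H n)) ∧ Eff R H' ∧
      Cv p R (U : Filter ℕ) H H' ∧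
      (∀ᶠ n in (U : Filter ℕ), y n ≠ 0 ∧ H n + F n + G n = 3 • R + divf (y n)) ∧
      H' + F' + G' = 3 • R + divf x := by
  classical
  let H : ℕ → Pl k K →₀ ℤ := fun n => if y n = 0 then G n else 3 • R - G n - F n + divf (y n)
  have hH : ∀ n, Eff R (H n) := by
    intro n
    by_cases h0 : y n = 0
    · simp only [H, if_pos h0]
      exact hG n
    · simp only [H, if_neg h0]
      refine ⟨(mem_LD_iff h0).mp (hy n), ?_⟩
      rw [degD_add, degD_sub, degD_sub, degD_divf h0, deg3, (hG n).2, (hF n).2]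
      ring
  obtain ⟨H', h1, h2, h3⟩ := exists_cv (p := p) U hc hR (E := H) (Eventually.of_forall hH)
  have hrel : ∀ᶠ n in (U : Filter ℕ), y n ≠ 0 ∧ H n + F n + G n = 3 • R + divf (y n) := by
    filter_upwards [hlim.eventually_ne hx] with n hn
    refine ⟨hn, ?_⟩
    simp only [H, if_neg hn]
    abel
  exact ⟨H, H', hH, ⟨h1, h2⟩, h3, hrel, rel3 U hc hR h2 hF'.2 hG'.2 (deg3 R) h3 cF cG hrel hlim hx⟩

theorem exists_mem (hc : algebraicClosure k K = ⊥) {D : Pl k K →₀ ℤ}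
    (h : (gen k K : ℤ) ≤ degD D) : ∃ f ∈ LD D, f ≠ 0 := by
  have h1 := ell_pos_of hc h
  haveI := LD_finite D
  have h2 : LD D ≠ ⊥ := by
    intro h0
    unfold ell at h1
    rw [h0] at h1
    simp at h1
  exact Submodule.exists_mem_ne_zero_of_ne_bot h2

/-- residues of `LD (2R - E)` -/
def kD {s : ℕ} (l : Fin s → K →ₗ[ℚ_[p]] ℚ_[p]) (R : Pl k K →₀ ℤ) (j : ℕ) (E : Pl k K →₀ ℤ) :
    Set (Fin s → ZMod (p ^ j)) := kapS l j (LD (2 • R - E) : Set K)

section

variable {s : ℕ} {b : Fin s → K} {l : Fin s → K →ₗ[ℚ_[p]] ℚ_[p]} {R : Pl k K →₀ ℤ}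

theorem le_two {E : Pl k K →₀ ℤ} (hE : Eff R E) :
    (LD (2 • R - E)).restrictScalars ℚ_[p] ≤ (LD (2 • R)).restrictScalars ℚ_[p] :=
  fun x hx => Crest.Agent.R013.RR12_948.LD_mono (sub_le_self _ hE.1) hx

/-- equal residues: same limits -/
theorem cv_of_kD (U : Ultrafilter ℕ) (hU : (U : Filter ℕ) ≤ atTop)
    (hsum : ∀ v ∈ LD (2 • R), v = ∑ i, l i v • b i) {F F' : ℕ → Pl k K →₀ ℤ} {A : Pl k K →₀ ℤ}
    (hF : ∀ n, Eff R (F n)) (hF' : ∀ n, Eff R (F' n))
    (h : ∀ n, kD l R n (F n) = kD l R n (F' n)) (cF : Cv p R (U : Filter ℕ) F A) :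
    Cv p R (U : Filter ℕ) F' A := by
  have i1 : ∀ n, kapS l n (((LD (2 • R - F n)).restrictScalars ℚ_[p] : Submodule ℚ_[p] K) : Set K) ⊆
      kapS l n (((LD (2 • R - F' n)).restrictScalars ℚ_[p] : Submodule ℚ_[p] K) : Set K) :=
    fun n => (h n).le
  have i2 : ∀ n, kapS l n (((LD (2 • R - F' n)).restrictScalars ℚ_[p] : Submodule ℚ_[p] K) : Set K) ⊆
      kapS l n (((LD (2 • R - F n)).restrictScalars ℚ_[p] : Submodule ℚ_[p] K) : Set K) :=
    fun n => (h n).ge
  have h1 := limS_le_of_kap (l := l) (b := b) (V := (LD (2 • R)).restrictScalars ℚ_[p]) U hU hsum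
    (W := fun n => (LD (2 • R - F n)).restrictScalars ℚ_[p])
    (W' := fun n => (LD (2 • R - F' n)).restrictScalars ℚ_[p])
    (Eventually.of_forall fun n => le_two (hF n)) (Eventually.of_forall fun n => le_two (hF' n))
    (Eventually.of_forall i1)
  have h2 := limS_le_of_kap (l := l) (b := b) (V := (LD (2 • R)).restrictScalars ℚ_[p]) U hU hsum
    (W := fun n => (LD (2 • R - F' n)).restrictScalars ℚ_[p])
    (W' := fun n => (LD (2 • R - F n)).restrictScalars ℚ_[p])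
    (Eventually.of_forall fun n => le_two (hF' n)) (Eventually.of_forall fun n => le_two (hF n))
    (Eventually.of_forall i2)
  unfold Cv at *
  rw [← cF]
  exact le_antisymm h2 h1

/-- same limits: equal residues eventually -/
theorem kD_of_cv (U : Ultrafilter ℕ)
    (hsum : ∀ v ∈ LD (2 • R), v = ∑ i, l i v • b i) {F F' : ℕ → Pl k K →₀ ℤ} {A : Pl k K →₀ ℤ}
    (hF : ∀ n, Eff R (F n)) (hF' : ∀ n, Eff R (F' n))
    (cF : Cv p R (U : Filter ℕ) F A) (cF' : Cv p R (U : Filter ℕ) F' A) (j : ℕ) :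
    ∀ᶠ n in (U : Filter ℕ), kD l R j (F n) = kD l R j (F' n) := by
  have h0 : limK p (U : Filter ℕ) (fun n => LD (2 • R - F n)) =
      limK p (U : Filter ℕ) (fun n => LD (2 • R - F' n)) := by
    unfold Cv at cF cF'
    rw [cF, cF']
  have i1 : limS p (U : Filter ℕ) (fun n => (LD (2 • R - F n)).restrictScalars ℚ_[p]) ≤
      limS p (U : Filter ℕ) (fun n => (LD (2 • R - F' n)).restrictScalars ℚ_[p]) :=
    fun x hx => h0.le hx
  have i2 : limS p (U : Filter ℕ) (fun n => (LD (2 • R - F' n)).restrictScalars ℚ_[p]) ≤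
      limS p (U : Filter ℕ) (fun n => (LD (2 • R - F n)).restrictScalars ℚ_[p]) :=
    fun x hx => h0.ge hx
  have h1 := kap_subset_of_limS (l := l) (b := b) (V := (LD (2 • R)).restrictScalars ℚ_[p]) U hsum
    (Eventually.of_forall fun n => le_two (hF n)) i1 j
  have h2 := kap_subset_of_limS (l := l) (b := b) (V := (LD (2 • R)).restrictScalars ℚ_[p]) U hsum
    (Eventually.of_forall fun n => le_two (hF' n)) i2 j
  filter_upwards [h1, h2] with n h3 h4
  have h5 : kD l R j (F n) ⊆ kD l R j (F' n) := h3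
  have h6 : kD l R j (F' n) ⊆ kD l R j (F n) := h4
  exact Set.Subset.antisymm h5 h6

/-- **lifting lemma** -/
theorem lift (hc : algebraicClosure k K = ⊥) (hR : 3 * (gen k K : ℤ) + 1 ≤ degD R)
    (hsum : ∀ v ∈ LD (2 • R), v = ∑ i, l i v • b i) (i : ℕ) :
    ∃ j : ℕ, ∀ E F F' : Pl k K →₀ ℤ, Eff R E → Eff R F → Eff R F' →
      kD l R j F = kD l R j F' → ∃ E' : Pl k K →₀ ℤ, Eff R E' ∧
        cls E' = cls E + cls F - cls F' ∧ kD l R i E' = kD l R i E := by
  classical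
  by_contra hcon
  push Not at hcon
  choose E F F' hE hF hF' hk hno using hcon
  have hg0 : (0 : ℤ) ≤ gen k K := Int.natCast_nonneg _
  let U : Ultrafilter ℕ := hyperfilter ℕ
  have hU : (U : Filter ℕ) ≤ atTop := Nat.hyperfilter_le_atTop
  obtain ⟨E₁, e1, e2, cE⟩ := exists_cv (p := p) U hc hR (E := E) (Eventually.of_forall hE)
  obtain ⟨F₁, f1, f2, cF⟩ := exists_cv (p := p) U hc hR (E := F) (Eventually.of_forall hF)
  have cF' : Cv p R (U : Filter ℕ) F' F₁ := cv_of_kD U hU hsum hF hF' hk cF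
  -- the functions `h n`
  have hex : ∀ n, ∃ h ∈ LD (3 • R - E n - F n), h ≠ 0 := fun n =>
    exists_mem hc (by rw [degD_sub, degD_sub, deg3, (hE n).2, (hF n).2]; omega)
  choose h hm hne using hex
  haveI := fin_rs (p := p) (3 • R)
  have hle3 : ∀ n, LD (3 • R - E n - F n) ≤ LD (3 • R) := fun n =>
    Crest.Agent.R013.RR12_948.LD_mono (by
      rw [sub_sub]
      exact sub_le_self _ (add_nonneg (hE n).1 (hF n).1))
  obtain ⟨a, ha, x, hx, hlim⟩ := exists_normalise U ((LD (3 • R)).restrictScalars ℚ_[p]) (h := h)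
    (Eventually.of_forall fun n => hle3 n (hm n)) (Eventually.of_forall hne)
  have hm' : ∀ n, a n • h n ∈ LD (3 • R - E n - F n) := fun n =>
    ((LD (3 • R - E n - F n)).restrictScalars ℚ_[p]).smul_mem (a n) (hm n)
  obtain ⟨G, G₁, hG, hG₁, cG, hrel, hrel1⟩ := step U hc hR hE hF ⟨e1, e2⟩ ⟨f1, f2⟩ cE cF hm' hlim hx
  -- the limit of `LD (3R - G n - F' n)`
  have hW : limK p (U : Filter ℕ) (fun n => LD (3 • R - G n - F' n)) = LD (3 • R - G₁ - F₁) := by
    haveI := LD_finite (3 • R)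
    haveI := LD_finite (3 • R - G₁ - F₁)
    refine Submodule.eq_of_le_of_finrank_eq ?_ ?_
    · rintro y ⟨z, hz1, hz2⟩
      by_cases hy : y = 0
      · rw [hy]; exact Submodule.zero_mem _
      · obtain ⟨H, H₁, hH, hH₁, cH, _, h3⟩ := step U hc hR hG hF' hG₁ ⟨f1, f2⟩ cG cF' hz1 hz2 hy
        rw [mem_LD_iff hy]
        have h4 : 3 • R - G₁ - F₁ + divf (k := k) y = H₁ := by
          have h5 : H₁ = 3 • R + divf (k := k) y - G₁ - F₁ := by rw [← h3]; abel
          rw [h5]; abel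
        rw [h4]
        exact hH₁.1
    · rw [finrank_limK U (LD (3 • R)) (degD R + 1 - gen k K).toNat _
        (Eventually.of_forall fun n => Crest.Agent.R013.RR12_948.LD_mono (by
          rw [sub_sub]
          exact sub_le_self _ (add_nonneg (hG n).1 (hF' n).1)))
        (Eventually.of_forall fun n => ell_eq hc (by
          rw [degD_sub, degD_sub, deg3, (hG n).2, (hF' n).2]; ring) (by omega))]
      exact (ell_eq hc (by rw [degD_sub, degD_sub, deg3, hG₁.2, f2]; ring) (by omega)).symm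
  have hxm : x ∈ LD (3 • R - G₁ - F₁) := by
    rw [mem_LD_iff hx]
    have h4 : 3 • R - G₁ - F₁ + divf (k := k) x = E₁ := by
      have h5 : E₁ = 3 • R + divf (k := k) x - G₁ - F₁ := by rw [← hrel1]; abel
      rw [h5]; abel
    rw [h4]
    exact e1
  rw [← hW] at hxm
  obtain ⟨z, hz1, hz2⟩ := hxm
  obtain ⟨H, H₁, hH, hH₁, cH, hrel', hrel1'⟩ := step U hc hR hG hF' hG₁ ⟨f1, f2⟩ cG cF' hz1 hz2 hx
  have hHE : H₁ = E₁ := by
    have h5 : H₁ = 3 • R + divf (k := k) x - G₁ - F₁ := by rw [← hrel1']; abel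
    have h6 : E₁ = 3 • R + divf (k := k) x - G₁ - F₁ := by rw [← hrel1]; abel
    rw [h5, h6]
  rw [hHE] at cH
  have hfin := kD_of_cv U hsum hH hE cH cE i
  obtain ⟨n, ⟨hn1, hn2⟩, ⟨hn3, hn4⟩, hn5⟩ := (hrel.and (hrel'.and hfin)).exists
  refine hno n (H n) (hH n) ?_ hn5
  have c1 := congrArg (cls (k := k) (K := K)) hn2
  have c2 := congrArg (cls (k := k) (K := K)) hn4
  rw [map_add, map_add, map_add, cls_divf hn1, add_zero] at c1
  rw [map_add, map_add, map_add, cls_divf hn3, add_zero] at c2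
  rw [← c1] at c2
  have h7 : cls (H n) = cls (G n) + cls (F n) + cls (E n) - cls (G n) - cls (F' n) := by
    rw [← c2]; abel
  rw [h7]; abel

/-- chain of steps -/
theorem chain (hc : algebraicClosure k K = ⊥) {i j : ℕ}
    (hl : ∀ E F F' : Pl k K →₀ ℤ, Eff R E → Eff R F → Eff R F' →
      kD l R j F = kD l R j F' → ∃ E' : Pl k K →₀ ℤ, Eff R E' ∧
        cls E' = cls E + cls F - cls F' ∧ kD l R i E' = kD l R i E)
    {F F' : Pl k K →₀ ℤ} (hF : Eff R F) (hF' : Eff R F') (hk : kD l R j F = kD l R j F')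
    {E : Pl k K →₀ ℤ} (hE : Eff R E) (q : ℕ) :
    ∃ E' : Pl k K →₀ ℤ, Eff R E' ∧ cls E' = cls E + q • (cls F - cls F') ∧
      kD l R i E' = kD l R i E := by
  induction q with
  | zero => exact ⟨E, hE, by rw [zero_nsmul, add_zero], rfl⟩
  | succ q ih =>
    obtain ⟨E₁, h1, h2, h3⟩ := ih
    obtain ⟨E₂, h4, h5, h6⟩ := hl E₁ F F' h1 hF hF' hk
    refine ⟨E₂, h4, ?_, h6.trans h3⟩
    rw [h5, h2, succ_nsmul]
    abel

/-- pigeonhole + chain: an infinitely divisible class is small -/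
theorem exists_small (hc : algebraicClosure k K = ⊥) (hR : 3 * (gen k K : ℤ) + 1 ≤ degD R)
    (hR0 : 0 ≤ R) (hsum : ∀ v ∈ LD (2 • R), v = ∑ i, l i v • b i) {D : Pl k K →₀ ℤ}
    (hD0 : degD D = 0)
    (hD : ∀ n : ℕ, 0 < n → ∃ D' : Pl k K →₀ ℤ, cls D = n • cls D') (i : ℕ) :
    ∃ E : Pl k K →₀ ℤ, Eff R E ∧ cls E = cls R + cls D ∧ kD l R i E = kD l R i R := by
  classical
  obtain ⟨j, hj⟩ := lift hc hR hsum i
  have hpp : NeZero (p ^ j) := ⟨pow_ne_zero _ (Fact.out : p.Prime).ne_zero⟩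
  have : Fintype (ZMod (p ^ j)) := ZMod.fintype _
  have hfin : Finite (Set (Fin s → ZMod (p ^ j))) := inferInstance
  have := Fintype.ofFinite (Set (Fin s → ZMod (p ^ j)))
  let T := Fintype.card (Set (Fin s → ZMod (p ^ j)))
  obtain ⟨D', hD'⟩ := hD T.factorial (Nat.factorial_pos _)
  have hdeg' : degD D' = 0 := by
    have h1 := congrArg (degPic (k := k) (K := K)) hD'
    rw [map_nsmul, degPic_cls, degPic_cls, hD0] at h1
    have h2 : (T.factorial : ℤ) ≠ 0 := by exact_mod_cast (Nat.factorial_pos T).ne'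
    rw [nsmul_eq_mul] at h1
    rcases mul_eq_zero.mp h1.symm with h3 | h3
    · exact absurd h3 h2
    · exact h3
  -- effective divisors in the classes `R + t D'`
  have hex : ∀ t : ℕ, ∃ F : Pl k K →₀ ℤ, Eff R F ∧ cls F = cls R + t • cls D' := by
    intro t
    have hd : degD (R + t • D') = degD R := by
      have h1 : degHom (k := k) (K := K) (R + t • D') = degHom R + t • degHom D' := by
        rw [map_add, map_nsmul]
      have h2 : degHom (k := k) (K := K) D' = 0 := hdeg'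
      rw [h2, smul_zero, add_zero] at h1
      exact h1
    obtain ⟨f, hf, h1⟩ := ell_pos_iff.mp (ell_pos_of hc (D := R + t • D') (by rw [hd]; omega))
    refine ⟨_, ⟨h1, by rw [degD_add, degD_divf hf, add_zero, hd]⟩, ?_⟩
    rw [map_add, cls_divf hf, add_zero, map_add, map_nsmul]
  choose F hF hFc using hex
  -- pigeonhole
  obtain ⟨t, t', htt, hkk⟩ : ∃ t t' : Fin (T + 1), t < t' ∧ kD l R j (F t) = kD l R j (F t') := by
    obtain ⟨t, t', hne, h⟩ := Fintype.exists_ne_map_eq_of_card_lt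
      (fun t : Fin (T + 1) => kD l R j (F t)) (by simp [T])
    rcases lt_or_gt_of_ne hne with h1 | h1
    · exact ⟨t, t', h1, h⟩
    · exact ⟨t', t, h1, h.symm⟩
  have hm : 0 < (t' : ℕ) - t := Nat.sub_pos_of_lt htt
  have hmT : (t' : ℕ) - t ≤ T := by have := t'.2; omega
  obtain ⟨q, hq⟩ := Nat.dvd_factorial hm hmT
  obtain ⟨E, h1, h2, h3⟩ := chain hc hj (hF t') (hF t) hkk.symm (E := R) ⟨hR0, rfl⟩ q
  refine ⟨E, h1, ?_, h3⟩
  rw [h2, hFc, hFc, hD', hq]
  have h4 : (t' : ℕ) • cls D' = ((t' : ℕ) - t) • cls D' + (t : ℕ) • cls (k := k) (K := K) D' := by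
    rw [← add_nsmul, Nat.sub_add_cancel (Nat.le_of_lt htt)]
  rw [h4, mul_comm, mul_nsmul']
  congr 2
  abel

end

end Crest.Agent.R013.Beta4_116

namespace Crest.Agent.R013.Beta_116

open Filter Topology Module
open Crest.Agent.R013.RR7_948 Crest.Agent.R013.RR8_948 Crest.Agent.R013.RR9_948
open Crest.Agent.R013.RR11_948 Crest.Agent.R013.PicD_398 Crest.Agent.R013.NidA_429
open Crest.Agent.R013.Beta1_116 Crest.Agent.R013.Beta2_116 Crest.Agent.R013.Beta3_116
open Crest.Agent.R013.Beta4_116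

/-- **(beta)** `k/ℚ_p` finite, `k` algebraically closed in the function field `K`: a divisor whose
class is divisible by every `n > 0` in `Pic K` is principal -/
theorem beta (p : ℕ) [Fact p.Prime] {k : Type*} [Field k] [Algebra ℚ_[p] k]
    [FiniteDimensional ℚ_[p] k] {K : Type*} [Field K] [Algebra k K] [Algebra (RatFunc k) K]
    [IsScalarTower k (RatFunc k) K] [FiniteDimensional (RatFunc k) K]
    [Algebra.IsSeparable (RatFunc k) K] (hc : algebraicClosure k K = ⊥) (D : Pl k K →₀ ℤ)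
    (hD : ∀ n : ℕ, 0 < n → ∃ D' : Pl k K →₀ ℤ, ∃ f : K, f ≠ 0 ∧ D = n • D' + divf (k := k) f) :
    ∃ f : K, f ≠ 0 ∧ D = divf (k := k) f := by
  classical
  letI : Algebra ℚ_[p] K := ((algebraMap k K).comp (algebraMap ℚ_[p] k)).toAlgebra
  haveI : IsScalarTower ℚ_[p] k K := IsScalarTower.of_algebraMap_eq fun _ => rfl
  have hD' : ∀ n : ℕ, 0 < n → ∃ D' : Pl k K →₀ ℤ, cls D = n • cls D' := fun n hn => by
    obtain ⟨D', f, hf, h⟩ := hD n hn
    refine ⟨D', ?_⟩
    rw [h, map_add, cls_divf hf, add_zero, map_nsmul]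
  -- degree zero
  have hD0 : degD D = 0 := by
    obtain ⟨D', h⟩ := hD' ((degD D).natAbs + 1) (Nat.succ_pos _)
    have h1 := congrArg (degPic (k := k) (K := K)) h
    rw [map_nsmul, degPic_cls, degPic_cls, nsmul_eq_mul] at h1
    have h2 : (((degD D).natAbs + 1 : ℕ) : ℤ) ∣ degD D := ⟨_, h1⟩
    by_contra hne
    have h3 := Int.natAbs_dvd_natAbs.mpr h2
    have h4 := Nat.le_of_dvd (Int.natAbs_pos.mpr hne) h3
    rw [Int.natAbs_natCast] at h4
    omega
  -- an effective divisor of large degree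
  obtain ⟨R, hR0, hR⟩ : ∃ R : Pl k K →₀ ℤ, 0 ≤ R ∧ 3 * (gen k K : ℤ) + 1 ≤ degD R := by
    obtain ⟨P, _⟩ := Crest.Agent.R013.RR12_948.exists_notMem (k := k) (K := K) ∅
    refine ⟨Finsupp.single P (3 * gen k K + 1 : ℤ), ?_, ?_⟩
    · intro Q
      rw [Finsupp.single_apply, Finsupp.zero_apply]
      split_ifs <;> positivity
    · rw [degD_single]
      have h2 : (1 : ℤ) ≤ degP P := by exact_mod_cast degP_pos P
      have h3 : (0 : ℤ) ≤ 3 * gen k K + 1 := by positivity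
      nlinarith
  have hg0 : (0 : ℤ) ≤ gen k K := Int.natCast_nonneg _
  haveI := fin_rs (p := p) (2 • R)
  obtain ⟨s, b, l, _, hsum, _⟩ := exists_coord ((LD (2 • R)).restrictScalars ℚ_[p])
  have hsum' : ∀ v ∈ LD (2 • R), v = ∑ i, l i v • b i := hsum
  choose E hE hEc hEk using exists_small hc hR hR0 hsum' hD0 hD'
  let U : Ultrafilter ℕ := hyperfilter ℕ
  have hU : (U : Filter ℕ) ≤ atTop := Nat.hyperfilter_le_atTop
  have cE : Cv p R (U : Filter ℕ) E R :=
    cv_of_kD U hU hsum' (fun _ => ⟨hR0, rfl⟩) hE (fun n => (hEk n).symm) (cv_const R R)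
  -- `E n = R + D + div (f n)`
  have hex : ∀ n, ∃ f : K, f ≠ 0 ∧ E n = R + D + divf (k := k) f := fun n =>
    cls_eq_iff.mp (by rw [hEc, map_add])
  choose f hf hEf using hex
  have hfm : ∀ n, f n ∈ LD (R + D) := fun n => by
    rw [mem_LD_iff (hf n), ← hEf]
    exact (hE n).1
  haveI := fin_rs (p := p) (R + D)
  obtain ⟨a, ha, x, hx, hlim⟩ := exists_normalise U ((LD (R + D)).restrictScalars ℚ_[p]) (h := f)
    (Eventually.of_forall hfm) (Eventually.of_forall hf)
  have hdc : ∀ n, divf (k := k) (a n • f n) = divf (k := k) (f n) := by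
    intro n
    have hne : algebraMap ℚ_[p] k (a n) ≠ 0 := by
      rw [Ne, FaithfulSMul.algebraMap_eq_zero_iff]
      exact ha n
    have hne' : algebraMap k K (algebraMap ℚ_[p] k (a n)) ≠ 0 := by
      rw [Ne, FaithfulSMul.algebraMap_eq_zero_iff]
      exact hne
    have h1 : a n • f n = algebraMap k K (algebraMap ℚ_[p] k (a n)) * f n := by
      rw [Algebra.smul_def]; rfl
    rw [h1, divf_mul hne' (hf n)]
    have h2 : divf (k := k) (algebraMap k K (algebraMap ℚ_[p] k (a n))) = 0 := by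
      ext P
      have h3 := v_eq (k := k) hne' P
      rw [P.const _ hne, ← WithZero.exp_zero, WithZero.exp_inj] at h3
      rw [Finsupp.zero_apply]
      omega
    rw [h2, zero_add]
  have hrel := rel3 (p := p) U hc hR (E := E) (F := fun _ => R) (G := fun _ => R)
    (E' := R) (F' := R) (G' := R) (A := 3 • R + D) rfl rfl rfl
    (by rw [degD_add, deg3, hD0, add_zero]) cE (cv_const R R) (cv_const R R)
    (h := fun n => a n • f n) (x := x)
    (Eventually.of_forall fun n => ⟨smul_ne_zero (ha n) (hf n), by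
      rw [hdc, hEf, show (3 : ℕ) • R = R + R + R from by rw [succ_nsmul, two_nsmul]]
      abel⟩) hlim hx
  refine ⟨x⁻¹, inv_ne_zero hx, ?_⟩
  rw [divf_inv hx]
  rw [show (3 : ℕ) • R = R + R + R from by rw [succ_nsmul, two_nsmul], add_assoc (R + R + R)] at hrel
  have h5 : D + divf (k := k) x = 0 := by
    have h6 := congrArg (fun z => z - (R + R + R)) hrel
    simp only [sub_self, add_sub_cancel_left] at h6
    exact h6.symm
  exact eq_neg_of_add_eq_zero_left h5

/-- **(beta)** in `Pic` -/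
theorem beta_pic (p : ℕ) [Fact p.Prime] {k : Type*} [Field k] [Algebra ℚ_[p] k]
    [FiniteDimensional ℚ_[p] k] {K : Type*} [Field K] [Algebra k K] [Algebra (RatFunc k) K]
    [IsScalarTower k (RatFunc k) K] [FiniteDimensional (RatFunc k) K]
    [Algebra.IsSeparable (RatFunc k) K] (hc : algebraicClosure k K = ⊥) (z : Pic k K)
    (hz : ∀ n : ℕ, 0 < n → ∃ y : Pic k K, z = n • y) : z = 0 := by
  obtain ⟨D, rfl⟩ := cls_surjective z
  have h1 : ∀ n : ℕ, 0 < n → ∃ D' : Pl k K →₀ ℤ, ∃ f : K, f ≠ 0 ∧ D = n • D' + divf (k := k) f := by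
    intro n hn
    obtain ⟨y, hy⟩ := hz n hn
    obtain ⟨D', rfl⟩ := cls_surjective y
    rw [← map_nsmul] at hy
    obtain ⟨f, hf, h⟩ := cls_eq_iff.mp hy
    exact ⟨D', f, hf, h⟩
  obtain ⟨f, hf, h⟩ := beta p hc D h1
  rw [h, cls_divf hf]

end Crest.Agent.R013.Beta_116
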