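import Crest.Agent.R013.TP3_928
import Crest.Agent.R013.PC_588

/-!
# Row 13, part C: bridge between `Tate p (D ⧸ P)` (928) and `PC p G` (588)

`G` a commutative group ("functions"), `δ : Additive G →+ D` ("divisor"), `P` = principal divisors,
the constants `ker δ` being `p`-divisible.
* `bridge : Tate p (D ⧸ P) →ₗ[ℤ_[p]] PC p G`, `rep_iff`;
* `bridge_injective`, `mem_range_bridge`;
* `bridge_map`: equivariance.
-/

set_option autoImplicit false

namespace Crest.Agent.R013.Bridge_588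

open TP_928

variable {p : ℕ} [hp : Fact p.Prime] {G D : Type*} [CommGroup G] [AddCommGroup D]

section

variable (δ : Additive G →+ D) (P : AddSubgroup D) (hP : ∀ d, d ∈ P ↔ ∃ e, δ e = d)
  [IsAddTorsionFree D]
  (hdiv : ∀ c : G, δ (Additive.ofMul c) = 0 → ∀ n, ∃ b : G, b ^ p ^ n = c)

include hP hdiv in
theorem qmk_eq_of_rep {n : ℕ} {z : D ⧸ P} {e e' : Additive G} (h : TP_928.Rep p δ P n z e)
    (h' : TP_928.Rep p δ P n z e') :
    PC_588.qmk p G n (Additive.toMul e) = PC_588.qmk p G n (Additive.toMul e') := by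
  obtain ⟨c, f, hc, hf⟩ := h'.exists_sub hP h
  obtain ⟨b, hb⟩ := hdiv (Additive.toMul c) hc n
  rw [PC_588.qmk_eq_iff]
  refine ⟨b * Additive.toMul f, ?_⟩
  rw [mul_pow, hb, hf]
  simp [mul_assoc]

include hP hdiv in
theorem exists_bridge (u : Tate p (D ⧸ P)) : ∃ w : PC_588.PC p G, ∀ n e,
    TP_928.Rep p δ P n (u n) e → PC_588.Rep w n (Additive.toMul e) := by
  choose e he using fun n => exists_rep (p := p) hP (u.pow_smul_apply n)
  refine ⟨PC_588.PC.seq (fun n => Additive.toMul (e n)) ?_, ?_⟩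
  · intro n
    obtain ⟨c, f, hc, hf⟩ := Rep.exists_succ hP (by rw [u.apply_succ]; exact he n) (he (n + 1))
    obtain ⟨b, hb⟩ := hdiv (Additive.toMul c) hc n
    refine ⟨b * Additive.toMul f, ?_⟩
    rw [mul_pow, hb, hf]
    simp [mul_assoc]
  · intro n e' he'
    unfold PC_588.Rep
    rw [qmk_eq_of_rep δ P hP hdiv he' (he n)]
    rfl

/-- The class `(h_n)_n` of a vector of the Tate module of the class group. -/
noncomputable def bridge : Tate p (D ⧸ P) →ₗ[ℤ_[p]] PC_588.PC p G where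
  toFun u := (exists_bridge δ P hP hdiv u).choose
  map_add' u v := by
    refine PC_588.PC.eq_of_rep fun n => ?_
    obtain ⟨a, ha⟩ := exists_rep (p := p) hP (u.pow_smul_apply n)
    obtain ⟨b, hb⟩ := exists_rep (p := p) hP (v.pow_smul_apply n)
    exact ⟨Additive.toMul a * Additive.toMul b,
      (exists_bridge δ P hP hdiv (u + v)).choose_spec n (a + b) (ha.add hb),
      ((exists_bridge δ P hP hdiv u).choose_spec n a ha).add
        ((exists_bridge δ P hP hdiv v).choose_spec n b hb)⟩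
  map_smul' m u := by
    refine PC_588.PC.eq_of_rep fun n => ?_
    obtain ⟨a, ha⟩ := exists_rep (p := p) hP (u.pow_smul_apply n)
    exact ⟨Additive.toMul a ^ rp m n,
      (exists_bridge δ P hP hdiv (m • u)).choose_spec n (rp m n • a) (ha.smul (rp m n)),
      ((exists_bridge δ P hP hdiv u).choose_spec n a ha).smul m (rp m n) (natCast_rp m n).symm⟩

variable {P}

theorem rep_bridge (u : Tate p (D ⧸ P)) {n : ℕ} {g : G}
    (h : TP_928.Rep p δ P n (u n) (Additive.ofMul g)) :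
    PC_588.Rep (bridge δ P hP hdiv u) n g :=
  (exists_bridge δ P hP hdiv u).choose_spec n _ h

theorem rep_iff (u : Tate p (D ⧸ P)) {n : ℕ} {g : G} :
    PC_588.Rep (bridge δ P hP hdiv u) n g ↔ TP_928.Rep p δ P n (u n) (Additive.ofMul g) := by
  refine ⟨fun h => ?_, rep_bridge δ hP hdiv u⟩
  obtain ⟨e, x, hx, he⟩ := exists_rep (p := p) hP (u.pow_smul_apply n)
  have h1 : PC_588.Rep (bridge δ P hP hdiv u) n (Additive.toMul e) :=
    rep_bridge δ hP hdiv u ⟨x, hx, he⟩
  obtain ⟨f, hf⟩ := h1.eq_iff.1 h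
  refine ⟨x + δ (Additive.ofMul f), ?_, ?_⟩
  · rw [QuotientAddGroup.mk_add, hx]
    have : ((δ (Additive.ofMul f) : D) : D ⧸ P) = 0 :=
      (QuotientAddGroup.eq_zero_iff _).mpr ((hP _).2 ⟨_, rfl⟩)
    rw [this, add_zero]
  · rw [hf, ofMul_mul, map_add, ofMul_pow, map_nsmul, ofMul_toMul, he, smul_add]

theorem bridge_injective : Function.Injective (bridge (p := p) δ P hP hdiv) := by
  rw [injective_iff_map_eq_zero]
  intro u hu
  ext n
  obtain ⟨e, x, hx, he⟩ := exists_rep (p := p) hP (u.pow_smul_apply n)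
  have h1 : PC_588.Rep (bridge δ P hP hdiv u) n (Additive.toMul e) :=
    rep_bridge δ hP hdiv u ⟨x, hx, he⟩
  rw [hu, PC_588.Rep.zero_iff] at h1
  obtain ⟨f, hf⟩ := h1
  rw [← hx, Tate.zero_apply, QuotientAddGroup.eq_zero_iff, hP]
  refine ⟨Additive.ofMul f, ?_⟩
  have h2 : e = p ^ n • Additive.ofMul f := by rw [← ofMul_pow, hf, ofMul_toMul]
  rw [h2, map_nsmul] at he
  exact IsAddTorsionFree.nsmul_right_injective (pow_ne_zero _ hp.out.ne_zero) he

/-- The image of the bridge: all representatives have divisor divisible by `p^n`. -/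
theorem mem_range_bridge (w : PC_588.PC p G) :
    w ∈ LinearMap.range (bridge (p := p) δ P hP hdiv) ↔
      ∀ n g, PC_588.Rep w n g → ∃ x, δ (Additive.ofMul g) = p ^ n • x := by
  constructor
  · rintro ⟨u, rfl⟩ n g hg
    obtain ⟨x, -, hx⟩ := (rep_iff δ hP hdiv u).1 hg
    exact ⟨x, hx⟩
  · intro h
    choose g hg using fun n => PC_588.exists_rep w n
    choose x hx using fun n => h n (g n) (hg n)
    have key : ∀ {n : ℕ} {a b : D}, (p ^ n) • a = (p ^ n) • b → a = b := fun hab =>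
      IsAddTorsionFree.nsmul_right_injective (pow_ne_zero _ hp.out.ne_zero) hab
    refine ⟨Tate.mk (fun n => (x n : D ⧸ P)) ?_ ?_, ?_⟩
    · rw [QuotientAddGroup.eq_zero_iff, hP]
      exact ⟨_, by rw [hx 0]; simp⟩
    · intro n
      obtain ⟨f, hf⟩ := (hg n).eq_iff.1 ((hg (n + 1)).of_le (Nat.le_succ n))
      have h1 := hx (n + 1)
      rw [hf, ofMul_mul, map_add, ofMul_pow, map_nsmul, hx n, ← smul_add, pow_succ, mul_smul] at h1
      have h2 := key h1
      rw [← QuotientAddGroup.mk_nsmul, ← h2, QuotientAddGroup.mk_add]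
      have : ((δ (Additive.ofMul f) : D) : D ⧸ P) = 0 :=
        (QuotientAddGroup.eq_zero_iff _).mpr ((hP _).2 ⟨_, rfl⟩)
      rw [this, add_zero]
    · refine PC_588.PC.eq_of_rep fun n => ⟨g n, ?_, hg n⟩
      exact rep_bridge δ hP hdiv _ ⟨x n, rfl, hx n⟩

end

section equivariance

variable {G' D' : Type*} [CommGroup G'] [AddCommGroup D'] [IsAddTorsionFree D] [IsAddTorsionFree D']
  {δ : Additive G →+ D} {P : AddSubgroup D} (hP : ∀ d, d ∈ P ↔ ∃ e, δ e = d)
  (hdiv : ∀ c : G, δ (Additive.ofMul c) = 0 → ∀ n, ∃ b : G, b ^ p ^ n = c)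
  {δ' : Additive G' →+ D'} {P' : AddSubgroup D'} (hP' : ∀ d, d ∈ P' ↔ ∃ e, δ' e = d)
  (hdiv' : ∀ c : G', δ' (Additive.ofMul c) = 0 → ∀ n, ∃ b : G', b ^ p ^ n = c)

/-- Equivariance: a homomorphism `f` of functions compatible with a map `F` of divisors. -/
theorem bridge_map (f : G →* G') (F : D →+ D') (hF : ∀ g, δ' (Additive.ofMul (f g)) =
    F (δ (Additive.ofMul g))) (hFP : P ≤ P'.comap F) (u : Tate p (D ⧸ P)) :
    bridge δ' P' hP' hdiv' (Tate.map (QuotientAddGroup.map P P' F hFP) u) =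
      PC_588.PC.map f (bridge δ P hP hdiv u) := by
  refine PC_588.PC.eq_of_rep fun n => ?_
  obtain ⟨e, x, hx, he⟩ := exists_rep (p := p) hP (u.pow_smul_apply n)
  refine ⟨f (Additive.toMul e), rep_bridge δ' hP' hdiv' _ ?_,
    (rep_bridge δ hP hdiv u ⟨x, hx, he⟩).map f⟩
  refine ⟨F x, ?_, ?_⟩
  · rw [Tate.map_apply, ← hx]
    rfl
  · rw [hF, ofMul_toMul, he, map_nsmul]

end equivariance

end Crest.Agent.R013.Bridge_588
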