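import Crest.Agent.R013.CAn9_243

/-!
# Row 13, leaf COMP-AN (helper243), file 10: `1, T, …, T^(m-1)` is a basis of the field `EE k C`
over `compE f EE` for every `f` with `WE f m`
-/

set_option autoImplicit false
set_option linter.unusedSectionVars false
open Filter Topology
open Crest.Agent.R013.Cell_408 (FinDef DiscNorm exists_max BD)
open Crest.Agent.R013.EE809

namespace Crest.Agent.R013.CAn_243

variable {k : Type*} [NontriviallyNormedField k] [CompleteSpace k]
variable {C : Type*} [NormedField C] [IsUltrametricDist C] [NormedAlgebra k C]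

/-- truncation: only the exponents `≥ -K` -/
noncomputable def trc (K : ℤ) (a : EE k C) : EE k C :=
  mk' (fun n => if n < -K then 0 else a.co n)
    (by
      obtain ⟨L, hL, h⟩ := a.fd
      refine ⟨L, hL, fun n => ?_⟩
      dsimp only
      split_ifs
      · exact zero_mem L
      · exact h n)
    (by
      obtain ⟨M, hM0, hM⟩ := a.bd'
      refine ⟨M, fun n => ?_⟩
      split_ifs
      · rw [norm_zero]; exact hM0.le
      · exact hM n)
    (by
      refine tendsto_const_nhds.congr' ?_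
      filter_upwards [eventually_lt_atBot (-K)] with n hn
      rw [if_pos hn])

theorem co_trc (K : ℤ) (a : EE k C) (n : ℤ) : (trc K a).co n = if n < -K then 0 else a.co n := rfl

theorem trc_L {L : IntermediateField k C} {K : ℤ} {a : EE k C} (h : InL L a) : InL L (trc K a) := by
  intro n
  rw [co_trc]
  split_ifs
  · exact zero_mem L
  · exact h n

theorem gn_trc_le (K : ℤ) (a : EE k C) : gn (trc K a) ≤ gn a := gn_le fun n => by
  rw [co_trc]
  split_ifs
  · rw [norm_zero]; exact gn_nonneg a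
  · exact le_gn a n

theorem gn_sub_trc_le {K : ℤ} {a : EE k C} {ε : ℝ} (hε : 0 ≤ ε) (h : ∀ n, n < -K → ‖a.co n‖ ≤ ε) :
    gn (a - trc K a) ≤ ε := gn_le fun n => by
  rw [co_sub, co_trc]
  split_ifs with hn
  · rw [sub_zero]; exact h n hn
  · rw [sub_self, norm_zero]; exact hε

/-- truncated series are bounded at every radius -/
theorem trc_bdd {ρ : ℝ} (hρ0 : 0 < ρ) (hρ1 : ρ ≤ 1) {K : ℤ} (a : EE k C) :
    Bdd ρ (gn a * ρ ^ (-K)) (trc K a) := by
  intro n
  rw [co_trc]
  split_ifs with hn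
  · rw [norm_zero, zero_mul]
    exact mul_nonneg (gn_nonneg a) (zpow_nonneg hρ0.le _)
  · exact mul_le_mul (le_gn a n) (zpow_le_zpow_right_of_le_one₀ hρ0 hρ1 (by omega))
      (zpow_nonneg hρ0.le _) (gn_nonneg a)

variable [Algebra.IsAlgebraic k C] [IsUltrametricDist k] [IsAlgClosed C] [hk : Fact (DiscNorm k)]

/-- close maps have close powers -/
theorem gn_zpow_sub_le {f f' : EE k C} {m : ℕ} (h : WE f m) (h' : WE f' m) (n : ℤ) :
    gn (f' ^ n - f ^ n) ≤ gn (f' - f) := by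
  have hn : ∀ n : ℕ, gn (f' ^ n - f ^ n) ≤ gn (f' - f) := by
    intro n
    induction n with
    | zero => rw [pow_zero, pow_zero, sub_self, gn_zero]; exact gn_nonneg _
    | succ n ih =>
      have e : f' ^ (n + 1) - f ^ (n + 1) = f' ^ n * (f' - f) + (f' ^ n - f ^ n) * f := by ring
      rw [e]
      refine (gn_add_le _ _).trans (max_le ?_ ?_)
      · rw [gn_mul hk.out, gn_pow, h'.gn, one_pow, one_mul]
      · rw [gn_mul hk.out, h.gn, mul_one]; exact ih
  cases n with
  | ofNat n => rw [Int.ofNat_eq_natCast, zpow_natCast, zpow_natCast]; exact hn n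
  | negSucc n =>
    have hf := pow_ne_zero (n + 1) h.ne_zero
    have hf' := pow_ne_zero (n + 1) h'.ne_zero
    have e : f' ^ (Int.negSucc n) - f ^ (Int.negSucc n) =
        -((f' ^ (n + 1) - f ^ (n + 1)) * ((f' ^ (n + 1))⁻¹ * (f ^ (n + 1))⁻¹)) := by
      rw [zpow_negSucc, zpow_negSucc]
      field_simp
      ring
    rw [e, gn_neg, gn_mul hk.out, gn_mul hk.out, gn_inv, gn_inv, gn_pow, gn_pow, h.gn, h'.gn,
      one_pow, inv_one, mul_one, mul_one]
    exact hn (n + 1)

theorem gn_compE_sub_le {f f' : EE k C} {m : ℕ} (h : WE f m) (h' : WE f' m) (hm : m ≠ 0)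
    (a : EE k C) : gn (compE f' h' hm a - compE f h hm a) ≤ gn (f' - f) * gn a := by
  refine gn_le fun j => ?_
  rw [co_sub, co_compE, co_compE, ← ((hasSum_compE h' hm a j).summable.tsum_sub
    (hasSum_compE h hm a j).summable)]
  refine IsUltrametricDist.norm_tsum_le_of_forall_le_of_nonneg
    (mul_nonneg (gn_nonneg _) (gn_nonneg _)) fun n => ?_
  rw [← mul_sub, norm_mul, mul_comm]
  have h1 := le_gn (f' ^ n - f ^ n) j
  rw [co_sub] at h1
  exact mul_le_mul (h1.trans (gn_zpow_sub_le h h' n)) (le_gn a n) (norm_nonneg _) (gn_nonneg _)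

/-- a constant close to one -/
theorem exists_close (k : Type*) {C : Type*} [NontriviallyNormedField k] [NormedField C]
    [NormedAlgebra k C] [IsAlgClosed C] {η : ℝ} (h0 : 0 ≤ η) (h1 : η < 1) (N : ℕ) :
    ∃ c : C, c ≠ 0 ∧ ‖c‖ < 1 ∧ η ≤ ‖c‖ ^ N := by
  obtain ⟨y, hy0, hy1⟩ := NormedField.exists_norm_lt_one k
  obtain ⟨x, hx0, hx1⟩ : ∃ x : C, 0 < ‖x‖ ∧ ‖x‖ < 1 :=
    ⟨algebraMap k C y, by rwa [norm_algebraMap'], by rwa [norm_algebraMap']⟩
  obtain ⟨M, hM⟩ := exists_pow_lt_of_lt_one (x := ‖x‖ ^ N) (y := η) (pow_pos hx0 N) h1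
  have hM' : η ^ (M + 1) < ‖x‖ ^ N :=
    lt_of_le_of_lt (pow_le_pow_of_le_one h0 h1.le (Nat.le_succ M)) hM
  obtain ⟨c, hc⟩ := IsAlgClosed.exists_pow_nat_eq x (n := M + 1) (Nat.succ_pos M)
  have hcx : ‖c‖ ^ (M + 1) = ‖x‖ := by rw [← norm_pow, hc]
  refine ⟨c, ?_, ?_, ?_⟩
  · rintro rfl
    rw [norm_zero, zero_pow (Nat.succ_ne_zero M)] at hcx
    exact hx0.ne hcx
  · rw [← pow_lt_pow_iff_left₀ (norm_nonneg _) zero_le_one (Nat.succ_ne_zero M), one_pow, hcx]
    exact hx1
  · rw [← pow_le_pow_iff_left₀ h0 (by positivity) (Nat.succ_ne_zero M), ← pow_mul, mul_comm N,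
      pow_mul, hcx]
    exact hM'.le

/-- a truncation of `f` is a map of annuli -/
theorem trc_wa {f : EE k C} {m : ℕ} (h : WE f m) {K : ℤ} (hK : 0 ≤ K) :
    ∃ c : C, c ≠ 0 ∧ ‖c‖ < 1 ∧ WA c (trc K f) m := by
  -- the coefficients between `-K` and `m`
  have hη : ∃ η : ℝ, 0 ≤ η ∧ η < 1 ∧ ∀ n : ℤ, -K ≤ n → n < m → ‖f.co n‖ ≤ η := by
    rcases (Finset.Ico (-K) (m : ℤ)).eq_empty_or_nonempty with he | he
    · refine ⟨0, le_rfl, one_pos, fun n h1 h2 => ?_⟩
      exact absurd (Finset.mem_Ico.2 ⟨h1, h2⟩) (by rw [he]; exact Finset.notMem_empty n)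
    · obtain ⟨n0, hn0, hmax⟩ := (Finset.Ico (-K) (m : ℤ)).exists_max_image (fun n => ‖f.co n‖) he
      exact ⟨‖f.co n0‖, norm_nonneg _, h.lt n0 (Finset.mem_Ico.1 hn0).2, fun n h1 h2 =>
        hmax n (Finset.mem_Ico.2 ⟨h1, h2⟩)⟩
  obtain ⟨η, h0, h1, h2⟩ := hη
  obtain ⟨c, hc0, hc1, hc⟩ := exists_close k (C := C) h0 h1 ((m + K).toNat)
  have hcp : 0 < ‖c‖ := norm_pos_iff.2 hc0
  refine ⟨c, hc0, hc1, fun n => ?_, ?_, fun n => ?_⟩
  · rw [co_trc]
    split_ifs
    · rw [norm_zero]; exact zero_le_one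
    · exact h.le n
  · rw [co_trc, if_neg (by omega)]; exact h.one
  · rw [co_trc]
    split_ifs with hn
    · rw [norm_zero, zero_mul]; exact zpow_nonneg hcp.le _
    · rcases le_or_gt (m : ℤ) n with hmn | hmn
      · calc ‖f.co n‖ * ‖c‖ ^ n ≤ 1 * ‖c‖ ^ (m : ℤ) :=
              mul_le_mul (h.le n) (zpow_le_zpow_right_of_le_one₀ hcp hc1.le hmn)
                (zpow_nonneg hcp.le _) zero_le_one
          _ = _ := one_mul _
      · have h3 := (h2 n (by omega) hmn).trans hc
        have h4 : ‖c‖ ^ (m + K).toNat ≤ ‖c‖ ^ ((m : ℤ) - n) := by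
          rw [← zpow_natCast, Int.toNat_of_nonneg (by omega)]
          exact zpow_le_zpow_right_of_le_one₀ hcp hc1.le (by omega)
        calc ‖f.co n‖ * ‖c‖ ^ n ≤ ‖c‖ ^ ((m : ℤ) - n) * ‖c‖ ^ n :=
              mul_le_mul_of_nonneg_right (h3.trans h4) (zpow_nonneg hcp.le _)
          _ = ‖c‖ ^ (m : ℤ) := by rw [← zpow_add₀ hcp.ne', sub_add_cancel]

section span

variable {f : EE k C} {m : ℕ} (h : WE f m) (hm : m ≠ 0)

/-- one step of the approximation -/
theorem approx_EE (L : IntermediateField k C) [FiniteDimensional k L] (hf : InL L f) {g : EE k C}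
    (hg : InL L g) : ∃ A : ℕ → EE k C, (∀ i, InL L (A i)) ∧ (∀ i, gn (A i) ≤ gn g) ∧
      gn (g - ∑ i ∈ Finset.range m, T i * compE f h hm (A i)) ≤ 1 / 2 * gn g := by
  by_cases hg0 : g = 0
  · refine ⟨fun _ => 0, fun _ => InL.zero L, fun _ => by rw [gn_zero]; exact gn_nonneg _, ?_⟩
    simp only [map_zero, mul_zero, Finset.sum_const_zero, sub_zero]
    rw [hg0, gn_zero, mul_zero]
  have hG : 0 < gn g := gn_pos hg0
  obtain ⟨K, hK0, hK⟩ := f.small (ε := 1 / 2) (by norm_num)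
  obtain ⟨K', hK0', hK'⟩ := g.small (ε := 1 / 2 * gn g) (by positivity)
  obtain ⟨c, hc0, hc1, hwa⟩ := trc_wa h hK0
  have hcp : 0 < ‖c‖ := norm_pos_iff.2 hc0
  have hfd : gn (trc K f - f) ≤ 1 / 2 := by
    rw [gn_sub_comm]
    exact gn_sub_trc_le (by norm_num) fun n hn => (hK n hn).le
  have hgd : gn (g - trc K' g) ≤ 1 / 2 * gn g :=
    gn_sub_trc_le (by positivity) fun n hn => (hK' n hn).le
  obtain ⟨A, a1, a2, -, a4⟩ := exists_repr_AN (c := c ^ m) hc0 hc1 hwa hm (norm_pow c m).symm L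
    (trc_L hf) (trc_L (K := K') hg) (bdd_one_iff.2 (gn_trc_le K' g)) (trc_bdd hcp hc1.le g)
  have hA : ∀ i, gn (A i) ≤ gn g := fun i => bdd_one_iff.1 (a2 i)
  refine ⟨A, a1, hA, ?_⟩
  have e : g - ∑ i ∈ Finset.range m, T i * compE f h hm (A i) = (g - trc K' g) +
      ∑ i ∈ Finset.range m, T i * (compE (trc K f) (hwa.we hc0 hc1) hm (A i) -
        compE f h hm (A i)) := by
    simp only [mul_sub]
    rw [Finset.sum_sub_distrib, ← a4]
    ring
  rw [e]
  refine (gn_add_le _ _).trans (max_le hgd (gn_sum_le _ _ (by positivity) fun i _ => ?_))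
  rw [gn_T_mul]
  refine (gn_compE_sub_le h (hwa.we hc0 hc1) hm (A i)).trans ?_
  exact mul_le_mul hfd (hA i) (gn_nonneg _) (by norm_num)

/-- **(SPAN-EE)**, with the norms and the finite level -/
theorem exists_repr_EE (L : IntermediateField k C) [FiniteDimensional k L] (hf : InL L f)
    {g : EE k C} (hg : InL L g) : ∃ A : ℕ → EE k C, (∀ i, InL L (A i)) ∧
      (∀ i, gn (A i) ≤ gn g) ∧ g = ∑ i ∈ Finset.range m, T i * compE f h hm (A i) := by
  classical
  have key : ∀ x : {x : EE k C // InL L x}, ∃ A : ℕ → EE k C, (∀ i, InL L (A i)) ∧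
      (∀ i, gn (A i) ≤ gn x.1) ∧
      gn (x.1 - ∑ i ∈ Finset.range m, T i * compE f h hm (A i)) ≤ 1 / 2 * gn x.1 :=
    fun x => approx_EE h hm L hf x.2
  choose F F1 F2 F3 using key
  have hR : ∀ x : {x : EE k C // InL L x},
      InL L (x.1 - ∑ i ∈ Finset.range m, T i * compE f h hm (F x i)) := fun x =>
    x.2.sub (InL.sum _ fun i _ => (InL.T L _).mul (CAn_243.InL.compE hf (F1 x i) h hm))
  let R : {x : EE k C // InL L x} → {x : EE k C // InL L x} := fun x => ⟨_, hR x⟩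
  let x0 : {x : EE k C // InL L x} := ⟨g, hg⟩
  let X : ℕ → {x : EE k C // InL L x} := fun t => R^[t] x0
  have hX : ∀ t, X (t + 1) = R (X t) := fun t => Function.iterate_succ_apply' R t x0
  have hXn : ∀ t, gn (X t).1 ≤ (1 / 2) ^ t * gn g := by
    intro t
    induction t with
    | zero => rw [pow_zero, one_mul]; exact le_rfl
    | succ t ih =>
      rw [hX, pow_succ']
      calc gn (R (X t)).1 ≤ 1 / 2 * gn (X t).1 := F3 (X t)
        _ ≤ 1 / 2 * ((1 / 2) ^ t * gn g) := mul_le_mul_of_nonneg_left ih (by norm_num)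
        _ = _ := by ring
  let P : ℕ → ℕ → EE k C := fun i t => ∑ s ∈ Finset.range t, F (X s) i
  have hPL : ∀ i t, InL L (P i t) := fun i t => InL.sum _ fun s _ => F1 (X s) i
  have hP1 : ∀ i t n, t ≤ n → gn (P i n - P i t) ≤ (1 / 2) ^ t * gn g := by
    intro i t n htn
    show gn ((∑ s ∈ Finset.range n, F (X s) i) - ∑ s ∈ Finset.range t, F (X s) i) ≤ _
    rw [← Finset.sum_sdiff (Finset.range_mono htn), add_sub_cancel_right]
    refine gn_sum_le _ _ (mul_nonneg (by positivity) (gn_nonneg _)) fun s hs => ?_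
    simp only [Finset.mem_sdiff, Finset.mem_range, not_lt] at hs
    refine (F2 (X s) i).trans ((hXn s).trans ?_)
    exact mul_le_mul_of_nonneg_right (pow_le_pow_of_le_one (by norm_num) (by norm_num) hs.2)
      (gn_nonneg _)
  have htend : Tendsto (fun t : ℕ => (1 / 2 : ℝ) ^ t * gn g) atTop (𝓝 0) := by
    have := (tendsto_pow_atTop_nhds_zero_of_lt_one (r := (1 / 2 : ℝ)) (by norm_num)
      (by norm_num)).mul_const (gn g)
    rwa [zero_mul] at this
  have hc : ∀ i : ℕ, ∃ S : EE k C, InL L S ∧ ∀ t, gn (S - P i t) ≤ (1 / 2) ^ t * gn g :=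
    fun i => complete_of L (P i) (hPL i) _ htend (hP1 i)
  choose A A1 A2 using hc
  have hsum : ∀ t, g = ∑ i ∈ Finset.range m, T i * compE f h hm (P i t) + (X t).1 := by
    intro t
    induction t with
    | zero =>
      have : ∀ i : ℕ, P i 0 = 0 := fun i => Finset.sum_range_zero _
      simp only [this, map_zero, mul_zero, Finset.sum_const_zero, zero_add]
      rfl
    | succ t ih =>
      have e1 : ∀ i : ℕ, P i (t + 1) = P i t + F (X t) i := fun i => Finset.sum_range_succ _ _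
      have e2 : (X (t + 1)).1 = (X t).1 - ∑ i ∈ Finset.range m, T i * compE f h hm (F (X t) i) := by
        rw [hX]
      simp only [e1, map_add, mul_add]
      rw [Finset.sum_add_distrib, e2]
      conv_lhs => rw [ih]
      ring
  refine ⟨A, A1, fun i => ?_, ?_⟩
  · have h1 := A2 i 0
    have h2 : P i 0 = 0 := Finset.sum_range_zero _
    rwa [h2, sub_zero, pow_zero, one_mul] at h1
  · rw [← sub_eq_zero]
    refine gn_eq_zero.1 (le_antisymm (ge_of_tendsto' htend fun t => ?_) (gn_nonneg _))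
    have e : g - ∑ i ∈ Finset.range m, T i * compE f h hm (A i) =
        (X t).1 - ∑ i ∈ Finset.range m, T i * compE f h hm (A i - P i t) := by
      simp only [map_sub, mul_sub]
      rw [Finset.sum_sub_distrib]
      conv_lhs => rw [hsum t]
      ring
    rw [e]
    refine (gn_sub_le _ _).trans (max_le (hXn t) (gn_sum_le _ _
      (mul_nonneg (by positivity) (gn_nonneg _)) fun i _ => ?_))
    rw [gn_T_mul, gn_compE]
    exact A2 i t

/-- **(SPAN-EE)** -/
theorem span_EE (g : EE k C) : ∃ A : Fin m → EE k C, (∀ i, gn (A i) ≤ gn g) ∧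
    g = ∑ i, compE f h hm (A i) * T (i : ℕ) := by
  obtain ⟨L, hL, h1, h2⟩ := g.fd.common f.fd
  obtain ⟨A, -, a2, a3⟩ := exists_repr_EE h hm L h2 h1
  refine ⟨fun i => A i, fun i => a2 i, ?_⟩
  rw [← Finset.sum_range (fun i => compE f h hm (A i) * T (i : ℤ)), a3]
  exact Finset.sum_congr rfl fun i _ => mul_comm _ _

/-- the decomposition is unique and isometric -/
theorem existsUnique_EE (g : EE k C) : ∃! A : Fin m → EE k C,
    g = ∑ i, compE f h hm (A i) * T (i : ℕ) := by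
  obtain ⟨A, -, hA⟩ := span_EE h hm g
  refine ⟨A, hA, fun B hB => ?_⟩
  funext i
  have h1 : ∑ i, compE f h hm ((B - A) i) * T (i : ℕ) = 0 := by
    simp only [Pi.sub_apply, map_sub, sub_mul]
    rw [Finset.sum_sub_distrib, ← hB, ← hA, sub_self]
  have := repr_unique_EE' h hm (B - A) h1 i
  exact sub_eq_zero.1 this

end span

end Crest.Agent.R013.CAn_243
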