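import Crest.Agent.R013.EE4_809

/-!
# Row 13, leaf COMP-AN (helper243), file 1: composition `g ↦ g ∘ f = ∑ g_n f^n` in `EE k C`

`f ≠ 0` in the field `EE k C`.  `Adm f g`: the family `g_n (f^n)_j` is bounded, small for
`j → -∞` uniformly in `n`, and for `j ≤ J` only finitely many `n` are large.  Then `g ∘ f` is
defined and `g ↦ g ∘ f` is additive, multiplicative and associative.
-/

set_option autoImplicit false
set_option linter.unusedSectionVars false
open Filter Topology
open Crest.Agent.R013.Cell_408 (FinDef DiscNorm exists_max)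
open Crest.Agent.R013.EE809

namespace Crest.Agent.R013.CAn_243

variable {k : Type*} [NontriviallyNormedField k] [CompleteSpace k]
variable {C : Type*} [NormedField C] [IsUltrametricDist C] [NormedAlgebra k C]

/-! ### sums over products -/

section Sums

omit [IsUltrametricDist C] in
theorem hasSum_fib {ι κ : Type*} {F : ι × κ → C} {s : C} (hF : HasSum F s) {G : ι → C}
    (hG : ∀ i, HasSum (fun q => F (i, q)) (G i)) : HasSum G s :=
  hF.prod_fiberwise hG

omit [IsUltrametricDist C] in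
theorem hasSum_swap {ι κ : Type*} {F : ι × κ → C} {s : C} (hF : HasSum F s) {G : κ → C}
    (hG : ∀ q, HasSum (fun i => F (i, q)) (G q)) : HasSum G s := by
  have h : HasSum (fun p : κ × ι => F (p.2, p.1)) s :=
    (Equiv.prodComm κ ι).hasSum_iff.2 hF
  exact h.prod_fiberwise hG

theorem hasSum_mul_aux {ι κ : Type*} {a : ι → C} {b : κ → C} {x y : C} (ha : HasSum a x)
    (hb : HasSum b y) : HasSum (fun q : ι × κ => a q.1 * b q.2) (x * y) :=
  haveI : NonarchimedeanRing C :=
    { is_nonarchimedean := NonarchimedeanAddGroup.is_nonarchimedean }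
  ha.mul_of_nonarchimedean hb

end Sums

variable [Algebra.IsAlgebraic k C] [IsUltrametricDist k] [IsAlgClosed C] [hk : Fact (DiscNorm k)]

/-- the coefficients of the powers `f ^ n`, `n ∈ ℤ` -/
noncomputable def pc (f : EE k C) (n j : ℤ) : C := (f ^ n).co j

theorem pc_add {f : EE k C} (hf : f ≠ 0) (a b j : ℤ) :
    pc f (a + b) j = ∑' i, pc f a i * pc f b (j - i) := by
  unfold pc
  rw [zpow_add₀ hf, co_mul]

theorem hasSum_pc {f : EE k C} (hf : f ≠ 0) (a b j : ℤ) :
    HasSum (fun i => pc f a i * pc f b (j - i)) (pc f (a + b) j) := by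
  rw [pc_add hf]
  exact (summable_conv (f ^ a) (f ^ b) j).hasSum

theorem pc_zero (f : EE k C) (j : ℤ) : pc f 0 j = if j = 0 then 1 else 0 := by
  unfold pc
  rw [zpow_zero, co_one]

theorem pc_one (f : EE k C) (j : ℤ) : pc f 1 j = f.co j := by
  unfold pc
  rw [zpow_one]

theorem InL.zpow {L : IntermediateField k C} [FiniteDimensional k L] {f : EE k C}
    (h : InL L f) (n : ℤ) : InL L (f ^ n) := by
  cases n with
  | ofNat n =>
    rw [Int.ofNat_eq_natCast, zpow_natCast]
    exact h.pow n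
  | negSucc n =>
    rw [zpow_negSucc]
    exact inL_inv (h.pow _)

theorem exists_L (f : EE k C) : ∃ L : IntermediateField k C, FiniteDimensional k L ∧
    ∀ n j, pc f n j ∈ L := by
  obtain ⟨L, hL, h1⟩ := f.exists_inL
  exact ⟨L, hL, fun n j => InL.zpow h1 n j⟩

theorem exists_L2 (f : EE k C) (g : EE k C) : ∃ L : IntermediateField k C,
    FiniteDimensional k L ∧ InL L g ∧ ∀ n j, pc f n j ∈ L := by
  obtain ⟨L, hL, h1⟩ := exists_L f
  obtain ⟨L', hL', h2⟩ := g.exists_inL
  exact ⟨L ⊔ L', IntermediateField.finiteDimensional_sup L L', fun n => (le_sup_right : L' ≤ L ⊔ L') (h2 n),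
    fun n j => (le_sup_left : L ≤ L ⊔ L') (h1 n j)⟩

/-- admissible pairs: `g ∘ f = ∑ g_n f^n` makes sense -/
structure Adm (f : EE k C) (g : EE k C) : Prop where
  ne : f ≠ 0
  bd : ∃ M : ℝ, 0 < M ∧ ∀ n j : ℤ, ‖g.co n * pc f n j‖ ≤ M
  low : ∀ ε : ℝ, 0 < ε → ∃ J : ℤ, ∀ n j : ℤ, j < J → ‖g.co n * pc f n j‖ < ε
  fin : ∀ ε : ℝ, 0 < ε → ∀ J : ℤ, {n : ℤ | ∃ j ≤ J, ε ≤ ‖g.co n * pc f n j‖}.Finite

variable {f : EE k C}

theorem Adm.tendsto {g : EE k C} (h : Adm f g) (j : ℤ) :
    Tendsto (fun n => g.co n * pc f n j) cofinite (𝓝 0) := by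
  rw [Metric.tendsto_nhds]
  intro ε hε
  rw [eventually_cofinite]
  refine (h.fin ε hε j).subset fun n hn => ?_
  simp only [dist_zero_right, not_lt, Set.mem_ofPred_eq] at hn
  exact ⟨j, le_rfl, hn⟩

theorem Adm.summable {g : EE k C} (h : Adm f g) (j : ℤ) :
    Summable (fun n => g.co n * pc f n j) := by
  obtain ⟨L, hL, h1, h2⟩ := exists_L2 f g
  exact summable_of L (fun n => mul_mem (h1 n) (h2 n j)) (h.tendsto j)

/-- the coefficients of `g ∘ f` -/
noncomputable def cc (f : EE k C) (g : EE k C) (j : ℤ) : C := ∑' n, g.co n * pc f n j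

theorem cc_mem (L : IntermediateField k C) [FiniteDimensional k L] {g : EE k C} (hg : InL L g)
    (hf : ∀ n j, pc f n j ∈ L) (j : ℤ) : cc f g j ∈ L :=
  tsum_mem_of L fun n => mul_mem (hg n) (hf n j)

theorem Adm.norm_cc_le {g : EE k C} {M : ℝ} (hM0 : 0 ≤ M)
    (hM : ∀ n j : ℤ, ‖g.co n * pc f n j‖ ≤ M) (j : ℤ) : ‖cc f g j‖ ≤ M :=
  IsUltrametricDist.norm_tsum_le_of_forall_le_of_nonneg hM0 fun n => hM n j

theorem Adm.cc_E0 {g : EE k C} (h : Adm f g) : cc f g ∈ E0 k C := by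
  obtain ⟨L, hL, h1, h2⟩ := exists_L2 f g
  obtain ⟨M, hM0, hM⟩ := h.bd
  refine ⟨⟨L, hL, cc_mem L h1 h2⟩, ⟨M, Adm.norm_cc_le hM0.le hM⟩, ?_⟩
  rw [Metric.tendsto_nhds]
  intro ε hε
  obtain ⟨J, hJ⟩ := h.low (ε / 2) (by positivity)
  rw [eventually_atBot]
  refine ⟨J - 1, fun j hj => ?_⟩
  rw [dist_zero_right]
  refine lt_of_le_of_lt (b := ε / 2) ?_ (by linarith)
  exact IsUltrametricDist.norm_tsum_le_of_forall_le_of_nonneg (by positivity) fun n =>
    (hJ n j (by omega)).le

/-- `g ∘ f` (junk `0` if the pair is not admissible) -/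
noncomputable def co' (f : EE k C) (g : EE k C) : EE k C :=
  open Classical in
  if h : Adm f g then mk' (cc f g) h.cc_E0.1 h.cc_E0.2.1 h.cc_E0.2.2 else 0

theorem Adm.co_co' {g : EE k C} (h : Adm f g) (j : ℤ) :
    (co' f g).co j = ∑' n, g.co n * pc f n j := by
  unfold co'
  rw [dif_pos h]
  rfl

theorem Adm.hasSum {g : EE k C} (h : Adm f g) (j : ℤ) :
    HasSum (fun n => g.co n * pc f n j) ((co' f g).co j) := by
  rw [h.co_co']
  exact (h.summable j).hasSum

theorem Adm.gn_le {g : EE k C} (h : Adm f g) {M : ℝ} (hM0 : 0 ≤ M)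
    (hM : ∀ n j : ℤ, ‖g.co n * pc f n j‖ ≤ M) : gn (co' f g) ≤ M :=
  EE809.gn_le fun j => by rw [h.co_co']; exact Adm.norm_cc_le hM0 hM j

theorem Adm.add {g h : EE k C} (hg : Adm f g) (hh : Adm f h) : Adm f (g + h) := by
  obtain ⟨M, hM0, hM⟩ := hg.bd
  obtain ⟨N, hN0, hN⟩ := hh.bd
  have key : ∀ n j, ‖(g + h).co n * pc f n j‖ ≤ max ‖g.co n * pc f n j‖ ‖h.co n * pc f n j‖ := by
    intro n j
    rw [co_add, add_mul]
    exact IsUltrametricDist.norm_add_le_max _ _
  refine ⟨hg.ne, ⟨max M N, lt_max_of_lt_left hM0, fun n j => (key n j).trans (max_le_max (hM n j) (hN n j))⟩,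
    fun ε hε => ?_, fun ε hε J => ?_⟩
  · obtain ⟨J, hJ⟩ := hg.low ε hε
    obtain ⟨J', hJ'⟩ := hh.low ε hε
    refine ⟨min J J', fun n j hj => lt_of_le_of_lt (key n j) (max_lt (hJ n j ?_) (hJ' n j ?_))⟩
    · exact lt_of_lt_of_le hj (min_le_left _ _)
    · exact lt_of_lt_of_le hj (min_le_right _ _)
  · refine ((hg.fin ε hε J).union (hh.fin ε hε J)).subset ?_
    rintro n ⟨j, hj, hn⟩
    rcases le_max_iff.1 (hn.trans (key n j)) with h1 | h1
    · exact Or.inl ⟨j, hj, h1⟩
    · exact Or.inr ⟨j, hj, h1⟩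

theorem Adm.neg {g : EE k C} (hg : Adm f g) : Adm f (-g) := by
  have key : ∀ n j, ‖(-g).co n * pc f n j‖ = ‖g.co n * pc f n j‖ := by
    intro n j
    rw [co_neg, neg_mul, norm_neg]
  exact ⟨hg.ne, by simpa only [key] using hg.bd, by simpa only [key] using hg.low,
    by simpa only [key] using hg.fin⟩

theorem co'_add {g h : EE k C} (hg : Adm f g) (hh : Adm f h) :
    co' f (g + h) = co' f g + co' f h := by
  ext j
  rw [co_add]
  refine ((hg.add hh).hasSum j).unique (((hg.hasSum j).add (hh.hasSum j)).congr_fun fun n => ?_)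
  rw [co_add, add_mul]

theorem co'_neg {g : EE k C} (hg : Adm f g) : co' f (-g) = -co' f g := by
  ext j
  rw [co_neg]
  refine (hg.neg.hasSum j).unique ((hg.hasSum j).neg.congr_fun fun n => ?_)
  rw [co_neg, neg_mul]

theorem Adm.mono (hf : f ≠ 0) (n : ℤ) (c : C) (hc : FinDef k (fun _ : Unit => c)) : Adm f (mono n c hc) := by
  have key : ∀ i j, (EE809.mono n c hc : EE k C).co i * pc f i j = if i = n then c * pc f n j else 0 := by
    intro i j
    rw [co_mono]
    split_ifs with h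
    · rw [h]
    · rw [zero_mul]
  obtain ⟨M, hM0, hM⟩ := (f ^ n).bd'
  refine ⟨hf, ⟨(‖c‖ + 1) * M, by positivity, fun i j => ?_⟩, fun ε hε => ?_, fun ε hε J => ?_⟩
  · rw [key]
    split_ifs
    · rw [norm_mul]
      exact mul_le_mul (by linarith) (hM j) (norm_nonneg _) (by positivity)
    · rw [norm_zero]; positivity
  · obtain ⟨K, hK, h1⟩ := (f ^ n).small (ε := ε / (‖c‖ + 1)) (by positivity)
    refine ⟨-K, fun i j hj => ?_⟩
    rw [key]
    split_ifs
    · rw [norm_mul]
      have h2 := h1 j hj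
      rw [lt_div_iff₀ (by positivity)] at h2
      change ‖pc f n j‖ * (‖c‖ + 1) < ε at h2
      nlinarith [norm_nonneg (pc f n j), norm_nonneg c]
    · rw [norm_zero]; exact hε
  · refine (Set.finite_singleton n).subset ?_
    rintro i ⟨j, -, hi⟩
    rw [key] at hi
    by_contra hne
    rw [if_neg (show ¬ i = n from hne), norm_zero] at hi
    exact absurd hi (not_le.2 hε)

theorem co'_mono (hf : f ≠ 0) (n : ℤ) (c : C) (hc : FinDef k (fun _ : Unit => c)) :
    co' f (mono n c hc) = EE809.mono 0 c hc * (f ^ n) := by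
  ext j
  rw [(Adm.mono hf n c hc).co_co', co_mono_mul, tsum_eq_single n, co_mono, if_pos rfl, sub_zero]
  · rfl
  · intro i hi
    rw [co_mono, if_neg hi, zero_mul]

theorem Adm.one (hf : f ≠ 0) : Adm f (1 : EE k C) := by
  rw [one_def]; exact Adm.mono hf _ _ _

theorem Adm.zero (hf : f ≠ 0) : Adm f (0 : EE k C) := by
  have h := (Adm.one hf).add (Adm.one hf).neg
  rwa [add_neg_cancel] at h

theorem co'_one (hf : f ≠ 0) : co' f (1 : EE k C) = 1 := by
  rw [one_def, co'_mono hf, zpow_zero, mul_one]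

theorem co'_zero (hf : f ≠ 0) : co' f (0 : EE k C) = 0 := by
  have h := co'_add (Adm.zero hf) (Adm.zero hf)
  rw [add_zero] at h
  exact left_eq_add.1 h

/-! ### multiplicativity -/

theorem tendsto_triple' {g h : EE k C} (hg : Adm f g) (hh : Adm f h) (j : ℤ) :
    Tendsto (fun p : ℤ × ℤ × ℤ => (g.co p.2.1 * pc f p.2.1 p.1) * (h.co p.2.2 * pc f p.2.2 (j - p.1)))
      cofinite (𝓝 0) := by
  obtain ⟨M, hM0, hM⟩ := hg.bd
  obtain ⟨N, hN0, hN⟩ := hh.bd
  rw [Metric.tendsto_nhds]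
  intro ε hε
  obtain ⟨J, hJ⟩ := hg.low (ε / N) (by positivity)
  obtain ⟨J', hJ'⟩ := hh.low (ε / M) (by positivity)
  have F1 := hg.fin (ε / N) (by positivity) (j - J')
  have F2 := hh.fin (ε / M) (by positivity) (j - J)
  rw [eventually_cofinite]
  refine ((Set.finite_Icc J (j - J')).prod (F1.prod F2)).subset ?_
  rintro ⟨i, a, b⟩ hi
  simp only [dist_zero_right, norm_mul (g.co a * pc f a i), not_lt, Set.mem_ofPred_eq] at hi
  have h1 : ε / N ≤ ‖g.co a * pc f a i‖ := by
    rw [div_le_iff₀ hN0]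
    exact hi.trans (mul_le_mul_of_nonneg_left (hN _ _) (norm_nonneg _))
  have h2 : ε / M ≤ ‖h.co b * pc f b (j - i)‖ := by
    rw [div_le_iff₀ hM0, mul_comm]
    exact hi.trans (mul_le_mul_of_nonneg_right (hM _ _) (norm_nonneg _))
  have h3 : J ≤ i := by
    by_contra hc
    exact absurd (hJ a i (not_le.1 hc)) (not_lt.2 h1)
  have h4 : J' ≤ j - i := by
    by_contra hc
    exact absurd (hJ' b (j - i) (not_le.1 hc)) (not_lt.2 h2)
  exact ⟨⟨h3, show i ≤ j - J' by omega⟩, ⟨i, show i ≤ j - J' by omega, h1⟩,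
    ⟨j - i, show j - i ≤ j - J by omega, h2⟩⟩

theorem summable_triple' {g h : EE k C} (hg : Adm f g) (hh : Adm f h) (j : ℤ) :
    Summable (fun p : ℤ × ℤ × ℤ =>
      (g.co p.2.1 * pc f p.2.1 p.1) * (h.co p.2.2 * pc f p.2.2 (j - p.1))) := by
  obtain ⟨L, hL, h1, h2⟩ := exists_L2 f g
  obtain ⟨L', hL', h3⟩ := h.exists_inL
  have : FiniteDimensional k (L ⊔ L' : IntermediateField k C) :=
    IntermediateField.finiteDimensional_sup L L'
  exact summable_of (L ⊔ L') (fun p => mul_mem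
    (mul_mem ((le_sup_left : L ≤ L ⊔ L') (h1 _)) ((le_sup_left : L ≤ L ⊔ L') (h2 _ _)))
    (mul_mem ((le_sup_right : L' ≤ L ⊔ L') (h3 _)) ((le_sup_left : L ≤ L ⊔ L') (h2 _ _))))
    (tendsto_triple' hg hh j)

theorem hasSum_prod_aux {g h : EE k C} (hg : Adm f g) (hh : Adm f h) (j i : ℤ) :
    HasSum (fun q : ℤ × ℤ => (g.co q.1 * pc f q.1 i) * (h.co q.2 * pc f q.2 (j - i)))
      ((co' f g).co i * (co' f h).co (j - i)) :=
  hasSum_mul_aux (a := fun n => g.co n * pc f n i) (b := fun n => h.co n * pc f n (j - i))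
    (hg.hasSum i) (hh.hasSum (j - i))

/-- the sum over all pairs -/
theorem hasSum_pairs {g h : EE k C} (hg : Adm f g) (hh : Adm f h) (j : ℤ) :
    HasSum (fun q : ℤ × ℤ => g.co q.1 * h.co q.2 * pc f (q.1 + q.2) j)
      ((co' f g * co' f h).co j) := by
  obtain ⟨s, hs⟩ := summable_triple' hg hh j
  have h1 : HasSum (fun i => (co' f g).co i * (co' f h).co (j - i)) s :=
    hasSum_fib hs (hasSum_prod_aux hg hh j)
  have h2 : (co' f g * co' f h).co j = s := h1.tsum_eq
  rw [h2]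
  refine hasSum_swap hs fun q => ?_
  have h3 := (hasSum_pc hg.ne q.1 q.2 j).mul_left (g.co q.1 * h.co q.2)
  refine h3.congr_fun fun i => ?_
  ring

theorem Adm.mul {g h : EE k C} (hg : Adm f g) (hh : Adm f h) : Adm f (g * h) := by
  obtain ⟨M, hM0, hM⟩ := hg.bd
  obtain ⟨N, hN0, hN⟩ := hh.bd
  -- single products
  have t1 : ∀ a b j : ℤ, ∀ B : ℝ, 0 ≤ B →
      (∀ i, ‖(g.co a * pc f a i) * (h.co b * pc f b (j - i))‖ ≤ B) →
      ‖g.co a * h.co b * pc f (a + b) j‖ ≤ B := by
    intro a b j B hB hi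
    rw [pc_add hg.ne, ← tsum_mul_left]
    refine IsUltrametricDist.norm_tsum_le_of_forall_le_of_nonneg hB fun i => ?_
    have h1 := hi i
    rwa [show g.co a * pc f a i * (h.co b * pc f b (j - i))
      = g.co a * h.co b * (pc f a i * pc f b (j - i)) by ring] at h1
  have t2 : ∀ n j : ℤ, ∀ B : ℝ, 0 ≤ B → (∀ a, ‖g.co a * h.co (n - a) * pc f n j‖ ≤ B) →
      ‖(g * h).co n * pc f n j‖ ≤ B := by
    intro n j B hB hi
    rw [co_mul, ← tsum_mul_right]
    exact IsUltrametricDist.norm_tsum_le_of_forall_le_of_nonneg hB hi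
  have t3 : ∀ a b j : ℤ, ‖g.co a * h.co b * pc f (a + b) j‖ ≤ M * N := fun a b j =>
    t1 a b j _ (by positivity) fun i => by
      rw [norm_mul]; exact mul_le_mul (hM _ _) (hN _ _) (norm_nonneg _) hM0.le
  refine ⟨hg.ne, ⟨M * N, by positivity, fun n j => t2 n j _ (by positivity) fun a => ?_⟩,
    fun ε hε => ?_, fun ε hε J => ?_⟩
  · have := t3 a (n - a) j
    rwa [add_sub_cancel] at this
  · obtain ⟨J, hJ⟩ := hg.low (ε / 2 / N) (by positivity)
    obtain ⟨J', hJ'⟩ := hh.low (ε / 2 / M) (by positivity)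
    refine ⟨J + J', fun n j hj => lt_of_le_of_lt (b := ε / 2)
      (t2 n j _ (by positivity) fun a => ?_) (by linarith)⟩
    have h1 := t1 a (n - a) j (ε / 2) (by positivity) fun i => by
      rw [norm_mul]
      by_cases hi : i < J
      · calc _ ≤ ε / 2 / N * N := mul_le_mul (hJ a i hi).le (hN _ _) (norm_nonneg _) (by positivity)
          _ = ε / 2 := by field_simp
      · calc _ ≤ M * (ε / 2 / M) := mul_le_mul (hM _ _) (hJ' _ _ (by omega)).le (norm_nonneg _)
              (by positivity)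
          _ = ε / 2 := by field_simp
    rwa [add_sub_cancel] at h1
  · -- finitely many `n`
    obtain ⟨J1, hJ1⟩ := hg.low (ε / 2 / N) (by positivity)
    obtain ⟨J2, hJ2⟩ := hh.low (ε / 2 / M) (by positivity)
    have F1 := hg.fin (ε / 2 / N) (by positivity) (J - J2)
    have F2 := hh.fin (ε / 2 / M) (by positivity) (J - J1)
    refine ((F1.prod F2).image fun q : ℤ × ℤ => q.1 + q.2).subset ?_
    rintro n ⟨j, hj, hn⟩
    by_contra hc
    have h2 : ‖(g * h).co n * pc f n j‖ ≤ ε / 2 := t2 n j _ (by positivity) fun a => by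
      have h1 := t1 a (n - a) j (ε / 2) (by positivity) fun i => by
        by_contra hlt
        rw [not_le, norm_mul] at hlt
        have h3 : ε / 2 / N ≤ ‖g.co a * pc f a i‖ := by
          rw [div_le_iff₀ hN0]
          exact hlt.le.trans (mul_le_mul_of_nonneg_left (hN _ _) (norm_nonneg _))
        have h4 : ε / 2 / M ≤ ‖h.co (n - a) * pc f (n - a) (j - i)‖ := by
          rw [div_le_iff₀ hM0, mul_comm]
          exact hlt.le.trans (mul_le_mul_of_nonneg_right (hM _ _) (norm_nonneg _))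
        have h5 : J1 ≤ i := by
          by_contra hc'
          exact absurd (hJ1 a i (not_le.1 hc')) (not_lt.2 h3)
        have h6 : J2 ≤ j - i := by
          by_contra hc'
          exact absurd (hJ2 _ (j - i) (not_le.1 hc')) (not_lt.2 h4)
        exact hc ⟨(a, n - a), ⟨⟨i, by omega, h3⟩, ⟨j - i, by omega, h4⟩⟩, by simp⟩
      rwa [add_sub_cancel] at h1
    linarith

theorem co'_mul {g h : EE k C} (hg : Adm f g) (hh : Adm f h) :
    co' f (g * h) = co' f g * co' f h := by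
  ext j
  have h1 := hasSum_pairs hg hh j
  rw [← (shearEquiv.symm).hasSum_iff] at h1
  have h2 : HasSum (fun n => (g * h).co n * pc f n j) ((co' f g * co' f h).co j) := by
    refine hasSum_fib h1 fun n => ?_
    have h3 : HasSum (fun a => g.co a * h.co (n - a)) ((g * h).co n) := (summable_conv g h n).hasSum
    refine (h3.mul_right (pc f n j)).congr_fun fun a => ?_
    simp only [Function.comp_apply, shearEquiv, Equiv.coe_fn_symm_mk]
    rw [add_sub_cancel]
  exact ((hg.mul hh).hasSum j).unique h2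

end Crest.Agent.R013.CAn_243
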