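import Crest.Agent.R013.CAn1_243
import Crest.Agent.R013.Pow1_931

/-!
# Row 13, leaf COMP-AN (helper243), file 2: `compE f : EE k C →ₐ[C] EE k C`, `T ↦ f`, for
`f = T^m u`, `m ≥ 1`, `|u_0| = 1`, `|u_n| ≤ 1`, `|u_n| < 1` for `n < 0`
-/

set_option autoImplicit false
set_option linter.unusedSectionVars false
open Filter Topology
open Crest.Agent.R013.Cell_408 (FinDef DiscNorm exists_max BD)
open Crest.Agent.R013.EE809
open Crest.Agent.R013.Pow1_931 (Pos fac exists_inv_pos)

namespace Crest.Agent.R013.CAn_243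

variable {k : Type*} [NontriviallyNormedField k] [CompleteSpace k]
variable {C : Type*} [NormedField C] [IsUltrametricDist C] [NormedAlgebra k C]

theorem co_nsmul (n : ℕ) (a : EE k C) (j : ℤ) : ((n : EE k C) * a).co j = (n : C) * a.co j := by
  induction n with
  | zero => rw [Nat.cast_zero, Nat.cast_zero, zero_mul, zero_mul, co_zero]
  | succ n ih => rw [Nat.cast_succ, Nat.cast_succ, add_mul, add_mul, co_add, ih, one_mul, one_mul]

theorem co_finset_sum {ι : Type*} (s : Finset ι) (f : ι → EE k C) (j : ℤ) :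
    (∑ i ∈ s, f i).co j = ∑ i ∈ s, (f i).co j := by
  classical
  induction s using Finset.induction_on with
  | empty => rw [Finset.sum_empty, Finset.sum_empty, co_zero]
  | insert i s hi ih => rw [Finset.sum_insert hi, Finset.sum_insert hi, co_add, ih]

/-- uniform smallness of the powers of `1 + x`, `gn x < 1` -/
theorem one_add_pow_small {x : EE k C} (hx : gn x < 1) {ε : ℝ} (hε : 0 < ε) :
    ∃ K : ℤ, 0 ≤ K ∧ ∀ n : ℕ, ∀ l : ℤ, l < -K → ‖((1 + x) ^ n).co l‖ < ε := by
  obtain ⟨I, hI⟩ := exists_pow_lt_of_lt_one (x := ε / 2) (y := gn x) (by positivity) hx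
  have h1 : ∀ i : ℕ, ∃ K : ℤ, 0 ≤ K ∧ ∀ n, n < -K → ‖(x ^ i).co n‖ < ε / 2 :=
    fun i => (x ^ i).small (by positivity)
  choose K hK0 hK using h1
  have hsum : 0 ≤ ∑ i ∈ Finset.range I, K i := Finset.sum_nonneg fun i _ => hK0 i
  refine ⟨∑ i ∈ Finset.range I, K i, hsum, fun n l hl => ?_⟩
  refine lt_of_le_of_lt (b := ε / 2) ?_ (by linarith)
  rw [add_comm, add_pow, co_finset_sum]
  refine IsUltrametricDist.norm_sum_le_of_forall_le_of_nonneg (by positivity) fun i _ => ?_
  rw [one_pow, mul_one, mul_comm, co_nsmul, norm_mul]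
  have h2 : ‖((n.choose i : ℕ) : C)‖ ≤ 1 := IsUltrametricDist.norm_natCast_le_one C _
  refine (mul_le_of_le_one_left (norm_nonneg _) h2).trans ?_
  by_cases hi : i < I
  · have h3 : K i ≤ ∑ i ∈ Finset.range I, K i :=
      Finset.single_le_sum (fun i _ => hK0 i) (Finset.mem_range.2 hi)
    exact (hK i l (by omega)).le
  · refine (le_gn _ _).trans ((gn_pow_le x i).trans ?_)
    exact (pow_le_pow_of_le_one (gn_nonneg x) hx.le (not_lt.1 hi)).trans hI.le

variable [Algebra.IsAlgebraic k C] [IsUltrametricDist k] [IsAlgClosed C] [hk : Fact (DiscNorm k)]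

theorem one_add_zpow_small {x : EE k C} (hx : gn x < 1) {ε : ℝ} (hε : 0 < ε) :
    ∃ K : ℤ, 0 ≤ K ∧ ∀ n : ℤ, ∀ l : ℤ, l < -K → ‖((1 + x) ^ n).co l‖ < ε := by
  obtain ⟨L, hL, hxL⟩ := x.exists_inL
  obtain ⟨y, -, hy1, hy2⟩ := exists_inv_one_sub (x := -x) L hxL.neg (by rwa [gn_neg])
  rw [gn_neg] at hy2
  rw [sub_neg_eq_add] at hy1
  obtain ⟨K, hK0, hK⟩ := one_add_pow_small hx hε
  obtain ⟨K', hK0', hK'⟩ := one_add_pow_small (x := y - 1) (hy2.trans_lt hx) hε
  rw [add_sub_cancel] at hK'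
  refine ⟨max K K', le_max_of_le_left hK0, fun n l hl => ?_⟩
  have h1 : l < -K := by have := le_max_left K K'; omega
  have h2 : l < -K' := by have := le_max_right K K'; omega
  cases n with
  | ofNat n =>
    rw [Int.ofNat_eq_natCast, zpow_natCast]
    exact hK n l h1
  | negSucc n =>
    rw [zpow_negSucc, ← inv_pow, ← eq_inv_of_mul_eq_one_right hy1]
    exact hK' _ l h2

theorem Pos.zpow {a : EE k C} (ha : Pos a) (h1 : gn a ≤ 1) (h0 : ‖a.co 0‖ = 1) (n : ℤ) :
    Pos (a ^ n) := by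
  obtain ⟨b, hb, -, -, hab⟩ := exists_inv_pos ha h1 h0
  cases n with
  | ofNat n =>
    rw [Int.ofNat_eq_natCast, zpow_natCast]
    exact ha.pow n
  | negSucc n =>
    rw [zpow_negSucc, ← inv_pow, ← eq_inv_of_mul_eq_one_right hab]
    exact hb.pow _

/-- **Uniform smallness** of all integer powers. -/
theorem zpow_small {u : EE k C} (h1 : gn u ≤ 1) (h0 : ‖u.co 0‖ = 1)
    (hn : ∀ n : ℤ, n < 0 → ‖u.co n‖ < 1) {ε : ℝ} (hε : 0 < ε) :
    ∃ K : ℤ, 0 ≤ K ∧ ∀ n : ℤ, ∀ l : ℤ, l < -K → ‖(u ^ n).co l‖ < ε := by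
  obtain ⟨a, b, hab, ha, ha1, ha0, -, -, hb⟩ := fac h1 h0 hn
  obtain ⟨K, hK0, hK⟩ := one_add_zpow_small hb (ε := ε / 2) (by positivity)
  rw [add_sub_cancel] at hK
  have hga : gn a = 1 := le_antisymm ha1 (by rw [← ha0]; exact le_gn a 0)
  refine ⟨K, hK0, fun n l hl => ?_⟩
  refine lt_of_le_of_lt (b := ε / 2) ?_ (by linarith)
  rw [hab, mul_zpow, co_mul]
  refine IsUltrametricDist.norm_tsum_le_of_forall_le_of_nonneg (by positivity) fun i => ?_
  rcases lt_or_ge i 0 with hi | hi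
  · rw [Pos.zpow ha ha1 ha0 n i hi, zero_mul, norm_zero]; positivity
  · rw [norm_mul]
    have h2 : ‖(a ^ n).co i‖ ≤ 1 := by
      have := le_gn (a ^ n) i
      rwa [gn_zpow, hga, one_zpow] at this
    calc ‖(a ^ n).co i‖ * ‖(b ^ n).co (l - i)‖ ≤ 1 * (ε / 2) :=
          mul_le_mul h2 (hK n (l - i) (by omega)).le (norm_nonneg _) zero_le_one
      _ = ε / 2 := one_mul _

/-- `f = T^m u` with `|u_0| = 1`, `|u_n| ≤ 1`, `|u_n| < 1` for `n < 0` -/
structure WE (f : EE k C) (m : ℕ) : Prop where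
  le : ∀ n, ‖f.co n‖ ≤ 1
  one : ‖f.co m‖ = 1
  lt : ∀ n : ℤ, n < m → ‖f.co n‖ < 1

theorem WE.gn {f : EE k C} {m : ℕ} (h : WE f m) : gn f = 1 :=
  le_antisymm (gn_le h.le) (by rw [← h.one]; exact le_gn f _)

theorem WE.od {f : EE k C} {m : ℕ} (h : WE f m) : od f = m :=
  od_eq_of (by rw [h.gn]; exact h.one) (by rw [h.gn]; exact h.lt)

theorem WE.ne_zero {f : EE k C} {m : ℕ} (h : WE f m) : f ≠ 0 := by
  intro h0
  have := h.gn
  rw [h0, gn_zero] at this
  exact zero_ne_one this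

theorem WE.of {f : EE k C} {m : ℕ} (h : EE809.gn f = 1) (h' : EE809.od f = m) : WE f m := by
  have h0 : f ≠ 0 := by
    intro h0
    rw [h0, gn_zero] at h
    exact zero_ne_one h
  refine ⟨fun n => h ▸ le_gn f n, ?_, fun n hn => ?_⟩
  · rw [← h', norm_co_od hk.out h0, h]
  · rw [← h]; exact norm_lt_of_lt_od h0 (by rw [h']; exact hn)

/-- the unit part -/
theorem unit_eq (f : EE k C) (m : ℕ) : f = T m * (T (-m) * f) := by
  rw [← mul_assoc, T_mul_T, add_neg_cancel, T_zero, one_mul]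

theorem pc_eq (f : EE k C) (m : ℕ) (n j : ℤ) :
    pc f n j = ((T (-m) * f) ^ n).co (j - m * n) := by
  have h1 : f ^ n = T (m * n) * (T (-m) * f) ^ n := by
    conv_lhs => rw [unit_eq f m, mul_zpow, T_eq_zpow, ← zpow_mul, ← T_eq_zpow]
  rw [pc, h1, co_T_mul]

theorem co_unit {f : EE k C} {m : ℕ} (n : ℤ) : (T (-m) * f).co n = f.co (n + m) := by
  rw [co_T_mul, sub_neg_eq_add]

theorem WE.pc_small {f : EE k C} {m : ℕ} (h : WE f m) {ε : ℝ} (hε : 0 < ε) :
    ∃ K : ℤ, 0 ≤ K ∧ ∀ n j : ℤ, j < m * n - K → ‖pc f n j‖ < ε := by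
  obtain ⟨K, hK0, hK⟩ := zpow_small (u := T (-m) * f)
    (gn_le fun n => by rw [co_unit]; exact h.le _)
    (by rw [co_unit, zero_add]; exact h.one)
    (fun n hn => by rw [co_unit]; exact h.lt _ (by omega)) hε
  refine ⟨K, hK0, fun n j hj => ?_⟩
  rw [pc_eq f m]
  exact hK n _ (by omega)

theorem WE.pc_le {f : EE k C} {m : ℕ} (h : WE f m) (n j : ℤ) : ‖pc f n j‖ ≤ 1 := by
  have := le_gn (f ^ n) j
  rwa [gn_zpow, h.gn, one_zpow] at this

theorem WE.od_zpow {f : EE k C} {m : ℕ} (h : WE f m) (n : ℤ) : EE809.od (f ^ n) = m * n := by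
  cases n with
  | ofNat n =>
    rw [Int.ofNat_eq_natCast, zpow_natCast, od_pow h.ne_zero, h.od]; ring
  | negSucc n =>
    rw [zpow_negSucc, od_inv (pow_ne_zero _ h.ne_zero), od_pow h.ne_zero, h.od, Int.negSucc_eq]
    push_cast; ring

theorem WE.gn_zpow {f : EE k C} {m : ℕ} (h : WE f m) (n : ℤ) : EE809.gn (f ^ n) = 1 := by
  rw [EE809.gn_zpow, h.gn, one_zpow]

theorem WE.pc_one {f : EE k C} {m : ℕ} (h : WE f m) (n : ℤ) : ‖pc f n (m * n)‖ = 1 := by
  have h1 := norm_co_od hk.out (zpow_ne_zero n h.ne_zero)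
  rwa [h.od_zpow, h.gn_zpow] at h1

theorem WE.pc_lt {f : EE k C} {m : ℕ} (h : WE f m) {n j : ℤ} (hj : j < m * n) : ‖pc f n j‖ < 1 := by
  have h1 := norm_lt_of_lt_od (zpow_ne_zero n h.ne_zero) (n := j) (by rw [h.od_zpow]; exact hj)
  rwa [h.gn_zpow] at h1

/-- every `g` is admissible -/
theorem WE.adm {f : EE k C} {m : ℕ} (h : WE f m) (hm : m ≠ 0) (g : EE k C) : Adm f g := by
  obtain ⟨G, hG0, hG⟩ := g.bd'
  refine ⟨h.ne_zero, ⟨G, hG0, fun n j => ?_⟩, fun ε hε => ?_, fun ε hε J => ?_⟩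
  · rw [norm_mul]
    calc ‖g.co n‖ * ‖pc f n j‖ ≤ G * 1 := mul_le_mul (hG n) (h.pc_le n j) (norm_nonneg _) hG0.le
      _ = G := mul_one _
  · obtain ⟨N, hN0, hN⟩ := g.small hε
    obtain ⟨K, hK0, hK⟩ := h.pc_small (ε := ε / G) (by positivity)
    refine ⟨-(m * N) - K, fun n j hj => ?_⟩
    rw [norm_mul]
    by_cases hn : n < -N
    · exact lt_of_le_of_lt (mul_le_of_le_one_right (norm_nonneg _) (h.pc_le n j)) (hN n hn)
    · have h1 : (m : ℤ) * (-N) ≤ m * n := mul_le_mul_of_nonneg_left (by omega) (by positivity)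
      have h2 := hK n j (by rw [mul_neg] at h1; omega)
      calc ‖g.co n‖ * ‖pc f n j‖ ≤ G * ‖pc f n j‖ := mul_le_mul_of_nonneg_right (hG n) (norm_nonneg _)
        _ < G * (ε / G) := mul_lt_mul_of_pos_left h2 hG0
        _ = ε := by field_simp
  · obtain ⟨N, hN0, hN⟩ := g.small hε
    obtain ⟨K, hK0, hK⟩ := h.pc_small (ε := ε / G) (by positivity)
    refine (Set.finite_Icc (-N) (|J| + K)).subset ?_
    rintro n ⟨j, hj, hn⟩
    rw [norm_mul] at hn
    rw [Set.mem_Icc]
    constructor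
    · by_contra hlt
      have h1 := hN n (by omega)
      have h2 := mul_le_of_le_one_right (norm_nonneg (g.co n)) (h.pc_le n j)
      linarith
    · by_contra hlt
      have hJ := le_abs_self J
      have hJ0 := abs_nonneg J
      have h3 : n ≤ m * n := by
        have : (1 : ℤ) ≤ m := by exact_mod_cast Nat.one_le_iff_ne_zero.2 hm
        nlinarith
      have h2 := hK n j (by omega)
      have : ‖g.co n‖ * ‖pc f n j‖ < ε :=
        calc ‖g.co n‖ * ‖pc f n j‖ ≤ G * ‖pc f n j‖ := mul_le_mul_of_nonneg_right (hG n) (norm_nonneg _)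
          _ < G * (ε / G) := mul_lt_mul_of_pos_left h2 hG0
          _ = ε := by field_simp
      linarith

/-- **Composition** `g ↦ g ∘ f` on the field `EE k C`. -/
noncomputable def compE (f : EE k C) {m : ℕ} (h : WE f m) (hm : m ≠ 0) : EE k C →ₐ[C] EE k C where
  toFun := co' f
  map_one' := co'_one h.ne_zero
  map_mul' a b := co'_mul (h.adm hm a) (h.adm hm b)
  map_zero' := co'_zero h.ne_zero
  map_add' a b := co'_add (h.adm hm a) (h.adm hm b)
  commutes' c := by
    rw [algebraMap_eq]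
    show co' f (mono 0 c _) = mono 0 c _
    rw [co'_mono h.ne_zero, zpow_zero, mul_one]

variable {f : EE k C} {m : ℕ} (h : WE f m) (hm : m ≠ 0)

theorem compE_apply (g : EE k C) : compE f h hm g = co' f g := rfl

theorem co_compE (g : EE k C) (j : ℤ) : (compE f h hm g).co j = ∑' n, g.co n * (f ^ n).co j :=
  (h.adm hm g).co_co' j

theorem hasSum_compE (g : EE k C) (j : ℤ) :
    HasSum (fun n => g.co n * (f ^ n).co j) ((compE f h hm g).co j) :=
  (h.adm hm g).hasSum j

theorem compE_mo (n : ℤ) (c : C) : compE f h hm (mo n c) = algebraMap C (EE k C) c * f ^ n := by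
  rw [mo_eq, map_mul, AlgHom.commutes]
  congr 1
  rw [compE_apply]
  show co' f (mono n 1 (finDef_const 1)) = _
  rw [co'_mono h.ne_zero n 1 (finDef_const 1)]
  exact one_mul _

@[simp] theorem compE_T (n : ℤ) : compE f h hm (T n) = f ^ n := by
  rw [T, compE_mo, map_one, one_mul]

theorem compE_T_one : compE f h hm (T 1) = f := by rw [compE_T, zpow_one]

theorem compE_lead (g : EE k C) (hg : g ≠ 0) :
    ‖(compE f h hm g).co (m * od g)‖ = gn g ∧ ∀ j < m * od g, ‖(compE f h hm g).co j‖ < gn g := by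
  have hG : 0 < gn g := gn_pos hg
  have hm' : (0 : ℤ) < m := by exact_mod_cast Nat.pos_of_ne_zero hm
  have hlt : ∀ n j : ℤ, (n < od g ∨ j < m * n) → ‖g.co n * pc f n j‖ < gn g := by
    intro n j hh
    rw [norm_mul]
    rcases hh with hh | hh
    · exact lt_of_le_of_lt (mul_le_of_le_one_right (norm_nonneg _) (h.pc_le n j))
        (norm_lt_of_lt_od hg hh)
    · rcases eq_or_lt_of_le (norm_nonneg (g.co n)) with h0 | h0
      · rw [← h0, zero_mul]; exact hG
      · calc ‖g.co n‖ * ‖pc f n j‖ < ‖g.co n‖ * 1 := mul_lt_mul_of_pos_left (h.pc_lt hh) h0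
          _ ≤ gn g := by rw [mul_one]; exact le_gn g n
  have ht := fun j => (h.adm hm g).tendsto j
  constructor
  · have hs := (h.adm hm g).summable (m * od g)
    rw [co_compE]
    change ‖∑' n, g.co n * pc f n (m * od g)‖ = gn g
    rw [hs.tsum_eq_add_tsum_ite (od g)]
    have h1 : ‖g.co (od g) * pc f (od g) (m * od g)‖ = gn g := by
      rw [norm_mul, h.pc_one, mul_one, norm_co_od hk.out hg]
    have h2 : ‖∑' n, (if n = od g then 0 else g.co n * pc f n (m * od g))‖ < gn g := by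
      refine norm_tsum_lt hG ?_ fun i => ?_
      · refine (ht (m * od g)).congr' ?_
        rw [EventuallyEq, eventually_cofinite]
        refine (Set.finite_singleton (od g)).subset fun i hi => ?_
        by_contra hne
        apply hi
        rw [if_neg (show ¬ i = od g from hne)]
      · by_cases hi : i = od g
        · rw [if_pos hi, norm_zero]; exact hG
        · rw [if_neg hi]
          refine hlt _ _ ?_
          rcases lt_or_gt_of_ne hi with h3 | h3
          · exact Or.inl h3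
          · exact Or.inr (mul_lt_mul_of_pos_left h3 hm')
    rw [add_comm, IsUltrametricDist.norm_add_eq_max_of_norm_ne_norm (by rw [h1]; exact h2.ne), h1,
      max_eq_right h2.le]
  · intro j hj
    rw [co_compE]
    refine norm_tsum_lt hG (ht j) fun i => hlt _ _ ?_
    rcases lt_or_ge i (od g) with h3 | h3
    · exact Or.inl h3
    · exact Or.inr (lt_of_lt_of_le hj (mul_le_mul_of_nonneg_left h3 hm'.le))

@[simp] theorem gn_compE (g : EE k C) : gn (compE f h hm g) = gn g := by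
  by_cases hg : g = 0
  · rw [hg, map_zero]
  refine le_antisymm (gn_le fun j => ?_) ?_
  · rw [co_compE]
    refine IsUltrametricDist.norm_tsum_le_of_forall_le_of_nonneg (gn_nonneg g) fun n => ?_
    rw [norm_mul]
    exact (mul_le_of_le_one_right (norm_nonneg _) (h.pc_le n j)).trans (le_gn g n)
  · rw [← (compE_lead h hm g hg).1]
    exact le_gn _ _

theorem compE_injective : Function.Injective (compE f h hm) := (compE f h hm).toRingHom.injective

theorem compE_ne_zero {g : EE k C} (hg : g ≠ 0) : compE f h hm g ≠ 0 :=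
  (map_ne_zero_iff _ (compE_injective h hm)).2 hg

@[simp] theorem od_compE (g : EE k C) : od (compE f h hm g) = m * od g := by
  by_cases hg : g = 0
  · rw [hg, map_zero]
    have h0 : od (0 : EE k C) = 0 := by
      unfold od
      have : {n : ℤ | ‖(0 : EE k C).co n‖ = gn (0 : EE k C)} = Set.univ := by
        ext n; simp
      rw [this, csInf_of_not_bddBelow (not_bddBelow_univ (α := ℤ))]
      exact Int.csInf_empty
    rw [h0, mul_zero]
  exact od_eq_of (by rw [gn_compE]; exact (compE_lead h hm g hg).1)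
    (by rw [gn_compE]; exact (compE_lead h hm g hg).2)

theorem WE.compE {g : EE k C} {s : ℕ} (hg : WE g s) : WE (compE f h hm g) (m * s) :=
  WE.of (by rw [gn_compE, hg.gn]) (by rw [od_compE, hg.od]; push_cast; rfl)

theorem WE.T {n : ℕ} : WE (T n : EE k C) n :=
  WE.of (by rw [EE809.T, gn_mo, norm_one]) (by rw [EE809.T, mo, od_mono _ _ one_ne_zero])

/-! ### composition of compositions -/

include h hm in
theorem tendsto_double {g : EE k C} {s : ℕ} (hg : WE g s) (hs : s ≠ 0) (x : EE k C) (j : ℤ) :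
    Tendsto (fun p : ℤ × ℤ => x.co p.2 * pc g p.2 p.1 * pc f p.1 j) cofinite (𝓝 0) := by
  obtain ⟨X, hX0, hX⟩ := (hg.adm hs x).bd
  rw [Metric.tendsto_nhds]
  intro ε hε
  obtain ⟨J, hJ⟩ := (hg.adm hs x).low ε hε
  obtain ⟨K, hK0, hK⟩ := h.pc_small (ε := ε / X) (by positivity)
  have F := (hg.adm hs x).fin ε hε (|j| + K)
  rw [eventually_cofinite]
  refine ((Set.finite_Icc J (|j| + K)).prod F).subset ?_
  rintro ⟨i, n⟩ hi
  simp only [dist_zero_right, not_lt, Set.mem_ofPred_eq, norm_mul (x.co n * pc g n i)] at hi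
  have h1 : ε ≤ ‖x.co n * pc g n i‖ :=
    hi.trans (mul_le_of_le_one_right (norm_nonneg _) (h.pc_le i j))
  have h2 : J ≤ i := by
    by_contra hc
    exact absurd (hJ n i (not_le.1 hc)) (not_lt.2 h1)
  have h3 : i ≤ |j| + K := by
    by_contra hc
    have hJ := le_abs_self j
    have hJ0 := abs_nonneg j
    have h3 : i ≤ m * i := by
      have : (1 : ℤ) ≤ m := by exact_mod_cast Nat.one_le_iff_ne_zero.2 hm
      nlinarith
    have h4 := hK i j (by omega)
    have : ‖x.co n * pc g n i‖ * ‖pc f i j‖ < ε :=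
      calc ‖x.co n * pc g n i‖ * ‖pc f i j‖ ≤ X * ‖pc f i j‖ :=
            mul_le_mul_of_nonneg_right (hX n i) (norm_nonneg _)
        _ < X * (ε / X) := mul_lt_mul_of_pos_left h4 hX0
        _ = ε := by field_simp
    linarith
  exact ⟨⟨h2, h3⟩, ⟨i, h3, h1⟩⟩

theorem compE_compE {g : EE k C} {s : ℕ} (hg : WE g s) (hs : s ≠ 0) (x : EE k C) :
    compE f h hm (compE g hg hs x)
      = compE (compE f h hm g) (WE.compE h hm hg) (mul_ne_zero hm hs) x := by
  ext j
  obtain ⟨L, hL, h1, h2⟩ := exists_L2 g x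
  obtain ⟨L', hL', h3⟩ := exists_L f
  have : FiniteDimensional k (L ⊔ L' : IntermediateField k C) :=
    IntermediateField.finiteDimensional_sup L L'
  have hsum : Summable (fun p : ℤ × ℤ => x.co p.2 * pc g p.2 p.1 * pc f p.1 j) :=
    summable_of (L ⊔ L') (fun p => mul_mem
      (mul_mem ((le_sup_left : L ≤ L ⊔ L') (h1 _)) ((le_sup_left : L ≤ L ⊔ L') (h2 _ _)))
      ((le_sup_right : L' ≤ L ⊔ L') (h3 _ _))) (tendsto_double h hm hg hs x j)
  obtain ⟨S, hS⟩ := hsum
  have e1 : HasSum (fun i => (compE g hg hs x).co i * pc f i j) S :=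
    hasSum_fib hS fun i => ((hg.adm hs x).hasSum i).mul_right (pc f i j)
  have e2 : HasSum (fun n => x.co n * pc (compE f h hm g) n j) S := by
    refine hasSum_swap hS fun n => ?_
    have e3 : pc (compE f h hm g) n j = (compE f h hm (g ^ n)).co j := by
      rw [pc, map_zpow₀]
    rw [e3]
    refine ((hasSum_compE h hm (g ^ n) j).mul_left (x.co n)).congr_fun fun i => ?_
    rw [← mul_assoc]
    rfl
  exact (((h.adm hm (compE g hg hs x)).hasSum j).unique e1).trans
    ((((WE.compE h hm hg).adm (mul_ne_zero hm hs) x).hasSum j).unique e2).symm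

end Crest.Agent.R013.CAn_243
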