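import Crest.Agent.R013.CAn2_243
import Crest.Agent.R013.AN1_243

/-!
# Row 13, leaf COMP-AN (helper243), file 3: `compE f` on annuli

`WA c f m` : `f = T^m u`, `|u_0| = 1`, `|u_n| ≤ 1`, `|u_n||c|^n ≤ 1`.  Stable under products and
inverses.  `compE f` maps `AN c` to `AN c'` and `FA c` to `FA c'` if `|c'|^m = |c|` and `WA c' f m`;
compatibility with the flips.
-/

set_option autoImplicit false
set_option linter.unusedSectionVars false
open Filter Topology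
open Crest.Agent.R013.Cell_408 (FinDef DiscNorm exists_max BD)
open Crest.Agent.R013.EE809

namespace Crest.Agent.R013.CAn_243

variable {k : Type*} [NontriviallyNormedField k] [CompleteSpace k]
variable {C : Type*} [NormedField C] [IsUltrametricDist C] [NormedAlgebra k C]

/-! ### limits at an interior radius -/

theorem Bdd.eq_zero {ρ : ℝ} (hρ : 0 < ρ) {a : EE k C} {r : ℕ → ℝ} (hr : Tendsto r atTop (𝓝 0))
    (h : ∀ t, Bdd ρ (r t) a) : a = 0 := by
  ext n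
  have h1 : ‖a.co n‖ * ρ ^ n ≤ 0 := ge_of_tendsto' hr fun t => h t n
  have h2 : 0 < ρ ^ n := zpow_pos hρ n
  have h3 : ‖a.co n‖ ≤ 0 := by
    by_contra hc
    exact absurd h1 (not_le.2 (mul_pos (not_le.1 hc) h2))
  rw [co_zero]
  exact norm_le_zero_iff.1 h3

/-- **Completeness** at an interior radius, with bounds at the two ends. -/
theorem complete_AN (L : IntermediateField k C) [FiniteDimensional k L] {c : C} (hc0 : c ≠ 0)
    (hc1 : ‖c‖ < 1) {ρ : ℝ} (hρ : 0 < ρ) (s : ℕ → EE k C) (hL : ∀ t, InL L (s t)) {M : ℝ}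
    (h1 : ∀ t, Bdd 1 M (s t)) (h2 : ∀ t, Bdd ‖c‖ M (s t)) (r : ℕ → ℝ)
    (hr : Tendsto r atTop (𝓝 0)) (hs : ∀ t n, t ≤ n → Bdd ρ (r t) (s n - s t)) :
    ∃ S : EE k C, InL L S ∧ Bdd 1 M S ∧ Bdd ‖c‖ M S ∧ ∀ t, Bdd ρ (r t) (S - s t) := by
  have : CompleteSpace L := FiniteDimensional.complete k L
  have h3 : ∀ i : ℤ, ∃ l : L, Tendsto (fun t => (⟨(s t).co i, hL t i⟩ : L)) atTop (𝓝 l) := by
    intro i
    apply cauchySeq_tendsto_of_complete
    rw [Metric.cauchySeq_iff']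
    intro ε hε
    have hρi : 0 < ρ ^ i := zpow_pos hρ i
    obtain ⟨N, hN⟩ := (Metric.tendsto_atTop.1 hr) (ε * ρ ^ i) (by positivity)
    refine ⟨N, fun n hn => ?_⟩
    rw [dist_eq_norm]
    have h4 : ‖(s n).co i - (s N).co i‖ * ρ ^ i ≤ r N := hs N n hn i
    have h5 := hN N le_rfl
    rw [Real.dist_eq, sub_zero] at h5
    have h6 : ‖(s n).co i - (s N).co i‖ * ρ ^ i < ε * ρ ^ i :=
      lt_of_le_of_lt (h4.trans (le_abs_self _)) h5
    exact lt_of_mul_lt_mul_right h6 hρi.le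
  choose l hl using h3
  have hl' : ∀ i, Tendsto (fun t => (s t).co i) atTop (𝓝 ((l i : L) : C)) := fun i =>
    (continuous_subtype_val.tendsto _).comp (hl i)
  have b1 : ∀ i, ‖(l i : C)‖ ≤ M := fun i =>
    le_of_tendsto' (hl' i).norm fun t => by
      have := h1 t i
      rwa [one_zpow, mul_one] at this
  have b2 : ∀ i, ‖(l i : C)‖ * ‖c‖ ^ i ≤ M := fun i =>
    le_of_tendsto' ((hl' i).norm.mul_const _) fun t => h2 t i
  have hc : 0 < ‖c‖ := norm_pos_iff.2 hc0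
  have hM : 0 ≤ M := (norm_nonneg _).trans (b1 0)
  refine ⟨mk' (fun i => (l i : C)) ⟨L, inferInstance, fun i => (l i).2⟩ ⟨M, b1⟩ ?_,
    fun i => (l i).2, fun i => by rw [one_zpow, mul_one]; exact b1 i, b2, fun t i => ?_⟩
  · have g1 : Tendsto (fun n : ℤ => M * ‖c‖ ^ (-n)) atBot (𝓝 0) := by
      have g2 : Tendsto (fun n : ℕ => M * ‖c‖ ^ n) atTop (𝓝 (M * 0)) :=
        (tendsto_pow_atTop_nhds_zero_of_lt_one (norm_nonneg _) hc1).const_mul M
      rw [mul_zero] at g2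
      rw [Metric.tendsto_nhds] at g2 ⊢
      intro ε hε
      obtain ⟨N, hN⟩ := eventually_atTop.1 (g2 ε hε)
      rw [eventually_atBot]
      refine ⟨-N, fun n hn => ?_⟩
      have g3 := hN (-n).toNat (by omega)
      have g4 : (((-n).toNat : ℕ) : ℤ) = -n := Int.toNat_of_nonneg (by omega)
      rw [← zpow_natCast, g4] at g3
      exact g3
    refine squeeze_zero_norm (fun n => ?_) g1
    have g5 := b2 n
    rw [zpow_neg, ← div_eq_mul_inv, le_div_iff₀ (zpow_pos hc n)]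
    exact g5
  · have h5 : Tendsto (fun n => ‖(s n).co i - (s t).co i‖ * ρ ^ i) atTop
        (𝓝 (‖(l i : C) - (s t).co i‖ * ρ ^ i)) := ((hl' i).sub_const _).norm.mul_const _
    refine le_of_tendsto h5 ?_
    filter_upwards [eventually_ge_atTop t] with n hn
    exact hs t n hn i

/-- geometric series at an interior radius -/
theorem exists_inv_one_sub_AN {y : EE k C} (L : IntermediateField k C) [FiniteDimensional k L]
    {c : C} (hc0 : c ≠ 0) (hc1 : ‖c‖ < 1) {ρ θ : ℝ} (hρ : 0 < ρ) (hθ0 : 0 ≤ θ) (hθ1 : θ < 1)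
    (hyL : InL L y) (h1 : Bdd 1 1 y) (h2 : Bdd ‖c‖ 1 y) (h3 : Bdd ρ θ y) :
    ∃ w : EE k C, InL L w ∧ (1 - y) * w = 1 ∧ Bdd 1 1 w ∧ Bdd ‖c‖ 1 w ∧ Bdd ρ θ (w - 1) := by
  have hc : 0 < ‖c‖ := norm_pos_iff.2 hc0
  have htend : Tendsto (fun t : ℕ => θ ^ t) atTop (𝓝 0) :=
    tendsto_pow_atTop_nhds_zero_of_lt_one hθ0 hθ1
  have p1 : ∀ i : ℕ, Bdd 1 1 (y ^ i) := fun i => by
    have := h1.pow one_pos i
    rwa [one_pow] at this
  have p2 : ∀ i : ℕ, Bdd ‖c‖ 1 (y ^ i) := fun i => by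
    have := h2.pow hc i
    rwa [one_pow] at this
  have p3 : ∀ i : ℕ, Bdd ρ (θ ^ i) (y ^ i) := fun i => h3.pow hρ i
  obtain ⟨S, hS, s1, s2, s3⟩ := complete_AN L hc0 hc1 hρ (fun t => ∑ i ∈ Finset.range t, y ^ i)
    (fun t => InL.sum _ fun i _ => hyL.pow i) (M := 1)
    (fun t => Bdd.sum one_pos zero_le_one _ fun i _ => p1 i)
    (fun t => Bdd.sum hc zero_le_one _ fun i _ => p2 i) (fun t => θ ^ t) htend
    (fun t n htn => by
      rw [← Finset.sum_sdiff (Finset.range_mono htn), add_sub_cancel_right]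
      refine Bdd.sum hρ (by positivity) _ fun i hi => (p3 i).le ?_
      refine pow_le_pow_of_le_one hθ0 hθ1.le ?_
      simp only [Finset.mem_sdiff, Finset.mem_range, not_lt] at hi
      exact hi.2)
  refine ⟨S, hS, ?_, s1, s2, ?_⟩
  · have h5 : ∀ t : ℕ, Bdd ρ (θ ^ t) ((1 - y) * S - 1) := by
      intro t
      have h6 : (1 - y) * S - 1 = (1 - y) * (S - ∑ i ∈ Finset.range t, y ^ i) - y ^ t := by
        rw [mul_sub, mul_neg_geom_sum]; ring
      rw [h6]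
      refine Bdd.sub hρ ?_ (p3 t)
      have h7 : Bdd ρ 1 (1 - y) := Bdd.one.sub hρ (h3.le hθ1.le)
      have h8 := h7.mul hρ (s3 t)
      rwa [one_mul] at h8
    exact sub_eq_zero.1 (Bdd.eq_zero hρ htend h5)
  · have := s3 1
    simpa using this

variable [Algebra.IsAlgebraic k C] [IsUltrametricDist k] [IsAlgClosed C] [hk : Fact (DiscNorm k)]

/-- `f = T^m u` with `|u_0| = 1`, `|u_n| ≤ 1`, `|u_n||c|^n ≤ 1` (`m : ℤ`) -/
structure WA (c : C) (f : EE k C) (m : ℤ) : Prop where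
  le : ∀ n, ‖f.co n‖ ≤ 1
  one : ‖f.co m‖ = 1
  leA : ∀ n, ‖f.co n‖ * ‖c‖ ^ n ≤ ‖c‖ ^ m

variable {c : C} (hc0 : c ≠ 0) (hc1 : ‖c‖ < 1) {f g : EE k C} {m n : ℤ}

include hc0 hc1

theorem WA.lt (h : WA c f m) {n : ℤ} (hn : n < m) : ‖f.co n‖ < 1 := by
  have hc : 0 < ‖c‖ := norm_pos_iff.2 hc0
  have h1 := h.leA n
  have h2 : ‖c‖ ^ m < ‖c‖ ^ n := zpow_lt_zpow_right_of_lt_one₀ hc hc1 hn
  by_contra hge
  have h3 : ‖c‖ ^ n ≤ ‖f.co n‖ * ‖c‖ ^ n :=
    le_mul_of_one_le_left (zpow_nonneg hc.le n) (not_lt.1 hge)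
  linarith

omit hc0 hc1 in
theorem WA.gn (h : WA c f m) : EE809.gn f = 1 :=
  le_antisymm (gn_le h.le) (by rw [← h.one]; exact le_gn f _)

theorem WA.od (h : WA c f m) : EE809.od f = m :=
  od_eq_of (by rw [h.gn]; exact h.one) fun n hn => by rw [h.gn]; exact h.lt hc0 hc1 hn

omit hc0 hc1 in
theorem WA.ne_zero (h : WA c f m) : f ≠ 0 := by
  intro h0
  have := h.gn
  rw [h0, gn_zero] at this
  exact zero_ne_one this

theorem WA.we {m : ℕ} (h : WA c f m) : WE f m := ⟨h.le, h.one, fun _ hn => h.lt hc0 hc1 hn⟩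

omit hc0 hc1 in
theorem WA.bddA (h : WA c f m) : Bdd ‖c‖ (‖c‖ ^ m) f := h.leA

omit hc0 hc1 in
theorem WA.mem_AN (h : WA c f m) : f ∈ AN k c := ⟨_, h.leA⟩

omit hc0 hc1 in
theorem WA.of (h1 : EE809.gn f = 1) (h2 : EE809.od f = m) (h3 : Bdd ‖c‖ (‖c‖ ^ m) f) : WA c f m := by
  have h0 : f ≠ 0 := by
    intro h0
    rw [h0, gn_zero] at h1
    exact zero_ne_one h1
  refine ⟨fun n => h1 ▸ le_gn f n, ?_, h3⟩
  rw [← h2, norm_co_od hk.out h0, h1]

theorem WA.mul (hf : WA c f m) (hg : WA c g n) : WA c (f * g) (m + n) := by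
  have hc : 0 < ‖c‖ := norm_pos_iff.2 hc0
  refine WA.of (by rw [gn_mul hk.out, hf.gn, hg.gn, one_mul])
    (by rw [od_mul hk.out hf.ne_zero hg.ne_zero, hf.od hc0 hc1, hg.od hc0 hc1]) ?_
  rw [zpow_add₀ hc.ne']
  exact hf.bddA.mul hc hg.bddA

omit hc0 hc1 in
theorem WA.T (c : C) (n : ℤ) : WA c (T n : EE k C) n := by
  refine ⟨fun i => ?_, ?_, fun i => ?_⟩
  · rw [EE809.T, co_mo]; split_ifs <;> simp
  · rw [EE809.T, co_mo, if_pos rfl, norm_one]
  · rw [EE809.T, co_mo]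
    split_ifs with h
    · rw [h, norm_one, one_mul]
    · rw [norm_zero, zero_mul]; exact zpow_nonneg (norm_nonneg _) _

omit hc0 hc1 in
theorem WA.one' (c : C) : WA c (1 : EE k C) 0 := WA.T c 0

/-- the inverse of a unit, in `AN c` -/
theorem WA.exists_inv_unit {u : EE k C} (h : WA c u 0) (L : IntermediateField k C)
    [FiniteDimensional k L] (huL : InL L u) : ∃ w : EE k C, InL L w ∧ u * w = 1 ∧ WA c w 0 := by
  have hc : 0 < ‖c‖ := norm_pos_iff.2 hc0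
  obtain ⟨ρ, hρ1, hρ2⟩ := exists_between hc1
  have hρ : 0 < ρ := hc.trans hρ1
  have hu0 : u.co 0 ≠ 0 := by
    rw [← norm_pos_iff, h.one]; exact one_pos
  set x : EE k C := mo 0 (u.co 0)⁻¹ * u with hx
  have hxn : ∀ n, x.co n = (u.co 0)⁻¹ * u.co n := fun n => by rw [hx, co_mo_mul, sub_zero]
  have hxL : InL L x := (InL.mo (inv_mem (huL 0)) 0).mul huL
  set y : EE k C := 1 - x with hy
  have hyn : ∀ n, y.co n = if n = 0 then 0 else -((u.co 0)⁻¹ * u.co n) := by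
    intro n
    rw [hy, co_sub, hxn, co_one]
    split_ifs with hn
    · rw [hn, inv_mul_cancel₀ hu0, sub_self]
    · rw [zero_sub]
  have hynorm : ∀ n, ‖y.co n‖ ≤ ‖u.co n‖ := by
    intro n
    rw [hyn]
    split_ifs
    · rw [norm_zero]; exact norm_nonneg _
    · rw [norm_neg, norm_mul, norm_inv, h.one, inv_one, one_mul]
  have h1 : Bdd 1 1 y := fun n => by
    rw [one_zpow, mul_one]; exact (hynorm n).trans (h.le n)
  have h2 : Bdd ‖c‖ 1 y := fun n => by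
    have := h.leA n
    rw [zpow_zero] at this
    exact (mul_le_mul_of_nonneg_right (hynorm n) (zpow_nonneg hc.le n)).trans this
  set θ : ℝ := max ρ (‖c‖ / ρ) with hθ
  have hθ0 : 0 ≤ θ := le_max_of_le_left hρ.le
  have hθ1 : θ < 1 := max_lt hρ2 ((div_lt_one hρ).2 hρ1)
  have h3 : Bdd ρ θ y := by
    intro n
    rcases lt_trichotomy n 0 with hn | hn | hn
    · have e1 := h2 n
      obtain ⟨i, hi⟩ := Int.eq_ofNat_of_zero_le (show 0 ≤ -n - 1 by omega)
      have hn' : n = -((i : ℤ) + 1) := by omega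
      have e2 : ρ ^ n = ‖c‖ ^ n * (‖c‖ / ρ) ^ (i + 1) := by
        have e3 : (‖c‖ / ρ) ^ (i + 1) = (ρ ^ n) * (‖c‖ ^ n)⁻¹ := by
          rw [← zpow_natCast, ← zpow_neg, div_zpow, hn']
          push_cast
          rw [neg_neg, zpow_neg, div_eq_mul_inv, mul_comm]
        rw [e3, mul_comm, mul_assoc, inv_mul_cancel₀ (zpow_pos hc n).ne', mul_one]
      rw [e2, ← mul_assoc]
      have e4 : (‖c‖ / ρ) ^ (i + 1) ≤ ‖c‖ / ρ := by
        refine pow_le_of_le_one (by positivity) ((div_lt_one hρ).2 hρ1).le (by omega)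
      calc ‖y.co n‖ * ‖c‖ ^ n * (‖c‖ / ρ) ^ (i + 1) ≤ 1 * (‖c‖ / ρ) :=
            mul_le_mul e1 e4 (by positivity) zero_le_one
        _ ≤ θ := by rw [one_mul]; exact le_max_right _ _
    · rw [hn, hyn, if_pos rfl, norm_zero, zero_mul]; exact hθ0
    · obtain ⟨i, hi⟩ := Int.eq_ofNat_of_zero_le (show 0 ≤ n - 1 by omega)
      have hn' : n = ((i + 1 : ℕ) : ℤ) := by push_cast; omega
      have e1 := h1 n
      rw [one_zpow, mul_one] at e1
      rw [hn', zpow_natCast, ← hn']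
      calc ‖y.co n‖ * ρ ^ (i + 1) ≤ 1 * ρ :=
            mul_le_mul e1 (pow_le_of_le_one hρ.le hρ2.le (by omega)) (by positivity) zero_le_one
        _ ≤ θ := by rw [one_mul]; exact le_max_left _ _
  obtain ⟨w, hwL, hw1, hw2, hw3, hw4⟩ := exists_inv_one_sub_AN L hc0 hc1 hρ hθ0 hθ1
    (by rw [hy]; exact (InL.one L).sub hxL) h1 h2 h3
  have hxw : x * w = 1 := by
    rw [hy, sub_sub_cancel] at hw1
    exact hw1
  refine ⟨mo 0 (u.co 0)⁻¹ * w, (InL.mo (inv_mem (huL 0)) 0).mul hwL, ?_, ?_⟩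
  · rw [mul_left_comm, ← mul_assoc, ← hx, hxw]
  · have hn : ∀ n, ‖(mo 0 (u.co 0)⁻¹ * w).co n‖ = ‖w.co n‖ := by
      intro n
      rw [co_mo_mul, sub_zero, norm_mul, norm_inv, h.one, inv_one, one_mul]
    refine ⟨fun n => ?_, ?_, fun n => ?_⟩
    · rw [hn]
      have := hw2 n
      rwa [one_zpow, mul_one] at this
    · rw [hn]
      have h5 := hw4 0
      rw [zpow_zero, mul_one, co_sub, co_one, if_pos rfl] at h5
      have h6 : w.co 0 = 1 + (w.co 0 - 1) := by ring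
      rw [h6, IsUltrametricDist.norm_add_eq_max_of_norm_ne_norm
        (by rw [norm_one]; exact (h5.trans_lt hθ1).ne'), norm_one, max_eq_left (h5.trans hθ1.le)]
    · rw [hn, zpow_zero]
      exact hw3 n

theorem WA.inv (h : WA c f m) : WA c f⁻¹ (-m) := by
  have hu : WA c (EE809.T (-m) * f) 0 := by
    have := (WA.T c (-m)).mul hc0 hc1 h
    rwa [neg_add_cancel] at this
  obtain ⟨L, hL, h1⟩ := (EE809.T (-m) * f).exists_inL
  obtain ⟨w, -, hw, hw'⟩ := hu.exists_inv_unit hc0 hc1 L h1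
  have e : f⁻¹ = EE809.T (-m) * w := by
    refine inv_eq_of_mul_eq_one_right ?_
    rw [← hw]; ring
  rw [e]
  have := (WA.T c (-m)).mul hc0 hc1 hw'
  rwa [add_zero] at this

theorem WA.pow (h : WA c f m) (n : ℕ) : WA c (f ^ n) (m * n) := by
  induction n with
  | zero =>
    rw [pow_zero, Nat.cast_zero, mul_zero]; exact WA.one' c
  | succ n ih =>
    have := ih.mul hc0 hc1 h
    rwa [← pow_succ, show m * (n : ℤ) + m = m * ((n + 1 : ℕ) : ℤ) by push_cast; ring] at this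

theorem WA.zpow (h : WA c f m) (n : ℤ) : WA c (f ^ n) (m * n) := by
  cases n with
  | ofNat n => rw [Int.ofNat_eq_natCast, zpow_natCast]; exact h.pow hc0 hc1 n
  | negSucc n =>
    rw [zpow_negSucc]
    have := (h.pow hc0 hc1 (n + 1)).inv hc0 hc1
    rwa [show -(m * ((n + 1 : ℕ) : ℤ)) = m * Int.negSucc n by
      rw [Int.negSucc_eq]; push_cast; ring] at this

omit hc0 hc1 in
theorem WA.smul {b : C} (h : WA c f m) (hb : ‖b‖ = 1) : WA c (algebraMap C (EE k C) b * f) m := by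
  have hn : ∀ n, ‖(algebraMap C (EE k C) b * f).co n‖ = ‖f.co n‖ := fun n => by
    rw [algebraMap_eq, co_mo_mul, sub_zero, norm_mul, hb, one_mul]
  exact ⟨fun n => by rw [hn]; exact h.le n, by rw [hn]; exact h.one,
    fun n => by rw [hn]; exact h.leA n⟩

theorem WA.dvd (h : WA c f m) : ∃ u v : EE k C, WA c u 0 ∧ WA c v 0 ∧ u * v = 1 ∧ f = EE809.T m * u ∧
    f⁻¹ = EE809.T (-m) * v := by
  have hu : WA c (EE809.T (-m) * f) 0 := by
    have := (WA.T c (-m)).mul hc0 hc1 h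
    rwa [neg_add_cancel] at this
  refine ⟨EE809.T (-m) * f, (EE809.T (-m) * f)⁻¹, hu, by simpa using hu.inv hc0 hc1,
    mul_inv_cancel₀ hu.ne_zero, ?_, ?_⟩
  · rw [← mul_assoc, T_mul_T, add_neg_cancel, T_zero, one_mul]
  · rw [mul_inv, T_inv, neg_neg, ← mul_assoc, T_mul_T, neg_add_cancel, T_zero, one_mul]

end Crest.Agent.R013.CAn_243
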