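import Crest.Agent.R013.CAn3_243
import Crest.Agent.R013.AnW3_201

/-!
# Row 13, leaf COMP-AN (helper243), file 4: `compE f` maps `AN c` to `AN c'` and `FA c` to `FA c'`
if `|c'|^m = |c|` and `WA c' f m`; the inner end (flip).
-/

set_option autoImplicit false
set_option linter.unusedSectionVars false
open Filter Topology
open Crest.Agent.R013.Cell_408 (FinDef DiscNorm exists_max BD)
open Crest.Agent.R013.EE809

namespace Crest.Agent.R013.CAn_243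

variable {k : Type*} [NontriviallyNormedField k] [CompleteSpace k]
variable {C : Type*} [NormedField C] [IsUltrametricDist C] [NormedAlgebra k C]
variable [Algebra.IsAlgebraic k C]

/-- the annulus ring of 201 is the same -/
theorem AN_eq (c : C) : AN k c = AnW_201.AN k C c := SetLike.ext fun _ => Iff.rfl

variable [IsUltrametricDist k] [IsAlgClosed C] [hk : Fact (DiscNorm k)]

variable {c c' : C} {f : EE k C}

theorem WA.of_we {m : ℕ} (h : WE f m) (h' : ∀ n : ℤ, ‖f.co n‖ * ‖c‖ ^ n ≤ ‖c‖ ^ m) :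
    WA c f (m : ℤ) := ⟨h.le, h.one, fun n => by rw [zpow_natCast]; exact h' n⟩

/-- at every radius `|c| ≤ ρ ≤ 1` -/
theorem WA.bdd {m : ℤ} (h : WA c f m) (hc0 : c ≠ 0) {ρ : ℝ} (h1 : ‖c‖ ≤ ρ) (h2 : ρ ≤ 1) :
    Bdd ρ (ρ ^ m) f := by
  have hc : 0 < ‖c‖ := norm_pos_iff.2 hc0
  have hρ : 0 < ρ := hc.trans_le h1
  intro n
  rcases le_or_gt m n with hn | hn
  · have h3 : ρ ^ n ≤ ρ ^ m := zpow_le_zpow_right_of_le_one₀ hρ h2 hn
    calc ‖f.co n‖ * ρ ^ n ≤ 1 * ρ ^ m := mul_le_mul (h.le n) h3 (zpow_nonneg hρ.le _) zero_le_one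
      _ = ρ ^ m := one_mul _
  · have h3 := h.leA n
    have h4 : ‖f.co n‖ ≤ ‖c‖ ^ (m - n) := by
      rw [zpow_sub₀ hc.ne', le_div_iff₀ (zpow_pos hc n)]; exact h3
    have h5 : ‖c‖ ^ (m - n) ≤ ρ ^ (m - n) := by
      obtain ⟨i, hi⟩ := Int.eq_ofNat_of_zero_le (show 0 ≤ m - n by omega)
      rw [hi, zpow_natCast, zpow_natCast]
      exact pow_le_pow_left₀ hc.le h1 i
    calc ‖f.co n‖ * ρ ^ n ≤ ρ ^ (m - n) * ρ ^ n :=
          mul_le_mul_of_nonneg_right (h4.trans h5) (zpow_nonneg hρ.le _)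
      _ = ρ ^ m := by rw [← zpow_add₀ hρ.ne', sub_add_cancel]

section comp

variable (hc0 : c' ≠ 0) (hc1 : ‖c'‖ < 1) {m : ℕ} (h : WA c' f m) (hm : m ≠ 0)

/-- composition is contractive at every radius -/
theorem compE_bdd (hw : WE f m) (h : WA c' f m) (hc0 : c' ≠ 0) (hc1 : ‖c'‖ < 1) {ρ M : ℝ} (h1 : ‖c'‖ ≤ ρ)
    (h2 : ρ ≤ 1) {g : EE k C} (hg : Bdd (ρ ^ m) M g) : Bdd ρ M (compE f hw hm g) := by
  have hρ : 0 < ρ := (norm_pos_iff.2 hc0).trans_le h1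
  have hM : 0 ≤ M := hg.nonneg (pow_pos hρ m)
  intro j
  have h0 : 0 < ρ ^ j := zpow_pos hρ j
  rw [← le_div_iff₀ h0, co_compE]
  refine IsUltrametricDist.norm_tsum_le_of_forall_le_of_nonneg (by positivity) fun n => ?_
  rw [le_div_iff₀ h0, norm_mul]
  have h3 := (h.zpow hc0 hc1 n).bdd hc0 h1 h2 j
  have h4 : (ρ : ℝ) ^ ((m : ℤ) * n) = (ρ ^ m) ^ n := by rw [zpow_mul, zpow_natCast]
  rw [h4] at h3
  calc ‖g.co n‖ * ‖(f ^ n).co j‖ * ρ ^ j = ‖g.co n‖ * (‖(f ^ n).co j‖ * ρ ^ j) := by ring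
    _ ≤ ‖g.co n‖ * (ρ ^ m) ^ n := mul_le_mul_of_nonneg_left h3 (norm_nonneg _)
    _ ≤ M := hg n

variable (hcc : ‖c'‖ ^ m = ‖c‖)

theorem compE_mem_AN (hw : WE f m) (h : WA c' f m) (hc0 : c' ≠ 0) (hc1 : ‖c'‖ < 1)
    (hcc : ‖c'‖ ^ m = ‖c‖) {g : EE k C} (hg : g ∈ AN k c) : compE f hw hm g ∈ AN k c' := by
  obtain ⟨M, hM⟩ := hg
  exact ⟨M, compE_bdd hm hw h hc0 hc1 le_rfl hc1.le (by rw [hcc]; exact hM)⟩

theorem compE_mem_FA (hw : WE f m) (h : WA c' f m) (hc0 : c' ≠ 0) (hc1 : ‖c'‖ < 1)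
    (hcc : ‖c'‖ ^ m = ‖c‖) {g : EE k C} (hg : g ∈ FA k c) : compE f hw hm g ∈ FA k c' := by
  obtain ⟨a, ha, b, hb, hb0, e⟩ := hg
  refine ⟨_, compE_mem_AN hm hw h hc0 hc1 hcc ha, _, compE_mem_AN hm hw h hc0 hc1 hcc hb,
    compE_ne_zero hw hm hb0, ?_⟩
  rw [← map_mul, e]

/-- **Composition on annuli** -/
noncomputable def compA (hc0 : c' ≠ 0) (hc1 : ‖c'‖ < 1) (h : WA c' f m) (hm : m ≠ 0)
    (hcc : ‖c'‖ ^ m = ‖c‖) : AN k c →ₐ[C] AN k c' :=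
  ((compE f (h.we hc0 hc1) hm).comp (AN k c).val).codRestrict (AN k c')
    fun x => compE_mem_AN hm (h.we hc0 hc1) h hc0 hc1 hcc x.2

/-- **Composition on the fields of fractions** -/
noncomputable def compFA (hc0 : c' ≠ 0) (hc1 : ‖c'‖ < 1) (h : WA c' f m) (hm : m ≠ 0)
    (hcc : ‖c'‖ ^ m = ‖c‖) : FA k c →ₐ[C] FA k c' :=
  ((compE f (h.we hc0 hc1) hm).comp (FA k c).val).codRestrict (FA k c').toSubalgebra
    fun x => compE_mem_FA hm (h.we hc0 hc1) h hc0 hc1 hcc x.2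

theorem coe_compA (x : AN k c) :
    (compA hc0 hc1 h hm hcc x : EE k C) = compE f (h.we hc0 hc1) hm x := rfl

theorem coe_compFA (x : FA k c) :
    (compFA hc0 hc1 h hm hcc x : EE k C) = compE f (h.we hc0 hc1) hm x := rfl

theorem compFA_algebraMap (x : AN k c) :
    compFA hc0 hc1 h hm hcc (algebraMap (AN k c) (FA k c) x)
      = algebraMap (AN k c') (FA k c') (compA hc0 hc1 h hm hcc x) := rfl

end comp

/-! ### the inner end -/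

/-- the flip as a total function -/
noncomputable def flipE (c : C) (a : EE k C) : EE k C :=
  open Classical in
  if h : c ≠ 0 ∧ ‖c‖ < 1 ∧ a ∈ AN k c then (flip c h.1 h.2.1 ⟨a, h.2.2⟩).1 else 0

theorem flipE_eq (hc0 : c ≠ 0) (hc1 : ‖c‖ < 1) {a : EE k C} (ha : a ∈ AN k c) :
    flipE c a = (flip c hc0 hc1 ⟨a, ha⟩).1 := by
  unfold flipE
  rw [dif_pos ⟨hc0, hc1, ha⟩]

theorem co_flipE (hc0 : c ≠ 0) (hc1 : ‖c‖ < 1) {a : EE k C} (ha : a ∈ AN k c) (n : ℤ) :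
    (flipE c a).co n = a.co (-n) * c ^ (-n) := by
  rw [flipE_eq hc0 hc1 ha, co_flip]

theorem flipE_mem (hc0 : c ≠ 0) (hc1 : ‖c‖ < 1) {a : EE k C} (ha : a ∈ AN k c) :
    flipE c a ∈ AN k c := by
  rw [flipE_eq hc0 hc1 ha]; exact (flip c hc0 hc1 ⟨a, ha⟩).2

theorem flipE_flipE (hc0 : c ≠ 0) (hc1 : ‖c‖ < 1) {a : EE k C} (ha : a ∈ AN k c) :
    flipE c (flipE c a) = a := by
  rw [flipE_eq hc0 hc1 (flipE_mem hc0 hc1 ha)]
  have : (⟨flipE c a, flipE_mem hc0 hc1 ha⟩ : AN k c) = flip c hc0 hc1 ⟨a, ha⟩ :=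
    Subtype.ext (flipE_eq hc0 hc1 ha)
  rw [this, flip_flip]

theorem flipE_mul (hc0 : c ≠ 0) (hc1 : ‖c‖ < 1) {a b : EE k C} (ha : a ∈ AN k c)
    (hb : b ∈ AN k c) : flipE c (a * b) = flipE c a * flipE c b := by
  rw [flipE_eq hc0 hc1 ha, flipE_eq hc0 hc1 hb, flipE_eq hc0 hc1 (mul_mem ha hb)]
  exact congrArg Subtype.val (map_mul (flip c hc0 hc1) ⟨a, ha⟩ ⟨b, hb⟩)

theorem flipE_add (hc0 : c ≠ 0) (hc1 : ‖c‖ < 1) {a b : EE k C} (ha : a ∈ AN k c)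
    (hb : b ∈ AN k c) : flipE c (a + b) = flipE c a + flipE c b := by
  rw [flipE_eq hc0 hc1 ha, flipE_eq hc0 hc1 hb, flipE_eq hc0 hc1 (add_mem ha hb)]
  exact congrArg Subtype.val (map_add (flip c hc0 hc1) ⟨a, ha⟩ ⟨b, hb⟩)

theorem flipE_mo (hc0 : c ≠ 0) (hc1 : ‖c‖ < 1) (n : ℤ) (x : C) :
    flipE c (mo n x : EE k C) = mo (-n) (x * c ^ n) := by
  rw [flipE_eq hc0 hc1 (mo_mem_AN c n x), flip_mo]

theorem flipE_one (hc0 : c ≠ 0) (hc1 : ‖c‖ < 1) : flipE c (1 : EE k C) = 1 := by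
  have := flipE_mo (k := k) hc0 hc1 0 1
  rwa [neg_zero, zpow_zero, mul_one, mo_zero_one] at this

theorem norm_co_flipE (hc0 : c ≠ 0) (hc1 : ‖c‖ < 1) {a : EE k C} (ha : a ∈ AN k c) (n : ℤ) :
    ‖(flipE c a).co n‖ = ‖a.co (-n)‖ * ‖c‖ ^ (-n) := by
  rw [co_flipE hc0 hc1 ha, norm_mul, norm_zpow]

/-- `c f⁻¹`, flipped: the map at the inner end -/
noncomputable def inn (c c' : C) (f : EE k C) : EE k C := flipE c' (algebraMap C (EE k C) c * f⁻¹)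

theorem smul_mem_AN {a : EE k C} (ha : a ∈ AN k c') (b : C) :
    algebraMap C (EE k C) b * a ∈ AN k c' := mul_mem ((AN k c').algebraMap_mem b) ha

theorem WA.flipE {m : ℤ} (h : WA c f m) (hc0 : c ≠ 0) (hc1 : ‖c‖ < 1) :
    WA c (algebraMap C (EE k C) (c ^ (-m)) * flipE c f) (-m) := by
  have hc : 0 < ‖c‖ := norm_pos_iff.2 hc0
  have e : ∀ n, ‖(algebraMap C (EE k C) (c ^ (-m)) * CAn_243.flipE c f).co n‖
      = ‖c‖ ^ (-m) * (‖f.co (-n)‖ * ‖c‖ ^ (-n)) := fun n => by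
    rw [algebraMap_eq, co_mo_mul, sub_zero, norm_mul, norm_zpow, norm_co_flipE hc0 hc1 h.mem_AN]
  refine ⟨fun n => ?_, ?_, fun n => ?_⟩
  · rw [e]
    calc ‖c‖ ^ (-m) * (‖f.co (-n)‖ * ‖c‖ ^ (-n)) ≤ ‖c‖ ^ (-m) * ‖c‖ ^ m :=
          mul_le_mul_of_nonneg_left (h.leA _) (zpow_nonneg hc.le _)
      _ = 1 := by rw [← zpow_add₀ hc.ne', neg_add_cancel, zpow_zero]
  · rw [e, neg_neg, h.one, one_mul, ← zpow_add₀ hc.ne', neg_add_cancel, zpow_zero]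
  · rw [e]
    calc ‖c‖ ^ (-m) * (‖f.co (-n)‖ * ‖c‖ ^ (-n)) * ‖c‖ ^ n
        = ‖c‖ ^ (-m) * ‖f.co (-n)‖ * (‖c‖ ^ (-n) * ‖c‖ ^ n) := by ring
      _ = ‖c‖ ^ (-m) * ‖f.co (-n)‖ := by
          rw [← zpow_add₀ hc.ne', neg_add_cancel, zpow_zero, mul_one]
      _ ≤ ‖c‖ ^ (-m) * 1 := mul_le_mul_of_nonneg_left (h.le _) (zpow_nonneg hc.le _)
      _ = ‖c‖ ^ (-m) := mul_one _

theorem WA.inn (hc0 : c' ≠ 0) (hc1 : ‖c'‖ < 1) {m : ℕ} (h : WA c' f m)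
    (hcc : ‖c'‖ ^ m = ‖c‖) : WA c' (inn c c' f) (m : ℤ) := by
  have h1 := (h.inv hc0 hc1).flipE hc0 hc1
  rw [neg_neg] at h1
  have hfi : f⁻¹ ∈ AN k c' := (h.inv hc0 hc1).mem_AN
  have e : CAn_243.inn c c' f = algebraMap C (EE k C) (c * (c' ^ (m : ℤ))⁻¹) *
      (algebraMap C (EE k C) (c' ^ (m : ℤ)) * CAn_243.flipE c' f⁻¹) := by
    have hcm : (c' ^ (m : ℤ)) ≠ 0 := zpow_ne_zero _ hc0
    rw [← mul_assoc, ← map_mul, inv_mul_cancel_right₀ hcm, CAn_243.inn,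
      flipE_mul hc0 hc1 ((AN k c').algebraMap_mem c) hfi]
    congr 1
    rw [algebraMap_eq, flipE_mo hc0 hc1, neg_zero, zpow_zero, mul_one]
  rw [e]
  refine h1.smul ?_
  rw [norm_mul, norm_inv, norm_zpow, zpow_natCast, hcc, mul_inv_cancel₀]
  rw [← hcc]
  exact pow_ne_zero _ (norm_ne_zero_iff.2 hc0)

theorem flipE_inv (hc0 : c ≠ 0) (hc1 : ‖c‖ < 1) {a : EE k C} (ha : a ∈ AN k c)
    (ha' : a⁻¹ ∈ AN k c) (h0 : a ≠ 0) : flipE c a⁻¹ = (flipE c a)⁻¹ := by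
  refine eq_inv_of_mul_eq_one_right ?_
  rw [← flipE_mul hc0 hc1 ha ha', mul_inv_cancel₀ h0, flipE_one hc0 hc1]

theorem flipE_zpow (hc0 : c ≠ 0) (hc1 : ‖c‖ < 1) {m : ℤ} (h : WA c f m) (n : ℤ) :
    flipE c (f ^ n) = (flipE c f) ^ n := by
  have hp : ∀ n : ℕ, flipE c (f ^ n) = (flipE c f) ^ n := by
    intro n
    induction n with
    | zero => rw [pow_zero, pow_zero, flipE_one hc0 hc1]
    | succ n ih =>
      rw [pow_succ, pow_succ, flipE_mul hc0 hc1 (h.pow hc0 hc1 n).mem_AN h.mem_AN, ih]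
  cases n with
  | ofNat n => rw [Int.ofNat_eq_natCast, zpow_natCast, zpow_natCast, hp]
  | negSucc n =>
    rw [zpow_negSucc, zpow_negSucc, flipE_inv hc0 hc1 (h.pow hc0 hc1 _).mem_AN
      ((h.pow hc0 hc1 _).inv hc0 hc1).mem_AN (pow_ne_zero _ h.ne_zero), hp]

theorem inn_zpow (hc0 : c' ≠ 0) (hc1 : ‖c'‖ < 1) {m : ℕ} (h : WA c' f m) (n : ℤ) :
    inn c c' f ^ n = algebraMap C (EE k C) (c ^ n) * flipE c' (f ^ (-n)) := by
  have hfi : f⁻¹ ∈ AN k c' := (h.inv hc0 hc1).mem_AN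
  have e : inn c c' f = algebraMap C (EE k C) c * flipE c' f⁻¹ := by
    rw [inn, flipE_mul hc0 hc1 ((AN k c').algebraMap_mem c) hfi]
    congr 1
    rw [algebraMap_eq, flipE_mo hc0 hc1, neg_zero, zpow_zero, mul_one]
  rw [e, mul_zpow, ← map_zpow₀, ← flipE_zpow hc0 hc1 (h.inv hc0 hc1), inv_zpow, zpow_neg]

/-- **Flip and composition** -/
theorem flipE_compE (hc0 : c' ≠ 0) (hc1 : ‖c'‖ < 1) {m : ℕ} (h : WA c' f m) (hm : m ≠ 0)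
    (hcc : ‖c'‖ ^ m = ‖c‖) (hb0 : c ≠ 0) (hb1 : ‖c‖ < 1) {g : EE k C} (hg : g ∈ AN k c) :
    flipE c' (compE f (h.we hc0 hc1) hm g) =
      compE (inn c c' f) ((h.inn hc0 hc1 hcc).we hc0 hc1) hm (flipE c g) := by
  ext j
  rw [co_flipE hc0 hc1 (compE_mem_AN hm _ h hc0 hc1 hcc hg), co_compE, co_compE, ← tsum_mul_right,
    ← (Equiv.neg ℤ).tsum_eq]
  refine tsum_congr fun n => ?_
  rw [Equiv.neg_apply, co_flipE hb0 hb1 hg, inn_zpow hc0 hc1 h, algebraMap_eq, co_mo_mul, sub_zero,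
    co_flipE hc0 hc1 (h.zpow hc0 hc1 _).mem_AN]
  have e : c ^ (-n) * c ^ n = 1 := by rw [← zpow_add₀ hb0, neg_add_cancel, zpow_zero]
  calc g.co (-n) * (f ^ (-n)).co (-j) * c' ^ (-j)
      = g.co (-n) * (c ^ (-n) * c ^ n) * ((f ^ (-n)).co (-j) * c' ^ (-j)) := by rw [e]; ring
    _ = _ := by ring

theorem flip_compA (hc0 : c' ≠ 0) (hc1 : ‖c'‖ < 1) {m : ℕ} (h : WA c' f m) (hm : m ≠ 0)
    (hcc : ‖c'‖ ^ m = ‖c‖) (hb0 : c ≠ 0) (hb1 : ‖c‖ < 1) (g : AN k c) :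
    flip c' hc0 hc1 (compA hc0 hc1 h hm hcc g) =
      compA hc0 hc1 (h.inn hc0 hc1 hcc) hm hcc (flip c hb0 hb1 g) := by
  apply Subtype.ext
  have h1 := flipE_compE hc0 hc1 h hm hcc hb0 hb1 g.2
  rw [flipE_eq hc0 hc1 (compE_mem_AN hm _ h hc0 hc1 hcc g.2), flipE_eq hb0 hb1 g.2] at h1
  exact h1

theorem flipF_compFA (hc0 : c' ≠ 0) (hc1 : ‖c'‖ < 1) {m : ℕ} (h : WA c' f m) (hm : m ≠ 0)
    (hcc : ‖c'‖ ^ m = ‖c‖) (hb0 : c ≠ 0) (hb1 : ‖c‖ < 1) (g : FA k c) :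
    flipF c' hc0 hc1 (compFA hc0 hc1 h hm hcc g) =
      compFA hc0 hc1 (h.inn hc0 hc1 hcc) hm hcc (flipF c hb0 hb1 g) := by
  have e : (flipF c' hc0 hc1).comp (compFA hc0 hc1 h hm hcc) =
      (compFA hc0 hc1 (h.inn hc0 hc1 hcc) hm hcc).comp (flipF c hb0 hb1) := by
    refine FA_hom_ext fun a => ?_
    rw [AlgHom.comp_apply, AlgHom.comp_apply, compFA_algebraMap, flipF_algebraMap,
      flipF_algebraMap, compFA_algebraMap, flip_compA]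
  exact DFunLike.congr_fun e g

end Crest.Agent.R013.CAn_243
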