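import Crest.Agent.R013.Comp3_267

/-! # R013 / Comp4_267 : composition on the field `FD = Frac BD`: `compF f : FD →ₐ[C] FD`, and
`FD` has the basis `1, T, …, T^(m-1)` over `compF f FD`. -/

set_option autoImplicit false
set_option linter.unusedSectionVars false
set_option linter.style.haveILetI false

noncomputable section

namespace Crest.Agent.R013.Comp_267

open Crest.Agent.R013.Cell_408 Topology PowerSeries

variable {k C : Type*} [NontriviallyNormedField k] [CompleteSpace k] [IsUltrametricDist k]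
  [NormedField C] [IsUltrametricDist C] [NormedAlgebra k C] [Algebra.IsAlgebraic k C] [IsAlgClosed C]

/-- representation of elements of the algebra `BD k C` -/
theorem exists_repr_BD (hk : DiscNorm k) {f : PowerSeries C} {m : ℕ} (hf : WD k f m) (hm : m ≠ 0)
    (g : BD k C) : ∃ A : ℕ → BD k C,
      g = ∑ i ∈ Finset.range m, comp f (WD.co hf hm) (A i) * XB ^ i := by
  obtain ⟨A, hA, hg⟩ := exists_repr hk hf hm g.2
  refine ⟨fun i => ⟨A i, hA i⟩, Subtype.ext ?_⟩
  rw [AddSubmonoidClass.coe_finsetSum, hg]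
  refine Finset.sum_congr rfl fun i _ => ?_
  rw [mul_comm]
  rfl

theorem repr_BD_unique (hk : DiscNorm k) {f : PowerSeries C} {m : ℕ} (hf : WD k f m) (hm : m ≠ 0)
    (A : ℕ → BD k C)
    (h : ∑ i ∈ Finset.range m, comp f (WD.co hf hm) (A i) * XB ^ i = 0) : ∀ i < m, A i = 0 := by
  intro i hi
  refine Subtype.ext (repr_unique hk hf hm (fun j => (A j : PowerSeries C)) (fun j => (A j).2) ?_
    i hi)
  have h1 := congrArg (Subtype.val : BD k C → PowerSeries C) h
  rw [AddSubmonoidClass.coe_finsetSum] at h1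
  rw [← ZeroMemClass.coe_zero (BD k C), ← h1]
  refine Finset.sum_congr rfl fun i _ => ?_
  rw [mul_comm]
  rfl

/-- `BD` is a finite module over the subalgebra `comp f BD` -/
theorem finite_range (hk : DiscNorm k) {f : PowerSeries C} {m : ℕ} (hf : WD k f m) (hm : m ≠ 0) :
    Module.Finite (comp f (WD.co hf hm)).range (BD k C) := by
  classical
  refine ⟨⟨(Finset.range m).image fun i => (XB : BD k C) ^ i, ?_⟩⟩
  rw [eq_top_iff]
  intro g _
  obtain ⟨A, hA⟩ := exists_repr_BD hk hf hm g
  rw [hA]
  refine Submodule.sum_mem _ fun i hi => ?_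
  have h1 := Submodule.smul_mem (Submodule.span (comp f (WD.co hf hm)).range
    (((Finset.range m).image fun i => (XB : BD k C) ^ i : Finset (BD k C)) : Set (BD k C)))
    (⟨comp f (WD.co hf hm) (A i), ⟨A i, rfl⟩⟩ : (comp f (WD.co hf hm)).range)
    (Submodule.subset_span (Finset.mem_coe.2 (Finset.mem_image_of_mem _ hi)))
  exact h1

/-- every nonzero `b ∈ BD` divides some nonzero `comp f B` -/
theorem exists_dvd_comp (hk : DiscNorm k) {f : PowerSeries C} {m : ℕ} (hf : WD k f m) (hm : m ≠ 0)
    {b : BD k C} (hb : b ≠ 0) : ∃ B : BD k C, B ≠ 0 ∧ b ∣ comp f (WD.co hf hm) B := by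
  haveI := finite_range hk hf hm
  have h1 : IsAlgebraic (comp f (WD.co hf hm)).range b :=
    (Algebra.IsIntegral.isIntegral (R := (comp f (WD.co hf hm)).range) b).isAlgebraic
  obtain ⟨⟨r, B, rfl⟩, hr, hd⟩ := h1.exists_nonzero_dvd (mem_nonZeroDivisors_of_ne_zero hb)
  refine ⟨B, ?_, hd⟩
  rintro rfl
  exact hr (Subtype.ext (map_zero _))

variable (k C) in
/-- meromorphic bounded functions on the open unit disc -/
abbrev FD : Type _ := FractionRing (BD k C)

/-- `BD → FD`, `g ↦ g ∘ f` -/
def compBF {f : PowerSeries C} {m : ℕ} (hf : WD k f m) (hm : m ≠ 0) : BD k C →ₐ[C] FD k C :=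
  (IsScalarTower.toAlgHom C (BD k C) (FD k C)).comp (comp f (WD.co hf hm))

theorem compBF_apply {f : PowerSeries C} {m : ℕ} (hf : WD k f m) (hm : m ≠ 0) (g : BD k C) :
    compBF hf hm g = algebraMap (BD k C) (FD k C) (comp f (WD.co hf hm) g) := rfl

theorem compBF_injective (hk : DiscNorm k) {f : PowerSeries C} {m : ℕ} (hf : WD k f m)
    (hm : m ≠ 0) : Function.Injective (compBF hf hm) := fun _ _ h =>
  comp_injective hk hf hm (IsFractionRing.injective (BD k C) (FD k C) h)

/-- composition with `f` on `FD` -/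
def compF (hk : DiscNorm k) {f : PowerSeries C} {m : ℕ} (hf : WD k f m) (hm : m ≠ 0) :
    FD k C →ₐ[C] FD k C :=
  IsFractionRing.liftAlgHom (K := FD k C) (g := compBF hf hm) (compBF_injective hk hf hm)

theorem compF_algebraMap (hk : DiscNorm k) {f : PowerSeries C} {m : ℕ} (hf : WD k f m)
    (hm : m ≠ 0) (g : BD k C) : compF hk hf hm (algebraMap (BD k C) (FD k C) g) =
      algebraMap (BD k C) (FD k C) (comp f (WD.co hf hm) g) := by
  unfold compF
  rw [IsFractionRing.liftAlgHom_apply, IsFractionRing.lift_algebraMap]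
  exact compBF_apply hf hm g

variable (k C) in
/-- the coordinate in `FD` -/
def TF : FD k C := algebraMap (BD k C) (FD k C) XB

theorem compF_TF (hk : DiscNorm k) {f : PowerSeries C} {m : ℕ} (hf : WD k f m) (hm : m ≠ 0) :
    compF hk hf hm (TF k C) = algebraMap (BD k C) (FD k C) ⟨f, hf.mem⟩ := by
  rw [TF, compF_algebraMap, comp_X]

/-- spanning: `FD = ⊕ compF f FD · T^i` -/
theorem compF_repr (hk : DiscNorm k) {f : PowerSeries C} {m : ℕ} (hf : WD k f m) (hm : m ≠ 0)
    (G : FD k C) : ∃ e : Fin m → FD k C, G = ∑ i, compF hk hf hm (e i) * TF k C ^ (i : ℕ) := by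
  obtain ⟨a, b, hb, rfl⟩ := IsFractionRing.div_surjective (A := BD k C) G
  have hb0 : b ≠ 0 := nonZeroDivisors.ne_zero hb
  obtain ⟨B, hB, h, hBh⟩ := exists_dvd_comp hk hf hm hb0
  obtain ⟨A, hA⟩ := exists_repr_BD hk hf hm (a * h)
  refine ⟨fun i => algebraMap (BD k C) (FD k C) (A i) / algebraMap (BD k C) (FD k C) B, ?_⟩
  have hinj := IsFractionRing.injective (BD k C) (FD k C)
  have hb1 : algebraMap (BD k C) (FD k C) b ≠ 0 := fun h => hb0 (hinj (h.trans (map_zero _).symm))
  have hcB : comp f (WD.co hf hm) B ≠ 0 := fun h =>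
    hB (comp_injective hk hf hm (h.trans (map_zero _).symm))
  have hcB1 : algebraMap (BD k C) (FD k C) (comp f (WD.co hf hm) B) ≠ 0 := fun h =>
    hcB (hinj (h.trans (map_zero _).symm))
  have h1 : ∀ i : Fin m, compF hk hf hm (algebraMap (BD k C) (FD k C) (A i) /
      algebraMap (BD k C) (FD k C) B) * TF k C ^ (i : ℕ) =
      algebraMap (BD k C) (FD k C) (comp f (WD.co hf hm) (A i) * XB ^ (i : ℕ)) /
        algebraMap (BD k C) (FD k C) (comp f (WD.co hf hm) B) := by
    intro i
    rw [map_div₀, compF_algebraMap, compF_algebraMap, map_mul, map_pow, TF]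
    ring
  simp only [h1]
  rw [← Finset.sum_div, ← map_sum, ← Finset.sum_range (fun i => comp f (WD.co hf hm) (A i) *
    XB ^ i), ← hA, div_eq_div_iff hb1 hcB1, ← map_mul, ← map_mul, hBh]
  congr 1
  ring

/-- independence -/
theorem compF_indep (hk : DiscNorm k) {f : PowerSeries C} {m : ℕ} (hf : WD k f m) (hm : m ≠ 0)
    (e : Fin m → FD k C) (h : ∑ i, compF hk hf hm (e i) * TF k C ^ (i : ℕ) = 0) : ∀ i, e i = 0 := by
  classical
  obtain ⟨b, hb⟩ := IsLocalization.exist_integer_multiples_of_finite (nonZeroDivisors (BD k C)) e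
  choose A hA using hb
  have hinj := IsFractionRing.injective (BD k C) (FD k C)
  have hb0 : (b : BD k C) ≠ 0 := nonZeroDivisors.ne_zero b.2
  have hb1 : algebraMap (BD k C) (FD k C) (b : BD k C) ≠ 0 := fun h =>
    hb0 (hinj (h.trans (map_zero _).symm))
  have hA' : ∀ i, algebraMap (BD k C) (FD k C) (A i) =
      algebraMap (BD k C) (FD k C) (b : BD k C) * e i := by
    intro i
    rw [hA i, Algebra.smul_def]
  let A' : ℕ → BD k C := fun i => if h : i < m then A ⟨i, h⟩ else 0
  have hA2 : ∀ i : Fin m, A' i = A i := fun i => by simp [A']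
  have h2 : ∑ i ∈ Finset.range m, comp f (WD.co hf hm) (A' i) * XB ^ i = 0 := by
    apply hinj
    rw [Finset.sum_range (fun i => comp f (WD.co hf hm) (A' i) * XB ^ i), map_sum, map_zero]
    have h3 : ∀ i : Fin m, algebraMap (BD k C) (FD k C)
        (comp f (WD.co hf hm) (A' i) * XB ^ (i : ℕ)) =
        compF hk hf hm (algebraMap (BD k C) (FD k C) (b : BD k C)) *
          (compF hk hf hm (e i) * TF k C ^ (i : ℕ)) := by
      intro i
      rw [hA2, map_mul, map_pow, ← compF_algebraMap hk hf hm, hA', map_mul, TF]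
      ring
    simp only [h3]
    rw [← Finset.mul_sum, h, mul_zero]
  intro i
  have h4 := repr_BD_unique hk hf hm A' h2 i i.2
  rw [hA2] at h4
  have h5 := hA' i
  rw [h4, map_zero] at h5
  exact (mul_eq_zero.1 h5.symm).resolve_left hb1

theorem compF_injective (hk : DiscNorm k) {f : PowerSeries C} {m : ℕ} (hf : WD k f m)
    (hm : m ≠ 0) : Function.Injective (compF hk hf hm) :=
  (compF hk hf hm).toRingHom.injective

/-- an algebra hom `FD → Ω` into a domain is determined by the image of `T`, if it is a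
composition with a series of positive Weierstrass degree -/
theorem eq_compF (hk : DiscNorm k) {f : PowerSeries C} {m : ℕ} (hf : WD k f m) (hm : m ≠ 0)
    (φ : FD k C →ₐ[C] FD k C)
    (h : ∀ g : BD k C, φ (algebraMap (BD k C) (FD k C) g) ∈ (algebraMap (BD k C) (FD k C)).range)
    (hT : φ (TF k C) = algebraMap (BD k C) (FD k C) ⟨f, hf.mem⟩) : φ = compF hk hf hm := by
  have hinj := IsFractionRing.injective (BD k C) (FD k C)
  choose ψ hψ using h
  let ψ' : BD k C →ₐ[C] BD k C :=
    { toFun := ψ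
      map_one' := hinj (by rw [hψ, map_one, map_one])
      map_mul' := fun a b => hinj (by rw [hψ, map_mul, map_mul, map_mul, hψ, hψ])
      map_zero' := hinj (by rw [hψ, map_zero, map_zero])
      map_add' := fun a b => hinj (by rw [hψ, map_add, map_add, map_add, hψ, hψ])
      commutes' := fun c => hinj (by
        rw [hψ, ← IsScalarTower.algebraMap_apply, AlgHom.commutes]) }
  have h1 : ψ' XB = ⟨f, hf.mem⟩ := hinj ((hψ XB).trans hT)
  have h2 : ψ' = comp f (WD.co hf hm) := by
    have h3 : ((ψ' XB : BD k C) : PowerSeries C) = f := congrArg Subtype.val h1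
    have hco : Co k ((ψ' XB : BD k C) : PowerSeries C) := by rw [h3]; exact WD.co hf hm
    rw [algHom_eq_comp hk ψ' hco]
    congr 1
  refine AlgHom.coe_ringHom_injective (IsFractionRing.ringHom_ext (A := BD k C) fun g => ?_)
  change φ (algebraMap (BD k C) (FD k C) g) = compF hk hf hm (algebraMap (BD k C) (FD k C) g)
  rw [compF_algebraMap, ← h2]
  exact (hψ g).symm

end Crest.Agent.R013.Comp_267
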