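import Crest.Agent.R013.CAn4_243
import Crest.Agent.R013.AnW4_201
import Crest.Agent.R013.Comp4_267

/-!
# Row 13, leaf COMP-AN (helper243), file 5: values, uniqueness of homomorphisms from `AN c`,
`compC f : AN c →ₐ[C] BD` for `f ∈ BD` with `|f_n| ≤ |f_0|`, `|c| < |f_0| < 1`
-/

set_option autoImplicit false
set_option linter.unusedSectionVars false
open Filter Topology
open Crest.Agent.R013.Cell_408
open Crest.Agent.R013.EE809
open Crest.Agent.R013.AnW_201 (InA evE lin evE_mul evE_add evE_mo evE_lin inA_lin inA_mo evE_zero_iff_dvd)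
open Crest.Agent.R013.Pow1_931 (Pos fac exists_inv_pos)

namespace Crest.Agent.R013.CAn_243

variable {k : Type*} [NontriviallyNormedField k] [CompleteSpace k]
variable {C : Type*} [NormedField C] [IsUltrametricDist C] [NormedAlgebra k C]
variable [Algebra.IsAlgebraic k C]

variable (k) in
/-- the coordinate (= `AnW_201.TA k c`) -/
noncomputable def tA (c : C) : AN k c := ⟨T 1, T_mem_AN c 1⟩

variable {c c' : C}

/-- evaluation at a point of the annulus (= `AnW_201.evA243`) -/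
noncomputable def evt (hc0 : c ≠ 0) (t : C) (hct : ‖c‖ < ‖t‖) (ht : ‖t‖ < 1) : AN k c →ₐ[C] C where
  toFun a := evE t a.1
  map_one' := (AnW_201.evA (k := k) hc0 t hct ht).map_one'
  map_mul' a b := evE_mul hct ht hc0 a.2 b.2
  map_zero' := (AnW_201.evA (k := k) hc0 t hct ht).map_zero'
  map_add' a b := evE_add hct ht hc0 a.2 b.2
  commutes' := (AnW_201.evA (k := k) hc0 t hct ht).commutes'

theorem evt_apply (hc0 : c ≠ 0) (t : C) (hct : ‖c‖ < ‖t‖) (ht : ‖t‖ < 1) (a : AN k c) :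
    evt hc0 t hct ht a = evE t a.1 := rfl

theorem evE_T (t : C) (n : ℤ) : evE t (T n : EE k C) = t ^ n := by
  rw [EE809.T, evE_mo, one_mul]

theorem evE_algebraMap (t : C) (x : C) : evE t (algebraMap C (EE k C) x) = x := by
  rw [algebraMap_eq, evE_mo, zpow_zero, mul_one]

variable [IsUltrametricDist k] [IsAlgClosed C] [hk : Fact (DiscNorm k)]

/-- **Uniqueness** of `C`-valued points of the annulus -/
theorem algHom_eq_evE (hc0 : c ≠ 0) (hc1 : ‖c‖ < 1) (χ : AN k c →ₐ[C] C) {t : C}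
    (hχ : χ (tA k c) = t) (h1 : ‖c‖ < ‖t‖) (h2 : ‖t‖ < 1) (a : AN k c) : χ a = evE t a.1 := by
  set x := evE t a.1 with hx
  have hb : InA c (a.1 - algebraMap C (EE k C) x) := (AN k c).sub_mem a.2 ((AN k c).algebraMap_mem x)
  have h0 : evE t (a.1 - algebraMap C (EE k C) x) = 0 := by
    have := map_sub (evt hc0 t h1 h2) a (algebraMap C (AN k c) x)
    rw [AlgHom.commutes, evt_apply, evt_apply, ← hx] at this
    rw [Algebra.algebraMap_self, RingHom.id_apply, sub_self] at this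
    exact this
  obtain ⟨b, hb', e⟩ := (evE_zero_iff_dvd hk.out hc0 hc1 hb h1 h2).1 h0
  have e2 : a - algebraMap C (AN k c) x = (tA k c - algebraMap C (AN k c) t) * ⟨b, hb'⟩ :=
    Subtype.ext e
  have e3 := congrArg χ e2
  rw [map_sub, map_mul, map_sub, AlgHom.commutes, AlgHom.commutes, hχ] at e3
  simp only [Algebra.algebraMap_self, RingHom.id_apply, sub_self, zero_mul] at e3
  exact sub_eq_zero.1 e3

/-- `|f(t)| = |t|^m` -/
theorem WA.norm_evE {f : EE k C} {m : ℤ} (h : WA c f m) (hc0 : c ≠ 0) {t : C} (h1 : ‖c‖ < ‖t‖)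
    (h2 : ‖t‖ < 1) : ‖evE t f‖ = ‖t‖ ^ m := by
  have hc1 : ‖c‖ < 1 := h1.trans h2
  obtain ⟨u, v, hu, hv, huv, e, -⟩ := h.dvd hc0 hc1
  have hu' : AnW_201.IsUA c u := ⟨hu.le, by simpa using hu.leA, hu.one⟩
  have hv' : AnW_201.IsUA c v := ⟨hv.le, by simpa using hv.leA, hv.one⟩
  rw [e, evE_mul h1 h2 hc0 (T_mem_AN c m) hu'.inA, norm_mul,
    AnW_201.norm_evE_unit hc0 h1 h2 hu' hv' huv, mul_one, evE_T, norm_zpow]

/-- **pointwise formula** -/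
theorem evE_compE {f : EE k C} {m : ℕ} (hc0 : c' ≠ 0) (hc1 : ‖c'‖ < 1) (h : WA c' f m) (hm : m ≠ 0)
    (hcc : ‖c'‖ ^ m = ‖c‖) {t : C} (h1 : ‖c'‖ < ‖t‖) (h2 : ‖t‖ < 1) {g : EE k C}
    (hg : g ∈ AN k c) (hw : WE f m) : evE t (compE f hw hm g) = evE (evE t f) g := by
  have hb0 : c ≠ 0 := by
    intro h0
    rw [h0, norm_zero] at hcc
    exact pow_ne_zero _ (norm_ne_zero_iff.2 hc0) hcc
  have hb1 : ‖c‖ < 1 := by rw [← hcc]; exact pow_lt_one₀ (norm_nonneg _) hc1 hm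
  have e := h.norm_evE hc0 h1 h2
  rw [zpow_natCast] at e
  refine algHom_eq_evE hb0 hb1 ((evt hc0 t h1 h2).comp (compA hc0 hc1 h hm hcc)) ?_ ?_ ?_ ⟨g, hg⟩
  · rw [AlgHom.comp_apply, evt_apply, coe_compA]
    show evE t (compE f _ hm (T 1)) = evE t f
    rw [compE_T_one]
  · rw [e, ← hcc]
    exact pow_lt_pow_left₀ h1 (norm_nonneg _) hm
  · rw [e]
    exact pow_lt_one₀ (norm_nonneg _) h2 hm

theorem finite_zeros_AN (hc0 : c ≠ 0) (hc1 : ‖c‖ < 1) {a : EE k C} (ha : a ∈ AN k c) (h0 : a ≠ 0) :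
    {t : C | ‖c‖ < ‖t‖ ∧ ‖t‖ < 1 ∧ evE t a = 0}.Finite := by
  classical
  refine ((AnW_201.zr c a).toFinset.finite_toSet).subset ?_
  rintro t ⟨h1, h2, h3⟩
  rw [Finset.mem_coe, Multiset.mem_toFinset]
  exact (AnW_201.mem_zr hk.out hc0 hc1 ha h0 h1 h2).2 h3

theorem evE_ext (hc0 : c ≠ 0) (hc1 : ‖c‖ < 1) {a b : EE k C} (ha : a ∈ AN k c) (hb : b ∈ AN k c)
    (h : {t : C | ‖c‖ < ‖t‖ ∧ ‖t‖ < 1 ∧ evE t a = evE t b}.Infinite) : a = b := by
  by_contra hne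
  refine h ((finite_zeros_AN hc0 hc1 (sub_mem ha hb) (sub_ne_zero.2 hne)).subset ?_)
  rintro t ⟨h1, h2, h3⟩
  refine ⟨h1, h2, ?_⟩
  have := map_sub (evt hc0 t h1 h2) ⟨a, ha⟩ ⟨b, hb⟩
  rw [evt_apply, evt_apply, evt_apply] at this
  show evE t (a - b) = 0
  rw [← sub_eq_zero] at h3
  exact this.trans h3

theorem infinite_ann (k : Type*) {C : Type*} [NontriviallyNormedField k] [NormedField C]
    [NormedAlgebra k C] [IsAlgClosed C] [IsUltrametricDist C] {c : C} (hc0 : c ≠ 0) (hc1 : ‖c‖ < 1) :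
    {t : C | ‖c‖ < ‖t‖ ∧ ‖t‖ < 1}.Infinite := by
  -- `s ^ 2 = c`, then `s (1 + x)`, `|x| < 1`
  obtain ⟨s, hs⟩ := IsAlgClosed.exists_pow_nat_eq c (n := 2) (by norm_num)
  have hs2 : ‖s‖ ^ 2 = ‖c‖ := by rw [← norm_pow, hs]
  have hc : 0 < ‖c‖ := norm_pos_iff.2 hc0
  have hs0 : 0 < ‖s‖ := by
    rcases eq_or_lt_of_le (norm_nonneg s) with h | h
    · rw [← h] at hs2; simp at hs2; exact absurd hs2.symm hc.ne'
    · exact h
  have hs1 : ‖s‖ < 1 := by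
    by_contra hge
    have : 1 ≤ ‖s‖ ^ 2 := one_le_pow₀ (not_lt.1 hge)
    linarith
  have hsc : ‖c‖ < ‖s‖ := by rw [← hs2, sq]; exact mul_lt_of_lt_one_left hs0 hs1
  have hinj : Function.Injective fun x : C => s * (1 + x) := fun x y hxy =>
    add_left_cancel (mul_left_cancel₀ (norm_pos_iff.1 hs0) hxy)
  refine (((infinite_disc k C).image hinj.injOn).mono ?_)
  rintro _ ⟨x, hx, rfl⟩
  have hx' : ‖x‖ < 1 := hx
  have h1 : ‖(1 : C) + x‖ = 1 := by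
    rw [IsUltrametricDist.norm_add_eq_max_of_norm_ne_norm (by rw [norm_one]; exact hx'.ne'), norm_one,
      max_eq_left hx'.le]
  show ‖c‖ < ‖s * (1 + x)‖ ∧ ‖s * (1 + x)‖ < 1
  rw [norm_mul, h1, mul_one]
  exact ⟨hsc, hs1⟩

/-- **Uniqueness** of homomorphisms `AN c → AN c'` -/
theorem algHom_ext_AN (hc0 : c ≠ 0) (hc1 : ‖c‖ < 1) (hc0' : c' ≠ 0) (hc1' : ‖c'‖ < 1)
    {φ ψ : AN k c →ₐ[C] AN k c'} (h : φ (tA k c) = ψ (tA k c))
    (hr : ∀ t : C, ‖c'‖ < ‖t‖ → ‖t‖ < 1 → ‖c‖ < ‖evE t (φ (tA k c)).1‖ ∧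
      ‖evE t (φ (tA k c)).1‖ < 1) : φ = ψ := by
  ext1 a
  apply Subtype.ext
  refine evE_ext hc0' hc1' (φ a).2 (ψ a).2 ?_
  refine (infinite_ann k hc0' hc1').mono ?_
  rintro t ⟨h1, h2⟩
  refine ⟨h1, h2, ?_⟩
  obtain ⟨h3, h4⟩ := hr t h1 h2
  have e1 := algHom_eq_evE hc0 hc1 ((evt hc0' t h1 h2).comp φ) rfl h3 h4 a
  have e2 := algHom_eq_evE hc0 hc1 ((evt hc0' t h1 h2).comp ψ)
    (t := evE t (φ (tA k c)).1) (by rw [h]; rfl) h3 h4 a
  exact e1.trans e2.symm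

/-- **Uniqueness** of homomorphisms `AN c → BD` -/
theorem algHom_ext_BD (hc0 : c ≠ 0) (hc1 : ‖c‖ < 1) {φ ψ : AN k c →ₐ[C] BD k C}
    (h : φ (tA k c) = ψ (tA k c))
    (hr : ∀ t : C, ‖t‖ < 1 → ‖c‖ < ‖evp t (φ (tA k c)).1‖ ∧ ‖evp t (φ (tA k c)).1‖ < 1) :
    φ = ψ := by
  ext1 a
  apply Subtype.ext
  refine evp_ext' hk.out (φ a).2 (ψ a).2 fun t ht => ?_
  obtain ⟨h3, h4⟩ := hr t ht
  have e1 := algHom_eq_evE hc0 hc1 ((ev (k := k) t ht).comp φ) rfl h3 h4 a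
  have e2 := algHom_eq_evE hc0 hc1 ((ev (k := k) t ht).comp ψ)
    (t := evp t (φ (tA k c)).1) (by rw [h]; rfl) h3 h4 a
  exact e1.trans e2.symm

end Crest.Agent.R013.CAn_243
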