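import Crest.Agent.R013.Good0_408

/-! # R013 / Sub2_270 : base change of good cells, abstract core.

`Inj φ ι b` for a cell passes to a subcell: `R : Fc → Fc'` restriction of functions of the cell of the
line, `ρ j i : E j → E' j i` restriction to the components of the preimage of the subcell, `φ' j i`. -/

set_option autoImplicit false

namespace Crest.Agent.R013.Good_408

variable {Fc Fc' K : Type*} [Field Fc] [Field Fc'] [Field K]
variable {J : Type*} {E : J → Type*} [∀ j, Field (E j)]
variable {φ : ∀ j, Fc →+* E j} {ι : ∀ j, K →+* E j}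

/-- `Inj` passes to subcells. -/
theorem Inj.sub [Fintype J] {I : Type*} [Fintype I] {b : I → K} (hb : Inj φ ι b)
    (m : J → ℕ) (hm : ∑ j, m j ≤ Fintype.card I) (β : ∀ j, Fin (m j) → E j)
    (hβ : ∀ j z, ∃ e : Fin (m j) → Fc, z = ∑ l, φ j (e l) * β j l)
    (R : Fc →+* Fc') {N : J → Type*} {E' : ∀ j, N j → Type*} [∀ j i, Field (E' j i)]
    (ρ : ∀ j i, E j →+* E' j i) (φ' : ∀ j i, Fc' →+* E' j i)
    (hcomp : ∀ j i a, φ' j i (R a) = ρ j i (φ j a))
    (hli : ∀ j (e : Fin (m j) → Fc'), (∀ i, ∑ l, φ' j i (e l) * ρ j i (β j l) = 0) → e = 0) :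
    Inj (J := Σ j, N j) (E := fun p => E' p.1 p.2) (fun p => φ' p.1 p.2)
      (fun p => (ρ p.1 p.2).comp (ι p.1)) b := by
  classical
  have hs := hb.surj m hm (fun j => ⟨β j, hβ j⟩)
  -- the matrix `X`
  choose X hX using fun p : (Σ j, Fin (m j)) => hs (fun j' =>
    if h : p.1 = j' then h ▸ β p.1 p.2 else 0)
  -- the matrix `Y`
  choose Y hY using fun (i : I) (j : J) => hβ j (ι j (b i))
  have hYX : ∀ i0 i, ∑ p : (Σ j, Fin (m j)), Y i0 p.1 p.2 * X p i = if i = i0 then 1 else 0 := by
    intro i0
    have h1 : (fun i => (∑ p : (Σ j, Fin (m j)), Y i0 p.1 p.2 * X p i) -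
        if i = i0 then (1 : Fc) else 0) = 0 := by
      refine hb _ fun j' => ?_
      simp only [map_sub, sub_mul, Finset.sum_sub_distrib]
      rw [sub_eq_zero]
      have h2 : ∑ i, φ j' (if i = i0 then (1 : Fc) else 0) * ι j' (b i) = ι j' (b i0) := by
        rw [Finset.sum_eq_single i0]
        · simp
        · intro i _ hi; simp [hi]
        · intro h; exact absurd (Finset.mem_univ _) h
      rw [h2]
      have h3 : ∀ i, φ j' (∑ p : (Σ j, Fin (m j)), Y i0 p.1 p.2 * X p i) * ι j' (b i) =
          ∑ p : (Σ j, Fin (m j)), φ j' (Y i0 p.1 p.2) * (φ j' (X p i) * ι j' (b i)) := by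
        intro i
        rw [map_sum, Finset.sum_mul]
        refine Finset.sum_congr rfl fun p _ => ?_
        rw [map_mul, mul_assoc]
      simp only [h3]
      rw [Finset.sum_comm]
      simp only [← Finset.mul_sum, hX]
      rw [Fintype.sum_sigma, Finset.sum_eq_single j']
      · simp only [dif_pos]
        exact (hY i0 j').symm
      · intro j _ hj
        refine Finset.sum_eq_zero fun l _ => ?_
        rw [dif_neg hj, mul_zero]
      · intro h; exact absurd (Finset.mem_univ _) h
    intro i
    have := congrFun h1 i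
    simpa [sub_eq_zero] using this
  intro e he
  have h4 : ∀ p : (Σ j, Fin (m j)), ∑ i, e i * R (Y i p.1 p.2) = 0 := by
    rintro ⟨j, l⟩
    have h5 : (fun l => ∑ i, e i * R (Y i j l)) = 0 := by
      refine hli j _ fun i' => ?_
      have h6 := he ⟨j, i'⟩
      simp only [RingHom.comp_apply] at h6
      rw [← h6]
      have h7 : ∀ i, φ' j i' (e i) * ρ j i' (ι j (b i)) =
          ∑ l, φ' j i' (e i * R (Y i j l)) * ρ j i' (β j l) := by
        intro i
        conv_lhs => rw [hY i j, map_sum, Finset.mul_sum]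
        refine Finset.sum_congr rfl fun l _ => ?_
        rw [map_mul, map_mul, hcomp]; ring
      simp only [h7]
      rw [Finset.sum_comm]
      refine Finset.sum_congr rfl fun l _ => ?_
      rw [map_sum, Finset.sum_mul]
    exact congrFun h5 l
  funext i
  have h8 : e i = ∑ i0, e i0 * R (∑ p : (Σ j, Fin (m j)), Y i0 p.1 p.2 * X p i) := by
    simp only [hYX]
    rw [Finset.sum_eq_single i]
    · simp
    · intro i0 _ hi0; simp [Ne.symm hi0]
    · intro h; exact absurd (Finset.mem_univ _) h
  rw [h8]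
  simp only [map_sum, map_mul, Finset.mul_sum]
  rw [Finset.sum_comm]
  refine Finset.sum_eq_zero fun p _ => ?_
  have h9 : ∀ i0, e i0 * (R (Y i0 p.1 p.2) * R (X p i)) = (e i0 * R (Y i0 p.1 p.2)) * R (X p i) :=
    fun i0 => (mul_assoc _ _ _).symm
  simp only [h9]
  rw [← Finset.sum_mul, h4 p, zero_mul]

end Crest.Agent.R013.Good_408
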