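import Crest.Agent.R013.Sub1_270
import Crest.Agent.R013.Sub2_270
import Crest.Agent.R013.Comp4_267

/-! # R013 / Sub3_270 : restriction homs `resF α b : FD → FD` (`T ↦ α + b T`) and (S1) in unbundled
form: a good disc restricts to good subdiscs. -/

set_option autoImplicit false
set_option linter.unusedSectionVars false
set_option linter.style.haveILetI false

noncomputable section

namespace Crest.Agent.R013.Sub_270

open Topology Crest.Agent.R013.Cell_408 Crest.Agent.R013.Clu_270 Crest.Agent.R013.Comp_267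
  Crest.Agent.R013.Good_408

variable {k C : Type*} [NontriviallyNormedField k] [CompleteSpace k] [IsUltrametricDist k]
  [NormedField C] [IsUltrametricDist C] [NormedAlgebra k C] [Algebra.IsAlgebraic k C] [IsAlgClosed C]

theorem evp_aff (α b t : C) : evp t (aff α b) = α + b * t := by
  have h : aff α b = ((Polynomial.C α + Polynomial.C b * Polynomial.X : Polynomial C) :
      PowerSeries C) := by
    rw [Polynomial.coe_add, Polynomial.coe_mul, Polynomial.coe_C, Polynomial.coe_C,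
      Polynomial.coe_X]; rfl
  rw [h, evp_coe]; simp

theorem comp_aff_injective (hk : DiscNorm k) {α b : C} (hα : ‖α‖ < 1) (hb0 : b ≠ 0) (hb : ‖b‖ ≤ 1) :
    Function.Injective (comp (aff α b) (co_aff (k := k) hα hb)) := by
  intro g h hgh
  apply Subtype.ext
  refine evp_ext hk g.2 h.2 ?_
  have hinj : Function.Injective fun t : C => α + b * t := fun x y hxy =>
    mul_left_cancel₀ hb0 (add_left_cancel hxy)
  refine (((infinite_disc k C).image hinj.injOn).mono ?_)
  rintro _ ⟨t, ht, rfl⟩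
  have ht' : ‖t‖ < 1 := ht
  have h1 := congrArg (ev (k := k) t ht') hgh
  rw [ev_comp hk, ev_comp hk] at h1
  have h2 : evp t (aff α b) = α + b * t := evp_aff α b t
  refine ⟨?_, ?_⟩
  · have := (co_aff (k := k) hα hb).norm_evp ht'
    rwa [h2] at this
  · change evp (evp t (aff α b)) (g : PowerSeries C) = evp (evp t (aff α b)) (h : PowerSeries C) at h1
    rwa [h2] at h1

/-- `BD → FD`, `g ↦ g(α + b T)` -/
def resBF {α b : C} (hα : ‖α‖ < 1) (hb : ‖b‖ ≤ 1) : BD k C →ₐ[C] FD k C :=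
  (IsScalarTower.toAlgHom C (BD k C) (FD k C)).comp (comp (aff α b) (co_aff hα hb))

theorem resBF_apply {α b : C} (hα : ‖α‖ < 1) (hb : ‖b‖ ≤ 1) (g : BD k C) :
    resBF hα hb g = algebraMap (BD k C) (FD k C) (comp (aff α b) (co_aff hα hb) g) := rfl

theorem resBF_injective (hk : DiscNorm k) {α b : C} (hα : ‖α‖ < 1) (hb0 : b ≠ 0) (hb : ‖b‖ ≤ 1) :
    Function.Injective (resBF (k := k) hα hb) := fun _ _ h =>
  comp_aff_injective hk hα hb0 hb (IsFractionRing.injective (BD k C) (FD k C) h)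

/-- restriction to the disc `α + b T` on `FD` -/
def resF (hk : DiscNorm k) {α b : C} (hα : ‖α‖ < 1) (hb0 : b ≠ 0) (hb : ‖b‖ ≤ 1) :
    FD k C →ₐ[C] FD k C :=
  IsFractionRing.liftAlgHom (K := FD k C) (g := resBF hα hb) (resBF_injective hk hα hb0 hb)

theorem resF_algebraMap (hk : DiscNorm k) {α b : C} (hα : ‖α‖ < 1) (hb0 : b ≠ 0) (hb : ‖b‖ ≤ 1)
    (g : BD k C) : resF hk hα hb0 hb (algebraMap (BD k C) (FD k C) g) =
      algebraMap (BD k C) (FD k C) (comp (aff α b) (co_aff hα hb) g) := by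
  unfold resF
  rw [IsFractionRing.liftAlgHom_apply, IsFractionRing.lift_algebraMap]
  exact resBF_apply hα hb g

theorem resF_TF (hk : DiscNorm k) {α b : C} (hα : ‖α‖ < 1) (hb0 : b ≠ 0) (hb : ‖b‖ ≤ 1) :
    resF hk hα hb0 hb (TF k C) = algebraMap C (FD k C) α + algebraMap C (FD k C) b * TF k C := by
  have h : comp (aff α b) (co_aff (k := k) hα hb) XB =
      algebraMap C (BD k C) α + algebraMap C (BD k C) b * XB := by
    rw [comp_X]; rfl
  rw [TF, resF_algebraMap, h, map_add, map_mul, ← IsScalarTower.algebraMap_apply,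
    ← IsScalarTower.algebraMap_apply]

/-- `resF` commutes with `compF` along a relation of series -/
theorem resF_compF (hk : DiscNorm k) {α b c r : C} (hα : ‖α‖ < 1) (hb0 : b ≠ 0) (hb : ‖b‖ ≤ 1)
    (hc : ‖c‖ < 1) (hr0 : r ≠ 0) (hr : ‖r‖ ≤ 1) {f g : PowerSeries C} {m n : ℕ} (hf : WD k f m)
    (hm : m ≠ 0) (hg : WD k g n) (hn : n ≠ 0) (h : compS (aff α b) f = compS g (aff c r))
    (G : FD k C) : resF hk hα hb0 hb (compF hk hf hm G) = compF hk hg hn (resF hk hc hr0 hr G) := by
  have key : (resF hk hα hb0 hb).comp (compF hk hf hm) =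
      (compF hk hg hn).comp (resF hk hc hr0 hr) := by
    refine AlgHom.coe_ringHom_injective (IsFractionRing.ringHom_ext (A := BD k C) fun a => ?_)
    change resF hk hα hb0 hb (compF hk hf hm (algebraMap (BD k C) (FD k C) a)) =
      compF hk hg hn (resF hk hc hr0 hr (algebraMap (BD k C) (FD k C) a))
    rw [compF_algebraMap, resF_algebraMap, resF_algebraMap, compF_algebraMap]
    congr 1
    apply Subtype.ext
    change compS (aff α b) (compS f (a : PowerSeries C)) = compS g (compS (aff c r) (a : PowerSeries C))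
    rw [compS_compS hk (co_aff (k := k) hα hb) (WD.co hf hm) a.2,
      compS_compS hk (WD.co hg hn) (co_aff (k := k) hc hr) a.2, h]
  exact DFunLike.congr_fun key G

/-- independence on the level of `FD` -/
theorem indep_FD (hk : DiscNorm k) {m n : ℕ} (α b : Fin n → C) (hα : ∀ i, ‖α i‖ < 1)
    (hb0 : ∀ i, b i ≠ 0) (hb : ∀ i, ‖b i‖ ≤ 1) (mm : Fin n → ℕ) (g : Fin n → PowerSeries C)
    (hg : ∀ i, WD k (g i) (mm i)) (hmm : ∀ i, mm i ≠ 0)
    (hind : ∀ (e : Fin m → BD k C), (∀ i, ∑ s, comp (g i) (WD.co (hg i) (hmm i)) (e s) *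
        (comp (aff (α i) (b i)) (co_aff (hα i) (hb i)) XB) ^ (s : ℕ) = 0) → e = 0)
    (e : Fin m → FD k C) (he : ∀ i, ∑ s, compF hk (hg i) (hmm i) (e s) *
        resF hk (hα i) (hb0 i) (hb i) (TF k C ^ (s : ℕ)) = 0) : e = 0 := by
  classical
  obtain ⟨d, hd⟩ := IsLocalization.exist_integer_multiples_of_finite (nonZeroDivisors (BD k C)) e
  choose A hA using hd
  have hinj := IsFractionRing.injective (BD k C) (FD k C)
  have hd0 : (d : BD k C) ≠ 0 := nonZeroDivisors.ne_zero d.2
  have hd1 : algebraMap (BD k C) (FD k C) (d : BD k C) ≠ 0 := fun h =>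
    hd0 (hinj (h.trans (map_zero _).symm))
  have hA' : ∀ i, algebraMap (BD k C) (FD k C) (A i) =
      algebraMap (BD k C) (FD k C) (d : BD k C) * e i := by
    intro i
    rw [hA i, Algebra.smul_def]
  have h1 : A = 0 := by
    refine hind A fun i => ?_
    apply hinj
    rw [map_sum, map_zero]
    have h3 : ∀ s : Fin m, algebraMap (BD k C) (FD k C)
        (comp (g i) (WD.co (hg i) (hmm i)) (A s) *
          (comp (aff (α i) (b i)) (co_aff (hα i) (hb i)) XB) ^ (s : ℕ)) =
        compF hk (hg i) (hmm i) (algebraMap (BD k C) (FD k C) (d : BD k C)) *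
          (compF hk (hg i) (hmm i) (e s) * resF hk (hα i) (hb0 i) (hb i) (TF k C ^ (s : ℕ))) := by
      intro s
      rw [map_mul, map_pow, ← compF_algebraMap hk (hg i) (hmm i), hA', map_mul, map_pow, TF,
        resF_algebraMap]
      ring
    simp only [h3]
    rw [← Finset.mul_sum, he i, mul_zero]
  funext i
  have h5 := hA' i
  rw [h1, Pi.zero_apply, map_zero] at h5
  exact (mul_eq_zero.1 h5.symm).resolve_left hd1

/-- **(S1)**, unbundled: restriction of a good disc to the subdisc `c + r T`. -/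
theorem sub_disc (hk : DiscNorm k) {K : Type*} [Field K] {J : Type} [Fintype J] {I : Type*} [Fintype I]
    (b : I → K) (m : J → ℕ) (hm : ∀ j, m j ≠ 0) (f : J → PowerSeries C) (hf : ∀ j, WD k (f j) (m j))
    (ι : J → (K →+* FD k C)) (hsum : ∑ j, m j = Fintype.card I)
    (hinj : Inj (fun j => (compF hk (hf j) (hm j)).toRingHom) ι b)
    {c r : C} (hc : ‖c‖ < 1) (hr0 : r ≠ 0) (hr : ‖r‖ ≤ 1) :
    ∃ (J' : Type) (_ : Fintype J') (p : J' → J) (m' : J' → ℕ) (hm' : ∀ j, m' j ≠ 0)
      (f' : J' → PowerSeries C) (hf' : ∀ j, WD k (f' j) (m' j)) (α β : J' → C)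
      (hα : ∀ j, ‖α j‖ < 1) (hβ0 : ∀ j, β j ≠ 0) (hβ : ∀ j, ‖β j‖ ≤ 1),
      ∑ j, m' j = Fintype.card I ∧
      (∀ j, compS (aff (α j) (β j)) (f (p j)) = compS (f' j) (aff c r)) ∧
      (∀ j G, resF hk (hα j) (hβ0 j) (hβ j) (compF hk (hf (p j)) (hm (p j)) G) =
        compF hk (hf' j) (hm' j) (resF hk hc hr0 hr G)) ∧
      Inj (fun j => (compF hk (hf' j) (hm' j)).toRingHom)
        (fun j => (resF hk (hα j) (hβ0 j) (hβ j)).toRingHom.comp (ι (p j))) b := by
  classical
  choose n α β hα hβ mm g hg hgc hβ0 hmm hs hrel hind using fun j =>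
    exists_sub (Nat.one_le_iff_ne_zero.2 (hm j)) (hf j) hc hr0 hr
  have hmm' : ∀ j i, mm j i ≠ 0 := fun j i => Nat.one_le_iff_ne_zero.1 (hmm j i)
  refine ⟨Σ j, Fin (n j), inferInstance, fun p => p.1, fun p => mm p.1 p.2, fun p => hmm' _ _,
    fun p => g p.1 p.2, fun p => hg _ _, fun p => α p.1 p.2, fun p => β p.1 p.2, fun p => hα _ _,
    fun p => hβ0 _ _, fun p => hβ _ _, ?_, fun p => hrel _ _, fun p G => ?_, ?_⟩
  · rw [Fintype.sum_sigma, ← hsum]
    exact Finset.sum_congr rfl fun j _ => hs j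
  · exact resF_compF hk _ _ _ hc hr0 hr _ _ _ _ (hrel p.1 p.2) G
  · refine Inj.sub hinj m hsum.le (fun j l => TF k C ^ (l : ℕ))
      (fun j z => compF_repr hk (hf j) (hm j) z) (resF hk hc hr0 hr).toRingHom
      (E' := fun _ _ => FD k C)
      (fun j i => (resF hk (hα j i) (hβ0 j i) (hβ j i)).toRingHom)
      (fun j i => (compF hk (hg j i) (hmm' j i)).toRingHom) (fun j i a => ?_) (fun j e he => ?_)
    · exact (resF_compF hk _ _ _ hc hr0 hr _ _ _ _ (hrel j i) a).symm
    · exact indep_FD hk (α j) (β j) (hα j) (hβ0 j) (hβ j) (mm j) (g j) (hg j) (hmm' j)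
        (fun e he => hind j e he) e he

end Crest.Agent.R013.Sub_270
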