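import Crest.Agent.R013.CAn5_243
import Crest.Agent.R013.Sub3_270

/-!
# Row 13, leaf COMP-AN (helper243), file 6: discs in annuli

`compC f : AN c →ₐ[C] BD`, `T ↦ f`, for `f ∈ BD` with `|f_n| ≤ |f_0|`, `|c| < |f_0| < 1`; the special
case `resA α r : T ↦ α + r T` (`|c| < |α| < 1`, `|r| ≤ |α|`), and the maps `FA c →ₐ[C] FD`.
-/

set_option autoImplicit false
set_option linter.unusedSectionVars false
open Filter Topology
open Crest.Agent.R013.Cell_408
open Crest.Agent.R013.EE809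
open Crest.Agent.R013.AnW_201 (InA evE lin evE_mul evE_add evE_mo evE_lin inA_lin inA_mo evE_zero_iff_dvd)
open Crest.Agent.R013.Pow1_931 (Pos fac exists_inv_pos pos_ofBD)
open Crest.Agent.R013.Comp_267 (FD XB comp Co WD.co comp_X TF compF)
open Crest.Agent.R013.Sub_270 (aff)

namespace Crest.Agent.R013.CAn_243

variable {k : Type*} [NontriviallyNormedField k] [CompleteSpace k]
variable {C : Type*} [NormedField C] [IsUltrametricDist C] [NormedAlgebra k C]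
variable [Algebra.IsAlgebraic k C]

/-- the values of `f` lie on one circle of the annulus -/
structure WC (c : C) (f : BD k C) : Prop where
  le : ∀ n, ‖PowerSeries.coeff n f.1‖ ≤ ‖PowerSeries.coeff 0 f.1‖
  lt : ‖c‖ < ‖PowerSeries.coeff 0 f.1‖
  lt' : ‖PowerSeries.coeff 0 f.1‖ < 1

variable [IsUltrametricDist k] [IsAlgClosed C] [hk : Fact (DiscNorm k)]

variable {c : C} {f : BD k C}

theorem WC.pos (h : WC c f) : 0 < ‖PowerSeries.coeff 0 f.1‖ := (norm_nonneg c).trans_lt h.lt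

theorem WC.ne (h : WC c f) : PowerSeries.coeff 0 f.1 ≠ 0 := norm_pos_iff.1 h.pos

theorem WC.gn (h : WC c f) : gn (ofBD f) = ‖PowerSeries.coeff 0 f.1‖ := by
  refine le_antisymm (gn_le fun n => ?_) ?_
  · rcases lt_or_ge n 0 with hn | hn
    · rw [co_ofBD_neg _ hn, norm_zero]; exact norm_nonneg _
    · obtain ⟨i, rfl⟩ := Int.eq_ofNat_of_zero_le hn
      rw [co_ofBD_nat]; exact h.le i
  · have := le_gn (ofBD f) ((0 : ℕ) : ℤ)
    rwa [co_ofBD_nat] at this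

theorem WC.ne_zero (h : WC c f) : (ofBD f : EE k C) ≠ 0 := by
  intro h0
  have := h.gn
  rw [h0, gn_zero] at this
  exact h.pos.ne this

theorem WC.pos_zpow (h : WC c f) (n : ℤ) : Pos ((ofBD f : EE k C) ^ n) := by
  set α := PowerSeries.coeff 0 f.1 with hα
  have hα0 : α ≠ 0 := h.ne
  set U : EE k C := algebraMap C (EE k C) α⁻¹ * ofBD f with hU
  have hUn : ∀ n, U.co n = α⁻¹ * (ofBD f).co n := fun n => by
    rw [hU, algebraMap_eq, co_mo_mul, sub_zero]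
  have h1 : Pos U := fun n hn => by rw [hUn, co_ofBD_neg _ hn, mul_zero]
  have h2 : EE809.gn U ≤ 1 := by
    rw [hU, gn_mul hk.out, gn_algebraMap, h.gn, norm_inv, inv_mul_cancel₀ (norm_ne_zero_iff.2 hα0)]
  have h3 : ‖U.co 0‖ = 1 := by
    have := co_ofBD_nat f 0
    rw [Nat.cast_zero] at this
    rw [hUn, this, ← hα, inv_mul_cancel₀ hα0, norm_one]
  have h4 := CAn_243.Pos.zpow h1 h2 h3 n
  have e : (ofBD f : EE k C) ^ n = algebraMap C (EE k C) (α ^ n) * U ^ n := by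
    rw [hU, mul_zpow, ← map_zpow₀ (algebraMap C (EE k C)), inv_zpow, ← mul_assoc, ← map_mul,
      mul_inv_cancel₀ (zpow_ne_zero n hα0), map_one, one_mul]
  intro i hi
  rw [e, algebraMap_eq, co_mo_mul, sub_zero, h4 i hi, mul_zero]

theorem WC.norm_pc (h : WC c f) (n j : ℤ) : ‖pc (ofBD f : EE k C) n j‖ ≤ ‖PowerSeries.coeff 0 f.1‖ ^ n := by
  have := le_gn ((ofBD f : EE k C) ^ n) j
  rwa [gn_zpow, h.gn] at this

/-- every `g ∈ AN c` is admissible -/
theorem WC.adm (h : WC c f) (hc0 : c ≠ 0) {g : EE k C} (hg : g ∈ AN k c) :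
    Adm (ofBD f : EE k C) g := by
  have hc : 0 < ‖c‖ := norm_pos_iff.2 hc0
  obtain ⟨M, hM0, hM1, hM2⟩ := AN.bd2 hg
  have h1 : Bdd ‖PowerSeries.coeff 0 f.1‖ M g :=
    Bdd.interp hc h.lt.le h.lt'.le hM2 fun n => by rw [one_zpow, mul_one]; exact hM1 n
  have h2 := AnW_201.tendsto_evE h.lt h.lt' hg hc0
  have key : ∀ n j, ‖g.co n * pc (ofBD f : EE k C) n j‖ ≤ ‖g.co n * PowerSeries.coeff 0 f.1 ^ n‖ := by
    intro n j
    rw [norm_mul, norm_mul, norm_zpow]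
    exact mul_le_mul_of_nonneg_left (h.norm_pc n j) (norm_nonneg _)
  refine ⟨h.ne_zero, ⟨M, hM0, fun n j => (key n j).trans ?_⟩, fun ε hε => ⟨0, fun n j hj => ?_⟩,
    fun ε hε J => ?_⟩
  · rw [norm_mul, norm_zpow]; exact h1 n
  · have : pc (ofBD f : EE k C) n j = 0 := h.pos_zpow n j hj
    rw [this, mul_zero, norm_zero]
    exact hε
  · rw [Metric.tendsto_nhds] at h2
    have h3 := h2 ε hε
    rw [eventually_cofinite] at h3
    refine h3.subset ?_
    rintro n ⟨j, -, hn⟩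
    rw [Set.mem_ofPred_eq, dist_zero_right, not_lt]
    exact hn.trans (key n j)

theorem WC.pos_co' (h : WC c f) (hc0 : c ≠ 0) {g : EE k C} (hg : g ∈ AN k c) :
    Pos (co' (ofBD f : EE k C) g) := by
  intro j hj
  rw [(h.adm hc0 hg).co_co']
  have : ∀ n, g.co n * pc (ofBD f : EE k C) n j = 0 := fun n => by
    have h1 : pc (ofBD f : EE k C) n j = 0 := h.pos_zpow n j hj
    rw [h1, mul_zero]
  simp only [this, tsum_zero]

theorem WC.ofBD_posPart (h : WC c f) (hc0 : c ≠ 0) {g : EE k C} (hg : g ∈ AN k c) :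
    ofBD (posPart (co' (ofBD f : EE k C) g)) = co' (ofBD f) g :=
  (h.pos_co' hc0 hg).eq_ofBD

/-- **`T ↦ f`**, `AN c → BD` -/
noncomputable def compC (hc0 : c ≠ 0) (f : BD k C) (h : WC c f) : AN k c →ₐ[C] BD k C where
  toFun g := posPart (co' (ofBD f) g.1)
  map_one' := by
    apply ofBD_injective
    rw [h.ofBD_posPart hc0 (1 : AN k c).2, map_one]
    exact co'_one h.ne_zero
  map_mul' a b := by
    apply ofBD_injective
    rw [h.ofBD_posPart hc0 (a * b).2, map_mul, h.ofBD_posPart hc0 a.2, h.ofBD_posPart hc0 b.2]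
    exact co'_mul (h.adm hc0 a.2) (h.adm hc0 b.2)
  map_zero' := by
    apply ofBD_injective
    rw [h.ofBD_posPart hc0 (0 : AN k c).2, map_zero]
    exact co'_zero h.ne_zero
  map_add' a b := by
    apply ofBD_injective
    rw [h.ofBD_posPart hc0 (a + b).2, map_add, h.ofBD_posPart hc0 a.2, h.ofBD_posPart hc0 b.2]
    exact co'_add (h.adm hc0 a.2) (h.adm hc0 b.2)
  commutes' x := by
    apply ofBD_injective
    rw [h.ofBD_posPart hc0 (algebraMap C (AN k c) x).2, ofBD_algebraMap]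
    show co' (ofBD f) (mono 0 x (EE809.finDef_const x)) = mono 0 x (EE809.finDef_const x)
    rw [co'_mono h.ne_zero, zpow_zero, mul_one]

theorem ofBD_compC (hc0 : c ≠ 0) (h : WC c f) (g : AN k c) :
    ofBD (compC hc0 f h g) = co' (ofBD f : EE k C) g.1 := h.ofBD_posPart hc0 g.2

theorem coeff_compC (hc0 : c ≠ 0) (h : WC c f) (g : AN k c) (j : ℕ) :
    PowerSeries.coeff j (compC hc0 f h g).1 = ∑' n : ℤ, g.1.co n * ((ofBD f : EE k C) ^ n).co j := by
  have h1 := congrArg (fun a : EE k C => a.co j) (ofBD_compC hc0 h g)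
  simp only [co_ofBD_nat] at h1
  rw [h1, (h.adm hc0 g.2).co_co']
  rfl

theorem compC_tA (hc0 : c ≠ 0) (h : WC c f) : compC hc0 f h (tA k c) = f := by
  apply ofBD_injective
  rw [ofBD_compC]
  show co' (ofBD f) (mono 1 1 (EE809.finDef_const 1)) = _
  rw [co'_mono h.ne_zero, zpow_one]
  exact one_mul _

theorem WC.norm_evp (h : WC c f) {t : C} (ht : ‖t‖ < 1) :
    ‖evp t f.1‖ = ‖PowerSeries.coeff 0 f.1‖ := by
  set α := PowerSeries.coeff 0 f.1 with hα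
  have hα0 : α ≠ 0 := h.ne
  have hu : IsU k (PowerSeries.C α⁻¹ * f.1) := by
    refine ⟨(mul_mem (C_mem_BD α⁻¹) f.2).1, fun n => ?_, ?_⟩
    · rw [PowerSeries.coeff_C_mul, norm_mul, norm_inv, ← div_eq_inv_mul,
        div_le_one (norm_pos_iff.2 hα0)]
      exact h.le n
    · rw [PowerSeries.coeff_C_mul, ← hα, inv_mul_cancel₀ hα0, norm_one]
  have e : f.1 = PowerSeries.C α * (PowerSeries.C α⁻¹ * f.1) := by
    rw [← mul_assoc, ← map_mul, mul_inv_cancel₀ hα0, map_one, one_mul]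
  rw [e, evp_mul (C_mem_BD α) hu.mem ht, evp_C, norm_mul, hu.norm_evp ht, mul_one]

/-- **pointwise formula** -/
theorem evp_compC (hc0 : c ≠ 0) (hc1 : ‖c‖ < 1) (h : WC c f) (g : AN k c) {t : C} (ht : ‖t‖ < 1) :
    evp t (compC hc0 f h g).1 = evE (evp t f.1) g.1 := by
  refine algHom_eq_evE hc0 hc1 ((ev (k := k) t ht).comp (compC hc0 f h)) ?_ ?_ ?_ g
  · rw [AlgHom.comp_apply, compC_tA]; rfl
  · rw [h.norm_evp ht]; exact h.lt
  · rw [h.norm_evp ht]; exact h.lt'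

theorem algHom_eq_compC (hc0 : c ≠ 0) (hc1 : ‖c‖ < 1) (h : WC c f) (φ : AN k c →ₐ[C] BD k C)
    (hφ : φ (tA k c) = f) : φ = compC hc0 f h :=
  algHom_ext_BD hc0 hc1 (by rw [hφ, compC_tA]) fun t ht => by
    rw [hφ, h.norm_evp ht]; exact ⟨h.lt, h.lt'⟩

/-- injectivity if `f` is not constant -/
theorem compC_injective (hc0 : c ≠ 0) (hc1 : ‖c‖ < 1) (h : WC c f)
    (hn : ∀ y : C, f ≠ algebraMap C (BD k C) y) : Function.Injective (compC hc0 f h) := by
  rw [injective_iff_map_eq_zero]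
  intro g hg
  by_contra hne
  have hg0 : g.1 ≠ 0 := fun h0 => hne (Subtype.ext h0)
  -- the values of `f` are zeros of `g`
  have hZ := finite_zeros_AN hc0 hc1 g.2 hg0
  refine infinite_disc k C ?_
  have hsub : {t : C | ‖t‖ < 1} ⊆ ⋃ z ∈ {t : C | ‖c‖ < ‖t‖ ∧ ‖t‖ < 1 ∧ evE t g.1 = 0},
      {t : C | ‖t‖ < 1 ∧ evp t (f - algebraMap C (BD k C) z).1 = 0} := by
    intro t ht
    have ht' : ‖t‖ < 1 := ht
    rw [Set.mem_iUnion₂]
    refine ⟨evp t f.1, ⟨?_, ?_, ?_⟩, ht', ?_⟩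
    · rw [h.norm_evp ht']; exact h.lt
    · rw [h.norm_evp ht']; exact h.lt'
    · rw [← evp_compC hc0 hc1 h g ht', hg]
      exact map_zero (ev (k := k) t ht')
    · have := map_sub (ev (k := k) t ht') f (algebraMap C (BD k C) (evp t f.1))
      rw [AlgHom.commutes] at this
      have h2 : ev (k := k) t ht' f = evp t f.1 := rfl
      rw [h2] at this
      simp only [Algebra.algebraMap_self, RingHom.id_apply, sub_self] at this
      exact this
  refine (Set.Finite.biUnion hZ fun z _ => ?_).subset hsub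
  exact finite_zeros hk.out (f - algebraMap C (BD k C) z).2 fun h0 =>
    hn z (sub_eq_zero.1 (Subtype.ext h0))

/-! ### the disc `α + r T` -/

theorem coeff_aff_zero (α r : C) : PowerSeries.coeff 0 (aff α r) = α := by
  simp [aff]

theorem coeff_aff_one (α r : C) : PowerSeries.coeff 1 (aff α r) = r := by
  simp [aff, PowerSeries.coeff_C, PowerSeries.coeff_X]

theorem coeff_aff_of (α r : C) {n : ℕ} (h0 : n ≠ 0) (h1 : n ≠ 1) :
    PowerSeries.coeff n (aff α r) = 0 := by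
  simp [aff, PowerSeries.coeff_C, PowerSeries.coeff_X, h0, h1]

omit [IsUltrametricDist k] [IsAlgClosed C] hk in
theorem aff_mem (α r : C) : aff α r ∈ BD k C := by
  have h : aff α r = ((Polynomial.C α + Polynomial.C r * Polynomial.X : Polynomial C) :
      PowerSeries C) := by
    rw [Polynomial.coe_add, Polynomial.coe_mul, Polynomial.coe_C, Polynomial.coe_C,
      Polynomial.coe_X]; rfl
  rw [h]; exact coe_mem_BD _

variable (k) in
/-- `α + r T` in `BD` -/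
noncomputable def affB (α r : C) : BD k C := ⟨aff α r, aff_mem α r⟩

omit [IsUltrametricDist k] [IsAlgClosed C] hk in
theorem affB_eq (α r : C) : affB k α r = algebraMap C (BD k C) α + algebraMap C (BD k C) r * XB := rfl

theorem wc_aff {α r : C} (h1 : ‖c‖ < ‖α‖) (h2 : ‖α‖ < 1) (h3 : ‖r‖ ≤ ‖α‖) : WC c (affB k α r) := by
  refine ⟨fun n => ?_, ?_, ?_⟩
  · show ‖PowerSeries.coeff n (aff α r)‖ ≤ ‖PowerSeries.coeff 0 (aff α r)‖
    rw [coeff_aff_zero]
    by_cases h0 : n = 0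
    · rw [h0, coeff_aff_zero]
    by_cases h1 : n = 1
    · rw [h1, coeff_aff_one]; exact h3
    rw [coeff_aff_of _ _ h0 h1, norm_zero]; exact norm_nonneg _
  · show ‖c‖ < ‖PowerSeries.coeff 0 (aff α r)‖
    rw [coeff_aff_zero]; exact h1
  · show ‖PowerSeries.coeff 0 (aff α r)‖ < 1
    rw [coeff_aff_zero]; exact h2

/-- **restriction to the disc `α + r T`** -/
noncomputable def resA (hc0 : c ≠ 0) {α r : C} (h1 : ‖c‖ < ‖α‖) (h2 : ‖α‖ < 1) (h3 : ‖r‖ ≤ ‖α‖) :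
    AN k c →ₐ[C] BD k C := compC hc0 (affB k α r) (wc_aff h1 h2 h3)

theorem resA_tA (hc0 : c ≠ 0) {α r : C} (h1 : ‖c‖ < ‖α‖) (h2 : ‖α‖ < 1) (h3 : ‖r‖ ≤ ‖α‖) :
    resA hc0 h1 h2 h3 (tA k c) = affB k α r := compC_tA _ _

theorem evp_resA (hc0 : c ≠ 0) {α r : C} (h1 : ‖c‖ < ‖α‖) (h2 : ‖α‖ < 1) (h3 : ‖r‖ ≤ ‖α‖)
    (g : AN k c) {t : C} (ht : ‖t‖ < 1) :
    evp t (resA hc0 h1 h2 h3 g).1 = evE (α + r * t) g.1 := by
  rw [resA, evp_compC hc0 (h1.trans h2)]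
  · congr 1
    exact Sub_270.evp_aff α r t
  · exact ht

theorem aff_ne_const {α r : C} (hr : r ≠ 0) (y : C) : affB k α r ≠ algebraMap C (BD k C) y := by
  intro h
  have h1 := congrArg (fun a : BD k C => PowerSeries.coeff 1 a.1) h
  have h2 : PowerSeries.coeff 1 (aff α r) = PowerSeries.coeff 1 (PowerSeries.C y) := h1
  rw [coeff_aff_one, PowerSeries.coeff_C, if_neg one_ne_zero] at h2
  exact hr h2

theorem resA_injective (hc0 : c ≠ 0) {α r : C} (h1 : ‖c‖ < ‖α‖) (h2 : ‖α‖ < 1) (h3 : ‖r‖ ≤ ‖α‖)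
    (hr : r ≠ 0) : Function.Injective (resA (k := k) hc0 h1 h2 h3) :=
  compC_injective hc0 (h1.trans h2) _ fun y => aff_ne_const hr y

/-- `AN c → FD` -/
noncomputable def compCF (hc0 : c ≠ 0) (f : BD k C) (h : WC c f) : AN k c →ₐ[C] FD k C :=
  (IsScalarTower.toAlgHom C (BD k C) (FD k C)).comp (compC hc0 f h)

theorem compCF_injective (hc0 : c ≠ 0) (hc1 : ‖c‖ < 1) (h : WC c f)
    (hn : ∀ y : C, f ≠ algebraMap C (BD k C) y) : Function.Injective (compCF hc0 f h) :=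
  fun _ _ hxy => compC_injective hc0 hc1 h hn (IsFractionRing.injective (BD k C) (FD k C) hxy)

/-- `FA c → FD`, `T ↦ f` -/
noncomputable def compFC (hc0 : c ≠ 0) (hc1 : ‖c‖ < 1) (f : BD k C) (h : WC c f)
    (hn : ∀ y : C, f ≠ algebraMap C (BD k C) y) : FA k c →ₐ[C] FD k C :=
  liftFA (compCF hc0 f h) (compCF_injective hc0 hc1 h hn)

theorem compFC_algebraMap (hc0 : c ≠ 0) (hc1 : ‖c‖ < 1) (h : WC c f)
    (hn : ∀ y : C, f ≠ algebraMap C (BD k C) y) (g : AN k c) :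
    compFC hc0 hc1 f h hn (algebraMap (AN k c) (FA k c) g) =
      algebraMap (BD k C) (FD k C) (compC hc0 f h g) := liftFA_algebraMap _ _ _

/-- **restriction to the disc `α + r T`** on `FA c` -/
noncomputable def resFA (hc0 : c ≠ 0) {α r : C} (h1 : ‖c‖ < ‖α‖) (h2 : ‖α‖ < 1) (h3 : ‖r‖ ≤ ‖α‖)
    (hr : r ≠ 0) : FA k c →ₐ[C] FD k C :=
  compFC hc0 (h1.trans h2) (affB k α r) (wc_aff h1 h2 h3) fun y => aff_ne_const hr y

theorem resFA_algebraMap (hc0 : c ≠ 0) {α r : C} (h1 : ‖c‖ < ‖α‖) (h2 : ‖α‖ < 1)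
    (h3 : ‖r‖ ≤ ‖α‖) (hr : r ≠ 0) (g : AN k c) :
    resFA hc0 h1 h2 h3 hr (algebraMap (AN k c) (FA k c) g) =
      algebraMap (BD k C) (FD k C) (resA hc0 h1 h2 h3 g) := compFC_algebraMap _ _ _ _ _

/-- **discs and covers**: `f(α + r T) = α' + r' g(T)` -/
theorem resA_compA {c' : C} (hc0' : c' ≠ 0) (hc1' : ‖c'‖ < 1) {F : EE k C} {m : ℕ}
    (hF : WA c' F m) (hm : m ≠ 0) (hcc : ‖c'‖ ^ m = ‖c‖) (hc0 : c ≠ 0)
    {α r : C} (h1 : ‖c'‖ < ‖α‖) (h2 : ‖α‖ < 1) (h3 : ‖r‖ ≤ ‖α‖)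
    {α' r' : C} (h1' : ‖c‖ < ‖α'‖) (h2' : ‖α'‖ < 1) (h3' : ‖r'‖ ≤ ‖α'‖)
    (g : PowerSeries C) (hg : Co k g)
    (e : resA hc0' h1 h2 h3 ⟨F, hF.mem_AN⟩ = comp g hg (affB k α' r')) (x : AN k c) :
    resA hc0' h1 h2 h3 (compA hc0' hc1' hF hm hcc x) = comp g hg (resA hc0 h1' h2' h3' x) := by
  have hc1 : ‖c‖ < 1 := h1'.trans h2'
  have e1 : ((resA hc0' h1 h2 h3).comp (compA hc0' hc1' hF hm hcc)) (tA k c) =
      ((comp g hg).comp (resA hc0 h1' h2' h3')) (tA k c) := by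
    rw [AlgHom.comp_apply, AlgHom.comp_apply, resA_tA, ← e]
    congr 1
    apply Subtype.ext
    rw [coe_compA]
    exact compE_T_one _ _
  refine DFunLike.congr_fun (algHom_ext_BD hc0 hc1 e1 fun t ht => ?_) x
  have hr : ‖r * t‖ < ‖α‖ := by
    rw [norm_mul]
    rcases eq_or_lt_of_le (norm_nonneg r) with h0 | h0
    · rw [← h0, zero_mul]; exact (norm_nonneg _).trans_lt h1
    · exact (mul_lt_of_lt_one_right h0 ht).trans_le h3
  have h4 : ‖α + r * t‖ = ‖α‖ := by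
    rw [IsUltrametricDist.norm_add_eq_max_of_norm_ne_norm hr.ne', max_eq_left hr.le]
  have e2 : evp t ((resA hc0' h1 h2 h3).comp (compA hc0' hc1' hF hm hcc) (tA k c)).1 =
      evE (α + r * t) F := by
    rw [AlgHom.comp_apply, evp_resA _ _ _ _ _ ht, coe_compA]
    congr 1
    exact compE_T_one _ _
  rw [e2, hF.norm_evE hc0' (by rw [h4]; exact h1) (by rw [h4]; exact h2), h4, zpow_natCast, ← hcc]
  exact ⟨pow_lt_pow_left₀ h1 (norm_nonneg _) hm, pow_lt_one₀ (norm_nonneg _) h2 hm⟩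

/-- the same on the fields -/
theorem resFA_compFA {c' : C} (hc0' : c' ≠ 0) (hc1' : ‖c'‖ < 1) {F : EE k C} {m : ℕ}
    (hF : WA c' F m) (hm : m ≠ 0) (hcc : ‖c'‖ ^ m = ‖c‖) (hc0 : c ≠ 0)
    {α r : C} (h1 : ‖c'‖ < ‖α‖) (h2 : ‖α‖ < 1) (h3 : ‖r‖ ≤ ‖α‖) (hr : r ≠ 0)
    {α' r' : C} (h1' : ‖c‖ < ‖α'‖) (h2' : ‖α'‖ < 1) (h3' : ‖r'‖ ≤ ‖α'‖) (hr' : r' ≠ 0)
    {g : PowerSeries C} {s : ℕ} (hg : WD k g s) (hs : s ≠ 0)
    (e : resA hc0' h1 h2 h3 ⟨F, hF.mem_AN⟩ = comp g (WD.co hg hs) (affB k α' r')) (x : FA k c) :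
    resFA hc0' h1 h2 h3 hr (compFA hc0' hc1' hF hm hcc x) =
      compF hk.out hg hs (resFA hc0 h1' h2' h3' hr' x) := by
  have e1 : (resFA hc0' h1 h2 h3 hr).comp (compFA hc0' hc1' hF hm hcc) =
      (compF hk.out hg hs).comp (resFA hc0 h1' h2' h3' hr') := by
    refine FA_hom_ext fun a => ?_
    rw [AlgHom.comp_apply, AlgHom.comp_apply, compFA_algebraMap, resFA_algebraMap,
      resFA_algebraMap, Comp_267.compF_algebraMap]
    congr 1
    exact resA_compA hc0' hc1' hF hm hcc hc0 h1 h2 h3 h1' h2' h3' g (WD.co hg hs) e a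
  exact DFunLike.congr_fun e1 x

end Crest.Agent.R013.CAn_243
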