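import Crest.Agent.R013.Spt1_260

/-! # R013 / Spt2_260 : annuli around a point of type 3.

`E` complete ultrametric field over `C` (isometric `j : C → E`), `t : E`, `t ≠ 0`, `‖t‖` not in the
value group of `C`. `Ac j t` = open annuli `‖c σ‖ < |x| < ‖σ‖` containing `t` (coordinate
`T = x / σ`), `U.ev : AN U.c → E`, `l3` = filter of small annuli; restriction to smaller annuli; the
dominating monomial of a function at `t` dominates at both ends of all small annuli. -/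

set_option autoImplicit false
set_option linter.unusedSectionVars false

noncomputable section

namespace Crest.Agent.R013.Spread3_260

open Filter Topology
open Crest.Agent.R013.Cell_408 (FinDef DiscNorm BD)
open Crest.Agent.R013.EE809 Crest.Agent.R013.CAn_243

section Real

/-- a monomial which dominates at `r0` dominates near `r0`, uniformly -/
theorem ev_dom {x : ℤ → ℝ} {M ρ r0 θ0 θ : ℝ} (hx : ∀ n, 0 ≤ x n) (h1 : ∀ n, x n ≤ M) (hρ : 0 < ρ)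
    (h2 : ∀ n, x n * ρ ^ n ≤ M) (hr1 : ρ < r0) (hr2 : r0 < 1) {m : ℤ} (hm : 0 < x m)
    (h3 : ∀ n, n ≠ m → x n * r0 ^ n ≤ θ0 * (x m * r0 ^ m)) (hθ0 : 0 ≤ θ0) (hθ : θ0 < θ) :
    ∀ᶠ r in 𝓝 r0, ∀ n, n ≠ m → x n * r ^ n ≤ θ * (x m * r ^ m) := by
  have hr0 : 0 < r0 := hρ.trans hr1
  have hθp : 0 < θ := hθ0.trans_lt hθ
  have hM : 0 ≤ M := (hx 0).trans (h1 0)
  obtain ⟨s1, hs1, hs1'⟩ := exists_between hr1
  obtain ⟨s2, hs2, hs2'⟩ := exists_between hr2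
  have hs10 : 0 < s1 := hρ.trans hs1
  have hs20 : 0 < s2 := hr0.trans hs2
  -- a lower bound for the dominating monomial
  set δ : ℝ := θ * (x m * min (s1 ^ m) (s2 ^ m)) with hδ
  have hδ0 : 0 < δ := mul_pos hθp (mul_pos hm (lt_min (zpow_pos hs10 m) (zpow_pos hs20 m)))
  have hlow : ∀ r, s1 ≤ r → r ≤ s2 → δ ≤ θ * (x m * r ^ m) := by
    intro r hr hr'
    have hr0' : 0 < r := hs10.trans_le hr
    refine mul_le_mul_of_nonneg_left (mul_le_mul_of_nonneg_left ?_ hm.le) hθp.le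
    rcases le_or_gt 0 m with h | h
    · exact (min_le_left _ _).trans (zpow_le_zpow_left₀ h hs10.le hr)
    · refine (min_le_right _ _).trans ?_
      obtain ⟨l, hl⟩ := Int.exists_eq_neg_ofNat h.le
      rw [hl, zpow_neg, zpow_neg, zpow_natCast, zpow_natCast]
      exact inv_anti₀ (pow_pos hr0' l) (pow_le_pow_left₀ hr0'.le hr' l)
  -- large exponents
  obtain ⟨N1, hN1⟩ : ∃ N1 : ℕ, ∀ n : ℕ, N1 ≤ n → M * s2 ^ n < δ := by
    have h : Tendsto (fun n : ℕ => M * s2 ^ n) atTop (𝓝 (M * 0)) :=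
      (tendsto_pow_atTop_nhds_zero_of_lt_one hs20.le hs2').const_mul M
    rw [mul_zero] at h
    exact eventually_atTop.1 (h.eventually (gt_mem_nhds hδ0))
  obtain ⟨N2, hN2⟩ : ∃ N2 : ℕ, ∀ n : ℕ, N2 ≤ n → M * (ρ / s1) ^ n < δ := by
    have h : Tendsto (fun n : ℕ => M * (ρ / s1) ^ n) atTop (𝓝 (M * 0)) :=
      (tendsto_pow_atTop_nhds_zero_of_lt_one (by positivity) ((div_lt_one hs10).2 hs1)).const_mul M
    rw [mul_zero] at h
    exact eventually_atTop.1 (h.eventually (gt_mem_nhds hδ0))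
  have hfin : ∀ᶠ r in 𝓝 r0, ∀ n ∈ Finset.Icc (-(N2 : ℤ)) N1, n ≠ m →
      x n * r ^ n ≤ θ * (x m * r ^ m) := by
    rw [Filter.eventually_all_finset]
    intro n _
    by_cases hn : n = m
    · exact Eventually.of_forall fun r h => absurd hn h
    · have hc1 : ContinuousAt (fun r : ℝ => x n * r ^ n) r0 :=
        continuousAt_const.mul (continuousAt_zpow₀ r0 n (Or.inl hr0.ne'))
      have hc2 : ContinuousAt (fun r : ℝ => θ * (x m * r ^ m)) r0 :=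
        continuousAt_const.mul (continuousAt_const.mul (continuousAt_zpow₀ r0 m (Or.inl hr0.ne')))
      have hlt : x n * r0 ^ n < θ * (x m * r0 ^ m) :=
        (h3 n hn).trans_lt (mul_lt_mul_of_pos_right hθ (mul_pos hm (zpow_pos hr0 m)))
      filter_upwards [hc1.eventually_lt hc2 hlt] with r hr _
      exact hr.le
  filter_upwards [hfin, Ioo_mem_nhds hs1' hs2] with r hr hrI n hn
  have hr0' : 0 < r := hs10.trans hrI.1
  by_cases h4 : n ∈ Finset.Icc (-(N2 : ℤ)) N1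
  · exact hr n h4 hn
  · refine le_trans ?_ (hlow r hrI.1.le hrI.2.le)
    rw [Finset.mem_Icc, not_and_or, not_le, not_le] at h4
    rcases h4 with h4 | h4
    · obtain ⟨l, hl⟩ : ∃ l : ℕ, n = -(l : ℤ) := Int.exists_eq_neg_ofNat (by omega)
      have h5 := hN2 l (by omega)
      refine le_trans ?_ h5.le
      have h6 := h2 n
      have e : x n * r ^ n = x n * ρ ^ n * (ρ / r) ^ l := by
        rw [hl, zpow_neg, zpow_neg, zpow_natCast, zpow_natCast, div_pow]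
        field_simp
      rw [e]
      have h7 : (ρ / r) ^ l ≤ (ρ / s1) ^ l :=
        pow_le_pow_left₀ (by positivity) (div_le_div_of_nonneg_left hρ.le hs10 hrI.1.le) l
      exact mul_le_mul h6 h7 (by positivity) hM
    · obtain ⟨l, hl⟩ := Int.eq_ofNat_of_zero_le (show 0 ≤ n by omega)
      have h5 := hN1 l (by omega)
      refine le_trans ?_ h5.le
      rw [hl, zpow_natCast]
      exact mul_le_mul (h1 _) (pow_le_pow_left₀ hr0'.le hrI.2.le l) (by positivity) hM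

end Real

section Dense

/-- the value group of an algebraically closed field is dense -/
theorem exists_norm_between (k : Type*) {C : Type*} [NontriviallyNormedField k] [NormedField C]
    [NormedAlgebra k C] [IsAlgClosed C] {r1 r2 : ℝ} (h : r1 < r2) (h2 : 0 < r2) :
    ∃ c : C, c ≠ 0 ∧ r1 < ‖c‖ ∧ ‖c‖ < r2 := by
  -- a small step
  set R : ℝ := r2 / max r1 (r2 / 2) with hR
  have hmax : 0 < max r1 (r2 / 2) := lt_max_of_lt_right (by linarith)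
  have hR1 : 1 < R := (one_lt_div hmax).2 (max_lt h (by linarith))
  obtain ⟨π, hπ⟩ := NormedField.exists_one_lt_norm k
  obtain ⟨n, hn⟩ := pow_unbounded_of_one_lt ‖π‖ hR1
  have hn0 : n ≠ 0 := by
    rintro rfl
    rw [pow_zero] at hn
    exact absurd hπ (not_lt.2 hn.le)
  obtain ⟨y, hy⟩ := IsAlgClosed.exists_pow_nat_eq (algebraMap k C π) (Nat.pos_of_ne_zero hn0)
  have hy1 : ‖y‖ ^ n = ‖π‖ := by rw [← norm_pow, hy, norm_algebraMap']
  have hy2 : 1 < ‖y‖ := by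
    by_contra hlt
    exact absurd hπ (not_lt.2 (hy1 ▸ pow_le_one₀ (norm_nonneg _) (not_lt.1 hlt)))
  have hy3 : ‖y‖ < R := lt_of_pow_lt_pow_left₀ n (by linarith) (hy1 ▸ hn)
  obtain ⟨l, hl1, hl2⟩ := exists_mem_Ioc_zpow h2 hy2
  have hy0 : 0 < ‖y‖ := zero_lt_one.trans hy2
  refine ⟨y ^ l, zpow_ne_zero _ (norm_pos_iff.1 hy0), ?_, ?_⟩
  · rw [norm_zpow]
    rw [zpow_add_one₀ hy0.ne'] at hl2
    have h3 : ‖y‖ * max r1 (r2 / 2) < r2 := by
      rw [hR, lt_div_iff₀ hmax] at hy3; exact hy3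
    have h4 : ‖y‖ * max r1 (r2 / 2) < ‖y‖ * ‖y‖ ^ l := by
      rw [mul_comm ‖y‖ (‖y‖ ^ l)]; exact h3.trans_le hl2
    exact (le_max_left _ _).trans_lt (lt_of_mul_lt_mul_left h4 hy0.le)
  · rw [norm_zpow]; exact hl1

end Dense

section Scale

variable {k C : Type*} [NontriviallyNormedField k] [CompleteSpace k]
  [NormedField C] [IsUltrametricDist C] [NormedAlgebra k C] [Algebra.IsAlgebraic k C]

/-- `T ↦ β T`, from the annulus of `c` to the annulus of `c'` -/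
def scl {c c' β : C} (hc : c ≠ 0) (h1 : ‖c‖ ≤ ‖c'‖ * ‖β‖) (h2 : ‖β‖ ≤ 1) (h3 : ‖c'‖ < 1)
    (a : AN k c) : AN k c' :=
  have hc0 : 0 < ‖c‖ := norm_pos_iff.2 hc
  have hβ0 : 0 < ‖β‖ := by
    by_contra h
    have : ‖β‖ = 0 := le_antisymm (not_lt.1 h) (norm_nonneg _)
    rw [this, mul_zero] at h1
    exact absurd hc0 (not_lt.2 h1)
  have hcβ : ‖c‖ < ‖β‖ := lt_of_le_of_lt h1 (mul_lt_of_lt_one_left hβ0 h3)
  ⟨mk' (fun n => a.1.co n * β ^ n)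
    (by
      obtain ⟨L, hL, h4, h5⟩ := a.1.fd.common (finDef_const (k := k) β)
      exact ⟨L, hL, fun n => mul_mem (h4 _) (zpow_mem (h5 ()) _)⟩)
    (by
      obtain ⟨M, -, h4, h5⟩ := AN.bd2 a.2
      refine ⟨M, fun n => ?_⟩
      rw [norm_mul, norm_zpow]
      exact Bdd.interp hc0 hcβ.le h2 h5 (fun n => by rw [one_zpow, mul_one]; exact h4 n) n)
    (by
      obtain ⟨M, hM, h4, h5⟩ := AN.bd2 a.2
      have h6 : Tendsto (fun n : ℤ => M * (‖c‖ / ‖β‖) ^ (-n)) atBot (𝓝 0) := by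
        have h7 : Tendsto (fun n : ℕ => M * (‖c‖ / ‖β‖) ^ n) atTop (𝓝 (M * 0)) :=
          (tendsto_pow_atTop_nhds_zero_of_lt_one (by positivity)
            ((div_lt_one hβ0).2 hcβ)).const_mul M
        rw [mul_zero] at h7
        rw [Metric.tendsto_nhds] at h7 ⊢
        intro ε hε
        obtain ⟨N, hN⟩ := eventually_atTop.1 (h7 ε hε)
        rw [eventually_atBot]
        refine ⟨-N, fun n hn => ?_⟩
        have h8 := hN (-n).toNat (by omega)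
        have h9 : (((-n).toNat : ℕ) : ℤ) = -n := Int.toNat_of_nonneg (by omega)
        rw [← zpow_natCast, h9] at h8
        exact h8
      refine squeeze_zero_norm (fun n => ?_) h6
      rw [norm_mul, norm_zpow]
      have e : ‖a.1.co n‖ * ‖β‖ ^ n = ‖a.1.co n‖ * ‖c‖ ^ n * (‖c‖ / ‖β‖) ^ (-n) := by
        rw [div_zpow, zpow_neg, zpow_neg]
        have := (zpow_pos hc0 n).ne'
        have := (zpow_pos hβ0 n).ne'
        field_simp
      rw [e]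
      exact mul_le_mul_of_nonneg_right (h5 n) (zpow_nonneg (by positivity) _)),
   by
    obtain ⟨M, -, h4, h5⟩ := AN.bd2 a.2
    refine ⟨M, fun n => ?_⟩
    rw [co_mk', norm_mul, norm_zpow, mul_assoc, ← mul_zpow]
    refine Bdd.interp hc0 (h1.trans_eq (mul_comm _ _)) ?_ h5
      (fun n => by rw [one_zpow, mul_one]; exact h4 n) n
    exact mul_le_one₀ h2 (norm_nonneg _) h3.le⟩

theorem co_scl {c c' β : C} (hc : c ≠ 0) (h1 : ‖c‖ ≤ ‖c'‖ * ‖β‖) (h2 : ‖β‖ ≤ 1) (h3 : ‖c'‖ < 1)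
    (a : AN k c) (n : ℤ) : (scl hc h1 h2 h3 a).1.co n = a.1.co n * β ^ n := rfl

/-- bound at both ends -/
def BdA {c : C} (M : ℝ) (a : AN k c) : Prop := Bdd 1 M a.1 ∧ Bdd ‖c‖ M a.1

theorem BdA.nonneg {c : C} {M : ℝ} {a : AN k c} (h : BdA M a) : 0 ≤ M := h.1.nonneg one_pos

theorem BdA.mono {c : C} {M N : ℝ} {a : AN k c} (h : BdA M a) (hMN : M ≤ N) : BdA N a :=
  ⟨h.1.le hMN, h.2.le hMN⟩

theorem bdA_iff {c : C} {M : ℝ} {a : AN k c} :
    BdA M a ↔ (∀ n, ‖a.1.co n‖ ≤ M) ∧ ∀ n, ‖a.1.co n‖ * ‖c‖ ^ n ≤ M := by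
  refine and_congr ⟨fun h n => ?_, fun h n => ?_⟩ Iff.rfl
  · have := h n
    rwa [one_zpow, mul_one] at this
  · rw [one_zpow, mul_one]; exact h n

theorem bdA_algebraMap (c x : C) : BdA ‖x‖ (algebraMap C (AN k c) x) := by
  rw [bdA_iff]
  have h : ∀ n, (algebraMap C (AN k c) x).1.co n = if n = 0 then x else 0 := fun n =>
    co_algebraMap x n
  refine ⟨fun n => ?_, fun n => ?_⟩
  · rw [h]
    split_ifs
    · exact le_rfl
    · rw [norm_zero]; exact norm_nonneg _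
  · rw [h]
    split_ifs with h0
    · rw [h0, zpow_zero, mul_one]
    · rw [norm_zero, zero_mul]; exact norm_nonneg _

end Scale

section Annuli

variable {k C E : Type*} [NontriviallyNormedField k] [CompleteSpace k]
  [NormedField C] [IsUltrametricDist C] [NormedAlgebra k C] [Algebra.IsAlgebraic k C]
  [IsAlgClosed C]
  [NormedField E] [IsUltrametricDist E] [CompleteSpace E]

/-- type 3 -/
def Ty3 (_j : C →+* E) (t : E) : Prop := t ≠ 0 ∧ ∀ c : C, ‖t‖ ≠ ‖c‖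

/-- open annuli `‖c σ‖ < |x| < ‖σ‖` containing `t` -/
structure Ac (j : C →+* E) (t : E) where
  c : C
  σ : C
  c_ne : c ≠ 0
  lt_in : ‖c‖ * ‖σ‖ < ‖t‖
  lt_out : ‖t‖ < ‖σ‖

variable {j : C →+* E} {t : E}

theorem Ac.σ_pos (U : Ac j t) : 0 < ‖U.σ‖ := (norm_nonneg _).trans_lt U.lt_out

theorem Ac.σ_ne (U : Ac j t) : U.σ ≠ 0 := norm_pos_iff.1 U.σ_pos

theorem Ac.c_pos (U : Ac j t) : 0 < ‖U.c‖ := norm_pos_iff.2 U.c_ne

theorem Ac.c_lt (U : Ac j t) : ‖U.c‖ < 1 := by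
  by_contra h
  have h1 := U.lt_in.trans U.lt_out
  have h2 := U.σ_pos
  nlinarith [not_lt.1 h]

theorem Ac.t_pos (U : Ac j t) : 0 < ‖t‖ := (mul_pos U.c_pos U.σ_pos).trans U.lt_in

/-- the filter of small annuli -/
def l3 (j : C →+* E) (t : E) : Filter (Ac j t) where
  sets := {S | ∃ r1 r2 : ℝ, r1 < ‖t‖ ∧ ‖t‖ < r2 ∧
    ∀ U : Ac j t, r1 < ‖U.c‖ * ‖U.σ‖ → ‖U.σ‖ < r2 → U ∈ S}
  univ_sets := ⟨‖t‖ - 1, ‖t‖ + 1, by linarith, by linarith, fun _ _ _ => trivial⟩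
  sets_of_superset := by
    rintro S S' ⟨r1, r2, h1, h2, h⟩ hSS
    exact ⟨r1, r2, h1, h2, fun U hU hU' => hSS (h U hU hU')⟩
  inter_sets := by
    rintro S S' ⟨r1, r2, h1, h2, h⟩ ⟨s1, s2, h3, h4, h'⟩
    exact ⟨max r1 s1, min r2 s2, max_lt h1 h3, lt_min h2 h4, fun U hU hU' =>
      ⟨h U ((le_max_left _ _).trans_lt hU) (hU'.trans_le (min_le_left _ _)),
        h' U ((le_max_right _ _).trans_lt hU) (hU'.trans_le (min_le_right _ _))⟩⟩

theorem eventually_l3 {P : Ac j t → Prop} :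
    (∀ᶠ U in l3 j t, P U) ↔ ∃ r1 r2 : ℝ, r1 < ‖t‖ ∧ ‖t‖ < r2 ∧
      ∀ U : Ac j t, r1 < ‖U.c‖ * ‖U.σ‖ → ‖U.σ‖ < r2 → P U := Iff.rfl

theorem tendsto_out : Tendsto (fun U : Ac j t => ‖U.σ‖) (l3 j t) (𝓝 ‖t‖) := by
  refine tendsto_order.2 ⟨fun r hr => Eventually.of_forall fun U => hr.trans U.lt_out,
    fun r hr => ?_⟩
  exact eventually_l3.2 ⟨‖t‖ - 1, r, by linarith, hr, fun U _ h => h⟩

theorem tendsto_in : Tendsto (fun U : Ac j t => ‖U.c‖ * ‖U.σ‖) (l3 j t) (𝓝 ‖t‖) := by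
  refine tendsto_order.2 ⟨fun r hr => ?_, fun r hr => Eventually.of_forall fun U => U.lt_in.trans hr⟩
  exact eventually_l3.2 ⟨r, ‖t‖ + 1, hr, by linarith, fun U h _ => h⟩

/-- there are small annuli -/
theorem exists_ac (k : Type*) {C E : Type*} [NontriviallyNormedField k] [NormedField C]
    [NormedAlgebra k C] [IsAlgClosed C] [NormedField E] {j : C →+* E} {t : E} (ht : Ty3 j t)
    {r1 r2 : ℝ} (h1 : r1 < ‖t‖) (h2 : ‖t‖ < r2) :
    ∃ U : Ac j t, r1 < ‖U.c‖ * ‖U.σ‖ ∧ ‖U.σ‖ < r2 := by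
  have ht0 : 0 < ‖t‖ := norm_pos_iff.2 ht.1
  obtain ⟨σ, hσ, hσ1, hσ2⟩ := exists_norm_between k (C := C) h2 (ht0.trans h2)
  obtain ⟨τ, hτ, hτ1, hτ2⟩ := exists_norm_between k (C := C) h1 ht0
  have e : ‖τ / σ‖ * ‖σ‖ = ‖τ‖ := by
    rw [norm_div, div_mul_cancel₀ _ (norm_ne_zero_iff.2 hσ)]
  exact ⟨⟨τ / σ, σ, div_ne_zero hτ hσ, by rw [e]; exact hτ2, hσ1⟩, by
    change r1 < ‖τ / σ‖ * ‖σ‖
    rw [e]; exact hτ1, hσ2⟩

theorem l3_neBot (k : Type*) {C E : Type*} [NontriviallyNormedField k] [NormedField C]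
    [NormedAlgebra k C] [IsAlgClosed C] [NormedField E] {j : C →+* E} {t : E} (ht : Ty3 j t) : (l3 j t).NeBot := by
  rw [Filter.neBot_iff]
  intro h
  have h1 : (∅ : Set (Ac j t)) ∈ l3 j t := by rw [h]; exact Filter.mem_bot
  obtain ⟨r1, r2, h2, h3, h4⟩ := h1
  obtain ⟨U, hU1, hU2⟩ := exists_ac k ht h2 h3
  exact h4 U hU1 hU2

/-- smaller annuli -/
def Ac.Le (U' U : Ac j t) : Prop := ‖U.c‖ * ‖U.σ‖ ≤ ‖U'.c‖ * ‖U'.σ‖ ∧ ‖U'.σ‖ ≤ ‖U.σ‖

theorem eventually_le (U : Ac j t) : ∀ᶠ U' in l3 j t, U'.Le U :=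
  eventually_l3.2 ⟨_, _, U.lt_in, U.lt_out, fun _ h h' => ⟨h.le, h'.le⟩⟩

variable (hj : ∀ c, ‖j c‖ = ‖c‖)

include hj

theorem Ac.lt_norm (U : Ac j t) : ‖U.c‖ < ‖t / j U.σ‖ := by
  rw [norm_div, hj, lt_div_iff₀ U.σ_pos]; exact U.lt_in

theorem Ac.norm_lt (U : Ac j t) : ‖t / j U.σ‖ < 1 := by
  rw [norm_div, hj, div_lt_one U.σ_pos]; exact U.lt_out

theorem Ty3.div (ht : Ty3 j t) {σ : C} (hσ : σ ≠ 0) (x : C) : ‖t / j σ‖ ≠ ‖x‖ := by
  rw [norm_div, hj, Ne, div_eq_iff (norm_ne_zero_iff.2 hσ), ← norm_mul]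
  exact ht.2 _

/-- evaluation at `t` of functions on the annulus -/
def Ac.ev (U : Ac j t) : AN k U.c →+* E := evA j hj U.c_ne (U.lt_norm hj) (U.norm_lt hj)

theorem Ac.ev_algebraMap (U : Ac j t) (x : C) : U.ev (k := k) hj (algebraMap C _ x) = j x :=
  evA_algebraMap j hj _ _ _ x

theorem Ac.ev_mo (U : Ac j t) (n : ℤ) (x : C) :
    U.ev (k := k) hj ⟨mo n x, mo_mem_AN U.c n x⟩ = j x * (t / j U.σ) ^ n :=
  evA_mo j hj _ _ _ n x

theorem Ac.ev_T (U : Ac j t) (n : ℤ) :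
    U.ev (k := k) hj ⟨T n, T_mem_AN U.c n⟩ = (t / j U.σ) ^ n :=
  evA_T j hj _ _ _ n

theorem Ac.hasSum_ev (U : Ac j t) (a : AN k U.c) :
    HasSum (fun n : ℤ => j (a.1.co n) * (t / j U.σ) ^ n) (U.ev hj a) :=
  hasSum_evA j hj _ _ _ a

theorem Ac.norm_ev_le (U : Ac j t) {M : ℝ} {a : AN k U.c} (ha : BdA M a) :
    ‖U.ev hj a‖ ≤ M :=
  norm_evA_le j hj _ _ _ a (Bdd.interp U.c_pos (U.lt_norm hj).le (U.norm_lt hj).le ha.2 ha.1)

theorem Ac.ev_injective (ht : Ty3 j t) (U : Ac j t) : Function.Injective (U.ev (k := k) hj) :=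
  evA_injective j hj _ _ _ (ht.div hj U.σ_ne)

/-- restriction -/
theorem Ac.exists_res {U U' : Ac j t} (h : U'.Le U) (a : AN k U.c) :
    ∃ a' : AN k U'.c, U'.ev hj a' = U.ev hj a ∧ ∀ n, a'.1.co n = a.1.co n * (U'.σ / U.σ) ^ n := by
  have h1 : ‖U.c‖ ≤ ‖U'.c‖ * ‖U'.σ / U.σ‖ := by
    rw [norm_div, ← mul_div_assoc, le_div_iff₀ U.σ_pos]; exact h.1
  have h2 : ‖U'.σ / U.σ‖ ≤ 1 := by
    rw [norm_div, div_le_one U.σ_pos]; exact h.2
  refine ⟨scl U.c_ne h1 h2 U'.c_lt a, ?_, fun n => co_scl _ _ _ _ _ n⟩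
  change ∑' n : ℤ, j ((scl U.c_ne h1 h2 U'.c_lt a).1.co n) * (t / j U'.σ) ^ n =
    ∑' n : ℤ, j (a.1.co n) * (t / j U.σ) ^ n
  refine tsum_congr fun n => ?_
  have hs : j U.σ ≠ 0 := by rw [← norm_pos_iff, hj]; exact U.σ_pos
  have hs' : j U'.σ ≠ 0 := by rw [← norm_pos_iff, hj]; exact U'.σ_pos
  rw [co_scl, map_mul, map_zpow₀, map_div₀, mul_assoc, ← mul_zpow]
  congr 2
  field_simp

/-- **the dominating monomial at `t` dominates at both ends of all small annuli** -/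
theorem Ac.dom_cell (ht : Ty3 j t) (U : Ac j t) {a : AN k U.c} (ha : a ≠ 0) {η : ℝ} (hη : 1 < η) :
    ∃ (m : ℤ) (θ : ℝ), a.1.co m ≠ 0 ∧ 0 ≤ θ ∧ θ < 1 ∧ ∀ᶠ U' in l3 j t, U'.Le U ∧
      ∀ a' : AN k U'.c, (∀ n, a'.1.co n = a.1.co n * (U'.σ / U.σ) ^ n) →
        (∀ n, n ≠ m → ‖a'.1.co n‖ ≤ θ * ‖a'.1.co m‖) ∧
        (∀ n, n ≠ m → ‖a'.1.co n‖ * ‖U'.c‖ ^ n ≤ θ * (‖a'.1.co m‖ * ‖U'.c‖ ^ m)) ∧
        ‖a'.1.co m‖ ≤ η * ‖U.ev hj a‖ ∧ ‖a'.1.co m‖ * ‖U'.c‖ ^ m ≤ η * ‖U.ev hj a‖ := by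
  obtain ⟨m, θ0, hm, hθ0, hθ1, hdom, hnorm⟩ := exists_dom j hj U.c_ne (U.lt_norm hj) (U.norm_lt hj)
    (ht.div hj U.σ_ne) ha
  obtain ⟨θ, hθ2, hθ3⟩ := exists_between hθ1
  set r0 : ℝ := ‖t / j U.σ‖ with hr0
  have hr0' : r0 = ‖t‖ / ‖U.σ‖ := by rw [hr0, norm_div, hj]
  have hr0pos : 0 < r0 := U.c_pos.trans (U.lt_norm hj)
  obtain ⟨M, -, hM1, hM2⟩ := AN.bd2 a.2
  have h1 := ev_dom (x := fun n => ‖a.1.co n‖) (fun n => norm_nonneg _) hM1 U.c_pos hM2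
    (U.lt_norm hj) (U.norm_lt hj) (norm_pos_iff.2 hm) hdom hθ0 hθ2
  have hev : ‖U.ev hj a‖ = ‖a.1.co m‖ * r0 ^ m := hnorm
  have hevpos : 0 < ‖U.ev hj a‖ := by
    rw [hev]; exact mul_pos (norm_pos_iff.2 hm) (zpow_pos hr0pos m)
  have h2 : ∀ᶠ r in 𝓝 r0, ‖a.1.co m‖ * r ^ m < η * ‖U.ev hj a‖ := by
    have hc : ContinuousAt (fun r : ℝ => ‖a.1.co m‖ * r ^ m) r0 :=
      continuousAt_const.mul (continuousAt_zpow₀ r0 m (Or.inl hr0pos.ne'))
    refine hc.eventually (gt_mem_nhds ?_)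
    change ‖a.1.co m‖ * r0 ^ m < η * ‖U.ev hj a‖
    rw [← hev]
    exact lt_mul_of_one_lt_left hevpos hη
  have hout : Tendsto (fun U' : Ac j t => ‖U'.σ‖ / ‖U.σ‖) (l3 j t) (𝓝 r0) := by
    rw [hr0']; exact tendsto_out.div_const _
  have hin : Tendsto (fun U' : Ac j t => ‖U'.c‖ * ‖U'.σ‖ / ‖U.σ‖) (l3 j t) (𝓝 r0) := by
    rw [hr0']; exact tendsto_in.div_const _
  refine ⟨m, θ, hm, hθ0.trans hθ2.le, hθ3, ?_⟩
  filter_upwards [hout.eventually h1, hin.eventually h1, hout.eventually h2, hin.eventually h2,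
    eventually_le U] with U' e1 e2 e3 e4 e5
  refine ⟨e5, fun a' ha' => ?_⟩
  have f1 : ∀ n, ‖a'.1.co n‖ = ‖a.1.co n‖ * (‖U'.σ‖ / ‖U.σ‖) ^ n := fun n => by
    rw [ha', norm_mul, norm_zpow, norm_div]
  have f2 : ∀ n, ‖a'.1.co n‖ * ‖U'.c‖ ^ n = ‖a.1.co n‖ * (‖U'.c‖ * ‖U'.σ‖ / ‖U.σ‖) ^ n := fun n => by
    rw [f1, mul_assoc, ← mul_zpow]
    congr 2
    ring
  refine ⟨fun n hn => ?_, fun n hn => ?_, ?_, ?_⟩
  · rw [f1, f1]; exact e1 n hn
  · rw [f2, f2]; exact e2 n hn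
  · rw [f1]; exact e3.le
  · rw [f2]; exact e4.le

/-- norms on small annuli are close to the norm at `t` -/
theorem Ac.bd_cell (ht : Ty3 j t) (U : Ac j t) (a : AN k U.c) {η : ℝ} (hη : 1 < η) :
    ∀ᶠ U' in l3 j t, ∃ a' : AN k U'.c, U'.ev hj a' = U.ev hj a ∧ BdA (η * ‖U.ev hj a‖) a' := by
  by_cases ha : a = 0
  · refine Eventually.of_forall fun U' => ⟨0, ?_, ?_⟩
    · rw [ha, map_zero, map_zero]
    · rw [ha, map_zero, norm_zero, mul_zero]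
      exact ⟨Bdd.zero le_rfl, Bdd.zero le_rfl⟩
  · obtain ⟨m, θ, hm, hθ0, hθ1, h⟩ := U.dom_cell (k := k) hj ht ha hη
    filter_upwards [h] with U' h'
    obtain ⟨a', h1, h2⟩ := Ac.exists_res hj h'.1 a
    obtain ⟨h3, h4, h5, h6⟩ := h'.2 a' h2
    refine ⟨a', h1, bdA_iff.2 ⟨fun n => ?_, fun n => ?_⟩⟩
    · by_cases hn : n = m
      · rw [hn]; exact h5
      · exact (h3 n hn).trans ((mul_le_of_le_one_left (norm_nonneg _) hθ1.le).trans h5)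
    · by_cases hn : n = m
      · rw [hn]; exact h6
      · refine (h4 n hn).trans ((mul_le_of_le_one_left ?_ hθ1.le).trans h6)
        exact mul_nonneg (norm_nonneg _) (zpow_nonneg (norm_nonneg _) _)

end Annuli

end Crest.Agent.R013.Spread3_260
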