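import Crest.Agent.R013.CAn6_243
import Crest.Agent.R013.Spt2_260

/-!
# Row 13, leaf COMP-AN (helper243), file 7: restriction to concentric annuli

`resAA : AN c →ₐ[C] AN c₁`, `T ↦ β T`, for `|c| ≤ |c₁||β|`, `|β| ≤ 1`, `|c₁| < 1`; `resFAA` on the
fields; compatibility with `compA f`.
-/

set_option autoImplicit false
set_option linter.unusedSectionVars false
open Filter Topology
open Crest.Agent.R013.Cell_408
open Crest.Agent.R013.EE809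
open Crest.Agent.R013.AnW_201 (InA evE lin evE_mul evE_add evE_mo evE_lin inA_lin inA_mo evE_zero_iff_dvd)
open Crest.Agent.R013.Spread3_260 (scl co_scl)

namespace Crest.Agent.R013.CAn_243

variable {k : Type*} [NontriviallyNormedField k] [CompleteSpace k]
variable {C : Type*} [NormedField C] [IsUltrametricDist C] [NormedAlgebra k C]
variable [Algebra.IsAlgebraic k C]

variable {c c₁ β : C}

omit [IsUltrametricDist C] in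
theorem ne_zero_of_le (hc : c ≠ 0) (h1 : ‖c‖ ≤ ‖c₁‖ * ‖β‖) : β ≠ 0 := by
  rintro rfl
  rw [norm_zero, mul_zero] at h1
  exact hc (norm_le_zero_iff.1 h1)

omit [IsUltrametricDist C] in
theorem ne_zero_of_le' (hc : c ≠ 0) (h1 : ‖c‖ ≤ ‖c₁‖ * ‖β‖) : c₁ ≠ 0 := by
  rintro rfl
  rw [norm_zero, zero_mul] at h1
  exact hc (norm_le_zero_iff.1 h1)

/-- **`T ↦ β T`** -/
noncomputable def resAA (hc : c ≠ 0) (h1 : ‖c‖ ≤ ‖c₁‖ * ‖β‖) (h2 : ‖β‖ ≤ 1) (h3 : ‖c₁‖ < 1) :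
    AN k c →ₐ[C] AN k c₁ where
  toFun := scl hc h1 h2 h3
  map_one' := by
    apply Subtype.ext
    ext n
    rw [co_scl]
    show (1 : EE k C).co n * β ^ n = (1 : EE k C).co n
    rw [co_one]
    split_ifs with hn
    · rw [hn, zpow_zero, mul_one]
    · rw [zero_mul]
  map_mul' a b := by
    have hβ := ne_zero_of_le hc h1
    apply Subtype.ext
    ext n
    rw [MulMemClass.coe_mul, co_mul, co_scl, MulMemClass.coe_mul, co_mul, ← tsum_mul_right]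
    refine tsum_congr fun i => ?_
    rw [co_scl, co_scl]
    have e : β ^ n = β ^ i * β ^ (n - i) := by rw [← zpow_add₀ hβ]; congr 1; ring
    rw [e]; ring
  map_zero' := by
    apply Subtype.ext
    ext n
    rw [co_scl]
    show (0 : EE k C).co n * β ^ n = (0 : EE k C).co n
    rw [co_zero, zero_mul]
  map_add' a b := by
    apply Subtype.ext
    ext n
    rw [AddMemClass.coe_add, co_add, co_scl, AddMemClass.coe_add, co_add, co_scl, co_scl, add_mul]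
  commutes' x := by
    apply Subtype.ext
    ext n
    rw [co_scl]
    show (algebraMap C (EE k C) x).co n * β ^ n = (algebraMap C (EE k C) x).co n
    rw [co_algebraMap]
    split_ifs with hn
    · rw [hn, zpow_zero, mul_one]
    · rw [zero_mul]

section basic

variable (hc : c ≠ 0) (h1 : ‖c‖ ≤ ‖c₁‖ * ‖β‖) (h2 : ‖β‖ ≤ 1) (h3 : ‖c₁‖ < 1)

theorem co_resAA (a : AN k c) (n : ℤ) : (resAA hc h1 h2 h3 a).1.co n = a.1.co n * β ^ n := rfl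

theorem resAA_tA : resAA hc h1 h2 h3 (tA k c) = algebraMap C (AN k c₁) β * tA k c₁ := by
  apply Subtype.ext
  ext n
  rw [co_resAA]
  show (T 1 : EE k C).co n * β ^ n = (algebraMap C (EE k C) β * T 1).co n
  rw [algebraMap_eq, co_mo_mul, sub_zero, T, co_mo]
  split_ifs with hn
  · rw [hn, zpow_one, one_mul, mul_one]
  · rw [zero_mul, mul_zero]

theorem evE_resAA (a : AN k c) (t : C) : evE t (resAA hc h1 h2 h3 a).1 = evE (β * t) a.1 := by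
  unfold evE
  refine tsum_congr fun n => ?_
  rw [co_resAA, mul_zpow, mul_assoc]

theorem resAA_injective : Function.Injective (resAA (k := k) hc h1 h2 h3) := by
  intro a b hab
  apply Subtype.ext
  ext n
  have h := congrArg (fun z : AN k c₁ => z.1.co n) hab
  simp only [co_resAA] at h
  exact mul_right_cancel₀ (zpow_ne_zero n (ne_zero_of_le hc h1)) h

end basic

variable [IsUltrametricDist k] [IsAlgClosed C] [hk : Fact (DiscNorm k)]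

/-- `T ↦ β T` on the fields -/
noncomputable def resFAA (hc : c ≠ 0) (h1 : ‖c‖ ≤ ‖c₁‖ * ‖β‖) (h2 : ‖β‖ ≤ 1) (h3 : ‖c₁‖ < 1) :
    FA k c →ₐ[C] FA k c₁ :=
  liftFA ((IsScalarTower.toAlgHom C (AN k c₁) (FA k c₁)).comp (resAA hc h1 h2 h3))
    fun _ _ hxy => resAA_injective hc h1 h2 h3 (algebraMap_FA_injective c₁ hxy)

theorem resFAA_algebraMap (hc : c ≠ 0) (h1 : ‖c‖ ≤ ‖c₁‖ * ‖β‖) (h2 : ‖β‖ ≤ 1) (h3 : ‖c₁‖ < 1)
    (a : AN k c) : resFAA hc h1 h2 h3 (algebraMap (AN k c) (FA k c) a) =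
      algebraMap (AN k c₁) (FA k c₁) (resAA hc h1 h2 h3 a) := liftFA_algebraMap _ _ _

theorem mul_norm_lt_one (h1 : ‖c‖ ≤ ‖c₁‖ * ‖β‖) (h2 : ‖β‖ ≤ 1) (h3 : ‖c₁‖ < 1) :
    ‖c‖ < 1 :=
  h1.trans_lt ((mul_le_of_le_one_right (norm_nonneg _) h2).trans_lt h3)

/-- **restriction of a cover to a concentric annulus**: `f(β' T) = β g(T)` -/
theorem WA.restrict {c' β' c₁' : C} {f : EE k C} {m : ℕ} (h : WA c' f m) (hm : m ≠ 0)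
    (hc0' : c' ≠ 0) (hcc : ‖c'‖ ^ m = ‖c‖) (hβ : ‖β'‖ ^ m = ‖β‖) (hcc₁ : ‖c₁'‖ ^ m = ‖c₁‖)
    (h1 : ‖c‖ ≤ ‖c₁‖ * ‖β‖) (h2 : ‖β‖ ≤ 1) (h3 : ‖c₁‖ < 1) :
    ∃ (h1' : ‖c'‖ ≤ ‖c₁'‖ * ‖β'‖) (h2' : ‖β'‖ ≤ 1) (h3' : ‖c₁'‖ < 1),
      WA c₁' (algebraMap C (EE k C) β⁻¹ * (resAA hc0' h1' h2' h3' ⟨f, h.mem_AN⟩).1) m := by
  have hc' : 0 < ‖c'‖ := norm_pos_iff.2 hc0'
  have h1' : ‖c'‖ ≤ ‖c₁'‖ * ‖β'‖ := by
    rw [← pow_le_pow_iff_left₀ (norm_nonneg _) (by positivity) hm, mul_pow, hcc, hcc₁, hβ]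
    exact h1
  have h2' : ‖β'‖ ≤ 1 := by
    rw [← pow_le_pow_iff_left₀ (norm_nonneg _) zero_le_one hm, one_pow, hβ]
    exact h2
  have h3' : ‖c₁'‖ < 1 := by
    rw [← pow_lt_pow_iff_left₀ (norm_nonneg _) zero_le_one hm, one_pow, hcc₁]
    exact h3
  refine ⟨h1', h2', h3', ?_⟩
  have hβ' : β' ≠ 0 := ne_zero_of_le hc0' h1'
  have hβ0 : 0 < ‖β‖ := by rw [← hβ]; exact pow_pos (norm_pos_iff.2 hβ') m
  have hc₁' : 0 < ‖c₁'‖ := norm_pos_iff.2 (ne_zero_of_le' hc0' h1')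
  have hβ'0 : 0 < ‖β'‖ := norm_pos_iff.2 hβ'
  have e : ∀ n, ‖(algebraMap C (EE k C) β⁻¹ * (resAA hc0' h1' h2' h3' ⟨f, h.mem_AN⟩).1).co n‖ =
      ‖β‖⁻¹ * (‖f.co n‖ * ‖β'‖ ^ n) := fun n => by
    rw [algebraMap_eq, co_mo_mul, sub_zero, norm_mul, norm_inv, co_resAA, norm_mul, norm_zpow]
  have hβ'1 : ‖c'‖ ≤ ‖β'‖ := h1'.trans (mul_le_of_le_one_left (norm_nonneg _) h3'.le)
  refine ⟨fun n => ?_, ?_, fun n => ?_⟩
  · rw [e, ← div_eq_inv_mul, div_le_one hβ0]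
    have := h.bdd hc0' hβ'1 h2' n
    rwa [zpow_natCast, hβ] at this
  · rw [e, h.one, one_mul, zpow_natCast, hβ, inv_mul_cancel₀ hβ0.ne']
  · rw [e]
    have h4 := h.bdd hc0' (ρ := ‖c₁'‖ * ‖β'‖) h1'
      ((mul_le_of_le_one_right (norm_nonneg _) h2').trans h3'.le) n
    rw [mul_zpow, mul_zpow] at h4
    have h5 : ‖β'‖ ^ (m : ℤ) = ‖β‖ := by rw [zpow_natCast, hβ]
    rw [h5] at h4
    calc ‖β‖⁻¹ * (‖f.co n‖ * ‖β'‖ ^ n) * ‖c₁'‖ ^ n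
        = ‖β‖⁻¹ * (‖f.co n‖ * (‖c₁'‖ ^ n * ‖β'‖ ^ n)) := by ring
      _ ≤ ‖β‖⁻¹ * (‖c₁'‖ ^ (m : ℤ) * ‖β‖) := mul_le_mul_of_nonneg_left h4 (by positivity)
      _ = ‖c₁'‖ ^ (m : ℤ) := by field_simp

/-- **concentric annuli and covers** -/
theorem resAA_compA {c' β' c₁' : C} {f g : EE k C} {m : ℕ} (hc0' : c' ≠ 0) (hc1' : ‖c'‖ < 1)
    (h : WA c' f m) (hm : m ≠ 0) (hcc : ‖c'‖ ^ m = ‖c‖) (h1' : ‖c'‖ ≤ ‖c₁'‖ * ‖β'‖)
    (h2' : ‖β'‖ ≤ 1) (h3' : ‖c₁'‖ < 1) (hc : c ≠ 0) (h1 : ‖c‖ ≤ ‖c₁‖ * ‖β‖) (h2 : ‖β‖ ≤ 1)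
    (h3 : ‖c₁‖ < 1) (hc₁' : c₁' ≠ 0) (hg : WA c₁' g m) (hcc₁ : ‖c₁'‖ ^ m = ‖c₁‖)
    (e : (resAA hc0' h1' h2' h3' ⟨f, h.mem_AN⟩).1 = algebraMap C (EE k C) β * g) (x : AN k c) :
    resAA hc0' h1' h2' h3' (compA hc0' hc1' h hm hcc x) =
      compA hc₁' h3' hg hm hcc₁ (resAA hc h1 h2 h3 x) := by
  have hc1 : ‖c‖ < 1 := mul_norm_lt_one h1 h2 h3
  have ef : compA hc0' hc1' h hm hcc (tA k c) = ⟨f, h.mem_AN⟩ :=
    Subtype.ext (compE_T_one (h.we hc0' hc1') hm)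
  have eg : compA hc₁' h3' hg hm hcc₁ (tA k c₁) = ⟨g, hg.mem_AN⟩ :=
    Subtype.ext (compE_T_one (hg.we hc₁' h3') hm)
  have e1 : ((resAA hc0' h1' h2' h3').comp (compA hc0' hc1' h hm hcc)) (tA k c) =
      ((compA hc₁' h3' hg hm hcc₁).comp (resAA hc h1 h2 h3)) (tA k c) := by
    rw [AlgHom.comp_apply, AlgHom.comp_apply, ef, resAA_tA, map_mul, AlgHom.commutes, eg]
    exact Subtype.ext e
  refine DFunLike.congr_fun (algHom_ext_AN hc hc1 hc₁' h3' e1 fun t ht1 ht2 => ?_) x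
  have hβ' : 0 < ‖β'‖ := norm_pos_iff.2 (ne_zero_of_le hc0' h1')
  have h4 : ‖c'‖ < ‖β' * t‖ := by
    rw [norm_mul, mul_comm]
    exact h1'.trans_lt (mul_lt_mul_of_pos_right ht1 hβ')
  have h5 : ‖β' * t‖ < 1 := by
    rw [norm_mul]
    exact (mul_le_of_le_one_left (norm_nonneg _) h2').trans_lt ht2
  rw [AlgHom.comp_apply, ef, evE_resAA]
  show ‖c‖ < ‖evE (β' * t) f‖ ∧ ‖evE (β' * t) f‖ < 1
  rw [h.norm_evE hc0' h4 h5, zpow_natCast, ← hcc]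
  exact ⟨pow_lt_pow_left₀ h4 (norm_nonneg _) hm, pow_lt_one₀ (norm_nonneg _) h5 hm⟩

/-- the same on the fields -/
theorem resFAA_compFA {c' β' c₁' : C} {f g : EE k C} {m : ℕ} (hc0' : c' ≠ 0) (hc1' : ‖c'‖ < 1)
    (h : WA c' f m) (hm : m ≠ 0) (hcc : ‖c'‖ ^ m = ‖c‖) (h1' : ‖c'‖ ≤ ‖c₁'‖ * ‖β'‖)
    (h2' : ‖β'‖ ≤ 1) (h3' : ‖c₁'‖ < 1) (hc : c ≠ 0) (h1 : ‖c‖ ≤ ‖c₁‖ * ‖β‖) (h2 : ‖β‖ ≤ 1)
    (h3 : ‖c₁‖ < 1) (hc₁' : c₁' ≠ 0) (hg : WA c₁' g m) (hcc₁ : ‖c₁'‖ ^ m = ‖c₁‖)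
    (e : (resAA hc0' h1' h2' h3' ⟨f, h.mem_AN⟩).1 = algebraMap C (EE k C) β * g) (x : FA k c) :
    resFAA hc0' h1' h2' h3' (compFA hc0' hc1' h hm hcc x) =
      compFA hc₁' h3' hg hm hcc₁ (resFAA hc h1 h2 h3 x) := by
  have e1 : (resFAA hc0' h1' h2' h3').comp (compFA hc0' hc1' h hm hcc) =
      (compFA hc₁' h3' hg hm hcc₁).comp (resFAA hc h1 h2 h3) := by
    refine FA_hom_ext fun a => ?_
    rw [AlgHom.comp_apply, AlgHom.comp_apply, compFA_algebraMap, resFAA_algebraMap,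
      resFAA_algebraMap, compFA_algebraMap]
    congr 1
    exact resAA_compA hc0' hc1' h hm hcc h1' h2' h3' hc h1 h2 h3 hc₁' hg hcc₁ e a
  exact DFunLike.congr_fun e1 x

/-- existence of the data of a restriction -/
theorem exists_restrict {c' : C} {f : EE k C} {m : ℕ} (h : WA c' f m) (hm : m ≠ 0)
    (hc0' : c' ≠ 0) (hc1' : ‖c'‖ < 1) (hcc : ‖c'‖ ^ m = ‖c‖) (hc : c ≠ 0)
    (h1 : ‖c‖ ≤ ‖c₁‖ * ‖β‖) (h2 : ‖β‖ ≤ 1) (h3 : ‖c₁‖ < 1) :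
    ∃ (β' c₁' : C) (h1' : ‖c'‖ ≤ ‖c₁'‖ * ‖β'‖) (h2' : ‖β'‖ ≤ 1) (h3' : ‖c₁'‖ < 1)
      (hc₁' : c₁' ≠ 0) (g : EE k C) (hg : WA c₁' g m) (hcc₁ : ‖c₁'‖ ^ m = ‖c₁‖),
      β' ^ m = β ∧ c₁' ^ m = c₁ ∧
      (∀ n, g.co n = β⁻¹ * (f.co n * β' ^ n)) ∧
      (∀ x : AN k c, resAA hc0' h1' h2' h3' (compA hc0' hc1' h hm hcc x) =
        compA hc₁' h3' hg hm hcc₁ (resAA hc h1 h2 h3 x)) ∧
      (∀ x : FA k c, resFAA hc0' h1' h2' h3' (compFA hc0' hc1' h hm hcc x) =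
        compFA hc₁' h3' hg hm hcc₁ (resFAA hc h1 h2 h3 x)) := by
  obtain ⟨β', hβ'⟩ := IsAlgClosed.exists_pow_nat_eq β (Nat.pos_of_ne_zero hm)
  obtain ⟨c₁', hc₁'⟩ := IsAlgClosed.exists_pow_nat_eq c₁ (Nat.pos_of_ne_zero hm)
  have hcc₁ : ‖c₁'‖ ^ m = ‖c₁‖ := by rw [← norm_pow, hc₁']
  obtain ⟨h1', h2', h3', hg⟩ := h.restrict hm hc0' hcc (by rw [← norm_pow, hβ']) hcc₁ h1 h2 h3
  have hβ0 : β ≠ 0 := ne_zero_of_le hc h1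
  have e : (resAA hc0' h1' h2' h3' ⟨f, h.mem_AN⟩).1 = algebraMap C (EE k C) β *
      (algebraMap C (EE k C) β⁻¹ * (resAA hc0' h1' h2' h3' ⟨f, h.mem_AN⟩).1) := by
    rw [← mul_assoc, ← map_mul, mul_inv_cancel₀ hβ0, map_one, one_mul]
  refine ⟨β', c₁', h1', h2', h3', ne_zero_of_le' hc0' h1', _, hg, hcc₁, hβ', hc₁', fun n => ?_,
    fun x => ?_, fun x => ?_⟩
  · rw [algebraMap_eq, co_mo_mul, sub_zero, co_resAA]
  · exact resAA_compA hc0' hc1' h hm hcc h1' h2' h3' hc h1 h2 h3 _ hg hcc₁ e x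
  · exact resFAA_compFA hc0' hc1' h hm hcc h1' h2' h3' hc h1 h2 h3 _ hg hcc₁ e x

end Crest.Agent.R013.CAn_243
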