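import Crest.Agent.R013.CAn4_243

/-!
# Row 13, leaf COMP-AN (helper243), file 8: `AN c'` is spanned by `1, T, …, T^(m-1)` over
`compE f (AN c)` (`WA c' f m`, `|c'|^m = |c|`)
-/

set_option autoImplicit false
set_option linter.unusedSectionVars false
open Filter Topology
open Crest.Agent.R013.Cell_408 (FinDef DiscNorm exists_max BD)
open Crest.Agent.R013.EE809

namespace Crest.Agent.R013.CAn_243

variable {k : Type*} [NontriviallyNormedField k] [CompleteSpace k]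
variable {C : Type*} [NormedField C] [IsUltrametricDist C] [NormedAlgebra k C]

/-- bounds pass to limits taken at another radius -/
theorem Bdd.limit_of {ρ ρ' M : ℝ} (hρ : 0 < ρ) (hρ' : 0 < ρ') {S : EE k C} {s : ℕ → EE k C}
    {r : ℕ → ℝ} (hr : Tendsto r atTop (𝓝 0)) (h1 : ∀ t, Bdd ρ (r t) (S - s t))
    (h2 : ∀ t, Bdd ρ' M (s t)) : Bdd ρ' M S := by
  intro n
  have hM := (h2 0).nonneg hρ'
  have h3 : Tendsto (fun t => max (r t * (ρ ^ n)⁻¹ * ρ' ^ n) M) atTop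
      (𝓝 (max (0 * (ρ ^ n)⁻¹ * ρ' ^ n) M)) :=
    ((hr.mul_const _).mul_const _).max tendsto_const_nhds
  rw [zero_mul, zero_mul, max_eq_right hM] at h3
  refine ge_of_tendsto' h3 fun t => ?_
  have h0 : 0 ≤ ρ' ^ n := zpow_nonneg hρ'.le n
  have h4 : S.co n = (S - s t).co n + (s t).co n := by rw [co_sub]; ring
  have h5 : ‖(S - s t).co n‖ ≤ r t * (ρ ^ n)⁻¹ := by
    rw [← div_eq_mul_inv, le_div_iff₀ (zpow_pos hρ n)]
    exact h1 t n
  rw [h4]
  calc ‖(S - s t).co n + (s t).co n‖ * ρ' ^ n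
      ≤ max ‖(S - s t).co n‖ ‖(s t).co n‖ * ρ' ^ n :=
        mul_le_mul_of_nonneg_right (IsUltrametricDist.norm_add_le_max _ _) h0
    _ = max (‖(S - s t).co n‖ * ρ' ^ n) (‖(s t).co n‖ * ρ' ^ n) := max_mul_of_nonneg _ _ h0
    _ ≤ max (r t * (ρ ^ n)⁻¹ * ρ' ^ n) M :=
        max_le_max (mul_le_mul_of_nonneg_right h5 h0) (h2 t n)

variable [Algebra.IsAlgebraic k C] [IsUltrametricDist k] [IsAlgClosed C] [hk : Fact (DiscNorm k)]

/-- `compE` and the finite level -/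
theorem InL.compE {L : IntermediateField k C} [FiniteDimensional k L] {f g : EE k C} {m : ℕ}
    (hf : InL L f) (hg : InL L g) (h : WE f m) (hm : m ≠ 0) : InL L (compE f h hm g) := fun j => by
  rw [co_compE]
  exact tsum_mem_of L fun n => mul_mem (hg n) (InL.zpow hf n j)

section one

variable {c : C} {U : EE k C}

theorem one_add_zpow_bdd (hc0 : c ≠ 0) (hc1 : ‖c‖ < 1) (hU : WA c U 0) {ρ θ : ℝ} (hρ1 : ‖c‖ ≤ ρ)
    (hρ2 : ρ ≤ 1) (hθ : 0 ≤ θ) (h : Bdd ρ θ (U - 1)) (q : ℤ) : Bdd ρ θ (U ^ q - 1) := by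
  have hρ : 0 < ρ := (norm_pos_iff.2 hc0).trans_le hρ1
  have b1 : ∀ q : ℤ, Bdd ρ 1 (U ^ q) := fun q => by
    have := (hU.zpow hc0 hc1 q).bdd hc0 hρ1 hρ2
    rwa [zero_mul, zpow_zero] at this
  have hn : ∀ n : ℕ, Bdd ρ θ (U ^ n - 1) := by
    intro n
    induction n with
    | zero => rw [pow_zero, sub_self]; exact Bdd.zero hθ
    | succ n ih =>
      have e : U ^ (n + 1) - 1 = U ^ n * (U - 1) + (U ^ n - 1) := by ring
      rw [e]
      refine Bdd.add hρ ?_ ih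
      have := (b1 n).mul hρ h
      rwa [one_mul, zpow_natCast] at this
  cases q with
  | ofNat n => rw [Int.ofNat_eq_natCast, zpow_natCast]; exact hn n
  | negSucc n =>
    have e : U ^ (Int.negSucc n) - 1 = -(U ^ (Int.negSucc n) * (U ^ (n + 1) - 1)) := by
      rw [mul_sub, mul_one, zpow_negSucc, inv_mul_cancel₀ (pow_ne_zero _ hU.ne_zero)]
      ring
    rw [e]
    have := (b1 (Int.negSucc n)).mul hρ (hn (n + 1))
    rw [one_mul] at this
    exact this.neg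

/-- the unit part is close to its constant term at interior radii -/
theorem WA.bdd_sub_one (hc0 : c ≠ 0) (hU : WA c U 0) (hU0 : U.co 0 = 1) {ρ : ℝ}
    (hρ1 : ‖c‖ < ρ) (hρ2 : ρ < 1) : Bdd ρ (max ρ (‖c‖ / ρ)) (U - 1) := by
  have hc : 0 < ‖c‖ := norm_pos_iff.2 hc0
  have hρ : 0 < ρ := hc.trans hρ1
  have hyn : ∀ n, (U - 1).co n = if n = 0 then 0 else U.co n := by
    intro n
    rw [co_sub, co_one]
    split_ifs with hn
    · rw [hn, hU0, sub_self]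
    · rw [sub_zero]
  intro n
  rw [hyn]
  rcases lt_trichotomy n 0 with hn | hn | hn
  · rw [if_neg hn.ne]
    have e1 := hU.leA n
    rw [zpow_zero] at e1
    obtain ⟨i, hi⟩ := Int.eq_ofNat_of_zero_le (show 0 ≤ -n - 1 by omega)
    have hn' : n = -((i : ℤ) + 1) := by omega
    have e2 : ρ ^ n = ‖c‖ ^ n * (‖c‖ / ρ) ^ (i + 1) := by
      have e3 : (‖c‖ / ρ) ^ (i + 1) = (ρ ^ n) * (‖c‖ ^ n)⁻¹ := by
        rw [← zpow_natCast, ← zpow_neg, div_zpow, hn']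
        push_cast
        rw [neg_neg, zpow_neg, div_eq_mul_inv, mul_comm]
      rw [e3, mul_comm, mul_assoc, inv_mul_cancel₀ (zpow_pos hc n).ne', mul_one]
    rw [e2, ← mul_assoc]
    have e4 : (‖c‖ / ρ) ^ (i + 1) ≤ ‖c‖ / ρ :=
      pow_le_of_le_one (by positivity) ((div_lt_one hρ).2 hρ1).le (by omega)
    calc ‖U.co n‖ * ‖c‖ ^ n * (‖c‖ / ρ) ^ (i + 1) ≤ 1 * (‖c‖ / ρ) :=
          mul_le_mul e1 e4 (by positivity) zero_le_one
      _ ≤ _ := by rw [one_mul]; exact le_max_right _ _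
  · rw [if_pos hn, norm_zero, zero_mul]
    exact le_max_of_le_left hρ.le
  · rw [if_neg hn.ne']
    obtain ⟨i, hi⟩ := Int.eq_ofNat_of_zero_le (show 0 ≤ n - 1 by omega)
    have hn' : n = ((i + 1 : ℕ) : ℤ) := by push_cast; omega
    rw [hn', zpow_natCast, ← hn']
    calc ‖U.co n‖ * ρ ^ (i + 1) ≤ 1 * ρ :=
          mul_le_mul (hU.le n) (pow_le_of_le_one hρ.le hρ2.le (by omega)) (by positivity) zero_le_one
      _ ≤ _ := by rw [one_mul]; exact le_max_left _ _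

end one

variable {c c' : C} {f : EE k C} {m : ℕ}

/-- `v T^m` -/
noncomputable def lead (f : EE k C) (m : ℕ) : EE k C := mo m (f.co m)

theorem lead_wa (h : WA c' f m) : WA c' (lead f m) m := by
  have := (WA.T (k := k) c' m).smul h.one
  rwa [← mo_eq] at this

theorem lead_zpow (f : EE k C) (m : ℕ) (n : ℤ) : (lead f m) ^ n = mo (m * n) (f.co m ^ n) := by
  rw [lead, mo_eq, mul_zpow, T_eq_zpow, ← zpow_mul, ← T_eq_zpow, ← map_zpow₀, mo_eq]

/-- the difference `f^n - (v T^m)^n` at an interior radius -/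
theorem zpow_sub_lead (hc0 : c' ≠ 0) (hc1 : ‖c'‖ < 1) (h : WA c' f m) {ρ : ℝ}
    (hρ1 : ‖c'‖ < ρ) (hρ2 : ρ < 1) (n : ℤ) :
    Bdd ρ (max ρ (‖c'‖ / ρ) * ρ ^ ((m : ℤ) * n)) ((lead f m) ^ n - f ^ n) := by
  have hc : 0 < ‖c'‖ := norm_pos_iff.2 hc0
  have hρ : 0 < ρ := hc.trans hρ1
  have hl := lead_wa h
  set U : EE k C := f * (lead f m)⁻¹ with hU
  have hUw : WA c' U 0 := by
    have := h.mul hc0 hc1 (hl.inv hc0 hc1)
    rwa [add_neg_cancel] at this
  have hv : f.co m ≠ 0 := by rw [← norm_pos_iff, h.one]; exact one_pos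
  have hU0 : U.co 0 = 1 := by
    have e : (lead f m)⁻¹ = mo (-m) (f.co m)⁻¹ := by
      have := lead_zpow f m (-1)
      rwa [zpow_neg_one, mul_neg_one, zpow_neg_one] at this
    rw [hU, e, mul_comm, co_mo_mul, zero_sub, neg_neg, inv_mul_cancel₀ hv]
  have h1 := one_add_zpow_bdd hc0 hc1 hUw hρ1.le hρ2.le (le_max_of_le_left hρ.le)
    (WA.bdd_sub_one hc0 hUw hU0 hρ1 hρ2) n
  have h2 := (hl.zpow hc0 hc1 n).bdd hc0 hρ1.le hρ2.le
  have e : (lead f m) ^ n - f ^ n = -((U ^ n - 1) * (lead f m) ^ n) := by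
    rw [hU, mul_zpow, inv_zpow, sub_mul, inv_mul_cancel_right₀ (zpow_ne_zero n hl.ne_zero)]
    ring
  rw [e]
  exact (h1.mul hρ h2).neg

/-- comparison of the compositions -/
theorem compE_sub_lead (hc0 : c' ≠ 0) (hc1 : ‖c'‖ < 1) (h : WA c' f m) (hm : m ≠ 0) {ρ N : ℝ}
    (hρ1 : ‖c'‖ < ρ) (hρ2 : ρ < 1) {a : EE k C} (ha : Bdd (ρ ^ m) N a) :
    Bdd ρ (max ρ (‖c'‖ / ρ) * N)
      (compE (lead f m) ((lead_wa h).we hc0 hc1) hm a - compE f (h.we hc0 hc1) hm a) := by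
  have hc : 0 < ‖c'‖ := norm_pos_iff.2 hc0
  have hρ : 0 < ρ := hc.trans hρ1
  have hN : 0 ≤ N := ha.nonneg (pow_pos hρ m)
  have hθ : 0 ≤ max ρ (‖c'‖ / ρ) := le_max_of_le_left hρ.le
  intro j
  have h0 : 0 < ρ ^ j := zpow_pos hρ j
  rw [← le_div_iff₀ h0, co_sub, co_compE, co_compE,
    ← ((hasSum_compE ((lead_wa h).we hc0 hc1) hm a j).summable.tsum_sub
      (hasSum_compE (h.we hc0 hc1) hm a j).summable)]
  refine IsUltrametricDist.norm_tsum_le_of_forall_le_of_nonneg (by positivity) fun n => ?_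
  rw [le_div_iff₀ h0, ← mul_sub, norm_mul]
  have h3 := zpow_sub_lead hc0 hc1 h hρ1 hρ2 n j
  rw [co_sub] at h3
  have h4 : (ρ : ℝ) ^ ((m : ℤ) * n) = (ρ ^ m) ^ n := by rw [zpow_mul, zpow_natCast]
  rw [h4] at h3
  calc ‖a.co n‖ * ‖(lead f m ^ n).co j - (f ^ n).co j‖ * ρ ^ j
      = ‖a.co n‖ * (‖(lead f m ^ n).co j - (f ^ n).co j‖ * ρ ^ j) := by ring
    _ ≤ ‖a.co n‖ * (max ρ (‖c'‖ / ρ) * (ρ ^ m) ^ n) := mul_le_mul_of_nonneg_left h3 (norm_nonneg _)
    _ = max ρ (‖c'‖ / ρ) * (‖a.co n‖ * (ρ ^ m) ^ n) := by ring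
    _ ≤ max ρ (‖c'‖ / ρ) * N := mul_le_mul_of_nonneg_left (ha n) hθ

/-- the components of `g` with respect to `v T^m` -/
noncomputable def cmp (f : EE k C) {m : ℕ} (hm : m ≠ 0) (hv : ‖f.co m‖ = 1) (i : ℕ) (g : EE k C) :
    EE k C :=
  mk' (fun q => g.co (i + m * q) * (f.co m) ^ (-q))
    (by
      obtain ⟨L, hL, h1, h2⟩ := g.fd.common f.fd
      exact ⟨L, hL, fun q => mul_mem (h1 _) (zpow_mem (h2 _) _)⟩)
    (by
      obtain ⟨M, hM⟩ := g.bd
      exact ⟨M, fun q => by rw [norm_mul, norm_zpow, hv, one_zpow, mul_one]; exact hM _⟩)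
    (by
      rw [Metric.tendsto_nhds]
      intro ε hε
      obtain ⟨K, hK0, hK⟩ := g.small hε
      rw [eventually_atBot]
      refine ⟨-K - i - 1, fun q hq => ?_⟩
      rw [dist_zero_right, norm_mul, norm_zpow, hv, one_zpow, mul_one]
      apply hK
      have h1 : (1 : ℤ) ≤ m := by exact_mod_cast Nat.one_le_iff_ne_zero.2 hm
      have h2 : (m : ℤ) * q ≤ q := by nlinarith
      omega)

section cmp

variable (hm : m ≠ 0) (hv : ‖f.co m‖ = 1)

theorem co_cmp (i : ℕ) (g : EE k C) (q : ℤ) :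
    (cmp f hm hv i g).co q = g.co (i + m * q) * (f.co m) ^ (-q) := rfl

theorem cmp_L {L : IntermediateField k C} (hf : InL L f) {g : EE k C} (hg : InL L g) (i : ℕ) :
    InL L (cmp f hm hv i g) := fun q => by
  rw [co_cmp]; exact mul_mem (hg _) (zpow_mem (hf _) _)

theorem cmp_bdd1 {M : ℝ} {g : EE k C} (hg : Bdd 1 M g) (i : ℕ) : Bdd 1 M (cmp f hm hv i g) := by
  intro q
  rw [co_cmp, norm_mul, norm_zpow, hv, one_zpow, mul_one, one_zpow, mul_one]
  have := hg (i + m * q)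
  rwa [one_zpow, mul_one] at this

theorem cmp_bdd {ρ N : ℝ} (hρ : 0 < ρ) {g : EE k C} (hg : Bdd ρ N g) (i : ℕ) :
    Bdd (ρ ^ m) (N * (ρ ^ i)⁻¹) (cmp f hm hv i g) := by
  intro q
  rw [co_cmp, norm_mul, norm_zpow, hv, one_zpow, mul_one, ← div_eq_mul_inv, le_div_iff₀ (pow_pos hρ i)]
  have h1 := hg (i + m * q)
  rw [zpow_add₀ hρ.ne', zpow_natCast, zpow_mul, zpow_natCast] at h1
  calc ‖g.co (i + m * q)‖ * (ρ ^ m) ^ q * ρ ^ i = ‖g.co (i + m * q)‖ * (ρ ^ i * (ρ ^ m) ^ q) := by ring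
    _ ≤ N := h1

/-- the model: `g = ∑ T^i (cmp i g)(v T^m)` -/
theorem sum_cmp (hc0 : c' ≠ 0) (hc1 : ‖c'‖ < 1) (h : WA c' f m) (g : EE k C) :
    ∑ i ∈ Finset.range m, T i * compE (lead f m) ((lead_wa h).we hc0 hc1) hm (cmp f hm hv i g) = g := by
  ext l
  have hm' : (0 : ℤ) < m := by exact_mod_cast Nat.pos_of_ne_zero hm
  have hv0 : f.co m ≠ 0 := by rw [← norm_pos_iff, hv]; exact one_pos
  -- the coefficient of one summand
  have key : ∀ i : ℕ, (T (i : ℤ) * compE (lead f m) ((lead_wa h).we hc0 hc1) hm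
      (cmp f hm hv i g)).co l = if (m : ℤ) ∣ (l - i) then g.co l else 0 := by
    intro i
    rw [co_T_mul, co_compE]
    have e1 : ∀ n : ℤ, (cmp f hm hv i g).co n * (lead f m ^ n).co (l - i) =
        if l - i = m * n then g.co l else 0 := by
      intro n
      rw [lead_zpow f m, co_mo, co_cmp]
      split_ifs with h1
      · rw [mul_assoc, ← zpow_add₀ hv0, neg_add_cancel, zpow_zero, mul_one]
        congr 1
        omega
      · rw [mul_zero]
    simp only [e1]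
    split_ifs with h1
    · obtain ⟨q, hq⟩ := h1
      rw [tsum_eq_single q]
      · rw [if_pos hq]
      · intro n hn
        rw [if_neg]
        rw [hq]
        intro h2
        exact hn (mul_left_cancel₀ hm'.ne' h2).symm
    · have e2 : ∀ n : ℤ, (if l - i = m * n then g.co l else 0) = 0 := fun n =>
        if_neg fun h2 => h1 ⟨n, h2⟩
      simp only [e2, tsum_zero]
  rw [co_finset_sum]
  simp only [key]
  -- the unique index
  have hi0 : 0 ≤ l % m := Int.emod_nonneg l hm'.ne'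
  have hi1 : l % m < m := Int.emod_lt_of_pos l hm'
  rw [Finset.sum_eq_single (l % m).toNat]
  · rw [if_pos]
    rw [Int.toNat_of_nonneg hi0]
    exact Int.dvd_self_sub_emod
  · intro i hi hne
    rw [if_neg]
    intro hd
    apply hne
    rw [Finset.mem_range] at hi
    have h3 : (m : ℤ) ∣ (l % m - i) := by
      have := Int.dvd_self_sub_emod (x := l) (m := m)
      have h4 := dvd_sub hd this
      have h5 : l - ↑i - (l - l % ↑m) = l % m - i := by ring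
      rwa [h5] at h4
    have h6 : l % m - i = 0 := by
      refine Int.eq_zero_of_abs_lt_dvd h3 ?_
      rw [abs_lt]
      constructor <;> omega
    omega
  · intro hni
    exfalso
    apply hni
    rw [Finset.mem_range]
    omega

end cmp

/-- the remainder -/
noncomputable def rem (hc0 : c' ≠ 0) (hc1 : ‖c'‖ < 1) (h : WA c' f m) (hm : m ≠ 0) (g : EE k C) :
    EE k C :=
  g - ∑ i ∈ Finset.range m, T i * compE f (h.we hc0 hc1) hm (cmp f hm h.one i g)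

theorem rem_L (hc0 : c' ≠ 0) (hc1 : ‖c'‖ < 1) (h : WA c' f m) (hm : m ≠ 0)
    {L : IntermediateField k C} [FiniteDimensional k L] (hf : InL L f) {g : EE k C}
    (hg : InL L g) : InL L (rem hc0 hc1 h hm g) :=
  hg.sub (InL.sum _ fun i _ => (InL.T L _).mul
    (CAn_243.InL.compE hf (cmp_L hm h.one hf hg i) _ hm))

theorem rem_bdd (hc0 : c' ≠ 0) (hc1 : ‖c'‖ < 1) (h : WA c' f m) (hm : m ≠ 0) {ρ N : ℝ}
    (hρ1 : ‖c'‖ ≤ ρ) (hρ2 : ρ ≤ 1) {g : EE k C} (hg : Bdd ρ N g) :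
    Bdd ρ N (rem hc0 hc1 h hm g) := by
  have hρ : 0 < ρ := (norm_pos_iff.2 hc0).trans_le hρ1
  have hN := hg.nonneg hρ
  refine hg.sub hρ (Bdd.sum hρ hN _ fun i _ => ?_)
  have h1 := compE_bdd hm (h.we hc0 hc1) h hc0 hc1 hρ1 hρ2 (cmp_bdd hm h.one hρ hg i)
  have h2 := (Bdd.mo hρ (i : ℤ) (1 : C) (k := k)).mul hρ h1
  rw [norm_one, one_mul, zpow_natCast, mul_comm N, mul_inv_cancel_left₀ (pow_pos hρ i).ne'] at h2
  exact h2

theorem rem_small (hc0 : c' ≠ 0) (hc1 : ‖c'‖ < 1) (h : WA c' f m) (hm : m ≠ 0) {ρ N : ℝ}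
    (hρ1 : ‖c'‖ < ρ) (hρ2 : ρ < 1) {g : EE k C} (hg : Bdd ρ N g) :
    Bdd ρ (max ρ (‖c'‖ / ρ) * N) (rem hc0 hc1 h hm g) := by
  have hρ : 0 < ρ := (norm_pos_iff.2 hc0).trans hρ1
  have hN := hg.nonneg hρ
  have hθ : 0 ≤ max ρ (‖c'‖ / ρ) := le_max_of_le_left hρ.le
  have e : rem hc0 hc1 h hm g = ∑ i ∈ Finset.range m, T i *
      (compE (lead f m) ((lead_wa h).we hc0 hc1) hm (cmp f hm h.one i g) -
        compE f (h.we hc0 hc1) hm (cmp f hm h.one i g)) := by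
    have hs := sum_cmp hm h.one hc0 hc1 h g
    simp only [mul_sub]
    rw [Finset.sum_sub_distrib, hs, rem]
  rw [e]
  refine Bdd.sum hρ (mul_nonneg hθ hN) _ fun i _ => ?_
  have h1 := compE_sub_lead hc0 hc1 h hm hρ1 hρ2 (cmp_bdd hm h.one hρ hg i)
  have h2 := (Bdd.mo hρ (i : ℤ) (1 : C) (k := k)).mul hρ h1
  rw [norm_one, one_mul, zpow_natCast] at h2
  have e2 : ρ ^ i * (max ρ (‖c'‖ / ρ) * (N * (ρ ^ i)⁻¹)) = max ρ (‖c'‖ / ρ) * N := by
    have := (pow_pos hρ i).ne'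
    field_simp
  rw [e2] at h2
  exact h2

/-! ### the iteration -/

section iter

variable (hc0 : c' ≠ 0) (hc1 : ‖c'‖ < 1) (h : WA c' f m) (hm : m ≠ 0)

/-- the iterated remainders -/
noncomputable def rems (g : EE k C) : ℕ → EE k C
  | 0 => g
  | t + 1 => rem hc0 hc1 h hm (rems g t)

/-- partial sums of the components -/
noncomputable def psum (g : EE k C) (i : ℕ) (t : ℕ) : EE k C :=
  ∑ s ∈ Finset.range t, cmp f hm h.one i (rems hc0 hc1 h hm g s)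

theorem rems_L {L : IntermediateField k C} [FiniteDimensional k L] (hf : InL L f) {g : EE k C}
    (hg : InL L g) (t : ℕ) : InL L (rems hc0 hc1 h hm g t) := by
  induction t with
  | zero => exact hg
  | succ t ih => exact rem_L hc0 hc1 h hm hf ih

theorem rems_bdd {ρ N : ℝ} (hρ1 : ‖c'‖ ≤ ρ) (hρ2 : ρ ≤ 1) {g : EE k C} (hg : Bdd ρ N g) (t : ℕ) :
    Bdd ρ N (rems hc0 hc1 h hm g t) := by
  induction t with
  | zero => exact hg
  | succ t ih => exact rem_bdd hc0 hc1 h hm hρ1 hρ2 ih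

theorem rems_small {ρ N : ℝ} (hρ1 : ‖c'‖ < ρ) (hρ2 : ρ < 1) {g : EE k C} (hg : Bdd ρ N g) (t : ℕ) :
    Bdd ρ ((max ρ (‖c'‖ / ρ)) ^ t * N) (rems hc0 hc1 h hm g t) := by
  induction t with
  | zero => rw [pow_zero, one_mul]; exact hg
  | succ t ih =>
    have := rem_small hc0 hc1 h hm hρ1 hρ2 ih
    rw [← mul_assoc, ← pow_succ'] at this
    exact this

theorem rems_eq (g : EE k C) (t : ℕ) :
    g = ∑ i ∈ Finset.range m, T i * compE f (h.we hc0 hc1) hm (psum hc0 hc1 h hm g i t) +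
      rems hc0 hc1 h hm g t := by
  induction t with
  | zero =>
    have : ∀ i : ℕ, psum hc0 hc1 h hm g i 0 = 0 := fun i => by rw [psum, Finset.sum_range_zero]
    simp only [this, map_zero, mul_zero, Finset.sum_const_zero, zero_add]
    rfl
  | succ t ih =>
    have e1 : ∀ i : ℕ, psum hc0 hc1 h hm g i (t + 1) =
        psum hc0 hc1 h hm g i t + cmp f hm h.one i (rems hc0 hc1 h hm g t) := fun i => by
      rw [psum, Finset.sum_range_succ]; rfl
    have e2 : rems hc0 hc1 h hm g (t + 1) = rem hc0 hc1 h hm (rems hc0 hc1 h hm g t) := rfl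
    simp only [e1, map_add, mul_add]
    rw [Finset.sum_add_distrib, e2, rem]
    conv_lhs => rw [ih]
    ring

/-- **representation** on the annulus -/
theorem exists_repr_AN (hcc : ‖c'‖ ^ m = ‖c‖) (L : IntermediateField k C) [FiniteDimensional k L]
    (hf : InL L f) {g : EE k C} (hg : InL L g) {M M' : ℝ} (h1 : Bdd 1 M g) (h2 : Bdd ‖c'‖ M' g) :
    ∃ A : ℕ → EE k C, (∀ i, InL L (A i)) ∧ (∀ i, Bdd 1 M (A i)) ∧
      (∀ i, Bdd ‖c‖ (M' * (‖c'‖ ^ i)⁻¹) (A i)) ∧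
      g = ∑ i ∈ Finset.range m, T i * compE f (h.we hc0 hc1) hm (A i) := by
  have hc : 0 < ‖c'‖ := norm_pos_iff.2 hc0
  have hb0 : c ≠ 0 := by
    intro h0
    rw [h0, norm_zero] at hcc
    exact pow_ne_zero _ hc.ne' hcc
  have hb1 : ‖c‖ < 1 := by rw [← hcc]; exact pow_lt_one₀ (norm_nonneg _) hc1 hm
  have hb : 0 < ‖c‖ := norm_pos_iff.2 hb0
  have hM0 : 0 ≤ M := h1.nonneg one_pos
  have hM0' : 0 ≤ M' := h2.nonneg hc
  obtain ⟨ρ, hρ1, hρ2⟩ := exists_between hc1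
  have hρ : 0 < ρ := hc.trans hρ1
  set θ : ℝ := max ρ (‖c'‖ / ρ) with hθ
  have hθ0 : 0 ≤ θ := le_max_of_le_left hρ.le
  have hθ1 : θ < 1 := max_lt hρ2 ((div_lt_one hρ).2 hρ1)
  set N : ℝ := max M M' with hN
  have hgN : Bdd ρ N g := Bdd.interp hc hρ1.le hρ2.le (h2.le (le_max_right _ _))
    (h1.le (le_max_left _ _))
  have hN0 : 0 ≤ N := hM0.trans (le_max_left _ _)
  have hρm : 0 < ρ ^ m := pow_pos hρ m
  have htend : Tendsto (fun t : ℕ => θ ^ t) atTop (𝓝 0) :=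
    tendsto_pow_atTop_nhds_zero_of_lt_one hθ0 hθ1
  -- bounds of the partial sums
  have b1 : ∀ i t, Bdd 1 M (psum hc0 hc1 h hm g i t) := fun i t =>
    Bdd.sum one_pos hM0 _ fun s _ => cmp_bdd1 hm h.one
      (rems_bdd hc0 hc1 h hm hc1.le le_rfl h1 s) i
  have b2 : ∀ i t, Bdd ‖c‖ (M' * (‖c'‖ ^ i)⁻¹) (psum hc0 hc1 h hm g i t) := fun i t =>
    Bdd.sum hb (by positivity) _ fun s _ => by
      rw [← hcc]
      exact cmp_bdd hm h.one hc (rems_bdd hc0 hc1 h hm le_rfl hc1.le h2 s) i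
  have b3 : ∀ i t, InL L (psum hc0 hc1 h hm g i t) := fun i t =>
    InL.sum _ fun s _ => cmp_L hm h.one hf (rems_L hc0 hc1 h hm hf hg s) i
  have b4 : ∀ i t n, t ≤ n → Bdd (ρ ^ m) (θ ^ t * N * (ρ ^ i)⁻¹)
      (psum hc0 hc1 h hm g i n - psum hc0 hc1 h hm g i t) := by
    intro i t n htn
    rw [psum, psum, ← Finset.sum_sdiff (Finset.range_mono htn), add_sub_cancel_right]
    refine Bdd.sum hρm (by positivity) _ fun s hs => ?_
    have h3 := cmp_bdd hm h.one hρ (rems_small hc0 hc1 h hm hρ1 hρ2 hgN s) i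
    refine h3.le ?_
    simp only [Finset.mem_sdiff, Finset.mem_range, not_lt] at hs
    have h4 : θ ^ s ≤ θ ^ t := pow_le_pow_of_le_one hθ0 hθ1.le hs.2
    gcongr
  have b5 : ∀ i : ℕ, ∃ S : EE k C, InL L S ∧ Bdd 1 M S ∧ Bdd ‖c‖ (M' * (‖c'‖ ^ i)⁻¹) S ∧
      ∀ t, Bdd (ρ ^ m) (θ ^ t * N * (ρ ^ i)⁻¹) (S - psum hc0 hc1 h hm g i t) := by
    intro i
    have htend' : Tendsto (fun t : ℕ => θ ^ t * N * (ρ ^ i)⁻¹) atTop (𝓝 0) := by
      have := (htend.mul_const N).mul_const (ρ ^ i)⁻¹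
      rwa [zero_mul, zero_mul] at this
    obtain ⟨S, hS1, -, -, hS4⟩ := complete_AN L hb0 hb1 hρm (fun t => psum hc0 hc1 h hm g i t)
      (b3 i) (M := max M (M' * (‖c'‖ ^ i)⁻¹)) (fun t => (b1 i t).le (le_max_left _ _))
      (fun t => (b2 i t).le (le_max_right _ _)) _ htend' (b4 i)
    exact ⟨S, hS1, Bdd.limit_of hρm one_pos htend' hS4 (b1 i),
      Bdd.limit_of hρm hb htend' hS4 (b2 i), hS4⟩
  choose A a1 a2 a3 a4 using b5
  refine ⟨A, a1, a2, a3, ?_⟩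
  have htend2 : Tendsto (fun t : ℕ => θ ^ t * N) atTop (𝓝 0) := by
    have := htend.mul_const N
    rwa [zero_mul] at this
  rw [← sub_eq_zero]
  refine Bdd.eq_zero hρ htend2 fun t => ?_
  have e : g - ∑ i ∈ Finset.range m, T i * compE f (h.we hc0 hc1) hm (A i) =
      rems hc0 hc1 h hm g t - ∑ i ∈ Finset.range m, T i * compE f (h.we hc0 hc1) hm
        (A i - psum hc0 hc1 h hm g i t) := by
    simp only [map_sub, mul_sub]
    rw [Finset.sum_sub_distrib]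
    conv_lhs => rw [rems_eq hc0 hc1 h hm g t]
    ring
  rw [e]
  refine (rems_small hc0 hc1 h hm hρ1 hρ2 hgN t).sub hρ (Bdd.sum hρ (by positivity) _ fun i _ => ?_)
  have h5 := compE_bdd hm (h.we hc0 hc1) h hc0 hc1 hρ1.le hρ2.le (a4 i t)
  have h6 := (Bdd.mo hρ (i : ℤ) (1 : C) (k := k)).mul hρ h5
  rw [norm_one, one_mul, zpow_natCast] at h6
  have e2 : ρ ^ i * (θ ^ t * N * (ρ ^ i)⁻¹) = θ ^ t * N := by
    have := (pow_pos hρ i).ne'
    field_simp
  rw [e2] at h6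
  exact h6

end iter

end Crest.Agent.R013.CAn_243
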