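import Crest.Agent.R013.CAn8_243

/-!
# Row 13, leaf COMP-AN (helper243), file 9: `1, T, …, T^(m-1)` is a basis of `AN c'` over
`compA f (AN c)`, of `FA c'` over `compFA f (FA c)` and of `EE` over `compE f EE`
-/

set_option autoImplicit false
set_option linter.unusedSectionVars false
open Filter Topology
open Crest.Agent.R013.Cell_408 (FinDef DiscNorm exists_max BD)
open Crest.Agent.R013.EE809

namespace Crest.Agent.R013.CAn_243

variable {k : Type*} [NontriviallyNormedField k] [CompleteSpace k]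
variable {C : Type*} [NormedField C] [IsUltrametricDist C] [NormedAlgebra k C]
variable [Algebra.IsAlgebraic k C] [IsUltrametricDist k] [IsAlgClosed C] [hk : Fact (DiscNorm k)]

/-! ### independence -/

/-- norm of a sum of elements of different orders -/
theorem gn_le_gn_sum {ι : Type*} (s : Finset ι) (x : ι → EE k C)
    (hd : ∀ i ∈ s, ∀ j ∈ s, i ≠ j → x i ≠ 0 → x j ≠ 0 → od (x i) ≠ od (x j)) :
    ∀ i ∈ s, gn (x i) ≤ gn (∑ i ∈ s, x i) := by
  classical
  intro i hi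
  obtain ⟨i1, hi1, hmax⟩ := s.exists_max_image (fun i => gn (x i)) ⟨i, hi⟩
  refine (hmax i hi).trans ?_
  set G := gn (x i1) with hG
  rcases eq_or_lt_of_le (gn_nonneg (x i1)) with h0 | h0
  · rw [← hG] at h0
    rw [← h0]; exact gn_nonneg _
  rw [← hG] at h0
  obtain ⟨i0, hi0, hmin⟩ := (s.filter fun i => gn (x i) = G).exists_min_image (fun i => od (x i))
    ⟨i1, Finset.mem_filter.2 ⟨hi1, rfl⟩⟩
  rw [Finset.mem_filter] at hi0
  have hx0 : x i0 ≠ 0 := by
    intro h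
    rw [h, gn_zero] at hi0
    exact h0.ne hi0.2
  have h1 : ‖(x i0).co (od (x i0))‖ = G := by rw [norm_co_od hk.out hx0, hi0.2]
  have h2 : ∀ j ∈ s.erase i0, ‖(x j).co (od (x i0))‖ < G := by
    intro j hj
    rw [Finset.mem_erase] at hj
    rcases lt_or_eq_of_le (hmax j hj.2) with h3 | h3
    · exact (le_gn _ _).trans_lt h3
    · have hxj : x j ≠ 0 := by
        intro h
        rw [h, gn_zero] at h3
        exact h0.ne h3
      have h4 := hmin j (Finset.mem_filter.2 ⟨hj.2, h3⟩)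
      have h5 := hd j hj.2 i0 hi0.1 hj.1 hxj hx0
      have h6 := norm_lt_of_lt_od hxj (n := od (x i0)) (by omega)
      rwa [h3] at h6
  have h3 : ‖∑ j ∈ s.erase i0, (x j).co (od (x i0))‖ < G := by
    rcases (s.erase i0).eq_empty_or_nonempty with he | he
    · rw [he, Finset.sum_empty, norm_zero]; exact h0
    · obtain ⟨j, hj, hle⟩ := IsUltrametricDist.exists_norm_finsetSum_le_of_nonempty he
        (fun j => (x j).co (od (x i0)))
      exact hle.trans_lt (h2 j hj)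
  have h4 : (∑ i ∈ s, x i).co (od (x i0)) =
      (x i0).co (od (x i0)) + ∑ j ∈ s.erase i0, (x j).co (od (x i0)) := by
    rw [co_finset_sum, Finset.add_sum_erase s (fun j => (x j).co (od (x i0))) hi0.1]
  have h5 := le_gn (∑ i ∈ s, x i) (od (x i0))
  rw [h4, IsUltrametricDist.norm_add_eq_max_of_norm_ne_norm (by rw [h1]; exact h3.ne'), h1,
    max_eq_left h3.le] at h5
  exact h5

section basis

variable {f : EE k C} {m : ℕ} (h : WE f m) (hm : m ≠ 0)

theorem gn_T_mul (n : ℤ) (a : EE k C) : gn (T n * a) = gn a := by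
  rw [gn_mul hk.out, T, gn_mo, norm_one, one_mul]

theorem od_T_mul (n : ℤ) {a : EE k C} (ha : a ≠ 0) : od (T n * a) = n + od a := by
  rw [od_mul hk.out (T_ne_zero n) ha, T, mo, od_mono _ _ one_ne_zero]

/-- **the norm of `∑ T^i compE f (A i)`** -/
theorem gn_le_sum (A : ℕ → EE k C) {i : ℕ} (hi : i < m) :
    gn (A i) ≤ gn (∑ i ∈ Finset.range m, T i * compE f h hm (A i)) := by
  have key := gn_le_gn_sum (Finset.range m) (fun i => T (i : ℤ) * compE f h hm (A i)) ?_ i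
    (Finset.mem_range.2 hi)
  · rw [gn_T_mul, gn_compE] at key
    exact key
  · intro a ha b hb hab ha0 hb0 hod
    have hA : ∀ i : ℕ, T (i : ℤ) * compE f h hm (A i) ≠ 0 → A i ≠ 0 := by
      intro i hi h0
      rw [h0, map_zero, mul_zero] at hi
      exact hi rfl
    rw [od_T_mul _ (compE_ne_zero h hm (hA a ha0)), od_T_mul _ (compE_ne_zero h hm (hA b hb0)),
      od_compE, od_compE] at hod
    rw [Finset.mem_range] at ha hb
    have h1 : (m : ℤ) ∣ (a : ℤ) - b := ⟨od (A b) - od (A a), by linear_combination hod⟩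
    have h2 : (a : ℤ) - b = 0 := by
      refine Int.eq_zero_of_abs_lt_dvd h1 ?_
      rw [abs_lt]
      constructor <;> omega
    omega

/-- **uniqueness** -/
theorem repr_unique_EE (A : ℕ → EE k C)
    (h0 : ∑ i ∈ Finset.range m, T i * compE f h hm (A i) = 0) : ∀ i < m, A i = 0 := by
  intro i hi
  have := gn_le_sum h hm A hi
  rw [h0, gn_zero] at this
  exact gn_eq_zero.1 (le_antisymm this (gn_nonneg _))

theorem repr_unique_EE' (A : Fin m → EE k C)
    (h0 : ∑ i, compE f h hm (A i) * T (i : ℕ) = 0) : ∀ i, A i = 0 := by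
  classical
  let A' : ℕ → EE k C := fun i => if h : i < m then A ⟨i, h⟩ else 0
  have hA2 : ∀ i : Fin m, A' i = A i := fun i => by simp [A']
  have h2 : ∑ i ∈ Finset.range m, T (i : ℤ) * compE f h hm (A' i) = 0 := by
    rw [Finset.sum_range (fun i => T (i : ℤ) * compE f h hm (A' i)), ← h0]
    exact Finset.sum_congr rfl fun i _ => by rw [hA2, mul_comm]
  intro i
  rw [← hA2]
  exact repr_unique_EE h hm A' h2 i i.2

end basis

/-! ### `AN` -/

section an

variable {c c' : C} {f : EE k C} {m : ℕ} (hc0 : c' ≠ 0) (hc1 : ‖c'‖ < 1) (h : WA c' f m)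
  (hm : m ≠ 0) (hcc : ‖c'‖ ^ m = ‖c‖)

include hcc in
/-- **(SPAN-AN)** -/
theorem span_AN {b : EE k C} (hb : b ∈ AN k c') : ∃ A : Fin m → EE k C, (∀ i, A i ∈ AN k c) ∧
    b = ∑ i, compE f (h.we hc0 hc1) hm (A i) * T (i : ℕ) := by
  obtain ⟨M, hM0, hM1, hM2⟩ := AN.bd2 hb
  obtain ⟨L, hL, h1, h2⟩ := b.fd.common f.fd
  obtain ⟨A, -, -, a3, a4⟩ := exists_repr_AN hc0 hc1 h hm hcc L h2 h1
    (fun n => by rw [one_zpow, mul_one]; exact hM1 n) hM2
  refine ⟨fun i => A i, fun i => ⟨_, a3 i⟩, ?_⟩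
  rw [← Finset.sum_range (fun i => compE f (h.we hc0 hc1) hm (A i) * T (i : ℤ)), a4]
  exact Finset.sum_congr rfl fun i _ => mul_comm _ _

/-- the same in the algebra `AN k c'` -/
theorem span_AN' (b : AN k c') : ∃ A : Fin m → AN k c,
    b = ∑ i, compA hc0 hc1 h hm hcc (A i) * ⟨T (i : ℕ), T_mem_AN c' _⟩ := by
  obtain ⟨A, hA, e⟩ := span_AN hc0 hc1 h hm hcc b.2
  refine ⟨fun i => ⟨A i, hA i⟩, Subtype.ext ?_⟩
  rw [AddSubmonoidClass.coe_finsetSum, e]
  rfl

theorem compA_injective : Function.Injective (compA hc0 hc1 h hm hcc) := by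
  intro x y hxy
  apply Subtype.ext
  exact compE_injective (h.we hc0 hc1) hm (congrArg Subtype.val hxy)

/-- `AN c'` is a finite module over `compA f (AN c)` -/
theorem finite_range_AN : Module.Finite (compA hc0 hc1 h hm hcc).range (AN k c') := by
  classical
  refine ⟨⟨Finset.univ.image fun i : Fin m => (⟨T ((i : ℕ) : ℤ), T_mem_AN c' _⟩ : AN k c'), ?_⟩⟩
  rw [eq_top_iff]
  intro g _
  obtain ⟨A, hA⟩ := span_AN' hc0 hc1 h hm hcc g
  rw [hA]
  refine Submodule.sum_mem _ fun i _ => ?_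
  exact Submodule.smul_mem (Submodule.span (compA hc0 hc1 h hm hcc).range
    ((Finset.univ.image fun i : Fin m => (⟨T ((i : ℕ) : ℤ), T_mem_AN c' _⟩ : AN k c') :
      Finset (AN k c')) : Set (AN k c')))
    (⟨compA hc0 hc1 h hm hcc (A i), ⟨A i, rfl⟩⟩ : (compA hc0 hc1 h hm hcc).range)
    (Submodule.subset_span (Finset.mem_coe.2 (Finset.mem_image_of_mem _ (Finset.mem_univ i))))

/-- every nonzero `b ∈ AN c'` divides some nonzero `compA B` -/
theorem exists_dvd_compA {b : AN k c'} (hb : b ≠ 0) :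
    ∃ B : AN k c, B ≠ 0 ∧ b ∣ compA hc0 hc1 h hm hcc B := by
  have := finite_range_AN hc0 hc1 h hm hcc
  have h1 : IsAlgebraic (compA hc0 hc1 h hm hcc).range b :=
    (Algebra.IsIntegral.isIntegral (R := (compA hc0 hc1 h hm hcc).range) b).isAlgebraic
  obtain ⟨⟨r, B, rfl⟩, hr, hd⟩ := h1.exists_nonzero_dvd (mem_nonZeroDivisors_of_ne_zero hb)
  refine ⟨B, ?_, hd⟩
  rintro rfl
  exact hr (Subtype.ext (map_zero _))

include hcc in
/-- **(SPAN-FA)** -/
theorem span_FA {x : EE k C} (hx : x ∈ FA k c') : ∃ e : Fin m → EE k C, (∀ i, e i ∈ FA k c) ∧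
    x = ∑ i, compE f (h.we hc0 hc1) hm (e i) * T (i : ℕ) := by
  obtain ⟨a, ha, b, hb, hb0, e⟩ := hx
  obtain ⟨B, hB, ⟨w, hw⟩, hBw⟩ := exists_dvd_compA hc0 hc1 h hm hcc
    (b := ⟨b, hb⟩) (fun h0 => hb0 (congrArg Subtype.val h0))
  have hBw' : compE f (h.we hc0 hc1) hm B.1 = b * w := congrArg Subtype.val hBw
  obtain ⟨A, hA, eA⟩ := span_AN hc0 hc1 h hm hcc (mul_mem ha hw)
  have hB0 : B.1 ≠ 0 := fun h0 => hB (Subtype.ext h0)
  have hcB : compE f (h.we hc0 hc1) hm B.1 ≠ 0 := compE_ne_zero _ hm hB0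
  refine ⟨fun i => A i / B.1, fun i => div_mem (AN_le_FA c (hA i)) (AN_le_FA c B.2), ?_⟩
  have h1 : ∀ i : Fin m, compE f (h.we hc0 hc1) hm (A i / B.1) * T ((i : ℕ) : ℤ) =
      (compE f (h.we hc0 hc1) hm (A i) * T ((i : ℕ) : ℤ)) / compE f (h.we hc0 hc1) hm B.1 := by
    intro i
    rw [map_div₀]; ring
  simp only [h1]
  rw [← Finset.sum_div, ← eA, eq_div_iff hcB, hBw', ← e]
  ring

/-- the same in the field `FA k c'` -/
theorem span_FA' (x : FA k c') : ∃ e : Fin m → FA k c,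
    x = ∑ i, compFA hc0 hc1 h hm hcc (e i) * ⟨T (i : ℕ), AN_le_FA c' (T_mem_AN c' _)⟩ := by
  obtain ⟨A, hA, e⟩ := span_FA hc0 hc1 h hm hcc x.2
  refine ⟨fun i => ⟨A i, hA i⟩, Subtype.ext ?_⟩
  rw [AddSubmonoidClass.coe_finsetSum, e]
  rfl

end an

end Crest.Agent.R013.CAn_243
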