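import Crest.Agent.R013.EE1_809

/-!
# Row 13, annuli (helper109): an infinite linear system over a complete non archimedean field

`E : ι → ι → C` a matrix with entries in a finite extension `L` of `k`, `w`, `v` two weights:
bounded for `w`, unit diagonal dominant for `v`.  Then `∑ n, E k n * b n = g k` has a solution
with the same `w`-bound (`exists_sol`).
-/

set_option autoImplicit false
set_option linter.unusedSectionVars false

open Filter Topology
open Crest.Agent.R013.Cell_408 Crest.Agent.R013.EE809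

namespace Crest.Agent.R013.CAnR_109

variable {k : Type*} [NontriviallyNormedField k] [CompleteSpace k]
variable {C : Type*} [NormedField C] [IsUltrametricDist C] [NormedAlgebra k C]

/-- data of the linear system -/
structure Sys {ι : Type*} (L : IntermediateField k C) (E : ι → ι → C) (w v : ι → ℝ) (μ : ℝ) :
    Prop where
  mem : ∀ k n, E k n ∈ L
  w_pos : ∀ n, 0 < w n
  v_pos : ∀ n, 0 < v n
  μ0 : 0 ≤ μ
  μ1 : μ < 1
  bd : ∀ k n, ‖E k n‖ * w k ≤ w n
  sm : ∀ k n, k ≠ n → ‖E k n‖ * v k ≤ μ * v n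
  dg : ∀ n, ‖E n n‖ = 1
  vw : ∀ n, v n ≤ w n
  lim : Tendsto (fun n => v n / w n) cofinite (𝓝 0)

variable {ι : Type*} {L : IntermediateField k C} [FiniteDimensional k L] {E : ι → ι → C}
  {w v : ι → ℝ} {μ : ℝ}

/-- bounded sequences -/
def Bd (L : IntermediateField k C) (w : ι → ℝ) (M : ℝ) (b : ι → C) : Prop :=
  (∀ n, b n ∈ L) ∧ ∀ n, ‖b n‖ * w n ≤ M

theorem Bd.sub {M : ℝ} {b b' : ι → C} (hw : ∀ n, 0 < w n) (h : Bd L w M b) (h' : Bd L w M b') :
    Bd L w M (fun n => b n - b' n) := by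
  refine ⟨fun n => sub_mem (h.1 n) (h'.1 n), fun n => ?_⟩
  have h1 : ‖b n - b' n‖ ≤ max ‖b n‖ ‖b' n‖ := by
    simpa [sub_eq_add_neg] using IsUltrametricDist.norm_add_le_max (b n) (-b' n)
  refine (mul_le_mul_of_nonneg_right h1 (hw n).le).trans ?_
  rw [max_mul_of_nonneg _ _ (hw n).le]
  exact max_le (h.2 n) (h'.2 n)

theorem Bd.add {M : ℝ} {b b' : ι → C} (hw : ∀ n, 0 < w n) (h : Bd L w M b) (h' : Bd L w M b') :
    Bd L w M (fun n => b n + b' n) := by
  refine ⟨fun n => add_mem (h.1 n) (h'.1 n), fun n => ?_⟩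
  have h1 : ‖b n + b' n‖ ≤ max ‖b n‖ ‖b' n‖ := IsUltrametricDist.norm_add_le_max (b n) (b' n)
  refine (mul_le_mul_of_nonneg_right h1 (hw n).le).trans ?_
  rw [max_mul_of_nonneg _ _ (hw n).le]
  exact max_le (h.2 n) (h'.2 n)

namespace Sys

variable (S : Sys L E w v μ)
include S

theorem summable {M : ℝ} {b : ι → C} (hb : Bd L w M b) (k : ι) :
    Summable fun n => E k n * b n := by
  refine summable_of L (fun n => mul_mem (S.mem k n) (hb.1 n)) ?_
  have h1 : Tendsto (fun n => (|M| * μ / v k) * (v n / w n)) cofinite (𝓝 0) := by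
    have := S.lim.const_mul (|M| * μ / v k)
    rwa [mul_zero] at this
  rw [tendsto_zero_iff_norm_tendsto_zero]
  refine squeeze_zero' (Eventually.of_forall fun n => norm_nonneg _) ?_ h1
  have h2 : ∀ᶠ n in cofinite, n ≠ k := by
    rw [eventually_cofinite]
    refine (Set.finite_singleton k).subset fun n hn => ?_
    simpa using hn
  filter_upwards [h2] with n hn
  have hv := S.v_pos k
  have hw := S.w_pos n
  rw [norm_mul]
  have h3 : ‖E k n‖ ≤ μ * v n / v k := by
    rw [le_div_iff₀ hv]; exact S.sm k n hn.symm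
  have h4 : ‖b n‖ ≤ |M| / w n := by
    rw [le_div_iff₀ hw]; exact (hb.2 n).trans (le_abs_self M)
  calc ‖E k n‖ * ‖b n‖ ≤ (μ * v n / v k) * (|M| / w n) :=
        mul_le_mul h3 h4 (norm_nonneg _) (div_nonneg (mul_nonneg S.μ0 (S.v_pos n).le) hv.le)
    _ = (|M| * μ / v k) * (v n / w n) := by ring

theorem tsum_mem {M : ℝ} {b : ι → C} (hb : Bd L w M b) (k : ι) : ∑' n, E k n * b n ∈ L :=
  tsum_mem_of L fun n => mul_mem (S.mem k n) (hb.1 n)

theorem tsum_le {M : ℝ} (hM : 0 ≤ M) {b : ι → C} (hb : Bd L w M b) (k : ι) :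
    ‖∑' n, E k n * b n‖ * w k ≤ M := by
  rw [← le_div_iff₀ (S.w_pos k)]
  refine IsUltrametricDist.norm_tsum_le_of_forall_le_of_nonneg
    (div_nonneg hM (S.w_pos k).le) fun n => ?_
  rw [le_div_iff₀ (S.w_pos k), norm_mul]
  calc ‖E k n‖ * ‖b n‖ * w k = ‖b n‖ * (‖E k n‖ * w k) := by ring
    _ ≤ ‖b n‖ * w n := mul_le_mul_of_nonneg_left (S.bd k n) (norm_nonneg _)
    _ ≤ M := hb.2 n

theorem tsum_sub_le {M ε : ℝ} (hε : 0 ≤ ε) {b : ι → C} (hb : Bd L w M b)
    (hbε : ∀ n, ‖b n‖ * v n ≤ ε) (k : ι) :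
    ‖(∑' n, E k n * b n) - E k k * b k‖ * v k ≤ μ * ε := by
  classical
  rw [← le_div_iff₀ (S.v_pos k)]
  have h1 := hasSum_ite_sub_hasSum (S.summable hb k).hasSum k
  rw [← h1.tsum_eq]
  refine IsUltrametricDist.norm_tsum_le_of_forall_le_of_nonneg
    (div_nonneg (mul_nonneg S.μ0 hε) (S.v_pos k).le) fun n => ?_
  split_ifs with hn
  · rw [norm_zero]; exact div_nonneg (mul_nonneg S.μ0 hε) (S.v_pos k).le
  rw [le_div_iff₀ (S.v_pos k), norm_mul]
  calc ‖E k n‖ * ‖b n‖ * v k = ‖b n‖ * (‖E k n‖ * v k) := by ring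
    _ ≤ ‖b n‖ * (μ * v n) := mul_le_mul_of_nonneg_left (S.sm k n (Ne.symm hn)) (norm_nonneg _)
    _ = μ * (‖b n‖ * v n) := by ring
    _ ≤ μ * ε := mul_le_mul_of_nonneg_left (hbε n) S.μ0

theorem tsum_le' {M ε : ℝ} (hε : 0 ≤ ε) {b : ι → C} (hb : Bd L w M b)
    (hbε : ∀ n, ‖b n‖ * v n ≤ ε) (k : ι) : ‖∑' n, E k n * b n‖ * v k ≤ ε := by
  have h1 := S.tsum_sub_le hε hb hbε k
  have h2 : ‖E k k * b k‖ * v k ≤ ε := by rw [norm_mul, S.dg, one_mul]; exact hbε k
  have e : (∑' n, E k n * b n) = ((∑' n, E k n * b n) - E k k * b k) + E k k * b k := by ring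
  rw [e]
  refine (mul_le_mul_of_nonneg_right (IsUltrametricDist.norm_add_le_max _ _) (S.v_pos k).le).trans ?_
  rw [max_mul_of_nonneg _ _ (S.v_pos k).le]
  refine max_le (h1.trans ?_) h2
  calc μ * ε ≤ 1 * ε := mul_le_mul_of_nonneg_right S.μ1.le hε
    _ = ε := one_mul ε

/-- **solution of the system** -/
theorem exists_sol {M : ℝ} (hM : 0 ≤ M) {g : ι → C} (hg : Bd L w M g) :
    ∃ b : ι → C, Bd L w M b ∧ ∀ k, HasSum (fun n => E k n * b n) (g k) := by
  have hE0 : ∀ n, E n n ≠ 0 := fun n h => by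
    have := S.dg n
    rw [h, norm_zero] at this
    exact zero_ne_one this
  let Ψ : (ι → C) → ι → C := fun b k => b k + (g k - ∑' n, E k n * b n) / E k k
  have hΨ : ∀ b, Bd L w M b → Bd L w M (Ψ b) := by
    intro b hb
    have h1 : Bd L w M fun k => (∑' n, E k n * b n) := ⟨S.tsum_mem hb, S.tsum_le hM hb⟩
    have h2 := hg.sub S.w_pos h1
    have h3 : Bd L w M fun k => (g k - ∑' n, E k n * b n) / E k k :=
      ⟨fun n => div_mem (h2.1 n) (S.mem n n), fun n => by
        rw [norm_div, S.dg, div_one]; exact h2.2 n⟩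
    exact hb.add S.w_pos h3
  let B : ℕ → ι → C := fun s => Ψ^[s] 0
  have hB0 : B 0 = 0 := rfl
  have hBs : ∀ s, B (s + 1) = Ψ (B s) := fun s => Function.iterate_succ_apply' Ψ s 0
  have hBd : ∀ s, Bd L w M (B s) := by
    intro s
    induction s with
    | zero =>
      rw [hB0]
      exact ⟨fun n => zero_mem L, fun n => by rw [Pi.zero_apply, norm_zero, zero_mul]; exact hM⟩
    | succ s ih => rw [hBs]; exact hΨ _ ih
  let δ : ℕ → ι → C := fun s k => B (s + 1) k - B s k
  have hδd : ∀ s, Bd L w M (δ s) := fun s => (hBd (s + 1)).sub S.w_pos (hBd s)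
  have hδ' : ∀ s k, E k k * δ s k = g k - ∑' n, E k n * B s n := by
    intro s k
    show E k k * (B (s + 1) k - B s k) = _
    rw [hBs]
    show E k k * (B s k + (g k - ∑' n, E k n * B s n) / E k k - B s k) = _
    rw [add_sub_cancel_left, mul_div_cancel₀ _ (hE0 k)]
  have hδs : ∀ s k, E k k * δ (s + 1) k = -((∑' n, E k n * δ s n) - E k k * δ s k) := by
    intro s k
    rw [hδ', hδ']
    have h1 : (∑' n, E k n * δ s n) = (∑' n, E k n * B (s + 1) n) - ∑' n, E k n * B s n := by
      rw [← (S.summable (hBd (s + 1)) k).tsum_sub (S.summable (hBd s) k)]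
      exact tsum_congr fun n => by
        show E k n * (B (s + 1) n - B s n) = _
        ring
    rw [h1]
    ring
  have hδv : ∀ s k, ‖δ s k‖ * v k ≤ μ ^ s * M := by
    intro s
    induction s with
    | zero =>
      intro k
      rw [pow_zero, one_mul]
      have h1 := hδ' 0 k
      have h2 : ∑' n, E k n * B 0 n = 0 := by
        rw [hB0]; simp
      rw [h2, sub_zero] at h1
      have h3 : ‖δ 0 k‖ = ‖g k‖ := by rw [← h1, norm_mul, S.dg, one_mul]
      rw [h3]
      exact (mul_le_mul_of_nonneg_left (S.vw k) (norm_nonneg _)).trans (hg.2 k)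
    | succ s ih =>
      intro k
      have h1 := S.tsum_sub_le (mul_nonneg (pow_nonneg S.μ0 s) hM) (hδd s) ih k
      have h2 : ‖δ (s + 1) k‖ = ‖(∑' n, E k n * δ s n) - E k k * δ s k‖ := by
        rw [← norm_neg ((∑' n, E k n * δ s n) - E k k * δ s k), ← hδs, norm_mul, S.dg, one_mul]
      rw [h2, pow_succ']
      calc _ ≤ _ := h1
        _ = μ * μ ^ s * M := by ring
  have hμ : Tendsto (fun s : ℕ => μ ^ s * M) atTop (𝓝 0) := by
    have := (tendsto_pow_atTop_nhds_zero_of_lt_one S.μ0 S.μ1).mul_const M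
    rwa [zero_mul] at this
  have hsum : ∀ k, Summable fun s => δ s k := by
    intro k
    refine summable_of L (fun s => (hδd s).1 k) ?_
    rw [Nat.cofinite_eq_atTop, tendsto_zero_iff_norm_tendsto_zero]
    have h1 : Tendsto (fun s : ℕ => μ ^ s * M / v k) atTop (𝓝 0) := by
      have := hμ.div_const (v k)
      rwa [zero_div] at this
    refine squeeze_zero (fun s => norm_nonneg _) (fun s => ?_) h1
    rw [le_div_iff₀ (S.v_pos k)]
    exact hδv s k
  have hpart : ∀ s k, ∑ t ∈ Finset.range s, δ t k = B s k := by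
    intro s k
    have := Finset.sum_range_sub (fun t => B t k) s
    rw [hB0, Pi.zero_apply, sub_zero] at this
    exact this
  let b : ι → C := fun k => ∑' s, δ s k
  have hlim : ∀ k, Tendsto (fun s => B s k) atTop (𝓝 (b k)) := by
    intro k
    have := (hsum k).hasSum.tendsto_sum_nat
    simpa only [hpart] using this
  have hb : Bd L w M b := by
    refine ⟨fun k => tsum_mem_of L fun s => (hδd s).1 k, fun k => ?_⟩
    refine le_of_tendsto ((hlim k).norm.mul_const (w k)) (Eventually.of_forall fun s => ?_)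
    exact (hBd s).2 k
  have htail : ∀ s k, ‖b k - B s k‖ * v k ≤ μ ^ s * M := by
    intro s k
    have h1 : ∀ t, ‖B (s + t) k - B s k‖ * v k ≤ μ ^ s * M := by
      intro t
      induction t with
      | zero =>
        rw [add_zero, sub_self, norm_zero, zero_mul]
        exact mul_nonneg (pow_nonneg S.μ0 s) hM
      | succ t ih =>
        have e : B (s + (t + 1)) k - B s k = δ (s + t) k + (B (s + t) k - B s k) := by
          show _ = (B (s + t + 1) k - B (s + t) k) + _
          rw [← add_assoc]; ring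
        rw [e]
        refine (mul_le_mul_of_nonneg_right (IsUltrametricDist.norm_add_le_max _ _)
          (S.v_pos k).le).trans ?_
        rw [max_mul_of_nonneg _ _ (S.v_pos k).le]
        refine max_le ((hδv (s + t) k).trans ?_) ih
        refine mul_le_mul_of_nonneg_right ?_ hM
        exact pow_le_pow_of_le_one S.μ0 S.μ1.le (Nat.le_add_right s t)
    have h2 : Tendsto (fun t => ‖B (s + t) k - B s k‖ * v k) atTop (𝓝 (‖b k - B s k‖ * v k)) := by
      have h3 : Tendsto (fun t => B (s + t) k) atTop (𝓝 (b k)) := by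
        have := (tendsto_add_atTop_iff_nat s).2 (hlim k)
        simpa only [add_comm] using this
      exact ((h3.sub_const _).norm).mul_const _
    exact le_of_tendsto h2 (Eventually.of_forall h1)
  refine ⟨b, hb, fun k => ?_⟩
  have hfin : ∑' n, E k n * b n = g k := by
    have h1 : ∀ s, ‖(∑' n, E k n * b n) - g k‖ * v k ≤ μ ^ s * M := by
      intro s
      have h2 : Bd L w M fun n => b n - B s n := hb.sub S.w_pos (hBd s)
      have h3 := S.tsum_le' (mul_nonneg (pow_nonneg S.μ0 s) hM) h2 (htail s) k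
      have h4 : (∑' n, E k n * (b n - B s n)) = (∑' n, E k n * b n) - ∑' n, E k n * B s n := by
        rw [← (S.summable hb k).tsum_sub (S.summable (hBd s) k)]
        exact tsum_congr fun n => by ring
      rw [h4] at h3
      have h5 := hδv s k
      have h6 : ‖δ s k‖ = ‖g k - ∑' n, E k n * B s n‖ := by
        rw [← hδ', norm_mul, S.dg, one_mul]
      rw [h6] at h5
      have e : (∑' n, E k n * b n) - g k =
          ((∑' n, E k n * b n) - ∑' n, E k n * B s n) + -(g k - ∑' n, E k n * B s n) := by ring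
      rw [e]
      refine (mul_le_mul_of_nonneg_right (IsUltrametricDist.norm_add_le_max _ _)
        (S.v_pos k).le).trans ?_
      rw [max_mul_of_nonneg _ _ (S.v_pos k).le, norm_neg]
      exact max_le h3 h5
    have h2 : ‖(∑' n, E k n * b n) - g k‖ * v k ≤ 0 := ge_of_tendsto hμ (Eventually.of_forall h1)
    have h3 : ‖(∑' n, E k n * b n) - g k‖ ≤ 0 := by
      by_contra h
      push Not at h
      exact absurd h2 (not_le.2 (mul_pos h (S.v_pos k)))
    exact sub_eq_zero.1 (norm_le_zero_iff.1 h3)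
  rw [← hfin]
  exact (S.summable hb k).hasSum

end Sys

end Crest.Agent.R013.CAnR_109
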