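import Crest.Agent.R013.Cell3_408

/-! # R013 / Comp1_267 : Gauss norm and Weierstrass degree (`HasW`), composition `g ∘ f` of bounded
finitely defined power series with a coordinate-like series `f` (`|f_n| ≤ 1`, `|f_0| < 1`). -/

set_option autoImplicit false
set_option linter.unusedSectionVars false
set_option linter.style.haveILetI false

noncomputable section

namespace Crest.Agent.R013.Comp_267

open Crest.Agent.R013.Cell_408 Topology PowerSeries

section HasW

variable {C : Type*} [NormedField C] [IsUltrametricDist C]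

theorem norm_sum_lt {ι : Type*} (s : Finset ι) (f : ι → C) {B : ℝ} (hB : 0 < B)
    (h : ∀ i ∈ s, ‖f i‖ < B) : ‖∑ i ∈ s, f i‖ < B := by
  classical
  induction s using Finset.induction_on with
  | empty => simpa using hB
  | insert a s ha ih =>
    rw [Finset.sum_insert ha]
    refine (IsUltrametricDist.norm_add_le_max _ _).trans_lt (max_lt (h a (by simp)) ?_)
    exact ih fun i hi => h i (by simp [hi])

theorem norm_sum_le {ι : Type*} (s : Finset ι) (f : ι → C) {B : ℝ} (hB : 0 ≤ B)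
    (h : ∀ i ∈ s, ‖f i‖ ≤ B) : ‖∑ i ∈ s, f i‖ ≤ B :=
  IsUltrametricDist.norm_sum_le_of_forall_le_of_nonneg hB h

theorem norm_add_eq {x y : C} (h : ‖y‖ < ‖x‖) : ‖x + y‖ = ‖x‖ := by
  rw [IsUltrametricDist.norm_add_eq_max_of_norm_ne_norm h.ne', max_eq_left h.le]

/-- the sum of a series with terms of norm `< B` has norm `< B` -/
theorem norm_hasSum_lt {ι : Type*} {f : ι → C} {s : C} (hs : HasSum f s) {B : ℝ} (hB : 0 < B)
    (h : ∀ i, ‖f i‖ < B) : ‖s‖ < B := by
  have h1 : Filter.Tendsto (fun t : Finset ι => ‖s - ∑ i ∈ t, f i‖) Filter.atTop (𝓝 ‖s - s‖) :=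
    (tendsto_const_nhds.sub hs).norm
  rw [sub_self, norm_zero] at h1
  obtain ⟨t, ht⟩ := (h1.eventually (gt_mem_nhds hB)).exists
  have e : s = (s - ∑ i ∈ t, f i) + ∑ i ∈ t, f i := by ring
  rw [e]
  exact (IsUltrametricDist.norm_add_le_max _ _).trans_lt
    (max_lt ht (norm_sum_lt t f hB fun i _ => h i))

theorem norm_hasSum_le {ι : Type*} {f : ι → C} {s : C} (hs : HasSum f s) {B : ℝ} (hB : 0 ≤ B)
    (h : ∀ i, ‖f i‖ ≤ B) : ‖s‖ ≤ B := by
  have h1 : Filter.Tendsto (fun t : Finset ι => ‖∑ i ∈ t, f i‖) Filter.atTop (𝓝 ‖s‖) :=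
    Filter.Tendsto.norm hs
  exact le_of_tendsto h1 (Filter.Eventually.of_forall fun t => norm_sum_le t f hB fun i _ => h i)

/-- `g` has Gauss norm `r`, attained for the first time at the index `n` -/
structure HasW (g : PowerSeries C) (r : ℝ) (n : ℕ) : Prop where
  le : ∀ j, ‖coeff j g‖ ≤ r
  eq : ‖coeff n g‖ = r
  lt : ∀ j < n, ‖coeff j g‖ < r

theorem HasW.unique {g : PowerSeries C} {r r' : ℝ} {n n' : ℕ} (h : HasW g r n) (h' : HasW g r' n') :
    r = r' ∧ n = n' := by
  have hr : r = r' := le_antisymm (h.eq ▸ h'.le n) (h'.eq ▸ h.le n')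
  subst hr
  refine ⟨rfl, ?_⟩
  rcases lt_trichotomy n n' with h1 | h1 | h1
  · exact absurd h.eq (h'.lt n h1).ne
  · exact h1
  · exact absurd h'.eq (h.lt n' h1).ne

theorem HasW.nonneg {g : PowerSeries C} {r : ℝ} {n : ℕ} (h : HasW g r n) : 0 ≤ r :=
  h.eq ▸ norm_nonneg _

theorem HasW.ne_zero {g : PowerSeries C} {r : ℝ} {n : ℕ} (h : HasW g r n) (hr : 0 < r) : g ≠ 0 := by
  rintro rfl
  have := h.eq
  simp only [map_zero, norm_zero] at this
  exact hr.ne this

theorem HasW.mul {g h : PowerSeries C} {r s : ℝ} {n m : ℕ} (hg : HasW g r n) (hh : HasW h s m)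
    (hr : 0 < r) (hs : 0 < s) : HasW (g * h) (r * s) (n + m) := by
  have hlt : ∀ p : ℕ × ℕ, (p.1 < n ∨ p.2 < m) → ‖coeff p.1 g * coeff p.2 h‖ < r * s := by
    rintro ⟨i, j⟩ hij
    rw [norm_mul]
    rcases hij with h1 | h1
    · calc _ ≤ ‖coeff i g‖ * s := mul_le_mul_of_nonneg_left (hh.le _) (norm_nonneg _)
        _ < r * s := mul_lt_mul_of_pos_right (hg.lt _ h1) hs
    · calc _ ≤ r * ‖coeff j h‖ := mul_le_mul_of_nonneg_right (hg.le _) (norm_nonneg _)
        _ < r * s := mul_lt_mul_of_pos_left (hh.lt _ h1) hr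
  refine ⟨fun j => ?_, ?_, fun j hj => ?_⟩
  · rw [coeff_mul]
    refine norm_sum_le _ _ (mul_nonneg hr.le hs.le) fun p _ => ?_
    rw [norm_mul]
    exact mul_le_mul (hg.le _) (hh.le _) (norm_nonneg _) hr.le
  · rw [coeff_mul, ← Finset.add_sum_erase _ _ (Finset.HasAntidiagonal.mem_antidiagonal.2 (rfl : n + m = n + m) :
      (n, m) ∈ Finset.HasAntidiagonal.antidiagonal (n + m))]
    have h1 : ‖coeff n g * coeff m h‖ = r * s := by rw [norm_mul, hg.eq, hh.eq]
    rw [norm_add_eq, h1]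
    rw [h1]
    refine norm_sum_lt _ _ (mul_pos hr hs) fun p hp => hlt p ?_
    rw [Finset.mem_erase, Finset.HasAntidiagonal.mem_antidiagonal] at hp
    by_contra hc
    push Not at hc
    exact hp.1 (Prod.ext (by omega) (by omega))
  · rw [coeff_mul]
    refine norm_sum_lt _ _ (mul_pos hr hs) fun p hp => hlt p ?_
    rw [Finset.HasAntidiagonal.mem_antidiagonal] at hp
    omega

theorem hasW_one : HasW (1 : PowerSeries C) 1 0 := by
  refine ⟨fun j => ?_, ?_, fun j hj => absurd hj (Nat.not_lt_zero j)⟩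
  · rw [coeff_one]; split_ifs <;> simp
  · simp

theorem hasW_X : HasW (X : PowerSeries C) 1 1 := by
  refine ⟨fun j => ?_, ?_, fun j hj => ?_⟩
  · rw [coeff_X]; split_ifs <;> simp
  · simp
  · rw [coeff_X, if_neg (by omega), norm_zero]; exact one_pos

theorem HasW.pow {g : PowerSeries C} {r : ℝ} {n : ℕ} (hg : HasW g r n) (hr : 0 < r) (m : ℕ) :
    HasW (g ^ m) (r ^ m) (m * n) := by
  induction m with
  | zero => simpa using hasW_one
  | succ m ih =>
    rw [pow_succ, pow_succ, Nat.succ_mul]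
    exact ih.mul hg (pow_pos hr m) hr

theorem HasW.smul {g : PowerSeries C} {r : ℝ} {n : ℕ} (hg : HasW g r n) {c : C} (hc : c ≠ 0) :
    HasW (PowerSeries.C c * g) (‖c‖ * r) n := by
  have hc' : 0 < ‖c‖ := norm_pos_iff.2 hc
  refine ⟨fun j => ?_, ?_, fun j hj => ?_⟩
  · rw [coeff_C_mul, norm_mul]; exact mul_le_mul_of_nonneg_left (hg.le j) hc'.le
  · rw [coeff_C_mul, norm_mul, hg.eq]
  · rw [coeff_C_mul, norm_mul]; exact mul_lt_mul_of_pos_left (hg.lt j hj) hc'

/-- a finite sum of series with pairwise different Weierstrass degrees -/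
theorem hasW_sum {ι : Type*} (s : Finset ι) (hs : s.Nonempty) (g : ι → PowerSeries C) (r : ι → ℝ)
    (n : ι → ℕ) (hg : ∀ i ∈ s, HasW (g i) (r i) (n i)) (hr : ∀ i ∈ s, 0 < r i)
    (hn : ∀ i ∈ s, ∀ j ∈ s, n i = n j → i = j) :
    ∃ i ∈ s, (∀ j ∈ s, r j ≤ r i) ∧ HasW (∑ j ∈ s, g j) (r i) (n i) := by
  classical
  obtain ⟨i0, hi0, hi0'⟩ := s.exists_max_image r hs
  obtain ⟨i, hi, hmin⟩ := (s.filter fun j => r j = r i0).exists_min_image n
    ⟨i0, by simp [hi0]⟩
  rw [Finset.mem_filter] at hi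
  have hmax : ∀ j ∈ s, r j ≤ r i := fun j hj => hi.2 ▸ hi0' j hj
  have hpos := hr i hi.1
  have hlt : ∀ j ∈ s, ∀ l, (l < n i ∨ (l = n i ∧ j ≠ i)) → ‖coeff l (g j)‖ < r i := by
    intro j hj l hl
    rcases lt_or_eq_of_le (hmax j hj) with h1 | h1
    · exact ((hg j hj).le l).trans_lt h1
    · have h2 : n i ≤ n j := hmin j (by simp [hj, h1, hi.2])
      rcases hl with h3 | ⟨h3, h4⟩
      · exact h1 ▸ (hg j hj).lt l (h3.trans_le h2)
      · subst h3
        rcases lt_or_eq_of_le h2 with h5 | h5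
        · exact h1 ▸ (hg j hj).lt _ h5
        · exact absurd (hn i hi.1 j hj h5).symm h4
  refine ⟨i, hi.1, hmax, fun l => ?_, ?_, fun l hl => ?_⟩
  · rw [map_sum]
    exact norm_sum_le _ _ hpos.le fun j hj => ((hg j hj).le l).trans (hmax j hj)
  · rw [map_sum, ← Finset.add_sum_erase _ _ hi.1, norm_add_eq, (hg i hi.1).eq]
    rw [(hg i hi.1).eq]
    refine norm_sum_lt _ _ hpos fun j hj => ?_
    rw [Finset.mem_erase] at hj
    exact hlt j hj.2 _ (Or.inr ⟨rfl, hj.1⟩)
  · rw [map_sum]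
    exact norm_sum_lt _ _ hpos fun j hj => hlt j hj l (Or.inl hl)

end HasW

section Comp

variable (k : Type*) {C : Type*} [NontriviallyNormedField k] [CompleteSpace k] [IsUltrametricDist k]
  [NormedField C] [IsUltrametricDist C] [NormedAlgebra k C] [Algebra.IsAlgebraic k C] [IsAlgClosed C]

/-- `f` maps the open unit disc into itself: `|f_n| ≤ 1`, `|f_0| < 1` (finitely defined) -/
structure Co (f : PowerSeries C) : Prop where
  fd : FinDef k (fun n => coeff n f)
  le : ∀ n, ‖coeff n f‖ ≤ 1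
  lt : ‖coeff 0 f‖ < 1

variable {k}

theorem Co.mem {f : PowerSeries C} (hf : Co k f) : f ∈ BD k C := ⟨hf.fd, 1, hf.le⟩

omit [IsUltrametricDist C] in
theorem coeff_pow_mem (L : IntermediateField k C) {f : PowerSeries C} (hL : ∀ n, coeff n f ∈ L)
    (m : ℕ) : ∀ n, coeff n (f ^ m) ∈ L := by
  induction m with
  | zero =>
    intro n
    rw [pow_zero, coeff_one]; split_ifs
    · exact one_mem _
    · exact zero_mem _
  | succ m ih =>
    intro n
    rw [pow_succ, coeff_mul]
    exact sum_mem fun p _ => mul_mem (ih _) (hL _)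

theorem coeff_pow_le {f : PowerSeries C} (hle : ∀ n, ‖coeff n f‖ ≤ 1) (m : ℕ) :
    ∀ n, ‖coeff n (f ^ m)‖ ≤ ‖coeff 0 f‖ ^ (m - n) := by
  have h0 : 0 ≤ ‖coeff 0 f‖ := norm_nonneg _
  induction m with
  | zero =>
    intro n
    rw [pow_zero, coeff_one]; split_ifs <;> simp
  | succ m ih =>
    intro n
    rw [pow_succ, coeff_mul]
    refine norm_sum_le _ _ (pow_nonneg h0 _) fun p hp => ?_
    rw [Finset.HasAntidiagonal.mem_antidiagonal] at hp
    rw [norm_mul]
    rcases Nat.eq_zero_or_pos p.2 with h | h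
    · calc _ ≤ ‖coeff 0 f‖ ^ (m - p.1) * ‖coeff p.2 f‖ :=
            mul_le_mul_of_nonneg_right (ih _) (norm_nonneg _)
        _ = ‖coeff 0 f‖ ^ (m - n + 1) := by rw [h, pow_succ, show p.1 = n by omega]
        _ ≤ _ := pow_le_pow_of_le_one h0 (hle 0) (by omega)
    · calc _ ≤ ‖coeff 0 f‖ ^ (m - p.1) * 1 :=
            mul_le_mul (ih _) (hle _) (norm_nonneg _) (pow_nonneg h0 _)
        _ = ‖coeff 0 f‖ ^ (m - p.1) := mul_one _
        _ ≤ _ := pow_le_pow_of_le_one h0 (hle 0) (by omega)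

theorem Co.summable {f g : PowerSeries C} (hf : Co k f) (hg : g ∈ BD k C) (n : ℕ) :
    Summable fun m => coeff m g * coeff n (f ^ m) := by
  obtain ⟨hg1, M, hg2⟩ := hg
  obtain ⟨L, hL, h1, h2⟩ := hg1.common hf.fd
  refine FinDef.summable (k := k) ⟨L, hL, fun m => mul_mem (h1 m) (coeff_pow_mem L h2 m n)⟩ ?_
  rw [Nat.cofinite_eq_atTop, ← Filter.tendsto_add_atTop_iff_nat n]
  refine squeeze_zero_norm (a := fun m => M * ‖coeff 0 f‖ ^ m) (fun m => ?_) ?_
  · rw [norm_mul]
    have h3 := coeff_pow_le hf.le (m + n) n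
    rw [Nat.add_sub_cancel] at h3
    exact mul_le_mul (hg2 _) h3 (norm_nonneg _) ((norm_nonneg _).trans (hg2 0))
  · simpa using (tendsto_pow_atTop_nhds_zero_of_lt_one (norm_nonneg _) hf.lt).const_mul M

/-- composition of power series (as a limit) -/
def compS (f g : PowerSeries C) : PowerSeries C :=
  PowerSeries.mk fun n => ∑' m, coeff m g * coeff n (f ^ m)

theorem hasSum_comp {f g : PowerSeries C} (hf : Co k f) (hg : g ∈ BD k C) (n : ℕ) :
    HasSum (fun m => coeff m g * coeff n (f ^ m)) (coeff n (compS f g)) := by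
  rw [compS, coeff_mk]
  exact (hf.summable hg n).hasSum

theorem compS_le {f g : PowerSeries C} (hf : Co k f) (hg : g ∈ BD k C) {M : ℝ}
    (hM : ∀ n, ‖coeff n g‖ ≤ M) (n : ℕ) : ‖coeff n (compS f g)‖ ≤ M := by
  have hM0 : 0 ≤ M := (norm_nonneg _).trans (hM 0)
  refine norm_hasSum_le (hasSum_comp hf hg n) hM0 fun m => ?_
  rw [norm_mul]
  calc _ ≤ M * 1 := mul_le_mul (hM m) ((coeff_pow_le hf.le m n).trans
        (pow_le_one₀ (norm_nonneg _) (hf.le 0))) (norm_nonneg _) hM0
    _ = M := mul_one _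

theorem compS_coeff_mem {f g : PowerSeries C} (hf : Co k f) (hg : g ∈ BD k C)
    (L : IntermediateField k C) [FiniteDimensional k L] (hfL : ∀ n, coeff n f ∈ L)
    (hgL : ∀ n, coeff n g ∈ L) (n : ℕ) : coeff n (compS f g) ∈ L :=
  hasSum_mem (hasSum_comp hf hg n) L fun m => mul_mem (hgL m) (coeff_pow_mem L hfL m n)

theorem compS_mem {f g : PowerSeries C} (hf : Co k f) (hg : g ∈ BD k C) : compS f g ∈ BD k C := by
  obtain ⟨L, hL, h1, h2⟩ := hg.1.common hf.fd
  obtain ⟨M, hM⟩ := hg.2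
  exact ⟨⟨L, hL, compS_coeff_mem hf hg L h2 h1⟩, M, compS_le hf hg hM⟩

theorem compS_add {f g h : PowerSeries C} (hf : Co k f) (hg : g ∈ BD k C) (hh : h ∈ BD k C) :
    compS f (g + h) = compS f g + compS f h := by
  ext n
  have h1 := (hasSum_comp hf hg n).add (hasSum_comp hf hh n)
  rw [map_add]
  refine (hasSum_comp hf (add_mem hg hh) n).unique (h1.congr_fun ?_)
  intro m
  simp only [map_add, add_mul]

theorem compS_C (f : PowerSeries C) (c : C) : compS f (PowerSeries.C c) = PowerSeries.C c := by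
  ext n
  rw [compS, coeff_mk, tsum_eq_single 0]
  · rw [pow_zero, coeff_C, if_pos rfl, coeff_one, coeff_C]
    split_ifs <;> simp
  · intro m hm
    rw [coeff_C, if_neg hm, zero_mul]

theorem compS_X (f : PowerSeries C) : compS f X = f := by
  ext n
  rw [compS, coeff_mk, tsum_eq_single 1]
  · rw [pow_one, coeff_X, if_pos rfl, one_mul]
  · intro m hm
    rw [coeff_X, if_neg hm, zero_mul]

omit [IsAlgClosed C] [Algebra.IsAlgebraic k C] [CompleteSpace k] [IsUltrametricDist k]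
  [NontriviallyNormedField k] [NormedAlgebra k C] in
theorem hasSum_mul_aux {a b : ℕ → C} {x y : C} (ha : HasSum a x) (hb : HasSum b y) :
    HasSum (fun q : ℕ × ℕ => a q.1 * b q.2) (x * y) :=
  haveI : NonarchimedeanRing C :=
    { is_nonarchimedean := NonarchimedeanAddGroup.is_nonarchimedean }
  ha.mul_of_nonarchimedean hb

theorem compS_mul {f g h : PowerSeries C} (hf : Co k f) (hg : g ∈ BD k C) (hh : h ∈ BD k C) :
    compS f (g * h) = compS f g * compS f h := by
  ext n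
  have h0 : ∀ p : ℕ × ℕ, HasSum (fun q : ℕ × ℕ =>
      (coeff q.1 g * coeff p.1 (f ^ q.1)) * (coeff q.2 h * coeff p.2 (f ^ q.2)))
      (coeff p.1 (compS f g) * coeff p.2 (compS f h)) := fun p =>
    hasSum_mul_aux (a := fun m => coeff m g * coeff p.1 (f ^ m))
      (b := fun m => coeff m h * coeff p.2 (f ^ m)) (hasSum_comp hf hg p.1) (hasSum_comp hf hh p.2)
  have h1 : HasSum (fun q : ℕ × ℕ => ∑ p ∈ Finset.HasAntidiagonal.antidiagonal n,
      (coeff q.1 g * coeff p.1 (f ^ q.1)) * (coeff q.2 h * coeff p.2 (f ^ q.2)))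
      (∑ p ∈ Finset.HasAntidiagonal.antidiagonal n, coeff p.1 (compS f g) * coeff p.2 (compS f h)) :=
    hasSum_sum (f := fun (p : ℕ × ℕ) (q : ℕ × ℕ) =>
      (coeff q.1 g * coeff p.1 (f ^ q.1)) * (coeff q.2 h * coeff p.2 (f ^ q.2)))
      (a := fun p : ℕ × ℕ => coeff p.1 (compS f g) * coeff p.2 (compS f h)) fun p _ => h0 p
  have h2 : HasSum (fun q : ℕ × ℕ => coeff q.1 g * coeff q.2 h * coeff n (f ^ (q.1 + q.2)))
      (coeff n (compS f g * compS f h)) := by
    rw [coeff_mul]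
    refine h1.congr_fun fun q => ?_
    rw [pow_add, coeff_mul, Finset.mul_sum]
    exact Finset.sum_congr rfl fun p _ => by ring
  rw [← (Finset.HasAntidiagonal.sigmaAntidiagonalEquivProd (A := ℕ)).hasSum_iff] at h2
  have h3 := h2.sigma (g := fun m => coeff m (g * h) * coeff n (f ^ m)) fun m => by
    have h4 := hasSum_fintype (fun c : Finset.HasAntidiagonal.antidiagonal m =>
      coeff c.1.1 g * coeff c.1.2 h * coeff n (f ^ (c.1.1 + c.1.2)))
    have h5 : ∑ c : Finset.HasAntidiagonal.antidiagonal m,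
        coeff c.1.1 g * coeff c.1.2 h * coeff n (f ^ (c.1.1 + c.1.2)) =
        coeff m (g * h) * coeff n (f ^ m) := by
      rw [coeff_mul, Finset.sum_mul, ← Finset.sum_coe_sort (Finset.HasAntidiagonal.antidiagonal m)]
      refine Finset.sum_congr rfl fun c _ => ?_
      rw [Finset.HasAntidiagonal.mem_antidiagonal.1 c.2]
    rw [h5] at h4
    exact h4
  exact (hasSum_comp hf (mul_mem hg hh) n).unique h3

/-- composition with `f` as an algebra homomorphism of `BD k C` -/
def comp (f : PowerSeries C) (hf : Co k f) : BD k C →ₐ[C] BD k C where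
  toFun g := ⟨compS f g.1, compS_mem hf g.2⟩
  map_one' := Subtype.ext (by
    change compS f 1 = 1
    rw [← map_one (PowerSeries.C (R := C)), compS_C])
  map_mul' g h := Subtype.ext (compS_mul hf g.2 h.2)
  map_zero' := Subtype.ext (by
    change compS f 0 = 0
    rw [← map_zero (PowerSeries.C (R := C)), compS_C])
  map_add' g h := Subtype.ext (compS_add hf g.2 h.2)
  commutes' c := Subtype.ext (compS_C f c)

theorem coe_comp (f : PowerSeries C) (hf : Co k f) (g : BD k C) :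
    ((comp f hf g : BD k C) : PowerSeries C) = compS f g := rfl

end Comp

end Crest.Agent.R013.Comp_267
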