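import Crest.Agent.R013.CAnR1_109
import Crest.Agent.R013.CAn4_243
import Crest.Agent.R013.Comp1_267

/-!
# Row 13, annuli (helper109): representation of functions of an annulus

`f` a map of degree `m` of the annulus `|c'| < |T| < 1` onto `|c| < |T| < 1`.  Every `G ∈ AN k c'`
is `∑_{i<m} T^i compE f (e i)` with `e i ∈ AN k c` (`repr_AN`), the same for `FA` (`repr_FA`);
uniqueness in `EE` (`compE_indep`).
-/

set_option autoImplicit false
set_option linter.unusedSectionVars false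

open Filter Topology
open Crest.Agent.R013.Cell_408 (FinDef DiscNorm exists_max BD)
open Crest.Agent.R013.EE809 Crest.Agent.R013.CAn_243

namespace Crest.Agent.R013.CAnR_109

section lim

theorem tendsto_natAbs_cofinite : Tendsto Int.natAbs cofinite atTop := by
  rw [← Nat.cofinite_eq_atTop]
  refine Filter.Tendsto.cofinite_of_finite_preimage_singleton fun a => ?_
  refine (Set.finite_Icc (-(a : ℤ)) a).subset fun n hn => ?_
  have h : n.natAbs = a := hn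
  rw [Set.mem_Icc]
  omega

theorem tendsto_pow_natAbs {ρ : ℝ} (h0 : 0 ≤ ρ) (h1 : ρ < 1) :
    Tendsto (fun n : ℤ => ρ ^ n.natAbs) cofinite (𝓝 0) :=
  (tendsto_pow_atTop_nhds_zero_of_lt_one h0 h1).comp tendsto_natAbs_cofinite

theorem zpow_div_max {ρ : ℝ} (h0 : 0 < ρ) (n : ℤ) :
    ρ ^ n / max 1 ((ρ ^ 2) ^ n) ≤ ρ ^ n.natAbs := by
  have hw : 0 < max 1 ((ρ ^ 2) ^ n) := lt_max_of_lt_left one_pos
  rw [div_le_iff₀ hw]
  rcases le_or_gt 0 n with hn | hn
  · obtain ⟨i, rfl⟩ := Int.eq_ofNat_of_zero_le hn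
    rw [Int.natAbs_natCast, zpow_natCast]
    exact le_mul_of_one_le_right (by positivity) (le_max_left _ _)
  · obtain ⟨i, hi⟩ := Int.eq_ofNat_of_zero_le (show 0 ≤ -n by omega)
    have hn' : n = -(i : ℤ) := by omega
    rw [hn', Int.natAbs_neg, Int.natAbs_natCast]
    refine le_trans (le_of_eq ?_) (mul_le_mul_of_nonneg_left (le_max_right _ _) (by positivity))
    rw [zpow_neg, zpow_neg, zpow_natCast, zpow_natCast, ← pow_mul, mul_comm 2 i, pow_mul]
    field_simp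

end lim

variable {k : Type*} [NontriviallyNormedField k] [CompleteSpace k]
variable {C : Type*} [NormedField C] [IsUltrametricDist C] [NormedAlgebra k C]
variable [Algebra.IsAlgebraic k C]

section mkAN

/-- elements of `AN k c` from two bounds -/
noncomputable def mkAN {c : C} (hc0 : c ≠ 0) (hc1 : ‖c‖ < 1) (a : ℤ → C) (h1 : FinDef k a) {M M' : ℝ}
    (h2 : ∀ n, ‖a n‖ ≤ M) (h3 : ∀ n, ‖a n‖ * ‖c‖ ^ n ≤ M') : EE k C :=
  mk' a h1 ⟨M, h2⟩ (by
    have hc : 0 < ‖c‖ := norm_pos_iff.2 hc0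
    have g1 : Tendsto (fun n : ℤ => M' * ‖c‖ ^ (-n)) atBot (𝓝 0) := by
      have g2 : Tendsto (fun n : ℕ => M' * ‖c‖ ^ n) atTop (𝓝 (M' * 0)) :=
        (tendsto_pow_atTop_nhds_zero_of_lt_one (norm_nonneg _) hc1).const_mul M'
      rw [mul_zero] at g2
      rw [Metric.tendsto_nhds] at g2 ⊢
      intro ε hε
      obtain ⟨N, hN⟩ := eventually_atTop.1 (g2 ε hε)
      rw [eventually_atBot]
      refine ⟨-N, fun n hn => ?_⟩
      have g3 := hN (-n).toNat (by omega)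
      have g4 : (((-n).toNat : ℕ) : ℤ) = -n := Int.toNat_of_nonneg (by omega)
      rw [← zpow_natCast, g4] at g3
      exact g3
    refine squeeze_zero_norm (fun n => ?_) g1
    have g5 := h3 n
    rw [zpow_neg, ← div_eq_mul_inv, le_div_iff₀ (zpow_pos hc n)]
    exact g5)

theorem co_mkAN {c : C} (hc0 : c ≠ 0) (hc1 : ‖c‖ < 1) (a : ℤ → C) (h1 : FinDef k a) {M M' : ℝ}
    (h2 : ∀ n, ‖a n‖ ≤ M) (h3 : ∀ n, ‖a n‖ * ‖c‖ ^ n ≤ M') (n : ℤ) :
    (mkAN hc0 hc1 a h1 h2 h3).co n = a n := rfl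

theorem mkAN_mem {c : C} (hc0 : c ≠ 0) (hc1 : ‖c‖ < 1) (a : ℤ → C) (h1 : FinDef k a) {M M' : ℝ}
    (h2 : ∀ n, ‖a n‖ ≤ M) (h3 : ∀ n, ‖a n‖ * ‖c‖ ^ n ≤ M') : mkAN hc0 hc1 a h1 h2 h3 ∈ AN k c :=
  ⟨M', h3⟩

end mkAN

variable [IsUltrametricDist k] [IsAlgClosed C] [hk : Fact (DiscNorm k)]

variable {c c' : C} {f : EE k C} {m : ℕ}

/-- the matrix of the representation problem -/
noncomputable def EM (f : EE k C) (m : ℕ) (i n : ℤ) : C := (f ^ (n / m)).co (i - n % m)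

theorem norm_EM_le (hc0 : c' ≠ 0) (hc1 : ‖c'‖ < 1) (h : WA c' f m) (i n : ℤ) :
    ‖EM f m i n‖ ≤ 1 := (h.zpow hc0 hc1 _).le _

theorem norm_EM_le' (hc0 : c' ≠ 0) (hc1 : ‖c'‖ < 1) (h : WA c' f m) (i n : ℤ) :
    ‖EM f m i n‖ * ‖c'‖ ^ i ≤ ‖c'‖ ^ n := by
  have hc : 0 < ‖c'‖ := norm_pos_iff.2 hc0
  have h1 := (h.zpow hc0 hc1 (n / m)).leA (i - n % m)
  rw [zpow_sub₀ hc.ne', mul_div_assoc', div_le_iff₀ (zpow_pos hc _), ← zpow_add₀ hc.ne',
    Int.mul_ediv_add_emod] at h1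
  exact h1

theorem norm_EM_self (hc0 : c' ≠ 0) (hc1 : ‖c'‖ < 1) (h : WA c' f m) (n : ℤ) :
    ‖EM f m n n‖ = 1 := by
  have h1 := (h.zpow hc0 hc1 (n / m)).one
  have e : n - n % m = m * (n / m) := by
    have := Int.mul_ediv_add_emod n m
    omega
  rw [EM, e]
  exact h1

theorem sys (hc0 : c' ≠ 0) (hc1 : ‖c'‖ < 1) (h : WA c' f m) (L : IntermediateField k C)
    (hL : ∀ n j, pc f n j ∈ L) :
    Sys L (EM f m) (fun n => max 1 (‖c'‖ ^ n)) (fun n => (Real.sqrt ‖c'‖) ^ n) (Real.sqrt ‖c'‖) := by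
  have hc : 0 < ‖c'‖ := norm_pos_iff.2 hc0
  set ρ := Real.sqrt ‖c'‖ with hρd
  have hρ : 0 < ρ := Real.sqrt_pos.2 hc
  have hρ1 : ρ < 1 := by
    rw [hρd, Real.sqrt_lt' one_pos, one_pow]; exact hc1
  have hρ2 : ‖c'‖ = ρ ^ 2 := (Real.sq_sqrt hc.le).symm
  refine ⟨fun i n => hL _ _, fun n => lt_max_of_lt_left one_pos, fun n => zpow_pos hρ n, hρ.le, hρ1,
    fun i n => ?_, fun i n hin => ?_, norm_EM_self hc0 hc1 h, fun n => ?_, ?_⟩
  · rw [mul_max_of_nonneg _ _ (norm_nonneg _), mul_one]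
    exact max_le_max (norm_EM_le hc0 hc1 h i n) (norm_EM_le' hc0 hc1 h i n)
  · have e : ρ * ρ ^ n = ρ ^ (n + 1) := by rw [zpow_add₀ hρ.ne', zpow_one, mul_comm]
    rw [e]
    rcases lt_or_gt_of_ne hin with hlt | hlt
    · have h1 := norm_EM_le' hc0 hc1 h i n
      rw [hρ2, ← le_div_iff₀ (zpow_pos (by positivity) _), ← zpow_sub₀ (by positivity)] at h1
      calc ‖EM f m i n‖ * ρ ^ i ≤ (ρ ^ 2) ^ (n - i) * ρ ^ i :=
            mul_le_mul_of_nonneg_right h1 (zpow_nonneg hρ.le _)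
        _ = ρ ^ (2 * (n - i) + i) := by
            rw [zpow_add₀ hρ.ne', zpow_mul]; norm_cast
        _ ≤ ρ ^ (n + 1) := zpow_le_zpow_right_of_le_one₀ hρ hρ1.le (by omega)
    · calc ‖EM f m i n‖ * ρ ^ i ≤ 1 * ρ ^ i :=
            mul_le_mul_of_nonneg_right (norm_EM_le hc0 hc1 h i n) (zpow_nonneg hρ.le _)
        _ = ρ ^ i := one_mul _
        _ ≤ ρ ^ (n + 1) := zpow_le_zpow_right_of_le_one₀ hρ hρ1.le (by omega)
  · rw [hρ2]
    rcases le_or_gt 0 n with hn | hn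
    · refine le_max_of_le_left ?_
      obtain ⟨i, rfl⟩ := Int.eq_ofNat_of_zero_le hn
      rw [zpow_natCast]
      exact pow_le_one₀ hρ.le hρ1.le
    · refine le_max_of_le_right ?_
      have : (ρ ^ 2) ^ n = ρ ^ (2 * n) := by rw [zpow_mul]; norm_cast
      rw [this]
      exact zpow_le_zpow_right_of_le_one₀ hρ hρ1.le (by omega)
  · rw [hρ2]
    refine squeeze_zero (fun n => ?_) (zpow_div_max hρ) (tendsto_pow_natAbs hρ.le hρ1)
    exact div_nonneg (zpow_nonneg hρ.le _) (le_max_of_le_left zero_le_one)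

/-- **representation** of the functions of an annulus -/
theorem repr_AN (hc0 : c' ≠ 0) (hc1 : ‖c'‖ < 1) (hw : WE f m) (h : WA c' f m) (hm : m ≠ 0)
    (hcc : ‖c'‖ ^ m = ‖c‖) {G : EE k C} (hG : G ∈ AN k c') :
    ∃ e : Fin m → EE k C, (∀ i, e i ∈ AN k c) ∧ G = ∑ i : Fin m, T i * compE f hw hm (e i) := by
  have hc : 0 < ‖c'‖ := norm_pos_iff.2 hc0
  have hcpos : 0 < ‖c‖ := by rw [← hcc]; positivity
  have hcn0 : c ≠ 0 := norm_pos_iff.1 hcpos
  have hcn1 : ‖c‖ < 1 := by rw [← hcc]; exact pow_lt_one₀ hc.le hc1 hm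
  obtain ⟨L, hL, hGL, hfL⟩ := exists_L2 f G
  obtain ⟨M, hM0, hM1, hM2⟩ := AN.bd2 hG
  have hg : Bd L (fun n : ℤ => max 1 (‖c'‖ ^ n)) M G.co := by
    refine ⟨hGL, fun n => ?_⟩
    rw [mul_max_of_nonneg _ _ (norm_nonneg _), mul_one]
    exact max_le (hM1 n) (hM2 n)
  obtain ⟨b, hb, hsum⟩ := (sys hc0 hc1 h L hfL).exists_sol hM0.le hg
  have hb1 : ∀ n, ‖b n‖ ≤ M := fun n =>
    (le_mul_of_one_le_right (norm_nonneg _) (le_max_left _ _)).trans (hb.2 n)
  have hb2 : ∀ n, ‖b n‖ * ‖c'‖ ^ n ≤ M := fun n =>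
    (mul_le_mul_of_nonneg_left (le_max_right _ _) (norm_nonneg _)).trans (hb.2 n)
  have hmem : ∀ (i : Fin m) (q : ℤ), ‖b (q * m + i)‖ * ‖c‖ ^ q ≤ M * ‖c'‖ ^ (-(i : ℤ)) := by
    intro i q
    have h1 := hb2 (q * m + i)
    rw [← hcc, ← zpow_natCast, ← zpow_mul]
    have h2 : ‖c'‖ ^ ((m : ℤ) * q) = ‖c'‖ ^ (q * m + (i : ℤ)) * ‖c'‖ ^ (-(i : ℤ)) := by
      rw [← zpow_add₀ hc.ne']; congr 1; ring
    rw [h2, ← mul_assoc]
    exact mul_le_mul_of_nonneg_right h1 (zpow_nonneg hc.le _)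
  let A : Fin m → EE k C := fun i => mkAN hcn0 hcn1 (fun q => b (q * m + i))
    ⟨L, hL, fun q => hb.1 _⟩ (fun q => hb1 _) (hmem i)
  have hA : ∀ i q, (A i).co q = b (q * m + i) := fun i q => rfl
  refine ⟨A, fun i => mkAN_mem hcn0 hcn1 _ _ _ _, ?_⟩
  ext j
  rw [co_finset_sum]
  simp only [co_T_mul]
  have : NeZero m := ⟨hm⟩
  have s1 : HasSum (fun p : ℤ × Fin m => EM f m j (p.1 * m + p.2) * b (p.1 * m + p.2)) (G.co j) := by
    have := (Int.divModEquiv m).symm.hasSum_iff.2 (hsum j)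
    exact this
  have e1 : ∀ (q : ℤ) (i : Fin m), EM f m j (q * m + i) = (f ^ q).co (j - i) := by
    intro q i
    have h1 : (q * m + (i : ℤ)) / m = q := by
      rw [Int.add_comm, Int.add_mul_ediv_right _ _ (Int.natCast_ne_zero.2 hm),
        Int.ediv_eq_zero_of_lt (Int.natCast_nonneg _) (Int.ofNat_lt.2 i.2), zero_add]
    have h2 : (q * m + (i : ℤ)) % m = i := by
      rw [Int.add_comm, Int.add_mul_emod_self_right,
        Int.emod_eq_of_lt (Int.natCast_nonneg _) (Int.ofNat_lt.2 i.2)]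
    rw [EM, h1, h2]
  have s2 : HasSum (fun q : ℤ => ∑ i : Fin m, EM f m j (q * m + i) * b (q * m + i)) (G.co j) :=
    s1.prod_fiberwise fun q => hasSum_fintype _
  have s3 : HasSum (fun q : ℤ => ∑ i : Fin m, (A i).co q * (f ^ q).co (j - i))
      (∑ i : Fin m, (compE f hw hm (A i)).co (j - i)) :=
    hasSum_sum fun i _ => hasSum_compE hw hm (A i) (j - i)
  refine s2.unique ?_
  convert s3 using 1
  funext q
  refine Finset.sum_congr rfl fun i _ => ?_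
  rw [e1, hA, mul_comm]

/-! ### uniqueness -/

theorem gn_T_mul (n : ℤ) (a : EE k C) : gn (T n * a) = gn a := by
  rw [gn_mul hk.out, T, gn_mo, norm_one, one_mul]

theorem od_T_mul (n : ℤ) {a : EE k C} (ha : a ≠ 0) : od (T n * a) = n + od a := by
  rw [od_mul hk.out (T_ne_zero n) ha]
  congr 1
  exact od_mono (k := k) n (finDef_const (1 : C)) one_ne_zero

/-- **uniqueness** of the representation, over the whole of `EE` -/
theorem compE_indep (hw : WE f m) (hm : m ≠ 0) (e : Fin m → EE k C)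
    (h0 : ∑ i : Fin m, T i * compE f hw hm (e i) = 0) : e = 0 := by
  classical
  by_contra hne
  obtain ⟨i1, hi1⟩ := Function.ne_iff.1 hne
  let S : Finset (Fin m) := Finset.univ.filter fun i => e i ≠ 0
  have hS : S.Nonempty := ⟨i1, Finset.mem_filter.2 ⟨Finset.mem_univ _, hi1⟩⟩
  obtain ⟨i2, hi2, hmax⟩ := S.exists_max_image (fun i => gn (e i)) hS
  let S' : Finset (Fin m) := S.filter fun i => gn (e i) = gn (e i2)
  have hS' : S'.Nonempty := ⟨i2, Finset.mem_filter.2 ⟨hi2, rfl⟩⟩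
  obtain ⟨i0, hi0, hmin⟩ := S'.exists_min_image (fun i => (i : ℤ) + m * od (e i)) hS'
  obtain ⟨hi0S, hgn0⟩ := Finset.mem_filter.1 hi0
  have he0 : e i0 ≠ 0 := (Finset.mem_filter.1 hi0S).2
  set N : ℤ := (i0 : ℤ) + m * od (e i0) with hN
  set r := gn (e i2) with hr
  have hr0 : 0 < r := by rw [← hgn0]; exact gn_pos he0
  have hod : ∀ i, e i ≠ 0 → od (T i * compE f hw hm (e i)) = (i : ℤ) + m * od (e i) := by
    intro i hi
    rw [od_T_mul _ (compE_ne_zero hw hm hi), od_compE]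
  have hgn : ∀ i : Fin m, gn (T i * compE f hw hm (e i)) = gn (e i) := fun i => by
    rw [gn_T_mul, gn_compE]
  have hne0 : ∀ i, e i ≠ 0 → T i * compE f hw hm (e i) ≠ 0 := fun i hi =>
    mul_ne_zero (T_ne_zero _) (compE_ne_zero hw hm hi)
  have h1 : ‖(T i0 * compE f hw hm (e i0)).co N‖ = r := by
    rw [hN, ← hod i0 he0, norm_co_od hk.out (hne0 i0 he0), hgn, hgn0]
  have h2 : ∀ i, i ≠ i0 → ‖(T i * compE f hw hm (e i)).co N‖ < r := by
    intro i hi
    by_cases hei : e i = 0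
    · rw [hei, map_zero, mul_zero, co_zero, norm_zero]; exact hr0
    have hiS : i ∈ S := Finset.mem_filter.2 ⟨Finset.mem_univ _, hei⟩
    have hle : gn (e i) ≤ r := hmax i hiS
    rcases hle.lt_or_eq with hlt | heq
    · exact (le_gn _ N).trans_lt (by rw [hgn]; exact hlt)
    · have hiS' : i ∈ S' := Finset.mem_filter.2 ⟨hiS, heq⟩
      have h3 : N ≤ (i : ℤ) + m * od (e i) := hmin i hiS'
      have h4 : N ≠ (i : ℤ) + m * od (e i) := by
        intro h5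
        have h6 : (i0 : ℤ) % m = (i : ℤ) % m := by
          have h7 := congrArg (· % (m : ℤ)) h5
          simp only [hN, Int.add_mul_emod_self_left] at h7
          exact h7
        rw [Int.emod_eq_of_lt (Int.natCast_nonneg _) (Int.ofNat_lt.2 i0.2),
          Int.emod_eq_of_lt (Int.natCast_nonneg _) (Int.ofNat_lt.2 i.2)] at h6
        exact hi (Fin.ext (by exact_mod_cast h6.symm))
      have h5 := norm_lt_of_lt_od (hne0 i hei) (n := N) (by rw [hod i hei]; omega)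
      rwa [hgn, heq] at h5
  have h3 : (∑ i : Fin m, T i * compE f hw hm (e i)).co N = 0 := by rw [h0, co_zero]
  rw [co_finset_sum, ← Finset.add_sum_erase _ _ (Finset.mem_univ i0)] at h3
  have h4 : ‖∑ i ∈ Finset.univ.erase i0, (T i * compE f hw hm (e i)).co N‖ < r :=
    Comp_267.norm_sum_lt _ _ hr0 fun i hi => h2 i (Finset.ne_of_mem_erase hi)
  rw [eq_neg_of_add_eq_zero_left h3, norm_neg] at h1
  exact absurd h1 h4.ne

/-! ### finiteness of `compA` -/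

theorem finite_compA (hc0 : c' ≠ 0) (hc1 : ‖c'‖ < 1) (h : WA c' f m) (hm : m ≠ 0)
    (hcc : ‖c'‖ ^ m = ‖c‖) : (compA hc0 hc1 h hm hcc).toRingHom.Finite := by
  classical
  let _ : Algebra (AN k c) (AN k c') := (compA hc0 hc1 h hm hcc).toRingHom.toAlgebra
  have hsm : ∀ (a : AN k c) (x : AN k c'), a • x = compA hc0 hc1 h hm hcc a * x := fun a x => rfl
  show Module.Finite (AN k c) (AN k c')
  refine ⟨⟨Finset.univ.image fun i : Fin m => (⟨T i, T_mem_AN c' i⟩ : AN k c'), ?_⟩⟩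
  rw [eq_top_iff]
  rintro ⟨G, hG⟩ -
  obtain ⟨e, he, hGe⟩ := repr_AN hc0 hc1 (h.we hc0 hc1) h hm hcc hG
  have e1 : (⟨G, hG⟩ : AN k c') = ∑ i : Fin m, (⟨e i, he i⟩ : AN k c) •
      (⟨T i, T_mem_AN c' i⟩ : AN k c') := by
    apply Subtype.ext
    rw [AddSubmonoidClass.coe_finsetSum]
    show G = _
    rw [hGe]
    refine Finset.sum_congr rfl fun i _ => ?_
    rw [hsm, MulMemClass.coe_mul, coe_compA, mul_comm]
  rw [e1]
  refine Submodule.sum_mem _ fun i _ => Submodule.smul_mem _ _ (Submodule.subset_span ?_)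
  exact Finset.mem_coe.2 (Finset.mem_image_of_mem _ (Finset.mem_univ i))

theorem integral_compA (hc0 : c' ≠ 0) (hc1 : ‖c'‖ < 1) (h : WA c' f m) (hm : m ≠ 0)
    (hcc : ‖c'‖ ^ m = ‖c‖) (b : AN k c') :
    (compA hc0 hc1 h hm hcc).toRingHom.IsIntegralElem b :=
  (finite_compA hc0 hc1 h hm hcc).to_isIntegral b

/-- every non-zero element divides an element of the base ring -/
theorem exists_dvd_compA (hc0 : c' ≠ 0) (hc1 : ‖c'‖ < 1) (h : WA c' f m) (hm : m ≠ 0)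
    (hcc : ‖c'‖ ^ m = ‖c‖) {b : AN k c'} (hb : b ≠ 0) :
    ∃ a : AN k c, a ≠ 0 ∧ b ∣ compA hc0 hc1 h hm hcc a := by
  let _ : Algebra (AN k c) (AN k c') := (compA hc0 hc1 h hm hcc).toRingHom.toAlgebra
  have h1 : IsIntegral (AN k c) b := integral_compA hc0 hc1 h hm hcc b
  have h2 := Ideal.comap_ne_bot_of_integral_mem (R := AN k c) (I := Ideal.span {b}) hb
    (Ideal.mem_span_singleton_self b) h1
  obtain ⟨a, ha, ha0⟩ := Submodule.exists_mem_ne_zero_of_ne_bot h2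
  exact ⟨a, ha0, Ideal.mem_span_singleton.1 ha⟩

/-- **representation** of the meromorphic functions of an annulus -/
theorem repr_FA (hc0 : c' ≠ 0) (hc1 : ‖c'‖ < 1) (hw : WE f m) (h : WA c' f m) (hm : m ≠ 0)
    (hcc : ‖c'‖ ^ m = ‖c‖) {G : EE k C} (hG : G ∈ FA k c') :
    ∃ e : Fin m → EE k C, (∀ i, e i ∈ FA k c) ∧ G = ∑ i : Fin m, T i * compE f hw hm (e i) := by
  obtain ⟨g, hg, b, hb, hb0, e0⟩ := hG
  obtain ⟨a, ha0, q, hq⟩ := exists_dvd_compA hc0 hc1 h hm hcc (b := ⟨b, hb⟩)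
    (fun h' => hb0 (congrArg Subtype.val h'))
  have hq' : compE f hw hm (a : EE k C) = b * (q : EE k C) := congrArg Subtype.val hq
  have hane : (a : EE k C) ≠ 0 := fun h' => ha0 (Subtype.ext h')
  have hca : compE f hw hm (a : EE k C) ≠ 0 := compE_ne_zero hw hm hane
  obtain ⟨e, he, hge⟩ := repr_AN hc0 hc1 hw h hm hcc (mul_mem hg q.2)
  refine ⟨fun i => e i * (a : EE k C)⁻¹, fun i => mul_mem (AN_le_FA c (he i))
    (inv_mem (AN_le_FA c a.2)), ?_⟩
  have h1 : G * compE f hw hm (a : EE k C) = g * (q : EE k C) := by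
    rw [hq', ← mul_assoc, e0]
  have h2 : G = g * (q : EE k C) * (compE f hw hm (a : EE k C))⁻¹ := by
    rw [← h1, mul_inv_cancel_right₀ hca]
  rw [h2, hge, Finset.sum_mul]
  refine Finset.sum_congr rfl fun i _ => ?_
  rw [map_mul, map_inv₀, mul_assoc]

end Crest.Agent.R013.CAnR_109
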