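import Crest.Agent.R013.CAnR2_109

/-!
# Row 13, annuli (helper109): representation of functions of an annulus, WITH BOUNDS

`repr_bdd`: `G = ∑_{i<m} T^i compE f (e i)` and for every radius `‖c'‖ ≤ r ≤ 1`, every bound `M` of
`G` at `r`: `M / r^i` is a bound of `e i` at the radius `r^m`.
-/

set_option autoImplicit false
set_option linter.unusedSectionVars false

open Filter Topology
open Crest.Agent.R013.Cell_408 (FinDef DiscNorm exists_max BD)
open Crest.Agent.R013.EE809 Crest.Agent.R013.CAn_243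

namespace Crest.Agent.R013.CAnR_109

variable {k : Type*} [NontriviallyNormedField k] [CompleteSpace k]
variable {C : Type*} [NormedField C] [IsUltrametricDist C] [NormedAlgebra k C]

section Sys

variable {ι : Type*} {L : IntermediateField k C} [FiniteDimensional k L] {E : ι → ι → C}
  {w v : ι → ℝ} {μ : ℝ}

/-- bound of the solution -/
theorem Sys.sol_le (S : Sys L E w v μ) {M M' : ℝ} (hM' : 0 ≤ M') {b : ι → C} (hb : Bd L w M b)
    (hg : ∀ k, ‖∑' n, E k n * b n‖ * v k ≤ M') (k : ι) : ‖b k‖ * v k ≤ M' := by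
  have step : ∀ s : ℕ, ∀ k, ‖b k‖ * v k ≤ max M' (μ ^ s * M) := by
    intro s
    induction s with
    | zero =>
      intro k
      rw [pow_zero, one_mul]
      exact le_max_of_le_right
        ((mul_le_mul_of_nonneg_left (S.vw k) (norm_nonneg _)).trans (hb.2 k))
    | succ s ih =>
      intro k
      have h1 := S.tsum_sub_le (le_max_of_le_left hM') hb ih k
      have h2 : ‖b k‖ = ‖(∑' n, E k n * b n) + -((∑' n, E k n * b n) - E k k * b k)‖ := by
        rw [← sub_eq_add_neg, sub_sub_cancel, norm_mul, S.dg, one_mul]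
      rw [h2]
      refine (mul_le_mul_of_nonneg_right (IsUltrametricDist.norm_add_le_max _ _)
        (S.v_pos k).le).trans ?_
      rw [max_mul_of_nonneg _ _ (S.v_pos k).le, norm_neg]
      refine max_le ((hg k).trans (le_max_left _ _)) (h1.trans ?_)
      rw [mul_max_of_nonneg _ _ S.μ0, pow_succ', mul_assoc]
      exact max_le_max (mul_le_of_le_one_left hM' S.μ1.le) le_rfl
  have hlim : Tendsto (fun s : ℕ => max M' (μ ^ s * M)) atTop (𝓝 (max M' (0 * M))) :=
    tendsto_const_nhds.max ((tendsto_pow_atTop_nhds_zero_of_lt_one S.μ0 S.μ1).mul_const M)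
  rw [zero_mul, max_eq_left hM'] at hlim
  exact ge_of_tendsto hlim (Eventually.of_forall fun s => step s k)

/-- uniqueness of the solution -/
theorem Sys.unique (S : Sys L E w v μ) {M : ℝ} {b b' : ι → C} (hb : Bd L w M b)
    (hb' : Bd L w M b') (h : ∀ k, ∑' n, E k n * b n = ∑' n, E k n * b' n) : b = b' := by
  funext k
  have h1 := hb.sub S.w_pos hb'
  have h2 := S.sol_le le_rfl h1 (fun k => by
    have h4 : (∑' n, E k n * (b n - b' n)) = (∑' n, E k n * b n) - ∑' n, E k n * b' n := by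
      rw [← (S.summable hb k).tsum_sub (S.summable hb' k)]
      exact tsum_congr fun n => by ring
    rw [h4, h k, sub_self, norm_zero, zero_mul]) k
  have h3 : ‖b k - b' k‖ ≤ 0 := by
    by_contra h'
    push Not at h'
    exact absurd h2 (not_le.2 (mul_pos h' (S.v_pos k)))
  exact sub_eq_zero.1 (norm_le_zero_iff.1 h3)

end Sys

variable [Algebra.IsAlgebraic k C] [IsUltrametricDist k] [IsAlgClosed C] [hk : Fact (DiscNorm k)]

variable {c c' : C} {f : EE k C} {m : ℕ}

theorem tendsto_zpow_div {r x κ l : ℝ} (hx : 0 < x) (hxr : x < r) (hr : r < 1) (hl : 0 < l) :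
    Tendsto (fun n : ℤ => κ * r ^ n / max 1 (l * x ^ n)) cofinite (𝓝 0) := by
  have hr0 : 0 < r := hx.trans hxr
  set θ := max r (x / r) with hθ
  have hθ0 : 0 < θ := lt_max_of_lt_left hr0
  have hθ1 : θ < 1 := max_lt hr ((div_lt_one hr0).2 hxr)
  have h1 : Tendsto (fun n : ℤ => |κ| * max 1 l⁻¹ * θ ^ n.natAbs) cofinite (𝓝 0) := by
    have := (tendsto_pow_natAbs hθ0.le hθ1).const_mul (|κ| * max 1 l⁻¹)
    rwa [mul_zero] at this
  refine squeeze_zero_norm (fun n => ?_) h1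
  have hw : 0 < max 1 (l * x ^ n) := lt_max_of_lt_left one_pos
  rw [norm_div, norm_mul, Real.norm_eq_abs, Real.norm_eq_abs, Real.norm_eq_abs,
    abs_of_pos (zpow_pos hr0 n), abs_of_pos hw, div_le_iff₀ hw, mul_assoc, mul_assoc]
  refine mul_le_mul_of_nonneg_left ?_ (abs_nonneg _)
  rcases le_or_gt 0 n with hn | hn
  · obtain ⟨i, rfl⟩ := Int.eq_ofNat_of_zero_le hn
    rw [Int.natAbs_natCast, zpow_natCast]
    calc r ^ i ≤ θ ^ i := pow_le_pow_left₀ hr0.le (le_max_left _ _) i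
      _ = 1 * (θ ^ i * 1) := by ring
      _ ≤ max 1 l⁻¹ * (θ ^ i * max 1 (l * x ^ (i : ℤ))) := by
        refine mul_le_mul (le_max_left _ _) ?_ (by positivity) (by positivity)
        exact mul_le_mul_of_nonneg_left (le_max_left _ _) (by positivity)
  · obtain ⟨i, hi⟩ := Int.eq_ofNat_of_zero_le (show 0 ≤ -n by omega)
    have hn' : n = -(i : ℤ) := by omega
    rw [hn', Int.natAbs_neg, Int.natAbs_natCast]
    have h2 : r ^ (-(i : ℤ)) = (x / r) ^ i * x ^ (-(i : ℤ)) := by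
      rw [zpow_neg, zpow_neg, zpow_natCast, zpow_natCast, div_pow]
      field_simp
    calc r ^ (-(i : ℤ)) = (x / r) ^ i * x ^ (-(i : ℤ)) := h2
      _ ≤ θ ^ i * x ^ (-(i : ℤ)) := by
        refine mul_le_mul_of_nonneg_right ?_ (zpow_nonneg hx.le _)
        exact pow_le_pow_left₀ (by positivity) (le_max_right _ _) i
      _ = l⁻¹ * (θ ^ i * (l * x ^ (-(i : ℤ)))) := by field_simp
      _ ≤ max 1 l⁻¹ * (θ ^ i * max 1 (l * x ^ (-(i : ℤ)))) := by
        have h3 : 0 ≤ l * x ^ (-(i : ℤ)) := mul_nonneg hl.le (zpow_nonneg hx.le _)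
        refine mul_le_mul (le_max_right _ _) ?_ (mul_nonneg (by positivity) h3) (by positivity)
        exact mul_le_mul_of_nonneg_left (le_max_right _ _) (by positivity)

theorem sysR (hc0 : c' ≠ 0) (hc1 : ‖c'‖ < 1) (h : WA c' f m) (L : IntermediateField k C)
    (hL : ∀ n j, pc f n j ∈ L) {r : ℝ} (hr : ‖c'‖ < r) (hr1 : r < 1) {l : ℝ} (hl : 0 < l) :
    Sys L (EM f m) (fun n => max 1 (l * ‖c'‖ ^ n)) (fun n => min 1 l * r ^ n)
      (max r (‖c'‖ / r)) := by
  have hc : 0 < ‖c'‖ := norm_pos_iff.2 hc0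
  have hr0 : 0 < r := hc.trans hr
  have hκ : 0 < min 1 l := lt_min one_pos hl
  refine ⟨fun i n => hL _ _, fun n => lt_max_of_lt_left one_pos,
    fun n => mul_pos hκ (zpow_pos hr0 n), le_max_of_le_left hr0.le,
    max_lt hr1 ((div_lt_one hr0).2 hr),
    fun i n => ?_, fun i n hin => ?_, norm_EM_self hc0 hc1 h, fun n => ?_,
    tendsto_zpow_div hc hr hr1 hl⟩
  · rw [mul_max_of_nonneg _ _ (norm_nonneg _), mul_one, mul_left_comm]
    exact max_le_max (norm_EM_le hc0 hc1 h i n)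
      (mul_le_mul_of_nonneg_left (norm_EM_le' hc0 hc1 h i n) hl.le)
  · rw [mul_left_comm, mul_left_comm _ (min 1 l)]
    refine mul_le_mul_of_nonneg_left ?_ hκ.le
    rcases lt_or_gt_of_ne hin with hlt | hlt
    · have h1 := norm_EM_le' hc0 hc1 h i n
      rw [← le_div_iff₀ (zpow_pos hc _), ← zpow_sub₀ hc.ne'] at h1
      calc ‖EM f m i n‖ * r ^ i ≤ ‖c'‖ ^ (n - i) * r ^ i :=
            mul_le_mul_of_nonneg_right h1 (zpow_nonneg hr0.le _)
        _ = (‖c'‖ / r) ^ (n - i) * r ^ n := by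
            rw [div_zpow, zpow_sub₀ hr0.ne' n i]
            have := zpow_pos hr0 n
            have := zpow_pos hr0 i
            field_simp
        _ ≤ (‖c'‖ / r) ^ (1 : ℤ) * r ^ n := by
            refine mul_le_mul_of_nonneg_right ?_ (zpow_nonneg hr0.le _)
            exact zpow_le_zpow_right_of_le_one₀ (by positivity) ((div_le_one hr0).2 hr.le)
              (by omega)
        _ ≤ max r (‖c'‖ / r) * r ^ n := by
            rw [zpow_one]
            exact mul_le_mul_of_nonneg_right (le_max_right _ _) (zpow_nonneg hr0.le _)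
    · calc ‖EM f m i n‖ * r ^ i ≤ 1 * r ^ i :=
            mul_le_mul_of_nonneg_right (norm_EM_le hc0 hc1 h i n) (zpow_nonneg hr0.le _)
        _ = r ^ i := one_mul _
        _ ≤ r ^ (n + 1) := zpow_le_zpow_right_of_le_one₀ hr0 hr1.le (by omega)
        _ = r * r ^ n := by rw [zpow_add₀ hr0.ne', zpow_one, mul_comm]
        _ ≤ max r (‖c'‖ / r) * r ^ n :=
            mul_le_mul_of_nonneg_right (le_max_left _ _) (zpow_nonneg hr0.le _)
  · rcases le_or_gt 0 n with hn | hn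
    · refine le_max_of_le_left ?_
      obtain ⟨i, rfl⟩ := Int.eq_ofNat_of_zero_le hn
      rw [zpow_natCast]
      exact mul_le_one₀ (min_le_left _ _) (by positivity) (pow_le_one₀ hr0.le hr1.le)
    · refine le_max_of_le_right (mul_le_mul (min_le_right _ _) ?_ (zpow_nonneg hr0.le _) hl.le)
      obtain ⟨i, hi⟩ := Int.eq_ofNat_of_zero_le (show 0 ≤ -n by omega)
      have hn' : n = -(i : ℤ) := by omega
      rw [hn', zpow_neg, zpow_neg, zpow_natCast, zpow_natCast]
      exact inv_anti₀ (by positivity) (pow_le_pow_left₀ hc.le hr.le i)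

/-- solution of the representation problem, with all bounds -/
theorem exists_sol_bdd (hc0 : c' ≠ 0) (hc1 : ‖c'‖ < 1) (h : WA c' f m) {G : EE k C}
    (hG : G ∈ AN k c') : ∃ b : ℤ → C, FinDef k b ∧
      (∀ j, HasSum (fun n => EM f m j n * b n) (G.co j)) ∧
      ∀ r M, ‖c'‖ ≤ r → r ≤ 1 → Bdd r M G → ∀ n, ‖b n‖ * r ^ n ≤ M := by
  have hc : 0 < ‖c'‖ := norm_pos_iff.2 hc0
  obtain ⟨r0, hr0, hr0'⟩ := exists_between hc1
  obtain ⟨L, hL, hGL, hfL⟩ := exists_L2 f G
  obtain ⟨M, hM0, hM1, hM2⟩ := AN.bd2 hG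
  have key : ∀ l, 0 < l → ∀ M1, (∀ n, ‖G.co n‖ ≤ M1) → ∀ M2, (∀ n, ‖G.co n‖ * ‖c'‖ ^ n ≤ M2) →
      ∃ b : ℤ → C, Bd L (fun n => max 1 (l * ‖c'‖ ^ n)) (max M1 (l * M2)) b ∧
        ∀ j, HasSum (fun n => EM f m j n * b n) (G.co j) := by
    intro l hl M1 h1 M2 h2
    have hM1' : 0 ≤ M1 := (norm_nonneg _).trans (h1 0)
    refine (sysR hc0 hc1 h L hfL hr0 hr0' hl).exists_sol (le_max_of_le_left hM1') ⟨hGL, fun n => ?_⟩
    rw [mul_max_of_nonneg _ _ (norm_nonneg _), mul_one, mul_left_comm]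
    exact max_le_max (h1 n) (mul_le_mul_of_nonneg_left (h2 n) hl.le)
  obtain ⟨b, hb, hsum⟩ := key 1 one_pos M hM1 M hM2
  rw [one_mul, max_self] at hb
  -- the bounds for all weights
  have keyl : ∀ l, 0 < l → ∀ M1, (∀ n, ‖G.co n‖ ≤ M1) → ∀ M2, (∀ n, ‖G.co n‖ * ‖c'‖ ^ n ≤ M2) →
      ∀ n, ‖b n‖ * max 1 (l * ‖c'‖ ^ n) ≤ max M1 (l * M2) := by
    intro l hl M1 h1 M2 h2
    obtain ⟨b', hb', hsum'⟩ := key l hl M1 h1 M2 h2
    have hM1' : 0 ≤ M1 := (norm_nonneg _).trans (h1 0)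
    set N := max M (max M1 (l * M2) * max 1 l⁻¹) with hN
    have hN1 : Bd L (fun n => max 1 (1 * ‖c'‖ ^ n)) N b :=
      ⟨hb.1, fun n => (hb.2 n).trans (le_max_left _ _)⟩
    have hN2 : Bd L (fun n => max 1 (1 * ‖c'‖ ^ n)) N b' := by
      refine ⟨hb'.1, fun n => le_trans ?_ (le_max_right _ _)⟩
      have h3 := hb'.2 n
      have h4 : max 1 (1 * ‖c'‖ ^ n) ≤ max 1 (l * ‖c'‖ ^ n) * max 1 l⁻¹ := by
        have h5 : 0 ≤ ‖c'‖ ^ n := zpow_nonneg hc.le _
        refine max_le ?_ ?_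
        · calc (1 : ℝ) = 1 * 1 := (mul_one 1).symm
            _ ≤ _ := mul_le_mul (le_max_left _ _) (le_max_left _ _) zero_le_one
              (le_max_of_le_left zero_le_one)
        · calc 1 * ‖c'‖ ^ n = (l * ‖c'‖ ^ n) * l⁻¹ := by field_simp
            _ ≤ _ := mul_le_mul (le_max_right _ _) (le_max_right _ _) (by positivity)
              (le_max_of_le_left zero_le_one)
      calc ‖b' n‖ * max 1 (1 * ‖c'‖ ^ n) ≤ ‖b' n‖ * (max 1 (l * ‖c'‖ ^ n) * max 1 l⁻¹) :=
            mul_le_mul_of_nonneg_left h4 (norm_nonneg _)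
        _ = (‖b' n‖ * max 1 (l * ‖c'‖ ^ n)) * max 1 l⁻¹ := by ring
        _ ≤ _ := mul_le_mul_of_nonneg_right h3 (le_max_of_le_left zero_le_one)
    have e : b = b' := (sysR hc0 hc1 h L hfL hr0 hr0' one_pos).unique hN1 hN2 fun j => by
      rw [(hsum j).tsum_eq, (hsum' j).tsum_eq]
    rw [e]
    exact hb'.2
  refine ⟨b, ⟨L, hL, hb.1⟩, hsum, fun r M' hr hr1 hB n => ?_⟩
  have hM0' : 0 ≤ M' := (mul_nonneg (norm_nonneg _) (zpow_nonneg (hc.trans_le hr).le _)).trans (hB 0)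
  rcases hr1.lt_or_eq with hlt | rfl
  · rcases hr.lt_or_eq with hlt' | rfl
    · have h1 := (sysR hc0 hc1 h L hfL hlt' hlt one_pos).sol_le hM0' (M := M) (b := b)
        (by simpa only [one_mul] using hb) (fun j => by
          rw [(hsum j).tsum_eq, min_self, one_mul]; exact hB j) n
      rwa [min_self, one_mul] at h1
    · -- inner end
      by_contra hcon
      push Not at hcon
      have hM'1 : M' < ‖b n‖ * ‖c'‖ ^ n := hcon
      obtain ⟨ε, hε, hε'⟩ := exists_between hM'1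
      have hεp : 0 < ε := hM0'.trans_lt hε
      have h1 := keyl (M / ε) (by positivity) M hM1 ε (fun n => (hB n).trans hε.le) n
      have h2 : M / ε * ε = M := by field_simp
      rw [h2, max_self] at h1
      have h3 : ‖b n‖ * (M / ε * ‖c'‖ ^ n) ≤ M :=
        (mul_le_mul_of_nonneg_left (le_max_right _ _) (norm_nonneg _)).trans h1
      have h4 : (M / ε) * (‖b n‖ * ‖c'‖ ^ n) ≤ (M / ε) * ε := by
        rw [h2]; linarith
      exact absurd (le_of_mul_le_mul_left h4 (by positivity)) (not_le.2 hε')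
  · -- outer end
    by_contra hcon
    push Not at hcon
    rw [one_zpow, mul_one] at hcon
    obtain ⟨ε, hε, hε'⟩ := exists_between hcon
    have hεp : 0 < ε := hM0'.trans_lt hε
    have h1 := keyl (ε / M) (by positivity) ε (fun n => by
      have := hB n
      rw [one_zpow, mul_one] at this
      exact this.trans hε.le) M hM2 n
    have h2 : ε / M * M = ε := by field_simp
    rw [h2, max_self] at h1
    exact absurd ((le_mul_of_one_le_right (norm_nonneg _) (le_max_left _ _)).trans h1)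
      (not_le.2 hε')

/-- **representation with bounds** of the functions of an annulus -/
theorem repr_bdd (hc0 : c' ≠ 0) (hc1 : ‖c'‖ < 1) (hw : WE f m) (h : WA c' f m) (hm : m ≠ 0)
    (hcc : ‖c'‖ ^ m = ‖c‖) {G : EE k C} (hG : G ∈ AN k c') :
    ∃ e : Fin m → EE k C, (∀ i, e i ∈ AN k c) ∧ G = ∑ i : Fin m, T i * compE f hw hm (e i) ∧
      ∀ r M, ‖c'‖ ≤ r → r ≤ 1 → Bdd r M G → ∀ i : Fin m, Bdd (r ^ m) (M / r ^ (i : ℕ)) (e i) := by
  have hc : 0 < ‖c'‖ := norm_pos_iff.2 hc0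
  have hcpos : 0 < ‖c‖ := by rw [← hcc]; positivity
  have hcn0 : c ≠ 0 := norm_pos_iff.1 hcpos
  have hcn1 : ‖c‖ < 1 := by rw [← hcc]; exact pow_lt_one₀ hc.le hc1 hm
  obtain ⟨b, hbF, hsum, hbd⟩ := exists_sol_bdd hc0 hc1 h hG
  obtain ⟨M, hM0, hM1, hM2⟩ := AN.bd2 hG
  have hb1 : ∀ n, ‖b n‖ ≤ M := fun n => by
    have := hbd 1 M hc1.le le_rfl (fun n => by rw [one_zpow, mul_one]; exact hM1 n) n
    rwa [one_zpow, mul_one] at this
  have hbr : ∀ r M, ‖c'‖ ≤ r → r ≤ 1 → Bdd r M G → ∀ (i : Fin m) (q : ℤ),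
      ‖b (q * m + i)‖ * (r ^ m) ^ q ≤ M / r ^ (i : ℕ) := by
    intro r M hr hr1 hB i q
    have hr0 : 0 < r := hc.trans_le hr
    have h1 := hbd r M hr hr1 hB (q * m + i)
    rw [le_div_iff₀ (by positivity)]
    refine le_trans (le_of_eq ?_) h1
    rw [zpow_add₀ hr0.ne', zpow_natCast, mul_comm q, zpow_mul, zpow_natCast, mul_assoc]
  have hF : ∀ i : Fin m, FinDef k (fun q : ℤ => b (q * m + i)) := by
    intro i
    obtain ⟨L, hL, hLb⟩ := hbF
    exact ⟨L, hL, fun q => hLb _⟩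
  have hmem : ∀ (i : Fin m) (q : ℤ), ‖b (q * m + i)‖ * ‖c‖ ^ q ≤ M / ‖c'‖ ^ (i : ℕ) := by
    intro i q
    have := hbr ‖c'‖ M le_rfl hc1.le hM2 i q
    rwa [hcc] at this
  let A : Fin m → EE k C := fun i => mkAN hcn0 hcn1 (fun q => b (q * m + i))
    (hF i) (fun q => hb1 _) (hmem i)
  have hA : ∀ i q, (A i).co q = b (q * m + i) := fun i q => rfl
  refine ⟨A, fun i => mkAN_mem hcn0 hcn1 _ _ _ _, ?_, fun r M hr hr1 hB i q => ?_⟩
  · ext j
    rw [co_finset_sum]
    simp only [co_T_mul]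
    have : NeZero m := ⟨hm⟩
    have s1 : HasSum (fun p : ℤ × Fin m => EM f m j (p.1 * m + p.2) * b (p.1 * m + p.2))
        (G.co j) := by
      have := (Int.divModEquiv m).symm.hasSum_iff.2 (hsum j)
      exact this
    have e1 : ∀ (q : ℤ) (i : Fin m), EM f m j (q * m + i) = (f ^ q).co (j - i) := by
      intro q i
      have h1 : (q * m + (i : ℤ)) / m = q := by
        rw [Int.add_comm, Int.add_mul_ediv_right _ _ (Int.natCast_ne_zero.2 hm),
          Int.ediv_eq_zero_of_lt (Int.natCast_nonneg _) (Int.ofNat_lt.2 i.2), zero_add]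
      have h2 : (q * m + (i : ℤ)) % m = i := by
        rw [Int.add_comm, Int.add_mul_emod_self_right,
          Int.emod_eq_of_lt (Int.natCast_nonneg _) (Int.ofNat_lt.2 i.2)]
      rw [EM, h1, h2]
    have s2 : HasSum (fun q : ℤ => ∑ i : Fin m, EM f m j (q * m + i) * b (q * m + i))
        (G.co j) := s1.prod_fiberwise fun q => hasSum_fintype _
    have s3 : HasSum (fun q : ℤ => ∑ i : Fin m, (A i).co q * (f ^ q).co (j - i))
        (∑ i : Fin m, (compE f hw hm (A i)).co (j - i)) :=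
      hasSum_sum fun i _ => hasSum_compE hw hm (A i) (j - i)
    refine s2.unique ?_
    convert s3 using 1
    funext q
    refine Finset.sum_congr rfl fun i _ => ?_
    rw [e1, hA, mul_comm]
  · rw [hA]
    exact hbr r M hr hr1 hB i q

end Crest.Agent.R013.CAnR_109
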