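import Crest.Agent.R013.CGood_588

/-!
# Row 13: `GOOD'` (posts #3792, #3848), the weak output of part C / of the D-line

`GoodAt p k K P x δ η` : at the scale `(δ, η)` there is a vertex (the Gauss norm of a small disc
`|x - q| = |c|` well inside the disc `|x| < |π|`) whose residue field *in `maxUnramified k K`*
contains an Artin-Schreier curve `z ^ p - z = t ^ m` (resp., `p = 2`, the `ℤ/4`-curve
`w ^ 2 + w = t`, `u ^ 2 + u = w ^ 3 + w`).  Nothing is said about the degrees, Galois groups or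
splitting behaviour of the covers containing `z` (`w`, `u`).
-/

set_option autoImplicit false

namespace Crest.Agent.R013.GoodP_797

open scoped NNReal Topology
open Filter Crest.NumberTheoryR.Sect SE_669 CGood_588

/-- the residual equations of a vertex, the functions being in the set `S` -/
def VertexEq {Ω : Type*} [Field Ω] (p : ℕ) (v : Valuation Ω ℝ≥0) (S : Set Ω) (t : Ω) : Prop :=
  (∃ z ∈ S, ∃ m : ℕ, 2 ≤ m ∧ ¬ p ∣ m ∧ v z ≤ 1 ∧ v (z ^ p - z - t ^ m) < 1) ∨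
  (p = 2 ∧ ∃ w ∈ S, ∃ u ∈ S, v w ≤ 1 ∧ v u ≤ 1 ∧ v (w ^ 2 + w - t) < 1 ∧
    v (u ^ 2 + u - (w ^ 3 + w)) < 1)

/-- **(GOOD') at one place and one scale.** -/
def GoodAt (p : ℕ) [Fact p.Prime] (k : Type*) [Field k] [Algebra ℚ_[p] k] (K : Type*) [Field K]
    [Algebra k K] (P : Valuation (AlgebraicClosure K) ℝ≥0) (x : K) (δ η : ℝ≥0) : Prop :=
  ∃ (C : IntermediateField k (AlgebraicClosure K)) (π q c : AlgebraicClosure K)
    (v : Valuation (AlgebraicClosure K) ℝ≥0),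
    FiniteDimensional k C ∧ π ∈ C ∧ q ∈ C ∧ c ∈ C ∧ π ≠ 0 ∧ c ≠ 0 ∧
    v π < δ ∧ v q < η * v π ∧ v c < η * v π ∧
    ExtendsPadicNorm k (AlgebraicClosure K) p v ∧
    (∃ R : ℝ≥0, v π < η * R ∧ DiscEmb K C P (algebraMap K (AlgebraicClosure K) x) R v) ∧
    GaussAt C ((algebraMap K (AlgebraicClosure K) x - q) / c) v ∧
    VertexEq p v (maxUnramified k K : Set (AlgebraicClosure K))
      ((algebraMap K (AlgebraicClosure K) x - q) / c)

/-- **(GOOD')** at all rational places and all scales. -/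
def GOODP (p : ℕ) [Fact p.Prime] (k : Type*) [Field k] [Algebra ℚ_[p] k] (K : Type*) [Field K]
    [Algebra k K] : Prop :=
  ∀ (P : Valuation (AlgebraicClosure K) ℝ≥0) (x : K),
    IsRationalPlace k K (P.comap (algebraMap K (AlgebraicClosure K))) →
    IsUniformizerAt (P.comap (algebraMap K (AlgebraicClosure K))) x →
    ∀ δ η : ℝ≥0, 0 < δ → 0 < η → GoodAt p k K P x δ η

/-- `DiscEmb` restricts to subfields -/
theorem DiscEmb.restrict {k L Ω : Type*} [Field k] [Field L] [Field Ω] [Algebra k Ω] [Algebra L Ω]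
    {C : IntermediateField k Ω} {P v : Valuation Ω ℝ≥0} {x : Ω} {R : ℝ≥0}
    (h : DiscEmb L C P x R v) (K : Type*) [Field K] [Algebra K L] [Algebra K Ω]
    [IsScalarTower K L Ω] : DiscEmb K C P x R v := by
  intro f
  obtain ⟨G, H, h1, h2, h3, h4, h5, h6⟩ := h (algebraMap K L f)
  rw [← IsScalarTower.algebraMap_apply] at h5 h6
  exact ⟨G, H, h1, h2, h3, h4, h5, h6⟩

/-- `GOOD` (post #3169, file `CGood_588`) implies `GOOD'`. -/
theorem goodP_of_good {p : ℕ} [Fact p.Prime] {k : Type*} [Field k] [Algebra ℚ_[p] k] {K : Type*}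
    [Field K] [Algebra k K] (h : GOOD p k K) : GOODP p k K := by
  intro P x hP hx δ η hδ hη
  obtain ⟨C, π, q, c, v, L, M, n, m, ζ, y, z, hC, h1, h2, h3, h4, h5, h6, h7, h8, h9, h10, h11, h12,
    h13, h14, ⟨R, hR, hD⟩, h16, h17, h18, h19, h20, h21, h22, h23, h24, h25⟩ := h P x hP hx δ η hδ hη
  exact ⟨C, π, q, c, v, hC, h1, h2, h3, h4, h5, h6, h7, h8, h9,
    ⟨R, hR, DiscEmb.restrict hD K⟩, h16,
    Or.inl ⟨z, h12 h21, m, h23, h24, h22, h25⟩⟩

/-- The vertex functions may be taken in the closure. -/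
theorem VertexEq.of_cl {Ω : Type*} [Field Ω] {p : ℕ} {v : Valuation Ω ℝ≥0} {S : Set Ω}
    {t : Ω} (h : VertexEq p v (cl v S) t) : VertexEq p v S t := by
  have key : ∀ z ∈ cl v S, v z ≤ 1 → ∃ z' ∈ S, v z' ≤ 1 ∧ v (z' - z) < 1 := by
    intro z hz hz1
    obtain ⟨z', hz', h1⟩ := hz 1 one_pos
    have h2 : v (z' - z) < 1 := by rw [Valuation.map_sub_swap]; exact h1
    refine ⟨z', hz', ?_, h2⟩
    have h3 : z' = z + (z' - z) := by ring
    rw [h3]
    exact v.map_add_le hz1 h2.le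
  have hpow : ∀ (n : ℕ) {a b : Ω}, v a ≤ 1 → v b ≤ 1 → v (a - b) < 1 → v (a ^ n - b ^ n) < 1 := by
    intro n a b ha hb hab
    obtain ⟨c, hc⟩ := sub_dvd_pow_sub_pow a b n
    induction n generalizing c with
    | zero => simp
    | succ n ih =>
      obtain ⟨c', hc'⟩ := sub_dvd_pow_sub_pow a b n
      have h1 := ih c' hc'
      have h2 : a ^ (n + 1) - b ^ (n + 1) = a * (a ^ n - b ^ n) + (a - b) * b ^ n := by ring
      rw [h2]
      refine Valuation.map_add_lt _ ?_ ?_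
      · rw [map_mul]; exact (mul_le_of_le_one_left' ha).trans_lt h1
      · rw [map_mul, map_pow]
        exact (mul_le_of_le_one_right' (pow_le_one' hb n)).trans_lt hab
  rcases h with ⟨z, hz, m, hm, hpm, hz1, hzt⟩ | ⟨hp2, w, hw, u, hu, hw1, hu1, hwt, hut⟩
  · obtain ⟨z', hz', hz1', hzz⟩ := key z hz hz1
    refine Or.inl ⟨z', hz', m, hm, hpm, hz1', ?_⟩
    have h1 : z' ^ p - z' - t ^ m = (z' ^ p - z ^ p) - (z' - z) + (z ^ p - z - t ^ m) := by ring
    rw [h1]
    exact Valuation.map_add_lt _ (Valuation.map_sub_lt _ (hpow p hz1' hz1 hzz) hzz) hzt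
  · obtain ⟨w', hw', hw1', hww⟩ := key w hw hw1
    obtain ⟨u', hu', hu1', huu⟩ := key u hu hu1
    refine Or.inr ⟨hp2, w', hw', u', hu', hw1', hu1', ?_, ?_⟩
    · have h1 : w' ^ 2 + w' - t = (w' ^ 2 - w ^ 2) + (w' - w) + (w ^ 2 + w - t) := by ring
      rw [h1]
      exact Valuation.map_add_lt _ (Valuation.map_add_lt _ (hpow 2 hw1' hw1 hww) hww) hwt
    · have h1 : u' ^ 2 + u' - (w' ^ 3 + w') = (u' ^ 2 - u ^ 2) + (u' - u) +
          (u ^ 2 + u - (w ^ 3 + w)) - ((w' ^ 3 - w ^ 3) + (w' - w)) := by ring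
      rw [h1]
      exact Valuation.map_sub_lt _ (Valuation.map_add_lt _ (Valuation.map_add_lt _
        (hpow 2 hu1' hu1 huu) huu) hut) (Valuation.map_add_lt _ (hpow 3 hw1' hw1 hww) hww)

end Crest.Agent.R013.GoodP_797
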