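import Crest.Agent.R013.Desc5_372
import Crest.Agent.R013.RR17_948
import Crest.Agent.R013.GoodP_797
import Crest.Agent.R013.CE5_280

/-!
# Row 13, part C, assembly 1 (helper588): the context over the algebraic closure

`CoreG p` : `GOODP p k K` in the presence of a normed algebraic closure `C` of `ℚ_[p]` and of the
constant extension `KC = K ⊗ C`.
* `exists_CE` : the constant extension exists.
* `goodp_of_core` : the reduction.
-/

set_option autoImplicit false
set_option linter.style.haveILetI false

namespace Crest.Agent.R013.CAsm1_588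

open scoped NNReal
open Module
open Crest.NumberTheoryR.Sect
open Crest.Agent.R013.RR11_948 Crest.Agent.R013.RR14_948 Crest.Agent.R013.Desc_372
open Crest.Agent.R013.Desc_372.CE
open Crest.Agent.R013.GoodP_797

/-- the constant extension of `K` to `C` -/
theorem exists_CE (k C : Type*) (K : Type*) [Field k] [CharZero k] [Field C] [Algebra k C]
    [Algebra.IsAlgebraic k C] [Field K] [Algebra k K] (hc : algebraicClosure k K = ⊥) :
    ∃ (KC : IntermediateField K (AlgebraicClosure K)) (_ : Algebra C KC)
      (_ : IsScalarTower k C KC), CE k C K KC := by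
  let ι : C →ₐ[k] AlgebraicClosure K := IsAlgClosed.lift
  let KC : IntermediateField K (AlgebraicClosure K) := IntermediateField.adjoin K (Set.range ι)
  have hmem : ∀ c, ι c ∈ KC := fun c => IntermediateField.subset_adjoin _ _ ⟨c, rfl⟩
  letI i1 : Algebra C KC :=
    ((ι : C →+* AlgebraicClosure K).codRestrict KC hmem).toAlgebra
  have hco : ∀ c : C, ((algebraMap C KC c : KC) : AlgebraicClosure K) = ι c := fun c => rfl
  haveI i2 : IsScalarTower k C KC := IsScalarTower.of_algebraMap_eq fun a => Subtype.ext (by
    rw [hco, ι.commutes]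
    rfl)
  refine ⟨KC, i1, i2, ?_⟩
  refine of_hc k C K KC hc ?_
  rw [eq_top_iff]
  rintro ⟨f, hf⟩ _
  have h1 : KC ≤ (IntermediateField.adjoin K (Set.range (algebraMap C KC))).map KC.val := by
    refine IntermediateField.adjoin_le_iff.mpr ?_
    rintro _ ⟨c, rfl⟩
    exact ⟨algebraMap C KC c, IntermediateField.subset_adjoin _ _ ⟨c, rfl⟩, hco c⟩
  obtain ⟨g, hg, hgf⟩ := h1 hf
  have : g = ⟨f, hf⟩ := Subtype.ext hgf
  rw [← this]
  exact hg

/-- `GOODP p k K`, given a normed algebraic closure `C` of `ℚ_[p]` containing `k` and the constant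
extension `KC` of `K` to `C` -/
def CoreG (p : ℕ) [Fact p.Prime] : Prop :=
  ∀ (k : Type) [Field k] [Algebra ℚ_[p] k] [FiniteDimensional ℚ_[p] k]
    (K : Type) [Field K] [Algebra k K] [Algebra (RatFunc k) K] [IsScalarTower k (RatFunc k) K]
    [FiniteDimensional (RatFunc k) K]
    (C : Type) [NormedField C] [IsUltrametricDist C] [NormedAlgebra ℚ_[p] C]
    [Algebra.IsAlgebraic ℚ_[p] C] [IsAlgClosed C] [CharZero C] [Algebra k C]
    [IsScalarTower ℚ_[p] k C]
    (KC : Type) [Field KC] [Algebra C KC] [Algebra K KC] [Algebra k KC] [IsScalarTower k C KC]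
    [IsScalarTower k K KC] [CE k C K KC] [Algebra (RatFunc C) KC]
    [IsScalarTower C (RatFunc C) KC] [FiniteDimensional (RatFunc C) KC],
    2 ≤ gen C KC → GOODP p k K

/-- reduction to the context over `C` -/
theorem goodp_of_core {p : ℕ} [Fact p.Prime] (h : CoreG p)
    (k : Type) [Field k] [Algebra ℚ_[p] k] [FiniteDimensional ℚ_[p] k]
    (K : Type) [Field K] [Algebra k K] [Algebra (RatFunc k) K] [IsScalarTower k (RatFunc k) K]
    [FunctionField k K] (hc : algebraicClosure k K = ⊥) (hg : 2 ≤ genus k K) : GOODP p k K := by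
  haveI : FiniteDimensional (RatFunc k) K := ‹FunctionField k K›
  haveI : CharZero k := charZero_of_injective_algebraMap (algebraMap ℚ_[p] k).injective
  haveI : CharZero K := charZero_of_injective_algebraMap (algebraMap k K).injective
  let C := PadicAlgCl p
  let j : k →ₐ[ℚ_[p]] C := IsAlgClosed.lift
  letI : Algebra k C := (j : k →+* C).toAlgebra
  haveI : IsScalarTower ℚ_[p] k C := IsScalarTower.of_algebraMap_eq fun a => (j.commutes a).symm
  haveI : Algebra.IsAlgebraic k C := Algebra.IsAlgebraic.tower_top (K := ℚ_[p]) k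
  haveI : CharZero C := charZero_of_injective_algebraMap (algebraMap ℚ_[p] C).injective
  obtain ⟨KC, i1, i2, hCE⟩ := exists_CE k C K hc
  haveI := hCE
  letI i3 : Algebra (RatFunc C) KC := ratCE k C K KC
  haveI i4 : IsScalarTower C (RatFunc C) KC := ratCE_tower k C K KC
  haveI i5 : FiniteDimensional (RatFunc C) KC := finite_rat k C K KC (ratCE_xK k C K KC)
  haveI : CharZero KC := charZero_of_injective_algebraMap (algebraMap C KC).injective
  haveI : IsGalois k C := by
    haveI : IsAlgClosure k C := ⟨inferInstance, inferInstance⟩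
    haveI : Normal k C := IsAlgClosure.normal k C
    exact {}
  refine h k K C KC ?_
  rw [gen_eqC (k := k) (C := C) (K₀ := K) (K := KC) hc, ← RR17_948.genus_eq_gen]
  exact hg

end Crest.Agent.R013.CAsm1_588
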