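import Crest.Agent.R013.SE_669

/-!
# Row 13, part C: the output `GOOD` of part C (consumed by part B: LIFT-L, NB, SE)

Everything lives inside `Ω = AlgebraicClosure K`, in the language of `SE_669`.

* `DiscEmb L C P x R v` : every `f : L` is a quotient `G(x)/H(x)` of power series with coefficients
  in `C` which are bounded on the disc of radius `R`, the identity being true for the place `P` and
  for the norm `v`.  (`L` is totally split over the disc of radius `R` at `P`, and `P`, `v` lie on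
  the same sheet.)
* `GaussAt C t v` : `v` is the Gauss norm on `C(t)`.
* `GOOD p k K`.
-/

set_option autoImplicit false

namespace Crest.Agent.R013.CGood_588

open scoped NNReal Topology
open Filter Crest.NumberTheoryR.Sect SE_669

/-- Every `f : L` is a quotient `G(x)/H(x)` of power series with coefficients in `C`, bounded on the
disc of radius `R`; the identity `f * H(x) = G(x)` holds for the norm `v` and for the place `P`. -/
def DiscEmb {k : Type*} [Field k] (L : Type*) [Field L] {Ω : Type*} [Field Ω] [Algebra k Ω]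
    [Algebra L Ω] (C : IntermediateField k Ω) (P : Valuation Ω ℝ≥0) (x : Ω) (R : ℝ≥0)
    (v : Valuation Ω ℝ≥0) : Prop :=
  ∀ f : L, ∃ G H : ℕ → Ω, (∀ i, G i ∈ C) ∧ (∀ i, H i ∈ C) ∧ (∃ i, H i ≠ 0) ∧
    (∃ B : ℝ≥0, ∀ i, v (G i) * R ^ i ≤ B ∧ v (H i) * R ^ i ≤ B) ∧
    Tendsto (fun n => v (algebraMap L Ω f * psum H x n - psum G x n)) atTop (𝓝 0) ∧
    Tendsto (fun n => P (algebraMap L Ω f * psum H x n - psum G x n)) atTop (𝓝 0)

/-- `v` restricted to `C(t)` is the Gauss norm. -/
def GaussAt {k : Type*} [Field k] {Ω : Type*} [Field Ω] [Algebra k Ω] (C : IntermediateField k Ω)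
    (t : Ω) (v : Valuation Ω ℝ≥0) : Prop :=
  ∀ (n : ℕ) (c : ℕ → Ω), (∀ i, c i ∈ C) →
    v (psum c t n) = (Finset.range n).sup fun i => v (c i)

/-- **(GOOD)** Output of part C.  For every rational place `P` (extended to `Ω`), every uniformiser
`x` and all `δ, η > 0` there are: constants `C` (finite over `k`), `π, q, c ∈ C` with
`0 < |π| < δ`, `|q| < η |π|`, `0 < |c| < η |π|`; a norm `v` on `Ω`; finite extensions
`K ≤ L ≤ M` inside `maxUnramified`, `C ≤ L`, `L` normal over `K`; such that

* `L` is totally split over the disc `|x| < R` for some `R > |π| / η`, `v` and `P` being on the same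
  sheet of `L`, and `v` is the Gauss norm of `t = (x - q) / c`
  (centre `q`, radius `|c|`: strictly inside the disc; the annuli `max (|q|, |c|) < |x| < |π|` and
  `|π| < |x| < R` are as long as one likes);
* `M = L(y)`, `y^(p^n) ∈ L`, `C` contains a primitive `p^n`-th root of unity;
* `M` contains a root `z` of Artin-Schreier type at `v`: `v z ≤ 1`, `v (z^p - z - t^m) < 1`,
  `2 ≤ m`, `p ∤ m`. -/
def GOOD (p : ℕ) [Fact p.Prime] (k : Type*) [Field k] [Algebra ℚ_[p] k] (K : Type*) [Field K]
    [Algebra k K] : Prop :=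
  ∀ (P : Valuation (AlgebraicClosure K) ℝ≥0) (x : K),
    IsRationalPlace k K (P.comap (algebraMap K (AlgebraicClosure K))) →
    IsUniformizerAt (P.comap (algebraMap K (AlgebraicClosure K))) x →
    ∀ δ η : ℝ≥0, 0 < δ → 0 < η →
    ∃ (C : IntermediateField k (AlgebraicClosure K)) (π q c : AlgebraicClosure K)
      (v : Valuation (AlgebraicClosure K) ℝ≥0) (L M : IntermediateField K (AlgebraicClosure K))
      (n m : ℕ) (ζ y z : AlgebraicClosure K),
      FiniteDimensional k C ∧ π ∈ C ∧ q ∈ C ∧ c ∈ C ∧ π ≠ 0 ∧ c ≠ 0 ∧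
      v π < δ ∧ v q < η * v π ∧ v c < η * v π ∧
      ExtendsPadicNorm k (AlgebraicClosure K) p v ∧
      (∀ a ∈ C, a ∈ L) ∧ L ≤ M ∧ M ≤ maxUnramified k K ∧ FiniteDimensional K M ∧ Normal K L ∧
      (∃ R : ℝ≥0, v π < η * R ∧ DiscEmb L C P (algebraMap K (AlgebraicClosure K) x) R v) ∧
      GaussAt C ((algebraMap K (AlgebraicClosure K) x - q) / c) v ∧
      ζ ∈ C ∧ IsPrimitiveRoot ζ (p ^ n) ∧ y ^ p ^ n ∈ L ∧
      M = L ⊔ IntermediateField.adjoin K {y} ∧
      z ∈ M ∧ v z ≤ 1 ∧ 2 ≤ m ∧ ¬ p ∣ m ∧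
      v (z ^ p - z - ((algebraMap K (AlgebraicClosure K) x - q) / c) ^ m) < 1

end Crest.Agent.R013.CGood_588
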