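import Crest.Agent.R013.A2a_275
import Crest.Agent.R013.Gl2_946

/-!
# R013 / Good2: existence of the circle field (helper940)

`exists_circle` : for every ultrametric normed field `k` there is a complete ultrametric field `E`
over `k` with an element `y` such that `IsGauss k y` and `DenseRat k y` (setting of 946).
-/

set_option autoImplicit false

namespace Crest.Agent.R013.Good2_940

open Polynomial
open scoped NNReal
open Crest.Agent.R013.A2a_275 Crest.Agent.R013.Gl946

universe u

variable (k : Type u) [NormedField k] [IsUltrametricDist k]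

theorem hna : IsNonarchimedean (NormedField.toAbsoluteValue k) := fun a b =>
  IsUltrametricDist.norm_add_le_max a b

/-- the Gauss valuation on polynomials -/
noncomputable def gvP : Valuation k[X] ℝ≥0 where
  toFun f := Real.toNNReal (gaussNorm (NormedField.toAbsoluteValue k) 1 f)
  map_zero' := by rw [gaussNorm_zero, Real.toNNReal_zero]
  map_one' := by
    rw [← C_1, gaussNorm_C, map_one, Real.toNNReal_one]
  map_mul' f g := by
    rw [gaussNorm_mul (hna k) one_pos, Real.toNNReal_mul (gaussNorm_nonneg _ _ zero_le_one)]
  map_add_le_max' f g := by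
    have h := isNonarchimedean_gaussNorm (NormedField.toAbsoluteValue k) (hna k)
      (zero_le_one (α := ℝ)) f g
    rcases le_total (gaussNorm (NormedField.toAbsoluteValue k) 1 f)
      (gaussNorm (NormedField.toAbsoluteValue k) 1 g) with h1 | h1
    · rw [max_eq_right h1] at h
      exact (Real.toNNReal_mono h).trans (le_max_right _ _)
    · rw [max_eq_left h1] at h
      exact (Real.toNNReal_mono h).trans (le_max_left _ _)

theorem gvP_coe (f : k[X]) : (gvP k f : ℝ) = gaussNorm (NormedField.toAbsoluteValue k) 1 f :=
  Real.coe_toNNReal _ (gaussNorm_nonneg _ _ zero_le_one)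

theorem gvP_coeff_le (f : k[X]) (i : ℕ) : ‖f.coeff i‖ ≤ gvP k f := by
  rw [gvP_coe]
  have := le_gaussNorm (c := 1) (NormedField.toAbsoluteValue k) f zero_le_one i
  rwa [one_pow, mul_one] at this

theorem gvP_C (a : k) : gvP k (C a) = ‖a‖₊ := by
  ext
  rw [gvP_coe, gaussNorm_C]
  rfl

theorem gvP_X : gvP k X = 1 := by
  ext
  rw [gvP_coe, ← monomial_one_one_eq_X, gaussNorm_monomial, map_one]
  norm_num

theorem gvP_ne_zero {f : k[X]} (hf : f ≠ 0) : gvP k f ≠ 0 := by
  intro h
  refine hf (Polynomial.ext fun i => ?_)
  have := gvP_coeff_le k f i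
  rw [h, NNReal.coe_zero] at this
  rw [coeff_zero]
  exact norm_le_zero_iff.mp this

theorem hS : nonZeroDivisors k[X] ≤ (gvP k).supp.primeCompl := by
  intro f hf h
  exact gvP_ne_zero k (nonZeroDivisors.ne_zero hf) ((Valuation.mem_supp_iff _ _).mp h)

/-- the Gauss valuation on rational functions -/
noncomputable def gv : Valuation (RatFunc k) ℝ≥0 := (gvP k).extendToLocalization (hS k) (RatFunc k)

theorem gv_algebraMap (f : k[X]) : gv k (algebraMap k[X] (RatFunc k) f) = gvP k f :=
  Valuation.extendToLocalization_apply_map_apply _ _ _ _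

/-- **Existence of the circle field.** -/
theorem exists_circle : ∃ (E : Type u) (_ : NormedField E) (_ : NormedAlgebra k E)
    (_ : IsUltrametricDist E) (_ : CompleteSpace E) (y : E), IsGauss k y ∧ DenseRat k y := by
  let E := Cpl (gv k)
  let j : RatFunc k →+* E := toCpl (gv k)
  let phi : k →+* E := j.comp (algebraMap k (RatFunc k))
  have hj : ∀ f : RatFunc k, ‖j f‖ = gv k f := norm_toCpl (gv k)
  have hphi : ∀ a : k, ‖phi a‖ = ‖a‖ := by
    intro a
    have h1 : algebraMap k (RatFunc k) a = algebraMap k[X] (RatFunc k) (C a) := by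
      rw [IsScalarTower.algebraMap_apply k k[X] (RatFunc k)]; rfl
    show ‖j (algebraMap k (RatFunc k) a)‖ = _
    rw [hj, h1, gv_algebraMap, gvP_C]
    rfl
  let alg : Algebra k E := phi.toAlgebra
  let nalg : @NormedAlgebra k E _ _ :=
    { alg with
      norm_smul_le := fun a x => by
        show ‖phi a * x‖ ≤ _
        rw [norm_mul, hphi] }
  refine ⟨E, inferInstance, nalg, inferInstance, inferInstance,
    j (algebraMap k[X] (RatFunc k) X), ?_, ?_⟩
  · have hae : ∀ f : k[X], @aeval k E _ _ nalg.toAlgebra (j (algebraMap k[X] (RatFunc k) X)) f =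
        j (algebraMap k[X] (RatFunc k) f) := by
      intro f
      induction f using Polynomial.induction_on' with
      | add f g hf hg => rw [map_add, map_add, map_add, hf, hg]
      | monomial n a =>
        rw [aeval_monomial, ← C_mul_X_pow_eq_monomial, map_mul, map_mul, map_pow, map_pow]
        congr 1
    refine ⟨?_, fun f i => ?_⟩
    · rw [hj, gv_algebraMap, gvP_X]; simp
    · rw [hae, hj, gv_algebraMap]
      exact gvP_coeff_le k f i
  · intro x ε hε
    have hae : ∀ f : k[X], @aeval k E _ _ nalg.toAlgebra (j (algebraMap k[X] (RatFunc k) X)) f =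
        j (algebraMap k[X] (RatFunc k) f) := by
      intro f
      induction f using Polynomial.induction_on' with
      | add f g hf hg => rw [map_add, map_add, map_add, hf, hg]
      | monomial n a =>
        rw [aeval_monomial, ← C_mul_X_pow_eq_monomial, map_mul, map_mul, map_pow, map_pow]
        congr 1
    obtain ⟨r, hr⟩ := (denseRange_toCpl (gv k)).exists_dist_lt x hε
    refine ⟨r.num, r.denom, r.denom_ne_zero, ?_⟩
    rw [hae, hae, ← map_div₀, RatFunc.num_div_denom, ← dist_eq_norm]
    exact hr

end Crest.Agent.R013.Good2_940
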