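import Crest.Agent.R013.Small6_940
import Crest.Agent.R013.Good2_940
import Crest.Agent.R013.CGood_588

/-!
# R013 / Good5: the last step of part C (helper940)

`good_last` : an etale class with a form of exact order `i` at arbitrarily small centres gives the
conclusion of `CGood_588.GOOD` at `(P, x)`.
-/

set_option autoImplicit false
set_option linter.unusedSectionVars false

namespace Crest.Agent.R013.Good5_940

open PowerSeries Filter
open scoped NNReal Topology
open Crest.NumberTheoryR.Sect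
open Crest.Agent.R013.KAS2_940 (Bd bd_zero)
open Crest.Agent.R013.KAS2_940
open Crest.Agent.R013.KAS3_940 Crest.Agent.R013.Good1_940 Crest.Agent.R013.Gl946
open Crest.Agent.R013.Good3_940 Crest.Agent.R013.Good4_940
open Crest.Agent.R013.Small2_940 Crest.Agent.R013.Small3_940 Crest.Agent.R013.Small4_940
open Crest.Agent.R013.Small5_940 Crest.Agent.R013.Small6_940
open Crest.Agent.R013.LemD_323 (shift)
open Crest.Agent.R013.Puis_702 (mapL coeff_mapL)
open Crest.Agent.R013.SE_669 Crest.Agent.R013.CGood_588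

variable {k : Type*} [Field k] [CharZero k] {K : Type*} [Field K] [Algebra k K]
  [Algebra (RatFunc k) K] [IsScalarTower k (RatFunc k) K] [FiniteDimensional (RatFunc k) K]

/-- elements generated by functions which extend to the disc extend to the disc -/
theorem mem_frB_closure {F : Type*} [NontriviallyNormedField F] [IsUltrametricDist F]
    (JF : maxUnramified k K →+* LaurentSeries F) (D : Subfield F) {R : ℝ} (hR : 0 < R)
    (W : Set (AlgebraicClosure K))
    (hW : ∀ w ∈ W, ∃ hw : w ∈ maxUnramified k K, JF ⟨w, hw⟩ ∈ frB D hR) (z : maxUnramified k K)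
    (hz : (z : AlgebraicClosure K) ∈ Subfield.closure W) : JF z ∈ frB D hR := by
  have h1 : Subfield.closure W ≤ ((frB D hR).comap JF).map
      (algebraMap (maxUnramified k K) (AlgebraicClosure K)) := by
    rw [Subfield.closure_le]
    intro w hw
    obtain ⟨hw', h2⟩ := hW w hw
    exact ⟨⟨w, hw'⟩, h2, rfl⟩
  obtain ⟨z', hz', hzz⟩ := h1 hz
  have : z' = z := Subtype.ext hzz
  rwa [← this]

/-- the set of algebraic constants -/
def CbS (k K : Type*) [Field k] [Field K] [Algebra k K] : Set (AlgebraicClosure K) :=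
  (algebraicClosure k (AlgebraicClosure K) : Set (AlgebraicClosure K))

/-- **the input of the last step** (for one `ε`) -/
def Inp (p : ℕ) {F : Type*} [NontriviallyNormedField F] [IsUltrametricDist F]
    (jC : Cb k K →+* F) (J : maxUnramified k K →+* LaurentSeries (Cb k K))
    (E0 : IntermediateField K (AlgebraicClosure K)) (R0 ε : ℝ) : Prop :=
  ∃ (q : Cb k K) (i j m : ℕ) (om H : F⟦X⟧) (D CH : ℝ), ‖jC q‖ < ε ∧ i + 1 = p ^ j * m ∧ 2 ≤ m ∧
    ¬ p ∣ m ∧ Bd R0 D om ∧ Bd R0 CH H ∧ constantCoeff H ≠ 0 ∧ d⁄dX F H = om * H ∧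
    (∀ l < i, coeff l (shift (jC q) om) = 0) ∧ coeff i (shift (jC q) om) ≠ 0 ∧
    (∃ a0 : Cb k K, jC a0 = coeff i (shift (jC q) om)) ∧
    (∃ b0 : Cb k K, jC b0 = constantCoeff (shift (jC q) H)) ∧
    ∀ n : ℕ, ∃ h : maxUnramified k K, h ≠ 0 ∧
      (h : AlgebraicClosure K) ∈ E0 ⊔ IntermediateField.adjoin K (CbS k K) ∧
      (∀ y : AlgebraicClosure K, y ^ p ^ n = h → y ∈ maxUnramified k K) ∧
      ∃ a b : F⟦X⟧, (∃ B, Bd R0 B a) ∧ (∃ B, Bd R0 B b) ∧ a ≠ 0 ∧ b ≠ 0 ∧
        mapL jC (J h) * toL F (b ^ p ^ n) = toL F (H * a ^ p ^ n)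

/-- the conclusion of `GOOD` at `(P, x, δ, η)` -/
def Concl (p : ℕ) [Fact p.Prime] (k : Type*) [Field k] [Algebra ℚ_[p] k] (K : Type*) [Field K]
    [Algebra k K] (P : Valuation (AlgebraicClosure K) ℝ≥0) (x : K) (δ η : ℝ≥0) : Prop :=
  ∃ (C : IntermediateField k (AlgebraicClosure K)) (π q c : AlgebraicClosure K)
      (v : Valuation (AlgebraicClosure K) ℝ≥0) (L M : IntermediateField K (AlgebraicClosure K))
      (n m : ℕ) (ζ y z : AlgebraicClosure K),
      FiniteDimensional k C ∧ π ∈ C ∧ q ∈ C ∧ c ∈ C ∧ π ≠ 0 ∧ c ≠ 0 ∧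
      v π < δ ∧ v q < η * v π ∧ v c < η * v π ∧
      ExtendsPadicNorm k (AlgebraicClosure K) p v ∧
      (∀ a ∈ C, a ∈ L) ∧ L ≤ M ∧ M ≤ maxUnramified k K ∧ FiniteDimensional K M ∧ Normal K L ∧
      (∃ R : ℝ≥0, v π < η * R ∧ DiscEmb L C P (algebraMap K (AlgebraicClosure K) x) R v) ∧
      GaussAt C ((algebraMap K (AlgebraicClosure K) x - q) / c) v ∧
      ζ ∈ C ∧ IsPrimitiveRoot ζ (p ^ n) ∧ y ^ p ^ n ∈ L ∧
      M = L ⊔ IntermediateField.adjoin K {y} ∧
      z ∈ M ∧ v z ≤ 1 ∧ 2 ≤ m ∧ ¬ p ∣ m ∧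
      v (z ^ p - z - ((algebraMap K (AlgebraicClosure K) x - q) / c) ^ m) < 1

theorem good_of_concl (p : ℕ) [Fact p.Prime] (k : Type*) [Field k] [Algebra ℚ_[p] k] (K : Type*)
    [Field K] [Algebra k K]
    (h : ∀ (P : Valuation (AlgebraicClosure K) ℝ≥0) (x : K),
      IsRationalPlace k K (P.comap (algebraMap K (AlgebraicClosure K))) →
      IsUniformizerAt (P.comap (algebraMap K (AlgebraicClosure K))) x →
      ∀ δ η : ℝ≥0, 0 < δ → 0 < η → Concl p k K P x δ η) : GOOD p k K := h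

section consts

variable {p : ℕ} [hpF : Fact p.Prime] [Algebra ℚ_[p] k]
  {F : Type*} [NontriviallyNormedField F] [IsUltrametricDist F] [CharZero F]
  {jC : Cb k K →+* F}

theorem norm_p (hjn : ∀ a : ℚ_[p], ‖jC (algebraMap k (Cb k K) (algebraMap ℚ_[p] k a))‖ = ‖a‖) :
    ‖(p : F)‖ = (p : ℝ)⁻¹ := by
  have h1 := hjn p
  rw [map_natCast, map_natCast, map_natCast, Padic.norm_p] at h1
  exact h1

theorem norm_p_lt (hjn : ∀ a : ℚ_[p], ‖jC (algebraMap k (Cb k K) (algebraMap ℚ_[p] k a))‖ = ‖a‖) :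
    ‖(p : F)‖ < 1 := by
  rw [norm_p hjn]
  exact inv_lt_one_of_one_lt₀ (by exact_mod_cast hpF.out.one_lt)

theorem norm_p_pos : 0 < ‖(p : F)‖ := norm_pos_iff.mpr (Nat.cast_ne_zero.mpr hpF.out.ne_zero)

instance isAlgClosed_Cb : IsAlgClosed (Cb k K) := IsAlgClosure.isAlgClosed k

/-- `lam ^ (p-1) = -p` in the constants -/
theorem exists_lam (p : ℕ) (hp : 2 ≤ p) : ∃ lam : Cb k K, lam ^ (p - 1) = -(p : Cb k K) :=
  IsAlgClosed.exists_pow_nat_eq _ (by omega)

theorem exists_c (hp1 : ‖(p : F)‖ < 1) {a0 lam : Cb k K} (ha0 : a0 ≠ 0) (hlam0 : lam ≠ 0) (i : ℕ)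
    {ε : ℝ} (hε : 0 < ε) :
    ∃ (n : ℕ) (c : Cb k K), c ≠ 0 ∧ ‖jC c‖ < ε ∧
      a0 / ((i + 1 : ℕ) : Cb k K) * c ^ (i + 1) = (p : Cb k K) ^ n * lam ^ p := by
  have hi : ((i + 1 : ℕ) : Cb k K) ≠ 0 := Nat.cast_ne_zero.mpr (Nat.succ_ne_zero i)
  have hp0 : (p : Cb k K) ≠ 0 := Nat.cast_ne_zero.mpr hpF.out.ne_zero
  set A : ℝ := ‖jC (lam ^ p * ((i + 1 : ℕ) : Cb k K) / a0)‖ with hA
  have hA0 : 0 < A := by
    rw [hA, norm_pos_iff, _root_.map_ne_zero]
    exact div_ne_zero (mul_ne_zero (pow_ne_zero _ hlam0) hi) ha0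
  obtain ⟨n, hn⟩ := exists_pow_lt_of_lt_one (show 0 < ε ^ (i + 1) / A by positivity) hp1
  obtain ⟨c, hc⟩ := IsAlgClosed.exists_pow_nat_eq
    ((p : Cb k K) ^ n * (lam ^ p * ((i + 1 : ℕ) : Cb k K) / a0)) (Nat.succ_pos i)
  have hc' : c ^ (i + 1) = (p : Cb k K) ^ n * (lam ^ p * ((i + 1 : ℕ) : Cb k K) / a0) := hc
  refine ⟨n, c, ?_, ?_, ?_⟩
  · rintro rfl
    rw [zero_pow (Nat.succ_ne_zero i)] at hc'
    have : (p : Cb k K) ^ n * (lam ^ p * ((i + 1 : ℕ) : Cb k K) / a0) ≠ 0 :=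
      mul_ne_zero (pow_ne_zero _ hp0) (div_ne_zero (mul_ne_zero (pow_ne_zero _ hlam0) hi) ha0)
    exact this hc'.symm
  · have h1 : ‖jC c‖ ^ (i + 1) < ε ^ (i + 1) := by
      rw [← norm_pow, ← map_pow, hc', map_mul, norm_mul, map_pow, map_natCast, norm_pow]
      rwa [lt_div_iff₀ hA0] at hn
    exact lt_of_pow_lt_pow_left₀ _ hε.le h1
  · rw [hc']
    field_simp

end consts

section radius

variable {F : Type*} [NontriviallyNormedField F] [IsUltrametricDist F]

theorem mapL_C {R S : Type*} [CommRing R] [CommRing S] (f : R →+* S) (c : R) :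
    mapL f (HahnSeries.C c) = HahnSeries.C (f c) := by
  refine HahnSeries.ext (funext fun i => ?_)
  rw [coeff_mapL, HahnSeries.C_apply, HahnSeries.C_apply, HahnSeries.coeff_single,
    HahnSeries.coeff_single]
  split_ifs
  · rfl
  · rw [map_zero]

theorem mapL_single {R S : Type*} [CommRing R] [CommRing S] (f : R →+* S) (n : ℤ) :
    mapL f (HahnSeries.single n 1) = HahnSeries.single n 1 := by
  refine HahnSeries.ext (funext fun i => ?_)
  rw [coeff_mapL, HahnSeries.coeff_single, HahnSeries.coeff_single]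
  split_ifs
  · rw [map_one]
  · rw [map_zero]

/-- the image in `F` of the constants in `C` -/
noncomputable def DC (jC : Cb k K →+* F) (C : IntermediateField k (AlgebraicClosure K)) : Subfield F :=
  (C.toSubfield.comap (algebraMap (Cb k K) (AlgebraicClosure K))).map jC

theorem mem_DC {jC : Cb k K →+* F} {C : IntermediateField k (AlgebraicClosure K)} {a : F} :
    a ∈ DC jC C ↔ ∃ c : Cb k K, (c : AlgebraicClosure K) ∈ C ∧ jC c = a := Iff.rfl

theorem closure_of_mem_sup {Ω : Type*} [Field Ω] [Algebra K Ω] (E : IntermediateField K Ω)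
    (A : Set Ω) {z : Ω} (hz : z ∈ E ⊔ IntermediateField.adjoin K A) :
    z ∈ Subfield.closure ((E : Set Ω) ∪ A) := by
  have h1 : E ⊔ IntermediateField.adjoin K A = IntermediateField.adjoin K ((E : Set Ω) ∪ A) := by
    rw [IntermediateField.adjoin_union, IntermediateField.adjoin_self]
  rw [h1] at hz
  have h2 : z ∈ Subfield.closure (Set.range (algebraMap K Ω) ∪ ((E : Set Ω) ∪ A)) := hz
  have h3 : Subfield.closure (Set.range (algebraMap K Ω) ∪ ((E : Set Ω) ∪ A)) ≤
      Subfield.closure ((E : Set Ω) ∪ A) := by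
    rw [Subfield.closure_le]
    rintro w (⟨a, rfl⟩ | hw)
    · exact Subfield.subset_closure (Or.inl (E.algebraMap_mem a))
    · exact Subfield.subset_closure hw
  exact h3 h2

variable {P : Valuation (AlgebraicClosure K) ℝ≥0} {x : K}

/-- **a finite extension in `maxUnramified` is split over a small disc, over every large level** -/
theorem exists_radius (hP : IsRationalPlace k K (P.comap (algebraMap K (AlgebraicClosure K))))
    (hx : IsUniformizerAt (P.comap (algebraMap K (AlgebraicClosure K))) x)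
    {J : maxUnramified k K →+* LaurentSeries (Cb k K)}
    (hJ : IsExp (iM k K) (P.comap (algebraMap (maxUnramified k K) (AlgebraicClosure K)))
        (algebraMap K (maxUnramified k K) x) J)
    (jC : Cb k K →+* F) (E1 : IntermediateField K (AlgebraicClosure K)) [FiniteDimensional K E1]
    (hE1 : E1 ≤ maxUnramified k K) :
    ∃ (T0 : Finset (Cb k K)) (ρ : ℝ), 0 < ρ ∧ ∀ (R : ℝ) (hR : 0 < R), R ≤ ρ →
      ∀ C : IntermediateField k (AlgebraicClosure K), (∀ t ∈ T0, (t : AlgebraicClosure K) ∈ C) →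
        (∀ c ∈ C, IsIntegral k c) → ∀ z : maxUnramified k K,
        (z : AlgebraicClosure K) ∈ Subfield.closure ((E1 : Set (AlgebraicClosure K)) ∪ C) →
        mapL jC (J z) ∈ frB (DC jC C) hR := by
  classical
  obtain ⟨S, hSE, hSgen⟩ := exists_gen (k := k) E1
  let S' : Finset (maxUnramified k K) := S.attach.image fun s => ⟨s.1, hE1 (hSE s.2)⟩
  let v0 : Valuation (Cb k K) ℝ≥0 := (NormedField.valuation (K := F)).comap jC
  have hv0 : ∀ c, v0 c = ‖jC c‖₊ := fun c => rfl
  obtain ⟨C0, hC0fin, hC0, ρ, hρ, B, hB⟩ := exists_common hP hx hJ v0 S'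
  obtain ⟨T0, hT0⟩ := IntermediateField.essFiniteType_iff.mp
    (inferInstance : Algebra.EssFiniteType k C0)
  refine ⟨T0, ρ, hρ, fun R hR hRρ C hTC hCint z hz => ?_⟩
  have hC0C : ∀ c ∈ C0, (c : AlgebraicClosure K) ∈ C := by
    have h1 : C0 ≤ C.comap (IsScalarTower.toAlgHom k (Cb k K) (AlgebraicClosure K)) := by
      rw [← hT0, IntermediateField.adjoin_le_iff]
      intro t ht
      exact hTC t ht
    exact fun c hc => h1 hc
  refine mem_frB_closure ((mapL jC).comp J) (DC jC C) hR ((S : Set (AlgebraicClosure K)) ∪ C) ?_ z ?_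
  · rintro w (hw | hw)
    · refine ⟨hE1 (hSE hw), ?_⟩
      have hmem : (⟨w, hE1 (hSE hw)⟩ : maxUnramified k K) ∈ S' :=
        Finset.mem_image.mpr ⟨⟨w, hw⟩, Finset.mem_attach _ _, rfl⟩
      have hRn : (0 : ℝ≥0) < ⟨R, hR.le⟩ := hR
      obtain ⟨B', hB'⟩ := Puis_702.bdd_mono (ρ' := ⟨R, hR.le⟩) hRn hRρ (hB _ hmem)
      refine mem_frB_of_bdd (B := B') (fun i => ?_) (fun i => ?_)
      · rw [RingHom.comp_apply, coeff_mapL]
        exact mem_DC.mpr ⟨_, hC0C _ (hC0 _ hmem i), rfl⟩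
      · rw [RingHom.comp_apply, coeff_mapL]
        have h2 := hB' i
        rw [hv0, ← NNReal.coe_le_coe] at h2
        exact h2
    · have hi := hCint w hw
      have hwM : w ∈ maxUnramified k K := MaxUnr_97.mem_maxUnramified_of_isIntegral w hi
      refine ⟨hwM, ?_⟩
      let c : Cb k K := ⟨w, mem_algebraicClosure_iff.mpr (isAlgebraic_iff_isIntegral.mpr hi)⟩
      have h1 : (⟨w, hwM⟩ : maxUnramified k K) = iM k K c := rfl
      rw [RingHom.comp_apply, h1, hJ.con, mapL_C]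
      exact C_mem_frB (mem_DC.mpr ⟨c, hw, rfl⟩)
  · have h2 : Subfield.closure ((E1 : Set (AlgebraicClosure K)) ∪ C) ≤
        Subfield.closure ((S : Set (AlgebraicClosure K)) ∪ C) := by
      rw [Subfield.closure_le]
      rintro w (hw | hw)
      · have h3 : Subfield.closure (Set.range (algebraMap k (AlgebraicClosure K)) ∪
            (S : Set (AlgebraicClosure K))) ≤ Subfield.closure ((S : Set (AlgebraicClosure K)) ∪ C) := by
          rw [Subfield.closure_le]
          rintro w (⟨a, rfl⟩ | hw)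
          · exact Subfield.subset_closure (Or.inr (C.algebraMap_mem a))
          · exact Subfield.subset_closure (Or.inl hw)
        exact h3 (hSgen w hw)
      · exact Subfield.subset_closure (Or.inr hw)
    exact h2 hz

end radius

end Crest.Agent.R013.Good5_940
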