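import Crest.Agent.R013.CAsm1_588
import Crest.Agent.R013.DescC3_116
import Crest.Agent.R013.Good5_940
import Crest.Agent.R013.CB1e_903

/-!
# Row 13, part C, assembly 2 (helper588): covers of `KC` inside `maxUnramified k K`

`Y / KC` finite and unramified at all places, `φ : Y →ₐ[K] AlgebraicClosure K`.
* `exists_e` : the isomorphism `Cb k K ≃ C`;
* `phi_mem` : `φ` has values in `maxUnramified k K`;
* `exists_E0` : a finite level.
-/

set_option autoImplicit false
set_option linter.style.haveILetI false
set_option linter.unusedSectionVars false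

namespace Crest.Agent.R013.CAsm2_588

open scoped NNReal
open Module WithZero
open Crest.NumberTheoryR.Sect
open Crest.Agent.R013.RR7_948 Crest.Agent.R013.RR13_948 Crest.Agent.R013.RR18_948
open Crest.Agent.R013.Desc_372 Crest.Agent.R013.Desc_372.CE
open Crest.Agent.R013.Unr10_957 Crest.Agent.R013.Unr7_957
open Crest.Agent.R013.Small4_940 (Cb iM)
open Crest.Agent.R013.Good5_940 (CbS)
open Crest.Agent.R013.CB1_903 (UnrPl)
open Crest.Agent.R013.DescC_116

/-- 903's and 957's unramifiedness -/
theorem unrPl_iff {C K L : Type*} [Field C] [Field K] [Algebra C K] [Algebra (RatFunc C) K]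
    [IsScalarTower C (RatFunc C) K] [FiniteDimensional (RatFunc C) K]
    [Algebra.IsSeparable (RatFunc C) K] [Field L] [Algebra C L] [Algebra K L]
    [IsScalarTower C K L] [FiniteDimensional K L] [Algebra.IsSeparable K L] :
    UnrPl C K L ↔ UnrEv C K L := by
  rw [← eR_eq_one_iff_unrEv]
  constructor
  · intro h Q
    obtain ⟨f, hf⟩ := h Q
    have hf0 : f ≠ 0 := by
      rintro rfl
      rw [map_zero, map_zero] at hf
      exact exp_ne_zero hf.symm
    have h1 : (under K Q).v f = exp (log ((under K Q).v f)) :=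
      (exp_log ((_root_.map_ne_zero _).mpr hf0)).symm
    have h2 := v_algebraMap_exp Q h1
    rw [hf, exp_inj] at h2
    have h3 : (eR K Q : ℤ) ∣ 1 := ⟨-log ((under K Q).v f), by linarith⟩
    have h4 := Int.isUnit_iff.mp (isUnit_of_dvd_one h3)
    omega
  · intro h Q
    obtain ⟨f, hf⟩ := (under K Q).surj (exp (-1))
    refine ⟨f, ?_⟩
    rw [v_algebraMap_exp Q hf, h Q]
    norm_num

variable {k : Type*} [Field k] [CharZero k] {K : Type*} [Field K] [Algebra k K]
  {C : Type*} [Field C] [IsAlgClosed C] [Algebra k C] [Algebra.IsAlgebraic k C]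
  {Y : Type*} [Field Y] [Algebra C Y] [Algebra K Y] [Algebra k Y] [IsScalarTower k C Y]
  [IsScalarTower k K Y]

theorem exists_e (φ : Y →ₐ[K] AlgebraicClosure K) :
    ∃ e : Cb k K ≃+* C, (∀ a : k, e (algebraMap k (Cb k K) a) = algebraMap k C a) ∧
      ∀ c : C, φ (algebraMap C Y c) = (e.symm c : AlgebraicClosure K) := by
  have hk : ∀ a : k, φ (algebraMap k Y a) = algebraMap k (AlgebraicClosure K) a := fun a => by
    rw [IsScalarTower.algebraMap_apply k K Y, φ.commutes]
    rfl
  have h0 : ∀ c : C, φ (algebraMap C Y c) ∈ algebraicClosure k (AlgebraicClosure K) := by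
    intro c
    have h1 : IsAlgebraic k c := Algebra.IsAlgebraic.isAlgebraic c
    obtain ⟨f, hf, hfc⟩ := h1
    refine mem_algebraicClosure_iff.mpr ⟨f, hf, ?_⟩
    have h2 : Polynomial.aeval (φ (algebraMap C Y c)) f = φ (algebraMap C Y (Polynomial.aeval c f)) := by
      rw [Polynomial.aeval_def, Polynomial.aeval_def, Polynomial.hom_eval₂, ← RingHom.coe_coe φ,
        Polynomial.hom_eval₂]
      congr 1
      ext a
      rw [RingHom.comp_apply, RingHom.comp_apply, ← IsScalarTower.algebraMap_apply k C Y]
      exact (hk a).symm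
    rw [h2, hfc, map_zero, map_zero]
  let f : C →+* Cb k K := ((φ : Y →+* AlgebraicClosure K).comp (algebraMap C Y)).codRestrict _ h0
  have hf : ∀ c, ((f c : Cb k K) : AlgebraicClosure K) = φ (algebraMap C Y c) := fun c => rfl
  have hfk : ∀ a : k, f (algebraMap k C a) = algebraMap k (Cb k K) a := fun a => by
    apply Subtype.ext
    rw [hf, ← IsScalarTower.algebraMap_apply k C Y, hk]
    rfl
  let fa : C →ₐ[k] Cb k K := { f with commutes' := hfk }
  have hb : Function.Bijective fa := by
    refine ⟨fa.toRingHom.injective, ?_⟩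
    letI : Algebra C (Cb k K) := f.toAlgebra
    haveI : IsScalarTower k C (Cb k K) := IsScalarTower.of_algebraMap_eq fun a => (hfk a).symm
    haveI : Algebra.IsAlgebraic C (Cb k K) := Algebra.IsAlgebraic.tower_top (K := k) C
    have h1 : Function.Bijective (algebraMap C (Cb k K)) :=
      IsAlgClosed.algebraMap_bijective_of_isIntegral
    exact h1.2
  let e : C ≃+* Cb k K := RingEquiv.ofBijective f ⟨f.injective, hb.2⟩
  refine ⟨e.symm, fun a => ?_, fun c => (hf c).symm⟩
  rw [RingEquiv.symm_apply_eq]
  exact (hfk a).symm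

variable [Algebra (RatFunc k) K] [IsScalarTower k (RatFunc k) K] [FiniteDimensional (RatFunc k) K]
  {KC : Type*} [Field KC] [Algebra C KC] [Algebra K KC] [Algebra k KC]
  [IsScalarTower k C KC] [IsScalarTower k K KC] [CE k C K KC]
  [Algebra KC Y] [IsScalarTower K KC Y] [IsScalarTower C KC Y] [FiniteDimensional KC Y]

variable (k C KC) in
theorem unrEv_Y (h : UnrEv C KC Y) : UnrEv k K Y := by
  have h1 : UnrEv k K KC := unrEv_ce k k C K KC
  haveI : IsScalarTower k KC Y := IsScalarTower.of_algebraMap_eq fun a => by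
    rw [IsScalarTower.algebraMap_apply k K Y, IsScalarTower.algebraMap_apply k K KC,
      ← IsScalarTower.algebraMap_apply K KC Y]
  have h2 : UnrEv k KC Y := (unrEv_const_iff (k := k) (k₁ := C)).mpr h
  exact UnrEv.trans (L := KC) h1 h2

variable (k C KC) in
theorem phi_mem (h : UnrEv C KC Y) (φ : Y →ₐ[K] AlgebraicClosure K) (y : Y) :
    φ y ∈ maxUnramified k K := by
  have h1 := unrEv_Y (K := K) (Y := Y) k C KC h
  rw [mem_maxUnramified_iff_unrEv]
  haveI : Algebra.IsAlgebraic K KC := isAlgebraic k C K KC
  haveI : Algebra.IsAlgebraic K Y := Algebra.IsAlgebraic.trans K KC Y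
  have h2 : UnrEv k K (IntermediateField.adjoin K {y}) := unrEv_of_tower h1
  have h3 : IntermediateField.adjoin K {φ y} = (IntermediateField.adjoin K {y}).map φ := by
    rw [IntermediateField.adjoin_map, Set.image_singleton]
  rw [h3]
  exact (UnrEv.congr (IntermediateField.equivMap (IntermediateField.adjoin K {y}) φ)).mp h2

variable (k C KC) in
/-- `φ Y` lies in a finite level with all constants -/
theorem exists_E0 (h : UnrEv C KC Y) (φ : Y →ₐ[K] AlgebraicClosure K) :
    ∃ E0 : IntermediateField K (AlgebraicClosure K), FiniteDimensional K E0 ∧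
      E0 ≤ maxUnramified k K ∧
      ∀ y, φ y ∈ E0 ⊔ IntermediateField.adjoin K (CbS k K) := by
  haveI : CharZero C := charZero_of_injective_algebraMap (algebraMap k C).injective
  haveI : CharZero KC := charZero_of_injective_algebraMap (algebraMap C KC).injective
  haveI : Algebra.IsAlgebraic K KC := isAlgebraic k C K KC
  haveI : Algebra.IsAlgebraic K Y := Algebra.IsAlgebraic.trans K KC Y
  obtain ⟨θ, hθ⟩ := Field.exists_primitive_element KC Y
  let E0 : IntermediateField K (AlgebraicClosure K) := IntermediateField.adjoin K {φ θ}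
  haveI h1 : FiniteDimensional K E0 :=
    IntermediateField.adjoin.finiteDimensional (Algebra.IsIntegral.isIntegral _)
  refine ⟨E0, h1, ?_, ?_⟩
  · rw [IntermediateField.adjoin_le_iff]
    rintro _ rfl
    exact phi_mem k C KC h φ θ
  · intro y
    let M : IntermediateField K Y := (E0 ⊔ IntermediateField.adjoin K (CbS k K)).comap φ
    have hC : ∀ c : C, algebraMap C Y c ∈ M := by
      intro c
      change φ (algebraMap C Y c) ∈ E0 ⊔ IntermediateField.adjoin K (CbS k K)
      obtain ⟨e, -, he⟩ := exists_e (k := k) (C := C) φ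
      rw [he]
      exact (le_sup_right : _ ≤ E0 ⊔ IntermediateField.adjoin K (CbS k K))
        (IntermediateField.subset_adjoin K _ (e.symm c).2)
    have hKC : ∀ z : KC, algebraMap KC Y z ∈ M := by
      intro z
      obtain ⟨n, c, g, rfl⟩ := exists_sum k C K KC z
      rw [map_sum]
      refine sum_mem fun i _ => ?_
      rw [map_mul, ← IsScalarTower.algebraMap_apply C KC Y,
        ← IsScalarTower.algebraMap_apply K KC Y]
      exact mul_mem (hC _) (M.algebraMap_mem _)
    have hθM : θ ∈ M := by
      change φ θ ∈ E0 ⊔ IntermediateField.adjoin K (CbS k K)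
      exact (le_sup_left : _ ≤ E0 ⊔ IntermediateField.adjoin K (CbS k K))
        (IntermediateField.mem_adjoin_simple_self K _)
    let M' : IntermediateField KC Y :=
      { M.toSubfield with algebraMap_mem' := hKC }
    have h2 : (⊤ : IntermediateField KC Y) ≤ M' := by
      rw [← hθ, IntermediateField.adjoin_le_iff]
      rintro _ rfl
      exact hθM
    exact h2 (IntermediateField.mem_top (x := y))

end Crest.Agent.R013.CAsm2_588
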