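import Crest.Agent.R013.Desc1_372
import Crest.Agent.R013.Cell4_408
import Crest.Agent.R013.EE2_809

/-!
# R013 / DEm1 (helper719), SS-DESC part D4, file 1

`C/k` algebraic, `k` complete ultrametric.  The group `C ≃ₐ[k] C` acts isometrically on `C`, hence on
`BD k C` (`actBD`), on any fraction field `Q` of `BD k C` (`actQ`), on `EE k C` (`actEE`).
Evaluation is equivariant.  Every element of `BD`, `Q`, `EE` is fixed by the fixing subgroup of a
finite extension of `k`.
-/

set_option autoImplicit false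
set_option linter.all false

open Filter Topology

namespace Crest.Agent.R013.DEm_719

open Crest.Agent.R013.Cell_408 Crest.Agent.R013.EE809

section norm

variable {k C : Type*} [NontriviallyNormedField k] [CompleteSpace k] [IsUltrametricDist k]
  [NormedField C] [NormedAlgebra k C] [Algebra.IsAlgebraic k C]

/-- `k`-homomorphisms of `C` are isometric -/
theorem norm_map (s : C →ₐ[k] C) (x : C) : ‖s x‖ = ‖x‖ := by
  rw [NormedAlgebra.norm_eq_spectralNorm k (s x), NormedAlgebra.norm_eq_spectralNorm k x,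
    spectralNorm, spectralNorm, minpoly.algHom_eq s s.injective]

theorem norm_mapE (s : C ≃ₐ[k] C) (x : C) : ‖s x‖ = ‖x‖ := norm_map (s : C →ₐ[k] C) x

theorem continuous_map (s : C →ₐ[k] C) : Continuous s := by
  refine (AddMonoidHomClass.isometry_of_norm s (norm_map s)).continuous

theorem continuous_mapE (s : C ≃ₐ[k] C) : Continuous s := continuous_map (s : C →ₐ[k] C)

theorem finDef_map (s : C →ₐ[k] C) {ι : Type*} {a : ι → C} (h : FinDef k a) :
    FinDef k (fun i => s (a i)) := by
  obtain ⟨L, hL, h1⟩ := h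
  exact ⟨L.map s, inferInstance, fun i => ⟨a i, h1 i, rfl⟩⟩

end norm

/-! ### the action on `BD` -/

section BD

variable {k C : Type*} [NontriviallyNormedField k] [CompleteSpace k] [IsUltrametricDist k]
  [NormedField C] [IsUltrametricDist C] [NormedAlgebra k C] [Algebra.IsAlgebraic k C]

theorem map_mem_BD (s : C →ₐ[k] C) {f : PowerSeries C} (hf : f ∈ BD k C) :
    PowerSeries.map (s : C →+* C) f ∈ BD k C := by
  obtain ⟨h1, M, h2⟩ := hf
  refine ⟨?_, M, fun n => ?_⟩
  · have := finDef_map s h1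
    simpa [PowerSeries.coeff_map] using this
  · rw [PowerSeries.coeff_map]
    exact (norm_map s _).le.trans (h2 n)

/-- the action of `C ≃ₐ[k] C` on `BD k C` by ring automorphisms -/
noncomputable def actBD : (C ≃ₐ[k] C) →* (BD k C ≃+* BD k C) where
  toFun s :=
    { toFun := fun f => ⟨PowerSeries.map ((s : C →ₐ[k] C) : C →+* C) f.1, map_mem_BD _ f.2⟩
      invFun := fun f => ⟨PowerSeries.map (((s⁻¹ : C ≃ₐ[k] C) : C →ₐ[k] C) : C →+* C) f.1,
        map_mem_BD _ f.2⟩
      left_inv := fun f => by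
        apply Subtype.ext
        ext n
        simp [PowerSeries.coeff_map]
      right_inv := fun f => by
        apply Subtype.ext
        ext n
        simp [PowerSeries.coeff_map]
      map_mul' := fun f g => Subtype.ext (map_mul _ _ _)
      map_add' := fun f g => Subtype.ext (map_add _ _ _) }
  map_one' := by
    ext f n
    exact PowerSeries.coeff_map _ _ _
  map_mul' s t := by
    ext f n
    show PowerSeries.coeff n (PowerSeries.map _ _) = PowerSeries.coeff n (PowerSeries.map _ (PowerSeries.map _ _))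
    rw [PowerSeries.coeff_map, PowerSeries.coeff_map, PowerSeries.coeff_map]
    rfl

theorem actBD_coe (s : C ≃ₐ[k] C) (f : BD k C) :
    ((actBD s f : BD k C) : PowerSeries C) = PowerSeries.map ((s : C →ₐ[k] C) : C →+* C) f.1 := rfl

@[simp] theorem coeff_actBD (s : C ≃ₐ[k] C) (f : BD k C) (n : ℕ) :
    PowerSeries.coeff n ((actBD s f : BD k C) : PowerSeries C) = s (PowerSeries.coeff n f.1) := by
  rw [actBD_coe, PowerSeries.coeff_map]; rfl

theorem actBD_algebraMap (s : C ≃ₐ[k] C) (c : C) :
    actBD s (algebraMap C (BD k C) c) = algebraMap C (BD k C) (s c) := by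
  apply Subtype.ext
  ext n
  rw [coeff_actBD]
  show s (PowerSeries.coeff n (algebraMap C (PowerSeries C) c)) =
    PowerSeries.coeff n (algebraMap C (PowerSeries C) (s c))
  rw [PowerSeries.algebraMap_apply, PowerSeries.algebraMap_apply, Algebra.algebraMap_self,
    RingHom.id_apply, RingHom.id_apply, PowerSeries.coeff_C, PowerSeries.coeff_C]
  split_ifs
  · rfl
  · exact map_zero s

theorem actBD_X (s : C ≃ₐ[k] C) :
    actBD s (⟨PowerSeries.X, X_mem_BD⟩ : BD k C) = ⟨PowerSeries.X, X_mem_BD⟩ := by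
  apply Subtype.ext
  rw [actBD_coe]
  exact PowerSeries.map_X _

/-- every element of `BD` is fixed by an open subgroup -/
theorem exists_fix_BD (f : BD k C) : ∃ L : IntermediateField k C, FiniteDimensional k L ∧
    ∀ s : C ≃ₐ[k] C, (∀ c ∈ L, s c = c) → actBD s f = f := by
  obtain ⟨⟨L, hL, h1⟩, -⟩ := f.2
  refine ⟨L, hL, fun s hs => ?_⟩
  apply Subtype.ext
  ext n
  rw [coeff_actBD]
  exact hs _ (h1 n)

/-- evaluation is equivariant -/
theorem evp_map (s : C ≃ₐ[k] C) [IsAlgClosed C] {f : PowerSeries C} (hf : f ∈ BD k C) {t : C}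
    (ht : ‖t‖ < 1) :
    evp (s t) (PowerSeries.map ((s : C →ₐ[k] C) : C →+* C) f) = s (evp t f) := by
  have h := (summable_ev hf ht).hasSum
  have h2 := h.map (s : C →+ C) (continuous_mapE s)
  unfold evp
  rw [show s (∑' n, PowerSeries.coeff n f * t ^ n) = (s : C →+ C) (∑' n, PowerSeries.coeff n f * t ^ n)
    from rfl, ← h2.tsum_eq]
  refine tsum_congr fun n => ?_
  rw [PowerSeries.coeff_map]
  show s (PowerSeries.coeff n f) * (s t) ^ n = s (PowerSeries.coeff n f * t ^ n)
  rw [map_mul, map_pow]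

theorem ev_actBD (s : C ≃ₐ[k] C) [IsAlgClosed C] (f : BD k C) {t : C} (ht : ‖t‖ < 1)
    (ht' : ‖s t‖ < 1) : ev (k := k) (s t) ht' (actBD s f) = s (ev t ht f) :=
  evp_map s f.2 ht

end BD

/-! ### the action on a fraction field of `BD` -/

section Q

variable {k C : Type*} [NontriviallyNormedField k] [CompleteSpace k] [IsUltrametricDist k]
  [NormedField C] [IsUltrametricDist C] [NormedAlgebra k C] [Algebra.IsAlgebraic k C]
  (Q : Type*) [Field Q] [Algebra (BD k C) Q] [IsFractionRing (BD k C) Q]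

/-- one automorphism of `Q` -/
noncomputable def actQ1 (s : C ≃ₐ[k] C) : Q ≃+* Q :=
  IsFractionRing.ringEquivOfRingEquiv (K := Q) (L := Q) (actBD s)

theorem actQ1_algebraMap (s : C ≃ₐ[k] C) (f : BD k C) :
    actQ1 Q s (algebraMap (BD k C) Q f) = algebraMap (BD k C) Q (actBD s f) :=
  IsFractionRing.ringEquivOfRingEquiv_algebraMap _ _

theorem actQ1_one (x : Q) : actQ1 Q (1 : C ≃ₐ[k] C) x = x := by
  obtain ⟨a, b, hb, rfl⟩ := IsFractionRing.div_surjective (A := BD k C) x
  rw [map_div₀, actQ1_algebraMap, actQ1_algebraMap, map_one]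
  rfl

theorem actQ1_mul (s t : C ≃ₐ[k] C) (x : Q) : actQ1 Q (s * t) x = actQ1 Q s (actQ1 Q t x) := by
  obtain ⟨a, b, hb, rfl⟩ := IsFractionRing.div_surjective (A := BD k C) x
  rw [map_div₀, map_div₀, map_div₀, actQ1_algebraMap, actQ1_algebraMap, actQ1_algebraMap,
    actQ1_algebraMap, actQ1_algebraMap, actQ1_algebraMap, map_mul]
  rfl

/-- the action of `C ≃ₐ[k] C` on the fraction field `Q` of `BD k C` -/
noncomputable def actQ : (C ≃ₐ[k] C) →* (Q ≃+* Q) where
  toFun s := actQ1 Q s
  map_one' := RingEquiv.ext fun x => actQ1_one Q x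
  map_mul' s t := RingEquiv.ext fun x => actQ1_mul Q s t x

@[simp] theorem actQ_algebraMap (s : C ≃ₐ[k] C) (f : BD k C) :
    actQ Q s (algebraMap (BD k C) Q f) = algebraMap (BD k C) Q (actBD s f) :=
  actQ1_algebraMap Q s f

theorem exists_fix_Q (x : Q) : ∃ L : IntermediateField k C, FiniteDimensional k L ∧
    ∀ s : C ≃ₐ[k] C, (∀ c ∈ L, s c = c) → actQ Q s x = x := by
  obtain ⟨a, b, hb, rfl⟩ := IsFractionRing.div_surjective (A := BD k C) x
  obtain ⟨L, hL, h1⟩ := exists_fix_BD a
  obtain ⟨M, hM, h2⟩ := exists_fix_BD b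
  refine ⟨L ⊔ M, inferInstance, fun s hs => ?_⟩
  rw [map_div₀, actQ_algebraMap, actQ_algebraMap,
    h1 s fun c hc => hs c ((le_sup_left : L ≤ L ⊔ M) hc),
    h2 s fun c hc => hs c ((le_sup_right : M ≤ L ⊔ M) hc)]

end Q

/-! ### the action on `EE` -/

section EE

variable {k C : Type*} [NontriviallyNormedField k] [CompleteSpace k] [IsUltrametricDist k]
  [NormedField C] [IsUltrametricDist C] [NormedAlgebra k C] [Algebra.IsAlgebraic k C]

/-- the map on `EE` -/
noncomputable def mapEE (s : C →ₐ[k] C) (a : EE k C) : EE k C :=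
  mk' (fun n => s (a.co n)) (finDef_map s a.fd)
    (by obtain ⟨M, hM⟩ := a.bd; exact ⟨M, fun n => (norm_map s _).le.trans (hM n)⟩)
    (by
      have h := a.lim
      rw [tendsto_zero_iff_norm_tendsto_zero] at h ⊢
      simpa [norm_map] using h)

@[simp] theorem co_mapEE (s : C →ₐ[k] C) (a : EE k C) (n : ℤ) : (mapEE s a).co n = s (a.co n) := rfl

/-- the action of `C ≃ₐ[k] C` on `EE k C` -/
noncomputable def actEE : (C ≃ₐ[k] C) →* (EE k C ≃+* EE k C) where
  toFun s :=
    { toFun := mapEE (s : C →ₐ[k] C)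
      invFun := mapEE ((s⁻¹ : C ≃ₐ[k] C) : C →ₐ[k] C)
      left_inv := fun a => by ext n; simp
      right_inv := fun a => by ext n; simp
      map_mul' := fun a b => by
        ext n
        rw [co_mapEE, co_mul, co_mul]
        have h2 := (summable_conv a b n).hasSum.map (s : C →+ C) (continuous_mapE s)
        rw [show (s : C →ₐ[k] C) (∑' i, a.co i * b.co (n - i)) =
          (s : C →+ C) (∑' i, a.co i * b.co (n - i)) from rfl, ← h2.tsum_eq]
        refine tsum_congr fun i => ?_
        show s (a.co i * b.co (n - i)) = s (a.co i) * s (b.co (n - i))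
        rw [map_mul]
      map_add' := fun a b => by ext n; simp }
  map_one' := by ext a n; rfl
  map_mul' s t := by ext a n; rfl

@[simp] theorem co_actEE (s : C ≃ₐ[k] C) (a : EE k C) (n : ℤ) : (actEE s a).co n = s (a.co n) := rfl

theorem gn_actEE (s : C ≃ₐ[k] C) (a : EE k C) : gn (actEE s a) = gn a := by
  unfold gn
  simp [norm_mapE]

theorem od_actEE (s : C ≃ₐ[k] C) (a : EE k C) : od (actEE s a) = od a := by
  unfold od
  simp [norm_mapE, gn_actEE]

theorem actEE_mono (s : C ≃ₐ[k] C) (n : ℤ) (c : C) (hc : FinDef k (fun _ : Unit => c))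
    (hc' : FinDef k (fun _ : Unit => s c)) :
    actEE s (mono n c hc) = mono n (s c) hc' := by
  ext m
  rw [co_actEE, co_mono, co_mono]
  split_ifs
  · rfl
  · exact map_zero s

theorem exists_fix_EE (a : EE k C) : ∃ L : IntermediateField k C, FiniteDimensional k L ∧
    ∀ s : C ≃ₐ[k] C, (∀ c ∈ L, s c = c) → actEE s a = a := by
  obtain ⟨L, hL, h1⟩ := a.exists_inL
  refine ⟨L, hL, fun s hs => ?_⟩
  ext n
  exact hs _ (h1 n)

end EE

end Crest.Agent.R013.DEm_719
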