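import Crest.Agent.R013.SD1_940
import Crest.Agent.R013.HU11_522

/-!
# R013 / SD2: the end `emP` of a function field over `C` at a place, and its equivariance
(helper940)

`Y` a field over `C`, `phi : Y →+* maxUnramified k K` (`PH e E0 phi`).
* `io e J phi : Y →+* LaurentSeries C` : the expansion;
* `exists_N1` : for `N` large, `io z` is a quotient of elements of `jr (p^N) (BD)`;
* `emP` : the end, `emP_C`, `emP_hι`;
* `io_equiv`, `emP_equiv` : equivariance;
* `coeff_io_mem` : coefficients in a subfield.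
-/

set_option autoImplicit false
set_option linter.unusedSectionVars false

namespace Crest.Agent.R013.SD2_940

open scoped NNReal
open Crest.NumberTheoryR.Sect
open Crest.Agent.R013.Small2_940 Crest.Agent.R013.Small3_940 Crest.Agent.R013.Small4_940
open Crest.Agent.R013.Small5_940 Crest.Agent.R013.Good5_940 Crest.Agent.R013.SD1_940
open Crest.Agent.R013.Puis_702 (mapL coeff_mapL exists_pow_mul)
open Crest.Agent.R013.Cell_408 Crest.Agent.R013.EE809 Crest.Agent.R013.HU13_522
open Crest.Agent.R013.HU11_522 Crest.Agent.R013.HU8_522 Crest.Agent.R013.HU6_522 Crest.Agent.R013.HU3_522 Crest.Agent.R013.HU4_522 Crest.Agent.R013.HU2_522 Crest.Agent.R013.HU1_522 Crest.Agent.R013.HU7_522 Crest.Agent.R013.HU9_522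

variable {p : ℕ} [hpF : Fact p.Prime] {k : Type*} [Field k] [CharZero k] [Algebra ℚ_[p] k]
  [FiniteDimensional ℚ_[p] k]
  {K : Type*} [Field K] [Algebra k K]
  [Algebra (RatFunc k) K] [IsScalarTower k (RatFunc k) K] [FiniteDimensional (RatFunc k) K]
  {P : Valuation (AlgebraicClosure K) ℝ≥0} {x : K}
  {C : Type*} [NormedField C] [IsUltrametricDist C] [NormedAlgebra ℚ_[p] C]
  [Algebra.IsAlgebraic ℚ_[p] C]
  {Y : Type*} [Field Y] [Algebra C Y]

/-- `phi` embeds `Y` into `maxUnramified k K`, within `E0 · constants` -/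
structure PH (e : Cb k K ≃+* C) (E0 : IntermediateField K (AlgebraicClosure K))
    (phi : Y →+* maxUnramified k K) : Prop where
  con : ∀ c : C, phi (algebraMap C Y c) = iM k K (e.symm c)
  lev : ∀ z, (phi z : AlgebraicClosure K) ∈ E0 ⊔ IntermediateField.adjoin K (CbS k K)

/-- the expansion of `Y` at `P` -/
noncomputable def io (e : Cb k K ≃+* C) (J : maxUnramified k K →+* LaurentSeries (Cb k K))
    (phi : Y →+* maxUnramified k K) : Y →+* LaurentSeries C :=
  (mapL (e : Cb k K →+* C)).comp (J.comp phi)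

theorem io_apply (e : Cb k K ≃+* C) (J : maxUnramified k K →+* LaurentSeries (Cb k K))
    (phi : Y →+* maxUnramified k K) (z : Y) : io e J phi z = mapL (e : Cb k K →+* C) (J (phi z)) := rfl

theorem coeff_io (e : Cb k K ≃+* C) (J : maxUnramified k K →+* LaurentSeries (Cb k K))
    (phi : Y →+* maxUnramified k K) (z : Y) (i : ℤ) :
    (io e J phi z).coeff i = e ((J (phi z)).coeff i) := coeff_mapL _ _ _

variable {J : maxUnramified k K →+* LaurentSeries (Cb k K)} {e : Cb k K ≃+* C}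
  {E0 : IntermediateField K (AlgebraicClosure K)} {phi : Y →+* maxUnramified k K}

theorem io_C
    (hJ : IsExp (iM k K) (P.comap (algebraMap (maxUnramified k K) (AlgebraicClosure K)))
        (algebraMap K (maxUnramified k K) x) J) (h : PH e E0 phi) (c : C) :
    io e J phi (algebraMap C Y c) = HahnSeries.C c := by
  rw [io_apply, h.con, hJ.con, mapL_C, RingHom.coe_coe, RingEquiv.apply_symm_apply]

/-- **(J1)** -/
theorem exists_N1 (hP : IsRationalPlace k K (P.comap (algebraMap K (AlgebraicClosure K))))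
    (hx : IsUniformizerAt (P.comap (algebraMap K (AlgebraicClosure K))) x)
    (hJ : IsExp (iM k K) (P.comap (algebraMap (maxUnramified k K) (AlgebraicClosure K)))
        (algebraMap K (maxUnramified k K) x) J)
    (he : ∀ a : ℚ_[p], e (algebraMap k (Cb k K) (algebraMap ℚ_[p] k a)) = algebraMap ℚ_[p] C a)
    [FiniteDimensional K E0] (hE0 : E0 ≤ maxUnramified k K) :
    ∃ N0 : ℕ, ∀ N, N0 ≤ N → ∀ {Y : Type*} [Field Y] [Algebra C Y] {phi : Y →+* maxUnramified k K},
      PH e E0 phi → ∀ z : Y,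
      ∃ a b : BD ℚ_[p] C, b ≠ 0 ∧ io e J phi z * jr ℚ_[p] (rN p C N) b = jr ℚ_[p] (rN p C N) a := by
  obtain ⟨N0, h0⟩ := exists_N0 (p := p) hP hx hJ (e : Cb k K →+* C) he E0 hE0
  exact ⟨N0, fun N hN {Y} _ _ {phi} hphi z => mem_frR (h0 N hN (phi z) (hphi.lev z))⟩

section equiv

/-- equivariance of the expansion -/
theorem io_equiv
    (hJ : IsExp (iM k K) (P.comap (algebraMap (maxUnramified k K) (AlgebraicClosure K)))
        (algebraMap K (maxUnramified k K) x) J) (h : PH e E0 phi)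
    (g : Y →+* Y) (t : C →+* C) (hgc : ∀ c, g (algebraMap C Y c) = algebraMap C Y (t c))
    (Y0 : Set Y) (h0 : ∀ z ∈ Y0, g z = z)
    (hgen : ∀ z : Y, z ∈ Subfield.closure (Set.range (algebraMap C Y) ∪ Y0))
    (hco : ∀ z ∈ Y0, ∀ i, t ((io e J phi z).coeff i) = (io e J phi z).coeff i) (z : Y) :
    mapL t (io e J phi z) = io e J phi (g z) := by
  have h1 : Subfield.closure (Set.range (algebraMap C Y) ∪ Y0) ≤
      RingHom.eqLocusField ((mapL t).comp (io e J phi)) ((io e J phi).comp g) := by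
    rw [Subfield.closure_le]
    rintro z (⟨c, rfl⟩ | hz)
    · show mapL t (io e J phi (algebraMap C Y c)) = io e J phi (g (algebraMap C Y c))
      rw [hgc, io_C hJ h, io_C hJ h, mapL_C]
    · show mapL t (io e J phi z) = io e J phi (g z)
      rw [h0 z hz]
      refine HahnSeries.ext (funext fun i => ?_)
      rw [coeff_mapL]
      exact hco z hz i
  exact h1 (hgen z)

/-- the coefficients of the expansions of the elements of a subfield -/
theorem coeff_io_mem (hP : IsRationalPlace k K (P.comap (algebraMap K (AlgebraicClosure K))))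
    (hx : IsUniformizerAt (P.comap (algebraMap K (AlgebraicClosure K))) x)
    (hJ : IsExp (iM k K) (P.comap (algebraMap (maxUnramified k K) (AlgebraicClosure K)))
        (algebraMap K (maxUnramified k K) x) J) (h : PH e E0 phi)
    (Y0 : Subfield Y) (D : Subfield C) {x0 : Y} (hx0 : x0 ∈ Y0)
    (hxx : phi x0 = algebraMap K (maxUnramified k K) x)
    (hD : ∀ c ∈ D, algebraMap C Y c ∈ Y0)
    (hr : ∀ a ∈ Y0, P (phi a : AlgebraicClosure K) ≤ 1 →
      ∃ c ∈ D, P (phi (a - algebraMap C Y c) : AlgebraicClosure K) < 1)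
    {a : Y} (ha : a ∈ Y0) (i : ℤ) : (io e J phi a).coeff i ∈ D := by
  rw [coeff_io]
  have h1 := hJ.coeff_mem (ru_M hP hx) (Y0.map phi) (D.comap (e : Cb k K →+* C))
    ⟨x0, hx0, hxx⟩ (fun c hc => ⟨algebraMap C Y (e c), hD _ hc, by
      rw [h.con, RingEquiv.symm_apply_apply]⟩)
    (by
      rintro _ ⟨a, ha, rfl⟩ ha1
      obtain ⟨c, hc, hc1⟩ := hr a ha ha1
      refine ⟨e.symm c, ?_, ?_⟩
      · show e (e.symm c) ∈ D
        rwa [RingEquiv.apply_symm_apply]
      · rw [map_sub, h.con] at hc1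
        exact hc1) (a := phi a) ⟨a, ha, rfl⟩ i
  exact h1

end equiv

section emP

variable [CharZero C] [IsAlgClosed C] [hk : Fact (DiscNorm ℚ_[p])] {N : ℕ}
  (hN : ∀ z : Y, ∃ a b : BD ℚ_[p] C, b ≠ 0 ∧
    io e J phi z * jr ℚ_[p] (rN p C N) b = jr ℚ_[p] (rN p C N) a)

/-- **the end at the place** -/
noncomputable def emP : Y →+* EE ℚ_[p] C :=
  ofQ (jr ℚ_[p] (rN p C N)) (jr_injective (rN_ne_zero N)) (io e J phi) hN

theorem emP_hι : ∀ z, ∃ a b : BD ℚ_[p] C, b ≠ 0 ∧ emP hN z * bdE b = bdE a :=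
  ofQ_hι _ _ _ _

theorem emP_spec {z : Y} {a b : BD ℚ_[p] C} (hb : b ≠ 0)
    (h : io e J phi z * jr ℚ_[p] (rN p C N) b = jr ℚ_[p] (rN p C N) a) :
    emP hN z * bdE b = bdE a := ofQ_spec _ _ _ _ hb h

theorem emP_C
    (hJ : IsExp (iM k K) (P.comap (algebraMap (maxUnramified k K) (AlgebraicClosure K)))
        (algebraMap K (maxUnramified k K) x) J) (h : PH e E0 phi) (c : C) :
    emP hN (algebraMap C Y c) = mono 0 c (EE809.finDef_const c) :=
  ofQ_hc _ _ _ _ (fun c => by rw [io_C hJ h, jr_C]) c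

/-- the converse of `emP_spec` -/
theorem emP_iff {z : Y} {a b : BD ℚ_[p] C} (hb : b ≠ 0) :
    emP hN z * bdE b = bdE a ↔
      io e J phi z * jr ℚ_[p] (rN p C N) b = jr ℚ_[p] (rN p C N) a := by
  refine ⟨fun h => ?_, emP_spec hN hb⟩
  obtain ⟨a', b', hb', h'⟩ := hN z
  have h2 := emP_spec hN hb' h'
  have h3 : bdE a * bdE b' = (bdE a' * bdE b : EE ℚ_[p] C) := by
    rw [← h, ← h2]; ring
  rw [← map_mul, ← map_mul] at h3
  have h4 : a * b' = a' * b := bdE_injective h3
  have h5 := congrArg (jr ℚ_[p] (rN p C N)) h4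
  rw [map_mul, map_mul, ← h'] at h5
  have h6 : jr ℚ_[p] (rN p C N) b' ≠ 0 :=
    (map_ne_zero_iff _ (jr_injective (rN_ne_zero N))).mpr hb'
  refine mul_right_cancel₀ h6 ?_
  rw [h5]; ring

theorem mapL_jr (t : C →ₐ[ℚ_[p]] C) (ht : ∀ a, ‖t a‖ = ‖a‖) (f : BD ℚ_[p] C) :
    mapL (t : C →+* C) (jr ℚ_[p] (rN p C N) f) = jr ℚ_[p] (rN p C N) (BDmap t ht f) := by
  refine HahnSeries.ext (funext fun i => ?_)
  rw [coeff_mapL, jr_apply, jr_apply]
  rcases lt_or_ge i 0 with hi | hi
  · rw [PowerSeries.coeff_coe, PowerSeries.coeff_coe, if_pos hi, if_pos hi, map_zero]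
  · obtain ⟨n, rfl⟩ := Int.eq_ofNat_of_zero_le hi
    have h1 : ∀ f : PowerSeries C, (toL C f).coeff (n : ℤ) = PowerSeries.coeff n f := fun f =>
      HahnSeries.ofPowerSeries_apply_coeff _ _
    rw [h1, h1, PowerSeries.coeff_rescale, PowerSeries.coeff_rescale, BDmap_val,
      PowerSeries.coeff_map, map_mul, map_pow, map_inv₀]
    congr 3
    show t ((p : C) ^ N) = (p : C) ^ N
    rw [map_pow, map_natCast]

/-- **(J1')** equivariance of the end -/
theorem emP_equiv
    (g : Y →+* Y) (t : C →ₐ[ℚ_[p]] C) (ht : ∀ a, ‖t a‖ = ‖a‖)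
    (hio : ∀ z, mapL (t : C →+* C) (io e J phi z) = io e J phi (g z)) (z : Y) :
    emP hN (g z) = EEmap t ht (emP hN z) :=
  ofQ_map' _ _ _ _ t ht _ _ _ _ g (mapL (t : C →+* C)) (mapL_jr t ht) hio z

end emP

end Crest.Agent.R013.SD2_940
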