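import Crest.Agent.R013.CAsm2_588
import Crest.Agent.R013.SD2_940
import Crest.Agent.R013.DEm1_719

/-!
# Row 13, part C, assembly 3 (helper588): the place of `Y` and the equivariance of the end `emP`

`Y / KC` finite, unramified, `φ : Y →ₐ[K] AlgebraicClosure K`.
* `phM` : `φ` with values in `maxUnramified k K`; `exists_PH` : 940's `PH`;
* `ru_Y` : the place `P.comap φ` is rational over `C` with uniformiser `x`;
* `rat_of_fixed` : a place fixed by `Gal(Y/Y0)` is rational over `κ` on `Y0`;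
* `emP_gal` : equivariance of the end under `Gal(Y/Y0)`;
* `exists_extend_phi` : extension of embeddings.
-/

set_option autoImplicit false
set_option linter.style.haveILetI false
set_option linter.unusedSectionVars false

namespace Crest.Agent.R013.CAsm3_588

open scoped NNReal
open Module WithZero
open Crest.NumberTheoryR.Sect
open Crest.Agent.R013.RR7_948 Crest.Agent.R013.RR13_948 Crest.Agent.R013.RR18_948
open Crest.Agent.R013.Desc_372 Crest.Agent.R013.Desc_372.CE
open Crest.Agent.R013.Unr10_957 Crest.Agent.R013.Unr7_957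
open Crest.Agent.R013.Small2_940 Crest.Agent.R013.Small4_940
open Crest.Agent.R013.Good5_940 (CbS)
open Crest.Agent.R013.DescC_116 Crest.Agent.R013.CAsm2_588
open Crest.Agent.R013.Puis_702 (mapL coeff_mapL)
open Crest.Agent.R013.SD1_940 Crest.Agent.R013.SD2_940 Crest.Agent.R013.DEm_719
open Crest.Agent.R013.Cell_408 Crest.Agent.R013.EE809 Crest.Agent.R013.HU11_522

/-! ### rationality over `κ` -/

section fixed

variable {κ C Y0 Y : Type*} [Field κ] [Field C] [Field Y0] [Field Y] [Algebra κ C] [Algebra κ Y0]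
  [Algebra C Y] [Algebra Y0 Y] [Algebra κ Y] [IsScalarTower κ C Y] [IsScalarTower κ Y0 Y]
  [CE κ C Y0 Y] [IsGalois κ C]

/-- **a place of `Y` fixed by `Gal(Y/Y0)` is rational over `κ` on `Y0`** -/
theorem rat_of_fixed {PY : Valuation Y ℝ≥0} {x : Y} (h : RU (algebraMap C Y) PY x)
    (ht : ∀ c : C, c ≠ 0 → PY (algebraMap C Y c) = 1)
    (hfix : ∀ (g : Y ≃ₐ[Y0] Y) (z : Y), PY (g z) = PY z) (a : Y0)
    (ha : PY (algebraMap Y0 Y a) ≤ 1) :
    ∃ c : κ, PY (algebraMap Y0 Y a - algebraMap C Y (algebraMap κ C c)) < 1 := by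
  obtain ⟨c, hc⟩ := h.rat _ ha
  have h1 : ∀ s : C ≃ₐ[κ] C, s c = c := by
    intro s
    by_contra hne
    have h2 := hfix (CE.lift κ C Y0 Y s) (algebraMap Y0 Y a - algebraMap C Y c)
    rw [map_sub, AlgEquiv.commutes, lift_algebraMap] at h2
    have h3 : PY (algebraMap C Y (s c - c)) < 1 := by
      have h4 : algebraMap C Y (s c - c) = (algebraMap Y0 Y a - algebraMap C Y c) -
          (algebraMap Y0 Y a - algebraMap C Y (s c)) := by
        rw [map_sub]; ring
      rw [h4]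
      exact Valuation.map_sub_lt _ hc (by rw [h2]; exact hc)
    rw [ht _ (sub_ne_zero.mpr hne)] at h3
    exact lt_irrefl _ h3
  obtain ⟨c', hc'⟩ := (InfiniteGalois.mem_range_algebraMap_iff_fixed (k := κ) (K := C) c).mpr h1
  exact ⟨c', by rw [hc']; exact hc⟩

end fixed

section Y

variable {p : ℕ} [hpF : Fact p.Prime] {k : Type*} [Field k] [CharZero k] [Algebra ℚ_[p] k]
  [FiniteDimensional ℚ_[p] k]
  {K : Type*} [Field K] [Algebra k K]
  [Algebra (RatFunc k) K] [IsScalarTower k (RatFunc k) K] [FiniteDimensional (RatFunc k) K]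
  {P : Valuation (AlgebraicClosure K) ℝ≥0} {x : K}
  {C : Type*} [NormedField C] [IsUltrametricDist C] [NormedAlgebra ℚ_[p] C]
  [Algebra.IsAlgebraic ℚ_[p] C] [IsAlgClosed C] [Algebra k C] [IsScalarTower ℚ_[p] k C]
  {KC : Type*} [Field KC] [Algebra C KC] [Algebra K KC] [Algebra k KC]
  [IsScalarTower k C KC] [IsScalarTower k K KC] [CE k C K KC]
  {Y : Type*} [Field Y] [Algebra C Y] [Algebra K Y] [Algebra k Y] [IsScalarTower k C Y]
  [IsScalarTower k K Y]
  [Algebra KC Y] [IsScalarTower K KC Y] [IsScalarTower C KC Y] [FiniteDimensional KC Y]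

variable (k C KC) in
/-- `φ` with values in `maxUnramified k K` -/
noncomputable def phM (h : UnrEv C KC Y) (φ : Y →ₐ[K] AlgebraicClosure K) :
    Y →+* maxUnramified k K :=
  haveI : Algebra.IsAlgebraic k C := Algebra.IsAlgebraic.tower_top (K := ℚ_[p]) k
  (φ : Y →+* AlgebraicClosure K).codRestrict (maxUnramified k K) (phi_mem k C KC h φ)

theorem coe_phM (h : UnrEv C KC Y) (φ : Y →ₐ[K] AlgebraicClosure K) (z : Y) :
    (phM (p := p) k C KC h φ z : AlgebraicClosure K) = φ z := rfl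

theorem phM_K (h : UnrEv C KC Y) (φ : Y →ₐ[K] AlgebraicClosure K) (z : K) :
    phM (p := p) k C KC h φ (algebraMap K Y z) = algebraMap K (maxUnramified k K) z :=
  Subtype.ext (φ.commutes z)

/-- **the embedding in 940's form** -/
theorem exists_PH (h : UnrEv C KC Y) (φ : Y →ₐ[K] AlgebraicClosure K) :
    ∃ (e : Cb k K ≃+* C) (E0 : IntermediateField K (AlgebraicClosure K)),
      FiniteDimensional K E0 ∧ E0 ≤ maxUnramified k K ∧ PH e E0 (phM (p := p) k C KC h φ) ∧
      ∀ a : ℚ_[p], e (algebraMap k (Cb k K) (algebraMap ℚ_[p] k a)) = algebraMap ℚ_[p] C a := by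
  haveI : Algebra.IsAlgebraic k C := Algebra.IsAlgebraic.tower_top (K := ℚ_[p]) k
  obtain ⟨e, he, heC⟩ := exists_e (k := k) (C := C) φ
  obtain ⟨E0, h1, h2, h3⟩ := exists_E0 k C KC h φ
  refine ⟨e, E0, h1, h2, ⟨fun c => Subtype.ext ?_, fun z => h3 z⟩, fun a => ?_⟩
  · exact heC c
  · rw [he, ← IsScalarTower.algebraMap_apply]

variable {e : Cb k K ≃+* C} {E0 : IntermediateField K (AlgebraicClosure K)}

/-- the place of `Y` is rational over `C`, with uniformiser `x` -/
theorem ru_Y (hP : IsRationalPlace k K (P.comap (algebraMap K (AlgebraicClosure K))))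
    (hx : IsUniformizerAt (P.comap (algebraMap K (AlgebraicClosure K))) x)
    (h : UnrEv C KC Y) (φ : Y →ₐ[K] AlgebraicClosure K) (he : PH e E0 (phM (p := p) k C KC h φ)) :
    RU (algebraMap C Y) (P.comap (φ : Y →+* AlgebraicClosure K)) (algebraMap K Y x) where
  rat a ha := by
    obtain ⟨c, hc⟩ := (ru_M hP hx).rat (phM (p := p) k C KC h φ a) ha
    refine ⟨e c, ?_⟩
    have h1 : iM k K c = phM (p := p) k C KC h φ (algebraMap C Y (e c)) := by
      rw [he.con, RingEquiv.symm_apply_apply]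
    rw [h1, ← map_sub] at hc
    exact hc
  lt_one := by
    have h1 := (ru_M hP hx).lt_one
    rw [← phM_K (p := p) h φ] at h1
    exact h1
  unif a ha := by
    have h1 := (ru_M hP hx).unif (phM (p := p) k C KC h φ a) ha
    rw [← phM_K (p := p) h φ] at h1
    exact h1
  ne := by
    have h1 := (ru_M hP hx).ne
    intro h0
    apply h1
    rw [← phM_K (p := p) h φ, h0, map_zero]

theorem triv_Y (hP : IsRationalPlace k K (P.comap (algebraMap K (AlgebraicClosure K))))
    (h : UnrEv C KC Y) (φ : Y →ₐ[K] AlgebraicClosure K) (he : PH e E0 (phM (p := p) k C KC h φ))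
    (c : C) (hc : c ≠ 0) : (P.comap (φ : Y →+* AlgebraicClosure K)) (algebraMap C Y c) = 1 := by
  have h1 := he.con c
  have h2 : φ (algebraMap C Y c) = ((e.symm c : Cb k K) : AlgebraicClosure K) :=
    congrArg (fun z : maxUnramified k K => (z : AlgebraicClosure K)) h1
  show P (φ (algebraMap C Y c)) = 1
  rw [h2]
  refine triv_const hP (isAlgebraic_iff_isIntegral.mp (mem_algebraicClosure_iff.mp (e.symm c).2)) ?_
  intro h0
  apply hc
  have h3 : e.symm c = 0 := Subtype.ext h0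
  simpa using h3

theorem isPlace_Y (hP : IsRationalPlace k K (P.comap (algebraMap K (AlgebraicClosure K))))
    (hx : IsUniformizerAt (P.comap (algebraMap K (AlgebraicClosure K))) x)
    (h : UnrEv C KC Y) (φ : Y →ₐ[K] AlgebraicClosure K) (he : PH e E0 (phM (p := p) k C KC h φ)) :
    IsPlace C (P.comap (φ : Y →+* AlgebraicClosure K)) := by
  refine ⟨triv_Y hP h φ he, algebraMap K Y x, ?_, (ru_Y hP hx h φ he).lt_one.ne⟩
  exact (Valuation.ne_zero_iff _).mpr (ru_Y hP hx h φ he).ne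

/-! ### equivariance -/

section equiv

variable {κ Y0 : Type*} [Field κ] [Field Y0] [Algebra κ C] [Algebra κ Y0]
  [Algebra Y0 Y] [Algebra κ Y] [IsScalarTower κ C Y] [IsScalarTower κ Y0 Y] [CE κ C Y0 Y]
  [Algebra ℚ_[p] κ] [IsScalarTower ℚ_[p] κ C] [IsGalois κ C]
  {J : maxUnramified k K →+* LaurentSeries (Cb k K)}

/-- the automorphism of the constants -/
noncomputable def resQ (κ Y0 : Type*) [Field κ] [Field Y0] [Algebra κ C] [Algebra κ Y0]
    [Algebra Y0 Y] [Algebra κ Y] [IsScalarTower κ C Y] [IsScalarTower κ Y0 Y] [CE κ C Y0 Y]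
    [Algebra ℚ_[p] κ] [IsScalarTower ℚ_[p] κ C] [IsGalois κ C] (g : Y ≃ₐ[Y0] Y) : C ≃ₐ[ℚ_[p]] C :=
  (CE.res κ C Y0 Y g).restrictScalars ℚ_[p]

theorem mapL_io (hP : IsRationalPlace k K (P.comap (algebraMap K (AlgebraicClosure K))))
    (hx : IsUniformizerAt (P.comap (algebraMap K (AlgebraicClosure K))) x)
    (hJ : IsExp (iM k K) (P.comap (algebraMap (maxUnramified k K) (AlgebraicClosure K)))
        (algebraMap K (maxUnramified k K) x) J)
    (h : UnrEv C KC Y) (φ : Y →ₐ[K] AlgebraicClosure K) (he : PH e E0 (phM (p := p) k C KC h φ))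
    (hx0 : algebraMap K Y x ∈ Set.range (algebraMap Y0 Y))
    (hfix : ∀ (g : Y ≃ₐ[Y0] Y) (z : Y), P (φ (g z)) = P (φ z)) (g : Y ≃ₐ[Y0] Y) (z : Y) :
    mapL ((resQ (p := p) (C := C) κ Y0 g : C →ₐ[ℚ_[p]] C) : C →+* C)
      (io e J (phM (p := p) k C KC h φ) z) = io e J (phM (p := p) k C KC h φ) (g z) := by
  have hgc : ∀ c, g (algebraMap C Y c) = algebraMap C Y (resQ (p := p) (C := C) κ Y0 g c) :=
    fun c => (algebraMap_res κ C Y0 Y g c).symm
  refine io_equiv hJ he (g : Y →+* Y)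
    ((resQ (p := p) (C := C) κ Y0 g : C →ₐ[ℚ_[p]] C) : C →+* C) hgc (Set.range (algebraMap Y0 Y))
    ?_ ?_ ?_ z
  · rintro _ ⟨a, rfl⟩
    exact g.commutes a
  · intro z
    obtain ⟨n, c, b, rfl⟩ := exists_sum κ C Y0 Y z
    refine sum_mem fun i _ => ?_
    exact mul_mem (Subfield.subset_closure (Or.inl ⟨_, rfl⟩))
      (Subfield.subset_closure (Or.inr ⟨_, rfl⟩))
  · rintro _ ⟨a, rfl⟩ i
    obtain ⟨x0, hx0⟩ := hx0
    have h1 := coeff_io_mem hP hx hJ he (algebraMap Y0 Y).fieldRange (algebraMap κ C).fieldRange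
      (x0 := algebraMap K Y x) ⟨x0, hx0⟩ (phM_K h φ x)
      (by
        rintro _ ⟨c, rfl⟩
        exact ⟨algebraMap κ Y0 c, by
          rw [← IsScalarTower.algebraMap_apply, ← IsScalarTower.algebraMap_apply]⟩)
      (by
        rintro _ ⟨a, rfl⟩ ha1
        obtain ⟨c, hc⟩ := rat_of_fixed (κ := κ) (ru_Y hP hx h φ he) (triv_Y hP h φ he)
          hfix a ha1
        exact ⟨_, ⟨c, rfl⟩, hc⟩) (a := algebraMap Y0 Y a) ⟨a, rfl⟩ i
    obtain ⟨c, hc⟩ := h1
    rw [← hc]
    exact (CE.res κ C Y0 Y g).commutes c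

variable [CharZero C] [hk : Fact (DiscNorm ℚ_[p])] {N : ℕ}

/-- **equivariance of the end at the place** -/
theorem emP_gal (hP : IsRationalPlace k K (P.comap (algebraMap K (AlgebraicClosure K))))
    (hx : IsUniformizerAt (P.comap (algebraMap K (AlgebraicClosure K))) x)
    (hJ : IsExp (iM k K) (P.comap (algebraMap (maxUnramified k K) (AlgebraicClosure K)))
        (algebraMap K (maxUnramified k K) x) J)
    (h : UnrEv C KC Y) (φ : Y →ₐ[K] AlgebraicClosure K) (he : PH e E0 (phM (p := p) k C KC h φ))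
    (hN : ∀ z : Y, ∃ a b : BD ℚ_[p] C, b ≠ 0 ∧
      io e J (phM (p := p) k C KC h φ) z * jr ℚ_[p] (rN p C N) b = jr ℚ_[p] (rN p C N) a)
    (hx0 : algebraMap K Y x ∈ Set.range (algebraMap Y0 Y))
    (hfix : ∀ (g : Y ≃ₐ[Y0] Y) (z : Y), P (φ (g z)) = P (φ z)) (g : Y ≃ₐ[Y0] Y) (z : Y) :
    emP hN (g z) = EEmap ((resQ (p := p) (C := C) κ Y0 g : C ≃ₐ[ℚ_[p]] C) : C →ₐ[ℚ_[p]] C)
      (norm_mapE (k := ℚ_[p]) (resQ (p := p) (C := C) κ Y0 g)) (emP hN z) :=
  emP_equiv hN (g : Y →+* Y) _ _ (mapL_io hP hx hJ h φ he hx0 hfix g) z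

end equiv

end Y

/-! ### extension of embeddings -/

/-- an embedding extends to an algebraic extension -/
theorem exists_extend_phi {K K' Y Ω : Type*} [Field K] [Field K'] [Field Y] [Field Ω]
    [IsAlgClosed Ω] [Algebra K K'] [Algebra K' Y] [Algebra K Y] [IsScalarTower K K' Y]
    [Algebra.IsAlgebraic K' Y] [Algebra K Ω] (φ' : K' →ₐ[K] Ω) :
    ∃ φ : Y →ₐ[K] Ω, ∀ z, φ (algebraMap K' Y z) = φ' z := by
  letI : Algebra K' Ω := (φ' : K' →+* Ω).toAlgebra
  haveI : IsScalarTower K K' Ω := IsScalarTower.of_algebraMap_eq fun a => (φ'.commutes a).symm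
  let ψ : Y →ₐ[K'] Ω := IsAlgClosed.lift
  exact ⟨ψ.restrictScalars K, fun z => ψ.commutes z⟩

end Crest.Agent.R013.CAsm3_588
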