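import Crest.Agent.R013.CB1i_903
import Crest.Agent.R013.RedD7_310
import Crest.Agent.R013.A2c_398

/-!
# Row 13, part C, assembly 4 (helper588): counting vertices

* `card_genus0_lt` : `#{vertices of genus 0} < #edges` if `#V ≤ #E` and the genus is at least `2`.
* `card_V0` : the vertices of the inherited structure over the vertices of genus `0`.
-/

set_option autoImplicit false
set_option linter.style.haveILetI false
set_option linter.unusedSectionVars false

namespace Crest.Agent.R013.CAsm4_588

open scoped NNReal
open Module WithZero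
open Crest.Agent.R013.RR7_948 Crest.Agent.R013.RR11_948
open Crest.Agent.R013.Red332 Crest.Agent.R013.SSK_332 Crest.Agent.R013.Cell_408
open Crest.Agent.R013.GR3_921 Crest.Agent.R013.CB1_903

section

variable {k : Type*} [NontriviallyNormedField k] [CompleteSpace k] [IsUltrametricDist k]
variable {C : Type*} [NormedField C] [IsUltrametricDist C] [NormedAlgebra k C]
  [Algebra.IsAlgebraic k C] [IsAlgClosed C] [hk : Fact (DiscNorm k)]
variable {K : Type*} [Field K] [Algebra C K]

/-- every vertex has a genus -/
theorem exists_gen_vertex (S : SSK k C K) (v : S.V) : ∃ g, HasGen (Ct C) (kap (S.nm v)) g := by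
  obtain ⟨i, j, f, s⟩ := S.ff v
  exact ⟨_, hasGen_gen (Ct C) (kap (S.nm v))⟩

/-- **there are fewer vertices of genus `0` than edges** -/
theorem card_genus0_lt (S : SSK k C K) {g : ℕ} (hg : HasGen C K g) (h2 : 2 ≤ g)
    (hVE : nV S ≤ nE S) :
    Nat.card {v : S.V // HasGen (Ct C) (kap (S.nm v)) 0} < nE S := by
  classical
  letI := S.fV
  letI := S.fEd
  choose γ hγ using exists_gen_vertex S
  obtain ⟨i, j, f, s, -⟩ := id hg
  have h1 := RedD_310.genus_hasGen S hg hγ
  have h3 : Nat.card {v : S.V // HasGen (Ct C) (kap (S.nm v)) 0} ≤ Fintype.card S.V := by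
    rw [Nat.card_eq_fintype_card]
    exact Fintype.card_subtype_le _
  have hVE' : Fintype.card S.V ≤ Fintype.card S.Ed := hVE
  rcases Nat.lt_or_ge (Nat.card {v : S.V // HasGen (Ct C) (kap (S.nm v)) 0}) (Fintype.card S.Ed)
    with h | h
  · exact h
  · exfalso
    have h4 : Fintype.card {v : S.V // HasGen (Ct C) (kap (S.nm v)) 0} = Fintype.card S.V := by
      rw [Nat.card_eq_fintype_card] at h h3
      omega
    have h5 : ∀ v : S.V, HasGen (Ct C) (kap (S.nm v)) 0 := by
      have h6 := (Fintype.card_subtype (fun v : S.V => HasGen (Ct C) (kap (S.nm v)) 0)).symm.trans h4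
      have h7 := (Finset.card_eq_iff_eq_univ _).mp h6
      intro v
      have h8 : v ∈ Finset.univ.filter (fun v : S.V => HasGen (Ct C) (kap (S.nm v)) 0) := by
        rw [h7]; exact Finset.mem_univ v
      exact (Finset.mem_filter.mp h8).2
    haveI := RedD_310.isAlgClosed_Ct (C := C)
    have h9 : ∑ v, γ v = 0 := Finset.sum_eq_zero fun v _ => (hγ v).unique (h5 v)
    rw [h9] at h1
    rw [Nat.card_eq_fintype_card, h4] at h
    omega

end

end Crest.Agent.R013.CAsm4_588
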