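import Crest.Agent.R013.CAsm3_588

/-!
# Row 13, part C, assembly 5 (helper588): the place of `Y` as an element of `Pl C Y`

* `exists_plY` : `Q : Pl C Y` equivalent to `P.comap φ`;
* `hrat_of_fixed` : if `Q` is fixed by `Gal(Y/Y0)`, then `P ∘ φ` is rational over `κ` on `Y0`;
* `v_algebraMap_of_ext` : `Q` lies over the place of `K'` given by the restriction of `φ`.
-/

set_option autoImplicit false
set_option linter.style.haveILetI false
set_option linter.unusedSectionVars false

namespace Crest.Agent.R013.CAsm5_588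

open scoped NNReal
open Module WithZero
open Crest.NumberTheoryR.Sect
open Crest.Agent.R013.RR7_948 Crest.Agent.R013.RR13_948 Crest.Agent.R013.RR18_948
open Crest.Agent.R013.Desc_372 Crest.Agent.R013.Desc_372.CE
open Crest.Agent.R013.Unr10_957 Crest.Agent.R013.Unr7_957
open Crest.Agent.R013.Small2_940 Crest.Agent.R013.Small4_940
open Crest.Agent.R013.DescC_116 Crest.Agent.R013.CAsm2_588 Crest.Agent.R013.CAsm3_588
open Crest.Agent.R013.SD2_940

section ov

variable {C K' Y : Type*} [Field C] [Field K'] [Field Y] [Algebra C K'] [Algebra C Y]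
  [Algebra K' Y] [IsScalarTower C K' Y]
  [Algebra (RatFunc C) K'] [IsScalarTower C (RatFunc C) K'] [FiniteDimensional (RatFunc C) K']
  [Algebra.IsSeparable (RatFunc C) K'] [FiniteDimensional K' Y] [Algebra.IsSeparable K' Y]

/-- `Q` lies over `Q'`, with ramification index `1` -/
theorem v_algebraMap_of_ext {v : Valuation Y ℝ≥0} {Q : Pl C Y} {Q' : Pl C K'}
    (hQ : Q.v.IsEquiv v) (hQ' : Q'.v.IsEquiv (v.comap (algebraMap K' Y))) (hU : UnrEv C K' Y)
    (z : K') : Q.v (algebraMap K' Y z) = Q'.v z := by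
  have h1 : Q'.v.IsEquiv (Q.v.comap (algebraMap K' Y)) :=
    hQ'.trans (hQ.comap (algebraMap K' Y)).symm
  have h2 : under K' Q = Q' := under_eq_of_isEquiv h1
  rw [v_algebraMap, h2, (eR_eq_one_iff_unrEv.mpr hU) Q, pow_one]

end ov

section Y

variable {p : ℕ} [hpF : Fact p.Prime] {k : Type*} [Field k] [CharZero k] [Algebra ℚ_[p] k]
  [FiniteDimensional ℚ_[p] k]
  {K : Type*} [Field K] [Algebra k K]
  [Algebra (RatFunc k) K] [IsScalarTower k (RatFunc k) K] [FiniteDimensional (RatFunc k) K]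
  {P : Valuation (AlgebraicClosure K) ℝ≥0} {x : K}
  {C : Type*} [NormedField C] [IsUltrametricDist C] [NormedAlgebra ℚ_[p] C]
  [Algebra.IsAlgebraic ℚ_[p] C] [IsAlgClosed C] [Algebra k C] [IsScalarTower ℚ_[p] k C]
  {KC : Type*} [Field KC] [Algebra C KC] [Algebra K KC] [Algebra k KC]
  [IsScalarTower k C KC] [IsScalarTower k K KC] [CE k C K KC]
  {Y : Type*} [Field Y] [Algebra C Y] [Algebra K Y] [Algebra k Y] [IsScalarTower k C Y]
  [IsScalarTower k K Y]
  [Algebra KC Y] [IsScalarTower K KC Y] [IsScalarTower C KC Y] [FiniteDimensional KC Y]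

include p in
/-- the place of `Y` given by `P` and `φ` -/
theorem exists_plY [Algebra (RatFunc C) Y] [IsScalarTower C (RatFunc C) Y]
    [FiniteDimensional (RatFunc C) Y] [Algebra.IsSeparable (RatFunc C) Y]
    (hP : IsRationalPlace k K (P.comap (algebraMap K (AlgebraicClosure K))))
    (hx : IsUniformizerAt (P.comap (algebraMap K (AlgebraicClosure K))) x)
    (h : UnrEv C KC Y) (φ : Y →ₐ[K] AlgebraicClosure K) :
    ∃ Q : Pl C Y, Q.v.IsEquiv (P.comap (φ : Y →+* AlgebraicClosure K)) := by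
  obtain ⟨e, E0, -, -, he, -⟩ := exists_PH (p := p) (k := k) (KC := KC) h φ
  exact IsPlace.exists_pl (isPlace_Y hP hx h φ he)

variable {κ Y0 : Type*} [Field κ] [Field Y0] [Algebra κ C] [Algebra κ Y0]
  [Algebra Y0 Y] [Algebra κ Y] [IsScalarTower κ C Y] [IsScalarTower κ Y0 Y] [CE κ C Y0 Y]
  [IsGalois κ C]

include p in
/-- **rationality over `κ`** (940's `hrat`) -/
theorem hrat_of_fixed (hP : IsRationalPlace k K (P.comap (algebraMap K (AlgebraicClosure K))))
    (hx : IsUniformizerAt (P.comap (algebraMap K (AlgebraicClosure K))) x)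
    (h : UnrEv C KC Y) (φ : Y →ₐ[K] AlgebraicClosure K) {Q : Pl C Y}
    (hQ : Q.v.IsEquiv (P.comap (φ : Y →+* AlgebraicClosure K)))
    (hfix : ∀ (g : Y ≃ₐ[Y0] Y) (f : Y), Q.v (g f) = Q.v f) (a : Y0)
    (ha : P (φ (algebraMap Y0 Y a)) ≤ 1) :
    ∃ c : κ, P (φ (algebraMap Y0 Y a - algebraMap κ Y c)) < 1 := by
  obtain ⟨e, E0, -, -, he, -⟩ := exists_PH (p := p) (k := k) (KC := KC) h φ
  have hru := ru_Y hP hx h φ he
  have htr := triv_Y hP h φ he
  set v := P.comap (φ : Y →+* AlgebraicClosure K) with hv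
  have hlt : ∀ z : Y, v z < 1 ↔ Q.v z < 1 := fun z => (hQ.lt_one_iff_lt_one (x := z)).symm
  obtain ⟨c, hc⟩ := hru.rat (algebraMap Y0 Y a) ha
  have h1 : ∀ s : C ≃ₐ[κ] C, s c = c := by
    intro s
    by_contra hne
    have h2 : v (CE.lift κ C Y0 Y s (algebraMap Y0 Y a - algebraMap C Y c)) < 1 := by
      rw [hlt, hfix, ← hlt]
      exact hc
    rw [map_sub, AlgEquiv.commutes, lift_algebraMap] at h2
    have h3 : v (algebraMap C Y (s c - c)) < 1 := by
      have h4 : algebraMap C Y (s c - c) = (algebraMap Y0 Y a - algebraMap C Y c) -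
          (algebraMap Y0 Y a - algebraMap C Y (s c)) := by
        rw [map_sub]; ring
      rw [h4]
      exact Valuation.map_sub_lt _ hc h2
    rw [htr _ (sub_ne_zero.mpr hne)] at h3
    exact lt_irrefl _ h3
  obtain ⟨c', hc'⟩ := (InfiniteGalois.mem_range_algebraMap_iff_fixed (k := κ) (K := C) c).mpr h1
  refine ⟨c', ?_⟩
  rw [IsScalarTower.algebraMap_apply κ C Y, hc']
  exact hc

end Y

end Crest.Agent.R013.CAsm5_588
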