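import Crest.Agent.R013.CY9_957

/-!
# R013 / CY10 (helper957): **the output `YOut` of stage (C)**
-/

set_option autoImplicit false
set_option linter.unusedSectionVars false
set_option linter.style.haveILetI false

namespace Crest.Agent.R013.CY_957

open scoped NNReal
open Module WithZero
open Crest.NumberTheoryR.Sect
open Crest.Agent.R013.RR7_948 Crest.Agent.R013.Cell_408 Crest.Agent.R013.EE809
open Crest.Agent.R013.SSK_332 Crest.Agent.R013.Inh_770 Crest.Agent.R013.Red332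
open Crest.Agent.R013.TopE1_957 Crest.Agent.R013.TopE4_957 Crest.Agent.R013.TopE7_957
open Crest.Agent.R013.Unr10_957
open Crest.Agent.R013.Desc_372 Crest.Agent.R013.DEm_719 Crest.Agent.R013.DEm_719.GalAct
open Crest.Agent.R013.Kumv2_275 Crest.Agent.R013.Rank_770

universe w

/-- **Output of stage (C)** for the degree `n`: the topological cover `Y = W K` of degree `n` over
the fixed level `κ` (`M = K₀` the model of `K` over `κ`, `Y₀ = W M` the model of `Y`).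
`K / K1` is the cover `P : Spl S K` of (A2), `D1` the directions of `S` defined over `κ`. -/
structure YOut {k C K1 : Type*} {K : Type w} [NontriviallyNormedField k] [CompleteSpace k]
    [IsUltrametricDist k] [NormedField C] [IsUltrametricDist C] [NormedAlgebra k C]
    [Algebra.IsAlgebraic k C] [IsAlgClosed C] [hk : Fact (DiscNorm k)] [Field K1] [Field K]
    [Algebra C K1] [Algebra C K] [Algebra K1 K] [IsScalarTower C K1 K]
    [FiniteDimensional K1 K] [IsGalois K1 K]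
    [Algebra (RatFunc C) K1] [IsScalarTower C (RatFunc C) K1]
    [FiniteDimensional (RatFunc C) K1] [Algebra.IsSeparable (RatFunc C) K1]
    {S : SSK k C K1} (P : Spl S K)
    (κ M : Type*) [Field κ] [Field M] [Algebra k κ] [Algebra κ C] [IsScalarTower k κ C]
    [Algebra κ M] [Algebra κ K] [Algebra M K] [IsScalarTower κ C K] [IsScalarTower κ M K]
    [CE κ C M K] (D1 : Set S.Dir) (n : ℕ) where
  /-- the cover -/
  Y : Type w
  /-- its model over `κ` -/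
  Y₀ : Type w
  [fY : Field Y]
  [fY₀ : Field Y₀]
  [aCY : Algebra C Y]
  [aK1Y : Algebra K1 Y]
  [aKY : Algebra K Y]
  [aκY : Algebra κ Y]
  [aMY : Algebra M Y]
  [aκY₀ : Algebra κ Y₀]
  [aMY₀ : Algebra M Y₀]
  [aYY : Algebra Y₀ Y]
  [aRY : Algebra (RatFunc C) Y]
  [tCK1Y : IsScalarTower C K1 Y]
  [tCKY : IsScalarTower C K Y]
  [tK1KY : IsScalarTower K1 K Y]
  [tκCY : IsScalarTower κ C Y]
  [tκYY : IsScalarTower κ Y₀ Y]
  [tMKY : IsScalarTower M K Y]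
  [tMYY : IsScalarTower M Y₀ Y]
  [tκMY₀ : IsScalarTower κ M Y₀]
  [tCRY : IsScalarTower C (RatFunc C) Y]
  [tRK1Y : IsScalarTower (RatFunc C) K1 Y]
  [fdR : FiniteDimensional (RatFunc C) Y]
  [fdK1 : FiniteDimensional K1 Y]
  [galK1 : IsGalois K1 Y]
  [fdK : FiniteDimensional K Y]
  [galK : IsGalois K Y]
  [fdM : FiniteDimensional M Y₀]
  [galM : IsGalois M Y₀]
  [ce : CE κ C Y₀ Y]
  finrank_K : finrank K Y = n
  cyc : IsCyclic (Y ≃ₐ[K] Y)
  unr : UnrEv C K Y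
  splitN : ∀ v : Valuation K ℝ≥0, (∀ c : C, v (algebraMap C K c) ≤ ‖c‖₊) → SplitAt v Y
  splitP : ∀ v : Valuation K ℝ≥0, IsPlace C v → SplitAt v Y
  const : algebraicClosure κ Y₀ = ⊥
  /-- the covering group of `K / K1` acts on `Y` -/
  cov : (K ≃ₐ[K1] K) →* (Y ≃ₐ[K1] Y)
  cov_K : ∀ a (f : K), cov a (algebraMap K Y f) = algebraMap K Y (a f)
  cov_comm : ∀ a (τ : Y ≃ₐ[K] Y) f, cov a (τ f) = τ (cov a f)
  /-- `Gal(Y/K1)` is defined over `κ` -/
  res_Y₀ : ∀ (σ : Y ≃ₐ[K1] Y) (f : Y₀), ∃ f' : Y₀, σ (algebraMap Y₀ Y f) = algebraMap Y₀ Y f'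
  gal_comm : ∀ (σ : Y ≃ₐ[K1] Y) (s : C ≃ₐ[κ] C) (f : Y),
    σ (CE.lift κ C Y₀ Y s f) = CE.lift κ C Y₀ Y s (σ f)
  /-- the semistable structure of `Y` is `PY.inh` -/
  PY : Spl S Y
  /-- it is defined over `κ` -/
  lvl : Lvl PY.inh κ Y₀ (⊥ : IntermediateField κ C) {y | (dI PY y).1 ∈ D1}
  /-- a norm of `Y` over a Galois invariant norm of `K` is Galois invariant -/
  norm_fix : ∀ (v : Valuation Y ℝ≥0), (∀ c : C, v (algebraMap C Y c) = ‖c‖₊) → ∀ s : C ≃ₐ[κ] C,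
    (∀ f : K, v (algebraMap K Y (CE.lift κ C M K s f)) = v (algebraMap K Y f)) →
    ∀ F, v (CE.lift κ C Y₀ Y s F) = v F
  /-- a place of `Y` over a Galois invariant place of `K` is Galois invariant -/
  place_fix : ∀ (Q : Pl C Y) (s : C ≃ₐ[κ] C),
    (∀ f : K, Q.v (algebraMap K Y (CE.lift κ C M K s f)) = Q.v (algebraMap K Y f)) →
    ∀ F, Q.v (CE.lift κ C Y₀ Y s F) = Q.v F
  /-- residue fields of vertices -/
  kap : ∀ v : PY.inh.V, Function.Bijective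
    (kapMap (P.inh.nm (vY P PY v)) (PY.inh.nm v) (comap_vY P PY v))
  /-- stabilisers -/
  fix_iff : ∀ (a : K ≃ₐ[K1] K) (v : PY.inh.V),
    Fix (cov a) (PY.inh.nm v) ↔ Fix a (P.inh.nm (vY P PY v))
  /-- the rank -/
  rank : ∀ {F : Type} [Field F] [CharZero F] [Fintype (K ≃ₐ[K1] K)]
    {e : (K ≃ₐ[K1] K) → F}, IsIdem e → e ≠ 0 → ∀ (Q : S.V → Prop),
    (∀ v : P.inh.V, (Q (vI P v) ∧ ∀ a : K ≃ₐ[K1] K, Fix a (P.inh.nm v) → a = 1) ∨
      ∃ (B : Subgroup (K ≃ₐ[K1] K)) (_ : Fintype B), (∀ b ∈ B, Fix b (P.inh.nm v)) ∧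
        ∀ a, ∑ b : B, e (a * (b : K ≃ₐ[K1] K)) = 0) →
    ∀ (d : (PY.inh.Ed → F) →ₗ[F] (PY.inh.V → F)),
    (letI := mV PY cov; letI := mE PY cov
      ∀ (a : K ≃ₐ[K1] K) f, d (act F PY.inh.Ed a f) = act F PY.inh.V a (d f)) →
    n * Nat.card S.Ed ≤
      (letI := mE PY cov; finrank F (eker e d)) + n * Nat.card {v : S.V // Q v}

attribute [instance] YOut.fY YOut.fY₀ YOut.aCY YOut.aK1Y YOut.aKY YOut.aκY YOut.aMY YOut.aκY₀
  YOut.aMY₀ YOut.aYY YOut.aRY YOut.tCK1Y YOut.tCKY YOut.tK1KY YOut.tκCY YOut.tκYY YOut.tMKY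
  YOut.tMYY YOut.tκMY₀ YOut.tCRY YOut.tRK1Y YOut.fdR YOut.fdK1 YOut.galK1 YOut.fdK YOut.galK
  YOut.fdM YOut.galM YOut.ce

end Crest.Agent.R013.CY_957
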