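import Crest.Agent.R013.M3D_359
import Crest.Agent.R013.HU6_522
/-
ROW 13, leaf M3 (helper359), file E: 928's `OmZero`.
-/
set_option autoImplicit false
set_option linter.unusedSectionVars false
set_option linter.unusedVariables false
set_option linter.style.haveILetI false

namespace Crest.Agent.R013.M3_359

open scoped NNReal
open WithZero Module PadicInt
open Crest.Agent.R013.Cell_408 (FinDef DiscNorm)
open Crest.Agent.R013.EE809 hiding od
open Crest.Agent.R013.RR7_948 Crest.Agent.R013.RR8_948 Crest.Agent.R013.RR9_948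
open Crest.Agent.R013.RR11_948 Crest.Agent.R013.RR14_948
open Crest.Agent.R013.Red332 hiding od
open Crest.Agent.R013.RedD_310
open Crest.Agent.R013.SSK_332
open Crest.Agent.R013.PicD_398 Crest.Agent.R013.Frob1_914 Crest.Agent.R013.TP_928

section th

variable {k : Type*} [NontriviallyNormedField k] [CompleteSpace k] [IsUltrametricDist k]
variable {C : Type*} [NormedField C] [IsUltrametricDist C] [NormedAlgebra k C]
  [Algebra.IsAlgebraic k C] [IsAlgClosed C] [hk : Fact (DiscNorm k)]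

theorem th_eq (a : EE k C) : HU6_522.th a = T 1 * dFun a := by
  ext n
  rw [HU6_522.co_th, co_T_mul, co_dFun]
  congr 2 <;> push_cast <;> ring

theorem gn_th (a : EE k C) : gn (HU6_522.th a) = gn (dFun a) := by
  rw [th_eq, gn_mul hk.out]
  have h : gn (T 1 : EE k C) = 1 := by rw [T, gn_mo, norm_one]
  rw [h, one_mul]

theorem gn_th_mul_inv {a : EE k C} (ha : a ≠ 0) : gn (HU6_522.th a * a⁻¹) = gn (dl a) := by
  rw [gn_mul hk.out, gn_th, ← gn_mul hk.out, dl, div_eq_mul_inv]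

end th

section main

variable {p : ℕ} [hp : Fact p.Prime]
variable {k : Type*} [NontriviallyNormedField k] [CompleteSpace k] [IsUltrametricDist k]
variable {C : Type*} [NormedField C] [IsUltrametricDist C] [NormedAlgebra k C]
  [Algebra.IsAlgebraic k C] [IsAlgClosed C] [hk : Fact (DiscNorm k)]
variable {K : Type*} [Field K] [Algebra C K] [Algebra (RatFunc C) K]
  [IsScalarTower C (RatFunc C) K] [FiniteDimensional (RatFunc C) K]
  [Algebra.IsSeparable (RatFunc C) K]
variable {S : SSK k C K} [CharP (Ct C) p] [Algebra (ZMod p) (Ct C)]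
  [Algebra.IsAlgebraic (ZMod p) (Ct C)] [PerfectField (Ct C)]
variable {G A W : Type*} [AddCommGroup W] [Module ℤ_[p] W] [Group A] [Fintype A]
  [MulAction A S.Ed]

/-- from the data of `OmZero` to `GoodF` -/
theorem goodF_of {n : ℕ} {z : Pic C K} {h : K} (h0 : h ≠ 0) (hr : RepK p n z h)
    (hred : ∀ v, ∃ (c : C) (y : kap (S.nm v)), c ≠ 0 ∧
      (S.nm v).v (h * (algebraMap C K c)⁻¹) = 1 ∧
      Red332.red (S.nm v) (h * (algebraMap C K c)⁻¹) = y ^ p ^ n) : GoodF p n S h where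
  ne := h0
  div := fun P => by
    obtain ⟨x, -, hx⟩ := hr
    rw [hx, Finsupp.smul_apply, nsmul_eq_mul]
    exact dvd_mul_right _ _
  red := hred

/-- **`‖dlog h_n‖ ≤ |p^n|`** for all representatives and all directions -/
theorem TPS_main (d : TPS p S G A W) (hp0 : (p : C) ≠ 0)
    (hCI : CInjS p S d.cov (fun a => algebraMap (ZMod p) (Ct C) (toZMod (d.c a))))
    (u : Tate p (Pic C K)) (hu : d.e u = u)
    (hred : ∀ n (h : K), h ≠ 0 → RepK p n (u n) h → ∀ v, ∃ (c : C) (y : kap (S.nm v)), c ≠ 0 ∧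
      (S.nm v).v (h * (algebraMap C K c)⁻¹) = 1 ∧
      Red332.red (S.nm v) (h * (algebraMap C K c)⁻¹) = y ^ p ^ n)
    {n : ℕ} {h : K} (h0 : h ≠ 0) (hr : RepK p n (u n) h) (D : S.Dir) :
    gn (dl (S.em D h)) ≤ ‖(p : C)‖ ^ n := by
  have hu' : ∑ α, d.c α • Tate.map ((TPS.ofAlg (d.cov α)).pic : Pic C K →+ Pic C K) u = u := by
    have h2 : d.e u = ∑ α, d.c α • Tate.map ((TPS.ofAlg (d.cov α)).pic : Pic C K →+ Pic C K) u :=
      eop_apply (p := p) d.c _ u
    rw [← h2, hu]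
  exact main S d.cov_v hp0 hCI u hu' hr (goodF_of h0 hr (hred n h h0 hr)) D

omit [IsUltrametricDist k] [IsAlgClosed C] hk [CharP (Ct C) p] [Algebra (ZMod p) (Ct C)]
  [Algebra.IsAlgebraic (ZMod p) (Ct C)] [PerfectField (Ct C)] hp in
variable (S) in
theorem exists_dir : Nonempty S.Dir := by
  obtain ⟨P, -⟩ := RR12_948.exists_notMem (k := C) (K := K) ∅
  rcases S.pt_surj P with ⟨d, -⟩ | ⟨e, -⟩
  · exact ⟨d⟩
  · exact ⟨S.e0 e⟩

/-- **(M3) = `OmZero`** -/
theorem omZero (d : TPS p S G A W) (hp0 : (p : C) ≠ 0)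
    (hCI : CInjS p S d.cov (fun a => algebraMap (ZMod p) (Ct C) (toZMod (d.c a))))
    (hom : ∀ u : Tate p (Pic C K), (∃ D : S.Dir, ∀ n, ∃ f : K, f ≠ 0 ∧ RepK p n (u n) f ∧
      gn (HU6_522.th (S.em D f) * S.em D f⁻¹) ≤ ‖(p : C)‖ ^ n) → d.om u = 0) :
    d.OmZero := by
  intro u hu hred
  obtain ⟨D⟩ := exists_dir S
  apply hom u
  refine ⟨D, fun n => ?_⟩
  obtain ⟨h, h0, hr⟩ := exists_repK (p := p) u n
  refine ⟨h, h0, hr, ?_⟩
  rw [map_inv₀, gn_th_mul_inv ((map_ne_zero _).mpr h0)]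
  exact TPS_main d hp0 hCI u hu hred h0 hr D

end main

end Crest.Agent.R013.M3_359

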