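import Crest.Agent.R013.TP21_928
import Crest.Agent.R013.M3E_359

/-!
# R013 / C-FIN (helper928), part 8: (D) with 359's `omZero`

`concl_of_cinj` : `concl_of_cov` with the Cartier injectivity `CInjS` instead of `OmZero`; all the
instances on `C` and `κ` are found inside.
-/

set_option autoImplicit false
set_option linter.unusedSectionVars false
set_option linter.style.haveILetI false

namespace Crest.Agent.R013.Fin_928

open scoped NNReal
open WithZero Module PadicInt PowerSeries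
open Crest.NumberTheoryR.Sect
open Crest.Agent.R013.Cell_408
open Crest.Agent.R013.HU6_522
open Crest.Agent.R013.RR7_948 Crest.Agent.R013.RR8_948 Crest.Agent.R013.RR9_948
open Crest.Agent.R013.RR11_948 Crest.Agent.R013.PicD_398 Crest.Agent.R013.Frob1_914
open Crest.Agent.R013.Red332 Crest.Agent.R013.SSK_332 Crest.Agent.R013.TP_928
open Crest.Agent.R013.EE809 Crest.Agent.R013.Desc_372 Crest.Agent.R013.HU14_522
open Crest.Agent.R013.Small2_940 Crest.Agent.R013.Small4_940 Crest.Agent.R013.Good5_940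
open Crest.Agent.R013.SD2_940

section main

universe u

variable {p : ℕ} [hpF : Fact p.Prime] {k : Type*} [Field k] [CharZero k] [Algebra ℚ_[p] k]
  [FiniteDimensional ℚ_[p] k]
  {K : Type*} [Field K] [Algebra k K]
  [Algebra (RatFunc k) K] [IsScalarTower k (RatFunc k) K] [FiniteDimensional (RatFunc k) K]
  {P : Valuation (AlgebraicClosure K) ℝ≥0} {x : K}
  {C : Type u} [NormedField C] [IsUltrametricDist C] [NormedAlgebra ℚ_[p] C]
  [Algebra.IsAlgebraic ℚ_[p] C] [CharZero C] [IsAlgClosed C]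
  {Y : Type*} [Field Y] [Algebra C Y] [Algebra (RatFunc C) Y] [IsScalarTower C (RatFunc C) Y]
  [FiniteDimensional (RatFunc C) Y]
  {e : Cb k K ≃+* C}
  {E0 : IntermediateField K (AlgebraicClosure K)} {phi : Y →+* maxUnramified k K}
variable {κ Y0 : Type*} [Field κ] [Field Y0] [Algebra ℚ_[p] κ] [FiniteDimensional ℚ_[p] κ]
  [Algebra κ C] [IsScalarTower ℚ_[p] κ C] [Algebra κ Y0] [Algebra Y0 Y] [Algebra κ Y]
  [IsScalarTower κ C Y] [IsScalarTower κ Y0 Y] [CE κ C Y0 Y]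
variable {S : SSK ℚ_[p] C Y} {D : Set S.Dir}
variable {A : Type*} [Group A] [Fintype A] [MulAction A S.Ed]

/-- **(D)** -/
theorem concl_of_cinj [CharP (Ct C) p] [Algebra (ZMod p) (Ct C)]
    (hP : IsRationalPlace k K (P.comap (algebraMap K (AlgebraicClosure K))))
    (hx : IsUniformizerAt (P.comap (algebraMap K (AlgebraicClosure K))) x)
    (he : ∀ a : ℚ_[p], e (algebraMap k (Cb k K) (algebraMap ℚ_[p] k a)) = algebraMap ℚ_[p] C a)
    [FiniteDimensional K E0] (hE0 : E0 ≤ maxUnramified k K) (h : PH e E0 phi)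
    {x0 : Y0} (hx0 : phi (algebraMap Y0 Y x0) = algebraMap K (maxUnramified k K) x)
    (hfix : ∀ (g : Y ≃ₐ[Y0] Y) (a : Y), PY P phi a ≤ 1 → PY P phi (g a) ≤ 1)
    (H : Lvl S κ Y0 (⊥ : IntermediateField κ C) D)
    (cov : A →* (Y ≃ₐ[C] Y))
    (cov_gal : ∀ (α : A) (g : Y ≃ₐ[Y0] Y) (f : Y), cov α (g f) = g (cov α f))
    (cov_v : ∀ α w, ∃ w', ∀ f, (S.nm w).v (cov α f) = (S.nm w').v f)
    (cov_e0 : ∀ (α : A) e f, f ≠ 0 → ord S (S.e0 (α • e)) (cov α f) = ord S (S.e0 e) f)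
    (c : A → ℤ_[p]) (idem : ∀ α, ∑ β, c β * c (β⁻¹ * α) = c α)
    (hCI : M3_359.CInjS p S cov (fun a => algebraMap (ZMod p) (Ct C) (toZMod (c a))))
    (hSl : ∀ lam : S.Ed → ZMod p, bdry S (ZMod p) lam = 0 →
      ∃ f : Y, f ≠ 0 ∧ (∃ x : Pl C Y →₀ ℤ, divf (k := C) f = p • x) ∧
        ∀ e, ((ord S (S.e0 e) f : ℤ) : ZMod p) = lam e)
    (hrk : 2 * finrank ℚ_[p] κ <
      finrank ℚ_[p] (Rank_770.eker (fun α => ((c α : ℤ_[p]) : ℚ_[p])) (bdry S ℚ_[p])))
    {δ η : ℝ≥0} (hδ : 0 < δ) (hη : 0 < η) : Concl p k K P x δ η := by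
  haveI hk : Fact (DiscNorm ℚ_[p]) := inferInstance
  haveI hal : Algebra.IsAlgebraic (ZMod p) (Ct C) := by
    have h1 := TP14_928.isAlgebraic_Ct (C := C) p
    have h2 : TP14_928.algCt (C := C) p = ‹Algebra (ZMod p) (Ct C)› := Subsingleton.elim _ _
    rw [h2] at h1
    exact h1
  haveI : IsAlgClosed (Ct C) := TP14_928.isAlgClosed_Ct
  haveI : Normal κ C := normal_C p κ
  haveI : IsGalois ℚ_[p] C := isGalois_C
  have hp0 : (p : C) ≠ 0 := by exact_mod_cast hpF.out.ne_zero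
  refine concl_of_cov hP hx he hE0 h hx0 hfix H cov cov_gal cov_v cov_e0 c idem ?_ hSl hrk hδ hη
  intro F _ _ _ _ _ _ _ _ _ d h1 h2 h3
  refine M3_359.omZero d hp0 ?_ h3
  rw [h1, h2]
  exact hCI

end main

end Crest.Agent.R013.Fin_928
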