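import Crest.Agent.R013.CAsm5_588
import Crest.Agent.R013.CY10_957
import Crest.Agent.R013.TP22_928
import Crest.Agent.R013.A2f_398

/-!
# Row 13, part C, assembly 6 (helper588): from `YOut` (957) to `Concl` (940)

`K → KC → K1 → K'`; `S : SSK ℚ_[p] C K1`, `D : A2Data p S K'`, `M ⊆ K'` a form over `κ`,
`Z : YOut D.spl κ M D1 n`.
-/

set_option autoImplicit false
set_option linter.style.haveILetI false
set_option linter.unusedSectionVars false

namespace Crest.Agent.R013.CAsm6_588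

open scoped NNReal
open Module WithZero
open Crest.NumberTheoryR.Sect
open Crest.Agent.R013.RR7_948 Crest.Agent.R013.RR13_948 Crest.Agent.R013.RR18_948
open Crest.Agent.R013.RR11_948 Crest.Agent.R013.RR9_948
open Crest.Agent.R013.Cell_408 Crest.Agent.R013.EE809 Crest.Agent.R013.Red332
open Crest.Agent.R013.SSK_332 Crest.Agent.R013.Inh_770
open Crest.Agent.R013.TopE1_957 Crest.Agent.R013.TopE4_957
open Crest.Agent.R013.Desc_372 Crest.Agent.R013.CY_957 Crest.Agent.R013.A2_398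
open Crest.Agent.R013.Unr10_957 Crest.Agent.R013.Unr7_957
open Crest.Agent.R013.Small2_940 Crest.Agent.R013.Small4_940 Crest.Agent.R013.Good5_940
open Crest.Agent.R013.CAsm2_588 Crest.Agent.R013.CAsm3_588 Crest.Agent.R013.CAsm5_588
open Crest.Agent.R013.SD2_940 Crest.Agent.R013.TP_928
open Crest.Agent.R013.GR3_921 Crest.Agent.R013.Fin_928

universe u

section gal

variable {κ C Y₀ Y : Type*} [Field κ] [Field C] [Field Y₀] [Field Y] [Algebra κ C] [Algebra κ Y₀]
  [Algebra C Y] [Algebra Y₀ Y] [Algebra κ Y] [IsScalarTower κ C Y] [IsScalarTower κ Y₀ Y]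
  [CE κ C Y₀ Y] [Normal κ C]

/-- every automorphism over `Y₀` is the lift of an automorphism of the constants -/
theorem lift_res (g : Y ≃ₐ[Y₀] Y) : CE.lift κ C Y₀ Y (CE.res κ C Y₀ Y g) = g := by
  ext f
  have h := CE.ringHom_ext κ C Y₀ Y
    (φ := ((CE.lift κ C Y₀ Y (CE.res κ C Y₀ Y g) : Y ≃ₐ[Y₀] Y) : Y →+* Y))
    (ψ := ((g : Y ≃ₐ[Y₀] Y) : Y →+* Y)) (fun c => by
      change CE.lift κ C Y₀ Y (CE.res κ C Y₀ Y g) (algebraMap C Y c) = g (algebraMap C Y c)
      rw [CE.lift_algebraMap, CE.algebraMap_res]) (fun a => by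
      change CE.lift κ C Y₀ Y (CE.res κ C Y₀ Y g) (algebraMap Y₀ Y a) = g (algebraMap Y₀ Y a)
      rw [AlgEquiv.commutes, AlgEquiv.commutes])
  exact congrArg (fun φ : Y →+* Y => φ f) h

end gal

section main

variable {p : ℕ} [hpF : Fact p.Prime] {k : Type*} [Field k] [CharZero k] [Algebra ℚ_[p] k]
  [FiniteDimensional ℚ_[p] k]
  {K : Type*} [Field K] [Algebra k K]
  [Algebra (RatFunc k) K] [IsScalarTower k (RatFunc k) K] [FiniteDimensional (RatFunc k) K]
  {P : Valuation (AlgebraicClosure K) ℝ≥0} {x : K}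
  {C : Type u} [NormedField C] [IsUltrametricDist C] [NormedAlgebra ℚ_[p] C]
  [Algebra.IsAlgebraic ℚ_[p] C] [CharZero C] [IsAlgClosed C] [Algebra k C]
  [IsScalarTower ℚ_[p] k C] [hk : Fact (DiscNorm ℚ_[p])]
  {KC : Type*} [Field KC] [Algebra C KC] [Algebra K KC] [Algebra k KC]
  [IsScalarTower k C KC] [IsScalarTower k K KC] [CE k C K KC]
variable {κ M K1 K' : Type*} [Field κ] [Field M] [Field K1] [Field K']
  [Algebra ℚ_[p] κ] [Algebra κ C] [IsScalarTower ℚ_[p] κ C] [FiniteDimensional ℚ_[p] κ]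
  [Algebra κ M] [Algebra κ K'] [Algebra C K1] [Algebra C K'] [Algebra K1 K'] [Algebra M K']
  [IsScalarTower C K1 K'] [IsScalarTower κ C K'] [IsScalarTower κ M K']
  [FiniteDimensional K1 K'] [IsGalois K1 K']
  [Algebra (RatFunc C) K1] [IsScalarTower C (RatFunc C) K1]
  [FiniteDimensional (RatFunc C) K1] [Algebra.IsSeparable (RatFunc C) K1]
  [CE κ C M K'] {S : SSK ℚ_[p] C K1} (D : A2Data p S K')
  [Algebra KC K1] [IsScalarTower C KC K1] [FiniteDimensional KC K1]
  [Algebra K K'] [Algebra KC K'] [IsScalarTower K KC K'] [IsScalarTower KC K1 K']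
  {D1 : Set S.Dir} {n : ℕ} (Z : YOut D.spl κ M D1 n)

/-- **slopes**: the classes of order `p` of the cover have all slopes -/
def SlopesP (p : ℕ) [Fact p.Prime] {C Y : Type*} [NormedField C] [IsUltrametricDist C]
    [NormedAlgebra ℚ_[p] C] [Algebra.IsAlgebraic ℚ_[p] C] [Field Y] [Algebra C Y]
    [Algebra (RatFunc C) Y] [IsScalarTower C (RatFunc C) Y] [FiniteDimensional (RatFunc C) Y]
    [Algebra.IsSeparable (RatFunc C) Y] (S : SSK ℚ_[p] C Y) : Prop :=
  ∀ lam : S.Ed → ZMod p, bdry S (ZMod p) lam = 0 →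
    ∃ f : Y, f ≠ 0 ∧ (∃ x : Pl C Y →₀ ℤ, divf (k := C) f = p • x) ∧
      ∀ e, ((ord S (S.e0 e) f : ℤ) : ZMod p) = lam e

set_option maxHeartbeats 1000000 in
/-- **(P1)**: `YOut` ⟹ `Concl` -/
theorem concl_of_yOut (hU1 : UnrEv C KC K1)
    (hP : IsRationalPlace k K (P.comap (algebraMap K (AlgebraicClosure K))))
    (hx : IsUniformizerAt (P.comap (algebraMap K (AlgebraicClosure K))) x)
    (hcard : Nat.card {v : S.V // HasGen (Ct C) (kap (S.nm v)) 0} < Nat.card S.Ed)
    (φ' : K' →ₐ[K] AlgebraicClosure K) (Q' : Pl C K')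
    (hQ' : Q'.v.IsEquiv (P.comap (φ' : K' →+* AlgebraicClosure K)))
    (hfix : ∀ (g : K' ≃ₐ[M] K') (f : K'), Q'.v (g f) = Q'.v f)
    (x0 : M) (hx0 : algebraMap M K' x0 = algebraMap K K' x)
    (hSl : SlopesP p Z.PY.inh) (hn : 2 * finrank ℚ_[p] κ < n)
    {δ η : ℝ≥0} (hδ : 0 < δ) (hη : 0 < η) : Concl p k K P x δ η := by
  classical
  haveI : Normal κ C := normal_C p κ
  haveI : Algebra.IsAlgebraic k C := Algebra.IsAlgebraic.tower_top (K := ℚ_[p]) k
  haveI cp := TP14_928.charP_Ct (C := C) p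
  letI ap : Algebra (ZMod p) (Ct C) := TP14_928.algCt (C := C) p
  haveI := TP14_928.isAlgebraic_Ct (C := C) p
  haveI : IsAlgClosed (Ct C) := TP14_928.isAlgClosed_Ct
  -- the algebra structures on `Y`
  letI aKCY : Algebra KC Z.Y := ((algebraMap K1 Z.Y).comp (algebraMap KC K1)).toAlgebra
  haveI tKC1Y : IsScalarTower KC K1 Z.Y := IsScalarTower.of_algebraMap_eq fun _ => rfl
  haveI tKC'Y : IsScalarTower KC K' Z.Y := IsScalarTower.of_algebraMap_eq fun a => by
    rw [IsScalarTower.algebraMap_apply KC K1 Z.Y, IsScalarTower.algebraMap_apply K1 K' Z.Y,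
      ← IsScalarTower.algebraMap_apply KC K1 K']
  haveI tCKCY : IsScalarTower C KC Z.Y := IsScalarTower.of_algebraMap_eq fun a => by
    rw [IsScalarTower.algebraMap_apply KC K1 Z.Y, ← IsScalarTower.algebraMap_apply C KC K1,
      ← IsScalarTower.algebraMap_apply C K1 Z.Y]
  letI aKY : Algebra K Z.Y := ((algebraMap KC Z.Y).comp (algebraMap K KC)).toAlgebra
  haveI tKKCY : IsScalarTower K KC Z.Y := IsScalarTower.of_algebraMap_eq fun _ => rfl
  haveI tKK'Y : IsScalarTower K K' Z.Y := IsScalarTower.of_algebraMap_eq fun a => by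
    rw [IsScalarTower.algebraMap_apply K KC Z.Y, IsScalarTower.algebraMap_apply KC K' Z.Y,
      ← IsScalarTower.algebraMap_apply K KC K']
  letI akY : Algebra k Z.Y := ((algebraMap K Z.Y).comp (algebraMap k K)).toAlgebra
  haveI tkKY : IsScalarTower k K Z.Y := IsScalarTower.of_algebraMap_eq fun _ => rfl
  haveI tkCY : IsScalarTower k C Z.Y := IsScalarTower.of_algebraMap_eq fun a => by
    rw [IsScalarTower.algebraMap_apply k K Z.Y, IsScalarTower.algebraMap_apply K KC Z.Y,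
      ← IsScalarTower.algebraMap_apply k K KC, IsScalarTower.algebraMap_apply k C KC,
      ← IsScalarTower.algebraMap_apply C KC Z.Y]
  haveI fKCY : FiniteDimensional KC Z.Y := FiniteDimensional.trans KC K1 Z.Y
  -- `Y / KC` is unramified
  have hU' : UnrEv C K1 K' := D.unrEv
  have hUY : UnrEv C KC Z.Y := by
    have h1 : UnrEv C K1 Z.Y := UnrEv.trans (L := K') hU' Z.unr
    exact UnrEv.trans (L := K1) hU1 h1
  -- the embedding
  obtain ⟨φ, hφ⟩ := exists_extend_phi (Y := Z.Y) φ'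
  obtain ⟨e, E0, hE0f, hE0, hPH, he⟩ := exists_PH (p := p) (k := k) (KC := KC) hUY φ
  haveI := hE0f
  haveI sepY : Algebra.IsSeparable (RatFunc C) Z.Y :=
    Algebra.IsSeparable.trans (RatFunc C) K1 Z.Y
  obtain ⟨Q, hQ⟩ := exists_plY (p := p) hP hx hUY φ
  -- the context of `K'`
  letI aRK' : Algebra (RatFunc C) K' :=
    ((algebraMap K1 K').comp (algebraMap (RatFunc C) K1)).toAlgebra
  haveI tR1 : IsScalarTower (RatFunc C) K1 K' := IsScalarTower.of_algebraMap_eq fun _ => rfl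
  haveI tCR' : IsScalarTower C (RatFunc C) K' := IsScalarTower.of_algebraMap_eq fun c => by
    rw [IsScalarTower.algebraMap_apply (RatFunc C) K1 K',
      ← IsScalarTower.algebraMap_apply C (RatFunc C) K1, ← IsScalarTower.algebraMap_apply C K1 K']
  haveI fR' : FiniteDimensional (RatFunc C) K' := FiniteDimensional.trans (RatFunc C) K1 K'
  haveI sR' : Algebra.IsSeparable (RatFunc C) K' := Algebra.IsSeparable.trans (RatFunc C) K1 K'
  have hQQ' : ∀ z : K', Q.v (algebraMap K' Z.Y z) = Q'.v z := by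
    refine v_algebraMap_of_ext hQ ?_ Z.unr
    have h1 : (P.comap (φ : Z.Y →+* AlgebraicClosure K)).comap (algebraMap K' Z.Y) =
        P.comap (φ' : K' →+* AlgebraicClosure K) := by
      ext z
      exact congrArg _ (congrArg P (hφ z))
    rw [h1]
    exact hQ'
  have hQfix : ∀ (g : Z.Y ≃ₐ[Z.Y₀] Z.Y) (f : Z.Y), Q.v (g f) = Q.v f := by
    intro g f
    have h1 := Z.place_fix Q (CE.res κ C Z.Y₀ Z.Y g) (fun f => by
      rw [hQQ', hQQ', hfix]) f
    rw [lift_res] at h1
    exact h1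
  have hle : ∀ a : Z.Y, Q.v a ≤ 1 ↔ P (φ a) ≤ 1 := fun a => hQ.le_one_iff_le_one (x := a)
  -- the action
  letI iE := mE Z.PY Z.cov
  letI iV := mV Z.PY Z.cov
  have hact : ActS Z.PY.inh ((resC C K1 Z.Y).comp Z.cov) :=
    { nmV := fun a w f => nm_mV Z.PY Z.cov a w f
      nm0 := fun a e f => by
        rw [← Spl.em_gnV (S := Z.PY.inh), ← Spl.em_gnV (S := Z.PY.inh)]
        exact congrArg _ (em_e0_mE Z.PY Z.cov a e f)
      nm1 := fun a e f => by
        rw [← Spl.em_gnV (S := Z.PY.inh), ← Spl.em_gnV (S := Z.PY.inh)]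
        exact congrArg _ (em_e1_mE Z.PY Z.cov a e f) }
  refine concl_of_cinj (S := Z.PY.inh) (κ := κ) (Y0 := Z.Y₀) (Y := Z.Y) (C := C)
    (A := K' ≃ₐ[K1] K') hP hx he hE0 hPH (x0 := algebraMap M Z.Y₀ x0) ?_ ?_ Z.lvl
    ((resC C K1 Z.Y).comp Z.cov) ?_ ?_ ?_ D.c D.c_idem ?_ hSl ?_ hδ hη
  · rw [← IsScalarTower.algebraMap_apply M Z.Y₀ Z.Y, IsScalarTower.algebraMap_apply M K' Z.Y, hx0,
      ← IsScalarTower.algebraMap_apply K K' Z.Y]
    exact phM_K hUY φ x
  · intro g a ha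
    rw [PY_apply, coe_phM] at ha ⊢
    rw [← hle] at ha ⊢
    rw [hQfix]
    exact ha
  · intro α g f
    have h1 := Z.gal_comm (Z.cov α) (CE.res κ C Z.Y₀ Z.Y g) f
    rw [lift_res] at h1
    exact h1
  · intro α w
    refine ⟨(actV Z.PY).toSMul.smul (Z.cov α)⁻¹ w, fun f => ?_⟩
    have h1 := nm_smul Z.PY (Z.cov α)⁻¹ w (Z.cov α f)
    have h2 : (Z.cov α)⁻¹ (Z.cov α f) = f := (Z.cov α).symm_apply_apply f
    rw [h2] at h1
    exact h1.symm
  · intro α e f hf
    exact od_e0_mE Z.PY Z.cov α e f hf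
  · refine D.cinjS Z.PY.inh ((resC C K1 Z.Y).comp Z.cov) (fun a f => Z.cov_K a f)
      (algebraMap (ZMod p) (Ct C)) fun W => ?_
    refine ⟨D.spl.vK D.spl.ffL (vY D.spl Z.PY W), D.spl.inh.nm (vY D.spl Z.PY W),
      D.spl.vK_comap D.spl.ffL _, comap_vY D.spl Z.PY W, (Z.kap W).2, fun a ha => ?_⟩
    exact (Z.fix_iff a W).2 ha
  · -- the rank
    have hmain := Z.rank (F := ℚ_[p]) D.isIdem D.cQ_ne
      (fun v => HasGen (Ct C) (kap (S.nm v)) 0) (fun w => by
        rcases D.dich w with h | h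
        · exact Or.inl ⟨h.1, fun a ha => h.2 a ha⟩
        · right
          let B : Subgroup (K' ≃ₐ[K1] K') :=
            { carrier := {a | Fix a (D.spl.inh.nm w)}
              mul_mem' := fun {a b} ha hb f => (ha (b f)).trans (hb f)
              one_mem' := fun f => rfl
              inv_mem' := fun {a} ha f => by
                have h1 := ha (a⁻¹ f)
                have h2 : a (a⁻¹ f) = f := AlgEquiv.apply_symm_apply a f
                rw [h2] at h1
                exact h1.symm }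
          have hB : ∀ b ∈ B, Fix b (D.spl.inh.nm w) := fun b hb => hb
          refine ⟨B, Fintype.ofFinite B, hB, fun a => ?_⟩
          letI : Fintype B := Fintype.ofFinite B
          have h3 := h B (fun σ => Iff.rfl) a
          have h4 := congrArg (fun z : ℤ_[p] => (z : ℚ_[p])) h3
          simpa using h4) (bdry Z.PY.inh ℚ_[p]) (fun a f => bdry_act hact a f)
    have h6 := Nat.mul_le_mul_left n (Nat.succ_le_of_lt hcard)
    rw [Nat.succ_eq_add_one, mul_add, mul_one] at h6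
    have h7 : n ≤ finrank ℚ_[p] (Rank_770.eker (fun a : K' ≃ₐ[K1] K' => (D.c a : ℚ_[p]))
        (bdry Z.PY.inh ℚ_[p])) := by
      have h8 := h6.trans hmain
      omega
    exact lt_of_lt_of_le hn h7

end main

end Crest.Agent.R013.CAsm6_588
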