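import Crest.Agent.R013.NB7_102
import Crest.Agent.R013.Red1_332
import Crest.Agent.R013.RR12_948

/-!
# Row 13, C-NB, part 11: a function with a pole and a zero at two ends of a vertex

`gauss_of_pole` : if `w y = 1` and the reduction of `y` has a pole, then `w` is the Gauss norm on
`C[y]`;  `exists_y` : for two places `x' ≠ x''` of the residue field there is `y` with `w y = 1`,
order `-1` at `x'` and order `1` at `x''`.
-/

set_option autoImplicit false
set_option linter.unusedSectionVars false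

namespace Crest.Agent.R013.NB_102

open Polynomial
open scoped NNReal
open WithZero (exp)
open Crest.Agent.R013.RR7_948 Crest.Agent.R013.Red332

section

variable {C K : Type*} [NormedField C] [IsUltrametricDist C] [Field K] [Algebra C K]

theorem red_sum (w : Nm C K) {ι : Type*} (s : Finset ι) (g : ι → K) (h : ∀ i ∈ s, w.v (g i) ≤ 1) :
    red w (∑ i ∈ s, g i) = ∑ i ∈ s, red w (g i) := by
  classical
  induction s using Finset.induction_on with
  | empty => rw [Finset.sum_empty, Finset.sum_empty, red_zero]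
  | insert a s ha ih =>
    have h1 : ∀ i ∈ s, w.v (g i) ≤ 1 := fun i hi => h i (Finset.mem_insert_of_mem hi)
    rw [Finset.sum_insert ha, Finset.sum_insert ha,
      red_add w (h a (Finset.mem_insert_self a s)) (Valuation.map_sum_le w.v h1), ih h1]

theorem pl_red_C_le {w : Nm C K} (x : Pl (Ct C) (kap w)) {c : C} (hc : ‖c‖₊ ≤ 1) :
    x.v (red w (algebraMap C K c)) ≤ 1 := by
  rw [red_C w c hc]
  by_cases h : rc c = 0
  · rw [h, map_zero, map_zero]; exact zero_le
  · exact (x.const _ h).le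

/-- **Gauss norm** -/
theorem gauss_of_pole (w : Nm C K) (x : Pl (Ct C) (kap w)) {y : K} (hy : w.v y = 1)
    (hx : 1 < x.v (red w y)) (f : C[X]) (i : ℕ) : ‖f.coeff i‖₊ ≤ w.v (aeval y f) := by
  classical
  by_cases hf : f = 0
  · rw [hf, coeff_zero, nnnorm_zero]; exact zero_le
  have hs : f.support.Nonempty := nonempty_support_iff.2 hf
  obtain ⟨j, hj, hjmax⟩ := Finset.exists_max_image f.support (fun i => ‖f.coeff i‖₊) hs
  set M : ℝ≥0 := ‖f.coeff j‖₊ with hM
  set s1 : Finset ℕ := f.support.filter fun i => ‖f.coeff i‖₊ = M with hs1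
  have hs1n : s1.Nonempty := ⟨j, Finset.mem_filter.2 ⟨hj, rfl⟩⟩
  set i0 := s1.max' hs1n with hi0
  have hi0m : i0 ∈ s1 := s1.max'_mem hs1n
  have hi0s : i0 ∈ f.support := (Finset.mem_filter.1 hi0m).1
  have hi0M : ‖f.coeff i0‖₊ = M := (Finset.mem_filter.1 hi0m).2
  set c : C := f.coeff i0 with hc
  have hc0 : c ≠ 0 := mem_support_iff.1 hi0s
  have hle : ∀ i, ‖f.coeff i‖₊ ≤ ‖c‖₊ := by
    intro i
    rw [hi0M]
    by_cases h : i ∈ f.support
    · exact hjmax i h
    · rw [notMem_support_iff.1 h, nnnorm_zero]; exact zero_le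
  have hlt : ∀ i, i0 < i → ‖f.coeff i‖₊ < ‖c‖₊ := by
    intro i hi
    refine lt_of_le_of_ne (hle i) fun h => ?_
    have hci : f.coeff i ≠ 0 := by
      intro h0
      rw [h0, nnnorm_zero] at h
      exact hc0 (nnnorm_eq_zero.1 h.symm)
    have : i ∈ s1 := Finset.mem_filter.2 ⟨mem_support_iff.2 hci, by rw [h, hi0M]⟩
    exact absurd (s1.le_max' i this) (not_le.2 hi)
  have hcn : 0 < ‖c‖₊ := nnnorm_pos.2 hc0
  -- the normalised terms
  set g : ℕ → K := fun i => algebraMap C K (f.coeff i * c⁻¹) * y ^ i with hg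
  have hgv : ∀ i, w.v (g i) = ‖f.coeff i‖₊ * ‖c‖₊⁻¹ := by
    intro i
    rw [hg]
    simp only
    rw [map_mul, map_pow, hy, one_pow, mul_one, w.hC, nnnorm_mul, nnnorm_inv]
  have hg1 : ∀ i, w.v (g i) ≤ 1 := by
    intro i
    rw [hgv i]
    exact mul_inv_le_one_of_le₀ (hle i) zero_le
  have hcle : ∀ i, ‖f.coeff i * c⁻¹‖₊ ≤ 1 := by
    intro i
    rw [nnnorm_mul, nnnorm_inv]
    exact mul_inv_le_one_of_le₀ (hle i) zero_le
  have hred : ∀ i, x.v (red w (g i)) =
      x.v (red w (algebraMap C K (f.coeff i * c⁻¹))) * x.v (red w y) ^ i := by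
    intro i
    rw [hg]
    simp only
    rw [red_mul w (by rw [w.hC]; exact hcle i) (by rw [map_pow, hy, one_pow]), map_mul,
      red_pow w hy.le, map_pow]
  have hi0v : x.v (red w (g i0)) = x.v (red w y) ^ i0 := by
    rw [hred, mul_inv_cancel₀ hc0, map_one, red_one, map_one, one_mul]
  have hxy0 : 0 < x.v (red w y) := zero_lt_one.trans hx
  have hoth : ∀ i, i ≠ i0 → x.v (red w (g i)) < x.v (red w (g i0)) := by
    intro i hi
    rw [hi0v]
    rcases lt_or_gt_of_ne hi with h | h
    · rw [hred]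
      calc x.v (red w (algebraMap C K (f.coeff i * c⁻¹))) * x.v (red w y) ^ i
          ≤ 1 * x.v (red w y) ^ i := mul_le_mul_left (pl_red_C_le x (hcle i)) _
        _ = x.v (red w y) ^ i := one_mul _
        _ < x.v (red w y) ^ i0 := pow_lt_pow_right₀ hx h
    · have h2 : w.v (g i) < 1 := by
        rw [hgv i]
        exact (mul_inv_lt_iff₀ hcn).2 (by rw [one_mul]; exact hlt i h)
      rw [(red_eq_zero_iff w h2.le).2 h2, map_zero]
      exact pow_pos hxy0 _
  have hsum : aeval y f * (algebraMap C K c)⁻¹ = ∑ i ∈ Finset.range (f.natDegree + 1), g i := by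
    rw [aeval_eq_sum_range, Finset.sum_mul]
    refine Finset.sum_congr rfl fun i _ => ?_
    rw [hg]
    simp only
    rw [Algebra.smul_def, map_mul, map_inv₀]
    ring
  have hmem : i0 ∈ Finset.range (f.natDegree + 1) :=
    Finset.mem_range.2 (Nat.lt_succ_of_le (le_natDegree_of_mem_supp i0 hi0s))
  have hv1 : x.v (red w (aeval y f * (algebraMap C K c)⁻¹)) = x.v (red w (g i0)) := by
    rw [hsum, red_sum w _ _ fun i _ => hg1 i, ← Finset.add_sum_erase _ _ hmem]
    refine Valuation.map_add_eq_of_lt_left _ ?_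
    refine Valuation.map_sum_lt' x.v (by rw [hi0v]; exact pow_pos hxy0 _) fun i hi => ?_
    exact hoth i (Finset.ne_of_mem_erase hi)
  have hle1 : w.v (aeval y f * (algebraMap C K c)⁻¹) ≤ 1 := by
    rw [hsum]; exact Valuation.map_sum_le w.v fun i _ => hg1 i
  have hne : red w (aeval y f * (algebraMap C K c)⁻¹) ≠ 0 := by
    intro h
    rw [h, map_zero, hi0v] at hv1
    exact (pow_pos hxy0 i0).ne hv1
  have h1 : w.v (aeval y f * (algebraMap C K c)⁻¹) = 1 := (red_ne_zero_iff w hle1).1 hne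
  rw [map_mul, map_inv₀, w.hC] at h1
  have h2 : w.v (aeval y f) = ‖c‖₊ := by
    rwa [mul_inv_eq_one₀ hcn.ne'] at h1
  rw [h2]
  exact hle i

/-- a function with a pole at `x'` and a zero at `x''` -/
theorem exists_y (w : Nm C K)
    (hff : ∃ i : Algebra (RatFunc (Ct C)) (kap w),
      IsScalarTower (Ct C) (RatFunc (Ct C)) (kap w) ∧
      FiniteDimensional (RatFunc (Ct C)) (kap w) ∧
      Algebra.IsSeparable (RatFunc (Ct C)) (kap w))
    (x' x'' : Pl (Ct C) (kap w)) (hne : x' ≠ x'') :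
    ∃ y : K, w.v y = 1 ∧ x'.v (red w y) = exp 1 ∧ od w x' y = -1 ∧ od w x'' y = 1 := by
  classical
  obtain ⟨i, h1, h2, h3⟩ := hff
  obtain ⟨z, hz0, hz⟩ := Crest.Agent.R013.RR12_948.exists_prescribed (k := Ct C) {x', x''}
    (fun x => if x = x' then 1 else -1)
  obtain ⟨y, hy1, hyz⟩ := red_surj w z
  have hy : w.v y = 1 := (red_ne_zero_iff w hy1).1 (by rw [hyz]; exact hz0)
  have e1 : x'.v (red w y) = exp 1 := by
    rw [hyz, hz x' (by simp), if_pos rfl]
  have e2 : x''.v (red w y) = exp (-1) := by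
    rw [hyz, hz x'' (by simp), if_neg hne.symm]
  refine ⟨y, hy, e1, ?_, ?_⟩
  · rw [od_of_one x' hy, e1, WithZero.log_exp]
  · rw [od_of_one x'' hy, e2, WithZero.log_exp, neg_neg]

end

end Crest.Agent.R013.NB_102
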