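import Crest.Agent.R013.NB10_102
import Crest.Agent.R013.NB11_102

/-!
# Row 13, C-NB, part 12: the loop of norms of an edge which is no bridge

`AdjOff S e₀` : adjacency of vertices through edges `≠ e₀`.  `exists_loopAt` : if the two ends of
`e₀` are joined in the graph without `e₀`, then there is a loop of norms at the vertex of the outer
end of `e₀` (`LoopAt C y (nm v)` for some function `y`).
-/

set_option autoImplicit false
set_option linter.unusedSectionVars false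
set_option linter.style.haveILetI false

namespace Crest.Agent.R013.NB_102

open Filter Topology unitInterval
open scoped NNReal
open WithZero (exp)
open Crest.Agent.R013.Cell_408 Crest.Agent.R013.EE809 Crest.Agent.R013.Nrm_671
open Crest.Agent.R013.RR7_948 Crest.Agent.R013.Red332

variable {k C K : Type*} [NontriviallyNormedField k] [CompleteSpace k] [IsUltrametricDist k]
    [NormedField C] [IsUltrametricDist C] [NormedAlgebra k C] [Algebra.IsAlgebraic k C]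
    [IsAlgClosed C] [hk : Fact (DiscNorm k)] [Field K] [Algebra C K] (S : SSK_332.SSK k C K)

/-- adjacency through the edges `≠ e₀` -/
def AdjOff (e₀ : S.Ed) (v w : S.V) : Prop :=
  ∃ e, e ≠ e₀ ∧ (((S.e0 e).1 = v ∧ (S.e1 e).1 = w) ∨ ((S.e1 e).1 = v ∧ (S.e0 e).1 = w))

/-- the norm of an annulus as a point of the space of norms -/
noncomputable def pt (e : S.Ed) (t : Set.Icc ‖S.cc e‖ 1) : NS K :=
  NS.mk (nrm S e t.1 t.2.1 t.2.2)

theorem pt_coe (e : S.Ed) (t : Set.Icc ‖S.cc e‖ 1) (f : K) :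
    (((pt S e t).v f : ℝ≥0) : ℝ) = nrmR S e t.1 f := rfl

theorem continuous_pt (e : S.Ed) : Continuous (pt S e) := by
  rw [NS.continuous_iff]
  intro f
  have h : Continuous fun t : Set.Icc ‖S.cc e‖ 1 => nrmR S e t.1 f :=
    (continuousOn_nrmR S e f).domRestrict
  exact continuous_induced_rng.2 h

theorem NK_pt (e : S.Ed) (t : Set.Icc ‖S.cc e‖ 1) : NK C (pt S e t).v := fun c =>
  nrmR_C S e t.2.1 t.2.2 c

theorem NK_nm (v : S.V) : NK C (S.nm v).v := fun c => by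
  rw [(S.nm v).hC]; rfl

/-- the path along an annulus -/
theorem exists_path (e : S.Ed) (a b : Set.Icc ‖S.cc e‖ 1) :
    ∃ γ : Path (pt S e a) (pt S e b), ∀ s : I, ∃ t : Set.Icc ‖S.cc e‖ 1,
      γ s = pt S e t ∧ t.1 = (1 - s.1) * a.1 + s.1 * b.1 := by
  have hmem : ∀ s : I, (1 - s.1) * a.1 + s.1 * b.1 ∈ Set.Icc ‖S.cc e‖ 1 := fun s =>
    (convex_Icc ‖S.cc e‖ 1) a.2 b.2 (by linarith [s.2.2]) s.2.1 (by ring)
  refine ⟨{ toFun := fun s => pt S e ⟨(1 - s.1) * a.1 + s.1 * b.1, hmem s⟩,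
            continuous_toFun := (continuous_pt S e).comp (by fun_prop),
            source' := ?_, target' := ?_ }, fun s => ⟨⟨_, hmem s⟩, rfl, rfl⟩⟩
  · congr 1
    apply Subtype.ext
    simp
  · congr 1
    apply Subtype.ext
    simp

theorem one_mem (e : S.Ed) : (1 : ℝ) ∈ Set.Icc ‖S.cc e‖ 1 := ⟨(S.cc_lt e).le, le_rfl⟩

theorem cc_mem (e : S.Ed) : ‖S.cc e‖ ∈ Set.Icc ‖S.cc e‖ 1 := ⟨le_rfl, (S.cc_lt e).le⟩

theorem pt_one (e : S.Ed) : pt S e ⟨1, one_mem S e⟩ = NS.mk (S.nm (S.e0 e).1).v := by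
  apply NS.v_inj
  ext f
  exact nrmR_one S hk.out e f

theorem pt_cc (e : S.Ed) : pt S e ⟨‖S.cc e‖, cc_mem S e⟩ = NS.mk (S.nm (S.e1 e).1).v := by
  apply NS.v_inj
  ext f
  exact nrmR_cc S hk.out e f

/-- **the germ of the path at an end** -/
theorem germ (d : S.Dir) (e : S.Ed) (hd : d = S.e0 e ∨ d = S.e1 e) {y : K}
    (hy : (S.nm d.1).v y = 1) {m : ℤ} (hm : Red332.od (S.nm d.1) d.2 y = m) :
    ∃ t1 : Set.Icc ‖S.cc e‖ 1, ‖S.cc e‖ < t1.1 ∧ t1.1 < 1 ∧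
      ∃ α : Path (NS.mk (S.nm d.1).v) (pt S e t1), ∀ s, NK C (α s).v ∧
        ∃ q : ℝ, 0 < q ∧ q ≤ 1 ∧ (s ≠ 0 → q < 1) ∧ (((α s).v y : ℝ≥0) : ℝ) = q ^ m := by
  have hy0 : y ≠ 0 := by
    rintro rfl
    rw [map_zero] at hy
    exact zero_ne_one hy
  have hcc := cc_pos S e
  rcases hd with rfl | rfl
  · obtain ⟨ρ', h1, h2, h3⟩ := nrmR_near_one S hk.out e hy0
    refine ⟨⟨ρ', h1.le, h2.le⟩, h1, h2, ?_⟩
    obtain ⟨γ, hγ⟩ := exists_path S e ⟨1, one_mem S e⟩ ⟨ρ', h1.le, h2.le⟩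
    refine ⟨γ.cast (pt_one S e).symm rfl, fun s => ?_⟩
    obtain ⟨t, ht1, ht2⟩ := hγ s
    rw [Path.cast_coe, ht1]
    refine ⟨NK_pt S e t, t.1, hcc.trans_le t.2.1, t.2.2, fun hs => ?_, ?_⟩
    · rw [ht2]
      have hs0 : 0 < s.1 := lt_of_le_of_ne s.2.1 fun h => hs (Subtype.ext h.symm)
      change (1 - s.1) * 1 + s.1 * ρ' < 1
      nlinarith
    · have hle : ρ' ≤ t.1 := by
        rw [ht2]
        change ρ' ≤ (1 - s.1) * 1 + s.1 * ρ'
        nlinarith [s.2.1, s.2.2]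
      rw [pt_coe, h3 t.1 hle t.2.2, hy, S.em_od _ _ hy0, hm]
      simp
  · obtain ⟨ρ', h1, h2, h3⟩ := nrmR_near_cc S hk.out e hy0
    refine ⟨⟨ρ', h1.le, h2.le⟩, h1, h2, ?_⟩
    obtain ⟨γ, hγ⟩ := exists_path S e ⟨‖S.cc e‖, cc_mem S e⟩ ⟨ρ', h1.le, h2.le⟩
    refine ⟨γ.cast (pt_cc S e).symm rfl, fun s => ?_⟩
    obtain ⟨t, ht1, ht2⟩ := hγ s
    have htp : 0 < t.1 := hcc.trans_le t.2.1
    rw [Path.cast_coe, ht1]
    refine ⟨NK_pt S e t, ‖S.cc e‖ / t.1, div_pos hcc htp, (div_le_one htp).2 t.2.1,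
      fun hs => ?_, ?_⟩
    · rw [div_lt_one htp, ht2]
      have hs0 : 0 < s.1 := lt_of_le_of_ne s.2.1 fun h => hs (Subtype.ext h.symm)
      change ‖S.cc e‖ < (1 - s.1) * ‖S.cc e‖ + s.1 * ρ'
      nlinarith
    · have hle : t.1 ≤ ρ' := by
        rw [ht2]
        change (1 - s.1) * ‖S.cc e‖ + s.1 * ρ' ≤ ρ'
        nlinarith [s.2.1, s.2.2]
      rw [pt_coe, h3 t.1 t.2.1 hle, hy, S.em_od _ _ hy0, hm]
      simp

section Loop

variable [Algebra (RatFunc C) K] [IsScalarTower C (RatFunc C) K]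
    [FiniteDimensional (RatFunc C) K] [Algebra.IsSeparable (RatFunc C) K]

/-- the norms different from `nm v` -/
def Gd (v : S.V) : Set (NS K) := {w | NK C w.v ∧ w.v ≠ (S.nm v).v}

theorem pt_mem_Gd (v : S.V) (e : S.Ed) (t : Set.Icc ‖S.cc e‖ 1) (h0 : ‖S.cc e‖ < t.1)
    (h1 : t.1 < 1) : pt S e t ∈ Gd S v :=
  ⟨NK_pt S e t, nrm_ne_nm S e h0 h1 v⟩

theorem nm_mem_Gd {v w : S.V} (h : w ≠ v) : NS.mk (S.nm w).v ∈ Gd S v :=
  ⟨NK_nm S w, fun h' => h (S.nm_inj (Nm.ext' fun f => by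
    have := congrArg (fun z : Valuation K ℝ≥0 => z f) h'
    exact this))⟩

/-- joined inside an annulus -/
theorem joined_inside (v : S.V) (e : S.Ed) (a b : Set.Icc ‖S.cc e‖ 1) (ha0 : ‖S.cc e‖ < a.1)
    (ha1 : a.1 < 1) (hb0 : ‖S.cc e‖ < b.1) (hb1 : b.1 < 1) :
    JoinedIn (Gd S v) (pt S e a) (pt S e b) := by
  obtain ⟨γ, hγ⟩ := exists_path S e a b
  refine ⟨γ, fun s => ?_⟩
  obtain ⟨t, ht1, ht2⟩ := hγ s
  rw [ht1]
  have hm := (convex_Ioo ‖S.cc e‖ 1) (x := a.1) ⟨ha0, ha1⟩ (y := b.1) ⟨hb0, hb1⟩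
    (a := 1 - s.1) (b := s.1) (by linarith [s.2.2]) s.2.1 (by ring)
  have hm' : t.1 ∈ Set.Ioo ‖S.cc e‖ 1 := by
    rw [ht2]; exact hm
  exact pt_mem_Gd S v e t hm'.1 hm'.2

/-- joined to an end vertex -/
theorem joined_end (v : S.V) (e : S.Ed) (d : S.Dir) (hd : d = S.e0 e ∨ d = S.e1 e)
    (hne : d.1 ≠ v) (b : Set.Icc ‖S.cc e‖ 1) (hb0 : ‖S.cc e‖ < b.1) (hb1 : b.1 < 1) :
    JoinedIn (Gd S v) (NS.mk (S.nm d.1).v) (pt S e b) := by
  rcases hd with rfl | rfl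
  · obtain ⟨γ, hγ⟩ := exists_path S e ⟨1, one_mem S e⟩ b
    refine ⟨γ.cast (pt_one S e).symm rfl, fun s => ?_⟩
    rw [Path.cast_coe]
    rcases eq_or_ne s 0 with rfl | hs
    · rw [γ.source, pt_one]; exact nm_mem_Gd S hne
    obtain ⟨t, ht1, ht2⟩ := hγ s
    rw [ht1]
    have hs0 : 0 < s.1 := lt_of_le_of_ne s.2.1 fun h => hs (Subtype.ext h.symm)
    have h1 : t.1 < 1 := by
      rw [ht2]
      change (1 - s.1) * 1 + s.1 * b.1 < 1
      nlinarith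
    have h0 : ‖S.cc e‖ < t.1 := by
      rw [ht2]
      change ‖S.cc e‖ < (1 - s.1) * 1 + s.1 * b.1
      nlinarith [s.2.2]
    exact pt_mem_Gd S v e t h0 h1
  · obtain ⟨γ, hγ⟩ := exists_path S e ⟨‖S.cc e‖, cc_mem S e⟩ b
    refine ⟨γ.cast (pt_cc S e).symm rfl, fun s => ?_⟩
    rw [Path.cast_coe]
    rcases eq_or_ne s 0 with rfl | hs
    · rw [γ.source, pt_cc]; exact nm_mem_Gd S hne
    obtain ⟨t, ht1, ht2⟩ := hγ s
    rw [ht1]
    have hs0 : 0 < s.1 := lt_of_le_of_ne s.2.1 fun h => hs (Subtype.ext h.symm)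
    have h0 : ‖S.cc e‖ < t.1 := by
      rw [ht2]
      change ‖S.cc e‖ < (1 - s.1) * ‖S.cc e‖ + s.1 * b.1
      nlinarith
    have h1 : t.1 < 1 := by
      rw [ht2]
      change (1 - s.1) * ‖S.cc e‖ + s.1 * b.1 < 1
      nlinarith [s.2.2, S.cc_lt e]
    exact pt_mem_Gd S v e t h0 h1

/-- joined neighbours -/
theorem joined_adj (v : S.V) (e : S.Ed) (a b : S.V) (ha : a ≠ v) (hb : b ≠ v)
    (h : ((S.e0 e).1 = a ∧ (S.e1 e).1 = b) ∨ ((S.e1 e).1 = a ∧ (S.e0 e).1 = b)) :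
    JoinedIn (Gd S v) (NS.mk (S.nm a).v) (NS.mk (S.nm b).v) := by
  obtain ⟨t, ht0, ht1⟩ := exists_between (S.cc_lt e)
  rcases h with ⟨rfl, rfl⟩ | ⟨rfl, rfl⟩
  · exact (joined_end S v e _ (Or.inl rfl) ha ⟨t, ht0.le, ht1.le⟩ ht0 ht1).trans
      (joined_end S v e _ (Or.inr rfl) hb ⟨t, ht0.le, ht1.le⟩ ht0 ht1).symm
  · exact (joined_end S v e _ (Or.inr rfl) ha ⟨t, ht0.le, ht1.le⟩ ht0 ht1).trans
      (joined_end S v e _ (Or.inl rfl) hb ⟨t, ht0.le, ht1.le⟩ ht0 ht1).symm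

/-- the first return to `v` -/
theorem first_return {V : Type*} {R : V → V → Prop} {u v : V} (h : Relation.ReflTransGen R u v)
    (hne : u ≠ v) :
    ∃ u'', Relation.ReflTransGen (fun a b => R a b ∧ a ≠ v ∧ b ≠ v) u u'' ∧ u'' ≠ v ∧ R u'' v := by
  induction h using Relation.ReflTransGen.head_induction_on with
  | refl => exact absurd rfl hne
  | head hac hcb ih =>
    rename_i a c
    by_cases hc : c = v
    · subst hc
      exact ⟨a, .refl, hne, hac⟩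
    · obtain ⟨u'', h1, h2, h3⟩ := ih hc
      exact ⟨u'', Relation.ReflTransGen.head ⟨hac, hne, hc⟩ h1, h2, h3⟩

/-- **THE LOOP OF NORMS of an edge which is no bridge.** -/
theorem exists_loopAt (e₀ : S.Ed)
    (hloop : Relation.ReflTransGen (AdjOff S e₀) (S.e1 e₀).1 (S.e0 e₀).1) :
    ∃ y : K, LoopAt C y (S.nm (S.e0 e₀).1).v := by
  classical
  set v := (S.e0 e₀).1 with hv
  -- the other direction at `v`, with its annulus, and the path to it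
  obtain ⟨e'', d'', hd'', hd''v, hd''ne, hjoin⟩ : ∃ (e'' : S.Ed) (d'' : S.Dir),
      (d'' = S.e0 e'' ∨ d'' = S.e1 e'') ∧ d''.1 = v ∧ d'' ≠ S.e0 e₀ ∧
      ∀ (a : Set.Icc ‖S.cc e₀‖ 1) (b : Set.Icc ‖S.cc e''‖ 1), ‖S.cc e₀‖ < a.1 → a.1 < 1 →
        ‖S.cc e''‖ < b.1 → b.1 < 1 → JoinedIn (Gd S v) (pt S e₀ a) (pt S e'' b) := by
    have hinj := S.ends_inj
    by_cases huv : (S.e1 e₀).1 = v
    · refine ⟨e₀, S.e1 e₀, Or.inr rfl, huv, fun h => ?_, fun a b ha0 ha1 hb0 hb1 =>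
        joined_inside S v e₀ a b ha0 ha1 hb0 hb1⟩
      have : (Sum.inr e₀ : S.Ed ⊕ S.Ed) = Sum.inl e₀ := hinj (by simpa using h)
      exact absurd this (by simp)
    · obtain ⟨u'', h1, h2, e'', hne, h3⟩ := first_return hloop huv
      have hchain : JoinedIn (Gd S v) (NS.mk (S.nm (S.e1 e₀).1).v) (NS.mk (S.nm u'').v) := by
        clear h3 h2
        induction h1 with
        | refl => exact JoinedIn.refl (nm_mem_Gd S huv)
        | tail _ h ih =>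
          obtain ⟨⟨e, -, he⟩, ha, hb⟩ := h
          exact ih.trans (joined_adj S v e _ _ ha hb he)
      rcases h3 with ⟨h3, h4⟩ | ⟨h3, h4⟩
      · refine ⟨e'', S.e1 e'', Or.inr rfl, h4, fun h => ?_, fun a b ha0 ha1 hb0 hb1 => ?_⟩
        · have : (Sum.inr e'' : S.Ed ⊕ S.Ed) = Sum.inl e₀ := hinj (by simpa using h)
          exact absurd this (by simp)
        · refine ((joined_end S v e₀ _ (Or.inr rfl) huv a ha0 ha1).symm.trans hchain).trans ?_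
          rw [← h3]
          exact joined_end S v e'' _ (Or.inl rfl) (by rw [h3]; exact h2) b hb0 hb1
      · refine ⟨e'', S.e0 e'', Or.inl rfl, h4, fun h => ?_, fun a b ha0 ha1 hb0 hb1 => ?_⟩
        · have : (Sum.inl e'' : S.Ed ⊕ S.Ed) = Sum.inl e₀ := hinj (by simpa using h)
          exact hne (by simpa using this)
        · refine ((joined_end S v e₀ _ (Or.inr rfl) huv a ha0 ha1).symm.trans hchain).trans ?_
          rw [← h3]
          exact joined_end S v e'' _ (Or.inr rfl) (by rw [h3]; exact h2) b hb0 hb1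
  obtain ⟨v'', x''⟩ := d''
  have hd''v' : v'' = v := hd''v
  subst hd''v'
  -- the function
  have hx : (S.e0 e₀).2 ≠ x'' := by
    intro h
    apply hd''ne
    rw [← h]
  obtain ⟨y, hy1, hyx, hy2, hy3⟩ := exists_y (S.nm (S.e0 e₀).1) (S.ff _) (S.e0 e₀).2 x'' hx
  obtain ⟨a, ha0, ha1, α, hα⟩ := germ S (S.e0 e₀) e₀ (Or.inl rfl) hy1 hy2
  obtain ⟨b, hb0, hb1, β, hβ⟩ := germ S ⟨(S.e0 e₀).1, x''⟩ e'' hd'' hy1 hy3
  obtain ⟨γ, hγ⟩ := hjoin a b ha0 ha1 hb0 hb1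
  refine ⟨y, NK_nm S _, hy1.le, fun f i => ?_, pt S e₀ a, pt S e'' b,
    ⟨α, fun s => ⟨(hα s).1, ?_⟩⟩, ⟨β, fun s => ⟨(hβ s).1, fun hs => ?_⟩⟩, ⟨γ, fun s => hγ s⟩⟩
  · have h1 : 1 < (S.e0 e₀).2.v (red (S.nm (S.e0 e₀).1) y) := by
      rw [hyx, ← WithZero.exp_zero, WithZero.exp_lt_exp]; exact one_pos
    exact gauss_of_pole _ _ hy1 h1 f i
  · obtain ⟨q, hq0, hq1, -, hq⟩ := (hα s).2
    have : (1 : ℝ) ≤ (((α s).v y : ℝ≥0) : ℝ) := by
      rw [hq, zpow_neg, zpow_one]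
      exact (one_le_inv₀ hq0).2 hq1
    exact_mod_cast this
  · obtain ⟨q, hq0, -, hq1, hq⟩ := (hβ s).2
    have : (((β s).v y : ℝ≥0) : ℝ) < 1 := by
      rw [hq, zpow_one]
      exact hq1 hs
    exact_mod_cast this

end Loop

end Crest.Agent.R013.NB_102
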