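import Crest.Agent.R013.NB9_102
import Crest.Agent.R013.NB12_102

/-!
# Row 13, C-NB, part 13: a graph with at least as many edges as vertices has a loop

`exists_cycle_edge` : in a finite graph with at least as many edges as vertices there is an edge
whose two ends are joined by the other edges.  `exists_loop_of_card` : hence a semistable structure
with `#V ≤ #Ed` has a loop of norms at a vertex.  `cover_of_loop_top` : a loop at a Galois invariant
norm of `K = U C` gives cyclic topological covers of `U` of every degree.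
-/

set_option autoImplicit false
set_option linter.unusedSectionVars false
set_option linter.style.haveILetI false

noncomputable section

namespace Crest.Agent.R013.NB_102

open Filter Topology
open scoped NNReal
open Crest.Agent.R013.Cell_408
open Crest.Agent.R013.RR7_948
open Crest.Agent.R013.Gl946 Crest.Agent.R013.TopE1_957
open Crest.NumberTheoryR.Sect

/-- an edge on a cycle -/
theorem exists_cycle_edge {V Ed : Type*} [Fintype V] [Fintype Ed] [Nonempty V] (s t : Ed → V)
    (h : Fintype.card V ≤ Fintype.card Ed) :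
    ∃ e₀, Relation.ReflTransGen
      (fun v w => ∃ e, e ≠ e₀ ∧ ((s e = v ∧ t e = w) ∨ (t e = v ∧ s e = w))) (t e₀) (s e₀) := by
  classical
  -- the boundary map
  let bd : (Ed → ℚ) →ₗ[ℚ] (V → ℚ) :=
    LinearMap.pi fun v => ∑ e, ((if s e = v then 1 else 0) - (if t e = v then 1 else 0) : ℚ) •
      (LinearMap.proj e : (Ed → ℚ) →ₗ[ℚ] ℚ)
  have hbd : ∀ (l : Ed → ℚ) (v : V), bd l v =
      ∑ e, ((if s e = v then 1 else 0) - (if t e = v then 1 else 0) : ℚ) * l e := by
    intro l v
    simp [bd]
  have hsumA : ∀ (l : Ed → ℚ) (A : Finset V), ∑ v ∈ A, bd l v =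
      ∑ e, ((if s e ∈ A then 1 else 0) - (if t e ∈ A then 1 else 0) : ℚ) * l e := by
    intro l A
    simp_rw [hbd]
    rw [Finset.sum_comm]
    refine Finset.sum_congr rfl fun e _ => ?_
    rw [← Finset.sum_mul, Finset.sum_sub_distrib, Finset.sum_ite_eq, Finset.sum_ite_eq]
  have hninj : ¬ Function.Injective bd := by
    intro hinj
    have h1 : Module.finrank ℚ (Ed → ℚ) = Module.finrank ℚ (V → ℚ) := by
      refine le_antisymm (LinearMap.finrank_le_finrank_of_injective hinj) ?_
      rw [Module.finrank_fintype_fun_eq_card, Module.finrank_fintype_fun_eq_card]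
      exact h
    have hsurj := (LinearMap.injective_iff_surjective_of_finrank_eq_finrank h1).1 hinj
    obtain ⟨l, hl⟩ := hsurj (fun _ => 1)
    have h2 := hsumA l Finset.univ
    rw [hl] at h2
    simp at h2
  obtain ⟨l, hl, hl0⟩ : ∃ l, bd l = 0 ∧ l ≠ 0 := by
    by_contra hcon
    push Not at hcon
    exact hninj ((injective_iff_map_eq_zero bd).2 hcon)
  obtain ⟨e₀, he₀⟩ : ∃ e, l e ≠ 0 := by
    by_contra hcon
    push Not at hcon
    exact hl0 (funext hcon)
  refine ⟨e₀, ?_⟩
  set R : V → V → Prop := fun v w => ∃ e, e ≠ e₀ ∧ ((s e = v ∧ t e = w) ∨ (t e = v ∧ s e = w))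
    with hR
  by_contra hcon
  set A : Finset V := Finset.univ.filter fun w => Relation.ReflTransGen R (t e₀) w with hA
  have hmem : ∀ w, w ∈ A ↔ Relation.ReflTransGen R (t e₀) w := fun w => by simp [hA]
  have hiff : ∀ e, e ≠ e₀ → (s e ∈ A ↔ t e ∈ A) := by
    intro e he
    rw [hmem, hmem]
    exact ⟨fun h => h.tail ⟨e, he, Or.inl ⟨rfl, rfl⟩⟩, fun h => h.tail ⟨e, he, Or.inr ⟨rfl, rfl⟩⟩⟩
  have h1 := hsumA l A
  rw [hl] at h1
  simp only [Pi.zero_apply, Finset.sum_const_zero] at h1
  rw [Finset.sum_eq_single e₀] at h1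
  · rw [if_neg (fun h => hcon ((hmem _).1 h)), if_pos ((hmem _).2 .refl)] at h1
    apply he₀
    linarith
  · intro e _ he
    by_cases h2 : s e ∈ A
    · rw [if_pos h2, if_pos ((hiff e he).1 h2), sub_self, zero_mul]
    · rw [if_neg h2, if_neg (fun h3 => h2 ((hiff e he).2 h3)), sub_self, zero_mul]
  · intro h2
    exact absurd (Finset.mem_univ _) h2

section

variable {k C K : Type*} [NontriviallyNormedField k] [CompleteSpace k] [IsUltrametricDist k]
    [NormedField C] [IsUltrametricDist C] [NormedAlgebra k C] [Algebra.IsAlgebraic k C]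
    [IsAlgClosed C] [hk : Fact (DiscNorm k)] [Field K] [Algebra C K] (S : SSK_332.SSK k C K)
    [Algebra (RatFunc C) K] [IsScalarTower C (RatFunc C) K]
    [FiniteDimensional (RatFunc C) K] [Algebra.IsSeparable (RatFunc C) K]

/-- **a loop of norms at a vertex**, for every semistable structure with `#V ≤ #Ed` -/
theorem exists_loop_of_card (h : @Fintype.card S.V S.fV ≤ @Fintype.card S.Ed S.fEd) :
    ∃ (v : S.V) (y : K), LoopAt C y (S.nm v).v := by
  letI := S.fV
  letI := S.fEd
  haveI : Nonempty S.V := S.conn.1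
  obtain ⟨e₀, he₀⟩ := exists_cycle_edge (fun e => (S.e0 e).1) (fun e => (S.e1 e).1) h
  exact ⟨_, exists_loopAt S e₀ he₀⟩

end

section

universe u

variable {k : Type u} [NontriviallyNormedField k] [IsUltrametricDist k] [CompleteSpace k]
  {U : Type u} [Field U] [CharZero U] [Algebra k U] [Algebra (RatFunc k) U]
  [IsScalarTower k (RatFunc k) U] [FiniteDimensional (RatFunc k) U]
  {C K : Type*} [NormedField C] [Field K] [Algebra k C] [Algebra C K] [Algebra U K] [Algebra k K]
  [IsScalarTower k C K] [IsScalarTower k U K] [Normal U K]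

/-- **cyclic topological covers from a loop on `K = U C`** -/
theorem cover_of_loop_top {π : k} (hπ : IsUnif π) (hkC : ∀ c : k, ‖algebraMap k C c‖ = ‖c‖)
    {y : U} {w0 : Valuation K ℝ≥0} (h : LoopAt C (algebraMap U K y) w0)
    (hfix : ∀ (σ : K ≃ₐ[U] K) (a : K), w0 (σ a) = w0 a) (n : ℕ) [NeZero n] :
    ∃ (W : Type u) (_ : Field W) (_ : Algebra U W), FiniteDimensional U W ∧
      Module.finrank U W = n ∧ IsGalois U W ∧
      (∃ σ : W ≃ₐ[U] W, orderOf σ = n ∧ Subgroup.zpowers σ = ⊤) ∧
      (∀ v : Valuation U ℝ≥0, (∀ c : k, v (algebraMap k U c) ≤ ‖c‖₊) → SplitAt v W) ∧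
      (∀ v : Valuation U ℝ≥0, IsPlace k v → SplitAt v W) :=
  cover_of_loop hπ y _ (h.descend hkC hfix (NontriviallyNormedField.non_trivial)) n

end

end Crest.Agent.R013.NB_102
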