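import Crest.Agent.R013.CY11_957
import Crest.Agent.R013.NB13_102

/-!
# R013 / CY12 (helper957): **stage (C)**: `YOut` for every degree, over the fixed level
-/

set_option autoImplicit false
set_option linter.unusedSectionVars false
set_option linter.style.haveILetI false

namespace Crest.Agent.R013.CY_957

open scoped NNReal
open Module WithZero
open Crest.NumberTheoryR.Sect
open Crest.Agent.R013.RR7_948 Crest.Agent.R013.Cell_408 Crest.Agent.R013.EE809
open Crest.Agent.R013.SSK_332 Crest.Agent.R013.Inh_770 Crest.Agent.R013.Red332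
open Crest.Agent.R013.TopE1_957 Crest.Agent.R013.TopE4_957 Crest.Agent.R013.TopE6_957
open Crest.Agent.R013.TopE7_957 Crest.Agent.R013.TopE8_957 Crest.Agent.R013.Unr10_957
open Crest.Agent.R013.Desc_372 Crest.Agent.R013.DEm_719 Crest.Agent.R013.DEm_719.GalAct
open Crest.Agent.R013.Kumv2_275 Crest.Agent.R013.Rank_770 Crest.Agent.R013.NB_102

universe w

section exist

variable {k C : Type*} [NontriviallyNormedField k] [CompleteSpace k] [IsUltrametricDist k]
  [NormedField C] [IsUltrametricDist C] [NormedAlgebra k C] [Algebra.IsAlgebraic k C]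
  [IsAlgClosed C] [hk : Fact (DiscNorm k)] [CharZero C]
variable {κ U M K1 W : Type*} {K : Type w} [NormedField κ] [Field U] [Field M] [Field K1]
  [Field K] [Field W]
  [Algebra k κ] [Algebra κ C] [IsScalarTower k κ C]
  [Algebra κ U] [Algebra κ M] [Algebra κ K1] [Algebra κ K]
  [Algebra C K1] [Algebra C K] [Algebra K1 K]
  [Algebra U M] [Algebra U K1] [Algebra U K] [Algebra U W] [Algebra M K]
  [IsScalarTower C K1 K] [IsScalarTower κ C K1] [IsScalarTower κ U K1]
  [IsScalarTower κ C K] [IsScalarTower κ M K] [IsScalarTower κ U M] [IsScalarTower κ U K]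
  [IsScalarTower U M K] [IsScalarTower U K1 K]
  [FiniteDimensional K1 K] [IsGalois K1 K] [FiniteDimensional U M] [IsGalois U M]
  [FiniteDimensional U W] [IsGalois U W] [IsCyclic (W ≃ₐ[U] W)]
  [Algebra (RatFunc C) K1] [IsScalarTower C (RatFunc C) K1]
  [FiniteDimensional (RatFunc C) K1] [Algebra.IsSeparable (RatFunc C) K1]
  [CE κ C U K1] [CE κ C M K] {S : SSK k C K1} (P : Spl S K)

/-- **`YOut` from a completely split cover of `U`** -/
theorem exists_yOut (hκ : ∀ c : κ, ‖algebraMap κ C c‖ = ‖c‖)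
    (hW : SplitCov κ U W) {D1 : Set S.Dir}
    (H : Lvl P.inh κ M (⊥ : IntermediateField κ C) {y | (dI P y).1 ∈ D1})
    (v₀ : Valuation M ℝ≥0) (hv₀ : IsRationalPlace κ M v₀)
    (hcop : (finrank U W).Coprime (finrank K1 K)) :
    Nonempty (YOut P κ M D1 (finrank U W)) := by
  let Ω : Type w := AlgebraicClosure K
  letI : Algebra U Ω := inferInstance
  haveI : IsScalarTower U K Ω := inferInstance
  haveI : IsScalarTower U M Ω := inferInstance
  haveI : IsScalarTower M K Ω := inferInstance
  let j : W →ₐ[U] Ω := IsAlgClosed.lift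
  let YI : IntermediateField K Ω := IntermediateField.adjoin K (Set.range j)
  let ZI : IntermediateField M Ω := IntermediateField.adjoin M (Set.range j)
  have hjY : ∀ x, j x ∈ YI := fun x => IntermediateField.subset_adjoin _ _ ⟨x, rfl⟩
  have hjZ : ∀ x, j x ∈ ZI := fun x => IntermediateField.subset_adjoin _ _ ⟨x, rfl⟩
  have hle : ∀ x, x ∈ ZI → x ∈ YI := by
    intro x hx
    refine IntermediateField.adjoin_induction M (p := fun y _ => y ∈ YI) ?_ ?_ ?_ ?_ ?_ hx
    · rintro _ ⟨y, rfl⟩; exact hjY y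
    · intro m
      rw [IsScalarTower.algebraMap_apply M K Ω]
      exact YI.algebraMap_mem _
    · intro x y _ _ hx hy; exact add_mem hx hy
    · intro x _ hx; exact inv_mem hx
    · intro x y _ _ hx hy; exact mul_mem hx hy
  letI aWY : Algebra W YI := ((j : W →+* Ω).codRestrict YI.toSubfield hjY).toAlgebra
  letI aWZ : Algebra W ZI := ((j : W →+* Ω).codRestrict ZI.toSubfield hjZ).toAlgebra
  letI aZY : Algebra ZI YI :=
    ((algebraMap ZI Ω).codRestrict YI.toSubfield (fun x => hle x x.2)).toAlgebra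
  have cW : ∀ x : W, ((algebraMap W YI x : YI) : Ω) = j x := fun _ => rfl
  have cW' : ∀ x : W, ((algebraMap W ZI x : ZI) : Ω) = j x := fun _ => rfl
  have cZ : ∀ x : ZI, ((algebraMap ZI YI x : YI) : Ω) = (x : Ω) := fun _ => rfl
  haveI i1 : IsScalarTower C K1 Ω := inferInstance
  haveI i2 : IsScalarTower C K Ω := inferInstance
  haveI i3 : IsScalarTower K1 K Ω := inferInstance
  haveI i4 : IsScalarTower κ C Ω := inferInstance
  haveI i5 : IsScalarTower κ M Ω := inferInstance
  haveI i6 : IsScalarTower U K1 Ω := inferInstance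
  haveI t1 : IsScalarTower C K1 YI :=
    IsScalarTower.of_algebraMap_eq fun x => Subtype.ext (IsScalarTower.algebraMap_apply C K1 Ω x)
  haveI t2 : IsScalarTower C K YI :=
    IsScalarTower.of_algebraMap_eq fun x => Subtype.ext (IsScalarTower.algebraMap_apply C K Ω x)
  haveI t3 : IsScalarTower K1 K YI :=
    IsScalarTower.of_algebraMap_eq fun x => Subtype.ext (IsScalarTower.algebraMap_apply K1 K Ω x)
  haveI t4 : IsScalarTower κ C YI :=
    IsScalarTower.of_algebraMap_eq fun x => Subtype.ext (IsScalarTower.algebraMap_apply κ C Ω x)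
  haveI t5 : IsScalarTower κ ZI YI := IsScalarTower.of_algebraMap_eq fun x => Subtype.ext rfl
  haveI t6 : IsScalarTower κ M ZI :=
    IsScalarTower.of_algebraMap_eq fun x => Subtype.ext (IsScalarTower.algebraMap_apply κ M Ω x)
  haveI t7 : IsScalarTower M K YI :=
    IsScalarTower.of_algebraMap_eq fun x => Subtype.ext (IsScalarTower.algebraMap_apply M K Ω x)
  haveI t8 : IsScalarTower M ZI YI := IsScalarTower.of_algebraMap_eq fun x => Subtype.ext rfl
  haveI t9 : IsScalarTower U M ZI :=
    IsScalarTower.of_algebraMap_eq fun x => Subtype.ext (IsScalarTower.algebraMap_apply U M Ω x)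
  haveI t10 : IsScalarTower U W ZI :=
    IsScalarTower.of_algebraMap_eq fun x => Subtype.ext (j.commutes x).symm
  haveI t11 : IsScalarTower U W YI :=
    IsScalarTower.of_algebraMap_eq fun x => Subtype.ext (j.commutes x).symm
  haveI t12 : IsScalarTower U K1 YI :=
    IsScalarTower.of_algebraMap_eq fun x => Subtype.ext (IsScalarTower.algebraMap_apply U K1 Ω x)
  haveI t13 : IsScalarTower U K YI :=
    IsScalarTower.of_algebraMap_eq fun x => Subtype.ext (IsScalarTower.algebraMap_apply U K Ω x)
  haveI t14 : IsScalarTower U ZI YI := IsScalarTower.of_algebraMap_eq fun x => Subtype.ext rfl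
  haveI t15 : IsScalarTower W ZI YI := IsScalarTower.of_algebraMap_eq fun x => Subtype.ext rfl
  have hgenY : IntermediateField.adjoin K (Set.range (algebraMap W YI)) = ⊤ := by
    rw [eq_top_iff]
    rintro ⟨y, hy⟩ _
    have h1 : (IntermediateField.adjoin K (Set.range (algebraMap W YI))).map YI.val = YI := by
      rw [IntermediateField.adjoin_map, ← Set.range_comp]
      rfl
    have h2 : y ∈ (IntermediateField.adjoin K (Set.range (algebraMap W YI))).map YI.val := by
      rw [h1]; exact hy
    obtain ⟨z, hz, hzy⟩ := h2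
    have h3 : z = ⟨y, hy⟩ := Subtype.ext hzy
    rw [← h3]
    exact hz
  have hgenZ : IntermediateField.adjoin M (Set.range (algebraMap W ZI)) = ⊤ := by
    rw [eq_top_iff]
    rintro ⟨y, hy⟩ _
    have h1 : (IntermediateField.adjoin M (Set.range (algebraMap W ZI))).map ZI.val = ZI := by
      rw [IntermediateField.adjoin_map, ← Set.range_comp]
      rfl
    have h2 : y ∈ (IntermediateField.adjoin M (Set.range (algebraMap W ZI))).map ZI.val := by
      rw [h1]; exact hy
    obtain ⟨z, hz, hzy⟩ := h2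
    have h3 : z = ⟨y, hy⟩ := Subtype.ext hzy
    rw [← h3]
    exact hz
  exact yOut_of (U := U) (W := W) (Y := YI) (Y₀ := ZI) P hκ hW H v₀ hv₀ hcop hgenY hgenZ

end exist

section loop

universe u

variable {k C : Type*} [NontriviallyNormedField k] [CompleteSpace k] [IsUltrametricDist k]
  [NormedField C] [IsUltrametricDist C] [NormedAlgebra k C] [Algebra.IsAlgebraic k C]
  [IsAlgClosed C] [hk : Fact (DiscNorm k)] [CharZero C]
variable {κ U : Type u} {M K1 : Type*} {K : Type w} [NontriviallyNormedField κ]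
  [IsUltrametricDist κ] [CompleteSpace κ] [Field U] [Field M] [Field K1]
  [Field K]
  [Algebra k κ] [Algebra κ C] [IsScalarTower k κ C]
  [Algebra κ U] [Algebra κ M] [Algebra κ K1] [Algebra κ K]
  [Algebra C K1] [Algebra C K] [Algebra K1 K]
  [Algebra U M] [Algebra U K1] [Algebra U K] [Algebra M K]
  [IsScalarTower C K1 K] [IsScalarTower κ C K1] [IsScalarTower κ U K1]
  [IsScalarTower κ C K] [IsScalarTower κ M K] [IsScalarTower κ U M] [IsScalarTower κ U K]
  [IsScalarTower U M K] [IsScalarTower U K1 K]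
  [FiniteDimensional K1 K] [IsGalois K1 K] [FiniteDimensional U M] [IsGalois U M]
  [Algebra (RatFunc κ) U] [IsScalarTower κ (RatFunc κ) U] [FiniteDimensional (RatFunc κ) U]
  [Algebra (RatFunc C) K1] [IsScalarTower C (RatFunc C) K1]
  [FiniteDimensional (RatFunc C) K1] [Algebra.IsSeparable (RatFunc C) K1]
  [CE κ C U K1] [CE κ C M K] {S : SSK k C K1} (P : Spl S K)

/-- **STAGE (C)**: `YOut` for every degree prime to `[K : K1]`, over the fixed level `κ`, from a
loop at the level `κ` -/
theorem stageC (hκ : ∀ c : κ, ‖algebraMap κ C c‖ = ‖c‖) {π : κ} (hπ : Gl946.IsUnif π)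
    {y : U} {w0 : Valuation U ℝ≥0} (hL : LoopAt κ y w0) {D1 : Set S.Dir}
    (H : Lvl P.inh κ M (⊥ : IntermediateField κ C) {y | (dI P y).1 ∈ D1})
    (v₀ : Valuation M ℝ≥0) (hv₀ : IsRationalPlace κ M v₀) (n : ℕ) (hn : n ≠ 0)
    (hcop : n.Coprime (finrank K1 K)) : Nonempty (YOut P κ M D1 n) := by
  have : CharZero κ := ⟨fun a b hab => Nat.cast_injective (R := C) (by
    simpa using congrArg (algebraMap κ C) hab)⟩
  have : CharZero U := charZero_of_injective_algebraMap (algebraMap κ U).injective
  have : NeZero n := ⟨hn⟩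
  obtain ⟨W, i1, i2, h1, h2, h3, ⟨σ, -, hσ⟩, h4, h5⟩ := cover_of_loop hπ y w0 hL n
  have hcyc : IsCyclic (W ≃ₐ[U] W) := ⟨σ, fun x => by
    have hx : x ∈ Subgroup.zpowers σ := by rw [hσ]; trivial
    exact hx⟩
  have hW : SplitCov κ U W := ⟨h4, h5⟩
  have h6 := exists_yOut (U := U) (W := W) P hκ hW H v₀ hv₀ (by rw [h2]; exact hcop)
  rw [h2] at h6
  exact h6

end loop

end Crest.Agent.R013.CY_957
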