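import Mathlib
import Crest.Agent.R013.Pow3_931

/-!
# R013 / TOPSPLIT-P, file 4 (helper931): `n`-th powers in annulus cells

* `ann_pow`  `z = G / H` (`G, H` bounded series on the open annulus `|c| < |T| < 1`), all orders of
  `z` on the annulus divisible by `n`, `w ^ n = z` at the outer end and `w' ^ n = z'` at the inner
  end (`z'` is `z` after `T ↦ c / T`).  Then `w * H` is a bounded series on the annulus, and
  `w'` is up to a root of unity the flip of `w`.
* `flip_quot`  the flip of an identity `z * H = G`.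
-/

set_option autoImplicit false
set_option linter.all false

namespace Crest.Agent.R013.Pow4_931

open Filter Topology
open Crest.Agent.R013.Cell_408 Crest.Agent.R013.EE809 Crest.Agent.R013.Pow1_931
open Crest.Agent.R013.SSK_332 Crest.Agent.R013.Pow2_931 Crest.Agent.R013.Pow3_931

variable {k : Type*} [NontriviallyNormedField k] [CompleteSpace k] [IsUltrametricDist k]
variable {C : Type*} [NormedField C] [IsUltrametricDist C] [NormedAlgebra k C]
variable [Algebra.IsAlgebraic k C] [IsAlgClosed C]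

/-- at every point of the open annulus the order of `z` is divisible by `n`
(the shape of `ptA_ord` in 332's `SSK`) -/
def DivA (n : ℕ) (c : C) (z : EE k C) : Prop :=
  ∀ τ : C, ‖c‖ < ‖τ‖ → ‖τ‖ < 1 → ∃ (a b : ℕ) (g h : EE k C), InA c g ∧ InA c h ∧
    evE τ g ≠ 0 ∧ evE τ h ≠ 0 ∧ z * (lin τ ^ b * h) = lin τ ^ a * g ∧ (n : ℤ) ∣ (b : ℤ) - a

theorem order_uniqueA (hk : DiscNorm k) {c : C} (hc : c ≠ 0) (hc1 : ‖c‖ < 1) {t : C}
    (h0 : ‖c‖ < ‖t‖) (h1 : ‖t‖ < 1)
    {m m' : ℕ} {a a' : EE k C} (ha : InA c a) (ha' : InA c a') (h : evE t a ≠ 0)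
    (h' : evE t a' ≠ 0) (he : lin t ^ m * a = lin t ^ m' * a') : m = m' := by
  have hdom := isDomain (C := C) hk
  wlog hle : m ≤ m' generalizing m m' a a'
  · exact (this ha' ha h' h he.symm (le_of_not_ge hle)).symm
  obtain ⟨d, rfl⟩ := Nat.exists_eq_add_of_le hle
  rw [pow_add, mul_assoc] at he
  have h2 : a = lin t ^ d * a' := mul_left_cancel₀ (pow_ne_zero m (lin_ne_zero t)) he
  rcases Nat.eq_zero_or_pos d with hd | hd
  · omega
  · exfalso
    apply h
    obtain ⟨e, rfl⟩ : ∃ e, d = e + 1 := ⟨d - 1, by omega⟩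
    rw [h2, pow_succ', mul_assoc, evE_mulA hc (InA.of_pos hc1 (pos_lin t))
      (InA.mul hc (InA.of_pos hc1 ((pos_lin t).pow e)) ha') h0 h1, evE_lin, sub_self, zero_mul]

theorem inA_unit {c : C} (hc : c ≠ 0) (hc1 : ‖c‖ < 1) (A : C) (N : ℤ) (S : Multiset C)
    {a b b' : EE k C} (ha : UPos a) (hb : Flip c b b') :
    InA c (algebraMap C (EE k C) A * T N * rp S * (a * b)) :=
  InA.mul hc (InA.mul hc (InA.mul hc (InA.of_pos hc1 (pos_algebraMap A)) (inA_T N))
    (InA.of_pos hc1 (pos_rp S))) (InA.mul hc (InA.of_pos hc1 ha.pos) (InA.flip hc (Flip.symm hc hb)))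

theorem evE_ne {c : C} (hc : c ≠ 0) (hc1 : ‖c‖ < 1) {τ : C} (h0 : ‖c‖ < ‖τ‖) (h1 : ‖τ‖ < 1)
    {A : C} (hA : A ≠ 0) (N : ℤ) {S : Multiset C} (hS : τ ∉ S) {a b b' : EE k C} (ha : UPos a)
    (hb : Flip c b b') (hb' : UPos b') :
    evE τ (algebraMap C (EE k C) A * T N * rp S * (a * b)) ≠ 0 := by
  have hτ0 : τ ≠ 0 := norm_pos_iff.1 ((norm_nonneg c).trans_lt h0)
  have iA : InA c (algebraMap C (EE k C) A) := InA.of_pos hc1 (pos_algebraMap A)
  have iT : InA c (T N : EE k C) := inA_T N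
  have iR : InA c (rp S : EE k C) := InA.of_pos hc1 (pos_rp S)
  have ia : InA c a := InA.of_pos hc1 ha.pos
  have ib : InA c b := InA.flip hc (Flip.symm hc hb)
  rw [evE_mulA hc (InA.mul hc (InA.mul hc iA iT) iR) (InA.mul hc ia ib) h0 h1,
    evE_mulA hc (InA.mul hc iA iT) iR h0 h1, evE_mulA hc iA iT h0 h1, evE_mulA hc ia ib h0 h1,
    evE_algebraMap, evE_T]
  have e1 : evE τ a ≠ 0 := by
    rw [← norm_ne_zero_iff, norm_evE_upos ha h1]; exact one_ne_zero
  have e2 : evE τ b ≠ 0 := by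
    rw [← evE_flip hc hτ0 hb, ← norm_ne_zero_iff, norm_evE_upos hb']
    · exact one_ne_zero
    · rw [norm_div]; exact (div_lt_one ((norm_nonneg c).trans_lt h0)).2 h0
  exact mul_ne_zero (mul_ne_zero (mul_ne_zero hA (zpow_ne_zero N hτ0)) (evE_rp_ne_zero hS))
    (mul_ne_zero e1 e2)

omit [IsUltrametricDist k] [IsAlgClosed C] in
theorem od_T (N : ℤ) : od (T N : EE k C) = N :=
  od_mono N (Crest.Agent.R013.EE809.finDef_const (k := k) (1 : C)) one_ne_zero

theorem T_ne (N : ℤ) : (T N : EE k C) ≠ 0 := by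
  intro h
  have := congrArg (fun a : EE k C => a.co N) h
  simp only [T, co_mo, co_zero, if_true] at this
  exact one_ne_zero this

theorem exists_flip_inv {c : C} (hc : c ≠ 0) {R R' Ri : EE k C} (h : Flip c R R')
    (hRi : R * Ri = 1) {Ri' : EE k C} (h' : Flip c Ri Ri') : R' * Ri' = 1 :=
  Flip.eq (Flip.mul hc h h') (by rw [hRi]; exact Flip.one)

/-- **`n`-th powers in the field of functions of an open annulus.** -/
theorem ann_pow (hk : DiscNorm k) {c : C} (hc : c ≠ 0) (hc1 : ‖c‖ < 1) {n : ℕ} (hn : 0 < n)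
    {z w G H z' w' G' H' : EE k C} (hG : InA c G) (hH : InA c H) (hH0 : H ≠ 0) (hz0 : z ≠ 0)
    (hz : z * H = G) (hdiv : DivA n c z) (hw : w ^ n = z)
    (hGG : Flip c G G') (hHH : Flip c H H') (hz' : z' * H' = G') (hw' : w' ^ n = z') :
    InA c (w * H) ∧ ∃ ζ : C, ζ ^ n = 1 ∧ Flip c (w * H) (algebraMap C (EE k C) ζ * (w' * H')) := by
  classical
  have hdom := isDomain (C := C) hk
  have hG0 : G ≠ 0 := by rw [← hz]; exact mul_ne_zero hz0 hH0
  obtain ⟨cG, NG, SG, aG, bG, bG', hcG, hSG, haG, hbG, hfG, hbG', hGe⟩ :=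
    exists_factA hk hc hc1 hG hG0
  obtain ⟨cH, NH, SH, aH, bH, bH', hcH, hSH, haH, hbH, hfH, hbH', hHe⟩ :=
    exists_factA hk hc hc1 hH hH0
  -- the multiplicities
  have hcount : ∀ τ : C, (n : ℤ) ∣ (SG.count τ : ℤ) - SH.count τ := by
    intro τ
    by_cases hτ : ‖c‖ < ‖τ‖ ∧ ‖τ‖ < 1
    · obtain ⟨a, b, g, h, hg, hh, hg0, hh0, he, hd⟩ := hdiv τ hτ.1 hτ.2
      obtain ⟨SG', hSG', hfG1⟩ := fact_at (k := k) SG τ
      obtain ⟨SH', hSH', hfH1⟩ := fact_at (k := k) SH τ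
      have hfG' : (rp SG : EE k C) = lin τ ^ (SG.count τ) * rp SG' := by convert hfG1
      have hfH' : (rp SH : EE k C) = lin τ ^ (SH.count τ) * rp SH' := by convert hfH1
      have h1 : lin τ ^ (SG.count τ + b) *
          ((algebraMap C (EE k C) cG * T NG * rp SG' * (aG * bG)) * h) =
          lin τ ^ (a + SH.count τ) *
          (g * (algebraMap C (EE k C) cH * T NH * rp SH' * (aH * bH))) := by
        have h2 : G * (lin τ ^ b * h) = lin τ ^ a * g * H := by
          rw [← hz]; linear_combination H * he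
        rw [hGe, hHe, hfG', hfH'] at h2
        rw [pow_add, pow_add]
        linear_combination h2
      have i1 := inA_unit hc hc1 cG NG SG' haG hfG
      have i2 := inA_unit hc hc1 cH NH SH' haH hfH
      have e1 := evE_ne hc hc1 hτ.1 hτ.2 hcG NG hSG' haG hfG hbG'
      have e2 := evE_ne hc hc1 hτ.1 hτ.2 hcH NH hSH' haH hfH hbH'
      have hE1 : evE τ ((algebraMap C (EE k C) cG * T NG * rp SG' * (aG * bG)) * h) ≠ 0 := by
        rw [evE_mulA hc i1 hh hτ.1 hτ.2]
        exact mul_ne_zero e1 hh0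
      have hE2 : evE τ (g * (algebraMap C (EE k C) cH * T NH * rp SH' * (aH * bH))) ≠ 0 := by
        rw [evE_mulA hc hg i2 hτ.1 hτ.2]
        exact mul_ne_zero hg0 e2
      have h3 := order_uniqueA hk hc hc1 hτ.1 hτ.2 (InA.mul hc i1 hh) (InA.mul hc hg i2) hE1 hE2 h1
      have h4 : (SG.count τ : ℤ) - SH.count τ = -((b : ℤ) - a) := by
        have : ((SG.count τ + b : ℕ) : ℤ) = ((a + SH.count τ : ℕ) : ℤ) := by rw [h3]
        push_cast at this
        linarith
      rw [h4]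
      exact (dvd_neg).2 hd
    · have h1 : SG.count τ = 0 := Multiset.count_eq_zero.2 fun h => hτ (hSG τ h)
      have h2 : SH.count τ = 0 := Multiset.count_eq_zero.2 fun h => hτ (hSH τ h)
      rw [h1, h2]; simp
  obtain ⟨m, rfl⟩ : ∃ m, n = m + 1 := ⟨n - 1, by omega⟩
  have hcount' : ∀ τ : C, (m + 1) ∣ (by classical exact (SG + m • SH).count τ : ℕ) := by
    intro τ
    have h1 : ((m + 1 : ℕ) : ℤ) ∣ (((SG + m • SH).count τ : ℕ) : ℤ) := by
      rw [Multiset.count_add, Multiset.count_nsmul]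
      have h2 := hcount τ
      have h3 : (((SG.count τ + m * SH.count τ : ℕ)) : ℤ) =
          ((SG.count τ : ℤ) - SH.count τ) + ((m + 1 : ℕ) : ℤ) * SH.count τ := by
        push_cast; ring
      rw [h3]
      exact dvd_add h2 (dvd_mul_right _ _)
    have h4 := Int.natCast_dvd_natCast.1 h1
    convert h4
  obtain ⟨S', hS'⟩ := exists_nsmul _ hcount'
  -- the product `Q = G H ^ m = (w H) ^ (m + 1)`
  have hpow : (w * H) ^ (m + 1) = G * H ^ m := by
    rw [mul_pow, hw, pow_succ', ← mul_assoc, hz]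
  have hpow' : (w' * H') ^ (m + 1) = G' * H' ^ m := by
    rw [mul_pow, hw', pow_succ', ← mul_assoc, hz']
  have hQflip : Flip c (G * H ^ m) (G' * H' ^ m) := Flip.mul hc hGG (Flip.pow hc hHH m)
  obtain ⟨r, hr⟩ := IsAlgClosed.exists_pow_nat_eq (cG * cH ^ m) (Nat.succ_pos m)
  have hc0 : cG * cH ^ m ≠ 0 := mul_ne_zero hcG (pow_ne_zero m hcH)
  have hr0 : r ≠ 0 := by
    rintro rfl
    rw [zero_pow (Nat.succ_ne_zero m)] at hr
    exact hc0 hr.symm
  set a : EE k C := aG * aH ^ m with ha_def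
  set b : EE k C := bG * bH ^ m with hb_def
  set b' : EE k C := bG' * bH' ^ m with hb'_def
  have ha : UPos a := uPos_mul haG (uPos_pow haH m)
  have hb' : UPos b' := uPos_mul hbG' (uPos_pow hbH' m)
  have hbb : Flip c b b' := Flip.mul hc hfG (Flip.pow hc hfH m)
  have hb : UNeg b := uNeg_flip hc hc1 (Flip.symm hc hbb) hb'
  obtain ⟨a', haf, -⟩ := exists_flip hc hc1 (InA.of_pos (k := k) hc1 ha.pos)
  have ha' : UNeg a' := uNeg_flip hc hc1 haf ha
  set R0 : EE k C := algebraMap C (EE k C) r * rp S' with hR0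
  have hTpow : ∀ (N : ℤ) (j : ℕ), (T N : EE k C) ^ j = T (j * N) := by
    intro N j
    induction j with
    | zero => rw [pow_zero, Nat.cast_zero, zero_mul, T_zero]
    | succ j ih => rw [pow_succ, ih, T_mul_T]; congr 1; push_cast; ring
  have hQ : G * H ^ m = R0 ^ (m + 1) * T (NG + m * NH) * (a * b) := by
    have h1 : R0 ^ (m + 1) = algebraMap C (EE k C) (cG * cH ^ m) * (rp SG * rp SH ^ m) := by
      rw [hR0, mul_pow, ← map_pow, hr, ← rp_nsmul, ← hS', rp_add, rp_nsmul]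
    rw [h1, ← T_mul_T, ← hTpow]
    conv_lhs => rw [hGe, hHe]
    rw [map_mul, map_pow, ha_def, hb_def]
    ring
  have hR00 : R0 ≠ 0 := mul_ne_zero (algebraMap_ne_zero hr0) (rp_ne_zero hk S')
  have hwH0 : w * H ≠ 0 := by
    refine mul_ne_zero ?_ hH0
    rintro rfl
    rw [zero_pow (Nat.succ_ne_zero m)] at hw
    exact hz0 hw.symm
  -- the order at the outer end is divisible by `m + 1`
  obtain ⟨N', hN'⟩ : ∃ N' : ℤ, NG + m * NH = ((m + 1 : ℕ) : ℤ) * N' := by
    have h1 := congrArg od (hpow.trans hQ)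
    rw [od_pow hk hwH0, od_mul hk (mul_ne_zero (pow_ne_zero _ hR00) (T_ne _))
      (mul_ne_zero ha.ne_zero hb.ne_zero), od_mul hk (pow_ne_zero _ hR00) (T_ne _),
      od_pow hk hR00, od_mul hk ha.ne_zero hb.ne_zero, ha.od_eq, hb.od_eq, od_T] at h1
    exact ⟨od (w * H) - od R0, by rw [mul_sub, h1]; ring⟩
  set R : EE k C := R0 * T N' with hR
  have hR1 : R ≠ 0 := mul_ne_zero hR00 (T_ne _)
  have hQ2 : G * H ^ m = R ^ (m + 1) * (a * b) := by
    rw [hQ, hR, mul_pow R0, hTpow, hN']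
  -- flips of `R`
  have hRA : InA c R := InA.mul hc (InA.mul hc (InA.of_pos hc1 (pos_algebraMap r))
    (InA.of_pos hc1 (pos_rp S'))) (inA_T N')
  obtain ⟨R', hRR', -⟩ := exists_flip hc hc1 hRA
  have hR'0 : R' ≠ 0 := by
    intro h
    apply hR1
    ext n
    have := (Flip.symm hc hRR') n
    rw [this, h, co_zero, zero_mul, co_zero]
  have hQ' : G' * H' ^ m = R' ^ (m + 1) * (b' * a') := by
    have h1 : Flip c (G * H ^ m) (R' ^ (m + 1) * (a' * b')) := by
      rw [hQ2]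
      exact Flip.mul hc (Flip.pow hc hRR' _) (Flip.mul hc haf hbb)
    rw [mul_comm b' a']
    exact Flip.eq hQflip h1
  -- outer end: `a` is an `n`-th power
  obtain ⟨Ri, hRi⟩ := exists_mul_eq_one hk hR1
  have hpow2 : (w * H * Ri) ^ (m + 1) = a * b := by
    rw [mul_pow, hpow, hQ2]
    calc R ^ (m + 1) * (a * b) * Ri ^ (m + 1) = (R * Ri) ^ (m + 1) * (a * b) := by
          rw [mul_pow]; ring
      _ = a * b := by rw [hRi, one_pow, one_mul]
  obtain ⟨g, hg, hgp⟩ := core hk (Nat.succ_pos m) hpow2 ha hb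
  -- inner end: `b'` is an `n`-th power
  obtain ⟨Ri', hRi'⟩ := exists_mul_eq_one hk hR'0
  have hpow3 : (w' * H' * Ri') ^ (m + 1) = b' * a' := by
    rw [mul_pow, hpow', hQ']
    calc R' ^ (m + 1) * (b' * a') * Ri' ^ (m + 1) = (R' * Ri') ^ (m + 1) * (b' * a') := by
          rw [mul_pow]; ring
      _ = b' * a' := by rw [hRi', one_pow, one_mul]
  obtain ⟨g', hg', hgp'⟩ := core hk (Nat.succ_pos m) hpow3 hb' ha'
  obtain ⟨g2, hg2, -⟩ := exists_flip hc hc1 (InA.of_pos (k := k) hc1 hg'.pos)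
  have hg2p : g2 ^ (m + 1) = b := by
    have h1 : Flip c (g' ^ (m + 1)) (g2 ^ (m + 1)) := Flip.pow hc hg2 _
    have h2 : Flip c (g' ^ (m + 1)) b := by
      have : g' ^ (m + 1) = b' := hgp'
      rw [this]; exact Flip.symm hc hbb
    exact Flip.eq h1 h2
  have hgp1 : g ^ (m + 1) = a := hgp
  have hroot : (w * H) ^ (m + 1) = (R * g * g2) ^ (m + 1) := by
    rw [hpow, hQ2, mul_pow (R * g) g2, mul_pow R g, hgp1, hg2p]; ring
  obtain ⟨ζ, hζ, hζe⟩ := eq_of_pow_eq hk (Nat.succ_pos m) hroot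
  have hin : InA c (w * H) := by
    rw [hζe]
    exact InA.mul hc (InA.of_pos hc1 (pos_algebraMap ζ))
      (InA.mul hc (InA.mul hc hRA (InA.of_pos hc1 hg.pos)) (InA.flip hc hg2))
  refine ⟨hin, ?_⟩
  obtain ⟨x, hx, -⟩ := exists_flip hc hc1 hin
  have hxp : x ^ (m + 1) = (w' * H') ^ (m + 1) := by
    rw [hpow']
    have h1 : Flip c ((w * H) ^ (m + 1)) (x ^ (m + 1)) := Flip.pow hc hx _
    rw [hpow] at h1
    exact Flip.eq h1 hQflip
  obtain ⟨ξ, hξ, hξe⟩ := eq_of_pow_eq hk (Nat.succ_pos m) hxp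
  exact ⟨ξ, hξ, by rw [← hξe]; exact hx⟩

end Crest.Agent.R013.Pow4_931
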