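import Crest.Agent.R013.Gl10_946

/-!
# Patching, part 11: splitting from density.

`K → E` with `E` complete; `K ⊆ N ⊆ L ⊆ Kb`.  If for every norm `v` of `Kb` over the norm of `E`
the element `α ∈ L` is in the `v`-closure of `N`, then the minimal polynomial of `α` over `N`
splits in every residue field of `E ⊗_K N`.
-/

set_option autoImplicit false

namespace Crest.Agent.R013.Gl946

open Module TensorProduct Polynomial
open scoped NNReal

theorem split_of_dense {E K N Kb : Type*} [NontriviallyNormedField E] [CompleteSpace E]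
    [IsUltrametricDist E] [Field K] [Field N] [Field Kb] [Algebra K E] [Algebra K N]
    [Algebra K Kb] [Algebra N Kb] [IsScalarTower K N Kb] [FiniteDimensional K N]
    [Algebra.IsAlgebraic K Kb] (α : Kb)
    (h : ∀ v : Valuation Kb ℝ≥0, (∀ f : K, v (algebraMap K Kb f) = ‖algebraMap K E f‖₊) →
      ∀ ε : ℝ≥0, 0 < ε → ∃ n : N, v (α - algebraMap N Kb n) < ε)
    (𝔫 : MaximalSpectrum (E ⊗[K] N)) :
    ((minpoly N α).map ((Ideal.Quotient.mk 𝔫.asIdeal).comp (rN E K N))).Splits := by
  classical
  have hmax := 𝔫.isMaximal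
  let instD : Field ((E ⊗[K] N) ⧸ 𝔫.asIdeal) := Ideal.Quotient.field 𝔫.asIdeal
  have hfinD : Module.Finite E ((E ⊗[K] N) ⧸ 𝔫.asIdeal) :=
    Module.Finite.of_surjective (Ideal.Quotient.mkₐ E 𝔫.asIdeal).toLinearMap
      (Ideal.Quotient.mkₐ_surjective E 𝔫.asIdeal)
  have halgD : Algebra.IsAlgebraic E ((E ⊗[K] N) ⧸ 𝔫.asIdeal) := Algebra.IsAlgebraic.of_finite _ _
  let Eb := AlgebraicClosure E
  let j : ((E ⊗[K] N) ⧸ 𝔫.asIdeal) →ₐ[E] Eb := IsAlgClosed.lift
  let g0 : N →+* Eb := j.toRingHom.comp ((Ideal.Quotient.mk 𝔫.asIdeal).comp (rN E K N))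
  have hg0 : ∀ f : K, g0 (algebraMap K N f) = algebraMap E Eb (algebraMap K E f) := by
    intro f
    have h1 : (rN E K N) (algebraMap K N f) = algebraMap E (E ⊗[K] N) (algebraMap K E f) := by
      change (1 : E) ⊗ₜ[K] (algebraMap K N f) = (algebraMap K E f) ⊗ₜ[K] (1 : N)
      rw [Algebra.algebraMap_eq_smul_one, Algebra.algebraMap_eq_smul_one, TensorProduct.smul_tmul]
    change j (Ideal.Quotient.mk 𝔫.asIdeal (rN E K N (algebraMap K N f))) = _
    rw [h1]
    exact j.commutes _
  -- the spectral norm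
  letI instN : NormedField Eb := spectralNorm.normedField E Eb
  letI instA : NormedAlgebra E Eb := spectralNorm.normedAlgebra E Eb
  have hnorm : ∀ z : E, ‖algebraMap E Eb z‖ = ‖z‖ := fun z => spectralNorm_extends z
  haveI hultra : IsUltrametricDist Eb :=
    IsUltrametricDist.isUltrametricDist_of_isNonarchimedean_norm isNonarchimedean_spectralNorm
  -- the range of `j` is closed
  have hclosed : IsClosed (LinearMap.range j.toLinearMap : Set Eb) := by
    have : FiniteDimensional E (LinearMap.range j.toLinearMap) := inferInstance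
    exact Submodule.closed_of_finiteDimensional _
  refine Splits.of_splits_map j.toRingHom (IsAlgClosed.splits _) ?_
  intro ρ hρ
  rw [Polynomial.map_map] at hρ
  have hαint : IsIntegral N α := by
    have : IsIntegral K α := Algebra.IsIntegral.isIntegral α
    exact this.tower_top
  have hmon : (minpoly N α).Monic := minpoly.monic hαint
  have hρroot : eval₂ g0 ρ (minpoly N α) = 0 := by
    have h1 := (mem_roots ((hmon.map _).ne_zero)).1 hρ
    rw [IsRoot.def, eval_map] at h1
    exact h1
  -- extend to `Kb`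
  letI algN : Algebra N Eb := g0.toAlgebra
  have hint : ∀ s : Kb, IsIntegral N s := fun s =>
    (Algebra.IsIntegral.isIntegral (R := K) s).tower_top
  obtain ⟨g, hg⟩ := IntermediateField.exists_algHom_of_splits_of_aeval (F := N) (E := Kb) (K := Eb)
    (x := α) (y := ρ) (fun s => ⟨hint s, IsAlgClosed.splits _⟩) hρroot
  have hgN : ∀ n : N, g (algebraMap N Kb n) = g0 n := fun n => g.commutes n
  let v : Valuation Kb ℝ≥0 := (NormedField.valuation (K := Eb)).comap g.toRingHom
  have hv : ∀ a, v a = ‖g a‖₊ := fun a => rfl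
  have hvK : ∀ f : K, v (algebraMap K Kb f) = ‖algebraMap K E f‖₊ := by
    intro f
    rw [hv, IsScalarTower.algebraMap_apply K N Kb, hgN, hg0]
    ext
    exact hnorm _
  have hρcl : ρ ∈ closure (LinearMap.range j.toLinearMap : Set Eb) := by
    rw [Metric.mem_closure_iff]
    intro ε hε
    obtain ⟨n, hn⟩ := h v hvK ⟨ε, hε.le⟩ hε
    refine ⟨g0 n, ⟨Ideal.Quotient.mk 𝔫.asIdeal (rN E K N n), rfl⟩, ?_⟩
    rw [hv, map_sub, hgN, hg] at hn
    rw [dist_eq_norm]
    exact hn
  rw [hclosed.closure_eq] at hρcl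
  obtain ⟨d, hd⟩ := hρcl
  exact ⟨d, hd⟩

end Crest.Agent.R013.Gl946
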