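import Mathlib

/-!
# Patching, part 10: splitting idempotents.

`K ⊆ N ⊆ L` finite, char 0, `E` a field over `K`.  If the minimal polynomial over `N` of a primitive
element of `L/N` splits in every residue field of `E ⊗_K N`, then `E ⊗_K L` is
`(E ⊗_K N)^n` as an `E ⊗_K N`-algebra; we produce the idempotents.
-/

set_option autoImplicit false

namespace Crest.Agent.R013.Gl946

open Module TensorProduct Polynomial

variable (E K N L : Type*) [Field E] [Field K] [Field N] [Field L] [Algebra K E] [Algebra K N]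
  [Algebra K L] [Algebra N L] [IsScalarTower K N L]

/-- `E ⊗ N → E ⊗ L`. -/
noncomputable def iNL : E ⊗[K] N →ₐ[E] E ⊗[K] L :=
  Algebra.TensorProduct.map (AlgHom.id E E) (IsScalarTower.toAlgHom K N L)

theorem iNL_tmul (z : E) (n : N) : iNL E K N L (z ⊗ₜ n) = z ⊗ₜ algebraMap N L n := by
  simp [iNL]

/-- `N → E ⊗ N`. -/
noncomputable def rN : N →+* E ⊗[K] N :=
  (Algebra.TensorProduct.includeRight : N →ₐ[K] E ⊗[K] N).toRingHom

variable {E K N L}

/-- Enumeration of the roots of a split separable polynomial over a field. -/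
theorem exists_roots_enum {D : Type*} [Field D] (f : D[X]) (hs : f.Splits) (hsep : f.Separable)
    (hm : f.Monic) (n : ℕ) (hn : f.natDegree = n) :
    ∃ r : Fin n → D, Function.Injective r ∧ f = ∏ i, (X - C (r i)) := by
  classical
  have hcard : Multiset.card f.roots = n := by
    rw [← hn]; exact (splits_iff_card_roots.1 hs)
  have hnodup : f.roots.Nodup := nodup_roots hsep
  have hfin : f.roots.toFinset.card = n := by
    rw [Multiset.toFinset_card_of_nodup hnodup, hcard]
  let e := f.roots.toFinset.equivFinOfCardEq hfin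
  refine ⟨fun i => (e.symm i : D), ?_, ?_⟩
  · intro i j h
    exact e.symm.injective (Subtype.ext h)
  · have h1 : f = (f.roots.map fun a => X - C a).prod := by
      have := hs.eq_prod_roots
      rw [hm.leadingCoeff, C_1, one_mul] at this
      exact this
    have h2 : (f.roots.map fun a => X - C a).prod = ∏ a ∈ f.roots.toFinset, (X - C a) := by
      rw [Finset.prod_multiset_map_count]
      refine Finset.prod_congr rfl fun a ha => ?_
      rw [Multiset.count_eq_one_of_mem hnodup (Multiset.mem_toFinset.1 ha), pow_one]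
    rw [h2] at h1
    refine h1.trans ?_
    conv_rhs => rw [← Equiv.prod_comp e]
    rw [← Finset.prod_coe_sort]
    refine Finset.prod_congr rfl fun a _ => ?_
    simp

theorem exists_split [CharZero K] [FiniteDimensional K N] [FiniteDimensional N L] (α : L)
    (hα : Algebra.adjoin N {α} = ⊤)
    (hspl : ∀ 𝔫 : MaximalSpectrum (E ⊗[K] N),
      ((minpoly N α).map ((Ideal.Quotient.mk 𝔫.asIdeal).comp (rN E K N))).Splits) :
    ∃ ε : Fin (finrank N L) → E ⊗[K] L,
      (∀ i j, i ≠ j → ε i * ε j = 0) ∧ (∀ i, ε i * ε i = ε i) ∧ (∑ i, ε i = 1) ∧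
      (∀ i v, ∃ c : E ⊗[K] N, v * ε i = iNL E K N L c * ε i) ∧
      (∀ i (c : E ⊗[K] N), iNL E K N L c * ε i = 0 → c = 0) := by
  classical
  set B := E ⊗[K] N with hB
  set V := E ⊗[K] L with hV
  -- `B` is reduced and Artinian
  have hred : IsReduced B := by
    have : Algebra.IsSeparable K N := inferInstance
    have h1 : Algebra.FormallyUnramified K N := Algebra.FormallyUnramified.of_isSeparable K N
    have h2 : Algebra.FormallyUnramified E B := inferInstance
    have h3 : Module.Finite E B := inferInstance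
    exact Algebra.FormallyUnramified.isReduced_of_field E B
  have hart : IsArtinianRing B := IsArtinianRing.of_finite E B
  let eqv := IsArtinianRing.equivPi B
  have heqv : ∀ (b : ∀ I : MaximalSpectrum B, B ⧸ I.asIdeal) (𝔫 : MaximalSpectrum B),
      Ideal.Quotient.mk 𝔫.asIdeal (eqv.symm b) = b 𝔫 := by
    intro b 𝔫
    have h1 := IsArtinianRing.equivPi_apply B (eqv.symm b) 𝔫
    rw [← h1]
    change eqv (eqv.symm b) 𝔫 = b 𝔫
    rw [AlgEquiv.apply_symm_apply]
  have hext : ∀ b b' : B, (∀ 𝔫 : MaximalSpectrum B, Ideal.Quotient.mk 𝔫.asIdeal b =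
      Ideal.Quotient.mk 𝔫.asIdeal b') → b = b' := by
    intro b b' h
    apply eqv.injective
    funext 𝔫
    exact h 𝔫
  have hαint : IsIntegral N α := IsIntegral.of_finite N α
  set f := minpoly N α with hf
  have hfm : f.Monic := minpoly.monic hαint
  have hdeg : f.natDegree = finrank N L := by
    have h1 : IntermediateField.adjoin N {α} = ⊤ := by
      rw [eq_top_iff]
      intro x _
      have : x ∈ Algebra.adjoin N {α} := by rw [hα]; trivial
      have hle : Algebra.adjoin N {α} ≤ (IntermediateField.adjoin N {α}).toSubalgebra :=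
        Algebra.adjoin_le (by
          intro z hz
          exact IntermediateField.subset_adjoin N {α} hz)
      exact hle this
    rw [hf, ← IntermediateField.adjoin.finrank hαint, h1, IntermediateField.finrank_top']
  have hcharN : CharZero N := charZero_of_injective_algebraMap (algebraMap K N).injective
  have hfsep : f.Separable := (minpoly.irreducible hαint).separable
  set n := finrank N L with hn
  have hnpos : 0 < n := finrank_pos
  -- roots in each residue field
  have hroots : ∀ 𝔫 : MaximalSpectrum B, ∃ r : Fin n → B ⧸ 𝔫.asIdeal, Function.Injective r ∧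
      f.map ((Ideal.Quotient.mk 𝔫.asIdeal).comp (rN E K N)) = ∏ i, (X - C (r i)) := by
    intro 𝔫
    have hmax := 𝔫.isMaximal
    let inst : Field (B ⧸ 𝔫.asIdeal) := Ideal.Quotient.field 𝔫.asIdeal
    refine exists_roots_enum (f.map ((Ideal.Quotient.mk 𝔫.asIdeal).comp (rN E K N))) (hspl 𝔫)
      hfsep.map (hfm.map _) n ?_
    rw [hfm.natDegree_map, hdeg]
  choose r hrinj hrprod using hroots
  let β : Fin n → B := fun i => eqv.symm fun 𝔫 => r 𝔫 i
  have hβ : ∀ i 𝔫, Ideal.Quotient.mk 𝔫.asIdeal (β i) = r 𝔫 i := fun i 𝔫 => heqv _ 𝔫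
  have hunit : ∀ i l, i ≠ l → ∃ u : B, (β i - β l) * u = 1 ∧
      ∀ 𝔫 : MaximalSpectrum B, (r 𝔫 i - r 𝔫 l) * Ideal.Quotient.mk 𝔫.asIdeal u = 1 := by
    intro i l hil
    have : ∀ 𝔫 : MaximalSpectrum B, ∃ w : B ⧸ 𝔫.asIdeal, (r 𝔫 i - r 𝔫 l) * w = 1 := by
      intro 𝔫
      have hmax := 𝔫.isMaximal
      let inst : Field (B ⧸ 𝔫.asIdeal) := Ideal.Quotient.field 𝔫.asIdeal
      exact ⟨(r 𝔫 i - r 𝔫 l)⁻¹, mul_inv_cancel₀ (sub_ne_zero.2 fun h => hil (hrinj 𝔫 h))⟩
    choose w hw using this
    refine ⟨eqv.symm w, ?_, fun 𝔫 => by rw [heqv]; exact hw 𝔫⟩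
    refine hext _ _ fun 𝔫 => ?_
    rw [map_mul, map_sub, hβ, hβ, heqv, map_one]
    exact hw 𝔫
  choose! u hu1 hu2 using hunit
  -- polynomial identities over B
  have hpext : ∀ P Q : B[X], (∀ 𝔫 : MaximalSpectrum B, P.map (Ideal.Quotient.mk 𝔫.asIdeal) =
      Q.map (Ideal.Quotient.mk 𝔫.asIdeal)) → P = Q := by
    intro P Q h
    ext i
    refine hext _ _ fun 𝔫 => ?_
    rw [← coeff_map, h 𝔫, coeff_map]
  have hprod : f.map (rN E K N) = ∏ i, (X - C (β i)) := by
    refine hpext _ _ fun 𝔫 => ?_
    rw [Polynomial.map_map, hrprod 𝔫, Polynomial.map_prod]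
    refine Finset.prod_congr rfl fun i _ => ?_
    rw [Polynomial.map_sub, map_X, map_C, hβ]
  have hlag : ∑ i, ∏ l ∈ Finset.univ.erase i, (C (u i l) * (X - C (β l))) = (1 : B[X]) := by
    refine hpext _ _ fun 𝔫 => ?_
    have hmax := 𝔫.isMaximal
    let inst : Field (B ⧸ 𝔫.asIdeal) := Ideal.Quotient.field 𝔫.asIdeal
    have h1 := Lagrange.sum_basis (s := (Finset.univ : Finset (Fin n))) (v := r 𝔫)
      ((hrinj 𝔫).injOn) ⟨⟨0, hnpos⟩, Finset.mem_univ _⟩
    rw [Polynomial.map_sum, Polynomial.map_one, ← h1]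
    refine Finset.sum_congr rfl fun i _ => ?_
    rw [Polynomial.map_prod, Lagrange.basis]
    refine Finset.prod_congr rfl fun l hl => ?_
    have hil : i ≠ l := (Finset.ne_of_mem_erase hl).symm
    rw [Polynomial.map_mul, map_C, Polynomial.map_sub, map_X, map_C, hβ, Lagrange.basisDivisor]
    congr 2
    exact eq_inv_of_mul_eq_one_right (hu2 i l hil 𝔫)
  -- in V
  let ι : B →+* V := (iNL E K N L).toRingHom
  set a : V := 1 ⊗ₜ[K] α with ha
  have hιN : ∀ x : N, ι (rN E K N x) = 1 ⊗ₜ[K] algebraMap N L x := fun x => iNL_tmul E K N L 1 x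
  let ev : B[X] →+* V := eval₂RingHom ι a
  have hevf : ∀ g : N[X], ev (g.map (rN E K N)) = 1 ⊗ₜ[K] aeval α g := by
    intro g
    have : ev.comp (mapRingHom (rN E K N)) =
        ((Algebra.TensorProduct.includeRight : L →ₐ[K] V).toRingHom).comp
          (aeval α : N[X] →ₐ[N] L).toRingHom := by
      apply Polynomial.ringHom_ext
      · intro x
        simp only [ev, RingHom.comp_apply, coe_mapRingHom, map_C, coe_eval₂RingHom, eval₂_C]
        rw [hιN]
        simp
      · simp [ev, ha]
    have := RingHom.congr_fun this g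
    simpa using this
  have hev0 : ev (∏ i, (X - C (β i))) = 0 := by
    rw [← hprod, hevf, minpoly.aeval, tmul_zero]
  let b : Fin n → V := fun i => ι (β i)
  have hevX : ∀ i, ev (X - C (β i)) = a - b i := by intro i; simp [ev, b]
  let ε : Fin n → V := fun i => ev (∏ l ∈ Finset.univ.erase i, (C (u i l) * (X - C (β l))))
  have hεsum : ∑ i, ε i = 1 := by
    change ∑ i, ev _ = 1
    rw [← map_sum, hlag, map_one]
  have hroot : ∀ i, (a - b i) * ε i = 0 := by
    intro i
    have h1 : (X - C (β i)) * ∏ l ∈ Finset.univ.erase i, (C (u i l) * (X - C (β l))) =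
        C (∏ l ∈ Finset.univ.erase i, u i l) * ∏ l, (X - C (β l)) := by
      rw [Finset.prod_mul_distrib, map_prod, ← Finset.mul_prod_erase Finset.univ _
        (Finset.mem_univ i)]
      ring
    rw [← hevX, ← map_mul, h1, map_mul, hev0, mul_zero]
  have horth : ∀ i j, i ≠ j → ε i * ε j = 0 := by
    intro i j hij
    have h1 : (b i - b j) * (ε i * ε j) = 0 := by
      have e1 := hroot i
      have e2 := hroot j
      linear_combination (-(ε j)) * e1 + (ε i) * e2
    have h2 : ι (u i j) * (b i - b j) = 1 := by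
      change ι (u i j) * (ι (β i) - ι (β j)) = 1
      rw [← map_sub, ← map_mul, mul_comm, hu1 i j hij, map_one]
    calc ε i * ε j = (ι (u i j) * (b i - b j)) * (ε i * ε j) := by rw [h2, one_mul]
      _ = ι (u i j) * ((b i - b j) * (ε i * ε j)) := by ring
      _ = 0 := by rw [h1, mul_zero]
  have hidem : ∀ i, ε i * ε i = ε i := by
    intro i
    have h1 : ε i * ∑ j, ε j = ε i * ε i := by
      rw [Finset.mul_sum, Finset.sum_eq_single i]
      · intro j _ hj; exact horth i j hj.symm
      · intro h; exact absurd (Finset.mem_univ i) h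
    rw [← h1, hεsum, mul_one]
  -- every v ε_i is c ε_i
  have hpowa : ∀ i (P : B[X]), ev P * ε i = ι (P.eval (β i)) * ε i := by
    intro i P
    obtain ⟨Q, hQ⟩ : (X - C (β i)) ∣ P - C (P.eval (β i)) := by
      rw [dvd_iff_isRoot]; simp
    have h1 : P = (X - C (β i)) * Q + C (P.eval (β i)) := by rw [← hQ]; ring
    have h2 : ev P = (a - b i) * ev Q + ι (P.eval (β i)) := by
      conv_lhs => rw [h1]
      rw [map_add, map_mul, hevX]
      congr 1
      simp [ev]
    rw [h2, add_mul, mul_right_comm, hroot, zero_mul, zero_add]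
  have hgen : ∀ v : V, ∃ P : B[X], v = ev P := by
    intro v
    induction v using TensorProduct.induction_on with
    | zero => exact ⟨0, by simp⟩
    | tmul z l =>
      have hl : l ∈ Algebra.adjoin N {α} := by rw [hα]; trivial
      rw [Algebra.adjoin_singleton_eq_range_aeval] at hl
      obtain ⟨g, hg⟩ := hl
      refine ⟨C (z ⊗ₜ[K] (1 : N)) * g.map (rN E K N), ?_⟩
      have hg' : aeval α g = l := hg
      rw [map_mul, hevf, hg']
      have : ev (C (z ⊗ₜ[K] (1 : N))) = z ⊗ₜ[K] (1 : L) := by
        have h1 : ev (C (z ⊗ₜ[K] (1 : N))) = ι (z ⊗ₜ[K] (1 : N)) := by simp [ev]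
        rw [h1]
        have h2 := iNL_tmul E K N L z 1
        rw [map_one] at h2
        exact h2
      rw [this, Algebra.TensorProduct.tmul_mul_tmul, mul_one, one_mul]
    | add v w hv hw =>
      obtain ⟨P, rfl⟩ := hv
      obtain ⟨Q, rfl⟩ := hw
      exact ⟨P + Q, (map_add ev P Q).symm⟩
  have hspl' : ∀ i v, ∃ c : B, v * ε i = iNL E K N L c * ε i := by
    intro i v
    obtain ⟨P, rfl⟩ := hgen v
    exact ⟨P.eval (β i), hpowa i P⟩
  refine ⟨ε, horth, hidem, hεsum, hspl', ?_⟩
  -- injectivity by dimension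
  let S : (Fin n → B) →ₗ[E] V :=
    { toFun := fun c => ∑ i, iNL E K N L (c i) * ε i
      map_add' := fun c d => by
        rw [← Finset.sum_add_distrib]
        exact Finset.sum_congr rfl fun i _ => by rw [Pi.add_apply, map_add, add_mul]
      map_smul' := fun z c => by
        rw [RingHom.id_apply, Finset.smul_sum]
        exact Finset.sum_congr rfl fun i _ => by rw [Pi.smul_apply, map_smul, smul_mul_assoc] }
  have hSsurj : Function.Surjective S := by
    intro v
    choose c hc using fun i => hspl' i v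
    refine ⟨c, ?_⟩
    change ∑ i, iNL E K N L (c i) * ε i = v
    rw [Finset.sum_congr rfl fun i _ => (hc i).symm, ← Finset.mul_sum, hεsum, mul_one]
  have hKL : FiniteDimensional K L := FiniteDimensional.trans K N L
  have hdim : finrank E (Fin n → B) = finrank E V := by
    rw [Module.finrank_pi_fintype]
    simp only [Finset.sum_const, Finset.card_univ, Fintype.card_fin, smul_eq_mul]
    have e1 : finrank E B = finrank K N := Module.finrank_baseChange
    have e2 : finrank E V = finrank K L := Module.finrank_baseChange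
    rw [e1, e2, hn, mul_comm, Module.finrank_mul_finrank K N L]
  have hSinj : Function.Injective S :=
    (LinearMap.injective_iff_surjective_of_finrank_eq_finrank hdim).2 hSsurj
  intro i c hc
  have h1 : S (Pi.single i c) = 0 := by
    change ∑ j, iNL E K N L ((Pi.single i c : Fin n → B) j) * ε j = 0
    rw [Finset.sum_eq_single i]
    · rw [Pi.single_eq_same]; exact hc
    · intro j _ hj
      rw [Pi.single_eq_of_ne hj, map_zero, zero_mul]
    · intro h; exact absurd (Finset.mem_univ i) h
  have h2 : Pi.single i c = (0 : Fin n → B) := hSinj (by rw [h1, map_zero])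
  have := congrFun h2 i
  rwa [Pi.single_eq_same] at this

end Crest.Agent.R013.Gl946
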