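import Crest.Agent.R013.Gl6_946
import Crest.Agent.R013.Gl10_946

/-!
# Patching, part 12: construction of the cutting data.
-/

set_option autoImplicit false

namespace Crest.Agent.R013.Gl946

open Module TensorProduct Polynomial

/-! ### The idempotent of a `K`-point of `FP` -/

section Idem

variable {E F K : Type*} [Field E] [Field F] [Field K] [Algebra F E] [Algebra K E] [Algebra F K]
  [IsScalarTower F K E]

/-- `F → FP`. -/
def F2 (FP : Subfield E) (hF : ∀ f : F, algebraMap F E f ∈ FP) : F →+* FP :=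
  (algebraMap F E).codRestrict FP hF

/-- Data of the idempotent attached to `K → FP`. -/
structure IdemData (FP : Subfield E) (hF : ∀ f : F, algebraMap F E f ∈ FP)
    (hK : ∀ f : K, algebraMap K E f ∈ FP) where
  θ : K
  G : FP[X]
  adj : Algebra.adjoin F {θ} = ⊤
  ev : G.eval ⟨algebraMap K E θ, hK θ⟩ = 1
  dvd : ∃ c : FP, (X - C ⟨algebraMap K E θ, hK θ⟩) * G = C c * (minpoly F θ).map (F2 FP hF)

theorem exists_idemData [FiniteDimensional F K] [CharZero F] (FP : Subfield E)
    (hF : ∀ f : F, algebraMap F E f ∈ FP) (hK : ∀ f : K, algebraMap K E f ∈ FP) :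
    Nonempty (IdemData FP hF hK) := by
  obtain ⟨θ, hθ⟩ := Field.exists_primitive_element F K
  have hint : IsIntegral F θ := IsIntegral.of_finite F θ
  have hadj : Algebra.adjoin F {θ} = ⊤ := by
    have := IntermediateField.adjoin_simple_toSubalgebra_of_isAlgebraic hint.isAlgebraic
    rw [← this, hθ]; rfl
  set t : FP := ⟨algebraMap K E θ, hK θ⟩ with ht
  set mP : FP[X] := (minpoly F θ).map (F2 FP hF) with hmP
  have hmon : mP.Monic := (minpoly.monic hint).map _
  have hroot : mP.eval t = 0 := by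
    have h1 : FP.subtype (mP.eval t) = 0 := by
      rw [hmP, eval_map]
      have h2 : FP.subtype (eval₂ (F2 FP hF) t (minpoly F θ)) =
          eval₂ (FP.subtype.comp (F2 FP hF)) (FP.subtype t) (minpoly F θ) := by
        rw [hom_eval₂]
      rw [h2]
      have h3 : FP.subtype.comp (F2 FP hF) = (algebraMap K E).comp (algebraMap F K) := by
        ext f
        exact IsScalarTower.algebraMap_apply F K E f
      rw [h3]
      have h4 : FP.subtype t = algebraMap K E θ := rfl
      rw [h4, ← hom_eval₂]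
      have h5 : eval₂ (algebraMap F K) θ (minpoly F θ) = 0 := minpoly.aeval F θ
      rw [h5, map_zero]
    exact FP.subtype_injective (by rw [h1, map_zero])
  set G0 := mP /ₘ (X - C t) with hG0
  have hG0eq : (X - C t) * G0 = mP := mul_divByMonic_eq_iff_isRoot.2 hroot
  have hsep : (minpoly F θ).Separable := (minpoly.irreducible hint).separable
  have hG0t : G0.eval t ≠ 0 := by
    intro h0
    obtain ⟨Q, hQ⟩ := dvd_iff_isRoot.2 (show IsRoot G0 t from h0)
    have h1 : mP = (X - C t) * ((X - C t) * Q) := by rw [← hQ, hG0eq]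
    have h2 : mP.Separable := hsep.map
    have h3 := h2.squarefree (X - C t) ⟨Q, by rw [h1]; ring⟩
    exact not_isUnit_X_sub_C t h3
  refine ⟨⟨θ, C (G0.eval t)⁻¹ * G0, hadj, ?_, (G0.eval t)⁻¹, ?_⟩⟩
  · rw [eval_mul, eval_C]; exact inv_mul_cancel₀ hG0t
  · rw [← hmP, ← hG0eq]; ring

variable {FP : Subfield E} {hF : ∀ f : F, algebraMap F E f ∈ FP}
  {hK : ∀ f : K, algebraMap K E f ∈ FP} (I : IdemData FP hF hK)
  {T : Type*} [CommRing T] (φ : FP →+* T) (j : K →+* T)
  (hj : ∀ f : F, j (algebraMap F K f) = φ ⟨algebraMap F E f, hF f⟩)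

/-- The element `e` in a ring receiving `FP` and `K`. -/
noncomputable def IdemData.e : T := I.G.eval₂ φ (j I.θ)

include hj in
omit [IsScalarTower F K E] in
theorem IdemData.root : (j I.θ - φ ⟨algebraMap K E I.θ, hK I.θ⟩) * I.e φ j = 0 := by
  obtain ⟨c, hc⟩ := I.dvd
  have h1 : (j I.θ - φ ⟨algebraMap K E I.θ, hK I.θ⟩) * I.e φ j =
      eval₂ φ (j I.θ) ((X - C ⟨algebraMap K E I.θ, hK I.θ⟩) * I.G) := by
    rw [eval₂_mul, eval₂_sub, eval₂_X, eval₂_C]; rfl
  rw [h1, hc, eval₂_mul, eval₂_C, eval₂_map]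
  have h2 : φ.comp (F2 FP hF) = j.comp (algebraMap F K) := by
    ext f; exact (hj f).symm
  rw [h2, ← hom_eval₂]
  have h5 : eval₂ (algebraMap F K) I.θ (minpoly F I.θ) = 0 := minpoly.aeval F I.θ
  rw [h5, map_zero, mul_zero]

include hj in
theorem IdemData.mul_e (f : K) :
    j f * I.e φ j = φ ⟨algebraMap K E f, hK f⟩ * I.e φ j := by
  have hf : f ∈ Algebra.adjoin F {I.θ} := by rw [I.adj]; trivial
  refine Algebra.adjoin_induction (p := fun f _ => j f * I.e φ j =
    φ ⟨algebraMap K E f, hK f⟩ * I.e φ j) ?_ ?_ ?_ ?_ hf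
  · intro x hx
    rw [Set.mem_singleton_iff] at hx
    subst hx
    have := I.root φ j hj
    rw [sub_mul, sub_eq_zero] at this
    exact this
  · intro r
    rw [hj r]
    congr 3
    exact IsScalarTower.algebraMap_apply F K E r
  · intro x y _ _ hx hy
    have h1 : (⟨algebraMap K E (x + y), hK _⟩ : FP) =
        ⟨algebraMap K E x, hK x⟩ + ⟨algebraMap K E y, hK y⟩ := by ext; simp
    rw [map_add, add_mul, hx, hy, h1, map_add, add_mul]
  · intro x y _ _ hx hy
    have h1 : (⟨algebraMap K E (x * y), hK _⟩ : FP) =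
        ⟨algebraMap K E x, hK x⟩ * ⟨algebraMap K E y, hK y⟩ := by ext; simp
    rw [map_mul, h1, map_mul, mul_assoc, hy, mul_left_comm, hx]; ring

include hj in
theorem IdemData.poly_mul_e (P : FP[X]) :
    P.eval₂ φ (j I.θ) * I.e φ j = φ (P.eval ⟨algebraMap K E I.θ, hK I.θ⟩) * I.e φ j := by
  obtain ⟨Q, hQ⟩ : (X - C ⟨algebraMap K E I.θ, hK I.θ⟩) ∣
      P - C (P.eval ⟨algebraMap K E I.θ, hK I.θ⟩) := by
    rw [dvd_iff_isRoot]; simp
  have h1 : P = (X - C ⟨algebraMap K E I.θ, hK I.θ⟩) * Q +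
      C (P.eval ⟨algebraMap K E I.θ, hK I.θ⟩) := by rw [← hQ]; ring
  have h2 : P.eval₂ φ (j I.θ) = (j I.θ - φ ⟨algebraMap K E I.θ, hK I.θ⟩) * Q.eval₂ φ (j I.θ) +
      φ (P.eval ⟨algebraMap K E I.θ, hK I.θ⟩) := by
    conv_lhs => rw [h1]
    rw [eval₂_add, eval₂_mul, eval₂_sub, eval₂_X, eval₂_C, eval₂_C]
  have h3 := I.root φ j hj
  rw [h2]
  linear_combination (Q.eval₂ φ (j I.θ)) * h3

include hj in
theorem IdemData.e_idem : I.e φ j * I.e φ j = I.e φ j := by
  have h1 : I.e φ j = I.G.eval₂ φ (j I.θ) := rfl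
  have h2 := I.poly_mul_e φ j hj I.G
  rw [I.ev, map_one, one_mul] at h2
  exact h2

omit [IsScalarTower F K E] in
theorem IdemData.e_inside (h : j I.θ = φ ⟨algebraMap K E I.θ, hK I.θ⟩) : I.e φ j = 1 := by
  unfold IdemData.e
  rw [h]
  have : eval₂ φ (φ ⟨algebraMap K E I.θ, hK I.θ⟩) I.G =
      φ (I.G.eval ⟨algebraMap K E I.θ, hK I.θ⟩) := by
    rw [← eval₂_id, hom_eval₂]; simp
  rw [this, I.ev, map_one]

include hj in
theorem IdemData.e_outside [IsDomain T] (h : j I.θ ≠ φ ⟨algebraMap K E I.θ, hK I.θ⟩) :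
    I.e φ j = 0 :=
  (mul_eq_zero.1 (I.root φ j hj)).resolve_left (sub_ne_zero.2 h)

omit [IsScalarTower F K E] in
theorem IdemData.e_eq_sum : I.e φ j =
    ∑ i : Fin (I.G.natDegree + 1), φ (I.G.coeff i) * j (I.θ ^ (i : ℕ)) := by
  unfold IdemData.e
  rw [eval₂_eq_sum_range, Finset.sum_range]
  exact Finset.sum_congr rfl fun i _ => by rw [map_pow]

end Idem

/-! ### Construction -/

section Construct

variable {E F K N L : Type*} [Field E] [Field F] [Field K] [Field N] [Field L]
  [Algebra F E] [Algebra K E] [Algebra F K] [Algebra F N] [Algebra F L] [Algebra K N] [Algebra K L]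
  [Algebra N L] [IsScalarTower F K E] [IsScalarTower F K N] [IsScalarTower F K L]
  [IsScalarTower F N L] [IsScalarTower K N L]

/-- `L → E ⊗ L`. -/
noncomputable def rL (E F L : Type*) [Field E] [Field F] [Field L] [Algebra F E] [Algebra F L] :
    L →+* E ⊗[F] L :=
  (Algebra.TensorProduct.includeRight : L →ₐ[F] E ⊗[F] L).toRingHom

theorem rL_apply (l : L) : rL E F L l = 1 ⊗ₜ[F] l := rfl

theorem tmul_eq_smul_rL (z : E) (l : L) : (z ⊗ₜ[F] l : E ⊗[F] L) = z • rL E F L l := by
  rw [rL_apply, TensorProduct.smul_tmul', smul_eq_mul, mul_one]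

theorem exists_tau (e : E ⊗[F] L)
    (he : ∀ (f : K), rL E F L (algebraMap K L f) * e = algebraMap E (E ⊗[F] L) (algebraMap K E f) * e) :
    ∃ τ : E ⊗[K] L →+ E ⊗[F] L, ∀ (z : E) (l : L), τ (z ⊗ₜ l) = (z ⊗ₜ[F] l) * e := by
  refine ⟨TensorProduct.liftAddHom
    { toFun := fun z =>
        { toFun := fun l => (z ⊗ₜ[F] l) * e
          map_zero' := by rw [tmul_zero, zero_mul]
          map_add' := fun l l' => by rw [tmul_add, add_mul] }
      map_zero' := by ext l; simp
      map_add' := fun z z' => by ext l; simp [add_tmul, add_mul] } ?_, ?_⟩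
  · intro r z l
    change ((r • z) ⊗ₜ[F] l) * e = (z ⊗ₜ[F] (r • l)) * e
    rw [Algebra.smul_def, Algebra.smul_def]
    have h1 : ((algebraMap K E r * z) ⊗ₜ[F] l : E ⊗[F] L) =
        algebraMap E (E ⊗[F] L) (algebraMap K E r) * (z ⊗ₜ[F] l) := by
      rw [Algebra.TensorProduct.algebraMap_apply, Algebra.TensorProduct.tmul_mul_tmul, one_mul]; rfl
    have h2 : (z ⊗ₜ[F] (algebraMap K L r * l) : E ⊗[F] L) =
        rL E F L (algebraMap K L r) * (z ⊗ₜ[F] l) := by
      rw [rL_apply, Algebra.TensorProduct.tmul_mul_tmul, one_mul]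
    rw [h1, h2, mul_right_comm, ← he, mul_right_comm]
  · intro z l
    rfl

/-- **Construction of the cutting data.** -/
theorem exists_cutData [CharZero F] [FiniteDimensional F K] [FiniteDimensional F L]
    (D : PatchDatum E) (hF0 : ∀ z, z ∈ D.F0 ↔ ∃ f : F, algebraMap F E f = z)
    (hF : ∀ f : F, algebraMap F E f ∈ D.FP) (hK : ∀ f : K, algebraMap K E f ∈ D.FP)
    (I : IdemData D.FP hF hK)
    {n : ℕ} (ε' : Fin n → E ⊗[K] L) (orth : ∀ i j, i ≠ j → ε' i * ε' j = 0)
    (idem : ∀ i, ε' i * ε' i = ε' i) (sum : ∑ i, ε' i = 1)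
    (spl : ∀ i v, ∃ c : E ⊗[K] N, v * ε' i = iNL E K N L c * ε' i)
    (inj : ∀ i (c : E ⊗[K] N), iNL E K N L c * ε' i = 0 → c = 0) :
    ∃ C : CutData D (E ⊗[F] L) (finrank F L) n,
      C.L = (rL E F L).range ∧ C.N = ((rL E F L).comp (algebraMap N L)).range ∧
      C.e = I.e (T := E ⊗[F] L) ((algebraMap E (E ⊗[F] L)).comp D.FP.subtype)
        ((rL E F L).comp (algebraMap K L)) := by
  classical
  set φ : D.FP →+* E ⊗[F] L := (algebraMap E (E ⊗[F] L)).comp D.FP.subtype with hφ
  set j : K →+* E ⊗[F] L := (rL E F L).comp (algebraMap K L) with hj0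
  have hj : ∀ f : F, j (algebraMap F K f) = φ ⟨algebraMap F E f, hF f⟩ := by
    intro f
    change (1 : E) ⊗ₜ[F] (algebraMap K L (algebraMap F K f)) =
      (algebraMap F E f) ⊗ₜ[F] (1 : L)
    rw [← IsScalarTower.algebraMap_apply, Algebra.algebraMap_eq_smul_one,
      Algebra.algebraMap_eq_smul_one, TensorProduct.smul_tmul]
  set e : E ⊗[F] L := I.e φ j with he
  have hee : e * e = e := I.e_idem φ j hj
  have hKe : ∀ f : K, rL E F L (algebraMap K L f) * e =
      algebraMap E (E ⊗[F] L) (algebraMap K E f) * e := fun f => I.mul_e φ j hj f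
  obtain ⟨τ, hτ⟩ := exists_tau e hKe
  -- the quotient map
  let q : E ⊗[F] L →ₐ[E] E ⊗[K] L := Algebra.TensorProduct.mapOfCompatibleSMul K F E E L
  have hq : ∀ (z : E) (l : L), q (z ⊗ₜ l) = z ⊗ₜ l := fun z l => rfl
  have hqsurj : Function.Surjective q :=
    Algebra.TensorProduct.mapOfCompatibleSMul_surjective K F E E L
  have hτq : ∀ v, τ (q v) = v * e := by
    intro v
    induction v using TensorProduct.induction_on with
    | zero => simp
    | tmul z l => rw [hq, hτ]
    | add v w hv hw => rw [map_add, map_add, hv, hw, add_mul]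
  have hker : ∀ v, q v = 0 → v * e = 0 := fun v hv => by rw [← hτq, hv, map_zero]
  have hqe : q e = 1 := by
    -- `q ∘ φ` and `q ∘ j` agree at `θ`
    have h1 : q e = I.e (T := E ⊗[K] L) (q.toRingHom.comp φ) (q.toRingHom.comp j) := by
      change q (I.G.eval₂ φ (j I.θ)) = I.G.eval₂ (q.toRingHom.comp φ) (q (j I.θ))
      exact hom_eval₂ _ _ _ _
    rw [h1]
    refine I.e_inside _ _ ?_
    change (1 : E) ⊗ₜ[K] (algebraMap K L I.θ) = (algebraMap K E I.θ) ⊗ₜ[K] (1 : L)
    rw [Algebra.algebraMap_eq_smul_one, Algebra.algebraMap_eq_smul_one, TensorProduct.smul_tmul]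
  choose w hw using fun i => hqsurj (ε' i)
  -- N side
  let qN : E ⊗[F] N →ₐ[E] E ⊗[K] N := Algebra.TensorProduct.mapOfCompatibleSMul K F E E N
  have hqNsurj : Function.Surjective qN :=
    Algebra.TensorProduct.mapOfCompatibleSMul_surjective K F E E N
  have hcomm : ∀ c : E ⊗[F] N, q (iNL E F N L c) = iNL E K N L (qN c) := by
    intro c
    induction c using TensorProduct.induction_on with
    | zero => simp
    | tmul z x =>
      rw [iNL_tmul, hq]
      change _ = iNL E K N L (z ⊗ₜ[K] x)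
      rw [iNL_tmul]
    | add v w hv hw => rw [map_add, map_add, map_add, map_add, hv, hw]
  set NN : Subring (E ⊗[F] L) := ((rL E F L).comp (algebraMap N L)).range with hNN
  have hspanN : ∀ c : E ⊗[F] N, iNL E F N L c ∈ Submodule.span E (NN : Set (E ⊗[F] L)) := by
    intro c
    induction c using TensorProduct.induction_on with
    | zero => rw [map_zero]; exact zero_mem _
    | tmul z x =>
      rw [iNL_tmul, tmul_eq_smul_rL]
      exact Submodule.smul_mem _ _ (Submodule.subset_span ⟨x, rfl⟩)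
    | add v w hv hw => rw [map_add]; exact add_mem hv hw
  have hspanN' : ∀ v ∈ Submodule.span E (NN : Set (E ⊗[F] L)), ∃ c, iNL E F N L c = v := by
    intro v hv
    refine Submodule.span_induction ?_ ?_ ?_ ?_ hv
    · rintro _ ⟨x, rfl⟩
      exact ⟨1 ⊗ₜ x, by rw [iNL_tmul]; rfl⟩
    · exact ⟨0, map_zero _⟩
    · rintro _ _ _ _ ⟨c, rfl⟩ ⟨c', rfl⟩
      exact ⟨c + c', map_add _ _ _⟩
    · rintro z _ _ ⟨c, rfl⟩
      exact ⟨z • c, map_smul _ _ _⟩
  set bU : Basis (Fin (finrank F L)) E (E ⊗[F] L) := (Module.finBasis F L).baseChange E with hbU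
  have hL : ∀ v, v ∈ (rL E F L).range ↔ v ∈ cs bU D.F0.toSubring := by
    intro v
    constructor
    · rintro ⟨l, rfl⟩ i
      rw [rL_apply, hbU, Basis.baseChange_repr_tmul]
      refine (hF0 _).2 ⟨(Module.finBasis F L).repr l i, ?_⟩
      rw [Algebra.algebraMap_eq_smul_one]
    · intro hv
      choose f hf using fun i => (hF0 _).1 (hv i)
      refine ⟨∑ i, f i • Module.finBasis F L i, ?_⟩
      rw [map_sum]
      conv_rhs => rw [← bU.sum_repr v]
      refine Finset.sum_congr rfl fun i _ => ?_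
      rw [← hf i, hbU, Basis.baseChange_apply, rL_apply, TensorProduct.tmul_smul,
        algebraMap_smul]
  have hNL : NN ≤ (rL E F L).range := by
    rintro _ ⟨x, rfl⟩; exact ⟨algebraMap N L x, rfl⟩
  have hw2 : ∀ i, (w i * e) * e = w i * e := fun i => by rw [mul_assoc, hee]
  refine ⟨{
      bU := bU
      L := (rL E F L).range
      hL := hL
      N := NN
      hN := hNL
      hF0N := ?_
      e := e
      he := hee
      heN := ?_
      ε := fun i => w i * e
      orth := ?_
      idem := ?_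
      sum := ?_
      spl := ?_
      inj := ?_ }, rfl, rfl, rfl⟩
  · intro z hz
    obtain ⟨f, rfl⟩ := (hF0 z).1 hz
    refine ⟨algebraMap F N f, ?_⟩
    change (1 : E) ⊗ₜ[F] (algebraMap N L (algebraMap F N f)) = (algebraMap F E f) ⊗ₜ[F] (1 : L)
    rw [← IsScalarTower.algebraMap_apply, Algebra.algebraMap_eq_smul_one,
      Algebra.algebraMap_eq_smul_one, TensorProduct.smul_tmul]
  · rw [he, I.e_eq_sum]
    refine Submodule.sum_mem _ fun i _ => ?_
    have : φ (I.G.coeff i) * j (I.θ ^ (i : ℕ)) = (I.G.coeff i) • j (I.θ ^ (i : ℕ)) := by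
      rw [Subfield.smul_def, Algebra.smul_def]; rfl
    rw [this]
    refine Submodule.smul_mem _ _ (Submodule.subset_span ⟨algebraMap K N (I.θ ^ (i : ℕ)), ?_⟩)
    change rL E F L (algebraMap N L (algebraMap K N _)) = rL E F L (algebraMap K L _)
    rw [← IsScalarTower.algebraMap_apply]
  · intro i i' hii
    have h1 : q (w i * w i') = 0 := by rw [map_mul, hw, hw, orth i i' hii]
    have h2 := hker _ h1
    calc w i * e * (w i' * e) = (w i * w i' * e) * e := by ring
      _ = 0 := by rw [h2, zero_mul]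
  · intro i
    have h1 : q (w i * w i - w i) = 0 := by rw [map_sub, map_mul, hw, idem, sub_self]
    have h2 := hker _ h1
    calc w i * e * (w i * e) = w i * w i * (e * e) := by ring
      _ = (w i * w i - w i) * e + w i * e := by rw [hee]; ring
      _ = w i * e := by rw [h2, zero_add]
  · have h1 : q (∑ i, w i - 1) = 0 := by
      rw [map_sub, map_sum, Finset.sum_congr rfl fun i _ => hw i, sum, map_one, sub_self]
    have h2 := hker _ h1
    rw [← Finset.sum_mul]
    linear_combination h2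
  · intro i v
    obtain ⟨c', hc'⟩ := spl i (q v)
    obtain ⟨c, rfl⟩ := hqNsurj c'
    refine ⟨iNL E F N L c, hspanN c, ?_⟩
    have h1 : q (v * w i - iNL E F N L c * w i) = 0 := by
      rw [map_sub, map_mul, map_mul, hw, hc', hcomm, sub_self]
    have h2 := hker _ h1
    linear_combination h2
  · intro i v hv hv0
    obtain ⟨c, rfl⟩ := hspanN' v hv
    have h1 : q (iNL E F N L c * (w i * e)) = 0 := by rw [hv0, map_zero]
    rw [map_mul, map_mul, hqe, mul_one, hw, hcomm] at h1
    have h2 := inj i _ h1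
    refine hker _ ?_
    rw [hcomm, h2, map_zero]

end Construct

end Crest.Agent.R013.Gl946
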