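import Crest.Agent.R013.Gl13_946
import Crest.Agent.R013.SE_669
import Crest.Agent.R013.Gl11_946
import Crest.Agent.R013.Gl12_946

/-!
# Patching, part 14: preparations for the cutting theorem with valuations.
-/

set_option autoImplicit false

namespace Crest.Agent.R013.Gl946

open Filter Topology Polynomial
open scoped NNReal
open Crest.Agent.R013.A2a_275 (Cpl toCpl norm_toCpl)
open Crest.Agent.R013.SE_669 (cl)
open Crest.NumberTheoryR.Sect (IsPlace)

/-- Values of homomorphisms at integral elements lie in the image of an algebraically closed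
field. -/
theorem mem_range_of_integral {F R Kb Ω : Type*} [Field F] [CommRing R] [Algebra F R] [Field Kb]
    [IsAlgClosed Kb] [Field Ω] (i : Kb →+* Ω) (j : F →+* Kb) (g : R →+* Ω)
    (hg : ∀ f, g (algebraMap F R f) = i (j f)) (a : R) (ha : IsIntegral F a) :
    ∃ b, i b = g a := by
  obtain ⟨p, hm, hp⟩ := ha
  have h1 : (p.map j).Splits := IsAlgClosed.splits _
  have h0 : p.map j ≠ 0 := (hm.map j).ne_zero
  have h2 : ((p.map j).map i).IsRoot (g a) := by
    rw [IsRoot.def, Polynomial.map_map, eval_map]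
    have : i.comp j = g.comp (algebraMap F R) := by ext f; exact (hg f).symm
    rw [this, ← hom_eval₂, hp, map_zero]
  obtain ⟨b, hb⟩ := h1.mem_range_of_isRoot h0 h2
  exact ⟨b, hb⟩

section Val

variable {Kb : Type*} [Field Kb]

/-- The topological closure of a subfield in the completion. -/
noncomputable def clS (v : Valuation Kb ℝ≥0) (S : Subfield Kb) : Subfield (Cpl v) :=
  (S.map (toCpl v)).topologicalClosure

theorem isClosed_clS (v : Valuation Kb ℝ≥0) (S : Subfield Kb) :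
    IsClosed (clS v S : Set (Cpl v)) := Subfield.isClosed_topologicalClosure _

theorem toCpl_mem_clS (v : Valuation Kb ℝ≥0) (S : Subfield Kb) {a : Kb} (ha : a ∈ S) :
    toCpl v a ∈ clS v S :=
  Subfield.le_topologicalClosure _ ⟨a, ha, rfl⟩

theorem clS_mono (v : Valuation Kb ℝ≥0) {S T : Subfield Kb} (h : S ≤ T) : clS v S ≤ clS v T := by
  refine Subfield.topologicalClosure_minimal _ ?_ (isClosed_clS v T)
  rintro _ ⟨a, ha, rfl⟩
  exact toCpl_mem_clS v T (h ha)

theorem mem_clS_iff (v : Valuation Kb ℝ≥0) (S : Subfield Kb) (a : Kb) :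
    toCpl v a ∈ clS v S ↔ a ∈ cl v (S : Set Kb) := by
  have h : toCpl v a ∈ clS v S ↔ toCpl v a ∈ closure ((S.map (toCpl v) : Subfield (Cpl v)) :
    Set (Cpl v)) := Iff.rfl
  rw [h, Metric.mem_closure_iff]
  constructor
  · intro h ε hε
    obtain ⟨_, ⟨b, hb, rfl⟩, h2⟩ := h ε hε
    refine ⟨b, hb, ?_⟩
    rw [dist_eq_norm, ← map_sub, norm_toCpl] at h2
    exact_mod_cast h2
  · intro h ε hε
    obtain ⟨b, hb, h2⟩ := h ⟨ε, hε.le⟩ hε
    refine ⟨toCpl v b, ⟨b, hb, rfl⟩, ?_⟩
    rw [dist_eq_norm, ← map_sub, norm_toCpl]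
    exact_mod_cast h2

/-- A valuation bounded by `1` on a subfield is bounded by `1` on algebraic elements. -/
theorem le_one_of_algebraic {F : Type*} [Field F] [Algebra F Kb] [Algebra.IsAlgebraic F Kb]
    (v : Valuation Kb ℝ≥0) (h : ∀ f : F, v (algebraMap F Kb f) ≤ 1) (a : Kb) : v a ≤ 1 := by
  obtain ⟨p, hm, hp⟩ := (Algebra.IsAlgebraic.isAlgebraic (R := F) a).isIntegral
  let r : F →+* v.valuationSubring := (algebraMap F Kb).codRestrict v.valuationSubring.toSubring h
  have hint : IsIntegral v.valuationSubring a := by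
    refine ⟨p.map r, hm.map r, ?_⟩
    rw [eval₂_map]
    exact hp
  obtain ⟨b, hb⟩ := IsIntegrallyClosed.algebraMap_eq_of_integral hint
  rw [← hb]; exact b.2

theorem exists_lt_one {F : Type*} [Field F] [Algebra F Kb] [Algebra.IsAlgebraic F Kb]
    (v : Valuation Kb ℝ≥0) (h : ∃ a : Kb, v a ≠ 0 ∧ v a ≠ 1) :
    ∃ f : F, f ≠ 0 ∧ v (algebraMap F Kb f) < 1 := by
  by_contra hcon
  push Not at hcon
  obtain ⟨a, ha0, ha1⟩ := h
  have h1 : ∀ f : F, v (algebraMap F Kb f) ≤ 1 := by
    intro f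
    by_cases hf : f = 0
    · rw [hf, map_zero, map_zero]; exact zero_le_one
    · have := hcon f⁻¹ (inv_ne_zero hf)
      rw [map_inv₀, map_inv₀] at this
      have h0 : v (algebraMap F Kb f) ≠ 0 := by
        rw [Valuation.ne_zero_iff]; exact (_root_.map_ne_zero _).2 hf
      exact (one_le_inv₀ (pos_iff_ne_zero.2 h0)).1 this
  have h2 := le_one_of_algebraic v h1 a
  have h3 := le_one_of_algebraic v h1 a⁻¹
  rw [map_inv₀] at h3
  have h4 : 1 ≤ v a := (inv_le_one₀ (pos_iff_ne_zero.2 ha0)).1 h3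
  exact ha1 (le_antisymm h2 h4)

end Val

section Datum

variable {k E : Type*} [NormedField k] [NormedField E] [NormedAlgebra k E] [IsUltrametricDist E]
  [CompleteSpace E] {y : E}

/-- The patching datum of the disc `|y| < 1`. -/
noncomputable def gaussDatum [CompleteSpace k] (hG : IsGauss k y) {π : k} (hπ : IsUnif π)
    (hd : DenseRat k y) : PatchDatum E where
  F0 := KY hG
  FP := FP hG hπ hd
  RU := RU k y
  F0_le_FP := KY_le_FP hG hπ hd
  F0_le_RU := fun z hz => KY_le_RU hG hz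
  inter := fun z h1 h2 => inter_FP_RU hG hπ hd z h1 h2
  fac := fun _ M M' h => fac_RU_FP hG hπ hd M M' h

end Datum

section Maps

variable {k E : Type*} [NontriviallyNormedField k] [CompleteSpace k] [IsUltrametricDist k]
  [NormedField E] [NormedAlgebra k E] [IsUltrametricDist E] [CompleteSpace E] {y : E}
  (hG : IsGauss k y)
variable {F Kb : Type*} [Field F] [Field Kb] [Algebra F E] [Algebra F Kb] [Algebra k F]
  [IsScalarTower k F E] [Algebra k Kb] [IsScalarTower k F Kb]
  (hF0 : ∀ z, z ∈ KY hG ↔ ∃ f : F, algebraMap F E f = z)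

omit [CompleteSpace k] [IsUltrametricDist k] [IsUltrametricDist E] [CompleteSpace E]
  [Algebra k F] [IsScalarTower k F E] in
include hF0 in
/-- The inverse of `F ≃ k(y)`. -/
theorem exists_sigma : ∃ σ : KY hG →+* F, (∀ z, algebraMap F E (σ z) = z) ∧
    ∀ (f : F) (h : algebraMap F E f ∈ KY hG), σ ⟨algebraMap F E f, h⟩ = f := by
  let e : F ≃+* KY hG := RingEquiv.ofBijective ((algebraMap F E).codRestrict (KY hG)
      fun f => (hF0 _).2 ⟨f, rfl⟩) ⟨fun a b hab => (algebraMap F E).injective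
        (congrArg Subtype.val hab), fun z => by
          obtain ⟨f, hf⟩ := (hF0 _).1 z.2
          exact ⟨f, Subtype.ext hf⟩⟩
  refine ⟨e.symm.toRingHom, fun z => ?_, fun f h => ?_⟩
  · have := e.apply_symm_apply z
    exact congrArg Subtype.val this
  · exact e.symm_apply_apply f

include hF0 in
/-- **Existence of the local maps**, for a norm or a place `v` of `Kb`. -/
theorem exists_map_val [Algebra.IsAlgebraic F Kb] {π : k} (hπ : IsUnif π) (hd : DenseRat k y)
    (v : Valuation Kb ℝ≥0) (hv : (∀ c : k, v (algebraMap k Kb c) = ‖c‖₊) ∨ IsPlace k v) :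
    (∃ Φ : RU k y →+* Cpl v, (∀ (f : F) (h : algebraMap F E f ∈ RU k y),
        Φ ⟨algebraMap F E f, h⟩ = toCpl v (algebraMap F Kb f)) ∧
        ∀ r, Φ r ∈ clS v (algebraMap F Kb).fieldRange) ∨
    (∃ Φ : FP hG hπ hd →+* Cpl v, (∀ (f : F) (h : algebraMap F E f ∈ FP hG hπ hd),
        Φ ⟨algebraMap F E f, h⟩ = toCpl v (algebraMap F Kb f)) ∧
        ∀ r, Φ r ∈ clS v (algebraMap F Kb).fieldRange) := by
  obtain ⟨σ, hσ, hσ'⟩ := exists_sigma hG hF0
  have hmemF : ∀ f : F, algebraMap F E f ∈ KY hG := fun f => (hF0 _).2 ⟨f, rfl⟩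
  have hconst : ∀ c : k, toCpl v (algebraMap F Kb (σ ⟨algebraMap k E c, const_mem_KY hG c⟩)) =
      toCpl v (algebraMap k Kb c) := by
    intro c
    have e1 : (⟨algebraMap k E c, const_mem_KY hG c⟩ : KY hG) =
        ⟨algebraMap F E (algebraMap k F c), hmemF _⟩ := by
      ext; exact IsScalarTower.algebraMap_apply k F E c
    rw [e1, hσ', ← IsScalarTower.algebraMap_apply]
  have hcase : (∀ c : k, ‖((toCpl v).comp ((algebraMap F Kb).comp σ))
      ⟨algebraMap k E c, const_mem_KY hG c⟩‖ ≤ ‖c‖) ∨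
      ((∀ c : k, ‖((toCpl v).comp ((algebraMap F Kb).comp σ))
      ⟨algebraMap k E c, const_mem_KY hG c⟩‖ ≤ 1) ∧ ∃ z : KY hG, z ≠ 0 ∧
      ‖((toCpl v).comp ((algebraMap F Kb).comp σ)) z‖ < 1) := by
    rcases hv with hv | ⟨hv, hnt⟩
    · left
      intro c
      change ‖toCpl v (algebraMap F Kb (σ _))‖ ≤ _
      rw [hconst, norm_toCpl, hv]; rfl
    · right
      constructor
      · intro c
        change ‖toCpl v (algebraMap F Kb (σ _))‖ ≤ _
        rw [hconst, norm_toCpl]
        by_cases hc : c = 0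
        · rw [hc, map_zero, map_zero]; simp
        · rw [hv c hc]; simp
      · obtain ⟨f, hf0, hf⟩ := exists_lt_one (F := F) v hnt
        refine ⟨⟨algebraMap F E f, hmemF f⟩, ?_, ?_⟩
        · intro h
          exact hf0 ((map_eq_zero (algebraMap F E)).1 (congrArg Subtype.val h))
        · change ‖toCpl v (algebraMap F Kb (σ _))‖ < _
          rw [hσ', norm_toCpl]; exact_mod_cast hf
  rcases exists_map hG hπ hd ((toCpl v).comp ((algebraMap F Kb).comp σ)) hcase
    (clS v (algebraMap F Kb).fieldRange) (isClosed_clS _ _)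
    (fun z => toCpl_mem_clS v _ ⟨σ z, rfl⟩) with ⟨Φ, h1, h2⟩ | ⟨Φ, h1, h2⟩
  · left
    refine ⟨Φ, fun f h => ?_, h2⟩
    rw [h1 _ (hmemF f)]
    change toCpl v (algebraMap F Kb (σ _)) = _
    rw [hσ']
  · right
    refine ⟨Φ, fun f h => ?_, h2⟩
    rw [h1 _ (hmemF f)]
    change toCpl v (algebraMap F Kb (σ _)) = _
    rw [hσ']

omit [CompleteSpace k] [IsUltrametricDist k] in
include hF0 in
/-- The map on `RU` for a norm `v` with `v y ≥ 1`. -/
theorem exists_mapRU_val (v : Valuation Kb ℝ≥0) (hv : ∀ c : k, v (algebraMap k Kb c) = ‖c‖₊)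
    (yF : F) (hyF : algebraMap F E yF = y) (hvy : 1 ≤ v (algebraMap F Kb yF)) :
    ∃ Φ : RU k y →+* Cpl v, (∀ (f : F) (h : algebraMap F E f ∈ RU k y),
        Φ ⟨algebraMap F E f, h⟩ = toCpl v (algebraMap F Kb f)) ∧
        ∀ r, Φ r ∈ clS v (algebraMap F Kb).fieldRange := by
  obtain ⟨σ, hσ, hσ'⟩ := exists_sigma hG hF0
  have hmemF : ∀ f : F, algebraMap F E f ∈ KY hG := fun f => (hF0 _).2 ⟨f, rfl⟩
  have hconst : ∀ c : k, toCpl v (algebraMap F Kb (σ ⟨algebraMap k E c, const_mem_KY hG c⟩)) =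
      toCpl v (algebraMap k Kb c) := by
    intro c
    have e1 : (⟨algebraMap k E c, const_mem_KY hG c⟩ : KY hG) =
        ⟨algebraMap F E (algebraMap k F c), hmemF _⟩ := by
      ext; exact IsScalarTower.algebraMap_apply k F E c
    rw [e1, hσ', ← IsScalarTower.algebraMap_apply]
  obtain ⟨Φ, h1, h2⟩ := mapRU_norm hG ((toCpl v).comp ((algebraMap F Kb).comp σ)) (by
      intro c
      change ‖toCpl v (algebraMap F Kb (σ _))‖ ≤ _
      rw [hconst, norm_toCpl, hv]; rfl) (by
      change ‖toCpl v (algebraMap F Kb (σ _))‖ ≤ _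
      have e1 : (⟨y⁻¹, yinv_mem_KY hG⟩ : KY hG) =
        ⟨algebraMap F E yF⁻¹, hmemF _⟩ := by
          ext; change y⁻¹ = algebraMap F E yF⁻¹; rw [map_inv₀, hyF]
      rw [e1, hσ', norm_toCpl, map_inv₀, map_inv₀]
      have : (v (algebraMap F Kb yF))⁻¹ ≤ 1 := inv_le_one_of_one_le₀ hvy
      exact_mod_cast this)
    (clS v (algebraMap F Kb).fieldRange) (isClosed_clS _ _)
    (fun z => toCpl_mem_clS v _ ⟨σ z, rfl⟩)
  refine ⟨Φ, fun f h => ?_, h2⟩
  rw [h1 _ (hmemF f)]
  change toCpl v (algebraMap F Kb (σ _)) = _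
  rw [hσ']

end Maps

end Crest.Agent.R013.Gl946
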