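import Crest.Agent.R013.CutCov1_92

/-!
# The cut cover (row 13, part B), type level

`X : Edge D V d`, `U` a field with `j : U → V` onto `X.L`.  A `CutCover` is a field `W` over `U` with
homs `a i : W → U ⊗ RU`, `bb i : W → U ⊗ FP` (`i : ZMod n`), glued along `1 - e` by the identity and
along `e` by the shift, with the rotation `σ`.  It exists when `e` is not a bridge; it is cyclic
Galois of degree `n`.
-/

set_option autoImplicit false
set_option linter.unusedSectionVars false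

namespace Crest.Agent.R013.CutCov_92

open Module Crest.Agent.R013.Gl946

variable {E V : Type*} [Field E] [CommRing V] [Algebra E V] {D : PatchDatum E} {d : ℕ}

/-- Type level packaging of the cut cover. -/
structure CutCover (X : Edge D V d) {U : Type*} [Field U] (j : U →+* V) (n : ℕ)
    (W : Type*) [Field W] [Algebra U W] where
  /-- the copies over the outside -/
  a : ZMod n → (W →+* V)
  /-- the copies over the disc -/
  bb : ZMod n → (W →+* V)
  a_alg : ∀ i u, a i (algebraMap U W u) = j u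
  b_alg : ∀ i u, bb i (algebraMap U W u) = j u
  a_mem : ∀ i w, a i w ∈ X.VU
  b_mem : ∀ i w, bb i w ∈ X.VP
  b_eq : ∀ i w, bb i w = (1 - X.e) * a i w + X.e * a (i - 1) w
  surj : ∀ v : ZMod n → V, (∀ i, v i ∈ X.VU) → (∀ i, tau (E := E) X.e X.he n v i ∈ X.VP) →
    ∃ w, ∀ i, a i w = v i
  /-- the rotation -/
  σ : W ≃ₐ[U] W
  a_σ : ∀ i w, a i (σ w) = a (i + 1) w
  b_σ : ∀ i w, bb i (σ w) = bb (i + 1) w
  /-- a common basis -/
  B : Basis (Fin (n * d)) E (ZMod n → V)
  κ : Fin (n * d) → W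
  hκ : ∀ k i, B k i = a i (κ k)
  hBU : ∀ v, v ∈ cs B D.RU ↔ ∀ i, v i ∈ X.VU
  hBP : ∀ v, v ∈ cs B D.FP.toSubring ↔ ∀ i, tau (E := E) X.e X.he n v i ∈ X.VP
  hBF : ∀ v, v ∈ cs B D.F0.toSubring ↔ ∃ w, v = fun i => a i w

universe uV

theorem exists_cutCover {V : Type uV} [CommRing V] [Algebra E V] (X : Edge D V d) {U : Type*} [Field U]
    (j : U →+* V) (hj : ∀ v, v ∈ X.L ↔ ∃ u, j u = v) (hF0 : ∀ z ∈ D.F0, algebraMap E V z ∈ X.L)
    (n : ℕ) [NeZero n] [IsReduced V] (hNB : X.NonBridge)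
    (he0 : X.e ≠ 0) :
    ∃ (W : Type uV) (_ : Field W) (_ : Algebra U W), Nonempty (CutCover X j n W) := by
  classical
  have hVnt : Nontrivial V := ⟨⟨X.e, 0, he0⟩⟩
  have hid : ∀ x ∈ X.L, x * x = x → x = 0 ∨ x = 1 := by
    intro x hx hxx
    obtain ⟨u, rfl⟩ := (hj x).1 hx
    have h1 : u * u = u := j.injective (by rw [map_mul]; exact hxx)
    have h2 : u * (u - 1) = 0 := by linear_combination h1
    rcases mul_eq_zero.1 h2 with h | h
    · left; rw [h, map_zero]
    · right; rw [sub_eq_zero.1 h, map_one]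
  have hW := X.isField_W n hNB hid he0 hF0
  let fW : Field (X.W n) := hW.toField
  have hjL : ∀ u, j u ∈ X.L := fun u => (hj _).2 ⟨u, rfl⟩
  let δ : U →+* X.W n :=
    { toFun := fun u => ⟨fun _ => j u, X.diag_mem n (hjL u)⟩
      map_one' := by ext i; simp
      map_mul' := fun x y => by ext i; simp
      map_zero' := by ext i; simp
      map_add' := fun x y => by ext i; simp }
  let aW : Algebra U (X.W n) := δ.toAlgebra
  obtain ⟨B, hB1, hB2, hB⟩ := X.exists_basis n
  let ea : ZMod n → (X.W n →+* V) := fun i => (Pi.evalRingHom (fun _ => V) i).comp (X.W n).subtype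
  let eb : ZMod n → (X.W n →+* V) := fun i =>
    ((Pi.evalRingHom (fun _ => V) i).comp
      (tau (E := E) X.e X.he n : (ZMod n → V) →+* (ZMod n → V))).comp (X.W n).subtype
  have hea : ∀ i w, ea i w = w.1 i := fun i w => rfl
  have heb : ∀ i w, eb i w = tau (E := E) X.e X.he n w.1 i := fun i w => rfl
  let s : X.W n ≃ₐ[U] X.W n :=
    { toFun := fun w => ⟨sig (E := E) n w.1, X.sig_mem n w.2⟩
      invFun := fun w => ⟨(sig (E := E) n).symm w.1, X.sig_symm_mem n w.2⟩
      left_inv := fun w => by ext1; simp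
      right_inv := fun w => by ext1; simp
      map_mul' := fun x y => by ext1; simp
      map_add' := fun x y => by ext1; simp
      commutes' := fun u => by
        ext1
        rfl }
  refine ⟨X.W n, fW, aW, ⟨⟨ea, eb, ?_, ?_, ?_, ?_, ?_, ?_, s, ?_, ?_, B,
    fun k => ⟨B k, (hB _).2 (basis_mem_cs B _ k)⟩, ?_, hB1, hB2, ?_⟩⟩⟩
  · intro i u; rfl
  · intro i u
    rw [heb, tau_apply]
    change (1 - X.e) * j u + X.e * j u = j u
    ring
  · intro i w; exact w.2.1 i
  · intro i w; exact w.2.2 i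
  · intro i w; rfl
  · intro v h1 h2; exact ⟨⟨v, h1, h2⟩, fun i => rfl⟩
  · intro i w; rfl
  · intro i w
    rw [heb, heb]
    exact tau_sig (E := E) X.e X.he n w.1 i
  · intro k i; rfl
  · intro v
    rw [← hB]
    exact ⟨fun h => ⟨⟨v, h⟩, rfl⟩, by rintro ⟨w, rfl⟩; exact w.2⟩

/-! ### General hom lemma -/

/-- A hom from a lattice in a product to a domain factors through one coordinate. -/
theorem hom_pi {d m n : ℕ} [NeZero n] (F0 S : Subring E) (h0 : F0 ≤ S) (S' : Subring V)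
    (hS : ∀ z ∈ S, algebraMap E V z ∈ S')
    (B : Basis (Fin m) E (ZMod n → V)) (θ : (ZMod n → V) ≃ₐ[E] (ZMod n → V))
    (hB : ∀ v, v ∈ cs B S ↔ ∀ i, θ v i ∈ S') (A : Subring (ZMod n → V))
    (hA : ∀ v, v ∈ A ↔ v ∈ cs B F0) (hFA : ∀ z ∈ F0, algebraMap E (ZMod n → V) z ∈ A)
    {Ω : Type*} [CommRing Ω] [IsDomain Ω] (φ : S →+* Ω) (g : A →+* Ω)
    (hcomp : ∀ (z : E) (hz : z ∈ F0), g ⟨algebraMap E (ZMod n → V) z, hFA z hz⟩ = φ ⟨z, h0 hz⟩) :
    ∃ (i : ZMod n) (h : S' →+* Ω), (∀ (z : E) (hz : z ∈ S), h ⟨algebraMap E V z, hS z hz⟩ = φ ⟨z, hz⟩) ∧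
      ∀ (w : ZMod n → V) (hw : w ∈ A) (hw' : θ w i ∈ S'), g ⟨w, hw⟩ = h ⟨θ w i, hw'⟩ := by
  classical
  -- the subring `VS`
  let VS : Subring (ZMod n → V) :=
    { carrier := {v | ∀ i, θ v i ∈ S'}
      mul_mem' := fun {v w} hv hw i => by rw [map_mul]; exact mul_mem (hv i) (hw i)
      one_mem' := fun i => by rw [map_one]; exact one_mem _
      add_mem' := fun {v w} hv hw i => by rw [map_add]; exact add_mem (hv i) (hw i)
      zero_mem' := fun i => by rw [map_zero]; exact zero_mem _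
      neg_mem' := fun {v} hv i => by rw [map_neg]; exact neg_mem (hv i) }
  obtain ⟨Φ, h1, h2, -⟩ := ext_hom B F0 S h0 A VS hA (fun v => (hB v).symm) φ g hFA hcomp
  -- orthogonal idempotents
  have hsingle : ∀ (i : ZMod n) (x : V), x ∈ S' → θ.symm (Pi.single i x) ∈ VS := by
    intro i x hx k
    rw [AlgEquiv.apply_symm_apply]
    by_cases hik : k = i
    · subst hik; rw [Pi.single_eq_same]; exact hx
    · rw [Pi.single_eq_of_ne hik]; exact zero_mem _
  set π : ZMod n → VS := fun i => ⟨θ.symm (Pi.single i 1), hsingle i 1 (one_mem _)⟩ with hπ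
  have hπid : ∀ i, Φ (π i) = 0 ∨ Φ (π i) = 1 := by
    intro i
    have e1 : π i * π i = π i := by
      apply Subtype.ext
      change θ.symm (Pi.single i 1) * θ.symm (Pi.single i 1) = θ.symm (Pi.single i 1)
      rw [← map_mul, ← Pi.single_mul, one_mul]
    have e2 : Φ (π i) * (Φ (π i) - 1) = 0 := by
      rw [mul_sub, ← map_mul, e1, mul_one, sub_self]
    rcases mul_eq_zero.1 e2 with h | h
    · exact Or.inl h
    · exact Or.inr (sub_eq_zero.1 h)
  have hsum : ∑ i, π i = 1 := by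
    apply Subtype.ext
    rw [AddSubmonoidClass.coe_finsetSum]
    change ∑ i, θ.symm (Pi.single i 1) = 1
    rw [← map_sum]
    have : ∑ i : ZMod n, Pi.single i (1 : V) = (1 : ZMod n → V) := by
      funext k
      rw [Finset.sum_apply, Finset.sum_eq_single k]
      · simp
      · intro b _ hb; rw [Pi.single_eq_of_ne hb.symm]
      · intro h; exact absurd (Finset.mem_univ k) h
    rw [this, map_one]
  obtain ⟨i, hi⟩ : ∃ i, Φ (π i) = 1 := by
    by_contra hcon
    push Not at hcon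
    have h0 : ∀ i, Φ (π i) = 0 := fun i => (hπid i).resolve_right (hcon i)
    have := congrArg Φ hsum
    rw [map_sum, map_one] at this
    simp only [h0, Finset.sum_const_zero] at this
    exact zero_ne_one this
  refine ⟨i, ⟨⟨⟨fun x => Φ ⟨θ.symm (Pi.single i (x : V)), hsingle i x x.2⟩, hi⟩, ?_⟩, ?_, ?_⟩, ?_, ?_⟩
  · intro x y
    change Φ _ = Φ _ * Φ _
    rw [← map_mul]
    refine congrArg Φ (Subtype.ext ?_)
    change θ.symm (Pi.single i ((x : V) * y)) = θ.symm (Pi.single i x) * θ.symm (Pi.single i y)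
    rw [← map_mul, ← Pi.single_mul]
  · change Φ _ = 0
    rw [← map_zero Φ]
    refine congrArg Φ (Subtype.ext ?_)
    change θ.symm (Pi.single i 0) = 0
    rw [Pi.single_zero, map_zero]
  · intro x y
    change Φ _ = Φ _ + Φ _
    rw [← map_add]
    refine congrArg Φ (Subtype.ext ?_)
    change θ.symm (Pi.single i ((x : V) + y)) = θ.symm (Pi.single i x) + θ.symm (Pi.single i y)
    rw [← map_add, ← Pi.single_add]
  · intro z hz
    have hzV : algebraMap E (ZMod n → V) z ∈ VS := fun k => by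
      rw [AlgEquiv.commutes]; exact hS z hz
    rw [← h2 z hz hzV]
    change Φ _ = _
    have e1 : Φ ⟨algebraMap E (ZMod n → V) z, hzV⟩ = Φ (π i * ⟨algebraMap E (ZMod n → V) z, hzV⟩) := by
      rw [map_mul, hi, one_mul]
    rw [e1]
    congr 1
    apply Subtype.ext
    change θ.symm (Pi.single i (algebraMap E V z)) =
      θ.symm (Pi.single i 1) * algebraMap E (ZMod n → V) z
    rw [← AlgEquiv.commutes θ.symm z, ← map_mul]
    congr 1
    funext k
    by_cases hik : k = i
    · subst hik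
      simp
    · simp [Pi.single_eq_of_ne hik]
  · intro w hw hw'
    have hwV : w ∈ VS := (hB w).1 (cs_mono B h0 ((hA w).1 hw))
    rw [← h1 w hw hwV]
    have e1 : Φ ⟨w, hwV⟩ = Φ (π i * ⟨w, hwV⟩) := by rw [map_mul, hi, one_mul]
    rw [e1]
    change Φ _ = Φ _
    congr 1
    apply Subtype.ext
    change θ.symm (Pi.single i 1) * w = θ.symm (Pi.single i (θ w i))
    apply θ.injective
    rw [map_mul, AlgEquiv.apply_symm_apply, AlgEquiv.apply_symm_apply]
    funext k
    by_cases hik : k = i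
    · subst hik; simp
    · simp [Pi.single_eq_of_ne hik]

namespace CutCover

variable {X : Edge D V d} {U : Type*} [Field U] {j : U →+* V} {n : ℕ} {W : Type*} [Field W]
  [Algebra U W] (C : CutCover X j n W)

theorem b_eq_tau (i : ZMod n) (w : W) : C.bb i w = tau (E := E) X.e X.he n (fun i => C.a i w) i :=
  C.b_eq i w

theorem glue_e (i : ZMod n) (w : W) : X.e * C.a i w = X.e * C.bb (i + 1) w := by
  rw [C.b_eq, add_sub_cancel_right]
  linear_combination (C.a (i + 1) w - C.a i w) * X.he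

theorem glue_e' (i : ZMod n) (w : W) : (1 - X.e) * C.a i w = (1 - X.e) * C.bb i w := by
  rw [C.b_eq]
  linear_combination (C.a (i - 1) w - C.a i w) * X.he

theorem a_σ_pow (i : ZMod n) (w : W) (m : ℕ) : C.a i ((C.σ ^ m) w) = C.a (i + m) w := by
  induction m generalizing i with
  | zero => simp
  | succ m ih =>
    rw [pow_succ', AlgEquiv.mul_apply, C.a_σ, ih]
    push_cast
    congr 2
    ring

theorem b_σ_pow (i : ZMod n) (w : W) (m : ℕ) : C.bb i ((C.σ ^ m) w) = C.bb (i + m) w := by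
  induction m generalizing i with
  | zero => simp
  | succ m ih =>
    rw [pow_succ', AlgEquiv.mul_apply, C.b_σ, ih]
    push_cast
    congr 2
    ring

theorem a_injective [Nontrivial V] (i : ZMod n) : Function.Injective (C.a i) := (C.a i).injective

theorem σ_pow_n [Nontrivial V] : C.σ ^ n = 1 := by
  ext w
  apply C.a_injective 0
  rw [C.a_σ_pow]
  simp

/-- Equality on all `a`-copies determines the copy. -/
theorem a_ne [Nontrivial V] {i i' : ZMod n} (h : i ≠ i') : ∃ w, C.a i w ≠ C.a i' w := by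
  classical
  by_contra hcon
  push Not at hcon
  have key : ∀ v : ZMod n → V, v i = v i' := by
    intro v
    rw [← C.B.sum_repr v, Finset.sum_apply, Finset.sum_apply]
    refine Finset.sum_congr rfl fun k _ => ?_
    rw [Pi.smul_apply, Pi.smul_apply, C.hκ, C.hκ, hcon]
  have := key (Pi.single i 1)
  rw [Pi.single_eq_same, Pi.single_eq_of_ne h.symm] at this
  exact one_ne_zero this

theorem orderOf_σ [Nontrivial V] [NeZero n] : orderOf C.σ = n := by
  refine (orderOf_eq_iff (Nat.pos_of_ne_zero (NeZero.ne n))).2 ⟨C.σ_pow_n, fun m hm hm0 h => ?_⟩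
  have hne : (0 : ZMod n) ≠ 0 + (m : ZMod n) := by
    rw [zero_add]
    intro h'
    have : (n : ℕ) ∣ m := (ZMod.natCast_eq_zero_iff m n).1 h'.symm
    exact absurd (Nat.le_of_dvd hm0 this) (not_le.2 hm)
  obtain ⟨w, hw⟩ := C.a_ne hne
  apply hw
  rw [← C.a_σ_pow, h]; rfl

theorem fixed (hj : ∀ v, v ∈ X.L → ∃ u, j u = v) [Nontrivial V] [NeZero n] (w : W) (hw : C.σ w = w) :
    ∃ u, algebraMap U W u = w := by
  have h1 : ∀ i, C.a i w = C.a (i + 1) w := fun i => by rw [← C.a_σ, hw]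
  have h2 : X.e * C.a 0 w + (1 - X.e) * C.a 0 w = C.bb 0 w := by
    rw [C.glue_e']
    have h3 : X.e * C.a 0 w = X.e * C.bb 0 w := by
      have h4 := C.glue_e (-1) w
      rw [neg_add_cancel] at h4
      rw [← h4]
      have := h1 (-1)
      rw [neg_add_cancel] at this
      rw [this]
    rw [h3]; ring
  have h3 : C.a 0 w = C.bb 0 w := by rw [← h2]; ring
  obtain ⟨u, hu⟩ := hj _ (X.mem_L_of _ (C.a_mem 0 w) (by rw [h3]; exact C.b_mem 0 w))
  refine ⟨u, ?_⟩
  apply C.a_injective 0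
  rw [C.a_alg, hu]

theorem isGaloisGroup (hj : ∀ v, v ∈ X.L → ∃ u, j u = v) [Nontrivial V] [NeZero n] :
    IsGaloisGroup (Subgroup.zpowers C.σ) U W where
  faithful := inferInstance
  commutes := inferInstance
  isInvariant := ⟨fun w hw => C.fixed hj w (hw ⟨C.σ, Subgroup.mem_zpowers _⟩)⟩

theorem finite_zpowers [Nontrivial V] [NeZero n] : Finite (Subgroup.zpowers C.σ) := by
  apply Nat.finite_of_card_ne_zero
  rw [Nat.card_zpowers, C.orderOf_σ]
  exact NeZero.ne n

include C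

theorem finrank_eq (hj : ∀ v, v ∈ X.L → ∃ u, j u = v) [Nontrivial V] [NeZero n] :
    finrank U W = n := by
  have := C.isGaloisGroup hj
  rw [← IsGaloisGroup.card_eq_finrank (Subgroup.zpowers C.σ) U W, Nat.card_zpowers, C.orderOf_σ]

theorem isGalois (hj : ∀ v, v ∈ X.L → ∃ u, j u = v) [Nontrivial V] [NeZero n] : IsGalois U W := by
  have := C.isGaloisGroup hj
  have := C.finite_zpowers
  exact IsGaloisGroup.isGalois (Subgroup.zpowers C.σ) U W

theorem finiteDimensional (hj : ∀ v, v ∈ X.L → ∃ u, j u = v) [Nontrivial V] [NeZero n] :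
    FiniteDimensional U W := by
  have := C.isGaloisGroup hj
  have := C.finite_zpowers
  exact IsGaloisGroup.finiteDimensional (Subgroup.zpowers C.σ) U W

theorem zpowers_eq_top (hj : ∀ v, v ∈ X.L → ∃ u, j u = v) [Nontrivial V] [NeZero n] :
    Subgroup.zpowers C.σ = ⊤ := by
  have := C.finiteDimensional hj
  have := C.isGalois hj
  apply Subgroup.eq_top_of_card_eq
  rw [Nat.card_zpowers, C.orderOf_σ, IsGalois.card_aut_eq_finrank, C.finrank_eq hj]

omit C in
theorem algebraMap_VU {z : E} (hz : z ∈ D.RU) : algebraMap E V z ∈ X.VU := by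
  rw [Algebra.algebraMap_eq_smul_one, X.mem_VU]
  exact smul_mem_cs _ _ hz (X.VU.one_mem)

omit C in
theorem algebraMap_VP {z : E} (hz : z ∈ D.FP) : algebraMap E V z ∈ X.VP := by
  rw [Algebra.algebraMap_eq_smul_one, X.mem_VP]
  exact smul_mem_cs _ _ hz (X.VP.one_mem)

/-- the lattice `W` in `ZMod n → V`. -/
def lat : Subring (ZMod n → V) := (RingHom.pi C.a).range

theorem mem_lat (v : ZMod n → V) : v ∈ C.lat ↔ v ∈ cs C.B D.F0.toSubring := by
  rw [C.hBF]
  constructor
  · rintro ⟨w, rfl⟩; exact ⟨w, rfl⟩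
  · rintro ⟨w, rfl⟩; exact ⟨w, rfl⟩

/-- **Splitting over the outside.** -/
theorem homU [NeZero n] [Nontrivial V] (hF0 : ∀ z ∈ D.F0, algebraMap E V z ∈ X.L)
    {Ω : Type*} [CommRing Ω] [IsDomain Ω] (φ : D.RU →+* Ω) (g : W →+* Ω)
    (hcomp : ∀ (z : E) (hz : z ∈ D.F0) (u : U), j u = algebraMap E V z →
      g (algebraMap U W u) = φ ⟨z, D.F0_le_RU z hz⟩) (hj : ∀ v, v ∈ X.L → ∃ u, j u = v) :
    ∃ (i : ZMod n) (h : X.VU →+* Ω),
      (∀ (z : E) (hz : z ∈ D.RU), h ⟨algebraMap E V z, algebraMap_VU hz⟩ = φ ⟨z, hz⟩) ∧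
      ∀ w, g w = h ⟨C.a i w, C.a_mem i w⟩ := by
  classical
  have hinj : Function.Injective (RingHom.pi C.a) := fun w w' h => C.a_injective 0 (congrFun h 0)
  let ev : W ≃+* C.lat := RingEquiv.ofLeftInverse (f := RingHom.pi C.a)
    (Function.leftInverse_invFun hinj)
  have hev : ∀ w, ((ev w : C.lat) : ZMod n → V) = fun i => C.a i w := fun w => rfl
  have hFA : ∀ z ∈ D.F0.toSubring, algebraMap E (ZMod n → V) z ∈ C.lat := by
    intro z hz
    obtain ⟨u, hu⟩ := hj _ (hF0 z hz)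
    refine ⟨algebraMap U W u, ?_⟩
    funext i
    change C.a i (algebraMap U W u) = algebraMap E V z
    rw [C.a_alg, hu]
  obtain ⟨i, h, h1, h2⟩ := hom_pi (d := d) D.F0.toSubring D.RU CutData.F0_le_RU' X.VU
    (fun z hz => algebraMap_VU hz) C.B AlgEquiv.refl (fun v => C.hBU v) C.lat C.mem_lat hFA φ
    (g.comp (ev.symm : C.lat →+* W)) (by
      intro z hz
      obtain ⟨u, hu⟩ := hj _ (hF0 z hz)
      rw [← hcomp z hz u hu]
      change g (ev.symm _) = _
      congr 1
      rw [RingEquiv.symm_apply_eq]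
      apply Subtype.ext
      rw [hev]
      funext i
      rw [C.a_alg, hu]
      rfl)
  refine ⟨i, h, h1, fun w => ?_⟩
  have e2 : h ⟨C.a i w, C.a_mem i w⟩ = _ := (h2 (fun i => C.a i w) ⟨w, rfl⟩ (C.a_mem i w)).symm
  rw [e2]
  change g w = g (ev.symm _)
  congr 1
  rw [RingEquiv.eq_symm_apply]
  rfl

/-- **Splitting over the disc.** -/
theorem homP [NeZero n] [Nontrivial V] (hF0 : ∀ z ∈ D.F0, algebraMap E V z ∈ X.L)
    {Ω : Type*} [CommRing Ω] [IsDomain Ω] (φ : D.FP →+* Ω) (g : W →+* Ω)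
    (hcomp : ∀ (z : E) (hz : z ∈ D.F0) (u : U), j u = algebraMap E V z →
      g (algebraMap U W u) = φ ⟨z, D.F0_le_FP hz⟩) (hj : ∀ v, v ∈ X.L → ∃ u, j u = v) :
    ∃ (i : ZMod n) (h : X.VP →+* Ω),
      (∀ (z : E) (hz : z ∈ D.FP), h ⟨algebraMap E V z, algebraMap_VP hz⟩ = φ ⟨z, hz⟩) ∧
      ∀ w, g w = h ⟨C.bb i w, C.b_mem i w⟩ := by
  classical
  have hinj : Function.Injective (RingHom.pi C.a) := fun w w' h => C.a_injective 0 (congrFun h 0)
  let ev : W ≃+* C.lat := RingEquiv.ofLeftInverse (f := RingHom.pi C.a)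
    (Function.leftInverse_invFun hinj)
  have hev : ∀ w, ((ev w : C.lat) : ZMod n → V) = fun i => C.a i w := fun w => rfl
  have hFA : ∀ z ∈ D.F0.toSubring, algebraMap E (ZMod n → V) z ∈ C.lat := by
    intro z hz
    obtain ⟨u, hu⟩ := hj _ (hF0 z hz)
    refine ⟨algebraMap U W u, ?_⟩
    funext i
    change C.a i (algebraMap U W u) = algebraMap E V z
    rw [C.a_alg, hu]
  obtain ⟨i, h, h1, h2⟩ := hom_pi (d := d) D.F0.toSubring D.FP.toSubring CutData.F0_le_FP' X.VP
    (fun z hz => algebraMap_VP hz) C.B (tau (E := E) X.e X.he n) (fun v => C.hBP v) C.lat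
    C.mem_lat hFA φ
    (g.comp (ev.symm : C.lat →+* W)) (by
      intro z hz
      obtain ⟨u, hu⟩ := hj _ (hF0 z hz)
      rw [← hcomp z hz u hu]
      change g (ev.symm _) = _
      congr 1
      rw [RingEquiv.symm_apply_eq]
      apply Subtype.ext
      rw [hev]
      funext i
      rw [C.a_alg, hu]
      rfl)
  refine ⟨i, h, h1, fun w => ?_⟩
  have hm : tau (E := E) X.e X.he n (fun i => C.a i w) i ∈ X.VP := by
    rw [← C.b_eq_tau]; exact C.b_mem i w
  have := h2 (fun i => C.a i w) ⟨w, rfl⟩ hm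
  have e1 : (⟨C.bb i w, C.b_mem i w⟩ : X.VP) =
      ⟨tau (E := E) X.e X.he n (fun i => C.a i w) i, hm⟩ := Subtype.ext (C.b_eq_tau i w)
  rw [e1, ← this]
  change g w = g (ev.symm _)
  congr 1
  rw [RingEquiv.eq_symm_apply]
  rfl

end CutCover

end Crest.Agent.R013.CutCov_92
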