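import Crest.Agent.R013.Gl8_946

/-!
# Patching, part 9: the homomorphisms `RU → Ω`, `FP → Ω` at places (`Q`-adic extension).
-/

set_option autoImplicit false

namespace Crest.Agent.R013.Gl946

open Filter Topology Polynomial

variable {k E : Type*} [NormedField k] [NormedField E] [NormedAlgebra k E]

/-- Division by a monic polynomial with coefficients of norm `≤ 1` does not increase norms. -/
theorem div_monic [IsUltrametricDist E] {T : E} (hT : IsGauss k T) (Q : k[X]) (hQ : Q.Monic)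
    (hQ1 : ‖aeval T Q‖ ≤ 1) (h : k[X]) :
    ∃ q r : k[X], r + Q * q = h ∧ r.degree < Q.degree ∧ ‖aeval T q‖ ≤ ‖aeval T h‖ ∧
      ‖aeval T r‖ ≤ ‖aeval T h‖ := by
  refine degree_lt_wf.induction (C := fun h => ∃ q r : k[X], r + Q * q = h ∧
    r.degree < Q.degree ∧ ‖aeval T q‖ ≤ ‖aeval T h‖ ∧ ‖aeval T r‖ ≤ ‖aeval T h‖) h ?_
  intro h ih
  by_cases hd : h.degree < Q.degree
  · exact ⟨0, h, by simp, hd, by simp, le_rfl⟩
  push Not at hd
  have hne : h ≠ 0 := by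
    rintro rfl
    rw [degree_zero, le_bot_iff, degree_eq_bot] at hd
    exact hQ.ne_zero hd
  set s : k[X] := C h.leadingCoeff * X ^ (h.natDegree - Q.natDegree) with hs
  have hlt := div_wf_lemma ⟨hd, hne⟩ hQ
  obtain ⟨q, r, e1, e2, e3, e4⟩ := ih (h - Q * s) hlt
  have hsn : ‖aeval T s‖ ≤ ‖aeval T h‖ := by
    rw [hs, map_mul, norm_mul, norm_aeval_C, hT.norm_aeval_X_pow, mul_one]
    exact hT.coeff_le h _
  have hn : ‖aeval T (h - Q * s)‖ ≤ ‖aeval T h‖ := by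
    rw [map_sub]
    refine (nsub _ _).trans (max_le le_rfl ?_)
    rw [map_mul, norm_mul]
    calc _ ≤ 1 * ‖aeval T h‖ := mul_le_mul hQ1 hsn (norm_nonneg _) zero_le_one
      _ = _ := one_mul _
  refine ⟨q + s, r, ?_, e2, ?_, e4.trans hn⟩
  · linear_combination e1
  · rw [map_add]
    exact (nadd _ _).trans (max_le (e3.trans hn) hsn)

theorem div_monic_unique [IsUltrametricDist E] {T : E} (hT : IsGauss k T) (Q : k[X])
    (hQ : Q.Monic) (hQ1 : ‖aeval T Q‖ ≤ 1) (q r : k[X]) (hr : r.degree < Q.degree) :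
    ‖aeval T r‖ ≤ ‖aeval T (r + Q * q)‖ := by
  obtain ⟨q', r', e1, e2, e3, e4⟩ := div_monic hT Q hQ hQ1 (r + Q * q)
  have h1 := div_modByMonic_unique q' r' hQ ⟨e1, e2⟩
  have h2 := div_modByMonic_unique q r hQ ⟨rfl, hr⟩
  have : r' = r := h1.2.symm.trans h2.2
  rw [this] at e4
  exact e4

/-- Approximation to exact, on a closed subgroup. -/
theorem exact_on [CompleteSpace E] (W A B : AddSubgroup E) (hAW : A ≤ W) (hBW : B ≤ W)
    (hA : IsClosed (A : Set E)) (hB : IsClosed (B : Set E)) (q : ℝ) (hq0 : 0 ≤ q) (hq : q < 1)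
    (happ : ∀ x ∈ W, ∃ a ∈ A, ∃ b ∈ B, ‖x - (a + b)‖ ≤ q * ‖x‖ ∧ ‖a‖ ≤ ‖x‖ ∧ ‖b‖ ≤ ‖x‖)
    (x : E) (hx : x ∈ W) : ∃ a ∈ A, ∃ b ∈ B, x = a + b := by
  classical
  choose α hαA β hβB h1 h2 h3 using fun x : W => happ x.1 x.2
  let s : ℕ → W := fun n => Nat.rec ⟨x, hx⟩
    (fun _ z => z - (⟨α z, hAW (hαA z)⟩ + ⟨β z, hBW (hβB z)⟩)) n
  have s0 : s 0 = ⟨x, hx⟩ := rfl
  have sS : ∀ n, (s (n + 1)).1 = (s n).1 - (α (s n) + β (s n)) := fun n => rfl
  have sN : ∀ n, ‖(s n).1‖ ≤ q ^ n * ‖x‖ := by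
    intro n
    induction n with
    | zero => rw [s0]; simp
    | succ n ih =>
      rw [sS]
      calc _ ≤ q * ‖(s n).1‖ := h1 _
        _ ≤ q * (q ^ n * ‖x‖) := mul_le_mul_of_nonneg_left ih hq0
        _ = _ := by ring
  have hgeo : Summable fun n => q ^ n * ‖x‖ := (summable_geometric_of_lt_one hq0 hq).mul_right _
  have hsa : Summable fun n => α (s n) :=
    Summable.of_norm_bounded hgeo fun n => (h2 _).trans (sN n)
  have hsb : Summable fun n => β (s n) :=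
    Summable.of_norm_bounded hgeo fun n => (h3 _).trans (sN n)
  have hpart : ∀ n, ∑ i ∈ Finset.range n, α (s i) + ∑ i ∈ Finset.range n, β (s i) =
      x - (s n).1 := by
    intro n
    induction n with
    | zero => simp [s0]
    | succ n ih =>
      rw [Finset.sum_range_succ, Finset.sum_range_succ, sS]
      linear_combination ih
  refine ⟨∑' n, α (s n), ?_, ∑' n, β (s n), ?_, ?_⟩
  · exact hA.mem_of_tendsto hsa.hasSum.tendsto_sum_nat
      (Eventually.of_forall fun n => A.sum_mem fun i _ => hαA _)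
  · exact hB.mem_of_tendsto hsb.hasSum.tendsto_sum_nat
      (Eventually.of_forall fun n => B.sum_mem fun i _ => hβB _)
  · have t1 := hsa.hasSum.tendsto_sum_nat.add hsb.hasSum.tendsto_sum_nat
    have t2 : Tendsto (fun n => x - (s n).1) atTop (𝓝 (x - 0)) := by
      refine Tendsto.const_sub x (squeeze_zero_norm sN ?_)
      have := (tendsto_pow_atTop_nhds_zero_of_lt_one hq0 hq).mul_const ‖x‖
      simpa using this
    simp only [hpart] at t1
    have := tendsto_nhds_unique t2 t1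
    simpa using this

/-- Polynomials in `T` of degree `< m`. -/
def Plt (k : Type*) {E : Type*} [NormedField k] [NormedField E] [NormedAlgebra k E] (T : E)
    (m : ℕ) : Submodule k E :=
  Submodule.span k (Set.range fun i : Fin m => T ^ (i : ℕ))

theorem isClosed_Plt [CompleteSpace k] {π : k} (hπ : IsUnif π) (T : E) (m : ℕ) :
    IsClosed (Plt k T m : Set E) := by
  let inst : NontriviallyNormedField k :=
    { (inferInstance : NormedField k) with
      non_trivial := ⟨π⁻¹, by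
        rw [norm_inv]; exact (one_lt_inv₀ hπ.pos).2 hπ.lt_one⟩ }
  have hfin : FiniteDimensional k (Plt k T m) :=
    FiniteDimensional.span_of_finite k (Set.finite_range _)
  exact Submodule.closed_of_finiteDimensional (Plt k T m)

theorem aeval_mem_Plt (T : E) (m : ℕ) (p : k[X]) (hp : ∀ i, m ≤ i → p.coeff i = 0) :
    aeval T p ∈ Plt k T m := by
  rcases Nat.eq_zero_or_pos m with rfl | hm
  · have : p = 0 := by ext i; simpa using hp i (Nat.zero_le _)
    rw [this, map_zero]; exact zero_mem _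
  rw [aeval_eq_sum_range' (n := m) ((Nat.lt_iff_le_pred hm).2
    (natDegree_le_iff_coeff_eq_zero.2 fun i hi => hp i (by omega)))]
  refine Submodule.sum_mem _ fun i hi => Submodule.smul_mem _ _
    (Submodule.subset_span ⟨⟨i, Finset.mem_range.1 hi⟩, rfl⟩)

theorem mem_Plt_iff (T : E) (m : ℕ) (z : E) :
    z ∈ Plt k T m → ∃ p : k[X], z = aeval T p := by
  intro hz
  have : Plt k T m ≤ LinearMap.range (aeval T : k[X] →ₐ[k] E).toLinearMap := by
    rw [Plt, Submodule.span_le]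
    rintro _ ⟨i, rfl⟩
    exact ⟨X ^ (i : ℕ), by simp⟩
  obtain ⟨p, hp⟩ := this hz
  exact ⟨p, hp.symm⟩

theorem isClosed_mul_left (c : E) (hc : c ≠ 0) (S : Set E) (hS : IsClosed S) :
    IsClosed ((fun z => c * z) '' S) :=
  (Homeomorph.mulLeft₀ c hc).isClosedMap S hS

/-- `Q · A` as an additive subgroup. -/
def mulSub (c : E) (A : Subring E) : AddSubgroup E where
  carrier := (fun z => c * z) '' (A : Set E)
  add_mem' := by
    rintro _ _ ⟨a, ha, rfl⟩ ⟨b, hb, rfl⟩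
    exact ⟨a + b, A.add_mem ha hb, mul_add _ _ _⟩
  zero_mem' := ⟨0, A.zero_mem, mul_zero _⟩
  neg_mem' := by
    rintro _ ⟨a, ha, rfl⟩
    exact ⟨-a, A.neg_mem ha, mul_neg _ _⟩

theorem coeff_zero_of_degree_lt {k : Type*} [Field k] {r Q : k[X]} (h : r.degree < Q.degree)
    (i : ℕ) (hi : Q.natDegree ≤ i) : r.coeff i = 0 := by
  refine coeff_eq_zero_of_degree_lt (h.trans_le ?_)
  exact degree_le_natDegree.trans (by exact_mod_cast hi)

section U

variable [IsUltrametricDist E] [CompleteSpace E] {y : E} (hG : IsGauss k y)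

include hG in
/-- Division in `AU = k⟨1/y⟩` by a monic integral polynomial in `1/y`. -/
theorem divU [CompleteSpace k] {π : k} (hπ : IsUnif π) (Q : k[X]) (hQ : Q.Monic)
    (hQ1 : ∀ i, ‖Q.coeff i‖ ≤ 1) (a : E) (ha : a ∈ AU k y) :
    ∃ s : k[X], ∃ b ∈ AU k y, a = aeval (y⁻¹) s + aeval (y⁻¹) Q * b := by
  set T := y⁻¹ with hTdef
  have hT : IsGauss k T := hG.inv
  have hQn : ‖aeval T Q‖ ≤ 1 := hT.aeval_le Q zero_le_one hQ1
  have hQne : aeval T Q ≠ 0 := hT.aeval_ne_zero hQ.ne_zero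
  have hPW : (Plt k T Q.natDegree).toAddSubgroup ≤ (AU k y).toSubring.toAddSubgroup := by
    intro z hz
    obtain ⟨p, rfl⟩ := mem_Plt_iff T _ z hz
    exact aeval_inv_mem_AU y p
  have hBW : mulSub (aeval T Q) (AU k y).toSubring ≤ (AU k y).toSubring.toAddSubgroup := by
    rintro _ ⟨b, hb, rfl⟩
    exact (AU k y).mul_mem (aeval_inv_mem_AU y Q) hb
  obtain ⟨p, hp, b', ⟨b, hb, rfl⟩, e⟩ := exact_on (AU k y).toSubring.toAddSubgroup
    (Plt k T Q.natDegree).toAddSubgroup (mulSub (aeval T Q) (AU k y).toSubring) hPW hBW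
    (isClosed_Plt hπ T _) (isClosed_mul_left _ hQne _ (isClosed_AU y)) ‖π‖ hπ.pos.le hπ.lt_one
    (by
      intro x hx
      by_cases hx0 : x = 0
      · subst hx0
        exact ⟨0, zero_mem _, 0, zero_mem _, by simp, by simp, by simp⟩
      have hxn : 0 < ‖x‖ := norm_pos_iff.2 hx0
      obtain ⟨z, ⟨h, rfl⟩, hz⟩ := Metric.mem_closure_iff.1
        (show x ∈ closure (((aeval (y⁻¹) : k[X] →ₐ[k] E).range : Subalgebra k E) : Set E)
          from hx) (‖π‖ * ‖x‖) (mul_pos hπ.pos hxn)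
      rw [dist_eq_norm] at hz
      change ‖x - aeval T h‖ < _ at hz
      have hhx : ‖aeval T h‖ ≤ ‖x‖ := by
        have : aeval T h = x - (x - aeval T h) := by ring
        rw [this]
        refine (nsub _ _).trans (max_le le_rfl (hz.le.trans ?_))
        calc ‖π‖ * ‖x‖ ≤ 1 * ‖x‖ := mul_le_mul_of_nonneg_right hπ.lt_one.le hxn.le
          _ = _ := one_mul _
      obtain ⟨q, r, e1, e2, e3, e4⟩ := div_monic hT Q hQ hQn h
      refine ⟨aeval T r, aeval_mem_Plt T _ r (coeff_zero_of_degree_lt e2), aeval T Q * aeval T q,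
        ⟨aeval T q, aeval_inv_mem_AU y q, rfl⟩, ?_, e4.trans hhx, ?_⟩
      · rw [← map_mul, ← map_add, e1]; exact hz.le
      · rw [norm_mul]
        calc _ ≤ 1 * ‖x‖ := mul_le_mul hQn (e3.trans hhx) (norm_nonneg _) zero_le_one
          _ = _ := one_mul _) a ha
  obtain ⟨s, rfl⟩ := mem_Plt_iff T _ p hp
  exact ⟨s, b, hb, e⟩

include hG in
omit [CompleteSpace E] in
/-- `Q(1/y) b ∈ k[1/y]`, `b ∈ AU` implies `b ∈ k[1/y]`. -/
theorem satU (Q : k[X]) (hQ : Q.Monic) (hQ1 : ∀ i, ‖Q.coeff i‖ ≤ 1) (b : E) (hb : b ∈ AU k y)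
    (h : k[X]) (e : aeval (y⁻¹) Q * b = aeval (y⁻¹) h) : ∃ g : k[X], b = aeval (y⁻¹) g := by
  set T := y⁻¹ with hTdef
  have hT : IsGauss k T := hG.inv
  have hQn : ‖aeval T Q‖ ≤ 1 := hT.aeval_le Q zero_le_one hQ1
  have hQne : aeval T Q ≠ 0 := hT.aeval_ne_zero hQ.ne_zero
  obtain ⟨q, r, e1, e2, -, -⟩ := div_monic hT Q hQ hQn h
  set b' := b - aeval T q with hb'
  have hb'AU : b' ∈ AU k y := sub_mem hb (aeval_inv_mem_AU y q)
  have e3 : aeval T Q * b' = aeval T r := by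
    rw [hb', mul_sub, e, ← e1, map_add, map_mul]; ring
  have hr0 : ‖aeval T r‖ ≤ 0 := by
    refine le_of_forall_pos_le_add fun ε hε => ?_
    rw [zero_add]
    obtain ⟨z, ⟨g, rfl⟩, hz⟩ := Metric.mem_closure_iff.1
      (show b' ∈ closure (((aeval (y⁻¹) : k[X] →ₐ[k] E).range : Subalgebra k E) : Set E)
        from hb'AU) ε hε
    rw [dist_eq_norm] at hz
    change ‖b' - aeval T g‖ < ε at hz
    have h1 := div_monic_unique hT Q hQ hQn (-g) r e2
    refine h1.trans ?_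
    have : aeval T (r + Q * -g) = aeval T Q * (b' - aeval T g) := by
      rw [map_add, map_mul, map_neg, ← e3]; ring
    rw [this, norm_mul]
    calc _ ≤ 1 * ε := mul_le_mul hQn hz.le (norm_nonneg _) zero_le_one
      _ = ε := one_mul _
  have hr : aeval T r = 0 := norm_le_zero_iff.1 hr0
  rw [hr] at e3
  have : b' = 0 := (mul_eq_zero.1 e3).resolve_left hQne
  exact ⟨q, sub_eq_zero.1 this⟩

end U

section P

variable [IsUltrametricDist E] [CompleteSpace E] {y : E} (hG : IsGauss k y)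

/-- Division in `AP` by a distinguished polynomial. -/
theorem divP [CompleteSpace k] {π : k} (hπ : IsUnif π) (Q : k[X]) (hQ : Q.Monic)
    (hQ1 : ∀ i < Q.natDegree, ‖Q.coeff i‖ < 1) (a : E) (ha : a ∈ AP hG) :
    ∃ s : k[X], ∃ b ∈ AP hG, a = aeval y s + aeval y Q * b := by
  have hQc : ∀ i, ‖Q.coeff i‖ ≤ 1 := by
    intro i
    rcases lt_trichotomy i Q.natDegree with h | h | h
    · exact (hQ1 i h).le
    · rw [h]
      have : Q.coeff Q.natDegree = 1 := hQ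
      rw [this, norm_one]
    · rw [coeff_eq_zero_of_natDegree_lt h, norm_zero]; exact zero_le_one
  have hQn : ‖aeval y Q‖ ≤ 1 := hG.aeval_le Q zero_le_one hQc
  have hQne : aeval y Q ≠ 0 := hG.aeval_ne_zero hQ.ne_zero
  -- Q = X^m + low, low small
  set m := Q.natDegree with hm
  have hlow : ‖aeval y (Q - X ^ m)‖ ≤ ‖π‖ := by
    refine hG.aeval_le _ hπ.pos.le fun i => ?_
    rw [coeff_sub, coeff_X_pow]
    rcases lt_trichotomy i m with h | h | h
    · rw [if_neg h.ne, sub_zero]; exact hπ.le _ (hQ1 i h)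
    · rw [if_pos h, h]
      have : Q.coeff m = 1 := hQ
      rw [this, sub_self, norm_zero]; exact hπ.pos.le
    · rw [if_neg h.ne', sub_zero, coeff_eq_zero_of_natDegree_lt h, norm_zero]; exact hπ.pos.le
  have hPW : (Plt k y m).toAddSubgroup ≤ (AP hG).toSubring.toAddSubgroup := by
    intro z hz
    obtain ⟨p, rfl⟩ := mem_Plt_iff y _ z hz
    exact aeval_mem_AP hG p
  have hBW : mulSub (aeval y Q) (AP hG).toSubring ≤ (AP hG).toSubring.toAddSubgroup := by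
    rintro _ ⟨b, hb, rfl⟩
    exact (AP hG).mul_mem (aeval_mem_AP hG Q) hb
  obtain ⟨p, hp, b', ⟨b, hb, rfl⟩, e⟩ := exact_on (AP hG).toSubring.toAddSubgroup
    (Plt k y m).toAddSubgroup (mulSub (aeval y Q) (AP hG).toSubring) hPW hBW
    (isClosed_Plt hπ y _) (isClosed_mul_left _ hQne _ (isClosed_AP hG)) ‖π‖ hπ.pos.le hπ.lt_one
    (by
      intro x hx
      by_cases hx0 : x = 0
      · subst hx0
        exact ⟨0, zero_mem _, 0, zero_mem _, by simp, by simp, by simp⟩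
      have hxn : 0 < ‖x‖ := norm_pos_iff.2 hx0
      obtain ⟨z, hz, hzx⟩ := Metric.mem_closure_iff.1
        (show x ∈ closure (AP0alg hG : Set E) from hx) (‖π‖ * ‖x‖) (mul_pos hπ.pos hxn)
      obtain ⟨f, g, hg1, hg0, rfl⟩ := hz
      rw [dist_eq_norm] at hzx
      have hgn := hG.norm_of_coeff_zero g hg1 hg0
      have hgne : aeval y g ≠ 0 := by
        intro h; rw [h, norm_zero] at hgn; norm_num at hgn
      have hfx : ‖aeval y f‖ ≤ ‖x‖ := by
        have h1 : ‖aeval y f‖ = ‖aeval y f / aeval y g‖ := by rw [norm_div, hgn, div_one]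
        rw [h1]
        have : aeval y f / aeval y g = x - (x - aeval y f / aeval y g) := by ring
        rw [this]
        refine (nsub _ _).trans (max_le le_rfl (hzx.le.trans ?_))
        calc ‖π‖ * ‖x‖ ≤ 1 * ‖x‖ := mul_le_mul_of_nonneg_right hπ.lt_one.le hxn.le
          _ = _ := one_mul _
      obtain ⟨a, c, e1, e2, e3, e4⟩ := hG.trunc_div g hg1 hg0 f m
      refine ⟨aeval y a, aeval_mem_Plt y _ a e2, aeval y Q * (aeval y c / aeval y g),
        ⟨_, AP0_le_AP hG ⟨c, g, hg1, hg0, rfl⟩, rfl⟩, ?_, e3.trans hfx, ?_⟩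
      · have e5 : x - (aeval y a + aeval y Q * (aeval y c / aeval y g)) =
            (x - aeval y f / aeval y g) - aeval y (Q - X ^ m) * (aeval y c / aeval y g) := by
          rw [e1, map_add, map_mul, map_mul, map_sub]
          field_simp
          ring
        rw [e5]
        refine (nsub _ _).trans (max_le hzx.le ?_)
        rw [norm_mul, norm_div, hgn, div_one]
        exact mul_le_mul hlow (e4.trans hfx) (norm_nonneg _) hπ.pos.le
      · rw [norm_mul, norm_div, hgn, div_one]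
        calc _ ≤ 1 * ‖x‖ := mul_le_mul hQn (e4.trans hfx) (norm_nonneg _) zero_le_one
          _ = _ := one_mul _) a ha
  obtain ⟨s, rfl⟩ := mem_Plt_iff y _ p hp
  exact ⟨s, b, hb, e⟩

omit [CompleteSpace E] in
/-- `Q(y) b ∈ k[y]`, `b ∈ AP` implies `b ∈ k[y]`, for `Q` distinguished. -/
theorem satP {π : k} (hπ : IsUnif π) (Q : k[X]) (hQ : Q.Monic)
    (hQ1 : ∀ i < Q.natDegree, ‖Q.coeff i‖ < 1) (b : E) (hb : b ∈ AP hG)
    (h : k[X]) (e : aeval y Q * b = aeval y h) : ∃ g : k[X], b = aeval y g := by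
  have hQc : ∀ i, ‖Q.coeff i‖ ≤ 1 := by
    intro i
    rcases lt_trichotomy i Q.natDegree with h | h | h
    · exact (hQ1 i h).le
    · rw [h]
      have : Q.coeff Q.natDegree = 1 := hQ
      rw [this, norm_one]
    · rw [coeff_eq_zero_of_natDegree_lt h, norm_zero]; exact zero_le_one
  have hQn : ‖aeval y Q‖ ≤ 1 := hG.aeval_le Q zero_le_one hQc
  have hQne : aeval y Q ≠ 0 := hG.aeval_ne_zero hQ.ne_zero
  set m := Q.natDegree with hm
  have hlow : ‖aeval y (Q - X ^ m)‖ ≤ ‖π‖ := by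
    refine hG.aeval_le _ hπ.pos.le fun i => ?_
    rw [coeff_sub, coeff_X_pow]
    rcases lt_trichotomy i m with h | h | h
    · rw [if_neg h.ne, sub_zero]; exact hπ.le _ (hQ1 i h)
    · rw [if_pos h, h]
      have : Q.coeff m = 1 := hQ
      rw [this, sub_self, norm_zero]; exact hπ.pos.le
    · rw [if_neg h.ne', sub_zero, coeff_eq_zero_of_natDegree_lt h, norm_zero]; exact hπ.pos.le
  obtain ⟨q, r, e1, e2, -, -⟩ := div_monic hG Q hQ hQn h
  set b' := b - aeval y q with hb'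
  have hb'AP : b' ∈ AP hG := sub_mem hb (aeval_mem_AP hG q)
  have e3 : aeval y Q * b' = aeval y r := by
    rw [hb', mul_sub, e, ← e1, map_add, map_mul]; ring
  have hQn1 : ‖aeval y Q‖ = 1 := by
    refine le_antisymm hQn ?_
    have h1 := hG.coeff_le Q m
    have : Q.coeff m = 1 := hQ
    rwa [this, norm_one] at h1
  have hb'r : ‖b'‖ = ‖aeval y r‖ := by rw [← e3, norm_mul, hQn1, one_mul]
  by_cases hr : aeval y r = 0
  · rw [hr] at e3
    have : b' = 0 := (mul_eq_zero.1 e3).resolve_left hQne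
    exact ⟨q, sub_eq_zero.1 this⟩
  exfalso
  set σ := ‖aeval y r‖ with hσ
  have hσ0 : 0 < σ := norm_pos_iff.2 hr
  obtain ⟨z, hz, hzx⟩ := Metric.mem_closure_iff.1
    (show b' ∈ closure (AP0alg hG : Set E) from hb'AP) (‖π‖ * σ) (mul_pos hπ.pos hσ0)
  obtain ⟨f, g, hg1, hg0, rfl⟩ := hz
  rw [dist_eq_norm] at hzx
  have hgn := hG.norm_of_coeff_zero g hg1 hg0
  have hgne : aeval y g ≠ 0 := by
    intro h; rw [h, norm_zero] at hgn; norm_num at hgn
  have hfσ : ‖aeval y f‖ ≤ σ := by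
    have h1 : ‖aeval y f‖ = ‖aeval y f / aeval y g‖ := by rw [norm_div, hgn, div_one]
    rw [h1]
    have : aeval y f / aeval y g = b' - (b' - aeval y f / aeval y g) := by ring
    rw [this]
    refine (nsub _ _).trans (max_le hb'r.le (hzx.le.trans ?_))
    calc ‖π‖ * σ ≤ 1 * σ := mul_le_mul_of_nonneg_right hπ.lt_one.le hσ0.le
      _ = _ := one_mul _
  have hB : ‖aeval y (f * X ^ m - r * g)‖ ≤ ‖π‖ * σ := by
    have e5 : aeval y (f * X ^ m - r * g) =
        - (aeval y Q * aeval y g * (b' - aeval y f / aeval y g)) -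
          aeval y (Q - X ^ m) * aeval y f := by
      rw [map_sub, map_mul, map_mul, ← e3, map_sub]
      field_simp
      ring
    rw [e5]
    refine (nsub _ _).trans (max_le ?_ ?_)
    · rw [norm_neg, norm_mul, norm_mul, hQn1, hgn, one_mul, one_mul]; exact hzx.le
    · rw [norm_mul]; exact mul_le_mul hlow hfσ (norm_nonneg _) hπ.pos.le
  have hC : ∀ i < m, ‖(r * g).coeff i‖ ≤ ‖π‖ * σ := by
    intro i hi
    have e := (hG.coeff_le (f * X ^ m - r * g) i).trans hB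
    rw [coeff_sub, coeff_mul_X_pow', if_neg (by omega), zero_sub, norm_neg] at e
    exact e
  have hpos : 0 ≤ ‖π‖ * σ := mul_nonneg hπ.pos.le hσ0.le
  have hD := low_small hG g hg1 hg0 r m hpos hC
  have hE : σ ≤ ‖π‖ * σ := by
    refine hG.aeval_le r hpos fun i => ?_
    rcases lt_or_ge i m with hi | hi
    · exact hD i hi
    · rw [coeff_zero_of_degree_lt e2 i hi, norm_zero]; exact hpos
  have : ‖π‖ * σ < 1 * σ := mul_lt_mul_of_pos_right hπ.lt_one hσ0
  linarith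

end P

section MapPlace

variable [IsUltrametricDist E] [CompleteSpace E] {y : E} (hG : IsGauss k y)
variable {Ω : Type*} [NormedField Ω] [IsUltrametricDist Ω] [CompleteSpace Ω]

/-- **place case, outside**. `Q` monic with integral coefficients, `‖Q(1/y)‖_Ω < 1`. -/
theorem mapRU_place [CompleteSpace k] {π : k} (hπ : IsUnif π) (ψ : KY hG →+* Ω)
    (hk : ∀ c : k, ‖ψ ⟨algebraMap k E c, const_mem_KY hG c⟩‖ ≤ 1)
    (hy : ‖ψ ⟨y⁻¹, yinv_mem_KY hG⟩‖ ≤ 1) (Q : k[X]) (hQ : Q.Monic) (hQ1 : ∀ i, ‖Q.coeff i‖ ≤ 1)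
    (hψQ : ‖ψ ⟨aeval (y⁻¹) Q, aeval_inv_mem_KY hG Q⟩‖ < 1)
    (Y : Subfield Ω) (hY : IsClosed (Y : Set Ω)) (hψY : ∀ z, ψ z ∈ Y) :
    ∃ Φ : RU k y →+* Ω, (∀ z (hz : z ∈ KY hG), Φ ⟨z, KY_le_RU hG hz⟩ = ψ ⟨z, hz⟩) ∧
      ∀ r, Φ r ∈ Y := by
  set S0 : Subring (AU k y).toSubring :=
    ((aeval (y⁻¹) : k[X] →ₐ[k] E).range.toSubring).comap (AU k y).toSubring.subtype with hS0
  have hmem : ∀ s : S0, ((s : (AU k y).toSubring) : E) ∈ KY hG := by
    rintro ⟨⟨z, hs'⟩, f, hf⟩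
    have h : aeval (y⁻¹) f = z := hf
    subst h
    exact aeval_inv_mem_KY hG f
  let ψ0 : S0 →+* Ω :=
    { toFun := fun s => ψ ⟨s.1.1, hmem s⟩
      map_one' := map_one ψ
      map_mul' := fun a b => map_mul ψ ⟨a.1.1, hmem a⟩ ⟨b.1.1, hmem b⟩
      map_zero' := map_zero ψ
      map_add' := fun a b => map_add ψ ⟨a.1.1, hmem a⟩ ⟨b.1.1, hmem b⟩ }
  have hQmem : (⟨aeval (y⁻¹) Q, aeval_inv_mem_AU y Q⟩ : (AU k y).toSubring) ∈ S0 := ⟨Q, rfl⟩
  obtain ⟨Ψ, h1, h2⟩ := ext_Q S0 ⟨aeval (y⁻¹) Q, aeval_inv_mem_AU y Q⟩ hQmem (by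
      rintro ⟨a, ha⟩
      obtain ⟨s, b, hb, e⟩ := divU hG hπ Q hQ hQ1 a ha
      exact ⟨⟨aeval (y⁻¹) s, aeval_inv_mem_AU y s⟩, ⟨s, rfl⟩, ⟨b, hb⟩, Subtype.ext e⟩) (by
      rintro ⟨b, hb⟩ ⟨h, hh⟩
      obtain ⟨g, hg⟩ := satU hG Q hQ hQ1 b hb h hh.symm
      exact ⟨g, hg.symm⟩) ψ0 (by
      rintro ⟨⟨z, hs'⟩, f, hf⟩
      have h : aeval (y⁻¹) f = z := hf
      subst h
      exact psi_poly_le (KY hG) (const_mem_KY hG) y⁻¹ (yinv_mem_KY hG) ψ hy f
        (aeval_inv_mem_KY hG f) zero_le_one fun i => hk _) hψQ (Y : Set Ω) hY (fun s => hψY _)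
  refine mapRU_of_AU hG ψ Y Ψ (fun f => ?_) h2
  exact h1 _ ⟨f, rfl⟩

/-- **place case, inside**. `Q` distinguished, `‖Q(y)‖_Ω < 1`. -/
theorem mapFP_place [CompleteSpace k] {π : k} (hπ : IsUnif π) (hd : DenseRat k y)
    (ψ : KY hG →+* Ω) (hk : ∀ c : k, ‖ψ ⟨algebraMap k E c, const_mem_KY hG c⟩‖ ≤ 1)
    (hy : ‖ψ ⟨y, y_mem_KY hG⟩‖ ≤ 1) (Q : k[X]) (hQ : Q.Monic)
    (hQ1 : ∀ i < Q.natDegree, ‖Q.coeff i‖ < 1)
    (hψQ : ‖ψ ⟨aeval y Q, aeval_mem_KY hG Q⟩‖ < 1)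
    (Y : Subfield Ω) (hY : IsClosed (Y : Set Ω)) (hψY : ∀ z, ψ z ∈ Y) :
    ∃ Φ : FP hG hπ hd →+* Ω, (∀ z (hz : z ∈ KY hG), Φ ⟨z, KY_le_FP hG hπ hd hz⟩ = ψ ⟨z, hz⟩) ∧
      ∀ r, Φ r ∈ Y := by
  set S0 : Subring (AP hG).toSubring :=
    ((aeval y : k[X] →ₐ[k] E).range.toSubring).comap (AP hG).toSubring.subtype with hS0
  have hmem : ∀ s : S0, ((s : (AP hG).toSubring) : E) ∈ KY hG := by
    rintro ⟨⟨z, hs'⟩, f, hf⟩
    have h : aeval y f = z := hf
    subst h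
    exact aeval_mem_KY hG f
  let ψ0 : S0 →+* Ω :=
    { toFun := fun s => ψ ⟨s.1.1, hmem s⟩
      map_one' := map_one ψ
      map_mul' := fun a b => map_mul ψ ⟨a.1.1, hmem a⟩ ⟨b.1.1, hmem b⟩
      map_zero' := map_zero ψ
      map_add' := fun a b => map_add ψ ⟨a.1.1, hmem a⟩ ⟨b.1.1, hmem b⟩ }
  have hQmem : (⟨aeval y Q, aeval_mem_AP hG Q⟩ : (AP hG).toSubring) ∈ S0 := ⟨Q, rfl⟩
  obtain ⟨Ψ, h1, h2⟩ := ext_Q S0 ⟨aeval y Q, aeval_mem_AP hG Q⟩ hQmem (by
      rintro ⟨a, ha⟩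
      obtain ⟨s, b, hb, e⟩ := divP hG hπ Q hQ hQ1 a ha
      exact ⟨⟨aeval y s, aeval_mem_AP hG s⟩, ⟨s, rfl⟩, ⟨b, hb⟩, Subtype.ext e⟩) (by
      rintro ⟨b, hb⟩ ⟨h, hh⟩
      obtain ⟨g, hg⟩ := satP hG hπ Q hQ hQ1 b hb h hh.symm
      exact ⟨g, hg.symm⟩) ψ0 (by
      rintro ⟨⟨z, hs'⟩, f, hf⟩
      have h : aeval y f = z := hf
      subst h
      exact psi_poly_le (KY hG) (const_mem_KY hG) y (y_mem_KY hG) ψ hy f
        (aeval_mem_KY hG f) zero_le_one fun i => hk _) hψQ (Y : Set Ω) hY (fun s => hψY _)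
  refine mapFP_of_AP hG hπ hd ψ Y Ψ (fun f => ?_) h2
  exact h1 _ ⟨f, rfl⟩

end MapPlace

end Crest.Agent.R013.Gl946
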