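import Mathlib

/-!
# Lemma T (task A-T of row 13), part 3: the two kinds of places.

`κ` a complete ultrametric field, `w` a place of `Λ/κ`, `y ∈ Λ^×`.  The residue of `y` at `w` is a
point of `P^1(κbar)`; it lies in the open disc `|y| < 1` or in `|y| ≥ 1`.  In polynomial form
(as consumed by 946's `mapRU_place`, `mapFP_place`).
-/

set_option autoImplicit false

namespace Crest.Agent.R013.LemT_874

open Polynomial
open scoped NNReal

section Dich

variable {κ : Type*} [NontriviallyNormedField κ] [IsUltrametricDist κ] [CompleteSpace κ]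

omit [IsUltrametricDist κ] [CompleteSpace κ] in
theorem coeff_le_of_spectral {Ω : Type*} [Field Ω] [Algebra κ Ω] [Algebra.IsAlgebraic κ Ω] (α : Ω)
    (h : spectralNorm κ Ω α ≤ 1) (i : ℕ) : ‖(minpoly κ α).coeff i‖ ≤ 1 := by
  have hint : IsIntegral κ α := (Algebra.IsAlgebraic.isAlgebraic α).isIntegral
  rcases lt_trichotomy i (minpoly κ α).natDegree with hi | hi | hi
  · by_contra hcon
    push Not at hcon
    have h1 := le_ciSup (spectralValueTerms_bddAbove (minpoly κ α)) i
    rw [spectralValueTerms_of_lt_natDegree _ hi] at h1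
    have h2 : 0 < (1 / ((minpoly κ α).natDegree - i : ℝ)) := by
      rw [one_div, inv_pos, sub_pos]
      exact_mod_cast hi
    have h3 := Real.one_lt_rpow hcon h2
    exact absurd (h3.trans_le (h1.trans h)) (lt_irrefl _)
  · have : (minpoly κ α).coeff (minpoly κ α).natDegree = 1 := (minpoly.monic hint)
    rw [hi, this, norm_one]
  · rw [coeff_eq_zero_of_natDegree_lt hi, norm_zero]
    exact zero_le_one

omit [IsUltrametricDist κ] [CompleteSpace κ] in
theorem coeff_lt_of_spectral {Ω : Type*} [Field Ω] [Algebra κ Ω] [Algebra.IsAlgebraic κ Ω] (α : Ω)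
    (h : spectralNorm κ Ω α < 1) (i : ℕ) (hi : i < (minpoly κ α).natDegree) :
    ‖(minpoly κ α).coeff i‖ < 1 := by
  by_contra hcon
  push Not at hcon
  have h1 := le_ciSup (spectralValueTerms_bddAbove (minpoly κ α)) i
  rw [spectralValueTerms_of_lt_natDegree _ hi] at h1
  have h2 : 0 < (1 / ((minpoly κ α).natDegree - i : ℝ)) := by
    rw [one_div, inv_pos, sub_pos]
    exact_mod_cast hi
  have h3 := Real.one_le_rpow hcon h2.le
  exact absurd ((h3.trans h1).trans_lt h) (lt_irrefl _)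

section Triv

variable {κ' Λ : Type*} [Field κ'] [Field Λ] [Algebra κ' Λ] (w : Valuation Λ ℝ≥0)
  (hw : ∀ c : κ', c ≠ 0 → w (algebraMap κ' Λ c) = 1)

include hw in
theorem val_const_le (c : κ') : w (algebraMap κ' Λ c) ≤ 1 := by
  rcases eq_or_ne c 0 with rfl | h
  · rw [map_zero, map_zero]; exact zero_le_one
  · exact (hw c h).le

include hw in
theorem val_aeval_le {y : Λ} (hy : w y ≤ 1) (P : κ'[X]) : w (aeval y P) ≤ 1 := by
  rw [aeval_eq_sum_range]
  refine w.map_sum_le fun i _ => ?_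
  rw [Algebra.smul_def, map_mul, map_pow]
  exact mul_le_one' (val_const_le w hw _) (pow_le_one' hy _)

include hw in
/-- an irreducible polynomial which vanishes at the residue of `y` -/
theorem exists_irred {y : Λ} (hy : w y ≤ 1) (P : κ'[X]) (hP0 : P ≠ 0) (hP : w (aeval y P) < 1) :
    ∃ Q : κ'[X], Irreducible Q ∧ Q.Monic ∧ w (aeval y Q) < 1 := by
  have key : ∀ P : κ'[X], P ≠ 0 → w (aeval y P) < 1 → ∃ Q : κ'[X], Irreducible Q ∧ w (aeval y Q) < 1 := by
    intro P
    refine WfDvdMonoid.induction_on_irreducible (motive := fun P : κ'[X] => P ≠ 0 →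
      w (aeval y P) < 1 → ∃ Q : κ'[X], Irreducible Q ∧ w (aeval y Q) < 1) P ?_ ?_ ?_
    · intro h; exact absurd rfl h
    · intro u hu _ h
      obtain ⟨c, hc, rfl⟩ := Polynomial.isUnit_iff.mp hu
      rw [aeval_C, hw c hc.ne_zero] at h
      exact absurd h (lt_irrefl _)
    · intro a q ha hq ih _ h
      by_cases h1 : w (aeval y q) < 1
      · exact ⟨q, hq, h1⟩
      · have h2 : w (aeval y q) = 1 := le_antisymm (val_aeval_le w hw hy q) (not_lt.mp h1)
        rw [map_mul, map_mul, h2, one_mul] at h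
        exact ih ha h
  obtain ⟨Q, hQ, hQw⟩ := key P hP0 hP
  refine ⟨Q * C Q.leadingCoeff⁻¹, ?_, monic_mul_leadingCoeff_inv hQ.ne_zero, ?_⟩
  · have h1 : IsUnit (C Q.leadingCoeff⁻¹ : κ'[X]) :=
      isUnit_C.mpr (inv_ne_zero (leadingCoeff_ne_zero.mpr hQ.ne_zero)).isUnit
    exact (irreducible_mul_isUnit h1).mpr hQ
  · rw [map_mul, map_mul]
    exact mul_lt_one_of_lt_of_le hQw (by rw [aeval_C]; exact val_const_le w hw _)

end Triv

/-- **The two kinds of places**: the residue of `y` is in `|y| ≥ 1` or in `|y| < 1`. -/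
theorem place_dich {Λ : Type*} [Field Λ] [Algebra κ Λ] (w : Valuation Λ ℝ≥0)
    (hw : ∀ c : κ, c ≠ 0 → w (algebraMap κ Λ c) = 1) {y : Λ} (hy0 : y ≠ 0)
    (hP : w y ≤ 1 → ∃ P : κ[X], P ≠ 0 ∧ w (aeval y P) < 1) :
    (w y⁻¹ ≤ 1 ∧ ∃ Q : κ[X], Q.Monic ∧ (∀ i, ‖Q.coeff i‖ ≤ 1) ∧ w (aeval y⁻¹ Q) < 1) ∨
    (w y ≤ 1 ∧ ∃ Q : κ[X], Q.Monic ∧ (∀ i < Q.natDegree, ‖Q.coeff i‖ < 1) ∧ w (aeval y Q) < 1) := by
  rcases lt_or_ge 1 (w y) with hy | hy
  · left
    have h1 : w y⁻¹ < 1 := by
      rw [map_inv₀]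
      exact inv_lt_one_of_one_lt₀ hy
    refine ⟨h1.le, X, monic_X, fun i => ?_, by rwa [aeval_X]⟩
    rw [coeff_X]
    split_ifs
    · rw [norm_one]
    · rw [norm_zero]; exact zero_le_one
  · obtain ⟨P, hP0, hPw⟩ := hP hy
    obtain ⟨Q, hQirr, hQm, hQw⟩ := exists_irred w hw hy P hP0 hPw
    let Ω := AlgebraicClosure κ
    obtain ⟨α, hα⟩ := IsAlgClosed.exists_aeval_eq_zero Ω Q hQirr.degree_pos.ne'
    have hmin : Q = minpoly κ α := minpoly.eq_of_irreducible_of_monic hQirr hα hQm
    rcases lt_or_ge (spectralNorm κ Ω α) 1 with hs | hs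
    · right
      refine ⟨hy, Q, hQm, fun i hi => ?_, hQw⟩
      rw [hmin] at hi ⊢
      exact coeff_lt_of_spectral α hs i hi
    · left
      have hα0 : α ≠ 0 := by
        intro h0
        rw [h0, ← spectralMulAlgNorm_def, map_zero] at hs
        exact absurd hs (by norm_num)
      have hs' : spectralNorm κ Ω α⁻¹ ≤ 1 := by
        rw [← spectralMulAlgNorm_def, map_inv₀, spectralMulAlgNorm_def]
        exact inv_le_one_of_one_le₀ hs
      set Q' := minpoly κ α⁻¹ with hQ'
      have hintα : IsIntegral κ α := (Algebra.IsAlgebraic.isAlgebraic α).isIntegral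
      have hint : IsIntegral κ α⁻¹ := (Algebra.IsAlgebraic.isAlgebraic α⁻¹).isIntegral
      have hQ'0 : aeval α⁻¹ Q' = 0 := minpoly.aeval κ α⁻¹
      have hrev : aeval α Q'.reverse = 0 := by
        let _ : Invertible α⁻¹ := invertibleOfNonzero (inv_ne_zero hα0)
        have h1 := (eval₂_reverse_eq_zero_iff (algebraMap κ Ω) α⁻¹ Q').mpr hQ'0
        rw [invOf_eq_inv, inv_inv] at h1
        exact h1
      have hdvd : Q ∣ Q'.reverse := by
        rw [hmin]
        exact minpoly.dvd κ α hrev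
      obtain ⟨C', hC'⟩ := hdvd
      have h2 : w (aeval y Q'.reverse) < 1 := by
        rw [hC', map_mul, map_mul]
        exact mul_lt_one_of_lt_of_le hQw (val_aeval_le w hw hy _)
      -- `w y = 1`
      have hwy : w y = 1 := by
        refine le_antisymm hy (not_lt.mp fun hlt => ?_)
        have h3 : Q.coeff 0 ≠ 0 := by
          rw [hmin]
          exact minpoly.coeff_zero_ne_zero hintα hα0
        have h4 : aeval y Q = algebraMap κ Λ (Q.coeff 0) + y * aeval y Q.divX := by
          conv_lhs => rw [← divX_mul_X_add Q]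
          rw [map_add, map_mul, aeval_X, aeval_C]
          ring
        have h5 : w (y * aeval y Q.divX) < w (algebraMap κ Λ (Q.coeff 0)) := by
          rw [hw _ h3, map_mul]
          exact mul_lt_one_of_lt_of_le hlt (val_aeval_le w hw hy _)
        have h6 := Valuation.map_add_eq_of_lt_left w h5
        rw [h4, h6, hw _ h3] at hQw
        exact lt_irrefl _ hQw
      have hwy' : w y⁻¹ = 1 := by rw [map_inv₀, hwy, inv_one]
      refine ⟨hwy'.le, Q', minpoly.monic hint, coeff_le_of_spectral _ hs', ?_⟩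
      let _ : Invertible y⁻¹ := invertibleOfNonzero (inv_ne_zero hy0)
      have h3 := eval₂_reverse_mul_pow (algebraMap κ Λ) y⁻¹ Q'
      rw [invOf_eq_inv, inv_inv] at h3
      rw [aeval_def, ← h3, map_mul, map_pow, hwy', one_pow, mul_one]
      exact h2

end Dich

end Crest.Agent.R013.LemT_874
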