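import Crest.Agent.R013.Lift5_903
import Crest.Agent.R013.Gl9_946

/-!
# Lemma LIFT at a finite level: the gluing theorem `glue`

`k, E, y` as in 946's patching files, `F = k(y_F)` a field mapping to `E`, `K/F` finite separable.
If `h₀ / h_P` is an `N`-th power up to `1`-units for every norm of `K` over the Gauss norm of `F`,
there is `h ∈ K^×` which is `h₀` (up to `N`-th powers and `1`-units) at all norms and places
"outside" (`|y| ≥ 1`) and `h_P` "inside" (`|y| < 1`).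
-/

set_option autoImplicit false
set_option linter.unusedSectionVars false

namespace Crest.Agent.R013.Lift903

open Gl946 Matrix Polynomial
open scoped NNReal TensorProduct

attribute [local instance] Algebra.TensorProduct.rightAlgebra

universe u

/-- The absolute value of a real valued valuation. -/
noncomputable def absv {K : Type*} [Field K] (w : Valuation K ℝ≥0) : AbsoluteValue K ℝ where
  toFun x := (w x : ℝ)
  map_mul' x y := by rw [map_mul]; push_cast; rfl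
  nonneg' x := (w x).2
  eq_zero' x := by rw [NNReal.coe_eq_zero, map_eq_zero]
  add_le' x y := by
    have h := w.map_add x y
    rcases le_max_iff.1 h with h | h
    · calc (w (x + y) : ℝ) ≤ w x := by exact_mod_cast h
        _ ≤ w x + w y := le_add_of_nonneg_right (w y).2
    · calc (w (x + y) : ℝ) ≤ w y := by exact_mod_cast h
        _ ≤ w x + w y := le_add_of_nonneg_left (w x).2

/-- The completion of `K` at a real valued valuation. -/
theorem exists_completion {K : Type u} [Field K] (w : Valuation K ℝ≥0) :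
    ∃ (Ω : Type u) (_ : NormedField Ω) (_ : IsUltrametricDist Ω) (_ : CompleteSpace Ω)
      (κ : K →+* Ω), (∀ x, ‖κ x‖₊ = w x) ∧ ∀ α : Ω, α ≠ 0 → ∃ g : K, ‖κ g - α‖ < ‖α‖ := by
  let nf : NormedField K := (absv w).toNormedField
  have hnorm : ∀ x : K, ‖x‖ = (w x : ℝ) := fun x => rfl
  have hult : IsUltrametricDist K := by
    refine IsUltrametricDist.isUltrametricDist_of_forall_norm_add_le_max_norm fun x y => ?_
    rw [hnorm, hnorm, hnorm]
    exact_mod_cast w.map_add x y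
  refine ⟨UniformSpace.Completion K, inferInstance, IsUltrametricDist.of_normedAlgebra K,
    inferInstance, algebraMap K (UniformSpace.Completion K), ?_, ?_⟩
  · intro x
    refine NNReal.eq ?_
    rw [coe_nnnorm, norm_algebraMap', hnorm]
  · intro α hα
    have hpos : 0 < ‖α‖ := norm_pos_iff.2 hα
    obtain ⟨g, hg⟩ := Metric.denseRange_iff.1
      (UniformSpace.Completion.denseRange_coe (α := K)) α ‖α‖ hpos
    refine ⟨g, ?_⟩
    rw [dist_comm, dist_eq_norm] at hg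
    exact hg

section Setting

variable {k E : Type*} [NormedField k] [NontriviallyNormedField E] [NormedAlgebra k E]
  [IsUltrametricDist E] [CompleteSpace E] [CompleteSpace k] {y : E} (hG : IsGauss k y) {π : k}
  (hπ : IsUnif π) (hd : DenseRat k y)
  {F K : Type*} [Field F] [Field K] [Algebra F K] [Algebra F E]
  [Algebra k F] [IsScalarTower k F E] [Algebra k K] [IsScalarTower k F K]
  {yF : F} (hy : algebraMap F E yF = y)
  (hgen : ∀ x : F, ∃ f g : k[X], aeval yF g ≠ 0 ∧ x = aeval yF f / aeval yF g)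

omit [IsUltrametricDist E] [CompleteSpace E] [CompleteSpace k] in
include hy in
theorem map_aeval (f : k[X]) : algebraMap F E (aeval yF f) = aeval y f := by
  rw [← hy, ← aeval_algebraMap_apply]

omit [IsUltrametricDist E] [CompleteSpace E] [CompleteSpace k] in
include hy hgen in
theorem mem_KY_of_gen (x : F) : algebraMap F E x ∈ KY hG := by
  obtain ⟨f, g, hg, rfl⟩ := hgen x
  refine ⟨f, g, ?_, ?_⟩
  · rintro rfl
    exact hg (map_zero _)
  · rw [map_div₀, map_aeval hy, map_aeval hy]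

omit [IsUltrametricDist E] [CompleteSpace E] [CompleteSpace k] in
include hy in
theorem range_of_mem_KY (z : E) (hz : z ∈ KY hG) : z ∈ Set.range (algebraMap F E) := by
  obtain ⟨f, g, -, rfl⟩ := hz
  exact ⟨aeval yF f / aeval yF g, by rw [map_div₀, map_aeval hy, map_aeval hy]⟩

/-- `F ≃ k(y) ⊆ E`. -/
noncomputable def eKY (hF : ∀ x : F, algebraMap F E x ∈ KY hG)
    (hF' : ∀ z : E, z ∈ KY hG → z ∈ Set.range (algebraMap F E)) : F ≃+* KY hG :=
  RingEquiv.ofBijective ((algebraMap F E).codRestrict (KY hG) hF) ⟨fun a b h =>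
    (algebraMap F E).injective (congrArg Subtype.val h), fun z => by
      obtain ⟨x, hx⟩ := hF' z z.2
      exact ⟨x, Subtype.ext hx⟩⟩

omit [IsUltrametricDist E] [CompleteSpace E] [CompleteSpace k] [Algebra k F]
  [IsScalarTower k F E] in
theorem eKY_symm_apply (hF : ∀ x : F, algebraMap F E x ∈ KY hG)
    (hF' : ∀ z : E, z ∈ KY hG → z ∈ Set.range (algebraMap F E)) (x : F) (h) :
    (eKY hG hF hF').symm ⟨algebraMap F E x, h⟩ = x := by
  rw [RingEquiv.symm_apply_eq]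
  rfl

section Hom

variable {Ω : Type*} [NormedField Ω] (κ : K →+* Ω)
  (hF : ∀ x : F, algebraMap F E x ∈ KY hG)
  (hF' : ∀ z : E, z ∈ KY hG → z ∈ Set.range (algebraMap F E))

/-- `k(y) → Ω` induced by `K → Ω`. -/
noncomputable def psi : KY hG →+* Ω :=
  (κ.comp (algebraMap F K)).comp (eKY hG hF hF').symm.toRingHom

omit [IsUltrametricDist E] [CompleteSpace E] [CompleteSpace k] [Algebra k F]
  [IsScalarTower k F E] [Algebra k K] [IsScalarTower k F K] in
theorem psi_apply (x : F) (h) :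
    psi hG κ hF hF' ⟨algebraMap F E x, h⟩ = κ (algebraMap F K x) := by
  change κ (algebraMap F K ((eKY hG hF hF').symm ⟨algebraMap F E x, h⟩)) = _
  rw [eKY_symm_apply]

omit [IsUltrametricDist E] [CompleteSpace E] [CompleteSpace k] [Algebra k F]
  [IsScalarTower k F E] [Algebra k K] [IsScalarTower k F K] in
theorem psi_apply' (z : E) (h : z ∈ KY hG) (x : F) (hx : algebraMap F E x = z) :
    psi hG κ hF hF' ⟨z, h⟩ = κ (algebraMap F K x) := by
  subst hx
  exact psi_apply hG κ hF hF' x h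

omit [IsUltrametricDist E] [CompleteSpace E] [CompleteSpace k] in
theorem psi_const (c : k) :
    psi hG κ hF hF' ⟨algebraMap k E c, const_mem_KY hG c⟩ = κ (algebraMap k K c) := by
  rw [psi_apply' hG κ hF hF' _ _ (algebraMap k F c)
    (IsScalarTower.algebraMap_apply k F E c).symm, ← IsScalarTower.algebraMap_apply k F K]

omit [IsUltrametricDist E] [CompleteSpace E] [CompleteSpace k] in
include hy in
theorem psi_y : psi hG κ hF hF' ⟨y, y_mem_KY hG⟩ = κ (algebraMap F K yF) :=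
  psi_apply' hG κ hF hF' _ _ yF hy

omit [IsUltrametricDist E] [CompleteSpace E] [CompleteSpace k] in
include hy in
theorem psi_yinv : psi hG κ hF hF' ⟨y⁻¹, yinv_mem_KY hG⟩ = κ (algebraMap F K yF)⁻¹ := by
  rw [psi_apply' hG κ hF hF' _ _ yF⁻¹ (by rw [map_inv₀, hy]), map_inv₀ (algebraMap F K)]

omit [IsUltrametricDist E] [CompleteSpace E] [CompleteSpace k] in
include hy in
theorem psi_aeval (f : k[X]) : psi hG κ hF hF' ⟨aeval y f, aeval_mem_KY hG f⟩ =
    κ (aeval (algebraMap F K yF) f) := by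
  rw [psi_apply' hG κ hF hF' _ _ (aeval yF f) (map_aeval hy f), aeval_algebraMap_apply]

omit [IsUltrametricDist E] [CompleteSpace E] [CompleteSpace k] in
include hy in
theorem psi_aeval_inv (f : k[X]) :
    psi hG κ hF hF' ⟨aeval (y⁻¹) f, aeval_inv_mem_KY hG f⟩ =
    κ (aeval ((algebraMap F K yF)⁻¹) f) := by
  rw [psi_apply' hG κ hF hF' _ _ (aeval (yF⁻¹) f) (by
    rw [← aeval_algebraMap_apply, map_inv₀, hy]), ← map_inv₀ (algebraMap F K),
    aeval_algebraMap_apply]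

end Hom

section Cases

variable {K : Type u} [Field K] [Algebra F K] [Algebra k K] [IsScalarTower k F K]
  (hF : ∀ x : F, algebraMap F E x ∈ KY hG)
  (hF' : ∀ z : E, z ∈ KY hG → z ∈ Set.range (algebraMap F E))

include hy hF' in
/-- `RU → Ω`, norm with `|y| ≥ 1`. -/
theorem homU_norm {Ω : Type*} [NormedField Ω] [IsUltrametricDist Ω] [CompleteSpace Ω]
    (κ : K →+* Ω) (hk : ∀ c : k, ‖κ (algebraMap k K c)‖ ≤ ‖c‖)
    (h1 : 1 ≤ ‖κ (algebraMap F K yF)‖) :
    ∃ ρ : RU k y →+* Ω, ∀ x : F, ρ ⟨algebraMap F E x, algebraMap_mem_RU hG hF x⟩ =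
      κ (algebraMap F K x) := by
  obtain ⟨Φ, hΦ, -⟩ := mapRU_norm hG (psi hG κ hF hF') (fun c => by
    rw [psi_const]; exact hk c) (by
    rw [psi_yinv hG hy, map_inv₀, norm_inv]
    exact inv_le_one_of_one_le₀ h1) ⊤ isClosed_univ (fun _ => trivial)
  exact ⟨Φ, fun x => (hΦ _ (hF x)).trans (psi_apply hG κ hF hF' x _)⟩

include hy hF' in
/-- `FP → Ω`, norm with `|y| < 1`. -/
theorem homP_norm {Ω : Type*} [NormedField Ω] [IsUltrametricDist Ω] [CompleteSpace Ω]
    (κ : K →+* Ω) (hk : ∀ c : k, ‖κ (algebraMap k K c)‖ ≤ ‖c‖)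
    (h1 : ‖κ (algebraMap F K yF)‖ < 1) :
    ∃ ρ : (FP hG hπ hd).toSubring →+* Ω,
      ∀ x : F, ρ ⟨algebraMap F E x, algebraMap_mem_FP hG hπ hd hF x⟩ =
      κ (algebraMap F K x) := by
  obtain ⟨Φ, hΦ, -⟩ := mapFP_norm hG hπ hd (psi hG κ hF hF') (fun c => by
    rw [psi_const]; exact hk c) (by
    rw [psi_y hG hy]
    exact h1) ⊤ isClosed_univ (fun _ => trivial)
  exact ⟨Φ, fun x => (hΦ _ (hF x)).trans (psi_apply hG κ hF hF' x _)⟩

include hy hF' hπ in
/-- `RU → Ω`, place in `|y| ≥ 1`. -/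
theorem homU_place {Ω : Type*} [NormedField Ω] [IsUltrametricDist Ω] [CompleteSpace Ω]
    (κ : K →+* Ω) (hk : ∀ c : k, ‖κ (algebraMap k K c)‖ ≤ 1)
    (h1 : ‖κ (algebraMap F K yF)⁻¹‖ ≤ 1) (Q : k[X]) (hQ : Q.Monic) (hQ1 : ∀ i, ‖Q.coeff i‖ ≤ 1)
    (hQ2 : ‖κ (aeval ((algebraMap F K yF)⁻¹) Q)‖ < 1) :
    ∃ ρ : RU k y →+* Ω, ∀ x : F, ρ ⟨algebraMap F E x, algebraMap_mem_RU hG hF x⟩ =
      κ (algebraMap F K x) := by
  obtain ⟨Φ, hΦ, -⟩ := mapRU_place hG hπ (psi hG κ hF hF') (fun c => by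
    rw [psi_const]; exact hk c) (by
    rw [psi_yinv hG hy]
    exact h1) Q hQ hQ1 (by rw [psi_aeval_inv hG hy]; exact hQ2) ⊤ isClosed_univ (fun _ => trivial)
  exact ⟨Φ, fun x => (hΦ _ (hF x)).trans (psi_apply hG κ hF hF' x _)⟩

include hy hF' in
/-- `FP → Ω`, place in `|y| < 1`. -/
theorem homP_place {Ω : Type*} [NormedField Ω] [IsUltrametricDist Ω] [CompleteSpace Ω]
    (κ : K →+* Ω) (hk : ∀ c : k, ‖κ (algebraMap k K c)‖ ≤ 1)
    (h1 : ‖κ (algebraMap F K yF)‖ ≤ 1) (Q : k[X]) (hQ : Q.Monic)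
    (hQ1 : ∀ i < Q.natDegree, ‖Q.coeff i‖ < 1)
    (hQ2 : ‖κ (aeval (algebraMap F K yF) Q)‖ < 1) :
    ∃ ρ : (FP hG hπ hd).toSubring →+* Ω,
      ∀ x : F, ρ ⟨algebraMap F E x, algebraMap_mem_FP hG hπ hd hF x⟩ =
      κ (algebraMap F K x) := by
  obtain ⟨Φ, hΦ, -⟩ := mapFP_place hG hπ hd (psi hG κ hF hF') (fun c => by
    rw [psi_const]; exact hk c) (by
    rw [psi_y hG hy]
    exact h1) Q hQ hQ1 (by rw [psi_aeval hG hy]; exact hQ2) ⊤ isClosed_univ (fun _ => trivial)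
  exact ⟨Φ, fun x => (hΦ _ (hF x)).trans (psi_apply hG κ hF hF' x _)⟩

omit [Algebra k K] [IsScalarTower k F K] [IsUltrametricDist E] [CompleteSpace E] in
/-- The conclusion at one valuation. -/
theorem ratio {ι : Type*} [Fintype ι] (b : Module.Basis ι F K) {R : Subring E}
    (hR : ∀ x : F, algebraMap F E x ∈ R) (w : Valuation K ℝ≥0)
    (hρ : ∀ (Ω : Type u) (_ : NormedField Ω) (_ : IsUltrametricDist Ω) (_ : CompleteSpace Ω)
      (κ : K →+* Ω), (∀ x, ‖κ x‖₊ = w x) → ∃ ρ : R →+* Ω, ∀ x : F,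
        ρ ⟨algebraMap F E x, hR x⟩ = κ (algebraMap F K x))
    (N : ℕ) (h h₀ : K) (h0 : h₀ ≠ 0) (a a' : E ⊗[F] K)
    (ha : a ∈ KR R hR (isBC_tensor (E := E) b)) (ha' : a' ∈ KR R hR (isBC_tensor (E := E) b))
    (haa : a * a' = 1)
    (e : algebraMap K (E ⊗[F] K) h = algebraMap K (E ⊗[F] K) h₀ * a ^ N) :
    ∃ g : K, g ≠ 0 ∧ w (h / (h₀ * g ^ N) - 1) < 1 := by
  obtain ⟨Ω, i1, i2, i3, κ, h1, h2⟩ := exists_completion w
  obtain ⟨ρ, hρ'⟩ := hρ Ω i1 i2 i3 κ h1
  refine lift_val (isBC_tensor (E := E) b) hR w (NormedField.valuation (K := Ω)) κ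
    (fun x => h1 x) (fun α hα => ?_) ρ hρ' N h h₀ h0 a a' ha ha' haa e
  obtain ⟨g, hg⟩ := h2 α hα
  exact ⟨g, hg⟩

end Cases

section Glue

variable {K : Type u} [Field K] [Algebra F K] [Algebra k K] [IsScalarTower k F K]
  [FiniteDimensional F K] [Algebra.IsSeparable F K]

include hG hπ hd hy hgen in
/-- **Lemma LIFT at a finite level.** -/
theorem glue (N : ℕ) (hN : ‖(N : E)‖ = 1) (h₀ hP : K) (h0 : h₀ ≠ 0) (hP0 : hP ≠ 0)
    (hf : ∀ v : Valuation K ℝ≥0, (∀ a : F, v (algebraMap F K a) = ‖algebraMap F E a‖₊) →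
      ∃ w : K, w ≠ 0 ∧ v (h₀ / hP - w ^ N) < v (h₀ / hP)) :
    ∃ h : K, h ≠ 0 ∧ ∀ w : Valuation K ℝ≥0,
      ((∀ c : k, w (algebraMap k K c) ≤ ‖c‖₊) → 1 ≤ w (algebraMap F K yF) →
        ∃ g : K, g ≠ 0 ∧ w (h / (h₀ * g ^ N) - 1) < 1) ∧
      ((∀ c : k, w (algebraMap k K c) ≤ ‖c‖₊) → w (algebraMap F K yF) < 1 →
        ∃ g : K, g ≠ 0 ∧ w (h / (hP * g ^ N) - 1) < 1) ∧
      ((∀ c : k, w (algebraMap k K c) ≤ 1) → w (algebraMap F K yF)⁻¹ ≤ 1 →
        (∃ Q : k[X], Q.Monic ∧ (∀ i, ‖Q.coeff i‖ ≤ 1) ∧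
          w (aeval ((algebraMap F K yF)⁻¹) Q) < 1) →
        ∃ g : K, g ≠ 0 ∧ w (h / (h₀ * g ^ N) - 1) < 1) ∧
      ((∀ c : k, w (algebraMap k K c) ≤ 1) → w (algebraMap F K yF) ≤ 1 →
        (∃ Q : k[X], Q.Monic ∧ (∀ i < Q.natDegree, ‖Q.coeff i‖ < 1) ∧
          w (aeval (algebraMap F K yF) Q) < 1) →
        ∃ g : K, g ≠ 0 ∧ w (h / (hP * g ^ N) - 1) < 1) := by
  classical
  have hF : ∀ x : F, algebraMap F E x ∈ KY hG := mem_KY_of_gen hG hy hgen
  have hF' : ∀ z : E, z ∈ KY hG → z ∈ Set.range (algebraMap F E) := range_of_mem_KY hG hy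
  let b := Module.finBasis F K
  obtain ⟨h, hh0, a, ha, a', ha', d, hd1, d', hd1', e1, e2, e3, e4⟩ :=
    patch_E hG hπ hd b hF hF' N hN h₀ hP h0 hP0 hf
  refine ⟨h, hh0, fun w => ⟨fun hk hy1 => ?_, fun hk hy1 => ?_, fun hk hy1 hQ => ?_,
    fun hk hy1 hQ => ?_⟩⟩
  · refine ratio b (algebraMap_mem_RU hG hF) w (fun Ω i1 i2 i3 κ h1 => ?_) N h h₀ h0 a a' ha ha'
      e1 e3
    refine homU_norm hG hy hF hF' κ (fun c => ?_) ?_
    · have := hk c
      rw [← h1] at this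
      exact_mod_cast this
    · rw [← h1] at hy1
      exact_mod_cast hy1
  · refine ratio b (algebraMap_mem_FP hG hπ hd hF) w (fun Ω i1 i2 i3 κ h1 => ?_) N h hP hP0 d d'
      hd1 hd1' e2 e4
    refine homP_norm hG hπ hd hy hF hF' κ (fun c => ?_) ?_
    · have := hk c
      rw [← h1] at this
      exact_mod_cast this
    · rw [← h1] at hy1
      exact_mod_cast hy1
  · refine ratio b (algebraMap_mem_RU hG hF) w (fun Ω i1 i2 i3 κ h1 => ?_) N h h₀ h0 a a' ha ha'
      e1 e3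
    obtain ⟨Q, hQ0, hQ1, hQ2⟩ := hQ
    refine homU_place hG hπ hy hF hF' κ (fun c => ?_) ?_ Q hQ0 hQ1 ?_
    · have := hk c
      rw [← h1] at this
      exact_mod_cast this
    · rw [← h1] at hy1
      exact_mod_cast hy1
    · rw [← h1] at hQ2
      exact_mod_cast hQ2
  · refine ratio b (algebraMap_mem_FP hG hπ hd hF) w (fun Ω i1 i2 i3 κ h1 => ?_) N h hP hP0 d d'
      hd1 hd1' e2 e4
    obtain ⟨Q, hQ0, hQ1, hQ2⟩ := hQ
    refine homP_place hG hπ hd hy hF hF' κ (fun c => ?_) ?_ Q hQ0 hQ1 ?_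
    · have := hk c
      rw [← h1] at this
      exact_mod_cast this
    · rw [← h1] at hy1
      exact_mod_cast hy1
    · rw [← h1] at hQ2
      exact_mod_cast hQ2

end Glue

end Setting

end Crest.Agent.R013.Lift903
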