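import Mathlib

/-!
# R013 / LiftA (helper168): norms over a Gauss norm; choice of the coordinate `z`

`IsG v0 v t` : the valuation `v` of `K` restricts to `v0` on the constants and to the Gauss norm of
the polynomial ring in `t`.  Weak approximation for the finitely many norms over a Gauss norm, and the
coordinate `z = A(t) / (1 + t A(t))`: it has the same norms over its Gauss norm as `t`.
-/

set_option autoImplicit false

namespace Crest.Agent.R013.LiftA_168

open Polynomial
open scoped NNReal

section approx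

variable {k K : Type*} [Field k] [Field K] [Algebra k K]

/-- the absolute value of a rank one valuation -/
noncomputable def abv (w : Valuation K ℝ≥0) : AbsoluteValue K ℝ where
  toFun x := (w x : ℝ)
  map_mul' x y := by rw [map_mul]; push_cast; rfl
  nonneg' x := (w x).2
  eq_zero' x := by
    rw [NNReal.coe_eq_zero, map_eq_zero]
  add_le' x y := by
    have h := w.map_add x y
    rcases le_max_iff.1 h with h | h
    · calc (w (x + y) : ℝ) ≤ w x := by exact_mod_cast h
        _ ≤ w x + w y := le_add_of_nonneg_right (w y).2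
    · calc (w (x + y) : ℝ) ≤ w y := by exact_mod_cast h
        _ ≤ w x + w y := le_add_of_nonneg_left (w x).2

@[simp] theorem abv_apply (w : Valuation K ℝ≥0) (x : K) : abv w x = (w x : ℝ) := rfl

/-- two rank one valuations with the same non-trivial restriction to a subfield which are equivalent
as absolute values are equal -/
theorem eq_of_isEquiv {v0 : Valuation k ℝ≥0} (h0 : ∃ c, v0 c ≠ 0 ∧ v0 c ≠ 1)
    {w w' : Valuation K ℝ≥0} (hw : ∀ c, w (algebraMap k K c) = v0 c)
    (hw' : ∀ c, w' (algebraMap k K c) = v0 c) (h : (abv w).IsEquiv (abv w')) : w = w' := by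
  obtain ⟨s, hs, hs'⟩ := AbsoluteValue.isEquiv_iff_exists_rpow_eq.1 h
  obtain ⟨c, hc0, hc1⟩ := h0
  have h1 := congrFun hs' (algebraMap k K c)
  simp only [abv_apply, hw, hw'] at h1
  have hpos : (0 : ℝ) < v0 c := by
    exact_mod_cast pos_iff_ne_zero.2 hc0
  have hs1 : s = 1 := by
    have h2 := congrArg Real.log h1
    rw [Real.log_rpow hpos] at h2
    have h3 : Real.log (v0 c) ≠ 0 := by
      intro h4
      rcases Real.log_eq_zero.1 h4 with h5 | h5 | h5
      · exact hc0 (by exact_mod_cast h5)
      · exact hc1 (by exact_mod_cast h5)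
      · linarith
    exact mul_right_cancel₀ h3 (by rw [h2, one_mul])
  ext x
  have h2 := congrFun hs' x
  simp only [abv_apply, hs1, Real.rpow_one] at h2
  exact h2

/-- **Weak approximation** for distinct norms extending a non-trivial norm of the constants. -/
theorem weak_approx {ι : Type*} [Finite ι] {v0 : Valuation k ℝ≥0} (h0 : ∃ c, v0 c ≠ 0 ∧ v0 c ≠ 1)
    (w : ι → Valuation K ℝ≥0) (hinj : Function.Injective w)
    (hw : ∀ i c, w i (algebraMap k K c) = v0 c) (a : ι → K) (ε : ℝ≥0) (hε : 0 < ε) :
    ∃ x : K, ∀ i, w i (x - a i) < ε := by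
  have := Fintype.ofFinite ι
  have hnt : ∀ i, (abv (w i)).IsNontrivial := by
    intro i
    obtain ⟨c, hc0, hc1⟩ := h0
    refine ⟨algebraMap k K c, ?_, ?_⟩
    · intro h
      apply hc0
      rw [← hw i, h, map_zero]
    · rw [abv_apply, hw]
      exact_mod_cast hc1
  have hne : Pairwise fun i j => ¬ (abv (w i)).IsEquiv (abv (w j)) := by
    intro i j hij h
    exact hij (hinj (eq_of_isEquiv h0 (hw i) (hw j) h))
  have hd := AbsoluteValue.denseRange_algebraMap_pi hnt hne
  obtain ⟨x, hx⟩ := Metric.denseRange_iff.1 hd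
    (fun i => (WithAbs.equiv (abv (w i))).symm (a i)) ε (by exact_mod_cast hε)
  refine ⟨x, fun i => ?_⟩
  have h1 := (dist_pi_lt_iff (by exact_mod_cast hε)).1 hx i
  rw [dist_comm, dist_eq_norm] at h1
  have h2 : ‖algebraMap K ((i : ι) → WithAbs (abv (w i))) x i -
      (WithAbs.equiv (abv (w i))).symm (a i)‖ = (w i (x - a i) : ℝ) := rfl
  rw [h2] at h1
  exact_mod_cast h1

/-- finitely many extensions of a non-trivial rank one valuation to a finite extension -/
theorem finite_ext {F K : Type*} [Field F] [Field K] [Algebra F K] [FiniteDimensional F K]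
    (v : Valuation F ℝ≥0) (hv : ∃ c, v c ≠ 0 ∧ v c ≠ 1) :
    {w : Valuation K ℝ≥0 | ∀ c, w (algebraMap F K c) = v c}.Finite := by
  classical
  by_contra hinf
  obtain ⟨s, hs, hcard⟩ := Set.Infinite.exists_subset_card_eq hinf (Module.finrank F K + 1)
  let ι := {w // w ∈ s}
  let w : ι → Valuation K ℝ≥0 := fun i => i.1
  have hw : ∀ i c, w i (algebraMap F K c) = v c := fun i c => hs i.2 c
  have hx : ∀ i : ι, ∃ x : K, ∀ j, w j (x - if j = i then 1 else 0) < 1 := fun i =>
    weak_approx hv w Subtype.val_injective hw (fun j => if j = i then 1 else 0) 1 one_pos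
  choose x hx using hx
  have hx1 : ∀ i, w i (x i) = 1 := by
    intro i
    have h1 := hx i i
    rw [if_pos rfl] at h1
    have h2 : w i (x i - 1 + 1) = w i 1 := by
      apply Valuation.map_add_eq_of_lt_right
      rwa [map_one]
    rwa [sub_add_cancel, map_one] at h2
  have hx2 : ∀ i j, j ≠ i → w j (x i) < 1 := by
    intro i j hij
    have h1 := hx i j
    rwa [if_neg hij, sub_zero] at h1
  have hli : LinearIndependent F x := by
    rw [Fintype.linearIndependent_iff]
    intro c hc
    by_contra hcon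
    push Not at hcon
    obtain ⟨i0, hi0⟩ := hcon
    obtain ⟨i, -, hi⟩ := Finset.exists_max_image Finset.univ (fun i => v (c i)) ⟨i0, Finset.mem_univ _⟩
    have hpos : 0 < v (c i) := by
      refine lt_of_lt_of_le ?_ (hi i0 (Finset.mem_univ _))
      rw [pos_iff_ne_zero]
      exact (Valuation.ne_zero_iff _).2 hi0
    have h1 : w i (c i • x i) = v (c i) := by
      rw [Algebra.smul_def, map_mul, hw, hx1, mul_one]
    have h2 : w i (∑ j ∈ Finset.univ.erase i, c j • x j) < v (c i) := by
      refine Valuation.map_sum_lt _ hpos.ne' fun j hj => ?_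
      rw [Algebra.smul_def, map_mul, hw]
      calc v (c j) * w i (x j) ≤ v (c i) * w i (x j) := by
            gcongr
            exact hi j (Finset.mem_univ _)
        _ < v (c i) * 1 := by
            gcongr
            exact hx2 j i (Finset.ne_of_mem_erase hj).symm
        _ = v (c i) := mul_one _
    have h3 : w i (c i • x i + ∑ j ∈ Finset.univ.erase i, c j • x j) = w i (c i • x i) := by
      apply Valuation.map_add_eq_of_lt_left
      rwa [h1]
    rw [Finset.add_sum_erase _ (fun j => c j • x j) (Finset.mem_univ i), hc, map_zero, h1] at h3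
    exact hpos.ne h3
  have := hli.fintype_card_le_finrank
  have h4 : Fintype.card ι = Module.finrank F K + 1 := by
    rw [← hcard]
    exact Fintype.card_coe s
  omega

end approx

section gauss

variable {k K : Type*} [Field k] [Field K] [Algebra k K]

/-- `v` extends `v0` and is the Gauss norm on the polynomials in `t`. -/
structure IsG (v0 : Valuation k ℝ≥0) (v : Valuation K ℝ≥0) (t : K) : Prop where
  ext : ∀ c, v (algebraMap k K c) = v0 c
  le : v t ≤ 1
  coeff_le : ∀ (f : k[X]) (i : ℕ), v0 (f.coeff i) ≤ v (aeval t f)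

variable {v0 : Valuation k ℝ≥0} {v w : Valuation K ℝ≥0} {t : K}

theorem aeval_val_le (hw : ∀ c, w (algebraMap k K c) = v0 c) (ht : w t ≤ 1) (f : k[X]) {r : ℝ≥0}
    (h : ∀ i, v0 (f.coeff i) ≤ r) : w (aeval t f) ≤ r := by
  rw [aeval_eq_sum_range]
  refine Valuation.map_sum_le _ fun i _ => ?_
  rw [Algebra.smul_def, map_mul, hw, map_pow]
  calc v0 (f.coeff i) * w t ^ i ≤ r * 1 := by
        gcongr
        · exact h i
        · exact pow_le_one₀ (by positivity) ht
    _ = r := mul_one r

namespace IsG

theorem val_eq_one (h : IsG v0 v t) : v t = 1 := by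
  refine le_antisymm h.le ?_
  have := h.coeff_le X 1
  simpa using this

/-- the maximum of the norms of the coefficients is attained -/
theorem _root_.Crest.Agent.R013.LiftA_168.exists_max_coeff (v0 : Valuation k ℝ≥0) (f : k[X]) :
    ∃ j, (∀ i, v0 (f.coeff i) ≤ v0 (f.coeff j)) ∧ ∀ i < j, v0 (f.coeff i) < v0 (f.coeff j) := by
  classical
  obtain ⟨j, hj, hmax⟩ := Finset.exists_max_image (Finset.range (f.natDegree + 1))
    (fun i => v0 (f.coeff i)) ⟨0, by simp⟩
  have hall : ∀ i, v0 (f.coeff i) ≤ v0 (f.coeff j) := by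
    intro i
    by_cases hi : i ∈ Finset.range (f.natDegree + 1)
    · exact hmax i hi
    · rw [coeff_eq_zero_of_natDegree_lt (by simpa using hi), map_zero]
      exact zero_le
  have hex : ∃ j', v0 (f.coeff j') = v0 (f.coeff j) := ⟨j, rfl⟩
  refine ⟨Nat.find hex, fun i => ?_, fun i hi => ?_⟩
  · rw [Nat.find_spec hex]; exact hall i
  · rw [Nat.find_spec hex]
    exact lt_of_le_of_ne (hall i) (Nat.find_min hex hi)

theorem aeval_eq (h : IsG v0 v t) (f : k[X]) {j : ℕ} (hj : ∀ i, v0 (f.coeff i) ≤ v0 (f.coeff j)) :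
    v (aeval t f) = v0 (f.coeff j) :=
  le_antisymm (aeval_val_le h.ext h.le f hj) (h.coeff_le f j)

theorem congr (h : IsG v0 v t) (h' : IsG v0 w t) (f : k[X]) : v (aeval t f) = w (aeval t f) := by
  obtain ⟨j, hj, -⟩ := exists_max_coeff v0 f
  rw [h.aeval_eq f hj, h'.aeval_eq f hj]

theorem aeval_ne_zero (h : IsG v0 v t) {f : k[X]} (hf : f ≠ 0) : aeval t f ≠ 0 := by
  intro h0
  apply hf
  ext i
  have := h.coeff_le f i
  rw [h0, map_zero, le_zero_iff, map_eq_zero] at this
  simpa using this

theorem transcendental (h : IsG v0 v t) : Transcendental k t := by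
  rintro ⟨f, hf, hf0⟩
  exact h.aeval_ne_zero hf hf0

/-- `IsG` only depends on the restriction to `k(t)` -/
theorem congr_adjoin (h : IsG v0 v t) (h' : IsG v0 w t) (x : K) (hx : x ∈ IntermediateField.adjoin k {t}) :
    v x = w x := by
  rw [IntermediateField.mem_adjoin_simple_iff] at hx
  obtain ⟨r, s, rfl⟩ := hx
  rw [map_div₀, map_div₀, h.congr h', h.congr h']

theorem of_adjoin (h : IsG v0 v t) (h' : ∀ x ∈ IntermediateField.adjoin k {t}, w x = v x) :
    IsG v0 w t where
  ext c := by
    rw [h' _ (IntermediateField.algebraMap_mem _ c), h.ext]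
  le := by
    rw [h' _ (IntermediateField.mem_adjoin_simple_self k t)]
    exact h.le
  coeff_le f i := by
    rw [h' _ ?_]
    · exact h.coeff_le f i
    · exact IntermediateField.algebra_adjoin_le_adjoin k {t} (aeval_mem_adjoin_singleton k t)

end IsG

/-- the norms over a Gauss norm of `k(t)` are finite in number -/
theorem finite_isG (h0 : ∃ c, v0 c ≠ 0 ∧ v0 c ≠ 1) (t : K)
    [FiniteDimensional (IntermediateField.adjoin k {t}) K] :
    {w : Valuation K ℝ≥0 | IsG v0 w t}.Finite := by
  classical
  by_cases hex : ∃ w : Valuation K ℝ≥0, IsG v0 w t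
  · obtain ⟨w1, hw1⟩ := hex
    refine (finite_ext (K := K) (w1.comap (algebraMap (IntermediateField.adjoin k {t}) K)) ?_).subset ?_
    · obtain ⟨c, hc0, hc1⟩ := h0
      have h2 : w1 (algebraMap (IntermediateField.adjoin k {t}) K
          (algebraMap k (IntermediateField.adjoin k {t}) c)) = v0 c := by
        rw [← IsScalarTower.algebraMap_apply]
        exact hw1.ext c
      refine ⟨algebraMap k _ c, ?_, ?_⟩
      · rw [Valuation.comap_apply, h2]; exact hc0
      · rw [Valuation.comap_apply, h2]; exact hc1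
    · intro w hw c
      rw [Valuation.comap_apply]
      exact IsG.congr_adjoin hw hw1 _ c.2
  · have : {w : Valuation K ℝ≥0 | IsG v0 w t} = ∅ :=
      Set.eq_empty_iff_forall_notMem.2 fun w hw => hex ⟨w, hw⟩
    rw [this]
    exact Set.finite_empty

end gauss

/-! ### The coordinate `z = A(t) / (1 + t A(t))` -/

section coord

variable {k K : Type*} [Field k] [Field K] [Algebra k K]
  {v0 : Valuation k ℝ≥0} {v w : Valuation K ℝ≥0} {t : K}

/-- monic with integral coefficients -/
structure MI (v0 : Valuation k ℝ≥0) (A : k[X]) : Prop where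
  monic : A.Monic
  le : ∀ i, v0 (A.coeff i) ≤ 1

theorem int_mul {f g : k[X]} (hf : ∀ i, v0 (f.coeff i) ≤ 1) (hg : ∀ i, v0 (g.coeff i) ≤ 1) (i : ℕ) :
    v0 ((f * g).coeff i) ≤ 1 := by
  rw [coeff_mul]
  refine Valuation.map_sum_le _ fun x _ => ?_
  rw [map_mul]
  exact mul_le_one' (hf _) (hg _)

theorem int_pow {f : k[X]} (hf : ∀ i, v0 (f.coeff i) ≤ 1) (n i : ℕ) :
    v0 ((f ^ n).coeff i) ≤ 1 := by
  induction n generalizing i with
  | zero =>
    rw [pow_zero, coeff_one]
    split_ifs
    · rw [map_one]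
    · rw [map_zero]; exact zero_le
  | succ n ih => rw [pow_succ]; exact int_mul ih hf i

theorem MI.mul {f g : k[X]} (hf : MI v0 f) (hg : MI v0 g) : MI v0 (f * g) :=
  ⟨hf.monic.mul hg.monic, int_mul hf.le hg.le⟩

theorem MI.one : MI v0 (1 : k[X]) := ⟨monic_one, fun i => by
  rw [coeff_one]
  split_ifs
  · rw [map_one]
  · rw [map_zero]; exact zero_le⟩

theorem MI.var : MI v0 (X : k[X]) := ⟨monic_X, fun i => by
  rw [coeff_X]
  split_ifs
  · rw [map_one]
  · rw [map_zero]; exact zero_le⟩

theorem MI.pow {f : k[X]} (hf : MI v0 f) (n : ℕ) : MI v0 (f ^ n) :=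
  ⟨hf.monic.pow n, int_pow hf.le n⟩

theorem MI.prod {ι : Type*} (s : Finset ι) (f : ι → k[X]) (hf : ∀ i ∈ s, MI v0 (f i)) :
    MI v0 (∏ i ∈ s, f i) := by
  classical
  induction s using Finset.induction_on with
  | empty => rw [Finset.prod_empty]; exact MI.one
  | insert a s ha ih =>
    rw [Finset.prod_insert ha]
    exact (hf a (Finset.mem_insert_self a s)).mul
      (ih fun i hi => hf i (Finset.mem_insert_of_mem hi))

theorem MI.natDegree_den {A : k[X]} (hA : MI v0 A) : (1 + X * A).natDegree = A.natDegree + 1 := by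
  have h1 : (X * A).natDegree = A.natDegree + 1 := by
    rw [natDegree_X_mul hA.monic.ne_zero]
  have h2 : (1 : k[X]).natDegree < (X * A).natDegree := by
    rw [natDegree_one, h1]; omega
  rw [natDegree_add_eq_right_of_natDegree_lt h2, h1]

/-- the denominator `1 + X A` -/
theorem MI.den {A : k[X]} (hA : MI v0 A) : MI v0 (1 + X * A) := by
  refine ⟨?_, fun i => ?_⟩
  · rw [add_comm]
    refine (monic_X.mul hA.monic).add_of_left ?_
    rw [degree_one, degree_mul, degree_X, degree_eq_natDegree hA.monic.ne_zero]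
    exact_mod_cast (by omega : 0 < 1 + A.natDegree)
  · rw [coeff_add]
    exact v0.map_add_le (MI.one.le i) (int_mul MI.var.le hA.le i)

theorem MI.val_of_gt {A : k[X]} (hA : MI v0 A) (hw : ∀ c, w (algebraMap k K c) = v0 c)
    (ht : 1 < w t) : w (aeval t A) = w t ^ A.natDegree := by
  rw [aeval_eq_sum_range, Finset.sum_range_succ, hA.monic.coeff_natDegree, one_smul]
  have h1 : w (∑ i ∈ Finset.range A.natDegree, A.coeff i • t ^ i) < w (t ^ A.natDegree) := by
    refine Valuation.map_sum_lt _ ?_ fun i hi => ?_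
    · rw [map_pow]
      exact pow_ne_zero _ (zero_lt_one.trans ht).ne'
    · rw [Algebra.smul_def, map_mul, hw, map_pow, map_pow]
      calc v0 (A.coeff i) * w t ^ i ≤ 1 * w t ^ i := by gcongr; exact hA.le i
        _ = w t ^ i := one_mul _
        _ < w t ^ A.natDegree := pow_lt_pow_right₀ ht (Finset.mem_range.1 hi)
  rw [Valuation.map_add_eq_of_lt_right _ h1, map_pow]

theorem MI.val_le {A : k[X]} (hA : MI v0 A) (hw : ∀ c, w (algebraMap k K c) = v0 c)
    (ht : w t ≤ 1) : w (aeval t A) ≤ 1 := aeval_val_le hw ht A hA.le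

theorem IsG.val_MI (h : IsG v0 v t) {A : k[X]} (hA : MI v0 A) : v (aeval t A) = 1 := by
  refine le_antisymm (hA.val_le h.ext h.le) ?_
  have := h.coeff_le A A.natDegree
  rwa [hA.monic.coeff_natDegree, map_one] at this

/-- the coordinate `z` -/
noncomputable def zc (A : k[X]) (t : K) : K := aeval t A / aeval t (1 + X * A)

theorem zc_val_of_gt {A : k[X]} (hA : MI v0 A) (hw : ∀ c, w (algebraMap k K c) = v0 c)
    (ht : 1 < w t) : w (zc A t) = (w t)⁻¹ := by
  have h0 : w t ≠ 0 := (zero_lt_one.trans ht).ne'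
  rw [zc, map_div₀, hA.val_of_gt hw ht, hA.den.val_of_gt hw ht, hA.natDegree_den, pow_succ,
    div_mul_eq_div_div, div_self (pow_ne_zero _ h0), one_div]

theorem zc_val_lt {A : k[X]} (hA : MI v0 A) (hw : ∀ c, w (algebraMap k K c) = v0 c)
    (ht : 1 < w t) : w (zc A t) < 1 := by
  rw [zc_val_of_gt hA hw ht]
  exact inv_lt_one_of_one_lt₀ ht

theorem zc_le_one {A : k[X]} (hA : MI v0 A) (hw : ∀ c, w (algebraMap k K c) = v0 c)
    (ht : w t ≤ 1) (h1 : w (zc A t) = 1) : w (aeval t (1 + X * A)) = 1 := by
  have h2 : w (aeval t (1 + X * A)) ≤ 1 := hA.den.val_le hw ht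
  refine le_antisymm h2 ?_
  by_contra hlt
  push Not at hlt
  have h3 : w (aeval t A) = w (aeval t (1 + X * A)) := by
    rw [zc, map_div₀] at h1
    have h4 : w (aeval t (1 + X * A)) ≠ 0 := by
      intro h0
      rw [h0, div_zero] at h1
      exact zero_ne_one h1
    rwa [div_eq_one_iff_eq h4] at h1
  have h4 : (1 : K) = aeval t (1 + X * A) - t * aeval t A := by
    rw [map_add, map_mul, aeval_X, map_one]; ring
  have h5 : w (1 : K) < 1 := by
    rw [h4]
    refine Valuation.map_sub_lt _ hlt ?_
    rw [map_mul]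
    calc w t * w (aeval t A) ≤ 1 * w (aeval t A) := by gcongr
      _ < 1 := by rw [one_mul, h3]; exact hlt
  rw [map_one] at h5
  exact lt_irrefl _ h5

/-- the numerator polynomial of `f(z)` -/
noncomputable def num (A f : k[X]) : k[X] :=
  ∑ i ∈ Finset.range (f.natDegree + 1), C (f.coeff i) * (A ^ i * (1 + X * A) ^ (f.natDegree - i))

theorem aeval_num (A f : k[X]) (ht : aeval t (1 + X * A) ≠ 0) :
    aeval t (num A f) = aeval (zc A t) f * aeval t (1 + X * A) ^ f.natDegree := by
  rw [num, map_sum, aeval_eq_sum_range, Finset.sum_mul]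
  refine Finset.sum_congr rfl fun i hi => ?_
  have hi' : i ≤ f.natDegree := Nat.lt_succ_iff.1 (Finset.mem_range.1 hi)
  rw [map_mul, map_mul, map_pow, map_pow, aeval_C, Algebra.smul_def, zc]
  have h1 : aeval t (1 + X * A) ^ f.natDegree =
      aeval t (1 + X * A) ^ i * aeval t (1 + X * A) ^ (f.natDegree - i) := by
    rw [← pow_add, Nat.add_sub_cancel' hi']
  rw [h1, div_pow]
  have h2 : aeval t (1 + X * A) ^ i ≠ 0 := pow_ne_zero _ ht
  generalize aeval t (1 + X * A) ^ i = D at *
  rw [← mul_assoc, ← mul_assoc, mul_assoc (algebraMap k K (f.coeff i)) _ D, div_mul_cancel₀ _ h2,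
    mul_assoc]

theorem natDegree_term {A : k[X]} (hA : MI v0 A) {n i : ℕ} (hi : i ≤ n) :
    (A ^ i * (1 + X * A) ^ (n - i)).natDegree + i = n * (A.natDegree + 1) := by
  rw [(hA.monic.pow i).natDegree_mul (hA.den.monic.pow _), hA.monic.natDegree_pow,
    hA.den.monic.natDegree_pow, hA.natDegree_den]
  obtain ⟨m, rfl⟩ := Nat.exists_eq_add_of_le hi
  rw [Nat.add_sub_cancel_left]
  ring

/-- if `t` is Gauss then so is `z` -/
theorem IsG.zc (h : IsG v0 v t) {A : k[X]} (hA : MI v0 A) : IsG v0 v (zc A t) := by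
  have hd1 : v (aeval t (1 + X * A)) = 1 := h.val_MI hA.den
  have hd0 : aeval t (1 + X * A) ≠ 0 := by
    intro h0
    rw [h0, map_zero] at hd1
    exact zero_ne_one hd1
  refine ⟨h.ext, ?_, fun f i => ?_⟩
  · rw [LiftA_168.zc, map_div₀, h.val_MI hA, hd1, div_one]
  · obtain ⟨j, hj, hj'⟩ := exists_max_coeff v0 f
    refine (hj i).trans ?_
    by_cases hf : v0 (f.coeff j) = 0
    · rw [hf]; exact zero_le
    have hjn : j ≤ f.natDegree := by
      by_contra hlt
      push Not at hlt
      rw [coeff_eq_zero_of_natDegree_lt hlt, map_zero] at hf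
      exact hf rfl
    have hN : j ≤ f.natDegree * (A.natDegree + 1) := by
      rw [← natDegree_term hA hjn]; omega
    -- the coefficient of degree `N - j` of the numerator
    have hval : v (aeval (LiftA_168.zc A t) f) = v (aeval t (num A f)) := by
      rw [aeval_num A f hd0, map_mul, map_pow, hd1, one_pow, mul_one]
    rw [hval]
    refine le_trans (le_of_eq ?_) (h.coeff_le (num A f) (f.natDegree * (A.natDegree + 1) - j))
    rw [num, finsetSum_coeff, ← Finset.add_sum_erase _ _
      (Finset.mem_range.2 (Nat.lt_succ_iff.2 hjn) : j ∈ Finset.range (f.natDegree + 1))]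
    have hlead : (C (f.coeff j) * (A ^ j * (1 + X * A) ^ (f.natDegree - j))).coeff
        (f.natDegree * (A.natDegree + 1) - j) = f.coeff j := by
      have h1 : f.natDegree * (A.natDegree + 1) - j =
          (A ^ j * (1 + X * A) ^ (f.natDegree - j)).natDegree := by
        rw [← natDegree_term hA hjn]; omega
      rw [h1, coeff_C_mul, ((hA.monic.pow j).mul (hA.den.monic.pow _)).coeff_natDegree, mul_one]
    rw [hlead]
    symm
    apply Valuation.map_add_eq_of_lt_left
    refine Valuation.map_sum_lt _ hf fun i hi => ?_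
    obtain ⟨hij, hi⟩ := Finset.mem_erase.1 hi
    have hin : i ≤ f.natDegree := Nat.lt_succ_iff.1 (Finset.mem_range.1 hi)
    rw [coeff_C_mul, map_mul]
    rcases lt_or_gt_of_ne hij with hlt | hgt
    · calc v0 (f.coeff i) * v0 ((A ^ i * (1 + X * A) ^ (f.natDegree - i)).coeff _)
          ≤ v0 (f.coeff i) * 1 := by
            gcongr
            exact int_mul (int_pow hA.le i) (int_pow hA.den.le _) _
        _ = v0 (f.coeff i) := mul_one _
        _ < v0 (f.coeff j) := hj' i hlt
    · rw [coeff_eq_zero_of_natDegree_lt (p := A ^ i * (1 + X * A) ^ (f.natDegree - i)), map_zero,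
        mul_zero]
      · exact pos_iff_ne_zero.2 hf
      · have := natDegree_term hA hin
        omega

end coord

section residue

open IsLocalRing

variable {k K : Type*} [Field k] [Field K] [Algebra k K]
  {v0 : Valuation k ℝ≥0} {v w : Valuation K ℝ≥0} {t : K}

theorem hasExt (hw : ∀ c, w (algebraMap k K c) = v0 c) : v0.HasExtension w :=
  ⟨fun x y => by rw [Valuation.comap_apply, Valuation.comap_apply, hw, hw]⟩

theorem residue_eq_zero_iff' (w : Valuation K ℝ≥0) (x : w.valuationSubring) :
    residue w.valuationSubring x = 0 ↔ w (x : K) < 1 := by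
  rw [residue_eq_zero_iff, IsLocalRing.mem_maximalIdeal, mem_nonunits_iff]
  constructor
  · intro h
    refine lt_of_le_of_ne x.2 fun h1 => h ?_
    have hx0 : (x : K) ≠ 0 := by
      intro h0
      rw [h0, map_zero] at h1
      exact zero_ne_one h1
    have hinv : w (x : K)⁻¹ ≤ 1 := by rw [map_inv₀, h1, inv_one]
    exact IsUnit.of_mul_eq_one (⟨(x : K)⁻¹, hinv⟩ : w.valuationSubring)
      (Subtype.ext (mul_inv_cancel₀ hx0))
  · intro h h1
    obtain ⟨y, hy⟩ := h1.exists_right_inv
    have h2 : (x : K) * (y : K) = 1 := congrArg Subtype.val hy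
    have h3 : w (x : K) * w (y : K) = 1 := by rw [← map_mul, h2, map_one]
    have h4 : w (x : K) * w (y : K) < 1 := mul_lt_one_of_lt_of_le h y.2
    exact h4.ne h3

/-- algebraicity of a residue, in elementary terms -/
theorem isAlgebraic_residue_iff [v0.HasExtension w]
    (x : w.valuationSubring) :
    IsAlgebraic (ResidueField v0.valuationSubring) (residue w.valuationSubring x) ↔
      ∃ f : k[X], (∀ i, v0 (f.coeff i) ≤ 1) ∧ (∃ i, v0 (f.coeff i) = 1) ∧ w (aeval (x : K) f) < 1 := by
  have key : ∀ P : (v0.valuationSubring)[X],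
      (aeval (residue w.valuationSubring x)) (P.map (residue v0.valuationSubring)) =
        residue w.valuationSubring (aeval x P) := by
    intro P
    rw [aeval_def, eval₂_map, aeval_def, hom_eval₂]
    rfl
  have key2 : ∀ P : (v0.valuationSubring)[X],
      ((aeval x P : w.valuationSubring) : K) =
        aeval (x : K) (P.map v0.valuationSubring.subtype) := by
    intro P
    rw [aeval_def, aeval_def, eval₂_map]
    change w.valuationSubring.subtype _ = _
    rw [hom_eval₂]
    rfl
  constructor
  · rintro ⟨p, hp, hp0⟩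
    obtain ⟨P, rfl⟩ := Polynomial.map_surjective _ (residue_surjective (R := v0.valuationSubring)) p
    refine ⟨P.map v0.valuationSubring.subtype, fun i => ?_, ?_, ?_⟩
    · rw [coeff_map]
      exact (P.coeff i).2
    · by_contra hcon
      push Not at hcon
      apply hp
      ext i
      rw [coeff_map, coeff_zero, residue_eq_zero_iff']
      refine lt_of_le_of_ne (P.coeff i).2 fun h => hcon i ?_
      rw [coeff_map]
      exact h
    · rw [← key2, ← residue_eq_zero_iff', ← key, hp0]
  · rintro ⟨f, hf1, ⟨i, hi⟩, hf⟩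
    have hlift : f ∈ Polynomial.lifts v0.valuationSubring.subtype := by
      rw [Polynomial.lifts_iff_coeff_lifts]
      intro j
      exact ⟨⟨f.coeff j, hf1 j⟩, rfl⟩
    obtain ⟨P, hP⟩ := hlift
    rw [coe_mapRingHom] at hP
    refine ⟨P.map (residue _), ?_, ?_⟩
    · intro h0
      have h1 := congrArg (fun q => q.coeff i) h0
      simp only [coeff_map, coeff_zero] at h1
      rw [residue_eq_zero_iff'] at h1
      have h2 : f.coeff i = (P.coeff i : k) := by rw [← hP, coeff_map]; rfl
      rw [← h2, hi] at h1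
      exact lt_irrefl _ h1
    · rw [key, residue_eq_zero_iff', key2, hP]
      exact hf

/-- scaling: the Gauss property can be tested on polynomials with maximal coefficient `1` -/
theorem isG_of_unit (hw : ∀ c, w (algebraMap k K c) = v0 c) (ht : w t ≤ 1)
    (h : ∀ f : k[X], (∀ i, v0 (f.coeff i) ≤ 1) → (∃ i, v0 (f.coeff i) = 1) → 1 ≤ w (aeval t f)) :
    IsG v0 w t := by
  refine ⟨hw, ht, fun f i => ?_⟩
  obtain ⟨j, hj, -⟩ := exists_max_coeff v0 f
  refine (hj i).trans ?_
  by_cases h0 : f.coeff j = 0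
  · rw [h0, map_zero]; exact zero_le
  have h0' : v0 (f.coeff j) ≠ 0 := (Valuation.ne_zero_iff _).2 h0
  have h1 := h (C (f.coeff j)⁻¹ * f) (fun i => by
      rw [coeff_C_mul, map_mul, map_inv₀, inv_mul_le_one₀ (pos_iff_ne_zero.2 h0')]
      exact hj i) ⟨j, by rw [coeff_C_mul, inv_mul_cancel₀ h0, map_one]⟩
  rw [map_mul, aeval_C, map_mul, hw, map_inv₀] at h1
  rwa [le_inv_mul_iff₀ (pos_iff_ne_zero.2 h0'), mul_one] at h1

/-- **Uniqueness**: a norm which is Gauss for `z = A(t) / (1 + t A(t))` is Gauss for `t`. -/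
theorem isG_of_zc {A : k[X]} (hA : MI v0 A) (hz : IsG v0 w (zc A t)) : IsG v0 w t := by
  have ht : w t ≤ 1 := by
    by_contra hcon
    push Not at hcon
    have h1 := zc_val_lt hA hz.ext hcon
    rw [hz.val_eq_one] at h1
    exact lt_irrefl _ h1
  refine isG_of_unit hz.ext ht fun f hf hf1 => ?_
  by_contra hlt
  push Not at hlt
  have := hasExt hz.ext
  set κ := ResidueField v0.valuationSubring
  set κw := ResidueField w.valuationSubring
  have htw : t ∈ w.valuationSubring := ht
  have h1 : IsAlgebraic κ (residue w.valuationSubring ⟨t, htw⟩) :=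
    (isAlgebraic_residue_iff ⟨t, htw⟩).2 ⟨f, hf, hf1, hlt⟩
  have hAm : aeval t A ∈ w.valuationSubring := hA.val_le hz.ext ht
  have hDm : aeval t (1 + X * A) ∈ w.valuationSubring := hA.den.val_le hz.ext ht
  have hzm : zc A t ∈ w.valuationSubring := hz.le
  have hD1 : w (aeval t (1 + X * A)) = 1 := zc_le_one hA hz.ext ht hz.val_eq_one
  -- the residues of `A(t)` is algebraic
  have hlift : A ∈ Polynomial.lifts v0.valuationSubring.subtype := by
    rw [Polynomial.lifts_iff_coeff_lifts]
    intro j
    exact ⟨⟨A.coeff j, hA.le j⟩, rfl⟩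
  obtain ⟨P, hP⟩ := hlift
  rw [coe_mapRingHom] at hP
  have h2 : IsAlgebraic κ (residue w.valuationSubring ⟨aeval t A, hAm⟩) := by
    have h3 : residue w.valuationSubring ⟨aeval t A, hAm⟩ =
        aeval (residue w.valuationSubring ⟨t, htw⟩) (P.map (residue v0.valuationSubring)) := by
      conv_rhs => rw [aeval_def, eval₂_map]
      have h4 : (⟨aeval t A, hAm⟩ : w.valuationSubring) = aeval ⟨t, htw⟩ P := by
        apply Subtype.ext
        change aeval t A = w.valuationSubring.subtype _
        have h5 : aeval t A = aeval t (P.map v0.valuationSubring.subtype) := by rw [hP]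
        rw [h5, aeval_def, aeval_def, eval₂_map, hom_eval₂]
        rfl
      rw [h4, aeval_def, hom_eval₂]
      rfl
    rw [h3]
    exact (IsIntegral.of_mem_of_fg _ h1.isIntegral.fg_adjoin_singleton _
      (aeval_mem_adjoin_singleton _ _)).isAlgebraic
  have h3 : IsAlgebraic κ (residue w.valuationSubring ⟨aeval t (1 + X * A), hDm⟩) := by
    have h4 : residue w.valuationSubring ⟨aeval t (1 + X * A), hDm⟩ =
        1 + residue w.valuationSubring ⟨t, htw⟩ * residue w.valuationSubring ⟨aeval t A, hAm⟩ := by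
      rw [← map_mul, ← map_one (residue w.valuationSubring), ← map_add]
      congr 1
      apply Subtype.ext
      change aeval t (1 + X * A) = 1 + t * aeval t A
      rw [map_add, map_mul, aeval_X, map_one]
    rw [h4]
    exact isAlgebraic_one.add (h1.mul h2)
  have h4 : IsAlgebraic κ (residue w.valuationSubring ⟨zc A t, hzm⟩) := by
    have h5 : residue w.valuationSubring ⟨zc A t, hzm⟩ =
        residue w.valuationSubring ⟨aeval t A, hAm⟩ *
          (residue w.valuationSubring ⟨aeval t (1 + X * A), hDm⟩)⁻¹ := by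
      have h6 : residue w.valuationSubring ⟨aeval t (1 + X * A), hDm⟩ ≠ 0 := by
        intro h0
        rw [residue_eq_zero_iff'] at h0
        exact h0.ne hD1
      rw [eq_mul_inv_iff_mul_eq₀ h6, ← map_mul]
      congr 1
      apply Subtype.ext
      change zc A t * aeval t (1 + X * A) = aeval t A
      rw [zc, div_mul_cancel₀]
      intro h0
      rw [h0, map_zero] at hD1
      exact zero_ne_one hD1
    rw [h5]
    exact h2.mul h3.inv
  obtain ⟨g, hg, ⟨i, hi⟩, hg1⟩ := (isAlgebraic_residue_iff ⟨zc A t, hzm⟩).1 h4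
  have h5 := hz.coeff_le g i
  rw [hi] at h5
  exact absurd hg1 (not_lt.2 h5)

end residue

end Crest.Agent.R013.LiftA_168
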