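import Mathlib
import Crest.Agent.R013.Unr11_957
import Crest.Agent.R013.LiftA_168
import Crest.Agent.R013.Inh1_770

/-!
# R013 / TopE1: `SplitAt v L` — `K` is dense in the algebraic extension `L` for every extension of
the norm `v` of `K` (helper957)

* `of_one`, `of_hom` : it is enough to have one dense extension (`L/K` normal);
* `sub`, `trans`, `of_gen`, `baseChange`, `congr`;
* `unrAt`, `unrEv`;
* `powAt` / `splitAt_of_powAt` : Kummer form;
* `etaleAt` : `EtaleAt K L v` of `Inh1_770`.
-/

set_option autoImplicit false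
set_option linter.unusedSectionVars false

namespace Crest.Agent.R013.TopE1_957

open scoped NNReal
open Module IntermediateField Polynomial
open Crest.Agent.R013.Unr7_957 Crest.Agent.R013.Unr8_957 Crest.Agent.R013.Unr9_957
open Crest.Agent.R013.Unr10_957 Crest.Agent.R013.Unr11_957
open Crest.Agent.R013.SE_669

/-- `K` is dense in `L` for every extension of `v` to `L`: `L/K` is completely split at `v` -/
def SplitAt {K : Type*} [Field K] (v : Valuation K ℝ≥0) (L : Type*) [Field L] [Algebra K L] :
    Prop :=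
  ∀ w : Valuation L ℝ≥0, w.comap (algebraMap K L) = v → ∀ f : L, ∀ ε : ℝ≥0, 0 < ε →
    ∃ g : K, w (f - algebraMap K L g) < ε

section basic

variable {K : Type*} [Field K] {v : Valuation K ℝ≥0}
variable {L : Type*} [Field L] [Algebra K L]

theorem comap_apply' {w : Valuation L ℝ≥0} (hw : w.comap (algebraMap K L) = v) (x : K) :
    w (algebraMap K L x) = v x := by rw [← hw]; rfl

/-- density as membership in the closed subfield `clF w ⊥` -/
theorem mem_clF_bot {w : Valuation L ℝ≥0} {f : L} : f ∈ clF w (⊥ : IntermediateField K L) ↔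
    ∀ ε : ℝ≥0, 0 < ε → ∃ g : K, w (f - algebraMap K L g) < ε := by
  constructor
  · intro h ε hε
    obtain ⟨b, hb, hb'⟩ := h ε hε
    obtain ⟨g, rfl⟩ := IntermediateField.mem_bot.1 hb
    exact ⟨g, hb'⟩
  · intro h ε hε
    obtain ⟨g, hg⟩ := h ε hε
    exact ⟨algebraMap K L g, IntermediateField.mem_bot.2 ⟨g, rfl⟩, hg⟩

theorem splitAt_iff_clF : SplitAt v L ↔ ∀ w : Valuation L ℝ≥0, w.comap (algebraMap K L) = v →
    clF w (⊥ : IntermediateField K L) = ⊤ := by
  constructor
  · intro h w hw
    rw [eq_top_iff]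
    intro f _
    exact mem_clF_bot.2 (h w hw f)
  · intro h w hw f
    have : f ∈ clF w (⊥ : IntermediateField K L) := by rw [h w hw]; trivial
    exact mem_clF_bot.1 this

/-- generators -/
theorem of_gen (S : Set L) (hS : IntermediateField.adjoin K S = ⊤)
    (h : ∀ w : Valuation L ℝ≥0, w.comap (algebraMap K L) = v → ∀ f ∈ S, ∀ ε : ℝ≥0, 0 < ε →
      ∃ g : K, w (f - algebraMap K L g) < ε) : SplitAt v L := by
  rw [splitAt_iff_clF]
  intro w hw
  rw [eq_top_iff, ← hS, IntermediateField.adjoin_le_iff]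
  intro f hf
  exact mem_clF_bot.2 (h w hw f hf)

/-- one dense extension is enough when `L/K` is normal -/
theorem of_one [Normal K L] (w₀ : Valuation L ℝ≥0) (hw₀ : w₀.comap (algebraMap K L) = v)
    (h : ∀ f : L, ∀ ε : ℝ≥0, 0 < ε → ∃ g : K, w₀ (f - algebraMap K L g) < ε) : SplitAt v L := by
  intro w hw f ε hε
  obtain ⟨σ, hσ⟩ := exists_conj_normal (F := K) w₀ w (by rw [hw₀, hw])
  obtain ⟨g, hg⟩ := h (σ f) ε hε
  refine ⟨g, ?_⟩
  rw [hσ, map_sub, AlgEquiv.commutes]
  exact hg

/-- one embedding in a valued field in which `K` is dense is enough -/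
theorem of_hom [Normal K L] {Ω : Type*} [Field Ω] (V : Valuation Ω ℝ≥0) (ψ : L →+* Ω)
    (hv : ∀ x : K, V (ψ (algebraMap K L x)) = v x)
    (hd : ∀ z : Ω, ∀ ε : ℝ≥0, 0 < ε → ∃ g : K, V (z - ψ (algebraMap K L g)) < ε) :
    SplitAt v L := by
  refine of_one (V.comap ψ) (by ext x; simp [hv]) fun f ε hε => ?_
  obtain ⟨g, hg⟩ := hd (ψ f) ε hε
  refine ⟨g, ?_⟩
  rw [Valuation.comap_apply, map_sub]
  exact hg

theorem SplitAt.unrAt (h : SplitAt v L) : UnrAt v L := by
  intro w hw b
  by_cases hb : b = 0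
  · exact ⟨0, by rw [hb, map_zero, map_zero]⟩
  obtain ⟨g, hg⟩ := h w hw b (w b) ((Valuation.pos_iff w).2 hb)
  refine ⟨g, ?_⟩
  have h1 : algebraMap K L g = b - (b - algebraMap K L g) := by ring
  rw [← comap_apply' hw, h1, Valuation.map_sub_eq_of_lt_left w hg]

theorem SplitAt.congr {L' : Type*} [Field L'] [Algebra K L'] (e : L ≃ₐ[K] L') (h : SplitAt v L) :
    SplitAt v L' := by
  intro w hw f ε hε
  obtain ⟨g, hg⟩ := h (w.comap (e : L →+* L')) (by
    ext x
    rw [Valuation.comap_apply, Valuation.comap_apply]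
    simp only [RingHom.coe_coe, AlgEquiv.commutes]
    rw [comap_apply' hw]) (e.symm f) ε hε
  refine ⟨g, ?_⟩
  rw [Valuation.comap_apply] at hg
  simpa using hg

theorem splitAt_congr {L' : Type*} [Field L'] [Algebra K L'] (e : L ≃ₐ[K] L') :
    SplitAt v L ↔ SplitAt v L' := ⟨fun h => h.congr e, fun h => h.congr e.symm⟩

theorem splitAt_self : SplitAt v K := fun w _ f ε hε => ⟨f, by simpa using hε⟩

/-- sub-extensions (given by a `K`-homomorphism) -/
theorem SplitAt.of_hom' {L' : Type*} [Field L'] [Algebra K L'] [Algebra.IsAlgebraic K L]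
    (h : SplitAt v L) (i : L' →ₐ[K] L) : SplitAt v L' := by
  intro w hw f ε hε
  let _ : Algebra L' L := i.toRingHom.toAlgebra
  have htow : IsScalarTower K L' L := IsScalarTower.of_algebraMap_eq fun x => (i.commutes x).symm
  have halg : Algebra.IsAlgebraic L' L := Algebra.IsAlgebraic.tower_top (K := K) L'
  obtain ⟨W, hW⟩ := exists_extend_alg (E := L) w
  have hWK : W.comap (algebraMap K L) = v := by
    ext x
    rw [Valuation.comap_apply, IsScalarTower.algebraMap_apply K L' L, ← comap_apply' hw, ← hW,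
      Valuation.comap_apply]
  obtain ⟨g, hg⟩ := h W hWK (algebraMap L' L f) ε hε
  refine ⟨g, ?_⟩
  rw [← comap_apply' hW, map_sub, ← IsScalarTower.algebraMap_apply K L' L]
  exact hg

theorem SplitAt.sub [Algebra.IsAlgebraic K L] (h : SplitAt v L) (F : IntermediateField K L) :
    SplitAt v F := h.of_hom' F.val

/-- towers -/
theorem SplitAt.trans {M : Type*} [Field M] [Algebra K M] [Algebra L M] [IsScalarTower K L M]
    (h : SplitAt v L)
    (h' : ∀ w : Valuation L ℝ≥0, w.comap (algebraMap K L) = v → SplitAt w M) : SplitAt v M := by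
  intro W hW f ε hε
  have hw : (W.comap (algebraMap L M)).comap (algebraMap K L) = v := by
    ext x
    rw [Valuation.comap_apply, Valuation.comap_apply, ← IsScalarTower.algebraMap_apply K L M,
      comap_apply' hW]
  obtain ⟨g, hg⟩ := h' _ hw W rfl f ε hε
  obtain ⟨g', hg'⟩ := h _ hw g ε hε
  refine ⟨g', ?_⟩
  have e : f - algebraMap K M g' = (f - algebraMap L M g) +
      algebraMap L M (g - algebraMap K L g') := by
    rw [map_sub, ← IsScalarTower.algebraMap_apply K L M]; ring
  rw [e]
  exact lt_of_le_of_lt (W.map_add _ _) (max_lt hg hg')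

/-- upper part of a tower -/
theorem SplitAt.tower_top {M : Type*} [Field M] [Algebra K M] [Algebra L M] [IsScalarTower K L M]
    (h : SplitAt v M) (w : Valuation L ℝ≥0) (hw : w.comap (algebraMap K L) = v) :
    SplitAt w M := by
  intro W hW f ε hε
  obtain ⟨g, hg⟩ := h W (by
    ext x
    rw [Valuation.comap_apply, IsScalarTower.algebraMap_apply K L M, comap_apply' hW,
      comap_apply' hw]) f ε hε
  exact ⟨algebraMap K L g, by rw [← IsScalarTower.algebraMap_apply K L M]; exact hg⟩

/-- base change: `L = K · L₀`, `v₀` = restriction of `v` -/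
theorem SplitAt.baseChange {K₀ L₀ : Type*} [Field K₀] [Field L₀] [Algebra K₀ L₀] [Algebra K₀ K]
    [Algebra L₀ L] [Algebra K₀ L] [IsScalarTower K₀ L₀ L] [IsScalarTower K₀ K L]
    {v₀ : Valuation K₀ ℝ≥0} (h : SplitAt v₀ L₀) (hv : v.comap (algebraMap K₀ K) = v₀)
    (hgen : IntermediateField.adjoin K (Set.range (algebraMap L₀ L)) = ⊤) : SplitAt v L := by
  refine of_gen _ hgen ?_
  rintro w hw _ ⟨f, rfl⟩ ε hε
  obtain ⟨g, hg⟩ := h (w.comap (algebraMap L₀ L)) (by
    ext x
    rw [Valuation.comap_apply, Valuation.comap_apply, ← IsScalarTower.algebraMap_apply K₀ L₀ L,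
      IsScalarTower.algebraMap_apply K₀ K L, comap_apply' hw, comap_apply' hv]) f ε hε
  refine ⟨algebraMap K₀ K g, ?_⟩
  rw [Valuation.comap_apply, map_sub] at hg
  rw [← IsScalarTower.algebraMap_apply K₀ K L, IsScalarTower.algebraMap_apply K₀ L₀ L]
  exact hg

end basic

section kummer

variable {K : Type*} [Field K] {v : Valuation K ℝ≥0}
variable {L : Type*} [Field L] [Algebra K L]

/-- `h` is an `N`-th power in the completion at `v` (closed form) -/
def PowAt (N : ℕ) (v : Valuation K ℝ≥0) (h : K) : Prop :=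
  ∀ ε : ℝ≥0, 0 < ε → ∃ g : K, g ≠ 0 ∧ v (h / g ^ N - 1) < ε

theorem val_pow_sub_one_le (w : Valuation L ℝ≥0) {u : L} (hu : w (u - 1) ≤ 1) (N : ℕ) :
    w (u ^ N - 1) ≤ w (u - 1) := by
  have h1 : w u ≤ 1 := by
    have : u = (u - 1) + 1 := by ring
    rw [this]
    exact (w.map_add _ _).trans (max_le hu (by rw [map_one]))
  rw [← geom_sum_mul u N, map_mul]
  have h2 : w (∑ i ∈ Finset.range N, u ^ i) ≤ 1 := by
    refine Valuation.map_sum_le _ fun i _ => ?_
    rw [map_pow]
    exact pow_le_one₀ (by positivity) h1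
  calc _ ≤ 1 * w (u - 1) := by gcongr
    _ = _ := one_mul _

theorem SplitAt.powAt [Algebra.IsAlgebraic K L] (hL : SplitAt v L) {N : ℕ} {h : K}
    (h0 : h ≠ 0) {y : L} (hy : y ^ N = algebraMap K L h) : PowAt N v h := by
  intro ε hε
  obtain ⟨w, hw⟩ := exists_extend_alg (E := L) v
  by_cases hN : N = 0
  · subst hN
    refine ⟨1, one_ne_zero, ?_⟩
    rw [pow_zero] at hy
    have : h = 1 := (algebraMap K L).injective (by rw [← hy, map_one])
    rw [this]; simpa using hε
  have hy0 : y ≠ 0 := by
    rintro rfl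
    rw [zero_pow hN] at hy
    exact h0 ((map_eq_zero (algebraMap K L)).1 hy.symm)
  have hwy : 0 < w y := (Valuation.pos_iff w).2 hy0
  obtain ⟨g, hg⟩ := hL w hw y (min ε 1 * w y) (by positivity)
  have hg1 : w (y - algebraMap K L g) < w y := lt_of_lt_of_le hg (by
    calc min ε 1 * w y ≤ 1 * w y := by gcongr; exact min_le_right _ _
      _ = w y := one_mul _)
  have hgy : w (algebraMap K L g) = w y := by
    have h1 : algebraMap K L g = y - (y - algebraMap K L g) := by ring
    rw [h1, Valuation.map_sub_eq_of_lt_left w hg1]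
  have hg0 : g ≠ 0 := by
    rintro rfl
    rw [map_zero, map_zero] at hgy
    exact hwy.ne hgy
  have hg0' : algebraMap K L g ≠ 0 := (_root_.map_ne_zero _).2 hg0
  refine ⟨g, hg0, ?_⟩
  have hu : w (y / algebraMap K L g - 1) < min ε 1 := by
    have e : y / algebraMap K L g - 1 = (y - algebraMap K L g) / algebraMap K L g := by
      field_simp
    rw [e, map_div₀, hgy, div_lt_iff₀ hwy]
    exact hg
  have e2 : algebraMap K L (h / g ^ N - 1) = (y / algebraMap K L g) ^ N - 1 := by
    rw [map_sub, map_one, map_div₀, map_pow, ← hy, div_pow]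
  rw [← comap_apply' hw, e2]
  exact lt_of_le_of_lt (val_pow_sub_one_le w (hu.le.trans (min_le_right _ _)) N)
    (lt_of_lt_of_le hu (min_le_left _ _))

/-- converse: an `N`-th root of an element which is an `N`-th power at `v` is in the closure of
`K` -/
theorem PowAt.dense {N : ℕ} (hN : 0 < N) {ζ : K} (hζ : IsPrimitiveRoot ζ N) {h : K}
    (h0 : h ≠ 0) (hP : PowAt N v h) {y : L} (hy : y ^ N = algebraMap K L h)
    (w : Valuation L ℝ≥0) (hw : w.comap (algebraMap K L) = v) (ε : ℝ≥0) (hε : 0 < ε) :
    ∃ g : K, w (y - algebraMap K L g) < ε := by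
  classical
  have hy0 : y ≠ 0 := by
    rintro rfl
    rw [zero_pow hN.ne'] at hy
    exact h0 ((map_eq_zero (algebraMap K L)).1 hy.symm)
  have hwy : 0 < w y := (Valuation.pos_iff w).2 hy0
  set δ : ℝ≥0 := min 1 (ε / w y) with hδ
  have hδ0 : 0 < δ := by positivity
  obtain ⟨g, hg0, hg⟩ := hP (δ ^ N) (by positivity)
  have hg0' : algebraMap K L g ≠ 0 := (_root_.map_ne_zero _).2 hg0
  have hlt1 : v (h / g ^ N - 1) < 1 := hg.trans_le (pow_le_one₀ (by positivity) (min_le_left _ _))
  have hvg : w (algebraMap K L g) = w y := by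
    have h1 : v (h / g ^ N) = 1 := by
      have e : h / g ^ N = 1 + (h / g ^ N - 1) := by ring
      rw [e, Valuation.map_one_add_of_lt v hlt1]
    rw [map_div₀, map_pow, div_eq_one_iff_eq (pow_ne_zero _ ((_root_.map_ne_zero v).2 hg0))] at h1
    have h2 : w y ^ N = w (algebraMap K L g) ^ N := by
      rw [← map_pow, hy, comap_apply' hw, comap_apply' hw, h1]
    exact ((pow_left_inj₀ (by positivity) (by positivity) hN.ne').1 h2).symm
  set u : L := y / algebraMap K L g with hu
  have hprod : w (∏ z ∈ nthRootsFinset N (1 : K), (u - algebraMap K L z)) < δ ^ N := by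
    have e1 : ∏ z ∈ nthRootsFinset N (1 : K), (u - algebraMap K L z) = u ^ N - 1 := by
      have e2 := congrArg (fun P : K[X] => aeval u P) (X_pow_sub_one_eq_prod hN hζ)
      simp only [map_sub, map_pow, aeval_X, map_one, map_prod, aeval_C] at e2
      exact e2.symm
    have e3 : u ^ N - 1 = algebraMap K L (h / g ^ N - 1) := by
      rw [map_sub, map_one, map_div₀, map_pow, ← hy, hu, div_pow]
    rw [e1, e3, comap_apply' hw]
    exact hg
  have hcard : (nthRootsFinset N (1 : K)).card = N := hζ.card_nthRootsFinset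
  have hex : ∃ z ∈ nthRootsFinset N (1 : K), w (u - algebraMap K L z) < δ := by
    by_contra hcon
    push Not at hcon
    have : δ ^ N ≤ w (∏ z ∈ nthRootsFinset N (1 : K), (u - algebraMap K L z)) := by
      rw [map_prod]
      calc δ ^ N = ∏ z ∈ nthRootsFinset N (1 : K), δ := by rw [Finset.prod_const, hcard]
        _ ≤ _ := Finset.prod_le_prod (fun _ _ => by positivity) hcon
    exact absurd hprod (not_lt.2 this)
  obtain ⟨z, -, hz⟩ := hex
  refine ⟨z * g, ?_⟩
  have e4 : y - algebraMap K L (z * g) = algebraMap K L g * (u - algebraMap K L z) := by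
    rw [map_mul, hu]; field_simp
  rw [e4, map_mul, hvg]
  calc w y * w (u - algebraMap K L z) < w y * δ := by gcongr
    _ ≤ w y * (ε / w y) := by gcongr; exact min_le_right _ _
    _ = ε := by field_simp

theorem splitAt_of_powAt {N : ℕ} (hN : 0 < N) {ζ : K} (hζ : IsPrimitiveRoot ζ N) (S : Set L)
    (hS : IntermediateField.adjoin K S = ⊤)
    (hP : ∀ y ∈ S, ∃ h : K, h ≠ 0 ∧ y ^ N = algebraMap K L h ∧ PowAt N v h) : SplitAt v L := by
  refine of_gen S hS fun w hw y hy ε hε => ?_
  obtain ⟨h, h0, hyh, hp⟩ := hP y hy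
  exact hp.dense hN hζ h0 hyh w hw ε hε

end kummer

section etale

variable {K : Type*} [Field K] {v : Valuation K ℝ≥0}
variable {L : Type*} [Field L] [Algebra K L]

theorem isUnit_iff' {F : Type*} [Field F] (v : Valuation F ℝ≥0) (a : v.valuationSubring) :
    IsUnit a ↔ v a = 1 := by
  rw [ValuationSubring.valuation_eq_one_iff]
  have h1 : v.IsEquiv v.valuationSubring.valuation := v.isEquiv_valuation_valuationSubring
  exact (h1.eq_one_iff_eq_one).symm

/-- **completely split implies étale** (`Inh1_770.EtaleAt`). -/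
theorem SplitAt.etaleAt [FiniteDimensional K L] [IsGalois K L] (h : SplitAt v L)
    (hnt : ∃ c, v c ≠ 0 ∧ v c ≠ 1)
    [Infinite (IsLocalRing.ResidueField v.valuationSubring)] :
    Crest.Agent.R013.Inh_770.REnd.EtaleAt K L v := by
  classical
  obtain ⟨w, hw⟩ := exists_extend_alg (E := L) v
  -- the conjugates of `w` are distinct
  set W : (L ≃ₐ[K] L) → Valuation L ℝ≥0 := fun σ => w.comap (σ : L →+* L) with hW
  have hWa : ∀ σ x, W σ x = w (σ x) := fun σ x => rfl
  have hWK : ∀ σ (c : K), W σ (algebraMap K L c) = v c := by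
    intro σ c
    rw [hWa, AlgEquiv.commutes, comap_apply' hw]
  have hinj : Function.Injective W := by
    intro σ τ hστ
    ext f
    by_contra hne
    have hpos : 0 < w (σ f - τ f) := (Valuation.pos_iff w).2 (sub_ne_zero.2 hne)
    obtain ⟨g, hg⟩ := h w hw (σ f) _ hpos
    have h1 : w (σ (f - algebraMap K L g)) < w (σ f - τ f) := by
      rw [map_sub, AlgEquiv.commutes]; exact hg
    have h2 : w (τ (f - algebraMap K L g)) < w (σ f - τ f) := by
      rw [← hWa, ← hστ, hWa]; exact h1
    have h3 : σ f - τ f = σ (f - algebraMap K L g) - τ (f - algebraMap K L g) := by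
      rw [map_sub, map_sub, AlgEquiv.commutes, AlgEquiv.commutes]; ring
    have h4 := w.map_sub (σ (f - algebraMap K L g)) (τ (f - algebraMap K L g))
    rw [← h3] at h4
    exact absurd h4 (not_le.2 (max_lt h1 h2))
  -- representatives of distinct residues
  let cb : (L ≃ₐ[K] L) ↪ IsLocalRing.ResidueField v.valuationSubring :=
    (Finite.equivFin (L ≃ₐ[K] L)).toEmbedding.trans
      (Fin.valEmbedding.trans (Infinite.natEmbedding _))
  have hcb : ∀ σ, ∃ c : v.valuationSubring, IsLocalRing.residue _ c = cb σ := fun σ =>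
    IsLocalRing.residue_surjective _
  choose c hc using hcb
  obtain ⟨θ, hθ⟩ := Crest.Agent.R013.LiftA_168.weak_approx (k := K) (K := L) (v0 := v) hnt W hinj
    hWK (fun σ => algebraMap K L (c σ)) 1 one_pos
  have hθ' : ∀ σ : L ≃ₐ[K] L, w (σ θ - algebraMap K L (c σ)) < 1 := by
    intro σ
    have := hθ σ
    rw [hWa, map_sub, AlgEquiv.commutes] at this
    exact this
  have hint : ∀ σ : L ≃ₐ[K] L, w (σ θ) ≤ 1 := by
    intro σ
    have e : σ θ = (σ θ - algebraMap K L (c σ)) + algebraMap K L (c σ) := by ring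
    rw [e]
    refine (w.map_add _ _).trans (max_le (hθ' σ).le ?_)
    rw [comap_apply' hw]
    exact (Valuation.mem_valuationSubring_iff v _).1 (c σ).2
  -- the homomorphism of residue fields
  let φ : v.valuationSubring →+* w.valuationSubring :=
    ((algebraMap K L).comp v.valuationSubring.subtype).codRestrict w.valuationSubring.toSubring
      (fun a => (by
        change w (algebraMap K L a) ≤ 1
        rw [comap_apply' hw]
        exact (Valuation.mem_valuationSubring_iff v _).1 a.2))
  have hφ : ∀ a : v.valuationSubring, ((φ a : w.valuationSubring) : L) = algebraMap K L a :=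
    fun a => rfl
  have hloc : IsLocalHom φ := ⟨fun a ha => by
    rw [isUnit_iff'] at ha ⊢
    rw [hφ, comap_apply' hw] at ha
    exact ha⟩
  let ψ := IsLocalRing.ResidueField.map φ
  have hψ : ∀ a, ψ (IsLocalRing.residue _ a) = IsLocalRing.residue _ (φ a) := fun a => rfl
  -- residues of the conjugates
  set t : (L ≃ₐ[K] L) → w.valuationSubring := fun σ =>
    ⟨σ θ, (Valuation.mem_valuationSubring_iff w _).2 (hint σ)⟩ with ht
  have htr : ∀ σ, IsLocalRing.residue _ (t σ) = ψ (cb σ) := by
    intro σ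
    rw [← hc σ, hψ, ← sub_eq_zero, ← map_sub, IsLocalRing.residue_eq_zero_iff,
      IsLocalRing.mem_maximalIdeal, mem_nonunits_iff, isUnit_iff']
    exact (hθ' σ).ne
  have htinj : Function.Injective fun σ => IsLocalRing.residue _ (t σ) := by
    intro σ τ hστ
    simp only [htr] at hστ
    exact cb.injective (ψ.injective hστ)
  -- `K(θ) = L`
  have hgen : IntermediateField.adjoin K {θ} = ⊤ := by
    rw [← IsGalois.fixedField_fixingSubgroup (IntermediateField.adjoin K {θ})]
    have : (IntermediateField.adjoin K {θ}).fixingSubgroup = ⊥ := by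
      rw [eq_bot_iff]
      intro σ hσ
      have h1 : σ θ = θ := (IntermediateField.mem_fixingSubgroup_iff _ _).1 hσ θ
        (IntermediateField.mem_adjoin_simple_self K θ)
      have h2 : t σ = t 1 := Subtype.ext (by simpa [ht] using h1)
      exact htinj (by simp only [h2])
    rw [this, IntermediateField.fixedField_bot]
  -- the polynomial
  set P : L[X] := ∏ σ : L ≃ₐ[K] L, (X - C (σ θ)) with hP
  set Pt : (w.valuationSubring)[X] := ∏ σ : L ≃ₐ[K] L, (X - C (t σ)) with hPt
  have hPtP : Pt.map w.valuationSubring.subtype = P := by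
    rw [hPt, Polynomial.map_prod, hP]
    refine Finset.prod_congr rfl fun σ _ => ?_
    rw [Polynomial.map_sub, map_X, map_C]; rfl
  have hfix : ∀ (τ : L ≃ₐ[K] L) i, τ (P.coeff i) = P.coeff i := by
    intro τ i
    have h1 : P.map (τ : L →+* L) = P := by
      rw [hP, Polynomial.map_prod]
      rw [← Equiv.prod_comp (Equiv.mulLeft τ) (fun σ : L ≃ₐ[K] L => (X - C (σ θ)))]
      refine Finset.prod_congr rfl fun σ _ => ?_
      rw [Polynomial.map_sub, map_X, map_C]; rfl
    conv_rhs => rw [← h1]
    rw [coeff_map]; rfl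
  have hcoef : ∀ i, ∃ b : v.valuationSubring, φ b = Pt.coeff i := by
    intro i
    have h1 : P.coeff i ∈ (⊥ : IntermediateField K L) :=
      (IsGalois.mem_bot_iff_fixed _).2 fun τ => hfix τ i
    obtain ⟨b, hb⟩ := IntermediateField.mem_bot.1 h1
    have h2 : (Pt.coeff i : L) = P.coeff i := by
      rw [← hPtP, coeff_map]; rfl
    have h3 : v b ≤ 1 := by
      rw [← comap_apply' hw, hb, ← h2]
      exact (Valuation.mem_valuationSubring_iff w _).1 (Pt.coeff i).2
    refine ⟨⟨b, (Valuation.mem_valuationSubring_iff v _).2 h3⟩, Subtype.ext ?_⟩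
    rw [hφ, h2, ← hb]
  have hlift : Pt ∈ Polynomial.lifts φ := by
    rw [Polynomial.lifts_iff_coeff_lifts]
    intro i
    exact hcoef i
  have hPtm : Pt.Monic := monic_prod_of_monic _ _ fun σ _ => monic_X_sub_C _
  obtain ⟨F, hF1, -, hF3⟩ := Polynomial.lifts_and_natDegree_eq_and_monic hlift hPtm
  refine ⟨F, θ, hF3, ?_, hgen, ?_⟩
  · rw [← Polynomial.separable_map ψ, Polynomial.map_map]
    have e1 : ψ.comp (IsLocalRing.residue v.valuationSubring) =
        (IsLocalRing.residue w.valuationSubring).comp φ := by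
      ext a; rfl
    rw [e1, ← Polynomial.map_map, hF1, hPt, Polynomial.map_prod]
    have e2 : ∀ σ : L ≃ₐ[K] L, (X - C (t σ)).map (IsLocalRing.residue w.valuationSubring) =
        X - C (IsLocalRing.residue w.valuationSubring (t σ)) := by
      intro σ; rw [Polynomial.map_sub, map_X, map_C]
    rw [Finset.prod_congr rfl fun σ _ => e2 σ]
    exact Polynomial.separable_prod_X_sub_C_iff.2 htinj
  · have e3 : aeval θ (F.map v.valuationSubring.subtype) = P.eval θ := by
      rw [← hPtP, ← hF1, Polynomial.map_map, aeval_def, eval₂_map, eval_map]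
      rfl
    rw [e3, hP, eval_prod]
    refine Finset.prod_eq_zero (Finset.mem_univ 1) ?_
    rw [eval_sub, eval_X, eval_C, AlgEquiv.one_apply, sub_self]

end etale

end Crest.Agent.R013.TopE1_957
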