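import Mathlib
import Crest.Agent.R013.TopE1_957
import Crest.Agent.R013.CutCov2_92
import Crest.Agent.R013.Gl9_946
import Crest.Agent.R013.Lift6_903
import Crest.Agent.R013.LemT3_874

/-!
# R013 / TopE3: the cut cover is completely split at all norms and places (helper957)

`C : CutCover X j n W` (helper92) over 946's circle `k, E, y`.  For every norm `w` of `U`
(`w ≤ |.|` on `k`) and every place of `U/k`: `SplitAt w W`.
-/

set_option autoImplicit false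
set_option linter.unusedSectionVars false

namespace Crest.Agent.R013.TopE3_957

open scoped NNReal
open Module Polynomial
open Crest.Agent.R013.Gl946 Crest.Agent.R013.CutCov_92 Crest.Agent.R013.TopE1_957

section general

variable {E V : Type*} [Field E] [CommRing V] [Algebra E V] {D : PatchDatum E} {d : ℕ}
variable {X : Edge D V d} {U : Type*} [Field U] {j : U →+* V} {n : ℕ} {W : Type*} [Field W]
  [Algebra U W] (C : CutCover X j n W)

include C

theorem mem_of_homU [NeZero n] [Nontrivial V] (hF0 : ∀ z ∈ D.F0, algebraMap E V z ∈ X.L)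
    (hj : ∀ v, v ∈ X.L → ∃ u, j u = v) {Ω : Type*} [Field Ω] (Y : Subfield Ω)
    (φ : D.RU →+* Ω) (hφ : ∀ r, φ r ∈ Y) (g : W →+* Ω) (hg : ∀ u, g (algebraMap U W u) ∈ Y)
    (hcomp : ∀ (z : E) (hz : z ∈ D.F0) (u : U), j u = algebraMap E V z →
      g (algebraMap U W u) = φ ⟨z, D.F0_le_RU z hz⟩) (w : W) : g w ∈ Y := by
  obtain ⟨i, h, h1, h2⟩ := C.homU hF0 φ g hcomp hj
  have key : ∀ (v : V) (hv : v ∈ X.VU), h ⟨v, hv⟩ ∈ Y := by
    intro v hv
    have hb : ∀ k, X.b k ∈ X.L := fun k => (X.hL _).2 (basis_mem_cs X.b _ k)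
    have hv' := (X.mem_VU v).1 hv
    have e : (⟨v, hv⟩ : X.VU) = ∑ k, (⟨algebraMap E V (X.b.repr v k),
        CutCover.algebraMap_VU (hv' k)⟩ : X.VU) * ⟨X.b k, X.L_le_VU (hb k)⟩ := by
      apply Subtype.ext
      rw [AddSubmonoidClass.coe_finsetSum]
      change v = ∑ k, algebraMap E V (X.b.repr v k) * X.b k
      conv_lhs => rw [← X.b.sum_repr v]
      exact Finset.sum_congr rfl fun k _ => Algebra.smul_def _ _
    rw [e, map_sum]
    refine sum_mem fun k _ => ?_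
    rw [map_mul, h1 _ (hv' k)]
    refine Y.mul_mem (hφ _) ?_
    obtain ⟨u, hu⟩ := hj _ (hb k)
    have h3 := h2 (algebraMap U W u)
    have e2 : (⟨C.a i (algebraMap U W u), C.a_mem i _⟩ : X.VU) = ⟨X.b k, X.L_le_VU (hb k)⟩ :=
      Subtype.ext ((C.a_alg i u).trans hu)
    rw [e2] at h3
    rw [← h3]
    exact hg u
  rw [h2 w]
  exact key _ _

theorem mem_of_homP [NeZero n] [Nontrivial V] (hF0 : ∀ z ∈ D.F0, algebraMap E V z ∈ X.L)
    (hj : ∀ v, v ∈ X.L → ∃ u, j u = v) {Ω : Type*} [Field Ω] (Y : Subfield Ω)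
    (φ : D.FP →+* Ω) (hφ : ∀ r, φ r ∈ Y) (g : W →+* Ω) (hg : ∀ u, g (algebraMap U W u) ∈ Y)
    (hcomp : ∀ (z : E) (hz : z ∈ D.F0) (u : U), j u = algebraMap E V z →
      g (algebraMap U W u) = φ ⟨z, D.F0_le_FP hz⟩) (w : W) : g w ∈ Y := by
  obtain ⟨i, h, h1, h2⟩ := C.homP hF0 φ g hcomp hj
  have key : ∀ (v : V) (hv : v ∈ X.VP), h ⟨v, hv⟩ ∈ Y := by
    intro v hv
    have hb : ∀ k, X.b k ∈ X.L := fun k => (X.hL _).2 (basis_mem_cs X.b _ k)
    have hv' := (X.mem_VP v).1 hv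
    have e : (⟨v, hv⟩ : X.VP) = ∑ k, (⟨algebraMap E V (X.b.repr v k),
        CutCover.algebraMap_VP (hv' k)⟩ : X.VP) * ⟨X.b k, X.L_le_VP (hb k)⟩ := by
      apply Subtype.ext
      rw [AddSubmonoidClass.coe_finsetSum]
      change v = ∑ k, algebraMap E V (X.b.repr v k) * X.b k
      conv_lhs => rw [← X.b.sum_repr v]
      exact Finset.sum_congr rfl fun k _ => Algebra.smul_def _ _
    rw [e, map_sum]
    refine sum_mem fun k _ => ?_
    rw [map_mul, h1 _ (hv' k)]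
    refine Y.mul_mem (hφ _) ?_
    obtain ⟨u, hu⟩ := hj _ (hb k)
    have h3 := h2 (algebraMap U W u)
    have e2 : (⟨C.bb i (algebraMap U W u), C.b_mem i _⟩ : X.VP) = ⟨X.b k, X.L_le_VP (hb k)⟩ :=
      Subtype.ext ((C.b_alg i u).trans hu)
    rw [e2] at h3
    rw [← h3]
    exact hg u
  rw [h2 w]
  exact key _ _

end general

section circle

universe u

variable {k E : Type*} [NontriviallyNormedField k] [IsUltrametricDist k] [CompleteSpace k]
  [NormedField E] [NormedAlgebra k E] [IsUltrametricDist E] [CompleteSpace E] {y : E}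
  (hG : IsGauss k y) {π : k} (hπ : IsUnif π) (hd : DenseRat k y)
  {V : Type*} [CommRing V] [Algebra E V] {D : PatchDatum E} {d : ℕ}
  (hD0 : ∀ z : E, z ∈ D.F0 ↔ z ∈ KY hG) (hDU : ∀ z ∈ D.RU, z ∈ RU k y)
  (hDP : ∀ z ∈ D.FP, z ∈ FP hG hπ hd)
  {X : Edge D V d} {U : Type*} [Field U] {j : U →+* V} {n : ℕ} {W : Type u} [Field W]
  [Algebra U W] (C : CutCover X j n W) [Algebra k U]
  (hk : ∀ c : k, j (algebraMap k U c) = algebraMap E V (algebraMap k E c))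
  {yU : U} (hy : j yU = algebraMap E V y)
  (hF0 : ∀ z ∈ D.F0, algebraMap E V z ∈ X.L) (hj : ∀ v, v ∈ X.L → ∃ u, j u = v)

/-- `k(y) → U`. -/
theorem exists_theta [Nontrivial V] (hD0 : ∀ z : E, z ∈ D.F0 ↔ z ∈ KY hG)
    (hF0 : ∀ z ∈ D.F0, algebraMap E V z ∈ X.L) (hj : ∀ v, v ∈ X.L → ∃ u, j u = v) :
    ∃ θ : KY hG →+* U, ∀ z, j (θ z) = algebraMap E V z := by
  have hex : ∀ z : KY hG, ∃ u, j u = algebraMap E V z := fun z =>
    hj _ (hF0 _ ((hD0 _).2 z.2))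
  choose θ hθ using hex
  have hjinj := j.injective
  refine ⟨{ toFun := θ, map_one' := hjinj ?_, map_mul' := fun a b => hjinj ?_,
            map_zero' := hjinj ?_, map_add' := fun a b => hjinj ?_ }, hθ⟩
  · rw [hθ, map_one]; simp
  · rw [hθ, map_mul, hθ, hθ]; simp
  · rw [hθ, map_zero]; simp
  · rw [hθ, map_add, hθ, hθ]; simp

include hD0 C hF0 hj

/-- core: density at one valuation of `W` from homomorphisms of `RU` or `FP` -/
theorem dense_aux [NeZero n] [Nontrivial V] (w : Valuation W ℝ≥0)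
    (H : ∀ (Ω : Type u) (_ : NormedField Ω) (_ : IsUltrametricDist Ω) (_ : CompleteSpace Ω)
      (κ : W →+* Ω), (∀ x, ‖κ x‖₊ = w x) → ∀ (θ : KY hG →+* U),
      (∀ z, j (θ z) = algebraMap E V z) → ∀ (Y : Subfield Ω), IsClosed (Y : Set Ω) →
      (∀ u : U, κ (algebraMap U W u) ∈ Y) →
      (∃ Φ : D.RU →+* Ω, (∀ z (hz : z ∈ D.F0), Φ ⟨z, D.F0_le_RU z hz⟩ =
          κ (algebraMap U W (θ ⟨z, (hD0 z).1 hz⟩))) ∧ ∀ r, Φ r ∈ Y) ∨
      (∃ Φ : D.FP →+* Ω, (∀ z (hz : z ∈ D.F0), Φ ⟨z, D.F0_le_FP hz⟩ =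
          κ (algebraMap U W (θ ⟨z, (hD0 z).1 hz⟩))) ∧ ∀ r, Φ r ∈ Y)) :
    ∀ f : W, ∀ ε : ℝ≥0, 0 < ε → ∃ g : U, w (f - algebraMap U W g) < ε := by
  obtain ⟨Ω, i1, i2, i3, κ, h1, -⟩ := Lift903.exists_completion w
  obtain ⟨θ, hθ⟩ := exists_theta hG (X := X) (j := j) hD0 hF0 hj
  set Y : Subfield Ω := (κ.comp (algebraMap U W)).fieldRange.topologicalClosure with hY
  have hYcl : IsClosed (Y : Set Ω) := Subfield.isClosed_topologicalClosure _
  have hYU : ∀ u : U, κ (algebraMap U W u) ∈ Y := fun u =>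
    Subfield.le_topologicalClosure _ ⟨u, rfl⟩
  have hjinj := j.injective
  have key : ∀ f : W, κ f ∈ Y := by
    rcases H Ω i1 i2 i3 κ h1 θ hθ Y hYcl hYU with ⟨Φ, hΦ, hΦY⟩ | ⟨Φ, hΦ, hΦY⟩
    · refine mem_of_homU C hF0 hj Y Φ hΦY κ hYU fun z hz u hu => ?_
      rw [hΦ z hz]
      congr 2
      apply hjinj
      rw [hu, hθ]
    · refine mem_of_homP C hF0 hj Y Φ hΦY κ hYU fun z hz u hu => ?_
      rw [hΦ z hz]
      congr 2
      apply hjinj
      rw [hu, hθ]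
  intro f ε hε
  have hcl : κ f ∈ closure (Set.range (κ.comp (algebraMap U W))) := key f
  obtain ⟨_, ⟨g, rfl⟩, hg⟩ := Metric.mem_closure_iff.1 hcl ε (by exact_mod_cast hε)
  refine ⟨g, ?_⟩
  rw [← h1, map_sub]
  rw [dist_eq_norm] at hg
  exact_mod_cast hg

include hDU hDP hk hy

/-- **The cut cover is completely split at every norm.** -/
theorem splitAt_norm [NeZero n] [Nontrivial V] (v : Valuation U ℝ≥0)
    (hv : ∀ c : k, v (algebraMap k U c) ≤ ‖c‖₊) : SplitAt v W := by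
  intro w hw
  refine dense_aux hG hD0 C hF0 hj w fun Ω i1 i2 i3 κ h1 θ hθ Y hY hYU => ?_
  set ψ : KY hG →+* Ω := (κ.comp (algebraMap U W)).comp θ with hψ
  have hjinj := j.injective
  have hψk : ∀ c : k, ‖ψ ⟨algebraMap k E c, const_mem_KY hG c⟩‖ ≤ ‖c‖ := by
    intro c
    have e1 : θ ⟨algebraMap k E c, const_mem_KY hG c⟩ = algebraMap k U c := by
      apply hjinj; rw [hθ, hk]
    have e2 : ‖ψ ⟨algebraMap k E c, const_mem_KY hG c⟩‖₊ ≤ ‖c‖₊ := by
      rw [hψ, RingHom.comp_apply, RingHom.comp_apply, e1, h1, comap_apply' hw]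
      exact hv c
    exact_mod_cast e2
  have hθy : θ ⟨y, y_mem_KY hG⟩ = yU := by apply hjinj; rw [hθ, hy]
  have hψy : ‖ψ ⟨y, y_mem_KY hG⟩‖₊ = v yU := by
    rw [hψ, RingHom.comp_apply, RingHom.comp_apply, hθy, h1, comap_apply' hw]
  have hψY : ∀ z, ψ z ∈ Y := fun z => hYU _
  rcases lt_or_ge (v yU) 1 with hlt | hge
  · right
    obtain ⟨Φ, h2, h3⟩ := mapFP_norm hG hπ hd ψ hψk (by
      have : ‖ψ ⟨y, y_mem_KY hG⟩‖₊ < 1 := by rw [hψy]; exact hlt
      exact_mod_cast this) Y hY hψY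
    refine ⟨Φ.comp (Subring.inclusion (S := D.FP.toSubring) (T := (FP hG hπ hd).toSubring) hDP),
      fun z hz => ?_, fun r => h3 _⟩
    exact h2 z ((hD0 z).1 hz)
  · left
    obtain ⟨Φ, h2, h3⟩ := mapRU_norm hG ψ hψk (by
      have h4 : ψ ⟨y⁻¹, yinv_mem_KY hG⟩ = (ψ ⟨y, y_mem_KY hG⟩)⁻¹ := by
        rw [← map_inv₀]; rfl
      rw [h4, norm_inv]
      refine inv_le_one_of_one_le₀ ?_
      have : 1 ≤ ‖ψ ⟨y, y_mem_KY hG⟩‖₊ := by rw [hψy]; exact hge
      exact_mod_cast this) Y hY hψY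
    refine ⟨Φ.comp (Subring.inclusion (S := D.RU) (T := RU k y) hDU),
      fun z hz => ?_, fun r => h3 _⟩
    exact h2 z ((hD0 z).1 hz)

/-- **The cut cover is completely split at every place.** -/
theorem splitAt_place [NeZero n] [Nontrivial V] (v : Valuation U ℝ≥0)
    (hv : ∀ c : k, c ≠ 0 → v (algebraMap k U c) = 1)
    (hP : v yU ≤ 1 → ∃ P : k[X], P ≠ 0 ∧ v (aeval yU P) < 1) : SplitAt v W := by
  intro w hw
  refine dense_aux hG hD0 C hF0 hj w fun Ω i1 i2 i3 κ h1 θ hθ Y hY hYU => ?_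
  set ψ : KY hG →+* Ω := (κ.comp (algebraMap U W)).comp θ with hψ
  have hjinj := j.injective
  have hy0 : yU ≠ 0 := by
    rintro rfl
    rw [map_zero] at hy
    exact hG.ne_zero ((algebraMap E V).injective (by rw [← hy, map_zero]))
  have hθk : ∀ c : k, θ ⟨algebraMap k E c, const_mem_KY hG c⟩ = algebraMap k U c := by
    intro c; apply hjinj; rw [hθ, hk]
  have hψv : ∀ z, ‖ψ z‖₊ = v (θ z) := by
    intro z
    rw [hψ, RingHom.comp_apply, RingHom.comp_apply, h1, comap_apply' hw]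
  have hψk : ∀ c : k, ‖ψ ⟨algebraMap k E c, const_mem_KY hG c⟩‖ ≤ 1 := by
    intro c
    have : ‖ψ ⟨algebraMap k E c, const_mem_KY hG c⟩‖₊ ≤ 1 := by
      rw [hψv, hθk]
      rcases eq_or_ne c 0 with rfl | hc
      · rw [map_zero, map_zero]; exact zero_le_one
      · exact (hv c hc).le
    exact_mod_cast this
  have hθy : θ ⟨y, y_mem_KY hG⟩ = yU := by apply hjinj; rw [hθ, hy]
  have hθyi : θ ⟨y⁻¹, yinv_mem_KY hG⟩ = yU⁻¹ := by
    rw [← hθy, ← map_inv₀]; rfl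
  have hθp : ∀ f : k[X], θ ⟨aeval y f, aeval_mem_KY hG f⟩ = aeval yU f := by
    intro f
    have e : (⟨aeval y f, aeval_mem_KY hG f⟩ : KY hG) = ∑ i ∈ Finset.range (f.natDegree + 1),
        ⟨algebraMap k E (f.coeff i), const_mem_KY hG _⟩ * (⟨y, y_mem_KY hG⟩ : KY hG) ^ i := by
      ext
      push_cast
      rw [aeval_eq_sum_range]
      exact Finset.sum_congr rfl fun i _ => Algebra.smul_def _ _
    rw [e, map_sum, aeval_eq_sum_range]
    refine Finset.sum_congr rfl fun i _ => ?_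
    rw [map_mul, map_pow, hθk, hθy, Algebra.smul_def]
  have hθpi : ∀ f : k[X], θ ⟨aeval y⁻¹ f, aeval_inv_mem_KY hG f⟩ = aeval yU⁻¹ f := by
    intro f
    have e : (⟨aeval y⁻¹ f, aeval_inv_mem_KY hG f⟩ : KY hG) =
        ∑ i ∈ Finset.range (f.natDegree + 1),
        ⟨algebraMap k E (f.coeff i), const_mem_KY hG _⟩ * (⟨y⁻¹, yinv_mem_KY hG⟩ : KY hG) ^ i := by
      ext
      push_cast
      rw [aeval_eq_sum_range]
      exact Finset.sum_congr rfl fun i _ => Algebra.smul_def _ _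
    rw [e, map_sum, aeval_eq_sum_range]
    refine Finset.sum_congr rfl fun i _ => ?_
    rw [map_mul, map_pow, hθk, hθyi, Algebra.smul_def]
  have hψY : ∀ z, ψ z ∈ Y := fun z => hYU _
  rcases LemT_874.place_dich v hv hy0 hP with ⟨h2, Q, hQ1, hQ2, hQ3⟩ | ⟨h2, Q, hQ1, hQ2, hQ3⟩
  · left
    obtain ⟨Φ, h3, h4⟩ := mapRU_place hG hπ ψ hψk (by
      have : ‖ψ ⟨y⁻¹, yinv_mem_KY hG⟩‖₊ ≤ 1 := by rw [hψv, hθyi]; exact h2
      exact_mod_cast this) Q hQ1 hQ2 (by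
      have : ‖ψ ⟨aeval (y⁻¹) Q, aeval_inv_mem_KY hG Q⟩‖₊ < 1 := by rw [hψv, hθpi]; exact hQ3
      exact_mod_cast this) Y hY hψY
    refine ⟨Φ.comp (Subring.inclusion (S := D.RU) (T := RU k y) hDU),
      fun z hz => ?_, fun r => h4 _⟩
    exact h3 z ((hD0 z).1 hz)
  · right
    obtain ⟨Φ, h3, h4⟩ := mapFP_place hG hπ hd ψ hψk (by
      have : ‖ψ ⟨y, y_mem_KY hG⟩‖₊ ≤ 1 := by rw [hψv, hθy]; exact h2
      exact_mod_cast this) Q hQ1 hQ2 (by
      have : ‖ψ ⟨aeval y Q, aeval_mem_KY hG Q⟩‖₊ < 1 := by rw [hψv, hθp]; exact hQ3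
      exact_mod_cast this) Y hY hψY
    refine ⟨Φ.comp (Subring.inclusion (S := D.FP.toSubring) (T := (FP hG hπ hd).toSubring) hDP),
      fun z hz => ?_, fun r => h4 _⟩
    exact h3 z ((hD0 z).1 hz)

end circle

end Crest.Agent.R013.TopE3_957
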