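import Crest.Agent.R013.EE4_809

/-!
# Row 13, leaf SS-AN (helper809), file 5: fixed points (Newton / Hensel) in `EE k C`;
`Ep` is algebraically closed in `EE k C`
-/

set_option autoImplicit false
set_option linter.unusedSectionVars false
open Filter Topology
open Crest.Agent.R013.Cell_408 (FinDef DiscNorm exists_max BD)

namespace Crest.Agent.R013.EE809

variable {k : Type*} [NontriviallyNormedField k] [CompleteSpace k]
variable {C : Type*} [NormedField C] [IsUltrametricDist C] [NormedAlgebra k C]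

/-- difference of powers -/
theorem Bdd.pow_sub_pow {ρ r s : ℝ} (hρ : 0 < ρ) (hr : 0 ≤ r) {a b : EE k C}
    (ha : Bdd ρ r a) (hb : Bdd ρ r b) (hab : Bdd ρ s (a - b)) (n : ℕ) :
    Bdd ρ (r ^ n * s) (a ^ (n + 1) - b ^ (n + 1)) := by
  have hs := hab.nonneg hρ
  rw [← (Commute.all a b).geom_sum₂_mul]
  refine Bdd.mul hρ (Bdd.sum hρ (by positivity) _ fun i hi => ?_) hab
  have hi' : i ≤ n := Nat.lt_succ_iff.1 (Finset.mem_range.1 hi)
  have h1 := (ha.pow hρ i).mul hρ (hb.pow hρ (n + 1 - 1 - i))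
  rw [← pow_add, show i + (n + 1 - 1 - i) = n by omega] at h1
  exact h1

/-- the map `h ↦ b 0 + ∑_{2 ≤ i < N} b i * h ^ i` -/
noncomputable def phi (b : ℕ → EE k C) (N : ℕ) (h : EE k C) : EE k C := b 0 + ∑ i ∈ Finset.Ico 2 N, b i * h ^ i

theorem phi_bdd {ρ r θ : ℝ} (hρ : 0 < ρ) (hr : 0 < r) (hθ1 : θ ≤ 1) {b : ℕ → EE k C} {N : ℕ}
    (h0 : Bdd ρ r (b 0)) (hb : ∀ i ∈ Finset.Ico 2 N, Bdd ρ (θ / r ^ (i - 1)) (b i)) {h : EE k C}
    (hh : Bdd ρ r h) : Bdd ρ r (phi b N h) := by
  refine h0.add hρ (Bdd.sum hρ hr.le _ fun i hi => ?_)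
  have h1 := (hb i hi).mul hρ (hh.pow hρ i)
  refine h1.le ?_
  have hi2 : 2 ≤ i := (Finset.mem_Ico.1 hi).1
  obtain ⟨j, rfl⟩ : ∃ j, i = j + 1 := ⟨i - 1, by omega⟩
  rw [Nat.add_sub_cancel, pow_succ]
  have : θ / r ^ j * (r ^ j * r) = θ * r := by field_simp
  rw [this]
  exact mul_le_of_le_one_left hr.le hθ1

theorem phi_contr {ρ r θ s : ℝ} (hρ : 0 < ρ) (hr : 0 < r) (hθ0 : 0 ≤ θ)
    {b : ℕ → EE k C} {N : ℕ}
    (hb : ∀ i ∈ Finset.Ico 2 N, Bdd ρ (θ / r ^ (i - 1)) (b i)) {h h' : EE k C}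
    (hh : Bdd ρ r h) (hh' : Bdd ρ r h') (hs : Bdd ρ s (h - h')) :
    Bdd ρ (θ * s) (phi b N h - phi b N h') := by
  have hs0 := hs.nonneg hρ
  have h1 : phi b N h - phi b N h' = ∑ i ∈ Finset.Ico 2 N, b i * (h ^ i - h' ^ i) := by
    unfold phi
    rw [add_sub_add_left_eq_sub, ← Finset.sum_sub_distrib]
    exact Finset.sum_congr rfl fun i _ => by ring
  rw [h1]
  refine Bdd.sum hρ (by positivity) _ fun i hi => ?_
  have hi2 : 2 ≤ i := (Finset.mem_Ico.1 hi).1
  have h2 := hb i hi
  obtain ⟨j, rfl⟩ : ∃ j, i = j + 1 := ⟨i - 1, by omega⟩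
  have h3 := h2.mul hρ (Bdd.pow_sub_pow hρ hr.le hh hh' hs j)
  refine h3.le (le_of_eq ?_)
  rw [Nat.add_sub_cancel]
  field_simp

/-- **Fixed points**: existence, with radius of convergence. -/
theorem exists_fix (L : IntermediateField k C) [FiniteDimensional k L] {b : ℕ → EE k C} {N : ℕ}
    (hL0 : InL L (b 0)) (hL : ∀ i ∈ Finset.Ico 2 N, InL L (b i)) {r θ : ℝ} (hr : 0 < r)
    (hθ0 : 0 ≤ θ) (hθ1 : θ < 1) (h0 : Bdd 1 r (b 0))
    (hb : ∀ i ∈ Finset.Ico 2 N, Bdd 1 (θ / r ^ (i - 1)) (b i)) :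
    ∃ h : EE k C, InL L h ∧ Bdd 1 r h ∧ phi b N h = h ∧
      ∀ ρ : ℝ, 0 < ρ → Bdd ρ r (b 0) →
        (∀ i ∈ Finset.Ico 2 N, Bdd ρ (θ / r ^ (i - 1)) (b i)) → Bdd ρ r h := by
  set s : ℕ → EE k C := fun m => (phi b N)^[m] 0 with hs
  have hs0 : s 0 = 0 := rfl
  have hsucc : ∀ m, s (m + 1) = phi b N (s m) := fun m => Function.iterate_succ_apply' _ _ _
  have hB : ∀ ρ : ℝ, 0 < ρ → Bdd ρ r (b 0) →
      (∀ i ∈ Finset.Ico 2 N, Bdd ρ (θ / r ^ (i - 1)) (b i)) → ∀ m, Bdd ρ r (s m) := by
    intro ρ hρ h1 h2 m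
    induction m with
    | zero => rw [hs0]; exact Bdd.zero hr.le
    | succ m ih => rw [hsucc]; exact phi_bdd hρ hr hθ1.le h1 h2 ih
  have hsL : ∀ m, InL L (s m) := by
    intro m
    induction m with
    | zero => rw [hs0]; exact InL.zero L
    | succ m ih =>
      rw [hsucc]
      exact hL0.add (InL.sum _ fun i hi => (hL i hi).mul (ih.pow i))
  have hB1 := hB 1 one_pos h0 hb
  have hstep : ∀ m, Bdd 1 (θ ^ m * r) (s (m + 1) - s m) := by
    intro m
    induction m with
    | zero => rw [hs0, sub_zero, pow_zero, one_mul]; exact hB1 1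
    | succ m ih =>
      have := phi_contr one_pos hr hθ0 hb (hB1 (m + 1)) (hB1 m) ih
      rw [← hsucc, ← hsucc, ← mul_assoc, ← pow_succ'] at this
      exact this
  have hr' : Tendsto (fun m : ℕ => θ ^ m * r) atTop (𝓝 0) := by
    have := (tendsto_pow_atTop_nhds_zero_of_lt_one hθ0 hθ1).mul_const r
    rwa [zero_mul] at this
  obtain ⟨S, hS, h1⟩ := complete_of L s hsL (fun m => θ ^ m * r) hr' (fun m n hmn => by
    obtain ⟨d, rfl⟩ := Nat.exists_eq_add_of_le hmn
    rw [← bdd_one_iff]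
    induction d with
    | zero =>
      rw [add_zero, sub_self]; exact Bdd.zero (by positivity)
    | succ d ih =>
      have h2 : s (m + (d + 1)) - s m = (s (m + d + 1) - s (m + d)) + (s (m + d) - s m) := by
        rw [← add_assoc]; ring
      rw [h2]
      refine Bdd.add one_pos ((hstep _).le ?_) (ih (by omega))
      exact mul_le_mul_of_nonneg_right (pow_le_pow_of_le_one hθ0 hθ1.le (by omega)) hr.le)
  have hSr : Bdd 1 r S := Bdd.limit one_pos hr' h1 hB1
  refine ⟨S, hS, hSr, ?_, fun ρ hρ h2 h3 => Bdd.limit hρ hr' h1 (hB ρ hρ h2 h3)⟩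
  have h2 : ∀ m, gn (phi b N S - S) ≤ θ ^ m * r := by
    intro m
    have h3 : phi b N S - S = (phi b N S - phi b N (s m)) - (S - s (m + 1)) := by
      rw [hsucc]; ring
    rw [h3]
    refine (gn_sub_le _ _).trans (max_le ?_ ((h1 (m + 1)).trans ?_))
    · have h4 := phi_contr one_pos hr hθ0 hb hSr (hB1 m) (bdd_one_iff.2 (h1 m))
      refine (bdd_one_iff.1 h4).trans ?_
      exact mul_le_of_le_one_left (by positivity) hθ1.le
    · exact mul_le_mul_of_nonneg_right (pow_le_pow_of_le_one hθ0 hθ1.le (by omega)) hr.le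
  have h5 : gn (phi b N S - S) ≤ 0 := ge_of_tendsto' hr' h2
  exact sub_eq_zero.1 (gn_eq_zero.1 (le_antisymm h5 (gn_nonneg _)))

/-- uniqueness of the fixed point -/
theorem fix_unique {b : ℕ → EE k C} {N : ℕ} {r θ : ℝ} (hr : 0 < r)
    (hθ0 : 0 ≤ θ) (hθ1 : θ < 1) (hb : ∀ i ∈ Finset.Ico 2 N, Bdd 1 (θ / r ^ (i - 1)) (b i))
    {h h' : EE k C} (hh : Bdd 1 r h) (hh' : Bdd 1 r h') (h1 : phi b N h = h)
    (h2 : phi b N h' = h') : h = h' := by
  have h3 := phi_contr one_pos hr hθ0 hb hh hh' (bdd_one_iff.2 le_rfl)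
  rw [h1, h2, bdd_one_iff] at h3
  have h4 : gn (h - h') ≤ 0 := by
    by_contra hlt
    push Not at hlt
    have : θ * gn (h - h') < gn (h - h') := mul_lt_of_lt_one_left hlt hθ1
    linarith
  exact sub_eq_zero.1 (gn_eq_zero.1 (le_antisymm h4 (gn_nonneg _)))

/-! ### Polynomials -/

section Pol

open Polynomial

variable [Algebra.IsAlgebraic k C] [IsUltrametricDist k] [IsAlgClosed C] [hk : Fact (DiscNorm k)]

/-- the coefficients of the fixed point equation attached to `P` at `z` -/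
noncomputable def nwt (P : (EE k C)[X]) (z : EE k C) (i : ℕ) : EE k C :=
  -((Polynomial.taylor z P).coeff i / (Polynomial.taylor z P).coeff 1)

theorem root_iff_fix (P : (EE k C)[X]) (z : EE k C) (h1 : P.derivative.eval z ≠ 0) (h : EE k C) :
    P.eval (z + h) = 0 ↔ phi (nwt P z) (P.natDegree + 2) h = h := by
  have h2 : (Polynomial.taylor z P).coeff 1 ≠ 0 := by rwa [Polynomial.taylor_coeff_one]
  have h3 : P.eval (z + h) = ∑ i ∈ Finset.range (P.natDegree + 2), (Polynomial.taylor z P).coeff i * h ^ i := by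
    rw [add_comm z h, ← Polynomial.taylor_eval, Polynomial.eval_eq_sum_range']
    rw [Polynomial.natDegree_taylor]; omega
  have h4 : ∑ i ∈ Finset.range (P.natDegree + 2), (Polynomial.taylor z P).coeff i * h ^ i =
      (Polynomial.taylor z P).coeff 0 + (Polynomial.taylor z P).coeff 1 * h +
        ∑ i ∈ Finset.Ico 2 (P.natDegree + 2), (Polynomial.taylor z P).coeff i * h ^ i := by
    rw [Finset.range_eq_Ico, ← Finset.sum_Ico_consecutive _ (Nat.zero_le 2) (by omega)]
    congr 1
    simp [Finset.sum_range_succ]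
  have h5 : phi (nwt P z) (P.natDegree + 2) h = -((Polynomial.taylor z P).coeff 0 +
      ∑ i ∈ Finset.Ico 2 (P.natDegree + 2), (Polynomial.taylor z P).coeff i * h ^ i) /
        (Polynomial.taylor z P).coeff 1 := by
    unfold phi nwt
    rw [neg_add, add_div, ← Finset.sum_neg_distrib, Finset.sum_div, neg_div]
    congr 1
    exact Finset.sum_congr rfl fun i _ => by ring
  rw [h3, h4, h5, div_eq_iff h2]
  constructor
  · intro h6
    linear_combination -h6
  · intro h6
    linear_combination -h6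

variable (k C) in
/-- the unit ball -/
noncomputable def Ov : Subring (EE k C) where
  carrier := {a | gn a ≤ 1}
  mul_mem' := fun {a b} ha hb => (gn_mul_le a b).trans (mul_le_one₀ ha (gn_nonneg b) hb)
  one_mem' := gn_one.le
  add_mem' := fun {a b} ha hb => (gn_add_le a b).trans (max_le ha hb)
  zero_mem' := by
    show gn (0 : EE k C) ≤ 1
    rw [gn_zero]; exact zero_le_one
  neg_mem' := fun {a} ha => by
    show gn (-a) ≤ 1
    rw [gn_neg]; exact ha

theorem mem_Ov {a : EE k C} : a ∈ Ov k C ↔ gn a ≤ 1 := Iff.rfl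

/-- elements defined over the finite level `L` -/
noncomputable def lev (L : IntermediateField k C) [FiniteDimensional k L] : Subring (EE k C) where
  carrier := {a | InL L a}
  mul_mem' := fun ha hb => InL.mul ha hb
  one_mem' := InL.one L
  add_mem' := fun ha hb => InL.add ha hb
  zero_mem' := InL.zero L
  neg_mem' := fun ha => InL.neg ha

theorem mem_lev {L : IntermediateField k C} [FiniteDimensional k L] {a : EE k C} :
    a ∈ lev L ↔ InL L a := Iff.rfl

omit [NontriviallyNormedField k] [CompleteSpace k] [NormedField C] [IsUltrametricDist C]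
  [NormedAlgebra k C] [Algebra.IsAlgebraic k C] [IsUltrametricDist k] [IsAlgClosed C] hk in
theorem taylor_coeff_mem {R : Type*} [CommRing R] (S : Subring R) {P : R[X]}
    (hP : ∀ i, P.coeff i ∈ S) {z : R} (hz : z ∈ S) (i : ℕ) : (Polynomial.taylor z P).coeff i ∈ S := by
  rw [Polynomial.taylor_coeff, Polynomial.hasseDeriv_apply, Polynomial.sum_over_range]
  · rw [Polynomial.eval_finsetSum]
    refine sum_mem fun j _ => ?_
    rw [Polynomial.eval_monomial]
    exact mul_mem (mul_mem (natCast_mem S _) (hP j)) (pow_mem hz _)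
  · intro n; simp

/-- ultrametric equality -/
theorem gn_eq_of_sub_lt {a b : EE k C} (h : gn (a - b) < gn b) : gn a = gn b := by
  refine le_antisymm ?_ ?_
  · have h1 : a = (a - b) + b := by ring
    rw [h1]
    exact (gn_add_le _ _).trans (max_le h.le le_rfl)
  · by_contra hlt
    push Not at hlt
    have h1 : b = a - (a - b) := by ring
    have h2 : gn b ≤ max (gn a) (gn (a - b)) := by
      conv_lhs => rw [h1]
      exact gn_sub_le _ _
    exact absurd h2 (not_le.2 (max_lt hlt h))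

/-- polynomial maps are locally Lipschitz -/
theorem eval_lip (Q : (EE k C)[X]) (f : EE k C) :
    ∃ B : ℝ, 0 ≤ B ∧ ∀ z, gn (z - f) ≤ 1 → gn (Q.eval z - Q.eval f) ≤ B * gn (z - f) := by
  set c : ℕ → EE k C := fun i => (Polynomial.taylor f Q).coeff i with hc
  refine ⟨∑ i ∈ Finset.range (Q.natDegree + 1), gn (c i), Finset.sum_nonneg fun i _ => gn_nonneg _,
    fun z hz => ?_⟩
  set h := z - f with hh
  have h1 : Q.eval z = ∑ i ∈ Finset.range (Q.natDegree + 1), c i * h ^ i := by
    have : z = h + f := by rw [hh]; ring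
    rw [this, ← Polynomial.taylor_eval, Polynomial.eval_eq_sum_range, Polynomial.natDegree_taylor]
  have h2 : c 0 = Q.eval f := by rw [hc]; exact Polynomial.taylor_coeff_zero ..
  rw [h1, ← h2, Finset.sum_range_succ', pow_zero, mul_one, add_sub_cancel_right]
  refine gn_sum_le _ _ (mul_nonneg (Finset.sum_nonneg fun i _ => gn_nonneg _) (gn_nonneg _))
    fun i hi => ?_
  rw [pow_succ, ← mul_assoc]
  refine (gn_mul_le _ _).trans (mul_le_mul_of_nonneg_right ?_ (gn_nonneg _))
  refine (gn_mul_le _ _).trans ?_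
  calc gn (c (i + 1)) * gn (h ^ i) ≤ gn (c (i + 1)) * 1 := by
        refine mul_le_mul_of_nonneg_left ?_ (gn_nonneg _)
        exact (gn_pow_le _ _).trans (pow_le_one₀ (gn_nonneg _) hz)
    _ = gn (c (i + 1)) := mul_one _
    _ ≤ ∑ i ∈ Finset.range (Q.natDegree + 1), gn (c i) :=
        Finset.single_le_sum (f := fun i => gn (c i)) (fun i _ => gn_nonneg _)
          (Finset.mem_range.2 (by have := Finset.mem_range.1 hi; omega))

/-- truncation: `Ep` is dense in `EE` -/
theorem exists_Ep_near (f : EE k C) {ε : ℝ} (hε : 0 < ε) : ∃ z ∈ Ep k C, gn (z - f) < ε ∧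
    ∀ (L : IntermediateField k C), InL L f → InL L z := by
  obtain ⟨K, hK, h1⟩ := f.small hε
  set z : EE k C := T (-K) * ofBD (posPart (T K * f)) with hz
  have hco : ∀ n, z.co n = if -K ≤ n then f.co n else 0 := by
    intro n
    rw [hz, co_T_mul, co_ofBD_posPart, co_T_mul]
    have : n - -K - K = n := by ring
    rw [this]
    by_cases h : -K ≤ n
    · rw [if_pos h, if_pos (by omega)]
    · rw [if_neg h, if_neg (by omega)]
  refine ⟨z, mul_mem (T_mem_Ep _) (ofBD_mem_Ep _), ?_, fun L hL n => ?_⟩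
  · have h2 : ∀ n, (z - f).co n = if -K ≤ n then 0 else -f.co n := by
      intro n
      rw [co_sub, hco]
      split_ifs <;> simp
    have h3 : Tendsto (z - f).co cofinite (𝓝 0) := by
      rw [Metric.tendsto_nhds]
      intro δ hδ
      obtain ⟨K', hK', h4⟩ := (z - f).small hδ
      rw [eventually_cofinite]
      refine (Set.finite_Icc (-K') (-K)).subset fun n hn => ?_
      rw [Set.mem_ofPred_eq, dist_zero_right] at hn
      rw [Set.mem_Icc]
      constructor
      · by_contra hlt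
        exact hn (h4 n (by omega))
      · by_contra hlt
        apply hn
        rw [h2, if_pos (by omega), norm_zero]
        exact hδ
    obtain ⟨r', h5, h6, h7⟩ := exists_lt_bound hε h3 (fun n => by
      rw [h2]
      split_ifs with h
      · rw [norm_zero]; exact hε
      · rw [norm_neg]; exact h1 n (by omega))
    exact lt_of_le_of_lt (gn_le h7) h6
  · rw [hco]
    split_ifs
    · exact hL n
    · exact zero_mem L

theorem eventually_bdd {a : EE k C} (ha : a ∈ Ep k C) {r : ℝ} (hr : gn a < r) :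
    ∀ᶠ ρ in 𝓝[<] (1 : ℝ), Bdd ρ r a := by
  obtain ⟨ρ, M, h1, h2, h3⟩ := ha
  obtain ⟨ρ', h4, h5, h6⟩ := h3.shrink h1 h2 hr
  filter_upwards [Ioo_mem_nhdsLT h5] with t ht
  exact Bdd.interp (h1.trans h4) ht.1.le ht.2.le h6 (bdd_one_iff.2 hr.le)

/-- **`Ep` is (separably) algebraically closed in `EE`.** -/
theorem mem_Ep_of_root {P : (EE k C)[X]} (hP : ∀ i, P.coeff i ∈ Ep k C) {f : EE k C}
    (hf : P.eval f = 0) (hf' : P.derivative.eval f ≠ 0) : f ∈ Ep k C := by
  classical
  set N := P.natDegree + 2 with hN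
  set a : ℕ → EE k C → EE k C := fun i z => (Polynomial.taylor z P).coeff i with ha
  have haev : ∀ i z, a i z = (Polynomial.hasseDeriv i P).eval z := fun i z =>
    Polynomial.taylor_coeff ..
  have ha1 : ∀ z, a 1 z = P.derivative.eval z := fun z => Polynomial.taylor_coeff_one ..
  have ha0 : ∀ z, a 0 z = P.eval z := fun z => Polynomial.taylor_coeff_zero ..
  choose B hB0 hB using fun i => eval_lip (Polynomial.hasseDeriv i P) f
  set α := gn (a 1 f) with hα
  have hα0 : 0 < α := gn_pos (by rw [ha1]; exact hf')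
  set A : ℝ := ∑ i ∈ Finset.range N, (gn (a i f) + B i) with hA
  have hA0 : 0 ≤ A := Finset.sum_nonneg fun i _ => add_nonneg (gn_nonneg _) (hB0 i)
  -- the radius
  set r : ℝ := min 1 (α / (4 * (A + 1))) with hr
  have hr0 : 0 < r := lt_min one_pos (by positivity)
  have hr1 : r ≤ 1 := min_le_left _ _
  have hAr : A / α * r < 1 / 2 := by
    have h1 : r ≤ α / (4 * (A + 1)) := min_le_right _ _
    calc A / α * r ≤ A / α * (α / (4 * (A + 1))) := mul_le_mul_of_nonneg_left h1 (by positivity)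
      _ = A / (4 * (A + 1)) := by field_simp
      _ < 1 / 2 := by rw [div_lt_div_iff₀ (by positivity) (by norm_num)]; linarith
  set ε : ℝ := min r (min (α / (B 1 + 1)) (r * α / (B 0 + 1))) with hε
  have hε0 : 0 < ε := lt_min hr0 (lt_min (div_pos hα0 (by linarith [hB0 1]))
    (div_pos (mul_pos hr0 hα0) (by linarith [hB0 0])))
  obtain ⟨z, hzE, hz, hzL⟩ := exists_Ep_near f hε0
  have hz1 : gn (z - f) ≤ 1 := hz.le.trans ((min_le_left _ _).trans hr1)
  have hαz : gn (a 1 z) = α := by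
    apply gn_eq_of_sub_lt
    have h1 := hB 1 z hz1
    rw [← haev, ← haev] at h1
    refine lt_of_le_of_lt h1 ?_
    have h2 : gn (z - f) < α / (B 1 + 1) :=
      hz.trans_le ((min_le_right _ _).trans (min_le_left _ _))
    have h3 : 0 < B 1 + 1 := by linarith [hB0 1]
    rw [lt_div_iff₀ h3] at h2
    nlinarith [gn_nonneg (z - f)]
  have h1z : P.derivative.eval z ≠ 0 := by
    rw [← ha1]
    intro h
    rw [h, gn_zero] at hαz
    exact hα0.ne hαz
  -- estimates
  have hbi : ∀ i ∈ Finset.Ico 2 N, gn (nwt P z i) < (1 / 2) / r ^ (i - 1) := by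
    intro i hi
    have hi1 := (Finset.mem_Ico.1 hi).1
    have hi2 := (Finset.mem_Ico.1 hi).2
    have h1 : gn (a i z) ≤ A := by
      have h2 := hB i z hz1
      rw [← haev, ← haev] at h2
      have h3 : a i z = (a i z - a i f) + a i f := by ring
      rw [h3]
      refine (gn_add_le _ _).trans ?_
      have h4 : gn (a i f) + B i ≤ A :=
        Finset.single_le_sum (f := fun i => gn (a i f) + B i)
          (fun i _ => add_nonneg (gn_nonneg _) (hB0 i)) (Finset.mem_range.2 hi2)
      refine max_le ?_ ?_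
      · refine h2.trans ?_
        have : B i * gn (z - f) ≤ B i * 1 := mul_le_mul_of_nonneg_left hz1 (hB0 i)
        linarith [gn_nonneg (a i f)]
      · linarith [hB0 i]
    have h2 : gn (nwt P z i) = gn (a i z) / α := by
      rw [nwt, gn_neg, gn_div]
      show gn (a i z) / gn (a 1 z) = _
      rw [hαz]
    rw [h2, lt_div_iff₀ (by positivity)]
    calc gn (a i z) / α * r ^ (i - 1) ≤ A / α * r := by
          refine mul_le_mul (div_le_div_of_nonneg_right h1 hα0.le) ?_ (by positivity) (by positivity)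
          calc r ^ (i - 1) ≤ r ^ 1 := pow_le_pow_of_le_one hr0.le hr1 (by omega)
            _ = r := pow_one r
      _ < 1 / 2 := hAr
  have hb0 : gn (nwt P z 0) < r := by
    have h2 : gn (nwt P z 0) = gn (a 0 z) / α := by
      rw [nwt, gn_neg, gn_div]
      show gn (a 0 z) / gn (a 1 z) = _
      rw [hαz]
    have h3 := hB 0 z hz1
    rw [← haev, ← haev, ha0 f, hf, sub_zero] at h3
    rw [h2, div_lt_iff₀ hα0]
    refine lt_of_le_of_lt h3 ?_
    have h4 : gn (z - f) < r * α / (B 0 + 1) :=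
      hz.trans_le ((min_le_right _ _).trans (min_le_right _ _))
    have h5 : 0 < B 0 + 1 := by linarith [hB0 0]
    rw [lt_div_iff₀ h5] at h4
    nlinarith [gn_nonneg (z - f)]
  -- the coefficients are in Ep
  have hbE : ∀ i, nwt P z i ∈ Ep k C := fun i =>
    neg_mem (div_mem (taylor_coeff_mem (Ep k C).toSubfield.toSubring hP hzE i)
      (taylor_coeff_mem (Ep k C).toSubfield.toSubring hP hzE 1))
  -- the level
  obtain ⟨L, hL, hLb⟩ := exists_inL_finset (insert 0 (Finset.Ico 2 N)) (nwt P z)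
  obtain ⟨h, hhL, hhr, hfix, hrad⟩ := exists_fix L (b := nwt P z) (N := N)
    (hLb 0 (Finset.mem_insert_self _ _)) (fun i hi => hLb i (Finset.mem_insert_of_mem hi)) hr0
    (by norm_num : (0 : ℝ) ≤ 1 / 2) (by norm_num) (bdd_one_iff.2 hb0.le)
    (fun i hi => bdd_one_iff.2 (hbi i hi).le)
  have hfz : f - z = h := by
    refine fix_unique hr0 (by norm_num : (0 : ℝ) ≤ 1 / 2) (by norm_num)
      (fun i hi => bdd_one_iff.2 (hbi i hi).le) ?_ hhr ?_ hfix
    · rw [bdd_one_iff, gn_sub_comm]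
      exact hz.le.trans (min_le_left _ _)
    · rw [hN, ← root_iff_fix P z h1z]
      rw [add_sub_cancel]
      exact hf
  have hhE : h ∈ Ep k C := by
    have e1 := eventually_bdd (hbE 0) hb0
    have e2 : ∀ᶠ ρ in 𝓝[<] (1 : ℝ), ∀ i ∈ Finset.Ico 2 N, Bdd ρ ((1 / 2) / r ^ (i - 1)) (nwt P z i) :=
      (Filter.eventually_all_finset _).2 fun i hi => eventually_bdd (hbE i) (hbi i hi)
    have e3 : ∀ᶠ ρ in 𝓝[<] (1 : ℝ), ρ ∈ Set.Ioo (0 : ℝ) 1 := Ioo_mem_nhdsLT one_pos
    obtain ⟨ρ, ⟨h2, h3⟩, h4⟩ := ((e1.and e2).and e3).exists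
    exact ⟨ρ, r, h4.1, h4.2, hrad ρ h4.1 h2 h3⟩
  have : f = z + h := by rw [← hfz]; ring
  rw [this]
  exact add_mem hzE hhE

/-- **`Ep` is algebraically closed in `EE`** (characteristic zero). -/
theorem mem_Ep_of_isAlgebraic [CharZero C] {f : EE k C} (hf : IsAlgebraic (Ep k C) f) :
    f ∈ Ep k C := by
  have : CharZero (EE k C) := charZero_of_injective_algebraMap (algebraMap C (EE k C)).injective
  have : CharZero (Ep k C) := charZero_of_injective_algebraMap (algebraMap C (Ep k C)).injective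
  have hint := hf.isIntegral
  have hsep : (minpoly (Ep k C) f).Separable := (minpoly.irreducible hint).separable
  refine mem_Ep_of_root (P := (minpoly (Ep k C) f).map (algebraMap (Ep k C) (EE k C))) ?_ ?_ ?_
  · intro i
    rw [Polynomial.coeff_map]
    exact ((minpoly (Ep k C) f).coeff i).2
  · rw [Polynomial.eval_map_algebraMap, minpoly.aeval]
  · rw [Polynomial.derivative_map, Polynomial.eval_map_algebraMap]
    exact hsep.aeval_derivative_ne_zero (minpoly.aeval _ _)

/-- **Hensel's lemma** in `EE`, with field of definition. -/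
theorem hensel {P : (EE k C)[X]} (hP : ∀ i, gn (P.coeff i) ≤ 1) {z : EE k C} (hz : gn z ≤ 1)
    (h0 : gn (P.eval z) < 1) (h1 : gn (P.derivative.eval z) = 1) :
    ∃ f : EE k C, P.eval f = 0 ∧ gn (f - z) ≤ gn (P.eval z) ∧
      (∀ g : EE k C, P.eval g = 0 → gn (g - z) < 1 → g = f) ∧
      ∀ (L : IntermediateField k C) [FiniteDimensional k L], (∀ i, InL L (P.coeff i)) → InL L z →
        InL L f := by
  classical
  have hc : ∀ i, gn ((Polynomial.taylor z P).coeff i) ≤ 1 := taylor_coeff_mem (Ov k C) hP hz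
  have hc1 : gn ((Polynomial.taylor z P).coeff 1) = 1 := by rw [Polynomial.taylor_coeff_one, h1]
  have hc0 : gn ((Polynomial.taylor z P).coeff 0) = gn (P.eval z) := by
    rw [Polynomial.taylor_coeff_zero]
  have hz' : P.derivative.eval z ≠ 0 := by
    intro h
    rw [h, gn_zero] at h1
    exact zero_ne_one h1
  have hbi : ∀ i, gn (nwt P z i) = gn ((Polynomial.taylor z P).coeff i) := fun i => by
    rw [nwt, gn_neg, gn_div, hc1, div_one]
  have hbound : ∀ r : ℝ, 0 < r → r ≤ 1 → ∀ i ∈ Finset.Ico 2 (P.natDegree + 2),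
      Bdd 1 (r / r ^ (i - 1)) (nwt P z i) := by
    intro r hr hr1 i hi
    rw [bdd_one_iff, hbi]
    refine (hc i).trans ?_
    rw [le_div_iff₀ (by positivity), one_mul]
    calc r ^ (i - 1) ≤ r ^ 1 := pow_le_pow_of_le_one hr.le hr1 (by
          have := (Finset.mem_Ico.1 hi).1; omega)
      _ = r := pow_one r
  by_cases hr : gn (P.eval z) = 0
  · have hroot : P.eval z = 0 := gn_eq_zero.1 hr
    refine ⟨z, hroot, by rw [sub_self, gn_zero]; exact gn_nonneg _, fun g hg hgz => ?_,
      fun L _ _ hL => hL⟩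
    obtain ⟨r, hr1, hr2⟩ := exists_between hgz
    have hr0 : 0 < r := (gn_nonneg _).trans_lt hr1
    have := fix_unique (b := nwt P z) (N := P.natDegree + 2) (h := g - z) (h' := 0) hr0 hr0.le hr2
      (hbound r hr0 hr2.le) (bdd_one_iff.2 hr1.le) (Bdd.zero hr0.le)
      ((root_iff_fix P z hz' _).1 (by rw [add_sub_cancel]; exact hg))
      ((root_iff_fix P z hz' _).1 (by rw [add_zero]; exact hroot))
    exact sub_eq_zero.1 this
  · have hr0 : 0 < gn (P.eval z) := lt_of_le_of_ne (gn_nonneg _) (Ne.symm hr)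
    have key : ∀ (L : IntermediateField k C) [FiniteDimensional k L], (∀ i, InL L (P.coeff i)) →
        InL L z → ∃ h : EE k C, InL L h ∧ Bdd 1 (gn (P.eval z)) h ∧
          phi (nwt P z) (P.natDegree + 2) h = h := by
      intro L _ hPL hzL
      have hbL : ∀ i, InL L (nwt P z i) := fun i =>
        ((taylor_coeff_mem (lev L) hPL hzL i : InL L _).mul
          (inL_inv (taylor_coeff_mem (lev L) hPL hzL 1))).neg
      obtain ⟨h, e1, e2, e3, -⟩ := exists_fix L (b := nwt P z) (N := P.natDegree + 2) (hbL 0)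
        (fun i _ => hbL i) hr0 hr0.le h0 (bdd_one_iff.2 (by rw [hbi, hc0]))
        (hbound _ hr0 h0.le)
      exact ⟨h, e1, e2, e3⟩
    obtain ⟨L0, hL0, hL1⟩ := exists_inL_finset (Finset.range (P.natDegree + 1)) P.coeff
    obtain ⟨L1, hL1', hL2⟩ := z.exists_inL
    have := IntermediateField.finiteDimensional_sup L0 L1
    obtain ⟨h, -, e2, e3⟩ := key (L0 ⊔ L1) (fun i => by
      by_cases hi : i ∈ Finset.range (P.natDegree + 1)
      · exact (hL1 i hi).mono le_sup_left
      · rw [Polynomial.coeff_eq_zero_of_natDegree_lt (by simpa using hi)]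
        exact InL.zero _) (hL2.mono le_sup_right)
    have huniq : ∀ h' : EE k C, phi (nwt P z) (P.natDegree + 2) h' = h' → gn h' < 1 → h' = h := by
      intro h' hf' hlt
      have hmax : max (gn (P.eval z)) (gn h') < 1 := max_lt h0 hlt
      obtain ⟨r, hr1, hr2⟩ := exists_between hmax
      have hr0 : 0 < r := hr0.trans_le ((le_max_left _ _).trans hr1.le)
      exact fix_unique hr0 hr0.le hr2 (hbound r hr0 hr2.le)
        (bdd_one_iff.2 ((le_max_right _ _).trans hr1.le))
        (e2.le ((le_max_left _ _).trans hr1.le)) hf' e3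
    refine ⟨z + h, (root_iff_fix P z hz' h).2 e3, ?_, fun g hg hgz => ?_, fun L _ hPL hzL => ?_⟩
    · rw [add_sub_cancel_left]; exact bdd_one_iff.1 e2
    · have := huniq (g - z) ((root_iff_fix P z hz' _).1 (by rw [add_sub_cancel]; exact hg)) hgz
      rw [← this]; ring
    · obtain ⟨h', e4, e5, e6⟩ := key L hPL hzL
      have := huniq h' e6 (lt_of_le_of_lt (bdd_one_iff.1 e5) h0)
      rw [← this]
      exact hzL.add e4

end Pol

end Crest.Agent.R013.EE809
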