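import Mathlib
import Crest.Agent.R013.TopE1_957
import Crest.Agent.R013.EE5_809

/-!
# R013 / TopE2: Kummer embeddings, roots near one in `EE` (helper957)

* `exists_ext_of_roots` : `K → F`, `L = K(S)`, every `y ∈ S` has `y^N = h` and `em h` is an `N`-th
  power in `F`: then `L → F` over `em`;
* `exists_root_near_one` : `gn (a - 1) < ‖N‖²` implies that `a` is an `N`-th power in `EE`;
* `exists_root_of_powAt` : `PowAt N v h` implies that `em h` is an `N`-th power in `EE`.
-/

set_option autoImplicit false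
set_option linter.unusedSectionVars false

namespace Crest.Agent.R013.TopE2_957

open scoped NNReal
open Polynomial
open Crest.Agent.R013.TopE1_957

section kummer

variable {K L F : Type*} [Field K] [Field L] [Field F] [Algebra K L]

/-- **Kummer embedding lemma.** -/
theorem exists_ext_of_roots [Algebra.IsAlgebraic K L] (em : K →+* F) {N : ℕ} (hN : 0 < N) {ζ : K}
    (hζ : IsPrimitiveRoot ζ N) (S : Set L) (hS : IntermediateField.adjoin K S = ⊤)
    (h : ∀ y ∈ S, ∃ (a : K) (s : F), y ^ N = algebraMap K L a ∧ s ^ N = em a) :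
    ∃ ψ : L →+* F, ∀ x, ψ (algebraMap K L x) = em x := by
  classical
  let i1 : Algebra K F := em.toAlgebra
  let Ω := AlgebraicClosure F
  have htow : IsScalarTower K F Ω := inferInstance
  let ψ₀ : L →ₐ[K] Ω := IsAlgClosed.lift
  let F' : IntermediateField K Ω := (IsScalarTower.toAlgHom K F Ω).fieldRange
  have hle : ∀ y ∈ S, ψ₀ y ∈ F' := by
    intro y hy
    obtain ⟨a, s, h1, h2⟩ := h y hy
    have h3 : (ψ₀ y) ^ N = (algebraMap F Ω s) ^ N := by
      rw [← map_pow, h1, AlgHom.commutes, ← map_pow, h2, IsScalarTower.algebraMap_apply K F Ω]; rfl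
    by_cases hs : s = 0
    · rw [hs, map_zero, zero_pow hN.ne'] at h3
      rw [eq_zero_of_pow_eq_zero h3]
      exact zero_mem _
    have hs' : algebraMap F Ω s ≠ 0 := (_root_.map_ne_zero _).2 hs
    have h4 : (ψ₀ y / algebraMap F Ω s) ^ N = 1 := by
      rw [div_pow, h3, div_self (pow_ne_zero _ hs')]
    have hζ' : IsPrimitiveRoot (algebraMap K Ω ζ) N := hζ.map_of_injective (algebraMap K Ω).injective
    have : NeZero N := ⟨hN.ne'⟩
    obtain ⟨i, -, hi⟩ := hζ'.eq_pow_of_pow_eq_one h4
    have h5 : ψ₀ y = algebraMap F Ω (em ζ ^ i * s) := by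
      rw [map_mul, map_pow, ← mul_div_cancel_right₀ (ψ₀ y) hs', mul_div_right_comm, ← hi]
      rfl
    exact ⟨em ζ ^ i * s, h5.symm⟩
  have hmem : ∀ x : L, ψ₀ x ∈ F' := by
    have h1 : IntermediateField.adjoin K S ≤ F'.comap ψ₀ := by
      rw [IntermediateField.adjoin_le_iff]
      exact hle
    rw [hS] at h1
    intro x
    exact h1 (show x ∈ (⊤ : IntermediateField K L) from trivial)
  let e : F ≃ₐ[K] F' := AlgEquiv.ofInjectiveField (IsScalarTower.toAlgHom K F Ω)
  let ψ₁ : L →ₐ[K] F' := ψ₀.codRestrict F'.toSubalgebra hmem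
  refine ⟨((e.symm : F' →ₐ[K] F).comp ψ₁ : L →ₐ[K] F), fun x => ?_⟩
  exact ((e.symm : F' →ₐ[K] F).comp ψ₁).commutes x

end kummer

section EE

open Crest.Agent.R013.Cell_408 Crest.Agent.R013.EE809

variable {k : Type*} [NontriviallyNormedField k] [CompleteSpace k] [IsUltrametricDist k]
variable {C : Type*} [NormedField C] [IsUltrametricDist C] [NormedAlgebra k C]
  [Algebra.IsAlgebraic k C] [IsAlgClosed C] [hk : Fact (DiscNorm k)]

/-- elements near `1` are `N`-th powers in `EE` -/
theorem exists_root_near_one {N : ℕ} (hN : (N : C) ≠ 0) (a : EE k C)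
    (ha : gn (a - 1) < ‖(N : C)‖ ^ 2) : ∃ b : EE k C, b ^ N = a ∧ gn (b - 1) < ‖(N : C)‖ := by
  classical
  have hnN : ‖(N : C)‖ ≤ 1 := IsUltrametricDist.norm_natCast_le_one C N
  have hNpos : 0 < ‖(N : C)‖ := norm_pos_iff.2 hN
  set ν : EE k C := algebraMap C (EE k C) N with hν
  have hνn : ((N : ℕ) : EE k C) = ν := (map_natCast (algebraMap C (EE k C)) N).symm
  have hν0 : ν ≠ 0 := (_root_.map_ne_zero _).2 hN
  have hgnν : gn ν = ‖(N : C)‖ := gn_algebraMap _
  have hgc : ∀ m : ℕ, gn ((m : ℕ) : EE k C) ≤ 1 := by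
    intro m
    rw [← map_natCast (algebraMap C (EE k C)) m, gn_algebraMap]
    exact IsUltrametricDist.norm_natCast_le_one C m
  have hN0 : N ≠ 0 := by rintro rfl; simp at hN
  -- the polynomial `((1 + N X)^N - a) / N²`
  set c : ℕ → EE k C := fun i => if i = 0 then (1 - a) / ν ^ 2 else (N.choose i : EE k C) * ν ^ i / ν ^ 2
    with hc
  set P : (EE k C)[X] := ∑ i ∈ Finset.range (N + 1), Polynomial.C (c i) * X ^ i with hP
  have hcoeff : ∀ i, P.coeff i = if i ∈ Finset.range (N + 1) then c i else 0 := by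
    intro i
    rw [hP, finsetSum_coeff]
    simp only [coeff_C_mul_X_pow]
    rw [Finset.sum_ite_eq]
  have hc0 : gn (c 0) < 1 := by
    rw [hc]
    simp only [if_true]
    rw [gn_div, gn_pow, hgnν, div_lt_one (by positivity), gn_sub_comm]
    exact ha
  have hc1 : c 1 = 1 := by
    rw [hc]
    simp only [one_ne_zero, if_false, Nat.choose_one_right, pow_one, hνn]
    field_simp
  have hci : ∀ i, gn (c i) ≤ 1 := by
    intro i
    rcases Nat.lt_or_ge i 2 with hi | hi
    · interval_cases i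
      · exact hc0.le
      · rw [hc1, gn_one]
    · rw [hc]
      simp only [show i ≠ 0 by omega, if_false]
      rw [mul_div_assoc, gn_mul hk.out]
      obtain ⟨j, rfl⟩ := Nat.exists_eq_add_of_le hi
      have e : ν ^ (2 + j) / ν ^ 2 = ν ^ j := by rw [pow_add]; field_simp
      rw [e, gn_pow, hgnν]
      exact mul_le_one₀ (hgc _) (by positivity) (pow_le_one₀ (norm_nonneg _) hnN)
  have heval : ∀ t : EE k C, P.eval t = ((1 + ν * t) ^ N - a) / ν ^ 2 := by
    intro t
    rw [hP, eval_finsetSum]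
    simp only [eval_mul, eval_C, eval_pow, eval_X]
    rw [Finset.range_eq_Ico, Finset.sum_eq_sum_Ico_succ_bot (Nat.succ_pos N)]
    have e1 : (1 + ν * t) ^ N = 1 + ∑ i ∈ Finset.Ico (0 + 1) (N + 1), (N.choose i : EE k C) *
        (ν * t) ^ i := by
      rw [add_comm (1 : EE k C), add_pow, Finset.range_eq_Ico,
        Finset.sum_eq_sum_Ico_succ_bot (Nat.succ_pos N)]
      simp only [pow_zero, one_pow, mul_one, Nat.choose_zero_right, Nat.cast_one]
      congr 1
      exact Finset.sum_congr rfl fun i _ => by ring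
    rw [e1, hc]
    simp only [if_true, pow_zero, mul_one]
    rw [add_sub_right_comm, add_div, Finset.sum_div]
    congr 1
    refine Finset.sum_congr rfl fun i hi => ?_
    have hi0 : i ≠ 0 := by
      have := (Finset.mem_Ico.1 hi).1
      omega
    simp only [hi0, if_false]
    rw [mul_pow]
    field_simp
  have hd0 : P.derivative.eval 0 = 1 := by
    rw [← coeff_zero_eq_eval_zero, coeff_derivative, hcoeff,
      if_pos (Finset.mem_range.2 (by omega)), hc1]
    simp
  have hP0 : P.eval 0 = c 0 := by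
    rw [heval, hc]
    simp only [if_true, mul_zero, add_zero, one_pow]
  obtain ⟨f, h1, h2, -, -⟩ := hensel (P := P) (fun i => by
      rw [hcoeff]
      split_ifs
      · exact hci i
      · rw [gn_zero]; exact zero_le_one) (z := 0) (by rw [gn_zero]; exact zero_le_one)
      (by rw [hP0]; exact hc0) (by rw [hd0, gn_one])
  rw [hP0, sub_zero] at h2
  refine ⟨1 + ν * f, ?_, ?_⟩
  · rw [heval, div_eq_zero_iff] at h1
    exact sub_eq_zero.1 (h1.resolve_right (pow_ne_zero _ hν0))
  · rw [add_sub_cancel_left, gn_mul hk.out, hgnν]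
    calc ‖(N : C)‖ * gn f < ‖(N : C)‖ * 1 := by gcongr; exact h2.trans_lt hc0
      _ = _ := mul_one _

/-- `N`-th power at the norm of an end implies `N`-th power in `EE` -/
theorem exists_root_of_powAt {K : Type*} [Field K] {v : Valuation K ℝ≥0} (em : K →+* EE k C)
    (hgn : ∀ f, gn (em f) = v f) {N : ℕ} (hN : (N : C) ≠ 0) {h : K} (hP : PowAt N v h) :
    ∃ s : EE k C, s ^ N = em h := by
  have hNpos : 0 < ‖(N : C)‖ := norm_pos_iff.2 hN
  obtain ⟨g, hg0, hg⟩ := hP (‖(N : C)‖₊ ^ 2) (by
    have : 0 < ‖(N : C)‖₊ := by exact_mod_cast hNpos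
    positivity)
  have h1 : gn (em (h / g ^ N) - 1) < ‖(N : C)‖ ^ 2 := by
    rw [← map_one em, ← map_sub, hgn]
    exact_mod_cast hg
  obtain ⟨b, hb, -⟩ := exists_root_near_one hN _ h1
  refine ⟨em g * b, ?_⟩
  rw [mul_pow, hb, ← map_pow, ← map_mul, mul_div_cancel₀ _ (pow_ne_zero _ hg0)]

end EE

end Crest.Agent.R013.TopE2_957
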