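import Mathlib
import Crest.Agent.R013.TopE2_957
import Crest.Agent.R013.Pow2_931

/-!
# R013 / TopE4: covers of a semistable curve which are split at the vertices and unramified:
the disc cells (helper957)

`S : SSK k C K`, `L/K` generated by `N`-th roots.
* `KSplit S N h` : `h` is an `N`-th power at all vertices and `N ∣ div h`;
* `disc_psi` : `L` embeds in the field of every disc cell, over `em d`;
* `ksplit_of` : from `SplitAt` at the vertices and `UnrEv` to `KSplit`.
-/

set_option autoImplicit false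
set_option linter.unusedSectionVars false

namespace Crest.Agent.R013.TopE4_957

open scoped NNReal
open Module WithZero
open Crest.NumberTheoryR.Sect
open Crest.Agent.R013.RR7_948 Crest.Agent.R013.Cell_408 Crest.Agent.R013.EE809
open Crest.Agent.R013.SSK_332 Crest.Agent.R013.TopE1_957 Crest.Agent.R013.TopE2_957
open Crest.Agent.R013.Unr10_957 Crest.Agent.R013.Unr9_957 Crest.Agent.R013.Unr7_957
open Crest.Agent.R013.Pow1_931 Crest.Agent.R013.Pow2_931

section place

variable {k K : Type*} [Field k] [Field K] [Algebra k K]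

/-- the real valued valuation of a place (base `2`) -/
noncomputable def plV (P : Pl k K) : Valuation K ℝ≥0 :=
  P.v.map (WithZeroMulInt.toNNReal (e := 2) two_ne_zero)
    (WithZeroMulInt.toNNReal_strictMono one_lt_two).monotone

theorem plV_apply (P : Pl k K) (x : K) :
    plV P x = WithZeroMulInt.toNNReal (e := 2) two_ne_zero (P.v x) := rfl

theorem isPlace_plV (P : Pl k K) : IsPlace k (plV P) := by
  refine ⟨fun c hc => ?_, ?_⟩
  · rw [plV_apply, P.const c hc, map_one]
  · obtain ⟨x, hx⟩ := P.surj (exp (-1))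
    refine ⟨x, ?_, ?_⟩
    · rw [plV_apply, hx]
      exact (map_ne_zero _).2 exp_ne_zero
    · rw [plV_apply, hx]
      intro h
      have h1 := (WithZeroMulInt.toNNReal_strictMono (e := 2) one_lt_two).injective
        (h.trans (map_one _).symm)
      rw [← exp_zero, exp_inj] at h1
      exact absurd h1 (by decide)

theorem pl_pow_of {P : Pl k K} {h a : K} {N : ℕ} (h0 : h ≠ 0) (e : plV P h = plV P a ^ N) :
    ∃ m : ℤ, P.v h = exp ((N : ℤ) * m) := by
  have h1 : P.v h = P.v a ^ N := by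
    apply (WithZeroMulInt.toNNReal_strictMono (e := 2) one_lt_two).injective
    rw [map_pow]; exact e
  by_cases ha : P.v a = 0
  · by_cases hN : N = 0
    · subst hN
      exact ⟨0, by rw [h1, pow_zero, mul_zero, exp_zero]⟩
    · rw [ha, zero_pow hN] at h1
      exact absurd h1 ((map_ne_zero _).2 h0)
  · refine ⟨log (P.v a), ?_⟩
    rw [h1, ← exp_log ha, log_exp, ← exp_nsmul]
    simp

/-- unramified everywhere: `N` divides the orders of Kummer generators -/
theorem ord_of_unrEv {L : Type*} [Field L] [Algebra K L] [Algebra.IsAlgebraic K L]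
    (hL : UnrEv k K L) {N : ℕ} {h : K} (h0 : h ≠ 0) {y : L} (hy : y ^ N = algebraMap K L h)
    (P : Pl k K) : ∃ m : ℤ, P.v h = exp ((N : ℤ) * m) := by
  obtain ⟨a, ha⟩ := Unr8_957.kummer_of_unrAt (hL (plV P) (isPlace_plV P))
    (exists_extend_alg (plV P)) hy
  exact pl_pow_of h0 ha

end place

section cell

variable {k C K : Type*} [NontriviallyNormedField k] [CompleteSpace k] [IsUltrametricDist k]
  [NormedField C] [IsUltrametricDist C] [NormedAlgebra k C] [Algebra.IsAlgebraic k C]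
  [IsAlgClosed C] [hk : Fact (DiscNorm k)] [Field K] [Algebra C K] (S : SSK k C K)

/-- `h` is an `N`-th power at all vertices, and `N ∣ div h` -/
structure KSplit (N : ℕ) (h : K) : Prop where
  ne : h ≠ 0
  vert : ∀ v, PowAt N (S.nm v).v h
  pl : ∀ P : Pl C K, ∃ m : ℤ, P.v h = exp ((N : ℤ) * m)

variable (k C) in
/-- the field of quotients of bounded series on the open unit disc, inside `EE k C` -/
noncomputable def FDs : Subfield (EE k C) where
  carrier := {x | ∃ g h : EE k C, h ≠ 0 ∧ InD g ∧ InD h ∧ x * h = g}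
  mul_mem' := by
    rintro x y ⟨g, h, h0, hg, hh, e⟩ ⟨g', h', h0', hg', hh', e'⟩
    exact ⟨g * g', h * h', mul_ne_zero h0 h0', Pos.mul hg hg', Pos.mul hh hh', by
      rw [← e, ← e']; ring⟩
  one_mem' := ⟨1, 1, one_ne_zero, Pos.one, Pos.one, one_mul 1⟩
  add_mem' := by
    rintro x y ⟨g, h, h0, hg, hh, e⟩ ⟨g', h', h0', hg', hh', e'⟩
    exact ⟨g * h' + g' * h, h * h', mul_ne_zero h0 h0',
      Pos.add (Pos.mul hg hh') (Pos.mul hg' hh), Pos.mul hh hh', by rw [← e, ← e']; ring⟩
  zero_mem' := ⟨0, 1, one_ne_zero, fun n _ => rfl, Pos.one, zero_mul 1⟩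
  neg_mem' := by
    rintro x ⟨g, h, h0, hg, hh, e⟩
    exact ⟨-g, h, h0, Pos.neg hg, hh, by rw [← e]; ring⟩
  inv_mem' := by
    rintro x ⟨g, h, h0, hg, hh, e⟩
    by_cases hx : x = 0
    · rw [hx, inv_zero]
      exact ⟨0, 1, one_ne_zero, fun n _ => rfl, Pos.one, zero_mul 1⟩
    · refine ⟨h, g, ?_, hh, hg, ?_⟩
      · rw [← e]; exact mul_ne_zero hx h0
      · rw [← e, inv_mul_cancel_left₀ hx]

theorem mem_FDs {x : EE k C} :
    x ∈ FDs k C ↔ ∃ g h : EE k C, h ≠ 0 ∧ InD g ∧ InD h ∧ x * h = g := Iff.rfl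

theorem charZero_of (K : Type*) [Field K] [Algebra C K] [CharZero C] : CharZero K :=
  charZero_of_injective_algebraMap (algebraMap C K).injective

variable [CharZero C]

/-- the `N`-th root of `em h` at a disc cell is in the field of the disc -/
theorem disc_root {N : ℕ} (hN : 0 < N) {d : S.Dir} (hd : S.IsDisc d) {h : K}
    (hh : KSplit S N h) : ∃ s : FDs k C, (s : EE k C) ^ N = S.em d h := by
  have hN' : (N : C) ≠ 0 := Nat.cast_ne_zero.2 hN.ne'
  obtain ⟨w, hw⟩ := exists_root_of_powAt (S.em d) (fun f => S.em_gn d f) hN' (hh.vert d.1)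
  obtain ⟨G, H, hH0, hG, hH, e⟩ := S.disc d hd.1 hd.2 h
  have hz0 : S.em d h ≠ 0 := (map_ne_zero (S.em d)).2 hh.ne
  have hdiv : DivD N (S.em d h) := by
    intro τ hτ
    obtain ⟨a, b, g, h', h1, h2, h3, h4, h5, h6⟩ := S.ptD_ord d hd.1 hd.2 τ hτ h hh.ne
    refine ⟨a, b, g, h', h1, h2, h3, h4, h5, ?_⟩
    obtain ⟨m, hm⟩ := hh.pl (S.ptD d hd.1 hd.2 τ hτ)
    rw [hm, exp_inj] at h6
    exact ⟨m, h6.symm⟩
  have := disc_pow hk.out hN hG hH hH0 hz0 e hdiv hw
  exact ⟨⟨w, w * H, H, hH0, this, hH, rfl⟩, hw⟩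

/-- **`L` embeds in the field of every disc cell.** -/
theorem disc_psi {L : Type*} [Field L] [Algebra K L] [Algebra.IsAlgebraic K L] {N : ℕ}
    (hN : 0 < N) (T : Set L) (hT : IntermediateField.adjoin K T = ⊤)
    (h : ∀ y ∈ T, ∃ a : K, y ^ N = algebraMap K L a ∧ KSplit S N a) {d : S.Dir}
    (hd : S.IsDisc d) :
    ∃ ψ : L →+* EE k C, (∀ x : K, ψ (algebraMap K L x) = S.em d x) ∧
      ∀ f : L, ∃ g h : EE k C, h ≠ 0 ∧ InD g ∧ InD h ∧ ψ f * h = g := by
  have : NeZero (N : C) := ⟨Nat.cast_ne_zero.2 hN.ne'⟩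
  obtain ⟨ζ, hζ⟩ := HasEnoughRootsOfUnity.exists_primitiveRoot C N
  have hζ' : IsPrimitiveRoot (algebraMap C K ζ) N := hζ.map_of_injective (algebraMap C K).injective
  let em' : K →+* FDs k C := (S.em d).codRestrict (FDs k C) (fun f => S.disc d hd.1 hd.2 f)
  obtain ⟨ψ, hψ⟩ := exists_ext_of_roots em' hN hζ' T hT (fun y hy => by
    obtain ⟨a, ha, ha'⟩ := h y hy
    obtain ⟨s, hs⟩ := disc_root S hN hd ha'
    exact ⟨a, s, ha, Subtype.ext hs⟩)
  refine ⟨(FDs k C).subtype.comp ψ, fun x => ?_, fun f => (ψ f).2⟩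
  rw [RingHom.comp_apply, hψ]
  rfl

/-- from completely split at the vertices and unramified to `KSplit` -/
theorem ksplit_of {L : Type*} [Field L] [Algebra K L] [FiniteDimensional K L]
    (hs : ∀ v, SplitAt (S.nm v).v L) (hu : UnrEv C K L) {N : ℕ} {h : K} (h0 : h ≠ 0) {y : L}
    (hy : y ^ N = algebraMap K L h) : KSplit S N h :=
  ⟨h0, fun v => (hs v).powAt h0 hy, fun P => ord_of_unrEv hu h0 hy P⟩

end cell

end Crest.Agent.R013.TopE4_957
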