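import Mathlib
import Crest.Agent.R013.TopE4_957
import Crest.Agent.R013.AN1_243

/-!
# R013 / TopE5: covers of a semistable curve which are split at the vertices and unramified:
the annulus cells, final form (helper957)
-/

set_option autoImplicit false
set_option linter.unusedSectionVars false

namespace Crest.Agent.R013.TopE5_957

open scoped NNReal
open Module WithZero
open Crest.NumberTheoryR.Sect
open Crest.Agent.R013.RR7_948 Crest.Agent.R013.Cell_408 Crest.Agent.R013.EE809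
open Crest.Agent.R013.SSK_332 Crest.Agent.R013.TopE1_957 Crest.Agent.R013.TopE2_957
open Crest.Agent.R013.TopE4_957 Crest.Agent.R013.CAn_243
open Crest.Agent.R013.Unr10_957 Crest.Agent.R013.Unr9_957 Crest.Agent.R013.Unr7_957

section ann

variable {k C : Type*} [NontriviallyNormedField k] [CompleteSpace k] [IsUltrametricDist k]
  [NormedField C] [IsUltrametricDist C] [NormedAlgebra k C] [Algebra.IsAlgebraic k C]
  [IsAlgClosed C] [hk : Fact (DiscNorm k)]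

/-- all orders of `z` in the annulus are divisible by `n` -/
def DivA (c : C) (n : ℕ) (z : EE k C) : Prop :=
  ∀ τ : C, ‖c‖ < ‖τ‖ → ‖τ‖ < 1 → ∃ (a b : ℕ) (g h : EE k C), InA c g ∧ InA c h ∧ evE τ g ≠ 0 ∧
    evE τ h ≠ 0 ∧ z * (lin τ ^ b * h) = lin τ ^ a * g ∧ (n : ℤ) ∣ (b : ℤ) - a

variable (k C) in
/-- `n`-th powers in annuli (931's theorem) -/
def AnnPow (n : ℕ) : Prop := ∀ {c : C}, c ≠ 0 → ‖c‖ < 1 →
  ∀ {z w G H z' w' G' H' : EE k C}, InA c G → InA c H → H ≠ 0 → z ≠ 0 → z * H = G →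
    Flip c G G' → Flip c H H' → z' * H' = G' → DivA c n z → w ^ n = z → w' ^ n = z' →
    InA c (w * H)

theorem flip_eq_of_Flip {c : C} (hc0 : c ≠ 0) (hc1 : ‖c‖ < 1) {g g' : EE k C} (hg : InA c g)
    (h : Flip c g g') : ((flip c hc0 hc1 ⟨g, hg⟩ : AN k c) : EE k C) = g' := by
  ext n
  rw [co_flip, h n]

theorem Flip_flip {c : C} (hc0 : c ≠ 0) (hc1 : ‖c‖ < 1) (g : AN k c) :
    Flip c (g : EE k C) (flip c hc0 hc1 g : AN k c) := fun n => co_flip c hc0 hc1 g n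

theorem flipF_mul {c : C} (hc0 : c ≠ 0) (hc1 : ‖c‖ < 1) {x : FA k c} {g h : AN k c}
    (e : (x : EE k C) * h = g) :
    ((flipF c hc0 hc1 x : FA k c) : EE k C) * (flip c hc0 hc1 h : AN k c) =
      (flip c hc0 hc1 g : AN k c) := by
  have h1 : x * algebraMap (AN k c) (FA k c) h = algebraMap (AN k c) (FA k c) g :=
    Subtype.ext e
  have h2 := congrArg (flipF c hc0 hc1) h1
  rw [map_mul, flipF_algebraMap, flipF_algebraMap] at h2
  exact congrArg (fun z : FA k c => (z : EE k C)) h2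

end ann

section cell

variable {k C K : Type*} [NontriviallyNormedField k] [CompleteSpace k] [IsUltrametricDist k]
  [NormedField C] [IsUltrametricDist C] [NormedAlgebra k C] [Algebra.IsAlgebraic k C]
  [IsAlgClosed C] [hk : Fact (DiscNorm k)] [Field K] [Algebra C K] (S : SSK k C K)

/-- the embedding of `K` in the field of the annulus `e` -/
noncomputable def emA (e : S.Ed) : K →+* FA k (S.cc e) :=
  (S.em (S.e0 e)).codRestrict (FA k (S.cc e)).toSubfield (fun f => by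
    obtain ⟨g, h, g', h', h0, h1, h2, -, -, h5, -⟩ := S.ann e f
    exact ⟨g, h1, h, h2, h0, h5⟩)

theorem coe_emA (e : S.Ed) (f : K) : (emA S e f : EE k C) = S.em (S.e0 e) f := rfl

theorem flipF_emA (e : S.Ed) (f : K) :
    ((flipF (S.cc e) (S.cc_ne e) (S.cc_lt e) (emA S e f) : FA k (S.cc e)) : EE k C) =
      S.em (S.e1 e) f := by
  obtain ⟨g, h, g', h', h0, hg, hh, fg, fh, e1, e2⟩ := S.ann e f
  have h1 := flipF_mul (S.cc_ne e) (S.cc_lt e) (x := emA S e f) (g := ⟨g, hg⟩) (h := ⟨h, hh⟩) e1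
  rw [flip_eq_of_Flip (S.cc_ne e) (S.cc_lt e) hh fh, flip_eq_of_Flip (S.cc_ne e) (S.cc_lt e) hg fg,
    ← e2] at h1
  have hh' : h' ≠ 0 := by
    rw [← flip_eq_of_Flip (S.cc_ne e) (S.cc_lt e) hh fh]
    intro h3
    have h4 : flip (S.cc e) (S.cc_ne e) (S.cc_lt e) ⟨h, hh⟩ = (0 : AN k (S.cc e)) := Subtype.ext h3
    rw [flip_eq_zero] at h4
    exact h0 (congrArg Subtype.val h4)
  exact mul_right_cancel₀ hh' h1

variable [CharZero C]

/-- the `N`-th root of `em h` at an annulus is in the field of the annulus -/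
theorem ann_root {N : ℕ} (hN : 0 < N) (hP : AnnPow k C N) (e : S.Ed) {h : K}
    (hh : KSplit S N h) : ∃ s : FA k (S.cc e), s ^ N = emA S e h := by
  have hN' : (N : C) ≠ 0 := Nat.cast_ne_zero.2 hN.ne'
  obtain ⟨w, hw⟩ := exists_root_of_powAt (S.em (S.e0 e)) (fun f => S.em_gn _ f) hN'
    (hh.vert (S.e0 e).1)
  obtain ⟨w', hw'⟩ := exists_root_of_powAt (S.em (S.e1 e)) (fun f => S.em_gn _ f) hN'
    (hh.vert (S.e1 e).1)
  obtain ⟨G, H, G', H', hH0, hG, hH, fG, fH, e1, e2⟩ := S.ann e h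
  have hz0 : S.em (S.e0 e) h ≠ 0 := (map_ne_zero (S.em (S.e0 e))).2 hh.ne
  have hdiv : DivA (S.cc e) N (S.em (S.e0 e) h) := by
    intro τ hτ hτ'
    obtain ⟨a, b, g, h', h1, h2, h3, h4, h5, h6⟩ := S.ptA_ord e τ hτ hτ' h hh.ne
    refine ⟨a, b, g, h', h1, h2, h3, h4, h5, ?_⟩
    obtain ⟨m, hm⟩ := hh.pl (S.ptA e τ hτ hτ')
    rw [hm, exp_inj] at h6
    exact ⟨m, h6.symm⟩
  have := hP (S.cc_ne e) (S.cc_lt e) hG hH hH0 hz0 e1 fG fH e2 hdiv hw hw'
  exact ⟨⟨w, w * H, this, H, hH, hH0, rfl⟩, Subtype.ext hw⟩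

/-- **`L` embeds in the field of every annulus cell.** -/
theorem ann_psi {L : Type*} [Field L] [Algebra K L] [Algebra.IsAlgebraic K L] {N : ℕ}
    (hN : 0 < N) (hP : AnnPow k C N) (T : Set L) (hT : IntermediateField.adjoin K T = ⊤)
    (h : ∀ y ∈ T, ∃ a : K, y ^ N = algebraMap K L a ∧ KSplit S N a) (e : S.Ed) :
    ∃ ψ0 ψ1 : L →+* EE k C, (∀ x : K, ψ0 (algebraMap K L x) = S.em (S.e0 e) x) ∧
      (∀ x : K, ψ1 (algebraMap K L x) = S.em (S.e1 e) x) ∧
      ∀ f : L, ∃ g h g' h' : EE k C, h ≠ 0 ∧ InA (S.cc e) g ∧ InA (S.cc e) h ∧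
        Flip (S.cc e) g g' ∧ Flip (S.cc e) h h' ∧ ψ0 f * h = g ∧ ψ1 f * h' = g' := by
  have : NeZero (N : C) := ⟨Nat.cast_ne_zero.2 hN.ne'⟩
  obtain ⟨ζ, hζ⟩ := HasEnoughRootsOfUnity.exists_primitiveRoot C N
  have hζ' : IsPrimitiveRoot (algebraMap C K ζ) N := hζ.map_of_injective (algebraMap C K).injective
  obtain ⟨ψ, hψ⟩ := exists_ext_of_roots (emA S e) hN hζ' T hT (fun y hy => by
    obtain ⟨a, ha, ha'⟩ := h y hy
    obtain ⟨s, hs⟩ := ann_root S hN hP e ha'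
    exact ⟨a, s, ha, hs⟩)
  refine ⟨(FA k (S.cc e)).val.toRingHom.comp ψ, ((FA k (S.cc e)).val.toRingHom.comp
    (flipF (S.cc e) (S.cc_ne e) (S.cc_lt e)).toRingHom).comp ψ, fun x => ?_, fun x => ?_, ?_⟩
  · rw [RingHom.comp_apply, hψ]
    rfl
  · rw [RingHom.comp_apply, hψ]
    exact flipF_emA S e x
  · intro f
    obtain ⟨g, hg, h, hh, h0, e1⟩ := (ψ f).2
    exact ⟨g, h, (flip (S.cc e) (S.cc_ne e) (S.cc_lt e) ⟨g, hg⟩ : AN k (S.cc e)),
      (flip (S.cc e) (S.cc_ne e) (S.cc_lt e) ⟨h, hh⟩ : AN k (S.cc e)), h0, hg, hh,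
      Flip_flip _ _ ⟨g, hg⟩, Flip_flip _ _ ⟨h, hh⟩, e1,
      flipF_mul (S.cc_ne e) (S.cc_lt e) (x := ψ f) (g := ⟨g, hg⟩) (h := ⟨h, hh⟩) e1⟩

/-- the hypothesis (S) of C-INH (770, post 3201): `L` embeds in all cell fields of `S` -/
def CellSplit (L : Type*) [Field L] [Algebra K L] : Prop :=
  (∀ d : S.Dir, S.IsDisc d → ∃ ψ : L →+* EE k C, (∀ x : K, ψ (algebraMap K L x) = S.em d x) ∧
    ∀ f : L, ∃ g h : EE k C, h ≠ 0 ∧ InD g ∧ InD h ∧ ψ f * h = g) ∧
  (∀ e : S.Ed, ∃ ψ0 ψ1 : L →+* EE k C, (∀ x : K, ψ0 (algebraMap K L x) = S.em (S.e0 e) x) ∧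
    (∀ x : K, ψ1 (algebraMap K L x) = S.em (S.e1 e) x) ∧
    ∀ f : L, ∃ g h g' h' : EE k C, h ≠ 0 ∧ InA (S.cc e) g ∧ InA (S.cc e) h ∧
      Flip (S.cc e) g g' ∧ Flip (S.cc e) h h' ∧ ψ0 f * h = g ∧ ψ1 f * h' = g')

/-- Kummer covers -/
theorem cellSplit_kummer {L : Type*} [Field L] [Algebra K L] [Algebra.IsAlgebraic K L] {N : ℕ}
    (hN : 0 < N) (hP : AnnPow k C N) (T : Set L) (hT : IntermediateField.adjoin K T = ⊤)
    (h : ∀ y ∈ T, ∃ a : K, y ^ N = algebraMap K L a ∧ KSplit S N a) : CellSplit S L :=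
  ⟨fun _ hd => disc_psi S hN T hT h hd, fun e => ann_psi S hN hP T hT h e⟩

/-- **cyclic covers, completely split at the vertices and unramified** -/
theorem cellSplit_of_cyclic {L : Type*} [Field L] [Algebra K L] [FiniteDimensional K L]
    [IsGalois K L] [IsCyclic (L ≃ₐ[K] L)] (hP : AnnPow k C (finrank K L))
    (hs : ∀ v, SplitAt (S.nm v).v L) (hu : UnrEv C K L) : CellSplit S L := by
  have hN : 0 < finrank K L := finrank_pos
  have : NeZero (finrank K L : C) := ⟨Nat.cast_ne_zero.2 hN.ne'⟩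
  obtain ⟨ζ, hζ⟩ := HasEnoughRootsOfUnity.exists_primitiveRoot C (finrank K L)
  have hζ' : IsPrimitiveRoot (algebraMap C K ζ) (finrank K L) :=
    hζ.map_of_injective (algebraMap C K).injective
  have hne : (primitiveRoots (finrank K L) K).Nonempty :=
    ⟨_, (mem_primitiveRoots hN).2 hζ'⟩
  obtain ⟨α, hα, hαt⟩ := exists_root_adjoin_eq_top_of_isCyclic K L hne
  obtain ⟨a, ha⟩ := hα
  by_cases ha0 : a = 0
  · -- `α = 0`, so `L = K`
    have hα0 : α = 0 := by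
      rw [ha0, map_zero] at ha
      exact eq_zero_of_pow_eq_zero ha.symm
    have hT : IntermediateField.adjoin K (∅ : Set L) = ⊤ := by
      rw [← hαt, hα0, IntermediateField.adjoin_simple_eq_bot_iff.2 (zero_mem _),
        IntermediateField.adjoin_empty]
    exact cellSplit_kummer S hN hP ∅ hT (by simp)
  · refine cellSplit_kummer S hN hP {α} hαt ?_
    rintro y rfl
    exact ⟨a, ha.symm, ksplit_of S hs hu ha0 ha.symm⟩

end cell

end Crest.Agent.R013.TopE5_957
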