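import Mathlib
import Crest.Agent.R013.TopE3_957
import Crest.Agent.R013.TopE5_957
import Crest.Agent.R013.RedD3_310

/-!
# R013 / TopE6: TOP-EMBED (helper957)

* `splitAt_of_isPlace`, `unrEv_W` : the cut cover `W/U` of helper92 is split at all places;
* `isGalois_compositum`, `isCyclic_compositum` : base change of cyclic extensions;
* `algClosed_of_splitAt` : a cover which is split at a rational place has no new constants;
* `etaleAt_vertex` : (E) of C-INH;
* `topEmbed` : the cover `L = W · K` of `K = U · C` satisfies (S) and (E) of C-INH.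
-/

set_option autoImplicit false
set_option linter.unusedSectionVars false

namespace Crest.Agent.R013.TopE6_957

open scoped NNReal
open Module Polynomial
open Crest.NumberTheoryR.Sect
open Crest.Agent.R013.Gl946 Crest.Agent.R013.CutCov_92 Crest.Agent.R013.TopE1_957
open Crest.Agent.R013.TopE3_957
open Crest.Agent.R013.Unr7_957 Crest.Agent.R013.Unr9_957 Crest.Agent.R013.Unr10_957

section circle

universe u

variable {k E : Type*} [NontriviallyNormedField k] [IsUltrametricDist k] [CompleteSpace k]
  [NormedField E] [NormedAlgebra k E] [IsUltrametricDist E] [CompleteSpace E] {y : E}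
  (hG : IsGauss k y) {π : k} (hπ : IsUnif π) (hd : DenseRat k y)
  {V : Type*} [CommRing V] [Algebra E V] {D : PatchDatum E} {d : ℕ}
  (hD0 : ∀ z : E, z ∈ D.F0 ↔ z ∈ KY hG) (hDU : ∀ z ∈ D.RU, z ∈ RU k y)
  (hDP : ∀ z ∈ D.FP, z ∈ FP hG hπ hd)
  {X : Edge D V d} {U : Type*} [Field U] {j : U →+* V} {n : ℕ} {W : Type u} [Field W]
  [Algebra U W] (C : CutCover X j n W) [Algebra k U]
  (hk : ∀ c : k, j (algebraMap k U c) = algebraMap E V (algebraMap k E c))
  {yU : U} (hy : j yU = algebraMap E V y)
  (hF0 : ∀ z ∈ D.F0, algebraMap E V z ∈ X.L) (hj : ∀ v, v ∈ X.L ↔ ∃ u, j u = v)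

include hG hD0 hk hy hF0 hj

/-- at a place of `U/k`, `y` is a root of a polynomial or `∞` -/
theorem exists_poly_of_isPlace [Nontrivial V] (w : Valuation U ℝ≥0) (hw : IsPlace k w)
    (hwy : w yU ≤ 1) : ∃ P : k[X], P ≠ 0 ∧ w (aeval yU P) < 1 := by
  by_contra hcon
  push Not at hcon
  obtain ⟨θ, hθ⟩ := exists_theta hG (X := X) (j := j) hD0 hF0 (fun v hv => (hj v).1 hv)
  have hjinj := j.injective
  have hconst : ∀ c : k, w (algebraMap k U c) ≤ 1 := by
    intro c
    rcases eq_or_ne c 0 with rfl | hc
    · rw [map_zero, map_zero]; exact zero_le_one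
    · exact (hw.1 c hc).le
  have hθk : ∀ c : k, θ ⟨algebraMap k E c, const_mem_KY hG c⟩ = algebraMap k U c := by
    intro c; apply hjinj; rw [hθ, hk]
  have hθy : θ ⟨y, y_mem_KY hG⟩ = yU := by apply hjinj; rw [hθ, hy]
  have hθp : ∀ f : k[X], θ ⟨aeval y f, aeval_mem_KY hG f⟩ = aeval yU f := by
    intro f
    have e : (⟨aeval y f, aeval_mem_KY hG f⟩ : KY hG) = ∑ i ∈ Finset.range (f.natDegree + 1),
        ⟨algebraMap k E (f.coeff i), const_mem_KY hG _⟩ * (⟨y, y_mem_KY hG⟩ : KY hG) ^ i := by
      ext
      push_cast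
      rw [aeval_eq_sum_range]
      exact Finset.sum_congr rfl fun i _ => Algebra.smul_def _ _
    rw [e, map_sum, aeval_eq_sum_range]
    refine Finset.sum_congr rfl fun i _ => ?_
    rw [map_mul, map_pow, hθk, hθy, Algebra.smul_def]
  have h1 : ∀ P : k[X], P ≠ 0 → w (aeval yU P) = 1 := by
    intro P hP
    refine le_antisymm ?_ (hcon P hP)
    rw [aeval_eq_sum_range]
    refine w.map_sum_le fun i _ => ?_
    rw [Algebra.smul_def, map_mul, map_pow]
    exact mul_le_one' (hconst _) (pow_le_one' hwy _)
  -- `w` is trivial on `k(y)`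
  have h2 : ∀ z : KY hG, z ≠ 0 → w (θ z) = 1 := by
    rintro ⟨z, hz⟩ hz0
    obtain ⟨f, g, hg, rfl⟩ := id hz
    have hf : f ≠ 0 := by
      rintro rfl
      apply hz0
      apply Subtype.ext
      simp
    have e : (⟨aeval y f / aeval y g, hz⟩ : KY hG) =
        ⟨aeval y f, aeval_mem_KY hG f⟩ / ⟨aeval y g, aeval_mem_KY hG g⟩ := rfl
    rw [e, map_div₀, hθp, hθp, map_div₀, h1 f hf, h1 g hg, div_one]
  -- `U` is finite over `k(y)`
  let _ : Algebra (KY hG) U := θ.toAlgebra
  have hfin : Module.Finite (KY hG) U := by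
    classical
    have hb : ∀ i, ∃ u, j u = X.b i := fun i => (hj _).1 ((X.hL _).2 (basis_mem_cs X.b _ i))
    choose β hβ using hb
    refine ⟨⟨Finset.univ.image β, ?_⟩⟩
    rw [eq_top_iff]
    intro u _
    have hu : j u ∈ cs X.b D.F0.toSubring := (X.hL _).1 ((hj _).2 ⟨u, rfl⟩)
    have e : u = ∑ i, (⟨X.b.repr (j u) i, (hD0 _).1 (hu i)⟩ : KY hG) • β i := by
      apply hjinj
      conv_lhs => rw [← X.b.sum_repr (j u)]
      rw [map_sum]
      refine Finset.sum_congr rfl fun i _ => ?_
      rw [Algebra.smul_def, Algebra.smul_def, map_mul, hβ]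
      congr 1
      exact (hθ ⟨_, (hD0 _).1 (hu i)⟩).symm
    rw [e]
    exact Submodule.sum_mem _ fun i _ => Submodule.smul_mem _ _ (Submodule.subset_span (by simp))
  obtain ⟨a, ha0, ha1⟩ := hw.2
  refine ha1 (trivial_of_trivial (F := KY hG) w (fun z hz => h2 z hz) a ?_)
  rintro rfl
  exact ha0 (map_zero _)

include hDU hDP C

/-- **The cut cover is completely split at every place of `U/k`.** -/
theorem splitAt_of_isPlace [NeZero n] [Nontrivial V] (w : Valuation U ℝ≥0) (hw : IsPlace k w) :
    SplitAt w W :=
  splitAt_place hG hπ hd hD0 hDU hDP C hk hy hF0 (fun v hv => (hj v).1 hv) w hw.1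
    (exists_poly_of_isPlace hG hD0 hk hy hF0 hj w hw)

theorem unrEv_W [NeZero n] [Nontrivial V] : UnrEv k U W := fun w hw =>
  (splitAt_of_isPlace hG hπ hd hD0 hDU hDP C hk hy hF0 hj w hw).unrAt

end circle

section compositum

variable {U W K L : Type*} [Field U] [Field W] [Field K] [Field L] [Algebra U W] [Algebra U K]
  [Algebra W L] [Algebra K L] [Algebra U L] [IsScalarTower U W L] [IsScalarTower U K L]
  (hL : IntermediateField.adjoin K (Set.range (algebraMap W L)) = ⊤)

include hL

theorem splitting_compositum (p : U[X]) [hp : p.IsSplittingField U W] :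
    (p.map (algebraMap U K)).IsSplittingField K L := by
  have h1 : ((p.map (algebraMap U K)).map (algebraMap K L)) =
      (p.map (algebraMap U W)).map (algebraMap W L) := by
    rw [Polynomial.map_map, Polynomial.map_map, ← IsScalarTower.algebraMap_eq,
      ← IsScalarTower.algebraMap_eq]
  have hsp : ((p.map (algebraMap U K)).map (algebraMap K L)).Splits := by
    rw [h1]
    exact hp.splits.map _
  refine ⟨hsp, ?_⟩
  have hint : ∀ x ∈ (p.map (algebraMap U K)).rootSet L, IsAlgebraic K x := by
    intro x hx
    exact isAlgebraic_of_mem_rootSet hx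
  have h2 : IntermediateField.adjoin K ((p.map (algebraMap U K)).rootSet L) = ⊤ := by
    rw [eq_top_iff, ← hL, IntermediateField.adjoin_le_iff]
    rintro _ ⟨w, rfl⟩
    have hw : w ∈ Algebra.adjoin U (p.rootSet W) := by rw [hp.adjoin_rootSet]; trivial
    induction hw using Algebra.adjoin_induction with
    | mem x hx =>
      apply IntermediateField.subset_adjoin
      by_cases hp0 : p = 0
      · rw [hp0] at hx
        simp at hx
      have hp1 : p.map (algebraMap U K) ≠ 0 := (Polynomial.map_ne_zero_iff
        (algebraMap U K).injective).2 hp0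
      rw [Polynomial.mem_rootSet] at hx ⊢
      refine ⟨hp1, ?_⟩
      rw [Polynomial.aeval_map_algebraMap, Polynomial.aeval_algebraMap_apply, hx.2, map_zero]
    | algebraMap r =>
      change algebraMap W L (algebraMap U W r) ∈ _
      rw [← IsScalarTower.algebraMap_apply U W L, IsScalarTower.algebraMap_apply U K L]
      exact IntermediateField.algebraMap_mem _ _
    | add x y _ _ hx hy =>
      change algebraMap W L (x + y) ∈ _
      rw [map_add]; exact add_mem hx hy
    | mul x y _ _ hx hy =>
      change algebraMap W L (x * y) ∈ _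
      rw [map_mul]; exact mul_mem hx hy
  have h3 := IntermediateField.adjoin_toSubalgebra_of_isAlgebraic hint
  rw [h2] at h3
  rw [← h3]; rfl

theorem isGalois_compositum [FiniteDimensional U W] [IsGalois U W] : IsGalois K L := by
  obtain ⟨p, hp, hsp⟩ := IsGalois.is_separable_splitting_field U W
  have := splitting_compositum hL p
  exact IsGalois.of_separable_splitting_field (p := p.map (algebraMap U K)) (hp.map)

theorem finiteDimensional_compositum [FiniteDimensional U W] [IsGalois U W] :
    FiniteDimensional K L := by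
  obtain ⟨p, hp, hsp⟩ := IsGalois.is_separable_splitting_field U W
  have := splitting_compositum hL p
  exact IsSplittingField.finiteDimensional L (p.map (algebraMap U K))

theorem restrict_injective [FiniteDimensional U W] [IsGalois U W] :
    Function.Injective ((AlgEquiv.restrictNormalHom W).comp
      (⟨⟨fun σ : L ≃ₐ[K] L => σ.restrictScalars U, rfl⟩, fun _ _ => rfl⟩ :
        (L ≃ₐ[K] L) →* (L ≃ₐ[U] L))) := by
  intro σ τ h
  have h1 : ∀ w : W, σ (algebraMap W L w) = τ (algebraMap W L w) := by
    intro w
    have h2 := AlgEquiv.restrictNormal_commutes (σ.restrictScalars U) W w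
    have h3 := AlgEquiv.restrictNormal_commutes (τ.restrictScalars U) W w
    have h4 : (σ.restrictScalars U).restrictNormal W = (τ.restrictScalars U).restrictNormal W := h
    rw [h4] at h2
    exact h2.symm.trans h3
  have h5 : IntermediateField.adjoin K (Set.range (algebraMap W L)) ≤
      { (AlgHom.equalizer (σ : L →ₐ[K] L) (τ : L →ₐ[K] L)) with
        inv_mem' := fun x hx => by
          change σ x⁻¹ = τ x⁻¹
          have : σ x = τ x := hx
          rw [map_inv₀, map_inv₀, this] } := by
    rw [IntermediateField.adjoin_le_iff]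
    rintro _ ⟨w, rfl⟩
    exact h1 w
  rw [hL] at h5
  ext x
  exact h5 (show x ∈ (⊤ : IntermediateField K L) from trivial)

theorem isCyclic_compositum [FiniteDimensional U W] [IsGalois U W] [IsCyclic (W ≃ₐ[U] W)] :
    IsCyclic (L ≃ₐ[K] L) :=
  isCyclic_of_injective _ (restrict_injective (U := U) (W := W) hL)

end compositum

section constants

/-- a cover which is completely split at a rational place has no new constants -/
theorem algClosed_of_splitAt {k K L : Type*} [Field k] [Field K] [Algebra k K] [Field L]
    [Algebra K L] [Algebra k L] [IsScalarTower k K L] [Algebra.IsAlgebraic K L]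
    {v : Valuation K ℝ≥0} (hv : IsRationalPlace k K v) (hs : SplitAt v L) {c : L}
    (hc : IsAlgebraic k c) : ∃ a : k, algebraMap k L a = c := by
  obtain ⟨w, hw⟩ := exists_extend_alg (E := L) v
  have hwk : ∀ a : k, a ≠ 0 → w (algebraMap k L a) = 1 := by
    intro a ha
    rw [IsScalarTower.algebraMap_apply k K L, comap_apply' hw]
    exact hv.1.1 a ha
  -- `w` is trivial on the algebraic closure of `k` in `L`
  have halg : ∀ x : L, IsAlgebraic k x → x ≠ 0 → w x = 1 := by
    intro x hx hx0
    have hx' : x ∈ algebraicClosure k L := mem_algebraicClosure_iff.2 hx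
    have h1 := trivial_of_trivial (F := k) (E := algebraicClosure k L)
      (w.comap (algebraMap (algebraicClosure k L) L)) (fun a ha => hwk a ha) ⟨x, hx'⟩
      (fun h => hx0 (congrArg Subtype.val h))
    exact h1
  have hc1 : w c ≤ 1 := by
    by_cases h0 : c = 0
    · rw [h0, map_zero]; exact zero_le_one
    · exact (halg c hc h0).le
  obtain ⟨g, hg⟩ := hs w hw c 1 one_pos
  have hg1 : v g ≤ 1 := by
    rw [← comap_apply' hw]
    have e : algebraMap K L g = c - (c - algebraMap K L g) := by ring
    rw [e]
    exact (w.map_sub _ _).trans (max_le hc1 hg.le)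
  obtain ⟨a, ha⟩ := hv.2 g hg1
  refine ⟨a, ?_⟩
  by_contra hne
  have h2 : w (c - algebraMap k L a) < 1 := by
    have e : c - algebraMap k L a = (c - algebraMap K L g) +
        algebraMap K L (g - algebraMap k K a) := by
      rw [map_sub, ← IsScalarTower.algebraMap_apply k K L]; ring
    rw [e]
    refine lt_of_le_of_lt (w.map_add _ _) (max_lt hg ?_)
    rw [comap_apply' hw]
    exact ha
  have h3 : IsAlgebraic k (c - algebraMap k L a) := hc.sub (isAlgebraic_algebraMap a)
  have h4 := halg _ h3 (fun h => hne (sub_eq_zero.1 h).symm)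
  rw [h4] at h2
  exact lt_irrefl _ h2

end constants

section vertex

open Crest.Agent.R013.RR7_948 Crest.Agent.R013.Cell_408 Crest.Agent.R013.EE809
open Crest.Agent.R013.SSK_332 Crest.Agent.R013.TopE5_957
open Crest.Agent.R013.Red332 hiding od

variable {k C K : Type*} [NontriviallyNormedField k] [CompleteSpace k] [IsUltrametricDist k]
  [NormedField C] [IsUltrametricDist C] [NormedAlgebra k C] [Algebra.IsAlgebraic k C]
  [IsAlgClosed C] [Field K] [Algebra C K]

theorem infinite_kap (w : Nm C K) : Infinite (IsLocalRing.ResidueField w.v.valuationSubring) := by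
  have h1 : IsAlgClosed (Ct C) := RedD_310.isAlgClosed_Ct
  have h2 : Infinite (Ct C) := IsAlgClosed.instInfinite
  have h3 : Infinite (kap w) := Infinite.of_injective _ (algebraMap (Ct C) (kap w)).injective
  exact h3

include k in
/-- **(E) of C-INH**: completely split covers are étale at the vertices. -/
theorem etaleAt_vertex (w : Nm C K) {L : Type*} [Field L] [Algebra K L] [FiniteDimensional K L]
    [IsGalois K L] (h : SplitAt w.v L) : Inh_770.REnd.EtaleAt K L w.v := by
  have := infinite_kap w
  refine h.etaleAt ?_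
  obtain ⟨c, hc⟩ := NormedField.exists_one_lt_norm k
  refine ⟨algebraMap C K (algebraMap k C c), ?_, ?_⟩
  · rw [w.hC]
    intro h0
    have : ‖algebraMap k C c‖ = 0 := by
      have := congrArg NNReal.toReal h0
      simpa using this
    rw [norm_algebraMap'] at this
    linarith
  · rw [w.hC]
    intro h0
    have : ‖algebraMap k C c‖ = 1 := by
      have := congrArg NNReal.toReal h0
      simpa using this
    rw [norm_algebraMap'] at this
    linarith

variable [hk : Fact (DiscNorm k)] [CharZero C] (S : SSK k C K)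

/-- (S) and (E) of C-INH for cyclic covers which are split at the vertices and unramified -/
theorem cyclic_SE {L : Type*} [Field L] [Algebra K L] [FiniteDimensional K L] [IsGalois K L]
    [IsCyclic (L ≃ₐ[K] L)] (hP : AnnPow k C (finrank K L))
    (hs : ∀ v, SplitAt (S.nm v).v L) (hu : UnrEv C K L) :
    CellSplit S L ∧ ∀ v, Inh_770.REnd.EtaleAt K L (S.nm v).v :=
  ⟨cellSplit_of_cyclic S hP hs hu, fun v => etaleAt_vertex (k := k) _ (hs v)⟩

end vertex

end Crest.Agent.R013.TopE6_957
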