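import Mathlib
import Crest.Agent.R013.TopE6_957
import Crest.Agent.R013.Gl14_946

/-!
# R013 / TopE7: TOP-EMBED, assembled (helper957)

`k, E, y` a circle (helper946), `U` a field over `k`, `W/U` a cut cover (helper92), `K` a field over
`U` and `C` (`C ⊇ k` with the extended norm), `L = W · K`.
* `splitAt_normC`, `splitAt_placeC`, `unrEv_C` : `L/K` is completely split at all norms and places;
* `topEmbed` : `L/K` is cyclic and satisfies (S), (E) of C-INH;
* `exists_split_cover` : existence of `W` at a non-bridge;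
* `exists_split_coverC` : existence of `L` inside `AlgebraicClosure K`.
-/

set_option autoImplicit false
set_option linter.unusedSectionVars false

namespace Crest.Agent.R013.TopE7_957

open scoped NNReal
open Module Polynomial
open Crest.NumberTheoryR.Sect
open Crest.Agent.R013.Gl946 Crest.Agent.R013.CutCov_92 Crest.Agent.R013.TopE1_957
open Crest.Agent.R013.TopE3_957 Crest.Agent.R013.TopE6_957
open Crest.Agent.R013.Unr7_957 Crest.Agent.R013.Unr9_957 Crest.Agent.R013.Unr10_957

/-- `W/U` is completely split at all norms and places of `U/k` -/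
structure SplitCov (k U W : Type*) [NormedField k] [Field U] [Algebra k U] [Field W]
    [Algebra U W] : Prop where
  norm : ∀ w : Valuation U ℝ≥0, (∀ c : k, w (algebraMap k U c) ≤ ‖c‖₊) → SplitAt w W
  place : ∀ w : Valuation U ℝ≥0, IsPlace k w → SplitAt w W

section circle

universe u

variable {k E : Type*} [NontriviallyNormedField k] [IsUltrametricDist k] [CompleteSpace k]
  [NormedField E] [NormedAlgebra k E] [IsUltrametricDist E] [CompleteSpace E] {y : E}
  (hG : IsGauss k y) {π : k} (hπ : IsUnif π) (hd : DenseRat k y)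
  {V : Type*} [CommRing V] [Algebra E V] {d : ℕ}
  {X : Edge (gaussDatum hG hπ hd) V d} {U : Type*} [Field U] {j : U →+* V} {n : ℕ}
  [Algebra k U] (hk : ∀ c : k, j (algebraMap k U c) = algebraMap E V (algebraMap k E c))
  {yU : U} (hy : j yU = algebraMap E V y)
  (hF0 : ∀ z ∈ KY hG, algebraMap E V z ∈ X.L) (hj : ∀ v, v ∈ X.L ↔ ∃ u, j u = v)

include hk hy hF0 hj

theorem splitCov {W : Type*} [Field W] [Algebra U W] (C : CutCover X j n W) [NeZero n]
    [Nontrivial V] : SplitCov k U W where
  norm w hw := splitAt_norm hG hπ hd (D := gaussDatum hG hπ hd) (fun _ => Iff.rfl)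
    (fun _ h => h) (fun _ h => h) C hk hy hF0 (fun v hv => (hj v).1 hv) w hw
  place w hw := splitAt_of_isPlace hG hπ hd (D := gaussDatum hG hπ hd) (fun _ => Iff.rfl)
    (fun _ h => h) (fun _ h => h) C hk hy hF0 hj w hw

end circle

section exist

universe uV

variable {k E : Type*} [NontriviallyNormedField k] [IsUltrametricDist k] [CompleteSpace k]
  [NormedField E] [NormedAlgebra k E] [IsUltrametricDist E] [CompleteSpace E] {y : E}
  (hG : IsGauss k y) {π : k} (hπ : IsUnif π) (hd : DenseRat k y)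
  {V : Type uV} [CommRing V] [Algebra E V] {d : ℕ}
  (X : Edge (gaussDatum hG hπ hd) V d) {U : Type*} [Field U] {j : U →+* V}
  [Algebra k U] (hk : ∀ c : k, j (algebraMap k U c) = algebraMap E V (algebraMap k E c))
  {yU : U} (hy : j yU = algebraMap E V y)
  (hF0 : ∀ z ∈ KY hG, algebraMap E V z ∈ X.L) (hj : ∀ v, v ∈ X.L ↔ ∃ u, j u = v)

include hk hy hF0 hj

/-- **Existence of topological covers at a non-bridge.** -/
theorem exists_split_cover (n : ℕ) [NeZero n] [IsReduced V] (hNB : X.NonBridge)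
    (he0 : X.e ≠ 0) :
    ∃ (W : Type uV) (_ : Field W) (_ : Algebra U W), FiniteDimensional U W ∧ IsGalois U W ∧
      IsCyclic (W ≃ₐ[U] W) ∧ finrank U W = n ∧ SplitCov k U W ∧ Nonempty (CutCover X j n W) := by
  obtain ⟨W, i1, i2, ⟨C⟩⟩ := exists_cutCover X j hj hF0 n hNB he0
  have hVnt : Nontrivial V := ⟨⟨X.e, 0, he0⟩⟩
  have hj' : ∀ v, v ∈ X.L → ∃ u, j u = v := fun v hv => (hj v).1 hv
  refine ⟨W, i1, i2, C.finiteDimensional hj', C.isGalois hj', ?_, C.finrank_eq hj',
    splitCov hG hπ hd hk hy hF0 hj C, ⟨C⟩⟩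
  refine ⟨C.σ, fun x => ?_⟩
  have hx : x ∈ Subgroup.zpowers C.σ := by rw [C.zpowers_eq_top hj']; trivial
  exact hx

end exist

section extend

variable {k C U W K L : Type*} [NormedField k] [NormedField C] [Algebra k C] [Field U]
  [Algebra k U] [Field W] [Algebra U W] [Field K] [Field L] [Algebra C K] [Algebra k K]
  [Algebra U K] [IsScalarTower k U K] [IsScalarTower k C K]
  [Algebra W L] [Algebra K L] [Algebra U L] [IsScalarTower U W L] [IsScalarTower U K L]
  (hL : IntermediateField.adjoin K (Set.range (algebraMap W L)) = ⊤)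

include hL

theorem splitAt_normC (hW : SplitCov k U W) (hC : ∀ c : k, ‖algebraMap k C c‖ ≤ ‖c‖)
    (v : Valuation K ℝ≥0) (hv : ∀ c : C, v (algebraMap C K c) ≤ ‖c‖₊) : SplitAt v L := by
  refine (hW.norm (v.comap (algebraMap U K)) fun c => ?_).baseChange rfl hL
  rw [Valuation.comap_apply, ← IsScalarTower.algebraMap_apply k U K,
    IsScalarTower.algebraMap_apply k C K]
  exact (hv _).trans (hC c)

theorem splitAt_placeC [Algebra.IsAlgebraic U K] (hW : SplitCov k U W)
    (v : Valuation K ℝ≥0) (hv : IsPlace C v) : SplitAt v L := by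
  refine (hW.place (v.comap (algebraMap U K)) ?_).baseChange rfl hL
  have hv' : IsPlace k v := by
    refine ⟨fun c hc => ?_, hv.2⟩
    rw [IsScalarTower.algebraMap_apply k C K]
    exact hv.1 _ ((_root_.map_ne_zero _).2 hc)
  refine ⟨fun c hc => ?_, ?_⟩
  · rw [Valuation.comap_apply, ← IsScalarTower.algebraMap_apply k U K]
    exact hv'.1 c hc
  · by_contra hcon
    push Not at hcon
    obtain ⟨a, ha0, ha1⟩ := hv.2
    refine ha1 (trivial_of_trivial (F := U) v (fun x hx => ?_) a ?_)
    · have h1 := hcon x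
      rw [Valuation.comap_apply] at h1
      exact h1 ((_root_.map_ne_zero v).2 ((_root_.map_ne_zero _).2 hx))
    · rintro rfl
      exact ha0 (map_zero _)

theorem unrEv_C [Algebra.IsAlgebraic U K] (hW : SplitCov k U W) : UnrEv C K L :=
  fun v hv => (splitAt_placeC hL hW v hv).unrAt

end extend

section final

open Crest.Agent.R013.RR7_948 Crest.Agent.R013.Cell_408 Crest.Agent.R013.EE809
open Crest.Agent.R013.SSK_332 Crest.Agent.R013.TopE5_957
open Crest.Agent.R013.Red332 hiding od

variable {k₀ k C U W K L : Type*} [NontriviallyNormedField k₀] [CompleteSpace k₀]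
  [IsUltrametricDist k₀] [hk₀ : Fact (DiscNorm k₀)]
  [NormedField C] [IsUltrametricDist C] [NormedAlgebra k₀ C] [Algebra.IsAlgebraic k₀ C]
  [IsAlgClosed C] [CharZero C]
  [NormedField k] [Algebra k C] [Field U] [Algebra k U] [Field W] [Algebra U W]
  [Field K] [Field L] [Algebra C K] [Algebra k K] [Algebra U K] [IsScalarTower k U K]
  [IsScalarTower k C K] [Algebra.IsAlgebraic U K]
  [Algebra W L] [Algebra K L] [Algebra U L] [IsScalarTower U W L] [IsScalarTower U K L]
  (hL : IntermediateField.adjoin K (Set.range (algebraMap W L)) = ⊤)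

include hL

/-- **TOP-EMBED.** -/
theorem topEmbed (S : SSK k₀ C K) (hW : SplitCov k U W) (hC : ∀ c : k, ‖algebraMap k C c‖ ≤ ‖c‖)
    [FiniteDimensional U W] [IsGalois U W] [IsCyclic (W ≃ₐ[U] W)]
    (hP : ∀ N, 0 < N → AnnPow k₀ C N) :
    FiniteDimensional K L ∧ IsGalois K L ∧ IsCyclic (L ≃ₐ[K] L) ∧ UnrEv C K L ∧
      (∀ v : Valuation K ℝ≥0, (∀ c : C, v (algebraMap C K c) ≤ ‖c‖₊) → SplitAt v L) ∧
      CellSplit S L ∧ ∀ v, Inh_770.REnd.EtaleAt K L (S.nm v).v := by
  have h1 : FiniteDimensional K L := finiteDimensional_compositum (U := U) (W := W) hL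
  have h2 : IsGalois K L := isGalois_compositum (U := U) (W := W) hL
  have h3 : IsCyclic (L ≃ₐ[K] L) := isCyclic_compositum (U := U) (W := W) hL
  have h4 : UnrEv C K L := unrEv_C (C := C) hL hW
  have h5 : ∀ v : Valuation K ℝ≥0, (∀ c : C, v (algebraMap C K c) ≤ ‖c‖₊) → SplitAt v L :=
    fun v hv => splitAt_normC (C := C) hL hW hC v hv
  have h6 : ∀ v, SplitAt (S.nm v).v L := fun v => h5 _ fun c => ((S.nm v).hC c).le
  obtain ⟨h7, h8⟩ := cyclic_SE S (L := L) (hP _ finrank_pos) h6 h4
  exact ⟨h1, h2, h3, h4, h5, h7, h8⟩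

end final

end Crest.Agent.R013.TopE7_957
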