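import Mathlib
import Crest.Agent.R013.TopE7_957
import Crest.Agent.R013.Pow4_931
import Crest.Agent.R013.Inh5_770

/-!
# R013 / TopE8: TOP-EMBED in the form consumed by C-INH (`Spl` of `Inh5_770`) (helper957)

* `annPow` : 931's theorem on annuli;
* `spl_of` : `CellSplit` + completely split at the vertices ⟹ `Spl S L`;
* `spl_of_kummer`, `spl_of_cyclic`, `spl_of_top`.
-/

set_option autoImplicit false
set_option linter.unusedSectionVars false

namespace Crest.Agent.R013.TopE8_957

open scoped NNReal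
open Module
open Crest.NumberTheoryR.Sect
open Crest.Agent.R013.RR7_948 Crest.Agent.R013.Cell_408 Crest.Agent.R013.EE809
open Crest.Agent.R013.SSK_332 Crest.Agent.R013.TopE1_957 Crest.Agent.R013.TopE4_957
open Crest.Agent.R013.TopE5_957 Crest.Agent.R013.TopE7_957 Crest.Agent.R013.Unr10_957
open Crest.Agent.R013.Inh_770

variable {k C K : Type*} [NontriviallyNormedField k] [CompleteSpace k] [IsUltrametricDist k]
  [NormedField C] [IsUltrametricDist C] [NormedAlgebra k C] [Algebra.IsAlgebraic k C]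
  [IsAlgClosed C] [hk : Fact (DiscNorm k)] [Field K] [Algebra C K]

theorem annPow {N : ℕ} (hN : 0 < N) : AnnPow k C N := by
  intro c hc0 hc1 z w G H z' w' G' H' hG hH hH0 hz0 e fG fH e' hdiv hw hw'
  exact (Pow4_931.ann_pow hk.out hc0 hc1 hN hG hH hH0 hz0 e hdiv hw fG fH e' hw').1

variable {S : SSK k C K} {L : Type*} [Field L] [Algebra C L] [Algebra K L] [IsScalarTower C K L]

/-- **`Spl` from the cell embeddings and complete splitting at the vertices.** -/
theorem spl_of (h : CellSplit S L) (hs : ∀ v, SplitAt (S.nm v).v L) : Nonempty (Spl S L) := by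
  classical
  obtain ⟨hD, hA⟩ := h
  choose ψD hψD hψD' using hD
  choose ψ0 ψ1 h0 h1 h01 using hA
  have key : ∀ d : S.Dir, ∃ ψ : L →+* EE k C, (∀ x : K, ψ (algebraMap K L x) = S.em d x) ∧
      (∀ e, d = S.e0 e → ψ = ψ0 e) ∧ (∀ e, d = S.e1 e → ψ = ψ1 e) ∧
      ∀ hd : S.IsDisc d, ψ = ψD d hd := by
    intro d
    by_cases he0 : ∃ e, d = S.e0 e
    · obtain ⟨e, rfl⟩ := he0
      refine ⟨ψ0 e, h0 e, fun e' he' => ?_, fun e' he' => ?_, fun hd => absurd rfl (hd.1 e)⟩
      · have : (Sum.inl e : S.Ed ⊕ S.Ed) = Sum.inl e' := S.ends_inj he'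
        rw [Sum.inl.inj this]
      · have : (Sum.inl e : S.Ed ⊕ S.Ed) = Sum.inr e' := S.ends_inj he'
        simp at this
    by_cases he1 : ∃ e, d = S.e1 e
    · obtain ⟨e, rfl⟩ := he1
      refine ⟨ψ1 e, h1 e, fun e' he' => absurd ⟨e', he'⟩ he0, fun e' he' => ?_,
        fun hd => absurd rfl (hd.2 e)⟩
      have : (Sum.inr e : S.Ed ⊕ S.Ed) = Sum.inr e' := S.ends_inj he'
      rw [Sum.inr.inj this]
    have hd : S.IsDisc d := ⟨fun e he => he0 ⟨e, he⟩, fun e he => he1 ⟨e, he⟩⟩
    exact ⟨ψD d hd, hψD d hd, fun e he => absurd ⟨e, he⟩ he0, fun e he => absurd ⟨e, he⟩ he1,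
      fun _ => rfl⟩
  choose ps hps hps0 hps1 hpsD using key
  refine ⟨⟨ps, hps, fun e f => ?_, fun d hd f => ?_, fun d => ?_⟩⟩
  · rw [hps0 _ e rfl, hps1 _ e rfl]
    exact h01 e f
  · rw [hpsD d hd]
    exact hψD' d hd f
  · refine REnd.noInertia_of_dense _ fun f a ha => ?_
    have hw : (gnV.comap (ps d)).comap (algebraMap K L) = (S.nm d.1).v := by
      ext x
      rw [Valuation.comap_apply, Valuation.comap_apply, hps, Spl.em_gnV]
    exact hs d.1 _ hw f _ ((Valuation.pos_iff _).2 ha)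

variable [CharZero C]

/-- Kummer covers (several generators), completely split at the vertices, `N ∣ div h` -/
theorem spl_of_kummer [Algebra.IsAlgebraic K L] {N : ℕ} (hN : 0 < N) (T : Set L)
    (hT : IntermediateField.adjoin K T = ⊤)
    (h : ∀ y ∈ T, ∃ a : K, y ^ N = algebraMap K L a ∧ KSplit S N a) : Nonempty (Spl S L) := by
  refine spl_of (cellSplit_kummer S hN (annPow hN) T hT h) fun v => ?_
  have : NeZero (N : C) := ⟨Nat.cast_ne_zero.2 hN.ne'⟩
  obtain ⟨ζ, hζ⟩ := HasEnoughRootsOfUnity.exists_primitiveRoot C N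
  have hζ' : IsPrimitiveRoot (algebraMap C K ζ) N := hζ.map_of_injective (algebraMap C K).injective
  refine splitAt_of_powAt hN hζ' T hT fun y hy => ?_
  obtain ⟨a, ha, ha'⟩ := h y hy
  exact ⟨a, ha'.ne, ha, ha'.vert v⟩

/-- cyclic covers, completely split at the vertices, unramified everywhere -/
theorem spl_of_cyclic [FiniteDimensional K L] [IsGalois K L] [IsCyclic (L ≃ₐ[K] L)]
    (hs : ∀ v, SplitAt (S.nm v).v L) (hu : UnrEv C K L) : Nonempty (Spl S L) :=
  spl_of (cellSplit_of_cyclic S (annPow finrank_pos) hs hu) hs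

/-- the covers `L = W · K`, `W/U` a cyclic cover at a finite level, completely split at all norms
and places (`exists_split_cover`) -/
theorem spl_of_top (S : SSK k C K) {κ U W : Type*} [NormedField κ] [Algebra κ C] [Field U]
    [Algebra κ U] [Field W] [Algebra U W] [Algebra κ K] [Algebra U K] [IsScalarTower κ U K]
    [IsScalarTower κ C K] [Algebra.IsAlgebraic U K]
    [Algebra W L] [Algebra U L] [IsScalarTower U W L] [IsScalarTower U K L]
    (hL : IntermediateField.adjoin K (Set.range (algebraMap W L)) = ⊤)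
    (hW : SplitCov κ U W) (hC : ∀ c : κ, ‖algebraMap κ C c‖ ≤ ‖c‖)
    [FiniteDimensional U W] [IsGalois U W] [IsCyclic (W ≃ₐ[U] W)] : Nonempty (Spl S L) := by
  obtain ⟨h1, h2, h3, h4, h5, h6, -⟩ := topEmbed hL S hW hC fun N hN => annPow hN
  exact spl_of h6 fun v => h5 _ fun c => ((S.nm v).hC c).le

end Crest.Agent.R013.TopE8_957
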