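import Mathlib
import Crest.Agent.R013.Inh12_770
import Crest.Agent.R013.InhK2_275
import Crest.Agent.R013.Conn4_315
import Crest.Agent.R013.TopE8_957

/-!
# Row 13 (helper770): abelian covers, splitting over the cells

* `adjoin_kummer` : an abelian extension is generated by `N`-th roots;
* `spl_of_abelian` : abelian, split at the vertices and unramified => `Spl`;
* `discNorm_padic`.
-/

set_option autoImplicit false
set_option linter.all false
open WithZero
open scoped NNReal
open Crest.NumberTheoryR.Sect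
open Crest.Agent.R013.RR7_948 Crest.Agent.R013.Red332 Crest.Agent.R013.EE809
open Crest.Agent.R013.Cell_408 (FinDef DiscNorm)
open Crest.Agent.R013.SSK_332 Crest.Agent.R013.TopE1_957 Crest.Agent.R013.Unr10_957

namespace Crest.Agent.R013.Inh_770

theorem discNorm_padic (p : ℕ) [hp : Fact p.Prime] : DiscNorm ℚ_[p] := by
  have h0 : (0 : ℝ) < p := by exact_mod_cast hp.out.pos
  refine ⟨p, ?_, ?_, fun x hx => ?_⟩
  · rw [Padic.norm_p]; exact inv_pos.2 h0
  · exact Padic.norm_p_lt_one
  · refine ⟨x.valuation, ?_⟩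
    rw [Padic.norm_p, inv_zpow, ← zpow_neg]
    exact Padic.norm_eq_zpow_neg_valuation hx

instance factDiscNorm (p : ℕ) [hp : Fact p.Prime] : Fact (DiscNorm ℚ_[p]) := ⟨discNorm_padic p⟩

section Kummer

variable {K L : Type*} [Field K] [Field L] [Algebra K L] [FiniteDimensional K L] [IsGalois K L]

/-- for every character there is an eigenvector -/
theorem exists_eigen (χ : (L ≃ₐ[K] L) →* Kˣ) :
    ∃ y : L, y ≠ 0 ∧ ∀ σ : L ≃ₐ[K] L, σ y = algebraMap K L (χ σ : Kˣ) * y := by
  let f : (L ≃ₐ[K] L) → Lˣ := fun σ => Units.map (algebraMap K L : K →* L) (χ σ)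
  have hf : groupCohomology.IsMulCocycle₁ f := by
    intro g h
    apply Units.ext
    change algebraMap K L (χ (g * h) : Kˣ) =
      g (algebraMap K L (χ h : Kˣ)) * algebraMap K L (χ g : Kˣ)
    rw [AlgEquiv.commutes, map_mul, Units.val_mul, map_mul, mul_comm]
  obtain ⟨y, hy⟩ := groupCohomology.isMulCoboundary₁_of_isMulCocycle₁_of_aut_to_units f hf
  refine ⟨y, y.ne_zero, fun σ => ?_⟩
  have h1 := hy σ
  have h2 : (σ • y : Lˣ) = f σ * y := by rw [← h1, div_mul_cancel]
  have h3 := congrArg Units.val h2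
  exact h3

/-- an abelian extension is generated by roots of elements of `K` -/
theorem adjoin_kummer (hab : ∀ σ τ : L ≃ₐ[K] L, σ * τ = τ * σ) {ζ : K}
    (hζ : IsPrimitiveRoot ζ (Module.finrank K L)) :
    IntermediateField.adjoin K {y : L | ∃ a : K, a ≠ 0 ∧ y ^ Module.finrank K L =
      algebraMap K L a} = ⊤ := by
  classical
  set N := Module.finrank K L with hN
  have hN0 : 0 < N := Module.finrank_pos
  letI : CommGroup (L ≃ₐ[K] L) := { (inferInstance : Group (L ≃ₐ[K] L)) with mul_comm := hab }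
  set M := IntermediateField.adjoin K {y : L | ∃ a : K, a ≠ 0 ∧ y ^ N = algebraMap K L a} with hM
  have hcard : Nat.card (L ≃ₐ[K] L) = N := IsGalois.card_aut_eq_finrank K L
  have hexp : Monoid.exponent (L ≃ₐ[K] L) ∣ N := hcard ▸ Group.exponent_dvd_nat_card
  haveI : HasEnoughRootsOfUnity K (Monoid.exponent (L ≃ₐ[K] L)) := by
    obtain ⟨m, hm⟩ := hexp
    have hm' : IsPrimitiveRoot (ζ ^ m) (Monoid.exponent (L ≃ₐ[K] L)) :=
      hζ.pow hN0 (by rw [hm, mul_comm])
    haveI : NeZero (Monoid.exponent (L ≃ₐ[K] L)) := ⟨by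
      rintro h0
      rw [h0, zero_mul] at hm
      omega⟩
    exact ⟨⟨_, hm'⟩, inferInstance⟩
  have hbot : M.fixingSubgroup = ⊥ := by
    rw [eq_bot_iff]
    intro g hg
    rw [Subgroup.mem_bot]
    by_contra hne
    obtain ⟨χ, hχ⟩ := CommGroup.exists_apply_ne_one_of_hasEnoughRootsOfUnity (L ≃ₐ[K] L) K hne
    obtain ⟨y, hy0, hy⟩ := exists_eigen χ
    apply hχ
    have hyM : y ∈ M := by
      apply IntermediateField.subset_adjoin
      have h1 : ∀ σ : L ≃ₐ[K] L, σ (y ^ N) = y ^ N := by
        intro σ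
        rw [map_pow, hy, mul_pow, ← map_pow, ← Units.val_pow_eq_pow_val, ← map_pow]
        have h2 : σ ^ N = 1 := by
          obtain ⟨m, hm⟩ := hexp
          rw [hm, pow_mul, Monoid.pow_exponent_eq_one, one_pow]
        rw [h2, map_one, Units.val_one, map_one, one_mul]
      obtain ⟨a, ha⟩ := (IsGalois.mem_range_algebraMap_iff_fixed (F := K) (y ^ N)).2 h1
      refine ⟨a, ?_, ha.symm⟩
      rintro rfl
      rw [map_zero] at ha
      exact pow_ne_zero N hy0 ha.symm
    have h3 : g y = y := (IntermediateField.mem_fixingSubgroup_iff M g).1 hg y hyM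
    rw [hy] at h3
    have h4 : algebraMap K L (χ g : Kˣ) = 1 := by
      have := mul_right_cancel₀ hy0 (h3.trans (one_mul y).symm)
      exact this
    apply Units.ext
    apply (algebraMap K L).injective
    rw [h4, Units.val_one, map_one]
  have h5 := IsGalois.fixedField_fixingSubgroup M
  rw [hbot, IntermediateField.fixedField_bot] at h5
  exact h5.symm

end Kummer

section Split

variable {k : Type*} [NontriviallyNormedField k] [CompleteSpace k] [IsUltrametricDist k]
variable {C : Type*} [NormedField C] [IsUltrametricDist C] [NormedAlgebra k C]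
variable [Algebra.IsAlgebraic k C] [IsAlgClosed C] [hk : Fact (DiscNorm k)] [CharZero C]
variable {K : Type*} [Field K] [Algebra C K]
variable {L : Type*} [Field L] [Algebra C L] [Algebra K L] [IsScalarTower C K L]
  [FiniteDimensional K L] [IsGalois K L]

/-- **abelian covers, completely split at the vertices and unramified at the places** -/
theorem spl_of_abelian (S : SSK k C K) (hab : ∀ σ τ : L ≃ₐ[K] L, σ * τ = τ * σ)
    (hs : ∀ v, SplitAt (S.nm v).v L) (hu : UnrEv C K L) : Nonempty (Spl S L) := by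
  have hN0 : 0 < Module.finrank K L := Module.finrank_pos
  have : NeZero (Module.finrank K L : C) := ⟨Nat.cast_ne_zero.2 hN0.ne'⟩
  obtain ⟨ζ, hζ⟩ := HasEnoughRootsOfUnity.exists_primitiveRoot C (Module.finrank K L)
  have hζ' : IsPrimitiveRoot (algebraMap C K ζ) (Module.finrank K L) :=
    hζ.map_of_injective (algebraMap C K).injective
  refine TopE8_957.spl_of_kummer hN0 _ (adjoin_kummer hab hζ') ?_
  rintro y ⟨a, ha, hy⟩
  exact ⟨a, hy, TopE4_957.ksplit_of S hs hu ha hy⟩

end Split

end Crest.Agent.R013.Inh_770
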