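import Crest.Agent.R013.DEm2_719
import Crest.Agent.R013.EE4_809
import Crest.Agent.R013.SSDefs_332
import Crest.Agent.R013.RR12_948

/-!
# R013 / DEm3 (helper719), SS-DESC part D4, file 3: rationality, semistable structures

* `Rat` = coefficients in `L` for `BD`, `EE`; rational elements of `Frac BD`, of quotients of elements
  of `InD`, `InA c` (both ends at once).
* `SSK.Def`: a semistable structure is defined over a finite extension: Galois fixes the vertices, the
  ends, the constants `cc e`, and the embeddings `em d` are equivariant.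
-/

set_option autoImplicit false
set_option linter.all false

open Filter Topology

namespace Crest.Agent.R013.DEm_719

open scoped NNReal
open WithZero
open Crest.Agent.R013.Cell_408 Crest.Agent.R013.EE809 Crest.Agent.R013.Desc_372
  Crest.Agent.R013.RR7_948 Crest.Agent.R013.Red332 Crest.Agent.R013.SSK_332

section galois

variable {k C : Type*} [Field k] [Field C] [Algebra k C] [IsGalois k C]

theorem mem_of_fixed (L : IntermediateField k C) {x : C}
    (h : ∀ s : C ≃ₐ[k] C, (∀ c ∈ L, s c = c) → s x = x) : x ∈ L := by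
  have h3 : IntermediateField.fixedField L.fixingSubgroup = L :=
    InfiniteGalois.fixedField_fixingSubgroup L
  rw [← h3, IntermediateField.mem_fixedField_iff]
  intro t ht
  rw [IntermediateField.mem_fixingSubgroup_iff] at ht
  exact h t ht

theorem mem_iff_fixed (L : IntermediateField k C) {x : C} :
    x ∈ L ↔ ∀ s : C ≃ₐ[k] C, (∀ c ∈ L, s c = c) → s x = x :=
  ⟨fun hx s hs => hs x hx, mem_of_fixed L⟩

end galois

section rat

variable (k C : Type*) [NontriviallyNormedField k] [CompleteSpace k] [IsUltrametricDist k]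
  [NormedField C] [IsUltrametricDist C] [NormedAlgebra k C] [Algebra.IsAlgebraic k C]

/-- the action on `EE k C` -/
noncomputable def gaEE : GalAct k C (EE k C) where
  j := algebraMap C (EE k C)
  act := actEE
  act_j s c := by
    ext n
    rw [co_actEE, co_algebraMap, co_algebraMap]
    split_ifs
    · rfl
    · exact map_zero s
  fix := exists_fix_EE

variable {k C}

theorem gaEE_act (s : C ≃ₐ[k] C) (a : EE k C) : (gaEE k C).act s a = actEE s a := rfl

theorem gaBD_act (s : C ≃ₐ[k] C) (a : BD k C) : (gaBD k C).act s a = actBD s a := rfl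

theorem gaQ_act (Q : Type*) [Field Q] [Algebra (BD k C) Q] [IsFractionRing (BD k C) Q]
    (s : C ≃ₐ[k] C) (a : Q) : (gaQ k C Q).act s a = actQ Q s a := rfl

theorem rat_of_inL {L : IntermediateField k C} {a : EE k C} (h : InL L a) : (gaEE k C).Rat L a :=
  fun s hs => by ext n; exact hs _ (h n)

theorem rat_EE [IsGalois k C] {L : IntermediateField k C} {a : EE k C} :
    (gaEE k C).Rat L a ↔ InL L a :=
  ⟨fun h n => mem_of_fixed L fun s hs => congrArg (fun b : EE k C => b.co n) (h s hs), rat_of_inL⟩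

theorem rat_BD [IsGalois k C] {L : IntermediateField k C} {f : BD k C} :
    (gaBD k C).Rat L f ↔ ∀ n, PowerSeries.coeff n f.1 ∈ L := by
  constructor
  · intro h n
    refine mem_of_fixed L fun s hs => ?_
    have h1 : PowerSeries.coeff n ((actBD s f : BD k C) : PowerSeries C) =
        PowerSeries.coeff n f.1 := congrArg (fun b : BD k C => PowerSeries.coeff n b.1) (h s hs)
    rwa [coeff_actBD] at h1
  · intro h s hs
    apply Subtype.ext
    ext n
    rw [gaBD_act, coeff_actBD]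
    exact hs _ (h n)

/-- a rational element of the fraction field of `BD` is a quotient of rational elements -/
theorem rat_Q [IsGalois k C] (Q : Type*) [Field Q] [Algebra (BD k C) Q] [IsFractionRing (BD k C) Q]
    {L : IntermediateField k C} {x : Q} (hx : (gaQ k C Q).Rat L x) :
    ∃ g h : BD k C, h ≠ 0 ∧ (∀ n, PowerSeries.coeff n g.1 ∈ L) ∧ (∀ n, PowerSeries.coeff n h.1 ∈ L) ∧
      x * algebraMap (BD k C) Q h = algebraMap (BD k C) Q g := by
  obtain ⟨a, b, hb, hab⟩ := IsFractionRing.div_surjective (A := BD k C) x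
  have hinj : Function.Injective (algebraMap (BD k C) Q) := IsFractionRing.injective (BD k C) Q
  have hb0 : algebraMap (BD k C) Q b ≠ 0 :=
    (map_ne_zero_iff _ hinj).2 (nonZeroDivisors.ne_zero hb)
  obtain ⟨g', h', ⟨g, rfl⟩, ⟨h, rfl⟩, h0, hg, hh, e⟩ :=
    (gaQ k C Q).exists_frac L (algebraMap (BD k C) Q).range
      (fun a _ b _ ha hb => mul_ne_zero ha hb)
      (by
        rintro s - _ ⟨b, rfl⟩
        exact ⟨actBD s b, (actQ_algebraMap Q s b).symm⟩) hx
      (g := algebraMap (BD k C) Q a) (h := algebraMap (BD k C) Q b) ⟨a, rfl⟩ ⟨b, rfl⟩ hb0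
      (by rw [← hab, div_mul_cancel₀ _ hb0])
  refine ⟨g, h, fun h1 => h0 (by rw [h1, map_zero]), rat_BD.1 fun s hs => ?_,
    rat_BD.1 fun s hs => ?_, e⟩
  · apply hinj
    rw [gaBD_act, ← actQ_algebraMap]
    exact hg s hs
  · apply hinj
    rw [gaBD_act, ← actQ_algebraMap]
    exact hh s hs

/-! ### the rings of functions on the cells, inside `EE` -/

/-- series on the open disc -/
def subD (k C : Type*) [NontriviallyNormedField k] [CompleteSpace k]
    [NormedField C] [IsUltrametricDist C] [NormedAlgebra k C] : Subring (EE k C) where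
  carrier := {a | InD a}
  mul_mem' {a b} ha hb := by
    intro n hn
    rw [co_mul]
    convert tsum_zero with i
    by_cases hi : i < 0
    · rw [ha i hi, zero_mul]
    · rw [hb (n - i) (by omega), mul_zero]
  one_mem' := by
    intro n hn
    rw [co_one, if_neg hn.ne]
  add_mem' {a b} ha hb := by
    intro n hn
    rw [co_add, ha n hn, hb n hn, add_zero]
  zero_mem' := fun n hn => rfl
  neg_mem' {a} ha := by
    intro n hn
    rw [co_neg, ha n hn, neg_zero]

theorem mem_subD {a : EE k C} : a ∈ subD k C ↔ InD a := Iff.rfl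

/-- bounded series on the open annulus `‖c‖ < ‖T‖ < 1` -/
def subA (k : Type*) {C : Type*} [NontriviallyNormedField k] [CompleteSpace k]
    [NormedField C] [IsUltrametricDist C] [NormedAlgebra k C] (c : C) (hc : c ≠ 0) :
    Subring (EE k C) where
  carrier := {a | InA c a}
  mul_mem' {a b} ha hb := by
    obtain ⟨M, hM⟩ := ha
    obtain ⟨N, hN⟩ := hb
    exact ⟨M * N, Bdd.mul (norm_pos_iff.2 hc) hM hN⟩
  one_mem' := ⟨1, Bdd.one⟩
  add_mem' {a b} ha hb := by
    obtain ⟨M, hM⟩ := ha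
    obtain ⟨N, hN⟩ := hb
    exact ⟨max M N, Bdd.add (norm_pos_iff.2 hc) (Bdd.le hM (le_max_left _ _))
      (Bdd.le hN (le_max_right _ _))⟩
  zero_mem' := ⟨0, Bdd.zero le_rfl⟩
  neg_mem' {a} ha := by
    obtain ⟨M, hM⟩ := ha
    exact ⟨M, Bdd.neg hM⟩

theorem mem_subA {c : C} (hc : c ≠ 0) {a : EE k C} : a ∈ subA k c hc ↔ InA c a := Iff.rfl

theorem inD_act {a : EE k C} (h : InD a) (s : C ≃ₐ[k] C) : InD (actEE s a) :=
  fun n hn => by rw [co_actEE, h n hn, map_zero]

theorem inA_act {c : C} {a : EE k C} (h : InA c a) (s : C ≃ₐ[k] C) : InA c (actEE s a) := by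
  obtain ⟨M, hM⟩ := h
  exact ⟨M, fun n => by rw [co_actEE, norm_mapE]; exact hM n⟩

/-- more generally the annulus moves with `c` -/
theorem inA_act' {c : C} {a : EE k C} (h : InA c a) (s : C ≃ₐ[k] C) : InA (s c) (actEE s a) := by
  obtain ⟨M, hM⟩ := h
  exact ⟨M, fun n => by rw [co_actEE, norm_mapE, norm_mapE]; exact hM n⟩

theorem flip_act {c : C} {a b : EE k C} (h : Flip c a b) (s : C ≃ₐ[k] C) :
    Flip (s c) (actEE s a) (actEE s b) := fun n => by
  rw [co_actEE, h n, map_mul, map_zpow₀, co_actEE]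

theorem flip_mul {c : C} (hc : c ≠ 0) {a b a' b' : EE k C} (ha : Flip c a a') (hb : Flip c b b') :
    Flip c (a * b) (a' * b') := fun n => by
  rw [co_mul, co_mul, ← (Equiv.neg ℤ).tsum_eq, ← tsum_mul_right]
  refine tsum_congr fun i => ?_
  rw [Equiv.neg_apply, ha (-i), hb (n - -i), neg_neg]
  have e : -(n - -i) = -n - i := by ring
  rw [e]
  have e2 : c ^ i * c ^ (-n - i) = c ^ (-n) := by rw [← zpow_add₀ hc]; congr 1; ring
  rw [← e2]; ring

theorem flip_add {c : C} {a b a' b' : EE k C} (ha : Flip c a a') (hb : Flip c b b') :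
    Flip c (a + b) (a' + b') := fun n => by
  rw [co_add, co_add, ha n, hb n]; ring

theorem flip_neg {c : C} {a a' : EE k C} (ha : Flip c a a') : Flip c (-a) (-a') := fun n => by
  rw [co_neg, co_neg, ha n]; ring

theorem flip_one {c : C} : Flip c (1 : EE k C) 1 := fun n => by
  rw [co_one, co_one]
  by_cases h : n = 0
  · rw [h]; simp
  · rw [if_neg h, if_neg (by omega), zero_mul]

theorem flip_zero {c : C} : Flip c (0 : EE k C) 0 := fun n => by
  rw [co_zero, co_zero, zero_mul]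

theorem flip_unique {c : C} {a b b' : EE k C} (h : Flip c a b) (h' : Flip c a b') : b = b' := by
  ext n; rw [h n, h' n]

theorem flip_symm {c : C} (hc : c ≠ 0) {a b : EE k C} (h : Flip c a b) : Flip c b a := fun n => by
  rw [h (-n), neg_neg, mul_assoc, ← zpow_add₀ hc, add_neg_cancel, zpow_zero, mul_one]

theorem flip_eq_zero {c : C} (hc : c ≠ 0) {a b : EE k C} (h : Flip c a b) (h0 : b = 0) : a = 0 := by
  subst h0
  exact flip_unique (flip_symm hc h) flip_zero

section frac

variable [IsAlgClosed C] [IsGalois k C]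

theorem actEE_mem_subD (s : C ≃ₐ[k] C) {a : EE k C} (h : a ∈ subD k C) : actEE s a ∈ subD k C :=
  inD_act h s

/-- a rational quotient of series on the disc is a quotient of rational series on the disc -/
theorem rat_InD (hk : DiscNorm k) {L : IntermediateField k C} {x g h : EE k C} (hx : InL L x)
    (hg : InD g) (hh : InD h) (h0 : h ≠ 0) (e : x * h = g) :
    ∃ g' h' : EE k C, InD g' ∧ InD h' ∧ h' ≠ 0 ∧ InL L g' ∧ InL L h' ∧ x * h' = g' := by
  obtain ⟨g', h', h1, h2, h3, h4, h5, h6⟩ := (gaEE k C).exists_frac L (subD k C)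
    (fun a _ b _ ha hb => mul_ne_zero' hk ha hb) (fun s _ b hb => inD_act hb s) (rat_of_inL hx)
    (mem_subD.2 hg) (mem_subD.2 hh) h0 e
  exact ⟨g', h', h1, h2, h3, rat_EE.1 h4, rat_EE.1 h5, h6⟩

/-- the same on an annulus, for both ends at once -/
theorem rat_InA (hk : DiscNorm k) {L : IntermediateField k C} {c : C} (hc : c ≠ 0) (hcL : c ∈ L)
    {x y g h g' h' : EE k C} (hx : InL L x) (hy : InL L y) (hg : InA c g) (hh : InA c h)
    (fg : Flip c g g') (fh : Flip c h h') (h0 : h ≠ 0) (ex : x * h = g) (ey : y * h' = g') :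
    ∃ u v u' v' : EE k C, InA c u ∧ InA c v ∧ v ≠ 0 ∧ Flip c u u' ∧ Flip c v v' ∧ InL L u ∧
      InL L v ∧ x * v = u ∧ y * v' = u' := by
  let A2 : GalAct k C (EE k C × EE k C) :=
    { j := RingHom.prod (algebraMap C (EE k C)) (algebraMap C (EE k C))
      act := 
        { toFun := fun s => RingEquiv.prodCongr (actEE s) (actEE s)
          map_one' := by ext a <;> rfl
          map_mul' := fun s t => by ext a <;> rfl }
      act_j := fun s c => Prod.ext ((gaEE k C).act_j s c) ((gaEE k C).act_j s c)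
      fix := fun x => by
        obtain ⟨M1, i1, h1⟩ := exists_fix_EE x.1
        obtain ⟨M2, i2, h2⟩ := exists_fix_EE x.2
        refine ⟨M1 ⊔ M2, inferInstance, fun s hs => Prod.ext (h1 s fun c hc => ?_)
          (h2 s fun c hc => ?_)⟩
        · exact hs c ((le_sup_left : M1 ≤ M1 ⊔ M2) hc)
        · exact hs c ((le_sup_right : M2 ≤ M1 ⊔ M2) hc) }
  let B : Subring (EE k C × EE k C) :=
    { carrier := {p | InA c p.1 ∧ Flip c p.1 p.2}
      mul_mem' := fun {a b} ha hb => ⟨(subA k c hc).mul_mem ha.1 hb.1, flip_mul hc ha.2 hb.2⟩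
      one_mem' := ⟨(subA k c hc).one_mem, flip_one⟩
      add_mem' := fun {a b} ha hb => ⟨(subA k c hc).add_mem ha.1 hb.1, flip_add ha.2 hb.2⟩
      zero_mem' := ⟨(subA k c hc).zero_mem, flip_zero⟩
      neg_mem' := fun {a} ha => ⟨(subA k c hc).neg_mem ha.1, flip_neg ha.2⟩ }
  have hB0 : ∀ p ∈ B, p.1 = 0 → p = 0 := fun p hp h1 => Prod.ext h1
    (flip_unique hp.2 (by rw [h1]; exact flip_zero))
  obtain ⟨g2, h2, h3, h4, h5, h6, h7, h8⟩ := A2.exists_frac L B
    (fun a ha b hb ha0 hb0 hab => mul_ne_zero' hk (fun h1 => ha0 (hB0 a ha h1))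
      (fun h1 => hb0 (hB0 b hb h1)) (congrArg Prod.fst hab))
    (fun s hs b hb => by
      refine ⟨inA_act hb.1 s, ?_⟩
      have h1 := flip_act hb.2 s
      rwa [hs c hcL] at h1)
    (x := (x, y)) (g := (g, g')) (h := (h, h'))
    (fun s hs => Prod.ext (rat_of_inL hx s hs) (rat_of_inL hy s hs)) ⟨hg, fg⟩ ⟨hh, fh⟩
    (fun h1 => h0 (congrArg Prod.fst h1)) (Prod.ext ex ey)
  refine ⟨g2.1, h2.1, g2.2, h2.2, h3.1, h4.1, fun h1 => h5 (hB0 _ h4 h1), h3.2, h4.2, ?_, ?_, ?_, ?_⟩
  · exact rat_EE.1 fun s hs => congrArg Prod.fst (h6 s hs)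
  · exact rat_EE.1 fun s hs => congrArg Prod.fst (h7 s hs)
  · exact congrArg Prod.fst h8
  · exact congrArg Prod.snd h8

end frac

end rat

/-! ### semistable structures -/

section SSK

variable {k C K : Type*} [NontriviallyNormedField k] [CompleteSpace k] [IsUltrametricDist k]
    [NormedField C] [IsUltrametricDist C] [NormedAlgebra k C] [Algebra.IsAlgebraic k C]
    [Field K] [Algebra C K] (S : SSK k C K)

theorem em_algebraMap (d : S.Dir) (c : C) : S.em d (algebraMap C K c) = (gaEE k C).j c := by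
  ext n
  rw [S.em_C]
  exact (co_algebraMap c n).symm

variable {k₁ K₀ : Type*} [Field k₁] [Field K₀] [Algebra k k₁] [Algebra k₁ C] [IsScalarTower k k₁ C]
  [Algebra k₁ K₀] [Algebra K₀ K] [Algebra k₁ K] [IsScalarTower k₁ C K] [IsScalarTower k₁ K₀ K]

variable (k₁ K₀) in
/-- `S` is defined over `k'`, including the directions in `D` -/
structure Def [CE k₁ C K₀ K] (k' : IntermediateField k₁ C) (D : Set S.Dir) : Prop where
  e0_mem : ∀ e, S.e0 e ∈ D
  e1_mem : ∀ e, S.e1 e ∈ D
  vert : ∀ v, ∃ d ∈ D, d.1 = v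
  cc_mem : ∀ e, S.cc e ∈ k'
  eqAt : ∀ d ∈ D, EqAt k k₁ C K₀ K (gaEE k C) (S.em d) k'

variable {S}

theorem Def.mono [CE k₁ C K₀ K] {k' k'' : IntermediateField k₁ C} {D : Set S.Dir} (h : k' ≤ k'')
    (H : Def S k₁ K₀ k' D) : Def S k₁ K₀ k'' D where
  e0_mem := H.e0_mem
  e1_mem := H.e1_mem
  vert := H.vert
  cc_mem e := h (H.cc_mem e)
  eqAt d hd := (H.eqAt d hd).mono h

variable (S)

/-- there is a direction at each vertex -/
theorem exists_dir (v : S.V) : ∃ d : S.Dir, d.1 = v := by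
  obtain ⟨i, h1, h2, h3⟩ := S.ff v
  letI := i
  obtain ⟨P, -⟩ := RR12_948.exists_notMem (k := Ct C) (K := kap (S.nm v)) ∅
  exact ⟨⟨v, P⟩, rfl⟩

/-- **(DEF)** every semistable structure is defined over a finite extension -/
theorem exists_def [CE k₁ C K₀ K] (hfg : (⊤ : IntermediateField k₁ K₀).FG) (D : Set S.Dir)
    (hD : D.Finite) : ∃ (k' : IntermediateField k₁ C) (D' : Set S.Dir), FiniteDimensional k₁ k' ∧
      D'.Finite ∧ D ⊆ D' ∧ Def S k₁ K₀ k' D' := by
  classical
  haveI := S.fV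
  haveI := S.fEd
  choose dv hdv using exists_dir S
  let D' : Set S.Dir := D ∪ (Set.range S.e0 ∪ Set.range S.e1 ∪ Set.range dv)
  have hD' : D'.Finite := hD.union (((Set.finite_range _).union (Set.finite_range _)).union
    (Set.finite_range _))
  haveI : Finite D' := hD'
  obtain ⟨k₂, h1, h2⟩ := exists_equiv_finite (K₀ := K₀) (gaEE k C) (fun d : D' => S.em d)
    (fun d c => em_algebraMap S d c) hfg
  have halg : Algebra.IsAlgebraic k₁ C := CE.alg K₀ K
  let k₃ : IntermediateField k₁ C := IntermediateField.adjoin k₁ (Set.range S.cc)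
  have h3 : FiniteDimensional k₁ k₃ := IntermediateField.finiteDimensional_adjoin fun x _ =>
    (Algebra.IsAlgebraic.isAlgebraic x).isIntegral
  refine ⟨k₂ ⊔ k₃, D', inferInstance, hD', Set.subset_union_left, ?_, ?_, ?_, ?_, ?_⟩
  · exact fun e => Or.inr (Or.inl (Or.inl ⟨e, rfl⟩))
  · exact fun e => Or.inr (Or.inl (Or.inr ⟨e, rfl⟩))
  · exact fun v => ⟨dv v, Or.inr (Or.inr ⟨v, rfl⟩), hdv v⟩
  · intro e
    exact (le_sup_right : k₃ ≤ k₂ ⊔ k₃) (IntermediateField.subset_adjoin _ _ ⟨e, rfl⟩)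
  · intro d hd
    exact (h2 ⟨d, hd⟩).mono le_sup_left

variable {S}

section conseq

variable [CE k₁ C K₀ K] [Normal k₁ C] {k' : IntermediateField k₁ C} {D : Set S.Dir}

variable (k) in
/-- the restriction to `C` of an automorphism of `K/K₀`, as an automorphism over `k` -/
noncomputable def rs (g : K ≃ₐ[K₀] K) : C ≃ₐ[k] C :=
  (CE.res k₁ C K₀ K g).restrictScalars k

theorem rs_fix {g : K ≃ₐ[K₀] K} (hg : g ∈ CE.Gam K₀ K k') {c : C} (hc : c ∈ k') :
    rs k (k₁ := k₁) g c = c := by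
  apply (algebraMap C K).injective
  show algebraMap C K (CE.res k₁ C K₀ K g c) = _
  rw [CE.algebraMap_res, CE.mem_Gam.1 hg c hc]

theorem Def.em (H : Def S k₁ K₀ k' D) {g : K ≃ₐ[K₀] K} (hg : g ∈ CE.Gam K₀ K k') {d : S.Dir}
    (hd : d ∈ D) (f : K) : S.em d (g f) = actEE (rs k (k₁ := k₁) g) (S.em d f) :=
  (H.eqAt d hd).gam hg f

/-- Galois fixes the vertices -/
theorem Def.nm (H : Def S k₁ K₀ k' D) {g : K ≃ₐ[K₀] K} (hg : g ∈ CE.Gam K₀ K k') (v : S.V)
    (f : K) : (S.nm v).v (g f) = (S.nm v).v f := by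
  obtain ⟨d, hd, rfl⟩ := H.vert v
  have h1 : ((S.nm d.1).v (g f) : ℝ) = (S.nm d.1).v f := by
    rw [← S.em_gn d, ← S.em_gn d, H.em hg hd, gn_actEE]
  exact_mod_cast h1

/-- Galois fixes the constants of the annuli -/
theorem Def.cc (H : Def S k₁ K₀ k' D) {g : K ≃ₐ[K₀] K} (hg : g ∈ CE.Gam K₀ K k') (e : S.Ed) :
    rs k (k₁ := k₁) g (S.cc e) = S.cc e :=
  rs_fix hg (H.cc_mem e)

/-- Galois fixes the directions of `D` (the orders) -/
theorem Def.od (H : Def S k₁ K₀ k' D) {g : K ≃ₐ[K₀] K} (hg : g ∈ CE.Gam K₀ K k') {d : S.Dir}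
    (hd : d ∈ D) (f : K) : Red332.od (S.nm d.1) d.2 (g f) = Red332.od (S.nm d.1) d.2 f := by
  by_cases hf : f = 0
  · rw [hf, map_zero]
  · rw [← S.em_od d _ ((map_ne_zero g).2 hf), ← S.em_od d _ hf, H.em hg hd, od_actEE]

/-- Galois fixes the directions of `D` (the places of the residue fields) -/
theorem Def.place (H : Def S k₁ K₀ k' D) {g : K ≃ₐ[K₀] K} (hg : g ∈ CE.Gam K₀ K k') {d : S.Dir}
    (hd : d ∈ D) {f : K} (hf : (S.nm d.1).v f ≤ 1) :
    d.2.v (red (S.nm d.1) (g f)) = d.2.v (red (S.nm d.1) f) := by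
  have hf' : (S.nm d.1).v (g f) ≤ 1 := by rw [H.nm hg]; exact hf
  rcases hf.lt_or_eq with h | h
  · rw [(red_eq_zero_iff _ hf).2 h, (red_eq_zero_iff _ hf').2 (by rw [H.nm hg]; exact h)]
  · rw [v_red_of_one d.2 h, v_red_of_one d.2 (f := g f) (by rw [H.nm hg]; exact h), H.od hg hd]

/-- the functions of level `k'` have series with coefficients in `k'` -/
theorem Def.inL [IsGalois k C] (H : Def S k₁ K₀ k' D) {d : S.Dir} (hd : d ∈ D) {f : K}
    (hf : f ∈ CE.lev K₀ K k') : InL (k'.restrictScalars k) (S.em d f) :=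
  rat_EE.1 ((H.eqAt d hd).rat hf)

/-- discs: rational functions are quotients of rational series -/
theorem Def.disc [IsGalois k C] [IsAlgClosed C] (hk : DiscNorm k) (H : Def S k₁ K₀ k' D)
    {d : S.Dir} (hd : d ∈ D) (hdisc : S.IsDisc d) {f : K} (hf : f ∈ CE.lev K₀ K k') :
    ∃ g h : EE k C, h ≠ 0 ∧ InD g ∧ InD h ∧ InL (k'.restrictScalars k) g ∧
      InL (k'.restrictScalars k) h ∧ S.em d f * h = g := by
  obtain ⟨g, h, h0, h1, h2, h3⟩ := S.disc d hdisc.1 hdisc.2 f
  obtain ⟨g', h', h4, h5, h6, h7, h8, h9⟩ := rat_InD hk (H.inL hd hf) h1 h2 h0 h3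
  exact ⟨g', h', h6, h4, h5, h7, h8, h9⟩

/-- annuli: rational functions are quotients of rational series, on both ends -/
theorem Def.ann [IsGalois k C] [IsAlgClosed C] (hk : DiscNorm k) (H : Def S k₁ K₀ k' D)
    (e : S.Ed) {f : K} (hf : f ∈ CE.lev K₀ K k') :
    ∃ g h g' h' : EE k C, h ≠ 0 ∧ InA (S.cc e) g ∧ InA (S.cc e) h ∧ Flip (S.cc e) g g' ∧
      Flip (S.cc e) h h' ∧ InL (k'.restrictScalars k) g ∧ InL (k'.restrictScalars k) h ∧
      S.em (S.e0 e) f * h = g ∧ S.em (S.e1 e) f * h' = g' := by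
  obtain ⟨g, h, g', h', h0, h1, h2, h3, h4, h5, h6⟩ := S.ann e f
  obtain ⟨u, v, u', v', i1, i2, i3, i4, i5, i6, i7, i8, i9⟩ :=
    rat_InA hk (S.cc_ne e) (H.cc_mem e) (H.inL (H.e0_mem e) hf) (H.inL (H.e1_mem e) hf)
      h1 h2 h3 h4 h0 h5 h6
  exact ⟨u, v, u', v', i3, i1, i2, i4, i5, i6, i7, i8, i9⟩

end conseq

end SSK

end Crest.Agent.R013.DEm_719
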