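import Crest.Agent.R013.Desc2_372
import Crest.Agent.R013.DEm1_719

/-!
# R013 / DEm2 (helper719), SS-DESC part D4, file 2: descent and equivariance, abstract form

`GalAct k C E`: a ring `E` with constants `C` and a semilinear action of `C ≃ₐ[k] C`, every element
being fixed by the stabiliser of a finite extension of `k`.  (`BD k C`, its fraction fields, `EE k C`.)

* `exists_equiv`: a `C`-linear `ι : K →+* E`, `K = K₀ ⊗ C` with `K₀/k₁` finitely generated, is equivariant
  over a finite extension `k'` of `k₁`.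
* `Rat L x`: `x` is fixed by the stabiliser of `L`; `exists_frac`: a rational quotient is a quotient of
  rational elements.
-/

set_option autoImplicit false
set_option linter.all false

open Filter Topology

namespace Crest.Agent.R013.DEm_719

open Crest.Agent.R013.Cell_408 Crest.Agent.R013.EE809 Crest.Agent.R013.Desc_372

/-- a ring `E` with constants `C` and a semilinear, discretely continuous action of `C ≃ₐ[k] C` -/
structure GalAct (k C E : Type*) [Field k] [Field C] [Algebra k C] [CommRing E] where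
  /-- constants -/
  j : C →+* E
  /-- the action -/
  act : (C ≃ₐ[k] C) →* (E ≃+* E)
  act_j : ∀ s c, act s (j c) = j (s c)
  fix : ∀ x : E, ∃ L : IntermediateField k C, FiniteDimensional k L ∧
    ∀ s : C ≃ₐ[k] C, (∀ c ∈ L, s c = c) → act s x = x

section inst

variable (k C : Type*) [NontriviallyNormedField k] [CompleteSpace k] [IsUltrametricDist k]
  [NormedField C] [IsUltrametricDist C] [NormedAlgebra k C] [Algebra.IsAlgebraic k C]

/-- the action on `BD k C` -/
noncomputable def gaBD : GalAct k C (BD k C) where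
  j := algebraMap C (BD k C)
  act := actBD
  act_j := actBD_algebraMap
  fix := exists_fix_BD

/-- the action on a fraction field of `BD k C` -/
noncomputable def gaQ (Q : Type*) [Field Q] [Algebra (BD k C) Q] [IsFractionRing (BD k C) Q] :
    GalAct k C Q where
  j := (algebraMap (BD k C) Q).comp (algebraMap C (BD k C))
  act := actQ Q
  act_j s c := by
    rw [RingHom.comp_apply, actQ_algebraMap, actBD_algebraMap]; rfl
  fix := exists_fix_Q Q

theorem gaQ_j (Q : Type*) [Field Q] [Algebra C Q] [Algebra (BD k C) Q] [IsFractionRing (BD k C) Q]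
    [IsScalarTower C (BD k C) Q] (c : C) : (gaQ k C Q).j c = algebraMap C Q c :=
  (IsScalarTower.algebraMap_apply C (BD k C) Q c).symm

end inst

section core

variable {k C : Type*} [Field k] [Field C] [Algebra k C]
variable {E : Type*} [CommRing E] (A : GalAct k C E)

namespace GalAct

theorem act_mul (s t : C ≃ₐ[k] C) (x : E) : A.act (s * t) x = A.act s (A.act t x) := by
  rw [map_mul]; rfl

theorem act_one (x : E) : A.act 1 x = x := by
  rw [map_one]; rfl

/-- finitely many elements have a common field of definition -/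
theorem fix_finite {ι : Type*} [Finite ι] (x : ι → E) : ∃ L : IntermediateField k C,
    FiniteDimensional k L ∧ ∀ s : C ≃ₐ[k] C, (∀ c ∈ L, s c = c) → ∀ i, A.act s (x i) = x i := by
  classical
  choose L hL h using fun i => A.fix (x i)
  refine ⟨⨆ i, L i, IntermediateField.finiteDimensional_iSup_of_finite, fun s hs i => ?_⟩
  exact h i s fun c hc => hs c ((le_iSup L i) hc)

/-- `x` is rational over `L` -/
def Rat (L : IntermediateField k C) (x : E) : Prop :=
  ∀ s : C ≃ₐ[k] C, (∀ c ∈ L, s c = c) → A.act s x = x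

variable {A}

theorem Rat.mono {L L' : IntermediateField k C} (h : L ≤ L') {x : E} (hx : A.Rat L x) : A.Rat L' x :=
  fun s hs => hx s fun c hc => hs c (h hc)

theorem Rat.add {L : IntermediateField k C} {x y : E} (hx : A.Rat L x) (hy : A.Rat L y) :
    A.Rat L (x + y) := fun s hs => by rw [map_add, hx s hs, hy s hs]

theorem Rat.mul {L : IntermediateField k C} {x y : E} (hx : A.Rat L x) (hy : A.Rat L y) :
    A.Rat L (x * y) := fun s hs => by rw [map_mul, hx s hs, hy s hs]

theorem Rat.neg {L : IntermediateField k C} {x : E} (hx : A.Rat L x) :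
    A.Rat L (-x) := fun s hs => by rw [map_neg, hx s hs]

theorem Rat.zero (L : IntermediateField k C) : A.Rat L 0 := fun s hs => map_zero _

theorem Rat.one (L : IntermediateField k C) : A.Rat L 1 := fun s hs => map_one _

theorem Rat.const {L : IntermediateField k C} {c : C} (hc : c ∈ L) : A.Rat L (A.j c) :=
  fun s hs => by rw [A.act_j, hs c hc]

theorem Rat.of_mul {L : IntermediateField k C} {x y : E} (hy : A.Rat L y) (hxy : A.Rat L (x * y))
    (h0 : ∀ z, z * y = 0 → z = 0) : A.Rat L x := fun s hs => by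
  have h1 := hxy s hs
  rw [map_mul, hy s hs] at h1
  exact sub_eq_zero.1 (h0 _ (by rw [sub_mul, h1, sub_self]))

variable (A)

theorem exists_rat (x : E) : ∃ L : IntermediateField k C, FiniteDimensional k L ∧ A.Rat L x :=
  A.fix x

/-- the orbit of `h` under the stabiliser of `L` -/
def orb (L : IntermediateField k C) (h : E) : Set E :=
  {y | ∃ s : C ≃ₐ[k] C, (∀ c ∈ L, s c = c) ∧ A.act s h = y}

theorem orb_finite (L : IntermediateField k C) (h : E) : (A.orb L h).Finite := by
  obtain ⟨M, hM, hfix⟩ := A.fix h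
  have key : ∀ s t : C ≃ₐ[k] C, (∀ c ∈ M, s c = t c) → A.act s h = A.act t h := by
    intro s t hst
    have h1 : A.act (t⁻¹ * s) h = h := hfix _ fun c hc => by
      rw [AlgEquiv.mul_apply, hst c hc]
      exact t.symm_apply_apply c
    have h2 := congrArg (A.act t) h1
    rwa [← A.act_mul, mul_inv_cancel_left] at h2
  classical
  let F : (M →ₐ[k] C) → E := fun φ =>
    if hφ : ∃ s : C ≃ₐ[k] C, ∀ c : M, φ c = s c then A.act hφ.choose h else 0
  refine (Set.finite_range F).subset ?_
  rintro _ ⟨s, hs, rfl⟩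
  let φ : M →ₐ[k] C := (s : C →ₐ[k] C).comp M.val
  have hφ : ∃ s : C ≃ₐ[k] C, ∀ c : M, φ c = s c := ⟨s, fun c => rfl⟩
  refine ⟨φ, ?_⟩
  show (if hφ : ∃ s : C ≃ₐ[k] C, ∀ c : M, φ c = s c then A.act hφ.choose h else 0) = _
  rw [dif_pos hφ]
  exact key _ _ fun c hc => (hφ.choose_spec ⟨c, hc⟩).symm

theorem mem_orb (L : IntermediateField k C) (h : E) : h ∈ A.orb L h :=
  ⟨1, fun c _ => rfl, A.act_one h⟩

/-- a rational quotient of elements of `B` is a quotient of rational elements of `B` -/
theorem exists_frac (L : IntermediateField k C) (B : Subring E)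
    (hd : ∀ a ∈ B, ∀ b ∈ B, a ≠ 0 → b ≠ 0 → a * b ≠ 0)
    (hB : ∀ s : C ≃ₐ[k] C, (∀ c ∈ L, s c = c) → ∀ b ∈ B, A.act s b ∈ B) {x g h : E} (hx : A.Rat L x)
    (hg : g ∈ B) (hh : h ∈ B) (h0 : h ≠ 0) (e : x * h = g) :
    ∃ g' h' : E, g' ∈ B ∧ h' ∈ B ∧ h' ≠ 0 ∧ A.Rat L g' ∧ A.Rat L h' ∧ x * h' = g' := by
  classical
  have hnt : (1 : E) ≠ 0 := fun h1 => h0 (by rw [← mul_one h, h1, mul_zero])
  let O : Finset E := (A.orb_finite L h).toFinset
  have hO : ∀ y, y ∈ O ↔ y ∈ A.orb L h := fun y => Set.Finite.mem_toFinset _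
  have hhO : h ∈ O := (hO h).2 (A.mem_orb L h)
  have hOB : ∀ y ∈ O, y ∈ B := by
    intro y hy
    obtain ⟨s, hs, rfl⟩ := (hO y).1 hy
    exact hB s hs h hh
  have hO0 : ∀ y ∈ O, y ≠ 0 := by
    intro y hy
    obtain ⟨s, -, rfl⟩ := (hO y).1 hy
    exact (map_ne_zero_iff _ (A.act s).injective).2 h0
  have hprod : ∀ T : Finset E, (∀ y ∈ T, y ∈ B) → (∀ y ∈ T, y ≠ 0) → ∏ y ∈ T, y ≠ 0 := by
    intro T
    induction T using Finset.induction_on with
    | empty => intro _ _; rw [Finset.prod_empty]; exact hnt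
    | insert a T ha ih =>
      intro hTB hT
      rw [Finset.prod_insert ha]
      exact hd _ (hTB _ (Finset.mem_insert_self _ _)) _
        (Subring.prod_mem _ fun y hy => hTB _ (Finset.mem_insert_of_mem hy))
        (hT _ (Finset.mem_insert_self _ _))
        (ih (fun y hy => hTB _ (Finset.mem_insert_of_mem hy))
          fun y hy => hT _ (Finset.mem_insert_of_mem hy))
  have hrat : A.Rat L (∏ y ∈ O, y) := by
    intro s hs
    rw [map_prod]
    refine Finset.prod_bij (fun y _ => A.act s y) ?_ ?_ ?_ ?_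
    · intro y hy
      obtain ⟨t, ht, rfl⟩ := (hO y).1 hy
      refine (hO _).2 ⟨s * t, fun c hc => ?_, A.act_mul s t h⟩
      rw [AlgEquiv.mul_apply, ht c hc, hs c hc]
    · intro y _ z _ hyz
      exact (A.act s).injective hyz
    · intro y hy
      obtain ⟨t, ht, rfl⟩ := (hO y).1 hy
      refine ⟨A.act (s⁻¹ * t) h, (hO _).2 ⟨s⁻¹ * t, fun c hc => ?_, rfl⟩, ?_⟩
      · rw [AlgEquiv.mul_apply, ht c hc]
        conv_lhs => rw [← hs c hc]
        exact s.symm_apply_apply c
      · rw [← A.act_mul, mul_inv_cancel_left]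
    · intro y _; rfl
  have hfac : ∏ y ∈ O, y = h * ∏ y ∈ O.erase h, y := (Finset.mul_prod_erase O (fun y => y) hhO).symm
  refine ⟨g * ∏ y ∈ O.erase h, y, ∏ y ∈ O, y, ?_, ?_, hprod O hOB hO0, ?_, hrat, ?_⟩
  · exact mul_mem hg (Subring.prod_mem _ fun y hy => hOB y (Finset.mem_of_mem_erase hy))
  · exact Subring.prod_mem _ hOB
  · rw [← e, mul_assoc, ← hfac]
    exact hx.mul hrat
  · rw [hfac, ← mul_assoc, e]

end GalAct

end core

/-! ### equivariance of `ι : K → E` -/

section equiv

variable {k k₁ C : Type*} [Field k] [Field k₁] [Field C] [Algebra k k₁] [Algebra k C] [Algebra k₁ C]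
  [IsScalarTower k k₁ C]
variable {K₀ K : Type*} [Field K₀] [Field K] [Algebra k₁ K₀] [Algebra C K] [Algebra K₀ K]
  [Algebra k₁ K] [IsScalarTower k₁ C K] [IsScalarTower k₁ K₀ K]
variable {E : Type*} [CommRing E]

/-- enlarge the base of a finite level -/
theorem exists_level_tower (L : IntermediateField k C) [FiniteDimensional k L] :
    ∃ k' : IntermediateField k₁ C, FiniteDimensional k₁ k' ∧ ∀ c ∈ L, c ∈ k' := by
  obtain ⟨S, hS⟩ : L.FG := IntermediateField.essFiniteType_iff.1 inferInstance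
  refine ⟨IntermediateField.adjoin k₁ (S : Set C), ?_, ?_⟩
  · refine IntermediateField.finiteDimensional_adjoin fun x hx => ?_
    have hxL : x ∈ L := hS ▸ IntermediateField.subset_adjoin _ _ hx
    have h1 : IsIntegral k (⟨x, hxL⟩ : L) := IsIntegral.of_finite k _
    have h2 : IsIntegral k x := h1.map L.val
    exact h2.tower_top
  · have h1 : L ≤ (IntermediateField.adjoin k₁ (S : Set C)).restrictScalars k := by
      rw [← hS, IntermediateField.adjoin_le_iff]
      exact IntermediateField.subset_adjoin _ _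
    exact fun c hc => h1 hc

variable (k k₁ C K₀ K) in
/-- `ι` is equivariant over `k'` -/
def EqAt (A : GalAct k C E) (ι : K →+* E) [CE k₁ C K₀ K] (k' : IntermediateField k₁ C) : Prop :=
  ∀ s : C ≃ₐ[k₁] C, (∀ c ∈ k', s c = c) →
    ∀ f, A.act (s.restrictScalars k) (ι f) = ι (CE.lift k₁ C K₀ K s f)

theorem EqAt.mono {A : GalAct k C E} {ι : K →+* E} [CE k₁ C K₀ K] {k' k'' : IntermediateField k₁ C}
    (h : k' ≤ k'') (H : EqAt k k₁ C K₀ K A ι k') : EqAt k k₁ C K₀ K A ι k'' :=
  fun s hs => H s fun c hc => hs c (h hc)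

/-- criterion: equivariance on generators -/
theorem eqAt_of_gen (A : GalAct k C E) (ι : K →+* E) (hι : ∀ c, ι (algebraMap C K c) = A.j c)
    [CE k₁ C K₀ K] (S : Set K₀) (hS : IntermediateField.adjoin k₁ S = ⊤) (s : C ≃ₐ[k₁] C)
    (H : ∀ g ∈ S, A.act (s.restrictScalars k) (ι (algebraMap K₀ K g)) = ι (algebraMap K₀ K g))
    (f : K) : A.act (s.restrictScalars k) (ι f) = ι (CE.lift k₁ C K₀ K s f) := by
  set t : C ≃ₐ[k] C := s.restrictScalars k with ht
  have h1 : ∀ g : K₀, A.act t (ι (algebraMap K₀ K g)) = ι (algebraMap K₀ K g) := by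
    intro g
    have hg : g ∈ IntermediateField.adjoin k₁ S := by rw [hS]; trivial
    refine IntermediateField.adjoin_induction k₁ (p := fun g _ =>
      A.act t (ι (algebraMap K₀ K g)) = ι (algebraMap K₀ K g)) ?_ ?_ ?_ ?_ ?_ hg
    · exact H
    · intro c
      rw [← IsScalarTower.algebraMap_apply k₁ K₀ K, IsScalarTower.algebraMap_apply k₁ C K, hι,
        A.act_j]
      congr 1
      exact s.commutes c
    · intro x y _ _ hx hy
      rw [map_add, map_add, map_add, hx, hy]
    · intro x _ hx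
      by_cases hx0 : x = 0
      · rw [hx0, inv_zero, map_zero, map_zero, map_zero]
      · have e1 : ι (algebraMap K₀ K x) * ι (algebraMap K₀ K x⁻¹) = 1 := by
          rw [← map_mul, ← map_mul, mul_inv_cancel₀ hx0, map_one, map_one]
        have e2 := congrArg (A.act t) e1
        rw [map_mul, map_one, hx] at e2
        calc A.act t (ι (algebraMap K₀ K x⁻¹))
            = (ι (algebraMap K₀ K x) * ι (algebraMap K₀ K x⁻¹)) * A.act t (ι (algebraMap K₀ K x⁻¹)) := by
              rw [e1, one_mul]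
          _ = ι (algebraMap K₀ K x⁻¹) * (ι (algebraMap K₀ K x) * A.act t (ι (algebraMap K₀ K x⁻¹))) := by
              ring
          _ = ι (algebraMap K₀ K x⁻¹) := by rw [e2, mul_one]
    · intro x y _ _ hx hy
      rw [map_mul, map_mul, map_mul, hx, hy]
  have h2 := CE.ringHom_ext k₁ C K₀ K (φ := ((A.act t : E ≃+* E) : E →+* E).comp ι)
    (ψ := ι.comp (CE.lift k₁ C K₀ K s : K →+* K)) (fun c => by
      show A.act t (ι (algebraMap C K c)) = ι (CE.lift k₁ C K₀ K s (algebraMap C K c))
      rw [CE.lift_algebraMap, hι, hι, A.act_j]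
      rfl) (fun g => by
      show A.act t (ι (algebraMap K₀ K g)) = ι (CE.lift k₁ C K₀ K s (algebraMap K₀ K g))
      rw [AlgEquiv.commutes, h1])
  exact congrArg (fun φ : K →+* E => φ f) h2

/-- **equivariance of one embedding over a finite level** -/
theorem exists_equiv (A : GalAct k C E) (ι : K →+* E) (hι : ∀ c, ι (algebraMap C K c) = A.j c)
    [CE k₁ C K₀ K] (hfg : (⊤ : IntermediateField k₁ K₀).FG) :
    ∃ k' : IntermediateField k₁ C, FiniteDimensional k₁ k' ∧ EqAt k k₁ C K₀ K A ι k' := by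
  obtain ⟨S, hS⟩ := hfg
  obtain ⟨L, hL, h1⟩ := A.fix_finite (fun g : S => ι (algebraMap K₀ K g))
  obtain ⟨k', hk', h2⟩ := exists_level_tower (k₁ := k₁) L
  refine ⟨k', hk', fun s hs f => ?_⟩
  refine eqAt_of_gen A ι hι (S : Set K₀) hS s (fun g hg => ?_) f
  exact h1 (s.restrictScalars k) (fun c hc => hs c (h2 c hc)) ⟨g, hg⟩

/-- **equivariance of finitely many embeddings over a finite level** -/
theorem exists_equiv_finite {I : Type*} [Finite I] (A : GalAct k C E) (ι : I → K →+* E)
    (hι : ∀ i c, ι i (algebraMap C K c) = A.j c) [CE k₁ C K₀ K]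
    (hfg : (⊤ : IntermediateField k₁ K₀).FG) :
    ∃ k' : IntermediateField k₁ C, FiniteDimensional k₁ k' ∧ ∀ i, EqAt k k₁ C K₀ K A (ι i) k' := by
  choose k' hk' h1 using fun i => exists_equiv A (ι i) (hι i) hfg
  exact ⟨⨆ i, k' i, IntermediateField.finiteDimensional_iSup_of_finite,
    fun i => (h1 i).mono (le_iSup k' i)⟩

theorem lift_eq_of_mem_lev [CE k₁ C K₀ K] {k' : IntermediateField k₁ C} {s : C ≃ₐ[k₁] C}
    (hs : ∀ c ∈ k', s c = c) {f : K} (hf : f ∈ CE.lev K₀ K k') : CE.lift k₁ C K₀ K s f = f := by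
  have h1 : CE.lift k₁ C K₀ K s ∈ CE.Gam K₀ K k' := by
    rw [CE.mem_Gam]
    intro c hc
    rw [CE.lift_algebraMap, hs c hc]
  exact CE.mem_Gam'.1 h1 f hf

/-- elements of level `k'` are sent to elements fixed by the stabiliser of `k'` -/
theorem EqAt.fixed {A : GalAct k C E} {ι : K →+* E} [CE k₁ C K₀ K] {k' : IntermediateField k₁ C}
    (H : EqAt k k₁ C K₀ K A ι k') {f : K} (hf : f ∈ CE.lev K₀ K k') {s : C ≃ₐ[k₁] C}
    (hs : ∀ c ∈ k', s c = c) : A.act (s.restrictScalars k) (ι f) = ι f := by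
  rw [H s hs, lift_eq_of_mem_lev hs hf]

/-- elements of level `k'` are sent to `k'`-rational elements -/
theorem EqAt.rat {A : GalAct k C E} {ι : K →+* E} [CE k₁ C K₀ K] {k' : IntermediateField k₁ C}
    (H : EqAt k k₁ C K₀ K A ι k') {f : K} (hf : f ∈ CE.lev K₀ K k') :
    A.Rat (k'.restrictScalars k) (ι f) := by
  intro t ht
  let s : C ≃ₐ[k₁] C := AlgEquiv.ofRingEquiv (f := (t : C ≃+* C)) (fun x =>
    ht (algebraMap k₁ C x) (k'.algebraMap_mem x))
  have h1 : s.restrictScalars k = t := by ext c; rfl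
  rw [← h1]
  exact H.fixed hf ht

/-- equivariance for the automorphisms of `K/K₀` (372's `res`, `Gam`) -/
theorem EqAt.gam {A : GalAct k C E} {ι : K →+* E} [CE k₁ C K₀ K] [Normal k₁ C]
    {k' : IntermediateField k₁ C} (H : EqAt k k₁ C K₀ K A ι k') {g : K ≃ₐ[K₀] K}
    (hg : g ∈ CE.Gam K₀ K k') (f : K) :
    ι (g f) = A.act ((CE.res k₁ C K₀ K g).restrictScalars k) (ι f) := by
  have h1 := H (CE.res k₁ C K₀ K g) (fun c hc => by
    apply (algebraMap C K).injective
    rw [CE.algebraMap_res, CE.mem_Gam.1 hg c hc]) f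
  rw [CE.lift_res] at h1
  exact h1.symm

end equiv

/-- function fields are finitely generated -/
theorem fg_of_ratFunc (k₁ K₀ : Type*) [Field k₁] [Field K₀] [Algebra k₁ K₀]
    [Algebra (RatFunc k₁) K₀] [IsScalarTower k₁ (RatFunc k₁) K₀]
    [FiniteDimensional (RatFunc k₁) K₀] : (⊤ : IntermediateField k₁ K₀).FG := by
  classical
  obtain ⟨S, hS⟩ : (⊤ : Submodule (RatFunc k₁) K₀).FG := Module.Finite.fg_top
  refine ⟨insert (algebraMap (RatFunc k₁) K₀ RatFunc.X) S, ?_⟩
  rw [eq_top_iff]
  set F := IntermediateField.adjoin k₁ ((insert (algebraMap (RatFunc k₁) K₀ RatFunc.X) S : Finset K₀) : Set K₀)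
    with hF
  have h1 : ∀ r : RatFunc k₁, algebraMap (RatFunc k₁) K₀ r ∈ F := by
    intro r
    have hX : algebraMap (RatFunc k₁) K₀ RatFunc.X ∈ F :=
      IntermediateField.subset_adjoin _ _ (by simp)
    have hpol : ∀ P : Polynomial k₁, algebraMap (RatFunc k₁) K₀ (algebraMap (Polynomial k₁) (RatFunc k₁) P) ∈ F := by
      intro P
      induction P using Polynomial.induction_on' with
      | add p q hp hq => rw [map_add, map_add]; exact add_mem hp hq
      | monomial n c =>
        rw [← Polynomial.C_mul_X_pow_eq_monomial, map_mul, map_mul, map_pow, map_pow,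
          RatFunc.algebraMap_C, RatFunc.algebraMap_X]
        refine mul_mem ?_ (pow_mem hX n)
        have : (RatFunc.C c : RatFunc k₁) = algebraMap k₁ (RatFunc k₁) c := rfl
        rw [this, ← IsScalarTower.algebraMap_apply]
        exact F.algebraMap_mem c
    rw [← RatFunc.num_div_denom r, map_div₀]
    exact div_mem (hpol _) (hpol _)
  rintro x -
  have hx : x ∈ Submodule.span (RatFunc k₁) (S : Set K₀) := by rw [hS]; trivial
  refine Submodule.span_induction ?_ (zero_mem F) (fun a b _ _ ha hb => add_mem ha hb) ?_ hx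
  · intro y hy
    exact IntermediateField.subset_adjoin _ _ (by simp [hy])
  · intro r y _ hy
    rw [Algebra.smul_def]
    exact mul_mem (h1 r) hy

end Crest.Agent.R013.DEm_719
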