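import Mathlib
import Crest.Agent.R013.Red1_332
import Crest.Agent.R013.DEm1_719

/-!
# R013 / SS-DESC, part 6 (helper372): constants, residue fields, Frobenius

`C` algebraic over a locally compact `k`, `M` finite over `k`.
* `resSub M` : the residue field of `M` inside `Ct C`, finite; `exists_card`;
* `res_of_fixed` : automorphisms fixing `M` act trivially on `resSub M`;
* `exists_frob` : there is an automorphism of `C` over `M` inducing `y ↦ y ^ (p ^ a)` on `Ct C`.
-/

set_option autoImplicit false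
set_option linter.all false

namespace Crest.Agent.R013.Desc_372

open scoped NNReal Pointwise
open IsLocalRing Crest.Agent.R013.Red332 Crest.Agent.R013.DEm_719

/-- ring of integers of `C` -/
noncomputable abbrev OC (C : Type*) [NormedField C] [IsUltrametricDist C] : ValuationSubring C :=
  (NormedField.valuation (K := C)).valuationSubring

section basic

variable {C : Type*} [NormedField C] [IsUltrametricDist C]

theorem mem_OC {c : C} : c ∈ OC C ↔ ‖c‖₊ ≤ 1 := Iff.rfl

/-- the reduction map -/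
noncomputable def rcHom (C : Type*) [NormedField C] [IsUltrametricDist C] : OC C →+* Ct C :=
  residue (OC C)

theorem rcHom_apply (c : OC C) : rcHom C c = rc (c : C) := by
  rw [rc_def c.2]; rfl

theorem rcHom_surjective : Function.Surjective (rcHom C) := residue_surjective

theorem rc_eq_iff {a b : C} (ha : ‖a‖₊ ≤ 1) (hb : ‖b‖₊ ≤ 1) : rc a = rc b ↔ ‖a - b‖₊ < 1 := by
  have hab : ‖a - b‖₊ ≤ 1 := (OC C).sub_mem (x := a) (y := b) ha hb
  rw [← rc_eq_zero_iff hab]
  have h1 : rc a = rc (a - b) + rc b := by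
    rw [← rc_add hab hb, sub_add_cancel]
  rw [h1, add_eq_right]

theorem rc_pow {a : C} (ha : ‖a‖₊ ≤ 1) (n : ℕ) : rc (a ^ n) = rc a ^ n := by
  have h1 := rcHom_apply (C := C) ⟨a, ha⟩
  have h2 := rcHom_apply (C := C) (⟨a, ha⟩ ^ n)
  rw [map_pow, h1] at h2
  exact h2.symm

theorem norm_le_one_of_pow {a : C} {n : ℕ} (hn : n ≠ 0) (h : ‖a ^ n‖₊ ≤ 1) : ‖a‖₊ ≤ 1 := by
  rw [nnnorm_pow] at h
  by_contra h1
  exact absurd h (not_le.mpr (one_lt_pow₀ (not_le.mp h1) hn))

/-- powers are surjective on the residue field -/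
theorem exists_pow_Ct [IsAlgClosed C] {n : ℕ} (hn : n ≠ 0) (y : Ct C) : ∃ z : Ct C, z ^ n = y := by
  obtain ⟨c, hc, rfl⟩ := rc_surj y
  obtain ⟨d, hd⟩ := IsAlgClosed.exists_pow_nat_eq c (Nat.pos_of_ne_zero hn)
  have hd1 : ‖d‖₊ ≤ 1 := norm_le_one_of_pow hn (by rw [hd]; exact hc)
  exact ⟨rc d, by rw [← rc_pow hd1, hd]⟩

end basic

section resSub

variable {k C : Type*} [Field k] [NormedField C] [IsUltrametricDist C] [Algebra k C]

/-- the residue ring of an intermediate field -/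
noncomputable def resSub (M : IntermediateField k C) : Subring (Ct C) :=
  (M.toSubfield.toSubring.comap (OC C).subtype).map (rcHom C)

theorem mem_resSub {M : IntermediateField k C} {y : Ct C} :
    y ∈ resSub M ↔ ∃ c ∈ M, ‖c‖₊ ≤ 1 ∧ rc c = y := by
  constructor
  · rintro ⟨c, hc, rfl⟩
    exact ⟨c.1, hc, c.2, (rcHom_apply c).symm⟩
  · rintro ⟨c, hc, h1, rfl⟩
    exact ⟨⟨c, h1⟩, hc, rcHom_apply _⟩

theorem resSub_mono {M M' : IntermediateField k C} (h : M ≤ M') : resSub M ≤ resSub M' := by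
  intro y hy
  obtain ⟨c, hc, h1, h2⟩ := mem_resSub.mp hy
  exact mem_resSub.mpr ⟨c, h hc, h1, h2⟩

end resSub

section finite

variable {k C : Type*} [NontriviallyNormedField k] [LocallyCompactSpace k]
  [NormedField C] [IsUltrametricDist C] [NormedAlgebra k C]

theorem finite_resSub (M : IntermediateField k C) [FiniteDimensional k M] :
    Finite (resSub M) := by
  let N : Submodule k C := Subalgebra.toSubmodule M.toSubalgebra
  haveI : FiniteDimensional k N := inferInstanceAs (FiniteDimensional k M)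
  haveI : ProperSpace N := FiniteDimensional.proper k N
  obtain ⟨t, -, htf, ht⟩ := (isCompact_closedBall (0 : N) 1).finite_cover_balls
    (e := (1 : ℝ)) one_pos
  have h1 : (resSub M : Set (Ct C)) ⊆ (fun x : N => rc (x : C)) '' t := by
    intro y hy
    obtain ⟨c, hc, hc1, rfl⟩ := mem_resSub.mp hy
    have h2 : (⟨c, hc⟩ : N) ∈ Metric.closedBall (0 : N) 1 := by
      rw [mem_closedBall_zero_iff]
      exact hc1
    obtain ⟨x, hx⟩ := Set.mem_iUnion.mp (ht h2)
    obtain ⟨hxt, hx⟩ := Set.mem_iUnion.mp hx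
    have h3 : ‖c - (x : C)‖₊ < 1 := by
      have h4 := mem_ball_iff_norm.mp hx
      exact h4
    have h5 : ‖(x : C)‖₊ ≤ 1 := by
      have h6 : (x : C) = c - (c - (x : C)) := by ring
      have h7 : ‖c - (x : C)‖₊ ≤ 1 := h3.le
      rw [h6]
      exact (OC C).sub_mem (x := c) (y := c - (x : C)) hc1 h7
    exact ⟨x, hxt, ((rc_eq_iff hc1 h5).mpr h3).symm⟩
  exact ((htf.image _).subset h1).to_subtype

/-- the residue field of a finite extension is the set of solutions of `y ^ (p ^ a) = y` -/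
theorem exists_card (M : IntermediateField k C) [FiniteDimensional k M] (p : ℕ) [Fact p.Prime]
    [CharP (Ct C) p] : ∃ a : ℕ, a ≠ 0 ∧ ∀ y : Ct C, y ^ p ^ a = y ↔ y ∈ resSub M := by
  classical
  haveI := finite_resSub M
  letI : Field (resSub M) := (Finite.isField_of_domain (resSub M)).toField
  haveI : Fintype (resSub M) := Fintype.ofFinite _
  haveI : CharP (resSub M) p :=
    (RingHom.charP_iff (resSub M).subtype Subtype.val_injective p).mpr inferInstance
  obtain ⟨n, hn0, hn⟩ := FiniteField.card (resSub M) p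
  refine ⟨n, n.ne_zero, ?_⟩
  have hsub : ∀ y ∈ resSub M, y ^ p ^ (n : ℕ) = y := by
    intro y hy
    have h1 := FiniteField.pow_card (⟨y, hy⟩ : resSub M)
    rw [hn] at h1
    exact congrArg Subtype.val h1
  set q := p ^ (n : ℕ) with hq
  have hq1 : 1 < q := Nat.one_lt_pow n.ne_zero hn0.one_lt
  let P : Polynomial (Ct C) := Polynomial.X ^ q - Polynomial.X
  have hP0 : P ≠ 0 := FiniteField.X_pow_card_sub_X_ne_zero (Ct C) hq1
  have hPd : P.natDegree = q := FiniteField.X_pow_card_sub_X_natDegree_eq (Ct C) hq1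
  have hroot : ∀ y : Ct C, y ∈ P.roots.toFinset ↔ y ^ q = y := by
    intro y
    rw [Multiset.mem_toFinset, Polynomial.mem_roots hP0, Polynomial.IsRoot.def]
    simp [P, sub_eq_zero]
  have hle : P.roots.toFinset.card ≤ q :=
    (Multiset.toFinset_card_le _).trans ((Polynomial.card_roots' P).trans hPd.le)
  let R : Finset (Ct C) := Finset.univ.map ⟨((↑) : resSub M → Ct C), Subtype.val_injective⟩
  have hR : ∀ y, y ∈ R ↔ y ∈ resSub M := by
    intro y
    simp [R]
  have hRc : R.card = q := by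
    rw [Finset.card_map, Finset.card_univ, hn]
  have hRs : R ⊆ P.roots.toFinset := by
    intro y hy
    exact (hroot y).mpr (hsub y ((hR y).mp hy))
  have hEq : R = P.roots.toFinset := Finset.eq_of_subset_of_card_le hRs (by rw [hRc]; exact hle)
  intro y
  rw [← hroot y, ← hEq, hR y]

end finite

section gal

variable {k C : Type*} [NontriviallyNormedField k] [CompleteSpace k] [IsUltrametricDist k]
  [NormedField C] [IsUltrametricDist C] [NormedAlgebra k C] [Algebra.IsAlgebraic k C]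

theorem nnnorm_mapE (s : C ≃ₐ[k] C) (x : C) : ‖s x‖₊ = ‖x‖₊ := NNReal.eq (norm_mapE s x)

/-- automorphisms fixing `M` fix the residue field of `M` -/
theorem rc_of_fixed {M : IntermediateField k C} {s : C ≃ₐ[k] C} (hs : ∀ c ∈ M, s c = c) {c : C}
    (hc : ‖c‖₊ ≤ 1) (h : rc c ∈ resSub M) : rc (s c) = rc c := by
  obtain ⟨d, hd, hd1, hdc⟩ := mem_resSub.mp h
  rw [← hdc]
  rw [rc_eq_iff (by rw [nnnorm_mapE]; exact hc) hd1]
  have h1 : s c - d = s (c - d) := by rw [map_sub, hs d hd]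
  rw [h1, nnnorm_mapE]
  exact (rc_eq_iff hc hd1).mp hdc.symm

/-- the integers of `M` inside the integers of `C` -/
noncomputable def OM (M : IntermediateField k C) : Subring (OC C) := M.toSubfield.toSubring.comap (OC C).subtype

theorem mem_OM {M : IntermediateField k C} {x : OC C} : x ∈ OM M ↔ (x : C) ∈ M := Iff.rfl

/-- action of the Galois group on the integers -/
@[reducible] noncomputable def actOC (M : IntermediateField k C) : MulSemiringAction (C ≃ₐ[M] C) (OC C) where
  smul g b := ⟨g b, by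
    have h1 : ‖g (b : C)‖₊ = ‖(b : C)‖₊ := nnnorm_mapE (g.restrictScalars k) (b : C)
    have h2 : ‖(b : C)‖₊ ≤ 1 := b.2
    exact mem_OC.mpr (h1.le.trans h2)⟩
  one_smul _ := rfl
  mul_smul _ _ _ := rfl
  smul_zero g := Subtype.ext (map_zero g)
  smul_add g a b := Subtype.ext (map_add g (a : C) (b : C))
  smul_one g := Subtype.ext (map_one g)
  smul_mul g a b := Subtype.ext (map_mul g (a : C) (b : C))

variable [IsGalois k C] [IsAlgClosed C] [LocallyCompactSpace k]

/-- **Frobenius**: some automorphism over `M` induces the power `p ^ a` on the residue field -/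
theorem exists_frob_aux (M : IntermediateField k C) (p : ℕ) [Fact p.Prime] [CharP (Ct C) p]
    (a : ℕ) (ha : ∀ y ∈ resSub M, y ^ p ^ a = y) :
    ∃ s : C ≃ₐ[M] C, ∀ c : C, ‖c‖₊ ≤ 1 → rc (s c) = rc c ^ p ^ a := by
  classical
  have hp : p.Prime := Fact.out
  letI := actOC M
  letI : TopologicalSpace (OC C) := ⊥
  haveI : DiscreteTopology (OC C) := ⟨rfl⟩
  haveI : IsGalois M C := inferInstance
  haveI : Algebra.IsIntegral M C := inferInstance
  have hcoe : ∀ (g : C ≃ₐ[M] C) (b : OC C), ((g • b : OC C) : C) = g (b : C) := fun _ _ => rfl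
  haveI : ContinuousSMul (C ≃ₐ[M] C) (OC C) := by
    rw [continuousSMul_iff_stabilizer_isOpen]
    intro x
    have h := stabilizer_isOpen_of_isIntegral (K := M) (x : C)
    convert h using 1
    ext g
    simp only [SetLike.mem_coe, MulAction.mem_stabilizer_iff]
    constructor
    · intro hg
      exact congrArg (fun y : OC C => (y : C)) hg
    · intro hg
      exact Subtype.ext hg
  haveI : SMulCommClass (C ≃ₐ[M] C) (OM M) (OC C) := by
    constructor
    intro g a b
    rw [Algebra.smul_def, Algebra.smul_def, smul_mul']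
    congr 1
    apply Subtype.ext
    rw [hcoe]
    exact AlgEquiv.commutes g (⟨((a : OC C) : C), a.2⟩ : M)
  haveI : Algebra.IsInvariant (OM M) (OC C) (C ≃ₐ[M] C) := by
    constructor
    intro b hb
    have h1 : ∀ g : C ≃ₐ[M] C, g (b : C) = b := fun g =>
      congrArg (fun y : OC C => (y : C)) (hb g)
    have h2 : (b : C) ∈ (⊥ : IntermediateField M C) := by
      rw [← InfiniteGalois.fixedField_bot (k := M) (K := C)]
      intro g
      exact h1 g
    rw [IntermediateField.mem_bot] at h2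
    obtain ⟨a, ha⟩ := h2
    exact ⟨⟨b, mem_OM.mpr (by rw [← ha]; exact a.2)⟩, rfl⟩
  let Q : Ideal (OC C) := maximalIdeal (OC C)
  haveI : Q.IsPrime := inferInstanceAs (maximalIdeal (OC C)).IsPrime
  let P : Ideal (OM M) := Q.under (OM M)
  have hpow : ∀ x y : (OC C ⧸ Q), (x + y) ^ p ^ a = x ^ p ^ a + y ^ p ^ a := by
    intro x y
    exact add_pow_char_pow (R := Ct C) x y p a
  let f0 : (OC C ⧸ Q) →+* (OC C ⧸ Q) :=
    { toFun := fun x => x ^ p ^ a
      map_one' := one_pow _
      map_mul' := fun x y => mul_pow x y _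
      map_zero' := zero_pow (pow_ne_zero _ hp.ne_zero)
      map_add' := hpow }
  have hf0 : ∀ x, f0 x = x ^ p ^ a := fun x => rfl
  have hbij : Function.Bijective f0 := by
    constructor
    · exact (RingHom.injective (R := Ct C) (S := Ct C) f0)
    · intro y
      obtain ⟨z, hz⟩ := exists_pow_Ct (C := C) (n := p ^ a) (pow_ne_zero _ hp.ne_zero) y
      exact ⟨z, hz⟩
  let f : (OC C ⧸ Q) ≃+* (OC C ⧸ Q) := RingEquiv.ofBijective f0 hbij
  have hcomm : ∀ x : OM M ⧸ P, f (algebraMap (OM M ⧸ P) (OC C ⧸ Q) x) =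
      algebraMap (OM M ⧸ P) (OC C ⧸ Q) x := by
    intro x
    obtain ⟨b, rfl⟩ := Ideal.Quotient.mk_surjective x
    have h1 : algebraMap (OM M ⧸ P) (OC C ⧸ Q) (Ideal.Quotient.mk P b) =
        Ideal.Quotient.mk Q (b : OC C) := rfl
    rw [h1]
    show (Ideal.Quotient.mk Q (b : OC C)) ^ p ^ a = Ideal.Quotient.mk Q (b : OC C)
    refine ha (rcHom C (b : OC C)) ?_
    exact ⟨b, b.2, rfl⟩
  let σ : (OC C ⧸ Q) ≃ₐ[OM M ⧸ P] (OC C ⧸ Q) := AlgEquiv.ofRingEquiv (f := f) hcomm
  obtain ⟨⟨g, hg⟩, hgσ⟩ := Ideal.Quotient.stabilizerHom_surjective_of_profinite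
    (G := C ≃ₐ[M] C) P Q σ
  refine ⟨g, fun c hc => ?_⟩
  have h1 : Ideal.Quotient.stabilizerHom Q P (C ≃ₐ[M] C) ⟨g, hg⟩
      (Ideal.Quotient.mk Q (⟨c, hc⟩ : OC C)) = (Ideal.Quotient.mk Q (⟨c, hc⟩ : OC C)) ^ p ^ a := by
    rw [hgσ]
    rfl
  have h2 : Ideal.Quotient.stabilizerHom Q P (C ≃ₐ[M] C) ⟨g, hg⟩
      (Ideal.Quotient.mk Q (⟨c, hc⟩ : OC C)) = Ideal.Quotient.mk Q (g • (⟨c, hc⟩ : OC C)) := rfl
  rw [h2] at h1
  have h3 := rcHom_apply (C := C) (g • (⟨c, hc⟩ : OC C))
  have h4 := rcHom_apply (C := C) (⟨c, hc⟩ : OC C)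
  rw [hcoe] at h3
  have h5 : rcHom C (g • (⟨c, hc⟩ : OC C)) = rcHom C (⟨c, hc⟩ : OC C) ^ p ^ a := h1
  rw [h3, h4] at h5
  exact h5

/-- **constants**: residue field and Frobenius of a finite extension -/
theorem exists_frob (M : IntermediateField k C) [FiniteDimensional k M] (p : ℕ) [Fact p.Prime]
    [CharP (Ct C) p] : ∃ a : ℕ, a ≠ 0 ∧
      (∀ s : C ≃ₐ[k] C, (∀ c ∈ M, s c = c) → ∀ c : C, ‖c‖₊ ≤ 1 → rc c ^ p ^ a = rc c →
        rc (s c) = rc c) ∧
      ∃ s : C ≃ₐ[k] C, (∀ c ∈ M, s c = c) ∧ ∀ c : C, ‖c‖₊ ≤ 1 → rc (s c) = rc c ^ p ^ a := by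
  obtain ⟨a, ha0, ha⟩ := exists_card M p
  refine ⟨a, ha0, fun s hs c hc h => rc_of_fixed hs hc ((ha _).mp h), ?_⟩
  obtain ⟨s, hs⟩ := exists_frob_aux M p a fun y hy => (ha y).mpr hy
  exact ⟨s.restrictScalars k, fun c hc => s.commutes ⟨c, hc⟩, hs⟩

end gal

end Crest.Agent.R013.Desc_372
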