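import Mathlib
import Crest.Agent.R013.Desc6_372
import Crest.Agent.R013.Desc2_372
import Crest.Agent.R013.DEm2_719

/-!
# R013 / SS-DESC, part 7 (helper372): residue fields descend

`w : Nm C K` with `kap w` finitely generated over `Ct C`: for `k'` large `kap w` is spanned over
`Ct C` by the reductions of the functions of `lev K₀ K k'`.
-/

set_option autoImplicit false
set_option linter.all false

namespace Crest.Agent.R013.Desc_372

open scoped NNReal
open IsLocalRing Crest.Agent.R013.Red332 Crest.Agent.R013.DEm_719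

section abstract

/-- a field generated by a subfield and integral constants is spanned by the subfield -/
theorem span_top_of_gen {κ L : Type*} [Field κ] [Field L] [Algebra κ L] (F : Subfield L)
    (hint : ∀ y : κ, IsIntegral ℤ y) (T : Set L) (hT : IntermediateField.adjoin κ T = ⊤)
    (hTF : T ⊆ F) : Submodule.span κ (F : Set L) = ⊤ := by
  let A : Subalgebra κ L := Algebra.adjoin κ (F : Set L)
  have hFA : ∀ x ∈ F, x ∈ A := fun x hx => Algebra.subset_adjoin hx
  have hI : ∀ x ∈ A, IsIntegral F x := by
    intro x hx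
    induction hx using Algebra.adjoin_induction with
    | mem x hx => exact isIntegral_algebraMap (R := F) (x := ⟨x, hx⟩)
    | algebraMap r =>
      have h1 : IsIntegral ℤ (algebraMap κ L r) := (hint r).map (algebraMap κ L).toIntAlgHom
      exact h1.tower_top
    | add x y _ _ hx hy => exact hx.add hy
    | mul x y _ _ hx hy => exact hx.mul hy
  let A' : Subalgebra F L :=
    { A.toSubring.toSubsemiring with
      algebraMap_mem' := fun r => hFA r.1 r.2 }
  have hinv : ∀ x ∈ A, x⁻¹ ∈ A := by
    intro x hx
    have h1 : x ∈ A' := hx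
    exact (hI x hx).inv_mem h1
  have htop : (⊤ : IntermediateField κ L) ≤ A.toIntermediateField hinv := by
    rw [← hT, IntermediateField.adjoin_le_iff]
    exact fun x hx => hFA x (hTF hx)
  have hspan : Subalgebra.toSubmodule A = Submodule.span κ (F : Set L) := by
    have h1 := Algebra.adjoin_eq_span κ (F : Set L)
    have h2 : (Submonoid.closure (F : Set L) : Set L) = (F : Set L) := by
      apply le_antisymm
      · have h3 : Submonoid.closure (F : Set L) ≤ F.toSubring.toSubmonoid :=
          Submonoid.closure_le.mpr le_rfl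
        exact h3
      · exact Submonoid.subset_closure
    rw [h2] at h1
    exact h1
  rw [← hspan, eq_top_iff]
  intro x _
  exact htop (x := x) trivial

end abstract

section redSub

variable {C K : Type*} [NormedField C] [IsUltrametricDist C] [Field K] [Algebra C K]

/-- the residue field of a subfield, inside the residue field -/
noncomputable def redSub (w : Nm C K) (F : Subfield K) : Subfield (kap w) where
  carrier := {y | ∃ f ∈ F, w.v f ≤ 1 ∧ red w f = y}
  mul_mem' := by
    rintro _ _ ⟨f, hf, hf1, rfl⟩ ⟨g, hg, hg1, rfl⟩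
    exact ⟨f * g, F.mul_mem hf hg, by rw [map_mul]; exact mul_le_one' hf1 hg1,
      red_mul w hf1 hg1⟩
  one_mem' := ⟨1, F.one_mem, by simp, red_one w⟩
  add_mem' := by
    rintro _ _ ⟨f, hf, hf1, rfl⟩ ⟨g, hg, hg1, rfl⟩
    exact ⟨f + g, F.add_mem hf hg, (w.v.map_add f g).trans (max_le hf1 hg1),
      red_add w hf1 hg1⟩
  zero_mem' := ⟨0, F.zero_mem, by simp, red_zero w⟩
  neg_mem' := by
    rintro _ ⟨f, hf, hf1, rfl⟩
    exact ⟨-f, F.neg_mem hf, by rw [Valuation.map_neg]; exact hf1, red_neg w f⟩
  inv_mem' := by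
    rintro _ ⟨f, hf, hf1, rfl⟩
    rcases eq_or_lt_of_le hf1 with h1 | h1
    · exact ⟨f⁻¹, F.inv_mem hf, by rw [map_inv₀, h1, inv_one], red_inv w h1⟩
    · have h2 : red w f = 0 := (red_eq_zero_iff w hf1).mpr h1
      rw [h2, inv_zero]
      exact ⟨0, F.zero_mem, by simp, red_zero w⟩

theorem mem_redSub {w : Nm C K} {F : Subfield K} {y : kap w} :
    y ∈ redSub w F ↔ ∃ f ∈ F, w.v f ≤ 1 ∧ red w f = y := Iff.rfl

end redSub

section integral

variable {k C : Type*} [NontriviallyNormedField k] [LocallyCompactSpace k]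
  [NormedField C] [IsUltrametricDist C] [NormedAlgebra k C] [Algebra.IsAlgebraic k C]

variable (k) in
include k in
/-- the residue field of `C` is integral over `ℤ` -/
theorem isIntegral_Ct (y : Ct C) : IsIntegral ℤ y := by
  obtain ⟨c, hc, rfl⟩ := rc_surj y
  let M : IntermediateField k C := IntermediateField.adjoin k {c}
  haveI : FiniteDimensional k M :=
    IntermediateField.adjoin.finiteDimensional (Algebra.IsAlgebraic.isAlgebraic c).isIntegral
  haveI := finite_resSub M
  have h1 : rc c ∈ resSub M :=
    mem_resSub.mpr ⟨c, IntermediateField.mem_adjoin_simple_self k c, hc, rfl⟩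
  have h2 : IsIntegral ℤ (⟨rc c, h1⟩ : resSub M) := Algebra.IsIntegral.isIntegral _
  exact h2.map (resSub M).subtype.toIntAlgHom

end integral

section main

variable {k C K : Type*} [NontriviallyNormedField k] [LocallyCompactSpace k]
  [NormedField C] [IsUltrametricDist C] [NormedAlgebra k C] [Algebra.IsAlgebraic k C]
  [Field K] [Algebra C K]
variable {k₁ K₀ : Type*} [Field k₁] [Field K₀] [Algebra k₁ C]
  [Algebra k₁ K₀] [Algebra K₀ K] [Algebra k₁ K] [IsScalarTower k₁ C K] [IsScalarTower k₁ K₀ K]

variable (k k₁ K₀) in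
include k in
/-- **(SPAN)** the residue field is spanned by reductions of functions of a finite level -/
theorem exists_span [CE k₁ C K₀ K] (w : Nm C K)
    (hfg : (⊤ : IntermediateField (Ct C) (kap w)).FG) :
    ∃ k' : IntermediateField k₁ C, FiniteDimensional k₁ k' ∧ ∀ k'', k' ≤ k'' →
      Submodule.span (Ct C) {y : kap w | ∃ f ∈ CE.lev K₀ K k'', w.v f ≤ 1 ∧ red w f = y} = ⊤ := by
  obtain ⟨T, hT⟩ := hfg
  choose g hg1 hg2 using fun y : kap w => red_surj w y
  obtain ⟨k', hk, hk'⟩ := CE.exists_lev (k := k₁) (C := C) (K₀ := K₀) (K := K) (g '' (T : Set (kap w)))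
    (T.finite_toSet.image g)
  refine ⟨k', hk, fun k'' hkk => ?_⟩
  exact span_top_of_gen (redSub w (CE.lev K₀ K k'').toSubfield) (fun y => isIntegral_Ct k y)
    (T : Set (kap w)) hT fun y hy =>
      ⟨g y, (CE.lev_mono (K₀ := K₀) (K := K) hkk) (hk' ⟨y, hy, rfl⟩), hg1 y, hg2 y⟩

end main

end Crest.Agent.R013.Desc_372
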