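import Crest.Agent.R013.TP12_928

/-!
# R013 / C-TP (helper928), part 13: the theorem on invariant forms for a semistable structure

`TPS p S G A W`: Galois action, Frobenius, covering group, forms, in elementary terms.
`TPS.exists_forms`.
-/

set_option autoImplicit false
set_option linter.unusedSectionVars false
set_option linter.style.haveILetI false

namespace Crest.Agent.R013.TP_928

open scoped NNReal
open WithZero Module PadicInt
open Crest.Agent.R013.RR7_948 Crest.Agent.R013.RR8_948 Crest.Agent.R013.RR9_948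
open Crest.Agent.R013.RR11_948 Crest.Agent.R013.PicD_398 Crest.Agent.R013.Frob1_914
open Crest.Agent.R013.Red332 Crest.Agent.R013.SSK_332

section tps

variable {k C K : Type*} [NontriviallyNormedField k] [CompleteSpace k]
    [NormedField C] [IsUltrametricDist C] [NormedAlgebra k C] [Algebra.IsAlgebraic k C]
    [Field K] [Algebra C K] [Algebra (RatFunc C) K]
    [IsScalarTower C (RatFunc C) K] [FiniteDimensional (RatFunc C) K]
    [Algebra.IsSeparable (RatFunc C) K] (p : ℕ) [hp : Fact p.Prime] (S : SSK k C K)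

/-- the input of the theorem on invariant forms for a semistable structure -/
structure TPS (G A W : Type*) [AddCommGroup W] [Module ℤ_[p] W]
    [Group A] [Fintype A] [MulAction A S.Ed] where
  /-- the Galois group -/
  gal : G → SI C K C K
  gal_v : ∀ g v f, (S.nm v).v ((gal g).f f) = (S.nm v).v f
  gal_e0 : ∀ g e f, f ≠ 0 → ord S (S.e0 e) ((gal g).f f) = ord S (S.e0 e) f
  gal_e1 : ∀ g e f, f ≠ 0 → ord S (S.e1 e) ((gal g).f f) = ord S (S.e1 e) f
  /-- `q = p ^ a` -/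
  a : ℕ
  ha : a ≠ 0
  res : ∀ g (c : C), ‖c‖₊ ≤ 1 → (rc c) ^ p ^ a = rc c → rc ((gal g).s c) = rc c
  /-- Frobenius -/
  frob : G
  frob_res : ∀ c : C, ‖c‖₊ ≤ 1 → rc ((gal frob).s c) = (rc c) ^ p ^ a
  /-- the residue fields are spanned by reductions of Galois invariant functions -/
  span : ∀ v, Submodule.span (Ct C) {y : kap (S.nm v) | ∃ f : K, (S.nm v).v f ≤ 1 ∧
    (∀ g, (gal g).f f = f) ∧ Red332.red (S.nm v) f = y} = ⊤
  /-- the covering group -/
  cov : A →* (K ≃ₐ[C] K)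
  cov_gal : ∀ α g f, cov α ((gal g).f f) = (gal g).f (cov α f)
  cov_v : ∀ α w, ∃ w', ∀ f, (S.nm w).v (cov α f) = (S.nm w').v f
  cov_e0 : ∀ (α : A) e f, f ≠ 0 → ord S (S.e0 (α • e)) (cov α f) = ord S (S.e0 e) f
  c : A → ℤ_[p]
  idem : ∀ α, ∑ β, c β * c (β⁻¹ * α) = c α
  /-- the forms -/
  gW : G → W →ₗ[ℤ_[p]] W
  om : Tate p (Pic C K) →ₗ[ℤ_[p]] W
  om_gal : ∀ g u, om (Tate.map ((gal g).pic : Pic C K →+ Pic C K) u) = gW g (om u)

namespace TPS

variable {p S} {G A W : Type*} [AddCommGroup W] [Module ℤ_[p] W] [Group A] [Fintype A]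
  [MulAction A S.Ed] (d : TPS p S G A W)

/-- the semilinear automorphism given by an automorphism over `C` -/
def ofAlg (σ : K ≃ₐ[C] K) : SI C K C K := ⟨RingEquiv.refl C, σ.toRingEquiv, fun c => σ.commutes c⟩

/-- the operator of the idempotent -/
noncomputable def e : Tate p (Pic C K) →ₗ[ℤ_[p]] Tate p (Pic C K) :=
  eop d.c (fun α => Tate.map ((ofAlg (d.cov α)).pic : Pic C K →+ Pic C K))

/-- the ends of the annuli -/
def ends (S : SSK k C K) : Set S.Dir := Set.range S.e0 ∪ Set.range S.e1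

theorem not_mem_ends {d : S.Dir} (h : d ∉ ends S) : S.IsDisc d :=
  ⟨fun e he => h (Or.inl ⟨e, he.symm⟩), fun e he => h (Or.inr ⟨e, he.symm⟩)⟩

/-- a place at which the order is invariant is fixed -/
theorem end_of_ord (g : G) (D : S.Dir)
    (h : ∀ f, f ≠ 0 → ord S D ((d.gal g).f f) = ord S D f) (f : K)
    (hf : (S.nm D.1).v f ≤ 1) :
    D.2.v (Red332.red (S.nm D.1) ((d.gal g).f f)) = D.2.v (Red332.red (S.nm D.1) f) := by
  have hgf : (S.nm D.1).v ((d.gal g).f f) ≤ 1 := by rw [d.gal_v]; exact hf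
  rcases eq_or_lt_of_le hf with h1 | h1
  · have hf0 : f ≠ 0 := by
      rintro rfl
      simp at h1
    rw [v_red_of_one D.2 h1, v_red_of_one D.2 (by rw [d.gal_v]; exact h1)]
    exact congrArg (fun z : ℤ => exp (-z)) (h f hf0)
  · rw [(Red332.red_eq_zero_iff _ hf).mpr h1,
      (Red332.red_eq_zero_iff _ hgf).mpr (by rw [d.gal_v]; exact h1)]

variable [IsAlgClosed C]

section inst

/-- the structure of a function field on the residue fields -/
@[reducible] noncomputable def ffA (S : SSK k C K) (v : S.V) :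
    Algebra (RatFunc (Ct C)) (kap (S.nm v)) := (S.ff v).choose

attribute [local instance] ffA

theorem ffT (S : SSK k C K) (v : S.V) : IsScalarTower (Ct C) (RatFunc (Ct C)) (kap (S.nm v)) :=
  (S.ff v).choose_spec.1

theorem ffF (S : SSK k C K) (v : S.V) : FiniteDimensional (RatFunc (Ct C)) (kap (S.nm v)) :=
  (S.ff v).choose_spec.2.1

theorem ffS (S : SSK k C K) (v : S.V) : Algebra.IsSeparable (RatFunc (Ct C)) (kap (S.nm v)) :=
  (S.ff v).choose_spec.2.2

attribute [local instance] ffT ffF ffS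

variable (S) in
/-- the vertices -/
noncomputable def XV (v : S.V) : Vtx (base C) K (kap (S.nm v)) := vtx (S.nm v)

theorem rall_XV (e : Additive Kˣ) (v : S.V) (x : Pl (Ct C) (kap (S.nm v))) :
    rall (XV S) e v x = ord S ⟨v, x⟩ (e.toMul : K) := rdv_vtx (S.nm v) e x

/-- the geometric data of part 10 -/
noncomputable def geo (hS : SlopeDvd S) : TPGeo p (XV S) G A W where
  hC := hCbot
  N := ends S
  disc n e h v x hx := by
    rw [rall_XV]
    exact (hS (p ^ n) (e.toMul : K) (Units.ne_zero _) h).1 ⟨v, x⟩ (not_mem_ends hx)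
  gal := d.gal
  gal_v := d.gal_v
  gal_end g v x hx f h h' := by
    have h1 : ∀ f, f ≠ 0 → ord S ⟨v, x⟩ ((d.gal g).f f) = ord S ⟨v, x⟩ f := by
      intro f hf
      rcases hx with ⟨e, he⟩ | ⟨e, he⟩
      · rw [← he]; exact d.gal_e0 g e f hf
      · rw [← he]; exact d.gal_e1 g e f hf
    have h2 := d.end_of_ord g ⟨v, x⟩ h1 f h
    have h3 : (XV S v).ρ ⟨(d.gal g).f f, h'⟩ = Red332.red (S.nm v) ((d.gal g).f f) :=
      vtx_ρ (S.nm v) _ h'
    have h4 : (XV S v).ρ ⟨f, h⟩ = Red332.red (S.nm v) f := vtx_ρ (S.nm v) _ h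
    rw [h3, h4]
    exact h2
  a := d.a
  ha := d.ha
  res g c h h' hc := by
    rw [base_ρ, base_ρ]
    rw [base_ρ] at hc
    exact d.res g c h hc
  frob := d.frob
  frob_res c h h' := by
    rw [base_ρ, base_ρ]
    exact d.frob_res c h
  span v := by
    rw [eq_top_iff, ← d.span v]
    refine Submodule.span_mono ?_
    rintro y ⟨f, hf, hg, rfl⟩
    exact ⟨f, hf, hg, vtx_ρ (S.nm v) f hf⟩
  cov := d.cov
  cov_gal := d.cov_gal
  cov_v := d.cov_v
  c := d.c
  idem := d.idem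
  gW := d.gW
  om := d.om
  om_gal := d.om_gal

theorem geo_e (hS : SlopeDvd S) : (d.geo hS).e = d.e := rfl

variable [IsAlgClosed (Ct C)] [CharP (Ct C) p] [Algebra (ZMod p) (Ct C)]
  [Algebra.IsAlgebraic (ZMod p) (Ct C)]

/-- (M3): a vector of the `e`-part all of whose reductions are `p^n`-th powers has zero form -/
def OmZero : Prop := ∀ u : Tate p (Pic C K), d.e u = u →
  (∀ n (h : K), h ≠ 0 → RepK p n (u n) h → ∀ v, ∃ (c : C) (y : kap (S.nm v)), c ≠ 0 ∧
    (S.nm v).v (h * (algebraMap C K c)⁻¹) = 1 ∧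
    Red332.red (S.nm v) (h * (algebraMap C K c)⁻¹) = y ^ p ^ n) → d.om u = 0

/-- (NC): a vector of the `e`-part with zero form has zero slopes -/
def OmInj : Prop := ∀ u : Tate p (Pic C K), d.e u = u → d.om u = 0 → sl S p u = 0

theorem sl_zero_ends (hS : SlopeDvd S) {u : Tate p (Pic C K)} (hu : sl S p u = 0) (n : ℕ)
    (e : Additive Kˣ) (he : Rep p (dv C K) (Prin C K) n (u n) e) :
    ∀ i ∈ ends S, ((p ^ n : ℕ) : ℤ) ∣ rall (XV S) e i.1 i.2 := by
  have h1 := fun e' => (sl_eq_zero_iff S u).mp hu n (e.toMul : K) (Units.ne_zero _) he e'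
  have h2 := (hS (p ^ n) (e.toMul : K) (Units.ne_zero _) (by
    obtain ⟨x, -, hx⟩ := he; exact ⟨x, hx⟩)).2
  rintro ⟨v, x⟩ hi
  rw [rall_XV]
  rcases hi with ⟨e', he'⟩ | ⟨e', he'⟩
  · rw [← he']; exact h1 e'
  · rw [← he']
    exact (dvd_add_right (h1 e')).mp (h2 e')

/-- the data of part 6 -/
noncomputable def tpin (hS : SlopeDvd S) (h0 : d.OmZero) (h1 : d.OmInj) :
    TPIn p (dv C K) (Prin C K) (rall (XV S)) (PrinR (Ct C) fun v => kap (S.nm v)) G A W :=
  haveI := S.fV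
  (d.geo hS).toIn
    (fun u hu h => h0 u hu fun n f hf0 hf v => by
      obtain ⟨y, hy, hy2⟩ := h n (Additive.ofMul (Units.mk0 f hf0)) hf
      obtain ⟨c, hc0, hc⟩ := exists_C (S.nm v) f hf0
      obtain ⟨z, -, hz⟩ := exists_pow_of_rdv (S.nm v) (Additive.ofMul (Units.mk0 f hf0))
        (m := p ^ n) (pow_ne_zero _ hp.out.ne_zero)
        ⟨y v, (mem_PrinR _ _).mp hy v, congrFun hy2 v⟩ hc0 hc
      exact ⟨c, z, hc0, hc, hz⟩)
    (fun u hu h n e he => sl_zero_ends hS (h1 u hu h) n e he)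

/-- the classes of the `e`-part with invariant forms -/
noncomputable def Mod (hS : SlopeDvd S) (h0 : d.OmZero) (h1 : d.OmInj) :
    Submodule ℤ_[p] (Tate p (Pic C K)) :=
  (d.tpin hS h0 h1).data.M

theorem tate_finite (hS : SlopeDvd S) (h0 : d.OmZero) (h1 : d.OmInj) :
    Module.Finite ℤ_[p]
      (Tate p ((∀ v, Pl (Ct C) (kap (S.nm v)) →₀ ℤ) ⧸ PrinR (Ct C) fun v => kap (S.nm v))) :=
  (d.tpin hS h0 h1).finite_N

theorem Mod_e (hS : SlopeDvd S) (h0 : d.OmZero) (h1 : d.OmInj) {u : Tate p (Pic C K)}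
    (hu : u ∈ d.Mod hS h0 h1) : d.e u = u := hu.1

theorem Mod_fixed (hS : SlopeDvd S) (h0 : d.OmZero) (h1 : d.OmInj) {u : Tate p (Pic C K)}
    (hu : u ∈ d.Mod hS h0 h1) (g : G) : d.gW g (d.om u) = d.om u := by
  haveI := d.tate_finite hS h0 h1
  exact (d.tpin hS h0 h1).data.om_fixed hu g

theorem mem_K0_iff (hS : SlopeDvd S) (h0 : d.OmZero) (h1 : d.OmInj) (u : Tate p (Pic C K)) :
    u ∈ (d.tpin hS h0 h1).K0 ↔ sl S p u = 0 := by
  rw [TPIn.mem_K0, sl_eq_zero_iff]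
  constructor
  · intro h n f hf0 hf e
    obtain ⟨y, hy⟩ := h n (Additive.ofMul (Units.mk0 f hf0)) hf
    have h2 := rall_XV (S := S) (Additive.ofMul (Units.mk0 f hf0)) (S.e0 e).1 (S.e0 e).2
    rw [hy] at h2
    change _ ∣ ord S ⟨(S.e0 e).1, (S.e0 e).2⟩ ((Units.mk0 f hf0 : Kˣ) : K)
    rw [← toMul_ofMul (Units.mk0 f hf0), ← h2]
    exact ⟨y (S.e0 e).1 (S.e0 e).2, by simp⟩
  · intro h n e he
    exact (d.geo hS).exists_div (by obtain ⟨x, -, hx⟩ := he; exact ⟨x, hx⟩)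
      (sl_zero_ends hS ((sl_eq_zero_iff S u).mpr h) n e he)

theorem Mod_om (hS : SlopeDvd S) (h0 : d.OmZero) (h1 : d.OmInj) {u : Tate p (Pic C K)}
    (hu : u ∈ d.Mod hS h0 h1) : d.om u = 0 ↔ sl S p u = 0 := by
  haveI := d.tate_finite hS h0 h1
  rw [← d.mem_K0_iff hS h0 h1]
  exact (d.tpin hS h0 h1).data.om_eq_zero_iff hu

variable [Module ℚ_[p] W] [IsScalarTower ℤ_[p] ℚ_[p] W]

theorem forms_aux (hS : SlopeDvd S) (h0 : d.OmZero) (h1 : d.OmInj) {ι : Type*}
    (u : ι → Tate p (Pic C K)) (hu : ∀ i, d.e (u i) = u i)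
    (hli : LinearIndependent ℤ_[p] fun i => sl S p (u i)) :
    ∃ v : ι → Tate p (Pic C K), (∀ i, v i ∈ d.Mod hS h0 h1) ∧
      LinearIndependent ℚ_[p] fun i => d.om (v i) := by
  haveI := d.tate_finite hS h0 h1
  exact (d.tpin hS h0 h1).data.forms (sl S p) (fun u => (d.mem_K0_iff hS h0 h1 u).symm) u hu hli

theorem Mod_span (hS : SlopeDvd S) (h0 : d.OmZero) (h1 : d.OmInj) {x : W}
    (hx : x ∈ Submodule.span ℚ_[p] (d.om '' (d.Mod hS h0 h1 : Set (Tate p (Pic C K))))) :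
    ∃ (c : ℕ) (u : Tate p (Pic C K)), u ∈ d.Mod hS h0 h1 ∧ ((p : ℚ_[p]) ^ c) • x = d.om u := by
  haveI := d.tate_finite hS h0 h1
  exact (d.tpin hS h0 h1).data.exists_of_mem_span hx

end inst

/-! ### slopes of the `e`-part -/

omit [IsAlgClosed C] in
theorem repK_cov (α : A) {n : ℕ} {z : Pic C K} {h : K} (h0 : h ≠ 0) (hr : RepK p n z h) :
    RepK p n ((ofAlg (d.cov α)).pic z) (d.cov α h) := by
  obtain ⟨x, rfl, hx⟩ := hr
  refine ⟨(ofAlg (d.cov α)).D x, rfl, ?_⟩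
  have h1 := (ofAlg (d.cov α)).divf_f h0
  rw [hx, map_nsmul] at h1
  exact h1

theorem sl_cov (α : A) (u : Tate p (Pic C K)) (e : S.Ed) :
    sl S p (Tate.map ((ofAlg (d.cov α)).pic : Pic C K →+ Pic C K) u) (α • e) = sl S p u e := by
  rw [← ext_of_toZModPow]
  intro n
  obtain ⟨h, h0, hr⟩ := exists_repK (p := p) u n
  have h2 : d.cov α h ≠ 0 := by simpa using h0
  rw [sl_spec S h0 hr e, sl_spec S h2 (d.repK_cov α h0 hr) (α • e), d.cov_e0 α e h h0]

theorem sl_e (u : Tate p (Pic C K)) :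
    (fun e => ((sl S p (d.e u) e : ℤ_[p]) : ℚ_[p])) =
      Rank_770.eop (fun α => ((d.c α : ℤ_[p]) : ℚ_[p])) S.Ed
        (fun e => ((sl S p u e : ℤ_[p]) : ℚ_[p])) := by
  funext e
  rw [Rank_770.eop_apply]
  have h2 : d.e u = ∑ α, d.c α • Tate.map ((ofAlg (d.cov α)).pic : Pic C K →+ Pic C K) u :=
    eop_apply (p := p) d.c _ u
  rw [h2, map_sum, Finset.sum_apply]
  refine (map_sum PadicInt.Coe.ringHom _ _).trans ?_
  refine Finset.sum_congr rfl fun α _ => ?_
  rw [map_smul, Pi.smul_apply, smul_eq_mul, map_mul]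
  have h1 := d.sl_cov α u (α⁻¹ • e)
  rw [smul_inv_smul] at h1
  rw [h1]
  rfl

theorem sl_e_eq {u : Tate p (Pic C K)}
    (hu : Rank_770.eop (fun α => ((d.c α : ℤ_[p]) : ℚ_[p])) S.Ed
        (fun e => ((sl S p u e : ℤ_[p]) : ℚ_[p])) = fun e => ((sl S p u e : ℤ_[p]) : ℚ_[p])) :
    sl S p (d.e u) = sl S p u := by
  have h1 := d.sl_e u
  rw [hu] at h1
  funext e
  exact PadicInt.ext (congrFun h1 e)

theorem e_e (u : Tate p (Pic C K)) : d.e (d.e u) = d.e u := by
  refine eop_eop d.c d.idem _ (fun a b v => ?_) u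
  ext n
  rw [Tate.map_apply, Tate.map_apply, Tate.map_apply]
  obtain ⟨A', hA⟩ := QuotientAddGroup.mk_surjective (v n)
  rw [← hA]
  change (((ofAlg (d.cov (a * b))).D A' : Pl C K →₀ ℤ) : Pic C K) =
    (((ofAlg (d.cov a)).D ((ofAlg (d.cov b)).D A') : Pl C K →₀ ℤ) : Pic C K)
  congr 1
  ext P
  rw [SI.D_apply, SI.D_apply, SI.D_apply]
  congr 1
  ext f
  change P.v (d.cov (a * b) f) = P.v (d.cov a (d.cov b f))
  rw [map_mul]
  rfl

end TPS

/-- scaling a rational vector to an integral one -/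
theorem exists_integral {ι : Type*} [Finite ι] (f : ι → ℚ_[p]) :
    ∃ (c : ℕ) (g : ι → ℤ_[p]), ∀ i, ((g i : ℤ_[p]) : ℚ_[p]) = (p : ℚ_[p]) ^ c * f i := by
  haveI := Fintype.ofFinite ι
  obtain ⟨c, hc⟩ : ∃ c : ℕ, ∀ i, ‖(p : ℚ_[p]) ^ c * f i‖ ≤ 1 := by
    obtain ⟨c, hc⟩ := pow_unbounded_of_one_lt (∑ i, ‖f i‖) (show (1 : ℝ) < p by
      exact_mod_cast hp.out.one_lt)
    refine ⟨c, fun i => ?_⟩
    have h1 : ‖f i‖ ≤ ∑ i, ‖f i‖ :=
      Finset.single_le_sum (f := fun i => ‖f i‖) (fun i _ => norm_nonneg _) (Finset.mem_univ i)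
    rw [norm_mul, norm_pow, Padic.norm_p, inv_pow,
      inv_mul_le_iff₀ (pow_pos (by exact_mod_cast hp.out.pos) c), mul_one]
    exact h1.trans hc.le
  exact ⟨c, fun i => ⟨_, hc i⟩, fun i => rfl⟩


namespace TPS

variable {p S} {G A W : Type*} [AddCommGroup W] [Module ℤ_[p] W] [Group A] [Fintype A]
  [MulAction A S.Ed] (d : TPS p S G A W) [IsAlgClosed C] [IsAlgClosed (Ct C)] [CharP (Ct C) p]
  [Algebra (ZMod p) (Ct C)] [Algebra.IsAlgebraic (ZMod p) (Ct C)]
  [Module ℚ_[p] W] [IsScalarTower ℤ_[p] ℚ_[p] W]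

/-- **Invariant forms.**  `bd` is any linear map (the boundary of the graph) such that every
integral vector of its kernel is a vector of slopes.  The invariant forms have rank at least the
dimension of the `e`-part of the kernel. -/
theorem exists_forms (hS : SlopeDvd S) (h0 : d.OmZero) (h1 : d.OmInj) {Vx : Type*}
    (bd : (S.Ed → ℚ_[p]) →ₗ[ℚ_[p]] (Vx → ℚ_[p]))
    (honto : ∀ lam : S.Ed → ℤ_[p], bd (fun e => ((lam e : ℤ_[p]) : ℚ_[p])) = 0 →
      ∃ u : Tate p (Pic C K), sl S p u = lam) :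
    ∃ v : Fin (finrank ℚ_[p] (Rank_770.eker (fun α => ((d.c α : ℤ_[p]) : ℚ_[p])) bd)) →
        Tate p (Pic C K), (∀ i, v i ∈ d.Mod hS h0 h1) ∧
      LinearIndependent ℚ_[p] fun i => d.om (v i) := by
  haveI := S.fEd
  have hid : Rank_770.IsIdem (fun α => ((d.c α : ℤ_[p]) : ℚ_[p])) := by
    intro α
    have := congrArg (PadicInt.Coe.ringHom (p := p)) (d.idem α)
    rw [map_sum] at this
    simp only [map_mul] at this
    exact this
  let b := Module.finBasis ℚ_[p] (Rank_770.eker (fun α => ((d.c α : ℤ_[p]) : ℚ_[p])) bd)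
  choose c g hg using fun i => exists_integral p (b i : S.Ed → ℚ_[p])
  have hg' : ∀ i, (fun e => ((g i e : ℤ_[p]) : ℚ_[p])) =
      ((p : ℚ_[p]) ^ c i) • (b i : S.Ed → ℚ_[p]) := by
    intro i
    funext e
    rw [hg i e]
    rfl
  have hb := fun i => (Rank_770.mem_eker hid).mp (b i).2
  have hon : ∀ i, ∃ u : Tate p (Pic C K), sl S p u = g i := by
    intro i
    refine honto (g i) ?_
    rw [hg' i, map_smul, (hb i).1, smul_zero]
  choose u hu using hon
  have hsl : ∀ i, sl S p (d.e (u i)) = g i := by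
    intro i
    rw [d.sl_e_eq, hu i]
    rw [hu i, hg' i, map_smul, (hb i).2]
  refine d.forms_aux hS h0 h1 (fun i => d.e (u i)) (fun i => d.e_e _) ?_
  simp only [hsl]
  have h2 : LinearIndependent ℚ_[p] (fun i => (b i : S.Ed → ℚ_[p])) :=
    b.linearIndependent.map' (Submodule.subtype _) (Submodule.ker_subtype _)
  rw [linearIndependent_iff'] at h2 ⊢
  intro t a ha i hi
  have h3 : ∑ j ∈ t, (((a j : ℤ_[p]) : ℚ_[p]) * (p : ℚ_[p]) ^ c j) • (b j : S.Ed → ℚ_[p]) = 0 := by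
    have h4 : ∀ j, (((a j : ℤ_[p]) : ℚ_[p]) * (p : ℚ_[p]) ^ c j) • (b j : S.Ed → ℚ_[p]) =
        fun e => (((a j • g j) e : ℤ_[p]) : ℚ_[p]) := by
      intro j
      rw [mul_smul, ← hg' j]
      funext e
      simp
    simp_rw [h4]
    funext e
    have h5 := congrArg (PadicInt.Coe.ringHom (p := p)) (congrFun ha e)
    rw [Finset.sum_apply, map_sum] at h5
    rw [Finset.sum_apply]
    exact h5.trans (map_zero _)
  have h6 := h2 t _ h3 i hi
  rcases mul_eq_zero.mp h6 with h | h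
  · exact PadicInt.ext h
  · exact absurd h (pow_ne_zero _ (by exact_mod_cast hp.out.ne_zero))

end TPS

end tps

end Crest.Agent.R013.TP_928
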