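import Mathlib
import Crest.Agent.R013.Desc7_372
import Crest.Agent.R013.DEm3_719
import Crest.Agent.R013.TP13_928

/-!
# R013 / SS-DESC, part 8 (helper372): the descent input of `TPS` (928)

`Lvl S k₁ K₀ k' D` : the semistable structure `S` is defined over `k'` (719's `Def`) and the residue
fields of the vertices are spanned by reductions of functions of the level `k'`.
`exists_lvl` : such a level exists, and every larger level is one.
For `G = Gam K₀ K k'`: `si` (the semilinear automorphism), `Lvl.gal_v`, `gal_e0`, `gal_e1`,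
`exists_a` (`res`, `frob`, `frob_res`), `Lvl.span_fixed`, `comm_of_lev` (`cov_gal`), and the
constructor `Lvl.tps` of `TPS`.
-/

set_option autoImplicit false
set_option linter.all false

namespace Crest.Agent.R013.Desc_372

open scoped NNReal
open WithZero Module
open Crest.Agent.R013.RR7_948 Crest.Agent.R013.Red332 Crest.Agent.R013.SSK_332
  Crest.Agent.R013.DEm_719 Crest.Agent.R013.Frob1_914 Crest.Agent.R013.PicD_398
  Crest.Agent.R013.TP_928

/-! ### semilinear automorphisms -/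

section si

variable {C K : Type*} [Field C] [Field K] [Algebra C K]
variable (k₁ : Type*) {K₀ : Type*} [Field k₁] [Field K₀] [Algebra k₁ C]
  [Algebra k₁ K₀] [Algebra K₀ K] [Algebra k₁ K] [IsScalarTower k₁ C K] [IsScalarTower k₁ K₀ K]

/-- the semilinear automorphism given by an automorphism over `K₀` -/
noncomputable def si [Normal k₁ C] (g : K ≃ₐ[K₀] K) : SI C K C K where
  s := (CE.res k₁ C K₀ K g).toRingEquiv
  f := g.toRingEquiv
  comm c := (CE.algebraMap_res k₁ C K₀ K g c).symm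

@[simp] theorem si_f [Normal k₁ C] (g : K ≃ₐ[K₀] K) (f : K) : (si k₁ g : SI C K C K).f f = g f := rfl

theorem si_s [Normal k₁ C] (g : K ≃ₐ[K₀] K) (c : C) :
    (si k₁ g : SI C K C K).s c = CE.res k₁ C K₀ K g c := rfl

end si

section comm

variable {k₁ C K₀ K : Type*} [Field k₁] [Field C] [Field K₀] [Field K] [Algebra k₁ C]
  [Algebra k₁ K₀] [Algebra C K] [Algebra K₀ K] [Algebra k₁ K] [IsScalarTower k₁ C K]
  [IsScalarTower k₁ K₀ K]

/-- an automorphism over `C` which maps `K₀` into the level `k'` commutes with `Gam k'` -/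
theorem comm_of_lev [CE k₁ C K₀ K] [Normal k₁ C] {k' : IntermediateField k₁ C} (α : K →ₐ[C] K)
    (h : ∀ f : K₀, α (algebraMap K₀ K f) ∈ CE.lev K₀ K k') {g : K ≃ₐ[K₀] K}
    (hg : g ∈ CE.Gam K₀ K k') (f : K) : α (g f) = g (α f) := by
  have h1 : (α : K →+* K).comp (g : K →+* K) = (g : K →+* K).comp (α : K →+* K) := by
    refine CE.ringHom_ext k₁ C K₀ K ?_ ?_
    · intro c
      show α (g (algebraMap C K c)) = g (α (algebraMap C K c))
      rw [α.commutes, ← CE.algebraMap_res k₁ C K₀ K g c, α.commutes]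
    · intro f
      show α (g (algebraMap K₀ K f)) = g (α (algebraMap K₀ K f))
      rw [g.commutes, CE.mem_Gam'.mp hg _ (h f)]
  exact congrArg (fun φ : K →+* K => φ f) h1

/-- finitely many automorphisms over `C` are defined over a finite level -/
theorem exists_lev_alg [CE k₁ C K₀ K] (hfg : (⊤ : IntermediateField k₁ K₀).FG) {A : Type*}
    [Finite A] (cov : A → (K →ₐ[C] K)) : ∃ k' : IntermediateField k₁ C, FiniteDimensional k₁ k' ∧
      ∀ k'', k' ≤ k'' → ∀ α (f : K₀), cov α (algebraMap K₀ K f) ∈ CE.lev K₀ K k'' := by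
  classical
  obtain ⟨T, hT⟩ := hfg
  obtain ⟨k', hk, hk'⟩ := CE.exists_lev (k := k₁) (C := C) (K₀ := K₀) (K := K)
    (⋃ α, (fun f : K₀ => cov α (algebraMap K₀ K f)) '' (T : Set K₀))
    (Set.finite_iUnion fun α => T.finite_toSet.image _)
  refine ⟨k', hk, fun k'' hkk α f => ?_⟩
  have h1 : f ∈ IntermediateField.adjoin k₁ (T : Set K₀) := by rw [hT]; trivial
  have h2 : IntermediateField.adjoin k₁ (T : Set K₀) ≤
      ((CE.lev K₀ K k'').restrictScalars k₁).comap
        (((cov α).restrictScalars k₁).comp (IsScalarTower.toAlgHom k₁ K₀ K)) := by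
    rw [IntermediateField.adjoin_le_iff]
    intro t ht
    exact (CE.lev_mono (K₀ := K₀) (K := K) hkk) (hk' (Set.mem_iUnion.mpr ⟨α, t, ht, rfl⟩))
  exact h2 h1

end comm

section inherit

variable {C K Y : Type*} [NormedField C] [IsUltrametricDist C] [Field K] [Algebra C K]
  [Field Y] [Algebra C Y] [Algebra K Y] [IsScalarTower C K Y]

/-- the spanning property passes to an extension with the same residue field -/
theorem span_inherit (v : Nm C K) (w : Nm C Y) (h : ∀ f : K, w.v (algebraMap K Y f) = v.v f)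
    (hsurj : ∀ y : Y, w.v y ≤ 1 → ∃ f : K, v.v f ≤ 1 ∧ w.v (y - algebraMap K Y f) < 1)
    (F : Set K)
    (hspan : Submodule.span (Ct C) {y : kap v | ∃ f ∈ F, v.v f ≤ 1 ∧ red v f = y} = ⊤) :
    Submodule.span (Ct C) {y : kap w | ∃ f ∈ F, w.v (algebraMap K Y f) ≤ 1 ∧
      red w (algebraMap K Y f) = y} = ⊤ := by
  classical
  set N := Submodule.span (Ct C) {y : kap w | ∃ f ∈ F, w.v (algebraMap K Y f) ≤ 1 ∧
      red w (algebraMap K Y f) = y} with hN
  rw [eq_top_iff]
  intro y _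
  obtain ⟨g, hg1, rfl⟩ := red_surj w y
  obtain ⟨f, hf1, hf⟩ := hsurj g hg1
  have hf1' : w.v (algebraMap K Y f) ≤ 1 := by rw [h]; exact hf1
  have e1 : red w g = red w (algebraMap K Y f) := (red_eq_iff w hg1 hf1').mpr hf
  rw [e1]
  -- every `f` with `v f ≤ 1` has its reduction in `N`
  have key : ∀ z : kap v, z ∈ Submodule.span (Ct C)
      {y : kap v | ∃ f ∈ F, v.v f ≤ 1 ∧ red v f = y} →
      ∀ f : K, v.v f ≤ 1 → red v f = z → red w (algebraMap K Y f) ∈ N := by
    intro z hz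
    induction hz using Submodule.span_induction with
    | mem z hz =>
      obtain ⟨f₀, hf₀, hf₀1, rfl⟩ := hz
      intro f hf hfz
      have h2 : red w (algebraMap K Y f) = red w (algebraMap K Y f₀) := by
        rw [red_eq_iff w (by rw [h]; exact hf) (by rw [h]; exact hf₀1), ← map_sub, h]
        exact (red_eq_iff v hf hf₀1).mp hfz
      rw [h2]
      exact Submodule.subset_span ⟨f₀, hf₀, by rw [h]; exact hf₀1, rfl⟩
    | zero =>
      intro f hf hfz
      have h2 : v.v f < 1 := (red_eq_zero_iff v hf).mp hfz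
      have h3 : red w (algebraMap K Y f) = 0 :=
        (red_eq_zero_iff w (by rw [h]; exact hf)).mpr (by rw [h]; exact h2)
      rw [h3]
      exact N.zero_mem
    | add z₁ z₂ _ _ h₁ h₂ =>
      intro f hf hfz
      obtain ⟨f₁, hf₁, rfl⟩ := red_surj v z₁
      obtain ⟨f₂, hf₂, rfl⟩ := red_surj v z₂
      have h4 : v.v (f₁ + f₂) ≤ 1 := (v.v.map_add _ _).trans (max_le hf₁ hf₂)
      have h5 : red v f = red v (f₁ + f₂) := by rw [hfz, red_add v hf₁ hf₂]
      have h6 : red w (algebraMap K Y f) = red w (algebraMap K Y (f₁ + f₂)) := by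
        rw [red_eq_iff w (by rw [h]; exact hf) (by rw [h]; exact h4), ← map_sub, h]
        exact (red_eq_iff v hf h4).mp h5
      rw [h6, map_add, red_add w (by rw [h]; exact hf₁) (by rw [h]; exact hf₂)]
      exact N.add_mem (h₁ f₁ hf₁ rfl) (h₂ f₂ hf₂ rfl)
    | smul a z _ hz =>
      intro f hf hfz
      obtain ⟨c, hc, rfl⟩ := rc_surj a
      obtain ⟨f₂, hf₂, rfl⟩ := red_surj v z
      have hc' : v.v (algebraMap C K c) ≤ 1 := by rw [v.hC]; exact hc
      have hcw : w.v (algebraMap C Y c) ≤ 1 := by rw [w.hC]; exact hc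
      have h4 : v.v (algebraMap C K c * f₂) ≤ 1 := by rw [map_mul]; exact mul_le_one' hc' hf₂
      have h5 : red v f = red v (algebraMap C K c * f₂) := by
        rw [hfz, red_mul v hc' hf₂, red_C v c hc, Algebra.smul_def]
      have h6 : red w (algebraMap K Y f) = red w (algebraMap K Y (algebraMap C K c * f₂)) := by
        rw [red_eq_iff w (by rw [h]; exact hf) (by rw [h]; exact h4), ← map_sub, h]
        exact (red_eq_iff v hf h4).mp h5
      rw [h6, map_mul, ← IsScalarTower.algebraMap_apply,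
        red_mul w hcw (by rw [h]; exact hf₂), red_C w c hc, ← Algebra.smul_def]
      exact N.smul_mem _ (hz f₂ hf₂ rfl)
  exact key (red v f) (by rw [hspan]; trivial) f hf1 rfl

end inherit

/-! ### levels of a semistable structure -/

section lvl

variable {k C K : Type*} [NontriviallyNormedField k] [CompleteSpace k] [IsUltrametricDist k]
    [NormedField C] [IsUltrametricDist C] [NormedAlgebra k C] [Algebra.IsAlgebraic k C]
    [Field K] [Algebra C K] (S : SSK k C K)

variable (k₁ K₀ : Type*) [Field k₁] [Field K₀] [Algebra k k₁] [Algebra k₁ C] [IsScalarTower k k₁ C]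
  [Algebra k₁ K₀] [Algebra K₀ K] [Algebra k₁ K] [IsScalarTower k₁ C K] [IsScalarTower k₁ K₀ K]

/-- `S` is defined over `k'`, with its residue fields, including the directions in `D` -/
structure Lvl [CE k₁ C K₀ K] (k' : IntermediateField k₁ C) (D : Set S.Dir) : Prop where
  df : Def S k₁ K₀ k' D
  span : ∀ v, Submodule.span (Ct C) {y : kap (S.nm v) | ∃ f ∈ CE.lev K₀ K k',
    (S.nm v).v f ≤ 1 ∧ red (S.nm v) f = y} = ⊤

variable {S k₁ K₀}

theorem Lvl.mono [CE k₁ C K₀ K] {k' k'' : IntermediateField k₁ C} {D : Set S.Dir} (h : k' ≤ k'')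
    (H : Lvl S k₁ K₀ k' D) : Lvl S k₁ K₀ k'' D where
  df := H.df.mono h
  span v := by
    rw [eq_top_iff, ← H.span v]
    refine Submodule.span_mono ?_
    rintro y ⟨f, hf, h1, h2⟩
    exact ⟨f, CE.lev_mono (K₀ := K₀) (K := K) h hf, h1, h2⟩

theorem ff_fg (v : S.V) : (⊤ : IntermediateField (Ct C) (kap (S.nm v))).FG := by
  obtain ⟨i, h1, h2, h3⟩ := S.ff v
  letI := i
  exact fg_of_ratFunc (Ct C) (kap (S.nm v))

variable (S)

/-- **(LVL)** every semistable structure is defined over a finite level, with its residue fields -/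
theorem exists_lvl [LocallyCompactSpace k] [CE k₁ C K₀ K] (hfg : (⊤ : IntermediateField k₁ K₀).FG)
    (D : Set S.Dir) (hD : D.Finite) : ∃ (k' : IntermediateField k₁ C) (D' : Set S.Dir),
      FiniteDimensional k₁ k' ∧ D'.Finite ∧ D ⊆ D' ∧ Lvl S k₁ K₀ k' D' := by
  classical
  haveI := S.fV
  obtain ⟨k₂, D', h1, h2, h3, h4⟩ := exists_def S (k₁ := k₁) (K₀ := K₀) hfg D hD
  choose k₃ h5 h6 using fun v => exists_span k k₁ K₀ (S.nm v) (ff_fg (S := S) v)
  haveI := h1
  haveI := h5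
  haveI : FiniteDimensional k₁ (⨆ v, k₃ v : IntermediateField k₁ C) := inferInstance
  refine ⟨k₂ ⊔ ⨆ v, k₃ v, D', inferInstance, h2, h3, h4.mono le_sup_left, fun v => ?_⟩
  exact h6 v _ ((le_iSup k₃ v).trans le_sup_right)

variable {S}

section conseq

variable [CE k₁ C K₀ K] [Normal k₁ C] {k' : IntermediateField k₁ C} {D : Set S.Dir}

theorem Lvl.gal_v (H : Lvl S k₁ K₀ k' D) (g : CE.Gam K₀ K k') (v : S.V) (f : K) :
    (S.nm v).v ((si k₁ g.1 : SI C K C K).f f) = (S.nm v).v f := H.df.nm g.2 v f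

theorem Lvl.gal_e0 (H : Lvl S k₁ K₀ k' D) (g : CE.Gam K₀ K k') (e : S.Ed) (f : K) :
    ord S (S.e0 e) ((si k₁ g.1 : SI C K C K).f f) = ord S (S.e0 e) f :=
  H.df.od g.2 (H.df.e0_mem e) f

theorem Lvl.gal_e1 (H : Lvl S k₁ K₀ k' D) (g : CE.Gam K₀ K k') (e : S.Ed) (f : K) :
    ord S (S.e1 e) ((si k₁ g.1 : SI C K C K).f f) = ord S (S.e1 e) f :=
  H.df.od g.2 (H.df.e1_mem e) f

theorem Lvl.span_fixed (H : Lvl S k₁ K₀ k' D) (v : S.V) :
    Submodule.span (Ct C) {y : kap (S.nm v) | ∃ f : K, (S.nm v).v f ≤ 1 ∧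
    (∀ g : CE.Gam K₀ K k', (si k₁ g.1 : SI C K C K).f f = f) ∧ Red332.red (S.nm v) f = y} = ⊤ := by
  rw [eq_top_iff, ← H.span v]
  refine Submodule.span_mono ?_
  rintro y ⟨f, hf, h1, h2⟩
  exact ⟨f, h1, fun g => CE.mem_Gam'.mp g.2 f hf, h2⟩

end conseq

end lvl

section frob

variable {k C K : Type*} [NontriviallyNormedField k] [CompleteSpace k] [IsUltrametricDist k]
    [LocallyCompactSpace k]
    [NormedField C] [IsUltrametricDist C] [NormedAlgebra k C] [Algebra.IsAlgebraic k C]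
    [IsAlgClosed C] [IsGalois k C] [Field K] [Algebra C K]
variable {k₁ K₀ : Type*} [Field k₁] [Field K₀] [Algebra k k₁] [Algebra k₁ C] [IsScalarTower k k₁ C]
  [Algebra k₁ K₀] [Algebra K₀ K] [Algebra k₁ K] [IsScalarTower k₁ C K] [IsScalarTower k₁ K₀ K]
  [CE k₁ C K₀ K] [Normal k₁ C] [FiniteDimensional k k₁]

variable (k K₀ K) in
include k in
/-- **(FROB)** `res`, `frob`, `frob_res` for the group `Gam K₀ K k'` -/
theorem exists_a (k' : IntermediateField k₁ C) [FiniteDimensional k₁ k'] (p : ℕ) [Fact p.Prime]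
    [CharP (Ct C) p] : ∃ a : ℕ, a ≠ 0 ∧
      (∀ (g : CE.Gam K₀ K k') (c : C), ‖c‖₊ ≤ 1 → (rc c) ^ p ^ a = rc c →
        rc ((si k₁ g.1 : SI C K C K).s c) = rc c) ∧
      ∃ g : CE.Gam K₀ K k', ∀ c : C, ‖c‖₊ ≤ 1 →
        rc ((si k₁ g.1 : SI C K C K).s c) = (rc c) ^ p ^ a := by
  haveI : FiniteDimensional k (k'.restrictScalars k) := FiniteDimensional.trans k k₁ k'
  obtain ⟨a, ha0, h1, s, hs, h2⟩ := exists_frob (k := k) (k'.restrictScalars k) p
  refine ⟨a, ha0, fun g c hc h => ?_, ?_⟩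
  · exact h1 (rs k (k₁ := k₁) g.1) (fun c hc => rs_fix g.2 hc) c hc h
  · let s₁ : C ≃ₐ[k₁] C := AlgEquiv.ofRingEquiv (f := s.toRingEquiv) fun x =>
      hs (algebraMap k₁ C x) (k'.algebraMap_mem x)
    refine ⟨⟨CE.lift k₁ C K₀ K s₁, ?_⟩, fun c hc => ?_⟩
    · rw [CE.mem_Gam]
      intro c hc
      rw [CE.lift_algebraMap]
      exact congrArg (algebraMap C K) (hs c hc)
    · rw [si_s, CE.res_lift]
      exact h2 c hc

end frob

section tps

variable {k C K : Type*} [NontriviallyNormedField k] [CompleteSpace k] [IsUltrametricDist k]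
    [LocallyCompactSpace k]
    [NormedField C] [IsUltrametricDist C] [NormedAlgebra k C] [Algebra.IsAlgebraic k C]
    [IsAlgClosed C] [IsGalois k C] [Field K] [Algebra C K] [Algebra (RatFunc C) K]
    [IsScalarTower C (RatFunc C) K] [FiniteDimensional (RatFunc C) K]
    [Algebra.IsSeparable (RatFunc C) K]
variable {k₁ K₀ : Type*} [Field k₁] [Field K₀] [Algebra k k₁] [Algebra k₁ C] [IsScalarTower k k₁ C]
  [Algebra k₁ K₀] [Algebra K₀ K] [Algebra k₁ K] [IsScalarTower k₁ C K] [IsScalarTower k₁ K₀ K]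
  [CE k₁ C K₀ K] [Normal k₁ C] [FiniteDimensional k k₁]
  (p : ℕ) [hp : Fact p.Prime] [CharP (Ct C) p]
  {S : SSK k C K} {k' : IntermediateField k₁ C} {D : Set S.Dir}

/-- **TPS from a level** -/
noncomputable def Lvl.tps (H : Lvl S k₁ K₀ k' D) [FiniteDimensional k₁ k'] {A W : Type*}
    [AddCommGroup W] [Module ℤ_[p] W] [Group A] [Fintype A] [MulAction A S.Ed]
    (cov : A →* (K ≃ₐ[C] K))
    (hcov : ∀ α (f : K₀), cov α (algebraMap K₀ K f) ∈ CE.lev K₀ K k')
    (cov_v : ∀ α w, ∃ w', ∀ f, (S.nm w).v (cov α f) = (S.nm w').v f)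
    (cov_e0 : ∀ (α : A) e f, f ≠ 0 → ord S (S.e0 (α • e)) (cov α f) = ord S (S.e0 e) f)
    (c : A → ℤ_[p]) (idem : ∀ α, ∑ β, c β * c (β⁻¹ * α) = c α)
    (gW : CE.Gam K₀ K k' → W →ₗ[ℤ_[p]] W) (om : Tate p (Pic C K) →ₗ[ℤ_[p]] W)
    (om_gal : ∀ g u, om (Tate.map (((si k₁ g.1 : SI C K C K)).pic : Pic C K →+ Pic C K) u) =
      gW g (om u)) :
    TPS p S (CE.Gam K₀ K k') A W where
  gal g := si k₁ g.1
  gal_v g v f := H.gal_v g v f
  gal_e0 g e f _ := H.gal_e0 g e f
  gal_e1 g e f _ := H.gal_e1 g e f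
  a := (exists_a k K K₀ k' p).choose
  ha := (exists_a k K K₀ k' p).choose_spec.1
  res := (exists_a k K K₀ k' p).choose_spec.2.1
  frob := (exists_a k K K₀ k' p).choose_spec.2.2.choose
  frob_res := (exists_a k K K₀ k' p).choose_spec.2.2.choose_spec
  span v := H.span_fixed v
  cov := cov
  cov_gal α g f := comm_of_lev (cov α : K →ₐ[C] K) (hcov α) g.2 f
  cov_v := cov_v
  cov_e0 := cov_e0
  c := c
  idem := idem
  gW := gW
  om := om
  om_gal := om_gal

end tps

end Crest.Agent.R013.Desc_372
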