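import Mathlib
import Crest.Agent.R013.Desc8_372
import Crest.Agent.R013.DescC3_116

/-!
# R013 / LEV, part 1 (helper372): eventual statements over the levels, change of the base level

`Ev k C Φ` : `Φ κ` holds for all sufficiently large `κ` (finite over `k`).
`def_bot`, `lvl_bot` : a semistable structure defined over `κ` (with respect to `k₁, K₀`) is defined
over the base `κ, lev K₀ K κ`.
-/

set_option autoImplicit false
set_option linter.all false

namespace Crest.Agent.R013.Lev_372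

open scoped NNReal
open WithZero Module
open Crest.Agent.R013.Desc_372 Crest.Agent.R013.Desc_372.CE
open Crest.Agent.R013.RR7_948 Crest.Agent.R013.Red332 Crest.Agent.R013.SSK_332
  Crest.Agent.R013.DEm_719

/-! ### eventual statements -/

section ev

variable (k C : Type*) [Field k] [Field C] [Algebra k C]

/-- `Φ κ` for all sufficiently large levels `κ` -/
def Ev (Φ : IntermediateField k C → Prop) : Prop :=
  ∃ κ₀ : IntermediateField k C, FiniteDimensional k κ₀ ∧ ∀ κ, κ₀ ≤ κ → Φ κ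

variable {k C}

theorem Ev.of_mono {Φ : IntermediateField k C → Prop} (κ₀ : IntermediateField k C)
    (h : FiniteDimensional k κ₀) (h1 : Φ κ₀) (h2 : ∀ κ, κ₀ ≤ κ → Φ κ₀ → Φ κ) : Ev k C Φ :=
  ⟨κ₀, h, fun κ hκ => h2 κ hκ h1⟩

theorem Ev.mono {Φ Ψ : IntermediateField k C → Prop} (h : Ev k C Φ) (h' : ∀ κ, Φ κ → Ψ κ) :
    Ev k C Ψ := by
  obtain ⟨κ₀, h1, h2⟩ := h
  exact ⟨κ₀, h1, fun κ hκ => h' κ (h2 κ hκ)⟩

theorem Ev.and {Φ Ψ : IntermediateField k C → Prop} (h : Ev k C Φ) (h' : Ev k C Ψ) :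
    Ev k C fun κ => Φ κ ∧ Ψ κ := by
  obtain ⟨κ₀, h1, h2⟩ := h
  obtain ⟨κ₁, h3, h4⟩ := h'
  exact ⟨κ₀ ⊔ κ₁, inferInstance, fun κ hκ => ⟨h2 κ (le_sup_left.trans hκ),
    h4 κ (le_sup_right.trans hκ)⟩⟩

theorem Ev.all {Φ : IntermediateField k C → Prop} (h : ∀ κ, Φ κ) : Ev k C Φ :=
  ⟨⊥, inferInstance, fun κ _ => h κ⟩

theorem Ev.forall {ι : Type*} [Finite ι] {Φ : ι → IntermediateField k C → Prop}
    (h : ∀ i, Ev k C (Φ i)) : Ev k C fun κ => ∀ i, Φ i κ := by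
  choose κ h1 h2 using h
  haveI := h1
  exact ⟨⨆ i, κ i, inferInstance, fun κ' hκ i => h2 i κ' ((le_iSup κ i).trans hκ)⟩

theorem Ev.forall_mem {ι : Type*} {s : Set ι} (hs : s.Finite)
    {Φ : ι → IntermediateField k C → Prop} (h : ∀ i ∈ s, Ev k C (Φ i)) :
    Ev k C fun κ => ∀ i ∈ s, Φ i κ := by
  haveI := hs.to_subtype
  exact (Ev.forall (ι := s) fun i => h i i.2).mono fun κ h' i hi => h' ⟨i, hi⟩

theorem Ev.le (κ₀ : IntermediateField k C) [FiniteDimensional k κ₀] :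
    Ev k C fun κ => κ₀ ≤ κ := ⟨κ₀, inferInstance, fun _ h => h⟩

theorem Ev.exists {Φ : IntermediateField k C → Prop} (h : Ev k C Φ) :
    ∃ κ : IntermediateField k C, FiniteDimensional k κ ∧ Φ κ := by
  obtain ⟨κ₀, h1, h2⟩ := h
  exact ⟨κ₀, h1, h2 κ₀ le_rfl⟩

/-- exists a finite level above a given one -/
theorem Ev.exists_ge {Φ : IntermediateField k C → Prop} (h : Ev k C Φ)
    (κ₁ : IntermediateField k C) [FiniteDimensional k κ₁] :
    ∃ κ : IntermediateField k C, FiniteDimensional k κ ∧ κ₁ ≤ κ ∧ Φ κ := by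
  obtain ⟨κ, h1, h2, h3⟩ := ((Ev.le κ₁).and h).exists
  exact ⟨κ, h1, h2, h3⟩

theorem ev_mem [Algebra.IsAlgebraic k C] (c : C) : Ev k C fun κ => c ∈ κ := by
  have h1 : FiniteDimensional k (IntermediateField.adjoin k {c}) :=
    IntermediateField.adjoin.finiteDimensional (Algebra.IsAlgebraic.isAlgebraic c).isIntegral
  exact ⟨_, h1, fun κ hκ => hκ (IntermediateField.mem_adjoin_simple_self k c)⟩

end ev

section ce

variable {k C K₀ K : Type*} [Field k] [Field C] [Field K₀] [Field K] [Algebra k C] [Algebra k K₀]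
  [Algebra C K] [Algebra K₀ K] [Algebra k K] [IsScalarTower k C K] [IsScalarTower k K₀ K]

theorem ev_mem_lev [CE k C K₀ K] (f : K) : Ev k C fun κ => f ∈ lev K₀ K κ := by
  obtain ⟨κ, h1, h2⟩ := exists_lev (k := k) (C := C) (K₀ := K₀) (K := K) {f} (Set.finite_singleton f)
  exact ⟨κ, h1, fun κ' hκ => lev_mono (K₀ := K₀) (K := K) hκ (h2 rfl)⟩

theorem ev_subset_lev [CE k C K₀ K] {T : Set K} (hT : T.Finite) :
    Ev k C fun κ => T ⊆ lev K₀ K κ :=
  Ev.forall_mem hT fun f _ => ev_mem_lev f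

/-! ### change of the base level -/

theorem mem_lev_bot' {κ : IntermediateField k C} {f : K} (hf : f ∈ lev K₀ K κ) :
    f ∈ lev (lev K₀ K κ) K (⊥ : IntermediateField κ C) :=
  (lev (lev K₀ K κ) K (⊥ : IntermediateField κ C)).algebraMap_mem ⟨f, hf⟩

theorem mem_lev_bot_iff [CE k C K₀ K] {κ : IntermediateField k C} {f : K} :
    f ∈ lev (lev K₀ K κ) K (⊥ : IntermediateField κ C) ↔ f ∈ lev K₀ K κ := by
  refine ⟨fun h => ?_, mem_lev_bot'⟩
  have h1 : lev (lev K₀ K κ) K (⊥ : IntermediateField κ C) ≤ ⊥ := by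
    rw [lev_le_iff]
    intro c hc
    obtain ⟨x, rfl⟩ := IntermediateField.mem_bot.mp hc
    exact IntermediateField.mem_bot.mpr ⟨⟨algebraMap C K x, algebraMap_mem_lev K₀ K κ x.2⟩, rfl⟩
  obtain ⟨x, hx⟩ := IntermediateField.mem_bot.mp (h1 h)
  rw [← hx]
  exact x.2

/-- the lift of an automorphism over `κ` -/
theorem lift_lev [CE k C K₀ K] (κ : IntermediateField k C) (s : C ≃ₐ[κ] C) (f : K) :
    CE.lift κ C (lev K₀ K κ) K s f = CE.lift k C K₀ K (s.restrictScalars k) f := by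
  have h1 := CE.ringHom_ext k C K₀ K
    (φ := ((CE.lift κ C (lev K₀ K κ) K s : K ≃ₐ[lev K₀ K κ] K) : K →+* K))
    (ψ := ((CE.lift k C K₀ K (s.restrictScalars k) : K ≃ₐ[K₀] K) : K →+* K))
    (fun c => by
      show CE.lift κ C (lev K₀ K κ) K s (algebraMap C K c) =
        CE.lift k C K₀ K (s.restrictScalars k) (algebraMap C K c)
      rw [lift_algebraMap, lift_algebraMap]
      rfl)
    (fun g => by
      show CE.lift κ C (lev K₀ K κ) K s (algebraMap K₀ K g) =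
        CE.lift k C K₀ K (s.restrictScalars k) (algebraMap K₀ K g)
      rw [AlgEquiv.commutes]
      exact (CE.lift κ C (lev K₀ K κ) K s).commutes (algebraMap K₀ (lev K₀ K κ) g))
  exact congrArg (fun φ : K →+* K => φ f) h1

end ce

section ssk

variable {k C K : Type*} [NontriviallyNormedField k] [CompleteSpace k] [IsUltrametricDist k]
    [NormedField C] [IsUltrametricDist C] [NormedAlgebra k C] [Algebra.IsAlgebraic k C]
    [Field K] [Algebra C K] {S : SSK k C K}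
variable {k₁ K₀ : Type*} [Field k₁] [Field K₀] [Algebra k k₁] [Algebra k₁ C] [IsScalarTower k k₁ C]
  [Algebra k₁ K₀] [Algebra K₀ K] [Algebra k₁ K] [IsScalarTower k₁ C K] [IsScalarTower k₁ K₀ K]

theorem def_bot [CE k₁ C K₀ K] {κ : IntermediateField k₁ C} {D : Set S.Dir}
    (H : Def S k₁ K₀ κ D) : Def S κ (lev K₀ K κ) (⊥ : IntermediateField κ C) D where
  e0_mem := H.e0_mem
  e1_mem := H.e1_mem
  vert := H.vert
  cc_mem e := IntermediateField.mem_bot.mpr ⟨⟨S.cc e, H.cc_mem e⟩, rfl⟩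
  eqAt d hd s hs f := by
    have h1 := H.eqAt d hd (s.restrictScalars k₁) (fun c hc => s.commutes ⟨c, hc⟩) f
    rw [lift_lev]
    exact h1

theorem lvl_bot [CE k₁ C K₀ K] {κ : IntermediateField k₁ C} {D : Set S.Dir}
    (H : Lvl S k₁ K₀ κ D) : Lvl S κ (lev K₀ K κ) (⊥ : IntermediateField κ C) D where
  df := def_bot H.df
  span v := by
    rw [eq_top_iff, ← H.span v]
    refine Submodule.span_mono ?_
    rintro y ⟨f, hf, h1, h2⟩
    exact ⟨f, mem_lev_bot' hf, h1, h2⟩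

/-- smaller sets of directions -/
theorem Def.sub [CE k₁ C K₀ K] {κ : IntermediateField k₁ C} {D D' : Set S.Dir}
    (H : Def S k₁ K₀ κ D) (h : D' ⊆ D) (h0 : ∀ e, S.e0 e ∈ D') (h1 : ∀ e, S.e1 e ∈ D')
    (h2 : ∀ v, ∃ d ∈ D', d.1 = v) : Def S k₁ K₀ κ D' where
  e0_mem := h0
  e1_mem := h1
  vert := h2
  cc_mem := H.cc_mem
  eqAt d hd := H.eqAt d (h hd)

variable (S k₁ K₀) in
/-- **(EV-LVL)** eventually in the levels -/
theorem ev_lvl [LocallyCompactSpace k] [CE k₁ C K₀ K] (hfg : (⊤ : IntermediateField k₁ K₀).FG)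
    (D : Set S.Dir) (hD : D.Finite) (h0 : ∀ e, S.e0 e ∈ D) (h1 : ∀ e, S.e1 e ∈ D)
    (h2 : ∀ v, ∃ d ∈ D, d.1 = v) : Ev k₁ C fun κ => Lvl S k₁ K₀ κ D := by
  obtain ⟨κ, D', h3, h4, h5, H⟩ := exists_lvl S (k₁ := k₁) (K₀ := K₀) hfg D hD
  have H' : Lvl S k₁ K₀ κ D := ⟨Def.sub H.df h5 h0 h1 h2, H.span⟩
  exact ⟨κ, h3, fun κ' hκ => H'.mono hκ⟩

variable (S) in
/-- a finite set of directions containing `D`, the ends and a direction at each vertex -/
theorem exists_dirs (D : Set S.Dir) (hD : D.Finite) : ∃ D' : Set S.Dir, D'.Finite ∧ D ⊆ D' ∧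
    (∀ e, S.e0 e ∈ D') ∧ (∀ e, S.e1 e ∈ D') ∧ ∀ v, ∃ d ∈ D', d.1 = v := by
  classical
  haveI := S.fV
  haveI := S.fEd
  choose dv hdv using exists_dir S
  refine ⟨D ∪ (Set.range S.e0 ∪ Set.range S.e1 ∪ Set.range dv), hD.union
    (((Set.finite_range _).union (Set.finite_range _)).union (Set.finite_range _)),
    Set.subset_union_left, fun e => Or.inr (Or.inl (Or.inl ⟨e, rfl⟩)),
    fun e => Or.inr (Or.inl (Or.inr ⟨e, rfl⟩)), fun v => ⟨dv v, Or.inr (Or.inr ⟨v, rfl⟩), hdv v⟩⟩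

end ssk

end Crest.Agent.R013.Lev_372
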