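import Mathlib
import Crest.Agent.R013.Lev1_372

/-!
# R013 / LEV, part 2 (helper372): towers of function fields and their levels

`U ⊆ M` forms over `k` of `K ⊆ L` over `C`.  For a level `κ`: `Algebra (lev U K κ) (lev M L κ)`,
which is Galois with the same group if `M/U` is.
-/

set_option autoImplicit false
set_option linter.all false

namespace Crest.Agent.R013.Lev_372

open scoped NNReal
open WithZero Module
open Crest.Agent.R013.Desc_372 Crest.Agent.R013.Desc_372.CE

/-! ### Galois theory -/

section gal

variable {U M E F : Type*} [Field U] [Field M] [Field E] [Field F] [Algebra U M] [Algebra U E]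
  [Algebra M F] [Algebra E F] [Algebra U F] [IsScalarTower U M F] [IsScalarTower U E F]

/-- base change of a finite Galois extension -/
theorem isGalois_of_gen [FiniteDimensional U M] [IsGalois U M]
    (h : Algebra.adjoin E (Set.range (algebraMap M F)) = ⊤) :
    FiniteDimensional E F ∧ IsGalois E F := by
  classical
  obtain ⟨p, hp, hs⟩ := IsGalois.is_separable_splitting_field U M
  have hroots : p.rootSet F = algebraMap M F '' (p.rootSet M) := by
    have h1 : (p.map (algebraMap U M)).Splits := hs.splits
    have h2 := h1.image_rootSet (IsScalarTower.toAlgHom U M F)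
    exact h2.symm
  have hadj : Algebra.adjoin E ((p.map (algebraMap U E)).rootSet F) = ⊤ := by
    have e1 : (p.map (algebraMap U E)).rootSet F = p.rootSet F := by
      unfold Polynomial.rootSet Polynomial.aroots
      rw [Polynomial.map_map, ← IsScalarTower.algebraMap_eq]
    rw [e1, hroots, eq_top_iff, ← h]
    refine Algebra.adjoin_le ?_
    rintro _ ⟨m, rfl⟩
    have h3 : m ∈ Algebra.adjoin U (p.rootSet M) := by
      rw [hs.adjoin_rootSet]; trivial
    have h4 : Algebra.adjoin U (p.rootSet M) ≤
        ((Algebra.adjoin E (algebraMap M F '' (p.rootSet M))).restrictScalars U).comap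
          (IsScalarTower.toAlgHom U M F) := by
      refine Algebra.adjoin_le fun x hx => ?_
      exact Algebra.subset_adjoin ⟨x, hx, rfl⟩
    exact h4 h3
  have hsp : ((p.map (algebraMap U E)).map (algebraMap E F)).Splits := by
    rw [Polynomial.map_map, ← IsScalarTower.algebraMap_eq, IsScalarTower.algebraMap_eq U M F,
      ← Polynomial.map_map]
    exact hs.splits.map (algebraMap M F)
  haveI : Polynomial.IsSplittingField E F (p.map (algebraMap U E)) := ⟨hsp, hadj⟩
  exact ⟨Polynomial.IsSplittingField.finiteDimensional F (p.map (algebraMap U E)),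
    IsGalois.of_separable_splitting_field (p := p.map (algebraMap U E)) hp.map⟩

/-- the restriction `Gal(F/E) → Gal(M/U)` -/
noncomputable def resG (U M E F : Type*) [Field U] [Field M] [Field E] [Field F] [Algebra U M]
    [Algebra U E] [Algebra M F] [Algebra E F] [Algebra U F] [IsScalarTower U M F]
    [IsScalarTower U E F] [Normal U M] : (F ≃ₐ[E] F) →* (M ≃ₐ[U] M) where
  toFun s := (s.restrictScalars U).restrictNormal M
  map_one' := by
    ext c
    apply (algebraMap M F).injective
    rw [AlgEquiv.restrictNormal_commutes]
    rfl
  map_mul' s t := by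
    ext c
    apply (algebraMap M F).injective
    rw [AlgEquiv.restrictNormal_commutes, AlgEquiv.mul_apply, AlgEquiv.restrictNormal_commutes,
      AlgEquiv.restrictNormal_commutes]
    rfl

theorem algebraMap_resG [Normal U M] (s : F ≃ₐ[E] F) (x : M) :
    algebraMap M F (resG U M E F s x) = s (algebraMap M F x) :=
  AlgEquiv.restrictNormal_commutes (s.restrictScalars U) M x

theorem finrank_of_isPushout [Algebra.IsPushout U E M F] : finrank E F = finrank U M := by
  rw [← (Algebra.IsPushout.equiv U E M F).toLinearEquiv.finrank_eq]
  exact Module.finrank_baseChange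

theorem adjoin_of_isPushout [Algebra.IsPushout U E M F] :
    Algebra.adjoin E (Set.range (algebraMap M F)) = ⊤ := by
  rw [eq_top_iff]
  intro x _
  obtain ⟨t, rfl⟩ := (Algebra.IsPushout.equiv U E M F).surjective x
  induction t with
  | zero => rw [map_zero]; exact Subalgebra.zero_mem _
  | add a b ha hb => rw [map_add]; exact Subalgebra.add_mem _ (ha trivial) (hb trivial)
  | tmul a b =>
    rw [Algebra.IsPushout.equiv_tmul]
    exact Subalgebra.mul_mem _ (Subalgebra.algebraMap_mem _ a) (Algebra.subset_adjoin ⟨b, rfl⟩)

theorem resG_injective [Normal U M] (h : Algebra.adjoin E (Set.range (algebraMap M F)) = ⊤) :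
    Function.Injective (resG U M E F) := by
  rw [injective_iff_map_eq_one]
  intro s hs
  ext x
  have hx : x ∈ Algebra.adjoin E (Set.range (algebraMap M F)) := by rw [h]; trivial
  show s x = x
  induction hx using Algebra.adjoin_induction with
  | mem x hx =>
    obtain ⟨m, rfl⟩ := hx
    rw [← algebraMap_resG (U := U) (M := M) s m, hs]
    rfl
  | algebraMap r => exact s.commutes r
  | add x y _ _ hx hy => rw [map_add, hx, hy]
  | mul x y _ _ hx hy => rw [map_mul, hx, hy]

theorem resG_bijective [FiniteDimensional U M] [IsGalois U M] [Algebra.IsPushout U E M F] :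
    Function.Bijective (resG U M E F) := by
  have h := adjoin_of_isPushout (U := U) (M := M) (E := E) (F := F)
  obtain ⟨h1, h2⟩ := isGalois_of_gen (U := U) h
  have hinj := resG_injective (U := U) (M := M) h
  haveI : Fintype (F ≃ₐ[E] F) := Fintype.ofFinite _
  haveI : Fintype (M ≃ₐ[U] M) := Fintype.ofFinite _
  rw [Fintype.bijective_iff_injective_and_card]
  refine ⟨hinj, ?_⟩
  rw [← Nat.card_eq_fintype_card, ← Nat.card_eq_fintype_card, IsGalois.card_aut_eq_finrank,
    IsGalois.card_aut_eq_finrank, finrank_of_isPushout (U := U) (M := M)]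

end gal

section tower

variable {k C U M K L : Type*} [Field k] [Field C] [Field U] [Field M] [Field K] [Field L]
  [Algebra k C] [Algebra k U] [Algebra C K] [Algebra U K] [Algebra k K] [IsScalarTower k C K]
  [IsScalarTower k U K]
  [Algebra k M] [Algebra C L] [Algebra M L] [Algebra k L] [IsScalarTower k C L]
  [IsScalarTower k M L]
  [Algebra K L] [IsScalarTower C K L] [IsScalarTower k K L]
  [Algebra U M] [Algebra U L] [IsScalarTower U K L] [IsScalarTower U M L] [IsScalarTower k U M]
  [IsScalarTower k U L]

variable (U M K L) in
theorem map_mem_lev (κ : IntermediateField k C) {x : K} (hx : x ∈ lev U K κ) :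
    algebraMap K L x ∈ lev M L κ := by
  have h1 : lev U K κ ≤ ((lev M L κ).restrictScalars U).comap (IsScalarTower.toAlgHom U K L) := by
    rw [lev_le_iff]
    intro c hc
    show algebraMap K L (algebraMap C K c) ∈ lev M L κ
    rw [← IsScalarTower.algebraMap_apply]
    exact algebraMap_mem_lev M L κ hc
  exact h1 hx

variable (U M K L) in
/-- the inclusion of the levels -/
noncomputable def levHom (κ : IntermediateField k C) : lev U K κ →+* lev M L κ :=
  ((algebraMap K L).comp (lev U K κ).val.toRingHom).codRestrict (lev M L κ).toSubfield.toSubring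
    fun x => map_mem_lev U M K L κ x.2

theorem coe_levHom (κ : IntermediateField k C) (x : lev U K κ) :
    ((levHom U M K L κ x : lev M L κ) : L) = algebraMap K L x := rfl

variable (U M K L) in
/-- the algebra structure on the levels -/
@[reducible] noncomputable def levLev (κ : IntermediateField k C) :
    Algebra (lev U K κ) (lev M L κ) := (levHom U M K L κ).toAlgebra

attribute [local instance] levLev

theorem coe_algebraMap_levLev (κ : IntermediateField k C) (x : lev U K κ) :
    ((algebraMap (lev U K κ) (lev M L κ) x : lev M L κ) : L) = algebraMap K L x := rfl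

theorem algebraMap_levL (κ : IntermediateField k C) (x : lev U K κ) :
    algebraMap (lev U K κ) L x = algebraMap K L x := rfl

theorem tower_levLev (κ : IntermediateField k C) : IsScalarTower (lev U K κ) (lev M L κ) L :=
  IsScalarTower.of_algebraMap_eq fun _ => rfl

theorem tower_κ_levLev (κ : IntermediateField k C) : IsScalarTower κ (lev U K κ) (lev M L κ) :=
  IsScalarTower.of_algebraMap_eq fun x => Subtype.ext (IsScalarTower.algebraMap_apply C K L x)

theorem tower_U_levLev (κ : IntermediateField k C) : IsScalarTower U (lev U K κ) (lev M L κ) :=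
  IsScalarTower.of_algebraMap_eq fun x => Subtype.ext (by
    exact IsScalarTower.algebraMap_apply U K L x)

attribute [local instance] tower_levLev tower_κ_levLev tower_U_levLev

variable [CE k C U K] [CE k C M L]

variable (k C) in
include k C in
/-- `L = M ⊗_U K` -/
theorem isPushout_tower : Algebra.IsPushout U K M L :=
  (DescC_116.ce_iff_isPushout k C U K M L).mp inferInstance

/-- `L = lev M L κ ⊗ K` over `lev U K κ` -/
theorem isPushout_lev (κ : IntermediateField k C) :
    Algebra.IsPushout (lev U K κ) K (lev M L κ) L :=
  (DescC_116.ce_iff_isPushout κ C (lev U K κ) K (lev M L κ) L).mp inferInstance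

theorem adjoin_lev (κ : IntermediateField k C) :
    Algebra.adjoin (lev U K κ) (Set.range (algebraMap M (lev M L κ))) = ⊤ := by
  rw [eq_top_iff]
  rintro ⟨f, hf⟩ _
  obtain ⟨n, c, g, hc, rfl⟩ := (mem_lev_iff M L κ f).mp hf
  have h1 : (⟨∑ i, algebraMap C L (c i) * algebraMap M L (g i), hf⟩ : lev M L κ) =
      ∑ i, algebraMap (lev U K κ) (lev M L κ) (algebraMap κ (lev U K κ) ⟨c i, hc i⟩) *
        algebraMap M (lev M L κ) (g i) := by
    apply (lev M L κ).val.injective
    rw [map_sum]
    change (∑ i, algebraMap C L (c i) * algebraMap M L (g i) : L) = _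
    refine Finset.sum_congr rfl fun i _ => ?_
    show algebraMap C L (c i) * algebraMap M L (g i) =
      algebraMap K L (algebraMap C K (c i)) * algebraMap M L (g i)
    rw [← IsScalarTower.algebraMap_apply C K L]
  rw [h1]
  exact Subalgebra.sum_mem _ fun i _ => Subalgebra.mul_mem _ (Subalgebra.algebraMap_mem _ _)
    (Algebra.subset_adjoin ⟨g i, rfl⟩)

variable [FiniteDimensional U M] [IsGalois U M]

variable (k C U M K L) in
include k C U M in
theorem isGalois_top : FiniteDimensional K L ∧ IsGalois K L := by
  haveI := isPushout_tower k C (U := U) (M := M) (K := K) (L := L)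
  exact isGalois_of_gen (U := U) (M := M) (adjoin_of_isPushout (U := U) (M := M))

theorem isGalois_lev (κ : IntermediateField k C) :
    FiniteDimensional (lev U K κ) (lev M L κ) ∧ IsGalois (lev U K κ) (lev M L κ) :=
  isGalois_of_gen (U := U) (M := M) (adjoin_lev κ)

theorem finrank_lev (κ : IntermediateField k C) :
    finrank (lev U K κ) (lev M L κ) = finrank K L := by
  haveI := isPushout_lev (U := U) (M := M) (K := K) (L := L) κ
  exact (finrank_of_isPushout (U := lev U K κ) (M := lev M L κ)).symm

variable (k C U M K L) in
include k C in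
theorem finrank_form : finrank U M = finrank K L := by
  haveI := isPushout_tower k C (U := U) (M := M) (K := K) (L := L)
  exact (finrank_of_isPushout (U := U) (M := M)).symm

/-- `Gal(L/K) ≃ Gal(lev M L κ / lev U K κ)` -/
noncomputable def galLev (κ : IntermediateField k C) :
    letI := isGalois_lev (U := U) (M := M) (K := K) (L := L) κ
    (L ≃ₐ[K] L) ≃* (lev M L κ ≃ₐ[lev U K κ] lev M L κ) :=
  haveI := (isGalois_lev (U := U) (M := M) (K := K) (L := L) κ).1
  haveI := (isGalois_lev (U := U) (M := M) (K := K) (L := L) κ).2
  haveI := isPushout_lev (U := U) (M := M) (K := K) (L := L) κ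
  MulEquiv.ofBijective (resG (lev U K κ) (lev M L κ) K L) resG_bijective

theorem coe_galLev (κ : IntermediateField k C) (s : L ≃ₐ[K] L) (x : lev M L κ) :
    ((galLev (U := U) (M := M) κ s x : lev M L κ) : L) = s x := by
  haveI := (isGalois_lev (U := U) (M := M) (K := K) (L := L) κ).1
  haveI := (isGalois_lev (U := U) (M := M) (K := K) (L := L) κ).2
  exact algebraMap_resG (U := lev U K κ) (M := lev M L κ) s x

end tower

end Crest.Agent.R013.Lev_372
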