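import Mathlib
import Crest.Agent.R013.Lev2_372
import Crest.Agent.R013.Desc5_372
import Crest.Agent.R013.Inh12_770

/-!
# R013 / LEV, part 3 (helper372): levels of a tower with semistable structures

`U ⊆ M` forms over `k₁` of `K ⊆ L` over `C`, `L/K` finite Galois, `S : SSK k C K`, `P : Spl S L`,
`S' = P.SL hff`.  `ev_lvl_spl` : both structures are defined over all large levels, with a common
finite set of directions of `S`.  `ev_uniq` : finitely many places are fixed and rational over all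
large levels.
-/

set_option autoImplicit false
set_option linter.all false

namespace Crest.Agent.R013.Lev_372

open scoped NNReal
open WithZero Module
open Crest.Agent.R013.Desc_372 Crest.Agent.R013.Desc_372.CE
open Crest.Agent.R013.RR7_948 Crest.Agent.R013.RR8_948 Crest.Agent.R013.RR9_948
open Crest.Agent.R013.Red332 Crest.Agent.R013.SSK_332 Crest.Agent.R013.DEm_719
open Crest.Agent.R013.Cell_408 (DiscNorm)

section two

variable {k C K L : Type*} [NontriviallyNormedField k] [CompleteSpace k] [IsUltrametricDist k]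
    [LocallyCompactSpace k]
    [NormedField C] [IsUltrametricDist C] [NormedAlgebra k C] [Algebra.IsAlgebraic k C]
    [Field K] [Algebra C K] [Field L] [Algebra C L] {S : SSK k C K} {S' : SSK k C L}
variable {k₁ U M : Type*} [Field k₁] [Field U] [Field M] [Algebra k k₁] [Algebra k₁ C]
  [IsScalarTower k k₁ C]
  [Algebra k₁ U] [Algebra U K] [Algebra k₁ K] [IsScalarTower k₁ C K] [IsScalarTower k₁ U K]
  [Algebra k₁ M] [Algebra M L] [Algebra k₁ L] [IsScalarTower k₁ C L] [IsScalarTower k₁ M L]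
  [CE k₁ C U K] [CE k₁ C M L]

/-- two semistable structures, `pr` = direction below -/
theorem ev_lvl_two (hfgU : (⊤ : IntermediateField k₁ U).FG) (hfgM : (⊤ : IntermediateField k₁ M).FG)
    (pr : S'.Dir → S.Dir) (hfin : ∀ d, (pr ⁻¹' {d}).Finite)
    (he0 : ∀ e, ∃ e', pr (S'.e0 e) = S.e0 e') (he1 : ∀ e, ∃ e', pr (S'.e1 e) = S.e1 e')
    (D : Set S.Dir) (hD : D.Finite) : ∃ D' : Set S.Dir, D'.Finite ∧ D ⊆ D' ∧
      Ev k₁ C fun κ => Lvl S k₁ U κ D' ∧ Lvl S' k₁ M κ (pr ⁻¹' D') := by
  classical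
  haveI := S'.fV
  choose dv hdv using exists_dir S'
  obtain ⟨D', h1, h2, h3, h4, h5⟩ := exists_dirs S (D ∪ Set.range fun v => pr (dv v))
    (hD.union (Set.finite_range _))
  have hpre : (pr ⁻¹' D').Finite := by
    have e1 : pr ⁻¹' D' = ⋃ d ∈ D', pr ⁻¹' {d} := by
      ext y; simp
    rw [e1]
    exact h1.biUnion fun d _ => hfin d
  refine ⟨D', h1, Set.subset_union_left.trans h2, (ev_lvl S k₁ U hfgU D' h1 h3 h4 h5).and
    (ev_lvl S' k₁ M hfgM (pr ⁻¹' D') hpre ?_ ?_ ?_)⟩
  · intro e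
    obtain ⟨e', he⟩ := he0 e
    exact Set.mem_preimage.mpr (he ▸ h3 e')
  · intro e
    obtain ⟨e', he⟩ := he1 e
    exact Set.mem_preimage.mpr (he ▸ h4 e')
  · intro v
    exact ⟨dv v, h2 (Or.inr ⟨v, rfl⟩), hdv v⟩

end two

section spl

variable {k C K L : Type*} [NontriviallyNormedField k] [CompleteSpace k] [IsUltrametricDist k]
    [LocallyCompactSpace k]
    [NormedField C] [IsUltrametricDist C] [NormedAlgebra k C] [Algebra.IsAlgebraic k C]
    [IsAlgClosed C] [hk : Fact (DiscNorm k)]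
    [Field K] [Algebra C K] [Field L] [Algebra C L] [Algebra K L] [IsScalarTower C K L]
    [FiniteDimensional K L] [IsGalois K L]
    [Algebra (RatFunc C) K] [IsScalarTower C (RatFunc C) K]
    [FiniteDimensional (RatFunc C) K] [Algebra.IsSeparable (RatFunc C) K]
    {S : SSK k C K} (P : Inh_770.Spl S L) (hff : ∀ i, Inh_770.FFat (P.nmL i))
variable {k₁ U M : Type*} [Field k₁] [Field U] [Field M] [Algebra k k₁] [Algebra k₁ C]
  [IsScalarTower k k₁ C]
  [Algebra k₁ U] [Algebra U K] [Algebra k₁ K] [IsScalarTower k₁ C K] [IsScalarTower k₁ U K]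
  [Algebra k₁ M] [Algebra M L] [Algebra k₁ L] [IsScalarTower k₁ C L] [IsScalarTower k₁ M L]
  [CE k₁ C U K] [CE k₁ C M L]

/-- **(EV-SPL)** a semistable structure and an inherited one are defined over all large levels -/
theorem ev_lvl_spl (hfgU : (⊤ : IntermediateField k₁ U).FG)
    (hfgM : (⊤ : IntermediateField k₁ M).FG) (D : Set S.Dir) (hD : D.Finite) :
    ∃ D' : Set S.Dir, D'.Finite ∧ D ⊆ D' ∧
      Ev k₁ C fun κ => Lvl S k₁ U κ D' ∧
        Lvl (P.SL hff) k₁ M κ {y | (P.dirE hff y).1 ∈ D'} := by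
  refine ev_lvl_two hfgU hfgM (fun y => (P.dirE hff y).1) (fun d => ?_) (fun e => ?_) (fun e => ?_)
    D hD
  · have h1 : (fun y => (P.dirE hff y).1) ⁻¹' {d} ⊆
        (P.dirE hff).symm '' ((fun s : L ≃ₐ[K] L => (d, s)) '' Set.univ) := by
      intro y hy
      refine ⟨P.dirE hff y, ⟨(P.dirE hff y).2, trivial, ?_⟩, (P.dirE hff).symm_apply_apply y⟩
      rw [← (show (P.dirE hff y).1 = d from hy)]
    exact ((Set.finite_univ.image _).image _).subset h1
  · exact ⟨(P.edE hff e).1, by rw [P.e0_eq]⟩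
  · exact ⟨(P.edE hff e).1, by rw [P.e1_eq]⟩

end spl

section places

variable {k C K₀ K : Type*} [Field k] [Field C] [Field K₀] [Field K]
  [Algebra k C] [Algebra k K₀] [Algebra C K] [Algebra K₀ K] [Algebra k K] [IsScalarTower k C K]
  [IsScalarTower k K₀ K] [h : CE k C K₀ K] [CharZero k]
  [Algebra (RatFunc k) K₀] [IsScalarTower k (RatFunc k) K₀] [FiniteDimensional (RatFunc k) K₀]
  [Algebra.IsAlgebraic K₀ K]

/-- **(EV-PL)** finitely many places are isolated at all large levels -/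
theorem ev_uniq (hc : algebraicClosure k K₀ = ⊥) (T : Set (Pl C K)) (hT : T.Finite) :
    Ev k C fun κ => ∀ P ∈ T, Uniq K₀ κ P := by
  obtain ⟨κ, h1, h2⟩ := exists_uniq hc T hT
  exact ⟨κ, h1, fun κ' hκ P hP => (h2 P hP).mono hκ⟩

end places

end Crest.Agent.R013.Lev_372
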