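import Mathlib
import Crest.Agent.R013.Lev3_372
import Crest.Agent.R013.Gl2_946
import Crest.Agent.R013.NB13_102

/-!
# R013 / LEV, part 4 (helper372): the levels as local fields; the level of the data of C-Y

* `nnf κ` : a level `κ` (finite over `k₁`, `k₁` finite over the locally compact `k`) is a
  nontrivially normed field, complete, ultrametric, with a uniformiser (946's `IsUnif`);
* `exists_level` : one level for all data of the tower `K ⊆ L`.
-/

set_option autoImplicit false
set_option linter.all false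

namespace Crest.Agent.R013.Lev_372

open scoped NNReal
open WithZero Module
open Crest.Agent.R013.Desc_372 Crest.Agent.R013.Desc_372.CE
open Crest.Agent.R013.RR7_948 Crest.Agent.R013.RR8_948 Crest.Agent.R013.RR9_948
open Crest.Agent.R013.Gl946 (IsUnif)
open Crest.Agent.R013.Cell_408 (DiscNorm)
open Crest.Agent.R013.Red332 Crest.Agent.R013.SSK_332 Crest.Agent.R013.DEm_719

section localfield

variable (k : Type*) {C k₁ : Type*} [NontriviallyNormedField k] [NormedField C] [NormedAlgebra k C]
  [Field k₁] [Algebra k k₁] [Algebra k₁ C] [IsScalarTower k k₁ C]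

/-- a level as a nontrivially normed field -/
@[reducible] noncomputable def nnf (κ : IntermediateField k₁ C) : NontriviallyNormedField κ :=
  { SubfieldClass.toNormedField κ with
    non_trivial := by
      obtain ⟨x, hx⟩ := NormedField.exists_one_lt_norm k
      refine ⟨algebraMap k κ x, ?_⟩
      show 1 < ‖((algebraMap k κ x : κ) : C)‖
      have h1 : ((algebraMap k κ x : κ) : C) = algebraMap k C x := rfl
      rw [h1, norm_algebraMap']
      exact hx }

theorem norm_nnf (κ : IntermediateField k₁ C) (x : κ) : (nnf k κ).norm x = ‖(x : C)‖ := rfl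

/-- `κ` as a normed algebra over `k` -/
@[reducible] noncomputable def nalgκ (κ : IntermediateField k₁ C) :
    letI := nnf k κ; NormedAlgebra k κ :=
  letI := nnf k κ
  { (inferInstance : Algebra k κ) with
    norm_smul_le := fun a x => by
      rw [Algebra.smul_def, norm_mul]
      refine le_of_eq ?_
      congr 1
      show ‖((algebraMap k κ a : κ) : C)‖ = ‖a‖
      have h1 : ((algebraMap k κ a : κ) : C) = algebraMap k C a := rfl
      rw [h1, norm_algebraMap'] }

/-- `C` as a normed algebra over `κ` -/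
@[reducible] noncomputable def nalgC (κ : IntermediateField k₁ C) :
    letI := nnf k κ; NormedAlgebra κ C :=
  letI := nnf k κ
  { (inferInstance : Algebra κ C) with
    norm_smul_le := fun a x => by
      rw [Algebra.smul_def, norm_mul]
      rfl }

include k in
theorem ultra_nnf [IsUltrametricDist C] (κ : IntermediateField k₁ C) :
    letI := nnf k κ; IsUltrametricDist κ := by
  letI := nnf k κ
  refine IsUltrametricDist.isUltrametricDist_of_forall_norm_add_le_max_norm fun x y => ?_
  exact IsUltrametricDist.norm_add_le_max (x : C) (y : C)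

include k in
theorem proper_nnf [LocallyCompactSpace k] (κ : IntermediateField k₁ C) [FiniteDimensional k k₁]
    [FiniteDimensional k₁ κ] : letI := nnf k κ; ProperSpace κ := by
  letI := nnf k κ
  letI := nalgκ k κ
  haveI : FiniteDimensional k κ := FiniteDimensional.trans k k₁ κ
  exact FiniteDimensional.proper k κ

include k in
theorem complete_nnf [LocallyCompactSpace k] (κ : IntermediateField k₁ C) [FiniteDimensional k k₁]
    [FiniteDimensional k₁ κ] : letI := nnf k κ; CompleteSpace κ := by
  letI := nnf k κ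
  haveI := proper_nnf k κ
  infer_instance

include k in
theorem exists_unif_nnf [LocallyCompactSpace k] [IsUltrametricDist C]
    (κ : IntermediateField k₁ C) [FiniteDimensional k k₁]
    [FiniteDimensional k₁ κ] : letI := nnf k κ; ∃ π : κ, IsUnif π := by
  letI := nnf k κ
  haveI := ultra_nnf k κ
  haveI := proper_nnf k κ
  have hcl : IsClosed (Metric.ball (0 : κ) 1) := IsUltrametricDist.isClosed_ball 0 1
  have hK : IsCompact (Metric.ball (0 : κ) 1) :=
    Metric.isCompact_of_isClosed_isBounded hcl Metric.isBounded_ball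
  obtain ⟨a, ha0, ha1⟩ := NormedField.exists_norm_lt_one κ
  obtain ⟨x, hx, hmax⟩ := hK.exists_isMaxOn ⟨a, by simpa using ha1⟩
    (continuous_norm (E := κ)).continuousOn
  have hx1 : ‖x‖ < 1 := by simpa using hx
  have hle : ∀ a : κ, ‖a‖ < 1 → ‖a‖ ≤ ‖x‖ := fun a ha => hmax (by simpa using ha)
  exact ⟨x, ha0.trans_le (hle _ ha1), hx1, hle⟩

end localfield

section fixed

variable {k C K₀ K : Type*} [Field k] [Field C] [Field K₀] [Field K]
  [Algebra k C] [Algebra k K₀] [Algebra C K] [Algebra K₀ K] [Algebra k K] [IsScalarTower k C K]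
  [IsScalarTower k K₀ K] [CE k C K₀ K]

/-- every automorphism over `K₀` is in `Gam ⊥` -/
theorem mem_Gam_bot (g : K ≃ₐ[K₀] K) : g ∈ Gam K₀ K (⊥ : IntermediateField k C) := by
  rw [mem_Gam]
  intro c hc
  obtain ⟨x, rfl⟩ := IntermediateField.mem_bot.mp hc
  have h1 : algebraMap C K (algebraMap k C x) = algebraMap K₀ K (algebraMap k K₀ x) := by
    rw [← IsScalarTower.algebraMap_apply k C K, ← IsScalarTower.algebraMap_apply k K₀ K]
  rw [h1, g.commutes]

omit [CE k C K₀ K] in
/-- an automorphism over the level `κ`, as an automorphism over `K₀`, is in `Gam κ` -/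
theorem restrict_mem_Gam {κ : IntermediateField k C} (g : K ≃ₐ[lev K₀ K κ] K) :
    (g.restrictScalars K₀) ∈ Gam K₀ K κ := by
  rw [mem_Gam']
  intro f hf
  exact g.commutes ⟨f, hf⟩

variable [CharZero k] [Algebra (RatFunc k) K₀] [IsScalarTower k (RatFunc k) K₀]
  [FiniteDimensional (RatFunc k) K₀] [Algebra.IsAlgebraic K₀ K]

/-- an isolated place is fixed by all automorphisms over the level -/
theorem uniq_v_eq_lev [Normal k C] {κ : IntermediateField k C} {P : Pl C K} (hP : Uniq K₀ κ P)
    (g : K ≃ₐ[lev K₀ K κ] K) (f : K) : P.v (g f) = P.v f :=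
  hP.v_eq (s := g.restrictScalars K₀) (restrict_mem_Gam g) f

end fixed

section final

variable {k C K L : Type*} [NontriviallyNormedField k] [CompleteSpace k] [IsUltrametricDist k]
    [LocallyCompactSpace k]
    [NormedField C] [IsUltrametricDist C] [NormedAlgebra k C] [Algebra.IsAlgebraic k C]
    [IsAlgClosed C] [hk : Fact (DiscNorm k)]
    [Field K] [Algebra C K] [Field L] [Algebra C L] [Algebra K L] [IsScalarTower C K L]
    [FiniteDimensional K L] [IsGalois K L]
    [Algebra (RatFunc C) K] [IsScalarTower C (RatFunc C) K]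
    [FiniteDimensional (RatFunc C) K] [Algebra.IsSeparable (RatFunc C) K]
    {S : SSK k C K} (P : Inh_770.Spl S L) (hff : ∀ i, Inh_770.FFat (P.nmL i))
variable {k₁ U M : Type*} [Field k₁] [Field U] [Field M] [Algebra k k₁] [Algebra k₁ C]
  [IsScalarTower k k₁ C] [CharZero k₁]
  [Algebra k₁ U] [Algebra U K] [Algebra k₁ K] [IsScalarTower k₁ C K] [IsScalarTower k₁ U K]
  [Algebra k₁ M] [Algebra M L] [Algebra k₁ L] [IsScalarTower k₁ C L] [IsScalarTower k₁ M L]
  [CE k₁ C U K] [CE k₁ C M L]
  [Algebra (RatFunc k₁) U] [IsScalarTower k₁ (RatFunc k₁) U] [FiniteDimensional (RatFunc k₁) U]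
  [Algebra (RatFunc k₁) M] [IsScalarTower k₁ (RatFunc k₁) M] [FiniteDimensional (RatFunc k₁) M]

/-- **(LEVEL)** one finite level over which all data of the tower `K ⊆ L` are defined -/
theorem exists_level (hcM : algebraicClosure k₁ M = ⊥) (D : Set S.Dir) (hD : D.Finite)
    (T : Set K) (hT : T.Finite) (T' : Set L) (hT' : T'.Finite) (Pls : Set (Pl C L))
    (hPls : Pls.Finite) {Φ : IntermediateField k₁ C → Prop} (hΦ : Ev k₁ C Φ) :
    ∃ (κ : IntermediateField k₁ C) (D' : Set S.Dir), FiniteDimensional k₁ κ ∧ D'.Finite ∧ D ⊆ D' ∧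
      T ⊆ lev U K κ ∧ T' ⊆ lev M L κ ∧
      Lvl S κ (lev U K κ) (⊥ : IntermediateField κ C) D' ∧
      Lvl (P.SL hff) κ (lev M L κ) (⊥ : IntermediateField κ C)
        {y | (P.dirE hff y).1 ∈ D'} ∧
      (∀ Q ∈ Pls, Uniq M κ Q) ∧ Φ κ := by
  haveI : Algebra.IsAlgebraic M L := CE.isAlgebraic k₁ C M L
  obtain ⟨D', h1, h2, h3⟩ := ev_lvl_spl P hff (k₁ := k₁) (U := U) (M := M)
    (fg_of_ratFunc k₁ U) (fg_of_ratFunc k₁ M) D hD
  obtain ⟨κ, hκ, ⟨h4, h5⟩, h6, h7, h8, h9⟩ := (h3.and ((ev_subset_lev (K₀ := U) hT).and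
    ((ev_subset_lev (K₀ := M) hT').and ((ev_uniq hcM Pls hPls).and hΦ)))).exists
  exact ⟨κ, D', hκ, h1, h2, h6, h7, lvl_bot h4, lvl_bot h5, h8, h9⟩

end final

end Crest.Agent.R013.Lev_372
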