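import Mathlib
import Crest.Agent.R013.Lev4_372

/-!
# R013 / LEV (helper372): the output structure of `exists_level`

`LevData S P hff T Pls` : a finite extension `κ` of `k` inside `C` (a local field with the norm of
`C`), forms `U ⊆ M` over `κ` of `K ⊆ L`, `M/U` Galois, over which the semistable structures `S` and
`P.SL hff` are defined, with the elements of `T` in `U` and the places in `Pls` fixed by
`Gal(L/M)` and of degree one over `κ`.
-/

set_option autoImplicit false
set_option linter.all false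

namespace Crest.Agent.R013.Lev_372

open scoped NNReal
open WithZero Module
open Crest.Agent.R013.Desc_372 Crest.Agent.R013.Desc_372.CE
open Crest.Agent.R013.RR7_948 Crest.Agent.R013.RR8_948 Crest.Agent.R013.RR9_948
open Crest.Agent.R013.RR11_948
open Crest.Agent.R013.Red332 Crest.Agent.R013.SSK_332 Crest.Agent.R013.DEm_719
open Crest.Agent.R013.Gl946 (IsUnif)
open Crest.Agent.R013.Cell_408 (DiscNorm)

universe v u

section defs

variable {k : Type v} {C K L : Type u} [NontriviallyNormedField k] [CompleteSpace k]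
    [IsUltrametricDist k] [LocallyCompactSpace k]
    [NormedField C] [IsUltrametricDist C] [NormedAlgebra k C] [Algebra.IsAlgebraic k C]
    [IsAlgClosed C] [hk : Fact (DiscNorm k)]
    [Field K] [Algebra C K] [Field L] [Algebra C L] [Algebra K L] [IsScalarTower C K L]
    [FiniteDimensional K L] [IsGalois K L]
    [Algebra (RatFunc C) K] [IsScalarTower C (RatFunc C) K]
    [FiniteDimensional (RatFunc C) K] [Algebra.IsSeparable (RatFunc C) K]

/-- the data of `exists_level` -/
structure LevData {S : SSK k C K} (P : Inh_770.Spl S L) (hff : ∀ i, Inh_770.FFat (P.nmL i))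
    (D : Set S.Dir) (T : Set K) (Pls : Set (Pl C L)) : Type (max v (u + 1)) where
  /-- the level -/
  κ : Type u
  [iκ : NontriviallyNormedField κ]
  [cκ : CompleteSpace κ]
  [uκ : IsUltrametricDist κ]
  [zκ : CharZero κ]
  unif : ∃ π : κ, IsUnif π
  [kκ : Algebra k κ]
  [κC : Algebra κ C]
  [kκC : IsScalarTower k κ C]
  [fκ : FiniteDimensional k κ]
  norm_κ : ∀ c : κ, ‖algebraMap κ C c‖ = ‖c‖
  /-- the form of `K` -/
  U : Type u
  [iU : Field U]
  [κU : Algebra κ U]
  [UK : Algebra U K]
  [κK : Algebra κ K]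
  [t1 : IsScalarTower κ C K]
  [t2 : IsScalarTower κ U K]
  [ceU : CE κ C U K]
  /-- the form of `L` -/
  M : Type u
  [iM : Field M]
  [κM : Algebra κ M]
  [ML : Algebra M L]
  [κL : Algebra κ L]
  [t3 : IsScalarTower κ C L]
  [t4 : IsScalarTower κ M L]
  [ceM : CE κ C M L]
  [UM : Algebra U M]
  [UL : Algebra U L]
  [t5 : IsScalarTower κ K L]
  [t6 : IsScalarTower U K L]
  [t7 : IsScalarTower U M L]
  [t8 : IsScalarTower κ U M]
  [t9 : IsScalarTower κ U L]
  [fUM : FiniteDimensional U M]
  [gUM : IsGalois U M]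
  [rU : Algebra (RatFunc κ) U]
  [rtU : IsScalarTower κ (RatFunc κ) U]
  [rfU : FiniteDimensional (RatFunc κ) U]
  [rM : Algebra (RatFunc κ) M]
  [rtM : IsScalarTower κ (RatFunc κ) M]
  [rfM : FiniteDimensional (RatFunc κ) M]
  [rUM : IsScalarTower (RatFunc κ) U M]
  hU : algebraicClosure κ U = ⊥
  hM : algebraicClosure κ M = ⊥
  T_mem : ∀ t ∈ T, ∃ y : U, algebraMap U K y = t
  /-- the directions -/
  D' : Set S.Dir
  D'_fin : D'.Finite
  D_le : D ⊆ D'
  lvl : Lvl S κ U (⊥ : IntermediateField κ C) D'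
  lvlL : Lvl (P.SL hff) κ M (⊥ : IntermediateField κ C) {y | (P.dirE hff y).1 ∈ D'}
  fixed : ∀ Q ∈ Pls, ∀ (g : L ≃ₐ[M] L) (f : L), Q.v (g f) = Q.v f
  rat : ∀ Q ∈ Pls, ∃ Q₀ : Pl κ M, degP Q₀ = 1 ∧ ∀ f : M, Q₀.v f = Q.v (algebraMap M L f)

attribute [instance] LevData.iκ LevData.cκ LevData.uκ LevData.zκ LevData.kκ LevData.κC LevData.kκC
  LevData.fκ LevData.iU LevData.κU LevData.UK LevData.κK LevData.t1 LevData.t2 LevData.ceU
  LevData.iM LevData.κM LevData.ML LevData.κL LevData.t3 LevData.t4 LevData.ceM LevData.UM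
  LevData.UL LevData.t5 LevData.t6 LevData.t7 LevData.t8 LevData.t9 LevData.fUM LevData.gUM
  LevData.rU LevData.rtU LevData.rfU LevData.rM LevData.rtM LevData.rfM LevData.rUM

end defs

end Crest.Agent.R013.Lev_372
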