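import Mathlib
import Crest.Agent.R013.LevDefs_372

/-!
# R013 / LEV, part 5 (helper372): `LevData` from forms of the tower
-/

set_option autoImplicit false
set_option linter.all false

namespace Crest.Agent.R013.Lev_372

open scoped NNReal
open WithZero Module Polynomial
open Crest.Agent.R013.Desc_372 Crest.Agent.R013.Desc_372.CE
open Crest.Agent.R013.RR7_948 Crest.Agent.R013.RR8_948 Crest.Agent.R013.RR9_948
open Crest.Agent.R013.RR11_948
open Crest.Agent.R013.Red332 Crest.Agent.R013.SSK_332 Crest.Agent.R013.DEm_719
open Crest.Agent.R013.Gl946 (IsUnif)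
open Crest.Agent.R013.Cell_408 (DiscNorm)

/-- a form of a function field over an algebraically closed field has no new constants -/
theorem hc_of_ce (k C K₀ K : Type*) [Field k] [Field C] [Field K₀] [Field K] [Algebra k C]
    [Algebra k K₀] [Algebra C K] [Algebra K₀ K] [Algebra k K] [IsScalarTower k C K]
    [IsScalarTower k K₀ K] [CE k C K₀ K] [IsAlgClosed C] : algebraicClosure k K₀ = ⊥ := by
  rw [eq_bot_iff]
  intro x hx
  have h1 : IsAlgebraic k x := mem_algebraicClosure_iff.mp hx
  have h2 : IsAlgebraic C (algebraMap K₀ K x) := by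
    have h3 : IsAlgebraic k (algebraMap K₀ K x) := h1.algebraMap
    exact h3.tower_top C
  have hbot : algebraicClosure C K = ⊥ := IntermediateField.eq_bot_of_isAlgClosed_of_isAlgebraic _
  have h3 : algebraMap K₀ K x ∈ algebraicClosure C K := mem_algebraicClosure_iff.mpr h2
  rw [hbot, IntermediateField.mem_bot] at h3
  obtain ⟨c, hc'⟩ := h3
  have h4 : algebraMap C K c ∈ lev K₀ K (⊥ : IntermediateField k C) := by
    rw [hc']
    exact (lev K₀ K (⊥ : IntermediateField k C)).algebraMap_mem x
  obtain ⟨a, ha⟩ := IntermediateField.mem_bot.mp (mem_of_algebraMap_mem_lev K₀ K ⊥ h4)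
  rw [IntermediateField.mem_bot]
  refine ⟨a, (algebraMap K₀ K).injective ?_⟩
  rw [← hc', ← ha, ← IsScalarTower.algebraMap_apply, ← IsScalarTower.algebraMap_apply]

/-- ring homomorphisms from the rational function field -/
theorem ratFunc_hom_ext {F A : Type*} [Field F] [Field A] {φ ψ : RatFunc F →+* A}
    (h1 : ∀ c : F, φ (algebraMap F (RatFunc F) c) = ψ (algebraMap F (RatFunc F) c))
    (h2 : φ RatFunc.X = ψ RatFunc.X) : φ = ψ := by
  apply IsLocalization.ringHom_ext (nonZeroDivisors F[X])
  apply Polynomial.ringHom_ext
  · intro c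
    have e1 : algebraMap F[X] (RatFunc F) (C c) = algebraMap F (RatFunc F) c := by
      rw [RatFunc.algebraMap_C]; rfl
    show φ (algebraMap F[X] (RatFunc F) (C c)) = ψ (algebraMap F[X] (RatFunc F) (C c))
    rw [e1, h1]
  · show φ (algebraMap F[X] (RatFunc F) X) = ψ (algebraMap F[X] (RatFunc F) X)
    rw [RatFunc.algebraMap_X, h2]

universe v u

section main

variable {k : Type v} {C K L : Type u} [NontriviallyNormedField k] [CompleteSpace k]
    [IsUltrametricDist k] [LocallyCompactSpace k] [CharZero k]
    [NormedField C] [IsUltrametricDist C] [NormedAlgebra k C] [Algebra.IsAlgebraic k C]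
    [IsAlgClosed C] [hk : Fact (DiscNorm k)]
    [Field K] [Algebra C K] [Field L] [Algebra C L] [Algebra K L] [IsScalarTower C K L]
    [FiniteDimensional K L] [IsGalois K L]
    [Algebra (RatFunc C) K] [IsScalarTower C (RatFunc C) K]
    [FiniteDimensional (RatFunc C) K] [Algebra.IsSeparable (RatFunc C) K]
    {S : SSK k C K} (P : Inh_770.Spl S L) (hff : ∀ i, Inh_770.FFat (P.nmL i))
variable {k₁ U M : Type u} [Field k₁] [Field U] [Field M] [Algebra k k₁] [Algebra k₁ C]
  [IsScalarTower k k₁ C] [FiniteDimensional k k₁]
  [Algebra k₁ U] [Algebra U K] [Algebra k₁ K] [IsScalarTower k₁ C K] [IsScalarTower k₁ U K]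
  [Algebra k₁ M] [Algebra M L] [Algebra k₁ L] [IsScalarTower k₁ C L] [IsScalarTower k₁ M L]
  [IsScalarTower k₁ K L] [Algebra U M] [Algebra U L] [IsScalarTower U K L] [IsScalarTower U M L]
  [IsScalarTower k₁ U M] [IsScalarTower k₁ U L]
  [CE k₁ C U K] [CE k₁ C M L] [FiniteDimensional U M] [IsGalois U M]
  [Algebra (RatFunc k₁) U] [IsScalarTower k₁ (RatFunc k₁) U] [FiniteDimensional (RatFunc k₁) U]
  [Algebra (RatFunc k₁) M] [IsScalarTower k₁ (RatFunc k₁) M] [FiniteDimensional (RatFunc k₁) M]
  [IsScalarTower (RatFunc k₁) U M]

attribute [local instance] levRat levRat_tower levRat_finite levLev tower_levLev tower_κ_levLev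
  tower_U_levLev

omit [FiniteDimensional (RatFunc k₁) U] [FiniteDimensional (RatFunc k₁) M] in
theorem rat_tower (κ : IntermediateField k₁ C) :
    IsScalarTower (RatFunc κ) (lev U K κ) (lev M L κ) := by
  have h1 : algebraMap (RatFunc κ) (lev M L κ) =
      (algebraMap (lev U K κ) (lev M L κ)).comp (algebraMap (RatFunc κ) (lev U K κ)) := by
    apply ratFunc_hom_ext
    · intro c
      rw [RingHom.comp_apply, ← IsScalarTower.algebraMap_apply κ (RatFunc κ) (lev U K κ),
        ← IsScalarTower.algebraMap_apply κ (RatFunc κ) (lev M L κ),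
        ← IsScalarTower.algebraMap_apply κ (lev U K κ) (lev M L κ)]
    · have e1 : algebraMap (RatFunc κ) (lev U K κ) RatFunc.X =
          algebraMap U (lev U K κ) (xK k₁ U) := levRat_xK κ
      have e2 : algebraMap (RatFunc κ) (lev M L κ) RatFunc.X =
          algebraMap M (lev M L κ) (xK k₁ M) := levRat_xK κ
      have e3 : xK k₁ M = algebraMap U M (xK k₁ U) :=
        IsScalarTower.algebraMap_apply (RatFunc k₁) U M RatFunc.X
      rw [RingHom.comp_apply, e1, e2, e3]
      apply Subtype.ext
      show algebraMap M L (algebraMap U M (xK k₁ U)) = algebraMap K L (algebraMap U K (xK k₁ U))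
      rw [← IsScalarTower.algebraMap_apply, ← IsScalarTower.algebraMap_apply]
  exact IsScalarTower.of_algebraMap_eq fun x => by rw [h1]; rfl

variable (k₁ U M)

attribute [local instance] finite_lev sep_lev isAlg_lev

include k₁ U M in
/-- **(LEVEL, forms)** -/
theorem levData_of_forms (D : Set S.Dir) (hD : D.Finite)
    (T : Set K) (hT : T.Finite) (Pls : Set (Pl C L)) (hPls : Pls.Finite) :
    Nonempty (LevData.{v, u} P hff D T Pls) := by
  haveI : CharZero k₁ := charZero_of_injective_algebraMap (algebraMap k k₁).injective
  haveI : CharZero C := charZero_of_injective_algebraMap (algebraMap k C).injective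
  haveI : Algebra.IsAlgebraic k₁ C := Algebra.IsAlgebraic.tower_top (K := k) k₁
  haveI : Normal k₁ C := normal_iff.mpr fun x =>
      ⟨(Algebra.IsAlgebraic.isAlgebraic x).isIntegral, IsAlgClosed.splits _⟩
  haveI : IsGalois k₁ C := ⟨⟩
  haveI : Algebra.IsAlgebraic M L := CE.isAlgebraic k₁ C M L
  have hcM : algebraicClosure k₁ M = ⊥ := hc_of_ce k₁ C M L
  letI aL : Algebra (RatFunc C) L := ((algebraMap K L).comp (algebraMap (RatFunc C) K)).toAlgebra
  haveI tL : IsScalarTower (RatFunc C) K L := IsScalarTower.of_algebraMap_eq fun x => rfl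
  haveI tL' : IsScalarTower C (RatFunc C) L := IsScalarTower.of_algebraMap_eq fun x => by
    show algebraMap C L x = algebraMap K L (algebraMap (RatFunc C) K (algebraMap C (RatFunc C) x))
    rw [← IsScalarTower.algebraMap_apply C (RatFunc C) K, ← IsScalarTower.algebraMap_apply]
  haveI fL : FiniteDimensional (RatFunc C) L := FiniteDimensional.trans (RatFunc C) K L
  obtain ⟨κ, D', hκ, h1, h2, h3, -, h5, h6, h7, -⟩ := exists_level P hff (U := U) hcM D hD T hT
    (∅ : Set L) Set.finite_empty Pls hPls (Ev.all (k := k₁) (C := C) fun _ => trivial)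
  have hgal := isGalois_lev (k := k₁) (C := C) (U := U) (K := K) (M := M) (L := L) κ
  have hcU' : algebraicClosure κ (lev U K κ) = ⊥ := hc_of_ce κ C (lev U K κ) K
  have hcM' : algebraicClosure κ (lev M L κ) = ⊥ := hc_of_ce κ C (lev M L κ) L
  haveI : FiniteDimensional k κ := FiniteDimensional.trans k k₁ κ
  haveI : IsScalarTower k κ C := IsScalarTower.of_algebraMap_eq fun x => rfl
  exact ⟨{ κ := κ
           iκ := nnf k κ
           cκ := complete_nnf k κ
           uκ := ultra_nnf k κ
           zκ := charZero_of_injective_algebraMap (algebraMap k κ).injective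
           unif := exists_unif_nnf k κ
           kκ := inferInstance
           κC := inferInstance
           kκC := inferInstance
           fκ := inferInstance
           norm_κ := fun c => rfl
           U := lev U K κ
           iU := inferInstance
           κU := inferInstance
           UK := inferInstance
           κK := inferInstance
           t1 := inferInstance
           t2 := inferInstance
           ceU := inferInstance
           M := lev M L κ
           iM := inferInstance
           κM := inferInstance
           ML := inferInstance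
           κL := inferInstance
           t3 := inferInstance
           t4 := inferInstance
           ceM := inferInstance
           UM := levLev U M K L κ
           UL := inferInstance
           t5 := inferInstance
           t6 := inferInstance
           t7 := tower_levLev κ
           t8 := tower_κ_levLev κ
           t9 := inferInstance
           fUM := hgal.1
           gUM := hgal.2
           rU := levRat U K κ
           rtU := levRat_tower κ
           rfU := levRat_finite κ
           rM := levRat M L κ
           rtM := levRat_tower κ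
           rfM := levRat_finite κ
           rUM := rat_tower κ
           hU := hcU'
           hM := hcM'
           T_mem := fun t ht => ⟨⟨t, h3 ht⟩, rfl⟩
           D' := D'
           D'_fin := h1
           D_le := h2
           lvl := h5
           lvlL := h6
           fixed := fun Q hQ g f => uniq_v_eq_lev (h7 Q hQ) g f
           rat := fun Q hQ => ⟨resC κ (lev M L κ) Q, (h7 Q hQ).degP_eq_one hcM, fun f =>
             resC_lev_v hcM κ Q f⟩ }⟩

end main

end Crest.Agent.R013.Lev_372
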