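import Mathlib
import Crest.Agent.R013.Lev5_372
import Crest.Agent.R013.DescC2_116

/-!
# R013 / LEV, part 6 (helper372): `LevData` for a tower

`Form k C K` : a form of `K` over a finite extension of `k`.  `Form.of_finite` : a finite extension
of a field with a form has a form.  `exists_levData` : the level of stage C.
-/

set_option autoImplicit false
set_option linter.all false

namespace Crest.Agent.R013.Lev_372

open scoped NNReal
open WithZero Module Polynomial
open Crest.Agent.R013.Desc_372 Crest.Agent.R013.Desc_372.CE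
open Crest.Agent.R013.RR7_948 Crest.Agent.R013.RR8_948 Crest.Agent.R013.RR9_948
open Crest.Agent.R013.RR11_948
open Crest.Agent.R013.Red332 Crest.Agent.R013.SSK_332 Crest.Agent.R013.DEm_719
open Crest.Agent.R013.Gl946 (IsUnif)
open Crest.Agent.R013.Cell_408 (DiscNorm)

universe w v u

/-- a form of `K/C` over a finite extension `k₁` of `k` -/
structure Form (k : Type v) (C K : Type u) [Field k] [Field C] [Algebra k C] [Field K]
    [Algebra C K] : Type (max v (u + 1)) where
  k₁ : Type u
  [i1 : Field k₁]
  [a1 : Algebra k k₁]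
  [a2 : Algebra k₁ C]
  [t1 : IsScalarTower k k₁ C]
  [f1 : FiniteDimensional k k₁]
  U : Type u
  [i2 : Field U]
  [a3 : Algebra k₁ U]
  [a4 : Algebra U K]
  [a5 : Algebra k₁ K]
  [t2 : IsScalarTower k₁ C K]
  [t3 : IsScalarTower k₁ U K]
  [ce : CE k₁ C U K]
  [r1 : Algebra (RatFunc k₁) U]
  [r2 : IsScalarTower k₁ (RatFunc k₁) U]
  [r3 : FiniteDimensional (RatFunc k₁) U]

section one

variable {k : Type v} {k₀ : Type w} {C K₀ F K : Type u} [Field k] [Field k₀] [Field C] [Field K₀]
  [Field F] [Field K] [Algebra k C] [Algebra k k₀] [Algebra k₀ C] [IsScalarTower k k₀ C]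
  [FiniteDimensional k k₀] [Algebra k₀ K₀] [Algebra C F] [Algebra K₀ F] [Algebra k₀ F]
  [IsScalarTower k₀ C F] [IsScalarTower k₀ K₀ F] [CE k₀ C K₀ F]
  [Algebra C K] [Algebra F K] [IsScalarTower C F K] [FiniteDimensional F K]
  [Algebra (RatFunc k₀) K₀] [IsScalarTower k₀ (RatFunc k₀) K₀] [FiniteDimensional (RatFunc k₀) K₀]

attribute [local instance] levRat levRat_tower levRat_finite

variable (k k₀ C K₀ F K) in
include k₀ K₀ F in
/-- a finite extension of a field with a form has a form -/
theorem exists_form : Nonempty (Form k C K) := by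
  letI aK : Algebra K₀ K := ((algebraMap F K).comp (algebraMap K₀ F)).toAlgebra
  haveI tK : IsScalarTower K₀ F K := IsScalarTower.of_algebraMap_eq fun x => rfl
  obtain ⟨k', hk', h1⟩ := DescC_116.exists_model k₀ C K₀ F K ∅ Set.finite_empty
  obtain ⟨M, -, hM1, -, hM2⟩ := h1 k' le_rfl
  letI aR : Algebra (RatFunc k') M := ((algebraMap (lev K₀ F k') M).comp
    (algebraMap (RatFunc k') (lev K₀ F k'))).toAlgebra
  haveI tR : IsScalarTower (RatFunc k') (lev K₀ F k') M :=
    IsScalarTower.of_algebraMap_eq fun x => rfl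
  haveI tR' : IsScalarTower k' (RatFunc k') M := IsScalarTower.of_algebraMap_eq fun x => by
    show algebraMap k' M x = algebraMap (lev K₀ F k') M
      (algebraMap (RatFunc k') (lev K₀ F k') (algebraMap k' (RatFunc k') x))
    rw [← IsScalarTower.algebraMap_apply k' (RatFunc k') (lev K₀ F k'),
      ← IsScalarTower.algebraMap_apply]
  haveI fR : FiniteDimensional (RatFunc k') M := FiniteDimensional.trans _ (lev K₀ F k') M
  haveI : IsScalarTower k k' C := IsScalarTower.of_algebraMap_eq fun x => rfl
  exact ⟨{ k₁ := k', U := M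
           f1 := FiniteDimensional.trans k k₀ k' }⟩

end one

section two

variable {k : Type v} {C K L : Type u} [NontriviallyNormedField k] [CompleteSpace k]
    [IsUltrametricDist k] [LocallyCompactSpace k] [CharZero k]
    [NormedField C] [IsUltrametricDist C] [NormedAlgebra k C] [Algebra.IsAlgebraic k C]
    [IsAlgClosed C] [hk : Fact (DiscNorm k)]
    [Field K] [Algebra C K] [Field L] [Algebra C L] [Algebra K L] [IsScalarTower C K L]
    [FiniteDimensional K L] [IsGalois K L]
    [Algebra (RatFunc C) K] [IsScalarTower C (RatFunc C) K]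
    [FiniteDimensional (RatFunc C) K] [Algebra.IsSeparable (RatFunc C) K]
    {S : SSK k C K} (P : Inh_770.Spl S L) (hff : ∀ i, Inh_770.FFat (P.nmL i))

attribute [local instance] levRat levRat_tower levRat_finite

section lev1

variable (k₁ U : Type u) [Field k₁] [Field U] [Algebra k k₁] [Algebra k₁ C]
  [IsScalarTower k k₁ C] [FiniteDimensional k k₁]
  [Algebra k₁ U] [Algebra U K] [Algebra k₁ K] [IsScalarTower k₁ C K] [IsScalarTower k₁ U K]
  [CE k₁ C U K]
  [Algebra (RatFunc k₁) U] [IsScalarTower k₁ (RatFunc k₁) U] [FiniteDimensional (RatFunc k₁) U]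

include k₁ U in
/-- **(LEVEL)** from a form of `K` -/
theorem levData_of_form (D : Set S.Dir) (hD : D.Finite)
    (T : Set K) (hT : T.Finite) (Pls : Set (Pl C L)) (hPls : Pls.Finite) :
    Nonempty (LevData.{v, u} P hff D T Pls) := by
  letI aUL : Algebra U L := ((algebraMap K L).comp (algebraMap U K)).toAlgebra
  haveI tUL : IsScalarTower U K L := IsScalarTower.of_algebraMap_eq fun x => rfl
  obtain ⟨k', hk', h1⟩ := DescC_116.exists_galois_model k₁ C U K L ∅ Set.finite_empty
  obtain ⟨M, -, hM1, -, hM2, hM3, -⟩ := h1 k' le_rfl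
  letI aR : Algebra (RatFunc k') M := ((algebraMap (lev U K k') M).comp
    (algebraMap (RatFunc k') (lev U K k'))).toAlgebra
  haveI tR : IsScalarTower (RatFunc k') (lev U K k') M :=
    IsScalarTower.of_algebraMap_eq fun x => rfl
  haveI tR' : IsScalarTower k' (RatFunc k') M := IsScalarTower.of_algebraMap_eq fun x => by
    show algebraMap k' M x = algebraMap (lev U K k') M
      (algebraMap (RatFunc k') (lev U K k') (algebraMap k' (RatFunc k') x))
    rw [← IsScalarTower.algebraMap_apply k' (RatFunc k') (lev U K k'),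
      ← IsScalarTower.algebraMap_apply]
  haveI fR : FiniteDimensional (RatFunc k') M := FiniteDimensional.trans _ (lev U K k') M
  haveI : IsScalarTower k k' C := IsScalarTower.of_algebraMap_eq fun x => rfl
  haveI : FiniteDimensional k k' := FiniteDimensional.trans k k₁ k'
  exact levData_of_forms P hff (k₁ := k') (U := lev U K k') (M := M) D hD T hT Pls hPls

end lev1

variable (k₀ : Type w) (K₀ F : Type u) [Field k₀] [Field K₀] [Field F] [Algebra k k₀]
  [Algebra k₀ C] [IsScalarTower k k₀ C] [FiniteDimensional k k₀]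
  [Algebra k₀ K₀] [Algebra C F] [Algebra K₀ F] [Algebra k₀ F]
  [IsScalarTower k₀ C F] [IsScalarTower k₀ K₀ F] [CE k₀ C K₀ F]
  [Algebra F K] [IsScalarTower C F K] [FiniteDimensional F K]
  [Algebra (RatFunc k₀) K₀] [IsScalarTower k₀ (RatFunc k₀) K₀] [FiniteDimensional (RatFunc k₀) K₀]

include k₀ K₀ F in
/-- **(LEVEL)** the level of stage C -/
theorem exists_levData (D : Set S.Dir) (hD : D.Finite)
    (T : Set K) (hT : T.Finite) (Pls : Set (Pl C L)) (hPls : Pls.Finite) :
    Nonempty (LevData.{v, u} P hff D T Pls) := by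
  obtain ⟨Z⟩ := exists_form k k₀ C K₀ F K
  letI := Z.i1
  letI := Z.i2
  letI := Z.a1
  letI := Z.a2
  letI := Z.a3
  letI := Z.a4
  letI := Z.a5
  letI := Z.r1
  haveI := Z.t1
  haveI := Z.t2
  haveI := Z.t3
  haveI := Z.f1
  haveI := Z.ce
  haveI := Z.r2
  haveI := Z.r3
  exact levData_of_form P hff Z.k₁ Z.U D hD T hT Pls hPls

end two

end Crest.Agent.R013.Lev_372
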