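import Crest.Agent.R013.NB13_102
import Crest.Agent.R013.Desc3_372
import Crest.Agent.R013.DEm3_719

/-!
# Row 13, C-NB, part 14: descent of loops in 372's language

`normal_of_CE` : `K/K₀` is normal if `K = K₀ ⊗ C` with `C/k` normal.  `loop_of_CE`, `loop_of_def`:
a loop of norms of `K` at a vertex of a semistable structure which is defined over the level `k'`
gives a loop of norms of the level field.
-/

set_option autoImplicit false
set_option linter.unusedSectionVars false

namespace Crest.Agent.R013.NB_102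

open Module IntermediateField
open scoped NNReal
open Crest.Agent.R013.Desc_372

section

variable (k C K₀ K : Type*) [Field k] [Field C] [Field K₀] [Field K] [Algebra k C] [Algebra k K₀]
    [Algebra C K] [Algebra K₀ K] [Algebra k K] [IsScalarTower k C K] [IsScalarTower k K₀ K]

/-- `K/K₀` is generated by the constants -/
theorem adjoin_const_eq_top [CE k C K₀ K] :
    IntermediateField.adjoin K₀ (Set.range (algebraMap C K)) = ⊤ := by
  rw [eq_top_iff]
  intro f _
  obtain ⟨n, c, g, rfl⟩ := CE.exists_sum k C K₀ K f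
  refine sum_mem fun i _ => mul_mem ?_ ?_
  · exact IntermediateField.subset_adjoin K₀ _ ⟨c i, rfl⟩
  · exact IntermediateField.algebraMap_mem _ (g i)

/-- `K/K₀` is normal -/
theorem normal_of_CE [CE k C K₀ K] [Normal k C] : Normal K₀ K := by
  have hs : ∀ x ∈ Set.range (algebraMap C K), IsIntegral K₀ x ∧
      ((minpoly K₀ x).map (algebraMap K₀ K)).Splits := by
    rintro _ ⟨c, rfl⟩
    have hc : IsIntegral k c := Normal.isIntegral inferInstance c
    have hc' : IsIntegral k (algebraMap C K c) := hc.map (IsScalarTower.toAlgHom k C K)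
    refine ⟨hc'.tower_top, ?_⟩
    have h1 : ((minpoly k c).map (algebraMap k C)).Splits := Normal.splits inferInstance c
    have h2 : (((minpoly k c).map (algebraMap k K₀)).map (algebraMap K₀ K)).Splits := by
      have h3 := h1.map (algebraMap C K)
      rw [Polynomial.map_map, ← IsScalarTower.algebraMap_eq] at h3
      rw [Polynomial.map_map, ← IsScalarTower.algebraMap_eq]
      exact h3
    refine h2.of_dvd ?_ (Polynomial.map_dvd _ ?_)
    · rw [Polynomial.map_map]
      exact Polynomial.map_ne_zero (minpoly.ne_zero hc)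
    · apply minpoly.dvd
      rw [Polynomial.aeval_map_algebraMap, Polynomial.aeval_algebraMap_apply, minpoly.aeval,
        map_zero]
  have hmem : ∀ x : K, x ∈ IntermediateField.adjoin K₀ (Set.range (algebraMap C K)) := by
    intro x
    rw [adjoin_const_eq_top k C K₀ K]
    trivial
  have : Algebra.IsAlgebraic K₀ K := by
    constructor
    intro x
    have h1 : Algebra.IsAlgebraic K₀ (IntermediateField.adjoin K₀ (Set.range (algebraMap C K))) :=
      IntermediateField.isAlgebraic_adjoin fun x hx => (hs x hx).1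
    have h2 := h1.isAlgebraic ⟨x, hmem x⟩
    exact h2.algHom (IntermediateField.val _)
  refine ⟨fun x => ?_⟩
  exact IntermediateField.splits_of_mem_adjoin K₀ K hs (hmem x)

end

section

variable {κ C U K : Type*} [NormedField κ] [NormedField C] [Algebra κ C] [Field U] [Field K]
  [Algebra κ U] [Algebra C K] [Algebra U K] [Algebra κ K] [IsScalarTower κ C K]
  [IsScalarTower κ U K]

/-- descent of a loop to a model -/
theorem loop_of_CE [CE κ C U K] [Normal κ C] (hκC : ∀ c : κ, ‖algebraMap κ C c‖ = ‖c‖)
    (hnt : ∃ c : κ, 1 < ‖c‖) {y : U} {w0 : Valuation K ℝ≥0}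
    (h : LoopAt C (algebraMap U K y) w0) (hfix : ∀ (σ : K ≃ₐ[U] K) (a : K), w0 (σ a) = w0 a) :
    LoopAt κ y (w0.comap (algebraMap U K)) := by
  have := normal_of_CE κ C U K
  exact h.descend hκC hfix hnt

end

section

open Crest.Agent.R013.DEm_719

variable {k C K : Type*} [NontriviallyNormedField k] [CompleteSpace k] [IsUltrametricDist k]
    [NormedField C] [IsUltrametricDist C] [NormedAlgebra k C] [Algebra.IsAlgebraic k C]
    [Field K] [Algebra C K] {S : SSK_332.SSK k C K}

section level

variable {k₁ K₀ : Type*} [Field k₁] [Field K₀] [Algebra k k₁] [Algebra k₁ C] [IsScalarTower k k₁ C]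
  [Algebra k₁ K₀] [Algebra K₀ K] [Algebra k₁ K] [IsScalarTower k₁ C K] [IsScalarTower k₁ K₀ K]
  [CE k₁ C K₀ K] [Normal k₁ C] {k' : IntermediateField k₁ C} {D : Set S.Dir}

/-- automorphisms over the level field fix the vertices -/
theorem fix_of_def (H : Def S k₁ K₀ k' D) (σ : K ≃ₐ[CE.lev K₀ K k'] K) (v : S.V) (a : K) :
    (S.nm v).v (σ a) = (S.nm v).v a :=
  H.nm (g := σ.restrictScalars K₀) (CE.mem_Gam'.mpr fun f hf => σ.commutes ⟨f, hf⟩) v a

/-- the same over the field itself, for `k' = ⊥` -/
theorem fix_of_def_bot (H : Def S k₁ K₀ ⊥ D) (σ : K ≃ₐ[K₀] K) (v : S.V) (a : K) :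
    (S.nm v).v (σ a) = (S.nm v).v a := by
  refine H.nm (g := σ) (CE.mem_Gam.mpr fun c hc => ?_) v a
  obtain ⟨c₀, rfl⟩ := IntermediateField.mem_bot.1 hc
  change σ (algebraMap C K (algebraMap k₁ C c₀)) = algebraMap C K (algebraMap k₁ C c₀)
  rw [← IsScalarTower.algebraMap_apply k₁ C K, IsScalarTower.algebraMap_apply k₁ K₀ K, σ.commutes]

end level

/-- **the loop at a fixed level** (957's (i)): `S` is defined over `κ`, `y` is in the model `U` -/
theorem loop_of_def_bot {κ U : Type*} [NormedField κ] [Field U] [Algebra k κ] [Algebra κ C]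
    [IsScalarTower k κ C] [Algebra κ U] [Algebra U K] [Algebra κ K] [IsScalarTower κ C K]
    [IsScalarTower κ U K] [CE κ C U K] [Normal κ C] {D : Set S.Dir} (H : Def S κ U ⊥ D)
    (hκC : ∀ c : κ, ‖algebraMap κ C c‖ = ‖c‖) {v : S.V} {y : U}
    (h : LoopAt C (algebraMap U K y) (S.nm v).v) :
    LoopAt κ y ((S.nm v).v.comap (algebraMap U K)) := by
  refine loop_of_CE hκC ?_ h fun σ a => fix_of_def_bot H σ v a
  obtain ⟨c, hc⟩ := NontriviallyNormedField.non_trivial (α := k)
  refine ⟨algebraMap k κ c, ?_⟩
  rw [← hκC, ← IsScalarTower.algebraMap_apply, norm_algebraMap']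
  exact hc

end

end Crest.Agent.R013.NB_102
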