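import Mathlib

/-!
# SS-ZORN (row 13): globalisation of the local structure of covers of the line

Abstract replacement for the compactness of the Berkovich line in the proof of semistable
reduction. `C` is a field with a valuation `v : C → ℝ≥0`. Two predicates are given:
`gD a r` ("the open disc `{v (x-a) < r}` is good") and `gA a r₁ r₂` ("the open annulus
`{r₁ < v (x-a) < r₂}` is good"), hereditary in the obvious sense, and good near every point of
type 2 (`T2out`, `T2in`), type 3 (`T3`), type 1 and 4 (`T14`). Conclusion: every closed disc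
has a finite tree decomposition `FD`.
-/

set_option autoImplicit false

open scoped NNReal

namespace Crest.Agent.R013.SSZorn_315

variable {C : Type*} [Field C] (v : Valuation C ℝ≥0)

/-- value radius: a non-zero value of `v`. -/
def IsVal (r : ℝ≥0) : Prop := r ≠ 0 ∧ ∃ c : C, v c = r

/-- Finite tree decomposition of the closed disc `{v (x-a) ≤ r}` into the vertices `η_{b,s}`,
good open discs and good open annuli. `S` is the finite set of exceptional directions at the
vertex `η_{a,r}`; in the direction of `c ∈ S` there is a good annulus `{s c < v (x-c) < r}` and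
the closed disc `{v (x-c) ≤ s c}` is decomposed in the same way. -/
inductive FD (gD : C → ℝ≥0 → Prop) (gA : C → ℝ≥0 → ℝ≥0 → Prop) : C → ℝ≥0 → Prop
  | mk (a : C) (r : ℝ≥0) (S : Finset C) (s : C → ℝ≥0)
      (hr : IsVal v r)
      (hS : ∀ c ∈ S, v (c - a) ≤ r)
      (hSS : ∀ c ∈ S, ∀ d ∈ S, v (c - d) < r → c = d)
      (hs : ∀ c ∈ S, s c < r)
      (hD : ∀ c, v (c - a) ≤ r → (∀ d ∈ S, r ≤ v (c - d)) → gD c r)
      (hA : ∀ c ∈ S, gA c (s c) r)
      (hrec : ∀ c ∈ S, FD gD gA c (s c)) : FD gD gA a r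

/-- The hypotheses: heredity and local goodness. -/
structure Local (gD : C → ℝ≥0 → Prop) (gA : C → ℝ≥0 → ℝ≥0 → Prop) : Prop where
  /-- sub-discs of good open discs are good -/
  h1 : ∀ a r a' r', gD a r → v (a' - a) < r → r' ≤ r → gD a' r'
  /-- concentric sub-annuli of good annuli are good -/
  h2 : ∀ a r₁ r₂ r₁' r₂', gA a r₁ r₂ → r₁ ≤ r₁' → r₁' < r₂' → r₂' ≤ r₂ → gA a r₁' r₂'
  /-- open discs inside good annuli are good -/
  h3 : ∀ a r₁ r₂ c r, gA a r₁ r₂ → r₁ < v (c - a) → v (c - a) < r₂ → r ≤ v (c - a) → gD c r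
  /-- outward direction at a type 2 point -/
  T2out : ∀ a r, IsVal v r → ∃ r₂, r < r₂ ∧ gA a r r₂
  /-- inward directions at a type 2 point -/
  T2in : ∀ a r, IsVal v r → ∃ S : Finset C, (∀ c ∈ S, v (c - a) ≤ r) ∧
    (∀ c, v (c - a) ≤ r → (∀ d ∈ S, r ≤ v (c - d)) → gD c r) ∧
    ∀ c ∈ S, ∃ s, IsVal v s ∧ s < r ∧ gA c s r
  /-- type 3 points -/
  T3 : ∀ a r, 0 < r → ¬ IsVal v r → ∃ r₁ r₂, IsVal v r₁ ∧ r₁ < r ∧ r < r₂ ∧ gA a r₁ r₂
  /-- type 1 and type 4 points, given as chains of closed discs whose intersection contains no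
  disc of positive radius -/
  T14 : ∀ 𝒞 : Set (C × ℝ≥0), 𝒞.Nonempty → (∀ D ∈ 𝒞, IsVal v D.2) →
    (∀ D ∈ 𝒞, ∀ E ∈ 𝒞, (v (D.1 - E.1) ≤ E.2 ∧ D.2 ≤ E.2) ∨ (v (E.1 - D.1) ≤ D.2 ∧ E.2 ≤ D.2)) →
    (¬ ∃ b s, 0 < s ∧ ∀ D ∈ 𝒞, v (b - D.1) ≤ D.2 ∧ s ≤ D.2) →
    ∃ D ∈ 𝒞, ∃ R, D.2 < R ∧ gD D.1 R

variable {v} {gD : C → ℝ≥0 → Prop} {gA : C → ℝ≥0 → ℝ≥0 → Prop}

theorem v_sub_le (a b c : C) : v (a - c) ≤ max (v (a - b)) (v (b - c)) := by
  have := v.map_add (a - b) (b - c)
  simpa using this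

theorem v_sub_comm (a b : C) : v (a - b) = v (b - a) := Valuation.map_sub_swap v a b

/-- `FD` only depends on the closed disc. -/
theorem FD.congr {a : C} {r : ℝ≥0} (h : FD v gD gA a r) {a' : C} (haa : v (a' - a) ≤ r) :
    FD v gD gA a' r := by
  cases h with
  | mk _ _ S s hr hS hSS hs hD hA hrec =>
    refine FD.mk a' r S s hr (fun c hc => ?_) hSS hs (fun c hc hd => ?_) hA hrec
    · refine (v_sub_le c a a').trans (max_le (hS c hc) ?_)
      rw [v_sub_comm]; exact haa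
    · exact hD c ((v_sub_le c a' a).trans (max_le hc haa)) hd

theorem FD.isVal {a : C} {r : ℝ≥0} (h : FD v gD gA a r) : IsVal v r := by
  cases h; assumption

/-- a finite set can be thinned to representatives of the classes modulo `v (c - d) < r` -/
theorem exists_reps (S : Finset C) (r : ℝ≥0) (hr : 0 < r) :
    ∃ T ⊆ S, (∀ c ∈ T, ∀ d ∈ T, v (c - d) < r → c = d) ∧ ∀ c ∈ S, ∃ d ∈ T, v (c - d) < r := by
  classical
  induction S using Finset.induction_on with
  | empty => exact ⟨∅, by simp, by simp, by simp⟩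
  | insert x S hx ih =>
    obtain ⟨T, hTS, hT1, hT2⟩ := ih
    by_cases h : ∃ d ∈ T, v (x - d) < r
    · refine ⟨T, hTS.trans (Finset.subset_insert _ _), hT1, ?_⟩
      intro c hc
      rcases Finset.mem_insert.1 hc with rfl | hc
      · exact h
      · exact hT2 c hc
    · push Not at h
      refine ⟨insert x T, Finset.insert_subset_insert _ hTS, ?_, ?_⟩
      · intro c hc d hd hcd
        rcases Finset.mem_insert.1 hc with hc | hc <;> rcases Finset.mem_insert.1 hd with hd | hd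
        · rw [hc, hd]
        · exact absurd (hc ▸ hcd) (not_lt.2 (h d hd))
        · rw [v_sub_comm] at hcd
          exact absurd (hd ▸ hcd) (not_lt.2 (h c hc))
        · exact hT1 c hc d hd hcd
      · intro c hc
        rcases Finset.mem_insert.1 hc with hc | hc
        · exact ⟨c, hc ▸ Finset.mem_insert_self _ _, by simpa using hr⟩
        · obtain ⟨d, hd, hcd⟩ := hT2 c hc
          exact ⟨d, Finset.mem_insert_of_mem hd, hcd⟩

/-- constructor of `FD` without the disjointness of directions and with one-step inheritance -/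
theorem FD.mk' {a : C} {r : ℝ≥0} (hr : IsVal v r) (S : Finset C)
    (hS : ∀ c ∈ S, v (c - a) ≤ r)
    (hD : ∀ c, v (c - a) ≤ r → (∀ d ∈ S, r ≤ v (c - d)) → gD c r)
    (hrec : ∀ c ∈ S, ∃ s, s < r ∧ gA c s r ∧ FD v gD gA c s) : FD v gD gA a r := by
  classical
  have hr0 : 0 < r := pos_iff_ne_zero.2 hr.1
  obtain ⟨T, hTS, hT1, hT2⟩ := exists_reps (v := v) S r hr0
  choose! s hs hA hF using hrec
  refine FD.mk a r T s hr (fun c hc => hS c (hTS hc)) hT1 (fun c hc => hs c (hTS hc)) ?_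
    (fun c hc => hA c (hTS hc)) (fun c hc => hF c (hTS hc))
  intro c hc hd
  refine hD c hc fun e he => ?_
  by_contra hlt
  push Not at hlt
  obtain ⟨d, hdT, hed⟩ := hT2 e he
  have := hd d hdT
  have h2 := (v_sub_le (v := v) c e d).trans_lt (max_lt hlt hed)
  exact absurd this (not_le.2 h2)

/-- a closed disc inside a good open disc of larger radius -/
theorem FD.of_gD (L : Local v gD gA) {a : C} {r R : ℝ≥0} (hr : IsVal v r) (hR : r < R)
    (h : gD a R) : FD v gD gA a r := by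
  refine FD.mk' hr ∅ (by simp) (fun c hc _ => ?_) (by simp)
  exact L.h1 a R c r h (hc.trans_lt hR) hR.le

/-- adding an annulus -/
theorem FD.of_gA (L : Local v gD gA) {a : C} {r₁ r r₂ : ℝ≥0} (hr : IsVal v r) (h1 : r₁ < r)
    (h2 : r < r₂) (h : gA a r₁ r₂) (hF : FD v gD gA a r₁) : FD v gD gA a r := by
  refine FD.mk' hr {a} (by simp) (fun c hc hd => ?_) ?_
  · have hc' : v (c - a) = r := le_antisymm hc (hd a (by simp))
    exact L.h3 a r₁ r₂ c r h (by rw [hc']; exact h1) (by rw [hc']; exact h2) hc'.ge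
  · intro c hc
    rw [Finset.mem_singleton] at hc
    subst hc
    exact ⟨r₁, h1, L.h2 _ _ _ _ _ h le_rfl h1 h2.le, hF⟩

/-- **Globalisation**: local goodness implies that every closed disc has a finite tree
decomposition. -/
theorem fd_of_local (L : Local v gD gA) (a₀ : C) (r₀ : ℝ≥0) (hr₀ : IsVal v r₀) :
    FD v gD gA a₀ r₀ := by
  classical
  by_contra hbad
  -- the set of bad closed discs
  let B : Type _ := {D : C × ℝ≥0 // IsVal v D.2 ∧ ¬ FD v gD gA D.1 D.2}
  let rel : B → B → Prop := fun D E => v (D.1.1 - E.1.1) ≤ E.1.2 ∧ D.1.2 ≤ E.1.2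
  have hmax := maxChain_spec (r := rel)
  -- the maximal chain can be chosen to contain the given disc? not needed: it is nonempty
  set 𝒞 : Set B := maxChain rel with h𝒞
  have hne : 𝒞.Nonempty := by
    by_contra hemp
    rw [Set.not_nonempty_iff_eq_empty] at hemp
    have hch : IsChain rel ({⟨(a₀, r₀), hr₀, hbad⟩} : Set B) := by
      intro x hx y hy hxy
      rw [Set.mem_singleton_iff] at hx hy
      exact absurd (hx.trans hy.symm) hxy
    have := hmax.2 hch (by rw [hemp]; exact Set.empty_subset _)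
    rw [hemp] at this
    exact (Set.singleton_ne_empty _) this.symm
  have hrefl : ∀ D : B, rel D D := fun D => ⟨by simp, le_rfl⟩
  have hchain : ∀ D ∈ 𝒞, ∀ E ∈ 𝒞, rel D E ∨ rel E D := by
    intro D hD E hE
    by_cases h : D = E
    · left; rw [h]; exact hrefl E
    · exact hmax.1 hD hE h
  -- a bad disc strictly below the chain is impossible
  have hbelow : ∀ (b : C) (s : ℝ≥0), IsVal v s → (∀ D ∈ 𝒞, v (b - D.1.1) ≤ D.1.2 ∧ s < D.1.2) →
      FD v gD gA b s := by
    intro b s hs hlt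
    by_contra hF
    let E : B := ⟨(b, s), hs, hF⟩
    have hch : IsChain rel (insert E 𝒞) := by
      refine hmax.1.insert ?_
      intro D hD _
      left
      exact ⟨(hlt D hD).1, (hlt D hD).2.le⟩
    have h2 := hmax.2 hch (Set.subset_insert _ _)
    have hE : E ∈ 𝒞 := by
      have : E ∈ insert E (maxChain rel) := Set.mem_insert _ _
      rw [← h2] at this
      exact this
    exact absurd (hlt E hE).2 (lt_irrefl _)
  -- case distinction
  by_cases hcase : ∃ b s, 0 < s ∧ ∀ D ∈ 𝒞, v (b - D.1.1) ≤ D.1.2 ∧ s ≤ D.1.2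
  · obtain ⟨b, s, hs0, hb⟩ := hcase
    -- all members are discs around b
    let R : Set ℝ≥0 := {r | ∃ D ∈ 𝒞, D.1.2 = r}
    have hRne : R.Nonempty := by
      obtain ⟨D, hD⟩ := hne
      exact ⟨D.1.2, D, hD, rfl⟩
    set ρ := sInf R with hρ
    have hρs : s ≤ ρ := le_csInf hRne (by rintro r ⟨D, hD, rfl⟩; exact (hb D hD).2)
    have hρ0 : 0 < ρ := hs0.trans_le hρs
    have hρle : ∀ D ∈ 𝒞, ρ ≤ D.1.2 := fun D hD => csInf_le (OrderBot.bddBelow R) ⟨D, hD, rfl⟩
    have hmem : ∀ D ∈ 𝒞, ¬ FD v gD gA b D.1.2 := by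
      intro D hD hF
      refine D.2.2 (hF.congr ?_)
      rw [v_sub_comm]; exact (hb D hD).1
    have hclose : ∀ r₂, ρ < r₂ → ∃ D ∈ 𝒞, D.1.2 < r₂ := by
      intro r₂ hr₂
      obtain ⟨r, ⟨D, hD, rfl⟩, hr⟩ := exists_lt_of_csInf_lt hRne hr₂
      exact ⟨D, hD, hr⟩
    by_cases hval : IsVal v ρ
    · -- type 2
      have hnF : ¬ FD v gD gA b ρ := by
        intro hF
        obtain ⟨r₂, hr₂, hA⟩ := L.T2out b ρ hval
        obtain ⟨D, hD, hDr⟩ := hclose r₂ hr₂
        rcases (hρle D hD).eq_or_lt with heq | hlt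
        · exact hmem D hD (heq ▸ hF)
        · exact hmem D hD (FD.of_gA L D.2.1 hlt hDr hA hF)
      apply hnF
      obtain ⟨S, hS, hSD, hSA⟩ := L.T2in b ρ hval
      refine FD.mk' hval S hS hSD ?_
      intro c hc
      obtain ⟨s', hs', hlt, hA⟩ := hSA c hc
      refine ⟨s', hlt, hA, hbelow c s' hs' ?_⟩
      intro D hD
      refine ⟨?_, hlt.trans_le (hρle D hD)⟩
      refine (v_sub_le c b D.1.1).trans (max_le ((hS c hc).trans (hρle D hD)) (hb D hD).1)
    · -- type 3
      obtain ⟨r₁, r₂, hv1, h1, h2, hA⟩ := L.T3 b ρ hρ0 hval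
      obtain ⟨D, hD, hDr⟩ := hclose r₂ h2
      have hF1 : FD v gD gA b r₁ := hbelow b r₁ hv1 fun E hE =>
        ⟨(hb E hE).1, h1.trans_le (hρle E hE)⟩
      exact hmem D hD (FD.of_gA L D.2.1 (h1.trans_le (hρle D hD)) hDr hA hF1)
  · -- types 1 and 4
    let 𝒟 : Set (C × ℝ≥0) := {D | ∃ h, (⟨D, h⟩ : B) ∈ 𝒞}
    have h1 : 𝒟.Nonempty := by
      obtain ⟨D, hD⟩ := hne
      exact ⟨D.1, D.2, hD⟩
    have h2 : ∀ D ∈ 𝒟, IsVal v D.2 := by rintro D ⟨h, -⟩; exact h.1
    have h3 : ∀ D ∈ 𝒟, ∀ E ∈ 𝒟, (v (D.1 - E.1) ≤ E.2 ∧ D.2 ≤ E.2) ∨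
        (v (E.1 - D.1) ≤ D.2 ∧ E.2 ≤ D.2) := by
      rintro D ⟨hD, hD'⟩ E ⟨hE, hE'⟩
      exact hchain _ hD' _ hE'
    have h4 : ¬ ∃ b s, 0 < s ∧ ∀ D ∈ 𝒟, v (b - D.1) ≤ D.2 ∧ s ≤ D.2 := by
      rintro ⟨b, s, hs, hb⟩
      exact hcase ⟨b, s, hs, fun D hD => hb D.1 ⟨D.2, hD⟩⟩
    obtain ⟨D, ⟨hD, hD'⟩, R, hR, hg⟩ := L.T14 𝒟 h1 h2 h3 h4
    exact hD.2 (FD.of_gD L hD.1 hR hg)

/-! ### Convenient forms of the hypotheses -/

/-- Constructor of `Local` from pointwise hypotheses: the values of `v` are dense, every point of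
`C` has a good open disc (`H1`), every chain of closed discs with empty intersection has a member
contained in a good open disc (`H4`), radii need not be values in the conclusions. -/
theorem Local.of_pointwise
    (dense : ∀ x y : ℝ≥0, x < y → ∃ z, IsVal v z ∧ x < z ∧ z < y)
    (h1 : ∀ a r a' r', gD a r → v (a' - a) < r → r' ≤ r → gD a' r')
    (h2 : ∀ a r₁ r₂ r₁' r₂', gA a r₁ r₂ → r₁ ≤ r₁' → r₁' < r₂' → r₂' ≤ r₂ → gA a r₁' r₂')
    (h3 : ∀ a r₁ r₂ c r, gA a r₁ r₂ → r₁ < v (c - a) → v (c - a) < r₂ → r ≤ v (c - a) → gD c r)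
    (H1 : ∀ a, ∃ r, 0 < r ∧ gD a r)
    (H2i : ∀ a r, IsVal v r → ∃ S : Finset C,
      ∀ c, v (c - a) ≤ r → (∀ d ∈ S, r ≤ v (c - d)) → gD c r)
    (H2ii : ∀ a r, IsVal v r → ∃ r₂, r < r₂ ∧ gA a r r₂)
    (H2iii : ∀ a r, IsVal v r → ∃ s, s < r ∧ gA a s r)
    (H3 : ∀ a r, 0 < r → ¬ IsVal v r → ∃ r₁ r₂, r₁ < r ∧ r < r₂ ∧ gA a r₁ r₂)
    (H4 : ∀ 𝒞 : Set (C × ℝ≥0), 𝒞.Nonempty → (∀ D ∈ 𝒞, IsVal v D.2) →
      (∀ D ∈ 𝒞, ∀ E ∈ 𝒞, (v (D.1 - E.1) ≤ E.2 ∧ D.2 ≤ E.2) ∨ (v (E.1 - D.1) ≤ D.2 ∧ E.2 ≤ D.2)) →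
      (∀ b, ∃ D ∈ 𝒞, D.2 < v (b - D.1)) → ∃ D ∈ 𝒞, ∃ R, D.2 < R ∧ gD D.1 R) :
    Local v gD gA where
  h1 := h1
  h2 := h2
  h3 := h3
  T2out := H2ii
  T2in := by
    classical
    intro a r hr
    obtain ⟨S, hS⟩ := H2i a r hr
    refine ⟨S.filter (fun c => v (c - a) ≤ r), fun c hc => (Finset.mem_filter.1 hc).2, ?_, ?_⟩
    · intro c hc hd
      refine hS c hc fun d hdS => ?_
      by_cases hda : v (d - a) ≤ r
      · exact hd d (Finset.mem_filter.2 ⟨hdS, hda⟩)
      · push Not at hda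
        by_contra hlt
        push Not at hlt
        have hdc : v (d - c) ≤ r := by rw [v_sub_comm]; exact hlt.le
        have := (v_sub_le (v := v) d c a).trans (max_le hdc hc)
        exact absurd this (not_le.2 hda)
    · intro c hc
      have hc' := (Finset.mem_filter.1 hc).2
      obtain ⟨s, hs, hA⟩ := H2iii c r hr
      obtain ⟨z, hz, hsz, hzr⟩ := dense s r hs
      exact ⟨z, hz, hzr, h2 _ _ _ _ _ hA hsz.le hzr le_rfl⟩
  T3 := by
    intro a r hr hv
    obtain ⟨r₁, r₂, h₁, h₂, hA⟩ := H3 a r hr hv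
    obtain ⟨z, hz, hsz, hzr⟩ := dense r₁ r h₁
    exact ⟨z, r₂, hz, hzr, h₂, h2 _ _ _ _ _ hA hsz.le (hzr.trans h₂) le_rfl⟩
  T14 := by
    intro 𝒞 hne hval hch hno
    by_cases h : ∀ b, ∃ D ∈ 𝒞, D.2 < v (b - D.1)
    · exact H4 𝒞 hne hval hch h
    · push Not at h
      obtain ⟨b, hb⟩ := h
      obtain ⟨r, hr, hg⟩ := H1 b
      push Not at hno
      obtain ⟨D, hD, hDr⟩ := hno b r hr
      have hlt : D.2 < r := hDr (hb D hD)
      refine ⟨D, hD, r, hlt, h1 b r D.1 r hg ?_ le_rfl⟩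
      rw [v_sub_comm]; exact (hb D hD).trans_lt hlt

/-! ### The flat form: a finite set of vertices -/

variable (v) in
/-- closed disc inclusion -/
def DLe (D E : C × ℝ≥0) : Prop := v (D.1 - E.1) ≤ E.2 ∧ D.2 ≤ E.2

/-- A finite set `V` of closed discs (type 2 points) inside the closed disc `R`, closed under
joins, such that every direction without vertices is a good open disc, and every edge (pair of
adjacent vertices) is a good open annulus. -/
structure Tree (v : Valuation C ℝ≥0) (gD : C → ℝ≥0 → Prop) (gA : C → ℝ≥0 → ℝ≥0 → Prop)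
    (R : C × ℝ≥0) (V : Finset (C × ℝ≥0)) : Prop where
  root : R ∈ V
  isVal : ∀ D ∈ V, IsVal v D.2
  le_root : ∀ D ∈ V, DLe v D R
  antisymm : ∀ D ∈ V, ∀ E ∈ V, DLe v D E → DLe v E D → D = E
  join : ∀ D ∈ V, ∀ E ∈ V, DLe v D E ∨ DLe v E D ∨
    ∃ F ∈ V, DLe v D F ∧ DLe v E F ∧ F.2 = v (D.1 - E.1) ∧ D.2 < F.2 ∧ E.2 < F.2
  disc : ∀ D ∈ V, ∀ c, v (c - D.1) ≤ D.2 → (∀ E ∈ V, v (E.1 - c) < D.2 → D.2 ≤ E.2) → gD c D.2
  ann : ∀ D ∈ V, ∀ E ∈ V, DLe v E D → E.2 < D.2 →
    (∀ F ∈ V, DLe v E F → DLe v F D → F = E ∨ F = D) → gA E.1 E.2 D.2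

theorem DLe.trans {D E F : C × ℝ≥0} (h : DLe v D E) (h' : DLe v E F) : DLe v D F :=
  ⟨(v_sub_le _ E.1 _).trans (max_le (h.1.trans h'.2) h'.1), h.2.trans h'.2⟩

theorem FD.exists_tree {a : C} {r : ℝ≥0} (h : FD v gD gA a r) :
    ∃ V : Finset (C × ℝ≥0), Tree v gD gA (a, r) V := by
  classical
  induction h with
  | mk a r S s hr hS hSS hs hD hA hrec ih =>
    choose! W hW using ih
    set V : Finset (C × ℝ≥0) := insert (a, r) (S.biUnion W) with hV
    have hmem : ∀ D ∈ V, D = (a, r) ∨ ∃ c ∈ S, D ∈ W c := by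
      intro D hD
      rcases Finset.mem_insert.1 hD with h | h
      · exact Or.inl h
      · obtain ⟨c, hc, hcD⟩ := Finset.mem_biUnion.1 h
        exact Or.inr ⟨c, hc, hcD⟩
    have hmem' : ∀ c ∈ S, ∀ D ∈ W c, D ∈ V := fun c hc D hD =>
      Finset.mem_insert_of_mem (Finset.mem_biUnion.2 ⟨c, hc, hD⟩)
    have hroot : (a, r) ∈ V := Finset.mem_insert_self _ _
    -- vertices of `W c` lie in the open disc around `c`
    have hin : ∀ c ∈ S, ∀ D ∈ W c, v (D.1 - c) < r ∧ D.2 < r := by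
      intro c hc D hD
      have := (hW c hc).le_root D hD
      exact ⟨this.1.trans_lt (hs c hc), this.2.trans_lt (hs c hc)⟩
    have hle : ∀ c ∈ S, ∀ D ∈ W c, DLe v D (a, r) := by
      intro c hc D hD
      exact ⟨(v_sub_le _ c _).trans (max_le (hin c hc D hD).1.le (hS c hc)), (hin c hc D hD).2.le⟩
    -- two vertices in different directions
    have hfar : ∀ c ∈ S, ∀ d ∈ S, c ≠ d → ∀ D ∈ W c, ∀ E ∈ W d, v (D.1 - E.1) = r := by
      intro c hc d hd hcd D hDc E hEd
      have h1 : r ≤ v (c - d) := by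
        by_contra hlt
        push Not at hlt
        exact hcd (hSS c hc d hd hlt)
      have h2 : v (D.1 - E.1) ≤ r := by
        refine (v_sub_le _ a _).trans (max_le (hle c hc D hDc).1 ?_)
        rw [v_sub_comm]; exact (hle d hd E hEd).1
      refine le_antisymm h2 ?_
      by_contra hlt
      push Not at hlt
      have h3 : v (c - d) < r := by
        refine (v_sub_le _ D.1 _).trans_lt (max_lt ?_ ?_)
        · rw [v_sub_comm]; exact (hin c hc D hDc).1
        · refine (v_sub_le _ E.1 _).trans_lt (max_lt hlt (hin d hd E hEd).1)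
      exact absurd h1 (not_le.2 h3)
    have hnle : ∀ c ∈ S, ∀ d ∈ S, ∀ D ∈ W c, ∀ E ∈ W d, DLe v D E → c = d := by
      intro c hc d hd D hDc E hEd hDE
      by_contra hcd
      have := hfar c hc d hd hcd D hDc E hEd
      have h2 := hDE.1
      rw [this] at h2
      exact absurd h2 (not_le.2 (hin d hd E hEd).2)
    have hnr : ∀ c ∈ S, ∀ D ∈ W c, ¬ DLe v (a, r) D := by
      intro c hc D hDc h
      exact absurd h.2 (not_le.2 (hin c hc D hDc).2)
    refine ⟨V, hroot, ?_, ?_, ?_, ?_, ?_, ?_⟩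
    · intro D hD
      rcases hmem D hD with rfl | ⟨c, hc, hDc⟩
      · exact hr
      · exact (hW c hc).isVal D hDc
    · intro D hD
      rcases hmem D hD with rfl | ⟨c, hc, hDc⟩
      · exact ⟨by simp, le_rfl⟩
      · exact hle c hc D hDc
    · intro D hD E hE hDE hED
      rcases hmem D hD with h | ⟨c, hc, hDc⟩ <;> rcases hmem E hE with h' | ⟨d, hd, hEd⟩
      · rw [h, h']
      · exact absurd (h ▸ hDE) (hnr d hd E hEd)
      · exact absurd (h' ▸ hED) (hnr c hc D hDc)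
      · obtain rfl := hnle c hc d hd D hDc E hEd hDE
        exact (hW c hc).antisymm D hDc E hEd hDE hED
    · intro D hD E hE
      rcases hmem E hE with h' | ⟨d, hd, hEd⟩
      · left
        rcases hmem D hD with h | ⟨c, hc, hDc⟩
        · rw [h, h']; exact ⟨by simp, le_rfl⟩
        · rw [h']; exact hle c hc D hDc
      · rcases hmem D hD with h | ⟨c, hc, hDc⟩
        · right; left; rw [h]; exact hle d hd E hEd
        · by_cases hcd : c = d
          · subst hcd
            rcases (hW c hc).join D hDc E hEd with h | h | ⟨F, hF, h⟩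
            · exact Or.inl h
            · exact Or.inr (Or.inl h)
            · exact Or.inr (Or.inr ⟨F, hmem' c hc F hF, h⟩)
          · right; right
            exact ⟨(a, r), hroot, hle c hc D hDc, hle d hd E hEd,
              (hfar c hc d hd hcd D hDc E hEd).symm, (hin c hc D hDc).2, (hin d hd E hEd).2⟩
    · intro D hDV c' hc' hno
      rcases hmem D hDV with rfl | ⟨c, hc, hDc⟩
      · refine hD c' hc' fun d hd => ?_
        by_contra hlt
        push Not at hlt
        have h1 := hno (d, s d) (hmem' d hd _ (hW d hd).root)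
          (show v (d - c') < r by rw [v_sub_comm]; exact hlt)
        exact absurd h1 (not_le.2 (hs d hd))
      · exact (hW c hc).disc D hDc c' hc' fun E hE => hno E (hmem' c hc E hE)
    · intro D hD E hE hED hlt hno
      rcases hmem D hD with rfl | ⟨c, hc, hDc⟩
      · rcases hmem E hE with h | ⟨d, hd, hEd⟩
        · rw [h] at hlt; exact absurd hlt (lt_irrefl _)
        · have hroot' := (hW d hd).root
          rcases hno (d, s d) (hmem' d hd _ hroot') ((hW d hd).le_root E hEd)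
            (hle d hd _ hroot') with h | h
          · rw [← h]; exact hA d hd
          · exact absurd (congrArg Prod.snd h) (hs d hd).ne
      · rcases hmem E hE with h | ⟨d, hd, hEd⟩
        · exact absurd (h ▸ hED) (hnr c hc D hDc)
        · obtain rfl := hnle d hd c hc E hEd D hDc hED
          exact (hW d hd).ann D hDc E hEd hED hlt fun F hF => hno F (hmem' d hd F hF)

/-- The final statement: local goodness gives a finite tree of vertices in every closed disc. -/
theorem exists_tree (L : Local v gD gA) (a : C) (r : ℝ≥0) (hr : IsVal v r) :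
    ∃ V : Finset (C × ℝ≥0), Tree v gD gA (a, r) V :=
  (fd_of_local L a r hr).exists_tree

end Crest.Agent.R013.SSZorn_315
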