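import Crest.Agent.R013.PL2_109
import Crest.Agent.R013.SSZorn_315

/-!
# R013 / SSG1_109 : assembly of the local half of semistable reduction over the line (L12)

`GD a ρ` ("the open disc `|x-a| < |ρ|` is good"), `GA a σ ρ` ("the open annulus
`|σ| < |x-a| < |ρ|` is good"), `GI ρ` ("the disc `|x| > |ρ|` at infinity is good") are arbitrary
predicates. Inputs: `SubIn` (heredity), `OneIn` (type 1 points and infinity), `DirIn`, `EndIn`
(type 2 points), `Spr3`, `Spr4` (types 3 and 4). Output: the hypotheses of `SSZorn_315` for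
predicates which moreover avoid a given finite set of closed discs.
-/

set_option autoImplicit false

open scoped NNReal

namespace Crest.Agent.R013.SSG_109

open Crest.Agent.R013.SSZorn_315 Crest.Agent.R013.PL_109

variable {C : Type*} [Field C] (v : Valuation C ℝ≥0)
variable (GD : C → C → Prop) (GA : C → C → C → Prop) (GI : C → Prop)

/-- heredity of good cells -/
structure SubIn : Prop where
  s1 : ∀ a ρ a' ρ', GD a ρ → v (a' - a) < v ρ → ρ' ≠ 0 → v ρ' ≤ v ρ → GD a' ρ'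
  s2 : ∀ a σ ρ c τ, GA a σ ρ → v σ < v (c - a) → v (c - a) < v ρ → τ ≠ 0 → v τ ≤ v (c - a) →
    GD c τ
  s3 : ∀ a σ ρ σ' ρ', GA a σ ρ → v σ ≤ v σ' → v σ' < v ρ' → v ρ' ≤ v ρ → GA a σ' ρ'
  sInf : ∀ ρ ρ', GI ρ → v ρ ≤ v ρ' → GI ρ'

/-- type 1 points and infinity -/
def OneIn : Prop := (∀ a, ∃ ρ, ρ ≠ 0 ∧ GD a ρ) ∧ ∃ ρ, ρ ≠ 0 ∧ GI ρ

/-- type 2 points: almost all directions are good discs -/
def DirIn : Prop := ∀ a ρ, ρ ≠ 0 → ∃ S : Finset C, ∀ c, v (c - a) ≤ v ρ →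
  (∀ d ∈ S, v ρ ≤ v (c - d)) → GD c ρ

/-- type 2 points: annuli in all directions -/
def EndIn : Prop := ∀ a ρ, ρ ≠ 0 → (∃ σ, σ ≠ 0 ∧ v σ < v ρ ∧ GA a σ ρ) ∧ ∃ σ, v ρ < v σ ∧ GA a ρ σ

/-- type 3 points -/
def Spr3 : Prop := ∀ w : Valuation (RatFunc C) ℝ≥0, (∀ c, w (RatFunc.C c) = v c) → ∀ a,
  (∀ c, w (RatFunc.X - RatFunc.C a) ≠ v c) → ∃ σ ρ, σ ≠ 0 ∧ v σ < w (RatFunc.X - RatFunc.C a) ∧
    w (RatFunc.X - RatFunc.C a) < v ρ ∧ GA a σ ρ

/-- type 4 points -/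
def Spr4 : Prop := ∀ w : Valuation (RatFunc C) ℝ≥0, (∀ c, w (RatFunc.C c) = v c) →
  (∀ b, ∃ c, w (RatFunc.X - RatFunc.C c) < w (RatFunc.X - RatFunc.C b)) →
  ∃ r₀, (∃ c, w (RatFunc.X - RatFunc.C c) < r₀) ∧
    ∀ a ρ, w (RatFunc.X - RatFunc.C a) < v ρ → v ρ < r₀ → GD a ρ

/-- all inputs -/
structure Inp : Prop where
  sub : SubIn v GD GA GI
  one : OneIn GD GI
  dir : DirIn v GD
  fin : EndIn v GA
  spr3 : Spr3 v GA
  spr4 : Spr4 v GD

variable {v}

theorem v_eq_of_lt' {a b c : C} (h : v (a - b) < v (c - b)) : v (c - a) = v (c - b) := by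
  have h1 : c - a = (c - b) - (a - b) := by ring
  rw [h1]
  exact Valuation.map_sub_eq_of_lt_left v h

theorem v_pos_ne {c : C} {r : ℝ≥0} (h : r < v c) : c ≠ 0 := by
  rintro rfl
  rw [map_zero] at h
  exact absurd h (not_lt.2 zero_le)

/-- distance of the closed disc `t` to `a` -/
noncomputable def dst (v : Valuation C ℝ≥0) (t : C × ℝ≥0) (a : C) : ℝ≥0 := max (v (t.1 - a)) t.2

theorem dst_ne_zero {t : C × ℝ≥0} (ht : IsVal v t.2) (a : C) : dst v t a ≠ 0 := by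
  have h : 0 < t.2 := pos_iff_ne_zero.2 ht.1
  exact (h.trans_le (le_max_right _ _)).ne'

theorem isVal_dst {t : C × ℝ≥0} (ht : IsVal v t.2) (a : C) : IsVal v (dst v t a) := by
  refine ⟨dst_ne_zero ht a, ?_⟩
  rw [dst]
  rcases max_choice (v (t.1 - a)) t.2 with h | h
  · rw [h]; exact ⟨_, rfl⟩
  · rw [h]; exact ht.2

theorem le_dst_of_lt {t : C × ℝ≥0} {a a' : C} {r : ℝ≥0} (h : r ≤ dst v t a) (ha : v (a' - a) < r) :
    r ≤ dst v t a' := by
  rw [dst, le_max_iff] at h ⊢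
  rcases h with h | h
  · left
    rw [v_eq_of_lt' (ha.trans_le h)]
    exact h
  · right; exact h

/-- disc predicate -/
def gD (T : Finset (C × ℝ≥0)) (a : C) (r : ℝ≥0) : Prop :=
  ∃ ρ, ρ ≠ 0 ∧ r ≤ v ρ ∧ GD a ρ ∧ ∀ t ∈ T, r ≤ dst v t a

/-- annulus predicate -/
def gA (T : Finset (C × ℝ≥0)) (a : C) (r₁ r₂ : ℝ≥0) : Prop :=
  ∃ σ ρ, σ ≠ 0 ∧ v σ ≤ r₁ ∧ r₂ ≤ v ρ ∧ v σ < v ρ ∧ GA a σ ρ ∧
    ∀ t ∈ T, dst v t a ≤ r₁ ∨ r₂ ≤ dst v t a

/-- a finite set of values above `r` : a common bound -/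
theorem exists_above (T : Finset (C × ℝ≥0)) (a : C) (r R : ℝ≥0) (hR : r < R) :
    ∃ r₂, r < r₂ ∧ r₂ ≤ R ∧ ∀ t ∈ T, r < dst v t a → r₂ ≤ dst v t a := by
  classical
  induction T using Finset.induction_on with
  | empty => exact ⟨R, hR, le_rfl, by simp⟩
  | insert x T hx ih =>
    obtain ⟨r₂, h1, h2, h3⟩ := ih
    by_cases hx' : r < dst v x a
    · refine ⟨min r₂ (dst v x a), lt_min h1 hx', (min_le_left _ _).trans h2, ?_⟩
      intro t ht hlt
      rcases Finset.mem_insert.1 ht with rfl | ht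
      · exact min_le_right _ _
      · exact (min_le_left _ _).trans (h3 t ht hlt)
    · refine ⟨r₂, h1, h2, ?_⟩
      intro t ht hlt
      rcases Finset.mem_insert.1 ht with rfl | ht
      · exact absurd hlt hx'
      · exact h3 t ht hlt

/-- a finite set of values below `r` : a common bound which is a value -/
theorem exists_below (T : Finset (C × ℝ≥0)) (hT : ∀ t ∈ T, IsVal v t.2) (a : C) (r s : ℝ≥0)
    (hs : s < r) (hsv : IsVal v s) :
    ∃ r₁, IsVal v r₁ ∧ s ≤ r₁ ∧ r₁ < r ∧ ∀ t ∈ T, dst v t a < r → dst v t a ≤ r₁ := by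
  classical
  induction T using Finset.induction_on with
  | empty => exact ⟨s, hsv, le_rfl, hs, by simp⟩
  | insert x T hx ih =>
    obtain ⟨r₁, h0, h1, h2, h3⟩ := ih fun t ht => hT t (Finset.mem_insert_of_mem ht)
    by_cases hx' : dst v x a < r
    · refine ⟨max r₁ (dst v x a), ?_, h1.trans (le_max_left _ _), max_lt h2 hx', ?_⟩
      · rcases max_choice r₁ (dst v x a) with h | h
        · rw [h]; exact h0
        · rw [h]; exact isVal_dst (hT x (Finset.mem_insert_self _ _)) a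
      intro t ht hlt
      rcases Finset.mem_insert.1 ht with rfl | ht
      · exact le_max_right _ _
      · exact (h3 t ht hlt).trans (le_max_left _ _)
    · refine ⟨r₁, h0, h1, h2, ?_⟩
      intro t ht hlt
      rcases Finset.mem_insert.1 ht with rfl | ht
      · exact absurd hlt hx'
      · exact h3 t ht hlt

/-- in a chain without common disc of positive radius one finds a disc not containing any of
finitely many given closed discs and lying below a given one -/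
theorem exists_avoid {𝒞 : Set (C × ℝ≥0)}
    (htot : ∀ D ∈ 𝒞, ∀ E ∈ 𝒞, Rel v D E ∨ Rel v E D)
    (hno : ¬ ∃ b s, 0 < s ∧ ∀ D ∈ 𝒞, v (b - D.1) ≤ D.2 ∧ s ≤ D.2)
    (T : Finset (C × ℝ≥0)) (hT : ∀ t ∈ T, IsVal v t.2) {D₀ : C × ℝ≥0} (hD₀ : D₀ ∈ 𝒞) :
    ∃ D ∈ 𝒞, Rel v D D₀ ∧ ∀ t ∈ T, D.2 < dst v t D.1 := by
  classical
  induction T using Finset.induction_on with
  | empty => exact ⟨D₀, hD₀, Rel.refl _, by simp⟩
  | insert x T hx ih =>
    obtain ⟨D, hD, h1, h2⟩ := ih fun t ht => hT t (Finset.mem_insert_of_mem ht)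
    have hxv := hT x (Finset.mem_insert_self _ _)
    have h3 : ∃ E ∈ 𝒞, E.2 < dst v x E.1 := by
      by_contra hcon
      push Not at hcon
      exact hno ⟨x.1, x.2, pos_iff_ne_zero.2 hxv.1, fun E hE =>
        ⟨(le_max_left _ _).trans (hcon E hE), (le_max_right _ _).trans (hcon E hE)⟩⟩
    obtain ⟨E, hE, h4⟩ := h3
    -- passing to a smaller disc keeps the property
    have hmono : ∀ t : C × ℝ≥0, ∀ F G : C × ℝ≥0, Rel v F G → G.2 < dst v t G.1 →
        F.2 < dst v t F.1 := by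
      intro t F G hFG hG
      rw [dst, lt_max_iff] at hG ⊢
      rcases hG with hG | hG
      · left
        rw [v_eq_of_lt' (hFG.1.trans_lt hG)]
        exact hFG.2.trans_lt hG
      · right; exact hFG.2.trans_lt hG
    rcases htot D hD E hE with h | h
    · refine ⟨D, hD, h1, ?_⟩
      intro t ht
      rcases Finset.mem_insert.1 ht with rfl | ht
      · exact hmono _ _ _ h h4
      · exact h2 t ht
    · refine ⟨E, hE, h.trans h1, ?_⟩
      intro t ht
      rcases Finset.mem_insert.1 ht with rfl | ht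
      · exact h4
      · exact hmono _ _ _ h (h2 t ht)

variable {GD GA GI}

/-- **Local goodness** in the sense of `SSZorn_315`, avoiding a finite set of closed discs. -/
theorem local_of [IsAlgClosed C] (I : Inp v GD GA GI) (T : Finset (C × ℝ≥0))
    (hT : ∀ t ∈ T, IsVal v t.2) : Local v (gD (v := v) GD T) (gA (v := v) GA T) where
  h1 := by
    rintro a r a' r' ⟨ρ, h1, h2, h3, h4⟩ ha hr
    refine ⟨ρ, h1, hr.trans h2, I.sub.s1 a ρ a' ρ h3 (ha.trans_le h2) h1 le_rfl, fun t ht => ?_⟩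
    exact hr.trans (le_dst_of_lt (h4 t ht) ha)
  h2 := by
    rintro a r₁ r₂ r₁' r₂' ⟨σ, ρ, h0, h1, h2, h3, h4, h5⟩ h6 h7 h8
    refine ⟨σ, ρ, h0, h1.trans h6, h8.trans h2, h3, h4, fun t ht => ?_⟩
    rcases h5 t ht with h | h
    · exact Or.inl (h.trans h6)
    · exact Or.inr (h8.trans h)
  h3 := by
    rintro a r₁ r₂ c r ⟨σ, ρ, h0, h1, h2, h3, h4, h5⟩ h6 h7 h8
    have hne : c - a ≠ 0 := v_pos_ne h6
    refine ⟨c - a, hne, h8, I.sub.s2 a σ ρ c (c - a) h4 (h1.trans_lt h6) (h7.trans_le h2) hne le_rfl,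
      fun t ht => ?_⟩
    rcases h5 t ht with h | h
    · have h9 : v (t.1 - a) < v (c - a) := ((le_max_left _ _).trans h).trans_lt h6
      have h10 : v (c - t.1) = v (c - a) := v_eq_of_lt' h9
      rw [dst, Valuation.map_sub_swap, h10]
      exact h8.trans (le_max_left _ _)
    · exact h8.trans ((h7.le).trans (le_dst_of_lt h h7))
  T2out := by
    rintro a r ⟨hr0, ρ, rfl⟩
    have hρ : ρ ≠ 0 := fun h => hr0 (by rw [h, map_zero])
    obtain ⟨-, σ, h1, h2⟩ := I.fin a ρ hρ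
    obtain ⟨r₂, h3, h4, h5⟩ := exists_above (v := v) T a (v ρ) (v σ) h1
    refine ⟨r₂, h3, ρ, σ, hρ, le_rfl, h4, h1, h2, fun t ht => ?_⟩
    rcases le_or_gt (dst v t a) (v ρ) with h | h
    · exact Or.inl h
    · exact Or.inr (h5 t ht h)
  T2in := by
    classical
    rintro a r ⟨hr0, ρ, rfl⟩
    have hρ : ρ ≠ 0 := fun h => hr0 (by rw [h, map_zero])
    obtain ⟨S, hS⟩ := I.dir a ρ hρ
    refine ⟨(S ∪ T.image Prod.fst).filter fun c => v (c - a) ≤ v ρ, fun c hc =>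
      (Finset.mem_filter.1 hc).2, fun c hc hd => ?_, fun c hc => ?_⟩
    · have hfar : ∀ d, ¬ (v (d - a) ≤ v ρ) → v ρ ≤ v (c - d) := by
        intro d hd'
        push Not at hd'
        rw [Valuation.map_sub_swap, v_eq_of_lt' (hc.trans_lt hd')]
        exact hd'.le
      refine ⟨ρ, hρ, le_rfl, hS c hc fun d hdS => ?_, fun t ht => ?_⟩
      · by_cases h : v (d - a) ≤ v ρ
        · exact hd d (Finset.mem_filter.2 ⟨Finset.mem_union_left _ hdS, h⟩)
        · exact hfar d h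
      · rw [dst, Valuation.map_sub_swap]
        refine le_trans ?_ (le_max_left _ _)
        by_cases h : v (t.1 - a) ≤ v ρ
        · exact hd t.1 (Finset.mem_filter.2
            ⟨Finset.mem_union_right _ (Finset.mem_image_of_mem _ ht), h⟩)
        · exact hfar t.1 h
    · obtain ⟨⟨σ, h0, h1, h2⟩, -⟩ := I.fin c ρ hρ
      have hσ : IsVal v (v σ) := ⟨(Valuation.ne_zero_iff v).2 h0, σ, rfl⟩
      obtain ⟨r₁, h3, h4, h5, h6⟩ := exists_below T hT c (v ρ) (v σ) h1 hσ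
      refine ⟨r₁, h3, h5, σ, ρ, h0, h4, le_rfl, h1, h2, fun t ht => ?_⟩
      rcases lt_or_ge (dst v t c) (v ρ) with h | h
      · exact Or.inl (h6 t ht h)
      · exact Or.inr h
  T3 := by
    intro a r hr hnv
    have hr' : r ≠ 0 := hr.ne'
    have hw : gaussR v a r hr' (RatFunc.X - RatFunc.C a) = r := by
      rw [gaussR_X_sub]; simp
    obtain ⟨σ, ρ, h0, h1, h2, h3⟩ := I.spr3 (gaussR v a r hr') (gaussR_C v a hr') a (by
      intro c
      rw [hw]
      intro h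
      exact hnv ⟨hr', c, h.symm⟩)
    rw [hw] at h1 h2
    have hσ : IsVal v (v σ) := ⟨(Valuation.ne_zero_iff v).2 h0, σ, rfl⟩
    obtain ⟨r₁, h4, h5, h6, h7⟩ := exists_below T hT a r (v σ) h1 hσ
    obtain ⟨r₂, h8, h9, h10⟩ := exists_above (v := v) T a r (v ρ) h2
    refine ⟨r₁, r₂, h4, h6, h8, σ, ρ, h0, h5, h9, h1.trans h2, h3, fun t ht => ?_⟩
    rcases lt_trichotomy (dst v t a) r with h | h | h
    · exact Or.inl (h7 t ht h)
    · exact absurd (h ▸ isVal_dst (hT t ht) a) hnv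
    · exact Or.inr (h10 t ht h)
  T14 := by
    intro 𝒞 hne hval htot hno
    have htot' : ∀ D ∈ 𝒞, ∀ E ∈ 𝒞, Rel v D E ∨ Rel v E D := htot
    by_cases hb : ∃ b, ∀ D ∈ 𝒞, v (b - D.1) ≤ D.2
    · -- type 1
      obtain ⟨b, hb⟩ := hb
      obtain ⟨ρ, h0, h1⟩ := I.one.1 b
      have hρ : 0 < v ρ := pos_iff_ne_zero.2 ((Valuation.ne_zero_iff v).2 h0)
      have h2 : ∃ D ∈ 𝒞, D.2 < v ρ := by
        by_contra hcon
        push Not at hcon
        exact hno ⟨b, v ρ, hρ, fun D hD => ⟨hb D hD, hcon D hD⟩⟩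
      obtain ⟨D₀, hD₀, h3⟩ := h2
      obtain ⟨D, hD, h4, h5⟩ := exists_avoid htot' hno T hT hD₀
      have h6 : D.2 < v ρ := h4.2.trans_lt h3
      obtain ⟨R, h7, h8, h9⟩ := exists_above (v := v) T D.1 D.2 (v ρ) h6
      refine ⟨D, hD, R, h7, ρ, h0, h8, I.sub.s1 b ρ D.1 ρ h1 ?_ h0 le_rfl, fun t ht =>
        h9 t ht (h5 t ht)⟩
      rw [Valuation.map_sub_swap]
      exact (hb D hD).trans_lt h6
    · -- type 4
      push Not at hb
      have hE : EmptyChain v 𝒞 := ⟨hne, fun D hD => (hval D hD).1, htot', hb⟩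
      obtain ⟨w, hw0, hw1, hw2, hw3⟩ := hE.exists_norm
      obtain ⟨r₀, ⟨c, hc⟩, h1⟩ := I.spr4 w hw0 hw3
      obtain ⟨D₀, hD₀, h2, h3⟩ := hw1 c
      obtain ⟨D, hD, h4, h5⟩ := exists_avoid htot' hno T hT hD₀
      have h6 : v (c - D.1) = v (c - D₀.1) := v_eq_of_lt' (h4.1.trans_lt h2)
      have h7 : D.2 < v (c - D.1) := by rw [h6]; exact h4.2.trans_lt h2
      obtain ⟨R, h8, h9, h10⟩ := exists_above (v := v) T D.1 D.2 (v (c - D.1)) h7
      refine ⟨D, hD, R, h8, c - D.1, v_pos_ne h7, h9, h1 D.1 (c - D.1) ?_ ?_, fun t ht =>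
        h10 t ht (h5 t ht)⟩
      · exact (hw2 D hD).trans_lt h7
      · rw [h6, ← h3]; exact hc

end Crest.Agent.R013.SSG_109
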