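import Mathlib
import Crest.Agent.R013.Hens3_899

/-!
R013 / HENS, part 4 (helper899): Hensel's lemma in all forms over a field `F` with `Inv F w`
(`Ω` algebraically closed, Galois over `F`; any value group): dominating linear term, Newton,
simple roots, Krasner, `n`-th roots of `1 + x`, immediate elements of degree prime to the residue
characteristic.
-/

set_option autoImplicit false

namespace Crest.Agent.R013.Hens_899

open Polynomial

section Gen

variable {Ω : Type*} [Field Ω] {Γ : Type*} [LinearOrderedCommGroupWithZero Γ]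

theorem multiset_sum_lt (w : Valuation Ω Γ) {M : Γ} (hM : M ≠ 0) (s : Multiset Ω)
    (h : ∀ x ∈ s, w x < M) : w s.sum < M := by
  induction s using Multiset.induction with
  | empty => simpa using zero_lt_iff.2 hM
  | cons a s ih =>
    rw [Multiset.sum_cons]
    exact w.map_add_lt (h a (Multiset.mem_cons_self a s))
      (ih fun x hx => h x (Multiset.mem_cons_of_mem hx))

theorem multiset_sum_le (w : Valuation Ω Γ) {M : Γ} (s : Multiset Ω)
    (h : ∀ x ∈ s, w x ≤ M) : w s.sum ≤ M := by
  induction s using Multiset.induction with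
  | empty => simp
  | cons a s ih =>
    rw [Multiset.sum_cons]
    exact w.map_add_le (h a (Multiset.mem_cons_self a s))
      (ih fun x hx => h x (Multiset.mem_cons_of_mem hx))

theorem natCast_le (w : Valuation Ω Γ) (n : ℕ) : w (n : Ω) ≤ 1 := by
  induction n with
  | zero => simp
  | succ n ih =>
    rw [Nat.cast_succ]
    exact w.map_add_le ih (by rw [map_one])

theorem pow_sub_le (w : Valuation Ω Γ) {R : Γ} {x y : Ω} (hx : w x ≤ R) (hy : w y ≤ R) (j : ℕ) :
    w (x ^ (j + 1) - y ^ (j + 1)) ≤ w (x - y) * R ^ j := by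
  induction j with
  | zero => simp
  | succ j ih =>
    have h1 : x ^ (j + 1 + 1) - y ^ (j + 1 + 1) =
        x * (x ^ (j + 1) - y ^ (j + 1)) + (x - y) * y ^ (j + 1) := by ring
    rw [h1]
    refine w.map_add_le ?_ ?_
    · rw [map_mul]
      calc w x * w (x ^ (j + 1) - y ^ (j + 1)) ≤ R * (w (x - y) * R ^ j) :=
            mul_le_mul' hx ih
        _ = w (x - y) * R ^ (j + 1) := by rw [pow_succ]; ac_rfl
    · rw [map_mul, map_pow]
      exact mul_le_mul' le_rfl (pow_le_pow_left₀ zero_le hy _)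

/-- a root near `a`: `w (a - r) * w (P' a) ≤ w (P a)` -/
theorem root_near [IsAlgClosed Ω] (w : Valuation Ω Γ) (P : Polynomial Ω) (a : Ω)
    (h : P.derivative.eval a ≠ 0) :
    ∃ r, P.eval r = 0 ∧ w (a - r) * w (P.derivative.eval a) ≤ w (P.eval a) := by
  classical
  have hP0 : P ≠ 0 := by
    rintro rfl
    simp at h
  have hs := IsAlgClosed.splits P
  by_contra hcon
  push Not at hcon
  have hM : w (P.derivative.eval a) ≠ 0 := (Valuation.ne_zero_iff w).2 h
  have hev : P.eval a = P.leadingCoeff * (P.roots.map (a - ·)).prod := hs.eval_eq_prod_roots a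
  have hder : P.derivative.eval a =
      (P.roots.map fun r => P.leadingCoeff * ((P.roots.erase r).map (a - ·)).prod).sum := by
    conv_lhs => rw [hs.eq_prod_roots]
    rw [derivative_C_mul, eval_C_mul, derivative_prod, ← coe_evalRingHom, map_multiset_sum,
      Multiset.map_map, Multiset.sum_map_mul_left]
    congr 1
    apply congrArg
    apply Multiset.map_congr rfl
    intro r _
    simp [eval_multiset_prod]
  have hlt : w (P.derivative.eval a) < w (P.derivative.eval a) := by
    conv_lhs => rw [hder]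
    apply multiset_sum_lt w hM
    intro x hx
    rw [Multiset.mem_map] at hx
    obtain ⟨r, hr, rfl⟩ := hx
    have h1 := hcon r (by rwa [mem_roots hP0] at hr)
    have h2 : P.eval a = P.leadingCoeff * ((P.roots.erase r).map (a - ·)).prod * (a - r) := by
      rw [hev]
      conv_lhs => rw [← Multiset.cons_erase hr]
      rw [Multiset.map_cons, Multiset.prod_cons]
      ring
    rw [h2, map_mul, mul_comm (w (a - r))] at h1
    exact lt_of_mul_lt_mul_right h1 zero_le
  exact lt_irrefl _ hlt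

/-- **uniqueness** of the root in the disc `w ≤ R` when the linear term dominates there -/
theorem lin_uniq (w : Valuation Ω Γ) (P : Polynomial Ω) {R : Γ} (h1 : P.coeff 1 ≠ 0)
    (hdom : ∀ j, 2 ≤ j → w (P.coeff j) * R ^ (j - 1) < w (P.coeff 1)) {x y : Ω}
    (hx : w x ≤ R) (hy : w y ≤ R) (hPx : P.eval x = 0) (hPy : P.eval y = 0) : x = y := by
  classical
  by_contra hxy
  have hd : x - y ≠ 0 := sub_ne_zero.2 hxy
  have hdeg : 1 ≤ P.natDegree := by
    by_contra hcon
    exact h1 (coeff_eq_zero_of_natDegree_lt (by omega))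
  have hsum : ∑ j ∈ Finset.range (P.natDegree + 1), P.coeff j * (x ^ j - y ^ j) = 0 := by
    simp only [mul_sub, Finset.sum_sub_distrib]
    rw [← eval_eq_sum_range, ← eval_eq_sum_range, hPx, hPy, sub_zero]
  have h1m : 1 ∈ Finset.range (P.natDegree + 1) := Finset.mem_range.2 (by omega)
  rw [← Finset.add_sum_erase _ _ h1m, pow_one, pow_one, add_eq_zero_iff_eq_neg] at hsum
  have hM : w (P.coeff 1 * (x - y)) ≠ 0 := (Valuation.ne_zero_iff w).2 (mul_ne_zero h1 hd)
  have hlt : w (P.coeff 1 * (x - y)) < w (P.coeff 1 * (x - y)) := by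
    conv_lhs => rw [hsum]
    rw [Valuation.map_neg]
    apply w.map_sum_lt hM
    intro j hj
    rcases Nat.lt_or_ge j 2 with hj2 | hj2
    · have : j = 0 := by
        have := Finset.ne_of_mem_erase hj
        omega
      subst this
      simpa using zero_lt_iff.2 hM
    · obtain ⟨i, rfl⟩ : ∃ i, j = i + 1 := ⟨j - 1, by omega⟩
      have h2 := hdom (i + 1) hj2
      rw [Nat.add_sub_cancel] at h2
      have hwd : 0 < w (x - y) := zero_lt_iff.2 ((Valuation.ne_zero_iff w).2 hd)
      calc w (P.coeff (i + 1) * (x ^ (i + 1) - y ^ (i + 1)))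
          ≤ w (P.coeff (i + 1)) * (w (x - y) * R ^ i) := by
            rw [map_mul]
            exact mul_le_mul' le_rfl (pow_sub_le w hx hy i)
        _ = w (P.coeff (i + 1)) * R ^ i * w (x - y) := by ac_rfl
        _ < w (P.coeff 1) * w (x - y) := mul_lt_mul_of_pos_right h2 hwd
        _ = w (P.coeff 1 * (x - y)) := (map_mul _ _ _).symm
  exact lt_irrefl _ hlt

end Gen

section Hensel

variable {F Ω : Type*} [Field F] [Field Ω] [Algebra F Ω] [IsGalois F Ω] [IsAlgClosed Ω]
variable {Γ : Type*} [LinearOrderedCommGroupWithZero Γ]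

/-- **Hensel's lemma, dominating linear term** on the disc `w ≤ R`. -/
theorem lin_dom {w : Valuation Ω Γ} (hw : Inv F w) (P : F[X]) {R : Γ} (h1 : P.coeff 1 ≠ 0)
    (h0 : w (algebraMap F Ω (P.coeff 0)) ≤ w (algebraMap F Ω (P.coeff 1)) * R)
    (hdom : ∀ j, 2 ≤ j → w (algebraMap F Ω (P.coeff j)) * R ^ (j - 1) <
      w (algebraMap F Ω (P.coeff 1))) :
    ∃ α : F, P.eval α = 0 ∧ w (algebraMap F Ω α) ≤ R ∧
      w (algebraMap F Ω α) * w (algebraMap F Ω (P.coeff 1)) ≤ w (algebraMap F Ω (P.coeff 0)) ∧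
      ∀ β : Ω, w β ≤ R → aeval β P = 0 → β = algebraMap F Ω α := by
  have h1' : (algebraMap F Ω (P.coeff 1)) ≠ 0 := (_root_.map_ne_zero _).2 h1
  have hpos : 0 < w (algebraMap F Ω (P.coeff 1)) := zero_lt_iff.2 ((Valuation.ne_zero_iff w).2 h1')
  set Q := P.map (algebraMap F Ω) with hQ
  have hQ1 : Q.derivative.eval 0 = algebraMap F Ω (P.coeff 1) := by
    rw [← coeff_zero_eq_eval_zero, coeff_derivative, hQ, coeff_map]
    simp
  have hQ0 : Q.eval 0 = algebraMap F Ω (P.coeff 0) := by
    rw [← coeff_zero_eq_eval_zero, hQ, coeff_map]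
  obtain ⟨r, hr, hr1⟩ := root_near w Q 0 (by rwa [hQ1])
  rw [hQ1, hQ0, zero_sub, Valuation.map_neg] at hr1
  have hrR : w r ≤ R := by
    have := hr1.trans h0
    rw [mul_comm] at this
    exact le_of_mul_le_mul_left this hpos
  have huniq : ∀ β β' : Ω, w β ≤ R → w β' ≤ R → aeval β P = 0 → aeval β' P = 0 → β = β' := by
    intro β β' hβ hβ' h2 h3
    refine lin_uniq w Q (R := R) (by rwa [hQ, coeff_map]) (fun j hj => ?_) hβ hβ' ?_ ?_
    · rw [hQ, coeff_map, coeff_map]
      exact hdom j hj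
    · rw [hQ, eval_map_algebraMap]; exact h2
    · rw [hQ, eval_map_algebraMap]; exact h3
  have hrP : aeval r P = 0 := by rw [← eval_map_algebraMap]; exact hr
  obtain ⟨α, hα⟩ := mem_range_of_fixed' (K := F) (x := r) (fun τ => by
    refine huniq _ _ (by rw [hw]; exact hrR) hrR ?_ hrP
    rw [← AlgEquiv.coe_toAlgHom, aeval_algHom_apply, hrP, map_zero])
  subst hα
  refine ⟨α, ?_, hrR, hr1, fun β hβ hβP => huniq _ _ hβ hrR hβP hrP⟩
  rw [aeval_algebraMap_apply] at hrP
  exact (_root_.map_eq_zero _).1 hrP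

omit [IsGalois F Ω] [IsAlgClosed Ω] in
/-- Taylor coefficients of an integral polynomial are integral -/
theorem taylor_le {w : Valuation Ω Γ} (P : F[X]) (hP : ∀ n, w (algebraMap F Ω (P.coeff n)) ≤ 1)
    {a : F} (ha : w (algebraMap F Ω a) ≤ 1) (n : ℕ) :
    w (algebraMap F Ω ((taylor a P).coeff n)) ≤ 1 := by
  rw [taylor_coeff, eval_eq_sum_range, map_sum]
  apply w.map_sum_le
  intro i _
  rw [hasseDeriv_coeff, map_mul (algebraMap F Ω), map_mul (algebraMap F Ω),
    map_pow (algebraMap F Ω), map_natCast (algebraMap F Ω), map_mul w, map_mul w, map_pow w]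
  calc w (((i + n).choose n : ℕ) : Ω) * w (algebraMap F Ω (P.coeff (i + n))) *
      w (algebraMap F Ω a) ^ i ≤ 1 * 1 * 1 :=
        mul_le_mul' (mul_le_mul' (natCast_le w _) (hP _)) (pow_le_one₀ zero_le ha)
    _ = 1 := by simp

/-- **Hensel's lemma, Newton form**: `w (P a) < w (P' a) ^ 2`. -/
theorem newton {w : Valuation Ω Γ} (hw : Inv F w) (P : F[X])
    (hP : ∀ n, w (algebraMap F Ω (P.coeff n)) ≤ 1) {a : F} (ha : w (algebraMap F Ω a) ≤ 1)
    (h : w (algebraMap F Ω (P.eval a)) < w (algebraMap F Ω (P.derivative.eval a)) ^ 2) :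
    ∃ α : F, P.eval α = 0 ∧
      w (algebraMap F Ω (α - a)) < w (algebraMap F Ω (P.derivative.eval a)) ∧
      w (algebraMap F Ω (α - a)) * w (algebraMap F Ω (P.derivative.eval a)) ≤
        w (algebraMap F Ω (P.eval a)) ∧
      ∀ β : Ω, w (β - algebraMap F Ω a) < w (algebraMap F Ω (P.derivative.eval a)) →
        aeval β P = 0 → β = algebraMap F Ω α := by
  set d := w (algebraMap F Ω (P.derivative.eval a)) with hd
  have hd0 : d ≠ 0 := by
    rintro hd0
    rw [hd0] at h
    simp at h
  have hdpos : 0 < d := zero_lt_iff.2 hd0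
  have hd1 : d ≤ 1 := by
    have := taylor_le P hP ha 1
    rwa [taylor_coeff_one] at this
  have hder0 : P.derivative.eval a ≠ 0 := by
    intro h0
    apply hd0
    rw [hd, h0, map_zero, map_zero]
  set Q := taylor a P with hQ
  have hQ1 : Q.coeff 1 = P.derivative.eval a := taylor_coeff_one _ _
  have hQ0 : Q.coeff 0 = P.eval a := taylor_coeff_zero _ _
  -- domination on every disc of radius `< d`
  have hdom : ∀ R : Γ, R < d → ∀ j, 2 ≤ j → w (algebraMap F Ω (Q.coeff j)) * R ^ (j - 1) <
      w (algebraMap F Ω (Q.coeff 1)) := by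
    intro R hR j hj
    rw [hQ1]
    obtain ⟨i, rfl⟩ : ∃ i, j = i + 2 := ⟨j - 2, by omega⟩
    calc w (algebraMap F Ω (Q.coeff (i + 2))) * R ^ (i + 2 - 1)
        ≤ 1 * R ^ (i + 1) := by
          have : i + 2 - 1 = i + 1 := by omega
          rw [this]
          exact mul_le_mul' (taylor_le P hP ha _) le_rfl
      _ = R ^ i * R := by rw [one_mul, pow_succ]
      _ ≤ 1 * R := mul_le_mul' (pow_le_one₀ zero_le (hR.le.trans hd1)) le_rfl
      _ < d := by rwa [one_mul]
  set R := w (algebraMap F Ω (P.eval a)) * d⁻¹ with hR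
  have hRd : R < d := by
    rw [hR, ← div_eq_mul_inv, div_lt_iff₀ hdpos, ← pow_two]
    exact h
  obtain ⟨α', h1, h2, h3, -⟩ := lin_dom hw Q (R := R) (by rw [hQ1]; exact hder0)
    (by rw [hQ0, hQ1, ← hd, hR]; rw [mul_comm, mul_assoc, inv_mul_cancel₀ hd0, mul_one])
    (hdom R hRd)
  refine ⟨α' + a, ?_, ?_, ?_, ?_⟩
  · rw [← taylor_eval]; exact h1
  · rw [add_sub_cancel_right]; exact h2.trans_lt hRd
  · rw [add_sub_cancel_right]; rw [hQ1, hQ0] at h3; exact h3
  · intro β hβ hβP
    have hmax : max (w (β - algebraMap F Ω a)) (w (algebraMap F Ω α')) < d :=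
      max_lt hβ (h2.trans_lt hRd)
    have := lin_uniq w (Q.map (algebraMap F Ω))
      (R := max (w (β - algebraMap F Ω a)) (w (algebraMap F Ω α')))
      (x := β - algebraMap F Ω a) (y := algebraMap F Ω α')
      (by rw [coeff_map, hQ1]; exact (_root_.map_ne_zero _).2 hder0)
      (fun j hj => by rw [coeff_map, coeff_map]; exact hdom _ hmax j hj)
      (le_max_left _ _) (le_max_right _ _)
      (by rw [hQ, map_taylor, taylor_eval, sub_add_cancel, eval_map_algebraMap]; exact hβP)
      (by rw [eval_map_algebraMap, aeval_algebraMap_apply, coe_aeval_eq_eval, h1, map_zero])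
    rw [map_add, ← this, sub_add_cancel]

/-- **Hensel's lemma, simple roots.** -/
theorem simple_root {w : Valuation Ω Γ} (hw : Inv F w) (P : F[X])
    (hP : ∀ n, w (algebraMap F Ω (P.coeff n)) ≤ 1) {a : F} (ha : w (algebraMap F Ω a) ≤ 1)
    (h0 : w (algebraMap F Ω (P.eval a)) < 1)
    (h1 : w (algebraMap F Ω (P.derivative.eval a)) = 1) :
    ∃ α : F, P.eval α = 0 ∧ w (algebraMap F Ω (α - a)) ≤ w (algebraMap F Ω (P.eval a)) ∧
      ∀ β : Ω, w (β - algebraMap F Ω a) < 1 → aeval β P = 0 → β = algebraMap F Ω α := by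
  obtain ⟨α, h2, -, h4, h5⟩ := newton hw P hP ha (by rw [h1, one_pow]; exact h0)
  rw [h1, mul_one] at h4
  rw [h1] at h5
  exact ⟨α, h2, h4, h5⟩

/-- `n`-th roots of `1 + x`, general form -/
theorem exists_root_one_add {w : Valuation Ω Γ} (hw : Inv F w) {n : ℕ} (hn : (n : F) ≠ 0) {x : F}
    {R : Γ} (h0 : w (algebraMap F Ω x) ≤ w (n : Ω) * R)
    (hdom : ∀ j, 2 ≤ j → j ≤ n → w ((n.choose j : ℕ) : Ω) * R ^ (j - 1) < w (n : Ω)) :
    ∃ y : F, y ^ n = 1 + x ∧ w (algebraMap F Ω (y - 1)) ≤ R ∧
      w (algebraMap F Ω (y - 1)) * w (n : Ω) ≤ w (algebraMap F Ω x) ∧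
      ∀ z : Ω, w (z - 1) ≤ R → z ^ n = 1 + algebraMap F Ω x → z = algebraMap F Ω y := by
  have hn0 : n ≠ 0 := by rintro rfl; simp at hn
  have hn' : (n : Ω) ≠ 0 := by
    rw [← map_natCast (algebraMap F Ω)]
    exact (_root_.map_ne_zero _).2 hn
  have hpos : 0 < w (n : Ω) := zero_lt_iff.2 ((Valuation.ne_zero_iff w).2 hn')
  set P : F[X] := (X + 1) ^ n - C (1 + x) with hP
  have hc : ∀ j, j ≠ 0 → P.coeff j = (n.choose j : ℕ) := by
    intro j hj
    rw [hP, coeff_sub, coeff_X_add_one_pow, coeff_C_of_ne_zero hj, sub_zero]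
  have hc0 : P.coeff 0 = -x := by
    rw [hP, coeff_sub, coeff_X_add_one_pow, coeff_C_zero, Nat.choose_zero_right]
    push_cast; ring
  have hc1 : P.coeff 1 = (n : F) := by rw [hc 1 one_ne_zero, Nat.choose_one_right]
  obtain ⟨α, h1, h2, h3, h4⟩ := lin_dom hw P (R := R) (by rw [hc1]; exact hn)
    (by rw [hc0, hc1, map_neg, Valuation.map_neg, map_natCast]; exact h0)
    (by
      intro j hj
      rw [hc j (by omega), hc1, map_natCast (algebraMap F Ω), map_natCast (algebraMap F Ω)]
      rcases le_or_gt j n with hjn | hjn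
      · exact hdom j hj hjn
      · rw [Nat.choose_eq_zero_of_lt hjn]
        simpa using hpos)
  refine ⟨α + 1, ?_, ?_, ?_, ?_⟩
  · rw [hP] at h1
    simp only [eval_sub, eval_pow, eval_add, eval_X, eval_one, eval_C] at h1
    exact sub_eq_zero.1 h1
  · rw [add_sub_cancel_right]; exact h2
  · rw [add_sub_cancel_right]
    rw [hc0, hc1, map_neg, Valuation.map_neg, map_natCast] at h3
    exact h3
  · intro z hz hzn
    have := h4 (z - 1) hz (by
      rw [hP]
      simp only [map_sub, map_pow, map_add, aeval_X, map_one, aeval_C, sub_add_cancel]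
      rw [hzn, sub_self])
    rw [map_add, map_one, ← this, sub_add_cancel]

/-- `n`-th roots of `1 + x`, `n` prime to the residue characteristic -/
theorem exists_root_tame {w : Valuation Ω Γ} (hw : Inv F w) {n : ℕ} (hn : w (n : Ω) = 1) {x : F}
    (hx : w (algebraMap F Ω x) < 1) :
    ∃ y : F, y ^ n = 1 + x ∧ w (algebraMap F Ω (y - 1)) ≤ w (algebraMap F Ω x) ∧
      ∀ z : Ω, w (z - 1) ≤ w (algebraMap F Ω x) → z ^ n = 1 + algebraMap F Ω x →
        z = algebraMap F Ω y := by
  have hn0 : (n : F) ≠ 0 := by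
    intro h
    rw [← map_natCast (algebraMap F Ω), h, map_zero, map_zero] at hn
    exact zero_ne_one hn
  obtain ⟨y, h1, h2, -, h4⟩ := exists_root_one_add hw hn0 (x := x) (R := w (algebraMap F Ω x))
    (by rw [hn, one_mul]) (by
      intro j hj _
      obtain ⟨i, rfl⟩ : ∃ i, j = i + 2 := ⟨j - 2, by omega⟩
      have h3 : i + 2 - 1 = i + 1 := by omega
      rw [hn, h3]
      calc w (((n.choose (i + 2) : ℕ)) : Ω) * w (algebraMap F Ω x) ^ (i + 1)
          ≤ 1 * w (algebraMap F Ω x) ^ (i + 1) := mul_le_mul' (natCast_le w _) le_rfl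
        _ = w (algebraMap F Ω x) ^ (i + 1) := one_mul _
        _ < 1 := pow_lt_one₀ zero_le hx (by omega))
  exact ⟨y, h1, h2, h4⟩

/-- `p`-th roots of `1 + x` when `w x < w p ^ (p / (p - 1))` -/
theorem exists_root_wild {w : Valuation Ω Γ} (hw : Inv F w) {p : ℕ} (hp : p.Prime)
    (hp0 : (p : F) ≠ 0) {x : F}
    (hx : w (algebraMap F Ω x) ^ (p - 1) < w (p : Ω) ^ p) :
    ∃ y : F, y ^ p = 1 + x ∧ w (algebraMap F Ω (y - 1)) ^ (p - 1) < w (p : Ω) ∧
      w (algebraMap F Ω (y - 1)) * w (p : Ω) ≤ w (algebraMap F Ω x) := by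
  have hp' : (p : Ω) ≠ 0 := by
    rw [← map_natCast (algebraMap F Ω)]
    exact (_root_.map_ne_zero _).2 hp0
  have hne : w (p : Ω) ≠ 0 := (Valuation.ne_zero_iff w).2 hp'
  have hpos : 0 < w (p : Ω) := zero_lt_iff.2 hne
  have hp2 := hp.two_le
  set R := w (algebraMap F Ω x) * (w (p : Ω))⁻¹ with hR
  have hRp : R ^ (p - 1) < w (p : Ω) := by
    rw [hR, mul_pow, inv_pow, ← div_eq_mul_inv, div_lt_iff₀ (pow_pos hpos _), ← pow_succ']
    have : p - 1 + 1 = p := by omega
    rw [this]
    exact hx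
  have hR1 : R < 1 := by
    by_contra hcon
    push Not at hcon
    exact absurd (one_le_pow₀ hcon (n := p - 1)) (not_le.2 (hRp.trans_le (natCast_le w p)))
  obtain ⟨y, h1, h2, h3, -⟩ := exists_root_one_add hw hp0 (x := x) (R := R)
    (by rw [hR, mul_comm, mul_assoc, inv_mul_cancel₀ hne, mul_one]) (by
      intro j hj hjp
      obtain ⟨i, rfl⟩ : ∃ i, j = i + 2 := ⟨j - 2, by omega⟩
      have h3 : i + 2 - 1 = i + 1 := by omega
      rw [h3]
      rcases hjp.lt_or_eq with hlt | heq
      · have hdvd : p ∣ p.choose (i + 2) := hp.dvd_choose_self (by omega) hlt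
        obtain ⟨m, hm⟩ := hdvd
        rw [hm, Nat.cast_mul, map_mul]
        calc w (p : Ω) * w (m : Ω) * R ^ (i + 1) ≤ w (p : Ω) * 1 * R ^ (i + 1) :=
              mul_le_mul' (mul_le_mul' le_rfl (natCast_le w m)) le_rfl
          _ = w (p : Ω) * R ^ (i + 1) := by rw [mul_one]
          _ < w (p : Ω) * 1 := mul_lt_mul_of_pos_left (pow_lt_one₀ zero_le hR1 (by omega)) hpos
          _ = w (p : Ω) := mul_one _
      · have : i + 1 = p - 1 := by omega
        rw [this, heq, Nat.choose_self, Nat.cast_one, map_one, one_mul]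
        exact hRp)
  exact ⟨y, h1, lt_of_le_of_lt (pow_le_pow_left₀ zero_le h2 _) hRp, h3⟩

end Hensel

section Krasner

variable {F Ω : Type*} [Field F] [Field Ω] [Algebra F Ω] [IsGalois F Ω]
variable {Γ : Type*} [LinearOrderedCommGroupWithZero Γ]

/-- **Krasner's lemma.** -/
theorem krasner {w : Valuation Ω Γ} (hw : Inv F w) {a b : Ω}
    (h : ∀ σ : Ω ≃ₐ[F] Ω, σ b ≠ b → w (b - a) < w (σ b - b)) :
    b ∈ IntermediateField.adjoin F {a} := by
  rw [← InfiniteGalois.fixedField_fixingSubgroup (IntermediateField.adjoin F {a}),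
    IntermediateField.mem_fixedField_iff]
  intro σ hσ
  rw [IntermediateField.mem_fixingSubgroup_iff] at hσ
  by_contra hne
  have h1 := h σ hne
  have h2 : σ a = a := hσ a (IntermediateField.mem_adjoin_simple_self F a)
  have h3 : w (σ b - a) = w (b - a) := by
    rw [← hw σ (b - a), map_sub σ, h2]
  have h4 : w (σ b - b) ≤ w (b - a) := by
    have : σ b - b = (σ b - a) - (b - a) := by ring
    rw [this]
    exact (w.map_sub _ _).trans (by rw [h3, max_self])
  exact absurd h1 (not_lt.2 h4)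

/-- Krasner's lemma for the field generated by the nearby element -/
theorem krasner_le {w : Valuation Ω Γ} (hw : Inv F w) {a b : Ω}
    (h : ∀ σ : Ω ≃ₐ[F] Ω, σ b ≠ b → w (b - a) < w (σ b - b)) :
    IntermediateField.adjoin F {b} ≤ IntermediateField.adjoin F {a} := by
  rw [IntermediateField.adjoin_simple_le_iff]
  exact krasner hw h

/-- the mean of the conjugates is a best approximation if the degree is prime to the residue
characteristic -/
theorem exists_best {w : Valuation Ω Γ} (hw : Inv F w) (a : Ω)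
    (hn : w ((minpoly F a).natDegree : Ω) = 1) :
    ∃ b₀ : F, ∀ b : F, w (a - algebraMap F Ω b₀) ≤ w (a - algebraMap F Ω b) := by
  classical
  have hint : IsIntegral F a := Algebra.IsIntegral.isIntegral a
  set f := minpoly F a with hf
  set n := f.natDegree with hnn
  have hmon : f.Monic := minpoly.monic hint
  have hspl : (f.map (algebraMap F Ω)).Splits := Normal.splits inferInstance a
  set s := (f.map (algebraMap F Ω)).roots with hs
  have hcard : s.card = n := by
    rw [hs, ← hspl.natDegree_eq_card_roots, natDegree_map]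
  have hsum : algebraMap F Ω f.nextCoeff = - s.sum := by
    rw [← Polynomial.nextCoeff_map (algebraMap F Ω).injective,
      hspl.nextCoeff_eq_neg_sum_roots_of_monic (hmon.map _)]
  have hconj : ∀ r ∈ s, ∀ b : F, w (r - algebraMap F Ω b) = w (a - algebraMap F Ω b) := by
    intro r hr b
    have hr' : aeval r f = 0 := by
      rw [hs, mem_roots (hmon.map _).ne_zero] at hr
      rw [← eval_map_algebraMap]
      exact hr
    obtain ⟨σ, hσ⟩ := minpoly.exists_algEquiv_of_root (K := F) (x := r) (y := a)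
      hint.isAlgebraic hr'
    rw [← hσ, ← hw σ (r - algebraMap F Ω b), map_sub σ, AlgEquiv.commutes]
  have hn0 : (n : F) ≠ 0 := by
    intro h
    rw [← map_natCast (algebraMap F Ω), h, map_zero, map_zero] at hn
    exact zero_ne_one hn
  have hn0' : (n : Ω) ≠ 0 := by
    rw [← map_natCast (algebraMap F Ω)]
    exact (_root_.map_ne_zero _).2 hn0
  refine ⟨- f.nextCoeff / n, fun b => ?_⟩
  have h1 : w (algebraMap F Ω (- f.nextCoeff / n) - algebraMap F Ω b) ≤
      w (a - algebraMap F Ω b) := by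
    have h2 : algebraMap F Ω (- f.nextCoeff / n) - algebraMap F Ω b =
        (s.map fun r => r - algebraMap F Ω b).sum / n := by
      rw [Multiset.sum_map_sub, Multiset.map_id', Multiset.map_const', Multiset.sum_replicate,
        hcard, map_div₀, map_neg, hsum, neg_neg, map_natCast, nsmul_eq_mul]
      field_simp
    rw [h2, map_div₀, hn, div_one]
    apply multiset_sum_le
    intro x hx
    rw [Multiset.mem_map] at hx
    obtain ⟨r, hr, rfl⟩ := hx
    exact (hconj r hr b).le
  have h2 : a - algebraMap F Ω (- f.nextCoeff / n) = (a - algebraMap F Ω b) -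
      (algebraMap F Ω (- f.nextCoeff / n) - algebraMap F Ω b) := by ring
  rw [h2]
  exact (w.map_sub _ _).trans (max_le le_rfl h1)

/-- an immediate element whose degree is prime to the residue characteristic lies in `F` -/
theorem mem_of_immediate {w : Valuation Ω Γ} (hw : Inv F w) (a : Ω)
    (hn : w ((minpoly F a).natDegree : Ω) = 1)
    (himm : ∀ b : F, a - algebraMap F Ω b ≠ 0 →
      ∃ c : F, w (a - algebraMap F Ω c) < w (a - algebraMap F Ω b)) :
    ∃ b : F, algebraMap F Ω b = a := by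
  obtain ⟨b₀, hb₀⟩ := exists_best hw a hn
  refine ⟨b₀, ?_⟩
  by_contra hne
  obtain ⟨c, hc⟩ := himm b₀ (sub_ne_zero.2 fun h => hne h.symm)
  exact absurd (hb₀ c) (not_le.2 hc)

end Krasner

end Crest.Agent.R013.Hens_899
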