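import Mathlib

/-!
# Row 13, SS-LU34, part 1: closures of subfields in a rank one valuation, perturbation lemma
(helper935)
-/

open Polynomial
open scoped NNReal

namespace Crest.Agent.R013.LU1_935

section Val

variable {M : Type*} [Field M] (w : Valuation M ℝ≥0)

lemma w_sub_comm (a b : M) : w (a - b) = w (b - a) := Valuation.map_sub_swap w a b

/-- ultrametric: `w (a - c) ≤ max (w (a-b)) (w (b-c))`. -/
lemma w_sub_le (a b c : M) : w (a - c) ≤ max (w (a - b)) (w (b - c)) := by
  have : a - c = (a - b) + (b - c) := by ring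
  rw [this]; exact w.map_add _ _

lemma w_sub_lt {a b c : M} {e : ℝ≥0} (h1 : w (a - b) < e) (h2 : w (b - c) < e) :
    w (a - c) < e := lt_of_le_of_lt (w_sub_le w a b c) (max_lt h1 h2)

lemma w_sub_le' {a b c : M} {e : ℝ≥0} (h1 : w (a - b) ≤ e) (h2 : w (b - c) ≤ e) :
    w (a - c) ≤ e := le_trans (w_sub_le w a b c) (max_le h1 h2)

lemma w_eq_of_sub_lt {a b : M} (h : w (a - b) < w a) : w b = w a := by
  have := Valuation.map_sub_eq_of_lt_right w (x := a - b) (y := a) h
  simpa using this

lemma w_eq_of_sub_lt' {a b : M} (h : w (a - b) < w b) : w a = w b := by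
  rw [w_sub_comm] at h
  exact w_eq_of_sub_lt w h

/-- `w (a b - 1) ≤ t` if `w (a - 1) ≤ t`, `w (b - 1) ≤ t`, `t < 1`. -/
lemma w_mul_sub_one {a b : M} {t : ℝ≥0} (ht : t ≤ 1) (ha : w (a - 1) ≤ t) (hb : w (b - 1) ≤ t) :
    w (a * b - 1) ≤ t := by
  have h1 : a * b - 1 = (a - 1) * (b - 1) + ((a - 1) + (b - 1)) := by ring
  rw [h1]
  refine w.map_add_le ?_ (w.map_add_le ha hb)
  rw [map_mul]
  calc w (a - 1) * w (b - 1) ≤ t * 1 := mul_le_mul' ha (hb.trans ht)
    _ = t := mul_one t

lemma w_one_of_sub_one {a : M} {t : ℝ≥0} (ht : t < 1) (ha : w (a - 1) ≤ t) : w a = 1 := by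
  have : w (a - 1) < w (1 : M) := by rw [map_one]; exact lt_of_le_of_lt ha ht
  rw [w_eq_of_sub_lt' w this, map_one]

lemma w_inv_sub_one {a : M} {t : ℝ≥0} (ht : t < 1) (ha : w (a - 1) ≤ t) : w (a⁻¹ - 1) ≤ t := by
  have h1 := w_one_of_sub_one w ht ha
  have h0 : a ≠ 0 := by
    rintro rfl
    simp at h1
  have h2 : a⁻¹ - 1 = -((a - 1) * a⁻¹) := by field_simp; ring
  rw [h2, Valuation.map_neg, map_mul, map_inv₀, h1, inv_one, mul_one]
  exact ha

lemma w_div_sub_one {a b : M} {t : ℝ≥0} (ht : t < 1) (ha : w (a - 1) ≤ t) (hb : w (b - 1) ≤ t) :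
    w (a / b - 1) ≤ t := by
  rw [div_eq_mul_inv]
  exact w_mul_sub_one w ht.le ha (w_inv_sub_one w ht hb)

end Val

section Clo

variable {k M : Type*} [Field k] [Field M] [Algebra k M] (w : Valuation M ℝ≥0)

/-- The closure of an intermediate field for the `w`-topology. -/
def clo (F : IntermediateField k M) : IntermediateField k M where
  carrier := {z | ∀ e : ℝ≥0, 0 < e → ∃ s ∈ F, w (z - s) < e}
  mul_mem' := by
    intro a b ha hb e he
    by_cases ha0 : a = 0
    · exact ⟨0, F.zero_mem, by simpa [ha0] using he⟩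
    obtain ⟨t, ht, htb⟩ := hb (e / (w a)) (div_pos he (by simpa [pos_iff_ne_zero] using ha0))
    obtain ⟨s, hs, hsa⟩ := ha (e / (w t + 1)) (div_pos he (by positivity))
    refine ⟨s * t, F.mul_mem hs ht, ?_⟩
    have h1 : a * b - s * t = a * (b - t) + (a - s) * t := by ring
    rw [h1]
    refine w.map_add_lt ?_ ?_
    · rw [map_mul]
      have hwa : 0 < w a := by simpa [pos_iff_ne_zero] using ha0
      calc w a * w (b - t) < w a * (e / w a) := by
            exact mul_lt_mul_of_pos_left htb hwa
        _ = e := by field_simp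
    · rw [map_mul]
      have hp : (0 : ℝ≥0) < w t + 1 := by positivity
      calc w (a - s) * w t ≤ w (a - s) * (w t + 1) := by gcongr; simp
        _ < (e / (w t + 1)) * (w t + 1) := by
            exact mul_lt_mul_of_pos_right hsa hp
        _ = e := by field_simp
  add_mem' := by
    intro a b ha hb e he
    obtain ⟨s, hs, hsa⟩ := ha e he
    obtain ⟨t, ht, htb⟩ := hb e he
    refine ⟨s + t, F.add_mem hs ht, ?_⟩
    have h1 : a + b - (s + t) = (a - s) + (b - t) := by ring
    rw [h1]
    exact w.map_add_lt hsa htb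
  algebraMap_mem' := by
    intro c e he
    exact ⟨algebraMap k M c, F.algebraMap_mem c, by simpa using he⟩
  inv_mem' := by
    intro a ha
    by_cases ha0 : a = 0
    · rw [ha0, inv_zero]; intro e he; exact ⟨0, F.zero_mem, by simpa using he⟩
    intro e he
    have hwa : 0 < w a := by simpa [pos_iff_ne_zero] using ha0
    obtain ⟨s, hs, hsa⟩ := ha (min (w a) (e * (w a * w a))) (lt_min hwa (by positivity))
    have h1 : w s = w a := w_eq_of_sub_lt w (lt_of_lt_of_le hsa (min_le_left _ _))
    have hs0 : s ≠ 0 := by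
      rintro rfl
      rw [map_zero] at h1
      exact hwa.ne h1
    refine ⟨s⁻¹, F.inv_mem hs, ?_⟩
    have h2 : a⁻¹ - s⁻¹ = (s - a) * (a⁻¹ * s⁻¹) := by field_simp
    rw [h2, map_mul, w_sub_comm, map_mul, map_inv₀, map_inv₀, h1]
    calc w (a - s) * ((w a)⁻¹ * (w a)⁻¹) < (e * (w a * w a)) * ((w a)⁻¹ * (w a)⁻¹) := by
          apply mul_lt_mul_of_pos_right (lt_of_lt_of_le hsa (min_le_right _ _))
          positivity
      _ = e := by field_simp

lemma mem_clo {F : IntermediateField k M} {z : M} :
    z ∈ clo w F ↔ ∀ e : ℝ≥0, 0 < e → ∃ s ∈ F, w (z - s) < e := Iff.rfl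

lemma le_clo (F : IntermediateField k M) : F ≤ clo w F :=
  fun z hz e he => ⟨z, hz, by simpa using he⟩

lemma clo_mono {F G : IntermediateField k M} (h : F ≤ G) : clo w F ≤ clo w G :=
  fun _ hz e he => by
    obtain ⟨s, hs, h1⟩ := hz e he
    exact ⟨s, h hs, h1⟩

lemma clo_clo (F : IntermediateField k M) : clo w (clo w F) = clo w F := by
  refine le_antisymm ?_ (le_clo w _)
  intro z hz e he
  obtain ⟨s, hs, h1⟩ := hz e he
  obtain ⟨t, ht, h2⟩ := hs e he
  exact ⟨t, ht, w_sub_lt w h1 h2⟩

lemma clo_le {F G : IntermediateField k M} (h : F ≤ clo w G) : clo w F ≤ clo w G := by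
  rw [← clo_clo w G]; exact clo_mono w h

lemma adjoin_le_clo {y : M} {G : IntermediateField k M} (h : y ∈ clo w G) :
    IntermediateField.adjoin k {y} ≤ clo w G := by
  rw [IntermediateField.adjoin_le_iff]
  simpa using h

/-- evaluation of a polynomial, perturbed -/
lemma aeval_pert [IsAlgClosed k] {y y' : M} {r d : ℝ≥0} (hr : 0 < r)
    (hy : ∀ c : k, r ≤ w (y - algebraMap k M c))
    (hd : w (y' - y) ≤ d) (hdr : d < r) (f : k[X]) :
    w (aeval y' f - aeval y f) ≤ (d / r) * w (aeval y f) := by
  by_cases hf : f = 0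
  · simp [hf]
  have hs := IsAlgClosed.splits f
  have hθ : d / r < 1 := (div_lt_one hr).2 hdr
  have key : ∀ s : Multiset k, w (aeval y' (s.map fun a => X - C a).prod -
      aeval y (s.map fun a => X - C a).prod) ≤ (d / r) * w (aeval y (s.map fun a => X - C a).prod) := by
    intro s
    induction s using Multiset.induction_on with
    | empty => simp
    | cons a s ih =>
      rw [Multiset.map_cons, Multiset.prod_cons, map_mul, map_mul]
      set P := (s.map fun a => X - C a).prod with hP
      have e1 : aeval y' (X - C a : k[X]) * aeval y' P - aeval y (X - C a) * aeval y P =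
        aeval y' (X - C a : k[X]) * (aeval y' P - aeval y P) + (y' - y) * aeval y P := by
        simp only [map_sub, aeval_X, aeval_C]; ring
      have e2 : w (aeval y (X - C a : k[X])) = w (y - algebraMap k M a) := by simp
      have e3 : w (aeval y' (X - C a : k[X])) = w (y - algebraMap k M a) := by
        have : aeval y' (X - C a : k[X]) - (y - algebraMap k M a) = y' - y := by
          simp
        apply w_eq_of_sub_lt'
        rw [this]
        exact lt_of_le_of_lt hd (lt_of_lt_of_le hdr (hy a))
      rw [e1, map_mul, e2]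
      refine w.map_add_le ?_ ?_
      · rw [map_mul, e3]
        calc w (y - algebraMap k M a) * w (aeval y' P - aeval y P)
            ≤ w (y - algebraMap k M a) * ((d / r) * w (aeval y P)) := by gcongr
          _ = _ := by ring
      · rw [map_mul]
        have : d ≤ (d / r) * w (y - algebraMap k M a) := by
          calc d = (d / r) * r := by field_simp
            _ ≤ _ := by gcongr; exact hy a
        calc w (y' - y) * w (aeval y P) ≤ d * w (aeval y P) := by gcongr
          _ ≤ ((d / r) * w (y - algebraMap k M a)) * w (aeval y P) := by gcongr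
          _ = _ := by ring
  have hfac : f = C f.leadingCoeff * (f.roots.map fun a => X - C a).prod := hs.eq_prod_roots
  rw [hfac, map_mul, map_mul, aeval_C, aeval_C, ← mul_sub, map_mul, map_mul]
  calc w (algebraMap k M f.leadingCoeff) * _
      ≤ w (algebraMap k M f.leadingCoeff) * ((d / r) * w (aeval y (f.roots.map fun a => X - C a).prod)) := by
        gcongr
        exact key _
    _ = _ := by ring

lemma aeval_ne_zero_of [IsAlgClosed k] {y : M} {r : ℝ≥0} (hr : 0 < r)
    (hy : ∀ c : k, r ≤ w (y - algebraMap k M c)) {f : k[X]} (hf : f ≠ 0) : aeval y f ≠ 0 := by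
  have hs := IsAlgClosed.splits f
  have hfac : f = C f.leadingCoeff * (f.roots.map fun a => X - C a).prod := hs.eq_prod_roots
  rw [hfac, map_mul, aeval_C]
  have hl : f.leadingCoeff ≠ 0 := by simpa using hf
  refine mul_ne_zero (by simpa using hl) ?_
  rw [map_multiset_prod, Multiset.map_map]
  refine Multiset.prod_ne_zero ?_
  simp only [Multiset.mem_map, Function.comp, not_exists, not_and]
  intro a _ h
  have h1 := hy a
  simp only [map_sub, aeval_X, aeval_C] at h
  rw [h, map_zero] at h1
  exact absurd h1 (not_le.2 hr)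

/-- Perturbation for quotients: for every `z ∈ k⟮y⟯` there is `z' ∈ k⟮y'⟯` with
`w (z' - z) ≤ (d/r) w z`. -/
lemma pert_mem [IsAlgClosed k] {y y' : M} {r d : ℝ≥0} (hr : 0 < r)
    (hy : ∀ c : k, r ≤ w (y - algebraMap k M c))
    (hd : w (y' - y) ≤ d) (hdr : d < r) {z : M} (hz : z ∈ IntermediateField.adjoin k {y}) :
    ∃ z' ∈ IntermediateField.adjoin k {y'}, w (z' - z) ≤ (d / r) * w z := by
  rw [IntermediateField.mem_adjoin_simple_iff] at hz
  obtain ⟨f, g, rfl⟩ := hz
  by_cases hg : g = 0
  · exact ⟨0, zero_mem _, by simp [hg]⟩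
  by_cases hf : f = 0
  · exact ⟨0, zero_mem _, by simp [hf]⟩
  have hf0 := aeval_ne_zero_of w hr hy hf
  have hg0 := aeval_ne_zero_of w hr hy hg
  refine ⟨aeval y' f / aeval y' g, ?_, ?_⟩
  · rw [IntermediateField.mem_adjoin_simple_iff]; exact ⟨f, g, rfl⟩
  have hθ : d / r < 1 := (div_lt_one hr).2 hdr
  have h1 : ∀ h : k[X], aeval y h ≠ 0 → w (aeval y' h / aeval y h - 1) ≤ d / r := by
    intro h hh
    have h2 := aeval_pert w hr hy hd hdr h
    have h3 : aeval y' h / aeval y h - 1 = (aeval y' h - aeval y h) / aeval y h := by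
      field_simp
    rw [h3, map_div₀]
    rw [div_le_iff₀ (by simpa [pos_iff_ne_zero] using hh)]
    exact h2
  have hg1 := h1 g hg0
  have hg'0 : aeval y' g ≠ 0 := by
    intro h
    have := w_one_of_sub_one w hθ hg1
    rw [h, zero_div, map_zero] at this
    exact zero_ne_one this
  have h4 : aeval y' f / aeval y' g - aeval y f / aeval y g =
      ((aeval y' f / aeval y f) / (aeval y' g / aeval y g) - 1) * (aeval y f / aeval y g) := by
    field_simp
  rw [h4, map_mul]
  gcongr
  exact w_div_sub_one w hθ (h1 f hf0) hg1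

/-- **Perturbation lemma.** If `y'` is in the closure of `k⟮y⟯` and `w (y' - y) < r ≤ w (y - c)` for
all `c ∈ k`, then `y` is in the closure of `k⟮y'⟯`. -/
theorem perturb [IsAlgClosed k] {y y' : M} {r : ℝ≥0}
    (hy : ∀ c : k, r ≤ w (y - algebraMap k M c))
    (hd : w (y' - y) < r) (hmem : y' ∈ clo w (IntermediateField.adjoin k {y})) :
    y ∈ clo w (IntermediateField.adjoin k {y'}) := by
  have hr : 0 < r := lt_of_le_of_lt (zero_le) hd
  by_cases hyy : y' = y
  · subst hyy
    exact le_clo w _ (IntermediateField.mem_adjoin_simple_self k y')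
  set d := w (y' - y) with hdef
  have hd0 : 0 < d := by
    rw [hdef, pos_iff_ne_zero]
    simpa [sub_eq_zero] using hyy
  have hθ : d / r < 1 := (div_lt_one hr).2 hd
  have key : ∀ n : ℕ, ∃ z ∈ IntermediateField.adjoin k {y'}, w (y - z) ≤ (d / r) ^ n * d := by
    intro n
    induction n with
    | zero =>
      exact ⟨y', IntermediateField.mem_adjoin_simple_self k y', by
        rw [w_sub_comm]; simp [← hdef]⟩
    | succ n ih =>
      obtain ⟨z, hz, hzn⟩ := ih
      by_cases hyz : y = z
      · refine ⟨z, hz, ?_⟩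
        rw [hyz, sub_self, map_zero]; exact zero_le
      have hw0 : 0 < w (y - z) := by
        rw [pos_iff_ne_zero]; simpa [sub_eq_zero] using hyz
      have hzd : w (y - z) ≤ d := by
        refine hzn.trans ?_
        calc (d / r) ^ n * d ≤ 1 * d := by
              gcongr
              exact pow_le_one₀ (zero_le) hθ.le
          _ = d := one_mul d
      have hzmem : y - z ∈ clo w (IntermediateField.adjoin k {y}) := by
        refine sub_mem (le_clo w _ (IntermediateField.mem_adjoin_simple_self k y)) ?_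
        exact adjoin_le_clo w hmem hz
      obtain ⟨s, hs, hs1⟩ := hzmem ((d / r) * w (y - z)) (by positivity)
      obtain ⟨s', hs', hs1'⟩ := pert_mem w hr hy (y' := z) (d := w (y - z))
        (by rw [w_sub_comm]) (lt_of_le_of_lt hzd hd) hs
      have hws : w s ≤ w (y - z) := by
        have : w s = w (y - z) := by
          apply w_eq_of_sub_lt
          refine lt_of_lt_of_le hs1 ?_
          calc (d / r) * w (y - z) ≤ 1 * w (y - z) := by gcongr
            _ = _ := one_mul _
        exact this.le
      refine ⟨z + s', add_mem hz ?_, ?_⟩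
      · have : IntermediateField.adjoin k {z} ≤ IntermediateField.adjoin k {y'} := by
          rw [IntermediateField.adjoin_le_iff]; simpa using hz
        exact this hs'
      have e : y - (z + s') = ((y - z) - s) + (s - s') := by ring
      rw [e, pow_succ]
      refine w.map_add_le ?_ ?_
      · calc w (y - z - s) ≤ (d / r) * w (y - z) := hs1.le
          _ ≤ (d / r) * ((d / r) ^ n * d) := by gcongr
          _ = _ := by ring
      · rw [w_sub_comm]
        calc w (s' - s) ≤ w (y - z) / r * w s := hs1'
          _ ≤ (d / r) * ((d / r) ^ n * d) := by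
            gcongr
            exact hws.trans hzn
          _ = _ := by ring
  intro e he
  obtain ⟨n, hn⟩ : ∃ n : ℕ, (d / r) ^ n * d < e := by
    have : Filter.Tendsto (fun n : ℕ => (d / r) ^ n * d) Filter.atTop (nhds (0 * d)) :=
      (tendsto_pow_atTop_nhds_zero_of_lt_one (zero_le) hθ).mul_const d
    rw [zero_mul] at this
    exact ((this.eventually (gt_mem_nhds he)).exists)
  obtain ⟨z, hz, hzn⟩ := key n
  exact ⟨z, hz, lt_of_le_of_lt hzn hn⟩

end Clo

end Crest.Agent.R013.LU1_935
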