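import Mathlib
import Crest.Agent.R013.LU1_935
import Crest.Agent.R013.Hens4_899

/-!
# Row 13, SS-LU34, part 5: completion package (helper935)

`(K, w)` a field with a rank one valuation, finite over `k(t)`: complete field, algebraic closure,
henselian closures of the `k(t)`.
-/

open Polynomial IntermediateField
open scoped NNReal

universe u

namespace Crest.Agent.R013.LU5_935

open Crest.Agent.R013.LU1_935 Crest.Agent.R013.Hens_899

section Normed

variable {k E : Type*} [NontriviallyNormedField k] [NormedField E] [IsUltrametricDist E]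
  [NormedAlgebra k E]

lemma nv_apply (z : E) : NormedField.valuation z = ‖z‖₊ := rfl

/-- the closure of an intermediate field is closed -/
lemma isClosed_clo (F : IntermediateField k E) :
    IsClosed ((clo (NormedField.valuation (K := E)) F : IntermediateField k E) : Set E) := by
  rw [← closure_subset_iff_isClosed]
  intro z hz
  rw [Metric.mem_closure_iff] at hz
  have : z ∈ clo (NormedField.valuation (K := E)) (clo (NormedField.valuation (K := E)) F) := by
    intro e he
    obtain ⟨s, hs, h⟩ := hz e (by exact_mod_cast he)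
    refine ⟨s, hs, ?_⟩
    rw [dist_eq_norm] at h
    exact_mod_cast h
  rw [clo_clo] at this
  exact this

instance normedAlgebraIF (H : IntermediateField k E) : NormedAlgebra H E where
  norm_smul_le r x := by
    rw [Algebra.smul_def, norm_mul]
    rfl

instance ultraIF (H : IntermediateField k E) : IsUltrametricDist H where
  dist_triangle_max x y z := IsUltrametricDist.dist_triangle_max (x : E) (y : E) (z : E)

/-- `E` is finite over the closure of `k(t)` if it is the completion of a field finite over
`k(t)`. -/
theorem finite_clo [CompleteSpace E] {K : Type*} [Field K] [Algebra k K] [Algebra K E]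
    [IsScalarTower k K E] (hdense : DenseRange (algebraMap K E)) (t : K)
    [FiniteDimensional (IntermediateField.adjoin k {t}) K] :
    Module.Finite (clo (NormedField.valuation (K := E))
      (IntermediateField.adjoin k {algebraMap K E t}) : IntermediateField k E) E := by
  classical
  set F₀ := IntermediateField.adjoin k {t} with hF₀
  set H := clo (NormedField.valuation (K := E)) (IntermediateField.adjoin k {algebraMap K E t})
    with hH
  have hcl : IsClosed (H : Set E) := isClosed_clo _
  have hcomp : CompleteSpace H := hcl.completeSpace_coe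
  let b := Module.finBasis F₀ K
  let S : Submodule H E := Submodule.span H (Set.range fun i => algebraMap K E (b i))
  have hfin : FiniteDimensional H S := FiniteDimensional.span_of_finite H (Set.finite_range _)
  have hScl : IsClosed (S : Set E) := Submodule.closed_of_finiteDimensional S
  have hmem : ∀ q ∈ F₀, algebraMap K E q ∈ H := by
    intro q hq
    have h1 : F₀ ≤ (IntermediateField.comap (IsScalarTower.toAlgHom k K E) H) := by
      rw [hF₀, IntermediateField.adjoin_simple_le_iff]
      exact le_clo _ _ (IntermediateField.mem_adjoin_simple_self k (algebraMap K E t))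
    exact h1 hq
  have hK : ∀ z : K, algebraMap K E z ∈ S := by
    intro z
    rw [← b.sum_repr z, map_sum]
    refine Submodule.sum_mem _ fun i _ => ?_
    rw [Algebra.smul_def, map_mul]
    have h2 : algebraMap K E (algebraMap F₀ K (b.repr z i)) * algebraMap K E (b i) =
        (⟨algebraMap K E (b.repr z i : K), hmem _ (b.repr z i).2⟩ : H) • algebraMap K E (b i) := rfl
    rw [h2]
    exact Submodule.smul_mem _ _ (Submodule.subset_span ⟨i, rfl⟩)
  have htop : S = ⊤ := by
    rw [eq_top_iff]
    intro z _
    have h3 : (S : Set E) = Set.univ := by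
      rw [← hScl.closure_eq]
      apply Set.eq_univ_of_univ_subset
      rw [← hdense.closure_range]
      apply closure_mono
      rintro _ ⟨z, rfl⟩
      exact hK z
    have : z ∈ (S : Set E) := by rw [h3]; trivial
    exact this
  rw [htop] at hfin
  exact Module.Finite.of_surjective (Submodule.topEquiv : (⊤ : Submodule H E) ≃ₗ[H] E).toLinearMap
    (Submodule.topEquiv : (⊤ : Submodule H E) ≃ₗ[H] E).surjective

end Normed

section Spectral

variable {E Ω : Type*} [NontriviallyNormedField E] [CompleteSpace E] [IsUltrametricDist E]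
  [Field Ω] [Algebra E Ω] [Algebra.IsAlgebraic E Ω]

variable (E Ω) in
/-- the spectral valuation -/
noncomputable def specVal : Valuation Ω ℝ≥0 where
  toFun z := ⟨spectralNorm E Ω z, spectralNorm_nonneg z⟩
  map_zero' := by
    apply NNReal.coe_injective
    exact spectralNorm_zero
  map_one' := by
    apply NNReal.coe_injective
    exact spectralNorm_one
  map_mul' x y := by
    apply NNReal.coe_injective
    exact map_mul (spectralMulAlgNorm E Ω) x y
  map_add_le_max' x y := by
    change (_ : ℝ) ≤ _
    exact isNonarchimedean_spectralNorm x y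

lemma specVal_coe (z : Ω) : ((specVal E Ω z : ℝ≥0) : ℝ) = spectralNorm E Ω z := rfl

lemma specVal_algebraMap (z : E) : specVal E Ω (algebraMap E Ω z) = ‖z‖₊ := by
  apply NNReal.coe_injective
  rw [specVal_coe]
  exact spectralNorm_extends z

/-- a valuation of `Ω` as an absolute value -/
noncomputable def absOf {M : Type*} [Field M] (W : Valuation M ℝ≥0) : AbsoluteValue M ℝ where
  toFun z := (W z : ℝ)
  map_mul' x y := by simp
  nonneg' x := NNReal.coe_nonneg _
  eq_zero' x := by simp
  add_le' x y := by
    have h := W.map_add x y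
    have h2 : max (W x) (W y) ≤ W x + W y := max_le le_self_add le_add_self
    exact_mod_cast h.trans h2

end Spectral

section Uniq

variable {H Ω : Type*} [NontriviallyNormedField H] [CompleteSpace H] [IsUltrametricDist H]
  [Field Ω] [Algebra H Ω] [Algebra.IsAlgebraic H Ω]

/-- uniqueness of the extension of the norm of a complete field -/
theorem val_eq_spectral (W : Valuation Ω ℝ≥0) (hW : ∀ h : H, W (algebraMap H Ω h) = ‖h‖₊) (z : Ω) :
    ((W z : ℝ≥0) : ℝ) = spectralNorm H Ω z :=
  spectralNorm_unique_field_norm_ext (f := absOf W) (fun h => by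
    change ((W (algebraMap H Ω h) : ℝ≥0) : ℝ) = ‖h‖
    rw [hW]; rfl) z

/-- a complete field is henselian -/
theorem inv_of_complete (W : Valuation Ω ℝ≥0) (hW : ∀ h : H, W (algebraMap H Ω h) = ‖h‖₊) :
    Inv H W := by
  intro σ z
  apply NNReal.coe_injective
  rw [val_eq_spectral W hW, val_eq_spectral W hW, ← spectralNorm_eq_of_equiv]

end Uniq

section Pack

variable {k E Ω : Type*} [Field k] [Field E] [Field Ω] [Algebra k E] [Algebra k Ω] [Algebra E Ω]
  [IsScalarTower k E Ω]

/-- transfer of `Inv` to the image in `Ω` -/
lemma inv_map (H : IntermediateField k E) (W : Valuation Ω ℝ≥0) (h : Inv H W) :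
    Inv (H.map (IsScalarTower.toAlgHom k E Ω)) W := by
  intro σ z
  let τ : Ω ≃ₐ[H] Ω := { σ.toRingEquiv with
    commutes' := fun r => σ.commutes ⟨algebraMap E Ω r, ⟨r, r.2, rfl⟩⟩ }
  exact h τ z

lemma isAlgebraic_map (H : IntermediateField k E) [Algebra.IsAlgebraic H Ω] :
    Algebra.IsAlgebraic (H.map (IsScalarTower.toAlgHom k E Ω)) Ω := by
  let f : H →+* (H.map (IsScalarTower.toAlgHom k E Ω)) :=
    { toFun := fun r => ⟨algebraMap E Ω r, ⟨r, r.2, rfl⟩⟩
      map_one' := Subtype.ext (by simp)
      map_mul' := fun a b => Subtype.ext (by simp)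
      map_zero' := Subtype.ext (by simp)
      map_add' := fun a b => Subtype.ext (by simp) }
  let _ : Algebra H (H.map (IsScalarTower.toAlgHom k E Ω)) := f.toAlgebra
  have : IsScalarTower H (H.map (IsScalarTower.toAlgHom k E Ω)) Ω :=
    IsScalarTower.of_algebraMap_eq fun a => rfl
  exact Algebra.IsAlgebraic.tower_top (K := H) (H.map (IsScalarTower.toAlgHom k E Ω))

lemma clo_map {V : Valuation E ℝ≥0} {W : Valuation Ω ℝ≥0}
    (hW : ∀ z, W (algebraMap E Ω z) = V z) (G : IntermediateField k E) (z : E) :
    algebraMap E Ω z ∈ clo W (G.map (IsScalarTower.toAlgHom k E Ω)) ↔ z ∈ clo V G := by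
  constructor
  · intro h e he
    obtain ⟨_, ⟨s, hs, rfl⟩, h1⟩ := h e he
    refine ⟨s, hs, ?_⟩
    rw [← hW, map_sub]
    exact h1
  · intro h e he
    obtain ⟨s, hs, h1⟩ := h e he
    refine ⟨_, ⟨s, hs, rfl⟩, ?_⟩
    rw [← hW, map_sub] at h1
    exact h1

end Pack

/-- **Completion package**, complete field given. -/
theorem package_aux {k K E : Type*} [NontriviallyNormedField k] [NontriviallyNormedField E]
    [IsUltrametricDist E] [CompleteSpace E] [NormedAlgebra k E] [Field K] [Algebra k K]
    [Algebra K E] [IsScalarTower k K E] (hdense : DenseRange (algebraMap K E))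
    (Ω : Type*) [Field Ω] [Algebra E Ω] [Algebra.IsAlgebraic E Ω] [Algebra k Ω]
    [IsScalarTower k E Ω] :
    ∃ (W : Valuation Ω ℝ≥0) (L : IntermediateField k Ω),
      (∀ z : K, W (algebraMap E Ω (algebraMap K E z)) = ‖algebraMap K E z‖₊) ∧
      (∀ z : K, algebraMap E Ω (algebraMap K E z) ∈ L) ∧
      (∀ z ∈ L, ∀ e : ℝ≥0, 0 < e → ∃ s : K, W (z - algebraMap E Ω (algebraMap K E s)) < e) ∧
      ∀ t : K, FiniteDimensional (IntermediateField.adjoin k {t}) K →
        ∃ F : IntermediateField k Ω, F ≤ L ∧ algebraMap E Ω (algebraMap K E t) ∈ F ∧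
          F ≤ clo W (IntermediateField.adjoin k {algebraMap E Ω (algebraMap K E t)}) ∧
          L ⊓ clo W (IntermediateField.adjoin k {algebraMap E Ω (algebraMap K E t)}) ≤ F ∧
          Algebra.IsAlgebraic F Ω ∧ Inv F W ∧ relfinrank F L ≠ 0 := by
  let V : Valuation E ℝ≥0 := NormedField.valuation
  let W := specVal E Ω
  have hWV : ∀ z : E, W (algebraMap E Ω z) = V z := fun z => specVal_algebraMap z
  let f : E →ₐ[k] Ω := IsScalarTower.toAlgHom k E Ω
  have hf : ∀ z, f z = algebraMap E Ω z := fun z => rfl
  let L : IntermediateField k Ω := (⊤ : IntermediateField k E).map f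
  refine ⟨W, L, fun z => hWV _, fun z => ⟨_, trivial, rfl⟩, ?_, ?_⟩
  · rintro _ ⟨z, -, rfl⟩ e he
    obtain ⟨s, hs⟩ := Metric.denseRange_iff.1 hdense z e (by exact_mod_cast he)
    refine ⟨s, ?_⟩
    have h1 : (f : E →+* Ω) z - algebraMap E Ω (algebraMap K E s) =
        algebraMap E Ω (z - algebraMap K E s) := by rw [map_sub]; rfl
    rw [h1, hWV]
    rw [dist_eq_norm] at hs
    exact_mod_cast hs
  · intro t ht
    set t' := algebraMap K E t with ht'
    set H : IntermediateField k E := clo V (IntermediateField.adjoin k {t'}) with hH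
    have hfin : Module.Finite H E := finite_clo (K := K) hdense t
    have hcl : IsClosed (H : Set E) := isClosed_clo _
    have hcomp : CompleteSpace H := hcl.completeSpace_coe
    have hHΩ : Algebra.IsAlgebraic H Ω := Algebra.IsAlgebraic.trans H E Ω
    have hadj : (IntermediateField.adjoin k {t'}).map f =
        IntermediateField.adjoin k {algebraMap E Ω t'} := by
      rw [IntermediateField.adjoin_map, Set.image_singleton]
      rfl
    refine ⟨H.map f, IntermediateField.map_mono f le_top, ⟨t', ?_, rfl⟩, ?_, ?_, ?_, ?_, ?_⟩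
    · exact le_clo V _ (IntermediateField.mem_adjoin_simple_self k t')
    · rintro _ ⟨z, hz, rfl⟩
      have := (clo_map (k := k) hWV (IntermediateField.adjoin k {t'}) z).2 hz
      change _ ∈ clo W ((IntermediateField.adjoin k {t'}).map f) at this
      rw [hadj] at this
      exact this
    · rintro _ ⟨⟨z, -, rfl⟩, hz⟩
      refine ⟨z, ?_, rfl⟩
      rw [← hadj] at hz
      exact (clo_map (k := k) hWV (IntermediateField.adjoin k {t'}) z).1 hz
    · exact isAlgebraic_map H
    · apply inv_map
      apply inv_of_complete
      intro h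
      exact specVal_algebraMap (E := E) (Ω := Ω) (h : E)
    · rw [IntermediateField.relfinrank_map_map, IntermediateField.relfinrank_top_right]
      exact Module.finrank_pos.ne'

/-- **Completion package.** -/
theorem package_normed {k : Type*} {K : Type u} [NontriviallyNormedField k] [NormedField K]
    [IsUltrametricDist K] [NormedAlgebra k K] :
    ∃ (Ω : Type u) (_ : Field Ω) (_ : Algebra k Ω) (_ : Algebra K Ω) (_ : IsScalarTower k K Ω)
      (_ : IsAlgClosed Ω) (W : Valuation Ω ℝ≥0) (L : IntermediateField k Ω),
      (∀ z : K, W (algebraMap K Ω z) = ‖z‖₊) ∧ (∀ z : K, algebraMap K Ω z ∈ L) ∧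
      (∀ z ∈ L, ∀ e : ℝ≥0, 0 < e → ∃ s : K, W (z - algebraMap K Ω s) < e) ∧
      ∀ t : K, FiniteDimensional (IntermediateField.adjoin k {t}) K →
        ∃ F : IntermediateField k Ω, F ≤ L ∧ algebraMap K Ω t ∈ F ∧
          F ≤ clo W (IntermediateField.adjoin k {algebraMap K Ω t}) ∧
          L ⊓ clo W (IntermediateField.adjoin k {algebraMap K Ω t}) ≤ F ∧
          Algebra.IsAlgebraic F Ω ∧ Inv F W ∧ relfinrank F L ≠ 0 := by
  let E := UniformSpace.Completion K
  let hnn : NontriviallyNormedField E :=
    { (inferInstance : NormedField E) with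
      non_trivial := by
        obtain ⟨c, hc⟩ := NontriviallyNormedField.non_trivial (α := k)
        exact ⟨algebraMap k E c, by rw [norm_algebraMap']; exact hc⟩ }
  have hult : IsUltrametricDist E := by
    apply IsUltrametricDist.isUltrametricDist_of_isNonarchimedean_norm
    intro x y
    induction x, y using UniformSpace.Completion.induction_on₂ with
    | hp => exact isClosed_le (by fun_prop) (by fun_prop)
    | ih x y =>
      rw [← UniformSpace.Completion.coe_add, UniformSpace.Completion.norm_coe,
        UniformSpace.Completion.norm_coe, UniformSpace.Completion.norm_coe]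
      exact IsUltrametricDist.norm_add_le_max x y
  have hdense : DenseRange (algebraMap K E) := UniformSpace.Completion.denseRange_coe
  let Ω := AlgebraicClosure E
  let iKO : Algebra K Ω := ((algebraMap E Ω).comp (algebraMap K E)).toAlgebra
  have hkKO : @IsScalarTower k K Ω _ iKO.toSMul _ := by
    refine @IsScalarTower.of_algebraMap_eq k K Ω _ _ _ _ iKO _ fun c => ?_
    change algebraMap k Ω c = algebraMap E Ω (algebraMap K E (algebraMap k K c))
    rw [← IsScalarTower.algebraMap_apply k K E, ← IsScalarTower.algebraMap_apply k E Ω]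
  obtain ⟨W, L, h1, h2, h3, h4⟩ := package_aux (k := k) (K := K) (E := E) hdense Ω
  refine ⟨Ω, inferInstance, inferInstance, iKO, hkKO, inferInstance, W, L,
    fun z => ?_, h2, h3, h4⟩
  refine (h1 z).trans ?_
  exact NNReal.coe_injective (UniformSpace.Completion.norm_coe z)

/-- **Completion package for a rank one valuation** `w` of `K`, nontrivial on `k`. `Ω` is
algebraically closed with a valuation `W` extending `w`; `L` is the (completed) closure of `K` in
`Ω`; for every `t : K` with `K/k(t)` finite, `F` is the closure of `k(t)` in `L`: it is henselian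
and `L/F` is finite. -/
theorem package {k : Type*} {K : Type u} [Field k] [Field K] [Algebra k K]
    (w : Valuation K ℝ≥0) (hnt : ∃ c : k, 1 < w (algebraMap k K c)) :
    ∃ (Ω : Type u) (_ : Field Ω) (_ : Algebra k Ω) (_ : Algebra K Ω) (_ : IsScalarTower k K Ω)
      (_ : IsAlgClosed Ω) (W : Valuation Ω ℝ≥0) (L : IntermediateField k Ω),
      (∀ z : K, W (algebraMap K Ω z) = w z) ∧ (∀ z : K, algebraMap K Ω z ∈ L) ∧
      (∀ z ∈ L, ∀ e : ℝ≥0, 0 < e → ∃ s : K, W (z - algebraMap K Ω s) < e) ∧
      ∀ t : K, FiniteDimensional (IntermediateField.adjoin k {t}) K →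
        ∃ F : IntermediateField k Ω, F ≤ L ∧ algebraMap K Ω t ∈ F ∧
          F ≤ clo W (IntermediateField.adjoin k {algebraMap K Ω t}) ∧
          L ⊓ clo W (IntermediateField.adjoin k {algebraMap K Ω t}) ≤ F ∧
          Algebra.IsAlgebraic F Ω ∧ Inv F W ∧ relfinrank F L ≠ 0 := by
  let nK : NormedField K := (absOf w).toNormedField
  have hn : ∀ z : K, ‖z‖ = w z := fun z => rfl
  let nk : NontriviallyNormedField k :=
    { (absOf (w.comap (algebraMap k K))).toNormedField with
      non_trivial := by
        obtain ⟨c, hc⟩ := hnt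
        exact ⟨c, by exact_mod_cast hc⟩ }
  have hu : IsUltrametricDist K := by
    apply IsUltrametricDist.isUltrametricDist_of_isNonarchimedean_norm
    intro x y
    rw [hn, hn, hn]
    exact_mod_cast w.map_add x y
  let nA : NormedAlgebra k K :=
    { (inferInstance : Algebra k K) with
      norm_smul_le := by
        intro r x
        rw [Algebra.smul_def, norm_mul]
        rfl }
  obtain ⟨Ω, i1, i2, i3, i4, i5, W, L, h1, h⟩ := package_normed (k := k) (K := K)
  exact ⟨Ω, i1, i2, i3, i4, i5, W, L, h1, h⟩

end Crest.Agent.R013.LU5_935
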