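import Mathlib

/-!
# R013 / PL1_109 : norms on the rational function field of the line

`C` a field with a valuation `v : C → ℝ≥0`. Gauss norms with centre `a` and radius `r > 0` on
`C[X]` and on `RatFunc C`; classification of the norms `w` of `RatFunc C` over `v` when `C` is
algebraically closed: either `w` is the Gauss norm of a closed disc (`w (X - a)` attains its
minimum) or `w` is immediate (type 4); chains of discs give norms of type 4.
-/

set_option autoImplicit false

open scoped NNReal
open Polynomial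

namespace Crest.Agent.R013.PL_109

variable {C : Type*} [Field C] (v : Valuation C ℝ≥0)

/-- Gauss norm of radius `r` centred at `0`. -/
noncomputable def gf (r : ℝ≥0) (f : C[X]) : ℝ≥0 :=
  f.support.sup fun j => v (f.coeff j) * r ^ j

theorem le_gf (r : ℝ≥0) (f : C[X]) (j : ℕ) : v (f.coeff j) * r ^ j ≤ gf v r f := by
  by_cases h : j ∈ f.support
  · exact Finset.le_sup (f := fun j => v (f.coeff j) * r ^ j) h
  · rw [notMem_support_iff.1 h, map_zero, zero_mul]
    exact zero_le

theorem gf_le {r : ℝ≥0} {f : C[X]} {B : ℝ≥0} (h : ∀ j, v (f.coeff j) * r ^ j ≤ B) :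
    gf v r f ≤ B :=
  Finset.sup_le fun j _ => h j

theorem gf_lt {r : ℝ≥0} {f : C[X]} {B : ℝ≥0} (hB : 0 < B)
    (h : ∀ j, v (f.coeff j) * r ^ j < B) : gf v r f < B := by
  rw [gf, Finset.sup_lt_iff (by simpa using hB)]
  exact fun j _ => h j

theorem gf_zero (r : ℝ≥0) : gf v r (0 : C[X]) = 0 := by simp [gf]

theorem gf_C (r : ℝ≥0) (c : C) : gf v r (Polynomial.C c) = v c := by
  apply le_antisymm
  · apply gf_le
    intro j
    rw [coeff_C]
    split_ifs with h
    · simp [h]
    · simp
  · have := le_gf v r (Polynomial.C c) 0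
    simpa using this

theorem exists_gf_eq (r : ℝ≥0) {f : C[X]} (hf : f ≠ 0) :
    ∃ j ∈ f.support, gf v r f = v (f.coeff j) * r ^ j := by
  obtain ⟨j, hj, h⟩ := Finset.exists_mem_eq_sup f.support (support_nonempty.2 hf)
    (fun j => v (f.coeff j) * r ^ j)
  exact ⟨j, hj, h⟩

theorem gf_ne_zero {r : ℝ≥0} (hr : r ≠ 0) {f : C[X]} (hf : f ≠ 0) : gf v r f ≠ 0 := by
  have h1 : v (f.coeff f.natDegree) ≠ 0 := by
    rw [Valuation.ne_zero_iff, coeff_natDegree]
    exact leadingCoeff_ne_zero.2 hf
  have h2 := le_gf v r f f.natDegree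
  have h3 : 0 < v (f.coeff f.natDegree) * r ^ f.natDegree :=
    mul_pos (pos_iff_ne_zero.2 h1) (pow_pos (pos_iff_ne_zero.2 hr) _)
  exact (h3.trans_le h2).ne'

theorem gf_add (r : ℝ≥0) (f g : C[X]) : gf v r (f + g) ≤ max (gf v r f) (gf v r g) := by
  apply gf_le
  intro j
  rw [coeff_add]
  have h := v.map_add (f.coeff j) (g.coeff j)
  calc v (f.coeff j + g.coeff j) * r ^ j ≤ max (v (f.coeff j)) (v (g.coeff j)) * r ^ j :=
        mul_le_mul_left h _
    _ = max (v (f.coeff j) * r ^ j) (v (g.coeff j) * r ^ j) := max_mul_of_nonneg _ _ (zero_le)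
    _ ≤ _ := max_le_max (le_gf v r f j) (le_gf v r g j)

/-- first index at which the Gauss norm is attained -/
theorem exists_first (r : ℝ≥0) {f : C[X]} (hf : f ≠ 0) :
    ∃ j, gf v r f = v (f.coeff j) * r ^ j ∧ ∀ i < j, v (f.coeff i) * r ^ i < gf v r f := by
  classical
  have h : ∃ j, gf v r f = v (f.coeff j) * r ^ j := by
    obtain ⟨j, -, h⟩ := exists_gf_eq v r hf
    exact ⟨j, h⟩
  refine ⟨Nat.find h, Nat.find_spec h, fun i hi => ?_⟩
  exact lt_of_le_of_ne (le_gf v r f i) fun he => Nat.find_min h hi he.symm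

theorem gf_mul {r : ℝ≥0} (hr : r ≠ 0) (f g : C[X]) : gf v r (f * g) = gf v r f * gf v r g := by
  by_cases hf : f = 0
  · simp [hf, gf_zero]
  by_cases hg : g = 0
  · simp [hg, gf_zero]
  have hr0 : 0 < r := pos_iff_ne_zero.2 hr
  apply le_antisymm
  · apply gf_le
    intro n
    rw [coeff_mul]
    have h1 : ∀ p ∈ Finset.HasAntidiagonal.antidiagonal n, v (f.coeff p.1 * g.coeff p.2) * r ^ n ≤
        gf v r f * gf v r g := by
      intro p hp
      rw [Finset.HasAntidiagonal.mem_antidiagonal] at hp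
      rw [map_mul, ← hp, pow_add]
      calc v (f.coeff p.1) * v (g.coeff p.2) * (r ^ p.1 * r ^ p.2)
          = (v (f.coeff p.1) * r ^ p.1) * (v (g.coeff p.2) * r ^ p.2) := by ring
        _ ≤ _ := mul_le_mul' (le_gf v r f _) (le_gf v r g _)
    have h2 : v (∑ p ∈ Finset.HasAntidiagonal.antidiagonal n, f.coeff p.1 * g.coeff p.2) ≤
        gf v r f * gf v r g / r ^ n := by
      apply v.map_sum_le
      intro p hp
      rw [le_div_iff₀ (pow_pos hr0 n)]
      exact h1 p hp
    rwa [le_div_iff₀ (pow_pos hr0 n)] at h2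
  · obtain ⟨i, hi1, hi2⟩ := exists_first v r hf
    obtain ⟨j, hj1, hj2⟩ := exists_first v r hg
    have hfp : 0 < gf v r f := pos_iff_ne_zero.2 (gf_ne_zero v hr hf)
    have hgp : 0 < gf v r g := pos_iff_ne_zero.2 (gf_ne_zero v hr hg)
    have key : v ((f * g).coeff (i + j)) = v (f.coeff i) * v (g.coeff j) := by
      rw [coeff_mul]
      have hmem : (i, j) ∈ Finset.HasAntidiagonal.antidiagonal (i + j) := by simp
      rw [← Finset.add_sum_erase _ _ hmem]
      have h3 : v (f.coeff i * g.coeff j) = v (f.coeff i) * v (g.coeff j) := map_mul _ _ _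
      rw [← h3]
      apply Valuation.map_add_eq_of_lt_left
      have hpos : v (f.coeff i * g.coeff j) ≠ 0 := by
        intro h0
        rw [h3] at h0
        rcases mul_eq_zero.1 h0 with h0 | h0
        · rw [hi1, h0, zero_mul] at hfp; exact lt_irrefl _ hfp
        · rw [hj1, h0, zero_mul] at hgp; exact lt_irrefl _ hgp
      apply v.map_sum_lt hpos
      intro p hp
      rw [Finset.mem_erase, Finset.HasAntidiagonal.mem_antidiagonal] at hp
      obtain ⟨hne, hpp⟩ := hp
      rw [h3, map_mul]
      have h5 : v (f.coeff p.1) * r ^ p.1 * (v (g.coeff p.2) * r ^ p.2) <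
          v (f.coeff i) * r ^ i * (v (g.coeff j) * r ^ j) := by
        rw [← hi1, ← hj1]
        rcases lt_trichotomy p.1 i with hlt | heq | hgt
        · exact mul_lt_mul_of_lt_of_le_of_nonneg_of_pos (hi2 _ hlt) (le_gf v r g _) (zero_le) hgp
        · exfalso
          apply hne
          ext
          · exact heq
          · simp only; omega
        · have h6 : p.2 < j := by omega
          exact mul_lt_mul_of_le_of_lt_of_nonneg_of_pos (le_gf v r f _) (hj2 _ h6) (zero_le) hfp
      have h7 : v (f.coeff p.1) * r ^ p.1 * (v (g.coeff p.2) * r ^ p.2) =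
          v (f.coeff p.1) * v (g.coeff p.2) * r ^ (i + j) := by
        rw [← hpp, pow_add]; ring
      have h8 : v (f.coeff i) * r ^ i * (v (g.coeff j) * r ^ j) =
          v (f.coeff i) * v (g.coeff j) * r ^ (i + j) := by
        rw [pow_add]; ring
      rw [h7, h8] at h5
      exact lt_of_mul_lt_mul_right h5 (zero_le)
    have h9 := le_gf v r (f * g) (i + j)
    rw [key] at h9
    calc gf v r f * gf v r g = v (f.coeff i) * v (g.coeff j) * r ^ (i + j) := by
          rw [hi1, hj1, pow_add]; ring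
      _ ≤ _ := h9

/-- Gauss valuation of radius `r` centred at `0`. -/
noncomputable def gval (r : ℝ≥0) (hr : r ≠ 0) : Valuation C[X] ℝ≥0 where
  toFun := gf v r
  map_zero' := gf_zero v r
  map_one' := by rw [← Polynomial.C_1, gf_C, map_one]
  map_mul' := gf_mul v hr
  map_add_le_max' := gf_add v r

/-- Gauss valuation on polynomials with centre `a` and radius `r`. -/
noncomputable def gvalAt (a : C) (r : ℝ≥0) (hr : r ≠ 0) : Valuation C[X] ℝ≥0 :=
  (gval v r hr).comap (taylorAlgHom a : C[X] →ₐ[C] C[X]).toRingHom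

theorem gvalAt_apply (a : C) {r : ℝ≥0} (hr : r ≠ 0) (f : C[X]) :
    gvalAt v a r hr f = gf v r (taylor a f) := rfl

theorem gvalAt_C (a : C) {r : ℝ≥0} (hr : r ≠ 0) (c : C) :
    gvalAt v a r hr (Polynomial.C c) = v c := by
  rw [gvalAt_apply, taylor_C, gf_C]

theorem gf_X_sub (r : ℝ≥0) (b : C) : gf v r (X + Polynomial.C b) = max r (v b) := by
  apply le_antisymm
  · apply gf_le
    intro j
    rw [coeff_add, coeff_X, coeff_C]
    rcases Nat.lt_trichotomy j 1 with h | h | h
    · have h0 : j = 0 := by omega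
      subst h0
      simp
    · subst h
      simp
    · have h1 : ¬ (1 = j) := by omega
      have h2 : ¬ (j = 0) := by omega
      simp [h1, h2]
  · apply max_le
    · have := le_gf v r (X + Polynomial.C b) 1
      simpa [coeff_C] using this
    · have := le_gf v r (X + Polynomial.C b) 0
      simpa using this

theorem gvalAt_X_sub (a : C) {r : ℝ≥0} (hr : r ≠ 0) (b : C) :
    gvalAt v a r hr (X - Polynomial.C b) = max r (v (a - b)) := by
  rw [gvalAt_apply, map_sub, taylor_X, taylor_C, add_sub_assoc, ← Polynomial.C_sub, gf_X_sub]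

theorem gvalAt_ne_zero (a : C) {r : ℝ≥0} (hr : r ≠ 0) {f : C[X]} (hf : f ≠ 0) :
    gvalAt v a r hr f ≠ 0 := by
  rw [gvalAt_apply]
  exact gf_ne_zero v hr (fun h => hf ((taylor_eq_zero a f).1 h))

/-- extension of a valuation of `C[X]` without kernel to `RatFunc C` -/
noncomputable def extR (w : Valuation C[X] ℝ≥0) (hw : ∀ f : C[X], f ≠ 0 → w f ≠ 0) :
    Valuation (RatFunc C) ℝ≥0 :=
  w.extendToLocalization (S := nonZeroDivisors C[X])
    (fun f hf hf' => hw f (nonZeroDivisors.ne_zero hf) hf') (RatFunc C)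

theorem extR_algebraMap (w : Valuation C[X] ℝ≥0) (hw : ∀ f : C[X], f ≠ 0 → w f ≠ 0) (f : C[X]) :
    extR w hw (algebraMap C[X] (RatFunc C) f) = w f :=
  Valuation.extendToLocalization_apply_map_apply _ _ _ _

/-- Gauss valuation on `RatFunc C` with centre `a` and radius `r ≠ 0`. -/
noncomputable def gaussR (a : C) (r : ℝ≥0) (hr : r ≠ 0) : Valuation (RatFunc C) ℝ≥0 :=
  extR (gvalAt v a r hr) fun _ hf => gvalAt_ne_zero v a hr hf

theorem gaussR_algebraMap (a : C) {r : ℝ≥0} (hr : r ≠ 0) (f : C[X]) :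
    gaussR v a r hr (algebraMap C[X] (RatFunc C) f) = gf v r (taylor a f) := by
  rw [gaussR, extR_algebraMap, gvalAt_apply]

theorem gaussR_C (a : C) {r : ℝ≥0} (hr : r ≠ 0) (c : C) :
    gaussR v a r hr (RatFunc.C c) = v c := by
  rw [← RatFunc.algebraMap_C, gaussR, extR_algebraMap, gvalAt_C]

theorem algebraMap_X_sub (b : C) :
    algebraMap C[X] (RatFunc C) (X - Polynomial.C b) = RatFunc.X - RatFunc.C b := by
  rw [map_sub, RatFunc.algebraMap_X, RatFunc.algebraMap_C]

theorem gaussR_X_sub (a : C) {r : ℝ≥0} (hr : r ≠ 0) (b : C) :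
    gaussR v a r hr (RatFunc.X - RatFunc.C b) = max r (v (a - b)) := by
  rw [← algebraMap_X_sub, gaussR, extR_algebraMap, gvalAt_X_sub]

variable {v}

/-- two norms of `C(x)`, `C` algebraically closed, are equal if they agree on constants and on all
`x - b` -/
theorem ext_of_linear [IsAlgClosed C] {w w' : Valuation (RatFunc C) ℝ≥0}
    (h0 : ∀ c, w (RatFunc.C c) = w' (RatFunc.C c))
    (h1 : ∀ b, w (RatFunc.X - RatFunc.C b) = w' (RatFunc.X - RatFunc.C b)) : w = w' := by
  have hpol : ∀ f : C[X], w (algebraMap C[X] (RatFunc C) f) = w' (algebraMap C[X] (RatFunc C) f) := by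
    intro f
    have hs : f.Splits := IsAlgClosed.splits f
    rw [hs.eq_prod_roots]
    rw [map_mul, map_mul, map_mul, RatFunc.algebraMap_C, h0]
    congr 1
    rw [map_multiset_prod, map_multiset_prod, map_multiset_prod, Multiset.map_map, Multiset.map_map,
      Multiset.map_map, Multiset.map_map]
    congr 1
    apply Multiset.map_congr rfl
    intro b _
    simp only [Function.comp_apply]
    rw [algebraMap_X_sub]
    exact h1 b
  ext f
  obtain ⟨p, q, hq, rfl⟩ := IsFractionRing.div_surjective (A := C[X]) f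
  rw [map_div₀, map_div₀, hpol, hpol]

/-- **Classification of norms on the line**: either the distance to the points of `C` attains its
minimum and `w` is a Gauss norm, or `w` is immediate. -/
theorem eq_gaussR [IsAlgClosed C] {w : Valuation (RatFunc C) ℝ≥0}
    (h0 : ∀ c, w (RatFunc.C c) = v c) {a : C}
    (ha : ∀ b, w (RatFunc.X - RatFunc.C a) ≤ w (RatFunc.X - RatFunc.C b))
    (hr : w (RatFunc.X - RatFunc.C a) ≠ 0) :
    w = gaussR v a (w (RatFunc.X - RatFunc.C a)) hr := by
  apply ext_of_linear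
  · intro c; rw [h0, gaussR_C]
  · intro b
    rw [gaussR_X_sub]
    have e : (RatFunc.X - RatFunc.C b : RatFunc C) = (RatFunc.X - RatFunc.C a) + RatFunc.C (a - b) := by
      rw [map_sub]; ring
    apply le_antisymm
    · rw [e]
      refine (w.map_add _ _).trans ?_
      rw [h0]
    · apply max_le (ha b)
      have e' : RatFunc.C (a - b) = (RatFunc.X - RatFunc.C b) - (RatFunc.X - RatFunc.C a) := by
        rw [map_sub]; ring
      rw [← h0, e']
      refine (w.map_sub _ _).trans ?_
      exact max_le le_rfl (ha b)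

theorem X_sub_C_ne_zero (a : C) : (RatFunc.X - RatFunc.C a : RatFunc C) ≠ 0 := by
  rw [← algebraMap_X_sub]
  intro h
  have := (map_eq_zero_iff _ (IsFractionRing.injective C[X] (RatFunc C))).1 h
  exact Polynomial.X_sub_C_ne_zero a this

end Crest.Agent.R013.PL_109
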