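import Mathlib

/-!
# STAB, part 1: a square system `X_j ^ p + (terms of degree < p) = 0` has a solution over an
algebraically closed field (a complete intersection without zeros at infinity).
-/

namespace Crest.Agent.R013.Stab1_460

open MvPolynomial

variable {K : Type*} [Field K] {ι : Type*}

/-- all monomials of `g` have total degree `< n`. -/
def lt (n : ℕ) (g : MvPolynomial ι K) : Prop := ∀ b : ι →₀ ℕ, n ≤ b.degree → coeff b g = 0

lemma lt_zero (n : ℕ) : lt n (0 : MvPolynomial ι K) := fun b _ => by simp

lemma lt_add {n : ℕ} {g h : MvPolynomial ι K} (hg : lt n g) (hh : lt n h) : lt n (g + h) :=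
  fun b hb => by simp [hg b hb, hh b hb]

lemma lt_neg {n : ℕ} {g : MvPolynomial ι K} (hg : lt n g) : lt n (-g) :=
  fun b hb => by simp [hg b hb]

lemma lt_sub {n : ℕ} {g h : MvPolynomial ι K} (hg : lt n g) (hh : lt n h) : lt n (g - h) :=
  fun b hb => by simp [hg b hb, hh b hb]

lemma lt_smul {n : ℕ} {g : MvPolynomial ι K} (c : K) (hg : lt n g) : lt n (c • g) :=
  fun b hb => by simp [hg b hb]

lemma lt_mono {n m : ℕ} (h : n ≤ m) {g : MvPolynomial ι K} (hg : lt n g) : lt m g :=
  fun b hb => hg b (h.trans hb)

lemma lt_sum {n : ℕ} {α : Type*} (s : Finset α) (g : α → MvPolynomial ι K)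
    (hg : ∀ i ∈ s, lt n (g i)) : lt n (∑ i ∈ s, g i) := by
  classical
  induction s using Finset.induction_on with
  | empty => simpa using lt_zero n
  | insert a s ha ih =>
    rw [Finset.sum_insert ha]
    exact lt_add (hg a (Finset.mem_insert_self a s))
      (ih fun i hi => hg i (Finset.mem_insert_of_mem hi))

lemma lt_mul {n m : ℕ} {g h : MvPolynomial ι K} (hg : lt n g) (hh : lt (m + 1) h) :
    lt (n + m) (g * h) := by
  classical
  intro b hb
  rw [coeff_mul]
  refine Finset.sum_eq_zero fun x hx => ?_
  have hx' := Finset.HasAntidiagonal.mem_antidiagonal.1 hx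
  have hd : x.1.degree + x.2.degree = b.degree := by rw [← hx', map_add]
  by_cases h1 : n ≤ x.1.degree
  · rw [hg _ h1, zero_mul]
  · rw [hh x.2 (by omega), mul_zero]

lemma lt_monomial (a : ι →₀ ℕ) (c : K) : lt (a.degree + 1) (monomial a c) := by
  classical
  intro b hb
  rw [coeff_monomial, if_neg]
  rintro rfl
  omega

lemma exists_lt (g : MvPolynomial ι K) : ∃ n, lt n g := by
  classical
  refine ⟨g.totalDegree + 1, fun b hb => ?_⟩
  by_contra h
  have h2 : b ∈ g.support := by simpa [mem_support_iff] using h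
  have h3 := le_totalDegree h2
  have h4 : b.degree = b.sum fun _ e => e := rfl
  omega

lemma eq_zero_of_lt {g : MvPolynomial ι K} (hg : lt 0 g) : g = 0 := by
  ext b
  simpa using hg b (Nat.zero_le _)

/-- `g` is the monomial `a` plus terms of smaller degree. -/
def lead (a : ι →₀ ℕ) (g : MvPolynomial ι K) : Prop := lt a.degree (g - monomial a 1)

lemma lead_one : lead (0 : ι →₀ ℕ) (1 : MvPolynomial ι K) := by
  have : (1 : MvPolynomial ι K) - monomial 0 1 = 0 := by simp
  rw [lead, this]
  exact lt_zero _

lemma lead_lt {a : ι →₀ ℕ} {g : MvPolynomial ι K} (h : lead a g) : lt (a.degree + 1) g := by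
  have := lt_add (lt_mono (Nat.le_succ _) h) (lt_monomial a (1 : K))
  simpa using this

lemma lead_mul {a b : ι →₀ ℕ} {g h : MvPolynomial ι K} (hg : lead a g) (hh : lead b h) :
    lead (a + b) (g * h) := by
  have e : g * h - monomial (a + b) 1 =
      (g - monomial a 1) * h + (h - monomial b 1) * monomial a 1 := by
    have : (monomial (a + b) (1 : K)) = monomial a 1 * monomial b 1 := by
      rw [monomial_mul, one_mul]
    rw [this]; ring
  rw [lead, e, map_add]
  refine lt_add (lt_mul hg (lead_lt hh)) ?_
  rw [add_comm]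
  exact lt_mul hh (lt_monomial a 1)

lemma lead_pow {a : ι →₀ ℕ} {g : MvPolynomial ι K} (hg : lead a g) (n : ℕ) :
    lead (n • a) (g ^ n) := by
  induction n with
  | zero => simpa using lead_one
  | succ n ih => rw [succ_nsmul, pow_succ]; exact lead_mul ih hg

lemma lead_prod {α : Type*} (s : Finset α) (a : α → ι →₀ ℕ) (g : α → MvPolynomial ι K)
    (hg : ∀ i ∈ s, lead (a i) (g i)) : lead (∑ i ∈ s, a i) (∏ i ∈ s, g i) := by
  classical
  induction s using Finset.induction_on with
  | empty => simpa using lead_one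
  | insert x s hx ih =>
    rw [Finset.sum_insert hx, Finset.prod_insert hx]
    exact lead_mul (hg x (Finset.mem_insert_self x s))
      (ih fun i hi => hg i (Finset.mem_insert_of_mem hi))

variable [Fintype ι]

/-- the "division" map. -/
noncomputable def Phi (p : ℕ) (f : ι → MvPolynomial ι K) :
    MvPolynomial ι K →ₗ[K] MvPolynomial ι K :=
  (basisMonomials ι K).constr K (fun a => ∏ j, (f j ^ (a j / p) * X j ^ (a j % p)))

lemma Phi_monomial (p : ℕ) (f : ι → MvPolynomial ι K) (a : ι →₀ ℕ) :
    Phi p f (monomial a 1) = ∏ j, (f j ^ (a j / p) * X j ^ (a j % p)) := by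
  have := (basisMonomials ι K).constr_basis K
    (fun a => ∏ j, (f j ^ (a j / p) * X j ^ (a j % p))) a
  rw [coe_basisMonomials] at this
  exact this

lemma Phi_mul (p : ℕ) (hp : 0 < p) (f : ι → MvPolynomial ι K) (j : ι) (h : MvPolynomial ι K) :
    Phi p f (X j ^ p * h) = f j * Phi p f h := by
  classical
  induction h using MvPolynomial.induction_on' with
  | monomial a c =>
    have e1 : (monomial a c : MvPolynomial ι K) = c • monomial a 1 := by
      rw [smul_monomial, smul_eq_mul, mul_one]
    rw [e1, mul_smul_comm, map_smul, map_smul, mul_smul_comm]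
    congr 1
    have e2 : (X j : MvPolynomial ι K) ^ p * monomial a 1 = monomial (a + Finsupp.single j p) 1 := by
      rw [X_pow_eq_monomial, monomial_mul, one_mul, add_comm]
    rw [e2, Phi_monomial, Phi_monomial, ← Finset.mul_prod_erase _ _ (Finset.mem_univ j),
      ← Finset.mul_prod_erase (f := fun j => (f j ^ (a j / p) * X j ^ (a j % p))) _
        (Finset.mem_univ j)]
    have e3 : ∀ i ∈ Finset.univ.erase j,
        (f i ^ ((a + Finsupp.single j p : ι →₀ ℕ) i / p) *
          X i ^ ((a + Finsupp.single j p : ι →₀ ℕ) i % p) : MvPolynomial ι K) =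
        (f i ^ (a i / p) * X i ^ (a i % p)) := by
      intro i hi
      have hij : i ≠ j := Finset.ne_of_mem_erase hi
      rw [Finsupp.add_apply, Finsupp.single_eq_of_ne hij, add_zero]
    rw [Finset.prod_congr rfl e3]
    have e4 : ((a + Finsupp.single j p : ι →₀ ℕ) j / p) = a j / p + 1 := by
      rw [Finsupp.add_apply, Finsupp.single_eq_same, Nat.add_div_right _ hp]
    have e5 : ((a + Finsupp.single j p : ι →₀ ℕ) j % p) = a j % p := by
      rw [Finsupp.add_apply, Finsupp.single_eq_same, Nat.add_mod_right]
    rw [e4, e5]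
    ring
  | add g h hg hh =>
    rw [mul_add, map_add, map_add, hg, hh, mul_add]

lemma Phi_one (p : ℕ) (f : ι → MvPolynomial ι K) : Phi p f 1 = 1 := by
  have : (1 : MvPolynomial ι K) = monomial 0 1 := by simp
  rw [this, Phi_monomial]
  simp

lemma Phi_lead (p : ℕ) (f : ι → MvPolynomial ι K)
    (hf : ∀ j, lead (Finsupp.single j p) (f j)) (a : ι →₀ ℕ) :
    lead a (Phi p f (monomial a 1)) := by
  classical
  rw [Phi_monomial]
  have hX : ∀ j : ι, lead (Finsupp.single j 1) (X j : MvPolynomial ι K) := by
    intro j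
    have : (X j : MvPolynomial ι K) - monomial (Finsupp.single j 1) 1 = 0 := by
      simp [X]
    rw [lead, this]
    exact lt_zero _
  have key := lead_prod Finset.univ
    (fun j => (a j / p) • Finsupp.single j p + (a j % p) • Finsupp.single j 1)
    (fun j => (f j ^ (a j / p) * X j ^ (a j % p)))
    (fun j _ => lead_mul (lead_pow (hf j) _) (lead_pow (hX j) _))
  have e : ∑ j, ((a j / p) • Finsupp.single j p + (a j % p) • Finsupp.single j 1) = a := by
    ext i
    rw [Finsupp.finsetSum_apply, Finset.sum_eq_single i]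
    · simp only [Finsupp.add_apply, Finsupp.smul_apply, Finsupp.single_eq_same, smul_eq_mul,
        mul_one]
      rw [mul_comm]
      exact Nat.div_add_mod _ _
    · intro j _ hj
      simp only [Finsupp.add_apply, Finsupp.smul_apply, smul_eq_mul]
      rw [Finsupp.single_eq_of_ne (Ne.symm hj), Finsupp.single_eq_of_ne (Ne.symm hj)]
      simp
    · simp
  rw [e] at key
  exact key

lemma Phi_sub (p : ℕ) (f : ι → MvPolynomial ι K)
    (hf : ∀ j, lead (Finsupp.single j p) (f j)) (n : ℕ) (g : MvPolynomial ι K)
    (hg : lt (n + 1) g) : lt n (Phi p f g - g) := by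
  classical
  have e : Phi p f g - g =
      ∑ a ∈ g.support, coeff a g • (Phi p f (monomial a 1) - monomial a 1) := by
    conv_lhs => rw [g.as_sum]
    rw [map_sum, ← Finset.sum_sub_distrib]
    refine Finset.sum_congr rfl fun a _ => ?_
    have e1 : (monomial a (coeff a g) : MvPolynomial ι K) = coeff a g • monomial a 1 := by
      rw [smul_monomial, smul_eq_mul, mul_one]
    rw [e1, map_smul, smul_sub]
  rw [e]
  refine lt_sum _ _ fun a ha => lt_smul _ ?_
  refine lt_mono ?_ (Phi_lead p f hf a)
  by_contra h
  exact (mem_support_iff.1 ha) (hg a (by omega))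

lemma Phi_injective (p : ℕ) (f : ι → MvPolynomial ι K)
    (hf : ∀ j, lead (Finsupp.single j p) (f j)) : Function.Injective (Phi p f) := by
  rw [← LinearMap.ker_eq_bot, LinearMap.ker_eq_bot']
  intro g hg
  have key : ∀ n, ∀ g : MvPolynomial ι K, lt n g → Phi p f g = 0 → g = 0 := by
    intro n
    induction n with
    | zero => exact fun g hg _ => eq_zero_of_lt hg
    | succ n ih =>
      intro g hg h0
      have := Phi_sub p f hf n g hg
      rw [h0, zero_sub] at this
      have := lt_neg this
      rw [neg_neg] at this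
      exact ih g this h0
  obtain ⟨n, hn⟩ := exists_lt g
  exact key n g hn hg

lemma Phi_surjective (p : ℕ) (f : ι → MvPolynomial ι K)
    (hf : ∀ j, lead (Finsupp.single j p) (f j)) : Function.Surjective (Phi p f) := by
  intro g
  have key : ∀ n, ∀ g : MvPolynomial ι K, lt n g → ∃ h, Phi p f h = g := by
    intro n
    induction n with
    | zero => exact fun g hg => ⟨0, by rw [map_zero, eq_zero_of_lt hg]⟩
    | succ n ih =>
      intro g hg
      obtain ⟨h, hh⟩ := ih _ (Phi_sub p f hf n g hg)
      exact ⟨g - h, by rw [map_sub, hh]; ring⟩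
  obtain ⟨n, hn⟩ := exists_lt g
  exact key n g hn

/-- A square system of polynomials with leading forms `X_j ^ p` has a common zero. -/
theorem exists_zero [IsAlgClosed K] (p : ℕ) (hp : 0 < p) (f : ι → MvPolynomial ι K)
    (hf : ∀ j, lt p (f j - X j ^ p)) : ∃ x : ι → K, ∀ j, eval x (f j) = 0 := by
  classical
  have hf' : ∀ j, lead (Finsupp.single j p) (f j) := by
    intro j
    have h := hf j
    rw [X_pow_eq_monomial] at h
    rw [lead]
    simpa [Finsupp.degree_single] using h
  have hne : Ideal.span (Set.range f) ≠ ⊤ := by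
    intro htop
    have h1 : (1 : MvPolynomial ι K) ∈ Ideal.span (Set.range f) := by rw [htop]; trivial
    rw [Ideal.mem_span_range_iff_exists_fun] at h1
    obtain ⟨c, hc⟩ := h1
    choose h hh using fun j => Phi_surjective p f hf' (c j)
    have h2 : Phi p f (∑ j, X j ^ p * h j) = Phi p f 1 := by
      rw [map_sum, Phi_one, ← hc]
      refine Finset.sum_congr rfl fun j _ => ?_
      rw [Phi_mul p hp, hh, mul_comm]
    have h3 := Phi_injective p f hf' h2
    have h4 := congrArg (eval (0 : ι → K)) h3
    simp [hp.ne'] at h4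
  obtain ⟨M, hM, hIM⟩ := Ideal.exists_le_maximal _ hne
  obtain ⟨x, hx⟩ := (isMaximal_iff_eq_vanishingIdeal_singleton (K := K)).1 hM
  refine ⟨x, fun j => ?_⟩
  have h5 : f j ∈ M := hIM (Ideal.subset_span ⟨j, rfl⟩)
  rw [hx, mem_vanishingIdeal_singleton_iff, aeval_eq_eval] at h5
  exact h5

/-- The system `d_j ^ p = c_j + ∑ i, B i j * d_i` is solvable. -/
theorem exists_system [IsAlgClosed K] (p : ℕ) (hp : 2 ≤ p) (B : ι → ι → K) (c : ι → K) :
    ∃ d : ι → K, ∀ j, d j ^ p = c j + ∑ i, B i j * d i := by
  classical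
  obtain ⟨x, hx⟩ := exists_zero (K := K) (ι := ι) p (by omega)
    (fun j => X j ^ p - (C (c j) + ∑ i, C (B i j) * X i)) (by
      intro j
      have e : (X j ^ p - (C (c j) + ∑ i, C (B i j) * X i) - X j ^ p : MvPolynomial ι K) =
        -(C (c j) + ∑ i, C (B i j) * X i) := by ring
      rw [e]
      refine lt_neg (lt_add ?_ (lt_sum _ _ fun i _ => ?_))
      · have := lt_monomial (ι := ι) (0 : ι →₀ ℕ) (c j)
        rw [map_zero] at this
        exact lt_mono (by omega) this
      · have := lt_monomial (ι := ι) (Finsupp.single i 1) (B i j)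
        rw [Finsupp.degree_single] at this
        rw [C_mul_X_eq_monomial]
        exact lt_mono (by omega) this)
  refine ⟨x, fun j => ?_⟩
  have := hx j
  simp only [eval_sub, map_pow, eval_X, eval_add, eval_C, map_sum, map_mul] at this
  exact sub_eq_zero.1 this

end Crest.Agent.R013.Stab1_460
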