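import Mathlib

/-!
# STAB, part 2: residues, orthonormal families, `p`-th powers
-/

namespace Crest.Agent.R013.Stab2_460

open Polynomial
open scoped NNReal

variable {N : Type*} [Field N] (w : Valuation N ℝ≥0)

/-! ### the residue function -/

/-- the residue field -/
abbrev kap : Type _ := IsLocalRing.ResidueField w.valuationSubring

open Classical in
/-- the residue of an element of norm `≤ 1` (junk value `0` otherwise). -/
noncomputable def r (y : N) : kap w :=
  if h : w y ≤ 1 then IsLocalRing.residue w.valuationSubring ⟨y, h⟩ else 0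

lemma r_of_le {y : N} (h : w y ≤ 1) :
    r w y = IsLocalRing.residue w.valuationSubring ⟨y, h⟩ := dif_pos h

lemma r_zero : r w 0 = 0 := by
  rw [r_of_le w (y := 0) (by simp)]
  exact map_zero (IsLocalRing.residue w.valuationSubring)

lemma r_one : r w 1 = 1 := by
  rw [r_of_le w (y := 1) (by simp)]
  exact map_one (IsLocalRing.residue w.valuationSubring)

lemma le_add {a b : N} {R : ℝ≥0} (ha : w a ≤ R) (hb : w b ≤ R) : w (a + b) ≤ R :=
  (w.map_add a b).trans (max_le ha hb)

lemma lt_add {a b : N} {R : ℝ≥0} (ha : w a < R) (hb : w b < R) : w (a + b) < R :=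
  (w.map_add a b).trans_lt (max_lt ha hb)

lemma le_sub {a b : N} {R : ℝ≥0} (ha : w a ≤ R) (hb : w b ≤ R) : w (a - b) ≤ R :=
  (w.map_sub a b).trans (max_le ha hb)

lemma lt_sub {a b : N} {R : ℝ≥0} (ha : w a < R) (hb : w b < R) : w (a - b) < R :=
  (w.map_sub a b).trans_lt (max_lt ha hb)

lemma le_sum {α : Type*} (s : Finset α) (a : α → N) {R : ℝ≥0} (h : ∀ i ∈ s, w (a i) ≤ R) :
    w (∑ i ∈ s, a i) ≤ R := by
  classical
  induction s using Finset.induction_on with
  | empty => simp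
  | insert x s hx ih =>
    rw [Finset.sum_insert hx]
    exact le_add w (h x (Finset.mem_insert_self x s))
      (ih fun i hi => h i (Finset.mem_insert_of_mem hi))

lemma lt_sum {α : Type*} (s : Finset α) (a : α → N) {R : ℝ≥0} (hR : 0 < R)
    (h : ∀ i ∈ s, w (a i) < R) : w (∑ i ∈ s, a i) < R := by
  classical
  induction s using Finset.induction_on with
  | empty => simpa using hR
  | insert x s hx ih =>
    rw [Finset.sum_insert hx]
    exact lt_add w (h x (Finset.mem_insert_self x s))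
      (ih fun i hi => h i (Finset.mem_insert_of_mem hi))

lemma r_add {a b : N} (ha : w a ≤ 1) (hb : w b ≤ 1) : r w (a + b) = r w a + r w b := by
  rw [r_of_le w ha, r_of_le w hb, r_of_le w (le_add w ha hb), ← map_add]
  rfl

lemma r_neg {a : N} (ha : w a ≤ 1) : r w (-a) = - r w a := by
  rw [r_of_le w ha, r_of_le w (y := -a) (by rwa [Valuation.map_neg]), ← map_neg]
  rfl

lemma r_sub {a b : N} (ha : w a ≤ 1) (hb : w b ≤ 1) : r w (a - b) = r w a - r w b := by
  rw [sub_eq_add_neg, r_add w ha (by rwa [Valuation.map_neg]), r_neg w hb, sub_eq_add_neg]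

lemma r_mul {a b : N} (ha : w a ≤ 1) (hb : w b ≤ 1) : r w (a * b) = r w a * r w b := by
  have hab : w (a * b) ≤ 1 := by rw [map_mul]; exact mul_le_one' ha hb
  rw [r_of_le w ha, r_of_le w hb, r_of_le w hab]
  exact map_mul (IsLocalRing.residue w.valuationSubring) ⟨a, ha⟩ ⟨b, hb⟩

lemma r_eq_zero {a : N} (ha : w a ≤ 1) : r w a = 0 ↔ w a < 1 := by
  rw [r_of_le w ha, IsLocalRing.residue_eq_zero_iff, Valuation.mem_maximalIdeal_iff]

lemma r_eq {a b : N} (ha : w a ≤ 1) (hb : w b ≤ 1) : r w a = r w b ↔ w (a - b) < 1 := by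
  rw [← r_eq_zero w (le_sub w ha hb), r_sub w ha hb, sub_eq_zero]

lemma r_surj (z : kap w) : ∃ a, w a ≤ 1 ∧ r w a = z := by
  obtain ⟨y, hy⟩ := IsLocalRing.residue_surjective z
  refine ⟨y, y.2, ?_⟩
  rw [r_of_le w (y := (y : N)) y.2]
  exact hy

lemma pow_le_one_w {a : N} (ha : w a ≤ 1) (n : ℕ) : w (a ^ n) ≤ 1 := by
  rw [map_pow]; exact pow_le_one' ha n

lemma r_pow {a : N} (ha : w a ≤ 1) (n : ℕ) : r w (a ^ n) = r w a ^ n := by
  induction n with
  | zero => simp [r_one]
  | succ n ih => rw [pow_succ, r_mul w (pow_le_one_w w ha n) ha, ih, pow_succ]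

lemma r_sum {α : Type*} (s : Finset α) (a : α → N) (h : ∀ i ∈ s, w (a i) ≤ 1) :
    r w (∑ i ∈ s, a i) = ∑ i ∈ s, r w (a i) := by
  classical
  induction s using Finset.induction_on with
  | empty => simp [r_zero]
  | insert x s hx ih =>
    rw [Finset.sum_insert hx, Finset.sum_insert hx, r_add w (h x (Finset.mem_insert_self x s))
      (le_sum w s a fun i hi => h i (Finset.mem_insert_of_mem hi)),
      ih fun i hi => h i (Finset.mem_insert_of_mem hi)]

lemma natCast_le_one (n : ℕ) : w (n : N) ≤ 1 := by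
  induction n with
  | zero => simp
  | succ n ih => rw [Nat.cast_succ]; exact le_add w ih (by simp)

lemma r_natCast (n : ℕ) : r w (n : N) = n := by
  induction n with
  | zero => simp [r_zero]
  | succ n ih => rw [Nat.cast_succ, r_add w (natCast_le_one w n) (by simp), ih, r_one, Nat.cast_succ]

lemma charP_kap (p : ℕ) [Fact p.Prime] (hp : w (p : N) < 1) : CharP (kap w) p := by
  have h0 : ((p : ℕ) : kap w) = 0 := by
    rw [← r_natCast, r_eq_zero w (natCast_le_one w p)]
    exact hp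
  have hprime := (Fact.out : p.Prime)
  rcases CharP.exists (kap w) with ⟨q, hq⟩
  have h1 : q ∣ p := (CharP.cast_eq_zero_iff (kap w) q p).1 h0
  rcases (Nat.dvd_prime hprime).1 h1 with h | h
  · exfalso
    subst h
    exact CharP.false_of_nontrivial_of_char_one (R := kap w)
  · subst h
    exact hq

/-- residues of elements of a subfield `F` -/
def resF (F : Subfield N) : Subfield (kap w) where
  carrier := {z | ∃ y ∈ F, w y ≤ 1 ∧ r w y = z}
  mul_mem' := by
    rintro _ _ ⟨a, ha, ha1, rfl⟩ ⟨b, hb, hb1, rfl⟩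
    exact ⟨a * b, F.mul_mem ha hb, by rw [map_mul]; exact mul_le_one' ha1 hb1, r_mul w ha1 hb1⟩
  one_mem' := ⟨1, F.one_mem, by simp, r_one w⟩
  add_mem' := by
    rintro _ _ ⟨a, ha, ha1, rfl⟩ ⟨b, hb, hb1, rfl⟩
    exact ⟨a + b, F.add_mem ha hb, le_add w ha1 hb1, r_add w ha1 hb1⟩
  zero_mem' := ⟨0, F.zero_mem, by simp, r_zero w⟩
  neg_mem' := by
    rintro _ ⟨a, ha, ha1, rfl⟩
    exact ⟨-a, F.neg_mem ha, by rwa [Valuation.map_neg], r_neg w ha1⟩
  inv_mem' := by
    rintro _ ⟨a, ha, ha1, rfl⟩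
    by_cases h : r w a = 0
    · rw [h, inv_zero]
      exact ⟨0, F.zero_mem, by simp, r_zero w⟩
    · have h1 : w a = 1 := by
        rw [r_eq_zero w ha1, not_lt] at h
        exact le_antisymm ha1 h
      have h0 : a ≠ 0 := by
        rintro rfl
        simp at h1
      have h2 : w a⁻¹ ≤ 1 := by rw [map_inv₀, h1, inv_one]
      refine ⟨a⁻¹, F.inv_mem ha, h2, ?_⟩
      have := r_mul w h2 ha1
      rw [inv_mul_cancel₀ h0, r_one] at this
      exact eq_inv_of_mul_eq_one_left this.symm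

lemma r_mem_resF {F : Subfield N} {y : N} (hy : y ∈ F) (h1 : w y ≤ 1) : r w y ∈ resF w F :=
  ⟨y, hy, h1, rfl⟩

/-! ### orthonormal families -/

/-- `b` is orthonormal over `F`. -/
def ON {ι : Type*} [Fintype ι] (F : Subfield N) (b : ι → N) : Prop :=
  ∀ c : ι → N, (∀ i, c i ∈ F) → ∀ i, w (c i) ≤ w (∑ j, c j * b j)

lemma on_of_unit {ι : Type*} [Fintype ι] (F : Subfield N) (b : ι → N)
    (H : ∀ c : ι → N, (∀ i, c i ∈ F) → (∀ i, w (c i) ≤ 1) → w (∑ j, c j * b j) < 1 →
      ∀ i, w (c i) < 1) : ON w F b := by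
  classical
  intro c hc i
  obtain ⟨i0, -, hi0⟩ := Finset.exists_max_image Finset.univ (fun i => w (c i))
    ⟨i, Finset.mem_univ i⟩
  have hmax : ∀ j, w (c j) ≤ w (c i0) := fun j => hi0 j (Finset.mem_univ j)
  refine (hmax i).trans ?_
  by_cases h0 : w (c i0) = 0
  · rw [h0]; exact zero_le
  have hpos : 0 < w (c i0) := pos_iff_ne_zero.2 h0
  have hc0 : c i0 ≠ 0 := by
    intro h; rw [h] at h0; simp at h0
  by_contra hlt
  rw [not_le] at hlt
  have h1 : w (∑ j, (c j / c i0) * b j) < 1 := by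
    have e : ∑ j, (c j / c i0) * b j = (∑ j, c j * b j) / c i0 := by
      rw [Finset.sum_div]
      exact Finset.sum_congr rfl fun j _ => by ring
    rw [e, map_div₀]
    exact (div_lt_one hpos).2 hlt
  have h2 := H (fun j => c j / c i0) (fun j => F.div_mem (hc j) (hc i0))
    (fun j => by rw [map_div₀]; exact (div_le_one hpos).2 (hmax j)) h1 i0
  rw [div_self hc0, map_one] at h2
  exact lt_irrefl _ h2

lemma on_mul {ι κ : Type*} [Fintype ι] [Fintype κ] {F F1 : Subfield N} (b : ι → N) (b' : κ → N)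
    (hb : ON w F b) (hb' : ON w F1 b') (hF : F ≤ F1) (hbF : ∀ i, b i ∈ F1) :
    ON w F (fun x : ι × κ => b x.1 * b' x.2) := by
  intro c hc x
  obtain ⟨i, k⟩ := x
  have e : ∑ x : ι × κ, c x * (b x.1 * b' x.2) = ∑ k, (∑ i, c (i, k) * b i) * b' k := by
    rw [Fintype.sum_prod_type_right]
    refine Finset.sum_congr rfl fun k _ => ?_
    rw [Finset.sum_mul]
    exact Finset.sum_congr rfl fun i _ => by ring
  rw [e]
  refine (hb (fun i => c (i, k)) (fun i => hc _) i).trans ?_
  exact hb' (fun k => ∑ i, c (i, k) * b i)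
    (fun k => F1.sum_mem fun i _ => F1.mul_mem (hF (hc _)) (hbF i)) k

/-- `F1` has an orthonormal basis over `F`. -/
def Good (F F1 : Subfield N) : Prop :=
  ∃ (n : ℕ) (b : Fin n → N), (∀ i, b i ∈ F1) ∧ (∀ i, w (b i) ≤ 1) ∧ ON w F b ∧
    ∀ y ∈ F1, ∃ c : Fin n → N, (∀ i, c i ∈ F) ∧ y = ∑ j, c j * b j

lemma good_of_fintype {ι : Type*} [Fintype ι] {F F1 : Subfield N} (b : ι → N)
    (h1 : ∀ i, b i ∈ F1) (h2 : ∀ i, w (b i) ≤ 1) (h3 : ON w F b)
    (h4 : ∀ y ∈ F1, ∃ c : ι → N, (∀ i, c i ∈ F) ∧ y = ∑ j, c j * b j) : Good w F F1 := by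
  let e := Fintype.equivFin ι
  refine ⟨Fintype.card ι, b ∘ e.symm, fun i => h1 _, fun i => h2 _, ?_, ?_⟩
  · intro c hc i
    have := h3 (c ∘ e) (fun i => hc _) (e.symm i)
    simp only [Function.comp_apply, Equiv.apply_symm_apply] at this
    refine this.trans (le_of_eq ?_)
    congr 1
    refine Fintype.sum_equiv e _ _ fun j => ?_
    simp
  · intro y hy
    obtain ⟨c, hc, hy⟩ := h4 y hy
    refine ⟨c ∘ e.symm, fun i => hc _, ?_⟩
    rw [hy]
    refine Fintype.sum_equiv e _ _ fun j => ?_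
    simp

lemma good_trans {F F1 F2 : Subfield N} (hF : F ≤ F1) (hF1 : F1 ≤ F2) (h : Good w F F1)
    (h' : Good w F1 F2) : Good w F F2 := by
  obtain ⟨n, b, hb1, hb2, hb3, hb4⟩ := h
  obtain ⟨m, b', hb1', hb2', hb3', hb4'⟩ := h'
  refine good_of_fintype w (fun x : Fin n × Fin m => b x.1 * b' x.2)
    (fun x => F2.mul_mem (hF1 (hb1 _)) (hb1' _))
    (fun x => by rw [map_mul]; exact mul_le_one' (hb2 _) (hb2' _))
    (on_mul w b b' hb3 hb3' hF hb1) ?_
  intro y hy
  obtain ⟨c', hc', hy'⟩ := hb4' y hy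
  choose c hc hcy using fun k => hb4 (c' k) (hc' k)
  refine ⟨fun x => c x.2 x.1, fun x => hc _ _, ?_⟩
  rw [hy', Fintype.sum_prod_type_right]
  refine Finset.sum_congr rfl fun k _ => ?_
  rw [hcy k, Finset.sum_mul]
  exact Finset.sum_congr rfl fun i _ => by ring

/-! ### powers of an element -/

section powers

variable (p : ℕ) [Fact p.Prime]

/-- the polynomial of residues -/
noncomputable def resPoly {n : ℕ} (c : Fin n → N) : (kap w)[X] := ∑ i : Fin n, C (r w (c i)) * X ^ (i : ℕ)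

lemma resPoly_eval {n : ℕ} (c : Fin n → N) (hc : ∀ i, w (c i) ≤ 1) {b : N} (hb : w b ≤ 1) :
    (resPoly w c).eval (r w b) = r w (∑ i, c i * b ^ (i : ℕ)) := by
  rw [r_sum w _ _ (fun i _ => by rw [map_mul]; exact mul_le_one' (hc i) (pow_le_one_w w hb _)),
    resPoly, eval_finsetSum]
  refine Finset.sum_congr rfl fun i _ => ?_
  rw [r_mul w (hc i) (pow_le_one_w w hb _), r_pow w hb, eval_mul, eval_C, eval_pow, eval_X]

lemma resPoly_coeff {n : ℕ} (c : Fin n → N) (i : Fin n) : (resPoly w c).coeff i = r w (c i) := by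
  classical
  rw [resPoly, finsetSum_coeff, Finset.sum_eq_single i]
  · simp
  · intro j _ hj
    rw [coeff_C_mul, coeff_X_pow, if_neg, mul_zero]
    intro h
    exact hj (Fin.ext h.symm)
  · simp

lemma resPoly_degree {n : ℕ} (c : Fin n → N) : (resPoly w c).degree < n := by
  rw [← mem_degreeLT, resPoly]
  refine Submodule.sum_mem _ fun i _ => ?_
  rw [mem_degreeLT]
  refine (degree_C_mul_X_pow_le _ _).trans_lt ?_
  exact_mod_cast i.2

/-- purely inseparable residue: if `b ^ p` is congruent to an element of `F` whose residue is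
not a `p`-th power, then the powers of `b` are orthonormal over `F`. -/
lemma on_insep (F : Subfield N) {b E : N} (hE : E ∈ F) (hE1 : w E ≤ 1)
    (hb : w (b ^ p - E) < 1) (hno : ∀ y ∈ F, ¬ w (E - y ^ p) < 1) :
    ON w F (fun i : Fin p => b ^ (i : ℕ)) := by
  have hprime := (Fact.out : p.Prime)
  have hbp : w (b ^ p) ≤ 1 := by
    have := le_add w hb.le hE1
    simpa using this
  have hb1 : w b ≤ 1 := by
    rw [map_pow] at hbp
    exact (pow_le_one_iff hprime.ne_zero).1 hbp
  have hrb : r w b ^ p = r w E := by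
    rw [← r_pow w hb1, r_eq w hbp hE1]; exact hb
  let K := resF w F
  let a : K := ⟨r w E, r_mem_resF w hE hE1⟩
  have hirr : Irreducible (X ^ p - C a : K[X]) := by
    refine X_pow_sub_C_irreducible_of_prime hprime ?_
    rintro ⟨z, y, hy, hy1, rfl⟩ hz
    have hz' : r w y ^ p = r w E := congrArg Subtype.val hz
    rw [← r_pow w hy1, eq_comm, r_eq w hE1 (pow_le_one_w w hy1 p)] at hz'
    exact hno y hy hz'
  have hmin : minpoly K (r w b) = X ^ p - C a := by
    symm
    refine minpoly.eq_of_irreducible_of_monic hirr ?_ (monic_X_pow_sub_C a hprime.ne_zero)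
    simp only [map_sub, map_pow, aeval_X, aeval_C]
    rw [hrb]
    exact sub_self _
  refine on_of_unit w F _ fun c hc hc1 hlt i => ?_
  let g : K[X] := ∑ i : Fin p, C (⟨r w (c i), r_mem_resF w (hc i) (hc1 i)⟩ : K) * X ^ (i : ℕ)
  have hgmap : g.map (algebraMap K (kap w)) = resPoly w c := by
    simp only [g, Polynomial.map_sum, Polynomial.map_mul, Polynomial.map_C, Polynomial.map_pow,
      Polynomial.map_X]
    rfl
  have hg0 : aeval (r w b) g = 0 := by
    rw [aeval_def, eval₂_eq_eval_map, hgmap, resPoly_eval w c hc1 hb1, r_eq_zero]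
    · exact hlt
    · exact hlt.le
  have hgd : g.degree < p := by
    have := resPoly_degree w c
    rwa [← hgmap, degree_map] at this
  have hg : g = 0 := by
    by_contra hne
    have h1 := minpoly.degree_le_of_ne_zero K (r w b) hne hg0
    rw [hmin, degree_X_pow_sub_C hprime.pos] at h1
    exact absurd (h1.trans_lt hgd) (lt_irrefl _)
  have h3 : (resPoly w c).coeff i = 0 := by
    rw [← hgmap, hg]; simp
  rw [resPoly_coeff, r_eq_zero w (hc1 i)] at h3
  exact h3

/-- Artin-Schreier type: `p` automorphisms fixing `F` moving `b` to `p` elements with distinct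
residues. -/
lemma on_conj (F : Subfield N) {b : N} (hb1 : w b ≤ 1) {n : ℕ} (σ : Fin n → N ≃+* N)
    (hσw : ∀ i y, w (σ i y) = w y) (hσF : ∀ i, ∀ y ∈ F, σ i y = y)
    (hne : ∀ i j, i ≠ j → ¬ w (σ i b - σ j b) < 1) :
    ON w F (fun i : Fin n => b ^ (i : ℕ)) := by
  have hσb : ∀ i, w (σ i b) ≤ 1 := fun i => by rw [hσw]; exact hb1
  refine on_of_unit w F _ fun c hc hc1 hlt i => ?_
  have h0 : resPoly w c = 0 := by
    by_cases hn : n = 0
    · subst hn; exact absurd i.2 (by omega)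
    refine eq_zero_of_natDegree_lt_card_of_eval_eq_zero (resPoly w c)
      (f := fun i : Fin n => r w (σ i b)) ?_ ?_ ?_
    · intro i j hij
      by_contra hne'
      exact hne i j hne' ((r_eq w (hσb i) (hσb j)).1 hij)
    · intro i
      rw [resPoly_eval w c hc1 (hσb i), r_eq_zero]
      · have : ∑ j, c j * (σ i b) ^ (j : ℕ) = σ i (∑ j, c j * b ^ (j : ℕ)) := by
          rw [map_sum]
          refine Finset.sum_congr rfl fun j _ => ?_
          rw [map_mul, map_pow, hσF i _ (hc j)]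
        rw [this, hσw]; exact hlt
      · exact le_sum w _ _ fun j _ => by
          rw [map_mul]; exact mul_le_one' (hc1 j) (pow_le_one_w w (hσb i) _)
    · rw [Fintype.card_fin]
      by_cases hz : resPoly w c = 0
      · rw [hz, natDegree_zero]; omega
      · exact (natDegree_lt_iff_degree_lt hz).2 (resPoly_degree w c)
  have h3 : (resPoly w c).coeff i = 0 := by rw [h0]; simp
  rw [resPoly_coeff, r_eq_zero w (hc1 i)] at h3
  exact h3

end powers

/-! ### the binomial theorem -/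

section binom

variable (p : ℕ) [hpp : Fact p.Prime]

lemma add_pow_p {a b : N} {R : ℝ≥0} (ha : w a ^ p ≤ R) (hb : w b ^ p ≤ R) :
    w ((a + b) ^ p - (a ^ p + b ^ p)) ≤ w (p : N) * R := by
  rw [add_pow_prime_eq' hpp.out]
  have e : a ^ p + b ^ p + p * ∑ k ∈ Finset.Ioo 0 p, a ^ k * b ^ (p - k) * ((p.choose k / p : ℕ) : N)
      - (a ^ p + b ^ p) =
      p * ∑ k ∈ Finset.Ioo 0 p, a ^ k * b ^ (p - k) * ((p.choose k / p : ℕ) : N) := by ring
  rw [e, map_mul]
  refine mul_le_mul_right ?_ _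
  refine le_sum w _ _ fun k hk => ?_
  rw [Finset.mem_Ioo] at hk
  rw [map_mul, map_mul, map_pow, map_pow]
  have h1 : w a ^ k * w b ^ (p - k) ≤ (max (w a) (w b)) ^ p := by
    calc w a ^ k * w b ^ (p - k) ≤ (max (w a) (w b)) ^ k * (max (w a) (w b)) ^ (p - k) := by
          gcongr
          · exact le_max_left _ _
          · exact le_max_right _ _
      _ = (max (w a) (w b)) ^ p := by rw [← pow_add]; congr 1; omega
  have h2 : (max (w a) (w b)) ^ p ≤ R := by
    rcases le_total (w a) (w b) with h | h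
    · rw [max_eq_right h]; exact hb
    · rw [max_eq_left h]; exact ha
  calc w a ^ k * w b ^ (p - k) * w ((p.choose k / p : ℕ) : N) ≤ R * 1 :=
        mul_le_mul' (h1.trans h2) (natCast_le_one w _)
    _ = R := mul_one R

lemma pow_le_of_sum {α : Type*} (s : Finset α) (a : α → N) {R : ℝ≥0} 
    (h : ∀ i ∈ s, w (a i) ^ p ≤ R) : w (∑ i ∈ s, a i) ^ p ≤ R := by
  classical
  rcases s.eq_empty_or_nonempty with h0 | h0
  · rw [h0, Finset.sum_empty, map_zero, zero_pow hpp.out.ne_zero]; exact zero_le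
  · obtain ⟨i0, hi0, hm⟩ := Finset.exists_max_image s (fun i => w (a i)) h0
    exact (pow_le_pow_left' (le_sum w s a hm) p).trans (h i0 hi0)

lemma sum_pow_p {α : Type*} (s : Finset α) (a : α → N) {R : ℝ≥0} 
    (h : ∀ i ∈ s, w (a i) ^ p ≤ R) :
    w ((∑ i ∈ s, a i) ^ p - ∑ i ∈ s, a i ^ p) ≤ w (p : N) * R := by
  classical
  induction s using Finset.induction_on with
  | empty => simp [hpp.out.ne_zero]
  | insert x s hx ih =>
    rw [Finset.sum_insert hx, Finset.sum_insert hx]
    have h' : ∀ i ∈ s, w (a i) ^ p ≤ R := fun i hi => h i (Finset.mem_insert_of_mem hi)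
    have h1 := add_pow_p w p (h x (Finset.mem_insert_self x s)) (pow_le_of_sum w p s a h')
    have h2 := ih h'
    have := le_add w h1 h2
    convert this using 2
    ring

/-- `(1 + z) ^ p` for small `z`. -/
lemma one_add_pow {z : N} (hz : w z ≤ 1) :
    w ((1 + z) ^ p - (1 + z ^ p)) ≤ w (p : N) * w z := by
  rw [add_comm (1 : N) z, add_pow_prime_eq' hpp.out]
  have e : z ^ p + 1 ^ p + p * ∑ k ∈ Finset.Ioo 0 p, z ^ k * 1 ^ (p - k) * ((p.choose k / p : ℕ) : N)
      - (1 + z ^ p) =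
      p * ∑ k ∈ Finset.Ioo 0 p, z ^ k * ((p.choose k / p : ℕ) : N) := by
    simp only [one_pow, mul_one]; ring
  rw [e, map_mul]
  refine mul_le_mul_right ?_ _
  refine le_sum w _ _ fun k hk => ?_
  rw [Finset.mem_Ioo] at hk
  rw [map_mul, map_pow]
  calc w z ^ k * w ((p.choose k / p : ℕ) : N) ≤ w z ^ 1 * 1 :=
        mul_le_mul' (pow_le_pow_right_of_le_one' hz (by omega)) (natCast_le_one w _)
    _ = w z := by rw [mul_one, pow_one]

/-- the Artin-Schreier expansion. -/
lemma as_expand {c0 Z : N} (hc0 : c0 ^ (p - 1) = -p) (hne : c0 ≠ 0) (hc1 : w c0 < 1)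
    (hZ : w c0 * w Z ^ 2 < 1) :
    w ((1 + c0 * Z) ^ p - (1 + c0 ^ p * (Z ^ p - Z))) < w c0 ^ p := by
  have hp := hpp.out
  have hpos : 0 < w c0 := by
    rw [pos_iff_ne_zero]; exact (Valuation.ne_zero_iff w).2 hne
  have hcp : c0 ^ p = -(p * c0) := by
    obtain ⟨m, hm⟩ : ∃ m, p = m + 1 := ⟨p - 1, by have := hp.pos; omega⟩
    have : c0 ^ p = c0 ^ (p - 1) * c0 := by
      rw [← pow_succ]; congr 1; have := hp.pos; omega
    rw [this, hc0]; ring
  have hwp : w (p : N) = w c0 ^ (p - 1) := by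
    rw [← map_pow, hc0, Valuation.map_neg]
  rw [add_comm (1 : N) (c0 * Z), add_pow_prime_eq' hp]
  have hsplit : Finset.Ioo 0 p = insert 1 (Finset.Ioo 1 p) := by
    ext k
    simp only [Finset.mem_Ioo, Finset.mem_insert]
    have := hp.one_lt
    omega
  have h1 : (p.choose 1 / p : ℕ) = 1 := by
    rw [Nat.choose_one_right]; exact Nat.div_self hp.pos
  have e : (c0 * Z) ^ p + 1 ^ p +
      p * ∑ k ∈ Finset.Ioo 0 p, (c0 * Z) ^ k * 1 ^ (p - k) * ((p.choose k / p : ℕ) : N)
      - (1 + c0 ^ p * (Z ^ p - Z)) =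
      p * ∑ k ∈ Finset.Ioo 1 p, (c0 * Z) ^ k * ((p.choose k / p : ℕ) : N) := by
    rw [hsplit, Finset.sum_insert (by simp), h1]
    simp only [one_pow, mul_one, pow_one, Nat.cast_one]
    rw [mul_add, mul_sub, mul_pow]
    have : c0 ^ p * Z = -(p * (c0 * Z)) := by rw [hcp]; ring
    rw [this]; ring
  rw [e, map_mul, hwp]
  have hpp' : w c0 ^ p = w c0 ^ (p - 1) * w c0 := by
    rw [← pow_succ]; congr 1; have := hp.pos; omega
  rw [hpp']
  refine mul_lt_mul_of_pos_left ?_ (pow_pos hpos _)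
  refine lt_sum w _ _ hpos fun k hk => ?_
  rw [Finset.mem_Ioo] at hk
  rw [map_mul, map_pow, map_mul]
  have h2 : (w c0 * w Z) ^ 2 < w c0 := by
    calc (w c0 * w Z) ^ 2 = w c0 * (w c0 * w Z ^ 2) := by ring
      _ < w c0 * 1 := mul_lt_mul_of_pos_left hZ hpos
      _ = w c0 := mul_one _
  have h3 : w c0 * w Z ≤ 1 := by
    by_contra h
    rw [not_le] at h
    have : 1 < (w c0 * w Z) ^ 2 := one_lt_pow₀ h (by norm_num)
    exact absurd (this.trans h2) (not_lt.2 hc1.le)
  calc (w c0 * w Z) ^ k * w ((p.choose k / p : ℕ) : N) ≤ (w c0 * w Z) ^ 2 * 1 :=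
        mul_le_mul' (pow_le_pow_right_of_le_one' h3 (by omega)) (natCast_le_one w _)
    _ < w c0 := by rw [mul_one]; exact h2

end binom

end Crest.Agent.R013.Stab2_460
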