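import Mathlib
import Crest.Agent.R013.Stab1_460
import Crest.Agent.R013.Stab2_460

/-!
# STAB, part 3: `p`-th powers in a finite extension `F` (with an orthonormal basis) of `H ⊇ C(x)`
-/

namespace Crest.Agent.R013.Stab3_460

open Polynomial Crest.Agent.R013.Stab2_460
open scoped NNReal

variable {N : Type*} [Field N] (w : Valuation N ℝ≥0) (p : ℕ)

/-- the Gauss point situation. -/
structure Setup (C H : Subfield N) (x : N) : Prop where
  hp : w (p : N) < 1
  alg : IsAlgClosed C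
  CH : C ≤ H
  xH : x ∈ H
  x1 : w x ≤ 1
  gauss : ∀ (f : C[X]) (i : ℕ), w (f.coeff i : N) ≤ w (aeval x f)
  dense : ∀ h ∈ H, ∀ ε : ℝ≥0, 0 < ε → ∃ f g : C[X], g ≠ 0 ∧ w (h - aeval x f / aeval x g) < ε

/-- what is needed about an intermediate field `F` for the Kummer step. -/
structure PData (F : Subfield N) (n : ℕ) (t : Fin (n + 1) → N) (γ : ℝ≥0) : Prop where
  γ1 : γ < 1
  pγ : w (p : N) ≤ γ
  t0 : t 0 = 1
  tF : ∀ i, t i ∈ F
  t1 : ∀ i, w (t i) ≤ 1
  P1 : ∀ z : Fin (n + 1) → N, (∀ i, z i ∈ F) → ∀ i, w (z i) ^ p ≤ w (∑ i, t i * z i ^ p)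
  S1 : ∀ u ∈ F, ∃ z : Fin (n + 1) → N, (∀ i, z i ∈ F) ∧ w (u - ∑ i, t i * z i ^ p) ≤ γ * w u
  II : ∀ R : ℝ≥0, 1 ≤ R → R ^ p * γ < 1 → ∀ U ∈ F, w U ≤ R ^ p →
    ∃ W ∈ F, ∃ y : Fin n → N, (∀ i, y i ∈ F) ∧ w W ≤ R ∧
      w (U + W - W ^ p - ∑ i : Fin n, t i.succ * y i ^ p) < 1

lemma exists_bound {α : Type*} [Fintype α] (a : α → ℝ≥0) (h : ∀ i, a i < 1) (c : ℝ≥0)
    (hc : c < 1) : ∃ γ < 1, c ≤ γ ∧ ∀ i, a i ≤ γ := by
  classical
  refine ⟨max c (Finset.univ.sup a), max_lt hc ?_, le_max_left _ _, fun i =>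
    le_max_of_le_right (Finset.le_sup (f := a) (Finset.mem_univ i))⟩
  rw [Finset.sup_lt_iff (by simp)]
  exact fun i _ => h i

lemma pow_sub_pow_lt {a b : N} (ha : w a ≤ 1) (hb : w b ≤ 1) (h : w (a - b) < 1) (n : ℕ) :
    w (a ^ n - b ^ n) < 1 := by
  rw [← r_eq w (pow_le_one_w w ha n) (pow_le_one_w w hb n), r_pow w ha, r_pow w hb,
    (r_eq w ha hb).2 h]

section

variable {w p} {C H : Subfield N} {x : N} (S : Setup w p C H x)
include S

lemma aeval_le {f : C[X]} {R : ℝ≥0} (h : ∀ i, w (f.coeff i : N) ≤ R) : w (aeval x f) ≤ R := by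
  rw [aeval_eq_sum_range]
  refine le_sum w _ _ fun i _ => ?_
  have : (f.coeff i • x ^ i : N) = (f.coeff i : N) * x ^ i := rfl
  rw [this, map_mul]
  calc w (f.coeff i : N) * w (x ^ i) ≤ R * 1 := mul_le_mul' (h i) (pow_le_one_w w S.x1 i)
    _ = R := mul_one R

lemma aeval_mem (f : C[X]) : aeval x f ∈ H := by
  rw [aeval_eq_sum_range]
  refine H.sum_mem fun i _ => ?_
  have : (f.coeff i • x ^ i : N) = (f.coeff i : N) * x ^ i := rfl
  rw [this]
  exact H.mul_mem (S.CH (f.coeff i).2) (H.pow_mem S.xH i)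

lemma exists_coeff {f : C[X]} (hf : f ≠ 0) :
    ∃ i, f.coeff i ≠ 0 ∧ w (aeval x f) = w (f.coeff i : N) := by
  classical
  obtain ⟨i0, hi0, hm⟩ := Finset.exists_max_image f.support (fun i => w (f.coeff i : N))
    (nonempty_support_iff.2 hf)
  refine ⟨i0, mem_support_iff.1 hi0, le_antisymm (aeval_le S fun i => ?_) (S.gauss f i0)⟩
  by_cases hi : i ∈ f.support
  · exact hm i hi
  · rw [notMem_support_iff.1 hi]; simp

lemma aeval_ne_zero {f : C[X]} (hf : f ≠ 0) : aeval x f ≠ 0 := by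
  obtain ⟨i, hi, h⟩ := exists_coeff S hf
  rw [← w.ne_zero_iff, h, w.ne_zero_iff]
  intro h0
  exact hi (Subtype.ext h0)

lemma value_H {h : N} (hH : h ∈ H) (h0 : h ≠ 0) : ∃ c : C, c ≠ 0 ∧ w h = w (c : N) := by
  obtain ⟨f, g, hg, hfg⟩ := S.dense h hH (w h) (pos_iff_ne_zero.2 (w.ne_zero_iff.2 h0))
  have hw : w (aeval x f / aeval x g) = w h := by
    have := Valuation.map_sub_eq_of_lt_left w hfg
    rw [← this]
    congr 1; ring
  have hf : f ≠ 0 := by
    rintro rfl
    rw [map_zero, zero_div, map_zero] at hw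
    exact (w.ne_zero_iff.2 h0) hw.symm
  obtain ⟨i, hi, hfi⟩ := exists_coeff S hf
  obtain ⟨j, hj, hgj⟩ := exists_coeff S hg
  refine ⟨f.coeff i / g.coeff j, div_ne_zero hi hj, ?_⟩
  rw [← hw, map_div₀, hfi, hgj]
  push_cast
  rw [map_div₀]

lemma approx_common {J : Type*} [Fintype J] (h : J → N) (hH : ∀ j, h j ∈ H) {ε : ℝ≥0}
    (hε : 0 < ε) : ∃ (f : J → C[X]) (g : C[X]), w (aeval x g) = 1 ∧
      ∀ j, w (h j - aeval x (f j) / aeval x g) < ε := by
  classical
  choose f g hg hfg using fun j => S.dense (h j) (hH j) ε hε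
  set G : C[X] := ∏ j, g j with hG
  have hG0 : G ≠ 0 := Finset.prod_ne_zero_iff.2 fun j _ => hg j
  obtain ⟨i, hi, hGi⟩ := exists_coeff S hG0
  have hi' : (G.coeff i : N) ≠ 0 := fun h => hi (Subtype.ext h)
  refine ⟨fun j => Polynomial.C (G.coeff i)⁻¹ * (f j * ∏ k ∈ Finset.univ.erase j, g k),
    Polynomial.C (G.coeff i)⁻¹ * G, ?_, fun j => ?_⟩
  · rw [map_mul, aeval_C, map_mul, hGi]
    have : (algebraMap C N (G.coeff i)⁻¹) = (G.coeff i : N)⁻¹ := rfl
    rw [this, map_inv₀, inv_mul_cancel₀ (w.ne_zero_iff.2 hi')]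
  · have e : aeval x (Polynomial.C (G.coeff i)⁻¹ * (f j * ∏ k ∈ Finset.univ.erase j, g k)) /
        aeval x (Polynomial.C (G.coeff i)⁻¹ * G) = aeval x (f j) / aeval x (g j) := by
      have hGj : G = g j * ∏ k ∈ Finset.univ.erase j, g k := by
        rw [hG]; exact (Finset.mul_prod_erase _ _ (Finset.mem_univ j)).symm
      rw [hGj]
      have h1 : aeval x (∏ k ∈ Finset.univ.erase j, g k) ≠ 0 :=
        aeval_ne_zero S (Finset.prod_ne_zero_iff.2 fun k _ => hg k)
      have h2 : aeval x (g j) ≠ 0 := aeval_ne_zero S (hg j)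
      have h3 : aeval x (Polynomial.C ((g j * ∏ k ∈ Finset.univ.erase j, g k).coeff i)⁻¹ : C[X]) ≠ 0 := by
        rw [← hGj]
        exact aeval_ne_zero S (by rw [Ne, C_eq_zero]; exact inv_ne_zero hi)
      have key : ∀ k a b c : N, k ≠ 0 → b ≠ 0 → c ≠ 0 → k * (a * c) / (k * (b * c)) = a / b := by
        intro k a b c hk hb hc
        field_simp
      rw [map_mul, map_mul, map_mul (aeval x) (Polynomial.C _) (g j * _), map_mul (aeval x) (g j)]
      exact key _ _ _ _ h3 h2 h1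
    rw [e]
    exact hfg j

omit S in
lemma sum_range_mul (p k : ℕ) (a : ℕ → N) :
    ∑ m ∈ Finset.range (p * k), a m = ∑ s ∈ Finset.range k, ∑ l ∈ Finset.range p, a (p * s + l) := by
  induction k with
  | zero => simp
  | succ k ih => rw [Nat.mul_succ, Finset.sum_range_add, ih, Finset.sum_range_succ]

/-- decomposition of polynomials. -/
lemma poly_decomp [hpp : Fact p.Prime] (f : C[X]) {R : ℝ≥0} (hR : ∀ i, w (f.coeff i : N) ≤ R) :
    ∃ u : ℕ → C[X], (∀ l i, w ((u l).coeff i : N) ^ p ≤ R) ∧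
      (∀ l, (u l).natDegree ≤ f.natDegree / p) ∧
      w (aeval x f - ∑ l ∈ Finset.range p, x ^ l * (aeval x (u l)) ^ p) ≤ w (p : N) * R := by
  classical
  have := S.alg
  have hp0 : 0 < p := hpp.out.pos
  choose rt hrt using fun c : C => IsAlgClosed.exists_pow_nat_eq c hp0
  set n := f.natDegree with hn
  let u : ℕ → C[X] := fun l => ∑ s ∈ Finset.range (n / p + 1), Polynomial.C (rt (f.coeff (p * s + l))) * X ^ s
  have hrtle : ∀ m, w (rt (f.coeff m) : N) ^ p ≤ R := by
    intro m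
    rw [← map_pow]
    have : ((rt (f.coeff m) : C) : N) ^ p = (f.coeff m : N) := by
      rw [← SubmonoidClass.coe_pow, hrt]
    rw [this]; exact hR m
  have hcoeff : ∀ l i, (u l).coeff i = if i ∈ Finset.range (n / p + 1) then rt (f.coeff (p * i + l)) else 0 := by
    intro l i
    simp only [u, finsetSum_coeff, coeff_C_mul, coeff_X_pow, mul_ite, mul_one, mul_zero]
    rw [Finset.sum_ite_eq]
  refine ⟨u, fun l i => ?_, fun l => ?_, ?_⟩
  · rw [hcoeff]
    split_ifs
    · exact hrtle _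
    · simp [hp0.ne']
  · refine natDegree_sum_le_of_forall_le _ _ fun s hs => ?_
    refine (natDegree_C_mul_X_pow_le _ _).trans ?_
    rw [Finset.mem_range] at hs
    omega
  · have hu : ∀ l, aeval x (u l) =
        ∑ s ∈ Finset.range (n / p + 1), (rt (f.coeff (p * s + l)) : N) * x ^ s := by
      intro l
      simp only [u, map_sum, map_mul, aeval_C, map_pow, aeval_X]
      rfl
    have hf : aeval x f = ∑ l ∈ Finset.range p, x ^ l *
        ∑ s ∈ Finset.range (n / p + 1), ((rt (f.coeff (p * s + l)) : N) * x ^ s) ^ p := by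
      have h1 : n < p * (n / p + 1) := by
        have := Nat.lt_mul_div_succ n hp0
        omega
      rw [aeval_eq_sum_range' h1, sum_range_mul, Finset.sum_comm]
      refine Finset.sum_congr rfl fun l _ => ?_
      rw [Finset.mul_sum]
      refine Finset.sum_congr rfl fun s _ => ?_
      have h2 : ((rt (f.coeff (p * s + l)) : C) : N) ^ p = (f.coeff (p * s + l) : N) := by
        rw [← SubmonoidClass.coe_pow, hrt]
      have h3 : (f.coeff (p * s + l) • x ^ (p * s + l) : N) =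
        (f.coeff (p * s + l) : N) * x ^ (p * s + l) := rfl
      rw [mul_pow, h2, h3, ← pow_mul, pow_add, mul_comm p s]
      ring
    rw [hf, ← Finset.sum_sub_distrib]
    refine le_sum w _ _ fun l _ => ?_
    rw [← mul_sub, map_mul, hu]
    have h4 := sum_pow_p w p (Finset.range (n / p + 1))
      (fun s => (rt (f.coeff (p * s + l)) : N) * x ^ s) (R := R) (fun s _ => by
        rw [map_mul, mul_pow]
        calc w (rt (f.coeff (p * s + l)) : N) ^ p * w (x ^ s) ^ p ≤ R * 1 :=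
              mul_le_mul' (hrtle _) (pow_le_one' (pow_le_one_w w S.x1 s) p)
          _ = R := mul_one R)
    rw [Valuation.map_sub_swap] at h4
    calc w (x ^ l) * _ ≤ 1 * (w (p : N) * R) := mul_le_mul' (pow_le_one_w w S.x1 l) h4
      _ = _ := one_mul _

/-- decomposition of elements of `H`. -/
lemma S1_H [hpp : Fact p.Prime] (hp0 : (p : N) ≠ 0) {h : N} (hH : h ∈ H) :
    ∃ y : ℕ → N, (∀ l, y l ∈ H) ∧ (∀ l, w (y l) ^ p ≤ w h) ∧
      w (h - ∑ l ∈ Finset.range p, x ^ l * (y l) ^ p) ≤ w (p : N) * w h := by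
  classical
  by_cases h0 : h = 0
  · refine ⟨fun _ => 0, fun _ => H.zero_mem, fun _ => ?_, ?_⟩
    · simp [hpp.out.ne_zero]
    · simp [h0, hpp.out.ne_zero]
  have hpos : 0 < w (p : N) * w h :=
    mul_pos (pos_iff_ne_zero.2 (w.ne_zero_iff.2 hp0)) (pos_iff_ne_zero.2 (w.ne_zero_iff.2 h0))
  obtain ⟨f, g, hg, hfg⟩ := approx_common S (fun _ : Unit => h) (fun _ => hH) hpos
  have hfg := hfg ()
  set f := f () with hf
  have hlt : w (p : N) * w h < w h := by
    calc w (p : N) * w h < 1 * w h :=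
          mul_lt_mul_of_pos_right S.hp (pos_iff_ne_zero.2 (w.ne_zero_iff.2 h0))
      _ = w h := one_mul _
  have hw : w (aeval x f) = w h := by
    have h1 := Valuation.map_sub_eq_of_lt_left w (hfg.trans hlt)
    have h2 : w (aeval x f / aeval x g) = w h := by
      rw [← h1]; congr 1; ring
    rwa [map_div₀, hg, div_one] at h2
  have hg0 : aeval x g ≠ 0 := by
    intro h; rw [h, map_zero] at hg; exact zero_ne_one hg
  obtain ⟨u, hu1, -, hu2⟩ := poly_decomp S (f * g ^ (p - 1)) (R := w h) (fun i => by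
    refine (S.gauss _ i).trans (le_of_eq ?_)
    rw [map_mul, map_mul, map_pow, map_pow, hg, one_pow, mul_one, hw])
  have hu3 : ∀ l, w (aeval x (u l)) ^ p ≤ w h := by
    intro l
    rw [aeval_eq_sum_range]
    refine pow_le_of_sum w p _ _ fun i _ => ?_
    have : ((u l).coeff i • x ^ i : N) = ((u l).coeff i : N) * x ^ i := rfl
    rw [this, map_mul, mul_pow]
    calc w ((u l).coeff i : N) ^ p * w (x ^ i) ^ p ≤ w h * 1 :=
          mul_le_mul' (hu1 l i) (pow_le_one' (pow_le_one_w w S.x1 i) p)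
      _ = w h := mul_one _
  refine ⟨fun l => aeval x (u l) / aeval x g,
    fun l => H.div_mem (aeval_mem S _) (aeval_mem S _), fun l => ?_, ?_⟩
  · rw [map_div₀, hg, div_one]; exact hu3 l
  · have e : h - ∑ l ∈ Finset.range p, x ^ l * (aeval x (u l) / aeval x g) ^ p =
        (h - aeval x f / aeval x g) + (aeval x (f * g ^ (p - 1)) -
          ∑ l ∈ Finset.range p, x ^ l * (aeval x (u l)) ^ p) / (aeval x g) ^ p := by
      have h1 : aeval x f / aeval x g = aeval x (f * g ^ (p - 1)) / (aeval x g) ^ p := by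
        rw [map_mul, map_pow, div_eq_div_iff hg0 (pow_ne_zero _ hg0), mul_assoc, ← pow_succ]
        congr 2
        have := hpp.out.pos; omega
      have h2 : ∑ l ∈ Finset.range p, x ^ l * (aeval x (u l) / aeval x g) ^ p =
          (∑ l ∈ Finset.range p, x ^ l * (aeval x (u l)) ^ p) / (aeval x g) ^ p := by
        rw [Finset.sum_div]
        exact Finset.sum_congr rfl fun l _ => by rw [div_pow]; ring
      rw [h1, h2, sub_div]; ring
    rw [e]
    refine le_add w hfg.le ?_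
    rw [map_div₀, map_pow, hg, one_pow, div_one]
    exact hu2

end

end Crest.Agent.R013.Stab3_460
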