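import Mathlib
import Crest.Agent.R013.Stab3_460

/-!
# STAB, part 4: the data `PData` exists for a finite extension `F` of `H` with an orthonormal basis
-/

namespace Crest.Agent.R013.Stab4_460

open Polynomial Crest.Agent.R013.Stab2_460 Crest.Agent.R013.Stab3_460
open scoped NNReal

variable {N : Type*} [Field N] (w : Valuation N ℝ≥0) (p : ℕ)

/-- a finite family containing `1` whose residues span over `p`-th powers. -/
structure Fam (F : Subfield N) (n : ℕ) (t : Fin (n + 1) → N) : Prop where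
  t0 : t 0 = 1
  tF : ∀ i, t i ∈ F
  t1 : ∀ i, w (t i) ≤ 1
  P2 : ∀ u ∈ F, w u ≤ 1 → ∃ z : Fin (n + 1) → N, (∀ i, z i ∈ F) ∧ (∀ i, w (z i) ≤ 1) ∧
    w (u - ∑ i, t i * z i ^ p) < 1

variable {w p}

/-- If `P1` fails, the family can be shortened. -/
lemma fam_shorten [hpp : Fact p.Prime] (hp : w (p : N) < 1) {F : Subfield N}
    {ξ : N} (hξF : ξ ∈ F) (hξ : ξ ^ p = -1) {n : ℕ} {t : Fin (n + 1) → N} (T : Fam w p F n t)
    (z : Fin (n + 1) → N) (hz : ∀ i, z i ∈ F) (i : Fin (n + 1))
    (hi : w (∑ i, t i * z i ^ p) < w (z i) ^ p) : ∃ n' < n, ∃ t' : Fin (n' + 1) → N, Fam w p F n' t' := by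
  classical
  obtain ⟨i0, -, hi0⟩ := Finset.exists_max_image Finset.univ (fun i => w (z i))
    ⟨i, Finset.mem_univ i⟩
  have hmax : ∀ j, w (z j) ≤ w (z i0) := fun j => hi0 j (Finset.mem_univ j)
  have hprime := hpp.out
  have hlt : w (∑ i, t i * z i ^ p) < w (z i0) ^ p := hi.trans_le (pow_le_pow_left' (hmax i) p)
  have hpos : 0 < w (z i0) := by
    by_contra h
    have : w (z i0) = 0 := le_antisymm (not_lt.1 h) zero_le
    rw [this, zero_pow hprime.ne_zero] at hlt
    exact not_lt_zero hlt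
  -- an index `s ≠ 0` with maximal value
  obtain ⟨s, hs0, hs⟩ : ∃ s, s ≠ 0 ∧ w (z s) = w (z i0) := by
    by_contra hcon
    push Not at hcon
    have h0 : i0 = 0 := by
      by_contra h
      exact hcon i0 h rfl
    have hrest : w (∑ j : Fin n, t j.succ * z j.succ ^ p) < w (z i0) ^ p := by
      refine lt_sum w _ _ (pow_pos hpos p) fun j _ => ?_
      rw [map_mul, map_pow]
      calc w (t j.succ) * w (z j.succ) ^ p ≤ 1 * w (z j.succ) ^ p :=
            mul_le_mul' (T.t1 _) le_rfl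
        _ = w (z j.succ) ^ p := one_mul _
        _ < w (z i0) ^ p := by
            refine pow_lt_pow_left₀ (lt_of_le_of_ne (hmax _) (hcon _ (Fin.succ_ne_zero j)))
              zero_le hprime.ne_zero
    rw [Fin.sum_univ_succ, T.t0, one_mul] at hlt
    have h1 : w (z 0 ^ p) < w (z i0) ^ p := by
      have := lt_sub w hlt hrest
      simpa using this
    rw [map_pow, ← h0] at h1
    exact lt_irrefl _ h1
  obtain ⟨n', rfl⟩ : ∃ n', n = n' + 1 := by
    cases n with
    | zero => exact absurd (Fin.ext (by have := s.2; simp only [Fin.val_zero]; omega)) hs0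
    | succ n' => exact ⟨n', rfl⟩
  have hzs : z s ≠ 0 := by
    rw [← w.ne_zero_iff, hs]; exact hpos.ne'
  let y : Fin (n' + 1 + 1) → N := fun k => z k / z s
  have hy1 : ∀ k, w (y k) ≤ 1 := fun k => by
    simp only [y]
    rw [map_div₀, hs]; exact (div_le_one hpos).2 (hmax k)
  have hyF : ∀ k, y k ∈ F := fun k => F.div_mem (hz k) (hz s)
  have hy : w (∑ k, t k * y k ^ p) < 1 := by
    have e : ∑ k, t k * y k ^ p = (∑ k, t k * z k ^ p) / z s ^ p := by
      rw [Finset.sum_div]
      exact Finset.sum_congr rfl fun k _ => by simp only [y]; rw [div_pow]; ring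
    rw [e, map_div₀, map_pow, hs]
    exact (div_lt_one (pow_pos hpos p)).2 hlt
  rw [Fin.sum_univ_succAbove _ s] at hy
  have hys : y s = 1 := div_self hzs
  rw [hys, one_pow, mul_one] at hy
  have hw1 : w (-1 : N) = 1 := by rw [Valuation.map_neg, map_one]
  have hξ1 : w ξ ≤ 1 := by
    have : w ξ ^ p = 1 := by rw [← map_pow, hξ, hw1]
    exact (pow_le_one_iff hprime.ne_zero).1 this.le
  refine ⟨n', Nat.lt_succ_self _, fun j => t (s.succAbove j), ?_, fun j => T.tF _,
    fun j => T.t1 _, ?_⟩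
  · rw [Fin.succAbove_ne_zero_zero hs0, T.t0]
  · intro u hu hu1
    obtain ⟨z', hz'F, hz'1, hz'⟩ := T.P2 u hu hu1
    rw [Fin.sum_univ_succAbove _ s] at hz'
    refine ⟨fun j => z' (s.succAbove j) + ξ * y (s.succAbove j) * z' s,
      fun j => F.add_mem (hz'F _) (F.mul_mem (F.mul_mem hξF (hyF _)) (hz'F _)),
      fun j => ?_, ?_⟩
    · refine le_add w (hz'1 _) ?_
      rw [map_mul, map_mul]
      exact mul_le_one' (mul_le_one' hξ1 (hy1 _)) (hz'1 _)
    · have h1 : w (∑ j, t (s.succAbove j) *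
          ((z' (s.succAbove j) + ξ * y (s.succAbove j) * z' s) ^ p -
            (z' (s.succAbove j) ^ p + (ξ * y (s.succAbove j) * z' s) ^ p))) < 1 := by
        refine lt_sum w _ _ one_pos fun j _ => ?_
        rw [map_mul]
        have h2 := add_pow_p w p (R := 1) (pow_le_one' (hz'1 (s.succAbove j)) p)
          (b := ξ * y (s.succAbove j) * z' s) (pow_le_one' (by
            rw [map_mul, map_mul]
            exact mul_le_one' (mul_le_one' hξ1 (hy1 _)) (hz'1 _)) p)
        rw [mul_one] at h2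
        calc _ ≤ 1 * w (p : N) := mul_le_mul' (T.t1 _) h2
          _ < 1 := by rw [one_mul]; exact hp
      have h3 : w ((t s + ∑ j, t (s.succAbove j) * y (s.succAbove j) ^ p) * z' s ^ p) < 1 := by
        rw [map_mul]
        calc _ ≤ w (t s + ∑ j, t (s.succAbove j) * y (s.succAbove j) ^ p) * 1 :=
              mul_le_mul' le_rfl (pow_le_one_w w (hz'1 s) p)
          _ < 1 := by rw [mul_one]; exact hy
      have h4 := lt_sub w (lt_add w hz' h3) h1
      have e : u - ∑ j, t (s.succAbove j) *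
          (z' (s.succAbove j) + ξ * y (s.succAbove j) * z' s) ^ p =
          u - (t s * z' s ^ p + ∑ j, t (s.succAbove j) * z' (s.succAbove j) ^ p) +
          (t s + ∑ j, t (s.succAbove j) * y (s.succAbove j) ^ p) * z' s ^ p -
          ∑ j, t (s.succAbove j) *
          ((z' (s.succAbove j) + ξ * y (s.succAbove j) * z' s) ^ p -
            (z' (s.succAbove j) ^ p + (ξ * y (s.succAbove j) * z' s) ^ p)) := by
        simp only [mul_sub, mul_add, Finset.sum_sub_distrib, Finset.sum_add_distrib, mul_pow, hξ,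
          add_mul, Finset.sum_mul]
        have e1 : ∑ j, t (s.succAbove j) * (-1 * y (s.succAbove j) ^ p * z' s ^ p) =
            - ∑ j, t (s.succAbove j) * y (s.succAbove j) ^ p * z' s ^ p := by
          rw [← Finset.sum_neg_distrib]
          exact Finset.sum_congr rfl fun j _ => by ring
        rw [e1]
        ring
      rw [e]
      exact h4

/-- A minimal family satisfies `P1`. -/
lemma fam_min [hpp : Fact p.Prime] (hp : w (p : N) < 1) {F : Subfield N}
    {ξ : N} (hξF : ξ ∈ F) (hξ : ξ ^ p = -1) {n : ℕ} {t : Fin (n + 1) → N} (T : Fam w p F n t) :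
    ∃ n, ∃ t : Fin (n + 1) → N, Fam w p F n t ∧
      ∀ z : Fin (n + 1) → N, (∀ i, z i ∈ F) → ∀ i, w (z i) ^ p ≤ w (∑ i, t i * z i ^ p) := by
  classical
  have hex : ∃ n, ∃ t : Fin (n + 1) → N, Fam w p F n t := ⟨n, t, T⟩
  obtain ⟨t', T'⟩ := Nat.find_spec hex
  refine ⟨Nat.find hex, t', T', fun z hz i => ?_⟩
  by_contra h
  rw [not_le] at h
  obtain ⟨n', hn', h'⟩ := fam_shorten hp hξF hξ T' z hz i h
  exact Nat.find_min hex hn' h'

section

variable {C H : Subfield N} {x : N} (S : Setup w p C H x)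
include S

/-- existence of a family. -/
lemma fam_exists [hpp : Fact p.Prime] (hp0 : (p : N) ≠ 0) {F : Subfield N} (hHF : H ≤ F)
    {m : ℕ} {b : Fin m → N} (hb1 : ∀ i, b i ∈ F) (hb2 : ∀ i, w (b i) ≤ 1) (hb3 : ON w H b)
    (hb4 : ∀ y ∈ F, ∃ c : Fin m → N, (∀ i, c i ∈ H) ∧ y = ∑ j, c j * b j) :
    ∃ n, ∃ t : Fin (n + 1) → N, Fam w p F n t := by
  classical
  let e : Fin p × Fin m ≃ Fin (p * m) := finProdFinEquiv
  refine ⟨p * m, Fin.cons 1 (fun i => x ^ ((e.symm i).1 : ℕ) * b (e.symm i).2), rfl, ?_, ?_, ?_⟩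
  · intro i
    refine Fin.cases ?_ (fun i => ?_) i
    · exact F.one_mem
    · exact F.mul_mem (F.pow_mem (hHF S.xH) _) (hb1 _)
  · intro i
    refine Fin.cases ?_ (fun i => ?_) i
    · exact (map_one w).le
    · rw [Fin.cons_succ, map_mul]
      exact mul_le_one' (pow_le_one_w w S.x1 _) (hb2 _)
  · intro u hu hu1
    obtain ⟨a, haH, rfl⟩ := hb4 u hu
    have ha1 : ∀ j, w (a j) ≤ 1 := fun j => (hb3 a haH j).trans hu1
    choose y hyH hy1 hy2 using fun j => S1_H S hp0 (haH j)
    have hy1' : ∀ j l, w (y j l) ≤ 1 := fun j l =>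
      (pow_le_one_iff hpp.out.ne_zero).1 ((hy1 j l).trans (ha1 j))
    refine ⟨Fin.cons 0 (fun i => y (e.symm i).2 (e.symm i).1), ?_, ?_, ?_⟩
    · intro i
      refine Fin.cases ?_ (fun i => ?_) i
      · exact F.zero_mem
      · exact hHF (hyH _ _)
    · intro i
      refine Fin.cases ?_ (fun i => ?_) i
      · rw [Fin.cons_zero, map_zero]; exact zero_le
      · rw [Fin.cons_succ]; exact hy1' _ _
    · have e1 : ∑ i, (Fin.cons 1 (fun i => x ^ ((e.symm i).1 : ℕ) * b (e.symm i).2) :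
          Fin (p * m + 1) → N) i * (Fin.cons 0 (fun i => y (e.symm i).2 (e.symm i).1) :
          Fin (p * m + 1) → N) i ^ p =
          ∑ j, (∑ l ∈ Finset.range p, x ^ l * y j l ^ p) * b j := by
        rw [Fin.sum_univ_succ]
        simp only [Fin.cons_zero, Fin.cons_succ, zero_pow hpp.out.ne_zero, mul_zero, zero_add]
        rw [← Equiv.sum_comp e]
        simp only [Equiv.symm_apply_apply]
        rw [Fintype.sum_prod_type_right]
        refine Finset.sum_congr rfl fun j _ => ?_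
        rw [Finset.sum_range (fun l => x ^ l * y j l ^ p), Finset.sum_mul]
        exact Finset.sum_congr rfl fun l _ => by ring
      rw [e1, ← Finset.sum_sub_distrib]
      refine lt_sum w _ _ one_pos fun j _ => ?_
      rw [← sub_mul, map_mul]
      calc _ ≤ (w (p : N) * w (a j)) * 1 := mul_le_mul' (hy2 j) (hb2 j)
        _ ≤ (w (p : N) * 1) * 1 := by gcongr; exact ha1 j
        _ < 1 := by rw [mul_one, mul_one]; exact S.hp

/-- the finitely many decompositions. -/
lemma zdata [hpp : Fact p.Prime] {F : Subfield N} (hHF : H ≤ F)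
    {m : ℕ} {b : Fin m → N} (hb1 : ∀ i, b i ∈ F) (hb2 : ∀ i, w (b i) ≤ 1) (hb3 : ON w H b)
    (hb4 : ∀ y ∈ F, ∃ c : Fin m → N, (∀ i, c i ∈ H) ∧ y = ∑ j, c j * b j)
    {n : ℕ} {t : Fin (n + 1) → N} (T : Fam w p F n t) :
    ∃ (δ : C[X]) (h : Fin p → Fin m → Fin (n + 1) → Fin m → C[X]) (γ : ℝ≥0),
      w (aeval x δ) = 1 ∧ (∀ l j s k i, w ((h l j s k).coeff i : N) ≤ 1) ∧ γ < 1 ∧
      w (p : N) ≤ γ ∧ ∀ (l : Fin p) (j : Fin m), w (x ^ (l : ℕ) * b j -
        ∑ s, t s * (∑ k, aeval x (h l j s k) / aeval x δ * b k) ^ p) ≤ γ := by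
  classical
  choose z hzF hz1 hz using fun (l : Fin p) (j : Fin m) => T.P2 (x ^ (l : ℕ) * b j)
    (F.mul_mem (F.pow_mem (hHF S.xH) _) (hb1 j))
    (by rw [map_mul]; exact mul_le_one' (pow_le_one_w w S.x1 _) (hb2 _))
  choose a haH ha using fun l j s => hb4 (z l j s) (hzF l j s)
  have ha1 : ∀ l j s k, w (a l j s k) ≤ 1 := by
    intro l j s k
    have := hb3 (a l j s) (haH l j s) k
    rw [← ha] at this
    exact this.trans (hz1 l j s)
  obtain ⟨f, g, hg, hfg⟩ := approx_common S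
    (fun q : Fin p × Fin m × Fin (n + 1) × Fin m => a q.1 q.2.1 q.2.2.1 q.2.2.2)
    (fun q => haH _ _ _ _) one_pos
  have hf1 : ∀ q i, w ((f q).coeff i : N) ≤ 1 := by
    intro q i
    refine (S.gauss _ i).trans ?_
    have h1 : w (aeval x (f q) / aeval x g) ≤ 1 := by
      have := le_sub w (ha1 q.1 q.2.1 q.2.2.1 q.2.2.2) (hfg q).le
      simpa using this
    rwa [map_div₀, hg, div_one] at h1
  set h : Fin p → Fin m → Fin (n + 1) → Fin m → C[X] := fun l j s k => f (l, j, s, k) with hh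
  have hlt : ∀ (l : Fin p) (j : Fin m), w (x ^ (l : ℕ) * b j -
      ∑ s, t s * (∑ k, aeval x (h l j s k) / aeval x g * b k) ^ p) < 1 := by
    intro l j
    have h2 : ∀ s, w (z l j s - ∑ k, aeval x (h l j s k) / aeval x g * b k) < 1 := by
      intro s
      rw [ha, ← Finset.sum_sub_distrib]
      refine lt_sum w _ _ one_pos fun k _ => ?_
      rw [← sub_mul, map_mul]
      calc _ ≤ w (a l j s k - aeval x (h l j s k) / aeval x g) * 1 :=
            mul_le_mul' le_rfl (hb2 k)
        _ < 1 := by rw [mul_one]; exact hfg (l, j, s, k)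
    have h3 : ∀ s, w (∑ k, aeval x (h l j s k) / aeval x g * b k) ≤ 1 := by
      intro s
      have := le_sub w (hz1 l j s) (h2 s).le
      simpa using this
    have h4 : w (∑ s, t s * (z l j s ^ p - (∑ k, aeval x (h l j s k) / aeval x g * b k) ^ p)) < 1 := by
      refine lt_sum w _ _ one_pos fun s _ => ?_
      rw [map_mul]
      calc _ ≤ 1 * w (z l j s ^ p - (∑ k, aeval x (h l j s k) / aeval x g * b k) ^ p) :=
            mul_le_mul' (T.t1 s) le_rfl
        _ < 1 := by rw [one_mul]; exact pow_sub_pow_lt w (hz1 l j s) (h3 s) (h2 s) p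
    have h5 := lt_add w (hz l j) h4
    convert h5 using 2
    simp only [mul_sub, Finset.sum_sub_distrib]
    ring
  obtain ⟨γ, hγ1, hγp, hγ⟩ := exists_bound
    (fun q : Fin p × Fin m => w (x ^ (q.1 : ℕ) * b q.2 -
      ∑ s, t s * (∑ k, aeval x (h q.1 q.2 s k) / aeval x g * b k) ^ p))
    (fun q => hlt q.1 q.2) (w (p : N)) S.hp
  exact ⟨g, h, γ, hg, fun l j s k i => hf1 _ i, hγ1, hγp, fun l j => hγ (l, j)⟩

end

end Crest.Agent.R013.Stab4_460
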