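import Mathlib
import Crest.Agent.R013.Stab4_460

/-!
# STAB, part 5: uniform decomposition `S1` and the Artin-Schreier equations `II`
-/

namespace Crest.Agent.R013.Stab5_460

open Polynomial Crest.Agent.R013.Stab2_460 Crest.Agent.R013.Stab3_460
  Crest.Agent.R013.Stab4_460
open scoped NNReal

variable {N : Type*} [Field N] {w : Valuation N ℝ≥0} {p : ℕ}

section abs

variable {C : Subfield N} [IsAlgClosed C]

lemma II_abs [hpp : Fact p.Prime] {F : Subfield N} (hCF : C ≤ F) {n : ℕ} {t : Fin (n + 1) → N}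
    (ht0 : t 0 = 1) (ht1 : ∀ i, w (t i) ≤ 1) {γ : ℝ≥0} (hpγ : w (p : N) ≤ γ)
    {ι : Type*} [Fintype ι] (v : ι → N) (Y : ι → Fin (n + 1) → N) (B : ι → ι → C)
    (hY : ∀ α s, w (Y α s) ≤ 1) (hYF : ∀ α s, Y α s ∈ F)
    (hB : ∀ α β, w (B α β : N) ≤ 1) (hR : ∀ α, w (v α - ∑ s, t s * Y α s ^ p) ≤ γ)
    (hY0 : ∀ α, Y α 0 = ∑ β, (B α β : N) * v β) {R : ℝ≥0} (hR1 : 1 ≤ R) (hRγ : R ^ p * γ < 1)
    (c : ι → C) (hc : ∀ α, w (c α : N) ≤ R ^ p) :
    ∃ W ∈ F, ∃ y : Fin n → N, (∀ i, y i ∈ F) ∧ w W ≤ R ∧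
      w ((∑ α, (c α : N) * v α) + W - W ^ p - ∑ i : Fin n, t i.succ * y i ^ p) < 1 := by
  classical
  have hp := hpp.out
  obtain ⟨d, hd⟩ := Stab1_460.exists_system (K := C) p hp.two_le B c
  have hdR : ∀ j, w (d j : N) ≤ R := by
    intro j
    obtain ⟨j0, -, hj0⟩ := Finset.exists_max_image Finset.univ (fun i => w (d i : N))
      ⟨j, Finset.mem_univ j⟩
    refine (hj0 j (Finset.mem_univ j)).trans ?_
    by_contra hlt
    rw [not_le] at hlt
    have h1 : w (d j0 : N) ^ p ≤ max (R ^ p) (w (d j0 : N)) := by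
      rw [← map_pow]
      have : ((d j0 : C) : N) ^ p = (c j0 : N) + ∑ i, (B i j0 : N) * (d i : N) := by
        have := congrArg (Subtype.val) (hd j0)
        push_cast at this
        exact this
      rw [this]
      refine le_add w ((hc j0).trans (le_max_left _ _)) (le_sum w _ _ fun i _ => ?_)
      rw [map_mul]
      refine le_max_of_le_right ?_
      calc w (B i j0 : N) * w (d i : N) ≤ 1 * w (d j0 : N) :=
            mul_le_mul' (hB i j0) (hj0 i (Finset.mem_univ i))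
        _ = _ := one_mul _
    have h2 : R ^ p < w (d j0 : N) ^ p := pow_lt_pow_left₀ hlt zero_le hp.ne_zero
    have h3 : w (d j0 : N) < w (d j0 : N) ^ p := by
      have h4 : 1 < w (d j0 : N) := hR1.trans_lt hlt
      calc w (d j0 : N) = w (d j0 : N) ^ 1 := (pow_one _).symm
        _ < w (d j0 : N) ^ p := pow_lt_pow_right₀ h4 hp.one_lt
    exact absurd (max_lt h2 h3) (not_lt.2 h1)
  have hdRp : ∀ j, w (d j : N) ^ p ≤ R ^ p := fun j => pow_le_pow_left' (hdR j) p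
  have hdF : ∀ j, (d j : N) ∈ F := fun j => hCF (d j).2
  refine ⟨∑ α, (d α : N) * Y α 0, F.sum_mem fun α _ => F.mul_mem (hdF α) (hYF α 0),
    fun i => ∑ α, (d α : N) * Y α i.succ,
    fun i => F.sum_mem fun α _ => F.mul_mem (hdF α) (hYF α _), ?_, ?_⟩
  · refine le_sum w _ _ fun α _ => ?_
    rw [map_mul]
    calc w (d α : N) * w (Y α 0) ≤ R * 1 := mul_le_mul' (hdR α) (hY α 0)
      _ = R := mul_one R
  · have e1 : (∑ α, (c α : N) * v α) + ∑ α, (d α : N) * Y α 0 = ∑ β, (d β : N) ^ p * v β := by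
      have e2 : ∑ α, (d α : N) * Y α 0 = ∑ β, (∑ α, (B α β : N) * (d α : N)) * v β := by
        simp only [hY0, Finset.mul_sum, Finset.sum_mul]
        rw [Finset.sum_comm]
        exact Finset.sum_congr rfl fun β _ => Finset.sum_congr rfl fun α _ => by ring
      rw [e2, ← Finset.sum_add_distrib]
      refine Finset.sum_congr rfl fun β _ => ?_
      have : ((d β : C) : N) ^ p = (c β : N) + ∑ i, (B i β : N) * (d i : N) := by
        have := congrArg (Subtype.val) (hd β)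
        push_cast at this
        exact this
      rw [this]; ring
    have e3 : (∑ α, (c α : N) * v α) + ∑ α, (d α : N) * Y α 0 - (∑ α, (d α : N) * Y α 0) ^ p -
        ∑ i : Fin n, t i.succ * (∑ α, (d α : N) * Y α i.succ) ^ p =
        ∑ β, (d β : N) ^ p * (v β - ∑ s, t s * Y β s ^ p) -
        ∑ s, t s * ((∑ α, (d α : N) * Y α s) ^ p - ∑ α, ((d α : N) * Y α s) ^ p) := by
      rw [e1]
      simp only [mul_sub, Finset.sum_sub_distrib, mul_pow, Finset.mul_sum]
      rw [Fin.sum_univ_succ (fun s => t s * (∑ α, (d α : N) * Y α s) ^ p), ht0, one_mul,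
        Finset.sum_comm (f := fun x s => (d x : N) ^ p * (t s * Y x s ^ p))]
      have e4 : ∑ y, ∑ x, (d x : N) ^ p * (t y * Y x y ^ p) =
          ∑ x, ∑ i, t x * ((d i : N) ^ p * Y i x ^ p) :=
        Finset.sum_congr rfl fun s _ => Finset.sum_congr rfl fun α _ => by ring
      rw [e4]
      ring
    rw [e3]
    refine lt_sub w (lt_sum w _ _ one_pos fun β _ => ?_) (lt_sum w _ _ one_pos fun s _ => ?_)
    · rw [map_mul, map_pow]
      exact (mul_le_mul' (hdRp β) (hR β)).trans_lt hRγ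
    · rw [map_mul]
      have h5 := sum_pow_p w p Finset.univ (fun α => (d α : N) * Y α s) (R := R ^ p)
        (fun α _ => by
          rw [map_mul, mul_pow]
          calc w (d α : N) ^ p * w (Y α s) ^ p ≤ R ^ p * 1 :=
                mul_le_mul' (hdRp α) (pow_le_one' (hY α s) p)
            _ = R ^ p := mul_one _)
      calc w (t s) * _ ≤ 1 * (γ * R ^ p) :=
            mul_le_mul' (ht1 s) (h5.trans (mul_le_mul' hpγ le_rfl))
        _ = R ^ p * γ := by rw [one_mul, mul_comm]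
        _ < 1 := hRγ

end abs

section

variable {C H : Subfield N} {x : N} (S : Setup w p C H x)
include S

lemma Z_le {m : ℕ} {b : Fin m → N} (hb2 : ∀ i, w (b i) ≤ 1) {δ : C[X]} (hδ : w (aeval x δ) = 1)
    (h : Fin m → C[X]) (hh : ∀ k i, w ((h k).coeff i : N) ≤ 1) :
    w (∑ k, aeval x (h k) / aeval x δ * b k) ≤ 1 := by
  refine le_sum w _ _ fun k _ => ?_
  rw [map_mul, map_div₀, hδ, div_one]
  exact mul_le_one' (aeval_le S (hh k)) (hb2 k)

lemma S1_F [hpp : Fact p.Prime] (hp0 : (p : N) ≠ 0) {F : Subfield N} (hHF : H ≤ F)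
    {m : ℕ} {b : Fin m → N} (hb1 : ∀ i, b i ∈ F) (hb2 : ∀ i, w (b i) ≤ 1) (hb3 : ON w H b)
    (hb4 : ∀ y ∈ F, ∃ c : Fin m → N, (∀ i, c i ∈ H) ∧ y = ∑ j, c j * b j)
    {n : ℕ} {t : Fin (n + 1) → N} (ht1 : ∀ i, w (t i) ≤ 1) {δ : C[X]} (hδ : w (aeval x δ) = 1)
    {h : Fin p → Fin m → Fin (n + 1) → Fin m → C[X]}
    (hh : ∀ l j s k i, w ((h l j s k).coeff i : N) ≤ 1) {γ : ℝ≥0} (hpγ : w (p : N) ≤ γ)
    (hZ : ∀ (l : Fin p) (j : Fin m), w (x ^ (l : ℕ) * b j -
        ∑ s, t s * (∑ k, aeval x (h l j s k) / aeval x δ * b k) ^ p) ≤ γ)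
    {u : N} (hu : u ∈ F) : ∃ z : Fin (n + 1) → N, (∀ i, z i ∈ F) ∧
      w (u - ∑ i, t i * z i ^ p) ≤ γ * w u := by
  classical
  obtain ⟨a, haH, rfl⟩ := hb4 u hu
  have ha1 : ∀ j, w (a j) ≤ w (∑ j, a j * b j) := fun j => hb3 a haH j
  set u := ∑ j, a j * b j with hudef
  choose y hyH hy1 hy2 using fun j => S1_H S hp0 (haH j)
  set Z : Fin p → Fin m → Fin (n + 1) → N :=
    fun l j s => ∑ k, aeval x (h l j s k) / aeval x δ * b k with hZdef
  have hZF : ∀ l j s, Z l j s ∈ F := fun l j s => F.sum_mem fun k _ =>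
    F.mul_mem (F.div_mem (hHF (aeval_mem S _)) (hHF (aeval_mem S _))) (hb1 k)
  have hZ1 : ∀ l j s, w (Z l j s) ≤ 1 := fun l j s => Z_le S hb2 hδ _ (hh l j s)
  refine ⟨fun s => ∑ q : Fin p × Fin m, y q.2 q.1 * Z q.1 q.2 s, fun s =>
    F.sum_mem fun q _ => F.mul_mem (hHF (hyH _ _)) (hZF _ _ _), ?_⟩
  have e : u - ∑ s, t s * (∑ q : Fin p × Fin m, y q.2 q.1 * Z q.1 q.2 s) ^ p =
      ∑ j, (a j - ∑ l ∈ Finset.range p, x ^ l * y j l ^ p) * b j +
      ∑ q : Fin p × Fin m, y q.2 q.1 ^ p * (x ^ (q.1 : ℕ) * b q.2 - ∑ s, t s * Z q.1 q.2 s ^ p) -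
      ∑ s, t s * ((∑ q : Fin p × Fin m, y q.2 q.1 * Z q.1 q.2 s) ^ p -
        ∑ q : Fin p × Fin m, (y q.2 q.1 * Z q.1 q.2 s) ^ p) := by
    simp only [mul_sub, sub_mul, Finset.sum_sub_distrib, mul_pow, Finset.mul_sum]
    have e1 : ∑ j, (∑ l ∈ Finset.range p, x ^ l * y j l ^ p) * b j =
        ∑ q : Fin p × Fin m, y q.2 q.1 ^ p * (x ^ (q.1 : ℕ) * b q.2) := by
      rw [Fintype.sum_prod_type_right]
      refine Finset.sum_congr rfl fun j _ => ?_
      rw [Finset.sum_range (fun l => x ^ l * y j l ^ p), Finset.sum_mul]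
      exact Finset.sum_congr rfl fun l _ => by ring
    have e2 : ∑ q : Fin p × Fin m, ∑ s, y q.2 q.1 ^ p * (t s * Z q.1 q.2 s ^ p) =
        ∑ s, ∑ q : Fin p × Fin m, t s * (y q.2 q.1 ^ p * Z q.1 q.2 s ^ p) := by
      rw [Finset.sum_comm]
      exact Finset.sum_congr rfl fun s _ => Finset.sum_congr rfl fun q _ => by ring
    rw [e1, e2]
    ring
  rw [e]
  refine le_sub w (le_add w (le_sum w _ _ fun j _ => ?_) (le_sum w _ _ fun q _ => ?_))
    (le_sum w _ _ fun s _ => ?_)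
  · rw [map_mul]
    calc _ ≤ (w (p : N) * w (a j)) * 1 := mul_le_mul' (hy2 j) (hb2 j)
      _ ≤ γ * w u := by rw [mul_one]; exact mul_le_mul' hpγ (ha1 j)
  · rw [map_mul, map_pow]
    calc _ ≤ w (a q.2) * γ := mul_le_mul' (hy1 _ _) (hZ _ _)
      _ ≤ γ * w u := by rw [mul_comm]; exact mul_le_mul' le_rfl (ha1 _)
  · rw [map_mul]
    have h5 := sum_pow_p w p Finset.univ (fun q : Fin p × Fin m => y q.2 q.1 * Z q.1 q.2 s)
      (R := w u) (fun q _ => by
        rw [map_mul, mul_pow]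
        calc w (y q.2 q.1) ^ p * w (Z q.1 q.2 s) ^ p ≤ w (a q.2) * 1 :=
              mul_le_mul' (hy1 _ _) (pow_le_one' (hZ1 _ _ _) p)
          _ ≤ w u := by rw [mul_one]; exact ha1 _)
    calc w (t s) * _ ≤ 1 * (γ * w u) :=
          mul_le_mul' (ht1 s) (h5.trans (mul_le_mul' hpγ le_rfl))
      _ = γ * w u := one_mul _

lemma II_F [hpp : Fact p.Prime] {F : Subfield N} (hHF : H ≤ F)
    {m : ℕ} {b : Fin m → N} (hb1 : ∀ i, b i ∈ F) (hb2 : ∀ i, w (b i) ≤ 1) (hb3 : ON w H b)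
    (hb4 : ∀ y ∈ F, ∃ c : Fin m → N, (∀ i, c i ∈ H) ∧ y = ∑ j, c j * b j)
    {n : ℕ} {t : Fin (n + 1) → N} (ht0 : t 0 = 1) (ht1 : ∀ i, w (t i) ≤ 1)
    {δ : C[X]} (hδ : w (aeval x δ) = 1)
    {h : Fin p → Fin m → Fin (n + 1) → Fin m → C[X]}
    (hh : ∀ l j s k i, w ((h l j s k).coeff i : N) ≤ 1) {γ : ℝ≥0} (hpγ : w (p : N) ≤ γ)
    (hZ : ∀ (l : Fin p) (j : Fin m), w (x ^ (l : ℕ) * b j -
        ∑ s, t s * (∑ k, aeval x (h l j s k) / aeval x δ * b k) ^ p) ≤ γ)
    {R : ℝ≥0} (hR1 : 1 ≤ R) (hRγ : R ^ p * γ < 1) {U : N} (hU : U ∈ F) (hUR : w U ≤ R ^ p) :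
    ∃ W ∈ F, ∃ y : Fin n → N, (∀ i, y i ∈ F) ∧ w W ≤ R ∧
      w (U + W - W ^ p - ∑ i : Fin n, t i.succ * y i ^ p) < 1 := by
  classical
  have hp := hpp.out
  have hCalg := S.alg
  have hRp1 : 1 ≤ R ^ p := one_le_pow₀ hR1
  obtain ⟨a, haH, hUa⟩ := hb4 U hU
  have ha1 : ∀ j, w (a j) ≤ R ^ p := fun j => by
    have := hb3 a haH j
    rw [← hUa] at this
    exact this.trans hUR
  obtain ⟨f, g1, hg1, hfg⟩ := approx_common S a haH one_pos
  have hf1 : ∀ j, w (aeval x (f j)) ≤ R ^ p := by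
    intro j
    have h1 : w (aeval x (f j) / aeval x g1) ≤ R ^ p := by
      have := le_sub w (ha1 j) ((hfg j).le.trans hRp1)
      simpa using this
    rwa [map_div₀, hg1, div_one] at h1
  have hδ0 : aeval x δ ≠ 0 := by
    intro h; rw [h, map_zero] at hδ; exact zero_ne_one hδ
  have hg0 : aeval x g1 ≠ 0 := by
    intro h; rw [h, map_zero] at hg1; exact zero_ne_one hg1
  set Z : Fin p → Fin m → Fin (n + 1) → N :=
    fun l j s => ∑ k, aeval x (h l j s k) / aeval x δ * b k with hZdef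
  have hZF : ∀ l j s, Z l j s ∈ F := fun l j s => F.sum_mem fun k _ =>
    F.mul_mem (F.div_mem (hHF (aeval_mem S _)) (hHF (aeval_mem S _))) (hb1 k)
  have hZ1 : ∀ l j s, w (Z l j s) ≤ 1 := fun l j s => Z_le S hb2 hδ _ (hh l j s)
  -- denominators
  set G : C[X] := g1 * δ with hG
  have hGw : w (aeval x G) = 1 := by rw [hG, map_mul, map_mul, hδ, hg1, one_mul]
  have hG0 : aeval x G ≠ 0 := by
    intro h; rw [h, map_zero] at hGw; exact zero_ne_one hGw
  set q : C[X] := δ ^ (p - 2) * g1 ^ (p - 1) with hq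
  have hqw : w (aeval x q) = 1 := by
    rw [hq, map_mul, map_mul, map_pow, map_pow, map_pow, map_pow, hδ, hg1]; simp
  have hqG : aeval x q * (aeval x G * aeval x δ) = aeval x G ^ p := by
    rw [hq, hG]
    simp only [map_mul, map_pow]
    obtain ⟨k, hk⟩ : ∃ k, p = k + 2 := ⟨p - 2, by have := hp.two_le; omega⟩
    have h1 : p - 2 = k := by omega
    have h2 : p - 1 = k + 1 := by omega
    rw [h1, h2]
    rw [hk]
    ring
  -- degrees
  obtain ⟨D0, hD0⟩ : ∃ D0, ∀ l j s k, (h l j s k).natDegree ≤ D0 := by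
    refine ⟨Finset.univ.sup (fun q : Fin p × Fin m × Fin (n + 1) × Fin m =>
      (h q.1 q.2.1 q.2.2.1 q.2.2.2).natDegree), fun l j s k => ?_⟩
    exact Finset.le_sup (f := (fun q : Fin p × Fin m × Fin (n + 1) × Fin m =>
      (h q.1 q.2.1 q.2.2.1 q.2.2.2).natDegree)) (Finset.mem_univ (l, j, s, k))
  obtain ⟨N1, hN1⟩ : ∃ N1, ∀ j, (f j * δ).natDegree ≤ N1 :=
    ⟨Finset.univ.sup (fun j => (f j * δ).natDegree), fun j =>
      Finset.le_sup (f := fun j => (f j * δ).natDegree) (Finset.mem_univ j)⟩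
  set N0 := 2 * D0 + q.natDegree + δ.natDegree + N1 + 1 with hN0
  -- the family
  set v : Fin N0 × Fin m → N := fun α => x ^ (α.1 : ℕ) * b α.2 / (aeval x G * aeval x δ) with hv
  have hXq : ∀ i : ℕ, ∀ k, w ((X ^ i * q : C[X]).coeff k : N) ≤ 1 := by
    intro i k
    refine (S.gauss _ k).trans ?_
    rw [map_mul, map_pow, aeval_X, map_mul, hqw, mul_one]
    exact pow_le_one_w w S.x1 i
  choose u hu1 hu2 hu3 using fun i : ℕ => poly_decomp S (X ^ i * q) (R := 1) (hXq i)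
  have hu1' : ∀ i l k, w ((u i l).coeff k : N) ≤ 1 := fun i l k =>
    (pow_le_one_iff hp.ne_zero).1 (hu1 i l k)
  have huw : ∀ i l, w (aeval x (u i l)) ≤ 1 := fun i l => aeval_le S (hu1' i l)
  set Hk : Fin N0 × Fin m → Fin (n + 1) → Fin m → C[X] :=
    fun α s k => ∑ l : Fin p, u α.1 l * h l α.2 s k with hHk
  have hHdeg : ∀ α s k, (Hk α s k).natDegree < N0 := by
    intro α s k
    have h1 : (Hk α s k).natDegree ≤ (α.1 + q.natDegree) / p + D0 := by
      refine natDegree_sum_le_of_forall_le _ _ fun l _ => ?_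
      refine natDegree_mul_le.trans (add_le_add ?_ (hD0 _ _ _ _))
      refine (hu2 _ _).trans (Nat.div_le_div_right ?_)
      refine natDegree_mul_le.trans ?_
      rw [natDegree_X_pow]
    have h2 : (α.1 + q.natDegree) / p ≤ (α.1 + q.natDegree) / 2 :=
      Nat.div_le_div_left hp.two_le (by norm_num)
    have h3 : (α.1 : ℕ) < N0 := α.1.2
    omega
  have hHw : ∀ α s k, w (aeval x (Hk α s k)) ≤ 1 := by
    intro α s k
    simp only [hHk, map_sum]
    refine le_sum w _ _ fun l _ => ?_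
    rw [map_mul, map_mul]
    exact mul_le_one' (huw _ _) (aeval_le S (hh _ _ _ _))
  set Y : Fin N0 × Fin m → Fin (n + 1) → N :=
    fun α s => ∑ l : Fin p, aeval x (u α.1 l) * Z l α.2 s / aeval x G with hY
  have hY1 : ∀ α s, w (Y α s) ≤ 1 := by
    intro α s
    refine le_sum w _ _ fun l _ => ?_
    rw [map_div₀, hGw, div_one, map_mul]
    exact mul_le_one' (huw _ _) (hZ1 _ _ _)
  have hYF : ∀ α s, Y α s ∈ F := fun α s => F.sum_mem fun l _ =>
    F.div_mem (F.mul_mem (hHF (aeval_mem S _)) (hZF _ _ _)) (hHF (aeval_mem S _))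
  have hYH : ∀ α s, Y α s = ∑ β, ((Hk α s β.2).coeff β.1 : N) * v β := by
    intro α s
    have h1 : ∀ k, aeval x (Hk α s k) = ∑ i : Fin N0, ((Hk α s k).coeff i : N) * x ^ (i : ℕ) := by
      intro k
      rw [aeval_eq_sum_range' (hHdeg α s k), Finset.sum_range]
      rfl
    have h2 : Y α s = ∑ k, aeval x (Hk α s k) * b k / (aeval x G * aeval x δ) := by
      simp only [hY, hZdef, hHk, map_sum, map_mul, Finset.mul_sum, Finset.sum_mul, Finset.sum_div]
      rw [Finset.sum_comm]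
      refine Finset.sum_congr rfl fun k _ => Finset.sum_congr rfl fun l _ => ?_
      field_simp
    rw [h2, Fintype.sum_prod_type_right]
    refine Finset.sum_congr rfl fun k _ => ?_
    rw [h1 k, Finset.sum_mul, Finset.sum_div]
    refine Finset.sum_congr rfl fun i _ => ?_
    simp only [hv]
    ring
  have hvY : ∀ α, w (v α - ∑ s, t s * Y α s ^ p) ≤ γ := by
    intro α
    have e : v α - ∑ s, t s * Y α s ^ p =
        ((aeval x (X ^ (α.1 : ℕ) * q) - ∑ l ∈ Finset.range p, x ^ l * aeval x (u α.1 l) ^ p) * b α.2 +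
        ∑ l : Fin p, aeval x (u α.1 l) ^ p * (x ^ (l : ℕ) * b α.2 - ∑ s, t s * Z l α.2 s ^ p) -
        ∑ s, t s * ((∑ l : Fin p, aeval x (u α.1 l) * Z l α.2 s) ^ p -
          ∑ l : Fin p, (aeval x (u α.1 l) * Z l α.2 s) ^ p)) / aeval x G ^ p := by
      have e0 : v α = aeval x (X ^ (α.1 : ℕ) * q) * b α.2 / aeval x G ^ p := by
        simp only [hv]
        have hq0 : aeval x q ≠ 0 := by
          intro h; rw [h, map_zero] at hqw; exact zero_ne_one hqw
        have hXq2 : aeval x (X ^ (α.1 : ℕ) * q) = x ^ (α.1 : ℕ) * aeval x q := by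
          rw [map_mul (aeval x) (X ^ (α.1 : ℕ)) q, map_pow, aeval_X]
        rw [← hqG, hXq2]
        have hGδ : aeval x G * aeval x δ ≠ 0 := mul_ne_zero hG0 hδ0
        rw [div_eq_div_iff hGδ (mul_ne_zero hq0 hGδ)]
        ring
      have e1 : ∀ s, t s * Y α s ^ p =
          t s * (∑ l : Fin p, aeval x (u α.1 l) * Z l α.2 s) ^ p / aeval x G ^ p := by
        intro s
        simp only [hY]
        rw [← Finset.sum_div, div_pow]; ring
      rw [e0, Finset.sum_congr rfl fun s _ => e1 s, ← Finset.sum_div, ← sub_div]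
      congr 1
      simp only [mul_sub, sub_mul, Finset.sum_sub_distrib, mul_pow, Finset.mul_sum]
      have e3 : (∑ l ∈ Finset.range p, x ^ l * aeval x (u α.1 l) ^ p) * b α.2 =
          ∑ l : Fin p, aeval x (u α.1 l) ^ p * (x ^ (l : ℕ) * b α.2) := by
        rw [Finset.sum_range (fun l => x ^ l * aeval x (u α.1 l) ^ p), Finset.sum_mul]
        exact Finset.sum_congr rfl fun l _ => by ring
      have e2 : ∑ l : Fin p, ∑ s, aeval x (u α.1 l) ^ p * (t s * Z l α.2 s ^ p) =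
          ∑ s, ∑ l : Fin p, t s * (aeval x (u α.1 l) ^ p * Z l α.2 s ^ p) := by
        rw [Finset.sum_comm]
        exact Finset.sum_congr rfl fun s _ => Finset.sum_congr rfl fun q _ => by ring
      rw [e3, e2]
      ring
    rw [e, map_div₀, map_pow, hGw, one_pow, div_one]
    refine le_sub w (le_add w ?_ (le_sum w _ _ fun l _ => ?_)) (le_sum w _ _ fun s _ => ?_)
    · rw [map_mul]
      calc _ ≤ (w (p : N) * 1) * 1 := mul_le_mul' (hu3 _) (hb2 _)
        _ ≤ γ := by rw [mul_one, mul_one]; exact hpγ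
    · rw [map_mul, map_pow]
      calc _ ≤ 1 * γ := mul_le_mul' (pow_le_one' (huw _ _) p) (hZ _ _)
        _ = γ := one_mul _
    · rw [map_mul]
      have h5 := sum_pow_p w p Finset.univ (fun l : Fin p => aeval x (u α.1 l) * Z l α.2 s)
        (R := 1) (fun l _ => by
          rw [map_mul, mul_pow]
          exact mul_le_one' (pow_le_one' (huw _ _) p) (pow_le_one' (hZ1 _ _ _) p))
      calc w (t s) * _ ≤ 1 * (γ * 1) :=
            mul_le_mul' (ht1 s) (h5.trans (mul_le_mul' hpγ le_rfl))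
        _ = γ := by rw [one_mul, mul_one]
  have hBw : ∀ α β : Fin N0 × Fin m, w ((Hk α 0 β.2).coeff β.1 : N) ≤ 1 := fun α β =>
    (S.gauss _ _).trans (hHw _ _ _)
  have hcw : ∀ α : Fin N0 × Fin m, w (((f α.2 * δ * δ).coeff α.1 : C) : N) ≤ R ^ p := by
    intro α
    refine (S.gauss _ _).trans ?_
    rw [map_mul, map_mul, map_mul, map_mul, hδ, mul_one, mul_one]
    exact hf1 _
  obtain ⟨W, hWF, y, hyF, hWR, hW⟩ := II_abs (w := w) (C := C) (S.CH.trans hHF) ht0 ht1 hpγ v Y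
    (fun α β => (Hk α 0 β.2).coeff β.1) hY1 hYF hBw hvY (fun α => hYH α 0) hR1 hRγ
    (fun α => (f α.2 * δ * δ).coeff α.1) hcw
  refine ⟨W, hWF, y, hyF, hWR, ?_⟩
  have hUv : w (U - ∑ α : Fin N0 × Fin m, (((f α.2 * δ * δ).coeff α.1 : C) : N) * v α) < 1 := by
    have e : ∑ α : Fin N0 × Fin m, (((f α.2 * δ * δ).coeff α.1 : C) : N) * v α =
        ∑ j, aeval x (f j) / aeval x g1 * b j := by
      rw [Fintype.sum_prod_type_right]
      refine Finset.sum_congr rfl fun j _ => ?_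
      have h1 : aeval x (f j * δ * δ) = ∑ i : Fin N0, (((f j * δ * δ).coeff i : C) : N) * x ^ (i : ℕ) := by
        rw [aeval_eq_sum_range' (n := N0), Finset.sum_range]
        · rfl
        · have h2 : (f j * δ * δ).natDegree ≤ N1 + δ.natDegree :=
            natDegree_mul_le.trans (add_le_add (hN1 j) le_rfl)
          omega
      have h3 : aeval x (f j) / aeval x g1 * b j =
          aeval x (f j * δ * δ) * b j / (aeval x G * aeval x δ) := by
        rw [hG]
        simp only [map_mul]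
        field_simp
      rw [h3, h1, Finset.sum_mul, Finset.sum_div]
      refine Finset.sum_congr rfl fun i _ => ?_
      simp only [hv]
      ring
    rw [e, hUa, ← Finset.sum_sub_distrib]
    refine lt_sum w _ _ one_pos fun j _ => ?_
    rw [← sub_mul, map_mul]
    calc _ ≤ w (a j - aeval x (f j) / aeval x g1) * 1 := mul_le_mul' le_rfl (hb2 j)
      _ < 1 := by rw [mul_one]; exact hfg j
  have := lt_add w hUv hW
  convert this using 2
  ring

/-- **Main result of this part**: `PData` for a finite extension with orthonormal basis. -/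
theorem exists_pdata [hpp : Fact p.Prime] (hp0 : (p : N) ≠ 0) {F : Subfield N} (hHF : H ≤ F)
    (hgood : Good w H F) : ∃ (n : ℕ) (t : Fin (n + 1) → N) (γ : ℝ≥0), PData w p F n t γ := by
  have hCalg := S.alg
  obtain ⟨m, b, hb1, hb2, hb3, hb4⟩ := hgood
  obtain ⟨n0, t0, T0⟩ := fam_exists S hp0 hHF hb1 hb2 hb3 hb4
  obtain ⟨ξ, hξ⟩ := IsAlgClosed.exists_pow_nat_eq (-1 : C) hpp.out.pos
  have hξ' : (ξ : N) ^ p = -1 := by
    have := congrArg Subtype.val hξ
    push_cast at this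
    exact this
  obtain ⟨n, t, T, hP1⟩ := fam_min S.hp (hHF (S.CH ξ.2)) hξ' T0
  obtain ⟨δ, h, γ, hδ, hh, hγ1, hpγ, hZ⟩ := zdata S hHF hb1 hb2 hb3 hb4 T
  exact ⟨n, t, γ, hγ1, hpγ, T.t0, T.tF, T.t1, hP1,
    fun u hu => S1_F S hp0 hHF hb1 hb2 hb3 hb4 T.t1 hδ hh hpγ hZ hu,
    fun R hR1 hRγ U hU hUR => II_F S hHF hb1 hb2 hb3 hb4 T.t0 T.t1 hδ hh hpγ hZ hR1 hRγ hU hUR⟩

end

end Crest.Agent.R013.Stab5_460
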