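import Mathlib
import Crest.Agent.R013.Stab5_460

/-!
# STAB, part 6: the Kummer step
-/

namespace Crest.Agent.R013.Stab6_460

open Polynomial Crest.Agent.R013.Stab2_460 Crest.Agent.R013.Stab3_460
open scoped NNReal

variable {N : Type*} [Field N] {w : Valuation N ℝ≥0} {p : ℕ}

lemma eq_of_lt {a b : N} (h : w (a - b) < w b) : w a = w b := by
  have := Valuation.map_add_eq_of_lt_right w h
  rwa [sub_add_cancel] at this

lemma exists_R (p : ℕ) (hp : p ≠ 0) {m : ℝ≥0} (hm : m < 1) :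
    ∃ R : ℝ≥0, 1 < R ∧ R ^ p * m < 1 := by
  obtain ⟨m', hm1, hm2⟩ := exists_between hm
  have hm0 : 0 < m' := zero_le.trans_lt hm1
  set s : ℝ≥0 := m' ^ ((p : ℝ)⁻¹) with hs
  have hsp : s ^ p = m' := NNReal.rpow_inv_natCast_pow _ hp
  have hs1 : s < 1 := by
    by_contra h
    rw [not_lt] at h
    have := one_le_pow₀ h (n := p)
    rw [hsp] at this
    exact absurd hm2 (not_lt.2 this)
  have hs0 : 0 < s := by
    rw [pos_iff_ne_zero]
    intro h
    rw [h, zero_pow hp] at hsp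
    exact hm0.ne hsp
  refine ⟨s⁻¹, (one_lt_inv₀ hs0).2 hs1, ?_⟩
  rw [inv_pow, hsp, inv_mul_eq_div]
  exact (div_lt_one hm0).2 hm1

/-- the value of `ζ - 1` for a `p`-th root of unity. -/
lemma w_root_sub_one [hpp : Fact p.Prime] (hp : w (p : N) < 1) {z : N} (hz : z ≠ 0)
    (h1 : (1 + z) ^ p = 1) : w z ^ (p - 1) = w (p : N) := by
  have hprime := hpp.out
  have hwz : w (1 + z) = 1 := by
    have : w (1 + z) ^ p = 1 := by rw [← map_pow, h1, map_one]
    exact (pow_eq_one_iff_of_nonneg zero_le hprime.ne_zero).1 this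
  have hz1 : w z ≤ 1 := by
    have := le_sub w hwz.le (map_one w).le
    simpa using this
  have hz2 : w z < 1 := by
    have h2 := one_add_pow w p hz1
    rw [h1] at h2
    have e : (1 : N) - (1 + z ^ p) = -z ^ p := by ring
    rw [e, Valuation.map_neg, map_pow] at h2
    have h3 : w z ^ p < 1 := by
      refine (h2.trans (mul_le_mul' le_rfl hz1)).trans_lt ?_
      rw [mul_one]; exact hp
    exact (pow_lt_one_iff hprime.ne_zero).1 h3
  have hwz0 : 0 < w z := pos_iff_ne_zero.2 (w.ne_zero_iff.2 hz)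
  have h3 : z ^ p = -(p * (z + ∑ k ∈ Finset.Ioo 1 p, z ^ k * ((p.choose k / p : ℕ) : N))) := by
    rw [add_comm (1 : N) z, add_pow_prime_eq' hprime] at h1
    have hsplit : Finset.Ioo 0 p = insert 1 (Finset.Ioo 1 p) := by
      ext k
      simp only [Finset.mem_Ioo, Finset.mem_insert]
      have := hprime.one_lt
      omega
    have h4 : (p.choose 1 / p : ℕ) = 1 := by
      rw [Nat.choose_one_right]; exact Nat.div_self hprime.pos
    rw [hsplit, Finset.sum_insert (by simp), h4] at h1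
    simp only [one_pow, mul_one, pow_one, Nat.cast_one] at h1
    linear_combination h1
  have h5 : w (∑ k ∈ Finset.Ioo 1 p, z ^ k * ((p.choose k / p : ℕ) : N)) < w z := by
    refine lt_sum w _ _ hwz0 fun k hk => ?_
    rw [Finset.mem_Ioo] at hk
    rw [map_mul, map_pow]
    calc w z ^ k * w ((p.choose k / p : ℕ) : N) ≤ w z ^ 2 * 1 :=
          mul_le_mul' (pow_le_pow_right_of_le_one' hz1 (by omega)) (natCast_le_one w _)
      _ = w z * w z := by rw [mul_one, sq]
      _ < w z * 1 := mul_lt_mul_of_pos_left hz2 hwz0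
      _ = w z := mul_one _
  have h6 : w (z + ∑ k ∈ Finset.Ioo 1 p, z ^ k * ((p.choose k / p : ℕ) : N)) = w z := by
    rw [Valuation.map_add_eq_of_lt_left w h5]
  have h7 : w z ^ p = w (p : N) * w z := by
    rw [← map_pow, h3, Valuation.map_neg, map_mul, h6]
  have h8 : w z ^ p = w z ^ (p - 1) * w z := by
    rw [← pow_succ]; congr 1; have := hprime.pos; omega
  rw [h8] at h7
  exact mul_right_cancel₀ hwz0.ne' h7

/-- data for the Kummer step -/
structure KData (w : Valuation N ℝ≥0) (p : ℕ) (C F : Subfield N) (α : N) (c0 : N) : Prop where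
  hp : w (p : N) < 1
  hp0 : (p : N) ≠ 0
  alg : IsAlgClosed C
  CF : C ≤ F
  val : ∀ y : N, y ≠ 0 → ∃ c ∈ C, w y = w c
  α0 : α ≠ 0
  αF : α ^ p ∈ F
  c0C : c0 ∈ C
  c0p : c0 ^ (p - 1) = -p
  conj : ∃ (σ : Fin p → N ≃+* N) (ζ : Fin p → N), (∀ i y, w (σ i y) = w y) ∧
    (∀ i, ∀ y ∈ F, σ i y = y) ∧ (∀ i, σ i α = ζ i * α) ∧ (∀ i, ζ i ^ p = 1) ∧
    Function.Injective ζ

/-- conclusion of the Kummer step -/
def Concl (w : Valuation N ℝ≥0) (p : ℕ) (F : Subfield N) (α : N) : Prop :=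
  ∃ β : N, w β ≤ 1 ∧ ON w F (fun i : Fin p => β ^ (i : ℕ)) ∧
    ∃ v ∈ F, ∃ e ∈ F, ∃ c ∈ F, v ≠ 0 ∧ c ≠ 0 ∧ β = (v * α - e) / c

section

variable {C F : Subfield N} {α c0 : N} [hpp : Fact p.Prime] (K : KData w p C F α c0)
include K

lemma c0_ne : c0 ≠ 0 := by
  intro h
  have := K.c0p
  rw [h, zero_pow (by have := hpp.out.one_lt; omega)] at this
  exact K.hp0 (by simpa using this.symm)

lemma w_c0_pow : w c0 ^ (p - 1) = w (p : N) := by
  rw [← map_pow, K.c0p, Valuation.map_neg]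

lemma w_c0_lt : w c0 < 1 := by
  have h : w c0 ^ (p - 1) < 1 := by rw [w_c0_pow K]; exact K.hp
  exact (pow_lt_one_iff (by have := hpp.out.one_lt; omega)).1 h

lemma w_c0_pos : 0 < w c0 := pos_iff_ne_zero.2 (w.ne_zero_iff.2 (c0_ne K))

lemma pow_succ_sub (a : ℝ≥0) : a ^ p = a ^ (p - 1) * a := by
  rw [← pow_succ]; congr 1; have := hpp.out.pos; omega

/-- case (ii). -/
lemma case_ii {v : N} (hv : v ∈ F) (hv0 : v ≠ 0) {E : N} (hE : E ∈ F) (hα : (v * α) ^ p = 1 + E)
    (hα1 : w (v * α) ≤ 1) (hEρ : w c0 ^ p < w E) (hno : ∀ y ∈ F, ¬ w (E - y ^ p) < w E) :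
    Concl w p F α := by
  have hprime := hpp.out
  set z := v * α - 1 with hz
  have hz1 : w z ≤ 1 := le_sub w hα1 (map_one w).le
  have h1 : w (E - z ^ p) ≤ w (p : N) * w z := by
    have := one_add_pow w p hz1
    have e : 1 + z = v * α := by rw [hz]; ring
    rw [e, hα] at this
    convert this using 2
    ring
  have hcz : w c0 < w z := by
    by_contra h
    rw [not_lt] at h
    have h2 : w z ^ p ≤ w c0 ^ p := pow_le_pow_left' h p
    have h3 : w (p : N) * w z ≤ w c0 ^ p := by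
      rw [pow_succ_sub K, w_c0_pow K]; exact mul_le_mul' le_rfl h
    have h4 : w E ≤ w c0 ^ p := by
      have := le_add w (h1.trans h3) (b := z ^ p) (by rw [map_pow]; exact h2)
      simpa using this
    exact absurd hEρ (not_lt.2 h4)
  have hwz0 : 0 < w z := zero_le.trans_lt hcz
  have h5 : w (E - z ^ p) < w (z ^ p) := by
    refine h1.trans_lt ?_
    rw [map_pow, pow_succ_sub K (w z), ← w_c0_pow K]
    refine mul_lt_mul_of_pos_right ?_ hwz0
    exact pow_lt_pow_left₀ hcz zero_le (by have := hprime.one_lt; omega)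
  have h6 : w E = w (z ^ p) := eq_of_lt h5
  have hz0 : z ≠ 0 := w.ne_zero_iff.1 hwz0.ne'
  obtain ⟨c, hc, hzc⟩ := K.val z hz0
  have hc0 : c ≠ 0 := by rw [← w.ne_zero_iff, ← hzc]; exact hwz0.ne'
  have hcF : c ∈ F := K.CF hc
  have hwcp : 0 < w c ^ p := pow_pos (by rw [← hzc]; exact hwz0) p
  refine ⟨z / c, ?_, ?_, v, hv, 1, F.one_mem, c, hcF, hv0, hc0, rfl⟩
  · rw [map_div₀, hzc, div_self (by rw [← hzc]; exact hwz0.ne')]
  · refine on_insep w p F (E := E / c ^ p) (F.div_mem hE (F.pow_mem hcF _)) ?_ ?_ ?_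
    · rw [map_div₀, h6, map_pow, map_pow, hzc, div_self hwcp.ne']
    · rw [div_pow, ← sub_div, map_div₀, map_pow, Valuation.map_sub_swap]
      refine (div_lt_one hwcp).2 ?_
      rw [← hzc, ← map_pow]; exact h5
    · intro y hy hlt
      refine hno (c * y) (F.mul_mem hcF hy) ?_
      have e : E - (c * y) ^ p = (E / c ^ p - y ^ p) * c ^ p := by
        rw [mul_pow]; field_simp
      rw [e, map_mul, map_pow, h6, map_pow, hzc]
      calc _ < 1 * w c ^ p := mul_lt_mul_of_pos_right hlt hwcp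
        _ = w c ^ p := one_mul _

/-- case (iii). -/
lemma case_iii {v : N} (hv : v ∈ F) (hv0 : v ≠ 0) {E : N} (hα : (v * α) ^ p = 1 + E)
    (hα1 : w (v * α) = 1) (hEρ : w E ≤ w c0 ^ p) : Concl w p F α := by
  have hprime := hpp.out
  set z := v * α - 1 with hz
  have hz1 : w z ≤ 1 := le_sub w hα1.le (map_one w).le
  have h1 : w (E - z ^ p) ≤ w (p : N) * w z := by
    have := one_add_pow w p hz1
    have e : 1 + z = v * α := by rw [hz]; ring
    rw [e, hα] at this
    convert this using 2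
    ring
  have hzc : w z ≤ w c0 := by
    by_contra h
    rw [not_le] at h
    have hwz0 : 0 < w z := zero_le.trans_lt h
    have h5 : w (E - z ^ p) < w (z ^ p) := by
      refine h1.trans_lt ?_
      rw [map_pow, pow_succ_sub K (w z), ← w_c0_pow K]
      refine mul_lt_mul_of_pos_right ?_ hwz0
      exact pow_lt_pow_left₀ h zero_le (by have := hprime.one_lt; omega)
    have h6 : w E = w (z ^ p) := eq_of_lt h5
    rw [h6, map_pow] at hEρ
    exact absurd (pow_lt_pow_left₀ h zero_le hprime.ne_zero) (not_lt.2 hEρ)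
  have hc0F : c0 ∈ F := K.CF K.c0C
  obtain ⟨σ, ζ, hσw, hσF, hσα, hζ, hinj⟩ := K.conj
  refine ⟨z / c0, ?_, ?_, v, hv, 1, F.one_mem, c0, hc0F, hv0, c0_ne K, rfl⟩
  · rw [map_div₀]; exact (div_le_one (w_c0_pos K)).2 hzc
  · refine on_conj w F ?_ σ hσw hσF ?_
    · rw [map_div₀]; exact (div_le_one (w_c0_pos K)).2 hzc
    · intro i j hij hlt
      have e : σ i (z / c0) - σ j (z / c0) = (ζ i - ζ j) * (v * α) / c0 := by
        have h7 : ∀ i, σ i (z / c0) = (ζ i * (v * α) - 1) / c0 := by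
          intro i
          rw [map_div₀, hσF i c0 hc0F, hz, map_sub, map_mul, hσF i v hv, hσα, map_one]
          ring
        rw [h7, h7]; ring
      rw [e, map_div₀, map_mul, hα1, mul_one] at hlt
      -- value of ζ i - ζ j
      have hζw : ∀ i, w (ζ i) = 1 := by
        intro i
        have : w (ζ i) ^ p = 1 := by rw [← map_pow, hζ, map_one]
        exact (pow_eq_one_iff_of_nonneg zero_le hprime.ne_zero).1 this
      have hζ0 : ζ j ≠ 0 := by
        rw [← w.ne_zero_iff, hζw]; exact one_ne_zero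
      set y := ζ i / ζ j - 1 with hy
      have hy0 : y ≠ 0 := by
        rw [hy, Ne, sub_eq_zero, div_eq_one_iff_eq hζ0]
        exact fun h => hij (hinj h)
      have hyp : (1 + y) ^ p = 1 := by
        rw [hy, add_sub_cancel, div_pow, hζ, hζ, div_one]
      have hwy := w_root_sub_one K.hp hy0 hyp
      rw [← w_c0_pow K] at hwy
      have hwy2 : w y = w c0 :=
        (pow_left_inj₀ zero_le zero_le (by have := hprime.one_lt; omega)).1 hwy
      have e2 : ζ i - ζ j = y * ζ j := by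
        rw [hy]; field_simp
      rw [e2, map_mul, hζw, mul_one, hwy2, div_self (w_c0_pos K).ne'] at hlt
      exact lt_irrefl _ hlt

variable {n : ℕ} {t : Fin (n + 1) → N} {γ : ℝ≥0} (P : PData w p F n t γ)
include P

/-- sums without the term `t 0 = 1` are not close to `p`-th powers. -/
lemma not_power {z : Fin n → N} (hz : ∀ i, z i ∈ F)
    (h0 : 0 < w (∑ i : Fin n, t i.succ * z i ^ p)) {y : N} (hy : y ∈ F) :
    ¬ w ((∑ i : Fin n, t i.succ * z i ^ p) - y ^ p) < w (∑ i : Fin n, t i.succ * z i ^ p) := by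
  have hCalg := K.alg
  intro hlt
  obtain ⟨ξ, hξ⟩ := IsAlgClosed.exists_pow_nat_eq (-1 : C) hpp.out.pos
  have hξ' : (ξ : N) ^ p = -1 := by
    have := congrArg Subtype.val hξ
    push_cast at this
    exact this
  have hξF : (ξ : N) ∈ F := K.CF ξ.2
  have key := P.P1 (Fin.cons ((ξ : N) * y) z) (fun i => by
    refine Fin.cases ?_ (fun i => ?_) i
    · exact F.mul_mem hξF hy
    · exact hz i)
  have e : ∑ i, t i * (Fin.cons ((ξ : N) * y) z : Fin (n + 1) → N) i ^ p =
      (∑ i : Fin n, t i.succ * z i ^ p) - y ^ p := by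
    rw [Fin.sum_univ_succ]
    simp only [Fin.cons_zero, Fin.cons_succ, P.t0, mul_pow, hξ']
    ring
  rw [e] at key
  have h2 : ∀ i : Fin n, w (z i) ^ p < w (∑ i : Fin n, t i.succ * z i ^ p) := fun i => by
    have := key i.succ
    rw [Fin.cons_succ] at this
    exact this.trans_lt hlt
  refine lt_irrefl (w (∑ i : Fin n, t i.succ * z i ^ p)) ?_
  refine lt_sum w _ _ h0 fun i _ => ?_
  rw [map_mul, map_pow]
  calc w (t i.succ) * w (z i) ^ p ≤ 1 * w (z i) ^ p := mul_le_mul' (P.t1 _) le_rfl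
    _ = w (z i) ^ p := one_mul _
    _ < _ := h2 i

/-- Step II. -/
lemma step_II {R : ℝ≥0} (hR1 : 1 < R) (hRγ : R ^ p * γ < 1) (hRc : w c0 * R ^ 2 < 1)
    {v : N} (hv : v ∈ F) (hv0 : v ≠ 0) {u : N} (hu : u ∈ F) (hα : (v * α) ^ p = 1 + u)
    (hα1 : w (v * α) = 1) (huR : w u ≤ w c0 ^ p * R ^ p) : Concl w p F α := by
  have hprime := hpp.out
  have hc0F : c0 ∈ F := K.CF K.c0C
  have hc0ne := c0_ne K
  have hρ : 0 < w c0 ^ p := pow_pos (w_c0_pos K) p
  set U := u / c0 ^ p with hU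
  have hUF : U ∈ F := F.div_mem hu (F.pow_mem hc0F _)
  have hUR : w U ≤ R ^ p := by
    rw [hU, map_div₀, map_pow]
    exact (div_le_iff₀ hρ).2 (by rw [mul_comm]; exact huR)
  obtain ⟨W, hWF, y, hyF, hWR, hW⟩ := P.II R hR1.le hRγ U hUF hUR
  have hcW2 : w c0 * w W ^ 2 < 1 :=
    (mul_le_mul' le_rfl (pow_le_pow_left' hWR 2)).trans_lt hRc
  have hcW : w (c0 * W) < 1 := by
    rw [map_mul]
    refine (mul_le_mul' le_rfl (hWR.trans ?_)).trans_lt hRc
    exact le_self_pow₀ hR1.le (by norm_num)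
  set q := 1 + c0 * W with hq
  have hqw : w q = 1 := Valuation.map_one_add_of_lt w hcW
  have hq0 : q ≠ 0 := by rw [← w.ne_zero_iff, hqw]; exact one_ne_zero
  have hqF : q ∈ F := F.add_mem F.one_mem (F.mul_mem hc0F hWF)
  set E1 := ∑ i : Fin n, t i.succ * y i ^ p with hE1
  have hE1F : E1 ∈ F := F.sum_mem fun i _ => F.mul_mem (P.tF _) (F.pow_mem (hyF i) _)
  set u2 := (1 + u - q ^ p) / q ^ p with hu2
  have hu2F : u2 ∈ F := F.div_mem (F.sub_mem (F.add_mem F.one_mem hu) (F.pow_mem hqF _))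
    (F.pow_mem hqF _)
  have hv' : v / q ∈ F := F.div_mem hv hqF
  have hα' : (v / q * α) ^ p = 1 + u2 := by
    have : v / q * α = v * α / q := by ring
    rw [this, div_pow, hα, hu2]
    have hqp : q ^ p ≠ 0 := pow_ne_zero _ hq0
    field_simp
    ring
  have hα1' : w (v / q * α) = 1 := by
    have : v / q * α = v * α / q := by ring
    rw [this, map_div₀, hα1, hqw, div_one]
  have hdiff : w (u2 * q ^ p - c0 ^ p * E1) < w c0 ^ p := by
    have hqp : q ^ p ≠ 0 := pow_ne_zero _ hq0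
    have hcp : c0 ^ p ≠ 0 := pow_ne_zero _ hc0ne
    have e : u2 * q ^ p - c0 ^ p * E1 = c0 ^ p * (U + W - W ^ p - E1) -
        (q ^ p - (1 + c0 ^ p * (W ^ p - W))) := by
      have h1 : u2 * q ^ p = 1 + u - q ^ p := by rw [hu2]; field_simp
      have h2 : c0 ^ p * U = u := by rw [hU]; field_simp
      rw [h1]
      linear_combination -h2
    rw [e]
    refine lt_sub w ?_ (as_expand w p K.c0p hc0ne (w_c0_lt K) hcW2)
    rw [map_mul, map_pow]
    calc _ < w c0 ^ p * 1 := mul_lt_mul_of_pos_left hW hρ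
      _ = _ := mul_one _
  have hu2w : w (u2 * q ^ p) = w u2 := by rw [map_mul, map_pow, hqw, one_pow, mul_one]
  by_cases hE : 1 < w E1
  · -- case ii
    have h3 : w c0 ^ p < w (c0 ^ p * E1) := by
      rw [map_mul, map_pow]
      calc w c0 ^ p = w c0 ^ p * 1 := (mul_one _).symm
        _ < _ := mul_lt_mul_of_pos_left hE hρ
    have h4 : w u2 = w (c0 ^ p * E1) := by
      rw [← hu2w]
      exact eq_of_lt (hdiff.trans h3)
    refine case_ii K hv' (div_ne_zero hv0 hq0) hu2F hα' hα1'.le (by rw [h4]; exact h3) ?_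
    intro y' hy' hlt
    have h5 : w (c0 ^ p * E1 - (y' * q) ^ p) < w (c0 ^ p * E1) := by
      have e : c0 ^ p * E1 - (y' * q) ^ p = (u2 - y' ^ p) * q ^ p - (u2 * q ^ p - c0 ^ p * E1) := by
        ring
      rw [e]
      refine lt_sub w ?_ (hdiff.trans h3)
      rw [map_mul, map_pow, hqw, one_pow, mul_one, ← h4]
      exact hlt
    refine not_power K P hyF (zero_le.trans_lt hE) (y := y' * q / c0)
      (F.div_mem (F.mul_mem hy' hqF) hc0F) ?_
    have e : E1 - (y' * q / c0) ^ p = (c0 ^ p * E1 - (y' * q) ^ p) / c0 ^ p := by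
      have hcp : c0 ^ p ≠ 0 := pow_ne_zero _ hc0ne
      rw [div_pow]; field_simp
    rw [← hE1, e, map_div₀, map_pow, div_lt_iff₀ hρ]
    rwa [map_mul, map_pow, mul_comm (w c0 ^ p)] at h5
  · rw [not_lt] at hE
    refine case_iii K hv' (div_ne_zero hv0 hq0) hα' hα1' ?_
    rw [← hu2w]
    have h6 : w (c0 ^ p * E1) ≤ w c0 ^ p := by
      rw [map_mul, map_pow]
      calc _ ≤ w c0 ^ p * 1 := mul_le_mul' le_rfl hE
        _ = _ := mul_one _
    have := le_add w hdiff.le h6
    simpa using this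

/-- the induction. -/
lemma main_induction' {R : ℝ≥0} (hR1 : 1 < R) (hRγ : R ^ p * γ < 1) (hRc : w c0 * R ^ 2 < 1)
    {θ : ℝ≥0} (hθγ : γ ≤ θ) (hθR : R⁻¹ ≤ θ) (k : ℕ) :
    ∀ v ∈ F, v ≠ 0 → ∀ u ∈ F, (v * α) ^ p = 1 + u → w (v * α) = 1 → w u < 1 →
      w u * θ ^ k ≤ w c0 ^ p * R ^ p → Concl w p F α := by
  have hprime := hpp.out
  induction k with
  | zero =>
    intro v hv hv0 u hu hα hα1 hu1 hk
    rw [pow_zero, mul_one] at hk
    exact step_II K P hR1 hRγ hRc hv hv0 hu hα hα1 hk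
  | succ k ih =>
    intro v hv hv0 u hu hα hα1 hu1 hk
    by_cases huR : w u ≤ w c0 ^ p * R ^ p
    · exact step_II K P hR1 hRγ hRc hv hv0 hu hα hα1 huR
    rw [not_le] at huR
    have hρ : 0 < w c0 ^ p := pow_pos (w_c0_pos K) p
    have hu0 : u ≠ 0 := by
      rw [← w.ne_zero_iff]; exact (zero_le.trans_lt huR).ne'
    -- the p-th root of the value
    obtain ⟨s, hs⟩ : ∃ s : ℝ≥0, s ^ p = w u :=
      ⟨w u ^ ((p : ℝ)⁻¹), NNReal.rpow_inv_natCast_pow _ hprime.ne_zero⟩
    have hsR : w c0 * R < s := by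
      by_contra h
      rw [not_lt] at h
      have := pow_le_pow_left' h p
      rw [hs, mul_pow] at this
      exact absurd huR (not_lt.2 this)
    have hs0 : 0 < s := zero_le.trans_lt hsR
    have hcs : w c0 < s := by
      refine lt_of_le_of_lt ?_ hsR
      calc w c0 = w c0 * 1 := (mul_one _).symm
        _ ≤ w c0 * R := mul_le_mul' le_rfl hR1.le
    obtain ⟨z, hzF, hz⟩ := P.S1 u hu
    have hsum : w (∑ i, t i * z i ^ p) ≤ w u := by
      have h1 : w (u - ∑ i, t i * z i ^ p) ≤ w u := by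
        refine hz.trans ?_
        calc γ * w u ≤ 1 * w u := mul_le_mul' P.γ1.le le_rfl
          _ = w u := one_mul _
      have := le_sub w (le_refl (w u)) h1
      simpa using this
    have hzw : ∀ i, w (z i) ^ p ≤ w u := fun i => (P.P1 z hzF i).trans hsum
    have hz0s : w (z 0) ≤ s := by
      have := hzw 0
      rw [← hs] at this
      exact (pow_le_pow_iff_left₀ zero_le zero_le hprime.ne_zero).1 this
    have hz0lt : w (z 0) < 1 := (pow_lt_one_iff hprime.ne_zero).1 ((hzw 0).trans_lt hu1)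
    set q := 1 + z 0 with hq
    have hqw : w q = 1 := Valuation.map_one_add_of_lt w hz0lt
    have hq0 : q ≠ 0 := by rw [← w.ne_zero_iff, hqw]; exact one_ne_zero
    have hqF : q ∈ F := F.add_mem F.one_mem (hzF 0)
    set E0 := ∑ i : Fin n, t i.succ * z i.succ ^ p with hE0
    set u2 := (1 + u - q ^ p) / q ^ p with hu2
    have hu2F : u2 ∈ F := F.div_mem (F.sub_mem (F.add_mem F.one_mem hu) (F.pow_mem hqF _))
      (F.pow_mem hqF _)
    have hv' : v / q ∈ F := F.div_mem hv hqF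
    have hqp : q ^ p ≠ 0 := pow_ne_zero _ hq0
    have hα' : (v / q * α) ^ p = 1 + u2 := by
      have : v / q * α = v * α / q := by ring
      rw [this, div_pow, hα, hu2]
      field_simp
      ring
    have hα1' : w (v / q * α) = 1 := by
      have : v / q * α = v * α / q := by ring
      rw [this, map_div₀, hα1, hqw, div_one]
    have hu2w : w (u2 * q ^ p) = w u2 := by rw [map_mul, map_pow, hqw, one_pow, mul_one]
    set Q := max (γ * w u) (w (p : N) * s) with hQ
    have hdiff : w (u2 * q ^ p - E0) ≤ Q := by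
      have e : u2 * q ^ p - E0 = (u - ∑ i, t i * z i ^ p) - (q ^ p - (1 + z 0 ^ p)) := by
        have h1 : u2 * q ^ p = 1 + u - q ^ p := by rw [hu2]; field_simp
        rw [h1, Fin.sum_univ_succ, P.t0]
        ring
      rw [e]
      refine le_sub w (hz.trans (le_max_left _ _)) ?_
      refine (one_add_pow w p hz0lt.le).trans ((mul_le_mul' le_rfl hz0s).trans (le_max_right _ _))
    have hρQ : w c0 ^ p < Q := by
      refine lt_of_lt_of_le ?_ (le_max_right _ _)
      rw [pow_succ_sub K, w_c0_pow K]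
      exact mul_lt_mul_of_pos_left hcs (pos_iff_ne_zero.2 (w.ne_zero_iff.2 K.hp0))
    by_cases hE : Q < w E0
    · have h4 : w u2 = w E0 := by
        rw [← hu2w]
        exact eq_of_lt (hdiff.trans_lt hE)
      refine case_ii K hv' (div_ne_zero hv0 hq0) hu2F hα' hα1'.le (by rw [h4]; exact hρQ.trans hE) ?_
      intro y' hy' hlt
      refine not_power K P (z := fun i => z i.succ) (fun i => hzF _) (zero_le.trans_lt hE)
        (y := y' * q) (F.mul_mem hy' hqF) ?_
      have e : (∑ i : Fin n, t i.succ * z i.succ ^ p) - (y' * q) ^ p =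
          (u2 - y' ^ p) * q ^ p - (u2 * q ^ p - E0) := by
        rw [← hE0]; ring
      rw [e, ← hE0]
      refine lt_sub w ?_ (hdiff.trans_lt hE)
      rw [map_mul, map_pow, hqw, one_pow, mul_one, ← h4]
      exact hlt
    · rw [not_lt] at hE
      have h7 : w u2 ≤ Q := by
        rw [← hu2w]
        have := le_add w hdiff hE
        simpa using this
      have h8 : Q ≤ θ * w u := by
        refine max_le (mul_le_mul' hθγ le_rfl) ?_
        have h9 : w (p : N) * s ≤ R⁻¹ * w u := by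
          rw [← hs, pow_succ_sub K s, ← w_c0_pow K, ← mul_assoc]
          refine mul_le_mul' ?_ le_rfl
          rw [inv_mul_eq_div, le_div_iff₀ (zero_le.trans_lt hR1)]
          calc w c0 ^ (p - 1) * R ≤ w c0 ^ (p - 1) * R ^ (p - 1) :=
                mul_le_mul' le_rfl (le_self_pow₀ hR1.le (by have := hprime.one_lt; omega))
            _ = (w c0 * R) ^ (p - 1) := (mul_pow _ _ _).symm
            _ ≤ s ^ (p - 1) := pow_le_pow_left' hsR.le _
        exact h9.trans (mul_le_mul' hθR le_rfl)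
      have h10 : w u2 ≤ θ * w u := h7.trans h8
      have hwuQ : Q < 1 := by
        refine max_lt ?_ ?_
        · calc γ * w u ≤ γ * 1 := mul_le_mul' le_rfl hu1.le
            _ < 1 := by rw [mul_one]; exact P.γ1
        · have hs1 : s ≤ 1 := by
            by_contra h
            rw [not_le] at h
            have := one_lt_pow₀ h hprime.ne_zero
            rw [hs] at this
            exact absurd hu1 (not_lt.2 this.le)
          calc w (p : N) * s ≤ w (p : N) * 1 := mul_le_mul' le_rfl hs1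
            _ < 1 := by rw [mul_one]; exact K.hp
      refine ih (v / q) hv' (div_ne_zero hv0 hq0) u2 hu2F hα' hα1' (h7.trans_lt hwuQ) ?_
      calc w u2 * θ ^ k ≤ (θ * w u) * θ ^ k := mul_le_mul' h10 le_rfl
        _ = w u * θ ^ (k + 1) := by rw [pow_succ]; ring
        _ ≤ _ := hk

/-- **The Kummer step.** -/
theorem kummer_step : Concl w p F α := by
  have hprime := hpp.out
  obtain ⟨R, hR1, hRm⟩ := exists_R p hprime.ne_zero (max_lt P.γ1 (w_c0_lt K))
  have hRγ : R ^ p * γ < 1 := (mul_le_mul' le_rfl (le_max_left _ _)).trans_lt hRm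
  have hRc : w c0 * R ^ 2 < 1 := by
    refine lt_of_le_of_lt ?_ ((mul_le_mul' (le_refl (R ^ p)) (le_max_right γ (w c0))).trans_lt hRm)
    rw [mul_comm]
    exact mul_le_mul' (pow_le_pow_right₀ hR1.le hprime.two_le) le_rfl
  set θ := max γ R⁻¹ with hθ
  have hθ1 : θ < 1 := max_lt P.γ1 (inv_lt_one_of_one_lt₀ hR1)
  -- scale
  obtain ⟨c, hc, hαc⟩ := K.val α K.α0
  have hwα : 0 < w α := pos_iff_ne_zero.2 (w.ne_zero_iff.2 K.α0)
  have hc0 : c ≠ 0 := by rw [← w.ne_zero_iff, ← hαc]; exact hwα.ne'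
  have hcF : c ∈ F := K.CF hc
  have hα1 : w (c⁻¹ * α) = 1 := by
    rw [map_mul, map_inv₀, ← hαc, inv_mul_cancel₀ hwα.ne']
  set a := (c⁻¹ * α) ^ p with ha
  have haF : a ∈ F := by
    rw [ha, mul_pow]
    exact F.mul_mem (F.pow_mem (F.inv_mem hcF) _) K.αF
  have haw : w a = 1 := by rw [ha, map_pow, hα1, one_pow]
  by_cases hno : ∀ y ∈ F, ¬ w (a - y ^ p) < 1
  · refine ⟨c⁻¹ * α, hα1.le, on_insep w p F haF haw.le ?_ hno, c⁻¹, F.inv_mem hcF, 0, F.zero_mem,
      1, F.one_mem, inv_ne_zero hc0, one_ne_zero, by simp⟩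
    rw [← ha, sub_self, map_zero]; exact one_pos
  · push Not at hno
    obtain ⟨y, hyF, hy⟩ := hno
    have hyw : w y = 1 := by
      have h1 : w (y ^ p) = 1 := by
        have h2 : w (y ^ p - a) < w a := by rw [Valuation.map_sub_swap, haw]; exact hy
        rw [eq_of_lt h2, haw]
      rw [map_pow] at h1
      exact (pow_eq_one_iff_of_nonneg zero_le hprime.ne_zero).1 h1
    have hy0 : y ≠ 0 := by rw [← w.ne_zero_iff, hyw]; exact one_ne_zero
    set u := (a - y ^ p) / y ^ p with hu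
    have huF : u ∈ F := F.div_mem (F.sub_mem haF (F.pow_mem hyF _)) (F.pow_mem hyF _)
    have hu1 : w u < 1 := by
      rw [hu, map_div₀, map_pow, hyw, one_pow, div_one]; exact hy
    have hyp : y ^ p ≠ 0 := pow_ne_zero _ hy0
    have hα' : (c⁻¹ / y * α) ^ p = 1 + u := by
      have : c⁻¹ / y * α = c⁻¹ * α / y := by ring
      rw [this, div_pow, ← ha, hu]
      field_simp
      ring
    have hα1' : w (c⁻¹ / y * α) = 1 := by
      have : c⁻¹ / y * α = c⁻¹ * α / y := by ring
      rw [this, map_div₀, hα1, hyw, div_one]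
    have hpos : 0 < w c0 ^ p * R ^ p :=
      mul_pos (pow_pos (w_c0_pos K) p) (pow_pos (zero_le.trans_lt hR1) p)
    obtain ⟨k, hk⟩ := NNReal.exists_pow_lt_of_lt_one hpos hθ1
    refine main_induction' K P hR1 hRγ hRc (le_max_left _ _) (le_max_right _ _) k (c⁻¹ / y)
      (F.div_mem (F.inv_mem hcF) hyF) (div_ne_zero (inv_ne_zero hc0) hy0) u huF hα' hα1' hu1 ?_
    calc w u * θ ^ k ≤ 1 * θ ^ k := mul_le_mul' hu1.le le_rfl
      _ = θ ^ k := one_mul _
      _ ≤ _ := hk.le

end

end Crest.Agent.R013.Stab6_460
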