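import Mathlib
import Crest.Agent.R013.Stab6_460

/-!
# STAB, part 7: Galois theory: Lagrange resolvents, one step of the tower
-/

namespace Crest.Agent.R013.Stab7_460

open Polynomial Crest.Agent.R013.Stab2_460 Crest.Agent.R013.Stab3_460
  Crest.Agent.R013.Stab6_460
open scoped NNReal

/-! ### Lagrange resolvents -/

section lagrange

variable {N : Type*} [Field N] {p : ℕ}

/-- Lagrange resolvent -/
noncomputable def lag (p : ℕ) (σ : N ≃+* N) (η : N) (y : N) : N :=
  ∑ i ∈ Finset.range p, η ^ i * (σ ^ i) y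

lemma lag_eigen (hp : 0 < p) (σ : N ≃+* N) {η : N} (hη : η ^ p = 1) (hση : σ η = η) {y : N}
    (hy : (σ ^ p) y = y) : η * σ (lag p σ η y) = lag p σ η y := by
  obtain ⟨k, rfl⟩ : ∃ k, p = k + 1 := ⟨p - 1, by omega⟩
  rw [lag, map_sum, Finset.mul_sum]
  have h1 : ∀ i, η * σ (η ^ i * (σ ^ i) y) = η ^ (i + 1) * (σ ^ (i + 1)) y := by
    intro i
    rw [map_mul, map_pow, hση, pow_succ' σ i]
    have : (σ * σ ^ i) y = σ ((σ ^ i) y) := rfl
    rw [this]; ring
  simp only [h1]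
  rw [Finset.sum_range_succ (fun i => η ^ (i + 1) * (σ ^ (i + 1)) y), Finset.sum_range_succ' (fun i => η ^ i * (σ ^ i) y),
    hη, hy]
  simp

lemma lag_sum (hp : 0 < p) (σ : N ≃+* N) {ζ : N} (hζ : IsPrimitiveRoot ζ p) (y : N) :
    ∑ k ∈ Finset.range p, lag p σ (ζ ^ k) y = p * y := by
  simp only [lag]
  rw [Finset.sum_comm]
  have h1 : ∀ i ∈ Finset.range p, ∑ k ∈ Finset.range p, (ζ ^ k) ^ i * (σ ^ i) y =
      if i = 0 then (p : N) * y else 0 := by
    intro i hi
    rw [Finset.mem_range] at hi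
    rw [← Finset.sum_mul]
    split_ifs with h0
    · subst h0; simp
    · have h2 : ∑ k ∈ Finset.range p, (ζ ^ k) ^ i = ∑ k ∈ Finset.range p, (ζ ^ i) ^ k :=
        Finset.sum_congr rfl fun k _ => by rw [← pow_mul, ← pow_mul, mul_comm]
      have h3 : (∑ k ∈ Finset.range p, (ζ ^ i) ^ k) * (ζ ^ i - 1) = 0 := by
        rw [geom_sum_mul, ← pow_mul, mul_comm, pow_mul, hζ.pow_eq_one, one_pow, sub_self]
      have h4 : ζ ^ i - 1 ≠ 0 := sub_ne_zero.2 (hζ.pow_ne_one_of_pos_of_lt h0 hi)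
      rw [h2, (mul_eq_zero.1 h3).resolve_right h4, zero_mul]
  rw [Finset.sum_congr rfl h1, Finset.sum_ite_eq' (Finset.range p) 0]
  simp [hp]

end lagrange

/-! ### one step -/

section step

variable {N : Type*} [Field N] {w : Valuation N ℝ≥0} {p : ℕ}

/-- One Kummer step: `F ≤ F1` subfields, `σ` acts on `F1` with fixed field `F`, order `p`. -/
theorem one_step [hpp : Fact p.Prime] (hp : w (p : N) < 1) (hp0 : (p : N) ≠ 0) {C H F F1 : Subfield N}
    {x : N} (S : Setup w p C H x) (hHF : H ≤ F) (hFF1 : F ≤ F1) (hgood : Good w H F)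
    (hval : ∀ y : N, y ≠ 0 → ∃ c ∈ C, w y = w c)
    (σ : N ≃+* N) (hσw : ∀ y, w (σ y) = w y) (hσF1 : ∀ y ∈ F1, σ y ∈ F1)
    (hσp : ∀ y ∈ F1, (σ ^ p) y = y) (hσF : ∀ y ∈ F1, σ y = y ↔ y ∈ F)
    (hne : ∃ y ∈ F1, σ y ≠ y) : Good w F F1 := by
  classical
  have hprime := hpp.out
  have hCalg := S.alg
  have hCF : C ≤ F := S.CH.trans hHF
  have hσC : ∀ c ∈ F, σ c = c := fun c hc => (hσF c (hFF1 hc)).2 hc
  have hp0C : ((p : ℕ) : C) ≠ 0 := by
    intro h
    apply hp0
    have := congrArg Subtype.val h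
    push_cast at this
    exact this
  have : NeZero ((p : ℕ) : C) := ⟨hp0C⟩
  obtain ⟨ζ', hζ'⟩ := HasEnoughRootsOfUnity.exists_primitiveRoot C p
  have hζN : IsPrimitiveRoot (ζ' : N) p := hζ'.map_of_injective (f := C.subtype) Subtype.val_injective
  -- the powers of σ on F1
  have hσiF1 : ∀ i : ℕ, ∀ y ∈ F1, (σ ^ i) y ∈ F1 := by
    intro i
    induction i with
    | zero => intro y hy; exact hy
    | succ i ih => intro y hy; rw [pow_succ']; exact hσF1 _ (ih y hy)
  have hσiF : ∀ i : ℕ, ∀ y ∈ F, (σ ^ i) y = y := by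
    intro i
    induction i with
    | zero => intro y hy; rfl
    | succ i ih =>
      intro y hy
      rw [pow_succ']
      have : (σ * σ ^ i) y = σ ((σ ^ i) y) := rfl
      rw [this, ih y hy, hσC y hy]
  have hσiw : ∀ i : ℕ, ∀ y, w ((σ ^ i) y) = w y := by
    intro i
    induction i with
    | zero => intro y; rfl
    | succ i ih =>
      intro y
      rw [pow_succ']
      have : (σ * σ ^ i) y = σ ((σ ^ i) y) := rfl
      rw [this, hσw, ih y]
  have hlagF1 : ∀ η ∈ F, ∀ y ∈ F1, lag p σ η y ∈ F1 := fun η hη y hy =>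
    F1.sum_mem fun i _ => F1.mul_mem (F1.pow_mem (hFF1 hη) _) (hσiF1 i y hy)
  -- an eigenvector
  obtain ⟨α, η, hαF1, hα0, hηC, hη, hη1, hσα⟩ : ∃ α η : N, α ∈ F1 ∧ α ≠ 0 ∧ η ∈ C ∧ η ^ p = 1 ∧
      η ≠ 1 ∧ η * σ α = α := by
    obtain ⟨z, hzF1, hz⟩ := hne
    by_contra hcon
    push Not at hcon
    have h1 : ∀ k ∈ Finset.range p, k ≠ 0 → lag p σ ((ζ' : N) ^ k) z = 0 := by
      intro k hk hk0
      rw [Finset.mem_range] at hk
      by_contra hne
      have hζk : (ζ' : N) ^ k ∈ C := C.pow_mem ζ'.2 k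
      refine hcon _ ((ζ' : N) ^ k) (hlagF1 _ (hCF hζk) z hzF1) hne hζk ?_
        (hζN.pow_ne_one_of_pos_of_lt hk0 hk) ?_
      · rw [← pow_mul, mul_comm, pow_mul, hζN.pow_eq_one, one_pow]
      · exact lag_eigen hprime.pos σ (by rw [← pow_mul, mul_comm, pow_mul, hζN.pow_eq_one, one_pow])
          (hσC _ (hCF hζk)) (hσp z hzF1)
    have h2 := lag_sum hprime.pos σ hζN z
    rw [Finset.sum_eq_single_of_mem 0 (Finset.mem_range.2 hprime.pos) h1, pow_zero] at h2
    have h3 : σ (lag p σ 1 z) = lag p σ 1 z := by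
      have := lag_eigen hprime.pos σ (η := 1) (one_pow p) (map_one σ) (hσp z hzF1)
      rwa [one_mul] at this
    rw [h2, map_mul, map_natCast] at h3
    exact hz (mul_left_cancel₀ hp0 h3)
  have hηF : η ∈ F := hCF hηC
  have hη0 : η ≠ 0 := by
    rintro rfl
    rw [zero_pow hprime.ne_zero] at hη
    exact zero_ne_one hη
  have hηprim : IsPrimitiveRoot η p := by
    have h1 : orderOf η = p := orderOf_eq_prime hη hη1
    rw [← h1]; exact IsPrimitiveRoot.orderOf η
  have hσα' : σ α = η⁻¹ * α := by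
    rw [eq_inv_mul_iff_mul_eq₀ hη0]; exact hσα
  have hσiα : ∀ i : ℕ, (σ ^ i) α = (η⁻¹) ^ i * α := by
    intro i
    induction i with
    | zero => simp
    | succ i ih =>
      rw [pow_succ']
      have : (σ * σ ^ i) α = σ ((σ ^ i) α) := rfl
      rw [this, ih, map_mul, map_pow, map_inv₀, hσC η hηF, hσα']
      ring
  have hηinv : IsPrimitiveRoot η⁻¹ p := hηprim.inv
  obtain ⟨c0', hc0'⟩ := IsAlgClosed.exists_pow_nat_eq (-(p : C)) (n := p - 1)
    (by have := hprime.one_lt; omega)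
  have hc0 : (c0' : N) ^ (p - 1) = -p := by
    have := congrArg Subtype.val hc0'
    push_cast at this
    exact this
  have K : KData w p C F α (c0' : N) := by
    refine ⟨hp, hp0, S.alg, hCF, hval, hα0, ?_, c0'.2, hc0,
      fun i => σ ^ (i : ℕ), fun i => (η⁻¹) ^ (i : ℕ), fun i y => hσiw i y, fun i y hy => hσiF i y hy,
      fun i => hσiα i, ?_, ?_⟩
    · rw [← hσF _ (F1.pow_mem hαF1 p), map_pow, hσα', mul_pow, inv_pow, hη, inv_one, one_mul]
    · intro i
      rw [← pow_mul, mul_comm, pow_mul, hηinv.pow_eq_one, one_pow]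
    · intro i j hij
      exact Fin.ext (hηinv.pow_inj i.2 j.2 hij)
  obtain ⟨n, t, γ, P⟩ := Stab5_460.exists_pdata S hp0 hHF hgood
  obtain ⟨β, hβ1, hβon, v, hv, e, he, c, hc, hv0, hc0ne, hβ⟩ := kummer_step K P
  have hβF1 : β ∈ F1 := by
    rw [hβ]
    exact F1.div_mem (F1.sub_mem (F1.mul_mem (hFF1 hv) hαF1) (hFF1 he)) (hFF1 hc)
  refine ⟨p, fun i => β ^ (i : ℕ), fun i => F1.pow_mem hβF1 _, fun i => pow_le_one_w w hβ1 _,
    hβon, fun y hy => ?_⟩
  -- spanning
  have hfk : ∀ k : ℕ, ∃ f ∈ F, lag p σ (η ^ k) y = f * α ^ k := by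
    intro k
    refine ⟨lag p σ (η ^ k) y / α ^ k, ?_, by field_simp⟩
    have hmem : lag p σ (η ^ k) y ∈ F1 := hlagF1 _ (F.pow_mem hηF k) y hy
    rw [← hσF _ (F1.div_mem hmem (F1.pow_mem hαF1 k)), map_div₀, map_pow, hσα', mul_pow]
    have h1 := lag_eigen hprime.pos σ (η := η ^ k)
      (by rw [← pow_mul, mul_comm, pow_mul, hη, one_pow]) (hσC _ (F.pow_mem hηF k)) (hσp y hy)
    have h2 : σ (lag p σ (η ^ k) y) = (η ^ k)⁻¹ * lag p σ (η ^ k) y := by
      rw [eq_inv_mul_iff_mul_eq₀ (pow_ne_zero k hη0)]; exact h1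
    rw [h2, inv_pow]
    have h3 : (η ^ k)⁻¹ ≠ 0 := inv_ne_zero (pow_ne_zero k hη0)
    rw [mul_div_mul_left _ _ h3]
  choose f hfF hf using hfk
  have hysum : y = ∑ k ∈ Finset.range p, (f k / p) * α ^ k := by
    have h1 := lag_sum hprime.pos σ hηprim y
    simp only [hf] at h1
    have h2 : ∑ k ∈ Finset.range p, (f k / p) * α ^ k = (∑ k ∈ Finset.range p, f k * α ^ k) / p := by
      rw [Finset.sum_div]
      exact Finset.sum_congr rfl fun k _ => by ring
    rw [h2, h1]; field_simp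
  have hpF : (p : N) ∈ F := natCast_mem F p
  let q : F[X] := ∑ k ∈ Finset.range p, Polynomial.C (⟨f k / p, F.div_mem (hfF k) hpF⟩ : F) * X ^ k
  let l : F[X] := Polynomial.C (⟨c / v, F.div_mem hc hv⟩ : F) * X + Polynomial.C (⟨e / v, F.div_mem he hv⟩ : F)
  have hl : aeval β l = α := by
    simp only [l, map_add, map_mul, aeval_C, aeval_X]
    have h1 : algebraMap F N ⟨c / v, F.div_mem hc hv⟩ = c / v := rfl
    have h2 : algebraMap F N ⟨e / v, F.div_mem he hv⟩ = e / v := rfl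
    rw [h1, h2, hβ]
    field_simp
    ring
  have hq : aeval α q = y := by
    rw [hysum]
    simp only [q, map_sum, map_mul, aeval_C, map_pow, aeval_X]
    rfl
  have hqd : q.natDegree < p := by
    have : q.natDegree ≤ p - 1 := by
      refine natDegree_sum_le_of_forall_le _ _ fun k hk => ?_
      refine (natDegree_C_mul_X_pow_le _ _).trans ?_
      rw [Finset.mem_range] at hk
      omega
    have := hprime.pos
    omega
  have hld : l.natDegree ≤ 1 := natDegree_linear_le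
  have hcomp : (q.comp l).natDegree < p := by
    refine lt_of_le_of_lt natDegree_comp_le ?_
    calc q.natDegree * l.natDegree ≤ q.natDegree * 1 := Nat.mul_le_mul_left _ hld
      _ < p := by rw [mul_one]; exact hqd
  refine ⟨fun i => ((q.comp l).coeff i : N), fun i => ((q.comp l).coeff i).2, ?_⟩
  have h4 : aeval β (q.comp l) = y := by
    rw [aeval_comp, hl, hq]
  rw [← h4, aeval_eq_sum_range' hcomp, Finset.sum_range]
  rfl

end step

end Crest.Agent.R013.Stab7_460
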