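import Mathlib
import Crest.Agent.R013.Stab7_460

/-!
# STAB, part 8: finite Galois extensions
-/

namespace Crest.Agent.R013.Stab8_460

open Polynomial Crest.Agent.R013.Stab2_460 Crest.Agent.R013.Stab3_460
  Crest.Agent.R013.Stab6_460 Crest.Agent.R013.Stab7_460
open scoped NNReal IntermediateField

variable {N : Type*} [Field N] {w : Valuation N ℝ≥0} {p : ℕ}

/-! ### linear independence of residues -/

lemma on_of_li {ι : Type*} [Fintype ι] (F : Subfield N) (b : ι → N) (hb : ∀ i, w (b i) ≤ 1)
    (hli : LinearIndependent (resF w F) (fun i => r w (b i))) : ON w F b := by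
  refine on_of_unit w F b fun c hc hc1 hlt i => ?_
  rw [Fintype.linearIndependent_iff] at hli
  have h1 := hli (fun i => ⟨r w (c i), r_mem_resF w (hc i) (hc1 i)⟩) (by
    have h2 : r w (∑ j, c j * b j) = 0 := (r_eq_zero w hlt.le).2 hlt
    rw [r_sum w _ _ (fun j _ => by rw [map_mul]; exact mul_le_one' (hc1 j) (hb j))] at h2
    rw [← h2]
    refine Finset.sum_congr rfl fun j _ => ?_
    rw [r_mul w (hc1 j) (hb j)]
    rfl) i
  have h3 : r w (c i) = 0 := congrArg Subtype.val h1
  exact (r_eq_zero w (hc1 i)).1 h3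

lemma li_of_on {ι : Type*} [Fintype ι] {F : Subfield N} {b : ι → N} (h : ON w F b) :
    LinearIndependent F b := by
  rw [Fintype.linearIndependent_iff]
  intro g hg i
  have h1 := h (fun i => (g i : N)) (fun i => (g i).2) i
  have h2 : ∑ j, (g j : N) * b j = 0 := hg
  rw [h2, map_zero] at h1
  have h3 : (g i : N) = 0 := w.zero_iff.1 (le_antisymm h1 zero_le)
  exact Subtype.ext h3

lemma finite_res (H : Subfield N) [FiniteDimensional H N] : FiniteDimensional (resF w H) (kap w) := by
  classical
  have h : Module.rank (resF w H) (kap w) ≤ Module.finrank H N := by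
    refine rank_le fun s hs => ?_
    choose b hb1 hb using fun z : s => r_surj w (z : kap w)
    have h1 : ON w H b := on_of_li H b hb1 (by
      have : (fun i => r w (b i)) = fun i : s => (i : kap w) := funext fun i => hb i
      rw [this]; exact hs)
    have h2 := (li_of_on h1).fintype_card_le_finrank
    simpa using h2
  exact Module.rank_lt_aleph0_iff.1 (h.trans_lt (Cardinal.natCast_lt_aleph0))

/-! ### lifting polynomials -/

/-- `q` lifts `q'`. -/
def Lifts (H : Subfield N) (q : H[X]) (q' : (resF w H)[X]) : Prop :=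
  ∀ i, w (q.coeff i : N) ≤ 1 ∧ r w (q.coeff i : N) = (q'.coeff i : kap w)

lemma lifts_eval {H : Subfield N} {q : H[X]} {q' : (resF w H)[X]} (h : Lifts H q q') {y : N}
    (hy : w y ≤ 1) : w (aeval y q) ≤ 1 ∧ r w (aeval y q) = aeval (r w y) q' := by
  classical
  set n := max q.natDegree q'.natDegree + 1 with hn
  have h1 : aeval y q = ∑ i ∈ Finset.range n, (q.coeff i : N) * y ^ i :=
    aeval_eq_sum_range' (by omega) y
  have h2 : aeval (r w y) q' = ∑ i ∈ Finset.range n, (q'.coeff i : kap w) * r w y ^ i :=
    aeval_eq_sum_range' (by omega) (r w y)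
  have h3 : ∀ i ∈ Finset.range n, w ((q.coeff i : N) * y ^ i) ≤ 1 := fun i _ => by
    rw [map_mul]; exact mul_le_one' (h i).1 (pow_le_one_w w hy i)
  refine ⟨?_, ?_⟩
  · rw [h1]; exact le_sum w _ _ h3
  · rw [h1, h2, r_sum w _ _ h3]
    refine Finset.sum_congr rfl fun i _ => ?_
    rw [r_mul w (h i).1 (pow_le_one_w w hy i), r_pow w hy, (h i).2]

lemma lifts_derivative {H : Subfield N} {q : H[X]} {q' : (resF w H)[X]} (h : Lifts H q q') :
    Lifts H (derivative q) (derivative q') := by
  intro i
  rw [coeff_derivative, coeff_derivative]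
  push_cast
  have h1 : w ((i : N) + 1) ≤ 1 := le_add w (natCast_le_one w i) (map_one w).le
  refine ⟨?_, ?_⟩
  · rw [map_mul]; exact mul_le_one' (h _).1 h1
  · rw [r_mul w (h _).1 h1, (h _).2, r_add w (natCast_le_one w i) (map_one w).le, r_natCast, r_one]

lemma exists_lifts (H : Subfield N) (q' : (resF w H)[X]) : ∃ q : H[X], Lifts H q q' ∧
    q.natDegree ≤ q'.natDegree ∧ (q'.Monic → q.Monic ∧ q.natDegree = q'.natDegree) := by
  classical
  have hL : ∀ z : resF w H, ∃ y : H, w (y : N) ≤ 1 ∧ r w (y : N) = (z : kap w) := by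
    rintro ⟨z, y, hy, hy1, hyz⟩
    exact ⟨⟨y, hy⟩, hy1, hyz⟩
  choose L hL1 hL2 using hL
  let L' : resF w H → H := fun z => if z = 1 then 1 else L z
  have hL'1 : ∀ z, w (L' z : N) ≤ 1 := by
    intro z
    simp only [L']
    split_ifs
    · push_cast; simp
    · exact hL1 z
  have hL'2 : ∀ z, r w (L' z : N) = (z : kap w) := by
    intro z
    simp only [L']
    split_ifs with h
    · subst h; push_cast; exact r_one w
    · exact hL2 z
  set d := q'.natDegree with hd
  let q : H[X] := ∑ i ∈ Finset.range (d + 1), Polynomial.C (L' (q'.coeff i)) * X ^ i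
  have hcoeff : ∀ i, q.coeff i = if i ∈ Finset.range (d + 1) then L' (q'.coeff i) else 0 := by
    intro i
    simp only [q, finsetSum_coeff, coeff_C_mul, coeff_X_pow, mul_ite, mul_one, mul_zero]
    rw [Finset.sum_ite_eq]
  have hdeg : q.natDegree ≤ d := by
    refine natDegree_sum_le_of_forall_le _ _ fun i hi => ?_
    refine (natDegree_C_mul_X_pow_le _ _).trans ?_
    rw [Finset.mem_range] at hi
    omega
  refine ⟨q, fun i => ?_, hdeg, fun hm => ?_⟩
  · rw [hcoeff]
    split_ifs with h
    · exact ⟨hL'1 _, hL'2 _⟩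
    · rw [Finset.mem_range, not_lt] at h
      have : q'.coeff i = 0 := coeff_eq_zero_of_natDegree_lt (by omega)
      rw [this]
      push_cast
      exact ⟨by simp, r_zero w⟩
  · have h1 : q.coeff d = 1 := by
      rw [hcoeff, if_pos (by simp)]
      have : q'.coeff d = 1 := hm
      rw [this]; simp [L']
    have h2 : q.Monic := monic_of_natDegree_le_of_coeff_eq_one d hdeg h1
    refine ⟨h2, le_antisymm hdeg ?_⟩
    refine le_natDegree_of_ne_zero ?_
    rw [h1]; exact one_ne_zero

/-! ### the unramified part -/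

section

variable {C H : Subfield N} {x : N} 

/-- the separable part of the residue field is generated by one element. -/
lemma exists_residue_gen [hpp : Fact p.Prime] (hp : w (p : N) < 1) (H : Subfield N)
    [FiniteDimensional H N] : ∃ z : kap w, IsSeparable (resF w H) z ∧
      ∀ y : kap w, ∃ m : ℕ, y ^ p ^ m ∈ (resF w H)⟮z⟯ := by
  have hfin := finite_res (w := w) H
  have hchar := charP_kap w p hp
  set K := resF w H with hK
  obtain ⟨z, hz⟩ := Field.exists_primitive_element K (separableClosure K (kap w))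
  refine ⟨(z : kap w), ?_, ?_⟩
  · exact mem_separableClosure_iff.1 z.2
  · intro y
    have hc : CharP (separableClosure K (kap w)) p :=
      ((algebraMap (separableClosure K (kap w)) (kap w)).charP_iff
        (algebraMap (separableClosure K (kap w)) (kap w)).injective p).2 hchar
    have he : ExpChar (separableClosure K (kap w)) p := ExpChar.prime hpp.out
    obtain ⟨m, u, hu⟩ := IsPurelyInseparable.pow_mem (separableClosure K (kap w)) p y
    refine ⟨m, ?_⟩
    rw [← hu]
    have h1 : u ∈ (⊤ : IntermediateField K (separableClosure K (kap w))) := trivial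
    rw [← hz] at h1
    have h2 : K⟮(z : kap w)⟯ = (K⟮z⟯).map (separableClosure K (kap w)).val := by
      rw [IntermediateField.adjoin_map, Set.image_singleton]; rfl
    rw [h2]
    exact ⟨u, h1, rfl⟩

end

end Crest.Agent.R013.Stab8_460
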