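import Mathlib
import Crest.Agent.R013.Stab8_460

/-!
# STAB, part 9: finite Galois extensions: inertia, the tower, the main theorem
-/

namespace Crest.Agent.R013.Stab9_460

open Polynomial Crest.Agent.R013.Stab2_460 Crest.Agent.R013.Stab3_460
  Crest.Agent.R013.Stab6_460 Crest.Agent.R013.Stab7_460 Crest.Agent.R013.Stab8_460
open scoped NNReal IntermediateField

variable {N : Type*} [Field N] {w : Valuation N ℝ≥0} {p : ℕ}

/-- Hensel's lemma for `N` and polynomials over `H`. -/
def Hens (w : Valuation N ℝ≥0) (H : Subfield N) : Prop :=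
  ∀ g : H[X], g.Monic → (∀ i, w (g.coeff i : N) ≤ 1) → ∀ θ0 : N, w θ0 ≤ 1 →
    w (aeval θ0 g) < 1 → w (aeval θ0 (derivative g)) = 1 → ∃ θ : N, aeval θ g = 0 ∧ w (θ - θ0) < 1

/-- the group preserving `w`. -/
def Inv (w : Valuation N ℝ≥0) (H : Subfield N) : Prop := ∀ (σ : N ≃ₐ[H] N) (y : N), w (σ y) = w y

section

variable {C H : Subfield N} {x : N} (S : Setup w p C H x) [FiniteDimensional H N] [IsGalois H N]
  (hinv : Inv w H)

include S hinv in
lemma val_N (y : N) (hy : y ≠ 0) : ∃ c ∈ C, w y = w c := by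
  classical
  have hCalg := S.alg
  have h1 := Algebra.norm_eq_prod_automorphisms (K := H) (L := N) y
  have h2 : w (algebraMap H N (Algebra.norm H y)) = w y ^ (Fintype.card (N ≃ₐ[H] N)) := by
    rw [h1, map_prod, Finset.prod_congr rfl fun σ _ => hinv σ y, Finset.prod_const,
      Finset.card_univ]
  have hn0 : (algebraMap H N (Algebra.norm H y)) ≠ 0 := by
    rw [Ne, ← w.zero_iff, h2]
    exact pow_ne_zero _ (w.ne_zero_iff.2 hy)
  obtain ⟨c, -, hc⟩ := value_H S (Algebra.norm H y).2 hn0
  have hcard : 0 < Fintype.card (N ≃ₐ[H] N) := Fintype.card_pos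
  obtain ⟨d, hd⟩ := IsAlgClosed.exists_pow_nat_eq c hcard
  refine ⟨d, d.2, ?_⟩
  have h3 : w (d : N) ^ (Fintype.card (N ≃ₐ[H] N)) = w (c : N) := by
    rw [← map_pow, ← hd]; push_cast; rfl
  have h4 : w (((Algebra.norm H y : H)) : N) = w (c : N) := hc
  have h5 : w y ^ (Fintype.card (N ≃ₐ[H] N)) = w (d : N) ^ (Fintype.card (N ≃ₐ[H] N)) := by
    rw [h3, ← h4]; exact h2.symm
  exact (pow_left_inj₀ zero_le zero_le hcard.ne').1 h5

/-- generator of the unramified part. -/
lemma exists_theta [hpp : Fact p.Prime] (hp : w (p : N) < 1) (H : Subfield N)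
    [FiniteDimensional H N] (hens : Hens w H) : ∃ θ : N, w θ ≤ 1 ∧
      Good w H (H⟮θ⟯).toSubfield ∧
      ∀ y : N, w y ≤ 1 → ∃ m : ℕ, ∃ q : H[X], w (y ^ p ^ m - aeval θ q) < 1 := by
  classical
  have hfin := finite_res (w := w) H
  obtain ⟨z, hzsep, hz⟩ := exists_residue_gen (w := w) hp H
  set K := resF w H with hK
  have hzint : IsIntegral K z := Algebra.IsIntegral.isIntegral z
  set g' := minpoly K z with hg'
  obtain ⟨g, hgl, -, hgm⟩ := exists_lifts H g'
  obtain ⟨hgmonic, hgdeg⟩ := hgm (minpoly.monic hzint)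
  obtain ⟨θ0, hθ01, hθ0⟩ := r_surj w z
  have h1 : w (aeval θ0 g) < 1 := by
    obtain ⟨h2, h3⟩ := lifts_eval hgl hθ01
    rw [← r_eq_zero w h2, h3, hθ0]
    exact minpoly.aeval K z
  have h4 : w (aeval θ0 (derivative g)) = 1 := by
    obtain ⟨h2, h3⟩ := lifts_eval (lifts_derivative hgl) hθ01
    refine le_antisymm h2 ?_
    by_contra h5
    rw [not_le, ← r_eq_zero w h2, h3, hθ0] at h5
    exact hzsep.aeval_derivative_ne_zero (minpoly.aeval K z) h5
  obtain ⟨θ, hθg, hθ⟩ := hens g hgmonic (fun i => (hgl i).1) θ0 hθ01 h1 h4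
  have hθ1 : w θ ≤ 1 := by
    have := le_add w hθ.le hθ01
    simpa using this
  have hrθ : r w θ = z := by rw [← hθ0, r_eq w hθ1 hθ01]; exact hθ
  refine ⟨θ, hθ1, ?_, ?_⟩
  · refine ⟨g'.natDegree, fun i => θ ^ (i : ℕ), fun i => ?_, fun i => pow_le_one_w w hθ1 _, ?_,
      fun y hy => ?_⟩
    · exact (H⟮θ⟯).toSubfield.pow_mem (IntermediateField.mem_adjoin_simple_self H θ) _
    · refine on_of_li H _ (fun i => pow_le_one_w w hθ1 _) ?_
      have h6 := linearIndependent_pow (K := K) z
      have h7 : (fun i : Fin g'.natDegree => r w (θ ^ (i : ℕ))) =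
          fun i : Fin g'.natDegree => z ^ (i : ℕ) := by
        funext i; rw [r_pow w hθ1, hrθ]
      rw [h7]; exact h6
    · have hθint : IsIntegral H θ := Algebra.IsIntegral.isIntegral θ
      have hy' : y ∈ (H⟮θ⟯).toSubalgebra := hy
      rw [IntermediateField.adjoin_simple_toSubalgebra_of_isAlgebraic hθint.isAlgebraic,
        Algebra.adjoin_singleton_eq_range_aeval] at hy'
      obtain ⟨q, hq⟩ := hy'
      have h8 : aeval θ (q %ₘ g) = y := by
        rw [← hq]; exact aeval_modByMonic_eq_self_of_root hθg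
      have hpos : 0 < g.natDegree := by
        rw [hgdeg]; exact minpoly.natDegree_pos hzint
      have hg1 : g ≠ 1 := by rintro rfl; simp at hpos
      have h9 : (q %ₘ g).natDegree < g'.natDegree := by
        rw [← hgdeg]; exact natDegree_modByMonic_lt q hgmonic hg1
      refine ⟨fun i => ((q %ₘ g).coeff i : N), fun i => ((q %ₘ g).coeff i).2, ?_⟩
      rw [← h8, aeval_eq_sum_range' h9, Finset.sum_range]
      rfl
  · intro y hy
    obtain ⟨m, hm⟩ := hz (r w y)
    have hm' : r w y ^ p ^ m ∈ (K⟮z⟯).toSubalgebra := hm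
    rw [IntermediateField.adjoin_simple_toSubalgebra_of_isAlgebraic hzint.isAlgebraic,
      Algebra.adjoin_singleton_eq_range_aeval] at hm'
    obtain ⟨q', hq'⟩ := hm'
    obtain ⟨q, hql, -, -⟩ := exists_lifts H q'
    obtain ⟨h2, h3⟩ := lifts_eval hql hθ1
    refine ⟨m, q, ?_⟩
    rw [← r_eq w (pow_le_one_w w hy _) h2, h3, r_pow w hy, hrθ]
    exact hq'.symm

lemma aut_aeval {H : Subfield N} (σ : N ≃ₐ[H] N) {θ : N} (hσ : σ θ = θ) (q : H[X]) :
    σ (aeval θ q) = aeval θ q := by
  have := (aeval_algHom_apply (σ : N →ₐ[H] N) θ q)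
  have h2 : (σ : N →ₐ[H] N) θ = θ := hσ
  rw [h2] at this
  exact this.symm

include S hinv in
/-- elements of the inertia group act trivially on residues. -/
lemma inertia [hpp : Fact p.Prime] {θ : N}
    (hθ : ∀ y : N, w y ≤ 1 → ∃ m : ℕ, ∃ q : H[X], w (y ^ p ^ m - aeval θ q) < 1)
    (σ : N ≃ₐ[H] N) (hσ : σ θ = θ) (y : N) (hy : y ≠ 0) : w (σ y - y) < w y := by
  have hchar := charP_kap w p S.hp
  obtain ⟨c, hc, hyc⟩ := val_N S hinv y hy
  have hwy : 0 < w y := pos_iff_ne_zero.2 (w.ne_zero_iff.2 hy)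
  have hc0 : c ≠ 0 := by rw [← w.ne_zero_iff, ← hyc]; exact hwy.ne'
  set y' := y / c with hy'
  have hy'1 : w y' = 1 := by rw [hy', map_div₀, hyc, div_self (by rw [← hyc]; exact hwy.ne')]
  obtain ⟨m, q, hq⟩ := hθ y' hy'1.le
  have h1 : w ((σ y') ^ p ^ m - aeval θ q) < 1 := by
    have := hinv σ (y' ^ p ^ m - aeval θ q)
    rw [map_sub, map_pow, aut_aeval σ hσ] at this
    rw [this]; exact hq
  have h2 : w ((σ y') ^ p ^ m - y' ^ p ^ m) < 1 := by
    have := lt_sub w h1 hq
    simpa using this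
  have hσy1 : w (σ y') ≤ 1 := by rw [hinv]; exact hy'1.le
  rw [← r_eq w (pow_le_one_w w hσy1 _) (pow_le_one_w w hy'1.le _), r_pow w hσy1,
    r_pow w hy'1.le] at h2
  have h3 : r w (σ y') = r w y' := by
    have hinj : Function.Injective (iterateFrobenius (kap w) p m) :=
      (iterateFrobenius (kap w) p m).injective
    apply hinj
    rw [iterateFrobenius_def, iterateFrobenius_def]
    exact h2
  rw [r_eq w hσy1 hy'1.le] at h3
  have hσc : σ c = c := by
    have : σ (algebraMap H N ⟨c, S.CH hc⟩) = algebraMap H N ⟨c, S.CH hc⟩ := σ.commutes _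
    exact this
  have e : σ y - y = (σ y' - y') * c := by
    have h4 : y = y' * c := by rw [hy']; field_simp
    conv_lhs => rw [h4]
    rw [map_mul, hσc]; ring
  rw [e, map_mul, hyc]
  calc w (σ y' - y') * w c < 1 * w c := mul_lt_mul_of_pos_right h3 (by rw [← hyc]; exact hwy)
    _ = w c := one_mul _

include S hinv in
/-- the inertia group is a `p`-group. -/
lemma inertia_card [hpp : Fact p.Prime] {θ : N}
    (hθ : ∀ y : N, w y ≤ 1 → ∃ m : ℕ, ∃ q : H[X], w (y ^ p ^ m - aeval θ q) < 1) :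
    ∃ n, Nat.card (IntermediateField.fixingSubgroup H⟮θ⟯) = p ^ n := by
  classical
  refine ⟨_, Nat.eq_prime_pow_of_unique_prime_dvd Nat.card_pos.ne' (p := p) ?_⟩
  intro q hq hdvd
  by_contra hqp
  have : Fact q.Prime := ⟨hq⟩
  obtain ⟨σ', hσ'⟩ := exists_prime_orderOf_dvd_card' q hdvd
  set σ : N ≃ₐ[H] N := (σ' : N ≃ₐ[H] N) with hσdef
  have hσq : orderOf σ = q := by rw [hσdef, Subgroup.orderOf_coe]; exact hσ'
  have hθ1 : ∀ i : ℕ, (σ ^ i) θ = θ := by
    intro i
    have h1 : σ ^ i ∈ IntermediateField.fixingSubgroup H⟮θ⟯ := pow_mem σ'.2 i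
    rw [IntermediateField.mem_fixingSubgroup_iff] at h1
    exact h1 θ (IntermediateField.mem_adjoin_simple_self H θ)
  have hne : ∃ z, σ z ≠ z := by
    by_contra h
    push Not at h
    have : σ = 1 := AlgEquiv.ext h
    rw [this, orderOf_one] at hσq
    exact hq.one_lt.ne hσq
  obtain ⟨z, hz⟩ := hne
  set y := z - σ z with hy
  have hy0 : y ≠ 0 := by rw [hy, sub_ne_zero]; exact fun h => hz h.symm
  have hwy : 0 < w y := pos_iff_ne_zero.2 (w.ne_zero_iff.2 hy0)
  have hsum : ∑ i ∈ Finset.range q, (σ ^ i) y = 0 := by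
    have h1 : ∀ i : ℕ, (σ ^ i) y = (σ ^ i) z - (σ ^ (i + 1)) z := by
      intro i
      rw [hy, map_sub, pow_succ]
      rfl
    simp only [h1]
    rw [Finset.sum_range_sub', ← hσq, pow_orderOf_eq_one, pow_zero, sub_self]
  have h2 : w (∑ i ∈ Finset.range q, ((σ ^ i) y - y)) < w y :=
    lt_sum w _ _ hwy fun i _ => inertia S hinv hθ (σ ^ i) (hθ1 i) y hy0
  rw [Finset.sum_sub_distrib, hsum, zero_sub, Valuation.map_neg, Finset.sum_const,
    Finset.card_range, nsmul_eq_mul, map_mul] at h2
  have h3 : w (q : N) = 1 := by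
    refine le_antisymm (natCast_le_one w q) ?_
    by_contra h4
    rw [not_le, ← r_eq_zero w (natCast_le_one w q), r_natCast] at h4
    have hchar := charP_kap w p S.hp
    have h5 := (CharP.cast_eq_zero_iff (kap w) p q).1 h4
    exact hqp ((Nat.prime_dvd_prime_iff_eq hpp.out hq).1 h5).symm
  rw [h3, one_mul] at h2
  exact lt_irrefl _ h2

include S hinv in
/-- the tower. -/
lemma tower [hpp : Fact p.Prime] (hp0 : (p : N) ≠ 0) (n : ℕ) :
    ∀ S' : Subgroup (N ≃ₐ[H] N), Nat.card S' = p ^ n →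
      Good w H (IntermediateField.fixedField S').toSubfield → Good w H ⊤ := by
  classical
  have hprime := hpp.out
  induction n with
  | zero =>
    intro S' hS' hgood
    rw [pow_zero] at hS'
    have h1 : S' = ⊥ := Subgroup.card_eq_one.1 hS'
    rw [h1, IntermediateField.fixedField_bot] at hgood
    convert hgood
    ext y; simp
  | succ n ih =>
    intro S' hS' hgood
    -- a normal subgroup of index `p`
    obtain ⟨K, hK⟩ := Sylow.exists_subgroup_card_pow_prime (G := S') p (n := n)
      (by rw [hS']; exact pow_dvd_pow p (Nat.le_succ n))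
    have hindex : K.index = p := by
      have h1 := K.card_mul_index
      rw [hK, hS', pow_succ] at h1
      exact Nat.eq_of_mul_eq_mul_left (pow_pos hprime.pos n) h1
    have hnormal : K.Normal := by
      refine Subgroup.normal_of_index_eq_minFac_card ?_
      rw [hindex, hS', Nat.Prime.pow_minFac hprime (Nat.succ_ne_zero n)]
    set T : Subgroup (N ≃ₐ[H] N) := K.map S'.subtype with hT
    have hTcard : Nat.card T = p ^ n := by
      rw [← hK]
      exact (Nat.card_congr (K.equivMapOfInjective S'.subtype S'.subtype_injective).toEquiv).symm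
    have hTS' : T ≤ S' := Subgroup.map_subtype_le K
    -- an element outside
    have hKtop : K ≠ ⊤ := by
      rintro rfl
      rw [Subgroup.index_top] at hindex
      exact hprime.one_lt.ne hindex
    obtain ⟨σ', hσ'⟩ : ∃ σ' : S', σ' ∉ K := by
      by_contra h
      push Not at h
      exact hKtop ((Subgroup.eq_top_iff' K).2 h)
    set σ : N ≃ₐ[H] N := (σ' : N ≃ₐ[H] N) with hσdef
    have hquot : Nat.card (S' ⧸ K) = p := by rw [← hindex]; rfl
    have hσbar : (QuotientGroup.mk σ' : S' ⧸ K) ≠ 1 := by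
      rwa [Ne, QuotientGroup.eq_one_iff]
    set F := (IntermediateField.fixedField S').toSubfield with hF
    set F1 := (IntermediateField.fixedField T).toSubfield with hF1
    have memF : ∀ y, y ∈ F ↔ ∀ τ ∈ S', τ y = y := fun y =>
      IntermediateField.mem_fixedField_iff S' y
    have memF1 : ∀ y, y ∈ F1 ↔ ∀ τ ∈ T, τ y = y := fun y =>
      IntermediateField.mem_fixedField_iff T y
    have memT : ∀ τ : S', (τ : N ≃ₐ[H] N) ∈ T ↔ τ ∈ K := by
      intro τ
      rw [hT, Subgroup.mem_map]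
      constructor
      · rintro ⟨τ', hτ', h⟩
        have : τ' = τ := Subtype.ext h
        rwa [← this]
      · intro h; exact ⟨τ, h, rfl⟩
    have hHF : H ≤ F := by
      intro h hh
      rw [memF]
      intro τ _
      exact τ.commutes ⟨h, hh⟩
    have hFF1 : F ≤ F1 := by
      intro y hy
      rw [memF] at hy
      rw [memF1]
      exact fun τ hτ => hy τ (hTS' hτ)
    have hσpow : ∀ i : ℕ, ∀ y : N, ((σ : N ≃+* N) ^ i) y = (σ ^ i) y := by
      intro i
      induction i with
      | zero => intro y; rfl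
      | succ i ih =>
        intro y
        rw [pow_succ', pow_succ']
        have h1 : ((σ : N ≃+* N) * (σ : N ≃+* N) ^ i) y = (σ : N ≃+* N) (((σ : N ≃+* N) ^ i) y) := rfl
        have h2 : (σ * σ ^ i) y = σ ((σ ^ i) y) := rfl
        rw [h1, h2, ih]; rfl
    have hstep : Good w F F1 := by
      refine one_step S.hp hp0 S hHF hFF1 hgood (fun y hy => val_N S hinv y hy) (σ : N ≃+* N)
        (fun y => hinv σ y) ?_ ?_ ?_ ?_
      · intro y hy
        rw [memF1] at hy ⊢
        intro τ hτ
        have hτ' : τ ∈ S' := hTS' hτ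
        have h1 : (σ'⁻¹ * ⟨τ, hτ'⟩ * σ' : S') ∈ K := by
          have := hnormal.conj_mem ⟨τ, hτ'⟩ ((memT ⟨τ, hτ'⟩).1 hτ) σ'⁻¹
          simpa using this
        have h2 := hy _ ((memT _).2 h1)
        have h3 : ((σ'⁻¹ * ⟨τ, hτ'⟩ * σ' : S') : N ≃ₐ[H] N) y = σ⁻¹ (τ (σ y)) := rfl
        rw [h3] at h2
        have h4 := congrArg σ h2
        have h5 : σ (σ⁻¹ (τ (σ y))) = τ (σ y) := by
          have : (σ * σ⁻¹) (τ (σ y)) = τ (σ y) := by rw [mul_inv_cancel]; rfl
          exact this
        rw [h5] at h4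
        exact h4
      · intro y hy
        rw [hσpow]
        rw [memF1] at hy
        have h1 : σ' ^ p ∈ K := by
          rw [← QuotientGroup.eq_one_iff, QuotientGroup.mk_pow, ← hquot]
          exact pow_card_eq_one'
        exact hy _ ((memT (σ' ^ p)).2 h1)
      · intro y hy
        constructor
        · intro h
          rw [memF]
          intro τ hτ
          -- τ = σ ^ i * κ
          have hp' : (Nat.card (S' ⧸ K)).Prime := by rw [hquot]; exact hprime
          have : Fact (Nat.card (S' ⧸ K)).Prime := ⟨hp'⟩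
          have h1 := mem_zpowers_of_prime_card (G := S' ⧸ K) rfl hσbar (g' := QuotientGroup.mk ⟨τ, hτ⟩)
          obtain ⟨i, hi⟩ := Subgroup.mem_zpowers_iff.1 h1
          have h2 : ((σ' ^ i)⁻¹ * ⟨τ, hτ⟩ : S') ∈ K := by
            rw [← QuotientGroup.eq]
            rw [← hi]; rfl
          have h3 := (memF1 y).1 hy _ ((memT _).2 h2)
          have h4 : (((σ' ^ i)⁻¹ * ⟨τ, hτ⟩ : S') : N ≃ₐ[H] N) y = (σ ^ i)⁻¹ (τ y) := rfl
          rw [h4] at h3
          have hfix : σ ∈ MulAction.stabilizer (N ≃ₐ[H] N) y := by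
            rw [MulAction.mem_stabilizer_iff]; exact h
          have h5 : σ ^ i ∈ MulAction.stabilizer (N ≃ₐ[H] N) y := zpow_mem hfix i
          rw [MulAction.mem_stabilizer_iff] at h5
          have h6 : (σ ^ i) y = y := h5
          have h7 := congrArg (σ ^ i) h3
          have h8 : (σ ^ i) ((σ ^ i)⁻¹ (τ y)) = τ y := by
            have : ((σ ^ i) * (σ ^ i)⁻¹) (τ y) = τ y := by rw [mul_inv_cancel]; rfl
            exact this
          rw [h8, h6] at h7
          exact h7
        · intro h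
          exact (memF y).1 h σ σ'.2
      · by_contra hcon
        push Not at hcon
        have h1 : σ ∈ IntermediateField.fixingSubgroup (IntermediateField.fixedField T) := by
          rw [IntermediateField.mem_fixingSubgroup_iff]
          exact fun y hy => hcon y hy
        rw [IntermediateField.fixingSubgroup_fixedField] at h1
        exact hσ' ((memT σ').1 h1)
    exact ih T hTcard (good_trans w hHF hFF1 hgood hstep)

include S hinv in
/-- **STAB for finite Galois extensions**. -/
theorem stab_galois [hpp : Fact p.Prime] (hp0 : (p : N) ≠ 0) (hens : Hens w H) :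
    Good w H ⊤ := by
  obtain ⟨θ, -, hgood, hθ⟩ := exists_theta S.hp H hens
  obtain ⟨n, hn⟩ := inertia_card S hinv hθ
  refine tower S hinv hp0 n _ hn ?_
  rw [IsGalois.fixedField_fixingSubgroup]
  exact hgood

end

end Crest.Agent.R013.Stab9_460
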