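import Mathlib
import Crest.Agent.R013.Stab9_460

/-!
# STAB, part 10: abstract form, subspaces, Hensel in an algebraically closed field, final theorem
-/

namespace Crest.Agent.R013.Stab10_460

open Polynomial Crest.Agent.R013.Stab2_460 Crest.Agent.R013.Stab3_460
  Crest.Agent.R013.Stab6_460 Crest.Agent.R013.Stab7_460 Crest.Agent.R013.Stab8_460
  Crest.Agent.R013.Stab9_460
open scoped NNReal IntermediateField

/-! ### Hensel's lemma -/

section hensel

variable {H Om : Type*} [Field H] [Field Om] [Algebra H Om] [IsAlgClosed Om] [CharZero H]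
  [Algebra.IsAlgebraic H Om] (w : Valuation Om ℝ≥0)

omit [IsAlgClosed Om] [CharZero H] [Algebra.IsAlgebraic H Om] in
/-- roots of a monic integral polynomial are integral. -/
lemma root_le_one {g : Om[X]} (hg : g.Monic) (hgc : ∀ i, w (g.coeff i) ≤ 1) {a : Om}
    (ha : g.eval a = 0) : w a ≤ 1 := by
  by_contra h
  rw [not_le] at h
  have h1 : g.eval a = a ^ g.natDegree + ∑ i ∈ Finset.range g.natDegree, g.coeff i * a ^ i := by
    rw [eval_eq_sum_range, Finset.sum_range_succ, hg.coeff_natDegree, one_mul, add_comm]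
  have hpos : 0 < w a ^ g.natDegree := pow_pos (zero_le.trans_lt h) _
  have h2 : w (∑ i ∈ Finset.range g.natDegree, g.coeff i * a ^ i) < w (a ^ g.natDegree) := by
    refine lt_sum w _ _ (by rw [map_pow]; exact hpos) fun i hi => ?_
    rw [map_mul, map_pow, map_pow]
    calc w (g.coeff i) * w a ^ i ≤ 1 * w a ^ i := mul_le_mul' (hgc i) le_rfl
      _ = w a ^ i := one_mul _
      _ < w a ^ g.natDegree := pow_lt_pow_right₀ h (Finset.mem_range.1 hi)
  have h3 := Valuation.map_add_eq_of_lt_left w h2
  rw [← h1, ha, map_zero, map_pow] at h3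
  exact hpos.ne h3

omit [CharZero H] [Algebra.IsAlgebraic H Om] in
lemma exists_root_near {g : Om[X]} (hg : g.Monic) {θ0 : Om} (h0 : w (g.eval θ0) < 1) :
    ∃ a, g.eval a = 0 ∧ w (a - θ0) < 1 := by
  by_contra hcon
  push Not at hcon
  have h1 := (IsAlgClosed.splits g).eval_eq_prod_roots_of_monic hg θ0
  rw [h1, map_multiset_prod, Multiset.map_map] at h0
  refine absurd h0 (not_lt.2 (Multiset.one_le_prod ?_))
  intro c hc
  rw [Multiset.mem_map] at hc
  obtain ⟨a, ha, rfl⟩ := hc
  have ha' : g.eval a = 0 := (mem_roots'.1 ha).2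
  have := hcon a ha'
  rw [Function.comp_apply, Valuation.map_sub_swap]
  exact this

omit [IsAlgClosed Om] [CharZero H] [Algebra.IsAlgebraic H Om] in
lemma root_unique {g : Om[X]} (hgc : ∀ i, w (g.coeff i) ≤ 1) {θ0 a b : Om}
    (hθ : w θ0 ≤ 1) (h1 : w ((derivative g).eval θ0) = 1) (ha : g.eval a = 0) (hb : g.eval b = 0)
    (ha1 : w (a - θ0) < 1) (hb1 : w (b - θ0) < 1) : a = b := by
  have haw : w a ≤ 1 := by
    have := le_add w ha1.le hθ
    simpa using this
  have hbw : w b ≤ 1 := by
    have := le_add w hb1.le hθ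
    simpa using this
  let O := w.valuationSubring.toSubring
  have hcoe : (↑g.coeffs : Set Om) ⊆ O := by
    intro c hc
    obtain ⟨i, -, rfl⟩ := mem_coeffs_iff.1 (Finset.mem_coe.1 hc)
    exact hgc i
  set G : O[X] := g.toSubring O hcoe with hG
  have hGm : G.map O.subtype = g := map_toSubring g O hcoe
  have hev : ∀ y : O, ((G.eval y : O) : Om) = g.eval (y : Om) := by
    intro y
    conv_rhs => rw [← hGm]
    rw [eval_map]
    exact (eval₂_at_apply O.subtype y).symm
  have hGm' : (derivative G).map O.subtype = derivative g := by rw [← derivative_map, hGm]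
  have hev' : ∀ y : O, (((derivative G).eval y : O) : Om) = (derivative g).eval (y : Om) := by
    intro y
    conv_rhs => rw [← hGm']
    rw [eval_map]
    exact (eval₂_at_apply O.subtype y).symm
  have hOle : ∀ y : O, w (y : Om) ≤ 1 := fun y => y.2
  let a' : O := ⟨a, haw⟩
  let b' : O := ⟨b, hbw⟩
  let t' : O := ⟨θ0, hθ⟩
  have hga : w ((derivative g).eval a) = 1 := by
    obtain ⟨k, hk⟩ := sub_dvd_eval_sub a' t' (derivative G)
    have hk' := congrArg (Subtype.val) hk
    have e1 : (derivative g).eval a - (derivative g).eval θ0 = (a - θ0) * (k : Om) := by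
      have := hev' a'
      have h2 := hev' t'
      rw [← this, ← h2]
      exact hk'
    have h3 : w ((derivative g).eval a - (derivative g).eval θ0) < w ((derivative g).eval θ0) := by
      rw [e1, h1, map_mul]
      calc w (a - θ0) * w (k : Om) ≤ w (a - θ0) * 1 := mul_le_mul' le_rfl (hOle k)
        _ < 1 := by rw [mul_one]; exact ha1
    rw [eq_of_lt h3, h1]
  obtain ⟨k, hk⟩ := binomExpansion G a' (b' - a')
  have hk' := congrArg (Subtype.val) hk
  have e2 : g.eval b = g.eval a + (derivative g).eval a * (b - a) + (k : Om) * (b - a) ^ 2 := by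
    have h2 := hev (a' + (b' - a'))
    have h3 := hev a'
    have h4 := hev' a'
    have h5 : ((a' + (b' - a') : O) : Om) = b := by
      change a + (b - a) = b
      ring
    rw [h5] at h2
    rw [← h2, ← h3, ← h4]
    exact hk'
  rw [ha, hb, zero_add] at e2
  by_contra hne
  have hba : b - a ≠ 0 := sub_ne_zero.2 (Ne.symm hne)
  have e3 : (derivative g).eval a = - ((k : Om) * (b - a)) := by
    have h6 : ((derivative g).eval a + (k : Om) * (b - a)) * (b - a) = 0 := by
      rw [e2]; ring
    have h7 := (mul_eq_zero.1 h6).resolve_right hba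
    linear_combination h7
  have h8 : w (b - a) < 1 := by
    have := lt_sub w hb1 ha1
    simpa using this
  rw [e3, Valuation.map_neg, map_mul] at hga
  have h9 : w (k : Om) * w (b - a) < 1 :=
    (mul_le_mul' (hOle k) le_rfl).trans_lt (by rw [one_mul]; exact h8)
  exact h9.ne hga

end hensel

end Crest.Agent.R013.Stab10_460
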