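import Mathlib
import Crest.Agent.R013.Stab10_460

/-!
# STAB, part 11: the abstract theorem
-/

namespace Crest.Agent.R013.Stab11_460

open Polynomial Module Crest.Agent.R013.Stab2_460 Crest.Agent.R013.Stab3_460
  Crest.Agent.R013.Stab6_460 Crest.Agent.R013.Stab7_460 Crest.Agent.R013.Stab8_460
  Crest.Agent.R013.Stab9_460 Crest.Agent.R013.Stab10_460
open scoped NNReal IntermediateField

/-- transfer of algebraic closedness along an isomorphism (any universes). -/
theorem isAlgClosed_of_equiv {k k' : Type*} [Field k] [Field k'] (e : k ≃+* k')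
    [IsAlgClosed k] : IsAlgClosed k' := by
  apply IsAlgClosed.of_exists_root
  intro p hmp hp
  have hpe : degree (p.map e.symm.toRingHom) ≠ 0 := by
    rw [degree_map]
    exact ne_of_gt (degree_pos_of_irreducible hp)
  rcases IsAlgClosed.exists_root (k := k) (p.map e.symm.toRingHom) hpe with ⟨x, hx⟩
  use e x
  rw [IsRoot] at hx
  apply e.symm.injective
  rw [map_zero, ← hx]
  clear hx hpe hp hmp
  induction p using Polynomial.induction_on <;> simp_all

/-- **STAB for finite Galois extensions**, types. -/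
theorem stab_types {C H N : Type*} [Field C] [Field H] [Field N] [Algebra C H] [Algebra C N]
    [Algebra H N] [IsScalarTower C H N] [IsAlgClosed C] [FiniteDimensional H N] [IsGalois H N]
    (w : Valuation N ℝ≥0) (p : ℕ) [Fact p.Prime] (hp : w (p : N) < 1) (hp0 : (p : N) ≠ 0)
    (hinv : ∀ (σ : N ≃ₐ[H] N) y, w (σ y) = w y) (x : H) (hx1 : w (algebraMap H N x) ≤ 1)
    (gauss : ∀ (f : C[X]) i, w (algebraMap C N (f.coeff i)) ≤ w (algebraMap H N (aeval x f)))
    (dense : ∀ h : H, ∀ ε : ℝ≥0, 0 < ε → ∃ f g : C[X], g ≠ 0 ∧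
      w (algebraMap H N (h - aeval x f / aeval x g)) < ε)
    (hens : ∀ g : H[X], g.Monic → (∀ i, w (algebraMap H N (g.coeff i)) ≤ 1) → ∀ θ0 : N,
      w θ0 ≤ 1 → w (aeval θ0 g) < 1 → w (aeval θ0 (derivative g)) = 1 →
      ∃ θ : N, aeval θ g = 0 ∧ w (θ - θ0) < 1) :
    ∃ (n : ℕ) (b : Basis (Fin n) H N), (∀ i, w (b i) ≤ 1) ∧
      ∀ y i, w (algebraMap H N (b.repr y i)) ≤ w y := by
  classical
  set C' : Subfield N := (algebraMap C N).fieldRange with hC'
  set H' : Subfield N := (algebraMap H N).fieldRange with hH'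
  let eC : C ≃+* C' := (algebraMap C N).rangeRestrictFieldEquiv
  let eH : H ≃+* H' := (algebraMap H N).rangeRestrictFieldEquiv
  have heC : ∀ c : C, ((eC c : C') : N) = algebraMap C N c := fun c => rfl
  have heH : ∀ c : H, ((eH c : H') : N) = algebraMap H N c := fun c => rfl
  have hcompH : (algebraMap H' N).comp (eH : H →+* H') =
      ((RingEquiv.refl N : N ≃+* N) : N →+* N).comp (algebraMap H N) := by
    ext c; rfl
  have hfd : FiniteDimensional H' N := Module.Finite.of_equiv_equiv eH (RingEquiv.refl N) hcompH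
  have hgal : IsGalois H' N := IsGalois.of_equiv_equiv (f := eH) (g := RingEquiv.refl N) hcompH
  have hCalg : IsAlgClosed C' := isAlgClosed_of_equiv eC
  -- evaluation of polynomials
  have hevC : ∀ f : C[X], aeval (algebraMap H N x) (f.map (eC : C →+* C')) =
      algebraMap H N (aeval x f) := by
    intro f
    rw [aeval_def, eval₂_map]
    have : (algebraMap C' N).comp (eC : C →+* C') = algebraMap C N := by ext c; rfl
    rw [this, ← aeval_def, aeval_algebraMap_apply]
  have hevH : ∀ (f : H[X]) (y : N), aeval y (f.map (eH : H →+* H')) = aeval y f := by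
    intro f y
    rw [aeval_def, eval₂_map]
    have : (algebraMap H' N).comp (eH : H →+* H') = algebraMap H N := by ext c; rfl
    rw [this, ← aeval_def]
  have hS : Setup w p C' H' (algebraMap H N x) := by
    refine ⟨hp, hCalg, ?_, ⟨x, rfl⟩, hx1, ?_, ?_⟩
    · rintro _ ⟨c, rfl⟩
      exact ⟨algebraMap C H c, (IsScalarTower.algebraMap_apply C H N c).symm⟩
    · intro f i
      have hf : f = (f.map (eC.symm : C' →+* C)).map (eC : C →+* C') := by
        rw [Polynomial.map_map]
        have : (eC : C →+* C').comp (eC.symm : C' →+* C) = RingHom.id C' := by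
          ext c; simp
        rw [this, Polynomial.map_id]
      set f0 := f.map (eC.symm : C' →+* C) with hf0
      have h1 := gauss f0 i
      rw [← hevC, ← hf] at h1
      refine le_trans (le_of_eq ?_) h1
      congr 1
      rw [hf0, coeff_map]
      have : ((eC (eC.symm (f.coeff i)) : C') : N) = algebraMap C N (eC.symm (f.coeff i)) := heC _
      rw [eC.apply_symm_apply] at this
      exact this
    · rintro _ ⟨h, rfl⟩ ε hε
      obtain ⟨f, g, hg, hfg⟩ := dense h ε hε
      refine ⟨f.map (eC : C →+* C'), g.map (eC : C →+* C'), ?_, ?_⟩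
      · exact (Polynomial.map_ne_zero_iff (f := (eC : C →+* C')) eC.injective).2 hg
      · rw [hevC, hevC, ← map_div₀, ← map_sub]
        exact hfg
  have hInv : Inv w H' := by
    intro σ y
    let σ' : N ≃ₐ[H] N := AlgEquiv.ofRingEquiv (f := (σ : N ≃+* N)) (fun h => by
      have : σ (algebraMap H' N (eH h)) = algebraMap H' N (eH h) := σ.commutes _
      exact this)
    exact hinv σ' y
  have hHens : Hens w H' := by
    intro g hg hgc θ0 hθ h1 h2
    have hgf : g = (g.map (eH.symm : H' →+* H)).map (eH : H →+* H') := by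
      rw [Polynomial.map_map]
      have : (eH : H →+* H').comp (eH.symm : H' →+* H) = RingHom.id H' := by
        ext c; simp
      rw [this, Polynomial.map_id]
    set g0 := g.map (eH.symm : H' →+* H) with hg0
    have hder : derivative g = (derivative g0).map (eH : H →+* H') := by
      rw [← derivative_map, ← hgf]
    obtain ⟨θ, hθg, hθ1⟩ := hens g0 (hg.map _) (fun i => by
      rw [hg0, coeff_map]
      have : ((eH (eH.symm (g.coeff i)) : H') : N) = algebraMap H N (eH.symm (g.coeff i)) := heH _
      rw [eH.apply_symm_apply] at this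
      have h3 := hgc i
      rw [this] at h3
      exact h3) θ0 hθ (by rw [← hevH, ← hgf]; exact h1) (by rw [← hevH, ← hder]; exact h2)
    exact ⟨θ, by rw [hgf, hevH]; exact hθg, hθ1⟩
  obtain ⟨n, b, -, hb1, hb2, hb3⟩ := stab_galois hS hInv hp0 hHens
  have hon : ∀ c : Fin n → H, ∀ i, w (algebraMap H N (c i)) ≤ w (∑ j, c j • b j) := by
    intro c i
    have := hb2 (fun j => algebraMap H N (c j)) (fun j => ⟨c j, rfl⟩) i
    simpa [Algebra.smul_def] using this
  have hli : LinearIndependent H b := by
    rw [Fintype.linearIndependent_iff]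
    intro g hg i
    have h1 := hon g i
    rw [hg, map_zero] at h1
    have h3 : algebraMap H N (g i) = 0 := w.zero_iff.1 (le_antisymm h1 zero_le)
    exact (algebraMap H N).injective (by rw [h3, map_zero])
  have hspan : ⊤ ≤ Submodule.span H (Set.range b) := by
    intro y _
    obtain ⟨c, hc, hy⟩ := hb3 y trivial
    choose c' hc' using hc
    rw [hy]
    refine Submodule.sum_mem _ fun j _ => ?_
    rw [← hc' j, ← Algebra.smul_def]
    exact Submodule.smul_mem _ _ (Submodule.subset_span ⟨j, rfl⟩)
  refine ⟨n, Basis.mk hli hspan, fun i => by rw [Basis.mk_apply]; exact hb1 i, fun y i => ?_⟩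
  have h1 := hon (fun j => (Basis.mk hli hspan).repr y j) i
  refine h1.trans (le_of_eq ?_)
  congr 1
  conv_rhs => rw [← (Basis.mk hli hspan).sum_repr y]
  refine Finset.sum_congr rfl fun j _ => ?_
  rw [Basis.mk_apply]

/-! ### subspaces -/

section sub

variable {H N : Type*} [Field H] [Field N] [Algebra H N] (w : Valuation N ℝ≥0)

/-- the coefficient bound determines the norm. -/
lemma exists_coord {n : ℕ} (b : Basis (Fin n) H N) (hb1 : ∀ i, w (b i) ≤ 1)
    (hb2 : ∀ y i, w (algebraMap H N (b.repr y i)) ≤ w y) {y : N} (hy : y ≠ 0) :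
    ∃ i, w (algebraMap H N (b.repr y i)) = w y := by
  classical
  by_contra hcon
  push Not at hcon
  have h1 : w (∑ j, b.repr y j • b j) < w y := by
    refine lt_sum w _ _ (pos_iff_ne_zero.2 (w.ne_zero_iff.2 hy)) fun j _ => ?_
    rw [Algebra.smul_def, map_mul]
    calc _ ≤ w (algebraMap H N (b.repr y j)) * 1 := mul_le_mul' le_rfl (hb1 j)
      _ < w y := by rw [mul_one]; exact lt_of_le_of_ne (hb2 y j) (hcon j)
  rw [b.sum_repr y] at h1
  exact lt_irrefl _ h1

theorem subspace_on {n : ℕ} (b : Basis (Fin n) H N) (hb1 : ∀ i, w (b i) ≤ 1)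
    (hb2 : ∀ y i, w (algebraMap H N (b.repr y i)) ≤ w y) (m : ℕ) :
    ∀ V : Submodule H N, finrank H V ≤ m →
      ∃ (k : ℕ) (e : Fin k → N), (∀ i, e i ∈ V) ∧ (∀ i, w (e i) ≤ 1) ∧
        (∀ c : Fin k → H, ∀ i, w (algebraMap H N (c i)) ≤ w (∑ j, c j • e j)) ∧
        ∀ y ∈ V, ∃ c : Fin k → H, y = ∑ j, c j • e j := by
  classical
  have hfd : FiniteDimensional H N := b.finiteDimensional_of_finite
  induction m with
  | zero =>
    intro V hV
    have hV0 : V = ⊥ := Submodule.finrank_eq_zero.1 (Nat.le_zero.1 hV)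
    refine ⟨0, Fin.elim0, fun i => i.elim0, fun i => i.elim0, fun c i => i.elim0, fun y hy => ?_⟩
    rw [hV0, Submodule.mem_bot] at hy
    exact ⟨Fin.elim0, by simp [hy]⟩
  | succ m ih =>
    intro V hV
    by_cases hV0 : V = ⊥
    · refine ⟨0, Fin.elim0, fun i => i.elim0, fun i => i.elim0, fun c i => i.elim0,
        fun y hy => ?_⟩
      rw [hV0, Submodule.mem_bot] at hy
      exact ⟨Fin.elim0, by simp [hy]⟩
    obtain ⟨y0, hy0V, hy0⟩ := V.ne_bot_iff.1 hV0
    obtain ⟨i0, hi0⟩ := exists_coord w b hb1 hb2 hy0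
    have hwy : 0 < w y0 := pos_iff_ne_zero.2 (w.ne_zero_iff.2 hy0)
    have hc0 : b.repr y0 i0 ≠ 0 := by
      intro h; rw [h, map_zero, map_zero] at hi0; exact hwy.ne hi0
    set e0 : N := (b.repr y0 i0)⁻¹ • y0 with he0
    have he0V : e0 ∈ V := V.smul_mem _ hy0V
    have he01 : w e0 = 1 := by
      rw [he0, Algebra.smul_def, map_mul, map_inv₀, map_inv₀, hi0, inv_mul_cancel₀ hwy.ne']
    have he0i : b.repr e0 i0 = 1 := by
      rw [he0, map_smul, Finsupp.smul_apply, smul_eq_mul, inv_mul_cancel₀ hc0]
    set V' : Submodule H N := V ⊓ LinearMap.ker (b.coord i0) with hV'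
    have hV'lt : V' < V := by
      refine lt_of_le_of_ne inf_le_left fun h => ?_
      have : e0 ∈ V' := by rw [h]; exact he0V
      have h2 : b.coord i0 e0 = 0 := (Submodule.mem_inf.1 this).2
      rw [Basis.coord_apply, he0i] at h2
      exact one_ne_zero h2
    have hfr := Submodule.finrank_lt_finrank_of_lt hV'lt
    obtain ⟨k, e, heV, he1, hon, hsp⟩ := ih V' (by omega)
    refine ⟨k + 1, Fin.cons e0 e, ?_, ?_, ?_, ?_⟩
    · intro i
      refine Fin.cases ?_ (fun i => ?_) i
      · exact he0V
      · exact (Submodule.mem_inf.1 (heV i)).1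
    · intro i
      refine Fin.cases ?_ (fun i => ?_) i
      · exact he01.le
      · exact he1 i
    · intro c
      set z := ∑ j, c j • (Fin.cons e0 e : Fin (k + 1) → N) j with hz
      have hz2 : z = c 0 • e0 + ∑ j : Fin k, c j.succ • e j := by
        rw [hz, Fin.sum_univ_succ]; rfl
      have hz' : ∑ j : Fin k, c j.succ • e j ∈ V' :=
        Submodule.sum_mem _ fun j _ => V'.smul_mem _ (heV j)
      have hrepr : b.repr z i0 = c 0 := by
        have h2 : b.coord i0 (∑ j : Fin k, c j.succ • e j) = 0 := (Submodule.mem_inf.1 hz').2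
        rw [Basis.coord_apply] at h2
        rw [hz2, map_add, Finsupp.add_apply, h2, add_zero, map_smul, Finsupp.smul_apply, he0i,
          smul_eq_mul, mul_one]
      have h0 : w (algebraMap H N (c 0)) ≤ w z := by
        rw [← hrepr]; exact hb2 z i0
      have h1 : w (∑ j : Fin k, c j.succ • e j) ≤ w z := by
        have e1 : ∑ j : Fin k, c j.succ • e j = z - c 0 • e0 := by rw [hz2]; ring
        rw [e1]
        refine le_sub w le_rfl ?_
        rw [Algebra.smul_def, map_mul, he01, mul_one]
        exact h0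
      intro i
      refine Fin.cases ?_ (fun i => ?_) i
      · exact h0
      · exact (hon (fun j => c j.succ) i).trans h1
    · intro y hy
      have h1 : y - b.repr y i0 • e0 ∈ V' := by
        refine Submodule.mem_inf.2 ⟨V.sub_mem hy (V.smul_mem _ he0V), ?_⟩
        rw [LinearMap.mem_ker, map_sub, map_smul, Basis.coord_apply, Basis.coord_apply, he0i,
          smul_eq_mul, mul_one, sub_self]
      obtain ⟨c, hc⟩ := hsp _ h1
      refine ⟨Fin.cons (b.repr y i0) c, ?_⟩
      rw [Fin.sum_univ_succ]
      simp only [Fin.cons_zero, Fin.cons_succ]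
      rw [← hc]; ring

end sub

/-! ### the final theorem -/

section final

variable {C H Om : Type*} [Field C] [Field H] [Field Om] [Algebra C H] [Algebra C Om]
  [Algebra H Om] [IsScalarTower C H Om] [IsAlgClosed C] [CharZero C] [IsAlgClosed Om]
  [Algebra.IsAlgebraic H Om]

/-- **Stability theorem** (Grauert-Remmert) for the Gauss point, over any algebraically closed
valued field `C` of characteristic `0` and residue characteristic `p`: every finite extension `L`
of the henselian field `H` (in which `C(x)` is dense) has an orthonormal basis. -/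
theorem stab (w : Valuation Om ℝ≥0) (p : ℕ) [hpp : Fact p.Prime] (hp : w (p : Om) < 1)
    (hinv : ∀ (σ : Om ≃ₐ[H] Om) y, w (σ y) = w y) (x : H) (hx1 : w (algebraMap H Om x) ≤ 1)
    (gauss : ∀ (f : C[X]) i, w (algebraMap C Om (f.coeff i)) ≤ w (algebraMap H Om (aeval x f)))
    (dense : ∀ h : H, ∀ ε : ℝ≥0, 0 < ε → ∃ f g : C[X], g ≠ 0 ∧
      w (algebraMap H Om (h - aeval x f / aeval x g)) < ε)
    (L : IntermediateField H Om) [FiniteDimensional H L] :
    ∃ b : Basis (Fin (finrank H L)) H L, (∀ i, w (b i : Om) ≤ 1) ∧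
      ∀ (c : Fin (finrank H L) → H) i, w (algebraMap H Om (c i)) ≤
        w ((∑ j, c j • b j : L) : Om) := by
  classical
  have hcharH : CharZero H := charZero_of_injective_algebraMap (algebraMap C H).injective
  have hcharO : CharZero Om := charZero_of_injective_algebraMap (algebraMap C Om).injective
  set N : IntermediateField H Om := IntermediateField.normalClosure H L Om with hN
  have hLN : L ≤ N := IntermediateField.le_normalClosure L
  have hac : IsAlgClosure H Om := ⟨inferInstance, inferInstance⟩
  have hnorm : Normal H Om := IsAlgClosure.normal H Om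
  have hfdN : FiniteDimensional H N := normalClosure.is_finiteDimensional H L Om
  have hnormN : Normal H N := normalClosure.normal H L Om
  have hgalN : IsGalois H N := isGalois_iff.mpr ⟨inferInstance, hnormN⟩
  set wN : Valuation N ℝ≥0 := w.comap (algebraMap N Om) with hwN
  have hwNa : ∀ y : N, wN y = w (y : Om) := fun y => rfl
  have hp0 : ((p : ℕ) : N) ≠ 0 := by
    have : CharZero N := charZero_of_injective_algebraMap (algebraMap H N).injective
    exact Nat.cast_ne_zero.2 hpp.out.ne_zero
  have hinvN : ∀ (σ : N ≃ₐ[H] N) y, wN (σ y) = wN y := by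
    intro σ y
    rw [hwNa, hwNa, ← hinv (σ.liftNormal Om) (y : Om)]
    have := σ.liftNormal_commutes Om y
    congr 1
    exact this.symm
  have hensN : ∀ g : H[X], g.Monic → (∀ i, wN (algebraMap H N (g.coeff i)) ≤ 1) → ∀ θ0 : N,
      wN θ0 ≤ 1 → wN (aeval θ0 g) < 1 → wN (aeval θ0 (derivative g)) = 1 →
      ∃ θ : N, aeval θ g = 0 ∧ wN (θ - θ0) < 1 := by
    intro g hg hgc θ0 hθ h1 h2
    set G : Om[X] := g.map (algebraMap H Om) with hG
    have hGm : G.Monic := hg.map _
    have hGc : ∀ i, w (G.coeff i) ≤ 1 := fun i => by rw [hG, coeff_map]; exact hgc i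
    have hev : ∀ (q : H[X]) (y : N), (q.map (algebraMap H Om)).eval (y : Om) = ((aeval y q : N) : Om) := by
      intro q y
      rw [eval_map_algebraMap]
      exact (aeval_algebraMap_apply Om y q)
    have h1' : w (G.eval (θ0 : Om)) < 1 := by rw [hG, hev]; exact h1
    obtain ⟨a, ha, ha1⟩ := exists_root_near w hGm h1'
    have h2' : w ((derivative G).eval (θ0 : Om)) = 1 := by
      rw [hG, derivative_map, hev]; exact h2
    have hcharN : CharZero N := charZero_of_injective_algebraMap (algebraMap H N).injective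
    have halgN : Algebra.IsAlgebraic N Om := Algebra.IsAlgebraic.tower_top (K := H) N
    have hacN : IsAlgClosure N Om := ⟨inferInstance, halgN⟩
    have hgalNO : IsGalois N Om := isGalois_iff.mpr ⟨inferInstance, IsAlgClosure.normal N Om⟩
    have hfix : ∀ τ : Om ≃ₐ[N] Om, τ a = a := by
      intro τ
      have hτ : ∀ y, w (τ y) = w y := fun y => hinv (τ.restrictScalars H) y
      have h3 : G.eval (τ a) = 0 := by
        have h4 : aeval a g = 0 := by rw [← eval_map_algebraMap]; exact ha
        have h5 := aeval_algHom_apply ((τ.restrictScalars H : Om ≃ₐ[H] Om) : Om →ₐ[H] Om) a g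
        rw [h4, map_zero] at h5
        rw [hG, eval_map_algebraMap]
        exact h5
      have h6 : w (τ a - (θ0 : Om)) < 1 := by
        have h7 : τ (algebraMap N Om θ0) = algebraMap N Om θ0 := τ.commutes θ0
        have h8 : τ a - (θ0 : Om) = τ (a - (θ0 : Om)) := by
          rw [map_sub]
          congr 1
          exact h7.symm
        rw [h8, hτ]
        exact ha1
      exact root_unique w hGc (by exact hθ) h2' h3 ha h6 ha1
    have hmem := (InfiniteGalois.mem_bot_iff_fixed (k := N) (K := Om) a).2 hfix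
    obtain ⟨θ, hθa⟩ := IntermediateField.mem_bot.1 hmem
    refine ⟨θ, ?_, ?_⟩
    · have h9 : ((aeval θ g : N) : Om) = 0 := by
        rw [← hev]
        have : (θ : Om) = a := hθa
        rw [this]; exact ha
      exact Subtype.ext h9
    · rw [hwNa]
      have : ((θ - θ0 : N) : Om) = a - (θ0 : Om) := by
        rw [← hθa]; rfl
      rw [this]
      exact ha1
  obtain ⟨n, b, hb1, hb2⟩ := stab_types (C := C) (H := H) (N := N) wN p
    (by rw [hwNa]; push_cast; exact hp) hp0 hinvN x hx1 gauss dense hensN
  -- the subspace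
  set V : Submodule H N := (Subalgebra.toSubmodule L.toSubalgebra).comap N.val.toLinearMap with hV
  have hVmem : ∀ y : N, y ∈ V ↔ (y : Om) ∈ L := fun y => Iff.rfl
  obtain ⟨k, e, heV, he1, hon, hsp⟩ := subspace_on wN b hb1 hb2 (finrank H V) V le_rfl
  let e' : Fin k → L := fun i => ⟨(e i : Om), (hVmem _).1 (heV i)⟩
  have hsum : ∀ c : Fin k → H, ((∑ j, c j • e' j : L) : Om) = ((∑ j, c j • e j : N) : Om) := by
    intro c
    have h1 : ((∑ j, c j • e' j : L) : Om) = ∑ j, c j • (e j : Om) := by
      rw [← IntermediateField.algebraMap_apply, map_sum]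
      rfl
    have h2 : ((∑ j, c j • e j : N) : Om) = ∑ j, c j • (e j : Om) := by
      rw [← IntermediateField.algebraMap_apply, map_sum]
      rfl
    rw [h1, h2]
  have hon' : ∀ (c : Fin k → H) i, w (algebraMap H Om (c i)) ≤ w ((∑ j, c j • e' j : L) : Om) := by
    intro c i
    rw [hsum]
    exact hon c i
  have hli : LinearIndependent H e' := by
    rw [Fintype.linearIndependent_iff]
    intro g hg i
    have h1 := hon' g i
    rw [hg] at h1
    have h2 : w ((0 : L) : Om) = 0 := by push_cast; exact map_zero w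
    rw [h2] at h1
    have h3 : algebraMap H Om (g i) = 0 := w.zero_iff.1 (le_antisymm h1 zero_le)
    exact (algebraMap H Om).injective (by rw [h3, map_zero])
  have hspan : ⊤ ≤ Submodule.span H (Set.range e') := by
    intro y _
    obtain ⟨c, hc⟩ := hsp ⟨(y : Om), hLN y.2⟩ ((hVmem _).2 y.2)
    have h1 : y = ∑ j, c j • e' j := by
      apply Subtype.ext
      rw [hsum, ← hc]
    rw [h1]
    exact Submodule.sum_mem _ fun j _ => Submodule.smul_mem _ _ (Submodule.subset_span ⟨j, rfl⟩)
  have hk : finrank H L = k := by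
    have := Module.finrank_eq_card_basis (Basis.mk hli hspan)
    simpa using this
  refine ⟨(Basis.mk hli hspan).reindex (finCongr hk.symm), fun i => ?_, fun c i => ?_⟩
  · rw [Basis.reindex_apply, Basis.mk_apply]
    exact he1 _
  · have h1 := hon' (c ∘ finCongr hk.symm) ((finCongr hk.symm).symm i)
    simp only [Function.comp_apply, Equiv.apply_symm_apply] at h1
    refine h1.trans (le_of_eq ?_)
    congr 2
    refine Fintype.sum_equiv (finCongr hk.symm) _ _ fun j => ?_
    rw [Basis.reindex_apply, Basis.mk_apply, Equiv.symm_apply_apply]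

end final

end Crest.Agent.R013.Stab11_460
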