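import Mathlib
import Crest.Agent.R013.Stab11_460

/-!
# STAB, part 12: the complete case, in terms of the spectral norm
-/

namespace Crest.Agent.R013.Stab12_460

open Polynomial Module
open scoped NNReal

section

variable (E : Type*) [NontriviallyNormedField E] [IsUltrametricDist E] [CompleteSpace E]
  (L : Type*) [Field L] [Algebra E L] [Algebra.IsAlgebraic E L]

/-- the spectral norm as a valuation. -/
noncomputable def specVal : Valuation L ℝ≥0 where
  toFun y := ⟨spectralNorm E L y, spectralNorm_nonneg y⟩
  map_zero' := by ext; exact spectralNorm_zero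
  map_one' := by ext; exact spectralNorm_one
  map_mul' a b := by ext; exact spectralAlgNorm_mul a b
  map_add_le_max' a b := by
    have := isNonarchimedean_spectralNorm (K := E) (L := L) a b
    rcases le_max_iff.1 this with h | h
    · exact le_max_of_le_left (NNReal.coe_le_coe.mp h)
    · exact le_max_of_le_right (NNReal.coe_le_coe.mp h)

lemma coe_specVal (y : L) : (specVal E L y : ℝ) = spectralNorm E L y := rfl

end

/-- **Stability theorem**, complete case: `E` is complete, `C(x)` is dense in `E` with the Gauss
norm, `C` algebraically closed: every finite extension `L` of `E` has an orthonormal basis. -/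
theorem stab_complete {C : Type*} [Field C] [IsAlgClosed C] [CharZero C]
    {E : Type*} [NontriviallyNormedField E] [IsUltrametricDist E] [CompleteSpace E] [Algebra C E]
    (p : ℕ) [hpp : Fact p.Prime] (hp : ‖(p : E)‖ < 1) (x : E) (hx : ‖x‖ ≤ 1)
    (gauss : ∀ (f : C[X]) (i : ℕ), ‖algebraMap C E (f.coeff i)‖ ≤ ‖aeval x f‖)
    (dense : ∀ h : E, ∀ ε : ℝ, 0 < ε → ∃ f g : C[X], g ≠ 0 ∧ ‖h - aeval x f / aeval x g‖ < ε)
    (L : Type*) [Field L] [Algebra E L] [FiniteDimensional E L] :
    ∃ b : Basis (Fin (finrank E L)) E L, (∀ i, spectralNorm E L (b i) ≤ 1) ∧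
      ∀ (c : Fin (finrank E L) → E) i, ‖c i‖ ≤ spectralNorm E L (∑ j, c j • b j) := by
  classical
  set Om := AlgebraicClosure E with hOm
  set w := specVal E Om with hw
  have hwE : ∀ h : E, (w (algebraMap E Om h) : ℝ) = ‖h‖ := fun h => spectralNorm_extends h
  have halgL : Algebra.IsAlgebraic E L := Algebra.IsAlgebraic.of_finite E L
  let φ : L →ₐ[E] Om := IsAlgClosed.lift
  set L' : IntermediateField E Om := φ.fieldRange with hL'
  let e : L ≃ₐ[E] L' := AlgEquiv.ofInjectiveField φ
  have hfd : FiniteDimensional E L' := e.toLinearEquiv.finiteDimensional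
  have hfr : finrank E L' = finrank E L := (e.toLinearEquiv.finrank_eq).symm
  obtain ⟨b, hb1, hb2⟩ := Stab11_460.stab (C := C) (H := E) (Om := Om) w p
    (by
      rw [← NNReal.coe_lt_coe]
      have := hwE (p : E)
      rw [map_natCast] at this
      rw [this]; exact hp)
    (fun σ y => by
      apply NNReal.coe_injective
      exact (spectralNorm_eq_of_equiv σ y).symm)
    x (by rw [← NNReal.coe_le_coe, hwE]; exact hx)
    (fun f i => by
      rw [← NNReal.coe_le_coe, hwE]
      exact (hwE _).trans_le (gauss f i))
    (fun h ε hε => by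
      obtain ⟨f, g, hg, hfg⟩ := dense h ε hε
      refine ⟨f, g, hg, ?_⟩
      rw [← NNReal.coe_lt_coe, hwE]
      exact hfg) L'
  have hspec : ∀ y : L, (w (φ y) : ℝ) = spectralNorm E L y := by
    intro y
    change spectralNorm E Om (φ y) = spectralNorm E L y
    unfold spectralNorm
    rw [minpoly.algHom_eq φ φ.injective]
  have hecoe : ∀ y : L, ((e y : L') : Om) = φ y := fun y => rfl
  have hspec' : ∀ z : L', (w (z : Om) : ℝ) = spectralNorm E L (e.symm z) := by
    intro z
    rw [← hspec, ← hecoe, e.apply_symm_apply]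
  refine ⟨(b.map e.symm.toLinearEquiv).reindex (finCongr hfr), fun i => ?_, fun c i => ?_⟩
  · rw [Basis.reindex_apply, Basis.map_apply]
    have := hspec' (b ((finCongr hfr).symm i))
    refine le_trans (le_of_eq this.symm) ?_
    exact_mod_cast hb1 _
  · have h1 := hb2 (c ∘ finCongr hfr) ((finCongr hfr).symm i)
    simp only [Function.comp_apply, Equiv.apply_symm_apply] at h1
    rw [← NNReal.coe_le_coe, hwE, hspec'] at h1
    refine h1.trans (le_of_eq ?_)
    congr 1
    rw [map_sum]
    refine Fintype.sum_equiv (finCongr hfr) _ _ fun j => ?_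
    rw [map_smul, Basis.reindex_apply, Basis.map_apply, Equiv.symm_apply_apply]
    rfl

end Crest.Agent.R013.Stab12_460
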