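import Crest.Agent.R013.StabG_83

/-!
# DEC: `E ⊗ K = ∏ L i` (no orthonormal basis needed): the valuations `wv e i` are exactly the
valuations of `K` extending the norm of `F`; existence of `e`  (helper83, row 13)
-/

set_option autoImplicit false
set_option linter.unusedSectionVars false
set_option linter.style.haveILetI false

namespace Crest.Agent.R013.StabF_83

open TensorProduct NNReal
open scoped NNReal

universe u

/-- A linear functional on a finite product of finite extensions is bounded. -/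
theorem functional_bound {E : Type*} [NontriviallyNormedField E] [CompleteSpace E]
    [IsUltrametricDist E] {I : Type*} [Fintype I] {L : I → Type*} [∀ i, Field (L i)]
    [∀ i, Algebra E (L i)] [∀ i, FiniteDimensional E (L i)] (l : (∀ i, L i) →ₗ[E] E) :
    ∃ A : ℝ≥0, ∀ (x : ∀ i, L i) (M : ℝ≥0), (∀ i, sv E (L i) (x i) ≤ M) → ‖l x‖₊ ≤ M * A := by
  letI : ∀ i, NormedAddCommGroup (L i) := fun i => spectralNorm.normedAddCommGroup E (L i)
  letI : ∀ i, NormedSpace E (L i) := fun i => spectralNorm.normedSpace E (L i)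
  have hc : Continuous l := LinearMap.continuous_of_finiteDimensional l
  let l' : (∀ i, L i) →L[E] E := ⟨l, hc⟩
  refine ⟨⟨‖l'‖, norm_nonneg _⟩, fun x M hM => ?_⟩
  have h1 : ‖l x‖ ≤ ‖l'‖ * ‖x‖ := l'.le_opNorm x
  have h2 : ‖x‖ ≤ M := by
    refine (pi_norm_le_iff_of_nonneg M.2).mpr fun i => ?_
    have := hM i
    rw [← NNReal.coe_le_coe, coe_sv] at this
    exact this
  rw [← NNReal.coe_le_coe, coe_nnnorm]
  calc ‖l x‖ ≤ ‖l'‖ * ‖x‖ := h1
    _ ≤ ‖l'‖ * M := by gcongr
    _ = (M * ⟨‖l'‖, norm_nonneg _⟩ : ℝ≥0) := by rw [mul_comm]; rfl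

section Dec

variable {F E K : Type u} [Field F] [NontriviallyNormedField E] [CompleteSpace E]
  [IsUltrametricDist E] [Algebra F E] [Field K] [Algebra F K] [FiniteDimensional F K]
  {I : Type u} [Fintype I] {L : I → Type u} [∀ i, Field (L i)]
  [∀ i, Algebra E (L i)] [∀ i, FiniteDimensional E (L i)] (e : E ⊗[F] K ≃ₐ[E] ∀ i, L i)

include e in
theorem coord_bound {J : Type*} [Fintype J] (b : Module.Basis J F K) :
    ∃ A : ℝ≥0, ∀ (y : K) (M : ℝ≥0), (∀ i, wv e i y ≤ M) →
      ∀ j, ‖algebraMap F E (b.repr y j)‖₊ ≤ M * A := by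
  classical
  let b' : Module.Basis J E (∀ i, L i) := (Algebra.TensorProduct.basis E b).map e.toLinearEquiv
  have h := fun j => functional_bound (E := E) (b'.coord j)
  choose A hA using h
  refine ⟨∑ j, A j, fun y M hM j => ?_⟩
  have h1 := hA j (e ((1 : E) ⊗ₜ[F] y)) M hM
  have h2 : b'.coord j (e ((1 : E) ⊗ₜ[F] y)) = algebraMap F E (b.repr y j) := by
    simp only [b', Module.Basis.coord_apply, Module.Basis.map_repr, LinearEquiv.trans_apply]
    have : e.toLinearEquiv.symm (e ((1 : E) ⊗ₜ[F] y)) = (1 : E) ⊗ₜ[F] y := e.symm_apply_apply _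
    rw [this, Algebra.TensorProduct.basis_repr_tmul]
    simp
  rw [h2] at h1
  exact h1.trans (mul_le_mul' le_rfl
    (Finset.single_le_sum (f := A) (fun _ _ => zero_le) (Finset.mem_univ j)))

include e in
/-- any valuation extending the norm of `F` is bounded by the sup of the `wv e i`. -/
theorem dec_bound (v : Valuation K ℝ≥0) (hv : ∀ f, v (algebraMap F K f) = ‖algebraMap F E f‖₊) :
    ∃ A : ℝ≥0, ∀ (y : K) (M : ℝ≥0), (∀ i, wv e i y ≤ M) → v y ≤ M * A := by
  classical
  let b := Module.finBasis F K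
  obtain ⟨A, hA⟩ := coord_bound e b
  obtain ⟨B, hB⟩ : ∃ B : ℝ≥0, ∀ l, v (b l) ≤ B := by
    refine ⟨∑ l, v (b l), fun l => ?_⟩
    exact Finset.single_le_sum (f := fun l => v (b l)) (fun _ _ => zero_le) (Finset.mem_univ l)
  refine ⟨A * B, fun y M hM => ?_⟩
  rw [← mul_assoc, ← b.sum_repr y]
  refine Valuation.map_sum_le _ fun l _ => ?_
  rw [Algebra.smul_def, map_mul, hv]
  exact mul_le_mul' (hA y M hM l) (hB l)

/-- **DEC**: the `wv e i` are exactly the valuations of `K` extending the norm of `F`. -/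
theorem dec_complete (hd : DenseRange (algebraMap F E)) (v : Valuation K ℝ≥0)
    (hv : ∀ f, v (algebraMap F K f) = ‖algebraMap F E f‖₊) : ∃ i, v = wv e i := by
  classical
  obtain ⟨A, hA⟩ := dec_bound e v hv
  exact complete_of_bound (wv e) (approx e hd) v A hA

theorem dec_injective (hd : DenseRange (algebraMap F E)) : Function.Injective (wv e) := by
  classical
  exact injective_of_approx (wv e) (approx e hd)

include e in
/-- the local degrees sum to `[K : F]`. -/
theorem dec_sum : ∑ i, Module.finrank E (L i) = Module.finrank F K := by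
  rw [← Module.finrank_pi_fintype, ← e.toLinearEquiv.finrank_eq, Module.finrank_baseChange]

include e in
/-- `K` is dense in `L i`. -/
theorem dec_dense (hd : DenseRange (algebraMap F E)) (i : I) (a : L i) (ε : ℝ≥0) (hε : 0 < ε) :
    ∃ y : K, sv E (L i) (e ((1 : E) ⊗ₜ[F] y) i - a) < ε := by
  classical
  obtain ⟨y, hy⟩ := dense_pi e hd (Pi.single i a) ε hε
  exact ⟨y, by simpa using hy i⟩

end Dec

/-- existence of the decomposition. -/
theorem exists_dec (F E K : Type u) [Field F] [NontriviallyNormedField E] [CompleteSpace E]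
    [IsUltrametricDist E] [Algebra F E] [Field K] [Algebra F K] [FiniteDimensional F K]
    [Algebra.IsSeparable F K] :
    ∃ (I : Type u) (_ : Fintype I) (L : I → Type u) (_ : ∀ i, Field (L i))
      (_ : ∀ i, Algebra E (L i)) (_ : ∀ i, FiniteDimensional E (L i)),
      Nonempty (E ⊗[F] K ≃ₐ[E] ∀ i, L i) := by
  haveI : Algebra.FormallyEtale F K := Algebra.FormallyEtale.of_isSeparable F K
  haveI : Algebra.FormallyEtale E (E ⊗[F] K) := inferInstance
  obtain ⟨I, hI, L, i1, i2, e, -⟩ :=
    (Algebra.FormallyEtale.iff_exists_algEquiv_prod E (E ⊗[F] K)).mp inferInstance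
  haveI : Fintype I := Fintype.ofFinite I
  refine ⟨I, inferInstance, L, i1, i2, fun i => ?_, ⟨e⟩⟩
  exact Module.Finite.of_surjective ((LinearMap.proj i).comp e.toLinearMap)
    ((Function.surjective_eval i).comp e.surjective)

/-- **STABF**: from ON bases of all finite extensions of `E` to `Out`. -/
theorem stabF (F E K : Type u) [Field F] [NontriviallyNormedField E] [CompleteSpace E]
    [IsUltrametricDist E] [Algebra F E] [Field K] [Algebra F K] [FiniteDimensional F K]
    [Algebra.IsSeparable F K] (hd : DenseRange (algebraMap F E))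
    (hON : ∀ (L : Type u) [Field L] [Algebra E L] [FiniteDimensional E L],
      ∃ b : Module.Basis (Fin (Module.finrank E L)) E L, IsON (E := E) b) :
    ∃ (I : Type u) (_ : Fintype I), Nonempty (Out F E K I) := by
  obtain ⟨I, hI, L, i1, i2, i3, ⟨e⟩⟩ := exists_dec F E K
  exact ⟨I, hI, exists_out e hd fun i => hON (L i)⟩

end Crest.Agent.R013.StabF_83
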