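import Mathlib

/-!
# T2A: the chart lemma at a residually separable unramified prime (helper83, row 13, SS-DIR)

`O` a local ring with residue field `κ`, `B` a finite free `O`-algebra, `p` a maximal ideal of `B`
with `m_O B = p ⊓ J`, `p ⊔ J = ⊤`, and `B / p` separable over `κ`.  Then there is `z ∈ J` and a monic
`F ∈ O[X]` with `F(z) = 0` and `F'(z) ∉ p`.
-/

set_option autoImplicit false
set_option linter.unusedSectionVars false
set_option linter.style.haveILetI false

namespace Crest.Agent.R013.T2A_83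

open Polynomial TensorProduct

section General

variable {O B κ : Type*} [CommRing O] [CommRing B] [Algebra O B] [Module.Finite O B]
  [Module.Free O B] [Field κ] [Algebra O κ]

/-- Characteristic polynomial of the multiplication by `z`. -/
noncomputable def cp (O : Type*) {B : Type*} [CommRing O] [CommRing B] [Algebra O B]
    [Module.Finite O B] [Module.Free O B] (z : B) : O[X] := (Algebra.lmul O B z).charpoly

theorem cp_monic (z : B) : (cp O z).Monic := LinearMap.charpoly_monic _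

theorem aeval_cp (z : B) : aeval z (cp O z) = 0 := by
  have h := LinearMap.aeval_self_charpoly (Algebra.lmul O B z)
  have h2 : aeval (Algebra.lmul O B z) (cp O z) = Algebra.lmul O B (aeval z (cp O z)) :=
    aeval_algHom_apply _ _ _
  rw [cp, h] at h2
  have h3 := congrArg (fun f => f 1) h2
  simpa [cp] using h3.symm

theorem cp_map (κ : Type*) [Field κ] [Algebra O κ] (z : B) :
    (cp O z).map (algebraMap O κ) = cp κ ((1 : κ) ⊗ₜ[O] z) := by
  rw [cp, cp, ← LinearMap.charpoly_baseChange, Algebra.baseChange_lmul]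

theorem cp_equiv {κ A A' : Type*} [Field κ] [CommRing A] [Algebra κ A] [Module.Finite κ A]
    [CommRing A'] [Algebra κ A'] [Module.Finite κ A'] (e : A ≃ₐ[κ] A') (z : A) :
    cp κ z = cp κ (e z) := by
  rw [cp, cp, ← LinearEquiv.charpoly_conj e.toLinearEquiv]
  congr 1
  ext x
  simp [LinearEquiv.conj_apply]

theorem cp_prod {κ A A' : Type*} [Field κ] [CommRing A] [Algebra κ A] [Module.Finite κ A]
    [CommRing A'] [Algebra κ A'] [Module.Finite κ A'] (z : A) (z' : A') :
    cp κ ((z, z') : A × A') = cp κ z * cp κ z' := by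
  rw [cp, cp, cp, ← LinearMap.charpoly_prodMap]
  congr 1

theorem cp_nilpotent {κ A : Type*} [Field κ] [CommRing A] [Algebra κ A] [Module.Finite κ A]
    {z : A} (hz : IsNilpotent z) : cp κ z = X ^ Module.finrank κ A := by
  rw [cp]
  exact (hz.map (Algebra.lmul κ A)).charpoly_eq_X_pow_finrank

theorem cp_minpoly {κ l : Type*} [Field κ] [Field l] [Algebra κ l] [FiniteDimensional κ l]
    {z : l} (hz : Algebra.adjoin κ {z} = ⊤) : cp κ z = minpoly κ z := by
  have hi : IsIntegral κ z := Algebra.IsIntegral.isIntegral z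
  let P : PowerBasis κ l := PowerBasis.ofAdjoinEqTop hi hz
  have hg : P.gen = z := PowerBasis.ofAdjoinEqTop_gen hi hz
  have h := charpoly_leftMulMatrix P
  rw [Algebra.leftMulMatrix_apply, LinearMap.charpoly_toMatrix] at h
  rw [cp, ← hg, ← h]

/-- The algebraic chart lemma. -/
theorem map_cp_eq {l A' : Type*} [Field l] [Algebra κ l] [FiniteDimensional κ l]
    [CommRing A'] [Algebra κ A'] [Module.Finite κ A'] (e : κ ⊗[O] B ≃ₐ[κ] l × A') (z : B)
    (h1 : Algebra.adjoin κ {(e ((1 : κ) ⊗ₜ[O] z)).1} = ⊤)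
    (h2 : IsNilpotent (e ((1 : κ) ⊗ₜ[O] z)).2) :
    (cp O z).map (algebraMap O κ) =
      minpoly κ (e ((1 : κ) ⊗ₜ[O] z)).1 * X ^ Module.finrank κ A' := by
  rw [cp_map, cp_equiv e, ← Prod.mk.eta (p := e ((1 : κ) ⊗ₜ[O] z)), cp_prod, cp_minpoly h1,
    cp_nilpotent h2]

theorem aeval_derivative_ne {l : Type*} [Field l] [Algebra κ l] [FiniteDimensional κ l]
    [Algebra.IsSeparable κ l] (z : l) (hz : z ≠ 0) (m : ℕ) :
    aeval z (derivative (minpoly κ z * X ^ m)) ≠ 0 := by
  rw [derivative_mul, map_add, map_mul, map_mul, minpoly.aeval, zero_mul, add_zero]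
  refine mul_ne_zero ?_ (by simpa using pow_ne_zero m hz)
  exact (Algebra.IsSeparable.isSeparable κ z).aeval_derivative_ne_zero (minpoly.aeval κ z)

end General

section Ideal

variable {O B κ : Type*} [CommRing O] [CommRing B] [Algebra O B] [Module.Finite O B]
  [Module.Free O B] [Field κ] [Algebra O κ]

/-- `κ ⊗ B = B / p × B / J` when `p ∩ J = m B` and `p + J = 1`. -/
theorem exists_equiv (hs : Function.Surjective (algebraMap O κ)) (p J : Ideal B)
    (hpJ : p ⊓ J = (RingHom.ker (algebraMap O κ)).map (algebraMap O B)) (hc : IsCoprime p J)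
    [Algebra κ (B ⧸ p)] [IsScalarTower O κ (B ⧸ p)] [Algebra κ (B ⧸ J)]
    [IsScalarTower O κ (B ⧸ J)] :
    ∃ e : κ ⊗[O] B ≃ₐ[κ] (B ⧸ p) × (B ⧸ J), ∀ b : B,
      e ((1 : κ) ⊗ₜ[O] b) = (Ideal.Quotient.mk p b, Ideal.Quotient.mk J b) := by
  haveI : IsScalarTower O κ ((B ⧸ p) × (B ⧸ J)) := by
    refine ⟨fun a b c => ?_⟩
    ext
    · exact smul_assoc a b c.1
    · exact smul_assoc a b c.2
  let g : B →ₐ[O] (B ⧸ p) × (B ⧸ J) :=
    AlgHom.prod (Ideal.Quotient.mkₐ O p) (Ideal.Quotient.mkₐ O J)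
  let f : κ ⊗[O] B →ₐ[κ] (B ⧸ p) × (B ⧸ J) :=
    Algebra.TensorProduct.lift (Algebra.ofId κ _) g (fun _ _ => Commute.all _ _)
  have hf : ∀ b : B, f ((1 : κ) ⊗ₜ[O] b) = (Ideal.Quotient.mk p b, Ideal.Quotient.mk J b) := by
    intro b
    simp [f, g]
  have hall : ∀ t : κ ⊗[O] B, ∃ b : B, t = (1 : κ) ⊗ₜ[O] b := by
    intro t
    induction t with
    | zero => exact ⟨0, by simp⟩
    | tmul a b =>
      obtain ⟨r, hr⟩ := hs a
      refine ⟨r • b, ?_⟩
      rw [← TensorProduct.smul_tmul, Algebra.smul_def, hr, mul_one]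
    | add x y hx hy =>
      obtain ⟨b, rfl⟩ := hx
      obtain ⟨c, rfl⟩ := hy
      exact ⟨b + c, by rw [TensorProduct.tmul_add]⟩
  have hbij : Function.Bijective f := by
    constructor
    · rw [injective_iff_map_eq_zero]
      intro t ht
      obtain ⟨b, rfl⟩ := hall t
      rw [hf, Prod.mk_eq_zero, Ideal.Quotient.eq_zero_iff_mem, Ideal.Quotient.eq_zero_iff_mem] at ht
      have hb : b ∈ (RingHom.ker (algebraMap O κ)).map (algebraMap O B) := by
        rw [← hpJ]; exact ht
      refine Submodule.span_induction (p := fun b _ => (1 : κ) ⊗ₜ[O] b = 0) ?_ (by simp) ?_ ?_ hb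
      · rintro x ⟨r, hr, rfl⟩
        rw [SetLike.mem_coe, RingHom.mem_ker] at hr
        have : algebraMap O B r = r • (1 : B) := Algebra.algebraMap_eq_smul_one r
        rw [this, ← TensorProduct.smul_tmul, Algebra.smul_def, hr, zero_mul, TensorProduct.zero_tmul]
      · intro x y _ _ hx hy
        rw [TensorProduct.tmul_add, hx, hy, add_zero]
      · intro a x _ hx
        have : (1 : κ) ⊗ₜ[O] (a • x) = ((1 : κ) ⊗ₜ[O] a) * ((1 : κ) ⊗ₜ[O] x) := by
          rw [Algebra.TensorProduct.tmul_mul_tmul, one_mul, smul_eq_mul]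
        rw [this, hx, mul_zero]
    · rintro ⟨x, y⟩
      obtain ⟨x, rfl⟩ := Ideal.Quotient.mk_surjective x
      obtain ⟨y, rfl⟩ := Ideal.Quotient.mk_surjective y
      obtain ⟨u, hu, v, hv, huv⟩ := Ideal.isCoprime_iff_exists.mp hc
      refine ⟨(1 : κ) ⊗ₜ[O] (x * v + y * u), ?_⟩
      rw [hf]
      ext
      · rw [Ideal.Quotient.mk_eq_mk_iff_sub_mem]
        have : x * v + y * u - x = (y - x) * u := by
          linear_combination x * huv
        rw [this]; exact p.mul_mem_left _ hu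
      · rw [Ideal.Quotient.mk_eq_mk_iff_sub_mem]
        have : x * v + y * u - y = (x - y) * v := by
          linear_combination y * huv
        rw [this]; exact J.mul_mem_left _ hv
  exact ⟨AlgEquiv.ofBijective f hbij, hf⟩

/-- **Chart lemma**, ideal form. -/
theorem chart (hs : Function.Surjective (algebraMap O κ)) (p J : Ideal B) [hp : p.IsMaximal]
    (hpJ : p ⊓ J = (RingHom.ker (algebraMap O κ)).map (algebraMap O B)) (hc : IsCoprime p J)
    [Algebra κ (B ⧸ p)] [IsScalarTower O κ (B ⧸ p)]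
    (hsep : Algebra.IsSeparable κ (B ⧸ p)) (z : B)
    (hz : Algebra.adjoin κ {(Ideal.Quotient.mk p z : B ⧸ p)} = ⊤) (hzp : z ∉ p)
    (hzJ : z ∈ J.radical) :
    ∃ F : O[X], F.Monic ∧ aeval z F = 0 ∧ aeval z (derivative F) ∉ p := by
  letI : Field (B ⧸ p) := Ideal.Quotient.field p
  have hker : ∀ a : O, algebraMap O κ a = 0 → algebraMap O (B ⧸ J) a = 0 := by
    intro a ha
    have h1 : algebraMap O B a ∈ p ⊓ J := by
      rw [hpJ]; exact Ideal.mem_map_of_mem _ ha
    rw [IsScalarTower.algebraMap_apply O B (B ⧸ J)]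
    exact Ideal.Quotient.eq_zero_iff_mem.mpr h1.2
  let q : κ →+* (B ⧸ J) :=
    (Ideal.Quotient.lift (RingHom.ker (algebraMap O κ)) (algebraMap O (B ⧸ J)) hker).comp
      (RingHom.quotientKerEquivOfSurjective hs).symm.toRingHom
  have hq : ∀ a : O, q (algebraMap O κ a) = algebraMap O (B ⧸ J) a := by
    intro a
    have : (RingHom.quotientKerEquivOfSurjective hs).symm (algebraMap O κ a) =
        Ideal.Quotient.mk _ a := by
      rw [RingEquiv.symm_apply_eq]; rfl
    simp only [q, RingHom.comp_apply, RingEquiv.toRingHom_eq_coe, RingHom.coe_coe, this]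
    exact Ideal.Quotient.lift_mk _ _ _
  letI : Algebra κ (B ⧸ J) := q.toAlgebra
  haveI : IsScalarTower O κ (B ⧸ J) := IsScalarTower.of_algebraMap_eq fun a => (hq a).symm
  haveI : Module.Finite κ (B ⧸ p) := Module.Finite.of_restrictScalars_finite O κ (B ⧸ p)
  haveI : Module.Finite κ (B ⧸ J) := Module.Finite.of_restrictScalars_finite O κ (B ⧸ J)
  obtain ⟨e, he⟩ := exists_equiv hs p J hpJ hc
  have h1 : (e ((1 : κ) ⊗ₜ[O] z)).1 = Ideal.Quotient.mk p z := by rw [he]
  have h2 : (e ((1 : κ) ⊗ₜ[O] z)).2 = Ideal.Quotient.mk J z := by rw [he]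
  have h3 := map_cp_eq e z (by rw [h1]; exact hz) (by
    rw [h2]
    obtain ⟨n, hn⟩ := hzJ
    exact ⟨n, by rw [← map_pow]; exact Ideal.Quotient.eq_zero_iff_mem.mpr hn⟩)
  refine ⟨cp O z, cp_monic z, aeval_cp z, fun hmem => ?_⟩
  have h4 : aeval (Ideal.Quotient.mk p z : B ⧸ p) (derivative ((cp O z).map (algebraMap O κ))) = 0 := by
    rw [derivative_map, aeval_map_algebraMap]
    have : aeval (Ideal.Quotient.mk p z : B ⧸ p) (derivative (cp O z)) =
        Ideal.Quotient.mkₐ O p (aeval z (derivative (cp O z))) := by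
      rw [← aeval_algHom_apply]; rfl
    rw [this]
    exact Ideal.Quotient.eq_zero_iff_mem.mpr hmem
  rw [h3, h1] at h4
  exact aeval_derivative_ne (κ := κ) (Ideal.Quotient.mk p z : B ⧸ p)
    (fun h => hzp (Ideal.Quotient.eq_zero_iff_mem.mp h)) _ h4

end Ideal

end Crest.Agent.R013.T2A_83
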