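import Crest.Agent.R013.StabF_83
import Crest.Agent.R013.T2A_83

/-!
# Consequences of `StabF_83.Out` (helper83, row 13)
-/

set_option autoImplicit false
set_option linter.unusedSectionVars false
set_option linter.style.haveILetI false

namespace Crest.Agent.R013.StabF_83

open TensorProduct NNReal Polynomial
open scoped NNReal

universe u

/-- from a bound with a constant to a bound without -/
theorem le_of_bound {K : Type*} [Field K] {I : Type*} (w : I → Valuation K ℝ≥0)
    (v : Valuation K ℝ≥0) (A : ℝ≥0)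
    (key : ∀ (y : K) (M : ℝ≥0), (∀ i, w i y ≤ M) → v y ≤ M * A)
    (y : K) (M : ℝ≥0) (hM : ∀ i, w i y ≤ M) : v y ≤ M := by
  have hpow : ∀ n : ℕ, v y ^ n ≤ M ^ n * A := by
    intro n
    rw [← map_pow]
    refine key _ _ fun i => ?_
    rw [map_pow]
    exact pow_le_pow_left' (hM i) n
  by_contra hlt
  push Not at hlt
  by_cases hM0 : M = 0
  · subst hM0
    have := key y 0 hM
    rw [zero_mul] at this
    exact absurd this (not_le.mpr hlt)
  have hr : 1 < v y / M := by rwa [one_lt_div (pos_iff_ne_zero.mpr hM0)]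
  obtain ⟨n, hn⟩ := pow_unbounded_of_one_lt A hr
  have h2 := hpow n
  rw [div_pow, lt_div_iff₀ (by positivity)] at hn
  rw [mul_comm] at h2
  exact absurd h2 (not_le.mpr hn)

/-- weak approximation implies pairwise distinct -/
theorem injective_of_approx {K : Type*} [Field K] {I : Type*} (w : I → Valuation K ℝ≥0)
    (approx : ∀ (a : I → K) (ε : ℝ≥0), 0 < ε → ∃ y : K, ∀ i, w i (y - a i) < ε) :
    Function.Injective w := by
  classical
  intro i j hij
  by_contra hne
  obtain ⟨y, hy⟩ := approx (fun l => if l = i then 1 else 0) 1 one_pos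
  have h1 := hy i
  have h2 := hy j
  simp only [if_true] at h1
  simp only [if_neg (Ne.symm hne), sub_zero] at h2
  rw [← hij] at h2
  have : w i (1 : K) < 1 := by
    have h3 : (1 : K) = y - (y - 1) := by ring
    rw [h3]
    exact (Valuation.map_sub _ _ _).trans_lt (max_lt h2 h1)
  rw [map_one] at this
  exact lt_irrefl _ this

/-- a valuation bounded by the sup of the `w i` (up to a constant) is one of them -/
theorem complete_of_bound {K : Type*} [Field K] {I : Type*} [Fintype I] (w : I → Valuation K ℝ≥0)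
    (approx : ∀ (a : I → K) (ε : ℝ≥0), 0 < ε → ∃ y : K, ∀ i, w i (y - a i) < ε)
    (v : Valuation K ℝ≥0) (A : ℝ≥0)
    (key : ∀ (y : K) (M : ℝ≥0), (∀ i, w i y ≤ M) → v y ≤ M * A) :
    ∃ i, v = w i := by
  classical
  have hidem : ∀ i, ∃ y : K, w i (y - 1) < 1 ∧ ∀ j, j ≠ i → w j y < 1 := by
    intro i
    obtain ⟨y, hy⟩ := approx (fun l => if l = i then 1 else 0) 1 one_pos
    refine ⟨y, by simpa using hy i, fun j hj => ?_⟩
    have := hy j
    simpa [hj] using this
  choose ε hε1 hε2 using hidem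
  have hεi : ∀ i, w i (ε i) = 1 := by
    intro i
    have : ε i = 1 + (ε i - 1) := by ring
    rw [this, Valuation.map_add_eq_of_lt_left _ (by rw [map_one]; exact hε1 i), map_one]
  have hεle : ∀ i j, w j (ε i) ≤ 1 := by
    intro i j
    by_cases h : j = i
    · subst h; exact (hεi _).le
    · exact (hε2 i j h).le
  -- strict version of the bound
  have hlt : ∀ y : K, (∀ i, w i y < 1) → v y < 1 := by
    intro y hy
    by_cases hI : (Finset.univ : Finset I).Nonempty
    · obtain ⟨m, -, hm⟩ := Finset.exists_max_image Finset.univ (fun i => w i y) hI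
      exact (le_of_bound w v A key y _ fun i => hm i (Finset.mem_univ i)).trans_lt (hy m)
    · have h0 := le_of_bound w v A key y 0 fun i => absurd ⟨i, Finset.mem_univ i⟩ hI
      exact h0.trans_lt one_pos
  have hsum : v (∑ i, ε i) = 1 := by
    have h1 : v ((∑ i, ε i) - 1) < 1 := by
      apply hlt
      intro j
      have : (∑ i, ε i) - 1 = (ε j - 1) + ∑ i ∈ Finset.univ.erase j, ε i := by
        rw [← Finset.add_sum_erase _ _ (Finset.mem_univ j)]; ring
      rw [this]
      refine (Valuation.map_add _ _ _).trans_lt (max_lt (hε1 j) ?_)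
      exact Valuation.map_sum_lt _ one_ne_zero fun i hi =>
        hε2 i j (Ne.symm (Finset.ne_of_mem_erase hi))
    have : (∑ i, ε i) = 1 + ((∑ i, ε i) - 1) := by ring
    rw [this, Valuation.map_add_eq_of_lt_left _ (by rw [map_one]; exact h1), map_one]
  obtain ⟨i, hi⟩ : ∃ i, v (ε i) = 1 := by
    by_contra hcon
    push Not at hcon
    have : v (∑ i, ε i) < 1 := by
      refine Valuation.map_sum_lt _ one_ne_zero fun i _ => ?_
      exact lt_of_le_of_ne (le_of_bound w v A key _ _ fun j => hεle i j) (hcon i)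
    rw [hsum] at this
    exact lt_irrefl _ this
  refine ⟨i, ?_⟩
  -- v y ≤ w i y
  have hle : ∀ y : K, y ≠ 0 → v y ≤ w i y := by
    intro y hy
    have hpos : 0 < w i y := pos_iff_ne_zero.mpr ((Valuation.ne_zero_iff _).mpr hy)
    obtain ⟨n, hn⟩ : ∃ n : ℕ, ∀ j, w j (y * ε i ^ n) ≤ w i y := by
      have h1 : ∀ j, ∃ n : ℕ, ∀ m, n ≤ m → w j (y * ε i ^ m) ≤ w i y := by
        intro j
        by_cases hj : j = i
        · subst hj
          exact ⟨0, fun m _ => by rw [map_mul, map_pow, hεi, one_pow, mul_one]⟩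
        · have h2 := hε2 i j hj
          have h3 : Filter.Tendsto (fun n : ℕ => w j y * (w j (ε i)) ^ n) Filter.atTop
              (nhds (w j y * 0)) :=
            (NNReal.tendsto_pow_atTop_nhds_zero_of_lt_one h2).const_mul _
          rw [mul_zero] at h3
          obtain ⟨n, hn⟩ := Filter.eventually_atTop.mp (h3.eventually_le_const hpos)
          exact ⟨n, fun m hm => by rw [map_mul, map_pow]; exact hn m hm⟩
      choose N hN using h1
      refine ⟨∑ j, N j, fun j => hN j _ ?_⟩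
      exact Finset.single_le_sum (f := N) (fun _ _ => Nat.zero_le _) (Finset.mem_univ j)
    have := le_of_bound w v A key _ _ hn
    rwa [map_mul, map_pow, hi, one_pow, mul_one] at this
  ext y
  by_cases hy : y = 0
  · simp [hy]
  refine congrArg _ (le_antisymm (hle y hy) ?_)
  have h1 := hle y⁻¹ (inv_ne_zero hy)
  rw [map_inv₀, map_inv₀] at h1
  have hpos : 0 < w i y := pos_iff_ne_zero.mpr ((Valuation.ne_zero_iff _).mpr hy)
  have hpos' : 0 < v y := pos_iff_ne_zero.mpr ((Valuation.ne_zero_iff _).mpr hy)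
  exact (inv_le_inv₀ hpos' hpos).mp h1

namespace Out

variable {F E K : Type u} [Field F] [NontriviallyNormedField E] [IsUltrametricDist E]
  [Algebra F E] [Field K] [Algebra F K] {I : Type u} [Fintype I] (o : Out F E K I)

theorem sum_le (i : I) (c : (Σ i, Fin (o.d i)) → F) (M : ℝ≥0)
    (hM : ∀ l, ‖algebraMap F E (c l)‖₊ ≤ M) : o.w i (∑ l, c l • o.b l) ≤ M := by
  refine Valuation.map_sum_le _ fun l _ => ?_
  rw [Algebra.smul_def, map_mul, o.w_alg]
  calc _ ≤ M * 1 := mul_le_mul' (hM l) (o.b_le i l)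
    _ = M := mul_one M

theorem exists_coeff (y : K) : ∃ c : (Σ i, Fin (o.d i)) → F, y = ∑ l, c l • o.b l :=
  ⟨fun l => o.b.repr y l, (o.b.sum_repr y).symm⟩

/-- the sup of the valuations -/
theorem exists_max_coeff (y : K) (hy : y ≠ 0) : ∃ (c : (Σ i, Fin (o.d i)) → F) (m : Σ i, Fin (o.d i)),
    y = ∑ l, c l • o.b l ∧ (∀ l, ‖algebraMap F E (c l)‖₊ ≤ ‖algebraMap F E (c m)‖₊) ∧ c m ≠ 0 := by
  classical
  obtain ⟨c, hc⟩ := o.exists_coeff y
  have hne : ∃ l, c l ≠ 0 := by
    by_contra h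
    push Not at h
    apply hy
    rw [hc]
    exact Finset.sum_eq_zero fun l _ => by rw [h l, zero_smul]
  obtain ⟨l0, hl0⟩ := hne
  obtain ⟨m, -, hm⟩ := Finset.exists_max_image Finset.univ
    (fun l => ‖algebraMap F E (c l)‖₊) ⟨l0, Finset.mem_univ l0⟩
  refine ⟨c, m, hc, fun l => hm l (Finset.mem_univ l), fun h => hl0 ?_⟩
  have := hm l0 (Finset.mem_univ l0)
  rw [h, map_zero, nnnorm_zero, nonpos_iff_eq_zero, nnnorm_eq_zero] at this
  exact (map_eq_zero _).mp this

theorem all_lt_iff (y : K) (M : ℝ≥0) (hM : 0 < M) :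
    (∀ i, o.w i y < M) ↔ ∀ l, ‖algebraMap F E (o.b.repr y l)‖₊ < M := by
  constructor
  · intro h l
    obtain ⟨i, hi⟩ := o.ge (fun l => o.b.repr y l) l
    rw [o.b.sum_repr] at hi
    exact hi.trans_lt (h i)
  · intro h i
    rw [← o.b.sum_repr y]
    refine Valuation.map_sum_lt _ hM.ne' fun l _ => ?_
    rw [Algebra.smul_def, map_mul, o.w_alg]
    calc _ ≤ ‖algebraMap F E (o.b.repr y l)‖₊ * 1 := mul_le_mul' le_rfl (o.b_le i l)
      _ < M := by rw [mul_one]; exact h l

theorem all_le_iff (y : K) (M : ℝ≥0) :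
    (∀ i, o.w i y ≤ M) ↔ ∀ l, ‖algebraMap F E (o.b.repr y l)‖₊ ≤ M := by
  constructor
  · intro h l
    obtain ⟨i, hi⟩ := o.ge (fun l => o.b.repr y l) l
    rw [o.b.sum_repr] at hi
    exact hi.trans (h i)
  · intro h i
    rw [← o.b.sum_repr y]
    exact o.sum_le i _ M h

/-- value groups -/
theorem exists_val (i : I) (y : K) : ∃ f : F, ‖algebraMap F E f‖₊ = o.w i y := by
  classical
  by_cases hy : y = 0
  · exact ⟨0, by simp [hy]⟩
  have hpos : 0 < o.w i y := by
    rw [pos_iff_ne_zero]; exact (Valuation.ne_zero_iff _).mpr hy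
  obtain ⟨z, hz⟩ := o.approx (fun j => if j = i then y else 0) (o.w i y) hpos
  have hzi : o.w i z = o.w i y := by
    have h := hz i
    simp only [if_true] at h
    have : z = y + (z - y) := by ring
    rw [this]
    exact Valuation.map_add_eq_of_lt_left _ h
  have hall : ∀ j, o.w j z ≤ o.w i y := by
    intro j
    by_cases hj : j = i
    · subst hj; exact hzi.le
    · have h := hz j
      simp only [if_neg hj, sub_zero] at h
      exact h.le
  have h1 := (o.all_le_iff z _).mp hall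
  by_contra hcon
  push Not at hcon
  have h2 : ∀ l, ‖algebraMap F E (o.b.repr z l)‖₊ < o.w i y := fun l =>
    lt_of_le_of_ne (h1 l) (hcon _)
  have h3 := (o.all_lt_iff z _ hpos).mpr h2 i
  rw [hzi] at h3
  exact lt_irrefl _ h3

theorem w_injective : Function.Injective o.w := injective_of_approx o.w o.approx

/-- the residues of the `b ⟨i, l⟩` are independent -/
theorem res_ge (i : I) (c : Fin (o.d i) → F) (l : Fin (o.d i)) :
    ‖algebraMap F E (c l)‖₊ ≤ o.w i (∑ l, c l • o.b ⟨i, l⟩) := by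
  classical
  obtain ⟨m, -, hm⟩ := Finset.exists_max_image Finset.univ
    (fun l => ‖algebraMap F E (c l)‖₊) ⟨l, Finset.mem_univ l⟩
  refine (hm l (Finset.mem_univ l)).trans ?_
  by_cases h0 : ‖algebraMap F E (c m)‖₊ = 0
  · rw [h0]; exact zero_le
  let c' : (Σ i, Fin (o.d i)) → F := fun j => if h : j.1 = i then c (h ▸ j.2) else 0
  have hc' : ∀ l, c' ⟨i, l⟩ = c l := fun l => by simp [c']
  have hsum : ∑ j, c' j • o.b j = ∑ l, c l • o.b ⟨i, l⟩ := by
    rw [Fintype.sum_sigma, Finset.sum_eq_single i]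
    · exact Finset.sum_congr rfl fun l _ => by rw [hc']
    · intro j _ hj
      refine Finset.sum_eq_zero fun l _ => ?_
      simp [c', hj]
    · intro h; exact absurd (Finset.mem_univ i) h
  obtain ⟨j, hj⟩ := o.ge c' ⟨i, m⟩
  rw [hc', hsum] at hj
  by_cases hji : j = i
  · subst hji; exact hj
  exfalso
  refine absurd hj (not_le.mpr ?_)
  refine Valuation.map_sum_lt _ h0 fun l _ => ?_
  rw [Algebra.smul_def, map_mul, o.w_alg]
  calc ‖algebraMap F E (c l)‖₊ * o.w j (o.b ⟨i, l⟩)
      ≤ ‖algebraMap F E (c m)‖₊ * o.w j (o.b ⟨i, l⟩) := mul_le_mul' (hm l (Finset.mem_univ l)) le_rfl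
    _ < ‖algebraMap F E (c m)‖₊ * 1 := by
        refine mul_lt_mul_of_pos_left (o.b_lt j ⟨i, l⟩ (Ne.symm hji)) (pos_iff_ne_zero.mpr h0)
    _ = _ := mul_one _

/-- the residues of the `b ⟨i, l⟩` generate -/
theorem res_gen (i : I) (y : K) (hy : o.w i y ≤ 1) : ∃ c : Fin (o.d i) → F,
    (∀ l, ‖algebraMap F E (c l)‖₊ ≤ 1) ∧ o.w i (y - ∑ l, c l • o.b ⟨i, l⟩) < 1 := by
  classical
  obtain ⟨z, hz⟩ := o.approx (fun j => if j = i then y else 0) 1 one_pos
  have hzi : o.w i (z - y) < 1 := by simpa using hz i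
  have hall : ∀ j, o.w j z ≤ 1 := by
    intro j
    by_cases hj : j = i
    · subst hj
      have : z = (z - y) + y := by ring
      rw [this]
      exact (Valuation.map_add _ _ _).trans (max_le hzi.le hy)
    · have h := hz j
      simp only [if_neg hj, sub_zero] at h
      exact h.le
  have h1 := (o.all_le_iff z _).mp hall
  refine ⟨fun l => o.b.repr z ⟨i, l⟩, fun l => h1 _, ?_⟩
  have h2 : z - ∑ l, o.b.repr z ⟨i, l⟩ • o.b ⟨i, l⟩ =
      ∑ j ∈ Finset.univ.erase i, ∑ l, o.b.repr z ⟨j, l⟩ • o.b ⟨j, l⟩ := by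
    have h0 : ∑ j, o.b.repr z j • o.b j = z := o.b.sum_repr z
    rw [Fintype.sum_sigma, ← Finset.add_sum_erase _ _ (Finset.mem_univ i)] at h0
    rw [sub_eq_iff_eq_add, add_comm]
    exact h0.symm
  have h3 : o.w i (z - ∑ l, o.b.repr z ⟨i, l⟩ • o.b ⟨i, l⟩) < 1 := by
    rw [h2]
    refine Valuation.map_sum_lt _ one_ne_zero fun j hj => ?_
    refine Valuation.map_sum_lt _ one_ne_zero fun l _ => ?_
    rw [Algebra.smul_def, map_mul, o.w_alg]
    calc _ ≤ 1 * o.w i (o.b ⟨j, l⟩) := mul_le_mul' (h1 _) le_rfl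
      _ < 1 := by rw [one_mul]; exact o.b_lt i ⟨j, l⟩ (Finset.ne_of_mem_erase hj)
  have h4 : y - ∑ l, o.b.repr z ⟨i, l⟩ • o.b ⟨i, l⟩ =
      (z - ∑ l, o.b.repr z ⟨i, l⟩ • o.b ⟨i, l⟩) - (z - y) := by ring
  rw [h4]
  exact (Valuation.map_sub _ _ _).trans_lt (max_lt h3 hzi)

/-- bound of any valuation extending the norm by the sup -/
theorem exists_bound (v : Valuation K ℝ≥0) (hv : ∀ f, v (algebraMap F K f) = ‖algebraMap F E f‖₊) :
    ∃ A : ℝ≥0, ∀ (y : K) (M : ℝ≥0), (∀ i, o.w i y ≤ M) → v y ≤ M * A := by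
  classical
  obtain ⟨A, hA⟩ : ∃ A : ℝ≥0, ∀ l, v (o.b l) ≤ A := by
    refine ⟨∑ l, v (o.b l), fun l => ?_⟩
    exact Finset.single_le_sum (f := fun l => v (o.b l)) (fun _ _ => zero_le) (Finset.mem_univ l)
  refine ⟨A, fun y M hM => ?_⟩
  have h1 := (o.all_le_iff y _).mp hM
  rw [← o.b.sum_repr y]
  refine Valuation.map_sum_le _ fun l _ => ?_
  rw [Algebra.smul_def, map_mul, hv]
  exact mul_le_mul' (h1 l) (hA l)

theorem exists_le (v : Valuation K ℝ≥0) (hv : ∀ f, v (algebraMap F K f) = ‖algebraMap F E f‖₊)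
    (y : K) (M : ℝ≥0) (hM : ∀ i, o.w i y ≤ M) : v y ≤ M := by
  obtain ⟨A, hA⟩ := o.exists_bound v hv
  exact le_of_bound o.w v A hA y M hM

/-- completeness of the list -/
theorem complete (v : Valuation K ℝ≥0) (hv : ∀ f, v (algebraMap F K f) = ‖algebraMap F E f‖₊) :
    ∃ i, v = o.w i := by
  obtain ⟨A, hA⟩ := o.exists_bound v hv
  exact complete_of_bound o.w o.approx v A hA

end Out

end Crest.Agent.R013.StabF_83
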