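import Mathlib
import Crest.Agent.R013.Stab12_460
import Crest.Agent.R013.StabD_83
import Crest.Agent.R013.StabG_83
import Crest.Agent.R013.LU5_935
import Crest.Agent.R013.PL1_109

/-!
# STAB → STABF, and the Gauss points of `RatFunc C`

`stab_complete` (460) is turned into the hypothesis `hON` of helper83's `stabF`; completion of a
field with a rank one valuation; the output of `STABF` over every type 2 point of the line.
-/

set_option autoImplicit false

namespace Crest.Agent.R013.StabR_460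

open Polynomial Module
open scoped NNReal
open Crest.Agent.R013.StabF_83 (IsON Out sv coe_sv)

universe u

/-- hypothesis `hON` of `stabF`. -/
theorem hON {C : Type*} [Field C] [IsAlgClosed C] [CharZero C] {E : Type u}
    [NontriviallyNormedField E] [IsUltrametricDist E] [CompleteSpace E] [Algebra C E]
    (p : ℕ) [hpp : Fact p.Prime] (hp : ‖(p : E)‖ < 1) (x : E) (hx : ‖x‖ ≤ 1)
    (gauss : ∀ (f : C[X]) (i : ℕ), ‖algebraMap C E (f.coeff i)‖ ≤ ‖aeval x f‖)
    (dense : ∀ h : E, ∀ ε : ℝ, 0 < ε → ∃ f g : C[X], g ≠ 0 ∧ ‖h - aeval x f / aeval x g‖ < ε)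
    (L : Type u) [Field L] [Algebra E L] [FiniteDimensional E L] :
    ∃ b : Module.Basis (Fin (finrank E L)) E L, IsON (E := E) b := by
  obtain ⟨b, h1, h2⟩ := Stab12_460.stab_complete p hp x hx gauss dense L
  refine ⟨b, fun i => ?_, fun c i => ?_⟩
  · rw [← NNReal.coe_le_coe, coe_sv]; exact h1 i
  · rw [← NNReal.coe_le_coe, coe_sv]; exact h2 c i

/-- **Completion** of a field with a nontrivial rank one valuation. -/
theorem exists_completion (F : Type u) [Field F] (w0 : Valuation F ℝ≥0) (hnt : ∃ c, 1 < w0 c) :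
    ∃ (E : Type u) (_ : NontriviallyNormedField E) (_ : CompleteSpace E)
      (_ : IsUltrametricDist E) (_ : Algebra F E), DenseRange (algebraMap F E) ∧
      ∀ f, ‖algebraMap F E f‖₊ = w0 f := by
  let nF : NormedField F := (LU5_935.absOf w0).toNormedField
  have hn : ∀ z : F, ‖z‖ = w0 z := fun z => rfl
  have hu : IsUltrametricDist F := by
    apply IsUltrametricDist.isUltrametricDist_of_isNonarchimedean_norm
    intro x y
    rw [hn, hn, hn]
    exact_mod_cast w0.map_add x y
  let E := UniformSpace.Completion F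
  have hnc : ∀ z : F, ‖algebraMap F E z‖ = w0 z := fun z => UniformSpace.Completion.norm_coe z
  let hnn : NontriviallyNormedField E :=
    { (inferInstance : NormedField E) with
      non_trivial := by
        obtain ⟨c, hc⟩ := hnt
        exact ⟨algebraMap F E c, by rw [hnc]; exact_mod_cast hc⟩ }
  have hult : IsUltrametricDist E := by
    apply IsUltrametricDist.isUltrametricDist_of_isNonarchimedean_norm
    intro x y
    induction x, y using UniformSpace.Completion.induction_on₂ with
    | hp => exact isClosed_le (by fun_prop) (by fun_prop)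
    | ih x y =>
      rw [← UniformSpace.Completion.coe_add, UniformSpace.Completion.norm_coe,
        UniformSpace.Completion.norm_coe, UniformSpace.Completion.norm_coe]
      exact IsUltrametricDist.norm_add_le_max x y
  exact ⟨E, hnn, inferInstance, hult, inferInstance, UniformSpace.Completion.denseRange_coe,
    fun f => NNReal.coe_injective (hnc f)⟩

/-- **STABF for the Gauss point of an abstract `F = C(x)`**. -/
theorem out_of_gauss {C : Type*} [Field C] [IsAlgClosed C] [CharZero C] (F : Type u) [Field F]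
    [Algebra C F] (w0 : Valuation F ℝ≥0) (p : ℕ) [hpp : Fact p.Prime] (hp : w0 (p : F) < 1)
    (x : F) (hx : w0 x ≤ 1)
    (gauss : ∀ (f : C[X]) (i : ℕ), w0 (algebraMap C F (f.coeff i)) ≤ w0 (aeval x f))
    (frac : ∀ h : F, ∃ f g : C[X], g ≠ 0 ∧ h = aeval x f / aeval x g)
    (K : Type u) [Field K] [Algebra F K] [FiniteDimensional F K] :
    ∃ (E : Type u) (_ : NontriviallyNormedField E) (_ : CompleteSpace E)
      (_ : IsUltrametricDist E) (_ : Algebra F E), DenseRange (algebraMap F E) ∧
      (∀ f, ‖algebraMap F E f‖₊ = w0 f) ∧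
      ∃ (I : Type u) (_ : Fintype I), Nonempty (Out F E K I) := by
  have hcF : CharZero F := charZero_of_injective_algebraMap (algebraMap C F).injective
  have hnt : ∃ c, 1 < w0 c := by
    refine ⟨((p : F))⁻¹, ?_⟩
    rw [map_inv₀]
    have hp0 : w0 (p : F) ≠ 0 := by
      rw [Valuation.ne_zero_iff]
      exact Nat.cast_ne_zero.2 hpp.out.ne_zero
    exact (one_lt_inv₀ (pos_iff_ne_zero.2 hp0)).2 hp
  obtain ⟨E, i1, i2, i3, i4, hd, hw⟩ := exists_completion F w0 hnt
  refine ⟨E, i1, i2, i3, i4, hd, hw, ?_⟩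
  let aCE : Algebra C E := ((algebraMap F E).comp (algebraMap C F)).toAlgebra
  have hsc : IsScalarTower C F E := IsScalarTower.of_algebraMap_eq fun _ => rfl
  have hn : ∀ f : F, ‖algebraMap F E f‖ = w0 f := fun f => by
    have := congrArg NNReal.toReal (hw f)
    rwa [coe_nnnorm] at this
  have hae : ∀ f : C[X], aeval (algebraMap F E x) f = algebraMap F E (aeval x f) := fun f =>
    aeval_algebraMap_apply E x f
  refine StabF_83.stabF F E K hd fun L _ _ _ => ?_
  refine hON (C := C) p ?_ (algebraMap F E x) ?_ ?_ ?_ L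
  · have := hn (p : F)
    rw [map_natCast] at this
    rw [this]
    exact_mod_cast hp
  · rw [hn]; exact_mod_cast hx
  · intro f i
    rw [hae, IsScalarTower.algebraMap_apply C F E, hn, hn]
    exact_mod_cast gauss f i
  · intro h ε hε
    obtain ⟨a, ha⟩ := hd.exists_dist_lt h hε
    obtain ⟨f, g, hg, hfg⟩ := frac a
    refine ⟨f, g, hg, ?_⟩
    rw [hae, hae, ← map_div₀, ← hfg, ← dist_eq_norm]
    exact ha

/-- the coordinate `(X - a)/ρ` of a disc. -/
noncomputable def coord {C : Type*} [Field C] (a ρ : C) : RatFunc C :=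
  (RatFunc.X - RatFunc.C a) / RatFunc.C ρ

section Line

variable {C : Type*} [Field C] (v : Valuation C ℝ≥0)

lemma aeval_coord (a ρ : C) (f : C[X]) :
    aeval (coord a ρ) f = algebraMap C[X] (RatFunc C)
      (f.comp (Polynomial.C ρ⁻¹ * (X - Polynomial.C a))) := by
  have h1 : coord a ρ = algebraMap C[X] (RatFunc C) (Polynomial.C ρ⁻¹ * (X - Polynomial.C a)) := by
    rw [map_mul, PL_109.algebraMap_X_sub, RatFunc.algebraMap_C, coord, div_eq_inv_mul, map_inv₀]
  rw [h1, aeval_algebraMap_apply]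
  rfl

lemma gaussR_aeval (a ρ : C) (hr : v ρ ≠ 0) (f : C[X]) (i : ℕ) :
    v (f.coeff i) ≤ PL_109.gaussR v a (v ρ) hr (aeval (coord a ρ) f) := by
  rw [aeval_coord, PL_109.gaussR_algebraMap]
  have h1 : taylor a (f.comp (Polynomial.C ρ⁻¹ * (X - Polynomial.C a))) =
      f.comp (Polynomial.C ρ⁻¹ * X) := by
    rw [taylor_apply, comp_assoc]
    congr 1
    simp
  rw [h1]
  refine le_trans ?_ (PL_109.le_gf v (v ρ) _ i)
  rw [comp_C_mul_X_coeff, map_mul, map_pow, map_inv₀, mul_assoc, ← mul_pow,
    inv_mul_cancel₀ hr, one_pow, mul_one]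

lemma frac_coord (a ρ : C) (hρ : ρ ≠ 0) (h : RatFunc C) :
    ∃ f g : C[X], g ≠ 0 ∧ h = aeval (coord a ρ) f / aeval (coord a ρ) g := by
  have key : ∀ q : C[X], aeval (coord a ρ) (q.comp (Polynomial.C ρ * X + Polynomial.C a)) =
      algebraMap C[X] (RatFunc C) q := by
    intro q
    rw [aeval_coord, comp_assoc]
    congr 1
    have : (Polynomial.C ρ * X + Polynomial.C a).comp (Polynomial.C ρ⁻¹ * (X - Polynomial.C a)) =
        X := by
      simp only [add_comp, mul_comp, C_comp, X_comp]
      rw [← mul_assoc, ← Polynomial.C_mul, mul_inv_cancel₀ hρ]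
      simp
    rw [this, comp_X]
  refine ⟨h.num.comp (Polynomial.C ρ * X + Polynomial.C a),
    h.denom.comp (Polynomial.C ρ * X + Polynomial.C a), ?_, ?_⟩
  · intro h0
    have := key h.denom
    rw [h0, map_zero] at this
    exact RatFunc.denom_ne_zero h ((map_eq_zero_iff _ (IsFractionRing.injective C[X]
      (RatFunc C))).1 this.symm)
  · rw [key, key, RatFunc.num_div_denom]

end Line

/-- **STABF at every type 2 point of the line**: `C` algebraically closed of characteristic `0`
with a valuation `v`, `v p < 1`; `a` a centre, `ρ ≠ 0`; `K / C(X)` finite. -/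
theorem out_gaussR {C : Type u} [Field C] [IsAlgClosed C] [CharZero C] (v : Valuation C ℝ≥0)
    (p : ℕ) [hpp : Fact p.Prime] (hp : v (p : C) < 1) (a ρ : C) (hρ : ρ ≠ 0) (hr : v ρ ≠ 0)
    (K : Type u) [Field K] [Algebra (RatFunc C) K] [FiniteDimensional (RatFunc C) K] :
    ∃ (E : Type u) (_ : NontriviallyNormedField E) (_ : CompleteSpace E)
      (_ : IsUltrametricDist E) (_ : Algebra (RatFunc C) E),
      DenseRange (algebraMap (RatFunc C) E) ∧
      (∀ f, ‖algebraMap (RatFunc C) E f‖₊ = PL_109.gaussR v a (v ρ) hr f) ∧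
      ∃ (I : Type u) (_ : Fintype I), Nonempty (Out (RatFunc C) E K I) := by
  refine out_of_gauss (C := C) (RatFunc C) (PL_109.gaussR v a (v ρ) hr) p ?_ (coord a ρ) ?_ ?_
    (frac_coord a ρ hρ) K
  · have : ((p : ℕ) : RatFunc C) = RatFunc.C (p : C) := by rw [map_natCast]
    rw [this, PL_109.gaussR_C]; exact hp
  · rw [coord, map_div₀, PL_109.gaussR_C, PL_109.gaussR_X_sub, sub_self, map_zero,
      max_eq_left zero_le, div_self hr]
  · intro f i
    have : algebraMap C (RatFunc C) (f.coeff i) = RatFunc.C (f.coeff i) := rfl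
    rw [this, PL_109.gaussR_C]
    exact gaussR_aeval v a ρ hr f i

/-- The same without the completion: orthonormal basis of `K` for the family of all extensions of
the Gauss norm. -/
theorem exists_fam {C : Type u} [Field C] [IsAlgClosed C] [CharZero C] (v : Valuation C ℝ≥0)
    (p : ℕ) [hpp : Fact p.Prime] (hp : v (p : C) < 1) (a ρ : C) (hρ : ρ ≠ 0) (hr : v ρ ≠ 0)
    (K : Type u) [Field K] [Algebra (RatFunc C) K] [FiniteDimensional (RatFunc C) K] :
    ∃ (I : Type u) (_ : Fintype I) (w : I → Valuation K ℝ≥0) (d : I → ℕ)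
      (b : Module.Basis (Σ i, Fin (d i)) (RatFunc C) K),
      (∀ i f, w i (algebraMap (RatFunc C) K f) = PL_109.gaussR v a (v ρ) hr f) ∧
      Function.Injective w ∧
      (∀ W : Valuation K ℝ≥0, (∀ f, W (algebraMap (RatFunc C) K f) =
        PL_109.gaussR v a (v ρ) hr f) → ∃ i, W = w i) ∧
      (∀ i y, ∃ f, PL_109.gaussR v a (v ρ) hr f = w i y) ∧
      (∀ i j, w i (b j) ≤ 1) ∧ (∀ i j, j.1 ≠ i → w i (b j) < 1) ∧
      (∀ (c : (Σ i, Fin (d i)) → RatFunc C) (j), ∃ i,
        PL_109.gaussR v a (v ρ) hr (c j) ≤ w i (∑ l, c l • b l)) ∧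
      (∀ (a : I → K) (ε : ℝ≥0), 0 < ε → ∃ y : K, ∀ i, w i (y - a i) < ε) := by
  obtain ⟨E, i1, i2, i3, i4, hd, hw, I, iI, ⟨o⟩⟩ := out_gaussR v p hp a ρ hρ hr K
  refine ⟨I, iI, o.w, o.d, o.b, fun i f => ?_, o.w_injective, fun W hW => ?_, fun i y => ?_,
    o.b_le, o.b_lt, fun c j => ?_, o.approx⟩
  · rw [o.w_alg, hw]
  · exact o.complete W fun f => by rw [hW, hw]
  · obtain ⟨f, hf⟩ := o.exists_val i y
    exact ⟨f, by rw [← hw, hf]⟩
  · obtain ⟨i, hi⟩ := o.ge c j
    exact ⟨i, by rw [← hw]; exact hi⟩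

end Crest.Agent.R013.StabR_460
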