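import Mathlib
import Crest.Agent.R013.StabR_460

/-!
# StabR2: `StabR_460` for a norm of `RatFunc C` given by its values on `X - b` (or by the Gauss
property), for direct use with any concrete construction of the norm.
-/

set_option autoImplicit false

namespace Crest.Agent.R013.StabR_460

open Polynomial Module
open scoped NNReal
open Crest.Agent.R013.StabF_83 (IsON Out sv coe_sv)

universe u

variable {C : Type u} [Field C] [IsAlgClosed C] [CharZero C] (v : Valuation C ℝ≥0)

/-- `STABF` for a norm `w0` of `RatFunc C` known on constants and on the `X - b`: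
`w0 (X - b) = max |ρ| |a - b|`. -/
theorem out_of_linear (w0 : Valuation (RatFunc C) ℝ≥0) (p : ℕ) [hpp : Fact p.Prime]
    (hp : v (p : C) < 1) (a ρ : C) (hρ : ρ ≠ 0)
    (h0 : ∀ c, w0 (RatFunc.C c) = v c)
    (h1 : ∀ b, w0 (RatFunc.X - RatFunc.C b) = max (v ρ) (v (a - b)))
    (K : Type u) [Field K] [Algebra (RatFunc C) K] [FiniteDimensional (RatFunc C) K] :
    ∃ (E : Type u) (_ : NontriviallyNormedField E) (_ : CompleteSpace E)
      (_ : IsUltrametricDist E) (_ : Algebra (RatFunc C) E),
      DenseRange (algebraMap (RatFunc C) E) ∧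
      (∀ f, ‖algebraMap (RatFunc C) E f‖₊ = w0 f) ∧
      ∃ (I : Type u) (_ : Fintype I), Nonempty (Out (RatFunc C) E K I) := by
  have hr : v ρ ≠ 0 := (Valuation.ne_zero_iff v).2 hρ
  have hw : w0 = PL_109.gaussR v a (v ρ) hr := by
    apply PL_109.ext_of_linear
    · intro c; rw [h0, PL_109.gaussR_C]
    · intro b; rw [h1, PL_109.gaussR_X_sub]
  rw [hw]
  exact out_gaussR v p hp a ρ hρ hr K

/-- `STABF` for the unit Gauss norm: `w0` extends `v` and `w0 (∑ c_i X^i) = max v c_i`. -/
theorem out_of_gaussNorm (w0 : Valuation (RatFunc C) ℝ≥0) (p : ℕ) [hpp : Fact p.Prime]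
    (hp : v (p : C) < 1) (h0 : ∀ c, w0 (RatFunc.C c) = v c) (hX : w0 RatFunc.X = 1)
    (hg : ∀ (f : C[X]) (i : ℕ), v (f.coeff i) ≤ w0 (algebraMap C[X] (RatFunc C) f))
    (K : Type u) [Field K] [Algebra (RatFunc C) K] [FiniteDimensional (RatFunc C) K] :
    ∃ (E : Type u) (_ : NontriviallyNormedField E) (_ : CompleteSpace E)
      (_ : IsUltrametricDist E) (_ : Algebra (RatFunc C) E),
      DenseRange (algebraMap (RatFunc C) E) ∧
      (∀ f, ‖algebraMap (RatFunc C) E f‖₊ = w0 f) ∧
      ∃ (I : Type u) (_ : Fintype I), Nonempty (Out (RatFunc C) E K I) := by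
  refine out_of_linear v w0 p hp 0 1 one_ne_zero h0 (fun b => ?_) K
  rw [map_one, zero_sub, Valuation.map_neg]
  apply le_antisymm
  · refine (Valuation.map_sub w0 _ _).trans ?_
    rw [hX, h0]
  · have e : (RatFunc.X - RatFunc.C b : RatFunc C) =
        algebraMap C[X] (RatFunc C) (X - Polynomial.C b) := by
      rw [map_sub, RatFunc.algebraMap_X, RatFunc.algebraMap_C]
    rw [e]
    apply max_le
    · have := hg (X - Polynomial.C b) 1
      simpa [Polynomial.coeff_C] using this
    · have := hg (X - Polynomial.C b) 0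
      simpa using this

omit [IsAlgClosed C] [CharZero C] in
/-- the Gauss norm `gaussR v 0 1` is the maximum of the coefficients. -/
theorem le_gaussR_one (hr : (v 1 : ℝ≥0) ≠ 0) (f : C[X]) (i : ℕ) :
    v (f.coeff i) ≤ PL_109.gaussR v 0 (v 1) hr (algebraMap C[X] (RatFunc C) f) := by
  have h := gaussR_aeval v (0 : C) 1 hr f i
  rwa [aeval_coord, inv_one, Polynomial.C_1, one_mul, Polynomial.C_0, sub_zero, comp_X] at h

end Crest.Agent.R013.StabR_460
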