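import Crest.Agent.R013.Dir5_408
import Crest.Agent.R013.SSG1_109
import Crest.Agent.R013.StabR2_460

/-!
# SS-DIR, file 6: almost all directions at a point of type two are good discs
-/

set_option autoImplicit false
set_option linter.unusedSectionVars false
set_option linter.style.haveILetI false

noncomputable section

namespace Crest.Agent.R013.Dir_408

open Polynomial WithZero Module
open Crest.Agent.R013.Red332 Crest.Agent.R013.EE809
open Crest.Agent.R013.Cell_408 Crest.Agent.R013.Comp_267 Crest.Agent.R013.Good_408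
open Crest.Agent.R013.RR7_948 Crest.Agent.R013.RR8_948
open Crest.Agent.R013.StabF_83 (Out)
open scoped NNReal

universe u

section MkRes

variable {k C : Type*} [NontriviallyNormedField k] [CompleteSpace k] [IsUltrametricDist k]
  [NormedField C] [IsUltrametricDist C] [NormedAlgebra k C] [Algebra.IsAlgebraic k C]
  [IsAlgClosed C] [hk : Fact (DiscNorm k)]
variable {K : Type*} [Field K] [Algebra C K] [Algebra (RatFunc C) K]
    [IsScalarTower C (RatFunc C) K] [FiniteDimensional (RatFunc C) K]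

/-- `GoodD.mk_res`, only `[K : C(x)] ≤ ∑ m j` is needed -/
theorem goodD_of_le (y : FD k C) (hy : Transcendental C y) (J : Type) [Fintype J] (m : J → ℕ)
    (f : J → PowerSeries C) (wd : ∀ j, WD k (f j) (m j)) (m_ne : ∀ j, m j ≠ 0)
    (io : J → K →ₐ[C] FD k C)
    (hx : ∀ j, io j (algebraMap (RatFunc C) K RatFunc.X) = compF hk.out (wd j) (m_ne j) y)
    (sum_m : finrank (RatFunc C) K ≤ ∑ j, m j)
    (z : (Σ j, Fin (m j)) → K)
    (h1 : ∀ p, gn (toEE k C (io p.1 (z p))) = 1)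
    (h2 : ∀ p, od (toEE k C (io p.1 (z p))) = ((p.2 : ℕ) : ℤ))
    (h3 : ∀ p j, j ≠ p.1 → gn (toEE k C (io j (z p))) < 1 ∨
      (gn (toEE k C (io j (z p))) = 1 ∧ (m j : ℤ) ≤ od (toEE k C (io j (z p))))) :
    GoodD k C K y := by
  classical
  refine GoodD.mk_res y hy J m f wd m_ne io hx (le_antisymm ?_ sum_m) z h1 h2 h3
  let i : RatFunc C →ₐ[C] FD k C := Good_408.ratHom y hy
  have hc : ∀ j (r : RatFunc C), compF hk.out (wd j) (m_ne j) (i r) =
      io j (algebraMap (RatFunc C) K r) := by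
    intro j r
    have h : (compF hk.out (wd j) (m_ne j)).toRingHom.comp i.toRingHom =
        (io j).toRingHom.comp (algebraMap (RatFunc C) K) := by
      refine rat_ext (fun c => ?_) ?_
      · change compF hk.out (wd j) (m_ne j) (i (algebraMap C _ c)) =
          io j (algebraMap (RatFunc C) K (algebraMap C _ c))
        rw [AlgHom.commutes, AlgHom.commutes, ← IsScalarTower.algebraMap_apply, AlgHom.commutes]
      · change compF hk.out (wd j) (m_ne j) (i RatFunc.X) =
          io j (algebraMap (RatFunc C) K RatFunc.X)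
        rw [Good_408.ratHom_X, hx]
    exact DFunLike.congr_fun h r
  have hinj : Inj (fun j => (compF hk.out (wd j) (m_ne j)).toRingHom)
      (fun j => (io j).toRingHom) z := by
    refine Inj.of_ends (C := C) (E := fun _ => FD k C) (endF k C) (fun _ => endF k C) m _ _
      (fun j a => ?_) (fun j a ha => ?_) z (fun p => ?_) (fun p => h2 p) (fun p j hj => ?_)
    · change gv k C (toEE k C (compF hk.out (wd j) (m_ne j) a)) = gv k C (toEE k C a)
      apply NNReal.coe_injective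
      rw [coe_gv, coe_gv, gn_toEE_compF]
    · exact od_toEE_compF (wd j) (m_ne j) ha
    · exact gv_eq_one.2 (h1 p)
    · rcases h3 p j hj with h | h
      · exact Or.inl (gv_lt_one.2 h)
      · exact Or.inr ⟨gv_eq_one.2 h.1, h.2⟩
  have hli : LinearIndependent (RatFunc C) z := by
    rw [Fintype.linearIndependent_iff]
    intro r hr
    have h4 := hinj (fun p => i (r p)) (fun j => by
      change ∑ p, compF hk.out (wd j) (m_ne j) (i (r p)) * io j (z p) = 0
      have h5 := congrArg (io j) hr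
      rw [map_zero, map_sum] at h5
      rw [← h5]
      refine Finset.sum_congr rfl fun p _ => ?_
      rw [hc, Algebra.smul_def, map_mul])
    intro p
    exact (map_eq_zero i).1 (congrFun h4 p)
  have h6 := hli.fintype_card_le_finrank
  rw [Fintype.card_sigma] at h6
  simpa using h6

end MkRes

section WDlem

variable {k C : Type*} [NontriviallyNormedField k] [CompleteSpace k] [IsUltrametricDist k]
  [NormedField C] [IsUltrametricDist C] [NormedAlgebra k C] [Algebra.IsAlgebraic k C]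
  [IsAlgClosed C] [hk : Fact (DiscNorm k)]

/-- an element of `BI` of norm one and order `m` -/
theorem wd_of {b : BD k C} {m : ℕ} (h1 : (endF k C).nm (algebraMap (BD k C) (FD k C) b) = 1)
    (h2 : (endF k C).od (algebraMap (BD k C) (FD k C) b) = m) : WD k (b : PowerSeries C) m := by
  rw [endF_nm, toEE_algebraMap] at h1
  rw [endF_od, toEE_algebraMap] at h2
  have h3 : gn (ofBD b : EE k C) = 1 := gv_eq_one.1 h1
  have hne : (ofBD b : EE k C) ≠ 0 := by
    intro h0
    rw [h0, gn_zero] at h3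
    exact zero_ne_one h3
  refine ⟨b.2.1, fun n => ?_, ?_, fun n hn => ?_⟩
  · have h7 := le_gn (ofBD b : EE k C) (n : ℤ)
    rw [co_ofBD_nat, h3] at h7
    exact h7
  · have h4 := norm_co_od hk.out hne
    rw [h2, co_ofBD_nat, h3] at h4
    exact h4
  · have h4 := norm_lt_of_lt_od hne (n := (n : ℤ)) (by rw [h2]; exact_mod_cast hn)
    rw [co_ofBD_nat, h3] at h4
    exact h4

end WDlem

section Base

variable {k : Type*} {C : Type u} [NontriviallyNormedField k] [CompleteSpace k]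
  [IsUltrametricDist k]
  [NormedField C] [IsUltrametricDist C] [NormedAlgebra k C] [Algebra.IsAlgebraic k C]
  [IsAlgClosed C] [hk : Fact (DiscNorm k)]

theorem nnsub_rev (a b : C) : ‖a - b‖₊ = ‖b - a‖₊ := by
  rw [← nnnorm_neg, neg_sub]

/-- the coordinate `(x - a) / ρ` -/
def cx (a ρ : C) : RatFunc C :=
  algebraMap C (RatFunc C) ρ⁻¹ * (RatFunc.X - algebraMap C (RatFunc C) a)

theorem transc_discY (a : C) {ρ : C} (hρ : ρ ≠ 0) : Transcendental C (discY k C a ρ) := by
  have h1 : Transcendental C (TF k C) := transcendental_of endF_TF.1 endF_TF.2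
  intro h
  apply h1
  have hρ' : algebraMap C (FD k C) ρ ≠ 0 := (_root_.map_ne_zero _).2 hρ
  have h2 : TF k C = algebraMap C (FD k C) ρ⁻¹ * (discY k C a ρ - algebraMap C (FD k C) a) := by
    rw [discY, add_sub_cancel_left, map_inv₀, inv_mul_cancel_left₀ hρ']
  rw [h2]
  exact (isAlgebraic_algebraMap _).mul (h.sub (isAlgebraic_algebraMap a))

variable (k) in
/-- the expansion on the open disc `|x - a| < |ρ|` -/
def exD (a : C) {ρ : C} (hρ : ρ ≠ 0) : RatFunc C →ₐ[C] FD k C :=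
  Good_408.ratHom (discY k C a ρ) (transc_discY a hρ)

theorem exD_X (a : C) {ρ : C} (hρ : ρ ≠ 0) : exD k a hρ RatFunc.X = discY k C a ρ :=
  Good_408.ratHom_X _ _

theorem exD_cx (a : C) {ρ : C} (hρ : ρ ≠ 0) : exD k a hρ (cx a ρ) = TF k C := by
  have hρ' : algebraMap C (FD k C) ρ ≠ 0 := (_root_.map_ne_zero _).2 hρ
  rw [cx, map_mul, map_sub, AlgHom.commutes, AlgHom.commutes, exD_X, discY, add_sub_cancel_left,
    map_inv₀, inv_mul_cancel_left₀ hρ']

variable (k) in
/-- the end of `C(x)` at the open disc `|x - a| < |ρ|` -/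
def ED (a : C) {ρ : C} (hρ : ρ ≠ 0) : End2 C (RatFunc C) := (endF k C).comap (exD k a hρ)

theorem ED_cx (a : C) {ρ : C} (hρ : ρ ≠ 0) :
    (ED k a hρ).nm (cx a ρ) = 1 ∧ (ED k a hρ).od (cx a ρ) = 1 := by
  constructor
  · change (endF k C).nm (exD k a hρ (cx a ρ)) = 1
    rw [exD_cx]; exact endF_TF.1
  · change (endF k C).od (exD k a hρ (cx a ρ)) = 1
    rw [exD_cx]; exact endF_TF.2

theorem X_sub_eq (a b : C) {ρ : C} (hρ : ρ ≠ 0) : (RatFunc.X - RatFunc.C b : RatFunc C) =
    algebraMap C (RatFunc C) ρ * (cx a ρ - algebraMap C (RatFunc C) ((b - a) / ρ)) := by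
  have hρ' : algebraMap C (RatFunc C) ρ ≠ 0 := (_root_.map_ne_zero _).2 hρ
  rw [cx, ← RatFunc.algebraMap_eq_C, map_div₀, map_sub, map_inv₀]
  field_simp
  ring

/-- the norm of `X - b` -/
theorem ED_X_sub (a b : C) {ρ : C} (hρ : ρ ≠ 0) :
    (ED k a hρ).nm (RatFunc.X - RatFunc.C b) = max ‖ρ‖₊ ‖a - b‖₊ := by
  have h1 := ((ED k a hρ).lin_val (ED_cx a hρ).1 (by rw [(ED_cx a hρ).2]; exact one_pos)
    ((b - a) / ρ)).1
  have hn : ‖ρ‖₊ ≠ 0 := by rwa [Ne, nnnorm_eq_zero]
  rw [X_sub_eq a b hρ, map_mul, h1, (ED k a hρ).hC, mul_max, mul_one, nnnorm_div,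
    mul_div_cancel₀ _ hn, nnsub_rev]

/-- the norm does not depend on the centre in the closed disc -/
theorem ED_nm_eq {a c : C} {ρ : C} (hρ : ρ ≠ 0) (hc : ‖c - a‖₊ ≤ ‖ρ‖₊) :
    (ED k c hρ).nm = (ED k a hρ).nm := by
  apply PL_109.ext_of_linear
  · intro x
    rw [← RatFunc.algebraMap_eq_C, (ED k c hρ).hC, (ED k a hρ).hC]
  · intro b
    rw [ED_X_sub, ED_X_sub]
    have key : ∀ a c : C, ‖c - a‖₊ ≤ ‖ρ‖₊ → max ‖ρ‖₊ ‖c - b‖₊ ≤ max ‖ρ‖₊ ‖a - b‖₊ := by
      intro a c h
      refine max_le (le_max_left _ _) ?_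
      have e : c - b = (c - a) + (a - b) := by ring
      rw [e]
      have h1 : ‖(c - a) + (a - b)‖₊ ≤ max ‖c - a‖₊ ‖a - b‖₊ :=
        (NormedField.valuation (K := C)).map_add _ _
      exact h1.trans (max_le_max h le_rfl)
    exact le_antisymm (key a c hc) (key c a (by rw [nnsub_rev]; exact hc))

theorem cx_sub (a c : C) {ρ : C} (hρ : ρ ≠ 0) :
    cx a ρ = cx c ρ + algebraMap C (RatFunc C) ((c - a) / ρ) := by
  have hρ' : algebraMap C (RatFunc C) ρ ≠ 0 := (_root_.map_ne_zero _).2 hρ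
  rw [cx, cx, map_div₀, map_sub, map_inv₀]
  field_simp
  ring

end Base

section Main

variable (k : Type*) {C : Type u} [NontriviallyNormedField k] [CompleteSpace k]
  [IsUltrametricDist k]
  [NormedField C] [IsUltrametricDist C] [NormedAlgebra k C] [Algebra.IsAlgebraic k C]
  [IsAlgClosed C] [hk : Fact (DiscNorm k)]

/-- the norms over the vertex -/
theorem exists_SAt [CharZero C] (p : ℕ) [Fact p.Prime] (hp : ‖(p : C)‖ < 1) (a : C) {ρ : C}
    (hρ : ρ ≠ 0) (K : Type u) [Field K] [Algebra (RatFunc C) K]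
    [FiniteDimensional (RatFunc C) K] : Nonempty (SAt (RatFunc C) K (ED k a hρ).nm) := by
  obtain ⟨E, i1, i2, i3, i4, -, hE, I, i5, ⟨o⟩⟩ := StabR_460.out_of_linear
    (NormedField.valuation (K := C)) (ED k a hρ).nm p hp a ρ hρ
    (fun c => by rw [← RatFunc.algebraMap_eq_C]; exact (ED k a hρ).hC c)
    (fun b => ED_X_sub a b hρ) K
  exact SAt.ofOut o _ (fun f => (hE f).symm)

/-- **SS-DIR** -/
theorem exists_bad [CharZero C] (p : ℕ) [Fact p.Prime] (hp : ‖(p : C)‖ < 1)
    (K : Type u) [Field K] [Algebra C K] [Algebra (RatFunc C) K] [IsScalarTower C (RatFunc C) K]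
    [FiniteDimensional (RatFunc C) K] (a : C) {ρ : C} (hρ : ρ ≠ 0) :
    ∃ S : Finset C, ∀ c, ‖c - a‖₊ ≤ ‖ρ‖₊ → (∀ d ∈ S, ‖ρ‖₊ ≤ ‖c - d‖₊) →
      GoodDisc k C K c ρ := by
  classical
  obtain ⟨SA⟩ := exists_SAt k p hp a hρ K
  have hρn : ‖ρ‖₊ ≠ 0 := by rwa [Ne, nnnorm_eq_zero]
  set η := (ED k a hρ).nm with hη
  have hgen : ∀ c : C, Gen C (cx c ρ) := fun c => gen_affine c ρ hρ
  have hηa : η (cx a ρ) = 1 := (ED_cx a hρ).1
  have hηlin : ∀ c : C, 1 ≤ η (cx a ρ - algebraMap C (RatFunc C) c) := by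
    intro c
    rw [hη, ((ED k a hρ).lin_val (ED_cx a hρ).1 (by rw [(ED_cx a hρ).2]; exact one_pos) c).1]
    exact le_max_left _ _
  -- the norms over the vertex
  have hWfin := SA.finite (C := C)
  let W : Finset (Nm C K) := hWfin.toFinset
  have hW : ∀ w : Nm C K, w ∈ W ↔ ∀ f, w.v (algebraMap (RatFunc C) K f) = η f := fun w =>
    Set.Finite.mem_toFinset hWfin
  have hff : ∀ w ∈ W, FF w := fun w hw => SA.ff (hgen a) hηa hηlin w ((hW w).1 hw)
  set x' : K := algebraMap (RatFunc C) K (cx a ρ) with hx'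
  have hbad : ∀ w ∈ W, ∃ S : Finset (Pl (Ct C) (kap w)), ∀ q ∉ S,
      ∃ ψ : K →ₐ[C] FD k C, (∀ f, (endF k C).nm (ψ f) = w.v f) ∧
        (∀ f, f ≠ 0 → (endF k C).od (ψ f) = Red332.od w q f) ∧ ψ x' ∈ BI k C := fun w hw =>
    exists_disc_emb k p hp w (hff w hw) x' (by rw [hx', (hW w).1 hw, hηa])
  choose B hB using hbad
  -- the bad points
  let B' : (w : Nm C K) → Finset (Pl (Ct C) (kap w)) := fun w => if h : w ∈ W then B w h else ∅
  let dd : Red332.End C K → C := fun s =>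
    if h : ∃ c : C, ‖c‖₊ ≤ 1 ∧ Ge (ofPl s.1 s.2) 1 (x' - algebraMap C K c) then
      a + ρ * h.choose else a
  refine ⟨(W.sigma B').image dd, fun c hc hd => ?_⟩
  set c1 : C := (c - a) / ρ with hc1
  have hc1n : ‖c1‖₊ ≤ 1 := by
    rw [hc1, nnnorm_div]
    exact div_le_one_of_le₀ hc zero_le
  -- the ends over `c`
  have hnm : (ED k c hρ).nm = η := ED_nm_eq hρ hc
  have SA' : SAt (RatFunc C) K (ED k c hρ).nm := by rw [hnm]; exact SA
  obtain ⟨T, e, hT1, hT2, hT3⟩ := SA'.exists_ends (ED k c hρ) (hgen c) (ED_cx c hρ).1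
    (ED_cx c hρ).2
  have hTW : ∀ s ∈ T, s.1 ∈ W := by
    intro s hs
    rw [hW]
    intro f
    rw [← hnm]
    exact (hT1 s hs).nm f
  have hxc : x' = algebraMap (RatFunc C) K (cx c ρ) + algebraMap C K c1 := by
    rw [hx', cx_sub a c hρ, map_add, ← IsScalarTower.algebraMap_apply]
  have hTx : ∀ s ∈ T, (ofPl s.1 s.2).nm (algebraMap (RatFunc C) K (cx c ρ)) = 1 ∧
      (ofPl s.1 s.2).od (algebraMap (RatFunc C) K (cx c ρ)) = e s := by
    intro s hs
    have hu0 : cx c ρ ≠ 0 := (ED k c hρ).ne_zero_of_one (ED_cx c hρ).1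
    exact ⟨by rw [(hT1 s hs).nm, (ED_cx c hρ).1],
      by rw [(hT1 s hs).od _ hu0, (ED_cx c hρ).2, mul_one]⟩
  -- they are good
  have hgood : ∀ (s : Red332.End C K) (hs : s ∈ T), s.2 ∉ B s.1 (hTW s hs) := by
    intro s hs hbad
    have h1 : Ge (ofPl s.1 s.2) 1 (x' - algebraMap C K c1) := by
      rw [hxc, add_sub_cancel_right]
      refine Or.inr ⟨(hTx s hs).1, ?_⟩
      rw [(hTx s hs).2]
      exact_mod_cast (hT1 s hs).pos
    have hex : ∃ c : C, ‖c‖₊ ≤ 1 ∧ Ge (ofPl s.1 s.2) 1 (x' - algebraMap C K c) :=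
      ⟨c1, hc1n, h1⟩
    obtain ⟨h2, h3⟩ := hex.choose_spec
    set c2 := hex.choose with hc2
    have h4 : Ge (ofPl s.1 s.2) 1 (algebraMap C K (c1 - c2)) := by
      have : algebraMap C K (c1 - c2) = (x' - algebraMap C K c2) - (x' - algebraMap C K c1) := by
        rw [map_sub]; ring
      rw [this]
      exact h3.sub h1
    rw [ge_one_C] at h4
    have hmem : a + ρ * c2 ∈ (W.sigma B').image dd := by
      refine Finset.mem_image.2 ⟨s, Finset.mem_sigma.2 ⟨hTW s hs, ?_⟩, ?_⟩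
      · change s.2 ∈ (if h : s.1 ∈ W then B s.1 h else ∅)
        rw [dif_pos (hTW s hs)]
        exact hbad
      · change (if h : ∃ c : C, ‖c‖₊ ≤ 1 ∧ Ge (ofPl s.1 s.2) 1 (x' - algebraMap C K c) then
          a + ρ * h.choose else a) = _
        rw [dif_pos hex]
    have h5 := hd _ hmem
    have h6 : c - (a + ρ * c2) = ρ * (c1 - c2) := by
      rw [hc1]; field_simp; ring
    rw [h6, nnnorm_mul] at h5
    have h7 : ‖ρ‖₊ * ‖c1 - c2‖₊ < ‖ρ‖₊ * 1 := mul_lt_mul_of_pos_left h4 (pos_iff_ne_zero.2 hρn)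
    rw [mul_one] at h7
    exact absurd h5 (not_le.2 h7)
  -- the discs
  let N := T.card
  let J : Type := Fin N
  let s : J → Red332.End C K := fun j => (T.equivFin.symm j).1
  have hs : ∀ j, s j ∈ T := fun j => (T.equivFin.symm j).2
  have hsinj : Function.Injective s := fun i j h =>
    T.equivFin.symm.injective (Subtype.ext h)
  have hψ : ∀ j, ∃ ψ : K →ₐ[C] FD k C, (∀ f, (endF k C).nm (ψ f) = (s j).1.v f) ∧
      (∀ f, f ≠ 0 → (endF k C).od (ψ f) = Red332.od (s j).1 (s j).2 f) ∧ ψ x' ∈ BI k C :=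
    fun j => hB (s j).1 (hTW _ (hs j)) (s j).2 (hgood _ (hs j))
  choose ψ hψ1 hψ2 hψ3 using hψ
  set xc : K := algebraMap (RatFunc C) K (cx c ρ) with hxcdef
  have hxcne : xc ≠ 0 := (_root_.map_ne_zero _).2 ((ED k c hρ).ne_zero_of_one (ED_cx c hρ).1)
  have hxc' : xc = x' - algebraMap C K c1 := by rw [hxc, add_sub_cancel_right]
  have hψ4 : ∀ j, ∃ b : BD k C, algebraMap (BD k C) (FD k C) b = ψ j xc := by
    intro j
    obtain ⟨b, -, hb⟩ := hψ3 j
    refine ⟨b - algebraMap C (BD k C) c1, ?_⟩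
    rw [map_sub, hb, ← IsScalarTower.algebraMap_apply, hxc', map_sub, AlgHom.commutes]
  choose b hb using hψ4
  let m : J → ℕ := fun j => e (s j)
  have wd : ∀ j, WD k (b j : PowerSeries C) (m j) := fun j =>
    wd_of (by rw [hb, hψ1]; exact (hTx _ (hs j)).1)
      (by rw [hb, hψ2 j _ hxcne]; exact (hTx _ (hs j)).2)
  have m_ne : ∀ j, m j ≠ 0 := fun j => by
    have := (hT1 _ (hs j)).pos
    change e (s j) ≠ 0
    omega
  -- the family `z`
  have hnt : ∃ c : C, ‖c‖₊ ≠ 0 ∧ ‖c‖₊ ≠ 1 := by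
    refine ⟨(p : C), ?_, ?_⟩
    · rw [Ne, nnnorm_eq_zero]
      have := (Fact.out : p.Prime).ne_zero
      exact_mod_cast this
    · intro h
      have h1 := congrArg NNReal.toReal h
      rw [coe_nnnorm, NNReal.coe_one] at h1
      exact hp.ne h1
  let I := {w : Nm C K // w ∈ W}
  let wI : I → Nm C K := Subtype.val
  obtain ⟨z, hz1, hz2, hz3⟩ := exists_family (I := I) wI (fun i => hff i.1 i.2)
    (fun a => approx_of_inj wI Subtype.val_injective hnt a) (J := J) m
    (fun j => ⟨⟨(s j).1, hTW _ (hs j)⟩, (s j).2⟩) (fun i j h => hsinj (by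
      have h1 := congrArg (fun t : (Σ i : I, Pl (Ct C) (kap (wI i))) => (⟨wI t.1, t.2⟩ : Red332.End C K)) h
      exact h1))
  have hnz : ∀ {w : Nm C K} {f : K}, w.v f = 1 → f ≠ 0 := by
    intro w f h
    rintro rfl
    rw [map_zero] at h
    exact zero_ne_one h
  refine goodD_of_le (discY k C c ρ) (transc_discY c hρ) J m (fun j => (b j : PowerSeries C)) wd
    m_ne ψ (fun j => ?_) ?_ z (fun p => ?_) (fun p => ?_) (fun p j hj => ?_)
  · -- the map to the base disc
    have hX : algebraMap (RatFunc C) K RatFunc.X = algebraMap C K c + algebraMap C K ρ * xc := by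
      have hρ' : algebraMap C (RatFunc C) ρ ≠ 0 := (_root_.map_ne_zero _).2 hρ
      have h1 : (RatFunc.X : RatFunc C) =
          algebraMap C (RatFunc C) c + algebraMap C (RatFunc C) ρ * cx c ρ := by
        rw [cx, map_inv₀]
        field_simp
        ring
      rw [hxcdef, IsScalarTower.algebraMap_apply C (RatFunc C) K,
        IsScalarTower.algebraMap_apply C (RatFunc C) K, ← map_mul, ← map_add, ← h1]
    rw [hX, map_add, map_mul, AlgHom.commutes, AlgHom.commutes, ← hb, discY, map_add, map_mul,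
      AlgHom.commutes, AlgHom.commutes, compF_TF]
  · refine hT3.trans (le_of_eq ?_)
    change ∑ x ∈ T, e x = ∑ j : Fin N, e (s j)
    rw [← Finset.sum_coe_sort T e]
    exact (T.equivFin.symm.sum_comp (fun x : T => e x.1)).symm
  · exact gv_eq_one.1 (by
      have h1 := hψ1 p.1 (z p)
      rw [endF_nm] at h1
      rw [h1]; exact hz1 p)
  · have h1 := hψ2 p.1 (z p) (hnz (hz1 p))
    rw [endF_od] at h1
    rw [h1]; exact hz2 p
  · rcases hz3 p j hj with h | ⟨h, h'⟩
    · left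
      refine gv_lt_one.1 ?_
      have h1 := hψ1 j (z p)
      rw [endF_nm] at h1
      rw [h1]; exact h
    · right
      refine ⟨gv_eq_one.1 ?_, ?_⟩
      · have h1 := hψ1 j (z p)
        rw [endF_nm] at h1
        rw [h1]; exact h
      · have h1 := hψ2 j (z p) (hnz h)
        rw [endF_od] at h1
        rw [h1]; exact h'

/-- **DirIn**, 109's input -/
theorem dirIn [CharZero C] {p : ℕ} (hpp : p.Prime) (hp : ‖(p : C)‖ < 1)
    (K : Type u) [Field K] [Algebra C K] [Algebra (RatFunc C) K] [IsScalarTower C (RatFunc C) K]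
    [FiniteDimensional (RatFunc C) K] (v : Valuation C ℝ≥0) (hv : ∀ c, v c = ‖c‖₊) :
    SSG_109.DirIn v (GoodDisc k C K) := by
  haveI : Fact p.Prime := ⟨hpp⟩
  intro a ρ hρ
  obtain ⟨S, hS⟩ := exists_bad k p hp K a hρ
  refine ⟨S, fun c hc hd => hS c (by rw [← hv, ← hv]; exact hc) fun d hd' => ?_⟩
  have := hd d hd'
  rwa [hv, hv] at this

end Main

end Crest.Agent.R013.Dir_408
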