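import Crest.Agent.R013.Red19_332
import Crest.Agent.R013.Dir6_408

/-!
# R013 / Red20_332 : semistable reduction, without hypotheses

`inDisc_final`, `exists_SSK`, `exists_SSK_T`: every function field over an algebraic closure `C` of a
local field (residue characteristic `p`) has a semistable structure, with finitely many prescribed
discs as vertices.
-/

set_option autoImplicit false
set_option linter.unusedSectionVars false

universe v u

namespace Crest.Agent.R013.Red332

open scoped NNReal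
open Crest.Agent.R013.Cell_408 Crest.Agent.R013.Good_408
open Crest.Agent.R013.PL_109 Crest.Agent.R013.LineDec_315
open Crest.Agent.R013.SSG_109 Crest.Agent.R013.SSZorn_315 Crest.Agent.R013.SSK_332

section

variable (k : Type v) {C : Type u} [NontriviallyNormedField k]
    [CompleteSpace k] [IsUltrametricDist k] [NormedField C] [IsUltrametricDist C] [NormedAlgebra k C]
    [Algebra.IsAlgebraic k C] [IsAlgClosed C] [hk : Fact (DiscNorm k)] [CharZero C]

/-- **(DIR)** for all function fields -/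
theorem dirAll (p : ℕ) [hp : Fact p.Prime] (hp1 : ‖(p : C)‖ < 1) : DirAll k C :=
  fun K _ _ _ _ _ => Dir_408.dirIn k hp.out hp1 K (nv C) fun _ => rfl

/-- 903's input -/
theorem inDisc_final (p : ℕ) [hp : Fact p.Prime] (hp1 : ‖(p : C)‖ < 1) :
    CB1_903.InDisc.{u} k C :=
  inDisc_of_dir p hp1 (dirAll k p hp1)

/-- **semistable reduction**, with prescribed discs -/
theorem exists_SSK_T (p : ℕ) [hp : Fact p.Prime] (hp1 : ‖(p : C)‖ < 1)
    (K : Type u) [Field K] [Algebra C K] [Algebra (RatFunc C) K]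
    [IsScalarTower C (RatFunc C) K] [FiniteDimensional (RatFunc C) K] (T : Finset (C × ℝ≥0))
    (hT : ∀ t ∈ T, IsVal (nv C) t.2) :
    ∃ (S : SSK k C K) (B : Set (Valuation (RatFunc C) ℝ≥0)), S.Base B ∧
      (∀ η ∈ B, ∃ (a : C) (r : ℝ≥0) (hr : r ≠ 0), η = gaussR (nv C) a r hr) ∧
      (∀ t ∈ T, ∀ ht : t.2 ≠ 0, gaussR (nv C) t.1 t.2 ht ∈ B) ∧
      ∀ w : Nm C K, w.v.comap (algebraMap (RatFunc C) K) ∈ B ↔ ∃ v, S.nm v = w :=
  exists_SSK_of_dir p hp1 (dirAll k p hp1) K T hT

/-- **semistable reduction** -/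
theorem exists_SSK (p : ℕ) [hp : Fact p.Prime] (hp1 : ‖(p : C)‖ < 1)
    (K : Type u) [Field K] [Algebra C K] [Algebra (RatFunc C) K]
    [IsScalarTower C (RatFunc C) K] [FiniteDimensional (RatFunc C) K] :
    Nonempty (SSK k C K) :=
  let ⟨S, _⟩ := exists_SSK_T k p hp1 K ∅ (fun _ ht => absurd ht (Finset.notMem_empty _))
  ⟨S⟩

end

end Crest.Agent.R013.Red332
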