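import Crest.Agent.R013.StA_332
import Crest.Agent.R013.Red20_332
import Crest.Agent.R013.InhC1_770

/-!
# R013 / StA2_332 : stages (A1) and (A2) of part C, without hypotheses
-/

set_option autoImplicit false
set_option linter.unusedSectionVars false

universe u

namespace Crest.Agent.R013.StA_332

open scoped NNReal
open Crest.Agent.R013.Cell_408 Crest.Agent.R013.Good_408
open Crest.Agent.R013.RR11_948 Crest.Agent.R013.RR12_948
open Crest.Agent.R013.SSK_332 Crest.Agent.R013.Red332 Crest.Agent.R013.CB1_903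
open Crest.Agent.R013.GR3_921
open Crest.Agent.R013.A2_398

variable (p : ℕ) [hp : Fact p.Prime] (k : Type*) {C : Type u} [NontriviallyNormedField k]
  [CompleteSpace k] [IsUltrametricDist k] [NormedField C] [IsUltrametricDist C] [NormedAlgebra k C]
  [Algebra.IsAlgebraic k C] [IsAlgClosed C] [hk : Fact (DiscNorm k)] [CharZero C]
  [NormedAlgebra ℚ_[p] C] [Algebra.IsAlgebraic ℚ_[p] C]

include p in
/-- **(A1)** -/
theorem a1_final' (K : Type u) [Field K] [Algebra C K] (g : ℕ)
    (hg : HasGen C K g) (h2 : 2 ≤ g) : A1 k C K :=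
  a1_of_dir p k (dirAll k p norm_p_lt) K g hg h2

/-- **stages (A1) and (A2)** -/
theorem stageA_final (KC : Type u) [Field KC] [Algebra C KC] [Algebra (RatFunc C) KC]
    [IsScalarTower C (RatFunc C) KC] [FiniteDimensional (RatFunc C) KC] (hg : 2 ≤ gen C KC) :
    ∃ (K1 : Type u) (_ : Field K1) (_ : Algebra C K1) (_ : Algebra KC K1)
      (_ : IsScalarTower C KC K1) (_ : FiniteDimensional KC K1) (_ : Algebra (RatFunc C) K1)
      (_ : IsScalarTower C (RatFunc C) K1) (_ : IsScalarTower (RatFunc C) KC K1)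
      (_ : FiniteDimensional (RatFunc C) K1) (S1 : SSK k C K1),
      Unr10_957.UnrEv C KC K1 ∧ nV S1 ≤ nE S1 ∧
      Nat.card {v : S1.V // HasGen (Ct C) (kap (S1.nm v)) 0} < Nat.card S1.Ed ∧
      ∃ (K' : Type u) (_ : Field K') (_ : Algebra C K') (_ : Algebra K1 K')
        (_ : IsScalarTower C K1 K') (_ : FiniteDimensional K1 K') (_ : IsGalois K1 K'),
        Nonempty (A2Data p S1 K') :=
  stageA p k (dirAll k p norm_p_lt) KC hg

end Crest.Agent.R013.StA_332
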