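import Mathlib
import Crest.Agent.R013.Cof10_669

/-!
# Row 13, D-line, D-CUT: the multi-circle cutoff

`L/K` finite, all branch places of `L` are centres of circles over which `L` lies in the closure of
`maxUnramified` (this is an input here: no Puiseux radius, no genus, no (SE)).  Then `L` lies in the
closure of `maxUnramified` for every norm outside the circles.
-/

set_option autoImplicit false
set_option linter.unusedSectionVars false

namespace Crest.Agent.R013.DCut_22

open scoped NNReal Topology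
open Filter Polynomial Crest.NumberTheoryR.Sect
open Crest.Agent.R013.SE_669 Crest.Agent.R013.Unr3_957 Crest.Agent.R013.Unr4_957
  Crest.Agent.R013.Cof1_669 Crest.Agent.R013.Cof2_669 Crest.Agent.R013.Cof3_669
  Crest.Agent.R013.Cof4_669 Crest.Agent.R013.Cof5_669 Crest.Agent.R013.Cof6_669
  Crest.Agent.R013.Cof7_669 Crest.Agent.R013.Cof8_669 Crest.Agent.R013.Cof9_669
  Crest.Agent.R013.Cof10_669

/-- **(CUT-END+)**: `Cof10_669.CutEnd` with the norms included in the output (as in 946's
`cut_level1`). -/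
def CutEndP (p : ℕ) [Fact p.Prime] (k : Type*) [Field k] [Algebra ℚ_[p] k] (K : Type*) [Field K]
    [Algebra k K] : Prop :=
  ∀ (C : IntermediateField k (AlgebraicClosure K)) [FiniteDimensional k C]
    (π x : AlgebraicClosure K) (P v₀ : Valuation (AlgebraicClosure K) ℝ≥0),
    π ∈ C → π ≠ 0 → x ∈ KC K C → x ≠ 0 → IsPlace k P → P x < 1 →
    ExtendsPadicNorm k (AlgebraicClosure K) p v₀ → IsCircle K C P x (v₀ π) v₀ →
    ∀ (KU L : IntermediateField K (AlgebraicClosure K)) [FiniteDimensional K KU]
      [FiniteDimensional K L], KC K C ≤ KU → KC K C ≤ L →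
    (∀ v : Valuation (AlgebraicClosure K) ℝ≥0, ExtendsPadicNorm k (AlgebraicClosure K) p v →
      (∀ g ∈ KC K C, v g = v₀ g) →
      (L : Set (AlgebraicClosure K)) ⊆ cl v (KU : Set (AlgebraicClosure K))) →
    ∀ w : Valuation (AlgebraicClosure K) ℝ≥0, ExtendsPadicNorm k (AlgebraicClosure K) p w →
      w π ≤ w x →
    ∃ A' : IntermediateField K (AlgebraicClosure K), FiniteDimensional K A' ∧ KU ≤ A' ∧
      (L : Set (AlgebraicClosure K)) ⊆ cl w (A' : Set (AlgebraicClosure K)) ∧
      (∀ v : Valuation (AlgebraicClosure K) ℝ≥0,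
        (IsPlace k v ∨ ExtendsPadicNorm k (AlgebraicClosure K) p v) →
        (∃ s : AlgebraicClosure K ≃ₐ[K] AlgebraicClosure K, (∀ z ∈ KU, s z = z) ∧
            (A' : Set (AlgebraicClosure K)) ⊆
              cl v (s '' ((L ⊔ KU : IntermediateField K (AlgebraicClosure K)) :
                Set (AlgebraicClosure K)))) ∨
          (A' : Set (AlgebraicClosure K)) ⊆ cl v (KU : Set (AlgebraicClosure K))) ∧
      ∀ v : Valuation (AlgebraicClosure K) ℝ≥0, IsPlace k v → (∀ g ∈ KC K C, v g = P g) →
          (A' : Set (AlgebraicClosure K)) ⊆ cl v (KU : Set (AlgebraicClosure K))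

theorem CutEndP.cutEnd {p : ℕ} [Fact p.Prime] {k : Type*} [Field k] [Algebra ℚ_[p] k] {K : Type*}
    [Field K] [Algebra k K] (h : CutEndP p k K) : CutEnd p k K := by
  intro C _ π x P v₀ hπ hπ0 hx hx0 hP hPx hv₀ hcirc KU L _ _ hKU hL h1 w hw hwπ
  obtain ⟨A', hf, hKA, hLA, h2, h3⟩ := h C π x P v₀ hπ hπ0 hx hx0 hP hPx hv₀ hcirc KU L hKU hL h1
    w hw hwπ
  exact ⟨A', hf, hKA, hLA, fun v hv => ⟨h2 v (Or.inl hv), h3 v hv⟩⟩

/-- a circle: centre `P`, parameter `x`, radius `v₀ π` -/
structure Circ (p : ℕ) [Fact p.Prime] (k : Type*) [Field k] [Algebra ℚ_[p] k] (K : Type*) [Field K]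
    [Algebra k K] (C : IntermediateField k (AlgebraicClosure K)) where
  /-- the centre -/
  P : Valuation (AlgebraicClosure K) ℝ≥0
  /-- a norm over the circle -/
  v₀ : Valuation (AlgebraicClosure K) ℝ≥0
  /-- the parameter -/
  x : AlgebraicClosure K
  /-- the radius -/
  π : AlgebraicClosure K
  hπ : π ∈ C
  hπ0 : π ≠ 0
  hx : x ∈ KC K C
  hx0 : x ≠ 0
  hP : IsPlace k P
  hPx : P x < 1
  hv₀ : ExtendsPadicNorm k (AlgebraicClosure K) p v₀
  hcirc : IsCircle K C P x (v₀ π) v₀

section main

variable {k : Type} [Field k] {K : Type} [Field K] [Algebra k K]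

local notation "Kb" => AlgebraicClosure K

/-- **the multi-circle cutoff** -/
theorem dcut (p : ℕ) [Fact p.Prime] [Algebra ℚ_[p] k]
    [FiniteDimensional ℚ_[p] k] [Algebra (RatFunc k) K] [IsScalarTower k (RatFunc k) K]
    [FunctionField k K] (hCut : CutEndP p k K) (w : Valuation Kb ℝ≥0)
    (hw : ExtendsPadicNorm k Kb p w) (C : IntermediateField k Kb) [FiniteDimensional k C] :
    ∀ (D : List (Circ p k K C)), (∀ d ∈ D, w d.π ≤ w d.x) →
    ∀ (L : IntermediateField K Kb) [FiniteDimensional K L],
      (∀ v v' : Valuation Kb ℝ≥0, IsPlace k v → IsPlace k v' →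
        (∀ g ∈ KC K C, v g ≤ 1 ↔ v' g ≤ 1) → ¬ UnrAt K v' (L : Set Kb) →
        ∃ d ∈ D, SameGeo k d.P v) →
      (∀ d ∈ D, ∀ v : Valuation Kb ℝ≥0, ExtendsPadicNorm k Kb p v →
        (∀ g ∈ KC K C, v g = d.v₀ g) → (L : Set Kb) ⊆ cl v (maxUnramified k K : Set Kb)) →
      (L : Set Kb) ⊆ cl w (maxUnramified k K : Set Kb) := by
  have hk0 : CharZero k := charZero_of_injective_algebraMap (algebraMap ℚ_[p] k).injective
  have hK0 := charZero_K k K
  have hKfd : FiniteDimensional (RatFunc k) K := inferInstance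
  intro D
  induction D with
  | nil =>
    intro _ L _ h _
    have h1 : IsUnramifiedEverywhere k K L := by
      refine unr_of_unrAt fun v hv => ?_
      by_contra hcon
      obtain ⟨P, hP, -⟩ := h v v hv hv (fun _ _ => Iff.rfl) hcon
      simp at hP
    have h2 : L ≤ maxUnramified k K := Unr5_957.le_maxUnramified_iff.mpr h1
    exact fun a ha => subset_cl w _ (h2 ha)
  | cons d D' ih =>
    intro hDw L _ h hcl
    have hKCf : FiniteDimensional K (KC K C) := finite_KC C
    have := finite_IF (k := k) (KC K C)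
    have := tower_IF (k := k) (KC K C)
    have : IsScalarTower k (KC K C) Kb := tower_kLb (KC K C)
    have : Algebra.IsAlgebraic (KC K C) Kb := Algebra.IsAlgebraic.tower_top (K := K) (KC K C)
    -- primitive element
    obtain ⟨α, hα⟩ : ∃ α : Kb, L = IntermediateField.adjoin K {α} := by
      obtain ⟨β, hβ⟩ := Field.exists_primitive_element K L
      refine ⟨(β : Kb), ?_⟩
      have h1 := congrArg IntermediateField.lift hβ
      rw [IntermediateField.lift_adjoin_simple, IntermediateField.lift_top] at h1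
      exact h1.symm
    have hαL : α ∈ L := by
      rw [hα]
      exact IntermediateField.mem_adjoin_simple_self K α
    have hαM : ∀ v : Valuation Kb ℝ≥0, (∀ g ∈ KC K C, v g = d.v₀ g) →
        α ∈ cl v (maxUnramified k K : Set Kb) := by
      intro v hv
      obtain ⟨σ, hσ, -⟩ := exists_conj_KC C d.v₀ v hv
      have hvn : ExtendsPadicNorm k Kb p v := by
        rw [hσ]; exact norm_aut p d.hv₀ σ
      exact hcl d (by simp) v hvn hv hαL
    obtain ⟨a₁, ha₁⟩ := one_lt_norm (k := k) (K := K) p d.hv₀
    obtain ⟨KU, hKUf, hKUM, hKCU, hKUα⟩ := exists_KU d.v₀ ⟨a₁, ha₁⟩ C α hαM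
    have hL'f : FiniteDimensional K (L ⊔ KC K C : IntermediateField K Kb) :=
      IntermediateField.finiteDimensional_sup L (KC K C)
    -- the cutting theorem
    have hcut1 : ∀ v : Valuation Kb ℝ≥0, ExtendsPadicNorm k Kb p v →
        (∀ g ∈ KC K C, v g = d.v₀ g) →
        ((L ⊔ KC K C : IntermediateField K Kb) : Set Kb) ⊆ cl v (KU : Set Kb) := by
      intro v _ hv
      have h1 : (L ⊔ KC K C : IntermediateField K Kb) ≤ clI v KU := by
        refine sup_le ?_ (hKCU.trans (le_clI v KU))
        rw [hα, IntermediateField.adjoin_simple_le_iff]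
        exact hKUα v hv
      exact fun z hz => h1 hz
    obtain ⟨A', hA'f, hKUA', hLA', hA'v, hA'P⟩ := hCut C d.π d.x d.P d.v₀ d.hπ d.hπ0 d.hx d.hx0
      d.hP d.hPx d.hv₀ d.hcirc KU (L ⊔ KC K C) hKCU le_sup_right hcut1 w hw (hDw d (by simp))
    have hsup : (L ⊔ KC K C ⊔ KU : IntermediateField K Kb) ≤ L ⊔ KU :=
      sup_le (sup_le le_sup_left (hKCU.trans le_sup_right)) le_sup_right
    -- the induction hypothesis
    have hIH : (A' : Set Kb) ⊆ cl w (maxUnramified k K : Set Kb) := by
      refine ih (fun e he => hDw e (List.mem_cons_of_mem _ he)) A' ?_ ?_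
      · intro v v' hv hv' hvv' hun
        have hKUun : ∀ u : Valuation Kb ℝ≥0, IsPlace k u → UnrAt K u (KU : Set Kb) :=
          fun u hu => unrAt_of_le_M hKUM hu
        rcases hA'v v' (Or.inl hv') with ⟨s, hs1, hs2⟩ | h1
        swap
        · exact absurd (UnrAt.of_cl (hKUun v' hv') h1) hun
        have h2 : ¬ UnrAt K (v'.comap (s : Kb →+* Kb)) (L : Set Kb) := by
          intro h3
          apply hun
          refine UnrAt.of_cl ?_ hs2
          rw [← unrAt_comap]
          have hpl := val_aut_place hv' s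
          exact UnrAt.mono (unrAt_sup hpl h3 (hKUun _ hpl)) hsup
        obtain ⟨e, he, hev⟩ := h v (v'.comap (s : Kb →+* Kb)) hv (val_aut_place hv' s) (by
          intro g hg
          rw [Valuation.comap_apply]
          change v g ≤ 1 ↔ v' (s g) ≤ 1
          rw [hs1 g (hKCU hg)]
          exact hvv' g hg) h2
        rcases List.mem_cons.mp he with rfl | he
        · exfalso
          -- `v'` is `P` on `K C`
          have hPv' : ∀ g ∈ KC K C, v' g ≤ 1 ↔ e.P g ≤ 1 := by
            intro g hg
            rw [← hvv' g hg]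
            exact (hev g (KC_le_Kgeo C hg)).symm
          obtain ⟨⟨y, hym⟩, hy0', hy1', hy2'⟩ := Places_97.exists_uniformizer
            (e.P.comap (algebraMap (KC K C) Kb)) (isPlace_comap (F := KC K C) e.hP)
          have hy0 : y ≠ 0 := by
            rintro rfl
            exact hy0' (map_zero e.P)
          obtain ⟨r, hr, hrP⟩ := exists_rescale hPv' hym hy0 hy1'
            (fun g hg h1 => hy2' ⟨g, hg⟩ h1)
          have h6 := hA'P (powV v' r hr) (isPlace_powV hv' r hr) hrP
          rw [cl_powV] at h6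
          exact hun (UnrAt.of_cl (hKUun v' hv') h6)
        · exact ⟨e, he, hev⟩
      · intro e he v hv hve
        rcases hA'v v (Or.inr hv) with ⟨s, hs1, hs2⟩ | h1
        swap
        · exact h1.trans (cl_mono v hKUM)
        refine hs2.trans (cl_trans v ?_)
        rintro _ ⟨z, hz, rfl⟩
        have hvs : ExtendsPadicNorm k Kb p (v.comap (s : Kb →+* Kb)) := norm_aut p hv s
        have h2 := hcl e (List.mem_cons_of_mem _ he) (v.comap (s : Kb →+* Kb)) hvs (by
          intro g hg
          rw [Valuation.comap_apply]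
          change v (s g) = e.v₀ g
          rw [hs1 g (hKCU hg)]
          exact hve g hg)
        have h3 : (L ⊔ KU : IntermediateField K Kb) ≤
            clI (v.comap (s : Kb →+* Kb)) (maxUnramified k K) :=
          sup_le (fun y hy => h2 hy) (hKUM.trans (le_clI _ _))
        have h4 : z ∈ cl (v.comap (s : Kb →+* Kb)) (maxUnramified k K : Set Kb) := h3 (hsup hz)
        rw [mem_cl_comap] at h4
        refine cl_mono v ?_ h4
        rintro _ ⟨y, hy, rfl⟩
        exact aut_mem_M s hy
    intro z hz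
    have h7 : z ∈ cl w (A' : Set Kb) := hLA' ((le_sup_left : L ≤ L ⊔ KC K C) hz)
    exact cl_trans w hIH h7

end main

end Crest.Agent.R013.DCut_22
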