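import Crest.Agent.R013.Gl19_946
import Crest.Agent.R013.RR20_948

/-!
# Patching, part 20: `K` is finite over `k(x)`.
-/

set_option autoImplicit false

namespace Crest.Agent.R013.Gl946

open Module Filter Topology Polynomial
open scoped NNReal

/-- For a function field, `K` is finite over `k(y)`, `y` transcendental. -/
theorem finite_adjoin {k K : Type*} [Field k] [Field K] [Algebra k K] [Algebra (RatFunc k) K]
    [IsScalarTower k (RatFunc k) K] [FiniteDimensional (RatFunc k) K] (y : K)
    (hy : Transcendental k y) : FiniteDimensional (IntermediateField.adjoin k {y}) K := by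
  have hfin := RR20_948.ratAlg_finite (k := k) (K := K) y hy
  let ρ : RatFunc k →ₐ[k] K := RR20_948.ratHom y hy
  have hρ : ρ.toRingHom.Finite := hfin
  have hX : ρ RatFunc.X = y := RR20_948.ratHom_X y hy
  have hmem : ∀ f : RatFunc k, ρ f ∈ IntermediateField.adjoin k {y} := by
    intro f
    have h1 : IntermediateField.adjoin k {(RatFunc.X : RatFunc k)} = ⊤ :=
      RatFunc.adjoin_X
    have h2 : f ∈ IntermediateField.adjoin k {(RatFunc.X : RatFunc k)} := by rw [h1]; trivial
    have h3 : (IntermediateField.adjoin k {(RatFunc.X : RatFunc k)}).map ρ =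
        IntermediateField.adjoin k {y} := by
      rw [IntermediateField.adjoin_map, Set.image_singleton, hX]
    rw [← h3]
    exact ⟨f, h2, rfl⟩
  let r : RatFunc k →+* IntermediateField.adjoin k {y} :=
    ρ.toRingHom.codRestrict (IntermediateField.adjoin k {y}) hmem
  have h4 : (algebraMap (IntermediateField.adjoin k {y}) K).comp r = ρ.toRingHom := rfl
  rw [← h4] at hρ
  exact RingHom.finite_algebraMap.1 hρ.of_comp_finite

/-- `x` is transcendental if the Gauss norm condition of `IsCircle` holds. -/
theorem transcendental_of_circle {k K Kb : Type*} [Field k] [Field K] [Field Kb] [Algebra k K]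
    [Algebra K Kb] [Algebra k Kb] [IsScalarTower k K Kb] {C : IntermediateField k Kb}
    {v0 P : Valuation Kb ℝ≥0} {x : K} {r : ℝ≥0} (hr : r ≠ 0)
    (hcirc : SE_669.IsCircle K C P (algebraMap K Kb x) r v0) : Transcendental k x := by
  rw [transcendental_iff]
  intro p hp
  have h1 := hcirc.gauss (p.natDegree + 1) (fun i => algebraMap k Kb (p.coeff i))
    (fun i => C.algebraMap_mem _)
  have h2 : SE_669.psum (fun i => algebraMap k Kb (p.coeff i)) (algebraMap K Kb x)
      (p.natDegree + 1) = 0 := by
    have h3 : algebraMap K Kb (aeval x p) = 0 := by rw [hp, map_zero]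
    rw [← h3, aeval_eq_sum_range, map_sum]
    refine Finset.sum_congr rfl fun i _ => ?_
    rw [Algebra.smul_def, map_mul, map_pow, ← IsScalarTower.algebraMap_apply]
  rw [h2, map_zero] at h1
  ext i
  rw [coeff_zero]
  rcases lt_or_ge p.natDegree i with hi | hi
  · exact coeff_eq_zero_of_natDegree_lt hi
  · have h3 := Finset.le_sup (f := fun i => v0 (algebraMap k Kb (p.coeff i)) * r ^ i)
      (Finset.mem_range.2 (show i < p.natDegree + 1 by omega))
    rw [← h1] at h3
    have h4 : v0 (algebraMap k Kb (p.coeff i)) * r ^ i = 0 := le_antisymm h3 zero_le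
    rcases mul_eq_zero.1 h4 with h5 | h5
    · exact (map_eq_zero _).1 ((Valuation.zero_iff v0).1 h5)
    · exact absurd h5 (pow_ne_zero _ hr)

end Crest.Agent.R013.Gl946
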