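import Mathlib
import Crest.Agent.R013.DCut1_22
import Crest.Agent.R013.Set10_803
import Crest.Agent.R013.Gl20_946

/-!
# Row 13: CUT-END over `K C` from 946's `cut_end`
-/

set_option autoImplicit false
set_option linter.unusedSectionVars false

namespace Crest.Agent.R013.CutP_669

open scoped NNReal Topology
open Filter Polynomial Crest.NumberTheoryR.Sect
open Crest.Agent.R013.SE_669 Crest.Agent.R013.Unr3_957 Crest.Agent.R013.Unr4_957
  Crest.Agent.R013.Cof1_669 Crest.Agent.R013.Cof2_669 Crest.Agent.R013.Cof5_669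
  Crest.Agent.R013.Cof10_669 Crest.Agent.R013.Set_803 Crest.Agent.R013.CGood_588

section up

variable {k : Type*} [Field k] {K : Type*} [Field K] [Algebra k K]

local notation "Kb" => AlgebraicClosure K

variable {p : ℕ} [Fact p.Prime] [Algebra ℚ_[p] k] [FiniteDimensional ℚ_[p] k]
  {C : IntermediateField k (AlgebraicClosure K)} [FiniteDimensional k C]
  {P v₀ : Valuation (AlgebraicClosure K) ℝ≥0} {x π : AlgebraicClosure K}

theorem discData_of_circle (hπ : π ∈ C) (hπ0 : π ≠ 0) (hP : IsPlace k P) (hPx : P x < 1)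
    (hv₀ : ExtendsPadicNorm k Kb p v₀) (hcirc : IsCircle K C P x (v₀ π) v₀) {R : ℝ≥0}
    (hR : v₀ π < R) : DiscData p v₀ P C R x 0 π where
  hv := hv₀
  hP := fun a => place_le_one (fun c => by
    by_cases h0 : c = 0
    · rw [h0, map_zero, map_zero]; exact zero_le_one
    · exact (hP.1 c h0).le) (isAlgebraic_of_mem a.2)
  hPx := hPx
  qC := C.zero_mem
  cC := hπ
  c0 := hπ0
  qR := by rw [map_zero]; exact lt_of_le_of_lt zero_le hR
  cR := hR
  gauss := by
    intro n c hc
    have hπn : v₀ π ≠ 0 := (Valuation.ne_zero_iff v₀).mpr hπ0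
    have h1 : psum c ((x - 0) / π) n = psum (fun i => c i * (π ^ i)⁻¹) x n := by
      unfold psum
      refine Finset.sum_congr rfl fun i _ => ?_
      rw [sub_zero, div_pow, div_eq_mul_inv]
      ring
    rw [h1, hcirc.gauss n _ (fun i => mul_mem (hc i) (inv_mem (pow_mem hπ i)))]
    refine Finset.sup_congr rfl fun i _ => ?_
    rw [map_mul, map_inv₀, map_pow, mul_assoc, inv_mul_cancel₀ (pow_ne_zero _ hπn), mul_one]

/-- **the expansions extend to `K C`** -/
theorem circle_up (hπ : π ∈ C) (hπ0 : π ≠ 0) (hP : IsPlace k P) (hPx : P x < 1)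
    (hv₀ : ExtendsPadicNorm k Kb p v₀) (hcirc : IsCircle K C P x (v₀ π) v₀) :
    IsCircle (KC K C) C P x (v₀ π) v₀ := by
  classical
  refine ⟨hcirc.gauss, ?_⟩
  have D : ∀ {R : ℝ≥0}, v₀ π < R → DiscData p v₀ P C R x 0 π := fun hR =>
    discData_of_circle hπ hπ0 hP hPx hv₀ hcirc hR
  -- every element of `K C` is expanded on small discs
  have key : ∀ f ∈ IntermediateField.adjoin K (C : Set Kb), ∃ R₁ : ℝ≥0, v₀ π < R₁ ∧
      ∀ (R : ℝ≥0) (hR : v₀ π < R), R ≤ R₁ → f ∈ (D hR).SD := by
    intro f hf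
    induction hf using IntermediateField.adjoin_induction with
    | mem a ha => exact ⟨v₀ π + 1, lt_add_one _, fun R hR _ => (D hR).C_le_SD ⟨a, ha⟩⟩
    | algebraMap f =>
      obtain ⟨G, H, hG, hH, hi, ⟨R₁, B, hR₁, hB⟩, l1, l2⟩ := hcirc.disc f
      refine ⟨R₁, hR₁, fun R hR hRR => ?_⟩
      have e1 : cf (PowerSeries.mk fun i => (⟨G i, hG i⟩ : C)) = G := by
        funext j; simp [cf, PowerSeries.coeff_mk]
      have e2 : cf (PowerSeries.mk fun i => (⟨H i, hH i⟩ : C)) = H := by
        funext j; simp [cf, PowerSeries.coeff_mk]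
      refine (D hR).mem_SD.mpr ⟨PowerSeries.mk fun i => ⟨G i, hG i⟩,
        PowerSeries.mk fun i => ⟨H i, hH i⟩, ?_, ?_, ?_, ?_, ?_⟩
      · intro h0
        obtain ⟨i, hi⟩ := hi
        apply hi
        rw [← e2, h0]
        simp [cf]
      · rw [e1]
        exact ⟨B, fun i => (mul_le_mul_right (pow_le_pow_left₀ zero_le hRR i) _).trans (hB i).1⟩
      · rw [e2]
        exact ⟨B, fun i => (mul_le_mul_right (pow_le_pow_left₀ zero_le hRR i) _).trans (hB i).2⟩
      · rw [e1, e2]; exact l1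
      · rw [e1, e2]; exact l2
    | add a b _ _ ha hb =>
      obtain ⟨R₁, h1, h2⟩ := ha
      obtain ⟨R₂, h3, h4⟩ := hb
      exact ⟨min R₁ R₂, lt_min h1 h3, fun R hR hRR => add_mem (h2 R hR (hRR.trans (min_le_left _ _)))
        (h4 R hR (hRR.trans (min_le_right _ _)))⟩
    | inv a _ ha =>
      obtain ⟨R₁, h1, h2⟩ := ha
      exact ⟨R₁, h1, fun R hR hRR => inv_mem (h2 R hR hRR)⟩
    | mul a b _ _ ha hb =>
      obtain ⟨R₁, h1, h2⟩ := ha
      obtain ⟨R₂, h3, h4⟩ := hb
      exact ⟨min R₁ R₂, lt_min h1 h3, fun R hR hRR => mul_mem (h2 R hR (hRR.trans (min_le_left _ _)))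
        (h4 R hR (hRR.trans (min_le_right _ _)))⟩
  intro f
  obtain ⟨R₁, h1, h2⟩ := key f f.2
  obtain ⟨G, H, h⟩ := (D h1).mem_SD.mp (h2 R₁ h1 le_rfl)
  obtain ⟨B₁, hB₁⟩ := h.bG
  obtain ⟨B₂, hB₂⟩ := h.bH
  refine ⟨cf G, cf H, fun i => (PowerSeries.coeff i G).2, fun i => (PowerSeries.coeff i H).2, ?_,
    ⟨R₁, max B₁ B₂, h1, fun i => ⟨(hB₁ i).trans (le_max_left _ _),
      (hB₂ i).trans (le_max_right _ _)⟩⟩, h.lv, h.lP⟩
  by_contra hcon
  push Not at hcon
  apply h.ne
  ext i
  have := hcon i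
  simpa [cf] using this

end up

section cut

variable {k : Type*} [Field k] {K : Type*} [Field K] [Algebra k K]

local notation "Kb" => AlgebraicClosure K

/-- **CUT-END+** -/
theorem cutEndP (p : ℕ) [Fact p.Prime] [Algebra ℚ_[p] k] [FiniteDimensional ℚ_[p] k]
    [Algebra (RatFunc k) K] [IsScalarTower k (RatFunc k) K] [FiniteDimensional (RatFunc k) K] :
    DCut_22.CutEndP p k K := by
  have hk0 : CharZero k := charZero_of_injective_algebraMap (algebraMap ℚ_[p] k).injective
  have hK0 := charZero_K k K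
  intro C _ π x P v₀ hπ hπ0 hx hx0 hP hPx hv₀ hcirc KU L _ _ hKU hL h1 w hw hwπ
  classical
  have hup := circle_up hπ hπ0 hP hPx hv₀ hcirc
  set K₁ := KC K C with hK₁
  have iK₁f : FiniteDimensional K K₁ := finite_KC C
  have f1 : FiniteDimensional (RatFunc k) K₁ := finite_IF K₁
  have t1 : IsScalarTower k (RatFunc k) K₁ := tower_IF K₁
  have t2 : IsScalarTower k K₁ Kb := tower_kLb K₁
  have a1 : Algebra.IsAlgebraic K₁ Kb := Algebra.IsAlgebraic.tower_top (K := K) K₁
  set x₁ : K₁ := ⟨x, hx⟩ with hx₁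
  have hx₁0 : x₁ ≠ 0 := fun h => hx0 (congrArg Subtype.val h)
  have hvπ : v₀ π ≠ 0 := (Valuation.ne_zero_iff v₀).mpr hπ0
  have htr : Transcendental k x₁ := Gl946.transcendental_of_circle (K := K₁) hvπ hup
  have f2 : FiniteDimensional (IntermediateField.adjoin k {x₁}) K₁ := Gl946.finite_adjoin x₁ htr
  -- base change of the fields
  have fU : FiniteDimensional K₁ (IntermediateField.extendScalars hKU) := by
    have : FiniteDimensional K (IntermediateField.extendScalars hKU) :=
      inferInstanceAs (FiniteDimensional K KU)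
    exact Module.Finite.of_restrictScalars_finite K K₁ _
  have fL : FiniteDimensional K₁ (IntermediateField.extendScalars hL) := by
    have : FiniteDimensional K (IntermediateField.extendScalars hL) :=
      inferInstanceAs (FiniteDimensional K L)
    exact Module.Finite.of_restrictScalars_finite K K₁ _
  have hadj : ∀ g : Kb, g ∈ IntermediateField.adjoin K₁ (C : Set Kb) ↔ g ∈ KC K C := by
    intro g
    have e1 : IntermediateField.adjoin K₁ (C : Set Kb) = ⊥ := by
      rw [IntermediateField.adjoin_eq_bot_iff]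
      intro c hc
      rw [SetLike.mem_coe, IntermediateField.mem_bot]
      exact ⟨⟨c, le_KC hc⟩, rfl⟩
    rw [e1, IntermediateField.mem_bot]
    constructor
    · rintro ⟨a, rfl⟩; exact a.2
    · intro hg; exact ⟨⟨g, hg⟩, rfl⟩
  obtain ⟨A, hAf, hUA, hLA, h2, h3⟩ := Gl946.cut_end p (k := k) (K := K₁) C v₀ P x₁
    hx₁0 π hπ hπ0 hv₀ hup hPx (IntermediateField.extendScalars hKU)
    (IntermediateField.extendScalars hL) (fun c hc => hKU (le_KC hc))
    (fun v hv l hl => by
      have hv' : ∀ g ∈ KC K C, v g = v₀ g := fun g hg => hv g ((hadj g).mpr hg)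
      have hvn : ExtendsPadicNorm k Kb p v := by
        intro q
        rw [← hv₀ q]
        exact hv' _ ((KC K C).algebraMap_mem (algebraMap k K (algebraMap ℚ_[p] k q)))
      exact h1 v hvn hv' hl) w hw hwπ
  refine ⟨A.restrictScalars K, ?_, ?_, ?_, ?_, ?_⟩
  · have : FiniteDimensional K₁ A := hAf
    have : FiniteDimensional K A := Module.Finite.trans K₁ A
    exact this
  · intro z hz
    exact hUA hz
  · intro l hl
    exact hLA l hl
  · intro v hv
    rcases h2 v hv.symm with ⟨s, hs1, hs2⟩ | h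
    · refine Or.inl ⟨s.restrictScalars K, fun z hz => hs1 z hz, ?_⟩
      intro a ha
      have h4 := hs2 a ha
      have h5 : ((IntermediateField.extendScalars hL ⊔ IntermediateField.extendScalars hKU :
          IntermediateField K₁ Kb) : Set Kb) = ((L ⊔ KU : IntermediateField K Kb) : Set Kb) := by
        rw [IntermediateField.extendScalars_sup]
        rfl
      rw [h5] at h4
      exact h4
    · exact Or.inr fun a ha => h a ha
  · intro v hv hvP a ha
    exact h3 v hv (fun f hf => by rw [hvP f ((hadj f).mp hf)]) a ha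

end cut

section final

/-- **`S0016` from (SE)** -/
theorem s0016 (p : ℕ) [Fact p.Prime] (hSE : Cof6_669.SEall p) (k : Type) [Field k]
    [Algebra ℚ_[p] k] [FiniteDimensional ℚ_[p] k]
    (K : Type) [Field K] [Algebra k K] [Algebra (RatFunc k) K] [IsScalarTower k (RatFunc k) K]
    [FunctionField k K] (hc : algebraicClosure k K = ⊥) (hg : 2 ≤ genus k K)
    (v : Valuation K ℝ≥0) (hv : ExtendsPadicNorm k K p v)
    (w : Valuation (AlgebraicClosure K) ℝ≥0)
    (hw : w.comap (algebraMap K (AlgebraicClosure K)) = v) :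
    ∀ a : AlgebraicClosure K, ∀ ε : ℝ≥0, 0 < ε →
      ∃ b : maxUnramified k K, w (a - (b : AlgebraicClosure K)) < ε := by
  have hfd : FiniteDimensional (RatFunc k) K := inferInstance
  exact s0016_of p hSE k K hc hg (cutEndP p).cutEnd v hv w hw

end final

end Crest.Agent.R013.CutP_669
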