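import Crest.Agent.R013.VSup1_797

/-!
# R013 / VSup2 (helper797): the theorem `VSupply p`

Artin-Schreier vertices and, for `p = 2`, `ℤ/4`-vertices as tower vertices.
-/

set_option autoImplicit false
set_option linter.unusedSectionVars false
set_option linter.style.haveILetI false

namespace Crest.Agent.R013.VSup2_797

open scoped NNReal Topology
open Filter Polynomial IntermediateField Crest.NumberTheoryR.Sect
open Crest.Agent.R013.SE_669 Crest.Agent.R013.CGood_588 Crest.Agent.R013.GoodP_797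
open Crest.Agent.R013.Cof1_669 Crest.Agent.R013.Cof2_669 Crest.Agent.R013.Cof5_669
open Crest.Agent.R013.Set_803 Crest.Agent.R013.VData_803 Crest.Agent.R013.VSup1_797

/-- roots of monic polynomials with integral coefficients are integral -/
theorem le_one_of_root {Ω : Type*} [Field Ω] {v : Valuation Ω ℝ≥0} {a b : Ω} {n : ℕ} (hn : 1 < n)
    {e : Ω} (he : v e ≤ 1) (hb : v b ≤ 1) (h : a ^ n + e * a + b = 0) : v a ≤ 1 := by
  by_contra hlt
  push Not at hlt
  have h1 : a ^ n = -(e * a + b) := by linear_combination h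
  have h2 : v (a ^ n) ≤ v a := by
    rw [h1, Valuation.map_neg]
    refine v.map_add_le ?_ (hb.trans hlt.le)
    rw [map_mul]
    exact mul_le_of_le_one_left' he
  rw [map_pow] at h2
  have h3 : v a ^ 1 < v a ^ n := pow_lt_pow_right₀ hlt hn
  rw [pow_one] at h3
  exact absurd h2 (not_le.2 h3)

/-- the constants of the `ℤ/4` vertex -/
theorem exists_consts {k : Type*} [Field k] {K : Type*} [Field K] [Algebra k K]
    (v : Valuation (AlgebraicClosure K) ℝ≥0) :
    ∃ a b d : AlgebraicClosure K, a ∈ kb k K ∧ b ∈ kb k K ∧ d ∈ kb k K ∧ v a ≤ 1 ∧ v b ≤ 1 ∧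
      v d ≤ 1 ∧ a ^ 4 + a + 1 = 0 ∧ b ^ 2 = a ∧ d ^ 2 + d + (a ^ 3 + a) = 0 := by
  have hk : ∀ f : (kb k K)[X], f.degree ≠ 0 → ∃ a ∈ kb k K, eval₂ (algebraMap (kb k K) _) a f = 0 := by
    intro f hf
    obtain ⟨a, ha⟩ := IsAlgClosed.exists_eval₂_eq_zero
      (algebraMap (kb k K) (AlgebraicClosure K)) f hf
    by_cases hf0 : f = 0
    · exact ⟨0, zero_mem _, by rw [hf0, eval₂_zero]⟩
    refine ⟨a, ?_, ha⟩
    have h1 : IsAlgebraic (kb k K) a := ⟨f, hf0, ha⟩
    have h2 : IsAlgebraic k a := h1.restrictScalars k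
    exact mem_algebraicClosure_iff.2 h2
  obtain ⟨a, hak, ha⟩ := hk (X ^ 4 + (X + 1)) (by
    have h1 : (X ^ 4 + (X + 1) : (kb k K)[X]).degree = 4 := by compute_degree!
    rw [h1]; decide)
  have ha' : a ^ 4 + a + 1 = 0 := by
    simp only [eval₂_add, eval₂_pow, eval₂_X, eval₂_one] at ha
    linear_combination ha
  obtain ⟨b, hbk, hb⟩ := hk (X ^ 2 - C ⟨a, hak⟩) (by
    rw [degree_X_pow_sub_C two_pos]; decide)
  have hb' : b ^ 2 = a := by
    simp only [eval₂_sub, eval₂_pow, eval₂_X, eval₂_C] at hb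
    rw [sub_eq_zero] at hb
    exact hb
  have hadk : a ^ 3 + a ∈ kb k K := add_mem (pow_mem hak 3) hak
  obtain ⟨d, hdk, hd⟩ := hk (X ^ 2 + (X + C ⟨a ^ 3 + a, hadk⟩)) (by
    have h1 : (X ^ 2 + (X + C ⟨a ^ 3 + a, hadk⟩) : (kb k K)[X]).degree = 2 := by compute_degree!
    rw [h1]; decide)
  have hd' : d ^ 2 + d + (a ^ 3 + a) = 0 := by
    simp only [eval₂_add, eval₂_pow, eval₂_X, eval₂_C] at hd
    rw [← hd, add_assoc]
    rfl
  have hva : v a ≤ 1 := le_one_of_root (n := 4) (e := 1) (b := 1) (by norm_num) (by rw [map_one])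
    (by rw [map_one]) (by linear_combination ha')
  have hvb : v b ≤ 1 := by
    have h1 : v b ^ 2 ≤ 1 := by rw [← map_pow, hb']; exact hva
    exact (pow_le_one_iff (by norm_num)).1 h1
  have hvd : v d ≤ 1 := by
    refine le_one_of_root (n := 2) (e := 1) (b := a ^ 3 + a) (by norm_num) (by rw [map_one]) ?_
      (by linear_combination hd')
    refine v.map_add_le ?_ hva
    rw [map_pow]
    exact pow_le_one' hva 3
  exact ⟨a, b, d, hak, hbk, hdk, hva, hvb, hvd, ha', hb', hd'⟩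

/-- **the `ℤ/4` vertex is a tower vertex with `m = 3`** -/
theorem z4_tower {Ω : Type*} [Field Ω] {v : Valuation Ω ℝ≥0} (h2 : v 2 < 1) {a b d w u t : Ω}
    (ha : v a ≤ 1) (hb : v b ≤ 1) (hd : v d ≤ 1) (hw : v w ≤ 1) (hu : v u ≤ 1)
    (ha4 : a ^ 4 + a + 1 = 0) (hb2 : b ^ 2 = a) (hd2 : d ^ 2 + d + (a ^ 3 + a) = 0)
    (hwt : v (w ^ 2 + w - t) < 1) (hut : v (u ^ 2 + u - (w ^ 3 + w)) < 1) :
    v ((u + b * (w + a) + d) ^ 2 - (u + b * (w + a) + d) - (w + a) ^ 3) < 1 ∧
    v (((w + a) - a) ^ 2 + ((w + a) - a) - t) < 1 := by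
  let O := v.valuationSubring
  have hO : ∀ x : Ω, v x ≤ 1 → x ∈ O := fun x hx => hx
  -- everything in the ideal `v < 1`
  have hmul : ∀ {x y : Ω}, v x < 1 → v y ≤ 1 → v (x * y) < 1 := fun {x y} hx hy => by
    rw [map_mul]; exact mul_lt_one_of_lt_of_le hx hy
  have hc : v (a ^ 2 + 1 + b) < 1 := by
    have h3 : (a ^ 2 + 1 + b) ^ 2 = 2 * (a ^ 2 + a ^ 2 * b + b) := by
      linear_combination ha4 + hb2
    have h4 : v ((a ^ 2 + 1 + b) ^ 2) < 1 := by
      rw [h3]
      exact hmul h2 (O.add_mem _ _ (O.add_mem _ _ (O.pow_mem (hO a ha) 2)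
        (O.mul_mem _ _ (O.pow_mem (hO a ha) 2) (hO b hb))) (hO b hb))
    rw [map_pow] at h4
    exact lt_of_pow_lt_pow_left₀ 2 zero_le (by rwa [one_pow])
  have hwO := hO w hw
  have huO := hO u hu
  have haO := hO a ha
  have hbO := hO b hb
  have hdO := hO d hd
  constructor
  · have e : (u + b * (w + a) + d) ^ 2 - (u + b * (w + a) + d) - (w + a) ^ 3 =
        (u ^ 2 + u - (w ^ 3 + w)) + (a ^ 2 + 1 + b) * (w + a) +
        2 * ((u * b * (w + a) + u * d + b * (w + a) * d + a ^ 2 * (w + a)) -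
          (u + a * (w + a) ^ 2 + b * (w + a) + a ^ 3 + a + d)) := by
      linear_combination (w + a) ^ 2 * hb2 + hd2
    rw [e]
    have hSO := O.add_mem _ _ hwO haO
    refine v.map_add_lt (v.map_add_lt hut (hmul hc hSO)) (hmul h2 ?_)
    refine O.sub_mem (O.add_mem _ _ (O.add_mem _ _ (O.add_mem _ _ ?_ ?_) ?_) ?_)
      (O.add_mem _ _ (O.add_mem _ _ (O.add_mem _ _ (O.add_mem _ _ (O.add_mem _ _ huO ?_) ?_) ?_)
        haO) hdO)
    · exact O.mul_mem _ _ (O.mul_mem _ _ huO hbO) hSO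
    · exact O.mul_mem _ _ huO hdO
    · exact O.mul_mem _ _ (O.mul_mem _ _ hbO hSO) hdO
    · exact O.mul_mem _ _ (O.pow_mem haO 2) hSO
    · exact O.mul_mem _ _ haO (O.pow_mem hSO 2)
    · exact O.mul_mem _ _ hbO hSO
    · exact O.pow_mem haO 3
  · have e : ((w + a) - a) ^ 2 + ((w + a) - a) - t = w ^ 2 + w - t := by ring
    rw [e]
    exact hwt

/-- **`VSupply p`**: vertex data from `GOOD'`, pointwise. -/
theorem exists_vdata {p : ℕ} [Fact p.Prime] {k : Type*} [Field k] [Algebra ℚ_[p] k]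
    [FiniteDimensional ℚ_[p] k] {K : Type*} [Field K] [Algebra k K] [Algebra (RatFunc k) K]
    [IsScalarTower k (RatFunc k) K] [FunctionField k K]
    {P : Valuation (AlgebraicClosure K) ℝ≥0} {x : K}
    (hP : IsRationalPlace k K (P.comap (algebraMap K (AlgebraicClosure K))))
    (hx : IsUniformizerAt (P.comap (algebraMap K (AlgebraicClosure K))) x)
    {η : ℝ≥0} (hη : η ≤ 1) {C : IntermediateField k (AlgebraicClosure K)}
    (hC : FiniteDimensional k C) {π q c : AlgebraicClosure K}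
    {v : Valuation (AlgebraicClosure K) ℝ≥0} (hπC : π ∈ C) (hqC : q ∈ C) (hcC : c ∈ C)
    (hπ0 : π ≠ 0) (hc0 : c ≠ 0) (hvq : v q < η * v π) (hvc : v c < η * v π)
    (hv : ExtendsPadicNorm k (AlgebraicClosure K) p v) {R : ℝ≥0} (hR : v π < η * R)
    (hD : DiscEmb K C P (algebraMap K (AlgebraicClosure K) x) R v)
    (hG : GaussAt C ((algebraMap K (AlgebraicClosure K) x - q) / c) v)
    (hV : VertexEq p v (maxUnramified k K : Set (AlgebraicClosure K))
      ((algebraMap K (AlgebraicClosure K) x - q) / c)) :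
    ∃ (M : IntermediateField K (AlgebraicClosure K)) (l : ℕ) (Y : AlgebraicClosure K),
      VData p k K P x η C π q c R v M l Y := by
  haveI : CharZero k := charZero_of_injective_algebraMap (algebraMap ℚ_[p] k).injective
  haveI := hC
  set X0 : AlgebraicClosure K := algebraMap K (AlgebraicClosure K) x with hX0
  set t : AlgebraicClosure K := (X0 - q) / c with ht
  have hCkb : ∀ a ∈ C, a ∈ kb k K := fun a ha => le_kb C ha
  have ht1 : v t = 1 := gaussAt_norm hG
  have htu : t ∈ maxUnramified k K := by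
    rw [ht]
    exact div_mem (sub_mem ((maxUnramified k K).algebraMap_mem x) (kb_le_max (hCkb q hqC)))
      (kb_le_max (hCkb c hcC))
  rcases hV with ⟨z, hz, m, hm, hpm, hz1, hzt⟩ | ⟨hp2, w, hw, u, hu, hw1, hu1, hwt, hut⟩
  · refine vdata_of_tower hP hx hη hC hπC hqC hcC hπ0 hc0 hvq hvc hv hR hD hG
      (S := t) (Z := z) htu hz ht1.le hz1 hm hpm hzt (f := X) ?_ ?_
    · intro i
      rw [coeff_X]
      split_ifs
      · rw [OneMemClass.coe_one, map_one]
      · rw [ZeroMemClass.coe_zero, map_zero]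
        exact zero_le
    · rw [aeval_X, sub_self, map_zero]
      exact zero_lt_one
  · have h2 : v 2 < 1 := by
      have h1 := val_p hv
      rw [hp2] at h1
      have h3 : ((2 : ℕ) : AlgebraicClosure K) = 2 := by norm_num
      rw [h3] at h1
      rw [h1]
      exact inv_lt_one_of_one_lt₀ (by norm_num)
    obtain ⟨a, b, d, hak, hbk, hdk, ha, hb, hd, ha4, hb2, hd2⟩ := exists_consts (k := k) (K := K) v
    obtain ⟨h3, h4⟩ := z4_tower h2 ha hb hd hw1 hu1 ha4 hb2 hd2 hwt hut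
    have hSu : w + a ∈ maxUnramified k K := add_mem hw (kb_le_max hak)
    have hZu : u + b * (w + a) + d ∈ maxUnramified k K :=
      add_mem (add_mem hu (mul_mem (kb_le_max hbk) hSu)) (kb_le_max hdk)
    have hS1 : v (w + a) ≤ 1 := v.map_add_le hw1 ha
    have hZ1 : v (u + b * (w + a) + d) ≤ 1 := by
      refine v.map_add_le (v.map_add_le hu1 ?_) hd
      rw [map_mul]
      exact mul_le_one' hb hS1
    refine vdata_of_tower hP hx hη hC hπC hqC hcC hπ0 hc0 hvq hvc hv hR hD hG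
      (S := w + a) (Z := u + b * (w + a) + d) hSu hZu hS1 hZ1 (m := 3) (by norm_num)
      (by rw [hp2]; norm_num) (by rw [hp2]; exact h3)
      (f := (X - Polynomial.C ⟨a, hak⟩) ^ 2 + (X - Polynomial.C ⟨a, hak⟩)) ?_ ?_
    · -- coefficients
      have h5 : (X - Polynomial.C ⟨a, hak⟩) ^ 2 + (X - Polynomial.C ⟨a, hak⟩) =
          (X ^ 2 + (Polynomial.C (1 - 2 * (⟨a, hak⟩ : kb k K)) * X +
            Polynomial.C ((⟨a, hak⟩ : kb k K) ^ 2 - ⟨a, hak⟩)) : (kb k K)[X]) := by
        simp only [map_sub, map_mul, map_pow, map_one, map_ofNat]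
        ring
      have hle1 : v (((1 - 2 * (⟨a, hak⟩ : kb k K)) : kb k K) : AlgebraicClosure K) ≤ 1 := by
        push_cast
        refine v.map_sub_le (by rw [map_one]) ?_
        rw [map_mul]
        exact mul_le_one' h2.le ha
      have hle2 : v ((((⟨a, hak⟩ : kb k K) ^ 2 - ⟨a, hak⟩ : kb k K)) : AlgebraicClosure K) ≤ 1 := by
        push_cast
        refine v.map_sub_le ?_ ha
        rw [map_pow]
        exact pow_le_one' ha 2
      intro i
      rw [h5, coeff_add, coeff_add, coeff_X_pow, coeff_C_mul, coeff_X, coeff_C]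
      have e1 : v ((if i = 2 then (1 : kb k K) else 0 : kb k K) : AlgebraicClosure K) ≤ 1 := by
        split_ifs <;> simp
      have e2 : v ((((1 - 2 * (⟨a, hak⟩ : kb k K)) * (if 1 = i then (1 : kb k K) else 0) : kb k K)) :
          AlgebraicClosure K) ≤ 1 := by
        split_ifs
        · rw [mul_one]; exact hle1
        · rw [mul_zero]; simp
      have e3 : v (((if i = 0 then ((⟨a, hak⟩ : kb k K) ^ 2 - ⟨a, hak⟩) else 0 : kb k K)) :
          AlgebraicClosure K) ≤ 1 := by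
        split_ifs
        · exact hle2
        · simp
      rw [AddMemClass.coe_add, AddMemClass.coe_add]
      exact v.map_add_le e1 (v.map_add_le e2 e3)
    · have h6 : aeval (w + a) ((X - Polynomial.C ⟨a, hak⟩) ^ 2 + (X - Polynomial.C ⟨a, hak⟩) :
          (kb k K)[X]) = ((w + a) - a) ^ 2 + ((w + a) - a) := by
        simp only [map_add, map_sub, map_pow, aeval_X, aeval_C]
        rfl
      rw [h6]
      exact h4

/-- **The supplier of vertex data.** -/
theorem vSupply (p : ℕ) [Fact p.Prime] : VSupply p := by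
  intro k _ _ _ K _ _ _ _ _ hc hg P x hP hx δ η hη h
  obtain ⟨C, π, q, c, v, h1, h2, h3, h4, h5, h6, h7, h8, h9, h10, ⟨R, hR, hD⟩, h12, h13⟩ := h
  obtain ⟨M, l, Y, hV⟩ := exists_vdata hP hx hη h1 h2 h3 h4 h5 h6 h8 h9 h10 hR hD h12 h13
  exact ⟨C, π, q, c, R, v, M, l, Y, h7, hV⟩

end Crest.Agent.R013.VSup2_797
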