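import Crest.Agent.R013.TopB_803
import Crest.Agent.R013.VSup2_797
import Crest.Agent.R013.CutP_669

/-!
# Row 13: `S0016` from part B (`LiftP`, `NBP`, `EndP`) and part C (`GOODP`)
-/

set_option autoImplicit false

namespace Crest.Agent.R013.TopS_803

open scoped NNReal Topology
open Filter Crest.NumberTheoryR Crest.NumberTheoryR.Sect SE_669 CGood_588 GoodP_797 VData_803 TopB_803

/-- Output of part C for all function fields (588). -/
def GOODPall (p : ℕ) [Fact p.Prime] : Prop :=
  ∀ (k : Type) [Field k] [Algebra ℚ_[p] k] [FiniteDimensional ℚ_[p] k] (K : Type) [Field K]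
    [Algebra k K] [Algebra (RatFunc k) K] [IsScalarTower k (RatFunc k) K] [FunctionField k K],
    algebraicClosure k K = ⊥ → 2 ≤ genus k K → GOODP p k K

theorem seall_of {p : ℕ} [Fact p.Prime] (hB : BMain p) (hG : GOODPall p) : Cof6_669.SEall p := by
  intro k _ _ _ K _ _ _ _ _ hc hg
  exact SE_of hB (VSup2_797.vSupply p) k K hc hg (hG k K hc hg)

/-- **`S0016` from B-MAIN and GOODP.** -/
theorem s0016_of {p : ℕ} [Fact p.Prime] (hB : BMain p) (hG : GOODPall p) (k : Type) [Field k]
    [Algebra ℚ_[p] k] [FiniteDimensional ℚ_[p] k]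
    (K : Type) [Field K] [Algebra k K] [Algebra (RatFunc k) K] [IsScalarTower k (RatFunc k) K]
    [FunctionField k K] (hc : algebraicClosure k K = ⊥) (hg : 2 ≤ genus k K)
    (v : Valuation K ℝ≥0) (hv : ExtendsPadicNorm k K p v)
    (w : Valuation (AlgebraicClosure K) ℝ≥0)
    (hw : w.comap (algebraMap K (AlgebraicClosure K)) = v) :
    ∀ a : AlgebraicClosure K, ∀ ε : ℝ≥0, 0 < ε →
      ∃ b : maxUnramified k K, w (a - (b : AlgebraicClosure K)) < ε :=
  CutP_669.s0016 p (seall_of hB hG) k K hc hg v hv w hw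

/-- **`S0016` from LIFT-L, B-NB, the end step and GOODP.** -/
theorem s0016_of' {p : ℕ} [Fact p.Prime] (h1 : LiftP p) (h2 : NBP p) (h3 : EndP p)
    (hG : GOODPall p) (k : Type) [Field k]
    [Algebra ℚ_[p] k] [FiniteDimensional ℚ_[p] k]
    (K : Type) [Field K] [Algebra k K] [Algebra (RatFunc k) K] [IsScalarTower k (RatFunc k) K]
    [FunctionField k K] (hc : algebraicClosure k K = ⊥) (hg : 2 ≤ genus k K)
    (v : Valuation K ℝ≥0) (hv : ExtendsPadicNorm k K p v)
    (w : Valuation (AlgebraicClosure K) ℝ≥0)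
    (hw : w.comap (algebraMap K (AlgebraicClosure K)) = v) :
    ∀ a : AlgebraicClosure K, ∀ ε : ℝ≥0, 0 < ε →
      ∃ b : maxUnramified k K, w (a - (b : AlgebraicClosure K)) < ε :=
  s0016_of (bMain_of h1 h2 h3) hG k K hc hg v hv w hw

end Crest.Agent.R013.TopS_803
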