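import Crest.Agent.R013.CAsm6_588
import Crest.Agent.R013.CAsm1_588
import Crest.Agent.R013.CY12_957
import Crest.Agent.R013.NB14_102
import Crest.Agent.R013.Lev6_372
import Crest.Agent.R013.StA2_332
import Crest.Agent.R013.InhC1_770
import Crest.Agent.R013.TopS_803

/-!
# Row 13, part C, assembly 7 (helper588): the composition

* `SlopesAll p` : the only input, `SlopesP` (CAsm6) for every semistable structure;
* `coreG : SlopesAll p → CoreG p`;
* `goodpall : SlopesAll p → TopS_803.GOODPall p`.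
-/

set_option autoImplicit false
set_option linter.style.haveILetI false
set_option linter.unusedSectionVars false

namespace Crest.Agent.R013.CAsm7_588

open scoped NNReal
open Module WithZero
open Crest.NumberTheoryR.Sect
open Crest.Agent.R013.RR7_948 Crest.Agent.R013.RR13_948 Crest.Agent.R013.RR11_948
open Crest.Agent.R013.Cell_408 Crest.Agent.R013.Red332
open Crest.Agent.R013.SSK_332 Crest.Agent.R013.Inh_770
open Crest.Agent.R013.TopE4_957
open Crest.Agent.R013.Desc_372 Crest.Agent.R013.CY_957 Crest.Agent.R013.A2_398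
open Crest.Agent.R013.Unr10_957 Crest.Agent.R013.Unr7_957
open Crest.Agent.R013.Good5_940 Crest.Agent.R013.CB1_903
open Crest.Agent.R013.CAsm5_588 Crest.Agent.R013.CAsm6_588
open Crest.Agent.R013.GR3_921 Crest.Agent.R013.RR8_948

/-- **the slopes**, for every semistable structure -/
def SlopesAll (p : ℕ) [Fact p.Prime] : Prop :=
  ∀ (C : Type) [NormedField C] [IsUltrametricDist C] [NormedAlgebra ℚ_[p] C]
    [Algebra.IsAlgebraic ℚ_[p] C] [IsAlgClosed C] [CharZero C] (Y : Type) [Field Y] [Algebra C Y]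
    [Algebra (RatFunc C) Y] [IsScalarTower C (RatFunc C) Y] [FiniteDimensional (RatFunc C) Y]
    (S : SSK ℚ_[p] C Y), SlopesP p S

/-- a place of degree one is rational -/
theorem isRationalPlace_plV {κ M : Type*} [Field κ] [CharZero κ] [Field M] [Algebra κ M]
    [Algebra (RatFunc κ) M] [IsScalarTower κ (RatFunc κ) M] [FiniteDimensional (RatFunc κ) M]
    {Q : Pl κ M} (h : degP Q = 1) : IsRationalPlace κ M (plV Q) := by
  refine (isRationalPlace_iff (isPlace_plV Q) ?_).2 h
  intro r s
  rw [plV_apply, plV_apply]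
  exact ((WithZeroMulInt.toNNReal_strictMono (e := 2) one_lt_two).le_iff_le).symm

set_option maxHeartbeats 1000000 in
/-- **part C over the algebraic closure** -/
theorem coreG {p : ℕ} [hpF : Fact p.Prime] (hS : SlopesAll p) : CAsm1_588.CoreG p := by
  intro k _ _ _ K _ _ _ _ _ C _ _ _ _ _ _ _ _ KC _ _ _ _ _ _ _ _ _ _ hg
  classical
  haveI : CharZero k := charZero_of_injective_algebraMap (algebraMap ℚ_[p] k).injective
  haveI : Algebra.IsAlgebraic k C := Algebra.IsAlgebraic.tower_top (K := ℚ_[p]) k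
  haveI hkf : Fact (DiscNorm ℚ_[p]) := inferInstance
  refine GoodP_797.goodP_of_good (good_of_concl p k K fun P x hP hx δ η hδ hη => ?_)
  -- stages (A1), (A2)
  obtain ⟨K1, i1, i2, i3, i4, i5, i6, i7, i8, i9, S1, hU1, hVE, hcard, K', j1, j2, j3, j4, j5, j6,
    ⟨D⟩⟩ := StA_332.stageA_final p ℚ_[p] KC hg
  -- the loop
  obtain ⟨v, y, hL⟩ := NB_102.exists_loop_of_card S1 hVE
  -- the structures on `K'`
  letI a1 : Algebra KC K' := ((algebraMap K1 K').comp (algebraMap KC K1)).toAlgebra
  haveI b1 : IsScalarTower KC K1 K' := IsScalarTower.of_algebraMap_eq fun _ => rfl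
  haveI b2 : IsScalarTower C KC K' := IsScalarTower.of_algebraMap_eq fun c => by
    rw [IsScalarTower.algebraMap_apply KC K1 K', ← IsScalarTower.algebraMap_apply C KC K1,
      ← IsScalarTower.algebraMap_apply C K1 K']
  letI a2 : Algebra K K' := ((algebraMap KC K').comp (algebraMap K KC)).toAlgebra
  haveI b3 : IsScalarTower K KC K' := IsScalarTower.of_algebraMap_eq fun _ => rfl
  letI a3 : Algebra k K' := ((algebraMap K K').comp (algebraMap k K)).toAlgebra
  haveI b4 : IsScalarTower k K K' := IsScalarTower.of_algebraMap_eq fun _ => rfl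
  haveI b5 : IsScalarTower k C K' := IsScalarTower.of_algebraMap_eq fun a => by
    rw [IsScalarTower.algebraMap_apply k K K', IsScalarTower.algebraMap_apply K KC K',
      ← IsScalarTower.algebraMap_apply k K KC, IsScalarTower.algebraMap_apply k C KC,
      ← IsScalarTower.algebraMap_apply C KC K']
  haveI c1 : FiniteDimensional KC K' := FiniteDimensional.trans KC K1 K'
  letI a4 : Algebra (RatFunc C) K' :=
    ((algebraMap K1 K').comp (algebraMap (RatFunc C) K1)).toAlgebra
  haveI b6 : IsScalarTower (RatFunc C) K1 K' := IsScalarTower.of_algebraMap_eq fun _ => rfl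
  haveI b7 : IsScalarTower C (RatFunc C) K' := IsScalarTower.of_algebraMap_eq fun c => by
    rw [IsScalarTower.algebraMap_apply (RatFunc C) K1 K',
      ← IsScalarTower.algebraMap_apply C (RatFunc C) K1, ← IsScalarTower.algebraMap_apply C K1 K']
  haveI c2 : FiniteDimensional (RatFunc C) K' := FiniteDimensional.trans (RatFunc C) K1 K'
  -- the place of `K'`
  have hU' : UnrEv C KC K' := UnrEv.trans (L := K1) hU1 D.unrEv
  haveI : Algebra.IsAlgebraic K KC := CE.isAlgebraic k C K KC
  haveI : Algebra.IsAlgebraic K K' := Algebra.IsAlgebraic.trans K KC K'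
  let φ' : K' →ₐ[K] AlgebraicClosure K := IsAlgClosed.lift
  obtain ⟨Q', hQ'⟩ := exists_plY (p := p) hP hx hU' φ'
  -- the level
  obtain ⟨L⟩ := Lev_372.exists_levData D.spl D.spl.ffL k K KC ∅ Set.finite_empty
    {y, algebraMap KC K1 (algebraMap K KC x)} (Set.toFinite _) {Q'} (Set.finite_singleton _)
  obtain ⟨y0, hy0⟩ := L.T_mem y (Or.inl rfl)
  obtain ⟨x0, hx0⟩ := L.T_mem (algebraMap KC K1 (algebraMap K KC x)) (Or.inr rfl)
  haveI : Normal L.κ C := Fin_928.normal_C p L.κ
  have hL' := NB_102.loop_of_def_bot L.lvl.df L.norm_κ (v := v) (y := y0) (by rw [hy0]; exact hL)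
  obtain ⟨π, hπ⟩ := L.unif
  obtain ⟨Q0, hQ0, -⟩ := L.rat Q' rfl
  -- the degree
  have hn : 2 * finrank ℚ_[p] L.κ < p ^ (2 * finrank ℚ_[p] L.κ) :=
    Nat.lt_pow_self hpF.out.one_lt
  have hcop : (p ^ (2 * finrank ℚ_[p] L.κ)).Coprime (finrank K1 K') :=
    Nat.Coprime.pow_left _ ((Nat.Prime.coprime_iff_not_dvd hpF.out).2 D.finrank)
  obtain ⟨Z⟩ := stageC D.spl L.norm_κ hπ hL' L.lvlL (plV Q0) (isRationalPlace_plV hQ0) _
    (pow_ne_zero _ hpF.out.ne_zero) hcop
  refine concl_of_yOut (M := L.M) (κ := L.κ) D Z hU1 hP hx hcard φ' Q' hQ' (L.fixed Q' rfl)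
    (algebraMap L.U L.M x0) ?_ (hS C Z.Y Z.PY.inh) hn hδ hη
  rw [← IsScalarTower.algebraMap_apply L.U L.M K', IsScalarTower.algebraMap_apply L.U K1 K', hx0,
    IsScalarTower.algebraMap_apply K KC K', IsScalarTower.algebraMap_apply KC K1 K']

/-- **PART C** from the slopes -/
theorem goodpall {p : ℕ} [hpF : Fact p.Prime] (hS : SlopesAll p) : TopS_803.GOODPall p :=
  fun k _ _ _ K _ _ _ _ _ hc hg => CAsm1_588.goodp_of_core (coreG hS) k K hc hg

end Crest.Agent.R013.CAsm7_588
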