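import Crest.Agent.R013.NB6_102

/-!
# Row 13, C-NB, part 7: loops of norms, descent of loops

`LoopAt k y w0` : `w0` is the Gauss norm on `k[y]`, and there is a loop of norms of `U` through `w0`
which leaves `w0` on the side `|y| ≥ 1`, comes back on the side `|y| < 1` and avoids `w0` in between.
`LoopAt.descend` : a loop of `K = U C` gives a loop of `U`.
-/

set_option autoImplicit false
set_option linter.unusedSectionVars false

noncomputable section

namespace Crest.Agent.R013.NB_102

open Module Filter Topology Polynomial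
open scoped NNReal

/-- The space of norms of `U`, with the topology of pointwise convergence. -/
def NS (U : Type*) [Field U] : Type _ := Valuation U ℝ≥0

instance (U : Type*) [Field U] : TopologicalSpace (NS U) :=
  TopologicalSpace.induced (fun w u => (show Valuation U ℝ≥0 from w) u) inferInstance

/-- a valuation as a point of the space of norms -/
def NS.mk {U : Type*} [Field U] (w : Valuation U ℝ≥0) : NS U := w

/-- a point of the space of norms as a valuation -/
def NS.v {U : Type*} [Field U] (w : NS U) : Valuation U ℝ≥0 := w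

theorem NS.v_mk {U : Type*} [Field U] (w : Valuation U ℝ≥0) : (NS.mk w).v = w := rfl

theorem NS.mk_v {U : Type*} [Field U] (w : NS U) : NS.mk w.v = w := rfl

theorem NS.v_inj {U : Type*} [Field U] {w w' : NS U} (h : w.v = w'.v) : w = w' := h

theorem NS.continuous_iff {U T : Type*} [Field U] [TopologicalSpace T] (γ : T → NS U) :
    Continuous γ ↔ ∀ u, Continuous fun t => (γ t).v u := by
  rw [continuous_induced_rng, continuous_pi_iff]
  rfl

theorem NS.continuous_eval {U T : Type*} [Field U] [TopologicalSpace T] {γ : T → NS U}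
    (h : Continuous γ) (u : U) : Continuous fun t => (γ t).v u :=
  (NS.continuous_iff γ).1 h u

/-- Restriction of norms. -/
def NS.res (U K : Type*) [Field U] [Field K] [Algebra U K] (w : NS K) : NS U :=
  NS.mk (w.v.comap (algebraMap U K))

theorem NS.continuous_res (U K : Type*) [Field U] [Field K] [Algebra U K] :
    Continuous (NS.res U K) := by
  rw [NS.continuous_iff]
  intro u
  exact NS.continuous_eval continuous_id (algebraMap U K u)

/-- a loop at the Gauss norm `w0` of `k(y)` -/
structure LoopAt (k : Type*) {U : Type*} [NormedField k] [Field U] [Algebra k U] (y : U)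
    (w0 : Valuation U ℝ≥0) : Prop where
  nk : NK k w0
  y1 : w0 y ≤ 1
  gauss : ∀ (f : k[X]) (i : ℕ), ‖f.coeff i‖ ≤ w0 (aeval y f)
  loop : ∃ v1 v2 : NS U, (∃ α : Path (NS.mk w0) v1, ∀ t, NK k (α t).v ∧ 1 ≤ (α t).v y) ∧
    (∃ β : Path (NS.mk w0) v2, ∀ t, NK k (β t).v ∧ (t ≠ 0 → (β t).v y < 1)) ∧
    (∃ γ : Path v1 v2, ∀ t, NK k (γ t).v ∧ (γ t).v ≠ w0)

section Unique

variable {U K : Type*} [Field U] [Field K] [Algebra U K]

/-- The coefficients of the minimal polynomial of `a` are `≤ 1` at a Galois invariant norm with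
`w a ≤ 1`. -/
theorem coeff_minpoly_le [Normal U K] (w : Valuation K ℝ≥0)
    (hfix : ∀ (σ : K ≃ₐ[U] K) (a : K), w (σ a) = w a) (a : K) (ha : w a ≤ 1) (i : ℕ) :
    w (algebraMap U K ((minpoly U a).coeff i)) ≤ 1 := by
  classical
  have hint : IsIntegral U a := Normal.isIntegral inferInstance a
  have hsplit : ((minpoly U a).map (algebraMap U K)).Splits := Normal.splits inferInstance a
  have hmon : ((minpoly U a).map (algebraMap U K)).Monic := (minpoly.monic hint).map _
  have hroots := hsplit.eq_prod_roots_of_monic hmon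
  -- all roots are in the valuation ring
  have hr : ∀ b ∈ ((minpoly U a).map (algebraMap U K)).roots, w b ≤ 1 := by
    intro b hb
    have hb1 : aeval b (minpoly U a) = 0 := by
      have := (mem_roots hmon.ne_zero).1 hb
      rw [IsRoot.def, eval_map_algebraMap] at this
      exact this
    have hmp : minpoly U b = minpoly U a :=
      (minpoly.eq_of_irreducible_of_monic (minpoly.irreducible hint) hb1 (minpoly.monic hint)).symm
    obtain ⟨σ, hσ⟩ := (Normal.minpoly_eq_iff_mem_orbit (F := U) (E := K)).1 hmp
    rw [← hσ]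
    exact (hfix σ a).le.trans ha
  have key : ∀ (s : Multiset K), (∀ b ∈ s, w b ≤ 1) → ∀ i,
      w ((s.map fun b => X - C b).prod.coeff i) ≤ 1 := by
    intro s
    induction s using Multiset.induction_on with
    | empty =>
      intro _ i
      rw [Multiset.map_zero, Multiset.prod_zero, coeff_one]
      split_ifs
      · rw [map_one]
      · rw [map_zero]; exact zero_le_one
    | cons b s ih =>
      intro hs i
      have h1 := ih fun b hb => hs b (Multiset.mem_cons_of_mem hb)
      have hb := hs b (Multiset.mem_cons_self b s)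
      rw [Multiset.map_cons, Multiset.prod_cons, sub_mul, coeff_sub, coeff_C_mul]
      refine (w.map_sub _ _).trans (max_le ?_ ?_)
      · rcases i with _ | i
        · rw [coeff_X_mul_zero, map_zero]; exact zero_le_one
        · rw [coeff_X_mul]; exact h1 i
      · rw [map_mul]
        exact mul_le_one₀ hb zero_le (h1 i)
  have := key _ hr i
  rw [← hroots, coeff_map] at this
  exact this

/-- **A Galois invariant norm is the only extension of its restriction.** -/
theorem eq_of_comap_eq [Normal U K] (w v : Valuation K ℝ≥0)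
    (hfix : ∀ (σ : K ≃ₐ[U] K) (a : K), w (σ a) = w a) (hnt : ∃ u : U, 1 < w (algebraMap U K u))
    (h : v.comap (algebraMap U K) = w.comap (algebraMap U K)) : v = w := by
  have hU : ∀ u : U, v (algebraMap U K u) = w (algebraMap U K u) := fun u =>
    congrArg (fun z : Valuation U ℝ≥0 => z u) h
  -- the valuation ring of `w` is in that of `v`
  have h1 : ∀ a : K, w a ≤ 1 → v a ≤ 1 := by
    intro a ha
    by_contra hlt
    push Not at hlt
    have hint : IsIntegral U a := Normal.isIntegral inferInstance a
    have hmon := minpoly.monic hint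
    set P := minpoly U a with hP
    have hn : 0 < P.natDegree := minpoly.natDegree_pos hint
    have e1 : aeval a P = 0 := minpoly.aeval U a
    rw [aeval_eq_sum_range, Finset.sum_range_succ, hmon.coeff_natDegree, one_smul] at e1
    have e2 : v (∑ i ∈ Finset.range P.natDegree, P.coeff i • a ^ i) < v (a ^ P.natDegree) := by
      refine Valuation.map_sum_lt' v ?_ fun i hi => ?_
      · rw [map_pow]; exact pow_pos (zero_lt_one.trans hlt) _
      · rw [Algebra.smul_def, map_mul, map_pow, map_pow, hU]
        have h3 := coeff_minpoly_le w hfix a ha i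
        calc w (algebraMap U K (P.coeff i)) * v a ^ i ≤ 1 * v a ^ i := mul_le_mul_left h3 _
          _ = v a ^ i := one_mul _
          _ < v a ^ P.natDegree := pow_lt_pow_right₀ hlt (Finset.mem_range.1 hi)
    have e3 : v (a ^ P.natDegree) = v (∑ i ∈ Finset.range P.natDegree, P.coeff i • a ^ i) := by
      rw [← Valuation.map_neg v (∑ i ∈ Finset.range P.natDegree, P.coeff i • a ^ i)]
      congr 1
      exact eq_neg_of_add_eq_zero_right e1
    exact absurd e3 e2.ne'
  -- comparison
  obtain ⟨u, hu⟩ := hnt
  have h2 : ∀ a : K, v a ≤ w a := by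
    intro a
    rcases eq_or_ne a 0 with rfl | ha0
    · rw [map_zero, map_zero]
    by_contra hlt
    push Not at hlt
    have hwa : 0 < w a := pos_iff_ne_zero.2 ((Valuation.ne_zero_iff w).2 ha0)
    set q : ℝ≥0 := w (algebraMap U K u) with hq
    have hq0 : 0 < q := zero_lt_one.trans hu
    -- choose `n` with `(v a / w a)^n > q`
    have hratio : 1 < v a / w a := (one_lt_div hwa).2 hlt
    obtain ⟨n, hn⟩ := pow_unbounded_of_one_lt q hratio
    obtain ⟨m, hm1, hm2⟩ := exists_mem_Ioc_zpow (y := q) (x := w (a ^ n))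
      (pos_iff_ne_zero.2 ((Valuation.ne_zero_iff w).2 (pow_ne_zero n ha0))) hu
    set z : K := a ^ n * (algebraMap U K u) ^ (-(m + 1)) with hz
    have hwz : w z ≤ 1 := by
      rw [hz, map_mul, map_zpow₀, ← hq, zpow_neg]
      exact mul_inv_le_one_of_le₀ hm2 (zpow_pos hq0 _).le
    have hvz : 1 < v z := by
      rw [hz, map_mul, map_zpow₀, hU, ← hq, zpow_neg, ← div_eq_mul_inv, one_lt_div (zpow_pos hq0 _)]
      rw [div_pow, lt_div_iff₀ (pow_pos hwa n), ← map_pow, ← map_pow] at hn
      calc q ^ (m + 1) = q * q ^ m := by rw [zpow_add_one₀ hq0.ne', mul_comm]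
        _ < q * w (a ^ n) := mul_lt_mul_of_pos_left hm1 hq0
        _ < v (a ^ n) := hn
    exact absurd (h1 z hwz) (not_le.2 hvz)
  ext a
  refine le_antisymm ?_ ?_ |> congrArg _
  · exact h2 a
  · rcases eq_or_ne a 0 with rfl | ha0
    · rw [map_zero, map_zero]
    · have := h2 a⁻¹
      rw [map_inv₀, map_inv₀] at this
      exact (inv_le_inv₀ (pos_iff_ne_zero.2 ((Valuation.ne_zero_iff v).2 ha0))
        (pos_iff_ne_zero.2 ((Valuation.ne_zero_iff w).2 ha0))).1 this

end Unique

section Descend

variable {k C U K : Type*} [NormedField k] [NormedField C] [Algebra k C]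
  (hkC : ∀ c : k, ‖algebraMap k C c‖ = ‖c‖) [Field U] [Field K] [Algebra k U] [Algebra C K]
  [Algebra U K] [Algebra k K] [IsScalarTower k C K] [IsScalarTower k U K]

include hkC in
theorem NK.res {w : Valuation K ℝ≥0} (h : NK C w) : NK k (w.comap (algebraMap U K)) := by
  intro c
  rw [Valuation.comap_apply, ← IsScalarTower.algebraMap_apply k U K,
    IsScalarTower.algebraMap_apply k C K, h, hkC]

include hkC in
/-- **(T4) DESCENT.** -/
theorem LoopAt.descend [Normal U K] {y : U} {w0 : Valuation K ℝ≥0}
    (h : LoopAt C (algebraMap U K y) w0)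
    (hfix : ∀ (σ : K ≃ₐ[U] K) (a : K), w0 (σ a) = w0 a) (hnt : ∃ c : k, 1 < ‖c‖) :
    LoopAt k y (w0.comap (algebraMap U K)) := by
  have hnt' : ∃ u : U, 1 < w0 (algebraMap U K u) := by
    obtain ⟨c, hc⟩ := hnt
    refine ⟨algebraMap k U c, ?_⟩
    have := (NK.res hkC h.nk : NK k (w0.comap (algebraMap U K))) c
    rw [← this] at hc
    exact_mod_cast hc
  refine ⟨NK.res hkC h.nk, h.y1, ?_, ?_⟩
  · intro f i
    have h1 := h.gauss (f.map (algebraMap k C)) i
    rw [coeff_map, hkC] at h1
    have e : aeval (algebraMap U K y) (f.map (algebraMap k C)) = algebraMap U K (aeval y f) := by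
      rw [aeval_map_algebraMap, aeval_algebraMap_apply]
    rw [e] at h1
    exact h1
  · obtain ⟨v1, v2, ⟨α, hα⟩, ⟨β, hβ⟩, ⟨γ, hγ⟩⟩ := h.loop
    refine ⟨NS.res U K v1, NS.res U K v2, ⟨α.map (NS.continuous_res U K), fun t => ?_⟩,
      ⟨β.map (NS.continuous_res U K), fun t => ?_⟩, ⟨γ.map (NS.continuous_res U K), fun t => ?_⟩⟩
    · exact ⟨NK.res hkC (hα t).1, (hα t).2⟩
    · exact ⟨NK.res hkC (hβ t).1, (hβ t).2⟩
    · refine ⟨NK.res hkC (hγ t).1, fun heq => (hγ t).2 ?_⟩
      exact eq_of_comap_eq w0 (γ t).v hfix hnt' heq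

end Descend

end Crest.Agent.R013.NB_102
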