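import Crest.Agent.R013.Kc4_671
import Crest.Agent.R013.TopE8_957
import Crest.Agent.R013.CE1_280
import Crest.Agent.R013.NB7_102

/-!
# Row 13, C-SLOPES (helper671), Kc5: the circle at an end of an edge
-/

set_option autoImplicit false
set_option linter.unusedSectionVars false
set_option linter.style.haveILetI false

noncomputable section

namespace Crest.Agent.R013.Kc_671

open Module Filter Topology Polynomial IntermediateField WithZero
open Crest.Agent.R013.Cell_408 (DiscNorm)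
open Crest.Agent.R013.RR7_948 Crest.Agent.R013.Red332 Crest.Agent.R013.SSK_332
open Crest.Agent.R013.EE809 Crest.Agent.R013.DEm_719 Crest.Agent.R013.RR20_948
open Crest.Agent.R013.NB_102
open scoped NNReal

section pl

variable {F L : Type*} [Field F] [Field L] [Algebra F L]

/-- an element with a zero is transcendental -/
theorem transc_of_zero (P : Pl F L) {g : L} (h0 : g ≠ 0) (h1 : P.v g < 1) : Transcendental F g := by
  intro h
  have hint : IsIntegral F g := h.isIntegral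
  have hm := minpoly.monic hint
  -- the constant term of the minimal polynomial is not zero
  have hc : (minpoly F g).coeff 0 ≠ 0 := minpoly.coeff_zero_ne_zero hint h0
  have e : aeval g (minpoly F g) = 0 := minpoly.aeval F g
  have e2 : aeval g (minpoly F g) = aeval g (minpoly F g).divX * g +
      algebraMap F L ((minpoly F g).coeff 0) := by
    conv_lhs => rw [← divX_mul_X_add (minpoly F g)]
    simp
  have hle : ∀ c : F, P.v (algebraMap F L c) ≤ 1 := by
    intro c
    rcases eq_or_ne c 0 with rfl | hc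
    · rw [map_zero, map_zero]; exact zero_le_one
    · exact (P.const c hc).le
  have h2 : P.v (aeval g (minpoly F g).divX) ≤ 1 := by
    rw [aeval_eq_sum_range]
    refine Valuation.map_sum_le P.v fun i _ => ?_
    rw [Algebra.smul_def, map_mul, map_pow]
    exact mul_le_one' (hle _) (pow_le_one' h1.le i)
  have h3 : P.v (aeval g (minpoly F g).divX * g) < 1 := by
    rw [map_mul]
    exact mul_lt_one_of_nonneg_of_lt_one_right h2 zero_le h1
  have h4 : algebraMap F L ((minpoly F g).coeff 0) = -(aeval g (minpoly F g).divX * g) := by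
    rw [e2] at e
    exact eq_neg_of_add_eq_zero_right e
  have h5 := P.const _ hc
  rw [h4, Valuation.map_neg] at h5
  exact h3.ne h5

end pl

variable {k : Type*} [NontriviallyNormedField k] [CompleteSpace k] [IsUltrametricDist k]
variable {C : Type*} [NormedField C] [IsUltrametricDist C] [NormedAlgebra k C]
  [Algebra.IsAlgebraic k C] [IsAlgClosed C] [CharZero C]
variable {K : Type*} [Field K] [Algebra C K]

/-- `y` is a coordinate at the end `e0 e` -/
structure YY (S : SSK k C K) (e : S.Ed) (y : K) : Prop where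
  one : (S.nm (S.e0 e).1).v y = 1
  pos : 0 < Red332.od (S.nm (S.e0 e).1) (S.e0 e).2 y
  npos : ∀ d : S.Dir, d ≠ S.e0 e → ((∃ e', d = S.e0 e') ∨ ∃ e', d = S.e1 e') →
    d.1 = (S.e0 e).1 → Red332.od (S.nm d.1) d.2 y ≤ 0

theorem exists_y (S : SSK k C K) (e : S.Ed) : ∃ y : K, YY S e y := by
  classical
  letI := S.fEd
  set v := (S.e0 e).1 with hv
  obtain ⟨i, h1, h2, h3⟩ := S.ff v
  letI := i
  haveI := h1
  haveI := h2
  haveI := h3
  -- the ends at `v`
  have hD : {x : Pl (Ct C) (kap (S.nm v)) | (∃ e', (⟨v, x⟩ : S.Dir) = S.e0 e') ∨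
      ∃ e', (⟨v, x⟩ : S.Dir) = S.e1 e'}.Finite := by
    have hf : ((Set.range S.e0) ∪ (Set.range S.e1)).Finite :=
      (Set.finite_range _).union (Set.finite_range _)
    refine (hf.preimage (f := fun x : Pl (Ct C) (kap (S.nm v)) => (⟨v, x⟩ : S.Dir))
      (fun a _ b _ h => ?_)).subset ?_
    · exact eq_of_heq (Sigma.mk.inj h).2
    · rintro x (⟨e', h⟩ | ⟨e', h⟩)
      · exact Or.inl ⟨e', h.symm⟩
      · exact Or.inr ⟨e', h.symm⟩
  obtain ⟨g, hg0, hg⟩ := RR12_948.exists_prescribed (insert (S.e0 e).2 hD.toFinset)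
    (fun x => if x = (S.e0 e).2 then -1 else 0)
  obtain ⟨y, hy1, hy2⟩ := red_surj (w := S.nm v) g
  have hy : (S.nm v).v y = 1 := (red_ne_zero_iff _ hy1).1 (by rw [hy2]; exact hg0)
  refine ⟨y, hy, ?_, ?_⟩
  · have h4 := v_red_of_one (w := S.nm v) (S.e0 e).2 hy
    rw [hy2, hg _ (Finset.mem_insert_self _ _), if_pos rfl, exp_inj] at h4
    have h5 : (-1 : ℤ) = -Red332.od (S.nm (S.e0 e).1) (S.e0 e).2 y := h4
    omega
  · rintro ⟨v', x⟩ hne hor hvv
    obtain rfl : v' = v := hvv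
    have hx : x ≠ (S.e0 e).2 := by
      rintro rfl
      exact hne rfl
    have h4 := v_red_of_one (w := S.nm v) x hy
    rw [hy2, hg x (Finset.mem_insert_of_mem (hD.mem_toFinset.2 hor)), if_neg hx, exp_inj] at h4
    change Red332.od (S.nm v) x y ≤ 0
    omega

theorem YY.gauss {S : SSK k C K} {e : S.Ed} {y : K} (hy : YY S e y) (f : C[X]) (i : ℕ) :
    ‖f.coeff i‖ ≤ ((S.nm (S.e0 e).1).v (aeval y f) : ℝ) := by
  have htr : Transcendental (Ct C) (red (S.nm (S.e0 e).1) y) := by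
    refine transc_of_zero (S.e0 e).2 (red_ne_zero _ hy.one) ?_
    rw [v_red_of_one (w := S.nm (S.e0 e).1) (S.e0 e).2 hy.one, ← exp_zero, exp_lt_exp]
    have := hy.pos
    omega
  have h1 := (CLiftN_903.isG_of_transc (S.nm (S.e0 e).1) y hy.one.le htr).coeff_le f i
  exact_mod_cast h1

theorem YY.transc {S : SSK k C K} {e : S.Ed} {y : K} (hy : YY S e y) : Transcendental C y :=
  transcendental_iff_injective.2 (aeval_inj (w0 := (S.nm (S.e0 e).1).v) hy.gauss)

/-- a system of labels of the norms of `M` -/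
structure LabS (C : Type*) {K M : Type*} [NormedField C] [Field K] [Field M] [Algebra C M]
    [Algebra K M] (v : Valuation K ℝ≥0) (y : K) (n : ℕ) (ζ : C) (r : M)
    (Lab : Valuation M ℝ≥0 → C → Prop) : Prop where
  ex : ∀ w, NKM C w → ∃ ξ : C, ξ ^ n = 1 ∧ Lab w ξ
  uq : ∀ w, NKM C w → ∀ ξ ξ' : C, ξ ^ n = 1 → ξ' ^ n = 1 → Lab w ξ → Lab w ξ' → ξ = ξ'
  eq : ∀ w, NKM C w → ∀ (σ : M ≃ₐ[K] M) (ξσ : C), ξσ ^ n = 1 → σ r = algebraMap C M ξσ * r →
    ∀ ξ : C, ξ ^ n = 1 → Lab w ξ → Lab (w.comap (σ : M →+* M)) (ξ * ξσ)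
  ev0 : ∀ (w : ℝ → Valuation M ℝ≥0) (t0 : ℝ), (∀ x, ContinuousAt (fun t => w t x) t0) →
    (∀ t, NKM C (w t)) → (w t0).comap (algebraMap K M) ≠ v → ∀ ξ : C, ξ ^ n = 1 →
    Lab (w t0) ξ → ∀ᶠ t in 𝓝 t0, Lab (w t) ξ
  ev1 : ∀ (w : ℝ → Valuation M ℝ≥0) (t0 : ℝ), (∀ x, ContinuousAt (fun t => w t x) t0) →
    (∀ t, NKM C (w t)) → (w t0).comap (algebraMap K M) = v → ∀ ξ : C, ξ ^ n = 1 →
    Lab (w t0) ξ → ∀ᶠ t in 𝓝 t0, (1 ≤ w t (algebraMap K M y) → Lab (w t) ξ) ∧
      (w t (algebraMap K M y) < 1 → Lab (w t) (ξ * ζ))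

theorem aeval_ratX {k : Type*} [Field k] (p : k[X]) :
    aeval (RatFunc.X : RatFunc k) p = algebraMap k[X] (RatFunc k) p := by
  have : (RatFunc.X : RatFunc k) = algebraMap k[X] (RatFunc k) Polynomial.X :=
    RatFunc.algebraMap_X.symm
  rw [this, aeval_algebraMap_apply, aeval_X_left, AlgHom.id_apply]

section main

variable [hk : Fact (DiscNorm k)] [Algebra (RatFunc C) K] [IsScalarTower C (RatFunc C) K]
  [FiniteDimensional (RatFunc C) K] [Algebra.IsSeparable (RatFunc C) K]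

theorem transc_level (k' : IntermediateField k C) (T : Set K)
    (yU : IntermediateField.adjoin k' T) (hy : Transcendental C (yU : K)) :
    Transcendental k' yU := by
  intro h
  obtain ⟨p, hp, h0⟩ := h
  refine hy ⟨p.map (algebraMap k' C), (Polynomial.map_ne_zero_iff (algebraMap k' C).injective).2 hp,
    ?_⟩
  rw [aeval_map_algebraMap]
  have := congrArg (IntermediateField.val (IntermediateField.adjoin k' T)) h0
  rw [map_zero, ← aeval_algHom_apply] at this
  exact this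

theorem hgen_rat (k' : Type*) [Field k'] (x : RatFunc k') : ∃ f g : k'[X],
    aeval (RatFunc.X : RatFunc k') g ≠ 0 ∧
      x = aeval (RatFunc.X : RatFunc k') f / aeval (RatFunc.X : RatFunc k') g := by
  refine ⟨x.num, x.denom, ?_, ?_⟩
  · rw [aeval_ratX]
    exact RatFunc.algebraMap_ne_zero x.denom_ne_zero
  · rw [aeval_ratX, aeval_ratX, RatFunc.num_div_denom]

theorem plV_le_one (P : Pl C K) (f : K) : TopE4_957.plV P f ≤ 1 ↔ P.v f ≤ 1 := by
  rw [TopE4_957.plV_apply, ← map_one (WithZeroMulInt.toNNReal (e := 2) two_ne_zero)]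
  exact (WithZeroMulInt.toNNReal_strictMono one_lt_two).le_iff_le

theorem plV_lt_one (P : Pl C K) (f : K) : TopE4_957.plV P f < 1 ↔ P.v f < 1 := by
  rw [TopE4_957.plV_apply, ← map_one (WithZeroMulInt.toNNReal (e := 2) two_ne_zero)]
  exact (WithZeroMulInt.toNNReal_strictMono one_lt_two).lt_iff_lt

theorem poly_lt (P : Pl C K) {y : K} (hy : P.v y ≤ 1) (k' : IntermediateField k C) :
    ∃ p : k'[X], p ≠ 0 ∧ P.v (aeval y p) < 1 := by
  obtain ⟨c, hc⟩ := CE1_280.exists_residue P hy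
  have hint : IsIntegral k' c := Algebra.IsIntegral.isIntegral c
  refine ⟨minpoly k' c, minpoly.ne_zero hint, ?_⟩
  have h1 : ((minpoly k' c).map (algebraMap k' C)).IsRoot c := by
    rw [IsRoot.def, eval_map_algebraMap, minpoly.aeval]
  obtain ⟨q, hq⟩ := dvd_iff_isRoot.2 h1
  have h2 : aeval y (minpoly k' c) = (y - algebraMap C K c) * aeval y q := by
    rw [← aeval_map_algebraMap C y (minpoly k' c), hq, map_mul, map_sub, aeval_X, aeval_C]
  have hle : ∀ c : C, P.v (algebraMap C K c) ≤ 1 := by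
    intro c
    rcases eq_or_ne c 0 with rfl | hc
    · rw [map_zero, map_zero]; exact zero_le_one
    · exact (P.const c hc).le
  have h3 : P.v (aeval y q) ≤ 1 := by
    rw [aeval_eq_sum_range]
    refine Valuation.map_sum_le P.v fun i _ => ?_
    rw [Algebra.smul_def, map_mul, map_pow]
    exact mul_le_one' (hle _) (pow_le_one' hy i)
  rw [h2, map_mul]
  exact mul_lt_one_of_nonneg_of_lt_one_left zero_le hc h3

theorem kc_core (S : SSK k C K) (e : S.Ed) {y : K} (hy : YY S e y) {n : ℕ} (hn : 0 < n) {ζ : C}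
    (k' : IntermediateField k C) [FiniteDimensional k k'] [CompleteSpace k'] {π : k'}
    (hπ : Gl946.IsUnif π) {ζ' : k'} (hζ' : (ζ' : C) = ζ) (hζ'p : IsPrimitiveRoot ζ' n)
    (U : IntermediateField k' K) {yU : U} (hyU : (yU : K) = y) (hyt : Transcendental k' yU)
    (hfin : letI := ratAlg yU hyt; FiniteDimensional (RatFunc k') U) [Normal U K]
    (hinv : ∀ (σ : K ≃ₐ[U] K) (f : K), (S.nm (S.e0 e).1).v (σ f) = (S.nm (S.e0 e).1).v f) :
    ∃ h : K, TopE4_957.KSplit S n h ∧ ∀ (M : Type*) [Field M] [Algebra C M] [Algebra K M]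
      [IsScalarTower C K M] (r : M), r ^ n = algebraMap K M h →
      ∃ Lab : Valuation M ℝ≥0 → C → Prop, LabS C (S.nm (S.e0 e).1).v y n ζ r Lab := by
  classical
  letI a1 := ratAlg yU hyt
  haveI t1 : IsScalarTower k' (RatFunc k') U := ratAlg_tower yU hyt
  haveI f1 : FiniteDimensional (RatFunc k') U := hfin
  have hXy : algebraMap (RatFunc k') U RatFunc.X = yU := ratHom_X yU hyt
  set v := (S.nm (S.e0 e).1).v with hv
  set w0 : Valuation U ℝ≥0 := v.comap (algebraMap U K) with hw0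
  have hnk : NK k' w0 := by
    intro c
    have h1 : w0 (algebraMap k' U c) = v (algebraMap C K (c : C)) := rfl
    rw [h1, hv, (S.nm (S.e0 e).1).hC]
    rfl
  have hy1 : w0 yU = 1 := by
    have h1 : w0 yU = v (yU : K) := rfl
    rw [h1, hyU]; exact hy.one
  have hga : ∀ (f : k'[X]) (i : ℕ), ‖f.coeff i‖ ≤ w0 (aeval yU f) := by
    intro f i
    have h1 := hy.gauss (f.map (algebraMap k' C)) i
    rw [coeff_map, aeval_map_algebraMap, ← hyU] at h1
    have h2 : w0 (aeval yU f) = v (aeval (yU : K) f) := by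
      change v (algebraMap U K (aeval yU f)) = _
      rw [← aeval_algebraMap_apply]
      rfl
    rw [h2]
    exact h1
  obtain ⟨E, i1, i2, i3, i4, yE, hG, hd, V, i5, i6, i7, X, hF, e', a, a', d, d', h, D, hpl⟩ :=
    exists_cdN hπ (RatFunc k') (RatFunc.X : RatFunc k') (hgen_rat k') w0 hnk
      (by rw [hXy]; exact hy1.le) (by rw [hXy]; exact hga) hn hζ'p
  rw [hXy] at D hpl
  have hn' : ∀ (w : Valuation K ℝ≥0), (∀ c : C, w (algebraMap C K c) = ‖c‖₊) → NKM k' w := by
    intro w hw c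
    have h1 : w (algebraMap k' K c) = w (algebraMap C K (c : C)) := rfl
    rw [h1, hw]; rfl
  refine ⟨(h : K), ⟨?_, ?_, ?_⟩, ?_⟩
  · exact fun h0 => D.h0 (Subtype.ext h0)
  · intro v' ε hε
    have hε' : (0 : ℝ) < (ε : ℝ) := hε
    have hw := hn' (S.nm v').v (S.nm v').hC
    rcases lt_or_ge ((S.nm v').v (algebraMap U K yU)) 1 with h1 | h1
    · obtain ⟨g, hg0, hg⟩ := exists_pow_approx hn _ D.hd' D.h0 D.pd (D.bdP hw h1) hε'
      exact ⟨(g : K), fun h0 => hg0 (Subtype.ext h0), hg⟩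
    · obtain ⟨g, hg0, hg⟩ := exists_pow_approx hn _ D.ha D.h0 D.pa (D.bdU hw h1) hε'
      exact ⟨(g : K), fun h0 => hg0 (Subtype.ext h0), hg⟩
  · intro P
    obtain ⟨g, hg0, hg⟩ := hpl ((TopE4_957.plV P).comap (algebraMap U K)) (by
      intro c hc
      have h1 : ((TopE4_957.plV P).comap (algebraMap U K)) (algebraMap k' U c) =
        TopE4_957.plV P (algebraMap C K (c : C)) := rfl
      rw [h1]
      exact (TopE4_957.isPlace_plV P).1 _ (fun h0 => hc (Subtype.ext h0))) (by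
      intro hle
      have hle' : TopE4_957.plV P y ≤ 1 := by rw [← hyU]; exact hle
      obtain ⟨p, hp0, hp⟩ := poly_lt P ((plV_le_one P y).1 hle') k'
      refine ⟨p, hp0, ?_⟩
      change TopE4_957.plV P (algebraMap U K (aeval yU p)) < 1
      have h1 : algebraMap U K (aeval yU p) = aeval y p := by
        rw [← aeval_algebraMap_apply]
        change aeval (yU : K) p = _
        rw [hyU]
      rw [h1]
      exact (plV_lt_one P _).2 hp)
    have hg' : TopE4_957.plV P ((h : K) / (g : K) ^ n - 1) < 1 := hg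
    refine TopE4_957.pl_pow_of (a := (g : K)) (fun h0 => D.h0 (Subtype.ext h0)) ?_
    have hg0' : (g : K) ≠ 0 := fun h0 => hg0 (Subtype.ext h0)
    have h2 : TopE4_957.plV P ((h : K) / (g : K) ^ n) = 1 := by
      have : (h : K) / (g : K) ^ n = 1 + ((h : K) / (g : K) ^ n - 1) := by ring
      rw [this, Valuation.map_add_eq_of_lt_left _ (by rw [map_one]; exact hg'), map_one]
    rw [map_div₀, map_pow] at h2
    exact (div_eq_one_iff_eq (pow_ne_zero _ ((Valuation.ne_zero_iff _).2 hg0'))).1 h2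
  · intro M _ _ _ _ r hr
    haveI tM : IsScalarTower k' U M := IsScalarTower.of_algebraMap_eq fun c => by
      change algebraMap C M (c : C) = algebraMap K M (algebraMap C K (c : C))
      rw [← IsScalarTower.algebraMap_apply C K M]
    have hr' : r ^ n = algebraMap U M h := hr
    have hNK : ∀ w : Valuation M ℝ≥0, NKM C w → NKM k' w := fun w hw c => hw (c : C)
    have hcoe : ∀ c : k', algebraMap k' M c = algebraMap C M (c : C) := fun c => rfl
    have hmem : ∀ ξ : C, ξ ^ n = 1 → ∃ ξ' : k', (ξ' : C) = ξ ∧ ξ' ^ n = 1 := by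
      intro ξ hξ
      haveI : NeZero n := ⟨hn.ne'⟩
      have hζC : IsPrimitiveRoot (ζ' : C) n := hζ'p.map_of_injective (f := algebraMap k' C)
        (algebraMap k' C).injective
      obtain ⟨i, -, hi⟩ := hζC.eq_pow_of_pow_eq_one hξ
      exact ⟨ζ' ^ i, hi, by rw [← pow_mul, mul_comm, pow_mul, hζ'p.pow_eq_one, one_pow]⟩
    have hpow : ∀ ξ' : k', ((ξ' : C)) ^ n = 1 → ξ' ^ n = 1 := fun ξ' h1 => Subtype.ext h1
    have hyM : algebraMap U M yU = algebraMap K M y := by
      rw [← hyU]; rfl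
    have hnt : ∃ u : U, 1 < v (algebraMap U K u) := by
      refine ⟨algebraMap k' U π⁻¹, ?_⟩
      have h1 : (v (algebraMap U K (algebraMap k' U π⁻¹)) : ℝ) = ‖π⁻¹‖ := hnk π⁻¹
      have h2 : 1 < ‖π⁻¹‖ := by
        rw [norm_inv]
        exact (one_lt_inv₀ hπ.pos).2 hπ.lt_one
      rw [← h1] at h2
      exact_mod_cast h2
    have hrs : ∀ w : Valuation M ℝ≥0, rs U w = w0 ↔ w.comap (algebraMap K M) = v := by
      intro w
      constructor
      · intro h1
        exact eq_of_comap_eq v (w.comap (algebraMap K M)) hinv hnt h1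
      · intro h1
        rw [hw0, ← h1]
        rfl
    refine ⟨fun w ξ => ∃ ξ' : k', (ξ' : C) = ξ ∧ Lab hG hπ hd X hF yU a d' r w ξ', ?_, ?_, ?_, ?_,
      ?_⟩
    · intro w hw
      obtain ⟨ξ', h1, h2⟩ := D.exists_lab hr' (hNK w hw)
      exact ⟨ξ', congrArg Subtype.val h1, ξ', rfl, h2⟩
    · rintro w hw _ _ h1 h2 ⟨ξ, rfl, h3⟩ ⟨ξ', rfl, h4⟩
      rw [D.lab_unique hr' (hNK w hw) (hpow _ h1) (hpow _ h2) h3 h4]
    · rintro w hw σ ξσ h1 hσ _ h2 ⟨ξ, rfl, h3⟩
      obtain ⟨ξσ', rfl, h4⟩ := hmem ξσ h1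
      refine ⟨ξ * ξσ', rfl, ?_⟩
      have h5 : (AlgEquiv.restrictScalars U σ : M ≃ₐ[U] M) r = algebraMap k' M ξσ' * r := hσ
      exact D.lab_equivariant hr' (hNK w hw) (AlgEquiv.restrictScalars U σ) h4 h5 (hpow _ h2) h3
    · rintro w t0 hc hw hne _ h2 ⟨ξ, rfl, h3⟩
      have h4 := D.lab_eventually hr' w t0 hc (fun t => hNK _ (hw t)) (hpow _ h2) h3
      have h5 : ¬ (rs U (w t0) = w0) := fun h6 => hne ((hrs _).1 h6)
      rw [if_neg h5, mul_one] at h4
      filter_upwards [h4] with t h6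
      refine ⟨ξ, rfl, ?_⟩
      rcases lt_or_ge (w t (algebraMap U M yU)) 1 with h7 | h7
      · exact h6.2 h7
      · exact h6.1 h7
    · rintro w t0 hc hw heq _ h2 ⟨ξ, rfl, h3⟩
      have h4 := D.lab_eventually hr' w t0 hc (fun t => hNK _ (hw t)) (hpow _ h2) h3
      rw [if_pos ((hrs _).2 heq), hyM] at h4
      filter_upwards [h4] with t h6
      exact ⟨fun h7 => ⟨ξ, rfl, h6.1 h7⟩, fun h7 => ⟨ξ * ζ', by rw [← hζ']; rfl, h6.2 h7⟩⟩

/-- **THE KUMMER CLASS OF AN EDGE.** -/
theorem exists_kc (S : SSK k C K) (e : S.Ed) {y : K} (hy : YY S e y) {n : ℕ} (hn : 0 < n) {ζ : C}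
    (hζ : IsPrimitiveRoot ζ n) :
    ∃ h : K, TopE4_957.KSplit S n h ∧ ∀ (M : Type*) [Field M] [Algebra C M] [Algebra K M]
      [IsScalarTower C K M] (r : M), r ^ n = algebraMap K M h →
      ∃ Lab : Valuation M ℝ≥0 → C → Prop, LabS C (S.nm (S.e0 e).1).v y n ζ r Lab := by
  classical
  obtain ⟨T0, hT0⟩ := fg_of_ratFunc C K
  obtain ⟨T, hTdef⟩ : ∃ T : Finset K, T = insert y T0 := ⟨_, rfl⟩
  have hT : IntermediateField.adjoin C (T : Set K) = ⊤ := by
    rw [eq_top_iff, ← hT0]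
    exact IntermediateField.adjoin.mono _ _ _ (by rw [hTdef, Finset.coe_insert]; exact Set.subset_insert _ _)
  obtain ⟨L, hL, hinv⟩ := exists_inv S (S.e0 e) T
  have hζint : IsIntegral k ζ := Algebra.IsIntegral.isIntegral ζ
  obtain ⟨k', hLk', hζk, hfd⟩ : ∃ k' : IntermediateField k C, L ≤ k' ∧ ζ ∈ k' ∧
      FiniteDimensional k k' := by
    have hfd1 : FiniteDimensional k (IntermediateField.adjoin k {ζ}) :=
      IntermediateField.adjoin.finiteDimensional hζint
    exact ⟨L ⊔ IntermediateField.adjoin k {ζ}, le_sup_left,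
      (le_sup_right : IntermediateField.adjoin k {ζ} ≤ _)
        (IntermediateField.mem_adjoin_simple_self k ζ), inferInstance⟩
  have hcompl : CompleteSpace k' := FiniteDimensional.complete k k'
  obtain ⟨π, hπ⟩ := RZ_365.exists_isUnif hk.out k'
  obtain ⟨ζ', hζ'⟩ : ∃ ζ' : k', (ζ' : C) = ζ := ⟨⟨ζ, hζk⟩, rfl⟩
  have hζ'p : IsPrimitiveRoot ζ' n :=
    IsPrimitiveRoot.of_map_of_injective (f := algebraMap k' C) (by rw [← hζ'] at hζ; exact hζ)
      (algebraMap k' C).injective
  have hyT : y ∈ IntermediateField.adjoin k' (T : Set K) :=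
    IntermediateField.subset_adjoin _ _ (by rw [hTdef, Finset.coe_insert]; exact Set.mem_insert _ _)
  have hnorm := normal_level k' (T : Set K) hT
  have hinv' := hinv k' hLk' hT
  have hfin := finite_level k' T ⟨y, hyT⟩ hy.transc (transc_level k' _ _ hy.transc)
  exact kc_core S e hy hn k' hπ hζ' hζ'p _ (yU := ⟨y, hyT⟩) rfl _ hfin hinv'

end main

end Crest.Agent.R013.Kc_671
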