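import Mathlib

/-!
# R013 / Slo1: slopes over a topological cover, the graph computation (helper671)

`EM → VM` is the graph of the cover, `π : EM → E` the edges of the base, `θ : VM → G` the sheet
number (values in an abelian group killed by `n`), `δ : E → G` the jump along an edge.
-/

set_option autoImplicit false

namespace Crest.Agent.R013.Slo1_671

open Finset

section

variable {VM EM E G : Type*} [Fintype VM] [DecidableEq VM] [Fintype EM] [Fintype E]
  [DecidableEq E] [AddCommGroup G]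

theorem smul_eq_of_dvd {n : ℕ} (hn : ∀ g : G, n • g = 0) {a b : ℤ} (h : (n : ℤ) ∣ a - b) (g : G) :
    a • g = b • g := by
  obtain ⟨c, hc⟩ := h
  have h1 : a = b + c * n := by rw [mul_comm]; omega
  rw [h1, add_smul, mul_smul, natCast_zsmul, hn, smul_zero, add_zero]

/-- multiply Kirchhoff's law at `w` by `θ w` and sum over `w` -/
theorem sum_smul_theta (src tgt : EM → VM) (o1 o2 : EM → ℤ) (D : VM → ℤ) (θ : VM → G)
    (K : ∀ w, D w + ∑ e with src e = w, o1 e + ∑ e with tgt e = w, o2 e = 0) :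
    ∑ w, D w • θ w + ∑ e, o1 e • θ (src e) + ∑ e, o2 e • θ (tgt e) = 0 := by
  have h1 : ∑ w, (D w + ∑ e with src e = w, o1 e + ∑ e with tgt e = w, o2 e) • θ w = 0 := by
    simp [K]
  have h2 : ∀ (o : EM → ℤ) (s : EM → VM),
      ∑ w, (∑ e with s e = w, o e) • θ w = ∑ e, o e • θ (s e) := by
    intro o s
    calc ∑ w, (∑ e with s e = w, o e) • θ w
        = ∑ w, ∑ e with s e = w, o e • θ (s e) := by
          apply Finset.sum_congr rfl
          intro w _
          rw [Finset.sum_smul]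
          apply Finset.sum_congr rfl
          intro e he
          rw [(Finset.mem_filter.mp he).2]
      _ = ∑ e, o e • θ (s e) := Finset.sum_fiberwise _ _ _
  simp only [add_smul, Finset.sum_add_distrib] at h1
  rw [h2 o1 src, h2 o2 tgt] at h1
  exact h1

/-- the slope formula over the cover -/
theorem sum_slope {n : ℕ} (hn : ∀ g : G, n • g = 0) (src tgt : EM → VM) (π : EM → E)
    (o1 o2 : EM → ℤ) (D : VM → ℤ) (θ : VM → G) (δ : E → G) (s : E → ℤ)
    (hθ : ∀ e, θ (tgt e) = θ (src e) + δ (π e))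
    (K : ∀ w, D w + ∑ e with src e = w, o1 e + ∑ e with tgt e = w, o2 e = 0)
    (hA : ∀ e, (n : ℤ) ∣ o1 e + o2 e)
    (hs : ∀ e, (n : ℤ) ∣ s e - ∑ e' with π e' = e, o1 e') :
    ∑ w, D w • θ w = ∑ e, s e • δ e := by
  have h1 := sum_smul_theta src tgt o1 o2 D θ K
  have h2 : ∀ e, o2 e • θ (tgt e) = -(o1 e • θ (src e)) - o1 e • δ (π e) := by
    intro e
    have h3 : o2 e • θ (tgt e) = (-o1 e) • θ (tgt e) := by
      apply smul_eq_of_dvd hn
      have := hA e
      rwa [sub_neg_eq_add, add_comm]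
    rw [h3, hθ, neg_smul, smul_add, neg_add, sub_eq_add_neg]
  have h4 : ∑ e, s e • δ e = ∑ e, o1 e • δ (π e) := by
    calc ∑ e, s e • δ e = ∑ e, (∑ e' with π e' = e, o1 e') • δ e :=
          Finset.sum_congr rfl fun e _ => smul_eq_of_dvd hn (hs e) _
      _ = ∑ e, ∑ e' with π e' = e, o1 e' • δ (π e') := by
          apply Finset.sum_congr rfl
          intro e _
          rw [Finset.sum_smul]
          apply Finset.sum_congr rfl
          intro e' he
          rw [(Finset.mem_filter.mp he).2]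
      _ = ∑ e, o1 e • δ (π e) := Finset.sum_fiberwise _ _ _
  simp only [h2, Finset.sum_sub_distrib, Finset.sum_neg_distrib] at h1
  rw [h4]
  have h5 : ∑ w, D w • θ w - ∑ e, o1 e • δ (π e) = 0 := by
    rw [← h1]; abel
  exact sub_eq_zero.mp h5

end

/-! ### path lifting: the group of the cover is everything -/

section path

variable {VM EM V E G Γ : Type*} [AddCommGroup G] [Group Γ] [MulAction Γ VM]

/-- Walks in a graph `src, tgt : E → V`: lists of oriented edges. -/
inductive Walk (src tgt : E → V) : V → V → Type _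
  | nil (v : V) : Walk src tgt v v
  | fwd {v w : V} (e : E) (h : src e = v) (p : Walk src tgt (tgt e) w) : Walk src tgt v w
  | bwd {v w : V} (e : E) (h : tgt e = v) (p : Walk src tgt (src e) w) : Walk src tgt v w

variable {src tgt : E → V}

/-- the total jump along a walk -/
def Walk.jump (δ : E → G) : {v w : V} → Walk src tgt v w → G
  | _, _, .nil _ => 0
  | _, _, .fwd e _ p => δ e + p.jump δ
  | _, _, .bwd e _ p => -δ e + p.jump δ

/-- a walk in the base lifts -/
theorem Walk.lift {srcM tgtM : EM → VM} {πV : VM → V} {πE : EM → E} {θ : VM → G} {δ : E → G}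
    (hsrc : ∀ e' v', src e' = πV v' → ∃ e, πE e = e' ∧ srcM e = v')
    (htgt : ∀ e' v', tgt e' = πV v' → ∃ e, πE e = e' ∧ tgtM e = v')
    (hs : ∀ e, πV (srcM e) = src (πE e)) (ht : ∀ e, πV (tgtM e) = tgt (πE e))
    (hθ : ∀ e, θ (tgtM e) = θ (srcM e) + δ (πE e)) :
    ∀ {v w : V} (p : Walk src tgt v w) (v' : VM), πV v' = v →
      ∃ w' : VM, πV w' = w ∧ θ w' = θ v' + p.jump δ := by
  intro v w p
  induction p with
  | nil v => exact fun v' hv => ⟨v', hv, by simp [Walk.jump]⟩
  | fwd e h p ih =>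
    intro v' hv
    obtain ⟨e', he, he'⟩ := hsrc e v' (h.trans hv.symm)
    obtain ⟨w', hw, hw'⟩ := ih (tgtM e') (by rw [ht, he])
    refine ⟨w', hw, ?_⟩
    rw [hw', hθ, he, he', Walk.jump, add_assoc]
  | bwd e h p ih =>
    intro v' hv
    obtain ⟨e', he, he'⟩ := htgt e v' (h.trans hv.symm)
    obtain ⟨w', hw, hw'⟩ := ih (srcM e') (by rw [hs, he])
    refine ⟨w', hw, ?_⟩
    have h1 := hθ e'
    rw [he, he'] at h1
    rw [hw', Walk.jump, h1]
    abel

/-- if the fibres of `πV` are orbits of `Γ`, and `θ (γ v) = θ v + φ γ`, then the jump of every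
closed walk lies in the image of `φ`. -/
theorem jump_mem_range {srcM tgtM : EM → VM} {πV : VM → V} {πE : EM → E} {θ : VM → G} {δ : E → G}
    (hsrc : ∀ e' v', src e' = πV v' → ∃ e, πE e = e' ∧ srcM e = v')
    (htgt : ∀ e' v', tgt e' = πV v' → ∃ e, πE e = e' ∧ tgtM e = v')
    (hs : ∀ e, πV (srcM e) = src (πE e)) (ht : ∀ e, πV (tgtM e) = tgt (πE e))
    (hθ : ∀ e, θ (tgtM e) = θ (srcM e) + δ (πE e)) (φ : Γ → G)
    (hφ : ∀ γ v, θ (γ • v) = θ v + φ γ) (hfib : ∀ v w : VM, πV v = πV w → ∃ γ : Γ, γ • v = w)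
    {v : V} (p : Walk src tgt v v) (v' : VM) (hv : πV v' = v) : ∃ γ : Γ, φ γ = p.jump δ := by
  obtain ⟨w', hw, hw'⟩ := Walk.lift hsrc htgt hs ht hθ p v' hv
  obtain ⟨γ, hγ⟩ := hfib v' w' (hv.trans hw.symm)
  refine ⟨γ, ?_⟩
  have h1 := hφ γ v'
  rw [hγ, hw'] at h1
  exact (add_left_cancel h1).symm

end path

end Crest.Agent.R013.Slo1_671
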