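import Mathlib
import Crest.Agent.R013.RR19_948
import Crest.Agent.R013.Slo1_671

/-!
# R013 / Slo2: functions with prescribed slopes from a topological cover (helper671)

`M/K` a finite Galois extension of function fields over `C` (948's context), which is a topological
cover: `Gal(M/K)` acts on the finite graph `EM ⇉ VM`, `θ : VM → G` the sheet number.
The Galois group acts on the places of `M` (`act`), the divisors of a conjugate function (`divf_act`),
the norm of a function whose divisor is `(σ Q) - (Q) + n D` (`exists_slope`).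
-/

set_option autoImplicit false
set_option linter.all false

namespace Crest.Agent.R013.Slo2_671

open WithZero Module Finset
open Crest.Agent.R013.RR7_948 Crest.Agent.R013.RR8_948 Crest.Agent.R013.RR9_948
open Crest.Agent.R013.RR11_948 Crest.Agent.R013.RR12_948 Crest.Agent.R013.RR13_948
open Crest.Agent.R013.RR18_948 Crest.Agent.R013.RR19_948
open Crest.Agent.R013.Slo1_671

section act

variable {k : Type*} [Field k] {K : Type*} [Field K] [Algebra k K] {M : Type*} [Field M]
  [Algebra k M] [Algebra K M] [IsScalarTower k K M]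

/-- the action of a `K`-automorphism on the places: `(σ P)(f) = P(σ⁻¹ f)` -/
noncomputable def act (σ : M ≃ₐ[K] M) (P : Pl k M) : Pl k M where
  v := P.v.comap ((σ.symm : M ≃ₐ[K] M) : M →+* M)
  const := fun c hc => by
    rw [Valuation.comap_apply]
    have h : (σ.symm : M →+* M) (algebraMap k M c) = algebraMap k M c := by
      rw [IsScalarTower.algebraMap_apply k K M]
      exact σ.symm.commutes _
    rw [h]
    exact P.const c hc
  surj := fun y => by
    obtain ⟨x, hx⟩ := P.surj y
    refine ⟨σ x, ?_⟩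
    rw [Valuation.comap_apply]
    have h : (σ.symm : M →+* M) (σ x) = x := σ.symm_apply_apply x
    rw [h, hx]

theorem act_v (σ : M ≃ₐ[K] M) (P : Pl k M) (f : M) : (act σ P).v f = P.v (σ.symm f) := rfl

theorem act_v' (σ : M ≃ₐ[K] M) (P : Pl k M) (f : M) : (act σ P).v (σ f) = P.v f := by
  rw [act_v, σ.symm_apply_apply]

theorem act_one (P : Pl k M) : act (1 : M ≃ₐ[K] M) P = P := by
  apply Pl.ext; ext f; rfl

theorem act_mul (σ τ : M ≃ₐ[K] M) (P : Pl k M) : act (σ * τ) P = act σ (act τ P) := by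
  apply Pl.ext; ext f; rfl

theorem act_injective (σ : M ≃ₐ[K] M) : Function.Injective (act (k := k) σ) := by
  intro P Q h
  have h1 := congrArg (act σ⁻¹) h
  rwa [← act_mul, ← act_mul, inv_mul_cancel, act_one, act_one] at h1

end act

section ctx

variable {k : Type*} [Field k] {K : Type*} [Field K] [Algebra k K] {M : Type*} [Field M]
  [Algebra k M] [Algebra (RatFunc k) M] [IsScalarTower k (RatFunc k) M]
  [FiniteDimensional (RatFunc k) M] [Algebra.IsSeparable (RatFunc k) M] [Algebra K M]
  [IsScalarTower k K M]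

theorem divf_act {f : M} (hf : f ≠ 0) (σ : M ≃ₐ[K] M) (P : Pl k M) :
    divf (k := k) (σ f) (act σ P) = divf f P := by
  have hσ : σ f ≠ 0 := by simpa using hf
  have h := act_v' σ P f
  rw [v_eq hσ, v_eq hf, exp_inj] at h
  omega

theorem divf_act' {f : M} (hf : f ≠ 0) (σ : M ≃ₐ[K] M) (P : Pl k M) :
    divf (k := k) (σ f) P = divf f (act σ⁻¹ P) := by
  rw [← divf_act hf σ (act σ⁻¹ P), ← act_mul, mul_inv_cancel, act_one]

theorem divf_prod {ι : Type*} (s : Finset ι) (f : ι → M) (hf : ∀ i ∈ s, f i ≠ 0) :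
    divf (k := k) (∏ i ∈ s, f i) = ∑ i ∈ s, divf (f i) := by
  classical
  induction s using Finset.induction_on with
  | empty => simp [divf_one]
  | insert a s ha ih =>
    rw [Finset.prod_insert ha, Finset.sum_insert ha, divf_mul (hf a (mem_insert_self a s))
      (Finset.prod_ne_zero_iff.mpr fun i hi => hf i (mem_insert_of_mem hi)),
      ih fun i hi => hf i (mem_insert_of_mem hi)]

/-- the degree of the part of a divisor in a cell (places of degree one) -/
noncomputable def cdeg {X : Type*} [DecidableEq X] (cell : Pl k M → X) (x : X) :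
    (Pl k M →₀ ℤ) →+ ℤ where
  toFun D := D.sum fun P n => if cell P = x then n else 0
  map_zero' := by simp
  map_add' D E := by
    rw [Finsupp.sum_add_index']
    · intro P; simp
    · intro P a b; split_ifs <;> simp

theorem cdeg_apply {X : Type*} [DecidableEq X] (cell : Pl k M → X) (x : X) (D : Pl k M →₀ ℤ) :
    cdeg cell x D = D.sum fun P n => if cell P = x then n else 0 := rfl

theorem cdeg_single {X : Type*} [DecidableEq X] (cell : Pl k M → X) (x : X) (P : Pl k M) (n : ℤ) :
    cdeg cell x (Finsupp.single P n) = if cell P = x then n else 0 := by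
  rw [cdeg_apply, Finsupp.sum_single_index]; simp

end ctx

section main

variable {k : Type*} [Field k] {K : Type*} [Field K] [Algebra k K] [Algebra (RatFunc k) K]
  [IsScalarTower k (RatFunc k) K] [FiniteDimensional (RatFunc k) K]
  [Algebra.IsSeparable (RatFunc k) K]
  {M : Type*} [Field M]
  [Algebra k M] [Algebra (RatFunc k) M] [IsScalarTower k (RatFunc k) M]
  [FiniteDimensional (RatFunc k) M] [Algebra.IsSeparable (RatFunc k) M] [Algebra K M]
  [IsScalarTower k K M] [FiniteDimensional K M] [IsGalois K M]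

/-- **slopes from a topological cover.** `VM, EM` the graph of `M`, `E` the edges of `K`. -/
theorem exists_slope {VM EM E G : Type*} [Fintype VM] [DecidableEq VM] [Fintype EM]
    [DecidableEq EM] [Fintype E] [DecidableEq E] [AddCommGroup G] {n : ℕ} (hn0 : 0 < n)
    (hn : ∀ g : G, n • g = 0)
    (hdiv : ∀ D : Pl k M →₀ ℤ, degD D = 0 →
      ∃ (F : Pl k M →₀ ℤ) (f : M), f ≠ 0 ∧ D = n • F + divf f)
    (hdeg : ∀ P : Pl k M, degP P = 1)
    (hunr : ∀ Q : Pl k M, eR K Q = 1)
    (src tgt : EM → VM) (π : EM → E)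
    (aV : (M ≃ₐ[K] M) → VM → VM) (aE : (M ≃ₐ[K] M) → EM → EM)
    (aE_mul : ∀ σ τ e, aE (σ * τ) e = aE σ (aE τ e)) (aE_one : ∀ e, aE 1 e = e)
    (hπ : ∀ e e', π e = π e' ↔ ∃ σ, aE σ e = e')
    (hfree : ∀ σ e, aE σ e = e → σ = 1)
    (hπs : Function.Surjective π)
    (cell : Pl k M → VM ⊕ EM)
    (hcell : ∀ σ P, cell (act σ P) = Sum.map (aV σ) (aE σ) (cell P))
    (o1 o2 : EM → M → ℤ)
    (o1_mul : ∀ e f g, f ≠ 0 → g ≠ 0 → o1 e (f * g) = o1 e f + o1 e g)
    (o1_act : ∀ σ e f, f ≠ 0 → o1 (aE σ e) (σ f) = o1 e f)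
    (kirch : ∀ f : M, f ≠ 0 → ∀ w, cdeg cell (Sum.inl w) (divf f) + ∑ e with src e = w, o1 e f
      + ∑ e with tgt e = w, o2 e f = 0)
    (ann : ∀ f : M, f ≠ 0 → ∀ e, o1 e f + o2 e f = cdeg cell (Sum.inr e) (divf f))
    (s : E → K → ℤ) (hs : ∀ e h, h ≠ 0 → o1 e (algebraMap K M h) = s (π e) h)
    (θ : VM → G) (φ : (M ≃ₐ[K] M) → G) (hθ : ∀ σ w, θ (aV σ w) = θ w + φ σ)
    (δ : E → G) (hδ : ∀ e, θ (tgt e) = θ (src e) + δ (π e))
    (Q : Pl k M) (w₀ : VM) (hQ : cell Q = Sum.inl w₀) (σ : M ≃ₐ[K] M) :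
    ∃ h : K, h ≠ 0 ∧ (∀ P : Pl k K, (n : ℤ) ∣ divf h P) ∧ ∑ e, s e h • δ e = φ σ := by
  classical
  obtain ⟨F, f, hf, hD⟩ := hdiv (Finsupp.single (act σ Q) 1 - Finsupp.single Q 1) (by
    rw [sub_eq_add_neg, degD_add, ← Finsupp.single_neg, degD_single, degD_single, hdeg, hdeg]
    simp)
  have hdivf : divf (k := k) f = Finsupp.single (act σ Q) 1 - Finsupp.single Q 1 - n • F := by
    rw [hD]; abel
  have hN : algebraMap K M (Algebra.norm K f) = ∏ τ : M ≃ₐ[K] M, τ f :=
    Algebra.norm_eq_prod_automorphisms K f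
  have hNf : Algebra.norm K f ≠ 0 := by
    rw [Ne, Algebra.norm_eq_zero_iff]; exact hf
  have hτ : ∀ τ : M ≃ₐ[K] M, τ f ≠ 0 := fun τ => by simpa using hf
  have hcd : ∀ x : VM ⊕ EM, (n : ℤ) ∣ cdeg cell x (divf f) -
      ((if cell (act σ Q) = x then 1 else 0) - (if cell Q = x then 1 else 0)) := by
    intro x
    rw [hdivf, map_sub, map_sub, cdeg_single, cdeg_single, map_nsmul, nsmul_eq_mul]
    exact ⟨-cdeg cell x F, by ring⟩
  refine ⟨Algebra.norm K f, hNf, ?_, ?_⟩
  · intro P
    obtain ⟨R, hR⟩ := above_nonempty (L := M) P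
    rw [mem_above] at hR
    have h1 : divf (k := k) (algebraMap K M (Algebra.norm K f)) R
        = divf (Algebra.norm K f) P := by
      have h0 := v_algebraMap (K := K) R (Algebra.norm K f)
      rw [hunr, pow_one, hR, v_eq (k := k) hNf, v_eq (k := k)
        (by simpa using hNf : algebraMap K M (Algebra.norm K f) ≠ 0), exp_inj] at h0
      omega
    rw [← h1, hN, divf_prod _ _ fun τ _ => hτ τ, Finsupp.finset_sum_apply]
    have h2 : ∀ τ : M ≃ₐ[K] M, divf (k := k) (τ f) R
        = (if act σ Q = act τ⁻¹ R then 1 else 0) - (if Q = act τ⁻¹ R then 1 else 0)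
          - n * F (act τ⁻¹ R) := by
      intro τ
      rw [divf_act' hf, hdivf]
      simp only [Finsupp.sub_apply, Finsupp.single_apply, Finsupp.smul_apply, nsmul_eq_mul]
    simp only [h2]
    rw [Finset.sum_sub_distrib, Finset.sum_sub_distrib]
    have h3 : ∑ τ : M ≃ₐ[K] M, (if act σ Q = act τ⁻¹ R then (1 : ℤ) else 0)
        = ∑ τ : M ≃ₐ[K] M, (if Q = act τ⁻¹ R then (1 : ℤ) else 0) := by
      apply Fintype.sum_equiv (Equiv.mulRight σ)
      intro τ
      have h4 : (act σ Q = act τ⁻¹ R) ↔ (Q = act ((Equiv.mulRight σ) τ)⁻¹ R) := by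
        rw [Equiv.coe_mulRight, mul_inv_rev, act_mul]
        constructor
        · intro h
          rw [← h, ← act_mul, inv_mul_cancel, act_one]
        · intro h
          rw [h, ← act_mul, mul_inv_cancel, act_one]
      by_cases h5 : act σ Q = act τ⁻¹ R
      · rw [if_pos h5, if_pos (h4.mp h5)]
      · rw [if_neg h5, if_neg (mt h4.mpr h5)]
    rw [h3, sub_self, zero_sub, ← Finset.mul_sum]
    exact (Dvd.intro _ rfl).neg_right
  · have key := sum_slope (n := n) hn src tgt π (fun e => o1 e f) (fun e => o2 e f)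
      (fun w => cdeg cell (Sum.inl w) (divf f)) θ δ (fun e => s e (Algebra.norm K f)) hδ
      (kirch f hf) (by
        intro e
        rw [ann f hf e]
        have h1 := hcd (Sum.inr e)
        rw [hcell, hQ] at h1
        simpa using h1) (by
        intro e
        obtain ⟨e₀, rfl⟩ := hπs e
        have h1 : s (π e₀) (Algebra.norm K f) = ∑ τ : M ≃ₐ[K] M, o1 (aE τ e₀) f := by
          rw [← hs e₀ _ hNf, hN]
          have h2 : ∀ t : Finset (M ≃ₐ[K] M), o1 e₀ (∏ τ ∈ t, τ f) = ∑ τ ∈ t, o1 (aE τ⁻¹ e₀) f := by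
            intro t
            induction t using Finset.induction_on with
            | empty =>
              have h3 := o1_mul e₀ 1 1 one_ne_zero one_ne_zero
              rw [mul_one] at h3
              simp only [Finset.prod_empty, Finset.sum_empty]
              omega
            | insert τ t ht ih =>
              rw [Finset.prod_insert ht, Finset.sum_insert ht, o1_mul _ _ _ (hτ τ)
                (Finset.prod_ne_zero_iff.mpr fun i _ => hτ i), ih]
              congr 1
              have h4 := o1_act τ (aE τ⁻¹ e₀) f hf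
              rw [← aE_mul, mul_inv_cancel, aE_one] at h4
              exact h4
          rw [h2]
          exact Fintype.sum_equiv (Equiv.inv _) _ _ fun τ => rfl
        have h5 : ∑ τ : M ≃ₐ[K] M, o1 (aE τ e₀) f = ∑ e' with π e' = π e₀, o1 e' f := by
          refine Finset.sum_bij (fun τ _ => aE τ e₀) ?_ ?_ ?_ ?_
          · intro τ _
            rw [Finset.mem_filter]
            exact ⟨mem_univ _, ((hπ _ _).mpr ⟨τ, rfl⟩).symm⟩
          · intro τ _ τ' _ h
            have h6 : aE (τ'⁻¹ * τ) e₀ = e₀ := by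
              rw [aE_mul, h, ← aE_mul, inv_mul_cancel, aE_one]
            have h7 := hfree _ _ h6
            exact (inv_mul_eq_one.mp h7).symm
          · intro e' he'
            obtain ⟨τ, hτ'⟩ := (hπ e₀ e').mp (Finset.mem_filter.mp he').2.symm
            exact ⟨τ, mem_univ _, hτ'⟩
          · intro τ _; rfl
        simp only [h1, h5, sub_self, dvd_zero])
    rw [← key]
    have h6 : ∀ w : VM, cdeg cell (Sum.inl w) (divf f) • θ w
        = (((if cell (act σ Q) = Sum.inl w then 1 else 0) - (if cell Q = Sum.inl w then 1 else 0) : ℤ))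
          • θ w := fun w => smul_eq_of_dvd hn (hcd (Sum.inl w)) _
    rw [Finset.sum_congr rfl fun w _ => h6 w]
    simp only [sub_smul, Finset.sum_sub_distrib]
    rw [hcell, hQ]
    simp only [Sum.map_inl, Sum.inl.injEq, ite_smul, one_smul, zero_smul]
    rw [Finset.sum_ite_eq, Finset.sum_ite_eq]
    simp [hθ]

end main

end Crest.Agent.R013.Slo2_671
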