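import Crest.Agent.R013.TP17_928
import Crest.Agent.R013.TP13_928
import Crest.Agent.R013.Div6_280

/-!
# R013 / C-FIN (helper928), part 4: Kirchhoff's law, surjectivity of the slopes

* `bdry S R : (S.Ed → R) →ₗ[R] (S.V → R)`;
* `bdry_sl`: slopes are harmonic;
* `exists_tate`: every `p`-torsion class lifts to the Tate module (DIV);
* `onto_of_mod`: surjectivity of the slopes onto the harmonic vectors from the statement modulo `p`.
-/

set_option autoImplicit false
set_option linter.unusedSectionVars false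
set_option linter.style.haveILetI false

namespace Crest.Agent.R013.Fin_928

open scoped NNReal
open WithZero Module PadicInt
open Crest.Agent.R013.Cell_408 (DiscNorm)
open Crest.Agent.R013.RR7_948 Crest.Agent.R013.RR8_948 Crest.Agent.R013.RR9_948
open Crest.Agent.R013.RR11_948 Crest.Agent.R013.PicD_398
open Crest.Agent.R013.Red332 Crest.Agent.R013.SSK_332 Crest.Agent.R013.TP_928

section bdry

variable {k : Type*} [NontriviallyNormedField k] [CompleteSpace k]
variable {C : Type*} [NormedField C] [IsUltrametricDist C] [NormedAlgebra k C]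
  [Algebra.IsAlgebraic k C]
variable {K : Type*} [Field K] [Algebra C K] (S : SSK k C K)

open Classical in
/-- boundary of the graph of a semistable structure -/
noncomputable def bdry (R : Type*) [CommRing R] : (S.Ed → R) →ₗ[R] (S.V → R) :=
  haveI := S.fEd
  { toFun := fun lam v => ∑ e, (if (S.e0 e).1 = v then lam e else 0) -
      ∑ e, (if (S.e1 e).1 = v then lam e else 0)
    map_add' := fun x y => by
      funext v
      simp only [Pi.add_apply]
      have h1 : ∀ (g : S.Ed → S.Dir), ∑ e, (if (g e).1 = v then x e + y e else 0) =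
          ∑ e, (if (g e).1 = v then x e else 0) + ∑ e, (if (g e).1 = v then y e else 0) := by
        intro g
        rw [← Finset.sum_add_distrib]
        refine Finset.sum_congr rfl fun e _ => ?_
        split_ifs <;> simp
      rw [h1, h1]
      ring
    map_smul' := fun a x => by
      funext v
      simp only [Pi.smul_apply, smul_eq_mul, RingHom.id_apply]
      rw [mul_sub, Finset.mul_sum, Finset.mul_sum]
      congr 1 <;>
      · refine Finset.sum_congr rfl fun e _ => ?_
        split_ifs <;> simp }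

open Classical in
theorem bdry_apply {R : Type*} [CommRing R] [Fintype S.Ed] (lam : S.Ed → R) (v : S.V) :
    bdry S R lam v = ∑ e, (if (S.e0 e).1 = v then lam e else 0) -
      ∑ e, (if (S.e1 e).1 = v then lam e else 0) := by
  have h : S.fEd = ‹Fintype S.Ed› := Subsingleton.elim _ _
  subst h
  rfl

theorem bdry_map {R R' : Type*} [CommRing R] [CommRing R'] (φ : R →+* R') (lam : S.Ed → R)
    (v : S.V) : φ (bdry S R lam v) = bdry S R' (fun e => φ (lam e)) v := by
  classical
  haveI := S.fEd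
  rw [bdry_apply, bdry_apply, map_sub, map_sum, map_sum]
  congr 1 <;>
  · refine Finset.sum_congr rfl fun e _ => ?_
    split_ifs <;> simp

end bdry

section kirchhoff

variable {k : Type*} [NontriviallyNormedField k] [CompleteSpace k] [IsUltrametricDist k]
variable {C : Type*} [NormedField C] [IsUltrametricDist C] [NormedAlgebra k C]
  [Algebra.IsAlgebraic k C] [IsAlgClosed C] [hk : Fact (DiscNorm k)]
variable {K : Type*} [Field K] [Algebra C K] [Algebra (RatFunc C) K]
  [IsScalarTower C (RatFunc C) K] [FiniteDimensional (RatFunc C) K]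
  [Algebra.IsSeparable (RatFunc C) K] (S : SSK k C K)

/-- the orders at the directions of a vertex sum to zero -/
theorem exists_sum_ord {f : K} (hf : f ≠ 0) (v : S.V) : ∃ s : Finset S.Dir,
    (∀ d, d ∉ s → d.1 = v → ord S d f = 0) ∧ (∀ d ∈ s, d.1 = v) ∧ ∑ d ∈ s, ord S d f = 0 := by
  classical
  obtain ⟨i1, i2, i3, i4⟩ := S.ff v
  obtain ⟨D, hD, hs⟩ := RedD_310.sum_od (w := S.nm v) hf
  refine ⟨D.support.map ⟨Sigma.mk v, sigma_mk_injective⟩, ?_, ?_, ?_⟩
  · rintro ⟨v', x⟩ hd rfl
    by_contra hne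
    refine hd (Finset.mem_map.mpr ⟨x, ?_, rfl⟩)
    rw [Finsupp.mem_support_iff, hD]
    exact hne
  · intro d hd
    obtain ⟨x, -, rfl⟩ := Finset.mem_map.mp hd
    rfl
  · rw [Finset.sum_map]
    refine Eq.trans ?_ hs
    refine Finset.sum_congr rfl fun x _ => ?_
    exact (hD x).symm

/-- **Kirchhoff's law modulo `m`** -/
theorem dvd_bdry {m : ℕ} {f : K} (hf : f ≠ 0) (hx : ∃ x : Pl C K →₀ ℤ, divf (k := C) f = m • x)
    (v : S.V) : (m : ℤ) ∣ bdry S ℤ (fun e => ord S (S.e0 e) f) v := by
  classical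
  haveI := S.fEd
  obtain ⟨s, h1, h2, h3⟩ := exists_sum_ord S hf v
  obtain ⟨h4, h5⟩ := slopeDvd S m f hf hx
  let F : S.Dir → ℤ := fun d => if d.1 = v then ord S d f else 0
  let E : Finset S.Dir := Finset.univ.map ⟨Sum.elim S.e0 S.e1, S.ends_inj⟩
  have hF : ∀ d, d ∉ s → F d = 0 := by
    intro d hd
    by_cases hv : d.1 = v
    · simp only [F, if_pos hv]
      exact h1 d hd hv
    · simp only [F, if_neg hv]
  have h6 : ∑ d ∈ s, F d = 0 := by
    rw [← h3]
    refine Finset.sum_congr rfl fun d hd => ?_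
    simp only [F, if_pos (h2 d hd)]
  have h7 : ∑ d ∈ E, F d + ∑ d ∈ s \ E, F d = 0 := by
    have h8 : ∑ d ∈ E ∪ s, F d = ∑ d ∈ s, F d := by
      symm
      refine Finset.sum_subset Finset.subset_union_right fun d _ hd => hF d hd
    rw [← h6, ← h8, ← Finset.sum_sdiff (Finset.subset_union_left (s₁ := E) (s₂ := s)),
      Finset.union_sdiff_left]
    ring
  have h8 : (m : ℤ) ∣ ∑ d ∈ s \ E, F d := by
    refine Finset.dvd_sum fun d hd => ?_
    by_cases hv : d.1 = v
    · simp only [F, if_pos hv]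
      refine h4 d ⟨fun e he => ?_, fun e he => ?_⟩
      · exact (Finset.mem_sdiff.mp hd).2 (Finset.mem_map.mpr ⟨Sum.inl e, Finset.mem_univ _, he.symm⟩)
      · exact (Finset.mem_sdiff.mp hd).2 (Finset.mem_map.mpr ⟨Sum.inr e, Finset.mem_univ _, he.symm⟩)
    · simp only [F, if_neg hv]
      exact dvd_zero _
  have h9 : ∑ d ∈ E, F d = ∑ e, F (S.e0 e) + ∑ e, F (S.e1 e) := by
    rw [Finset.sum_map, Fintype.sum_sum_type]
    rfl
  have h10 : (m : ℤ) ∣ ∑ e, F (S.e0 e) + ∑ e, F (S.e1 e) := by
    rw [← h9]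
    have : ∑ d ∈ E, F d = -∑ d ∈ s \ E, F d := by linarith
    rw [this]
    exact (dvd_neg).mpr h8
  have h11 : (m : ℤ) ∣ ∑ e, F (S.e1 e) + ∑ e, (if (S.e1 e).1 = v then ord S (S.e0 e) f else 0) := by
    rw [← Finset.sum_add_distrib]
    refine Finset.dvd_sum fun e _ => ?_
    by_cases hv : (S.e1 e).1 = v
    · simp only [F, if_pos hv]
      rw [add_comm]
      exact h5 e
    · simp only [F, if_neg hv, add_zero]
      exact dvd_zero _
  rw [bdry_apply]
  have h12 : ∑ e, (if (S.e0 e).1 = v then ord S (S.e0 e) f else 0) -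
      ∑ e, (if (S.e1 e).1 = v then ord S (S.e0 e) f else 0) =
      (∑ e, F (S.e0 e) + ∑ e, F (S.e1 e)) -
      (∑ e, F (S.e1 e) + ∑ e, (if (S.e1 e).1 = v then ord S (S.e0 e) f else 0)) := by
    ring
  rw [h12]
  exact dvd_sub h10 h11

variable {p : ℕ} [hp : Fact p.Prime]

/-- slopes are harmonic -/
theorem bdry_sl (u : Tate p (Pic C K)) : bdry S ℤ_[p] (sl S p u) = 0 := by
  funext v
  rw [← ext_of_toZModPow]
  intro n
  obtain ⟨h, h0, hr⟩ := exists_repK (p := p) u n
  rw [bdry_map S (toZModPow n)]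
  have h1 : (fun e => toZModPow n (sl S p u e)) =
      fun e => (Int.castRingHom (ZMod (p ^ n))) (ord S (S.e0 e) h) := by
    funext e
    exact sl_spec S h0 hr e
  rw [h1, ← bdry_map S (Int.castRingHom (ZMod (p ^ n)))]
  obtain ⟨x, -, hx⟩ := hr
  have h2 := dvd_bdry S h0 ⟨x, hx⟩ v
  rw [Pi.zero_apply, map_zero]
  exact (ZMod.intCast_zmod_eq_zero_iff_dvd _ (p ^ n)).mpr h2

end kirchhoff

section lift

variable {C K : Type*} [Field C] [IsAlgClosed C] [CharZero C] [Field K] [Algebra C K]
  [Algebra (RatFunc C) K] [IsScalarTower C (RatFunc C) K] [FiniteDimensional (RatFunc C) K]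
  [Algebra.IsSeparable (RatFunc C) K] {p : ℕ} [hp : Fact p.Prime]

/-- torsion classes lift to the Tate module -/
theorem exists_tate {n : ℕ} (z : Pic C K) (hz : (p ^ n) • z = 0) :
    ∃ u : Tate p (Pic C K), u n = z := by
  have hdeg : degPic z = 0 := by
    have h1 := congrArg degPic hz
    rw [map_nsmul, map_zero] at h1
    simpa [hp.out.ne_zero] using h1
  let A := (degPic (k := C) (K := K)).ker
  have hdiv : ∀ x : A, ∃ y : A, p • y = x := by
    rintro ⟨x, hx⟩
    obtain ⟨D, rfl⟩ := cls_surjective x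
    have hD : degD D = 0 := hx
    obtain ⟨E, f, hf, hE, h1⟩ := Div6_280.exists_div hp.out.pos hD
    refine ⟨⟨cls E, hE⟩, ?_⟩
    apply Subtype.ext
    change p • cls E = cls D
    rw [h1, map_add, map_nsmul, cls_divf hf, add_zero]
  obtain ⟨u, hu⟩ := Tate.exists_lift (p := p) hdiv (n := n) (⟨z, hdeg⟩ : A)
    (Subtype.ext hz)
  refine ⟨Tate.map A.subtype u, ?_⟩
  rw [Tate.map_apply, hu]
  rfl

end lift

section onto

variable {k : Type*} [NontriviallyNormedField k] [CompleteSpace k] [IsUltrametricDist k]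
variable {C : Type*} [NormedField C] [IsUltrametricDist C] [NormedAlgebra k C]
  [Algebra.IsAlgebraic k C] [IsAlgClosed C] [CharZero C] [hk : Fact (DiscNorm k)]
variable {K : Type*} [Field K] [Algebra C K] [Algebra (RatFunc C) K]
  [IsScalarTower C (RatFunc C) K] [FiniteDimensional (RatFunc C) K]
  [Algebra.IsSeparable (RatFunc C) K] (S : SSK k C K) {p : ℕ} [hp : Fact p.Prime]

/-- **The slopes are onto**, from the statement modulo `p`. -/
theorem onto_of_mod (h : ∀ lam : S.Ed → ZMod p, bdry S (ZMod p) lam = 0 →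
      ∃ f : K, f ≠ 0 ∧ (∃ x : Pl C K →₀ ℤ, divf (k := C) f = p • x) ∧
        ∀ e, ((ord S (S.e0 e) f : ℤ) : ZMod p) = lam e)
    (lam : S.Ed → ℤ_[p]) (hl : bdry S ℤ_[p] lam = 0) :
    ∃ u : Tate p (Pic C K), sl S p u = lam := by
  haveI := S.fEd
  suffices hle : LinearMap.ker (bdry S ℤ_[p]) ≤ LinearMap.range (sl S p) from
    hle (LinearMap.mem_ker.mpr hl)
  have hN : IsNoetherian ℤ_[p] (S.Ed → ℤ_[p]) := isNoetherian_of_isNoetherianRing_of_finite _ _
  refine Submodule.le_of_le_smul_of_le_jacobson_bot (I := Ideal.span {(p : ℤ_[p])})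
    (hN.noetherian _) ?_ ?_
  · rw [IsLocalRing.jacobson_eq_maximalIdeal _ bot_ne_top, PadicInt.maximalIdeal_eq_span_p]
  · intro a ha
    rw [LinearMap.mem_ker] at ha
    have h1 : bdry S (ZMod p) (fun e => toZMod (a e)) = 0 := by
      funext v
      rw [← bdry_map S (toZMod (p := p)), ha, Pi.zero_apply, map_zero, Pi.zero_apply]
    obtain ⟨f, hf, ⟨x, hx⟩, hfe⟩ := h _ h1
    have hz : (p ^ 1) • cls x = 0 := by
      rw [pow_one, ← map_nsmul, ← hx]
      exact cls_divf hf
    obtain ⟨u, hu⟩ := exists_tate (p := p) (cls x) hz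
    have hrep : RepK p 1 (u 1) f := ⟨x, hu.symm, by rw [pow_one]; exact hx⟩
    have h2 : ∀ e, ∃ b : ℤ_[p], a e - sl S p u e = p * b := by
      intro e
      have h3 : a e - sl S p u e ∈ RingHom.ker (toZModPow (p := p) 1) := by
        have h4 := sl_spec S hf hrep e
        rw [RingHom.mem_ker, map_sub, h4, sub_eq_zero]
        have h5 := hfe e
        have h6 : ∃ b : ℤ_[p], a e - ((ord S (S.e0 e) f : ℤ) : ℤ_[p]) = p * b := by
          have h7 : a e - ((ord S (S.e0 e) f : ℤ) : ℤ_[p]) ∈ RingHom.ker (toZMod (p := p)) := by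
            rw [RingHom.mem_ker, map_sub, map_intCast, h5, sub_self]
          rw [PadicInt.ker_toZMod, PadicInt.maximalIdeal_eq_span_p] at h7
          exact Ideal.mem_span_singleton.mp h7
        obtain ⟨b, hb⟩ := h6
        have h8 : a e = ((ord S (S.e0 e) f : ℤ) : ℤ_[p]) + p * b := by rw [← hb]; ring
        rw [h8, map_add, map_mul, map_intCast, map_natCast]
        have h9 : ((p : ℕ) : ZMod (p ^ 1)) = 0 := by
          rw [ZMod.natCast_eq_zero_iff, pow_one]
        rw [h9, zero_mul, add_zero]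
      rw [PadicInt.ker_toZModPow, pow_one] at h3
      exact Ideal.mem_span_singleton.mp h3
    choose b hb using h2
    have h3 : a = sl S p u + (p : ℤ_[p]) • b := by
      funext i
      simp only [Pi.add_apply, Pi.smul_apply, smul_eq_mul, ← hb]
      ring
    have h4 : bdry S ℤ_[p] b = 0 := by
      have h5 := congrArg (bdry S ℤ_[p]) h3
      rw [ha, map_add, bdry_sl, zero_add, map_smul] at h5
      funext v
      have h6 := congrFun h5.symm v
      rw [Pi.smul_apply, smul_eq_mul, Pi.zero_apply] at h6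
      rcases mul_eq_zero.mp h6 with h7 | h7
      · exact absurd h7 (by exact_mod_cast hp.out.ne_zero)
      · exact h7
    rw [h3]
    refine Submodule.add_mem_sup (LinearMap.mem_range_self _ u) ?_
    exact Submodule.smul_mem_smul (Ideal.mem_span_singleton_self _) (LinearMap.mem_ker.mpr h4)

/-- the same over `ℚ_p`: the form used in `TPS.exists_forms` -/
theorem onto_of_mod' (h : ∀ lam : S.Ed → ZMod p, bdry S (ZMod p) lam = 0 →
      ∃ f : K, f ≠ 0 ∧ (∃ x : Pl C K →₀ ℤ, divf (k := C) f = p • x) ∧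
        ∀ e, ((ord S (S.e0 e) f : ℤ) : ZMod p) = lam e)
    (lam : S.Ed → ℤ_[p]) (hl : bdry S ℚ_[p] (fun e => ((lam e : ℤ_[p]) : ℚ_[p])) = 0) :
    ∃ u : Tate p (Pic C K), sl S p u = lam := by
  refine onto_of_mod S h lam ?_
  funext v
  apply PadicInt.ext
  have h1 := bdry_map S (PadicInt.Coe.ringHom (p := p)) lam v
  have h2 := congrFun hl v
  exact h1.trans h2

end onto

end Crest.Agent.R013.Fin_928
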