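import Mathlib
import Crest.Agent.R013.TP18_928
import Crest.Agent.R013.Slo2_671

/-!
# Row 13, C-SLOPES (helper770 for 671): divisors and cells of a semistable structure

* `cellD : Pl C K → Dir ⊕ Ed`, `cellV : Pl C K → V ⊕ Ed` : the cell of a place;
* `cdeg_disc`, `cdeg_ann` : the degree of `div f` on a disc / an annulus;
* `kirch` : Kirchhoff's law at a vertex.
-/

set_option autoImplicit false
set_option linter.all false

namespace Crest.Agent.R013.SlI_770

open scoped NNReal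
open WithZero Module
open Crest.Agent.R013.Cell_408 (DiscNorm)
open Crest.Agent.R013.RR7_948 Crest.Agent.R013.RR8_948 Crest.Agent.R013.RR9_948
open Crest.Agent.R013.RR11_948 Crest.Agent.R013.PicD_398
open Crest.Agent.R013.Red332 Crest.Agent.R013.SSK_332 Crest.Agent.R013.TP_928
open Crest.Agent.R013.Slo2_671 Crest.Agent.R013.Fin_928

variable {k : Type*} [NontriviallyNormedField k] [CompleteSpace k] [IsUltrametricDist k]
variable {C : Type*} [NormedField C] [IsUltrametricDist C] [NormedAlgebra k C]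
  [Algebra.IsAlgebraic k C] [IsAlgClosed C] [hk : Fact (DiscNorm k)]
variable {K : Type*} [Field K] [Algebra C K]

section cell

variable (S : SSK k C K)

theorem exists_cellD (P : Pl C K) : ∃ c : S.Dir ⊕ S.Ed,
    (∀ d h0 h1 τ hτ, P = S.ptD d h0 h1 τ hτ → c = Sum.inl d) ∧
    ∀ e τ h0 h1, P = S.ptA e τ h0 h1 → c = Sum.inr e := by
  rcases S.pt_surj P with ⟨d, h0, h1, τ, hτ, h⟩ | ⟨e, τ, h0, h1, h⟩
  · refine ⟨Sum.inl d, fun d' h0' h1' τ' hτ' h' => ?_, fun e τ' h0' h1' h' => ?_⟩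
    · rw [(S.ptD_inj _ _ _ _ _ _ _ _ _ _ (h.symm.trans h')).1]
    · exact absurd (h.symm.trans h') (S.ptDA _ _ _ _ _ _ _ _ _)
  · refine ⟨Sum.inr e, fun d' h0' h1' τ' hτ' h' => ?_, fun e' τ' h0' h1' h' => ?_⟩
    · exact absurd (h'.symm.trans h) (S.ptDA _ _ _ _ _ _ _ _ _)
    · rw [(S.ptA_inj _ _ _ _ _ _ _ _ (h.symm.trans h')).1]

/-- the cell of a place -/
noncomputable def cellD (P : Pl C K) : S.Dir ⊕ S.Ed := (exists_cellD S P).choose

theorem cellD_ptD (d h0 h1 τ hτ) : cellD S (S.ptD d h0 h1 τ hτ) = Sum.inl d :=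
  (exists_cellD S _).choose_spec.1 _ _ _ _ _ rfl

theorem cellD_ptA (e τ h0 h1) : cellD S (S.ptA e τ h0 h1) = Sum.inr e :=
  (exists_cellD S _).choose_spec.2 _ _ _ _ rfl

theorem of_cellD_inl {P : Pl C K} {d : S.Dir} (h : cellD S P = Sum.inl d) :
    ∃ h0 h1 τ hτ, P = S.ptD d h0 h1 τ hτ := by
  rcases S.pt_surj P with ⟨d', h0, h1, τ, hτ, rfl⟩ | ⟨e, τ, h0, h1, rfl⟩
  · rw [cellD_ptD] at h
    obtain rfl := Sum.inl_injective h
    exact ⟨h0, h1, τ, hτ, rfl⟩
  · rw [cellD_ptA] at h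
    exact absurd h (by simp)

theorem of_cellD_inr {P : Pl C K} {e : S.Ed} (h : cellD S P = Sum.inr e) :
    ∃ τ h0 h1, P = S.ptA e τ h0 h1 := by
  rcases S.pt_surj P with ⟨d', h0, h1, τ, hτ, rfl⟩ | ⟨e', τ, h0, h1, rfl⟩
  · rw [cellD_ptD] at h
    exact absurd h (by simp)
  · rw [cellD_ptA] at h
    obtain rfl := Sum.inr_injective h
    exact ⟨τ, h0, h1, rfl⟩

/-- the vertex or edge of a place -/
noncomputable def cellV (P : Pl C K) : S.V ⊕ S.Ed := Sum.map Sigma.fst id (cellD S P)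

theorem cellV_ptD (d h0 h1 τ hτ) : cellV S (S.ptD d h0 h1 τ hτ) = Sum.inl d.1 := by
  rw [cellV, cellD_ptD]; rfl

theorem cellV_ptA (e τ h0 h1) : cellV S (S.ptA e τ h0 h1) = Sum.inr e := by
  rw [cellV, cellD_ptA]; rfl

end cell

variable [Algebra (RatFunc C) K] [IsScalarTower C (RatFunc C) K]
  [FiniteDimensional (RatFunc C) K] [Algebra.IsSeparable (RatFunc C) K] (S : SSK k C K)

theorem cdeg_filter {X : Type*} [DecidableEq X] (cell : Pl C K → X) (x : X) (D : Pl C K →₀ ℤ) :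
    cdeg cell x D = ∑ P ∈ D.support with cell P = x, D P := by
  rw [cdeg_apply, Finsupp.sum, Finset.sum_filter]

/-- the degree of `div f` on a disc -/
theorem cdeg_disc [DecidableEq (S.Dir ⊕ S.Ed)] {f : K} (hf : f ≠ 0) {d : S.Dir} (hd : S.IsDisc d) :
    cdeg (cellD S) (Sum.inl d) (divf (k := C) f) = ord S d f := by
  obtain ⟨m, hm, hm', hs⟩ := RedD_310.slope_fD S d hd.1 hd.2 hf
  have h1 : ord S d f = m.sum fun _ n => n := by
    rw [hs, S.em_od d f hf]; rfl
  rw [h1, cdeg_filter, Finsupp.sum]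
  symm
  refine Finset.sum_bij (fun τ hτ => S.ptD d hd.1 hd.2 τ (hm τ (Finsupp.mem_support_iff.1 hτ)))
    ?_ ?_ ?_ ?_
  · intro τ hτ
    rw [Finset.mem_filter, Finsupp.mem_support_iff, ← hm']
    exact ⟨Finsupp.mem_support_iff.1 hτ, cellD_ptD S _ _ _ _ _⟩
  · intro τ hτ τ' hτ' h
    exact (S.ptD_inj _ _ _ _ _ _ _ _ _ _ h).2
  · intro P hP
    rw [Finset.mem_filter, Finsupp.mem_support_iff] at hP
    obtain ⟨h0, h1, τ, hτ, rfl⟩ := of_cellD_inl S hP.2
    refine ⟨τ, ?_, rfl⟩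
    rw [Finsupp.mem_support_iff, hm' τ hτ]
    exact hP.1
  · intro τ hτ
    exact hm' _ _

theorem cdeg_not_disc [DecidableEq (S.Dir ⊕ S.Ed)] (D : Pl C K →₀ ℤ) {d : S.Dir} (hd : ¬ S.IsDisc d) :
    cdeg (cellD S) (Sum.inl d) D = 0 := by
  rw [cdeg_filter]
  refine Finset.sum_eq_zero fun P hP => ?_
  obtain ⟨h0, h1, τ, hτ, rfl⟩ := of_cellD_inl S (Finset.mem_filter.1 hP).2
  exact absurd ⟨h0, h1⟩ hd

/-- the degree of `div f` on an annulus -/
theorem cdeg_ann [DecidableEq (S.Dir ⊕ S.Ed)] {f : K} (hf : f ≠ 0) (e : S.Ed) :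
    cdeg (cellD S) (Sum.inr e) (divf (k := C) f) = ord S (S.e0 e) f + ord S (S.e1 e) f := by
  obtain ⟨m, hm, hm', hs⟩ := RedD_310.slope_fA S e hf
  have h1 : ord S (S.e0 e) f + ord S (S.e1 e) f = m.sum fun _ n => n := by
    rw [hs, S.em_od _ f hf, S.em_od _ f hf]; rfl
  rw [h1, cdeg_filter, Finsupp.sum]
  symm
  refine Finset.sum_bij (fun τ hτ => S.ptA e τ (hm τ (Finsupp.mem_support_iff.1 hτ)).1
    (hm τ (Finsupp.mem_support_iff.1 hτ)).2) ?_ ?_ ?_ ?_
  · intro τ hτ
    rw [Finset.mem_filter, Finsupp.mem_support_iff, ← hm']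
    exact ⟨Finsupp.mem_support_iff.1 hτ, cellD_ptA S _ _ _ _⟩
  · intro τ hτ τ' hτ' h
    exact (S.ptA_inj _ _ _ _ _ _ _ _ h).2
  · intro P hP
    rw [Finset.mem_filter, Finsupp.mem_support_iff] at hP
    obtain ⟨τ, h0, h1, rfl⟩ := of_cellD_inr S hP.2
    refine ⟨τ, ?_, rfl⟩
    rw [Finsupp.mem_support_iff, hm' τ h0 h1]
    exact hP.1
  · intro τ hτ
    exact hm' _ _ _

theorem cdeg_comp {X Y : Type*} [DecidableEq Y] (cell : Pl C K → X) (g : X → Y) (y : Y) (D : Pl C K →₀ ℤ) :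
    cdeg (fun P => g (cell P)) y D =
      (D.mapDomain cell).sum fun x n => if g x = y then n else 0 := by
  rw [Finsupp.sum_mapDomain_index]
  · rfl
  · intro b; simp
  · intro b m n; split_ifs <;> simp

theorem mapDomain_cdeg {X : Type*} [DecidableEq X] (cell : Pl C K → X) (x : X) (D : Pl C K →₀ ℤ) :
    (D.mapDomain cell) x = cdeg cell x D := by
  rw [Finsupp.mapDomain, Finsupp.sum_apply, cdeg_apply]
  refine Finsupp.sum_congr fun P _ => ?_
  rw [Finsupp.single_apply]

/-- **Kirchhoff's law** at a vertex -/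
theorem kirch [Fintype S.Ed] [DecidableEq S.V] [DecidableEq (S.V ⊕ S.Ed)] {f : K} (hf : f ≠ 0) (v : S.V) :
    cdeg (cellV S) (Sum.inl v) (divf (k := C) f) +
      ∑ e with (S.e0 e).1 = v, ord S (S.e0 e) f + ∑ e with (S.e1 e).1 = v, ord S (S.e1 e) f = 0 := by
  classical
  obtain ⟨s, h1, h2, h3⟩ := exists_sum_ord S hf v
  let g : S.Dir ⊕ S.Ed → S.V ⊕ S.Ed := Sum.map Sigma.fst id
  have hgl : ∀ d : S.Dir, g (Sum.inl d) = Sum.inl d.1 := fun d => rfl
  have hgr : ∀ e : S.Ed, g (Sum.inr e) = Sum.inr e := fun d => rfl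
  let F : S.Dir ⊕ S.Ed →₀ ℤ := (divf (k := C) f).mapDomain (cellD S)
  let Φ : (S.Dir ⊕ S.Ed →₀ ℤ) →+ ℤ :=
    { toFun := fun G => G.sum fun x (n : ℤ) => if g x = Sum.inl v then n else 0
      map_zero' := by simp
      map_add' := fun G G' => by
        rw [Finsupp.sum_add_index']
        · intro x; simp
        · intro x a b; split_ifs <;> simp }
  have hΦ : ∀ x n, Φ (Finsupp.single x n) = if g x = Sum.inl v then n else 0 := by
    intro x n
    change ((Finsupp.single x n).sum fun x (n : ℤ) => if g x = Sum.inl v then n else 0) = _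
    rw [Finsupp.sum_single_index]
    simp
  have hΦ0 : ∀ G : S.Dir ⊕ S.Ed →₀ ℤ, (∀ d : S.Dir, d.1 = v → G (Sum.inl d) = 0) → Φ G = 0 := by
    intro G hG
    change (G.sum fun x (n : ℤ) => if g x = Sum.inl v then n else 0) = 0
    refine Finset.sum_eq_zero fun x hx => ?_
    rcases x with d | e
    · by_cases hd : d.1 = v
      · simp only [hG d hd, ite_self]
      · exact if_neg fun h => hd (Sum.inl_injective h)
    · exact if_neg fun h => absurd h (by rw [hgr]; exact Sum.inr_ne_inl)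
  have hsingle : ∀ (a b : S.Dir) (n : ℤ),
      (Finsupp.single (Sum.inl a : S.Dir ⊕ S.Ed) n) (Sum.inl b) = if a = b then n else 0 := by
    intro a b n
    by_cases h : a = b
    · rw [h, Finsupp.single_eq_same, if_pos rfl]
    · rw [Finsupp.single_eq_of_ne' (fun h' => h (Sum.inl_injective h')), if_neg h]
  let H : S.Dir ⊕ S.Ed →₀ ℤ := ∑ d ∈ s, Finsupp.single (Sum.inl d) (ord S d f) -
    ∑ e, Finsupp.single (Sum.inl (S.e0 e)) (ord S (S.e0 e) f) -
    ∑ e, Finsupp.single (Sum.inl (S.e1 e)) (ord S (S.e1 e) f)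
  have hH : Φ H = -∑ e with (S.e0 e).1 = v, ord S (S.e0 e) f -
      ∑ e with (S.e1 e).1 = v, ord S (S.e1 e) f := by
    simp only [H]
    rw [map_sub, map_sub, map_sum, map_sum, map_sum]
    simp only [hΦ]
    have h4 : ∑ d ∈ s, (if g (Sum.inl d) = Sum.inl v then ord S d f else 0) = 0 := by
      rw [← h3]
      refine Finset.sum_congr rfl fun d hd => if_pos ?_
      rw [hgl, h2 d hd]
    rw [h4, Finset.sum_filter, Finset.sum_filter, zero_sub]
    congr 1
    · congr 1
      refine Finset.sum_congr rfl fun e _ => ?_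
      simp only [hgl, Sum.inl.injEq]
    · refine Finset.sum_congr rfl fun e _ => ?_
      simp only [hgl, Sum.inl.injEq]
  have hFH : Φ (F - H) = 0 := by
    refine hΦ0 _ fun d hd => ?_
    rw [Finsupp.sub_apply]
    simp only [F, H, Finsupp.sub_apply, Finsupp.finset_sum_apply, hsingle, mapDomain_cdeg]
    have h5 : ∑ d' ∈ s, (if d' = d then ord S d' f else 0) = ord S d f := by
      rw [Finset.sum_ite_eq']
      split_ifs with h
      · rfl
      · exact (h1 d h hd).symm
    rw [h5]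
    have hinj := S.ends_inj
    have h01 : ∀ e e' : S.Ed, S.e0 e ≠ S.e1 e' := fun e e' h =>
      absurd (hinj (a₁ := Sum.inl e) (a₂ := Sum.inr e') h) Sum.inl_ne_inr
    by_cases hdisc : S.IsDisc d
    · rw [cdeg_disc S hf hdisc]
      have h6 : ∑ e, (if S.e0 e = d then ord S (S.e0 e) f else 0) = 0 :=
        Finset.sum_eq_zero fun e _ => if_neg fun h => hdisc.1 e h.symm
      have h7 : ∑ e, (if S.e1 e = d then ord S (S.e1 e) f else 0) = 0 :=
        Finset.sum_eq_zero fun e _ => if_neg fun h => hdisc.2 e h.symm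
      rw [h6, h7]
      ring
    · rw [cdeg_not_disc S _ hdisc]
      have h8 : (∃ e, S.e0 e = d) ∨ ∃ e, S.e1 e = d := by
        by_contra hcon
        push Not at hcon
        exact hdisc ⟨fun e h => hcon.1 e h.symm, fun e h => hcon.2 e h.symm⟩
      rcases h8 with ⟨e, rfl⟩ | ⟨e, rfl⟩
      · have h6 : ∑ e', (if S.e0 e' = S.e0 e then ord S (S.e0 e') f else 0) =
            ord S (S.e0 e) f := by
          rw [Finset.sum_eq_single e]
          · rw [if_pos rfl]
          · intro e' _ hne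
            refine if_neg fun h => hne ?_
            exact Sum.inl_injective (hinj (a₁ := Sum.inl e') (a₂ := Sum.inl e) h)
          · intro h; exact absurd (Finset.mem_univ _) h
        have h7 : ∑ e', (if S.e1 e' = S.e0 e then ord S (S.e1 e') f else 0) = 0 :=
          Finset.sum_eq_zero fun e' _ => if_neg fun h => h01 _ _ h.symm
        rw [h6, h7]
        ring
      · have h6 : ∑ e', (if S.e0 e' = S.e1 e then ord S (S.e0 e') f else 0) = 0 :=
          Finset.sum_eq_zero fun e' _ => if_neg fun h => h01 _ _ h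
        have h7 : ∑ e', (if S.e1 e' = S.e1 e then ord S (S.e1 e') f else 0) =
            ord S (S.e1 e) f := by
          rw [Finset.sum_eq_single e]
          · rw [if_pos rfl]
          · intro e' _ hne
            refine if_neg fun h => hne ?_
            exact Sum.inr_injective (hinj (a₁ := Sum.inr e') (a₂ := Sum.inr e) h)
          · intro h; exact absurd (Finset.mem_univ _) h
        rw [h6, h7]
        ring
  have h9 : cdeg (cellV S) (Sum.inl v) (divf (k := C) f) = Φ F := cdeg_comp (cellD S) g _ _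
  rw [map_sub, hH] at hFH
  rw [h9]
  linarith

/-- the degree of `div f` on an annulus, with `cellV` -/
theorem cdegV_ann [DecidableEq (S.V ⊕ S.Ed)] {f : K} (hf : f ≠ 0) (e : S.Ed) :
    cdeg (cellV S) (Sum.inr e) (divf (k := C) f) = ord S (S.e0 e) f + ord S (S.e1 e) f := by
  classical
  rw [← cdeg_ann S hf e, cdeg_filter, cdeg_filter]
  refine Finset.sum_congr ?_ fun _ _ => rfl
  ext P
  rw [Finset.mem_filter, Finset.mem_filter, cellV]
  refine and_congr_right fun _ => ?_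
  rcases cellD S P with d | e' <;> simp

end Crest.Agent.R013.SlI_770
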