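import Mathlib
import Crest.Agent.R013.SlI1_770
import Crest.Agent.R013.Inh12_770
import Crest.Agent.R013.GR2_921
import Crest.Agent.R013.Conn4_315

/-!
# Row 13, C-SLOPES (helper770 for 671), (D1): the slope formula over the inherited structure
-/

set_option autoImplicit false
set_option linter.all false

namespace Crest.Agent.R013.SlI_770

open scoped NNReal
open WithZero Module
open Crest.Agent.R013.Cell_408 (DiscNorm)
open Crest.Agent.R013.RR7_948 Crest.Agent.R013.RR8_948 Crest.Agent.R013.RR9_948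
open Crest.Agent.R013.RR11_948 Crest.Agent.R013.PicD_398
open Crest.Agent.R013.RR12_948 Crest.Agent.R013.RR18_948 Crest.Agent.R013.RR19_948
open Crest.Agent.R013.Red332 Crest.Agent.R013.SSK_332 Crest.Agent.R013.TP_928
open Crest.Agent.R013.Slo2_671 Crest.Agent.R013.Fin_928 Crest.Agent.R013.Inh_770

variable {k : Type*} [NontriviallyNormedField k] [CompleteSpace k] [IsUltrametricDist k]
variable {C : Type*} [NormedField C] [IsUltrametricDist C] [NormedAlgebra k C]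
  [Algebra.IsAlgebraic k C] [IsAlgClosed C] [hk : Fact (DiscNorm k)]
variable {K : Type*} [Field K] [Algebra C K]

/-- every vertex has a disc direction -/
theorem exists_disc (S : SSK k C K) (v : S.V) : ∃ d : S.Dir, d.1 = v ∧ S.IsDisc d := by
  classical
  obtain ⟨i, h1, h2, h3⟩ := S.ff v
  letI := i
  haveI := h1
  haveI := h2
  haveI := h3
  haveI := S.fEd
  let T : Finset (Pl (Ct C) (kap (S.nm v))) :=
    ((Finset.univ.image S.e0 ∪ Finset.univ.image S.e1)).preimage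
      (fun x => (⟨v, x⟩ : S.Dir)) (fun x _ y _ h => eq_of_heq (Sigma.mk.inj h).2)
  obtain ⟨x, hx⟩ := RR12_948.exists_notMem T
  refine ⟨⟨v, x⟩, rfl, fun e he => hx ?_, fun e he => hx ?_⟩
  · exact Finset.mem_preimage.2 (Finset.mem_union.2
      (Or.inl (Finset.mem_image.2 ⟨e, Finset.mem_univ _, he.symm⟩)))
  · exact Finset.mem_preimage.2 (Finset.mem_union.2
      (Or.inr (Finset.mem_image.2 ⟨e, Finset.mem_univ _, he.symm⟩)))

variable {M : Type*} [Field M] [Algebra C M] [Algebra K M] [IsScalarTower C K M]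
  [FiniteDimensional K M] [IsGalois K M]
variable [Algebra (RatFunc C) K] [IsScalarTower C (RatFunc C) K]
  [FiniteDimensional (RatFunc C) K] [Algebra.IsSeparable (RatFunc C) K]
variable {S : SSK k C K} (P : Spl S M)

include P in
/-- the places of `M` restrict to normalised places of `K` -/
theorem exists_restrict (Q : Pl C M) : ∃ P₀ : Pl C K, ∀ f : K, Q.v (algebraMap K M f) = P₀.v f := by
  rcases (P.SL P.ffL).pt_surj Q with ⟨y, h0, h1, τ, hτ, rfl⟩ | ⟨e, τ, h0, h1, rfl⟩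
  · exact ⟨_, P.ptD_K P.ffL y h0 h1 τ hτ⟩
  · exact ⟨_, P.ptA_K P.ffL e τ h0 h1⟩

include P in
theorem eR_eq_one (Q : Pl C M) : eR K Q = 1 := by
  obtain ⟨P₀, hP⟩ := exists_restrict P Q
  obtain ⟨t, ht⟩ := P₀.surj (exp (-1))
  have h1 := v_algebraMap (K := K) Q t
  rw [hP, ht] at h1
  have ht0 : (RR18_948.under K Q).v t ≠ 0 := by
    intro h0
    rw [h0, zero_pow (by have := eR_pos (K := K) Q; omega)] at h1
    exact exp_ne_zero h1
  rw [← exp_log ht0, ← exp_nsmul, exp_inj, nsmul_eq_mul] at h1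
  have h2 : ((eR K Q : ℕ) : ℤ) ∣ 1 := ⟨-log ((RR18_948.under K Q).v t), by linarith⟩
  have h3 : (eR K Q) ∣ 1 := by exact_mod_cast h2
  exact Nat.dvd_one.1 h3

/-- the action on the vertices -/
noncomputable def aV (a : M ≃ₐ[K] M) (w : P.inh.V) : P.inh.V := (P.exists_act_V P.ffL a w).choose

theorem aV_vK (a : M ≃ₐ[K] M) (w : P.inh.V) : P.vK P.ffL (aV P a w) = P.vK P.ffL w :=
  (P.exists_act_V P.ffL a w).choose_spec.1

theorem aV_nm (a : M ≃ₐ[K] M) (w : P.inh.V) (f : M) :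
    (P.inh.nm (aV P a w)).v (a f) = (P.inh.nm w).v f :=
  (P.exists_act_V P.ffL a w).choose_spec.2 f

theorem eq_aV {a : M ≃ₐ[K] M} {w w' : P.inh.V}
    (h : ∀ f, (P.inh.nm w').v (a f) = (P.inh.nm w).v f) : w' = aV P a w := by
  apply P.inh.nm_inj
  apply Nm.ext'
  intro f
  have h1 := h (a.symm f)
  have h2 := aV_nm P a w (a.symm f)
  rw [AlgEquiv.apply_symm_apply] at h1 h2
  rw [h1, h2]

/-- the action on the edges -/
noncomputable def aE (a : M ≃ₐ[K] M) (e : P.inh.Ed) : P.inh.Ed := (P.actE P.ffL).toSMul.smul a e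

theorem edE_aE (a : M ≃ₐ[K] M) (e : P.inh.Ed) :
    P.edE P.ffL (aE P a e) = ((P.edE P.ffL e).1, (P.edE P.ffL e).2 * a⁻¹) := P.edE_act P.ffL a e

/-- the action on the places of the discs -/
theorem act_plD (d : S.Dir) (hd : S.IsDisc d) (σ a : M ≃ₐ[K] M) (τ : C) (hτ : ‖τ‖ < 1) :
    act a (P.plD d hd σ τ hτ) = P.plD d hd (σ * a⁻¹) τ hτ := by
  apply Pl.ext
  ext f
  rfl

theorem act_plA (e : S.Ed) (σ a : M ≃ₐ[K] M) (τ : C) (h0 : ‖S.cc e‖ < ‖τ‖) (h1 : ‖τ‖ < 1) :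
    act a (P.plA e σ τ h0 h1) = P.plA e (σ * a⁻¹) τ h0 h1 := by
  apply Pl.ext
  ext f
  rfl

theorem cellV_plD (d : S.Dir) (hd : S.IsDisc d) (σ : M ≃ₐ[K] M) (τ : C) (hτ : ‖τ‖ < 1) :
    cellV P.inh (P.plD d hd σ τ hτ) = Sum.inl ((P.dirE P.ffL).symm (d, σ)).1 := by
  have h2 : S.IsDisc (P.eD (P.eD.symm (d, σ))).1 := by
    rw [Equiv.apply_symm_apply]; exact hd
  obtain ⟨h3, h4⟩ := P.not_end_of h2
  have h5 : P.plD d hd σ τ hτ = P.inh.ptD (P.eD.symm (d, σ)) h3 h4 τ hτ :=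
    P.plD_congr (q := (d, σ)) (Equiv.apply_symm_apply _ _).symm hd h2 τ hτ
  exact (congrArg (cellV P.inh) h5).trans (cellV_ptD _ _ _ _ _ _)

theorem cellV_plA (e : S.Ed) (σ : M ≃ₐ[K] M) (τ : C) (h0 : ‖S.cc e‖ < ‖τ‖) (h1 : ‖τ‖ < 1) :
    cellV P.inh (P.plA e σ τ h0 h1) = Sum.inr ((P.edE P.ffL).symm (e, σ)) := by
  have h2 : Spl.eE S M ((Spl.eE S M).symm (e, σ)) = (e, σ) := Equiv.apply_symm_apply _ _
  have h3 : ‖S.cc (Spl.eE S M ((Spl.eE S M).symm (e, σ))).1‖ < ‖τ‖ := by rw [h2]; exact h0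
  have h5 : P.plA e σ τ h0 h1 = P.inh.ptA ((Spl.eE S M).symm (e, σ)) τ h3 h1 :=
    P.plA_congr (q := (e, σ)) h2.symm τ h0 h3 h1
  exact (congrArg (cellV P.inh) h5).trans (cellV_ptA _ _ _ _ _)

theorem aV_dirE (a : M ≃ₐ[K] M) (d : S.Dir) (σ : M ≃ₐ[K] M) :
    ((P.dirE P.ffL).symm (d, σ * a⁻¹)).1 = aV P a ((P.dirE P.ffL).symm (d, σ)).1 := by
  apply eq_aV
  intro f
  have h1 := (P.eD_rel ((P.dirE P.ffL).symm (d, σ))).nm f
  have h2 := (P.eD_rel ((P.dirE P.ffL).symm (d, σ * a⁻¹))).nm (a f)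
  have e1 : P.eD ((P.dirE P.ffL).symm (d, σ)) = (d, σ) := Equiv.apply_symm_apply _ _
  have e2 : P.eD ((P.dirE P.ffL).symm (d, σ * a⁻¹)) = (d, σ * a⁻¹) := Equiv.apply_symm_apply _ _
  rw [e1] at h1
  rw [e2] at h2
  have h3 : (σ * a⁻¹) (a f) = σ f := by
    change σ (a.symm (a f)) = σ f
    rw [AlgEquiv.symm_apply_apply]
  have h4 : (P.nmL ((P.dirE P.ffL).symm (d, σ * a⁻¹)).1).v (a f) =
      (P.nmL ((P.dirE P.ffL).symm (d, σ)).1).v f := by
    rw [h1, h2]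
    exact congrArg (fun z => gnV (P.ps d z)) h3
  exact h4

/-- the cell of a conjugate place -/
theorem cellV_act (a : M ≃ₐ[K] M) (Q : Pl C M) :
    cellV P.inh (act a Q) = Sum.map (aV P a) (aE P a) (cellV P.inh Q) := by
  rcases P.pl_surj Q with ⟨d, hd, σ, τ, hτ, rfl⟩ | ⟨e, σ, τ, h0, h1, rfl⟩
  · rw [act_plD, cellV_plD, cellV_plD]
    exact congrArg Sum.inl (aV_dirE P a d σ)
  · rw [act_plA, cellV_plA, cellV_plA]
    refine congrArg Sum.inr ?_
    have h2 := edE_aE P a ((P.edE P.ffL).symm (e, σ))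
    have h3 : P.edE P.ffL ((P.edE P.ffL).symm (e, σ)) = (e, σ) := Equiv.apply_symm_apply _ _
    rw [h3] at h2
    exact (Equiv.symm_apply_eq _).2 h2.symm

theorem nsmul_of_dvd {n : ℕ} {D : Pl C K →₀ ℤ} (h : ∀ P, (n : ℤ) ∣ D P) :
    ∃ x : Pl C K →₀ ℤ, D = n • x := by
  choose g hg using h
  rcases Nat.eq_zero_or_pos n with rfl | hn
  · refine ⟨0, ?_⟩
    ext P
    rw [hg P]; simp
  · have hgs : ∀ P, g P ≠ 0 → P ∈ D.support := by
      intro P hP
      rw [Finsupp.mem_support_iff, hg P]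
      exact mul_ne_zero (by exact_mod_cast hn.ne') hP
    refine ⟨Finsupp.onFinset D.support g hgs, ?_⟩
    ext P
    rw [hg P]
    simp

variable [CharZero C]

/-- **(D1) slopes from the inherited structure** -/
theorem exists_slope_inh {G : Type*} [AddCommGroup G] {n : ℕ} (hn0 : 0 < n)
    (hn : ∀ g : G, n • g = 0)
    (θ : P.inh.V → G) (φ : (M ≃ₐ[K] M) → G)
    (hθ : ∀ (a : M ≃ₐ[K] M) (w w' : P.inh.V),
      (∀ f, (P.inh.nm w').v (a f) = (P.inh.nm w).v f) → θ w' = θ w + φ a)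
    (δ : S.Ed → G)
    (hδ : ∀ e : P.inh.Ed, θ (P.inh.e1 e).1 = θ (P.inh.e0 e).1 + δ (P.edE P.ffL e).1)
    (a : M ≃ₐ[K] M) :
    ∃ h : K, h ≠ 0 ∧ (∃ x, divf (k := C) h = n • x) ∧
      (letI := S.fEd; ∑ e : S.Ed, ord S (S.e0 e) h • δ e = φ a) := by
  classical
  letI : Algebra (RatFunc C) M := ((algebraMap K M).comp (algebraMap (RatFunc C) K)).toAlgebra
  haveI : IsScalarTower (RatFunc C) K M := IsScalarTower.of_algebraMap_eq fun _ => rfl
  haveI : IsScalarTower C (RatFunc C) M := IsScalarTower.of_algebraMap_eq fun c => by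
    rw [IsScalarTower.algebraMap_apply (RatFunc C) K M, ← IsScalarTower.algebraMap_apply C _ K,
      ← IsScalarTower.algebraMap_apply]
  haveI : FiniteDimensional (RatFunc C) M := FiniteDimensional.trans (RatFunc C) K M
  haveI : Algebra.IsSeparable (RatFunc C) M := Algebra.IsSeparable.trans (RatFunc C) K M
  letI := S.fEd
  letI := P.inh.fEd
  letI := P.inh.fV
  obtain ⟨⟨v₀⟩, -⟩ := P.inh.conn
  obtain ⟨d₀, hd₀, hdd⟩ := exists_disc P.inh v₀
  have hτ0 : ‖(0 : C)‖ < 1 := by rw [norm_zero]; exact one_pos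
  obtain ⟨h, h0, h1, h2⟩ := Slo2_671.exists_slope (k := C) (K := K) (M := M) (VM := P.inh.V)
    (EM := P.inh.Ed) (E := S.Ed) (G := G) hn0 hn
    (fun D hD => by
      obtain ⟨E, f, hf, -, hE⟩ := Div6_280.exists_div (F := C) (K := M) hn0 hD
      exact ⟨E, f, hf, hE⟩)
    (fun Q => GR2_921.degP_eq_one Q)
    (fun Q => eR_eq_one P Q)
    (fun e => (P.inh.e0 e).1) (fun e => (P.inh.e1 e).1) (fun e => (P.edE P.ffL e).1)
    (aV P) (aE P)
    (fun σ τ e => (P.actE P.ffL).mul_smul σ τ e) (fun e => (P.actE P.ffL).one_smul e)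
    (fun e e' => ⟨fun h => P.act_orbit P.ffL e e' h, by
      rintro ⟨σ, rfl⟩
      rw [edE_aE]⟩)
    (fun σ e h => P.act_free P.ffL σ e h)
    (fun e => ⟨(P.edE P.ffL).symm (e, 1),
      congrArg Prod.fst (Equiv.apply_symm_apply (P.edE P.ffL) (e, 1))⟩)
    (cellV P.inh) (cellV_act P)
    (fun e f => ord P.inh (P.inh.e0 e) f) (fun e f => ord P.inh (P.inh.e1 e) f)
    (fun e f g hf hg => by
      unfold ord
      rw [← P.inh.em_od _ _ (mul_ne_zero hf hg), ← P.inh.em_od _ _ hf, ← P.inh.em_od _ _ hg,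
        map_mul, EE809.od_mul hk.out (by rwa [Ne, map_eq_zero]) (by rwa [Ne, map_eq_zero])])
    (fun σ e f hf => P.od_e0_act P.ffL σ e f hf)
    (fun f hf w => kirch P.inh hf w)
    (fun f hf e => (cdegV_ann P.inh hf e).symm)
    (fun e h => ord S (S.e0 e) h)
    (fun e h hh => by
      unfold ord
      have hh' : algebraMap K M h ≠ 0 := by rwa [Ne, map_eq_zero]
      rw [← P.inh.em_od _ _ hh', ← S.em_od _ _ hh]
      have h3 := P.em_K P.ffL (P.inh.e0 e) h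
      have h4 : P.inh.em (P.inh.e0 e) (algebraMap K M h) =
          S.em (P.dirE P.ffL (P.inh.e0 e)).1 h := h3
      rw [h4]
      have h5 := P.e0_eq P.ffL e
      have h6 : P.dirE P.ffL (P.inh.e0 e) = (S.e0 (P.edE P.ffL e).1, (P.edE P.ffL e).2) := h5
      rw [h6])
    θ φ (fun σ w => hθ σ w _ (aV_nm P σ w)) δ hδ
    (P.inh.ptD d₀ hdd.1 hdd.2 0 hτ0) d₀.1 (cellV_ptD _ _ _ _ _ _) a
  exact ⟨h, h0, nsmul_of_dvd h1, h2⟩

end Crest.Agent.R013.SlI_770
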