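import Mathlib
import Crest.Agent.R013.SlI2_770

/-!
# Row 13, C-SLOPES (helper770 for 671), (D2): every harmonic vector modulo `n` is a slope vector

No walks: the sheet number `θ` modulo the range of `φ` descends to the vertices of `K`, so the
jump `δ` is a coboundary modulo the range of `φ`.
-/

set_option autoImplicit false
set_option linter.all false

namespace Crest.Agent.R013.SlI_770

open scoped NNReal
open WithZero Module
open Crest.Agent.R013.Cell_408 (DiscNorm)
open Crest.Agent.R013.RR7_948 Crest.Agent.R013.RR8_948 Crest.Agent.R013.RR9_948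
open Crest.Agent.R013.RR11_948 Crest.Agent.R013.PicD_398
open Crest.Agent.R013.Red332 Crest.Agent.R013.SSK_332 Crest.Agent.R013.TP_928
open Crest.Agent.R013.Slo2_671 Crest.Agent.R013.Fin_928 Crest.Agent.R013.Inh_770

variable {k : Type*} [NontriviallyNormedField k] [CompleteSpace k] [IsUltrametricDist k]
variable {C : Type*} [NormedField C] [IsUltrametricDist C] [NormedAlgebra k C]
  [Algebra.IsAlgebraic k C] [IsAlgClosed C] [CharZero C] [hk : Fact (DiscNorm k)]
variable {K : Type*} [Field K] [Algebra C K] [Algebra (RatFunc C) K]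
  [IsScalarTower C (RatFunc C) K] [FiniteDimensional (RatFunc C) K]
  [Algebra.IsSeparable (RatFunc C) K]
variable {M : Type*} [Field M] [Algebra C M] [Algebra K M] [IsScalarTower C K M]
  [FiniteDimensional K M] [IsGalois K M]
  {S : SSK k C K} (P : Spl S M)

open Classical in
/-- **(D2)** -/
theorem exists_kirchhoff {n : ℕ} (hn0 : 0 < n) (θ : P.inh.V → S.Ed → ZMod n)
    (φ : (M ≃ₐ[K] M) → S.Ed → ZMod n)
    (hθ : ∀ (a : M ≃ₐ[K] M) (w w' : P.inh.V),
      (∀ f, (P.inh.nm w').v (a f) = (P.inh.nm w).v f) → θ w' = θ w + φ a)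
    (hδ : ∀ (e : P.inh.Ed) (e' : S.Ed), θ (P.inh.e1 e).1 e' = θ (P.inh.e0 e).1 e' +
      if (P.edE P.ffL e).1 = e' then 1 else 0)
    (lam : S.Ed → ZMod n)
    (hlam : letI := S.fEd; letI := S.fV; ∀ v : S.V,
      (∑ e : S.Ed with (S.e0 e).1 = v, lam e) - (∑ e : S.Ed with (S.e1 e).1 = v, lam e) = 0) :
    ∃ h : K, h ≠ 0 ∧ (∃ x, divf (k := C) h = n • x) ∧
      ∀ e, ((ord S (S.e0 e) h : ℤ) : ZMod n) = lam e := by
  letI := S.fEd
  letI := S.fV
  obtain ⟨⟨v₀⟩, -⟩ := S.conn
  obtain ⟨w₀, hw₀⟩ := P.vK_surj P.ffL v₀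
  -- `φ` is a homomorphism
  have hmul : ∀ a b, φ (a * b) = φ a + φ b := by
    intro a b
    have h1 := hθ b w₀ (aV P b w₀) (aV_nm P b w₀)
    have h2 := hθ a (aV P b w₀) (aV P a (aV P b w₀)) (aV_nm P a _)
    have h3 := hθ (a * b) w₀ (aV P a (aV P b w₀)) (fun f => by
      have h4 := aV_nm P a (aV P b w₀) (b f)
      have h5 := aV_nm P b w₀ f
      exact h4.trans h5)
    rw [h2, h1] at h3
    have h6 : θ w₀ + (φ b + φ a) = θ w₀ + φ (a * b) := by rw [← h3]; abel
    rw [← add_left_cancel h6, add_comm]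
  have hone : φ 1 = 0 := by
    have := hmul 1 1
    rw [mul_one] at this
    exact left_eq_add.1 this
  have hinv : ∀ a, φ a⁻¹ = -φ a := by
    intro a
    have := hmul a⁻¹ a
    rw [inv_mul_cancel, hone] at this
    exact (neg_eq_of_add_eq_zero_left this.symm).symm
  let H0 : AddSubgroup (S.Ed → ZMod n) :=
    { carrier := Set.range φ
      zero_mem' := ⟨1, hone⟩
      add_mem' := by rintro _ _ ⟨a, rfl⟩ ⟨b, rfl⟩; exact ⟨a * b, hmul a b⟩
      neg_mem' := by rintro _ ⟨a, rfl⟩; exact ⟨a⁻¹, hinv a⟩ }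
  let H : Submodule (ZMod n) (S.Ed → ZMod n) := AddSubgroup.toZModSubmodule n H0
  have hH : ∀ g, g ∈ H ↔ ∃ a, φ a = g := fun g => Iff.rfl
  -- the sheet number on the vertices of `K`
  choose wv hwv using P.vK_surj P.ffL
  let t : S.V → (S.Ed → ZMod n) ⧸ H := fun v => H.mkQ (θ (wv v))
  have ht : ∀ w : P.inh.V, H.mkQ (θ w) = t (P.vK P.ffL w) := by
    intro w
    obtain ⟨a, ha⟩ := P.exists_conj_V P.ffL (wv (P.vK P.ffL w)) w (hwv _)
    have h1 := hθ a _ _ ha
    rw [h1, map_add]
    have h2 : H.mkQ (φ a) = 0 := by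
      rw [Submodule.mkQ_apply, Submodule.Quotient.mk_eq_zero, hH]
      exact ⟨a, rfl⟩
    rw [h2, add_zero]
  have htd : ∀ e : S.Ed, t (S.e1 e).1 = t (S.e0 e).1 + H.mkQ (Pi.single e 1) := by
    intro e
    obtain ⟨e', he'⟩ := P.exists_edge P.ffL e 1
    have h1 : θ (P.inh.e1 e').1 = θ (P.inh.e0 e').1 + Pi.single e 1 := by
      funext e''
      have h2 := hδ e' e''
      rw [he'] at h2
      rw [h2, Pi.add_apply, Pi.single_apply]
      congr 1
      by_cases h3 : e = e''
      · rw [if_pos h3, if_pos h3.symm]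
      · rw [if_neg h3, if_neg (Ne.symm h3)]
    have h3 := congrArg H.mkQ h1
    rw [map_add, ht, ht] at h3
    have h4 : P.vK P.ffL (P.inh.e1 e').1 = (S.e1 (P.edE P.ffL e').1).1 := P.vK_e1 P.ffL e'
    have h5 : P.vK P.ffL (P.inh.e0 e').1 = (S.e0 (P.edE P.ffL e').1).1 := P.vK_e0 P.ffL e'
    rw [h4, h5, he'] at h3
    exact h3
  -- `lam` is in the range of `φ`
  have hsum : ∀ s : S.Ed → S.V, ∑ e, lam e • t (s e) = ∑ v, (∑ e with s e = v, lam e) • t v := by
    intro s
    calc ∑ e, lam e • t (s e) = ∑ v, ∑ e with s e = v, lam e • t (s e) :=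
          (Finset.sum_fiberwise _ _ _).symm
      _ = ∑ v, (∑ e with s e = v, lam e) • t v := by
          refine Finset.sum_congr rfl fun v _ => ?_
          rw [Finset.sum_smul]
          refine Finset.sum_congr rfl fun e he => ?_
          rw [(Finset.mem_filter.1 he).2]
  have hmem : lam ∈ H := by
    rw [← Submodule.Quotient.mk_eq_zero, ← Submodule.mkQ_apply]
    have h1 : lam = ∑ e, lam e • (Pi.single e 1 : S.Ed → ZMod n) := by
      funext e'
      rw [Finset.sum_apply]
      simp only [Pi.smul_apply, smul_eq_mul, Pi.single_apply, mul_ite, mul_one, mul_zero]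
      rw [Finset.sum_ite_eq]
      simp
    rw [h1, map_sum]
    have h2 : ∀ e, H.mkQ (lam e • (Pi.single e 1 : S.Ed → ZMod n)) =
        lam e • t (S.e1 e).1 - lam e • t (S.e0 e).1 := by
      intro e
      rw [htd, map_smul, smul_add, add_sub_cancel_left]
    simp only [h2]
    rw [Finset.sum_sub_distrib, hsum (fun e => (S.e1 e).1), hsum (fun e => (S.e0 e).1),
      ← Finset.sum_sub_distrib]
    refine Finset.sum_eq_zero fun v _ => ?_
    rw [← sub_smul]
    have h3 := hlam v
    have h4 : (∑ e with (S.e1 e).1 = v, lam e) - (∑ e with (S.e0 e).1 = v, lam e) = 0 := by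
      rw [← neg_sub, neg_eq_zero]
      exact h3
    rw [h4, zero_smul]
  obtain ⟨a, ha⟩ := (hH lam).1 hmem
  obtain ⟨h, h0, hx, hs⟩ := exists_slope_inh P (G := S.Ed → ZMod n) hn0
    (fun g => by
      funext e
      rw [Pi.smul_apply, nsmul_eq_mul, ZMod.natCast_self, zero_mul]; rfl)
    θ φ hθ (fun e => Pi.single e 1) (fun e => by
      funext e''
      have h2 := hδ e e''
      rw [h2, Pi.add_apply, Pi.single_apply]
      congr 1
      by_cases h3 : (P.edE P.ffL e).1 = e''
      · rw [if_pos h3, if_pos h3.symm]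
      · rw [if_neg h3, if_neg (Ne.symm h3)]) a
  refine ⟨h, h0, hx, fun e => ?_⟩
  have h1 := congrFun hs e
  rw [ha] at h1
  rw [← h1, Finset.sum_apply]
  simp only [Pi.smul_apply, Pi.single_apply, zsmul_eq_mul, mul_ite, mul_one, mul_zero]
  rw [Finset.sum_ite_eq]
  simp

end Crest.Agent.R013.SlI_770
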