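import Mathlib
import Crest.Agent.R013.SlI3_770
import Crest.Agent.R013.TopE8_957
import Crest.Agent.R013.TP18_928

/-!
# Row 13, C-SLOPES, assembly (helper770): slopes of `n`-divisible divisors are onto the cycles

`KcOut S n` : labels of the cut covers (671), for every edge.
`slopes_onto` : hypothesis `hSl` of 928's `exists_class`.
-/

set_option autoImplicit false
set_option linter.all false

namespace Crest.Agent.R013.KcAsm_770

open scoped NNReal
open WithZero Module
open Crest.Agent.R013.Cell_408 (DiscNorm)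
open Crest.Agent.R013.RR7_948 Crest.Agent.R013.RR8_948 Crest.Agent.R013.RR9_948
open Crest.Agent.R013.RR11_948
open Crest.Agent.R013.Red332 Crest.Agent.R013.SSK_332 Crest.Agent.R013.TP_928
open Crest.Agent.R013.Inh_770 Crest.Agent.R013.TopE4_957

universe u v w

variable {k : Type w} [NontriviallyNormedField k] [CompleteSpace k] [IsUltrametricDist k]
variable {C : Type v} [NormedField C] [IsUltrametricDist C] [NormedAlgebra k C]
  [Algebra.IsAlgebraic k C] [IsAlgClosed C] [CharZero C] [hk : Fact (DiscNorm k)]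
variable {K : Type u} [Field K] [Algebra C K] [Algebra (RatFunc C) K]
  [IsScalarTower C (RatFunc C) K] [FiniteDimensional (RatFunc C) K]
  [Algebra.IsSeparable (RatFunc C) K]

open Classical in
/-- the labels of the cut covers -/
def KcOut (S : SSK k C K) (n : ℕ) : Prop := ∀ e : S.Ed, ∃ h : K, KSplit S n h ∧
  ∀ (M : Type u) [Field M] [Algebra C M] [Algebra K M] [IsScalarTower C K M]
    [FiniteDimensional K M] [IsGalois K M] (P : Spl S M) (r : M), r ^ n = algebraMap K M h →
    ∃ (θ : P.inh.V → ZMod n) (φ : (M ≃ₐ[K] M) → ZMod n),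
      (∀ (a : M ≃ₐ[K] M) (w w' : P.inh.V),
        (∀ f, (P.inh.nm w').v (a f) = (P.inh.nm w).v f) → θ w' = θ w + φ a) ∧
      ∀ e' : P.inh.Ed, θ (P.inh.e1 e').1 = θ (P.inh.e0 e').1 +
        if (P.edE P.ffL e').1 = e then 1 else 0

open Polynomial in
/-- the compositum of finitely many Kummer extensions -/
theorem exists_kummer {ι : Type*} [Fintype ι] {n : ℕ} (hn : 0 < n) (h : ι → K)
    (h0 : ∀ i, h i ≠ 0) :
    ∃ (M : Type u) (_ : Field M) (_ : Algebra C M) (_ : Algebra K M) (_ : IsScalarTower C K M)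
      (_ : FiniteDimensional K M) (_ : IsGalois K M) (T : Set M),
      IntermediateField.adjoin K T = ⊤ ∧
      (∀ y ∈ T, ∃ i, y ^ n = algebraMap K M (h i)) ∧ ∀ i, ∃ r : M, r ^ n = algebraMap K M (h i) := by
  classical
  haveI : CharZero K := charZero_of_injective_algebraMap (algebraMap C K).injective
  let f : K[X] := ∏ i, (X ^ n - Polynomial.C (h i))
  have hf0 : ∀ i, (X ^ n - Polynomial.C (h i) : K[X]) ≠ 0 := fun i => X_pow_sub_C_ne_zero hn _
  have hf : f ≠ 0 := Finset.prod_ne_zero_iff.2 fun i _ => hf0 i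
  haveI : Normal K f.SplittingField := Normal.of_isSplittingField f
  haveI : IsGalois K f.SplittingField := {}
  refine ⟨f.SplittingField, inferInstance, inferInstance, inferInstance, inferInstance,
    inferInstance, inferInstance, f.rootSet f.SplittingField, ?_, ?_, ?_⟩
  · rw [← top_le_iff]
    intro x _
    have h1 : x ∈ Algebra.adjoin K (f.rootSet f.SplittingField) := by
      rw [SplittingField.adjoin_rootSet]
      exact Algebra.mem_top
    exact IntermediateField.algebra_adjoin_le_adjoin K _ h1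
  · intro y hy
    have h1 := (mem_rootSet.1 hy).2
    rw [map_prod, Finset.prod_eq_zero_iff] at h1
    obtain ⟨i, -, hi⟩ := h1
    refine ⟨i, ?_⟩
    rw [map_sub, map_pow, aeval_X, aeval_C] at hi
    exact sub_eq_zero.1 hi
  · intro i
    have hs : (f.map (algebraMap K f.SplittingField)).Splits := SplittingField.splits f
    have hdvd : (X ^ n - Polynomial.C (h i) : K[X]) ∣ f := Finset.dvd_prod_of_mem _ (Finset.mem_univ i)
    have hs2 : ((X ^ n - Polynomial.C (h i) : K[X]).map (algebraMap K f.SplittingField)).Splits :=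
      hs.of_dvd (Polynomial.map_ne_zero hf) (Polynomial.map_dvd _ hdvd)
    have hdeg : ((X ^ n - Polynomial.C (h i) : K[X]).map
        (algebraMap K f.SplittingField)).degree ≠ 0 := by
      rw [Polynomial.degree_map, degree_X_pow_sub_C hn]
      exact_mod_cast hn.ne'
    obtain ⟨r, hr⟩ := hs2.exists_eval_eq_zero hdeg
    refine ⟨r, ?_⟩
    rw [Polynomial.map_sub, Polynomial.map_pow, map_X, map_C, eval_sub, eval_pow, eval_X,
      eval_C] at hr
    exact sub_eq_zero.1 hr

open Classical in
/-- **slopes are onto the cycles** -/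
theorem slopes_onto {S : SSK k C K} {n : ℕ} (hn : 0 < n) (hKc : KcOut S n) (lam : S.Ed → ZMod n)
    (hlam : Fin_928.bdry S (ZMod n) lam = 0) :
    ∃ f : K, f ≠ 0 ∧ (∃ x : Pl C K →₀ ℤ, divf (k := C) f = n • x) ∧
      ∀ e, ((ord S (S.e0 e) f : ℤ) : ZMod n) = lam e := by
  letI := S.fEd
  letI := S.fV
  choose h hsp hlab using hKc
  obtain ⟨M, i1, i2, i3, i4, i5, i6, T, hT, hroots, hr⟩ :=
    exists_kummer (C := C) hn h fun e => (hsp e).ne
  obtain ⟨P⟩ := TopE8_957.spl_of_kummer (S := S) hn T hT (fun y hy => by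
    obtain ⟨i, hi⟩ := hroots y hy
    exact ⟨h i, hi, hsp i⟩)
  choose r hr using hr
  choose θ φ hθ hδ using fun e => hlab e M P (r e) (hr e)
  refine SlI_770.exists_kirchhoff P hn (fun w e => θ e w) (fun a e => φ e a) ?_ ?_ lam ?_
  · intro a w w' hw
    funext e
    exact hθ e a w w' hw
  · intro e e'
    exact hδ e' e
  · intro v
    have h1 := congrFun hlam v
    rw [Fin_928.bdry_apply] at h1
    rw [Finset.sum_filter, Finset.sum_filter]
    exact h1

end Crest.Agent.R013.KcAsm_770
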