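import Mathlib
import Crest.Agent.R013.KcAsm_770
import Crest.Agent.R013.NB12_102
import Crest.Agent.R013.Kc5_671

/-!
# Row 13, C-SLOPES, labels (helper770), part 1: from labels on norms to `KcOut`

* `nrmR_inh` : the path of an annulus of `P.inh` restricts to the path of the annulus below;
* `Gam` : the path as a function on `ℝ`;
* `LabX` : a label (function) from a system of labels `LabS` (671);
* `kcOut`, `slopes_onto` : hypothesis `hSl` of 928's `exists_class`.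
-/

set_option autoImplicit false
set_option linter.all false

namespace Crest.Agent.R013.KL_770

open scoped NNReal
open WithZero Module Filter Topology
open Crest.Agent.R013.Cell_408 (DiscNorm)
open Crest.Agent.R013.RR7_948 Crest.Agent.R013.RR8_948 Crest.Agent.R013.RR9_948
open Crest.Agent.R013.Red332 Crest.Agent.R013.SSK_332 Crest.Agent.R013.TP_928
open Crest.Agent.R013.Inh_770 Crest.Agent.R013.TopE4_957 Crest.Agent.R013.Nrm_671
open Crest.Agent.R013.NB_102 Crest.Agent.R013.EE809 Crest.Agent.R013.Kc_671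

universe u v w

variable {k : Type w} [NontriviallyNormedField k] [CompleteSpace k] [IsUltrametricDist k]
variable {C : Type v} [NormedField C] [IsUltrametricDist C] [NormedAlgebra k C]
  [Algebra.IsAlgebraic k C] [IsAlgClosed C] [CharZero C] [hk : Fact (DiscNorm k)]
variable {K : Type u} [Field K] [Algebra C K] [Algebra (RatFunc C) K]
  [IsScalarTower C (RatFunc C) K] [FiniteDimensional (RatFunc C) K]
  [Algebra.IsSeparable (RatFunc C) K]

section inh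

variable {M : Type*} [Field M] [Algebra C M] [Algebra K M] [IsScalarTower C K M]
  [FiniteDimensional K M] [IsGalois K M] {S : SSK k C K} (P : Spl S M)

theorem em0_K (e' : P.inh.Ed) (f : K) :
    P.inh.em (P.inh.e0 e') (algebraMap K M f) = S.em (S.e0 (P.edE P.ffL e').1) f := by
  have h1 : P.inh.em (P.inh.e0 e') (algebraMap K M f) =
    P.ps (S.e0 (P.edE P.ffL e').1) ((P.edE P.ffL e').2 (algebraMap K M f)) := P.em_e0 P.ffL e' _
  rw [h1, AlgEquiv.commutes, P.ps_K]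

theorem em1_K (e' : P.inh.Ed) (f : K) :
    P.inh.em (P.inh.e1 e') (algebraMap K M f) = S.em (S.e1 (P.edE P.ffL e').1) f := by
  have h1 : P.inh.em (P.inh.e1 e') (algebraMap K M f) =
    P.ps (S.e1 (P.edE P.ffL e').1) ((P.edE P.ffL e').2 (algebraMap K M f)) := P.em_e1 P.ffL e' _
  rw [h1, AlgEquiv.commutes, P.ps_K]

/-- the path of an annulus restricts to the path of the annulus below -/
theorem nrmR_inh (e' : P.inh.Ed) {t : ℝ} (h1 : ‖S.cc (P.edE P.ffL e').1‖ ≤ t) (h2 : t ≤ 1) (f : K) :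
    nrmR P.inh e' t (algebraMap K M f) = nrmR S (P.edE P.ffL e').1 t f := by
  obtain ⟨g, h, h0, hg, hh, e⟩ := fr_e0 S (P.edE P.ffL e').1 f
  have hcc : ‖P.inh.cc e'‖ = ‖S.cc (P.edE P.ffL e').1‖ := rfl
  have e1 : nrmR S (P.edE P.ffL e').1 t f = gr t g / gr t h :=
    nrR_eq (cc_pos S _) (S.cc_lt _) (fr_e0 S _) h1 h2 hg hh h0 e
  have e2 : nrmR P.inh e' t (algebraMap K M f) = gr t g / gr t h :=
    nrR_eq (cc_pos P.inh _) (P.inh.cc_lt _) (fr_e0 P.inh _) h1 h2 hg hh h0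
      (by rw [em0_K]; exact e)
  rw [e1, e2]

/-- the path of an annulus, as a function on `ℝ` -/
noncomputable def Gam {K : Type*} [Field K] [Algebra C K] (S : SSK k C K) (e : S.Ed) (t : ℝ) :
    Valuation K ℝ≥0 :=
  (pt S e (Set.projIcc ‖S.cc e‖ 1 (S.cc_lt e).le t)).v

section Gam

variable {K : Type*} [Field K] [Algebra C K] (S : SSK k C K) (e : S.Ed)

theorem Gam_cont (f : K) : Continuous fun t => Gam S e t f :=
  (NS.continuous_eval (continuous_pt S e) f).comp continuous_projIcc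

theorem Gam_NK (t : ℝ) : NK C (Gam S e t) := NK_pt S e _

theorem Gam_coe {t : ℝ} (h1 : ‖S.cc e‖ ≤ t) (h2 : t ≤ 1) (f : K) :
    ((Gam S e t f : ℝ≥0) : ℝ) = nrmR S e t f := by
  unfold Gam
  rw [pt_coe, Set.projIcc_of_mem _ ⟨h1, h2⟩]

theorem Gam_one : Gam S e 1 = (S.nm (S.e0 e).1).v := by
  ext f
  rw [Gam_coe S e (S.cc_lt e).le le_rfl, nrmR_one S hk.out]

theorem Gam_cc : Gam S e ‖S.cc e‖ = (S.nm (S.e1 e).1).v := by
  ext f
  rw [Gam_coe S e le_rfl (S.cc_lt e).le, nrmR_cc S hk.out]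

end Gam

theorem Gam_comap (e' : P.inh.Ed) {t : ℝ} (h1 : ‖S.cc (P.edE P.ffL e').1‖ ≤ t) (h2 : t ≤ 1) :
    (Gam P.inh e' t).comap (algebraMap K M) = Gam S (P.edE P.ffL e').1 t := by
  ext f
  rw [Valuation.comap_apply, Gam_coe S _ h1 h2, Gam_coe P.inh e' h1 h2]
  exact nrmR_inh P e' h1 h2 f

end inh

section lab

variable {M : Type*} [Field M] [Algebra C M] [Algebra K M] {v : Valuation K ℝ≥0} {y : K} {n : ℕ}
  {ζ : C} {r : M} {Lab : Valuation M ℝ≥0 → C → Prop} (hL : LabS C v y n ζ r Lab)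

open Classical in
/-- the label of a norm -/
noncomputable def lb (w : Valuation M ℝ≥0) : C := if h : NKM C w then (hL.ex w h).choose else 1

theorem lb_pow {w : Valuation M ℝ≥0} (h : NKM C w) : lb hL w ^ n = 1 := by
  unfold lb
  rw [dif_pos h]
  exact (hL.ex w h).choose_spec.1

theorem lb_lab {w : Valuation M ℝ≥0} (h : NKM C w) : Lab w (lb hL w) := by
  unfold lb
  rw [dif_pos h]
  exact (hL.ex w h).choose_spec.2

theorem lb_eq {w : Valuation M ℝ≥0} (h : NKM C w) {ξ : C} (hξ : ξ ^ n = 1) (h1 : Lab w ξ) :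
    lb hL w = ξ :=
  hL.uq w h _ _ (lb_pow hL h) hξ (lb_lab hL h) h1

/-- labels are constant off `v` -/
theorem lb_const {w : ℝ → Valuation M ℝ≥0} (hc : ∀ f, Continuous fun t => w t f)
    (hNK : ∀ t, NKM C (w t)) (J : Set ℝ) (hJ : J.OrdConnected)
    (hne : ∀ t ∈ J, (w t).comap (algebraMap K M) ≠ v) {s t : ℝ} (hs : s ∈ J) (ht : t ∈ J) :
    lb hL (w s) = lb hL (w t) := by
  haveI : PreconnectedSpace J := Subtype.preconnectedSpace hJ.isPreconnected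
  have key := const_of_eventually (T := J) (fun u => lb hL (w u) = lb hL (w t)) (fun t0 => ?_)
    ⟨s, hs⟩ ⟨t, ht⟩
  · exact key.2 rfl
  · have h1 := hL.ev0 w t0 (fun x => (hc x).continuousAt) hNK (hne t0 t0.2) _ (lb_pow hL (hNK t0))
      (lb_lab hL (hNK t0))
    have h2 : ∀ᶠ u : J in 𝓝 t0, Lab (w u) (lb hL (w t0)) :=
      continuousAt_subtype_val.eventually h1
    filter_upwards [h2] with u hu
    rw [lb_eq hL (hNK u) (lb_pow hL (hNK t0)) hu]

end lab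

section main

variable {M : Type*} [Field M] [Algebra C M] [Algebra K M] [IsScalarTower C K M]
  [FiniteDimensional K M] [IsGalois K M] {S : SSK k C K} (P : Spl S M)
  {v : S.V} {y : K} {n : ℕ} {ζ : C} {r : M} {Lab : Valuation M ℝ≥0 → C → Prop}
  (hL : LabS C (S.nm v).v y n ζ r Lab) (hζ : ζ ^ n = 1)
  (hy : (S.nm v).v y = 1) (e' : P.inh.Ed)

/-- interior norms are no vertices -/
theorem interior_ne {t : ℝ} (h0 : ‖S.cc (P.edE P.ffL e').1‖ < t) (h1 : t < 1) :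
    (Gam P.inh e' t).comap (algebraMap K M) ≠ (S.nm v).v := by
  rw [Gam_comap P e' h0.le h1.le]
  intro h
  apply nrm_ne_nm S (P.edE P.ffL e').1 h0 h1 v
  rw [← h]
  ext f
  rw [Gam_coe S _ h0.le h1.le]
  rfl

theorem interior {s t : ℝ} (hs0 : ‖S.cc (P.edE P.ffL e').1‖ < s) (hs1 : s < 1)
    (ht0 : ‖S.cc (P.edE P.ffL e').1‖ < t) (ht1 : t < 1) :
    lb hL (Gam P.inh e' s) = lb hL (Gam P.inh e' t) :=
  lb_const hL (Gam_cont P.inh e') (Gam_NK P.inh e') (Set.Ioo _ 1) Set.ordConnected_Ioo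
    (fun t ht => interior_ne P e' ht.1 ht.2) ⟨hs0, hs1⟩ ⟨ht0, ht1⟩

theorem val_y {t : ℝ} (h1 : ‖S.cc (P.edE P.ffL e').1‖ ≤ t) (h2 : t ≤ 1) (y : K) :
    ((Gam P.inh e' t (algebraMap K M y) : ℝ≥0) : ℝ) = nrmR S (P.edE P.ffL e').1 t y := by
  rw [Gam_coe P.inh e' h1 h2]
  exact nrmR_inh P e' h1 h2 y

include hy in
theorem y_ne : y ≠ 0 := by
  rintro rfl
  rw [map_zero] at hy
  exact zero_ne_one hy

theorem one_left : ∀ᶠ t in 𝓝[<] (1 : ℝ), ‖S.cc (P.edE P.ffL e').1‖ < t ∧ t < 1 := by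
  filter_upwards [Ioo_mem_nhdsLT (S.cc_lt (P.edE P.ffL e').1)] with t ht
  exact ht

theorem cc_right : ∀ᶠ t in 𝓝[>] ‖S.cc (P.edE P.ffL e').1‖,
    ‖S.cc (P.edE P.ffL e').1‖ < t ∧ t < 1 := by
  filter_upwards [Ioo_mem_nhdsGT (S.cc_lt (P.edE P.ffL e').1)] with t ht
  exact ht

include hy in
/-- the outer end, `y` has order `≤ 0` or the end is not over `v` -/
theorem outer_zero (hod : (S.e0 (P.edE P.ffL e').1).1 = v →
      Red332.od (S.nm (S.e0 (P.edE P.ffL e').1).1) (S.e0 (P.edE P.ffL e').1).2 y ≤ 0)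
    {t : ℝ} (ht0 : ‖S.cc (P.edE P.ffL e').1‖ < t) (ht1 : t < 1) :
    lb hL (Gam P.inh e' t) = lb hL (Gam P.inh e' 1) := by
  set e := (P.edE P.ffL e').1 with he
  by_cases hv : (S.e0 e).1 = v
  · have hy' : (S.nm (S.e0 e).1).v y = 1 := by rw [hv]; exact hy
    have hy0 : y ≠ 0 := y_ne hy
    have h1 := hL.ev1 (Gam P.inh e') 1 (fun x => (Gam_cont P.inh e' x).continuousAt)
      (Gam_NK P.inh e') (by rw [Gam_comap P e' (S.cc_lt e).le le_rfl, Gam_one, hv]) _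
      (lb_pow hL (Gam_NK P.inh e' 1)) (lb_lab hL (Gam_NK P.inh e' 1))
    obtain ⟨ρ', h2, h3, h4⟩ := nrmR_near_one S hk.out e hy0
    obtain ⟨s, hs1, hs2⟩ := ((h1.filter_mono nhdsWithin_le_nhds).and
      (Ioo_mem_nhdsLT h3 : Set.Ioo ρ' 1 ∈ 𝓝[<] (1 : ℝ))).exists
    have hs0 : ‖S.cc e‖ < s := h2.trans hs2.1
    rw [interior P hL e' (s := t) (t := s) ht0 ht1 hs0 hs2.2]
    refine lb_eq hL (Gam_NK P.inh e' s) (lb_pow hL (Gam_NK P.inh e' 1)) (hs1.1 ?_)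
    have h5 := val_y P e' hs0.le hs2.2.le y
    rw [h4 s hs2.1.le hs2.2.le, hy', S.em_od _ _ hy0, NNReal.coe_one, one_mul] at h5
    have h6 : (1 : ℝ) ≤ s ^ Red332.od (S.nm (S.e0 e).1) (S.e0 e).2 y :=
      one_le_zpow_of_nonpos₀ ((cc_pos S e).trans hs0) hs2.2.le (hod hv)
    rw [← h5] at h6
    exact_mod_cast h6
  · refine lb_const hL (Gam_cont P.inh e') (Gam_NK P.inh e') (Set.Icc t 1) Set.ordConnected_Icc
      (fun s hs => ?_) ⟨le_rfl, ht1.le⟩ ⟨ht1.le, le_rfl⟩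
    rcases hs.2.lt_or_eq with h | h
    · exact interior_ne P e' (ht0.trans_le hs.1) h
    · rw [h, Gam_comap P e' (S.cc_lt e).le le_rfl, Gam_one]
      intro h'
      exact hv (S.nm_inj (Nm.ext' fun f => congrArg (fun z : Valuation K ℝ≥0 => z f) h'))

include hy in
/-- the inner end -/
theorem inner_zero (hod : (S.e1 (P.edE P.ffL e').1).1 = v →
      Red332.od (S.nm (S.e1 (P.edE P.ffL e').1).1) (S.e1 (P.edE P.ffL e').1).2 y ≤ 0)
    {t : ℝ} (ht0 : ‖S.cc (P.edE P.ffL e').1‖ < t) (ht1 : t < 1) :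
    lb hL (Gam P.inh e' t) = lb hL (Gam P.inh e' ‖S.cc (P.edE P.ffL e').1‖) := by
  set e := (P.edE P.ffL e').1 with he
  have hcc := cc_pos S e
  by_cases hv : (S.e1 e).1 = v
  · have hy' : (S.nm (S.e1 e).1).v y = 1 := by rw [hv]; exact hy
    have hy0 : y ≠ 0 := y_ne hy
    have h1 := hL.ev1 (Gam P.inh e') ‖S.cc e‖ (fun x => (Gam_cont P.inh e' x).continuousAt)
      (Gam_NK P.inh e') (by rw [Gam_comap P e' le_rfl (S.cc_lt e).le, Gam_cc, hv]) _
      (lb_pow hL (Gam_NK P.inh e' _)) (lb_lab hL (Gam_NK P.inh e' _))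
    obtain ⟨ρ', h2, h3, h4⟩ := nrmR_near_cc S hk.out e hy0
    obtain ⟨s, hs1, hs2⟩ := ((h1.filter_mono nhdsWithin_le_nhds).and
      (Ioo_mem_nhdsGT h2 : Set.Ioo ‖S.cc e‖ ρ' ∈ 𝓝[>] ‖S.cc e‖)).exists
    have hs0 : s < 1 := hs2.2.trans h3
    rw [interior P hL e' (s := t) (t := s) ht0 ht1 hs2.1 hs0]
    refine lb_eq hL (Gam_NK P.inh e' s) (lb_pow hL (Gam_NK P.inh e' _)) (hs1.1 ?_)
    have h5 := val_y P e' hs2.1.le hs0.le y
    rw [h4 s hs2.1.le hs2.2.le, hy', S.em_od _ _ hy0, NNReal.coe_one, one_mul] at h5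
    have hsp : 0 < s := hcc.trans hs2.1
    have h6 : (1 : ℝ) ≤ (‖S.cc e‖ / s) ^ Red332.od (S.nm (S.e1 e).1) (S.e1 e).2 y :=
      one_le_zpow_of_nonpos₀ (div_pos hcc hsp) ((div_le_one hsp).2 hs2.1.le) (hod hv)
    rw [← h5] at h6
    exact_mod_cast h6
  · refine lb_const hL (Gam_cont P.inh e') (Gam_NK P.inh e') (Set.Icc ‖S.cc e‖ t)
      Set.ordConnected_Icc (fun s hs => ?_) ⟨ht0.le, le_rfl⟩ ⟨le_rfl, ht0.le⟩
    rcases hs.1.lt_or_eq with h | h
    · exact interior_ne P e' h (hs.2.trans_lt ht1)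
    · rw [← h, Gam_comap P e' le_rfl (S.cc_lt e).le, Gam_cc]
      intro h'
      exact hv (S.nm_inj (Nm.ext' fun f => congrArg (fun z : Valuation K ℝ≥0 => z f) h'))

include hy hζ in
/-- the outer end with a positive order -/
theorem outer_one (hv : (S.e0 (P.edE P.ffL e').1).1 = v)
    (hod : 0 < Red332.od (S.nm (S.e0 (P.edE P.ffL e').1).1) (S.e0 (P.edE P.ffL e').1).2 y)
    {t : ℝ} (ht0 : ‖S.cc (P.edE P.ffL e').1‖ < t) (ht1 : t < 1) :
    lb hL (Gam P.inh e' t) = lb hL (Gam P.inh e' 1) * ζ := by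
  set e := (P.edE P.ffL e').1 with he
  have hy' : (S.nm (S.e0 e).1).v y = 1 := by rw [hv]; exact hy
  have hy0 : y ≠ 0 := y_ne hy
  have h1 := hL.ev1 (Gam P.inh e') 1 (fun x => (Gam_cont P.inh e' x).continuousAt)
    (Gam_NK P.inh e') (by rw [Gam_comap P e' (S.cc_lt e).le le_rfl, Gam_one, hv]) _
    (lb_pow hL (Gam_NK P.inh e' 1)) (lb_lab hL (Gam_NK P.inh e' 1))
  obtain ⟨ρ', h2, h3, h4⟩ := nrmR_near_one S hk.out e hy0
  obtain ⟨s, hs1, hs2⟩ := ((h1.filter_mono nhdsWithin_le_nhds).and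
    (Ioo_mem_nhdsLT h3 : Set.Ioo ρ' 1 ∈ 𝓝[<] (1 : ℝ))).exists
  have hs0 : ‖S.cc e‖ < s := h2.trans hs2.1
  rw [interior P hL e' (s := t) (t := s) ht0 ht1 hs0 hs2.2]
  refine lb_eq hL (Gam_NK P.inh e' s) (by rw [mul_pow, lb_pow hL (Gam_NK P.inh e' 1), hζ, one_mul])
    (hs1.2 ?_)
  have h5 := val_y P e' hs0.le hs2.2.le y
  rw [h4 s hs2.1.le hs2.2.le, hy', S.em_od _ _ hy0, NNReal.coe_one, one_mul] at h5
  have hsp : 0 < s := (cc_pos S e).trans hs0
  have h6 : s ^ Red332.od (S.nm (S.e0 e).1) (S.e0 e).2 y < 1 := by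
    obtain ⟨m, hm⟩ := Int.eq_ofNat_of_zero_le hod.le
    rw [hm, zpow_natCast]
    refine pow_lt_one₀ hsp.le hs2.2 ?_
    rintro rfl
    rw [hm] at hod
    exact lt_irrefl _ hod
  rw [← h5] at h6
  exact_mod_cast h6

end main

/-- the exponent of a root of unity -/
theorem exists_exp {n : ℕ} (hn : 0 < n) {ζ : C} (hζ : IsPrimitiveRoot ζ n) :
    ∃ L : C → ZMod n, (∀ a b : C, a ^ n = 1 → b ^ n = 1 → L (a * b) = L a + L b) ∧ L ζ = 1 := by
  classical
  haveI : NeZero n := ⟨hn.ne'⟩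
  have hex : ∀ a : C, ∃ i : ℕ, a ^ n = 1 → ζ ^ i = a := by
    intro a
    by_cases ha : a ^ n = 1
    · obtain ⟨i, -, hi⟩ := hζ.eq_pow_of_pow_eq_one ha
      exact ⟨i, fun _ => hi⟩
    · exact ⟨0, fun h => absurd h ha⟩
  choose i hi using hex
  have key : ∀ (a : C) (j : ℕ), a ^ n = 1 → ζ ^ j = a → ((i a : ℕ) : ZMod n) = (j : ZMod n) := by
    intro a j ha hj
    have h1 : ζ ^ (i a) = ζ ^ j := by rw [hi a ha, hj]
    have h0 : ζ ≠ 0 := hζ.ne_zero hn.ne'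
    have h2 : ζ ^ ((i a : ℤ) - (j : ℤ)) = 1 := by
      rw [zpow_sub₀ h0, zpow_natCast, zpow_natCast, h1, div_self (pow_ne_zero _ h0)]
    have h3 := (hζ.zpow_eq_one_iff_dvd _).1 h2
    have h4 : (((i a : ℤ) : ZMod n)) = ((j : ℤ) : ZMod n) := by
      rw [← sub_eq_zero, ← Int.cast_sub]
      exact (ZMod.intCast_zmod_eq_zero_iff_dvd _ n).2 h3
    exact_mod_cast h4
  refine ⟨fun a => (i a : ZMod n), fun a b ha hb => ?_, ?_⟩
  · have h1 : (a * b) ^ n = 1 := by rw [mul_pow, ha, hb, one_mul]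
    have h2 := key (a * b) (i a + i b) h1 (by rw [pow_add, hi a ha, hi b hb])
    change ((i (a * b) : ℕ) : ZMod n) = _
    rw [h2, Nat.cast_add]
  · have h2 := key ζ 1 hζ.pow_eq_one (pow_one ζ)
    change ((i ζ : ℕ) : ZMod n) = 1
    rw [h2, Nat.cast_one]

open Classical in
/-- **`KcOut`** -/
theorem kcOut (S : SSK k C K) {n : ℕ} (hn : 0 < n) : KcAsm_770.KcOut S n := by
  intro e
  haveI : NeZero (n : C) := ⟨Nat.cast_ne_zero.2 hn.ne'⟩
  obtain ⟨ζ, hζ⟩ := HasEnoughRootsOfUnity.exists_primitiveRoot C n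
  obtain ⟨y, hy⟩ := exists_y S e
  obtain ⟨h, hh, hlab⟩ := exists_kc S e hy hn hζ
  obtain ⟨L, hLm, hL1⟩ := exists_exp hn hζ
  refine ⟨h, hh, fun M _ _ _ _ _ _ P r hr => ?_⟩
  obtain ⟨Lab, hL⟩ := hlab M r hr
  have hr0 : r ≠ 0 := by
    rintro rfl
    rw [zero_pow hn.ne'] at hr
    exact hh.ne ((map_eq_zero _).1 hr.symm)
  -- the Kummer character
  have hκ : ∀ a : M ≃ₐ[K] M, ∃ ξ : C, ξ ^ n = 1 ∧ a r = algebraMap C M ξ * r := by
    intro a
    have h1 : (a r / r) ^ n = 1 := by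
      rw [div_pow, ← map_pow, hr, AlgEquiv.commutes, ← hr, div_self (pow_ne_zero n hr0)]
    have hζM : IsPrimitiveRoot (algebraMap C M ζ) n := hζ.map_of_injective (algebraMap C M).injective
    haveI : NeZero n := ⟨hn.ne'⟩
    obtain ⟨i, -, hi⟩ := hζM.eq_pow_of_pow_eq_one h1
    refine ⟨ζ ^ i, by rw [← pow_mul, mul_comm, pow_mul, hζ.pow_eq_one, one_pow], ?_⟩
    rw [map_pow, hi, div_mul_cancel₀ _ hr0]
  choose κ hκ1 hκ2 using hκ
  have hNK : ∀ w : P.inh.V, NKM C (P.inh.nm w).v := fun w => NK_nm P.inh w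
  refine ⟨fun w => L (lb hL (P.inh.nm w).v), fun a => - L (κ a), fun a w w' hw => ?_, fun e' => ?_⟩
  · have h1 : (P.inh.nm w').v.comap (a : M →+* M) = (P.inh.nm w).v := by
      ext f
      exact congrArg _ (hw f)
    have h2 := hL.eq (P.inh.nm w').v (hNK w') a (κ a) (hκ1 a) (hκ2 a) _
      (lb_pow hL (hNK w')) (lb_lab hL (hNK w'))
    rw [h1] at h2
    have h3 := lb_eq hL (hNK w) (by rw [mul_pow, lb_pow hL (hNK w'), hκ1, one_mul]) h2
    have h4 := hLm _ _ (lb_pow hL (hNK w')) (hκ1 a)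
    change L (lb hL (P.inh.nm w').v) = L (lb hL (P.inh.nm w).v) + -L (κ a)
    rw [h3, h4]
    ring
  · obtain ⟨t, ht0, ht1⟩ := exists_between (S.cc_lt (P.edE P.ffL e').1)
    have h1 : Gam P.inh e' 1 = (P.inh.nm (P.inh.e0 e').1).v := Gam_one P.inh e'
    have h2 : Gam P.inh e' ‖S.cc (P.edE P.ffL e').1‖ = (P.inh.nm (P.inh.e1 e').1).v :=
      Gam_cc P.inh e'
    have h3 := inner_zero P hL hy.one e' (fun hv => hy.npos _ (fun h => by
      have h4 := @S.ends_inj (Sum.inr (P.edE P.ffL e').1) (Sum.inl e) h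
      simp at h4) (Or.inr ⟨_, rfl⟩) hv) ht0 ht1
    change L (lb hL (P.inh.nm (P.inh.e1 e').1).v) = L (lb hL (P.inh.nm (P.inh.e0 e').1).v) + _
    rw [← h1, ← h2, ← h3]
    by_cases he : (P.edE P.ffL e').1 = e
    · rw [if_pos he, outer_one P hL hζ.pow_eq_one hy.one e' (by rw [he]) (by rw [he]; exact hy.pos)
        ht0 ht1, hLm _ _ (lb_pow hL (Gam_NK P.inh e' 1)) hζ.pow_eq_one, hL1]
    · rw [if_neg he, add_zero, outer_zero P hL hy.one e' (fun hv => hy.npos _ (fun h => ?_)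
        (Or.inl ⟨_, rfl⟩) hv) ht0 ht1]
      have h4 := @S.ends_inj (Sum.inl (P.edE P.ffL e').1) (Sum.inl e) h
      exact he (Sum.inl.inj h4)

/-- **C-SLOPES**: the slopes of the `n`-divisible divisors are onto the cycles mod `n`
(hypothesis `hSl` of 928's `exists_class`) -/
theorem slopes_onto (S : SSK k C K) {n : ℕ} (hn : 0 < n) (lam : S.Ed → ZMod n)
    (hlam : Fin_928.bdry S (ZMod n) lam = 0) :
    ∃ f : K, f ≠ 0 ∧ (∃ x : Pl C K →₀ ℤ, RR11_948.divf (k := C) f = n • x) ∧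
      ∀ e, ((ord S (S.e0 e) f : ℤ) : ZMod n) = lam e :=
  KcAsm_770.slopes_onto hn (kcOut S hn) lam hlam

end Crest.Agent.R013.KL_770
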