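import Crest.Agent.R013.CAsm7_588
import Crest.Agent.R013.KL1_770

/-!
# Row 13, part C, assembly 8 (helper588): **PART C**, without hypotheses

`goodPall p : TopS_803.GOODPall p`.
-/

set_option autoImplicit false

namespace Crest.Agent.R013.CAsm8_588

open Crest.Agent.R013.CAsm6_588 Crest.Agent.R013.CAsm7_588
open Crest.Agent.R013.Cell_408

/-- the slopes (770, 671) -/
theorem slopesAll (p : ℕ) [hpF : Fact p.Prime] : SlopesAll p := by
  intro C _ _ _ _ _ _ Y _ _ _ _ _ S lam hlam
  haveI hkf : Fact (DiscNorm ℚ_[p]) := inferInstance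
  exact KL_770.slopes_onto S hpF.out.pos lam hlam

/-- **PART C** -/
theorem goodPall (p : ℕ) [hpF : Fact p.Prime] : TopS_803.GOODPall p := goodpall (slopesAll p)

end Crest.Agent.R013.CAsm8_588
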