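import Crest.Agent.R013.CAsm7_588
import Crest.Agent.R013.KL1_770

/-!
# Row 13, part C is a theorem

`SlopesAll p` (588's only input) from `KL_770.slopes_onto` (671 + 770), hence `GOODPall p`.
-/

set_option autoImplicit false

namespace Crest.Agent.R013.CAsm8_770

open Crest.Agent.R013.SSK_332 Crest.Agent.R013.CAsm6_588 Crest.Agent.R013.CAsm7_588

/-- **the slopes** for every semistable structure -/
theorem slopesAll (p : ℕ) [hp : Fact p.Prime] : SlopesAll p := by
  intro C _ _ _ _ _ _ Y _ _ _ _ _ S lam h
  exact KL_770.slopes_onto S hp.out.pos lam h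

/-- **PART C** -/
theorem goodpall (p : ℕ) [hp : Fact p.Prime] : TopS_803.GOODPall p :=
  CAsm7_588.goodpall (slopesAll p)


end Crest.Agent.R013.CAsm8_770
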