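import Crest.Agent.R013.LemD3_623
import Crest.Agent.R013.AnnP_669
import Crest.Agent.R013.TopZ_803
import Crest.Agent.R013.CAsm8_770

/-!
# Row 13: `AnnP` (669) from 623's `lemw'`; `BMain p`
-/

set_option autoImplicit false

namespace Crest.Agent.R013.CAsm9_770

open scoped NNReal
open Crest.NumberTheoryR.Sect

/-- **LEMW + ANNU** -/
theorem annP : AnnP_669.AnnP := by
  intro k E Ω U V _ _ _ _ _ _ _ _ _ _ _ _ _ _ y hG ϖ hϖ hd s hs n hn hsn _ _ _ _ d X j σ hNB _
    xU hjx _ _ hU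
  exact LemC623.lemw' hG hϖ hd hs hn hsn X j σ hNB xU hjx hU

/-- **B-MAIN** -/
theorem bMain (p : ℕ) [Fact p.Prime] : VData_803.BMain p :=
  TopZ_803.bMain_of_ann annP p


end Crest.Agent.R013.CAsm9_770
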