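import Mathlib
import Crest.Agent.R013.LiftA_168
import Crest.Agent.R013.Hens3_899

/-!
# C-B1, part a: counting the norms over a norm in a finite Galois extension

`L/K` finite Galois, `v` a non-trivial real valued norm of `K`: at most `[L : K]` extensions, and at
most `[L : K]/2` if `K` is not dense in `L` (for instance if `y ∈ L`, `y^N = h ∈ K` and `h` is not an
`N`-th power times a `1`-unit at `v`).
-/

set_option autoImplicit false
set_option linter.unusedSectionVars false

namespace Crest.Agent.R013.CB1_903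

open scoped NNReal

variable {K L : Type*} [Field K] [Field L] [Algebra K L]

/-- The extensions of `v`. -/
def Ext (L : Type*) [Field L] [Algebra K L] (v : Valuation K ℝ≥0) : Type _ :=
  {w : Valuation L ℝ≥0 // ∀ c, w (algebraMap K L c) = v c}

/-- Equality of two extensions. -/
theorem eq_of_le_one_iff {v : Valuation K ℝ≥0} (hv : ∃ c, v c ≠ 0 ∧ v c ≠ 1)
    {w w' : Valuation L ℝ≥0} (hw : ∀ c, w (algebraMap K L c) = v c)
    (hw' : ∀ c, w' (algebraMap K L c) = v c) (h : ∀ x, w x ≤ 1 ↔ w' x ≤ 1) : w = w' := by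
  refine LiftA_168.eq_of_isEquiv hv hw hw' ?_
  have h1 : w.IsEquiv w' := (Valuation.isEquiv_iff_val_le_one).2 (fun {x} => h x)
  intro x y
  rw [LiftA_168.abv_apply, LiftA_168.abv_apply, LiftA_168.abv_apply, LiftA_168.abv_apply]
  rw [NNReal.coe_le_coe, NNReal.coe_le_coe]
  exact h1 x y

/-- Galois action on the extensions. -/
noncomputable instance (v : Valuation K ℝ≥0) : MulAction (L ≃ₐ[K] L) (Ext L v) where
  smul σ w := ⟨w.1.comap (σ.symm : L →+* L), fun c => by
    change w.1 (σ.symm (algebraMap K L c)) = v c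
    rw [AlgEquiv.commutes]
    exact w.2 c⟩
  one_smul w := Subtype.ext (Valuation.ext fun x => rfl)
  mul_smul σ τ w := Subtype.ext (Valuation.ext fun x => rfl)

theorem smul_apply {v : Valuation K ℝ≥0} (σ : L ≃ₐ[K] L) (w : Ext L v) (x : L) :
    (σ • w).1 x = w.1 (σ.symm x) := rfl

section Galois

variable [FiniteDimensional K L] [IsGalois K L] {v : Valuation K ℝ≥0}
  (hv : ∃ c, v c ≠ 0 ∧ v c ≠ 1)

include hv

/-- transitivity -/
theorem exists_smul_eq (w w' : Ext L v) : ∃ σ : L ≃ₐ[K] L, σ • w = w' := by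
  obtain ⟨σ, hσ⟩ := Hens_899.exists_conj (K := K) w.1 w'.1 (fun a => by rw [w.2, w'.2])
  refine ⟨σ⁻¹, Subtype.ext ?_⟩
  refine eq_of_le_one_iff hv (σ⁻¹ • w).2 w'.2 fun x => ?_
  rw [smul_apply]
  exact hσ x

theorem card_mul_card (w : Ext L v) :
    Nat.card (Ext L v) * Nat.card (MulAction.stabilizer (L ≃ₐ[K] L) w) = Module.finrank K L := by
  classical
  have h1 : MulAction.orbit (L ≃ₐ[K] L) w = Set.univ :=
    Set.eq_univ_of_forall fun w' => by
      obtain ⟨σ, hσ⟩ := exists_smul_eq hv w w'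
      exact ⟨σ, hσ⟩
  have h2 := Nat.card_congr (MulAction.orbitProdStabilizerEquivGroup (L ≃ₐ[K] L) w)
  rw [Nat.card_prod, h1, Nat.card_univ, IsGalois.card_aut_eq_finrank] at h2
  exact h2

theorem finite_ext : Finite (Ext L v) := by
  rcases isEmpty_or_nonempty (Ext L v) with h | ⟨⟨w⟩⟩
  · infer_instance
  · have h1 := card_mul_card hv w
    refine Nat.finite_of_card_ne_zero fun h0 => ?_
    rw [h0, zero_mul] at h1
    exact (Module.finrank_pos (R := K) (M := L)).ne h1

theorem card_le : Nat.card (Ext L v) ≤ Module.finrank K L := by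
  rcases isEmpty_or_nonempty (Ext L v) with h | ⟨⟨w⟩⟩
  · rw [Nat.card_of_isEmpty]; exact Nat.zero_le _
  · rw [← card_mul_card hv w]
    refine Nat.le_mul_of_pos_right _ (Nat.card_pos)

/-- If the stabilizer is non-trivial, there are at most `n/2` extensions. -/
theorem two_mul_card_le_of (h : ∀ w : Ext L v, MulAction.stabilizer (L ≃ₐ[K] L) w ≠ ⊥) :
    2 * Nat.card (Ext L v) ≤ Module.finrank K L := by
  rcases isEmpty_or_nonempty (Ext L v) with h' | ⟨⟨w⟩⟩
  · rw [Nat.card_of_isEmpty, mul_zero]; exact Nat.zero_le _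
  · rw [← card_mul_card hv w, mul_comm]
    refine Nat.mul_le_mul_left _ ?_
    have h1 : 1 < Nat.card (MulAction.stabilizer (L ≃ₐ[K] L) w) := by
      rw [Subgroup.one_lt_card_iff_ne_bot]
      exact h w
    exact h1

/-- Trivial stabilizer: `K` is dense in `L` for `w`. -/
theorem dense_of_stabilizer (w : Ext L v)
    (h : MulAction.stabilizer (L ≃ₐ[K] L) w = ⊥) (y : L) (ε : ℝ≥0) (hε : 0 < ε) :
    ∃ g : K, w.1 (algebraMap K L g - y) < ε := by
  classical
  have hinj : Function.Injective fun σ : L ≃ₐ[K] L => (σ • w).1 := by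
    intro σ τ hστ
    have h1 : σ • w = τ • w := Subtype.ext hστ
    have h2 : τ⁻¹ * σ ∈ MulAction.stabilizer (L ≃ₐ[K] L) w := by
      rw [MulAction.mem_stabilizer_iff, mul_smul, h1, inv_smul_smul]
    rw [h, Subgroup.mem_bot] at h2
    exact (inv_mul_eq_one.1 h2).symm
  obtain ⟨z, hz⟩ := LiftA_168.weak_approx (k := K) hv (fun σ : L ≃ₐ[K] L => (σ • w).1) hinj
    (fun σ c => (σ • w).2 c) (fun σ => if σ = 1 then y else 0) ε hε
  have htr : algebraMap K L (Algebra.trace K L z) = ∑ σ : L ≃ₐ[K] L, σ z :=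
    trace_eq_sum_automorphisms z
  refine ⟨Algebra.trace K L z, ?_⟩
  rw [htr, ← Finset.add_sum_erase _ _ (Finset.mem_univ (1 : L ≃ₐ[K] L))]
  have e1 : (1 : L ≃ₐ[K] L) z + ∑ σ ∈ Finset.univ.erase (1 : L ≃ₐ[K] L), σ z - y =
      (z - y) + ∑ σ ∈ Finset.univ.erase (1 : L ≃ₐ[K] L), σ z := by
    rw [AlgEquiv.one_apply]; ring
  rw [e1]
  have h1 : w.1 (z - y) < ε := by
    have := hz 1
    rw [if_pos rfl] at this
    exact this
  refine Valuation.map_add_lt _ h1 ?_
  refine Valuation.map_sum_lt _ hε.ne' fun σ hσ => ?_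
  have h2 := hz σ⁻¹
  have h3 : σ⁻¹ ≠ 1 := fun h0 => Finset.ne_of_mem_erase hσ (inv_eq_one.1 h0)
  rw [if_neg h3, sub_zero] at h2
  exact h2

/-- `y^N = h ∈ K`, `h` not an `N`-th power times a `1`-unit at `v`: at most `n/2` extensions. -/
theorem two_mul_card_le (N : ℕ) (hf : K) (h0 : hf ≠ 0) (y : L) (hy : y ^ N = algebraMap K L hf)
    (hno : ∀ g : K, g ≠ 0 → ¬ v (hf / g ^ N - 1) < 1) :
    2 * Nat.card (Ext L v) ≤ Module.finrank K L := by
  refine two_mul_card_le_of hv fun w hst => ?_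
  rcases Nat.eq_zero_or_pos N with rfl | hN
  · refine hno 1 one_ne_zero ?_
    have : hf = 1 := by
      rw [pow_zero] at hy
      exact ((map_eq_one_iff (algebraMap K L) (algebraMap K L).injective).1 hy.symm)
    rw [this, one_pow, div_one, sub_self, map_zero]
    exact one_pos
  have hy0 : y ≠ 0 := by
    rintro rfl
    rw [zero_pow hN.ne'] at hy
    exact h0 ((map_eq_zero _).1 hy.symm)
  have hwy : 0 < w.1 y := zero_lt_iff.2 ((Valuation.ne_zero_iff _).2 hy0)
  obtain ⟨g, hg⟩ := dense_of_stabilizer hv w hst y (w.1 y) hwy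
  have hg0 : g ≠ 0 := by
    rintro rfl
    rw [map_zero, zero_sub, Valuation.map_neg] at hg
    exact lt_irrefl _ hg
  have hg1 : algebraMap K L g ≠ 0 := (map_ne_zero _).2 hg0
  refine hno g hg0 ?_
  rw [← w.2]
  have e : algebraMap K L (hf / g ^ N - 1) = (y / algebraMap K L g) ^ N - 1 := by
    rw [map_sub, map_div₀, ← hy, map_pow, map_one, div_pow]
  rw [e]
  set x : L := y / algebraMap K L g with hx
  have h1 : w.1 (algebraMap K L g) = w.1 y := by
    have : algebraMap K L g = y + (algebraMap K L g - y) := by ring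
    rw [this]
    exact Valuation.map_add_eq_of_lt_left _ hg
  have h2 : w.1 (x - 1) < 1 := by
    have : x - 1 = -(algebraMap K L g - y) / algebraMap K L g := by
      rw [hx]; field_simp; ring
    rw [this, map_div₀, Valuation.map_neg, h1]
    exact (div_lt_one₀ hwy).2 hg
  have hx1 : w.1 x ≤ 1 := by
    have : x = (x - 1) + 1 := by ring
    rw [this]
    exact (w.1.map_add _ _).trans (max_le h2.le (by rw [map_one]))
  clear_value x
  clear e hN hy hno
  induction N with
  | zero => simp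
  | succ n ih =>
    have : x ^ (n + 1) - 1 = (x ^ n - 1) * x + (x - 1) := by ring
    rw [this]
    refine Valuation.map_add_lt _ ?_ h2
    rw [map_mul]
    calc w.1 (x ^ n - 1) * w.1 x ≤ w.1 (x ^ n - 1) * 1 := mul_le_mul_right hx1 _
      _ < 1 := by rw [mul_one]; exact ih

end Galois

end Crest.Agent.R013.CB1_903
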