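import Crest.Agent.R013.SSDefs_332
import Crest.Agent.R013.CB1a_903

/-!
# C-B1, part b: the graph of a semistable structure; counting
-/

set_option autoImplicit false

namespace Crest.Agent.R013.CB1_903

open scoped NNReal
open Crest.Agent.R013.RR7_948 Crest.Agent.R013.Red332 Crest.Agent.R013.SSK_332

section Count

variable {V Ed VL EdL : Type*} [Fintype V] [Fintype Ed] [Fintype VL] [Fintype EdL]

/-- two vertices which are not totally split force a loop -/
theorem card_le_card (n : ℕ) (f : VL → V) (hE : Fintype.card EdL = n * Fintype.card Ed)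
    (hf : ∀ v, Nat.card {w // f w = v} ≤ n) (v1 v2 : V) (h12 : v1 ≠ v2)
    (h1 : 2 * Nat.card {w // f w = v1} ≤ n) (h2 : 2 * Nat.card {w // f w = v2} ≤ n)
    (hconn : Fintype.card V ≤ Fintype.card Ed + 1) : Fintype.card VL ≤ Fintype.card EdL := by
  classical
  have e1 : Fintype.card VL = ∑ v, Nat.card {w // f w = v} := by
    rw [← Fintype.card_congr (Equiv.sigmaFiberEquiv f), Fintype.card_sigma]
    refine Finset.sum_congr rfl fun v _ => ?_
    rw [Nat.card_eq_fintype_card]
  have e2 : ∑ v, Nat.card {w // f w = v} = Nat.card {w // f w = v1} + (Nat.card {w // f w = v2} +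
      ∑ v ∈ (Finset.univ.erase v1).erase v2, Nat.card {w // f w = v}) := by
    rw [Finset.add_sum_erase _ (fun v => Nat.card {w // f w = v})
      (Finset.mem_erase.2 ⟨h12.symm, Finset.mem_univ _⟩),
      Finset.add_sum_erase _ (fun v => Nat.card {w // f w = v}) (Finset.mem_univ _)]
  have e3 : ∑ v ∈ (Finset.univ.erase v1).erase v2, Nat.card {w // f w = v} ≤
      (Fintype.card V - 2) * n := by
    refine (Finset.sum_le_card_nsmul _ _ n fun v _ => hf v).trans ?_
    rw [smul_eq_mul, Finset.card_erase_of_mem (Finset.mem_erase.2 ⟨h12.symm, Finset.mem_univ _⟩),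
      Finset.card_erase_of_mem (Finset.mem_univ _), Finset.card_univ, Nat.sub_sub]
  have h3 : 2 ≤ Fintype.card V := by
    have := Fintype.one_lt_card_iff.2 ⟨v1, v2, h12⟩
    omega
  obtain ⟨m, hm⟩ := Nat.exists_eq_add_of_le h3
  rw [hm] at e3 hconn
  have e4 : 2 + m - 2 = m := by omega
  rw [e4] at e3
  rw [e1, e2, hE]
  have e5 : n * (m + 1) ≤ n * Fintype.card Ed := Nat.mul_le_mul_left _ (by omega)
  have e6 : n * (m + 1) = m * n + n := by ring
  omega

end Count

section Graph

variable {k C K : Type*} [NontriviallyNormedField k] [CompleteSpace k]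
    [NormedField C] [IsUltrametricDist C] [NormedAlgebra k C] [Algebra.IsAlgebraic k C]
    [Field K] [Algebra C K] (S : SSK k C K)

/-- number of vertices -/
noncomputable def nV : ℕ := @Fintype.card S.V S.fV

/-- number of edges -/
noncomputable def nE : ℕ := @Fintype.card S.Ed S.fEd

/-- a connected graph has at most `#Ed + 1` vertices -/
theorem nV_le (h : S.Conn) : nV S ≤ nE S + 1 := by
  classical
  let i1 := S.fV
  let i2 := S.fEd
  let G : SimpleGraph S.V := SimpleGraph.fromRel S.Adj
  have hne : Nonempty S.V := h.1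
  have hG : G.Connected := by
    refine { preconnected := fun v w => ?_, nonempty := hne }
    have := h.2 v w
    induction this with
    | refl => exact SimpleGraph.Reachable.refl _
    | tail _ hbc ih =>
      rename_i b c _
      by_cases hbc' : b = c
      · rw [← hbc']; exact ih
      · refine ih.trans (SimpleGraph.Adj.reachable ?_)
        rw [SimpleGraph.fromRel_adj]
        exact ⟨hbc', Or.inl hbc⟩
  have h1 := hG.card_vert_le_card_edgeSet_add_one
  have h2 : Nat.card G.edgeSet ≤ Nat.card S.Ed := by
    let φ : S.Ed → Sym2 S.V := fun e => s((S.e0 e).1, (S.e1 e).1)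
    have h3 : G.edgeSet ⊆ Set.range φ := by
      intro a ha
      induction a using Sym2.ind with
      | _ a b =>
        rw [SimpleGraph.mem_edgeSet, SimpleGraph.fromRel_adj] at ha
        rcases ha with ⟨-, ⟨e, h4⟩ | ⟨e, h4⟩⟩
        · rcases h4 with ⟨h5, h6⟩ | ⟨h5, h6⟩
          · exact ⟨e, by simp [φ, h5, h6]⟩
          · exact ⟨e, by simp [φ, h5, h6, Sym2.eq_swap]⟩
        · rcases h4 with ⟨h5, h6⟩ | ⟨h5, h6⟩
          · exact ⟨e, by simp [φ, h5, h6, Sym2.eq_swap]⟩
          · exact ⟨e, by simp [φ, h5, h6]⟩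
    calc Nat.card G.edgeSet ≤ Nat.card (Set.range φ) := Nat.card_mono (Set.finite_range φ) h3
      _ ≤ Nat.card S.Ed := by
          exact Nat.card_le_card_of_surjective _ Set.rangeFactorization_surjective
  rw [Nat.card_eq_fintype_card (α := S.V)] at h1
  rw [Nat.card_eq_fintype_card (α := S.Ed)] at h2
  unfold nV nE
  omega

end Graph

end Crest.Agent.R013.CB1_903
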