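import Mathlib
import Crest.Agent.R013.RR12_948
import Crest.Agent.R013.PicD_398

/-!
# R013 / CntA1: counting effective divisors over a finite field (helper560)

`k` finite, `K` a finite separable extension of `k(X)` (no hypothesis on constants unless stated).
-/

set_option autoImplicit false
set_option linter.all false

namespace Crest.Agent.R013.CntA1_560

open Polynomial WithZero Module IsDedekindDomain nonZeroDivisors
open Crest.Agent.R013.RR1_948 Crest.Agent.R013.RR2_948 Crest.Agent.R013.RR3_948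
open Crest.Agent.R013.RR4_948 Crest.Agent.R013.RR5_948 Crest.Agent.R013.RR6_948
open Crest.Agent.R013.RR7_948 Crest.Agent.R013.RR8_948 Crest.Agent.R013.RR9_948
open Crest.Agent.R013.RR11_948 Crest.Agent.R013.RR12_948 Crest.Agent.R013.PicD_398

section Residue

variable {k : Type*} [Field k] {K : Type*} [Field K] [Algebra k K]

/-- the maximal ideal of the valuation ring of a place -/
noncomputable def mI (P : Pl k K) : Ideal P.v.integer where
  carrier := {a | P.v (a : K) < 1}
  add_mem' {a b} ha hb := by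
    simp only [Set.mem_ofPred_eq] at ha hb ⊢
    exact lt_of_le_of_lt (Valuation.map_add _ _ _) (max_lt ha hb)
  zero_mem' := by simp
  smul_mem' c a ha := by
    simp only [Set.mem_ofPred_eq] at ha ⊢
    have h1 : P.v (c : K) ≤ 1 := c.2
    show P.v ((c : K) * (a : K)) < 1
    rw [map_mul]
    calc P.v (c : K) * P.v (a : K) ≤ 1 * P.v (a : K) := mul_le_mul_left h1 _
      _ < 1 := by rwa [one_mul]

theorem mem_mI {P : Pl k K} {a : P.v.integer} : a ∈ mI P ↔ P.v (a : K) < 1 := by
  rw [← SetLike.mem_coe]; simp [mI]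

instance mI_isMaximal (P : Pl k K) : (mI P).IsMaximal := by
  rw [Ideal.isMaximal_iff]
  refine ⟨?_, ?_⟩
  · rw [mem_mI]; simp
  · intro J x hJ hx hxJ
    rw [mem_mI, not_lt] at hx
    have hx1 : P.v (x : K) = 1 := le_antisymm x.2 hx
    have hx0 : (x : K) ≠ 0 := by
      intro h; rw [h, map_zero] at hx1; exact zero_ne_one hx1
    have hy : (x : K)⁻¹ ∈ P.v.integer := by
      show P.v (x : K)⁻¹ ≤ 1
      rw [map_inv₀, hx1, inv_one]
    have : (1 : P.v.integer) = ⟨(x : K)⁻¹, hy⟩ * x := by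
      ext; show (1 : K) = (x : K)⁻¹ * x
      rw [inv_mul_cancel₀ hx0]
    rw [this]
    exact J.mul_mem_left _ hxJ

/-- the quotient by the maximal ideal has the cardinality of `ball 0 / ball (-1)` -/
theorem card_quot (P : Pl k K) : Nat.card (P.v.integer ⧸ mI P) =
    Nat.card (ball P 0 ⧸ (ball P (-1)).submoduleOf (ball P 0)) := by
  let f : P.v.integer →+ (ball P 0 ⧸ (ball P (-1)).submoduleOf (ball P 0)) :=
    { toFun := fun a => Submodule.Quotient.mk ⟨(a : K), by rw [mem_ball, exp_zero]; exact a.2⟩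
      map_zero' := by rfl
      map_add' := fun a b => by rfl }
  have hf : Function.Surjective f := by
    intro y
    obtain ⟨⟨y, hy⟩, rfl⟩ := Submodule.Quotient.mk_surjective _ y
    have hy' : y ∈ P.v.integer := by
      rw [mem_ball, exp_zero] at hy; exact hy
    exact ⟨⟨y, hy'⟩, rfl⟩
  have hker : f.ker = (mI P).toAddSubgroup := by
    ext a
    rw [AddMonoidHom.mem_ker]
    show Submodule.Quotient.mk _ = _ ↔ _
    rw [Submodule.Quotient.mk_eq_zero, Submodule.submoduleOf, Submodule.mem_comap, mem_ball,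
      ← lt_one_iff]
    exact mem_mI.symm
  have e1 := QuotientAddGroup.quotientKerEquivOfSurjective f hf
  have e2 := (QuotientAddGroup.quotientAddEquivOfEq hker).symm.trans e1
  exact Nat.card_congr e2.toEquiv

theorem card_quot_eq_pow [Finite k] (P : Pl k K) (h : degE P = degP P) :
    Nat.card (P.v.integer ⧸ mI P) = Nat.card k ^ degP P := by
  rw [card_quot]
  have h1 := RR10_948.finite_of_length (k := k)
    (M := ball P 0 ⧸ (ball P (-1)).submoduleOf (ball P 0)) h
  haveI := h1.1
  rw [Module.natCard_eq_pow_finrank (K := k), h1.2]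

/-- Fermat at a place: `x ^ (q ^ N) - x` vanishes at `P` if `deg P ∣ N` and `x` is regular at `P` -/
theorem v_pow_sub_lt [Finite k] (P : Pl k K) (h : degE P = degP P) {N : ℕ} (hN : degP P ∣ N)
    {x : K} (hx : P.v x ≤ 1) : P.v (x ^ (Nat.card k ^ N) - x) < 1 := by
  classical
  have hcard := card_quot_eq_pow P h
  letI : Field (P.v.integer ⧸ mI P) := Ideal.Quotient.field _
  have hfin : Finite (P.v.integer ⧸ mI P) := by
    apply Nat.finite_of_card_ne_zero
    rw [hcard]
    exact pow_ne_zero _ (Nat.card_pos).ne'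
  letI := Fintype.ofFinite (P.v.integer ⧸ mI P)
  obtain ⟨m, rfl⟩ := hN
  have key : ∀ (m : ℕ) (a : P.v.integer ⧸ mI P), a ^ (Nat.card k ^ (degP P * m)) = a := by
    intro m a
    rw [pow_mul, ← hcard, Nat.card_eq_fintype_card]
    exact FiniteField.pow_card_pow m a
  let y : P.v.integer := ⟨x, hx⟩
  have h2 := key m (Ideal.Quotient.mk (mI P) y)
  rw [← map_pow, ← sub_eq_zero, ← map_sub, Ideal.Quotient.eq_zero_iff_mem, mem_mI] at h2
  exact h2

end Residue

section Global

variable {k : Type*} [Field k] {K : Type*} [Field K] [Algebra k K] [Algebra (RatFunc k) K]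
  [IsScalarTower k (RatFunc k) K] [FiniteDimensional (RatFunc k) K]
  [Algebra.IsSeparable (RatFunc k) K]

theorem xK_transcendental : ¬ IsAlgebraic k (xK k K) := by
  intro h
  have h3 : IsAlgebraic k (RatFunc.X : RatFunc k) := by
    have : IsAlgebraic k (algebraMap (RatFunc k) K RatFunc.X) := h
    exact (isAlgebraic_algebraMap_iff (algebraMap (RatFunc k) K).injective).mp this
  exact RatFunc.transcendental_X h3

theorem pow_sub_ne_zero {x : K} (hx : ¬ IsAlgebraic k x) {n : ℕ} (hn : 1 < n) : x ^ n - x ≠ 0 := by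
  intro h
  apply hx
  refine ⟨Polynomial.X ^ n - Polynomial.X, ?_, by simpa using h⟩
  intro h0
  have h1 := FiniteField.X_pow_card_sub_X_natDegree_eq k hn
  rw [h0, Polynomial.natDegree_zero] at h1
  omega

variable [Finite k]

/-- finitely many places of bounded degree -/
theorem finite_degP_le (n : ℕ) : {P : Pl k K | degP P ≤ n}.Finite := by
  have hq : 1 < Nat.card k := Finite.one_lt_card
  have hN : 1 < Nat.card k ^ n.factorial := Nat.one_lt_pow (Nat.factorial_ne_zero n) hq
  have hx := xK_transcendental (k := k) (K := K)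
  have hf : xK k K ^ (Nat.card k ^ n.factorial) - xK k K ≠ 0 := pow_sub_ne_zero hx hN
  refine (finite_ne_one (k := k) hf).subset ?_
  intro P hP
  simp only [Set.mem_ofPred_eq] at hP ⊢
  rcases le_or_gt (P.v (xK k K)) 1 with h | h
  · have hdvd : degP P ∣ n.factorial := Nat.dvd_factorial (degP_pos P) hP
    exact (v_pow_sub_lt P (degE_eq P) hdvd h).ne
  · have h1 : P.v (xK k K) < P.v (xK k K ^ (Nat.card k ^ n.factorial)) := by
      rw [map_pow]
      calc P.v (xK k K) = P.v (xK k K) ^ 1 := (pow_one _).symm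
        _ < _ := pow_lt_pow_right₀ h hN
    rw [Valuation.map_sub_eq_of_lt_left _ h1, map_pow]
    exact (one_lt_pow₀ h (by omega)).ne'


theorem mul_degP_le {D : Pl k K →₀ ℤ} (hD : 0 ≤ D) (P : Pl k K) : D P * degP P ≤ degD D := by
  classical
  by_cases hP : P ∈ D.support
  · unfold degD Finsupp.sum
    exact Finset.single_le_sum (f := fun P => D P * (degP P : ℤ))
      (fun Q _ => mul_nonneg (hD Q) (by positivity)) hP
  · rw [Finsupp.notMem_support_iff] at hP
    rw [hP, zero_mul]
    exact degD_nonneg hD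

/-- finitely many effective divisors of a given degree -/
theorem finite_eff (n : ℤ) : {D : Pl k K →₀ ℤ | 0 ≤ D ∧ degD D = n}.Finite := by
  classical
  let S : Finset (Pl k K) := (finite_degP_le (k := k) (K := K) n.toNat).toFinset
  refine (Set.finite_Icc (0 : Pl k K →₀ ℤ) (∑ P ∈ S, Finsupp.single P n)).subset ?_
  rintro D ⟨h0, hD⟩
  have hn : 0 ≤ n := hD ▸ degD_nonneg h0
  refine ⟨h0, ?_⟩
  intro P
  have key := mul_degP_le h0 P
  rw [hD] at key
  have hd : (1 : ℤ) ≤ degP P := by exact_mod_cast degP_pos P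
  have hDP : 0 ≤ D P := h0 P
  rw [Finsupp.finsetSum_apply]
  by_cases hP : P ∈ S
  · rw [Finset.sum_eq_single P]
    · rw [Finsupp.single_eq_same]
      nlinarith
    · intro Q _ hQ
      rw [Finsupp.single_apply, if_neg hQ]
    · intro h; exact absurd hP h
  · have h1 : n.toNat < degP P := by
      by_contra hcon
      exact hP ((Set.Finite.mem_toFinset _).mpr (not_lt.mp hcon))
    have h2 : n < degP P := by
      have h3 := Int.toNat_of_nonneg hn
      omega
    rw [Finset.sum_eq_zero]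
    · by_contra hcon
      rw [not_le] at hcon
      nlinarith
    · intro Q hQ
      rw [Finsupp.single_apply, if_neg (fun h : Q = P => hP (h ▸ hQ))]

/-- the effective divisors of degree `n` -/
noncomputable def eff (n : ℤ) : Finset (Pl k K →₀ ℤ) := (finite_eff n).toFinset

@[simp] theorem mem_eff {n : ℤ} {D : Pl k K →₀ ℤ} : D ∈ eff n ↔ 0 ≤ D ∧ degD D = n := by
  unfold eff
  rw [Set.Finite.mem_toFinset]; rfl

/-- `A_n(φ)`, the sum of `φ` over the effective divisors of degree `n` -/
noncomputable def An {R : Type*} [CommRing R] (φ : Pic k K → R) (n : ℤ) : R :=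
  ∑ D ∈ eff n, φ (cls D)

omit [Finite k] in
theorem one_le_ell_zero : 1 ≤ ell (0 : Pl k K →₀ ℤ) := by
  have h : 0 < ell (0 : Pl k K →₀ ℤ) :=
    ell_pos_iff.mpr ⟨1, one_ne_zero, by rw [divf_one]; simp⟩
  exact h

omit [Finite k] in
/-- Riemann's inequality without hypothesis on constants -/
theorem ell_ge' (D : Pl k K →₀ ℤ) :
    degD D + ell (0 : Pl k K →₀ ℤ) - ell (canD k K) ≤ ell D := by
  have h := rr_chi D
  have : (0 : ℤ) ≤ ell (canD k K - D) := by positivity
  linarith

omit [Finite k] in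
theorem ell_pos_of_le {D : Pl k K →₀ ℤ} (h : (ell (canD k K) : ℤ) ≤ degD D) : 0 < ell D := by
  have h1 := ell_ge' D
  have h2 := one_le_ell_zero (k := k) (K := K)
  omega

omit [Finite k] in
theorem ellPic_pos_of_le {z : Pic k K} (h : (ell (canD k K) : ℤ) ≤ degPic z) : 0 < ellPic z := by
  obtain ⟨D, rfl⟩ := cls_surjective z
  exact ell_pos_of_le h

/-- finitely many classes of a given degree -/
theorem finite_degPic (n : ℤ) : {z : Pic k K | degPic z = n}.Finite := by
  classical
  obtain ⟨P0, -⟩ := exists_notMem (k := k) (K := K) ∅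
  have hd : (1 : ℤ) ≤ degP P0 := by exact_mod_cast degP_pos P0
  obtain ⟨m, hm⟩ : ∃ m : ℤ, (ell (canD k K) : ℤ) ≤ n + m * degP P0 := by
    refine ⟨max 0 (ell (canD k K) - n), ?_⟩
    have h1 := le_max_left (0 : ℤ) (ell (canD k K) - n)
    have h2 := le_max_right (0 : ℤ) (ell (canD k K) - n)
    nlinarith
  refine ((finite_eff (k := k) (K := K) (n + m * degP P0)).image
    (fun D => cls D - cls (Finsupp.single P0 m))).subset ?_
  intro z hz
  simp only [Set.mem_ofPred_eq] at hz
  have h1 : degPic (z + cls (Finsupp.single P0 m)) = n + m * degP P0 := by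
    rw [map_add, degPic_cls, hz, degD_single]
  obtain ⟨D, hD0, hD⟩ := ellPic_pos_iff.mp (ellPic_pos_of_le (z := z + cls (Finsupp.single P0 m))
    (by rw [h1]; exact hm))
  refine ⟨D, ⟨hD0, ?_⟩, ?_⟩
  · rw [← degPic_cls, hD, h1]
  · show cls D - cls (Finsupp.single P0 m) = z
    rw [hD]; abel

instance finite_Pic0 : Finite (Pic0 k K) := by
  have h := finite_degPic (k := k) (K := K) 0
  exact h.to_subtype

/-- the classes of degree `n` -/
noncomputable def picF (n : ℤ) : Finset (Pic k K) := (finite_degPic n).toFinset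

@[simp] theorem mem_picF {n : ℤ} {z : Pic k K} : z ∈ picF n ↔ degPic z = n := by
  unfold picF
  rw [Set.Finite.mem_toFinset]; rfl

theorem finite_LD (D : Pl k K →₀ ℤ) : Finite (LD D) := by
  haveI := LD_finite D
  exact Module.finite_of_finite k

theorem card_LD (D : Pl k K →₀ ℤ) : Nat.card (LD D) = Nat.card k ^ ell D := by
  haveI := LD_finite D
  exact Module.natCard_eq_pow_finrank (K := k)

theorem card_ne_zero (D : Pl k K →₀ ℤ) :
    Nat.card {f : LD D // f ≠ 0} + 1 = Nat.card k ^ ell D := by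
  haveI := finite_LD D
  rw [← card_LD, ← Finite.card_option]
  classical
  exact Nat.card_congr (Equiv.optionSubtypeNe (0 : LD D))

omit [Finite k] in
theorem divf_eq_zero_of_LD_zero {u : K} (hu0 : u ≠ 0) (hu : u ∈ LD (0 : Pl k K →₀ ℤ)) :
    divf (k := k) u = 0 := by
  rw [mem_LD_iff hu0, zero_add] at hu
  exact eq_zero_of_nonneg hu (degD_divf hu0)

omit [Finite k] in
theorem LD_zero_of_divf {u : K} (hu0 : u ≠ 0) (hu : divf (k := k) u = 0) :
    u ∈ LD (0 : Pl k K →₀ ℤ) := by
  rw [mem_LD_iff hu0, zero_add, hu]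

omit [Finite k] in
theorem divf_div {f g : K} (hf : f ≠ 0) (hg : g ≠ 0) :
    divf (k := k) (f / g) = divf f - divf g := by
  rw [div_eq_mul_inv, divf_mul hf (inv_ne_zero hg), divf_inv hg, sub_eq_add_neg]

/-- number of effective divisors in a class -/
theorem card_cls (z : Pic k K) :
    (Nat.card k ^ ell (0 : Pl k K →₀ ℤ) - 1) * Nat.card {D : Pl k K →₀ ℤ // 0 ≤ D ∧ cls D = z} + 1
      = Nat.card k ^ ellPic z := by
  classical
  obtain ⟨D0, rfl⟩ := cls_surjective z
  rw [ellPic_cls, ← card_ne_zero D0]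
  have h0 : Nat.card k ^ ell (0 : Pl k K →₀ ℤ) - 1 =
      Nat.card {f : LD (0 : Pl k K →₀ ℤ) // f ≠ 0} := by
    rw [← card_ne_zero]; rfl
  rw [h0, mul_comm, ← Nat.card_prod]
  congr 1
  have hex : ∀ D : {D : Pl k K →₀ ℤ // 0 ≤ D ∧ cls D = cls D0}, ∃ f : K, f ≠ 0 ∧
      (D : Pl k K →₀ ℤ) = D0 + divf f := fun D => cls_eq_iff.mp D.2.2
  choose F hF0 hF using hex
  symm
  refine Nat.card_congr (Equiv.ofBijective (β := {f : LD D0 // f ≠ 0}) (α := _ × _) ?_ ?_).symm
  · rintro ⟨D, u⟩
    have hu0 : ((u.1 : K)) ≠ 0 := fun h => u.2 (Subtype.ext h)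
    refine ⟨⟨(u.1 : K) * F D, ?_⟩, ?_⟩
    · rw [mem_LD_iff (mul_ne_zero hu0 (hF0 D)), divf_mul hu0 (hF0 D),
        divf_eq_zero_of_LD_zero hu0 u.1.2, zero_add, ← hF]
      exact D.2.1
    · intro h
      exact mul_ne_zero hu0 (hF0 D) (congrArg Subtype.val h)
  · constructor
    · rintro ⟨D, u⟩ ⟨D', u'⟩ h
      have hu0 : ((u.1 : K)) ≠ 0 := fun h => u.2 (Subtype.ext h)
      have hu0' : ((u'.1 : K)) ≠ 0 := fun h => u'.2 (Subtype.ext h)
      have h1 : (u.1 : K) * F D = (u'.1 : K) * F D' := congrArg (fun x => ((x.1 : LD D0) : K)) h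
      have h2 := congrArg (divf (k := k)) h1
      rw [divf_mul hu0 (hF0 D), divf_mul hu0' (hF0 D'), divf_eq_zero_of_LD_zero hu0 u.1.2,
        divf_eq_zero_of_LD_zero hu0' u'.1.2, zero_add, zero_add] at h2
      have h3 : D = D' := by
        apply Subtype.ext
        rw [hF, hF, h2]
      subst h3
      have h4 : (u.1 : K) = u'.1 := mul_right_cancel₀ (hF0 D) h1
      have h5 : u = u' := Subtype.ext (Subtype.ext h4)
      rw [h5]
    · rintro ⟨⟨f, hf⟩, hf0⟩
      have hf0' : f ≠ 0 := fun h => hf0 (Subtype.ext h)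
      let D : {D : Pl k K →₀ ℤ // 0 ≤ D ∧ cls D = cls D0} :=
        ⟨D0 + divf f, (mem_LD_iff hf0').mp hf, cls_eq_iff.mpr ⟨f, hf0', rfl⟩⟩
      have h1 : f / F D ∈ LD (0 : Pl k K →₀ ℤ) := by
        apply LD_zero_of_divf (div_ne_zero hf0' (hF0 D))
        rw [divf_div hf0' (hF0 D)]
        have h2 : D0 + divf (k := k) f = D0 + divf (F D) := hF D
        rw [add_left_cancel h2, sub_self]
      refine ⟨⟨D, ⟨⟨f / F D, h1⟩, ?_⟩⟩, ?_⟩
      · intro h
        exact div_ne_zero hf0' (hF0 D) (congrArg Subtype.val h)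
      · apply Subtype.ext
        apply Subtype.ext
        exact div_mul_cancel₀ f (hF0 D)

theorem card_cls_hc (hc : algebraicClosure k K = ⊥) (z : Pic k K) :
    (Nat.card k - 1) * Nat.card {D : Pl k K →₀ ℤ // 0 ≤ D ∧ cls D = z} + 1
      = Nat.card k ^ ellPic z := by
  have h := card_cls z
  rwa [ell_zero hc, pow_one] at h

theorem card_filter_eff {n : ℤ} {z : Pic k K} (hz : degPic z = n) [DecidableEq (Pic k K)] :
    ((eff n).filter fun D => cls D = z).card =
      Nat.card {D : Pl k K →₀ ℤ // 0 ≤ D ∧ cls D = z} := by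
  symm
  apply Nat.subtype_card
  intro D
  rw [Finset.mem_filter, mem_eff]
  constructor
  · rintro ⟨⟨h0, _⟩, h⟩
    exact ⟨h0, h⟩
  · rintro ⟨h0, h⟩
    refine ⟨⟨h0, ?_⟩, h⟩
    rw [← degPic_cls, h, hz]

section Sums

variable {R : Type*} [CommRing R]

/-- general form: `A_n` as a weighted sum over the classes of degree `n` -/
theorem An_eq_sum_card (φ : Pic k K → R) (n : ℤ) : An φ n =
    ∑ z ∈ picF n, (Nat.card {D : Pl k K →₀ ℤ // 0 ≤ D ∧ cls D = z} : R) * φ z := by
  classical
  unfold An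
  rw [← Finset.sum_fiberwise_of_maps_to (s := eff n) (t := picF n) (g := fun D => cls D)]
  · refine Finset.sum_congr rfl fun z hz => ?_
    rw [mem_picF] at hz
    rw [← card_filter_eff hz, ← nsmul_eq_mul, ← Finset.sum_const]
    refine Finset.sum_congr rfl fun D hD => ?_
    rw [(Finset.mem_filter.mp hD).2]
  · intro D hD
    rw [mem_eff] at hD
    rw [mem_picF, degPic_cls, hD.2]

theorem card_cls_cast (z : Pic k K) :
    ((Nat.card k : R) ^ ell (0 : Pl k K →₀ ℤ) - 1) *
      (Nat.card {D : Pl k K →₀ ℤ // 0 ≤ D ∧ cls D = z} : R) = (Nat.card k : R) ^ ellPic z - 1 := by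
  have h := congrArg (Nat.cast : ℕ → R) (card_cls z)
  have h1 : 1 ≤ Nat.card k ^ ell (0 : Pl k K →₀ ℤ) := Nat.one_le_pow _ _ Nat.card_pos
  rw [Nat.cast_add, Nat.cast_mul, Nat.cast_sub h1] at h
  push_cast at h
  rw [← h]; ring

/-- exact form of `A_n` -/
theorem An_exact (φ : Pic k K → R) (n : ℤ) :
    ((Nat.card k : R) ^ ell (0 : Pl k K →₀ ℤ) - 1) * An φ n =
      ∑ z ∈ picF n, ((Nat.card k : R) ^ ellPic z - 1) * φ z := by
  rw [An_eq_sum_card, Finset.mul_sum]
  refine Finset.sum_congr rfl fun z _ => ?_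
  rw [← mul_assoc, card_cls_cast]

theorem An_exact_hc (hc : algebraicClosure k K = ⊥) (φ : Pic k K → R) (n : ℤ) :
    ((Nat.card k : R) - 1) * An φ n = ∑ z ∈ picF n, ((Nat.card k : R) ^ ellPic z - 1) * φ z := by
  have h := An_exact φ n
  rwa [ell_zero hc, pow_one] at h

theorem card_cls_char (hq : (Nat.card k : R) = 0) (z : Pic k K) :
    (Nat.card {D : Pl k K →₀ ℤ // 0 ≤ D ∧ cls D = z} : R) = if 0 < ellPic z then 1 else 0 := by
  have h := card_cls_cast (R := R) z
  have h1 := one_le_ell_zero (k := k) (K := K)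
  rw [hq, zero_pow (by omega)] at h
  have h2 : (Nat.card {D : Pl k K →₀ ℤ // 0 ≤ D ∧ cls D = z} : R) = 1 - 0 ^ ellPic z := by
    linear_combination -h
  rw [h2]
  split_ifs with h3
  · rw [zero_pow (by omega)]; ring
  · rw [Nat.pos_iff_ne_zero, not_not] at h3
    rw [h3]; ring

/-- `A_n` in characteristic `p`: sum over the effective classes -/
theorem An_eq (hq : (Nat.card k : R) = 0) (φ : Pic k K → R) (n : ℤ) :
    An φ n = ∑ z ∈ picF n with 0 < ellPic z, φ z := by
  rw [An_eq_sum_card, Finset.sum_filter]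
  refine Finset.sum_congr rfl fun z _ => ?_
  rw [card_cls_char hq]
  split_ifs <;> simp

theorem An_eq_finsum (hq : (Nat.card k : R) = 0) (φ : Pic k K → R) (n : ℤ) :
    An φ n = ∑ᶠ z ∈ {z : Pic k K | degPic z = n ∧ 0 < ellPic z}, φ z := by
  have h : {z : Pic k K | degPic z = n ∧ 0 < ellPic z} =
      (((picF n).filter fun z => 0 < ellPic z : Finset (Pic k K)) : Set (Pic k K)) := by
    ext z
    simp
  rw [An_eq hq, h, finsum_mem_coe_finset]

theorem natCard_cast_eq_zero (p : ℕ) [Fact p.Prime] [CharP k p] [CharP R p] :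
    (Nat.card k : R) = 0 := by
  haveI := Fintype.ofFinite k
  obtain ⟨n, hp, hn⟩ := FiniteField.card k p
  rw [Nat.card_eq_fintype_card, hn]
  push_cast
  rw [CharP.cast_eq_zero R p, zero_pow n.ne_zero]

theorem An_neg (φ : Pic k K → R) {n : ℤ} (hn : n < 0) : An φ n = 0 := by
  unfold An
  apply Finset.sum_eq_zero
  intro D hD
  rw [mem_eff] at hD
  have := degD_nonneg hD.1
  omega

theorem eff_zero : eff (k := k) (K := K) 0 = {0} := by
  ext D
  rw [mem_eff, Finset.mem_singleton]
  constructor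
  · rintro ⟨h0, h⟩
    exact eq_zero_of_nonneg h0 h
  · rintro rfl
    exact ⟨le_rfl, degD_zero⟩

theorem An_zero (φ : Pic k K → R) : An φ 0 = φ 0 := by
  unfold An
  rw [eff_zero, Finset.sum_singleton, map_zero]

/-- a nontrivial character sums to zero over the classes of degree `n` -/
theorem sum_picF_eq_zero [IsDomain R] (ψ : AddChar (Pic k K) R) {x : Pic k K} (hx : x ∈ Pic0 k K)
    (hψ : ψ x ≠ 1) (n : ℤ) : ∑ z ∈ picF n, ψ z = 0 := by
  have h : ψ x * ∑ z ∈ picF n, ψ z = ∑ z ∈ picF n, ψ z := by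
    rw [Finset.mul_sum]
    refine Finset.sum_bij (fun z _ => x + z) ?_ ?_ ?_ ?_
    · intro z hz
      rw [mem_picF] at hz ⊢
      rw [map_add, mem_Pic0.mp hx, hz, zero_add]
    · intro z _ z' _ h
      exact add_left_cancel h
    · intro z hz
      rw [mem_picF] at hz
      refine ⟨z - x, ?_, by abel⟩
      rw [mem_picF, map_sub, mem_Pic0.mp hx, hz, sub_zero]
    · intro z _
      rw [AddChar.map_add_eq_mul]
  have h1 : (ψ x - 1) * ∑ z ∈ picF n, ψ z = 0 := by
    rw [sub_mul, one_mul, h, sub_self]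
  rcases mul_eq_zero.mp h1 with h2 | h2
  · exact absurd (sub_eq_zero.mp h2) hψ
  · exact h2

omit [Finite k] in
theorem degPic_le_of_ellPic_eq_zero {z : Pic k K} (h : ellPic z = 0) :
    degPic z < ell (canD k K) := by
  by_contra hcon
  have := ellPic_pos_of_le (not_lt.mp hcon)
  omega

/-- `A_n(ψ) = 0` for `n` large, `ψ` nontrivial on `Pic⁰`, characteristic `p` -/
theorem An_eq_zero_of_le [IsDomain R] (hq : (Nat.card k : R) = 0) (ψ : AddChar (Pic k K) R)
    {x : Pic k K} (hx : x ∈ Pic0 k K) (hψ : ψ x ≠ 1) {n : ℤ} (hn : (ell (canD k K) : ℤ) ≤ n) :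
    An ψ n = 0 := by
  rw [An_eq hq, Finset.filter_true_of_mem, sum_picF_eq_zero ψ hx hψ]
  intro z hz
  rw [mem_picF] at hz
  exact ellPic_pos_of_le (by rw [hz]; exact hn)

end Sums


section Counts

theorem card_picF {n : ℤ} {D : Pl k K →₀ ℤ} (hD : degD D = n) :
    (picF (k := k) (K := K) n).card = Nat.card (Pic0 k K) := by
  classical
  symm
  rw [← Nat.card_eq_finsetCard]
  refine Nat.card_congr (Equiv.ofBijective (β := {z // z ∈ picF (k := k) (K := K) n})
    (fun x => ⟨x.1 + cls D, ?_⟩) ⟨?_, ?_⟩)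
  · rw [mem_picF, map_add, mem_Pic0.mp x.2, zero_add, degPic_cls, hD]
  · intro x y h
    have h1 : x.1 + cls D = y.1 + cls D := congrArg Subtype.val h
    exact Subtype.ext (add_right_cancel h1)
  · rintro ⟨z, hz⟩
    rw [mem_picF] at hz
    refine ⟨⟨z - cls D, ?_⟩, ?_⟩
    · rw [mem_Pic0, map_sub, hz, degPic_cls, hD, sub_self]
    · apply Subtype.ext
      show z - cls D + cls D = z
      abel

theorem card_picF_le (n : ℤ) : (picF (k := k) (K := K) n).card ≤ Nat.card (Pic0 k K) := by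
  rcases (picF (k := k) (K := K) n).eq_empty_or_nonempty with h | ⟨z, hz⟩
  · rw [h]; simp
  · obtain ⟨D, rfl⟩ := cls_surjective z
    rw [mem_picF, degPic_cls] at hz
    exact (card_picF hz).le

omit [Finite k] in
theorem ell_le {D : Pl k K →₀ ℤ} (hD : 0 ≤ degD D) :
    (ell D : ℤ) ≤ degD D + ell (0 : Pl k K →₀ ℤ) := by
  rcases Nat.eq_zero_or_pos (ell D) with h | h
  · rw [h]; push_cast; positivity
  · obtain ⟨f, hf, h1⟩ := ell_pos_iff.mp h
    have h2 := rr_chi (D + divf (k := k) f)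
    rw [ell_add_divf D hf, degD_add, degD_divf hf, add_zero] at h2
    have h3 : ell (canD k K - (D + divf f)) ≤ ell (canD k K) :=
      RR12_948.ell_mono (sub_le_self _ h1)
    have h4 : (ell (canD k K - (D + divf f)) : ℤ) ≤ ell (canD k K) := by exact_mod_cast h3
    linarith

/-- upper bound for the number of effective divisors -/
theorem card_eff_le (n : ℕ) : (eff (k := k) (K := K) n).card ≤
    Nat.card (Pic0 k K) * Nat.card k ^ ell (0 : Pl k K →₀ ℤ) * Nat.card k ^ n := by
  have hq : 1 < Nat.card k := Finite.one_lt_card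
  have h0 := one_le_ell_zero (k := k) (K := K)
  have h := An_eq_sum_card (k := k) (K := K) (R := ℤ) (fun _ => 1) n
  unfold An at h
  rw [Finset.sum_const, nsmul_eq_mul, mul_one] at h
  have h1 : ∀ z ∈ picF (k := k) (K := K) n,
      (Nat.card {D : Pl k K →₀ ℤ // 0 ≤ D ∧ cls D = z} : ℤ) * 1 ≤
        ((Nat.card k ^ ell (0 : Pl k K →₀ ℤ) * Nat.card k ^ n : ℕ) : ℤ) := by
    intro z hz
    rw [mem_picF] at hz
    have h2 := card_cls z
    have h3 : Nat.card k ^ ellPic z ≤ Nat.card k ^ ell (0 : Pl k K →₀ ℤ) * Nat.card k ^ n := by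
      rw [← pow_add]
      apply Nat.pow_le_pow_right hq.le
      obtain ⟨D, rfl⟩ := cls_surjective z
      rw [degPic_cls] at hz
      have h4 := ell_le (D := D) (by rw [hz]; positivity)
      rw [hz] at h4
      rw [ellPic_cls]
      omega
    have h4 : 1 ≤ Nat.card k ^ ell (0 : Pl k K →₀ ℤ) - 1 := by
      have : Nat.card k ^ 1 ≤ Nat.card k ^ ell (0 : Pl k K →₀ ℤ) :=
        Nat.pow_le_pow_right hq.le h0
      rw [pow_one] at this
      omega
    have h5 : Nat.card {D : Pl k K →₀ ℤ // 0 ≤ D ∧ cls D = z} ≤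
        Nat.card k ^ ell (0 : Pl k K →₀ ℤ) * Nat.card k ^ n := by
      calc _ = 1 * Nat.card {D : Pl k K →₀ ℤ // 0 ≤ D ∧ cls D = z} := (one_mul _).symm
        _ ≤ (Nat.card k ^ ell (0 : Pl k K →₀ ℤ) - 1) *
            Nat.card {D : Pl k K →₀ ℤ // 0 ≤ D ∧ cls D = z} := Nat.mul_le_mul_right _ h4
        _ ≤ _ := by omega
    rw [mul_one]
    exact_mod_cast h5
  have h2 := Finset.sum_le_sum h1
  rw [← h, Finset.sum_const, nsmul_eq_mul] at h2
  have h3 : (eff (k := k) (K := K) n).card ≤ (picF (k := k) (K := K) n).card *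
      (Nat.card k ^ ell (0 : Pl k K →₀ ℤ) * Nat.card k ^ n) := by exact_mod_cast h2
  refine h3.trans ?_
  rw [mul_assoc]
  exact Nat.mul_le_mul_right _ (card_picF_le n)

/-- number of effective divisors of large degree (of degree `n` such that there is a divisor of
degree `n`) -/
theorem card_eff_mul {n : ℤ} {D : Pl k K →₀ ℤ} (hD : degD D = n) (hn : degD (canD k K) < n) :
    ((Nat.card k : ℝ) ^ ell (0 : Pl k K →₀ ℤ) - 1) * (eff (k := k) (K := K) n).card =
      Nat.card (Pic0 k K) *
        ((Nat.card k : ℝ) ^ (n + ell (0 : Pl k K →₀ ℤ) - ell (canD k K)) - 1) := by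
  have h := An_exact (k := k) (K := K) (R := ℝ) (fun _ => 1) n
  unfold An at h
  rw [Finset.sum_const, nsmul_eq_mul, mul_one] at h
  rw [h]
  have h1 : ∀ z ∈ picF (k := k) (K := K) n, ((Nat.card k : ℝ) ^ ellPic z - 1) * 1 =
      (Nat.card k : ℝ) ^ (n + ell (0 : Pl k K →₀ ℤ) - ell (canD k K)) - 1 := by
    intro z hz
    rw [mem_picF] at hz
    obtain ⟨E, rfl⟩ := cls_surjective z
    rw [degPic_cls] at hz
    have h2 := ell_sub_of_lt (D := E) (by rw [hz]; exact hn)
    rw [hz] at h2
    rw [mul_one, ellPic_cls, ← zpow_natCast, h2]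
    congr 2
    ring
  rw [Finset.sum_congr rfl h1, Finset.sum_const, card_picF hD, nsmul_eq_mul]

/-- class number formula for the number of effective divisors of degree `n > 2g - 2` -/
theorem card_eff_hc (hc : algebraicClosure k K = ⊥) {n : ℤ} {D : Pl k K →₀ ℤ} (hD : degD D = n)
    (hn : 2 * (gen k K : ℤ) - 2 < n) :
    ((Nat.card k : ℝ) - 1) * (eff (k := k) (K := K) n).card =
      Nat.card (Pic0 k K) * ((Nat.card k : ℝ) ^ (n + 1 - gen k K) - 1) := by
  have h := card_eff_mul hD (by rw [degD_canD hc]; exact hn)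
  rw [ell_zero hc, pow_one] at h
  exact_mod_cast h

end Counts

end Global

end Crest.Agent.R013.CntA1_560
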