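import Mathlib
import Crest.Agent.R013.CntB3_491

/-!
# R013 / CntB4: constant extensions, norm of divisors (helper491)

`k'/k` Galois: action of the group on places, transitivity, norm of functions.
-/

set_option autoImplicit false
set_option linter.all false

namespace Crest.Agent.R013.CntB4_491

open Polynomial WithZero Module
open Crest.Agent.R013.RR1_948 Crest.Agent.R013.RR7_948 Crest.Agent.R013.RR8_948
open Crest.Agent.R013.RR9_948 Crest.Agent.R013.RR11_948 Crest.Agent.R013.RR12_948
open Crest.Agent.R013.RR13_948 Crest.Agent.R013.RR18_948 Crest.Agent.R013.PicD_398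
open Crest.Agent.R013.CntB1_491 Crest.Agent.R013.CntB2_491 Crest.Agent.R013.CntB3_491

variable {k k' K K' : Type*} [Field k] [Field k'] [Field K] [Field K'] [Algebra k k']
  [Algebra k K] [Algebra k' K'] [Algebra K K'] [Algebra k K'] [IsScalarTower k k' K']
  [IsScalarTower k K K'] [FiniteDimensional k k'] [Algebra.IsSeparable k k']
  [FiniteDimensional K K'] [Algebra.IsSeparable K K']
  [Algebra (RatFunc k) K] [IsScalarTower k (RatFunc k) K] [FiniteDimensional (RatFunc k) K]
  [Algebra.IsSeparable (RatFunc k) K]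
  [Algebra (RatFunc k') K'] [IsScalarTower k' (RatFunc k') K'] [FiniteDimensional (RatFunc k') K']
  [Algebra.IsSeparable (RatFunc k') K']

section norm

variable (k K) in
/-- the residue degree `f(Q|P) = [κ(Q):κ(P)]` -/
noncomputable def fdeg (Q : Pl k' K') : ℕ := finrank k k' * degP Q / degP (res k K Q)

theorem fdeg_mul (Q : Pl k' K') : fdeg k K Q * degP (res k K Q) = finrank k k' * degP Q := by
  unfold fdeg
  apply Nat.div_mul_cancel
  rw [← degP_down (k := k) Q]
  exact degP_under_dvd (K := K) (down k Q)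

variable (k K) in
/-- the norm (push-forward) of divisors -/
noncomputable def nmHom : (Pl k' K' →₀ ℤ) →+ (Pl k K →₀ ℤ) :=
  Finsupp.liftAddHom fun Q =>
    (Finsupp.singleAddHom (res k K Q)).comp (AddMonoidHom.mulLeft (fdeg k K Q : ℤ))

variable (k K) in
/-- the norm (push-forward) of divisors -/
noncomputable def nm (D : Pl k' K' →₀ ℤ) : Pl k K →₀ ℤ := nmHom k K D

theorem nm_single (Q : Pl k' K') (n : ℤ) :
    nm k K (Finsupp.single Q n) = Finsupp.single (res k K Q) (fdeg k K Q * n) := by
  unfold nm nmHom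
  rw [Finsupp.liftAddHom_apply_single]
  rfl

theorem nm_zero : nm k K (0 : Pl k' K' →₀ ℤ) = 0 := (nmHom k K).map_zero

theorem nm_add (D E : Pl k' K' →₀ ℤ) : nm k K (D + E) = nm k K D + nm k K E :=
  (nmHom k K).map_add D E

theorem nm_neg (D : Pl k' K' →₀ ℤ) : nm k K (-D) = -nm k K D := (nmHom k K).map_neg D

theorem nm_sub (D E : Pl k' K' →₀ ℤ) : nm k K (D - E) = nm k K D - nm k K E :=
  (nmHom k K).map_sub D E

theorem nm_zsmul (n : ℤ) (D : Pl k' K' →₀ ℤ) : nm k K (n • D) = n • nm k K D :=
  map_zsmul (nmHom k K) n D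

theorem nm_apply (D : Pl k' K' →₀ ℤ) (P : Pl k K) :
    nm k K D P = ∑ Q ∈ fib k' K' P, (fdeg k K Q : ℤ) * D Q := by
  classical
  induction D using Finsupp.induction_linear with
  | zero => rw [nm_zero]; simp
  | add D E hD hE =>
    rw [nm_add, Finsupp.add_apply, hD, hE, ← Finset.sum_add_distrib]
    exact Finset.sum_congr rfl fun Q _ => by rw [Finsupp.add_apply, mul_add]
  | single R n =>
    rw [nm_single, Finsupp.single_apply]
    by_cases h : res k K R = P
    · rw [if_pos h, Finset.sum_eq_single R]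
      · rw [Finsupp.single_eq_same]
      · intro Q _ hQ
        rw [Finsupp.single_apply, if_neg (Ne.symm hQ), mul_zero]
      · intro hR
        exact absurd (mem_fib.mpr h) hR
    · rw [if_neg h]
      symm
      apply Finset.sum_eq_zero
      intro Q hQ
      rw [Finsupp.single_apply, if_neg, mul_zero]
      rintro rfl
      exact h (mem_fib.mp hQ)

theorem nm_nonneg {D : Pl k' K' →₀ ℤ} (hD : 0 ≤ D) : 0 ≤ nm k K D := by
  intro P
  rw [nm_apply]
  exact Finset.sum_nonneg fun Q _ => mul_nonneg (by positivity) (hD Q)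

theorem degD_nm (D : Pl k' K' →₀ ℤ) : degD (nm k K D) = finrank k k' * degD D := by
  classical
  induction D using Finsupp.induction_linear with
  | zero => rw [nm_zero, degD_zero, degD_zero, mul_zero]
  | add D E hD hE => rw [nm_add, degD_add, degD_add, hD, hE, mul_add]
  | single Q n =>
    rw [nm_single, degD_single, degD_single]
    have h := fdeg_mul (k := k) (K := K) Q
    have h1 : (fdeg k K Q : ℤ) * degP (res k K Q) = finrank k k' * degP Q := by exact_mod_cast h
    linear_combination n * h1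

theorem sum_fdeg (h : IsCE k k' K K') (P : Pl k K) :
    ∑ Q ∈ fib k' K' P, fdeg k K Q = finrank k k' := by
  have h1 : (∑ Q ∈ fib k' K' P, fdeg k K Q) * degP P = finrank k k' * degP P := by
    rw [Finset.sum_mul, ← sum_degP h P, Finset.mul_sum]
    refine Finset.sum_congr rfl fun Q hQ => ?_
    rw [← fdeg_mul (k := k) (K := K) Q, mem_fib.mp hQ, ← sum_degP h P]
  exact Nat.eq_of_mul_eq_mul_right (degP_pos P) h1

theorem nm_con (h : IsCE k k' K K') (D : Pl k K →₀ ℤ) :
    nm k K (con k' K' D) = (finrank k k' : ℤ) • D := by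
  ext P
  rw [nm_apply, Finsupp.smul_apply, smul_eq_mul, ← sum_fdeg h P, Nat.cast_sum, Finset.sum_mul]
  exact Finset.sum_congr rfl fun Q hQ => by rw [con_apply, mem_fib.mp hQ]

end norm

section galois

variable [IsGalois k k']

/-- the action of `Gal(K'/K)` on places -/
def act (h : IsCE k k' K K') (σ : K' ≃ₐ[K] K') (Q : Pl k' K') : Pl k' K' where
  v := Q.v.comap (σ : K' →+* K')
  const c hc := by
    obtain ⟨c', hc'⟩ := h.exists_map_algebraMap σ c
    rw [Valuation.comap_apply]
    show Q.v (σ (algebraMap k' K' c)) = 1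
    rw [hc']
    apply Q.const
    rintro rfl
    rw [map_zero] at hc'
    have h1 : algebraMap k' K' c = 0 := by
      apply σ.injective
      rw [hc', map_zero]
    exact hc (by simpa using h1)
  surj := Q.surj.comp σ.surjective

theorem act_v (h : IsCE k k' K K') (σ : K' ≃ₐ[K] K') (Q : Pl k' K') (x : K') :
    (act h σ Q).v x = Q.v (σ x) := rfl

theorem act_act (h : IsCE k k' K K') (σ τ : K' ≃ₐ[K] K') (Q : Pl k' K') :
    act h σ (act h τ Q) = act h (τ * σ) Q := rfl

theorem act_one (h : IsCE k k' K K') (Q : Pl k' K') : act h 1 Q = Q := rfl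

theorem act_inv_act (h : IsCE k k' K K') (σ : K' ≃ₐ[K] K') (Q : Pl k' K') :
    act h σ⁻¹ (act h σ Q) = Q := by rw [act_act, mul_inv_cancel, act_one]

theorem act_act_inv (h : IsCE k k' K K') (σ : K' ≃ₐ[K] K') (Q : Pl k' K') :
    act h σ (act h σ⁻¹ Q) = Q := by rw [act_act, inv_mul_cancel, act_one]

/-- the permutation of places -/
def actEquiv (h : IsCE k k' K K') (σ : K' ≃ₐ[K] K') : Pl k' K' ≃ Pl k' K' where
  toFun := act h σ
  invFun := act h σ⁻¹
  left_inv := act_inv_act h σ
  right_inv := act_act_inv h σ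

theorem res_act (h : IsCE k k' K K') (σ : K' ≃ₐ[K] K') (Q : Pl k' K') :
    res k K (act h σ Q) = res k K Q := by
  rw [res_eq_iff]
  intro f hf
  rw [act_v, σ.commutes]
  exact (res_le_one_iff Q f).mp hf

theorem degP_act (h : IsCE k k' K K') (σ : K' ≃ₐ[K] K') (Q : Pl k' K') :
    degP (act h σ Q) = degP Q := by
  have h1 : degE (down k (act h σ Q)) = degE (down k Q) := by
    unfold degE
    let e : K' ≃ₗ[k] K' := (σ.toLinearEquiv).restrictScalars k
    have he : ∀ n : ℤ, (ball (down k (act h σ Q)) n).map (e : K' →ₗ[k] K') = ball (down k Q) n := by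
      intro n
      ext x
      rw [Submodule.mem_map]
      constructor
      · rintro ⟨y, hy, rfl⟩
        rw [mem_ball] at hy ⊢
        exact hy
      · intro hx
        refine ⟨σ.symm x, ?_, σ.apply_symm_apply x⟩
        rw [mem_ball] at hx ⊢
        show Q.v (σ (σ.symm x)) ≤ _
        rw [σ.apply_symm_apply]
        exact hx
    rw [← ri_map e, he, he]
  have h2 : degP (down k (act h σ Q)) = degP (down k Q) := by
    unfold degP; rw [h1]
  rw [degP_down, degP_down] at h2
  exact Nat.eq_of_mul_eq_mul_left Module.finrank_pos h2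

theorem divf_act (h : IsCE k k' K K') (σ : K' ≃ₐ[K] K') (Q : Pl k' K') {x : K'} (hx : x ≠ 0) :
    divf (k := k') x (act h σ Q) = divf (k := k') (σ x) Q := by
  have hx' : σ x ≠ 0 := by simpa using hx
  have h1 := v_eq (k := k') hx (act h σ Q)
  have h2 := v_eq (k := k') hx' Q
  rw [act_v, h2, exp_inj] at h1
  omega

theorem divf_prod {k L : Type*} [Field k] [Field L] [Algebra k L] [Algebra (RatFunc k) L]
    [IsScalarTower k (RatFunc k) L] [FiniteDimensional (RatFunc k) L]
    [Algebra.IsSeparable (RatFunc k) L] {ι : Type*} (s : Finset ι) (f : ι → L)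
    (hf : ∀ i ∈ s, f i ≠ 0) : divf (k := k) (∏ i ∈ s, f i) = ∑ i ∈ s, divf (k := k) (f i) := by
  classical
  induction s using Finset.induction_on with
  | empty => rw [Finset.prod_empty, Finset.sum_empty, divf_one]
  | insert a s ha ih =>
    rw [Finset.prod_insert ha, Finset.sum_insert ha,
      divf_mul (hf a (Finset.mem_insert_self a s)) (Finset.prod_ne_zero_iff.mpr fun i hi =>
        hf i (Finset.mem_insert_of_mem hi)), ih fun i hi => hf i (Finset.mem_insert_of_mem hi)]

/-- at every place above `P` the conjugates sum up to the norm -/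
theorem sum_divf_conj (h : IsCE k k' K K') {x : K'} (hx : x ≠ 0) (Q : Pl k' K') :
    ∑ σ : K' ≃ₐ[K] K', divf (k := k') (σ x) Q
      = divf (k := k) (Algebra.norm K x) (res k K Q) := by
  haveI := h.isGalois
  have hN : Algebra.norm K x ≠ 0 := by rwa [Algebra.norm_ne_zero_iff]
  rw [← con_apply (k' := k') (K' := K'), con_divf h hN, Algebra.norm_eq_prod_automorphisms,
    divf_prod _ _ (fun σ _ => by simpa using hx), Finsupp.finset_sum_apply]

/-- **transitivity** -/
theorem exists_act_eq (h : IsCE k k' K K') {Q Q' : Pl k' K'} (hQ : res k K Q = res k K Q') :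
    ∃ σ : K' ≃ₐ[K] K', act h σ Q = Q' := by
  classical
  haveI := h.finiteDimensional
  by_contra hcon
  push Not at hcon
  -- a function vanishing at all conjugates of `Q'`, a unit at all conjugates of `Q`
  let S : Finset (Pl k' K') := Finset.univ.image fun σ : K' ≃ₐ[K] K' => act h σ Q
  let S' : Finset (Pl k' K') := Finset.univ.image fun σ : K' ≃ₐ[K] K' => act h σ Q'
  obtain ⟨y, hy0, hy⟩ := exists_prescribed (S ∪ S') (fun R => if R ∈ S then 0 else -1)
  have h1 : ∀ σ : K' ≃ₐ[K] K', divf (k := k') (σ y) Q = 0 := by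
    intro σ
    rw [← divf_act h σ Q hy0]
    have hm : act h σ Q ∈ S := Finset.mem_image_of_mem _ (Finset.mem_univ σ)
    have h2 := hy (act h σ Q) (Finset.mem_union_left _ hm)
    rw [if_pos hm, v_eq hy0, exp_inj] at h2
    omega
  have h2 : ∀ σ : K' ≃ₐ[K] K', divf (k := k') (σ y) Q' = 1 := by
    intro σ
    rw [← divf_act h σ Q' hy0]
    have hm : act h σ Q' ∉ S := by
      intro hm
      obtain ⟨τ, _, hτ⟩ := Finset.mem_image.mp hm
      apply hcon (τ * σ⁻¹)
      rw [← act_act h σ⁻¹ τ Q, hτ]
      exact act_inv_act h σ Q'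
    have h2 := hy (act h σ Q') (Finset.mem_union_right _
      (Finset.mem_image_of_mem _ (Finset.mem_univ σ)))
    rw [if_neg hm, v_eq hy0, exp_inj] at h2
    omega
  have h3 := sum_divf_conj h hy0 Q
  have h4 := sum_divf_conj h hy0 Q'
  rw [hQ, ← h4] at h3
  simp only [h1, h2] at h3
  rw [Finset.sum_const_zero, Finset.sum_const, Finset.card_univ] at h3
  have h5 : 0 < Fintype.card (K' ≃ₐ[K] K') := Fintype.card_pos
  simp at h3
  omega

theorem degP_eq_of_res (h : IsCE k k' K K') {Q Q' : Pl k' K'} (hQ : res k K Q = res k K Q') :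
    degP Q = degP Q' := by
  obtain ⟨σ, rfl⟩ := exists_act_eq h hQ
  rw [degP_act]

theorem fdeg_eq_of_res (h : IsCE k k' K K') {Q Q' : Pl k' K'} (hQ : res k K Q = res k K Q') :
    fdeg k K Q = fdeg k K Q' := by
  unfold fdeg
  rw [degP_eq_of_res h hQ, hQ]

theorem card_fib_mul_degP (h : IsCE k k' K K') (Q : Pl k' K') :
    (fib k' K' (res k K Q)).card * degP Q = degP (res k K Q) := by
  rw [← sum_degP h (res k K Q), ← smul_eq_mul, ← Finset.sum_const]
  exact Finset.sum_congr rfl fun R hR => degP_eq_of_res h (mem_fib.mp hR).symm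

theorem card_fib_mul_fdeg (h : IsCE k k' K K') (Q : Pl k' K') :
    (fib k' K' (res k K Q)).card * fdeg k K Q = finrank k k' := by
  rw [← sum_fdeg h (res k K Q), ← smul_eq_mul, ← Finset.sum_const]
  exact Finset.sum_congr rfl fun R hR => fdeg_eq_of_res h (mem_fib.mp hR).symm

/-- **norm of functions = norm of divisors** -/
theorem nm_divf (h : IsCE k k' K K') {x : K'} (hx : x ≠ 0) :
    nm k K (divf (k := k') x) = divf (k := k) (Algebra.norm K x) := by
  classical
  haveI := h.isGalois
  ext P
  obtain ⟨Q₀, hQ₀⟩ := fib_nonempty (k' := k') (K' := K') P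
  have hP : res k K Q₀ = P := mem_fib.mp hQ₀
  have hr : 0 < (fib k' K' P).card := Finset.card_pos.mpr ⟨Q₀, hQ₀⟩
  have h1 : ∑ Q ∈ fib k' K' P, ∑ σ : K' ≃ₐ[K] K', divf (k := k') (σ x) Q
      = (fib k' K' P).card * divf (k := k) (Algebra.norm K x) P := by
    rw [← nsmul_eq_mul, ← Finset.sum_const]
    exact Finset.sum_congr rfl fun Q hQ => by rw [sum_divf_conj h hx, mem_fib.mp hQ]
  have h2 : ∑ Q ∈ fib k' K' P, ∑ σ : K' ≃ₐ[K] K', divf (k := k') (σ x) Q
      = finrank k k' * ∑ Q ∈ fib k' K' P, divf (k := k') x Q := by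
    rw [Finset.sum_comm]
    have h3 : ∀ σ : K' ≃ₐ[K] K', ∑ Q ∈ fib k' K' P, divf (k := k') (σ x) Q
        = ∑ Q ∈ fib k' K' P, divf (k := k') x Q := by
      intro σ
      refine Finset.sum_bij (fun Q _ => act h σ Q) ?_ ?_ ?_ ?_
      · intro Q hQ
        rw [mem_fib, res_act]
        exact mem_fib.mp hQ
      · intro Q _ R _ hQR
        exact (actEquiv h σ).injective hQR
      · intro R hR
        exact ⟨act h σ⁻¹ R, by rw [mem_fib, res_act]; exact mem_fib.mp hR, act_act_inv h σ R⟩
      · intro Q _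
        exact (divf_act h σ Q hx).symm
    rw [Finset.sum_congr rfl fun σ _ => h3 σ, Finset.sum_const, Finset.card_univ,
      ← Nat.card_eq_fintype_card, IsGalois.card_aut_eq_finrank, h.finrank_eq, nsmul_eq_mul]
  have h4 : ((fib k' K' P).card : ℤ) * nm k K (divf (k := k') x) P
      = finrank k k' * ∑ Q ∈ fib k' K' P, divf (k := k') x Q := by
    rw [nm_apply, Finset.mul_sum, Finset.mul_sum]
    refine Finset.sum_congr rfl fun Q hQ => ?_
    have h5 := card_fib_mul_fdeg h Q
    rw [mem_fib.mp hQ] at h5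
    rw [← mul_assoc, ← h5]
    push_cast
    ring
  rw [← h2, h1] at h4
  exact mul_left_cancel₀ (by exact_mod_cast hr.ne') h4

/-- the norm on divisor classes -/
noncomputable def nmPic (h : IsCE k k' K K') : Pic k' K' →+ Pic k K :=
  QuotientAddGroup.map (Prin k' K') (Prin k K) (nmHom k K) (by
    rintro _ ⟨f, hf, rfl⟩
    exact ⟨Algebra.norm K f, by rwa [Algebra.norm_ne_zero_iff], (nm_divf h hf).symm⟩)

theorem nmPic_cls (h : IsCE k k' K K') (D : Pl k' K' →₀ ℤ) :
    nmPic h (cls D) = cls (nm k K D) := rfl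

theorem degPic_nmPic (h : IsCE k k' K K') (z : Pic k' K') :
    degPic (nmPic h z) = finrank k k' * degPic z := by
  obtain ⟨D, rfl⟩ := cls_surjective z
  rw [nmPic_cls, degPic_cls, degPic_cls, degD_nm]

theorem nmPic_conPic (h : IsCE k k' K K') (z : Pic k K) :
    nmPic h (conPic h z) = (finrank k k') • z := by
  obtain ⟨D, rfl⟩ := cls_surjective z
  rw [conPic_cls, nmPic_cls, nm_con h, map_zsmul, natCast_zsmul]

end galois

end Crest.Agent.R013.CntB4_491
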