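import Mathlib
import Crest.Agent.R013.CntB4_491

/-!
# R013 / CntB5: constant extensions of function fields over finite fields (helper491)

A place of degree `d` splits into `gcd(d,m)` places of degree `d / gcd(d,m)`.
-/

set_option autoImplicit false
set_option linter.all false

namespace Crest.Agent.R013.CntB5_491

open Polynomial WithZero Module
open Crest.Agent.R013.RR1_948 Crest.Agent.R013.RR7_948 Crest.Agent.R013.RR8_948
open Crest.Agent.R013.RR9_948 Crest.Agent.R013.RR11_948 Crest.Agent.R013.RR12_948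
open Crest.Agent.R013.RR13_948 Crest.Agent.R013.RR18_948 Crest.Agent.R013.PicD_398
open Crest.Agent.R013.CntB1_491 Crest.Agent.R013.CntB2_491 Crest.Agent.R013.CntB3_491
open Crest.Agent.R013.CntB4_491

/-- a finite dimensional division algebra situation: if all elements of the finite field `F ⊇ k`
satisfy `z ^ (q ^ r) = z` then `[F : k] ≤ r` -/
theorem finrank_le_of_pow {k F : Type*} [Field k] [Finite k] [Field F] [Algebra k F]
    [FiniteDimensional k F] {r : ℕ} (hr : 0 < r)
    (h : ∀ z : F, z ^ (Nat.card k ^ r) = z) : finrank k F ≤ r := by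
  classical
  haveI : Finite F := Module.finite_of_finite k
  haveI := Fintype.ofFinite F
  have h1 : Nat.card F = Nat.card k ^ finrank k F := Module.natCard_eq_pow_finrank
  have hq : 1 < Nat.card k := Finite.one_lt_card
  have h2 : 1 < Nat.card k ^ r := Nat.one_lt_pow hr.ne' hq
  have h3 : (X ^ (Nat.card k ^ r) - X : F[X]) ≠ 0 := FiniteField.X_pow_card_sub_X_ne_zero F h2
  have h4 : Fintype.card F ≤ Nat.card k ^ r := by
    calc Fintype.card F = (Finset.univ : Finset F).card := Finset.card_univ.symm
      _ ≤ (X ^ (Nat.card k ^ r) - X : F[X]).roots.toFinset.card := by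
        apply Finset.card_le_card
        intro z _
        rw [Multiset.mem_toFinset, mem_roots h3, IsRoot.def, eval_sub, eval_pow, eval_X, h z,
          sub_self]
      _ ≤ Multiset.card (X ^ (Nat.card k ^ r) - X : F[X]).roots := Multiset.toFinset_card_le _
      _ ≤ (X ^ (Nat.card k ^ r) - X : F[X]).natDegree := card_roots' _
      _ = Nat.card k ^ r := FiniteField.X_pow_card_sub_X_natDegree_eq F h2
  rw [← Nat.card_eq_fintype_card, h1] at h4
  exact (Nat.pow_le_pow_iff_right hq).mp h4

theorem pow_card_of_dvd {k F : Type*} [Field k] [Finite k] [Field F] [Algebra k F]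
    [FiniteDimensional k F] {r : ℕ} (h : finrank k F ∣ r) (z : F) : z ^ (Nat.card k ^ r) = z := by
  haveI : Finite F := Module.finite_of_finite k
  haveI := Fintype.ofFinite F
  obtain ⟨s, rfl⟩ := h
  rw [pow_mul, ← Module.natCard_eq_pow_finrank (K := k) (V := F), Nat.card_eq_fintype_card]
  exact FiniteField.pow_card_pow s z

variable {k k' K K' : Type*} [Field k] [Field k'] [Field K] [Field K'] [Algebra k k']
  [Algebra k K] [Algebra k' K'] [Algebra K K'] [Algebra k K'] [IsScalarTower k k' K']
  [IsScalarTower k K K'] [FiniteDimensional k k'] [Algebra.IsSeparable k k']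
  [FiniteDimensional K K'] [Algebra.IsSeparable K K']
  [Algebra (RatFunc k) K] [IsScalarTower k (RatFunc k) K] [FiniteDimensional (RatFunc k) K]
  [Algebra.IsSeparable (RatFunc k) K]
  [Algebra (RatFunc k') K'] [IsScalarTower k' (RatFunc k') K'] [FiniteDimensional (RatFunc k') K']
  [Algebra.IsSeparable (RatFunc k') K']

/-- the residue field of `Q` is generated by that of `P` and `k'` -/
theorem degP_down_le [Finite k] (h : IsCE k k' K K') (Q : Pl k' K') :
    degP (down k Q) ≤ Nat.lcm (degP (res k K Q)) (finrank k k') := by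
  classical
  haveI := Fintype.ofFinite k
  set P := res k K Q with hP
  set r := Nat.lcm (degP P) (finrank k k') with hr
  have hr0 : 0 < r := Nat.lcm_pos (degP_pos P) Module.finrank_pos
  obtain ⟨hF, hFd⟩ := finite_Kap (degE_eq_of_ext K (down k Q))
  obtain ⟨hF', hFd'⟩ := finite_Kap (degE_eq P)
  haveI := hF
  haveI := hF'
  rw [← hFd]
  apply finrank_le_of_pow hr0
  have hle : ∀ f : K, P.v f ≤ 1 → (down k Q).v (algebraMap K K' f) ≤ 1 := fun f hf =>
    (res_le_one_iff Q f).mp hf
  have hlt : ∀ f : K, P.v f < 1 → (down k Q).v (algebraMap K K' f) < 1 := fun f hf =>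
    (res_lt_one_iff Q f).mp hf
  let φ : Kap (down k Q) →ₐ[k] Kap (down k Q) :=
    (FiniteField.frobeniusAlgHom k (Kap (down k Q))) ^ r
  have hφ : ∀ z, φ z = z ^ (Nat.card k ^ r) := by
    intro z
    show ((FiniteField.frobeniusAlgHom k (Kap (down k Q))) ^ r) z = _
    rw [AlgHom.coe_pow, FiniteField.coe_frobeniusAlgHom, pow_iterate, Nat.card_eq_fintype_card]
  let b := Module.finBasis k k'
  intro z
  obtain ⟨y, rfl⟩ := IsLocalRing.residue_surjective z
  obtain ⟨y', hy'⟩ := weak_approx (fib k' K' P) (fun Q' => if Q' = Q then (y : K') else 0) 1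
  have h1 : Q.v (y' - y) ≤ exp (-1) := by
    have := hy' Q (mem_fib.mpr rfl)
    rwa [if_pos rfl] at this
  have hm1 : (exp (-1) : ℤᵐ⁰) ≤ 1 := by rw [← exp_zero, exp_le_exp]; norm_num
  have hyQ : Q.v (y : K') ≤ 1 := y.2
  have h2 : ∀ Q' : Pl k' K', res k K Q' = P → Q'.v y' ≤ 1 := by
    intro Q' hQ'
    by_cases hQQ : Q' = Q
    · subst hQQ
      have h3 : y' = (y' - y) + y := by ring
      rw [h3]
      exact (Valuation.map_add _ _ _).trans (max_le (h1.trans hm1) hyQ)
    · have := hy' Q' (mem_fib.mpr hQ')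
      rw [if_neg hQQ, sub_zero] at this
      exact this.trans hm1
  have h3 : ∀ i, P.v ((h.basis b).repr y' i) ≤ 1 := repr_le_one h b P y' h2
  have hb : ∀ i, algebraMap k' K' (b i) ∈ OO (down k Q) := fun i => by
    rw [mem_OO]
    exact (Q.const _ (b.ne_zero i)).le
  let a : Fin (finrank k k') → OO (down k Q) := fun i => ooMap P (down k Q) hle ⟨_, h3 i⟩
  let c : Fin (finrank k k') → OO (down k Q) := fun i => ⟨_, hb i⟩
  have h4 : (⟨y', h2 Q rfl⟩ : OO (down k Q)) = ∑ i, a i * c i := by
    apply Subtype.ext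
    have h5 : ((∑ i, a i * c i : OO (down k Q)) : K')
        = ∑ i, algebraMap K K' ((h.basis b).repr y' i) * algebraMap k' K' (b i) := by
      rw [AddSubmonoidClass.coe_finsetSum]
      rfl
    refine Eq.trans ?_ h5.symm
    show y' = _
    conv_lhs => rw [← (h.basis b).sum_repr y']
    exact Finset.sum_congr rfl fun i _ => by rw [Algebra.smul_def, IsCE.basis_apply]
  have h5 : IsLocalRing.residue (OO (down k Q)) y
      = IsLocalRing.residue (OO (down k Q)) ⟨y', h2 Q rfl⟩ := by
    rw [← sub_eq_zero, ← map_sub, IsLocalRing.residue_eq_zero_iff, mem_maximalIdeal]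
    show Q.v ((y : K') - y') < 1
    rw [Valuation.map_sub_swap]
    exact (RR2_948.lt_one_iff _).mpr h1
  rw [← hφ, h5, h4, map_sum, map_sum]
  refine Finset.sum_congr rfl fun i _ => ?_
  rw [map_mul, map_mul]
  congr 1
  · show φ (kapMap P (down k Q) hle hlt (IsLocalRing.residue (OO P) ⟨_, h3 i⟩))
      = kapMap P (down k Q) hle hlt (IsLocalRing.residue (OO P) ⟨_, h3 i⟩)
    rw [hφ, ← map_pow, pow_card_of_dvd]
    rw [hFd']
    exact Nat.dvd_lcm_left _ _
  · rw [hφ, ← map_pow]
    congr 1
    apply Subtype.ext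
    show (algebraMap k' K' (b i)) ^ (Nat.card k ^ r) = algebraMap k' K' (b i)
    rw [← map_pow, pow_card_of_dvd (k := k) (Nat.dvd_lcm_right _ _)]

/-- `[κ(Q) : k] = lcm(d, m)` -/
theorem degP_down_eq [Finite k] (h : IsCE k k' K K') (Q : Pl k' K') :
    finrank k k' * degP Q = Nat.lcm (degP (res k K Q)) (finrank k k') := by
  have h1 := degP_down (k := k) Q
  rw [← h1]
  apply le_antisymm (degP_down_le h Q)
  apply Nat.le_of_dvd
  · rw [h1]
    exact Nat.mul_pos Module.finrank_pos (degP_pos Q)
  · apply Nat.lcm_dvd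
    · exact degP_under_dvd (K := K) (down k Q)
    · rw [h1]; exact Dvd.intro _ rfl

/-- **the degree of the places above** -/
theorem degP_mul_gcd [Finite k] (h : IsCE k k' K K') (Q : Pl k' K') :
    degP Q * Nat.gcd (degP (res k K Q)) (finrank k k') = degP (res k K Q) := by
  have h1 := degP_down_eq h Q
  have h2 := Nat.gcd_mul_lcm (degP (res k K Q)) (finrank k k')
  rw [← h1] at h2
  have h3 : 0 < finrank k k' := Module.finrank_pos
  apply Nat.eq_of_mul_eq_mul_left h3
  linarith

/-- **the number of places above** -/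
theorem card_fib [Finite k] (h : IsCE k k' K K') (P : Pl k K) :
    (fib k' K' P).card = Nat.gcd (degP P) (finrank k k') := by
  haveI : Finite k' := Module.finite_of_finite k
  haveI : IsGalois k k' := inferInstance
  obtain ⟨Q, rfl⟩ := res_surjective (k' := k') (K' := K') P
  have h1 := degP_mul_gcd h Q
  have h2 := card_fib_mul_degP h Q
  have h3 := degP_pos Q
  apply Nat.eq_of_mul_eq_mul_right h3
  rw [h2, mul_comm, h1]

theorem fdeg_mul_gcd [Finite k] (h : IsCE k k' K K') (Q : Pl k' K') :
    fdeg k K Q * Nat.gcd (degP (res k K Q)) (finrank k k') = finrank k k' := by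
  haveI : Finite k' := Module.finite_of_finite k
  haveI : IsGalois k k' := inferInstance
  rw [← card_fib h, mul_comm]
  exact card_fib_mul_fdeg h Q

/-- places of degree `m` split completely into rational places -/
theorem degP_eq_one [Finite k] (h : IsCE k k' K K') (Q : Pl k' K')
    (hQ : degP (res k K Q) ∣ finrank k k') : degP Q = 1 := by
  have h1 := degP_mul_gcd h Q
  rw [Nat.gcd_eq_left hQ] at h1
  have h2 := degP_pos (res k K Q)
  exact Nat.eq_of_mul_eq_mul_right h2 (by rw [h1, one_mul])

theorem card_fib_of_dvd [Finite k] (h : IsCE k k' K K') (P : Pl k K)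
    (hP : degP P ∣ finrank k k') : (fib k' K' P).card = degP P := by
  rw [card_fib h, Nat.gcd_eq_left hP]

end Crest.Agent.R013.CntB5_491
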