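import Mathlib

/-!
# R013 / CntB6: products over the `m`-th roots of unity with multiplicity, any characteristic
(helper491)

`E` algebraically closed, `Z m` = roots of `X ^ m - 1` with multiplicity.  For all `d`, `m > 0`:
`∏_{ζ ∈ Z m} (1 - ζ ^ d y) = (1 - y ^ (m / gcd)) ^ gcd`.
-/

set_option autoImplicit false
set_option linter.all false

namespace Crest.Agent.R013.CntB6_491

open Polynomial

variable {E : Type*} [Field E] [IsAlgClosed E]

variable (E) in
/-- the roots of `X ^ m - 1` with multiplicity -/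
noncomputable def Zr (m : ℕ) : Multiset E := (X ^ m - 1 : E[X]).roots

omit [IsAlgClosed E] in
theorem ne_zero_aux {m : ℕ} (hm : 0 < m) : (X ^ m - 1 : E[X]) ≠ 0 := by
  have h := X_pow_sub_C_ne_zero hm (1 : E)
  rwa [C_1] at h

omit [IsAlgClosed E] in
theorem natDegree_aux (m : ℕ) : (X ^ m - 1 : E[X]).natDegree = m := by
  have h := natDegree_X_pow_sub_C (n := m) (r := (1 : E))
  rwa [C_1] at h

theorem card_Zr {m : ℕ} (hm : 0 < m) : Multiset.card (Zr E m) = m := by
  unfold Zr
  rw [IsAlgClosed.card_roots_eq_natDegree, natDegree_aux]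

omit [IsAlgClosed E] in
theorem pow_eq_one {m : ℕ} (hm : 0 < m) {ζ : E} (hζ : ζ ∈ Zr E m) : ζ ^ m = 1 := by
  unfold Zr at hζ
  rw [mem_roots (ne_zero_aux hm), IsRoot.def, eval_sub, eval_pow, eval_X, eval_one, sub_eq_zero]
    at hζ
  exact hζ

theorem prod_sub {m : ℕ} (hm : 0 < m) (w : E) :
    ((Zr E m).map fun ζ => w - ζ).prod = w ^ m - 1 := by
  have h1 : (X ^ m - 1 : E[X]).Monic := by
    have := monic_X_pow_sub_C (1 : E) hm.ne'
    rwa [C_1] at this
  have h2 := IsAlgClosed.splits (X ^ m - 1 : E[X])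
  have h3 := h2.eq_prod_roots_of_monic h1
  have h4 := congrArg (eval w) h3
  rw [eval_sub, eval_pow, eval_X, eval_one, eval_multiset_prod, Multiset.map_map] at h4
  rw [h4]
  unfold Zr
  congr 1
  apply Multiset.map_congr rfl
  intro ζ _
  simp

theorem prod_one_sub {m : ℕ} (hm : 0 < m) (x : E) :
    ((Zr E m).map fun ζ => 1 - ζ * x).prod = 1 - x ^ m := by
  by_cases hx : x = 0
  · rw [hx, zero_pow hm.ne', sub_zero]
    simp
  · have h1 : ((Zr E m).map fun ζ => 1 - ζ * x) = (Zr E m).map fun ζ => x * (x⁻¹ - ζ) := by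
      apply Multiset.map_congr rfl
      intro ζ _
      rw [mul_sub, mul_inv_cancel₀ hx, mul_comm]
    rw [h1, Multiset.prod_map_mul, prod_sub hm, Multiset.map_const', Multiset.prod_replicate,
      card_Zr hm, mul_sub, ← mul_pow, mul_inv_cancel₀ hx, one_pow, mul_one]

theorem key_value (d : ℕ) : ∀ (m : ℕ) (hm : 0 < m) (y : E),
    ((Zr E m).map fun ζ => 1 - ζ ^ d * y).prod = (1 - y ^ (m / m.gcd d)) ^ (m.gcd d) := by
  induction d using Nat.strong_induction_on with
  | _ d ih =>
    intro m hm y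
    rcases Nat.eq_zero_or_pos d with rfl | hd
    · simp [card_Zr hm, Nat.div_self hm]
    · obtain ⟨w, rfl⟩ := IsAlgClosed.exists_pow_nat_eq y hd
      have h1 : ((Zr E m).map fun ζ => 1 - ζ ^ d * w ^ d).prod
          = ((Zr E m).map fun ζ => ((Zr E d).map fun η => 1 - η * (ζ * w)).prod).prod := by
        congr 1
        apply Multiset.map_congr rfl
        intro ζ _
        rw [prod_one_sub hd, mul_pow]
      have h2 : ((Zr E m).map fun ζ => ((Zr E d).map fun η => 1 - η * (ζ * w)).prod).prod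
          = ((Zr E d).map fun η => ((Zr E m).map fun ζ => 1 - ζ * (η * w)).prod).prod := by
        rw [Multiset.prod_map_prod_map]
        congr 1
        apply Multiset.map_congr rfl
        intro η _
        congr 1
        apply Multiset.map_congr rfl
        intro ζ _
        ring
      have h3 : ((Zr E d).map fun η => ((Zr E m).map fun ζ => 1 - ζ * (η * w)).prod).prod
          = ((Zr E d).map fun η => 1 - η ^ (m % d) * w ^ m).prod := by
        congr 1
        apply Multiset.map_congr rfl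
        intro η hη
        rw [prod_one_sub hm, mul_pow]
        congr 2
        conv_lhs => rw [← Nat.div_add_mod m d, pow_add, pow_mul, pow_eq_one hd hη, one_pow, one_mul]
      rw [h1, h2, h3, ih (m % d) (Nat.mod_lt m hd) d hd]
      have h4 : d.gcd (m % d) = m.gcd d := by
        rw [Nat.gcd_comm d (m % d), ← Nat.gcd_rec, Nat.gcd_comm]
      rw [h4, ← pow_mul, ← pow_mul]
      congr 3
      rw [← Nat.mul_div_assoc _ (Nat.gcd_dvd_right m d), ← Nat.mul_div_assoc _ (Nat.gcd_dvd_left m d),
        mul_comm]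

theorem key_poly (d : ℕ) {m : ℕ} (hm : 0 < m) :
    ((Zr E m).map fun ζ => 1 - C (ζ ^ d) * X).prod
      = (1 - X ^ (m / m.gcd d) : E[X]) ^ (m.gcd d) := by
  apply Polynomial.funext
  intro y
  have h := key_value d m hm y
  rw [eval_multiset_prod, Multiset.map_map]
  simp only [eval_pow, eval_sub, eval_one, eval_X]
  rw [← h]
  congr 1
  apply Multiset.map_congr rfl
  intro ζ _
  simp

/-- **the key identity**, in any commutative `E`-algebra -/
theorem key_algebra {B : Type*} [CommRing B] [Algebra E B] (d : ℕ) {m : ℕ} (hm : 0 < m) (y : B) :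
    ((Zr E m).map fun ζ => 1 - algebraMap E B (ζ ^ d) * y).prod
      = (1 - y ^ (m / m.gcd d)) ^ (m.gcd d) := by
  have h := congrArg (aeval y) (key_poly (E := E) d hm)
  rw [map_multiset_prod, Multiset.map_map] at h
  simp only [map_pow, map_sub, map_one, aeval_X] at h
  rw [← h]
  congr 1
  apply Multiset.map_congr rfl
  intro ζ _
  simp

theorem prod_Zr {m : ℕ} (hm : 0 < m) : (Zr E m).prod = (-1) ^ (m + 1) := by
  have h := prod_sub (E := E) hm 0
  have h1 : ((Zr E m).map fun ζ => (0 : E) - ζ) = (Zr E m).map fun ζ => (-1) * ζ := by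
    apply Multiset.map_congr rfl
    intro ζ _
    ring
  rw [h1, Multiset.prod_map_mul, Multiset.map_const', Multiset.prod_replicate, card_Zr hm,
    zero_pow hm.ne', zero_sub, Multiset.map_id'] at h
  have h2 : ((-1 : E) ^ m) * ((-1) ^ m * (Zr E m).prod) = (-1) ^ m * (-1) := by rw [h]
  rw [← mul_assoc, ← mul_pow, neg_one_mul, neg_neg, one_pow, one_mul] at h2
  rw [h2, pow_succ]

section power

open PowerSeries (rescale expand)

variable (E) in
/-- `∏_{ζ} f (ζ T)` -/
noncomputable def NZ (m : ℕ) (f : PowerSeries E) : PowerSeries E :=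
  ((Zr E m).map fun ζ => rescale ζ f).prod

omit [IsAlgClosed E] in
theorem NZ_mul (m : ℕ) (f g : PowerSeries E) : NZ E m (f * g) = NZ E m f * NZ E m g := by
  unfold NZ
  rw [← Multiset.prod_map_mul]
  congr 1
  apply Multiset.map_congr rfl
  intro ζ _
  rw [map_mul]

omit [IsAlgClosed E] in
theorem NZ_one (m : ℕ) : NZ E m (1 : PowerSeries E) = 1 := by
  unfold NZ
  simp

omit [IsAlgClosed E] in
theorem NZ_prod (m : ℕ) {ι : Type*} (s : Finset ι) (f : ι → PowerSeries E) :
    NZ E m (∏ i ∈ s, f i) = ∏ i ∈ s, NZ E m (f i) := by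
  classical
  induction s using Finset.induction_on with
  | empty => rw [Finset.prod_empty, Finset.prod_empty, NZ_one]
  | insert a s ha ih => rw [Finset.prod_insert ha, Finset.prod_insert ha, NZ_mul, ih]

/-- the Euler factor -/
theorem NZ_factor {m : ℕ} (hm : 0 < m) (c : E) (d : ℕ) :
    NZ E m (1 - PowerSeries.C c * PowerSeries.X ^ d)
      = expand m hm.ne' ((1 - PowerSeries.C (c ^ (m / m.gcd d)) *
          PowerSeries.X ^ (d / m.gcd d)) ^ (m.gcd d)) := by
  have h1 : ∀ ζ : E, rescale ζ (1 - PowerSeries.C c * PowerSeries.X ^ d : PowerSeries E)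
      = 1 - algebraMap E (PowerSeries E) (ζ ^ d) * (PowerSeries.C c * PowerSeries.X ^ d) := by
    intro ζ
    ext n
    rw [PowerSeries.coeff_rescale, map_sub, map_sub, PowerSeries.coeff_C_mul,
      ← PowerSeries.C_eq_algebraMap, PowerSeries.coeff_C_mul, PowerSeries.coeff_C_mul,
      PowerSeries.coeff_X_pow, PowerSeries.coeff_one]
    split_ifs with h2 h3 h3
    · rw [← h3, h2]; ring
    · rw [h2]; ring
    · rw [h3]; ring
    · ring
  unfold NZ
  have h2 : expand m hm.ne' (PowerSeries.C (c ^ (m / m.gcd d)) * PowerSeries.X ^ (d / m.gcd d))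
      = (PowerSeries.C c * PowerSeries.X ^ d : PowerSeries E) ^ (m / m.gcd d) := by
    rw [map_mul, PowerSeries.expand_C, map_pow (expand m hm.ne'), PowerSeries.expand_X, mul_pow,
      map_pow, ← pow_mul, ← pow_mul]
    congr 2
    rw [← Nat.mul_div_assoc _ (Nat.gcd_dvd_left m d), ← Nat.mul_div_assoc _ (Nat.gcd_dvd_right m d),
      mul_comm]
  rw [Multiset.map_congr rfl fun ζ _ => h1 ζ, key_algebra d hm, map_pow, map_sub, map_one, h2]

omit [IsAlgClosed E] in
theorem coe_trunc_of_coeff {f : PowerSeries E} {G : ℕ} (hf : ∀ n, G < n → PowerSeries.coeff n f = 0) :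
    ((PowerSeries.trunc (G + 1) f : E[X]) : PowerSeries E) = f := by
  ext n
  rw [Polynomial.coeff_coe, PowerSeries.coeff_trunc]
  split_ifs with h
  · rfl
  · exact (hf n (by omega)).symm

omit [IsAlgClosed E] in
theorem NZ_eq_coe (m : ℕ) {f : PowerSeries E} {G : ℕ}
    (hf : ∀ n, G < n → PowerSeries.coeff n f = 0) :
    NZ E m f = ((((Zr E m).map fun ζ => PowerSeries.trunc (G + 1) (rescale ζ f)).prod : E[X]) :
      PowerSeries E) := by
  have h1 : ∀ g : E[X], (g : PowerSeries E) = Polynomial.coeToPowerSeries.ringHom g := fun _ => rfl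
  rw [h1, map_multiset_prod, Multiset.map_map]
  unfold NZ
  congr 1
  apply Multiset.map_congr rfl
  intro ζ _
  show rescale ζ f = ((PowerSeries.trunc (G + 1) (rescale ζ f) : E[X]) : PowerSeries E)
  rw [coe_trunc_of_coeff]
  intro n hn
  rw [PowerSeries.coeff_rescale, hf n hn, mul_zero]

/-- the top coefficient -/
theorem coeff_NZ {m : ℕ} (hm : 0 < m) {f : PowerSeries E} {G : ℕ}
    (hf : ∀ n, G < n → PowerSeries.coeff n f = 0) :
    PowerSeries.coeff (m * G) (NZ E m f) = PowerSeries.coeff G f ^ m * ((-1) ^ (m + 1)) ^ G := by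
  have h1 : ∀ p ∈ (Zr E m).map (fun ζ => PowerSeries.trunc (G + 1) (rescale ζ f)),
      natDegree p ≤ G := by
    intro p hp
    obtain ⟨ζ, _, rfl⟩ := Multiset.mem_map.mp hp
    have := PowerSeries.natDegree_trunc_lt (rescale ζ f) G
    omega
  have h2 := Polynomial.coeff_multiset_prod_of_natDegree_le _ G h1
  rw [Multiset.card_map, card_Zr hm] at h2
  rw [NZ_eq_coe m hf, Polynomial.coeff_coe, h2, Multiset.map_map]
  have h3 : ((Zr E m).map ((fun p : E[X] => p.coeff G) ∘
      fun ζ => PowerSeries.trunc (G + 1) (rescale ζ f))) =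
      (Zr E m).map fun ζ => ζ ^ G * PowerSeries.coeff G f := by
    apply Multiset.map_congr rfl
    intro ζ _
    show (PowerSeries.trunc (G + 1) (rescale ζ f)).coeff G = _
    rw [PowerSeries.coeff_trunc, if_pos (Nat.lt_succ_self G), PowerSeries.coeff_rescale]
  rw [h3, Multiset.prod_map_mul, Multiset.map_const', Multiset.prod_replicate, card_Zr hm,
    Multiset.prod_map_pow, Multiset.map_id', prod_Zr hm, mul_comm]

/-- vanishing -/
theorem coeff_NZ_eq_zero {m : ℕ} (hm : 0 < m) {f : PowerSeries E} {G : ℕ}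
    (hf : ∀ n, G < n → PowerSeries.coeff n f = 0) {n : ℕ} (hn : m * G < n) :
    PowerSeries.coeff n (NZ E m f) = 0 := by
  rw [NZ_eq_coe m hf, Polynomial.coeff_coe]
  apply Polynomial.coeff_eq_zero_of_natDegree_lt
  refine lt_of_le_of_lt ?_ hn
  refine (Polynomial.natDegree_multiset_prod_le _).trans ?_
  rw [Multiset.map_map]
  have h1 : ∀ x ∈ (Zr E m).map (natDegree ∘ fun ζ => PowerSeries.trunc (G + 1) (rescale ζ f)),
      x ≤ G := by
    intro x hx
    obtain ⟨ζ, _, rfl⟩ := Multiset.mem_map.mp hx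
    have := PowerSeries.natDegree_trunc_lt (rescale ζ f) G
    show natDegree (PowerSeries.trunc (G + 1) (rescale ζ f)) ≤ G
    omega
  have h2 := Multiset.sum_le_card_nsmul _ _ h1
  rwa [Multiset.card_map, card_Zr hm, smul_eq_mul] at h2

end power

end Crest.Agent.R013.CntB6_491
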