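import Mathlib
import Crest.Agent.R013.CntA1_560
import Crest.Agent.R013.CntB5_491
import Crest.Agent.R013.CntB6_491

/-!
# R013 / CntB8: Euler product and the L-function in a constant extension (helper491)

`∑ A'_n(ψ ∘ nm) T^(m n) = ∏_{ζ ∈ Zr m} ∑ A_n(ψ) (ζ T)^n` in every characteristic.
-/

set_option autoImplicit false
set_option linter.all false

namespace Crest.Agent.R013.CntB8_491

open Polynomial WithZero Module
open Crest.Agent.R013.RR1_948 Crest.Agent.R013.RR7_948 Crest.Agent.R013.RR8_948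
open Crest.Agent.R013.RR9_948 Crest.Agent.R013.RR11_948 Crest.Agent.R013.RR12_948
open Crest.Agent.R013.RR18_948 Crest.Agent.R013.PicD_398 Crest.Agent.R013.CntA1_560
open Crest.Agent.R013.CntB1_491 Crest.Agent.R013.CntB2_491 Crest.Agent.R013.CntB3_491
open Crest.Agent.R013.CntB4_491 Crest.Agent.R013.CntB5_491 Crest.Agent.R013.CntB6_491

section euler

variable {k K : Type*} [Field k] [Finite k] [Field K] [Algebra k K] [Algebra (RatFunc k) K]
  [IsScalarTower k (RatFunc k) K] [FiniteDimensional (RatFunc k) K]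
  [Algebra.IsSeparable (RatFunc k) K] {E : Type*} [CommRing E] [DecidableEq (Pl k K)]

/-- sum over the effective divisors supported in `S` -/
noncomputable def LS (ψ : AddChar (Pic k K) E) (S : Finset (Pl k K)) (n : ℤ) : E :=
  ∑ D ∈ (eff n).filter (fun D => D.support ⊆ S), ψ (cls D)

theorem LS_neg (ψ : AddChar (Pic k K) E) (S : Finset (Pl k K)) {n : ℤ} (hn : n < 0) :
    LS ψ S n = 0 := by
  unfold LS
  apply Finset.sum_eq_zero
  intro D hD
  rw [Finset.mem_filter, mem_eff] at hD
  have := degD_nonneg hD.1.1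
  omega

theorem LS_insert (ψ : AddChar (Pic k K) E) {S : Finset (Pl k K)} {P : Pl k K} (hP : P ∉ S)
    (n : ℤ) : LS ψ (insert P S) n
      = LS ψ S n + ψ (cls (Finsupp.single P 1)) * LS ψ (insert P S) (n - degP P) := by
  have h0 : LS ψ (insert P S) n =
      ∑ D ∈ ((eff n).filter (fun D => D.support ⊆ insert P S)).filter (fun D => D P = 0),
        ψ (cls D) +
      ∑ D ∈ ((eff n).filter (fun D => D.support ⊆ insert P S)).filter (fun D => ¬ D P = 0),
        ψ (cls D) := by
    unfold LS
    rw [Finset.sum_filter_add_sum_filter_not]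
  rw [h0]
  congr 1
  · unfold LS
    apply Finset.sum_congr _ fun _ _ => rfl
    ext D
    rw [Finset.mem_filter, Finset.mem_filter, Finset.mem_filter]
    constructor
    · rintro ⟨⟨h1, h2⟩, h3⟩
      refine ⟨h1, fun Q hQ => ?_⟩
      rcases Finset.mem_insert.mp (h2 hQ) with h4 | h4
      · rw [h4, Finsupp.mem_support_iff] at hQ
        exact absurd h3 hQ
      · exact h4
    · rintro ⟨h1, h2⟩
      refine ⟨⟨h1, h2.trans (Finset.subset_insert _ _)⟩, ?_⟩
      by_contra h3
      exact hP (h2 (Finsupp.mem_support_iff.mpr h3))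
  · unfold LS
    rw [Finset.mul_sum]
    symm
    refine Finset.sum_bij (fun D _ => D + Finsupp.single P 1) ?_ ?_ ?_ ?_
    · intro D hD
      rw [Finset.mem_filter, mem_eff] at hD
      obtain ⟨⟨h1, h2⟩, h3⟩ := hD
      have hPn : 0 ≤ D P := h1 P
      rw [Finset.mem_filter, Finset.mem_filter, mem_eff]
      refine ⟨⟨⟨add_nonneg h1 (Finsupp.single_nonneg.mpr zero_le_one), ?_⟩, ?_⟩, ?_⟩
      · rw [degD_add, degD_single, h2]; ring
      · intro Q hQ
        rcases Finset.mem_union.mp (Finsupp.support_add hQ) with h4 | h4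
        · exact h3 h4
        · rw [Finsupp.mem_support_single] at h4
          rw [h4.1]
          exact Finset.mem_insert_self _ _
      · rw [Finsupp.add_apply, Finsupp.single_eq_same]
        omega
    · intro D _ D' _ h
      exact add_right_cancel h
    · intro D hD
      rw [Finset.mem_filter, Finset.mem_filter, mem_eff] at hD
      obtain ⟨⟨⟨h1, h2⟩, h3⟩, h4⟩ := hD
      have hPn : 0 ≤ D P := h1 P
      refine ⟨D - Finsupp.single P 1, ?_, by rw [sub_add_cancel]⟩
      rw [Finset.mem_filter, mem_eff]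
      refine ⟨⟨?_, ?_⟩, ?_⟩
      · intro Q
        rw [Finsupp.sub_apply, Finsupp.single_apply, Finsupp.zero_apply]
        split_ifs with h5
        · subst h5; omega
        · have : 0 ≤ D Q := h1 Q
          omega
      · rw [degD_sub, degD_single, h2]; ring
      · intro Q hQ
        by_cases h5 : Q = P
        · rw [h5]; exact Finset.mem_insert_self _ _
        · apply h3
          rw [Finsupp.mem_support_iff, Finsupp.sub_apply, Finsupp.single_apply,
            if_neg (Ne.symm h5), sub_zero] at hQ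
          exact Finsupp.mem_support_iff.mpr hQ
    · intro D _
      rw [map_add, AddChar.map_add_eq_mul, mul_comm]

/-- the `L`-series of the places in `S` -/
noncomputable def Lps (ψ : AddChar (Pic k K) E) (S : Finset (Pl k K)) : PowerSeries E :=
  PowerSeries.mk fun n => LS ψ S n

theorem Lps_empty (ψ : AddChar (Pic k K) E) : Lps ψ (∅ : Finset (Pl k K)) = 1 := by
  ext n
  unfold Lps LS
  rw [PowerSeries.coeff_mk, PowerSeries.coeff_one]
  split_ifs with h
  · subst h
    rw [Finset.sum_eq_single 0]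
    · rw [map_zero, AddChar.map_zero_eq_one]
    · intro D hD h0
      rw [Finset.mem_filter, Finset.subset_empty, Finsupp.support_eq_empty] at hD
      exact absurd hD.2 h0
    · intro h0
      exfalso
      apply h0
      rw [Finset.mem_filter, mem_eff]
      refine ⟨⟨le_rfl, ?_⟩, ?_⟩
      · rw [degD_zero]; rfl
      · simp
  · apply Finset.sum_eq_zero
    intro D hD
    exfalso
    rw [Finset.mem_filter, Finset.subset_empty, Finsupp.support_eq_empty, mem_eff] at hD
    obtain ⟨⟨_, h1⟩, rfl⟩ := hD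
    rw [degD_zero] at h1
    omega

theorem Lps_insert (ψ : AddChar (Pic k K) E) {S : Finset (Pl k K)} {P : Pl k K} (hP : P ∉ S) :
    Lps ψ (insert P S) * (1 - PowerSeries.C (ψ (cls (Finsupp.single P 1))) *
      PowerSeries.X ^ degP P) = Lps ψ S := by
  ext n
  rw [mul_sub, mul_one, map_sub, mul_left_comm, PowerSeries.coeff_C_mul, mul_comm (Lps ψ _),
    PowerSeries.coeff_X_pow_mul']
  unfold Lps
  rw [PowerSeries.coeff_mk, PowerSeries.coeff_mk, LS_insert ψ hP]
  split_ifs with h
  · rw [PowerSeries.coeff_mk, Nat.cast_sub h]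
    ring
  · rw [LS_neg ψ (insert P S) (n := (n : ℤ) - degP P) (by omega), PowerSeries.coeff_mk]
    ring

/-- **Euler product** for a finite set of places -/
theorem Lps_mul_prod (ψ : AddChar (Pic k K) E) (S : Finset (Pl k K)) :
    Lps ψ S * ∏ P ∈ S, (1 - PowerSeries.C (ψ (cls (Finsupp.single P 1))) *
      PowerSeries.X ^ degP P) = 1 := by
  induction S using Finset.induction_on with
  | empty => rw [Lps_empty, Finset.prod_empty, mul_one]
  | insert P S hP ih => rw [Finset.prod_insert hP, ← mul_assoc, Lps_insert ψ hP, ih]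

theorem LS_eq_An (ψ : AddChar (Pic k K) E) (S : Finset (Pl k K)) (n : ℕ)
    (hS : ∀ P : Pl k K, degP P ≤ n → P ∈ S) : LS ψ S n = An (⇑ψ) n := by
  unfold LS An
  rw [Finset.filter_true_of_mem]
  intro D hD P hP
  rw [mem_eff] at hD
  apply hS
  have h1 := mul_degP_le hD.1 P
  rw [hD.2] at h1
  have h2 : 0 ≤ D P := hD.1 P
  have h3 : 1 ≤ D P := by
    have := Finsupp.mem_support_iff.mp hP
    omega
  have h4 : (degP P : ℤ) ≤ D P * degP P := by
    have : (0 : ℤ) ≤ degP P := by positivity
    nlinarith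
  exact_mod_cast h4.trans h1

end euler

section aux

theorem prod_dvd_sub {R : Type*} [CommRing R] (x : R) {ι : Type*} (Z : Multiset ι) (F G : ι → R)
    (h : ∀ i, x ∣ F i - G i) : x ∣ (Z.map F).prod - (Z.map G).prod := by
  induction Z using Multiset.induction_on with
  | empty => simp
  | cons a Z ih =>
    rw [Multiset.map_cons, Multiset.map_cons, Multiset.prod_cons, Multiset.prod_cons]
    have h1 : F a * (Z.map F).prod - G a * (Z.map G).prod
        = F a * ((Z.map F).prod - (Z.map G).prod) + (F a - G a) * (Z.map G).prod := by ring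
    rw [h1]
    exact dvd_add (Dvd.dvd.mul_left ih _) (Dvd.dvd.mul_right (h a) _)

theorem coeff_NZ_congr {E : Type*} [Field E] (m : ℕ) {f g : PowerSeries E} {n : ℕ}
    (h : ∀ j ≤ n, PowerSeries.coeff j f = PowerSeries.coeff j g) :
    PowerSeries.coeff n (NZ E m f) = PowerSeries.coeff n (NZ E m g) := by
  have h1 : (PowerSeries.X : PowerSeries E) ^ (n + 1) ∣ NZ E m f - NZ E m g := by
    unfold NZ
    apply prod_dvd_sub
    intro ζ
    rw [PowerSeries.X_pow_dvd_iff]
    intro j hj
    rw [map_sub, PowerSeries.coeff_rescale, PowerSeries.coeff_rescale, h j (by omega), sub_self]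
  rw [PowerSeries.X_pow_dvd_iff] at h1
  have h2 := h1 n (Nat.lt_succ_self n)
  rw [map_sub, sub_eq_zero] at h2
  exact h2

end aux

section main

variable {k k' K K' : Type*} [Field k] [Field k'] [Field K] [Field K'] [Algebra k k']
  [Algebra k K] [Algebra k' K'] [Algebra K K'] [Algebra k K'] [IsScalarTower k k' K']
  [IsScalarTower k K K'] [FiniteDimensional k k'] [Algebra.IsSeparable k k']
  [FiniteDimensional K K'] [Algebra.IsSeparable K K']
  [Algebra (RatFunc k) K] [IsScalarTower k (RatFunc k) K] [FiniteDimensional (RatFunc k) K]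
  [Algebra.IsSeparable (RatFunc k) K]
  [Algebra (RatFunc k') K'] [IsScalarTower k' (RatFunc k') K'] [FiniteDimensional (RatFunc k') K']
  [Algebra.IsSeparable (RatFunc k') K'] [Finite k] [Finite k'] [IsGalois k k']
  {E : Type*}

theorem degP_eq_div (h : IsCE k k' K K') (Q : Pl k' K') :
    degP Q = degP (res k K Q) / (finrank k k').gcd (degP (res k K Q)) := by
  have h1 := degP_mul_gcd h Q
  rw [Nat.gcd_comm] at h1
  symm
  apply Nat.div_eq_of_eq_mul_left
  · exact Nat.gcd_pos_of_pos_left _ Module.finrank_pos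
  · exact h1.symm

theorem fdeg_eq_div (h : IsCE k k' K K') (Q : Pl k' K') :
    fdeg k K Q = finrank k k' / (finrank k k').gcd (degP (res k K Q)) := by
  have h1 := fdeg_mul_gcd h Q
  rw [Nat.gcd_comm] at h1
  symm
  apply Nat.div_eq_of_eq_mul_left
  · exact Nat.gcd_pos_of_pos_left _ Module.finrank_pos
  · exact h1.symm

theorem char_nm [CommRing E] (h : IsCE k k' K K') (ψ : AddChar (Pic k K) E) (Q : Pl k' K') :
    ψ.compAddMonoidHom (nmPic h) (cls (Finsupp.single Q 1))
      = ψ (cls (Finsupp.single (res k K Q) 1)) ^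
        (finrank k k' / (finrank k k').gcd (degP (res k K Q))) := by
  rw [AddChar.compAddMonoidHom_apply, nmPic_cls, nm_single, ← fdeg_eq_div h, mul_one,
    ← AddChar.map_nsmul_eq_pow, ← map_nsmul]
  congr 2
  rw [← Nat.smul_one_eq_cast, Finsupp.smul_single]

/-- the Euler factors above `P` -/
theorem factor [CommRing E] (h : IsCE k k' K K') (ψ : AddChar (Pic k K) E) (P : Pl k K) :
    ∏ Q ∈ fib k' K' P, (1 - PowerSeries.C (ψ.compAddMonoidHom (nmPic h)
        (cls (Finsupp.single Q 1))) * PowerSeries.X ^ degP Q)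
      = (1 - PowerSeries.C (ψ (cls (Finsupp.single P 1)) ^
          (finrank k k' / (finrank k k').gcd (degP P))) *
          PowerSeries.X ^ (degP P / (finrank k k').gcd (degP P))) ^
            ((finrank k k').gcd (degP P)) := by
  have h1 : ∀ Q ∈ fib k' K' P, (1 - PowerSeries.C (ψ.compAddMonoidHom (nmPic h)
        (cls (Finsupp.single Q 1))) * PowerSeries.X ^ degP Q)
      = (1 - PowerSeries.C (ψ (cls (Finsupp.single P 1)) ^
          (finrank k k' / (finrank k k').gcd (degP P))) *
          PowerSeries.X ^ (degP P / (finrank k k').gcd (degP P))) := by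
    intro Q hQ
    rw [char_nm h, degP_eq_div h Q, mem_fib.mp hQ]
  rw [Finset.prod_congr rfl h1, Finset.prod_const, card_fib h, Nat.gcd_comm]

theorem expand_Lps [Field E] [IsAlgClosed E] [DecidableEq (Pl k K)] [DecidableEq (Pl k' K')]
    (h : IsCE k k' K K') (ψ : AddChar (Pic k K) E) (S : Finset (Pl k K)) :
    PowerSeries.expand (finrank k k') (Module.finrank_pos (R := k) (M := k')).ne'
      (Lps (ψ.compAddMonoidHom (nmPic h)) (S.biUnion (fib k' K')))
      = NZ E (finrank k k') (Lps ψ S) := by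
  set m := finrank k k' with hm
  have hm0 : 0 < m := Module.finrank_pos
  set A := PowerSeries.expand m hm0.ne' (Lps (ψ.compAddMonoidHom (nmPic h)) (S.biUnion (fib k' K')))
    with hA
  set B := NZ E m (Lps ψ S) with hB
  set F : PowerSeries E := ∏ P ∈ S, PowerSeries.expand m hm0.ne'
    ((1 - PowerSeries.C (ψ (cls (Finsupp.single P 1)) ^ (m / m.gcd (degP P))) *
          PowerSeries.X ^ (degP P / m.gcd (degP P))) ^ (m.gcd (degP P))) with hF
  have h1 : A * F = 1 := by
    have h2 := Lps_mul_prod (ψ.compAddMonoidHom (nmPic h)) (S.biUnion (fib k' K'))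
    rw [Finset.prod_biUnion] at h2
    · rw [Finset.prod_congr rfl fun P _ => factor h ψ P] at h2
      have h3 := congrArg (PowerSeries.expand m hm0.ne') h2
      rw [map_mul, map_prod, map_one] at h3
      exact h3
    · intro P _ P' _ hPP
      rw [Function.onFun, Finset.disjoint_left]
      intro Q hQ hQ'
      exact hPP ((mem_fib.mp hQ).symm.trans (mem_fib.mp hQ'))
  have h2 : B * F = 1 := by
    have h3 := congrArg (NZ E m) (Lps_mul_prod ψ S)
    rw [NZ_mul, NZ_prod, NZ_one, Finset.prod_congr rfl fun P _ => NZ_factor hm0 _ _] at h3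
    exact h3
  calc A = A * (B * F) := by rw [h2, mul_one]
    _ = (A * F) * B := by ring
    _ = B := by rw [h1, one_mul]

/-- **the `L`-series in a constant extension** -/
theorem expand_L [Field E] [IsAlgClosed E] (h : IsCE k k' K K') (ψ : AddChar (Pic k K) E) :
    PowerSeries.expand (finrank k k') (Module.finrank_pos (R := k) (M := k')).ne'
      (PowerSeries.mk fun n => An (⇑(ψ.compAddMonoidHom (nmPic h))) (n : ℤ))
      = NZ E (finrank k k') (PowerSeries.mk fun n => An (⇑ψ) (n : ℤ)) := by
  classical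
  set m := finrank k k' with hm
  have hm0 : 0 < m := Module.finrank_pos
  ext n
  let S : Finset (Pl k K) := (finite_degP_le (k := k) (K := K) n).toFinset
  have hS : ∀ P : Pl k K, P ∈ S ↔ degP P ≤ n := fun P => by
    rw [Set.Finite.mem_toFinset]; rfl
  have h1 := congrArg (PowerSeries.coeff n) (expand_Lps h ψ S)
  have h2 : PowerSeries.coeff n (NZ E m (PowerSeries.mk fun n => An (⇑ψ) (n : ℤ)))
      = PowerSeries.coeff n (NZ E m (Lps ψ S)) := by
    apply coeff_NZ_congr
    intro j hj
    unfold Lps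
    rw [PowerSeries.coeff_mk, PowerSeries.coeff_mk, LS_eq_An]
    intro P hP
    exact (hS P).mpr (hP.trans hj)
  rw [h2, ← h1, PowerSeries.coeff_expand, PowerSeries.coeff_expand]
  split_ifs with h3
  · obtain ⟨j, rfl⟩ := h3
    rw [Nat.mul_div_cancel_left _ hm0, PowerSeries.coeff_mk]
    unfold Lps
    rw [PowerSeries.coeff_mk, LS_eq_An]
    intro Q hQ
    rw [Finset.mem_biUnion]
    refine ⟨res k K Q, (hS _).mpr ?_, mem_fib.mpr rfl⟩
    have h4 := degP_mul_gcd h Q
    have h5 : Nat.gcd (degP (res k K Q)) (finrank k k') ≤ m :=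
      Nat.gcd_le_right _ hm0
    calc degP (res k K Q) = degP Q * Nat.gcd (degP (res k K Q)) (finrank k k') := h4.symm
      _ ≤ j * m := Nat.mul_le_mul hQ h5
      _ = m * j := mul_comm _ _
  · rfl

/-- **(B6)**: top coefficient -/
theorem An_nm_top [Field E] [IsAlgClosed E] (h : IsCE k k' K K') (ψ : AddChar (Pic k K) E) {G : ℕ}
    (hG : ∀ n : ℕ, G < n → An (⇑ψ) (n : ℤ) = 0) :
    An (⇑(ψ.compAddMonoidHom (nmPic h))) (G : ℤ)
      = An (⇑ψ) (G : ℤ) ^ finrank k k' * ((-1) ^ (finrank k k' + 1)) ^ G := by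
  have hm0 : 0 < finrank k k' := Module.finrank_pos
  have h1 := congrArg (PowerSeries.coeff (finrank k k' * G)) (expand_L h ψ)
  rw [PowerSeries.coeff_expand_mul, coeff_NZ hm0 (G := G) (fun n hn => by
    rw [PowerSeries.coeff_mk]; exact hG n hn), PowerSeries.coeff_mk, PowerSeries.coeff_mk] at h1
  exact h1

/-- **(B6)**: vanishing -/
theorem An_nm_eq_zero [Field E] [IsAlgClosed E] (h : IsCE k k' K K') (ψ : AddChar (Pic k K) E)
    {G : ℕ} (hG : ∀ n : ℕ, G < n → An (⇑ψ) (n : ℤ) = 0) {n : ℕ} (hn : G < n) :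
    An (⇑(ψ.compAddMonoidHom (nmPic h))) (n : ℤ) = 0 := by
  have hm0 : 0 < finrank k k' := Module.finrank_pos
  have h1 := congrArg (PowerSeries.coeff (finrank k k' * n)) (expand_L h ψ)
  rw [PowerSeries.coeff_expand_mul, coeff_NZ_eq_zero hm0 (G := G) (fun n hn => by
    rw [PowerSeries.coeff_mk]; exact hG n hn) (Nat.mul_lt_mul_of_pos_left hn hm0),
    PowerSeries.coeff_mk] at h1
  exact h1

/-- nonvanishing -/
theorem An_nm_ne_zero [Field E] [IsAlgClosed E] (h : IsCE k k' K K') (ψ : AddChar (Pic k K) E)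
    {G : ℕ} (hG : ∀ n : ℕ, G < n → An (⇑ψ) (n : ℤ) = 0) (h0 : An (⇑ψ) (G : ℤ) ≠ 0) :
    An (⇑(ψ.compAddMonoidHom (nmPic h))) (G : ℤ) ≠ 0 := by
  rw [An_nm_top h ψ hG]
  exact mul_ne_zero (pow_ne_zero _ h0) (pow_ne_zero _ (pow_ne_zero _ (neg_ne_zero.mpr one_ne_zero)))

end main

end Crest.Agent.R013.CntB8_491
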