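import Mathlib
import Crest.Agent.R013.CntA1_560

/-!
# R013 / CntA2: growth of the number of effective divisors; a function field over a finite field has
no two "copies of almost all its places" in another one (helper560)
-/

set_option autoImplicit false
set_option linter.all false

namespace Crest.Agent.R013.CntA2_560

open Polynomial WithZero Module IsDedekindDomain nonZeroDivisors
open Crest.Agent.R013.RR7_948 Crest.Agent.R013.RR8_948 Crest.Agent.R013.RR9_948
open Crest.Agent.R013.RR11_948 Crest.Agent.R013.RR12_948 Crest.Agent.R013.PicD_398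
open Crest.Agent.R013.CntA1_560

section Growth

variable {k : Type*} [Field k] {K : Type*} [Field K] [Algebra k K] [Algebra (RatFunc k) K]
  [IsScalarTower k (RatFunc k) K] [FiniteDimensional (RatFunc k) K]
  [Algebra.IsSeparable (RatFunc k) K] [Finite k]

/-- the effective divisors of degree `n` with support outside `S` -/
noncomputable def effS (S : Finset (Pl k K)) (n : ℤ) : Finset (Pl k K →₀ ℤ) := by
  classical
  exact (eff n).filter fun D => ∀ P ∈ S, D P = 0

theorem mem_effS {S : Finset (Pl k K)} {n : ℤ} {D : Pl k K →₀ ℤ} :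
    D ∈ effS S n ↔ (0 ≤ D ∧ degD D = n) ∧ ∀ P ∈ S, D P = 0 := by
  unfold effS
  rw [Finset.mem_filter, mem_eff]

theorem effS_empty (n : ℤ) : effS (∅ : Finset (Pl k K)) n = eff n := by
  ext D
  rw [mem_effS, mem_eff]
  simp

theorem card_effS_insert [DecidableEq (Pl k K)] (S : Finset (Pl k K)) {P : Pl k K} (hP : P ∉ S)
    (n : ℤ) :
    (effS S n).card = (effS (insert P S) n).card + (effS S (n - degP P)).card := by
  classical
  rw [← Finset.card_filter_add_card_filter_not (s := effS S n) (fun D => D P = 0)]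
  congr 1
  · congr 1
    ext D
    rw [Finset.mem_filter, mem_effS, mem_effS, Finset.forall_mem_insert]
    tauto
  · refine Finset.card_bij (fun D _ => D - Finsupp.single P 1) ?_ ?_ ?_
    · intro D hD
      rw [Finset.mem_filter, mem_effS] at hD
      obtain ⟨⟨⟨h0, hn⟩, hS⟩, hDP⟩ := hD
      rw [mem_effS]
      refine ⟨⟨?_, ?_⟩, ?_⟩
      · intro Q
        rw [Finsupp.zero_apply, Finsupp.sub_apply, Finsupp.single_apply]
        have hQ : 0 ≤ D Q := h0 Q
        split_ifs with h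
        · subst h
          omega
        · omega
      · rw [degD_sub, degD_single, hn, one_mul]
      · intro Q hQ
        rw [Finsupp.sub_apply, Finsupp.single_apply, if_neg (fun h : P = Q => hP (h ▸ hQ)), hS Q hQ,
          sub_zero]
    · intro D _ D' _ h
      exact sub_left_injective h
    · intro D hD
      rw [mem_effS] at hD
      obtain ⟨⟨h0, hn⟩, hS⟩ := hD
      refine ⟨D + Finsupp.single P 1, ?_, by abel⟩
      rw [Finset.mem_filter, mem_effS]
      refine ⟨⟨⟨?_, ?_⟩, ?_⟩, ?_⟩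
      · exact add_nonneg h0 (by rw [Finsupp.single_nonneg]; norm_num)
      · rw [degD_add, degD_single, hn, one_mul]; ring
      · intro Q hQ
        rw [Finsupp.add_apply, Finsupp.single_apply, if_neg (fun h : P = Q => hP (h ▸ hQ)), hS Q hQ,
          add_zero]
      · rw [Finsupp.add_apply, Finsupp.single_eq_same]
        have : 0 ≤ D P := h0 P
        omega

/-- exact formula for the number of effective divisors of large degree away from `S` -/
theorem effS_exact (S : Finset (Pl k K)) : ∃ c c' : ℝ, 0 < c ∧ ∃ n0 : ℤ, ∀ n ≥ n0,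
    (∃ D : Pl k K →₀ ℤ, degD D = n) → ((effS S n).card : ℝ) = c * (Nat.card k : ℝ) ^ n - c' := by
  classical
  have hq : (1 : ℝ) < Nat.card k := by exact_mod_cast (Finite.one_lt_card : 1 < Nat.card k)
  have hq0 : (Nat.card k : ℝ) ≠ 0 := by positivity
  induction S using Finset.induction_on with
  | empty =>
    have hh : (0 : ℝ) < Nat.card (Pic0 k K) := by exact_mod_cast Nat.card_pos
    have he : (0 : ℝ) < (Nat.card k : ℝ) ^ ell (0 : Pl k K →₀ ℤ) - 1 := by
      have := one_lt_pow₀ hq (n := ell (0 : Pl k K →₀ ℤ))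
        (by have := one_le_ell_zero (k := k) (K := K); omega)
      linarith
    refine ⟨Nat.card (Pic0 k K) *
      (Nat.card k : ℝ) ^ ((ell (0 : Pl k K →₀ ℤ) : ℤ) - ell (canD k K)) /
      ((Nat.card k : ℝ) ^ ell (0 : Pl k K →₀ ℤ) - 1), Nat.card (Pic0 k K) /
      ((Nat.card k : ℝ) ^ ell (0 : Pl k K →₀ ℤ) - 1), by positivity, degD (canD k K) + 1, ?_⟩
    rintro n hn ⟨D, hD⟩
    have h := card_eff_mul hD (by omega)
    rw [effS_empty]
    have h1 : (Nat.card k : ℝ) ^ (n + ell (0 : Pl k K →₀ ℤ) - ell (canD k K)) =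
        (Nat.card k : ℝ) ^ ((ell (0 : Pl k K →₀ ℤ) : ℤ) - ell (canD k K)) * (Nat.card k : ℝ) ^ n := by
      rw [← zpow_add₀ hq0]; congr 1; ring
    rw [h1] at h
    field_simp
    linarith
  | insert P S hP ih =>
    obtain ⟨c, c', hc, n0, h⟩ := ih
    have hd : 0 < degP P := degP_pos P
    have h1 : (Nat.card k : ℝ) ^ (-(degP P : ℤ)) < 1 := by
      apply zpow_lt_one_of_neg₀ hq
      omega
    refine ⟨c * (1 - (Nat.card k : ℝ) ^ (-(degP P : ℤ))), 0, mul_pos hc (by linarith),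
      n0 + degP P, ?_⟩
    rintro n hn ⟨D, hD⟩
    have h2 := congrArg (Nat.cast : ℕ → ℝ) (card_effS_insert S hP n)
    rw [Nat.cast_add, h n (by omega) ⟨D, hD⟩, h (n - degP P) (by omega)
      ⟨D - Finsupp.single P 1, by rw [degD_sub, degD_single, hD, one_mul]⟩] at h2
    rw [sub_eq_add_neg n, zpow_add₀ hq0] at h2
    linarith

/-- lower bound for the number of effective divisors away from `S` -/
theorem effS_lower (S : Finset (Pl k K)) : ∃ c : ℝ, 0 < c ∧ ∃ n0 : ℕ, ∀ n : ℕ, n0 ≤ n →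
    (∃ D : Pl k K →₀ ℤ, degD D = n) → c * (Nat.card k : ℝ) ^ n ≤ ((effS S n).card : ℝ) := by
  have hq : (1 : ℝ) < Nat.card k := by exact_mod_cast (Finite.one_lt_card : 1 < Nat.card k)
  obtain ⟨c, c', hc, n0, h⟩ := effS_exact S
  obtain ⟨n1, hn1⟩ := pow_unbounded_of_one_lt (2 * c' / c) hq
  refine ⟨c / 2, by positivity, max n0.toNat n1, fun n hn hD => ?_⟩
  have h1 := h n (by have := (le_max_left _ _).trans hn; omega) hD
  rw [zpow_natCast] at h1
  rw [h1]
  have h2 : (Nat.card k : ℝ) ^ n1 ≤ (Nat.card k : ℝ) ^ n :=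
    pow_le_pow_right₀ hq.le ((le_max_right _ _).trans hn)
  have h3 : 2 * c' / c < (Nat.card k : ℝ) ^ n := lt_of_lt_of_le hn1 h2
  rw [div_lt_iff₀ hc] at h3
  linarith

end Growth

section Split

variable {k : Type*} [Field k]
  {K : Type*} [Field K] [Algebra k K] [Algebra (RatFunc k) K]
  [IsScalarTower k (RatFunc k) K] [FiniteDimensional (RatFunc k) K]
  [Algebra.IsSeparable (RatFunc k) K]
  {K' : Type*} [Field K'] [Algebra k K'] [Algebra (RatFunc k) K']
  [IsScalarTower k (RatFunc k) K'] [FiniteDimensional (RatFunc k) K']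
  [Algebra.IsSeparable (RatFunc k) K']
  {S : Finset (Pl k K)}

/-- transport of a divisor along a map of places -/
noncomputable def push (ι : {P : Pl k K // P ∉ S} → Pl k K') (D : Pl k K →₀ ℤ) : Pl k K' →₀ ℤ :=
  (D.subtypeDomain (fun P => P ∉ S)).mapDomain ι

theorem push_apply {ι : {P : Pl k K // P ∉ S} → Pl k K'} (hι : Function.Injective ι)
    (D : Pl k K →₀ ℤ) (P : {P : Pl k K // P ∉ S}) : push ι D (ι P) = D P := by
  unfold push
  rw [Finsupp.mapDomain_apply hι]
  rfl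

theorem push_eq_zero {ι : {P : Pl k K // P ∉ S} → Pl k K'} (D : Pl k K →₀ ℤ) {Q : Pl k K'}
    (hQ : Q ∉ Set.range ι) : push ι D Q = 0 := by
  unfold push
  exact Finsupp.mapDomain_notin_range _ _ hQ

theorem push_nonneg {ι : {P : Pl k K // P ∉ S} → Pl k K'} (hι : Function.Injective ι)
    {D : Pl k K →₀ ℤ} (hD : 0 ≤ D) : 0 ≤ push ι D := by
  intro Q
  by_cases hQ : Q ∈ Set.range ι
  · obtain ⟨P, rfl⟩ := hQ
    rw [push_apply hι]
    exact hD P
  · rw [push_eq_zero _ hQ]
    rfl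

theorem degD_push {ι : {P : Pl k K // P ∉ S} → Pl k K'}
    (hdeg : ∀ P, degP (ι P) = degP (P : Pl k K)) {D : Pl k K →₀ ℤ} (hD : ∀ P ∈ S, D P = 0) :
    degD (push ι D) = degD D := by
  unfold degD push
  rw [Finsupp.sum_mapDomain_index (fun _ => by simp) (fun _ _ _ => by ring)]
  rw [← Finsupp.sum_subtypeDomain_index (p := fun P => P ∉ S)
    (h := fun P (n : ℤ) => n * (degP P : ℤ)) (v := D)]
  · refine Finsupp.sum_congr fun P _ => ?_
    rw [hdeg]
  · intro P hP hPS
    exact (Finsupp.mem_support_iff.mp hP) (hD P hPS)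

variable [Finite k]

theorem pair_mem {ι0 ι1 : {P : Pl k K // P ∉ S} → Pl k K'} (hι0 : Function.Injective ι0)
    (hι1 : Function.Injective ι1) (hdeg0 : ∀ P, degP (ι0 P) = degP (P : Pl k K))
    (hdeg1 : ∀ P, degP (ι1 P) = degP (P : Pl k K)) {D E : Pl k K →₀ ℤ} {a b : ℤ}
    (hD : D ∈ effS S a) (hE : E ∈ effS S b) :
    push ι0 D + push ι1 E ∈ eff (k := k) (K := K') (a + b) := by
  rw [mem_effS] at hD hE
  rw [mem_eff]
  refine ⟨add_nonneg (push_nonneg hι0 hD.1.1) (push_nonneg hι1 hE.1.1), ?_⟩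
  rw [degD_add, degD_push hdeg0 hD.2, degD_push hdeg1 hE.2, hD.1.2, hE.1.2]

theorem pair_inj {ι0 ι1 : {P : Pl k K // P ∉ S} → Pl k K'} (hι0 : Function.Injective ι0)
    (hι1 : Function.Injective ι1) (h01 : ∀ P, ι0 P ∉ Set.range ι1)
    (h10 : ∀ P, ι1 P ∉ Set.range ι0) {D E D' E' : Pl k K →₀ ℤ} {a b a' b' : ℤ}
    (hD : D ∈ effS S a) (hE : E ∈ effS S b) (hD' : D' ∈ effS S a') (hE' : E' ∈ effS S b')
    (h : push ι0 D + push ι1 E = push ι0 D' + push ι1 E') : D = D' ∧ E = E' := by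
  rw [mem_effS] at hD hE hD' hE'
  constructor
  · ext P
    by_cases hP : P ∈ S
    · rw [hD.2 P hP, hD'.2 P hP]
    · have := DFunLike.congr_fun h (ι0 ⟨P, hP⟩)
      rw [Finsupp.add_apply, Finsupp.add_apply, push_apply hι0, push_apply hι0,
        push_eq_zero _ (h01 _), push_eq_zero _ (h01 _), add_zero, add_zero] at this
      exact this
  · ext P
    by_cases hP : P ∈ S
    · rw [hE.2 P hP, hE'.2 P hP]
    · have := DFunLike.congr_fun h (ι1 ⟨P, hP⟩)
      rw [Finsupp.add_apply, Finsupp.add_apply, push_apply hι1, push_apply hι1,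
        push_eq_zero _ (h10 _), push_eq_zero _ (h10 _), zero_add, zero_add] at this
      exact this

/-- the counting contradiction for two families of companions -/
theorem no_two {ι0 ι1 : {P : Pl k K // P ∉ S} → Pl k K'} (hι0 : Function.Injective ι0)
    (hι1 : Function.Injective ι1) (h01 : ∀ P, ι0 P ∉ Set.range ι1)
    (h10 : ∀ P, ι1 P ∉ Set.range ι0) (hdeg0 : ∀ P, degP (ι0 P) = degP (P : Pl k K))
    (hdeg1 : ∀ P, degP (ι1 P) = degP (P : Pl k K)) : False := by
  classical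
  have hq : (1 : ℝ) < Nat.card k := by exact_mod_cast (Finite.one_lt_card : 1 < Nat.card k)
  -- a reference place
  obtain ⟨P0, -⟩ := exists_notMem (k := k) (K := K) ∅
  obtain ⟨d, hd⟩ : ∃ d, d = degP P0 := ⟨_, rfl⟩
  have hd0 : 0 < d := hd ▸ degP_pos P0
  have hdeg' : ∀ j : ℕ, ∃ D : Pl k K →₀ ℤ, degD D = ((j * d : ℕ) : ℤ) := fun j =>
    ⟨Finsupp.single P0 j, by rw [degD_single, hd]; push_cast; rfl⟩
  obtain ⟨c, hc, n0, hlow⟩ := effS_lower S
  -- the constant of the upper bound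
  obtain ⟨C, hC⟩ : ∃ C : ℝ, C = Nat.card (Pic0 k K') *
    (Nat.card k : ℝ) ^ ell (0 : Pl k K' →₀ ℤ) := ⟨_, rfl⟩
  obtain ⟨N, hN⟩ := exists_nat_gt (C / c ^ 2)
  -- total degree `J * d`
  obtain ⟨J, hJ⟩ : ∃ J : ℕ, J = 2 * n0 + N := ⟨_, rfl⟩
  let T : Finset (Σ _ : ℕ, (Pl k K →₀ ℤ) × (Pl k K →₀ ℤ)) :=
    (Finset.Icc n0 (n0 + N)).sigma fun j =>
      effS S ((j * d : ℕ) : ℤ) ×ˢ effS S (((J - j) * d : ℕ) : ℤ)
  have hmem : ∀ x ∈ T, (x.1 ∈ Finset.Icc n0 (n0 + N)) ∧ x.2.1 ∈ effS S ((x.1 * d : ℕ) : ℤ) ∧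
      x.2.2 ∈ effS S (((J - x.1) * d : ℕ) : ℤ) := by
    intro x hx
    rw [Finset.mem_sigma, Finset.mem_product] at hx
    exact hx
  have hcard : T.card ≤ (eff (k := k) (K := K') ((J * d : ℕ) : ℤ)).card := by
    refine Finset.card_le_card_of_injOn (fun x => push ι0 x.2.1 + push ι1 x.2.2) ?_ ?_
    · intro x hx
      obtain ⟨h1, h2, h3⟩ := hmem x hx
      rw [Finset.mem_Icc] at h1
      rw [Finset.mem_coe]
      have h4 := pair_mem hι0 hι1 hdeg0 hdeg1 h2 h3
      rw [← Nat.cast_add, ← add_mul, show x.1 + (J - x.1) = J by omega] at h4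
      exact h4
    · intro x hx y hy hxy
      obtain ⟨h1, h2, h3⟩ := hmem x hx
      obtain ⟨h1', h2', h3'⟩ := hmem y hy
      obtain ⟨e1, e2⟩ := pair_inj hι0 hι1 h01 h10 h2 h3 h2' h3' hxy
      have e3 : x.1 = y.1 := by
        rw [e1] at h2
        have h4 := (mem_effS.mp h2).1.2
        rw [(mem_effS.mp h2').1.2] at h4
        have : y.1 * d = x.1 * d := by exact_mod_cast h4
        exact (Nat.eq_of_mul_eq_mul_right hd0 this).symm
      rcases x with ⟨j, D1, D2⟩
      rcases y with ⟨j', D1', D2'⟩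
      simp only at e1 e2 e3
      subst e1 e2 e3
      rfl
  -- lower bound for `T`
  have hlowT : ((N : ℝ) + 1) * (c ^ 2 * (Nat.card k : ℝ) ^ (J * d)) ≤ T.card := by
    rw [Finset.card_sigma]
    push_cast
    have h1 : ∀ j ∈ Finset.Icc n0 (n0 + N), c ^ 2 * (Nat.card k : ℝ) ^ (J * d) ≤
        (((effS S ((j * d : ℕ) : ℤ) ×ˢ effS S (((J - j) * d : ℕ) : ℤ)).card : ℕ) : ℝ) := by
      intro j hj
      rw [Finset.mem_Icc] at hj
      rw [Finset.card_product, Nat.cast_mul]
      have h2 := hlow (j * d) (hj.1.trans (Nat.le_mul_of_pos_right _ hd0)) (hdeg' j)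
      have h3 := hlow ((J - j) * d) ((show n0 ≤ J - j by omega).trans
        (Nat.le_mul_of_pos_right _ hd0)) (hdeg' (J - j))
      have h4 : J * d = j * d + (J - j) * d := by
        rw [← add_mul]; congr 1; omega
      calc c ^ 2 * (Nat.card k : ℝ) ^ (J * d)
          = (c * (Nat.card k : ℝ) ^ (j * d)) * (c * (Nat.card k : ℝ) ^ ((J - j) * d)) := by
            rw [h4, pow_add]; ring
        _ ≤ _ := mul_le_mul h2 h3 (by positivity) (by positivity)
    have h2 := Finset.sum_le_sum h1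
    rw [Finset.sum_const, Nat.card_Icc, nsmul_eq_mul] at h2
    have h3 : ((n0 + N + 1 - n0 : ℕ) : ℝ) = (N : ℝ) + 1 := by
      rw [show n0 + N + 1 - n0 = N + 1 by omega]; push_cast; ring
    rw [h3] at h2
    push_cast at h2
    exact h2
  -- upper bound
  have hup : (T.card : ℝ) ≤ C * (Nat.card k : ℝ) ^ (J * d) := by
    have h1 := hcard.trans (card_eff_le (k := k) (K := K') (J * d))
    rw [hC]
    exact_mod_cast h1
  have hpos : (0 : ℝ) < (Nat.card k : ℝ) ^ (J * d) := by positivity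
  have h1 := hlowT.trans hup
  rw [← mul_assoc] at h1
  have h2 : ((N : ℝ) + 1) * c ^ 2 ≤ C := le_of_mul_le_mul_right h1 hpos
  rw [div_lt_iff₀ (by positivity)] at hN
  have h3 : (0 : ℝ) < c ^ 2 := by positivity
  nlinarith

/-- **growth**: if almost all places of `K` have `M` companions of the same degree among the places
of `K'` (all distinct), then `M ≤ 1`. -/
theorem split_le_one {M : ℕ} (ι : {P : Pl k K // P ∉ S} × Fin M → Pl k K')
    (hι : Function.Injective ι) (hdeg : ∀ x, degP (ι x) = degP (x.1 : Pl k K)) : M ≤ 1 := by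
  by_contra hM
  rw [not_le] at hM
  obtain ⟨i0, i1, hi⟩ : ∃ i0 i1 : Fin M, i0 ≠ i1 :=
    ⟨⟨0, by omega⟩, ⟨1, hM⟩, fun h => by simp at h⟩
  refine no_two (ι0 := fun P => ι (P, i0)) (ι1 := fun P => ι (P, i1)) ?_ ?_ ?_ ?_ ?_ ?_
  · intro P Q h
    exact congrArg Prod.fst (hι h)
  · intro P Q h
    exact congrArg Prod.fst (hι h)
  · rintro P ⟨Q, hQ⟩
    exact hi (congrArg Prod.snd (hι hQ)).symm
  · rintro P ⟨Q, hQ⟩
    exact hi (congrArg Prod.snd (hι hQ))
  · exact fun P => hdeg (P, i0)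
  · exact fun P => hdeg (P, i1)

end Split

end Crest.Agent.R013.CntA2_560
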