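import Mathlib
import Crest.Agent.R013.RR13_948
import Crest.Agent.R013.CntA2_560

/-!
# R013 / CntA3: a Galois extension of function fields over a finite field with trivial decomposition
groups at almost all places is trivial (helper560)
-/

set_option autoImplicit false
set_option linter.all false

namespace Crest.Agent.R013.CntA3_560

open Polynomial WithZero Module IsDedekindDomain nonZeroDivisors
open Crest.Agent.R013.RR1_948 Crest.Agent.R013.RR2_948 Crest.Agent.R013.RR3_948
open Crest.Agent.R013.RR4_948 Crest.Agent.R013.RR5_948 Crest.Agent.R013.RR6_948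
open Crest.Agent.R013.RR7_948 Crest.Agent.R013.RR8_948 Crest.Agent.R013.RR9_948
open Crest.Agent.R013.RR11_948 Crest.Agent.R013.RR12_948 Crest.Agent.R013.RR13_948
open Crest.Agent.R013.PicD_398 Crest.Agent.R013.CntA1_560 Crest.Agent.R013.CntA2_560

section Twist

variable {k : Type*} [Field k] {K : Type*} [Field K] [Algebra k K]
  {L : Type*} [Field L] [Algebra k L] [Algebra K L] [IsScalarTower k K L]

/-- the conjugate place `Q ∘ σ` -/
noncomputable def twist (σ : L ≃ₐ[K] L) (Q : Pl k L) : Pl k L where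
  v := Q.v.comap (σ : L →+* L)
  const c hc := by
    rw [Valuation.comap_apply]
    have : (σ : L →+* L) (algebraMap k L c) = algebraMap k L c := by
      rw [IsScalarTower.algebraMap_apply k K L]
      exact σ.commutes _
    rw [this]
    exact Q.const c hc
  surj m := by
    obtain ⟨x, hx⟩ := Q.surj m
    refine ⟨σ.symm x, ?_⟩
    rw [Valuation.comap_apply]
    show Q.v (σ (σ.symm x)) = m
    rw [AlgEquiv.apply_symm_apply, hx]

theorem twist_v (σ : L ≃ₐ[K] L) (Q : Pl k L) (x : L) : (twist σ Q).v x = Q.v (σ x) := rfl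

variable (K) in
/-- trivial decomposition group -/
def FreeAt (Q : Pl k L) : Prop := ∀ σ : L ≃ₐ[K] L, (∀ x, Q.v (σ x) = Q.v x) → σ = 1

theorem twist_injective {Q : Pl k L} (hQ : FreeAt K Q) :
    Function.Injective (fun σ : L ≃ₐ[K] L => twist σ Q) := by
  intro σ τ h
  have h1 : ∀ x, Q.v (σ x) = Q.v (τ x) := fun x => by
    rw [← twist_v, ← twist_v]
    exact congrArg (fun P : Pl k L => P.v x) h
  have h2 : (σ * τ⁻¹ : L ≃ₐ[K] L) = 1 := hQ _ fun x => by
    show Q.v (σ (τ⁻¹ x)) = _
    rw [h1]
    congr 1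
    exact AlgEquiv.apply_symm_apply τ x
  exact mul_inv_eq_one.mp h2

theorem freeAt_twist {Q : Pl k L} (hQ : FreeAt K Q) (σ : L ≃ₐ[K] L) : FreeAt K (twist σ Q) := by
  intro τ h
  have h1 : (σ * τ * σ⁻¹ : L ≃ₐ[K] L) = 1 := hQ _ fun x => by
    have h2 := h (σ⁻¹ x)
    rw [twist_v, twist_v] at h2
    show Q.v (σ (τ (σ⁻¹ x))) = _
    rw [h2]
    congr 1
    exact AlgEquiv.apply_symm_apply σ x
  rwa [mul_inv_eq_one, mul_eq_left] at h1

variable [Algebra (RatFunc k) L] [IsScalarTower k (RatFunc k) L] [FiniteDimensional (RatFunc k) L]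
  [Algebra.IsSeparable (RatFunc k) L] [FiniteDimensional K L] [IsGalois K L]

/-- `K` is dense in `L` at a place with trivial decomposition group -/
theorem dense {Q : Pl k L} (hQ : FreeAt K Q) (x : L) (n : ℤ) :
    ∃ y : K, Q.v (algebraMap K L y - x) ≤ exp (-n) := by
  classical
  obtain ⟨z, hz⟩ := weak_approx (Finset.univ.image fun σ : L ≃ₐ[K] L => twist σ Q)
    (fun P => if P = Q then x else 0) n
  have h1 : ∀ σ : L ≃ₐ[K] L, σ ≠ 1 → Q.v (σ z) ≤ exp (-n) := by
    intro σ hσ
    have h2 := hz (twist σ Q) (Finset.mem_image_of_mem _ (Finset.mem_univ _))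
    have h3 : twist σ Q ≠ Q := by
      intro h
      apply hσ
      apply twist_injective hQ
      show twist σ Q = twist 1 Q
      rw [h]
      ext y; rfl
    rw [if_neg h3, sub_zero, twist_v] at h2
    exact h2
  have h2 : Q.v (z - x) ≤ exp (-n) := by
    have h2 := hz (twist 1 Q) (Finset.mem_image_of_mem _ (Finset.mem_univ _))
    have h3 : twist (1 : L ≃ₐ[K] L) Q = Q := by ext y; rfl
    rw [h3, if_pos rfl] at h2
    exact h2
  refine ⟨Algebra.trace K L z, ?_⟩
  rw [trace_eq_sum_automorphisms, ← Finset.add_sum_erase _ _ (Finset.mem_univ (1 : L ≃ₐ[K] L))]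
  have h3 : (1 : L ≃ₐ[K] L) z + ∑ σ ∈ Finset.univ.erase (1 : L ≃ₐ[K] L), σ z - x =
      (z - x) + ∑ σ ∈ Finset.univ.erase (1 : L ≃ₐ[K] L), σ z := by
    rw [AlgEquiv.one_apply]; ring
  rw [h3]
  refine (Valuation.map_add _ _ _).trans (max_le h2 (Valuation.map_sum_le _ fun σ hσ => ?_))
  exact h1 σ (Finset.ne_of_mem_erase hσ)

/-- the restriction of a place with trivial decomposition group -/
noncomputable def res {Q : Pl k L} (hQ : FreeAt K Q) : Pl k K where
  v := Q.v.comap (algebraMap K L)
  const c hc := by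
    rw [Valuation.comap_apply, ← IsScalarTower.algebraMap_apply]
    exact Q.const c hc
  surj m := by
    induction m using WithZero.expRecOn with
    | zero => exact ⟨0, by simp⟩
    | exp m =>
      obtain ⟨t, ht⟩ := Q.surj (exp m)
      obtain ⟨y, hy⟩ := dense (K := K) hQ t (-(m - 1))
      refine ⟨y, ?_⟩
      rw [Valuation.comap_apply]
      have h1 : Q.v (algebraMap K L y - t) < Q.v t := by
        refine hy.trans_lt ?_
        rw [ht, exp_lt_exp]; omega
      have h2 : algebraMap K L y = (algebraMap K L y - t) + t := by ring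
      rw [h2, Valuation.map_add_eq_of_lt_right _ h1, ht]

theorem res_v {Q : Pl k L} (hQ : FreeAt K Q) (y : K) : (res hQ).v y = Q.v (algebraMap K L y) := rfl

theorem degP_res {Q : Pl k L} (hQ : FreeAt K Q) : degP (res hQ) = degP Q := by
  unfold degP
  congr 1
  unfold degE ri
  let f : ball (res hQ) 0 →ₗ[k] ball Q 0 :=
    LinearMap.codRestrict _ ((IsScalarTower.toAlgHom k K L).toLinearMap.comp
      (ball (res hQ) 0).subtype) (fun a => by
      have h := a.2
      rw [mem_ball] at h
      rw [mem_ball]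
      exact h)
  let g := ((ball Q (-1)).submoduleOf (ball Q 0)).mkQ.comp f
  have hg : Function.Surjective g := by
    intro y
    obtain ⟨⟨y, hy⟩, rfl⟩ := Submodule.Quotient.mk_surjective _ y
    have hy' := hy
    rw [mem_ball, exp_zero] at hy'
    obtain ⟨a, ha⟩ := dense (K := K) hQ y 1
    have ha' : a ∈ ball (res hQ) 0 := by
      rw [mem_ball, res_v, exp_zero]
      have h2 : algebraMap K L a = (algebraMap K L a - y) + y := by ring
      rw [h2]
      refine (Valuation.map_add _ _ _).trans (max_le (ha.trans ?_) hy')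
      rw [← exp_zero, exp_le_exp]; norm_num
    refine ⟨⟨a, ha'⟩, ?_⟩
    simp only [g, LinearMap.comp_apply, Submodule.mkQ_apply]
    rw [Submodule.Quotient.eq, Submodule.submoduleOf, Submodule.mem_comap, mem_ball]
    exact ha
  have hker : LinearMap.ker g = (ball (res hQ) (-1)).submoduleOf (ball (res hQ) 0) := by
    ext a
    rw [LinearMap.mem_ker]
    simp only [g, LinearMap.comp_apply, Submodule.mkQ_apply]
    rw [Submodule.Quotient.mk_eq_zero, Submodule.submoduleOf, Submodule.mem_comap, mem_ball,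
      Submodule.submoduleOf, Submodule.mem_comap, mem_ball]
    rfl
  have e1 := g.quotKerEquivOfSurjective hg
  rw [hker] at e1
  exact e1.length_eq

end Twist

section Above

variable {k : Type*} [Field k] {K : Type*} [Field K] [Algebra k K] [Algebra (RatFunc k) K]
  [IsScalarTower k (RatFunc k) K] [FiniteDimensional (RatFunc k) K]
  [Algebra.IsSeparable (RatFunc k) K]
  {L : Type*} [Field L] [Algebra k L] [Algebra K L] [IsScalarTower k K L]
  [Algebra (RatFunc k) L] [IsScalarTower k (RatFunc k) L] [FiniteDimensional (RatFunc k) L]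
  [Algebra.IsSeparable (RatFunc k) L]

/-- a function with a pole at `P` only -/
theorem exists_only_pole (P : Pl k K) : ∃ f : K, 1 < P.v f ∧ ∀ Q, Q ≠ P → Q.v f ≤ 1 := by
  classical
  obtain ⟨m, hm⟩ : ∃ m : ℕ, (ell (canD k K) : ℤ) < m * degP P := by
    refine ⟨ell (canD k K) + 1, ?_⟩
    have h2 : (1 : ℤ) ≤ degP P := by exact_mod_cast degP_pos P
    push_cast
    nlinarith
  have h1 := ell_ge' (Finsupp.single P (m : ℤ))
  rw [degD_single] at h1
  have h2 : ell (0 : Pl k K →₀ ℤ) < ell (Finsupp.single P (m : ℤ)) := by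
    have : (ell (0 : Pl k K →₀ ℤ) : ℤ) < ell (Finsupp.single P (m : ℤ)) := by linarith
    exact_mod_cast this
  obtain ⟨f, hf, hf'⟩ : ∃ f ∈ LD (Finsupp.single P (m : ℤ)), f ∉ LD (0 : Pl k K →₀ ℤ) := by
    by_contra hcon
    push Not at hcon
    have hle : LD (Finsupp.single P (m : ℤ)) ≤ LD (0 : Pl k K →₀ ℤ) := hcon
    have hfin := LD_finite (0 : Pl k K →₀ ℤ)
    have := Submodule.finrank_mono hle
    unfold ell at h2
    omega
  rw [mem_LD] at hf
  have hQ : ∀ Q, Q ≠ P → Q.v f ≤ 1 := by
    intro Q hQ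
    have := hf Q
    rwa [Finsupp.single_apply, if_neg (Ne.symm hQ), exp_zero] at this
  refine ⟨f, ?_, hQ⟩
  by_contra hcon
  rw [not_lt] at hcon
  apply hf'
  rw [mem_LD]
  intro Q
  rw [Finsupp.zero_apply, exp_zero]
  by_cases hQP : Q = P
  · rw [hQP]; exact hcon
  · exact hQ Q hQP

/-- existence of a place above -/
theorem exists_above (P : Pl k K) : ∃ Q : Pl k L, P.v.IsEquiv (Q.v.comap (algebraMap K L)) := by
  obtain ⟨f, hf, hf'⟩ := exists_only_pole P
  obtain ⟨Q, hQ⟩ : ∃ Q : Pl k L, 1 < Q.v (algebraMap K L f) := by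
    by_contra hcon
    push Not at hcon
    have h1 := isAlgebraic_of_no_poles (k := k) hcon
    have h2 : IsAlgebraic k f := (isAlgebraic_algebraMap_iff (algebraMap K L).injective).mp h1
    have h3 : P.v f ≤ 1 := le_one_of_integral (S := k) P.v (fun c => by
      by_cases hc : c = 0
      · simp [hc]
      · rw [P.const c hc]) h2.isIntegral
    exact absurd hf (not_lt.mpr h3)
  obtain ⟨P', hP'⟩ := exists_place (k := k) (Q.v.comap (algebraMap K L)) (fun c hc => by
    rw [Valuation.comap_apply, ← IsScalarTower.algebraMap_apply]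
    exact Q.const c hc) ⟨f, by
      rw [Valuation.comap_apply]
      exact (zero_lt_one.trans hQ).ne', by
      rw [Valuation.comap_apply]
      exact hQ.ne'⟩
  have h1 : 1 < P'.v f := by
    rw [hP'.one_lt_iff_one_lt, Valuation.comap_apply]
    exact hQ
  have h2 : P' = P := by
    by_contra h
    exact absurd h1 (not_lt.mpr (hf' P' h))
  subst h2
  exact ⟨Q, hP'⟩

variable [FiniteDimensional K L] [IsGalois K L] [Finite k]

/-- **a Galois extension with trivial decomposition groups at almost all places is trivial**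
(`k` finite) -/
theorem finrank_eq_one_of_free (S' : Finset (Pl k L))
    (hfree : ∀ Q : Pl k L, Q ∉ S' → ∀ σ : L ≃ₐ[K] L, (∀ x, Q.v (σ x) = Q.v x) → σ = 1) :
    finrank K L = 1 := by
  classical
  choose ab hab using exists_above (k := k) (K := K) (L := L)
  have hinj : Function.Injective ab := by
    intro P P' h
    have h1 := hab P
    rw [h] at h1
    exact eq_of_isEquiv h1 (hab P')
  have hfin : {P : Pl k K | ab P ∈ S'}.Finite :=
    Set.Finite.preimage hinj.injOn S'.finite_toSet
  let S : Finset (Pl k K) := hfin.toFinset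
  have hS : ∀ P : Pl k K, P ∉ S → FreeAt K (ab P) := by
    intro P hP
    apply hfree
    intro h
    exact hP ((Set.Finite.mem_toFinset _).mpr h)
  let e : Fin (Fintype.card (L ≃ₐ[K] L)) ≃ (L ≃ₐ[K] L) := (Fintype.equivFin _).symm
  have hres : ∀ (P : Pl k K) (hP : P ∉ S) (σ : L ≃ₐ[K] L),
      res (freeAt_twist (hS P hP) σ) = P := by
    intro P hP σ
    refine eq_of_isEquiv (v := (ab P).v.comap (algebraMap K L)) ?_ (hab P)
    intro x y
    rw [res_v, res_v, twist_v, twist_v, σ.commutes, σ.commutes]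
    rfl
  have h1 := split_le_one (S := S) (M := Fintype.card (L ≃ₐ[K] L))
    (fun x => twist (e x.2) (ab x.1.1)) (by
      rintro ⟨⟨P, hP⟩, i⟩ ⟨⟨P', hP'⟩, i'⟩ h
      have h2 : twist (e i) (ab P) = twist (e i') (ab P') := h
      have h3 : P = P' := by
        rw [← hres P hP (e i), ← hres P' hP' (e i')]
        apply Pl.ext
        ext y
        rw [res_v, res_v, h2]
      subst h3
      have h4 := e.injective (twist_injective (hS P hP) h2)
      rw [h4]) (by
      rintro ⟨⟨P, hP⟩, i⟩
      show degP (twist (e i) (ab P)) = degP P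
      rw [← degP_res (freeAt_twist (hS P hP) (e i)), hres P hP])
  have h2 : Nat.card (L ≃ₐ[K] L) = finrank K L := IsGalois.card_aut_eq_finrank K L
  rw [Nat.card_eq_fintype_card] at h2
  have h3 : 0 < finrank K L := finrank_pos
  omega

end Above

end Crest.Agent.R013.CntA3_560
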