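import Mathlib
import Crest.Agent.R013.RR15_948
import Crest.Agent.R013.RR20_948

/-!
# R013 / CNT-F1: differentials and `p`-th powers (helper398)

`K/k` a function field, `k` perfect of characteristic `p`. If Frobenius
`K/(U0 D + U1 D) → K/(U0 (pD) + U1 (pD))` is injective and `L(pD) = 0`, then every `h` whose
differential has `div(dh) ≥ -pD` is a `p`-th power.
-/

set_option autoImplicit false
set_option linter.all false

namespace Crest.Agent.R013.CntF1_398

open Polynomial WithZero Module IsDedekindDomain nonZeroDivisors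
open Crest.Agent.R013.RR1_948 Crest.Agent.R013.RR2_948 Crest.Agent.R013.RR3_948
open Crest.Agent.R013.RR4_948 Crest.Agent.R013.RR5_948 Crest.Agent.R013.RR6_948
open Crest.Agent.R013.RR7_948 Crest.Agent.R013.RR8_948 Crest.Agent.R013.RR9_948
open Crest.Agent.R013.RR11_948 Crest.Agent.R013.RR12_948 Crest.Agent.R013.RR14_948
open Crest.Agent.R013.RR15_948
open Crest.NumberTheoryR.Sect

section Local

variable {k : Type*} [Field k] {K : Type*} [Field K] [Algebra k K]

/-- residue fields of places of finite degree over a perfect field are perfect -/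
theorem exists_pth_root_residue [PerfectField k] (p : ℕ) [hp : Fact p.Prime] [CharP K p]
    (P : Pl k K) (hdeg : degE P ≠ ⊤) {u : K} (hu : P.v u ≤ 1) :
    ∃ w : K, P.v w ≤ 1 ∧ P.v (u - w ^ p) < 1 := by
  classical
  have hmem : ∀ x : K, x ∈ P.v.valuationSubring ↔ P.v x ≤ 1 := fun x =>
    Valuation.mem_valuationSubring_iff _ _
  have hmax : ∀ x : P.v.valuationSubring,
      IsLocalRing.residue P.v.valuationSubring x = 0 ↔ P.v (x : K) < 1 := by
    intro x
    rw [IsLocalRing.residue_eq_zero_iff, IsLocalRing.mem_maximalIdeal, mem_nonunits_iff]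
    constructor
    · intro h
      by_contra h1
      rw [not_lt] at h1
      have hx1 : P.v (x : K) = 1 := le_antisymm ((hmem _).mp x.2) h1
      have hx0 : (x : K) ≠ 0 := by
        intro h0; rw [h0, map_zero] at hx1; exact zero_ne_one hx1
      apply h
      refine IsUnit.of_mul_eq_one ⟨(x : K)⁻¹, (hmem _).mpr (by rw [map_inv₀, hx1, inv_one])⟩ ?_
      apply Subtype.ext
      show (x : K) * (x : K)⁻¹ = 1
      exact mul_inv_cancel₀ hx0
    · intro h hu
      obtain ⟨y, hy⟩ := hu.exists_right_inv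
      have h1 : P.v (x : K) * P.v (y : K) = 1 := by
        rw [← map_mul]
        have : (x : K) * (y : K) = 1 := by
          have := congrArg (fun z : P.v.valuationSubring => (z : K)) hy
          exact this
        rw [this, map_one]
      have h2 : P.v (x : K) * P.v (y : K) < 1 :=
        mul_lt_one_of_lt_of_le h ((hmem _).mp y.2)
      exact absurd h1 h2.ne
  let i : k →+* P.v.valuationSubring :=
    (algebraMap k K).codRestrict P.v.valuationSubring.toSubring (fun c => by
      show algebraMap k K c ∈ P.v.valuationSubring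
      rw [hmem]
      by_cases hc : c = 0
      · simp [hc]
      · rw [P.const c hc])
  letI : Algebra k (IsLocalRing.ResidueField P.v.valuationSubring) :=
    ((IsLocalRing.residue P.v.valuationSubring).comp i).toAlgebra
  haveI : Algebra.IsAlgebraic k (IsLocalRing.ResidueField P.v.valuationSubring) := by
    refine ⟨fun a => ?_⟩
    obtain ⟨x, rfl⟩ := IsLocalRing.residue_surjective a
    obtain ⟨f, hf0, hf⟩ := exists_poly_lt_one P hdeg ((hmem _).mp x.2)
    refine ⟨f, hf0, ?_⟩
    have h1 : ((Polynomial.eval₂ i x f : P.v.valuationSubring) : K) = Polynomial.aeval (x : K) f := by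
      have := Polynomial.hom_eval₂ f i (P.v.valuationSubring.subtype) x
      rw [show ((Polynomial.eval₂ i x f : P.v.valuationSubring) : K)
        = P.v.valuationSubring.subtype (Polynomial.eval₂ i x f) from rfl, this]
      rfl
    have h2 : IsLocalRing.residue P.v.valuationSubring (Polynomial.eval₂ i x f) = 0 := by
      rw [hmax, h1]; exact hf
    rw [Polynomial.hom_eval₂] at h2
    rw [Polynomial.aeval_def]
    exact h2
  haveI : PerfectField (IsLocalRing.ResidueField P.v.valuationSubring) :=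
    Algebra.IsAlgebraic.perfectField (K := k)
  haveI : CharP k p := (RingHom.charP_iff (algebraMap k K) (algebraMap k K).injective p).mpr inferInstance
  haveI : CharP (IsLocalRing.ResidueField P.v.valuationSubring) p :=
    (RingHom.charP_iff (algebraMap k (IsLocalRing.ResidueField P.v.valuationSubring))
      (algebraMap k (IsLocalRing.ResidueField P.v.valuationSubring)).injective p).mp inferInstance
  haveI : PerfectRing (IsLocalRing.ResidueField P.v.valuationSubring) p :=
    PerfectField.toPerfectRing p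
  obtain ⟨b, hb⟩ := (PerfectRing.bijective_frobenius
    (R := IsLocalRing.ResidueField P.v.valuationSubring) (p := p)).2
    (IsLocalRing.residue P.v.valuationSubring ⟨u, (hmem _).mpr hu⟩)
  obtain ⟨w, rfl⟩ := IsLocalRing.residue_surjective b
  refine ⟨w, (hmem _).mp w.2, ?_⟩
  have hb : IsLocalRing.residue P.v.valuationSubring w ^ p =
    IsLocalRing.residue P.v.valuationSubring ⟨u, (hmem _).mpr hu⟩ := hb
  rw [← map_pow] at hb
  have h3 : IsLocalRing.residue P.v.valuationSubring (⟨u, (hmem _).mpr hu⟩ - w ^ p) = 0 := by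
    rw [map_sub, ← hb, sub_self]
  rw [hmax] at h3
  exact h3

theorem v_natCast_eq_one (p : ℕ) [hp : Fact p.Prime] [CharP K p] (P : Pl k K) {n : ℤ}
    (hn : ¬ (p : ℤ) ∣ n) : P.v (n : K) = 1 := by
  have h0 : (n : K) ≠ 0 := by
    rw [ne_eq, CharP.intCast_eq_zero_iff K p n]; exact hn
  have h1 : (n : K) = algebraMap k K (n : k) := by simp
  have h2 : (n : k) ≠ 0 := by
    intro h; rw [h1, h, map_zero] at h0; exact h0 rfl
  rw [h1]
  exact P.const _ h2

end Local

section Local2

variable {k : Type*} [Field k] {K : Type*} [Field K] [Algebra k K] [Algebra (RatFunc k) K]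
  [IsScalarTower k (RatFunc k) K] [FiniteDimensional (RatFunc k) K]
  [Algebra.IsSeparable (RatFunc k) K]

/-- `v(dh)` when the order of `h` is prime to `p` -/
theorem v_del_of_not_dvd [PerfectField k] (p : ℕ) [hp : Fact p.Prime] [CharP K p] (P : Pl k K)
    {t : K} (ht : P.v t = exp (-1)) {h : K} {n : ℤ} (hh : P.v h = exp (-n))
    (hn : ¬ (p : ℤ) ∣ n) : P.v (del k K h) = exp (1 - n) * P.v (del k K t) := by
  have ht0 : t ≠ 0 := by
    rintro rfl; rw [map_zero] at ht; exact exp_ne_zero ht.symm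
  have hdt : del k K t ≠ 0 := del_uniformizer_ne_zero P ht
  -- `h = u t^n`
  set u : K := h * t ^ (-n) with hu
  have hvu : P.v u = 1 := by
    rw [hu, map_mul, map_zpow₀, ht, hh, ← exp_zsmul, ← exp_add, smul_eq_mul]
    simp
  have hhu : h = u * t ^ n := by
    rw [hu, mul_assoc, ← zpow_add₀ ht0]; simp
  have h1 : P.v (del k K u) ≤ P.v (del k K t) := del_le_uniformizer P ht hvu.le
  have hd : del k K h = t ^ n * del k K u + (n : K) * (u * t ^ (n - 1)) * del k K t := by
    rw [hhu, Derivation.leibniz, Derivation.leibniz_zpow]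
    simp only [smul_eq_mul, zsmul_eq_mul]
    ring
  have e1 : P.v (t ^ n) = exp (-n) := by
    rw [map_zpow₀, ht, ← exp_zsmul, smul_eq_mul]; simp
  have e2 : P.v (t ^ (n - 1)) = exp (1 - n) := by
    rw [map_zpow₀, ht, ← exp_zsmul, smul_eq_mul]; congr 1; ring
  have hpos : 0 < P.v (del k K t) := (Valuation.pos_iff _).mpr hdt
  have h2 : P.v ((n : K) * (u * t ^ (n - 1)) * del k K t) = exp (1 - n) * P.v (del k K t) := by
    rw [map_mul, map_mul, map_mul, v_natCast_eq_one p P hn, hvu, e2, one_mul, one_mul]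
  have h3 : P.v (t ^ n * del k K u) < exp (1 - n) * P.v (del k K t) := by
    rw [map_mul, e1]
    calc exp (-n) * P.v (del k K u) ≤ exp (-n) * P.v (del k K t) := by gcongr
      _ < exp (1 - n) * P.v (del k K t) := by
        apply mul_lt_mul_of_pos_right _ hpos
        rw [exp_lt_exp]; omega
  rw [hd, Valuation.map_add_eq_of_lt_right _ (by rw [h2]; exact h3), h2]

theorem del_pow_p (p : ℕ) [hp : Fact p.Prime] [CharP K p] (s : K) : del k K (s ^ p) = 0 := by
  rw [Derivation.leibniz_pow]
  simp [CharP.cast_eq_zero K p]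

theorem del_sub_pow (p : ℕ) [hp : Fact p.Prime] [CharP K p] (h s : K) :
    del k K (h - s ^ p) = del k K h := by
  rw [map_sub, del_pow_p, sub_zero]

/-- local step: `v(dh) ≤ v(dt) exp(pn)` implies that `h` is a `p`-th power up to `{v ≤ exp(pn)}` -/
theorem local_pow [PerfectField k] (p : ℕ) [hp : Fact p.Prime] [CharP K p] (P : Pl k K)
    {t : K} (ht : P.v t = exp (-1)) (n : ℤ) {h : K}
    (hh : P.v (del k K h) ≤ P.v (del k K t) * exp (p * n)) :
    ∃ s : K, P.v (h - s ^ p) ≤ exp (p * n) := by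
  have hp1 : 0 < (p : ℤ) := by exact_mod_cast hp.out.pos
  have ht0 : t ≠ 0 := by
    rintro rfl; rw [map_zero] at ht; exact exp_ne_zero ht.symm
  have hpos : 0 < P.v (del k K t) := (Valuation.pos_iff _).mpr (del_uniformizer_ne_zero P ht)
  have key : ∀ m : ℕ, ∀ h : K, P.v (del k K h) ≤ P.v (del k K t) * exp (p * n) →
      P.v h ≤ exp (p * n + m) → ∃ s : K, P.v (h - s ^ p) ≤ exp (p * n) := by
    intro m
    induction m with
    | zero =>
      intro h _ h2
      refine ⟨0, ?_⟩
      rw [zero_pow hp.out.ne_zero, sub_zero]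
      simpa using h2
    | succ m ih =>
      intro h h1 h2
      -- either smaller, or exact order
      by_cases hlt : P.v h ≤ exp (p * n + m)
      · exact ih h h1 hlt
      · rw [not_le] at hlt
        have h0 : h ≠ 0 := by
          rintro rfl; rw [map_zero] at hlt; exact absurd hlt (not_lt.mpr zero_le)
        have hv : P.v h = exp (p * n + (m + 1 : ℕ)) := by
          refine le_antisymm h2 ?_
          have hv0 : P.v h ≠ 0 := (Valuation.ne_zero_iff _).mpr h0
          rw [← exp_log hv0] at hlt ⊢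
          rw [exp_lt_exp] at hlt
          rw [exp_le_exp]
          push_cast
          omega
        by_cases hdvd : (p : ℤ) ∣ (m + 1 : ℕ)
        · obtain ⟨M, hM⟩ := hdvd
          -- leading coefficient is a `p`-th power
          set a : ℤ := n + M with ha
          have hpa : (p : ℤ) * n + (m + 1 : ℕ) = p * a := by rw [hM, ha]; ring
          have hvu : P.v (h * (t ^ a) ^ p) = 1 := by
            rw [map_mul, hv, hpa, map_pow, map_zpow₀, ht, ← exp_zsmul, ← exp_nsmul, ← exp_add]
            rw [← exp_zero]; congr 1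
            simp only [smul_eq_mul, nsmul_eq_mul]; ring
          obtain ⟨w, hw1, hw⟩ := exists_pth_root_residue p P
            (by rw [degE_eq]; exact ENat.natCast_ne_top _) hvu.le
          set s : K := w * t ^ (-a) with hs
          have hta : (t ^ a) ≠ 0 := zpow_ne_zero _ ht0
          have h3 : h - s ^ p = (h * (t ^ a) ^ p - w ^ p) * (t ^ (-a)) ^ p := by
            have e1 : (t ^ a) ^ p * (t ^ (-a)) ^ p = 1 := by
              rw [← mul_pow, ← zpow_add₀ ht0]; simp
            rw [hs, mul_pow, sub_mul, mul_assoc, e1, mul_one]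
          have h4 : P.v (h - s ^ p) ≤ exp (p * n + m) := by
            rw [h3, map_mul, map_pow, map_zpow₀, ht, ← exp_zsmul, ← exp_nsmul]
            have h5 : P.v (h * (t ^ a) ^ p - w ^ p) ≤ exp (-1) := by
              by_cases hz : h * (t ^ a) ^ p - w ^ p = 0
              · rw [hz, map_zero]; exact zero_le
              · have hz0 : P.v (h * (t ^ a) ^ p - w ^ p) ≠ 0 := (Valuation.ne_zero_iff _).mpr hz
                rw [← exp_log hz0, ← exp_zero, exp_lt_exp] at hw
                rw [← exp_log hz0, exp_le_exp]; omega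
            calc P.v (h * (t ^ a) ^ p - w ^ p) * exp (p • (-a • -1))
                ≤ exp (-1) * exp (p • (-a • -1)) := by gcongr
              _ ≤ exp (p * n + m) := by
                rw [← exp_add, exp_le_exp]
                simp only [smul_eq_mul, nsmul_eq_mul]
                push_cast at hpa
                have : (p : ℤ) * (-a * -1) = p * a := by ring
                rw [this]; omega
          obtain ⟨s', hs'⟩ := ih (h - s ^ p) (by rw [del_sub_pow]; exact h1) h4
          refine ⟨s + s', ?_⟩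
          rw [add_pow_char, ← sub_sub]
          exact hs'
        · exfalso
          have hnd : ¬ (p : ℤ) ∣ (-(p * n + (m + 1 : ℕ))) := by
            rw [dvd_neg]
            intro h; exact hdvd ((dvd_add_right (dvd_mul_right _ _)).mp h)
          have h5 := v_del_of_not_dvd p P ht (h := h) (n := -(p * n + (m + 1 : ℕ)))
            (by rw [hv, neg_neg]) hnd
          rw [h5, mul_comm] at h1
          have h6 := le_of_mul_le_mul_left h1 hpos
          rw [exp_le_exp] at h6
          push_cast at h6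
          omega
  by_cases h0 : h = 0
  · refine ⟨0, ?_⟩
    rw [h0, zero_pow hp.out.ne_zero, sub_zero, map_zero]; exact zero_le
  · have hv0 : P.v h ≠ 0 := (Valuation.ne_zero_iff _).mpr h0
    refine key (log (P.v h) - p * n).toNat h hh ?_
    rw [← exp_log hv0, exp_le_exp]
    rw [log_exp]
    omega

end Local2

section Charts

variable {k : Type*} [Field k] {K : Type*} [Field K] [Algebra k K] [Algebra (RatFunc k) K]

/-- functions with poles bounded by `D` on the chart `v(x) ≤ 1` -/
noncomputable def U0 (D : Pl k K →₀ ℤ) : Submodule k K :=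
  ⨅ P : {P : Pl k K // P.v (xK k K) ≤ 1}, ball P.1 (D P.1)

/-- functions with poles bounded by `D` on the chart `1 < v(x)` -/
noncomputable def U1 (D : Pl k K →₀ ℤ) : Submodule k K :=
  ⨅ P : {P : Pl k K // 1 < P.v (xK k K)}, ball P.1 (D P.1)

theorem mem_U0 {D : Pl k K →₀ ℤ} {f : K} :
    f ∈ U0 D ↔ ∀ P : Pl k K, P.v (xK k K) ≤ 1 → P.v f ≤ exp (D P) := by
  simp [U0, Submodule.mem_iInf, mem_ball]

theorem mem_U1 {D : Pl k K →₀ ℤ} {f : K} :
    f ∈ U1 D ↔ ∀ P : Pl k K, 1 < P.v (xK k K) → P.v f ≤ exp (D P) := by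
  simp [U1, Submodule.mem_iInf, mem_ball]

theorem LD_eq (D : Pl k K →₀ ℤ) : LD D = U0 D ⊓ U1 D := by
  ext f
  rw [Submodule.mem_inf, mem_LD, mem_U0, mem_U1]
  constructor
  · intro h; exact ⟨fun P _ => h P, fun P _ => h P⟩
  · rintro ⟨h0, h1⟩ P
    rcases le_or_gt (P.v (xK k K)) 1 with h | h
    · exact h0 P h
    · exact h1 P h

theorem pow_mem_U0 {D : Pl k K →₀ ℤ} {f : K} (hf : f ∈ U0 D) (n : ℕ) : f ^ n ∈ U0 (n • D) := by
  rw [mem_U0] at *
  intro P hP
  rw [map_pow, Finsupp.smul_apply, exp_nsmul]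
  exact pow_le_pow_left₀ zero_le (hf P hP) n

theorem pow_mem_U1 {D : Pl k K →₀ ℤ} {f : K} (hf : f ∈ U1 D) (n : ℕ) : f ^ n ∈ U1 (n • D) := by
  rw [mem_U1] at *
  intro P hP
  rw [map_pow, Finsupp.smul_apply, exp_nsmul]
  exact pow_le_pow_left₀ zero_le (hf P hP) n

end Charts

section ChartRings

variable {k : Type*} [Field k] {K : Type*} [Field K] [Algebra k K] [Algebra (RatFunc k) K]
  [IsScalarTower k (RatFunc k) K]

theorem U0_eq_NA [Algebra k[X] K] [IsScalarTower k[X] (RatFunc k) K]
    (A₀ : Type*) [CommRing A₀] [IsDedekindDomain A₀] [Algebra k A₀] [Algebra A₀ K]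
    [IsScalarTower k A₀ K] [IsFractionRing A₀ K] [Algebra k[X] A₀]
    [IsScalarTower k[X] A₀ K] [IsIntegralClosure A₀ k[X] K] (D : Pl k K →₀ ℤ) :
    U0 D = NA A₀ D := by
  ext f
  rw [mem_U0, mem_NA]
  constructor
  · intro h w; exact h _ (ofH₀_le w)
  · intro h P hP
    obtain ⟨w, rfl⟩ := exists_ofH₀ (A₀ := A₀) P hP
    exact h w

theorem U1_eq_NA [FiniteDimensional (RatFunc k) K]
    (A₁ : Type*) [CommRing A₁] [IsDedekindDomain A₁] [Algebra k A₁] [Algebra A₁ K]
    [IsScalarTower k A₁ K] [IsFractionRing A₁ K] [Algebra (Rinf k) A₁]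
    [IsScalarTower (Rinf k) A₁ K] [IsIntegralClosure A₁ (Rinf k) K] (D : Pl k K →₀ ℤ) :
    U1 D = NA A₁ D := by
  ext f
  rw [mem_U1, mem_NA]
  constructor
  · intro h w; exact h _ (ofH₁_lt w)
  · intro h P hP
    obtain ⟨w, rfl⟩ := exists_ofH₁ (A₁ := A₁) P hP
    exact h w

end ChartRings

section Global

variable {k : Type*} [Field k] {K : Type*} [Field K] [Algebra k K] [Algebra (RatFunc k) K]
  [IsScalarTower k (RatFunc k) K] [FiniteDimensional (RatFunc k) K]
  [Algebra.IsSeparable (RatFunc k) K]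

/-- gluing of the local steps on a set of places missing one place -/
theorem chart_pow [PerfectField k] (p : ℕ) [hp : Fact p.Prime] [CharP K p] (D : Pl k K →₀ ℤ)
    {h : K} (hh : ∀ P : Pl k K, ∀ t : K, P.v t = exp (-1) →
      P.v (del k K h) ≤ P.v (del k K t) * exp (p * D P)) (P0 : Pl k K) :
    ∃ s : K, ∀ P, P ≠ P0 → P.v (h - s ^ p) ≤ exp (p * D P) := by
  classical
  have hloc : ∀ P : Pl k K, ∃ s : K, P.v (h - s ^ p) ≤ exp (p * D P) := by
    intro P
    obtain ⟨t, ht0, ht⟩ := exists_v_eq P (-1)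
    exact local_pow p P ht (D P) (hh P t ht)
  choose s hs using hloc
  -- the bad places
  have hfin : {P : Pl k K | ¬ (P.v h ≤ 1)}.Finite := by
    by_cases h0 : h = 0
    · have : {P : Pl k K | ¬ (P.v h ≤ 1)} = ∅ := by
        ext P; simp [h0]
      rw [this]; exact Set.finite_empty
    · refine (finite_ne_one (k := k) h0).subset ?_
      intro P hP
      simp only [Set.mem_ofPred_eq] at hP ⊢
      intro h1; exact hP h1.le
  set S : Finset (Pl k K) := (D.support ∪ hfin.toFinset).erase P0 with hS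
  have hP0 : P0 ∉ S := by simp [hS]
  obtain ⟨n, hn⟩ : ∃ n : ℤ, ∀ P ∈ S, -n ≤ D P := by
    refine ⟨∑ P ∈ S, |D P|, fun P hP => ?_⟩
    have h1 : |D P| ≤ ∑ P ∈ S, |D P| :=
      Finset.single_le_sum (f := fun P => |D P|) (fun _ _ => abs_nonneg _) hP
    have h2 := neg_abs_le (D P)
    omega
  obtain ⟨f, hf1, hf2⟩ := strong_approx S hP0 s n
  refine ⟨f, fun P hP => ?_⟩
  by_cases hPS : P ∈ S
  · have e1 : h - f ^ p = (h - s P ^ p) - (f - s P) ^ p := by
      rw [sub_pow_char]; ring
    rw [e1]
    refine (Valuation.map_sub _ _ _).trans (max_le (hs P) ?_)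
    rw [map_pow]
    calc P.v (f - s P) ^ p ≤ (exp (D P)) ^ p := by
          apply pow_le_pow_left₀ zero_le
          exact (hf1 P hPS).trans (exp_le_exp.mpr (hn P hPS))
      _ = exp (p * D P) := by rw [← exp_nsmul, nsmul_eq_mul]
  · have hPn : P ∉ D.support ∪ hfin.toFinset := by
      intro hc; exact hPS (by rw [hS]; exact Finset.mem_erase.mpr ⟨hP, hc⟩)
    rw [Finset.mem_union, not_or, Finsupp.notMem_support_iff, Set.Finite.mem_toFinset] at hPn
    obtain ⟨hD, hv⟩ := hPn
    simp only [Set.mem_ofPred_eq, not_not] at hv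
    rw [hD, mul_zero, exp_zero]
    refine (Valuation.map_sub _ _ _).trans (max_le hv ?_)
    rw [map_pow]
    exact pow_le_one₀ zero_le (hf2 P hPS hP)

/-- there is a place at infinity -/
theorem exists_gt : ∃ P : Pl k K, 1 < P.v (xK k K) := by
  by_contra hcon
  push Not at hcon
  have h1 := isAlgebraic_of_no_poles hcon
  exact RR20_948.transcendental_xK h1

theorem exists_le : ∃ P : Pl k K, P.v (xK k K) ≤ 1 := by
  obtain ⟨P, hP⟩ := exists_gt (k := k) (K := K)
  obtain ⟨Q, hQ⟩ := exists_lt_of_exists_gt xK_ne_zero hP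
  exact ⟨Q, hQ.le⟩

/-- DIFF: if Frobenius is injective from `K/(U0 D + U1 D)` to `K/(U0 (pD) + U1 (pD))` and
`L(pD) = 0`, every `h` with `div (dh) ≥ -pD` is a `p`-th power -/
theorem diff_pow [PerfectField k] (p : ℕ) [hp : Fact p.Prime] [CharP K p] (D : Pl k K →₀ ℤ)
    (hL : LD (p • D) = ⊥)
    (hF : ∀ x : K, x ^ p ∈ U0 (p • D) ⊔ U1 (p • D) → x ∈ U0 D ⊔ U1 D)
    {h : K} (hh : ∀ P : Pl k K, ∀ t : K, P.v t = exp (-1) →
      P.v (del k K h) ≤ P.v (del k K t) * exp (p * D P)) :
    ∃ s : K, h = s ^ p := by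
  obtain ⟨P1, hP1⟩ := exists_gt (k := k) (K := K)
  obtain ⟨P0, hP0⟩ := exists_le (k := k) (K := K)
  obtain ⟨s0, hs0⟩ := chart_pow p D hh P1
  obtain ⟨s1, hs1⟩ := chart_pow p D hh P0
  have hD : ∀ P : Pl k K, ((p • D) P : ℤ) = p * D P := by
    intro P; rw [Finsupp.smul_apply, nsmul_eq_mul]
  have m0 : h - s0 ^ p ∈ U0 (p • D) := by
    rw [mem_U0]
    intro P hP
    rw [hD]
    exact hs0 P (by rintro rfl; exact absurd hP (not_le.mpr hP1))
  have m1 : h - s1 ^ p ∈ U1 (p • D) := by
    rw [mem_U1]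
    intro P hP
    rw [hD]
    exact hs1 P (by rintro rfl; exact absurd hP (not_lt.mpr hP0))
  have hmem : s0 - s1 ∈ U0 D ⊔ U1 D := by
    apply hF
    rw [sub_pow_char]
    have : s0 ^ p - s1 ^ p = -(h - s0 ^ p) + (h - s1 ^ p) := by ring
    rw [this]
    exact Submodule.add_mem_sup (Submodule.neg_mem _ m0) m1
  obtain ⟨a, ha, b, hb, hab⟩ := Submodule.mem_sup.mp hmem
  refine ⟨s0 - a, ?_⟩
  have h0 : h - (s0 - a) ^ p ∈ U0 (p • D) := by
    have : h - (s0 - a) ^ p = (h - s0 ^ p) + a ^ p := by rw [sub_pow_char]; ring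
    rw [this]
    exact Submodule.add_mem _ m0 (pow_mem_U0 ha p)
  have h1 : h - (s0 - a) ^ p ∈ U1 (p • D) := by
    have e : s0 - a = s1 + b := by
      have : s0 - s1 - a - b = 0 := by rw [← hab]; ring
      linear_combination this
    have : h - (s0 - a) ^ p = (h - s1 ^ p) - b ^ p := by rw [e, add_pow_char]; ring
    rw [this]
    exact Submodule.sub_mem _ m1 (pow_mem_U1 hb p)
  have h2 : h - (s0 - a) ^ p ∈ LD (p • D) := by
    rw [LD_eq]; exact ⟨h0, h1⟩
  rw [hL, Submodule.mem_bot, sub_eq_zero] at h2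
  exact h2

theorem diff_del [PerfectField k] (p : ℕ) [hp : Fact p.Prime] [CharP K p] (D : Pl k K →₀ ℤ)
    (hL : LD (p • D) = ⊥)
    (hF : ∀ x : K, x ^ p ∈ U0 (p • D) ⊔ U1 (p • D) → x ∈ U0 D ⊔ U1 D)
    {h : K} (hh : ∀ P : Pl k K, ∀ t : K, P.v t = exp (-1) →
      P.v (del k K h) ≤ P.v (del k K t) * exp (p * D P)) :
    del k K h = 0 := by
  obtain ⟨s, rfl⟩ := diff_pow p D hL hF hh
  exact del_pow_p p s

end Global

end Crest.Agent.R013.CntF1_398
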