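import Mathlib
import Crest.Agent.R013.CntF1_398
import Crest.Agent.R013.CntB3_491

/-!
# R013 / CNT-F2: Frobenius on `H¹(D)`, transfer along finite constant extensions (helper398)
-/

set_option autoImplicit false
set_option linter.all false

namespace Crest.Agent.R013.CntF2_398

open Polynomial WithZero Module
open Crest.Agent.R013.RR1_948 Crest.Agent.R013.RR7_948 Crest.Agent.R013.RR8_948
open Crest.Agent.R013.RR9_948 Crest.Agent.R013.RR11_948 Crest.Agent.R013.RR12_948
open Crest.Agent.R013.RR13_948 Crest.Agent.R013.RR14_948 Crest.Agent.R013.RR18_948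
open Crest.Agent.R013.PicD_398
open Crest.Agent.R013.CntF1_398
open Crest.Agent.R013.CntB1_491 Crest.Agent.R013.CntB2_491 Crest.Agent.R013.CntB3_491

section V

variable {k : Type*} [Field k] {K : Type*} [Field K] [Algebra k K]

/-- functions with poles bounded by `D` where `v(y) ≤ 1` -/
noncomputable def V0 (y : K) (D : Pl k K →₀ ℤ) : Submodule k K :=
  ⨅ P : {P : Pl k K // P.v y ≤ 1}, ball P.1 (D P.1)

/-- functions with poles bounded by `D` where `1 < v(y)` -/
noncomputable def V1 (y : K) (D : Pl k K →₀ ℤ) : Submodule k K :=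
  ⨅ P : {P : Pl k K // 1 < P.v y}, ball P.1 (D P.1)

theorem mem_V0 {y : K} {D : Pl k K →₀ ℤ} {f : K} :
    f ∈ V0 y D ↔ ∀ P : Pl k K, P.v y ≤ 1 → P.v f ≤ exp (D P) := by
  simp [V0, Submodule.mem_iInf, mem_ball]

theorem mem_V1 {y : K} {D : Pl k K →₀ ℤ} {f : K} :
    f ∈ V1 y D ↔ ∀ P : Pl k K, 1 < P.v y → P.v f ≤ exp (D P) := by
  simp [V1, Submodule.mem_iInf, mem_ball]

theorem V0_xK [Algebra (RatFunc k) K] (D : Pl k K →₀ ℤ) : V0 (xK k K) D = U0 D := rfl

theorem V1_xK [Algebra (RatFunc k) K] (D : Pl k K →₀ ℤ) : V1 (xK k K) D = U1 D := rfl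

theorem LD_eq_V (y : K) (D : Pl k K →₀ ℤ) : LD D = V0 y D ⊓ V1 y D := by
  ext f
  rw [Submodule.mem_inf, mem_LD, mem_V0, mem_V1]
  constructor
  · intro h; exact ⟨fun P _ => h P, fun P _ => h P⟩
  · rintro ⟨h0, h1⟩ P
    rcases le_or_gt (P.v y) 1 with h | h
    · exact h0 P h
    · exact h1 P h

theorem pow_mem_V0 {y : K} {D : Pl k K →₀ ℤ} {f : K} (hf : f ∈ V0 y D) (n : ℕ) :
    f ^ n ∈ V0 y (n • D) := by
  rw [mem_V0] at *
  intro P hP
  rw [map_pow, Finsupp.smul_apply, exp_nsmul]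
  exact pow_le_pow_left₀ zero_le (hf P hP) n

theorem pow_mem_V1 {y : K} {D : Pl k K →₀ ℤ} {f : K} (hf : f ∈ V1 y D) (n : ℕ) :
    f ^ n ∈ V1 y (n • D) := by
  rw [mem_V1] at *
  intro P hP
  rw [map_pow, Finsupp.smul_apply, exp_nsmul]
  exact pow_le_pow_left₀ zero_le (hf P hP) n

/-- Frobenius `H¹(D) → H¹(pD)` is injective -/
def FInj (p : ℕ) (y : K) (D : Pl k K →₀ ℤ) : Prop :=
  ∀ x : K, x ^ p ∈ V0 y (p • D) ⊔ V1 y (p • D) → x ∈ V0 y D ⊔ V1 y D

end V

section Global

variable {k : Type*} [Field k] {K : Type*} [Field K] [Algebra k K] [Algebra (RatFunc k) K]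
  [IsScalarTower k (RatFunc k) K] [FiniteDimensional (RatFunc k) K]
  [Algebra.IsSeparable (RatFunc k) K]

theorem exists_gt_of {y : K} (hy : ¬ IsAlgebraic k y) : ∃ P : Pl k K, 1 < P.v y := by
  by_contra hcon
  push Not at hcon
  exact hy (isAlgebraic_of_no_poles hcon)

theorem exists_le_of {y : K} (hy : ¬ IsAlgebraic k y) : ∃ P : Pl k K, P.v y ≤ 1 := by
  obtain ⟨P, hP⟩ := exists_gt_of hy
  have hy0 : y ≠ 0 := by
    rintro rfl; exact hy isAlgebraic_zero
  obtain ⟨Q, hQ⟩ := exists_lt_of_exists_gt hy0 hP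
  exact ⟨Q, hQ.le⟩

/-- DIFF, for the charts of any nonconstant function `y` -/
theorem diff_pow_V [PerfectField k] (p : ℕ) [hp : Fact p.Prime] [CharP K p] {y : K}
    (hy : ¬ IsAlgebraic k y) (D : Pl k K →₀ ℤ)
    (hL : LD (p • D) = ⊥) (hF : FInj p y D)
    {h : K} (hh : ∀ P : Pl k K, ∀ t : K, P.v t = exp (-1) →
      P.v (del k K h) ≤ P.v (del k K t) * exp (p * D P)) :
    ∃ s : K, h = s ^ p := by
  obtain ⟨P1, hP1⟩ := exists_gt_of hy
  obtain ⟨P0, hP0⟩ := exists_le_of hy
  obtain ⟨s0, hs0⟩ := chart_pow p D hh P1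
  obtain ⟨s1, hs1⟩ := chart_pow p D hh P0
  have hD : ∀ P : Pl k K, ((p • D) P : ℤ) = p * D P := by
    intro P; rw [Finsupp.smul_apply, nsmul_eq_mul]
  have m0 : h - s0 ^ p ∈ V0 y (p • D) := by
    rw [mem_V0]
    intro P hP
    rw [hD]
    exact hs0 P (by rintro rfl; exact absurd hP (not_le.mpr hP1))
  have m1 : h - s1 ^ p ∈ V1 y (p • D) := by
    rw [mem_V1]
    intro P hP
    rw [hD]
    exact hs1 P (by rintro rfl; exact absurd hP (not_lt.mpr hP0))
  have hmem : s0 - s1 ∈ V0 y D ⊔ V1 y D := by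
    apply hF
    rw [sub_pow_char]
    have : s0 ^ p - s1 ^ p = -(h - s0 ^ p) + (h - s1 ^ p) := by ring
    rw [this]
    exact Submodule.add_mem_sup (Submodule.neg_mem _ m0) m1
  obtain ⟨a, ha, b, hb, hab⟩ := Submodule.mem_sup.mp hmem
  refine ⟨s0 - a, ?_⟩
  have h0 : h - (s0 - a) ^ p ∈ V0 y (p • D) := by
    have : h - (s0 - a) ^ p = (h - s0 ^ p) + a ^ p := by rw [sub_pow_char]; ring
    rw [this]
    exact Submodule.add_mem _ m0 (pow_mem_V0 ha p)
  have h1 : h - (s0 - a) ^ p ∈ V1 y (p • D) := by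
    have e : s0 - a = s1 + b := by
      have : s0 - s1 - a - b = 0 := by rw [← hab]; ring
      linear_combination this
    have : h - (s0 - a) ^ p = (h - s1 ^ p) - b ^ p := by rw [e, add_pow_char]; ring
    rw [this]
    exact Submodule.sub_mem _ m1 (pow_mem_V1 hb p)
  have h2 : h - (s0 - a) ^ p ∈ LD (p • D) := by
    rw [LD_eq_V y]; exact ⟨h0, h1⟩
  rw [hL, Submodule.mem_bot, sub_eq_zero] at h2
  exact h2

theorem diff_del_V [PerfectField k] (p : ℕ) [hp : Fact p.Prime] [CharP K p] {y : K}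
    (hy : ¬ IsAlgebraic k y) (D : Pl k K →₀ ℤ)
    (hL : LD (p • D) = ⊥) (hF : FInj p y D)
    {h : K} (hh : ∀ P : Pl k K, ∀ t : K, P.v t = exp (-1) →
      P.v (del k K h) ≤ P.v (del k K t) * exp (p * D P)) :
    del k K h = 0 := by
  obtain ⟨s, rfl⟩ := diff_pow_V p hy D hL hF hh
  exact del_pow_p p s

end Global

section CE

variable {k k' K K' : Type*} [Field k] [Field k'] [Field K] [Field K'] [Algebra k k']
  [Algebra k K] [Algebra k' K'] [Algebra K K'] [Algebra k K'] [IsScalarTower k k' K']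
  [IsScalarTower k K K'] [FiniteDimensional k k'] [Algebra.IsSeparable k k']
  [FiniteDimensional K K'] [Algebra.IsSeparable K K']
  [Algebra (RatFunc k) K] [IsScalarTower k (RatFunc k) K] [FiniteDimensional (RatFunc k) K]
  [Algebra.IsSeparable (RatFunc k) K]
  [Algebra (RatFunc k') K'] [IsScalarTower k' (RatFunc k') K'] [FiniteDimensional (RatFunc k') K']
  [Algebra.IsSeparable (RatFunc k') K']

theorem con_nsmul (n : ℕ) (D : Pl k K →₀ ℤ) : con k' K' (n • D) = n • con k' K' D :=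
  map_nsmul (conHom k k' K K') n D

theorem mem_V0_con (h : IsCE k k' K K') {ι : Type*} [Fintype ι] (b : Basis ι k k')
    {D : Pl k K →₀ ℤ} {y : K} {x : K'} :
    x ∈ V0 (algebraMap K K' y) (con k' K' D) ↔ ∀ i, (h.basis b).repr x i ∈ V0 y D := by
  constructor
  · intro hx i
    rw [mem_V0]
    intro P hP
    apply repr_le h b P x
    rintro Q rfl
    exact mem_V0.mp hx Q (by rw [← res_v h]; exact hP)
  · intro hx
    rw [mem_V0]
    intro Q hQ
    rw [con_apply]
    apply le_of_repr h b Q x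
    intro i
    exact mem_V0.mp (hx i) _ (by rw [res_v h]; exact hQ)

theorem mem_V1_con (h : IsCE k k' K K') {ι : Type*} [Fintype ι] (b : Basis ι k k')
    {D : Pl k K →₀ ℤ} {y : K} {x : K'} :
    x ∈ V1 (algebraMap K K' y) (con k' K' D) ↔ ∀ i, (h.basis b).repr x i ∈ V1 y D := by
  constructor
  · intro hx i
    rw [mem_V1]
    intro P hP
    apply repr_le h b P x
    rintro Q rfl
    exact mem_V1.mp hx Q (by rw [← res_v h]; exact hP)
  · intro hx
    rw [mem_V1]
    intro Q hQ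
    rw [con_apply]
    apply le_of_repr h b Q x
    intro i
    exact mem_V1.mp (hx i) _ (by rw [res_v h]; exact hQ)

/-- injectivity of Frobenius on `H¹` passes to finite constant extensions -/
theorem FInj.con (p : ℕ) [hp : Fact p.Prime] [CharP K p] (h : IsCE k k' K K') {y : K}
    {D : Pl k K →₀ ℤ} (hF : FInj p y D) : FInj p (algebraMap K K' y) (con k' K' D) := by
  classical
  haveI : CharP k p :=
    (RingHom.charP_iff (algebraMap k K) (algebraMap k K).injective p).mpr inferInstance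
  haveI : CharP K' p :=
    (RingHom.charP_iff (algebraMap K K') (algebraMap K K').injective p).mp inferInstance
  haveI : ExpChar k p := ExpChar.prime hp.out
  let b := Module.finBasis k k'
  let c := b.mapPowExpCharPowOfIsSeparable p 1
  have hc : ∀ i, c i = b i ^ p := by
    intro i
    show (Basis.mk _ _) i = _
    rw [Basis.mk_apply, pow_one]
  intro x hx
  rw [← con_nsmul] at hx
  obtain ⟨a, ha, a', ha', haa⟩ := Submodule.mem_sup.mp hx
  rw [mem_V0_con h c] at ha
  rw [mem_V1_con h c] at ha'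
  have hxp : x ^ p = ∑ i, ((h.basis b).repr x i) ^ p • (h.basis c) i := by
    conv_lhs => rw [← (h.basis b).sum_repr x]
    rw [sum_pow_char]
    refine Finset.sum_congr rfl fun i _ => ?_
    rw [Algebra.smul_def, mul_pow, ← map_pow (algebraMap K K'), h.basis_apply, h.basis_apply, hc,
      map_pow (algebraMap k' K'), Algebra.smul_def]
  have hrepr : ∀ i, (h.basis c).repr (x ^ p) i = ((h.basis b).repr x i) ^ p := by
    intro i
    rw [hxp, Basis.repr_sum_self]
  have hcoord : ∀ i, (h.basis b).repr x i ∈ V0 y D ⊔ V1 y D := by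
    intro i
    apply hF
    rw [← hrepr, ← haa, map_add, Finsupp.add_apply]
    exact Submodule.add_mem_sup (ha i) (ha' i)
  choose u hu w hw huw using fun i => Submodule.mem_sup.mp (hcoord i)
  rw [Submodule.mem_sup]
  refine ⟨∑ i, u i • (h.basis b) i, ?_, ∑ i, w i • (h.basis b) i, ?_, ?_⟩
  · rw [mem_V0_con h b]
    intro i
    rw [Basis.repr_sum_self]; exact hu i
  · rw [mem_V1_con h b]
    intro i
    rw [Basis.repr_sum_self]; exact hw i
  · rw [← Finset.sum_add_distrib]
    conv_rhs => rw [← (h.basis b).sum_repr x]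
    refine Finset.sum_congr rfl fun i _ => ?_
    rw [← add_smul, huw]

end CE

end Crest.Agent.R013.CntF2_398
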