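import Mathlib
import Crest.Agent.R013.CntF2_398
import Crest.Agent.R013.CntB7_491
import Crest.Agent.R013.CntA3_560

/-!
# R013 / CNT-F3: constant extension to an infinite algebraic extension (helper398)

`C = K·F`, `F/k` algebraic separable (e.g. an algebraic closure of a finite field).
-/

set_option autoImplicit false
set_option linter.all false

namespace Crest.Agent.R013.CntF3_398

open Polynomial WithZero Module
open Crest.Agent.R013.RR1_948 Crest.Agent.R013.RR7_948 Crest.Agent.R013.RR8_948
open Crest.Agent.R013.RR9_948 Crest.Agent.R013.RR11_948 Crest.Agent.R013.RR12_948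
open Crest.Agent.R013.RR13_948 Crest.Agent.R013.RR14_948 Crest.Agent.R013.RR18_948
open Crest.Agent.R013.PicD_398
open Crest.Agent.R013.CntF1_398 Crest.Agent.R013.CntF2_398
open Crest.Agent.R013.CntB1_491 Crest.Agent.R013.CntB2_491 Crest.Agent.R013.CntB3_491
open Crest.Agent.R013.CntB7_491

universe u v w

section levels

variable {k : Type u} {FF : Type w} {K C : Type v} [Field k] [Field FF] [Field K] [Field C]
  [Algebra k FF] [Algebra k K] [Algebra FF C] [Algebra K C] [Algebra k C]
  [IsScalarTower k FF C] [IsScalarTower k K C] [Algebra.IsAlgebraic k FF]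
  [Algebra.IsSeparable k FF]
  [Algebra (RatFunc k) K] [IsScalarTower k (RatFunc k) K] [FiniteDimensional (RatFunc k) K]
  [Algebra.IsSeparable (RatFunc k) K]

/-- every element of `C = K·F` is in `K(T)` for a finite set of constants `T` -/
theorem exists_finset (h : IsCE k FF K C) (x : C) :
    ∃ T : Finset FF, x ∈ IntermediateField.adjoin K ((algebraMap FF C) '' (T : Set FF)) := by
  classical
  have hx : x ∈ Algebra.adjoin K (Set.range (algebraMap FF C)) := by rw [h.gen]; trivial
  induction hx using Algebra.adjoin_induction with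
  | mem x hx =>
    obtain ⟨c, rfl⟩ := hx
    refine ⟨{c}, IntermediateField.subset_adjoin K _ ⟨c, by simp, rfl⟩⟩
  | algebraMap y => exact ⟨∅, IntermediateField.algebraMap_mem _ y⟩
  | add a b _ _ ha hb =>
    obtain ⟨S, hS⟩ := ha
    obtain ⟨T, hT⟩ := hb
    refine ⟨S ∪ T, add_mem ?_ ?_⟩
    · exact IntermediateField.adjoin.mono K _ _ (Set.image_mono (by simp)) hS
    · exact IntermediateField.adjoin.mono K _ _ (Set.image_mono (by simp)) hT
  | mul a b _ _ ha hb =>
    obtain ⟨S, hS⟩ := ha
    obtain ⟨T, hT⟩ := hb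
    refine ⟨S ∪ T, mul_mem ?_ ?_⟩
    · exact IntermediateField.adjoin.mono K _ _ (Set.image_mono (by simp)) hS
    · exact IntermediateField.adjoin.mono K _ _ (Set.image_mono (by simp)) hT

/-- finite levels inside `C` -/
theorem exists_level (h : IsCE k FF K C) (S : Finset C) :
    ∃ (E : CExt.{u, v, w} k K) (_ : Algebra E.k' FF) (_ : Algebra E.K' C) (_ : Algebra E.k' C)
      (_ : IsScalarTower k E.k' FF) (_ : IsScalarTower E.k' FF C) (_ : IsScalarTower E.k' E.K' C)
      (_ : IsScalarTower K E.K' C), ∀ s ∈ S, ∃ s' : E.K', algebraMap E.K' C s' = s := by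
  classical
  choose T hT using exists_finset h
  let U : Finset FF := S.biUnion T
  let k' : IntermediateField k FF := IntermediateField.adjoin k (U : Set FF)
  haveI f1 : FiniteDimensional k k' :=
    IntermediateField.finiteDimensional_adjoin fun x _ => Algebra.IsIntegral.isIntegral x
  haveI f2 : Algebra.IsSeparable k k' := inferInstance
  let K' : IntermediateField K C :=
    IntermediateField.adjoin K (Set.range fun c : k' => algebraMap FF C (c : FF))
  have hK' : ∀ c : k', algebraMap FF C (c : FF) ∈ K' := fun c =>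
    IntermediateField.subset_adjoin K _ ⟨c, rfl⟩
  letI a1 : Algebra k' K' :=
    (((algebraMap FF C).comp (algebraMap k' FF)).codRestrict K' hK').toAlgebra
  letI t1 : IsScalarTower k k' K' := IsScalarTower.of_algebraMap_eq fun c => by
    ext
    show algebraMap k C c = algebraMap FF C (algebraMap k' FF (algebraMap k k' c))
    rw [← IsScalarTower.algebraMap_apply k k' FF, ← IsScalarTower.algebraMap_apply k FF C]
  have hce : IsCE k k' K K' := by
    refine ⟨?_, h.hc⟩
    apply Subalgebra.map_injective (f := K'.val) Subtype.val_injective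
    rw [AlgHom.map_adjoin, Algebra.map_top, ← Set.range_comp]
    have h1 : (K'.val ∘ (algebraMap k' K') : k' → C) = fun c : k' => algebraMap FF C (c : FF) := rfl
    rw [h1, ← IntermediateField.adjoin_toSubalgebra_of_isAlgebraic (fun x hx => by
      obtain ⟨c, rfl⟩ := hx
      have h2 : IsAlgebraic k (algebraMap FF C (c : FF)) :=
        (Algebra.IsAlgebraic.isAlgebraic (R := k) (c : FF)).algHom (IsScalarTower.toAlgHom k FF C)
      exact h2.tower_top K)]
    ext x
    rw [AlgHom.mem_range]
    constructor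
    · intro hx
      exact ⟨⟨x, hx⟩, rfl⟩
    · rintro ⟨y, rfl⟩
      exact y.2
  haveI := hce.finiteDimensional
  haveI := isSeparable_of_isCE hce
  obtain ⟨i1, i2, i3, i4, hX⟩ := exists_rat (k := k) (k' := k') (K := K) (K' := K')
  refine ⟨{ k' := k', K' := K', ce := hce, hX := hX }, inferInstanceAs (Algebra k' FF),
    inferInstanceAs (Algebra K' C), ((algebraMap FF C).comp (algebraMap k' FF)).toAlgebra,
    inferInstanceAs (IsScalarTower k k' FF), ?_, ?_, inferInstanceAs (IsScalarTower K K' C), ?_⟩
  · exact @IsScalarTower.of_algebraMap_eq k' FF C _ _ _ _ _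
      (((algebraMap FF C).comp (algebraMap k' FF)).toAlgebra) fun _ => rfl
  · exact @IsScalarTower.of_algebraMap_eq k' K' C _ _ _ _ _
      (((algebraMap FF C).comp (algebraMap k' FF)).toAlgebra) fun _ => rfl
  · intro s hs
    refine ⟨⟨s, ?_⟩, rfl⟩
    have h3 := hT s
    refine (IntermediateField.adjoin_le_iff.mpr ?_) h3
    rintro _ ⟨c, hc, rfl⟩
    have hcU : c ∈ U := Finset.mem_biUnion.mpr ⟨s, hs, hc⟩
    exact hK' ⟨c, IntermediateField.subset_adjoin k _ hcU⟩

end levels

section places

variable {k : Type u} {FF : Type w} {K C : Type v} [Field k] [Field FF] [Field K] [Field C]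
  [Algebra k FF] [Algebra k K] [Algebra FF C] [Algebra K C] [Algebra k C]
  [IsScalarTower k FF C] [IsScalarTower k K C] [Algebra.IsAlgebraic k FF]
  [Algebra.IsSeparable k FF]
  [Algebra (RatFunc k) K] [IsScalarTower k (RatFunc k) K] [FiniteDimensional (RatFunc k) K]
  [Algebra.IsSeparable (RatFunc k) K]

/-- a place of `C` restricts to a place of `K`, unramified -/
theorem exists_resC (h : IsCE k FF K C) (Q : Pl FF C) :
    ∃ P : Pl k K, ∀ f : K, P.v f = Q.v (algebraMap K C f) := by
  classical
  obtain ⟨t, ht0, ht⟩ := exists_v_eq Q (-1)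
  obtain ⟨E, _, _, _, _, _, _, _, hE⟩ := exists_level h {t}
  obtain ⟨t', ht'⟩ := hE t (by simp)
  let P' : Pl E.k' E.K' :=
    { v := Q.v.comap (algebraMap E.K' C)
      const := fun c hc => by
        rw [Valuation.comap_apply, ← IsScalarTower.algebraMap_apply E.k' E.K' C,
          IsScalarTower.algebraMap_apply E.k' FF C]
        exact Q.const _ (by simpa using hc)
      surj := fun y => by
        by_cases hy : y = 0
        · exact ⟨0, by rw [map_zero, hy]⟩
        · refine ⟨t' ^ (-(log y)), ?_⟩
          rw [Valuation.comap_apply, map_zpow₀, ht', map_zpow₀, ht, ← exp_zsmul, smul_eq_mul,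
            neg_mul_neg, mul_one, exp_log hy] }
  refine ⟨res k K P', fun f => ?_⟩
  rw [res_v E.ce, IsScalarTower.algebraMap_apply K E.K' C]
  rfl

/-- restriction of places -/
noncomputable def resC (h : IsCE k FF K C) (Q : Pl FF C) : Pl k K := (exists_resC h Q).choose

theorem resC_v (h : IsCE k FF K C) (Q : Pl FF C) (f : K) :
    (resC h Q).v f = Q.v (algebraMap K C f) := (exists_resC h Q).choose_spec f

theorem resC_eq_iff (h : IsCE k FF K C) {Q : Pl FF C} {P : Pl k K} :
    resC h Q = P ↔ ∀ f : K, P.v f = Q.v (algebraMap K C f) := by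
  constructor
  · rintro rfl f; exact resC_v h Q f
  · intro hf
    apply Pl.ext
    ext f
    rw [resC_v, hf]

/-- constants -/
theorem not_isAlgebraic_algebraMap {f : K} (hf : ¬ IsAlgebraic k f) :
    ¬ IsAlgebraic FF (algebraMap K C f) := by
  intro h
  have h1 : IsAlgebraic k (algebraMap K C f) := h.restrictScalars k
  exact hf ((isAlgebraic_algebraMap_iff (algebraMap K C).injective).mp h1)

theorem not_isAlgebraic_of_pole {P : Pl k K} {f : K} (hf : 1 < P.v f) : ¬ IsAlgebraic k f := by
  intro h2
  have h3 : P.v f ≤ 1 := le_one_of_integral (S := k) P.v (fun c => by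
    by_cases hc : c = 0
    · simp [hc]
    · rw [P.const c hc]) h2.isIntegral
  exact absurd hf (not_lt.mpr h3)

variable [Algebra (RatFunc FF) C] [IsScalarTower FF (RatFunc FF) C]
  [FiniteDimensional (RatFunc FF) C] [Algebra.IsSeparable (RatFunc FF) C]

theorem resC_surjective (h : IsCE k FF K C) : Function.Surjective (resC h) := by
  intro P
  obtain ⟨f, hf, hf'⟩ := CntA3_560.exists_only_pole P
  obtain ⟨Q, hQ⟩ := exists_gt_of (not_isAlgebraic_algebraMap (FF := FF) (C := C)
    (not_isAlgebraic_of_pole hf))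
  refine ⟨Q, ?_⟩
  by_contra hne
  have h1 := hf' _ hne
  rw [resC_v] at h1
  exact absurd hQ (not_lt.mpr h1)

theorem finite_fibre (h : IsCE k FF K C) (P : Pl k K) : {Q : Pl FF C | resC h Q = P}.Finite := by
  obtain ⟨f, hf, hf'⟩ := CntA3_560.exists_only_pole P
  have hf0 : algebraMap K C f ≠ 0 := by
    rw [ne_eq, FaithfulSMul.algebraMap_eq_zero_iff]
    rintro rfl
    rw [map_zero] at hf
    exact absurd hf (not_lt.mpr zero_le_one)
  refine (finite_ne_one (k := FF) hf0).subset ?_
  rintro Q rfl
  simp only [Set.mem_ofPred_eq]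
  rw [resC_v] at hf
  exact hf.ne'

/-- the conorm of a divisor -/
noncomputable def conC (h : IsCE k FF K C) (D : Pl k K →₀ ℤ) : Pl FF C →₀ ℤ :=
  Finsupp.ofSupportFinite (fun Q => D (resC h Q)) (by
    have h1 : (⋃ P ∈ D.support, {Q : Pl FF C | resC h Q = P}).Finite :=
      Set.Finite.biUnion (Finset.finite_toSet _) fun P _ => finite_fibre h P
    refine h1.subset ?_
    intro Q hQ
    simp only [Function.mem_support] at hQ
    simp only [Set.mem_iUnion, Set.mem_ofPred_eq, exists_prop, exists_eq_right']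
    exact Finsupp.mem_support_iff.mpr hQ)

theorem conC_apply (h : IsCE k FF K C) (D : Pl k K →₀ ℤ) (Q : Pl FF C) :
    conC h D Q = D (resC h Q) := rfl

theorem conC_nsmul (h : IsCE k FF K C) (n : ℕ) (D : Pl k K →₀ ℤ) :
    conC h (n • D) = n • conC h D := by
  ext Q
  rw [conC_apply, Finsupp.smul_apply, Finsupp.smul_apply, conC_apply]

theorem conC_neg (h : IsCE k FF K C) (D : Pl k K →₀ ℤ) :
    conC h (-D) = -conC h D := by
  ext Q
  rw [conC_apply, Finsupp.neg_apply, Finsupp.neg_apply, conC_apply]

theorem conC_divf (h : IsCE k FF K C) {f : K} (hf : f ≠ 0) :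
    conC h (divf (k := k) f) = divf (algebraMap K C f) := by
  have hf' : algebraMap K C f ≠ 0 := by simpa using hf
  ext Q
  have h1 := v_eq hf' Q
  have h2 := v_eq hf (resC h Q)
  rw [resC_v, h1, exp_inj] at h2
  rw [conC_apply]
  omega

theorem algebraMap_mem_V0 (h : IsCE k FF K C) {y f : K} {D : Pl k K →₀ ℤ} :
    algebraMap K C f ∈ V0 (algebraMap K C y) (conC h D) ↔ f ∈ V0 y D := by
  rw [mem_V0, mem_V0]
  constructor
  · intro hf P hP
    obtain ⟨Q, rfl⟩ := resC_surjective h P
    rw [resC_v] at hP ⊢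
    exact hf Q hP
  · intro hf Q hQ
    rw [conC_apply, ← resC_v h]
    exact hf _ (by rw [resC_v]; exact hQ)

theorem algebraMap_mem_V1 (h : IsCE k FF K C) {y f : K} {D : Pl k K →₀ ℤ} :
    algebraMap K C f ∈ V1 (algebraMap K C y) (conC h D) ↔ f ∈ V1 y D := by
  rw [mem_V1, mem_V1]
  constructor
  · intro hf P hP
    obtain ⟨Q, rfl⟩ := resC_surjective h P
    rw [resC_v] at hP ⊢
    exact hf Q hP
  · intro hf Q hQ
    rw [conC_apply, ← resC_v h]
    exact hf _ (by rw [resC_v]; exact hQ)

theorem algebraMap_mem_LD (h : IsCE k FF K C) {f : K} {D : Pl k K →₀ ℤ} :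
    algebraMap K C f ∈ LD (conC h D) ↔ f ∈ LD D := by
  rw [mem_LD, mem_LD]
  constructor
  · intro hf P
    obtain ⟨Q, rfl⟩ := resC_surjective h P
    rw [resC_v]
    exact hf Q
  · intro hf Q
    rw [conC_apply, ← resC_v h]
    exact hf _

/-- the upper half of a finite level is a constant extension -/
theorem isCE_upper (h : IsCE k FF K C) (E : CExt.{u, v, w} k K) [Algebra E.k' FF]
    [Algebra E.K' C] [Algebra E.k' C] [IsScalarTower k E.k' FF] [IsScalarTower E.k' FF C]
    [IsScalarTower E.k' E.K' C] [IsScalarTower K E.K' C] : IsCE E.k' FF E.K' C where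
  gen := by
    rw [eq_top_iff]
    intro x hx0
    have hx : x ∈ Algebra.adjoin K (Set.range (algebraMap FF C)) := by rw [h.gen]; trivial
    clear hx0
    induction hx using Algebra.adjoin_induction with
    | mem x hx => exact Algebra.subset_adjoin hx
    | algebraMap y =>
      rw [IsScalarTower.algebraMap_apply K E.K' C]
      exact Subalgebra.algebraMap_mem _ _
    | add a b _ _ ha hb => exact add_mem ha hb
    | mul a b _ _ ha hb => exact mul_mem ha hb
  hc := E.ce.hc'

theorem conC_con (h : IsCE k FF K C) (E : CExt.{u, v, w} k K) [Algebra E.k' FF]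
    [Algebra E.K' C] [Algebra E.k' C] [IsScalarTower k E.k' FF] [IsScalarTower E.k' FF C]
    [IsScalarTower E.k' E.K' C] [IsScalarTower K E.K' C] [Algebra.IsAlgebraic E.k' FF]
    [Algebra.IsSeparable E.k' FF] (h' : IsCE E.k' FF E.K' C) (D : Pl k K →₀ ℤ) :
    conC h' (con E.k' E.K' D) = conC h D := by
  ext Q
  rw [conC_apply, conC_apply, con_apply]
  congr 1
  symm
  rw [resC_eq_iff]
  intro f
  rw [res_v E.ce, resC_v, ← IsScalarTower.algebraMap_apply]

/-- injectivity of Frobenius on `H¹` passes to `C` -/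
theorem FInj.conC (p : ℕ) [hp : Fact p.Prime] [CharP K p] (h : IsCE k FF K C) {y : K}
    {D : Pl k K →₀ ℤ} (hF : FInj p y D) : FInj p (algebraMap K C y) (conC h D) := by
  classical
  intro x hx
  obtain ⟨a, ha, b, hb, hab⟩ := Submodule.mem_sup.mp hx
  obtain ⟨E, _, _, _, _, _, _, _, hE⟩ := exists_level h {x, a, b}
  haveI : Algebra.IsAlgebraic E.k' FF := Algebra.IsAlgebraic.tower_top (K := k) E.k'
  haveI : Algebra.IsSeparable E.k' FF := Algebra.isSeparable_tower_top_of_isSeparable k E.k' FF
  have h' : IsCE E.k' FF E.K' C := isCE_upper h E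
  obtain ⟨x', rfl⟩ := hE x (by simp)
  obtain ⟨a', rfl⟩ := hE a (by simp)
  obtain ⟨b', rfl⟩ := hE b (by simp)
  have hF' := FInj.con p E.ce hF
  have hxab : x' ^ p = a' + b' := by
    apply (algebraMap E.K' C).injective
    rw [map_pow, map_add]; exact hab.symm
  have ha' : a' ∈ V0 (algebraMap K E.K' y) (p • con E.k' E.K' D) := by
    rw [← algebraMap_mem_V0 h', ← IsScalarTower.algebraMap_apply, conC_nsmul, conC_con h E h']
    exact ha
  have hb' : b' ∈ V1 (algebraMap K E.K' y) (p • con E.k' E.K' D) := by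
    rw [← algebraMap_mem_V1 h', ← IsScalarTower.algebraMap_apply, conC_nsmul, conC_con h E h']
    exact hb
  have h1 := hF' x' (by rw [hxab]; exact Submodule.add_mem_sup ha' hb')
  obtain ⟨c, hc, d, hd, hcd⟩ := Submodule.mem_sup.mp h1
  rw [← hcd, map_add]
  apply Submodule.add_mem_sup
  · have := (algebraMap_mem_V0 h').mpr hc
    rw [← IsScalarTower.algebraMap_apply, conC_con h E h'] at this
    exact this
  · have := (algebraMap_mem_V1 h').mpr hd
    rw [← IsScalarTower.algebraMap_apply, conC_con h E h'] at this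
    exact this

/-- `L(D) = 0` passes to `C` -/
theorem LD_conC_eq_bot (h : IsCE k FF K C) {D : Pl k K →₀ ℤ} (hD : LD D = ⊥) :
    LD (conC h D) = ⊥ := by
  classical
  rw [eq_bot_iff]
  intro x hx
  obtain ⟨E, _, _, _, _, _, _, _, hE⟩ := exists_level h {x}
  haveI : Algebra.IsAlgebraic E.k' FF := Algebra.IsAlgebraic.tower_top (K := k) E.k'
  haveI : Algebra.IsSeparable E.k' FF := Algebra.isSeparable_tower_top_of_isSeparable k E.k' FF
  have h' : IsCE E.k' FF E.K' C := isCE_upper h E
  obtain ⟨x', rfl⟩ := hE x (by simp)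
  rw [← conC_con h E h', algebraMap_mem_LD, mem_LD_con E.ce (Module.finBasis k E.k')] at hx
  have h1 : x' = 0 := by
    apply (E.ce.basis (Module.finBasis k E.k')).repr.injective
    rw [map_zero]
    ext i
    have := hx i
    rw [hD, Submodule.mem_bot] at this
    rw [this]; rfl
  rw [h1, map_zero]
  exact Submodule.zero_mem _

end places

end Crest.Agent.R013.CntF3_398
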