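import Mathlib
import Crest.Agent.R013.CntF3_398

/-!
# R013 / CNT-F4: transfer of COUNT from a finite level to the algebraic closure (helper398)
-/

set_option autoImplicit false
set_option linter.all false

namespace Crest.Agent.R013.CntF4_398

open Polynomial WithZero Module
open Crest.Agent.R013.RR1_948 Crest.Agent.R013.RR7_948 Crest.Agent.R013.RR8_948
open Crest.Agent.R013.RR9_948 Crest.Agent.R013.RR11_948 Crest.Agent.R013.RR12_948
open Crest.Agent.R013.RR13_948 Crest.Agent.R013.RR14_948 Crest.Agent.R013.RR18_948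
open Crest.Agent.R013.PicD_398
open Crest.Agent.R013.CntF1_398 Crest.Agent.R013.CntF2_398 Crest.Agent.R013.CntF3_398
open Crest.Agent.R013.CntB1_491 Crest.Agent.R013.CntB2_491 Crest.Agent.R013.CntB3_491
open Crest.Agent.R013.CntB7_491

universe u v w

section out

variable {k : Type*} [Field k] {K : Type*} [Field K] [Algebra k K] [Algebra (RatFunc k) K]
  [IsScalarTower k (RatFunc k) K] [FiniteDimensional (RatFunc k) K]
  [Algebra.IsSeparable (RatFunc k) K]

variable (k K) in
/-- the output of the count over a finite field -/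
def Out (p : ℕ) : Prop :=
  ∃ (N : ℕ) (E : Pl k K →₀ ℤ) (u : K), 2 ≤ N ∧ N.Coprime p ∧ u ≠ 0 ∧
    divf (k := k) u = N • E ∧ (∀ m : ℕ, cls (m • E) = 0 → N ∣ m) ∧
    ∀ j : ℕ, FInj p (xK k K) (-(p ^ j • E))

theorem degD_nsmul (n : ℕ) (D : Pl k K →₀ ℤ) : degD (n • D) = n * degD D := by
  induction n with
  | zero => rw [zero_smul, degD_zero]; simp
  | succ n ih => rw [succ_nsmul, degD_add, ih]; push_cast; ring

/-- degree of a torsion divisor -/
theorem degD_eq_zero_of_nsmul {N : ℕ} (hN : N ≠ 0) {E : Pl k K →₀ ℤ} {u : K} (hu : u ≠ 0)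
    (h : divf (k := k) u = N • E) : degD E = 0 := by
  have h1 := degD_divf (k := k) hu
  rw [h, degD_nsmul] at h1
  rcases mul_eq_zero.mp h1 with h2 | h2
  · exact absurd (by exact_mod_cast h2) hN
  · exact h2

theorem LD_eq_bot_of {D : Pl k K →₀ ℤ} (hd : degD D = 0) (hc : cls D ≠ 0) : LD D = ⊥ := by
  haveI := LD_finite D
  by_contra h
  apply hc
  apply ell_pos_deg_zero hd
  unfold ell
  rw [Module.finrank_pos_iff]
  exact Submodule.nontrivial_iff_ne_bot.mpr h

end out

section transfer

variable {k : Type u} {FF : Type w} {K C : Type v} [Field k] [Field FF] [Field K] [Field C]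
  [Algebra k FF] [Algebra k K] [Algebra FF C] [Algebra K C] [Algebra k C]
  [IsScalarTower k FF C] [IsScalarTower k K C] [Algebra.IsAlgebraic k FF]
  [Algebra.IsSeparable k FF]
  [Algebra (RatFunc k) K] [IsScalarTower k (RatFunc k) K] [FiniteDimensional (RatFunc k) K]
  [Algebra.IsSeparable (RatFunc k) K]
  [Algebra (RatFunc FF) C] [IsScalarTower FF (RatFunc FF) C]
  [FiniteDimensional (RatFunc FF) C] [Algebra.IsSeparable (RatFunc FF) C]

theorem cls_conC_eq_zero (h : IsCE k FF K C) {D : Pl k K →₀ ℤ} (hd : degD D = 0)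
    (hc : cls (conC h D) = 0) : cls D = 0 := by
  by_contra hne
  have h1 := LD_conC_eq_bot h (LD_eq_bot_of hd hne)
  have h2 := ell_pos_of_cls_eq_zero hc
  unfold ell at h2
  rw [h1] at h2
  simp at h2

/-- **transfer of COUNT to the algebraic closure** -/
theorem transfer [PerfectField FF] (p : ℕ) [hp : Fact p.Prime] [CharP K p]
    (h : IsCE k FF K C) (hout : Out k K p) :
    ∃ (N : ℕ) (E : Pl FF C →₀ ℤ) (u : C), 2 ≤ N ∧ N.Coprime p ∧ u ≠ 0 ∧
      divf (k := FF) u = N • E ∧ (∀ m : ℕ, cls (m • E) = 0 → N ∣ m) ∧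
      ∀ (j : ℕ) (f : C), (∀ (P : Pl FF C) (t : C), P.v t = exp (-1) →
        P.v (del FF C f) ≤ P.v (del FF C t) * exp (-(p ^ (j + 1) * E P))) → del FF C f = 0 := by
  obtain ⟨N, E, u, hN, hNp, hu, hdiv, hord, hF⟩ := hout
  haveI : CharP C p :=
    (RingHom.charP_iff (algebraMap K C) (algebraMap K C).injective p).mp inferInstance
  have hE0 : degD E = 0 := degD_eq_zero_of_nsmul (by omega) hu hdiv
  refine ⟨N, conC h E, algebraMap K C u, hN, hNp, by simpa using hu, ?_, ?_, ?_⟩
  · rw [← conC_divf h hu, hdiv, conC_nsmul]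
  · intro m hm
    apply hord
    rw [← conC_nsmul] at hm
    exact cls_conC_eq_zero h (by rw [degD_nsmul, hE0, mul_zero]) hm
  · intro j f hf
    have hy : ¬ IsAlgebraic FF (algebraMap K C (xK k K)) :=
      not_isAlgebraic_algebraMap (RR20_948.transcendental_xK)
    refine diff_del_V p hy (conC h (-(p ^ j • E))) ?_ (FInj.conC p h (hF j)) ?_
    · rw [← conC_nsmul]
      apply LD_conC_eq_bot
      apply LD_eq_bot_of
      · rw [degD_nsmul, degD_neg, degD_nsmul, hE0]; simp
      · intro hc
        have h1 : cls ((p ^ (j + 1)) • E) = 0 := by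
          have h2 : p • -(p ^ j • E) = -((p ^ (j + 1)) • E) := by
            rw [smul_neg, smul_smul, pow_succ']
          rw [h2, map_neg, neg_eq_zero] at hc
          exact hc
        have h3 := hord _ h1
        have h5 : Nat.Coprime N (p ^ (j + 1)) := Nat.Coprime.pow_right _ hNp
        have h6 : N = 1 := Nat.Coprime.eq_one_of_dvd h5 h3
        omega
    · intro P t ht
      have h1 := hf P t ht
      have h2 : (p : ℤ) * conC h (-(p ^ j • E)) P = -(p ^ (j + 1) * conC h E P) := by
        rw [conC_apply, conC_apply, Finsupp.neg_apply, Finsupp.smul_apply, nsmul_eq_mul]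
        push_cast
        ring
      rw [h2]
      exact h1

end transfer

end Crest.Agent.R013.CntF4_398
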