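import Mathlib
import Crest.Agent.R013.CntF4_398

/-!
# R013 / CNT-F5: a function field over an algebraic closure of a finite field comes from a
finite field (helper398)
-/

set_option autoImplicit false
set_option linter.all false

namespace Crest.Agent.R013.CntF5_398

open Polynomial WithZero Module
open Crest.Agent.R013.RR1_948 Crest.Agent.R013.RR7_948 Crest.Agent.R013.RR8_948
open Crest.Agent.R013.RR9_948 Crest.Agent.R013.RR11_948 Crest.Agent.R013.RR12_948
open Crest.Agent.R013.RR13_948 Crest.Agent.R013.RR14_948 Crest.Agent.R013.RR18_948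
open Crest.Agent.R013.CntB1_491

universe u v w

section rat

variable {k FF : Type*} [Field k] [Field FF] [Algebra k FF]

variable (k FF) in
/-- `k(X) → F(X)` -/
noncomputable def jj : RatFunc k →+* RatFunc FF := RatFunc.liftRingHom
    ((algebraMap FF[X] (RatFunc FF)).comp (Polynomial.mapRingHom (algebraMap k FF)))
    (nonZeroDivisors_le_comap_nonZeroDivisors_of_injective _
      ((RatFunc.algebraMap_injective FF).comp
        (Polynomial.map_injective _ (algebraMap k FF).injective)))

theorem jj_poly (p : k[X]) : jj k FF (algebraMap k[X] (RatFunc k) p)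
    = algebraMap FF[X] (RatFunc FF) (p.map (algebraMap k FF)) :=
  RatFunc.liftRingHom_algebraMap _ _ p

theorem jj_C (c : k) : jj k FF (algebraMap k (RatFunc k) c)
    = algebraMap FF (RatFunc FF) (algebraMap k FF c) := by
  rw [RatFunc.algebraMap_eq_C, ← RatFunc.algebraMap_C, jj_poly, Polynomial.map_C,
    RatFunc.algebraMap_C, ← RatFunc.algebraMap_eq_C]

theorem jj_X : jj k FF RatFunc.X = RatFunc.X := by
  rw [← RatFunc.algebraMap_X, jj_poly, Polynomial.map_X, RatFunc.algebraMap_X]

/-- a rational function with coefficients in `k` -/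
theorem mem_range_jj {r : RatFunc FF}
    (h1 : ∀ n, r.num.coeff n ∈ Set.range (algebraMap k FF))
    (h2 : ∀ n, r.denom.coeff n ∈ Set.range (algebraMap k FF)) : r ∈ Set.range (jj k FF) := by
  have e1 : r.num ∈ lifts (algebraMap k FF) := (lifts_iff_coeff_lifts _).mpr h1
  have e2 : r.denom ∈ lifts (algebraMap k FF) := (lifts_iff_coeff_lifts _).mpr h2
  obtain ⟨a, ha⟩ := (mem_lifts _).mp e1
  obtain ⟨b, hb⟩ := (mem_lifts _).mp e2
  refine ⟨algebraMap k[X] (RatFunc k) a / algebraMap k[X] (RatFunc k) b, ?_⟩
  rw [map_div₀, jj_poly, jj_poly, ha, hb, RatFunc.num_div_denom]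

/-- a rational function over `k` which is constant over `F` is a constant of `k` -/
theorem eq_C_of_jj [Algebra.IsAlgebraic k FF] {r : RatFunc k} {c : FF}
    (h : jj k FF r = algebraMap FF (RatFunc FF) c) : ∃ a : k, r = algebraMap k (RatFunc k) a := by
  by_contra hcon
  have hne : ¬ ∃ a : k, r = RatFunc.C a := by
    rintro ⟨a, ha⟩
    exact hcon ⟨a, by rw [ha, RatFunc.algebraMap_eq_C]⟩
  have htr := r.transcendental_of_ne_C hne
  apply htr
  obtain ⟨f, hf0, hf⟩ := Algebra.IsAlgebraic.isAlgebraic (R := k) c
  refine ⟨f, hf0, ?_⟩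
  apply (jj k FF).injective
  rw [map_zero, aeval_def, hom_eval₂]
  have e1 : (jj k FF).comp (algebraMap k (RatFunc k))
      = (algebraMap FF (RatFunc FF)).comp (algebraMap k FF) := by
    ext a; exact jj_C a
  rw [e1, h, ← hom_eval₂]
  rw [aeval_def] at hf
  rw [hf, map_zero]

end rat

section descend

/-- descent to a field of constants containing the coefficients of a primitive element -/
theorem descend_aux {k FF : Type w} {L : Type v} [Field k] [Field FF] [Field L] [Algebra k FF]
    [Algebra.IsAlgebraic k FF] [IsAlgClosed FF] [Algebra FF L] [Algebra k L]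
    [IsScalarTower k FF L]
    [Algebra (RatFunc FF) L] [IsScalarTower FF (RatFunc FF) L]
    [FiniteDimensional (RatFunc FF) L] [Algebra.IsSeparable (RatFunc FF) L]
    {θ : L} (hθ : IntermediateField.adjoin (RatFunc FF) {θ} = ⊤)
    (hcoef : ∀ i, (minpoly (RatFunc FF) θ).coeff i ∈ Set.range (jj k FF)) :
    ∃ (K : Type v) (_ : Field K)
      (_ : Algebra k K) (_ : Algebra K L) 
      (_ : IsScalarTower k K L) (_ : Algebra (RatFunc k) K) (_ : IsScalarTower k (RatFunc k) K)
      (_ : FiniteDimensional (RatFunc k) K) (_ : Algebra.IsSeparable (RatFunc k) K),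
      IsCE k FF K L ∧ xK FF L = algebraMap K L (xK k K) := by
  classical
  set f := minpoly (RatFunc FF) θ with hf
  have hθi : IsIntegral (RatFunc FF) θ := Algebra.IsIntegral.isIntegral θ
  have hlift : f ∈ lifts (jj k FF) := (lifts_iff_coeff_lifts _).mpr hcoef
  obtain ⟨g, hg, hgdeg, hgm⟩ := lifts_and_natDegree_eq_and_monic hlift (minpoly.monic hθi)
  -- the algebra structures
  letI aC : Algebra (RatFunc k) L := ((algebraMap (RatFunc FF) L).comp (jj k FF)).toAlgebra
  haveI t2 : IsScalarTower k (RatFunc k) L := IsScalarTower.of_algebraMap_eq fun c => by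
    show algebraMap k L c = algebraMap (RatFunc FF) L (jj k FF _)
    rw [jj_C, ← IsScalarTower.algebraMap_apply, ← IsScalarTower.algebraMap_apply]
  have hg0 : aeval θ g = 0 := by
    have h1 : aeval θ f = 0 := minpoly.aeval _ _
    rw [← hg, aeval_def, eval₂_map] at h1
    exact h1
  have hθk : IsIntegral (RatFunc k) θ := ⟨g, hgm, hg0⟩
  have hgmin : minpoly (RatFunc k) θ = g := by
    symm
    apply minpoly.unique _ _ hgm hg0
    intro q hq hq0
    have h1 : aeval θ (q.map (jj k FF)) = 0 := by
      rw [aeval_def, eval₂_map]; exact hq0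
    have h2 : f.degree ≤ (q.map (jj k FF)).degree :=
      minpoly.min _ _ (hq.map _) h1
    rw [degree_map, ← hg, degree_map] at h2
    exact h2
  have hsep : IsSeparable (RatFunc k) θ := by
    unfold IsSeparable
    rw [hgmin, ← Polynomial.separable_map (jj k FF), hg]
    exact Algebra.IsSeparable.isSeparable (RatFunc FF) θ
  let K : IntermediateField (RatFunc k) L := IntermediateField.adjoin (RatFunc k) {θ}
  haveI f1 : FiniteDimensional (RatFunc k) K := IntermediateField.adjoin.finiteDimensional hθk
  haveI f2 : Algebra.IsSeparable (RatFunc k) K :=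
    (IntermediateField.isSeparable_adjoin_simple_iff_isSeparable _ _).mpr hsep
  have hθK : θ ∈ K := IntermediateField.mem_adjoin_simple_self _ θ
  letI akK : Algebra k K := ((algebraMap (RatFunc k) K).comp (algebraMap k (RatFunc k))).toAlgebra
  haveI t3 : IsScalarTower k (RatFunc k) K := IsScalarTower.of_algebraMap_eq fun _ => rfl
  haveI t4 : IsScalarTower k K L := IsScalarTower.of_algebraMap_eq fun c => by
    show algebraMap k L c = algebraMap (RatFunc k) L (algebraMap k (RatFunc k) c)
    exact IsScalarTower.algebraMap_apply k (RatFunc k) L c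
  -- constants of `K`
  have hc : algebraicClosure k K = ⊥ := by
    rw [eq_bot_iff]
    intro a ha
    rw [mem_algebraicClosure_iff] at ha
    -- `a` is a constant `c` of `F`
    obtain ⟨c, hc⟩ : ∃ c : FF, algebraMap FF L c = (a : L) := by
      have h1 : IsAlgebraic k (algebraMap K L a) := ha.algebraMap
      have h2 : IsAlgebraic FF (a : L) := h1.tower_top FF
      have h3 : (a : L) ∈ algebraicClosure FF L := mem_algebraicClosure_iff.mpr h2
      obtain ⟨c, hc⟩ := (IsAlgClosed.algebraMap_bijective_of_isIntegral
        (k := FF) (K := algebraicClosure FF L)).2 ⟨(a : L), h3⟩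
      refine ⟨c, ?_⟩
      have := congrArg (fun z : algebraicClosure FF L => (z : L)) hc
      exact this
    -- expand in powers of `θ`
    obtain ⟨P, hP, hPa⟩ : ∃ P : (RatFunc k)[X], P.degree < g.degree ∧
        aeval θ P = (a : L) := by
      have h1 : (a : L) ∈ Algebra.adjoin (RatFunc k) {θ} := by
        rw [← IntermediateField.adjoin_simple_toSubalgebra_of_isAlgebraic hθk.isAlgebraic]
        exact a.2
      rw [Algebra.adjoin_singleton_eq_range_aeval] at h1
      obtain ⟨Q, hQ⟩ := h1
      have hQ' : aeval θ Q = (a : L) := hQ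
      refine ⟨Q %ₘ g, Polynomial.degree_modByMonic_lt Q hgm, ?_⟩
      rw [← hQ', Polynomial.aeval_modByMonic_eq_self_of_root hg0]
    have hg1 : 0 < g.degree := by
      rw [← Polynomial.degree_map g (jj k FF), hg]
      exact minpoly.degree_pos hθi
    have h2 : P.map (jj k FF) = C (algebraMap FF (RatFunc FF) c) := by
      by_contra hne
      have h3 : aeval θ (P.map (jj k FF) - C (algebraMap FF (RatFunc FF) c)) = 0 := by
        rw [map_sub, aeval_C, ← IsScalarTower.algebraMap_apply, hc, sub_eq_zero, ← hPa,
          aeval_def, eval₂_map]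
        rfl
      have h4 := minpoly.degree_le_of_ne_zero (RatFunc FF) θ (sub_ne_zero.mpr hne) h3
      have h5 : (P.map (jj k FF) - C (algebraMap FF (RatFunc FF) c)).degree < g.degree := by
        refine lt_of_le_of_lt (Polynomial.degree_sub_le _ _) (max_lt ?_ ?_)
        · rw [degree_map]; exact hP
        · exact lt_of_le_of_lt Polynomial.degree_C_le hg1
      rw [← hf, ← hg, degree_map] at h4
      exact absurd h5 (not_lt.mpr h4)
    have h3 : jj k FF (P.coeff 0) = algebraMap FF (RatFunc FF) c := by
      have := congrArg (fun q => q.coeff 0) h2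
      simp only [coeff_map, coeff_C_zero] at this
      exact this
    obtain ⟨b, hb⟩ := eq_C_of_jj h3
    rw [IntermediateField.mem_bot]
    refine ⟨b, ?_⟩
    apply Subtype.ext
    rw [hb, jj_C] at h3
    have h5 : algebraMap k FF b = c := (algebraMap FF (RatFunc FF)).injective h3
    have h6 : (algebraMap K L) (algebraMap k K b) = algebraMap k L b :=
      (IsScalarTower.algebraMap_apply k K L b).symm
    show (algebraMap K L) (algebraMap k K b) = (a : L)
    rw [h6, IsScalarTower.algebraMap_apply k FF L, h5, hc]
  refine ⟨K, inferInstance, akK, inferInstance, t4, inferInstance, t3, f1, f2, ⟨?_, hc⟩, ?_⟩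
  · -- generation
    have hrange : ∀ x ∈ Set.range (algebraMap FF L), IsAlgebraic K x := by
      rintro _ ⟨c, rfl⟩
      have h1 : IsAlgebraic k (algebraMap FF L c) :=
        (Algebra.IsAlgebraic.isAlgebraic (R := k) c).algHom (IsScalarTower.toAlgHom k FF L)
      exact h1.tower_top K
    rw [← IntermediateField.adjoin_toSubalgebra_of_isAlgebraic hrange]
    set M := IntermediateField.adjoin K (Set.range (algebraMap FF L)) with hM
    have hFM : ∀ c : FF, algebraMap FF L c ∈ M := fun c =>
      IntermediateField.subset_adjoin K _ ⟨c, rfl⟩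
    have hKM : ∀ x : K, (x : L) ∈ M := fun x => IntermediateField.algebraMap_mem M x
    have hxM : xK FF L ∈ M := by
      have h1 : xK FF L = algebraMap (RatFunc k) L RatFunc.X := by
        show algebraMap (RatFunc FF) L RatFunc.X = algebraMap (RatFunc FF) L (jj k FF RatFunc.X)
        rw [jj_X]
      rw [h1]
      exact hKM (algebraMap (RatFunc k) K RatFunc.X)
    have hpoly : ∀ q : FF[X], algebraMap (RatFunc FF) L (algebraMap FF[X] (RatFunc FF) q) ∈ M := by
      intro q
      rw [RR15_948.algebraMap_poly, aeval_eq_sum_range]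
      refine sum_mem fun i _ => ?_
      rw [Algebra.smul_def]
      exact mul_mem (hFM _) (pow_mem hxM _)
    have hrat : ∀ r : RatFunc FF, algebraMap (RatFunc FF) L r ∈ M := by
      intro r
      rw [← RatFunc.num_div_denom r, map_div₀]
      exact div_mem (hpoly _) (hpoly _)
    have htop : M = ⊤ := by
      rw [eq_top_iff]
      intro x _
      have hx : x ∈ IntermediateField.adjoin (RatFunc FF) {θ} := by rw [hθ]; trivial
      let M' : IntermediateField (RatFunc FF) L :=
        { M.toSubfield with
          algebraMap_mem' := hrat }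
      have h1 : IntermediateField.adjoin (RatFunc FF) {θ} ≤ M' := by
        rw [IntermediateField.adjoin_le_iff, Set.singleton_subset_iff]
        exact hKM ⟨θ, hθK⟩
      exact h1 hx
    rw [htop]
    rfl
  · show algebraMap (RatFunc FF) L RatFunc.X = algebraMap (RatFunc FF) L (jj k FF RatFunc.X)
    rw [jj_X]

/-- descent of `L/F` to a finite field -/
theorem descend (p : ℕ) [hp : Fact p.Prime] {FF : Type w} {L : Type v} [Field FF] [Field L]
    [Algebra (ZMod p) FF] [Algebra.IsAlgebraic (ZMod p) FF] [IsAlgClosed FF] [Algebra FF L]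
    [Algebra (RatFunc FF) L] [IsScalarTower FF (RatFunc FF) L]
    [FiniteDimensional (RatFunc FF) L] [Algebra.IsSeparable (RatFunc FF) L] :
    ∃ (k : Type w) (K : Type v) (_ : Field k) (_ : Field K) (_ : Finite k) (_ : Algebra k FF)
      (_ : Algebra k K) (_ : Algebra K L) (_ : Algebra k L) (_ : IsScalarTower k FF L)
      (_ : IsScalarTower k K L) (_ : Algebra (RatFunc k) K) (_ : IsScalarTower k (RatFunc k) K)
      (_ : FiniteDimensional (RatFunc k) K) (_ : Algebra.IsSeparable (RatFunc k) K)
      (_ : Algebra.IsAlgebraic k FF),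
      IsCE k FF K L ∧ xK FF L = algebraMap K L (xK k K) := by
  classical
  obtain ⟨θ, hθ⟩ := Field.exists_primitive_element (RatFunc FF) L
  set f := minpoly (RatFunc FF) θ with hf
  -- the coefficients
  let T : Finset FF := (Finset.range (f.natDegree + 1)).biUnion fun i =>
    (f.coeff i).num.coeffs ∪ (f.coeff i).denom.coeffs
  let k : IntermediateField (ZMod p) FF := IntermediateField.adjoin (ZMod p) (T : Set FF)
  haveI fk : FiniteDimensional (ZMod p) k :=
    IntermediateField.finiteDimensional_adjoin fun x _ => Algebra.IsIntegral.isIntegral x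
  haveI fink : Finite k := Module.finite_of_finite (ZMod p)
  haveI halg : Algebra.IsAlgebraic k FF := Algebra.IsAlgebraic.tower_top (K := ZMod p) k
  have hcoef : ∀ i, f.coeff i ∈ Set.range (jj k FF) := by
    intro i
    by_cases hi : i ∈ Finset.range (f.natDegree + 1)
    · apply mem_range_jj
      · intro n
        by_cases h0 : (f.coeff i).num.coeff n = 0
        · exact ⟨0, by rw [h0, map_zero]⟩
        · have h1 : (f.coeff i).num.coeff n ∈ T := by
            refine Finset.mem_biUnion.mpr ⟨i, hi, Finset.mem_union_left _ ?_⟩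
            exact Polynomial.coeff_mem_coeffs h0
          exact ⟨⟨_, IntermediateField.subset_adjoin _ _ h1⟩, rfl⟩
      · intro n
        by_cases h0 : (f.coeff i).denom.coeff n = 0
        · exact ⟨0, by rw [h0, map_zero]⟩
        · have h1 : (f.coeff i).denom.coeff n ∈ T := by
            refine Finset.mem_biUnion.mpr ⟨i, hi, Finset.mem_union_right _ ?_⟩
            exact Polynomial.coeff_mem_coeffs h0
          exact ⟨⟨_, IntermediateField.subset_adjoin _ _ h1⟩, rfl⟩
    · refine ⟨0, ?_⟩
      rw [Finset.mem_range, not_lt] at hi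
      rw [map_zero, Polynomial.coeff_eq_zero_of_natDegree_lt (by omega)]
  obtain ⟨K, i1, i2, i3, i4, i5, i6, i7, i8, h⟩ := descend_aux (k := k) hθ hcoef
  exact ⟨k, K, inferInstance, i1, fink, inferInstance, i2, i3, inferInstance, inferInstance,
    i4, i5, i6, i7, i8, halg, h⟩

end descend

end Crest.Agent.R013.CntF5_398
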