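import Mathlib
import Crest.Agent.R013.CntF5_398

/-!
# R013 / CNT-F6: a constant extension embeds in the constant extension to the algebraic closure;
COUNT follows from COUNT at some finite level (helper398)
-/

set_option autoImplicit false
set_option linter.all false

namespace Crest.Agent.R013.CntF6_398

open Polynomial WithZero Module
open Crest.Agent.R013.RR1_948 Crest.Agent.R013.RR7_948 Crest.Agent.R013.RR8_948
open Crest.Agent.R013.RR9_948 Crest.Agent.R013.RR11_948 Crest.Agent.R013.RR12_948
open Crest.Agent.R013.RR13_948 Crest.Agent.R013.RR14_948 Crest.Agent.R013.RR18_948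
open Crest.Agent.R013.PicD_398
open Crest.Agent.R013.CntF1_398 Crest.Agent.R013.CntF2_398 Crest.Agent.R013.CntF3_398
open Crest.Agent.R013.CntF4_398 Crest.Agent.R013.CntF5_398
open Crest.Agent.R013.CntB1_491 Crest.Agent.R013.CntB2_491 Crest.Agent.R013.CntB3_491
open Crest.Agent.R013.CntB7_491

universe u v w w'

section embed

variable {k : Type u} {FF : Type w} {K C : Type v} [Field k] [Field FF] [Field K] [Field C]
  [Algebra k FF] [Algebra k K] [Algebra FF C] [Algebra K C] [Algebra k C]
  [IsScalarTower k FF C] [IsScalarTower k K C] [IsAlgClosed FF]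
  [Algebra (RatFunc k) K] [IsScalarTower k (RatFunc k) K] [FiniteDimensional (RatFunc k) K]
  [Algebra.IsSeparable (RatFunc k) K]

/-- elements of `C` algebraic over `F` are constants -/
theorem exists_const {x : C} (hx : IsAlgebraic FF x) : ∃ c : FF, algebraMap FF C c = x := by
  have h3 : x ∈ algebraicClosure FF C := mem_algebraicClosure_iff.mpr hx
  obtain ⟨c, hc⟩ := (IsAlgClosed.algebraMap_bijective_of_isIntegral
    (k := FF) (K := algebraicClosure FF C)).2 ⟨x, h3⟩
  refine ⟨c, ?_⟩
  have := congrArg (fun z : algebraicClosure FF C => (z : C)) hc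
  exact this

/-- the upper half of a finite level is a constant extension -/
theorem isCE_upper' (h : IsCE k FF K C) (E : CExt.{u, v, w'} k K) [Algebra E.k' FF]
    [Algebra E.K' C] [Algebra E.k' C] [IsScalarTower k E.k' FF] [IsScalarTower E.k' FF C]
    [IsScalarTower E.k' E.K' C] [IsScalarTower K E.K' C] : IsCE E.k' FF E.K' C where
  gen := by
    rw [eq_top_iff]
    intro x hx0
    have hx : x ∈ Algebra.adjoin K (Set.range (algebraMap FF C)) := by rw [h.gen]; trivial
    clear hx0
    induction hx using Algebra.adjoin_induction with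
    | mem x hx => exact Algebra.subset_adjoin hx
    | algebraMap y =>
      rw [IsScalarTower.algebraMap_apply K E.K' C]
      exact Subalgebra.algebraMap_mem _ _
    | add a b _ _ ha hb => exact add_mem ha hb
    | mul a b _ _ ha hb => exact mul_mem ha hb
  hc := E.ce.hc'

theorem exists_embed (h : IsCE k FF K C) (E : CExt.{u, v, w'} k K) :
    ∃ (_ : Algebra E.k' FF) (_ : Algebra E.K' C) (_ : Algebra E.k' C)
      (_ : IsScalarTower k E.k' FF) (_ : IsScalarTower E.k' FF C) (_ : IsScalarTower E.k' E.K' C)
      (_ : IsScalarTower K E.K' C), IsCE E.k' FF E.K' C := by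
  classical
  obtain ⟨φ⟩ : Nonempty (E.K' →ₐ[K] C) := by
    apply IntermediateField.nonempty_algHom_of_adjoin_splits
      (S := Set.range (algebraMap E.k' E.K'))
    · rintro _ ⟨z, rfl⟩
      refine ⟨Algebra.IsIntegral.isIntegral _, ?_⟩
      rw [E.ce.minpoly_eq, Polynomial.map_map, ← IsScalarTower.algebraMap_eq k K C,
        IsScalarTower.algebraMap_eq k FF C, ← Polynomial.map_map]
      exact (IsAlgClosed.splits _).map _
    · rw [IntermediateField.adjoin_eq_top_iff_of_isAlgebraic
        (fun x _ => Algebra.IsAlgebraic.isAlgebraic x)]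
      exact E.ce.gen
  -- the constants
  have hc : ∀ c : E.k', ∃ d : FF, algebraMap FF C d = φ (algebraMap E.k' E.K' c) := by
    intro c
    apply exists_const
    have h1 : IsAlgebraic k (algebraMap E.k' E.K' c) :=
      (Algebra.IsAlgebraic.isAlgebraic (R := k) c).algHom (IsScalarTower.toAlgHom k E.k' E.K')
    have h2 : IsAlgebraic k (φ (algebraMap E.k' E.K' c)) :=
      h1.algHom (φ.restrictScalars k)
    exact h2.tower_top FF
  let R : Subring C := (algebraMap FF C).range
  let e : FF ≃+* R := RingEquiv.ofBijective (algebraMap FF C).rangeRestrict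
    ⟨fun a b hab => (algebraMap FF C).injective (congrArg Subtype.val hab),
      (algebraMap FF C).rangeRestrict_surjective⟩
  let ψ : E.k' →+* FF := (e.symm : R →+* FF).comp
    (((φ : E.K' →+* C).comp (algebraMap E.k' E.K')).codRestrict R (fun c => hc c))
  have hψ : ∀ c : E.k', algebraMap FF C (ψ c) = φ (algebraMap E.k' E.K' c) := by
    intro c
    have h1 : (e (ψ c) : C) = φ (algebraMap E.k' E.K' c) := by
      show ((e (e.symm _) : R) : C) = _
      rw [RingEquiv.apply_symm_apply]
      rfl
    exact h1
  letI a1 : Algebra E.k' FF := ψ.toAlgebra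
  letI a2 : Algebra E.K' C := (φ : E.K' →+* C).toAlgebra
  letI a3 : Algebra E.k' C := ((algebraMap FF C).comp (algebraMap E.k' FF)).toAlgebra
  haveI t2 : IsScalarTower E.k' FF C := IsScalarTower.of_algebraMap_eq fun _ => rfl
  haveI t3 : IsScalarTower E.k' E.K' C := IsScalarTower.of_algebraMap_eq fun c => hψ c
  haveI t4 : IsScalarTower K E.K' C := IsScalarTower.of_algebraMap_eq fun c =>
    (φ.commutes c).symm
  haveI t1 : IsScalarTower k E.k' FF := IsScalarTower.of_algebraMap_eq fun c => by
    apply (algebraMap FF C).injective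
    rw [← IsScalarTower.algebraMap_apply k FF C, ← IsScalarTower.algebraMap_apply E.k' FF C,
      IsScalarTower.algebraMap_apply E.k' E.K' C, ← IsScalarTower.algebraMap_apply k E.k' E.K',
      IsScalarTower.algebraMap_apply k K E.K', ← IsScalarTower.algebraMap_apply K E.K' C,
      ← IsScalarTower.algebraMap_apply k K C]
  exact ⟨a1, a2, a3, t1, t2, t3, t4, isCE_upper' h E⟩

end embed

/-- the output of the count over an algebraically closed field of constants -/
def OutC (p : ℕ) (FF : Type*) (C : Type*) [Field FF] [Field C] [Algebra FF C]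
    [Algebra (RatFunc FF) C] [IsScalarTower FF (RatFunc FF) C]
    [FiniteDimensional (RatFunc FF) C] [Algebra.IsSeparable (RatFunc FF) C] : Prop :=
  ∃ (N : ℕ) (E : Pl FF C →₀ ℤ) (u : C), 2 ≤ N ∧ N.Coprime p ∧ u ≠ 0 ∧
    divf (k := FF) u = N • E ∧ (∀ m : ℕ, cls (m • E) = 0 → N ∣ m) ∧
    ∀ (j : ℕ) (f : C), (∀ (P : Pl FF C) (t : C), P.v t = exp (-1) →
      P.v (del FF C f) ≤ P.v (del FF C t) * exp (-(p ^ (j + 1) * E P))) → del FF C f = 0

section reduction

section ell

variable {k : Type u} {FF : Type w} {K C : Type v} [Field k] [Field FF] [Field K] [Field C]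
  [Algebra k FF] [Algebra k K] [Algebra FF C] [Algebra K C] [Algebra k C]
  [IsScalarTower k FF C] [IsScalarTower k K C] [Algebra.IsAlgebraic k FF]
  [Algebra.IsSeparable k FF]
  [Algebra (RatFunc k) K] [IsScalarTower k (RatFunc k) K] [FiniteDimensional (RatFunc k) K]
  [Algebra.IsSeparable (RatFunc k) K]

/-- `K` and `F` are linearly disjoint over `k` -/
theorem linearIndependent_map (h : IsCE k FF K C) {ι : Type*} [Fintype ι] {v : ι → K}
    (hv : LinearIndependent k v) : LinearIndependent FF (fun i => algebraMap K C (v i)) := by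
  classical
  rw [Fintype.linearIndependent_iff]
  intro c hc i
  obtain ⟨E, _, _, _, _, _, _, _, hE⟩ :=
    exists_level h (Finset.univ.image fun i => algebraMap FF C (c i))
  haveI : Algebra.IsAlgebraic E.k' FF := Algebra.IsAlgebraic.tower_top (K := k) E.k'
  have hx' : ∀ i, ∃ x : E.K', algebraMap E.K' C x = algebraMap FF C (c i) := fun i =>
    hE (algebraMap FF C (c i)) (Finset.mem_image.mpr ⟨i, Finset.mem_univ _, rfl⟩)
  choose x hx using hx'
  -- `x i` is a constant
  have hd : ∀ i, ∃ d : E.k', algebraMap E.k' E.K' d = x i := by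
    intro i
    have h0 : IsAlgebraic E.k' (algebraMap FF C (c i)) :=
      (Algebra.IsAlgebraic.isAlgebraic (R := E.k') (c i)).algHom
        (IsScalarTower.toAlgHom E.k' FF C)
    rw [← hx] at h0
    have h1 : IsAlgebraic E.k' (x i) :=
      (isAlgebraic_algebraMap_iff (algebraMap E.K' C).injective).mp h0
    have h2 : x i ∈ algebraicClosure E.k' E.K' := mem_algebraicClosure_iff.mpr h1
    rw [E.ce.hc', IntermediateField.mem_bot] at h2
    exact h2
  choose d hd using hd
  have h3 : ∑ i, v i • algebraMap E.k' E.K' (d i) = 0 := by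
    apply (algebraMap E.K' C).injective
    rw [map_zero, map_sum, ← hc]
    refine Finset.sum_congr rfl fun i _ => ?_
    rw [Algebra.smul_def, Algebra.smul_def, map_mul, hd, hx,
      ← IsScalarTower.algebraMap_apply K E.K' C, mul_comm]
  let β := Module.finBasis k E.k'
  have h4 : ∀ j, ∑ i, β.repr (d i) j • v i = 0 := by
    intro j
    have h5 := congrArg (fun z => (E.ce.basis β).repr z j) h3
    simp only [map_sum, Finsupp.finset_sum_apply, map_zero, Finsupp.zero_apply, map_smul,
      Finsupp.smul_apply, E.ce.basis_repr_algebraMap] at h5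
    rw [← h5]
    refine Finset.sum_congr rfl fun i _ => ?_
    rw [Algebra.smul_def, smul_eq_mul, mul_comm]
  have h6 : ∀ i j, β.repr (d i) j = 0 := fun i j => Fintype.linearIndependent_iff.mp hv _ (h4 j) i
  have h7 : d i = 0 := β.repr.injective (by ext j; simp [h6])
  apply (algebraMap FF C).injective
  rw [map_zero, ← hx, ← hd, h7, map_zero, map_zero]

variable [Algebra (RatFunc FF) C] [IsScalarTower FF (RatFunc FF) C]
  [FiniteDimensional (RatFunc FF) C] [Algebra.IsSeparable (RatFunc FF) C]

/-- `ℓ` is preserved -/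
theorem ell_conC (h : IsCE k FF K C) (D : Pl k K →₀ ℤ) : ell (conC h D) = ell D := by
  classical
  haveI := LD_finite D
  let b := Module.finBasis k (LD D)
  have hb : LinearIndependent k (fun i => (b i : K)) :=
    b.linearIndependent.map' (LD D).subtype (Submodule.ker_subtype _)
  have hbC := linearIndependent_map h hb
  have hspan : Submodule.span FF (Set.range fun i => algebraMap K C (b i : K)) = LD (conC h D) := by
    apply le_antisymm
    · rw [Submodule.span_le]
      rintro _ ⟨i, rfl⟩
      exact (algebraMap_mem_LD h).mpr (b i).2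
    · intro x hx
      obtain ⟨E, _, _, _, _, _, _, _, hE⟩ := exists_level h {x}
      haveI : Algebra.IsAlgebraic E.k' FF := Algebra.IsAlgebraic.tower_top (K := k) E.k'
      haveI : Algebra.IsSeparable E.k' FF := Algebra.isSeparable_tower_top_of_isSeparable k E.k' FF
      have h' : IsCE E.k' FF E.K' C := isCE_upper h E
      obtain ⟨x', rfl⟩ := hE x (by simp)
      rw [← conC_con h E h', algebraMap_mem_LD, mem_LD_con E.ce (Module.finBasis k E.k')] at hx
      have h1 : ∀ y ∈ LD D, algebraMap K C y ∈
          Submodule.span FF (Set.range fun i => algebraMap K C (b i : K)) := by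
        intro y hy
        have h2 : y = ∑ i, b.repr ⟨y, hy⟩ i • (b i : K) := by
          have h9 := congrArg (Subtype.val) (b.sum_repr ⟨y, hy⟩)
          rw [AddSubmonoidClass.coe_finset_sum] at h9
          exact h9.symm
        rw [h2, map_sum]
        refine Submodule.sum_mem _ fun i _ => ?_
        rw [Algebra.smul_def, map_mul, ← IsScalarTower.algebraMap_apply k K C,
          IsScalarTower.algebraMap_apply k FF C, ← Algebra.smul_def]
        exact Submodule.smul_mem _ _ (Submodule.subset_span ⟨i, rfl⟩)
      rw [← (E.ce.basis (Module.finBasis k E.k')).sum_repr x', map_sum]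
      refine Submodule.sum_mem _ fun j _ => ?_
      rw [Algebra.smul_def, map_mul, ← IsScalarTower.algebraMap_apply K E.K' C, E.ce.basis_apply,
        ← IsScalarTower.algebraMap_apply E.k' E.K' C, IsScalarTower.algebraMap_apply E.k' FF C,
        mul_comm, ← Algebra.smul_def]
      exact Submodule.smul_mem _ _ (h1 _ (hx j))
  have h8 := finrank_span_eq_card hbC
  unfold ell
  rw [← hspan, h8, Fintype.card_fin]

/-- **genus and degree are preserved** -/
theorem gen_degD (h : IsCE k FF K C) (hcC : algebraicClosure FF C = ⊥) :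
    gen FF C = gen k K := by
  classical
  obtain ⟨P, _⟩ := exists_notMem (k := k) (K := K) ∅
  set D : Pl k K →₀ ℤ := Finsupp.single P 1 with hD
  have hd : 0 < degD D := by
    rw [hD, degD_single, one_mul]
    exact_mod_cast degP_pos P
  have hd' : 0 < degD (conC h D) := by
    obtain ⟨Q, hQ⟩ := resC_surjective h P
    rw [lt_iff_le_and_ne]
    have hnn : 0 ≤ conC h D := by
      intro R
      rw [conC_apply, hD, Finsupp.single_apply]
      split_ifs <;> simp
    refine ⟨degD_nonneg hnn, fun h0 => ?_⟩
    have h1 := eq_zero_of_nonneg hnn h0.symm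
    have h2 : conC h D Q = 0 := by rw [h1]; rfl
    rw [conC_apply, hQ, hD, Finsupp.single_eq_same] at h2
    exact one_ne_zero h2
  have key : ∀ n : ℕ, 2 * (gen k K : ℤ) + 2 * (gen FF C : ℤ) < n →
      (n : ℤ) * degD (conC h D) - gen FF C = n * degD D - gen k K := by
    intro n hn
    have h1 := ell_eq_of_lt h.hc (D := n • D) (by rw [degD_nsmul]; nlinarith)
    have h2 := ell_eq_of_lt hcC (D := n • conC h D) (by rw [degD_nsmul]; nlinarith)
    rw [← conC_nsmul, ell_conC h, h1, conC_nsmul, degD_nsmul, degD_nsmul] at h2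
    linarith
  obtain ⟨n, hn⟩ : ∃ n : ℕ, 2 * (gen k K : ℤ) + 2 * (gen FF C : ℤ) < n :=
    ⟨2 * gen k K + 2 * gen FF C + 1, by push_cast; linarith⟩
  have h1 := key n hn
  have h2 := key (n + 1) (by push_cast; linarith)
  push_cast at h2
  have h3 : degD (conC h D) = degD D := by linarith
  rw [h3] at h1
  have h4 : (gen FF C : ℤ) = gen k K := by linarith
  exact_mod_cast h4

end ell

theorem algClosed_const {FF C : Type*} [Field FF] [Field C] [Algebra FF C] [IsAlgClosed FF] :
    algebraicClosure FF C = ⊥ := IntermediateField.eq_bot_of_isAlgClosed_of_isAlgebraic _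

/-- COUNT follows from COUNT at a finite level -/
theorem outC_of (p : ℕ) [hp : Fact p.Prime] {FF : Type u} {C : Type v} [Field FF] [Field C]
    [Algebra (ZMod p) FF] [Algebra.IsAlgebraic (ZMod p) FF] [IsAlgClosed FF] [Algebra FF C]
    [Algebra (RatFunc FF) C] [IsScalarTower FF (RatFunc FF) C]
    [FiniteDimensional (RatFunc FF) C] [Algebra.IsSeparable (RatFunc FF) C]
    (hg : 1 ≤ gen FF C)
    (hfin : ∀ (k : Type u) (K : Type v) (_ : Field k) (_ : Field K) (_ : Finite k)
      (_ : CharP k p) (_ : Algebra k K)
      (_ : Algebra (RatFunc k) K) (_ : IsScalarTower k (RatFunc k) K)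
      (_ : FiniteDimensional (RatFunc k) K) (_ : Algebra.IsSeparable (RatFunc k) K),
      algebraicClosure k K = ⊥ → 1 ≤ gen k K → ∃ E : CExt.{u, v, u} k K, Out E.k' E.K' p) :
    OutC p FF C := by
  obtain ⟨k, K, _, _, _, _, _, _, _, _, _, _, _, _, _, _, h, hx⟩ := descend p (FF := FF) (L := C)
  haveI : CharP FF p := charP_of_injective_algebraMap (algebraMap (ZMod p) FF).injective p
  haveI : CharP k p :=
    (RingHom.charP_iff (algebraMap k FF) (algebraMap k FF).injective p).mpr inferInstance
  obtain ⟨E, hE⟩ := hfin k K _ _ inferInstance inferInstance _ _ inferInstance inferInstance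
    inferInstance h.hc (by rw [← gen_degD h algClosed_const]; exact hg)
  obtain ⟨_, _, _, _, _, _, _, h'⟩ := exists_embed h E
  haveI : Algebra.IsAlgebraic E.k' FF := Algebra.IsAlgebraic.tower_top (K := k) E.k'
  haveI : CharP E.k' p :=
    (RingHom.charP_iff (algebraMap k E.k') (algebraMap k E.k').injective p).mp inferInstance
  haveI : CharP E.K' p :=
    (RingHom.charP_iff (algebraMap E.k' E.K') (algebraMap E.k' E.K').injective p).mp inferInstance
  exact transfer p h' hE

end reduction

end Crest.Agent.R013.CntF6_398
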