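import Mathlib
import Crest.Agent.R013.PicD_398

/-!
# R013 / CntG1: generic effective divisors avoid finitely many translates (helper398)

(G) of BP-R6 (helper262, post 2259), first half: if there are many places of degree one then
an effective divisor made of rational places can be added to `D` in such a way that
`ℓ(D + E + x) = 0` for all `x` in a given finite set.
-/

set_option autoImplicit false
set_option linter.unusedSectionVars false

namespace Crest.Agent.R013.CntG1_398

open WithZero Module
open Crest.Agent.R013.RR7_948 Crest.Agent.R013.RR8_948 Crest.Agent.R013.RR9_948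
open Crest.Agent.R013.RR11_948 Crest.Agent.R013.PicD_398

variable {k : Type*} [Field k] {K : Type*} [Field K] [Algebra k K] [Algebra (RatFunc k) K]
  [IsScalarTower k (RatFunc k) K] [FiniteDimensional (RatFunc k) K]
  [Algebra.IsSeparable (RatFunc k) K]

/-- the rational places in the support of an effective divisor are at most `deg` many -/
theorem card_le_degD {E : Pl k K →₀ ℤ} (hE : 0 ≤ E) (T : Finset (Pl k K))
    (hT : ∀ P ∈ T, 0 < E P) : (T.card : ℤ) ≤ degD E := by
  classical
  have h1 : T ⊆ E.support := by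
    intro P hP
    rw [Finsupp.mem_support_iff]
    exact (hT P hP).ne'
  have h2 : degD E = ∑ P ∈ E.support, E P * (degP P : ℤ) := rfl
  rw [h2, Finset.card_eq_sum_ones, Nat.cast_sum]
  calc ∑ P ∈ T, ((1 : ℕ) : ℤ) ≤ ∑ P ∈ T, E P * (degP P : ℤ) := by
        refine Finset.sum_le_sum fun P hP => ?_
        have h3 := hT P hP
        have h4 : 0 < (degP P : ℤ) := by exact_mod_cast degP_pos P
        have := mul_pos h3 h4
        push_cast
        omega
    _ ≤ _ := Finset.sum_le_sum_of_subset_of_nonneg h1 fun P _ _ =>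
        mul_nonneg (hE P) (by positivity)

/-- if `ℓ(D) = 0` and `deg D ≤ g - 2` there is an effective divisor `E` of degree `2g - 2 - deg D`
such that `ℓ(D + P) = 0` for all rational `P` outside `E` -/
theorem exists_bad (hc : algebraicClosure k K = ⊥) {D : Pl k K →₀ ℤ} (h0 : ell D = 0)
    (hd : degD D ≤ (gen k K : ℤ) - 2) :
    ∃ E : Pl k K →₀ ℤ, 0 ≤ E ∧ degD E = 2 * gen k K - 2 - degD D ∧
      ∀ P : Pl k K, degP P = 1 → E P = 0 → ell (D + Finsupp.single P 1) = 0 := by
  classical
  have h1 := riemann_roch hc D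
  rw [h0] at h1
  have h2 : 0 < ell (canD k K - D) := by
    have : (0 : ℤ) < ell (canD k K - D) := by push_cast at h1; linarith
    exact_mod_cast this
  obtain ⟨f, hf, hE⟩ := ell_pos_iff.mp h2
  refine ⟨_, hE, ?_, ?_⟩
  · rw [degD_add, degD_sub, degD_canD hc, degD_divf hf, add_zero]
  · intro P hP hEP
    have h3 := riemann_roch hc (D + Finsupp.single P 1)
    rw [degD_add, degD_single, hP] at h3
    have h4 : LD (canD k K - (D + Finsupp.single P 1)) < LD (canD k K - D) := by
      refine lt_of_le_of_ne ?_ ?_
      · intro h hh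
        rw [mem_LD] at hh ⊢
        intro Q
        refine (hh Q).trans (exp_le_exp.mpr ?_)
        have : 0 ≤ (Finsupp.single P (1 : ℤ)) Q := by
          by_cases hQ : Q = P
          · subst hQ; simp
          · rw [Finsupp.single_eq_of_ne (by simpa using hQ)]
        simp only [Finsupp.sub_apply, Finsupp.add_apply]
        linarith
      · intro hne
        have h5 : f ∈ LD (canD k K - (D + Finsupp.single P 1)) := by
          rw [hne]
          exact (mem_LD_iff hf).mpr hE
        have h6 := (mem_LD_iff hf).mp h5 P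
        simp only [Finsupp.zero_apply, Finsupp.add_apply, Finsupp.sub_apply,
          Finsupp.single_eq_same] at h6 hEP
        omega
    have hfin := LD_finite (canD k K - D)
    have h5 : ell (canD k K - (D + Finsupp.single P 1)) < ell (canD k K - D) :=
      Submodule.finrank_lt_finrank_of_lt h4
    have h6 : (ell (canD k K - (D + Finsupp.single P 1)) : ℤ) + 1 ≤ ell (canD k K - D) := by
      exact_mod_cast h5
    push_cast at h1 h3
    have h7 : (ell (D + Finsupp.single P 1) : ℤ) ≤ 0 := by linarith
    have h8 : ell (D + Finsupp.single P 1) ≤ 0 := by exact_mod_cast h7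
    omega

/-- one step: one rational place works for a finite set of divisors -/
theorem step (hc : algebraicClosure k K = ⊥) (T : Finset (Pl k K →₀ ℤ)) {d : ℤ}
    (hd : d ≤ (gen k K : ℤ) - 2) (hT : ∀ D ∈ T, ell D = 0 ∧ degD D = d)
    (R : Finset (Pl k K)) (hR : ∀ P ∈ R, degP P = 1)
    (hcard : (T.card : ℤ) * (2 * gen k K - 2 - d) < R.card) :
    ∃ P ∈ R, ∀ D ∈ T, ell (D + Finsupp.single P 1) = 0 := by
  classical
  have h1 : ∀ D : {D // D ∈ T}, ∃ E : Pl k K →₀ ℤ, 0 ≤ E ∧ degD E = 2 * gen k K - 2 - d ∧
      ∀ P : Pl k K, degP P = 1 → E P = 0 → ell (D.1 + Finsupp.single P 1) = 0 := by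
    intro D
    obtain ⟨h, h'⟩ := hT D.1 D.2
    obtain ⟨E, hE, hE1, hE2⟩ := exists_bad hc h (by rw [h']; exact hd)
    exact ⟨E, hE, by rw [hE1, h'], hE2⟩
  choose E hE hE1 hE2 using h1
  by_contra hcon
  push Not at hcon
  have h2 : R ⊆ T.attach.biUnion fun D => R.filter fun P => 0 < E D P := by
    intro P hP
    obtain ⟨D, hD, hne⟩ := hcon P hP
    rw [Finset.mem_biUnion]
    refine ⟨⟨D, hD⟩, Finset.mem_attach _ _, ?_⟩
    rw [Finset.mem_filter]
    refine ⟨hP, ?_⟩
    by_contra hneg
    have h3 : E ⟨D, hD⟩ P = 0 := le_antisymm (not_lt.mp hneg) (hE ⟨D, hD⟩ P)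
    exact hne (hE2 ⟨D, hD⟩ P (hR P hP) h3)
  have h3 : (R.card : ℤ) ≤ T.card * (2 * gen k K - 2 - d) := by
    calc (R.card : ℤ) ≤ ((T.attach.biUnion fun D => R.filter fun P => 0 < E D P).card : ℤ) := by
          exact_mod_cast Finset.card_le_card h2
      _ ≤ ∑ D ∈ T.attach, ((R.filter fun P => 0 < E D P).card : ℤ) := by
          exact_mod_cast Finset.card_biUnion_le
      _ ≤ ∑ D ∈ T.attach, (2 * gen k K - 2 - d) := by
          refine Finset.sum_le_sum fun D _ => ?_
          rw [← hE1 D]
          exact card_le_degD (hE D) _ fun P hP => (Finset.mem_filter.mp hP).2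
      _ = _ := by rw [Finset.sum_const, Finset.card_attach, nsmul_eq_mul]
  omega

/-- `n` steps: an effective divisor of degree `n`, sum of rational places -/
theorem iterate (hc : algebraicClosure k K = ⊥) (T : Finset (Pl k K →₀ ℤ))
    (hT : ∀ x ∈ T, degD x = 0) (R : Finset (Pl k K)) (hR : ∀ P ∈ R, degP P = 1)
    (D : Pl k K →₀ ℤ) (hD : ∀ x ∈ T, ell (D + x) = 0)
    (hcard : (T.card : ℤ) * (2 * gen k K - 2 - degD D) < R.card) (n : ℕ)
    (hn : degD D + n ≤ (gen k K : ℤ) - 1) :
    ∃ E : Pl k K →₀ ℤ, 0 ≤ E ∧ degD E = n ∧ ∀ x ∈ T, ell (D + E + x) = 0 := by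
  classical
  induction n with
  | zero => exact ⟨0, le_refl _, by simp [degD_zero], by simpa using hD⟩
  | succ n ih =>
    obtain ⟨E, hE, hE1, hE2⟩ := ih (by push_cast at hn; linarith)
    have h1 := step hc (T.image fun x => D + E + x) (d := degD D + n) (by push_cast at hn; linarith)
      (by
        intro y hy
        obtain ⟨x, hx, rfl⟩ := Finset.mem_image.mp hy
        refine ⟨hE2 x hx, ?_⟩
        rw [degD_add, degD_add, hE1, hT x hx, add_zero])
      R hR (by
        have h2 : ((T.image fun x => D + E + x).card : ℤ) ≤ T.card := by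
          exact_mod_cast Finset.card_image_le
        have h3 : (0 : ℤ) ≤ 2 * gen k K - 2 - (degD D + n) := by
          push_cast at hn
          have : (0 : ℤ) ≤ gen k K := by positivity
          linarith
        have h4 : (2 * gen k K - 2 - (degD D + n) : ℤ) ≤ 2 * gen k K - 2 - degD D := by
          have : (0 : ℤ) ≤ n := by positivity
          linarith
        calc _ ≤ (T.card : ℤ) * (2 * gen k K - 2 - (degD D + n)) :=
              mul_le_mul_of_nonneg_right h2 h3
          _ ≤ (T.card : ℤ) * (2 * gen k K - 2 - degD D) :=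
              mul_le_mul_of_nonneg_left h4 (by positivity)
          _ < _ := hcard)
    obtain ⟨P, hP, hP1⟩ := h1
    refine ⟨E + Finsupp.single P 1, ?_, ?_, ?_⟩
    · refine add_nonneg hE ?_
      intro Q
      by_cases hQ : Q = P
      · subst hQ; simp
      · rw [Finsupp.single_eq_of_ne (by simpa using hQ)]
        exact le_refl _
    · rw [degD_add, hE1, degD_single, hR P hP]
      push_cast
      ring
    · intro x hx
      have := hP1 _ (Finset.mem_image_of_mem _ hx)
      rw [← this]
      congr 1
      abel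

end Crest.Agent.R013.CntG1_398
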