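import Mathlib

/-!
# R013 / CntG2: Fourier analysis on a finite abelian group with values in characteristic p (helper398)

(G) of BP-R6 (helper262, post 2259), second half, pure group theory: `G` finite abelian, `P` a subgroup
of index prime to `p` , `E` a field of characteristic `p` with enough roots of unity,
`S` a subset of `G`. If the number of elements of `S` in one coset of `P` is `1` and in another one `0`
then some character `χ ≠ 1` of `G`, trivial on `P`, has `∑_{u ∈ S} χ(u) ≠ 0`.
-/

set_option autoImplicit false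

namespace Crest.Agent.R013.CntG2_398

open scoped Classical in
/-- orthogonality: the sum of all characters at `g ≠ 1` vanishes -/
theorem sum_char {G : Type*} [CommGroup G] [Finite G] {E : Type*} [Field E]
    [HasEnoughRootsOfUnity E (Monoid.exponent G)] [Fintype (G →* Eˣ)] {g : G} (hg : g ≠ 1) :
    ∑ χ : G →* Eˣ, ((χ g : Eˣ) : E) = 0 := by
  obtain ⟨φ, hφ⟩ := CommGroup.exists_apply_ne_one_of_hasEnoughRootsOfUnity G E hg
  have h1 : ∑ χ : G →* Eˣ, ((χ g : Eˣ) : E) = ∑ χ : G →* Eˣ, (((φ * χ) g : Eˣ) : E) :=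
    (Fintype.sum_equiv (Equiv.mulLeft φ) _ _ fun χ => rfl).symm
  have h2 : ∑ χ : G →* Eˣ, (((φ * χ) g : Eˣ) : E) = (φ g : E) * ∑ χ : G →* Eˣ, ((χ g : Eˣ) : E) := by
    rw [Finset.mul_sum]
    refine Finset.sum_congr rfl fun χ _ => ?_
    rw [MonoidHom.mul_apply, Units.val_mul]
  rw [h2] at h1
  have h3 : ((φ g : E) - 1) * ∑ χ : G →* Eˣ, ((χ g : Eˣ) : E) = 0 := by
    rw [sub_mul, one_mul, ← h1, sub_self]
  rcases mul_eq_zero.mp h3 with h4 | h4
  · exfalso
    apply hφ
    apply Units.ext
    rw [Units.val_one]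
    exact sub_eq_zero.mp h4
  · exact h4

/-- Fourier: a function all of whose non trivial coefficients vanish is constant -/
theorem const_of_sum_eq_zero {G : Type*} [CommGroup G] [Finite G] {E : Type*} [Field E]
    [HasEnoughRootsOfUnity E (Monoid.exponent G)] (hE : (Nat.card G : E) ≠ 0) [Fintype G]
    (n : G → E) (h : ∀ χ : G →* Eˣ, χ ≠ 1 → ∑ g, n g * ((χ g : Eˣ) : E) = 0) (a b : G) :
    n a = n b := by
  classical
  haveI : Finite (G →* Eˣ) := by
    apply Nat.finite_of_card_ne_zero
    rw [CommGroup.card_monoidHom_of_hasEnoughRootsOfUnity]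
    exact Nat.card_pos.ne'
  haveI : Fintype (G →* Eˣ) := Fintype.ofFinite _
  have hcard : ((Fintype.card (G →* Eˣ) : ℕ) : E) ≠ 0 := by
    rw [← Nat.card_eq_fintype_card, CommGroup.card_monoidHom_of_hasEnoughRootsOfUnity]
    exact hE
  -- inversion
  have key : ∀ a : G, (Fintype.card (G →* Eˣ) : E) * n a =
      ∑ χ : G →* Eˣ, ((χ a⁻¹ : Eˣ) : E) * ∑ g, n g * ((χ g : Eˣ) : E) := by
    intro a
    have h1 : ∑ χ : G →* Eˣ, ((χ a⁻¹ : Eˣ) : E) * ∑ g, n g * ((χ g : Eˣ) : E) =
        ∑ g, n g * ∑ χ : G →* Eˣ, ((χ (a⁻¹ * g) : Eˣ) : E) := by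
      simp_rw [Finset.mul_sum]
      rw [Finset.sum_comm]
      refine Finset.sum_congr rfl fun g _ => Finset.sum_congr rfl fun χ _ => ?_
      rw [map_mul, Units.val_mul]
      ring
    rw [h1, Finset.sum_eq_single a]
    · rw [inv_mul_cancel]
      simp only [map_one, Units.val_one, Finset.sum_const, Finset.card_univ, nsmul_eq_mul, mul_one]
      ring
    · intro g _ hg
      rw [sum_char, mul_zero]
      intro h2
      apply hg
      rw [inv_mul_eq_one] at h2
      exact h2.symm
    · intro h2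
      exact absurd (Finset.mem_univ a) h2
  have key2 : ∀ a : G, (Fintype.card (G →* Eˣ) : E) * n a = ∑ g, n g := by
    intro a
    rw [key a, Finset.sum_eq_single (1 : G →* Eˣ)]
    · simp
    · intro χ _ hχ
      rw [h χ hχ, mul_zero]
    · intro h2
      exact absurd (Finset.mem_univ _) h2
  have h3 := (key2 a).trans (key2 b).symm
  exact mul_left_cancel₀ hcard h3

end Crest.Agent.R013.CntG2_398
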