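import Mathlib
import Crest.Agent.R013.CntG2_398

/-!
# R013 / CntG3: a character with non vanishing sum over a subset (helper398)

Pure group theory behind (G) of BP-R6 (helper262, post 2259).
-/

set_option autoImplicit false

namespace Crest.Agent.R013.CntG3_398

/-- the elements of `p`-power order of an additive commutative group -/
def Ptor (p : ℕ) (A : Type*) [AddCommGroup A] : AddSubgroup A where
  carrier := {z | ∃ n : ℕ, p ^ n • z = 0}
  add_mem' := by
    rintro a b ⟨m, hm⟩ ⟨n, hn⟩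
    refine ⟨m + n, ?_⟩
    rw [smul_add, pow_add, mul_comm, mul_smul, hm, smul_zero, zero_add, mul_comm, mul_smul, hn,
      smul_zero]
  zero_mem' := ⟨0, by simp⟩
  neg_mem' := by
    rintro a ⟨m, hm⟩
    exact ⟨m, by rw [smul_neg, hm, neg_zero]⟩

theorem mem_Ptor {p : ℕ} {A : Type*} [AddCommGroup A] {z : A} :
    z ∈ Ptor p A ↔ ∃ n : ℕ, p ^ n • z = 0 := Iff.rfl

/-- the order of `A / Ptor p A` is prime to `p` -/
theorem card_quot_ne_zero (p : ℕ) [Fact p.Prime] (A : Type*) [AddCommGroup A] [Finite A]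
    (E : Type*) [Field E] [CharP E p] : ((Nat.card (A ⧸ Ptor p A) : ℕ) : E) ≠ 0 := by
  intro h
  rw [CharP.cast_eq_zero_iff E p] at h
  obtain ⟨x, hx⟩ : ∃ x : A ⧸ Ptor p A, addOrderOf x = p := exists_prime_addOrderOf_dvd_card' p h
  obtain ⟨a, rfl⟩ := QuotientAddGroup.mk_surjective x
  have h1 : p • (QuotientAddGroup.mk a : A ⧸ Ptor p A) = 0 := by
    have h0 := addOrderOf_nsmul_eq_zero (QuotientAddGroup.mk a : A ⧸ Ptor p A)
    rwa [hx] at h0
  have h2 : (QuotientAddGroup.mk (p • a) : A ⧸ Ptor p A) = 0 := by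
    rw [QuotientAddGroup.mk_nsmul]; exact h1
  rw [QuotientAddGroup.eq_zero_iff] at h2
  obtain ⟨n, hn⟩ := h2
  have h3 : a ∈ Ptor p A := ⟨n + 1, by rw [pow_succ, mul_smul]; exact hn⟩
  have h4 : (QuotientAddGroup.mk a : A ⧸ Ptor p A) = 0 := (QuotientAddGroup.eq_zero_iff a).mpr h3
  rw [h4, addOrderOf_zero] at hx
  exact (Fact.out : p.Prime).one_lt.ne hx

open scoped Classical in
/-- If one coset of the `p`-part meets `S` in exactly one point and another one does not meet `S`,
some non trivial character of `A` with values in characteristic `p` has non vanishing sum over `S`. -/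
theorem exists_char (p : ℕ) [Fact p.Prime] {A : Type*} [AddCommGroup A] [Finite A]
    {E : Type*} [Field E] [IsAlgClosed E] [CharP E p] (S : Set A) (u₁ u₀ : A)
    (h₁ : ∀ x ∈ Ptor p A, u₁ + x ∈ S ↔ x = 0) (h₀ : ∀ x ∈ Ptor p A, u₀ + x ∉ S) :
    ∃ χ : Multiplicative (A ⧸ Ptor p A) →* Eˣ, χ ≠ 1 ∧
      ∑ᶠ u ∈ S, ((χ (Multiplicative.ofAdd (QuotientAddGroup.mk u : A ⧸ Ptor p A)) : Eˣ) : E) ≠ 0 := by
  by_contra hcon
  push Not at hcon
  let G := Multiplicative (A ⧸ Ptor p A)
  have := Fintype.ofFinite A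
  have : Fintype (A ⧸ Ptor p A) := Fintype.ofFinite _
  have : Fintype G := Fintype.ofFinite _
  have hE : ((Nat.card G : ℕ) : E) ≠ 0 := card_quot_ne_zero p A E
  have hexp : NeZero ((Monoid.exponent G : ℕ) : E) := by
    refine ⟨fun h => hE ?_⟩
    rw [CharP.cast_eq_zero_iff E p] at h ⊢
    exact h.trans Group.exponent_dvd_nat_card
  let q : A → G := fun u => Multiplicative.ofAdd (QuotientAddGroup.mk u : A ⧸ Ptor p A)
  let n : G → E := fun c => ∑ u : A, if q u = c ∧ u ∈ S then 1 else 0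
  have hn : ∀ χ : G →* Eˣ, χ ≠ 1 → ∑ g, n g * ((χ g : Eˣ) : E) = 0 := by
    intro χ hχ
    rw [← hcon χ hχ]
    have h1 : ∀ g, n g * ((χ g : Eˣ) : E) =
        ∑ u : A, if q u = g ∧ u ∈ S then ((χ (q u) : Eˣ) : E) else 0 := by
      intro g
      show (∑ u : A, if q u = g ∧ u ∈ S then (1 : E) else 0) * _ = _
      rw [Finset.sum_mul]
      refine Finset.sum_congr rfl fun u _ => ?_
      split_ifs with h
      · rw [one_mul, h.1]
      · rw [zero_mul]
    simp_rw [h1]
    rw [Finset.sum_comm]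
    rw [finsum_mem_eq_finite_toFinset_sum _ (Set.toFinite S)]
    rw [← Finset.sum_subset (Finset.subset_univ (Set.toFinite S).toFinset)]
    · refine Finset.sum_congr rfl fun u hu => ?_
      rw [Set.Finite.mem_toFinset] at hu
      simp only [hu, and_true]
      rw [Finset.sum_ite_eq]
      simp only [Finset.mem_univ, if_true]
      rfl
    · intro u _ hu
      rw [Set.Finite.mem_toFinset] at hu
      simp [hu]
  have hconst := CntG2_398.const_of_sum_eq_zero (G := G) hE n hn (q u₁) (q u₀)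
  have e1 : n (q u₁) = 1 := by
    show (∑ u : A, if q u = q u₁ ∧ u ∈ S then (1 : E) else 0) = 1
    rw [Finset.sum_eq_single u₁]
    · have : u₁ ∈ S := by
        have := (h₁ 0 (zero_mem _)).mpr rfl
        rwa [add_zero] at this
      simp [this]
    · intro u _ hu
      rw [if_neg]
      rintro ⟨hq, hS⟩
      have hq' : (QuotientAddGroup.mk u₁ : A ⧸ Ptor p A) = QuotientAddGroup.mk u :=
        (Multiplicative.ofAdd.injective hq).symm
      rw [QuotientAddGroup.eq] at hq'
      have h2 := (h₁ (-u₁ + u) hq').mp (by rwa [add_neg_cancel_left])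
      apply hu
      have h3 : u₁ + (-u₁ + u) = u₁ := by rw [h2, add_zero]
      rwa [add_neg_cancel_left] at h3
    · intro h; exact absurd (Finset.mem_univ _) h
  have e0 : n (q u₀) = 0 := by
    show (∑ u : A, if q u = q u₀ ∧ u ∈ S then (1 : E) else 0) = 0
    refine Finset.sum_eq_zero fun u _ => ?_
    rw [if_neg]
    rintro ⟨hq, hS⟩
    have hq' : (QuotientAddGroup.mk u₀ : A ⧸ Ptor p A) = QuotientAddGroup.mk u :=
      (Multiplicative.ofAdd.injective hq).symm
    rw [QuotientAddGroup.eq] at hq'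
    exact h₀ (-u₀ + u) hq' (by rwa [add_neg_cancel_left])
  rw [e1, e0] at hconst
  exact one_ne_zero hconst

end Crest.Agent.R013.CntG3_398
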