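import Mathlib
import Crest.Agent.R013.CntG1_398
import Crest.Agent.R013.CntG3_398

/-!
# R013 / CntG: a character of the class group with `A_{g-1}(ψ) ≠ 0` (helper398)

(G) of BP-R6 (helper262, post 2259).
-/

set_option autoImplicit false
set_option linter.unusedSectionVars false

namespace Crest.Agent.R013.CntG_398

open WithZero Module
open Crest.Agent.R013.RR7_948 Crest.Agent.R013.RR8_948 Crest.Agent.R013.RR9_948
open Crest.Agent.R013.RR11_948 Crest.Agent.R013.PicD_398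
open Crest.Agent.R013.CntG1_398 Crest.Agent.R013.CntG3_398

variable {k : Type*} [Field k] {K : Type*} [Field K] [Algebra k K] [Algebra (RatFunc k) K]
  [IsScalarTower k (RatFunc k) K] [FiniteDimensional (RatFunc k) K]
  [Algebra.IsSeparable (RatFunc k) K]

/-- the part of degree zero relative to a class of degree one -/
noncomputable def proj (c : Pic k K) (hc : degPic c = 1) : Pic k K →+ Pic0 k K where
  toFun z := ⟨z - degPic z • c, by
    rw [mem_Pic0, map_sub, map_zsmul, hc, smul_eq_mul, mul_one, sub_self]⟩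
  map_zero' := by
    apply Subtype.ext
    simp
  map_add' a b := by
    apply Subtype.ext
    simp only [map_add, add_zsmul, AddSubgroup.coe_add]
    abel

theorem proj_coe (c : Pic k K) (hc : degPic c = 1) (z : Pic k K) :
    ((proj c hc z : Pic0 k K) : Pic k K) = z - degPic z • c := rfl

/-- the character of `Pic` defined by a character of `Pic⁰ / p`-part and a class of degree one -/
noncomputable def ext {p : ℕ} {E : Type*} [Field E] (c : Pic k K) (hc : degPic c = 1)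
    (χ : Multiplicative (Pic0 k K ⧸ Ptor p (Pic0 k K)) →* Eˣ) : AddChar (Pic k K) E where
  toFun z := ((χ (Multiplicative.ofAdd
    (QuotientAddGroup.mk (proj c hc z) : Pic0 k K ⧸ Ptor p (Pic0 k K))) : Eˣ) : E)
  map_zero_eq_one' := by
    rw [map_zero, QuotientAddGroup.mk_zero, ofAdd_zero, map_one, Units.val_one]
  map_add_eq_mul' a b := by
    rw [map_add, QuotientAddGroup.mk_add, ofAdd_add, map_mul, Units.val_mul]

theorem ext_apply {p : ℕ} {E : Type*} [Field E] (c : Pic k K) (hc : degPic c = 1)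
    (χ : Multiplicative (Pic0 k K ⧸ Ptor p (Pic0 k K)) →* Eˣ) (z : Pic k K) :
    ext c hc χ z = ((χ (Multiplicative.ofAdd
      (QuotientAddGroup.mk (proj c hc z) : Pic0 k K ⧸ Ptor p (Pic0 k K))) : Eˣ) : E) := rfl

theorem coe_mem_Ptor {p : ℕ} {x : Pic0 k K} (hx : x ∈ Ptor p (Pic0 k K)) :
    ∃ n : ℕ, p ^ n • (x : Pic k K) = 0 := by
  obtain ⟨n, hn⟩ := hx
  refine ⟨n, ?_⟩
  have := congrArg (Subtype.val) hn
  simpa using this

/-- **(G) of BP-R6.** If `K` has more than `2 g² · #Pic⁰[p^∞]` rational places there is a character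
`ψ` of the class group with values in characteristic `p`, non trivial on `Pic⁰`, of finite order prime
to `p`, with `A_{g-1}(ψ) = ∑_{deg z = g-1, ℓ(z) > 0} ψ(z) ≠ 0`. -/
theorem exists_psi (p : ℕ) [Fact p.Prime] (hc : algebraicClosure k K = ⊥) [Finite (Pic0 k K)]
    {E : Type*} [Field E] [IsAlgClosed E] [CharP E p] (hg : 1 ≤ gen k K)
    (R : Finset (Pl k K)) (hR : ∀ P ∈ R, degP P = 1)
    (hN : 2 * gen k K ^ 2 * Nat.card (Ptor p (Pic0 k K)) < R.card)
    (P₀ : Pl k K) (hP₀ : degP P₀ = 1) :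
    ∃ ψ : AddChar (Pic k K) E, (∃ z ∈ Pic0 k K, ψ z ≠ 1) ∧
      ψ (cls (Finsupp.single P₀ 1)) = 1 ∧
      (∃ N : ℕ, 0 < N ∧ N.Coprime p ∧ ∀ z, ψ z ^ N = 1) ∧
      ∑ᶠ z ∈ {z : Pic k K | degPic z = (gen k K : ℤ) - 1 ∧ 0 < ellPic z}, ψ z ≠ 0 := by
  classical
  set g : ℕ := gen k K with hgdef
  have hg' : (1 : ℤ) ≤ g := by exact_mod_cast hg
  let c₀ : Pic k K := cls (Finsupp.single P₀ 1)
  have hc₀ : degPic c₀ = 1 := by
    show degD (Finsupp.single P₀ 1) = 1
    rw [degD_single, hP₀]; norm_num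
  -- representatives of the `p`-part
  have hfinT : Finite (Ptor p (Pic0 k K)) := inferInstance
  have := Fintype.ofFinite (Ptor p (Pic0 k K))
  obtain ⟨r, hr⟩ : ∃ r : Pic k K → (Pl k K →₀ ℤ), ∀ z, cls (r z) = z :=
    ⟨fun z => (cls_surjective z).choose, fun z => (cls_surjective z).choose_spec⟩
  let T : Finset (Pl k K →₀ ℤ) :=
    Finset.image (fun x : Ptor p (Pic0 k K) => r ((x : Pic0 k K) : Pic k K)) Finset.univ
  have hTcard : (T.card : ℤ) ≤ Nat.card (Ptor p (Pic0 k K)) := by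
    rw [Nat.card_eq_fintype_card]
    exact_mod_cast (Finset.card_image_le (s := Finset.univ)
      (f := fun x : Ptor p (Pic0 k K) => r ((x : Pic0 k K) : Pic k K)))
  have hTdeg : ∀ x ∈ T, degD x = 0 := by
    intro x hx
    obtain ⟨y, -, rfl⟩ := Finset.mem_image.mp hx
    rw [← degPic_cls, hr]
    exact (y : Pic0 k K).2
  have hcardN : (2 * (g : ℤ) ^ 2 * Nat.card (Ptor p (Pic0 k K))) < R.card := by
    exact_mod_cast hN
  have hPpos : (1 : ℤ) ≤ Nat.card (Ptor p (Pic0 k K)) := by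
    exact_mod_cast Nat.card_pos
  -- first divisor
  have hstep1 : ((T.filter fun x => cls x ≠ 0).card : ℤ) * (2 * g - 2 - degD (0 : Pl k K →₀ ℤ)) <
      R.card := by
    have h1 : ((T.filter fun x => cls x ≠ 0).card : ℤ) ≤ Nat.card (Ptor p (Pic0 k K)) :=
      le_trans (by exact_mod_cast Finset.card_filter_le _ _) hTcard
    have h2 : (0 : ℤ) ≤ 2 * g - 2 := by linarith
    rw [degD_zero, sub_zero]
    calc _ ≤ (Nat.card (Ptor p (Pic0 k K)) : ℤ) * (2 * g - 2) := mul_le_mul_of_nonneg_right h1 h2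
      _ ≤ (Nat.card (Ptor p (Pic0 k K)) : ℤ) * (2 * (g : ℤ) ^ 2) :=
          mul_le_mul_of_nonneg_left (by nlinarith) (by linarith)
      _ = 2 * (g : ℤ) ^ 2 * Nat.card (Ptor p (Pic0 k K)) := by ring
      _ < _ := hcardN
  obtain ⟨E₁, hE₁, hE₁d, hE₁T⟩ := iterate hc (T.filter fun x => cls x ≠ 0)
    (fun x hx => hTdeg x (Finset.mem_filter.mp hx).1) R hR 0 (by
      intro x hx
      obtain ⟨hx1, hx2⟩ := Finset.mem_filter.mp hx
      rw [zero_add]
      by_contra h
      exact hx2 (ell_pos_deg_zero (hTdeg x hx1) (Nat.pos_of_ne_zero h))) hstep1 (g - 1) (by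
      rw [degD_zero, zero_add, Nat.cast_sub hg]
      push_cast
      exact le_refl _)
  -- second divisor
  have hstep2 : (T.card : ℤ) * (2 * g - 2 - degD (-(Finsupp.single P₀ 1) : Pl k K →₀ ℤ)) <
      R.card := by
    have h2 : (0 : ℤ) ≤ 2 * g - 1 := by linarith
    have h3 : (2 * (g : ℤ) - 2 - degD (-(Finsupp.single P₀ 1) : Pl k K →₀ ℤ)) = 2 * g - 1 := by
      rw [degD_neg, degD_single, hP₀]
      push_cast
      ring
    rw [h3]
    calc _ ≤ (Nat.card (Ptor p (Pic0 k K)) : ℤ) * (2 * g - 1) :=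
          mul_le_mul_of_nonneg_right hTcard h2
      _ ≤ (Nat.card (Ptor p (Pic0 k K)) : ℤ) * (2 * (g : ℤ) ^ 2) :=
          mul_le_mul_of_nonneg_left (by nlinarith) (by linarith)
      _ = 2 * (g : ℤ) ^ 2 * Nat.card (Ptor p (Pic0 k K)) := by ring
      _ < _ := hcardN
  obtain ⟨E₂, hE₂, hE₂d, hE₂T⟩ := iterate hc T hTdeg R hR (-(Finsupp.single P₀ 1)) (by
      intro x hx
      apply ell_of_degD_neg
      rw [degD_add, degD_neg, degD_single, hP₀, hTdeg x hx]
      norm_num) hstep2 g (by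
      rw [degD_neg, degD_single, hP₀]
      push_cast
      linarith)
  -- the two cosets
  let S : Set (Pic0 k K) := {u | 0 < ellPic ((u : Pic k K) + ((g : ℤ) - 1) • c₀)}
  let u₁ : Pic0 k K := proj c₀ hc₀ (cls E₁)
  let u₀ : Pic0 k K := proj c₀ hc₀ (cls (-(Finsupp.single P₀ 1) + E₂))
  have hu₁ : (u₁ : Pic k K) + ((g : ℤ) - 1) • c₀ = cls E₁ := by
    show cls E₁ - degPic (cls E₁) • c₀ + ((g : ℤ) - 1) • c₀ = cls E₁
    rw [degPic_cls, hE₁d, Nat.cast_sub hg]
    push_cast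
    abel
  have hu₀ : (u₀ : Pic k K) + ((g : ℤ) - 1) • c₀ = cls (-(Finsupp.single P₀ 1) + E₂) := by
    show cls (-(Finsupp.single P₀ 1) + E₂) -
      degPic (cls (-(Finsupp.single P₀ 1) + E₂)) • c₀ + ((g : ℤ) - 1) • c₀ = _
    rw [degPic_cls, degD_add, degD_neg, degD_single, hP₀, hE₂d]
    have h3 : (-((1 : ℤ) * ((1 : ℕ) : ℤ)) + (g : ℤ)) = (g : ℤ) - 1 := by push_cast; ring
    rw [h3]
    abel
  have h₁ : ∀ x ∈ Ptor p (Pic0 k K), u₁ + x ∈ S ↔ x = 0 := by
    intro x hx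
    have e1 : ((u₁ + x : Pic0 k K) : Pic k K) + ((g : ℤ) - 1) • c₀ =
        cls (E₁ + r (x : Pic k K)) := by
      rw [map_add, hr, ← hu₁, AddSubgroup.coe_add]
      abel
    have e2 : u₁ + x ∈ S ↔ 0 < ell (E₁ + r (x : Pic k K)) := by
      show 0 < ellPic (((u₁ + x : Pic0 k K) : Pic k K) + ((g : ℤ) - 1) • c₀) ↔ _
      rw [e1, ellPic_cls]
    rw [e2]
    constructor
    · intro h
      by_contra hx0
      have hmem : r (x : Pic k K) ∈ T.filter fun x => cls x ≠ 0 := by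
        rw [Finset.mem_filter]
        refine ⟨Finset.mem_image.mpr ⟨⟨x, hx⟩, Finset.mem_univ _, rfl⟩, ?_⟩
        rw [hr]
        intro h0
        exact hx0 (Subtype.ext h0)
      have h3 := hE₁T _ hmem
      rw [zero_add] at h3
      omega
    · rintro rfl
      rw [← ellPic_cls, map_add, hr, AddSubgroup.coe_zero, add_zero, ellPic_pos_iff]
      exact ⟨E₁, hE₁, rfl⟩
  have h₀ : ∀ x ∈ Ptor p (Pic0 k K), u₀ + x ∉ S := by
    intro x hx
    have e1 : ((u₀ + x : Pic0 k K) : Pic k K) + ((g : ℤ) - 1) • c₀ =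
        cls (-(Finsupp.single P₀ 1) + E₂ + r (x : Pic k K)) := by
      rw [map_add cls _ (r _), hr, ← hu₀, AddSubgroup.coe_add]
      abel
    have e2 : u₀ + x ∈ S ↔ 0 < ell (-(Finsupp.single P₀ 1) + E₂ + r (x : Pic k K)) := by
      show 0 < ellPic (((u₀ + x : Pic0 k K) : Pic k K) + ((g : ℤ) - 1) • c₀) ↔ _
      rw [e1, ellPic_cls]
    rw [e2, hE₂T _ (Finset.mem_image.mpr ⟨⟨x, hx⟩, Finset.mem_univ _, rfl⟩)]
    exact lt_irrefl 0
  obtain ⟨χ, hχ, hsum⟩ := exists_char p (E := E) S u₁ u₀ h₁ h₀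
  refine ⟨ext c₀ hc₀ χ, ?_, ?_, ?_, ?_⟩
  · -- non trivial
    by_contra hcon
    push Not at hcon
    apply hχ
    refine MonoidHom.ext fun x => Units.ext ?_
    obtain ⟨y, hy⟩ : ∃ y : Pic0 k K,
        (QuotientAddGroup.mk y : Pic0 k K ⧸ Ptor p (Pic0 k K)) = Multiplicative.toAdd x :=
      QuotientAddGroup.mk_surjective (Multiplicative.toAdd x)
    have h3 := hcon (y : Pic k K) y.2
    rw [ext_apply] at h3
    have h4 : proj c₀ hc₀ (y : Pic k K) = y := by
      apply Subtype.ext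
      rw [proj_coe, mem_Pic0.mp y.2, zero_zsmul, sub_zero]
    rw [h4, hy] at h3
    simpa using h3
  · rw [ext_apply]
    have h4 : proj c₀ hc₀ c₀ = 0 := by
      apply Subtype.ext
      rw [proj_coe, hc₀, one_smul, sub_self, AddSubgroup.coe_zero]
    show ((χ (Multiplicative.ofAdd (QuotientAddGroup.mk (proj c₀ hc₀ c₀) :
      Pic0 k K ⧸ Ptor p (Pic0 k K))) : Eˣ) : E) = 1
    rw [h4, QuotientAddGroup.mk_zero, ofAdd_zero, map_one, Units.val_one]
  · refine ⟨Nat.card (Pic0 k K ⧸ Ptor p (Pic0 k K)), Nat.card_pos, ?_, ?_⟩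
    · rw [Nat.Coprime.eq_1, Nat.gcd_comm]
      refine (Nat.Prime.coprime_iff_not_dvd Fact.out).mpr ?_
      intro hdvd
      have h5 := card_quot_ne_zero p (Pic0 k K) E
      rw [Ne, CharP.cast_eq_zero_iff E p] at h5
      exact h5 hdvd
    · intro z
      rw [ext_apply, ← Units.val_pow_eq_pow_val, ← map_pow]
      have h5 : (Multiplicative.ofAdd (QuotientAddGroup.mk (proj c₀ hc₀ z) :
          Pic0 k K ⧸ Ptor p (Pic0 k K))) ^ Nat.card (Pic0 k K ⧸ Ptor p (Pic0 k K)) = 1 := by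
        have := pow_card_eq_one' (G := Multiplicative (Pic0 k K ⧸ Ptor p (Pic0 k K)))
          (x := Multiplicative.ofAdd (QuotientAddGroup.mk (proj c₀ hc₀ z)))
        exact this
      rw [h5, map_one, Units.val_one]
  · -- the sum
    have hbij : Set.BijOn (fun u : Pic0 k K => (u : Pic k K) + ((g : ℤ) - 1) • c₀) S
        {z : Pic k K | degPic z = (g : ℤ) - 1 ∧ 0 < ellPic z} := by
      refine ⟨?_, ?_, ?_⟩
      · intro u hu
        refine ⟨?_, hu⟩
        rw [map_add, map_zsmul, hc₀, mem_Pic0.mp u.2]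
        simp
      · intro u _ v _ huv
        exact Subtype.ext (add_right_cancel huv)
      · rintro z ⟨hz1, hz2⟩
        refine ⟨proj c₀ hc₀ z, ?_, ?_⟩
        · show 0 < ellPic (z - degPic z • c₀ + ((g : ℤ) - 1) • c₀)
          rw [hz1, sub_add_cancel]
          exact hz2
        · show z - degPic z • c₀ + ((g : ℤ) - 1) • c₀ = z
          rw [hz1, sub_add_cancel]
    have hsum2 := finsum_mem_eq_of_bijOn (f := fun u : Pic0 k K =>
        ((χ (Multiplicative.ofAdd (QuotientAddGroup.mk u : Pic0 k K ⧸ Ptor p (Pic0 k K))) : Eˣ) : E))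
      (g := fun z => ext c₀ hc₀ χ z) _ hbij (by
        intro u _
        show _ = ext c₀ hc₀ χ ((u : Pic k K) + ((g : ℤ) - 1) • c₀)
        rw [ext_apply]
        have h4 : proj c₀ hc₀ ((u : Pic k K) + ((g : ℤ) - 1) • c₀) = u := by
          apply Subtype.ext
          rw [proj_coe, map_add, map_zsmul, hc₀, mem_Pic0.mp u.2]
          simp
        rw [h4])
    rw [← hsum2]
    exact hsum

end Crest.Agent.R013.CntG_398
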