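import Mathlib

/-!
# R013 / CntP1: growth of the `p`-part, abstract group theory (helper127)
-/

set_option autoImplicit false
set_option linter.all false

namespace Crest.Agent.R013.CntP1_127

/-- the `p`-primary part of an abelian group -/
def pp (p : ℕ) (A : Type*) [AddCommGroup A] : AddSubgroup A where
  carrier := {z | ∃ n : ℕ, p ^ n • z = 0}
  add_mem' := by
    rintro a b ⟨n, hn⟩ ⟨m, hm⟩
    refine ⟨n + m, ?_⟩
    rw [smul_add, pow_add]
    nth_rewrite 1 [mul_comm]
    rw [mul_smul, hn, smul_zero, mul_smul, hm, smul_zero, add_zero]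
  zero_mem' := ⟨0, by simp⟩
  neg_mem' := by
    rintro a ⟨n, hn⟩
    exact ⟨n, by rw [smul_neg, hn, neg_zero]⟩

theorem mem_pp {p : ℕ} {A : Type*} [AddCommGroup A] {z : A} :
    z ∈ pp p A ↔ ∃ n : ℕ, p ^ n • z = 0 := Iff.rfl

section Group

variable {A B : Type*} [AddCommGroup A] [AddCommGroup B]

/-- the norm on `p`-primary parts -/
def ppMap (p : ℕ) (f : B →+ A) : pp p B →+ pp p A where
  toFun z := ⟨f z, by
    obtain ⟨n, hn⟩ := z.2
    exact ⟨n, by rw [← map_nsmul, hn, map_zero]⟩⟩
  map_zero' := by ext; simp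
  map_add' x y := by ext; simp

@[simp] theorem ppMap_coe (p : ℕ) (f : B →+ A) (z : pp p B) : (ppMap p f z : A) = f z := rfl

theorem card_eq_ker_mul_range {G H : Type*} [AddCommGroup G] [AddCommGroup H] (f : G →+ H) :
    Nat.card G = Nat.card f.ker * Nat.card f.range := by
  rw [AddSubgroup.card_eq_card_quotient_mul_card_addSubgroup f.ker,
    Nat.card_congr (QuotientAddGroup.quotientKerEquivRange f).toEquiv, mul_comm]

/-- the kernel of the norm is killed by `l` if `B[p^2]` comes from `A` -/
theorem ker_nm {p l : ℕ} (hp : p.Prime) (hl : l.Prime) (con : A →+ B) (nm : B →+ A)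
    (hinj : Function.Injective con) (hnm : ∀ a, nm (con a) = l • a)
    (hB : ∀ b : B, p ^ 2 • b = 0 → ∃ a, con a = b) {b : B} (hb : b ∈ pp p B) (h0 : nm b = 0) :
    (if l = p then p • b = 0 else b = 0) := by
  classical
  by_cases hlp : l = p
  · rw [if_pos hlp]
    obtain ⟨n, hn⟩ := hb
    by_contra hpb
    -- least n with p^n b = 0 is at least 2
    have hex : ∃ n : ℕ, p ^ n • b = 0 := ⟨n, hn⟩
    set s := Nat.find hex with hs
    have hs0 : p ^ s • b = 0 := Nat.find_spec hex
    have hmin : ∀ m, m < s → p ^ m • b ≠ 0 := fun m hm => Nat.find_min hex hm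
    have hs2 : 2 ≤ s := by
      by_contra hlt
      push Not at hlt
      interval_cases h : s
      · rw [pow_zero, one_smul] at hs0
        apply hpb; rw [hs0, smul_zero]
      · rw [pow_one] at hs0
        exact hpb hs0
    have h1 : p ^ 2 • (p ^ (s - 2) • b) = 0 := by
      rw [← mul_smul, ← pow_add, show 2 + (s - 2) = s by omega, hs0]
    obtain ⟨a, ha⟩ := hB _ h1
    have h2 : p • a = 0 := by
      rw [← hlp, ← hnm a, ha, map_nsmul, h0, smul_zero]
    have h3 : p ^ (s - 1) • b = 0 := by
      rw [show s - 1 = 1 + (s - 2) by omega, pow_add, pow_one, mul_smul, ← ha, ← map_nsmul, h2,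
        map_zero]
    exact hmin (s - 1) (by omega) h3
  · rw [if_neg hlp]
    obtain ⟨n, hn⟩ := hb
    by_contra hb0
    have hex : ∃ n : ℕ, p ^ n • b = 0 := ⟨n, hn⟩
    set s := Nat.find hex with hs
    have hs0 : p ^ s • b = 0 := Nat.find_spec hex
    have hmin : ∀ m, m < s → p ^ m • b ≠ 0 := fun m hm => Nat.find_min hex hm
    have hs1 : 1 ≤ s := by
      by_contra hlt
      push Not at hlt
      interval_cases h : s
      rw [pow_zero, one_smul] at hs0
      exact hb0 hs0
    have h1 : p • (p ^ (s - 1) • b) = 0 := by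
      rw [← mul_smul, ← pow_succ', show s - 1 + 1 = s by omega, hs0]
    obtain ⟨a, ha⟩ := hB (p ^ (s - 1) • b) (by rw [pow_two, mul_smul, h1, smul_zero])
    have h2 : l • a = 0 := by
      rw [← hnm a, ha, map_nsmul, h0, smul_zero]
    have h3 : p • a = 0 := by
      apply hinj
      rw [map_nsmul, ha, h1, map_zero]
    have hcop : Nat.Coprime l p := (Nat.coprime_primes hl hp).mpr hlp
    have h4 : a = 0 := by
      have hdl : addOrderOf a ∣ l := addOrderOf_dvd_of_nsmul_eq_zero h2
      have hdp : addOrderOf a ∣ p := addOrderOf_dvd_of_nsmul_eq_zero h3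
      have := Nat.dvd_gcd hdl hdp
      rw [hcop] at this
      exact AddMonoid.addOrderOf_eq_one_iff.mp (Nat.dvd_one.mp this)
    apply hmin (s - 1) (by omega)
    rw [← ha, h4, map_zero]

theorem card_pp_le {p l : ℕ} (hp : p.Prime) (hl : l.Prime) (con : A →+ B) (nm : B →+ A)
    (hinj : Function.Injective con) (hnm : ∀ a, nm (con a) = l • a)
    (hB : ∀ b : B, p ^ 2 • b = 0 → ∃ a, con a = b) (hA : Finite (pp p A))
    (hfin : Finite {b : B // p • b = 0}) :
    Finite (pp p B) ∧ Nat.card (pp p B) ≤
      Nat.card (pp p A) * (if l = p then Nat.card {b : B // p • b = 0} else 1) := by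
  classical
  let f := ppMap p nm
  have hker : ∀ z : f.ker, if l = p then p • ((z : pp p B) : B) = 0 else ((z : pp p B) : B) = 0 :=
    fun z => ker_nm hp hl con nm hinj hnm hB (z : pp p B).2 (by
      have := z.2
      rw [AddMonoidHom.mem_ker] at this
      exact congrArg Subtype.val this)
  have hkf : Finite f.ker ∧
      Nat.card f.ker ≤ (if l = p then Nat.card {b : B // p • b = 0} else 1) := by
    by_cases hlp : l = p
    · simp only [if_pos hlp] at hker ⊢
      let g : f.ker → {b : B // p • b = 0} := fun z => ⟨((z : pp p B) : B), hker z⟩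
      have hg : Function.Injective g := by
        intro x y hxy
        have := congrArg Subtype.val hxy
        exact Subtype.ext (Subtype.ext this)
      exact ⟨Finite.of_injective g hg, Nat.card_le_card_of_injective g hg⟩
    · simp only [if_neg hlp] at hker ⊢
      have hsub : Subsingleton f.ker := ⟨fun x y => by
        apply Subtype.ext; apply Subtype.ext
        rw [hker x, hker y]⟩
      exact ⟨inferInstance, Finite.card_le_one_iff_subsingleton.mpr hsub⟩
  obtain ⟨hkfin, hkc⟩ := hkf
  haveI : Finite f.range := Finite.of_injective (fun x : f.range => (x : pp p A))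
    Subtype.val_injective
  have hq : Finite (pp p B ⧸ f.ker) :=
    Finite.of_equiv _ (QuotientAddGroup.quotientKerEquivRange f).toEquiv.symm
  have hBf : Finite (pp p B) :=
    Finite.of_equiv _ (AddSubgroup.addGroupEquivQuotientProdAddSubgroup (s := f.ker)).symm
  refine ⟨hBf, ?_⟩
  rw [card_eq_ker_mul_range f, mul_comm]
  refine Nat.mul_le_mul ?_ hkc
  exact Nat.card_le_card_of_injective (fun x : f.range => (x : pp p A)) Subtype.val_injective

/-- if `A[n]` and `B[n]` have the same number of elements an injection `A → B` is onto on `B[n]` -/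
theorem surj_of_card {n : ℕ} (con : A →+ B) (hinj : Function.Injective con)
    (hfin : Finite {b : B // n • b = 0})
    (hcard : Nat.card {b : B // n • b = 0} ≤ Nat.card {a : A // n • a = 0}) {b : B}
    (hb : n • b = 0) : ∃ a, con a = b := by
  let g : {a : A // n • a = 0} → {b : B // n • b = 0} := fun a => ⟨con a, by
    rw [← map_nsmul, a.2, map_zero]⟩
  have hg : Function.Injective g := by
    intro x y hxy
    exact Subtype.ext (hinj (congrArg Subtype.val hxy))
  haveI : Finite {a : A // n • a = 0} := Finite.of_injective g hg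
  have hcard' : Nat.card {a : A // n • a = 0} = Nat.card {b : B // n • b = 0} :=
    le_antisymm (Nat.card_le_card_of_injective g hg) hcard
  have hbij := (Nat.bijective_iff_injective_and_card g).mpr ⟨hg, hcard'⟩
  obtain ⟨a, ha⟩ := hbij.2 ⟨b, hb⟩
  exact ⟨a, congrArg Subtype.val ha⟩

/-- `|B[p^2]| ≤ |B[p]|^2` -/
theorem card_sq_le {p : ℕ} (hfin : Finite {b : B // p • b = 0}) :
    Finite {b : B // p ^ 2 • b = 0} ∧
      Nat.card {b : B // p ^ 2 • b = 0} ≤ Nat.card {b : B // p • b = 0} ^ 2 := by
  let G : AddSubgroup B := (nsmulAddMonoidHom (α := B) (p ^ 2)).ker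
  let H : AddSubgroup B := (nsmulAddMonoidHom (α := B) p).ker
  have hG : ∀ b, b ∈ G ↔ p ^ 2 • b = 0 := fun b => Iff.rfl
  have hH : ∀ b, b ∈ H ↔ p • b = 0 := fun b => Iff.rfl
  let f : G →+ H :=
    { toFun := fun x => ⟨p • (x : B), by
        rw [hH, ← mul_smul, ← pow_two]
        exact x.2⟩
      map_zero' := by ext; simp
      map_add' := fun x y => by ext; simp }
  haveI : Finite H := hfin
  have hk : Function.Injective (fun z : f.ker => (⟨((z : G) : B), by
      rw [hH]
      exact congrArg Subtype.val ((AddMonoidHom.mem_ker).mp z.2)⟩ : H)) := by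
    intro x y hxy
    have h1 := congrArg Subtype.val hxy
    exact Subtype.ext (Subtype.ext h1)
  haveI : Finite f.ker := Finite.of_injective _ hk
  have hq : Finite (G ⧸ f.ker) :=
    Finite.of_equiv _ (QuotientAddGroup.quotientKerEquivRange f).toEquiv.symm
  have hGf : Finite G :=
    Finite.of_equiv _ (AddSubgroup.addGroupEquivQuotientProdAddSubgroup (s := f.ker)).symm
  refine ⟨hGf, ?_⟩
  show Nat.card G ≤ Nat.card H ^ 2
  rw [card_eq_ker_mul_range f, pow_two]
  exact Nat.mul_le_mul (Nat.card_le_card_of_injective _ hk)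
    (Nat.card_le_card_of_injective (fun x : f.range => (x : H)) Subtype.val_injective)

end Group

end Crest.Agent.R013.CntP1_127
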