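import Mathlib

/-!
# R013 / CntP2: derivations in characteristic `p` (helper127)

`K` a field of characteristic `p`, `δ` a derivation with `δ x = 1`, and every element of `K` a sum of
elements `f ^ p * x ^ n`.
* `iter_p` : `δ^p = 0`;
* `jacobson` : `δ^(p-1) (δ h / h) = - (δ h / h) ^ p`;
* `exists_pow_of_del_eq_zero` : `δ h = 0 → h = f ^ p`.
-/

set_option autoImplicit false
set_option linter.all false

namespace Crest.Agent.R013.CntP2_127

open Finset

section Char

variable {k : Type*} [Field k] {K : Type*} [Field K] [Algebra k K] (p : ℕ) [hp : Fact p.Prime]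
  [CharP K p] (δ : Derivation k K K)

theorem del_pow_mul (f y : K) : δ (f ^ p * y) = f ^ p * δ y := by
  rw [Derivation.leibniz, Derivation.leibniz_pow]
  simp

theorem del_natCast (n : ℕ) : δ (n : K) = 0 := by
  have := δ.map_algebraMap (n : k)
  simpa using this

theorem del_natCast_mul (n : ℕ) (y : K) : δ ((n : K) * y) = n * δ y := by
  rw [Derivation.leibniz, del_natCast]; simp

theorem iter_pow_mul (f y : K) (j : ℕ) : δ^[j] (f ^ p * y) = f ^ p * δ^[j] y := by
  induction j with
  | zero => rfl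
  | succ j ih => rw [Function.iterate_succ_apply', ih, del_pow_mul, Function.iterate_succ_apply']

theorem iter_add (a b : K) (j : ℕ) : δ^[j] (a + b) = δ^[j] a + δ^[j] b := by
  induction j with
  | zero => rfl
  | succ j ih => rw [Function.iterate_succ_apply', ih, map_add, Function.iterate_succ_apply',
      Function.iterate_succ_apply']

theorem iter_zero (j : ℕ) : δ^[j] 0 = 0 := by
  induction j with
  | zero => rfl
  | succ j ih => rw [Function.iterate_succ_apply', ih, map_zero]

theorem iter_smul (c : k) (a : K) (j : ℕ) : δ^[j] (c • a) = c • δ^[j] a := by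
  induction j with
  | zero => rfl
  | succ j ih => rw [Function.iterate_succ_apply', ih, Derivation.map_smul,
      Function.iterate_succ_apply']

theorem iter_sum {ι : Type*} (s : Finset ι) (a : ι → K) (j : ℕ) :
    δ^[j] (∑ i ∈ s, a i) = ∑ i ∈ s, δ^[j] (a i) := by
  classical
  induction s using Finset.induction_on with
  | empty => simp [iter_zero]
  | insert i s hi ih => rw [sum_insert hi, sum_insert hi, iter_add, ih]

variable {x : K} (hx : δ x = 1)
include hx

theorem iter_x_pow (n j : ℕ) : δ^[j] (x ^ n) = (n.descFactorial j : K) * x ^ (n - j) := by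
  induction j with
  | zero => simp
  | succ j ih =>
    rw [Function.iterate_succ_apply', ih, del_natCast_mul, Derivation.leibniz_pow, hx,
      Nat.descFactorial_succ]
    simp only [nsmul_eq_mul, smul_eq_mul, mul_one, Nat.cast_mul]
    rw [Nat.sub_sub]
    ring

theorem iter_p_x_pow (n : ℕ) : δ^[p] (x ^ n) = 0 := by
  rw [iter_x_pow δ hx, Nat.descFactorial_eq_factorial_mul_choose]
  have : ((Nat.factorial p * n.choose p : ℕ) : K) = 0 := by
    rw [CharP.cast_eq_zero_iff K p]
    exact Dvd.dvd.mul_right (Nat.dvd_factorial hp.out.pos le_rfl) _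
  rw [this, zero_mul]

end Char

section Additive

variable {k : Type*} [Field k] {K : Type*} [Field K] [Algebra k K]

/-- `(h+g)^(p-1) (u+w) = h^(p-1) u + g^(p-1) w + δ R` -/
theorem exists_remainder {p : ℕ} (hp : p.Prime) (δ : Derivation k K K) (h g : K) :
    ∃ R : K, (h + g) ^ (p - 1) * (δ h + δ g) = h ^ (p - 1) * δ h + g ^ (p - 1) * δ g + δ R := by
  obtain ⟨n, rfl⟩ : ∃ n, p = n + 1 := ⟨p - 1, by have := hp.pos; omega⟩
  rw [Nat.add_sub_cancel]
  have hpn : 1 ≤ n := by have := hp.two_le; omega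
  obtain ⟨m, rfl⟩ : ∃ m, n = m + 1 := ⟨n - 1, by omega⟩
  -- coefficients
  let c : ℕ → ℕ := fun j => (m + 1 + 1).choose (j + 1) / (m + 1 + 1)
  have hc : ∀ j, j < m + 1 → (m + 1 + 1) * c j = (m + 1 + 1).choose (j + 1) := by
    intro j hj
    exact Nat.mul_div_cancel' (hp.dvd_choose_self (by omega) (by omega))
  have hc1 : ∀ j, j < m + 1 → c j * (j + 1) = (m + 1).choose j := by
    intro j hj
    have h1 := Nat.add_one_mul_choose_eq (m + 1) j
    have h2 : (m + 1 + 1) * (c j * (j + 1)) = (m + 1 + 1) * (m + 1).choose j := by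
      rw [h1, ← hc j hj]; ring
    exact Nat.eq_of_mul_eq_mul_left (by omega) h2
  have hc2 : ∀ j, j < m + 1 → c j * (m + 1 - j) = (m + 1).choose (j + 1) := by
    intro j hj
    have h1 := Nat.choose_mul_succ_eq (m + 1) (j + 1)
    have h2 : (m + 1 + 1) * (c j * (m + 1 - j)) = (m + 1 + 1) * (m + 1).choose (j + 1) := by
      rw [mul_comm (m + 1 + 1) ((m + 1).choose (j + 1)), h1, ← hc j hj,
        show m + 1 + 1 - (j + 1) = m + 1 - j by omega]; ring
    exact Nat.eq_of_mul_eq_mul_left (by omega) h2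
  refine ⟨∑ j ∈ range (m + 1), (c j : K) * (h ^ (j + 1) * g ^ (m + 1 - j)), ?_⟩
  have hδ : δ (∑ j ∈ range (m + 1), (c j : K) * (h ^ (j + 1) * g ^ (m + 1 - j))) =
      (∑ j ∈ range (m + 1), h ^ j * g ^ (m + 1 - j) * ((m + 1).choose j : K)) * δ h +
      (∑ j ∈ range (m + 1), h ^ (j + 1) * g ^ (m + 1 - (j + 1)) * ((m + 1).choose (j + 1) : K))
        * δ g := by
    rw [map_sum, sum_mul, sum_mul, ← sum_add_distrib]
    refine sum_congr rfl fun j hj => ?_
    rw [mem_range] at hj
    rw [del_natCast_mul, Derivation.leibniz, Derivation.leibniz_pow, Derivation.leibniz_pow,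
      ← hc1 j hj, ← hc2 j hj]
    simp only [nsmul_eq_mul, smul_eq_mul, Nat.add_sub_cancel, Nat.cast_mul]
    rw [show m + 1 - (j + 1) = m + 1 - j - 1 by omega]
    ring
  have hs1 : (h + g) ^ (m + 1) =
      (∑ j ∈ range (m + 1), h ^ j * g ^ (m + 1 - j) * ((m + 1).choose j : K)) + h ^ (m + 1) := by
    rw [add_pow, sum_range_succ]
    simp
  have hs2 : (h + g) ^ (m + 1) =
      (∑ j ∈ range (m + 1), h ^ (j + 1) * g ^ (m + 1 - (j + 1)) *
        ((m + 1).choose (j + 1) : K)) + g ^ (m + 1) := by
    rw [add_pow, sum_range_succ']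
    simp
  rw [hδ, mul_add]
  nth_rewrite 1 [hs1]
  rw [hs2]
  ring

end Additive

section Main

variable {k : Type*} [Field k] {K : Type*} [Field K] [Algebra k K] (p : ℕ) [hp : Fact p.Prime]
  [CharP K p] (δ : Derivation k K K) {x : K} (hx : δ x = 1)
  (hspan : ∀ h : K, ∃ f : ℕ → K, h = ∑ i ∈ range p, f i ^ p * x ^ i)

include hx hspan

theorem iter_p (h : K) : δ^[p] h = 0 := by
  obtain ⟨f, rfl⟩ := hspan h
  rw [iter_sum]
  refine sum_eq_zero fun i _ => ?_
  rw [iter_pow_mul, iter_p_x_pow p δ hx, mul_zero]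

theorem cartier (h : K) : δ^[p - 1] (h ^ (p - 1) * δ h) = - (δ h) ^ p := by
  have hp1 : p - 1 + 1 = p := Nat.sub_add_cancel hp.out.pos
  have hadd : ∀ a b : K, δ^[p - 1] (a ^ (p - 1) * δ a) = - (δ a) ^ p →
      δ^[p - 1] (b ^ (p - 1) * δ b) = - (δ b) ^ p →
      δ^[p - 1] ((a + b) ^ (p - 1) * δ (a + b)) = - (δ (a + b)) ^ p := by
    intro a b ha hb
    obtain ⟨R, hR⟩ := exists_remainder hp.out δ a b
    rw [map_add, hR, iter_add, iter_add, ha, hb, ← Function.iterate_succ_apply,
      Nat.succ_eq_add_one, hp1, iter_p p δ hx hspan, add_zero, add_pow_char]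
    ring
  have hmono : ∀ (f : K) (n : ℕ),
      δ^[p - 1] ((f ^ p * x ^ n) ^ (p - 1) * δ (f ^ p * x ^ n)) = - (δ (f ^ p * x ^ n)) ^ p := by
    intro f n
    rw [del_pow_mul, Derivation.leibniz_pow, hx]
    simp only [nsmul_eq_mul, smul_eq_mul, mul_one]
    rcases Nat.eq_zero_or_pos n with rfl | hn
    · simp [iter_zero, hp.out.ne_zero]
    have h1 : (f ^ p * x ^ n) ^ (p - 1) * (f ^ p * ((n : K) * x ^ (n - 1))) =
        (f ^ p) ^ p * ((n : K) * x ^ (n * p - 1)) := by
      have h2 : (f ^ p) ^ p = (f ^ p) ^ (p - 1) * f ^ p := by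
        conv_lhs => rw [← hp1]
        rw [pow_succ, hp1]
      have h3 : x ^ (n * p - 1) = (x ^ n) ^ (p - 1) * x ^ (n - 1) := by
        rw [← pow_mul, ← pow_add]
        congr 1
        obtain ⟨q, hq⟩ : ∃ q, p = q + 1 := ⟨p - 1, hp1.symm⟩
        obtain ⟨r, hr⟩ : ∃ r, n = r + 1 := ⟨n - 1, by omega⟩
        subst hq hr
        simp only [Nat.add_sub_cancel]
        rw [mul_add, mul_one]
        omega
      rw [mul_pow, h2, h3]
      ring
    rw [h1, iter_pow_mul]
    have h4 : δ^[p - 1] ((n : K) * x ^ (n * p - 1)) = n * δ^[p - 1] (x ^ (n * p - 1)) := by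
      have := iter_smul δ (n : k) (x ^ (n * p - 1)) (p - 1)
      simpa [Algebra.smul_def] using this
    rw [h4, iter_x_pow δ hx]
    -- the descending factorial is `-1`
    have h5 : (((n * p - 1).descFactorial (p - 1) : ℕ) : K) = -1 := by
      have hw : (((p - 1).factorial : ℕ) : K) = -1 := by
        have := ZMod.wilsons_lemma p
        have h6 := congrArg (ZMod.castHom (dvd_refl p) K) this
        rw [map_natCast, map_neg, map_one] at h6
        exact h6
      have h7 : ∀ j, j ≤ p - 1 → (((n * p - 1).descFactorial j : ℕ) : K)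
          = (((p - 1).descFactorial j : ℕ) : K) := by
        intro j hj
        induction j with
        | zero => simp
        | succ j ih =>
          rw [Nat.descFactorial_succ, Nat.descFactorial_succ, Nat.cast_mul, Nat.cast_mul,
            ih (by omega)]
          congr 1
          have hnp : p ≤ n * p := Nat.le_mul_of_pos_left p hn
          rw [Nat.sub_sub, Nat.sub_sub, Nat.cast_sub (by omega), Nat.cast_sub (by omega)]
          simp
      rw [h7 _ le_rfl, Nat.descFactorial_self, hw]
    rw [h5, show n * p - 1 - (p - 1) = (n - 1) * p by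
      rw [Nat.sub_mul, one_mul]
      have hnp : p ≤ n * p := Nat.le_mul_of_pos_left p hn
      have := hp.out.pos
      omega, mul_pow, mul_pow, ← pow_mul x]
    have h8 : (n : K) ^ p = n := by
      have := ZMod.pow_card (n : ZMod p)
      have h9 := congrArg (ZMod.castHom (dvd_refl p) K) this
      rw [map_pow, map_natCast] at h9
      exact h9
    rw [h8]
    ring
  obtain ⟨f, rfl⟩ := hspan h
  have hsum : ∀ s : Finset ℕ, δ^[p - 1] ((∑ i ∈ s, f i ^ p * x ^ i) ^ (p - 1) *
      δ (∑ i ∈ s, f i ^ p * x ^ i)) = - (δ (∑ i ∈ s, f i ^ p * x ^ i)) ^ p := by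
    intro s
    classical
    induction s using Finset.induction_on with
    | empty => simp [iter_zero, hp.out.ne_zero]
    | insert i s hi ih =>
      rw [sum_insert hi]
      exact hadd _ _ (hmono _ _) ih
  exact hsum _

/-- logarithmic derivatives satisfy `δ^(p-1) a = - a^p` -/
theorem jacobson {h : K} (hh : h ≠ 0) : δ^[p - 1] (δ h / h) = - (δ h / h) ^ p := by
  have hp1 : p - 1 + 1 = p := Nat.sub_add_cancel hp.out.pos
  have h1 : δ h / h = (h⁻¹) ^ p * (h ^ (p - 1) * δ h) := by
    have h2 : h ^ p = h ^ (p - 1) * h := by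
      conv_lhs => rw [← hp1]
      rw [pow_succ]
    rw [inv_pow, h2, mul_inv, ← mul_assoc, mul_comm (h ^ (p - 1))⁻¹, mul_assoc h⁻¹,
      inv_mul_cancel₀ (pow_ne_zero _ hh), mul_one, div_eq_inv_mul]
  rw [h1, iter_pow_mul, cartier p δ hx hspan, ← h1, div_pow, inv_pow]
  field_simp

theorem exists_pow_of_del_eq_zero {h : K} (hh : δ h = 0) : ∃ f : K, h = f ^ p := by
  obtain ⟨f, hf⟩ := hspan h
  have key : ∀ n : ℕ, n ≤ p → h = ∑ i ∈ range n, f i ^ p * x ^ i → ∃ f : K, h = f ^ p := by
    intro n
    induction n with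
    | zero =>
      intro _ h0
      exact ⟨0, by rw [h0, range_zero, sum_empty, zero_pow hp.out.ne_zero]⟩
    | succ n ih =>
      intro hn h0
      rcases Nat.eq_zero_or_pos n with rfl | hn0
      · exact ⟨f 0, by rw [h0]; simp⟩
      · apply ih (by omega)
        have h1 : δ^[n] h = 0 := by
          obtain ⟨m, rfl⟩ : ∃ m, n = m + 1 := ⟨n - 1, by omega⟩
          rw [Function.iterate_succ_apply, hh, iter_zero]
        rw [h0, iter_sum, sum_range_succ] at h1
        have h2 : ∑ i ∈ range n, δ^[n] (f i ^ p * x ^ i) = 0 := by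
          refine sum_eq_zero fun i hi => ?_
          rw [mem_range] at hi
          rw [iter_pow_mul, iter_x_pow δ hx, Nat.descFactorial_of_lt hi]
          simp
        rw [h2, zero_add, iter_pow_mul, iter_x_pow δ hx, Nat.descFactorial_self, Nat.sub_self,
          pow_zero, mul_one] at h1
        have h3 : ((n.factorial : ℕ) : K) ≠ 0 := by
          rw [ne_eq, CharP.cast_eq_zero_iff K p, hp.out.dvd_factorial]
          omega
        have h4 : f n ^ p = 0 := by
          rcases mul_eq_zero.mp h1 with h5 | h5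
          · exact h5
          · exact absurd h5 h3
        rw [h0, sum_range_succ, h4, zero_mul, add_zero]
  exact key p le_rfl hf

end Main

end Crest.Agent.R013.CntP2_127
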