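import Mathlib
import Crest.Agent.R013.RR15_948
import Crest.Agent.R013.PicD_398
import Crest.Agent.R013.CntP1_127
import Crest.Agent.R013.CntP2_127

/-!
# R013 / CntP3: `Pic[p]` is finite, function fields over perfect fields (helper127)
-/

set_option autoImplicit false
set_option linter.all false

namespace Crest.Agent.R013.CntP3_127

open Finset WithZero Module
open Crest.Agent.R013.RR7_948 Crest.Agent.R013.RR8_948 Crest.Agent.R013.RR9_948
open Crest.Agent.R013.RR11_948 Crest.Agent.R013.RR14_948 Crest.Agent.R013.RR15_948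
open Crest.Agent.R013.PicD_398 Crest.Agent.R013.CntP1_127 Crest.Agent.R013.CntP2_127

section Rep

variable {K : Type*} [Field K] (p : ℕ) [hp : Fact p.Prime] [CharP K p]

theorem rep_add (x : K) {a b : K} (ha : ∃ f : ℕ → K, a = ∑ i ∈ range p, f i ^ p * x ^ i)
    (hb : ∃ f : ℕ → K, b = ∑ i ∈ range p, f i ^ p * x ^ i) :
    ∃ f : ℕ → K, a + b = ∑ i ∈ range p, f i ^ p * x ^ i := by
  obtain ⟨f, rfl⟩ := ha
  obtain ⟨g, rfl⟩ := hb
  refine ⟨fun i => f i + g i, ?_⟩
  rw [← sum_add_distrib]
  refine sum_congr rfl fun i _ => ?_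
  rw [add_pow_char, add_mul]

theorem rep_mono (x f : K) (n : ℕ) :
    ∃ g : ℕ → K, f ^ p * x ^ n = ∑ i ∈ range p, g i ^ p * x ^ i := by
  refine ⟨fun i => if i = n % p then f * x ^ (n / p) else 0, ?_⟩
  rw [sum_eq_single (n % p)]
  · simp only [if_true]
    rw [mul_pow, ← pow_mul, mul_assoc, ← pow_add, Nat.div_add_mod']
  · intro i _ hi
    simp only [if_neg hi]
    rw [zero_pow hp.out.ne_zero, zero_mul]
  · intro h
    exact absurd (mem_range.mpr (Nat.mod_lt _ hp.out.pos)) h

end Rep

section Span

variable {k : Type*} [Field k] {K : Type*} [Field K] [Algebra k K] [Algebra (RatFunc k) K]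
  [IsScalarTower k (RatFunc k) K] [FiniteDimensional (RatFunc k) K]
  [Algebra.IsSeparable (RatFunc k) K]
  (p : ℕ) [hp : Fact p.Prime] [CharP K p] [CharP k p] [PerfectField k]

omit [FiniteDimensional (RatFunc k) K] in
theorem exists_root (c : k) : ∃ d : k, d ^ p = c := by
  haveI : PerfectRing k p := PerfectField.toPerfectRing p
  obtain ⟨d, hd⟩ := surjective_frobenius k p c
  exact ⟨d, hd⟩

theorem exists_rep (h : K) : ∃ f : ℕ → K, h = ∑ i ∈ range p, f i ^ p * (xK k K) ^ i := by
  set x := xK k K with hx
  let F₀ : Subfield K := (frobenius K p).fieldRange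
  have hF : ∀ y : K, y ^ p ∈ F₀ := fun y => ⟨y, rfl⟩
  have hF' : ∀ y : F₀, ∃ z : K, z ^ p = (y : K) := fun y => y.2
  have hxint : IsIntegral F₀ x := by
    refine ⟨Polynomial.X ^ p - Polynomial.C ⟨x ^ p, hF x⟩, ?_, ?_⟩
    · exact Polynomial.monic_X_pow_sub_C _ hp.out.ne_zero
    · rw [Polynomial.eval₂_sub, Polynomial.eval₂_X_pow, Polynomial.eval₂_C]
      exact sub_self _
  let E : IntermediateField F₀ K := IntermediateField.adjoin F₀ {x}
  have hxE : x ∈ E := IntermediateField.mem_adjoin_simple_self F₀ x
  have hkE : ∀ c : k, algebraMap k K c ∈ E := by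
    intro c
    obtain ⟨d, rfl⟩ := exists_root p c
    rw [map_pow]
    exact E.algebraMap_mem ⟨_, hF (algebraMap k K d)⟩
  have hpoly : ∀ q : Polynomial k, Polynomial.aeval x q ∈ E := by
    intro q
    rw [Polynomial.aeval_eq_sum_range]
    refine E.sum_mem fun i _ => ?_
    rw [Algebra.smul_def]
    exact E.mul_mem (hkE _) (pow_mem hxE _)
  have hrat : ∀ f : RatFunc k, algebraMap (RatFunc k) K f ∈ E := by
    intro f
    rw [← RatFunc.num_div_denom f, map_div₀, algebraMap_poly, algebraMap_poly]
    exact E.div_mem (hpoly _) (hpoly _)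
  have hsurj : ∀ y : K, y ∈ E := by
    letI : Algebra (RatFunc k) E :=
      ((algebraMap (RatFunc k) K).codRestrict E hrat).toAlgebra
    haveI : IsScalarTower (RatFunc k) E K := IsScalarTower.of_algebraMap_eq fun _ => rfl
    haveI : Algebra.IsSeparable E K := Algebra.isSeparable_tower_top_of_isSeparable (RatFunc k) E K
    haveI : ExpChar E p := by
      haveI : CharP E p := by
        haveI := (algebraMap E K).charP_iff (algebraMap E K).injective p
        exact this.mpr inferInstance
      exact ExpChar.prime hp.out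
    haveI : IsPurelyInseparable E K := by
      rw [isPurelyInseparable_iff_pow_mem E p]
      intro y
      refine ⟨1, ?_⟩
      rw [pow_one]
      exact ⟨⟨y ^ p, E.algebraMap_mem ⟨_, hF y⟩⟩, rfl⟩
    intro y
    obtain ⟨z, hz⟩ := IsPurelyInseparable.surjective_algebraMap_of_isSeparable E K y
    rw [← hz]
    exact z.2
  have hh := hsurj h
  have hh' : h ∈ E.toSubalgebra := hh
  rw [IntermediateField.adjoin_simple_toSubalgebra_of_isAlgebraic hxint.isAlgebraic,
    Algebra.adjoin_singleton_eq_range_aeval] at hh'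
  obtain ⟨q, rfl⟩ := hh'
  show ∃ f : ℕ → K, Polynomial.aeval x q = _
  rw [Polynomial.aeval_eq_sum_range]
  have key : ∀ s : Finset ℕ, ∃ f : ℕ → K, ∑ i ∈ s, q.coeff i • x ^ i
      = ∑ i ∈ range p, f i ^ p * x ^ i := by
    classical
    intro s
    induction s using Finset.induction_on with
    | empty =>
      refine ⟨fun _ => 0, ?_⟩
      rw [sum_empty]
      symm
      refine sum_eq_zero fun i _ => ?_
      rw [zero_pow hp.out.ne_zero, zero_mul]
    | insert i s hi ih =>
      rw [sum_insert hi]
      refine rep_add p x ?_ ih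
      obtain ⟨z, hz⟩ := hF' (q.coeff i)
      rw [Algebra.smul_def]
      have : algebraMap F₀ K (q.coeff i) = z ^ p := hz.symm
      rw [this]
      exact rep_mono p x z i
  exact key _

end Span

section Indep

variable {k : Type*} [Field k] {K : Type*} [Field K] [Algebra k K]
  (p : ℕ) [hp : Fact p.Prime] [CharP K p] [CharP k p] [PerfectField k]

theorem mem_prime_field {d : k} (hd : d ^ p = d) :
    ∃ z : ZMod p, ZMod.castHom (dvd_refl p) k z = d := by
  have h1 := (Subfield.mem_bot_iff_pow_eq_self (F := k) (p := p)).mpr hd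
  have h2 : (⊥ : Subfield k) ≤ (ZMod.castHom (dvd_refl p) k).fieldRange := bot_le
  exact h2 h1

/-- `𝔽_p`-linear independence implies `k`-linear independence on the fixed vectors of a
`p⁻¹`-linear operator -/
theorem relation {ι : Type*} (Φ : K → K) (hadd : ∀ a b, Φ (a + b) = Φ a + Φ b)
    (hsmul : ∀ (c : k) a, Φ (c • a) = c • Φ a) (v : ι → K) (hv : ∀ i, Φ (v i) = v i ^ p)
    (hli : ∀ (s : Finset ι) (c : ι → ZMod p),
      ∑ i ∈ s, (ZMod.castHom (dvd_refl p) k (c i)) • v i = 0 → ∀ i ∈ s, c i = 0)
    (s : Finset ι) (c : ι → k) (hc : ∑ i ∈ s, c i • v i = 0) : ∀ i ∈ s, c i = 0 := by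
  classical
  have hΦ0 : Φ 0 = 0 := by
    have := hadd 0 0
    rw [add_zero] at this
    exact left_eq_add.mp this
  have hΦs : ∀ (s : Finset ι) (c : ι → k), Φ (∑ i ∈ s, c i • v i) = ∑ i ∈ s, c i • v i ^ p := by
    intro s c
    induction s using Finset.induction_on with
    | empty => simp [hΦ0]
    | insert i s hi ih => rw [sum_insert hi, sum_insert hi, hadd, ih, hsmul, hv]
  induction s using Finset.induction_on generalizing c with
  | empty => intro i hi; simp at hi
  | insert j s hj ih =>
    by_cases hcj : c j = 0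
    · rw [sum_insert hj, hcj, zero_smul, zero_add] at hc
      intro i hi
      rcases Finset.mem_insert.mp hi with rfl | hi
      · exact hcj
      · exact ih c hc i hi
    · exfalso
      -- normalise
      let d : ι → k := fun i => c i / c j
      have hdj : d j = 1 := div_self hcj
      have hd : ∑ i ∈ insert j s, d i • v i = 0 := by
        have h1 : ∑ i ∈ insert j s, d i • v i = (c j)⁻¹ • ∑ i ∈ insert j s, c i • v i := by
          rw [smul_sum]
          refine sum_congr rfl fun i _ => ?_
          rw [smul_smul]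
          congr 1
          show c i / c j = _
          rw [div_eq_inv_mul]
        rw [h1, hc, smul_zero]
      have h1 : ∑ i ∈ insert j s, d i • v i ^ p = 0 := by
        rw [← hΦs, hd, hΦ0]
      have h2 : ∑ i ∈ insert j s, d i ^ p • v i ^ p = 0 := by
        have h3 := congrArg (fun y => y ^ p) hd
        simp only [zero_pow hp.out.ne_zero] at h3
        rw [← h3, sum_pow_char]
        refine sum_congr rfl fun i _ => ?_
        rw [smul_pow]
      have h3 : ∑ i ∈ s, (d i ^ p - d i) • v i ^ p = 0 := by
        have h4 : ∑ i ∈ insert j s, (d i ^ p - d i) • v i ^ p = 0 := by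
          simp only [sub_smul]
          rw [sum_sub_distrib, h1, h2, sub_zero]
        rw [sum_insert hj, hdj, one_pow, sub_self, zero_smul, zero_add] at h4
        exact h4
      choose e he using fun i => exists_root (k := k) p (d i ^ p - d i)
      have h5 : (∑ i ∈ s, e i • v i) ^ p = 0 := by
        rw [sum_pow_char, ← h3]
        refine sum_congr rfl fun i _ => ?_
        rw [smul_pow, he]
      have h6 := ih e (pow_eq_zero_iff hp.out.ne_zero |>.mp h5)
      have h7 : ∀ i ∈ insert j s, d i ^ p = d i := by
        intro i hi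
        rcases Finset.mem_insert.mp hi with rfl | hi
        · rw [hdj, one_pow]
        · have h8 := he i
          rw [h6 i hi, zero_pow hp.out.ne_zero] at h8
          exact (sub_eq_zero.mp h8.symm)
      have h8 : ∀ i, ∃ z : ZMod p, i ∈ insert j s → ZMod.castHom (dvd_refl p) k z = d i := by
        intro i
        by_cases hi : i ∈ insert j s
        · obtain ⟨z, hz⟩ := mem_prime_field p (h7 i hi)
          exact ⟨z, fun _ => hz⟩
        · exact ⟨0, fun h => absurd h hi⟩
      choose z hz using h8
      have h9 := hli (insert j s) z (by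
        rw [← hd]
        refine sum_congr rfl fun i hi => ?_
        rw [hz i hi]) j (Finset.mem_insert_self _ _)
      have h10 := hz j (Finset.mem_insert_self _ _)
      rw [h9, map_zero, hdj] at h10
      exact zero_ne_one h10

theorem card_le (Φ : K → K) (hadd : ∀ a b, Φ (a + b) = Φ a + Φ b)
    (hsmul : ∀ (c : k) a, Φ (c • a) = c • Φ a) (V : AddSubgroup K) (hV : ∀ a ∈ V, Φ a = a ^ p)
    (L : Submodule k K) [Module.Finite k L] (hVL : ∀ a ∈ V, a ∈ L) :
    Finite V ∧ Nat.card V ≤ p ^ finrank k L := by
  classical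
  letI : Algebra (ZMod p) K := ZMod.algebra K p
  letI : Algebra (ZMod p) k := ZMod.algebra k p
  let V' : Submodule (ZMod p) K := AddSubgroup.toZModSubmodule p V
  have hV' : ∀ a, a ∈ V' ↔ a ∈ V := fun a => Iff.rfl
  let b := Module.Free.chooseBasis (ZMod p) V'
  let v : Module.Free.ChooseBasisIndex (ZMod p) V' → K := fun i => (b i : K)
  have hv : LinearIndependent (ZMod p) v := b.linearIndependent.map' V'.subtype (by simp)
  have hcast : ∀ (z : ZMod p) (y : K), (ZMod.castHom (dvd_refl p) k z) • y = z • y := by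
    intro z y
    rw [Algebra.smul_def, Algebra.smul_def]
    congr 1
    have : (algebraMap k K).comp (ZMod.castHom (dvd_refl p) k) = algebraMap (ZMod p) K :=
      Subsingleton.elim _ _
    rw [← this]
    rfl
  have hk : LinearIndependent k v := by
    rw [linearIndependent_iff']
    intro s c hc
    refine relation p Φ hadd hsmul v (fun i => hV _ (b i).2) ?_ s c hc
    intro s c hc
    rw [linearIndependent_iff'] at hv
    apply hv
    rw [← hc]
    refine sum_congr rfl fun i _ => (hcast _ _).symm
  let w : Module.Free.ChooseBasisIndex (ZMod p) V' → L := fun i => ⟨v i, hVL _ (b i).2⟩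
  have hw : LinearIndependent k w := by
    have : (v : _ → K) = L.subtype ∘ w := rfl
    rw [this] at hk
    exact LinearIndependent.of_comp _ hk
  haveI : Finite (Module.Free.ChooseBasisIndex (ZMod p) V') := hw.finite
  haveI := Fintype.ofFinite (Module.Free.ChooseBasisIndex (ZMod p) V')
  have hcardι := hw.fintype_card_le_finrank
  have e : V ≃ (Module.Free.ChooseBasisIndex (ZMod p) V' → ZMod p) := b.equivFun.toEquiv
  haveI : Finite (Module.Free.ChooseBasisIndex (ZMod p) V' → ZMod p) := inferInstance
  refine ⟨Finite.of_equiv _ e.symm, ?_⟩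
  rw [Nat.card_congr e, Nat.card_fun, Nat.card_zmod, Nat.card_eq_fintype_card]
  exact Nat.pow_le_pow_right hp.out.pos hcardι

end Indep

end Crest.Agent.R013.CntP3_127
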