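import Mathlib
import Crest.Agent.R013.CntP3_127

/-!
# R013 / CntP4: uniform bound for `d/dX`, `|Pic[p]| ≤ p ^ ℓ(W)` (helper127)
-/

set_option autoImplicit false
set_option linter.all false

namespace Crest.Agent.R013.CntP4_127

open Polynomial Finset WithZero Module IsDedekindDomain nonZeroDivisors
open Crest.Agent.R013.RR2_948 Crest.Agent.R013.RR3_948
open Crest.Agent.R013.RR7_948 Crest.Agent.R013.RR8_948 Crest.Agent.R013.RR9_948
open Crest.Agent.R013.RR11_948 Crest.Agent.R013.RR12_948
open Crest.Agent.R013.RR14_948 Crest.Agent.R013.RR15_948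
open Crest.Agent.R013.PicD_398 Crest.Agent.R013.CntP1_127 Crest.Agent.R013.CntP2_127
open Crest.Agent.R013.CntP3_127

section Bounded

variable {k : Type*} [Field k] {K : Type*} [Field K] [Algebra k K]
  {A : Type*} [CommRing A] [IsDedekindDomain A] [Algebra A K] [IsFractionRing A K]
  {S : Type*} [CommRing S] [Algebra S A] [Module.Finite S A] [Algebra S K] [IsScalarTower S A K]

/-- a derivation is bounded on a chart, uniformly -/
theorem exists_gens (d : Derivation k K K) :
    ∃ G : Finset K, ∀ (w : HeightOneSpectrum A) (N : ℤ), 0 ≤ N →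
      (∀ s : S, w.valuation K (d (algebraMap S K s)) ≤ 1) →
      (∀ g ∈ G, w.valuation K (d g) ≤ exp N) →
      ∀ u : K, w.valuation K u ≤ 1 → w.valuation K (d u) ≤ exp N := by
  classical
  obtain ⟨G, hG⟩ := (Module.Finite.fg_top : (⊤ : Submodule S A).FG)
  refine ⟨G.image (algebraMap A K), ?_⟩
  intro w N hN0 hS hN
  replace hN : ∀ g ∈ G, w.valuation K (d (algebraMap A K g)) ≤ exp N :=
    fun g hg => hN _ (Finset.mem_image_of_mem _ hg)
  have h1N : (1 : ℤᵐ⁰) ≤ exp N := by rw [← exp_zero, exp_le_exp]; exact hN0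
  have hA : ∀ a : A, w.valuation K (d (algebraMap A K a)) ≤ exp N := by
    intro a
    have ha : a ∈ Submodule.span S (G : Set A) := by rw [hG]; trivial
    induction ha using Submodule.span_induction with
    | mem x hx => exact hN x hx
    | zero => simp
    | add x y _ _ hx hy =>
      rw [map_add, map_add]
      exact (Valuation.map_add _ _ _).trans (max_le hx hy)
    | smul s x _ hx =>
      have h1 : algebraMap A K (s • x) = algebraMap S K s * algebraMap A K x := by
        rw [Algebra.smul_def, map_mul, ← IsScalarTower.algebraMap_apply]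
      rw [h1, Derivation.leibniz, smul_eq_mul, smul_eq_mul]
      have hs : w.valuation K (algebraMap S K s) ≤ 1 := by
        rw [IsScalarTower.algebraMap_apply S A K]; exact w.valuation_le_one _
      have hx' : w.valuation K (algebraMap A K x) ≤ 1 := w.valuation_le_one _
      refine (Valuation.map_add _ _ _).trans (max_le ?_ ?_)
      · rw [map_mul]
        calc _ ≤ 1 * exp N := mul_le_mul' hs hx
          _ = exp N := one_mul _
      · rw [map_mul]
        calc _ ≤ 1 * 1 := mul_le_mul' hx' (hS s)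
          _ ≤ exp N := by rw [one_mul]; exact h1N
  intro u hu
  obtain ⟨n, b, hnb⟩ := w.exists_primeCompl_mul_eq_of_integer u hu
  have hb : w.valuation K (algebraMap A K (b : A)) = 1 := by
    rw [HeightOneSpectrum.valuation_of_algebraMap]
    exact (w.intValuation_eq_one_iff_mem_primeCompl _).mpr b.2
  have h1 := congrArg d hnb
  rw [Derivation.leibniz, smul_eq_mul, smul_eq_mul] at h1
  have h2 : algebraMap A K (b : A) * d u = d (algebraMap A K n) - u * d (algebraMap A K (b : A)) := by
    rw [← h1]; ring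
  have h3 : w.valuation K (d u) = w.valuation K (algebraMap A K (b : A) * d u) := by
    rw [map_mul, hb, one_mul]
  rw [h3, h2]
  refine (Valuation.map_sub _ _ _).trans (max_le (hA n) ?_)
  rw [map_mul]
  calc _ ≤ 1 * exp N := mul_le_mul' hu (hA _)
    _ = exp N := one_mul _

end Bounded

section Global

variable {k : Type*} [Field k] {K : Type*} [Field K] [Algebra k K] [Algebra (RatFunc k) K]
  [IsScalarTower k (RatFunc k) K] [FiniteDimensional (RatFunc k) K]
  [Algebra.IsSeparable (RatFunc k) K]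

/-- `d/dX` is bounded by `1` on functions of `X` regular at infinity -/
theorem del_Rinf (P : Pl k K) (h : 1 < P.v (xK k K)) (f : RatFunc k) (hs : vinf k f ≤ 1) :
    P.v (del k K (algebraMap (RatFunc k) K f)) ≤ 1 := by
  have htriv : P.v.IsTrivialOn k := ⟨P.const⟩
  have hq0 : f.denom ≠ 0 := f.denom_ne_zero
  have hf' : algebraMap (RatFunc k) K f
      = Polynomial.aeval (xK k K) f.num / Polynomial.aeval (xK k K) f.denom := by
    rw [← algebraMap_poly, ← algebraMap_poly, ← map_div₀, RatFunc.num_div_denom]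
  set c := P.v (xK k K) with hc
  have hc0 : 0 < c := lt_trans zero_lt_one h
  have hval : ∀ p : k[X], p ≠ 0 → P.v (Polynomial.aeval (xK k K) p) = c ^ p.natDegree :=
    fun p hp => Polynomial.valuation_aeval_eq_valuation_X_pow_natDegree_of_one_lt_valuation_X _ h hp
  have hder : ∀ p : k[X], P.v (Polynomial.aeval (xK k K) (Polynomial.derivative p)) * c
      ≤ c ^ p.natDegree := by
    intro p
    by_cases h0 : Polynomial.derivative p = 0
    · rw [h0]; simp
    · rw [hval _ h0, ← pow_succ]
      apply pow_le_pow_right₀ h.le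
      have : (Polynomial.derivative p).natDegree < p.natDegree := by
        apply Polynomial.natDegree_derivative_lt
        intro h1
        apply h0
        rw [Polynomial.eq_C_of_natDegree_eq_zero h1]; simp
      omega
  by_cases hp0 : f.num = 0
  · have : f = 0 := RatFunc.num_eq_zero_iff.mp hp0
    rw [this]; simp
  rw [hf', Derivation.leibniz_div, smul_eq_mul, smul_eq_mul, smul_eq_mul, del_poly, del_poly]
  have hdeg : f.num.natDegree ≤ f.denom.natDegree := by
    have h1 : vinf k f ≤ 1 := hs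
    have h2 : vinf k f = vinf k (algebraMap k[X] (RatFunc k) f.num)
        / vinf k (algebraMap k[X] (RatFunc k) f.denom) := by
      rw [← map_div₀, RatFunc.num_div_denom]
    rw [h2, vinf_poly k hp0, vinf_poly k hq0, ← exp_sub, ← exp_zero, exp_le_exp] at h1
    omega
  set m := f.num.natDegree with hm
  set n := f.denom.natDegree with hn
  have hX : P.v (Polynomial.aeval (xK k K) f.denom *
        Polynomial.aeval (xK k K) (Polynomial.derivative f.num) -
      Polynomial.aeval (xK k K) f.num *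
        Polynomial.aeval (xK k K) (Polynomial.derivative f.denom)) * c ≤ c ^ (m + n) := by
    have h3 : ∀ a b : K, P.v (a - b) * c ≤ max (P.v a * c) (P.v b * c) := by
      intro a b
      have h5 := Valuation.map_sub P.v a b
      rcases max_choice (P.v a) (P.v b) with hm | hm
      · rw [hm] at h5; exact le_max_of_le_left (mul_le_mul_left h5 _)
      · rw [hm] at h5; exact le_max_of_le_right (mul_le_mul_left h5 _)
    refine (h3 _ _).trans (max_le ?_ ?_)
    · rw [map_mul, mul_assoc, hval _ hq0, add_comm m n, pow_add]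
      exact mul_le_mul_right (hder _) _
    · rw [map_mul, mul_assoc, hval _ hp0, pow_add]
      exact mul_le_mul_right (hder _) _
  rw [map_mul, map_pow, map_inv₀, hval _ hq0]
  have h4 : P.v (Polynomial.aeval (xK k K) f.denom *
        Polynomial.aeval (xK k K) (Polynomial.derivative f.num) -
      Polynomial.aeval (xK k K) f.num *
        Polynomial.aeval (xK k K) (Polynomial.derivative f.denom)) ≤ c ^ (m + n) := by
    refine le_trans ?_ hX
    exact le_mul_of_one_le_right' h.le
  calc ((c ^ n)⁻¹) ^ 2 * _ ≤ ((c ^ n)⁻¹) ^ 2 * c ^ (m + n) := mul_le_mul_right h4 _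
    _ ≤ ((c ^ n)⁻¹) ^ 2 * c ^ (n + n) :=
        mul_le_mul_right (pow_le_pow_right₀ h.le (by omega)) _
    _ = 1 := by
        rw [pow_add, inv_pow, ← sq]
        exact inv_mul_cancel₀ (pow_ne_zero _ (pow_ne_zero _ hc0.ne'))

/-- polar part of the divisor of a function -/
noncomputable def polar (f : K) : Pl k K →₀ ℤ := (-divf (k := k) f) ⊔ 0

theorem polar_nonneg (f : K) : 0 ≤ polar (k := k) f := le_sup_right

theorem v_le_polar (f : K) (P : Pl k K) : P.v f ≤ exp (polar (k := k) f P) := by
  by_cases hf : f = 0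
  · rw [hf, map_zero]; exact zero_le
  · rw [v_eq hf, exp_le_exp]
    have : (-divf (k := k) f) ≤ polar f := le_sup_left
    exact this P

/-- a divisor `W` bounding `d/dX` -/
def Bd (W : Pl k K →₀ ℤ) : Prop :=
  ∀ (P : Pl k K) (u : K), P.v u ≤ 1 → P.v (del k K u) ≤ exp (W P)

variable (k K) in
theorem exists_Bd : ∃ W : Pl k K →₀ ℤ, Bd W := by
  use_charts k, K
  haveI : Module.Finite (Polynomial k) (integralClosure (Polynomial k) K) :=
    IsIntegralClosure.finite (Polynomial k) (RatFunc k) K _
  haveI : Module.Finite (Rinf k) (integralClosure (Rinf k) K) :=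
    IsIntegralClosure.finite (Rinf k) (RatFunc k) K _
  obtain ⟨G₀, hG₀⟩ := exists_gens (A := integralClosure (Polynomial k) K) (S := Polynomial k)
    (del k K)
  obtain ⟨G₁, hG₁⟩ := exists_gens (A := integralClosure (Rinf k) K) (S := Rinf k)
    (del k K)
  let W₀ : Pl k K →₀ ℤ := ∑ g ∈ G₀, polar (del k K g)
  let W₁ : Pl k K →₀ ℤ := ∑ g ∈ G₁, polar (del k K g)
  have hW₀ : 0 ≤ W₀ := Finset.sum_nonneg fun _ _ => polar_nonneg _
  have hW₁ : 0 ≤ W₁ := Finset.sum_nonneg fun _ _ => polar_nonneg _
  have hg₀ : ∀ g ∈ G₀, polar (del k K g) ≤ W₀ + W₁ := fun g hg =>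
    (Finset.single_le_sum (f := fun g => polar (k := k) (del k K g))
      (fun _ _ => polar_nonneg _) hg).trans (le_add_of_nonneg_right hW₁)
  have hg₁ : ∀ g ∈ G₁, polar (del k K g) ≤ W₀ + W₁ := fun g hg =>
    (Finset.single_le_sum (f := fun g => polar (k := k) (del k K g))
      (fun _ _ => polar_nonneg _) hg).trans (le_add_of_nonneg_left hW₀)
  refine ⟨W₀ + W₁, ?_⟩
  intro P u hu
  rcases le_or_gt (P.v (xK k K)) 1 with h | h
  · obtain ⟨w, rfl⟩ := exists_ofH₀ (A₀ := integralClosure (Polynomial k) K) P h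
    refine hG₀ w _ ?_ ?_ ?_ u hu
    · exact add_nonneg (hW₀ (ofH w)) (hW₁ (ofH w))
    · intro s
      rw [IsScalarTower.algebraMap_apply k[X] (RatFunc k) K, algebraMap_poly, del_poly]
      exact v_aeval_le (ofH w) h _
    · intro g hg
      exact (v_le_polar (del k K g) (ofH w : Pl k K)).trans (exp_le_exp.mpr (hg₀ g hg (ofH w)))
  · obtain ⟨w, rfl⟩ := exists_ofH₁ (A₁ := integralClosure (Rinf k) K) P h
    refine hG₁ w _ ?_ ?_ ?_ u hu
    · exact add_nonneg (hW₀ (ofH w)) (hW₁ (ofH w))
    · intro s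
      exact del_Rinf (ofH w) h (s : RatFunc k) s.2
    · intro g hg
      exact (v_le_polar (del k K g) (ofH w : Pl k K)).trans (exp_le_exp.mpr (hg₁ g hg (ofH w)))

variable (p : ℕ) [hp : Fact p.Prime] [CharP K p] [CharP k p] [PerfectField k]

omit [CharP k p] [PerfectField k] in
theorem divf_pow {f : K} (hf : f ≠ 0) (n : ℕ) : divf (k := k) (f ^ n) = n • divf f := by
  induction n with
  | zero => rw [pow_zero, divf_one, zero_smul]
  | succ n ih => rw [pow_succ, divf_mul (pow_ne_zero _ hf) hf, ih, succ_nsmul]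

/-- logarithmic derivatives of functions with divisor divisible by `p` -/
noncomputable def dlogs : AddSubgroup K where
  carrier := {a | ∃ h : K, h ≠ 0 ∧ (∃ D : Pl k K →₀ ℤ, divf (k := k) h = p • D) ∧
    a = del k K h / h}
  add_mem' := by
    rintro _ _ ⟨h, h0, ⟨D, hD⟩, rfl⟩ ⟨g, g0, ⟨E, hE⟩, rfl⟩
    refine ⟨h * g, mul_ne_zero h0 g0, ⟨D + E, by rw [divf_mul h0 g0, hD, hE, smul_add]⟩, ?_⟩
    rw [Derivation.leibniz, smul_eq_mul, smul_eq_mul]
    field_simp
    ring
  zero_mem' := ⟨1, one_ne_zero, ⟨0, by rw [divf_one, smul_zero]⟩, by simp⟩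
  neg_mem' := by
    rintro _ ⟨h, h0, ⟨D, hD⟩, rfl⟩
    refine ⟨h⁻¹, inv_ne_zero h0, ⟨-D, by rw [divf_inv h0, hD, smul_neg]⟩, ?_⟩
    rw [Derivation.leibniz_inv, smul_eq_mul]
    field_simp

omit [CharP k p] [PerfectField k] in
theorem mem_dlogs {a : K} : a ∈ dlogs (k := k) p ↔ ∃ h : K, h ≠ 0 ∧
    (∃ D : Pl k K →₀ ℤ, divf (k := k) h = p • D) ∧ a = del k K h / h := Iff.rfl

omit [CharP k p] [PerfectField k] in
theorem dlogs_le {W : Pl k K →₀ ℤ} (hW : Bd W) {a : K} (ha : a ∈ dlogs (k := k) p) :
    a ∈ LD W := by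
  obtain ⟨h, h0, ⟨D, hD⟩, rfl⟩ := ha
  rw [mem_LD]
  intro P
  obtain ⟨t, ht0, ht⟩ := exists_v_eq P (D P)
  have hu : P.v (t ^ p * h) = 1 := by
    rw [map_mul, map_pow, ht, v_eq h0, hD, ← exp_nsmul, ← exp_add]
    simp
  have h1 : del k K h / h = del k K (t ^ p * h) / (t ^ p * h) := by
    rw [del_pow_mul]
    have : t ^ p ≠ 0 := pow_ne_zero _ ht0
    field_simp
  rw [h1, map_div₀, hu, div_one]
  exact hW P _ hu.le

/-- **`Pic[p]` is finite** -/
theorem card_pic_le {W : Pl k K →₀ ℤ} (hW : Bd W) :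
    Finite {z : Pic k K // p • z = 0} ∧ Nat.card {z : Pic k K // p • z = 0} ≤ p ^ ell W := by
  classical
  have hspan := exists_rep (k := k) (K := K) p
  have hx := del_xK k K
  haveI := LD_finite W
  -- the operator
  let Φ : K → K := fun a => - (del k K)^[p - 1] a
  have h1 := card_le (k := k) p Φ
    (fun a b => by simp only [Φ]; rw [iter_add, neg_add])
    (fun c a => by simp only [Φ]; rw [iter_smul, smul_neg])
    (dlogs (k := k) p) (by
      rintro _ ⟨h, h0, _, rfl⟩
      simp only [Φ]
      rw [jacobson p (del k K) hx hspan h0, neg_neg])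
    (LD W) (fun a ha => dlogs_le p hW ha)
  obtain ⟨hfin, hcard⟩ := h1
  have hex : ∀ z : {z : Pic k K // p • z = 0}, ∃ (h : K) (D : Pl k K →₀ ℤ), h ≠ 0 ∧
      divf (k := k) h = p • D ∧ cls D = (z : Pic k K) := by
    rintro ⟨z, hz⟩
    obtain ⟨D, rfl⟩ := cls_surjective z
    rw [← map_nsmul, cls_eq_zero_iff] at hz
    obtain ⟨f, hf, hfD⟩ := hz
    exact ⟨f, D, hf, hfD, rfl⟩
  choose h D h0 hD hcls using hex
  let φ : {z : Pic k K // p • z = 0} → dlogs (k := k) (K := K) p :=
    fun z => ⟨del k K (h z) / h z, ⟨h z, h0 z, ⟨D z, hD z⟩, rfl⟩⟩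
  have hφ : Function.Injective φ := by
    intro z w hzw
    have h2 : del k K (h z) / h z = del k K (h w) / h w := congrArg Subtype.val hzw
    have h3 : del k K (h z / h w) = 0 := by
      have hz0 := h0 z
      have hw0 := h0 w
      rw [Derivation.leibniz_div, smul_eq_mul, smul_eq_mul, smul_eq_mul]
      rw [div_eq_div_iff hz0 hw0] at h2
      rw [mul_comm (h w), h2]
      ring
    obtain ⟨f, hf⟩ := exists_pow_of_del_eq_zero p (del k K) hx hspan h3
    have hf0 : f ≠ 0 := by
      rintro rfl
      rw [zero_pow hp.out.ne_zero, div_eq_zero_iff] at hf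
      exact hf.elim (h0 z) (h0 w)
    have h4 : divf (k := k) (h z) = p • divf f + divf (h w) := by
      rw [← divf_pow hf0, ← divf_mul (pow_ne_zero _ hf0) (h0 w), ← hf, div_mul_cancel₀ _ (h0 w)]
    rw [hD z, hD w, ← smul_add] at h4
    have h5 : D z = D w + divf (k := k) f := by
      rw [add_comm]
      ext P
      have h6 := DFunLike.congr_fun h4 P
      simp only [Finsupp.smul_apply, nsmul_eq_mul] at h6
      exact mul_left_cancel₀ (by exact_mod_cast hp.out.ne_zero) h6
    apply Subtype.ext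
    rw [← hcls z, ← hcls w]
    exact cls_eq_iff.mpr ⟨f, hf0, h5⟩
  exact ⟨Finite.of_injective φ hφ, (Nat.card_le_card_of_injective φ hφ).trans hcard⟩

end Global

end Crest.Agent.R013.CntP4_127
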