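import Mathlib
import Crest.Agent.R013.PicD_398
import Crest.Agent.R013.RR12_948

/-!
# R013 / CntP5: a function field over a finite field has many places (helper127)

For all `c`, `r` there is `m ≥ 1` with `c * m ^ r < m * #{P | deg P = m}`.
-/

set_option autoImplicit false
set_option linter.all false

namespace Crest.Agent.R013.CntP5_127

open Finset WithZero Module
open Crest.Agent.R013.RR7_948 Crest.Agent.R013.RR8_948 Crest.Agent.R013.RR9_948
open Crest.Agent.R013.RR11_948 Crest.Agent.R013.RR12_948 Crest.Agent.R013.PicD_398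

section Abstract

/-- finite Euler product inequality -/
theorem euler_le {α : Type*} [DecidableEq α] (S : Finset α) (t : α → ℝ) (ht0 : ∀ a, 0 ≤ t a)
    (ht1 : ∀ a ∈ S, t a ≤ 1 / 2) (F : Finset (α →₀ ℤ)) (hF0 : ∀ D ∈ F, 0 ≤ D)
    (hFS : ∀ D ∈ F, D.support ⊆ S) :
    ∑ D ∈ F, ∏ a ∈ S, t a ^ (D a).toNat ≤ Real.exp (2 * ∑ a ∈ S, t a) := by
  classical
  -- a bound for the multiplicities
  obtain ⟨X, hX⟩ : ∃ X : ℕ, ∀ D ∈ F, ∀ a : α, (D a).toNat < X := by
    refine ⟨∑ D ∈ F, ∑ a ∈ S, (D a).toNat + 1, ?_⟩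
    intro D hD a
    rw [Nat.lt_succ_iff]
    by_cases ha : a ∈ S
    · calc (D a).toNat ≤ ∑ a ∈ S, (D a).toNat :=
            Finset.single_le_sum (f := fun a => (D a).toNat) (fun _ _ => Nat.zero_le _) ha
        _ ≤ _ := Finset.single_le_sum (f := fun D : α →₀ ℤ => ∑ a ∈ S, (D a).toNat)
            (fun _ _ => Nat.zero_le _) hD
    · have : D a = 0 := by
        by_contra h0
        exact ha (hFS D hD (Finsupp.mem_support_iff.mpr h0))
      rw [this]
      exact Nat.zero_le _
  have h1 : ∑ D ∈ F, ∏ a ∈ S, t a ^ (D a).toNat ≤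
      ∑ f ∈ Fintype.piFinset (fun _ : S => range X), ∏ a : S, t a ^ f a := by
    have h2 : ∀ D : α →₀ ℤ, ∏ a ∈ S, t a ^ (D a).toNat
        = ∏ a : S, t a ^ ((fun b : S => (D b).toNat) a) := by
      intro D
      exact (Finset.prod_coe_sort S (fun a => t a ^ (D a).toNat)).symm
    have hinj : Set.InjOn (fun (D : α →₀ ℤ) (b : S) => (D b).toNat) (F : Set (α →₀ ℤ)) := by
      intro D hD E hE h
      ext a
      by_cases ha : a ∈ S
      · have h3 := congrFun h ⟨a, ha⟩
        simp only at h3
        have h4 := hF0 D hD a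
        have h5 := hF0 E hE a
        rw [Finsupp.zero_apply] at h4 h5
        omega
      · have h3 : D a = 0 := by
          by_contra h0
          exact ha (hFS D hD (Finsupp.mem_support_iff.mpr h0))
        have h4 : E a = 0 := by
          by_contra h0
          exact ha (hFS E hE (Finsupp.mem_support_iff.mpr h0))
        rw [h3, h4]
    calc ∑ D ∈ F, ∏ a ∈ S, t a ^ (D a).toNat
        = ∑ f ∈ F.image (fun (D : α →₀ ℤ) (b : S) => (D b).toNat), ∏ a : S, t a ^ f a := by
          rw [Finset.sum_image hinj]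
          exact Finset.sum_congr rfl fun D _ => h2 D
      _ ≤ _ := by
          refine Finset.sum_le_sum_of_subset_of_nonneg ?_ ?_
          · intro f hf
            obtain ⟨D, hD, rfl⟩ := Finset.mem_image.mp hf
            rw [Fintype.mem_piFinset]
            intro b
            exact mem_range.mpr (hX D hD b)
          · intro f _ _
            exact Finset.prod_nonneg fun a _ => pow_nonneg (ht0 a) _
  refine h1.trans ?_
  rw [← Finset.prod_univ_sum (fun _ : S => range X) (fun (a : S) (j : ℕ) => t a ^ j)]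
  rw [Finset.prod_coe_sort S (fun a => ∑ j ∈ range X, t a ^ j), Finset.mul_sum, Real.exp_sum]
  refine Finset.prod_le_prod (fun a _ => Finset.sum_nonneg fun j _ => pow_nonneg (ht0 a) _) ?_
  intro a ha
  have h0 := ht0 a
  have h12 := ht1 a ha
  have h3 : ∑ j ∈ range X, t a ^ j ≤ 1 + 2 * t a := by
    have h4 : (∑ j ∈ range X, t a ^ j) * (1 - t a) ≤ 1 := by
      rw [geom_sum_mul_neg]
      have := pow_nonneg h0 X
      linarith
    have h5 : 1 ≤ (1 + 2 * t a) * (1 - t a) := by nlinarith
    have h6 : (0 : ℝ) < 1 - t a := by linarith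
    exact le_of_mul_le_mul_right (h4.trans h5) h6
  refine h3.trans ?_
  have := Real.add_one_le_exp (2 * t a)
  linarith

end Abstract

section Count

variable {k : Type*} [Field k] {K : Type*} [Field K] [Algebra k K] [Algebra (RatFunc k) K]
  [IsScalarTower k (RatFunc k) K] [FiniteDimensional (RatFunc k) K]
  [Algebra.IsSeparable (RatFunc k) K]

/-- lower bound for the number of effective divisors in a class -/
theorem card_eff_ge [Finite k] (hc : algebraicClosure k K = ⊥) (D : Pl k K →₀ ℤ)
    (hfin : {E : Pl k K →₀ ℤ | 0 ≤ E ∧ degD E = degD D}.Finite) :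
    Nat.card k ^ ell D ≤ 1 + Nat.card k * hfin.toFinset.card := by
  classical
  haveI := LD_finite D
  haveI : Finite (LD D) := Module.finite_of_finite k
  haveI := Fintype.ofFinite (LD D)
  haveI := Fintype.ofFinite k
  have hcard : Nat.card k ^ ell D = (Finset.univ : Finset (LD D)).card := by
    rw [Finset.card_univ, ← Nat.card_eq_fintype_card,
      Module.natCard_eq_pow_finrank (K := k) (V := LD D)]
    rfl
  rw [hcard]
  have h1 : (Finset.univ : Finset (LD D)).card = 1 + (Finset.univ.erase (0 : LD D)).card := by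
    rw [Finset.card_erase_of_mem (Finset.mem_univ _)]
    have : 0 < (Finset.univ : Finset (LD D)).card := Finset.card_pos.mpr ⟨0, Finset.mem_univ _⟩
    omega
  rw [h1]
  refine Nat.add_le_add_left ?_ 1
  refine Finset.card_le_mul_card_image_of_maps_to
    (f := fun f : LD D => D + divf (k := k) (f : K)) ?_ (Nat.card k) ?_
  · intro f hf
    have hf0 : (f : K) ≠ 0 := by
      intro h
      exact (Finset.ne_of_mem_erase hf) (Subtype.ext h)
    rw [Set.Finite.mem_toFinset]
    refine ⟨(mem_LD_iff hf0).mp f.2, ?_⟩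
    rw [degD_add, degD_divf hf0, add_zero]
  · intro E hE
    by_cases hne : (Finset.filter (fun f : LD D => D + divf (k := k) (f : K) = E)
        (Finset.univ.erase (0 : LD D))).Nonempty
    · obtain ⟨g, hg⟩ := hne
      rw [Finset.mem_filter] at hg
      have hg0 : (g : K) ≠ 0 := by
        intro h
        exact (Finset.ne_of_mem_erase hg.1) (Subtype.ext h)
      have h2 : ∀ f ∈ (Finset.univ.erase (0 : LD D)).filter
          (fun f : LD D => D + divf (k := k) (f : K) = E), ∃ c : k, c • g = f := by
        intro f hf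
        rw [Finset.mem_filter] at hf
        have hf0 : (f : K) ≠ 0 := by
          intro h
          exact (Finset.ne_of_mem_erase hf.1) (Subtype.ext h)
        have h3 : divf (k := k) ((f : K) * (g : K)⁻¹) = 0 := by
          rw [divf_mul hf0 (inv_ne_zero hg0), divf_inv hg0]
          have h4 : D + divf (k := k) (f : K) = D + divf (k := k) (g : K) := by
            rw [hf.2, hg.2]
          rw [add_left_cancel h4, add_neg_cancel]
        have h5 : (f : K) * (g : K)⁻¹ ∈ LD (0 : Pl k K →₀ ℤ) := by
          rw [mem_LD_iff (mul_ne_zero hf0 (inv_ne_zero hg0)), h3, add_zero]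
        rw [LD_zero hc, Submodule.mem_one] at h5
        obtain ⟨c, hc'⟩ := h5
        refine ⟨c, Subtype.ext ?_⟩
        show c • (g : K) = f
        rw [Algebra.smul_def, hc', mul_assoc, inv_mul_cancel₀ hg0, mul_one]
      calc _ ≤ ((Finset.univ : Finset k).image (fun c : k => c • g)).card := by
            refine Finset.card_le_card ?_
            intro f hf
            obtain ⟨c, hcf⟩ := h2 f hf
            exact Finset.mem_image.mpr ⟨c, Finset.mem_univ _, hcf⟩
        _ ≤ (Finset.univ : Finset k).card := Finset.card_image_le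
        _ = Nat.card k := by rw [Finset.card_univ, Nat.card_eq_fintype_card]
    · rw [Finset.not_nonempty_iff_eq_empty] at hne
      rw [hne]
      simp

variable [Finite k] (hc : algebraicClosure k K = ⊥)
  (hfin : ∀ n : ℕ, {D : Pl k K →₀ ℤ | 0 ≤ D ∧ degD D = n}.Finite)

include hfin in
omit [Finite k] in
theorem finite_deg (m : ℕ) : {P : Pl k K | degP P = m}.Finite := by
  have h := hfin m
  have hinj : Function.Injective (fun P : Pl k K => Finsupp.single P (1 : ℤ)) := by
    intro P Q hPQ
    exact (Finsupp.single_left_inj one_ne_zero).mp hPQ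
  refine (h.preimage hinj.injOn).subset ?_
  intro P hP
  refine ⟨?_, ?_⟩
  · intro Q
    classical
    rw [Finsupp.single_apply, Finsupp.zero_apply]
    split_ifs <;> norm_num
  · show degD (Finsupp.single P 1) = m
    rw [degD_single, one_mul]
    exact_mod_cast hP

include hc hfin in
/-- **many places** -/
theorem many_places (c r : ℕ) :
    ∃ m : ℕ, 1 ≤ m ∧ c * m ^ r < m * Nat.card {P : Pl k K // degP P = m} := by
  classical
  by_contra hcon
  push Not at hcon
  set q : ℕ := Nat.card k with hq
  have hq2 : 2 ≤ q := Finite.one_lt_card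
  have hqR : (2 : ℝ) ≤ q := by exact_mod_cast hq2
  have hq0 : (0 : ℝ) < q := by linarith
  set t : Pl k K → ℝ := fun P => ((q : ℝ)⁻¹) ^ degP P with ht
  have ht0 : ∀ P, 0 ≤ t P := fun P => pow_nonneg (inv_nonneg.mpr hq0.le) _
  have hqi : (q : ℝ)⁻¹ ≤ 1 / 2 := by
    rw [one_div]; exact inv_anti₀ (by norm_num) hqR
  have hqi0 : (0 : ℝ) ≤ (q : ℝ)⁻¹ := inv_nonneg.mpr hq0.le
  have ht1 : ∀ P, t P ≤ 1 / 2 := by
    intro P
    have hd := degP_pos P
    calc t P = ((q : ℝ)⁻¹) ^ degP P := rfl
      _ ≤ ((q : ℝ)⁻¹) ^ 1 := pow_le_pow_of_le_one hqi0 (by linarith) hd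
      _ ≤ 1 / 2 := by rw [pow_one]; exact hqi
  -- the series
  have hsum : Summable (fun m : ℕ => (c : ℝ) * ((m : ℝ) ^ r * (1 / 2) ^ m)) := by
    have := summable_pow_mul_geometric_of_norm_lt_one (R := ℝ) r (r := 1 / 2) (by norm_num)
    exact this.mul_left _
  set C : ℝ := ∑' m : ℕ, (c : ℝ) * ((m : ℝ) ^ r * (1 / 2) ^ m) with hC
  have hSbound : ∀ S : Finset (Pl k K), ∑ P ∈ S, t P ≤ C := by
    intro S
    obtain ⟨M, hM⟩ : ∃ M : ℕ, ∀ P ∈ S, degP P ∈ range M := by
      refine ⟨∑ P ∈ S, degP P + 1, fun P hP => ?_⟩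
      rw [mem_range, Nat.lt_succ_iff]
      exact Finset.single_le_sum (f := fun P : Pl k K => degP P) (fun _ _ => Nat.zero_le _) hP
    rw [← Finset.sum_fiberwise_of_maps_to (g := fun P => degP P) hM]
    calc ∑ m ∈ range M, ∑ P ∈ S with degP P = m, t P
        ≤ ∑ m ∈ range M, (c : ℝ) * ((m : ℝ) ^ r * (1 / 2) ^ m) := by
          refine Finset.sum_le_sum fun m _ => ?_
          have h1 : ∑ P ∈ S with degP P = m, t P = (#{P ∈ S | degP P = m} : ℝ) * ((q : ℝ)⁻¹) ^ m := by
            rw [← nsmul_eq_mul, ← Finset.sum_const]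
            refine Finset.sum_congr rfl fun P hP => ?_
            rw [Finset.mem_filter] at hP
            simp only [ht]
            rw [hP.2]
          rw [h1]
          have hfm := finite_deg hfin m
          have h2 : #{P ∈ S | degP P = m} ≤ Nat.card {P : Pl k K // degP P = m} := by
            haveI : Finite {P : Pl k K // degP P = m} := hfm
            rw [← Nat.card_eq_finsetCard]
            refine Nat.card_le_card_of_injective
              (fun P : {P // P ∈ S.filter (fun P => degP P = m)} =>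
                (⟨P.1, (Finset.mem_filter.mp P.2).2⟩ : {P : Pl k K // degP P = m})) ?_
            intro P Q h
            exact Subtype.ext (congrArg (fun x => x.1) h)
          rcases Nat.eq_zero_or_pos m with rfl | hm
          · -- no places of degree zero
            have h3 : #{P ∈ S | degP P = 0} = 0 := by
              rw [Finset.card_eq_zero, Finset.filter_eq_empty_iff]
              intro P _ h0
              have := degP_pos P
              omega
            rw [h3]
            simp only [Nat.cast_zero, zero_mul]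
            positivity
          · have h3 := hcon m hm
            have h4 : #{P ∈ S | degP P = m} ≤ c * m ^ r := by
              calc _ ≤ Nat.card {P : Pl k K // degP P = m} := h2
                _ ≤ m * Nat.card {P : Pl k K // degP P = m} := Nat.le_mul_of_pos_left _ hm
                _ ≤ _ := h3
            have h5 : (#{P ∈ S | degP P = m} : ℝ) ≤ c * (m : ℝ) ^ r := by exact_mod_cast h4
            have h6 : ((q : ℝ)⁻¹) ^ m ≤ (1 / 2) ^ m := pow_le_pow_left₀ hqi0 hqi m
            rw [← mul_assoc]
            exact mul_le_mul h5 h6 (pow_nonneg hqi0 _) (by positivity)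
      _ ≤ C := hsum.sum_le_tsum _ (fun m _ => by positivity)
  -- upper bound for sums over effective divisors
  have hupper : ∀ F : Finset (Pl k K →₀ ℤ), (∀ D ∈ F, 0 ≤ D) →
      ∑ D ∈ F, ((q : ℝ)⁻¹) ^ (degD D).toNat ≤ Real.exp (2 * C) := by
    intro F hF
    let S : Finset (Pl k K) := F.biUnion fun D => D.support
    have hS : ∀ D ∈ F, D.support ⊆ S := fun D hD => Finset.subset_biUnion_of_mem _ hD
    have h1 := euler_le S t ht0 (fun P _ => ht1 P) F hF hS
    have h2 : ∀ D ∈ F, ((q : ℝ)⁻¹) ^ (degD D).toNat = ∏ P ∈ S, t P ^ (D P).toNat := by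
      intro D hD
      simp only [ht, ← pow_mul]
      rw [Finset.prod_pow_eq_pow_sum]
      congr 1
      have h3 : degD D = ∑ P ∈ S, D P * (degP P : ℤ) := by
        unfold degD
        exact Finsupp.sum_of_support_subset _ (hS D hD) _ (fun P _ => by simp)
      have h4 : (degD D) = ((∑ P ∈ S, degP P * (D P).toNat : ℕ) : ℤ) := by
        rw [h3]
        push_cast
        refine Finset.sum_congr rfl fun P _ => ?_
        have := hF D hD P
        rw [Finsupp.zero_apply] at this
        rw [Int.toNat_of_nonneg this, mul_comm]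
      rw [h4]
      exact Int.toNat_natCast _
    rw [Finset.sum_congr rfl h2]
    refine h1.trans (Real.exp_le_exp.mpr ?_)
    have := hSbound S
    linarith
  -- lower bound
  obtain ⟨P0, -⟩ := exists_notMem (∅ : Finset (Pl k K))
  set d := degP P0 with hd
  have hd1 : 1 ≤ d := degP_pos P0
  set g := gen k K with hg
  have hlow : ∀ j : ℕ, g + 1 ≤ j →
      (q : ℝ)⁻¹ ^ (g + 1) ≤ ∑ D ∈ (hfin (j * d)).toFinset, ((q : ℝ)⁻¹) ^ (degD D).toNat := by
    intro j hj
    have hdeg : degD (Finsupp.single P0 (j : ℤ)) = (j * d : ℕ) := by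
      rw [degD_single]; push_cast; rfl
    have hfin' : {E : Pl k K →₀ ℤ | 0 ≤ E ∧ degD E = degD (Finsupp.single P0 (j : ℤ))}.Finite := by
      rw [hdeg]; exact hfin _
    have h1 := card_eff_ge hc (Finsupp.single P0 (j : ℤ)) hfin'
    have h2 := ell_ge hc (Finsupp.single P0 (j : ℤ))
    rw [hdeg] at h2
    have h3 : j * d + 1 - g ≤ ell (Finsupp.single P0 (j : ℤ)) := by
      rw [← hg] at h2
      have : ((j * d : ℕ) : ℤ) + 1 - (g : ℤ) ≤ (ell (Finsupp.single P0 (j : ℤ)) : ℤ) := h2
      omega
    have hjd : j ≤ j * d := Nat.le_mul_of_pos_right _ hd1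
    have hcards : hfin'.toFinset = (hfin (j * d)).toFinset := by
      ext E
      rw [Set.Finite.mem_toFinset, Set.Finite.mem_toFinset]
      simp only [Set.mem_setOf_eq, hdeg]
    rw [hcards] at h1
    set a := (hfin (j * d)).toFinset.card with ha
    have h4 : ∑ D ∈ (hfin (j * d)).toFinset, ((q : ℝ)⁻¹) ^ (degD D).toNat
        = a * ((q : ℝ)⁻¹) ^ (j * d) := by
      rw [ha, ← nsmul_eq_mul, ← Finset.sum_const]
      refine Finset.sum_congr rfl fun D hD => ?_
      rw [Set.Finite.mem_toFinset] at hD
      have := hD.2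
      rw [this]
      congr 1
    rw [h4]
    -- `q ^ (jd + 1 - g) ≤ 1 + q a`
    have h5 : q ^ (j * d + 1 - g) ≤ 1 + q * a :=
      (Nat.pow_le_pow_right (by omega) h3).trans h1
    have h6 : q ^ (j * d - g - 1) ≤ a := by
      have h7 : q ^ (j * d + 1 - g) = q * (q * q ^ (j * d - g - 1)) := by
        rw [← pow_succ', ← pow_succ']
        congr 1
        omega
      rw [h7] at h5
      have h8 : 1 ≤ q ^ (j * d - g - 1) := Nat.one_le_pow _ _ (by omega)
      by_contra hlt
      push Not at hlt
      have h9 : a + 1 ≤ q ^ (j * d - g - 1) := hlt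
      have h10 : q * (q * (a + 1)) ≤ 1 + q * a := by
        refine le_trans ?_ h5
        exact Nat.mul_le_mul_left _ (Nat.mul_le_mul_left _ h9)
      have h11 : 2 * (q * (a + 1)) ≤ q * (q * (a + 1)) := Nat.mul_le_mul_right _ hq2
      have h12 : q * (a + 1) = q * a + q := by ring
      omega
    have h7 : (q : ℝ) ^ (j * d - g - 1) ≤ a := by exact_mod_cast h6
    have h8 : (q : ℝ)⁻¹ ^ (g + 1) = (q : ℝ) ^ (j * d - g - 1) * (q : ℝ)⁻¹ ^ (j * d) := by
      have h9 : j * d = (j * d - g - 1) + (g + 1) := by omega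
      conv_rhs => rw [h9]
      rw [show j * d - g - 1 + (g + 1) - g - 1 = j * d - g - 1 by omega,
        pow_add ((q : ℝ)⁻¹) (j * d - g - 1) (g + 1), ← mul_assoc,
        ← mul_pow, mul_inv_cancel₀ hq0.ne', one_pow, one_mul]
    rw [h8]
    exact mul_le_mul_of_nonneg_right h7 (pow_nonneg hqi0 _)
  -- contradiction
  have hall : ∀ J : ℕ, (J : ℝ) * (q : ℝ)⁻¹ ^ (g + 1) ≤ Real.exp (2 * C) := by
    intro J
    let F : Finset (Pl k K →₀ ℤ) := (range J).biUnion fun i => (hfin ((g + 1 + i) * d)).toFinset
    have hdisj : ((range J : Finset ℕ) : Set ℕ).PairwiseDisjoint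
        (fun i => (hfin ((g + 1 + i) * d)).toFinset) := by
      intro i _ i' _ hii
      rw [Function.onFun, Finset.disjoint_left]
      intro D hD hD'
      rw [Set.Finite.mem_toFinset] at hD hD'
      have h1 := hD.2.symm.trans hD'.2
      have h2 : (g + 1 + i) * d = (g + 1 + i') * d := by exact_mod_cast h1
      have h3 := Nat.eq_of_mul_eq_mul_right (by omega) h2
      exact hii (by omega)
    have h1 := hupper F (by
      intro D hD
      obtain ⟨i, _, hD⟩ := Finset.mem_biUnion.mp hD
      rw [Set.Finite.mem_toFinset] at hD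
      exact hD.1)
    rw [Finset.sum_biUnion hdisj] at h1
    refine le_trans ?_ h1
    have h2 : (J : ℝ) * (q : ℝ)⁻¹ ^ (g + 1) = ∑ i ∈ range J, (q : ℝ)⁻¹ ^ (g + 1) := by
      rw [Finset.sum_const, card_range, nsmul_eq_mul]
    rw [h2]
    exact Finset.sum_le_sum fun i _ => hlow (g + 1 + i) (by omega)
  have hpos : (0 : ℝ) < (q : ℝ)⁻¹ ^ (g + 1) := pow_pos (inv_pos.mpr hq0) _
  obtain ⟨J, hJ⟩ := exists_nat_gt (Real.exp (2 * C) / (q : ℝ)⁻¹ ^ (g + 1))
  have h1 := hall J
  rw [div_lt_iff₀ hpos] at hJ
  linarith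

end Count

end Crest.Agent.R013.CntP5_127
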