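import Mathlib
import Crest.Agent.R013.CntP4_127
import Crest.Agent.R013.CntP5_127
import Crest.Agent.R013.CntA1_560

/-!
# R013 / CntP6: the bound for `d/dX` in constant extensions; abstract towers (helper127)
-/

set_option autoImplicit false
set_option linter.all false

namespace Crest.Agent.R013.CntP6_127

open Finset WithZero Module
open Crest.Agent.R013.RR7_948 Crest.Agent.R013.RR8_948 Crest.Agent.R013.RR9_948
open Crest.Agent.R013.RR11_948 Crest.Agent.R013.RR12_948 Crest.Agent.R013.RR14_948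
open Crest.Agent.R013.RR15_948
open Crest.Agent.R013.PicD_398 Crest.Agent.R013.CntP1_127 Crest.Agent.R013.CntP4_127

section Ext

variable {k : Type*} [Field k] {K : Type*} [Field K] [Algebra k K] [Algebra (RatFunc k) K]
  [IsScalarTower k (RatFunc k) K] [FiniteDimensional (RatFunc k) K]
  [Algebra.IsSeparable (RatFunc k) K]
  {k' : Type*} [Field k'] {K' : Type*} [Field K'] [Algebra k' K'] [Algebra (RatFunc k') K']
  [IsScalarTower k' (RatFunc k') K'] [FiniteDimensional (RatFunc k') K']
  [Algebra.IsSeparable (RatFunc k') K']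
  [Algebra k k'] [Algebra k K'] [IsScalarTower k k' K'] [Algebra K K'] [IsScalarTower k K K']

/-- derivations commute with constant extensions -/
theorem del_compat (hX : xK k' K' = algebraMap K K' (xK k K)) (f : K) :
    del k' K' (algebraMap K K' f) = algebraMap K K' (del k K f) := by
  -- restrict `del k' K'` to `K`
  let d : Derivation k K K' :=
    { toFun := fun f => del k' K' (algebraMap K K' f)
      map_add' := fun a b => by rw [map_add, map_add]
      map_smul' := fun c a => by
        rw [Algebra.smul_def, map_mul, ← IsScalarTower.algebraMap_apply k K K',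
          IsScalarTower.algebraMap_apply k k' K', Derivation.leibniz, Derivation.map_algebraMap,
          smul_zero, add_zero, RingHom.id_apply, smul_eq_mul, ← IsScalarTower.algebraMap_apply,
          Algebra.smul_def]
      map_one_eq_zero' := by
        show del k' K' (algebraMap K K' 1) = 0
        rw [map_one, Derivation.map_one_eq_zero]
      leibniz' := fun a b => by
        show del k' K' (algebraMap K K' (a * b)) = a • del k' K' (algebraMap K K' b)
          + b • del k' K' (algebraMap K K' a)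
        rw [map_mul, Derivation.leibniz, Algebra.smul_def a, Algebra.smul_def b, smul_eq_mul,
          smul_eq_mul] }
  have h1 : ∀ f, d f = del k K f • d (xK k K) := by
    intro f
    have h2 := D_eq k K f
    have h3 := congrArg d.liftKaehlerDifferential h2
    rw [map_smul, Derivation.liftKaehlerDifferential_comp_D,
      Derivation.liftKaehlerDifferential_comp_D] at h3
    exact h3
  have h4 : d (xK k K) = 1 := by
    show del k' K' (algebraMap K K' (xK k K)) = 1
    rw [← hX, del_xK]
  have h5 := h1 f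
  rw [h4, Algebra.smul_def, mul_one] at h5
  exact h5

/-- **the bound for `d/dX` is inherited by constant extensions** -/
theorem Bd_of_res (hX : xK k' K' = algebraMap K K' (xK k K)) (res : Pl k' K' → Pl k K)
    (hres : ∀ (Q : Pl k' K') (f : K), Q.v (algebraMap K K' f) = (res Q).v f)
    (hfib : ∀ P : Pl k K, {Q | res Q = P}.Finite) {ι : Type*} [Fintype ι] (b : ι → k')
    (hcoord : ∀ x : K', ∃ a : ι → K, x = ∑ i, algebraMap k' K' (b i) * algebraMap K K' (a i) ∧
      ∀ P : Pl k K, (∀ Q, res Q = P → Q.v x ≤ 1) → ∀ i, P.v (a i) ≤ 1)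
    {W : Pl k K →₀ ℤ} {W' : Pl k' K' →₀ ℤ} (hW : Bd W) (hW' : ∀ Q, W' Q = W (res Q)) : Bd W' := by
  classical
  intro Q u hu
  set P := res Q with hP
  -- elements integral over `P`
  have key : ∀ x : K', (∀ Q', res Q' = P → Q'.v x ≤ 1) → Q.v (del k' K' x) ≤ exp (W' Q) := by
    intro x hx
    obtain ⟨a, hxa, ha⟩ := hcoord x
    have ha' := ha P hx
    rw [hxa, map_sum]
    refine Valuation.map_sum_le _ fun i _ => ?_
    rw [Derivation.leibniz, Derivation.map_algebraMap, smul_zero, add_zero, smul_eq_mul,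
      del_compat hX, map_mul, hres, hW']
    have hb : Q.v (algebraMap k' K' (b i)) ≤ 1 := by
      by_cases h0 : b i = 0
      · rw [h0]; simp
      · rw [Q.const _ h0]
    calc _ ≤ 1 * exp (W (res Q)) := mul_le_mul' hb (hW _ _ (ha' i))
      _ = _ := one_mul _
  -- a denominator
  obtain ⟨t, ht0, ht⟩ := exists_prescribed (hfib P).toFinset
    (fun Q' => if Q' = Q then 0 else - max 0 (log (Q'.v u)))
  have hQt : Q.v t = 1 := by
    rw [ht Q ((hfib P).mem_toFinset.mpr hP.symm), if_pos rfl, exp_zero]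
  have h1 : ∀ Q', res Q' = P → Q'.v t ≤ 1 := by
    intro Q' hQ'
    rw [ht Q' ((hfib P).mem_toFinset.mpr hQ'), ← exp_zero, exp_le_exp]
    split_ifs
    · exact le_rfl
    · have := le_max_left 0 (log (Q'.v u))
      omega
  have h2 : ∀ Q', res Q' = P → Q'.v (u * t) ≤ 1 := by
    intro Q' hQ'
    by_cases hQQ : Q' = Q
    · rw [hQQ, map_mul, hQt, mul_one]; exact hu
    · rw [map_mul, ht Q' ((hfib P).mem_toFinset.mpr hQ'), if_neg hQQ]
      by_cases hu0 : Q'.v u = 0
      · rw [hu0, zero_mul]; exact zero_le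
      · have h7 : Q'.v u = exp (log (Q'.v u)) := (exp_log hu0).symm
        have h8 := le_max_right 0 (log (Q'.v u))
        generalize log (Q'.v u) = z at h7 h8 ⊢
        rw [h7, ← exp_add, ← exp_zero, exp_le_exp]
        omega
  have h3 := key _ h1
  have h4 := key _ h2
  have h5 : del k' K' u = (del k' K' (u * t) - u * del k' K' t) / t := by
    rw [Derivation.leibniz, smul_eq_mul, smul_eq_mul]
    field_simp
    ring
  rw [h5, map_div₀, hQt, div_one]
  refine (Valuation.map_sub _ _ _).trans (max_le h4 ?_)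
  rw [map_mul]
  calc _ ≤ 1 * exp (W' Q) := mul_le_mul' hu h3
    _ = _ := one_mul _

end Ext

section Tower

/-- abstract growth of the `p`-part in towers -/
theorem tower {Obj : Type*} (R : ℕ → Obj → Obj → Prop) (P T2 : Obj → ℕ) (p w B : ℕ)
    (hp : p.Prime) (X : Obj)
    (hrefl : ∀ Y, R 1 Y Y) (htrans : ∀ {m n : ℕ} {Y Z U}, R m Y Z → R n Z U → R (m * n) Y U)
    (hex : ∀ (Y : Obj) (l : ℕ), l.Prime → ∃ Z, R l Y Z)
    (hmono : ∀ {m : ℕ} {Y Z : Obj}, R m Y Z → T2 Y ≤ T2 Z)
    (hB : ∀ m Y, R m X Y → T2 Y ≤ B)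
    (hstep : ∀ {m l : ℕ} {Y Z : Obj}, R m X Y → l.Prime → R l Y Z → T2 Z ≤ T2 Y →
      P Z ≤ P Y * (if l = p then p ^ w else 1)) :
    ∃ (m₀ : ℕ) (X₀ : Obj), R m₀ X X₀ ∧ ∀ m : ℕ, 1 ≤ m → ∃ Y, R m X₀ Y ∧ P Y ≤ P X₀ * m ^ w := by
  classical
  -- maximal `T2`
  have hexB : ∃ n, ∃ (m : ℕ) (Y : Obj), R m X Y ∧ T2 Y = n := ⟨_, 1, X, hrefl X, rfl⟩
  obtain ⟨n, ⟨m₀, X₀, hR₀, hT₀⟩, hmax⟩ : ∃ n, (∃ (m : ℕ) (Y : Obj), R m X Y ∧ T2 Y = n) ∧
      ∀ (m : ℕ) (Y : Obj), R m X Y → T2 Y ≤ n := by
    let S : Set ℕ := {n | ∃ (m : ℕ) (Y : Obj), R m X Y ∧ T2 Y = n}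
    have hbdd : BddAbove S := ⟨B, by rintro _ ⟨m, Y, h, rfl⟩; exact hB m Y h⟩
    refine ⟨sSup S, Nat.sSup_mem hexB hbdd, fun m Y h => le_csSup hbdd ⟨m, Y, h, rfl⟩⟩
  refine ⟨m₀, X₀, hR₀, ?_⟩
  intro m
  induction m using Nat.strong_induction_on with
  | _ m ih =>
    intro hm
    by_cases hm1 : m = 1
    · subst hm1
      exact ⟨X₀, hrefl X₀, by simp⟩
    · have hl := Nat.minFac_prime hm1
      obtain ⟨m', hm'⟩ := Nat.minFac_dvd m
      set l := m.minFac with hldef
      have hm'1 : 1 ≤ m' := by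
        rcases Nat.eq_zero_or_pos m' with h | h
        · rw [h] at hm'; omega
        · exact h
      have hlt : m' < m := by
        rw [hm']
        have := hl.two_le
        nlinarith
      obtain ⟨Y, hY, hPY⟩ := ih m' hlt hm'1
      obtain ⟨Z, hZ⟩ := hex Y l hl
      have hXY := htrans hR₀ hY
      refine ⟨Z, ?_, ?_⟩
      · rw [hm', mul_comm]
        exact htrans hY hZ
      · have hT : T2 Z ≤ T2 Y := by
          refine (hmax _ _ (htrans hXY hZ)).trans ?_
          rw [← hT₀]
          exact hmono hY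
        have h1 := hstep hXY hl hZ hT
        calc P Z ≤ P Y * (if l = p then p ^ w else 1) := h1
          _ ≤ (P X₀ * m' ^ w) * l ^ w := by
              refine Nat.mul_le_mul hPY ?_
              split_ifs with h
              · rw [h]
              · exact Nat.one_le_pow _ _ hl.pos
          _ = P X₀ * m ^ w := by
              conv_rhs => rw [hm']
              rw [mul_pow]; ring

end Tower

end Crest.Agent.R013.CntP6_127
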