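import Mathlib
import Crest.Agent.R013.CntB4_491
import Crest.Agent.R013.CntA1_560

/-!
# R013 / CntP8: splitting of places in constant extensions of finite fields (helper127)

`d = deg P`, `m = [k' : k]`: `gcd (d, m)` places above `P`, of degree `d / gcd (d, m)`.
-/

set_option autoImplicit false
set_option linter.all false

namespace Crest.Agent.R013.CntP8_127

open Finset WithZero Module
open Crest.Agent.R013.RR7_948 Crest.Agent.R013.RR8_948 Crest.Agent.R013.RR9_948
open Crest.Agent.R013.RR11_948 Crest.Agent.R013.RR12_948 Crest.Agent.R013.RR18_948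
open Crest.Agent.R013.PicD_398 Crest.Agent.R013.CntA1_560
open Crest.Agent.R013.CntB1_491 Crest.Agent.R013.CntB2_491 Crest.Agent.R013.CntB3_491
open Crest.Agent.R013.CntB4_491

variable {k k' K K' : Type*} [Field k] [Field k'] [Field K] [Field K'] [Algebra k k']
  [Algebra k K] [Algebra k' K'] [Algebra K K'] [Algebra k K'] [IsScalarTower k k' K']
  [IsScalarTower k K K'] [FiniteDimensional k k'] [Algebra.IsSeparable k k']
  [FiniteDimensional K K'] [Algebra.IsSeparable K K']
  [Algebra (RatFunc k) K] [IsScalarTower k (RatFunc k) K] [FiniteDimensional (RatFunc k) K]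
  [Algebra.IsSeparable (RatFunc k) K]
  [Algebra (RatFunc k') K'] [IsScalarTower k' (RatFunc k') K'] [FiniteDimensional (RatFunc k') K']
  [Algebra.IsSeparable (RatFunc k') K']

/-- the iterated Frobenius `x ↦ x ^ (q ^ N)` as an additive map -/
theorem sum_pow_card [Finite k] {R : Type*} [CommRing R] [Algebra k R] {ι : Type*} (s : Finset ι)
    (f : ι → R) (N : ℕ) :
    (∑ i ∈ s, f i) ^ (Nat.card k ^ N) = ∑ i ∈ s, f i ^ (Nat.card k ^ N) := by
  haveI := Fintype.ofFinite k
  have h1 : ∀ x : R, x ^ (Nat.card k ^ N) = (FiniteField.frobeniusAlgHom k R ^ N) x := by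
    intro x
    rw [AlgHom.coe_pow, FiniteField.coe_frobeniusAlgHom, pow_iterate, Nat.card_eq_fintype_card]
  simp only [h1, map_sum]

/-- Fermat at a place of a constant extension -/
theorem fermat [Finite k] (h : IsCE k k' K K') (Q : Pl k' K') {N : ℕ}
    (hd : degP (res k K Q) ∣ N) (hm : finrank k k' ∣ N) {u : K'} (hu : Q.v u ≤ 1) :
    Q.v (u ^ (Nat.card k ^ N) - u) < 1 := by
  classical
  set P := res k K Q with hP
  haveI : Finite k' := Module.finite_of_finite k
  haveI := Fintype.ofFinite k'
  obtain ⟨x, hx⟩ := weak_approx (k := k') (K := K') (fib k' K' P)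
    (fun Q' => if Q' = Q then u else 0) 1
  have hxQ : Q.v (x - u) < 1 := by
    have h1 := hx Q (mem_fib.mpr hP.symm)
    rw [if_pos rfl] at h1
    exact lt_of_le_of_lt h1 (by rw [← exp_zero, exp_lt_exp]; norm_num)
  have hx1 : Q.v x ≤ 1 := by
    have h1 : x = (x - u) + u := by ring
    rw [h1]
    exact (Valuation.map_add _ _ _).trans (max_le hxQ.le hu)
  have hxall : ∀ Q' : Pl k' K', res k K Q' = P → Q'.v x ≤ exp 0 := by
    intro Q' hQ'
    rw [exp_zero]
    by_cases hQQ : Q' = Q
    · rw [hQQ]; exact hx1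
    · have h1 := hx Q' (mem_fib.mpr hQ')
      rw [if_neg hQQ, sub_zero] at h1
      exact h1.trans (by rw [← exp_zero, exp_le_exp]; norm_num)
  let b := Module.Free.chooseBasis k k'
  have hco := repr_le h b P x 0 hxall
  -- Fermat for `x`
  have hxx : Q.v (x ^ (Nat.card k ^ N) - x) < 1 := by
    have h1 : x = ∑ i, algebraMap K K' ((h.basis b).repr x i) * algebraMap k' K' (b i) := by
      conv_lhs => rw [← (h.basis b).sum_repr x]
      refine Finset.sum_congr rfl fun i _ => ?_
      rw [Algebra.smul_def, h.basis_apply]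
    have hb : ∀ i, (algebraMap k' K' (b i)) ^ (Nat.card k ^ N) = algebraMap k' K' (b i) := by
      intro i
      rw [← map_pow]
      congr 1
      obtain ⟨n, rfl⟩ := hm
      have h2 : Nat.card k ^ (finrank k k' * n) = Fintype.card k' ^ n := by
        rw [pow_mul, ← Nat.card_eq_fintype_card, Module.natCard_eq_pow_finrank (K := k) (V := k')]
      rw [h2]
      exact FiniteField.pow_card_pow n (b i)
    have h2 : x ^ (Nat.card k ^ N) - x = ∑ i, (algebraMap K K'
        ((h.basis b).repr x i ^ (Nat.card k ^ N) - (h.basis b).repr x i)) *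
        algebraMap k' K' (b i) := by
      conv_lhs => rw [h1]
      rw [sum_pow_card, ← Finset.sum_sub_distrib]
      refine Finset.sum_congr rfl fun i _ => ?_
      rw [mul_pow, hb, map_sub, map_pow, sub_mul]
    rw [h2]
    refine Valuation.map_sum_lt _ one_ne_zero fun i _ => ?_
    rw [map_mul, ← res_v h]
    have h3 := v_pow_sub_lt P (degE_eq P) hd (x := (h.basis b).repr x i) (by
      have := hco i; rwa [exp_zero] at this)
    have h4 : Q.v (algebraMap k' K' (b i)) ≤ 1 := by
      by_cases h0 : b i = 0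
      · rw [h0]; simp
      · rw [Q.const _ h0]
    calc _ ≤ P.v ((h.basis b).repr x i ^ (Nat.card k ^ N) - (h.basis b).repr x i) * 1 :=
          mul_le_mul_right h4 _
      _ < 1 := by rw [mul_one]; exact h3
  -- Fermat for `u`
  have h5 : u ^ (Nat.card k ^ N) - u = (x ^ (Nat.card k ^ N) - x) -
      ((x ^ (Nat.card k ^ N) - u ^ (Nat.card k ^ N)) - (x - u)) := by ring
  rw [h5]
  refine Valuation.map_sub_lt _ hxx (Valuation.map_sub_lt _ ?_ hxQ)
  obtain ⟨c, hc⟩ := sub_dvd_pow_sub_pow x u (Nat.card k ^ N)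
  have hN0 : Nat.card k ^ N ≠ 0 := pow_ne_zero _ Nat.card_pos.ne'
  have h6 : x ^ (Nat.card k ^ N) - u ^ (Nat.card k ^ N) = (x - u) ^ (Nat.card k ^ N) := by
    haveI := Fintype.ofFinite k
    have h7 : ∀ x : K', x ^ (Nat.card k ^ N) = (FiniteField.frobeniusAlgHom k K' ^ N) x := by
      intro x
      rw [AlgHom.coe_pow, FiniteField.coe_frobeniusAlgHom, pow_iterate, Nat.card_eq_fintype_card]
    rw [h7, h7, h7, map_sub]
  rw [h6, map_pow]
  exact pow_lt_one₀ zero_le hxQ hN0

/-- **degrees in constant extensions of finite fields** -/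
theorem finrank_mul_degP [Finite k] (h : IsCE k k' K K') (Q : Pl k' K') :
    finrank k k' * degP Q = Nat.lcm (degP (res k K Q)) (finrank k k') := by
  classical
  haveI : Finite k' := Module.finite_of_finite k
  apply Nat.dvd_antisymm
  swap
  · refine Nat.lcm_dvd ?_ (Dvd.intro _ rfl)
    rw [← degP_down (k := k) Q]
    exact degP_under_dvd (K := K) (down k Q)
  · set L := Nat.lcm (degP (res k K Q)) (finrank k k') with hL
    have hm : finrank k k' ∣ L := Nat.dvd_lcm_right _ _
    have hd : degP (res k K Q) ∣ L := Nat.dvd_lcm_left _ _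
    have hLpos : 0 < L := Nat.lcm_pos (degP_pos _) finrank_pos
    -- the residue field has at most `q ^ L` elements
    letI : Field (Q.v.integer ⧸ mI Q) := Ideal.Quotient.field _
    have hcard := card_quot_eq_pow Q (degE_eq Q)
    rw [Module.natCard_eq_pow_finrank (K := k) (V := k'), ← pow_mul] at hcard
    haveI hfin : Finite (Q.v.integer ⧸ mI Q) := by
      apply Nat.finite_of_card_ne_zero
      rw [hcard]
      exact pow_ne_zero _ (Nat.card_pos).ne'
    haveI := Fintype.ofFinite (Q.v.integer ⧸ mI Q)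
    have hq1 : 1 < Nat.card k := Finite.one_lt_card
    have hall : ∀ y : Q.v.integer ⧸ mI Q, y ^ (Nat.card k ^ L) = y := by
      intro y
      obtain ⟨⟨u, hu⟩, rfl⟩ := Ideal.Quotient.mk_surjective y
      rw [← map_pow, ← sub_eq_zero, ← map_sub, Ideal.Quotient.eq_zero_iff_mem, mem_mI]
      exact fermat h Q hd hm hu
    have hle : Nat.card (Q.v.integer ⧸ mI Q) ≤ Nat.card k ^ L := by
      have hN1 : 1 < Nat.card k ^ L := Nat.one_lt_pow hLpos.ne' hq1
      have hne : (Polynomial.X ^ (Nat.card k ^ L) - Polynomial.X :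
          Polynomial (Q.v.integer ⧸ mI Q)) ≠ 0 := FiniteField.X_pow_card_sub_X_ne_zero _ hN1
      rw [Nat.card_eq_fintype_card, ← Finset.card_univ,
        ← FiniteField.X_pow_card_sub_X_natDegree_eq (Q.v.integer ⧸ mI Q) hN1]
      refine Polynomial.card_le_degree_of_subset_roots ?_
      intro y _
      rw [Polynomial.mem_roots hne]
      simp [hall y]
    rw [hcard] at hle
    have h2 := (Nat.pow_le_pow_iff_right hq1).mp hle
    have h1 : L ∣ finrank k k' * degP Q := by
      refine Nat.lcm_dvd ?_ (Dvd.intro _ rfl)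
      rw [← degP_down (k := k) Q]
      exact degP_under_dvd (K := K) (down k Q)
    have hpos : 0 < finrank k k' * degP Q := Nat.mul_pos finrank_pos (degP_pos Q)
    have h3 := Nat.le_of_dvd hpos h1
    rw [le_antisymm h2 h3]

theorem degP_mul_gcd [Finite k] (h : IsCE k k' K K') (Q : Pl k' K') :
    degP Q * Nat.gcd (degP (res k K Q)) (finrank k k') = degP (res k K Q) := by
  have h1 := finrank_mul_degP h Q
  have h2 := Nat.gcd_mul_lcm (degP (res k K Q)) (finrank k k')
  rw [← h1] at h2
  have hm : 0 < finrank k k' := finrank_pos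
  apply Nat.eq_of_mul_eq_mul_left hm
  rw [mul_comm (finrank k k') (degP (res k K Q)), ← h2]
  ring

theorem gcd_pos (Q : Pl k' K') : 0 < Nat.gcd (degP (res k K Q)) (finrank k k') :=
  Nat.gcd_pos_of_pos_left _ (degP_pos _)

/-- `deg Q = d / gcd (d, m)` -/
theorem degP_eq [Finite k] (h : IsCE k k' K K') (Q : Pl k' K') :
    degP Q = degP (res k K Q) / Nat.gcd (degP (res k K Q)) (finrank k k') := by
  conv_rhs => rw [← degP_mul_gcd h Q]
  rw [degP_mul_gcd h Q]
  exact Nat.eq_div_of_mul_eq_left (gcd_pos Q).ne' (degP_mul_gcd h Q)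

/-- `gcd (d, m)` places above `P` -/
theorem card_fib [Finite k] (h : IsCE k k' K K') (P : Pl k K) :
    (fib k' K' P).card = Nat.gcd (degP P) (finrank k k') := by
  classical
  have h1 := sum_degP h P
  have h2 : ∀ Q ∈ fib k' K' P, degP Q = degP P / Nat.gcd (degP P) (finrank k k') := by
    intro Q hQ
    rw [mem_fib] at hQ
    have := degP_eq h Q
    rwa [hQ] at this
  rw [Finset.sum_congr rfl h2, Finset.sum_const, smul_eq_mul] at h1
  have hg : Nat.gcd (degP P) (finrank k k') ∣ degP P := Nat.gcd_dvd_left _ _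
  have hpos : 0 < degP P := degP_pos P
  have hgpos : 0 < Nat.gcd (degP P) (finrank k k') := Nat.gcd_pos_of_pos_left _ hpos
  have hd := Nat.div_mul_cancel hg
  have hqpos : 0 < degP P / Nat.gcd (degP P) (finrank k k') := Nat.div_pos (Nat.le_of_dvd hpos hg) hgpos
  apply Nat.eq_of_mul_eq_mul_right hqpos
  rw [h1, mul_comm, hd]

/-- residue degree over `k` -/
theorem fdeg_eq [Finite k] (h : IsCE k k' K K') (Q : Pl k' K') :
    fdeg k K Q = finrank k k' / Nat.gcd (degP (res k K Q)) (finrank k k') := by
  have h1 := fdeg_mul (k := k) (K := K) Q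
  have h2 := degP_mul_gcd h Q
  have hpos : 0 < degP Q := degP_pos Q
  refine Nat.eq_div_of_mul_eq_left (gcd_pos Q).ne' ?_
  apply Nat.eq_of_mul_eq_mul_right hpos
  calc fdeg k K Q * Nat.gcd (degP (res k K Q)) (finrank k k') * degP Q
      = fdeg k K Q * (degP Q * Nat.gcd (degP (res k K Q)) (finrank k k')) := by ring
    _ = fdeg k K Q * degP (res k K Q) := by rw [h2]
    _ = finrank k k' * degP Q := h1

/-- places of degree `m` split completely into rational places -/
theorem card_rat_ge [Finite k] (h : IsCE k k' K K') :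
    finrank k k' * Nat.card {P : Pl k K // degP P = finrank k k'} ≤
      Nat.card {Q : Pl k' K' // degP Q = 1} := by
  classical
  haveI : Finite k' := Module.finite_of_finite k
  have hf1 : {P : Pl k K | degP P = finrank k k'}.Finite :=
    (finite_degP_le (finrank k k')).subset fun P hP => le_of_eq hP
  have hf2 : {Q : Pl k' K' | degP Q = 1}.Finite :=
    (finite_degP_le 1).subset fun P hP => le_of_eq hP
  have e1 : Nat.card {P : Pl k K // degP P = finrank k k'} = hf1.toFinset.card := by
    rw [← Nat.card_eq_card_finite_toFinset hf1]; rfl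
  have e2 : Nat.card {Q : Pl k' K' // degP Q = 1} = hf2.toFinset.card := by
    rw [← Nat.card_eq_card_finite_toFinset hf2]; rfl
  rw [e1, e2]
  have h1 : (hf1.toFinset.biUnion (fun P => fib k' K' P)) ⊆ hf2.toFinset := by
    intro Q hQ
    obtain ⟨P, hP, hQP⟩ := Finset.mem_biUnion.mp hQ
    rw [Set.Finite.mem_toFinset] at hP ⊢
    rw [mem_fib] at hQP
    have h2 := degP_eq h Q
    rw [hQP] at h2
    have hP' : degP P = finrank k k' := hP
    rw [hP', Nat.gcd_self, Nat.div_self finrank_pos] at h2
    exact h2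
  refine le_trans ?_ (Finset.card_le_card h1)
  rw [Finset.card_biUnion]
  · rw [Finset.sum_congr rfl (g := fun _ => finrank k k')]
    · rw [Finset.sum_const, smul_eq_mul, mul_comm]
    · intro P hP
      rw [Set.Finite.mem_toFinset] at hP
      have hP' : degP P = finrank k k' := hP
      rw [card_fib h P, hP', Nat.gcd_self]
  · intro P _ P' _ hne
    rw [Function.onFun, Finset.disjoint_left]
    intro Q hQ hQ'
    rw [mem_fib] at hQ hQ'
    exact hne (hQ.symm.trans hQ')

end Crest.Agent.R013.CntP8_127
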