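import Mathlib
import Crest.Agent.R013.CntP6_127
import Crest.Agent.R013.CntP8_127

/-!
# R013 / CntP7: one step of a tower of constant extensions (helper127)
-/

set_option autoImplicit false
set_option linter.all false

namespace Crest.Agent.R013.CntP7_127

open Finset WithZero Module
open Crest.Agent.R013.RR7_948 Crest.Agent.R013.RR8_948 Crest.Agent.R013.RR9_948
open Crest.Agent.R013.RR11_948 Crest.Agent.R013.RR12_948 Crest.Agent.R013.RR14_948
open Crest.Agent.R013.PicD_398 Crest.Agent.R013.CntA1_560
open Crest.Agent.R013.CntP1_127 Crest.Agent.R013.CntP4_127 Crest.Agent.R013.CntP6_127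
open Crest.Agent.R013.CntB1_491 Crest.Agent.R013.CntB2_491 Crest.Agent.R013.CntB3_491
open Crest.Agent.R013.CntB4_491

section Single

variable {k K : Type*} [Field k] [Field K] [Algebra k K]
  [Algebra (RatFunc k) K] [IsScalarTower k (RatFunc k) K] [FiniteDimensional (RatFunc k) K]
  [Algebra.IsSeparable (RatFunc k) K]

/-- torsion classes have degree zero -/
theorem degPic_of_torsion {n : ℕ} (hn : n ≠ 0) {z : Pic k K} (hz : n • z = 0) : degPic z = 0 := by
  have h1 := congrArg degPic hz
  rw [map_nsmul, map_zero, nsmul_eq_mul] at h1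
  rcases mul_eq_zero.mp h1 with h2 | h2
  · exact absurd (by exact_mod_cast h2) hn
  · exact h2

theorem finite_pp [Finite k] (p : ℕ) (hp : p ≠ 0) : Finite (pp p (Pic k K)) := by
  have h1 : ∀ z : pp p (Pic k K), (z : Pic k K) ∈ Pic0 k K := by
    rintro ⟨z, n, hn⟩
    exact degPic_of_torsion (pow_ne_zero n hp) hn
  exact Finite.of_injective (fun z : pp p (Pic k K) => (⟨z, h1 z⟩ : Pic0 k K)) (by
    intro x y h
    have h2 := congrArg Subtype.val h
    exact Subtype.ext h2)

/-- for a finite field `|Pic[p]|` is bounded by `p ^ ℓ(W)` -/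
theorem card_pic_p_le [Finite k] (p : ℕ) [Fact p.Prime] [CharP k p] {W : Pl k K →₀ ℤ}
    (hW : Bd W) : Finite {z : Pic k K // p • z = 0} ∧
      Nat.card {z : Pic k K // p • z = 0} ≤ p ^ ell W := by
  haveI : CharP K p := (algebraMap k K).charP_iff (algebraMap k K).injective p |>.mp inferInstance
  exact card_pic_le p hW

end Single

variable {k k' K K' : Type*} [Field k] [Field k'] [Field K] [Field K'] [Algebra k k']
  [Algebra k K] [Algebra k' K'] [Algebra K K'] [Algebra k K'] [IsScalarTower k k' K']
  [IsScalarTower k K K'] [FiniteDimensional k k'] [Algebra.IsSeparable k k']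
  [FiniteDimensional K K'] [Algebra.IsSeparable K K']
  [Algebra (RatFunc k) K] [IsScalarTower k (RatFunc k) K] [FiniteDimensional (RatFunc k) K]
  [Algebra.IsSeparable (RatFunc k) K]
  [Algebra (RatFunc k') K'] [IsScalarTower k' (RatFunc k') K'] [FiniteDimensional (RatFunc k') K']
  [Algebra.IsSeparable (RatFunc k') K']

/-- the bound for `d/dX` in a constant extension -/
theorem Bd_con (h : IsCE k k' K K') (hX : xK k' K' = algebraMap K K' (xK k K))
    {W : Pl k K →₀ ℤ} (hW : Bd W) : Bd (con k' K' W) := by
  classical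
  let b := Module.Free.chooseBasis k k'
  refine Bd_of_res hX (res k K) (fun Q f => (res_v h Q f).symm) ?_ (fun i => b i) ?_ hW
    (fun Q => rfl)
  · intro P
    refine (fib k' K' P).finite_toSet.subset ?_
    intro Q hQ
    exact mem_fib.mpr hQ
  · intro x
    refine ⟨fun i => (h.basis b).repr x i, ?_, ?_⟩
    · conv_lhs => rw [← (h.basis b).sum_repr x]
      refine Finset.sum_congr rfl fun i _ => ?_
      rw [Algebra.smul_def, h.basis_apply, mul_comm]
    · intro P hP i
      have := repr_le h b P x 0 (fun Q hQ => by rw [exp_zero]; exact hP Q hQ) i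
      rwa [exp_zero] at this

/-- `|Pic K [n]| ≤ |Pic K' [n]|` -/
theorem card_tors_mono (h : IsCE k k' K K') (n : ℕ) (hfin : Finite {z : Pic k' K' // n • z = 0}) :
    Nat.card {z : Pic k K // n • z = 0} ≤ Nat.card {z : Pic k' K' // n • z = 0} := by
  refine Nat.card_le_card_of_injective (fun z : {z : Pic k K // n • z = 0} =>
    (⟨conPic h z, by rw [← map_nsmul, z.2, map_zero]⟩ : {z : Pic k' K' // n • z = 0})) ?_
  intro x y hxy
  exact Subtype.ext (conPic_injective h (congrArg Subtype.val hxy))

/-- one step -/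
theorem step [IsGalois k k'] [Finite k] (h : IsCE k k' K K') (p : ℕ) (hp : p.Prime)
    (hl : (finrank k k').Prime) {w : ℕ}
    (hfin : Finite {z : Pic k' K' // p • z = 0})
    (hw : Nat.card {z : Pic k' K' // p • z = 0} ≤ p ^ w)
    (hT : Nat.card {z : Pic k' K' // p ^ 2 • z = 0} ≤ Nat.card {z : Pic k K // p ^ 2 • z = 0}) :
    Nat.card (pp p (Pic k' K')) ≤
      Nat.card (pp p (Pic k K)) * (if finrank k k' = p then p ^ w else 1) := by
  classical
  have hfin2 := (card_sq_le hfin).1
  have h1 := card_pp_le hp hl (conPic h) (nmPic h) (conPic_injective h)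
    (fun z => nmPic_conPic h z)
    (fun b hb => surj_of_card (conPic h) (conPic_injective h) hfin2 hT hb)
    (finite_pp p hp.ne_zero) hfin
  refine h1.2.trans (Nat.mul_le_mul_left _ ?_)
  split_ifs
  · exact hw
  · exact le_rfl

end Crest.Agent.R013.CntP7_127
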