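import Mathlib
import Crest.Agent.R013.CntP7_127
import Crest.Agent.R013.CntB7_491
import Crest.Agent.R013.CntG3_398

/-!
# R013 / CntP: many rational places compared with the `p`-part of `Pic⁰` (helper127)
-/

set_option autoImplicit false
set_option linter.all false

namespace Crest.Agent.R013.CntP_127

open Finset WithZero Module
open Crest.Agent.R013.RR7_948 Crest.Agent.R013.RR8_948 Crest.Agent.R013.RR9_948
open Crest.Agent.R013.RR11_948 Crest.Agent.R013.RR12_948 Crest.Agent.R013.RR14_948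
open Crest.Agent.R013.PicD_398 Crest.Agent.R013.CntA1_560 Crest.Agent.R013.CntG3_398
open Crest.Agent.R013.CntP1_127 Crest.Agent.R013.CntP4_127 Crest.Agent.R013.CntP5_127
open Crest.Agent.R013.CntP6_127 Crest.Agent.R013.CntP7_127 Crest.Agent.R013.CntP8_127
open Crest.Agent.R013.CntB1_491 Crest.Agent.R013.CntB2_491 Crest.Agent.R013.CntB3_491
open Crest.Agent.R013.CntB4_491 Crest.Agent.R013.CntB7_491

universe u v

/-- bundled function fields over finite fields of characteristic `p` -/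
structure Ob (p : ℕ) where
  k : Type u
  K : Type v
  [fk : Field k]
  [fK : Field K]
  [a1 : Algebra k K]
  [a2 : Algebra (RatFunc k) K]
  [t1 : IsScalarTower k (RatFunc k) K]
  [d1 : FiniteDimensional (RatFunc k) K]
  [s1 : Algebra.IsSeparable (RatFunc k) K]
  [f1 : Finite k]
  [c1 : CharP k p]
  hc : algebraicClosure k K = ⊥

attribute [instance] Ob.fk Ob.fK Ob.a1 Ob.a2 Ob.t1 Ob.d1 Ob.s1 Ob.f1 Ob.c1

/-- the object of a constant extension -/
noncomputable def Ob.ext {p : ℕ} (Y : Ob.{u, v} p) (F : CExt.{u, v, u} Y.k Y.K) : Ob.{u, v} p :=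
  haveI : CharP F.k' p := charP_of_injective_algebraMap (algebraMap Y.k F.k').injective p
  { k := F.k', K := F.K', hc := hc_CExt F }

theorem finite_tors {k K : Type*} [Field k] [Field K] [Algebra k K]
    [Algebra (RatFunc k) K] [IsScalarTower k (RatFunc k) K] [FiniteDimensional (RatFunc k) K]
    [Algebra.IsSeparable (RatFunc k) K] [Finite k] {n : ℕ} (hn : n ≠ 0) :
    Finite {z : Pic k K // n • z = 0} := by
  have h1 : ∀ z : {z : Pic k K // n • z = 0}, (z : Pic k K) ∈ Pic0 k K := by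
    rintro ⟨z, hz⟩
    exact degPic_of_torsion hn hz
  exact Finite.of_injective (fun z : {z : Pic k K // n • z = 0} => (⟨z, h1 z⟩ : Pic0 k K)) (by
    intro x y h
    have h2 := congrArg Subtype.val h
    exact Subtype.ext h2)

variable {p : ℕ}

/-- `Z` is a constant extension of `Y` of degree `m` -/
def Rel (m : ℕ) (Y Z : Ob.{u, v} p) : Prop :=
  ∃ F : CExt.{u, v, u} Y.k Y.K, Z = Y.ext F ∧ finrank Y.k F.k' = m

theorem Rel.refl (Y : Ob.{u, v} p) : Rel 1 Y Y := by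
  refine ⟨CExt.refl Y.hc, rfl, ?_⟩
  exact finrank_self Y.k

theorem Rel.trans {m n : ℕ} {Y Z U : Ob.{u, v} p} (h1 : Rel m Y Z) (h2 : Rel n Z U) :
    Rel (m * n) Y U := by
  obtain ⟨F, rfl, hF⟩ := h1
  obtain ⟨G, rfl, hG⟩ := h2
  let G' : CExt.{u, v, u} F.k' F.K' := G
  have hG' : finrank F.k' G'.k' = n := hG
  refine ⟨F.trans G', rfl, ?_⟩
  have h := CExt.finrank_trans F G'
  rw [hF, hG'] at h
  exact h

theorem Rel.exists (Y : Ob.{u, v} p) (m : ℕ) (hm : m ≠ 0) : ∃ Z, Rel m Y Z := by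
  obtain ⟨F, hF⟩ := exists_CExt_of_finite.{u, v, u} Y.hc m hm
  exact ⟨Y.ext F, F, rfl, hF⟩

/-- the order of the `p`-part -/
noncomputable def PP (Y : Ob.{u, v} p) : ℕ := Nat.card (pp p (Pic Y.k Y.K))

/-- the order of the `p ^ 2`-torsion -/
noncomputable def T2 (Y : Ob.{u, v} p) : ℕ := Nat.card {z : Pic Y.k Y.K // p ^ 2 • z = 0}

variable [hp : Fact p.Prime]

theorem T2_mono {m : ℕ} {Y Z : Ob.{u, v} p} (h : Rel m Y Z) : T2 Y ≤ T2 Z := by
  obtain ⟨F, rfl, hF⟩ := h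
  exact card_tors_mono F.ce (p ^ 2) (finite_tors (pow_ne_zero 2 hp.out.ne_zero))

theorem card_p_le {X : Ob.{u, v} p} {W : Pl X.k X.K →₀ ℤ} (hW : Bd W) {m : ℕ} {Y : Ob.{u, v} p}
    (h : Rel m X Y) : Nat.card {z : Pic Y.k Y.K // p • z = 0} ≤ p ^ ell W := by
  obtain ⟨F, rfl, hF⟩ := h
  have h1 := Bd_con F.ce F.hX hW
  haveI : CharP F.k' p := charP_of_injective_algebraMap (algebraMap X.k F.k').injective p
  have h2 := (card_pic_p_le p h1).2
  rw [ell_con F.ce] at h2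
  exact h2

theorem T2_le {X : Ob.{u, v} p} {W : Pl X.k X.K →₀ ℤ} (hW : Bd W) {m : ℕ} {Y : Ob.{u, v} p}
    (h : Rel m X Y) : T2 Y ≤ (p ^ ell W) ^ 2 :=
  ((card_sq_le (finite_tors (k := Y.k) (K := Y.K) hp.out.ne_zero)).2).trans
    (Nat.pow_le_pow_left (card_p_le hW h) 2)

instance isGalois_of_finite (k k' : Type*) [Field k] [Field k'] [Algebra k k'] [Finite k]
    [FiniteDimensional k k'] : IsGalois k k' := by
  haveI : Finite k' := Module.finite_of_finite k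
  infer_instance

theorem step_le {X : Ob.{u, v} p} {W : Pl X.k X.K →₀ ℤ} (hW : Bd W) {m l : ℕ} {Y Z : Ob.{u, v} p}
    (h1 : Rel m X Y) (hl : l.Prime) (h2 : Rel l Y Z) (hT : T2 Z ≤ T2 Y) :
    PP Z ≤ PP Y * (if l = p then p ^ ell W else 1) := by
  have h3 := card_p_le hW (h1.trans h2)
  obtain ⟨G, rfl, hG⟩ := h2
  have h4 := step (k := Y.k) (k' := G.k') (K := Y.K) (K' := G.K') G.ce p hp.out
    (by rw [hG]; exact hl) (w := ell W) (finite_tors hp.out.ne_zero) h3 hT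
  rw [hG] at h4
  exact h4

/-- **growth of the `p`-part** -/
theorem growth (X : Ob.{u, v} p) : ∃ (w m₀ : ℕ) (X₀ : Ob.{u, v} p), Rel m₀ X X₀ ∧
    ∀ m : ℕ, 1 ≤ m → ∃ Y, Rel m X₀ Y ∧ PP Y ≤ PP X₀ * m ^ w := by
  obtain ⟨W, hW⟩ := exists_Bd X.k X.K
  obtain ⟨m₀, X₀, h1, h2⟩ := tower (Obj := Ob.{u, v} p) Rel PP T2 p (ell W) ((p ^ ell W) ^ 2)
    hp.out X Rel.refl (fun h1 h2 => h1.trans h2) (fun Y l hl => Rel.exists Y l hl.ne_zero)
    (fun h => T2_mono h) (fun m Y h => T2_le hW h)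
    (fun h1 hl h2 hT => step_le hW h1 hl h2 hT)
  exact ⟨ell W, m₀, X₀, h1, h2⟩

variable {k : Type u} {K : Type v} [Field k] [Field K] [Algebra k K] [Algebra (RatFunc k) K]
  [IsScalarTower k (RatFunc k) K] [FiniteDimensional (RatFunc k) K]
  [Algebra.IsSeparable (RatFunc k) K]

variable (p) in
/-- **CNT-P**: after a constant extension there are more than `2 g² |Pic[p^∞]|` rational places -/
theorem exists_many [Finite k] [CharP k p] (hc : algebraicClosure k K = ⊥) :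
    ∃ E : CExt.{u, v, u} k K, 2 * gen E.k' E.K' ^ 2 * Nat.card (pp p (Pic E.k' E.K')) <
      Nat.card {Q : Pl E.k' E.K' // degP Q = 1} := by
  let X : Ob.{u, v} p := { k := k, K := K, hc := hc }
  obtain ⟨w, m₀, X₀, h0, hgr⟩ := growth X
  obtain ⟨m, hm1, hm⟩ := many_places X₀.hc (fun n => finite_eff (k := X₀.k) (K := X₀.K) (n : ℤ))
    (2 * gen X₀.k X₀.K ^ 2 * PP X₀) w
  obtain ⟨Y, hY, hPY⟩ := hgr m hm1
  obtain ⟨E, hE, _⟩ := h0.trans hY
  refine ⟨E, ?_⟩
  obtain ⟨G, rfl, hG⟩ := hY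
  have h1 : Nat.card (pp p (Pic E.k' E.K')) = PP (X₀.ext G) := by rw [hE]; rfl
  have h2 : gen E.k' E.K' = gen X₀.k X₀.K := by
    have h3 : gen E.k' E.K' = gen (X.ext E).k (X.ext E).K := rfl
    rw [h3, ← hE]
    exact gen_eq (k := X₀.k) (k' := G.k') (K := X₀.K) (K' := G.K') G.ce
  have h3 : Nat.card {Q : Pl E.k' E.K' // degP Q = 1} =
      Nat.card {Q : Pl G.k' G.K' // degP Q = 1} := by
    have h4 : Nat.card {Q : Pl E.k' E.K' // degP Q = 1} =
      Nat.card {Q : Pl (X.ext E).k (X.ext E).K // degP Q = 1} := rfl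
    rw [h4, ← hE]
    rfl
  rw [h1, h2, h3]
  have h4 := card_rat_ge G.ce
  rw [hG] at h4
  refine lt_of_le_of_lt ?_ (lt_of_lt_of_le hm h4)
  calc 2 * gen X₀.k X₀.K ^ 2 * PP (X₀.ext G) ≤ 2 * gen X₀.k X₀.K ^ 2 * (PP X₀ * m ^ w) :=
        Nat.mul_le_mul_left _ hPY
    _ = _ := by ring

/-- the form used in `CntG_398.exists_psi` -/
theorem exists_rat_places (p : ℕ) [hp : Fact p.Prime] [Finite k] [CharP k p]
    (hc : algebraicClosure k K = ⊥) :
    ∃ (E : CExt.{u, v, u} k K) (R : Finset (Pl E.k' E.K')), (∀ P ∈ R, degP P = 1) ∧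
      2 * gen E.k' E.K' ^ 2 * Nat.card (Ptor p (Pic0 E.k' E.K')) < R.card := by
  classical
  obtain ⟨E, hE⟩ := exists_many p hc
  have hf : {Q : Pl E.k' E.K' | degP Q = 1}.Finite :=
    (finite_degP_le 1).subset fun P hP => le_of_eq hP
  refine ⟨E, hf.toFinset, fun P hP => hf.mem_toFinset.mp hP, ?_⟩
  have e2 : Nat.card {Q : Pl E.k' E.K' // degP Q = 1} = hf.toFinset.card := by
    rw [← Nat.card_eq_card_finite_toFinset hf]; rfl
  rw [← e2]
  refine lt_of_le_of_lt (Nat.mul_le_mul_left _ ?_) hE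
  haveI := finite_pp (k := E.k') (K := E.K') p hp.out.ne_zero
  refine Nat.card_le_card_of_injective (fun z : Ptor p (Pic0 E.k' E.K') =>
    (⟨((z : Pic0 E.k' E.K') : Pic E.k' E.K'), by
      obtain ⟨n, hn⟩ := z.2
      exact ⟨n, congrArg Subtype.val hn⟩⟩ : pp p (Pic E.k' E.K'))) ?_
  intro x y h
  have h2 := congrArg Subtype.val h
  exact Subtype.ext (Subtype.ext h2)

end Crest.Agent.R013.CntP_127
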