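import Mathlib

/-!
# R013 / CNT T1: trace formula, vanishing form (helper262)

`F ∈ Mat_d(F_q[x])` divisible by `x^(q^n) - x` for `1 ≤ n ≤ m`; then the coefficients of
`T^1..T^m` in `det (1 - T Θ)` vanish, `Θ` = the matrix of `v(x) ↦ F(x) v(x^q)` on
`x^-1 k[x^-1]^d` modulo `x^(-B-1) k[x^-1]^d`.
-/

set_option autoImplicit false
set_option linter.unusedSectionVars false

namespace Crest.Agent.R013.CntT1_262

open Polynomial Matrix Finset

section Newton

variable {R : Type*} [CommRing R] {n : Type*} [Fintype n] [DecidableEq n]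

theorem derivative_det (A : Matrix n n R[X]) :
    derivative A.det = ∑ j, ∑ i, A.adjugate j i * derivative (A i j) := by
  have h1 : ∀ j, ∑ i, A.adjugate j i * derivative (A i j)
      = (A.updateCol j (fun i => derivative (A i j))).det := by
    intro j
    rw [← Matrix.cramer_apply, Matrix.cramer_eq_adjugate_mulVec]
    rfl
  simp_rw [h1, Matrix.det_apply, map_sum]
  rw [Finset.sum_comm]
  refine Finset.sum_congr rfl fun σ _ => ?_
  rw [← Finset.smul_sum]
  have h2 : derivative (Equiv.Perm.sign σ • ∏ i, A (σ i) i)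
      = Equiv.Perm.sign σ • derivative (∏ i, A (σ i) i) := by
    rcases Int.units_eq_one_or (Equiv.Perm.sign σ) with h | h <;> rw [h] <;> simp
  rw [h2, Polynomial.derivative_prod_finset]
  congr 1
  refine Finset.sum_congr rfl fun j _ => ?_
  rw [← Finset.prod_erase_mul Finset.univ _ (Finset.mem_univ j)]
  congr 1
  · refine Finset.prod_congr rfl fun i hi => ?_
    rw [Matrix.updateCol_ne (Finset.ne_of_mem_erase hi)]
  · rw [Matrix.updateCol_self]

theorem newton_aux (M : Matrix n n R) (k : ℕ) :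
    ((M.map C) * (1 - (X : R[X]) • M.map C).adjugate).trace
      = (∑ i ∈ range k, X ^ i * C (M ^ (i + 1)).trace) * M.charpolyRev
        + X ^ k * ((M.map C) ^ (k + 1) * (1 - (X : R[X]) • M.map C).adjugate).trace := by
  set A : Matrix n n R[X] := 1 - (X : R[X]) • M.map C with hA
  have hadj : A.adjugate = M.charpolyRev • 1 + (X : R[X]) • (M.map C * A.adjugate) := by
    have h1 : A * A.adjugate = A.det • 1 := Matrix.mul_adjugate A
    have h2 : A * A.adjugate = A.adjugate - (X : R[X]) • (M.map C * A.adjugate) := by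
      conv_lhs => rw [hA]
      rw [sub_mul, one_mul, smul_mul_assoc]
    have h3 : A.det = M.charpolyRev := rfl
    rw [h2, h3] at h1
    rw [← h1]; abel
  induction k with
  | zero => simp
  | succ k ih =>
    rw [ih, Finset.sum_range_succ]
    have h1 : (M.map C) ^ (k + 1) * A.adjugate
        = M.charpolyRev • (M.map C) ^ (k + 1)
          + (X : R[X]) • ((M.map C) ^ (k + 1 + 1) * A.adjugate) := by
      conv_lhs => rw [hadj]
      rw [mul_add, mul_smul_comm, mul_one, mul_smul_comm, ← mul_assoc, ← pow_succ]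
    have h2 : ((M.map (C : R →+* R[X])) ^ (k + 1)).trace = C (M ^ (k + 1)).trace := by
      have : (M.map (C : R →+* R[X])) ^ (k + 1) = (M ^ (k + 1)).map C := by
        have := map_pow ((C : R →+* R[X]).mapMatrix) M (k + 1)
        exact this.symm
      rw [this]
      simp [Matrix.trace, map_sum]
    rw [h1, Matrix.trace_add, Matrix.trace_smul, Matrix.trace_smul, h2]
    simp only [smul_eq_mul]
    ring

/-- Newton's identities for the reverse characteristic polynomial -/
theorem newton (M : Matrix n n R) (k : ℕ) :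
    M.charpolyRev.coeff (k + 1) * ((k : R) + 1)
      = - ∑ i ∈ range (k + 1), (M ^ (i + 1)).trace * M.charpolyRev.coeff (k - i) := by
  have h1 : derivative M.charpolyRev
      = - ((M.map C) * (1 - (X : R[X]) • M.map C).adjugate).trace := by
    have : M.charpolyRev = (1 - (X : R[X]) • M.map C).det := rfl
    rw [this, derivative_det, Matrix.trace, ← Finset.sum_neg_distrib]
    rw [Finset.sum_comm]
    refine Finset.sum_congr rfl fun i _ => ?_
    rw [Matrix.diag_apply, Matrix.mul_apply, ← Finset.sum_neg_distrib]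
    refine Finset.sum_congr rfl fun j _ => ?_
    have : derivative ((1 - (X : R[X]) • M.map C) i j) = - C (M i j) := by
      rw [Matrix.sub_apply, Matrix.smul_apply, Matrix.map_apply, Matrix.one_apply, smul_eq_mul]
      split_ifs <;> simp
    rw [this, Matrix.map_apply]; ring
  rw [newton_aux M (k + 1)] at h1
  have h2 := congrArg (fun f => f.coeff k) h1
  simp only [coeff_derivative, coeff_neg, coeff_add] at h2
  rw [h2, Polynomial.coeff_X_pow_mul', if_neg (by omega), add_zero, Finset.sum_mul,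
    Polynomial.finsetSum_coeff]
  congr 1
  refine Finset.sum_congr rfl fun i hi => ?_
  have hi' : i ≤ k := by have := Finset.mem_range.mp hi; omega
  rw [mul_assoc, Polynomial.coeff_X_pow_mul', if_pos hi', Polynomial.coeff_C_mul]

end Newton

section Valuation

variable {R : Type*} [CommRing R] {n : Type*} [Fintype n] [DecidableEq n]

theorem factorial_mul_coeff (p : ℕ) (M : Matrix n n R) (m : ℕ)
    (ht : ∀ i, 1 ≤ i → i ≤ m → (p : R) ^ i ∣ (M ^ i).trace) :
    ∀ k, k ≤ m → (p : R) ^ k ∣ (k.factorial : R) * M.charpolyRev.coeff k := by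
  intro k
  induction k using Nat.strong_induction_on with
  | _ k ih =>
    intro hk
    cases k with
    | zero => simp
    | succ k =>
      have h := newton M k
      have h1 : ((k + 1).factorial : R) * M.charpolyRev.coeff (k + 1)
          = (k.factorial : R) * (M.charpolyRev.coeff (k + 1) * ((k : R) + 1)) := by
        rw [Nat.factorial_succ]; push_cast; ring
      rw [h1, h, mul_neg, dvd_neg, Finset.mul_sum]
      refine Finset.dvd_sum fun i hi => ?_
      have hi' : i ≤ k := by have := Finset.mem_range.mp hi; omega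
      have h2 := ih (k - i) (by omega) (by omega)
      have h3 := ht (i + 1) (by omega) (by omega)
      have h4 : (p : R) ^ (k + 1) = (p : R) ^ (i + 1) * (p : R) ^ (k - i) := by
        rw [← pow_add]; congr 1; omega
      obtain ⟨c, hc⟩ : (k - i).factorial ∣ k.factorial := Nat.factorial_dvd_factorial (by omega)
      have h5 : (k.factorial : R) * ((M ^ (i + 1)).trace * M.charpolyRev.coeff (k - i))
          = (M ^ (i + 1)).trace * (((k - i).factorial : R) * M.charpolyRev.coeff (k - i)) * c := by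
        rw [hc]; push_cast; ring
      rw [h4, h5]
      exact Dvd.dvd.mul_right (mul_dvd_mul h3 h2) _

theorem dvd_of_factorial (p : ℕ) [hp : Fact p.Prime] (hreg : ∀ x : R, (p : R) * x = 0 → x = 0)
    (e : R) (k : ℕ) (hk : 1 ≤ k) (h : (p : R) ^ k ∣ (k.factorial : R) * e) : (p : R) ∣ e := by
  have hpow : ∀ (a : ℕ) (x y : R), (p : R) ^ a * x = (p : R) ^ a * y → x = y := by
    intro a
    induction a with
    | zero => intro x y hxy; simpa using hxy
    | succ a ih =>
      intro x y hxy
      apply ih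
      have : (p : R) * ((p : R) ^ a * x - (p : R) ^ a * y) = 0 := by
        rw [mul_sub, ← mul_assoc, ← mul_assoc, ← pow_succ', hxy, sub_self]
      exact sub_eq_zero.mp (hreg _ this)
  obtain ⟨a, u, hpu, hau⟩ : ∃ a u : ℕ, ¬ p ∣ u ∧ k.factorial = p ^ a * u :=
    Nat.exists_eq_pow_mul_and_not_dvd (Nat.factorial_ne_zero k) p hp.out.ne_one
  have hak : a < k := by
    have h1 : a ≤ padicValNat p k.factorial := by
      rw [← padicValNat_dvd_iff_le (Nat.factorial_ne_zero k), hau]
      exact Dvd.intro _ rfl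
    exact lt_of_le_of_lt h1 (padicValNat_factorial_lt_of_ne_zero p (by omega))
  obtain ⟨w, hw⟩ := h
  have h1 : (p : R) ^ a * ((u : R) * e) = (p : R) ^ a * ((p : R) ^ (k - a) * w) := by
    rw [← mul_assoc, ← mul_assoc, ← pow_add, Nat.add_sub_cancel' hak.le, ← hw, hau]
    push_cast; ring
  have h2 := hpow _ _ _ h1
  have h3 : (p : R) ∣ (u : R) * e := by
    rw [h2]
    exact Dvd.dvd.mul_right (dvd_pow_self _ (by omega)) _
  have h4 : Nat.Coprime p u := (Nat.Prime.coprime_iff_not_dvd hp.out).mpr hpu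
  obtain ⟨x, y, hxy⟩ := Nat.isCoprime_iff_coprime.mpr h4
  have h5 : e = (p : R) * ((x : R) * e) + (y : R) * ((u : R) * e) := by
    have h6 := congrArg (fun z : ℤ => (z : R)) hxy
    push_cast at h6
    linear_combination (-e) * h6
  rw [h5]
  exact dvd_add (Dvd.intro _ rfl) (Dvd.dvd.mul_left h3 _)

end Valuation

section Theta

variable {R : Type*} [CommRing R] {d : Type*} [Fintype d] [DecidableEq d]

/-- the matrix of `v(x) ↦ G(x) v(x^Q)` on `x^-1 R[x^-1]^d` modulo `x^(-B-1) R[x^-1]^d` -/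
def Th (B Q : ℕ) (G : Matrix d d R[X]) : Matrix (Fin B × d) (Fin B × d) R := fun jb ia =>
  if (jb.1 : ℕ) + 1 ≤ Q * ((ia.1 : ℕ) + 1) then
    (G jb.2 ia.2).coeff (Q * ((ia.1 : ℕ) + 1) - ((jb.1 : ℕ) + 1)) else 0

omit [Fintype d] [DecidableEq d] in
theorem Th_apply (B Q : ℕ) (G : Matrix d d R[X]) (j i : Fin B) (b a : d) :
    Th B Q G (j, b) (i, a) = if (j : ℕ) + 1 ≤ Q * ((i : ℕ) + 1) then
      (G b a).coeff (Q * ((i : ℕ) + 1) - ((j : ℕ) + 1)) else 0 := rfl

theorem coeff_mul_expand (f g : R[X]) (q Y j : ℕ) :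
    (if j + 1 ≤ q * Y then (f * expand R q g).coeff (q * Y - (j + 1)) else 0)
      = ∑ l ∈ range Y, (if j + 1 ≤ q * (l + 1) then f.coeff (q * (l + 1) - (j + 1)) else 0)
          * g.coeff (Y - (l + 1)) := by
  induction g using Polynomial.induction_on' with
  | add g₁ g₂ h₁ h₂ =>
    rw [map_add, mul_add f]
    have e1 : ∀ l, (if j + 1 ≤ q * (l + 1) then f.coeff (q * (l + 1) - (j + 1)) else 0)
        * (g₁ + g₂).coeff (Y - (l + 1))
        = (if j + 1 ≤ q * (l + 1) then f.coeff (q * (l + 1) - (j + 1)) else 0)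
          * g₁.coeff (Y - (l + 1))
        + (if j + 1 ≤ q * (l + 1) then f.coeff (q * (l + 1) - (j + 1)) else 0)
          * g₂.coeff (Y - (l + 1)) := fun l => by rw [coeff_add, mul_add (ite _ _ _)]
    simp only [e1, Finset.sum_add_distrib]
    rw [← h₁, ← h₂, coeff_add]
    split_ifs
    · rfl
    · simp
  | monomial w c =>
    have hmon : ∀ N, (f * monomial (w * q) c).coeff N = if q * w ≤ N then f.coeff (N - q * w) * c
        else 0 := by
      intro N
      rw [← C_mul_X_pow_eq_monomial, mul_comm f, mul_assoc, coeff_C_mul,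
          Polynomial.coeff_X_pow_mul', mul_comm w q]
      split_ifs
      · ring
      · ring
    rw [expand_monomial, hmon]
    by_cases hw : w < Y
    · have h1 : q * (Y - w) = q * Y - q * w := Nat.mul_sub _ _ _
      have h2 : q * w ≤ q * Y := Nat.mul_le_mul_left _ hw.le
      rw [Finset.sum_eq_single (Y - 1 - w)]
      · have h4 : (monomial w c).coeff (Y - (Y - 1 - w + 1)) = c := by
          rw [coeff_monomial, if_pos]; omega
        rw [h4, show Y - 1 - w + 1 = Y - w by omega, h1]
        by_cases h3 : j + 1 ≤ q * Y - q * w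
        · rw [if_pos h3, if_pos (show j + 1 ≤ q * Y by omega), if_pos (by omega)]
          congr 2
          omega
        · rw [if_neg h3, zero_mul]
          split_ifs with h4
          · omega
          · rfl
          · rfl
      · intro l hl hl'
        have h4 : (monomial w c).coeff (Y - (l + 1)) = 0 := by
          rw [coeff_monomial, if_neg]
          have := Finset.mem_range.mp hl
          omega
        rw [h4, mul_zero]
      · intro h
        exfalso
        apply h
        rw [Finset.mem_range]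
        omega
    · have h1 : ∀ l ∈ range Y, (if j + 1 ≤ q * (l + 1) then f.coeff (q * (l + 1) - (j + 1)) else 0)
          * (monomial w c).coeff (Y - (l + 1)) = 0 := by
        intro l hl
        have h4 : (monomial w c).coeff (Y - (l + 1)) = 0 := by
          rw [coeff_monomial, if_neg]
          have := Finset.mem_range.mp hl
          omega
        rw [h4, mul_zero]
      rw [Finset.sum_eq_zero h1]
      have h3 : q * Y ≤ q * w := Nat.mul_le_mul_left _ (by omega)
      split_ifs with h2 h4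
      · omega
      · rfl
      · rfl

/-- composition of the truncated operators -/
theorem Th_mul (B q Q : ℕ) (hq : 0 < q) (F G : Matrix d d R[X])
    (hF : ∀ b a, (F b a).natDegree < (q - 1) * (B + 1)) :
    Th B q F * Th B Q G = Th B (q * Q) (F * G.map (expand R q)) := by
  ext ⟨j, b⟩ ⟨i, a⟩
  rw [Matrix.mul_apply, Fintype.sum_prod_type_right, Th_apply, Matrix.mul_apply,
    Polynomial.finsetSum_coeff]
  have e1 : (if (j : ℕ) + 1 ≤ q * Q * ((i : ℕ) + 1) then
      ∑ c, (F b c * (G.map (expand R q)) c a).coeff (q * Q * ((i : ℕ) + 1) - ((j : ℕ) + 1)) else 0)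
      = ∑ c, (if (j : ℕ) + 1 ≤ q * (Q * ((i : ℕ) + 1)) then
          (F b c * expand R q (G c a)).coeff (q * (Q * ((i : ℕ) + 1)) - ((j : ℕ) + 1)) else 0) := by
    rw [mul_assoc]
    split_ifs
    · rfl
    · simp
  rw [e1]
  refine Finset.sum_congr rfl fun c _ => ?_
  rw [coeff_mul_expand _ _ _ _ _]
  simp only [Th_apply]
  rw [Fin.sum_univ_eq_sum_range (fun l => (if (j : ℕ) + 1 ≤ q * (l + 1) then
      (F b c).coeff (q * (l + 1) - ((j : ℕ) + 1)) else 0) *
      if l + 1 ≤ Q * ((i : ℕ) + 1) then (G c a).coeff (Q * ((i : ℕ) + 1) - (l + 1)) else 0) B]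
  set Y := Q * ((i : ℕ) + 1)
  -- both sums are equal to the sum over `range (max B Y)`
  have hsub1 : range B ⊆ range (max B Y) := Finset.range_subset_range.mpr (le_max_left _ _)
  have hsub2 : range Y ⊆ range (max B Y) := Finset.range_subset_range.mpr (le_max_right _ _)
  have e2 : ∑ l ∈ range Y, (if (j : ℕ) + 1 ≤ q * (l + 1) then
      (F b c).coeff (q * (l + 1) - ((j : ℕ) + 1)) else 0) * (G c a).coeff (Y - (l + 1))
      = ∑ l ∈ range Y, (if (j : ℕ) + 1 ≤ q * (l + 1) then
      (F b c).coeff (q * (l + 1) - ((j : ℕ) + 1)) else 0) *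
      if l + 1 ≤ Y then (G c a).coeff (Y - (l + 1)) else 0 := by
    refine Finset.sum_congr rfl fun l hl => ?_
    have := Finset.mem_range.mp hl
    rw [if_pos (show l + 1 ≤ Y by omega)]
  rw [e2, Finset.sum_subset hsub1, Finset.sum_subset hsub2]
  · intro l _ hl
    rw [Finset.mem_range, not_lt] at hl
    rw [if_neg (show ¬ l + 1 ≤ Y by omega), mul_zero]
  · intro l _ hl
    rw [Finset.mem_range, not_lt] at hl
    have h1 : (if (j : ℕ) + 1 ≤ q * (l + 1) then
      (F b c).coeff (q * (l + 1) - ((j : ℕ) + 1)) else 0) = 0 := by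
      split_ifs with h2
      · apply Polynomial.coeff_eq_zero_of_natDegree_lt
        refine lt_of_lt_of_le (hF b c) ?_
        have h3 : (j : ℕ) + 1 ≤ B := j.2
        have h4 : q * (B + 1) ≤ q * (l + 1) := Nat.mul_le_mul_left _ (by omega)
        have h5 : q * (B + 1) = (q - 1) * (B + 1) + (B + 1) := by
          obtain ⟨r, rfl⟩ : ∃ r, q = r + 1 := ⟨q - 1, by omega⟩
          rw [Nat.add_sub_cancel]; ring
        omega
      · rfl
    rw [h1, zero_mul]

/-- `F(x) F(x^q) ... F(x^(q^(n-1)))`, for `n+1` factors -/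
noncomputable def Fr (q : ℕ) (F : Matrix d d R[X]) : ℕ → Matrix d d R[X]
  | 0 => F
  | n + 1 => F * (Fr q F n).map (expand R q)

theorem Th_pow (B q : ℕ) (hq : 0 < q) (F : Matrix d d R[X])
    (hF : ∀ b a, (F b a).natDegree < (q - 1) * (B + 1)) (n : ℕ) :
    Th B q F ^ (n + 1) = Th B (q ^ (n + 1)) (Fr q F n) := by
  induction n with
  | zero => simp [Fr]
  | succ n ih =>
    rw [pow_succ', ih, Th_mul B q _ hq F _ hF, ← pow_succ']
    rfl

theorem natDegree_Fr (B q : ℕ) (hq : 2 ≤ q) (F : Matrix d d R[X])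
    (hF : ∀ b a, (F b a).natDegree < (q - 1) * (B + 1)) (n : ℕ) :
    ∀ b a, (Fr q F n b a).natDegree < (q ^ (n + 1) - 1) * (B + 1) := by
  induction n with
  | zero => intro b a; simpa [Fr] using hF b a
  | succ n ih =>
    intro b a
    show ((F * (Fr q F n).map (expand R q)) b a).natDegree < _
    rw [Matrix.mul_apply]
    refine lt_of_le_of_lt (Polynomial.natDegree_sum_le_of_forall_le (n :=
      (q - 1) * (B + 1) - 1 + ((q ^ (n + 1) - 1) * (B + 1) - 1) * q) _ _ fun c _ => ?_) ?_
    · refine (Polynomial.natDegree_mul_le).trans ?_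
      have h1 := hF b c
      have h2 := ih c a
      rw [Matrix.map_apply, natDegree_expand]
      refine Nat.add_le_add (by omega) (Nat.mul_le_mul_right _ (by omega))
    · have h1 : 1 ≤ q ^ (n + 1) := Nat.one_le_pow _ _ (by omega)
      obtain ⟨r, hr⟩ : ∃ r, q ^ (n + 1) = r + 1 := ⟨q ^ (n + 1) - 1, by omega⟩
      obtain ⟨s, rfl⟩ : ∃ s, q = s + 2 := ⟨q - 2, by omega⟩
      have hr0 : 0 < r := by
        have : 2 ≤ (s + 2) ^ (n + 1) := by
          calc 2 ≤ s + 2 := by omega
            _ ≤ (s + 2) ^ (n + 1) := Nat.le_self_pow (by omega) _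
        omega
      rw [pow_succ (s + 2) (n + 1), hr]
      have e1 : (r + 1) * (s + 2) - 1 = r * (s + 2) + (s + 1) := by
        rw [add_mul]; omega
      have e2 : s + 2 - 1 = s + 1 := rfl
      have e3 : r + 1 - 1 = r := rfl
      rw [e1, e2, e3]
      have h3 : 1 ≤ r * (B + 1) := Nat.mul_pos hr0 (by omega)
      have h4 : (r * (B + 1) - 1) * (s + 2) = r * (B + 1) * (s + 2) - (s + 2) := by
        rw [Nat.sub_mul, one_mul]
      have h5 : 1 ≤ (s + 1) * (B + 1) := Nat.mul_pos (by omega) (by omega)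
      have h6 : s + 2 ≤ r * (B + 1) * (s + 2) := Nat.le_mul_of_pos_left _ h3
      have h7 : (r * (s + 2) + (s + 1)) * (B + 1)
          = r * (B + 1) * (s + 2) + (s + 1) * (B + 1) := by ring
      rw [h4, h7]
      omega

/-- the functional `g ↦ ∑_{1 ≤ i ≤ N} coeff_{(Q-1)i} g` -/
def lam (Q N : ℕ) (g : R[X]) : R := ∑ i ∈ range N, g.coeff ((Q - 1) * (i + 1))

theorem lam_add (Q N : ℕ) (g h : R[X]) : lam Q N (g + h) = lam Q N g + lam Q N h := by
  simp [lam, Finset.sum_add_distrib]

theorem lam_C_mul (Q N : ℕ) (c : R) (g : R[X]) : lam Q N (C c * g) = c * lam Q N g := by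
  simp [lam, Finset.mul_sum]

theorem lam_mul_sub (Q N : ℕ) (hQ : 2 ≤ Q) (h : R[X]) :
    lam Q N (h * (X ^ Q - X)) + h.coeff ((Q - 1) * N - 1) = if N = 0 then h.coeff 0 else 0 := by
  induction N with
  | zero => simp [lam]
  | succ N ih =>
    unfold lam at ih ⊢
    rw [Finset.sum_range_succ, mul_sub, coeff_sub, Polynomial.coeff_mul_X_pow', if_neg (by omega :
      ¬ N + 1 = 0)]
    have e1 : (Q - 1) * (N + 1) = (Q - 1) * N + (Q - 1) := by ring
    have e2 : (h * X).coeff ((Q - 1) * (N + 1)) = h.coeff ((Q - 1) * (N + 1) - 1) := by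
      have : (Q - 1) * (N + 1) = ((Q - 1) * (N + 1) - 1) + 1 := by omega
      conv_lhs => rw [this]
      rw [Polynomial.coeff_mul_X]
    rw [e2]
    simp only [mul_sub] at ih
    by_cases hN : N = 0
    · subst hN
      rw [if_neg (by omega)]
      simp
    · rw [if_neg hN] at ih
      have h1 : 1 ≤ (Q - 1) * N := Nat.mul_pos (by omega) (by omega)
      rw [if_pos (by omega)]
      have e3 : (Q - 1) * (N + 1) - Q = (Q - 1) * N - 1 := by omega
      rw [e3]
      linear_combination ih

theorem trace_Th (B Q : ℕ) (hQ : 2 ≤ Q) (G : Matrix d d R[X]) :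
    (Th B Q G).trace = lam Q B G.trace := by
  unfold Matrix.trace lam
  rw [Fintype.sum_prod_type]
  simp only [Matrix.diag_apply, Th_apply]
  rw [← Fin.sum_univ_eq_sum_range (fun i => (∑ a, G a a).coeff ((Q - 1) * (i + 1))) B]
  refine Finset.sum_congr rfl fun i _ => ?_
  rw [Polynomial.finsetSum_coeff]
  refine Finset.sum_congr rfl fun a _ => ?_
  have h1 : (i : ℕ) + 1 ≤ Q * ((i : ℕ) + 1) := Nat.le_mul_of_pos_left _ (by omega)
  rw [if_pos h1]
  congr 1
  rw [Nat.sub_mul, one_mul]

theorem lam_stable (Q B N : ℕ) (hN : B ≤ N) (g : R[X])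
    (hg : g.natDegree < (Q - 1) * (B + 1)) : lam Q B g = lam Q N g := by
  unfold lam
  refine Finset.sum_subset (Finset.range_subset_range.mpr hN) fun i _ hi => ?_
  rw [Finset.mem_range, not_lt] at hi
  apply Polynomial.coeff_eq_zero_of_natDegree_lt
  exact lt_of_lt_of_le hg (Nat.mul_le_mul_left _ (by omega))

/-- ideal `(X^Q - X, p^l)` -/
noncomputable def Iq (p Q l : ℕ) : Ideal R[X] := Ideal.span {X ^ Q - X, C ((p : R) ^ l)}

theorem mem_Iq {p Q l : ℕ} {f : R[X]} :
    f ∈ (Iq p Q l : Ideal R[X]) ↔ ∃ a b, a * (X ^ Q - X) + b * C ((p : R) ^ l) = f := by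
  unfold Iq
  exact Ideal.mem_span_pair

theorem mul_expand_mem_Iq (p q Q l : ℕ) {f g : R[X]} (hf : f ∈ (Iq p Q 1 : Ideal R[X]))
    (hg : g ∈ (Iq p Q l : Ideal R[X])) : f * expand R q g ∈ (Iq p Q (l + 1) : Ideal R[X]) := by
  rw [mem_Iq] at *
  obtain ⟨a, b, rfl⟩ := hf
  obtain ⟨a', b', rfl⟩ := hg
  have h1 : expand R q (X ^ Q - X : R[X]) = X ^ (q * Q) - X ^ q := by
    rw [map_sub, map_pow, expand_X, ← pow_mul]
  obtain ⟨c, hc⟩ : (X ^ Q - X : R[X]) ∣ X ^ (q * Q) - X ^ q := by
    rw [mul_comm q Q, pow_mul]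
    exact sub_dvd_pow_sub_pow _ _ _
  refine ⟨(a * (X ^ Q - X) + b * C ((p : R) ^ 1)) * expand R q a' * c
    + a * (expand R q b' * C ((p : R) ^ l)), b * expand R q b', ?_⟩
  have e : expand R q (C ((p : R) ^ l) : R[X]) = C ((p : R) ^ l) := expand_C _ _
  have e2 : (C ((p : R) ^ (l + 1)) : R[X]) = C ((p : R) ^ l) * C ((p : R) ^ 1) := by
    rw [← C_mul, pow_succ, pow_one]
  rw [map_add, map_mul, map_mul, h1, hc, e, e2]
  ring

theorem Fr_mem_Iq (p q Q : ℕ) (F : Matrix d d R[X])
    (hF : ∀ b a, F b a ∈ (Iq p Q 1 : Ideal R[X])) (n : ℕ) :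
    ∀ b a, Fr q F n b a ∈ (Iq p Q (n + 1) : Ideal R[X]) := by
  induction n with
  | zero => intro b a; exact hF b a
  | succ n ih =>
    intro b a
    show (F * (Fr q F n).map (expand R q)) b a ∈ _
    rw [Matrix.mul_apply]
    exact Ideal.sum_mem _ fun c _ => mul_expand_mem_Iq p q Q (n + 1) (hF b c) (ih c a)

/-- the trace of the `n`-th power is divisible by `p^n` -/
theorem dvd_trace_pow (p B q : ℕ) (hq : 2 ≤ q) (F : Matrix d d R[X])
    (hF : ∀ b a, (F b a).natDegree < (q - 1) * (B + 1)) (n : ℕ)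
    (hI : ∀ b a, F b a ∈ (Iq p (q ^ (n + 1)) 1 : Ideal R[X])) :
    (p : R) ^ (n + 1) ∣ (Th B q F ^ (n + 1)).trace := by
  have hQ : 2 ≤ q ^ (n + 1) := by
    calc 2 ≤ q := hq
      _ ≤ q ^ (n + 1) := Nat.le_self_pow (by omega) _
  rw [Th_pow B q (by omega) F hF, trace_Th _ _ hQ]
  have h1 : (Fr q F n).trace ∈ (Iq p (q ^ (n + 1)) (n + 1) : Ideal R[X]) :=
    Ideal.sum_mem _ fun a _ => Fr_mem_Iq p q _ F hI n a a
  have h2 : (Fr q F n).trace.natDegree < (q ^ (n + 1) - 1) * (B + 1) := by
    have h0 : 0 < (q ^ (n + 1) - 1) * (B + 1) := Nat.mul_pos (by omega) (by omega)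
    refine lt_of_le_of_lt (Polynomial.natDegree_sum_le_of_forall_le
      (n := (q ^ (n + 1) - 1) * (B + 1) - 1) _ _ fun a _ => ?_) (by omega)
    have := natDegree_Fr B q hq F hF n a a
    rw [Matrix.diag_apply]
    omega
  obtain ⟨a, b, hab⟩ := mem_Iq.mp h1
  set N := B + a.natDegree + 2
  rw [lam_stable _ _ N (by omega) _ h2, ← hab, lam_add, mul_comm b, lam_C_mul]
  have h3 := lam_mul_sub (q ^ (n + 1)) N hQ a
  rw [if_neg (by omega)] at h3
  have h4 : a.coeff ((q ^ (n + 1) - 1) * N - 1) = 0 := by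
    apply Polynomial.coeff_eq_zero_of_natDegree_lt
    have : N ≤ (q ^ (n + 1) - 1) * N := Nat.le_mul_of_pos_left _ (by omega)
    omega
  rw [h4, add_zero] at h3
  rw [h3, zero_add]
  exact Dvd.intro _ rfl

theorem coeff_charpolyRev_dvd (p : ℕ) [Fact p.Prime] (hreg : ∀ x : R, (p : R) * x = 0 → x = 0)
    (B q : ℕ) (hq : 2 ≤ q) (F : Matrix d d R[X])
    (hF : ∀ b a, (F b a).natDegree < (q - 1) * (B + 1)) (m : ℕ)
    (hI : ∀ n, 1 ≤ n → n ≤ m → ∀ b a, F b a ∈ (Iq p (q ^ n) 1 : Ideal R[X])) (n : ℕ)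
    (hn : 1 ≤ n) (hnm : n ≤ m) : (p : R) ∣ (Th B q F).charpolyRev.coeff n := by
  apply dvd_of_factorial p hreg _ n hn
  refine factorial_mul_coeff p _ m (fun i hi him => ?_) n hnm
  obtain ⟨i, rfl⟩ : ∃ i', i = i' + 1 := ⟨i - 1, by omega⟩
  exact dvd_trace_pow p B q hq F hF i (hI (i + 1) hi him)

theorem charpolyRev_map {S : Type*} [CommRing S] {n : Type*} [Fintype n] [DecidableEq n]
    (f : R →+* S) (M : Matrix n n R) :
    (M.map f).charpolyRev = M.charpolyRev.map f := by
  unfold Matrix.charpolyRev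
  rw [← Polynomial.coe_mapRingHom, RingHom.map_det]
  congr 1
  ext1 i j
  simp [Matrix.map_apply, Matrix.one_apply]
  split_ifs <;> simp

theorem Th_map {S : Type*} [CommRing S] (f : R →+* S) (B Q : ℕ) (G : Matrix d d R[X]) :
    (Th B Q G).map f = Th B Q (G.map (Polynomial.map f)) := by
  ext ⟨j, b⟩ ⟨i, a⟩
  rw [Matrix.map_apply, Th_apply, Th_apply, Matrix.map_apply]
  split_ifs
  · rw [coeff_map]
  · exact map_zero f

end Theta

section Main

variable {k : Type*} [Field k] [Finite k] {d : Type*} [Fintype d] [DecidableEq d]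

/-- **(T1)** -/
theorem T1 (p : ℕ) [hp : Fact p.Prime] [CharP k p] (q : ℕ) (hq : 2 ≤ q) (F : Matrix d d k[X])
    (m B : ℕ) (hF : ∀ n, 1 ≤ n → n ≤ m → ∀ b a, (X ^ (q ^ n) - X : k[X]) ∣ F b a)
    (hB : ∀ b a, (F b a).natDegree < (q - 1) * (B + 1)) (n : ℕ) (hn : 1 ≤ n) (hnm : n ≤ m) :
    (Th B q F).charpolyRev.coeff n = 0 := by
  have : PerfectRing k p := inferInstance
  let φ : WittVector p k →+* k := WittVector.constantCoeff
  have hφ : Function.Surjective φ := WittVector.constantCoeff_surjective p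
  have hker : ∀ x, φ x = 0 → (p : WittVector p k) ∣ x := by
    intro x hx
    exact Ideal.mem_span_singleton.mp
      ((WittVector.mem_span_p_iff_coeff_zero_eq_zero x).mpr hx)
  have hlift : ∀ b a, ∃ f : (WittVector p k)[X], f.map φ = F b a ∧ f.degree = (F b a).degree := by
    intro b a
    apply Polynomial.exists_degree_eq_of_mem_lifts
    rw [Polynomial.mem_lifts]
    exact Polynomial.map_surjective φ hφ _
  choose F' hF1 hF2 using hlift
  have hF3 : (Matrix.of F').map (Polynomial.map φ) = F := by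
    ext1 b a
    exact hF1 b a
  have key := coeff_charpolyRev_dvd (R := WittVector p k) p (fun x hx => ?_) B q hq (Matrix.of F')
    (fun b a => ?_) m (fun n hn hnm b a => ?_) n hn hnm
  · rw [← hF3, ← Th_map, charpolyRev_map, coeff_map]
    obtain ⟨c, hc⟩ := key
    rw [hc, map_mul, map_natCast, CharP.cast_eq_zero, zero_mul]
  · rcases mul_eq_zero.mp hx with h | h
    · exfalso
      exact WittVector.p_nonzero p k h
    · exact h
  · have := hB b a
    rwa [← Polynomial.natDegree_eq_of_degree_eq (hF2 b a)] at this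
  · obtain ⟨h, hh⟩ := hF n hn hnm b a
    obtain ⟨h', rfl⟩ := Polynomial.map_surjective φ hφ h
    rw [mem_Iq]
    have h1 : ∃ r : (WittVector p k)[X], C (p : WittVector p k) * r
        = F' b a - h' * (X ^ (q ^ n) - X) := by
      have h2 : C (p : WittVector p k) ∣ F' b a - h' * (X ^ (q ^ n) - X) := by
        rw [Polynomial.C_dvd_iff_dvd_coeff]
        intro i
        apply hker
        rw [← coeff_map, Polynomial.map_sub, hF1, hh]
        simp [mul_comm]
      obtain ⟨r, hr⟩ := h2
      exact ⟨r, hr.symm⟩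
    obtain ⟨r, hr⟩ := h1
    refine ⟨h', r, ?_⟩
    rw [pow_one, mul_comm r, hr, Matrix.of_apply]
    ring

end Main

end Crest.Agent.R013.CntT1_262
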