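import Mathlib

/-!
# R013 / CNT: `chr φ = det (1 - T φ)` for endomorphisms of vector spaces (0 in infinite dimension),
multiplicativity in exact sequences, equivariant index lemma (helper262)
-/

set_option autoImplicit false

namespace Crest.Agent.R013.CntChr_262

open Polynomial Module

section Basic

variable {k : Type*} [Field k]

/-- `det (1 - T φ)`, and `0` in infinite dimension -/
noncomputable def chr {M : Type*} [AddCommGroup M] [Module k M] (φ : M →ₗ[k] M) : k[X] := by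
  classical
  exact if h : Module.Finite k M then φ.charpoly.reverse else 0

theorem chr_eq {M : Type*} [AddCommGroup M] [Module k M] [Module.Finite k M] (φ : M →ₗ[k] M) :
    chr φ = φ.charpoly.reverse := by
  unfold chr
  rw [dif_pos ‹Module.Finite k M›]

theorem chr_infinite {M : Type*} [AddCommGroup M] [Module k M] (h : ¬ Module.Finite k M)
    (φ : M →ₗ[k] M) : chr φ = 0 := by
  unfold chr
  rw [dif_neg h]

theorem chr_toMatrix {M : Type*} [AddCommGroup M] [Module k M] {ι : Type*} [Fintype ι]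
    [DecidableEq ι] (b : Basis ι k M) (φ : M →ₗ[k] M) :
    chr φ = (LinearMap.toMatrix b b φ).charpolyRev := by
  have : Module.Finite k M := Module.Finite.of_basis b
  rw [chr_eq, ← Matrix.reverse_charpoly, LinearMap.charpoly_toMatrix]

theorem chr_coeff_zero {M : Type*} [AddCommGroup M] [Module k M] [Module.Finite k M]
    (φ : M →ₗ[k] M) : (chr φ).coeff 0 = 1 := by
  rw [chr_toMatrix (Module.finBasis k M) φ, Polynomial.coeff_zero_eq_eval_zero,
    Matrix.eval_charpolyRev]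

theorem chr_ne_zero {M : Type*} [AddCommGroup M] [Module k M] [Module.Finite k M]
    (φ : M →ₗ[k] M) : chr φ ≠ 0 := by
  intro h
  have := chr_coeff_zero φ
  rw [h] at this
  simp at this

theorem chr_conj {M M' : Type*} [AddCommGroup M] [Module k M] [AddCommGroup M'] [Module k M']
    (e : M ≃ₗ[k] M') (φ : M →ₗ[k] M) (φ' : M' →ₗ[k] M') (h : ∀ x, e (φ x) = φ' (e x)) :
    chr φ = chr φ' := by
  by_cases hM : Module.Finite k M
  · have hM' : Module.Finite k M' := Module.Finite.equiv e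
    rw [chr_eq, chr_eq]
    have : φ' = e.conj φ := by
      ext x
      rw [LinearEquiv.conj_apply, LinearMap.comp_apply, LinearMap.comp_apply,
        LinearEquiv.coe_coe, LinearEquiv.coe_coe, h, LinearEquiv.apply_symm_apply]
    rw [this, LinearEquiv.charpoly_conj]
  · have hM' : ¬ Module.Finite k M' := fun h' => hM (Module.Finite.equiv e.symm)
    rw [chr_infinite hM, chr_infinite hM']

theorem charpoly_eq_mul {V : Type*} [AddCommGroup V] [Module k V] [Module.Finite k V]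
    (W : Submodule k V) (e : V →ₗ[k] V) (he : W ≤ W.comap e) :
    e.charpoly = (e.restrict he).charpoly * (W.mapQ W e he).charpoly := by
  classical
  let m := Module.Free.ChooseBasisIndex k W
  let bW : Basis m k W := Module.Free.chooseBasis k W
  let n := Module.Free.ChooseBasisIndex k (V ⧸ W)
  let bQ : Basis n k (V ⧸ W) := Module.Free.chooseBasis k (V ⧸ W)
  let b := Basis.sumQuot bW bQ
  let A : Matrix m m k := LinearMap.toMatrix bW bW (e.restrict he)
  let B : Matrix m n k := Matrix.of fun i l ↦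
    ((Basis.sumQuot bW bQ).repr (e ((Basis.sumQuot bW bQ) (Sum.inr l)))) (Sum.inl i)
  let D : Matrix n n k := LinearMap.toMatrix bQ bQ (W.mapQ W e he)
  suffices LinearMap.toMatrix b b e = Matrix.fromBlocks A B 0 D by
    rw [← LinearMap.charpoly_toMatrix e b, this, ← LinearMap.charpoly_toMatrix _ bW,
      ← LinearMap.charpoly_toMatrix _ bQ, Matrix.charpoly_fromBlocks_zero₂₁]
  ext u v
  cases u with
  | inl i =>
    cases v with
    | inl k =>
      simp only [b, Basis.sumQuot_inl, Matrix.fromBlocks_apply₁₁, A, LinearMap.toMatrix_apply]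
      apply Basis.sumQuot_repr_inl_of_mem
    | inr l => simp [b, LinearMap.toMatrix_apply, Matrix.fromBlocks_apply₁₂, B]
  | inr j =>
    cases v with
    | inl k =>
      suffices W.mkQ (e (bW k)) = 0 by simp [LinearMap.toMatrix_apply, b, this]
      rw [← LinearMap.mem_ker, Submodule.ker_mkQ]
      exact he (Submodule.coe_mem (bW k))
    | inr l =>
      simp only [LinearMap.toMatrix_apply, Basis.sumQuot_repr_inr,
        Matrix.fromBlocks_apply₂₂, b, D]
      rw [← Basis.sumQuot_inr bW bQ l, W.mapQ_apply]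
      simp

/-- multiplicativity in short exact sequences -/
theorem chr_exact {M₁ M₂ M₃ : Type*} [AddCommGroup M₁] [Module k M₁] [AddCommGroup M₂]
    [Module k M₂] [AddCommGroup M₃] [Module k M₃] (f : M₁ →ₗ[k] M₂) (g : M₂ →ₗ[k] M₃)
    (hf : Function.Injective f) (hg : Function.Surjective g) (hfg : Function.Exact f g)
    (φ₁ : M₁ →ₗ[k] M₁) (φ₂ : M₂ →ₗ[k] M₂) (φ₃ : M₃ →ₗ[k] M₃)
    (h₁ : ∀ x, f (φ₁ x) = φ₂ (f x)) (h₂ : ∀ x, g (φ₂ x) = φ₃ (g x)) :
    chr φ₂ = chr φ₁ * chr φ₃ := by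
  by_cases hM : Module.Finite k M₂
  · have hM₁ : Module.Finite k M₁ := Module.Finite.of_injective f hf
    have hM₃ : Module.Finite k M₃ := Module.Finite.of_surjective g hg
    let W := LinearMap.range f
    have hW : W ≤ W.comap φ₂ := by
      rintro _ ⟨x, rfl⟩
      exact ⟨φ₁ x, h₁ x⟩
    have e1 := charpoly_eq_mul W φ₂ hW
    have e2 : chr φ₁ = chr (φ₂.restrict hW) := by
      refine chr_conj (LinearEquiv.ofInjective f hf) _ _ fun x => ?_
      apply Subtype.ext
      simp only [LinearEquiv.ofInjective_apply, LinearMap.restrict_apply]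
      exact h₁ x
    have hker : LinearMap.ker g = W := by
      exact hfg.linearMap_ker_eq
    have e3 : chr (W.mapQ W φ₂ hW) = chr φ₃ := by
      refine chr_conj ((Submodule.quotEquivOfEq _ _ hker.symm).trans
        (g.quotKerEquivOfSurjective hg)) _ _ fun x => ?_
      obtain ⟨x, rfl⟩ := Submodule.Quotient.mk_surjective _ x
      rw [Submodule.mapQ_apply]
      simp only [LinearEquiv.trans_apply, Submodule.quotEquivOfEq_mk]
      show g (φ₂ x) = φ₃ (g x)
      exact h₂ x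
    rw [e2, ← e3, chr_eq, chr_eq, chr_eq, e1, Polynomial.reverse_mul_of_domain]
  · rw [chr_infinite hM]
    symm
    by_cases hM₁ : Module.Finite k M₁
    · have hM₃ : ¬ Module.Finite k M₃ := by
        intro hM₃
        apply hM
        exact Module.Finite.of_exact hfg hg
      rw [chr_infinite hM₃, mul_zero]
    · rw [chr_infinite hM₁, zero_mul]

theorem chr_subsingleton {M : Type*} [AddCommGroup M] [Module k M] [Subsingleton M]
    (φ : M →ₗ[k] M) : chr φ = 1 := by
  have h := chr_toMatrix (Basis.empty M : Basis Empty k M) φ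
  rw [h]
  unfold Matrix.charpolyRev
  exact Matrix.det_isEmpty

/-- nilpotent endomorphisms -/
theorem chr_of_pow_eq_zero {M : Type*} [AddCommGroup M] [Module k M] [Module.Finite k M]
    (φ : M →ₗ[k] M) (n : ℕ) (h : φ ^ n = 0) : chr φ = 1 := by
  have h1 : φ.charpoly = X ^ finrank k M := by
    have := (LinearMap.charpoly_eq_X_pow_iff φ).mpr
    apply this
    intro m
    exact ⟨n, by rw [h]; rfl⟩
  rw [chr_eq, h1, ← one_mul (X ^ finrank k M), Polynomial.reverse_mul_X_pow]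
  exact Polynomial.reverse_C 1

end Basic

section Index

variable {k V : Type*} [Field k] [AddCommGroup V] [Module k V]

/-- `P` is stable under `Φ` -/
def St (Φ : V →ₗ[k] V) (P : Submodule k V) : Prop := ∀ x ∈ P, Φ x ∈ P

theorem St.inf {Φ : V →ₗ[k] V} {P Q : Submodule k V} (hP : St Φ P) (hQ : St Φ Q) :
    St Φ (P ⊓ Q) := fun x hx => ⟨hP x hx.1, hQ x hx.2⟩

theorem St.sup {Φ : V →ₗ[k] V} {P Q : Submodule k V} (hP : St Φ P) (hQ : St Φ Q) :
    St Φ (P ⊔ Q) := by
  intro x hx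
  obtain ⟨y, hy, z, hz, rfl⟩ := Submodule.mem_sup.mp hx
  rw [map_add]
  exact Submodule.add_mem_sup (hP y hy) (hQ z hz)

theorem St.top (Φ : V →ₗ[k] V) : St Φ ⊤ := fun _ _ => trivial

theorem St.bot (Φ : V →ₗ[k] V) : St Φ ⊥ := by
  intro x hx
  rw [Submodule.mem_bot] at hx ⊢
  rw [hx, map_zero]

/-- the induced endomorphism of `Q / P ⊓ Q` -/
noncomputable def ind (Φ : V →ₗ[k] V) {P Q : Submodule k V} (hP : St Φ P) (hQ : St Φ Q) :
    (Q ⧸ P.submoduleOf Q) →ₗ[k] (Q ⧸ P.submoduleOf Q) :=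
  Submodule.mapQ _ _ (Φ.restrict hQ) (by
    intro x hx
    simp only [Submodule.submoduleOf, Submodule.mem_comap] at hx ⊢
    exact hP _ hx)

theorem ind_mk (Φ : V →ₗ[k] V) {P Q : Submodule k V} (hP : St Φ P) (hQ : St Φ Q) (x : Q) :
    ind Φ hP hQ (Submodule.Quotient.mk x) = Submodule.Quotient.mk (⟨Φ x, hQ x x.2⟩ : Q) := by
  unfold ind
  rw [Submodule.mapQ_apply]
  rfl

/-- `det (1 - T Φ | Q / P ⊓ Q)` -/
noncomputable def dq (Φ : V →ₗ[k] V) {P Q : Submodule k V} (hP : St Φ P) (hQ : St Φ Q) : k[X] :=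
  chr (ind Φ hP hQ)

theorem dq_self (Φ : V →ₗ[k] V) {P : Submodule k V} (hP : St Φ P) : dq Φ hP hP = 1 := by
  have : Subsingleton (P ⧸ P.submoduleOf P) := by
    rw [Submodule.submoduleOf_self]
    exact Submodule.Quotient.subsingleton_iff.mpr rfl
  exact chr_subsingleton _

theorem dq_congr (Φ : V →ₗ[k] V) {P Q P' Q' : Submodule k V} (hP : St Φ P) (hQ : St Φ Q)
    (hP' : St Φ P') (hQ' : St Φ Q') (h1 : P = P') (h2 : Q = Q') :
    dq Φ hP hQ = dq Φ hP' hQ' := by
  subst h1 h2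
  rfl

/-- additivity -/
theorem dq_mul (Φ : V →ₗ[k] V) {P Q S : Submodule k V} (hP : St Φ P) (hQ : St Φ Q)
    (hS : St Φ S) (h : P ≤ Q) (h' : Q ≤ S) :
    dq Φ hP hS = dq Φ hP hQ * dq Φ hQ hS := by
  let f : (Q ⧸ P.submoduleOf Q) →ₗ[k] (S ⧸ P.submoduleOf S) :=
    Submodule.mapQ _ _ (Submodule.inclusion h') (by
      intro x hx
      simpa [Submodule.submoduleOf] using hx)
  let g : (S ⧸ P.submoduleOf S) →ₗ[k] (S ⧸ Q.submoduleOf S) :=
    Submodule.mapQ _ _ LinearMap.id (by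
      intro x hx
      simp only [Submodule.submoduleOf, Submodule.mem_comap] at hx ⊢
      exact h hx)
  refine chr_exact f g ?_ ?_ ?_ _ _ _ ?_ ?_
  · rw [← LinearMap.ker_eq_bot, LinearMap.ker_eq_bot']
    intro x
    obtain ⟨x, rfl⟩ := Submodule.Quotient.mk_surjective _ x
    intro hx
    simp only [f, Submodule.mapQ_apply, Submodule.Quotient.mk_eq_zero] at hx ⊢
    simpa [Submodule.submoduleOf] using hx
  · intro x
    obtain ⟨x, rfl⟩ := Submodule.Quotient.mk_surjective _ x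
    exact ⟨Submodule.Quotient.mk x, by simp only [g, Submodule.mapQ_apply, LinearMap.id_apply]⟩
  · intro x
    obtain ⟨x, rfl⟩ := Submodule.Quotient.mk_surjective _ x
    constructor
    · intro hx
      simp only [g, Submodule.mapQ_apply, LinearMap.id_apply, Submodule.Quotient.mk_eq_zero] at hx
      refine ⟨Submodule.Quotient.mk ⟨x, hx⟩, ?_⟩
      simp only [f, Submodule.mapQ_apply]
      congr 1
    · rintro ⟨y, hy⟩
      obtain ⟨y, rfl⟩ := Submodule.Quotient.mk_surjective _ y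
      rw [← hy]
      simp only [f, g, Submodule.mapQ_apply, LinearMap.id_apply, Submodule.Quotient.mk_eq_zero]
      exact y.2
  · intro x
    obtain ⟨x, rfl⟩ := Submodule.Quotient.mk_surjective _ x
    simp only [f]
    rw [ind_mk, Submodule.mapQ_apply, Submodule.mapQ_apply, ind_mk]
    rfl
  · intro x
    obtain ⟨x, rfl⟩ := Submodule.Quotient.mk_surjective _ x
    simp only [g]
    rw [ind_mk, Submodule.mapQ_apply, Submodule.mapQ_apply, LinearMap.id_apply,
      LinearMap.id_apply, ind_mk]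

/-- second isomorphism theorem -/
theorem dq_sup (Φ : V →ₗ[k] V) {M N : Submodule k V} (hM : St Φ M) (hN : St Φ N) :
    dq Φ hM (hN.sup hM) = dq Φ hM hN := by
  symm
  have hNM : N ≤ N ⊔ M := le_sup_left
  let f : (N ⧸ M.submoduleOf N) →ₗ[k] ((N ⊔ M : Submodule k V) ⧸ M.submoduleOf (N ⊔ M)) :=
    Submodule.mapQ _ _ (Submodule.inclusion hNM) (by
      intro x hx
      simpa [Submodule.submoduleOf] using hx)
  have hf : Function.Bijective f := by
    constructor
    · rw [← LinearMap.ker_eq_bot, LinearMap.ker_eq_bot']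
      intro x
      obtain ⟨x, rfl⟩ := Submodule.Quotient.mk_surjective _ x
      intro hx
      simp only [f, Submodule.mapQ_apply, Submodule.Quotient.mk_eq_zero] at hx ⊢
      simpa [Submodule.submoduleOf] using hx
    · intro x
      obtain ⟨⟨x, hx⟩, rfl⟩ := Submodule.Quotient.mk_surjective _ x
      obtain ⟨y, hy, z, hz, rfl⟩ := Submodule.mem_sup.mp hx
      refine ⟨Submodule.Quotient.mk ⟨y, hy⟩, ?_⟩
      simp only [f, Submodule.mapQ_apply]
      rw [Submodule.Quotient.eq, Submodule.submoduleOf, Submodule.mem_comap]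
      have : -z ∈ M := M.neg_mem hz
      simpa using this
  refine chr_conj (LinearEquiv.ofBijective f hf) _ _ fun x => ?_
  obtain ⟨x, rfl⟩ := Submodule.Quotient.mk_surjective _ x
  simp only [LinearEquiv.ofBijective_apply, f]
  rw [ind_mk, Submodule.mapQ_apply, Submodule.mapQ_apply, ind_mk]
  rfl

theorem dq_inf (Φ : V →ₗ[k] V) {M N : Submodule k V} (hM : St Φ M) (hN : St Φ N) :
    dq Φ (hM.inf hN) hN = dq Φ hM hN := by
  have h1 : (M ⊓ N).submoduleOf N = M.submoduleOf N := by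
    ext x; simp [Submodule.submoduleOf]
  refine chr_conj (Submodule.quotEquivOfEq _ _ h1) _ _ fun x => ?_
  obtain ⟨x, rfl⟩ := Submodule.Quotient.mk_surjective _ x
  rw [ind_mk, Submodule.quotEquivOfEq_mk, Submodule.quotEquivOfEq_mk, ind_mk]

theorem dq_split (Φ : V →ₗ[k] V) {M N N₁ : Submodule k V} (hM : St Φ M) (hN : St Φ N)
    (hN₁ : St Φ N₁) (h : N ≤ N₁) :
    dq Φ hN hN₁ = dq Φ (hM.inf hN) (hM.inf hN₁) * dq Φ (hM.sup hN) (hM.sup hN₁) := by
  have h1 : N ≤ (M ⊓ N₁) ⊔ N := le_sup_right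
  have h2 : (M ⊓ N₁) ⊔ N ≤ N₁ := sup_le inf_le_right h
  rw [dq_mul Φ hN ((hM.inf hN₁).sup hN) hN₁ h1 h2, dq_sup Φ hN (hM.inf hN₁)]
  congr 1
  · rw [← dq_inf Φ hN (hM.inf hN₁)]
    apply dq_congr
    · rw [inf_comm N, inf_assoc, inf_eq_right.mpr h]
    · rfl
  · have h3 : M ⊔ N₁ = N₁ ⊔ (M ⊔ N) := by
      rw [sup_comm N₁, sup_assoc, sup_eq_right.mpr h]
    rw [dq_congr Φ (hM.sup hN) (hM.sup hN₁) (hM.sup hN) (hN₁.sup (hM.sup hN)) rfl h3,
      dq_sup Φ (hM.sup hN) hN₁,
      ← dq_inf Φ (hM.sup hN) hN₁]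
    apply dq_congr
    · rw [sup_comm M N, sup_inf_assoc_of_le _ h, sup_comm]
    · rfl

/-- `det (1 - T Φ | M ⊓ N)` -/
noncomputable def d0 (Φ : V →ₗ[k] V) {M N : Submodule k V} (hM : St Φ M) (hN : St Φ N) : k[X] :=
  dq Φ (St.bot Φ) (hM.inf hN)

/-- `det (1 - T Φ | V / (M ⊔ N))` -/
noncomputable def d1 (Φ : V →ₗ[k] V) {M N : Submodule k V} (hM : St Φ M) (hN : St Φ N) : k[X] :=
  dq Φ (hM.sup hN) (St.top Φ)

/-- equivariant index lemma -/
theorem d_index (Φ : V →ₗ[k] V) {M N N₁ : Submodule k V} (hM : St Φ M) (hN : St Φ N)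
    (hN₁ : St Φ N₁) (h : N ≤ N₁) :
    d0 Φ hM hN₁ * d1 Φ hM hN = d0 Φ hM hN * d1 Φ hM hN₁ * dq Φ hN hN₁ := by
  have e0 : d0 Φ hM hN₁ = d0 Φ hM hN * dq Φ (hM.inf hN) (hM.inf hN₁) :=
    dq_mul Φ _ _ _ bot_le (inf_le_inf_left M h)
  have e1 : d1 Φ hM hN = dq Φ (hM.sup hN) (hM.sup hN₁) * d1 Φ hM hN₁ :=
    dq_mul Φ _ _ _ (sup_le_sup_left h M) le_top
  rw [e0, e1, dq_split Φ hM hN hN₁ h]
  ring

theorem d0_comm (Φ : V →ₗ[k] V) {M N : Submodule k V} (hM : St Φ M) (hN : St Φ N) :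
    d0 Φ hM hN = d0 Φ hN hM := dq_congr _ _ _ _ _ rfl (inf_comm _ _)

theorem d1_comm (Φ : V →ₗ[k] V) {M N : Submodule k V} (hM : St Φ M) (hN : St Φ N) :
    d1 Φ hM hN = d1 Φ hN hM := dq_congr _ _ _ _ _ (sup_comm _ _) rfl

theorem d0_congr (Φ : V →ₗ[k] V) {M N M' N' : Submodule k V} (hM : St Φ M) (hN : St Φ N)
    (hM' : St Φ M') (hN' : St Φ N') (h1 : M = M') (h2 : N = N') :
    d0 Φ hM hN = d0 Φ hM' hN' := by
  subst h1 h2; rfl

theorem d1_congr (Φ : V →ₗ[k] V) {M N M' N' : Submodule k V} (hM : St Φ M) (hN : St Φ N)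
    (hM' : St Φ M') (hN' : St Φ N') (h1 : M = M') (h2 : N = N') :
    d1 Φ hM hN = d1 Φ hM' hN' := by
  subst h1 h2; rfl

theorem d0_of_inf_eq_bot (Φ : V →ₗ[k] V) {M N : Submodule k V} (hM : St Φ M) (hN : St Φ N)
    (h : M ⊓ N = ⊥) : d0 Φ hM hN = 1 := by
  rw [← dq_self Φ (St.bot Φ)]
  exact dq_congr _ _ _ _ _ rfl h

/-- if some iterate of `Φ` maps `Q` to `P`, `Q/P` finite, then `det (1 - TΦ | Q/P) = 1`. -/
theorem dq_nilpotent (Φ : V →ₗ[k] V) {P Q : Submodule k V} (hP : St Φ P) (hQ : St Φ Q)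
    (hfin : Module.Finite k (Q ⧸ P.submoduleOf Q)) (n : ℕ)
    (h : ∀ x ∈ Q, (Φ ^ n) x ∈ P) : dq Φ hP hQ = 1 := by
  apply chr_of_pow_eq_zero _ n
  ext x
  simp only [LinearMap.comp_apply, Submodule.mkQ_apply, LinearMap.zero_apply]
  have key : ∀ m, ∃ hm : (Φ ^ m) (x : V) ∈ Q, ((ind Φ hP hQ) ^ m) (Submodule.Quotient.mk x)
      = Submodule.Quotient.mk (⟨(Φ ^ m) (x : V), hm⟩ : Q) := by
    intro m
    induction m with
    | zero => exact ⟨x.2, rfl⟩
    | succ m ih =>
      obtain ⟨hm, ih⟩ := ih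
      have e : (Φ ^ (m + 1)) (x : V) = Φ ((Φ ^ m) (x : V)) := by
        rw [pow_succ']; rfl
      refine ⟨by rw [e]; exact hQ _ hm, ?_⟩
      rw [pow_succ', Module.End.mul_apply, ih, ind_mk]
      congr 1
      exact Subtype.ext e.symm
  obtain ⟨hm, hk⟩ := key n
  rw [hk, Submodule.Quotient.mk_eq_zero]
  exact h _ x.2

/-- computing `d0` -/
theorem d0_eq_chr (Φ : V →ₗ[k] V) {M N : Submodule k V} (hM : St Φ M) (hN : St Φ N) :
    d0 Φ hM hN = chr (Φ.restrict (hM.inf hN)) := by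
  symm
  let f : (M ⊓ N : Submodule k V) →ₗ[k]
      ((M ⊓ N : Submodule k V) ⧸ (⊥ : Submodule k V).submoduleOf (M ⊓ N)) := Submodule.mkQ _
  have hf : Function.Bijective f := by
    constructor
    · rw [← LinearMap.ker_eq_bot, Submodule.ker_mkQ]
      ext x; simp [Submodule.submoduleOf]
    · exact Submodule.mkQ_surjective _
  refine chr_conj (LinearEquiv.ofBijective f hf) _ _ fun x => ?_
  rfl

/-- computing `d1` -/
theorem d1_eq_chr (Φ : V →ₗ[k] V) {M N : Submodule k V} (hM : St Φ M) (hN : St Φ N) :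
    d1 Φ hM hN = chr (Submodule.mapQ (M ⊔ N) (M ⊔ N) Φ (hM.sup hN)) := by
  let f : ((⊤ : Submodule k V) ⧸ (M ⊔ N).submoduleOf ⊤) →ₗ[k] (V ⧸ (M ⊔ N)) :=
    Submodule.mapQ _ _ (Submodule.subtype _) (by
      intro x hx
      simpa [Submodule.submoduleOf] using hx)
  have hf : Function.Bijective f := by
    constructor
    · rw [← LinearMap.ker_eq_bot, LinearMap.ker_eq_bot']
      intro x
      obtain ⟨x, rfl⟩ := Submodule.Quotient.mk_surjective _ x
      intro hx
      simp only [f, Submodule.mapQ_apply, Submodule.Quotient.mk_eq_zero] at hx ⊢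
      simpa [Submodule.submoduleOf] using hx
    · intro x
      obtain ⟨x, rfl⟩ := Submodule.Quotient.mk_surjective _ x
      exact ⟨Submodule.Quotient.mk ⟨x, trivial⟩, rfl⟩
  refine chr_conj (LinearEquiv.ofBijective f hf) _ _ fun x => ?_
  obtain ⟨x, rfl⟩ := Submodule.Quotient.mk_surjective _ x
  simp only [LinearEquiv.ofBijective_apply, f]
  rw [ind_mk, Submodule.mapQ_apply, Submodule.mapQ_apply]
  rfl

end Index

end Crest.Agent.R013.CntChr_262
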