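import Mathlib
import Crest.Agent.R013.CntChr_262
import Crest.Agent.R013.RR11_948

/-!
# R013 / CNT: the local factor `det (1 - TΦ | O(E)_P / O(E-P)_P) = 1 - χ_f(P) T^(deg P)` (helper262)
-/

set_option autoImplicit false
set_option linter.unusedSectionVars false

namespace Crest.Agent.R013.CntLoc_262

open Polynomial Module
open Crest.Agent.R013.CntChr_262

section FF

variable {k : Type*} [Field k] [Fintype k]

/-- the `k`-linear map `s ↦ f s^q` -/
noncomputable def phi {R : Type*} [CommRing R] [Algebra k R] (f : R) : R →ₗ[k] R :=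
  (LinearMap.mulLeft k f).comp (FiniteField.frobeniusAlgHom k R).toLinearMap

theorem phi_apply {R : Type*} [CommRing R] [Algebra k R] (f s : R) :
    phi (k := k) f s = f * s ^ Fintype.card k := rfl

/-- `1 + q + ... + q^(n-1)` -/
def gs (q n : ℕ) : ℕ := ∑ j ∈ Finset.range n, q ^ j

theorem gs_succ (q n : ℕ) : gs q (n + 1) = 1 + q * gs q n := by
  unfold gs
  rw [Finset.sum_range_succ', pow_zero, Finset.mul_sum, add_comm]
  congr 1
  exact Finset.sum_congr rfl fun j _ => by rw [pow_succ']

theorem gs_mul (q n : ℕ) : gs (q + 1) n * q + 1 = (q + 1) ^ n := by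
  unfold gs
  rw [Finset.sum_mul]
  have := Commute.geom_sum₂_mul (Commute.one_right (q + 1 : ℤ)) n
  induction n with
  | zero => simp
  | succ n ih =>
    rw [Finset.sum_range_succ, pow_succ, ← ih (Commute.geom_sum₂_mul (Commute.one_right _) n)]
    have h2 := ih (Commute.geom_sum₂_mul (Commute.one_right _) n)
    nlinarith [h2]

theorem phi_pow {R : Type*} [CommRing R] [Algebra k R] (f s : R) (i : ℕ) :
    (phi (k := k) f ^ i) s = f ^ gs (Fintype.card k) i * s ^ (Fintype.card k ^ i) := by
  induction i with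
  | zero => simp [gs]
  | succ i ih =>
    rw [pow_succ', Module.End.mul_apply, ih, phi_apply, gs_succ]
    ring

variable {κ : Type*} [Field κ] [Algebra k κ] [Module.Finite k κ]

theorem charpoly_psi {u : κ} (hu : u ≠ 0) :
    (phi (k := k) u).charpoly = X ^ finrank k κ - C (Algebra.norm k u) := by
  set q := Fintype.card k with hq
  set n := finrank k κ with hn
  have hn0 : 0 < n := Module.finrank_pos
  have hκ : Finite κ := Module.finite_of_finite k
  have := Fintype.ofFinite κ
  have hcard : Fintype.card κ = q ^ n := Module.card_eq_pow_finrank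
  have hq1 : 1 < q := Fintype.one_lt_card
  have hnorm : algebraMap k κ (Algebra.norm k u) = u ^ gs q n := by
    rw [FiniteField.algebraMap_norm_eq_pow_sum, Nat.card_eq_fintype_card]
    rfl
  have hmon : (X ^ n - C (Algebra.norm k u)).Monic := monic_X_pow_sub_C _ hn0.ne'
  have hdeg : (X ^ n - C (Algebra.norm k u)).natDegree = n := natDegree_X_pow_sub_C
  -- annihilating polynomial
  have h1 : aeval (phi (k := k) u) (X ^ n - C (Algebra.norm k u)) = 0 := by
    ext y
    rw [map_sub, map_pow, aeval_X, aeval_C, LinearMap.sub_apply, phi_pow,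
      Module.algebraMap_end_apply, Algebra.smul_def, hnorm, ← hcard, FiniteField.pow_card,
      sub_self, LinearMap.zero_apply]
  -- independence
  have h2 : ∀ r : k[X], r.natDegree < n → aeval (phi (k := k) u) r = 0 → r = 0 := by
    intro r hr h0
    let G : κ[X] := ∑ i ∈ Finset.range n, C (algebraMap k κ (r.coeff i) * u ^ gs q i) * X ^ (q ^ i)
    have hG : ∀ y, G.eval y = 0 := by
      intro y
      have h3 := LinearMap.congr_fun h0 y
      rw [Polynomial.aeval_eq_sum_range' hr, LinearMap.sum_apply, LinearMap.zero_apply] at h3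
      rw [← h3]
      simp only [G, eval_finsetSum, eval_mul, eval_C, eval_pow, eval_X]
      refine Finset.sum_congr rfl fun i _ => ?_
      rw [LinearMap.smul_apply, phi_pow, Algebra.smul_def, mul_assoc]
    have hG0 : G = 0 := by
      apply Polynomial.eq_zero_of_natDegree_lt_card_of_eval_eq_zero G
        (f := (fun y : κ => y)) Function.injective_id hG
      rw [hcard]
      refine lt_of_le_of_lt (Polynomial.natDegree_sum_le_of_forall_le (n := q ^ (n - 1)) _ _
        fun i hi => ?_) (Nat.pow_lt_pow_right hq1 (by omega))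
      refine (natDegree_C_mul_X_pow_le _ _).trans ?_
      exact Nat.pow_le_pow_right (by omega) (by have := Finset.mem_range.mp hi; omega)
    ext i
    rw [coeff_zero]
    by_cases hi : i < n
    · have h4 := congrArg (fun g => g.coeff (q ^ i)) hG0
      simp only [G, coeff_zero, finsetSum_coeff, coeff_C_mul, coeff_X_pow] at h4
      rw [Finset.sum_eq_single i] at h4
      · rw [if_pos rfl, mul_one] at h4
        rcases mul_eq_zero.mp h4 with h5 | h5
        · exact (FaithfulSMul.algebraMap_eq_zero_iff k κ).mp h5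
        · exact absurd h5 (pow_ne_zero _ hu)
      · intro j _ hj
        rw [if_neg, mul_zero]
        intro h6
        exact hj (Nat.pow_right_injective hq1 h6).symm
      · intro h6
        exact absurd (Finset.mem_range.mpr hi) h6
    · exact coeff_eq_zero_of_natDegree_lt (by omega)
  have hint : IsIntegral k (phi (k := k) u) := Algebra.IsIntegral.isIntegral _
  have h3 : n ≤ (minpoly k (phi (k := k) u)).natDegree := by
    by_contra hcon
    rw [not_le] at hcon
    exact minpoly.ne_zero hint (h2 _ hcon (minpoly.aeval _ _))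
  have h4 : X ^ n - C (Algebra.norm k u) = minpoly k (phi (k := k) u) :=
    eq_of_monic_of_dvd_of_natDegree_le (minpoly.monic hint) hmon
      (minpoly.dvd k _ h1) (by rw [hdeg]; exact h3)
  have h5 : (phi (k := k) u).charpoly = minpoly k (phi (k := k) u) :=
    eq_of_monic_of_dvd_of_natDegree_le (minpoly.monic hint)
      (LinearMap.charpoly_monic _) (LinearMap.minpoly_dvd_charpoly _)
      (by rw [LinearMap.charpoly_natDegree]; exact h3)
  rw [h5, ← h4]

theorem chr_psi {u : κ} (hu : u ≠ 0) :
    chr (phi (k := k) u) = 1 - C (Algebra.norm k u) * X ^ finrank k κ := by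
  have hn0 : 0 < finrank k κ := Module.finrank_pos
  rw [chr_eq, charpoly_psi hu, Polynomial.reverse, natDegree_X_pow_sub_C]
  have e : (X ^ finrank k κ - C (Algebra.norm k u) : k[X])
      = X ^ finrank k κ + C (-Algebra.norm k u) := by rw [C_neg]; ring
  rw [e, reflect_add, reflect_C, reflect_monomial, revAt_le le_rfl, Nat.sub_self, pow_zero, C_neg]
  ring

end FF

section Res

open WithZero IsLocalRing
open Crest.Agent.R013.RR1_948 Crest.Agent.R013.RR7_948 Crest.Agent.R013.RR8_948
open Crest.Agent.R013.RR10_948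

variable {k : Type*} [Field k] {K : Type*} [Field K] [Algebra k K]

theorem v_const_le (P : Pl k K) (c : k) : P.v (algebraMap k K c) ≤ 1 := by
  by_cases hc : c = 0
  · simp [hc]
  · rw [P.const c hc]

/-- `k → O_P` -/
noncomputable def toO (P : Pl k K) : k →+* P.v.valuationSubring :=
  (algebraMap k K).codRestrict P.v.valuationSubring (fun c => v_const_le P c)

/-- `O_P` as a `k`-algebra -/
@[reducible] noncomputable def algO (P : Pl k K) : Algebra k P.v.valuationSubring :=
  (toO P).toAlgebra

attribute [local instance] algO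

theorem coe_algebraMap_O (P : Pl k K) (c : k) :
    ((algebraMap k P.v.valuationSubring c : P.v.valuationSubring) : K) = algebraMap k K c := rfl

/-- the residue field -/
abbrev Kap (P : Pl k K) : Type _ := ResidueField P.v.valuationSubring

theorem residue_eq_zero_iff (P : Pl k K) (x : P.v.valuationSubring) :
    residue P.v.valuationSubring x = 0 ↔ P.v (x : K) < 1 := by
  rw [IsLocalRing.residue_eq_zero_iff]
  exact Valuation.mem_maximalIdeal_iff (v := P.v)

theorem div_mem {P : Pl k K} {e : K} {n : ℤ} (he : P.v e = exp n) {s : K} (hs : P.v s ≤ exp n) :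
    P.v (s / e) ≤ 1 := by
  rw [map_div₀, he]
  exact div_le_one_of_le₀ hs zero_le

/-- `ball P n → κ(P)`, `s ↦ (s/e)(P)` -/
noncomputable def rho (P : Pl k K) (e : K) (n : ℤ) (he : P.v e = exp n) : ball P n →ₗ[k] Kap P where
  toFun s := residue P.v.valuationSubring ⟨(s : K) / e, div_mem he (mem_ball.mp s.2)⟩
  map_add' s t := by
    rw [← map_add]
    congr 1
    apply Subtype.ext
    show ((s + t : ball P n) : K) / e = (s : K) / e + (t : K) / e
    rw [Submodule.coe_add, add_div]
  map_smul' c s := by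
    rw [RingHom.id_apply]
    have : c • residue P.v.valuationSubring ⟨(s : K) / e, div_mem he (mem_ball.mp s.2)⟩
        = residue P.v.valuationSubring
          (algebraMap k P.v.valuationSubring c * ⟨(s : K) / e, div_mem he (mem_ball.mp s.2)⟩) := by
      rw [map_mul, Algebra.smul_def]
      rfl
    rw [this]
    congr 1
    apply Subtype.ext
    show ((c • s : ball P n) : K) / e = algebraMap k K c * ((s : K) / e)
    rw [Submodule.coe_smul, Algebra.smul_def, mul_div_assoc]

theorem rho_surj (P : Pl k K) (e : K) (n : ℤ) (he : P.v e = exp n) :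
    Function.Surjective (rho P e n he) := by
  intro y
  obtain ⟨⟨x, hx⟩, rfl⟩ := residue_surjective y
  have he0 : e ≠ 0 := by
    rintro rfl
    rw [map_zero] at he
    exact exp_ne_zero he.symm
  have hx' : P.v x ≤ 1 := hx
  refine ⟨⟨x * e, ?_⟩, ?_⟩
  · rw [mem_ball, map_mul, he]
    calc _ ≤ 1 * exp n := mul_le_mul_left hx' _
      _ = exp n := one_mul _
  · show residue P.v.valuationSubring ⟨x * e / e, _⟩ = _
    congr 1
    apply Subtype.ext
    show x * e / e = x
    rw [mul_div_cancel_right₀ _ he0]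

theorem rho_ker (P : Pl k K) (e : K) (n : ℤ) (he : P.v e = exp n) :
    LinearMap.ker (rho P e n he) = (ball P (n - 1)).submoduleOf (ball P n) := by
  ext s
  rw [LinearMap.mem_ker, Submodule.submoduleOf, Submodule.mem_comap, Submodule.subtype_apply,
    mem_ball]
  show residue P.v.valuationSubring ⟨(s : K) / e, _⟩ = 0 ↔ _
  rw [residue_eq_zero_iff]
  show P.v ((s : K) / e) < 1 ↔ _
  rw [map_div₀, he, ← RR2_948.lt_exp_iff, div_lt_one₀ (by simp)]

/-- `ball P n / ball P (n-1) ≃ κ(P)` -/
noncomputable def grEquiv (P : Pl k K) (e : K) (n : ℤ) (he : P.v e = exp n) :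
    (ball P n ⧸ (ball P (n - 1)).submoduleOf (ball P n)) ≃ₗ[k] Kap P :=
  (Submodule.quotEquivOfEq _ _ (rho_ker P e n he).symm).trans
    ((rho P e n he).quotKerEquivOfSurjective (rho_surj P e n he))

theorem grEquiv_mk (P : Pl k K) (e : K) (n : ℤ) (he : P.v e = exp n) (s : ball P n) :
    grEquiv P e n he (Submodule.Quotient.mk s) = rho P e n he s := rfl

theorem finrank_Kap (P : Pl k K) (hdeg : degE P = degP P) :
    Module.Finite k (Kap P) ∧ finrank k (Kap P) = degP P := by
  have h1 : P.v (1 : K) = exp (0 : ℤ) := by rw [map_one, exp_zero]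
  have e := grEquiv P 1 0 h1
  have h2 : Module.length k (Kap P) = degP P := by
    rw [← hdeg, ← LinearEquiv.length_eq e]
    rfl
  exact finite_of_length h2

end Res

section Factor

open WithZero IsLocalRing
open Crest.Agent.R013.RR1_948 Crest.Agent.R013.RR7_948 Crest.Agent.R013.RR8_948
open Crest.Agent.R013.RR10_948

variable {k : Type*} [Field k] [Fintype k] {K : Type*} [Field K] [Algebra k K]

attribute [local instance] algO

/-- `(f e^(q-1))(P)` in the residue field, for `v_P(e) = exp n`, `v_P(f) ≤ exp (-(q-1) n)` -/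
noncomputable def uu (P : Pl k K) (f e : K) (h : P.v (f * e ^ (Fintype.card k - 1)) ≤ 1) : Kap P :=
  residue P.v.valuationSubring ⟨f * e ^ (Fintype.card k - 1), h⟩

theorem dq_ball_aux (P : Pl k K) (f e : K) (n : ℤ) (he : P.v e = exp n)
    (h : P.v (f * e ^ (Fintype.card k - 1)) ≤ 1)
    (hP : St (phi (k := k) f) (ball P (n - 1))) (hQ : St (phi (k := k) f) (ball P n)) :
    dq (phi (k := k) f) hP hQ = chr (phi (k := k) (uu P f e h)) := by
  have he0 : e ≠ 0 := by
    rintro rfl
    rw [map_zero] at he
    exact exp_ne_zero he.symm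
  have hq : 1 ≤ Fintype.card k := Fintype.card_pos
  refine chr_conj (grEquiv P e n he) _ _ fun x => ?_
  obtain ⟨x, rfl⟩ := Submodule.Quotient.mk_surjective _ x
  rw [ind_mk, grEquiv_mk, grEquiv_mk]
  show residue P.v.valuationSubring ⟨phi (k := k) f (x : K) / e, _⟩
    = residue P.v.valuationSubring ⟨f * e ^ (Fintype.card k - 1), h⟩
      * residue P.v.valuationSubring ⟨(x : K) / e, _⟩ ^ Fintype.card k
  rw [← map_pow, ← map_mul]
  congr 1
  apply Subtype.ext
  show f * (x : K) ^ Fintype.card k / e
    = f * e ^ (Fintype.card k - 1) * ((x : K) / e) ^ Fintype.card k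
  rw [div_pow]
  have : e ^ Fintype.card k = e ^ (Fintype.card k - 1) * e := by
    rw [← pow_succ]; congr 1; omega
  rw [this]
  field_simp

/-- `c = χ_f(P)`: `c ∈ k` is the norm of `(f e^(q-1))(P)`, `v_P(e) = exp (E_P)`. -/
def IsChi (f : K) (E : Pl k K →₀ ℤ) (P : Pl k K) (c : k) : Prop :=
  ∃ e : K, P.v e = exp (E P) ∧
    P.v ((f * e ^ (Fintype.card k - 1)) ^ gs (Fintype.card k) (degP P) - algebraMap k K c) < 1

theorem v_fe (P : Pl k K) {f e : K} {n : ℤ} (he : P.v e = exp n)
    (hf : P.v f = exp (-((Fintype.card k - 1 : ℤ) * n))) :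
    P.v (f * e ^ (Fintype.card k - 1)) = 1 := by
  have hq : 1 ≤ Fintype.card k := Fintype.card_pos
  rw [map_mul, map_pow, he, hf, ← exp_nsmul, ← exp_add, ← exp_zero]
  congr 1
  rw [nsmul_eq_mul]
  push_cast [hq]
  ring

theorem norm_uu_iff (P : Pl k K) (hdeg : degE P = degP P) (f e : K)
    (h : P.v (f * e ^ (Fintype.card k - 1)) ≤ 1) (c : k) :
    P.v ((f * e ^ (Fintype.card k - 1)) ^ gs (Fintype.card k) (degP P) - algebraMap k K c) < 1 ↔
      Algebra.norm k (uu P f e h) = c := by
  obtain ⟨hfin, hrank⟩ := finrank_Kap P hdeg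
  have hnorm : algebraMap k (Kap P) (Algebra.norm k (uu P f e h))
      = (uu P f e h) ^ gs (Fintype.card k) (degP P) := by
    have hκ : Finite (Kap P) := Module.finite_of_finite k
    rw [FiniteField.algebraMap_norm_eq_pow_sum, Nat.card_eq_fintype_card, hrank]
    rfl
  rw [← (algebraMap k (Kap P)).injective.eq_iff, hnorm, ← sub_eq_zero]
  have e1 : uu P f e h ^ gs (Fintype.card k) (degP P) - algebraMap k (Kap P) c
      = residue P.v.valuationSubring ((⟨f * e ^ (Fintype.card k - 1), h⟩ : P.v.valuationSubring)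
        ^ gs (Fintype.card k) (degP P) - algebraMap k P.v.valuationSubring c) := by
    rw [map_sub, map_pow]
    rfl
  rw [e1, residue_eq_zero_iff]
  rfl

theorem exists_isChi (P : Pl k K) (hdeg : degE P = degP P) (f : K) (E : Pl k K →₀ ℤ)
    (hf : P.v f = exp (-((Fintype.card k - 1 : ℤ) * E P))) : ∃ c : k, IsChi f E P c := by
  obtain ⟨e, he⟩ := P.surj (exp (E P))
  exact ⟨_, e, he, (norm_uu_iff P hdeg f e (v_fe P he hf).le _).mpr rfl⟩

/-- the local factor -/
theorem dq_ball (P : Pl k K) (hdeg : degE P = degP P) (f : K) (E : Pl k K →₀ ℤ)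
    (hf : P.v f = exp (-((Fintype.card k - 1 : ℤ) * E P))) (c : k) (hc : IsChi f E P c)
    (hP : St (phi (k := k) f) (ball P (E P - 1))) (hQ : St (phi (k := k) f) (ball P (E P))) :
    dq (phi (k := k) f) hP hQ = 1 - C c * X ^ degP P := by
  obtain ⟨hfin, hrank⟩ := finrank_Kap P hdeg
  obtain ⟨e, he, hc⟩ := hc
  have hv := v_fe P he hf
  rw [norm_uu_iff P hdeg f e hv.le] at hc
  rw [dq_ball_aux P f e _ he hv.le, chr_psi, hc, hrank]
  intro h0
  have h1 := (residue_eq_zero_iff P ⟨f * e ^ (Fintype.card k - 1), hv.le⟩).mp h0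
  simp only [hv, lt_self_iff_false] at h1

theorem st_ball (P : Pl k K) (f : K) (a n : ℤ)
    (hf : P.v f ≤ exp (-((Fintype.card k - 1 : ℤ) * a))) (hn : n ≤ a) :
    St (phi (k := k) f) (ball P n) := by
  intro s hs
  have hq : 2 ≤ Fintype.card k := Fintype.one_lt_card
  rw [mem_ball] at hs ⊢
  rw [phi_apply, map_mul, map_pow]
  calc P.v f * P.v s ^ Fintype.card k
      ≤ exp (-((Fintype.card k - 1 : ℤ) * a)) * exp n ^ Fintype.card k :=
        mul_le_mul' hf (pow_le_pow_left₀ zero_le hs _)
    _ = exp (-((Fintype.card k - 1 : ℤ) * a) + Fintype.card k * n) := by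
        rw [← exp_nsmul, ← exp_add, nsmul_eq_mul]
    _ ≤ exp n := by
        rw [exp_le_exp]
        have : (2 : ℤ) ≤ Fintype.card k := by exact_mod_cast hq
        nlinarith

/-- below the critical level `Φ` is zero on the graded pieces -/
theorem dq_ball_one (P : Pl k K) (hdeg : degE P = degP P) (f : K) (a n : ℤ)
    (hf : P.v f ≤ exp (-((Fintype.card k - 1 : ℤ) * a))) (hn : n < a)
    (hP : St (phi (k := k) f) (ball P (n - 1))) (hQ : St (phi (k := k) f) (ball P n)) :
    dq (phi (k := k) f) hP hQ = 1 := by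
  obtain ⟨e, he⟩ := P.surj (exp n)
  obtain ⟨hfin, hrank⟩ := finrank_Kap P hdeg
  refine dq_nilpotent _ _ _ (Module.Finite.equiv (grEquiv P e n he).symm) 1 fun s hs => ?_
  rw [pow_one]
  have hq : 2 ≤ Fintype.card k := Fintype.one_lt_card
  rw [mem_ball] at hs ⊢
  rw [phi_apply, map_mul, map_pow]
  calc P.v f * P.v s ^ Fintype.card k
      ≤ exp (-((Fintype.card k - 1 : ℤ) * a)) * exp n ^ Fintype.card k :=
        mul_le_mul' hf (pow_le_pow_left₀ zero_le hs _)
    _ = exp (-((Fintype.card k - 1 : ℤ) * a) + Fintype.card k * n) := by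
        rw [← exp_nsmul, ← exp_add, nsmul_eq_mul]
    _ ≤ exp (n - 1) := by
        rw [exp_le_exp]
        have : (2 : ℤ) ≤ Fintype.card k := by exact_mod_cast hq
        nlinarith

theorem isChi_unique (P : Pl k K) (hdeg : degE P = degP P) (f : K) (E : Pl k K →₀ ℤ)
    (hf : P.v f = exp (-((Fintype.card k - 1 : ℤ) * E P))) (c c' : k) (hc : IsChi f E P c)
    (hc' : IsChi f E P c') : c = c' := by
  have h1 := dq_ball P hdeg f E hf c hc (st_ball P f _ _ hf.le (by omega))
    (st_ball P f _ _ hf.le le_rfl)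
  have h2 := dq_ball P hdeg f E hf c' hc' (st_ball P f _ _ hf.le (by omega))
    (st_ball P f _ _ hf.le le_rfl)
  rw [h1] at h2
  have h3 := congrArg (fun g => g.coeff (degP P)) (sub_right_inj.mp h2)
  simpa using h3

end Factor

end Crest.Agent.R013.CntLoc_262
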