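import Mathlib
import Crest.Agent.R013.CntLoc_262

/-!
# R013 / CNT: `det(1-TΦ | H⁰(E)) det(1-TΦ | H¹(E')) = det(1-TΦ | H⁰(E')) det(1-TΦ | H¹(E)) ∏ F_P`
(helper262)
-/

set_option autoImplicit false
set_option linter.unusedSectionVars false

namespace Crest.Agent.R013.CntT2a_262

open Polynomial WithZero Module IsDedekindDomain nonZeroDivisors
open Crest.Agent.R013.RR1_948 Crest.Agent.R013.RR2_948 Crest.Agent.R013.RR3_948
open Crest.Agent.R013.RR4_948 Crest.Agent.R013.RR5_948 Crest.Agent.R013.RR6_948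
open Crest.Agent.R013.RR7_948 Crest.Agent.R013.RR8_948 Crest.Agent.R013.RR9_948
open Crest.Agent.R013.CntChr_262 Crest.Agent.R013.CntLoc_262

attribute [local instance] algO

section Chart

variable {k : Type*} [Field k] [Fintype k] {K : Type*} [Field K] [Algebra k K]

/-- `(q-1) D ≤ div f` -/
def Good (f : K) (D : Pl k K →₀ ℤ) : Prop :=
  ∀ P : Pl k K, P.v f ≤ exp (-((Fintype.card k - 1 : ℤ) * D P))

theorem Good.mono {f : K} {D D' : Pl k K →₀ ℤ} (h : Good f D) (hD : ∀ P, D' P ≤ D P) :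
    Good f D' := by
  intro P
  refine (h P).trans ?_
  rw [exp_le_exp]
  have hq : (1 : ℤ) ≤ Fintype.card k := by exact_mod_cast (Fintype.card_pos : 0 < Fintype.card k)
  have := hD P
  nlinarith

variable {A : Type*} [CommRing A] [IsDedekindDomain A] [Algebra k A] [Algebra A K]
  [IsScalarTower k A K] [IsFractionRing A K]

variable (A) in
theorem st_NA {f : K} {D : Pl k K →₀ ℤ} (h : Good f D) : St (phi (k := k) f) (NA A D) := by
  intro s hs
  rw [mem_NA] at hs ⊢
  intro w
  have := st_ball (ofH w : Pl k K) f (D (ofH w)) (D (ofH w)) (h _) le_rfl s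
    (mem_ball.mpr (hs w))
  exact mem_ball.mp this

/-- the chart step -/
theorem dq_NA_step {f : K} {D : Pl k K →₀ ℤ} (w : HeightOneSpectrum A)
    (hdeg : degE (ofH w : Pl k K) = degP (ofH w : Pl k K))
    (hN : St (phi (k := k) f) (NA A D))
    (hN₁ : St (phi (k := k) f) (NA A (D + Finsupp.single (ofH w) 1)))
    (hb : St (phi (k := k) f) (ball (ofH w : Pl k K) (D (ofH w))))
    (hb₁ : St (phi (k := k) f) (ball (ofH w : Pl k K) (D (ofH w) + 1))) :
    NA A D ≤ NA A (D + Finsupp.single (ofH w) 1) ∧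
    dq (phi (k := k) f) hN hN₁ = dq (phi (k := k) f) hb hb₁ := by
  classical
  set P : Pl k K := ofH w with hP
  have hval : ∀ w' : HeightOneSpectrum A, (D + Finsupp.single P 1 : Pl k K →₀ ℤ) (ofH w')
      = D (ofH w') + if w' = w then 1 else 0 := by
    intro w'
    rw [Finsupp.add_apply, Finsupp.single_apply]
    congr 1
    by_cases h : w' = w
    · rw [if_pos h, h, if_pos rfl]
    · rw [if_neg h, if_neg]
      intro h'
      exact h (ofH_injective h').symm
  have hle : NA A D ≤ NA A (D + Finsupp.single P 1) := by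
    intro s hs
    rw [mem_NA] at hs ⊢
    intro w'
    refine (hs w').trans ?_
    rw [hval, exp_le_exp]
    split_ifs <;> omega
  refine ⟨hle, ?_⟩
  -- `N = ball ⊓ N₁`
  have e1 : NA A D = ball P (D P) ⊓ NA A (D + Finsupp.single P 1) := by
    ext s
    rw [Submodule.mem_inf, mem_ball, mem_NA, mem_NA]
    constructor
    · intro h
      exact ⟨h w, (mem_NA.mp (hle (mem_NA.mpr h)))⟩
    · rintro ⟨h1, h2⟩ w'
      by_cases h : w' = w
      · rw [h]; exact h1
      · have := h2 w'
        rwa [hval, if_neg h, add_zero] at this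
  have e2 : NA A (D + Finsupp.single P 1) ≤ ball P (D P + 1) := by
    intro s hs
    rw [mem_NA] at hs
    have := hs w
    rw [hval, if_pos rfl] at this
    exact mem_ball.mpr this
  have e0 : ball P (D P) ≤ ball P (D P + 1) := by
    intro s hs
    rw [mem_ball] at hs ⊢
    exact hs.trans (by rw [exp_le_exp]; omega)
  have e3 : ri (NA A D) (NA A (D + Finsupp.single P 1)) = degP P := by
    rw [← hdeg, degE_ofH]
    unfold NA
    rw [cut_add_single_ofH, ri_fidS]
  obtain ⟨e, he⟩ := P.surj (exp (D P + 1))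
  have e4 : ri (ball P (D P)) (ball P (D P + 1)) = degP P := by
    have h1 := (LinearEquiv.length_eq (grEquiv P e _ he))
    rw [add_sub_cancel_right] at h1
    unfold ri
    rw [h1, ← hdeg]
    have h2 : P.v (1 : K) = exp (0 : ℤ) := by rw [map_one, exp_zero]
    exact (LinearEquiv.length_eq (grEquiv P 1 0 h2)).symm
  have e5 : NA A (D + Finsupp.single P 1) ⊔ ball P (D P) = ball P (D P + 1) := by
    have h1 : ri (ball P (D P)) (NA A (D + Finsupp.single P 1) ⊔ ball P (D P)) = degP P := by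
      rw [ri_sup, ← ri_inf, ← e1, e3]
    have h2 : NA A (D + Finsupp.single P 1) ⊔ ball P (D P) ≤ ball P (D P + 1) := sup_le e2 e0
    have h3 := ri_add (le_sup_right : ball P (D P) ≤ NA A (D + Finsupp.single P 1) ⊔ ball P (D P)) h2
    rw [e4, h1] at h3
    have h4 : ri (NA A (D + Finsupp.single P 1) ⊔ ball P (D P)) (ball P (D P + 1)) = 0 := by
      generalize ri (NA A (D + Finsupp.single P 1) ⊔ ball P (D P)) (ball P (D P + 1)) = x at h3
      have hx : x ≠ ⊤ := by
        rintro rfl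
        rw [add_top] at h3
        exact ENat.natCast_ne_top _ h3
      obtain ⟨n, rfl⟩ := ENat.ne_top_iff_exists.mp hx
      have h5 : degP P = degP P + n := by exact_mod_cast h3
      have h6 : n = 0 := by omega
      rw [h6]; rfl
    refine le_antisymm h2 ?_
    unfold ri at h4
    rw [Module.length_eq_zero_iff, Submodule.Quotient.subsingleton_iff] at h4
    intro s hs
    have : (⟨s, hs⟩ : ball P (D P + 1)) ∈ (NA A (D + Finsupp.single P 1) ⊔ ball P (D P)).submoduleOf
        (ball P (D P + 1)) := by rw [h4]; trivial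
    exact this
  rw [dq_congr _ hN hN₁ (hb.inf hN₁) hN₁ e1 rfl, dq_inf _ hb hN₁, ← dq_sup _ hb hN₁]
  exact dq_congr _ _ _ _ _ rfl e5

end Chart

section Global

variable {k : Type*} [Field k] [Fintype k] {K : Type*} [Field K] [Algebra k K]
  [Algebra (RatFunc k) K]
  [IsScalarTower k (RatFunc k) K] [FiniteDimensional (RatFunc k) K]
  [Algebra.IsSeparable (RatFunc k) K]
  [Algebra k[X] K] [IsScalarTower k[X] (RatFunc k) K]
  (A₀ : Type*) [CommRing A₀] [IsDedekindDomain A₀] [Algebra k A₀] [Algebra A₀ K]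
  [IsScalarTower k A₀ K] [IsFractionRing A₀ K] [Algebra k[X] A₀]
  [IsScalarTower k[X] A₀ K] [IsIntegralClosure A₀ k[X] K]
  (A₁ : Type*) [CommRing A₁] [IsDedekindDomain A₁] [Algebra k A₁] [Algebra A₁ K]
  [IsScalarTower k A₁ K] [IsFractionRing A₁ K] [Algebra (Rinf k) A₁]
  [IsScalarTower (Rinf k) A₁ K] [IsIntegralClosure A₁ (Rinf k) K]

/-- `det (1 - T Φ | H⁰(D))` -/
noncomputable def D0 {f : K} {D : Pl k K →₀ ℤ} (h : Good f D) : k[X] :=
  d0 (phi (k := k) f) (st_NA A₀ h) (st_NA A₁ h)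

/-- `det (1 - T Φ | H¹(D))` -/
noncomputable def D1 {f : K} {D : Pl k K →₀ ℤ} (h : Good f D) : k[X] :=
  d1 (phi (k := k) f) (st_NA A₀ h) (st_NA A₁ h)

theorem D_step {f : K} {D : Pl k K →₀ ℤ} (P : Pl k K) (h : Good f D)
    (h' : Good f (D + Finsupp.single P 1))
    (hb : St (phi (k := k) f) (ball P (D P)))
    (hb₁ : St (phi (k := k) f) (ball P (D P + 1))) :
    D0 A₀ A₁ h' * D1 A₀ A₁ h = D0 A₀ A₁ h * D1 A₀ A₁ h' * dq (phi (k := k) f) hb hb₁ := by
  rcases chart_cases A₀ A₁ P with ⟨w, rfl⟩ | ⟨w, rfl⟩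
  · have hdeg := RR10_948.degE_eq A₀ A₁ (ofH w : Pl k K)
    have e1 : NA A₁ (D + Finsupp.single (ofH w) 1) = NA A₁ D := by
      unfold NA
      rw [cut_add_single_of_ne]
      intro w'
      exact (ofH₀_ne_ofH₁ A₀ A₁ w w').symm
    obtain ⟨hle, e2⟩ := dq_NA_step w hdeg (st_NA A₀ h) (st_NA A₀ h') hb hb₁
    have key := d_index (phi (k := k) f) (st_NA A₁ h) (st_NA A₀ h) (st_NA A₀ h') hle
    rw [e2] at key
    unfold D0 D1
    rw [d0_comm _ (st_NA A₀ h') (st_NA A₁ h'),
      d0_congr _ (st_NA A₁ h') (st_NA A₀ h') (st_NA A₁ h) (st_NA A₀ h') e1 rfl,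
      d1_comm _ (st_NA A₀ h) (st_NA A₁ h), d0_comm _ (st_NA A₀ h) (st_NA A₁ h),
      d1_comm _ (st_NA A₀ h') (st_NA A₁ h'),
      d1_congr _ (st_NA A₁ h') (st_NA A₀ h') (st_NA A₁ h) (st_NA A₀ h') e1 rfl]
    exact key
  · have hdeg := RR10_948.degE_eq A₀ A₁ (ofH w : Pl k K)
    have e1 : NA A₀ (D + Finsupp.single (ofH w) 1) = NA A₀ D := by
      unfold NA
      rw [cut_add_single_of_ne]
      intro w'
      exact (ofH₀_ne_ofH₁ A₀ A₁ w' w)
    obtain ⟨hle, e2⟩ := dq_NA_step w hdeg (st_NA A₁ h) (st_NA A₁ h') hb hb₁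
    have key := d_index (phi (k := k) f) (st_NA A₀ h) (st_NA A₁ h) (st_NA A₁ h') hle
    rw [e2] at key
    unfold D0 D1
    rw [d0_congr _ (st_NA A₀ h') (st_NA A₁ h') (st_NA A₀ h) (st_NA A₁ h') e1 rfl,
      d1_congr _ (st_NA A₀ h') (st_NA A₁ h') (st_NA A₀ h) (st_NA A₁ h') e1 rfl]
    exact key

theorem D0_ne_zero {f : K} {D : Pl k K →₀ ℤ} (h : Good f D) : D0 A₀ A₁ h ≠ 0 := by
  unfold D0
  rw [d0_eq_chr]
  have : Module.Finite k (NA A₀ D ⊓ NA A₁ D : Submodule k K) := by
    rw [← LD_eq A₀ A₁]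
    exact RR10_948.LD_finite A₀ A₁ D
  exact chr_ne_zero _

theorem D0_coeff_zero {f : K} {D : Pl k K →₀ ℤ} (h : Good f D) : (D0 A₀ A₁ h).coeff 0 = 1 := by
  unfold D0
  rw [d0_eq_chr]
  have : Module.Finite k (NA A₀ D ⊓ NA A₁ D : Submodule k K) := by
    rw [← LD_eq A₀ A₁]
    exact RR10_948.LD_finite A₀ A₁ D
  exact chr_coeff_zero _

/-- lower `E` along a list of places -/
noncomputable def low (E : Pl k K →₀ ℤ) : List (Pl k K) → (Pl k K →₀ ℤ)
  | [] => E
  | P :: l => low E l - Finsupp.single P 1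

theorem low_apply [DecidableEq (Pl k K)] (E : Pl k K →₀ ℤ) (l : List (Pl k K)) (P : Pl k K) :
    low E l P = E P - l.count P := by
  induction l with
  | nil => simp [low]
  | cons Q l ih =>
    rw [low, Finsupp.sub_apply, ih, List.count_cons, Finsupp.single_apply]
    by_cases h : Q = P
    · rw [if_pos h, if_pos (by simpa using h)]; push_cast; ring
    · rw [if_neg h, if_neg (by simpa using h)]; push_cast; ring

theorem D_low [DecidableEq (Pl k K)] {f : K} {E : Pl k K →₀ ℤ}
    (hE : ∀ P : Pl k K, P.v f = exp (-((Fintype.card k - 1 : ℤ) * E P)))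
    (c : Pl k K → k) (hc : ∀ P, IsChi f E P (c P)) (hG : Good f E)
    (l : List (Pl k K)) (hl : Good f (low E l)) :
    D0 A₀ A₁ hG * D1 A₀ A₁ hl = D0 A₀ A₁ hl * D1 A₀ A₁ hG *
      ∏ P ∈ l.toFinset, (1 - C (c P) * X ^ degP P) := by
  have hGl : ∀ l : List (Pl k K), Good f (low E l) := fun l =>
    hG.mono fun P => by rw [low_apply]; omega
  induction l with
  | nil =>
    have : low E [] = E := rfl
    rw [List.toFinset_nil, Finset.prod_empty, mul_one]
    rfl
  | cons P l ih =>
    have ih' := ih (hGl l)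
    have hb : St (phi (k := k) f) (ball P (low E (P :: l) P)) :=
      st_ball P f _ _ (hE P).le (by rw [low_apply]; omega)
    have hb₁ : St (phi (k := k) f) (ball P (low E (P :: l) P + 1)) :=
      st_ball P f (E P) _ (hE P).le (by rw [low_apply, List.count_cons_self]; push_cast; omega)
    have e0 : low E (P :: l) + Finsupp.single P 1 = low E l := by
      show low E l - Finsupp.single P 1 + Finsupp.single P 1 = low E l
      rw [sub_add_cancel]
    have h' : Good f (low E (P :: l) + Finsupp.single P 1) := by rw [e0]; exact hGl l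
    have hstep := D_step A₀ A₁ P hl h' hb hb₁
    have e1 : D0 A₀ A₁ h' = D0 A₀ A₁ (hGl l) := by
      unfold D0
      exact d0_congr _ _ _ _ _ (by rw [e0]) (by rw [e0])
    have e2 : D1 A₀ A₁ h' = D1 A₀ A₁ (hGl l) := by
      unfold D1
      exact d1_congr _ _ _ _ _ (by rw [e0]) (by rw [e0])
    rw [e1, e2] at hstep
    have hdeg := RR10_948.degE_eq A₀ A₁ P
    have hval : low E (P :: l) P = E P - l.count P - 1 := by
      rw [low_apply, List.count_cons_self]; push_cast; ring
    have hfac : dq (phi (k := k) f) hb hb₁ * ∏ Q ∈ l.toFinset, (1 - C (c Q) * X ^ degP Q)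
        = ∏ Q ∈ (P :: l).toFinset, (1 - C (c Q) * X ^ degP Q) := by
      rw [List.toFinset_cons]
      by_cases hP : P ∈ l
      · rw [Finset.insert_eq_of_mem (List.mem_toFinset.mpr hP)]
        have hcount : 1 ≤ l.count P := List.count_pos_iff.mpr hP
        have hb' : St (phi (k := k) f) (ball P (low E (P :: l) P + 1 - 1)) := by
          rw [add_sub_cancel_right]; exact hb
        have h1 := dq_ball_one P hdeg f (E P) (low E (P :: l) P + 1) (hE P).le
          (by rw [hval]; omega) hb' hb₁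
        have h2 : dq (phi (k := k) f) hb hb₁ = dq (phi (k := k) f) hb' hb₁ :=
          dq_congr _ _ _ _ _ (by rw [add_sub_cancel_right]) rfl
        rw [h2, h1, one_mul]
      · rw [Finset.prod_insert (fun h => hP (List.mem_toFinset.mp h))]
        congr 1
        have hcount : l.count P = 0 := List.count_eq_zero.mpr hP
        have hval' : low E (P :: l) P + 1 = E P := by rw [hval, hcount]; push_cast; ring
        have hval'' : low E (P :: l) P = E P - 1 := by rw [hval, hcount]; push_cast; ring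
        have hb' : St (phi (k := k) f) (ball P (E P - 1)) := by rw [← hval'']; exact hb
        have hb₁' : St (phi (k := k) f) (ball P (E P)) := by rw [← hval']; exact hb₁
        have h2 : dq (phi (k := k) f) hb hb₁ = dq (phi (k := k) f) hb' hb₁' :=
          dq_congr _ _ _ _ _ (by rw [hval'']) (by rw [hval'])
        rw [h2]
        exact dq_ball P hdeg f E (hE P) (c P) (hc P) hb' hb₁'
    have hne := D0_ne_zero A₀ A₁ (hGl l)
    apply mul_left_cancel₀ hne
    rw [← hfac]
    calc D0 A₀ A₁ (hGl l) * (D0 A₀ A₁ hG * D1 A₀ A₁ hl)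
        = D0 A₀ A₁ hG * (D0 A₀ A₁ (hGl l) * D1 A₀ A₁ hl) := by ring
      _ = D0 A₀ A₁ hl * dq (phi (k := k) f) hb hb₁ * (D0 A₀ A₁ hG * D1 A₀ A₁ (hGl l)) := by
          rw [hstep]; ring
      _ = _ := by rw [ih']; ring

end Global

end Crest.Agent.R013.CntT2a_262
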