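import Mathlib
import Crest.Agent.R013.CntT1_262
import Crest.Agent.R013.CntT2a_262

/-!
# R013 / CNT: `det(1 - TΦ)` on `K / (⊕ k[x] b_a + ⊕ x^(-B-1) R b_a)` is `det (1 - T Θ)` (helper262)
-/

set_option autoImplicit false
set_option linter.unusedSectionVars false

namespace Crest.Agent.R013.CntT2b_262

open Polynomial WithZero Module
open Crest.Agent.R013.RR1_948 Crest.Agent.R013.RR2_948 Crest.Agent.R013.RR3_948
open Crest.Agent.R013.RR6_948
open Crest.Agent.R013.CntChr_262 Crest.Agent.R013.CntLoc_262 Crest.Agent.R013.CntT1_262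

section OneVar

variable {k : Type*} [Field k]

theorem smul_eq (c : k) (f : RatFunc k) : c • f = RatFunc.C c * f := by
  rw [Algebra.smul_def, algebraMap_eq_C]

theorem X_pow_mem_polyS (n : ℕ) : (RatFunc.X ^ n : RatFunc k) ∈ polyS k := by
  rw [mem_polyS]
  exact ⟨X ^ n, by rw [map_pow, RatFunc.algebraMap_X]⟩

theorem exists_coeffs (B : ℕ) (r : RatFunc k) :
    ∃ c : ℕ → k, r - ∑ i ∈ Finset.range B, c i • (RatFunc.X ^ (-((i : ℤ) + 1)) : RatFunc k)
      ∈ polyS k ⊔ infS k (-((B : ℤ) + 1)) := by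
  induction B with
  | zero =>
    obtain ⟨p, hp⟩ := exists_poly_sub k r
    refine ⟨0, ?_⟩
    rw [Finset.range_zero, Finset.sum_empty, sub_zero]
    have : r = algebraMap k[X] (RatFunc k) p + (r - algebraMap k[X] (RatFunc k) p) := by ring
    rw [this]
    refine Submodule.add_mem_sup ((mem_polyS k).mpr ⟨p, rfl⟩) ((mem_infS k).mpr ?_)
    rw [lt_one_iff] at hp
    simpa using hp
  | succ B ih =>
    obtain ⟨c, hc⟩ := ih
    obtain ⟨y, hy, z, hz, hyz⟩ := Submodule.mem_sup.mp hc
    rw [mem_infS] at hz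
    -- `z X^(B+1)` is integral
    have h1 : vinf k (z * RatFunc.X ^ ((B : ℤ) + 1)) ≤ 1 := by
      rw [map_mul, vinf_X_zpow]
      calc _ ≤ exp (-((B : ℤ) + 1)) * exp ((B : ℤ) + 1) := mul_le_mul_left hz _
        _ = 1 := by rw [← exp_add]; simp
    obtain ⟨a, ha⟩ := exists_C_sub k h1
    refine ⟨Function.update c B a, ?_⟩
    rw [Finset.sum_range_succ, Function.update_self]
    have h2 : ∑ i ∈ Finset.range B, Function.update c B a i •
        (RatFunc.X ^ (-((i : ℤ) + 1)) : RatFunc k)
        = ∑ i ∈ Finset.range B, c i • (RatFunc.X ^ (-((i : ℤ) + 1)) : RatFunc k) := by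
      refine Finset.sum_congr rfl fun i hi => ?_
      rw [Function.update_of_ne (Finset.mem_range.mp hi).ne]
    rw [h2, ← sub_sub, ← hyz, add_sub_assoc]
    refine Submodule.add_mem_sup hy ((mem_infS k).mpr ?_)
    have h3 : z - a • (RatFunc.X ^ (-((B : ℤ) + 1)) : RatFunc k)
        = (z * RatFunc.X ^ ((B : ℤ) + 1) - RatFunc.C a) * RatFunc.X ^ (-((B : ℤ) + 1)) := by
      rw [sub_mul, mul_assoc, ← zpow_add₀ RatFunc.X_ne_zero, smul_eq]
      simp
    rw [h3, map_mul, vinf_X_zpow]
    rw [lt_one_iff] at ha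
    calc _ ≤ exp (-1) * exp (-((B : ℤ) + 1)) := mul_le_mul_left ha _
      _ = exp (-(((B + 1 : ℕ) : ℤ) + 1)) := by rw [← exp_add]; congr 1; push_cast; ring

theorem coeffs_unique (B : ℕ) (c : ℕ → k)
    (h : ∑ i ∈ Finset.range B, c i • (RatFunc.X ^ (-((i : ℤ) + 1)) : RatFunc k)
      ∈ polyS k ⊔ infS k (-((B : ℤ) + 1))) : ∀ i < B, c i = 0 := by
  obtain ⟨y, hy, z, hz, hyz⟩ := Submodule.mem_sup.mp h
  obtain ⟨p, rfl⟩ := (mem_polyS k).mp hy
  rw [mem_infS] at hz
  -- multiply by `X^B`
  let g : k[X] := ∑ i ∈ Finset.range B, C (c i) * X ^ (B - (i + 1))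
  have hg : algebraMap k[X] (RatFunc k) g
      = (∑ i ∈ Finset.range B, c i • (RatFunc.X ^ (-((i : ℤ) + 1)) : RatFunc k))
        * RatFunc.X ^ (B : ℤ) := by
    rw [map_sum, Finset.sum_mul]
    refine Finset.sum_congr rfl fun i hi => ?_
    have hi' := Finset.mem_range.mp hi
    rw [map_mul, map_pow, RatFunc.algebraMap_C, RatFunc.algebraMap_X, smul_eq, mul_assoc,
      ← zpow_add₀ RatFunc.X_ne_zero, ← zpow_natCast]
    congr 2
    push_cast [Nat.cast_sub (show i + 1 ≤ B by omega)]
    ring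
  have h1 : algebraMap k[X] (RatFunc k) (g - X ^ B * p) = z * RatFunc.X ^ (B : ℤ) := by
    rw [map_sub, hg, ← hyz, map_mul, map_pow, RatFunc.algebraMap_X, zpow_natCast]
    ring
  have h2 : g - X ^ B * p = 0 := by
    by_contra h0
    have h3 := vinf_poly_one_le k h0
    rw [h1, map_mul, vinf_X_zpow] at h3
    have h4 : vinf k z * exp (B : ℤ) ≤ exp (-((B : ℤ) + 1)) * exp (B : ℤ) := mul_le_mul_left hz _
    rw [← exp_add] at h4
    have h5 : (exp (0 : ℤ) : ℤᵐ⁰) ≤ exp (-((B : ℤ) + 1) + B) := by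
      rw [exp_zero]; exact h3.trans h4
    rw [exp_le_exp] at h5
    omega
  have h3 : g = X ^ B * p := sub_eq_zero.mp h2
  have h4 : ∀ i < B, g.coeff (B - (i + 1)) = c i := by
    intro i hi
    simp only [g, finsetSum_coeff, coeff_C_mul, coeff_X_pow]
    rw [Finset.sum_eq_single i]
    · simp
    · intro j hj hji
      rw [if_neg, mul_zero]
      have := Finset.mem_range.mp hj
      omega
    · intro h; exact absurd (Finset.mem_range.mpr hi) h
  intro i hi
  rw [← h4 i hi, h3, coeff_X_pow_mul', if_neg (by omega)]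

theorem mul_poly_mem (B N : ℕ) (p : k[X]) :
    RatFunc.X ^ (-(N : ℤ)) * algebraMap k[X] (RatFunc k) p
      - ∑ j ∈ Finset.range B, (if j + 1 ≤ N then p.coeff (N - (j + 1)) else 0) •
        (RatFunc.X ^ (-((j : ℤ) + 1)) : RatFunc k) ∈ polyS k ⊔ infS k (-((B : ℤ) + 1)) := by
  induction p using Polynomial.induction_on' with
  | add p₁ p₂ h₁ h₂ =>
    have h3 := Submodule.add_mem _ h₁ h₂
    have h4 : ∀ j, (if j + 1 ≤ N then (p₁ + p₂).coeff (N - (j + 1)) else 0)
        = (if j + 1 ≤ N then p₁.coeff (N - (j + 1)) else 0)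
          + (if j + 1 ≤ N then p₂.coeff (N - (j + 1)) else 0) := by
      intro j; split_ifs
      · rw [coeff_add]
      · rw [add_zero]
    simp only [h4, add_smul, Finset.sum_add_distrib, map_add, mul_add]
    convert h3 using 1
    ring
  | monomial u a =>
    rw [← C_mul_X_pow_eq_monomial]
    have hc : ∀ m, (C a * X ^ u : k[X]).coeff m = if m = u then a else 0 := by
      intro m; rw [coeff_C_mul, coeff_X_pow]; split_ifs <;> simp
    simp only [hc]
    rw [map_mul, map_pow, RatFunc.algebraMap_C, RatFunc.algebraMap_X]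
    by_cases hu : N ≤ u
    · have h0 : ∀ j ∈ Finset.range B, (if j + 1 ≤ N then (if N - (j + 1) = u then a else 0)
          else 0) • (RatFunc.X ^ (-((j : ℤ) + 1)) : RatFunc k) = 0 := by
        intro j _
        have : (if j + 1 ≤ N then (if N - (j + 1) = u then a else 0) else 0) = 0 := by
          split_ifs
          · omega
          · rfl
          · rfl
        rw [this, zero_smul]
      rw [Finset.sum_eq_zero h0, sub_zero]
      apply Submodule.mem_sup_left
      have e : RatFunc.X ^ (-(N : ℤ)) * (RatFunc.C a * RatFunc.X ^ u)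
          = a • (RatFunc.X ^ (u - N) : RatFunc k) := by
        rw [smul_eq, mul_left_comm, ← zpow_natCast, ← zpow_add₀ RatFunc.X_ne_zero,
          ← zpow_natCast (RatFunc.X : RatFunc k) (u - N)]
        congr 2
        push_cast [Nat.cast_sub hu]
        ring
      rw [e]
      exact Submodule.smul_mem _ _ (X_pow_mem_polyS _)
    · have e : RatFunc.X ^ (-(N : ℤ)) * (RatFunc.C a * RatFunc.X ^ u)
          = a • (RatFunc.X ^ (-(((N - u - 1 : ℕ) : ℤ) + 1)) : RatFunc k) := by
        rw [smul_eq, mul_left_comm, ← zpow_natCast, ← zpow_add₀ RatFunc.X_ne_zero]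
        congr 2
        omega
      rw [e]
      by_cases hB : N - u - 1 < B
      · rw [Finset.sum_eq_single (N - u - 1)]
        · rw [if_pos (by omega), if_pos (by omega), sub_self]
          exact Submodule.zero_mem _
        · intro j _ hj
          have : (if j + 1 ≤ N then (if N - (j + 1) = u then a else 0) else 0) = 0 := by
            split_ifs
            · omega
            · rfl
            · rfl
          rw [this, zero_smul]
        · intro h; exact absurd (Finset.mem_range.mpr hB) h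
      · have h0 : ∀ j ∈ Finset.range B, (if j + 1 ≤ N then (if N - (j + 1) = u then a else 0)
            else 0) • (RatFunc.X ^ (-((j : ℤ) + 1)) : RatFunc k) = 0 := by
          intro j hj
          have hj' := Finset.mem_range.mp hj
          have : (if j + 1 ≤ N then (if N - (j + 1) = u then a else 0) else 0) = 0 := by
            split_ifs
            · omega
            · rfl
            · rfl
          rw [this, zero_smul]
        rw [Finset.sum_eq_zero h0, sub_zero]
        apply Submodule.mem_sup_right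
        apply Submodule.smul_mem
        rw [mem_infS, vinf_X_zpow, exp_le_exp]
        omega

end OneVar

section Lattice

variable {k : Type*} [Field k] [Fintype k] {ι : Type*} [Fintype ι] [DecidableEq ι]
  {K : Type*} [Field K] [Algebra k K] [Algebra (RatFunc k) K] [IsScalarTower k (RatFunc k) K]

theorem mem_sup_iff (bs : Basis ι (RatFunc k) K) (d : ι → ℤ) (x : K) :
    x ∈ polyL bs ⊔ infL bs d ↔ ∀ a, bs.repr x a ∈ polyS k ⊔ infS k (d a) := by
  constructor
  · intro hx a
    obtain ⟨y, hy, z, hz, rfl⟩ := Submodule.mem_sup.mp hx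
    rw [map_add, Finsupp.add_apply]
    exact Submodule.add_mem_sup (mem_polyL.mp hy a) ((mem_infS k).mpr (mem_infL.mp hz a))
  · intro h
    choose y hy z hz hyz using fun a => Submodule.mem_sup.mp (h a)
    have e : x = (∑ a, y a • bs a) + ∑ a, z a • bs a := by
      rw [← Finset.sum_add_distrib]
      conv_lhs => rw [← bs.sum_repr x]
      refine Finset.sum_congr rfl fun a _ => ?_
      rw [← add_smul, hyz]
    rw [e]
    refine Submodule.add_mem_sup ?_ ?_
    · rw [mem_polyL]
      intro a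
      rw [bs.repr_sum_self]
      exact hy a
    · rw [mem_infL]
      intro a
      rw [bs.repr_sum_self]
      exact (mem_infS k).mp (hz a)

theorem phi_smul (f : K) (r : RatFunc k) (x : K) :
    phi (k := k) f (r • x) = (r ^ Fintype.card k) • phi (k := k) f x := by
  rw [phi_apply, phi_apply, Algebra.smul_def, Algebra.smul_def, map_pow, mul_pow]
  ring

theorem repr_phi (bs : Basis ι (RatFunc k) K) (f : K) (F : Matrix ι ι k[X])
    (hF : ∀ a b, bs.repr (phi (k := k) f (bs a)) b = algebraMap k[X] (RatFunc k) (F b a)) (x : K)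
    (b : ι) :
    bs.repr (phi (k := k) f x) b
      = ∑ a, bs.repr x a ^ Fintype.card k * algebraMap k[X] (RatFunc k) (F b a) := by
  have h1 : phi (k := k) f x = ∑ a, (bs.repr x a ^ Fintype.card k) • phi (k := k) f (bs a) := by
    conv_lhs => rw [← bs.sum_repr x]
    rw [map_sum]
    exact Finset.sum_congr rfl fun a _ => phi_smul f _ _
  rw [h1, map_sum, Finsupp.finsetSum_apply]
  refine Finset.sum_congr rfl fun a _ => ?_
  rw [map_smul, Finsupp.smul_apply, hF, smul_eq_mul]

theorem st_polyL (bs : Basis ι (RatFunc k) K) (f : K) (F : Matrix ι ι k[X])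
    (hF : ∀ a b, bs.repr (phi (k := k) f (bs a)) b = algebraMap k[X] (RatFunc k) (F b a)) :
    St (phi (k := k) f) (polyL bs) := by
  intro x hx
  rw [mem_polyL] at hx ⊢
  intro b
  rw [repr_phi bs f F hF]
  refine Submodule.sum_mem _ fun a _ => ?_
  obtain ⟨p, hp⟩ := (mem_polyS k).mp (hx a)
  rw [mem_polyS]
  exact ⟨p ^ Fintype.card k * F b a, by rw [map_mul, map_pow, hp]⟩

theorem vinf_poly_le (p : k[X]) : vinf k (algebraMap k[X] (RatFunc k) p) ≤ exp (p.natDegree : ℤ) := by
  by_cases hp : p = 0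
  · simp [hp]
  · rw [vinf_poly k hp]

theorem st_infL (bs : Basis ι (RatFunc k) K) (f : K) (F : Matrix ι ι k[X])
    (hF : ∀ a b, bs.repr (phi (k := k) f (bs a)) b = algebraMap k[X] (RatFunc k) (F b a)) (B : ℕ)
    (hB : ∀ b a, (F b a).natDegree < (Fintype.card k - 1) * (B + 1)) :
    St (phi (k := k) f) (infL bs (fun _ => -((B : ℤ) + 1))) := by
  intro x hx
  rw [mem_infL] at hx ⊢
  intro b
  have hq : 1 ≤ Fintype.card k := Fintype.card_pos
  rw [repr_phi bs f F hF]
  refine Valuation.map_sum_le _ fun a _ => ?_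
  rw [map_mul, map_pow]
  calc vinf k (bs.repr x a) ^ Fintype.card k * vinf k (algebraMap k[X] (RatFunc k) (F b a))
      ≤ exp (-((B : ℤ) + 1)) ^ Fintype.card k * exp ((F b a).natDegree : ℤ) :=
        mul_le_mul' (pow_le_pow_left₀ zero_le (hx a) _) (vinf_poly_le _)
    _ = exp (Fintype.card k * (-((B : ℤ) + 1)) + (F b a).natDegree) := by
        rw [← exp_nsmul, ← exp_add, nsmul_eq_mul]
    _ ≤ exp (-((B : ℤ) + 1)) := by
        rw [exp_le_exp]
        have h1 := hB b a
        zify [hq] at h1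
        nlinarith

theorem inf_eq_bot (bs : Basis ι (RatFunc k) K) (B : ℕ) :
    polyL bs ⊓ infL bs (fun _ => -((B : ℤ) + 1)) = ⊥ := by
  rw [eq_bot_iff]
  intro x hx
  obtain ⟨h1, h2⟩ := Submodule.mem_inf.mp hx
  rw [mem_polyL] at h1
  rw [mem_infL] at h2
  rw [Submodule.mem_bot]
  apply bs.repr.injective
  ext a
  rw [map_zero, Finsupp.zero_apply]
  obtain ⟨p, hp⟩ := (mem_polyS k).mp (h1 a)
  rw [← hp]
  by_cases h0 : p = 0
  · rw [h0, map_zero]
  · exfalso
    have h3 := vinf_poly_one_le k h0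
    rw [hp] at h3
    have h4 := h3.trans (h2 a)
    rw [← exp_zero, exp_le_exp] at h4
    omega

/-- the basis `x^-(i+1) b_a` of the quotient -/
theorem exists_basis (bs : Basis ι (RatFunc k) K) (B : ℕ) :
    ∃ v : Basis (Fin B × ι) k (K ⧸ (polyL bs ⊔ infL bs (fun _ => -((B : ℤ) + 1)))),
      ∀ ia : Fin B × ι, v ia = Submodule.Quotient.mk
        ((RatFunc.X ^ (-(((ia.1 : ℕ) : ℤ) + 1)) : RatFunc k) • bs ia.2) := by
  set Q := polyL bs ⊔ infL bs (fun _ => -((B : ℤ) + 1)) with hQ
  let u : Fin B × ι → K := fun ia => (RatFunc.X ^ (-(((ia.1 : ℕ) : ℤ) + 1)) : RatFunc k) • bs ia.2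
  have hrepr : ∀ (g : Fin B × ι → k) (a : ι), bs.repr (∑ ia, g ia • u ia) a
      = ∑ i : Fin B, g (i, a) • (RatFunc.X ^ (-(((i : ℕ) : ℤ) + 1)) : RatFunc k) := by
    intro g a
    rw [map_sum, Finsupp.finsetSum_apply, Fintype.sum_prod_type]
    refine Finset.sum_congr rfl fun i _ => ?_
    rw [Finset.sum_eq_single a]
    · have : g (i, a) • u (i, a) = (g (i, a) • (RatFunc.X ^ (-(((i : ℕ) : ℤ) + 1)) : RatFunc k))
          • bs a := by
        simp only [u]
        rw [smul_assoc]
      rw [this, map_smul, Finsupp.smul_apply, bs.repr_self, Finsupp.single_eq_same, smul_eq_mul,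
        mul_one]
    · intro b _ hb
      have : g (i, b) • u (i, b) = (g (i, b) • (RatFunc.X ^ (-(((i : ℕ) : ℤ) + 1)) : RatFunc k))
          • bs b := by
        simp only [u]
        rw [smul_assoc]
      rw [this, map_smul, Finsupp.smul_apply, bs.repr_self, Finsupp.single_eq_of_ne hb.symm,
        smul_zero]
    · intro h; exact absurd (Finset.mem_univ _) h
  have hmk : ∀ g : Fin B × ι → k, ∑ ia, g ia • (Submodule.Quotient.mk (u ia) : K ⧸ Q)
      = Submodule.Quotient.mk (∑ ia, g ia • u ia) := by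
    intro g
    rw [← Submodule.mkQ_apply, map_sum]
    rfl
  have hli : LinearIndependent k (fun ia => (Submodule.Quotient.mk (u ia) : K ⧸ Q)) := by
    rw [Fintype.linearIndependent_iff]
    intro g hg
    rw [hmk, Submodule.Quotient.mk_eq_zero, hQ, mem_sup_iff] at hg
    rintro ⟨i, a⟩
    have h1 := hg a
    rw [hrepr] at h1
    let c : ℕ → k := fun n => if h : n < B then g (⟨n, h⟩, a) else 0
    have h2 : ∑ i : Fin B, g (i, a) • (RatFunc.X ^ (-(((i : ℕ) : ℤ) + 1)) : RatFunc k)
        = ∑ n ∈ Finset.range B, c n • (RatFunc.X ^ (-((n : ℤ) + 1)) : RatFunc k) := by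
      rw [← Fin.sum_univ_eq_sum_range
        (fun n => c n • (RatFunc.X ^ (-((n : ℤ) + 1)) : RatFunc k)) B]
      refine Finset.sum_congr rfl fun i _ => ?_
      simp only [c]
      rw [dif_pos i.2]
    rw [h2] at h1
    have h3 := coeffs_unique B c h1 i i.2
    simp only [c] at h3
    rwa [dif_pos i.2] at h3
  have hsp : ⊤ ≤ Submodule.span k (Set.range (fun ia => (Submodule.Quotient.mk (u ia) : K ⧸ Q))) := by
    intro x _
    obtain ⟨x, rfl⟩ := Submodule.Quotient.mk_surjective _ x
    choose c hc using fun a => exists_coeffs B (bs.repr x a)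
    have h1 : (Submodule.Quotient.mk x : K ⧸ Q)
        = ∑ ia : Fin B × ι, c ia.2 ia.1 • (Submodule.Quotient.mk (u ia) : K ⧸ Q) := by
      rw [hmk, Submodule.Quotient.eq, hQ, mem_sup_iff]
      intro a
      rw [map_sub, Finsupp.sub_apply, hrepr (fun ia => c ia.2 ia.1) a]
      have h2 := hc a
      rwa [← Fin.sum_univ_eq_sum_range
        (fun n => c a n • (RatFunc.X ^ (-((n : ℤ) + 1)) : RatFunc k)) B] at h2
    rw [h1]
    exact Submodule.sum_mem _ fun ia _ => Submodule.smul_mem _ _
      (Submodule.subset_span ⟨ia, rfl⟩)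
  exact ⟨Basis.mk hli hsp, fun ia => by rw [Basis.mk_apply]⟩

theorem d1_deep (bs : Basis ι (RatFunc k) K) (f : K) (F : Matrix ι ι k[X])
    (hF : ∀ a b, bs.repr (phi (k := k) f (bs a)) b = algebraMap k[X] (RatFunc k) (F b a)) (B : ℕ)
    (hM : St (phi (k := k) f) (polyL bs))
    (hJ : St (phi (k := k) f) (infL bs (fun _ => -((B : ℤ) + 1)))) :
    d1 (phi (k := k) f) hM hJ = (Th B (Fintype.card k) F).charpolyRev := by
  obtain ⟨v, hv⟩ := exists_basis bs B
  rw [d1_eq_chr, chr_toMatrix v]
  congr 1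
  ext1 jb ia
  rw [LinearMap.toMatrix_apply]
  have key : Submodule.mapQ (polyL bs ⊔ infL bs (fun _ => -((B : ℤ) + 1)))
      (polyL bs ⊔ infL bs (fun _ => -((B : ℤ) + 1))) (phi (k := k) f) (hM.sup hJ) (v ia)
      = ∑ jb, Th B (Fintype.card k) F jb ia • v jb := by
    have h0 : Submodule.mapQ (polyL bs ⊔ infL bs (fun _ => -((B : ℤ) + 1)))
      (polyL bs ⊔ infL bs (fun _ => -((B : ℤ) + 1))) (phi (k := k) f) (hM.sup hJ) (v ia)
      = Submodule.Quotient.mk (phi (k := k) f
        ((RatFunc.X ^ (-(((ia.1 : ℕ) : ℤ) + 1)) : RatFunc k) • bs ia.2)) := by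
      rw [hv]
      rfl
    rw [h0]
    have h1 : ∑ jb, Th B (Fintype.card k) F jb ia • v jb
        = Submodule.Quotient.mk (∑ jb : Fin B × ι, Th B (Fintype.card k) F jb ia •
          ((RatFunc.X ^ (-(((jb.1 : ℕ) : ℤ) + 1)) : RatFunc k) • bs jb.2)) := by
      rw [← Submodule.mkQ_apply, map_sum]
      refine Finset.sum_congr rfl fun jb _ => ?_
      rw [hv, map_smul, Submodule.mkQ_apply]
    rw [h1, Submodule.Quotient.eq, mem_sup_iff]
    intro b
    rw [map_sub, Finsupp.sub_apply, phi_smul, map_smul, Finsupp.smul_apply, hF, smul_eq_mul]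
    have h2 : bs.repr (∑ jb : Fin B × ι, Th B (Fintype.card k) F jb ia •
          ((RatFunc.X ^ (-(((jb.1 : ℕ) : ℤ) + 1)) : RatFunc k) • bs jb.2)) b
        = ∑ j ∈ Finset.range B, (if j + 1 ≤ Fintype.card k * ((ia.1 : ℕ) + 1) then
            (F b ia.2).coeff (Fintype.card k * ((ia.1 : ℕ) + 1) - (j + 1)) else 0) •
            (RatFunc.X ^ (-((j : ℤ) + 1)) : RatFunc k) := by
      rw [← Fin.sum_univ_eq_sum_range (fun j => (if j + 1 ≤ Fintype.card k * ((ia.1 : ℕ) + 1) then
            (F b ia.2).coeff (Fintype.card k * ((ia.1 : ℕ) + 1) - (j + 1)) else 0) •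
            (RatFunc.X ^ (-((j : ℤ) + 1)) : RatFunc k)) B]
      rw [map_sum, Finsupp.finsetSum_apply, Fintype.sum_prod_type]
      refine Finset.sum_congr rfl fun j _ => ?_
      have h3 : ∀ b' : ι, bs.repr (Th B (Fintype.card k) F (j, b') ia •
          ((RatFunc.X ^ (-(((j : ℕ) : ℤ) + 1)) : RatFunc k) • bs b')) b
          = if b' = b then Th B (Fintype.card k) F (j, b') ia •
            (RatFunc.X ^ (-(((j : ℕ) : ℤ) + 1)) : RatFunc k) else 0 := by
        intro b'
        rw [← smul_assoc, map_smul, Finsupp.smul_apply, bs.repr_self, Finsupp.single_apply]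
        split_ifs <;> simp
      simp only [h3]
      rw [Finset.sum_ite_eq' Finset.univ b, if_pos (Finset.mem_univ _)]
      rfl
    rw [h2]
    have h4 : (RatFunc.X ^ (-(((ia.1 : ℕ) : ℤ) + 1)) : RatFunc k) ^ Fintype.card k
        = RatFunc.X ^ (-((Fintype.card k * ((ia.1 : ℕ) + 1) : ℕ) : ℤ)) := by
      rw [← zpow_natCast, ← zpow_mul]
      congr 1
      push_cast
      ring
    rw [h4]
    exact mul_poly_mem B _ (F b ia.2)
  rw [key, v.repr_sum_self]

end Lattice

end Crest.Agent.R013.CntT2b_262
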