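import Mathlib
import Crest.Agent.R013.CntT2b_262

/-!
# R013 / CNT T2: the congruence `∏_{deg P ≤ m} (1 - χ_f(P) T^deg P) det(1-TΦ|H¹(E)) = det(1-TΦ|H⁰(E))`
modulo `T^(m+1)` (helper262)
-/

set_option autoImplicit false
set_option linter.unusedSectionVars false

namespace Crest.Agent.R013.CntT2c_262

open Polynomial WithZero Module IsDedekindDomain nonZeroDivisors
open Crest.Agent.R013.RR1_948 Crest.Agent.R013.RR2_948 Crest.Agent.R013.RR3_948
open Crest.Agent.R013.RR4_948 Crest.Agent.R013.RR5_948 Crest.Agent.R013.RR6_948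
open Crest.Agent.R013.RR7_948 Crest.Agent.R013.RR8_948 Crest.Agent.R013.RR9_948
open Crest.Agent.R013.RR11_948
open Crest.Agent.R013.CntChr_262 Crest.Agent.R013.CntLoc_262 Crest.Agent.R013.CntT2a_262
open Crest.Agent.R013.CntT1_262 Crest.Agent.R013.CntT2b_262

attribute [local instance] algO

section Bases

variable {k : Type*} [Field k] {ι : Type*} [Fintype ι] [DecidableEq ι]
  {K : Type*} [Field K] [Algebra k K] [Algebra (RatFunc k) K] [IsScalarTower k (RatFunc k) K]

theorem exists_bound (b c : Basis ι (RatFunc k) K) :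
    ∃ M : ℕ, ∀ i j, vinf k (c.repr (b j) i) ≤ exp (M : ℤ) := by
  have h : ∀ ij : ι × ι, ∃ n : ℕ, vinf k (c.repr (b ij.2) ij.1) ≤ exp (n : ℤ) := by
    intro ij
    by_cases h0 : c.repr (b ij.2) ij.1 = 0
    · exact ⟨0, by rw [h0, map_zero]; exact zero_le⟩
    · obtain ⟨n, hn⟩ := vinf_exp k h0
      exact ⟨n.toNat, by rw [hn, exp_le_exp]; exact Int.self_le_toNat n⟩
  choose n hn using h
  refine ⟨∑ ij, n ij, fun i j => (hn (i, j)).trans ?_⟩
  rw [exp_le_exp]
  exact_mod_cast Finset.single_le_sum (fun _ _ => Nat.zero_le _) (Finset.mem_univ (i, j))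

theorem change_bound (b c : Basis ι (RatFunc k) K) (M : ℕ)
    (h : ∀ i j, vinf k (c.repr (b j) i) ≤ exp (M : ℤ)) (x : K) (d : ℤ)
    (hx : ∀ j, vinf k (b.repr x j) ≤ exp d) (i : ι) : vinf k (c.repr x i) ≤ exp (d + M) := by
  have h1 : c.repr x i = ∑ j, b.repr x j * c.repr (b j) i := by
    conv_lhs => rw [← b.sum_repr x]
    rw [map_sum, Finsupp.finsetSum_apply]
    refine Finset.sum_congr rfl fun j _ => ?_
    rw [map_smul, Finsupp.smul_apply, smul_eq_mul]
  rw [h1]
  refine Valuation.map_sum_le _ fun j _ => ?_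
  rw [map_mul, exp_add]
  exact mul_le_mul' (hx j) (h i j)

end Bases

section Global

variable {k : Type*} [Field k] [Fintype k] {K : Type*} [Field K] [Algebra k K]
  [Algebra (RatFunc k) K]
  [IsScalarTower k (RatFunc k) K] [FiniteDimensional (RatFunc k) K]
  [Algebra.IsSeparable (RatFunc k) K]
  [Algebra k[X] K] [IsScalarTower k[X] (RatFunc k) K]
  (A₀ : Type*) [CommRing A₀] [IsDedekindDomain A₀] [Algebra k A₀] [Algebra A₀ K]
  [IsScalarTower k A₀ K] [IsFractionRing A₀ K] [Algebra k[X] A₀]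
  [IsScalarTower k[X] A₀ K] [IsIntegralClosure A₀ k[X] K]
  (A₁ : Type*) [CommRing A₁] [IsDedekindDomain A₁] [Algebra k A₁] [Algebra A₁ K]
  [IsScalarTower k A₁ K] [IsFractionRing A₁ K] [Algebra (Rinf k) A₁]
  [IsScalarTower (Rinf k) A₁ K] [IsIntegralClosure A₁ (Rinf k) K]

variable (k K) in
/-- `x^(q^n) - x` in `K` -/
noncomputable def hx (n : ℕ) : K := xK k K ^ (Fintype.card k ^ n) - xK k K

theorem hx_eq (n : ℕ) :
    hx k K n = algebraMap (RatFunc k) K (algebraMap k[X] (RatFunc k) (X ^ (Fintype.card k ^ n) - X)) := by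
  unfold hx xK
  rw [map_sub, map_sub, map_pow, map_pow, RatFunc.algebraMap_X]

theorem hx_ne_zero {n : ℕ} (hn : 1 ≤ n) : hx k K n ≠ 0 := by
  rw [hx_eq]
  have h1 : (X ^ (Fintype.card k ^ n) - X : k[X]) ≠ 0 := by
    have hq : 2 ≤ Fintype.card k := Fintype.one_lt_card
    have h2 : 2 ≤ Fintype.card k ^ n := by
      calc 2 ≤ Fintype.card k := hq
        _ ≤ Fintype.card k ^ n := Nat.le_self_pow (by omega) _
    intro h
    have h3 := congrArg (fun p => p.coeff 1) h
    simp only [coeff_sub, coeff_X_pow, coeff_X_one, coeff_zero] at h3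
    rw [if_neg (by omega)] at h3
    simp at h3
  rw [ne_eq, FaithfulSMul.algebraMap_eq_zero_iff, FaithfulSMul.algebraMap_eq_zero_iff]
  exact h1

/-- places of degree `n` at finite distance are zeros of `x^(q^n) - x` -/
theorem v_hx_lt (P : Pl k K) (hdeg : degE P = degP P) (hP : P.v (xK k K) ≤ 1) :
    P.v (hx k K (degP P)) < 1 := by
  obtain ⟨hfin, hrank⟩ := finrank_Kap P hdeg
  have hκ : Finite (Kap P) := Module.finite_of_finite k
  have := Fintype.ofFinite (Kap P)
  have hcard : Fintype.card (Kap P) = Fintype.card k ^ degP P := by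
    rw [← hrank]; exact Module.card_eq_pow_finrank
  let x : P.v.valuationSubring := ⟨xK k K, hP⟩
  have h1 : IsLocalRing.residue P.v.valuationSubring (x ^ (Fintype.card k ^ degP P) - x) = 0 := by
    rw [map_sub, map_pow, ← hcard, FiniteField.pow_card, sub_self]
  rw [CntLoc_262.residue_eq_zero_iff] at h1
  exact h1

variable (k K) in
/-- the depth function -/
noncomputable def bb (m : ℕ) : Pl k K →₀ ℕ :=
  (divf (k := k) (xK k K)).mapRange Int.natAbs rfl
    + ∑ n ∈ Finset.Icc 1 m, (divf (k := k) (hx k K n)).mapRange Int.natAbs rfl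

theorem bb_apply (m : ℕ) (P : Pl k K) : bb k K m P = (divf (k := k) (xK k K) P).natAbs
    + ∑ n ∈ Finset.Icc 1 m, (divf (k := k) (hx k K n) P).natAbs := by
  unfold bb
  rw [Finsupp.add_apply, Finsupp.mapRange_apply, Finsupp.finsetSum_apply]
  congr 1

theorem le_bb_x (m : ℕ) (P : Pl k K) : |divf (k := k) (xK k K) P| ≤ bb k K m P := by
  rw [bb_apply, Int.abs_eq_natAbs]
  exact_mod_cast Nat.le_add_right _ _

theorem le_bb_h (m n : ℕ) (hn : 1 ≤ n) (hnm : n ≤ m) (P : Pl k K) :
    |divf (k := k) (hx k K n) P| ≤ bb k K m P := by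
  rw [bb_apply, Int.abs_eq_natAbs]
  have h1 : (divf (k := k) (hx k K n) P).natAbs
      ≤ ∑ n ∈ Finset.Icc 1 m, (divf (k := k) (hx k K n) P).natAbs :=
    Finset.single_le_sum (f := fun n => (divf (k := k) (hx k K n) P).natAbs)
      (fun _ _ => Nat.zero_le _) (Finset.mem_Icc.mpr ⟨hn, hnm⟩)
  exact_mod_cast h1.trans (Nat.le_add_left _ _)

theorem bb_pos (m : ℕ) (P : Pl k K) (hP : degP P ≤ m) : 1 ≤ bb k K m P := by
  have hdeg := degE_eq P
  have hpos := degP_pos P
  rcases le_or_gt (P.v (xK k K)) 1 with h | h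
  · have h1 := v_hx_lt P hdeg h
    rw [v_eq (hx_ne_zero hpos), ← exp_zero, exp_lt_exp] at h1
    have h2 := le_bb_h m (degP P) hpos hP P
    have h3 : 1 ≤ |divf (k := k) (hx k K (degP P)) P| := by
      rw [Int.abs_eq_natAbs]; omega
    exact_mod_cast h3.trans h2
  · rw [v_eq xK_ne_zero, ← exp_zero, exp_lt_exp] at h
    have h2 := le_bb_x m P
    have h3 : 1 ≤ |divf (k := k) (xK k K) P| := by
      rw [Int.abs_eq_natAbs]; omega
    exact_mod_cast h3.trans h2

/-- deep lattices: `D1 ≡ D0` modulo `T^(m+1)` -/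
theorem deep {f : K} {E D : Pl k K →₀ ℤ} (m : ℕ)
    (hE : ∀ P : Pl k K, P.v f ≤ exp (-((Fintype.card k - 1 : ℤ) * E P)))
    (hD : ∀ P, D P = E P - bb k K m P) (hG : Good f D) :
    ∃ R : k[X], D1 A₀ A₁ hG = D0 A₀ A₁ hG * R ∧ X ^ (m + 1) ∣ R - 1 := by
  classical
  have hq : 2 ≤ Fintype.card k := Fintype.one_lt_card
  have hqz : (2 : ℤ) ≤ Fintype.card k := by exact_mod_cast hq
  obtain ⟨bs, hbs⟩ := exists_basis_fid k[X] (RatFunc k) K (cut A₀ D)
  obtain ⟨cs, hcs⟩ := exists_basis_fid (Rinf k) (RatFunc k) K (cut A₁ D)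
  have hM : NA A₀ D = polyL bs := by
    ext x
    have h1 : x ∈ NA A₀ D ↔ x ∈ Submodule.span k[X] (Set.range bs) := by
      rw [hbs]; rfl
    rw [h1, bs.mem_span_iff_repr_mem k[X], mem_polyL]
    refine forall_congr' fun j => ?_
    rw [mem_polyS]
  have hN : ∀ x, x ∈ NA A₁ D ↔ ∀ i, vinf k (cs.repr x i) ≤ 1 := by
    intro x
    have h1 : x ∈ NA A₁ D ↔ x ∈ Submodule.span (Rinf k) (Set.range cs) := by
      rw [hcs]; rfl
    rw [h1, cs.mem_span_iff_repr_mem (Rinf k)]
    refine forall_congr' fun j => ?_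
    constructor
    · rintro ⟨s, hs⟩; rw [← hs]; exact s.2
    · intro h; exact ⟨⟨_, h⟩, rfl⟩
  -- the matrix of `Φ`
  have hmemb : ∀ a, bs a ∈ NA A₀ D := by
    intro a
    rw [hM, mem_polyL]
    intro j
    rw [bs.repr_self, Finsupp.single_apply]
    split_ifs
    · exact one_mem_polyS
    · exact Submodule.zero_mem _
  have hF0 : ∀ a b, ∃ p : k[X], algebraMap k[X] (RatFunc k) p = bs.repr (phi (k := k) f (bs a)) b := by
    intro a b
    have h1 := st_NA A₀ hG _ (hmemb a)
    rw [hM, mem_polyL] at h1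
    exact (mem_polyS k).mp (h1 b)
  choose F' hF' using hF0
  let F : Matrix (Fin (finrank (RatFunc k) K)) (Fin (finrank (RatFunc k) K)) k[X] :=
    Matrix.of fun b a => F' a b
  have hF : ∀ a b, bs.repr (phi (k := k) f (bs a)) b = algebraMap k[X] (RatFunc k) (F b a) :=
    fun a b => (hF' a b).symm
  -- divisibility
  have hdvd : ∀ n, 1 ≤ n → n ≤ m → ∀ b a, (X ^ (Fintype.card k ^ n) - X : k[X]) ∣ F b a := by
    intro n hn hnm b a
    have h0 := hx_ne_zero (k := k) (K := K) hn
    have h1 : phi (k := k) f (bs a) / hx k K n ∈ NA A₀ D := by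
      rw [mem_NA]
      intro w
      have h2 := mem_NA.mp (hmemb a) w
      have h3 := hE (ofH w)
      have h4 := le_bb_h m n hn hnm (ofH w : Pl k K)
      have h5 := hD (ofH w)
      rw [map_div₀, v_eq h0, phi_apply, map_mul, map_pow]
      rw [div_le_iff₀ (by simp), ← exp_add]
      calc (ofH w : Pl k K).v f * (ofH w : Pl k K).v (bs a) ^ Fintype.card k
          ≤ exp (-((Fintype.card k - 1 : ℤ) * E (ofH w))) * exp (D (ofH w)) ^ Fintype.card k :=
            mul_le_mul' h3 (pow_le_pow_left₀ zero_le h2 _)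
        _ = exp (-((Fintype.card k - 1 : ℤ) * E (ofH w)) + Fintype.card k * D (ofH w)) := by
            rw [← exp_nsmul, ← exp_add, nsmul_eq_mul]
        _ ≤ _ := by
            rw [exp_le_exp]
            have h6 := le_abs_self (divf (k := k) (hx k K n) (ofH w))
            have h7 := abs_nonneg (divf (k := k) (hx k K n) (ofH w))
            nlinarith
    rw [hM, mem_polyL] at h1
    obtain ⟨p, hp⟩ := (mem_polyS k).mp (h1 b)
    have h2 : bs.repr (phi (k := k) f (bs a) / hx k K n) b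
        = (algebraMap k[X] (RatFunc k) (X ^ (Fintype.card k ^ n) - X))⁻¹
          * bs.repr (phi (k := k) f (bs a)) b := by
      have h3 : phi (k := k) f (bs a) / hx k K n
          = ((algebraMap k[X] (RatFunc k) (X ^ (Fintype.card k ^ n) - X))⁻¹ : RatFunc k)
            • phi (k := k) f (bs a) := by
        rw [Algebra.smul_def, map_inv₀, ← hx_eq, div_eq_mul_inv, mul_comm]
      rw [h3, map_smul, Finsupp.smul_apply, smul_eq_mul]
    have h4 : algebraMap k[X] (RatFunc k) (X ^ (Fintype.card k ^ n) - X) ≠ 0 := by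
      intro h
      apply h0
      rw [hx_eq, h, map_zero]
    rw [h2, hF] at hp
    refine ⟨p, ?_⟩
    apply FaithfulSMul.algebraMap_injective k[X] (RatFunc k)
    rw [map_mul, hp, mul_inv_cancel_left₀ h4]
  -- bounds
  obtain ⟨M₁, hM₁⟩ := exists_bound bs cs
  obtain ⟨M₂, hM₂⟩ := exists_bound cs bs
  obtain ⟨B, hB, hBM⟩ : ∃ B : ℕ, (∀ b a, (F b a).natDegree < (Fintype.card k - 1) * (B + 1)) ∧
      M₁ ≤ B := by
    refine ⟨M₁ + ∑ ba : Fin (finrank (RatFunc k) K) × Fin (finrank (RatFunc k) K),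
      (F ba.1 ba.2).natDegree, fun b a => ?_, Nat.le_add_right _ _⟩
    have h1 : (F b a).natDegree ≤ ∑ ba : Fin (finrank (RatFunc k) K) × Fin (finrank (RatFunc k) K),
      (F ba.1 ba.2).natDegree :=
      Finset.single_le_sum (f := fun ba : Fin (finrank (RatFunc k) K) ×
        Fin (finrank (RatFunc k) K) => (F ba.1 ba.2).natDegree) (fun _ _ => Nat.zero_le _)
        (Finset.mem_univ (b, a))
    set S := ∑ ba : Fin (finrank (RatFunc k) K) × Fin (finrank (RatFunc k) K),
      (F ba.1 ba.2).natDegree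
    calc (F b a).natDegree ≤ S := h1
      _ < M₁ + S + 1 := by omega
      _ ≤ (Fintype.card k - 1) * (M₁ + S + 1) := Nat.le_mul_of_pos_left _ (by omega)
  have hstM : St (phi (k := k) f) (polyL bs) := by rw [← hM]; exact st_NA A₀ hG
  have hstJ : St (phi (k := k) f) (infL bs (fun _ => -((B : ℤ) + 1))) :=
    st_infL bs f F hF B hB
  have hstN := st_NA A₁ hG
  have hJN : infL bs (fun _ => -((B : ℤ) + 1)) ≤ NA A₁ D := by
    intro x hx
    rw [mem_infL] at hx
    rw [hN]
    intro i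
    refine (change_bound bs cs M₁ hM₁ x _ hx i).trans ?_
    rw [← exp_zero, exp_le_exp]
    omega
  have hindex := d_index (phi (k := k) f) hstM hstJ hstN hJN
  have hd1 := d1_deep bs f F hF B hstM hstJ
  have hd0 : d0 (phi (k := k) f) hstM hstJ = 1 := d0_of_inf_eq_bot _ _ _ (inf_eq_bot bs B)
  -- finiteness of `N / J`
  have hfin : Module.Finite k (NA A₁ D ⧸ (infL bs (fun _ => -((B : ℤ) + 1))).submoduleOf (NA A₁ D)) := by
    have hci := chi_index (polyL bs) hJN
    obtain ⟨⟨n₀, hn₀⟩, _, _⟩ := duality_NA A₀ A₁ D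
    rw [hM] at hn₀
    obtain ⟨v, _⟩ := exists_basis bs B
    have h2 : Module.Finite k (K ⧸ (polyL bs ⊔ infL bs (fun _ => -((B : ℤ) + 1)))) :=
      Module.Finite.of_basis v
    have h3 : RR1_948.h1 (polyL bs) (infL bs (fun _ => -((B : ℤ) + 1)))
        = (finrank k (K ⧸ (polyL bs ⊔ infL bs (fun _ => -((B : ℤ) + 1)))) : ℕ) := by
      unfold RR1_948.h1
      rw [Module.length_eq_finrank]
    rw [hn₀, h3] at hci
    have h4 : ri (infL bs (fun _ => -((B : ℤ) + 1))) (NA A₁ D) ≠ ⊤ := by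
      intro h5
      rw [h5, add_top] at hci
      exact ENat.natCast_ne_top _ (by push_cast; exact hci)
    obtain ⟨n, hn⟩ := ENat.ne_top_iff_exists.mp h4
    exact (RR10_948.finite_of_length (n := n) hn.symm).1
  have hnil : ∀ j : ℕ, ∀ s ∈ NA A₁ D, ∀ w : HeightOneSpectrum A₁,
      (ofH w : Pl k K).v ((phi (k := k) f ^ j) s)
        ≤ exp (D (ofH w) + j * divf (k := k) (xK k K) (ofH w)) := by
    intro j
    induction j with
    | zero =>
      intro s hs w
      simpa using mem_NA.mp hs w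
    | succ j ih =>
      intro s hs w
      have h1 := ih s hs w
      have h2 := hE (ofH w)
      have h3 := le_bb_x m (ofH w : Pl k K)
      have h4 := hD (ofH w)
      have h5 := ofH₁_lt (k := k) (K := K) w
      rw [v_eq xK_ne_zero, ← exp_zero, exp_lt_exp] at h5
      rw [pow_succ', Module.End.mul_apply, phi_apply, map_mul, map_pow]
      calc (ofH w : Pl k K).v f * (ofH w : Pl k K).v ((phi (k := k) f ^ j) s) ^ Fintype.card k
          ≤ exp (-((Fintype.card k - 1 : ℤ) * E (ofH w)))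
            * exp (D (ofH w) + j * divf (k := k) (xK k K) (ofH w)) ^ Fintype.card k :=
            mul_le_mul' h2 (pow_le_pow_left₀ zero_le h1 _)
        _ = exp (-((Fintype.card k - 1 : ℤ) * E (ofH w)) + Fintype.card k *
              (D (ofH w) + j * divf (k := k) (xK k K) (ofH w))) := by
            rw [← exp_nsmul, ← exp_add, nsmul_eq_mul]
        _ ≤ _ := by
            rw [exp_le_exp]
            have h6 := neg_abs_le (divf (k := k) (xK k K) (ofH w))
            set d := divf (k := k) (xK k K) (ofH w)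
            set q : ℤ := (Fintype.card k : ℤ)
            have h7 : E (ofH w) = D (ofH w) + bb k K m (ofH w) := by omega
            rw [h7]
            have h8 : -d ≤ bb k K m (ofH w) := by omega
            have h9 : (0 : ℤ) ≤ j := by positivity
            have h10 : (0 : ℤ) ≤ -d := by omega
            push_cast
            nlinarith [mul_nonneg h9 h10, mul_nonneg (mul_nonneg h9 h10) (by linarith : (0:ℤ) ≤ q - 1),
              mul_nonneg (by linarith : (0:ℤ) ≤ q - 2) (by omega : (0:ℤ) ≤ bb k K m (ofH w))]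
  have hdq : dq (phi (k := k) f) hstJ hstN = 1 := by
    refine dq_nilpotent _ _ _ hfin (M₂ + B + 1) fun s hs => ?_
    set j := M₂ + B + 1
    have h1 := hnil j s hs
    -- `X^j Φ^j s ∈ N`
    have h2 : (RatFunc.X ^ j : RatFunc k) • (phi (k := k) f ^ j) s ∈ NA A₁ D := by
      rw [mem_NA]
      intro w
      rw [Algebra.smul_def, map_mul, map_pow, map_pow]
      have h3 : (ofH w : Pl k K).v (algebraMap (RatFunc k) K RatFunc.X)
          = exp (-divf (k := k) (xK k K) (ofH w)) := v_eq (k := k) xK_ne_zero (ofH w : Pl k K)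
      rw [h3, ← exp_nsmul]
      calc _ ≤ exp (j • -divf (k := k) (xK k K) (ofH w))
            * exp (D (ofH w) + j * divf (k := k) (xK k K) (ofH w)) := mul_le_mul_right (h1 w) _
        _ = exp (D (ofH w)) := by
            rw [← exp_add]; congr 1; rw [nsmul_eq_mul]; ring
    rw [hN] at h2
    rw [mem_infL]
    intro l
    have h3 : ∀ i, vinf k (cs.repr ((phi (k := k) f ^ j) s) i) ≤ exp (-(j : ℤ)) := by
      intro i
      have h4 := h2 i
      rw [map_smul, Finsupp.smul_apply, smul_eq_mul, map_mul, map_pow, vinf_X, ← exp_nsmul] at h4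
      have h5 : (1 : ℤᵐ⁰) = exp (j • (1 : ℤ)) * exp (-(j : ℤ)) := by
        rw [← exp_add]; simp
      rw [h5] at h4
      exact (mul_le_mul_iff_right₀ (by simp)).mp h4
    refine (change_bound cs bs M₂ hM₂ _ _ h3 l).trans ?_
    rw [exp_le_exp]
    omega
  rw [hd0, hdq, hd1, one_mul, mul_one] at hindex
  refine ⟨(Th B (Fintype.card k) F).charpolyRev, ?_, ?_⟩
  · unfold D0 D1
    rw [d0_congr _ (st_NA A₀ hG) (st_NA A₁ hG) hstM hstN hM rfl,
      d1_congr _ (st_NA A₀ hG) (st_NA A₁ hG) hstM hstN hM rfl]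
    exact hindex.symm
  · obtain ⟨p, r, hchar, hp, hcard⟩ := FiniteField.card' k
    have : Fact p.Prime := ⟨hp⟩
    rw [Polynomial.X_pow_dvd_iff]
    intro n hn
    rw [coeff_sub]
    by_cases h0 : n = 0
    · subst h0
      rw [Polynomial.coeff_zero_eq_eval_zero, Matrix.eval_charpolyRev]
      simp
    · rw [T1 p (Fintype.card k) hq F m B hdvd hB n (by omega) (by omega), coeff_one, if_neg h0,
        sub_zero]

/-- **(T2)** -/
theorem T2_charts {f : K} {E : Pl k K →₀ ℤ}
    (hE : ∀ P : Pl k K, P.v f = exp (-((Fintype.card k - 1 : ℤ) * E P)))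
    (c : Pl k K → k) (hc : ∀ P, IsChi f E P (c P)) (hG : Good f E) (m : ℕ) :
    ∃ S : Finset (Pl k K), (∀ P : Pl k K, degP P ≤ m → P ∈ S) ∧
      X ^ (m + 1) ∣ D1 A₀ A₁ hG * ∏ P ∈ S, (1 - C (c P) * X ^ degP P) - D0 A₀ A₁ hG := by
  classical
  let l : List (Pl k K) := (Finsupp.toMultiset (bb k K m)).toList
  have hcount : ∀ P, l.count P = bb k K m P := by
    intro P
    rw [← Multiset.coe_count, Multiset.coe_toList, Finsupp.count_toMultiset]
  have hl : ∀ P, low E l P = E P - bb k K m P := by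
    intro P
    rw [low_apply, hcount]
  have hG' : Good f (low E l) := hG.mono fun P => by rw [hl]; omega
  obtain ⟨R, hR, hR1⟩ := deep A₀ A₁ m (fun P => (hE P).le) hl hG'
  refine ⟨l.toFinset, fun P hP => ?_, ?_⟩
  · rw [List.mem_toFinset, ← List.count_pos_iff, hcount]
    exact bb_pos m P hP
  · have h1 := D_low A₀ A₁ hE c hc hG l hG'
    rw [hR] at h1
    have hne := D0_ne_zero A₀ A₁ hG'
    have h2 : D0 A₀ A₁ hG * R = D1 A₀ A₁ hG * ∏ P ∈ l.toFinset, (1 - C (c P) * X ^ degP P) := by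
      apply mul_left_cancel₀ hne
      linear_combination h1
    rw [← h2]
    have h3 : D0 A₀ A₁ hG * R - D0 A₀ A₁ hG = D0 A₀ A₁ hG * (R - 1) := by ring
    rw [h3]
    exact Dvd.dvd.mul_left hR1 _

end Global

end Crest.Agent.R013.CntT2c_262
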