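import Mathlib
import Crest.Agent.R013.CntT2c_262
import Crest.Agent.R013.CntF1_398
import Crest.Agent.R013.RR23_948
import Crest.Agent.R013.CntA1_560

/-!
# R013 / CNT T3: chart-free form of T2, `A_(g-1)(χ_f) = ± det Φ`, Frobenius injective on all
`H¹(p^j E)` (helper262)
-/

set_option autoImplicit false
set_option linter.unusedSectionVars false
set_option linter.all false

namespace Crest.Agent.R013.CntT3_262

open Polynomial WithZero Module
open Crest.Agent.R013.RR1_948 Crest.Agent.R013.RR2_948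
open Crest.Agent.R013.RR7_948 Crest.Agent.R013.RR8_948 Crest.Agent.R013.RR9_948
open Crest.Agent.R013.RR11_948
open Crest.Agent.R013.CntChr_262 Crest.Agent.R013.CntLoc_262 Crest.Agent.R013.CntT2a_262
open Crest.Agent.R013.CntT2c_262 Crest.Agent.R013.CntF1_398 Crest.Agent.R013.PicD_398
open Crest.Agent.R013.CntA1_560

section Congr

variable {R : Type*} [CommRing R]

theorem dvd_mul_sub_one {x a b : R} (ha : x ∣ a - 1) (hb : x ∣ b - 1) : x ∣ a * b - 1 := by
  have : a * b - 1 = a * (b - 1) + (a - 1) := by ring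
  rw [this]
  exact dvd_add (Dvd.dvd.mul_left hb _) ha

theorem dvd_prod_sub_one {ι : Type*} {x : R} (s : Finset ι) (a : ι → R)
    (h : ∀ i ∈ s, x ∣ a i - 1) : x ∣ (∏ i ∈ s, a i) - 1 := by
  classical
  induction s using Finset.induction_on with
  | empty => simp
  | insert i s hi ih =>
    rw [Finset.prod_insert hi]
    exact dvd_mul_sub_one (h i (Finset.mem_insert_self _ _))
      (ih fun j hj => h j (Finset.mem_insert_of_mem hj))

end Congr

section Main

variable {k : Type*} [Field k] [Fintype k] {K : Type*} [Field K] [Algebra k K]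
  [Algebra (RatFunc k) K]
  [IsScalarTower k (RatFunc k) K] [FiniteDimensional (RatFunc k) K]
  [Algebra.IsSeparable (RatFunc k) K]

theorem st_U0 {f : K} {E : Pl k K →₀ ℤ} (h : Good f E) : St (phi (k := k) f) (U0 E) := by
  intro s hs
  rw [mem_U0] at hs ⊢
  intro P hP
  exact mem_ball.mp (st_ball P f (E P) (E P) (h P) le_rfl s (mem_ball.mpr (hs P hP)))

theorem st_U1 {f : K} {E : Pl k K →₀ ℤ} (h : Good f E) : St (phi (k := k) f) (U1 E) := by
  intro s hs
  rw [mem_U1] at hs ⊢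
  intro P hP
  exact mem_ball.mp (st_ball P f (E P) (E P) (h P) le_rfl s (mem_ball.mpr (hs P hP)))

/-- `Φ_f : s ↦ f s^q` on `H¹(E) = K / (U0 E + U1 E)` -/
noncomputable def PhiH {f : K} {E : Pl k K →₀ ℤ} (h : Good f E) :
    (K ⧸ (U0 E ⊔ U1 E)) →ₗ[k] (K ⧸ (U0 E ⊔ U1 E)) :=
  Submodule.mapQ _ _ (phi (k := k) f) ((st_U0 h).sup (st_U1 h))

theorem PhiH_mk {f : K} {E : Pl k K →₀ ℤ} (h : Good f E) (x : K) :
    PhiH h (Submodule.Quotient.mk x) = Submodule.Quotient.mk (phi (k := k) f x) := rfl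

/-- the places of degree `≤ m` -/
noncomputable def pls (k K : Type*) [Field k] [Fintype k] [Field K] [Algebra k K]
    [Algebra (RatFunc k) K] [IsScalarTower k (RatFunc k) K] [FiniteDimensional (RatFunc k) K]
    [Algebra.IsSeparable (RatFunc k) K] (m : ℕ) : Finset (Pl k K) :=
  (finite_degP_le (k := k) (K := K) m).toFinset

theorem mem_pls {m : ℕ} {P : Pl k K} : P ∈ pls k K m ↔ degP P ≤ m := by
  unfold pls
  rw [Set.Finite.mem_toFinset]
  rfl

theorem good_of_divf {f : K} (hf : f ≠ 0) {E : Pl k K →₀ ℤ}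
    (hE : divf (k := k) f = (Fintype.card k - 1) • E) (P : Pl k K) :
    P.v f = exp (-((Fintype.card k - 1 : ℤ) * E P)) := by
  rw [v_eq hf, hE, Finsupp.smul_apply, nsmul_eq_mul, Nat.cast_sub Fintype.card_pos]
  push_cast
  rfl

theorem good {f : K} (hf : f ≠ 0) {E : Pl k K →₀ ℤ}
    (hE : divf (k := k) f = (Fintype.card k - 1) • E) : Good f E :=
  fun P => (good_of_divf hf hE P).le

theorem LD_eq_bot {D : Pl k K →₀ ℤ} (h : ell D = 0) : LD D = ⊥ := by
  have := LD_finite D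
  unfold ell at h
  exact Submodule.finrank_eq_zero.mp h

/-- **(T2)**, chart-free form, for `ℓ(E) = 0` -/
theorem T2 {f : K} (hf : f ≠ 0) {E : Pl k K →₀ ℤ}
    (hE : divf (k := k) f = (Fintype.card k - 1) • E) (hell : ell E = 0)
    (c : Pl k K → k) (hc : ∀ P, IsChi f E P (c P)) (hG : Good f E) (m : ℕ) :
    X ^ (m + 1) ∣ chr (PhiH hG) * ∏ P ∈ pls k K m, (1 - C (c P) * X ^ degP P) - 1 := by
  classical
  use_charts k, K
  obtain ⟨S, hS, h⟩ := T2_charts (integralClosure (Polynomial k) K) (integralClosure (Rinf k) K)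
    (good_of_divf hf hE) c hc hG m
  have e0 := U0_eq_NA (integralClosure (Polynomial k) K) E
  have e1 := U1_eq_NA (integralClosure (Rinf k) K) E
  have h0 : D0 (integralClosure (Polynomial k) K) (integralClosure (Rinf k) K) hG = 1 := by
    unfold D0
    apply d0_of_inf_eq_bot
    rw [← e0, ← e1, ← CntF1_398.LD_eq]
    exact LD_eq_bot hell
  have h1 : D1 (integralClosure (Polynomial k) K) (integralClosure (Rinf k) K) hG
      = chr (PhiH hG) := by
    unfold D1
    rw [d1_congr _ _ _ (st_U0 hG) (st_U1 hG) e0.symm e1.symm, d1_eq_chr]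
    rfl
  rw [h0, h1] at h
  have hsub : pls k K m ⊆ S := fun P hP => hS P (mem_pls.mp hP)
  rw [← Finset.prod_sdiff hsub] at h
  set A := ∏ P ∈ pls k K m, (1 - C (c P) * X ^ degP P)
  set B := ∏ P ∈ S \ pls k K m, (1 - C (c P) * X ^ degP P)
  have hB : X ^ (m + 1) ∣ B - 1 := by
    apply dvd_prod_sub_one
    intro P hP
    have h2 : ¬ degP P ≤ m := fun h3 => (Finset.mem_sdiff.mp hP).2 (mem_pls.mpr h3)
    have h3 : 1 - C (c P) * X ^ degP P - 1 = -C (c P) * X ^ degP P := by ring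
    rw [h3]
    exact Dvd.dvd.mul_left (pow_dvd_pow _ (by omega)) _
  have h4 : chr (PhiH hG) * A - 1
      = (chr (PhiH hG) * (B * A) - 1) - chr (PhiH hG) * A * (B - 1) := by ring
  rw [h4]
  exact dvd_sub h (Dvd.dvd.mul_left hB _)

end Main

section Frob

variable {k : Type*} [Field k] [Fintype k] {K : Type*} [Field K] [Algebra k K]
  [Algebra (RatFunc k) K]
  [IsScalarTower k (RatFunc k) K] [FiniteDimensional (RatFunc k) K]
  [Algebra.IsSeparable (RatFunc k) K]

theorem N0_eq (D : Pl k K →₀ ℤ) : RR23_948.N0 D = U0 D := rfl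

theorem N1_eq (D : Pl k K →₀ ℤ) : RR23_948.N1 D = U1 D := rfl

instance finite_H (D : Pl k K →₀ ℤ) : Module.Finite k (K ⧸ (U0 D ⊔ U1 D)) :=
  RR23_948.finite_H1 D

theorem finrank_H (hc : algebraicClosure k K = ⊥) (hg : 1 ≤ gen k K) {D : Pl k K →₀ ℤ}
    (hdeg : degD D = 0) (hell : ell D = 0) : finrank k (K ⧸ (U0 D ⊔ U1 D)) = gen k K - 1 := by
  have h1 : finrank k (K ⧸ (U0 D ⊔ U1 D)) = ell (canD k K - D) := RR23_948.finrank_H1 D
  have h2 := riemann_roch hc D
  rw [h1]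
  rw [hell, hdeg] at h2
  push_cast at h2
  omega

theorem pow_mem_U {p : ℕ} [hp : Fact p.Prime] [CharP K p] {D : Pl k K →₀ ℤ} {x : K}
    (hx : x ∈ U0 D ⊔ U1 D) : x ^ p ∈ U0 (p • D) ⊔ U1 (p • D) := by
  obtain ⟨y, hy, z, hz, rfl⟩ := Submodule.mem_sup.mp hx
  rw [add_pow_char]
  exact Submodule.add_mem_sup (pow_mem_U0 hy p) (pow_mem_U1 hz p)

theorem pow_pow_mem_U {p : ℕ} [hp : Fact p.Prime] [CharP K p] {D : Pl k K →₀ ℤ} {x : K} (i : ℕ)
    (hx : x ∈ U0 D ⊔ U1 D) : x ^ (p ^ i) ∈ U0 (p ^ i • D) ⊔ U1 (p ^ i • D) := by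
  induction i with
  | zero => simpa using hx
  | succ i ih =>
    have h1 := pow_mem_U (p := p) ih
    rw [← pow_mul, smul_smul, ← pow_succ, ← pow_succ'] at h1
    exact h1

theorem mul_mem_U {D D' : Pl k K →₀ ℤ} {u x : K} (hu : ∀ P : Pl k K, P.v u ≤ exp (D' P - D P))
    (hx : x ∈ U0 D ⊔ U1 D) : u * x ∈ U0 D' ⊔ U1 D' := by
  obtain ⟨y, hy, z, hz, rfl⟩ := Submodule.mem_sup.mp hx
  rw [mul_add]
  refine Submodule.add_mem_sup ?_ ?_
  · rw [mem_U0] at hy ⊢
    intro P hP
    rw [map_mul]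
    calc _ ≤ exp (D' P - D P) * exp (D P) := mul_le_mul' (hu P) (hy P hP)
      _ = exp (D' P) := by rw [← exp_add]; congr 1; ring
  · rw [mem_U1] at hz ⊢
    intro P hP
    rw [map_mul]
    calc _ ≤ exp (D' P - D P) * exp (D P) := mul_le_mul' (hu P) (hz P hP)
      _ = exp (D' P) := by rw [← exp_add]; congr 1; ring

/-- injectivity of Frobenius gives surjectivity modulo the next lattice -/
theorem surj_of_inj {p : ℕ} [hp : Fact p.Prime] [CharP K p] (D : Pl k K →₀ ℤ)
    (hrank : finrank k (K ⧸ (U0 D ⊔ U1 D)) = finrank k (K ⧸ (U0 (p • D) ⊔ U1 (p • D))))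
    (hI : ∀ x : K, x ^ p ∈ U0 (p • D) ⊔ U1 (p • D) → x ∈ U0 D ⊔ U1 D) (y : K) :
    ∃ x : K, y - x ^ p ∈ U0 (p • D) ⊔ U1 (p • D) := by
  let F : (K ⧸ (U0 D ⊔ U1 D)) → (K ⧸ (U0 (p • D) ⊔ U1 (p • D))) := fun a =>
    Quotient.liftOn' a (fun x => (Submodule.Quotient.mk (x ^ p) : K ⧸ (U0 (p • D) ⊔ U1 (p • D))))
      (by
        intro x x' hxx
        have h1 : x - x' ∈ U0 D ⊔ U1 D := by
          have := (Submodule.quotientRel_def _).mp hxx
          exact this
        have h2 := pow_mem_U (p := p) h1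
        rw [sub_pow_char] at h2
        exact (Submodule.Quotient.eq _).mpr h2)
  have hF : ∀ x : K, F (Submodule.Quotient.mk x) = Submodule.Quotient.mk (x ^ p) := fun x => rfl
  have hfin1 : Finite (K ⧸ (U0 D ⊔ U1 D)) := Module.finite_of_finite k
  have hfin2 : Finite (K ⧸ (U0 (p • D) ⊔ U1 (p • D))) := Module.finite_of_finite k
  have hinj : Function.Injective F := by
    intro a b hab
    obtain ⟨a, rfl⟩ := Submodule.Quotient.mk_surjective _ a
    obtain ⟨b, rfl⟩ := Submodule.Quotient.mk_surjective _ b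
    rw [hF, hF, Submodule.Quotient.eq, ← sub_pow_char] at hab
    exact (Submodule.Quotient.eq _).mpr (hI _ hab)
  have hcard : Nat.card (K ⧸ (U0 D ⊔ U1 D)) = Nat.card (K ⧸ (U0 (p • D) ⊔ U1 (p • D))) := by
    have c1 := Module.natCard_eq_pow_finrank (K := k) (V := K ⧸ (U0 D ⊔ U1 D))
    have c2 := Module.natCard_eq_pow_finrank (K := k) (V := K ⧸ (U0 (p • D) ⊔ U1 (p • D)))
    rw [c1, c2, hrank]
  have hbij := (Nat.bijective_iff_injective_and_card F).mpr ⟨hinj, hcard⟩
  obtain ⟨a, ha⟩ := hbij.2 (Submodule.Quotient.mk y)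
  obtain ⟨x, rfl⟩ := Submodule.Quotient.mk_surjective _ a
  rw [hF] at ha
  exact ⟨x, (Submodule.Quotient.eq _).mp ha.symm⟩

/-- `Φ_f` injective on `H¹(E)` ⇒ Frobenius injective on all `H¹(p^j E)` -/
theorem FInj_all {p : ℕ} [hp : Fact p.Prime] [CharP K p] {r : ℕ} (hr : Fintype.card k = p ^ r)
    (hr1 : 1 ≤ r) {f : K} (hf : f ≠ 0)
    {E : Pl k K →₀ ℤ} (hE : divf (k := k) f = (Fintype.card k - 1) • E)
    (hrank : ∀ j : ℕ, finrank k (K ⧸ (U0 (p ^ j • E) ⊔ U1 (p ^ j • E)))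
      = finrank k (K ⧸ (U0 E ⊔ U1 E)))
    (hG : Good f E) (hinj : Function.Injective (PhiH hG)) (j : ℕ) :
    ∀ x : K, x ^ p ∈ U0 (p ^ (j + 1) • E) ⊔ U1 (p ^ (j + 1) • E) →
      x ∈ U0 (p ^ j • E) ⊔ U1 (p ^ j • E) := by
  have hq1 : 1 ≤ Fintype.card k := Fintype.card_pos
  -- `P j`
  have hv : ∀ (j : ℕ) (P : Pl k K), P.v (f ^ (p ^ j))
      ≤ exp ((p ^ j • E) P - (Fintype.card k • (p ^ j • E)) P) := by
    intro j P
    rw [map_pow, good_of_divf hf hE P, ← exp_nsmul]
    apply le_of_eq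
    congr 1
    simp only [Finsupp.smul_apply, nsmul_eq_mul]
    ring
  -- `P j → I j`
  have hPI : ∀ j : ℕ, (∀ x : K, f ^ (p ^ j) * x ^ Fintype.card k ∈ U0 (p ^ j • E) ⊔ U1 (p ^ j • E) →
      x ∈ U0 (p ^ j • E) ⊔ U1 (p ^ j • E)) →
      ∀ x : K, x ^ p ∈ U0 (p ^ (j + 1) • E) ⊔ U1 (p ^ (j + 1) • E) →
      x ∈ U0 (p ^ j • E) ⊔ U1 (p ^ j • E) := by
    intro j hP x hx
    apply hP
    apply mul_mem_U (hv j)
    have h1 := pow_pow_mem_U (p := p) (r - 1) hx
    rw [← pow_mul, ← pow_succ', smul_smul, Nat.sub_add_cancel hr1, ← hr] at h1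
    have h2 : p ^ (r - 1) * p ^ (j + 1) = Fintype.card k * p ^ j := by
      rw [hr, ← pow_add, ← pow_add]; congr 1; omega
    rw [h2, ← smul_smul] at h1
    exact h1
  have hall : ∀ j : ℕ, (∀ x : K, f ^ (p ^ j) * x ^ Fintype.card k ∈
      U0 (p ^ j • E) ⊔ U1 (p ^ j • E) → x ∈ U0 (p ^ j • E) ⊔ U1 (p ^ j • E)) := by
    intro j
    induction j with
    | zero =>
      intro x hx
      rw [pow_zero, pow_one, one_smul] at hx
      rw [pow_zero, one_smul]
      have h1 : PhiH hG (Submodule.Quotient.mk x) = 0 := by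
        rw [PhiH_mk, Submodule.Quotient.mk_eq_zero]
        exact hx
      have h2 := hinj (h1.trans (map_zero _).symm)
      exact (Submodule.Quotient.mk_eq_zero _).mp h2
    | succ j ih =>
      intro x hx
      have hI := hPI j ih
      have e : (p ^ (j + 1) • E : Pl k K →₀ ℤ) = p • (p ^ j • E) := by
        rw [smul_smul, pow_succ']
      rw [e] at hx hI ⊢
      obtain ⟨y, hy⟩ := surj_of_inj (p := p) (p ^ j • E)
        (by rw [hrank j, ← e, hrank (j + 1)]) hI x
      -- `f^(p^(j+1)) (x - y^p)^q` is in the lattice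
      have h1 : f ^ (p ^ (j + 1)) * (x - y ^ p) ^ Fintype.card k
          ∈ U0 (p • (p ^ j • E)) ⊔ U1 (p • (p ^ j • E)) := by
        rw [← e]
        apply mul_mem_U (hv (j + 1))
        rw [e]
        have h2 := pow_pow_mem_U (p := p) r hy
        rw [← hr] at h2
        exact h2
      have h2 : (x - y ^ p) ^ Fintype.card k = x ^ Fintype.card k - (y ^ p) ^ Fintype.card k := by
        rw [hr]
        exact sub_pow_char_pow x (y ^ p) r
      have h3 : (f ^ (p ^ j) * y ^ Fintype.card k) ^ p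
          ∈ U0 (p • (p ^ j • E)) ⊔ U1 (p • (p ^ j • E)) := by
        have h4 : (f ^ (p ^ j) * y ^ Fintype.card k) ^ p
            = f ^ (p ^ (j + 1)) * x ^ Fintype.card k
              - f ^ (p ^ (j + 1)) * (x - y ^ p) ^ Fintype.card k := by
          rw [h2, mul_pow, ← pow_mul, ← pow_succ, mul_sub]
          ring
        rw [h4]
        exact Submodule.sub_mem _ hx h1
      have h4 := ih y (hI _ h3)
      have h5 := pow_mem_U (p := p) h4
      have h6 : x = (x - y ^ p) + y ^ p := by ring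
      rw [h6]
      exact Submodule.add_mem _ hy h5
  exact hPI j (hall j)

end Frob

section Det

variable {k : Type*} [Field k]

theorem coeff_chr_finrank {M : Type*} [AddCommGroup M] [Module k M] [Module.Finite k M]
    (φ : M →ₗ[k] M) : (chr φ).coeff (finrank k M) = φ.charpoly.coeff 0 := by
  rw [chr_eq, Polynomial.coeff_reverse, LinearMap.charpoly_natDegree, revAt_le le_rfl, Nat.sub_self]

theorem injective_of_coeff {M : Type*} [AddCommGroup M] [Module k M] [Module.Finite k M]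
    (φ : M →ₗ[k] M) (h : (chr φ).coeff (finrank k M) ≠ 0) : Function.Injective φ := by
  rw [coeff_chr_finrank] at h
  rw [← LinearMap.ker_eq_bot]
  by_contra hcon
  apply h
  have h1 : LinearMap.det φ = 0 := by
    by_contra h2
    exact hcon (LinearMap.isUnit_iff_ker_eq_bot φ |>.mp
      ((LinearMap.isUnit_iff_isUnit_det φ).mpr (isUnit_iff_ne_zero.mpr h2)))
  have h2 := LinearMap.det_eq_sign_charpoly_coeff φ
  rw [h1] at h2
  rcases mul_eq_zero.mp h2.symm with h3 | h3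
  · exact absurd h3 (pow_ne_zero _ (by norm_num))
  · exact h3

end Det

end Crest.Agent.R013.CntT3_262
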