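import Mathlib
import Crest.Agent.R013.CntT3_262

/-!
# R013 / CNT T4: `A_(g-1)(χ_f) ≠ 0` ⇒ Frobenius is injective on all `H¹(p^j E)` (helper262)
-/

set_option autoImplicit false
set_option linter.unusedSectionVars false
set_option linter.all false

namespace Crest.Agent.R013.CntT4_262

open Polynomial WithZero Module
open Crest.Agent.R013.RR1_948 Crest.Agent.R013.RR2_948
open Crest.Agent.R013.RR7_948 Crest.Agent.R013.RR8_948 Crest.Agent.R013.RR9_948
open Crest.Agent.R013.RR11_948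
open Crest.Agent.R013.CntChr_262 Crest.Agent.R013.CntLoc_262 Crest.Agent.R013.CntT2a_262
open Crest.Agent.R013.CntT2c_262 Crest.Agent.R013.CntF1_398 Crest.Agent.R013.PicD_398
open Crest.Agent.R013.CntA1_560 Crest.Agent.R013.CntT3_262

variable {k : Type*} [Field k] [Fintype k] {K : Type*} [Field K] [Algebra k K]
  [Algebra (RatFunc k) K]
  [IsScalarTower k (RatFunc k) K] [FiniteDimensional (RatFunc k) K]
  [Algebra.IsSeparable (RatFunc k) K]

/-- the coefficients of the inverse `L` of the Euler product are those of `det (1 - TΦ | H¹(E))` -/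
theorem coeff_chr_eq {f : K} (hf : f ≠ 0) {E : Pl k K →₀ ℤ}
    (hE : divf (k := k) f = (Fintype.card k - 1) • E) (hell : ell E = 0)
    (c : Pl k K → k) (hc : ∀ P, IsChi f E P (c P)) (hG : Good f E) (m : ℕ) (L : k[X])
    (hL : X ^ (m + 1) ∣ (∏ P ∈ pls k K m, (1 - C (c P) * X ^ degP P)) * L - 1) (n : ℕ)
    (hn : n ≤ m) : (chr (PhiH hG)).coeff n = L.coeff n := by
  have h1 := T2 hf hE hell c hc hG m
  set A := ∏ P ∈ pls k K m, (1 - C (c P) * X ^ degP P)
  have h2 : X ^ (m + 1) ∣ chr (PhiH hG) - L := by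
    have : chr (PhiH hG) - L = (chr (PhiH hG) * A - 1) * L - chr (PhiH hG) * (A * L - 1) := by ring
    rw [this]
    exact dvd_sub (Dvd.dvd.mul_right h1 _) (Dvd.dvd.mul_left hL _)
  rw [Polynomial.X_pow_dvd_iff] at h2
  have h3 := h2 n (by omega)
  rw [coeff_sub] at h3
  exact sub_eq_zero.mp h3

/-- the coefficients of `L` vanish from `g` on -/
theorem coeff_eq_zero (hcst : algebraicClosure k K = ⊥) (hg : 1 ≤ gen k K) {f : K} (hf : f ≠ 0)
    {E : Pl k K →₀ ℤ} (hE : divf (k := k) f = (Fintype.card k - 1) • E) (hdeg : degD E = 0)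
    (hell : ell E = 0) (c : Pl k K → k) (hc : ∀ P, IsChi f E P (c P)) (m : ℕ) (L : k[X])
    (hL : X ^ (m + 1) ∣ (∏ P ∈ pls k K m, (1 - C (c P) * X ^ degP P)) * L - 1) (n : ℕ)
    (hn : n ≤ m) (hgn : gen k K ≤ n) : L.coeff n = 0 := by
  rw [← coeff_chr_eq hf hE hell c hc (good hf hE) m L hL n hn, chr_eq]
  apply coeff_eq_zero_of_natDegree_lt
  refine lt_of_le_of_lt (reverse_natDegree_le _) ?_
  rw [LinearMap.charpoly_natDegree, finrank_H hcst hg hdeg hell]
  omega

theorem injective_PhiH (hcst : algebraicClosure k K = ⊥) (hg : 1 ≤ gen k K) {f : K} (hf : f ≠ 0)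
    {E : Pl k K →₀ ℤ} (hE : divf (k := k) f = (Fintype.card k - 1) • E) (hdeg : degD E = 0)
    (hell : ell E = 0) (c : Pl k K → k) (hc : ∀ P, IsChi f E P (c P)) (L : k[X])
    (hL : X ^ (gen k K) ∣ (∏ P ∈ pls k K (gen k K - 1), (1 - C (c P) * X ^ degP P)) * L - 1)
    (hcoef : L.coeff (gen k K - 1) ≠ 0) (hG : Good f E) : Function.Injective (PhiH hG) := by
  apply injective_of_coeff
  rw [finrank_H hcst hg hdeg hell, coeff_chr_eq hf hE hell c hc hG (gen k K - 1) L
    (by rwa [Nat.sub_add_cancel hg]) _ le_rfl]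
  exact hcoef

/-- **(T4)** -/
theorem FInj_of_coeff (hcst : algebraicClosure k K = ⊥) (hg : 1 ≤ gen k K)
    {p : ℕ} [hp : Fact p.Prime] [CharP K p] {r : ℕ} (hr : Fintype.card k = p ^ r) (hr1 : 1 ≤ r)
    {f : K} (hf : f ≠ 0)
    {E : Pl k K →₀ ℤ} (hE : divf (k := k) f = (Fintype.card k - 1) • E) (hdeg : degD E = 0)
    (hell : ∀ j : ℕ, ell (p ^ j • E) = 0) (c : Pl k K → k) (hc : ∀ P, IsChi f E P (c P)) (L : k[X])
    (hL : X ^ (gen k K) ∣ (∏ P ∈ pls k K (gen k K - 1), (1 - C (c P) * X ^ degP P)) * L - 1)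
    (hcoef : L.coeff (gen k K - 1) ≠ 0) (j : ℕ) :
    ∀ x : K, x ^ p ∈ U0 (p ^ (j + 1) • E) ⊔ U1 (p ^ (j + 1) • E) →
      x ∈ U0 (p ^ j • E) ⊔ U1 (p ^ j • E) := by
  have hell0 : ell E = 0 := by have := hell 0; rwa [pow_zero, one_smul] at this
  have hinj := injective_PhiH hcst hg hf hE hdeg hell0 c hc L hL hcoef (good hf hE)
  have hdegj : ∀ j : ℕ, degD (p ^ j • E) = 0 := by
    intro j
    have h1 : ∀ n : ℕ, degD (n • E) = n * degD E := by
      intro n
      induction n with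
      | zero => simp [degD_zero]
      | succ n ih => rw [succ_nsmul, degD_add, ih]; push_cast; ring
    rw [h1, hdeg, mul_zero]
  refine FInj_all hr hr1 hf hE (fun j => ?_) (good hf hE) hinj j
  rw [finrank_H hcst hg (hdegj j) (hell j), finrank_H hcst hg hdeg hell0]

end Crest.Agent.R013.CntT4_262
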