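import Mathlib
import Crest.Agent.R013.CntA1_560

/-!
# R013 / Euler: the Euler product of `∑ A_n(ψ) X ^ n`, truncated (helper127)
-/

set_option autoImplicit false
set_option linter.all false

namespace Crest.Agent.R013.Euler_127

open Finset WithZero Module Polynomial
open Crest.Agent.R013.RR7_948 Crest.Agent.R013.RR8_948 Crest.Agent.R013.RR9_948
open Crest.Agent.R013.RR11_948 Crest.Agent.R013.RR12_948
open Crest.Agent.R013.PicD_398 Crest.Agent.R013.CntA1_560

variable {k K : Type*} [Field k] [Field K] [Algebra k K]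
  [Algebra (RatFunc k) K] [IsScalarTower k (RatFunc k) K] [FiniteDimensional (RatFunc k) K]
  [Algebra.IsSeparable (RatFunc k) K] [Finite k] {R : Type*} [CommRing R]

variable (k K) in
/-- effective divisors of degree at most `m` -/
noncomputable def effU (m : ℕ) : Finset (Pl k K →₀ ℤ) := by
  classical
  exact (range (m + 1)).biUnion fun n => eff (k := k) (K := K) (n : ℤ)

theorem mem_effU {m : ℕ} {D : Pl k K →₀ ℤ} : D ∈ effU k K m ↔ 0 ≤ D ∧ degD D ≤ m := by
  classical
  unfold effU
  rw [Finset.mem_biUnion]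
  constructor
  · rintro ⟨n, hn, hD⟩
    rw [mem_eff] at hD
    rw [mem_range] at hn
    exact ⟨hD.1, by rw [hD.2]; exact_mod_cast Nat.lt_succ_iff.mp hn⟩
  · rintro ⟨h0, h1⟩
    refine ⟨(degD D).toNat, ?_, ?_⟩
    · rw [mem_range]; omega
    · rw [mem_eff, Int.toNat_of_nonneg (degD_nonneg h0)]
      exact ⟨h0, rfl⟩

/-- the term of a divisor -/
noncomputable def term (ψ : AddChar (Pic k K) R) (D : Pl k K →₀ ℤ) : R[X] :=
  C (ψ (cls D)) * X ^ (degD D).toNat

/-- partial sum over divisors supported in `S` -/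
noncomputable def ES (ψ : AddChar (Pic k K) R) (m : ℕ) (S : Finset (Pl k K)) : R[X] := by
  classical
  exact ∑ D ∈ (effU k K m).filter (fun D => D.support ⊆ S), term ψ D

theorem term_add (ψ : AddChar (Pic k K) R) {D E : Pl k K →₀ ℤ} (hD : 0 ≤ D) (hE : 0 ≤ E) :
    term ψ (D + E) = term ψ D * term ψ E := by
  unfold term
  rw [map_add, AddChar.map_add_eq_mul, C_mul, degD_add,
    Int.toNat_add (degD_nonneg hD) (degD_nonneg hE), pow_add]
  ring

theorem single_nonneg (P : Pl k K) : (0 : Pl k K →₀ ℤ) ≤ Finsupp.single P 1 := by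
  classical
  intro Q
  rw [Finsupp.single_apply, Finsupp.zero_apply]
  split_ifs <;> norm_num

theorem term_single (ψ : AddChar (Pic k K) R) (P : Pl k K) :
    term ψ (Finsupp.single P 1) = C (ψ (cls (Finsupp.single P 1))) * X ^ degP P := by
  unfold term
  rw [degD_single, one_mul, Int.toNat_natCast]

theorem ES_empty (ψ : AddChar (Pic k K) R) (m : ℕ) : ES ψ m ∅ = 1 := by
  classical
  unfold ES
  have h1 : (effU k K m).filter (fun D => D.support ⊆ ∅) = {0} := by
    ext D
    rw [Finset.mem_filter, mem_effU, Finset.subset_empty, Finsupp.support_eq_empty,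
      Finset.mem_singleton]
    constructor
    · exact fun h => h.2
    · rintro rfl
      refine ⟨⟨le_rfl, ?_⟩, rfl⟩
      rw [degD_zero]; positivity
  rw [h1, Finset.sum_singleton]
  unfold term
  rw [map_zero, AddChar.map_zero_eq_one, degD_zero]
  simp

/-- one more place -/
theorem ES_insert (ψ : AddChar (Pic k K) R) (m : ℕ) {S S' : Finset (Pl k K)} {P : Pl k K}
    (hP : P ∉ S) (hS' : ∀ Q, Q ∈ S' ↔ Q = P ∨ Q ∈ S) :
    X ^ (m + 1) ∣ (1 - C (ψ (cls (Finsupp.single P 1))) * X ^ degP P) * ES ψ m S'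
      - ES ψ m S := by
  classical
  have hPS' : P ∈ S' := (hS' P).mpr (Or.inl rfl)
  have hSS' : S ⊆ S' := fun Q hQ => (hS' Q).mpr (Or.inr hQ)
  set A := (effU k K m).filter (fun D => D.support ⊆ S') with hA
  have hsplit : ES ψ m S' = ∑ D ∈ A.filter (fun D => D P = 0), term ψ D +
      ∑ D ∈ A.filter (fun D => ¬ D P = 0), term ψ D := by
    rw [Finset.sum_filter_add_sum_filter_not]
    unfold ES
    refine Finset.sum_congr ?_ fun _ _ => rfl
    ext D
    simp [hA]
  have h0 : ∑ D ∈ A.filter (fun D => D P = 0), term ψ D = ES ψ m S := by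
    unfold ES
    refine Finset.sum_congr ?_ fun _ _ => rfl
    ext D
    rw [Finset.mem_filter, Finset.mem_filter, Finset.mem_filter]
    constructor
    · rintro ⟨⟨h1, h2⟩, h3⟩
      refine ⟨h1, fun Q hQ => ?_⟩
      rcases (hS' Q).mp (h2 hQ) with rfl | h4
      · exact absurd h3 (Finsupp.mem_support_iff.mp hQ)
      · exact h4
    · rintro ⟨h1, h2⟩
      refine ⟨⟨h1, h2.trans hSS'⟩, ?_⟩
      by_contra h3
      exact hP (h2 (Finsupp.mem_support_iff.mpr h3))
  -- divisors containing `P`
  set B := A.filter (fun D => degD D + degP P ≤ m) with hB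
  have h1 : ∑ D ∈ A.filter (fun D => ¬ D P = 0), term ψ D =
      ∑ D ∈ B, term ψ D * term ψ (Finsupp.single P 1) := by
    symm
    refine Finset.sum_bij (fun D _ => D + Finsupp.single P 1) ?_ ?_ ?_ ?_
    · intro D hD
      rw [hB, Finset.mem_filter, hA, Finset.mem_filter, mem_effU] at hD
      obtain ⟨⟨⟨hD0, hD1⟩, hD2⟩, hD3⟩ := hD
      rw [Finset.mem_filter, hA, Finset.mem_filter, mem_effU]
      refine ⟨⟨⟨add_nonneg hD0 (single_nonneg P), ?_⟩, ?_⟩, ?_⟩
      · rw [degD_add, degD_single, one_mul]; exact hD3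
      · intro Q hQ
        rcases Finset.mem_union.mp (Finsupp.support_add hQ) with h | h
        · exact hD2 h
        · have := Finsupp.support_single_subset h
          rw [Finset.mem_singleton] at this
          rw [this]; exact hPS'
      · rw [Finsupp.add_apply, Finsupp.single_eq_same]
        have := hD0 P
        rw [Finsupp.zero_apply] at this
        omega
    · intro D _ E _ h
      exact add_right_cancel h
    · intro D hD
      rw [Finset.mem_filter, hA, Finset.mem_filter, mem_effU] at hD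
      obtain ⟨⟨⟨hD0, hD1⟩, hD2⟩, hD3⟩ := hD
      have hDP : 1 ≤ D P := by
        have := hD0 P
        rw [Finsupp.zero_apply] at this
        omega
      refine ⟨D - Finsupp.single P 1, ?_, sub_add_cancel _ _⟩
      rw [hB, Finset.mem_filter, hA, Finset.mem_filter, mem_effU]
      have hdeg : degD (D - Finsupp.single P 1) = degD D - degP P := by
        rw [degD_sub, degD_single, one_mul]
      have hpos : (0 : ℤ) ≤ degP P := by positivity
      refine ⟨⟨⟨?_, ?_⟩, ?_⟩, ?_⟩
      · intro Q
        rw [Finsupp.zero_apply, Finsupp.sub_apply, Finsupp.single_apply]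
        split_ifs with h
        · rw [← h]; omega
        · rw [sub_zero]; exact hD0 Q
      · rw [hdeg]; omega
      · intro Q hQ
        rw [Finsupp.mem_support_iff, Finsupp.sub_apply, Finsupp.single_apply] at hQ
        split_ifs at hQ with h
        · rw [← h]; exact hPS'
        · rw [sub_zero] at hQ
          exact hD2 (Finsupp.mem_support_iff.mpr hQ)
      · rw [hdeg]; omega
    · intro D hD
      rw [hB, Finset.mem_filter, hA, Finset.mem_filter, mem_effU] at hD
      rw [term_add ψ hD.1.1.1 (single_nonneg P)]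
  have h2 : ES ψ m S' = ∑ D ∈ B, term ψ D +
      ∑ D ∈ A.filter (fun D => ¬ (degD D + degP P ≤ m)), term ψ D := by
    rw [hB, Finset.sum_filter_add_sum_filter_not]
    unfold ES
    refine Finset.sum_congr ?_ fun _ _ => rfl
    ext D
    simp [hA]
  have h3 : (1 - C (ψ (cls (Finsupp.single P 1))) * X ^ degP P) * ES ψ m S' - ES ψ m S
      = - ∑ D ∈ A.filter (fun D => ¬ (degD D + degP P ≤ m)), term ψ D *
        term ψ (Finsupp.single P 1) := by
    rw [sub_mul, one_mul, ← term_single]
    nth_rewrite 1 [hsplit]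
    rw [h0, h1, h2, mul_add, Finset.mul_sum, Finset.mul_sum]
    have h4 : ∑ D ∈ B, term ψ D * term ψ (Finsupp.single P 1) =
        ∑ D ∈ B, term ψ (Finsupp.single P 1) * term ψ D :=
      Finset.sum_congr rfl fun D _ => mul_comm _ _
    have h5 : ∑ D ∈ A.filter (fun D => ¬ (degD D + degP P ≤ m)), term ψ D *
        term ψ (Finsupp.single P 1) = ∑ D ∈ A.filter (fun D => ¬ (degD D + degP P ≤ m)),
        term ψ (Finsupp.single P 1) * term ψ D :=
      Finset.sum_congr rfl fun D _ => mul_comm _ _
    rw [h4, h5]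
    ring
  rw [h3, dvd_neg]
  refine Finset.dvd_sum fun D hD => ?_
  rw [Finset.mem_filter, hA, Finset.mem_filter, mem_effU] at hD
  obtain ⟨⟨⟨hD0, hD1⟩, hD2⟩, hD3⟩ := hD
  rw [← term_add ψ hD0 (single_nonneg P)]
  unfold term
  refine Dvd.dvd.mul_left (pow_dvd_pow X ?_) _
  rw [degD_add, degD_single, one_mul]
  omega

theorem prod_ES (ψ : AddChar (Pic k K) R) (m : ℕ) (S : Finset (Pl k K)) :
    X ^ (m + 1) ∣ (∏ P ∈ S, (1 - C (ψ (cls (Finsupp.single P 1))) * X ^ degP P)) * ES ψ m S
      - 1 := by
  classical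
  induction S using Finset.induction_on with
  | empty => rw [Finset.prod_empty, one_mul, ES_empty, sub_self]; exact dvd_zero _
  | insert P S hP ih =>
    rw [Finset.prod_insert hP]
    have h1 := ES_insert ψ m hP (S' := insert P S) (fun Q => Finset.mem_insert)
    have h2 := (Dvd.dvd.mul_left h1
      (∏ P ∈ S, (1 - C (ψ (cls (Finsupp.single P 1))) * X ^ degP P))).add ih
    refine (dvd_iff_dvd_of_dvd_sub ?_).mp h2
    have : (∏ P ∈ S, (1 - C (ψ (cls (Finsupp.single P 1))) * X ^ degP P)) *
        ((1 - C (ψ (cls (Finsupp.single P 1))) * X ^ degP P) * ES ψ m (insert P S) - ES ψ m S) +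
        ((∏ P ∈ S, (1 - C (ψ (cls (Finsupp.single P 1))) * X ^ degP P)) * ES ψ m S - 1) -
        ((1 - C (ψ (cls (Finsupp.single P 1))) * X ^ degP P) *
          (∏ P ∈ S, (1 - C (ψ (cls (Finsupp.single P 1))) * X ^ degP P)) *
            ES ψ m (insert P S) - 1) = 0 := by ring
    rw [this]
    exact dvd_zero _

/-- if `S` contains all places of degree at most `m`, the partial sum is complete -/
theorem ES_eq (ψ : AddChar (Pic k K) R) (m : ℕ) {S : Finset (Pl k K)}
    (hS : ∀ P : Pl k K, degP P ≤ m → P ∈ S) :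
    ES ψ m S = ∑ n ∈ range (m + 1), C (An (fun z => ψ z) (n : ℤ)) * X ^ n := by
  classical
  have h1 : (effU k K m).filter (fun D => D.support ⊆ S) = effU k K m := by
    rw [Finset.filter_eq_self]
    intro D hD P hP
    rw [mem_effU] at hD
    apply hS
    have h2 := mul_degP_le hD.1 P
    have h3 : 1 ≤ D P := by
      have := hD.1 P
      rw [Finsupp.zero_apply] at this
      have h4 := Finsupp.mem_support_iff.mp hP
      omega
    have h5 : (degP P : ℤ) ≤ D P * degP P := by
      have : (0 : ℤ) ≤ degP P := by positivity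
      nlinarith
    have h6 := hD.2
    omega
  unfold ES
  rw [h1]
  unfold effU
  rw [Finset.sum_biUnion]
  · refine Finset.sum_congr rfl fun n _ => ?_
    unfold An
    rw [map_sum, Finset.sum_mul]
    refine Finset.sum_congr rfl fun D hD => ?_
    rw [mem_eff] at hD
    unfold term
    rw [hD.2, Int.toNat_natCast]
  · intro i _ j _ hij
    rw [Function.onFun, Finset.disjoint_left]
    intro D hD hD'
    rw [mem_eff] at hD hD'
    have h2 := hD.2.symm.trans hD'.2
    exact hij (by exact_mod_cast h2)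

/-- **truncated Euler product** -/
theorem euler (ψ : AddChar (Pic k K) R) (m : ℕ) {S : Finset (Pl k K)}
    (hS : ∀ P : Pl k K, degP P ≤ m → P ∈ S) :
    X ^ (m + 1) ∣ (∏ P ∈ S, (1 - C (ψ (cls (Finsupp.single P 1))) * X ^ degP P)) *
      (∑ n ∈ range (m + 1), C (An (fun z => ψ z) (n : ℤ)) * X ^ n) - 1 := by
  rw [← ES_eq ψ m hS]
  exact prod_ES ψ m S

/-- truncated Euler product over the places of degree at most `m` -/
theorem euler' (ψ : AddChar (Pic k K) R) (m : ℕ) :
    X ^ (m + 1) ∣ (∏ P ∈ (finite_degP_le (k := k) (K := K) m).toFinset,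
      (1 - C (ψ (cls (Finsupp.single P 1))) * X ^ degP P)) *
      (∑ n ∈ range (m + 1), C (An (fun z => ψ z) (n : ℤ)) * X ^ n) - 1 :=
  euler ψ m fun P hP => (finite_degP_le m).mem_toFinset.mpr hP

end Crest.Agent.R013.Euler_127
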