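import Mathlib

/-!
# R013 / WR1: determinants in short exact sequences and commuting squares (helper777)

Abstract linear algebra for Weil reciprocity.
-/

set_option autoImplicit false

namespace Crest.Agent.R013.WR1_777

open LinearMap Module

section det

variable {k : Type*} [Field k] {E E' Q : Type*} [AddCommGroup E] [Module k E]
  [AddCommGroup E'] [Module k E'] [AddCommGroup Q] [Module k Q]

/-- multiplicativity of the determinant in a short exact sequence `0 → E' → E → Q → 0` -/
theorem det_exact [Module.Finite k E] (j : E' →ₗ[k] E) (hj : Function.Injective j)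
    (l : E →ₗ[k] Q) (hl : Function.Surjective l) (hex : ∀ x, l x = 0 ↔ ∃ y, j y = x)
    (F' : E' →ₗ[k] E') (F : E →ₗ[k] E) (g : Q →ₗ[k] Q)
    (h1 : ∀ y, F (j y) = j (F' y)) (h2 : ∀ x, l (F x) = g (l x)) :
    LinearMap.det F = LinearMap.det F' * LinearMap.det g := by
  have hN : ∀ x ∈ LinearMap.range j, F x ∈ LinearMap.range j := by
    rintro _ ⟨y, rfl⟩
    exact ⟨F' y, (h1 y).symm⟩
  have hker : LinearMap.range j = LinearMap.ker l := by
    ext x
    rw [LinearMap.mem_range, LinearMap.mem_ker, hex]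
  have hN' : LinearMap.range j ≤ (LinearMap.range j).comap F := fun x hx => hN x hx
  rw [LinearMap.det_eq_det_mul_det (LinearMap.range j) F hN']
  congr 1
  · -- the restriction
    let e : E' ≃ₗ[k] LinearMap.range j := LinearEquiv.ofInjective j hj
    have : (F.restrict hN' : LinearMap.range j →ₗ[k] LinearMap.range j)
        = (e : E' →ₗ[k] LinearMap.range j) ∘ₗ F' ∘ₗ
          (e.symm : LinearMap.range j →ₗ[k] E') := by
      refine LinearMap.ext fun x => Subtype.ext ?_
      obtain ⟨y, rfl⟩ := e.surjective x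
      simp only [LinearMap.restrict_apply, LinearMap.coe_comp, LinearEquiv.coe_coe,
        Function.comp_apply, LinearEquiv.symm_apply_apply]
      exact h1 y
    rw [this, LinearMap.det_conj]
  · let e : (E ⧸ LinearMap.range j) ≃ₗ[k] Q :=
      (Submodule.quotEquivOfEq _ _ hker).trans (l.quotKerEquivOfSurjective hl)
    have he : ∀ x : E, e (Submodule.Quotient.mk x) = l x := fun x => rfl
    have : g = (e : _ →ₗ[k] Q) ∘ₗ ((LinearMap.range j).mapQ (LinearMap.range j) F hN')
        ∘ₗ (e.symm : Q →ₗ[k] _) := by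
      ext x
      obtain ⟨y, rfl⟩ := e.surjective x
      obtain ⟨z, rfl⟩ := Submodule.Quotient.mk_surjective _ y
      simp only [LinearMap.coe_comp, LinearEquiv.coe_coe,
        Function.comp_apply, LinearEquiv.symm_apply_apply]
      rw [Submodule.mapQ_apply, he, he, h2]
    rw [this, LinearMap.det_conj]

/-- conjugate endomorphisms have the same determinant -/
theorem det_conj' (j : E' →ₗ[k] E) (hj : Function.Bijective j)
    (F' : E' →ₗ[k] E') (F : E →ₗ[k] E) (h1 : ∀ y, F (j y) = j (F' y)) :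
    LinearMap.det F = LinearMap.det F' := by
  let e : E' ≃ₗ[k] E := LinearEquiv.ofBijective j hj
  have : F = (e : E' →ₗ[k] _) ∘ₗ F' ∘ₗ (e.symm : _ →ₗ[k] E') := by
    ext x
    obtain ⟨y, rfl⟩ := e.surjective x
    simp only [LinearMap.coe_comp, LinearEquiv.coe_coe,
      Function.comp_apply, LinearEquiv.symm_apply_apply]
    exact h1 y
  rw [this, LinearMap.det_conj]

theorem det_ne_zero_of_inj [Module.Finite k E] (F : E →ₗ[k] E) (hF : Function.Injective F) :
    LinearMap.det F ≠ 0 := by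
  have h : IsUnit F := (LinearMap.isUnit_iff_ker_eq_bot F).mpr (LinearMap.ker_eq_bot.mpr hF)
  exact (h.map LinearMap.det).ne_zero

/-- lift a map through an injective map -/
theorem exists_lift {V : Type*} [AddCommGroup V] [Module k V] (e : E →ₗ[k] V)
    (he : Function.Injective e) (g : E' →ₗ[k] V) (hg : ∀ x, ∃ y, e y = g x) :
    ∃ F : E' →ₗ[k] E, ∀ x, e (F x) = g x := by
  obtain ⟨r, hr⟩ := e.exists_leftInverse_of_injective (LinearMap.ker_eq_bot.mpr he)
  refine ⟨r ∘ₗ g, fun x => ?_⟩
  obtain ⟨y, hy⟩ := hg x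
  have : r (e y) = y := LinearMap.congr_fun hr y
  rw [LinearMap.comp_apply, ← hy, this]

end det

section quad

variable {k : Type*} [Field k] {V : Type*} [AddCommGroup V] [Module k V]

/-- the map `I × X × Z → V`, `(i, x, z) ↦ i + s x + t z` -/
noncomputable def qm {X Z : Type*} [AddCommGroup X] [Module k X] [AddCommGroup Z] [Module k Z]
    (I : Submodule k V) (s : X →ₗ[k] V) (t : Z →ₗ[k] V) : (I × X × Z) →ₗ[k] V :=
  I.subtype.coprod (s.coprod t)

theorem qm_apply {X Z : Type*} [AddCommGroup X] [Module k X] [AddCommGroup Z] [Module k Z]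
    (I : Submodule k V) (s : X →ₗ[k] V) (t : Z →ₗ[k] V) (i : I) (x : X) (z : Z) :
    qm I s t (i, x, z) = i + (s x + t z) := by
  simp [qm]

/-- `s` embeds `X` onto a complement of `I` in `A` -/
structure Cmp {X : Type*} [AddCommGroup X] [Module k X] (I A : Submodule k V)
    (s : X →ₗ[k] V) : Prop where
  inj : Function.Injective s
  disj : ∀ x, s x ∈ I → x = 0
  le : I ≤ A
  mem : ∀ x, s x ∈ A
  sup : ∀ a ∈ A, ∃ i ∈ I, ∃ x, a = i + s x

theorem exists_Cmp {I A : Submodule k V} (h : I ≤ A) :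
    ∃ X : Submodule k V, Cmp I A X.subtype := by
  obtain ⟨X0, hX0⟩ := Submodule.exists_isCompl (I.submoduleOf A)
  refine ⟨X0.map A.subtype, ⟨Subtype.val_injective, ?_, h, ?_, ?_⟩⟩
  · rintro ⟨_, ⟨x, hx, rfl⟩⟩ hI
    have h1 : x ∈ I.submoduleOf A ⊓ X0 := ⟨hI, hx⟩
    rw [hX0.inf_eq_bot] at h1
    have h2 : x = 0 := h1
    subst h2
    rfl
  · rintro ⟨_, ⟨x, hx, rfl⟩⟩
    exact x.2
  · intro a ha
    have h1 : (⟨a, ha⟩ : A) ∈ I.submoduleOf A ⊔ X0 := by rw [hX0.sup_eq_top]; trivial
    obtain ⟨i, hi, x, hx, hix⟩ := Submodule.mem_sup.mp h1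
    refine ⟨i, hi, ⟨(x : V), ⟨x, hx, rfl⟩⟩, ?_⟩
    have := congrArg (Subtype.val) hix
    exact this.symm

theorem Cmp.finrank {X : Type*} [AddCommGroup X] [Module k X] {I A : Submodule k V}
    {s : X →ₗ[k] V} (h : Cmp I A s) [Module.Finite k A] :
    finrank k I + finrank k X = finrank k A := by
  have : Module.Finite k I := Submodule.finiteDimensional_of_le h.le
  have hr : LinearMap.range s ≤ A := by rintro _ ⟨x, rfl⟩; exact h.mem x
  have : Module.Finite k (LinearMap.range s) := Submodule.finiteDimensional_of_le hr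
  have h1 : I ⊔ LinearMap.range s = A := by
    refine le_antisymm (sup_le h.le hr) ?_
    intro a ha
    obtain ⟨i, hi, x, rfl⟩ := h.sup a ha
    exact Submodule.mem_sup.mpr ⟨i, hi, s x, ⟨x, rfl⟩, rfl⟩
  have h2 : I ⊓ LinearMap.range s = ⊥ := by
    rw [eq_bot_iff]
    rintro _ ⟨hi, x, rfl⟩
    have := h.disj x hi
    subst this
    simp
  have h3 := Submodule.finrank_sup_add_finrank_inf_eq I (LinearMap.range s)
  rw [h1, h2, finrank_bot, LinearMap.finrank_range_of_inj h.inj] at h3
  omega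

theorem Cmp.finite {X : Type*} [AddCommGroup X] [Module k X] {I A : Submodule k V}
    {s : X →ₗ[k] V} (h : Cmp I A s) [Module.Finite k A] : Module.Finite k X := by
  have hr : LinearMap.range s ≤ A := by rintro _ ⟨x, rfl⟩; exact h.mem x
  have : Module.Finite k (LinearMap.range s) := Submodule.finiteDimensional_of_le hr
  exact Module.Finite.equiv (LinearEquiv.ofInjective s h.inj).symm

theorem Cmp.comp {X X' : Type*} [AddCommGroup X] [Module k X] [AddCommGroup X'] [Module k X']
    {I A : Submodule k V} {s : X →ₗ[k] V} (h : Cmp I A s) (e : X' ≃ₗ[k] X) :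
    Cmp I A (s ∘ₗ (e : X' →ₗ[k] X)) where
  inj := h.inj.comp e.injective
  disj := fun x hx => by
    have := h.disj (e x) hx
    exact e.map_eq_zero_iff.mp this
  le := h.le
  mem := fun x => h.mem _
  sup := fun a ha => by
    obtain ⟨i, hi, x, rfl⟩ := h.sup a ha
    refine ⟨i, hi, e.symm x, ?_⟩
    simp

section
variable {X Z : Type*} [AddCommGroup X] [Module k X] [AddCommGroup Z] [Module k Z]
  {I A B : Submodule k V} {s : X →ₗ[k] V} {t : Z →ₗ[k] V}

theorem qm_inj (hs : Cmp I A s) (ht : Cmp I B t) (hAB : A ⊓ B ≤ I) :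
    Function.Injective (qm I s t) := by
  rw [injective_iff_map_eq_zero]
  rintro ⟨i, x, z⟩ h
  rw [qm_apply] at h
  have h1 : t z ∈ I := by
    refine hAB ⟨?_, ht.mem z⟩
    have : t z = -((i : V) + s x) := by
      rw [← add_assoc] at h
      exact (neg_eq_of_add_eq_zero_right h).symm
    rw [this]
    exact A.neg_mem (A.add_mem (hs.le i.2) (hs.mem x))
  have hz := ht.disj z h1
  subst hz
  rw [map_zero, add_zero] at h
  have h2 : s x ∈ I := by
    have : s x = -(i : V) := (neg_eq_of_add_eq_zero_right h).symm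
    rw [this]
    exact I.neg_mem i.2
  have hx := hs.disj x h2
  subst hx
  rw [map_zero, add_zero] at h
  have hi : i = 0 := Subtype.ext h
  rw [hi]
  rfl

theorem qm_range (hs : Cmp I A s) (ht : Cmp I B t) (v : V) :
    (∃ p, qm I s t p = v) ↔ v ∈ A ⊔ B := by
  constructor
  · rintro ⟨⟨i, x, z⟩, rfl⟩
    rw [qm_apply, ← add_assoc]
    exact Submodule.add_mem_sup (A.add_mem (hs.le i.2) (hs.mem x)) (ht.mem z)
  · intro hv
    obtain ⟨a, ha, b, hb, rfl⟩ := Submodule.mem_sup.mp hv
    obtain ⟨i, hi, x, rfl⟩ := hs.sup a ha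
    obtain ⟨i', hi', z, rfl⟩ := ht.sup b hb
    refine ⟨(⟨i, hi⟩ + ⟨i', hi'⟩, x, z), ?_⟩
    rw [qm_apply, Submodule.coe_add]
    abel

end

end quad

end Crest.Agent.R013.WR1_777
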