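import Mathlib
import Crest.Agent.R013.RR12_948
import Crest.Agent.R013.WR1_777

/-!
# R013 / WR2: local norms and determinants of multiplication modulo a divisor (helper777)

`nrm P f : kˣ` is the norm to `k` of the value of `f` at the place `P` (for `P.v f = 1`; it is `1`
otherwise), defined as the determinant of multiplication by `f` on `ball P 0 / ball P (-1)`.
-/

set_option autoImplicit false
set_option linter.all false

namespace Crest.Agent.R013.WR2_777

open WithZero Module
open Crest.Agent.R013.RR1_948 Crest.Agent.R013.RR2_948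
open Crest.Agent.R013.RR7_948 Crest.Agent.R013.RR8_948 Crest.Agent.R013.RR9_948
open Crest.Agent.R013.RR11_948 Crest.Agent.R013.RR12_948 Crest.Agent.R013.WR1_777

section local_

variable {k : Type*} [Field k] {K : Type*} [Field K] [Algebra k K]

/-- the graded piece `ball P m / ball P (m-1)` -/
abbrev gr (P : Pl k K) (m : ℤ) := ball P m ⧸ (ball P (m - 1)).submoduleOf (ball P m)

theorem mul_mem_ball {P : Pl k K} {m : ℤ} {f : K} (hf : P.v f ≤ 1) {x : K} (hx : x ∈ ball P m) :
    f * x ∈ ball P m := by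
  rw [mem_ball] at *
  rw [map_mul]
  calc P.v f * P.v x ≤ 1 * exp m := mul_le_mul' hf hx
    _ = exp m := one_mul _

/-- multiplication by `f` on `ball P m` -/
noncomputable def mulB (P : Pl k K) (m : ℤ) (f : K) (hf : P.v f ≤ 1) :
    ball P m →ₗ[k] ball P m :=
  (LinearMap.mulLeft k f).restrict fun _ hx => mul_mem_ball hf hx

theorem coe_mulB (P : Pl k K) (m : ℤ) (f : K) (hf : P.v f ≤ 1) (x : ball P m) :
    (mulB P m f hf x : K) = f * x := rfl

/-- multiplication by `f` on the graded piece -/
noncomputable def mulGr (P : Pl k K) (m : ℤ) (f : K) (hf : P.v f ≤ 1) : gr P m →ₗ[k] gr P m :=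
  Submodule.mapQ _ _ (mulB P m f hf) fun x hx => by
    show (mulB P m f hf x : K) ∈ ball P (m - 1)
    rw [coe_mulB]
    exact mul_mem_ball hf hx

theorem mulGr_mk (P : Pl k K) (m : ℤ) (f : K) (hf : P.v f ≤ 1) (x : ball P m) :
    mulGr P m f hf (Submodule.Quotient.mk x) = Submodule.Quotient.mk (mulB P m f hf x) := rfl

theorem gr_eq {P : Pl k K} {m : ℤ} {x y : ball P m} :
    (Submodule.Quotient.mk x : gr P m) = Submodule.Quotient.mk y ↔
      (x : K) - y ∈ ball P (m - 1) := by
  rw [Submodule.Quotient.eq]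
  rfl

theorem mulGr_congr (P : Pl k K) (m : ℤ) {f g : K} (hf : P.v f ≤ 1) (hg : P.v g ≤ 1)
    (h : P.v (f - g) < 1) : mulGr P m f hf = mulGr P m g hg := by
  refine LinearMap.ext fun x => ?_
  obtain ⟨x, rfl⟩ := Submodule.Quotient.mk_surjective _ x
  rw [mulGr_mk, mulGr_mk, gr_eq, coe_mulB, coe_mulB, ← sub_mul, mem_ball, map_mul]
  have h1 : P.v (f - g) ≤ exp (-1) := (lt_one_iff _).mp h
  calc P.v (f - g) * P.v (x : K) ≤ exp (-1) * exp m := mul_le_mul' h1 (mem_ball.mp x.2)
    _ = exp (m - 1) := by rw [← exp_add]; congr 1; ring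

theorem mulGr_mul (P : Pl k K) (m : ℤ) {f g : K} (hf : P.v f ≤ 1) (hg : P.v g ≤ 1)
    (hfg : P.v (f * g) ≤ 1) : mulGr P m (f * g) hfg = mulGr P m f hf ∘ₗ mulGr P m g hg := by
  refine LinearMap.ext fun x => ?_
  obtain ⟨x, rfl⟩ := Submodule.Quotient.mk_surjective _ x
  rw [LinearMap.comp_apply, mulGr_mk, mulGr_mk, mulGr_mk]
  congr 1
  exact Subtype.ext (mul_assoc _ _ _)

theorem v_const_le (P : Pl k K) (c : k) : P.v (algebraMap k K c) ≤ 1 := by
  by_cases hc : c = 0
  · simp [hc]
  · rw [P.const c hc]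

theorem mulGr_const (P : Pl k K) (m : ℤ) (c : k) :
    mulGr P m (algebraMap k K c) (v_const_le P c) = c • LinearMap.id := by
  refine LinearMap.ext fun x => ?_
  obtain ⟨x, rfl⟩ := Submodule.Quotient.mk_surjective _ x
  rw [mulGr_mk, LinearMap.smul_apply, LinearMap.id_apply, ← Submodule.Quotient.mk_smul]
  congr 1
  refine Subtype.ext ?_
  rw [coe_mulB, Submodule.coe_smul, Algebra.smul_def]

theorem det_mulGr_mul (P : Pl k K) (m : ℤ) {f g : K} (hf : P.v f ≤ 1) (hg : P.v g ≤ 1)
    (hfg : P.v (f * g) ≤ 1) : LinearMap.det (mulGr P m (f * g) hfg)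
      = LinearMap.det (mulGr P m f hf) * LinearMap.det (mulGr P m g hg) := by
  rw [mulGr_mul P m hf hg, LinearMap.det_comp]

theorem det_mulGr_one (P : Pl k K) (m : ℤ) (h : P.v (1 : K) ≤ 1) :
    LinearMap.det (mulGr P m 1 h) = 1 := by
  have : mulGr P m 1 h = LinearMap.id := by
    refine LinearMap.ext fun x => ?_
    obtain ⟨x, rfl⟩ := Submodule.Quotient.mk_surjective _ x
    rw [mulGr_mk, LinearMap.id_apply]
    congr 1
    refine Subtype.ext ?_
    rw [coe_mulB, one_mul]
  rw [this, LinearMap.det_id]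

theorem det_mulGr_ne_zero (P : Pl k K) (m : ℤ) {f : K} (hf : P.v f = 1) :
    LinearMap.det (mulGr P m f hf.le) ≠ 0 := by
  have hf0 : f ≠ 0 := by rintro rfl; simp at hf
  have h1 : P.v f⁻¹ ≤ 1 := by rw [map_inv₀, hf, inv_one]
  have h2 : P.v (f * f⁻¹) ≤ 1 := by rw [mul_inv_cancel₀ hf0, map_one]
  have h3 := det_mulGr_mul P m hf.le h1 h2
  have h4 : LinearMap.det (mulGr P m (f * f⁻¹) h2) = 1 := by
    have : mulGr P m (f * f⁻¹) h2 = mulGr P m 1 (by rw [map_one]) := by
      congr 1
      exact mul_inv_cancel₀ hf0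
    rw [this, det_mulGr_one]
  intro h
  rw [h4, h, zero_mul] at h3
  exact one_ne_zero h3

open Classical in
/-- the norm of the value of `f` at `P` -/
noncomputable def nrm (P : Pl k K) (f : K) : kˣ :=
  if h : P.v f = 1 then Units.mk0 _ (det_mulGr_ne_zero P 0 h) else 1

theorem nrm_of_ne {P : Pl k K} {f : K} (h : P.v f ≠ 1) : nrm P f = 1 := dif_neg h

theorem coe_nrm {P : Pl k K} {f : K} (h : P.v f = 1) :
    (nrm P f : k) = LinearMap.det (mulGr P 0 f h.le) := by
  unfold nrm
  rw [dif_pos h]
  rfl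

/-- the determinant on any graded piece -/
theorem det_mulGr (P : Pl k K) (m : ℤ) {f : K} (h : P.v f = 1) :
    LinearMap.det (mulGr P m f h.le) = nrm P f := by
  rw [coe_nrm h]
  obtain ⟨t, ht0, ht⟩ := exists_v_eq P m
  have hmem : ∀ (n : ℤ) (x : K), x ∈ ball P n → t * x ∈ ball P (n + m) := by
    intro n x hx
    rw [mem_ball] at *
    rw [map_mul, ht]
    calc exp m * P.v x ≤ exp m * exp n := mul_le_mul_right hx _
      _ = exp (n + m) := by rw [← exp_add]; congr 1; ring
  have hmem0 : ∀ x : K, x ∈ ball P 0 → t * x ∈ ball P m := by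
    intro x hx
    have := hmem 0 x hx
    rwa [zero_add] at this
  let T : ball P 0 →ₗ[k] ball P m := (LinearMap.mulLeft k t).restrict fun x hx => hmem0 x hx
  have hT : ∀ x, (T x : K) = t * x := fun x => rfl
  let j : gr P 0 →ₗ[k] gr P m := Submodule.mapQ _ _ T (by
    intro x hx
    show (T x : K) ∈ ball P (m - 1)
    rw [hT]
    have := hmem (0 - 1) x hx
    have h2 : (0 : ℤ) - 1 + m = m - 1 := by ring
    rwa [h2] at this)
  have hj : ∀ x, j (Submodule.Quotient.mk x) = Submodule.Quotient.mk (T x) := fun x => rfl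
  refine det_conj' j ⟨?_, ?_⟩ _ _ ?_
  · rw [injective_iff_map_eq_zero]
    intro x hx
    obtain ⟨x, rfl⟩ := Submodule.Quotient.mk_surjective _ x
    rw [hj, ← Submodule.Quotient.mk_zero, gr_eq, hT, Submodule.coe_zero, sub_zero, mem_ball,
      map_mul, ht] at hx
    rw [← Submodule.Quotient.mk_zero, gr_eq, Submodule.coe_zero, sub_zero, mem_ball]
    have h1 : exp (-m) * (exp m * P.v (x : K)) ≤ exp (-m) * exp (m - 1) := mul_le_mul_right hx _
    rw [← mul_assoc, ← exp_add, ← exp_add] at h1
    have h2 : -m + m = 0 := by ring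
    have h3 : -m + (m - 1) = 0 - 1 := by ring
    rw [h2, h3, exp_zero, one_mul] at h1
    exact h1
  · intro y
    obtain ⟨y, rfl⟩ := Submodule.Quotient.mk_surjective _ y
    have h1 : t⁻¹ * (y : K) ∈ ball P 0 := by
      have := mem_ball.mp y.2
      rw [mem_ball, map_mul, map_inv₀, ht, ← exp_neg]
      calc exp (-m) * P.v (y : K) ≤ exp (-m) * exp m := mul_le_mul_right this _
        _ = exp 0 := by rw [← exp_add]; congr 1; ring
    refine ⟨Submodule.Quotient.mk ⟨_, h1⟩, ?_⟩
    rw [hj]
    congr 1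
    refine Subtype.ext ?_
    rw [hT]
    show t * (t⁻¹ * (y : K)) = y
    rw [← mul_assoc, mul_inv_cancel₀ ht0, one_mul]
  · intro y
    obtain ⟨y, rfl⟩ := Submodule.Quotient.mk_surjective _ y
    rw [hj, mulGr_mk, mulGr_mk, hj]
    congr 1
    refine Subtype.ext ?_
    rw [coe_mulB, hT, hT, coe_mulB]
    ring

theorem nrm_mul {P : Pl k K} {f g : K} (hf : P.v f = 1) (hg : P.v g = 1) :
    nrm P (f * g) = nrm P f * nrm P g := by
  have hfg : P.v (f * g) = 1 := by rw [map_mul, hf, hg, one_mul]
  refine Units.ext ?_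
  rw [Units.val_mul, coe_nrm hfg, coe_nrm hf, coe_nrm hg, det_mulGr_mul]

@[simp] theorem nrm_one (P : Pl k K) : nrm P (1 : K) = 1 := by
  refine Units.ext ?_
  rw [coe_nrm (map_one _), det_mulGr_one, Units.val_one]

theorem nrm_inv (P : Pl k K) (f : K) : nrm P f⁻¹ = (nrm P f)⁻¹ := by
  by_cases hf : P.v f = 1
  · have hf' : P.v f⁻¹ = 1 := by rw [map_inv₀, hf, inv_one]
    have hf0 : f ≠ 0 := by rintro rfl; simp at hf
    have := nrm_mul hf hf'
    rw [mul_inv_cancel₀ hf0, nrm_one] at this
    exact (inv_eq_of_mul_eq_one_right this.symm).symm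
  · rw [nrm_of_ne hf, nrm_of_ne, inv_one]
    rw [map_inv₀]
    intro h
    exact hf (by rw [← inv_inv (P.v f), h, inv_one])

theorem nrm_pow {P : Pl k K} {f : K} (hf : P.v f = 1) (n : ℕ) : nrm P (f ^ n) = nrm P f ^ n := by
  induction n with
  | zero => simp
  | succ n ih =>
    rw [pow_succ, pow_succ, nrm_mul (by rw [map_pow, hf, one_pow]) hf, ih]

/-- `nrm` depends only on the residue class -/
theorem nrm_congr {P : Pl k K} {f g : K} (hf : P.v f = 1) (h : P.v (f - g) < 1) :
    nrm P f = nrm P g := by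
  have hg : P.v g = 1 := by
    have : g = f - (f - g) := by ring
    rw [this]
    rw [Valuation.map_sub_eq_of_lt_left _ (by rw [hf]; exact h)]
    exact hf
  refine Units.ext ?_
  rw [coe_nrm hf, coe_nrm hg, mulGr_congr P 0 hf.le hg.le h]

/-- lists of places as effective divisors -/
noncomputable def S (l : List (Pl k K)) : Pl k K →₀ ℤ :=
  (l.map fun P => Finsupp.single P (1 : ℤ)).sum

@[simp] theorem S_nil : S ([] : List (Pl k K)) = 0 := rfl

@[simp] theorem S_cons (P : Pl k K) (l : List (Pl k K)) :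
    S (P :: l) = Finsupp.single P 1 + S l := by
  simp [S]

theorem S_append (l l' : List (Pl k K)) : S (l ++ l') = S l + S l' := by
  simp [S]

theorem S_nonneg (l : List (Pl k K)) : 0 ≤ S l := by
  induction l with
  | nil => simp
  | cons P l ih =>
    rw [S_cons]
    refine add_nonneg ?_ ih
    exact Finsupp.single_nonneg.mpr zero_le_one

theorem S_eq_zero {l : List (Pl k K)} {P : Pl k K} (h : P ∉ l) : S l P = 0 := by
  classical
  induction l with
  | nil => simp
  | cons Q l ih =>
    rw [List.mem_cons, not_or] at h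
    rw [S_cons, Finsupp.add_apply, ih h.2, Finsupp.single_apply, if_neg (Ne.symm h.1), add_zero]

theorem S_replicate (P : Pl k K) (n : ℕ) : S (List.replicate n P) = Finsupp.single P (n : ℤ) := by
  induction n with
  | zero => simp
  | succ n ih =>
    rw [List.replicate_succ, S_cons, ih, ← Finsupp.single_add]
    congr 1
    push_cast
    ring

end local_

section global

variable {k : Type*} [Field k] {K : Type*} [Field K] [Algebra k K] [Algebra (RatFunc k) K]
  [IsScalarTower k (RatFunc k) K] [FiniteDimensional (RatFunc k) K]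
  [Algebra.IsSeparable (RatFunc k) K]

theorem degD_S_nonneg (l : List (Pl k K)) : 0 ≤ degD (S l) := by
  unfold degD
  exact Finsupp.sum_nonneg fun P _ => mul_nonneg (S_nonneg l P) (by positivity)

theorem finite_gr (P : Pl k K) (m : ℤ) : Module.Finite k (gr P m) := by
  have h := ri_ball P (m - 1)
  rw [sub_add_cancel, degE_eq] at h
  exact (Crest.Agent.R013.RR10_948.finite_of_length h).1

theorem finrank_gr (P : Pl k K) (m : ℤ) : finrank k (gr P m) = degP P := by
  have h := ri_ball P (m - 1)
  rw [sub_add_cancel, degE_eq] at h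
  exact (Crest.Agent.R013.RR10_948.finite_of_length h).2

theorem nrm_const (P : Pl k K) (c : kˣ) : nrm P (algebraMap k K c) = c ^ degP P := by
  have h : P.v (algebraMap k K c) = 1 := P.const c c.ne_zero
  refine Units.ext ?_
  rw [coe_nrm h, Units.val_pow_eq_pow_val]
  have h2 := mulGr_const P 0 (c : k)
  have h3 : mulGr P 0 (algebraMap k K c) h.le = (c : k) • LinearMap.id := h2
  have := finite_gr P 0
  rw [h3, LinearMap.det_smul, LinearMap.det_id, mul_one, finrank_gr]

/-- a function with value the constant `c` -/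
theorem nrm_of_sub_lt {P : Pl k K} {f : K} {c : kˣ} (h : P.v (f - algebraMap k K c) < 1) :
    nrm P f = c ^ degP P := by
  have h1 : P.v (algebraMap k K c) = 1 := P.const c c.ne_zero
  rw [← nrm_const, eq_comm]
  refine nrm_congr h1 ?_
  rw [← Valuation.map_neg, neg_sub]
  exact h

universe u v

/-- the determinant of a map congruent to multiplication by `f` modulo a divisor -/
theorem det_list (f : K) : ∀ (l : List (Pl k K)) (hl : ∀ P ∈ l, P.v f = 1) (D : Pl k K →₀ ℤ)
    (E : Type u) [AddCommGroup E] [Module k E] (e : E →ₗ[k] K) (he : Function.Injective e)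
    (hr : ∀ v, (∃ x, e x = v) ↔ v ∈ LD D)
    (E' : Type v) [AddCommGroup E'] [Module k E'] (e' : E' →ₗ[k] K)
    (he' : Function.Injective e') (hr' : ∀ v, (∃ x, e' x = v) ↔ v ∈ LD (D - S l))
    (j : E' →ₗ[k] E) (hj : ∀ y, e (j y) = e' y) (F : E →ₗ[k] E) (F' : E' →ₗ[k] E')
    (hF : ∀ y, F (j y) = j (F' y)) (hdeg : degD (canD k K) < degD (D - S l))
    (hc : ∀ P ∈ l, ∀ x, P.v (e (F x) - f * e x) ≤ exp ((D - S l) P)),
    LinearMap.det F = LinearMap.det F' * (l.map fun P => (nrm P f : k)).prod := by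
  intro l
  classical
  induction l with
  | nil =>
    intro hl D E _ _ e he hr E' _ _ e' he' hr' j hj F F' hF hdeg hc
    rw [List.map_nil, List.prod_nil, mul_one]
    refine det_conj' j ⟨?_, ?_⟩ F' F hF
    · intro x y hxy
      apply he'
      rw [← hj, ← hj, hxy]
    · intro x
      have h1 : e x ∈ LD D := (hr _).mp ⟨x, rfl⟩
      rw [← sub_zero D] at h1
      obtain ⟨y, hy⟩ := (hr' _).mpr h1
      refine ⟨y, he ?_⟩
      rw [hj, hy]
  | cons P l ih =>
    intro hl D E _ _ e he hr E' _ _ e' he' hr' j hj F F' hF hdeg hc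
    have hPf : P.v f = 1 := hl P List.mem_cons_self
    set D1 := D - Finsupp.single P 1 with hD1
    have hD1S : D - S (P :: l) = D1 - S l := by rw [S_cons, hD1]; abel
    have hD1P : D1 P = D P - 1 := by
      rw [hD1, Finsupp.sub_apply, Finsupp.single_eq_same]
    have hD1Q : ∀ Q, Q ≠ P → D1 Q = D Q := by
      intro Q hQ
      rw [hD1, Finsupp.sub_apply, Finsupp.single_apply, if_neg (Ne.symm hQ), sub_zero]
    have hD1D : D1 ≤ D := by
      intro Q
      by_cases hQ : Q = P
      · rw [hQ, hD1P]; omega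
      · rw [hD1Q Q hQ]
    have hle1 : D1 - S l ≤ D1 := by
      intro Q
      have := S_nonneg l Q
      rw [Finsupp.zero_apply] at this
      rw [Finsupp.sub_apply]
      omega
    have hdeg1 : degD (canD k K) < degD D1 := by
      rw [hD1S, degD_sub] at hdeg
      have := degD_S_nonneg l
      omega
    -- `E` is finite dimensional
    have hmemD : ∀ x, e x ∈ LD D := fun x => (hr _).mp ⟨x, rfl⟩
    have hfinD := LD_finite D
    have hfinE : Module.Finite k E :=
      Module.Finite.of_injective (e.codRestrict (LD D) hmemD) (fun x y hxy => he (by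
        simpa using congrArg Subtype.val hxy))
    -- the subspace
    let E1 : Submodule k E := (LD D1).comap e
    have hE1 : ∀ x, x ∈ E1 ↔ e x ∈ LD D1 := fun x => Iff.rfl
    have hcP := hc P List.mem_cons_self
    have hFE1 : ∀ x ∈ E1, F x ∈ E1 := by
      intro x hx
      rw [hE1] at *
      have h1 := hmemD (F x)
      rw [mem_LD] at h1 hx ⊢
      intro Q
      by_cases hQ : Q = P
      · subst hQ
        have h2 := hcP x
        have h3 : (D - S (Q :: l)) Q ≤ D1 Q := by rw [hD1S]; exact hle1 Q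
        have h4 : e (F x) = (e (F x) - f * e x) + f * e x := by ring
        rw [h4]
        refine (Valuation.map_add _ _ _).trans (max_le (h2.trans (exp_le_exp.mpr h3)) ?_)
        rw [map_mul, hPf, one_mul]
        exact hx Q
      · rw [hD1Q Q hQ]
        exact h1 Q
    let F1 : E1 →ₗ[k] E1 := F.restrict hFE1
    have hF1 : ∀ x, (F1 x : E) = F x := fun x => rfl
    -- the embedding of `E'`
    have hjE1 : ∀ y, j y ∈ E1 := by
      intro y
      rw [hE1, hj]
      have h1 : e' y ∈ LD (D - S (P :: l)) := (hr' _).mp ⟨y, rfl⟩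
      rw [hD1S] at h1
      exact LD_mono hle1 h1
    let j1 : E' →ₗ[k] E1 := j.codRestrict E1 hjE1
    have hj1 : ∀ y, (j1 y : E) = j y := fun y => rfl
    have key := ih (fun Q hQ => hl Q (List.mem_cons_of_mem _ hQ)) D1 E1 (e ∘ₗ E1.subtype)
      (he.comp Subtype.val_injective) (by
        intro v
        constructor
        · rintro ⟨x, rfl⟩
          exact x.2
        · intro hv
          obtain ⟨x, hx⟩ := (hr v).mpr (LD_mono hD1D hv)
          exact ⟨⟨x, by rw [hE1, hx]; exact hv⟩, hx⟩)
      E' e' he' (by intro v; rw [hr', hD1S]) j1 (fun y => hj y) F1 F'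
      (fun y => Subtype.ext (hF y)) (by rw [← hD1S]; exact hdeg)
      (fun Q hQ x => by
        rw [← hD1S]
        exact hc Q (List.mem_cons_of_mem _ hQ) x)
    -- the quotient
    have hball : ∀ x, e x ∈ ball P (D P) := fun x => mem_ball.mpr (mem_LD.mp (hmemD x) P)
    let L : E →ₗ[k] ball P (D P) := e.codRestrict _ hball
    have hL : ∀ x, (L x : K) = e x := fun x => rfl
    let q : E →ₗ[k] gr P (D P) := (Submodule.mkQ _) ∘ₗ L
    have hq : ∀ x, q x = Submodule.Quotient.mk (L x) := fun x => rfl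
    have hq0 : ∀ x, q x = 0 ↔ x ∈ E1 := by
      intro x
      rw [hq, ← Submodule.Quotient.mk_zero, gr_eq, hL, Submodule.coe_zero, sub_zero, hE1]
      constructor
      · intro h
        rw [mem_LD]
        intro Q
        by_cases hQ : Q = P
        · rw [hQ, hD1P]; exact mem_ball.mp h
        · rw [hD1Q Q hQ]; exact mem_LD.mp (hmemD x) Q
      · intro h
        rw [mem_ball, ← hD1P]
        exact mem_LD.mp h P
    have hstep : LinearMap.det F = LinearMap.det F1 * LinearMap.det (mulGr P (D P) f hPf.le) := by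
      refine det_exact E1.subtype Subtype.val_injective q ?_ ?_ F1 F (mulGr P (D P) f hPf.le)
        (fun y => rfl) ?_
      · intro a
        obtain ⟨a, rfl⟩ := Submodule.Quotient.mk_surjective _ a
        obtain ⟨g, hg1, hg2⟩ := approx_one hdeg1 P (a : K)
        have hgD : g ∈ LD D := by
          rw [mem_LD]
          intro Q
          by_cases hQ : Q = P
          · subst hQ
            have h4 : g = (g - a) + a := by ring
            rw [h4]
            exact (Valuation.map_add _ _ _).trans
              (max_le (hg1.trans (exp_le_exp.mpr (hD1D Q))) (mem_ball.mp a.2))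
          · exact (hg2 Q hQ).trans (exp_le_exp.mpr (hD1D Q))
        obtain ⟨x, hx⟩ := (hr g).mpr hgD
        refine ⟨x, ?_⟩
        rw [hq, gr_eq, hL, hx, mem_ball, ← hD1P]
        exact hg1
      · intro x
        rw [hq0]
        constructor
        · intro hx
          exact ⟨⟨x, hx⟩, rfl⟩
        · rintro ⟨y, rfl⟩
          exact y.2
      · intro x
        rw [hq, hq, mulGr_mk, gr_eq, coe_mulB, hL, hL, mem_ball]
        refine (hcP x).trans (exp_le_exp.mpr ?_)
        rw [hD1S, ← hD1P]
        exact hle1 P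
    rw [hstep, key, det_mulGr P (D P) hPf, List.map_cons, List.prod_cons]
    ring

end global

end Crest.Agent.R013.WR2_777
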