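import Mathlib
import Crest.Agent.R013.WR2_777

/-!
# R013 / WR3: Weil reciprocity (helper777)

For `f, h : K` nonzero with disjoint divisors, `∏_P nrm P f ^ (v_P h) = ∏_P nrm P h ^ (v_P f)`.
-/

set_option autoImplicit false
set_option linter.all false

namespace Crest.Agent.R013.WR3_777

open WithZero Module
open Crest.Agent.R013.RR1_948 Crest.Agent.R013.RR2_948
open Crest.Agent.R013.RR7_948 Crest.Agent.R013.RR8_948 Crest.Agent.R013.RR9_948
open Crest.Agent.R013.RR11_948 Crest.Agent.R013.RR12_948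
open Crest.Agent.R013.WR1_777 Crest.Agent.R013.WR2_777

section pm

variable {k : Type*} [Field k] {V : Type*} [AddCommGroup V] [Module k V]
variable {X Z : Type*} [AddCommGroup X] [Module k X] [AddCommGroup Z] [Module k Z]
  {I A B : Submodule k V} {s : X →ₗ[k] V} {t : Z →ₗ[k] V}

/-- `(i, x) ↦ i + s x` -/
noncomputable def pm (I : Submodule k V) (s : X →ₗ[k] V) : (I × X) →ₗ[k] V :=
  I.subtype.coprod s

theorem pm_apply (i : I) (x : X) : pm I s (i, x) = i + s x := by simp [pm]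

theorem pm_inj (hs : Cmp I A s) : Function.Injective (pm I s) := by
  rw [injective_iff_map_eq_zero]
  rintro ⟨i, x⟩ h
  rw [pm_apply] at h
  have h2 : s x ∈ I := by
    have : s x = -(i : V) := (neg_eq_of_add_eq_zero_right h).symm
    rw [this]
    exact I.neg_mem i.2
  have hx := hs.disj x h2
  subst hx
  rw [map_zero, add_zero] at h
  have hi : i = 0 := Subtype.ext h
  rw [hi]
  rfl

theorem pm_range (hs : Cmp I A s) (v : V) : (∃ p, pm I s p = v) ↔ v ∈ A := by
  constructor
  · rintro ⟨⟨i, x⟩, rfl⟩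
    rw [pm_apply]
    exact A.add_mem (hs.le i.2) (hs.mem x)
  · intro hv
    obtain ⟨i, hi, x, rfl⟩ := hs.sup v hv
    exact ⟨(⟨i, hi⟩, x), pm_apply _ _⟩

/-- the inclusion of `{z = 0}` -/
noncomputable def jX (I : Submodule k V) (X Z : Type*) [AddCommGroup X] [Module k X]
    [AddCommGroup Z] [Module k Z] : (I × X) →ₗ[k] (I × X × Z) :=
  LinearMap.prodMap LinearMap.id (LinearMap.inl k X Z)

/-- the inclusion of `{x = 0}` -/
noncomputable def jZ (I : Submodule k V) (X Z : Type*) [AddCommGroup X] [Module k X]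
    [AddCommGroup Z] [Module k Z] : (I × Z) →ₗ[k] (I × X × Z) :=
  LinearMap.prodMap LinearMap.id (LinearMap.inr k X Z)

theorem qm_jX (p : I × X) : qm I s t (jX I X Z p) = pm I s p := by
  obtain ⟨i, x⟩ := p
  simp [qm, jX, pm]

theorem qm_jZ (p : I × Z) : qm I s t (jZ I X Z p) = pm I t p := by
  obtain ⟨i, x⟩ := p
  simp [qm, jZ, pm]

theorem qm_sub_right (t' : Z →ₗ[k] V) (p : I × X × Z) :
    qm I s t p - qm I s t' p = t p.2.2 - t' p.2.2 := by
  obtain ⟨i, x, z⟩ := p
  rw [qm_apply, qm_apply]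
  abel

theorem qm_sub_left (s' : X →ₗ[k] V) (p : I × X × Z) :
    qm I s t p - qm I s' t p = s p.2.1 - s' p.2.1 := by
  obtain ⟨i, x, z⟩ := p
  rw [qm_apply, qm_apply]
  abel

end pm

variable {k : Type*} [Field k] {K : Type*} [Field K] [Algebra k K] [Algebra (RatFunc k) K]
  [IsScalarTower k (RatFunc k) K] [FiniteDimensional (RatFunc k) K]
  [Algebra.IsSeparable (RatFunc k) K]

theorem mul_mem_LD {f : K} (hf : f ≠ 0) {D : Pl k K →₀ ℤ} {x : K} (hx : x ∈ LD D) :
    f * x ∈ LD (D - divf f) := by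
  rw [mem_LD] at *
  intro P
  rw [map_mul, v_eq hf, Finsupp.sub_apply]
  calc _ ≤ exp (-divf f P) * exp (D P) := mul_le_mul_right (hx P) _
    _ = _ := by rw [← exp_add]; congr 1; ring

theorem finrank_LD_eq {D D' : Pl k K →₀ ℤ} (h : degD D = degD D')
    (hD : degD (canD k K) < degD D) : finrank k (LD D) = finrank k (LD D') := by
  have h1 := ell_sub_of_lt hD
  have h2 := ell_sub_of_lt (k := k) (D := D') (by omega)
  unfold ell at h1 h2
  omega

theorem inf_LD {D A B : Pl k K →₀ ℤ} (hA : 0 ≤ A) (hB : 0 ≤ B) (hAB : ∀ P, A P = 0 ∨ B P = 0) :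
    LD (D - A) ⊓ LD (D - B) = LD (D - A - B) := by
  ext x
  rw [Submodule.mem_inf, mem_LD, mem_LD, mem_LD]
  constructor
  · rintro ⟨h1, h2⟩ P
    have h3 := h1 P
    have h4 := h2 P
    rw [Finsupp.sub_apply] at *
    rw [Finsupp.sub_apply]
    rcases hAB P with h | h
    · rw [h, sub_zero]; exact h4
    · rw [h, sub_zero]; exact h3
  · intro h
    refine ⟨fun P => (h P).trans (exp_le_exp.mpr ?_), fun P => (h P).trans (exp_le_exp.mpr ?_)⟩
    · have := hB P
      rw [Finsupp.zero_apply] at this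
      rw [Finsupp.sub_apply, Finsupp.sub_apply]
      omega
    · have := hA P
      rw [Finsupp.zero_apply] at this
      rw [Finsupp.sub_apply, Finsupp.sub_apply, Finsupp.sub_apply]
      omega

theorem degD_nonneg' {D : Pl k K →₀ ℤ} (hD : 0 ≤ D) : 0 ≤ degD D := by
  unfold degD
  exact Finsupp.sum_nonneg fun P _ => mul_nonneg (hD P) (by positivity)

theorem sup_LD {D A B : Pl k K →₀ ℤ} (hA : 0 ≤ A) (hB : 0 ≤ B) (hAB : ∀ P, A P = 0 ∨ B P = 0)
    (hdeg : degD (canD k K) < degD (D - A - B)) : LD (D - A) ⊔ LD (D - B) = LD D := by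
  have hf := LD_finite D
  have hf1 := LD_finite (D - A)
  have hf2 := LD_finite (D - B)
  have hle1 : D - A ≤ D := sub_le_self _ hA
  have hle2 : D - B ≤ D := sub_le_self _ hB
  have hle : LD (D - A) ⊔ LD (D - B) ≤ LD D := sup_le (LD_mono hle1) (LD_mono hle2)
  refine Submodule.eq_of_le_of_finrank_eq hle ?_
  have h := Submodule.finrank_sup_add_finrank_inf_eq (LD (D - A)) (LD (D - B))
  rw [inf_LD hA hB hAB] at h
  have dA := degD_nonneg' hA
  have dB := degD_nonneg' hB
  rw [degD_sub, degD_sub] at hdeg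
  have h1 := ell_sub_of_lt (k := k) (D := D) (by omega)
  have h2 := ell_sub_of_lt (k := k) (D := D - A) (by rw [degD_sub]; omega)
  have h3 := ell_sub_of_lt (k := k) (D := D - B) (by rw [degD_sub]; omega)
  have h4 := ell_sub_of_lt (k := k) (D := D - A - B) (by rw [degD_sub, degD_sub]; omega)
  rw [degD_sub] at h2 h3
  rw [degD_sub, degD_sub] at h4
  unfold ell at h1 h2 h3 h4
  omega

variable (k K) in
theorem exists_large (n : ℤ) : ∃ D : Pl k K →₀ ℤ, n < degD D := by
  classical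
  obtain ⟨P0, -⟩ := exists_notMem (k := k) (K := K) ∅
  refine ⟨Finsupp.single P0 ((n + 1).toNat : ℤ), ?_⟩
  rw [degD_single]
  have h1 := Int.self_le_toNat (n + 1)
  have h2 : (1 : ℤ) ≤ degP P0 := by exact_mod_cast degP_pos P0
  nlinarith

/-- comparison of the determinants of `F0, F1` (one side of the square) -/
theorem side {X Z : Type*} [AddCommGroup X] [Module k X] [AddCommGroup Z] [Module k Z]
    {I : Submodule k K} {s s' : X →ₗ[k] K} {t t' : Z →ₗ[k] K} {f : K} (hf : f ≠ 0)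
    {D D' D2 : Pl k K →₀ ℤ} {b b' : List (Pl k K)}
    (hb : ∀ P ∈ b, P.v f = 1) (hb' : ∀ P ∈ b', P.v f = 1)
    (hD' : D' = D - divf f) (hD2 : D2 - S b' = D - S b)
    (ht : Cmp I (LD (D - S b)) t) (ht' : Cmp I (LD (D' - S b)) t')
    (h00 : Function.Injective (qm I s t)) (h00r : ∀ v, (∃ p, qm I s t p = v) ↔ v ∈ LD D)
    (h01 : Function.Injective (qm I s' t)) (h01r : ∀ v, (∃ p, qm I s' t p = v) ↔ v ∈ LD D2)
    (h10 : Function.Injective (qm I s t')) (h11 : Function.Injective (qm I s' t'))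
    (hdeg : degD (canD k K) < degD (D - S b))
    (F0 F1 : (I × X × Z) →ₗ[k] (I × X × Z))
    (hF0 : ∀ p, qm I s t' (F0 p) = f * qm I s t p)
    (hF1 : ∀ p, qm I s' t' (F1 p) = f * qm I s' t p) :
    ∃ c : k, c ≠ 0 ∧ LinearMap.det F0 = c * (b.map fun P => (nrm P f : k)).prod ∧
      LinearMap.det F1 = c * (b'.map fun P => (nrm P f : k)).prod := by
  have hfI : Module.Finite k I := by
    have := LD_finite (D - S b)
    exact Submodule.finiteDimensional_of_le ht.le
  have hfZ : Module.Finite k Z := by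
    have := LD_finite (D - S b)
    exact ht.finite
  obtain ⟨F', hF'⟩ := exists_lift (pm I t') (pm_inj ht')
    ((LinearMap.mulLeft k f) ∘ₗ (pm I t)) (by
      intro y
      rw [pm_range ht']
      have h1 : pm I t y ∈ LD (D - S b) := (pm_range ht _).mp ⟨y, rfl⟩
      have h2 := mul_mem_LD hf h1
      have h3 : D - S b - divf f = D' - S b := by rw [hD']; abel
      rw [h3] at h2
      exact h2)
  have hF'' : ∀ y, pm I t' (F' y) = f * pm I t y := hF'
  have hinjF' : Function.Injective F' := by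
    intro x y hxy
    apply pm_inj ht
    have h1 := hF'' x
    rw [hxy, hF''] at h1
    exact (mul_left_cancel₀ hf h1).symm
  have hval : ∀ P, P.v f = 1 → (D' - S b) P = (D - S b) P := by
    intro P hP
    have h1 := v_eq hf P
    rw [hP, ← exp_zero, exp_inj] at h1
    rw [hD', Finsupp.sub_apply, Finsupp.sub_apply, Finsupp.sub_apply]
    omega
  have hsmall : ∀ P, P.v f = 1 → ∀ z, P.v (t z - t' z) ≤ exp ((D - S b) P) := by
    intro P hP z
    have h1 := mem_LD.mp (ht.mem z) P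
    have h2 := mem_LD.mp (ht'.mem z) P
    rw [hval P hP] at h2
    exact (Valuation.map_sub _ _ _).trans (max_le h1 h2)
  refine ⟨LinearMap.det F', det_ne_zero_of_inj F' hinjF', ?_, ?_⟩
  · refine det_list f b hb D (I × X × Z) (qm I s t) h00 h00r (I × Z) (pm I t) (pm_inj ht)
      (pm_range ht) (jZ I X Z) (fun y => qm_jZ y) F0 F' ?_ hdeg ?_
    · intro y
      apply h10
      rw [hF0, qm_jZ, qm_jZ, hF'']
    · intro P hP x
      rw [← hF0, qm_sub_right]
      exact hsmall P (hb P hP) _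
  · refine det_list f b' hb' D2 (I × X × Z) (qm I s' t) h01 h01r (I × Z) (pm I t) (pm_inj ht)
      (by rw [hD2]; exact pm_range ht) (jZ I X Z) (fun y => qm_jZ y) F1 F' ?_
      (by rw [hD2]; exact hdeg) ?_
    · intro y
      apply h11
      rw [hF1, qm_jZ, qm_jZ, hF'']
    · intro P hP x
      rw [← hF1, qm_sub_right, hD2]
      exact hsmall P (hb' P hP) _

/-- comparison of the determinants of `H0, H1` (the other side of the square) -/
theorem side' {X Z : Type*} [AddCommGroup X] [Module k X] [AddCommGroup Z] [Module k Z]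
    {I : Submodule k K} {s s' : X →ₗ[k] K} {t t' : Z →ₗ[k] K} {f : K} (hf : f ≠ 0)
    {D D' D2 : Pl k K →₀ ℤ} {b b' : List (Pl k K)}
    (hb : ∀ P ∈ b, P.v f = 1) (hb' : ∀ P ∈ b', P.v f = 1)
    (hD' : D' = D - divf f) (hD2 : D2 - S b' = D - S b)
    (ht : Cmp I (LD (D - S b)) s) (ht' : Cmp I (LD (D' - S b)) s')
    (h00 : Function.Injective (qm I s t)) (h00r : ∀ v, (∃ p, qm I s t p = v) ↔ v ∈ LD D)
    (h01 : Function.Injective (qm I s t')) (h01r : ∀ v, (∃ p, qm I s t' p = v) ↔ v ∈ LD D2)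
    (h10 : Function.Injective (qm I s' t)) (h11 : Function.Injective (qm I s' t'))
    (hdeg : degD (canD k K) < degD (D - S b))
    (F0 F1 : (I × X × Z) →ₗ[k] (I × X × Z))
    (hF0 : ∀ p, qm I s' t (F0 p) = f * qm I s t p)
    (hF1 : ∀ p, qm I s' t' (F1 p) = f * qm I s t' p) :
    ∃ c : k, c ≠ 0 ∧ LinearMap.det F0 = c * (b.map fun P => (nrm P f : k)).prod ∧
      LinearMap.det F1 = c * (b'.map fun P => (nrm P f : k)).prod := by
  have hfI : Module.Finite k I := by
    have := LD_finite (D - S b)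
    exact Submodule.finiteDimensional_of_le ht.le
  have hfZ : Module.Finite k X := by
    have := LD_finite (D - S b)
    exact ht.finite
  obtain ⟨F', hF'⟩ := exists_lift (pm I s') (pm_inj ht')
    ((LinearMap.mulLeft k f) ∘ₗ (pm I s)) (by
      intro y
      rw [pm_range ht']
      have h1 : pm I s y ∈ LD (D - S b) := (pm_range ht _).mp ⟨y, rfl⟩
      have h2 := mul_mem_LD hf h1
      have h3 : D - S b - divf f = D' - S b := by rw [hD']; abel
      rw [h3] at h2
      exact h2)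
  have hF'' : ∀ y, pm I s' (F' y) = f * pm I s y := hF'
  have hinjF' : Function.Injective F' := by
    intro x y hxy
    apply pm_inj ht
    have h1 := hF'' x
    rw [hxy, hF''] at h1
    exact (mul_left_cancel₀ hf h1).symm
  have hval : ∀ P, P.v f = 1 → (D' - S b) P = (D - S b) P := by
    intro P hP
    have h1 := v_eq hf P
    rw [hP, ← exp_zero, exp_inj] at h1
    rw [hD', Finsupp.sub_apply, Finsupp.sub_apply, Finsupp.sub_apply]
    omega
  have hsmall : ∀ P, P.v f = 1 → ∀ z, P.v (s z - s' z) ≤ exp ((D - S b) P) := by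
    intro P hP z
    have h1 := mem_LD.mp (ht.mem z) P
    have h2 := mem_LD.mp (ht'.mem z) P
    rw [hval P hP] at h2
    exact (Valuation.map_sub _ _ _).trans (max_le h1 h2)
  refine ⟨LinearMap.det F', det_ne_zero_of_inj F' hinjF', ?_, ?_⟩
  · refine det_list f b hb D (I × X × Z) (qm I s t) h00 h00r (I × X) (pm I s) (pm_inj ht)
      (pm_range ht) (jX I X Z) (fun y => qm_jX y) F0 F' ?_ hdeg ?_
    · intro y
      apply h10
      rw [hF0, qm_jX, qm_jX, hF'']
    · intro P hP x
      rw [← hF0, qm_sub_left]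
      exact hsmall P (hb P hP) _
  · refine det_list f b' hb' D2 (I × X × Z) (qm I s t') h01 h01r (I × X) (pm I s) (pm_inj ht)
      (by rw [hD2]; exact pm_range ht) (jX I X Z) (fun y => qm_jX y) F1 F' ?_
      (by rw [hD2]; exact hdeg) ?_
    · intro y
      apply h11
      rw [hF1, qm_jX, qm_jX, hF'']
    · intro P hP x
      rw [← hF1, qm_sub_left, hD2]
      exact hsmall P (hb' P hP) _

/-- **Weil reciprocity**, for lists of places -/
theorem reciprocity_list {f h : K} (hf : f ≠ 0) (hh : h ≠ 0) {a a' b b' : List (Pl k K)}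
    (hda : divf (k := k) f = S a - S a') (hdb : divf (k := k) h = S b - S b')
    (hfb : ∀ P ∈ b, P.v f = 1) (hfb' : ∀ P ∈ b', P.v f = 1)
    (hha : ∀ P ∈ a, P.v h = 1) (hha' : ∀ P ∈ a', P.v h = 1)
    (hab : ∀ P ∈ a, P ∉ b) (hab' : ∀ P ∈ a, P ∉ b') (ha'b : ∀ P ∈ a', P ∉ b)
    (ha'b' : ∀ P ∈ a', P ∉ b') :
    (b'.map fun P => (nrm P f : k)).prod * (a.map fun P => (nrm P h : k)).prod =
      (a'.map fun P => (nrm P h : k)).prod * (b.map fun P => (nrm P f : k)).prod := by
  classical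
  obtain ⟨D0, hD0⟩ := exists_large k K (degD (canD k K))
  set D := D0 + S a + S b with hD
  have hDI : D - S a - S b = D0 := by rw [hD]; abel
  set D' := D - divf f with hD'
  set D2 := D - divf h with hD2
  set D3 := D' - divf h with hD3
  have hdis : ∀ {l l' : List (Pl k K)}, (∀ P ∈ l, P ∉ l') → ∀ P, S l P = 0 ∨ S l' P = 0 := by
    intro l l' hl P
    by_cases hP : P ∈ l
    · exact Or.inr (S_eq_zero (hl P hP))
    · exact Or.inl (S_eq_zero hP)
  -- identities between the divisors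
  have e1 : D' - S a' = D - S a := by rw [hD', hda]; abel
  have e2 : D2 - S b' = D - S b := by rw [hD2, hdb]; abel
  have e3 : D3 - S b' = D' - S b := by rw [hD3, hdb]; abel
  have e4 : D3 - S a' = D2 - S a := by rw [hD3, hD', hD2, hda]; abel
  have e00 : D - S a - S b = D0 := hDI
  have e10 : D' - S a' - S b = D0 := by rw [e1, hDI]
  have e01 : D2 - S a - S b' = D0 := by
    have : D2 - S a - S b' = D2 - S b' - S a := by abel
    rw [this, e2, ← hDI]; abel
  have e11 : D3 - S a' - S b' = D0 := by rw [e4, e01]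
  have dle : ∀ l : List (Pl k K), 0 ≤ degD (S l) := degD_S_nonneg
  -- the intersections
  have i00 : LD (D - S a) ⊓ LD (D - S b) = LD D0 := by
    rw [inf_LD (S_nonneg a) (S_nonneg b) (hdis hab), e00]
  have i10 : LD (D - S a) ⊓ LD (D' - S b) = LD D0 := by
    rw [← e1, inf_LD (S_nonneg a') (S_nonneg b) (hdis ha'b), e10]
  have i01 : LD (D2 - S a) ⊓ LD (D - S b) = LD D0 := by
    rw [← e2, inf_LD (S_nonneg a) (S_nonneg b') (hdis hab'), e01]
  have i11 : LD (D2 - S a) ⊓ LD (D' - S b) = LD D0 := by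
    rw [← e3, ← e4, inf_LD (S_nonneg a') (S_nonneg b') (hdis ha'b'), e11]
  have s00 : LD (D - S a) ⊔ LD (D - S b) = LD D :=
    sup_LD (S_nonneg a) (S_nonneg b) (hdis hab) (by rw [e00]; exact hD0)
  have s10 : LD (D - S a) ⊔ LD (D' - S b) = LD D' := by
    rw [← e1]
    exact sup_LD (S_nonneg a') (S_nonneg b) (hdis ha'b) (by rw [e10]; exact hD0)
  have s01 : LD (D2 - S a) ⊔ LD (D - S b) = LD D2 := by
    rw [← e2]
    exact sup_LD (S_nonneg a) (S_nonneg b') (hdis hab') (by rw [e01]; exact hD0)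
  have s11 : LD (D2 - S a) ⊔ LD (D' - S b) = LD D3 := by
    rw [← e3, ← e4]
    exact sup_LD (S_nonneg a') (S_nonneg b') (hdis ha'b') (by rw [e11]; exact hD0)
  -- complements
  have le1 : LD D0 ≤ LD (D - S a) := i00 ▸ inf_le_left
  have le2 : LD D0 ≤ LD (D2 - S a) := i01 ▸ inf_le_left
  have le3 : LD D0 ≤ LD (D - S b) := i00 ▸ inf_le_right
  have le4 : LD D0 ≤ LD (D' - S b) := i10 ▸ inf_le_right
  obtain ⟨X, cX⟩ := exists_Cmp le1
  obtain ⟨Y, cY⟩ := exists_Cmp le2
  obtain ⟨Z, cZ⟩ := exists_Cmp le3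
  obtain ⟨W, cW⟩ := exists_Cmp le4
  have fin1 := LD_finite (D - S a)
  have fin2 := LD_finite (D2 - S a)
  have fin3 := LD_finite (D - S b)
  have fin4 := LD_finite (D' - S b)
  have fin0 := LD_finite D0
  have fX := cX.finite
  have fY := cY.finite
  have fZ := cZ.finite
  have fW := cW.finite
  have dega : degD (canD k K) < degD (D - S a) := by
    rw [← e00, degD_sub] at hD0
    have := dle b
    omega
  have degb : degD (canD k K) < degD (D - S b) := by
    rw [← e00, degD_sub, degD_sub] at hD0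
    rw [degD_sub]
    have := dle a
    omega
  have dXY : finrank k X = finrank k Y := by
    have h1 := cX.finrank
    have h2 := cY.finrank
    have h3 := finrank_LD_eq (k := k) (D := D - S a) (D' := D2 - S a)
      (by rw [degD_sub, degD_sub, hD2, degD_sub, degD_divf hh, sub_zero]) dega
    omega
  have dZW : finrank k Z = finrank k W := by
    have h1 := cZ.finrank
    have h2 := cW.finrank
    have h3 := finrank_LD_eq (k := k) (D := D - S b) (D' := D' - S b)
      (by rw [degD_sub, degD_sub, hD', degD_sub, degD_divf hf, sub_zero]) degb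
    omega
  let σ : X ≃ₗ[k] Y := LinearEquiv.ofFinrankEq X Y dXY
  let τ : Z ≃ₗ[k] W := LinearEquiv.ofFinrankEq Z W dZW
  have cY' := cY.comp σ
  have cW' := cW.comp τ
  set s := X.subtype with hs
  set s' := Y.subtype ∘ₗ (σ : X →ₗ[k] Y) with hs'
  set t := Z.subtype with ht
  set t' := W.subtype ∘ₗ (τ : Z →ₗ[k] W) with ht'
  have j00 : Function.Injective (qm (LD D0) s t) := qm_inj cX cZ i00.le
  have j10 : Function.Injective (qm (LD D0) s t') := qm_inj cX cW' i10.le
  have j01 : Function.Injective (qm (LD D0) s' t) := qm_inj cY' cZ i01.le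
  have j11 : Function.Injective (qm (LD D0) s' t') := qm_inj cY' cW' i11.le
  have r00 : ∀ v, (∃ p, qm (LD D0) s t p = v) ↔ v ∈ LD D := by
    intro v; rw [qm_range cX cZ, s00]
  have r10 : ∀ v, (∃ p, qm (LD D0) s t' p = v) ↔ v ∈ LD D' := by
    intro v; rw [qm_range cX cW', s10]
  have r01 : ∀ v, (∃ p, qm (LD D0) s' t p = v) ↔ v ∈ LD D2 := by
    intro v; rw [qm_range cY' cZ, s01]
  have r11 : ∀ v, (∃ p, qm (LD D0) s' t' p = v) ↔ v ∈ LD D3 := by
    intro v; rw [qm_range cY' cW', s11]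
  -- the square
  obtain ⟨F0, hF0⟩ := exists_lift (qm (LD D0) s t') j10
    ((LinearMap.mulLeft k f) ∘ₗ (qm (LD D0) s t)) (fun y => (r10 _).mpr
      (mul_mem_LD hf ((r00 _).mp ⟨y, rfl⟩)))
  obtain ⟨F1, hF1⟩ := exists_lift (qm (LD D0) s' t') j11
    ((LinearMap.mulLeft k f) ∘ₗ (qm (LD D0) s' t)) (fun y => (r11 _).mpr (by
      have h1 := mul_mem_LD hf ((r01 _).mp ⟨y, rfl⟩)
      have h2 : D2 - divf f = D3 := by rw [hD3, hD', hD2]; abel
      rw [h2] at h1
      exact h1))
  obtain ⟨H0, hH0⟩ := exists_lift (qm (LD D0) s' t) j01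
    ((LinearMap.mulLeft k h) ∘ₗ (qm (LD D0) s t)) (fun y => (r01 _).mpr
      (mul_mem_LD hh ((r00 _).mp ⟨y, rfl⟩)))
  obtain ⟨H1, hH1⟩ := exists_lift (qm (LD D0) s' t') j11
    ((LinearMap.mulLeft k h) ∘ₗ (qm (LD D0) s t')) (fun y => (r11 _).mpr
      (mul_mem_LD hh ((r10 _).mp ⟨y, rfl⟩)))
  have hF0' : ∀ p, qm (LD D0) s t' (F0 p) = f * qm (LD D0) s t p := hF0
  have hF1' : ∀ p, qm (LD D0) s' t' (F1 p) = f * qm (LD D0) s' t p := hF1
  have hH0' : ∀ p, qm (LD D0) s' t (H0 p) = h * qm (LD D0) s t p := hH0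
  have hH1' : ∀ p, qm (LD D0) s' t' (H1 p) = h * qm (LD D0) s t' p := hH1
  have hcomm : F1 ∘ₗ H0 = H1 ∘ₗ F0 := by
    refine LinearMap.ext fun p => j11 ?_
    rw [LinearMap.comp_apply, LinearMap.comp_apply, hF1', hH0', hH1', hF0']
    ring
  have hdet : LinearMap.det F1 * LinearMap.det H0 = LinearMap.det H1 * LinearMap.det F0 := by
    rw [← LinearMap.det_comp, ← LinearMap.det_comp, hcomm]
  obtain ⟨c, hc, hc0, hc1⟩ := side hf hfb hfb' hD' e2 cZ cW' j00 r00 j01 r01 j10 j11 degb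
    F0 F1 hF0' hF1'
  obtain ⟨d, hd, hd0, hd1⟩ := side' hh hha hha' hD2 e1 cX cY' j00 r00 j10 r10 j01 j11 dega
    H0 H1 hH0' hH1'
  rw [hc0, hc1, hd0, hd1] at hdet
  have hcd : c * d ≠ 0 := mul_ne_zero hc hd
  refine mul_left_cancel₀ hcd ?_
  linear_combination hdet

end Crest.Agent.R013.WR3_777
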