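import Mathlib
import Crest.Agent.R013.WR3_777
import Crest.Agent.R013.PicD_398

/-!
# R013 / WR4: Weil reciprocity, divisor form, and the characters `χ_f` of `Pic` (helper777)
-/

set_option autoImplicit false
set_option linter.all false

namespace Crest.Agent.R013.WR4_777

open WithZero Module
open Crest.Agent.R013.RR1_948 Crest.Agent.R013.RR2_948
open Crest.Agent.R013.RR7_948 Crest.Agent.R013.RR8_948 Crest.Agent.R013.RR9_948
open Crest.Agent.R013.RR11_948 Crest.Agent.R013.RR12_948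
open Crest.Agent.R013.WR1_777 Crest.Agent.R013.WR2_777 Crest.Agent.R013.WR3_777
open Crest.Agent.R013.PicD_398

section pw

variable {k : Type*} [Field k] {K : Type*} [Field K] [Algebra k K] {G : Type*} [CommGroup G]

/-- `∏_P φ(P) ^ D(P)` -/
noncomputable def pw (φ : Pl k K → G) (D : Pl k K →₀ ℤ) : G := D.prod fun P n => φ P ^ n

@[simp] theorem pw_zero (φ : Pl k K → G) : pw φ 0 = 1 := Finsupp.prod_zero_index

theorem pw_add (φ : Pl k K → G) (D D' : Pl k K →₀ ℤ) : pw φ (D + D') = pw φ D * pw φ D' := by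
  classical
  exact Finsupp.prod_add_index' (fun _ => zpow_zero _) (fun _ _ _ => zpow_add _ _ _)

theorem pw_neg (φ : Pl k K → G) (D : Pl k K →₀ ℤ) : pw φ (-D) = (pw φ D)⁻¹ := by
  have h := pw_add φ D (-D)
  rw [add_neg_cancel, pw_zero] at h
  exact (inv_eq_of_mul_eq_one_right h.symm).symm

theorem pw_sub (φ : Pl k K → G) (D D' : Pl k K →₀ ℤ) : pw φ (D - D') = pw φ D / pw φ D' := by
  rw [sub_eq_add_neg, pw_add, pw_neg, div_eq_mul_inv]

@[simp] theorem pw_single (φ : Pl k K → G) (P : Pl k K) (n : ℤ) :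
    pw φ (Finsupp.single P n) = φ P ^ n := Finsupp.prod_single_index (zpow_zero _)

theorem pw_S (φ : Pl k K → G) (l : List (Pl k K)) : pw φ (S l) = (l.map φ).prod := by
  induction l with
  | nil => simp
  | cons P l ih => rw [S_cons, pw_add, pw_single, ih, List.map_cons, List.prod_cons, zpow_one]

theorem pw_congr {φ ψ : Pl k K → G} {D : Pl k K →₀ ℤ} (h : ∀ P, D P ≠ 0 → φ P = ψ P) :
    pw φ D = pw ψ D :=
  Finsupp.prod_congr fun P hP => by rw [h P (Finsupp.mem_support_iff.mp hP)]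

theorem pw_mul (φ ψ : Pl k K → G) (D : Pl k K →₀ ℤ) :
    pw (fun P => φ P * ψ P) D = pw φ D * pw ψ D := by
  unfold pw
  rw [← Finsupp.prod_mul]
  exact Finsupp.prod_congr fun P _ => mul_zpow _ _ _

theorem pw_nsmul (φ : Pl k K → G) (n : ℕ) (D : Pl k K →₀ ℤ) : pw φ (n • D) = pw φ D ^ n := by
  induction n with
  | zero => simp
  | succ n ih => rw [succ_nsmul, pw_add, ih, pow_succ]

theorem exists_S_nat (g : Pl k K →₀ ℕ) :
    ∃ l : List (Pl k K), (∀ P, S l P = g P) ∧ ∀ P ∈ l, g P ≠ 0 := by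
  classical
  induction g using Finsupp.induction with
  | zero => exact ⟨[], fun P => by simp, fun P h => by simp at h⟩
  | single_add a b g ha hb ih =>
    obtain ⟨l, hl1, hl2⟩ := ih
    refine ⟨List.replicate b a ++ l, fun P => ?_, fun P hP => ?_⟩
    · rw [S_append, S_replicate, Finsupp.add_apply, Finsupp.add_apply, hl1 P,
        Finsupp.single_apply, Finsupp.single_apply]
      split_ifs <;> simp
    · rw [Finsupp.add_apply]
      rcases List.mem_append.mp hP with h | h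
      · have := List.eq_of_mem_replicate h
        subst this
        rw [Finsupp.single_eq_same]
        omega
      · have := hl2 P h
        omega

theorem exists_S_sub (D : Pl k K →₀ ℤ) :
    ∃ l l' : List (Pl k K), D = S l - S l' ∧ (∀ P ∈ l, D P ≠ 0) ∧ ∀ P ∈ l', D P ≠ 0 := by
  obtain ⟨l, h1, h2⟩ := exists_S_nat (D.mapRange Int.toNat rfl)
  obtain ⟨l', h3, h4⟩ := exists_S_nat ((-D).mapRange Int.toNat rfl)
  refine ⟨l, l', ?_, fun P hP => ?_, fun P hP => ?_⟩
  · ext P
    rw [Finsupp.sub_apply, h1, h3, Finsupp.mapRange_apply, Finsupp.mapRange_apply,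
      Finsupp.neg_apply]
    omega
  · have := h2 P hP
    rw [Finsupp.mapRange_apply] at this
    omega
  · have := h4 P hP
    rw [Finsupp.mapRange_apply, Finsupp.neg_apply] at this
    omega

end pw

variable {k : Type*} [Field k] {K : Type*} [Field K] [Algebra k K] [Algebra (RatFunc k) K]
  [IsScalarTower k (RatFunc k) K] [FiniteDimensional (RatFunc k) K]
  [Algebra.IsSeparable (RatFunc k) K]

theorem v_eq_one_iff {f : K} (hf : f ≠ 0) (P : Pl k K) : P.v f = 1 ↔ divf (k := k) f P = 0 := by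
  rw [v_eq hf, ← exp_zero, exp_inj]
  omega

/-- **Weil reciprocity**: `∏_P N(f(P))^(v_P h) = ∏_P N(h(P))^(v_P f)` for `f, h` with disjoint
divisors -/
theorem weil_reciprocity {f h : K} (hf : f ≠ 0) (hh : h ≠ 0)
    (hdis : ∀ P : Pl k K, divf (k := k) f P = 0 ∨ divf (k := k) h P = 0) :
    pw (fun P => nrm P f) (divf (k := k) h) = pw (fun P => nrm P h) (divf (k := k) f) := by
  obtain ⟨a, a', hda, ha, ha'⟩ := exists_S_sub (divf (k := k) f)
  obtain ⟨b, b', hdb, hb, hb'⟩ := exists_S_sub (divf (k := k) h)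
  have hfa : ∀ P, divf (k := k) f P ≠ 0 → P.v h = 1 := fun P hP =>
    (v_eq_one_iff hh P).mpr ((hdis P).resolve_left hP)
  have hhb : ∀ P, divf (k := k) h P ≠ 0 → P.v f = 1 := fun P hP =>
    (v_eq_one_iff hf P).mpr ((hdis P).resolve_right hP)
  have hne : ∀ P, divf (k := k) f P ≠ 0 → divf (k := k) h P ≠ 0 → False := fun P h1 h2 =>
    (hdis P).elim h1 h2
  have key := reciprocity_list hf hh hda hdb (fun P hP => hhb P (hb P hP))
    (fun P hP => hhb P (hb' P hP)) (fun P hP => hfa P (ha P hP)) (fun P hP => hfa P (ha' P hP))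
    (fun P h1 h2 => hne P (ha P h1) (hb P h2)) (fun P h1 h2 => hne P (ha P h1) (hb' P h2))
    (fun P h1 h2 => hne P (ha' P h1) (hb P h2)) (fun P h1 h2 => hne P (ha' P h1) (hb' P h2))
  have hcoe : ∀ (l : List (Pl k K)) (u : K), (l.map fun P => (nrm P u : k)).prod
      = (((l.map fun P => nrm P u).prod : kˣ) : k) := by
    intro l u
    induction l with
    | nil => simp
    | cons P l ih => rw [List.map_cons, List.prod_cons, List.map_cons, List.prod_cons, ih,
        Units.val_mul]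
  rw [hcoe, hcoe, hcoe, hcoe, ← Units.val_mul, ← Units.val_mul, Units.val_inj] at key
  rw [hda, hdb, pw_sub, pw_sub, pw_S, pw_S, pw_S, pw_S, div_eq_div_iff_mul_eq_mul]
  rw [mul_comm _ (List.map (fun P => nrm P f) b').prod, key, mul_comm]

/-- a function of prescribed valuation at `P` -/
noncomputable def pe (P : Pl k K) (m : ℤ) : K := (exists_v_eq P m).choose

theorem pe_ne_zero (P : Pl k K) (m : ℤ) : pe P m ≠ 0 := (exists_v_eq P m).choose_spec.1

theorem v_pe (P : Pl k K) (m : ℤ) : P.v (pe P m) = exp m := (exists_v_eq P m).choose_spec.2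

/-- the local symbol `N((f e^n)(P))`, where `v_P(e) = - E_P` and `div f = n E` -/
noncomputable def chiP (n : ℕ) (f : K) (E : Pl k K →₀ ℤ) (P : Pl k K) : kˣ :=
  nrm P (f * pe P (E P) ^ n)

theorem v_mul_pow {n : ℕ} {f : K} (hf : f ≠ 0) {E : Pl k K →₀ ℤ} (hE : divf (k := k) f = n • E)
    {P : Pl k K} {e : K} (he : P.v e = exp (E P)) : P.v (f * e ^ n) = 1 := by
  rw [map_mul, map_pow, he, v_eq hf, hE, Finsupp.smul_apply, ← exp_nsmul, ← exp_add, ← exp_zero]
  congr 1
  simp

theorem chiP_eq {n : ℕ} (hn : ∀ c : kˣ, c ^ n = 1) {f : K} (hf : f ≠ 0) {E : Pl k K →₀ ℤ}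
    (hE : divf (k := k) f = n • E) {P : Pl k K} {e : K} (he : P.v e = exp (E P)) :
    chiP n f E P = nrm P (f * e ^ n) := by
  unfold chiP
  have he0 : e ≠ 0 := by
    rintro rfl
    rw [map_zero] at he
    exact exp_ne_zero he.symm
  have h1 : P.v (e / pe P (E P)) = 1 := by
    rw [map_div₀, he, v_pe, div_self exp_ne_zero]
  have h2 : f * e ^ n = f * pe P (E P) ^ n * (e / pe P (E P)) ^ n := by
    rw [mul_assoc, ← mul_pow, mul_div_cancel₀ _ (pe_ne_zero P (E P))]
  rw [h2, nrm_mul (v_mul_pow hf hE (v_pe P _)) (by rw [map_pow, h1, one_pow]), nrm_pow h1, hn,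
    mul_one]

theorem divf_pow {f : K} (hf : f ≠ 0) (n : ℕ) : divf (k := k) (f ^ n) = n • divf f := by
  induction n with
  | zero => rw [pow_zero, divf_one, zero_smul]
  | succ n ih => rw [pow_succ, divf_mul (pow_ne_zero n hf) hf, ih, succ_nsmul]

/-- **`χ_f` is trivial on principal divisors** -/
theorem pw_chiP_divf {n : ℕ} (hn : ∀ c : kˣ, c ^ n = 1) {f : K} (hf : f ≠ 0)
    {E : Pl k K →₀ ℤ} (hE : divf (k := k) f = n • E) {h : K} (hh : h ≠ 0) :
    pw (chiP n f E) (divf (k := k) h) = 1 := by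
  obtain ⟨u, hu0, hu⟩ := exists_prescribed (divf (k := k) h).support E
  have hf' : f * u ^ n ≠ 0 := mul_ne_zero hf (pow_ne_zero _ hu0)
  have h1 : pw (chiP n f E) (divf (k := k) h) = pw (fun P => nrm P (f * u ^ n)) (divf h) :=
    pw_congr fun P hP => chiP_eq hn hf hE (hu P (Finsupp.mem_support_iff.mpr hP))
  have h2 : ∀ P : Pl k K, divf (k := k) (f * u ^ n) P = 0 ∨ divf (k := k) h P = 0 := by
    intro P
    by_cases hP : divf (k := k) h P = 0
    · exact Or.inr hP
    · left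
      rw [← v_eq_one_iff hf']
      exact v_mul_pow hf hE (hu P (Finsupp.mem_support_iff.mpr hP))
  rw [h1, weil_reciprocity hf' hh h2, divf_mul hf (pow_ne_zero _ hu0), divf_pow hu0, hE,
    ← nsmul_add, pw_nsmul, hn]

/-- the character `χ_f` of the divisor class group (`div f = n E`, `k^* ` killed by `n`) -/
noncomputable def chiPic (n : ℕ) (hn : ∀ c : kˣ, c ^ n = 1) {f : K} (hf : f ≠ 0)
    (E : Pl k K →₀ ℤ) (hE : divf (k := k) f = n • E) : Pic k K →+ Additive kˣ :=
  QuotientAddGroup.lift (Prin k K)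
    { toFun := fun D => Additive.ofMul (pw (chiP n f E) D)
      map_zero' := by rw [pw_zero]; rfl
      map_add' := fun D D' => by rw [pw_add]; rfl }
    (by
      rintro _ ⟨h, hh, rfl⟩
      show Additive.ofMul _ = 0
      rw [pw_chiP_divf hn hf hE hh]
      rfl)

theorem chiPic_cls (n : ℕ) (hn : ∀ c : kˣ, c ^ n = 1) {f : K} (hf : f ≠ 0)
    (E : Pl k K →₀ ℤ) (hE : divf (k := k) f = n • E) (D : Pl k K →₀ ℤ) :
    (chiPic n hn hf E hE (cls D)).toMul = pw (chiP n f E) D := rfl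

theorem chiPic_single (n : ℕ) (hn : ∀ c : kˣ, c ^ n = 1) {f : K} (hf : f ≠ 0)
    (E : Pl k K →₀ ℤ) (hE : divf (k := k) f = n • E) {P : Pl k K} {e : K}
    (he : P.v e = exp (E P)) :
    (chiPic n hn hf E hE (cls (Finsupp.single P 1))).toMul = nrm P (f * e ^ n) := by
  rw [chiPic_cls, pw_single, zpow_one, chiP_eq hn hf hE he]

/-- `χ_f` as an additive character with values in `k` -/
noncomputable def chiA (n : ℕ) (hn : ∀ c : kˣ, c ^ n = 1) {f : K} (hf : f ≠ 0)
    (E : Pl k K →₀ ℤ) (hE : divf (k := k) f = n • E) : AddChar (Pic k K) k where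
  toFun := fun z => ((chiPic n hn hf E hE z).toMul : kˣ)
  map_zero_eq_one' := by rw [map_zero]; rfl
  map_add_eq_mul' := fun a b => by rw [map_add, toMul_add, Units.val_mul]

theorem chiA_cls (n : ℕ) (hn : ∀ c : kˣ, c ^ n = 1) {f : K} (hf : f ≠ 0)
    (E : Pl k K →₀ ℤ) (hE : divf (k := k) f = n • E) (D : Pl k K →₀ ℤ) :
    chiA n hn hf E hE (cls D) = ((pw (chiP n f E) D : kˣ) : k) := rfl

theorem chiA_single (n : ℕ) (hn : ∀ c : kˣ, c ^ n = 1) {f : K} (hf : f ≠ 0)
    (E : Pl k K →₀ ℤ) (hE : divf (k := k) f = n • E) {P : Pl k K} {e : K}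
    (he : P.v e = exp (E P)) :
    chiA n hn hf E hE (cls (Finsupp.single P 1)) = (nrm P (f * e ^ n) : k) := by
  rw [chiA_cls, pw_single, zpow_one, chiP_eq hn hf hE he]

/-- `χ_f` for `f = h ^ m`, `div h = N E`, `n = N m`: the `m`-th power of the norm of `h e ^ N` -/
theorem chiP_pow {N m : ℕ} {h : K} (hh : h ≠ 0) {E : Pl k K →₀ ℤ}
    (hE : divf (k := k) h = N • E) (P : Pl k K) :
    chiP (N * m) (h ^ m) E P = nrm P (h * pe P (E P) ^ N) ^ m := by
  unfold chiP
  rw [← nrm_pow (v_mul_pow hh hE (v_pe P _)), mul_pow, ← pow_mul]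

/-- multiplicativity of `χ_f` in `f` -/
theorem chiP_mul {n : ℕ} (hn : ∀ c : kˣ, c ^ n = 1) {f f' : K} (hf : f ≠ 0) (hf' : f' ≠ 0)
    {E E' : Pl k K →₀ ℤ} (hE : divf (k := k) f = n • E) (hE' : divf (k := k) f' = n • E')
    (P : Pl k K) : chiP n (f * f') (E + E') P = chiP n f E P * chiP n f' E' P := by
  have he : P.v (pe P (E P) * pe P (E' P)) = exp ((E + E') P) := by
    rw [map_mul, v_pe, v_pe, Finsupp.add_apply, exp_add]
  rw [chiP_eq hn (mul_ne_zero hf hf') (by rw [divf_mul hf hf', hE, hE', nsmul_add]) he]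
  unfold chiP
  rw [← nrm_mul (v_mul_pow hf hE (v_pe P _)) (v_mul_pow hf' hE' (v_pe P _))]
  congr 1
  ring

/-- `χ` of the `n`-th power of a function is trivial -/
theorem chiP_nth_power {n : ℕ} (hn : ∀ c : kˣ, c ^ n = 1) {u : K} (hu : u ≠ 0)
    (P : Pl k K) : chiP n (u ^ n) (divf (k := k) u) P = 1 := by
  have he : P.v u⁻¹ = exp ((divf (k := k) u) P) := by
    rw [map_inv₀, v_eq hu, ← exp_neg, neg_neg]
  rw [chiP_eq hn (pow_ne_zero _ hu) (divf_pow hu n) he, ← mul_pow, mul_inv_cancel₀ hu, one_pow,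
    nrm_one]

/-- for a finite field, `c ^ (q - 1) = 1` -/
theorem pow_card_sub_one [Finite k] (c : kˣ) : c ^ (Nat.card k - 1) = 1 := by
  have := Fintype.ofFinite k
  classical
  rw [Nat.card_eq_fintype_card, ← Fintype.card_units]
  exact pow_card_eq_one

end Crest.Agent.R013.WR4_777
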