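import Mathlib
import Crest.Agent.R013.WR4_777
import Crest.Agent.R013.CntA1_560

/-!
# R013 / WR5: `nrm P f` is the norm of the residue of `f` in the residue field `Kap P` (helper777)

For finite `k` with `q` elements: `nrm P f = f(P) ^ ((q^d - 1)/(q - 1))`, `d = degP P`, and for
`N * m = q - 1`: `nrm P f ^ m = 1` iff `f(P)` is an `N`-th power in `Kap P`.
-/

set_option autoImplicit false
set_option linter.all false

namespace Crest.Agent.R013.WR5_777

open WithZero Module
open Crest.Agent.R013.RR1_948 Crest.Agent.R013.RR2_948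
open Crest.Agent.R013.RR7_948 Crest.Agent.R013.RR8_948 Crest.Agent.R013.RR9_948
open Crest.Agent.R013.RR11_948 Crest.Agent.R013.RR12_948
open Crest.Agent.R013.WR1_777 Crest.Agent.R013.WR2_777 Crest.Agent.R013.WR3_777
open Crest.Agent.R013.WR4_777 Crest.Agent.R013.PicD_398 Crest.Agent.R013.CntA1_560

section local_

variable {k : Type*} [Field k] {K : Type*} [Field K] [Algebra k K]

/-- the residue field of a place -/
abbrev Kap (P : Pl k K) : Type _ := P.v.integer ⧸ mI P

noncomputable instance (P : Pl k K) : Field (Kap P) := Ideal.Quotient.field (mI P)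

/-- the residue map -/
noncomputable def rs (P : Pl k K) : P.v.integer →+* Kap P := Ideal.Quotient.mk (mI P)

theorem rs_surjective (P : Pl k K) : Function.Surjective (rs P) := Ideal.Quotient.mk_surjective

theorem rs_eq_zero {P : Pl k K} {x : P.v.integer} : rs P x = 0 ↔ P.v (x : K) < 1 := by
  unfold rs
  exact Ideal.Quotient.eq_zero_iff_mem.trans mem_mI

theorem rs_eq {P : Pl k K} {x y : P.v.integer} : rs P x = rs P y ↔ P.v ((x : K) - y) < 1 := by
  rw [← sub_eq_zero, ← map_sub, rs_eq_zero]
  rfl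

/-- the constants in the valuation ring -/
noncomputable def cInt (P : Pl k K) : k →+* P.v.integer :=
  (algebraMap k K).codRestrict P.v.integer (fun c => v_const_le P c)

theorem coe_cInt (P : Pl k K) (c : k) : (cInt P c : K) = algebraMap k K c := rfl

noncomputable instance (P : Pl k K) : Algebra k (Kap P) := ((rs P).comp (cInt P)).toAlgebra

theorem algebraMap_Kap (P : Pl k K) (c : k) : algebraMap k (Kap P) c = rs P (cInt P c) := rfl

/-- the value of a function regular at `P` -/
noncomputable def val (P : Pl k K) (f : K) (hf : P.v f ≤ 1) : Kap P := rs P ⟨f, hf⟩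

theorem mem_int_of_ball {P : Pl k K} (x : ball P 0) : (x : K) ∈ P.v.integer := by
  have := mem_ball.mp x.2
  rwa [exp_zero] at this

/-- the reduction `ball P 0 → Kap P`, linear over `k` -/
noncomputable def redL (P : Pl k K) : ball P 0 →ₗ[k] Kap P where
  toFun x := rs P ⟨x, mem_int_of_ball x⟩
  map_add' x y := by rw [← map_add]; rfl
  map_smul' c x := by
    rw [RingHom.id_apply, Algebra.smul_def, algebraMap_Kap, ← map_mul]
    congr 1
    refine Subtype.ext ?_
    show ((c • x : ball P 0) : K) = algebraMap k K c * x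
    rw [Submodule.coe_smul, Algebra.smul_def]

theorem redL_apply (P : Pl k K) (x : ball P 0) : redL P x = rs P ⟨x, mem_int_of_ball x⟩ := rfl

theorem redL_eq_zero {P : Pl k K} (x : ball P 0) : redL P x = 0 ↔ (x : K) ∈ ball P (-1) := by
  rw [redL_apply, rs_eq_zero, mem_ball, lt_one_iff]

/-- `gr P 0 ≃ Kap P` -/
noncomputable def grK (P : Pl k K) : gr P 0 →ₗ[k] Kap P :=
  Submodule.liftQ _ (redL P) fun x hx => by
    rw [LinearMap.mem_ker, redL_eq_zero]
    exact hx

theorem grK_mk (P : Pl k K) (x : ball P 0) : grK P (Submodule.Quotient.mk x) = redL P x := rfl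

theorem grK_bijective (P : Pl k K) : Function.Bijective (grK P) := by
  constructor
  · rw [injective_iff_map_eq_zero]
    intro x hx
    obtain ⟨x, rfl⟩ := Submodule.Quotient.mk_surjective _ x
    rw [grK_mk, redL_eq_zero] at hx
    rw [← Submodule.Quotient.mk_zero, gr_eq, Submodule.coe_zero, sub_zero]
    exact hx
  · intro y
    obtain ⟨x, rfl⟩ := rs_surjective P y
    have hx : (x : K) ∈ ball P 0 := by rw [mem_ball, exp_zero]; exact x.2
    exact ⟨Submodule.Quotient.mk ⟨x, hx⟩, rfl⟩

/-- **`nrm` is the norm of the residue** -/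
theorem nrm_eq_norm {P : Pl k K} {f : K} (hf : P.v f = 1) :
    (nrm P f : k) = Algebra.norm k (val P f hf.le) := by
  rw [coe_nrm hf, Algebra.norm_apply, eq_comm]
  refine det_conj' (grK P) (grK_bijective P) _ _ ?_
  intro x
  obtain ⟨x, rfl⟩ := Submodule.Quotient.mk_surjective _ x
  rw [mulGr_mk, grK_mk, grK_mk, redL_apply, redL_apply]
  show val P f hf.le * _ = _
  unfold val
  rw [← map_mul]
  rfl

/-- degree one: `f ≡ nrm P f` -/
theorem val_mul {P : Pl k K} {f g : K} (hf : P.v f ≤ 1) (hg : P.v g ≤ 1)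
    (hfg : P.v (f * g) ≤ 1) : val P (f * g) hfg = val P f hf * val P g hg := by
  unfold val
  rw [← map_mul]
  rfl

theorem val_pow {P : Pl k K} {f : K} (hf : P.v f ≤ 1) (n : ℕ) (hfn : P.v (f ^ n) ≤ 1) :
    val P (f ^ n) hfn = val P f hf ^ n := by
  unfold val
  rw [← map_pow]
  rfl

theorem val_eq {P : Pl k K} {f g : K} (hf : P.v f ≤ 1) (hg : P.v g ≤ 1) :
    val P f hf = val P g hg ↔ P.v (f - g) < 1 := rs_eq

theorem val_ne_zero {P : Pl k K} {f : K} (hf : P.v f = 1) : val P f hf.le ≠ 0 := by
  unfold val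
  rw [Ne, rs_eq_zero, not_lt]
  exact hf.ge

theorem val_algebraMap (P : Pl k K) (c : k) :
    val P (algebraMap k K c) (v_const_le P c) = algebraMap k (Kap P) c := rfl

end local_

section global

variable {k : Type*} [Field k] {K : Type*} [Field K] [Algebra k K] [Algebra (RatFunc k) K]
  [IsScalarTower k (RatFunc k) K] [FiniteDimensional (RatFunc k) K]
  [Algebra.IsSeparable (RatFunc k) K]

instance finite_Kap_module (P : Pl k K) : Module.Finite k (Kap P) := by
  have := finite_gr P 0
  exact Module.Finite.of_surjective (grK P) (grK_bijective P).2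

theorem finrank_Kap (P : Pl k K) : finrank k (Kap P) = degP P := by
  rw [← finrank_gr P 0]
  exact (LinearEquiv.ofBijective (grK P) (grK_bijective P)).finrank_eq.symm

instance finite_Kap [Finite k] (P : Pl k K) : Finite (Kap P) := Module.finite_of_finite k

theorem card_Kap [Finite k] (P : Pl k K) : Nat.card (Kap P) = Nat.card k ^ degP P := by
  rw [← finrank_Kap, Module.natCard_eq_pow_finrank (K := k)]

/-- degree one: the value is the constant `nrm P f` -/
theorem val_of_degP_one {P : Pl k K} (hP : degP P = 1) {f : K} (hf : P.v f = 1) :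
    val P f hf.le = algebraMap k (Kap P) (nrm P f) := by
  have h1 : finrank k (Kap P) = 1 := by rw [finrank_Kap, hP]
  obtain ⟨c, hc⟩ : ∃ c : k, algebraMap k (Kap P) c = val P f hf.le := by
    have h2 := (finrank_eq_one_iff_of_nonzero' (1 : Kap P) one_ne_zero).mp h1 (val P f hf.le)
    obtain ⟨c, hc⟩ := h2
    exact ⟨c, by rw [← hc, Algebra.smul_def, mul_one]⟩
  rw [nrm_eq_norm hf, ← hc, Algebra.norm_algebraMap, h1, pow_one]

theorem v_sub_nrm_of_degP_one {P : Pl k K} (hP : degP P = 1) {f : K} (hf : P.v f = 1) :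
    P.v (f - algebraMap k K (nrm P f : k)) < 1 := by
  have h := val_of_degP_one hP hf
  rw [← val_algebraMap, val_eq] at h
  exact h

/-- finite constant field: `nrm P f = f(P) ^ ((q^d - 1)/(q - 1))` -/
theorem algebraMap_nrm [Finite k] {P : Pl k K} {f : K} (hf : P.v f = 1) :
    algebraMap k (Kap P) (nrm P f) =
      val P f hf.le ^ ((Nat.card k ^ degP P - 1) / (Nat.card k - 1)) := by
  rw [nrm_eq_norm hf, FiniteField.algebraMap_norm_eq_pow, card_Kap]

theorem v_pow_sub_nrm_lt [Finite k] {P : Pl k K} {f : K} (hf : P.v f = 1) :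
    P.v (f ^ ((Nat.card k ^ degP P - 1) / (Nat.card k - 1)) - algebraMap k K (nrm P f : k)) < 1 := by
  have h := algebraMap_nrm hf
  rw [← val_algebraMap, ← val_pow hf.le _ (by rw [map_pow, hf, one_pow]), val_eq] at h
  rw [← Valuation.map_neg, neg_sub]
  exact h

/-- in a finite cyclic group of order `N * m`: `x ^ m = 1` iff `x` is an `N`-th power -/
theorem pow_eq_one_iff_exists {G : Type*} [Group G] [Finite G] [IsCyclic G] {N m : ℕ}
    (h : N * m = Nat.card G) (x : G) : x ^ m = 1 ↔ ∃ y : G, y ^ N = x := by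
  constructor
  · intro hx
    obtain ⟨g, hg⟩ := IsCyclic.exists_generator (α := G)
    obtain ⟨a, rfl⟩ := Subgroup.mem_zpowers_iff.mp (hg x)
    have ho : orderOf g = N * m := by
      rw [h]; exact orderOf_eq_card_of_forall_mem_zpowers hg
    rw [← zpow_natCast, ← zpow_mul, ← orderOf_dvd_iff_zpow_eq_one, ho] at hx
    have hm : (m : ℤ) ≠ 0 := by
      rintro h0
      have : m = 0 := by exact_mod_cast h0
      rw [this, mul_zero] at h
      exact (Nat.card_pos (α := G)).ne h
    push_cast at hx
    have h2 : (N : ℤ) ∣ a := Int.dvd_of_mul_dvd_mul_right hm hx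
    obtain ⟨b, rfl⟩ := h2
    exact ⟨g ^ b, by rw [← zpow_natCast, ← zpow_mul, mul_comm]⟩
  · rintro ⟨y, rfl⟩
    rw [← pow_mul, h, pow_card_eq_one']

/-- **power residue criterion**: for `N m = q - 1`, `nrm P f ^ m = 1` iff `f(P)` is an `N`-th
power in the residue field -/
theorem nrm_pow_eq_one_iff [Finite k] {N m : ℕ} (hNm : N * m = Nat.card k - 1) {P : Pl k K}
    {f : K} (hf : P.v f = 1) :
    nrm P f ^ m = 1 ↔ ∃ y : Kap P, y ^ N = val P f hf.le := by
  have hq : 1 < Nat.card k := Finite.one_lt_card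
  obtain ⟨s, hs⟩ : Nat.card k - 1 ∣ Nat.card k ^ degP P - 1 := by
    have := Nat.sub_dvd_pow_sub_pow (Nat.card k) 1 (degP P)
    rwa [one_pow] at this
  have hs' : (Nat.card k ^ degP P - 1) / (Nat.card k - 1) = s := by
    rw [hs, Nat.mul_div_cancel_left _ (by omega)]
  have h1 : nrm P f ^ m = 1 ↔ val P f hf.le ^ (s * m) = 1 := by
    rw [pow_mul, ← hs', ← algebraMap_nrm hf, ← map_pow, ← map_one (algebraMap k (Kap P)),
      (algebraMap k (Kap P)).injective.eq_iff, ← Units.val_inj, Units.val_pow_eq_pow_val,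
      Units.val_one]
  let u : (Kap P)ˣ := Units.mk0 _ (val_ne_zero hf)
  have hu : (u : Kap P) = val P f hf.le := rfl
  have hcard : N * (s * m) = Nat.card (Kap P)ˣ := by
    rw [Nat.card_units, card_Kap, hs, ← hNm]; ring
  have h2 := pow_eq_one_iff_exists hcard u
  rw [h1, ← hu, ← Units.val_pow_eq_pow_val, ← Units.val_one, Units.val_inj, h2]
  constructor
  · rintro ⟨y, hy⟩
    exact ⟨y, by rw [← hy, Units.val_pow_eq_pow_val]⟩
  · rintro ⟨y, hy⟩
    by_cases hN : N = 0
    · subst hN
      rw [zero_mul] at hNm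
      omega
    have hy0 : y ≠ 0 := by
      rintro rfl
      rw [zero_pow hN] at hy
      exact u.ne_zero hy.symm
    exact ⟨Units.mk0 y hy0, Units.ext (by rw [Units.val_pow_eq_pow_val]; exact hy)⟩

/-- the character of `h` (`div h = N E`, `N m = q - 1`, `f = h ^ m`) is trivial at `P` iff
`h e ^ N` is an `N`-th power at `P` -/
theorem chiP_eq_one_iff [Finite k] {N m : ℕ} (hNm : N * m = Nat.card k - 1) {h : K} (hh : h ≠ 0)
    {E : Pl k K →₀ ℤ} (hE : divf (k := k) h = N • E) {P : Pl k K} :
    chiP (N * m) (h ^ m) E P = 1 ↔ ∃ y : K, P.v y = 1 ∧ P.v (h * pe P (E P) ^ N - y ^ N) < 1 := by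
  have hv := v_mul_pow hh hE (v_pe P (E P))
  have hN : N ≠ 0 := by
    rintro rfl
    rw [zero_mul] at hNm
    have hq : 1 < Nat.card k := Finite.one_lt_card
    omega
  rw [chiP_pow hh hE, nrm_pow_eq_one_iff hNm hv]
  constructor
  · rintro ⟨y, hy⟩
    obtain ⟨y, rfl⟩ := rs_surjective P y
    have h1 : val P ((y : K) ^ N) (by rw [map_pow]; exact pow_le_one' y.2 N) =
        val P (h * pe P (E P) ^ N) hv.le := by
      rw [val_pow (f := (y : K)) y.2]
      exact hy
    rw [eq_comm, val_eq] at h1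
    refine ⟨y, ?_, h1⟩
    refine le_antisymm y.2 ?_
    by_contra hlt
    rw [not_le] at hlt
    have h2 : rs P y = 0 := rs_eq_zero.mpr hlt
    rw [h2, zero_pow hN] at hy
    exact val_ne_zero hv hy.symm
  · rintro ⟨y, hy, hy'⟩
    refine ⟨val P y hy.le, ?_⟩
    rw [← val_pow hy.le N (by rw [map_pow, hy, one_pow]), eq_comm, val_eq]
    exact hy'

end global

end Crest.Agent.R013.WR5_777
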