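import Mathlib
import Crest.Agent.R013.WR5_777
import Crest.Agent.R013.CntLoc_262

/-!
# R013 / WR6: the character `χ_f` of WR4 satisfies `IsChi` of CntLoc_262 (helper777)
-/

set_option autoImplicit false
set_option linter.all false

namespace Crest.Agent.R013.WR6_777

open WithZero Module
open Crest.Agent.R013.RR7_948 Crest.Agent.R013.RR8_948 Crest.Agent.R013.RR9_948
open Crest.Agent.R013.RR11_948 Crest.Agent.R013.RR12_948
open Crest.Agent.R013.WR2_777 Crest.Agent.R013.WR4_777 Crest.Agent.R013.WR5_777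
open Crest.Agent.R013.PicD_398 Crest.Agent.R013.CntLoc_262

variable {k : Type*} [Field k] [Fintype k] {K : Type*} [Field K] [Algebra k K]
  [Algebra (RatFunc k) K]
  [IsScalarTower k (RatFunc k) K] [FiniteDimensional (RatFunc k) K]
  [Algebra.IsSeparable (RatFunc k) K]

theorem gs_eq (n : ℕ) : gs (Fintype.card k) n
    = (Nat.card k ^ n - 1) / (Nat.card k - 1) := by
  unfold gs
  rw [Nat.card_eq_fintype_card, Nat.geomSum_eq Fintype.one_lt_card]

theorem hn_card (c : kˣ) : c ^ (Fintype.card k - 1) = 1 := by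
  rw [← Nat.card_eq_fintype_card]
  exact pow_card_sub_one c

/-- `IsChi` for any `e` with `v_P(e) = exp (E_P)` -/
theorem isChi_nrm {P : Pl k K} {f : K} {E : Pl k K →₀ ℤ}
    (hf : P.v f = exp (-((Fintype.card k - 1 : ℤ) * E P))) {e : K} (he : P.v e = exp (E P)) :
    IsChi f E P (nrm P (f * e ^ (Fintype.card k - 1)) : k) := by
  refine ⟨e, he, ?_⟩
  have hv := v_fe P he hf
  rw [gs_eq]
  exact v_pow_sub_nrm_lt hv

theorem isChi_chiP {f : K} (hf : f ≠ 0) {E : Pl k K →₀ ℤ}
    (hE : divf (k := k) f = (Fintype.card k - 1) • E) (P : Pl k K) :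
    IsChi f E P (chiP (Fintype.card k - 1) f E P : k) := by
  refine isChi_nrm ?_ (v_pe P (E P))
  rw [v_eq hf, hE, Finsupp.smul_apply, nsmul_eq_mul, Nat.cast_sub Fintype.card_pos]
  push_cast
  rfl

/-- the character `χ_f` of `Pic` (WR4) takes at `P` the value `c` with `IsChi f E P c` -/
theorem isChi_chiA {f : K} (hf : f ≠ 0) {E : Pl k K →₀ ℤ}
    (hE : divf (k := k) f = (Fintype.card k - 1) • E) (P : Pl k K) :
    IsChi f E P (chiA (Fintype.card k - 1) hn_card hf E hE (cls (Finsupp.single P 1))) := by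
  rw [chiA_single _ hn_card hf E hE (v_pe P (E P))]
  exact isChi_chiP hf hE P

end Crest.Agent.R013.WR6_777
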