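import Mathlib
import Crest.Agent.R013.CntA3_560

/-!
# R013 / CntA4: a function field over a finite field has a divisor of degree one (F. K. Schmidt)
(helper560)
-/

set_option autoImplicit false
set_option linter.all false

namespace Crest.Agent.R013.CntA4_560

open Polynomial WithZero Module IsDedekindDomain nonZeroDivisors
open Crest.Agent.R013.RR1_948 Crest.Agent.R013.RR2_948 Crest.Agent.R013.RR3_948
open Crest.Agent.R013.RR4_948 Crest.Agent.R013.RR5_948 Crest.Agent.R013.RR6_948
open Crest.Agent.R013.RR7_948 Crest.Agent.R013.RR8_948 Crest.Agent.R013.RR9_948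
open Crest.Agent.R013.RR11_948 Crest.Agent.R013.RR12_948 Crest.Agent.R013.RR13_948
open Crest.Agent.R013.PicD_398 Crest.Agent.R013.CntA1_560 Crest.Agent.R013.CntA2_560
open Crest.Agent.R013.CntA3_560

variable {k : Type*} [Field k] {K : Type*} [Field K] [Algebra k K] [Algebra (RatFunc k) K]
  [IsScalarTower k (RatFunc k) K] [FiniteDimensional (RatFunc k) K]
  [Algebra.IsSeparable (RatFunc k) K]

section Below

variable {L : Type*} [Field L] [Algebra k L] [Algebra K L] [IsScalarTower k K L]
  [Algebra.IsIntegral K L]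

/-- the place below a place -/
theorem exists_below (Q : Pl k L) : ∃ P : Pl k K, P.v.IsEquiv (Q.v.comap (algebraMap K L)) := by
  obtain ⟨y, hy⟩ : ∃ y : K, 1 < Q.v (algebraMap K L y) := by
    by_contra hcon
    push Not at hcon
    obtain ⟨x, hx⟩ := Q.surj (exp 1)
    have h1 : Q.v x ≤ 1 := le_one_of_integral (S := K) Q.v hcon (Algebra.IsIntegral.isIntegral x)
    rw [hx, ← exp_zero, exp_le_exp] at h1
    norm_num at h1
  exact exists_place (k := k) (Q.v.comap (algebraMap K L)) (fun c hc => by
    rw [Valuation.comap_apply, ← IsScalarTower.algebraMap_apply]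
    exact Q.const c hc) ⟨y, by
      rw [Valuation.comap_apply]
      exact (zero_lt_one.trans hy).ne', by
      rw [Valuation.comap_apply]
      exact hy.ne'⟩

/-- the map of valuation rings -/
noncomputable def intMap {P : Pl k K} {Q : Pl k L}
    (h : P.v.IsEquiv (Q.v.comap (algebraMap K L))) : P.v.integer →+* Q.v.integer :=
  ((algebraMap K L).comp P.v.integer.subtype).codRestrict Q.v.integer (fun a => by
    show Q.v (algebraMap K L a) ≤ 1
    have := a.2
    exact h.le_one_iff_le_one.mp this)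

/-- the map of residue fields -/
noncomputable def resMap {P : Pl k K} {Q : Pl k L}
    (h : P.v.IsEquiv (Q.v.comap (algebraMap K L))) :
    (P.v.integer ⧸ mI P) →+* (Q.v.integer ⧸ mI Q) :=
  Ideal.quotientMap (mI Q) (intMap h) (by
    intro a ha
    rw [Ideal.mem_comap, mem_mI]
    rw [mem_mI] at ha
    exact h.lt_one_iff_lt_one.mp ha)

variable [Finite k]

/-- roots of `X ^ (q ^ r) - X` are congruent to elements of `K` if `r ∣ deg P` -/
theorem exists_congr {P : Pl k K} {Q : Pl k L} (h : P.v.IsEquiv (Q.v.comap (algebraMap K L)))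
    {r : ℕ} (hr : r ≠ 0) (hrP : r ∣ degP P) {c : L} (hc : c ^ (Nat.card k ^ r) = c) :
    ∃ y : K, Q.v (c - algebraMap K L y) < 1 := by
  have hq : 1 < Nat.card k := Finite.one_lt_card
  have hcard := card_quot_eq_pow P (degE_eq P)
  letI : Field (P.v.integer ⧸ mI P) := Ideal.Quotient.field _
  letI : Field (Q.v.integer ⧸ mI Q) := Ideal.Quotient.field _
  have hN : 1 < Nat.card k ^ r := Nat.one_lt_pow hr hq
  have hc1 : Q.v c ≤ 1 := by
    by_contra hcon
    rw [not_le] at hcon
    have h1 : Q.v c < Q.v c ^ (Nat.card k ^ r) := by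
      calc Q.v c = Q.v c ^ 1 := (pow_one _).symm
        _ < _ := pow_lt_pow_right₀ hcon hN
    rw [← map_pow, hc] at h1
    exact lt_irrefl _ h1
  let c' : Q.v.integer := ⟨c, hc1⟩
  let g : (P.v.integer ⧸ mI P)[X] := Polynomial.X ^ (Nat.card k ^ r) - Polynomial.X
  have hg0 : g ≠ 0 := FiniteField.X_pow_card_sub_X_ne_zero _ hN
  have hgs : g.Splits := by
    have h1 := Polynomial.splits_X_pow_nat_card_sub_X (K := P.v.integer ⧸ mI P)
    rw [hcard] at h1
    refine h1.of_dvd ?_ (dvd_pow_pow_sub_self_of_dvd hrP)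
    exact FiniteField.X_pow_card_sub_X_ne_zero _ (Nat.one_lt_pow (degP_pos P).ne' hq)
  have hroot : (g.map (resMap h)).IsRoot (Ideal.Quotient.mk (mI Q) c') := by
    rw [Polynomial.IsRoot.def]
    simp only [g, Polynomial.map_sub, Polynomial.map_pow, Polynomial.map_X, Polynomial.eval_sub,
      Polynomial.eval_pow, Polynomial.eval_X]
    rw [← map_pow, ← map_sub]
    have : c' ^ (Nat.card k ^ r) - c' = 0 := by
      apply Subtype.ext
      show c ^ (Nat.card k ^ r) - c = 0
      rw [hc, sub_self]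
    rw [this, map_zero]
  obtain ⟨y, hy⟩ := hgs.mem_range_of_isRoot hg0 hroot
  obtain ⟨a, rfl⟩ := Ideal.Quotient.mk_surjective y
  refine ⟨a, ?_⟩
  have h1 : Ideal.Quotient.mk (mI Q) (intMap h a) = Ideal.Quotient.mk (mI Q) c' := hy
  rw [eq_comm, ← sub_eq_zero, ← map_sub, Ideal.Quotient.eq_zero_iff_mem, mem_mI] at h1
  exact h1

theorem add_pow_card {r : ℕ} (x y : L) :
    (x - y) ^ (Nat.card k ^ r) = x ^ (Nat.card k ^ r) - y ^ (Nat.card k ^ r) := by
  haveI := Fintype.ofFinite k
  obtain ⟨p, hp⟩ := CharP.exists k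
  haveI := charP_of_injective_algebraMap (algebraMap k L).injective p
  haveI : Fact p.Prime := ⟨CharP.char_is_prime k p⟩
  obtain ⟨n, _, hn⟩ := FiniteField.card k p
  rw [Nat.card_eq_fintype_card, hn, ← pow_mul]
  exact sub_pow_char_pow x y _

theorem freeAt_of_dvd {r : ℕ} (hr : r ≠ 0) (hrP : ∀ P : Pl k K, r ∣ degP P)
    (htop : Algebra.adjoin K {c : L | c ^ (Nat.card k ^ r) = c} = ⊤) (Q : Pl k L) :
    FreeAt K Q := by
  intro σ hσ
  have hq : 1 < Nat.card k := Finite.one_lt_card
  have hN : 1 < Nat.card k ^ r := Nat.one_lt_pow hr hq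
  obtain ⟨P, hP⟩ := exists_below (K := K) Q
  have key : ∀ c : L, c ^ (Nat.card k ^ r) = c → σ c = c := by
    intro c hc
    obtain ⟨y, hy⟩ := exists_congr hP hr (hrP P) hc
    have h1 : Q.v (σ c - algebraMap K L y) < 1 := by
      have := hσ (c - algebraMap K L y)
      rw [map_sub, σ.commutes] at this
      rw [this]
      exact hy
    have h2 : Q.v (σ c - c) < 1 := by
      have e : σ c - c = (σ c - algebraMap K L y) - (c - algebraMap K L y) := by ring
      rw [e]
      exact (Valuation.map_sub _ _ _).trans_lt (max_lt h1 hy)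
    by_contra hne
    have hu : (σ c - c) ^ (Nat.card k ^ r) = σ c - c := by
      rw [add_pow_card, ← map_pow, hc]
    have hu0 : σ c - c ≠ 0 := sub_ne_zero.mpr hne
    have hv0 : Q.v (σ c - c) ≠ 0 := (Valuation.ne_zero_iff _).mpr hu0
    have h3 : Q.v (σ c - c) ^ (Nat.card k ^ r) < Q.v (σ c - c) := by
      calc _ < Q.v (σ c - c) ^ 1 := pow_lt_pow_right_of_lt_one₀ (zero_lt_iff.mpr hv0) h2 hN
        _ = _ := pow_one _
    rw [← map_pow, hu] at h3
    exact lt_irrefl _ h3
  have h1 : ∀ x ∈ Algebra.adjoin K {c : L | c ^ (Nat.card k ^ r) = c}, σ x = x := by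
    intro x hx
    induction hx using Algebra.adjoin_induction with
    | mem x hx => exact key x hx
    | algebraMap r => exact σ.commutes r
    | add x y _ _ hx hy => rw [map_add, hx, hy]
    | mul x y _ _ hx hy => rw [map_mul, hx, hy]
  ext x
  exact h1 x (by rw [htop]; trivial)

end Below

variable [Finite k]

theorem eq_one_of_dvd_degP (hc : algebraicClosure k K = ⊥) {r : ℕ} (hr : r ≠ 0)
    (hrP : ∀ P : Pl k K, r ∣ degP P) : r = 1 := by
  classical
  have hq : 1 < Nat.card k := Finite.one_lt_card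
  have hN : 1 < Nat.card k ^ r := Nat.one_lt_pow hr hq
  let f : K[X] := Polynomial.X ^ (Nat.card k ^ r) - Polynomial.X
  have hf0 : f ≠ 0 := FiniteField.X_pow_card_sub_X_ne_zero _ hN
  obtain ⟨p, hp⟩ := CharP.exists k
  haveI := charP_of_injective_algebraMap (algebraMap k K).injective p
  haveI : Fact p.Prime := ⟨CharP.char_is_prime k p⟩
  have hsep : f.Separable := by
    haveI := Fintype.ofFinite k
    apply galois_poly_separable p
    obtain ⟨n, _, hn⟩ := FiniteField.card k p
    rw [Nat.card_eq_fintype_card, hn, ← pow_mul]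
    exact dvd_pow_self _ (mul_ne_zero n.ne_zero hr)
  let L := f.SplittingField
  haveI : IsScalarTower k (RatFunc k) L := by
    refine IsScalarTower.of_algebraMap_eq fun x => ?_
    rw [IsScalarTower.algebraMap_apply k K L, IsScalarTower.algebraMap_apply (RatFunc k) K L,
      ← IsScalarTower.algebraMap_apply k (RatFunc k) K]
  haveI : FiniteDimensional (RatFunc k) L := FiniteDimensional.trans (RatFunc k) K L
  haveI : IsGalois K L := IsGalois.of_separable_splitting_field hsep
  haveI : Algebra.IsSeparable (RatFunc k) L := Algebra.IsSeparable.trans (RatFunc k) K L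
  have htop : Algebra.adjoin K {c : L | c ^ (Nat.card k ^ r) = c} = ⊤ := by
    rw [← SplittingField.adjoin_rootSet f]
    congr 1
    ext c
    rw [mem_rootSet_of_ne hf0]
    simp only [f, Set.mem_ofPred_eq, map_sub, map_pow, aeval_X]
    rw [sub_eq_zero]
  have h1 : finrank K L = 1 := finrank_eq_one_of_free (K := K) (L := L) (k := k) ∅
    (fun Q _ => freeAt_of_dvd hr hrP htop Q)
  have h2 : f.Splits := by
    rw [IsSplittingField.splits_iff L f]
    exact (Subalgebra.bot_eq_top_of_finrank_eq_one h1).symm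
  have h3 : Fintype.card (f.rootSet K) = Nat.card k ^ r := by
    rw [card_rootSet_eq_natDegree hsep (by rw [Algebra.algebraMap_self, Polynomial.map_id]; exact h2)]
    exact FiniteField.X_pow_card_sub_X_natDegree_eq _ hN
  -- the roots are constants
  have h4 : ∀ c : f.rootSet K, ∃ a : k, algebraMap k K a = c := by
    rintro ⟨c, hcr⟩
    rw [mem_rootSet_of_ne hf0] at hcr
    have h5 : IsAlgebraic k c := by
      refine ⟨Polynomial.X ^ (Nat.card k ^ r) - Polynomial.X,
        FiniteField.X_pow_card_sub_X_ne_zero _ hN, ?_⟩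
      simpa [f] using hcr
    have h6 : c ∈ algebraicClosure k K := mem_algebraicClosure_iff.mpr h5
    rw [hc] at h6
    exact h6
  choose a ha using h4
  have h5 : Function.Injective a := by
    intro x y h
    apply Subtype.ext
    rw [← ha, ← ha, h]
  haveI := Fintype.ofFinite k
  have h6 := Fintype.card_le_of_injective a h5
  rw [h3, ← Nat.card_eq_fintype_card] at h6
  have h7 : Nat.card k ^ r ≤ Nat.card k ^ 1 := by rwa [pow_one]
  have h8 := (Nat.pow_le_pow_iff_right hq).mp h7
  omega

/-- **F. K. Schmidt**: there is a divisor of degree one -/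
theorem exists_degD_one (hc : algebraicClosure k K = ⊥) : ∃ D : Pl k K →₀ ℤ, degD D = 1 := by
  -- the image of the degree is generated by some `r`
  obtain ⟨a, ha⟩ := Int.subgroup_cyclic ((degHom (k := k) (K := K)).range)
  have hmem : ∀ D : Pl k K →₀ ℤ, degD D ∈ AddSubgroup.closure {a} := by
    intro D
    rw [← ha]
    exact ⟨D, rfl⟩
  have hdvd : ∀ D : Pl k K →₀ ℤ, a ∣ degD D := by
    intro D
    obtain ⟨n, hn⟩ := AddSubgroup.mem_closure_singleton.mp (hmem D)
    exact ⟨n, by rw [← hn, smul_eq_mul, mul_comm]⟩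
  obtain ⟨P0, -⟩ := exists_notMem (k := k) (K := K) ∅
  have ha0 : a.natAbs ≠ 0 := by
    intro h
    have h1 := hdvd (Finsupp.single P0 1)
    rw [Int.natAbs_eq_zero.mp h, zero_dvd_iff, degD_single, one_mul] at h1
    have := degP_pos P0
    omega
  have h1 := eq_one_of_dvd_degP hc ha0 (fun P => by
    have h1 := hdvd (Finsupp.single P 1)
    rw [degD_single, one_mul] at h1
    have h2 := Int.natAbs_dvd_natAbs.mpr h1
    rwa [Int.natAbs_natCast] at h2)
  have h2 : (1 : ℤ) ∈ (degHom (k := k) (K := K)).range := by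
    rw [ha, AddSubgroup.mem_closure_singleton]
    rcases Int.natAbs_eq_iff.mp h1 with h | h
    · exact ⟨1, by rw [h]; norm_num⟩
    · exact ⟨-1, by rw [h]; norm_num⟩
  obtain ⟨D, hD⟩ := h2
  exact ⟨D, hD⟩

theorem degPic_surjective (hc : algebraicClosure k K = ⊥) :
    Function.Surjective (degPic (k := k) (K := K)) := by
  intro n
  obtain ⟨D, hD⟩ := exists_degD_one (k := k) (K := K) hc
  refine ⟨n • cls D, ?_⟩
  rw [map_zsmul, degPic_cls, hD, smul_eq_mul, mul_one]

theorem exists_degD_eq (hc : algebraicClosure k K = ⊥) (n : ℤ) : ∃ D : Pl k K →₀ ℤ, degD D = n := by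
  obtain ⟨D, hD⟩ := exists_degD_one (k := k) (K := K) hc
  refine ⟨n • D, ?_⟩
  have h : degHom (n • D) = n • degHom D := map_zsmul _ _ _
  have h1 : degD (n • D) = n • degD D := h
  rw [h1, hD, smul_eq_mul, mul_one]

theorem card_picF_hc (hc : algebraicClosure k K = ⊥) (n : ℤ) :
    (picF (k := k) (K := K) n).card = Nat.card (Pic0 k K) := by
  obtain ⟨D, hD⟩ := exists_degD_eq (k := k) (K := K) hc n
  exact card_picF hD

/-- the class number formula for all `n > 2g - 2` -/
theorem card_eff (hc : algebraicClosure k K = ⊥) {n : ℤ} (hn : 2 * (gen k K : ℤ) - 2 < n) :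
    ((Nat.card k : ℝ) - 1) * (eff (k := k) (K := K) n).card =
      Nat.card (Pic0 k K) * ((Nat.card k : ℝ) ^ (n + 1 - gen k K) - 1) := by
  obtain ⟨D, hD⟩ := exists_degD_eq (k := k) (K := K) hc n
  exact card_eff_hc hc hD hn

end Crest.Agent.R013.CntA4_560
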