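import Mathlib
import Crest.Agent.R013.WR5_777
import Crest.Agent.R013.CntA4_560

/-!
# R013 / Z1: locally `N`-th power implies `N`-th power, over a finite field containing `μ_N`
(helper777), part (Z1) of BP-R6
-/

set_option autoImplicit false
set_option linter.all false

namespace Crest.Agent.R013.Z1_777

open WithZero Module Polynomial
open Crest.Agent.R013.RR1_948 Crest.Agent.R013.RR2_948
open Crest.Agent.R013.RR7_948 Crest.Agent.R013.RR8_948 Crest.Agent.R013.RR9_948
open Crest.Agent.R013.RR11_948 Crest.Agent.R013.RR12_948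
open Crest.Agent.R013.WR2_777 Crest.Agent.R013.WR4_777 Crest.Agent.R013.WR5_777
open Crest.Agent.R013.PicD_398 Crest.Agent.R013.CntA1_560 Crest.Agent.R013.CntA3_560
open Crest.Agent.R013.CntA4_560

section roots

variable {k : Type*} [Field k] [Finite k] {N m : ℕ}

theorem exists_prim (hNm : N * m = Nat.card k - 1) : ∃ ζ : k, IsPrimitiveRoot ζ N := by
  have hq : 1 < Nat.card k := Finite.one_lt_card
  obtain ⟨g, hg⟩ := IsCyclic.exists_ofOrder_eq_natCard (α := kˣ)
  rw [Nat.card_units, ← hNm] at hg
  have hm : m ≠ 0 := by rintro rfl; omega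
  have h1 : orderOf (g ^ m) = N := by
    rw [orderOf_pow_of_dvd hm (by rw [hg]; exact dvd_mul_left m N), hg,
      Nat.mul_div_cancel _ (Nat.pos_of_ne_zero hm)]
  have h2 : IsPrimitiveRoot (g ^ m) N := h1 ▸ IsPrimitiveRoot.orderOf (g ^ m)
  exact ⟨_, IsPrimitiveRoot.coe_units_iff.mpr h2⟩

theorem N_ne_zero (hNm : N * m = Nat.card k - 1) : N ≠ 0 := by
  rintro rfl
  have hq : 1 < Nat.card k := Finite.one_lt_card
  omega

theorem cast_ne_zero (hNm : N * m = Nat.card k - 1) : (N : k) ≠ 0 := by
  obtain ⟨ζ, hζ⟩ := exists_prim hNm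
  have : NeZero N := ⟨N_ne_zero hNm⟩
  exact (hζ.neZero').out

theorem pow_sub_one_eq_prod {ζ : k} (hζ : IsPrimitiveRoot ζ N) (hN : 0 < N)
    {R : Type*} [Field R] [Algebra k R] (x : R) :
    x ^ N - 1 = ∏ η ∈ nthRootsFinset N (1 : k), (x - algebraMap k R η) := by
  have h := congrArg (fun p => aeval x p) (X_pow_sub_one_eq_prod hN hζ)
  simp only [map_sub, map_pow, aeval_X, map_one, map_prod, aeval_C] at h
  exact h

end roots

variable {k : Type*} [Field k] {K : Type*} [Field K] [Algebra k K] [Algebra (RatFunc k) K]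
  [IsScalarTower k (RatFunc k) K] [FiniteDimensional (RatFunc k) K]
  [Algebra.IsSeparable (RatFunc k) K]

section free

variable [Finite k] {N m : ℕ} {L : Type*} [Field L] [Algebra k L] [Algebra K L]
  [IsScalarTower k K L] [Algebra.IsIntegral K L]

/-- if `h t ^ N` is congruent to `1` at the place below `Q` then an automorphism preserving `Q`
fixes the `N`-th roots of `h` -/
theorem fix_of_congr (hNm : N * m = Nat.card k - 1) {h t : K} (ht : t ≠ 0) {P : Pl k K}
    {Q : Pl k L} (hPQ : P.v.IsEquiv (Q.v.comap (algebraMap K L)))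
    (hc : P.v (h * t ^ N - 1) < 1) {σ : L ≃ₐ[K] L} (hσ : ∀ x, Q.v (σ x) = Q.v x)
    {α : L} (hα : α ^ N = algebraMap K L h) : σ α = α := by
  classical
  obtain ⟨ζ, hζ⟩ := exists_prim hNm
  have hN0 := N_ne_zero hNm
  have hN : 0 < N := Nat.pos_of_ne_zero hN0
  set β := α * algebraMap K L t with hβ
  have hβN : β ^ N = algebraMap K L (h * t ^ N) := by
    rw [hβ, mul_pow, hα, map_mul, map_pow]
  have h1 : Q.v (β ^ N - 1) < 1 := by
    have h2 := (hPQ.lt_one_iff_lt_one (x := h * t ^ N - 1)).mp hc
    rw [Valuation.comap_apply] at h2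
    rw [hβN, ← map_one (algebraMap K L), ← map_sub]
    exact h2
  -- `β` is congruent to a constant
  obtain ⟨η, hη⟩ : ∃ η : k, Q.v (β - algebraMap k L η) < 1 := by
    by_contra hcon
    push Not at hcon
    rw [pow_sub_one_eq_prod hζ hN, map_prod] at h1
    exact absurd h1 (not_lt.mpr (Finset.one_le_prod'' hcon))
  have hσβ : Q.v (σ β - algebraMap k L η) < 1 := by
    have h2 := hσ (β - algebraMap k L η)
    have h3 : σ (algebraMap k L η) = algebraMap k L η := by
      rw [IsScalarTower.algebraMap_apply k K L]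
      exact σ.commutes _
    rw [map_sub, h3] at h2
    rw [h2]
    exact hη
  have hdiff : Q.v (σ β - β) < 1 := by
    have e : σ β - β = (σ β - algebraMap k L η) - (β - algebraMap k L η) := by ring
    rw [e]
    exact (Valuation.map_sub _ _ _).trans_lt (max_lt hσβ hη)
  have hvβ : Q.v β = 1 := by
    have h2 : Q.v (β ^ N) = 1 := by
      have e : β ^ N = (β ^ N - 1) + 1 := by ring
      rw [e, Valuation.map_add_eq_of_lt_right _ (by rw [map_one]; exact h1), map_one]
    rw [map_pow] at h2
    exact (pow_eq_one_iff_of_nonneg zero_le hN0).mp h2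
  have hβ0 : β ≠ 0 := by
    rintro h0
    rw [h0, map_zero] at hvβ
    exact zero_ne_one hvβ
  -- `σ β = ρ β` with `ρ` an `N`-th root of unity
  have hρN : (σ β / β) ^ N = 1 := by
    rw [div_pow, ← map_pow, hβN, σ.commutes, ← hβN, div_self (pow_ne_zero _ hβ0)]
  have hρ : ∃ ρ : k, σ β / β = algebraMap k L ρ := by
    have h2 := pow_sub_one_eq_prod hζ hN (σ β / β)
    rw [hρN, sub_self, eq_comm, Finset.prod_eq_zero_iff] at h2
    obtain ⟨ρ, _, hρ⟩ := h2
    exact ⟨ρ, sub_eq_zero.mp hρ⟩
  obtain ⟨ρ, hρ⟩ := hρ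
  have h4 : σ β = algebraMap k L ρ * β := by
    rw [← hρ, div_mul_cancel₀ _ hβ0]
  have h5 : Q.v (algebraMap k L (ρ - 1)) < 1 := by
    have e : σ β - β = algebraMap k L (ρ - 1) * β := by
      rw [h4, map_sub, map_one]; ring
    rw [e, map_mul, hvβ, mul_one] at hdiff
    exact hdiff
  have h6 : ρ = 1 := by
    by_contra hne
    rw [Q.const _ (sub_ne_zero.mpr hne)] at h5
    exact lt_irrefl _ h5
  rw [h6, map_one, one_mul, hβ, map_mul, σ.commutes] at h4
  exact mul_right_cancel₀ ((_root_.map_ne_zero _).mpr ht) h4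

end free

/-- **(Z1)**: a function `h` with `div h = N E` whose character `χ_h` is trivial is an `N`-th
power -/
theorem exists_root [Finite k] {N m : ℕ} (hNm : N * m = Nat.card k - 1) {h : K} (hh : h ≠ 0)
    {E : Pl k K →₀ ℤ} (hE : divf (k := k) h = N • E)
    (htriv : ∀ P : Pl k K, chiP (N * m) (h ^ m) E P = 1) : ∃ u : K, u ^ N = h := by
  classical
  have hN0 := N_ne_zero hNm
  have hN : 0 < N := Nat.pos_of_ne_zero hN0
  have hNk : (N : K) ≠ 0 := by
    have := cast_ne_zero hNm
    rw [← map_natCast (algebraMap k K)]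
    exact (_root_.map_ne_zero _).mpr this
  let f : K[X] := X ^ N - C h
  have hf0 : f ≠ 0 := X_pow_sub_C_ne_zero hN h
  have hsep : f.Separable := separable_X_pow_sub_C h hNk hh
  let L := f.SplittingField
  haveI : IsScalarTower k (RatFunc k) L := by
    refine IsScalarTower.of_algebraMap_eq fun x => ?_
    rw [IsScalarTower.algebraMap_apply k K L, IsScalarTower.algebraMap_apply (RatFunc k) K L,
      ← IsScalarTower.algebraMap_apply k (RatFunc k) K]
  haveI : FiniteDimensional (RatFunc k) L := FiniteDimensional.trans (RatFunc k) K L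
  haveI : IsGalois K L := IsGalois.of_separable_splitting_field hsep
  haveI : Algebra.IsSeparable (RatFunc k) L := Algebra.IsSeparable.trans (RatFunc k) K L
  have h1 : finrank K L = 1 := by
    refine finrank_eq_one_of_free (K := K) (L := L) (k := k) ∅ (fun Q _ σ hσ => ?_)
    obtain ⟨P, hP⟩ := exists_below (K := K) Q
    obtain ⟨y, hy, hy'⟩ := (chiP_eq_one_iff hNm hh hE).mp (htriv P)
    have hy0 : y ≠ 0 := by
      rintro rfl
      rw [map_zero] at hy
      exact zero_ne_one hy
    have ht : pe P (E P) / y ≠ 0 := div_ne_zero (pe_ne_zero P _) hy0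
    have hc : P.v (h * (pe P (E P) / y) ^ N - 1) < 1 := by
      have e : h * (pe P (E P) / y) ^ N - 1 = (h * pe P (E P) ^ N - y ^ N) / y ^ N := by
        rw [div_pow]
        field_simp
      rw [e, map_div₀, map_pow, hy, one_pow, div_one]
      exact hy'
    have h2 : ∀ x ∈ Algebra.adjoin K (f.rootSet L), σ x = x := by
      intro x hx
      induction hx using Algebra.adjoin_induction with
      | mem x hx =>
        rw [mem_rootSet_of_ne hf0] at hx
        simp only [f, map_sub, map_pow, aeval_X, aeval_C] at hx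
        exact fix_of_congr hNm ht hP hc hσ (sub_eq_zero.mp hx)
      | algebraMap r => exact σ.commutes r
      | add x y _ _ hx hy => rw [map_add, hx, hy]
      | mul x y _ _ hx hy => rw [map_mul, hx, hy]
    ext x
    exact h2 x (by rw [SplittingField.adjoin_rootSet f]; trivial)
  have h2 : f.Splits := by
    rw [IsSplittingField.splits_iff L f]
    exact (Subalgebra.bot_eq_top_of_finrank_eq_one h1).symm
  obtain ⟨u, hu⟩ := h2.exists_eval_eq_zero (by
    rw [degree_X_pow_sub_C hN]
    exact_mod_cast hN0)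
  refine ⟨u, ?_⟩
  simp only [f, eval_sub, eval_pow, eval_X, eval_C] at hu
  exact sub_eq_zero.mp hu

end Crest.Agent.R013.Z1_777
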