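import Mathlib
import Crest.Agent.R013.Z1_777

/-!
# R013 / Z2: every character of `Pic k K` killed by `N` is `χ_h` for some `h` with `div h = N E`
(`k` finite, `N ∣ #k - 1`) (helper777), part (Z2) of BP-R6
-/

set_option autoImplicit false
set_option linter.all false

namespace Crest.Agent.R013.Z2_777

open WithZero Module Polynomial
open Crest.Agent.R013.RR1_948 Crest.Agent.R013.RR2_948
open Crest.Agent.R013.RR7_948 Crest.Agent.R013.RR8_948 Crest.Agent.R013.RR9_948
open Crest.Agent.R013.RR11_948 Crest.Agent.R013.RR12_948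
open Crest.Agent.R013.WR2_777 Crest.Agent.R013.WR4_777 Crest.Agent.R013.WR5_777
open Crest.Agent.R013.PicD_398 Crest.Agent.R013.CntA1_560 Crest.Agent.R013.CntA3_560
open Crest.Agent.R013.CntA4_560 Crest.Agent.R013.Z1_777

section groups

theorem card_quot_range {G : Type*} [AddCommGroup G] [Finite G] (f : G →+ G) :
    Nat.card (G ⧸ f.range) = Nat.card f.ker := by
  have h1 := AddSubgroup.card_mul_index f.range
  have h2 := AddSubgroup.card_mul_index f.ker
  rw [AddSubgroup.index_ker] at h2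
  have h3 : 0 < Nat.card f.range := Nat.card_pos
  have h4 : f.range.index = Nat.card (G ⧸ f.range) := rfl
  rw [← h4]
  exact Nat.eq_of_mul_eq_mul_left h3 (by rw [h1, ← h2, mul_comm])

theorem card_quot_range' {G : Type*} [CommGroup G] [Finite G] (f : G →* G) :
    Nat.card (G ⧸ f.range) = Nat.card f.ker := by
  have h1 := Subgroup.card_mul_index f.range
  have h2 := Subgroup.card_mul_index f.ker
  rw [Subgroup.index_ker] at h2
  have h3 : 0 < Nat.card f.range := Nat.card_pos
  have h4 : f.range.index = Nat.card (G ⧸ f.range) := rfl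
  rw [← h4]
  exact Nat.eq_of_mul_eq_mul_left h3 (by rw [h1, ← h2, mul_comm])

/-- `G / N G` -/
abbrev QN (G : Type*) [AddCommGroup G] (N : ℕ) := G ⧸ (nsmulAddMonoidHom N : G →+ G).range

theorem QN_nsmul {G : Type*} [AddCommGroup G] (N : ℕ) (b : QN G N) : N • b = 0 := by
  obtain ⟨z, rfl⟩ := QuotientAddGroup.mk_surjective b
  rw [← QuotientAddGroup.mk_nsmul, QuotientAddGroup.eq_zero_iff]
  exact ⟨z, rfl⟩

/-- a homomorphism killed by `N` as a homomorphism on `G / N G` -/
noncomputable def toHom {G : Type*} [AddCommGroup G] {M : Type*} [CommGroup M] (N : ℕ)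
    (ψ : G →+ Additive M) (hψ : ∀ z, N • ψ z = 0) : Multiplicative (QN G N) →* M where
  toFun b := ((QuotientAddGroup.lift _ ψ (by
    rintro _ ⟨z, rfl⟩
    show ψ (N • z) = 0
    rw [map_nsmul, hψ]) : QN G N →+ Additive M) b.toAdd).toMul
  map_one' := by
    rw [toAdd_one, map_zero]
    rfl
  map_mul' a b := by
    rw [toAdd_mul, map_add]
    rfl

theorem toHom_mk {G : Type*} [AddCommGroup G] {M : Type*} [CommGroup M] (N : ℕ)
    (ψ : G →+ Additive M) (hψ : ∀ z, N • ψ z = 0) (z : G) :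
    toHom N ψ hψ (Multiplicative.ofAdd (QuotientAddGroup.mk z)) = (ψ z).toMul := rfl

theorem toHom_inj {G : Type*} [AddCommGroup G] {M : Type*} [CommGroup M] {N : ℕ}
    {ψ ψ' : G →+ Additive M} {hψ : ∀ z, N • ψ z = 0} {hψ' : ∀ z, N • ψ' z = 0}
    (h : toHom N ψ hψ = toHom N ψ' hψ') : ψ = ψ' := by
  ext z
  have h1 := DFunLike.congr_fun h (Multiplicative.ofAdd (QuotientAddGroup.mk z))
  rw [toHom_mk, toHom_mk] at h1
  exact h1

end groups

variable {k : Type*} [Field k] {K : Type*} [Field K] [Algebra k K] [Algebra (RatFunc k) K]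
  [IsScalarTower k (RatFunc k) K] [FiniteDimensional (RatFunc k) K]
  [Algebra.IsSeparable (RatFunc k) K]

/-- homomorphisms on `Pic` are determined by their values on places -/
theorem pic_hom_ext {G : Type*} [AddCommGroup G] {ψ ψ' : Pic k K →+ G}
    (h : ∀ P : Pl k K, ψ (cls (Finsupp.single P 1)) = ψ' (cls (Finsupp.single P 1))) :
    ψ = ψ' := by
  have h1 : ψ.comp cls = ψ'.comp cls := by
    refine Finsupp.addHom_ext' fun P => ?_
    refine AddMonoidHom.ext_int ?_
    exact h P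
  refine DFunLike.ext _ _ fun z => ?_
  obtain ⟨D, rfl⟩ := cls_surjective z
  exact DFunLike.congr_fun h1 D

theorem card_QN_le (hc : ∃ c₀ : Pic k K, degPic c₀ = 1) {N : ℕ} (hN : N ≠ 0)
    [Finite (Pic0 k K)] :
    Finite (QN (Pic k K) N) ∧ Nat.card (QN (Pic k K) N) ≤ N * Nat.card (QN (Pic0 k K) N) := by
  obtain ⟨c₀, hc₀⟩ := hc
  let g : QN (Pic0 k K) N →+ QN (Pic k K) N :=
    QuotientAddGroup.map _ _ (Pic0 k K).subtype (by
      rintro _ ⟨z, rfl⟩
      exact ⟨(z : Pic k K), rfl⟩)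
  have hg : ∀ z : Pic0 k K, g (QuotientAddGroup.mk z) = QuotientAddGroup.mk (z : Pic k K) :=
    fun z => rfl
  let F : Fin N × QN (Pic0 k K) N → QN (Pic k K) N := fun x =>
    (x.1 : ℕ) • (QuotientAddGroup.mk c₀) + g x.2
  have hF : Function.Surjective F := by
    intro b
    obtain ⟨z, rfl⟩ := QuotientAddGroup.mk_surjective b
    set d := degPic z with hd
    have hw : z - d • c₀ ∈ Pic0 k K := by
      rw [mem_Pic0, map_sub, map_zsmul, hc₀, ← hd]
      simp
    have hN' : (0 : ℤ) < N := by exact_mod_cast Nat.pos_of_ne_zero hN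
    have hmod := Int.emod_nonneg d hN'.ne'
    have hlt := Int.emod_lt_of_pos d hN'
    refine ⟨(⟨(d % N).toNat, by omega⟩, QuotientAddGroup.mk ⟨z - d • c₀, hw⟩), ?_⟩
    show ((d % N).toNat) • (QuotientAddGroup.mk c₀ : QN (Pic k K) N)
      + g (QuotientAddGroup.mk ⟨z - d • c₀, hw⟩) = _
    rw [hg]
    have h1 : ((d % N).toNat) • (QuotientAddGroup.mk c₀ : QN (Pic k K) N)
        = d • (QuotientAddGroup.mk c₀ : QN (Pic k K) N) := by
      have h2 : ((d % N).toNat : ℤ) = d - (d / N) * N := by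
        rw [Int.toNat_of_nonneg hmod, Int.emod_def, mul_comm]
      rw [← natCast_zsmul, h2, sub_zsmul, mul_zsmul, natCast_zsmul, QN_nsmul, zsmul_zero,
        neg_zero, add_zero]
    rw [h1, ← QuotientAddGroup.mk_zsmul, ← QuotientAddGroup.mk_add]
    congr 1
    rw [add_sub_cancel]
  have hfin : Finite (QN (Pic0 k K) N) := inferInstance
  refine ⟨Finite.of_surjective F hF, ?_⟩
  have h1 := Nat.card_le_card_of_surjective F hF
  have h2 : Nat.card (Fin N) = N := by simp
  rwa [Nat.card_prod, h2] at h1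

section chiOf

variable [Finite k] {N m : ℕ}

theorem hn_of (hNm : N * m = Nat.card k - 1) (c : kˣ) : c ^ (N * m) = 1 := by
  rw [hNm]; exact pow_card_sub_one c

/-- the character `χ_h^{(N)}` of `Pic`, `div h = N E`, `N m = #k - 1` -/
noncomputable def chiOf (hNm : N * m = Nat.card k - 1) {h : K} (hh : h ≠ 0) (E : Pl k K →₀ ℤ)
    (hE : divf (k := k) h = N • E) : Pic k K →+ Additive kˣ :=
  chiPic (N * m) (hn_of hNm) (pow_ne_zero m hh) E (by rw [divf_pow hh, hE, smul_smul, mul_comm])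

theorem chiOf_single (hNm : N * m = Nat.card k - 1) {h : K} (hh : h ≠ 0) (E : Pl k K →₀ ℤ)
    (hE : divf (k := k) h = N • E) (P : Pl k K) :
    (chiOf hNm hh E hE (cls (Finsupp.single P 1))).toMul = chiP (N * m) (h ^ m) E P := by
  unfold chiOf
  rw [chiPic_cls, pw_single, zpow_one]

theorem chiOf_killed (hNm : N * m = Nat.card k - 1) {h : K} (hh : h ≠ 0) (E : Pl k K →₀ ℤ)
    (hE : divf (k := k) h = N • E) (z : Pic k K) : N • chiOf hNm hh E hE z = 0 := by
  have h1 : N • chiOf hNm hh E hE = 0 := by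
    refine pic_hom_ext fun P => ?_
    rw [AddMonoidHom.nsmul_apply, AddMonoidHom.zero_apply]
    apply Additive.toMul.injective
    rw [toMul_nsmul, chiOf_single, chiP_pow hh hE, ← pow_mul, mul_comm m N, hn_of hNm]
    rfl
  exact DFunLike.congr_fun h1 z

/-- two pairs with the same character differ by an `N`-th power -/
theorem eq_of_chiOf_eq (hNm : N * m = Nat.card k - 1) {h h' : K} (hh : h ≠ 0) (hh' : h' ≠ 0)
    {E E' : Pl k K →₀ ℤ} (hE : divf (k := k) h = N • E) (hE' : divf (k := k) h' = N • E')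
    (heq : chiOf hNm hh E hE = chiOf hNm hh' E' hE') :
    ∃ u : K, u ≠ 0 ∧ h = u ^ N * h' ∧ E = divf (k := k) u + E' := by
  have hN0 := N_ne_zero hNm
  have hinv : divf (k := k) h'⁻¹ = N • (-E') := by rw [divf_inv hh', hE', smul_neg]
  have hdiv : divf (k := k) (h * h'⁻¹) = N • (E + -E') := by
    rw [divf_mul hh (inv_ne_zero hh'), hE, hinv, smul_add]
  have hne : h * h'⁻¹ ≠ 0 := mul_ne_zero hh (inv_ne_zero hh')
  have hpw : ∀ {a : K} (ha : a ≠ 0) {A : Pl k K →₀ ℤ} (hA : divf (k := k) a = N • A),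
      divf (k := k) (a ^ m) = (N * m) • A := by
    intro a ha A hA
    rw [divf_pow ha, hA, smul_smul, mul_comm]
  have htriv : ∀ P : Pl k K, chiP (N * m) ((h * h'⁻¹) ^ m) (E + -E') P = 1 := by
    intro P
    have h1 := congrArg (fun ψ : Pic k K →+ Additive kˣ =>
      (ψ (cls (Finsupp.single P 1))).toMul) heq
    simp only [chiOf_single] at h1
    rw [mul_pow, chiP_mul (hn_of hNm) (pow_ne_zero _ hh) (pow_ne_zero _ (inv_ne_zero hh'))
      (hpw hh hE) (hpw (inv_ne_zero hh') hinv), h1,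
      ← chiP_mul (hn_of hNm) (pow_ne_zero _ hh') (pow_ne_zero _ (inv_ne_zero hh'))
      (hpw hh' hE') (hpw (inv_ne_zero hh') hinv), ← mul_pow, mul_inv_cancel₀ hh', one_pow,
      add_neg_cancel]
    have h2 := chiP_nth_power (K := K) (n := N * m) (hn_of hNm) one_ne_zero P
    rw [one_pow, divf_one] at h2
    exact h2
  obtain ⟨u, hu⟩ := exists_root hNm hne hdiv htriv
  have hu0 : u ≠ 0 := by
    rintro rfl
    rw [zero_pow hN0] at hu
    exact hne hu.symm
  refine ⟨u, hu0, ?_, ?_⟩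
  · rw [hu, mul_assoc, inv_mul_cancel₀ hh', mul_one]
  · rw [← hu, divf_pow hu0] at hdiv
    ext P
    have h3 := DFunLike.congr_fun hdiv P
    rw [Finsupp.smul_apply, Finsupp.smul_apply, Finsupp.add_apply, Finsupp.neg_apply] at h3
    rw [Finsupp.add_apply]
    have h4 := smul_right_injective ℤ hN0 h3
    linarith

end chiOf

/-- **(Z2)**: every homomorphism `Pic → k^*` killed by `N` is a `χ_h` -/
theorem exists_chiOf [Finite k] (hc : algebraicClosure k K = ⊥) {N m : ℕ}
    (hNm : N * m = Nat.card k - 1) (ψ : Pic k K →+ Additive kˣ) (hψ : ∀ z, N • ψ z = 0) :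
    ∃ (h : K) (hh : h ≠ 0) (E : Pl k K →₀ ℤ) (hE : divf (k := k) h = N • E),
      ψ = chiOf hNm hh E hE := by
  classical
  have hN0 := N_ne_zero hNm
  obtain ⟨ζ, hζ⟩ := exists_prim hNm
  have hNe : NeZero N := ⟨hN0⟩
  -- a class of degree one
  obtain ⟨D1, hD1⟩ := exists_degD_one (k := k) (K := K) hc
  have hdeg : ∃ c₀ : Pic k K, degPic c₀ = 1 := ⟨cls D1, by rw [degPic_cls, hD1]⟩
  obtain ⟨hfinB, hcardB⟩ := card_QN_le hdeg hN0
  -- the target
  let B := Multiplicative (QN (Pic k K) N)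
  have hexp : Monoid.exponent B ∣ N := Monoid.exponent_dvd_of_forall_pow_eq_one fun b =>
    QN_nsmul N b.toAdd
  have hroots : HasEnoughRootsOfUnity k N := ⟨⟨ζ, hζ⟩, rootsOfUnity.isCyclic k N⟩
  have hroots' : HasEnoughRootsOfUnity k (Monoid.exponent B) :=
    HasEnoughRootsOfUnity.of_dvd k hexp
  have hcardH : Nat.card (B →* kˣ) = Nat.card B :=
    CommGroup.card_monoidHom_of_hasEnoughRootsOfUnity B k
  have hfinH : Finite (B →* kˣ) := Nat.finite_of_card_ne_zero (by
    rw [hcardH]; exact Nat.card_pos.ne')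
  -- the source
  let C := kˣ ⧸ (powMonoidHom N : kˣ →* kˣ).range
  let T := (nsmulAddMonoidHom N : Pic0 k K →+ Pic0 k K).ker
  have hcardC : Nat.card C = N := by
    show Nat.card (kˣ ⧸ (powMonoidHom N : kˣ →* kˣ).range) = N
    rw [card_quot_range']
    refine Eq.trans ?_ hζ.card_rootsOfUnity
    refine Nat.card_congr (Equiv.subtypeEquivRight fun x => ?_)
    rw [MonoidHom.mem_ker, mem_rootsOfUnity]
    rfl
  have hex : ∀ x : T, ∃ (h : K) (E : Pl k K →₀ ℤ), h ≠ 0 ∧ divf (k := k) h = N • E ∧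
      cls E = ((x : Pic0 k K) : Pic k K) := by
    intro x
    obtain ⟨E, hE⟩ := cls_surjective ((x : Pic0 k K) : Pic k K)
    have h1 : N • (x : Pic0 k K) = 0 := x.2
    have h2 : cls (N • E) = 0 := by
      rw [map_nsmul, hE]
      exact congrArg Subtype.val h1
    obtain ⟨h, hh, hdiv⟩ := cls_eq_zero_iff.mp h2
    exact ⟨h, E, hh, hdiv, hE⟩
  choose hx Ex hx0 hxE hxcls using hex
  have hconst : ∀ c : kˣ, (algebraMap k K c) ≠ 0 := fun c =>
    (_root_.map_ne_zero _).mpr c.ne_zero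
  have hconstdiv : ∀ c : kˣ, divf (k := k) (algebraMap k K c) = 0 := by
    intro c
    ext P
    rw [Finsupp.zero_apply, ← v_eq_one_iff (hconst c)]
    exact P.const _ c.ne_zero
  have hp0 : ∀ p : C × T, algebraMap k K (p.1.out : kˣ) * hx p.2 ≠ 0 := fun p =>
    mul_ne_zero (hconst _) (hx0 _)
  have hpE : ∀ p : C × T, divf (k := k) (algebraMap k K (p.1.out : kˣ) * hx p.2)
      = N • Ex p.2 := fun p => by
    rw [divf_mul (hconst _) (hx0 _), hconstdiv, zero_add, hxE]
  let Θ : C × T → (B →* kˣ) := fun p =>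
    toHom N (chiOf hNm (hp0 p) (Ex p.2) (hpE p)) (chiOf_killed hNm (hp0 p) (Ex p.2) (hpE p))
  have hΘ : Function.Injective Θ := by
    intro p p' hpp
    have h1 := toHom_inj hpp
    obtain ⟨u, hu0, hu, huE⟩ := eq_of_chiOf_eq hNm (hp0 p) (hp0 p') (hpE p) (hpE p') h1
    have h2 : p.2 = p'.2 := by
      apply Subtype.ext
      apply Subtype.ext
      rw [← hxcls, ← hxcls, huE, map_add, cls_divf hu0, zero_add]
    have h3 : p.1 = p'.1 := by
      obtain ⟨c, x⟩ := p
      obtain ⟨c', x'⟩ := p'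
      simp only at h2 hu huE ⊢
      subst h2
      have h4 : divf (k := k) u = 0 := by
        have := huE
        rwa [eq_comm, add_eq_right] at this
      have h5 : u ∈ LD (0 : Pl k K →₀ ℤ) := by
        rw [mem_LD_iff hu0, h4, add_zero]
      rw [LD_zero hc, Submodule.mem_one] at h5
      obtain ⟨a, ha⟩ := h5
      have ha0 : a ≠ 0 := by
        rintro rfl
        rw [map_zero] at ha
        exact hu0 ha.symm
      have h6 : algebraMap k K ((c.out : kˣ) : k) = algebraMap k K (a ^ N * ((c'.out : kˣ) : k)) := by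
        rw [← mul_assoc] at hu
        rw [mul_right_cancel₀ (hx0 x) hu, map_mul, map_pow, ha]
      have h7 : (c.out : kˣ) = (Units.mk0 a ha0) ^ N * (c'.out : kˣ) := by
        refine Units.ext ?_
        rw [Units.val_mul, Units.val_pow_eq_pow_val, Units.val_mk0]
        exact (algebraMap k K).injective h6
      rw [← QuotientGroup.out_eq' c, ← QuotientGroup.out_eq' c', h7, QuotientGroup.mk_mul]
      have h8 : (QuotientGroup.mk ((Units.mk0 a ha0) ^ N) : C) = 1 := by
        rw [QuotientGroup.eq_one_iff]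
        exact ⟨Units.mk0 a ha0, rfl⟩
      rw [h8, one_mul]
    exact Prod.ext h3 h2
  have hbij : Function.Bijective Θ := by
    refine hΘ.bijective_of_nat_card_le ?_
    rw [hcardH, Nat.card_prod, hcardC]
    show Nat.card (QN (Pic k K) N) ≤ _
    refine hcardB.trans (Nat.mul_le_mul_left _ ?_)
    exact (card_quot_range (nsmulAddMonoidHom N : Pic0 k K →+ Pic0 k K)).le
  obtain ⟨p, hp⟩ := hbij.2 (toHom N ψ hψ)
  exact ⟨_, hp0 p, Ex p.2, hpE p, (toHom_inj hp).symm⟩

/-- **(Z2)**, values on places -/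
theorem exists_of_char [Finite k] (hc : algebraicClosure k K = ⊥) {N m : ℕ}
    (hNm : N * m = Nat.card k - 1) (ψ : Pic k K →+ Additive kˣ) (hψ : ∀ z, N • ψ z = 0) :
    ∃ (h : K) (E : Pl k K →₀ ℤ), h ≠ 0 ∧ divf (k := k) h = N • E ∧
      (∀ P : Pl k K, (ψ (cls (Finsupp.single P 1))).toMul = chiP (N * m) (h ^ m) E P) ∧
      (cls E = 0 → ∀ z ∈ Pic0 k K, ψ z = 0) := by
  obtain ⟨h, hh, E, hE, rfl⟩ := exists_chiOf hc hNm ψ hψ
  refine ⟨h, E, hh, hE, fun P => chiOf_single hNm hh E hE P, fun hcls z hz => ?_⟩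
  -- if `E = div u` then `h = c u ^ N` and the character is `c ^ (m deg)`
  obtain ⟨u, hu0, hu⟩ := cls_eq_zero_iff.mp hcls
  have hN0 := N_ne_zero hNm
  have h1 : h * (u ^ N)⁻¹ ∈ LD (0 : Pl k K →₀ ℤ) := by
    rw [mem_LD_iff (mul_ne_zero hh (inv_ne_zero (pow_ne_zero _ hu0))),
      divf_mul hh (inv_ne_zero (pow_ne_zero _ hu0)), divf_inv (pow_ne_zero _ hu0),
      divf_pow hu0, hu, hE, add_neg_cancel, add_zero]
  rw [LD_zero hc, Submodule.mem_one] at h1
  obtain ⟨a, ha⟩ := h1
  have ha0 : a ≠ 0 := by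
    rintro rfl
    rw [map_zero] at ha
    exact mul_ne_zero hh (inv_ne_zero (pow_ne_zero N hu0)) ha.symm
  have hdec : h = algebraMap k K a * u ^ N := by
    rw [ha, mul_assoc, inv_mul_cancel₀ (pow_ne_zero _ hu0), mul_one]
  -- values
  have hval : ∀ P : Pl k K, chiOf hNm hh E hE (cls (Finsupp.single P 1))
      = (degD (Finsupp.single P 1)) • Additive.ofMul ((Units.mk0 a ha0) ^ m) := by
    intro P
    apply Additive.toMul.injective
    rw [chiOf_single, degD_single, one_mul, natCast_zsmul, toMul_nsmul, toMul_ofMul]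
    have hdivm : divf (k := k) (h ^ m) = (N * m) • E := by
      rw [divf_pow hh, hE, smul_smul, mul_comm]
    have he : P.v u⁻¹ = exp (E P) := by
      rw [map_inv₀, v_eq hu0, ← exp_neg, neg_neg, hu]
    rw [chiP_eq (hn_of hNm) (pow_ne_zero _ hh) hdivm he]
    have h2 : h ^ m * u⁻¹ ^ (N * m) = algebraMap k K (((Units.mk0 a ha0) ^ m : kˣ) : k) := by
      rw [hdec, mul_pow, ← pow_mul, mul_assoc, ← mul_pow, mul_inv_cancel₀ hu0, one_pow, mul_one,
        Units.val_pow_eq_pow_val, Units.val_mk0, map_pow]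
    rw [h2, nrm_const]
  have hall : chiOf hNm hh E hE
      = ((zmultiplesHom (Additive kˣ)) (Additive.ofMul ((Units.mk0 a ha0) ^ m))).comp degPic := by
    refine pic_hom_ext fun P => ?_
    rw [hval P, AddMonoidHom.comp_apply, degPic_cls]
    rfl
  rw [hall, AddMonoidHom.comp_apply, mem_Pic0.mp hz, map_zero]

end Crest.Agent.R013.Z2_777
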