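import Mathlib
import Crest.Agent.R013.Z2_777
import Crest.Agent.R013.WR6_777

/-!
# R013 / Z3: characters of `Pic` with values in a field containing `k` (helper777)
-/

set_option autoImplicit false
set_option linter.all false

namespace Crest.Agent.R013.Z3_777

open WithZero Module Polynomial
open Crest.Agent.R013.RR7_948 Crest.Agent.R013.RR8_948 Crest.Agent.R013.RR9_948
open Crest.Agent.R013.RR11_948 Crest.Agent.R013.RR12_948
open Crest.Agent.R013.WR2_777 Crest.Agent.R013.WR4_777 Crest.Agent.R013.WR5_777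
open Crest.Agent.R013.WR6_777 Crest.Agent.R013.PicD_398
open Crest.Agent.R013.Z1_777 Crest.Agent.R013.Z2_777 Crest.Agent.R013.CntLoc_262

variable {k : Type*} [Field k] {K : Type*} [Field K] [Algebra k K] [Algebra (RatFunc k) K]
  [IsScalarTower k (RatFunc k) K] [FiniteDimensional (RatFunc k) K]
  [Algebra.IsSeparable (RatFunc k) K]

/-- `N`-th roots of unity of any extension lie in `k` -/
theorem exists_eq_of_pow_eq_one [Finite k] {N m : ℕ} (hNm : N * m = Nat.card k - 1)
    {F : Type*} [Field F] (ι : k →+* F) {x : F} (hx : x ^ N = 1) : ∃ η : k, ι η = x := by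
  letI := ι.toAlgebra
  obtain ⟨ζ, hζ⟩ := exists_prim hNm
  have h := pow_sub_one_eq_prod hζ (Nat.pos_of_ne_zero (N_ne_zero hNm)) x
  rw [hx, sub_self, eq_comm, Finset.prod_eq_zero_iff] at h
  obtain ⟨η, _, hη⟩ := h
  exact ⟨η, (sub_eq_zero.mp hη).symm⟩

/-- **(Z2)** for characters with values in an extension `F` of `k` -/
theorem exists_of_addChar [Finite k] (hc : algebraicClosure k K = ⊥) {N m : ℕ}
    (hNm : N * m = Nat.card k - 1) {F : Type*} [Field F] (ι : k →+* F)
    (ψ : AddChar (Pic k K) F) (hψ : ∀ z, ψ z ^ N = 1) :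
    ∃ (h : K) (E : Pl k K →₀ ℤ), h ≠ 0 ∧ divf (k := k) h = N • E ∧
      (∀ P : Pl k K, ψ (cls (Finsupp.single P 1)) = ι (chiP (N * m) (h ^ m) E P)) ∧
      (cls E = 0 → ∀ z ∈ Pic0 k K, ψ z = 1) := by
  have hN0 := N_ne_zero hNm
  choose η hη using fun z => exists_eq_of_pow_eq_one hNm ι (hψ z)
  have hη0 : ∀ z, η z ≠ 0 := by
    intro z h0
    have h1 := hψ z
    rw [← hη, h0, map_zero, zero_pow hN0] at h1
    exact zero_ne_one h1
  let ψ' : Pic k K →+ Additive kˣ :=
    { toFun := fun z => Additive.ofMul (Units.mk0 (η z) (hη0 z))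
      map_zero' := by
        apply Additive.toMul.injective
        refine Units.ext ?_
        apply ι.injective
        show ι (η 0) = ι ((1 : kˣ) : k)
        rw [hη, AddChar.map_zero_eq_one, Units.val_one, map_one]
      map_add' := fun a b => by
        apply Additive.toMul.injective
        refine Units.ext ?_
        apply ι.injective
        show ι (η (a + b)) = ι (η a * η b)
        rw [map_mul, hη, hη, hη, AddChar.map_add_eq_mul] }
  have hval : ∀ z, ι ((ψ' z).toMul : kˣ) = ψ z := fun z => hη z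
  have hkill : ∀ z, N • ψ' z = 0 := by
    intro z
    apply Additive.toMul.injective
    rw [toMul_nsmul]
    refine Units.ext ?_
    apply ι.injective
    rw [Units.val_pow_eq_pow_val, map_pow, hval, hψ]
    show (1 : F) = ι ((1 : kˣ) : k)
    rw [Units.val_one, map_one]
  obtain ⟨h, E, hh, hE, h1, h2⟩ := exists_of_char hc hNm ψ' hkill
  refine ⟨h, E, hh, hE, fun P => ?_, fun hcls z hz => ?_⟩
  · rw [← h1, hval]
  · rw [← hval, h2 hcls z hz]
    show ι ((1 : kˣ) : k) = 1
    rw [Units.val_one, map_one]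

/-- the output for the trace formula: `f = h ^ m`, `div f = (q - 1) E`, `N E` principal, and the
character is `χ_f` in the sense of `IsChi` -/
theorem exists_isChi_of_addChar [Fintype k] (hc : algebraicClosure k K = ⊥) {N : ℕ}
    (hN : N ∣ Fintype.card k - 1) {F : Type*} [Field F] (ι : k →+* F)
    (ψ : AddChar (Pic k K) F) (hψ : ∀ z, ψ z ^ N = 1) (hψ1 : ∃ z ∈ Pic0 k K, ψ z ≠ 1) :
    ∃ (f h : K) (E : Pl k K →₀ ℤ), f ≠ 0 ∧ h ≠ 0 ∧
      divf (k := k) f = (Fintype.card k - 1) • E ∧ divf (k := k) h = N • E ∧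
      (∀ (P : Pl k K), ∃ c : k, IsChi f E P c ∧ ι c = ψ (cls (Finsupp.single P 1))) ∧
      cls E ≠ 0 ∧ degD E = 0 := by
  obtain ⟨m, hm⟩ := hN
  have hNm : N * m = Nat.card k - 1 := by rw [Nat.card_eq_fintype_card, hm]
  obtain ⟨h, E, hh, hE, h1, h2⟩ := exists_of_addChar hc hNm ι ψ hψ
  have hf : divf (k := k) (h ^ m) = (Fintype.card k - 1) • E := by
    rw [divf_pow hh, hE, smul_smul, mul_comm m N, hm]
  refine ⟨h ^ m, h, E, pow_ne_zero _ hh, hh, hf, hE, fun P => ?_, fun h0 => ?_, ?_⟩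
  · refine ⟨chiP (N * m) (h ^ m) E P, ?_, (h1 P).symm⟩
    have h3 := isChi_chiP (pow_ne_zero m hh) hf P
    rw [hm] at h3
    exact h3
  · obtain ⟨z, hz, hz1⟩ := hψ1
    exact hz1 (h2 h0 z hz)
  · have h4 := degD_divf (k := k) hh
    rw [hE] at h4
    have h5 : degD (N • E) = N * degD E := by
      show degHom (N • E) = _
      rw [map_nsmul, nsmul_eq_mul]
      rfl
    rw [h5] at h4
    rcases mul_eq_zero.mp h4 with h6 | h6
    · exact absurd (by exact_mod_cast h6) (N_ne_zero hNm)
    · exact h6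

end Crest.Agent.R013.Z3_777
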