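import Mathlib
import Crest.Agent.R013.CntF6_398
import Crest.Agent.R013.CntG_398
import Crest.Agent.R013.CntP_127
import Crest.Agent.R013.Z3_777
import Crest.Agent.R013.CntT4_262
import Crest.Agent.R013.Euler_127
import Crest.Agent.R013.CntB8_491

/-!
# R013 / CNT-F7: COUNT at a finite level (helper398)

Assembly of: many rational places (127), a character `ψ` with `A_{g-1}(ψ) ≠ 0` (398), base change
of `A_n` (491), duality `Pic/N × Pic⁰[N]` (777), trace formula (262).
-/

set_option autoImplicit false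
set_option linter.all false

namespace Crest.Agent.R013.CntF7_398

open Polynomial WithZero Module
open Crest.Agent.R013.RR1_948 Crest.Agent.R013.RR7_948 Crest.Agent.R013.RR8_948
open Crest.Agent.R013.RR9_948 Crest.Agent.R013.RR11_948 Crest.Agent.R013.RR12_948
open Crest.Agent.R013.RR13_948 Crest.Agent.R013.RR14_948 Crest.Agent.R013.RR18_948
open Crest.Agent.R013.PicD_398
open Crest.Agent.R013.CntF1_398 Crest.Agent.R013.CntF2_398 Crest.Agent.R013.CntF3_398
open Crest.Agent.R013.CntF4_398 Crest.Agent.R013.CntF5_398 Crest.Agent.R013.CntF6_398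
open Crest.Agent.R013.CntB1_491 Crest.Agent.R013.CntB2_491 Crest.Agent.R013.CntB3_491
open Crest.Agent.R013.CntB4_491 Crest.Agent.R013.CntB7_491 Crest.Agent.R013.CntB8_491
open Crest.Agent.R013.CntA1_560 Crest.Agent.R013.CntT3_262 Crest.Agent.R013.CntLoc_262

universe u v w

section level

variable {k : Type*} [Field k] [Finite k] {K : Type*} [Field K] [Algebra k K]
  [Algebra (RatFunc k) K] [IsScalarTower k (RatFunc k) K] [FiniteDimensional (RatFunc k) K]
  [Algebra.IsSeparable (RatFunc k) K]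

/-- a character of order prime to `p`, with values in an extension, comes from `k` if `N ∣ q-1` -/
theorem exists_descend_char {F : Type*} [Field F] (ι : k →+* F) {N : ℕ}
    (hN : N ∣ Nat.card k - 1) (ψ : AddChar (Pic k K) F) (hψ : ∀ z, ψ z ^ N = 1) :
    ∃ χ : AddChar (Pic k K) k, ∀ z, ι (χ z) = ψ z := by
  obtain ⟨m, hm⟩ := hN
  choose η hη using fun z => Z3_777.exists_eq_of_pow_eq_one hm.symm ι (hψ z)
  refine ⟨{ toFun := η, map_zero_eq_one' := ?_, map_add_eq_mul' := ?_ }, hη⟩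
  · apply ι.injective
    rw [hη, AddChar.map_zero_eq_one, map_one]
  · intro a b
    apply ι.injective
    rw [map_mul, hη, hη, hη, AddChar.map_add_eq_mul]

theorem map_An {F : Type*} [Field F] (ι : k →+* F) (χ : Pic k K → k) (n : ℤ) :
    ι (An χ n) = An (fun z => ι (χ z)) n := by
  unfold An
  rw [map_sum]

/-- the output at the level where `N ∣ q - 1` -/
theorem out_of_char (p : ℕ) [hp : Fact p.Prime] [CharP k p] (hc : algebraicClosure k K = ⊥)
    (hg : 1 ≤ gen k K) {N : ℕ} (hNp : N.Coprime p) (hN : N ∣ Nat.card k - 1)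
    {F : Type*} [Field F] (ι : k →+* F) (ψ : AddChar (Pic k K) F) (hψ : ∀ z, ψ z ^ N = 1)
    (hψ1 : ∃ z ∈ Pic0 k K, ψ z ≠ 1) (hA : An (⇑ψ) (((gen k K - 1 : ℕ) : ℤ)) ≠ 0) :
    Out k K p := by
  classical
  haveI := Fintype.ofFinite k
  haveI : CharP K p :=
    (RingHom.charP_iff (algebraMap k K) (algebraMap k K).injective p).mp inferInstance
  obtain ⟨χ, hχ⟩ := exists_descend_char ι hN ψ hψ
  have hχN : ∀ z, χ z ^ N = 1 := by
    intro z
    apply ι.injective
    rw [map_pow, hχ, hψ, map_one]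
  have hχ1 : ∃ z ∈ Pic0 k K, χ z ≠ 1 := by
    obtain ⟨z, hz, hz1⟩ := hψ1
    refine ⟨z, hz, fun h => hz1 ?_⟩
    rw [← hχ, h, map_one]
  have hAχ : An (⇑χ) (((gen k K - 1 : ℕ) : ℤ)) ≠ 0 := by
    intro h
    apply hA
    have h1 : (fun z => ι (χ z)) = ⇑ψ := funext hχ
    rw [← h1, ← map_An ι, h, map_zero]
  obtain ⟨f, h, E, hf, hh, hfE, hhE, hchi, hcls, hdeg⟩ :=
    Z3_777.exists_isChi_of_addChar hc (by rwa [← Nat.card_eq_fintype_card]) (RingHom.id k) χ hχN hχ1
  have hchi' : ∀ P : Pl k K, IsChi f E P (χ (cls (Finsupp.single P 1))) := by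
    intro P
    obtain ⟨c, hc1, hc2⟩ := hchi P
    rw [← hc2]; exact hc1
  -- the order of `E`
  set N' := addOrderOf (cls E) with hN'
  have hNE : N • cls E = 0 := by
    rw [← map_nsmul, ← hhE]; exact cls_divf hh
  have hN0 : 0 < N := by
    rcases Nat.eq_zero_or_pos N with h0 | h0
    · exfalso
      rw [h0, zero_dvd_iff] at hN
      have : 1 < Nat.card k := Finite.one_lt_card
      omega
    · exact h0
  have hdvd : N' ∣ N := addOrderOf_dvd_of_nsmul_eq_zero hNE
  have hN'0 : 0 < N' := Nat.pos_of_dvd_of_pos hdvd hN0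
  have hN'1 : N' ≠ 1 := by
    intro h1
    exact hcls (AddMonoid.addOrderOf_eq_one_iff.mp h1)
  have hN'p : N'.Coprime p := Nat.Coprime.coprime_dvd_left hdvd hNp
  obtain ⟨u, hu, huE⟩ : ∃ u : K, u ≠ 0 ∧ divf (k := k) u = N' • E := by
    apply cls_eq_zero_iff.mp
    rw [map_nsmul]
    exact addOrderOf_nsmul_eq_zero _
  have hcp : ∀ j : ℕ, cls (p ^ j • E) ≠ 0 := by
    intro j h0
    rw [map_nsmul] at h0
    have h1 : N' ∣ p ^ j := addOrderOf_dvd_of_nsmul_eq_zero h0
    exact hN'1 (Nat.Coprime.eq_one_of_dvd (Nat.Coprime.pow_right _ hN'p) h1)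
  have hell : ∀ j : ℕ, ell (p ^ j • E) = 0 := by
    intro j
    unfold ell
    rw [LD_eq_bot_of (by rw [degD_nsmul, hdeg, mul_zero]) (hcp j)]
    simp
  -- the trace formula
  obtain ⟨r, hr, hcard⟩ := FiniteField.card k p
  have hL := Euler_127.euler' χ (gen k K - 1)
  rw [Nat.sub_add_cancel hg] at hL
  have hcoef : (∑ n ∈ Finset.range (gen k K), C (An (fun z => χ z) (n : ℤ)) * X ^ n).coeff
      (gen k K - 1) ≠ 0 := by
    rw [finset_sum_coeff, Finset.sum_eq_single (gen k K - 1)]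
    · rw [coeff_C_mul, coeff_X_pow, if_pos rfl, mul_one]
      exact hAχ
    · intro b _ hb
      rw [coeff_C_mul, coeff_X_pow, if_neg (Ne.symm hb), mul_zero]
    · intro hb
      rw [Finset.mem_range, not_lt] at hb
      omega
  have hT := CntT4_262.FInj_of_coeff hc hg hcard r.pos hf hfE hdeg hell
    (fun P => χ (cls (Finsupp.single P 1))) hchi' _ hL hcoef
  refine ⟨N', -E, u⁻¹, by omega, hN'p, inv_ne_zero hu, ?_, ?_, ?_⟩
  · rw [divf_inv hu, huE, smul_neg]
  · intro m hm
    rw [smul_neg, map_neg, neg_eq_zero, map_nsmul] at hm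
    exact addOrderOf_dvd_of_nsmul_eq_zero hm
  · intro j
    rw [smul_neg, neg_neg]
    intro x hx
    rw [V0_xK, V1_xK] at hx ⊢
    rw [smul_smul, ← pow_succ'] at hx
    exact hT j x hx

end level

section order

/-- the multiplicative order of `q` modulo `N` is smaller than `N` -/
theorem exists_order {N q : ℕ} (hN : 2 ≤ N) (hq : q.Coprime N) :
    ∃ m : ℕ, 0 < m ∧ m < N ∧ N ∣ q ^ m - 1 := by
  haveI : NeZero N := ⟨by omega⟩
  haveI : Fact (1 < N) := ⟨by omega⟩
  set u := ZMod.unitOfCoprime q hq with hu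
  refine ⟨orderOf u, orderOf_pos u, ?_, ?_⟩
  · have h1 : orderOf u ≤ Fintype.card (ZMod N)ˣ := orderOf_le_card_univ
    rw [ZMod.card_units_eq_totient] at h1
    exact lt_of_le_of_lt h1 (Nat.totient_lt N (by omega))
  · have h1 : u ^ orderOf u = 1 := pow_orderOf_eq_one u
    have h2 : ((q ^ orderOf u : ℕ) : ZMod N) = ((1 : ℕ) : ZMod N) := by
      have h3 := congrArg (Units.val) h1
      rw [Units.val_pow_eq_pow_val, hu, ZMod.coe_unitOfCoprime] at h3
      push_cast
      exact h3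
    have hq0 : 0 < q := by
      rcases Nat.eq_zero_or_pos q with h0 | h0
      · rw [h0, Nat.coprime_zero_left] at hq; omega
      · exact h0
    have h4 : 1 ≤ q ^ orderOf u := Nat.one_le_pow _ _ hq0
    rw [ZMod.natCast_eq_natCast_iff] at h2
    exact (Nat.modEq_iff_dvd' h4).mp h2.symm

/-- exact order of a function killed by `N₀` -/
theorem exists_exact {Z M : Type*} [Monoid M] (ψ : Z → M) {N₀ : ℕ} (hN₀ : 0 < N₀)
    (h : ∀ z, ψ z ^ N₀ = 1) :
    ∃ N : ℕ, 0 < N ∧ N ∣ N₀ ∧ (∀ z, ψ z ^ N = 1) ∧ ∀ m, 0 < m → m < N → ∃ z, ψ z ^ m ≠ 1 := by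
  classical
  have hex : ∃ N : ℕ, 0 < N ∧ ∀ z, ψ z ^ N = 1 := ⟨N₀, hN₀, h⟩
  refine ⟨Nat.find hex, (Nat.find_spec hex).1, ?_, (Nat.find_spec hex).2, ?_⟩
  · set N := Nat.find hex with hN
    rw [Nat.dvd_iff_mod_eq_zero]
    by_contra hne
    have hlt : N₀ % N < N := Nat.mod_lt _ (Nat.find_spec hex).1
    apply Nat.find_min hex hlt
    refine ⟨Nat.pos_of_ne_zero hne, fun z => ?_⟩
    have h1 := h z
    rw [← Nat.div_add_mod N₀ N, pow_add, pow_mul, (Nat.find_spec hex).2, one_pow, one_mul] at h1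
    exact h1
  · intro m hm hlt
    by_contra hcon
    push Not at hcon
    exact Nat.find_min hex hlt ⟨hm, hcon⟩

end order

section final

variable {k : Type u} [Field k] [Finite k] {K : Type v} [Field K] [Algebra k K]
  [Algebra (RatFunc k) K] [IsScalarTower k (RatFunc k) K] [FiniteDimensional (RatFunc k) K]
  [Algebra.IsSeparable (RatFunc k) K]

/-- from a field with many rational places -/
theorem exists_level_of_many (p : ℕ) [hp : Fact p.Prime] [CharP k p]
    (hc : algebraicClosure k K = ⊥) (hg : 1 ≤ gen k K) (R : Finset (Pl k K))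
    (hR : ∀ P ∈ R, degP P = 1)
    (hN : 2 * gen k K ^ 2 * Nat.card (CntG3_398.Ptor p (Pic0 k K)) < R.card) :
    ∃ E : CExt.{u, v, u} k K, Out E.k' E.K' p := by
  classical
  haveI : CharP (AlgebraicClosure k) p :=
    (RingHom.charP_iff (algebraMap k (AlgebraicClosure k))
      (algebraMap k (AlgebraicClosure k)).injective p).mp inferInstance
  obtain ⟨P₀, hP₀R⟩ : R.Nonempty := by
    rw [← Finset.card_pos]; omega
  obtain ⟨ψ, hψ1, hψP, ⟨N₀, hN₀, hN₀p, hψN₀⟩, hsum⟩ :=
    CntG_398.exists_psi (E := AlgebraicClosure k) p hc hg R hR hN P₀ (hR P₀ hP₀R)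
  -- the exact order
  obtain ⟨N, hNpos, hNdvd, hψN, hmin⟩ := exists_exact (⇑ψ) hN₀ hψN₀
  have hNp : N.Coprime p := Nat.Coprime.coprime_dvd_left hNdvd hN₀p
  have hN2 : 2 ≤ N := by
    by_contra hlt
    have hN1 : N = 1 := by omega
    obtain ⟨z, _, hz⟩ := hψ1
    have h1 := hψN z
    rw [hN1, pow_one] at h1
    exact hz h1
  haveI := Fintype.ofFinite k
  obtain ⟨r, hr, hcard⟩ := FiniteField.card k p
  have hq : (Nat.card k).Coprime N := by
    rw [Nat.card_eq_fintype_card, hcard]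
    exact Nat.Coprime.pow_left _ hNp.symm
  obtain ⟨m, hm0, hmN, hmdvd⟩ := exists_order hN2 hq
  -- a degree zero class with `ψ(z)^m ≠ 1`
  obtain ⟨z, hz0, hzm⟩ : ∃ z ∈ Pic0 k K, ψ z ^ m ≠ 1 := by
    obtain ⟨z, hz⟩ := hmin m hm0 hmN
    refine ⟨z - degPic z • cls (Finsupp.single P₀ 1), ?_, ?_⟩
    · rw [mem_Pic0, map_sub, map_zsmul, degPic_cls, degD_single, hR P₀ hP₀R]
      simp
    · rw [AddChar.map_sub_eq_div, AddChar.map_zsmul_eq_zpow, hψP, one_zpow, div_one]
      exact hz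
  -- the constant extension of degree `m`
  obtain ⟨E, hE⟩ := exists_CExt_of_finite.{u, v, u} hc m (by omega)
  have hcardE : Nat.card E.k' = Nat.card k ^ m := by
    rw [← hE]; exact Module.natCard_eq_pow_finrank (K := k)
  haveI : CharP E.k' p :=
    (RingHom.charP_iff (algebraMap k E.k') (algebraMap k E.k').injective p).mp inferInstance
  let ι : E.k' →ₐ[k] AlgebraicClosure k := IsAlgClosed.lift
  have hgE : gen E.k' E.K' = gen k K := gen_eq E.ce
  haveI : IsGalois k E.k' := inferInstance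
  have hq0 : (Nat.card k : AlgebraicClosure k) = 0 := natCard_cast_eq_zero p
  have hA0 : An (⇑ψ) (((gen k K - 1 : ℕ) : ℤ)) ≠ 0 := by
    rw [An_eq_finsum hq0]
    have h1 : ((gen k K - 1 : ℕ) : ℤ) = (gen k K : ℤ) - 1 := by
      rw [Nat.cast_sub hg]; simp
    rw [h1]; exact hsum
  have hAz : ∀ n : ℕ, gen k K - 1 < n → An (⇑ψ) (n : ℤ) = 0 := by
    intro n hn
    obtain ⟨x, hx, hx1⟩ := hψ1
    apply An_eq_zero_of_le hq0 ψ hx hx1
    have h1 : gen k K ≤ n := by omega
    have h2 : gen k K = ell (canD k K) := rfl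
    rw [← h2]
    exact_mod_cast h1
  refine ⟨E, out_of_char p E.ce.hc' (by rw [hgE]; exact hg) hNp (by rw [hcardE]; exact hmdvd)
    (ι : E.k' →+* AlgebraicClosure k) (ψ.compAddMonoidHom (nmPic E.ce)) ?_ ?_ ?_⟩
  · intro z
    rw [AddChar.compAddMonoidHom_apply]
    exact hψN _
  · refine ⟨conPic E.ce z, ?_, ?_⟩
    · rw [mem_Pic0, degPic_conPic]
      exact mem_Pic0.mp hz0
    · rw [AddChar.compAddMonoidHom_apply, nmPic_conPic, hE, AddChar.map_nsmul_eq_pow]
      exact hzm
  · rw [hgE]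
    exact An_nm_ne_zero E.ce ψ hAz hA0

/-- **COUNT at a finite level** -/
theorem exists_out (p : ℕ) [hp : Fact p.Prime] [CharP k p]
    (hc : algebraicClosure k K = ⊥) (hg : 1 ≤ gen k K) :
    ∃ E : CExt.{u, v, u} k K, Out E.k' E.K' p := by
  obtain ⟨E₁, R, hR, hN⟩ := CntP_127.exists_rat_places p hc
  haveI : CharP E₁.k' p :=
    (RingHom.charP_iff (algebraMap k E₁.k') (algebraMap k E₁.k').injective p).mp inferInstance
  have hgE : gen E₁.k' E₁.K' = gen k K := gen_eq E₁.ce
  obtain ⟨E₂, hE₂⟩ := exists_level_of_many p (hc_CExt E₁) (by rw [hgE]; exact hg) R hR hN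
  exact ⟨E₁.trans E₂, hE₂⟩

end final

/-- **COUNT** over an algebraic closure `FF` of `F_p` (frozen shape): every function field `C/FF` of
genus `≥ 1` has a divisor class `E` of exact order `N ≥ 2` prime to `p`, `N E = div u`, such that
`div (df) ≥ p^(j+1) E` implies `df = 0`, for all `j` (the Cartier operator is injective on
`H⁰(Ω(-p^(j+1) E))`). -/
theorem count (p : ℕ) [hp : Fact p.Prime] {FF : Type u} {C : Type v} [Field FF] [Field C]
    [Algebra (ZMod p) FF] [Algebra.IsAlgebraic (ZMod p) FF] [IsAlgClosed FF] [Algebra FF C]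
    [Algebra (RatFunc FF) C] [IsScalarTower FF (RatFunc FF) C]
    [FiniteDimensional (RatFunc FF) C] [Algebra.IsSeparable (RatFunc FF) C]
    (hg : 1 ≤ gen FF C) : OutC p FF C := by
  apply outC_of p hg
  intro k K _ _ _ _ _ _ _ _ _ hc hg'
  exact exists_out p hc hg'

end Crest.Agent.R013.CntF7_398
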