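import Crest.Agent.R013.CB1b_903
import Crest.Agent.R013.CLiftN2_903
import Crest.Agent.R013.CntF7_398
import Crest.Agent.R013.GR3_921

/-!
# C-B1, part c: an unramified class which is non-trivial at two vertices of positive genus
-/

set_option autoImplicit false
set_option linter.unusedSectionVars false

namespace Crest.Agent.R013.CB1_903

open scoped NNReal
open WithZero Polynomial
open Crest.Agent.R013.RR7_948 Crest.Agent.R013.RR9_948 Crest.Agent.R013.RR11_948
open Crest.Agent.R013.RR12_948 Crest.Agent.R013.PicD_398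
open Crest.Agent.R013.Red332 Crest.Agent.R013.SSK_332
open Crest.Agent.R013.CLiftN_903 Crest.Agent.R013.GR3_921

section Class

variable {F κ : Type*} [Field F] [Field κ] [Algebra F κ]

/-- a root of unity is a constant -/
theorem exists_const_of_pow_eq_one [IsAlgClosed F] (M : ℕ) (hM : M ≠ 0) (a : κ) (ha : a ^ M = 1) :
    ∃ c : F, algebraMap F κ c = a := by
  have hs : (X ^ M - 1 : F[X]).Splits := IsAlgClosed.splits _
  have hne : (X ^ M - 1 : F[X]) ≠ 0 := X_pow_sub_C_ne_zero (Nat.pos_of_ne_zero hM) 1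
  have h1 : ((X ^ M - 1 : F[X]).map (algebraMap F κ)).IsRoot a := by
    rw [IsRoot, Polynomial.map_sub, Polynomial.map_pow, map_X, Polynomial.map_one, eval_sub,
      eval_pow, eval_X, eval_one, ha, sub_self]
  have h2 : a ∈ ((X ^ M - 1 : F[X]).map (algebraMap F κ)).roots := by
    rw [mem_roots (Polynomial.map_ne_zero hne)]
    exact h1
  rw [hs.roots_map, Multiset.mem_map] at h2
  obtain ⟨c, -, hc⟩ := h2
  exact ⟨c, hc⟩

/-- the class of the count, in the form used below -/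
theorem exists_class (p : ℕ) [Fact p.Prime] [Algebra (ZMod p) F] [Algebra.IsAlgebraic (ZMod p) F]
    [IsAlgClosed F] {g : ℕ} (hgen : HasGen F κ g) (hg : 1 ≤ g) :
    ∃ (N : ℕ) (u : κ), 2 ≤ N ∧ N.Coprime p ∧ u ≠ 0 ∧ (∀ x : Pl F κ, ∃ m : ℤ, x.v u = exp (N * m)) ∧
      ∀ M : ℕ, M ≠ 0 → ∀ a : κ, u ^ M ≠ a ^ (N * M) := by
  obtain ⟨i, j, f, s, hgg⟩ := hgen
  let _ := i
  have _ := j
  have _ := f
  have _ := s
  obtain ⟨N, E, u, hN2, hNp, hu, hdiv, hex, -⟩ := CntF7_398.count p (FF := F) (C := κ)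
    (by rw [hgg]; exact hg)
  have hN0 : N ≠ 0 := by omega
  refine ⟨N, u, hN2, hNp, hu, fun x => ⟨-E x, ?_⟩, fun M hM a ha => ?_⟩
  · rw [v_eq hu x, hdiv]
    congr 1
    rw [Finsupp.smul_apply, nsmul_eq_mul]
    ring
  · have ha0 : a ≠ 0 := by
      rintro rfl
      rw [zero_pow (Nat.mul_ne_zero hN0 hM)] at ha
      exact pow_ne_zero _ hu ha
    have h1 : (u / a ^ N) ^ M = 1 := by
      rw [div_pow, ← pow_mul, ha, div_self (pow_ne_zero _ ha0)]
    obtain ⟨c, hc⟩ := exists_const_of_pow_eq_one (F := F) M hM _ h1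
    have hc0 : c ≠ 0 := by
      rintro rfl
      rw [map_zero] at hc
      exact div_ne_zero hu (pow_ne_zero _ ha0) hc.symm
    obtain ⟨d, hd⟩ := IsAlgClosed.exists_pow_nat_eq c (Nat.pos_of_ne_zero hN0)
    have hd0 : d ≠ 0 := by
      rintro rfl
      rw [zero_pow hN0] at hd
      exact hc0 hd.symm
    have h2 : u = (algebraMap F κ d * a) ^ N := by
      rw [mul_pow, ← map_pow, hd, hc, div_mul_cancel₀ _ (pow_ne_zero _ ha0)]
    set b : κ := algebraMap F κ d * a with hb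
    have hb0 : b ≠ 0 := mul_ne_zero ((_root_.map_ne_zero _).2 hd0) ha0
    have h3 : E = divf (k := F) b := by
      ext P
      have h4 := v_eq (k := F) hu P
      rw [hdiv, h2, map_pow, v_eq (k := F) hb0 P, ← exp_nsmul, exp_inj, Finsupp.smul_apply,
        nsmul_eq_mul, nsmul_eq_mul] at h4
      have h5 : (N : ℤ) ≠ 0 := by exact_mod_cast hN0
      have h6 : (N : ℤ) * (E P - divf b P) = 0 := by linarith
      rcases mul_eq_zero.1 h6 with h7 | h7
      · exact absurd h7 h5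
      · linarith
    have h4 : cls (1 • E) = 0 := by
      rw [one_smul, cls_eq_zero_iff]
      exact ⟨b, hb0, h3.symm⟩
    have h5 := hex 1 h4
    have h6 := Nat.le_of_dvd one_pos h5
    omega

end Class

section Structure

variable {k C K : Type*} [NontriviallyNormedField k] [CompleteSpace k]
  [NormedField C] [IsUltrametricDist C] [NormedAlgebra k C] [Algebra.IsAlgebraic k C]
  [Field K] [Algebra C K] (S : SSK k C K)

theorem exists_transc (v : S.V) :
    ∃ T : K, (S.nm v).v T ≤ 1 ∧ Transcendental (Ct C) (red (S.nm v) T) := by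
  obtain ⟨i, j, f, s⟩ := S.ff v
  obtain ⟨T, hT, hT'⟩ := red_surj (S.nm v) (algebraMap (RatFunc (Ct C)) (kap (S.nm v)) RatFunc.X)
  refine ⟨T, hT, ?_⟩
  rw [hT']
  exact RR20_948.transcendental_xK

include k in
theorem exists_small : ∃ π : C, π ≠ 0 ∧ ‖π‖ < 1 := by
  obtain ⟨π, h1, h2⟩ := NormedField.exists_norm_lt_one k
  refine ⟨algebraMap k C π, ?_, ?_⟩
  · rw [Ne, map_eq_zero]
    exact norm_pos_iff.1 h1
  · rw [norm_algebraMap']; exact h2

section FF

variable [IsAlgClosed C] [Algebra (RatFunc C) K]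
  [IsScalarTower C (RatFunc C) K] [FiniteDimensional (RatFunc C) K]
  [Algebra.IsSeparable (RatFunc C) K]

/-- **C-LIFTN** for a semistable structure -/
theorem cliftn_ssk (N : ℕ) (LC : LiftC C K N) (u : ∀ v, kap (S.nm v)) (hu : ∀ v, u v ≠ 0)
    (hdiv : ∀ v, ∀ x : Pl (Ct C) (kap (S.nm v)), ∃ m : ℤ, x.v (u v) = exp (N * m)) :
    ∃ h : K, h ≠ 0 ∧ (∀ P : Pl C K, ∃ m : ℤ, P.v h = exp (N * m)) ∧
      (∀ v x, (N : ℤ) ∣ Red332.od (S.nm v) x h) ∧
      ∀ v, ∃ g : K, g ≠ 0 ∧ (S.nm v).v (h / g ^ N) = 1 ∧ red (S.nm v) (h / g ^ N) = u v := by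
  have hfin : Finite S.V := by
    have := S.fV
    exact Finite.of_fintype S.V
  choose T hT htr using exists_transc S
  obtain ⟨h, h0, h1, h2⟩ := cliftn (fun v => S.nm v) S.nm_inj (exists_small (k := k)) T hT htr N LC u
    hu (fun v Q hQ => by
      obtain ⟨i, j, f, s⟩ := S.ff v
      exact hdiv_of_pl N (u v) (hu v) (hdiv v) Q hQ)
  refine ⟨h, h0, h1, fun v x => ?_, h2⟩
  obtain ⟨g, hg0, hg1, hg2⟩ := h2 v
  obtain ⟨m, hm⟩ := hdiv v x
  have e : h = (h / g ^ N) * g ^ N := by rw [div_mul_cancel₀ _ (pow_ne_zero _ hg0)]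
  have hne : h / g ^ N ≠ 0 := div_ne_zero h0 (pow_ne_zero _ hg0)
  rw [e, Red332.od_mul x hne (pow_ne_zero _ hg0), Red332.od_pow x hg0,
    Red332.od_of_one x hg1, hg2, hm, log_exp]
  exact ⟨-m + Red332.od (S.nm v) x g, by ring⟩

/-- a class which is non-trivial at two vertices of positive genus -/
theorem exists_two_class (p : ℕ) [Fact p.Prime] [Algebra (ZMod p) (Ct C)]
    [Algebra.IsAlgebraic (ZMod p) (Ct C)] [IsAlgClosed (Ct C)]
    (LC : ∀ N : ℕ, N.Coprime p → LiftC C K N) (v1 v2 : S.V) (h12 : v1 ≠ v2) {g1 g2 : ℕ}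
    (hg1 : HasGen (Ct C) (kap (S.nm v1)) g1) (h1 : 1 ≤ g1)
    (hg2 : HasGen (Ct C) (kap (S.nm v2)) g2) (h2 : 1 ≤ g2) :
    ∃ (N : ℕ) (h : K), 2 ≤ N ∧ N.Coprime p ∧ h ≠ 0 ∧
      (∀ P : Pl C K, ∃ m : ℤ, P.v h = exp (N * m)) ∧
      (∀ v x, (N : ℤ) ∣ Red332.od (S.nm v) x h) ∧
      (∀ g : K, g ≠ 0 → ¬ (S.nm v1).v (h / g ^ N - 1) < 1) ∧
      (∀ g : K, g ≠ 0 → ¬ (S.nm v2).v (h / g ^ N - 1) < 1) := by
  classical
  obtain ⟨N1, u1, hN1, hp1, hu1, hd1, hn1⟩ := exists_class p hg1 h1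
  obtain ⟨N2, u2, hN2, hp2, hu2, hd2, hn2⟩ := exists_class p hg2 h2
  set u : ∀ v, kap (S.nm v) :=
    Function.update (Function.update (fun _ => 1) v2 (u2 ^ N1)) v1 (u1 ^ N2) with hu
  have e1 : u v1 = u1 ^ N2 := by rw [hu, Function.update_self]
  have e2 : u v2 = u2 ^ N1 := by
    rw [hu, Function.update_of_ne h12.symm, Function.update_self]
  have e3 : ∀ v, v ≠ v1 → v ≠ v2 → u v = 1 := fun v h h' => by
    rw [hu, Function.update_of_ne h, Function.update_of_ne h']
  have hu0 : ∀ v, u v ≠ 0 := by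
    intro v
    by_cases h : v = v1
    · subst h; rw [e1]; exact pow_ne_zero _ hu1
    · by_cases h' : v = v2
      · subst h'; rw [e2]; exact pow_ne_zero _ hu2
      · rw [e3 v h h']; exact one_ne_zero
  obtain ⟨h, h0, hP, hod, hv⟩ := cliftn_ssk S (N1 * N2) (LC _ (Nat.Coprime.mul_left hp1 hp2)) u hu0
    (by
      intro v x
      by_cases h : v = v1
      · subst h
        obtain ⟨m, hm⟩ := hd1 x
        refine ⟨m, ?_⟩
        rw [e1, map_pow, hm, ← exp_nsmul]
        congr 1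
        rw [nsmul_eq_mul]; push_cast; ring
      · by_cases h' : v = v2
        · subst h'
          obtain ⟨m, hm⟩ := hd2 x
          refine ⟨m, ?_⟩
          rw [e2, map_pow, hm, ← exp_nsmul]
          congr 1
          rw [nsmul_eq_mul]; push_cast; ring
        · refine ⟨0, ?_⟩
          rw [e3 v h h', map_one, mul_zero, exp_zero])
  have key : ∀ (v : S.V) (M M' : ℕ) (a : kap (S.nm v)), N1 * N2 = M * M' → M' ≠ 0 →
      u v = a ^ M' → (∀ b : kap (S.nm v), a ^ M' ≠ b ^ (M * M')) →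
      ∀ g : K, g ≠ 0 → ¬ (S.nm v).v (h / g ^ (N1 * N2) - 1) < 1 := by
    intro v M M' a hMM hM' hua hno g hg0 hlt
    obtain ⟨g', hg'0, hg'1, hg'2⟩ := hv v
    have hN : N1 * N2 ≠ 0 := Nat.mul_ne_zero (by omega) (by omega)
    have hone : (S.nm v).v (h / g ^ (N1 * N2)) = 1 := by
      have : h / g ^ (N1 * N2) = 1 + (h / g ^ (N1 * N2) - 1) := by ring
      rw [this, Valuation.map_add_eq_of_lt_left _ (by rw [map_one]; exact hlt), map_one]
    have hratio : (S.nm v).v (g / g') = 1 := by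
      have h3 : (g / g') ^ (N1 * N2) = (h / g' ^ (N1 * N2)) / (h / g ^ (N1 * N2)) := by
        rw [div_pow]; field_simp
      have h4 : (S.nm v).v (g / g') ^ (N1 * N2) = 1 := by
        rw [← map_pow, h3, map_div₀, hg'1, hone, div_one]
      exact (pow_eq_one_iff_of_nonneg zero_le hN).1 h4
    have hred : red (S.nm v) (h / g ^ (N1 * N2)) = 1 := by
      rw [← red_one (S.nm v), red_eq_iff (S.nm v) hone.le (by rw [map_one])]
      exact hlt
    have h5 : h / g' ^ (N1 * N2) = (h / g ^ (N1 * N2)) * (g / g') ^ (N1 * N2) := by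
      rw [div_pow]; field_simp
    have h6 : u v = red (S.nm v) (g / g') ^ (N1 * N2) := by
      rw [← hg'2, h5, red_mul (S.nm v) hone.le (by rw [map_pow, hratio, one_pow]), hred, one_mul,
        red_pow (S.nm v) hratio.le]
    rw [hMM, hua] at h6
    exact hno _ h6
  refine ⟨N1 * N2, h, ?_, Nat.Coprime.mul_left hp1 hp2, h0, hP, hod, ?_, ?_⟩
  · calc 2 ≤ N1 := hN1
      _ ≤ N1 * N2 := Nat.le_mul_of_pos_right _ (by omega)
  · exact key v1 N1 N2 u1 rfl (by omega) e1 (fun b => hn1 N2 (by omega) b)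
  · exact key v2 N2 N1 u2 (mul_comm _ _) (by omega) e2 (fun b => hn2 N1 (by omega) b)

end FF

/-- the graph of a cover split over all cells, with two non-split vertices, has a loop -/
theorem b1_of_cover {L : Type*} [Field L] [Algebra C L] [Algebra K L] [FiniteDimensional K L]
    [IsGalois K L] (SL : SSK k C L) (f : SL.V → S.V)
    (hf : ∀ w c, (SL.nm w).v (algebraMap K L c) = (S.nm (f w)).v c)
    (hE : nE SL = Module.finrank K L * nE S) (hconn : S.Conn)
    (N : ℕ) (h : K) (h0 : h ≠ 0) (y : L) (hy : y ^ N = algebraMap K L h)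
    (v1 v2 : S.V) (h12 : v1 ≠ v2) (h1 : ∀ g : K, g ≠ 0 → ¬ (S.nm v1).v (h / g ^ N - 1) < 1)
    (h2 : ∀ g : K, g ≠ 0 → ¬ (S.nm v2).v (h / g ^ N - 1) < 1) : nV SL ≤ nE SL := by
  classical
  let i1 := S.fV
  let i2 := S.fEd
  let i3 := SL.fV
  let i4 := SL.fEd
  have hnt : ∀ v : S.V, ∃ c, (S.nm v).v c ≠ 0 ∧ (S.nm v).v c ≠ 1 := by
    intro v
    obtain ⟨π, hπ0, hπ1⟩ := exists_small (k := k) (C := C)
    refine ⟨algebraMap C K π, ?_, ?_⟩
    · rw [(S.nm v).hC]
      exact nnnorm_ne_zero_iff.2 hπ0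
    · rw [(S.nm v).hC]
      intro h
      exact hπ1.ne (by rw [← coe_nnnorm, h]; rfl)
  -- fibres inject into the extensions
  have hinj : ∀ v : S.V, Nat.card {w // f w = v} ≤ Nat.card (Ext L (S.nm v).v) := by
    intro v
    have := finite_ext (L := L) (hnt v)
    refine Nat.card_le_card_of_injective
      (fun w : {w // f w = v} => (⟨(SL.nm w.1).v, fun c => by rw [hf, w.2]⟩ : Ext L (S.nm v).v)) ?_
    intro w w' hww
    have h3 : (SL.nm w.1).v = (SL.nm w'.1).v := congrArg Subtype.val hww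
    exact Subtype.ext (SL.nm_inj (Nm.ext' fun a => by rw [h3]))
  exact card_le_card (Module.finrank K L) f hE (fun v => (hinj v).trans (card_le (hnt v))) v1 v2 h12
    ((Nat.mul_le_mul_left 2 (hinj v1)).trans (two_mul_card_le (hnt v1) N h h0 y hy h1))
    ((Nat.mul_le_mul_left 2 (hinj v2)).trans (two_mul_card_le (hnt v2) N h h0 y hy h2))
    (nV_le S hconn)

end Structure

end Crest.Agent.R013.CB1_903
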