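import Crest.Agent.R013.CB1c_903

/-!
# C-B1, part d: Kummer covers with divisible divisor are unramified
-/

set_option autoImplicit false
set_option linter.unusedSectionVars false

namespace Crest.Agent.R013.CB1_903

open scoped NNReal
open WithZero Polynomial IntermediateField
open Crest.Agent.R013.RR7_948 Crest.Agent.R013.RR9_948 Crest.Agent.R013.RR11_948
open Crest.Agent.R013.RR12_948 Crest.Agent.R013.PicD_398
open Crest.Agent.R013.RR18_948 Crest.Agent.R013.GR2_921

/-- `L/K` is unramified at every place -/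
def UnrPl (C K L : Type*) [Field C] [Field K] [Field L] [Algebra C L] [Algebra K L] : Prop :=
  ∀ Q : Pl C L, ∃ f : K, Q.v (algebraMap K L f) = exp (-1)

section Tower

variable {C K L M : Type*} [Field C] [Field K] [Field L] [Field M] [Algebra C K] [Algebra C L]
  [Algebra C M] [Algebra K L] [Algebra K M] [Algebra L M] [IsScalarTower C K L]
  [IsScalarTower C L M] [IsScalarTower K L M]

theorem UnrPl.refl : UnrPl C K K := fun Q => by
  obtain ⟨f, hf⟩ := Q.surj (exp (-1))
  exact ⟨f, hf⟩

omit [Algebra C K] [IsScalarTower C K L] in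
theorem UnrPl.trans (h1 : UnrPl C K L) (h2 : UnrPl C L M) : UnrPl C K M := by
  intro R
  obtain ⟨f, hf⟩ := h2 R
  have hconst : ∀ c : C, c ≠ 0 → (R.v.comap (algebraMap L M)) (algebraMap C L c) = 1 := by
    intro c hc
    rw [Valuation.comap_apply, ← IsScalarTower.algebraMap_apply]
    exact R.const c hc
  have hsurj : Function.Surjective (R.v.comap (algebraMap L M)) := by
    intro y
    by_cases hy : y = 0
    · exact ⟨0, by rw [map_zero, hy]⟩
    · refine ⟨f ^ (-(log y)), ?_⟩
      rw [Valuation.comap_apply, map_zpow₀, map_zpow₀, hf, ← exp_zsmul, smul_eq_mul, neg_mul_neg,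
        mul_one, exp_log hy]
  obtain ⟨g, hg⟩ := h1 ⟨R.v.comap (algebraMap L M), hconst, hsurj⟩
  refine ⟨g, ?_⟩
  rw [IsScalarTower.algebraMap_apply K L M]
  exact hg

end Tower

section Kummer

variable {C K L : Type*} [Field C] [IsAlgClosed C] [CharZero C] [Field K] [Algebra C K]
  [Algebra (RatFunc C) K] [IsScalarTower C (RatFunc C) K] [FiniteDimensional (RatFunc C) K]
  [Algebra.IsSeparable (RatFunc C) K]
  [Field L] [Algebra C L] [Algebra K L] [IsScalarTower C K L] [FiniteDimensional K L]

theorem lt_one_iff' {x : ℤᵐ⁰} : x < 1 ↔ x ≤ exp (-1) := RR2_948.lt_one_iff x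

/-- a root of a `1`-unit is approximable by the base -/
theorem approx (Q : Pl C L) (N : ℕ) (hN : N ≠ 0) (y : L) (a : K)
    (hy : y ^ N = algebraMap K L a) (h1 : Q.v (y - 1) < 1) (n : ℕ) :
    ∃ g : K, Q.v (y - algebraMap K L g) ≤ exp (-((n : ℤ) + 1)) := by
  have hNv : Q.v (N : L) = 1 := by
    have := Q.const (N : C) (Nat.cast_ne_zero.2 hN)
    rwa [map_natCast] at this
  have hN0 : (N : K) ≠ 0 := by
    intro h
    rw [← map_natCast (algebraMap K L), h, map_zero, map_zero] at hNv
    exact zero_ne_one hNv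
  induction n with
  | zero =>
    refine ⟨1, ?_⟩
    rw [map_one, Nat.cast_zero, zero_add]
    exact lt_one_iff'.1 h1
  | succ n ih =>
    obtain ⟨g, hg⟩ := ih
    have hg1 : Q.v (y - algebraMap K L g) < 1 :=
      lt_one_iff'.2 (hg.trans (exp_le_exp.2 (by omega)))
    have hgy : Q.v (algebraMap K L g - 1) < 1 := by
      have : algebraMap K L g - 1 = (y - 1) - (y - algebraMap K L g) := by ring
      rw [this]
      exact (Valuation.map_sub _ _ _).trans_lt (max_lt h1 hg1)
    refine ⟨g + (a - g ^ N) / N, ?_⟩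
    set G := algebraMap K L g with hG
    set S : L := ∑ i ∈ Finset.range N, y ^ i * G ^ (N - 1 - i) with hS
    have h2 : y ^ N - G ^ N = (y - G) * S := by
      rw [hS, mul_comm]
      exact (Commute.all y G).geom_sum₂_mul N |>.symm
    have h3 : y - algebraMap K L (g + (a - g ^ N) / N) = (y - G) * ((N - S) / N) := by
      rw [map_add, map_div₀, map_sub, ← hy, map_pow, map_natCast, ← hG, h2]
      have : (N : L) ≠ 0 := by
        rw [← map_natCast (algebraMap K L)]
        exact (_root_.map_ne_zero _).2 hN0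
      field_simp
      ring
    have h4 : Q.v ((N - S) / N : L) < 1 := by
      rw [map_div₀, hNv, div_one]
      have h5 : (N : L) - S = ∑ i ∈ Finset.range N, (1 - y ^ i * G ^ (N - 1 - i)) := by
        rw [Finset.sum_sub_distrib, Finset.sum_const, Finset.card_range, nsmul_eq_mul, mul_one]
      rw [h5]
      refine Valuation.map_sum_lt _ one_ne_zero fun i _ => ?_
      have aux : ∀ (x : L) (m : ℕ), Q.v (x - 1) < 1 → Q.v (x ^ m - 1) < 1 := by
        intro x m hx
        rw [← mul_geom_sum, map_mul]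
        have hx1 : Q.v x ≤ 1 := by
          have : x = (x - 1) + 1 := by ring
          rw [this]
          exact (Valuation.map_add _ _ _).trans (max_le hx.le (by rw [map_one]))
        refine mul_lt_one_of_lt_of_le hx (Valuation.map_sum_le _ fun j _ => ?_)
        rw [map_pow]
        exact pow_le_one' hx1 j
      have e : (1 : L) - y ^ i * G ^ (N - 1 - i) =
          -((y ^ i - 1) * G ^ (N - 1 - i)) - (G ^ (N - 1 - i) - 1) := by ring
      rw [e]
      refine (Valuation.map_sub _ _ _).trans_lt (max_lt ?_ (aux _ _ hgy))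
      rw [Valuation.map_neg, map_mul]
      refine mul_lt_one_of_lt_of_le (aux _ _ h1) ?_
      have : G ^ (N - 1 - i) = (G ^ (N - 1 - i) - 1) + 1 := by ring
      rw [this]
      exact (Valuation.map_add _ _ _).trans (max_le (aux _ _ hgy).le (by rw [map_one]))
    rw [h3, map_mul]
    calc Q.v (y - G) * Q.v ((N - S) / N : L) ≤ exp (-((n : ℤ) + 1)) * exp (-1) :=
          mul_le_mul' hg (lt_one_iff'.1 h4)
      _ = exp (-(((n + 1 : ℕ) : ℤ) + 1)) := by
        rw [← exp_add, exp_inj]; push_cast; ring

/-- the subalgebra of elements which are approximable by the base -/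
def apprx (Q : Pl C L) : Subalgebra K L where
  carrier := {z | ∀ n : ℕ, ∃ g : K, Q.v (z - algebraMap K L g) ≤ exp (-(n : ℤ))}
  algebraMap_mem' r n := ⟨r, by rw [sub_self, map_zero]; exact zero_le⟩
  add_mem' := by
    intro a b ha hb n
    obtain ⟨g, hg⟩ := ha n
    obtain ⟨g', hg'⟩ := hb n
    refine ⟨g + g', ?_⟩
    rw [map_add, add_sub_add_comm]
    exact (Valuation.map_add _ _ _).trans (max_le hg hg')
  mul_mem' := by
    intro a b ha hb n
    -- bounds
    have bd : ∀ x : L, ∃ m : ℕ, Q.v x ≤ exp (m : ℤ) := by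
      intro x
      by_cases hx : Q.v x = 0
      · exact ⟨0, by rw [hx]; exact zero_le⟩
      · refine ⟨(log (Q.v x)).toNat, ?_⟩
        rw [← exp_log hx, exp_le_exp, log_exp]
        exact Int.self_le_toNat _
    obtain ⟨m, hm⟩ := bd a
    obtain ⟨m', hm'⟩ := bd b
    obtain ⟨g, hg⟩ := ha (n + m')
    obtain ⟨g', hg'⟩ := hb (n + m)
    refine ⟨g * g', ?_⟩
    have e : a * b - algebraMap K L (g * g') =
        a * (b - algebraMap K L g') + (a - algebraMap K L g) * algebraMap K L g' := by
      rw [map_mul]; ring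
    have h3 : Q.v (algebraMap K L g') ≤ exp (m' : ℤ) := by
      have : algebraMap K L g' = b - (b - algebraMap K L g') := by ring
      rw [this]
      exact (Valuation.map_sub _ _ _).trans (max_le hm' (hg'.trans (exp_le_exp.2 (by omega))))
    rw [e]
    refine (Valuation.map_add _ _ _).trans (max_le ?_ ?_)
    · rw [map_mul]
      refine (mul_le_mul' hm hg').trans ?_
      rw [← exp_add, exp_le_exp]
      push_cast; omega
    · rw [map_mul]
      refine (mul_le_mul' hg h3).trans ?_
      rw [← exp_add, exp_le_exp]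
      push_cast; omega

/-- **Kummer covers with divisible divisor are unramified.** -/
theorem unrPl_of_kummer (N : ℕ) (hN : N ≠ 0) (h : K)
    (hdiv : ∀ P : Pl C K, ∃ m : ℤ, P.v h = exp (N * m)) (y : L) (hy : y ^ N = algebraMap K L h)
    (htop : K⟮y⟯ = ⊤) : UnrPl C K L := by
  intro Q
  obtain ⟨m, hm⟩ := hdiv (under K Q)
  obtain ⟨t, ht0, ht⟩ := exists_v_eq (under K Q) m
  have hu : (under K Q).v (h / t ^ N) = 1 := by
    rw [map_div₀, map_pow, hm, ht, ← exp_nsmul, nsmul_eq_mul, div_self exp_ne_zero]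
  obtain ⟨c, hc⟩ := exists_const (under K Q) hu.le
  have hc0 : c ≠ 0 := by
    rintro rfl
    rw [map_zero, sub_zero, hu] at hc
    exact lt_irrefl _ hc
  obtain ⟨d, hd⟩ := IsAlgClosed.exists_pow_nat_eq c (Nat.pos_of_ne_zero hN)
  have hd0 : d ≠ 0 := by
    rintro rfl
    rw [zero_pow hN] at hd
    exact hc0 hd.symm
  -- `y1 ^ N = h / (t d)^N` is a one-unit
  set s : K := t * algebraMap C K d with hs
  have hs0 : s ≠ 0 := mul_ne_zero ht0 ((_root_.map_ne_zero _).2 hd0)
  have h1 : Q.v ((y / algebraMap K L s) ^ N - 1) < 1 := by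
    have e : (y / algebraMap K L s) ^ N - 1 = algebraMap K L (h / s ^ N - 1) := by
      rw [div_pow, hy, ← map_pow, ← map_div₀, map_sub, map_one]
    have e2 : h / s ^ N - 1 = (h / t ^ N - algebraMap C K c) / algebraMap C K c := by
      rw [hs, mul_pow, ← map_pow, hd]
      have : algebraMap C K c ≠ 0 := (_root_.map_ne_zero _).2 hc0
      field_simp
    rw [e, ← under_lt_one_iff, e2, map_div₀, (under K Q).const c hc0, div_one]
    exact hc
  -- one of the roots of unity
  obtain ⟨ζ, hζ, hζ1⟩ : ∃ ζ : C, ζ ^ N = 1 ∧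
      Q.v (y / algebraMap K L s - algebraMap C L ζ) < 1 := by
    have hsp : (X ^ N - 1 : C[X]).Splits := IsAlgClosed.splits _
    have hmon : (X ^ N - 1 : C[X]).Monic := monic_X_pow_sub_C 1 hN
    have e := hsp.eq_prod_roots
    rw [hmon.leadingCoeff, map_one, one_mul] at e
    have e2 : (y / algebraMap K L s) ^ N - 1 =
        ((X ^ N - 1 : C[X]).roots.map fun ζ => y / algebraMap K L s - algebraMap C L ζ).prod := by
      have e3 := congrArg (aeval (y / algebraMap K L s)) e
      rw [map_multiset_prod, Multiset.map_map] at e3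
      simp only [map_sub, map_pow, aeval_X, map_one, Function.comp_def, aeval_C] at e3
      exact e3
    by_contra hcon
    push Not at hcon
    rw [e2, map_multiset_prod, Multiset.map_map] at h1
    refine absurd h1 (not_lt.2 ?_)
    apply Multiset.one_le_prod_of_one_le
    intro x hx
    rw [Multiset.mem_map] at hx
    obtain ⟨ζ, hζ, rfl⟩ := hx
    refine hcon ζ ?_
    have h5 := isRoot_of_mem_roots hζ
    rw [IsRoot, eval_sub, eval_pow, eval_X, eval_one, sub_eq_zero] at h5
    exact h5
  have hζ0 : ζ ≠ 0 := by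
    rintro rfl
    rw [zero_pow hN] at hζ
    exact zero_ne_one hζ
  set s' : K := s * algebraMap C K ζ with hs'
  have hs'0 : s' ≠ 0 := mul_ne_zero hs0 ((_root_.map_ne_zero _).2 hζ0)
  have hz : (y / algebraMap K L s') ^ N = algebraMap K L (h / s' ^ N) := by
    rw [div_pow, hy, ← map_pow, ← map_div₀]
  have hz1 : Q.v (y / algebraMap K L s' - 1) < 1 := by
    have hζL : algebraMap C L ζ ≠ 0 := (_root_.map_ne_zero _).2 hζ0
    have e : y / algebraMap K L s' - 1 =
        (y / algebraMap K L s - algebraMap C L ζ) / algebraMap C L ζ := by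
      rw [hs', map_mul, ← IsScalarTower.algebraMap_apply, ← div_div, sub_div, div_self hζL]
    rw [e, map_div₀, Q.const ζ hζ0, div_one]
    exact hζ1
  have hmem : y ∈ apprx (K := K) Q := by
    have h2 : y / algebraMap K L s' ∈ apprx (K := K) Q := by
      intro n
      obtain ⟨g, hg⟩ := approx Q N hN _ _ hz hz1 n
      exact ⟨g, hg.trans (exp_le_exp.2 (by omega))⟩
    have e : y = (y / algebraMap K L s') * algebraMap K L s' := by
      rw [div_mul_cancel₀ _ ((_root_.map_ne_zero _).2 hs'0)]
    rw [e]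
    exact mul_mem h2 ((apprx (K := K) Q).algebraMap_mem s')
  have hall : ∀ z : L, z ∈ apprx (K := K) Q := by
    intro z
    have h2 : z ∈ K⟮y⟯ := by rw [htop]; exact IntermediateField.mem_top
    have h3 : K⟮y⟯.toSubalgebra = Algebra.adjoin K {y} :=
      IntermediateField.adjoin_simple_toSubalgebra_of_isAlgebraic (Algebra.IsAlgebraic.isAlgebraic y)
    have h4 : z ∈ Algebra.adjoin K {y} := by
      rw [← h3]; exact h2
    exact (Algebra.adjoin_le (S := apprx (K := K) Q) (by
      rintro _ rfl; exact hmem)) h4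
  obtain ⟨z, hz⟩ := Q.surj (exp (-1))
  obtain ⟨g, hg⟩ := hall z 2
  refine ⟨g, ?_⟩
  have e : algebraMap K L g = z - (z - algebraMap K L g) := by ring
  rw [e, Valuation.map_sub_eq_of_lt_left, hz]
  rw [hz]
  exact hg.trans_lt (exp_lt_exp.2 (by norm_num))

end Kummer

section Exists

universe u

theorem splitting_top {C K L : Type*} [Field C] [IsAlgClosed C] [Field K] [Field L]
    [Algebra C L] [Algebra K L] (N : ℕ) (hN : N ≠ 0) (h : K) (h0 : h ≠ 0)
    [hs : IsSplittingField K L (X ^ N - Polynomial.C h : K[X])] (hC : ∀ c : C, ∃ a : K,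
      algebraMap K L a = algebraMap C L c) :
    ∃ y : L, y ^ N = algebraMap K L h ∧ K⟮y⟯ = ⊤ := by
  have hne : (X ^ N - Polynomial.C h : K[X]) ≠ 0 := X_pow_sub_C_ne_zero (Nat.pos_of_ne_zero hN) h
  have hspl : ((X ^ N - Polynomial.C h : K[X]).map (algebraMap K L)).Splits :=
    IsSplittingField.splits L _
  have hroot : ∀ z : L, z ∈ (X ^ N - Polynomial.C h : K[X]).rootSet L →
      z ^ N = algebraMap K L h := by
    intro z hz
    rw [mem_rootSet_of_ne hne, map_sub, map_pow, aeval_X, aeval_C, sub_eq_zero] at hz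
    exact hz
  obtain ⟨y, hy⟩ : ∃ y : L, y ^ N = algebraMap K L h := by
    have hdeg : ((X ^ N - Polynomial.C h : K[X]).map (algebraMap K L)).degree ≠ 0 := by
      rw [degree_map, degree_X_pow_sub_C (Nat.pos_of_ne_zero hN)]
      exact_mod_cast hN
    obtain ⟨y, hy⟩ := hspl.exists_eval_eq_zero hdeg
    refine ⟨y, ?_⟩
    rw [eval_map_algebraMap, map_sub, map_pow, aeval_X, aeval_C, sub_eq_zero] at hy
    exact hy
  have hy0 : y ≠ 0 := by
    rintro rfl
    rw [zero_pow hN] at hy
    exact h0 ((_root_.map_eq_zero _).1 hy.symm)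
  refine ⟨y, hy, ?_⟩
  have h1 : (⊤ : Subalgebra K L) ≤ K⟮y⟯.toSubalgebra := by
    rw [← IsSplittingField.adjoin_rootSet L (X ^ N - Polynomial.C h : K[X])]
    refine Algebra.adjoin_le fun z hz => ?_
    have h2 : (z / y) ^ N = 1 := by
      rw [div_pow, hroot z hz, hy, div_self ((_root_.map_ne_zero _).2 h0)]
    obtain ⟨c, hc⟩ := exists_const_of_pow_eq_one (F := C) N hN _ h2
    obtain ⟨a, ha⟩ := hC c
    have h3 : z = algebraMap K L a * y := by rw [ha, hc, div_mul_cancel₀ _ hy0]
    rw [h3]
    exact mul_mem (K⟮y⟯.algebraMap_mem a) (IntermediateField.mem_adjoin_simple_self K y)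
  exact IntermediateField.toSubalgebra_injective (le_antisymm le_top h1)

/-- the Kummer cover `K(h^(1/N))` -/
theorem exists_kummer {C : Type*} {K : Type u} [Field C] [IsAlgClosed C] [CharZero C] [Field K]
    [Algebra C K] (N : ℕ) (hN : N ≠ 0) (h : K) (h0 : h ≠ 0) :
    ∃ (L : Type u) (_ : Field L) (_ : Algebra C L) (_ : Algebra K L) (_ : IsScalarTower C K L)
      (_ : FiniteDimensional K L) (_ : IsGalois K L) (y : L), y ^ N = algebraMap K L h ∧
        K⟮y⟯ = ⊤ := by
  have : CharZero K := charZero_of_injective_algebraMap (algebraMap C K).injective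
  have hN0 : (N : K) ≠ 0 := Nat.cast_ne_zero.2 hN
  have hsep : (X ^ N - Polynomial.C h : K[X]).Separable := separable_X_pow_sub_C h hN0 h0
  have hgal : IsGalois K (X ^ N - Polynomial.C h : K[X]).SplittingField :=
    IsGalois.of_separable_splitting_field hsep
  obtain ⟨y, hy, htop⟩ := splitting_top (C := C)
    (L := (X ^ N - Polynomial.C h : K[X]).SplittingField) N hN h h0
    (fun c => ⟨algebraMap C K c, (IsScalarTower.algebraMap_apply _ _ _ _).symm⟩)
  exact ⟨(X ^ N - Polynomial.C h : K[X]).SplittingField, inferInstance, inferInstance,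
    inferInstance, inferInstance, inferInstance, hgal, y, hy, htop⟩

end Exists

end Crest.Agent.R013.CB1_903
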