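import Crest.Agent.R013.GRA_903
import Crest.Agent.R013.InLift_365

/-!
# C-LIFTN and (A1) with lemma LIFT plugged in
-/

set_option autoImplicit false
set_option linter.unusedSectionVars false

namespace Crest.Agent.R013.CB1_903

open scoped NNReal
open WithZero Polynomial IntermediateField
open Crest.Agent.R013.RR7_948 Crest.Agent.R013.Red332 Crest.Agent.R013.GR3_921
open Crest.Agent.R013.RR11_948 Crest.Agent.R013.RR12_948
open Crest.Agent.R013.Cell_408 (DiscNorm)
open Crest.Agent.R013.SSK_332 Crest.Agent.R013.GRK_903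

universe u

section Lift

variable {k C K : Type*} [NontriviallyNormedField k] [CompleteSpace k] [IsUltrametricDist k]
  [NormedField C] [IsUltrametricDist C] [NormedAlgebra k C] [Algebra.IsAlgebraic k C]
  [IsAlgClosed C] [hk : Fact (DiscNorm k)] [CharZero C]
  [Field K] [Algebra C K] [Algebra (RatFunc C) K]
  [IsScalarTower C (RatFunc C) K] [FiniteDimensional (RatFunc C) K]
  [Algebra.IsSeparable (RatFunc C) K] (S : SSK k C K)

/-- **C-LIFTN**, no hypothesis left -/
theorem cliftn_ssk' (N : ℕ) (hN : ‖(N : C)‖ = 1) (u : ∀ v, kap (S.nm v)) (hu : ∀ v, u v ≠ 0)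
    (hdiv : ∀ v, ∀ x : Pl (Ct C) (kap (S.nm v)), ∃ m : ℤ, x.v (u v) = exp (N * m)) :
    ∃ h : K, h ≠ 0 ∧ (∀ P : Pl C K, ∃ m : ℤ, P.v h = exp (N * m)) ∧
      (∀ v x, (N : ℤ) ∣ Red332.od (S.nm v) x h) ∧
      ∀ v, ∃ g : K, g ≠ 0 ∧ (S.nm v).v (h / g ^ N) = 1 ∧ red (S.nm v) (h / g ^ N) = u v :=
  cliftn_ssk S N (RZ_365.liftC hk.out N hN) u hu hdiv

end Lift

section Final

variable {k C : Type*} [NontriviallyNormedField k] [CompleteSpace k] [IsUltrametricDist k]
  [NormedField C] [IsUltrametricDist C] [NormedAlgebra k C] [Algebra.IsAlgebraic k C]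
  [IsAlgClosed C] [hk : Fact (DiscNorm k)] [CharZero C] (p : ℕ) [hp : Fact p.Prime]
  [NormedAlgebra ℚ_[p] C] [Algebra.IsAlgebraic ℚ_[p] C]

include hp in
omit [Algebra.IsAlgebraic ℚ_[p] C] [CharZero C] in
theorem norm_p_lt_one : ‖(p : C)‖ < 1 := by
  have h2 : (p : C) = algebraMap ℚ_[p] C (p : ℚ_[p]) := by simp
  rw [h2, norm_algebraMap', Padic.norm_p]
  exact inv_lt_one_of_one_lt₀ (by exact_mod_cast hp.out.one_lt)

/-- **(A1)** from `exists_SSK` with a prescribed disc (332), inheritance (770), the invariant case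
of C-GR (921) and `p`-torsion (235) -/
theorem a1_final (hD : InDisc.{u} k C) (hI : InInh.{u} k C) (hS : InSig.{u} C p)
    (hT : InTors.{u} C p) (K : Type u) [Field K] [Algebra C K] (g : ℕ) (hg : HasGen C K g)
    (h2 : 2 ≤ g) : A1 k C K := by
  have _ := TP14_928.charP_Ct (C := C) p
  exact a1_of p hD hI (RZ_365.inLift hk.out (norm_natCast_of_coprime p))
    (inGR_of p (norm_p_lt_one p) hT hS) K g hg h2

end Final

end Crest.Agent.R013.CB1_903
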