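import Mathlib
import Crest.Agent.R013.Inh12_770
import Crest.Agent.R013.CB1f_903

/-!
# Row 13 (helper770): 903's `InInh`
-/

set_option autoImplicit false
set_option linter.all false
open Crest.Agent.R013.Red332 Crest.Agent.R013.SSK_332 Crest.Agent.R013.CB1_903
open Crest.Agent.R013.Cell_408 (FinDef DiscNorm)

namespace Crest.Agent.R013.Inh_770

universe u

theorem inInh (k C : Type*) [NontriviallyNormedField k] [CompleteSpace k] [IsUltrametricDist k]
    [NormedField C] [IsUltrametricDist C] [NormedAlgebra k C]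
    [Algebra.IsAlgebraic k C] [IsAlgClosed C] [Fact (DiscNorm k)] : InInh.{u} k C := by
  intro K L _ _ _ _ _ _ _ _ _ _ _ _ S P
  refine ⟨P.inh, P.vK _, P.vK_nm _, ?_⟩
  have h1 := P.card_Ed P.ffL
  letI := S.fEd
  letI := (P.inh).fEd
  unfold nE
  rw [← Nat.card_eq_fintype_card, ← Nat.card_eq_fintype_card]
  exact h1

end Crest.Agent.R013.Inh_770
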