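import Crest.Agent.R013.CB1g_903
import Crest.Agent.R013.Tors15_235
import Crest.Agent.R013.InhC3_770

/-!
# (A1) with inheritance (770) and torsion (235) plugged in
-/

set_option autoImplicit false
set_option linter.unusedSectionVars false

namespace Crest.Agent.R013.CB1_903

open scoped NNReal
open WithZero Polynomial IntermediateField
open Crest.Agent.R013.RR7_948 Crest.Agent.R013.Red332 Crest.Agent.R013.GR3_921
open Crest.Agent.R013.RR11_948 Crest.Agent.R013.RR12_948
open Crest.Agent.R013.Cell_408 (DiscNorm)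
open Crest.Agent.R013.SSK_332 Crest.Agent.R013.GRK_903

universe u

theorem inTors {C : Type*} [NormedField C] [IsAlgClosed C] [CharZero C] {p : ℕ} (hp : p.Prime) :
    InTors.{u} C p := by
  intro K _ _ g hg h1
  obtain ⟨i, j, f, s, hgg⟩ := id hg
  let _ := i
  have _ := j
  have _ := f
  have _ := s
  obtain ⟨D, h, h0, hD, hno⟩ := Tors15_235.tors (F := C) (K := K) (by rw [hgg]; exact h1) hp
  have hP : ∀ P : Pl C K, P.v h = exp ((p : ℤ) * (-D P)) := by
    intro P
    rw [v_eq (k := C) h0 P, ← hD, Finsupp.smul_apply, nsmul_eq_mul]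
    congr 1
    ring
  refine ⟨h, h0, fun P => ⟨_, hP P⟩, fun g hg => ?_⟩
  have hg0 : g ≠ 0 := by
    rintro rfl
    rw [zero_pow hp.ne_zero] at hg
    exact h0 hg.symm
  refine hno g hg0 ?_
  ext P
  have h2 := hP P
  rw [← hg, map_pow, v_eq (k := C) hg0 P, ← exp_nsmul, exp_inj, nsmul_eq_mul] at h2
  have h3 : (p : ℤ) ≠ 0 := by exact_mod_cast hp.ne_zero
  have h4 : (p : ℤ) * (D P - divf g P) = 0 := by
    have : (p : ℤ) * -(divf (k := C) g P) = (p : ℤ) * -D P := by exact_mod_cast h2
    linarith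
  rcases mul_eq_zero.1 h4 with h5 | h5
  · exact absurd h5 h3
  · linarith

section Final

variable {k C : Type*} [NontriviallyNormedField k] [CompleteSpace k] [IsUltrametricDist k]
  [NormedField C] [IsUltrametricDist C] [NormedAlgebra k C] [Algebra.IsAlgebraic k C]
  [IsAlgClosed C] [hk : Fact (DiscNorm k)] [CharZero C] (p : ℕ) [hp : Fact p.Prime]
  [NormedAlgebra ℚ_[p] C] [Algebra.IsAlgebraic ℚ_[p] C]

/-- **(A1)** from `exists_SSK` with a prescribed disc (332) and the invariant case of C-GR (921) -/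
theorem a1_two (hD : InDisc.{u} k C) (hS : InSig.{u} C p)
    (K : Type u) [Field K] [Algebra C K] (g : ℕ) (hg : HasGen C K g)
    (h2 : 2 ≤ g) : A1 k C K :=
  a1_final p hD (Inh_770.inInh k C) hS (inTors hp.out) K g hg h2

end Final

end Crest.Agent.R013.CB1_903
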