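import Crest.Agent.R013.CB1h_903
import Crest.Agent.R013.RHP2_240

/-!
# (A1): the genus of the extension
-/

set_option autoImplicit false
set_option linter.unusedSectionVars false

namespace Crest.Agent.R013.CB1_903

open scoped NNReal
open Crest.Agent.R013.RR7_948 Crest.Agent.R013.Red332 Crest.Agent.R013.GR3_921
open Crest.Agent.R013.RR11_948 Crest.Agent.R013.RR12_948 Crest.Agent.R013.GR2_921
open Crest.Agent.R013.Cell_408 (DiscNorm)
open Crest.Agent.R013.SSK_332

universe u

/-- the genus does not decrease in finite extensions -/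
theorem exists_hasGen_ge {C K L : Type*} [Field C] [IsAlgClosed C] [CharZero C] [Field K]
    [Field L] [Algebra C K] [Algebra C L] [Algebra K L] [IsScalarTower C K L]
    [FiniteDimensional K L] {g : ℕ} (hg : HasGen C K g) : ∃ g', HasGen C L g' ∧ g ≤ g' := by
  obtain ⟨i, j, f, s, hgg⟩ := id hg
  let _ := i
  have _ := j
  have _ := f
  have _ := s
  let _ : Algebra (RatFunc C) L := ((algebraMap K L).comp (algebraMap (RatFunc C) K)).toAlgebra
  have _ : IsScalarTower (RatFunc C) K L := IsScalarTower.of_algebraMap_eq fun x => rfl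
  have _ : IsScalarTower C (RatFunc C) L := IsScalarTower.of_algebraMap_eq fun x => by
    rw [IsScalarTower.algebraMap_apply C K L, IsScalarTower.algebraMap_apply C (RatFunc C) K]
    rfl
  have _ : FiniteDimensional (RatFunc C) L := FiniteDimensional.trans (RatFunc C) K L
  have _ : CharZero (RatFunc C) := charZero_of_injective_algebraMap
    (algebraMap C (RatFunc C)).injective
  have _ : CharZero K := charZero_of_injective_algebraMap (algebraMap C K).injective
  have _ : Algebra.IsSeparable (RatFunc C) L := inferInstance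
  have _ : Algebra.IsSeparable K L := inferInstance
  refine ⟨gen C L, hasGen_gen C L, ?_⟩
  rw [← hgg]
  exact RHP_240.gen_le (K := K) (L := L) hc_of_isAlgClosed hc_of_isAlgClosed

variable {k C : Type*} [NontriviallyNormedField k] [CompleteSpace k]
  [NormedField C] [IsUltrametricDist C] [NormedAlgebra k C] [Algebra.IsAlgebraic k C]
  [IsAlgClosed C] [CharZero C]

/-- (A1) with the genus -/
theorem A1.genus {K : Type u} [Field K] [Algebra C K] (h : A1 k C K) {g : ℕ}
    (hg : HasGen C K g) (h2 : 2 ≤ g) :
    ∃ (L : Type u) (_ : Field L) (_ : Algebra C L) (_ : Algebra K L) (_ : IsScalarTower C K L)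
      (_ : FiniteDimensional K L) (SL : SSK k C L), UnrPl C K L ∧ SL.Conn ∧ nV SL ≤ nE SL ∧
      ∃ g', HasGen C L g' ∧ 2 ≤ g' := by
  obtain ⟨L, _, _, _, _, _, SL, h1, h3, h4⟩ := h
  obtain ⟨g', hg', hle⟩ := exists_hasGen_ge (L := L) hg
  exact ⟨L, inferInstance, inferInstance, inferInstance, inferInstance, inferInstance, SL, h1, h3,
    h4, g', hg', h2.trans hle⟩

end Crest.Agent.R013.CB1_903
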