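import Crest.Agent.R013.TP9_928

/-!
# R013 / C-TP (helper928), part 10: the geometric data

`TPGeo p X G A W`: vertices `X v`, set of ends `N`, Galois group `G`, Frobenius, covering group `A`,
forms; everything in terms of functions and their reductions.  `TPGeo.toIn : TPIn`.
-/

set_option autoImplicit false
set_option linter.unusedSectionVars false
set_option linter.style.haveILetI false

namespace Crest.Agent.R013.TP_928

open WithZero Module
open Crest.Agent.R013.RR7_948 Crest.Agent.R013.RR8_948 Crest.Agent.R013.RR9_948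
open Crest.Agent.R013.RR11_948 Crest.Agent.R013.PicD_398 Crest.Agent.R013.Frob1_914
open Crest.Agent.R013.Frob4_914

/-- division of a divisor -/
theorem exists_eq_smul_of_dvd {ι : Type*} (x : ι →₀ ℤ) (m : ℕ) (h : ∀ i, (m : ℤ) ∣ x i) :
    ∃ y : ι →₀ ℤ, x = m • y := by
  refine ⟨x.mapRange (fun z => z / (m : ℤ)) (Int.zero_ediv _), ?_⟩
  ext i
  obtain ⟨c, hc⟩ := h i
  by_cases hm : (m : ℤ) = 0
  · simp only [Finsupp.smul_apply, Finsupp.mapRange_apply, nsmul_eq_mul, hm, zero_mul] at hc ⊢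
    exact hc
  · rw [Finsupp.smul_apply, Finsupp.mapRange_apply, hc, Int.mul_ediv_cancel_left _ hm, nsmul_eq_mul]

theorem exists_eq_smul_of_dvd_pi {V : Type*} {ι : V → Type*} (x : ∀ v, ι v →₀ ℤ) (m : ℕ)
    (h : ∀ v i, (m : ℤ) ∣ x v i) : ∃ y : ∀ v, ι v →₀ ℤ, x = m • y := by
  choose y hy using fun v => exists_eq_smul_of_dvd (x v) m (h v)
  exact ⟨y, funext hy⟩

section geo

variable {C K Ct : Type*} [Field C] [Field K] [Algebra C K] [Algebra (RatFunc C) K]
  [IsScalarTower C (RatFunc C) K] [FiniteDimensional (RatFunc C) K]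
  [Algebra.IsSeparable (RatFunc C) K] [Field Ct] {V : Type*}
  {κ : V → Type*} [∀ v, Field (κ v)] [∀ v, Algebra Ct (κ v)]
  [∀ v, Algebra (RatFunc Ct) (κ v)] [∀ v, IsScalarTower Ct (RatFunc Ct) (κ v)]
  [∀ v, FiniteDimensional (RatFunc Ct) (κ v)] [∀ v, Algebra.IsSeparable (RatFunc Ct) (κ v)]
  {Γ : Type*} [LinearOrderedCommGroupWithZero Γ] {B : Res C Ct Γ}

variable (p : ℕ) [hp : Fact p.Prime] (X : ∀ v, Vtx B K (κ v))

/-- the geometric data -/
structure TPGeo (G A W : Type*) [AddCommGroup W] [Module ℤ_[p] W]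
    [Group A] [Fintype A] where
  hC : algebraicClosure C K = ⊥
  /-- the ends -/
  N : Set (Σ v, Pl Ct (κ v))
  disc : ∀ (n : ℕ) (e : Additive Kˣ), (∃ x, dv C K e = (p ^ n) • x) →
    ∀ v (x : Pl Ct (κ v)), (⟨v, x⟩ : Σ v, Pl Ct (κ v)) ∉ N → ((p ^ n : ℕ) : ℤ) ∣ rall X e v x
  /-- the Galois group -/
  gal : G → SI C K C K
  gal_v : ∀ g v f, (X v).v ((gal g).f f) = (X v).v f
  gal_end : ∀ g v (x : Pl Ct (κ v)), (⟨v, x⟩ : Σ v, Pl Ct (κ v)) ∈ N →
    ∀ (f : K) (h : (X v).v f ≤ 1) (h' : (X v).v ((gal g).f f) ≤ 1),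
      x.v ((X v).ρ ⟨(gal g).f f, h'⟩) = x.v ((X v).ρ ⟨f, h⟩)
  /-- `q = p ^ a` -/
  a : ℕ
  ha : a ≠ 0
  res : ∀ g (c : C) (h : B.v c ≤ 1) (h' : B.v ((gal g).s c) ≤ 1),
    (B.ρ ⟨c, h⟩) ^ p ^ a = B.ρ ⟨c, h⟩ → B.ρ ⟨(gal g).s c, h'⟩ = B.ρ ⟨c, h⟩
  /-- Frobenius -/
  frob : G
  frob_res : ∀ (c : C) (h : B.v c ≤ 1) (h' : B.v ((gal frob).s c) ≤ 1),
    B.ρ ⟨(gal frob).s c, h'⟩ = (B.ρ ⟨c, h⟩) ^ p ^ a
  /-- the residue fields are spanned by reductions of Galois invariant functions -/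
  span : ∀ v, Submodule.span Ct {y : κ v | ∃ (f : K) (h : (X v).v f ≤ 1),
    (∀ g, (gal g).f f = f) ∧ (X v).ρ ⟨f, h⟩ = y} = ⊤
  /-- the covering group -/
  cov : A →* (K ≃ₐ[C] K)
  cov_gal : ∀ α g f, cov α ((gal g).f f) = (gal g).f (cov α f)
  cov_v : ∀ α w, ∃ w', ∀ f, (X w).v (cov α f) = (X w').v f
  c : A → ℤ_[p]
  idem : ∀ α, ∑ β, c β * c (β⁻¹ * α) = c α
  /-- the forms -/
  gW : G → W →ₗ[ℤ_[p]] W
  om : Tate p (Pic C K) →ₗ[ℤ_[p]] W
  om_gal : ∀ g u, om (Tate.map ((gal g).pic : Pic C K →+ Pic C K) u) = gW g (om u)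

namespace TPGeo

variable {p X} {G A W : Type*} [AddCommGroup W] [Module ℤ_[p] W] [Group A] [Fintype A]
  (d : TPGeo p X G A W)

/-- a Galois element as automorphism permuting the vertices -/
noncomputable def galV (g : G) : VAut X := ⟨d.gal g, fun v => v, fun w f => d.gal_v g w f⟩

/-- the action of a Galois element on the residue field -/
noncomputable def gs (g : G) (v : V) : SI Ct (κ v) Ct (κ v) :=
  (X v).ind (X v) (d.gal g) (d.gal_v g v)

theorem galV_τ (g : G) (v : V) : (d.galV g).τ v = d.gs g v := rfl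

theorem gs_ρ (g : G) (v : V) (f : K) (hf : (X v).v f ≤ 1) (hf' : (X v).v ((d.gal g).f f) ≤ 1) :
    (d.gs g v).f ((X v).ρ ⟨f, hf⟩) = (X v).ρ ⟨(d.gal g).f f, hf'⟩ :=
  Vtx.ind_ρ _ _ _ _ _ _ _

theorem gs_s (g : G) (v : V) (c : C) (h : B.v c ≤ 1) (h' : B.v ((d.gal g).s c) ≤ 1) :
    (d.gs g v).s (B.ρ ⟨c, h⟩) = B.ρ ⟨(d.gal g).s c, h'⟩ :=
  Res.ind_ρ_mk _ _ _ _ _ _ _

theorem gal_B (g : G) (v : V) (c : C) : B.v ((d.gal g).s c) = B.v c :=
  (X v).base_isom (X v) (d.gal g) (d.gal_v g v) c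

/-- the ends are fixed -/
theorem gs_pl (g : G) (v : V) (x : Pl Ct (κ v)) (hx : (⟨v, x⟩ : Σ v, Pl Ct (κ v)) ∈ d.N) :
    (d.gs g v).pl x = x := by
  ext y
  obtain ⟨⟨f, hf⟩, hy⟩ := (X v).surj ((d.gs g v).f.symm y)
  have hf1 : (X v).v f ≤ 1 := hf
  have hf' : (X v).v ((d.gal g).f f) ≤ 1 := by rw [d.gal_v]; exact hf1
  have hy2 : y = (X v).ρ ⟨(d.gal g).f f, hf'⟩ := by
    rw [← d.gs_ρ g v f hf1 hf']
    exact ((d.gs g v).f.symm_apply_eq.mp hy.symm)
  have h1 : ((d.gs g v).pl x).v y = x.v ((d.gs g v).f.symm y) := rfl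
  rw [h1, ← hy, hy2]
  exact (d.gal_end g v x hx f hf1 hf').symm

/-- an element fixed by Galois has a fixed reduction -/
theorem gs_fixed (g : G) (v : V) {y : κ v} (hy : y ∈ {y : κ v | ∃ (f : K) (h : (X v).v f ≤ 1),
    (∀ g, (d.gal g).f f = f) ∧ (X v).ρ ⟨f, h⟩ = y}) : (d.gs g v).f y = y := by
  obtain ⟨f, h, hf, rfl⟩ := hy
  rw [d.gs_ρ g v f h (by rw [hf g]; exact h)]
  congr 1
  exact Subtype.ext (hf g)

variable [IsAlgClosed Ct] [CharP Ct p] [Algebra (ZMod p) Ct] [Algebra.IsAlgebraic (ZMod p) Ct]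

/-- Frobenius on the constants -/
theorem frob_s (v : V) (t : Ct) : (d.gs d.frob v).s t = t ^ p ^ d.a := by
  obtain ⟨⟨c, hc⟩, rfl⟩ := B.surj t
  have hc' : B.v ((d.gal d.frob).s c) ≤ 1 := by rw [d.gal_B d.frob v]; exact hc
  rw [d.gs_s d.frob v c hc hc', d.frob_res c hc hc']

theorem frob_alg (v : V) (t : Ct) :
    (d.gs d.frob v).f (algebraMap Ct (κ v) t) = algebraMap Ct (κ v) (t ^ p ^ d.a) := by
  rw [(d.gs d.frob v).comm, d.frob_s]

theorem res_s (g : G) (v : V) (t : Ct) (ht : t ^ p ^ d.a = t) : (d.gs g v).s t = t := by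
  obtain ⟨⟨c, hc⟩, rfl⟩ := B.surj t
  have hc' : B.v ((d.gal g).s c) ≤ 1 := by rw [d.gal_B g v]; exact hc
  rw [d.gs_s g v c hc hc', d.res g c hc hc' ht]

/-- all the reductions of the constants agree -/
theorem gs_s_eq (g : G) (v w : V) : (d.gs g v).s = (d.gs g w).s := rfl

theorem frob_iterate_alg (v : V) (m : ℕ) (t : Ct) :
    (d.gs d.frob v).f^[m] (algebraMap Ct (κ v) t) = algebraMap Ct (κ v) (t ^ (p ^ d.a) ^ m) := by
  induction m with
  | zero => simp
  | succ m ih => rw [Function.iterate_succ_apply', ih, d.frob_alg, ← pow_mul, ← pow_succ]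

/-- the finite set of constants needed for an element of `κ v` -/
theorem exists_consts (v : V) (y : κ v) : ∃ S : Set Ct, S.Finite ∧ ∀ (g : G) (m : ℕ),
    (∀ t ∈ S, (d.gs g v).s t = t ^ (p ^ d.a) ^ m) → (d.gs g v).f y = (d.gs d.frob v).f^[m] y := by
  have hy : y ∈ Submodule.span Ct {y : κ v | ∃ (f : K) (h : (X v).v f ≤ 1),
      (∀ g, (d.gal g).f f = f) ∧ (X v).ρ ⟨f, h⟩ = y} := by
    rw [d.span v]
    trivial
  have hadd : ∀ (m : ℕ) (x y : κ v), (d.gs d.frob v).f^[m] (x + y) =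
      (d.gs d.frob v).f^[m] x + (d.gs d.frob v).f^[m] y := fun m x y =>
    iterate_map_add (d.gs d.frob v).f m x y
  have hmul : ∀ (m : ℕ) (x y : κ v), (d.gs d.frob v).f^[m] (x * y) =
      (d.gs d.frob v).f^[m] x * (d.gs d.frob v).f^[m] y := fun m x y =>
    iterate_map_mul (d.gs d.frob v).f m x y
  induction hy using Submodule.span_induction with
  | mem x hx =>
    refine ⟨∅, Set.finite_empty, fun g m _ => ?_⟩
    rw [d.gs_fixed g v hx]
    exact (Function.iterate_fixed (d.gs_fixed d.frob v hx) m).symm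
  | zero =>
    refine ⟨∅, Set.finite_empty, fun g m _ => ?_⟩
    rw [map_zero]
    exact (Function.iterate_fixed (map_zero (d.gs d.frob v).f) m).symm
  | add x y _ _ hx hy =>
    obtain ⟨S, hS, h1⟩ := hx
    obtain ⟨S', hS', h2⟩ := hy
    refine ⟨S ∪ S', hS.union hS', fun g m h => ?_⟩
    rw [map_add, h1 g m fun t ht => h t (Or.inl ht), h2 g m fun t ht => h t (Or.inr ht), hadd]
  | smul t x _ hx =>
    obtain ⟨S, hS, h1⟩ := hx
    refine ⟨insert t S, hS.insert t, fun g m h => ?_⟩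
    rw [Algebra.smul_def, map_mul, (d.gs g v).comm, h t (Set.mem_insert _ _),
      h1 g m fun t ht => h t (Set.mem_insert_of_mem _ ht), hmul, d.frob_iterate_alg]

/-- a Galois element acts on given reductions as a power of Frobenius -/
theorem exists_iterate [Finite V] (g : G) (y : ∀ v, κ v) :
    ∃ m : ℕ, ∀ v, (d.gs g v).f (y v) = (d.gs d.frob v).f^[m] (y v) := by
  rcases isEmpty_or_nonempty V with hV | ⟨⟨v0⟩⟩
  · exact ⟨0, fun v => hV.elim v⟩
  choose S hS h using fun v => d.exists_consts v (y v)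
  obtain ⟨m, hm⟩ := exists_pow (p := p) d.ha (d.gs g v0).s (fun c hc => d.res_s g v0 c hc)
    (Set.finite_iUnion hS)
  exact ⟨m, fun v => h v g m fun t ht => hm t (Set.mem_iUnion_of_mem v ht)⟩

/-- the covering automorphisms as automorphisms permuting the vertices -/
noncomputable def covV (α : A) : VAut X where
  σ := ⟨RingEquiv.refl C, (d.cov α).toRingEquiv, fun c => (d.cov α).commutes c⟩
  t w := (d.cov_v α w).choose
  h w f := (d.cov_v α w).choose_spec f

theorem covV_f (α : A) (f : K) : (d.covV α).σ.f f = d.cov α f := rfl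

theorem covV_mul_pic (α β : A) (z : Pic C K) :
    (d.covV (α * β)).act.pic z = (d.covV α).act.pic ((d.covV β).act.pic z) := by
  obtain ⟨A', rfl⟩ := QuotientAddGroup.mk_surjective z
  change (((d.covV (α * β)).σ.D A' : Pl C K →₀ ℤ) : Pic C K) =
    (((d.covV α).σ.D ((d.covV β).σ.D A') : Pl C K →₀ ℤ) : Pic C K)
  congr 1
  ext P
  rw [SI.D_apply, SI.D_apply, SI.D_apply]
  congr 1
  ext f
  change P.v (d.cov (α * β) f) = P.v (d.cov α (d.cov β f))
  rw [map_mul]
  rfl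

theorem cov_gal_pic (α : A) (g : G) (z : Pic C K) :
    (d.covV α).act.pic ((d.galV g).act.pic z) = (d.galV g).act.pic ((d.covV α).act.pic z) := by
  obtain ⟨A', rfl⟩ := QuotientAddGroup.mk_surjective z
  change (((d.covV α).σ.D ((d.galV g).σ.D A') : Pl C K →₀ ℤ) : Pic C K) =
    (((d.galV g).σ.D ((d.covV α).σ.D A') : Pl C K →₀ ℤ) : Pic C K)
  congr 1
  ext P
  rw [SI.D_apply, SI.D_apply, SI.D_apply, SI.D_apply]
  congr 1
  ext f
  change P.v (d.cov α ((d.gal g).f f)) = P.v ((d.gal g).f (d.cov α f))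
  rw [d.cov_gal]

/-- the operator of the idempotent -/
noncomputable def e : Tate p (Pic C K) →ₗ[ℤ_[p]] Tate p (Pic C K) :=
  eop d.c (fun α => (d.covV α).act.tate)

/-- divisibility of the reductions at the ends and at the discs -/
theorem exists_div {n : ℕ} {e : Additive Kˣ} (h : ∃ x, dv C K e = (p ^ n) • x)
    (hN : ∀ i ∈ d.N, ((p ^ n : ℕ) : ℤ) ∣ rall X e i.1 i.2) : ∃ y, rall X e = (p ^ n) • y := by
  refine exists_eq_smul_of_dvd_pi _ _ fun v x => ?_
  by_cases hx : (⟨v, x⟩ : Σ v, Pl Ct (κ v)) ∈ d.N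
  · exact hN _ hx
  · exact d.disc n e h v x hx

theorem frob_sub (n : ℕ) (e : Additive Kˣ) (h : ∃ x, dv C K e = (p ^ n) • x) :
    ∃ y, (d.galV d.frob).act.aD' (rall X e) - rall X e = (p ^ n) • y := by
  refine exists_eq_smul_of_dvd_pi _ _ fun v x => ?_
  have h1 : ((d.galV d.frob).act.aD' (rall X e) - rall X e) v x =
      rall X e v ((d.gs d.frob v).symm.pl x) - rall X e v x := by
    change (d.gs d.frob v).D (rall X e v) x - rall X e v x = _
    rw [SI.D_apply]
  rw [h1]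
  by_cases hx : (⟨v, x⟩ : Σ v, Pl Ct (κ v)) ∈ d.N
  · have h2 : (d.gs d.frob v).symm.pl x = x := by
      conv_lhs => rw [← d.gs_pl d.frob v x hx]
      exact SI.symm_pl_pl _ _
    rw [h2, sub_self]
    exact dvd_zero _
  · refine dvd_sub (d.disc n e h v _ fun hx' => hx ?_) (d.disc n e h v x hx)
    have h2 := d.gs_pl d.frob v _ hx'
    rw [SI.pl_symm_pl] at h2
    rw [h2]
    exact hx'

theorem gal_r [Finite V] (g : G) (e : Additive Kˣ) : ∃ m : ℕ,
    rall X ((d.galV g).act.aE e) = ((d.galV d.frob).act.aD')^[m] (rall X e) := by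
  choose c hc0 hc using fun v => (X v).toRedD.exists_div (e.toMul : K) (Units.ne_zero e.toMul)
  obtain ⟨m, hm⟩ := d.exists_iterate g (fun v => (X v).toRedD.rd (e.toMul : K) (c v) (hc v))
  refine ⟨m, ?_⟩
  rw [(d.galV g).act.r_aE]
  have h1 : ∀ (j : ℕ) (x : ∀ v, Pl Ct (κ v) →₀ ℤ) (v : V),
      ((d.galV d.frob).act.aD')^[j] x v = ((d.gs d.frob v).D)^[j] (x v) := by
    intro j
    induction j with
    | zero => intro x v; rfl
    | succ j ih =>
      intro x v
      rw [Function.iterate_succ_apply', Function.iterate_succ_apply', ← ih]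
      rfl
  have h2 : ∀ (v : V) (j : ℕ) (y : κ v), y ≠ 0 →
      ((d.gs d.frob v).D)^[j] (divf (k := Ct) y) = divf (k := Ct) ((d.gs d.frob v).f^[j] y) := by
    intro v j y hy
    induction j with
    | zero => rfl
    | succ j ih =>
      rw [Function.iterate_succ_apply', Function.iterate_succ_apply', ih]
      refine ((d.gs d.frob v).divf_f ?_).symm
      intro h0
      apply hy
      have h4 : ∀ (j : ℕ) (y : κ v), (d.gs d.frob v).f^[j] y = 0 → y = 0 := by
        intro j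
        induction j with
        | zero => intro y h; exact h
        | succ j ih2 =>
          intro y h
          rw [Function.iterate_succ_apply'] at h
          exact ih2 y ((map_eq_zero_iff _ (d.gs d.frob v).f.injective).mp h)
      exact h4 j y h0
  funext v
  have h3 : rall X e v = divf (k := Ct) ((X v).toRedD.rd (e.toMul : K) (c v) (hc v)) :=
    (X v).toRedD.rdv_eq e (hc0 v) (hc v)
  rw [h1, h3, h2 v m _ ((X v).toRedD.rd_ne_zero _ _ _), ← hm v]
  change (d.gs g v).D (rall X e v) = _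
  rw [h3]
  exact ((d.gs g v).divf_f ((X v).toRedD.rd_ne_zero _ _ _)).symm

/-- **The data of part 6.** -/
noncomputable def toIn [Fintype V]
    (om_zero : ∀ u : Tate p (Pic C K), d.e u = u →
      (∀ n e, Rep p (dv C K) (Prin C K) n (u n) e → ∃ y ∈ PrinR Ct κ, rall X e = (p ^ n) • y) →
        d.om u = 0)
    (om_inj : ∀ u : Tate p (Pic C K), d.e u = u → d.om u = 0 →
      ∀ n e, Rep p (dv C K) (Prin C K) n (u n) e →
        ∀ i ∈ d.N, ((p ^ n : ℕ) : ℤ) ∣ rall X e i.1 i.2) :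
    TPIn p (dv C K) (Prin C K) (rall X) (PrinR Ct κ) G A W where
  hP := mem_Prin_iff C K
  tfD := inferInstance
  tfD' := inferInstance
  hr := rall_const X d.hC
  hrP := rall_mem X
  fin := finite_torsion fun v => Frob4_914.finite_torsion
  frob := (d.galV d.frob).act
  fix := finite_fixed (fun v => d.gs d.frob v) _ (by
      intro z v
      obtain ⟨x, rfl⟩ := QuotientAddGroup.mk_surjective z
      rfl) (fun v => by
      have h := finite_fixed_pic (p := p) (a := d.a) d.ha (d.gs d.frob v).f (d.frob_alg v) (by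
        rw [eq_top_iff, ← d.span v]
        exact Submodule.span_mono fun y hy => d.gs_fixed d.frob v hy)
      exact h)
  frob_sub := d.frob_sub
  gal g := (d.galV g).act
  gal_r := d.gal_r
  cov α := (d.covV α).act
  c := d.c
  idem := d.idem
  cov_mul := d.covV_mul_pic
  cov_frob α z := d.cov_gal_pic α d.frob z
  cov_gal := d.cov_gal_pic
  gW := d.gW
  om := d.om
  om_gal := d.om_gal
  om_zero := om_zero
  om_inj u hu h0 n e he := d.exists_div
    (by obtain ⟨x, -, hx⟩ := he; exact ⟨x, hx⟩) (om_inj u hu h0 n e he)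

end TPGeo

end geo

end Crest.Agent.R013.TP_928
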