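import Mathlib

/-!
# R013 / C-TP (helper928), part 1: Tate modules of abelian groups

`Tate p A` = sequences `u : ℕ → A` with `u 0 = 0` and `p • u (n+1) = u n`, as a `ℤ_[p]`-module.
* functoriality `Tate.map`;
* `Tate.finite`: finitely generated over `ℤ_[p]` if `A[p]` is finite;
* `Tate.eq_zero_of_fixed`: a fixed vector of an endomorphism with finitely many `p`-power torsion
  fixed points is zero;
* `exists_pow_smul_mem_range`: an injective endomorphism of a finitely generated torsion free
  `ℤ_[p]`-module has finite cokernel.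
-/

set_option autoImplicit false
set_option linter.unusedSectionVars false

namespace Crest.Agent.R013.TP_928

open PadicInt

section basic

variable (p : ℕ) [hp : Fact p.Prime] (A : Type*) [AddCommGroup A]

/-- the Tate module as an additive subgroup of the sequences -/
def tateSub : AddSubgroup (ℕ → A) where
  carrier := {u | u 0 = 0 ∧ ∀ n, p • u (n + 1) = u n}
  add_mem' := by
    rintro u v ⟨h1, h2⟩ ⟨h3, h4⟩
    exact ⟨by simp [h1, h3], fun n => by simp [h2 n, h4 n]⟩
  zero_mem' := ⟨rfl, fun n => by simp⟩
  neg_mem' := by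
    rintro u ⟨h1, h2⟩
    exact ⟨by simp [h1], fun n => by simp [h2 n]⟩

/-- the Tate module -/
def Tate : Type _ := tateSub p A

instance : AddCommGroup (Tate p A) := inferInstanceAs (AddCommGroup (tateSub p A))

instance : FunLike (Tate p A) ℕ A where
  coe u := u.1
  coe_injective := Subtype.coe_injective

end basic

variable {p : ℕ} [hp : Fact p.Prime] {A : Type*} [AddCommGroup A]

namespace Tate

@[ext] theorem ext {u v : Tate p A} (h : ∀ n, u n = v n) : u = v :=
  DFunLike.ext _ _ h

@[simp] theorem zero_apply (n : ℕ) : (0 : Tate p A) n = 0 := rfl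
@[simp] theorem add_apply (u v : Tate p A) (n : ℕ) : (u + v) n = u n + v n := rfl
@[simp] theorem neg_apply (u : Tate p A) (n : ℕ) : (-u) n = -u n := rfl
@[simp] theorem sub_apply (u v : Tate p A) (n : ℕ) : (u - v) n = u n - v n := rfl

@[simp] theorem apply_zero (u : Tate p A) : u 0 = 0 := u.2.1

theorem apply_succ (u : Tate p A) (n : ℕ) : p • u (n + 1) = u n := u.2.2 n

/-- constructor -/
def mk (u : ℕ → A) (h0 : u 0 = 0) (h : ∀ n, p • u (n + 1) = u n) : Tate p A := ⟨u, h0, h⟩

@[simp] theorem mk_apply (u : ℕ → A) (h0 : u 0 = 0) (h : ∀ n, p • u (n + 1) = u n) (n : ℕ) :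
    mk u h0 h n = u n := rfl

theorem pow_smul_apply_add (u : Tate p A) (n m : ℕ) : (p ^ m) • u (n + m) = u n := by
  induction m with
  | zero => simp
  | succ m ih => rw [pow_succ, mul_smul, ← add_assoc, u.apply_succ, ih]

theorem pow_smul_apply (u : Tate p A) (n : ℕ) : (p ^ n) • u n = 0 := by
  have := u.pow_smul_apply_add 0 n
  simpa using this

end Tate

/-- the action of `ZMod (p^n)` on elements killed by `p^n` -/
theorem mod_smul {n : ℕ} {x : A} (hx : (p ^ n) • x = 0) (a : ℕ) :
    (a % p ^ n) • x = a • x := by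
  conv_rhs => rw [← Nat.mod_add_div a (p ^ n), add_smul, mul_comm, mul_smul, hx, smul_zero,
    add_zero]

theorem smul_congr {n : ℕ} {x : A} (hx : (p ^ n) • x = 0) {a b : ℕ}
    (h : (a : ZMod (p ^ n)) = b) : a • x = b • x := by
  rw [← mod_smul hx a, ← mod_smul hx b]
  rw [ZMod.natCast_eq_natCast_iff'] at h
  rw [h]

/-- the representative of a `p`-adic integer modulo `p^n` -/
noncomputable def rp (a : ℤ_[p]) (n : ℕ) : ℕ := (toZModPow n a).val

theorem natCast_rp (a : ℤ_[p]) (n : ℕ) : ((rp a n : ℕ) : ZMod (p ^ n)) = toZModPow n a := by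
  have : NeZero (p ^ n) := ⟨pow_ne_zero _ hp.out.ne_zero⟩
  exact ZMod.natCast_zmod_val _

theorem natCast_rp_le (a : ℤ_[p]) {m n : ℕ} (h : m ≤ n) :
    ((rp a n : ℕ) : ZMod (p ^ m)) = toZModPow m a := by
  have h1 := zmod_cast_comp_toZModPow (p := p) m n h
  rw [← h1, RingHom.comp_apply, ← natCast_rp, map_natCast]

namespace Tate

noncomputable instance : SMul ℤ_[p] (Tate p A) where
  smul a u := mk (fun n => rp a n • u n) (by simp) (fun n => by
    rw [smul_comm, u.apply_succ]
    exact smul_congr (u.pow_smul_apply n) (by rw [natCast_rp_le a n.le_succ, natCast_rp]))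

theorem smul_apply (a : ℤ_[p]) (u : Tate p A) (n : ℕ) : (a • u) n = rp a n • u n := rfl

/-- the value of `a • u` at `n` for any representative of `a` modulo `p^n` -/
theorem smul_apply_of {a : ℤ_[p]} {n m : ℕ} (h : toZModPow n a = (m : ZMod (p ^ n)))
    (u : Tate p A) : (a • u) n = m • u n := by
  rw [smul_apply]
  exact smul_congr (u.pow_smul_apply n) (by rw [natCast_rp, h])

noncomputable instance : Module ℤ_[p] (Tate p A) where
  one_smul u := by
    ext n
    rw [smul_apply_of (m := 1) (by simp), one_smul]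
  mul_smul a b u := by
    ext n
    rw [smul_apply_of (m := rp a n * rp b n) (by simp [natCast_rp]), mul_smul, smul_apply,
      smul_apply]
  smul_zero a := by ext n; simp [smul_apply]
  smul_add a u v := by ext n; simp [smul_apply]
  add_smul a b u := by
    ext n
    rw [smul_apply_of (m := rp a n + rp b n) (by simp [natCast_rp]), add_smul]
    rfl
  zero_smul u := by
    ext n
    rw [smul_apply_of (m := 0) (by simp)]
    simp

theorem nsmul_apply (m : ℕ) (u : Tate p A) (n : ℕ) : (m • u) n = m • u n := by
  rw [← Nat.cast_smul_eq_nsmul ℤ_[p] m u]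
  exact smul_apply_of (by simp) u

theorem natCast_smul_apply (m : ℕ) (u : Tate p A) (n : ℕ) :
    (((m : ℕ) : ℤ_[p]) • u) n = m • u n := by
  exact smul_apply_of (by simp) u

theorem pow_smul_eq (m : ℕ) (u : Tate p A) : ((p : ℤ_[p]) ^ m) • u = (p ^ m) • u := by
  rw [← Nat.cast_pow, Nat.cast_smul_eq_nsmul]

/-- shift: division by `p` of a vector with trivial first component -/
def shift (u : Tate p A) (h : u 1 = 0) : Tate p A :=
  mk (fun n => u (n + 1)) h (fun n => u.apply_succ (n + 1))

@[simp] theorem shift_apply (u : Tate p A) (h : u 1 = 0) (n : ℕ) :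
    u.shift h n = u (n + 1) := rfl

theorem smul_shift (u : Tate p A) (h : u 1 = 0) : p • u.shift h = u := by
  ext n
  rw [nsmul_apply, shift_apply, u.apply_succ]

/-- the Tate module is torsion free -/
theorem eq_zero_of_smul_eq_zero {u : Tate p A} (h : p • u = 0) : u = 0 := by
  ext n
  have := congrArg (fun v : Tate p A => v (n + 1)) h
  simpa [nsmul_apply, u.apply_succ] using this

theorem eq_zero_of_pow_smul_eq_zero {u : Tate p A} {m : ℕ} (h : (p ^ m) • u = 0) : u = 0 := by
  induction m with
  | zero => simpa using h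
  | succ m ih =>
    rw [pow_succ', mul_smul] at h
    exact ih (eq_zero_of_smul_eq_zero h)

instance : Module.IsTorsionFree ℤ_[p] (Tate p A) := by
  rw [Module.isTorsionFree_iff_smul_eq_zero]
  intro a u h
  by_cases ha : a = 0
  · exact Or.inl ha
  right
  rw [PadicInt.unitCoeff_spec ha, mul_smul] at h
  have h1 : ((p : ℤ_[p]) ^ a.valuation) • u = 0 := by
    have := congrArg (fun v => ((PadicInt.unitCoeff ha)⁻¹ : ℤ_[p]ˣ) • v) h
    simpa [Units.smul_def, smul_smul] using this
  rw [pow_smul_eq] at h1
  exact eq_zero_of_pow_smul_eq_zero h1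

/-- functoriality -/
noncomputable def map {B : Type*} [AddCommGroup B] (f : A →+ B) : Tate p A →ₗ[ℤ_[p]] Tate p B where
  toFun u := mk (fun n => f (u n)) (by simp) (fun n => by rw [← map_nsmul, u.apply_succ])
  map_add' u v := by ext n; simp
  map_smul' a u := by ext n; simp [smul_apply]

@[simp] theorem map_apply {B : Type*} [AddCommGroup B] (f : A →+ B) (u : Tate p A) (n : ℕ) :
    map f u n = f (u n) := rfl

/-- every element killed by `p` lifts to the Tate module of a `p`-divisible group -/
theorem exists_lift (hdiv : ∀ x : A, ∃ y, p • y = x) {n : ℕ} (x : A) (hx : (p ^ n) • x = 0) :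
    ∃ u : Tate p A, u n = x := by
  choose d hd using hdiv
  refine ⟨mk (fun m => if m ≤ n then (p ^ (n - m)) • x else (d^[m - n]) x) ?_ ?_, ?_⟩
  · simp [hx]
  · intro m
    by_cases h1 : m + 1 ≤ n
    · rw [if_pos h1, if_pos (by omega), ← mul_smul, ← pow_succ']
      congr 2
      omega
    · by_cases h2 : m ≤ n
      · have h3 : m = n := by omega
        subst h3
        simp [hd]
      · rw [if_neg h1, if_neg h2, show m + 1 - n = (m - n) + 1 by omega,
          Function.iterate_succ_apply', hd]
  · simp

end Tate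

end Crest.Agent.R013.TP_928
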