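import Crest.Prelude.Def_SectConj
import Crest.Agent.R013.SSDefs_332
import Crest.Agent.R013.EE4_809
import Crest.Agent.R013.DEm1_719
import Crest.Agent.R013.Desc2_372
import Crest.Agent.R013.TopE1_957
import Crest.Agent.R013.GR3_921
import Crest.Agent.R013.PicD_398
import Crest.Agent.R013.TP1_928
import Crest.Agent.R013.TP10_928

/-!
# Row 13, part C: the definitions used in the assembly of `GOOD` (helper588)

`C` = algebraic closure of `ℚ_[p]`, normed; `K` = a function field over `C` (948's context);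
`S : SSK ℚ_[p] C K` a semistable structure (332).

* `SplitPl C K L` : `K` is dense in `L` at all places of `L/C` (i.e. `L/K` is unramified);
* `NdLe`, `NdLt`, `CN`, `RegAt`, `tw`, `Cary` : norms and reductions of the differential `g dX`,
  written with functions of `K` only;
* `Inh S S'` : the semistable structure of `L` lies over that of `K`;
* the leaves of part C as `def … : Prop`.
-/

set_option autoImplicit false
set_option linter.all false

namespace Crest.Agent.R013.CDefs_588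

open scoped NNReal
open WithZero
open Crest.NumberTheoryR.Sect
open Crest.Agent.R013.RR7_948 Crest.Agent.R013.RR8_948 Crest.Agent.R013.RR9_948
open Crest.Agent.R013.RR11_948 Crest.Agent.R013.RR14_948 Crest.Agent.R013.PicD_398
open Crest.Agent.R013.Red332 Crest.Agent.R013.SSK_332 Crest.Agent.R013.EE809
open Crest.Agent.R013.Cell_408 Crest.Agent.R013.DEm_719 Crest.Agent.R013.Desc_372
open Crest.Agent.R013.GR3_921 Crest.Agent.R013.TP_928
open Crest.Agent.R013.TopE1_957 (SplitAt)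

/-! ### differentials -/

section nd

variable {C : Type*} [NormedField C] [IsUltrametricDist C] [CharZero C] {K : Type*} [Field K]
  [Algebra C K] [Algebra (RatFunc C) K] [IsScalarTower C (RatFunc C) K]
  [FiniteDimensional (RatFunc C) K]

/-- the norm at `w` of the differential `g dX` is at most `r` -/
def NdLe (w : Nm C K) (g : K) (r : ℝ≥0) : Prop :=
  ∃ T : K, w.v T ≤ 1 ∧ w.v g ≤ r * w.v (del C K T)

/-- the norm at `w` of the differential `g dX` is smaller than `r` -/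
def NdLt (w : Nm C K) (g : K) (r : ℝ≥0) : Prop :=
  ∃ T : K, w.v T ≤ 1 ∧ w.v g < r * w.v (del C K T)

/-- the reduction at `w` of `g dX` (of norm `≤ 1`) is `∑ i < n, f_i ^ (p ^ i - 1) df_i`
(i.e. it is killed by the `n`-th iterate of the Cartier operator) -/
def CN (p : ℕ) (w : Nm C K) (g : K) : Prop :=
  ∃ (n : ℕ) (f : ℕ → K), (∀ i, w.v (f i) ≤ 1) ∧
    NdLt w (g - ∑ i ∈ Finset.range n, f i ^ (p ^ i - 1) * del C K (f i)) 1

/-- the reduction at `w` of `g dX` (of norm `≤ 1`) is regular at the place `x` of `kap w`: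
it is `s dt` there, `t` a uniformiser, `s` integral -/
def RegAt (w : Nm C K) (x : Pl (Ct C) (kap w)) (g : K) : Prop :=
  ∃ t s : K, w.v t ≤ 1 ∧ w.v s ≤ 1 ∧ x.v (red w t) = exp (-1) ∧ x.v (red w s) ≤ 1 ∧
    NdLt w (g - s * del C K t) 1

/-- `σ (g dX) = (tw σ g) dX` -/
noncomputable def tw (σ : K ≃ₐ[C] K) (g : K) : K := σ g * del C K (σ (xK C K))

end nd

section ss

variable {p : ℕ} [Fact p.Prime] {C : Type*} [NormedField C] [IsUltrametricDist C]
  [NormedAlgebra ℚ_[p] C] [Algebra.IsAlgebraic ℚ_[p] C]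

/-- idempotent of the group algebra -/
def Idem {A : Type*} [Group A] [Fintype A] (c : A → ℤ_[p]) : Prop :=
  ∀ α, ∑ β, c β * c (β⁻¹ * α) = c α

/-- **(CARY)** a global differential `g dX` with, at every vertex, norm `≤ 1` and a regular,
Cartier nilpotent reduction, whose reductions are invariant under the idempotent `c`, has zero
reduction at every vertex -/
def Cary [CharZero C] {K : Type*} [Field K]
    [Algebra C K] [Algebra (RatFunc C) K] [IsScalarTower C (RatFunc C) K]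
    [FiniteDimensional (RatFunc C) K] (S : SSK ℚ_[p] C K) {A : Type*} [Group A] [Fintype A]
    (ρ : A →* (K ≃ₐ[C] K)) (c : A → ℤ_[p]) : Prop :=
  ∀ g : K, (∀ w : S.V, NdLe (S.nm w) g 1) → (∀ w : S.V, CN p (S.nm w) g) →
    (∀ (w : S.V) (x : Pl (Ct C) (kap (S.nm w))), RegAt (S.nm w) x g) →
    (∀ w : S.V, NdLt (S.nm w)
      (g - ∑ α, ((PadicInt.toZMod (c α)).val : K) * tw (ρ α) g) 1) →
    ∀ w : S.V, NdLt (S.nm w) g 1

variable {K : Type*} [Field K] [Algebra C K] {L : Type*} [Field L] [Algebra C L] [Algebra K L]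
  [IsScalarTower C K L]

variable (C K L) in
/-- `L/K` is completely split (equivalently: unramified) at all places -/
def SplitPl : Prop := ∀ v : Valuation K ℝ≥0, IsPlace C v → SplitAt v L

variable (L) in
/-- `L/K` is completely split at the vertices -/
def SplitV (S : SSK ℚ_[p] C K) : Prop := ∀ v : S.V, SplitAt (S.nm v).v L

/-- the semistable structure `S'` of `L` lies over the semistable structure `S` of `K`
(770's inheritance) -/
structure Inh (S : SSK ℚ_[p] C K) (S' : SSK ℚ_[p] C L) where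
  vm : S'.V → S.V
  nm_vm : ∀ w f, (S'.nm w).v (algebraMap K L f) = (S.nm (vm w)).v f
  vall : ∀ (w : Nm C L) (v : S.V), (∀ f : K, w.v (algebraMap K L f) = (S.nm v).v f) →
    ∃ w' : S'.V, S'.nm w' = w
  dm : S'.Dir → S.Dir
  dm_fst : ∀ d, (dm d).1 = vm d.1
  em_dm : ∀ d f, S'.em d (algebraMap K L f) = S.em (dm d) f
  edm : S'.Ed → S.Ed
  cc_edm : ∀ e, S'.cc e = S.cc (edm e)
  e0_edm : ∀ e, dm (S'.e0 e) = S.e0 (edm e)
  e1_edm : ∀ e, dm (S'.e1 e) = S.e1 (edm e)
  e0_lift : ∀ (d : S'.Dir) (e : S.Ed), dm d = S.e0 e → ∃ e' : S'.Ed, S'.e0 e' = d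
  e1_lift : ∀ (d : S'.Dir) (e : S.Ed), dm d = S.e1 e → ∃ e' : S'.Ed, S'.e1 e' = d
  card_Ed : Nat.card S'.Ed = Module.finrank K L * Nat.card S.Ed
  free : ∀ (σ : L ≃ₐ[K] L) (d : S'.Dir), (∀ f, (S'.nm d.1).v (σ f) = (S'.nm d.1).v f) →
    (∀ f, f ≠ 0 → Red332.od (S'.nm d.1) d.2 (σ f) = Red332.od (S'.nm d.1) d.2 f) → σ = 1

end ss

/-- automorphisms over `K` as automorphisms over `C` -/
def restrictScalarsHom (C K L : Type*) [Field C] [Field K] [Field L] [Algebra C K] [Algebra K L]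
    [Algebra C L] [IsScalarTower C K L] : (L ≃ₐ[K] L) →* (L ≃ₐ[C] L) where
  toFun σ := σ.restrictScalars C
  map_one' := rfl
  map_mul' _ _ := rfl

/-! ### intermediate fields -/

section inter

variable {C : Type*} [Field C] {K : Type*} [Field K] [Algebra C K] [Algebra (RatFunc C) K]
  [IsScalarTower C (RatFunc C) K] [FiniteDimensional (RatFunc C) K]
  {Ω : Type*} [Field Ω] [Algebra K Ω] [Algebra C Ω] [IsScalarTower C K Ω]
  [Algebra (RatFunc C) Ω] [IsScalarTower (RatFunc C) K Ω]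

instance instTowC (L : IntermediateField K Ω) : IsScalarTower C K L :=
  IsScalarTower.of_algebraMap_eq fun x => Subtype.ext (IsScalarTower.algebraMap_apply C K Ω x)

instance instTowR (L : IntermediateField K Ω) : IsScalarTower (RatFunc C) K L :=
  IsScalarTower.of_algebraMap_eq fun x =>
    Subtype.ext (IsScalarTower.algebraMap_apply (RatFunc C) K Ω x)

instance instTowCR (L : IntermediateField K Ω) : IsScalarTower C (RatFunc C) L :=
  IsScalarTower.of_algebraMap_eq fun x => by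
    rw [IsScalarTower.algebraMap_apply (RatFunc C) K L, ← IsScalarTower.algebraMap_apply C (RatFunc C) K,
      ← IsScalarTower.algebraMap_apply C K L]

instance instFD (L : IntermediateField K Ω) [FiniteDimensional K L] :
    FiniteDimensional (RatFunc C) L :=
  FiniteDimensional.trans (RatFunc C) K L

end inter

/-! ### the leaves -/

section leaves

variable (p : ℕ) [Fact p.Prime] (C : Type) [NormedField C] [IsUltrametricDist C]
  [NormedAlgebra ℚ_[p] C] [Algebra.IsAlgebraic ℚ_[p] C] [IsAlgClosed C] [CharZero C]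

/-- **(SS)** semistable reduction (332, 607, 460, …) -/
def SSALL : Prop :=
  ∀ (K : Type) [Field K] [Algebra C K] [Algebra (RatFunc C) K] [IsScalarTower C (RatFunc C) K]
    [FiniteDimensional (RatFunc C) K], Nonempty (SSK ℚ_[p] C K)

/-- **(CONN)** every semistable structure has a connected graph (315) -/
def CONNALL : Prop :=
  ∀ (K : Type) [Field K] [Algebra C K] [Algebra (RatFunc C) K] [IsScalarTower C (RatFunc C) K]
    [FiniteDimensional (RatFunc C) K] (S : SSK ℚ_[p] C K), S.Conn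

/-- **(A1)** (903, 921) an unramified cover with a cycle in its graph -/
def A1 : Prop :=
  ∀ (K : Type) [Field K] [Algebra C K] [Algebra (RatFunc C) K] [IsScalarTower C (RatFunc C) K]
    [FiniteDimensional (RatFunc C) K] (Ω : Type) [Field Ω] [Algebra K Ω] [Algebra C Ω]
    [IsScalarTower C K Ω] [IsAlgClosed Ω], 2 ≤ gen C K →
    ∃ L : IntermediateField K Ω, FiniteDimensional K L ∧ SplitPl C K L ∧
      ∃ S : SSK ℚ_[p] C L, Nat.card S.V ≤ Nat.card S.Ed ∧
        Nat.card {v : S.V // HasGen (Ct C) (kap (S.nm v)) 0} < Nat.card S.Ed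

/-- **(INH-TOP)** (770, 957) inheritance by abelian covers completely split at the vertices and at
the places -/
def INHTOP : Prop :=
  ∀ (K : Type) [Field K] [Algebra C K] [Algebra (RatFunc C) K] [IsScalarTower C (RatFunc C) K]
    [FiniteDimensional (RatFunc C) K] (L : Type) [Field L] [Algebra K L] [Algebra C L]
    [IsScalarTower C K L] [FiniteDimensional K L] [IsGalois K L] (S : SSK ℚ_[p] C K),
    (∀ σ τ : L ≃ₐ[K] L, σ * τ = τ * σ) → SplitPl C K L → SplitV L S →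
    ∃ S' : SSK ℚ_[p] C L, Nonempty (Inh S S')

/-- **(INH-KUM)** (770) inheritance by Kummer covers of degree prime to `p` -/
def INHKUM : Prop :=
  ∀ (K : Type) [Field K] [Algebra C K] [Algebra (RatFunc C) K] [IsScalarTower C (RatFunc C) K]
    [FiniteDimensional (RatFunc C) K] (L : Type) [Field L] [Algebra K L] [Algebra C L]
    [IsScalarTower C K L] (S : SSK ℚ_[p] C K) (N : ℕ) (h : K) (y : L),
    ¬ p ∣ N → h ≠ 0 → y ^ N = algebraMap K L h → IntermediateField.adjoin K {y} = ⊤ →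
    (∀ P : Pl C K, ∃ m : ℤ, P.v h = exp (N * m)) →
    (∀ d : S.Dir, (N : ℤ) ∣ Red332.od (S.nm d.1) d.2 h) →
    ∃ S' : SSK ℚ_[p] C L, Nonempty (Inh S S')

/-- **(TOPC)** (671, 92, 102) large topological covers -/
def TOPC : Prop :=
  ∀ (K : Type) [Field K] [Algebra C K] [Algebra (RatFunc C) K] [IsScalarTower C (RatFunc C) K]
    [FiniteDimensional (RatFunc C) K] (Ω : Type) [Field Ω] [Algebra K Ω] [Algebra C Ω]
    [IsScalarTower C K Ω] [IsAlgClosed Ω] (S : SSK ℚ_[p] C K), S.Conn →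
    Nat.card S.V ≤ Nat.card S.Ed → ∀ N : ℕ,
    ∃ L : IntermediateField K Ω, FiniteDimensional K L ∧ IsGalois K L ∧
      (∀ σ τ : L ≃ₐ[K] L, σ * τ = τ * σ) ∧ (∃ a : ℕ, Module.finrank K L = p ^ a) ∧
      N ≤ Module.finrank K L ∧ SplitPl C K L ∧ SplitV L S

/-- the output of (A2) -/
def A2Out {K : Type} [Field K] [Algebra C K] [Algebra (RatFunc C) K]
    [IsScalarTower C (RatFunc C) K] [FiniteDimensional (RatFunc C) K] (L : Type) [Field L]
    [Algebra K L] [Algebra C L] [IsScalarTower C K L] [Algebra (RatFunc C) L]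
    [IsScalarTower C (RatFunc C) L] [FiniteDimensional (RatFunc C) L] [FiniteDimensional K L]
    (S : SSK ℚ_[p] C K) : Prop :=
  IsGalois K L ∧ (∀ σ τ : L ≃ₐ[K] L, σ * τ = τ * σ) ∧ ¬ p ∣ Module.finrank K L ∧
  SplitPl C K L ∧ ∃ (S' : SSK ℚ_[p] C L) (i : Inh S S') (c : (L ≃ₐ[K] L) → ℤ_[p]),
    c ≠ 0 ∧ Idem c ∧
    (∀ w : S'.V, (HasGen (Ct C) (kap (S.nm (i.vm w))) 0 ∧
        ∀ σ : L ≃ₐ[K] L, (∀ f, (S'.nm w).v (σ f) = (S'.nm w).v f) → σ = 1) ∨
      ∃ (B : Subgroup (L ≃ₐ[K] L)) (_ : Fintype B),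
        (∀ σ ∈ B, ∀ f, (S'.nm w).v (σ f) = (S'.nm w).v f) ∧
        ∀ a : L ≃ₐ[K] L, ∑ b : B, c (a * (b : L ≃ₐ[K] L)) = 0) ∧
    Cary S' (restrictScalarsHom C K L) c

/-- **(A2)** (COUNT, C-LIFTN, INH-KUM, CARTIER: 127, 560, 700, 903, 770) -/
def A2 : Prop :=
  ∀ (K : Type) [Field K] [Algebra C K] [Algebra (RatFunc C) K] [IsScalarTower C (RatFunc C) K]
    [FiniteDimensional (RatFunc C) K] (Ω : Type) [Field Ω] [Algebra K Ω] [Algebra C Ω]
    [IsScalarTower C K Ω] [IsAlgClosed Ω] [Algebra (RatFunc C) Ω] [IsScalarTower (RatFunc C) K Ω]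
    (S : SSK ℚ_[p] C K), ∃ (L : IntermediateField K Ω) (_ : FiniteDimensional K L), A2Out p C L S

/-- **(ND)** (359, 310) the norm of differentials at a vertex -/
def NDALL : Prop :=
  ∀ (K : Type) [Field K] [Algebra C K] [Algebra (RatFunc C) K] [IsScalarTower C (RatFunc C) K]
    [FiniteDimensional (RatFunc C) K] (S : SSK ℚ_[p] C K) (w : S.V),
    ∃ T : K, (S.nm w).v T ≤ 1 ∧ del C K T ≠ 0 ∧
      ∀ f : K, (S.nm w).v f ≤ 1 → (S.nm w).v (del C K f) ≤ (S.nm w).v (del C K T)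

/-- **(M1C)** (359) = M1 + CARTC: `h` with divisor divisible by `p ^ n` and all reductions
`p ^ n`-th powers, `|c| ≥` all norms of `dlog h`, `|c| > |p ^ n|` -/
def M1C : Prop :=
  ∀ (K : Type) [Field K] [Algebra C K] [Algebra (RatFunc C) K] [IsScalarTower C (RatFunc C) K]
    [FiniteDimensional (RatFunc C) K] (S : SSK ℚ_[p] C K) (h : K) (n : ℕ) (c : C),
    h ≠ 0 → (∀ P : Pl C K, ∃ m : ℤ, P.v h = exp ((p ^ n : ℕ) * m)) →
    (∀ w : S.V, ∃ (a : C) (f : K), a ≠ 0 ∧ (S.nm w).v f = 1 ∧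
      (S.nm w).v (h / (algebraMap C K a * f ^ p ^ n) - 1) < 1) →
    (∀ w : S.V, NdLe (S.nm w) (del C K h / h) ‖c‖₊) → ‖(p : C)‖ ^ n < ‖c‖ →
    ∀ w : S.V, CN p (S.nm w) (del C K h / (algebraMap C K c * h)) ∧
      ∀ x : Pl (Ct C) (kap (S.nm w)), RegAt (S.nm w) x (del C K h / (algebraMap C K c * h))

/-- **(DISCDIV)** (770, 931, 310) slopes of `n`-divisible functions at disc directions -/
def DISCDIV : Prop :=
  ∀ (K : Type) [Field K] [Algebra C K] [Algebra (RatFunc C) K] [IsScalarTower C (RatFunc C) K]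
    [FiniteDimensional (RatFunc C) K] (S : SSK ℚ_[p] C K) (h : K) (n : ℕ),
    h ≠ 0 → (∀ P : Pl C K, ∃ m : ℤ, P.v h = exp (n * m)) →
    ∀ d : S.Dir, S.IsDisc d → (n : ℤ) ∣ Red332.od (S.nm d.1) d.2 h

/-- **(SLOPES)** (671) the slopes of `T = Tate p (Pic C K)` are all the flows on the graph -/
def SLOPES : Prop :=
  ∀ (K : Type) [Field K] [Algebra C K] [Algebra (RatFunc C) K] [IsScalarTower C (RatFunc C) K]
    [FiniteDimensional (RatFunc C) K] (S : SSK ℚ_[p] C K) (x : S.Ed → ℤ_[p]),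
    (∀ v : S.V, (∑ᶠ e ∈ {e : S.Ed | (S.e0 e).1 = v}, x e) =
      ∑ᶠ e ∈ {e : S.Ed | (S.e1 e).1 = v}, x e) →
    ∃ u : Tate p (Pic C K), ∀ (n : ℕ) (g : Additive Kˣ), Rep p (dv C K) (Prin C K) n (u n) g →
      ∀ e : S.Ed, PadicInt.toZModPow n (x e) =
        ((Red332.od (S.nm (S.e0 e).1) (S.e0 e).2 ((g.toMul : Kˣ) : K) : ℤ) : ZMod (p ^ n))

/-- **(FROBC)** Frobenius in the Galois group of the constants -/
def FROBC : Prop :=
  ∀ (k₁ : Type) [Field k₁] [Algebra ℚ_[p] k₁] [FiniteDimensional ℚ_[p] k₁] [Algebra k₁ C]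
    [IsScalarTower ℚ_[p] k₁ C], ∃ a : ℕ, a ≠ 0 ∧
    (∀ (g : C ≃ₐ[k₁] C) (c : C), ‖c‖₊ ≤ 1 → (rc c) ^ p ^ a = rc c → rc (g c) = rc c) ∧
    ∃ φ : C ≃ₐ[k₁] C, ∀ c : C, ‖c‖₊ ≤ 1 → rc (φ c) = (rc c) ^ p ^ a

variable {p C} in
/-- `g` fixes the norms of the vertices -/
def FixV {K : Type} [Field K] [Algebra C K] (S : SSK ℚ_[p] C K) (g : K ≃+* K) : Prop :=
  ∀ v f, (S.nm v).v (g f) = (S.nm v).v f

variable {p C} in
/-- the embedding at the direction `d` is equivariant for `(s, g)` -/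
def EqE {K : Type} [Field K] [Algebra C K] (S : SSK ℚ_[p] C K) (d : S.Dir)
    (s : C ≃ₐ[ℚ_[p]] C) (g : K ≃+* K) : Prop :=
  ∀ f, S.em d (g f) = actEE s (S.em d f)

/-- **(DESC)** (719, 372, 429) over a finite extension `k'` of the constants everything is
invariant -/
def DESC : Prop :=
  ∀ (k₀ K₀ K : Type) [Field k₀] [Algebra ℚ_[p] k₀] [FiniteDimensional ℚ_[p] k₀] [Algebra k₀ C]
    [IsScalarTower ℚ_[p] k₀ C] [Normal k₀ C] [Field K₀] [Algebra k₀ K₀] [Field K] [Algebra C K]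
    [Algebra (RatFunc C) K] [IsScalarTower C (RatFunc C) K] [FiniteDimensional (RatFunc C) K]
    [Algebra k₀ K] [Algebra K₀ K] [IsScalarTower k₀ C K] [IsScalarTower k₀ K₀ K] [CE k₀ C K₀ K]
    (_ : (⊤ : IntermediateField k₀ K₀).FG) (S : SSK ℚ_[p] C K) (D : Set S.Dir), D.Finite →
    ∃ k' : IntermediateField k₀ C, FiniteDimensional k₀ k' ∧
      (∀ g ∈ CE.Gam K₀ K k', FixV S (g : K ≃+* K) ∧
        (∀ e, CE.res k₀ C K₀ K g (S.cc e) = S.cc e) ∧
        (∀ d ∈ D, EqE S d ((CE.res k₀ C K₀ K g).restrictScalars ℚ_[p]) (g : K ≃+* K)) ∧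
        ∀ e, EqE S (S.e0 e) ((CE.res k₀ C K₀ K g).restrictScalars ℚ_[p]) (g : K ≃+* K) ∧
          EqE S (S.e1 e) ((CE.res k₀ C K₀ K g).restrictScalars ℚ_[p]) (g : K ≃+* K)) ∧
      ∀ v : S.V, Submodule.span (Ct C) {y : kap (S.nm v) | ∃ f : K, (S.nm v).v f ≤ 1 ∧
        (∀ g ∈ CE.Gam K₀ K k', g f = f) ∧ red (S.nm v) f = y} = ⊤

end leaves

end Crest.Agent.R013.CDefs_588
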