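import Crest.Agent.R013.CB1i_903
import Crest.Agent.R013.ExKum_903
import Crest.Agent.R013.CDefs_588
import Crest.Agent.R013.Inh12_770

/-!
# (A1): strict inequality, density at the places, transport; 588's form of (A1)
-/

set_option autoImplicit false
set_option linter.unusedSectionVars false

namespace Crest.Agent.R013.CB1_903

open scoped NNReal
open WithZero
open Crest.NumberTheoryR.Sect
open Crest.Agent.R013.RR7_948 Crest.Agent.R013.Red332 Crest.Agent.R013.GR3_921
open Crest.Agent.R013.RR11_948 Crest.Agent.R013.RR12_948 Crest.Agent.R013.GR2_921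
open Crest.Agent.R013.Cell_408 (DiscNorm)
open Crest.Agent.R013.SSK_332 Crest.Agent.R013.EE809
open Crest.Agent.R013.TopE1_957 (SplitAt)
open Crest.Agent.R013.Inh_770

universe u

section Dense

variable {C K L : Type*} [Field C] [IsAlgClosed C] [Field K] [Field L]
  [Algebra C K] [Algebra C L] [Algebra K L] [IsScalarTower C K L] [Algebra (RatFunc C) L]
  [IsScalarTower C (RatFunc C) L] [FiniteDimensional (RatFunc C) L]
  [Algebra.IsSeparable (RatFunc C) L]

/-- `K` is dense in `L` at an unramified place -/
theorem dense_of_unr (Q : Pl C L) {t : K} (ht : Q.v (algebraMap K L t) = exp (-1)) (f : L)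
    (n : ℕ) : ∃ g : K, Q.v (f - algebraMap K L g) ≤ exp (-(n : ℤ)) := by
  have key : ∀ (m : ℤ) (j : ℕ) (f : L), Q.v f ≤ exp m →
      ∃ g : K, Q.v (f - algebraMap K L g) ≤ exp (m - j) := by
    intro m j f hf
    induction j with
    | zero => exact ⟨0, by rw [map_zero, sub_zero, Nat.cast_zero, sub_zero]; exact hf⟩
    | succ j ih =>
      obtain ⟨g, hg⟩ := ih
      rcases hg.lt_or_eq with h1 | h1
      · refine ⟨g, ?_⟩
        by_cases h0 : Q.v (f - algebraMap K L g) = 0
        · rw [h0]; exact zero_le
        · rw [← exp_log h0] at h1 ⊢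
          rw [exp_lt_exp] at h1
          rw [exp_le_exp]
          push_cast
          omega
      · set s : K := t ^ (-(m - j)) with hs
        have hsv : Q.v (algebraMap K L s) = exp (m - j) := by
          rw [hs, map_zpow₀, map_zpow₀, ht, ← exp_zsmul]
          congr 1
          rw [smul_eq_mul]
          ring
        have hs0 : algebraMap K L s ≠ 0 := by
          intro h
          rw [h, map_zero] at hsv
          exact exp_ne_zero hsv.symm
        have h2 : Q.v ((f - algebraMap K L g) / algebraMap K L s) ≤ 1 := by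
          rw [map_div₀, h1, hsv, div_self exp_ne_zero]
        obtain ⟨c, hc⟩ := exists_const Q h2
        refine ⟨g + algebraMap C K c * s, ?_⟩
        have h3 : f - algebraMap K L (g + algebraMap C K c * s) =
            ((f - algebraMap K L g) / algebraMap K L s - algebraMap C L c) * algebraMap K L s := by
          rw [map_add, map_mul, ← IsScalarTower.algebraMap_apply, sub_mul,
            div_mul_cancel₀ _ hs0]
          ring
        rw [h3, map_mul, hsv]
        calc _ ≤ exp (-1) * exp (m - j) := mul_le_mul_left (lt_one_iff'.1 hc) _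
          _ = exp (m - ((j + 1 : ℕ) : ℤ)) := by
            rw [← exp_add, exp_inj]; push_cast; ring
  by_cases hf : Q.v f = 0
  · exact ⟨0, by rw [map_zero, sub_zero, hf]; exact zero_le⟩
  obtain ⟨g, hg⟩ := key (log (Q.v f)) ((log (Q.v f)).toNat + n) f (exp_log hf).ge
  refine ⟨g, hg.trans (exp_le_exp.2 ?_)⟩
  have := Int.self_le_toNat (log (Q.v f))
  push_cast
  omega

/-- unramified extensions are completely split at all places -/
theorem splitAt_of_unrPl (h : UnrPl C K L) (v : Valuation K ℝ≥0) (hv : IsPlace C v) :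
    SplitAt v L := by
  intro w hw f ε hε
  have hwv : ∀ a : K, w (algebraMap K L a) = v a := fun a => DFunLike.congr_fun hw a
  obtain ⟨Q, hQ⟩ := RR13_948.exists_place (k := C) w (fun c hc => by
    rw [IsScalarTower.algebraMap_apply C K L, hwv]
    exact hv.1 c hc) (by
    obtain ⟨a, ha0, ha1⟩ := hv.2
    exact ⟨algebraMap K L a, by rwa [hwv], by rwa [hwv]⟩)
  obtain ⟨t, ht⟩ := h Q
  have ht1 : w (algebraMap K L t) < 1 := by
    rw [← hQ.lt_one_iff_lt_one, ht]
    exact lt_one_iff'.2 le_rfl
  obtain ⟨n, hn⟩ := exists_pow_lt_of_lt_one hε ht1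
  obtain ⟨g, hg⟩ := dense_of_unr Q ht f n
  refine ⟨g, lt_of_le_of_lt ?_ hn⟩
  rw [← map_pow, ← hQ _ _, map_pow, ht, ← exp_nsmul]
  refine hg.trans (le_of_eq ?_)
  congr 1
  rw [nsmul_eq_mul]
  ring

end Dense

section Strict

variable {k C : Type*} [NontriviallyNormedField k] [CompleteSpace k] [IsUltrametricDist k]
  [NormedField C] [IsUltrametricDist C] [NormedAlgebra k C] [Algebra.IsAlgebraic k C]
  [IsAlgClosed C] [hk : Fact (DiscNorm k)] [CharZero C]

/-- the number of vertices of genus `0` is smaller than the number of edges -/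
theorem card_zero_lt {K : Type*} [Field K] [Algebra C K] (S : SSK k C K) {g : ℕ}
    (hg : HasGen C K g) (h2 : 2 ≤ g) (hle : nV S ≤ nE S) :
    Nat.card {v : S.V // HasGen (Ct C) (kap (S.nm v)) 0} < Nat.card S.Ed := by
  classical
  obtain ⟨i, j, f, s, hgg⟩ := id hg
  let _ := i
  have _ := j
  have _ := f
  have _ := s
  let _ := S.fV
  let _ := S.fEd
  have _ : IsAlgClosed (Ct C) := TP14_928.isAlgClosed_Ct
  have hgv : ∀ v : S.V, ∃ n, HasGen (Ct C) (kap (S.nm v)) n := by
    intro v
    obtain ⟨i, j, f, s⟩ := S.ff v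
    exact ⟨_, hasGen_gen _ _⟩
  choose gv hgv using hgv
  have h1 : g + Fintype.card S.V = (∑ v, gv v) + Fintype.card S.Ed + 1 :=
    RedD_310.genus_hasGen S hg hgv
  have hle' : Fintype.card S.V ≤ Fintype.card S.Ed := hle
  rw [Nat.card_eq_fintype_card (α := S.Ed)]
  have h3 : Nat.card {v : S.V // HasGen (Ct C) (kap (S.nm v)) 0} ≤ Fintype.card S.V := by
    rw [← Nat.card_eq_fintype_card]
    exact Finite.card_subtype_le _
  by_contra hcon
  push Not at hcon
  have h4 : Nat.card {v : S.V // HasGen (Ct C) (kap (S.nm v)) 0} = Nat.card S.V := by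
    rw [Nat.card_eq_fintype_card (α := S.V)]
    omega
  have h5 : ∀ v : S.V, HasGen (Ct C) (kap (S.nm v)) 0 := by
    intro v
    by_contra hv
    have h6 := Finite.card_subtype_lt (p := fun v : S.V => HasGen (Ct C) (kap (S.nm v)) 0) hv
    omega
  have h6 : ∑ v, gv v = 0 := Finset.sum_eq_zero fun v _ => (hgv v).unique (h5 v)
  rw [h6] at h1
  omega

end Strict

section Transport

variable {k C : Type*} [NontriviallyNormedField k] [CompleteSpace k] [IsUltrametricDist k]
  [NormedField C] [IsUltrametricDist C] [NormedAlgebra k C] [Algebra.IsAlgebraic k C]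
  [IsAlgClosed C] [hk : Fact (DiscNorm k)] [CharZero C]

/-- transport of semistable structures along isomorphisms -/
theorem exists_ssk_iso {L L' : Type*} [Field L] [Field L'] [Algebra C L] [Algebra C L']
    [Algebra (RatFunc C) L] [IsScalarTower C (RatFunc C) L] [FiniteDimensional (RatFunc C) L]
    [Algebra.IsSeparable (RatFunc C) L]
    (e : L ≃ₐ[C] L') (S : SSK k C L) :
    ∃ S' : SSK k C L', nV S' ≤ nV S ∧ nE S' = nE S := by
  classical
  let _ : Algebra L L' := (e : L →+* L').toAlgebra
  have hal : ∀ x : L, algebraMap L L' x = e x := fun _ => rfl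
  have _ : IsScalarTower C L L' := IsScalarTower.of_algebraMap_eq fun x => by
    rw [hal, AlgEquiv.commutes]
  let e' : L ≃ₐ[L] L' := { (e : L ≃+* L') with commutes' := fun _ => rfl }
  have _ : FiniteDimensional L L' := Module.Finite.equiv e'.toLinearEquiv
  have _ : IsGalois L L' := IsGalois.of_algEquiv e'
  have hfr : Module.finrank L L' = 1 := by
    rw [← e'.toLinearEquiv.finrank_eq, Module.finrank_self]
  have P : Spl S L' :=
    { ps := fun d => (S.em d).comp (e.symm : L' →+* L)
      ps_K := fun d f => by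
        change S.em d (e.symm (algebraMap L L' f)) = _
        rw [hal, AlgEquiv.symm_apply_apply]
      ps_ann := fun d f => S.ann d (e.symm f)
      ps_disc := fun d hd f => S.disc d hd.1 hd.2 (e.symm f)
      ni := fun d σ hσ => by
        exfalso
        apply hσ
        ext x
        obtain ⟨y, rfl⟩ := e.surjective x
        rw [← hal, AlgEquiv.commutes, AlgEquiv.one_apply] }
  obtain ⟨SL, vK, edE, _, h1, -⟩ := P.exists_inh
  refine ⟨SL, ?_, ?_⟩
  · let _ := SL.fV
    let _ := S.fV
    refine Fintype.card_le_of_injective vK fun v w hvw => ?_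
    apply SL.nm_inj
    apply Nm.ext'
    intro x
    obtain ⟨y, rfl⟩ := e.surjective x
    rw [← hal, h1, h1, hvw]
  · let _ := SL.fEd
    let _ := S.fEd
    have h2 : Nat.card (L' ≃ₐ[L] L') = 1 := by
      rw [IsGalois.card_aut_eq_finrank, hfr]
    change Fintype.card SL.Ed = Fintype.card S.Ed
    rw [← Nat.card_eq_fintype_card, ← Nat.card_eq_fintype_card, Nat.card_congr edE, Nat.card_prod,
      h2, mul_one]

end Transport

end Crest.Agent.R013.CB1_903
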