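import Crest.Agent.R013.CB1j_903
import Crest.Agent.R013.RR21_948
import Crest.Agent.R013.InhC1_770

/-!
# (A1) in 588's form: the extension inside an algebraically closed field
-/

set_option autoImplicit false
set_option linter.unusedSectionVars false

namespace Crest.Agent.R013.CB1_903

open scoped NNReal
open WithZero
open Crest.NumberTheoryR.Sect
open Crest.Agent.R013.RR7_948 Crest.Agent.R013.Red332 Crest.Agent.R013.GR3_921
open Crest.Agent.R013.RR11_948 Crest.Agent.R013.RR12_948 Crest.Agent.R013.GR2_921 Crest.Agent.R013.GRK_903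
open Crest.Agent.R013.Cell_408 (DiscNorm)
open Crest.Agent.R013.SSK_332 Crest.Agent.R013.EE809
open Crest.Agent.R013.TopE1_957 (SplitAt)

universe u

/-- `UnrPl` is invariant under isomorphisms -/
theorem UnrPl.iso {C K L L' : Type*} [Field C] [Field K] [Field L] [Field L'] [Algebra C K]
    [Algebra C L] [Algebra C L'] [Algebra K L] [Algebra K L'] [IsScalarTower C K L]
    [IsScalarTower C K L'] (h : UnrPl C K L) (e : L ≃ₐ[K] L') : UnrPl C K L' := by
  intro Q
  obtain ⟨f, hf⟩ := h (RR21_948.mapPl (e.restrictScalars C).symm Q)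
  refine ⟨f, ?_⟩
  rw [RR21_948.mapPl_v] at hf
  rw [← hf]
  congr 1
  exact (e.commutes f).symm

variable {k C : Type*} [NontriviallyNormedField k] [CompleteSpace k] [IsUltrametricDist k]
  [NormedField C] [IsUltrametricDist C] [NormedAlgebra k C] [Algebra.IsAlgebraic k C]
  [IsAlgClosed C] [hk : Fact (DiscNorm k)] [CharZero C]

/-- **(A1), final bundle**: the extension `L` is in 948's context, dense at all places, with a
connected graph which is not a tree, fewer vertices of genus `0` than edges, and genus `≥ 2` -/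
theorem A1.full {K : Type u} [Field K] [Algebra C K] [Algebra (RatFunc C) K]
    [IsScalarTower C (RatFunc C) K] [FiniteDimensional (RatFunc C) K]
    (h : A1 k C K) (h2 : 2 ≤ gen C K) :
    ∃ (L : Type u) (_ : Field L) (_ : Algebra C L) (_ : Algebra K L) (_ : IsScalarTower C K L)
      (_ : FiniteDimensional K L) (_ : Algebra (RatFunc C) L) (_ : IsScalarTower (RatFunc C) K L)
      (_ : IsScalarTower C (RatFunc C) L) (_ : FiniteDimensional (RatFunc C) L)
      (SL : SSK k C L), UnrPl C K L ∧ (∀ v : Valuation K ℝ≥0, IsPlace C v → SplitAt v L) ∧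
      SL.Conn ∧ Nat.card SL.V ≤ Nat.card SL.Ed ∧
      Nat.card {v : SL.V // HasGen (Ct C) (kap (SL.nm v)) 0} < Nat.card SL.Ed ∧
      2 ≤ gen C L := by
  have hg : HasGen C K (gen C K) := hasGen_gen C K
  obtain ⟨L, _, _, _, _, _, SL, h1, h3, h4, g', hg', h5⟩ := h.genus hg h2
  let _ : Algebra (RatFunc C) L := ((algebraMap K L).comp (algebraMap (RatFunc C) K)).toAlgebra
  have _ : IsScalarTower (RatFunc C) K L := IsScalarTower.of_algebraMap_eq fun x => rfl
  have _ : IsScalarTower C (RatFunc C) L := IsScalarTower.of_algebraMap_eq fun x => by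
    rw [IsScalarTower.algebraMap_apply C K L, IsScalarTower.algebraMap_apply C (RatFunc C) K]
    rfl
  have _ : FiniteDimensional (RatFunc C) L := FiniteDimensional.trans (RatFunc C) K L
  let _ := SL.fV
  let _ := SL.fEd
  have h6 : Nat.card SL.V ≤ Nat.card SL.Ed := by
    rw [Nat.card_eq_fintype_card, Nat.card_eq_fintype_card]
    exact h4
  exact ⟨L, inferInstance, inferInstance, inferInstance, inferInstance, inferInstance,
    inferInstance, inferInstance, inferInstance, inferInstance, SL, h1, splitAt_of_unrPl h1, h3,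
    h6, card_zero_lt SL hg' h5 h4, h5.trans (hg'.unique (hasGen_gen C L)).le⟩

/-- (A1) inside an algebraically closed field -/
theorem A1.inter {K : Type u} [Field K] [Algebra C K] [Algebra (RatFunc C) K]
    [IsScalarTower C (RatFunc C) K] [FiniteDimensional (RatFunc C) K]
    (h : A1 k C K) (h2 : 2 ≤ gen C K) (Ω : Type*) [Field Ω] [Algebra K Ω] [Algebra C Ω]
    [IsScalarTower C K Ω] [IsAlgClosed Ω] :
    ∃ L : IntermediateField K Ω, FiniteDimensional K L ∧ UnrPl C K L ∧
      (∀ v : Valuation K ℝ≥0, IsPlace C v → SplitAt v L) ∧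
      ∃ S : SSK k C L, Nat.card S.V ≤ Nat.card S.Ed ∧
        Nat.card {v : S.V // HasGen (Ct C) (kap (S.nm v)) 0} < Nat.card S.Ed := by
  obtain ⟨L, _, _, _, _, _, _, _, _, _, SL, h1, h3, h4, h5, h6, h7⟩ := h.full h2
  let φ : L →ₐ[K] Ω := IsAlgClosed.lift
  let e : L ≃ₐ[K] φ.fieldRange := AlgEquiv.ofInjectiveField φ
  have _ : FiniteDimensional K φ.fieldRange := Module.Finite.equiv e.toLinearEquiv
  have _ : IsScalarTower C K φ.fieldRange := CDefs_588.instTowC _
  let _ : Algebra (RatFunc C) φ.fieldRange :=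
    ((algebraMap K φ.fieldRange).comp (algebraMap (RatFunc C) K)).toAlgebra
  have _ : IsScalarTower (RatFunc C) K φ.fieldRange := IsScalarTower.of_algebraMap_eq fun x => rfl
  have _ : IsScalarTower C (RatFunc C) φ.fieldRange := IsScalarTower.of_algebraMap_eq fun x => by
    rw [IsScalarTower.algebraMap_apply C K φ.fieldRange,
      IsScalarTower.algebraMap_apply C (RatFunc C) K]
    rfl
  have _ : FiniteDimensional (RatFunc C) φ.fieldRange :=
    FiniteDimensional.trans (RatFunc C) K φ.fieldRange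
  have h8 := h1.iso e
  obtain ⟨S, h9, h10⟩ := exists_ssk_iso (e.restrictScalars C) SL
  let _ := S.fV
  let _ := S.fEd
  let _ := SL.fV
  let _ := SL.fEd
  have h11 : CB1_903.nV S ≤ CB1_903.nE S := by
    rw [Nat.card_eq_fintype_card, Nat.card_eq_fintype_card] at h5
    exact h9.trans (h5.trans h10.ge)
  refine ⟨φ.fieldRange, inferInstance, h8, splitAt_of_unrPl h8, S, ?_,
    card_zero_lt S (hasGen_gen C _) ?_ h11⟩
  · rw [Nat.card_eq_fintype_card, Nat.card_eq_fintype_card]
    exact h11
  · obtain ⟨g', hg', hle⟩ := exists_hasGen_ge (L := φ.fieldRange) (hasGen_gen C K)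
    exact h2.trans (hle.trans (hg'.unique (hasGen_gen C _)).le)

end Crest.Agent.R013.CB1_903

namespace Crest.Agent.R013.CB1_903

open Crest.Agent.R013.RR7_948 Crest.Agent.R013.Red332 Crest.Agent.R013.GR3_921
open Crest.Agent.R013.RR11_948 Crest.Agent.R013.RR12_948 Crest.Agent.R013.GR2_921 Crest.Agent.R013.GRK_903

/-- **588's (A1)** from the two remaining inputs -/
theorem a1_588 (p : ℕ) [Fact p.Prime] (C : Type) [NormedField C] [IsUltrametricDist C]
    [NormedAlgebra ℚ_[p] C] [Algebra.IsAlgebraic ℚ_[p] C] [IsAlgClosed C] [CharZero C]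
    (hD : InDisc.{0} ℚ_[p] C) (hS : InSig.{0} C p) : CDefs_588.A1 p C := by
  intro K _ _ _ _ _ Ω _ _ _ _ _ h2
  obtain ⟨L, h3, -, h4, S, h5, h6⟩ :=
    (a1_two (k := ℚ_[p]) p hD hS K _ (hasGen_gen C K) h2).inter h2 Ω
  exact ⟨L, h3, h4, S, h5, h6⟩

end Crest.Agent.R013.CB1_903
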