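import Crest.Agent.R013.DescP2_429
import Crest.Agent.R013.Red2_332

/-!
# R013 / DescP3 (helper429): ends (places of residue fields of norms) and the levels `K₀[k']`

`w : Nm C K` (332), `s` an automorphism of `K/K₀` with `w (s f) = w f`; `autK` the induced
automorphism of the residue field `kap w`.
-/

set_option autoImplicit false
set_option linter.all false

namespace Crest.Agent.R013.DescP_429

open Module WithZero Crest.Agent.R013.Desc_372
open Crest.Agent.R013.RR7_948 Crest.Agent.R013.RR8_948 Crest.Agent.R013.RR9_948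
open Crest.Agent.R013.RR11_948 Crest.Agent.R013.RR12_948 Crest.Agent.R013.Red332
open scoped NNReal

section autK

variable {C K : Type*} [NormedField C] [IsUltrametricDist C] [Field K] [Algebra C K]

/-- the induced map on the valuation ring -/
noncomputable def mapO (w : Nm C K) (s : K ≃+* K) (hs : ∀ f, w.v (s f) = w.v f) :
    w.v.valuationSubring →+* w.v.valuationSubring :=
  (s : K →+* K).restrict _ _ (fun f hf => by
    rw [Valuation.mem_valuationSubring_iff] at hf ⊢
    show w.v (s f) ≤ 1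
    rw [hs]; exact hf)

theorem isUnit_O {w : Nm C K} {a : w.v.valuationSubring} : IsUnit a ↔ w.v (a : K) = 1 := by
  constructor
  · intro h
    obtain ⟨b, hb⟩ := isUnit_iff_exists_inv.1 h
    have h1 : w.v (a : K) * w.v (b : K) = 1 := by
      rw [← map_mul]
      have := congrArg (fun x : w.v.valuationSubring => w.v (x : K)) hb
      simpa using this
    refine le_antisymm a.2 ?_
    rw [← h1]
    exact mul_le_of_le_one_right' b.2
  · intro h
    have ha0 : (a : K) ≠ 0 := by
      intro h0; rw [h0, map_zero] at h; exact zero_ne_one h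
    refine isUnit_iff_exists_inv.2 ⟨⟨(a : K)⁻¹, ?_⟩, Subtype.ext (mul_inv_cancel₀ ha0)⟩
    rw [Valuation.mem_valuationSubring_iff, map_inv₀, h, inv_one]

instance (w : Nm C K) (s : K ≃+* K) (hs : ∀ f, w.v (s f) = w.v f) :
    IsLocalHom (mapO w s hs) where
  map_nonunit a ha := by
    rw [isUnit_O] at ha ⊢
    rw [← hs]; exact ha

/-- the induced map on the residue field -/
noncomputable def autK (w : Nm C K) (s : K ≃+* K) (hs : ∀ f, w.v (s f) = w.v f) :
    kap w →+* kap w := IsLocalRing.ResidueField.map (mapO w s hs)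

theorem autK_red (w : Nm C K) (s : K ≃+* K) (hs : ∀ f, w.v (s f) = w.v f) {f : K}
    (hf : w.v f ≤ 1) : autK w s hs (red w f) = red w (s f) := by
  rw [red_def w hf, red_def w (by rw [hs]; exact hf)]
  rfl

theorem autK_surj (w : Nm C K) (s : K ≃+* K) (hs : ∀ f, w.v (s f) = w.v f) :
    Function.Surjective (autK w s hs) := by
  intro y
  obtain ⟨f, hf, rfl⟩ := red_surj w y
  have h1 : w.v (s.symm f) ≤ 1 := by rw [← hs, s.apply_symm_apply]; exact hf
  exact ⟨red w (s.symm f), by rw [autK_red w s hs h1, s.apply_symm_apply]⟩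

end autK

section ends

variable {k C : Type*} [Field k] [NormedField C] [IsUltrametricDist C] [Algebra k C]
  {K₀ K : Type*} [Field K₀] [Field K] [Algebra k K₀]
    [Algebra C K] [Algebra K₀ K] [Algebra k K] [IsScalarTower k C K] [IsScalarTower k K₀ K]

/-- `s` preserves the norm of `C` if it preserves one norm of `K` -/
theorem norm_res [Normal k C] (w : Nm C K) {s : K ≃ₐ[K₀] K} (hs : ∀ f, w.v (s f) = w.v f)
    (c : C) : ‖CE.res k C K₀ K s c‖₊ = ‖c‖₊ := by
  rw [← w.hC, CE.algebraMap_res, hs, w.hC]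

/-- the place `x ∘ s̄` of the residue field -/
noncomputable def comapX [Normal k C] (w : Nm C K) (s : K ≃ₐ[K₀] K) (hs : ∀ f, w.v (s f) = w.v f)
    (x : Pl (Ct C) (kap w)) : Pl (Ct C) (kap w) where
  v := x.v.comap (autK w (s : K ≃+* K) hs)
  const := fun c hc => by
    obtain ⟨c', hc', rfl⟩ := rc_surj c
    rw [← red_C w c' hc', Valuation.comap_apply, autK_red w _ hs (by rw [w.hC]; exact hc')]
    have h1 : (s : K ≃+* K) (algebraMap C K c') = algebraMap C K (CE.res k C K₀ K s c') :=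
      (CE.algebraMap_res k C K₀ K s c').symm
    have h2 : ‖CE.res k C K₀ K s c'‖₊ = 1 := by
      rw [norm_res w hs]
      exact le_antisymm hc' (not_lt.1 fun h => hc ((rc_eq_zero_iff hc').2 h))
    rw [h1]
    exact plv_rc x h2
  surj := fun y => by
    obtain ⟨t, ht⟩ := x.surj y
    obtain ⟨u, rfl⟩ := autK_surj w (s : K ≃+* K) hs t
    exact ⟨u, ht⟩

theorem comapX_red [Normal k C] (w : Nm C K) (s : K ≃ₐ[K₀] K) (hs : ∀ f, w.v (s f) = w.v f)
    (x : Pl (Ct C) (kap w)) {f : K} (hf : w.v f ≤ 1) :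
    (comapX (k := k) w s hs x).v (red w f) = x.v (red w (s f)) := by
  show x.v (autK w (s : K ≃+* K) hs (red w f)) = _
  rw [autK_red w _ hs hf]
  rfl

/-- the end `(w, x)` is fixed by the automorphisms in `Gam K₀ K k'` which preserve `w` -/
def InvX {k C : Type*} [Field k] [NormedField C] [IsUltrametricDist C] [Algebra k C]
    (K₀ : Type*) {K : Type*} [Field K₀] [Field K] [Algebra k K₀]
    [Algebra C K] [Algebra K₀ K] [Algebra k K] [IsScalarTower k C K] [IsScalarTower k K₀ K]
    (k' : IntermediateField k C) (w : Nm C K) (x : Pl (Ct C) (kap w)) : Prop :=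
  ∀ s ∈ CE.Gam K₀ K k', (∀ f, w.v (s f) = w.v f) →
    ∀ f, w.v f ≤ 1 → x.v (red w (s f)) = x.v (red w f)

theorem InvX.mono {k' k'' : IntermediateField k C} (h : k' ≤ k'') {w : Nm C K}
    {x : Pl (Ct C) (kap w)} (hx : InvX K₀ k' w x) : InvX K₀ k'' w x :=
  fun s hs => hx s (CE.Gam_anti h hs)

theorem InvX.od_eq [Normal k C] {k' : IntermediateField k C} {w : Nm C K}
    {x : Pl (Ct C) (kap w)} (hx : InvX K₀ k' w x) {s : K ≃ₐ[K₀] K} (hs : s ∈ CE.Gam K₀ K k')
    (hw : ∀ f, w.v (s f) = w.v f) {f : K} (hf : f ≠ 0) : od w x (s f) = od w x f := by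
  obtain ⟨h1, h2⟩ := lc_spec w hf
  set c := lc w f
  have h3 : s (f * (algebraMap C K c)⁻¹) = s f * (algebraMap C K (CE.res k C K₀ K s c))⁻¹ := by
    rw [map_mul, map_inv₀, CE.algebraMap_res]
  have h4 : w.v (s f * (algebraMap C K (CE.res k C K₀ K s c))⁻¹) = 1 := by
    rw [← h3, hw, h2]
  rw [od_eq_of x h4, od_eq_of x h2, ← h3, hx s hs hw _ h2.le]

/-- every finite set of ends of one norm is fixed by some `Gam k'`, `k'/k` finite -/
theorem exists_invX [Normal k C] [h : CE k C K₀ K] (w : Nm C K)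
    [Algebra (RatFunc (Ct C)) (kap w)] [IsScalarTower (Ct C) (RatFunc (Ct C)) (kap w)]
    [FiniteDimensional (RatFunc (Ct C)) (kap w)] [Algebra.IsSeparable (RatFunc (Ct C)) (kap w)]
    (hc : algebraicClosure (Ct C) (kap w) = ⊥) (S : Finset (Pl (Ct C) (kap w))) :
    ∃ k' : IntermediateField k C, FiniteDimensional k k' ∧ (∀ x ∈ S, InvX K₀ k' w x) ∧
      ∀ x ∈ S, ∃ t ∈ CE.lev K₀ K k', w.v t = 1 ∧ x.v (red w t) = exp (-1) := by
  classical
  have hex : ∀ x : Pl (Ct C) (kap w), ∃ h : K, w.v h ≤ 1 ∧ 1 < x.v (red w h) ∧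
      ∀ y : Pl (Ct C) (kap w), y ≠ x → y.v (red w h) ≤ 1 := by
    intro x
    have hd := degP_pos x
    obtain ⟨f, h1, h2⟩ := exists_pole_order hc x (2 * gen (Ct C) (kap w) + 1) (by
      push_cast
      have : (1 : ℤ) ≤ degP x := by exact_mod_cast hd
      nlinarith [Int.natCast_nonneg (gen (Ct C) (kap w))]) (by omega)
    obtain ⟨F, hF, rfl⟩ := red_surj w f
    refine ⟨F, hF, ?_, h2⟩
    rw [h1, ← exp_zero, exp_lt_exp]
    positivity
  have hex2 : ∀ x : Pl (Ct C) (kap w), ∃ t : K, w.v t = 1 ∧ x.v (red w t) = exp (-1) := by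
    intro x
    obtain ⟨f, hf0, hf⟩ := exists_v_eq x (-1)
    obtain ⟨F, hF, rfl⟩ := red_surj w f
    exact ⟨F, (red_ne_zero_iff w hF).1 hf0, hf⟩
  choose h h1 h2 h3 using hex
  choose t ht1 ht2 using hex2
  obtain ⟨k', hk', hS⟩ := CE.exists_lev (k := k) (C := C) K₀ K
    (h '' (S : Set (Pl (Ct C) (kap w))) ∪ t '' (S : Set (Pl (Ct C) (kap w))))
    ((S.finite_toSet.image h).union (S.finite_toSet.image t))
  refine ⟨k', hk', fun x hx s hs hw f hf => ?_, fun x hx =>
    ⟨t x, hS (Or.inr ⟨x, hx, rfl⟩), ht1 x, ht2 x⟩⟩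
  rw [← comapX_red (k := k) w s hw x hf]
  congr 2
  by_contra hne
  have h4 := h3 x _ hne
  rw [comapX_red (k := k) w s hw x (h1 x), CE.mem_Gam'.1 hs _ (hS (Or.inl ⟨x, hx, rfl⟩))] at h4
  exact absurd (h2 x) (not_lt.2 h4)

end ends

end Crest.Agent.R013.DescP_429
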