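import Mathlib

/-!
# R013 / GR1: orbit sums modulo `p` (helper921)

Pure combinatorics behind C-GR (post 2715): `σ` a permutation of order `p` without fixed points,
`G` invariant with total sum zero, `d (σ b) - d b + G (σ b) ≡ 0 mod p`. Then `∑ d ≡ 0 mod p`.
-/

set_option autoImplicit false

namespace Crest.Agent.R013.GR1_921

open Finset

section one

variable {B : Type*} [DecidableEq B]

/-- powers of a permutation of prime order without fixed points have no fixed points -/
theorem pow_ne {p : ℕ} (hp : p.Prime) {σ : Equiv.Perm B} (hσ : σ ^ p = 1) (hfree : ∀ b, σ b ≠ b)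
    (b : B) {i : ℕ} (hi : 0 < i) (hip : i < p) : (σ ^ i) b ≠ b := by
  intro h
  have hco : Nat.Coprime i p :=
    ((Nat.Prime.coprime_iff_not_dvd hp).mpr fun hd => by
      have := Nat.le_of_dvd hi hd; omega).symm
  -- `b` is fixed by `σ ^ i` and `σ ^ p`
  have h1 : ∀ n : ℕ, ((σ ^ i) ^ n) b = b := by
    intro n
    induction n with
    | zero => simp
    | succ n ih => rw [pow_succ, Equiv.Perm.mul_apply, h, ih]
  obtain ⟨n, hn⟩ := Nat.exists_mul_mod_eq_one_of_coprime hco hp.one_lt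
  have h2 := h1 n
  rw [← pow_mul, ← Nat.div_add_mod (i * n) p, hn.2, pow_add, pow_mul, hσ, one_pow, one_mul,
    pow_one] at h2
  exact hfree b h2

/-- the orbit -/
def orb (p : ℕ) (σ : Equiv.Perm B) (b : B) : Finset B := (range p).image fun i => (σ ^ i) b

theorem orb_injOn {p : ℕ} (hp : p.Prime) {σ : Equiv.Perm B} (hσ : σ ^ p = 1)
    (hfree : ∀ b, σ b ≠ b) (b : B) : Set.InjOn (fun i => (σ ^ i) b) (range p : Finset ℕ) := by
  have key : ∀ i j : ℕ, i < j → j < p → (σ ^ i) b ≠ (σ ^ j) b := by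
    intro i j hij hj h
    have h1 : σ ^ j = σ ^ i * σ ^ (j - i) := by rw [← pow_add]; congr 1; omega
    rw [h1, Equiv.Perm.mul_apply] at h
    have h2 := (σ ^ i).injective h
    exact pow_ne hp hσ hfree b (i := j - i) (by omega) (by omega) h2.symm
  intro i hi j hj h
  simp only [coe_range, Set.mem_Iio] at hi hj
  by_contra hne
  rcases Nat.lt_or_gt_of_ne hne with h1 | h1
  · exact key i j h1 hj h
  · exact key j i h1 hi h.symm

theorem mem_orb_self {p : ℕ} (hp : p.Prime) (σ : Equiv.Perm B) (b : B) : b ∈ orb p σ b := by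
  unfold orb
  rw [mem_image]
  exact ⟨0, mem_range.mpr hp.pos, by simp⟩

theorem sum_orb {p : ℕ} (hp : p.Prime) {σ : Equiv.Perm B} (hσ : σ ^ p = 1)
    (hfree : ∀ b, σ b ≠ b) (b : B) (f : B → ℤ) :
    ∑ x ∈ orb p σ b, f x = ∑ i ∈ range p, f ((σ ^ i) b) := by
  unfold orb
  rw [sum_image (orb_injOn hp hσ hfree b)]

theorem orb_subset {p : ℕ} {σ : Equiv.Perm B} {b : B} {F : Finset B} (hF : ∀ x ∈ F, σ x ∈ F)
    (hb : b ∈ F) : orb p σ b ⊆ F := by
  intro x hx
  unfold orb at hx
  rw [mem_image] at hx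
  obtain ⟨i, _, rfl⟩ := hx
  have key : ∀ i : ℕ, (σ ^ i) b ∈ F := by
    intro i
    induction i with
    | zero => simpa using hb
    | succ i ih =>
      rw [pow_succ', Equiv.Perm.mul_apply]
      exact hF _ ih
  exact key i

theorem mem_of_apply_mem {p : ℕ} (hp : p.Prime) {σ : Equiv.Perm B} (hσ : σ ^ p = 1) {b x : B}
    (hx : σ x ∈ orb p σ b) : x ∈ orb p σ b := by
  unfold orb at hx ⊢
  rw [mem_image] at hx ⊢
  obtain ⟨i, hi, h⟩ := hx
  rw [mem_range] at hi
  have hinj := σ.injective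
  rcases Nat.eq_zero_or_pos i with h0 | h0
  · subst h0
    refine ⟨p - 1, mem_range.mpr (by have := hp.pos; omega), ?_⟩
    apply hinj
    rw [← h, ← Equiv.Perm.mul_apply, ← pow_succ', Nat.sub_add_cancel hp.one_le, hσ]
    simp
  · refine ⟨i - 1, mem_range.mpr (by omega), ?_⟩
    apply hinj
    rw [← h, ← Equiv.Perm.mul_apply, ← pow_succ', Nat.sub_add_cancel h0]

/-- the sum over a stable finite set -/
theorem orbit_sum {p : ℕ} (hp : p.Prime) {σ : Equiv.Perm B} (hσ : σ ^ p = 1)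
    (hfree : ∀ b, σ b ≠ b) (d G : B → ℤ) (hG : ∀ b, G (σ b) = G b)
    (h : ∀ b, (p : ℤ) ∣ d (σ b) - d b + G b) (n : ℕ) :
    ∀ F : Finset B, F.card ≤ n → (∀ b ∈ F, σ b ∈ F) →
      ∃ m : ℤ, ∑ b ∈ F, G b = p * m ∧
        (p : ℤ) ∣ ∑ b ∈ F, d b + m * ∑ i ∈ range p, (i : ℤ) := by
  induction n with
  | zero =>
    intro F hF _
    have : F = ∅ := Finset.card_eq_zero.mp (by omega)
    subst this
    exact ⟨0, by simp, by simp⟩
  | succ n ih =>
    intro F hF hst
    rcases F.eq_empty_or_nonempty with rfl | ⟨b, hb⟩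
    · exact ⟨0, by simp, by simp⟩
    have hsub := orb_subset (p := p) hst hb
    have hst' : ∀ x ∈ F \ orb p σ b, σ x ∈ F \ orb p σ b := by
      intro x hx
      rw [mem_sdiff] at hx ⊢
      exact ⟨hst x hx.1, fun h' => hx.2 (mem_of_apply_mem hp hσ h')⟩
    have hcard : (F \ orb p σ b).card ≤ n := by
      have h1 : (F \ orb p σ b) ⊂ F := by
        refine ⟨sdiff_subset, fun h' => ?_⟩
        have h2 := h' hb
        rw [mem_sdiff] at h2
        exact h2.2 (mem_orb_self hp σ b)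
      have h2 := Finset.card_lt_card h1
      omega
    obtain ⟨m, hm1, hm2⟩ := ih _ hcard hst'
    have hGi : ∀ i : ℕ, G ((σ ^ i) b) = G b := by
      intro i
      induction i with
      | zero => simp
      | succ i ih => rw [pow_succ', Equiv.Perm.mul_apply, hG, ih]
    have hdi : ∀ i : ℕ, (p : ℤ) ∣ d ((σ ^ i) b) - d b + i * G b := by
      intro i
      induction i with
      | zero => simp
      | succ i ih =>
        have h1 := h ((σ ^ i) b)
        rw [hGi] at h1
        have h2 := dvd_add h1 ih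
        rw [pow_succ', Equiv.Perm.mul_apply]
        have : d (σ ((σ ^ i) b)) - d b + ((i + 1 : ℕ) : ℤ) * G b
            = d (σ ((σ ^ i) b)) - d ((σ ^ i) b) + G b + (d ((σ ^ i) b) - d b + i * G b) := by
          push_cast; ring
        rw [this]; exact h2
    refine ⟨m + G b, ?_, ?_⟩
    · rw [← sum_sdiff hsub, hm1, sum_orb hp hσ hfree, sum_congr rfl fun i _ => hGi i, sum_const,
        card_range]
      simp; ring
    · rw [← sum_sdiff hsub, sum_orb hp hσ hfree]
      have h1 : (p : ℤ) ∣ ∑ i ∈ range p, (d ((σ ^ i) b) - d b + i * G b) :=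
        dvd_sum fun i _ => hdi i
      have h2 : ∑ i ∈ range p, (d ((σ ^ i) b) - d b + i * G b)
          = ∑ i ∈ range p, d ((σ ^ i) b) - p * d b + G b * ∑ i ∈ range p, (i : ℤ) := by
        rw [sum_add_distrib, sum_sub_distrib, sum_const, card_range, ← sum_mul]
        simp; ring
      rw [h2] at h1
      have h3 : (p : ℤ) ∣ p * d b := dvd_mul_right _ _
      have h4 := dvd_add (dvd_add h1 h3) hm2
      have h5 : ∑ b ∈ F \ orb p σ b, d b + ∑ i ∈ range p, d ((σ ^ i) b)
          + (m + G b) * ∑ i ∈ range p, (i : ℤ)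
          = ∑ i ∈ range p, d ((σ ^ i) b) - p * d b + G b * ∑ i ∈ range p, (i : ℤ) + p * d b
            + (∑ b ∈ F \ orb p σ b, d b + m * ∑ i ∈ range p, (i : ℤ)) := by ring
      rw [h5]; exact h4

end one

/-- **orbit sum lemma.** -/
theorem dvd_sum_of_orbit {B : Type*} {p : ℕ} (hp : p.Prime) (σ : Equiv.Perm B) (hσ : σ ^ p = 1)
    (hfree : ∀ b, σ b ≠ b) (d G : B →₀ ℤ) (hG : ∀ b, G (σ b) = G b)
    (h : ∀ b, (p : ℤ) ∣ d (σ b) - d b + G b) (h0 : (G.sum fun _ n => n) = 0) :
    (p : ℤ) ∣ d.sum fun _ n => n := by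
  classical
  let F0 : Finset B := d.support ∪ G.support
  let F : Finset B := F0.biUnion (orb p σ)
  have hF0 : F0 ⊆ F := by
    intro b hb
    exact mem_biUnion.mpr ⟨b, hb, mem_orb_self hp σ b⟩
  have hst : ∀ b ∈ F, σ b ∈ F := by
    intro b hb
    obtain ⟨a, ha, hb⟩ := mem_biUnion.mp hb
    refine mem_biUnion.mpr ⟨a, ha, ?_⟩
    unfold orb at hb ⊢
    rw [mem_image] at hb ⊢
    obtain ⟨i, hi, rfl⟩ := hb
    rw [mem_range] at hi
    rcases Nat.lt_or_ge (i + 1) p with h1 | h1
    · exact ⟨i + 1, mem_range.mpr h1, by rw [pow_succ', Equiv.Perm.mul_apply]⟩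
    · have h2 : i + 1 = p := by omega
      refine ⟨0, mem_range.mpr hp.pos, ?_⟩
      rw [← Equiv.Perm.mul_apply, ← pow_succ', h2, hσ]; simp
  obtain ⟨m, hm1, hm2⟩ := orbit_sum hp hσ hfree d G hG h _ F le_rfl hst
  have hsum : ∀ f : B →₀ ℤ, f.support ⊆ F0 → ∑ b ∈ F, f b = f.sum fun _ n => n := by
    intro f hf
    unfold Finsupp.sum
    symm
    refine sum_subset (hf.trans hF0) ?_
    intro x _ hx
    exact Finsupp.notMem_support_iff.mp hx
  rw [hsum G subset_union_right, h0] at hm1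
  have hp0 : (p : ℤ) ≠ 0 := by exact_mod_cast hp.ne_zero
  have hm0 : m = 0 := by
    rcases mul_eq_zero.mp hm1.symm with h1 | h1
    · exact absurd h1 hp0
    · exact h1
  rw [hm0, zero_mul, add_zero, hsum d subset_union_left] at hm2
  exact hm2

end Crest.Agent.R013.GR1_921
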