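import Mathlib
import Crest.Agent.R013.GR1_921
import Crest.Agent.R013.GR4_921

/-!
# R013 / GR5: the specialisation map of a norm with good reduction; the main claim of C-GR
(helper921, post 2715)
-/

set_option autoImplicit false
set_option linter.all false

namespace Crest.Agent.R013.GR5_921

open Polynomial WithZero Module
open scoped NNReal
open Crest.Agent.R013.RR7_948 Crest.Agent.R013.RR8_948 Crest.Agent.R013.RR9_948
open Crest.Agent.R013.RR11_948 Crest.Agent.R013.RR12_948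
open Crest.Agent.R013.RR18_948 Crest.Agent.R013.RR19_948
open Crest.Agent.R013.RR21_948
open Crest.Agent.R013.GR1_921 Crest.Agent.R013.GR2_921 Crest.Agent.R013.GR4_921

/-! ### Hilbert 90 -/

theorem hilbert90 {F : Type*} [Field F] (σ : F ≃+* F) {p : ℕ} (hp : p.Prime) (hσ : σ ^ p = 1)
    (hne : σ ≠ 1) {y : F} (hy : ∏ i ∈ Finset.range p, (σ ^ i) y = 1) :
    ∃ ψ : F, ψ ≠ 0 ∧ y * σ ψ = ψ := by
  classical
  let a : ℕ → F := fun n => ∏ i ∈ Finset.range n, (σ ^ i) y
  have ha0 : a 0 = 1 := by simp [a]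
  have hap : a p = 1 := hy
  have hstep : ∀ n, y * σ (a n) = a (n + 1) := by
    intro n
    show y * σ (∏ i ∈ Finset.range n, (σ ^ i) y) = ∏ i ∈ Finset.range (n + 1), (σ ^ i) y
    rw [map_prod, Finset.prod_range_succ', pow_zero, mul_comm]
    congr 1
    refine Finset.prod_congr rfl fun i _ => ?_
    rw [pow_succ']; rfl
  -- powers are distinct
  have hinj : Function.Injective fun i : Fin p => ((σ ^ (i : ℕ) : F ≃+* F) : F →* F) := by
    intro i j hij
    haveI : Fact p.Prime := ⟨hp⟩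
    have hord : orderOf σ = p := orderOf_eq_prime hσ hne
    have h1 : σ ^ (i : ℕ) = σ ^ (j : ℕ) := by
      ext x
      exact DFunLike.congr_fun hij x
    have h2 := pow_inj_mod.mp h1
    rw [hord, Nat.mod_eq_of_lt i.2, Nat.mod_eq_of_lt j.2] at h2
    exact Fin.ext h2
  have hli := (linearIndependent_monoidHom F F).comp _ hinj
  have hne0 : ∑ i : Fin p, a i • (fun x : F => (σ ^ (i : ℕ)) x) ≠ 0 := by
    intro h0
    have h1 := Fintype.linearIndependent_iff.mp hli (fun i => a i) (by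
      rw [← h0]; rfl) ⟨0, hp.pos⟩
    simp only [ha0] at h1
    exact one_ne_zero h1
  obtain ⟨θ, hθ⟩ := Function.ne_iff.mp hne0
  let ψ : F := ∑ i ∈ Finset.range p, a i * (σ ^ i) θ
  have hψ : ψ ≠ 0 := by
    intro h0
    apply hθ
    rw [Finset.sum_apply, Pi.zero_apply, ← h0]
    show _ = ∑ i ∈ Finset.range p, a i * (σ ^ i) θ
    rw [Finset.sum_range]
    rfl
  refine ⟨ψ, hψ, ?_⟩
  have h1 : y * σ ψ = ∑ i ∈ Finset.range p, a (i + 1) * (σ ^ (i + 1)) θ := by
    show y * σ (∑ i ∈ Finset.range p, a i * (σ ^ i) θ) = _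
    rw [map_sum, Finset.mul_sum]
    refine Finset.sum_congr rfl fun i _ => ?_
    rw [map_mul, ← mul_assoc, hstep, pow_succ']; rfl
  have h2 : ∑ i ∈ Finset.range (p + 1), a i * (σ ^ i) θ
      = (∑ i ∈ Finset.range p, a (i + 1) * (σ ^ (i + 1)) θ) + a 0 * (σ ^ 0) θ :=
    Finset.sum_range_succ' _ _
  have h3 : ∑ i ∈ Finset.range (p + 1), a i * (σ ^ i) θ = ψ + a p * (σ ^ p) θ :=
    Finset.sum_range_succ _ _
  rw [h1]
  rw [h3, hap, ha0, hσ, pow_zero] at h2
  exact (add_right_cancel h2).symm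

/-! ### divisors -/

section mapDomain

variable {A B : Type*}

theorem mapDomain_nonneg_of (D : A →₀ ℤ) (f : A → B) (b : B) (h : ∀ a, f a = b → 0 ≤ D a) :
    0 ≤ D.mapDomain f b := by
  classical
  unfold Finsupp.mapDomain Finsupp.sum
  rw [Finsupp.finsetSum_apply]
  refine Finset.sum_nonneg fun a _ => ?_
  rw [Finsupp.single_apply]
  split_ifs with h1
  · exact h a h1
  · exact le_refl _

theorem sum_mapDomain (D : A →₀ ℤ) (f : A → B) :
    ((D.mapDomain f).sum fun _ n => n) = D.sum fun _ n => n :=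
  Finsupp.sum_mapDomain_index (fun _ => rfl) (fun _ _ _ => rfl)

end mapDomain

section poles

variable {k : Type*} [Field k] [IsAlgClosed k] {κ : Type*} [Field κ] [Algebra k κ]
  [Algebra (RatFunc k) κ] [IsScalarTower k (RatFunc k) κ] [FiniteDimensional (RatFunc k) κ]
  [Algebra.IsSeparable (RatFunc k) κ]

theorem exists_pole {z : κ} (hz : z ∉ Set.range (algebraMap k κ)) : ∃ b : Pl k κ, 1 < b.v z := by
  by_contra hcon
  push Not at hcon
  have h1 := isAlgebraic_of_no_poles (k := k) hcon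
  have h2 : z ∈ algebraicClosure k κ := mem_algebraicClosure_iff.mpr h1
  rw [hc_of_isAlgClosed (k := k) (K := κ), IntermediateField.mem_bot] at h2
  exact hz h2

theorem divf_neg_of_pole {z : κ} {b : Pl k κ} (h : 1 < b.v z) : divf (k := k) z b < 0 := by
  have hz : z ≠ 0 := by rintro rfl; simp at h
  rw [v_eq hz, ← exp_zero, exp_lt_exp] at h
  omega

theorem divf_nonneg_of_le {z : κ} {b : Pl k κ} (h : b.v z ≤ 1) : 0 ≤ divf (k := k) z b := by
  by_cases hz : z = 0
  · rw [hz]; unfold divf; rw [dif_pos rfl]; rfl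
  rw [v_eq hz, ← exp_zero, exp_le_exp] at h
  omega

/-- a separating transcendental residue exists -/
theorem exists_notMem_range : ∃ z : κ, z ∉ Set.range (algebraMap k κ) := by
  refine ⟨xK k κ, ?_⟩
  rintro ⟨c, hc⟩
  have h1 := RR20_948.transcendental_xK (k := k) (K := κ)
  rw [← hc] at h1
  exact h1 (isAlgebraic_algebraMap c)

end poles

section sp

variable {C : Type*} [Field C] [IsAlgClosed C] [CharZero C] {L : Type*} [Field L] [Algebra C L]
  [Algebra (RatFunc C) L] [IsScalarTower C (RatFunc C) L] [FiniteDimensional (RatFunc C) L]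
  {k κ : Type*} [Field k] [IsAlgClosed k] [Field κ] [Algebra k κ]
  [Algebra (RatFunc k) κ] [IsScalarTower k (RatFunc k) κ] [FiniteDimensional (RatFunc k) κ]
  [Algebra.IsSeparable (RatFunc k) κ]
  {vC : Valuation C ℝ≥0} {ρC : C → k} {w : Valuation L ℝ≥0} {ρ : L → κ}

/-- the specialisation property: divisors of functions of norm one reduce to the divisors of their
reductions -/
def SpP (w : Valuation L ℝ≥0) (ρ : L → κ) (sp : Pl C L → Pl k κ) : Prop :=
  ∀ u, w u = 1 → divf (k := k) (ρ u) = (divf (k := C) u).mapDomain sp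

theorem sp_eq_of_pole {sp : Pl C L → Pl k κ} (hsp : SpP w ρ sp) {u : L} {P : Pl C L}
    (hu : ∀ Q, Q ≠ P → Q.v u ≤ 1) (hwu : w u = 1) {b : Pl k κ} (hb : 1 < b.v (ρ u)) :
    sp P = b := by
  by_contra hne
  have h1 := divf_neg_of_pole hb
  rw [hsp u hwu] at h1
  refine absurd (mapDomain_nonneg_of (divf (k := C) u) sp b fun Q hQ => ?_) (not_le.mpr h1)
  apply divf_nonneg_of_le
  apply hu
  rintro rfl
  exact hne hQ

/-- a function with only pole `P` and non constant residue of norm one -/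
theorem exists_fun (h : Red vC ρC w ρ) (P : Pl C L) :
    ∃ u : L, (∀ Q, Q ≠ P → Q.v u ≤ 1) ∧ w u = 1 ∧ ρ u ∉ Set.range (algebraMap k κ) := by
  obtain ⟨f, hf1, hf2⟩ := exists_pole_order (k := C) (K := L) hc_of_isAlgClosed P
    (2 * gen C L + 2) (by rw [degP_eq_one]; push_cast; linarith) (by omega)
  have htr : Transcendental C f := by
    intro halg
    have h1 : f ∈ algebraicClosure C L := mem_algebraicClosure_iff.mpr halg
    rw [hc_of_isAlgClosed (k := C) (K := L), IntermediateField.mem_bot] at h1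
    obtain ⟨c, rfl⟩ := h1
    by_cases hc : c = 0
    · rw [hc, map_zero, map_zero] at hf1
      exact exp_ne_zero hf1.symm
    · rw [P.const c hc, ← exp_zero, exp_inj] at hf1
      push_cast at hf1
      omega
  obtain ⟨a, c, hc0, h1, h2⟩ := exists_good_lift h exists_notMem_range htr
  refine ⟨_, fun Q hQ => ?_, h1, h2⟩
  have hconst : ∀ c : C, Q.v (algebraMap C L c) ≤ 1 := by
    intro c
    by_cases hc : c = 0
    · simp [hc]
    · rw [Q.const c hc]
  rw [map_mul]
  exact mul_le_one' ((Valuation.map_sub _ _ _).trans (max_le (hf2 Q hQ) (hconst a))) (hconst _)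

/-- **equivariance** of the specialisation map -/
theorem sp_equivariant (h : Red vC ρC w ρ) {sp : Pl C L → Pl k κ} (hsp : SpP w ρ sp)
    {σ : L ≃ₐ[C] L} (hσ : ∀ x, w (σ x) = w x) {σb : κ ≃ₐ[k] κ}
    (hσb : ∀ x, w x ≤ 1 → ρ (σ x) = σb (ρ x)) (P : Pl C L) :
    sp (mapPl σ P) = mapPl σb (sp P) := by
  obtain ⟨u, hu1, hu2, hu3⟩ := exists_fun h P
  obtain ⟨b, hb⟩ := exists_pole hu3
  rw [sp_eq_of_pole hsp hu1 hu2 hb]
  apply sp_eq_of_pole hsp (u := σ u) (P := mapPl σ P) ?_ (by rw [hσ, hu2])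
  · rw [hσb u hu2.le, mapPl_v_apply]; exact hb
  · intro Q hQ
    have h1 := hu1 (mapPl σ.symm Q) (by
      intro h2; apply hQ; rw [← h2, mapPl_mapPl_symm])
    exact h1

theorem mapDomain_mapD (h : Red vC ρC w ρ) {sp : Pl C L → Pl k κ} (hsp : SpP w ρ sp)
    {σ : L ≃ₐ[C] L} (hσ : ∀ x, w (σ x) = w x) {σb : κ ≃ₐ[k] κ}
    (hσb : ∀ x, w x ≤ 1 → ρ (σ x) = σb (ρ x)) (E : Pl C L →₀ ℤ) :
    (mapD σ E).mapDomain sp = mapD σb (E.mapDomain sp) := by
  have h1 : mapD σ E = E.mapDomain (mapPl σ) := by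
    unfold mapD
    rw [Finsupp.domCongr_apply, Finsupp.equivMapDomain_eq_mapDomain]; rfl
  have h2 : mapD σb (E.mapDomain sp) = (E.mapDomain sp).mapDomain (mapPl σb) := by
    unfold mapD
    rw [Finsupp.domCongr_apply, Finsupp.equivMapDomain_eq_mapDomain]; rfl
  rw [h1, h2, ← Finsupp.mapDomain_comp, ← Finsupp.mapDomain_comp]
  congr 1
  funext P
  exact sp_equivariant h hsp hσ hσb P

end sp

section main

variable {C : Type*} [Field C] [IsAlgClosed C] [CharZero C]
  {K : Type*} [Field K] [Algebra C K]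
  {L : Type*} [Field L] [Algebra C L] [Algebra K L] [IsScalarTower C K L]
  [Algebra (RatFunc C) L] [IsScalarTower C (RatFunc C) L] [FiniteDimensional (RatFunc C) L]
  {k κ : Type*} [Field k] [IsAlgClosed k] [Field κ] [Algebra k κ]
  [Algebra (RatFunc k) κ] [IsScalarTower k (RatFunc k) κ] [FiniteDimensional (RatFunc k) κ]
  [Algebra.IsSeparable (RatFunc k) κ]
  {vC : Valuation C ℝ≥0} {ρC : C → k} {w : Valuation L ℝ≥0} {ρ : L → κ}

theorem w_pow {σ : L ≃ₐ[K] L} (hσ : ∀ x, w (σ x) = w x) (i : ℕ) (x : L) :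
    w ((σ ^ i) x) = w x := by
  induction i with
  | zero => rfl
  | succ i ih => rw [pow_succ', AlgEquiv.mul_apply, hσ, ih]

theorem res_pow {σ : L ≃ₐ[K] L} (hσ : ∀ x, w (σ x) = w x) {σb : κ ≃ₐ[k] κ}
    (hσb : ∀ x, w x ≤ 1 → ρ (σ x) = σb (ρ x)) (i : ℕ) {x : L} (hx : w x ≤ 1) :
    ρ ((σ ^ i) x) = (σb ^ i) (ρ x) := by
  induction i with
  | zero => rfl
  | succ i ih =>
    rw [pow_succ', AlgEquiv.mul_apply, hσb _ (by rw [w_pow hσ]; exact hx), ih, pow_succ',
      AlgEquiv.mul_apply]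

theorem sb_pow (h : Red vC ρC w ρ) {p : ℕ} {σ : L ≃ₐ[K] L} (hσp : σ ^ p = 1)
    (hσ : ∀ x, w (σ x) = w x) {σb : κ ≃ₐ[k] κ}
    (hσb : ∀ x, w x ≤ 1 → ρ (σ x) = σb (ρ x)) : σb ^ p = 1 := by
  ext y
  obtain ⟨x, hx, rfl⟩ := h.res.surj y
  rw [← res_pow hσ hσb p hx, hσp]; rfl

/-- **main claim** of C-GR -/
theorem main_claim (h : Red vC ρC w ρ) {sp : Pl C L → Pl k κ} (hsp : SpP w ρ sp) {p : ℕ}
    (hp : p.Prime) {σ : L ≃ₐ[K] L} (hσp : σ ^ p = 1) (hσ : ∀ x, w (σ x) = w x)
    {σb : κ ≃ₐ[k] κ} (hσb : ∀ x, w x ≤ 1 → ρ (σ x) = σb (ρ x))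
    (hfree : ∀ b : Pl k κ, mapPl σb b ≠ b) {Q : Pl C L} {V : Pl C L →₀ ℤ} {f : L} (hf : w f = 1)
    (hdiv : Finsupp.single Q 1 - Finsupp.single (mapPl (σ.restrictScalars C) Q) 1
      = (p : ℤ) • V + divf (k := C) f)
    {h0 : K} (hh : algebraMap K L h0 = ∏ i ∈ Finset.range p, (σ ^ i) f) :
    ¬ ∃ g : K, w (algebraMap K L g) = 1 ∧ ρ (algebraMap K L (h0 * g ^ p)) = 1 := by
  classical
  rintro ⟨g, hg, hρ⟩
  set g' := algebraMap K L g with hg'
  have hσg : ∀ i : ℕ, (σ ^ i) g' = g' := fun i => AlgEquiv.commutes _ _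
  have hσbp := sb_pow h hσp hσ hσb
  have hσbne : σb ≠ 1 := by
    rintro rfl
    obtain ⟨b, _⟩ := exists_notMem (k := k) (K := κ) ∅
    exact hfree b (mapPl_one b)
  -- the element `x = f g` has norm with reduction one
  have hfg : w (f * g') = 1 := by rw [map_mul, hf, hg, one_mul]
  have hprod : ∏ i ∈ Finset.range p, (σb ^ i) (ρ (f * g')) = 1 := by
    have h1 : ∀ i ∈ Finset.range p, (σb ^ i) (ρ (f * g')) = ρ ((σ ^ i) (f * g')) := fun i _ =>
      (res_pow hσ hσb i hfg.le).symm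
    rw [Finset.prod_congr rfl h1, ← h.res.prod _ _ (fun i _ => by rw [w_pow hσ]; exact hfg.le)]
    have h2 : ∏ i ∈ Finset.range p, (σ ^ i) (f * g') = algebraMap K L (h0 * g ^ p) := by
      have h3 : ∏ i ∈ Finset.range p, (σ ^ i) (f * g')
          = ∏ i ∈ Finset.range p, ((σ ^ i) f * g') :=
        Finset.prod_congr rfl fun i _ => by rw [map_mul, hσg]
      rw [h3, Finset.prod_mul_distrib, Finset.prod_const, Finset.card_range, map_mul, map_pow, hh]
    rw [h2, hρ]
  have hpowb : ∀ (i : ℕ) (y : κ), ((σb : κ ≃+* κ) ^ i) y = (σb ^ i) y := by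
    intro i y
    induction i with
    | zero => rfl
    | succ i ih => rw [pow_succ', pow_succ', AlgEquiv.mul_apply, ← ih]; rfl
  obtain ⟨ψb, hψb0, hψb⟩ := hilbert90 (σb : κ ≃+* κ) hp (by
      ext y
      rw [hpowb, hσbp]; rfl) (by
      intro h1
      apply hσbne
      ext y
      exact DFunLike.congr_fun h1 y) (y := ρ (f * g')) (by
      rw [← hprod]
      exact Finset.prod_congr rfl fun i _ => hpowb i _)
  obtain ⟨ψ, hψ, hψρ⟩ := h.res.lift hψb0
  have hψ0 : ψ ≠ 0 := by rintro rfl; simp at hψ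
  have hσψ : w (σ ψ) = 1 := by rw [hσ, hψ]
  have hσψ0 : σ ψ ≠ 0 := by simpa using hψ0
  have hf0 : f ≠ 0 := by rintro rfl; simp at hf
  have hg0 : g' ≠ 0 := by rintro h1; rw [h1] at hg; simp at hg
  set f' := f * g' * σ ψ / ψ with hf'
  have hwf' : w f' = 1 := by rw [hf', map_div₀, map_mul, hfg, hσψ, hψ]; simp
  have hρf' : ρ f' = 1 := by
    rw [hf', h.res.div (by rw [map_mul, hfg, hσψ, one_mul]) hψ,
      h.res.mul _ _ hfg.le hσψ.le, hσb ψ hψ.le, hψρ]
    have h1 : ρ (f * g') * σb ψb = ψb := hψb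
    rw [h1, div_self hψb0]
  -- divisors
  have hdσ : divf (k := C) (σ ψ) = mapD (σ.restrictScalars C) (divf ψ) :=
    divf_map (σ.restrictScalars C) ψ
  have hdivf' : divf (k := C) f' = divf f + divf g' + mapD (σ.restrictScalars C) (divf ψ)
      - divf ψ := by
    rw [hf', div_eq_mul_inv, divf_mul (mul_ne_zero (mul_ne_zero hf0 hg0) hσψ0) (inv_ne_zero hψ0),
      divf_mul (mul_ne_zero hf0 hg0) hσψ0, divf_mul hf0 hg0, divf_inv hψ0, hdσ, sub_eq_add_neg]
  set E : Pl C L →₀ ℤ := Finsupp.single Q 1 - divf ψ with hE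
  have hE' : divf (k := C) f' = E - mapD (σ.restrictScalars C) E - (p : ℤ) • V + divf g' := by
    have h1 : divf (k := C) f = Finsupp.single Q 1
        - Finsupp.single (mapPl (σ.restrictScalars C) Q) 1 - (p : ℤ) • V := by
      rw [hdiv]; abel
    rw [hdivf', h1, hE, map_sub, mapD_single]
    abel
  have hsp' := hsp f' hwf'
  have hd1 : divf (k := k) (1 : κ) = 0 := divf_one
  have hσres : ∀ x, w ((σ.restrictScalars C) x) = w x := hσ
  have hσbres : ∀ x, w x ≤ 1 → ρ ((σ.restrictScalars C) x) = σb (ρ x) := hσb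
  set d : Pl k κ →₀ ℤ := E.mapDomain sp with hd
  set V' : Pl k κ →₀ ℤ := V.mapDomain sp with hV'
  have hmap : ((E - mapD (σ.restrictScalars C) E - (p : ℤ) • V + divf g').mapDomain sp)
      = d - mapD σb d - (p : ℤ) • V' + divf (k := k) (ρ g') := by
    have hadd : ∀ X Y : Pl C L →₀ ℤ, (X + Y).mapDomain sp = X.mapDomain sp + Y.mapDomain sp :=
      fun X Y => Finsupp.mapDomain_add
    have hneg : ∀ X : Pl C L →₀ ℤ, (-X).mapDomain sp = -(X.mapDomain sp) := fun X =>
      map_neg (Finsupp.mapDomain.addMonoidHom sp) X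
    rw [sub_eq_add_neg, sub_eq_add_neg, hadd, hadd, hadd, hneg, hneg, hsp g' hg,
      mapDomain_mapD h hsp hσres hσbres, Finsupp.mapDomain_smul, ← sub_eq_add_neg,
      ← sub_eq_add_neg]
  rw [hρf', hd1, hE', hmap] at hsp'
  -- invariance of `G`
  set G : Pl k κ →₀ ℤ := divf (k := k) (ρ g') with hG
  have hGinv : ∀ b, G (plEquiv σb b) = G b := by
    intro b
    have h1 : σb (ρ g') = ρ g' := by
      rw [← hσb g' hg.le]
      congr 1
      exact hσg 1
    have h2 : mapD σb G = G := by rw [hG, ← divf_map, h1]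
    rw [plEquiv_apply]
    conv_lhs => rw [← h2]
    rw [mapD_mapPl]
  have hdvd := dvd_sum_of_orbit hp (plEquiv σb) (by
      ext b : 1
      have h1 : ∀ i : ℕ, ((plEquiv σb : Equiv.Perm (Pl k κ)) ^ i) b = mapPl (σb ^ i) b := by
        intro i
        induction i with
        | zero => exact (mapPl_one b).symm
        | succ i ih => rw [pow_succ', pow_succ', Equiv.Perm.mul_apply, ih, mapPl_mul]; rfl
      rw [h1, hσbp, mapPl_one]; rfl) hfree d G hGinv (by
      intro b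
      have h1 := DFunLike.congr_fun hsp' (mapPl σb b)
      rw [Finsupp.zero_apply, Finsupp.add_apply, Finsupp.sub_apply, Finsupp.sub_apply, mapD_mapPl,
        Finsupp.smul_apply, smul_eq_mul] at h1
      have h2 := hGinv b
      rw [plEquiv_apply] at h2 ⊢
      rw [h2] at h1
      exact ⟨V' (mapPl σb b), by linarith⟩) (by
      rw [← degD_eq_sum, hG]
      exact degD_divf (by rw [h.res.ne_zero_iff hg.le]; exact hg))
  rw [hd, sum_mapDomain, ← degD_eq_sum, hE, degD_sub, degD_single, degD_divf hψ0,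
    degP_eq_one] at hdvd
  have h1 : (p : ℤ) ∣ 1 := by simpa using hdvd
  have h2 : p ∣ 1 := by exact_mod_cast h1
  exact hp.one_lt.ne' (Nat.dvd_one.mp h2)

end main

end Crest.Agent.R013.GR5_921
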