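import Mathlib
import Crest.Agent.R013.GR5_921

/-!
# R013 / GR6: orthonormal bases, reductions of finite dimensional subspaces, degrees of reductions
(helper921)

* `HasON vC w V` : the `C`-subspace `V` of `L` has a finite `w`-orthonormal basis;
  `HasON.mono`, `Orth` (all finite dimensional subspaces);
* `red h V` reduction of a subspace, `finrank_red`;
* `degD_poles_red_le` = (DEG): `deg ρ(u) ≤ deg u`.
-/

set_option autoImplicit false
set_option linter.all false

namespace Crest.Agent.R013.GR6_921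

open Polynomial WithZero Module
open scoped NNReal
open Crest.Agent.R013.RR7_948 Crest.Agent.R013.RR8_948 Crest.Agent.R013.RR9_948
open Crest.Agent.R013.RR11_948 Crest.Agent.R013.RR12_948
open Crest.Agent.R013.RR18_948 Crest.Agent.R013.RR19_948 Crest.Agent.R013.RR20_948
open Crest.Agent.R013.RR21_948
open Crest.Agent.R013.GR1_921 Crest.Agent.R013.GR2_921 Crest.Agent.R013.GR4_921
open Crest.Agent.R013.GR5_921

section echelon

variable {C : Type*} [Field C] (vC : Valuation C ℝ≥0)

/-- subspaces of `C^n` with the maximum norm have orthonormal bases -/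
theorem echelon {ι : Type} [Fintype ι] (n : ℕ) :
    ∀ W : Submodule C (ι → C), finrank C W ≤ n →
    ∃ (m : ℕ) (y : Fin m → (ι → C)), (∀ j, y j ∈ W) ∧ W ≤ Submodule.span C (Set.range y) ∧
      (∀ j i, vC (y j i) ≤ 1) ∧
      ∀ (c : Fin m → C) (j : Fin m), ∃ i, vC (c j) ≤ vC ((∑ l, c l • y l) i) := by
  classical
  induction n with
  | zero =>
    intro W hW
    refine ⟨0, Fin.elim0, fun j => j.elim0, ?_, fun j => j.elim0, fun c j => j.elim0⟩
    have : finrank C W = 0 := by omega
    rw [Submodule.finrank_eq_zero.mp this]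
    exact bot_le
  | succ n ih =>
    intro W hW
    by_cases h0 : W = ⊥
    · refine ⟨0, Fin.elim0, fun j => j.elim0, ?_, fun j => j.elim0, fun c j => j.elim0⟩
      rw [h0]; exact bot_le
    obtain ⟨x, hxW, hx0⟩ := Submodule.exists_mem_ne_zero_of_ne_bot h0
    obtain ⟨i1, hi1⟩ := Function.ne_iff.mp hx0
    obtain ⟨i0, _, hmax⟩ := Finset.exists_max_image Finset.univ (fun i => vC (x i))
      ⟨i1, Finset.mem_univ _⟩
    have hxi0 : x i0 ≠ 0 := by
      intro h
      have h1 := hmax i1 (Finset.mem_univ _)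
      rw [h, map_zero] at h1
      exact hi1 ((Valuation.zero_iff vC).mp (le_antisymm h1 zero_le))
    -- normalised vector
    let x' : ι → C := (x i0)⁻¹ • x
    have hx'W : x' ∈ W := W.smul_mem _ hxW
    have hx'i0 : x' i0 = 1 := by simp [x', hxi0]
    have hx'le : ∀ i, vC (x' i) ≤ 1 := by
      intro i
      show vC ((x i0)⁻¹ * x i) ≤ 1
      rw [map_mul, map_inv₀]
      have h1 := hmax i (Finset.mem_univ _)
      have h2 : 0 < vC (x i0) := by rw [Valuation.pos_iff]; exact hxi0
      rw [inv_mul_le_iff₀ h2, mul_one]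
      exact h1
    let W' : Submodule C (ι → C) := W ⊓ LinearMap.ker (LinearMap.proj (R := C) (φ := fun _ => C) i0)
    have hlt : finrank C W' < finrank C W := by
      apply Submodule.finrank_lt_finrank_of_lt
      refine lt_of_le_of_ne inf_le_left ?_
      intro heq
      have h1 : x' ∈ W' := by rw [heq]; exact hx'W
      have h2 : x' i0 = 0 := h1.2
      rw [hx'i0] at h2
      exact one_ne_zero h2
    obtain ⟨m, y, hy1, hy2, hy3, hy4⟩ := ih W' (by omega)
    refine ⟨m + 1, Fin.cons x' y, ?_, ?_, ?_, ?_⟩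
    · intro j
      refine Fin.cases hx'W (fun j => ?_) j
      exact (hy1 j).1
    · intro z hz
      have h1 : z - z i0 • x' ∈ W' := by
        refine ⟨W.sub_mem hz (W.smul_mem _ hx'W), ?_⟩
        rw [SetLike.mem_coe, LinearMap.mem_ker]
        show z i0 - z i0 * x' i0 = 0
        rw [hx'i0]; ring
      have h2 := hy2 h1
      have h3 : z = (z - z i0 • x') + z i0 • x' := by abel
      rw [h3, Fin.range_cons, Submodule.span_insert]
      refine Submodule.add_mem _ (Submodule.mem_sup_right h2) (Submodule.mem_sup_left ?_)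
      exact Submodule.smul_mem _ _ (Submodule.mem_span_singleton_self x')
    · intro j i
      refine Fin.cases (hx'le i) (fun j => ?_) j
      exact hy3 j i
    · intro c j
      have hsum : ∑ l, c l • (Fin.cons x' y : Fin (m + 1) → (ι → C)) l
          = c 0 • x' + ∑ l, c (Fin.succ l) • y l := by
        rw [Fin.sum_univ_succ]; rfl
      rw [hsum]
      have hi0 : (c 0 • x' + ∑ l, c (Fin.succ l) • y l) i0 = c 0 := by
        have h1 : (∑ l, c (Fin.succ l) • y l) i0 = 0 := by
          have h2 : (∑ l, c (Fin.succ l) • y l) ∈ W' :=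
            Submodule.sum_mem _ fun l _ => Submodule.smul_mem _ _ (hy1 l)
          exact h2.2
        rw [Pi.add_apply, h1, Pi.smul_apply, hx'i0, smul_eq_mul, mul_one, add_zero]
      refine Fin.cases ⟨i0, by rw [hi0]⟩ (fun j => ?_) j
      by_contra hcon
      push Not at hcon
      obtain ⟨i, hi⟩ := hy4 (fun l => c (Fin.succ l)) j
      have h1 := hcon i
      have h2 := hcon i0
      rw [hi0] at h2
      have h3 : (∑ l, c (Fin.succ l) • y l) i
          = (c 0 • x' + ∑ l, c (Fin.succ l) • y l) i - c 0 * x' i := by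
        rw [Pi.add_apply, Pi.smul_apply, smul_eq_mul]; ring
      have h4 : vC ((∑ l, c (Fin.succ l) • y l) i) < vC (c (Fin.succ j)) := by
        rw [h3]
        refine lt_of_le_of_lt (Valuation.map_sub _ _ _) (max_lt h1 ?_)
        rw [map_mul]
        exact lt_of_le_of_lt (mul_le_of_le_one_right' (hx'le i)) h2
      exact absurd hi (not_le.mpr h4)

variable {L : Type*} [Field L] [Algebra C L] (w : Valuation L ℝ≥0)

/-- `V` has a finite orthonormal basis -/
def HasON (V : Submodule C L) : Prop :=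
  ∃ (m : ℕ) (b : Fin m → L), (∀ i, b i ∈ V) ∧ V ≤ Submodule.span C (Set.range b) ∧
    (∀ i, w (b i) ≤ 1) ∧ ∀ (c : Fin m → C) i, vC (c i) ≤ w (∑ j, c j • b j)

/-- every finite dimensional `C`-subspace has an orthonormal basis -/
def Orth : Prop := ∀ V : Submodule C L, FiniteDimensional C V → HasON vC w V

variable {vC w}

/-- orthonormal families indexed by any finite type -/
theorem HasON.of_family {ι : Type} [Fintype ι] {V : Submodule C L}
    (hn : ∀ c : C, w (algebraMap C L c) = vC c) (b : ι → L)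
    (h1 : ∀ i, b i ∈ V) (h2 : V ≤ Submodule.span C (Set.range b)) (h3 : ∀ i, w (b i) ≤ 1)
    (h4 : ∀ (c : ι → C) i, vC (c i) ≤ w (∑ j, c j • b j)) : HasON vC w V := by
  classical
  let e := Fintype.equivFin ι
  refine ⟨Fintype.card ι, b ∘ e.symm, fun i => h1 _, ?_, fun i => h3 _, fun c i => ?_⟩
  · rw [Set.range_comp, Equiv.range_eq_univ, Set.image_univ]; exact h2
  · have h5 := h4 (c ∘ e) (e.symm i)
    rw [Function.comp_apply, Equiv.apply_symm_apply] at h5
    have h6 : ∑ j, (c ∘ e) j • b j = ∑ j, c j • (b ∘ e.symm) j := by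
      rw [← Equiv.sum_comp e]
      refine Finset.sum_congr rfl fun j _ => ?_
      simp
    rw [h6] at h5
    exact h5

theorem HasON.mono (hn : ∀ c : C, w (algebraMap C L c) = vC c) {V V' : Submodule C L}
    (h : HasON vC w V) (hle : V' ≤ V) : HasON vC w V' := by
  classical
  obtain ⟨m, b, hb1, hb2, hb3, hb4⟩ := h
  let T : (Fin m → C) →ₗ[C] L := Fintype.linearCombination C b
  have hT : ∀ c, T c = ∑ j, c j • b j := fun c => Fintype.linearCombination_apply C b c
  obtain ⟨m', y, hy1, hy2, hy3, hy4⟩ := echelon vC _ (V'.comap T) le_rfl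
  refine ⟨m', fun j => T (y j), fun j => hy1 j, ?_, ?_, ?_⟩
  · intro z hz
    have h1 : z ∈ Submodule.span C (Set.range b) := hb2 (hle hz)
    rw [← Fintype.range_linearCombination, LinearMap.mem_range] at h1
    obtain ⟨c, hc⟩ := h1
    have h2 : c ∈ V'.comap T := by
      rw [Submodule.mem_comap]
      have : T c = z := hc
      rw [this]; exact hz
    have h3 := hy2 h2
    have h4 : T c ∈ (Submodule.span C (Set.range y)).map T := Submodule.mem_map_of_mem h3
    rw [Submodule.map_span, ← Set.range_comp] at h4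
    have : T c = z := hc
    rw [this] at h4
    exact h4
  · intro j
    show w (T (y j)) ≤ 1
    rw [hT]
    refine Valuation.map_sum_le _ fun i _ => ?_
    rw [Algebra.smul_def, map_mul, hn]
    exact mul_le_one' (hy3 j i) (hb3 i)
  · intro c j
    obtain ⟨i, hi⟩ := hy4 c j
    have h1 : ∑ l, c l • T (y l) = T (∑ l, c l • y l) := by
      rw [map_sum]
      exact Finset.sum_congr rfl fun l _ => (map_smul T _ _).symm
    rw [h1]
    refine hi.trans ?_
    rw [hT]
    exact hb4 (∑ l, c l • y l) i

end echelon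

section red

variable {C L k κ : Type*} [Field C] [Field L] [Algebra C L] [Field k] [Field κ] [Algebra k κ]
    {vC : Valuation C ℝ≥0} {ρC : C → k} {w : Valuation L ℝ≥0} {ρ : L → κ}

/-- the reduction of a subspace -/
def red (h : Red vC ρC w ρ) (V : Submodule C L) : Submodule k κ where
  carrier := {z | ∃ x ∈ V, w x ≤ 1 ∧ ρ x = z}
  add_mem' := by
    rintro _ _ ⟨x, hx, hx1, rfl⟩ ⟨y, hy, hy1, rfl⟩
    exact ⟨x + y, V.add_mem hx hy, (Valuation.map_add _ _ _).trans (max_le hx1 hy1),
      h.res.add x y hx1 hy1⟩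
  zero_mem' := ⟨0, V.zero_mem, by simp, h.res.zero⟩
  smul_mem' := by
    rintro r _ ⟨x, hx, hx1, rfl⟩
    obtain ⟨c, hc, rfl⟩ := h.resC.surj r
    have hc1 : w (algebraMap C L c) ≤ 1 := by rw [h.norm]; exact hc
    refine ⟨c • x, V.smul_mem c hx, ?_, ?_⟩
    · rw [Algebra.smul_def, map_mul]; exact mul_le_one' hc1 hx1
    · rw [Algebra.smul_def, h.res.mul _ _ hc1 hx1, h.comp c hc, ← Algebra.smul_def]

theorem mem_red {h : Red vC ρC w ρ} {V : Submodule C L} {z : κ} :
    z ∈ red h V ↔ ∃ x ∈ V, w x ≤ 1 ∧ ρ x = z := Iff.rfl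

theorem mem_red_of {h : Red vC ρC w ρ} {V : Submodule C L} {x : L} (hx : x ∈ V) (hw : w x ≤ 1) :
    ρ x ∈ red h V := ⟨x, hx, hw, rfl⟩

/-- an orthonormal basis reduces to a basis -/
theorem finrank_red (h : Red vC ρC w ρ) {V : Submodule C L} (hV : HasON vC w V) :
    FiniteDimensional k (red h V) ∧ finrank k (red h V) = finrank C V := by
  classical
  obtain ⟨m, b, hb1, hb2, hb3, hb4⟩ := hV
  have hspan : V = Submodule.span C (Set.range b) := by
    apply le_antisymm hb2
    rw [Submodule.span_le]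
    rintro _ ⟨i, rfl⟩
    exact hb1 i
  have hli : LinearIndependent C b := by
    rw [Fintype.linearIndependent_iff]
    intro c hc i
    have h1 := hb4 c i
    rw [hc, map_zero] at h1
    exact (Valuation.zero_iff vC).mp (le_antisymm h1 zero_le)
  have hdimV : finrank C V = m := by
    rw [hspan, finrank_span_eq_card hli, Fintype.card_fin]
  have hli' : LinearIndependent k (fun i => ρ (b i)) := by
    rw [Fintype.linearIndependent_iff]
    intro r hr i
    choose c hc1 hc2 using fun i => h.resC.surj (r i)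
    have hw1 : ∀ j, w (c j • b j) ≤ 1 := fun j => by
      rw [Algebra.smul_def, map_mul, h.norm]; exact mul_le_one' (hc1 j) (hb3 j)
    have h1 : ρ (∑ j, c j • b j) = 0 := by
      rw [h.res.sum _ _ fun j _ => hw1 j, ← hr]
      refine Finset.sum_congr rfl fun j _ => ?_
      rw [Algebra.smul_def, h.res.mul _ _ (by rw [h.norm]; exact hc1 j) (hb3 j), h.comp _ (hc1 j),
        hc2, ← Algebra.smul_def]
    rw [h.res.zero_iff _ (Valuation.map_sum_le _ fun j _ => hw1 j)] at h1
    have h2 := lt_of_le_of_lt (hb4 c i) h1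
    rw [← hc2 i, h.resC.zero_iff _ (hc1 i)]
    exact h2
  have hspan' : red h V = Submodule.span k (Set.range fun i => ρ (b i)) := by
    apply le_antisymm
    · rintro _ ⟨x, hx, hx1, rfl⟩
      have h1 := hb2 hx
      rw [← Fintype.range_linearCombination, LinearMap.mem_range] at h1
      obtain ⟨c, hc⟩ := h1
      rw [Fintype.linearCombination_apply] at hc
      have hc1 : ∀ j, vC (c j) ≤ 1 := fun j => (hb4 c j).trans (by rw [hc]; exact hx1)
      rw [← hc, h.res.sum _ _ fun j _ => by
        rw [Algebra.smul_def, map_mul, h.norm]; exact mul_le_one' (hc1 j) (hb3 j)]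
      refine Submodule.sum_mem _ fun j _ => ?_
      rw [Algebra.smul_def, h.res.mul _ _ (by rw [h.norm]; exact hc1 j) (hb3 j), h.comp _ (hc1 j),
        ← Algebra.smul_def]
      exact Submodule.smul_mem _ _ (Submodule.subset_span ⟨j, rfl⟩)
    · rw [Submodule.span_le]
      rintro _ ⟨i, rfl⟩
      exact mem_red_of (hb1 i) (hb3 i)
  constructor
  · rw [hspan']
    exact FiniteDimensional.span_of_finite k (Set.finite_range _)
  · rw [hspan', finrank_span_eq_card hli', Fintype.card_fin, hdimV]

end red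

/-! ### (IND): `k(y)`-independent elements, as many as the degree of the zero divisor of `y` -/

section ind

variable {k : Type*} [Field k] [IsAlgClosed k] {κ : Type*} [Field κ] [Algebra k κ]
  [Algebra (RatFunc k) κ] [IsScalarTower k (RatFunc k) κ] [FiniteDimensional (RatFunc k) κ]
  [Algebra.IsSeparable (RatFunc k) κ]

theorem v_aeval_le_of_coeff_zero {b : Pl k κ} {y : κ} {e : ℤ} (he : 0 < e) (hy : b.v y = exp (-e))
    (f : k[X]) (hf : f.coeff 0 = 0) : b.v (aeval y f) ≤ exp (-e) := by
  obtain ⟨g, rfl⟩ := X_dvd_iff.mpr hf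
  rw [map_mul, aeval_X, map_mul, hy]
  have h1 : b.v (aeval y g) ≤ 1 := by
    rw [aeval_eq_sum_range]
    refine Valuation.map_sum_le _ fun i _ => ?_
    rw [Algebra.smul_def, map_mul, map_pow, hy]
    have h2 : b.v (algebraMap k κ (g.coeff i)) ≤ 1 := by
      by_cases hc : g.coeff i = 0
      · simp [hc]
      · rw [b.const _ hc]
    refine mul_le_one' h2 (pow_le_one' ?_ i)
    rw [← exp_zero, exp_le_exp]; omega
  calc _ ≤ exp (-e) * 1 := mul_le_mul_right h1 _
    _ = exp (-e) := mul_one _

theorem v_aeval_eq_one {b : Pl k κ} {y : κ} {e : ℤ} (he : 0 < e) (hy : b.v y = exp (-e))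
    (f : k[X]) (hf : f.coeff 0 ≠ 0) : b.v (aeval y f) = 1 := by
  have h1 : f = (f - Polynomial.C (f.coeff 0)) + Polynomial.C (f.coeff 0) := by ring
  have h2 := v_aeval_le_of_coeff_zero he hy (f - Polynomial.C (f.coeff 0)) (by simp)
  rw [h1, map_add, aeval_C]
  have h3 : b.v (algebraMap k κ (f.coeff 0)) = 1 := b.const _ hf
  have h4 : b.v (aeval y (f - Polynomial.C (f.coeff 0))) < b.v (algebraMap k κ (f.coeff 0)) := by
    rw [h3]
    refine lt_of_le_of_lt h2 ?_
    rw [← exp_zero, exp_lt_exp]; omega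
  rw [Valuation.map_add_eq_of_lt_right _ h4, h3]

theorem exists_indep {y : κ} (hy : y ≠ 0) :
    ∃ (ι : Type) (_ : Fintype ι) (η : ι → κ), (Fintype.card ι : ℤ) = degD (zeros (k := k) y) ∧
      ∀ φ : ι → k[X], ∑ i, aeval y (φ i) * η i = 0 → ∀ i, φ i = 0 := by
  classical
  set Z := zeros (k := k) y with hZ
  let S : Finset (Pl k κ) := Z.support
  have hZpos : ∀ b ∈ S, 0 < Z b := by
    intro b hb
    have h1 : Z b ≠ 0 := Finsupp.mem_support_iff.mp hb
    have h2 : 0 ≤ Z b := by rw [hZ, zeros_apply]; exact le_max_right _ _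
    omega
  have hyv : ∀ b ∈ S, b.v y = exp (-Z b) := by
    intro b hb
    have h1 := hZpos b hb
    rw [v_eq hy]
    congr 2
    have h2 : Z b = max (divf (k := k) y b) 0 := zeros_apply y b
    rcases le_total (divf (k := k) y b) 0 with h3 | h3
    · rw [max_eq_right h3] at h2; omega
    · rw [max_eq_left h3] at h2; exact h2.symm
  -- index type: small model
  let e := S.equivFin
  let J : Type := Σ i : Fin S.card, Fin (Z (e.symm i)).toNat
  -- the elements
  choose η hη0 hη using fun j : J =>
    exists_prescribed S (fun b => if b = (e.symm j.1 : Pl k κ) then -((j.2 : ℕ) : ℤ) else -Z b)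
  refine ⟨J, inferInstance, η, ?_, ?_⟩
  · rw [degD_eq_sum, Fintype.card_sigma]
    simp only [Fintype.card_fin]
    push_cast
    have h1 : ∀ i : Fin S.card, (((Z (e.symm i)).toNat : ℕ) : ℤ) = Z (e.symm i) := fun i =>
      Int.toNat_of_nonneg (hZpos _ (e.symm i).2).le
    rw [Finset.sum_congr rfl fun i _ => h1 i, Equiv.sum_comp e.symm (fun b : S => Z b)]
    unfold Finsupp.sum
    exact Finset.sum_coe_sort S (fun b => Z b)
  · -- all constant terms vanish
    have key : ∀ φ : J → k[X], ∑ i, aeval y (φ i) * η i = 0 → ∀ i, (φ i).coeff 0 = 0 := by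
      intro φ hφ
      by_contra hcon
      push Not at hcon
      obtain ⟨⟨i0, a0⟩, ha0⟩ := hcon
      -- minimal second component
      let T : Finset (Fin (Z (e.symm i0)).toNat) :=
        Finset.univ.filter fun a => (φ ⟨i0, a⟩).coeff 0 ≠ 0
      have hT : T.Nonempty := ⟨a0, by simp [T, ha0]⟩
      let a := T.min' hT
      have haT : (φ ⟨i0, a⟩).coeff 0 ≠ 0 := by
        have h1 := Finset.min'_mem T hT
        simp only [T, Finset.mem_filter] at h1
        exact h1.2
      have hamin : ∀ a' : Fin (Z (e.symm i0)).toNat, a' < a → (φ ⟨i0, a'⟩).coeff 0 = 0 := by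
        intro a' ha'
        by_contra h1
        have h2 : a' ∈ T := by simp [T, h1]
        exact absurd (Finset.min'_le T a' h2) (not_le.mpr ha')
      obtain ⟨b, hb⟩ : ∃ b : Pl k κ, b = (e.symm i0 : Pl k κ) := ⟨_, rfl⟩
      have hbS : b ∈ S := by rw [hb]; exact (e.symm i0).2
      have hZb := hZpos b hbS
      have hvy := hyv b hbS
      have haZ : ((a : ℕ) : ℤ) < Z b := by
        have h1 := a.2
        have h2 : (((Z b).toNat : ℕ) : ℤ) = Z b := Int.toNat_of_nonneg hZb.le
        have h3 : (a : ℕ) < (Z b).toNat := by rw [hb]; exact h1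
        omega
      have hmain : b.v (aeval y (φ ⟨i0, a⟩) * η ⟨i0, a⟩) = exp (-((a : ℕ) : ℤ)) := by
        rw [map_mul, v_aeval_eq_one hZb hvy _ haT, one_mul, hη _ b hbS, if_pos hb]
      have hother : ∀ j : J, j ≠ ⟨i0, a⟩ →
          b.v (aeval y (φ j) * η j) < exp (-((a : ℕ) : ℤ)) := by
        rintro ⟨i, a'⟩ hne
        have hle1 : b.v (aeval y (φ ⟨i, a'⟩)) ≤ 1 := by
          by_cases h1 : (φ ⟨i, a'⟩).coeff 0 = 0
          · refine (v_aeval_le_of_coeff_zero hZb hvy _ h1).trans ?_
            rw [← exp_zero, exp_le_exp]; omega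
          · exact (v_aeval_eq_one hZb hvy _ h1).le
        rw [map_mul, hη _ b hbS]
        by_cases hi : i = i0
        · subst hi
          rw [if_pos hb]
          rcases lt_trichotomy a' a with h1 | h1 | h1
          · have h2 := v_aeval_le_of_coeff_zero hZb hvy _ (hamin a' h1)
            calc _ ≤ exp (-Z b) * exp (-((a' : ℕ) : ℤ)) := mul_le_mul_left h2 _
              _ = exp (-Z b + -((a' : ℕ) : ℤ)) := (exp_add _ _).symm
              _ < _ := by rw [exp_lt_exp]; omega
          · exact absurd (by rw [h1]) hne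
          · calc _ ≤ 1 * exp (-((a' : ℕ) : ℤ)) := mul_le_mul_left hle1 _
              _ = exp (-((a' : ℕ) : ℤ)) := one_mul _
              _ < _ := by
                rw [exp_lt_exp]
                have : (a : ℕ) < a' := h1
                omega
        · have hne' : b ≠ (e.symm i : Pl k κ) := by
            intro h1
            apply hi
            have h2 : e.symm i0 = e.symm i := Subtype.ext (hb.symm.trans h1)
            exact (e.symm.injective h2).symm
          rw [if_neg hne']
          calc _ ≤ 1 * exp (-Z b) := mul_le_mul_left hle1 _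
            _ = exp (-Z b) := one_mul _
            _ < _ := by rw [exp_lt_exp]; omega
      have hsum : b.v (∑ j, aeval y (φ j) * η j) = exp (-((a : ℕ) : ℤ)) := by
        rw [← Finset.add_sum_erase Finset.univ _ (Finset.mem_univ (⟨i0, a⟩ : J))]
        have h1 : b.v (∑ x ∈ Finset.univ.erase (⟨i0, a⟩ : J), aeval y (φ x) * η x)
            < b.v (aeval y (φ ⟨i0, a⟩) * η ⟨i0, a⟩) := by
          rw [hmain]
          refine Valuation.map_sum_lt _ exp_ne_zero fun j hj => ?_
          exact hother j (Finset.ne_of_mem_erase hj)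
        rw [Valuation.map_add_eq_of_lt_left _ h1, hmain]
      rw [hφ, map_zero] at hsum
      exact exp_ne_zero hsum.symm
    -- induction on the degree
    have hind : ∀ (n : ℕ) (φ : J → k[X]), (∀ i, (φ i).natDegree ≤ n) →
        ∑ i, aeval y (φ i) * η i = 0 → ∀ i, φ i = 0 := by
      intro n
      induction n with
      | zero =>
        intro φ hn hφ i
        rw [eq_C_of_natDegree_le_zero (hn i), key φ hφ i, map_zero]
      | succ n ih =>
        intro φ hn hφ i
        have h0 := key φ hφ
        have hX : ∀ i, φ i = X * (φ i).divX := fun i => by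
          conv_lhs => rw [← divX_mul_X_add (φ i), h0 i, map_zero, add_zero, mul_comm]
        have h1 : ∑ i, aeval y ((φ i).divX) * η i = 0 := by
          have h2 : y * ∑ i, aeval y ((φ i).divX) * η i = 0 := by
            rw [← hφ, Finset.mul_sum]
            refine Finset.sum_congr rfl fun i _ => ?_
            conv_rhs => rw [hX i]
            rw [map_mul, aeval_X]; ring
          exact (mul_eq_zero.mp h2).resolve_left hy
        have h2 := ih (fun i => (φ i).divX) (fun i => by
          rw [natDegree_divX_eq_natDegree_tsub_one]; have := hn i; omega) h1 i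
        rw [hX i]
        have h3 : (φ i).divX = 0 := h2
        rw [h3, mul_zero]
    intro φ hφ
    exact hind (Finset.univ.sup fun i => (φ i).natDegree) φ
      (fun i => Finset.le_sup (f := fun i => (φ i).natDegree) (Finset.mem_univ i)) hφ

end ind

/-! ### (DEG): the degree of the reduction is at most the degree -/

section deg

variable {C : Type*} [Field C] [IsAlgClosed C] [CharZero C] {L : Type*} [Field L] [Algebra C L]
  [Algebra (RatFunc C) L] [IsScalarTower C (RatFunc C) L] [FiniteDimensional (RatFunc C) L]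
  {k κ : Type*} [Field k] [IsAlgClosed k] [Field κ] [Algebra k κ]
  [Algebra (RatFunc k) κ] [IsScalarTower k (RatFunc k) κ] [FiniteDimensional (RatFunc k) κ]
  [Algebra.IsSeparable (RatFunc k) κ]
  {vC : Valuation C ℝ≥0} {ρC : C → k} {w : Valuation L ℝ≥0} {ρ : L → κ}

/-- reduction of a polynomial -/
noncomputable def redP (ρC : C → k) (Ψ : C[X]) : k[X] :=
  ∑ n ∈ Finset.range (Ψ.natDegree + 1), Polynomial.C (ρC (Ψ.coeff n)) * X ^ n

omit [IsAlgClosed C] [CharZero C] [Algebra (RatFunc C) L] [IsScalarTower C (RatFunc C) L]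
  [FiniteDimensional (RatFunc C) L] [IsAlgClosed k] [Algebra (RatFunc k) κ]
  [IsScalarTower k (RatFunc k) κ] [FiniteDimensional (RatFunc k) κ]
  [Algebra.IsSeparable (RatFunc k) κ] in
theorem coeff_redP (h : Red vC ρC w ρ) (Ψ : C[X]) (n : ℕ) :
    (redP ρC Ψ).coeff n = ρC (Ψ.coeff n) := by
  unfold redP
  rw [finsetSum_coeff]
  by_cases hn : n ∈ Finset.range (Ψ.natDegree + 1)
  · rw [Finset.sum_eq_single n]
    · rw [coeff_C_mul, coeff_X_pow, if_pos rfl, mul_one]
    · intro m _ hm
      rw [coeff_C_mul, coeff_X_pow, if_neg (Ne.symm hm), mul_zero]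
    · intro h'; exact absurd hn h'
  · rw [Finset.sum_eq_zero]
    · rw [Finset.mem_range, not_lt] at hn
      rw [coeff_eq_zero_of_natDegree_lt (by omega), h.resC.zero]
    · intro m hm
      rw [coeff_C_mul, coeff_X_pow, if_neg, mul_zero]
      rintro rfl
      exact hn hm

omit [IsAlgClosed C] [CharZero C] [Algebra (RatFunc C) L] [IsScalarTower C (RatFunc C) L]
  [FiniteDimensional (RatFunc C) L] [IsAlgClosed k] [Algebra (RatFunc k) κ]
  [IsScalarTower k (RatFunc k) κ] [FiniteDimensional (RatFunc k) κ]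
  [Algebra.IsSeparable (RatFunc k) κ] in
theorem w_aeval_le (h : Red vC ρC w ρ) {Ψ : C[X]} (hΨ : ∀ n, vC (Ψ.coeff n) ≤ 1) {t : L}
    (ht : w t ≤ 1) : w (aeval t Ψ) ≤ 1 := by
  rw [aeval_eq_sum_range]
  refine Valuation.map_sum_le _ fun i _ => ?_
  rw [Algebra.smul_def, map_mul, map_pow, h.norm]
  exact mul_le_one' (hΨ i) (pow_le_one' ht i)

omit [IsAlgClosed C] [CharZero C] [Algebra (RatFunc C) L] [IsScalarTower C (RatFunc C) L]
  [FiniteDimensional (RatFunc C) L] [IsAlgClosed k] [Algebra (RatFunc k) κ]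
  [IsScalarTower k (RatFunc k) κ] [FiniteDimensional (RatFunc k) κ]
  [Algebra.IsSeparable (RatFunc k) κ] in
theorem res_aeval (h : Red vC ρC w ρ) {Ψ : C[X]} (hΨ : ∀ n, vC (Ψ.coeff n) ≤ 1) {t : L}
    (ht : w t ≤ 1) : ρ (aeval t Ψ) = aeval (ρ t) (redP ρC Ψ) := by
  unfold redP
  rw [aeval_eq_sum_range, map_sum, h.res.sum _ _ fun i _ => by
    rw [Algebra.smul_def, map_mul, map_pow, h.norm]; exact mul_le_one' (hΨ i) (pow_le_one' ht i)]
  refine Finset.sum_congr rfl fun i _ => ?_
  rw [Algebra.smul_def, h.res.mul _ _ (by rw [h.norm]; exact hΨ i)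
    (by rw [map_pow]; exact pow_le_one' ht i), h.comp _ (hΨ i), h.res.pow ht, map_mul, map_pow,
    aeval_C, aeval_X]

/-- lifts of `k(y)`-independent elements are `C(t)`-independent -/
theorem lift_indep (h : Red vC ρC w ρ) {t : L} (ht : w t ≤ 1) {ι : Type} [Fintype ι] {η : ι → κ}
    (hη : ∀ φ : ι → k[X], ∑ i, aeval (ρ t) (φ i) * η i = 0 → ∀ i, φ i = 0) {g : ι → L}
    (hg : ∀ i, w (g i) ≤ 1) (hgη : ∀ i, ρ (g i) = η i) (Φ : ι → C[X])
    (hΦ : ∑ i, aeval t (Φ i) * g i = 0) : ∀ i, Φ i = 0 := by
  classical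
  by_contra hcon
  push Not at hcon
  obtain ⟨i1, hi1⟩ := hcon
  -- maximal coefficient
  let N := Finset.univ.sup fun i => (Φ i).natDegree
  have hN : ∀ i, (Φ i).natDegree ≤ N := fun i =>
    Finset.le_sup (f := fun i => (Φ i).natDegree) (Finset.mem_univ i)
  obtain ⟨⟨i0, n0⟩, _, hmax⟩ := Finset.exists_max_image
    (Finset.univ ×ˢ Finset.range (N + 1) : Finset (ι × ℕ)) (fun x => vC ((Φ x.1).coeff x.2))
    ⟨(i1, 0), by simp⟩
  have hmax' : ∀ i n, vC ((Φ i).coeff n) ≤ vC ((Φ i0).coeff n0) := by
    intro i n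
    by_cases hn : n < N + 1
    · exact hmax (i, n) (by simp; omega)
    · rw [coeff_eq_zero_of_natDegree_lt (by have := hN i; omega), map_zero]
      exact zero_le
  set c := (Φ i0).coeff n0 with hc
  have hc0 : c ≠ 0 := by
    intro h0
    have h1 := hmax' i1 (Φ i1).natDegree
    rw [h0, map_zero] at h1
    have h2 := (Valuation.zero_iff vC).mp (le_antisymm h1 zero_le)
    exact hi1 (leadingCoeff_eq_zero.mp h2)
  have hvc : 0 < vC c := by rw [Valuation.pos_iff]; exact hc0
  let Ψ : ι → C[X] := fun i => Polynomial.C c⁻¹ * Φ i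
  have hΨ : ∀ i n, vC ((Ψ i).coeff n) ≤ 1 := by
    intro i n
    show vC ((Polynomial.C c⁻¹ * Φ i).coeff n) ≤ 1
    rw [coeff_C_mul, map_mul, map_inv₀, inv_mul_le_iff₀ hvc, mul_one]
    exact hmax' i n
  have hsum : ∑ i, aeval t (Ψ i) * g i = 0 := by
    have h1 : ∑ i, aeval t (Ψ i) * g i = algebraMap C L c⁻¹ * ∑ i, aeval t (Φ i) * g i := by
      rw [Finset.mul_sum]
      refine Finset.sum_congr rfl fun i _ => ?_
      show aeval t (Polynomial.C c⁻¹ * Φ i) * g i = _
      rw [map_mul, aeval_C]; ring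
    rw [h1, hΦ, mul_zero]
  have hred := hη (fun i => redP ρC (Ψ i)) (by
    have h1 := congrArg ρ hsum
    rw [h.res.zero, h.res.sum _ _ fun i _ => by
      rw [map_mul]; exact mul_le_one' (w_aeval_le h (hΨ i) ht) (hg i)] at h1
    rw [← h1]
    refine Finset.sum_congr rfl fun i _ => ?_
    rw [h.res.mul _ _ (w_aeval_le h (hΨ i) ht) (hg i), res_aeval h (hΨ i) ht, hgη]) i0
  have h1 := congrArg (fun q => Polynomial.coeff q n0) hred
  simp only [coeff_redP h, coeff_zero] at h1
  have h2 : (Ψ i0).coeff n0 = 1 := by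
    show (Polynomial.C c⁻¹ * Φ i0).coeff n0 = 1
    rw [coeff_C_mul, ← hc, inv_mul_cancel₀ hc0]
  rw [h2, h.resC.one] at h1
  exact one_ne_zero h1

/-- **(DEG)** -/
theorem degD_poles_le (h : Red vC ρC w ρ) {u : L} (hu : w u = 1)
    (hns : ρ u ∉ Set.range (algebraMap k κ)) :
    degD (poles (k := k) (ρ u)) ≤ degD (poles (k := C) u) := by
  classical
  have hu0 : u ≠ 0 := by rintro rfl; simp at hu
  have hρu0 : ρ u ≠ 0 := by rw [h.res.ne_zero_iff hu.le]; exact hu
  set t := u⁻¹ with ht
  have ht0 : t ≠ 0 := inv_ne_zero hu0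
  have hwt : w t = 1 := by rw [ht, map_inv₀, hu, inv_one]
  have hρt : ρ t = (ρ u)⁻¹ := h.res.inv hu
  have hρt0 : ρ t ≠ 0 := by rw [hρt]; exact inv_ne_zero hρu0
  -- `t` is transcendental
  have htr : Transcendental C t := by
    intro halg
    have h1 : t ∈ algebraicClosure C L := mem_algebraicClosure_iff.mpr halg
    rw [hc_of_isAlgClosed (k := C) (K := L), IntermediateField.mem_bot] at h1
    obtain ⟨c, hc⟩ := h1
    have hc1 : vC c = 1 := by rw [← h.norm, hc, hwt]
    have h2 : ρ t = algebraMap k κ (ρC c) := by rw [← hc, h.comp c hc1.le]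
    apply hns
    refine ⟨(ρC c)⁻¹, ?_⟩
    rw [map_inv₀, ← h2, hρt, inv_inv]
  obtain ⟨ι, _, η, hcard, hη⟩ := exists_indep (k := k) hρt0
  choose g hg hgη using fun i => h.res.surj (η i)
  have hind := lift_indep h hwt.le hη hg hgη
  have hfin := ratAlg_finite (k := C) t htr
  have hsep := ratAlg_isSeparable (k := C) t htr
  have hdeg := degD_poles_eq (k := C) t htr hsep
  have hle : Fintype.card ι ≤ @finrank (RatFunc C) L _ _ (ratAlg t htr).toModule := by
    letI := ratAlg t htr
    haveI := ratAlg_tower t htr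
    haveI : FiniteDimensional (RatFunc C) L := hfin
    letI : Algebra C[X] L :=
      ((algebraMap (RatFunc C) L).comp (algebraMap C[X] (RatFunc C))).toAlgebra
    haveI : IsScalarTower C[X] (RatFunc C) L := IsScalarTower.of_algebraMap_eq fun _ => rfl
    have hmap : ∀ f : C[X], algebraMap C[X] L f = aeval t f := by
      intro f
      show (ratHom t htr) (algebraMap C[X] (RatFunc C) f) = _
      unfold ratHom
      have h1 := RatFunc.liftAlgHom_apply_div (Polynomial.aeval t)
        (nonZeroDivisors_le_comap_nonZeroDivisors_of_injective _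
          (transcendental_iff_injective.mp htr)) f 1
      simp only [map_one, div_one] at h1
      exact h1
    have hli : LinearIndependent C[X] g := by
      rw [Fintype.linearIndependent_iff]
      intro Φ hΦ
      apply hind Φ
      rw [← hΦ]
      refine Finset.sum_congr rfl fun i _ => ?_
      rw [Algebra.smul_def, hmap]
    have hli2 : LinearIndependent (RatFunc C) g :=
      (LinearIndependent.iff_fractionRing C[X] (RatFunc C)).mp hli
    exact hli2.fintype_card_le_finrank
  have h1 : poles (k := k) (ρ u) = zeros (ρ t) := by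
    rw [← poles_inv hρt0, hρt, inv_inv]
  have h2 : degD (poles (k := C) u) = degD (poles (k := C) t) := by
    rw [ht, poles_inv hu0]; exact (degD_zeros_eq_poles hu0).symm
  rw [h1, ← hcard, h2, hdeg]
  exact_mod_cast hle

end deg

end Crest.Agent.R013.GR6_921
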