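import Mathlib
import Crest.Agent.R013.GR6_921

/-!
# R013 / GR7: the genus inequality and the specialisation of divisors for one norm (helper921)

`w` a norm of a function field `L / C` with orthonormal bases (`Orth vC w`), residue field `κ / k` a
function field in one variable.
* `gen_le` : `gen κ ≤ gen L`;
* `exists_sp` : if `gen κ = gen L` there is `sp : Pl C L → Pl k κ` with
  `div (ρ u) = sp_* (div u)` for all `u` of norm one.
-/

set_option autoImplicit false
set_option linter.all false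

namespace Crest.Agent.R013.GR7_921

open Polynomial WithZero Module
open scoped NNReal
open Crest.Agent.R013.RR7_948 Crest.Agent.R013.RR8_948 Crest.Agent.R013.RR9_948
open Crest.Agent.R013.RR11_948 Crest.Agent.R013.RR12_948
open Crest.Agent.R013.RR18_948 Crest.Agent.R013.RR19_948 Crest.Agent.R013.RR20_948
open Crest.Agent.R013.GR2_921 Crest.Agent.R013.GR4_921
open Crest.Agent.R013.GR5_921 Crest.Agent.R013.GR6_921

section sup

variable {k : Type*} [Field k] [IsAlgClosed k] {κ : Type*} [Field κ] [Algebra k κ]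
  [Algebra (RatFunc k) κ] [IsScalarTower k (RatFunc k) κ] [FiniteDimensional (RatFunc k) κ]
  [Algebra.IsSeparable (RatFunc k) κ]

/-- `D` is the smallest divisor with `F ≤ L(D)` -/
def IsSup (F : Submodule k κ) (D : Pl k κ →₀ ℤ) : Prop :=
  F ≤ LD D ∧ ∀ b, ∃ z ∈ F, b.v z = exp (D b)

theorem IsSup.le {F F' : Submodule k κ} {D D' : Pl k κ →₀ ℤ} (h : IsSup F D) (h' : IsSup F' D')
    (hle : F ≤ F') : D ≤ D' := by
  intro b
  obtain ⟨z, hz, hzb⟩ := h.2 b
  have h1 := h'.1 (hle hz)
  rw [mem_LD] at h1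
  have h2 := h1 b
  rw [hzb, exp_le_exp] at h2
  exact h2

theorem IsSup.unique {F : Submodule k κ} {D D' : Pl k κ →₀ ℤ} (h : IsSup F D) (h' : IsSup F D') :
    D = D' := le_antisymm (h.le h' le_rfl) (h'.le h le_rfl)

theorem exists_isSup {F : Submodule k κ} (hfin : FiniteDimensional k F) (hF : F ≠ ⊥) :
    ∃ D, IsSup F D := by
  classical
  let B := Module.finBasis k F
  have hpos : 0 < finrank k F := by
    rw [Module.finrank_pos_iff]
    exact (Submodule.nontrivial_iff_ne_bot).mpr hF
  have hne : (Finset.univ : Finset (Fin (finrank k F))).Nonempty := ⟨⟨0, hpos⟩, Finset.mem_univ _⟩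
  have hB0 : ∀ i, ((B i : F) : κ) ≠ 0 := by
    intro i h0
    exact B.ne_zero i (Subtype.ext h0)
  let D : Pl k κ →₀ ℤ := Finsupp.onFinset
    (Finset.univ.biUnion fun i => (divf (k := k) ((B i : F) : κ)).support)
    (fun b => Finset.univ.sup' hne fun i => -divf (k := k) ((B i : F) : κ) b) (by
      intro b hb
      by_contra hcon
      rw [Finset.mem_biUnion] at hcon
      push Not at hcon
      apply hb
      have h1 : ∀ i, divf (k := k) ((B i : F) : κ) b = 0 := fun i =>
        Finsupp.notMem_support_iff.mp (hcon i (Finset.mem_univ i))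
      obtain ⟨i, _, hi⟩ := Finset.exists_mem_eq_sup' hne
        (fun i => -divf (k := k) ((B i : F) : κ) b)
      rw [hi, h1, neg_zero])
  have hD : ∀ b, D b = Finset.univ.sup' hne fun i => -divf (k := k) ((B i : F) : κ) b :=
    fun b => rfl
  refine ⟨D, ?_, ?_⟩
  · intro z hz
    rw [mem_LD]
    intro b
    have h1 : z = ∑ i, B.repr ⟨z, hz⟩ i • ((B i : F) : κ) := by
      have h2 := congrArg (Subtype.val) (B.sum_repr ⟨z, hz⟩)
      have h3 : z = ((∑ i, B.repr ⟨z, hz⟩ i • B i : F) : κ) := h2.symm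
      rw [Submodule.coe_sum] at h3
      exact h3
    rw [h1]
    refine Valuation.map_sum_le _ fun i _ => ?_
    rw [Algebra.smul_def, map_mul]
    have h2 : b.v (algebraMap k κ (B.repr ⟨z, hz⟩ i)) ≤ 1 := by
      by_cases hc : B.repr ⟨z, hz⟩ i = 0
      · simp [hc]
      · rw [b.const _ hc]
    have h3 : b.v ((B i : F) : κ) ≤ exp (D b) := by
      rw [v_eq (hB0 i), exp_le_exp, hD]
      exact Finset.le_sup' (fun i => -divf (k := k) ((B i : F) : κ) b) (Finset.mem_univ i)
    calc _ ≤ 1 * exp (D b) := mul_le_mul' h2 h3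
      _ = _ := one_mul _
  · intro b
    obtain ⟨i, _, hi⟩ := Finset.exists_mem_eq_sup' hne
      (fun i => -divf (k := k) ((B i : F) : κ) b)
    refine ⟨(B i : F), (B i).2, ?_⟩
    rw [v_eq (hB0 i), hD, hi]

/-- a generic element has the full pole divisor -/
theorem IsSup.exists_generic {F : Submodule k κ} {D : Pl k κ →₀ ℤ} (h : IsSup F D) (hD : 0 ≤ D) :
    ∃ z ∈ F, z ≠ 0 ∧ poles (k := k) z = D := by
  classical
  haveI : Infinite k := IsAlgClosed.instInfinite
  obtain ⟨P0, _⟩ := exists_notMem (k := k) (K := κ) ∅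
  -- proper subspaces
  let G : Pl k κ → Submodule k F := fun b => (ball b (D b - 1)).comap F.subtype
  let s : Finset (Subspace k F) := (insert P0 D.support).image G
  have hs : ⊤ ∉ s := by
    intro ht
    rw [Finset.mem_image] at ht
    obtain ⟨b, _, hb⟩ := ht
    obtain ⟨z, hz, hzb⟩ := h.2 b
    have h1 : (⟨z, hz⟩ : F) ∈ G b := by rw [hb]; trivial
    have h2 : b.v z ≤ exp (D b - 1) := h1
    rw [hzb, exp_le_exp] at h2
    omega
  have hne := Subspace.biUnion_ne_univ_of_top_notMem hs
  obtain ⟨⟨z, hz⟩, hz'⟩ := (Set.ne_univ_iff_exists_notMem _).mp hne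
  have hgood : ∀ b ∈ insert P0 D.support, ¬ b.v z ≤ exp (D b - 1) := by
    intro b hb hcon
    apply hz'
    rw [Set.mem_iUnion₂]
    exact ⟨G b, Finset.mem_image_of_mem G hb, hcon⟩
  have hz0 : z ≠ 0 := by
    rintro rfl
    exact hgood P0 (Finset.mem_insert_self _ _) (by rw [map_zero]; exact zero_le)
  have hzD := h.1 hz
  rw [mem_LD] at hzD
  refine ⟨z, hz, hz0, ?_⟩
  ext b
  rw [poles_apply]
  have h1 := hzD b
  rw [v_eq hz0, exp_le_exp] at h1
  have h2 : 0 ≤ D b := hD b
  by_cases hb : b ∈ D.support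
  · have h3 := hgood b (Finset.mem_insert_of_mem hb)
    rw [v_eq hz0, exp_le_exp] at h3
    have h4 : -divf (k := k) z b = D b := by omega
    rw [h4, max_eq_left h2]
  · rw [Finsupp.notMem_support_iff] at hb
    rw [hb] at h1 ⊢
    exact max_eq_right h1

end sup

section degree

variable {k : Type*} [Field k] [IsAlgClosed k] {κ : Type*} [Field κ] [Algebra k κ]
  [Algebra (RatFunc k) κ] [IsScalarTower k (RatFunc k) κ] [FiniteDimensional (RatFunc k) κ]
  [Algebra.IsSeparable (RatFunc k) κ]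

theorem degD_mono {D E : Pl k κ →₀ ℤ} (h : D ≤ E) : degD D ≤ degD E := by
  have h1 : 0 ≤ degD (E - D) := by
    rw [degD_eq_sum]
    unfold Finsupp.sum
    exact Finset.sum_nonneg fun b _ => by
      show (0 : ℤ) ≤ (E - D) b
      rw [Finsupp.sub_apply]; have := h b; omega
  rw [degD_sub] at h1
  omega

theorem eq_of_le_of_degD {D E : Pl k κ →₀ ℤ} (h : D ≤ E) (hd : degD E ≤ degD D) : D = E := by
  classical
  by_contra hne
  have hex : ∃ b, D b ≠ E b := by
    by_contra hcon
    push Not at hcon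
    exact hne (Finsupp.ext hcon)
  obtain ⟨b, hb⟩ := hex
  have h1 : D + Finsupp.single b 1 ≤ E := by
    intro c
    rw [Finsupp.add_apply, Finsupp.single_apply]
    have h2 := h c
    split_ifs with h3
    · subst h3
      have h4 : D b ≤ E b := h2
      omega
    · rw [add_zero]; exact h2
  have h2 := degD_mono h1
  rw [degD_add, degD_single, degP_eq_one] at h2
  push_cast at h2
  omega

/-- an effective divisor of degree one is a place -/
theorem eq_single_of_degD_one {D : Pl k κ →₀ ℤ} (h : 0 ≤ D) (hd : degD D = 1) :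
    ∃ b, D = Finsupp.single b 1 := by
  classical
  have hne : D ≠ 0 := by rintro rfl; rw [degD_zero] at hd; exact zero_ne_one hd
  obtain ⟨b, hb⟩ := Finsupp.ne_iff.mp hne
  rw [Finsupp.zero_apply] at hb
  refine ⟨b, ?_⟩
  symm
  apply eq_of_le_of_degD
  · intro c
    rw [Finsupp.single_apply]
    have h1 : 0 ≤ D c := h c
    split_ifs with h2
    · subst h2; omega
    · exact h1
  · rw [degD_single, degP_eq_one, hd]; norm_num

/-- increase the degree to a prescribed value -/
theorem exists_ge_degD (D : Pl k κ →₀ ℤ) {d : ℤ} (hd : degD D ≤ d) (b : Pl k κ) :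
    D ≤ D + Finsupp.single b (d - degD D) ∧ degD (D + Finsupp.single b (d - degD D)) = d := by
  classical
  constructor
  · intro c
    rw [Finsupp.add_apply, Finsupp.single_apply]
    split_ifs <;> omega
  · rw [degD_add, degD_single, degP_eq_one]
    push_cast; ring

end degree

section main

variable {C : Type*} [Field C] [IsAlgClosed C] [CharZero C] {L : Type*} [Field L] [Algebra C L]
  [Algebra (RatFunc C) L] [IsScalarTower C (RatFunc C) L] [FiniteDimensional (RatFunc C) L]
  {k κ : Type*} [Field k] [IsAlgClosed k] [Field κ] [Algebra k κ]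
  [Algebra (RatFunc k) κ] [IsScalarTower k (RatFunc k) κ] [FiniteDimensional (RatFunc k) κ]
  [Algebra.IsSeparable (RatFunc k) κ]
  {vC : Valuation C ℝ≥0} {ρC : C → k} {w : Valuation L ℝ≥0} {ρ : L → κ}

theorem finrank_red_LD (h : Red vC ρC w ρ) (hO : Orth vC w) (D : Pl C L →₀ ℤ) :
    FiniteDimensional k (red h (LD D)) ∧ finrank k (red h (LD D)) = ell D := by
  have hfin := LD_finite D
  exact finrank_red h (hO (LD D) hfin)

theorem one_mem_red (h : Red vC ρC w ρ) {D : Pl C L →₀ ℤ} (hD : 0 ≤ D) :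
    (1 : κ) ∈ red h (LD D) := by
  have h1 : (1 : L) ∈ LD D := by
    rw [mem_LD]
    intro P
    rw [map_one, ← exp_zero, exp_le_exp]
    exact hD P
  have h2 := mem_red_of (h := h) h1 (by rw [map_one])
  rwa [h.res.one] at h2

/-- Lemma A: the supremum `D̄` of the reduction of `L(D)`, `D` effective -/
theorem exists_bar (h : Red vC ρC w ρ) (hO : Orth vC w) {D : Pl C L →₀ ℤ} (hD : 0 ≤ D) :
    ∃ E : Pl k κ →₀ ℤ, IsSup (red h (LD D)) E ∧ 0 ≤ E ∧ degD E ≤ degD D := by
  have hfin := (finrank_red_LD h hO D).1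
  have h1 := one_mem_red h hD
  have hne : red h (LD D) ≠ ⊥ := by
    intro h0
    rw [h0, Submodule.mem_bot] at h1
    exact one_ne_zero h1
  obtain ⟨E, hE⟩ := exists_isSup hfin hne
  have hE0 : 0 ≤ E := by
    intro b
    have h2 := hE.1 h1
    rw [mem_LD] at h2
    have h3 := h2 b
    rw [map_one, ← exp_zero, exp_le_exp] at h3
    exact h3
  refine ⟨E, hE, hE0, ?_⟩
  obtain ⟨z, ⟨u, hu, hu1, rfl⟩, hz0, hz⟩ := hE.exists_generic hE0
  have hD' : 0 ≤ degD D := by
    have := degD_mono (k := C) (κ := L) hD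
    rwa [degD_zero] at this
  by_cases hc : ρ u ∈ Set.range (algebraMap k κ)
  · obtain ⟨c, hc⟩ := hc
    have hc0 : c ≠ 0 := by
      rintro rfl
      rw [map_zero] at hc
      exact hz0 hc.symm
    have h2 : poles (k := k) (ρ u) = 0 := by
      ext b
      rw [poles_apply, Finsupp.zero_apply]
      have h3 := b.const c hc0
      rw [hc, v_eq hz0, ← exp_zero, exp_inj] at h3
      rw [h3]; simp
    rw [← hz, h2, degD_zero]
    exact hD'
  · have hwu : w u = 1 := (h.res.ne_zero_iff hu1).mp hz0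
    have h2 := degD_poles_le h hwu hc
    rw [hz] at h2
    refine h2.trans (degD_mono (k := C) (κ := L) ?_)
    have hu0 : u ≠ 0 := by rintro rfl; simp at hwu
    rw [mem_LD_iff hu0] at hu
    intro P
    rw [poles_apply]
    have h3 : 0 ≤ D P + divf (k := C) u P := hu P
    have h4 : 0 ≤ D P := hD P
    exact max_le (by linarith) h4

/-- the dimension estimate -/
theorem ell_le (h : Red vC ρC w ρ) (hO : Orth vC w) {D : Pl C L →₀ ℤ} {E : Pl k κ →₀ ℤ}
    (hE : IsSup (red h (LD D)) E) : ell D ≤ ell E := by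
  have h1 := finrank_red_LD h hO D
  haveI := h1.1
  haveI := LD_finite E
  rw [← h1.2]
  exact Submodule.finrank_mono hE.1

/-- **genus inequality** -/
theorem gen_le (h : Red vC ρC w ρ) (hO : Orth vC w) : gen k κ ≤ gen C L := by
  obtain ⟨P0, _⟩ := exists_notMem (k := C) (K := L) ∅
  obtain ⟨b0, _⟩ := exists_notMem (k := k) (K := κ) ∅
  let d : ℤ := 2 * gen C L + 2 * gen k κ
  let D : Pl C L →₀ ℤ := Finsupp.single P0 d
  have hd : degD D = d := by
    show degD (Finsupp.single P0 d) = d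
    rw [degD_single, degP_eq_one]; simp
  have hd0 : 0 ≤ d := by positivity
  have hD : 0 ≤ D := by
    classical
    intro P
    show (0 : ℤ) ≤ Finsupp.single P0 d P
    rw [Finsupp.single_apply]
    split_ifs
    · exact hd0
    · exact le_refl _
  obtain ⟨E, hE1, hE2, hE3⟩ := exists_bar h hO hD
  have h1 := ell_le h hO hE1
  rw [hd] at hE3
  obtain ⟨h2, h3⟩ := exists_ge_degD E hE3 b0
  have h4 := h1.trans (ell_mono h2)
  have h5 := ell_eq_of_lt (k := k) (K := κ) hc_of_isAlgClosed
    (D := E + Finsupp.single b0 (d - degD E)) (by rw [h3]; show _ < 2 * (gen C L : ℤ) + 2 * gen k κ; linarith)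
  have h6 := ell_ge (k := C) (K := L) hc_of_isAlgClosed D
  have h7 : (ell D : ℤ) ≤ ell (E + Finsupp.single b0 (d - degD E)) := by exact_mod_cast h4
  rw [h5, h3] at h7
  rw [hd] at h6
  have h8 : (gen k κ : ℤ) ≤ gen C L := by linarith
  exact_mod_cast h8

/-- equality case: the reduction of `L(D)` is `L(D̄)`, `deg D̄ = deg D` -/
theorem bar_eq (h : Red vC ρC w ρ) (hO : Orth vC w) (hg : gen k κ = gen C L)
    {D : Pl C L →₀ ℤ} (hdeg : 2 * (gen C L : ℤ) ≤ degD D) {E : Pl k κ →₀ ℤ}
    (hE : IsSup (red h (LD D)) E) (hE3 : degD E ≤ degD D) : degD E = degD D := by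
  obtain ⟨b0, _⟩ := exists_notMem (k := k) (K := κ) ∅
  by_contra hne
  have hlt : degD E ≤ degD D - 1 := by omega
  have h1 := ell_le h hO hE
  obtain ⟨h2, h3⟩ := exists_ge_degD E hlt b0
  have h4 := h1.trans (ell_mono h2)
  have h5 := ell_eq_of_lt (k := k) (K := κ) hc_of_isAlgClosed
    (D := E + Finsupp.single b0 (degD D - 1 - degD E)) (by rw [h3, hg]; linarith)
  have h6 := ell_ge (k := C) (K := L) hc_of_isAlgClosed D
  have h7 : (ell D : ℤ) ≤ ell (E + Finsupp.single b0 (degD D - 1 - degD E)) := by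
    exact_mod_cast h4
  rw [h5, h3, hg] at h7
  linarith

/-- products -/
theorem add_le_bar (h : Red vC ρC w ρ) {D D' : Pl C L →₀ ℤ} {A B E : Pl k κ →₀ ℤ}
    (hA : IsSup (red h (LD D)) A) (hB : IsSup (red h (LD D')) B)
    (hE : IsSup (red h (LD (D + D'))) E) : A + B ≤ E := by
  intro b
  obtain ⟨z, ⟨x, hx, hx1, rfl⟩, hzb⟩ := hA.2 b
  obtain ⟨z', ⟨x', hx', hx1', rfl⟩, hzb'⟩ := hB.2 b
  have h1 : x * x' ∈ LD (D + D') := by
    rw [mem_LD] at hx hx' ⊢
    intro P
    rw [map_mul, Finsupp.add_apply, exp_add]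
    exact mul_le_mul' (hx P) (hx' P)
  have h2 := hE.1 (mem_red_of h1 (by rw [map_mul]; exact mul_le_one' hx1 hx1'))
  rw [mem_LD] at h2
  have h3 := h2 b
  rw [h.res.mul _ _ hx1 hx1', map_mul, hzb, hzb', ← exp_add, exp_le_exp] at h3
  exact h3

/-- **the specialisation map** of a norm with good reduction -/
theorem exists_sp (h : Red vC ρC w ρ) (hO : Orth vC w) (hg : gen k κ = gen C L) :
    ∃ sp : Pl C L → Pl k κ, SpP w ρ sp := by
  classical
  obtain ⟨P0, _⟩ := exists_notMem (k := C) (K := L) ∅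
  have hex : ∀ D : Pl C L →₀ ℤ, ∃ E : Pl k κ →₀ ℤ, 0 ≤ D →
      IsSup (red h (LD D)) E ∧ 0 ≤ E ∧ degD E ≤ degD D := by
    intro D
    by_cases hD : 0 ≤ D
    · obtain ⟨E, hE⟩ := exists_bar h hO hD
      exact ⟨E, fun _ => hE⟩
    · exact ⟨0, fun h' => absurd h' hD⟩
  choose bar hbar using hex
  have hdeg : ∀ D, 0 ≤ D → 2 * (gen C L : ℤ) ≤ degD D → degD (bar D) = degD D := fun D hD hd =>
    bar_eq h hO hg hd (hbar D hD).1 (hbar D hD).2.2
  have hmono : ∀ D D', 0 ≤ D → D ≤ D' → bar D ≤ bar D' := by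
    intro D D' hD hle
    refine (hbar D hD).1.le (hbar D' (hD.trans hle)).1 ?_
    rintro _ ⟨x, hx, hx1, rfl⟩
    exact mem_red_of (LD_mono hle hx) hx1
  have hadd : ∀ D D', 0 ≤ D → 0 ≤ D' → 2 * (gen C L : ℤ) ≤ degD D → 2 * (gen C L : ℤ) ≤ degD D' →
      bar (D + D') = bar D + bar D' := by
    intro D D' hD hD' hd hd'
    have h0 : 0 ≤ D + D' := add_nonneg hD hD'
    symm
    apply eq_of_le_of_degD
      (add_le_bar h (hbar D hD).1 (hbar D' hD').1 (hbar _ h0).1)
    have hgnn : (0 : ℤ) ≤ gen C L := by positivity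
    rw [degD_add, hdeg D hD hd, hdeg D' hD' hd', hdeg _ h0 (by rw [degD_add]; linarith), degD_add]
  -- the base divisor
  set D0 : Pl C L →₀ ℤ := Finsupp.single P0 (2 * (gen C L : ℤ)) with hD0
  have hD0deg : degD D0 = 2 * gen C L := by rw [hD0, degD_single, degP_eq_one]; simp
  have hD0nn : 0 ≤ D0 := by
    intro P
    rw [hD0, Finsupp.single_apply]
    split_ifs
    · show (0 : ℤ) ≤ 2 * gen C L
      positivity
    · exact le_refl _
  have hsingle : ∀ P : Pl C L, (0 : Pl C L →₀ ℤ) ≤ Finsupp.single P 1 := by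
    intro P Q
    rw [Finsupp.single_apply]
    split_ifs
    · show (0 : ℤ) ≤ 1; norm_num
    · exact le_refl _
  have hdegnn : ∀ D : Pl C L →₀ ℤ, 0 ≤ D → 0 ≤ degD D := by
    intro D hD
    have := degD_mono (k := C) (κ := L) hD
    rwa [degD_zero] at this
  have hdeg' : ∀ D, 0 ≤ D → degD (bar (D0 + D)) = 2 * gen C L + degD D := by
    intro D hD
    rw [hdeg _ (add_nonneg hD0nn hD) (by rw [degD_add, hD0deg]; have := hdegnn D hD; linarith),
      degD_add, hD0deg]
  -- the places
  have hpl : ∀ P : Pl C L, ∃ b : Pl k κ, bar (D0 + Finsupp.single P 1) - bar D0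
      = Finsupp.single b 1 := by
    intro P
    apply eq_single_of_degD_one
    · rw [sub_nonneg]
      exact hmono _ _ hD0nn (le_add_of_nonneg_right (hsingle P))
    · rw [degD_sub, hdeg' _ (hsingle P), hdeg D0 hD0nn (by rw [hD0deg]), hD0deg, degD_single,
        degP_eq_one]
      push_cast; ring
  choose sp hsp using hpl
  refine ⟨sp, ?_⟩
  -- additivity
  have hT : ∀ (n : ℕ) (D : Pl C L →₀ ℤ), 0 ≤ D → degD D = n →
      bar (D0 + D) = bar D0 + D.mapDomain sp := by
    intro n
    induction n with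
    | zero =>
      intro D hD hdD
      have h1 : (0 : Pl C L →₀ ℤ) = D := eq_of_le_of_degD hD (by rw [hdD, degD_zero]; simp)
      rw [← h1, add_zero, Finsupp.mapDomain_zero, add_zero]
    | succ n ih =>
      intro D hD hdD
      have hne : D ≠ 0 := by
        rintro rfl
        rw [degD_zero] at hdD
        push_cast at hdD
        omega
      obtain ⟨P, hP⟩ := Finsupp.ne_iff.mp hne
      rw [Finsupp.zero_apply] at hP
      have hPpos : 1 ≤ D P := by
        have h1 : 0 ≤ D P := hD P
        omega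
      set D' := D - Finsupp.single P 1 with hD'
      have hD'nn : 0 ≤ D' := by
        intro Q
        rw [hD', Finsupp.sub_apply, Finsupp.single_apply]
        have h1 : 0 ≤ D Q := hD Q
        split_ifs with h2
        · subst h2
          show (0 : ℤ) ≤ D P - 1
          omega
        · show (0 : ℤ) ≤ D Q - 0
          omega
      have hD'deg : degD D' = n := by
        rw [hD', degD_sub, hdD, degD_single, degP_eq_one]
        push_cast; ring
      have hDD' : D = D' + Finsupp.single P 1 := by rw [hD']; abel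
      have hih := ih D' hD'nn hD'deg
      have hdeg0 : 2 * (gen C L : ℤ) ≤ degD D0 := by rw [hD0deg]
      have hdegA : ∀ X : Pl C L →₀ ℤ, 0 ≤ X → 2 * (gen C L : ℤ) ≤ degD (D0 + X) := by
        intro X hX
        rw [degD_add, hD0deg]
        have := hdegnn X hX
        linarith
      have e1 := hadd (D0 + D) D0 (add_nonneg hD0nn hD) hD0nn (hdegA D hD) hdeg0
      have e2 := hadd (D0 + D') (D0 + Finsupp.single P 1) (add_nonneg hD0nn hD'nn)
        (add_nonneg hD0nn (hsingle P)) (hdegA D' hD'nn) (hdegA _ (hsingle P))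
      have e3 : D0 + D + D0 = (D0 + D') + (D0 + Finsupp.single P 1) := by rw [hDD']; abel
      rw [e3, e2, hih] at e1
      have e4 : bar (D0 + Finsupp.single P 1) = bar D0 + Finsupp.single (sp P) 1 := by
        rw [← hsp P]; abel
      rw [e4] at e1
      have e5 : D.mapDomain sp = D'.mapDomain sp + Finsupp.single (sp P) 1 := by
        rw [hDD', Finsupp.mapDomain_add, Finsupp.mapDomain_single]
      rw [e5]
      have e6 : bar (D0 + D) + bar D0
          = bar D0 + (D'.mapDomain sp + Finsupp.single (sp P) 1) + bar D0 := by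
        rw [← e1]; abel
      exact add_right_cancel e6
  have hT' : ∀ D : Pl C L →₀ ℤ, 0 ≤ D → bar (D0 + D) = bar D0 + D.mapDomain sp := by
    intro D hD
    obtain ⟨n, hn⟩ := Int.eq_ofNat_of_zero_le (hdegnn D hD)
    exact hT n D hD hn
  -- functions
  intro u hu
  have hu0 : u ≠ 0 := by rintro rfl; simp at hu
  have hρu0 : ρ u ≠ 0 := by rw [h.res.ne_zero_iff hu.le]; exact hu
  set Z := zeros (k := C) u with hZ
  set N := poles (k := C) u with hN
  have hZnn : 0 ≤ Z := fun P => by
    rw [hZ, zeros_apply]; exact le_max_right _ _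
  have hNnn : 0 ≤ N := fun P => by
    rw [hN, poles_apply]; exact le_max_right _ _
  have hdiv : divf (k := C) u = Z - N := divf_eq_zeros_sub_poles u
  have hmem : ∀ f : L, f ∈ LD (D0 + Z) ↔ u * f ∈ LD (D0 + N) := by
    intro f
    by_cases hf : f = 0
    · rw [hf, mul_zero]; simp
    · rw [mem_LD_iff hf, mem_LD_iff (mul_ne_zero hu0 hf), divf_mul hu0 hf, hdiv]
      have : D0 + N + (Z - N + divf (k := C) f) = D0 + Z + divf f := by abel
      rw [this]
  have hZ1 := (hbar (D0 + Z) (add_nonneg hD0nn hZnn)).1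
  have hN1 := (hbar (D0 + N) (add_nonneg hD0nn hNnn)).1
  have hsup : IsSup (red h (LD (D0 + N))) (bar (D0 + Z) - divf (k := k) (ρ u)) := by
    constructor
    · rintro _ ⟨x, hx, hx1, rfl⟩
      have h1 : x * u⁻¹ ∈ LD (D0 + Z) := by
        rw [hmem, mul_comm x, mul_inv_cancel_left₀ hu0]; exact hx
      have h2 := hZ1.1 (mem_red_of h1 (by rw [map_mul, map_inv₀, hu, inv_one, mul_one]; exact hx1))
      rw [mem_LD] at h2 ⊢
      intro b
      have h3 := h2 b
      rw [h.res.mul _ _ hx1 (by rw [map_inv₀, hu, inv_one]), h.res.inv hu, map_mul, map_inv₀,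
        v_eq hρu0, ← exp_neg, neg_neg] at h3
      rw [Finsupp.sub_apply, sub_eq_add_neg, exp_add]
      have h4 : b.v (ρ x) = b.v (ρ x) * exp (divf (k := k) (ρ u) b) * exp (-divf (k := k) (ρ u) b) := by
        rw [mul_assoc, ← exp_add]; simp
      rw [h4]
      exact mul_le_mul_left h3 _
    · intro b
      obtain ⟨_, ⟨x, hx, hx1, rfl⟩, hzb⟩ := hZ1.2 b
      refine ⟨ρ (u * x), mem_red_of ((hmem x).mp hx) (by rw [map_mul, hu, one_mul]; exact hx1), ?_⟩
      rw [h.res.mul _ _ hu.le hx1, map_mul, hzb, v_eq hρu0, ← exp_add, Finsupp.sub_apply]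
      congr 1
      ring
  have h1 := hN1.unique hsup
  rw [hT' N hNnn, hT' Z hZnn] at h1
  have hdiv2 : (divf (k := C) u).mapDomain sp = Z.mapDomain sp - N.mapDomain sp := by
    rw [hdiv]
    exact map_sub (Finsupp.mapDomain.addMonoidHom sp) Z N
  rw [hdiv2]
  have h2 : divf (k := k) (ρ u) = (bar D0 + Z.mapDomain sp) - (bar D0 + N.mapDomain sp) := by
    rw [h1]; abel
  rw [h2]; abel

end main

end Crest.Agent.R013.GR7_921
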