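import Crest.Agent.R013.RZ_365

/-!
# Valuation subrings whose value group is torsion over a rank one value group are real valued;
# composites of Gauss norms (row 13, LIFT-3; helper365)
-/

set_option autoImplicit false

open scoped NNReal Polynomial
open Polynomial (aeval)

namespace Crest.Agent.R013.RZ_365

section Real

variable {F K : Type*} [Field F] [Field K] [Algebra F K]

/-- Two terms of an algebraic relation have the same value. -/
theorem exists_two_terms {Γ : Type*} [LinearOrderedCommGroupWithZero Γ] (w : Valuation K Γ)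
    {a : K} (ha : a ≠ 0) {P : F[X]} (hP : P ≠ 0) (hPa : aeval a P = 0) :
    ∃ i j, i < j ∧ P.coeff i ≠ 0 ∧ P.coeff j ≠ 0 ∧
      w (algebraMap F K (P.coeff i) * a ^ i) = w (algebraMap F K (P.coeff j) * a ^ j) := by
  classical
  set t : ℕ → K := fun i => algebraMap F K (P.coeff i) * a ^ i with ht
  have hne : P.support.Nonempty := Polynomial.support_nonempty.2 hP
  obtain ⟨m, hm, hmax⟩ := Finset.exists_max_image P.support (fun i => w (t i)) hne
  have hpos : ∀ i ∈ P.support, w (t i) ≠ 0 := by
    intro i hi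
    rw [Valuation.ne_zero_iff]
    exact mul_ne_zero ((map_ne_zero _).2 (Polynomial.mem_support_iff.1 hi)) (pow_ne_zero _ ha)
  have hex : ∃ j ∈ P.support, j ≠ m ∧ w (t j) = w (t m) := by
    by_contra hcon
    push Not at hcon
    have h1 : w (∑ i ∈ P.support.erase m, t i) < w (t m) := by
      refine Valuation.map_sum_lt _ (hpos m hm) fun i hi => ?_
      rw [Finset.mem_erase] at hi
      exact lt_of_le_of_ne (hmax i hi.2) (hcon i hi.2 hi.1)
    have h2 : aeval a P = t m + ∑ i ∈ P.support.erase m, t i := by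
      rw [Finset.add_sum_erase _ _ hm, Polynomial.aeval_eq_sum_range,
        ← Polynomial.sum_over_range (f := fun i c => c • a ^ i) P (fun n => by simp)]
      simp [Polynomial.sum_def, ht, Algebra.smul_def]
    have h3 : w (aeval a P) = w (t m) := by
      rw [h2]
      exact Valuation.map_add_eq_of_lt_left w h1
    rw [hPa, map_zero] at h3
    exact hpos m hm h3.symm
  obtain ⟨j, hj, hjm, hjw⟩ := hex
  rcases lt_or_gt_of_ne hjm with h | h
  · exact ⟨j, m, h, Polynomial.mem_support_iff.1 hj, Polynomial.mem_support_iff.1 hm, hjw⟩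
  · exact ⟨m, j, h, Polynomial.mem_support_iff.1 hm, Polynomial.mem_support_iff.1 hj, hjw.symm⟩

/-- The value group of an algebraic extension is torsion over the value group of the base. -/
theorem exists_pow_val {Γ : Type*} [LinearOrderedCommGroupWithZero Γ] (w : Valuation K Γ)
    {a : K} (ha : a ≠ 0) (halg : IsAlgebraic F a) :
    ∃ n : ℕ, 0 < n ∧ ∃ b : F, b ≠ 0 ∧ w (a ^ n) = w (algebraMap F K b) := by
  obtain ⟨P, hP, hPa⟩ := halg
  obtain ⟨i, j, hij, hi, hj, h⟩ := exists_two_terms w ha hP hPa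
  refine ⟨j - i, Nat.sub_pos_of_lt hij, P.coeff i / P.coeff j, div_ne_zero hi hj, ?_⟩
  have hj' : w (algebraMap F K (P.coeff j)) ≠ 0 := (w.ne_zero_iff).2 ((map_ne_zero _).2 hj)
  have hai : w (a ^ i) ≠ 0 := (w.ne_zero_iff).2 (pow_ne_zero _ ha)
  rw [map_div₀, map_div₀, eq_div_iff hj']
  have h1 : a ^ j = a ^ (j - i) * a ^ i := by rw [← pow_add, Nat.sub_add_cancel hij.le]
  rw [h1, map_mul, map_mul, map_mul] at h
  have h2 : w (algebraMap F K (P.coeff i)) * w (a ^ i) =
      (w (a ^ (j - i)) * w (algebraMap F K (P.coeff j))) * w (a ^ i) := by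
    rw [h, ← mul_assoc]
    congr 1
    exact mul_comm _ _
  exact (mul_right_cancel₀ hai h2).symm

variable (η : Valuation F ℝ≥0) (O : ValuationSubring K)

/-- **NORM.** A valuation subring whose value group is torsion over that of a real valued valuation
of a subfield is the ring of a real valued valuation. -/
theorem exists_real_of_torsion (hO : ∀ a : F, algebraMap F K a ∈ O ↔ η a ≤ 1)
    (htors : ∀ a : K, a ≠ 0 → ∃ n : ℕ, 0 < n ∧ ∃ c : F, c ≠ 0 ∧
      O.valuation (a ^ n) = O.valuation (algebraMap F K c)) :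
    ∃ v : Valuation K ℝ≥0, (∀ a : F, v (algebraMap F K a) = η a) ∧ ∀ x, v x ≤ 1 ↔ x ∈ O := by
  classical
  choose! n hn c hc hnc using htors
  -- comparison of values in `F`
  have hle : ∀ a b : F, b ≠ 0 → (O.valuation (algebraMap F K a) ≤ O.valuation (algebraMap F K b) ↔
      η a ≤ η b) := by
    intro a b hb
    have h1 := hO (a / b)
    rw [← ValuationSubring.valuation_le_one_iff, map_div₀, map_div₀, map_div₀,
      div_le_one₀, div_le_one₀] at h1
    · exact h1
    · exact zero_lt_iff.2 ((η.ne_zero_iff).2 hb)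
    · exact zero_lt_iff.2 ((Valuation.ne_zero_iff _).2 ((map_ne_zero _).2 hb))
  have heq : ∀ a b : F, a ≠ 0 → b ≠ 0 →
      (O.valuation (algebraMap F K a) = O.valuation (algebraMap F K b) ↔ η a = η b) := by
    intro a b ha hb
    rw [le_antisymm_iff, le_antisymm_iff, hle a b hb, hle b a ha]
  -- the real number attached to `a`
  let f : K → ℝ≥0 := fun a => if a = 0 then 0 else (η (c a)) ^ ((n a : ℝ)⁻¹)
  have f0 : f 0 = 0 := if_pos rfl
  -- independence of the choices
  have huniq : ∀ a : K, a ≠ 0 → ∀ m : ℕ, 0 < m → ∀ b : F, b ≠ 0 →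
      O.valuation (a ^ m) = O.valuation (algebraMap F K b) → f a ^ m = η b := by
    intro a ha m hm b hb h
    have h1 : O.valuation (algebraMap F K (c a ^ m)) = O.valuation (algebraMap F K (b ^ n a)) := by
      rw [map_pow (algebraMap F K), map_pow (algebraMap F K), map_pow O.valuation _ m, ← hnc a ha,
        map_pow O.valuation (algebraMap F K b) (n a), ← h, ← map_pow, ← map_pow, ← pow_mul,
        ← pow_mul, mul_comm]
    have h2 : η (c a) ^ m = η b ^ n a := by
      have := (heq _ _ (pow_ne_zero _ (hc a ha)) (pow_ne_zero _ hb)).1 h1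
      simpa using this
    have h3 : f a ^ n a = η (c a) := by
      simp only [f, if_neg ha]
      rw [← NNReal.rpow_natCast, ← NNReal.rpow_mul, inv_mul_cancel₀, NNReal.rpow_one]
      exact_mod_cast (hn a ha).ne'
    have h4 : (f a ^ m) ^ n a = η b ^ n a := by
      rw [← h2, ← h3, ← pow_mul, ← pow_mul, mul_comm]
    exact pow_left_injective (hn a ha).ne' h4
  have hF : ∀ b : F, f (algebraMap F K b) = η b := by
    intro b
    by_cases hb : b = 0
    · rw [hb, map_zero, map_zero, f0]
    · have := huniq (algebraMap F K b) ((map_ne_zero _).2 hb) 1 one_pos b hb (by rw [pow_one])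
      rwa [pow_one] at this
  have hone : f 1 = 1 := by
    have := hF 1
    rwa [map_one, map_one] at this
  have hmul : ∀ a b : K, f (a * b) = f a * f b := by
    intro a b
    by_cases ha : a = 0
    · rw [ha, zero_mul, f0, zero_mul]
    by_cases hb : b = 0
    · rw [hb, mul_zero, f0, mul_zero]
    have h1 := huniq (a * b) (mul_ne_zero ha hb) (n a * n b) (Nat.mul_pos (hn a ha) (hn b hb))
      (c a ^ n b * c b ^ n a) (mul_ne_zero (pow_ne_zero _ (hc a ha)) (pow_ne_zero _ (hc b hb))) (by
        rw [mul_pow, map_mul, pow_mul, map_pow O.valuation (a ^ n a), hnc a ha, mul_comm (n a),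
          pow_mul, map_pow O.valuation (b ^ n b), hnc b hb, ← map_pow, ← map_pow, ← map_pow,
          ← map_pow, ← map_mul, ← map_mul])
    have h2 := huniq a ha (n a) (hn a ha) (c a) (hc a ha) (hnc a ha)
    have h3 := huniq b hb (n b) (hn b hb) (c b) (hc b hb) (hnc b hb)
    have h4 : (f a * f b) ^ (n a * n b) = η (c a ^ n b * c b ^ n a) := by
      rw [mul_pow, pow_mul, h2, mul_comm (n a), pow_mul, h3, map_mul, map_pow, map_pow]
    exact pow_left_injective (Nat.mul_pos (hn a ha) (hn b hb)).ne' (h1.trans h4.symm)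
  have hle1 : ∀ a : K, f a ≤ 1 ↔ a ∈ O := by
    intro a
    by_cases ha : a = 0
    · rw [ha, f0]; simp
    have h2 := huniq a ha (n a) (hn a ha) (c a) (hc a ha) (hnc a ha)
    have h3 : O.valuation a ≤ 1 ↔ O.valuation (a ^ n a) ≤ 1 := by
      rw [map_pow, pow_le_one_iff (hn a ha).ne']
    rw [← ValuationSubring.valuation_le_one_iff, h3, hnc a ha,
      ValuationSubring.valuation_le_one_iff, hO, ← h2, pow_le_one_iff (hn a ha).ne']
  have hpos : ∀ a : K, a ≠ 0 → 0 < f a := by
    intro a ha
    rw [pos_iff_ne_zero]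
    intro h
    have := hmul a a⁻¹
    rw [mul_inv_cancel₀ ha, hone, h, zero_mul] at this
    exact one_ne_zero this
  have hadd1 : ∀ a : K, f a ≤ 1 → f (a + 1) ≤ 1 := by
    intro a ha
    rw [hle1] at ha ⊢
    exact O.add_mem _ _ ha O.one_mem
  have hadd' : ∀ a b : K, f a ≤ f b → f (a + b) ≤ f b := by
    intro a b hab
    by_cases hb : b = 0
    · have ha : a = 0 := by
        by_contra ha
        rw [hb, f0] at hab
        exact absurd hab (not_le.2 (hpos a ha))
      rw [ha, hb, add_zero]
    · have h1 : f (a / b) ≤ 1 := by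
        have h2 := hmul (a / b) b
        rw [div_mul_cancel₀ a hb] at h2
        rw [h2] at hab
        by_contra hcon
        push Not at hcon
        exact absurd hab (not_le.2 (lt_mul_of_one_lt_left (hpos b hb) hcon))
      have h2 : a + b = (a / b + 1) * b := by rw [add_mul, div_mul_cancel₀ a hb, one_mul]
      rw [h2, hmul]
      exact mul_le_of_le_one_left' (hadd1 _ h1)
  refine ⟨⟨⟨⟨f, f0⟩, hone, hmul⟩, ?_⟩, hF, hle1⟩
  intro a b
  change f (a + b) ≤ max (f a) (f b)
  rcases le_total (f a) (f b) with h | h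
  · exact (hadd' a b h).trans (le_max_right _ _)
  · rw [add_comm]
    exact (hadd' b a h).trans (le_max_left _ _)

/-- Algebraic case. -/
theorem exists_real_of_isAlgebraic [Algebra.IsAlgebraic F K]
    (hO : ∀ a : F, algebraMap F K a ∈ O ↔ η a ≤ 1) :
    ∃ v : Valuation K ℝ≥0, (∀ a : F, v (algebraMap F K a) = η a) ∧ ∀ x, v x ≤ 1 ↔ x ∈ O :=
  exists_real_of_torsion η O hO fun a ha => exists_pow_val O.valuation ha
    (Algebra.IsAlgebraic.isAlgebraic a)

end Real

section Localize

variable {K : Type*} [Field K] (O : ValuationSubring K) (z : K)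

/-- The overring `O[1/z]`. -/
def loc (hz : z ∈ O) : ValuationSubring K where
  carrier := {a | ∃ n : ℕ, a * z ^ n ∈ O}
  mul_mem' := by
    rintro a b ⟨n, hn⟩ ⟨m, hm⟩
    refine ⟨n + m, ?_⟩
    have : a * b * z ^ (n + m) = (a * z ^ n) * (b * z ^ m) := by ring
    rw [this]
    exact O.mul_mem _ _ hn hm
  one_mem' := ⟨0, by simp⟩
  add_mem' := by
    rintro a b ⟨n, hn⟩ ⟨m, hm⟩
    refine ⟨n + m, ?_⟩
    have : (a + b) * z ^ (n + m) = (a * z ^ n) * z ^ m + (b * z ^ m) * z ^ n := by ring
    rw [this]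
    exact O.add_mem _ _ (O.mul_mem _ _ hn (pow_mem hz m)) (O.mul_mem _ _ hm (pow_mem hz n))
  zero_mem' := ⟨0, by simp⟩
  neg_mem' := by
    rintro a ⟨n, hn⟩
    refine ⟨n, ?_⟩
    rw [neg_mul]
    exact O.neg_mem _ hn
  mem_or_inv_mem' := by
    intro a
    rcases O.mem_or_inv_mem a with h | h
    · exact Or.inl ⟨0, by simpa using h⟩
    · exact Or.inr ⟨0, by simpa using h⟩

variable {O z}

theorem mem_loc {hz : z ∈ O} {a : K} : a ∈ loc O z hz ↔ ∃ n : ℕ, a * z ^ n ∈ O := Iff.rfl

theorem loc_lt_one_iff {hz : z ∈ O} (hz0 : z ≠ 0) {a : K} :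
    (loc O z hz).valuation a < 1 ↔ ∀ n : ℕ, O.valuation (a / z ^ n) < 1 := by
  rw [val_lt_one_iff, mem_loc]
  constructor
  · rintro (rfl | h) n
    · simp
    · rw [val_lt_one_iff]
      right
      intro h1
      apply h
      refine ⟨n, ?_⟩
      rw [inv_div] at h1
      rwa [mul_comm, ← div_eq_mul_inv]
  · intro h
    by_cases ha : a = 0
    · exact Or.inl ha
    · right
      rintro ⟨n, hn⟩
      have h1 := h n
      rw [val_lt_one_iff] at h1
      rcases h1 with h1 | h1
      · rw [div_eq_zero_iff] at h1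
        rcases h1 with h1 | h1
        · exact ha h1
        · exact pow_ne_zero _ hz0 h1
      · rw [inv_div] at h1
        apply h1
        rwa [mul_comm, ← div_eq_mul_inv] at hn

end Localize

section Gauss

variable {C K : Type*} [Field C] [Field K] [Algebra C K] (nC : Valuation C ℝ≥0) {π : C}
  (hπ0 : π ≠ 0) (hπ1 : nC π < 1) {z : K} (hz0 : z ≠ 0) {O : ValuationSubring K}
  (h1 : ∀ c : C, nC c ≤ 1 → algebraMap C K c ∈ O) (h2 : O.valuation z < 1)
  (h3 : ∀ n : ℕ, O.valuation (algebraMap C K π / z ^ n) < 1)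

include hπ0 h1 h3 in
theorem small_div (c : C) (hc : nC c < 1) (n : ℕ) : O.valuation (algebraMap C K c / z ^ n) < 1 := by
  obtain ⟨m, hm⟩ : ∃ m : ℕ, nC c ^ m < nC π :=
    exists_pow_lt_of_lt_one (pos_iff_ne_zero.2 ((nC.ne_zero_iff).2 hπ0)) hc
  have hπ' : nC π ≠ 0 := (nC.ne_zero_iff).2 hπ0
  have h4 : O.valuation (algebraMap C K (c ^ m / π)) ≤ 1 := by
    rw [ValuationSubring.valuation_le_one_iff]
    refine h1 _ ?_
    rw [map_div₀, map_pow]
    exact (div_le_one₀ (pos_iff_ne_zero.2 hπ')).2 hm.le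
  have h5 : (algebraMap C K c / z ^ n) ^ m =
      algebraMap C K (c ^ m / π) * (algebraMap C K π / z ^ (n * m)) := by
    have : algebraMap C K π ≠ 0 := (map_ne_zero _).2 hπ0
    rw [div_pow, ← pow_mul, map_div₀, map_pow]
    field_simp
  have h6 : O.valuation (algebraMap C K c / z ^ n) ^ m < 1 := by
    rw [← map_pow, h5, map_mul]
    exact lt_of_le_of_lt (mul_le_of_le_one_left' h4) (h3 _)
  by_contra hcon
  push Not at hcon
  exact absurd h6 (not_lt.2 (one_le_pow₀ hcon))

include hπ0 hz0 h1 h2 h3 in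
/-- the reduction of a polynomial with respect to the composite valuation. -/
theorem exists_coeff' (P : C[X]) (hP : P ≠ 0) : ∃ e : ℕ, P.coeff e ≠ 0 ∧
    (∀ i, nC (P.coeff i) ≤ nC (P.coeff e)) ∧
    O.valuation (aeval z P - algebraMap C K (P.coeff e) * z ^ e) <
      O.valuation (algebraMap C K (P.coeff e) * z ^ e) := by
  classical
  have hne : P.support.Nonempty := Polynomial.support_nonempty.2 hP
  obtain ⟨m, hm, hmax⟩ := Finset.exists_max_image P.support (fun i => nC (P.coeff i)) hne
  have hm0 : P.coeff m ≠ 0 := Polynomial.mem_support_iff.1 hm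
  have hmax' : ∀ i, nC (P.coeff i) ≤ nC (P.coeff m) := by
    intro i
    by_cases hi : P.coeff i = 0
    · rw [hi, map_zero]; exact zero_le
    · exact hmax i (Polynomial.mem_support_iff.2 hi)
  have hex : ∃ i, nC (P.coeff i) = nC (P.coeff m) := ⟨m, rfl⟩
  set e := Nat.find hex with he
  have he1 : nC (P.coeff e) = nC (P.coeff m) := Nat.find_spec hex
  have he0 : P.coeff e ≠ 0 := by
    rw [← nC.ne_zero_iff, he1, nC.ne_zero_iff]; exact hm0
  have hmin : ∀ i < e, nC (P.coeff i) < nC (P.coeff e) := by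
    intro i hi
    refine lt_of_le_of_ne (by rw [he1]; exact hmax' i) ?_
    rw [he1]
    exact Nat.find_min hex hi
  have hlee : ∀ i, nC (P.coeff i) ≤ nC (P.coeff e) := by rw [he1]; exact hmax'
  refine ⟨e, he0, hlee, ?_⟩
  have he0' : algebraMap C K (P.coeff e) ≠ 0 := (map_ne_zero _).2 he0
  have hze : z ^ e ≠ 0 := pow_ne_zero _ hz0
  set t : ℕ → K := fun i => algebraMap C K (P.coeff i) * z ^ i with ht
  have hsum : aeval z P = t e + ∑ i ∈ P.support.erase e, t i := by
    rw [Finset.add_sum_erase _ _ (Polynomial.mem_support_iff.2 he0), Polynomial.aeval_eq_sum_range,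
      ← Polynomial.sum_over_range (f := fun i c => c • z ^ i) P (fun n => by simp)]
    simp [Polynomial.sum_def, ht, Algebra.smul_def]
  have hte : O.valuation (t e) ≠ 0 := (Valuation.ne_zero_iff _).2 (mul_ne_zero he0' hze)
  have hlt : ∀ i, i ≠ e → O.valuation (t i) < O.valuation (t e) := by
    intro i hi
    have h4 : t i = (algebraMap C K (P.coeff i / P.coeff e) * z ^ i / z ^ e) * t e := by
      simp only [ht, map_div₀]
      field_simp
    rw [h4, map_mul]
    refine (mul_lt_iff_lt_one_left (zero_lt_iff.2 hte)).2 ?_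
    rcases lt_or_gt_of_ne hi with h | h
    · have h5 : algebraMap C K (P.coeff i / P.coeff e) * z ^ i / z ^ e =
          algebraMap C K (P.coeff i / P.coeff e) / z ^ (e - i) := by
        have : z ^ e = z ^ (e - i) * z ^ i := by rw [← pow_add, Nat.sub_add_cancel h.le]
        rw [this, mul_div_mul_right _ _ (pow_ne_zero _ hz0)]
      rw [h5]
      refine small_div nC hπ0 h1 h3 _ ?_ _
      rw [map_div₀]
      exact (div_lt_one₀ (pos_iff_ne_zero.2 ((nC.ne_zero_iff).2 he0))).2 (hmin i h)
    · have h5 : algebraMap C K (P.coeff i / P.coeff e) * z ^ i / z ^ e =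
          algebraMap C K (P.coeff i / P.coeff e) * z ^ (i - e) := by
        have : z ^ i = z ^ (i - e) * z ^ e := by rw [← pow_add, Nat.sub_add_cancel h.le]
        rw [this, ← mul_assoc, mul_div_cancel_right₀ _ hze]
      rw [h5, map_mul, map_pow]
      refine lt_of_le_of_lt (mul_le_of_le_one_left' ?_)
        (pow_lt_one₀ zero_le h2 (Nat.sub_pos_of_lt h).ne')
      rw [ValuationSubring.valuation_le_one_iff]
      refine h1 _ ?_
      rw [map_div₀]
      exact (div_le_one₀ (pos_iff_ne_zero.2 ((nC.ne_zero_iff).2 he0))).2 (hlee i)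
  rw [hsum]
  change O.valuation (t e + _ - t e) < O.valuation (t e)
  rw [add_sub_cancel_left]
  exact Valuation.map_sum_lt _ hte fun i hi => hlt i (Finset.mem_erase.1 hi).1

include hπ0 hz0 h1 h2 h3 in
/-- the reduction of a polynomial with respect to the composite valuation. -/
theorem exists_coeff (P : C[X]) (hP : P ≠ 0) : ∃ e : ℕ, P.coeff e ≠ 0 ∧
    (∀ i, nC (P.coeff i) ≤ nC (P.coeff e)) ∧
    O.valuation (aeval z P) = O.valuation (algebraMap C K (P.coeff e) * z ^ e) := by
  obtain ⟨e, he, hle, h⟩ := exists_coeff' nC hπ0 hz0 h1 h2 h3 P hP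
  refine ⟨e, he, hle, ?_⟩
  have h4 := Valuation.map_add_eq_of_lt_left O.valuation h
  rwa [add_comm, sub_add_cancel] at h4

open IntermediateField in
include hπ0 hz0 h1 h2 h3 in
/-- **The composite valuations come from norms.** If `O` contains the integers of `C`, `z ∈ 𝔪_O` and
`π / z ^ n ∈ 𝔪_O` for all `n`, then `O[1/z]` is the ring of a real valued valuation `v` which extends
the norm of `C` and is the Gauss norm on `C(z)`. -/
theorem exists_norm_of_composite (halg : ∀ a : K, IsAlgebraic C⟮z⟯ a) :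
    ∃ v : Valuation K ℝ≥0, (∀ c, v (algebraMap C K c) = nC c) ∧
      (∀ (f : C[X]) (i : ℕ), nC (f.coeff i) ≤ v (aeval z f)) ∧ v z = 1 ∧
      (∀ a ∈ O, v a ≤ 1) ∧ (∀ a, v a < 1 → O.valuation a < 1) := by
  have hzO : z ∈ O := (ValuationSubring.valuation_le_one_iff _ _).1 h2.le
  set O1 := loc O z hzO with hO1
  have hOO1 : ∀ a ∈ O, a ∈ O1 := fun a ha => ⟨0, by simpa using ha⟩
  have hz1 : O1.valuation z = 1 := by
    refine le_antisymm ((ValuationSubring.valuation_le_one_iff _ _).2 (hOO1 z hzO)) ?_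
    by_contra hcon
    push Not at hcon
    rw [loc_lt_one_iff hz0] at hcon
    have := hcon 1
    rw [pow_one, div_self hz0, map_one] at this
    exact lt_irrefl _ this
  have hinv : ∀ a : K, O.valuation (a - 1) < 1 → O1.valuation a = 1 := by
    intro a ha
    have hle : O1.valuation (a - 1) ≤ 1 := (ValuationSubring.valuation_le_one_iff _ _).2
      (hOO1 _ ((ValuationSubring.valuation_le_one_iff _ _).1 ha.le))
    have hva : O.valuation a = 1 := by
      have : a = 1 + (a - 1) := by ring
      rw [this]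
      rw [Valuation.map_add_eq_of_lt_left _ (by rw [map_one]; exact ha), map_one]
    refine le_antisymm ((ValuationSubring.valuation_le_one_iff _ _).2 (hOO1 a
      ((ValuationSubring.valuation_le_one_iff _ _).1 hva.le))) ?_
    by_contra hcon
    push Not at hcon
    rw [loc_lt_one_iff hz0] at hcon
    have := hcon 0
    rw [pow_zero, div_one, hva] at this
    exact lt_irrefl _ this
  have hO : ∀ a : C, algebraMap C K a ∈ O1 ↔ nC a ≤ 1 := by
    intro a
    refine ⟨fun h => ?_, fun h => hOO1 _ (h1 a h)⟩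
    by_contra hcon
    push Not at hcon
    have ha : a ≠ 0 := by
      rintro rfl
      rw [map_zero] at hcon
      exact absurd hcon (by simp)
    have h4 : O1.valuation (algebraMap C K a⁻¹) < 1 := by
      rw [loc_lt_one_iff hz0]
      intro n
      refine small_div nC hπ0 h1 h3 _ ?_ n
      rw [map_inv₀]
      exact inv_lt_one_of_one_lt₀ hcon
    rw [val_lt_one_iff, map_inv₀, inv_inv] at h4
    rcases h4 with h4 | h4
    · exact inv_ne_zero ((map_ne_zero _).2 ha) h4
    · exact h4 h
  have hpoly : ∀ P : C[X], P ≠ 0 → ∃ c : C, c ≠ 0 ∧ (∀ i, nC (P.coeff i) ≤ nC c) ∧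
      O1.valuation (aeval z P) = O1.valuation (algebraMap C K c) := by
    intro P hP
    obtain ⟨e, he, hle, hval⟩ := exists_coeff nC hπ0 hz0 h1 h2 h3 P hP
    refine ⟨P.coeff e, he, hle, ?_⟩
    have he' : algebraMap C K (P.coeff e) ≠ 0 := (map_ne_zero _).2 he
    have hze : z ^ e ≠ 0 := pow_ne_zero _ hz0
    -- the quotient is a unit of `O`
    have hu : O.valuation (aeval z P / (algebraMap C K (P.coeff e) * z ^ e)) = 1 := by
      rw [map_div₀, hval, div_self]
      exact (Valuation.ne_zero_iff _).2 (mul_ne_zero he' hze)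
    have hu1 : O1.valuation (aeval z P / (algebraMap C K (P.coeff e) * z ^ e)) = 1 := by
      refine le_antisymm ((ValuationSubring.valuation_le_one_iff _ _).2 (hOO1 _
        ((ValuationSubring.valuation_le_one_iff _ _).1 hu.le))) ?_
      by_contra hcon
      push Not at hcon
      rw [loc_lt_one_iff hz0] at hcon
      have := hcon 0
      rw [pow_zero, div_one, hu] at this
      exact lt_irrefl _ this
    rw [map_div₀, map_mul, map_pow, hz1, one_pow, mul_one] at hu1
    rwa [div_eq_one_iff_eq] at hu1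
    exact (Valuation.ne_zero_iff _).2 he'
  have htors : ∀ a : K, a ≠ 0 → ∃ n : ℕ, 0 < n ∧ ∃ c : C, c ≠ 0 ∧
      O1.valuation (a ^ n) = O1.valuation (algebraMap C K c) := by
    intro a ha
    obtain ⟨n, hn, b, hb, hab⟩ := exists_pow_val (F := C⟮z⟯) O1.valuation ha (halg a)
    obtain ⟨P, Q, hPQ⟩ := (IntermediateField.mem_adjoin_simple_iff C (b : K)).1 b.2
    have hb' : (b : K) ≠ 0 := fun h => hb (Subtype.ext h)
    have hP : P ≠ 0 := by
      rintro rfl
      rw [map_zero, zero_div] at hPQ
      exact hb' hPQ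
    have hQ : Q ≠ 0 := by
      rintro rfl
      rw [map_zero, div_zero] at hPQ
      exact hb' hPQ
    obtain ⟨c, hc, -, hPc⟩ := hpoly P hP
    obtain ⟨d, hd, -, hQd⟩ := hpoly Q hQ
    refine ⟨n, hn, c / d, div_ne_zero hc hd, ?_⟩
    rw [hab]
    change O1.valuation (b : K) = _
    rw [hPQ, map_div₀, hPc, hQd, map_div₀, map_div₀]
  obtain ⟨v, hvC, hvO⟩ := exists_real_of_torsion nC O1 hO htors
  have heq : ∀ a b : K, b ≠ 0 → O1.valuation a = O1.valuation b → v a = v b := by
    intro a b hb hab
    have ha : a ≠ 0 := by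
      rw [← Valuation.ne_zero_iff O1.valuation, hab, Valuation.ne_zero_iff]
      exact hb
    have h4 : v (a / b) ≤ 1 := by
      rw [hvO, ← ValuationSubring.valuation_le_one_iff, map_div₀, hab, div_self]
      exact (Valuation.ne_zero_iff _).2 hb
    have h5 : v (b / a) ≤ 1 := by
      rw [hvO, ← ValuationSubring.valuation_le_one_iff, map_div₀, hab, div_self]
      exact (Valuation.ne_zero_iff _).2 hb
    rw [map_div₀] at h4 h5
    refine le_antisymm ((div_le_one₀ (pos_iff_ne_zero.2 ((v.ne_zero_iff).2 hb))).1 h4)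
      ((div_le_one₀ (pos_iff_ne_zero.2 ((v.ne_zero_iff).2 ha))).1 h5)
  refine ⟨v, hvC, ?_, ?_, fun a ha => (hvO a).2 (hOO1 a ha), ?_⟩
  · intro f i
    by_cases hf : f = 0
    · rw [hf]; simp
    obtain ⟨c, hc, hle, hfc⟩ := hpoly f hf
    rw [heq _ _ ((map_ne_zero _).2 hc) hfc, hvC]
    exact hle i
  · have := heq z 1 one_ne_zero (by rw [hz1, map_one])
    rw [this, map_one]
  · intro a ha
    have h4 : O1.valuation a < 1 := by
      rw [val_lt_one_iff]
      by_cases ha0 : a = 0
      · exact Or.inl ha0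
      · right
        intro h5
        rw [← hvO, map_inv₀] at h5
        exact absurd ha (not_lt.2 ((inv_le_one₀ (pos_iff_ne_zero.2 ((v.ne_zero_iff).2 ha0))).1 h5))
    rw [loc_lt_one_iff hz0] at h4
    simpa using h4 0

end Gauss

end Crest.Agent.R013.RZ_365
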