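import Crest.Agent.R013.SSDefs_332
import Crest.Agent.R013.LiftA_168
import Crest.Agent.R013.RZ2_365
import Crest.Agent.R013.GR2_921
import Crest.Agent.R013.RR22_948

/-!
# C-LIFTN, part 1: coordinates adapted to finitely many norms of type 2
-/

set_option autoImplicit false
set_option linter.unusedSectionVars false

namespace Crest.Agent.R013.CLiftN_903

open scoped NNReal
open WithZero Polynomial
open Crest.Agent.R013.RR7_948 Crest.Agent.R013.Red332 Crest.Agent.R013.SSK_332
open Crest.Agent.R013.LiftA_168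

section Red

variable {C : Type*} [NormedField C] [IsUltrametricDist C] {K : Type*} [Field K] [Algebra C K]

/-- the valuation of `C` -/
noncomputable abbrev nC (C : Type*) [NormedField C] [IsUltrametricDist C] : Valuation C ℝ≥0 :=
  NormedField.valuation (K := C)

theorem nC_apply (c : C) : nC C c = ‖c‖₊ := rfl

theorem v_sum_le (w : Nm C K) {ι : Type*} (s : Finset ι) (f : ι → K)
    (hf : ∀ i ∈ s, w.v (f i) ≤ 1) : w.v (∑ i ∈ s, f i) ≤ 1 :=
  Valuation.map_sum_le _ hf

theorem red_sum (w : Nm C K) {ι : Type*} (s : Finset ι) (f : ι → K)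
    (hf : ∀ i ∈ s, w.v (f i) ≤ 1) : red w (∑ i ∈ s, f i) = ∑ i ∈ s, red w (f i) := by
  classical
  induction s using Finset.induction_on with
  | empty => simp [red_zero]
  | insert a s ha ih =>
    rw [Finset.sum_insert ha, Finset.sum_insert ha,
      red_add w (hf a (Finset.mem_insert_self a s))
        (v_sum_le w s f fun i hi => hf i (Finset.mem_insert_of_mem hi)),
      ih fun i hi => hf i (Finset.mem_insert_of_mem hi)]

/-- reduction of a polynomial in `T` -/
theorem red_aeval (w : Nm C K) (T : K) (hT : w.v T ≤ 1) (g : C[X]) (hg : ∀ i, ‖g.coeff i‖₊ ≤ 1) :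
    w.v (aeval T g) ≤ 1 ∧ red w (aeval T g) =
      aeval (red w T) (∑ i ∈ Finset.range (g.natDegree + 1), Polynomial.C (rc (g.coeff i)) * X ^ i) := by
  have h1 : ∀ i ∈ Finset.range (g.natDegree + 1), w.v (algebraMap C K (g.coeff i) * T ^ i) ≤ 1 := by
    intro i _
    rw [map_mul, w.hC, map_pow]
    exact mul_le_one' (hg i) (pow_le_one' hT i)
  have e1 : aeval T g = ∑ i ∈ Finset.range (g.natDegree + 1), algebraMap C K (g.coeff i) * T ^ i := by
    rw [aeval_eq_sum_range]
    exact Finset.sum_congr rfl fun i _ => Algebra.smul_def _ _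
  refine ⟨by rw [e1]; exact v_sum_le w _ _ h1, ?_⟩
  rw [e1, red_sum w _ _ h1, map_sum]
  refine Finset.sum_congr rfl fun i _ => ?_
  rw [red_mul w (by rw [w.hC]; exact hg i) (by rw [map_pow]; exact pow_le_one' hT i),
    red_C w _ (hg i), red_pow w hT, map_mul, aeval_C, map_pow, aeval_X]

/-- A function with transcendental reduction has the Gauss norm. -/
theorem isG_of_transc (w : Nm C K) (T : K) (hT : w.v T ≤ 1)
    (htr : Transcendental (Ct C) (red w T)) : IsG (nC C) w.v T where
  ext c := w.hC c
  le := hT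
  coeff_le f i := by
    obtain ⟨j, hj, -⟩ := exists_max_coeff (nC C) f
    refine (hj i).trans ?_
    by_cases h0 : f.coeff j = 0
    · rw [h0, map_zero]; exact zero_le
    have hc0 : algebraMap C K (f.coeff j) ≠ 0 := by rw [Ne, map_eq_zero]; exact h0
    set g : C[X] := Polynomial.C (f.coeff j)⁻¹ * f with hg
    have hgi : ∀ i, g.coeff i = (f.coeff j)⁻¹ * f.coeff i := fun i => by rw [hg, coeff_C_mul]
    have hg1 : ∀ i, ‖g.coeff i‖₊ ≤ 1 := by
      intro i
      rw [hgi, nnnorm_mul, nnnorm_inv]
      have h1 : ‖f.coeff j‖₊ ≠ 0 := by rwa [Ne, nnnorm_eq_zero]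
      calc ‖f.coeff j‖₊⁻¹ * ‖f.coeff i‖₊ ≤ ‖f.coeff j‖₊⁻¹ * ‖f.coeff j‖₊ :=
            mul_le_mul_right (hj i) _
        _ = 1 := inv_mul_cancel₀ h1
    have hgj : g.coeff j = 1 := by rw [hgi, inv_mul_cancel₀ h0]
    obtain ⟨h2, h3⟩ := red_aeval w T hT g hg1
    have h4 : red w (aeval T g) ≠ 0 := by
      intro h5
      rw [h3] at h5
      have h6 : (∑ i ∈ Finset.range (g.natDegree + 1),
          Polynomial.C (rc (g.coeff i)) * X ^ i : (Ct C)[X]) = 0 := by
        by_contra hne
        exact htr ⟨_, hne, h5⟩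
      have h7 := congrArg (fun P => coeff P j) h6
      simp only [finsetSum_coeff, coeff_C_mul, coeff_X_pow, coeff_zero, mul_ite, mul_one,
        mul_zero] at h7
      rw [Finset.sum_ite_eq] at h7
      have h8 : j ∈ Finset.range (g.natDegree + 1) := by
        rw [Finset.mem_range, Nat.lt_succ_iff]
        exact le_natDegree_of_ne_zero (by rw [hgj]; exact one_ne_zero)
      rw [if_pos h8, hgj, rc_one] at h7
      exact one_ne_zero h7
    have h5 : w.v (aeval T g) = 1 := (red_ne_zero_iff w h2).1 h4
    have h6 : aeval T g = (algebraMap C K (f.coeff j))⁻¹ * aeval T f := by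
      rw [hg, map_mul, aeval_C, map_inv₀]
    rw [h6, map_mul, map_inv₀, w.hC] at h5
    have h7 : ‖f.coeff j‖₊ ≠ 0 := by rwa [Ne, nnnorm_eq_zero]
    have h8 : w.v (aeval T f) = ‖f.coeff j‖₊ := by
      field_simp at h5
      exact h5
    rw [h8]
    exact le_rfl

/-- A common coordinate for finitely many norms of type 2. -/
theorem exists_coord {ι : Type*} [Finite ι] (w : ι → Nm C K) (hinj : Function.Injective w)
    (hnt : ∃ c : C, nC C c ≠ 0 ∧ nC C c ≠ 1) (T : ι → K) (hT : ∀ i, (w i).v (T i) ≤ 1)
    (htr : ∀ i, Transcendental (Ct C) (red (w i) (T i))) :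
    ∃ t : K, ∀ i, IsG (nC C) (w i).v t := by
  have hinj' : Function.Injective fun i => (w i).v := by
    intro i j h
    apply hinj
    exact Nm.ext' fun f => by rw [show (w i).v = (w j).v from h]
  obtain ⟨t, ht⟩ := weak_approx (k := C) hnt (fun i => (w i).v) hinj' (fun i c => (w i).hC c) T 1
    one_pos
  refine ⟨t, fun i => ?_⟩
  have h1 : (w i).v t ≤ 1 := by
    have : t = (t - T i) + T i := by ring
    rw [this]
    exact Valuation.map_add_le _ (ht i).le (hT i)
  refine isG_of_transc (w i) t h1 ?_
  rw [(red_eq_iff (w i) h1 (hT i)).2 (ht i)]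
  exact htr i

end Red

section Place

variable {C : Type*} [NormedField C] [IsUltrametricDist C] {K : Type*} [Field K] [Algebra C K]

theorem pl_const_le (P : Pl C K) (c : C) : P.v (algebraMap C K c) ≤ 1 := by
  by_cases h : c = 0
  · rw [h, map_zero, map_zero]; exact zero_le
  · rw [P.const c h]

theorem pl_aeval_le (P : Pl C K) {t : K} (ht : P.v t ≤ 1) (f : C[X]) : P.v (aeval t f) ≤ 1 := by
  rw [aeval_eq_sum_range]
  refine Valuation.map_sum_le _ fun i _ => ?_
  rw [Algebra.smul_def, map_mul, map_pow]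
  exact mul_le_one' (pl_const_le P _) (pow_le_one' ht i)

theorem pl_aeval_sub (P : Pl C K) {t : K} {c : C} (h : P.v (t - algebraMap C K c) < 1) (f : C[X]) :
    P.v (aeval t f - algebraMap C K (f.eval c)) < 1 := by
  obtain ⟨q, hq⟩ : X - Polynomial.C c ∣ f - Polynomial.C (f.eval c) := by
    rw [dvd_iff_isRoot, IsRoot, eval_sub, eval_C, sub_self]
  have ht : P.v t ≤ 1 := by
    have : t = (t - algebraMap C K c) + algebraMap C K c := by ring
    rw [this]
    exact Valuation.map_add_le _ h.le (pl_const_le P c)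
  have e : aeval t f - algebraMap C K (f.eval c) = (t - algebraMap C K c) * aeval t q := by
    have := congrArg (aeval t) hq
    rw [map_sub, aeval_C, map_mul, map_sub, aeval_X, aeval_C] at this
    exact this
  rw [e, map_mul]
  calc P.v (t - algebraMap C K c) * P.v (aeval t q) ≤ P.v (t - algebraMap C K c) * 1 :=
        mul_le_mul_right (pl_aeval_le P ht q) _
    _ < 1 := by rw [mul_one]; exact h

theorem pl_aeval_of_gt (P : Pl C K) {t : K} (ht : 1 < P.v t) {f : C[X]} (hf : f.Monic) :
    P.v (aeval t f) = P.v t ^ f.natDegree := by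
  rw [aeval_eq_sum_range, Finset.sum_range_succ, hf.coeff_natDegree, one_smul]
  have h1 : P.v (∑ i ∈ Finset.range f.natDegree, f.coeff i • t ^ i) < P.v (t ^ f.natDegree) := by
    refine Valuation.map_sum_lt _ ?_ fun i hi => ?_
    · rw [map_pow]
      exact pow_ne_zero _ (zero_lt_one.trans ht).ne'
    · rw [Algebra.smul_def, map_mul, map_pow, map_pow]
      calc P.v (algebraMap C K (f.coeff i)) * P.v t ^ i ≤ 1 * P.v t ^ i :=
            mul_le_mul_left (pl_const_le P _) _
        _ = P.v t ^ i := one_mul _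
        _ < P.v t ^ f.natDegree := pow_lt_pow_right₀ ht (Finset.mem_range.1 hi)
  rw [Valuation.map_add_eq_of_lt_right _ h1, map_pow]

/-- The value of the coordinate `z` at a place where it should be small. -/
theorem pl_zc (P : Pl C K) (t : K) {A : C[X]} (hA : MI (nC C) A)
    (h : 1 < P.v t ∨ ∃ c : C, P.v (t - algebraMap C K c) < 1 ∧ (‖c‖ ≤ 1 → A.eval c = 0)) :
    ∃ c : C, ‖c‖ < 1 ∧ P.v (zc A t - algebraMap C K c) < 1 := by
  rcases h with h | ⟨c, hc, hc1⟩
  · refine ⟨0, by simp, ?_⟩
    have h0 : P.v t ≠ 0 := (zero_lt_one.trans h).ne'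
    rw [map_zero, sub_zero, zc, map_div₀, pl_aeval_of_gt P h hA.monic,
      pl_aeval_of_gt P h hA.den.monic, hA.natDegree_den, pow_succ, div_mul_eq_div_div,
      div_self (pow_ne_zero _ h0), one_div]
    exact inv_lt_one_of_one_lt₀ h
  · have hD : (1 + X * A).eval c ≠ 0 ∧ ‖A.eval c / (1 + X * A).eval c‖ < 1 := by
      rcases le_or_gt ‖c‖ 1 with h1 | h1
      · have h2 := hc1 h1
        rw [eval_add, eval_one, eval_mul, eval_X, h2, mul_zero, add_zero, zero_div, norm_zero]
        exact ⟨one_ne_zero, one_pos⟩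
      · have h1' : 1 < nC C c := by
          rw [nC_apply]; exact_mod_cast h1
        have h2 := hA.val_of_gt (K := C) (w := nC C) (t := c) (fun _ => rfl) h1'
        have h3 := hA.den.val_of_gt (K := C) (w := nC C) (t := c) (fun _ => rfl) h1'
        rw [coe_aeval_eq_eval] at h2 h3
        have hne : nC C c ≠ 0 := (zero_lt_one.trans h1').ne'
        refine ⟨?_, ?_⟩
        · intro h4
          rw [h4, map_zero] at h3
          exact pow_ne_zero _ hne h3.symm
        · have h4 : nC C (A.eval c / (1 + X * A).eval c) < 1 := by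
            rw [map_div₀, h2, h3, hA.natDegree_den, pow_succ, div_mul_eq_div_div,
              div_self (pow_ne_zero _ hne), one_div]
            exact inv_lt_one_of_one_lt₀ h1'
          rw [nC_apply] at h4
          exact_mod_cast h4
    obtain ⟨hD0, hD1⟩ := hD
    refine ⟨A.eval c / (1 + X * A).eval c, hD1, ?_⟩
    have hDK : algebraMap C K ((1 + X * A).eval c) ≠ 0 := by rwa [Ne, map_eq_zero]
    have h2 := pl_aeval_sub P hc A
    have h3 := pl_aeval_sub P hc (1 + X * A)
    set a := aeval t A
    set d := aeval t (1 + X * A)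
    set a0 := algebraMap C K (A.eval c) with ha0
    set d0 := algebraMap C K ((1 + X * A).eval c) with hd0
    have hvd0 : P.v d0 = 1 := P.const _ hD0
    have hvd : P.v d = 1 := by
      have : d = d0 + (d - d0) := by ring
      rw [this, Valuation.map_add_eq_of_lt_left _ (by rw [hvd0]; exact h3), hvd0]
    have hd : d ≠ 0 := by
      intro h0
      rw [h0, map_zero] at hvd
      exact zero_ne_one hvd
    have e : zc A t - algebraMap C K (A.eval c / (1 + X * A).eval c) =
        ((a - a0) * d0 - a0 * (d - d0)) / (d * d0) := by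
      rw [map_div₀]
      change a / d - a0 / d0 = _
      field_simp
      ring
    rw [e, map_div₀, map_mul, hvd, hvd0, one_mul, div_one]
    refine Valuation.map_sub_lt _ ?_ ?_
    · rw [map_mul, hvd0, mul_one]; exact h2
    · rw [map_mul]
      calc P.v a0 * P.v (d - d0) ≤ 1 * P.v (d - d0) := mul_le_mul_left (pl_const_le P _) _
        _ < 1 := by rw [one_mul]; exact h3

end Place

section Finite

variable {C : Type*} [Field C] {K : Type*} [Field K] [Algebra C K] [Algebra (RatFunc C) K]
  [IsScalarTower C (RatFunc C) K] [FiniteDimensional (RatFunc C) K]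

/-- `K` is finite over `C(t)` for every transcendental `t`. -/
theorem fd_adjoin (t : K) (ht : Transcendental C t) :
    FiniteDimensional (IntermediateField.adjoin C {t}) K := by
  have hfin := RR20_948.ratAlg_finite t ht
  letI := RR20_948.ratAlg t ht
  have hmem : ∀ x : RatFunc C, (RR20_948.ratHom t ht).toRingHom x ∈
      IntermediateField.adjoin C {t} := by
    intro x
    rw [IntermediateField.mem_adjoin_simple_iff]
    refine ⟨x.num, x.denom, ?_⟩
    exact RatFunc.liftAlgHom_apply _ _ x
  let φ : RatFunc C →+* IntermediateField.adjoin C {t} :=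
    (RR20_948.ratHom t ht).toRingHom.codRestrict _ hmem
  letI : Algebra (RatFunc C) (IntermediateField.adjoin C {t}) := φ.toAlgebra
  have : IsScalarTower (RatFunc C) (IntermediateField.adjoin C {t}) K :=
    IsScalarTower.of_algebraMap_eq fun x => rfl
  exact FiniteDimensional.right (RatFunc C) _ K

end Finite

end Crest.Agent.R013.CLiftN_903
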