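import Mathlib
import Crest.Agent.R013.GR6_921

/-!
# R013 / GR8: orthonormal bases of finite dimensional subspaces of a function field (helper921)

* `null_bound` : quantitative Nullstellensatz: forms without common zero are bounded below;
* `lower` : a norm on `K` (Gauss on `C(x)`) is non degenerate on every finite dimensional
  `C`-subspace of `K`;
* `hasON_of_dense` : if `K` is approximated by `⊕ C(x) b_l`, `b` orthonormal over `C(x)`, then every
  finite dimensional `C`-subspace of `K` has an orthonormal basis.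
-/

set_option autoImplicit false
set_option linter.all false

namespace Crest.Agent.R013.GR8_921

open Polynomial WithZero Module
open scoped NNReal
open Crest.Agent.R013.GR6_921

section null

variable {C : Type*} [Field C] (vC : Valuation C ℝ≥0)

theorem eval_bound {m : ℕ} (a : MvPolynomial (Fin m) C) :
    ∃ M : ℝ≥0, ∀ c : Fin m → C, (∀ j, vC (c j) ≤ 1) → vC (MvPolynomial.eval c a) ≤ M := by
  classical
  induction a using MvPolynomial.induction_on with
  | C r => exact ⟨vC r, fun c _ => by rw [MvPolynomial.eval_C]⟩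
  | add p q hp hq =>
    obtain ⟨M1, h1⟩ := hp
    obtain ⟨M2, h2⟩ := hq
    refine ⟨max M1 M2, fun c hc => ?_⟩
    rw [map_add]
    exact (Valuation.map_add _ _ _).trans (max_le_max (h1 c hc) (h2 c hc))
  | mul_X p i hp =>
    obtain ⟨M1, h1⟩ := hp
    refine ⟨M1, fun c hc => ?_⟩
    rw [map_mul, MvPolynomial.eval_X, map_mul]
    exact (mul_le_of_le_one_right' (hc i)).trans (h1 c hc)

/-- polynomials on `C^m` whose only common zero is `0` are bounded below on the unit sphere -/
theorem null_bound [IsAlgClosed C] {m : ℕ} (P : ℕ → MvPolynomial (Fin m) C)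
    (hP : ∀ c : Fin m → C, (∀ k, MvPolynomial.eval c (P k) = 0) → c = 0) :
    ∃ δ : ℝ≥0, 0 < δ ∧ ∀ c : Fin m → C, (∀ j, vC (c j) ≤ 1) → (∃ i, vC (c i) = 1) →
      ∃ k, δ ≤ vC (MvPolynomial.eval c (P k)) := by
  classical
  set I : Ideal (MvPolynomial (Fin m) C) := Ideal.span (Set.range P) with hI
  have hX : ∀ i : Fin m, ∃ M : ℝ≥0, 0 < M ∧ ∀ c : Fin m → C, (∀ j, vC (c j) ≤ 1) → vC (c i) = 1 →
      ∃ k, 1 ≤ M * vC (MvPolynomial.eval c (P k)) := by
    intro i
    have h1 : (MvPolynomial.X i : MvPolynomial (Fin m) C) ∈ I.radical := by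
      rw [← MvPolynomial.vanishingIdeal_zeroLocus_eq_radical (K := C),
        MvPolynomial.mem_vanishingIdeal_iff]
      intro c hc
      have h2 : c = 0 := by
        refine hP c fun k => ?_
        have := hc (P k) (Ideal.subset_span ⟨k, rfl⟩)
        rwa [MvPolynomial.aeval_eq_eval] at this
      rw [h2, MvPolynomial.aeval_X]
      rfl
    obtain ⟨s, hs⟩ := h1
    rw [hI, Ideal.span, Finsupp.mem_span_range_iff_exists_finsupp] at hs
    obtain ⟨a, ha⟩ := hs
    choose B hB using fun k => eval_bound vC (a k)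
    refine ⟨(∑ k ∈ a.support, B k) + 1, by positivity, fun c hc hci => ?_⟩
    have h3 : (MvPolynomial.eval c) (a.sum fun k r => r • P k) = c i ^ s := by
      rw [ha, map_pow, MvPolynomial.eval_X]
    have h4 : vC (∑ k ∈ a.support, MvPolynomial.eval c (a k) * MvPolynomial.eval c (P k)) = 1 := by
      have h5 : ∑ k ∈ a.support, MvPolynomial.eval c (a k) * MvPolynomial.eval c (P k)
          = c i ^ s := by
        rw [← h3, Finsupp.sum, map_sum]
        exact Finset.sum_congr rfl fun k _ => by rw [smul_eq_mul, map_mul]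
      rw [h5, map_pow, hci, one_pow]
    by_contra hcon
    push Not at hcon
    refine absurd h4 (ne_of_lt ?_)
    refine Valuation.map_sum_lt _ one_ne_zero fun k hk => ?_
    rw [map_mul]
    refine lt_of_le_of_lt ?_ (hcon k)
    refine mul_le_mul' ((hB k c hc).trans ?_) le_rfl
    exact (Finset.single_le_sum (f := B) (fun _ _ => zero_le) hk).trans (le_add_of_nonneg_right zero_le_one)
  choose M hM0 hM using hX
  by_cases hm : Nonempty (Fin m)
  · have hS : 0 < ∑ i, M i := Finset.sum_pos (fun i _ => hM0 i) Finset.univ_nonempty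
    refine ⟨(∑ i, M i)⁻¹, by positivity, fun c hc hci => ?_⟩
    obtain ⟨i, hi⟩ := hci
    obtain ⟨k, hk⟩ := hM i c hc hi
    refine ⟨k, ?_⟩
    rw [inv_le_iff_one_le_mul₀ hS, mul_comm]
    exact hk.trans (mul_le_mul' (Finset.single_le_sum (f := M) (fun _ _ => zero_le)
      (Finset.mem_univ i)) le_rfl)
  · exact ⟨1, one_pos, fun c _ ⟨i, _⟩ => absurd ⟨i⟩ hm⟩

end null

section lower

variable {C : Type*} [Field C] {vC : Valuation C ℝ≥0}
  {F : Type*} [Field F] [Algebra C F] {K : Type*} [Field K] [Algebra F K]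
  [Algebra C K] [IsScalarTower C F K] {w : Valuation K ℝ≥0}

theorem common_den {x : F} (quot : ∀ z : F, ∃ f g : C[X], aeval x g ≠ 0 ∧ z * aeval x g = aeval x f)
    {ι : Type*} [Fintype ι] (z : ι → F) :
    ∃ (q : C[X]) (p : ι → C[X]), aeval x q ≠ 0 ∧ ∀ i, z i * aeval x q = aeval x (p i) := by
  classical
  choose f g hg hfg using quot
  refine ⟨∏ i, g (z i), fun i => f (z i) * ∏ j ∈ Finset.univ.erase i, g (z j), ?_, fun i => ?_⟩
  · rw [map_prod]
    exact Finset.prod_ne_zero_iff.mpr fun i _ => hg _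
  · rw [← Finset.mul_prod_erase Finset.univ (fun i => g (z i)) (Finset.mem_univ i), map_mul,
      map_mul, ← hfg]
    ring

theorem scale (hn : ∀ c : C, w (algebraMap C K c) = vC c) (hnt : ∃ c : C, c ≠ 0 ∧ vC c < 1)
    {ι : Type*} [Fintype ι] (e : ι → K) :
    ∃ c : C, c ≠ 0 ∧ ∀ i, w (algebraMap C K c * e i) ≤ 1 := by
  classical
  obtain ⟨c, hc0, hc1⟩ := hnt
  set M : ℝ≥0 := (∑ i, w (e i)) + 1 with hM
  have hMpos : 0 < M := by positivity
  obtain ⟨n, hn1⟩ := exists_pow_lt_of_lt_one (show (0 : ℝ≥0) < M⁻¹ by positivity) hc1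
  refine ⟨c ^ n, pow_ne_zero _ hc0, fun i => ?_⟩
  rw [map_mul, hn, map_pow]
  have h1 : w (e i) ≤ M := (Finset.single_le_sum (f := fun i => w (e i)) (fun _ _ => zero_le)
      (Finset.mem_univ i)).trans (le_add_of_nonneg_right zero_le_one)
  calc vC c ^ n * w (e i) ≤ M⁻¹ * M := mul_le_mul' hn1.le h1
    _ = 1 := inv_mul_cancel₀ hMpos.ne'

/-- entries of the adjugate of an integral matrix are integral -/
theorem adj_le {n : ℕ} (B : Matrix (Fin n) (Fin n) F)
    (hB : ∀ r s, w (algebraMap F K (B r s)) ≤ 1) (r s : Fin n) :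
    w (algebraMap F K (B.adjugate r s)) ≤ 1 := by
  classical
  set O : Subring F := (w.comap (algebraMap F K)).integer with hO
  let B0 : Matrix (Fin n) (Fin n) O := Matrix.of fun r s => ⟨B r s, hB r s⟩
  have h1 : O.subtype.mapMatrix B0 = B := by
    ext r s; rfl
  have h2 := RingHom.map_adjugate O.subtype B0
  rw [h1] at h2
  rw [← h2]
  exact (B0.adjugate r s).2

theorem det_le [FiniteDimensional F K] {n : ℕ} (b : Basis (Fin n) F K) (z : K)
    (hB : ∀ r s, w (algebraMap F K (Algebra.leftMulMatrix b z r s)) ≤ 1) :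
    w (algebraMap F K (Algebra.leftMulMatrix b z).det) ≤ w z := by
  classical
  set B := Algebra.leftMulMatrix b z with hBdef
  have hne : Nonempty (Fin n) := b.index_nonempty
  obtain ⟨j, -, hj⟩ := Finset.exists_max_image Finset.univ (fun i => w (b i)) Finset.univ_nonempty
  have hrow : ∀ l, z * b l = ∑ i, B i l • b i := by
    intro l
    refine (b.sum_repr (z * b l)).symm.trans (Finset.sum_congr rfl fun i _ => ?_)
    rw [hBdef, Algebra.leftMulMatrix_eq_repr_mul]
  have h1 : algebraMap F K B.det * b j = z * ∑ l, B.adjugate l j • b l := by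
    have h2 : z * ∑ l, B.adjugate l j • b l = ∑ i, (B * B.adjugate) i j • b i := by
      rw [Finset.mul_sum]
      have h3 : ∀ l, z * (B.adjugate l j • b l) = ∑ i, (B i l * B.adjugate l j) • b i := by
        intro l
        rw [mul_smul_comm, hrow, Finset.smul_sum]
        refine Finset.sum_congr rfl fun i _ => ?_
        rw [smul_smul, mul_comm]
      rw [Finset.sum_congr rfl fun l _ => h3 l, Finset.sum_comm]
      refine Finset.sum_congr rfl fun i _ => ?_
      rw [← Finset.sum_smul, Matrix.mul_apply]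
    rw [h2, Matrix.mul_adjugate]
    rw [Finset.sum_eq_single j]
    · rw [Matrix.smul_apply, Matrix.one_apply_eq, smul_eq_mul, mul_one, Algebra.smul_def]
    · intro i _ hij
      rw [Matrix.smul_apply, Matrix.one_apply_ne hij, smul_zero, zero_smul]
    · intro h; exact absurd (Finset.mem_univ j) h
  have h4 : w (algebraMap F K B.det) * w (b j) ≤ w z * w (b j) := by
    rw [← map_mul, h1, map_mul]
    refine mul_le_mul' le_rfl ?_
    refine Valuation.map_sum_le _ fun l _ => ?_
    rw [Algebra.smul_def, map_mul]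
    exact (mul_le_of_le_one_left' (adj_le B hB l j)).trans (hj l (Finset.mem_univ l))
  have h5 : 0 < w (b j) := pos_iff_ne_zero.mpr ((Valuation.ne_zero_iff _).mpr (b.ne_zero j))
  exact le_of_mul_le_mul_right h4 h5

/-- **(LOWER)** a norm on `K` which is the Gauss norm on `F = C(x)` is non degenerate on every
finite dimensional `C`-subspace of `K`. -/
theorem lower [IsAlgClosed C] [FiniteDimensional F K]
    (hn : ∀ c : C, w (algebraMap C K c) = vC c) (hnt : ∃ c : C, c ≠ 0 ∧ vC c < 1) {x : F}
    (gauss : ∀ (f : C[X]) i, vC (f.coeff i) ≤ w (algebraMap F K (aeval x f)))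
    (quot : ∀ z : F, ∃ f g : C[X], aeval x g ≠ 0 ∧ z * aeval x g = aeval x f)
    {m : ℕ} (v : Fin m → K) (hv : LinearIndependent C v) :
    ∃ δ : ℝ≥0, 0 < δ ∧ ∀ (c : Fin m → C) i, δ * vC (c i) ≤ w (∑ j, c j • v j) := by
  classical
  set n := finrank F K with hndef
  set b : Basis (Fin n) F K := finBasis F K with hb
  have hx0 : ∀ f : C[X], aeval x f = 0 → f = 0 := by
    intro f hf
    ext i
    have := gauss f i
    rw [hf, map_zero, map_zero] at this
    rw [coeff_zero]
    exact (Valuation.zero_iff vC).mp (le_antisymm this zero_le)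
  obtain ⟨q, A', hq, hA'⟩ := common_den quot
    (fun t : Fin m × Fin n × Fin n => Algebra.leftMulMatrix b (v t.1) t.2.1 t.2.2)
  obtain ⟨c0, hc0, hsc⟩ := scale (w := w) hn hnt (fun t => algebraMap F K (aeval x (A' t)))
  obtain ⟨q', A, hq', hA, hAle⟩ : ∃ (q' : C[X]) (A : Fin m × Fin n × Fin n → C[X]),
      aeval x q' ≠ 0 ∧ (∀ t : Fin m × Fin n × Fin n,
      Algebra.leftMulMatrix b (v t.1) t.2.1 t.2.2 * aeval x q' = aeval x (A t)) ∧
      ∀ t, w (algebraMap F K (aeval x (A t))) ≤ 1 := by
    refine ⟨Polynomial.C c0 * q, fun t => Polynomial.C c0 * A' t, ?_, ?_, ?_⟩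
    · rw [map_mul, aeval_C]
      exact mul_ne_zero (by simpa using hc0) hq
    · intro t
      show _ * aeval x (Polynomial.C c0 * q) = aeval x (Polynomial.C c0 * A' t)
      rw [map_mul, map_mul, ← hA' t]
      ring
    · intro t
      have := hsc t
      show w (algebraMap F K (aeval x (Polynomial.C c0 * A' t))) ≤ 1
      rw [map_mul, aeval_C, map_mul, ← IsScalarTower.algebraMap_apply]
      exact this
  let R := MvPolynomial (Fin m) C
  let Mt : Matrix (Fin n) (Fin n) R[X] := Matrix.of fun r s =>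
    ∑ i, Polynomial.C (MvPolynomial.X i : R) * (A (i, r, s)).map (algebraMap C R)
  let P : ℕ → R := fun k => (Mt.det).coeff k
  let D : (Fin m → C) → Matrix (Fin n) (Fin n) C[X] := fun c => Matrix.of fun r s =>
    ∑ i, Polynomial.C (c i) * A (i, r, s)
  have hD : ∀ c k, ((D c).det).coeff k = MvPolynomial.eval c (P k) := by
    intro c k
    have h1 : (Polynomial.mapRingHom (MvPolynomial.eval c)) Mt.det = (D c).det := by
      rw [RingHom.map_det]
      congr 1
      ext1 r s
      rw [RingHom.mapMatrix_apply, Matrix.map_apply]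
      show (Polynomial.mapRingHom (MvPolynomial.eval c))
        (∑ i, Polynomial.C (MvPolynomial.X i : R) * (A (i, r, s)).map (algebraMap C R)) =
        ∑ i, Polynomial.C (c i) * A (i, r, s)
      rw [map_sum]
      refine Finset.sum_congr rfl fun i _ => ?_
      rw [map_mul, Polynomial.coe_mapRingHom, Polynomial.map_C, MvPolynomial.eval_X,
        Polynomial.map_map]
      have h2 : (MvPolynomial.eval c).comp (algebraMap C R) = RingHom.id C := by
        ext a
        simp [R, MvPolynomial.algebraMap_eq]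
      rw [h2, Polynomial.map_id]
    rw [← h1, Polynomial.coe_mapRingHom, Polynomial.coeff_map]
  have hmat : ∀ c : Fin m → C, Algebra.leftMulMatrix b (algebraMap F K (aeval x q') * ∑ j, c j • v j)
      = (aeval x : C[X] →ₐ[C] F).toRingHom.mapMatrix (D c) := by
    intro c
    have h1 : algebraMap F K (aeval x q') * ∑ j, c j • v j
        = ∑ j, (algebraMap C F (c j) * aeval x q') • v j := by
      rw [Finset.mul_sum]
      refine Finset.sum_congr rfl fun j _ => ?_
      rw [Algebra.smul_def, Algebra.smul_def, map_mul, ← IsScalarTower.algebraMap_apply]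
      ring
    rw [h1, map_sum]
    ext1 r s
    rw [RingHom.mapMatrix_apply, Matrix.map_apply, Matrix.sum_apply]
    show _ = aeval x (∑ i, Polynomial.C (c i) * A (i, r, s))
    rw [map_sum]
    refine Finset.sum_congr rfl fun i _ => ?_
    rw [map_smul, Matrix.smul_apply, smul_eq_mul, map_mul (aeval x), aeval_C, ← hA (i, r, s)]
    ring
  have hdet : ∀ c : Fin m → C, (Algebra.leftMulMatrix b
      (algebraMap F K (aeval x q') * ∑ j, c j • v j)).det = aeval x (D c).det := by
    intro c
    rw [hmat, ← RingHom.map_det]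
    rfl
  have hP : ∀ c : Fin m → C, (∀ k, MvPolynomial.eval c (P k) = 0) → c = 0 := by
    intro c hc
    have h1 : (D c).det = 0 := by
      ext k
      rw [hD, hc, coeff_zero]
    have h2 : Algebra.norm F (algebraMap F K (aeval x q') * ∑ j, c j • v j) = 0 := by
      rw [Algebra.norm_eq_matrix_det b, hdet, h1, map_zero]
    rw [Algebra.norm_eq_zero_iff] at h2
    have h3 : ∑ j, c j • v j = 0 := by
      refine (mul_eq_zero.mp h2).resolve_left ?_
      simpa using hq'
    funext i
    exact Fintype.linearIndependent_iff.mp hv c h3 i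
  obtain ⟨δ, hδ, hδP⟩ := null_bound vC P hP
  have hqpos : 0 < w (algebraMap F K (aeval x q')) :=
    pos_iff_ne_zero.mpr ((Valuation.ne_zero_iff _).mpr (by simpa using hq'))
  have key : ∀ c : Fin m → C, (∀ j, vC (c j) ≤ 1) → (∃ i, vC (c i) = 1) →
      δ / w (algebraMap F K (aeval x q')) ≤ w (∑ j, c j • v j) := by
    intro c hc hci
    obtain ⟨k, hk⟩ := hδP c hc hci
    rw [← hD] at hk
    have h1 := hk.trans (gauss _ k)
    rw [← hdet] at h1
    have h2 := det_le (w := w) b (algebraMap F K (aeval x q') * ∑ j, c j • v j) (by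
      intro r s
      rw [hmat, RingHom.mapMatrix_apply, Matrix.map_apply]
      show w (algebraMap F K (aeval x (∑ i, Polynomial.C (c i) * A (i, r, s)))) ≤ 1
      rw [map_sum, map_sum]
      refine Valuation.map_sum_le _ fun i _ => ?_
      rw [map_mul, aeval_C, map_mul, ← IsScalarTower.algebraMap_apply, map_mul, hn]
      exact mul_le_one' (hc i) (hAle _))
    have h3 := h1.trans h2
    rw [map_mul] at h3
    rw [div_le_iff₀ hqpos, mul_comm]
    exact h3
  refine ⟨δ / w (algebraMap F K (aeval x q')), by positivity, fun c i => ?_⟩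
  have hne : Nonempty (Fin m) := ⟨i⟩
  obtain ⟨i0, -, hi0⟩ := Finset.exists_max_image Finset.univ (fun i => vC (c i))
    Finset.univ_nonempty
  by_cases hz : c i0 = 0
  · have h1 := hi0 i (Finset.mem_univ i)
    rw [hz, map_zero] at h1
    have h2 : vC (c i) = 0 := le_antisymm h1 zero_le
    rw [h2, mul_zero]
    exact zero_le
  · have hpos : 0 < vC (c i0) := pos_iff_ne_zero.mpr ((Valuation.ne_zero_iff _).mpr hz)
    have h1 := key (fun j => (c i0)⁻¹ * c j) (fun j => by
      rw [map_mul, map_inv₀, inv_mul_le_iff₀ hpos, mul_one]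
      exact hi0 j (Finset.mem_univ j)) ⟨i0, by rw [inv_mul_cancel₀ hz, map_one]⟩
    have h2 : ∑ j, ((c i0)⁻¹ * c j) • v j = (c i0)⁻¹ • ∑ j, c j • v j := by
      rw [Finset.smul_sum]
      exact Finset.sum_congr rfl fun j _ => by rw [smul_smul]
    rw [h2, Algebra.smul_def, map_mul, hn, map_inv₀, ← div_eq_inv_mul, le_div_iff₀ hpos] at h1
    exact (mul_le_mul' le_rfl (hi0 i (Finset.mem_univ i))).trans h1

theorem gauss_val (hn : ∀ c : C, w (algebraMap C K c) = vC c) {x : F}
    (hx : w (algebraMap F K x) ≤ 1)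
    (gauss : ∀ (f : C[X]) i, vC (f.coeff i) ≤ w (algebraMap F K (aeval x f))) (f : C[X]) :
    ∃ i, w (algebraMap F K (aeval x f)) = vC (f.coeff i) := by
  classical
  obtain ⟨i0, -, hi0⟩ := Finset.exists_max_image (Finset.range (f.natDegree + 1))
    (fun i => vC (f.coeff i)) ⟨0, by simp⟩
  refine ⟨i0, le_antisymm ?_ (gauss f i0)⟩
  rw [aeval_eq_sum_range, map_sum]
  refine Valuation.map_sum_le _ fun i hi => ?_
  rw [Algebra.smul_def, map_mul, ← IsScalarTower.algebraMap_apply, map_mul, hn, map_pow, map_pow]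
  exact (mul_le_of_le_one_right' (pow_le_one' hx i)).trans (hi0 i hi)

/-- transport of an orthonormal basis along an isometry of parametrised subspaces -/
theorem hasON_of_isometry {m : ℕ} (T T' : (Fin m → C) →ₗ[C] K)
    (hiso : ∀ a, w (T a) = w (T' a)) (h : HasON vC w (LinearMap.range T')) :
    HasON vC w (LinearMap.range T) := by
  obtain ⟨m', b', h1, h2, h3, h4⟩ := h
  choose a ha using h1
  have hb' : b' = T' ∘ a := by funext i; exact (ha i).symm
  refine ⟨m', T ∘ a, fun i => ⟨a i, rfl⟩, ?_, fun i => ?_, fun c i => ?_⟩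
  · rintro _ ⟨c, rfl⟩
    have h5 : T' c ∈ Submodule.span C (Set.range b') := h2 ⟨c, rfl⟩
    rw [hb', Set.range_comp, ← Submodule.map_span] at h5
    obtain ⟨s, hs, hsc⟩ := h5
    have h6 : T s = T c := by
      have h7 : w (T (s - c)) = 0 := by
        rw [hiso, map_sub, hsc, sub_self, map_zero]
      rw [Valuation.zero_iff, map_sub, sub_eq_zero] at h7
      exact h7
    rw [Set.range_comp, ← Submodule.map_span]
    exact ⟨s, hs, h6⟩
  · show w (T (a i)) ≤ 1
    rw [hiso, ha]; exact h3 i
  · have h5 := h4 c i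
    have h6 : ∑ j, c j • b' j = T' (∑ j, c j • a j) := by
      rw [map_sum]
      exact Finset.sum_congr rfl fun j _ => by rw [map_smul, ha]
    have h7 : ∑ j, c j • (T ∘ a) j = T (∑ j, c j • a j) := by
      rw [map_sum]
      exact Finset.sum_congr rfl fun j _ => by rw [map_smul]; rfl
    rw [h7, hiso, ← h6]
    exact h5

/-- **(ORTH, abstract form)** -/
theorem orth_of_dense [IsAlgClosed C] [FiniteDimensional F K]
    (hn : ∀ c : C, w (algebraMap C K c) = vC c) (hnt : ∃ c : C, c ≠ 0 ∧ vC c < 1) {x : F}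
    (hx : w (algebraMap F K x) ≤ 1)
    (gauss : ∀ (f : C[X]) i, vC (f.coeff i) ≤ w (algebraMap F K (aeval x f)))
    (quot : ∀ z : F, ∃ f g : C[X], aeval x g ≠ 0 ∧ z * aeval x g = aeval x f)
    {d : ℕ} (b : Fin d → K) (hb : ∀ l, w (b l) ≤ 1)
    (hON : ∀ (c : Fin d → F) l, w (algebraMap F K (c l)) ≤ w (∑ j, c j • b j))
    (dens : ∀ y : K, ∀ ε : ℝ≥0, 0 < ε → ∃ c : Fin d → F, w (y - ∑ j, c j • b j) < ε) :
    Orth vC w := by
  classical
  intro V hV
  set m := finrank C V with hm
  let bV := finBasis C V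
  let v : Fin m → K := fun j => (bV j : K)
  have hv : LinearIndependent C v := bV.linearIndependent.map' V.subtype (Submodule.ker_subtype V)
  obtain ⟨δ, hδ, hlow⟩ := lower hn hnt gauss quot v hv
  choose c hc using fun j => dens (v j) δ hδ
  let v' : Fin m → K := fun j => ∑ l, c j l • b l
  let T : (Fin m → C) →ₗ[C] K := Fintype.linearCombination C v
  let T' : (Fin m → C) →ₗ[C] K := Fintype.linearCombination C v'
  have hT : ∀ a, T a = ∑ j, a j • v j := fun a => Fintype.linearCombination_apply C v a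
  have hT' : ∀ a, T' a = ∑ j, a j • v' j := fun a => Fintype.linearCombination_apply C v' a
  have hiso : ∀ a, w (T a) = w (T' a) := by
    intro a
    by_cases ha : a = 0
    · rw [ha, LinearMap.map_zero, LinearMap.map_zero]
    obtain ⟨i1, hi1⟩ := Function.ne_iff.mp ha
    obtain ⟨i0, -, hi0⟩ := Finset.exists_max_image Finset.univ (fun i => vC (a i))
      ⟨i1, Finset.mem_univ _⟩
    have hpos : 0 < vC (a i0) := by
      refine lt_of_lt_of_le ?_ (hi0 i1 (Finset.mem_univ _))
      exact pos_iff_ne_zero.mpr ((Valuation.ne_zero_iff _).mpr hi1)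
    have h1 : w (T a - T' a) < w (T a) := by
      refine lt_of_lt_of_le ?_ (hT a ▸ hlow a i0)
      rw [hT, hT', ← Finset.sum_sub_distrib]
      refine Valuation.map_sum_lt _ (mul_pos hδ hpos).ne' fun j _ => ?_
      rw [← smul_sub, Algebra.smul_def, map_mul, hn]
      by_cases h0 : a j = 0
      · rw [h0, map_zero, zero_mul]; exact mul_pos hδ hpos
      · have h0' : 0 < vC (a j) := pos_iff_ne_zero.mpr ((Valuation.ne_zero_iff _).mpr h0)
        calc vC (a j) * w (v j - v' j) < vC (a j) * δ := mul_lt_mul_of_pos_left (hc j) h0'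
          _ ≤ vC (a i0) * δ := mul_le_mul' (hi0 j (Finset.mem_univ _)) le_rfl
          _ = δ * vC (a i0) := mul_comm _ _
    have h2 : T' a = T a - (T a - T' a) := by ring
    rw [h2]
    exact (Valuation.map_sub_eq_of_lt_left _ h1).symm
  have hrange : LinearMap.range T = V := by
    apply le_antisymm
    · rintro _ ⟨a, rfl⟩
      rw [hT]
      exact Submodule.sum_mem _ fun j _ => V.smul_mem _ (bV j).2
    · intro y hy
      refine ⟨fun j => bV.repr ⟨y, hy⟩ j, ?_⟩
      rw [hT]
      have h0 := congrArg (Subtype.val) (bV.sum_repr ⟨y, hy⟩)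
      rw [Submodule.coe_sum] at h0
      exact h0
  rw [← hrange]
  refine hasON_of_isometry T T' hiso ?_
  -- the ambient orthonormal family
  obtain ⟨q, P, hq, hP⟩ := common_den quot (fun t : Fin m × Fin d => c t.1 t.2)
  obtain ⟨iq, hiq⟩ := gauss_val hn hx gauss q
  set cq : C := q.coeff iq with hcq
  have hqK : algebraMap F K (aeval x q) ≠ 0 := by simpa using hq
  have hcq0 : cq ≠ 0 := by
    intro h
    rw [h, map_zero] at hiq
    exact hqK ((Valuation.zero_iff _).mp hiq)
  set N : ℕ := (∑ t, (P t).natDegree) + 1 with hN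
  have hdeg : ∀ t, (P t).natDegree < N := fun t =>
    Nat.lt_succ_of_le (Finset.single_le_sum (f := fun t => (P t).natDegree)
      (fun _ _ => Nat.zero_le _) (Finset.mem_univ t))
  let g : K := algebraMap C K cq * (algebraMap F K (aeval x q))⁻¹
  have hg : w g = 1 := by
    show w (algebraMap C K cq * (algebraMap F K (aeval x q))⁻¹) = 1
    rw [map_mul, map_inv₀, hn, hiq, mul_inv_cancel₀]
    exact (Valuation.ne_zero_iff _).mpr hcq0
  have hg0 : g ≠ 0 := by intro h; rw [h, map_zero] at hg; exact zero_ne_one hg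
  let u : Fin N × Fin d → K := fun t => g * (algebraMap F K x ^ (t.1 : ℕ) * b t.2)
  have hu1 : ∀ t, w (u t) ≤ 1 := by
    intro t
    show w (g * (algebraMap F K x ^ (t.1 : ℕ) * b t.2)) ≤ 1
    rw [map_mul, hg, one_mul, map_mul, map_pow]
    exact mul_le_one' (pow_le_one' hx _) (hb _)
  have hpoly : ∀ (a : Fin N → C), (algebraMap F K (aeval x (∑ i : Fin N, monomial (i : ℕ) (a i) : C[X]))) =
      ∑ i, algebraMap C K (a i) * algebraMap F K x ^ (i : ℕ) := by
    intro a
    rw [map_sum, map_sum]
    refine Finset.sum_congr rfl fun i _ => ?_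
    rw [aeval_monomial, map_mul, ← IsScalarTower.algebraMap_apply, map_pow]
  have hu2 : ∀ a : Fin N × Fin d → C, ∑ t, a t • u t = g * ∑ l, (aeval x
      (∑ i : Fin N, monomial (i : ℕ) (a (i, l)) : C[X])) • b l := by
    intro a
    rw [Fintype.sum_prod_type_right, Finset.mul_sum]
    refine Finset.sum_congr rfl fun l _ => ?_
    rw [Algebra.smul_def, hpoly, Finset.sum_mul, Finset.mul_sum]
    refine Finset.sum_congr rfl fun i _ => ?_
    show a (i, l) • (g * (algebraMap F K x ^ (i : ℕ) * b l)) = _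
    rw [Algebra.smul_def]
    ring
  have hu3 : ∀ (a : Fin N × Fin d → C) t, vC (a t) ≤ w (∑ s, a s • u s) := by
    rintro a ⟨i, l⟩
    rw [hu2, map_mul, hg, one_mul]
    refine le_trans ?_ (hON _ l)
    refine le_trans (le_of_eq ?_) (gauss _ (i : ℕ))
    congr 1
    rw [finsetSum_coeff, Finset.sum_eq_single i]
    · rw [coeff_monomial, if_pos rfl]
    · intro j _ hj
      rw [coeff_monomial, if_neg (fun h => hj (Fin.ext h))]
    · intro h; exact absurd (Finset.mem_univ i) h
  have hU : HasON vC w (Submodule.span C (Set.range u)) :=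
    HasON.of_family hn u (fun t => Submodule.subset_span ⟨t, rfl⟩) le_rfl hu1 hu3
  refine hU.mono hn ?_
  rintro _ ⟨a, rfl⟩
  rw [hT']
  refine Submodule.sum_mem _ fun j _ => Submodule.smul_mem _ _ ?_
  have h5 : v' j = ∑ t : Fin N × Fin d, (cq⁻¹ * (P (j, t.2)).coeff t.1) • u t := by
    rw [hu2]
    show ∑ l, c j l • b l = _
    rw [Finset.mul_sum]
    refine Finset.sum_congr rfl fun l _ => ?_
    have h6 : (∑ i : Fin N, monomial (i : ℕ) (cq⁻¹ * (P (j, l)).coeff i) : C[X])
        = Polynomial.C cq⁻¹ * P (j, l) := by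
      rw [Fin.sum_univ_eq_sum_range (fun i => monomial i (cq⁻¹ * (P (j, l)).coeff i)) N]
      conv_rhs => rw [(P (j, l)).as_sum_range' N (hdeg _)]
      rw [Finset.mul_sum]
      refine Finset.sum_congr rfl fun i _ => ?_
      rw [C_mul_monomial]
    show c j l • b l = g * ((aeval x (∑ i : Fin N, monomial (i : ℕ) (cq⁻¹ * (P (j, l)).coeff i) : C[X])) • b l)
    rw [h6, map_mul (aeval x), aeval_C, ← hP (j, l), Algebra.smul_def, Algebra.smul_def, map_mul,
      map_mul, ← IsScalarTower.algebraMap_apply]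
    show _ = algebraMap C K cq * (algebraMap F K (aeval x q))⁻¹ * _
    rw [map_inv₀]
    have hcqK : algebraMap C K cq ≠ 0 := by simpa using hcq0
    field_simp
  rw [h5]
  exact Submodule.sum_mem _ fun t _ => Submodule.smul_mem _ _ (Submodule.subset_span ⟨t, rfl⟩)

end lower

end Crest.Agent.R013.GR8_921
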