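import Mathlib
import Crest.Agent.R013.GR8_921
import Crest.Agent.R013.StabR_460
import Crest.Agent.R013.CLiftN1_903

/-!
# R013 / GR9: `Orth` for every norm of type 2 (helper921)

* `gauss_of_res` : `w x ≤ 1`, residue of `x` not constant ⇒ `w` is the Gauss norm on `C[x]`;
* `Out.orth` : from 83's `Out`;
* `orth` : `Red vC ρC w ρ`, `κ ≠ k`, `vC p < 1` ⇒ `Orth vC w`.
-/

set_option autoImplicit false
set_option linter.all false

namespace Crest.Agent.R013.GR9_921

open Polynomial WithZero Module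
open scoped NNReal
open Crest.Agent.R013.RR20_948 Crest.Agent.R013.RR8_948
open Crest.Agent.R013.GR2_921 Crest.Agent.R013.GR4_921
open Crest.Agent.R013.GR6_921 Crest.Agent.R013.GR8_921

section gauss

variable {C L k κ : Type*} [Field C] [Field L] [Algebra C L] [Field k] [IsAlgClosed k] [Field κ]
  [Algebra k κ] {vC : Valuation C ℝ≥0} {ρC : C → k} {w : Valuation L ℝ≥0} {ρ : L → κ}

theorem gauss_of_res (h : Red vC ρC w ρ) {x : L} (hx : w x ≤ 1)
    (hρ : ρ x ∉ Set.range (algebraMap k κ)) (f : C[X]) (i : ℕ) :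
    vC (f.coeff i) ≤ w (aeval x f) := by
  classical
  obtain ⟨i0, -, hi0⟩ := Finset.exists_max_image (insert i (Finset.range (f.natDegree + 1)))
    (fun i => vC (f.coeff i)) ⟨i, by simp⟩
  refine (hi0 i (by simp)).trans ?_
  by_cases h0 : f.coeff i0 = 0
  · rw [h0, map_zero]; exact zero_le
  set c := f.coeff i0 with hc
  have hcpos : 0 < vC c := pos_iff_ne_zero.mpr ((Valuation.ne_zero_iff _).mpr h0)
  set g : C[X] := Polynomial.C c⁻¹ * f with hg
  have hcoef : ∀ n, vC (g.coeff n) ≤ 1 := by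
    intro n
    rw [hg, coeff_C_mul, map_mul, map_inv₀, inv_mul_le_iff₀ hcpos, mul_one]
    by_cases hn : n ∈ Finset.range (f.natDegree + 1)
    · exact hi0 n (Finset.mem_insert_of_mem hn)
    · rw [Finset.mem_range, not_lt] at hn
      rw [coeff_eq_zero_of_natDegree_lt (by omega), map_zero]
      exact zero_le
  have h1 : redP ρC g ≠ 0 := by
    intro h2
    have h3 : (redP ρC g).coeff i0 = 0 := by rw [h2, coeff_zero]
    rw [coeff_redP h, hg, coeff_C_mul, ← hc, inv_mul_cancel₀ h0, h.resC.one] at h3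
    exact one_ne_zero h3
  have htr : Transcendental k (ρ x) := by
    intro halg
    have h2 : ρ x ∈ algebraicClosure k κ := mem_algebraicClosure_iff.mpr halg
    rw [hc_of_isAlgClosed (k := k) (K := κ), IntermediateField.mem_bot] at h2
    exact hρ h2
  have h4 : ρ (aeval x g) ≠ 0 := by
    rw [res_aeval h hcoef hx]
    intro h5
    exact h1 (transcendental_iff.mp htr _ h5)
  rw [h.res.ne_zero_iff (w_aeval_le h hcoef hx), hg, map_mul, aeval_C, map_mul, h.norm,
    map_inv₀, inv_mul_eq_one₀ hcpos.ne'] at h4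
  exact h4.le

end gauss

section out

universe u

open Crest.Agent.R013.StabF_83

variable {C : Type*} [Field C] {vC : Valuation C ℝ≥0}
  {F E K : Type u} [Field F] [NontriviallyNormedField E] [IsUltrametricDist E]
  [Algebra F E] [Field K] [Algebra F K] {I : Type u} [Fintype I] (o : Out F E K I)

/-- `K` is approximated at `w i` by the span of the part `i` of the basis -/
theorem out_dens (i : I) (y : K) (ε : ℝ≥0) (hε : 0 < ε) :
    ∃ c : Fin (o.d i) → F, o.w i (y - ∑ l, c l • o.b ⟨i, l⟩) < ε := by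
  classical
  obtain ⟨θ, hθ0, hθ1, hθ⟩ : ∃ θ : ℝ≥0, 0 < θ ∧ θ < 1 ∧ ∀ j : (Σ i, Fin (o.d i)), j.1 ≠ i →
      o.w i (o.b j) ≤ θ := by
    by_cases hne : (Finset.univ.filter fun j : (Σ i, Fin (o.d i)) => j.1 ≠ i).Nonempty
    · obtain ⟨j0, hj0, hmax⟩ := Finset.exists_max_image _ (fun j => o.w i (o.b j)) hne
      refine ⟨o.w i (o.b j0), ?_, o.b_lt i j0 (Finset.mem_filter.mp hj0).2, fun j hj =>
        hmax j (Finset.mem_filter.mpr ⟨Finset.mem_univ _, hj⟩)⟩
      exact pos_iff_ne_zero.mpr ((Valuation.ne_zero_iff _).mpr (o.b.ne_zero j0))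
    · refine ⟨1 / 2, by positivity, by
        rw [div_lt_one (by norm_num)]; norm_num, fun j hj => ?_⟩
      exact absurd ⟨j, Finset.mem_filter.mpr ⟨Finset.mem_univ _, hj⟩⟩ hne
  have step : ∀ (M : ℝ≥0), 0 < M → ∀ y : K, o.w i y ≤ M →
      ∃ c : Fin (o.d i) → F, o.w i (y - ∑ l, c l • o.b ⟨i, l⟩) ≤ θ * M := by
    intro M hM y hy
    obtain ⟨z, hz⟩ := o.approx (fun j => if j = i then y else 0) (θ * M) (mul_pos hθ0 hM)
    have hθM : θ * M ≤ M := mul_le_of_le_one_left' hθ1.le
    have hzi : o.w i (z - y) < θ * M := by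
      have := hz i
      rwa [if_pos rfl] at this
    have hall : ∀ j, o.w j z ≤ M := by
      intro j
      by_cases hj : j = i
      · subst hj
        have : z = (z - y) + y := by ring
        rw [this]
        exact (Valuation.map_add _ _ _).trans (max_le (hzi.le.trans hθM) hy)
      · have h := hz j
        rw [if_neg hj, sub_zero] at h
        exact h.le.trans hθM
    have h1 := (o.all_le_iff z M).mp hall
    refine ⟨fun l => o.b.repr z ⟨i, l⟩, ?_⟩
    have h2 : z - ∑ l, o.b.repr z ⟨i, l⟩ • o.b ⟨i, l⟩ =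
        ∑ j ∈ Finset.univ.erase i, ∑ l, o.b.repr z ⟨j, l⟩ • o.b ⟨j, l⟩ := by
      have h3 := o.b.sum_repr z
      rw [Fintype.sum_sigma, ← Finset.add_sum_erase Finset.univ _ (Finset.mem_univ i)] at h3
      rw [sub_eq_iff_eq_add']
      exact h3.symm
    have h3 : o.w i (z - ∑ l, o.b.repr z ⟨i, l⟩ • o.b ⟨i, l⟩) ≤ θ * M := by
      rw [h2]
      refine Valuation.map_sum_le _ fun j hj => Valuation.map_sum_le _ fun l _ => ?_
      rw [Algebra.smul_def, map_mul, o.w_alg, mul_comm θ M]
      exact mul_le_mul' (h1 _) (hθ ⟨j, l⟩ (Finset.ne_of_mem_erase hj))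
    have h4 : y - ∑ l, o.b.repr z ⟨i, l⟩ • o.b ⟨i, l⟩ =
        (z - ∑ l, o.b.repr z ⟨i, l⟩ • o.b ⟨i, l⟩) - (z - y) := by ring
    rw [h4]
    exact (Valuation.map_sub _ _ _).trans (max_le h3 hzi.le)
  have iter : ∀ (n : ℕ) (y : K), ∃ c : Fin (o.d i) → F,
      o.w i (y - ∑ l, c l • o.b ⟨i, l⟩) ≤ θ ^ n * (o.w i y + 1) := by
    intro n
    induction n with
    | zero =>
      intro y
      refine ⟨0, ?_⟩
      simp only [Pi.zero_apply, zero_smul, Finset.sum_const_zero, sub_zero, pow_zero, one_mul]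
      exact le_add_of_nonneg_right zero_le_one
    | succ n ih =>
      intro y
      obtain ⟨c, hc⟩ := ih y
      obtain ⟨c', hc'⟩ := step (θ ^ n * (o.w i y + 1)) (by positivity) _ hc
      refine ⟨c + c', ?_⟩
      have h1 : y - ∑ l, (c + c') l • o.b ⟨i, l⟩
          = y - ∑ l, c l • o.b ⟨i, l⟩ - ∑ l, c' l • o.b ⟨i, l⟩ := by
        rw [sub_sub, ← Finset.sum_add_distrib]
        congr 1
        exact Finset.sum_congr rfl fun l _ => by rw [Pi.add_apply, add_smul]
      rw [h1, pow_succ, mul_comm (θ ^ n) θ, mul_assoc]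
      exact hc'
  obtain ⟨n, hn⟩ := exists_pow_lt_of_lt_one (show (0 : ℝ≥0) < ε / (o.w i y + 1) by positivity) hθ1
  obtain ⟨c, hc⟩ := iter n y
  refine ⟨c, hc.trans_lt ?_⟩
  rwa [lt_div_iff₀ (by positivity)] at hn

end out

section main

universe u

open Crest.Agent.R013.StabF_83 Crest.Agent.R013.StabR_460

variable {C : Type*} [Field C] [IsAlgClosed C] [CharZero C] {L : Type u} [Field L] [Algebra C L]
  [Algebra (RatFunc C) L] [IsScalarTower C (RatFunc C) L] [FiniteDimensional (RatFunc C) L]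
  {k κ : Type*} [Field k] [IsAlgClosed k] [Field κ] [Algebra k κ]
  {vC : Valuation C ℝ≥0} {ρC : C → k} {w : Valuation L ℝ≥0} {ρ : L → κ}

/-- **(ORTH)** for every norm of type 2 -/
theorem orth (h : Red vC ρC w ρ) (hκ : ∃ z : κ, z ∉ Set.range (algebraMap k κ))
    (p : ℕ) [hpp : Fact p.Prime] (hp : vC (p : C) < 1) : Orth vC w := by
  classical
  have hu : Transcendental C (xK C L) := transcendental_xK
  obtain ⟨a, c, hc0, hx1, hρ⟩ := exists_good_lift h hκ hu
  set x := (xK C L - algebraMap C L a) * algebraMap C L c⁻¹ with hx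
  have hgauss := gauss_of_res h hx1.le hρ
  have hxt : Transcendental C x := by
    rw [transcendental_iff]
    intro f hf
    ext i
    have h1 := hgauss f i
    rw [hf, map_zero] at h1
    rw [coeff_zero]
    exact (Valuation.zero_iff vC).mp (le_antisymm h1 zero_le)
  have hfd : FiniteDimensional (IntermediateField.adjoin C {x}) L := CLiftN_903.fd_adjoin x hxt
  let F := IntermediateField.adjoin C {x}
  let xF : F := ⟨x, IntermediateField.subset_adjoin C {x} rfl⟩
  let w0 : Valuation F ℝ≥0 := w.comap (algebraMap F L)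
  have hval : ∀ f : C[X], algebraMap F L (aeval xF f) = aeval x f := fun f =>
    (aeval_algebraMap_apply L xF f).symm
  have hgaussF : ∀ (f : C[X]) (i : ℕ), vC (f.coeff i) ≤ w (algebraMap F L (aeval xF f)) := by
    intro f i
    rw [hval]; exact hgauss f i
  have hfrac : ∀ z : F, ∃ f g : C[X], g ≠ 0 ∧ z = aeval xF f / aeval xF g := by
    rintro ⟨z, hz⟩
    obtain ⟨f, g, hfg⟩ := IntermediateField.mem_adjoin_simple_iff C z |>.mp hz
    by_cases hg : g = 0
    · refine ⟨0, 1, one_ne_zero, ?_⟩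
      apply Subtype.ext
      rw [map_zero, zero_div]
      show z = 0
      rw [hfg, hg, map_zero, div_zero]
    · refine ⟨f, g, hg, (algebraMap F L).injective ?_⟩
      rw [map_div₀, hval, hval]
      exact hfg
  have hinj : ∀ g : C[X], g ≠ 0 → aeval xF g ≠ 0 := by
    intro g hg h0
    apply hg
    ext i
    have h1 := hgaussF g i
    rw [h0, map_zero, map_zero] at h1
    rw [coeff_zero]
    exact (Valuation.zero_iff vC).mp (le_antisymm h1 zero_le)
  obtain ⟨E, i1, i2, i3, i4, hd, hn, I, i5, ⟨o⟩⟩ := out_of_gauss (C := C) F w0 p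
    (by
      show w (algebraMap F L (p : F)) < 1
      rw [map_natCast, ← map_natCast (algebraMap C L), h.norm]; exact hp)
    xF hx1.le
    (by
      intro f i
      show w (algebraMap F L (algebraMap C F (f.coeff i))) ≤ _
      rw [← IsScalarTower.algebraMap_apply, h.norm]; exact hgaussF f i)
    hfrac L
  obtain ⟨i, hi⟩ := o.complete w (fun f => by rw [hn]; rfl)
  have hnt : ∃ c : C, c ≠ 0 ∧ vC c < 1 := ⟨(p : C), Nat.cast_ne_zero.mpr hpp.out.ne_zero, hp⟩
  refine orth_of_dense (F := F) h.norm hnt (x := xF) hx1.le hgaussF ?_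
    (fun l => o.b ⟨i, l⟩) (fun l => ?_) (fun c l => ?_) (fun y ε hε => ?_)
  · intro z
    obtain ⟨f, g, hg, hfg⟩ := hfrac z
    exact ⟨f, g, hinj g hg, by rw [hfg, div_mul_cancel₀ _ (hinj g hg)]⟩
  · rw [hi]; exact o.b_le i _
  · have := o.res_ge i c l
    rw [← hi, hn] at this
    exact this
  · have := out_dens o i y ε hε
    rw [← hi] at this
    exact this

end main

end Crest.Agent.R013.GR9_921
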