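import Mathlib
import Crest.Agent.R013.GR3_921
import Crest.Agent.R013.DescC3_116

/-!
# R013 / DCov1: the cyclic étale cover of a torsion class, over algebraically closed constants
(helper700, leaf D-COV)

`k` algebraically closed of characteristic zero, `K/k(x)` finite, `l` prime, `f : K` with
`divf f = l • D`, `f` not an `l`-th power, `L = K(y)`, `y ^ l = f`:

* `finrank_eq` : `[L : K] = l`; `exists_aut` : `σ : L ≃ₐ[K] L`, `σ y = ζ y`, `σ ≠ 1`;
* `mapPl_ne` : no nontrivial automorphism over `K` fixes a place;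
* `eR_eq_one`, `unrEv` : `L/K` is unramified everywhere;
* `gen_eq` : `gen L = l * (gen K - 1) + 1`.
* `exists_cover` : existence, packaged.
-/

set_option autoImplicit false
set_option linter.all false

namespace Crest.Agent.R013.DCov1_700

open Polynomial WithZero Module
open Crest.Agent.R013.RR1_948 Crest.Agent.R013.RR2_948
open Crest.Agent.R013.RR7_948 Crest.Agent.R013.RR8_948 Crest.Agent.R013.RR9_948
open Crest.Agent.R013.RR11_948 Crest.Agent.R013.RR12_948 Crest.Agent.R013.RR13_948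
open Crest.Agent.R013.RR14_948
open Crest.Agent.R013.RR18_948 Crest.Agent.R013.RR19_948 Crest.Agent.R013.RR20_948
open Crest.Agent.R013.RR21_948 Crest.Agent.R013.RR22_948
open Crest.Agent.R013.GR2_921
open Crest.NumberTheoryR.Sect
open scoped NNReal IntermediateField

section kummer

variable {K : Type*} [Field K] {L : Type*} [Field L] [Algebra K L]

theorem irreducible {l : ℕ} (hl : l.Prime) {f : K} (hn : ∀ g : K, g ^ l ≠ f) :
    Irreducible (X ^ l - C f) := X_pow_sub_C_irreducible_of_prime hl hn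

theorem minpoly_eq {l : ℕ} (hl : l.Prime) {f : K} (hn : ∀ g : K, g ^ l ≠ f) {y : L}
    (hy : y ^ l = algebraMap K L f) : minpoly K y = X ^ l - C f := by
  symm
  refine minpoly.eq_of_irreducible_of_monic (irreducible hl hn) ?_
    (monic_X_pow_sub_C f hl.ne_zero)
  simp [hy]

theorem isIntegral {l : ℕ} (hl : l.Prime) {f : K} {y : L}
    (hy : y ^ l = algebraMap K L f) : IsIntegral K y :=
  ⟨X ^ l - C f, monic_X_pow_sub_C f hl.ne_zero, by simp [hy]⟩

theorem finrank_eq {l : ℕ} (hl : l.Prime) {f : K} (hn : ∀ g : K, g ^ l ≠ f) {y : L}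
    (hy : y ^ l = algebraMap K L f) (hgen : K⟮y⟯ = ⊤) : finrank K L = l := by
  have h1 := IntermediateField.adjoin.finrank (isIntegral hl hy)
  rw [minpoly_eq hl hn hy, natDegree_X_pow_sub_C, hgen] at h1
  rw [← h1]
  exact (IntermediateField.finrank_top' (F := K) (E := L)).symm

theorem exists_aut {l : ℕ} (hl : l.Prime) {f : K} (hn : ∀ g : K, g ^ l ≠ f) {y : L}
    (hy : y ^ l = algebraMap K L f) (hgen : K⟮y⟯ = ⊤) {ζ : K} (hζ : ζ ^ l = 1) :
    ∃ σ : L ≃ₐ[K] L, σ y = algebraMap K L ζ * y := by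
  haveI : FiniteDimensional K L := by
    apply FiniteDimensional.of_finrank_pos
    rw [finrank_eq hl hn hy hgen]; exact hl.pos
  have h2 : aeval (algebraMap K L ζ * y) (minpoly K y) = 0 := by
    rw [minpoly_eq hl hn hy, map_sub, map_pow, aeval_X, aeval_C, mul_pow, hy, ← map_pow, hζ]
    simp
  let pb : PowerBasis K L := (IntermediateField.adjoin.powerBasis (isIntegral hl hy)).map
    ((IntermediateField.equivOfEq hgen).trans IntermediateField.topEquiv)
  have hpb : pb.gen = y := by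
    simp [pb, IntermediateField.adjoin.powerBasis_gen]
  have h3 : aeval (algebraMap K L ζ * y) (minpoly K pb.gen) = 0 := by rw [hpb]; exact h2
  let φ : L →ₐ[K] L := pb.lift _ h3
  have hφ : φ y = algebraMap K L ζ * y := by
    have := pb.lift_gen _ h3
    rw [hpb] at this
    exact this
  refine ⟨AlgEquiv.ofBijective φ (Algebra.IsAlgebraic.algHom_bijective φ), ?_⟩
  exact hφ

end kummer

section cover

variable {k : Type*} [Field k] [IsAlgClosed k] {K : Type*} [Field K] [Algebra k K]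
  [Algebra (RatFunc k) K]
  [IsScalarTower k (RatFunc k) K] [FiniteDimensional (RatFunc k) K]
  [Algebra.IsSeparable (RatFunc k) K]
  {L : Type*} [Field L] [Algebra k L] [Algebra K L] [IsScalarTower k K L] [FiniteDimensional K L]
  [Algebra (RatFunc k) L] [IsScalarTower k (RatFunc k) L] [FiniteDimensional (RatFunc k) L]
  [Algebra.IsSeparable (RatFunc k) L] [IsScalarTower (RatFunc k) K L]

/-- an automorphism multiplying an `l`-th root of `f` by `ζ ≠ 1`, `l | div f`, fixes no place -/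
theorem mapPl_ne_of {l : ℕ} (hl0 : l ≠ 0) (hlk : (l : k) ≠ 0) {f : K} (hf : f ≠ 0) {D : Pl k K →₀ ℤ}
    (hD : divf (k := k) f = (l : ℤ) • D) {y : L} (hy : y ^ l = algebraMap K L f)
    {ζ : k} (hζ : ζ ≠ 1) {σ : L ≃ₐ[K] L} (hσ : σ y = algebraMap k L ζ * y)
    (Q : Pl k L) : mapPl (σ.restrictScalars k) Q ≠ Q := by
  intro hQ
  set P : Pl k K := under K Q with hP
  obtain ⟨t, ht⟩ := P.surj (exp (-D P))
  have ht0 : t ≠ 0 := by
    rintro rfl
    rw [map_zero] at ht
    exact (exp_ne_zero ht.symm)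
  have h1 : P.v (f / t ^ l) = 1 := by
    rw [map_div₀, map_pow, ht, v_eq hf, hD]
    rw [div_eq_one_iff_eq (pow_ne_zero _ exp_ne_zero), ← exp_nsmul]
    simp
  set u : L := y / algebraMap K L t with hu
  have htL : algebraMap K L t ≠ 0 := by simpa using ht0
  have hul : u ^ l = algebraMap K L (f / t ^ l) := by
    rw [hu, div_pow, hy, map_div₀, map_pow]
  have hu1 : Q.v u = 1 := by
    have h2 : Q.v u ^ l = 1 := by
      rw [← map_pow, hul, v_algebraMap, h1, one_pow]
    have hu0 : Q.v u ≠ 0 := by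
      intro h
      rw [h, zero_pow hl0] at h2
      exact zero_ne_one h2
    have h3 : Q.v u = exp (log (Q.v u)) := (exp_log hu0).symm
    rw [h3, ← exp_nsmul, ← exp_zero, exp_inj] at h2
    have h4 : log (Q.v u) = 0 := by
      rcases smul_eq_zero.mp h2 with h | h
      · exact absurd h hl0
      · exact h
    rw [h3, h4, exp_zero]
  obtain ⟨c, hc⟩ := exists_const Q hu1.le
  have hc0 : c ≠ 0 := by
    rintro rfl
    rw [map_zero, sub_zero, hu1] at hc
    exact lt_irrefl _ hc
  have hσu : σ u = algebraMap k L ζ * u := by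
    rw [hu, map_div₀, hσ, AlgEquiv.commutes]
    ring
  have h3 : Q.v (σ (u - algebraMap k L c)) < 1 := by
    have : Q.v (σ (u - algebraMap k L c)) = Q.v (u - algebraMap k L c) := by
      conv_lhs => rw [← hQ]
      show Q.v ((σ.restrictScalars k).symm (σ (u - algebraMap k L c))) = _
      congr 1
      exact σ.symm_apply_apply _
    rw [this]; exact hc
  have hσc : σ (algebraMap k L c) = algebraMap k L c := by
    rw [IsScalarTower.algebraMap_apply k K L, AlgEquiv.commutes]
  have h4 : Q.v (algebraMap k L ((ζ - 1) * c)) < 1 := by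
    have : algebraMap k L ((ζ - 1) * c) = σ (u - algebraMap k L c) -
        (algebraMap k L ζ * (u - algebraMap k L c)) := by
      rw [map_sub, hσu, hσc, map_mul, map_sub, map_one]; ring
    rw [this]
    refine lt_of_le_of_lt (Valuation.map_sub _ _ _) (max_lt h3 ?_)
    rw [map_mul]
    have h5 : Q.v (algebraMap k L ζ) ≤ 1 := by
      by_cases hz : ζ = 0
      · rw [hz, map_zero, map_zero]; exact zero_le_one
      · rw [Q.const _ hz]
    exact lt_of_le_of_lt (mul_le_of_le_one_left' h5) hc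
  rw [Q.const _ (mul_ne_zero (sub_ne_zero.mpr hζ) hc0)] at h4
  exact lt_irrefl _ h4

variable [CharZero k]

theorem mapPl_ne {l : ℕ} (hl : l.Prime) {f : K} (hf : f ≠ 0) {D : Pl k K →₀ ℤ}
    (hD : divf (k := k) f = (l : ℤ) • D) (hn : ∀ g : K, g ^ l ≠ f) {y : L}
    (hy : y ^ l = algebraMap K L f) (hgen : K⟮y⟯ = ⊤) {σ : L ≃ₐ[K] L} (hσ : σ ≠ 1) (Q : Pl k L) :
    mapPl (σ.restrictScalars k) Q ≠ Q := by
  have hy0 : y ≠ 0 := by
    rintro rfl
    rw [zero_pow hl.ne_zero] at hy
    exact hf ((map_eq_zero (algebraMap K L)).mp hy.symm)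
  -- `σ y = ζ y`
  have h1 : (σ y / y) ^ l = 1 := by
    rw [div_pow, ← map_pow, hy, AlgEquiv.commutes, ← hy, div_self (pow_ne_zero _ hy0)]
  obtain ⟨ζ, hζ⟩ : ∃ ζ : k, algebraMap k L ζ = σ y / y := by
    have h2 : IsIntegral k (σ y / y) := ⟨X ^ l - 1, monic_X_pow_sub_C 1 hl.ne_zero, by simp [h1]⟩
    have h3 : σ y / y ∈ algebraicClosure k L := by
      rw [mem_algebraicClosure_iff]; exact h2.isAlgebraic
    rw [hc_of_isAlgClosed, IntermediateField.mem_bot] at h3
    exact h3
  have hσy : σ y = algebraMap k L ζ * y := by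
    rw [hζ, div_mul_cancel₀ _ hy0]
  have hζ1 : ζ ≠ 1 := by
    rintro rfl
    rw [map_one, one_mul] at hσy
    apply hσ
    ext z
    have hz : z ∈ K⟮y⟯ := by rw [hgen]; trivial
    have h4 : K⟮y⟯ ≤ IntermediateField.fixedField (Subgroup.zpowers σ) := by
      rw [IntermediateField.adjoin_le_iff, Set.singleton_subset_iff]
      rw [SetLike.mem_coe, IntermediateField.mem_fixedField_iff]
      intro τ hτ
      obtain ⟨n, rfl⟩ := Subgroup.mem_zpowers_iff.mp hτ
      have h1 : ∀ m : ℕ, (σ ^ m) y = y := by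
        intro m
        induction m with
        | zero => simp
        | succ m ih => rw [pow_succ, AlgEquiv.mul_apply, hσy, ih]
      have h2 : ∀ m : ℕ, (σ ^ m)⁻¹ y = y := by
        intro m
        rw [AlgEquiv.aut_inv, AlgEquiv.symm_apply_eq, h1]
      rcases n with m | m
      · simpa using h1 m
      · simpa [zpow_negSucc] using h2 (m + 1)
    exact (IntermediateField.mem_fixedField_iff _ _).mp (h4 hz) σ (Subgroup.mem_zpowers σ)
  exact mapPl_ne_of hl.ne_zero (by exact_mod_cast hl.ne_zero) hf hD hy hζ1 hσy Q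

include k in
theorem isGalois {l : ℕ} (hl : l.Prime) {f : K} (hn : ∀ g : K, g ^ l ≠ f) {y : L}
    (hf : f ≠ 0) (hy : y ^ l = algebraMap K L f) (hgen : K⟮y⟯ = ⊤) :
    ∃ σ : L ≃ₐ[K] L, σ ≠ 1 ∧ IsGalois K L := by
  have hy0 : y ≠ 0 := by
    rintro rfl
    rw [zero_pow hl.ne_zero] at hy
    exact hf ((map_eq_zero (algebraMap K L)).mp hy.symm)
  haveI : NeZero l := ⟨hl.ne_zero⟩
  haveI : NeZero (l : k) := ⟨by exact_mod_cast hl.ne_zero⟩
  obtain ⟨ζ, hζ⟩ := HasEnoughRootsOfUnity.exists_primitiveRoot k l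
  obtain ⟨σ, hσ⟩ := exists_aut hl hn hy hgen (ζ := algebraMap k K ζ)
    (by rw [← map_pow, hζ.pow_eq_one, map_one])
  have h1 : σ ≠ 1 := by
    rintro rfl
    rw [AlgEquiv.one_apply] at hσ
    have h2 : algebraMap K L (algebraMap k K ζ) = 1 := by
      have := congrArg (· / y) hσ
      simp only [div_self hy0, mul_div_cancel_right₀ _ hy0] at this
      exact this.symm
    rw [← IsScalarTower.algebraMap_apply] at h2
    have h3 : ζ = 1 := (algebraMap k L).injective (by rw [h2, map_one])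
    exact hζ.ne_one hl.one_lt h3
  exact ⟨σ, h1, isGalois_of_prime hl (finrank_eq hl hn hy hgen) h1⟩

theorem eR_eq_one {l : ℕ} (hl : l.Prime) {f : K} (hf : f ≠ 0) {D : Pl k K →₀ ℤ}
    (hD : divf (k := k) f = (l : ℤ) • D) (hn : ∀ g : K, g ^ l ≠ f) {y : L}
    (hy : y ^ l = algebraMap K L f) (hgen : K⟮y⟯ = ⊤) (Q : Pl k L) : eR K Q = 1 := by
  classical
  obtain ⟨σ, hσ, hgal⟩ := isGalois (k := k) hl hn hf hy hgen
  have h1 := card_above_mul (K := K) Q
  rw [degP_eq_one, degP_eq_one, finrank_eq hl hn hy hgen] at h1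
  simp only [mul_one, Nat.div_one] at h1
  have h2 : 1 < (above L (under K Q)).card := by
    rw [Finset.one_lt_card]
    refine ⟨Q, mem_above.mpr rfl, mapPl (σ.restrictScalars k) Q, mem_above.mpr ?_,
      fun h => mapPl_ne hl hf hD hn hy hgen hσ Q h.symm⟩
    exact under_mapPl (k := k) σ Q
  have h3 : eR K Q ∣ l := ⟨_, by rw [← h1]; ring⟩
  rcases (Nat.dvd_prime hl).mp h3 with h | h
  · exact h
  · exfalso
    rw [h] at h1
    have := Nat.eq_of_mul_eq_mul_right hl.pos (h1.trans (one_mul l).symm)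
    omega

theorem unrEv {l : ℕ} (hl : l.Prime) {f : K} (hf : f ≠ 0) {D : Pl k K →₀ ℤ}
    (hD : divf (k := k) f = (l : ℤ) • D) (hn : ∀ g : K, g ^ l ≠ f) {y : L}
    (hy : y ^ l = algebraMap K L f) (hgen : K⟮y⟯ = ⊤) : Unr10_957.UnrEv k K L := by
  haveI : CharZero K := charZero_of_injective_algebraMap (algebraMap k K).injective
  haveI : Algebra.IsAlgebraic K L := inferInstance
  haveI : Algebra.IsSeparable K L := Algebra.IsAlgebraic.isSeparable_of_perfectField
  exact DescC_116.eR_eq_one_iff_unrEv.mp (eR_eq_one hl hf hD hn hy hgen)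

theorem gen_eq {l : ℕ} (hl : l.Prime) {f : K} (hf : f ≠ 0) {D : Pl k K →₀ ℤ}
    (hD : divf (k := k) f = (l : ℤ) • D) (hn : ∀ g : K, g ^ l ≠ f) {y : L}
    (hy : y ^ l = algebraMap K L f) (hgen : K⟮y⟯ = ⊤) :
    (gen k L : ℤ) - 1 = l * (gen k K - 1) := by
  haveI : CharZero K := charZero_of_injective_algebraMap (algebraMap k K).injective
  haveI : Algebra.IsSeparable K L := Algebra.IsAlgebraic.isSeparable_of_perfectField
  have h1 := hurwitz_unramified (k := k) (K := K) (L := L) hc_of_isAlgClosed hc_of_isAlgClosed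
    (eR_eq_one hl hf hD hn hy hgen)
  rw [finrank_eq hl hn hy hgen] at h1
  linarith

end cover

section exist

universe u

variable {k : Type*} [Field k] [IsAlgClosed k] [CharZero k] {K : Type u} [Field K] [Algebra k K]
  [Algebra (RatFunc k) K]
  [IsScalarTower k (RatFunc k) K] [FiniteDimensional (RatFunc k) K]
  [Algebra.IsSeparable (RatFunc k) K]

/-- **(D-COV)** the cyclic étale cover of degree `l` of a class of order `l`: `L = K(y)` inside
`AlgebraicClosure K` -/
theorem cover {l : ℕ} (hl : l.Prime) {f : K} (hf : f ≠ 0) {D : Pl k K →₀ ℤ}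
    (hD : divf (k := k) f = (l : ℤ) • D) (hn : ∀ g : K, g ^ l ≠ f) {y : AlgebraicClosure K}
    (hy : y ^ l = algebraMap K (AlgebraicClosure K) f) :
    FiniteDimensional K K⟮y⟯ ∧ IsGalois K K⟮y⟯ ∧ finrank K K⟮y⟯ = l ∧
      Unr10_957.UnrEv k K K⟮y⟯ ∧ GR3_921.HasGen k K⟮y⟯ (l * (gen k K - 1) + 1) ∧
      ∀ (σ : K⟮y⟯ ≃ₐ[K] K⟮y⟯), σ ≠ 1 → ∀ Q : Pl k K⟮y⟯, mapPl (σ.restrictScalars k) Q ≠ Q := by
  have hint : IsIntegral K y := isIntegral hl hy
  haveI hfin : FiniteDimensional K K⟮y⟯ := IntermediateField.adjoin.finiteDimensional hint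
  haveI : IsScalarTower (RatFunc k) K K⟮y⟯ := IsScalarTower.of_algebraMap_eq (fun x => rfl)
  haveI : FiniteDimensional (RatFunc k) K⟮y⟯ := FiniteDimensional.trans (RatFunc k) K K⟮y⟯
  haveI : IsScalarTower k (RatFunc k) K⟮y⟯ := Unr4_957.tower_IF _
  haveI : CharZero (RatFunc k) :=
    charZero_of_injective_algebraMap (algebraMap k (RatFunc k)).injective
  haveI : Algebra.IsSeparable (RatFunc k) K⟮y⟯ := Algebra.IsAlgebraic.isSeparable_of_perfectField
  let y' : K⟮y⟯ := ⟨y, IntermediateField.mem_adjoin_simple_self K y⟩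
  have hy' : y' ^ l = algebraMap K K⟮y⟯ f := Subtype.ext hy
  have hgen : IntermediateField.adjoin K {y'} = ⊤ := by
    apply IntermediateField.map_injective (K⟮y⟯).val
    rw [IntermediateField.adjoin_map, Set.image_singleton]
    show K⟮y⟯ = _
    rw [← AlgHom.fieldRange_eq_map, IntermediateField.fieldRange_val]
  obtain ⟨σ, _, hgal⟩ := isGalois (k := k) hl hn hf hy' hgen
  refine ⟨hfin, hgal, finrank_eq hl hn hy' hgen, unrEv hl hf hD hn hy' hgen, ?_,
    fun σ hσ Q => mapPl_ne hl hf hD hn hy' hgen hσ Q⟩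
  have h1 := gen_eq hl hf hD hn hy' hgen
  have h2 : gen k K⟮y⟯ = l * (gen k K - 1) + 1 := by
    have h3 : 1 ≤ gen k K := by
      by_contra hcon
      have h4 : gen k K = 0 := by omega
      rw [h4] at h1
      have := hl.two_le
      push_cast at h1
      omega
    zify [h3]
    linarith
  rw [← h2]
  exact GR3_921.hasGen_gen k K⟮y⟯

end exist

end Crest.Agent.R013.DCov1_700
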