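import Mathlib
import Crest.Agent.R013.Hens3_899

/-!
R013 / HENS, part 5 (helper899): extensions of `w|K` to an algebraic extension `L/K` and embeddings
`L → Ω`: every extension comes from an embedding, two embeddings give the same valuation ring iff
they differ by an element of `decomp K w`, the number of embeddings giving a fixed valuation ring is
the local degree `[hens K w · f(L) : hens K w]`, and the local degrees add up to `[L : K]`.
-/

set_option autoImplicit false

namespace Crest.Agent.R013.Hens_899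

/-- every valuation extends to every overfield (up to equivalence) -/
theorem exists_extend {L Ω Γ : Type*} [Field L] [Field Ω] [Algebra L Ω]
    [LinearOrderedCommGroupWithZero Γ] (v : Valuation L Γ) :
    ∃ B : ValuationSubring Ω, ∀ x : L, algebraMap L Ω x ∈ B ↔ v x ≤ 1 := by
  obtain ⟨B, h, hB⟩ := IsLocalRing.exists_factor_valuationRing (R := v.valuationSubring)
    ((algebraMap L Ω).comp v.valuationSubring.subtype)
  refine ⟨B, fun x => ⟨fun hx => ?_, fun hx => h ⟨x, hx⟩⟩⟩
  by_contra hcon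
  push Not at hcon
  have hx0 : x ≠ 0 := by
    rintro rfl
    simp at hcon
  have h1 : v x⁻¹ < 1 := by
    rw [map_inv₀]
    exact inv_lt_one_of_one_lt₀ hcon
  have h2 : IsUnit (⟨x⁻¹, h1.le⟩ : v.valuationSubring) := by
    apply hB.map_nonunit
    rw [isUnit_iff_exists_inv]
    refine ⟨⟨algebraMap L Ω x, hx⟩, Subtype.ext ?_⟩
    change algebraMap L Ω x⁻¹ * algebraMap L Ω x = 1
    rw [← map_mul, inv_mul_cancel₀ hx0, map_one]
  obtain ⟨y, hy⟩ := isUnit_iff_exists_inv.1 h2
  have hy' : x⁻¹ * (y : L) = 1 := congrArg Subtype.val hy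
  have hyx : (y : L) = x := by
    rw [inv_mul_eq_iff_eq_mul₀ hx0, mul_one] at hy'
    exact hy'
  have h3 : v (y : L) ≤ 1 := y.2
  rw [hyx] at h3
  exact absurd h3 (not_le.2 hcon)

section Emb

variable {K Ω : Type*} [Field K] [Field Ω] [Algebra K Ω]
variable {Γ Γ' : Type*} [LinearOrderedCommGroupWithZero Γ] [LinearOrderedCommGroupWithZero Γ']
variable {L : Type*} [Field L] [Algebra K L]

/-- **every extension of `w|K` to `L` comes from an embedding `L → Ω`** -/
theorem exists_emb [IsGalois K Ω] (w : Valuation Ω Γ) (f₀ : L →ₐ[K] Ω) (v : Valuation L Γ')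
    (h : ∀ a : K, w (algebraMap K Ω a) ≤ 1 ↔ v (algebraMap K L a) ≤ 1) :
    ∃ f : L →ₐ[K] Ω, ∀ x, w (f x) ≤ 1 ↔ v x ≤ 1 := by
  let _ : Algebra L Ω := f₀.toRingHom.toAlgebra
  obtain ⟨B, hB⟩ := exists_extend (L := L) (Ω := Ω) v
  obtain ⟨σ, hσ⟩ := exists_conj w B.valuation (fun a => by
    rw [h a, ValuationSubring.valuation_le_one_iff, ← hB]
    change algebraMap L Ω (algebraMap K L a) ∈ B ↔ _
    have : algebraMap L Ω (algebraMap K L a) = algebraMap K Ω a := f₀.commutes a
    rw [this])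
  refine ⟨(σ : Ω →ₐ[K] Ω).comp f₀, fun x => ?_⟩
  have h1 := hσ (f₀ x)
  rw [ValuationSubring.valuation_le_one_iff] at h1
  rw [← hB x]
  exact h1

theorem exists_emb' [IsGalois K Ω] [IsAlgClosed Ω] [Algebra.IsAlgebraic K L] (w : Valuation Ω Γ)
    (v : Valuation L Γ')
    (h : ∀ a : K, w (algebraMap K Ω a) ≤ 1 ↔ v (algebraMap K L a) ≤ 1) :
    ∃ f : L →ₐ[K] Ω, ∀ x, w (f x) ≤ 1 ↔ v x ≤ 1 :=
  exists_emb w IsAlgClosed.lift v h

/-- **two embeddings inducing the same valuation ring differ by an element of `decomp K w`** -/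
theorem emb_conj [IsGalois K Ω] [Algebra.IsAlgebraic K L] (w : Valuation Ω Γ) (f g : L →ₐ[K] Ω)
    (h : ∀ x, w (f x) ≤ 1 ↔ w (g x) ≤ 1) :
    ∃ σ ∈ decomp K w, ∀ x, σ (f x) = g x := by
  let _ : Algebra L Ω := f.toRingHom.toAlgebra
  have hKL : IsScalarTower K L Ω := IsScalarTower.of_algebraMap_eq fun a => (f.commutes a).symm
  -- extend `g` to an automorphism `τ` with `τ ∘ f = g`
  have hnorm : Normal K Ω := inferInstance
  let e : f.fieldRange ≃ₐ[K] g.fieldRange :=
    (AlgEquiv.ofInjectiveField f).symm.trans (AlgEquiv.ofInjectiveField g)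
  set τ : Ω ≃ₐ[K] Ω := AlgEquiv.liftNormal e Ω with hτ
  have hτf : ∀ x, τ (f x) = g x := by
    intro x
    have h1 : τ ((algebraMap f.fieldRange Ω) (AlgEquiv.ofInjectiveField f x)) =
      (algebraMap g.fieldRange Ω) (e (AlgEquiv.ofInjectiveField f x)) :=
      AlgEquiv.liftNormal_commutes e Ω _
    have h2 : e (AlgEquiv.ofInjectiveField f x) = AlgEquiv.ofInjectiveField g x := by
      change (AlgEquiv.ofInjectiveField g) ((AlgEquiv.ofInjectiveField f).symm
        (AlgEquiv.ofInjectiveField f x)) = _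
      rw [AlgEquiv.symm_apply_apply]
    rw [h2] at h1
    exact h1
  have hgal : IsGalois L Ω := IsGalois.tower_top_of_isGalois K L Ω
  obtain ⟨ρ, hρ⟩ := exists_conj (K := L) (w.comap (τ : Ω →+* Ω)) w (fun a => by
    change w (τ (f a)) ≤ 1 ↔ w (f a) ≤ 1
    rw [hτf, h])
  refine ⟨τ * ρ.restrictScalars K, mem_decomp_of_le fun x hx => (hρ x).2 hx, fun x => ?_⟩
  rw [AlgEquiv.mul_apply]
  change τ (ρ (f x)) = g x
  have h1 : ρ (f x) = f x := ρ.commutes x
  rw [h1, hτf]

/-- the embeddings inducing the same valuation ring as `f` -/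
def orbEmb (w : Valuation Ω Γ) (f : L →ₐ[K] Ω) : Set (L →ₐ[K] Ω) :=
  {g | ∀ x, w (g x) ≤ 1 ↔ w (f x) ≤ 1}

theorem mem_orbEmb_iff [IsGalois K Ω] [Algebra.IsAlgebraic K L] {w : Valuation Ω Γ}
    {f g : L →ₐ[K] Ω} : g ∈ orbEmb w f ↔ ∃ σ ∈ decomp K w, ∀ x, σ (f x) = g x := by
  constructor
  · intro h
    exact emb_conj w f g fun x => (h x).symm
  · rintro ⟨σ, hσ, h⟩ x
    rw [← h, hσ]

/-- the local extension `hens K w · f(L)` over `hens K w` -/
def locExt (w : Valuation Ω Γ) (f : L →ₐ[K] Ω) : IntermediateField (hens K w) Ω :=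
  IntermediateField.adjoin (hens K w) (Set.range f)

theorem locExt_finite [FiniteDimensional K L] (w : Valuation Ω Γ) (f : L →ₐ[K] Ω) :
    FiniteDimensional (hens K w) (locExt w f) := by
  classical
  obtain ⟨s, hs⟩ := (inferInstance : Module.Finite K L)
  have h1 : locExt w f = IntermediateField.adjoin (hens K w) (f '' (s : Set L)) := by
    apply le_antisymm
    · rw [locExt, IntermediateField.adjoin_le_iff]
      rintro _ ⟨x, rfl⟩
      have hx : x ∈ Submodule.span K (s : Set L) := by rw [hs]; trivial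
      change f x ∈ IntermediateField.adjoin (hens K w) (f '' (s : Set L))
      induction hx using Submodule.span_induction with
      | mem y hy => exact IntermediateField.subset_adjoin _ _ (Set.mem_image_of_mem f hy)
      | zero => rw [map_zero]; exact zero_mem _
      | add y z _ _ hy hz => rw [map_add]; exact add_mem hy hz
      | smul a y _ hy =>
        rw [map_smul, Algebra.smul_def]
        exact mul_mem ((IntermediateField.adjoin (hens K w) (f '' (s : Set L))).algebraMap_mem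
          (algebraMap K (hens K w) a)) hy
    · exact IntermediateField.adjoin.mono _ _ _ (Set.image_subset_range f _)
  rw [h1]
  apply IntermediateField.finiteDimensional_adjoin
  rintro _ ⟨x, -, rfl⟩
  have : IsIntegral K (f x) := (Algebra.IsIntegral.isIntegral (R := K) x).map f
  exact this.tower_top

/-- **the number of embeddings inducing a given valuation ring is the local degree** -/
theorem card_orbEmb [IsGalois K Ω] [FiniteDimensional K L] (w : Valuation Ω Γ)
    (f : L →ₐ[K] Ω) :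
    Nat.card (orbEmb w f) = Module.finrank (hens K w) (locExt w f) := by
  classical
  have := locExt_finite w f
  have hgal : IsGalois (hens K w) Ω := inferInstance
  have hsep : Algebra.IsSeparable (hens K w) (locExt w f) :=
    Algebra.isSeparable_tower_bot_of_isSeparable (hens K w) (locExt w f) Ω
  rw [← AlgHom.natCard_of_splits (hens K w) (locExt w f) Ω (fun x => by
    have h1 : minpoly (hens K w) x = minpoly (hens K w) (x : Ω) :=
      (minpoly.algebraMap_eq (algebraMap (locExt w f) Ω).injective x).symm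
    rw [h1]
    exact Normal.splits inferInstance (x : Ω))]
  have hmem : ∀ x, f x ∈ locExt w f := fun x =>
    IntermediateField.subset_adjoin _ _ (Set.mem_range_self x)
  -- the map `φ ↦ φ ∘ f`
  let f' : L →ₐ[K] locExt w f :=
    { toFun := fun x => ⟨f x, hmem x⟩
      map_one' := Subtype.ext (map_one f)
      map_mul' := fun x y => Subtype.ext (map_mul f x y)
      map_zero' := Subtype.ext (map_zero f)
      map_add' := fun x y => Subtype.ext (map_add f x y)
      commutes' := fun a => Subtype.ext (f.commutes a) }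
  symm
  refine Nat.card_congr (Equiv.ofBijective
    (fun φ : locExt w f →ₐ[hens K w] Ω =>
      (⟨(φ.restrictScalars K).comp f', ?_⟩ : orbEmb w f)) ⟨?_, ?_⟩)
  · rw [mem_orbEmb_iff]
    obtain ⟨σ, hσ⟩ : ∃ σ : Ω ≃ₐ[hens K w] Ω, ∀ y : locExt w f, σ y = φ y := by
      let e : locExt w f ≃ₐ[hens K w] φ.fieldRange := AlgEquiv.ofInjectiveField φ
      refine ⟨AlgEquiv.liftNormal e Ω, fun y => ?_⟩
      exact AlgEquiv.liftNormal_commutes e Ω y
    refine ⟨σ.restrictScalars K, ?_, fun x => ?_⟩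
    · exact fun x => inv_hens w σ x
    · exact hσ ⟨f x, hmem x⟩
  · intro φ ψ h
    have h1 : (φ.restrictScalars K).comp f' = (ψ.restrictScalars K).comp f' :=
      congrArg Subtype.val h
    have h2 : ∀ x, φ ⟨f x, hmem x⟩ = ψ ⟨f x, hmem x⟩ := fun x => DFunLike.congr_fun h1 x
    apply AlgHom.ext
    rintro ⟨y, hy⟩
    induction hy using IntermediateField.adjoin_induction with
    | mem y hy =>
      obtain ⟨x, rfl⟩ := hy
      exact h2 x
    | algebraMap a =>
      have h3 : (⟨algebraMap (hens K w) Ω a, (locExt w f).algebraMap_mem a⟩ : locExt w f) =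
        algebraMap (hens K w) (locExt w f) a := rfl
      change φ ⟨algebraMap (hens K w) Ω a, (locExt w f).algebraMap_mem a⟩ =
        ψ ⟨algebraMap (hens K w) Ω a, (locExt w f).algebraMap_mem a⟩
      rw [h3, φ.commutes, ψ.commutes]
    | add y z hy hz h1 h2 =>
      have e : ∀ χ : locExt w f →ₐ[hens K w] Ω, χ ⟨y + z, add_mem hy hz⟩ =
          χ ⟨y, hy⟩ + χ ⟨z, hz⟩ := fun χ => map_add χ (⟨y, hy⟩ : locExt w f) ⟨z, hz⟩
      exact (e φ).trans ((congrArg₂ (· + ·) h1 h2).trans (e ψ).symm)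
    | inv y hy h1 =>
      have e : ∀ χ : locExt w f →ₐ[hens K w] Ω, χ ⟨y⁻¹, inv_mem hy⟩ =
          (χ ⟨y, hy⟩)⁻¹ := fun χ => map_inv₀ χ (⟨y, hy⟩ : locExt w f)
      exact (e φ).trans ((congrArg (·⁻¹) h1).trans (e ψ).symm)
    | mul y z hy hz h1 h2 =>
      have e : ∀ χ : locExt w f →ₐ[hens K w] Ω, χ ⟨y * z, mul_mem hy hz⟩ =
          χ ⟨y, hy⟩ * χ ⟨z, hz⟩ := fun χ => map_mul χ (⟨y, hy⟩ : locExt w f) ⟨z, hz⟩
      exact (e φ).trans ((congrArg₂ (· * ·) h1 h2).trans (e ψ).symm)
  · rintro ⟨g, hg⟩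
    rw [mem_orbEmb_iff] at hg
    obtain ⟨σ, hσ, h⟩ := hg
    have hσ' : σ ∈ (hens K w).fixingSubgroup := by rw [fixingSubgroup_hens]; exact hσ
    rw [IntermediateField.mem_fixingSubgroup_iff] at hσ'
    let τ : Ω ≃ₐ[hens K w] Ω := { σ.toRingEquiv with commutes' := fun r => hσ' r.1 r.2 }
    refine ⟨(τ : Ω →ₐ[hens K w] Ω).comp (locExt w f).val, Subtype.ext (AlgHom.ext fun x => ?_)⟩
    exact h x

/-- the number of embeddings of `L` is the degree -/
theorem card_emb [IsGalois K Ω] [FiniteDimensional K L] (f₀ : L →ₐ[K] Ω) :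
    Nat.card (L →ₐ[K] Ω) = Module.finrank K L := by
  have hsep : Algebra.IsSeparable K L := Algebra.IsSeparable.of_algHom K Ω f₀
  refine AlgHom.natCard_of_splits K L Ω (fun x => ?_)
  have h1 : minpoly K x = minpoly K (f₀ x) :=
    (minpoly.algHom_eq f₀ f₀.injective x).symm
  rw [h1]
  exact Normal.splits inferInstance (f₀ x)

/-- **sum of the local degrees**, indexed by representatives `F i` of the classes -/
theorem sum_locDeg [IsGalois K Ω] [FiniteDimensional K L] (w : Valuation Ω Γ)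
    {ι : Type*} [Fintype ι] (F : ι → (L →ₐ[K] Ω))
    (hinj : ∀ i j, (∀ x, w (F i x) ≤ 1 ↔ w (F j x) ≤ 1) → i = j)
    (hsurj : ∀ g : L →ₐ[K] Ω, ∃ i, ∀ x, w (g x) ≤ 1 ↔ w (F i x) ≤ 1) (f₀ : L →ₐ[K] Ω) :
    ∑ i, Module.finrank (hens K w) (locExt w (F i)) = Module.finrank K L := by
  classical
  have hfin : Finite (L →ₐ[K] Ω) := by
    apply Nat.finite_of_card_ne_zero
    rw [card_emb f₀]
    exact Module.finrank_pos.ne'
  have : Fintype (L →ₐ[K] Ω) := Fintype.ofFinite _
  choose c hc using hsurj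
  rw [← card_emb f₀, Nat.card_eq_fintype_card, ← Finset.card_univ,
    Finset.card_eq_sum_card_fiberwise (f := c) (t := Finset.univ) (fun _ _ => Finset.mem_univ _)]
  apply Finset.sum_congr rfl
  intro i _
  rw [← card_orbEmb w (F i), Nat.card_eq_fintype_card, ← Fintype.card_coe]
  apply Fintype.card_congr
  refine Equiv.subtypeEquivRight fun g => ?_
  rw [Finset.mem_filter]
  constructor
  · intro hg
    exact ⟨Finset.mem_univ _, hinj _ _ fun x => ((hc g x).symm.trans (hg x))⟩
  · rintro ⟨-, rfl⟩ x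
    exact hc g x

/-- **sum of the local degrees**, indexed by the inequivalent extensions `v i` of `w|K` to `L` -/
theorem sum_locDeg_val [IsGalois K Ω] [FiniteDimensional K L] (w : Valuation Ω Γ)
    {ι : Type*} [Fintype ι] (v : ι → Valuation L Γ')
    (hv : ∀ i, ∀ a : K, w (algebraMap K Ω a) ≤ 1 ↔ v i (algebraMap K L a) ≤ 1)
    (hne : ∀ i j, (∀ x, v i x ≤ 1 ↔ v j x ≤ 1) → i = j)
    (hall : ∀ g : L →ₐ[K] Ω, ∃ i, ∀ x, w (g x) ≤ 1 ↔ v i x ≤ 1) (f₀ : L →ₐ[K] Ω) :
    ∃ F : ι → (L →ₐ[K] Ω), (∀ i x, w (F i x) ≤ 1 ↔ v i x ≤ 1) ∧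
      ∑ i, Module.finrank (hens K w) (locExt w (F i)) = Module.finrank K L := by
  choose F hF using fun i => exists_emb w f₀ (v i) (hv i)
  refine ⟨F, hF, sum_locDeg w F (fun i j h => hne i j fun x => ?_) (fun g => ?_) f₀⟩
  · rw [← hF i, ← hF j, h]
  · obtain ⟨i, hi⟩ := hall g
    exact ⟨i, fun x => (hi x).trans (hF i x).symm⟩

end Emb

end Crest.Agent.R013.Hens_899
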