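import Crest.Agent.R013.RZ3_365
import Crest.Agent.R013.Lift6_903
import Crest.Agent.R013.Hens5_899
import Crest.Agent.R013.Good2_940
import Crest.Agent.R013.RR20_948
import Crest.Agent.R013.LiftA_168

/-!
# Extension of norms to the level of `C`, the gluing theorem for `K'/L(X)` (row 13, LIFT; helper365)
-/

set_option autoImplicit false

open scoped NNReal Polynomial
open Polynomial (aeval)

namespace Crest.Agent.R013.RZ_365

/-- Real valued valuations extend to algebraic extensions. -/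
theorem exists_ext_val {F K : Type*} [Field F] [Field K] [Algebra F K] [Algebra.IsAlgebraic F K]
    (v : Valuation F ℝ≥0) : ∃ w : Valuation K ℝ≥0, ∀ a, w (algebraMap F K a) = v a := by
  obtain ⟨B, hB⟩ := Hens_899.exists_extend (Ω := K) v
  obtain ⟨w, hw, -⟩ := exists_real_of_isAlgebraic v B hB
  exact ⟨w, hw⟩

section Unique

variable {k C : Type*} [NormedField k] [CompleteSpace k] [IsUltrametricDist k]
  [Field C] [Algebra k C] [Algebra.IsAlgebraic k C]

/-- The extension of a complete norm to an algebraic extension is unique. -/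
theorem ext_unique (hnt : ∃ a : k, a ≠ 0 ∧ ‖a‖ < 1) {n1 n2 : Valuation C ℝ≥0}
    (h1 : ∀ c : k, n1 (algebraMap k C c) = ‖c‖₊) (h2 : ∀ c : k, n2 (algebraMap k C c) = ‖c‖₊) :
    n1 = n2 := by
  obtain ⟨a, ha0, ha1⟩ := hnt
  let inst : NontriviallyNormedField k :=
    { (inferInstance : NormedField k) with
      non_trivial := ⟨a⁻¹, by
        rw [norm_inv]; exact (one_lt_inv₀ (norm_pos_iff.2 ha0)).2 ha1⟩ }
  have key : ∀ n : Valuation C ℝ≥0, (∀ c : k, n (algebraMap k C c) = ‖c‖₊) →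
      ∀ x : C, (n x : ℝ) = spectralNorm k C x := by
    intro n hn x
    have := spectralNorm_unique_field_norm_ext (K := k) (L := C) (f := LiftA_168.abv n)
      (fun c => by rw [LiftA_168.abv_apply, hn]; rfl) x
    rwa [LiftA_168.abv_apply] at this
  ext x
  rw [key n1 h1, key n2 h2]

/-- **EXT.** A norm `v` on `K'` over the complete field `k` extends to `Kc ⊇ K', C`, and the extension
is the given norm on `C`. -/
theorem exists_ext_val_C {K' Kc : Type*} [Field K'] [Field Kc] [Algebra k K'] [Algebra C Kc]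
    [Algebra k Kc] [IsScalarTower k C Kc] [Algebra K' Kc] [IsScalarTower k K' Kc]
    [Algebra.IsAlgebraic K' Kc] (hnt : ∃ a : k, a ≠ 0 ∧ ‖a‖ < 1)
    (nC : Valuation C ℝ≥0) (hnC : ∀ c : k, nC (algebraMap k C c) = ‖c‖₊)
    (v : Valuation K' ℝ≥0) (hv : ∀ c : k, v (algebraMap k K' c) = ‖c‖₊) :
    ∃ w : Valuation Kc ℝ≥0, (∀ a, w (algebraMap K' Kc a) = v a) ∧
      ∀ c : C, w (algebraMap C Kc c) = nC c := by
  obtain ⟨w, hw⟩ := exists_ext_val (K := Kc) v
  refine ⟨w, hw, ?_⟩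
  have h1 : w.comap (algebraMap C Kc) = nC := by
    refine ext_unique (k := k) hnt (fun c => ?_) hnC
    rw [Valuation.comap_apply, ← IsScalarTower.algebraMap_apply k C Kc,
      IsScalarTower.algebraMap_apply k K' Kc, hw, hv]
  intro c
  rw [← h1, Valuation.comap_apply]

/-- The hypothesis of the gluing theorem at a circle `|z| = r`, `|π| < r ^ e`, from the output
`(e, G)` of `lift3`. -/
theorem hf_of_G {K' Kc : Type*} [Field K'] [Field Kc] [Algebra k K'] [Algebra C Kc]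
    [Algebra k Kc] [IsScalarTower k C Kc] [Algebra K' Kc] [IsScalarTower k K' Kc]
    [Algebra.IsAlgebraic K' Kc] (hnt : ∃ a : k, a ≠ 0 ∧ ‖a‖ < 1)
    (nC : Valuation C ℝ≥0) (hnC : ∀ c : k, nC (algebraMap k C c) = ‖c‖₊)
    {π : C} {z h0 : Kc} {N e : ℕ} {G : Finset Kc} (hG0 : ∀ g ∈ G, g ≠ 0)
    (hG : ∀ w : Valuation Kc ℝ≥0, (∀ c : C, w (algebraMap C Kc c) = nC c) → w z < 1 →
      w (algebraMap C Kc π) < w z ^ e → ∃ g ∈ G, w (h0 * g ^ N - 1) < 1)
    {z' h0' : K'} (hz : algebraMap K' Kc z' = z) (hh0 : algebraMap K' Kc h0' = h0)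
    (hG' : ∀ g ∈ G, ∃ g' : K', algebraMap K' Kc g' = g)
    (v : Valuation K' ℝ≥0) (hv : ∀ c : k, v (algebraMap k K' c) = ‖c‖₊) (hvz : v z' < 1)
    (hvπ : nC π < v z' ^ e) :
    ∃ w : K', w ≠ 0 ∧ v (h0' - w ^ N) < v h0' := by
  obtain ⟨W, hW, hWC⟩ := exists_ext_val_C (Kc := Kc) hnt nC hnC v hv
  obtain ⟨g, hg, hg1⟩ := hG W hWC (by rw [← hz, hW]; exact hvz)
    (by rw [hWC, ← hz, hW]; exact hvπ)
  obtain ⟨g', hg'⟩ := hG' g hg
  have hg0 : g' ≠ 0 := by
    rintro rfl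
    rw [map_zero] at hg'
    exact hG0 g hg hg'.symm
  have h1 : v (h0' * g' ^ N - 1) < 1 := by
    rw [← hW, map_sub, map_mul, map_pow, map_one, hh0, hg']
    exact hg1
  refine ⟨g'⁻¹, inv_ne_zero hg0, ?_⟩
  have h2 : v (h0' * g' ^ N) = 1 := by
    have h3 : h0' * g' ^ N = 1 + (h0' * g' ^ N - 1) := by ring
    rw [h3, Valuation.map_add_eq_of_lt_left _ (by rw [map_one]; exact h1), map_one]
  have hgN : g' ^ N ≠ 0 := pow_ne_zero _ hg0
  have hvg : v (g' ^ N) ≠ 0 := (v.ne_zero_iff).2 hgN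
  have h4 : h0' - g'⁻¹ ^ N = (h0' * g' ^ N - 1) / g' ^ N := by
    rw [inv_pow]; field_simp
  have h5 : v h0' = 1 / v (g' ^ N) := by
    rw [eq_div_iff hvg, ← map_mul, h2]
  rw [h4, map_div₀, h5]
  exact div_lt_div_of_pos_right h1 (pos_iff_ne_zero.2 hvg)

end Unique

section Level

universe u v

theorem aeval_ratX {L : Type*} [Field L] (f : L[X]) :
    aeval (RatFunc.X : RatFunc L) f = algebraMap L[X] (RatFunc L) f := by
  rw [← RatFunc.algebraMap_X, Polynomial.aeval_algebraMap_apply, Polynomial.aeval_X_left,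
    AlgHom.id_apply]

theorem algebraMap_poly {L K' : Type*} [Field L] [Field K'] [Algebra L K']
    [Algebra (RatFunc L) K'] [IsScalarTower L (RatFunc L) K'] (f : L[X]) :
    algebraMap (RatFunc L) K' (algebraMap L[X] (RatFunc L) f) =
      aeval (algebraMap (RatFunc L) K' RatFunc.X) f := by
  rw [Polynomial.aeval_algebraMap_apply, aeval_ratX]

open Gl946 in
/-- **The gluing theorem for `K'/L(X)`**, without completions in the statement. -/
theorem patch_level {L : Type u} [NormedField L] [IsUltrametricDist L] [CompleteSpace L] {π : L}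
    (hπ : IsUnif π) {K' : Type v} [Field K'] [Algebra L K'] [Algebra (RatFunc L) K']
    [IsScalarTower L (RatFunc L) K'] [FiniteDimensional (RatFunc L) K']
    [Algebra.IsSeparable (RatFunc L) K'] {y : K'} (hy : algebraMap (RatFunc L) K' RatFunc.X = y)
    (N : ℕ) (hN : ‖(N : L)‖ = 1) (h₀ hP : K') (h0 : h₀ ≠ 0) (hP0 : hP ≠ 0)
    (hf : ∀ v : Valuation K' ℝ≥0, (∀ c : L, v (algebraMap L K' c) = ‖c‖₊) → v y ≤ 1 →
      (∀ (f : L[X]) (i : ℕ), ‖f.coeff i‖₊ ≤ v (aeval y f)) →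
      ∃ w : K', w ≠ 0 ∧ v (h₀ / hP - w ^ N) < v (h₀ / hP)) :
    ∃ h : K', h ≠ 0 ∧ ∀ w : Valuation K' ℝ≥0,
      ((∀ c : L, w (algebraMap L K' c) ≤ ‖c‖₊) → 1 ≤ w y →
        ∃ g : K', g ≠ 0 ∧ w (h / (h₀ * g ^ N) - 1) < 1) ∧
      ((∀ c : L, w (algebraMap L K' c) ≤ ‖c‖₊) → w y < 1 →
        ∃ g : K', g ≠ 0 ∧ w (h / (hP * g ^ N) - 1) < 1) ∧
      ((∀ c : L, w (algebraMap L K' c) ≤ 1) → w y⁻¹ ≤ 1 →
        (∃ Q : L[X], Q.Monic ∧ (∀ i, ‖Q.coeff i‖ ≤ 1) ∧ w (aeval y⁻¹ Q) < 1) →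
        ∃ g : K', g ≠ 0 ∧ w (h / (h₀ * g ^ N) - 1) < 1) ∧
      ((∀ c : L, w (algebraMap L K' c) ≤ 1) → w y ≤ 1 →
        (∃ Q : L[X], Q.Monic ∧ (∀ i < Q.natDegree, ‖Q.coeff i‖ < 1) ∧ w (aeval y Q) < 1) →
        ∃ g : K', g ≠ 0 ∧ w (h / (hP * g ^ N) - 1) < 1) := by
  obtain ⟨E, iE1, iE2, iE3, iE4, yE, hG, hd⟩ := Good2_940.exists_circle L
  have htr : Transcendental L yE := by
    rw [transcendental_iff_injective]
    exact hG.injective
  let iE5 : NontriviallyNormedField E :=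
    { iE1 with
      non_trivial := ⟨(algebraMap L E π)⁻¹, by
        rw [norm_inv, norm_algebraMap']
        exact (one_lt_inv₀ hπ.pos).2 hπ.lt_one⟩ }
  let iE6 : Algebra (RatFunc L) E := RR20_948.ratAlg yE htr
  have iE7 : IsScalarTower L (RatFunc L) E := RR20_948.ratAlg_tower yE htr
  have hyE : algebraMap (RatFunc L) E RatFunc.X = yE := RR20_948.ratHom_X yE htr
  subst hy
  refine Lift903.glue (yF := RatFunc.X) hG hπ hd hyE ?_ N ?_ h₀ hP h0 hP0 ?_
  · intro x
    refine ⟨x.num, x.denom, ?_, ?_⟩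
    · rw [aeval_ratX]
      exact RatFunc.algebraMap_ne_zero x.denom_ne_zero
    · rw [aeval_ratX, aeval_ratX]
      exact (RatFunc.num_div_denom x).symm
  · have h1 : (N : E) = algebraMap L E (N : L) := (map_natCast _ _).symm
    rw [h1, norm_algebraMap', hN]
  · intro v hv
    have hvL : ∀ c : L, v (algebraMap L K' c) = ‖c‖₊ := by
      intro c
      rw [IsScalarTower.algebraMap_apply L (RatFunc L) K', hv,
        ← IsScalarTower.algebraMap_apply L (RatFunc L) E, nnnorm_algebraMap']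
    refine hf v hvL ?_ ?_
    · rw [hv, hyE]
      exact_mod_cast hG.norm_le
    · intro f i
      rw [← algebraMap_poly, hv, algebraMap_poly, hyE]
      exact_mod_cast hG.coeff_le f i

end Level

end Crest.Agent.R013.RZ_365
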