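import Crest.Agent.R013.CB1d_903
import Crest.Agent.R013.Kapx_275
import Crest.Agent.R013.DCov1_700
import Crest.Agent.R013.RZ4_365

/-!
# C-GR: Kummer extensions of degree `p` at a norm with inseparable reduction
-/

set_option autoImplicit false
set_option linter.unusedSectionVars false

namespace Crest.Agent.R013.GRK_903

open scoped NNReal
open WithZero Polynomial IntermediateField
open Crest.Agent.R013.RR7_948 Crest.Agent.R013.Red332 Crest.Agent.R013.GR3_921
open Crest.Agent.R013.Kumv_275 Crest.Agent.R013.Kumv2_275 Crest.Agent.R013.CB1_903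
open Crest.Agent.R013.RR11_948 Crest.Agent.R013.RR12_948

section Ext

variable {C : Type*} [NormedField C] [IsUltrametricDist C] [IsAlgClosed C]
variable {K L : Type*} [Field K] [Field L] [Algebra C K] [Algebra K L] [Algebra C L]
  [IsScalarTower C K L]

/-- norms extend to algebraic extensions -/
theorem exists_nm [Algebra.IsAlgebraic K L] (w : Nm C K) :
    ∃ W : Nm C L, W.v.comap (algebraMap K L) = w.v := by
  obtain ⟨W, hW⟩ := RZ_365.exists_ext_val (K := L) w.v
  have hcom : W.comap (algebraMap K L) = w.v := by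
    ext c
    rw [Valuation.comap_apply, hW]
  refine ⟨⟨W, fun c => ?_, fun f hf => ?_⟩, hcom⟩
  · rw [IsScalarTower.algebraMap_apply C K L, hW, w.hC]
  · obtain ⟨n, hn, b, hb, hfb⟩ := RZ_365.exists_pow_val (F := K) W hf
      (Algebra.IsAlgebraic.isAlgebraic f)
    obtain ⟨d, hd⟩ := w.val b hb
    obtain ⟨c, hc⟩ := IsAlgClosed.exists_pow_nat_eq d hn
    refine ⟨c, ?_⟩
    have h1 : W f ^ n = ‖c‖₊ ^ n := by
      rw [← map_pow, hfb, hW, hd, ← hc, nnnorm_pow]
    exact (pow_left_inj₀ zero_le zero_le hn.ne').1 h1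

variable {l : ℕ} {h : K} {y : L}

/-- **inert case**, no condition on `l` -/
theorem inertP (hl : l.Prime) (hy : y ^ l = algebraMap K L h) (htop : K⟮y⟯ = ⊤)
    (w : Nm C K) (hvh : w.v h = 1) (hno : ∀ b : kap w, b ^ l ≠ red w h) (W : Nm C L)
    (hW : W.v.comap (algebraMap K L) = w.v) :
    W.v y = 1 ∧ red W y ^ l = kapMap w W hW (red w h) ∧
      ∀ b : kap W, ∃ a : ℕ → kap w,
        b = ∑ j ∈ Finset.range l, kapMap w W hW (a j) * red W y ^ j := by
  have hWv : ∀ a : K, W.v (algebraMap K L a) = w.v a := fun a => DFunLike.congr_fun hW a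
  have hg : ∀ g : K, ¬ w.v (h / g ^ l - 1) < 1 := by
    intro g hlt
    have h1 : w.v (h / g ^ l) = 1 := by
      have : h / g ^ l = 1 + (h / g ^ l - 1) := by ring
      rw [this, Valuation.map_add_eq_of_lt_left _ (by rw [map_one]; exact hlt), map_one]
    have h2 : w.v g = 1 := by
      rw [map_div₀, hvh, map_pow, one_div, inv_eq_one] at h1
      exact (pow_eq_one_iff_of_nonneg zero_le hl.ne_zero).1 h1
    apply hno (red w g)
    have h3 : red w (h / g ^ l) = 1 := by
      rw [← red_one w, red_eq_iff w h1.le (by rw [map_one])]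
      exact hlt
    have h4 : g ≠ 0 := by
      rintro rfl
      rw [map_zero] at h2
      exact zero_ne_one h2
    have h5 : h = (h / g ^ l) * g ^ l := by rw [div_mul_cancel₀ _ (pow_ne_zero _ h4)]
    conv_rhs => rw [h5, red_mul w h1.le (by rw [map_pow, h2, one_pow]), h3, one_mul,
      red_pow w h2.le]
  have hnorm := inert_norm w.v hl hy hvh hg W.v hW
  have hWy : W.v y = 1 := by
    have h1 : W.v y ^ l = 1 := by rw [← map_pow, hy, hWv, hvh]
    exact (pow_eq_one_iff_of_nonneg zero_le hl.ne_zero).mp h1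
  refine ⟨hWy, ?_, ?_⟩
  · rw [kapMap_red, ← red_pow W hWy.le, hy]
  · intro b
    obtain ⟨f, hf, rfl⟩ := red_surj W b
    obtain ⟨a, ha⟩ := exists_coeffs hl hy htop f
    have h1 := hnorm a
    rw [← ha] at h1
    have h2 : ∀ j ∈ Finset.range l, w.v (a j) ≤ 1 := by
      intro j hj
      have h3 := Finset.le_sup (f := fun j => w.v (a j)) hj
      rw [← h1] at h3
      exact h3.trans hf
    refine ⟨fun j => red w (a j), ?_⟩
    have h4 : ∀ j ∈ Finset.range l, W.v (algebraMap K L (a j) * y ^ j) ≤ 1 := by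
      intro j hj
      rw [map_mul, map_pow, hWy, one_pow, mul_one, hWv]
      exact h2 j hj
    conv_lhs => rw [ha]
    rw [(Kapx_275.red_sum W _ _ h4).2]
    refine Finset.sum_congr rfl fun j hj => ?_
    rw [red_mul W (by rw [hWv]; exact h2 j hj) (by rw [map_pow, hWy, one_pow]), red_pow W hWy.le,
      kapMap_red]

/-- the residue field of the inseparable Kummer extension has the same genus -/
theorem hasGen_inertP {p : ℕ} [hp : Fact p.Prime] [CharP (Ct C) p] [IsAlgClosed (Ct C)]
    (hy : y ^ p = algebraMap K L h) (htop : K⟮y⟯ = ⊤)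
    (w : Nm C K) (hvh : w.v h = 1) (hno : ∀ b : kap w, b ^ p ≠ red w h) (W : Nm C L)
    (hW : W.v.comap (algebraMap K L) = w.v) {g : ℕ} (hg : HasGen (Ct C) (kap w) g) :
    HasGen (Ct C) (kap W) g := by
  obtain ⟨hWy, h1, h2⟩ := inertP hp.out hy htop w hvh hno W hW
  let _ := (kapMap w W hW).toAlgebra
  have _ : IsScalarTower (Ct C) (kap w) (kap W) := IsScalarTower.of_algebraMap_eq fun c =>
    (kapMap_algebraMap w W hW c).symm
  have _ : CharP (kap W) p := charP_of_injective_algebraMap (algebraMap (Ct C) (kap W)).injective p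
  refine hasGen_of_purelyInsep (K := kap w) (p := p) (fun b => ?_) ⟨red W y, ?_⟩ hg
  · obtain ⟨a, rfl⟩ := h2 b
    have h3 : ∀ j, (kapMap w W hW (a j) * red W y ^ j) ^ p =
        kapMap w W hW (a j ^ p * red w h ^ j) := by
      intro j
      rw [mul_pow, ← pow_mul, mul_comm j p, pow_mul, h1, map_mul, map_pow, map_pow]
    refine ⟨∑ j ∈ Finset.range p, a j ^ p * red w h ^ j, ?_⟩
    change kapMap w W hW _ = _
    rw [sum_pow_char p, map_sum]
    exact Finset.sum_congr rfl fun j _ => (h3 j).symm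
  · rintro ⟨a, ha⟩
    change kapMap w W hW a = _ at ha
    rw [← ha, ← map_pow] at h1
    exact hno a ((kapMap w W hW).injective h1)

end Ext

section Dense

variable {C : Type*} [NormedField C] [IsUltrametricDist C] [IsAlgClosed C]
variable {K L : Type*} [Field K] [Field L] [Algebra C K] [Algebra K L] [Algebra C L]
  [IsScalarTower C K L]

/-- if `K` is dense in `L`, the residue fields are equal -/
theorem kapMap_bijective_of_dense (w : Nm C K) (W : Nm C L)
    (hW : W.v.comap (algebraMap K L) = w.v)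
    (hd : ∀ z : L, ∃ g : K, W.v (algebraMap K L g - z) < 1) :
    Function.Bijective (kapMap w W hW) := by
  refine ⟨(kapMap w W hW).injective, fun b => ?_⟩
  obtain ⟨f, hf, rfl⟩ := red_surj W b
  obtain ⟨g, hg⟩ := hd f
  refine ⟨red w g, ?_⟩
  rw [kapMap_red]
  have h1 : W.v (algebraMap K L g) ≤ 1 := by
    have : algebraMap K L g = f + (algebraMap K L g - f) := by ring
    rw [this]
    exact (Valuation.map_add _ _ _).trans (max_le hf hg.le)
  rw [red_eq_iff W h1 hf]
  exact hg

theorem hasGen_of_bijective [IsAlgClosed (Ct C)] (w : Nm C K) (W : Nm C L)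
    (hW : W.v.comap (algebraMap K L) = w.v) (hb : Function.Bijective (kapMap w W hW)) {g : ℕ}
    (hg : HasGen (Ct C) (kap w) g) : HasGen (Ct C) (kap W) g :=
  hg.transport (RingEquiv.refl (Ct C)) (RingEquiv.ofBijective (kapMap w W hW) hb)
    (fun c => kapMap_algebraMap w W hW c)

/-- **K2**: a norm of a Galois extension of prime degree which is moved by some automorphism -/
theorem hasGen_of_moved [IsAlgClosed (Ct C)] [FiniteDimensional K L] [IsGalois K L]
    (hprime : (Module.finrank K L).Prime) (hnt : ∃ c : C, c ≠ 0 ∧ ‖c‖ < 1)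
    (w : Nm C K) (W : Nm C L)
    (hW : W.v.comap (algebraMap K L) = w.v) (σ : L ≃ₐ[K] L) (hσ : ∃ x, W.v (σ x) ≠ W.v x) {g : ℕ}
    (hg : HasGen (Ct C) (kap w) g) : HasGen (Ct C) (kap W) g := by
  have hWv : ∀ a : K, W.v (algebraMap K L a) = w.v a := fun a => DFunLike.congr_fun hW a
  have hv : ∃ c, w.v c ≠ 0 ∧ w.v c ≠ 1 := by
    obtain ⟨c, hc0, hc1⟩ := hnt
    refine ⟨algebraMap C K c, ?_, ?_⟩
    · rw [w.hC]; exact nnnorm_ne_zero_iff.2 hc0
    · rw [w.hC]; intro h; exact hc1.ne (by rw [← coe_nnnorm, h]; rfl)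
  set W' : Ext L w.v := ⟨W.v, hWv⟩ with hW'
  have hcard : (Nat.card (L ≃ₐ[K] L)).Prime := by rw [IsGalois.card_aut_eq_finrank]; exact hprime
  have : Fact (Nat.card (L ≃ₐ[K] L)).Prime := ⟨hcard⟩
  have hst : MulAction.stabilizer (L ≃ₐ[K] L) W' = ⊥ := by
    rcases (MulAction.stabilizer (L ≃ₐ[K] L) W').eq_bot_or_eq_top_of_prime_card with h | h
    · exact h
    · exfalso
      have h1 : σ⁻¹ ∈ MulAction.stabilizer (L ≃ₐ[K] L) W' := by rw [h]; trivial
      obtain ⟨x, hx⟩ := hσ
      rw [MulAction.mem_stabilizer_iff] at h1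
      have h2 := congrArg (fun z => z.1 x) h1
      exact hx h2
  refine hasGen_of_bijective w W hW (kapMap_bijective_of_dense w W hW fun z => ?_) hg
  exact dense_of_stabilizer hv W' hst z 1 one_pos

end Dense

section Final

universe u

variable {C : Type*} [NormedField C] [IsUltrametricDist C] [IsAlgClosed C] [CharZero C]

/-- the unramified Kummer extension of prime degree -/
theorem exists_cover {K : Type u} [Field K] [Algebra C K] {p : ℕ} (hp : p.Prime) {g : ℕ}
    (hg : HasGen C K g) (hg1 : 1 ≤ g) (h : K) (h0 : h ≠ 0)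
    (hdiv : ∀ P : Pl C K, ∃ m : ℤ, P.v h = exp ((p : ℤ) * m)) (hn : ∀ f : K, f ^ p ≠ h) :
    ∃ (L : Type u) (_ : Field L) (_ : Algebra C L) (_ : Algebra K L) (_ : IsScalarTower C K L)
      (_ : FiniteDimensional K L) (_ : IsGalois K L) (y : L), y ^ p = algebraMap K L h ∧
        K⟮y⟯ = ⊤ ∧ Module.finrank K L = p ∧ UnrPl C K L ∧
        ∃ g' : ℕ, HasGen C L g' ∧ g' = p * (g - 1) + 1 := by
  obtain ⟨i, j, f, s, hgg⟩ := id hg
  let _ := i
  have _ := j
  have _ := f
  have _ := s
  obtain ⟨L, _, _, _, _, _, _, y, hy, htop⟩ := exists_kummer (C := C) p hp.ne_zero h h0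
  refine ⟨L, inferInstance, inferInstance, inferInstance, inferInstance, inferInstance,
    inferInstance, y, hy, htop, DCov1_700.finrank_eq hp hn hy htop,
    unrPl_of_kummer p hp.ne_zero h hdiv y hy htop, ?_⟩
  let _ : Algebra (RatFunc C) L := ((algebraMap K L).comp (algebraMap (RatFunc C) K)).toAlgebra
  have _ : IsScalarTower (RatFunc C) K L := IsScalarTower.of_algebraMap_eq fun x => rfl
  have _ : IsScalarTower C (RatFunc C) L := IsScalarTower.of_algebraMap_eq fun x => by
    rw [IsScalarTower.algebraMap_apply C K L, IsScalarTower.algebraMap_apply C (RatFunc C) K]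
    rfl
  have _ : FiniteDimensional (RatFunc C) L := FiniteDimensional.trans (RatFunc C) K L
  have _ : CharZero (RatFunc C) := charZero_of_injective_algebraMap
    (algebraMap C (RatFunc C)).injective
  have _ : Algebra.IsSeparable (RatFunc C) L := inferInstance
  refine ⟨gen C L, hasGen_gen C L, ?_⟩
  have h1 : divf (k := C) h = (p : ℤ) •
      (divf (k := C) h).mapRange (fun n => n / (p : ℤ)) (Int.zero_ediv _) := by
    ext P
    rw [Finsupp.smul_apply, Finsupp.mapRange_apply, smul_eq_mul]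
    obtain ⟨m, hm⟩ := hdiv P
    rw [v_eq h0, exp_inj] at hm
    exact (Int.mul_ediv_cancel' ⟨-m, by linarith⟩).symm
  have h2 := DCov1_700.gen_eq hp h0 h1 hn hy htop
  rw [hgg] at h2
  zify [hg1]
  linarith

/-- **K1**: the Kummer extension with inseparable reduction -/
theorem kummer_insep {K : Type u} [Field K] [Algebra C K] {p : ℕ} [hp : Fact p.Prime]
    [CharP (Ct C) p] [IsAlgClosed (Ct C)] {g : ℕ}
    (hg : HasGen C K g) (hg1 : 1 ≤ g) (h : K)
    (hdiv : ∀ P : Pl C K, ∃ m : ℤ, P.v h = exp ((p : ℤ) * m)) (w : Nm C K) (hvh : w.v h = 1)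
    (hno : ∀ b : kap w, b ^ p ≠ red w h) {g0 : ℕ} (hg0 : HasGen (Ct C) (kap w) g0) :
    ∃ (L : Type u) (_ : Field L) (_ : Algebra C L) (_ : Algebra K L) (_ : IsScalarTower C K L)
      (_ : FiniteDimensional K L) (_ : IsGalois K L) (y : L), y ^ p = algebraMap K L h ∧
        K⟮y⟯ = ⊤ ∧ Module.finrank K L = p ∧ UnrPl C K L ∧
        HasGen C L (p * (g - 1) + 1) ∧
        ∃ (W : Nm C L), W.v.comap (algebraMap K L) = w.v ∧ HasGen (Ct C) (kap W) g0 := by
  have h0 : h ≠ 0 := by
    rintro rfl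
    rw [map_zero] at hvh
    exact zero_ne_one hvh
  have hn : ∀ f : K, f ^ p ≠ h := by
    intro f hf
    have h1 : w.v f = 1 := by
      have : w.v f ^ p = 1 := by rw [← map_pow, hf, hvh]
      exact (pow_eq_one_iff_of_nonneg zero_le hp.out.ne_zero).1 this
    exact hno (red w f) (by rw [← red_pow w h1.le, hf])
  obtain ⟨L, _, _, _, _, _, _, y, hy, htop, hfr, hunr, g', hg', rfl⟩ :=
    exists_cover hp.out hg hg1 h h0 hdiv hn
  obtain ⟨W, hW⟩ := exists_nm (L := L) w
  exact ⟨L, inferInstance, inferInstance, inferInstance, inferInstance, inferInstance,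
    inferInstance, y, hy, htop, hfr, hunr, hg', W, hW,
    hasGen_inertP hy htop w hvh hno W hW hg0⟩

end Final

end Crest.Agent.R013.GRK_903
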