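import Mathlib
import Crest.Agent.R013.GR7_921
import Crest.Agent.R013.GR9_921
import Crest.Agent.R013.GRK1_903
import Crest.Agent.R013.DescP3_429
import Crest.Agent.R013.RHP2_240
import Crest.Agent.R013.Div6_280

/-!
# R013 / GR10: the invariant case of C-GR (helper921)

`L/K` cyclic of degree `p`, `W` a norm of `L` over the norm `w` of `K`, fixed by `Gal(L/K)`.
* `toRed` : `Nm C K` as a `Red`;
* `hasGen_of_trivial` : Galois acts trivially on the residue field ⇒ `gen κ_W = gen κ_w`;
* `resAut`, `finrank_kap_eq` : otherwise `κ_W / κ_w` is cyclic of degree `p`.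
-/

set_option autoImplicit false
set_option linter.all false

namespace Crest.Agent.R013.GR10_921

open Polynomial WithZero Module IntermediateField
open scoped NNReal
open Crest.Agent.R013.RR7_948 Crest.Agent.R013.RR8_948 Crest.Agent.R013.RR9_948
open Crest.Agent.R013.RR11_948 Crest.Agent.R013.RR12_948
open Crest.Agent.R013.RR18_948 Crest.Agent.R013.RR19_948 Crest.Agent.R013.RR20_948
open Crest.Agent.R013.RR21_948 Crest.Agent.R013.RR22_948
open Crest.Agent.R013.GR2_921 Crest.Agent.R013.GR3_921 Crest.Agent.R013.GR4_921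
open Crest.Agent.R013.GR5_921 Crest.Agent.R013.GR6_921 Crest.Agent.R013.GR7_921
open Crest.Agent.R013.Red332 Crest.Agent.R013.Kumv2_275 Crest.Agent.R013.GRK_903
open Crest.Agent.R013.CB1_903

section bridge

variable {C : Type*} [NormedField C] [IsUltrametricDist C] {K : Type*} [Field K] [Algebra C K]

/-- the valuation of `C` -/
noncomputable abbrev vv (C : Type*) [NormedField C] [IsUltrametricDist C] : Valuation C ℝ≥0 :=
  NormedField.valuation (K := C)

theorem isRes_rc : IsRes (vv C) (rc : C → Ct C) where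
  add x y hx hy := rc_add hx hy
  mul x y hx hy := rc_mul hx hy
  one := rc_one
  zero_iff x hx := rc_eq_zero_iff hx
  surj y := rc_surj y

theorem isRes_red (w : Nm C K) : IsRes w.v (red w) where
  add x y hx hy := red_add w hx hy
  mul x y hx hy := red_mul w hx hy
  one := red_one w
  zero_iff x hx := red_eq_zero_iff w hx
  surj y := red_surj w y

/-- a norm `Nm C K` as a `Red` -/
theorem toRed (w : Nm C K) : Red (vv C) (rc : C → Ct C) w.v (red w) where
  resC := isRes_rc
  res := isRes_red w
  norm c := w.hC c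
  comp c hc := red_C w c hc
  val f hf := w.val f hf

end bridge

section aut

variable {C : Type*} [NormedField C] [IsUltrametricDist C]
variable {K L : Type*} [Field K] [Field L] [Algebra C K] [Algebra K L] [Algebra C L]
  [IsScalarTower C K L]

/-- the automorphism of the residue field induced by an automorphism preserving the norm -/
theorem exists_resAut (w : Nm C K) (W : Nm C L) (hW : W.v.comap (algebraMap K L) = w.v)
    (σ : L ≃ₐ[K] L) (hσ : ∀ x, W.v (σ x) = W.v x) :
    letI := (kapMap w W hW).toAlgebra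
    ∃ s : kap W ≃ₐ[kap w] kap W, ∀ x, W.v x ≤ 1 → s (red W x) = red W (σ x) := by
  letI := (kapMap w W hW).toAlgebra
  let φ := DescP_429.autK W (σ : L ≃+* L) hσ
  have hφ : Function.Bijective φ := ⟨φ.injective, DescP_429.autK_surj W _ hσ⟩
  have hred : ∀ x, W.v x ≤ 1 → φ (red W x) = red W (σ x) := fun x hx =>
    DescP_429.autK_red W (σ : L ≃+* L) hσ hx
  refine ⟨AlgEquiv.ofRingEquiv (f := RingEquiv.ofBijective φ hφ) ?_, fun x hx => hred x hx⟩
  intro a
  obtain ⟨f, hf, rfl⟩ := red_surj w a
  show φ (kapMap w W hW (red w f)) = kapMap w W hW (red w f)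
  have h0 : W.v (algebraMap K L f) = w.v f := DFunLike.congr_fun hW f
  have h1 : W.v (algebraMap K L f) ≤ 1 := by
    rw [h0]; exact hf
  rw [kapMap_red, hred _ h1, AlgEquiv.commutes]

variable [FiniteDimensional K L]

/-- **trivial action on the residue field** : purely inseparable residue extension -/
theorem hasGen_of_trivial [IsAlgClosed C] {p : ℕ} [hp : Fact p.Prime] [CharP (Ct C) p]
    [IsAlgClosed (Ct C)]
    [IsGalois K L] (hdeg : finrank K L = p)
    (w : Nm C K) (W : Nm C L) (hW : W.v.comap (algebraMap K L) = w.v)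
    (hσ : ∀ (σ : L ≃ₐ[K] L) x, W.v (σ x) = W.v x)
    (htriv : ∀ (σ : L ≃ₐ[K] L) x, W.v x ≤ 1 → red W (σ x) = red W x) {g : ℕ}
    (hg : HasGen (Ct C) (kap w) g) : HasGen (Ct C) (kap W) g := by
  classical
  letI := (kapMap w W hW).toAlgebra
  haveI : IsScalarTower (Ct C) (kap w) (kap W) := IsScalarTower.of_algebraMap_eq fun c =>
    (kapMap_algebraMap w W hW c).symm
  have hins : ∀ y : kap W, y ^ p ∈ Set.range (algebraMap (kap w) (kap W)) := by
    intro y
    obtain ⟨u, hu, rfl⟩ := red_surj W y
    have h1 : algebraMap K L (Algebra.norm K u) = ∏ σ : L ≃ₐ[K] L, σ u :=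
      Algebra.norm_eq_prod_automorphisms K u
    refine ⟨red w (Algebra.norm K u), ?_⟩
    show kapMap w W hW _ = _
    rw [kapMap_red, h1, (isRes_red W).prod _ _ (fun σ _ => by rw [hσ]; exact hu),
      Finset.prod_congr rfl fun σ _ => htriv σ u hu, Finset.prod_const, Finset.card_univ,
      ← Nat.card_eq_fintype_card, IsGalois.card_aut_eq_finrank, hdeg]
  by_cases hb : ∃ y : kap W, y ∉ Set.range (algebraMap (kap w) (kap W))
  · exact hasGen_of_purelyInsep (K := kap w) (p := p) hins hb hg
  · push Not at hb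
    exact hasGen_of_bijective w W hW ⟨(kapMap w W hW).injective, fun y => hb y⟩ hg

/-- **non trivial action**: `κ_W / κ_w` has degree `p` -/
theorem finrank_kap_eq {p : ℕ} (hp : p.Prime) (hdeg : finrank K L = p)
    (w : Nm C K) (W : Nm C L) (hW : W.v.comap (algebraMap K L) = w.v)
    {σ : L ≃ₐ[K] L} (hσp : σ ^ p = 1) (hσ : ∀ x, W.v (σ x) = W.v x) :
    letI := (kapMap w W hW).toAlgebra
    ∀ s : kap W ≃ₐ[kap w] kap W, (∀ x, W.v x ≤ 1 → s (red W x) = red W (σ x)) → s ≠ 1 →
      FiniteDimensional (kap w) (kap W) ∧ finrank (kap w) (kap W) = p := by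
  letI := (kapMap w W hW).toAlgebra
  intro s hs hs1
  obtain ⟨hfin, hle⟩ := Kapx_275.kap_finite w W hW
  rw [hdeg] at hle
  refine ⟨hfin, ?_⟩
  have hpow : ∀ (i : ℕ) x, W.v x ≤ 1 → (s ^ i) (red W x) = red W ((σ ^ i) x) := by
    intro i
    induction i with
    | zero => intro x _; rfl
    | succ i ih =>
      intro x hx
      rw [pow_succ, pow_succ, AlgEquiv.mul_apply, AlgEquiv.mul_apply, hs x hx,
        ih _ (by rw [hσ]; exact hx)]
  have hsp : s ^ p = 1 := by
    ext y
    obtain ⟨x, hx, rfl⟩ := red_surj W y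
    rw [hpow p x hx, hσp]; rfl
  haveI : Fact p.Prime := ⟨hp⟩
  have hord : orderOf s = p := orderOf_eq_prime hsp hs1
  have h1 : finrank (IntermediateField.fixedField (Subgroup.zpowers s)) (kap W) = p := by
    rw [IntermediateField.finrank_fixedField_eq_card, Nat.card_zpowers, hord]
  have h2 := Module.finrank_mul_finrank (kap w)
    (IntermediateField.fixedField (Subgroup.zpowers s)) (kap W)
  rw [h1] at h2
  have h3 : 0 < finrank (kap w) (IntermediateField.fixedField (Subgroup.zpowers s)) :=
    Module.finrank_pos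
  refine le_antisymm hle ?_
  calc p = 1 * p := (one_mul p).symm
    _ ≤ _ * p := Nat.mul_le_mul_right p h3
    _ = _ := h2

end aut

end Crest.Agent.R013.GR10_921
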