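import Mathlib
import Crest.Agent.R013.GR10_921

/-!
# R013 / GR11: the invariant case of C-GR, conclusion (helper921)

* `norm_div` : the divisor of `N_{L/K}(f)`, `Q - σ Q = p V + div f`, is divisible by `p`;
* `sig` : **SIG**: `L/K` cyclic unramified of degree `p`, `W` a Galois invariant norm of `L` over `w`,
  `gen κ_w = gen K = g ≥ 1`: either `gen κ_W = g`, or there is a `μ_p`-torsor `h` of `K` whose
  reduction at `w` is inseparable.
-/

set_option autoImplicit false
set_option linter.all false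

namespace Crest.Agent.R013.GR11_921

open Polynomial WithZero Module IntermediateField
open scoped NNReal
open Crest.Agent.R013.RR7_948 Crest.Agent.R013.RR8_948 Crest.Agent.R013.RR9_948
open Crest.Agent.R013.RR11_948 Crest.Agent.R013.RR12_948
open Crest.Agent.R013.RR18_948 Crest.Agent.R013.RR19_948 Crest.Agent.R013.RR20_948
open Crest.Agent.R013.RR21_948 Crest.Agent.R013.RR22_948
open Crest.Agent.R013.GR2_921 Crest.Agent.R013.GR3_921 Crest.Agent.R013.GR4_921
open Crest.Agent.R013.GR5_921 Crest.Agent.R013.GR6_921 Crest.Agent.R013.GR7_921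
open Crest.Agent.R013.GR10_921
open Crest.Agent.R013.Red332 Crest.Agent.R013.Kumv2_275 Crest.Agent.R013.GRK_903
open Crest.Agent.R013.CB1_903

section norm

variable {C : Type*} [Field C] [IsAlgClosed C] [CharZero C] {K : Type*} [Field K] [Algebra C K]
  [Algebra (RatFunc C) K]
  [IsScalarTower C (RatFunc C) K] [FiniteDimensional (RatFunc C) K]
  {L : Type*} [Field L] [Algebra C L] [Algebra K L] [IsScalarTower C K L] [FiniteDimensional K L]
  [Algebra (RatFunc C) L] [IsScalarTower C (RatFunc C) L] [FiniteDimensional (RatFunc C) L]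
  [IsScalarTower (RatFunc C) K L]

theorem eR_of_unrPl (hunr : UnrPl C K L) (Q : Pl C L) : eR K Q = 1 := by
  obtain ⟨f, hf⟩ := hunr Q
  have hf0 : f ≠ 0 := by
    rintro rfl
    rw [map_zero, map_zero] at hf
    exact exp_ne_zero hf.symm
  have h1 := v_algebraMap_exp (K := K) Q (v_eq hf0 (under K Q))
  rw [hf, exp_inj] at h1
  have h2 : ((eR K Q : ℕ) : ℤ) ∣ 1 := ⟨divf (k := C) f (under K Q), by linarith⟩
  exact Nat.dvd_one.mp (by exact_mod_cast h2)

theorem divf_const {c : C} (hc : c ≠ 0) : divf (k := C) (algebraMap C L c) = 0 := by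
  have h0 : algebraMap C L c ≠ 0 := by simpa using hc
  ext P
  have h1 := v_eq (k := C) h0 P
  rw [P.const c hc, ← exp_zero, exp_inj] at h1
  rw [Finsupp.zero_apply]
  linarith

theorem divf_prod_orbit {p : ℕ} {σ : L ≃ₐ[K] L} {Q : Pl C L} {V : Pl C L →₀ ℤ} {f : L} (hf : f ≠ 0)
    (hdiv : Finsupp.single Q 1 - Finsupp.single (mapPl (σ.restrictScalars C) Q) 1
      = (p : ℤ) • V + divf (k := C) f) (n : ℕ) :
    divf (k := C) (∏ i ∈ Finset.range n, (σ ^ i) f)
      = Finsupp.single Q 1 - Finsupp.single (mapPl ((σ ^ n).restrictScalars C) Q) 1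
        - (p : ℤ) • ∑ i ∈ Finset.range n, mapD ((σ ^ i).restrictScalars C) V := by
  have hdf : divf (k := C) f = Finsupp.single Q 1
      - Finsupp.single (mapPl (σ.restrictScalars C) Q) 1 - (p : ℤ) • V := by
    rw [hdiv]; abel
  induction n with
  | zero =>
    have h1 : ((σ ^ 0).restrictScalars C : L ≃ₐ[C] L) = 1 := rfl
    rw [Finset.range_zero, Finset.prod_empty, Finset.sum_empty, divf_one, h1, mapPl_one, smul_zero,
      sub_self, sub_zero]
  | succ n ih =>
    rw [Finset.prod_range_succ, divf_mul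
      (Finset.prod_ne_zero_iff.mpr fun i _ => (map_ne_zero (σ ^ i)).mpr hf)
      ((map_ne_zero (σ ^ n)).mpr hf), ih,
      Finset.sum_range_succ]
    have h1 : divf (k := C) ((σ ^ n) f) = mapD ((σ ^ n).restrictScalars C) (divf f) :=
      divf_map ((σ ^ n).restrictScalars C) f
    have h2 : mapPl ((σ ^ n).restrictScalars C) (mapPl (σ.restrictScalars C) Q)
        = mapPl ((σ ^ (n + 1)).restrictScalars C) Q := by
      rw [← mapPl_mul]
      have : ((σ ^ (n + 1)).restrictScalars C : L ≃ₐ[C] L)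
          = ((σ ^ n).restrictScalars C) * (σ.restrictScalars C) := by rw [pow_succ]; rfl
      rw [this]
    rw [h1, hdf, map_sub, map_sub, mapD_single, mapD_single, h2, map_zsmul, smul_add]
    abel

theorem norm_div {p : ℕ} {σ : L ≃ₐ[K] L} (hσp : σ ^ p = 1) (hunr : UnrPl C K L) {Q : Pl C L}
    {V : Pl C L →₀ ℤ} {f : L} (hf : f ≠ 0)
    (hdiv : Finsupp.single Q 1 - Finsupp.single (mapPl (σ.restrictScalars C) Q) 1
      = (p : ℤ) • V + divf (k := C) f)
    {h0 : K} (hh : algebraMap K L h0 = ∏ i ∈ Finset.range p, (σ ^ i) f) (P : Pl C K) :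
    ∃ m : ℤ, P.v h0 = exp ((p : ℤ) * m) := by
  haveI : CharZero K := charZero_of_injective_algebraMap (algebraMap C K).injective
  haveI : Algebra.IsSeparable K L := Algebra.IsAlgebraic.isSeparable_of_perfectField
  obtain ⟨Q', hQ'⟩ := above_nonempty (L := L) P
  rw [mem_above] at hQ'
  have hL0 : algebraMap K L h0 ≠ 0 := by
    rw [hh]
    exact Finset.prod_ne_zero_iff.mpr fun i _ => (map_ne_zero (σ ^ i)).mpr hf
  have h00 : h0 ≠ 0 := by rintro rfl; exact hL0 (map_zero _)
  have h1 := divf_prod_orbit (C := C) (p := p) hf hdiv p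
  have h2 : ((σ ^ p).restrictScalars C : L ≃ₐ[C] L) = 1 := by rw [hσp]; rfl
  rw [h2, mapPl_one, sub_self, zero_sub, ← hh] at h1
  have h3 := v_algebraMap_exp (K := K) Q' (v_eq h00 (under K Q'))
  rw [eR_of_unrPl hunr, v_eq hL0, exp_inj, h1, hQ', Finsupp.neg_apply, Finsupp.smul_apply,
    smul_eq_mul, Nat.cast_one, one_mul, neg_neg] at h3
  refine ⟨(∑ i ∈ Finset.range p, mapD ((σ ^ i).restrictScalars C) V) Q', ?_⟩
  rw [v_eq h00, exp_inj, ← h3]

end norm

section main

universe u

variable {C : Type*} [NormedField C] [IsUltrametricDist C] [IsAlgClosed C] [CharZero C]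
variable {K : Type*} {L : Type u} [Field K] [Field L] [Algebra C K] [Algebra K L] [Algebra C L]
  [IsScalarTower C K L] [FiniteDimensional K L]

/-- **SIG** -/
theorem sig [IsGalois K L] {p : ℕ} [hpp : Fact p.Prime] (hpC : ‖(p : C)‖ < 1)
    [CharP (Ct C) p] [IsAlgClosed (Ct C)] (hdeg : finrank K L = p) (hunr : UnrPl C K L)
    {g : ℕ} (hg1 : 1 ≤ g) (hgK : HasGen C K g) (hgL : HasGen C L (p * (g - 1) + 1))
    (w : Nm C K) (W : Nm C L) (hW : W.v.comap (algebraMap K L) = w.v)
    (hgw : HasGen (Ct C) (kap w) g) (hσ : ∀ (σ : L ≃ₐ[K] L) x, W.v (σ x) = W.v x) :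
    HasGen (Ct C) (kap W) g ∨ ∃ h : K, w.v h = 1 ∧ (∀ b : kap w, b ^ p ≠ red w h) ∧
      ∀ P : Pl C K, ∃ m : ℤ, P.v h = exp ((p : ℤ) * m) := by
  classical
  by_cases htriv : ∀ (σ : L ≃ₐ[K] L) x, W.v x ≤ 1 → red W (σ x) = red W x
  · exact Or.inl (hasGen_of_trivial hdeg w W hW hσ htriv hgw)
  right
  push Not at htriv
  obtain ⟨σ, x0, hx0, hne⟩ := htriv
  have hp := hpp.out
  have hσ1 : σ ≠ 1 := by rintro rfl; exact hne rfl
  have hσp : σ ^ p = 1 := by
    have : Nat.card (L ≃ₐ[K] L) = p := by rw [IsGalois.card_aut_eq_finrank, hdeg]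
    rw [← this]; exact pow_card_eq_one'
  -- structures on `K` and `L`
  obtain ⟨iK, jK, fK, sK, hK⟩ := hgK
  letI : Algebra (RatFunc C) L := ((algebraMap K L).comp (algebraMap (RatFunc C) K)).toAlgebra
  haveI : IsScalarTower (RatFunc C) K L := IsScalarTower.of_algebraMap_eq fun x => rfl
  haveI : IsScalarTower C (RatFunc C) L := IsScalarTower.of_algebraMap_eq fun x => by
    rw [IsScalarTower.algebraMap_apply C K L, IsScalarTower.algebraMap_apply C (RatFunc C) K]
    rfl
  haveI : FiniteDimensional (RatFunc C) L := FiniteDimensional.trans (RatFunc C) K L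
  haveI : CharZero (RatFunc C) := charZero_of_injective_algebraMap
    (algebraMap C (RatFunc C)).injective
  have hL : gen C L = p * (g - 1) + 1 := hgL.eq_gen
  -- structures on the residue fields
  obtain ⟨iw, jw, fw, sw, hw⟩ := hgw
  letI aκ : Algebra (kap w) (kap W) := (kapMap w W hW).toAlgebra
  haveI : IsScalarTower (Ct C) (kap w) (kap W) := IsScalarTower.of_algebraMap_eq fun c =>
    (kapMap_algebraMap w W hW c).symm
  obtain ⟨s, hs⟩ := exists_resAut w W hW σ (hσ σ)
  have hs1 : s ≠ 1 := by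
    rintro rfl
    exact hne (hs x0 hx0).symm
  obtain ⟨hfin, hdegκ⟩ := finrank_kap_eq hp hdeg w W hW hσp (hσ σ) s hs hs1
  haveI := hfin
  haveI hgal : IsGalois (kap w) (kap W) := isGalois_of_prime hp hdegκ hs1
  letI : Algebra (RatFunc (Ct C)) (kap W) :=
    ((algebraMap (kap w) (kap W)).comp (algebraMap (RatFunc (Ct C)) (kap w))).toAlgebra
  haveI : IsScalarTower (RatFunc (Ct C)) (kap w) (kap W) :=
    IsScalarTower.of_algebraMap_eq fun x => rfl
  haveI : IsScalarTower (Ct C) (RatFunc (Ct C)) (kap W) :=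
    IsScalarTower.of_algebraMap_eq fun x => by
      rw [IsScalarTower.algebraMap_apply (Ct C) (kap w) (kap W),
        IsScalarTower.algebraMap_apply (Ct C) (RatFunc (Ct C)) (kap w)]
      rfl
  haveI : FiniteDimensional (RatFunc (Ct C)) (kap W) :=
    FiniteDimensional.trans (RatFunc (Ct C)) (kap w) (kap W)
  haveI : Algebra.IsSeparable (RatFunc (Ct C)) (kap W) :=
    Algebra.IsSeparable.trans (RatFunc (Ct C)) (kap w) (kap W)
  -- genus comparison
  have h := toRed W
  have hκ : ∃ z : kap W, z ∉ Set.range (algebraMap (Ct C) (kap W)) := exists_notMem_range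
  have hpv : vv C (p : C) < 1 := hpC
  have hO : Orth (vv C) W.v := GR9_921.orth h hκ p hpv
  have hle : gen (Ct C) (kap W) ≤ gen C L := GR7_921.gen_le h hO
  have hge := RHP_240.hurwitz_ge (k := Ct C) (K := kap w) (L := kap W)
    hc_of_isAlgClosed hc_of_isAlgClosed
  rw [hdegκ, hw] at hge
  have hgeq : gen (Ct C) (kap W) = gen C L := by
    refine le_antisymm hle ?_
    rw [hL]
    zify [hg1]
    linarith
  -- no fixed place
  have hfree : ∀ b : Pl (Ct C) (kap W), mapPl (s.restrictScalars (Ct C)) b ≠ b := by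
    intro b hb
    have h1 := gen_lower_of_fixed (k := Ct C) (K := kap w) (L := kap W) hp hdegκ hs1 hb
    rw [hw, hgeq, hL] at h1
    zify [hg1] at h1
    linarith
  obtain ⟨sp, hsp⟩ := exists_sp h hO hgeq
  -- the divisor `Q - σ Q`
  obtain ⟨Q, _⟩ := exists_notMem (k := C) (K := L) ∅
  have hd0 : degD (Finsupp.single Q 1 - Finsupp.single (mapPl (σ.restrictScalars C) Q) 1) = 0 := by
    rw [degD_sub, degD_single, degD_single, degP_mapPl, sub_self]
  obtain ⟨V, f0, hf0, -, hV⟩ := Div6_280.exists_div hp.pos hd0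
  obtain ⟨c, hc0, hc, hc1⟩ := h.normalise hf0
  set f := f0 * algebraMap C L c⁻¹ with hfdef
  have hcL : algebraMap C L c⁻¹ ≠ 0 := by simpa using hc0
  have hfne : f ≠ 0 := mul_ne_zero hf0 hcL
  have hdivf : divf (k := C) f = divf f0 := by
    rw [hfdef, divf_mul hf0 hcL, divf_const (inv_ne_zero hc0), add_zero]
  have hdiv : Finsupp.single Q 1 - Finsupp.single (mapPl (σ.restrictScalars C) Q) 1
      = (p : ℤ) • V + divf (k := C) f := by
    rw [hdivf, hV, natCast_zsmul]
  -- the norm of `f`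
  have hfix : σ (∏ i ∈ Finset.range p, (σ ^ i) f) = ∏ i ∈ Finset.range p, (σ ^ i) f := by
    have h1 : σ (∏ i ∈ Finset.range p, (σ ^ i) f) * f
        = (∏ i ∈ Finset.range p, (σ ^ i) f) * (σ ^ p) f := by
      rw [← Finset.prod_range_succ, Finset.prod_range_succ', map_prod]
      congr 1
      refine Finset.prod_congr rfl fun i _ => ?_
      rw [pow_succ', AlgEquiv.mul_apply]
    rw [hσp, AlgEquiv.one_apply] at h1
    exact mul_right_cancel₀ hfne h1
  obtain ⟨h0, hh⟩ := mem_range_of_fixed hp hdeg hσ1 hfix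
  have hσbres : ∀ x, W.v x ≤ 1 → red W (σ x) = s.restrictScalars (Ct C) (red W x) :=
    fun x hx => (hs x hx).symm
  have hmain := main_claim h hsp hp hσp (hσ σ) hσbres hfree hc1 hdiv hh
  have hWv : ∀ a : K, W.v (algebraMap K L a) = w.v a := fun a => DFunLike.congr_fun hW a
  have hw0 : w.v h0 = 1 := by
    rw [← hWv, hh, map_prod]
    refine Finset.prod_eq_one fun i _ => ?_
    rw [hσ, hc1]
  refine ⟨h0, hw0, fun b hb => hmain ?_, norm_div hσp hunr hfne hdiv hh⟩
  have hb0 : b ≠ 0 := by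
    rintro rfl
    rw [zero_pow hp.ne_zero] at hb
    exact red_ne_zero w hw0 hb.symm
  obtain ⟨g0, hg0, rfl⟩ := (isRes_red w).lift hb0
  refine ⟨g0⁻¹, by rw [hWv, map_inv₀, hg0, inv_one], ?_⟩
  have h1 : red w (h0 * g0⁻¹ ^ p) = 1 := by
    rw [red_mul w hw0.le (by rw [map_pow, map_inv₀, hg0, inv_one, one_pow]), 
      red_pow w (by rw [map_inv₀, hg0, inv_one]), red_inv w hg0, ← hb, ← mul_pow,
      mul_inv_cancel₀ hb0, one_pow]
  rw [← kapMap_red w W hW, h1, map_one]

end main

end Crest.Agent.R013.GR11_921
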