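import Crest.Agent.R013.CB1f_903
import Crest.Agent.R013.GRK1_903

/-!
# C-GR: final assembly
-/

set_option autoImplicit false
set_option linter.unusedSectionVars false

namespace Crest.Agent.R013.GRK_903

open scoped NNReal
open WithZero Polynomial IntermediateField
open Crest.Agent.R013.RR7_948 Crest.Agent.R013.Red332 Crest.Agent.R013.GR3_921
open Crest.Agent.R013.CB1_903
open Crest.Agent.R013.RR11_948 Crest.Agent.R013.RR12_948

universe u

section Defs

variable (C : Type*) [NormedField C] [IsUltrametricDist C] (p : ℕ)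

omit [IsUltrametricDist C] in
/-- existence of `p`-torsion classes (235), in terms of functions -/
def InTors : Prop :=
  ∀ (K : Type u) [Field K] [Algebra C K] (g : ℕ), HasGen C K g → 1 ≤ g →
    ∃ h : K, h ≠ 0 ∧ (∀ P : Pl C K, ∃ m : ℤ, P.v h = exp ((p : ℤ) * m)) ∧ ∀ f : K, f ^ p ≠ h

/-- the invariant case (921) -/
def InSig : Prop :=
  ∀ (K L : Type u) [Field K] [Field L] [Algebra C K] [Algebra C L] [Algebra K L]
    [IsScalarTower C K L] [FiniteDimensional K L] [IsGalois K L] (g : ℕ),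
    Module.finrank K L = p → UnrPl C K L → HasGen C K g → 1 ≤ g →
    HasGen C L (p * (g - 1) + 1) → ∀ (w : Nm C K) (W : Nm C L),
    W.v.comap (algebraMap K L) = w.v → HasGen (Ct C) (kap w) g →
    (∀ (σ : L ≃ₐ[K] L) x, W.v (σ x) = W.v x) →
    HasGen (Ct C) (kap W) g ∨ ∃ h : K, w.v h = 1 ∧ (∀ b : kap w, b ^ p ≠ red w h) ∧
      ∀ P : Pl C K, ∃ m : ℤ, P.v h = exp ((p : ℤ) * m)

end Defs

section Main

variable {C : Type*} [NormedField C] [IsUltrametricDist C] [IsAlgClosed C] [CharZero C]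

/-- **C-GR** from the invariant case and torsion -/
theorem inGR_of (p : ℕ) [hp : Fact p.Prime] (hpC : ‖(p : C)‖ < 1) [CharP (Ct C) p]
    [IsAlgClosed (Ct C)] (hT : InTors.{u} C p) (hS : InSig.{u} C p) : InGR.{u} C := by
  intro K _ _ g hg h2 w hw
  obtain ⟨h1, h10, h1div, h1n⟩ := hT K g hg (by omega)
  obtain ⟨L, _, _, _, _, _, _, y, hy, htop, hfr, hunr, g', hg', rfl⟩ :=
    exists_cover hp.out hg (by omega) h1 h10 h1div h1n
  have hlt : g < p * (g - 1) + 1 := by
    have h3 : 2 * (g - 1) ≤ p * (g - 1) := Nat.mul_le_mul_right _ hp.out.two_le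
    omega
  obtain ⟨W, hW⟩ := exists_nm (L := L) w
  have hfin : HasGen (Ct C) (kap W) g → ∃ (L : Type u) (_ : Field L) (_ : Algebra C L)
      (_ : Algebra K L) (_ : IsScalarTower C K L) (_ : FiniteDimensional K L), UnrPl C K L ∧
      ∃ (w' : Nm C L) (g1 g' : ℕ), HasGen C L g' ∧ HasGen (Ct C) (kap w') g1 ∧ 1 ≤ g1 ∧
        g1 < g' := fun h =>
    ⟨L, inferInstance, inferInstance, inferInstance, inferInstance, inferInstance, hunr, W, g, _,
      hg', h, by omega, hlt⟩
  by_cases hmov : ∃ σ : L ≃ₐ[K] L, ∃ x, W.v (σ x) ≠ W.v x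
  · obtain ⟨σ, hσ⟩ := hmov
    refine hfin (hasGen_of_moved (by rw [hfr]; exact hp.out)
      ⟨(p : C), Nat.cast_ne_zero.2 hp.out.ne_zero, hpC⟩ w W hW σ hσ hw)
  · push Not at hmov
    rcases hS K L g hfr hunr hg (by omega) hg' w W hW hw hmov with h3 | ⟨h, hh1, hh2, hh3⟩
    · exact hfin h3
    · obtain ⟨M, _, _, _, _, _, _, z, hz, hztop, hfrM, hunrM, hgM, W', hW', hgW'⟩ :=
        kummer_insep hg (by omega) h hh3 w hh1 hh2 hw
      exact ⟨M, inferInstance, inferInstance, inferInstance, inferInstance, inferInstance, hunrM,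
        W', g, _, hgM, hgW', by omega, hlt⟩

end Main

end Crest.Agent.R013.GRK_903
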