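import Mathlib
import Crest.Agent.R013.GR11_921
import Crest.Agent.R013.GRA_903
import Crest.Agent.R013.Tors15_235

/-!
# R013 / GR12: C-GR without hypotheses (helper921)
-/

set_option autoImplicit false
set_option linter.all false

namespace Crest.Agent.R013.GR12_921

open WithZero
open Crest.Agent.R013.RR7_948 Crest.Agent.R013.RR11_948 Crest.Agent.R013.RR12_948
open Crest.Agent.R013.Red332 Crest.Agent.R013.GR3_921
open Crest.Agent.R013.GRK_903 Crest.Agent.R013.CB1_903

universe u

/-- torsion classes, in terms of functions (235's theorem) -/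
theorem inTors (C : Type*) [NormedField C] [IsAlgClosed C] [CharZero C] (p : ℕ)
    (hp : p.Prime) : InTors.{u} C p := by
  intro K _ _ g hg hg1
  obtain ⟨i, j, f, s, rfl⟩ := hg
  obtain ⟨D, h, h0, hD, hn⟩ := Tors15_235.tors (F := C) (K := K) hg1 hp
  refine ⟨h, h0, fun P => ⟨-D P, ?_⟩, fun f hf => ?_⟩
  · rw [v_eq h0, ← hD, exp_inj, Finsupp.smul_apply, nsmul_eq_mul]
    ring
  · have hf0 : f ≠ 0 := by
      rintro rfl
      rw [zero_pow hp.ne_zero] at hf
      exact h0 hf.symm
    refine hn f hf0 ?_
    have hpow : ∀ n : ℕ, divf (k := C) (f ^ n) = n • divf f := by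
      intro n
      induction n with
      | zero => rw [pow_zero, divf_one, zero_smul]
      | succ n ih => rw [pow_succ, divf_mul (pow_ne_zero _ hf0) hf0, ih, succ_nsmul]
    rw [← hf, hpow] at hD
    ext P
    have h1 := DFunLike.congr_fun hD P
    rw [Finsupp.smul_apply, Finsupp.smul_apply, nsmul_eq_mul, nsmul_eq_mul] at h1
    exact mul_left_cancel₀ (by exact_mod_cast hp.ne_zero) h1

section

variable (C : Type*) [NormedField C] [IsUltrametricDist C] [IsAlgClosed C] [CharZero C]

/-- the invariant case -/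
theorem inSig (p : ℕ) [hp : Fact p.Prime] (hpC : ‖(p : C)‖ < 1) [CharP (Ct C) p]
    [IsAlgClosed (Ct C)] : InSig.{u} C p := by
  intro K L _ _ _ _ _ _ _ _ g hdeg hunr hgK hg1 hgL w W hW hgw hσ
  exact GR11_921.sig hpC hdeg hunr hg1 hgK hgL w W hW hgw hσ

/-- **C-GR** : a function field of genus `g ≥ 2` with a norm of genus `g` has a finite unramified
extension with a norm of positive genus smaller than its genus. -/
theorem inGR (p : ℕ) [hp : Fact p.Prime] (hpC : ‖(p : C)‖ < 1) [CharP (Ct C) p]
    [IsAlgClosed (Ct C)] : InGR.{u} C :=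
  inGR_of p hpC (inTors C p hp.out) (inSig C p hpC)

end

end Crest.Agent.R013.GR12_921
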