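import Crest.Agent.R013.Good1_408
import Crest.Agent.R013.CAn2_243
import Crest.Agent.R013.AN1_243

/-!
# Good annuli

An annulus of the `x`-line is given by `c` (`|c| < |T| < 1`) and the expansion `y : EE k C` of `x`
(`y = a + ρ T`).  `ACells k C K c y` : the splitting of `K` over this annulus: finitely many open
annuli `|c' j| < |T| < 1` with maps `f j = T^(m j) u` to the base annulus, `|c' j|^(m j) = |c|`,
and embeddings `io j : K → FA (c' j) ≤ EE`.
-/

set_option autoImplicit false
set_option linter.unusedSectionVars false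

noncomputable section

namespace Crest.Agent.R013.Good_408

open Module
open Crest.Agent.R013.Cell_408 Crest.Agent.R013.Comp_267 Crest.Agent.R013.EE809
open Crest.Agent.R013.CAn_243

variable (k C : Type*) [NontriviallyNormedField k] [CompleteSpace k] [IsUltrametricDist k]
  [NormedField C] [IsUltrametricDist C] [NormedAlgebra k C] [Algebra.IsAlgebraic k C]
  [IsAlgClosed C] [hk : Fact (DiscNorm k)]

/-- the splitting of `K` over the annulus `|c| < |T| < 1` with coordinate function `y` -/
structure ACells (K : Type*) [Field K] [Algebra C K] [Algebra (RatFunc C) K]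
    [IsScalarTower C (RatFunc C) K] (c : C) (y : EE k C) where
  c_ne : c ≠ 0
  c_lt : ‖c‖ < 1
  hy : y ∈ FA k c
  /-- the annuli of `K` -/
  J : Type
  fJ : Fintype J
  /-- degrees -/
  m : J → ℕ
  m_ne : ∀ j, m j ≠ 0
  /-- the annulus `j` is `|c' j| < |T| < 1` -/
  c' : J → C
  hc' : ∀ j, ‖c' j‖ ^ m j = ‖c‖
  /-- the maps to the base annulus -/
  f : J → EE k C
  we : ∀ j, WE (f j) (m j)
  wa : ∀ j (n : ℤ), ‖(f j).co n‖ * ‖c' j‖ ^ n ≤ ‖c' j‖ ^ m j
  /-- expansion of the elements of `K` -/
  io : J → K →ₐ[C] EE k C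
  io_mem : ∀ j a, io j a ∈ FA k (c' j)
  hx : ∀ j, io j (algebraMap (RatFunc C) K RatFunc.X) = compE (f j) (we j) (m_ne j) y
  sum_m : ∑ j, m j = finrank (RatFunc C) K
  inj : ∀ (n : ℕ) (b : Fin n → K), LinearIndependent (RatFunc C) b → ∀ e : Fin n → EE k C,
    (∀ i, e i ∈ FA k c) →
    (∀ j, ∑ i, compE (f j) (we j) (m_ne j) (e i) * io j (b i) = 0) → e = 0

/-- `K` splits over the annulus with coordinate function `y` -/
def GoodA (K : Type*) [Field K] [Algebra C K] [Algebra (RatFunc C) K]
    [IsScalarTower C (RatFunc C) K] (c : C) (y : EE k C) : Prop := Nonempty (ACells k C K c y)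

/-- the coordinate function of an annulus around `a` with outer radius `|ρ|` -/
def annY (a ρ : C) : EE k C := algebraMap C (EE k C) a + algebraMap C (EE k C) ρ * T 1

/-- the open annulus `|σ| < |x - a| < |ρ|` is good for `K` -/
def GoodAnn (K : Type*) [Field K] [Algebra C K] [Algebra (RatFunc C) K]
    [IsScalarTower C (RatFunc C) K] (a σ ρ : C) : Prop := GoodA k C K (σ / ρ) (annY k C a ρ)

attribute [instance] ACells.fJ

variable {k C}

theorem annY_mem (a ρ c : C) : annY k C a ρ ∈ FA k c :=
  add_mem (algebraMap_mem _ a) (mul_mem (algebraMap_mem _ ρ) (AN_le_FA c (T_mem_AN c 1)))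

theorem transc_T : Transcendental C (T 1 : EE k C) := by
  rw [transcendental_iff]
  intro P hP
  by_contra h0
  -- all roots of `P` are constants, `T` is not
  have hs := (IsAlgClosed.splits P).eq_prod_roots
  rw [hs, map_mul, Polynomial.aeval_C, map_multiset_prod, Multiset.map_map, mul_eq_zero] at hP
  rcases hP with h | h
  · rw [map_eq_zero] at h
    exact h0 (Polynomial.leadingCoeff_eq_zero.1 h)
  · rw [Multiset.prod_eq_zero_iff, Multiset.mem_map] at h
    obtain ⟨α, -, h⟩ := h
    rw [Function.comp_apply, map_sub, Polynomial.aeval_X, Polynomial.aeval_C, sub_eq_zero] at h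
    have h1 := congrArg (fun z : EE k C => z.co 1) h
    simp only [co_algebraMap] at h1
    rw [if_neg one_ne_zero] at h1
    change (if (1 : ℤ) = 1 then (1 : C) else 0) = 0 at h1
    rw [if_pos rfl] at h1
    exact one_ne_zero h1

theorem transc_annY (a : C) {ρ : C} (hρ : ρ ≠ 0) : Transcendental C (annY k C a ρ) := by
  intro h
  have h1 : (T 1 : EE k C) = (annY k C a ρ - algebraMap C (EE k C) a) *
      algebraMap C (EE k C) ρ⁻¹ := by
    rw [annY, add_sub_cancel_left, mul_right_comm, ← map_mul, mul_inv_cancel₀ hρ, map_one, one_mul]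
  refine transc_T (k := k) (C := C) ?_
  rw [h1]
  exact (h.sub (isAlgebraic_algebraMap a)).mul (isAlgebraic_algebraMap ρ⁻¹)

namespace ACells

variable {K : Type*} [Field K] [Algebra C K] [Algebra (RatFunc C) K]
    [IsScalarTower C (RatFunc C) K] {c : C} {y : EE k C}

/-- the composition with `f j` on `EE` -/
def φ (D : ACells k C K c y) (j : D.J) : EE k C →ₐ[C] EE k C := compE (D.f j) (D.we j) (D.m_ne j)

theorem hx' (D : ACells k C K c y) (j : D.J) :
    D.io j (algebraMap (RatFunc C) K RatFunc.X) = D.φ j y := D.hx j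

theorem c'_ne (D : ACells k C K c y) (j : D.J) : D.c' j ≠ 0 := by
  intro h
  have := D.hc' j
  rw [h, norm_zero, zero_pow (D.m_ne j)] at this
  exact D.c_ne (norm_eq_zero.1 this.symm)

theorem c'_lt (D : ACells k C K c y) (j : D.J) : ‖D.c' j‖ < 1 := by
  by_contra h
  have h1 := D.hc' j
  have h2 : 1 ≤ ‖D.c' j‖ ^ D.m j := one_le_pow₀ (not_lt.1 h)
  rw [h1] at h2
  exact absurd D.c_lt (not_lt.2 h2)

theorem gn_φ (D : ACells k C K c y) (j : D.J) (g : EE k C) : gn (D.φ j g) = gn g := gn_compE _ _ g

theorem od_φ (D : ACells k C K c y) (j : D.J) (g : EE k C) : od (D.φ j g) = D.m j * od g :=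
  od_compE _ _ g

variable [FiniteDimensional (RatFunc C) K]

theorem nonempty (D : ACells k C K c y) : Nonempty D.J := by
  by_contra h
  rw [not_nonempty_iff] at h
  have h1 := D.sum_m
  have h2 := Module.finrank_pos (R := RatFunc C) (M := K)
  rw [Finset.univ_eq_empty, Finset.sum_empty] at h1
  omega

theorem transc (D : ACells k C K c y) : Transcendental C y := by
  obtain ⟨j⟩ := D.nonempty
  intro hy
  have h1 : IsAlgebraic C (D.φ j y) := hy.algHom (D.φ j)
  rw [← D.hx'] at h1
  have h2 := (isAlgebraic_algHom_iff (D.io j) (D.io j).toRingHom.injective).1 h1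
  have h3 := (isAlgebraic_algebraMap_iff (A := K)
    (algebraMap (RatFunc C) K).injective).1 h2
  exact RatFunc.transcendental_X h3

/-- the expansion `C(x) → EE` on the base annulus -/
def i (D : ACells k C K c y) : RatFunc C →ₐ[C] EE k C := ratHom y D.transc

theorem i_X (D : ACells k C K c y) : D.i RatFunc.X = y := ratHom_X _ _

theorem i_mem (D : ACells k C K c y) (r : RatFunc C) : D.i r ∈ FA k c := by
  have h : ∀ P : Polynomial C, D.i (algebraMap (Polynomial C) (RatFunc C) P) ∈ FA k c := by
    intro P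
    rw [i, ratHom_algebraMap]
    induction P using Polynomial.induction_on' with
    | add P Q hP hQ => rw [map_add]; exact add_mem hP hQ
    | monomial n a =>
      rw [Polynomial.aeval_monomial]
      exact mul_mem (algebraMap_mem _ a) (pow_mem D.hy n)
  rw [← RatFunc.num_div_denom r, map_div₀]
  exact div_mem (h _) (h _)

theorem comm (D : ACells k C K c y) (j : D.J) (r : RatFunc C) :
    D.φ j (D.i r) = D.io j (algebraMap (RatFunc C) K r) := by
  have h : (D.φ j).toRingHom.comp D.i.toRingHom =
      (D.io j).toRingHom.comp (algebraMap (RatFunc C) K) := by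
    refine rat_ext (fun c => ?_) ?_
    · change D.φ j (D.i (algebraMap C _ c)) = D.io j (algebraMap (RatFunc C) K (algebraMap C _ c))
      rw [AlgHom.commutes, AlgHom.commutes, ← IsScalarTower.algebraMap_apply, AlgHom.commutes]
    · change D.φ j (D.i RatFunc.X) = D.io j (algebraMap (RatFunc C) K RatFunc.X)
      rw [i_X, hx']
  exact DFunLike.congr_fun h r

theorem inj' (D : ACells k C K c y) {I : Type*} [Fintype I] (b : I → K)
    (hb : LinearIndependent (RatFunc C) b) (e : I → EE k C) (he : ∀ i, e i ∈ FA k c)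
    (h0 : ∀ j, ∑ i, D.φ j (e i) * D.io j (b i) = 0) : e = 0 := by
  have e1 := Fintype.equivFin I
  have h1 := D.inj (Fintype.card I) (fun l => b (e1.symm l))
    (hb.comp _ e1.symm.injective) (fun l => e (e1.symm l)) (fun l => he _) (fun j => by
      rw [← h0 j]
      exact Equiv.sum_comp e1.symm (fun i => D.φ j (e i) * D.io j (b i)))
  funext i
  have := congrFun h1 (e1 i)
  simpa using this

end ACells

end Crest.Agent.R013.Good_408
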