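import Mathlib

/-!
# Good cells, abstract core

`F0` (`= C(x)`), `Fc` (the field of functions of a cell of the `x`-line), `K / F0` finite, fields
`E j` with `φ j : Fc → E j`, `ι j : K → E j` agreeing on `F0`.

* `Inj φ ι b` : the family `b` of elements of `K` is independent over `Fc` in `∏ E j`;
* `Inj.of_basis` : true for one basis of `K / F0`, hence for all independent families;
* `Inj.surj` : dimension count, `Fc ⊗ K → ∏ E j` is onto;
* `Inj.of_surj` : converse;
* `Inj.of_embeddings` : `[K : F0]` different embeddings.
-/

namespace Crest.Agent.R013.Good_408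

open Module

section Core

variable {F0 Fc K : Type*} [Field F0] [Field Fc] [Field K] [Algebra F0 Fc] [Algebra F0 K]
variable {J : Type*} {E : J → Type*} [∀ j, Field (E j)]

/-- The family `b` stays independent over `Fc` in `∏ E j`. -/
def Inj (φ : ∀ j, Fc →+* E j) (ι : ∀ j, K →+* E j) {I : Type*} [Fintype I] (b : I → K) : Prop :=
  ∀ e : I → Fc, (∀ j, ∑ i, φ j (e i) * ι j (b i) = 0) → e = 0

variable {φ : ∀ j, Fc →+* E j} {ι : ∀ j, K →+* E j}

/-- If one basis of `K / F0` stays independent, every independent family does. -/
theorem Inj.of_basis (hc : ∀ j a, φ j (algebraMap F0 Fc a) = ι j (algebraMap F0 K a))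
    {I : Type*} [Fintype I] (b : Basis I F0 K) (hb : Inj φ ι b)
    {I' : Type*} [Fintype I'] (c : I' → K) (hli : LinearIndependent F0 c) : Inj φ ι c := by
  intro e he
  have hci : ∀ i', c i' = ∑ i, b.repr (c i') i • b i := fun i' => (b.sum_repr (c i')).symm
  have key : (fun i => ∑ i', e i' * algebraMap F0 Fc (b.repr (c i') i)) = 0 := by
    refine hb _ fun j => ?_
    rw [← he j]
    have : ∀ i', φ j (e i') * ι j (c i') =
        ∑ i, φ j (e i' * algebraMap F0 Fc (b.repr (c i') i)) * ι j (b i) := by
      intro i'
      conv_lhs => rw [hci i', map_sum, Finset.mul_sum]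
      refine Finset.sum_congr rfl fun i _ => ?_
      rw [Algebra.smul_def, map_mul, map_mul, hc]
      ring
    simp only [this]
    rw [Finset.sum_comm]
    refine Finset.sum_congr rfl fun i _ => ?_
    rw [map_sum, Finset.sum_mul]
  let β := Basis.ofVectorSpace F0 Fc
  have h2 : ∀ l i', β.repr (e i') l = 0 := by
    intro l
    have h3 : ∑ i', (β.repr (e i') l) • c i' = 0 := by
      apply b.repr.injective
      ext i
      rw [map_sum, map_zero, Finsupp.finsetSum_apply]
      have h4 := congrArg (fun z => β.repr z l) (congrFun key i)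
      simp only [Pi.zero_apply, map_zero, Finsupp.coe_zero] at h4
      rw [map_sum, Finsupp.finsetSum_apply] at h4
      rw [Finsupp.coe_zero, Pi.zero_apply, ← h4]
      refine Finset.sum_congr rfl fun i' _ => ?_
      rw [mul_comm (e i'), ← Algebra.smul_def, map_smul, map_smul, Finsupp.smul_apply,
        Finsupp.smul_apply, smul_eq_mul, smul_eq_mul, mul_comm]
    exact Fintype.linearIndependent_iff.1 hli _ h3
  funext i'
  apply β.repr.injective
  ext l
  rw [h2 l i']
  simp

/-- The same with an independent family of the right size. -/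
theorem Inj.of_linearIndependent [FiniteDimensional F0 K]
    (hc : ∀ j a, φ j (algebraMap F0 Fc a) = ι j (algebraMap F0 K a))
    {I : Type*} [Fintype I] (b : I → K) (hli : LinearIndependent F0 b)
    (hcard : Fintype.card I = finrank F0 K) (hb : Inj φ ι b)
    {I' : Type*} [Fintype I'] (c : I' → K) (hc' : LinearIndependent F0 c) : Inj φ ι c := by
  have : Nonempty I := by
    rw [← Fintype.card_pos_iff, hcard]; exact Module.finrank_pos
  exact Inj.of_basis hc (basisOfLinearIndependentOfCardEqFinrank hli hcard) (by
    rw [coe_basisOfLinearIndependentOfCardEqFinrank]; exact hb) c hc'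

/-- the size of an independent family is at most the dimension -/
theorem Inj.card_le [Fintype J] {I : Type*} [Fintype I] {b : I → K} (hb : Inj φ ι b)
    (m : J → ℕ)
    (hspan : ∀ j, ∃ β : Fin (m j) → E j, ∀ z, ∃ e : Fin (m j) → Fc, z = ∑ l, φ j (e l) * β l) :
    Fintype.card I ≤ ∑ j, m j := by
  classical
  let _ : ∀ j, Module Fc (E j) := fun j => (φ j).toModule
  have hsm : ∀ j (a : Fc) (x : E j), a • x = φ j a * x := fun j a x => rfl
  choose β hβ using hspan
  let L : (I → Fc) →ₗ[Fc] (∀ j, E j) :=
    { toFun := fun e j => ∑ i, φ j (e i) * ι j (b i)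
      map_add' := by
        intro e e'
        funext j
        simp only [Pi.add_apply, map_add, add_mul, Finset.sum_add_distrib]
      map_smul' := by
        intro a e
        funext j
        simp only [Pi.smul_apply, RingHom.id_apply, smul_eq_mul, map_mul, hsm, Finset.mul_sum,
          mul_assoc] }
  have hL : Function.Injective L := by
    rw [← LinearMap.ker_eq_bot, LinearMap.ker_eq_bot']
    intro e he
    exact hb e fun j => congrFun he j
  let S : ((Σ j, Fin (m j)) → Fc) →ₗ[Fc] (∀ j, E j) :=
    { toFun := fun e j => ∑ l, φ j (e ⟨j, l⟩) * β j l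
      map_add' := by
        intro e e'
        funext j
        simp only [Pi.add_apply, map_add, add_mul, Finset.sum_add_distrib]
      map_smul' := by
        intro a e
        funext j
        simp only [Pi.smul_apply, RingHom.id_apply, smul_eq_mul, map_mul, hsm, Finset.mul_sum,
          mul_assoc] }
  have hS : Function.Surjective S := by
    intro z
    choose e he using fun j => hβ j (z j)
    refine ⟨fun p => e p.1 p.2, ?_⟩
    funext j
    exact (he j).symm
  have hfin : Module.Finite Fc (∀ j, E j) := Module.Finite.of_surjective S hS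
  have h1 : finrank Fc (∀ j, E j) ≤ ∑ j, m j := by
    have := LinearMap.finrank_le_finrank_of_surjective (f := S) hS
    rwa [finrank_fintype_fun_eq_card, Fintype.card_sigma, Finset.sum_congr rfl
      fun j _ => Fintype.card_fin (m j)] at this
  have h2 : Fintype.card I ≤ finrank Fc (∀ j, E j) := by
    have := LinearMap.finrank_le_finrank_of_injective (f := L) hL
    rwa [finrank_fintype_fun_eq_card] at this
  exact h2.trans h1

/-- Dimension count: an independent family whose size is at least the dimension spans. -/
theorem Inj.surj [Fintype J] {I : Type*} [Fintype I] {b : I → K} (hb : Inj φ ι b)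
    (m : J → ℕ) (hm : ∑ j, m j ≤ Fintype.card I)
    (hspan : ∀ j, ∃ β : Fin (m j) → E j, ∀ z, ∃ e : Fin (m j) → Fc, z = ∑ l, φ j (e l) * β l)
    (z : ∀ j, E j) : ∃ e : I → Fc, ∀ j, ∑ i, φ j (e i) * ι j (b i) = z j := by
  classical
  let _ : ∀ j, Module Fc (E j) := fun j => (φ j).toModule
  have hsm : ∀ j (a : Fc) (x : E j), a • x = φ j a * x := fun j a x => rfl
  choose β hβ using hspan
  let L : (I → Fc) →ₗ[Fc] (∀ j, E j) :=
    { toFun := fun e j => ∑ i, φ j (e i) * ι j (b i)
      map_add' := by
        intro e e'
        funext j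
        simp only [Pi.add_apply, map_add, add_mul, Finset.sum_add_distrib]
      map_smul' := by
        intro a e
        funext j
        simp only [Pi.smul_apply, RingHom.id_apply, smul_eq_mul, map_mul, hsm, Finset.mul_sum,
          mul_assoc] }
  have hL : Function.Injective L := by
    rw [← LinearMap.ker_eq_bot, LinearMap.ker_eq_bot']
    intro e he
    exact hb e fun j => congrFun he j
  let S : ((Σ j, Fin (m j)) → Fc) →ₗ[Fc] (∀ j, E j) :=
    { toFun := fun e j => ∑ l, φ j (e ⟨j, l⟩) * β j l
      map_add' := by
        intro e e'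
        funext j
        simp only [Pi.add_apply, map_add, add_mul, Finset.sum_add_distrib]
      map_smul' := by
        intro a e
        funext j
        simp only [Pi.smul_apply, RingHom.id_apply, smul_eq_mul, map_mul, hsm, Finset.mul_sum,
          mul_assoc] }
  have hS : Function.Surjective S := by
    intro z
    choose e he using fun j => hβ j (z j)
    refine ⟨fun p => e p.1 p.2, ?_⟩
    funext j
    exact (he j).symm
  have hfin : Module.Finite Fc (∀ j, E j) := Module.Finite.of_surjective S hS
  have h1 : finrank Fc (∀ j, E j) ≤ ∑ j, m j := by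
    have := LinearMap.finrank_le_finrank_of_surjective (f := S) hS
    rwa [finrank_fintype_fun_eq_card, Fintype.card_sigma, Finset.sum_congr rfl
      fun j _ => Fintype.card_fin (m j)] at this
  have h2 : Fintype.card I ≤ finrank Fc (∀ j, E j) := by
    have := LinearMap.finrank_le_finrank_of_injective (f := L) hL
    rwa [finrank_fintype_fun_eq_card] at this
  have h3 : Function.Surjective L := by
    refine (LinearMap.injective_iff_surjective_of_finrank_eq_finrank ?_).1 hL
    rw [finrank_fintype_fun_eq_card]
    omega
  obtain ⟨e, he⟩ := h3 z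
  exact ⟨e, fun j => congrFun he j⟩

/-- Converse: a family which spans and whose size is at most the dimension is independent. -/
theorem Inj.of_surj [Fintype J] {I : Type*} [Fintype I] {b : I → K}
    (m : J → ℕ) (hm : Fintype.card I ≤ ∑ j, m j)
    (hli : ∀ j, ∃ β : Fin (m j) → E j, ∀ e : Fin (m j) → Fc, ∑ l, φ j (e l) * β l = 0 → e = 0)
    (hs : ∀ z : ∀ j, E j, ∃ e : I → Fc, ∀ j, ∑ i, φ j (e i) * ι j (b i) = z j) : Inj φ ι b := by
  classical
  let _ : ∀ j, Module Fc (E j) := fun j => (φ j).toModule
  have hsm : ∀ j (a : Fc) (x : E j), a • x = φ j a * x := fun j a x => rfl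
  choose β hβ using hli
  let L : (I → Fc) →ₗ[Fc] (∀ j, E j) :=
    { toFun := fun e j => ∑ i, φ j (e i) * ι j (b i)
      map_add' := by
        intro e e'
        funext j
        simp only [Pi.add_apply, map_add, add_mul, Finset.sum_add_distrib]
      map_smul' := by
        intro a e
        funext j
        simp only [Pi.smul_apply, RingHom.id_apply, smul_eq_mul, map_mul, hsm, Finset.mul_sum,
          mul_assoc] }
  have hL : Function.Surjective L := by
    intro z
    obtain ⟨e, he⟩ := hs z
    exact ⟨e, funext he⟩
  let S : ((Σ j, Fin (m j)) → Fc) →ₗ[Fc] (∀ j, E j) :=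
    { toFun := fun e j => ∑ l, φ j (e ⟨j, l⟩) * β j l
      map_add' := by
        intro e e'
        funext j
        simp only [Pi.add_apply, map_add, add_mul, Finset.sum_add_distrib]
      map_smul' := by
        intro a e
        funext j
        simp only [Pi.smul_apply, RingHom.id_apply, smul_eq_mul, map_mul, hsm, Finset.mul_sum,
          mul_assoc] }
  have hS : Function.Injective S := by
    rw [← LinearMap.ker_eq_bot, LinearMap.ker_eq_bot']
    intro e he
    funext ⟨j, l⟩
    exact congrFun (hβ j (fun l => e ⟨j, l⟩) (congrFun he j)) l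
  have hfin : Module.Finite Fc (∀ j, E j) := Module.Finite.of_surjective L hL
  have h1 : ∑ j, m j ≤ finrank Fc (∀ j, E j) := by
    have := LinearMap.finrank_le_finrank_of_injective (f := S) hS
    rwa [finrank_fintype_fun_eq_card, Fintype.card_sigma, Finset.sum_congr rfl
      fun j _ => Fintype.card_fin (m j)] at this
  have h2 : finrank Fc (∀ j, E j) ≤ Fintype.card I := by
    have := LinearMap.finrank_le_finrank_of_surjective (f := L) hL
    rwa [finrank_fintype_fun_eq_card] at this
  have h3 : Function.Injective L := by
    refine (LinearMap.injective_iff_surjective_of_finrank_eq_finrank ?_).2 hL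
    rw [finrank_fintype_fun_eq_card]
    omega
  intro e he
  apply h3
  rw [map_zero]
  exact funext he

/-- `[K : F0]` different embeddings of `K` which factor through the `E j` over `Fc`. -/
theorem Inj.of_embeddings {I : Type*} [Fintype I] (b : Basis I F0 K)
    {Ω : Type*} [Field Ω] (s : Fc →+* Ω) {N : Type*} [Fintype N] (σ : N → K →+* Ω)
    (hσ : Function.Injective σ) (hN : Fintype.card I ≤ Fintype.card N)
    (hfac : ∀ k, ∃ j, ∃ θ : E j →+* Ω, (∀ a, θ (φ j a) = s a) ∧ ∀ x, θ (ι j x) = σ k x)
    (hc : ∀ j a, φ j (algebraMap F0 Fc a) = ι j (algebraMap F0 K a)) : Inj φ ι b := by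
  classical
  have hσ0 : ∀ k a, σ k (algebraMap F0 K a) = s (algebraMap F0 Fc a) := by
    intro k a
    obtain ⟨j, θ, h1, h2⟩ := hfac k
    rw [← h2, ← h1, hc]
  -- rows are independent
  have hrow : LinearIndependent Ω (fun k : N => fun i : I => σ k (b i)) := by
    rw [Fintype.linearIndependent_iff]
    intro c h0
    have h1 : ∀ x, ∑ k, c k * σ k x = 0 := by
      intro x
      conv_lhs => rw [← b.sum_repr x]
      have : ∀ k, c k * σ k (∑ i, b.repr x i • b i) =
          ∑ i, s (algebraMap F0 Fc (b.repr x i)) * (c k * σ k (b i)) := by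
        intro k
        rw [map_sum, Finset.mul_sum]
        refine Finset.sum_congr rfl fun i _ => ?_
        rw [Algebra.smul_def, map_mul, hσ0]
        ring
      simp only [this]
      rw [Finset.sum_comm]
      refine Finset.sum_eq_zero fun i _ => ?_
      rw [← Finset.mul_sum]
      have h2 := congrFun h0 i
      simp only [Finset.sum_apply, Pi.smul_apply, smul_eq_mul, Pi.zero_apply] at h2
      rw [h2, mul_zero]
    have hd := (linearIndependent_monoidHom K Ω).comp (fun k : N => ((σ k : K →+* Ω) : K →* Ω))
      (fun k k' h => hσ (RingHom.ext fun x => DFunLike.congr_fun h x))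
    rw [Fintype.linearIndependent_iff] at hd
    refine hd c ?_
    funext x
    have := h1 x
    simpa using this
  have hcard : Fintype.card N = finrank Ω (I → Ω) := by
    apply le_antisymm
    · exact hrow.fintype_card_le_finrank
    · rw [finrank_fintype_fun_eq_card]; exact hN
  have hspan := hrow.span_eq_top_of_card_eq_finrank' hcard
  intro e he
  have hz : ∀ k, ∑ i, s (e i) * σ k (b i) = 0 := by
    intro k
    obtain ⟨j, θ, h1, h2⟩ := hfac k
    have := congrArg θ (he j)
    rw [map_sum, map_zero] at this
    rw [← this]
    refine Finset.sum_congr rfl fun i _ => ?_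
    rw [map_mul, h1, h2]
  -- the functional `v ↦ ∑ s (e i) v i` vanishes on the span
  let F : (I → Ω) →ₗ[Ω] Ω :=
    { toFun := fun v => ∑ i, s (e i) * v i
      map_add' := by intro u v; simp only [Pi.add_apply, mul_add, Finset.sum_add_distrib]
      map_smul' := by
        intro a v
        simp only [Pi.smul_apply, smul_eq_mul, RingHom.id_apply, Finset.mul_sum]
        refine Finset.sum_congr rfl fun i _ => ?_
        ring }
  have hF : F = 0 := by
    refine LinearMap.ext_on (s := Set.range fun k : N => fun i : I => σ k (b i)) hspan ?_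
    rintro _ ⟨k, rfl⟩
    exact hz k
  funext i
  have h5 : F (Pi.single i 1) = 0 := by rw [hF]; rfl
  have h6 : F (Pi.single i 1) = s (e i) := by
    change ∑ i', s (e i') * (Pi.single i (1 : Ω) : I → Ω) i' = s (e i)
    rw [Finset.sum_eq_single i]
    · simp
    · intro i' _ hi'
      simp [Pi.single_eq_of_ne hi']
    · intro h; exact absurd (Finset.mem_univ i) h
  rw [h6] at h5
  exact (map_eq_zero s).1 h5

end Core

end Crest.Agent.R013.Good_408
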