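import Crest.Agent.R013.Comp4_267
import Crest.Agent.R013.Good0_408

/-!
# Good discs

`K` finite over `C(x) = RatFunc C`.  A disc of the `x`-line is given by the expansion `y : FD k C`
of `x` on it (`y = a + ρ T`, or `y = ρ / T` for a disc at infinity).

`DCells k C K y` : the splitting of `K` over this disc: finitely many open discs `j` with
coordinate `T`, maps `f j` (normalised of Weierstrass degree `m j ≥ 1`) to the base disc, and
embeddings `io j : K → FD` with `io j x = y ∘ f j`, `∑ m j = [K : C(x)]`, and `K ⊗ FD → ∏ FD`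
injective.
-/

set_option autoImplicit false
set_option linter.unusedSectionVars false

noncomputable section

namespace Crest.Agent.R013.Good_408

open Module
open Crest.Agent.R013.Cell_408 Crest.Agent.R013.Comp_267

section Rat

variable {C L : Type*} [Field C] [Field L] [Algebra C L]

theorem aeval_ratFunc_X (P : Polynomial C) :
    Polynomial.aeval (RatFunc.X : RatFunc C) P = algebraMap (Polynomial C) (RatFunc C) P := by
  rw [← RatFunc.algebraMap_X, Polynomial.aeval_algebraMap_apply, Polynomial.aeval_X_left]
  rfl

/-- two ring homomorphisms of `C(x)` which agree on `C` and at `x` -/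
theorem rat_ext {φ ψ : RatFunc C →+* L} (hC : ∀ c, φ (algebraMap C _ c) = ψ (algebraMap C _ c))
    (hX : φ RatFunc.X = ψ RatFunc.X) : φ = ψ := by
  have h : ∀ P : Polynomial C, φ (algebraMap (Polynomial C) (RatFunc C) P) =
      ψ (algebraMap (Polynomial C) (RatFunc C) P) := by
    intro P
    induction P using Polynomial.induction_on' with
    | add P Q hP hQ => rw [map_add, map_add, map_add, hP, hQ]
    | monomial n a =>
      rw [← Polynomial.C_mul_X_pow_eq_monomial, map_mul, map_pow, RatFunc.algebraMap_X,
        RatFunc.algebraMap_C, ← RatFunc.algebraMap_eq_C, map_mul, map_mul, map_pow, map_pow, hX,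
        hC]
  refine RingHom.ext fun r => ?_
  rw [← RatFunc.num_div_denom r, map_div₀, map_div₀, h, h]

/-- the homomorphism `C(x) → L`, `x ↦ y`, `y` transcendental -/
def ratHom (y : L) (hy : Transcendental C y) : RatFunc C →ₐ[C] L :=
  RatFunc.liftAlgHom (Polynomial.aeval y) (by
    intro P hP
    rw [Submonoid.mem_comap]
    refine mem_nonZeroDivisors_of_ne_zero fun h => ?_
    exact nonZeroDivisors.ne_zero hP
      ((transcendental_iff_injective.1 hy) (h.trans (map_zero _).symm)))

theorem ratHom_algebraMap (y : L) (hy : Transcendental C y) (P : Polynomial C) :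
    ratHom y hy (algebraMap (Polynomial C) (RatFunc C) P) = Polynomial.aeval y P := by
  rw [ratHom]
  exact RatFunc.liftRingHom_algebraMap _ _ _

theorem ratHom_X (y : L) (hy : Transcendental C y) : ratHom y hy RatFunc.X = y := by
  rw [← RatFunc.algebraMap_X, ratHom_algebraMap, Polynomial.aeval_X]

end Rat

variable (k C : Type*) [NontriviallyNormedField k] [CompleteSpace k] [IsUltrametricDist k]
  [NormedField C] [IsUltrametricDist C] [NormedAlgebra k C] [Algebra.IsAlgebraic k C]
  [IsAlgClosed C] [hk : Fact (DiscNorm k)]

/-- the splitting of `K` over the disc with coordinate function `y` -/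
structure DCells (K : Type*) [Field K] [Algebra C K] [Algebra (RatFunc C) K]
    [IsScalarTower C (RatFunc C) K] (y : FD k C) where
  /-- the discs of `K` -/
  J : Type
  fJ : Fintype J
  /-- degrees -/
  m : J → ℕ
  /-- the maps to the base disc -/
  f : J → PowerSeries C
  wd : ∀ j, WD k (f j) (m j)
  m_ne : ∀ j, m j ≠ 0
  /-- expansion of the elements of `K` -/
  io : J → K →ₐ[C] FD k C
  hx : ∀ j, io j (algebraMap (RatFunc C) K RatFunc.X) = compF hk.out (wd j) (m_ne j) y
  sum_m : ∑ j, m j = finrank (RatFunc C) K
  inj : ∀ (n : ℕ) (b : Fin n → K), LinearIndependent (RatFunc C) b →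
    Inj (fun j => (compF hk.out (wd j) (m_ne j)).toRingHom) (fun j => (io j).toRingHom) b

/-- `K` splits over the disc with coordinate function `y` -/
def GoodD (K : Type*) [Field K] [Algebra C K] [Algebra (RatFunc C) K]
    [IsScalarTower C (RatFunc C) K] (y : FD k C) : Prop := Nonempty (DCells k C K y)

/-- the coordinate function of the disc `|x - a| < |ρ|` -/
def discY (a ρ : C) : FD k C := algebraMap C (FD k C) a + algebraMap C (FD k C) ρ * TF k C

/-- the coordinate function of the disc `|x| > |ρ|` -/
def infY (ρ : C) : FD k C := algebraMap C (FD k C) ρ * (TF k C)⁻¹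

/-- the open disc `|x - a| < |ρ|` is good for `K` -/
def GoodDisc (K : Type*) [Field K] [Algebra C K] [Algebra (RatFunc C) K]
    [IsScalarTower C (RatFunc C) K] (a ρ : C) : Prop := GoodD k C K (discY k C a ρ)

/-- the open disc `|x| > |ρ|` is good for `K` -/
def GoodInf (K : Type*) [Field K] [Algebra C K] [Algebra (RatFunc C) K]
    [IsScalarTower C (RatFunc C) K] (ρ : C) : Prop := GoodD k C K (infY k C ρ)

attribute [instance] DCells.fJ

namespace DCells

variable {k C}
variable {K : Type*} [Field K] [Algebra C K] [Algebra (RatFunc C) K]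
    [IsScalarTower C (RatFunc C) K] {y : FD k C}

/-- the composition with `f j` on `FD` -/
def φ (D : DCells k C K y) (j : D.J) : FD k C →ₐ[C] FD k C := compF hk.out (D.wd j) (D.m_ne j)

theorem hx' (D : DCells k C K y) (j : D.J) :
    D.io j (algebraMap (RatFunc C) K RatFunc.X) = D.φ j y := D.hx j

variable [FiniteDimensional (RatFunc C) K]

theorem nonempty (D : DCells k C K y) : Nonempty D.J := by
  by_contra h
  rw [not_nonempty_iff] at h
  have h1 := D.sum_m
  have h2 := Module.finrank_pos (R := RatFunc C) (M := K)
  rw [Finset.univ_eq_empty, Finset.sum_empty] at h1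
  omega

theorem transc (D : DCells k C K y) : Transcendental C y := by
  obtain ⟨j⟩ := D.nonempty
  intro hy
  have h1 : IsAlgebraic C (D.φ j y) := hy.algHom (D.φ j)
  rw [← D.hx'] at h1
  have h2 := (isAlgebraic_algHom_iff (D.io j) (D.io j).toRingHom.injective).1 h1
  have h3 := (isAlgebraic_algebraMap_iff (A := K)
    (algebraMap (RatFunc C) K).injective).1 h2
  exact RatFunc.transcendental_X h3

/-- the expansion `C(x) → FD` on the base disc -/
def i (D : DCells k C K y) : RatFunc C →ₐ[C] FD k C := ratHom y D.transc

theorem i_X (D : DCells k C K y) : D.i RatFunc.X = y := ratHom_X _ _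

theorem comm (D : DCells k C K y) (j : D.J) (r : RatFunc C) :
    D.φ j (D.i r) = D.io j (algebraMap (RatFunc C) K r) := by
  have h : (D.φ j).toRingHom.comp D.i.toRingHom =
      (D.io j).toRingHom.comp (algebraMap (RatFunc C) K) := by
    refine rat_ext (fun c => ?_) ?_
    · change D.φ j (D.i (algebraMap C _ c)) = D.io j (algebraMap (RatFunc C) K (algebraMap C _ c))
      rw [AlgHom.commutes, AlgHom.commutes, ← IsScalarTower.algebraMap_apply, AlgHom.commutes]
    · change D.φ j (D.i RatFunc.X) = D.io j (algebraMap (RatFunc C) K RatFunc.X)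
      rw [i_X, hx']
  exact DFunLike.congr_fun h r

theorem inj' (D : DCells k C K y) {I : Type*} [Fintype I] (b : I → K)
    (hb : LinearIndependent (RatFunc C) b) :
    Inj (fun j => (D.φ j).toRingHom) (fun j => (D.io j).toRingHom) b := by
  intro e he
  have e1 := Fintype.equivFin I
  have h1 := D.inj (Fintype.card I) (fun l => b (e1.symm l))
    (hb.comp _ e1.symm.injective) (fun l => e (e1.symm l)) (fun j => by
      rw [← he j]
      exact Equiv.sum_comp e1.symm (fun i => (D.φ j).toRingHom (e i) * (D.io j).toRingHom (b i)))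
  funext i
  have := congrFun h1 (e1 i)
  simpa using this

/-- surjectivity of `K ⊗ FD → ∏ FD` -/
theorem surj (D : DCells k C K y) {I : Type*} [Fintype I] (b : Basis I (RatFunc C) K)
    (z : D.J → FD k C) : ∃ e : I → FD k C, ∀ j, ∑ i, D.φ j (e i) * D.io j (b i) = z j := by
  refine (D.inj' b b.linearIndependent).surj D.m ?_ (fun j => ?_) z
  · rw [D.sum_m, Module.finrank_eq_card_basis b]
  · exact ⟨fun l => TF k C ^ (l : ℕ), fun z => compF_repr hk.out (D.wd j) (D.m_ne j) z⟩

end DCells

section Mk

variable {k C}
variable {K : Type*} [Field K] [Algebra C K] [Algebra (RatFunc C) K]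
    [IsScalarTower C (RatFunc C) K] [FiniteDimensional (RatFunc C) K]

/-- criterion: it is enough to know injectivity for one basis, and `∑ m j ≤ [K : C(x)]` -/
theorem GoodD.mk' (y : FD k C) (hy : Transcendental C y) (J : Type) [Fintype J] (m : J → ℕ)
    (f : J → PowerSeries C) (wd : ∀ j, WD k (f j) (m j)) (m_ne : ∀ j, m j ≠ 0)
    (io : J → K →ₐ[C] FD k C)
    (hx : ∀ j, io j (algebraMap (RatFunc C) K RatFunc.X) = compF hk.out (wd j) (m_ne j) y)
    (sum_m : ∑ j, m j ≤ finrank (RatFunc C) K)
    {I : Type*} [Fintype I] (b : I → K) (hb : LinearIndependent (RatFunc C) b)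
    (hcard : Fintype.card I = finrank (RatFunc C) K)
    (inj : Inj (fun j => (compF hk.out (wd j) (m_ne j)).toRingHom)
      (fun j => (io j).toRingHom) b) : GoodD k C K y := by
  let i : RatFunc C →ₐ[C] FD k C := ratHom y hy
  have hc : ∀ j (r : RatFunc C), compF hk.out (wd j) (m_ne j) (i r) =
      io j (algebraMap (RatFunc C) K r) := by
    intro j r
    have h : (compF hk.out (wd j) (m_ne j)).toRingHom.comp i.toRingHom =
        (io j).toRingHom.comp (algebraMap (RatFunc C) K) := by
      refine rat_ext (fun c => ?_) ?_
      · change compF hk.out (wd j) (m_ne j) (i (algebraMap C _ c)) =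
          io j (algebraMap (RatFunc C) K (algebraMap C _ c))
        rw [AlgHom.commutes, AlgHom.commutes, ← IsScalarTower.algebraMap_apply, AlgHom.commutes]
      · change compF hk.out (wd j) (m_ne j) (i RatFunc.X) =
          io j (algebraMap (RatFunc C) K RatFunc.X)
        rw [ratHom_X, hx]
    exact DFunLike.congr_fun h r
  have hall : ∀ (n : ℕ) (b : Fin n → K), LinearIndependent (RatFunc C) b →
      Inj (fun j => (compF hk.out (wd j) (m_ne j)).toRingHom) (fun j => (io j).toRingHom) b := by
    intro n c hc'
    let _ : Algebra (RatFunc C) (FD k C) := i.toRingHom.toAlgebra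
    exact Inj.of_linearIndependent (F0 := RatFunc C) (Fc := FD k C) (E := fun _ => FD k C)
      (φ := fun j => (compF hk.out (wd j) (m_ne j)).toRingHom)
      (ι := fun j => (io j).toRingHom) (fun j r => hc j r) b hb hcard inj c hc'
  refine ⟨⟨J, inferInstance, m, f, wd, m_ne, io, hx, le_antisymm sum_m ?_, hall⟩⟩
  -- dimension: an independent family of size `n` in a space of dimension `∑ m j`
  rw [← hcard]
  by_contra hlt
  push Not at hlt
  exact absurd (inj.card_le m fun j =>
    ⟨fun l => TF k C ^ (l : ℕ), fun z => compF_repr hk.out (wd j) (m_ne j) z⟩) (not_le.2 hlt)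

end Mk

end Crest.Agent.R013.Good_408
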