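import Mathlib
import Crest.Agent.R013.Red3_332

/-!
# R013 / Red4: the factors over a good end are in bijection with the ends (helper332)
-/

set_option autoImplicit false
set_option linter.all false

namespace Crest.Agent.R013.Red332

open scoped NNReal
open WithZero IsLocalRing Polynomial
open Crest.Agent.R013.RR7_948

section count

/-- a surjection onto a finite set which does not increase the total mass is a bijection -/
theorem count_aux {J S : Type*} [Fintype J] [Fintype S] (π : J → S) (hπ : Function.Surjective π)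
    (e : S → ℕ) (he : ∀ s, 1 ≤ e s) (m d : J → ℕ) (hd : ∀ j, 1 ≤ d j)
    (hm : ∀ j, m j = d j * e (π j)) (h : ∑ j, m j ≤ ∑ s, e s) :
    Function.Bijective π ∧ ∀ j, d j = 1 := by
  classical
  have h1 : ∑ j, e (π j) ≤ ∑ j, m j := by
    refine Finset.sum_le_sum fun j _ => ?_
    rw [hm j]
    exact Nat.le_mul_of_pos_left _ (hd j)
  have h2 : ∑ j, e (π j) = ∑ s, (Finset.univ.filter (fun j => π j = s)).card * e s := by
    rw [← Finset.sum_fiberwise_of_maps_to (t := Finset.univ) (g := π) (fun _ _ => Finset.mem_univ _)]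
    refine Finset.sum_congr rfl fun s _ => ?_
    rw [Finset.sum_congr rfl (g := fun _ => e s)
      (fun j hj => by rw [(Finset.mem_filter.1 hj).2]), Finset.sum_const, smul_eq_mul]
  have h3 : ∀ s, 1 ≤ (Finset.univ.filter (fun j => π j = s)).card := by
    intro s
    obtain ⟨j, hj⟩ := hπ s
    exact Finset.card_pos.2 ⟨j, Finset.mem_filter.2 ⟨Finset.mem_univ _, hj⟩⟩
  have h4 : ∑ s, e s ≤ ∑ j, e (π j) := by
    rw [h2]
    exact Finset.sum_le_sum fun s _ => Nat.le_mul_of_pos_left _ (h3 s)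
  have h5 : ∑ s, e s = ∑ j, e (π j) := le_antisymm h4 (h1.trans h)
  have h6 : ∑ j, e (π j) = ∑ j, m j := le_antisymm h1 (h.trans h4)
  constructor
  · refine ⟨?_, hπ⟩
    rw [h2] at h5
    have h7 := (Finset.sum_eq_sum_iff_of_le
      (fun s _ => Nat.le_mul_of_pos_left (e s) (h3 s))).1 h5
    intro a b hab
    have h8 := h7 (π a) (Finset.mem_univ _)
    have h9 : (Finset.univ.filter (fun j => π j = π a)).card = 1 := by
      have := he (π a)
      nlinarith [h3 (π a)]
    obtain ⟨c, hc⟩ := Finset.card_eq_one.1 h9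
    have ha : a ∈ Finset.univ.filter (fun j => π j = π a) :=
      Finset.mem_filter.2 ⟨Finset.mem_univ _, rfl⟩
    have hb : b ∈ Finset.univ.filter (fun j => π j = π a) :=
      Finset.mem_filter.2 ⟨Finset.mem_univ _, hab.symm⟩
    rw [hc, Finset.mem_singleton] at ha hb
    rw [ha, hb]
  · intro j
    have h7 := (Finset.sum_eq_sum_iff_of_le (s := Finset.univ) (f := fun j => e (π j)) (g := m)
      (fun j _ => by rw [hm j]; exact Nat.le_mul_of_pos_left _ (hd j))).1 h6 j (Finset.mem_univ _)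
    rw [hm j] at h7
    have := he (π j)
    nlinarith [hd j]

end count

/-- a norm with a place of its residue field -/
abbrev End (C K : Type*) [NormedField C] [IsUltrametricDist C] [Field K] [Algebra C K] : Type _ :=
  Σ w : Nm C K, Pl (Ct C) (kap w)

section

variable {C F0 K : Type*} [NormedField C] [IsUltrametricDist C] [Field F0] [Algebra C F0]
    [Field K] [Algebra C K] [Algebra F0 K] [IsScalarTower C F0 K]

/-- two places with proportional orders are equal -/
theorem end_eq {s s' : End C K} {a b : ℕ} (ha : 1 ≤ a) (hb : 1 ≤ b)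
    (h1 : ∀ z, s.1.v z = s'.1.v z) (h2 : ∀ z, z ≠ 0 → a * od s.1 s.2 z = b * od s'.1 s'.2 z) :
    s = s' ∧ a = b := by
  obtain ⟨w, x⟩ := s
  obtain ⟨w', x'⟩ := s'
  have hw : w = w' := Nm.ext' h1
  subst hw
  obtain ⟨f, hf, hf'⟩ := od_surj x 1
  obtain ⟨g, hg, hg'⟩ := od_surj x' 1
  have hf0 : f ≠ 0 := by rintro rfl; rw [map_zero] at hf; exact zero_ne_one hf
  have hg0 : g ≠ 0 := by rintro rfl; rw [map_zero] at hg; exact zero_ne_one hg
  have e1 := h2 f hf0
  have e2 := h2 g hg0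
  simp only at e1 e2
  rw [hf', mul_one] at e1
  rw [hg', mul_one] at e2
  have d1 : (b : ℤ) ∣ a := Dvd.intro _ e1.symm
  have d2 : (a : ℤ) ∣ b := Dvd.intro _ e2
  have hab : a = b := Nat.dvd_antisymm (Int.natCast_dvd_natCast.1 d2) (Int.natCast_dvd_natCast.1 d1)
  subst hab
  refine ⟨?_, rfl⟩
  have ha0 : (a : ℤ) ≠ 0 := by positivity
  have : x = x' := pl_eq_of_od (fun f hf => by
    have hf0 : f ≠ 0 := by rintro rfl; rw [map_zero] at hf; exact zero_ne_one hf
    exact mul_left_cancel₀ ha0 (h2 f hf0))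
  rw [this]

theorem Over.unique {E0 : End2 C F0} {E : End2 C K} {e e' : ℕ} (h : Over E0 E e) (h' : Over E0 E e')
    {t : F0} (ht : E0.nm t = 1) (ht' : E0.od t = 1) : e = e' := by
  have ht0 := E0.ne_zero_of_one ht
  have h1 := h.od t ht0
  rw [h'.od t ht0, ht'] at h1
  simpa using h1.symm

/-- the end of `K` attached to an end of a factor -/
theorem exists_end {E0 : End2 C F0} {E : End2 C K} {m : ℕ} (h : Over E0 E m)
    {t : F0} (ht : E0.nm t = 1) (ht' : E0.od t = 1) :
    ∃ (s : End C K) (d e : ℕ), 1 ≤ d ∧ m = d * e ∧ Over E0 (ofPl s.1 s.2) e ∧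
      (∀ z, s.1.v z = E.nm z) ∧ ∀ z, z ≠ 0 → E.od z = d * od s.1 s.2 z := by
  have ht0 := E0.ne_zero_of_one ht
  have htK : algebraMap F0 K t ≠ 0 := by rw [Ne, map_eq_zero]; exact ht0
  have hto : E.od (algebraMap F0 K t) = m := by rw [h.od t ht0, ht', mul_one]
  have hm0 := h.pos
  obtain ⟨w, x, d, hd, hw, hx⟩ := E.dict ⟨algebraMap F0 K t, htK, by rw [hto]; positivity⟩
  have h1 := hx _ htK
  rw [hto] at h1
  have hd0 : (0 : ℤ) < d := by positivity
  have hpos : 0 < od w x (algebraMap F0 K t) := by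
    by_contra hneg
    have : (m : ℤ) ≤ 0 := by rw [h1]; nlinarith
    omega
  obtain ⟨e, he⟩ := Int.eq_ofNat_of_zero_le hpos.le
  rw [he] at h1 hpos
  refine ⟨⟨w, x⟩, d, e, hd, by exact_mod_cast h1, ⟨by omega, fun f => ?_, fun f hf => ?_⟩,
    fun z => by rw [← hw], fun z hz => hx z hz⟩
  · show w.v _ = _
    rw [hw, h.nm]
  · show od w x _ = _
    have hfK : algebraMap F0 K f ≠ 0 := by rw [Ne, map_eq_zero]; exact hf
    have h2 := hx _ hfK
    rw [h.od f hf, h1] at h2
    have h3 : (d : ℤ) * (e * E0.od f) = d * od w x (algebraMap F0 K f) := by rw [← h2]; ring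
    exact (mul_left_cancel₀ hd0.ne' h3).symm

/-- **the factors over a good end are in bijection with the ends over it** -/
theorem ends_bij [Infinite (Ct C)] [FiniteDimensional F0 K] {L0 : Type*} [Field L0]
    [Algebra C L0]
    (E0 : End2 C F0) (EL : End2 C L0) (ε : F0 →+* L0)
    (hε : ∀ f, ε f ∈ EL.ring → f ∈ E0.ring)
    {t : F0} (ht : E0.nm t = 1) (ht' : E0.od t = 1)
    {J : Type*} [Fintype J] [Nonempty J] {L : J → Type*} [∀ j, Field (L j)] [∀ j, Algebra C (L j)]
    (EJ : ∀ j, End2 C (L j)) (φ : ∀ j, L0 →+* L j) (ι : ∀ j, K →ₐ[C] L j)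
    (hι : ∀ j f, ι j (algebraMap F0 K f) = φ j (ε f))
    (m : J → ℕ) (hover : ∀ j, Over E0 ((EJ j).comap (ι j)) (m j))
    (hINT : ∀ j (u : L j), u ∈ (EJ j).ring → ∃ Q : L0[X], Q.Monic ∧ (∀ i, Q.coeff i ∈ EL.ring) ∧
      Q.eval₂ (φ j) u = 0)
    (hINJ : ∀ (m : ℕ) (b : Fin m → K), LinearIndependent F0 b → ∀ l : Fin m → L0,
      (∀ j, ∑ i, φ j (l i) * ι j (b i) = 0) → l = 0)
    {I : Type*} [Fintype I] (s : I → End C K) (hs : Function.Injective s) (e : I → ℕ)
    (he : ∀ i, Over E0 (ofPl (s i).1 (s i).2) (e i))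
    (hall : ∀ (s' : End C K) (e' : ℕ), Over E0 (ofPl s'.1 s'.2) e' → ∃ i, s' = s i)
    (hsum : ∑ j, m j ≤ ∑ i, e i) :
    ∃ π : J ≃ I, ∀ j, m j = e (π j) ∧ (∀ z, (s (π j)).1.v z = (EJ j).nm (ι j z)) ∧
      ∀ z, z ≠ 0 → od (s (π j)).1 (s (π j)).2 z = (EJ j).od (ι j z) := by
  classical
  choose σ d e' hd hm hov hnm hod using fun j => exists_end (hover j) ht ht'
  choose π hπ using fun j => hall (σ j) (e' j) (hov j)
  have hee : ∀ j, e' j = e (π j) := by
    intro j
    have h1 := he (π j)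
    rw [← hπ j] at h1
    exact (hov j).unique h1 ht ht'
  have hsurj : Function.Surjective π := by
    intro i
    obtain ⟨j, h1, h2⟩ := exists_factor E0 EL ε hε ht ht' EJ φ ι hι m hover hINT hINJ
      (ofPl (s i).1 (s i).2) (e i) (he i)
    refine ⟨j, hs ?_⟩
    rw [← hπ j]
    refine (end_eq (s := s i) (s' := σ j) (a := m j) (b := e i * d j) (hover j).pos
      (Nat.mul_pos (he i).pos (hd j)) (fun z => ?_) (fun z hz => ?_)).1.symm
    · rw [hnm j z]
      exact h1 z
    · have h3 := h2 z hz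
      have h4 := hod j z hz
      push_cast
      rw [mul_assoc, ← h4]
      exact h3
  obtain ⟨hbij, hd1⟩ := count_aux π hsurj e (fun i => (he i).pos) m d hd
    (fun j => by rw [hm j, hee j]) hsum
  refine ⟨Equiv.ofBijective π hbij, fun j => ?_⟩
  have hsj : s (Equiv.ofBijective π hbij j) = σ j := (hπ j).symm
  rw [hsj]
  refine ⟨?_, fun z => hnm j z, fun z hz => ?_⟩
  · show m j = e (π j)
    rw [hm j, hd1 j, one_mul, hee j]
  · have h4 := hod j z hz
    rw [hd1 j, Nat.cast_one, one_mul] at h4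
    exact h4.symm

end

end Crest.Agent.R013.Red332
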