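import Mathlib
import Crest.Agent.R013.Red3_332

/-!
# R013 / Red5: integrality of the ring of an end over the ring of the base end (helper332)
-/

set_option autoImplicit false
set_option linter.all false

namespace Crest.Agent.R013.Red332

open scoped NNReal
open WithZero IsLocalRing Polynomial

namespace End2

variable {C : Type*} [NormedField C] [IsUltrametricDist C] {L : Type*} [Field L] [Algebra C L]
variable (E : End2 C L)

theorem lt1_sum {ι : Type*} (s : Finset ι) (y : ι → L) (h : ∀ k ∈ s, E.lt1 (y k)) :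
    E.lt1 (∑ k ∈ s, y k) := by
  classical
  induction s using Finset.induction_on with
  | empty => rw [Finset.sum_empty]; exact E.lt1_zero
  | insert a s ha ih =>
    rw [Finset.sum_insert ha]
    exact E.lt1_add (h a (Finset.mem_insert_self _ _))
      (ih fun k hk => h k (Finset.mem_insert_of_mem hk))

theorem one_add_lt1 {y : L} (h : E.lt1 y) : E.nm (1 + y) = 1 ∧ E.od (1 + y) = 0 := by
  have h1 : (1 + y) ∈ E.ring := add_mem (one_mem _) (E.lt1_mem h)
  have h2 : ¬ E.lt1 (1 + y) := by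
    intro h3
    apply E.not_lt1_one
    have : (1 : L) = (1 + y) + -y := by ring
    rw [this]
    exact E.lt1_add h3 (E.lt1_neg h)
  rw [lt1, not_or, not_and, not_lt, not_lt] at h2
  rcases h1 with h1 | ⟨h1, h1'⟩
  · exact absurd h1 (not_lt.2 h2.1)
  · exact ⟨h1, le_antisymm (h2.2 h1) h1'⟩

/-- a dominating term -/
theorem dom {ι : Type*} [DecidableEq ι] (s : Finset ι) (y : ι → L) {k0 : ι} (hk0 : k0 ∈ s)
    (h0 : y k0 ≠ 0) (h : ∀ k ∈ s, k ≠ k0 → E.lt1 (y k / y k0)) :
    E.nm (∑ k ∈ s, y k) = E.nm (y k0) ∧ E.od (∑ k ∈ s, y k) = E.od (y k0) := by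
  have h1 : ∑ k ∈ s, y k = y k0 * (1 + ∑ k ∈ s.erase k0, y k / y k0) := by
    rw [← Finset.add_sum_erase s y hk0, mul_add, mul_one, Finset.mul_sum]
    congr 1
    refine Finset.sum_congr rfl fun k _ => ?_
    field_simp
  have h2 := E.one_add_lt1 (E.lt1_sum (s.erase k0) (fun k => y k / y k0)
    (fun k hk => h k (Finset.mem_of_mem_erase hk) (Finset.ne_of_mem_erase hk)))
  have h3 := E.ne_zero_of_one h2.1
  rw [h1, map_mul, h2.1, mul_one, E.od_mul _ _ h0 h3, h2.2, add_zero]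
  exact ⟨rfl, rfl⟩

/-- among finitely many elements with pairwise different values one dominates -/
theorem exists_dom {ι : Type*} (s : Finset ι) (y : ι → L) (hne : ∃ k ∈ s, y k ≠ 0)
    (hdist : ∀ k ∈ s, ∀ l ∈ s, y k ≠ 0 → y l ≠ 0 → E.nm (y k) = E.nm (y l) →
      E.od (y k) = E.od (y l) → k = l) :
    ∃ k0 ∈ s, y k0 ≠ 0 ∧ ∀ k ∈ s, k ≠ k0 → E.lt1 (y k / y k0) := by
  classical
  let s' := s.filter (fun k => y k ≠ 0)
  have hs' : s'.Nonempty := by
    obtain ⟨k, hk, hk'⟩ := hne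
    exact ⟨k, Finset.mem_filter.2 ⟨hk, hk'⟩⟩
  obtain ⟨k0, hk0, hmax⟩ := Finset.exists_max_image s'
    (fun k => (toLex (E.nm (y k), -E.od (y k)) : ℝ≥0 ×ₗ ℤ)) hs'
  obtain ⟨hk0s, hk0n⟩ := Finset.mem_filter.1 hk0
  refine ⟨k0, hk0s, hk0n, fun k hk hkk => ?_⟩
  by_cases hy : y k = 0
  · rw [hy, zero_div]
    exact E.lt1_zero
  have h1 := hmax k (Finset.mem_filter.2 ⟨hk, hy⟩)
  rw [Prod.Lex.toLex_le_toLex] at h1
  have hpos : 0 < E.nm (y k0) := zero_lt_iff.2 ((Valuation.ne_zero_iff _).2 hk0n)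
  rcases h1 with h1 | ⟨h1, h2⟩
  · left
    rw [map_div₀]
    exact (div_lt_one hpos).2 h1
  · right
    simp only at h1 h2
    have h3 : E.od (y k) ≠ E.od (y k0) := fun h3 => hkk (hdist k hk k0 hk0s hy hk0n h1 h3)
    rw [map_div₀, h1, div_self hpos.ne', div_eq_mul_inv, E.od_mul _ _ hy (inv_ne_zero hk0n),
      E.od_inv hk0n]
    exact ⟨rfl, by omega⟩

/-- if the sum is in a ball, all terms are -/
theorem le_of_sum {ι : Type*} (s : Finset ι) (y : ι → L)
    (hdist : ∀ k ∈ s, ∀ l ∈ s, y k ≠ 0 → y l ≠ 0 → E.nm (y k) = E.nm (y l) →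
      E.od (y k) = E.od (y l) → k = l) {k : ι} (hk : k ∈ s) (hyk : y k ≠ 0) :
    E.nm (y k) ≤ E.nm (∑ k ∈ s, y k) ∧
      (E.nm (y k) = E.nm (∑ k ∈ s, y k) → E.od (∑ k ∈ s, y k) ≤ E.od (y k)) := by
  classical
  obtain ⟨k0, hk0, hk0n, hd⟩ := E.exists_dom s y ⟨k, hk, hyk⟩ hdist
  obtain ⟨h1, h2⟩ := E.dom s y hk0 hk0n hd
  rw [h1, h2]
  by_cases hkk : k = k0
  · rw [hkk]
    exact ⟨le_rfl, fun _ => le_rfl⟩
  · have hpos : 0 < E.nm (y k0) := zero_lt_iff.2 ((Valuation.ne_zero_iff _).2 hk0n)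
    rcases hd k hk hkk with h3 | ⟨h3, h4⟩
    · rw [map_div₀] at h3
      have h5 := (div_lt_one hpos).1 h3
      exact ⟨h5.le, fun h6 => absurd h6 h5.ne⟩
    · rw [map_div₀] at h3
      have h5 : E.nm (y k) = E.nm (y k0) := (div_eq_one_iff_eq hpos.ne').1 h3
      rw [div_eq_mul_inv, E.od_mul _ _ hyk (inv_ne_zero hk0n), E.od_inv hk0n] at h4
      exact ⟨h5.le, fun _ => by omega⟩

/-- **integrality**: if `L` is spanned over `φ L0` by elements `b k` of norm one whose orders are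
different and in a window of length `m`, the ring of `E` is integral over the ring of `EL`. -/
theorem int_of_span {L0 : Type*} [Field L0] [Algebra C L0] (EL : End2 C L0) (φ : L0 →+* L)
    {m : ℕ} (hm : 1 ≤ m) (hnm : ∀ a, E.nm (φ a) = EL.nm a)
    (hod : ∀ a, a ≠ 0 → E.od (φ a) = m * EL.od a)
    (b : Fin m → L) (hb : ∀ i, E.nm (b i) = 1)
    (hwin : ∀ i j, E.od (b i) < E.od (b j) + m)
    (hinj : ∀ i j, E.od (b i) = E.od (b j) → i = j)
    (hspan : ∀ u : L, ∃ a : Fin m → L0, u = ∑ i, φ (a i) * b i)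
    (u : L) (hu : u ∈ E.ring) :
    ∃ Q : L0[X], Q.Monic ∧ (∀ i, Q.coeff i ∈ EL.ring) ∧ Q.eval₂ φ u = 0 := by
  classical
  choose A hA using fun i => hspan (u * b i)
  have hb0 : ∀ i, b i ≠ 0 := fun i => E.ne_zero_of_one (hb i)
  -- the terms have pairwise different values
  have hdist : ∀ i, ∀ k ∈ (Finset.univ : Finset (Fin m)), ∀ l ∈ (Finset.univ : Finset (Fin m)),
      φ (A i k) * b k ≠ 0 → φ (A i l) * b l ≠ 0 → E.nm (φ (A i k) * b k) = E.nm (φ (A i l) * b l) →
      E.od (φ (A i k) * b k) = E.od (φ (A i l) * b l) → k = l := by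
    intro i k _ l _ hk hl _ h2
    have hk' : A i k ≠ 0 := by rintro h; rw [h, map_zero, zero_mul] at hk; exact hk rfl
    have hl' : A i l ≠ 0 := by rintro h; rw [h, map_zero, zero_mul] at hl; exact hl rfl
    have hk'' : φ (A i k) ≠ 0 := by rw [Ne, map_eq_zero]; exact hk'
    have hl'' : φ (A i l) ≠ 0 := by rw [Ne, map_eq_zero]; exact hl'
    rw [E.od_mul _ _ hk'' (hb0 k), E.od_mul _ _ hl'' (hb0 l), hod _ hk', hod _ hl'] at h2
    apply hinj
    have h3 := hwin k l
    have h4 := hwin l k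
    have h5 : (m : ℤ) * (EL.od (A i k) - EL.od (A i l)) = E.od (b l) - E.od (b k) := by
      linarith
    have hm' : (0 : ℤ) < m := by positivity
    have h6 : EL.od (A i k) - EL.od (A i l) = 0 := by
      have h7 : EL.od (A i k) - EL.od (A i l) < 1 := by
        by_contra h8
        push Not at h8
        nlinarith
      have h8 : -1 < EL.od (A i k) - EL.od (A i l) := by
        by_contra h9
        push Not at h9
        nlinarith
      omega
    rw [h6, mul_zero] at h5
    omega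
  have hAr : ∀ i k, A i k ∈ EL.ring := by
    intro i k
    by_cases hk : A i k = 0
    · rw [hk]
      exact zero_mem _
    have hk'' : φ (A i k) ≠ 0 := by rw [Ne, map_eq_zero]; exact hk
    obtain ⟨h1, h2⟩ := E.le_of_sum Finset.univ (fun k => φ (A i k) * b k) (hdist i)
      (Finset.mem_univ k) (mul_ne_zero hk'' (hb0 k))
    rw [← hA i] at h1 h2
    rw [map_mul, map_mul, hb, hb, mul_one, mul_one, hnm] at h1
    rw [map_mul, map_mul, hb, hb, mul_one, mul_one, hnm, E.od_mul _ _ hk'' (hb0 k), hod _ hk] at h2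
    rcases hu with hu | ⟨hu, hu'⟩
    · exact Or.inl (lt_of_le_of_lt h1 hu)
    · rw [hu] at h1 h2
      rcases h1.lt_or_eq with h3 | h3
      · exact Or.inl h3
      · right
        refine ⟨h3, ?_⟩
        have h4 := h2 h3
        rw [E.od_mul _ _ (E.ne_zero_of_one hu) (hb0 i)] at h4
        have h5 := hwin k i
        by_contra h6
        push Not at h6
        have hm' : (0 : ℤ) < m := by positivity
        nlinarith
  let M : Matrix (Fin m) (Fin m) L0 := Matrix.of A
  let M' : Matrix (Fin m) (Fin m) EL.ring := Matrix.of fun i k => ⟨A i k, hAr i k⟩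
  have hM : M = M'.map (algebraMap EL.ring L0) := by
    ext i k
    rfl
  refine ⟨M.charpoly, M.charpoly_monic, fun i => ?_, ?_⟩
  · rw [hM, Matrix.charpoly_map, coeff_map]
    exact (M'.charpoly.coeff i).2
  · rw [← eval_map, ← Matrix.charpoly_map, Matrix.eval_charpoly]
    rw [← Matrix.exists_mulVec_eq_zero_iff]
    refine ⟨b, fun h => hb0 ⟨0, hm⟩ (congrFun h _), ?_⟩
    rw [Matrix.sub_mulVec]
    funext i
    rw [Pi.sub_apply, Pi.zero_apply, Matrix.scalar_apply, Matrix.mulVec_diagonal, hA i, sub_eq_zero]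
    rfl

end End2

end Crest.Agent.R013.Red332
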