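import Mathlib
import Crest.Agent.R013.Red5_332
import Crest.Agent.R013.Red4_332
import Crest.Agent.R013.EE4_809
import Crest.Agent.R013.Comp4_267

/-!
# R013 / Red6: the end of the field `EE k C`; the map `FD k C → EE k C` (helper332)
-/

set_option autoImplicit false
set_option linter.all false

namespace Crest.Agent.R013.Red332

open scoped NNReal
open WithZero IsLocalRing Polynomial
open Crest.Agent.R013.EE809
open Crest.Agent.R013.Cell_408 (FinDef DiscNorm BD)
open Crest.Agent.R013.Comp_267 (FD)

section EE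

variable (k : Type*) [NontriviallyNormedField k] [CompleteSpace k] [IsUltrametricDist k]
variable (C : Type*) [NormedField C] [IsUltrametricDist C] [NormedAlgebra k C]
variable [Algebra.IsAlgebraic k C] [IsAlgClosed C] [hk : Fact (DiscNorm k)]

/-- the Gauss norm of `EE k C` as a valuation -/
noncomputable def gv : Valuation (EE k C) ℝ≥0 where
  toFun := fun a => (gn a).toNNReal
  map_zero' := by rw [gn_zero, Real.toNNReal_zero]
  map_one' := by rw [gn_one, Real.toNNReal_one]
  map_mul' := fun a b => by rw [gn_mul hk.out a b, Real.toNNReal_mul (gn_nonneg a)]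
  map_add_le_max' := fun a b => by
    have hm : Monotone Real.toNNReal := fun _ _ h => Real.toNNReal_mono h
    rw [← hm.map_max]
    exact hm (gn_add_le a b)

variable {k C}

theorem coe_gv (a : EE k C) : (gv k C a : ℝ) = gn a := Real.coe_toNNReal _ (gn_nonneg a)

theorem gv_lt_iff (a b : EE k C) : gv k C a < gv k C b ↔ gn a < gn b := by
  rw [← NNReal.coe_lt_coe, coe_gv, coe_gv]

theorem gv_eq_iff (a b : EE k C) : gv k C a = gv k C b ↔ gn a = gn b := by
  rw [← NNReal.coe_inj, coe_gv, coe_gv]

theorem od_add_lt {f g : EE k C} (h : gn g < gn f) : EE809.od (f + g) = EE809.od f := by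
  have hf : f ≠ 0 := by
    rintro rfl
    rw [gn_zero] at h
    exact absurd h (not_lt.2 (gn_nonneg g))
  have h1 := norm_co_od hk.out hf
  have h2 : ‖(f + g).co (EE809.od f)‖ = gn f := by
    rw [co_add, ← h1]
    refine IsUltrametricDist.norm_add_eq_max_of_norm_ne_norm ?_ |>.trans ?_
    · rw [h1]
      exact ((le_gn g _).trans_lt h).ne'
    · exact max_eq_left (by rw [h1]; exact ((le_gn g _).trans_lt h).le)
  have h3 : gn (f + g) = gn f := by
    refine le_antisymm ((gn_add_le f g).trans (max_le le_rfl h.le)) ?_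
    rw [← h2]
    exact le_gn _ _
  refine EE809.od_eq_of (h2.trans h3.symm) fun m hm => ?_
  rw [h3, co_add]
  refine (IsUltrametricDist.norm_add_le_max _ _).trans_lt (max_lt (norm_lt_of_lt_od hf hm) ?_)
  exact (le_gn g _).trans_lt h

theorem od_add_ge' {f g : EE k C} (hf : f ≠ 0) (hg : g ≠ 0) (h : gn f = gn g)
    (h' : gn (f + g) = gn f) : min (EE809.od f) (EE809.od g) ≤ EE809.od (f + g) := by
  have hfg : f + g ≠ 0 := by
    rintro h0
    rw [h0, gn_zero] at h'
    exact hf (gn_eq_zero.1 h'.symm)
  by_contra hlt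
  push Not at hlt
  have h1 := norm_co_od hk.out hfg
  have h2 := norm_lt_of_lt_od hf (lt_of_lt_of_le hlt (min_le_left _ _))
  have h3 := norm_lt_of_lt_od hg (lt_of_lt_of_le hlt (min_le_right _ _))
  rw [co_add, h'] at h1
  have h4 := IsUltrametricDist.norm_add_le_max (f.co (EE809.od (f + g))) (g.co (EE809.od (f + g)))
  rw [h1] at h4
  rcases le_max_iff.1 h4 with h5 | h5
  · exact absurd h5 (not_le.2 h2)
  · rw [h] at h5
    exact absurd h5 (not_le.2 h3)

variable (k C) in
/-- the end of `EE k C` -/
noncomputable def EEend : End2 C (EE k C) where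
  nm := gv k C
  od := EE809.od
  hC := fun c => by
    ext
    rw [coe_gv, gn_algebraMap]
    rfl
  val := fun f hf => by
    obtain ⟨n, hn⟩ := exists_gn hk.out hf
    refine ⟨f.co n, ?_⟩
    ext
    rw [coe_gv, ← hn]
    rfl
  od_C := fun c hc => by
    rw [EE809.algebraMap_eq]
    exact od_mono 0 _ hc
  od_mul := fun f g hf hg => EE809.od_mul hk.out hf hg
  od_lt := fun f g h => od_add_lt ((gv_lt_iff g f).1 h)
  od_add := fun f g hf hg h h' => od_add_ge' hf hg ((gv_eq_iff f g).1 h) ((gv_eq_iff (f + g) f).1 h')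

theorem EEend_nm (a : EE k C) : ((EEend k C).nm a : ℝ) = gn a := coe_gv a

theorem EEend_od (a : EE k C) : (EEend k C).od a = EE809.od a := rfl

/-! ### the disc field -/

variable (k C) in
/-- `FD k C → EE k C` -/
noncomputable def toEE : FD k C →ₐ[C] EE k C :=
  IsFractionRing.liftAlgHom (g := ({ (ofBD : BD k C →+* EE k C) with
    commutes' := fun c => ofBD_algebraMap c } : BD k C →ₐ[C] EE k C)) ofBD_injective

theorem toEE_algebraMap (f : BD k C) : toEE k C (algebraMap (BD k C) (FD k C) f) = ofBD f :=
  IsFractionRing.lift_algebraMap (K := FD k C) (g := (ofBD : BD k C →+* EE k C)) ofBD_injective f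

variable (k C) in
/-- the end of the disc field -/
noncomputable def FDend : End2 C (FD k C) := (EEend k C).comap (toEE k C)

end EE

end Crest.Agent.R013.Red332
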