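import Mathlib
import Crest.Agent.R013.Red5_332
import Crest.Agent.R013.Red4_332
import Crest.Agent.R013.Red7_332

/-!
# R013 / Red8: ends over a rational base end; counting of the ends (helper332)
-/

set_option autoImplicit false
set_option linter.all false

namespace Crest.Agent.R013.Red332

open scoped NNReal
open WithZero IsLocalRing Polynomial Module
open Crest.Agent.R013.RR1_948 Crest.Agent.R013.RR2_948 Crest.Agent.R013.RR3_948
open Crest.Agent.R013.RR4_948 Crest.Agent.R013.RR5_948 Crest.Agent.R013.RR6_948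
open Crest.Agent.R013.RR7_948 Crest.Agent.R013.RR8_948 Crest.Agent.R013.RR9_948
open Crest.Agent.R013.RR11_948 Crest.Agent.R013.RR12_948 Crest.Agent.R013.RR20_948

namespace End2

section lin

variable {C : Type*} [NormedField C] [IsUltrametricDist C] {L : Type*} [Field L] [Algebra C L]
variable (E : End2 C L)

/-- values of the linear factors -/
theorem lin_val {t : L} (ht : E.nm t = 1) (ht' : 0 < E.od t) (b : C) :
    E.nm (t - algebraMap C L b) = max 1 ‖b‖₊ ∧
      E.od (t - algebraMap C L b) = if ‖b‖₊ < 1 then E.od t else 0 := by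
  have ht0 : t ≠ 0 := E.ne_zero_of_one ht
  rcases lt_trichotomy ‖b‖₊ 1 with h | h | h
  · rw [if_pos h, max_eq_left h.le, sub_eq_add_neg, ← map_neg]
    have h1 : E.nm (algebraMap C L (-b)) < E.nm t := by
      rw [E.hC, ht, nnnorm_neg]; exact h
    rw [E.od_lt _ _ h1, Valuation.map_add_eq_of_lt_left _ h1, ht]
    exact ⟨rfl, rfl⟩
  · rw [if_neg (by rw [h]; exact lt_irrefl 1), max_eq_left h.le]
    have hb0 : b ≠ 0 := by
      rintro rfl
      rw [nnnorm_zero] at h
      exact zero_ne_one h
    have hbL : algebraMap C L b ≠ 0 := by rw [Ne, map_eq_zero]; exact hb0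
    have hy : E.lt1 (-(t * (algebraMap C L b)⁻¹)) := by
      apply E.lt1_neg
      right
      rw [map_mul, ht, one_mul, map_inv₀, E.hC, h, inv_one, E.od_mul _ _ ht0 (inv_ne_zero hbL),
        ← map_inv₀, E.od_C _ (inv_ne_zero hb0), add_zero]
      exact ⟨rfl, ht'⟩
    have e1 : t - algebraMap C L b =
        algebraMap C L (-b) * (1 + -(t * (algebraMap C L b)⁻¹)) := by
      rw [map_neg]
      field_simp
      ring
    obtain ⟨h1, h2⟩ := E.one_add_lt1 hy
    rw [e1, map_mul, h1, mul_one, E.hC, nnnorm_neg, h,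
      E.od_mul _ _ (by rw [map_neg]; exact neg_ne_zero.2 hbL) (E.ne_zero_of_one h1), h2,
      E.od_C _ (neg_ne_zero.2 hb0), add_zero]
    exact ⟨rfl, rfl⟩
  · rw [if_neg (not_lt.2 h.le), max_eq_right h.le, sub_eq_add_neg, ← map_neg, add_comm]
    have hb0 : b ≠ 0 := by
      rintro rfl
      rw [nnnorm_zero] at h
      exact absurd h (not_lt.2 zero_le')
    have h1 : E.nm t < E.nm (algebraMap C L (-b)) := by
      rw [E.hC, ht, nnnorm_neg]; exact h
    rw [E.od_lt _ _ h1, Valuation.map_add_eq_of_lt_left _ h1, E.hC, nnnorm_neg,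
      E.od_C _ (neg_ne_zero.2 hb0)]
    exact ⟨rfl, rfl⟩

end lin

end End2

section overE

variable {C : Type*} [NormedField C] [IsUltrametricDist C] [IsAlgClosed C]
variable {L L' : Type*} [Field L] [Algebra C L] [Field L'] [Algebra C L']

/-- values of polynomials -/
theorem poly_val (E : End2 C L) (E' : End2 C L') {t : L} {t' : L'} (ht : E.nm t = 1)
    (ht1 : E.od t = 1) (ht' : E'.nm t' = 1) {e : ℕ} (he : 1 ≤ e) (ht1' : E'.od t' = e)
    (p : C[X]) (hp : p ≠ 0) :
    aeval t p ≠ 0 ∧ aeval t' p ≠ 0 ∧ E'.nm (aeval t' p) = E.nm (aeval t p) ∧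
      E'.od (aeval t' p) = e * E.od (aeval t p) := by
  have hne : ∀ b : C, t - algebraMap C L b ≠ 0 := by
    intro b h0
    have h1 := (E.lin_val ht (by rw [ht1]; exact one_pos) b).1
    rw [h0, map_zero] at h1
    exact absurd h1 (ne_of_lt (lt_of_lt_of_le one_pos (le_max_left _ _)))
  have hne' : ∀ b : C, t' - algebraMap C L' b ≠ 0 := by
    intro b h0
    have h1 := (E'.lin_val ht' (by rw [ht1']; positivity) b).1
    rw [h0, map_zero] at h1
    exact absurd h1 (ne_of_lt (lt_of_lt_of_le one_pos (le_max_left _ _)))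
  have key : ∀ S : Multiset C,
      (S.map fun b => t - algebraMap C L b).prod ≠ 0 ∧
      (S.map fun b => t' - algebraMap C L' b).prod ≠ 0 ∧
      E'.nm (S.map fun b => t' - algebraMap C L' b).prod = E.nm (S.map fun b => t - algebraMap C L b).prod ∧
      E'.od (S.map fun b => t' - algebraMap C L' b).prod =
        e * E.od (S.map fun b => t - algebraMap C L b).prod := by
    intro S
    induction S using Multiset.induction_on with
    | empty =>
      simp only [Multiset.map_zero, Multiset.prod_zero]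
      refine ⟨one_ne_zero, one_ne_zero, by rw [map_one, map_one], ?_⟩
      rw [E.od_one, E'.od_one, mul_zero]
    | cons b S ih =>
      obtain ⟨h1, h2, h3, h4⟩ := ih
      rw [Multiset.map_cons, Multiset.prod_cons, Multiset.map_cons, Multiset.prod_cons]
      have h5 := E.lin_val ht (by rw [ht1]; exact one_pos) b
      have h6 := E'.lin_val ht' (by rw [ht1']; positivity) b
      refine ⟨mul_ne_zero (hne b) h1, mul_ne_zero (hne' b) h2, ?_, ?_⟩
      · rw [map_mul, map_mul, h3, h5.1, h6.1]
      · rw [E.od_mul _ _ (hne b) h1, E'.od_mul _ _ (hne' b) h2, h4, h5.2, h6.2, ht1, ht1']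
        split_ifs <;> ring
  have hsp : p.Splits := IsAlgClosed.splits p
  have h0 := hsp.eq_prod_roots
  have hlc : p.leadingCoeff ≠ 0 := leadingCoeff_ne_zero.2 hp
  obtain ⟨h1, h2, h3, h4⟩ := key p.roots
  have e1 : aeval t p = algebraMap C L p.leadingCoeff * (p.roots.map fun b => t - algebraMap C L b).prod := by
    conv_lhs => rw [h0]
    rw [map_mul, aeval_C, map_multiset_prod, Multiset.map_map]
    congr 2
    refine Multiset.map_congr rfl fun b _ => ?_
    simp
  have e2 : aeval t' p = algebraMap C L' p.leadingCoeff * (p.roots.map fun b => t' - algebraMap C L' b).prod := by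
    conv_lhs => rw [h0]
    rw [map_mul, aeval_C, map_multiset_prod, Multiset.map_map]
    congr 2
    refine Multiset.map_congr rfl fun b _ => ?_
    simp
  have hl1 : algebraMap C L p.leadingCoeff ≠ 0 := by rw [Ne, map_eq_zero]; exact hlc
  have hl2 : algebraMap C L' p.leadingCoeff ≠ 0 := by rw [Ne, map_eq_zero]; exact hlc
  rw [e1, e2]
  refine ⟨mul_ne_zero hl1 h1, mul_ne_zero hl2 h2, ?_, ?_⟩
  · rw [map_mul, map_mul, E.hC, E'.hC, h3]
  · rw [E.od_mul _ _ hl1 h1, E'.od_mul _ _ hl2 h2, h4, E.od_C _ hlc, E'.od_C _ hlc]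
    ring

/-- `t` generates the field `L` over `C` -/
def Gen (C : Type*) {L : Type*} [Field C] [Field L] [Algebra C L] (t : L) : Prop :=
  ∀ f : L, ∃ p q : C[X], aeval t q ≠ 0 ∧ f = aeval t p / aeval t q

variable {F0 K : Type*} [Field F0] [Algebra C F0] [Field K] [Algebra C K] [Algebra F0 K]
  [IsScalarTower C F0 K]

/-- an end of `K` at which `t` has norm one and positive order is over `E0` -/
theorem over_of (E0 : End2 C F0) {t : F0} (hg : Gen C t) (ht : E0.nm t = 1) (ht' : E0.od t = 1)
    (E : End2 C K) (h1 : E.nm (algebraMap F0 K t) = 1) {e : ℕ} (he : 1 ≤ e)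
    (h2 : E.od (algebraMap F0 K t) = e) : Over E0 E e := by
  have hal : ∀ p : C[X], algebraMap F0 K (aeval t p) = aeval (algebraMap F0 K t) p := by
    intro p
    rw [aeval_algebraMap_apply]
  have key : ∀ f : F0, f ≠ 0 → E.nm (algebraMap F0 K f) = E0.nm f ∧
      E.od (algebraMap F0 K f) = e * E0.od f := by
    intro f hf
    obtain ⟨p, q, hq, rfl⟩ := hg f
    have hp0 : p ≠ 0 := by
      rintro rfl
      exact hf (by rw [map_zero, zero_div])
    have hq0 : q ≠ 0 := by
      rintro rfl
      exact hq (map_zero _)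
    obtain ⟨a1, a2, a3, a4⟩ := poly_val E0 E ht ht' h1 he h2 p hp0
    obtain ⟨b1, b2, b3, b4⟩ := poly_val E0 E ht ht' h1 he h2 q hq0
    rw [map_div₀, hal, hal, div_eq_mul_inv, div_eq_mul_inv, map_mul, map_mul, map_inv₀, map_inv₀,
      E.od_mul _ _ a2 (inv_ne_zero b2), E0.od_mul _ _ a1 (inv_ne_zero b1), E.od_inv b2,
      E0.od_inv b1, a3, b3, a4, b4]
    exact ⟨rfl, by ring⟩
  refine ⟨he, fun f => ?_, fun f hf => (key f hf).2⟩
  by_cases hf : f = 0
  · rw [hf, map_zero, map_zero, map_zero]
  · exact (key f hf).1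

end overE

section residue

variable {C : Type*} [NormedField C] [IsUltrametricDist C]
variable {K : Type*} [Field K] [Algebra C K] (w : Nm C K)

theorem nm_aeval_le {t : K} (ht : w.v t ≤ 1) (P : C[X]) (hP : ∀ n, ‖P.coeff n‖₊ ≤ 1) :
    w.v (aeval t P) ≤ 1 := by
  rw [aeval_eq_sum_range]
  refine Valuation.map_sum_le _ fun n _ => ?_
  rw [Algebra.smul_def, map_mul, map_pow, w.hC]
  exact mul_le_one' (hP n) (pow_le_one' ht n)

theorem red_sum {ι : Type*} (s : Finset ι) (f : ι → K) (h : ∀ i ∈ s, w.v (f i) ≤ 1) :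
    red w (∑ i ∈ s, f i) = ∑ i ∈ s, red w (f i) := by
  classical
  induction s using Finset.induction_on with
  | empty => rw [Finset.sum_empty, Finset.sum_empty, red_zero]
  | insert a s ha ih =>
    rw [Finset.sum_insert ha, Finset.sum_insert ha,
      red_add w (h a (Finset.mem_insert_self _ _))
        (Valuation.map_sum_le _ fun i hi => h i (Finset.mem_insert_of_mem hi)),
      ih fun i hi => h i (Finset.mem_insert_of_mem hi)]

theorem red_aeval {t : K} (ht : w.v t ≤ 1) (P : C[X]) (hP : ∀ n, ‖P.coeff n‖₊ ≤ 1) (c : (Ct C)[X])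
    (hc : ∀ n, rc (P.coeff n) = c.coeff n) : red w (aeval t P) = aeval (red w t) c := by
  have h1 : aeval t P = ∑ n ∈ Finset.range (max P.natDegree c.natDegree + 1), P.coeff n • t ^ n := by
    rw [aeval_eq_sum_range']
    exact Nat.lt_succ_of_le (le_max_left _ _)
  have h2 : aeval (red w t) c =
      ∑ n ∈ Finset.range (max P.natDegree c.natDegree + 1), c.coeff n • (red w t) ^ n := by
    rw [aeval_eq_sum_range']
    exact Nat.lt_succ_of_le (le_max_right _ _)
  have h3 : ∀ n, w.v (P.coeff n • t ^ n) ≤ 1 := by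
    intro n
    rw [Algebra.smul_def, map_mul, map_pow, w.hC]
    exact mul_le_one' (hP n) (pow_le_one' ht n)
  rw [h1, h2, red_sum w _ _ (fun n _ => h3 n)]
  refine Finset.sum_congr rfl fun n _ => ?_
  rw [Algebra.smul_def, red_mul w (by rw [w.hC]; exact hP n) (by rw [map_pow]; exact pow_le_one' ht n),
    red_pow w ht, red_C w _ (hP n), hc, Algebra.smul_def]

/-- lifting of polynomials -/
theorem exists_lift_poly (c : (Ct C)[X]) : ∃ P : C[X], (∀ n, ‖P.coeff n‖₊ ≤ 1) ∧
    ∀ n, rc (P.coeff n) = c.coeff n := by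
  classical
  choose f hf1 hf2 using fun g : Ct C => rc_surj (C := C) g
  refine ⟨∑ n ∈ c.support, monomial n (f (c.coeff n)), fun n => ?_, fun n => ?_⟩
  · rw [finset_sum_coeff]
    simp only [coeff_monomial]
    rw [Finset.sum_ite_eq' c.support n]
    split_ifs
    · exact hf1 _
    · rw [nnnorm_zero]; exact zero_le'
  · rw [finset_sum_coeff]
    simp only [coeff_monomial]
    rw [Finset.sum_ite_eq' c.support n]
    split_ifs with h
    · exact hf2 _
    · rw [rc_zero]
      exact (notMem_support_iff.1 h).symm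

/-- the reduction is transcendental if it is no constant -/
theorem transcendental_red [IsAlgClosed C] {t : K} (ht : w.v t ≤ 1)
    (h : ∀ c : C, 1 ≤ w.v (t - algebraMap C K c)) : Transcendental (Ct C) (red w t) := by
  intro halg
  have h1 : red w t ∈ algebraicClosure (Ct C) (kap w) := mem_algebraicClosure_iff.2 halg
  have h2 : algebraicClosure (Ct C) (kap w) = ⊥ := GR2_921.hc_of_isAlgClosed
  rw [h2, IntermediateField.mem_bot] at h1
  obtain ⟨c, hc⟩ := h1
  obtain ⟨c', hc', rfl⟩ := rc_surj c
  rw [← red_C w c' hc'] at hc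
  have h3 := (red_eq_iff w (by rw [w.hC]; exact hc') ht).1 hc
  rw [Valuation.map_sub_swap] at h3
  exact absurd h3 (not_lt.2 (h c'))

end residue

end Crest.Agent.R013.Red332
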