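import Mathlib
import Crest.Agent.R013.Red8_332

/-!
# R013 / Red9: counting of the ends over a rational base end (helper332)
-/

set_option autoImplicit false
set_option linter.all false

namespace Crest.Agent.R013.Red332

open scoped NNReal
open WithZero IsLocalRing Polynomial Module
open Crest.Agent.R013.RR1_948 Crest.Agent.R013.RR2_948 Crest.Agent.R013.RR3_948
open Crest.Agent.R013.RR4_948 Crest.Agent.R013.RR5_948 Crest.Agent.R013.RR6_948
open Crest.Agent.R013.RR7_948 Crest.Agent.R013.RR8_948 Crest.Agent.R013.RR9_948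
open Crest.Agent.R013.RR11_948 Crest.Agent.R013.RR12_948 Crest.Agent.R013.RR20_948

variable {C : Type*} [NormedField C] [IsUltrametricDist C] [IsAlgClosed C]

/-- `kap w` is a function field of one variable over `Ct C` -/
def FF {K : Type*} [Field K] [Algebra C K] (w : Nm C K) : Prop :=
  ∃ i : Algebra (RatFunc (Ct C)) (kap w), IsScalarTower (Ct C) (RatFunc (Ct C)) (kap w) ∧
    FiniteDimensional (RatFunc (Ct C)) (kap w) ∧ Algebra.IsSeparable (RatFunc (Ct C)) (kap w)

section one

variable {K : Type*} [Field K] [Algebra C K] (w : Nm C K)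

/-- one norm: the zeros of `red t`, and the inequality `N ≤ ∑ ord (red t)` -/
theorem zeros_aux (hff : FF w) {t : K} (ht : w.v t ≤ 1)
    (htr : ∀ c : C, 1 ≤ w.v (t - algebraMap C K c))
    {N : ℕ} (b : Fin N → K) (hb : ∀ l, w.v (b l) ≤ 1)
    (hres : ∀ c : Fin N → C[X], (∀ l n, ‖(c l).coeff n‖₊ ≤ 1) →
      w.v (∑ l, aeval t (c l) * b l) < 1 → ∀ l n, ‖(c l).coeff n‖₊ < 1) :
    ∃ S : Finset (Pl (Ct C) (kap w)), (∀ x, x ∈ S ↔ 0 < od w x t) ∧
      (N : ℤ) ≤ ∑ x ∈ S, od w x t := by
  classical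
  obtain ⟨i1, i2, i3, i4⟩ := hff
  have ht1 : w.v t = 1 := le_antisymm ht (by
    have := htr 0
    rwa [map_zero, sub_zero] at this)
  have hr0 : red w t ≠ 0 := red_ne_zero w ht1
  have htrans : Transcendental (Ct C) (red w t) := transcendental_red w ht htr
  have hc : algebraicClosure (Ct C) (kap w) = ⊥ := GR2_921.hc_of_isAlgClosed
  have h1 := card_le_degD_poles (k := Ct C) (K := kap w) hc (red w t) htrans
    (fun l => red w (b l)) (by
      intro c hcs
      choose P hP1 hP2 using fun l => exists_lift_poly (C := C) (c l)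
      have h2 : red w (∑ l, aeval t (P l) * b l) = 0 := by
        rw [red_sum w, ← hcs]
        · refine Finset.sum_congr rfl fun l _ => ?_
          rw [red_mul w (nm_aeval_le w ht _ (hP1 l)) (hb l),
            red_aeval w ht _ (hP1 l) (c l) (hP2 l)]
        · intro l _
          rw [map_mul]
          exact mul_le_one' (nm_aeval_le w ht _ (hP1 l)) (hb l)
      have h3 : w.v (∑ l, aeval t (P l) * b l) ≤ 1 := by
        refine Valuation.map_sum_le _ fun l _ => ?_
        rw [map_mul]
        exact mul_le_one' (nm_aeval_le w ht _ (hP1 l)) (hb l)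
      have h4 := hres P hP1 ((red_eq_zero_iff w h3).1 h2)
      intro l
      ext n
      rw [coeff_zero, ← hP2 l n, rc_eq_zero_iff (hP1 l n)]
      exact h4 l n)
  have hdiv : ∀ x : Pl (Ct C) (kap w), divf (k := Ct C) (red w t) x = od w x t := by
    intro x
    have h2 := v_eq (k := Ct C) hr0 x
    rw [v_red_of_one x ht1, exp_inj] at h2
    omega
  refine ⟨(zeros (k := Ct C) (red w t)).support, fun x => ?_, ?_⟩
  · rw [Finsupp.mem_support_iff, zeros_apply, hdiv]
    constructor
    · intro h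
      by_contra h2
      exact h (max_eq_right (not_lt.1 h2))
    · intro h
      rw [max_eq_left h.le]
      exact h.ne'
  · rw [← degD_zeros_eq_poles hr0, GR2_921.degD_eq_sum] at h1
    refine h1.trans (le_of_eq ?_)
    unfold Finsupp.sum
    refine Finset.sum_congr rfl fun x hx => ?_
    rw [Finsupp.mem_support_iff, zeros_apply, hdiv] at hx
    rw [zeros_apply, hdiv]
    refine max_eq_left ?_
    by_contra h2
    push Not at h2
    exact hx (max_eq_right h2.le)

end one

section count

variable {F0 K : Type*} [Field F0] [Algebra C F0] [Field K] [Algebra C K] [Algebra F0 K]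
  [IsScalarTower C F0 K]

/-- a polynomial in `t` with coefficients of norm at most one and norm `< 1` at `E0` has
coefficients of norm `< 1` -/
theorem gauss_lt (E0 : End2 C F0) {t : F0} (ht : E0.nm t = 1) (ht' : 0 < E0.od t) (P : C[X])
    (hP : ∀ n, ‖P.coeff n‖₊ ≤ 1) (h : E0.nm (aeval t P) < 1) (n : ℕ) : ‖P.coeff n‖₊ < 1 := by
  classical
  by_contra hn
  have htr : Transcendental (Ct C) (red E0.toNm t) := by
    refine transcendental_red E0.toNm ht.le fun c => ?_
    show 1 ≤ E0.nm _
    rw [(E0.lin_val ht ht' c).1]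
    exact le_max_left _ _
  let c : (Ct C)[X] := ∑ m ∈ P.support, monomial m (rc (P.coeff m))
  have hc : ∀ m, rc (P.coeff m) = c.coeff m := by
    intro m
    simp only [c, finset_sum_coeff, coeff_monomial]
    rw [Finset.sum_ite_eq' P.support m]
    split_ifs with h1
    · rfl
    · rw [notMem_support_iff.1 h1, rc_zero]
  have h1 := red_aeval E0.toNm (t := t) ht.le P hP c hc
  rw [(red_eq_zero_iff E0.toNm (nm_aeval_le E0.toNm ht.le P hP)).2 h] at h1
  have h2 : c = 0 := by
    by_contra h3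
    exact htr ⟨c, h3, h1.symm⟩
  have h3 := hc n
  rw [h2, coeff_zero, rc_eq_zero_iff (hP n)] at h3
  exact hn h3

/-- **counting**: the ends over the rational base end `E0` -/
theorem exists_ends (E0 : End2 C F0) {t : F0} (hg : Gen C t) (ht : E0.nm t = 1)
    (ht' : E0.od t = 1) {I : Type*} [Fintype I] (w : I → Nm C K) (hinj : Function.Injective w)
    (hw : ∀ i f, (w i).v (algebraMap F0 K f) = E0.nm f)
    (hall : ∀ w' : Nm C K, (∀ f, w'.v (algebraMap F0 K f) = E0.nm f) → ∃ i, w' = w i)
    (hff : ∀ i, FF (w i)) (d : I → ℕ) (b : ∀ i, Fin (d i) → K) (hb : ∀ i l, (w i).v (b i l) ≤ 1)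
    (hres : ∀ i (c : Fin (d i) → F0) (l : Fin (d i)),
      E0.nm (c l) ≤ (w i).v (∑ l, algebraMap F0 K (c l) * b i l)) :
    ∃ (S : Finset (End C K)) (e : End C K → ℕ), (∀ s ∈ S, Over E0 (ofPl s.1 s.2) (e s)) ∧
      (∀ (s : End C K) (e' : ℕ), Over E0 (ofPl s.1 s.2) e' → s ∈ S) ∧
      (∀ s ∈ S, ∃ i, s.1 = w i) ∧
      ∑ i, d i ≤ ∑ s ∈ S, e s := by
  classical
  have htK : ∀ i, (w i).v (algebraMap F0 K t) = 1 := fun i => by rw [hw, ht]
  have hal : ∀ p : C[X], algebraMap F0 K (aeval t p) = aeval (algebraMap F0 K t) p := by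
    intro p
    rw [aeval_algebraMap_apply]
  have hkey := fun i => zeros_aux (w i) (hff i) (t := algebraMap F0 K t) (htK i).le (by
    intro c
    have h1 : algebraMap F0 K t - algebraMap C K c = algebraMap F0 K (t - algebraMap C F0 c) := by
      rw [map_sub, ← IsScalarTower.algebraMap_apply]
    rw [h1, hw, (E0.lin_val ht (by rw [ht']; exact one_pos) c).1]
    exact le_max_left _ _) (b i) (hb i) (by
      intro c hc hlt l n
      refine gauss_lt E0 ht (by rw [ht']; exact one_pos) (c l) (hc l) ?_ n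
      have h1 := hres i (fun l => aeval t (c l)) l
      simp only [hal] at h1
      exact h1.trans_lt hlt)
  choose S hS hN using hkey
  let T : Finset (End C K) := Finset.univ.sigma (fun i => S i) |>.image
    (fun q : (Σ i, Pl (Ct C) (kap (w i))) => (⟨w q.1, q.2⟩ : End C K))
  have hinj2 : Function.Injective
      (fun q : (Σ i, Pl (Ct C) (kap (w i))) => (⟨w q.1, q.2⟩ : End C K)) := by
    rintro ⟨i, x⟩ ⟨j, y⟩ h
    simp only [Sigma.mk.injEq] at h
    obtain ⟨h1, h2⟩ := h
    have hij := hinj h1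
    subst hij
    rw [eq_of_heq h2]
  have hmem : ∀ s : End C K, s ∈ T ↔ ∃ i, ∃ x ∈ S i, s = ⟨w i, x⟩ := by
    intro s
    simp only [T, Finset.mem_image, Finset.mem_sigma, Finset.mem_univ, true_and]
    constructor
    · rintro ⟨⟨i, x⟩, h1, rfl⟩
      exact ⟨i, x, h1, rfl⟩
    · rintro ⟨i, x, h1, rfl⟩
      exact ⟨⟨i, x⟩, h1, rfl⟩
  refine ⟨T, fun s => (od s.1 s.2 (algebraMap F0 K t)).toNat, ?_, ?_, ?_, ?_⟩
  · intro s hs
    obtain ⟨i, x, hx, rfl⟩ := (hmem s).1 hs
    have h1 := (hS i x).1 hx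
    refine over_of E0 hg ht ht' _ (htK i) (e := (od (w i) x (algebraMap F0 K t)).toNat) ?_ ?_
    · omega
    · exact (Int.toNat_of_nonneg h1.le).symm
  · rintro ⟨w', x⟩ e' h
    obtain ⟨i, hi⟩ := hall w' h.nm
    subst hi
    refine (hmem _).2 ⟨i, x, (hS i x).2 ?_, rfl⟩
    have h1 := h.od t (E0.ne_zero_of_one ht)
    have h2 := h.pos
    have h3 : od (w i) x (algebraMap F0 K t) = e' * E0.od t := h1
    rw [h3, ht', mul_one]
    positivity
  · intro s hs
    obtain ⟨i, x, hx, rfl⟩ := (hmem s).1 hs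
    exact ⟨i, rfl⟩
  · rw [Finset.sum_image (fun a _ b _ h => hinj2 h), Finset.sum_sigma]
    refine Finset.sum_le_sum fun i _ => ?_
    have h1 := hN i
    have h2 : ((∑ x ∈ S i, (od (w i) x (algebraMap F0 K t)).toNat : ℕ) : ℤ) =
        ∑ x ∈ S i, od (w i) x (algebraMap F0 K t) := by
      rw [Nat.cast_sum]
      refine Finset.sum_congr rfl fun x hx => ?_
      exact Int.toNat_of_nonneg ((hS i x).1 hx).le
    have h3 : (d i : ℤ) ≤ (∑ x ∈ S i, (od (w i) x (algebraMap F0 K t)).toNat : ℕ) := by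
      rw [h2]; exact h1
    exact_mod_cast h3

end count

end Crest.Agent.R013.Red332
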