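import Mathlib
import Crest.Agent.R013.Red6_332
import Crest.Agent.R013.Red9_332
import Crest.Agent.R013.Good1_408

/-!
# R013 / Red10: good ends; the ends of good discs (helper332)
-/

set_option autoImplicit false
set_option linter.all false

namespace Crest.Agent.R013.Red332

open scoped NNReal
open WithZero IsLocalRing Polynomial Module
open Crest.Agent.R013.RR7_948
open Crest.Agent.R013.EE809
open Crest.Agent.R013.Cell_408 Crest.Agent.R013.Comp_267 Crest.Agent.R013.Good_408

section GEnd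

variable {k C : Type*} [NontriviallyNormedField k] [CompleteSpace k] [IsUltrametricDist k]
  [NormedField C] [IsUltrametricDist C] [NormedAlgebra k C] [Algebra.IsAlgebraic k C]
  [IsAlgClosed C] [hk : Fact (DiscNorm k)]
variable {F0 K : Type*} [Field F0] [Algebra C F0] [Field K] [Algebra C K] [Algebra F0 K]
  [IsScalarTower C F0 K]

/-- a family of embeddings of `K` which describes all ends over `E0` -/
structure GEnd (E0 : End2 C F0) {J : Type*} (m : J → ℕ) (io : J → K →ₐ[C] EE k C) : Prop where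
  ov : ∀ j, Over E0 ((EEend k C).comap (io j)) (m j)
  surj : ∀ (E : End2 C K) (e : ℕ), Over E0 E e →
    ∃ j, (∀ z, E.nm z = (EEend k C).nm (io j z)) ∧
      ∀ z, z ≠ 0 → m j * E.od z = e * (EEend k C).od (io j z)

/-- **bijection** between the embeddings and the ends over `E0` -/
theorem GEnd.bij {E0 : End2 C F0} {t : F0} (ht : E0.nm t = 1) (ht' : E0.od t = 1)
    {J : Type*} [Fintype J] {m : J → ℕ} {io : J → K →ₐ[C] EE k C} (G : GEnd E0 m io)
    (S : Finset (End C K)) (e : End C K → ℕ) (he : ∀ s ∈ S, Over E0 (ofPl s.1 s.2) (e s))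
    (hall : ∀ (s : End C K) (e' : ℕ), Over E0 (ofPl s.1 s.2) e' → s ∈ S)
    (hsum : ∑ j, m j ≤ ∑ s ∈ S, e s) :
    ∃ π : J → End C K, Function.Injective π ∧ (∀ s, s ∈ S ↔ ∃ j, s = π j) ∧
      ∀ j, m j = e (π j) ∧ (∀ z, (π j).1.v z = (EEend k C).nm (io j z)) ∧
      ∀ z, z ≠ 0 → od (π j).1 (π j).2 z = EE809.od (io j z) := by
  classical
  choose σ d e' hd hm hov hnm hod using fun j => exists_end (G.ov j) ht ht'
  have hσ : ∀ j, σ j ∈ S := fun j => hall (σ j) (e' j) (hov j)
  have hee : ∀ j, e' j = e (σ j) := fun j => (hov j).unique (he _ (hσ j)) ht ht'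
  let π : J → {s // s ∈ S} := fun j => ⟨σ j, hσ j⟩
  have hsurj : Function.Surjective π := by
    rintro ⟨s, hs⟩
    obtain ⟨j, h1, h2⟩ := G.surj (ofPl s.1 s.2) (e s) (he s hs)
    refine ⟨j, Subtype.ext ?_⟩
    refine (end_eq (s := s) (s' := σ j) (a := m j) (b := e s * d j) (G.ov j).pos
      (Nat.mul_pos (he s hs).pos (hd j)) (fun z => ?_) (fun z hz => ?_)).1.symm
    · rw [hnm j z]
      exact h1 z
    · have h3 := h2 z hz
      have h4 := hod j z hz
      push_cast
      rw [mul_assoc, ← h4]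
      exact h3
  obtain ⟨hbij, hd1⟩ := count_aux π hsurj (fun s => e s.1) (fun s => (he s.1 s.2).pos) m d hd
    (fun j => by rw [hm j, hee j]) (by rw [← Finset.sum_coe_sort S] at hsum; exact hsum)
  refine ⟨σ, fun a b hab => hbij.1 (Subtype.ext hab), fun s => ⟨fun hs => ?_, ?_⟩, fun j => ?_⟩
  · obtain ⟨j, hj⟩ := hbij.2 ⟨s, hs⟩
    exact ⟨j, (congrArg Subtype.val hj).symm⟩
  · rintro ⟨j, rfl⟩
    exact hσ j
  · refine ⟨?_, fun z => hnm j z, fun z hz => ?_⟩
    · rw [hm j, hd1 j, one_mul, hee j]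
    · have h4 := hod j z hz
      rw [hd1 j, Nat.cast_one, one_mul] at h4
      exact h4.symm

end GEnd

section disc

variable {k C : Type*} [NontriviallyNormedField k] [CompleteSpace k] [IsUltrametricDist k]
  [NormedField C] [IsUltrametricDist C] [NormedAlgebra k C] [Algebra.IsAlgebraic k C]
  [IsAlgClosed C] [hk : Fact (DiscNorm k)]

/-- Gauss norm and first index of an element of `BD` in `EE` -/
theorem gn_od_of_hasW {g : BD k C} {r : ℝ} {n : ℕ} (h : HasW g.1 r n) (hr : 0 < r) :
    gn (ofBD g : EE k C) = r ∧ EE809.od (ofBD g : EE k C) = n := by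
  have h1 : gn (ofBD g : EE k C) = r := by
    refine le_antisymm (gn_le fun i => ?_) ?_
    · rcases lt_or_ge i 0 with hi | hi
      · rw [co_ofBD_neg _ hi, norm_zero]; exact hr.le
      · obtain ⟨i, rfl⟩ := Int.eq_ofNat_of_zero_le hi
        rw [co_ofBD_nat]
        exact h.le i
    · have := le_gn (ofBD g : EE k C) n
      rw [co_ofBD_nat, h.eq] at this
      exact this
  refine ⟨h1, EE809.od_eq_of ?_ fun i hi => ?_⟩
  · rw [co_ofBD_nat, h.eq, h1]
  · rw [h1]
    rcases lt_or_ge i 0 with hi' | hi'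
    · rw [co_ofBD_neg _ hi', norm_zero]; exact hr
    · obtain ⟨i, rfl⟩ := Int.eq_ofNat_of_zero_le hi'
      rw [co_ofBD_nat]
      exact h.lt i (by exact_mod_cast hi)

theorem FDend_nm (a : FD k C) : (FDend k C).nm a = (EEend k C).nm (toEE k C a) := rfl

theorem FDend_od (a : FD k C) : (FDend k C).od a = EE809.od (toEE k C a) := rfl

theorem FDend_BD {g : BD k C} {r : ℝ} {n : ℕ} (h : HasW g.1 r n) (hr : 0 < r) :
    ((FDend k C).nm (algebraMap (BD k C) (FD k C) g) : ℝ) = r ∧
      (FDend k C).od (algebraMap (BD k C) (FD k C) g) = n := by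
  rw [FDend_nm, FDend_od, toEE_algebraMap, EEend_nm]
  exact gn_od_of_hasW h hr

theorem FDend_TF : (FDend k C).nm (TF k C) = 1 ∧ (FDend k C).od (TF k C) = 1 := by
  have h := FDend_BD (k := k) (C := C) (g := XB) (r := 1) (n := 1) hasW_X one_pos
  refine ⟨?_, h.2⟩
  ext
  exact h.1

theorem compF_val {f : PowerSeries C} {m : ℕ} (hf : WD k f m) (hm : m ≠ 0) (a : FD k C)
    (ha : a ≠ 0) : (FDend k C).nm (compF hk.out hf hm a) = (FDend k C).nm a ∧
      (FDend k C).od (compF hk.out hf hm a) = m * (FDend k C).od a := by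
  have key : ∀ g : BD k C, g ≠ 0 → algebraMap (BD k C) (FD k C) g ≠ 0 ∧
      compF hk.out hf hm (algebraMap (BD k C) (FD k C) g) ≠ 0 ∧
      (FDend k C).nm (compF hk.out hf hm (algebraMap (BD k C) (FD k C) g)) =
        (FDend k C).nm (algebraMap (BD k C) (FD k C) g) ∧
      (FDend k C).od (compF hk.out hf hm (algebraMap (BD k C) (FD k C) g)) =
        m * (FDend k C).od (algebraMap (BD k C) (FD k C) g) := by
    intro g hg
    have hg0 : algebraMap (BD k C) (FD k C) g ≠ 0 := by
      intro h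
      exact hg (IsFractionRing.injective (BD k C) (FD k C) (by rw [h, map_zero]))
    have hg1 : (g : PowerSeries C) ≠ 0 := fun h => hg (Subtype.ext h)
    obtain ⟨r, n, hr, hW⟩ := exists_hasW hk.out g.2 hg1
    have hW' := HasW.comp hf hm hW g.2 hr
    have h1 := FDend_BD hW hr
    have h2 := FDend_BD (g := comp f (WD.co hf hm) g) (r := r) (n := n * m) hW' hr
    rw [compF_algebraMap]
    refine ⟨hg0, ?_, ?_, ?_⟩
    · intro h
      rw [← compF_algebraMap hk.out hf hm, map_eq_zero] at h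
      exact hg0 h
    · ext
      rw [h2.1, h1.1]
    · rw [h2.2, h1.2]
      push_cast
      ring
  obtain ⟨g, h, hh, rfl⟩ := IsFractionRing.div_surjective (A := BD k C) a
  have hh0 : h ≠ 0 := nonZeroDivisors.ne_zero hh
  have hg0 : g ≠ 0 := by
    rintro rfl
    exact ha (by rw [map_zero, zero_div])
  obtain ⟨a1, a2, a3, a4⟩ := key g hg0
  obtain ⟨b1, b2, b3, b4⟩ := key h hh0
  rw [map_div₀, map_div₀, map_div₀, a3, b3]
  refine ⟨rfl, ?_⟩
  rw [div_eq_mul_inv, div_eq_mul_inv, (FDend k C).od_mul _ _ a2 (inv_ne_zero b2),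
    (FDend k C).od_mul _ _ a1 (inv_ne_zero b1), (FDend k C).od_inv b2, (FDend k C).od_inv b1, a4, b4]
  ring

variable {K : Type*} [Field K] [Algebra C K] [Algebra (RatFunc C) K]
    [IsScalarTower C (RatFunc C) K] [FiniteDimensional (RatFunc C) K] {y : FD k C}

/-- the end of `C(x)` given by the disc -/
noncomputable def baseD (D : DCells k C K y) : End2 C (RatFunc C) := (FDend k C).comap D.i

/-- **the ends of a good disc** -/
theorem gEnd_disc (D : DCells k C K y) {t : RatFunc C} (ht : (baseD D).nm t = 1)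
    (ht' : (baseD D).od t = 1) :
    GEnd (baseD D) D.m (fun j => (toEE k C).comp (D.io j)) := by
  haveI := D.nonempty
  have hov : ∀ j, Over (baseD D) ((FDend k C).comap (D.io j)) (D.m j) := by
    intro j
    refine ⟨Nat.one_le_iff_ne_zero.2 (D.m_ne j), fun f => ?_, fun f hf => ?_⟩
    · show (FDend k C).nm (D.io j (algebraMap (RatFunc C) K f)) = (FDend k C).nm (D.i f)
      rw [← D.comm]
      by_cases hf : f = 0
      · rw [hf, map_zero, map_zero]
      · exact (compF_val (D.wd j) (D.m_ne j) (D.i f) (by rw [Ne, map_eq_zero]; exact hf)).1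
    · show (FDend k C).od (D.io j (algebraMap (RatFunc C) K f)) = _ * (FDend k C).od (D.i f)
      rw [← D.comm]
      exact (compF_val (D.wd j) (D.m_ne j) (D.i f) (by rw [Ne, map_eq_zero]; exact hf)).2
  refine ⟨fun j => ⟨(hov j).pos, (hov j).nm, (hov j).od⟩, fun E e hE => ?_⟩
  refine exists_factor (baseD D) (FDend k C) (D.i : RatFunc C →+* FD k C) (fun f hf => hf) ht ht'
    (fun _ => FDend k C) (fun j => (D.φ j).toRingHom) D.io (fun j f => (D.comm j f).symm) D.m hov
    (fun j u hu => ?_) (fun n b hb l hl => D.inj n b hb l hl) E e hE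
  have hT : ∀ i : ℕ, (FDend k C).nm (TF k C ^ i) = 1 ∧ (FDend k C).od (TF k C ^ i) = i := by
    intro i
    have h0 : TF k C ≠ 0 := (FDend k C).ne_zero_of_one FDend_TF.1
    rw [map_pow, FDend_TF.1, one_pow, (FDend k C).od_pow h0, FDend_TF.2, mul_one]
    exact ⟨rfl, rfl⟩
  refine End2.int_of_span (FDend k C) (FDend k C) (D.φ j).toRingHom
    (Nat.one_le_iff_ne_zero.2 (D.m_ne j)) (fun a => ?_)
    (fun a ha => (compF_val (D.wd j) (D.m_ne j) a ha).2) (fun i => TF k C ^ (i : ℕ))
    (fun i => (hT i).1) (fun i l => ?_) (fun i l h => ?_)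
    (fun z => compF_repr hk.out (D.wd j) (D.m_ne j) z) u hu
  · by_cases ha : a = 0
    · rw [ha, map_zero]
    · exact (compF_val (D.wd j) (D.m_ne j) a ha).1
  · rw [(hT i).2, (hT l).2]
    have := i.2
    omega
  · rw [(hT i).2, (hT l).2] at h
    exact Fin.ext (by exact_mod_cast h)

end disc

end Crest.Agent.R013.Red332
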