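import Mathlib
import Crest.Agent.R013.Red10_332
import Crest.Agent.R013.Good4_408
import Crest.Agent.R013.CAn4_243

/-!
# R013 / Red13: the two ends of good annuli (helper332)
-/

set_option autoImplicit false
set_option linter.all false

namespace Crest.Agent.R013.Red332

open scoped NNReal
open WithZero IsLocalRing Polynomial Module
open Crest.Agent.R013.RR7_948
open Crest.Agent.R013.EE809 Crest.Agent.R013.CAn_243
open Crest.Agent.R013.Cell_408 Crest.Agent.R013.Good_408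

variable {k C : Type*} [NontriviallyNormedField k] [CompleteSpace k] [IsUltrametricDist k]
  [NormedField C] [IsUltrametricDist C] [NormedAlgebra k C] [Algebra.IsAlgebraic k C]
  [IsAlgClosed C] [hk : Fact (DiscNorm k)]

variable (k) in
/-- the outer end of an annulus -/
noncomputable def outF (c : C) : End2 C (FA k c) := (EEend k C).comap (FA k c).val

variable (k) in
/-- the inner end of an annulus -/
noncomputable def inF {c : C} (hc0 : c ≠ 0) (hc1 : ‖c‖ < 1) : End2 C (FA k c) :=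
  (EEend k C).comap ((FA k c).val.comp (flipF c hc0 hc1))

theorem EEend_nm_eq {a b : EE k C} (h : gn a = gn b) : (EEend k C).nm a = (EEend k C).nm b := by
  apply NNReal.coe_injective
  rw [EEend_nm, EEend_nm, h]

theorem EEend_nm_one {a : EE k C} (h : gn a = 1) : (EEend k C).nm a = 1 := by
  apply NNReal.coe_injective
  rw [EEend_nm, h, NNReal.coe_one]

variable (k) in
/-- `T ^ n` in `FA c` -/
noncomputable def TA (c : C) (n : ℤ) : FA k c := algebraMap (AN k c) (FA k c) ⟨T n, T_mem_AN c n⟩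

theorem coe_TA (c : C) (n : ℤ) : (TA k c n : EE k C) = T n := rfl

theorem flipF_TA {c : C} (hc0 : c ≠ 0) (hc1 : ‖c‖ < 1) (n : ℤ) :
    (flipF c hc0 hc1 (TA k c n) : EE k C) = mo (-n) (c ^ n) := by
  rw [TA, flipF_algebraMap, coe_algebraMap_FA]
  have h := congrArg Subtype.val (flip_mo (k := k) c hc0 hc1 n (1 : C))
  rw [one_mul] at h
  exact h

variable {K : Type*} [Field K] [Algebra C K] [Algebra (RatFunc C) K]
    [IsScalarTower C (RatFunc C) K] [FiniteDimensional (RatFunc C) K] {c : C} {y : EE k C}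

section

variable (D : ACells k C K c y)

/-- `f j` has the form `T ^ m u` -/
theorem wa_of (j : D.J) : WA (D.c' j) (D.f j) (D.m j : ℤ) := WA.of_we (D.we j) (D.wa j)

/-- the map `FA c → FA (c' j)` -/
noncomputable def phA (j : D.J) : FA k c →ₐ[C] FA k (D.c' j) :=
  compFA (D.c'_ne j) (D.c'_lt j) (wa_of D j) (D.m_ne j) (D.hc' j)

theorem coe_phA (j : D.J) (x : FA k c) : (phA D j x : EE k C) = D.φ j x := rfl

/-- the embedding of `K` in `FA (c' j)` -/
noncomputable def ioA (j : D.J) : K →ₐ[C] FA k (D.c' j) :=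
  (D.io j).codRestrict (FA k (D.c' j)).toSubalgebra (D.io_mem j)

theorem coe_ioA (j : D.J) (x : K) : (ioA D j x : EE k C) = D.io j x := rfl

/-- the expansion of `C(x)` in `FA c` -/
noncomputable def iA : RatFunc C →ₐ[C] FA k c :=
  D.i.codRestrict (FA k c).toSubalgebra D.i_mem

theorem coe_iA (x : RatFunc C) : (iA D x : EE k C) = D.i x := rfl

theorem commA (j : D.J) (f : RatFunc C) : ioA D j (algebraMap (RatFunc C) K f) = phA D j (iA D f) := by
  apply Subtype.ext
  rw [coe_ioA, coe_phA, coe_iA]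
  exact (D.comm j f).symm

/-- the inner embedding -/
noncomputable def io1A (j : D.J) : K →ₐ[C] EE k C :=
  (FA k (D.c' j)).val.comp ((flipF (D.c' j) (D.c'_ne j) (D.c'_lt j)).comp (ioA D j))

/-- the base end, outer side -/
noncomputable def baseO : End2 C (RatFunc C) := (EEend k C).comap D.i

/-- the base end, inner side -/
noncomputable def baseI : End2 C (RatFunc C) := (inF k D.c_ne D.c_lt).comap (iA D)

/-- spanning of `FA (c' j)` by `1, T, .., T ^ (m j - 1)` -/
def SpanA : Prop := ∀ (j : D.J) (z : EE k C), z ∈ FA k (D.c' j) → ∃ A : Fin (D.m j) → EE k C,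
  (∀ i, A i ∈ FA k c) ∧ z = ∑ i, D.φ j (A i) * T ((i : ℕ) : ℤ)

theorem injA (n : ℕ) (b : Fin n → K) (hb : LinearIndependent (RatFunc C) b) (l : Fin n → FA k c)
    (h : ∀ j, ∑ i, phA D j (l i) * ioA D j (b i) = 0) : l = 0 := by
  have h1 := D.inj n b hb (fun i => (l i : EE k C)) (fun i => (l i).2) (fun j => by
    have h2 := congrArg (FA k (D.c' j)).val (h j)
    rw [map_sum, map_zero] at h2
    rw [← h2]
    exact Finset.sum_congr rfl fun i _ => rfl)
  funext i
  exact Subtype.ext (congrFun h1 i)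

/-- outer end of the annulus `j` over the outer base end -/
theorem overO (j : D.J) : Over (baseO D) ((EEend k C).comap (D.io j)) (D.m j) := by
  refine ⟨Nat.one_le_iff_ne_zero.2 (D.m_ne j), fun f => ?_, fun f hf => ?_⟩
  · show (EEend k C).nm (D.io j (algebraMap (RatFunc C) K f)) = (EEend k C).nm (D.i f)
    rw [← D.comm]
    exact EEend_nm_eq (D.gn_φ j _)
  · show EE809.od (D.io j (algebraMap (RatFunc C) K f)) = _ * EE809.od (D.i f)
    rw [← D.comm]
    exact D.od_φ j _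

theorem flipF_phA (j : D.J) (x : FA k c) :
    (flipF (D.c' j) (D.c'_ne j) (D.c'_lt j) (phA D j x) : EE k C) =
      compE (inn c (D.c' j) (D.f j)) (((wa_of D j).inn (D.c'_ne j) (D.c'_lt j) (D.hc' j)).we
        (D.c'_ne j) (D.c'_lt j)) (D.m_ne j) (flipF c D.c_ne D.c_lt x : EE k C) := by
  rw [phA, flipF_compFA (D.c'_ne j) (D.c'_lt j) (wa_of D j) (D.m_ne j) (D.hc' j) D.c_ne D.c_lt]
  rfl

/-- the norm and the order at the inner end of `FA (c' j)` of elements of `FA c` -/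
theorem in_phA (j : D.J) (x : FA k c) :
    (inF k (D.c'_ne j) (D.c'_lt j)).nm (phA D j x) = (inF k D.c_ne D.c_lt).nm x ∧
      (inF k (D.c'_ne j) (D.c'_lt j)).od (phA D j x) = D.m j * (inF k D.c_ne D.c_lt).od x := by
  constructor
  · show (EEend k C).nm (flipF (D.c' j) (D.c'_ne j) (D.c'_lt j) (phA D j x) : EE k C) =
      (EEend k C).nm (flipF c D.c_ne D.c_lt x : EE k C)
    rw [flipF_phA]
    exact EEend_nm_eq (gn_compE _ _ _)
  · show EE809.od (flipF (D.c' j) (D.c'_ne j) (D.c'_lt j) (phA D j x) : EE k C) =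
      D.m j * EE809.od (flipF c D.c_ne D.c_lt x : EE k C)
    rw [flipF_phA]
    exact od_compE _ _ _

theorem overI (j : D.J) : Over (baseI D) ((EEend k C).comap (io1A D j)) (D.m j) := by
  refine ⟨Nat.one_le_iff_ne_zero.2 (D.m_ne j), fun f => ?_, fun f hf => ?_⟩
  · show (inF k (D.c'_ne j) (D.c'_lt j)).nm (ioA D j (algebraMap (RatFunc C) K f)) =
      (inF k D.c_ne D.c_lt).nm (iA D f)
    rw [commA]
    exact (in_phA D j _).1
  · show (inF k (D.c'_ne j) (D.c'_lt j)).od (ioA D j (algebraMap (RatFunc C) K f)) =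
      D.m j * (inF k D.c_ne D.c_lt).od (iA D f)
    rw [commA]
    exact (in_phA D j _).2

theorem spanA' (hs : SpanA D) (j : D.J) (z : FA k (D.c' j)) : ∃ A : Fin (D.m j) → FA k c,
    z = ∑ i, phA D j (A i) * TA k (D.c' j) ((i : ℕ) : ℤ) := by
  obtain ⟨A, hA, h⟩ := hs j z z.2
  refine ⟨fun i => ⟨A i, hA i⟩, ?_⟩
  apply Subtype.ext
  have h2 : ((∑ i, phA D j ⟨A i, hA i⟩ * TA k (D.c' j) ((i : ℕ) : ℤ) : FA k (D.c' j)) : EE k C) =
      ∑ i, D.φ j (A i) * T ((i : ℕ) : ℤ) := by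
    have := map_sum (FA k (D.c' j)).val (fun i => phA D j ⟨A i, hA i⟩ * TA k (D.c' j) ((i : ℕ) : ℤ))
      Finset.univ
    exact this
  rw [h2]
  exact h

/-- **the outer ends of a good annulus** -/
theorem gEnd_out (hs : SpanA D) {t : RatFunc C} (ht : (baseO D).nm t = 1) (ht' : (baseO D).od t = 1) :
    GEnd (baseO D) D.m D.io := by
  haveI := D.nonempty
  refine ⟨overO D, fun E e hE => ?_⟩
  refine exists_factor (baseO D) (outF k c) (iA D : RatFunc C →+* FA k c) (fun f hf => hf) ht ht'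
    (fun j => outF k (D.c' j)) (fun j => (phA D j).toRingHom) (ioA D) (fun j f => commA D j f) D.m
    (overO D) (fun j u hu => ?_) (fun n b hb l hl => injA D n b hb l hl) E e hE
  refine End2.int_of_span (outF k (D.c' j)) (outF k c) (phA D j).toRingHom
    (Nat.one_le_iff_ne_zero.2 (D.m_ne j)) (fun a => EEend_nm_eq (D.gn_φ j _))
    (fun a ha => D.od_φ j _) (fun i => TA k (D.c' j) ((i : ℕ) : ℤ))
    (fun i => EEend_nm_one (by
      show gn (T ((i : ℕ) : ℤ) : EE k C) = 1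
      rw [T, gn_mo, norm_one])) (fun i l => ?_) (fun i l h => ?_)
    (spanA' D hs j) u hu
  · show EE809.od (T ((i : ℕ) : ℤ) : EE k C) < EE809.od (T ((l : ℕ) : ℤ) : EE k C) + D.m j
    rw [T, T, mo, mo, od_mono _ _ one_ne_zero, od_mono _ _ one_ne_zero]
    have := i.2
    omega
  · have h' : EE809.od (T ((i : ℕ) : ℤ) : EE k C) = EE809.od (T ((l : ℕ) : ℤ) : EE k C) := h
    rw [T, T, mo, mo, od_mono _ _ one_ne_zero, od_mono _ _ one_ne_zero] at h'
    exact Fin.ext (by exact_mod_cast h')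

/-- **the inner ends of a good annulus** -/
theorem gEnd_in (hs : SpanA D) {t : RatFunc C} (ht : (baseI D).nm t = 1) (ht' : (baseI D).od t = 1) :
    GEnd (baseI D) D.m (io1A D) := by
  haveI := D.nonempty
  refine ⟨overI D, fun E e hE => ?_⟩
  refine exists_factor (baseI D) (inF k D.c_ne D.c_lt) (iA D : RatFunc C →+* FA k c)
    (fun f hf => hf) ht ht'
    (fun j => inF k (D.c'_ne j) (D.c'_lt j)) (fun j => (phA D j).toRingHom) (ioA D)
    (fun j f => commA D j f) D.m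
    (overI D) (fun j u hu => ?_) (fun n b hb l hl => injA D n b hb l hl) E e hE
  have hfl : ∀ i : ℕ, (flipF (D.c' j) (D.c'_ne j) (D.c'_lt j)
      (algebraMap C (FA k (D.c' j)) (((D.c' j) ^ (i : ℤ))⁻¹) * TA k (D.c' j) (i : ℤ)) : EE k C) =
      T (-(i : ℤ)) := by
    intro i
    have h1 : (flipF (D.c' j) (D.c'_ne j) (D.c'_lt j)
      (algebraMap C (FA k (D.c' j)) (((D.c' j) ^ (i : ℤ))⁻¹) * TA k (D.c' j) (i : ℤ)) : EE k C) =
      algebraMap C (EE k C) (((D.c' j) ^ (i : ℤ))⁻¹) *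
        (flipF (D.c' j) (D.c'_ne j) (D.c'_lt j) (TA k (D.c' j) (i : ℤ)) : EE k C) := by
      rw [map_mul, AlgHom.commutes]
      rfl
    rw [h1, flipF_TA]
    have hne : (D.c' j) ^ (i : ℤ) ≠ 0 := zpow_ne_zero _ (D.c'_ne j)
    ext n
    rw [EE809.algebraMap_eq, co_mo_mul, T, co_mo, co_mo, sub_zero]
    split_ifs
    · rw [inv_mul_cancel₀ hne]
    · rw [mul_zero]
  have hod : ∀ i : ℕ, (inF k (D.c'_ne j) (D.c'_lt j)).od
      (algebraMap C (FA k (D.c' j)) (((D.c' j) ^ (i : ℤ))⁻¹) * TA k (D.c' j) (i : ℤ)) = -(i : ℤ) := by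
    intro i
    have h1 : (inF k (D.c'_ne j) (D.c'_lt j)).od
      (algebraMap C (FA k (D.c' j)) (((D.c' j) ^ (i : ℤ))⁻¹) * TA k (D.c' j) (i : ℤ)) =
      EE809.od (T (-(i : ℤ)) : EE k C) := by
      rw [← hfl i]
      rfl
    rw [h1, T, mo, od_mono _ _ one_ne_zero]
  have hnm : ∀ i : ℕ, (inF k (D.c'_ne j) (D.c'_lt j)).nm
      (algebraMap C (FA k (D.c' j)) (((D.c' j) ^ (i : ℤ))⁻¹) * TA k (D.c' j) (i : ℤ)) = 1 := by
    intro i
    have h1 : (inF k (D.c'_ne j) (D.c'_lt j)).nm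
      (algebraMap C (FA k (D.c' j)) (((D.c' j) ^ (i : ℤ))⁻¹) * TA k (D.c' j) (i : ℤ)) =
      (EEend k C).nm (T (-(i : ℤ)) : EE k C) := by
      rw [← hfl i]
      rfl
    rw [h1]
    exact EEend_nm_one (by rw [T, gn_mo, norm_one])
  refine End2.int_of_span (inF k (D.c'_ne j) (D.c'_lt j)) (inF k D.c_ne D.c_lt) (phA D j).toRingHom
    (Nat.one_le_iff_ne_zero.2 (D.m_ne j)) (fun a => (in_phA D j a).1)
    (fun a ha => (in_phA D j a).2)
    (fun i => algebraMap C (FA k (D.c' j)) (((D.c' j) ^ ((i : ℕ) : ℤ))⁻¹) *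
      TA k (D.c' j) ((i : ℕ) : ℤ))
    (fun i => ?_) (fun i l => ?_) (fun i l h => ?_) (fun z => ?_) u hu
  · exact hnm i
  · rw [hod, hod]
    have := l.2
    omega
  · rw [hod, hod] at h
    exact Fin.ext (by omega)
  · obtain ⟨A, hA⟩ := spanA' D hs j z
    refine ⟨fun i => algebraMap C (FA k c) ((D.c' j) ^ ((i : ℕ) : ℤ)) * A i, ?_⟩
    rw [hA]
    refine Finset.sum_congr rfl fun i _ => ?_
    have hne : (D.c' j) ^ ((i : ℕ) : ℤ) ≠ 0 := zpow_ne_zero _ (D.c'_ne j)
    have h1 : (phA D j).toRingHom (algebraMap C (FA k c) ((D.c' j) ^ ((i : ℕ) : ℤ)) * A i) =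
        algebraMap C (FA k (D.c' j)) ((D.c' j) ^ ((i : ℕ) : ℤ)) * phA D j (A i) := by
      show phA D j (algebraMap C (FA k c) ((D.c' j) ^ ((i : ℕ) : ℤ)) * A i) = _
      rw [map_mul, AlgHom.commutes]
    rw [h1]
    have h2 : algebraMap C (FA k (D.c' j)) ((D.c' j) ^ ((i : ℕ) : ℤ)) *
        algebraMap C (FA k (D.c' j)) (((D.c' j) ^ ((i : ℕ) : ℤ))⁻¹) = 1 := by
      rw [← map_mul, mul_inv_cancel₀ hne, map_one]
    linear_combination (-(phA D j (A i)) * TA k (D.c' j) ((i : ℕ) : ℤ)) * h2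

/-- the two embeddings of an annulus are glued by the flip -/
theorem io_annA (j : D.J) (f : K) : ∃ g h g' h' : EE k C, h ≠ 0 ∧ g ∈ AN k (D.c' j) ∧
    h ∈ AN k (D.c' j) ∧ (∀ n, g'.co n = g.co (-n) * (D.c' j) ^ (-n)) ∧
    (∀ n, h'.co n = h.co (-n) * (D.c' j) ^ (-n)) ∧ D.io j f * h = g ∧ io1A D j f * h' = g' := by
  obtain ⟨a, b, hb, e⟩ := FA_div_surj (ioA D j f)
  have hbF : algebraMap (AN k (D.c' j)) (FA k (D.c' j)) b ≠ 0 := by
    intro h0
    exact hb (algebraMap_FA_injective _ (by rw [h0, map_zero]))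
  have e1 : ioA D j f * algebraMap (AN k (D.c' j)) (FA k (D.c' j)) b =
      algebraMap (AN k (D.c' j)) (FA k (D.c' j)) a := by
    rw [← e, div_mul_cancel₀ _ hbF]
  refine ⟨a, b, flip (D.c' j) (D.c'_ne j) (D.c'_lt j) a, flip (D.c' j) (D.c'_ne j) (D.c'_lt j) b,
    fun h0 => hb (Subtype.ext h0), a.2, b.2, fun n => co_flip _ _ _ _ _, fun n => co_flip _ _ _ _ _,
    congrArg (fun z : FA k (D.c' j) => (z : EE k C)) e1, ?_⟩
  have e2 := congrArg (flipF (D.c' j) (D.c'_ne j) (D.c'_lt j)) e1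
  rw [map_mul, flipF_algebraMap, flipF_algebraMap] at e2
  exact congrArg (fun z : FA k (D.c' j) => (z : EE k C)) e2

end

end Crest.Agent.R013.Red332
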