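import Crest.Agent.R013.End4_809
import Crest.Agent.R013.Red13_332
import Crest.Agent.R013.SSG1_109

/-!
# Row 13, leaf SS-END (helper809): flip and change of coordinate of good annuli;
annuli at all directions of all type 2 points of the line (`EndIn` of `SSG1_109`)
-/

set_option autoImplicit false
set_option linter.unusedSectionVars false
open Filter Topology
open scoped NNReal
open WithZero
open Crest.Agent.R013.Cell_408 (FinDef DiscNorm exists_max BD)
open Crest.Agent.R013.CAn_243 Crest.Agent.R013.Good_408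

namespace Crest.Agent.R013.EE809

open Polynomial Module

section flip

variable {k : Type*} [NontriviallyNormedField k] [CompleteSpace k] [IsUltrametricDist k]
variable {C : Type*} [NormedField C] [IsUltrametricDist C] [NormedAlgebra k C]
variable [Algebra.IsAlgebraic k C] [IsAlgClosed C] [hk : Fact (DiscNorm k)]
variable {K : Type*} [Field K] [Algebra C K] [Algebra (RatFunc C) K] [IsScalarTower C (RatFunc C) K]
variable [FiniteDimensional (RatFunc C) K]

open Crest.Agent.R013.Red332 in
/-- **flip** of a good annulus -/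
noncomputable def flipCells {c : C} {y : EE k C} (D : ACells k C K c y) :
    ACells k C K c (flipF c D.c_ne D.c_lt ⟨y, D.hy⟩ : FA k c) where
  c_ne := D.c_ne
  c_lt := D.c_lt
  hy := (flipF c D.c_ne D.c_lt ⟨y, D.hy⟩ : FA k c).2
  J := D.J
  fJ := D.fJ
  m := D.m
  m_ne := D.m_ne
  c' := D.c'
  hc' := D.hc'
  f := fun j => inn c (D.c' j) (D.f j)
  we := fun j => ((wa_of D j).inn (D.c'_ne j) (D.c'_lt j) (D.hc' j)).we (D.c'_ne j) (D.c'_lt j)
  wa := fun j n => by
    have h := ((wa_of D j).inn (D.c'_ne j) (D.c'_lt j) (D.hc' j)).leA n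
    rwa [zpow_natCast] at h
  io := io1A D
  io_mem := fun j a =>
    (flipF (D.c' j) (D.c'_ne j) (D.c'_lt j) (ioA D j a) : FA k (D.c' j)).2
  hx := fun j => by
    rw [← flipF_phA D j ⟨y, D.hy⟩]
    have h : ioA D j (algebraMap (RatFunc C) K RatFunc.X) = phA D j ⟨y, D.hy⟩ :=
      Subtype.ext (D.hx' j)
    rw [← h]
    rfl
  sum_m := D.sum_m
  inj := fun n b hb e he h0 => by
    have h1 : ∀ i, (flipF c D.c_ne D.c_lt (flipF c D.c_ne D.c_lt ⟨e i, he i⟩) : FA k c) =
        ⟨e i, he i⟩ := fun i => flipF_flipF _ _ _ _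
    have h2 : (fun i => flipF c D.c_ne D.c_lt ⟨e i, he i⟩) = (0 : Fin n → FA k c) := by
      refine injA D n b hb _ fun j => ?_
      have h3 : Function.Injective (flipF (D.c' j) (D.c'_ne j) (D.c'_lt j) (k := k)) :=
        (flipF (D.c' j) (D.c'_ne j) (D.c'_lt j)).toRingHom.injective
      apply h3
      apply Subtype.ext
      rw [map_zero, map_sum]
      have h4 := h0 j
      rw [ZeroMemClass.coe_zero, ← h4]
      have h5 := map_sum (FA k (D.c' j)).val (fun i => flipF (D.c' j) (D.c'_ne j) (D.c'_lt j)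
        (phA D j (flipF c D.c_ne D.c_lt ⟨e i, he i⟩) * ioA D j (b i))) Finset.univ
      refine h5.trans (Finset.sum_congr rfl fun i _ => ?_)
      have h6 := flipF_phA D j (flipF c D.c_ne D.c_lt ⟨e i, he i⟩)
      rw [h1 i] at h6
      rw [map_mul, map_mul]
      congr 1
    funext i
    have h7 := congrArg (flipF c D.c_ne D.c_lt) (congrFun h2 i)
    rw [Pi.zero_apply, map_zero, h1 i] at h7
    exact congrArg Subtype.val h7

theorem GoodA.flip {c : C} {y : EE k C} (h : GoodA k C K c y) {y' : EE k C}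
    (hy' : ∀ (hc0 : c ≠ 0) (hc1 : ‖c‖ < 1) (hy : y ∈ FA k c),
      (flipF c hc0 hc1 ⟨y, hy⟩ : EE k C) = y') : GoodA k C K c y' := by
  obtain ⟨D⟩ := h
  rw [← hy' D.c_ne D.c_lt D.hy]
  exact ⟨flipCells D⟩

end flip

section change

variable {k : Type*} [NontriviallyNormedField k] [CompleteSpace k] [IsUltrametricDist k]
variable {C : Type*} [NormedField C] [IsUltrametricDist C] [NormedAlgebra k C]
variable [Algebra.IsAlgebraic k C] [IsAlgClosed C] [hk : Fact (DiscNorm k)]

/-- **change of the coordinate of the line** -/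
theorem GoodA.change {K : Type*} [Field K] [Algebra C K] (i1 i2 : Algebra (RatFunc C) K)
    (t1 : @IsScalarTower C (RatFunc C) K _ i1.toSMul _)
    (t2 : @IsScalarTower C (RatFunc C) K _ i2.toSMul _)
    (f2 : @FiniteDimensional (RatFunc C) K _ _ i2.toModule)
    (σ : RatFunc C ≃+* RatFunc C)
    (hσ : ∀ f, @algebraMap _ _ _ _ i2 (σ f) = @algebraMap _ _ _ _ i1 f) {c : C} {y y1 : EE k C}
    (D : @GoodA k C _ _ _ _ _ _ _ _ _ K _ _ i2 t2 c y) (hy : Transcendental C y)
    (hy1 : y1 = Good_408.ratHom y hy (σ RatFunc.X)) :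
    @GoodA k C _ _ _ _ _ _ _ _ _ K _ _ i1 t1 c y1 := by
  obtain ⟨D⟩ := D
  have hi : ∀ r, @ACells.i k C _ _ _ _ _ _ _ _ _ K _ _ i2 t2 c y f2 D r = Good_408.ratHom y hy r :=
    fun r => rfl
  have hmem := @ACells.i_mem k C _ _ _ _ _ _ _ _ _ K _ _ i2 t2 c y f2 D (σ RatFunc.X)
  have hcomm := fun j => @ACells.comm k C _ _ _ _ _ _ _ _ _ K _ _ i2 t2 c y f2 D j (σ RatFunc.X)
  rw [hi, ← hy1] at hmem
  have hli : ∀ (n : ℕ) (b : Fin n → K), @LinearIndependent (Fin n) (RatFunc C) K b _ _ i1.toModule →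
      @LinearIndependent (Fin n) (RatFunc C) K b _ _ i2.toModule := by
    intro n b hb
    rw [@Fintype.linearIndependent_iff (Fin n) (RatFunc C) K _ _ i1.toModule b _] at hb
    rw [@Fintype.linearIndependent_iff (Fin n) (RatFunc C) K _ _ i2.toModule b _]
    intro g hg i
    have h1 := hb (fun i => σ.symm (g i)) (by
      rw [← hg]
      refine Finset.sum_congr rfl fun i _ => ?_
      rw [@Algebra.smul_def _ _ _ _ i1, @Algebra.smul_def _ _ _ _ i2, ← hσ, σ.apply_symm_apply]) i
    have h2 := congrArg σ h1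
    rwa [σ.apply_symm_apply, map_zero] at h2
  have hfr : @finrank (RatFunc C) K _ _ i1.toModule = @finrank (RatFunc C) K _ _ i2.toModule := by
    refine @Algebra.finrank_eq_of_equiv_equiv (RatFunc C) K _ _ i1 (RatFunc C) K _ _ i2 σ
      (RingEquiv.refl K) ?_
    ext f
    exact hσ f
  refine ⟨@ACells.mk k C _ _ _ _ _ _ _ _ _ K _ _ i1 t1 c y1 D.c_ne D.c_lt hmem D.J D.fJ D.m D.m_ne
    D.c' D.hc' D.f D.we D.wa D.io D.io_mem (fun j => ?_) (hfr ▸ D.sum_m)
    (fun n b hb => D.inj n b (hli n b hb))⟩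
  have h := hcomm j
  rw [hi, ← hy1, hσ] at h
  exact h.symm

/-- the automorphism `X ↦ u` of `C(X)` with inverse `X ↦ v` -/
noncomputable def sgm {F : Type*} [Field F] {u v : RatFunc F} (hu : Transcendental F u)
    (hv : Transcendental F v) (huv : RR20_948.ratHom u hu v = RatFunc.X)
    (hvu : RR20_948.ratHom v hv u = RatFunc.X) : RatFunc F ≃ₐ[F] RatFunc F :=
  AlgEquiv.ofAlgHom (RR20_948.ratHom u hu) (RR20_948.ratHom v hv)
    (by
      have h : ((RR20_948.ratHom u hu).comp (RR20_948.ratHom v hv)).toRingHom =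
          (AlgHom.id F (RatFunc F)).toRingHom := by
        refine rat_ext (fun c => ?_) ?_
        · exact ((RR20_948.ratHom u hu).comp (RR20_948.ratHom v hv)).commutes c
        · show RR20_948.ratHom u hu (RR20_948.ratHom v hv RatFunc.X) = RatFunc.X
          rw [RR20_948.ratHom_X, huv]
      exact AlgHom.ext fun f => DFunLike.congr_fun h f)
    (by
      have h : ((RR20_948.ratHom v hv).comp (RR20_948.ratHom u hu)).toRingHom =
          (AlgHom.id F (RatFunc F)).toRingHom := by
        refine rat_ext (fun c => ?_) ?_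
        · exact ((RR20_948.ratHom v hv).comp (RR20_948.ratHom u hu)).commutes c
        · show RR20_948.ratHom v hv (RR20_948.ratHom u hu RatFunc.X) = RatFunc.X
          rw [RR20_948.ratHom_X, hvu]
      exact AlgHom.ext fun f => DFunLike.congr_fun h f)

theorem sgm_comp {F : Type*} [Field F] {K : Type*} [Field K] [Algebra F K] [Algebra (RatFunc F) K]
    [IsScalarTower F (RatFunc F) K] {u v : RatFunc F} (hu : Transcendental F u)
    (hv : Transcendental F v) (huv : RR20_948.ratHom u hu v = RatFunc.X)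
    (hvu : RR20_948.ratHom v hv u = RatFunc.X)
    (htr : Transcendental F (algebraMap (RatFunc F) K v)) (f : RatFunc F) :
    RR20_948.ratHom (algebraMap (RatFunc F) K v) htr (sgm hu hv huv hvu f) =
      algebraMap (RatFunc F) K f := by
  have h : ((RR20_948.ratHom (algebraMap (RatFunc F) K v) htr).comp
      (sgm hu hv huv hvu : RatFunc F →ₐ[F] RatFunc F)).toRingHom = algebraMap (RatFunc F) K := by
    have h0 : (RR20_948.ratHom (algebraMap (RatFunc F) K v) htr).toRingHom =
        (algebraMap (RatFunc F) K).comp (RR20_948.ratHom v hv).toRingHom := by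
      refine rat_ext (fun c => ?_) ?_
      · show RR20_948.ratHom (algebraMap (RatFunc F) K v) htr (algebraMap F (RatFunc F) c) =
          algebraMap (RatFunc F) K (RR20_948.ratHom v hv (algebraMap F (RatFunc F) c))
        rw [AlgHom.commutes, AlgHom.commutes, ← IsScalarTower.algebraMap_apply]
      · show RR20_948.ratHom (algebraMap (RatFunc F) K v) htr RatFunc.X =
          algebraMap (RatFunc F) K (RR20_948.ratHom v hv RatFunc.X)
        rw [RR20_948.ratHom_X, RR20_948.ratHom_X]
    refine rat_ext (fun c => ?_) ?_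
    · show RR20_948.ratHom (algebraMap (RatFunc F) K v) htr
        (sgm hu hv huv hvu (algebraMap F (RatFunc F) c)) = _
      rw [AlgEquiv.commutes, AlgHom.commutes, ← IsScalarTower.algebraMap_apply]
    · show (RR20_948.ratHom (algebraMap (RatFunc F) K v) htr).toRingHom
        (RR20_948.ratHom u hu RatFunc.X) = _
      rw [h0, RR20_948.ratHom_X]
      show algebraMap (RatFunc F) K (RR20_948.ratHom v hv u) = _
      rw [hvu]
  exact DFunLike.congr_fun h f

/-- change of the coordinate `X ↦ v` with inverse `X ↦ u` -/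
theorem GoodA.of_coord {K : Type*} [Field K] [Algebra C K] [i1 : Algebra (RatFunc C) K]
    [t1 : IsScalarTower C (RatFunc C) K] [f1 : FiniteDimensional (RatFunc C) K]
    {u v : RatFunc C} (hu : Transcendental C u)
    (hv : Transcendental C v) (huv : RR20_948.ratHom u hu v = RatFunc.X)
    (hvu : RR20_948.ratHom v hv u = RatFunc.X)
    (htr : Transcendental C (algebraMap (RatFunc C) K v)) {c : C} {y y1 : EE k C}
    (D : @GoodA k C _ _ _ _ _ _ _ _ _ K _ _ (RR20_948.ratAlg _ htr) (RR20_948.ratAlg_tower _ htr)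
      c y)
    (hy : Transcendental C y) (hy1 : y1 = Good_408.ratHom y hy u) : GoodA k C K c y1 :=
  GoodA.change i1 (RR20_948.ratAlg _ htr) t1 (RR20_948.ratAlg_tower _ htr)
    (RR20_948.ratAlg_finite _ htr) (sgm hu hv huv hvu).toRingEquiv
    (fun f => sgm_comp hu hv huv hvu htr f) D hy (by
      rw [hy1]
      congr 1
      show u = RR20_948.ratHom u hu RatFunc.X
      rw [RR20_948.ratHom_X])

end change

section fin

universe u

variable (k : Type*) [NontriviallyNormedField k] [CompleteSpace k] [IsUltrametricDist k]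
variable {C : Type u} [NormedField C] [IsUltrametricDist C] [NormedAlgebra k C]
variable [Algebra.IsAlgebraic k C] [IsAlgClosed C] [hk : Fact (DiscNorm k)]
variable (K : Type u) [Field K] [Algebra C K] [Algebra (RatFunc C) K] [IsScalarTower C (RatFunc C) K]
variable [FiniteDimensional (RatFunc C) K]

theorem transc_K {v : RatFunc C} (hv : Transcendental C v) :
    Transcendental C (algebraMap (RatFunc C) K v) := fun h =>
  hv ((isAlgebraic_algebraMap_iff (algebraMap (RatFunc C) K).injective).1 h)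

/-- annuli towards the inside -/
theorem exists_ann_inner [CharZero C] (p : ℕ) [Fact p.Prime] (hp : ‖(p : C)‖ < 1) (a ρ : C)
    (hρ : ρ ≠ 0) : ∃ c : C, c ≠ 0 ∧ ‖c‖ < 1 ∧ GoodA k C K c (annY k C a ρ) := by
  set A : C →+* RatFunc C := algebraMap C (RatFunc C) with hA
  have hA0 : A ρ ≠ 0 := by rw [Ne, map_eq_zero]; exact hρ
  have hAi : A ρ⁻¹ = (A ρ)⁻¹ := map_inv₀ _ _
  let u : RatFunc C := A a + A ρ * RatFunc.X
  let v : RatFunc C := (RatFunc.X - A a) * A ρ⁻¹
  have hu : Transcendental C u := by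
    intro h
    apply RatFunc.transcendental_X (K := C)
    have e : (RatFunc.X : RatFunc C) = (u - A a) * A ρ⁻¹ := by
      rw [hAi]; simp only [u]; field_simp; ring
    rw [e]
    exact (h.sub (isAlgebraic_algebraMap a)).mul (isAlgebraic_algebraMap ρ⁻¹)
  have hv : Transcendental C v := by
    intro h
    apply RatFunc.transcendental_X (K := C)
    have e : (RatFunc.X : RatFunc C) = A a + v * A ρ := by
      simp only [v]; rw [hAi]; field_simp; ring
    rw [e]
    exact (isAlgebraic_algebraMap a).add (h.mul (isAlgebraic_algebraMap ρ))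
  have huv : RR20_948.ratHom u hu v = RatFunc.X := by
    simp only [v]
    rw [map_mul, map_sub, RR20_948.ratHom_X, AlgHom.commutes, AlgHom.commutes, ← hA, hAi]
    simp only [u]; field_simp; ring
  have hvu : RR20_948.ratHom v hv u = RatFunc.X := by
    simp only [u]
    rw [map_add, map_mul, RR20_948.ratHom_X, AlgHom.commutes, AlgHom.commutes, ← hA]
    simp only [v]; rw [hAi]; field_simp; ring
  have htr := transc_K K hv
  obtain ⟨c, hc0, hc1, hg⟩ := @exists_ann_unit k _ _ _ C _ _ _ _ _ _ _ p _ hp K _ _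
    (RR20_948.ratAlg _ htr) (RR20_948.ratAlg_tower _ htr) (RR20_948.ratAlg_finite _ htr)
  refine ⟨c, hc0, hc1, GoodA.of_coord hu hv huv hvu htr hg transc_T ?_⟩
  simp only [u]
  rw [map_add, map_mul, AlgHom.commutes, AlgHom.commutes, Good_408.ratHom_X]
  rfl

/-- annuli towards the outside -/
theorem exists_ann_outer [CharZero C] (p : ℕ) [Fact p.Prime] (hp : ‖(p : C)‖ < 1) (a ρ : C)
    (hρ : ρ ≠ 0) : ∃ c : C, c ≠ 0 ∧ ‖c‖ < 1 ∧ GoodA k C K c (annY k C a (ρ / c)) := by
  set A : C →+* RatFunc C := algebraMap C (RatFunc C) with hA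
  have hA0 : A ρ ≠ 0 := by rw [Ne, map_eq_zero]; exact hρ
  have hX0 : (RatFunc.X : RatFunc C) ≠ 0 := RatFunc.X_ne_zero
  have hXa : (RatFunc.X - A a : RatFunc C) ≠ 0 := by
    intro h
    apply RatFunc.transcendental_X (K := C)
    rw [sub_eq_zero.1 h]
    exact isAlgebraic_algebraMap a
  let u : RatFunc C := A a + A ρ * RatFunc.X⁻¹
  let v : RatFunc C := A ρ * (RatFunc.X - A a)⁻¹
  have hu : Transcendental C u := by
    intro h
    apply RatFunc.transcendental_X (K := C)
    have e : (RatFunc.X : RatFunc C) = (u - A a)⁻¹ * A ρ := by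
      simp only [u]; rw [add_sub_cancel_left]; field_simp
    rw [e]
    exact (h.sub (isAlgebraic_algebraMap a)).inv.mul (isAlgebraic_algebraMap ρ)
  have hv : Transcendental C v := by
    intro h
    apply RatFunc.transcendental_X (K := C)
    have e : (RatFunc.X : RatFunc C) = A a + v⁻¹ * A ρ := by
      simp only [v]; field_simp; ring
    rw [e]
    exact (isAlgebraic_algebraMap a).add (h.inv.mul (isAlgebraic_algebraMap ρ))
  have huv : RR20_948.ratHom u hu v = RatFunc.X := by
    simp only [v]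
    rw [map_mul, map_inv₀, map_sub, RR20_948.ratHom_X, AlgHom.commutes, AlgHom.commutes, ← hA]
    simp only [u]; rw [add_sub_cancel_left]; field_simp
  have hvu : RR20_948.ratHom v hv u = RatFunc.X := by
    simp only [u]
    rw [map_add, map_mul, map_inv₀, RR20_948.ratHom_X, AlgHom.commutes, AlgHom.commutes, ← hA]
    simp only [v]; field_simp; ring
  have htr := transc_K K hv
  obtain ⟨c, hc0, hc1, hg⟩ := @exists_ann_unit k _ _ _ C _ _ _ _ _ _ _ p _ hp K _ _
    (RR20_948.ratAlg _ htr) (RR20_948.ratAlg_tower _ htr) (RR20_948.ratAlg_finite _ htr)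
  have hg' := @GoodA.flip k _ _ _ C _ _ _ _ _ _ K _ _
    (RR20_948.ratAlg _ htr) (RR20_948.ratAlg_tower _ htr) (RR20_948.ratAlg_finite _ htr) c (T 1) hg
    (mo (-1) c) (fun hc0 hc1 hy => by
      have h := Red332.flipF_TA (k := k) hc0 hc1 1
      rw [zpow_one] at h
      exact h)
  have hm : (mo (-1) c : EE k C) = algebraMap C (EE k C) c * (T 1)⁻¹ := by
    rw [mo_eq, T_inv]
  have hT0 : (T 1 : EE k C) ≠ 0 := fun h0 => transc_T (k := k) (C := C) (by rw [h0]; exact isAlgebraic_zero)
  have hcE : algebraMap C (EE k C) c ≠ 0 := by rw [Ne, map_eq_zero]; exact hc0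
  have htm : Transcendental C (mo (-1) c : EE k C) := by
    intro h
    apply transc_T (k := k) (C := C)
    have e : (T 1 : EE k C) = (mo (-1) c)⁻¹ * algebraMap C (EE k C) c := by
      rw [hm]; field_simp
    rw [e]
    exact h.inv.mul (isAlgebraic_algebraMap c)
  refine ⟨c, hc0, hc1, GoodA.of_coord hu hv huv hvu htr hg' htm ?_⟩
  simp only [u]
  rw [map_add, map_mul, map_inv₀, AlgHom.commutes, AlgHom.commutes, Good_408.ratHom_X, annY, hm,
    map_div₀]
  field_simp

/-- **THEOREM END2.** Annuli in all directions at all type 2 points of the line. -/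
theorem endIn [CharZero C] (p : ℕ) [Fact p.Prime] (hp : ‖(p : C)‖ < 1) :
    SSG_109.EndIn (NormedField.valuation (K := C)) (GoodAnn k C K) := by
  intro a ρ hρ
  constructor
  · obtain ⟨c, hc0, hc1, hg⟩ := exists_ann_inner k K p hp a ρ hρ
    refine ⟨c * ρ, mul_ne_zero hc0 hρ, ?_, ?_⟩
    · show ‖c * ρ‖₊ < ‖ρ‖₊
      rw [nnnorm_mul]
      exact mul_lt_of_lt_one_left (nnnorm_pos.2 hρ) hc1
    · show GoodA k C K (c * ρ / ρ) (annY k C a ρ)
      rw [mul_div_assoc, div_self hρ, mul_one]
      exact hg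
  · obtain ⟨c, hc0, hc1, hg⟩ := exists_ann_outer k K p hp a ρ hρ
    refine ⟨ρ / c, ?_, ?_⟩
    · show ‖ρ‖₊ < ‖ρ / c‖₊
      rw [nnnorm_div, lt_div_iff₀ (nnnorm_pos.2 hc0)]
      exact mul_lt_of_lt_one_right (nnnorm_pos.2 hρ) hc1
    · show GoodA k C K (ρ / (ρ / c)) (annY k C a (ρ / c))
      rw [div_div_cancel₀ hρ]
      exact hg

end fin

end Crest.Agent.R013.EE809
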