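import Crest.Agent.R013.Comp4_267

/-!
# Structure of `BD k C`

Factorisation of a nonzero element as constant, polynomial with zeros in the open unit disc and
unit; `BD k C` is a principal ideal ring; points of the disc are height one primes; the valuations
`ordT τ` of the fraction field `FD k C`.
-/

set_option autoImplicit false
set_option linter.unusedSectionVars false

noncomputable section

namespace Crest.Agent.R013.Cell_408

open Topology Filter
open Crest.Agent.R013.Comp_267 (FD TF XB)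

variable {k C : Type*} [NontriviallyNormedField k] [CompleteSpace k] [IsUltrametricDist k]
  [NormedField C] [IsUltrametricDist C] [NormedAlgebra k C] [Algebra.IsAlgebraic k C]
  [IsAlgClosed C]

variable (k C) in
/-- the coordinate `T` of the open unit disc -/
def TT : BD k C := ⟨PowerSeries.X, X_mem_BD⟩

variable (k C) in
/-- polynomials as bounded series -/
def polyBD : Polynomial C →ₐ[C] BD k C := Polynomial.aeval (TT k C)

theorem coe_TT : ((TT k C : BD k C) : PowerSeries C) = PowerSeries.X := rfl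

theorem coe_algebraMap (c : C) :
    ((algebraMap C (BD k C) c : BD k C) : PowerSeries C) = PowerSeries.C c := rfl

theorem coe_polyBD (P : Polynomial C) :
    ((polyBD k C P : BD k C) : PowerSeries C) = (P : PowerSeries C) := by
  induction P using Polynomial.induction_on' with
  | add P Q hP hQ => rw [map_add, Subalgebra.coe_add, hP, hQ, Polynomial.coe_add]
  | monomial n a =>
    rw [polyBD, Polynomial.aeval_monomial, Subalgebra.coe_mul, Subalgebra.coe_pow, coe_TT,
      coe_algebraMap, Polynomial.coe_monomial, PowerSeries.monomial_eq_C_mul_X_pow]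

theorem polyBD_injective : Function.Injective (polyBD k C) := by
  intro P Q h
  have := congrArg (fun f : BD k C => (f : PowerSeries C)) h
  simp only [coe_polyBD] at this
  exact Polynomial.coe_injective C this

@[simp] theorem polyBD_X : polyBD k C Polynomial.X = TT k C := by
  rw [polyBD, Polynomial.aeval_X]

@[simp] theorem polyBD_C (c : C) : polyBD k C (Polynomial.C c) = algebraMap C (BD k C) c := by
  rw [polyBD, Polynomial.aeval_C]

theorem IsU.isUnit {u : PowerSeries C} (hu : IsU k u) : IsUnit (⟨u, hu.mem⟩ : BD k C) := by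
  obtain ⟨v, hv, huv⟩ := hu.inv
  exact IsUnit.of_mul_eq_one ⟨v, hv.mem⟩ (Subtype.ext huv)

theorem isUnit_const {c : C} (hc : c ≠ 0) : IsUnit (algebraMap C (BD k C) c) :=
  (IsUnit.mk0 c hc).map (algebraMap C (BD k C))

/-- factorisation of a non-zero element of `BD k C` -/
theorem BD_factor (hk : DiscNorm k) {f : BD k C} (h0 : f ≠ 0) :
    ∃ (c : C) (S : Multiset C) (u : PowerSeries C) (hu : IsU k u), c ≠ 0 ∧ (∀ τ ∈ S, ‖τ‖ < 1) ∧
      f = algebraMap C (BD k C) c * (⟨u, hu.mem⟩ : BD k C) * polyBD k C (rootPoly S) := by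
  have h0' : (f : PowerSeries C) ≠ 0 := fun h => h0 (Subtype.ext h)
  obtain ⟨c, g, m, hc, hg, hfg, -, -⟩ := exists_normalise hk f.2 h0'
  obtain ⟨u, S, hu, -, hS, hgu⟩ := hg.exists_roots
  refine ⟨c, S, u, hu, hc, hS, Subtype.ext ?_⟩
  rw [hfg, hgu, Subalgebra.coe_mul, Subalgebra.coe_mul, coe_polyBD, coe_algebraMap, mul_assoc]

theorem BD_factor' (hk : DiscNorm k) {f : BD k C} (h0 : f ≠ 0) :
    ∃ (w : (BD k C)ˣ) (S : Multiset C), (∀ τ ∈ S, ‖τ‖ < 1) ∧
      f = w * polyBD k C (rootPoly S) := by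
  obtain ⟨c, S, u, hu, hc, hS, hf⟩ := BD_factor hk h0
  exact ⟨((isUnit_const hc).mul hu.isUnit).unit, S, hS, by rw [IsUnit.unit_spec]; exact hf⟩

/-- `BD k C` is a principal ideal ring -/
theorem isPrincipalIdealRing (hk : DiscNorm k) : IsPrincipalIdealRing (BD k C) := by
  refine ⟨fun I => ?_⟩
  obtain ⟨P, hP⟩ := (IsPrincipalIdealRing.principal (I.comap (polyBD k C))).principal
  refine ⟨⟨polyBD k C P, ?_⟩⟩
  have hP1 : P ∈ I.comap (polyBD k C) := by
    rw [hP]; exact Submodule.mem_span_singleton_self P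
  apply le_antisymm
  · intro f hf
    by_cases h0 : f = 0
    · rw [h0]; exact zero_mem _
    obtain ⟨w, S, -, hf'⟩ := BD_factor' hk h0
    have h1 : rootPoly S ∈ I.comap (polyBD k C) := by
      rw [Ideal.mem_comap]
      have h2 := I.mul_mem_left (↑w⁻¹) hf
      rwa [hf', Units.inv_mul_cancel_left] at h2
    rw [hP, Submodule.mem_span_singleton] at h1
    obtain ⟨Q, hQ⟩ := h1
    rw [Submodule.mem_span_singleton]
    refine ⟨w * polyBD k C Q, ?_⟩
    rw [hf', ← hQ, smul_eq_mul, smul_eq_mul, map_mul, mul_assoc]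
  · rw [Submodule.span_singleton_le_iff_mem]
    exact hP1

theorem isDedekindDomain (hk : DiscNorm k) : IsDedekindDomain (BD k C) := by
  have := isPrincipalIdealRing (C := C) hk
  infer_instance

@[simp] theorem ev_TT {t : C} (ht : ‖t‖ < 1) : ev t ht (TT k C) = t := evp_X t

@[simp] theorem ev_polyBD {t : C} (ht : ‖t‖ < 1) (P : Polynomial C) :
    ev t ht (polyBD k C P) = P.eval t := by
  change evp t ((polyBD k C P : BD k C) : PowerSeries C) = _
  rw [coe_polyBD, evp_coe]

/-- the linear element `T - τ` -/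
def lin (k : Type*) {C : Type*} [NontriviallyNormedField k] [CompleteSpace k] [IsUltrametricDist k]
    [NormedField C] [IsUltrametricDist C] [NormedAlgebra k C] [Algebra.IsAlgebraic k C]
    [IsAlgClosed C] (τ : C) : BD k C := TT k C - algebraMap C _ τ

theorem polyBD_lin (τ : C) : polyBD k C (Polynomial.X - Polynomial.C τ) = lin k τ := by
  rw [map_sub, polyBD_X, polyBD_C, lin]

@[simp] theorem ev_lin {t : C} (ht : ‖t‖ < 1) (τ : C) : ev t ht (lin k τ) = t - τ := by
  rw [lin, map_sub, ev_TT, AlgHom.commutes]; rfl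

theorem lin_ne_zero (τ : C) : lin k τ ≠ 0 := by
  rw [← polyBD_lin, Ne, map_eq_zero_iff _ polyBD_injective]
  exact Polynomial.X_sub_C_ne_zero τ

theorem ev_eq_zero_iff (hk : DiscNorm k) {t : C} (ht : ‖t‖ < 1) {f : BD k C} :
    ev t ht f = 0 ↔ lin k t ∣ f := by
  constructor
  · intro h
    by_cases h0 : f = 0
    · rw [h0]; exact dvd_zero _
    obtain ⟨w, S, -, hf⟩ := BD_factor' hk h0
    rw [hf, map_mul, ev_polyBD, mul_eq_zero] at h
    rcases h with h | h
    · exact absurd h ((w.isUnit.map (ev t ht)).ne_zero)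
    · rw [hf, ← polyBD_lin]
      exact (map_dvd _ (Polynomial.dvd_iff_isRoot.2 h)).mul_left _
  · rintro ⟨g, rfl⟩
    rw [map_mul, ev_lin, sub_self, zero_mul]

theorem ker_ev (hk : DiscNorm k) {t : C} (ht : ‖t‖ < 1) :
    RingHom.ker (ev (k := k) t ht) = Ideal.span {lin k t} := by
  ext f
  rw [RingHom.mem_ker, ev_eq_zero_iff hk ht, Ideal.mem_span_singleton]

/-- a point of the open unit disc as a height one prime of `BD k C` -/
def pt (k : Type*) {C : Type*} [NontriviallyNormedField k] [CompleteSpace k] [IsUltrametricDist k]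
    [NormedField C] [IsUltrametricDist C] [NormedAlgebra k C] [Algebra.IsAlgebraic k C]
    [IsAlgClosed C] (t : C) (ht : ‖t‖ < 1) : IsDedekindDomain.HeightOneSpectrum (BD k C) where
  asIdeal := RingHom.ker (ev (k := k) t ht)
  isPrime := RingHom.ker_isPrime _
  ne_bot := by
    intro h
    have : lin k t ∈ RingHom.ker (ev (k := k) t ht) := by
      rw [RingHom.mem_ker, ev_lin, sub_self]
    rw [h, Ideal.mem_bot] at this
    exact lin_ne_zero t this

theorem mem_pt {t : C} (ht : ‖t‖ < 1) {f : BD k C} : f ∈ (pt k t ht).asIdeal ↔ ev t ht f = 0 :=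
  RingHom.mem_ker

theorem pt_asIdeal (hk : DiscNorm k) {t : C} (ht : ‖t‖ < 1) :
    (pt k t ht).asIdeal = Ideal.span {lin k t} := ker_ev hk ht

theorem isUnit_iff (hk : DiscNorm k) {f : BD k C} :
    IsUnit f ↔ ∀ t (ht : ‖t‖ < 1), ev t ht f ≠ 0 := by
  constructor
  · intro h t ht
    exact (h.map (ev t ht)).ne_zero
  · intro h
    have h0 : f ≠ 0 := by
      rintro rfl
      exact h 0 (by simp) (map_zero _)
    obtain ⟨w, S, hS, hf⟩ := BD_factor' hk h0
    rcases Multiset.empty_or_exists_mem S with rfl | ⟨τ, hτ⟩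
    · rw [hf, rootPoly, Multiset.map_zero, Multiset.prod_zero, map_one, mul_one]
      exact w.isUnit
    · exfalso
      refine h τ (hS τ hτ) ?_
      rw [hf, map_mul, ev_polyBD, eval_rootPoly, Multiset.prod_eq_zero, mul_zero]
      rw [Multiset.mem_map]
      exact ⟨τ, hτ, sub_self τ⟩

/-- every height one prime is a point of the disc -/
theorem exists_pt (hk : DiscNorm k) (v : IsDedekindDomain.HeightOneSpectrum (BD k C)) :
    ∃ (t : C) (ht : ‖t‖ < 1), v = pt k t ht := by
  have hD := isDedekindDomain (C := C) hk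
  obtain ⟨f, hf, h0⟩ := Submodule.exists_mem_ne_zero_of_ne_bot v.ne_bot
  obtain ⟨w, S, hS, hfw⟩ := BD_factor' hk h0
  have h1 : polyBD k C (rootPoly S) ∈ v.asIdeal := by
    have h2 := v.asIdeal.mul_mem_left (↑w⁻¹) hf
    rwa [hfw, Units.inv_mul_cancel_left] at h2
  rw [rootPoly, map_multiset_prod, Multiset.map_map] at h1
  obtain ⟨g, hg, hg1⟩ := (v.isPrime.multiset_prod_mem_iff_exists_mem _).1 h1
  rw [Multiset.mem_map] at hg
  obtain ⟨τ, hτ, rfl⟩ := hg
  rw [Function.comp_apply, polyBD_lin] at hg1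
  refine ⟨τ, hS τ hτ, ?_⟩
  apply IsDedekindDomain.HeightOneSpectrum.ext
  have hmax : (pt k τ (hS τ hτ)).asIdeal.IsMaximal := (pt k τ (hS τ hτ)).isMaximal
  refine (hmax.eq_of_le v.isPrime.ne_top ?_).symm
  rw [pt_asIdeal hk, Ideal.span_singleton_le_iff_mem]
  exact hg1

theorem pt_injective {t t' : C} {ht : ‖t‖ < 1} {ht' : ‖t'‖ < 1} (h : pt k t ht = pt k t' ht') :
    t = t' := by
  have h1 : lin k t ∈ (pt k t ht).asIdeal := by rw [mem_pt, ev_lin, sub_self]
  rw [h, mem_pt, ev_lin, sub_eq_zero] at h1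
  exact h1.symm

/-- the valuation at a point of the disc -/
def ordT (hk : DiscNorm k) (t : C) (ht : ‖t‖ < 1) : Valuation (FD k C) (WithZero (Multiplicative ℤ)) :=
  haveI := isDedekindDomain (C := C) hk
  (pt k t ht).valuation (FD k C)

variable {hk : DiscNorm k}

theorem ordT_le_one {t : C} (ht : ‖t‖ < 1) (f : BD k C) :
    ordT hk t ht (algebraMap (BD k C) (FD k C) f) ≤ 1 := by
  have := isDedekindDomain (C := C) hk
  exact (pt k t ht).valuation_le_one f

theorem ordT_lt_one_iff {t : C} (ht : ‖t‖ < 1) (f : BD k C) :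
    ordT hk t ht (algebraMap (BD k C) (FD k C) f) < 1 ↔ ev t ht f = 0 := by
  have := isDedekindDomain (C := C) hk
  exact ((pt k t ht).valuation_lt_one_iff_mem f).trans (mem_pt ht)

theorem ordT_eq_one_iff {t : C} (ht : ‖t‖ < 1) (f : BD k C) :
    ordT hk t ht (algebraMap (BD k C) (FD k C) f) = 1 ↔ ev t ht f ≠ 0 := by
  rw [← not_iff_not, not_not, ← ordT_lt_one_iff (hk := hk) ht]
  exact ⟨fun h => lt_of_le_of_ne (ordT_le_one ht f) h, fun h => h.ne⟩

@[simp] theorem ordT_const {t : C} (ht : ‖t‖ < 1) {c : C} (hc : c ≠ 0) :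
    ordT hk t ht (algebraMap C (FD k C) c) = 1 := by
  rw [IsScalarTower.algebraMap_apply C (BD k C) (FD k C), ordT_eq_one_iff, AlgHom.commutes]
  exact hc

theorem ordT_const_le {t : C} (ht : ‖t‖ < 1) (c : C) :
    ordT hk t ht (algebraMap C (FD k C) c) ≤ 1 := by
  rw [IsScalarTower.algebraMap_apply C (BD k C) (FD k C)]
  exact ordT_le_one ht _

theorem ordT_lin {t : C} (ht : ‖t‖ < 1) :
    ordT hk t ht (algebraMap (BD k C) (FD k C) (lin k t)) = WithZero.exp (-1) := by
  have := isDedekindDomain (C := C) hk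
  have h1 := (pt k t ht).intValuation_singleton (lin_ne_zero t) (pt_asIdeal hk ht)
  rw [ordT, IsDedekindDomain.HeightOneSpectrum.valuation_of_algebraMap, h1]

theorem ordT_lin' {t t' : C} (ht : ‖t‖ < 1) (h : t ≠ t') :
    ordT hk t ht (algebraMap (BD k C) (FD k C) (lin k t')) = 1 := by
  rw [ordT_eq_one_iff, ev_lin]
  exact sub_ne_zero.2 h

theorem mem_BD_of_ordT_le (x : FD k C) (h : ∀ t (ht : ‖t‖ < 1), ordT hk t ht x ≤ 1) :
    ∃ f : BD k C, algebraMap (BD k C) (FD k C) f = x := by
  have := isDedekindDomain (C := C) hk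
  refine IsDedekindDomain.HeightOneSpectrum.mem_integers_of_valuation_le_one (FD k C) x fun v => ?_
  obtain ⟨t, ht, rfl⟩ := exists_pt hk v
  exact h t ht

/-- an element regular at `t` is a quotient with denominator not vanishing at `t` -/
theorem exists_of_ordT_le {t : C} (ht : ‖t‖ < 1) (x : FD k C) (h : ordT hk t ht x ≤ 1) :
    ∃ f g : BD k C, ev t ht g ≠ 0 ∧
      x * algebraMap (BD k C) (FD k C) g = algebraMap (BD k C) (FD k C) f := by
  have := isDedekindDomain (C := C) hk
  obtain ⟨f, g, hg⟩ := (pt k t ht).exists_primeCompl_mul_eq_of_integer x h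
  exact ⟨f, g, fun h0 => g.2 ((mem_pt ht).2 h0), hg⟩

theorem exists_value {t : C} (ht : ‖t‖ < 1) (x : FD k C) (h : ordT hk t ht x ≤ 1) :
    ∃ c : C, ordT hk t ht (x - algebraMap C (FD k C) c) < 1 := by
  obtain ⟨f, g, hg, hx⟩ := exists_of_ordT_le (hk := hk) ht x h
  refine ⟨ev t ht f / ev t ht g, ?_⟩
  have h1 : ordT hk t ht (algebraMap (BD k C) (FD k C) g) = 1 := (ordT_eq_one_iff ht g).2 hg
  have h2 : (x - algebraMap C (FD k C) (ev t ht f / ev t ht g)) *
      algebraMap (BD k C) (FD k C) g =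
      algebraMap (BD k C) (FD k C) (f - algebraMap C (BD k C) (ev t ht f / ev t ht g) * g) := by
    rw [sub_mul, hx, map_sub, map_mul, ← IsScalarTower.algebraMap_apply]
  have h3 := congrArg (ordT hk t ht) h2
  rw [map_mul, h1, mul_one] at h3
  rw [h3, ordT_lt_one_iff, map_sub, map_mul, AlgHom.commutes]
  change ev t ht f - ev t ht f / ev t ht g * ev t ht g = 0
  rw [div_mul_cancel₀ _ hg, sub_self]

theorem value_unique {t : C} (ht : ‖t‖ < 1) (x : FD k C) {c c' : C}
    (h : ordT hk t ht (x - algebraMap C (FD k C) c) < 1)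
    (h' : ordT hk t ht (x - algebraMap C (FD k C) c') < 1) : c = c' := by
  by_contra hne
  have h1 : ordT hk t ht (algebraMap C (FD k C) (c' - c)) = 1 :=
    ordT_const ht (sub_ne_zero.2 (Ne.symm hne))
  have h2 : algebraMap C (FD k C) (c' - c) = (x - algebraMap C (FD k C) c) -
      (x - algebraMap C (FD k C) c') := by rw [map_sub]; ring
  rw [h2] at h1
  have h3 := (ordT hk t ht).map_sub (x - algebraMap C (FD k C) c) (x - algebraMap C (FD k C) c')
  rw [h1] at h3
  exact absurd h3 (not_le.2 (max_lt h h'))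

/-- polynomial approximation at a point -/
theorem poly_approx (hk : DiscNorm k) {t : C} (ht : ‖t‖ < 1) (n : ℕ) (f : BD k C) :
    ∃ P : Polynomial C, lin k t ^ n ∣ f - polyBD k C P := by
  induction n generalizing f with
  | zero => exact ⟨0, by simp⟩
  | succ n ih =>
    have h1 : ev t ht (f - algebraMap C (BD k C) (ev t ht f)) = 0 := by
      rw [map_sub, AlgHom.commutes]; exact sub_self _
    obtain ⟨g, hg⟩ := (ev_eq_zero_iff hk ht).1 h1
    obtain ⟨P, hP⟩ := ih g
    refine ⟨Polynomial.C (ev t ht f) + (Polynomial.X - Polynomial.C t) * P, ?_⟩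
    have h2 : f - polyBD k C (Polynomial.C (ev t ht f) + (Polynomial.X - Polynomial.C t) * P) =
        lin k t * (g - polyBD k C P) := by
      rw [map_add, map_mul, polyBD_C, polyBD_lin, mul_sub, ← hg]
      ring
    rw [h2, pow_succ']
    exact mul_dvd_mul_left _ hP

theorem ordT_lin_pow_dvd {t : C} (ht : ‖t‖ < 1) {n : ℕ} {f : BD k C} (h : lin k t ^ n ∣ f) :
    ordT hk t ht (algebraMap (BD k C) (FD k C) f) ≤ WithZero.exp (-(n : ℤ)) := by
  obtain ⟨g, rfl⟩ := h
  rw [map_mul, map_pow, map_mul, map_pow, ordT_lin]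
  calc _ ≤ WithZero.exp (-1 : ℤ) ^ n * 1 := mul_le_mul_right (ordT_le_one ht g) _
    _ = _ := by rw [mul_one, ← WithZero.exp_nsmul]; congr 1; simp

theorem rootPoly_ne_zero (S : Multiset C) : rootPoly S ≠ 0 := by
  rw [rootPoly, Ne, Multiset.prod_eq_zero_iff, Multiset.mem_map]
  rintro ⟨τ, -, h⟩
  exact Polynomial.X_sub_C_ne_zero τ h

/-- elements of `FD` as (bounded series) / (polynomial with zeros in the disc) -/
theorem FD_repr (hk : DiscNorm k) (x : FD k C) : ∃ (f : BD k C) (S : Multiset C),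
    (∀ τ ∈ S, ‖τ‖ < 1) ∧ x * algebraMap (BD k C) (FD k C) (polyBD k C (rootPoly S)) =
      algebraMap (BD k C) (FD k C) f := by
  obtain ⟨f, g, hg, rfl⟩ := IsFractionRing.div_surjective (A := BD k C) x
  have hg0 : g ≠ 0 := nonZeroDivisors.ne_zero hg
  obtain ⟨w, S, hS, hgw⟩ := BD_factor' hk hg0
  refine ⟨f * ↑w⁻¹, S, hS, ?_⟩
  have h1 : algebraMap (BD k C) (FD k C) g ≠ 0 :=
    (map_ne_zero_iff _ (IsFractionRing.injective (BD k C) (FD k C))).2 hg0
  have h2 : polyBD k C (rootPoly S) = g * ↑w⁻¹ := by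
    rw [hgw, mul_comm (w : BD k C), mul_assoc, Units.mul_inv, mul_one]
  rw [h2, map_mul, map_mul, ← mul_assoc, div_mul_cancel₀ _ h1]

/-- `C(T)` is dense in `FD` at every point of the disc -/
theorem ordT_dense (hk : DiscNorm k) {t : C} (ht : ‖t‖ < 1) (x : FD k C) (n : ℕ) :
    ∃ P Q : Polynomial C, Q ≠ 0 ∧ ordT hk t ht (x - algebraMap (BD k C) (FD k C) (polyBD k C P) /
      algebraMap (BD k C) (FD k C) (polyBD k C Q)) ≤ WithZero.exp (-(n : ℤ)) := by
  obtain ⟨f, S, hS, hx⟩ := FD_repr hk x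
  set q := algebraMap (BD k C) (FD k C) (polyBD k C (rootPoly S)) with hq
  have hq0 : q ≠ 0 := by
    rw [hq, Ne, map_eq_zero_iff _ (IsFractionRing.injective (BD k C) (FD k C)),
      map_eq_zero_iff _ polyBD_injective]
    exact rootPoly_ne_zero S
  have hv0 : ordT hk t ht q ≠ 0 := (Valuation.ne_zero_iff _).2 hq0
  obtain ⟨m, hm⟩ : ∃ m : ℕ, WithZero.exp (-(m : ℤ)) ≤ ordT hk t ht q := by
    refine ⟨(-(WithZero.log (ordT hk t ht q))).toNat, ?_⟩
    rw [← WithZero.exp_log hv0, WithZero.exp_le_exp, WithZero.log_exp]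
    omega
  obtain ⟨P, hP⟩ := poly_approx hk ht (n + m) f
  refine ⟨P, rootPoly S, rootPoly_ne_zero S, ?_⟩
  have h1 : (x - algebraMap (BD k C) (FD k C) (polyBD k C P) / q) * q =
      algebraMap (BD k C) (FD k C) (f - polyBD k C P) := by
    rw [sub_mul, hx, div_mul_cancel₀ _ hq0, map_sub]
  have h2 := ordT_lin_pow_dvd (hk := hk) ht hP
  rw [← h1, map_mul] at h2
  have h3 : ordT hk t ht (x - algebraMap (BD k C) (FD k C) (polyBD k C P) / q) *
      WithZero.exp (-(m : ℤ)) ≤ WithZero.exp (-(n : ℤ)) * WithZero.exp (-(m : ℤ)) := by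
    refine (mul_le_mul_right hm _).trans (h2.trans (le_of_eq ?_))
    rw [← WithZero.exp_add]; congr 1; push_cast; ring
  exact le_of_mul_le_mul_right h3 WithZero.exp_pos

end Crest.Agent.R013.Cell_408
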