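import Crest.Agent.R013.Good1_408
import Crest.Agent.R013.Cell5_408
import Crest.Agent.R013.Pts3_315

/-!
# Good discs: the product decomposition in the form of `Pts1_315`, `Pts3_315`
-/

set_option autoImplicit false
set_option linter.unusedSectionVars false

noncomputable section

namespace Crest.Agent.R013.Good_408

open Module TensorProduct
open Crest.Agent.R013.Cell_408 Crest.Agent.R013.Comp_267
open Crest.Agent.R013.Pts1_315 Crest.Agent.R013.Pts2_315 Crest.Agent.R013.Pts3_315

section Abs

variable {F0 Fc K : Type*} [Field F0] [Field Fc] [Field K] [Algebra F0 Fc] [Algebra F0 K]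
variable {J : Type*} [Finite J] {E : J → Type*} [∀ j, Field (E j)]
variable {φ : ∀ j, Fc →+* E j} {ι : ∀ j, K →+* E j}

theorem exists_tensor_repr {I : Type*} [Fintype I] (b : Basis I F0 K) (t : K ⊗[F0] Fc) :
    ∃ e : I → Fc, t = ∑ i, b i ⊗ₜ[F0] e i := by
  induction t using TensorProduct.induction_on with
  | zero => exact ⟨0, by simp⟩
  | tmul a c =>
    refine ⟨fun i => b.repr a i • c, ?_⟩
    conv_lhs => rw [← b.sum_repr a, TensorProduct.sum_tmul]
    refine Finset.sum_congr rfl fun i _ => ?_
    rw [TensorProduct.smul_tmul]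
  | add s t hs ht =>
    obtain ⟨e, rfl⟩ := hs
    obtain ⟨e', rfl⟩ := ht
    refine ⟨e + e', ?_⟩
    rw [← Finset.sum_add_distrib]
    refine Finset.sum_congr rfl fun i _ => ?_
    rw [Pi.add_apply, TensorProduct.tmul_add]

/-- injectivity and surjectivity for a basis: the product decomposition -/
theorem pd_of_inj (hc : ∀ j a, φ j (algebraMap F0 Fc a) = ι j (algebraMap F0 K a))
    {I : Type*} [Fintype I] (b : Basis I F0 K) (hb : Inj φ ι b)
    (hs : ∀ z : ∀ j, E j, ∃ e : I → Fc, ∀ j, ∑ i, φ j (e i) * ι j (b i) = z j) :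
    PD (algebraMap F0 K) (algebraMap F0 Fc) ι φ := by
  let _ : Algebra F0 (∀ j, E j) := (RingHom.pi fun j => (φ j).comp (algebraMap F0 Fc)).toAlgebra
  let f : K →ₐ[F0] (∀ j, E j) :=
    { RingHom.pi ι with
      commutes' := fun a => by
        funext j
        change ι j (algebraMap F0 K a) = φ j (algebraMap F0 Fc a)
        rw [hc] }
  let g : Fc →ₐ[F0] (∀ j, E j) :=
    { RingHom.pi φ with
      commutes' := fun a => by
        funext j
        rfl }
  let Φ : K ⊗[F0] Fc →ₐ[F0] (∀ j, E j) := Algebra.TensorProduct.productMap f g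
  have hΦ : ∀ a c j, Φ (a ⊗ₜ c) j = ι j a * φ j c := by
    intro a c j
    change (Algebra.TensorProduct.productMap f g (a ⊗ₜ c)) j = _
    rw [Algebra.TensorProduct.productMap_apply_tmul]
    rfl
  have hΦs : ∀ e : I → Fc, ∀ j, Φ (∑ i, b i ⊗ₜ[F0] e i) j = ∑ i, φ j (e i) * ι j (b i) := by
    intro e j
    rw [map_sum, Finset.sum_apply]
    refine Finset.sum_congr rfl fun i _ => ?_
    rw [hΦ, mul_comm]
  refine PD.of_tensor ι φ (fun j x => (hc j x).symm) Φ.toRingHom (fun a c j => hΦ a c j) ⟨?_, ?_⟩
  · rw [injective_iff_map_eq_zero]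
    intro t ht
    obtain ⟨e, rfl⟩ := exists_tensor_repr b t
    have h0 : e = 0 := by
      refine hb e fun j => ?_
      rw [← hΦs]
      exact congrFun ht j
    rw [h0]
    simp
  · intro z
    obtain ⟨e, he⟩ := hs z
    refine ⟨∑ i, b i ⊗ₜ[F0] e i, ?_⟩
    funext j
    exact (hΦs e j).trans (he j)

end Abs

section BDring

variable {k C : Type*} [NontriviallyNormedField k] [CompleteSpace k] [IsUltrametricDist k]
  [NormedField C] [IsUltrametricDist C] [NormedAlgebra k C] [Algebra.IsAlgebraic k C]
  [IsAlgClosed C]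

/-- `BD k C` is the ring of functions of the open unit disc in the sense of `Pts2_315` -/
theorem cellRing_BD (hk : DiscNorm k) : CellRing (XB : BD k C) {τ : C | ‖τ‖ < 1} where
  fac := by
    intro b hb
    obtain ⟨w, S, hS, hf⟩ := BD_factor' hk hb
    refine ⟨S, hS, ?_⟩
    have h1 : polyBD k C (rootPoly S) =
        (S.map fun τ => (XB : BD k C) - algebraMap C (BD k C) τ).prod := by
      rw [rootPoly, map_multiset_prod, Multiset.map_map]
      congr 1
      refine Multiset.map_congr rfl fun τ _ => ?_
      rw [Function.comp_apply, polyBD_lin]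
      rfl
    rw [← h1, hf]
    exact (associated_unit_mul_left _ _ w.isUnit)
  ev := fun τ hτ => ⟨ev τ hτ, ev_TT hτ⟩
  nc := by
    intro c h
    have h1 := congrArg (ev (k := k) (0 : C) (by simp)) h
    rw [AlgHom.commutes] at h1
    have h2 : ev (k := k) (0 : C) (by simp) (XB : BD k C) = 0 := ev_TT _
    rw [h2] at h1
    obtain ⟨x, hx0, hx1⟩ := NormedField.exists_norm_lt_one k
    have hx : ‖algebraMap k C x‖ < 1 := by rwa [norm_algebraMap']
    have h3 := congrArg (ev (k := k) (algebraMap k C x) hx) h
    rw [AlgHom.commutes] at h3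
    have h4 : ev (k := k) (algebraMap k C x) hx (XB : BD k C) = algebraMap k C x := ev_TT _
    rw [h4] at h3
    have h5 : algebraMap k C x = 0 := h3.trans h1.symm
    rw [← norm_algebraMap' C x, h5, norm_zero] at hx0
    exact lt_irrefl _ hx0

/-- `comp f` is an integral ring homomorphism -/
theorem comp_integral (hk : DiscNorm k) {f : PowerSeries C} {m : ℕ} (hf : WD k f m) (hm : m ≠ 0)
    (b : BD k C) : (comp f (WD.co hf hm)).toRingHom.IsIntegralElem b := by
  set ψ := (comp f (WD.co hf hm)).toRingHom with hψ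
  have hX : ψ.IsIntegralElem (XB : BD k C) := by
    obtain ⟨A, hA⟩ := exists_repr_BD hk hf hm ((XB : BD k C) ^ m)
    refine ⟨Polynomial.X ^ m - ∑ i ∈ Finset.range m, Polynomial.C (A i) * Polynomial.X ^ i, ?_, ?_⟩
    · refine Polynomial.monic_X_pow_sub ?_
      rw [Finset.sum_range (fun i => Polynomial.C (A i) * Polynomial.X ^ i)]
      exact Polynomial.degree_sum_fin_lt (fun i : Fin m => A i)
    · rw [Polynomial.eval₂_sub, Polynomial.eval₂_pow, Polynomial.eval₂_X,
        Polynomial.eval₂_finsetSum, hA, sub_eq_zero]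
      refine Finset.sum_congr rfl fun i _ => ?_
      rw [Polynomial.eval₂_mul, Polynomial.eval₂_C, Polynomial.eval₂_pow, Polynomial.eval₂_X]
      rfl
  obtain ⟨A, hA⟩ := exists_repr_BD hk hf hm b
  rw [hA]
  have hpow : ∀ i : ℕ, ψ.IsIntegralElem ((XB : BD k C) ^ i) := by
    intro i
    induction i with
    | zero =>
      rw [pow_zero, ← map_one ψ]
      exact RingHom.isIntegralElem_map ψ
    | succ n ih' =>
      rw [pow_succ]
      exact RingHom.IsIntegralElem.mul ψ ih' hX
  have hsum : ∀ s : Finset ℕ, ψ.IsIntegralElem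
      (∑ i ∈ s, comp f (WD.co hf hm) (A i) * (XB : BD k C) ^ i) := by
    intro s
    classical
    induction s using Finset.induction_on with
    | empty => rw [Finset.sum_empty]; exact RingHom.isIntegralElem_zero ψ
    | insert i s hi ih =>
      rw [Finset.sum_insert hi]
      refine RingHom.IsIntegralElem.add ψ (RingHom.IsIntegralElem.mul ψ ?_ ?_) ih
      · exact RingHom.isIntegralElem_map ψ
      · exact hpow i
  exact hsum _

end BDring

section Rat

variable {C : Type*} [Field C]

theorem gen_of_mem {t : RatFunc C} (ht : (RatFunc.X : RatFunc C) ∈ IntermediateField.adjoin C {t})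
    (f : RatFunc C) : ∃ p q : Polynomial C, Polynomial.aeval t q ≠ 0 ∧
      f = Polynomial.aeval t p / Polynomial.aeval t q := by
  have h1 : f ∈ IntermediateField.adjoin C {t} := by
    have h2 : ∀ P : Polynomial C, algebraMap (Polynomial C) (RatFunc C) P ∈
        IntermediateField.adjoin C {t} := by
      intro P
      rw [← aeval_ratFunc_X]
      induction P using Polynomial.induction_on' with
      | add P Q hP hQ => rw [map_add]; exact add_mem hP hQ
      | monomial n a =>
        rw [Polynomial.aeval_monomial]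
        exact mul_mem (algebraMap_mem _ a) (pow_mem ht n)
    rw [← RatFunc.num_div_denom f]
    exact div_mem (h2 _) (h2 _)
  obtain ⟨p, q, hpq⟩ := (IntermediateField.mem_adjoin_simple_iff C f).1 h1
  by_cases hq : Polynomial.aeval t q = 0
  · refine ⟨0, 1, by simp, ?_⟩
    rw [hpq, hq]
    simp
  · exact ⟨p, q, hq, hpq⟩

end Rat

namespace DCells

variable {k C : Type*} [NontriviallyNormedField k] [CompleteSpace k] [IsUltrametricDist k]
  [NormedField C] [IsUltrametricDist C] [NormedAlgebra k C] [Algebra.IsAlgebraic k C]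
  [IsAlgClosed C] [hk : Fact (DiscNorm k)]
  {K : Type*} [Field K] [Algebra C K] [Algebra (RatFunc C) K]
    [IsScalarTower C (RatFunc C) K] [FiniteDimensional (RatFunc C) K] {y : FD k C}

/-- the product decomposition of `K ⊗ FD` in the form of `Pts1_315` -/
theorem pd (D : DCells k C K y) : PD (algebraMap (RatFunc C) K) D.i.toRingHom
    (fun j => (D.io j).toRingHom) (fun j => (D.φ j).toRingHom) := by
  let _ : Algebra (RatFunc C) (FD k C) := D.i.toRingHom.toAlgebra
  let b := Module.finBasis (RatFunc C) K
  exact pd_of_inj (F0 := RatFunc C) (Fc := FD k C) (E := fun _ => FD k C)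
    (φ := fun j => (D.φ j).toRingHom) (ι := fun j => (D.io j).toRingHom)
    (fun j r => D.comm j r) b (D.inj' b b.linearIndependent) (fun z => D.surj b z)

/-- the cells of `K` over the disc, in the form of `Pts3_315` -/
theorem cover (D : DCells k C K y) (t₀ : RatFunc C)
    (ht : (RatFunc.X : RatFunc C) ∈ IntermediateField.adjoin C {t₀}) (h : D.i t₀ = TF k C) :
    CellCover (C := C) (F₀ := RatFunc C) (K := K) (Bc := BD k C) (Fc := FD k C)
      (XB : BD k C) {τ : C | ‖τ‖ < 1} D.i.toRingHom t₀ (J := D.J) (B := fun _ => BD k C)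
      (F := fun _ => FD k C) (fun _ => (XB : BD k C)) (fun _ => {τ : C | ‖τ‖ < 1})
      (fun j => (D.io j).toRingHom) (fun j => (D.φ j).toRingHom)
      (fun j => comp (D.f j) (WD.co (D.wd j) (D.m_ne j))) where
  base := cellRing_BD hk.out
  up := fun _ => cellRing_BD hk.out
  gen := gen_of_mem ht
  i_C := fun c => D.i.commutes c
  i_t := h
  io_C := fun j c => (D.io j).commutes c
  sg_alg := fun j b => compF_algebraMap hk.out (D.wd j) (D.m_ne j) b
  pd := D.pd
  int := fun j b => comp_integral hk.out (D.wd j) (D.m_ne j) b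

end DCells

end Crest.Agent.R013.Good_408
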