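import Mathlib
import Crest.Agent.R013.Good4_408
import Crest.Agent.R013.Good2_408
import Crest.Agent.R013.CAn4_243
import Crest.Agent.R013.Conn4_315

/-!
# Good annuli (row 13): the product decomposition in the form of `Pts1_315`, `Pts3_315`

The analogue of `Good2_408` for annuli.
-/

set_option autoImplicit false
set_option linter.style.haveILetI false
set_option linter.unusedSectionVars false
set_option linter.unusedVariables false

noncomputable section

namespace Crest.Agent.R013.Good_408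

open Module TensorProduct
open Crest.Agent.R013.Cell_408 Crest.Agent.R013.Comp_267 Crest.Agent.R013.EE809
open Crest.Agent.R013.CAn_243
open Crest.Agent.R013.Pts1_315 Crest.Agent.R013.Pts2_315 Crest.Agent.R013.Pts3_315

variable {k C : Type*} [NontriviallyNormedField k] [CompleteSpace k] [IsUltrametricDist k]
  [NormedField C] [IsUltrametricDist C] [NormedAlgebra k C] [Algebra.IsAlgebraic k C]
  [IsAlgClosed C] [hk : Fact (DiscNorm k)]

/-- the coordinate of the annulus `|c| < |T| < 1` -/
def TA (c : C) : AN k c := ⟨T 1, T_mem_AN c 1⟩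

/-- the annulus ring of 243 is a cell ring -/
theorem cellRing_TA {c : C} (hc : c ≠ 0) (hc1 : ‖c‖ < 1) :
    CellRing (TA (k := k) c) {τ : C | ‖c‖ < ‖τ‖ ∧ ‖τ‖ < 1} :=
  Conn_315.cellRing_AN hk.out hc hc1 (AN k c) (fun _ => Iff.rfl)

namespace ACells

variable {K : Type*} [Field K] [Algebra C K] [Algebra (RatFunc C) K]
    [IsScalarTower C (RatFunc C) K] {c : C} {y : EE k C} (D : ACells k C K c y)

theorem WA' (j : D.J) : WA (D.c' j) (D.f j) (D.m j : ℤ) :=
  WA.of_we (D.we j) (fun n => D.wa j n)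

/-- composition on the annulus rings -/
def φA (j : D.J) : AN k c →ₐ[C] AN k (D.c' j) :=
  compA (D.c'_ne j) (D.c'_lt j) (D.WA' j) (D.m_ne j) (D.hc' j)

/-- composition on their fields of fractions -/
def φFA (j : D.J) : FA k c →ₐ[C] FA k (D.c' j) :=
  compFA (D.c'_ne j) (D.c'_lt j) (D.WA' j) (D.m_ne j) (D.hc' j)

theorem coe_φA (j : D.J) (x : AN k c) : (D.φA j x : EE k C) = D.φ j x := rfl

theorem coe_φFA (j : D.J) (x : FA k c) : (D.φFA j x : EE k C) = D.φ j x := rfl

theorem φFA_algebraMap (j : D.J) (x : AN k c) :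
    D.φFA j (algebraMap (AN k c) (FA k c) x) =
      algebraMap (AN k (D.c' j)) (FA k (D.c' j)) (D.φA j x) := rfl

/-- the expansion of the elements of `K`, with values in `FA` -/
def ioF (j : D.J) : K →ₐ[C] FA k (D.c' j) :=
  (D.io j).codRestrict (FA k (D.c' j)).toSubalgebra (D.io_mem j)

theorem coe_ioF (j : D.J) (f : K) : (D.ioF j f : EE k C) = D.io j f := rfl

/-- `AN (c' j)` is spanned by `1, T, …, T^(m-1)` over the base (243) -/
def SpanAN : Prop := ∀ j, ∀ b ∈ AN k (D.c' j), ∃ A : Fin (D.m j) → EE k C,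
  (∀ i, A i ∈ AN k c) ∧ b = ∑ i, D.φ j (A i) * T ((i : ℕ) : ℤ)

variable {D}

theorem TA_pow (c : C) (i : ℕ) : (((TA (k := k) c) ^ i : AN k c) : EE k C) = T (i : ℤ) := by
  induction i with
  | zero => rw [pow_zero]; rfl
  | succ i ih =>
    rw [pow_succ, MulMemClass.coe_mul, ih]
    change T (i : ℤ) * T 1 = T ((i + 1 : ℕ) : ℤ)
    rw [T_mul_T]
    congr 1

theorem span' (hs : D.SpanAN) (j : D.J) (b : AN k (D.c' j)) :
    ∃ A : Fin (D.m j) → AN k c, b = ∑ i, D.φA j (A i) * TA (D.c' j) ^ (i : ℕ) := by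
  obtain ⟨A, hA, e⟩ := hs j b.1 b.2
  refine ⟨fun i => ⟨A i, hA i⟩, ?_⟩
  apply Subtype.ext
  rw [e, AddSubmonoidClass.coe_finsetSum]
  refine Finset.sum_congr rfl fun i _ => ?_
  rw [MulMemClass.coe_mul, TA_pow]
  rfl

/-- the annulus rings are integral over the base -/
theorem integralA (hs : D.SpanAN) (j : D.J) (b : AN k (D.c' j)) :
    (D.φA j).toRingHom.IsIntegralElem b := by
  set ψ := (D.φA j).toRingHom with hψ
  have hX : ψ.IsIntegralElem (TA (k := k) (D.c' j)) := by
    obtain ⟨A, hA⟩ := span' hs j (TA (D.c' j) ^ D.m j)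
    refine ⟨Polynomial.X ^ D.m j - ∑ i : Fin (D.m j), Polynomial.C (A i) * Polynomial.X ^ (i : ℕ),
      ?_, ?_⟩
    · exact Polynomial.monic_X_pow_sub (Polynomial.degree_sum_fin_lt A)
    · rw [Polynomial.eval₂_sub, Polynomial.eval₂_pow, Polynomial.eval₂_X,
        Polynomial.eval₂_finsetSum, hA, sub_eq_zero]
      refine Finset.sum_congr rfl fun i _ => ?_
      rw [Polynomial.eval₂_mul, Polynomial.eval₂_C, Polynomial.eval₂_pow, Polynomial.eval₂_X]
      rfl
  obtain ⟨A, hA⟩ := span' hs j b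
  rw [hA]
  have hpow : ∀ i : ℕ, ψ.IsIntegralElem ((TA (k := k) (D.c' j)) ^ i) := by
    intro i
    induction i with
    | zero =>
      rw [pow_zero, ← map_one ψ]
      exact RingHom.isIntegralElem_map ψ
    | succ n ih' =>
      rw [pow_succ]
      exact RingHom.IsIntegralElem.mul ψ ih' hX
  have hsum : ∀ s : Finset (Fin (D.m j)), ψ.IsIntegralElem
      (∑ i ∈ s, D.φA j (A i) * TA (k := k) (D.c' j) ^ (i : ℕ)) := by
    intro s
    classical
    induction s using Finset.induction_on with
    | empty => rw [Finset.sum_empty]; exact RingHom.isIntegralElem_zero ψ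
    | insert i s hi ih =>
      rw [Finset.sum_insert hi]
      refine RingHom.IsIntegralElem.add ψ (RingHom.IsIntegralElem.mul ψ ?_ ?_) ih
      · exact RingHom.isIntegralElem_map ψ
      · exact hpow i
  exact hsum _

/-- the fields `FA (c' j)` are spanned by `1, T, …, T^(m-1)` over the base -/
theorem spanFA (hs : D.SpanAN) (j : D.J) (z : FA k (D.c' j)) :
    ∃ A : Fin (D.m j) → FA k c, z = ∑ i, D.φFA j (A i) *
      algebraMap (AN k (D.c' j)) (FA k (D.c' j)) (TA (D.c' j)) ^ (i : ℕ) := by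
  obtain ⟨a, b, hb, rfl⟩ := FA_div_surj z
  -- a nonzero multiple of `b` in the base
  obtain ⟨b', s, hs0, e⟩ : ∃ (b' : AN k (D.c' j)) (s : AN k c), s ≠ 0 ∧ b * b' = D.φA j s := by
    obtain ⟨p, hp, hpb⟩ := integralA hs j b
    have hφ : Function.Injective (D.φA j) := by
      intro x y h
      apply Subtype.ext
      have h1 : D.φ j x = D.φ j y := congrArg Subtype.val h
      exact (D.φ j).toRingHom.injective h1
    -- minimal degree
    have hex : ∃ n, ∃ p : Polynomial (AN k c), p.natDegree = n ∧ p ≠ 0 ∧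
        Polynomial.eval₂ (D.φA j).toRingHom b p = 0 :=
      ⟨_, p, rfl, hp.ne_zero, hpb⟩
    classical
    obtain ⟨q, hqn, hq0, hqb⟩ := Nat.find_spec hex
    refine ⟨-(Polynomial.eval₂ (D.φA j).toRingHom b q.divX), q.coeff 0, ?_, ?_⟩
    · intro h0
      have h1 : q = q.divX * Polynomial.X := by
        conv_lhs => rw [← Polynomial.divX_mul_X_add q, h0, map_zero, add_zero]
      have h2 : Polynomial.eval₂ (D.φA j).toRingHom b q.divX = 0 := by
        rw [h1, Polynomial.eval₂_mul, Polynomial.eval₂_X] at hqb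
        exact (mul_eq_zero.1 hqb).resolve_right hb
      have h3 : q.divX ≠ 0 := by
        intro h3
        rw [h3, zero_mul] at h1
        exact hq0 h1
      have h4 : q.divX.natDegree < q.natDegree := by
        conv_rhs => rw [h1]
        rw [Polynomial.natDegree_mul_X h3]
        exact Nat.lt_succ_self _
      rw [hqn] at h4
      exact Nat.find_min hex h4 ⟨q.divX, rfl, h3, h2⟩
    · have h1 := hqb
      rw [← Polynomial.divX_mul_X_add q, Polynomial.eval₂_add, Polynomial.eval₂_mul,
        Polynomial.eval₂_X, Polynomial.eval₂_C] at h1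
      rw [mul_neg, mul_comm b]
      exact (eq_neg_of_add_eq_zero_right h1).symm
  obtain ⟨A, hA⟩ := span' hs j (a * b')
  have hb0 : algebraMap (AN k (D.c' j)) (FA k (D.c' j)) b ≠ 0 := by
    rw [Ne, map_eq_zero_iff _ (algebraMap_FA_injective _)]; exact hb
  have hs0' : algebraMap (AN k c) (FA k c) s ≠ 0 := by
    rw [Ne, map_eq_zero_iff _ (algebraMap_FA_injective _)]; exact hs0
  have hφs : D.φFA j (algebraMap (AN k c) (FA k c) s) ≠ 0 := by
    rw [Ne, map_eq_zero]; exact hs0'
  refine ⟨fun i => algebraMap (AN k c) (FA k c) (A i) / algebraMap (AN k c) (FA k c) s, ?_⟩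
  have h1 : algebraMap (AN k (D.c' j)) (FA k (D.c' j)) a / algebraMap _ (FA k (D.c' j)) b =
      algebraMap _ (FA k (D.c' j)) (a * b') / D.φFA j (algebraMap (AN k c) (FA k c) s) := by
    rw [φFA_algebraMap, ← e, map_mul, map_mul]
    have hb' : algebraMap (AN k (D.c' j)) (FA k (D.c' j)) b' ≠ 0 := by
      intro h0
      apply hφs
      rw [φFA_algebraMap, ← e, map_mul, h0, mul_zero]
    rw [mul_div_mul_right _ _ hb']
  rw [h1, hA, map_sum, Finset.sum_div]
  refine Finset.sum_congr rfl fun i _ => ?_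
  rw [map_mul, map_pow, map_div₀, ← φFA_algebraMap]
  ring

variable [FiniteDimensional (RatFunc C) K] (D)

/-- the expansion on the base, with values in `FA c` -/
def iF : RatFunc C →ₐ[C] FA k c :=
  (D.i).codRestrict (FA k c).toSubalgebra D.i_mem

theorem coe_iF (r : RatFunc C) : (D.iF r : EE k C) = D.i r := rfl

theorem commF (j : D.J) (r : RatFunc C) : D.φFA j (D.iF r) = D.ioF j (algebraMap (RatFunc C) K r) :=
  Subtype.ext (D.comm j r)

theorem injF {I : Type*} [Fintype I] (b : I → K) (hb : LinearIndependent (RatFunc C) b) :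
    Inj (fun j => (D.φFA j).toRingHom) (fun j => (D.ioF j).toRingHom) b := by
  intro e he
  have h1 := D.inj' b hb (fun i => (e i : EE k C)) (fun i => (e i).2) (fun j => by
    have h2 := congrArg (fun z : FA k (D.c' j) => (z : EE k C)) (he j)
    simp only [AddSubmonoidClass.coe_finsetSum] at h2
    exact h2)
  funext i
  exact Subtype.ext (congrFun h1 i)

variable {D}

/-- the product decomposition of `K ⊗ FA c` -/
theorem pd (hs : D.SpanAN) : PD (algebraMap (RatFunc C) K) D.iF.toRingHom
    (fun j => (D.ioF j).toRingHom) (fun j => (D.φFA j).toRingHom) := by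
  let _ : Algebra (RatFunc C) (FA k c) := D.iF.toRingHom.toAlgebra
  let b := Module.finBasis (RatFunc C) K
  refine pd_of_inj (F0 := RatFunc C) (Fc := FA k c) (E := fun j => FA k (D.c' j))
    (φ := fun j => (D.φFA j).toRingHom) (ι := fun j => (D.ioF j).toRingHom)
    (fun j r => D.commF j r) b (D.injF b b.linearIndependent) (fun z => ?_)
  refine (D.injF b b.linearIndependent).surj D.m ?_ (fun j => ?_) z
  · rw [D.sum_m, Fintype.card_fin]
  · refine ⟨fun l => algebraMap (AN k (D.c' j)) (FA k (D.c' j)) (TA (D.c' j)) ^ (l : ℕ),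
      fun z => ?_⟩
    obtain ⟨A, hA⟩ := spanFA hs j z
    exact ⟨A, hA⟩

/-- the cells of `K` over the annulus, in the form of `Pts3_315` -/
theorem cover (hs : D.SpanAN) (t₀ : RatFunc C)
    (ht : (RatFunc.X : RatFunc C) ∈ IntermediateField.adjoin C {t₀}) (h : D.i t₀ = T 1) :
    CellCover (C := C) (F₀ := RatFunc C) (K := K) (Bc := AN k c) (Fc := FA k c)
      (TA c) {τ : C | ‖c‖ < ‖τ‖ ∧ ‖τ‖ < 1} D.iF.toRingHom t₀ (J := D.J)
      (B := fun j => AN k (D.c' j)) (F := fun j => FA k (D.c' j)) (fun j => TA (D.c' j))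
      (fun j => {τ : C | ‖D.c' j‖ < ‖τ‖ ∧ ‖τ‖ < 1})
      (fun j => (D.ioF j).toRingHom) (fun j => (D.φFA j).toRingHom)
      (fun j => D.φA j) where
  base := cellRing_TA D.c_ne D.c_lt
  up := fun j => cellRing_TA (D.c'_ne j) (D.c'_lt j)
  gen := gen_of_mem ht
  i_C := fun c => D.iF.commutes c
  i_t := Subtype.ext h
  io_C := fun j c => (D.ioF j).commutes c
  sg_alg := fun j b => D.φFA_algebraMap j b
  pd := pd hs
  int := fun j b => integralA hs j b

end ACells

end Crest.Agent.R013.Good_408
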