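import Crest.Agent.R013.CAnR2_109
import Crest.Agent.R013.GoodA2_315

/-!
# Good annuli (helper109): `ACells.SpanAN` of `GoodA2_315` holds; `PD` and `CellCover` without
hypothesis; the coordinate of the annulus
-/

set_option autoImplicit false
set_option linter.unusedSectionVars false

noncomputable section

namespace Crest.Agent.R013.Good_408

open Module
open Crest.Agent.R013.Cell_408 Crest.Agent.R013.Comp_267
open Crest.Agent.R013.EE809 Crest.Agent.R013.CAn_243 Crest.Agent.R013.CAnR_109
open Crest.Agent.R013.Pts1_315 Crest.Agent.R013.Pts2_315 Crest.Agent.R013.Pts3_315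

variable {k C : Type*} [NontriviallyNormedField k] [CompleteSpace k] [IsUltrametricDist k]
  [NormedField C] [IsUltrametricDist C] [NormedAlgebra k C] [Algebra.IsAlgebraic k C]
  [IsAlgClosed C] [hk : Fact (DiscNorm k)]

namespace ACells

variable {K : Type*} [Field K] [Algebra C K] [Algebra (RatFunc C) K]
    [IsScalarTower C (RatFunc C) K] {c : C} {y : EE k C}

/-- the hypothesis `SpanAN` of `GoodA2_315` is a theorem -/
theorem spanAN (D : ACells k C K c y) : D.SpanAN := by
  intro j b hb
  obtain ⟨e, he, h⟩ := repr_AN (D.c'_ne j) (D.c'_lt j) (D.we j) (WA.of_we (D.we j) (D.wa j))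
    (D.m_ne j) (D.hc' j) hb
  refine ⟨e, he, ?_⟩
  rw [h]
  exact Finset.sum_congr rfl fun i _ => mul_comm _ _

variable [FiniteDimensional (RatFunc C) K]

/-- surjectivity of `K ⊗ FA → ∏ FA` -/
theorem surjF (D : ACells k C K c y) {I : Type*} [Fintype I] (b : Basis I (RatFunc C) K)
    (z : ∀ j, FA k (D.c' j)) :
    ∃ e : I → FA k c, ∀ j, ∑ i, D.φFA j (e i) * D.ioF j (b i) = z j := by
  refine (D.injF b b.linearIndependent).surj D.m ?_ (fun j => ?_) z
  · rw [D.sum_m, Module.finrank_eq_card_basis b]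
  · exact ⟨fun l => algebraMap (AN k (D.c' j)) (FA k (D.c' j)) (TA (D.c' j)) ^ (l : ℕ),
      fun z => spanFA D.spanAN j z⟩

/-- the coordinate `(x - a) / ρ` of the annulus `|σ| < |x - a| < |ρ|` -/
theorem i_coord {a ρ : C} (hρ : ρ ≠ 0) (D : ACells k C K c (annY k C a ρ)) :
    D.i ((RatFunc.X - algebraMap C (RatFunc C) a) * algebraMap C (RatFunc C) ρ⁻¹) = T 1 := by
  rw [map_mul, map_sub, D.i_X, AlgHom.commutes, AlgHom.commutes, annY, add_sub_cancel_left,
    mul_right_comm, ← map_mul, mul_inv_cancel₀ hρ, map_one, one_mul]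

end ACells

end Crest.Agent.R013.Good_408
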