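import Crest.Agent.R013.SSG2_109

/-!
# R013 / SSG3_109 : good cells over a finite tree of discs (output of SS-GLOB, box L12)

`exists_lineTree`: from the local inputs `Inp` one gets a finite tree of closed discs of `C`, all
cells of which (open discs at the vertices, annuli between a vertex and its parent, the disc at
infinity) are good; moreover finitely many prescribed closed discs can be taken as vertices.
-/

set_option autoImplicit false

open scoped NNReal

namespace Crest.Agent.R013.SSG_109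

open Crest.Agent.R013.SSZorn_315 Crest.Agent.R013.PL_109

variable {C : Type*} [Field C] (v : Valuation C ℝ≥0)

/-- the open disc of centre `c` and radius `r` (a value) is good -/
def GDr (GD : C → C → Prop) (c : C) (r : ℝ≥0) : Prop := ∀ ρ, v ρ = r → GD c ρ

/-- the open annulus `s < v (x - c) < r` (`s`, `r` values) is good -/
def GAr (GA : C → C → C → Prop) (c : C) (s r : ℝ≥0) : Prop :=
  ∀ σ ρ, v σ = s → v ρ = r → GA c σ ρ

variable (GD : C → C → Prop) (GA : C → C → C → Prop) (GI : C → Prop)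

/-- decomposition of the line over a finite tree of closed discs with good cells; `ρ₀` is the
radius of the root disc, whose centre is `0`. -/
structure LineTree (V : Finset (C × ℝ≥0)) (E : Finset ((C × ℝ≥0) × (C × ℝ≥0))) (ρ₀ : C) : Prop where
  tree : Tree v (GDr v GD) (GAr v GA) V E (0, v ρ₀)
  inf : ∀ ρ, v ρ = v ρ₀ → GI ρ

variable {v}

theorem Tree.map {gD gD' : C → ℝ≥0 → Prop} {gA gA' : C → ℝ≥0 → ℝ≥0 → Prop}
    {V : Finset (C × ℝ≥0)} {E : Finset ((C × ℝ≥0) × (C × ℝ≥0))} {root : C × ℝ≥0}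
    (T : Tree v gD gA V E root)
    (hD : ∀ c r, IsVal v r → gD c r → gD' c r)
    (hA : ∀ c s r, IsVal v s → IsVal v r → s < r → gA c s r → gA' c s r) :
    Tree v gD' gA' V E root where
  root_mem := T.root_mem
  sub := T.sub
  val := T.val
  inj := T.inj
  mem := T.mem
  edge e he := ⟨(T.edge e he).1, (T.edge e he).2.1,
    hA _ _ _ (T.val _ (T.mem e he).1) (T.val _ (T.mem e he).2) (T.edge e he).2.1 (T.edge e he).2.2⟩
  gap := T.gap
  parent := T.parent
  dir x hx c hc := (T.dir x hx c hc).imp id fun h => ⟨hD c x.2 (T.val x hx) h.1, h.2⟩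

variable {GD GA GI}

theorem gDr_of_gD (S : SubIn v GD GA GI) {T : Finset (C × ℝ≥0)} {c : C} {r : ℝ≥0}
    (hr : IsVal v r) (h : gD (v := v) GD T c r) : GDr v GD c r := by
  obtain ⟨ρ, h1, h2, h3, -⟩ := h
  intro ρ' hρ'
  have h0 : ρ' ≠ 0 := by
    rintro rfl
    rw [map_zero] at hρ'
    exact hr.1 hρ'.symm
  refine S.s1 c ρ c ρ' h3 ?_ h0 ?_
  · rw [sub_self, map_zero]
    exact pos_iff_ne_zero.2 ((Valuation.ne_zero_iff v).2 h1)
  · rw [hρ']; exact h2

theorem gAr_of_gA (S : SubIn v GD GA GI) {T : Finset (C × ℝ≥0)} {c : C} {s r : ℝ≥0}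
    (hsr : s < r) (h : gA (v := v) GA T c s r) : GAr v GA c s r := by
  obtain ⟨σ, ρ, -, h1, h2, -, h4, -⟩ := h
  intro σ' ρ' hσ' hρ'
  refine S.s3 c σ ρ σ' ρ' h4 ?_ ?_ ?_
  · rw [hσ']; exact h1
  · rw [hσ', hρ']; exact hsr
  · rw [hρ']; exact h2

/-- the type 2 point of a closed disc -/
theorem isPtL_dst (t : C × ℝ≥0) : IsPtL v (dst v t) where
  le b c := by
    rw [dst, dst]
    apply max_le
    · refine (v_sub_le t.1 c b).trans (max_le ?_ ?_)
      · exact (le_max_left _ _).trans (le_max_left _ _)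
      · rw [Valuation.map_sub_swap]; exact le_max_right _ _
    · exact (le_max_right _ _).trans (le_max_left _ _)
  ge b c := by
    refine (v_sub_le b t.1 c).trans (max_le ?_ ?_)
    · rw [Valuation.map_sub_swap]
      exact (le_max_left _ _).trans (le_max_left _ _)
    · exact (le_max_left _ _).trans (le_max_right _ _)

/-- a common bound which is a value -/
theorem exists_bound (T : Finset (C × ℝ≥0)) (hT : ∀ t ∈ T, IsVal v t.2) (ρ : C) (hρ : ρ ≠ 0) :
    ∃ ρ₀, ρ₀ ≠ 0 ∧ v ρ ≤ v ρ₀ ∧ ∀ t ∈ T, v t.1 ≤ v ρ₀ ∧ t.2 ≤ v ρ₀ := by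
  classical
  induction T using Finset.induction_on with
  | empty => exact ⟨ρ, hρ, le_rfl, by simp⟩
  | insert x T hx ih =>
    obtain ⟨ρ₀, h0, h1, h2⟩ := ih fun t ht => hT t (Finset.mem_insert_of_mem ht)
    obtain ⟨hx0, τ, hτ⟩ := hT x (Finset.mem_insert_self _ _)
    have key : ∀ a b : C, a ≠ 0 → ∃ c, c ≠ 0 ∧ v a ≤ v c ∧ v b ≤ v c := by
      intro a b ha
      rcases le_total (v a) (v b) with h | h
      · refine ⟨b, ?_, h, le_rfl⟩
        rintro rfl
        rw [map_zero] at h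
        exact ha ((Valuation.zero_iff v).1 (le_antisymm h zero_le))
      · exact ⟨a, ha, le_rfl, h⟩
    obtain ⟨ρ₁, g0, g1, g2⟩ := key ρ₀ x.1 h0
    obtain ⟨ρ₂, f0, f1, f2⟩ := key ρ₁ τ g0
    refine ⟨ρ₂, f0, h1.trans (g1.trans f1), ?_⟩
    intro t ht
    rcases Finset.mem_insert.1 ht with rfl | ht
    · exact ⟨g2.trans f1, by rw [← hτ]; exact f2⟩
    · exact ⟨(h2 t ht).1.trans (g1.trans f1), (h2 t ht).2.trans (g1.trans f1)⟩

/-- **SS-GLOB**: finite tree of closed discs with good cells. -/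
theorem exists_lineTree [IsAlgClosed C] (I : Inp v GD GA GI) (T : Finset (C × ℝ≥0))
    (hT : ∀ t ∈ T, IsVal v t.2) :
    ∃ V E ρ₀, ρ₀ ≠ 0 ∧ LineTree v GD GA GI V E ρ₀ ∧
      ∀ t ∈ T, ∃ x ∈ V, v (t.1 - x.1) ≤ t.2 ∧ x.2 = t.2 := by
  obtain ⟨ρ, hρ, hI⟩ := I.one.2
  obtain ⟨ρ₀, h0, h1, h2⟩ := exists_bound T hT ρ hρ
  have L := local_of I T hT
  have hr₀ : IsVal v (v ρ₀) := ⟨(Valuation.ne_zero_iff v).2 h0, ρ₀, rfl⟩
  obtain ⟨V, E, hVE⟩ := exists_tree (fd_of_local L 0 (v ρ₀) hr₀)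
  refine ⟨V, E, ρ₀, h0, ⟨hVE.map (fun c r hr h => gDr_of_gD I.sub hr h)
    (fun c s r _ _ hsr h => gAr_of_gA I.sub hsr h), fun ρ' hρ' => I.sub.sInf ρ ρ' hI ?_⟩, ?_⟩
  · rw [hρ']; exact h1
  intro t ht
  have hroot : dst v t (0, v ρ₀).1 ≤ (0, v ρ₀).2 := by
    rw [dst]
    simp only [sub_zero]
    exact max_le (h2 t ht).1 (h2 t ht).2
  obtain ⟨x, hx⟩ := exists_isMinV hVE hroot
  have hle := hx.le
  have h3 : v (t.1 - x.1) ≤ x.2 := (le_max_left _ _).trans hle
  have h4 : t.2 ≤ x.2 := (le_max_right _ _).trans hle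
  rcases locate hVE (isPtL_dst t) hx with h | ⟨c, hc, hlt, hgd, -⟩ | ⟨y, hy, hlt1, hlt2⟩
  · have h5 := h t.1 h3
    rw [dst, sub_self, map_zero, max_eq_right zero_le] at h5
    have h6 : x.2 = t.2 := le_antisymm h5 h4
    exact ⟨x, hx.mem, by rw [← h6]; exact h3, h6⟩
  · obtain ⟨_, _, _, _, h5⟩ := hgd
    exact absurd (h5 t ht) (not_le.2 hlt)
  · obtain ⟨_, _, _, _, _, _, _, h5⟩ := (hVE.edge _ hy).2.2
    rcases h5 t ht with h | h
    · exact absurd h (not_le.2 hlt1)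
    · exact absurd h (not_le.2 hlt2)

/-- vertices of the tree as Gauss norms: a norm over `v` whose minimal disc is `x` and which is not
in an open cell is the Gauss norm of `x` -/
theorem eq_gaussR_of_vertex [IsAlgClosed C] {w : Valuation (RatFunc C) ℝ≥0}
    (h0 : ∀ c, w (RatFunc.C c) = v c) {x : C × ℝ≥0} (hx : x.2 ≠ 0)
    (hle : w (RatFunc.X - RatFunc.C x.1) ≤ x.2)
    (h : ∀ c, v (c - x.1) ≤ x.2 → x.2 ≤ w (RatFunc.X - RatFunc.C c)) :
    w = gaussR v x.1 x.2 hx := by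
  have h1 : w (RatFunc.X - RatFunc.C x.1) = x.2 := le_antisymm hle (h x.1 (by simp))
  have hmin : ∀ b, w (RatFunc.X - RatFunc.C x.1) ≤ w (RatFunc.X - RatFunc.C b) := by
    intro b
    rw [h1]
    by_cases hb : v (b - x.1) ≤ x.2
    · exact h b hb
    · push Not at hb
      have h2 : v (b - x.1) ≤ max (w (RatFunc.X - RatFunc.C b)) (w (RatFunc.X - RatFunc.C x.1)) :=
        (isPtL_norm h0).ge b x.1
      rcases le_max_iff.1 h2 with h3 | h3
      · exact hb.le.trans h3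
      · exact absurd (h3.trans hle) (not_le.2 hb)
  have h2 : w (RatFunc.X - RatFunc.C x.1) ≠ 0 := by rw [h1]; exact hx
  have h3 := eq_gaussR h0 hmin h2
  rw [h3]
  congr 1

end Crest.Agent.R013.SSG_109
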