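import Mathlib
import Crest.Agent.R013.SSG3_109
import Crest.Agent.R013.Good4_408

/-!
# RED-PTS (row 13): choice of the base cells

`LineDec k C K` : finite tree of closed discs of the line, all other directions open discs; the
cells (open discs, open annuli, the disc at infinity) are good for `K`.
`exists_lineDec` : from 109's `LineTree`.
-/

set_option autoImplicit false
set_option linter.style.haveILetI false
set_option linter.unusedSectionVars false
set_option linter.unusedVariables false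

open scoped NNReal

namespace Crest.Agent.R013.LineDec_315

open Crest.Agent.R013.SSZorn_315 Crest.Agent.R013.PL_109 Crest.Agent.R013.SSG_109
open Crest.Agent.R013.Cell_408 (DiscNorm)
open Crest.Agent.R013.Good_408

universe u

/-- decomposition of the line: vertices `|x - a| ≤ |ρ|`, annuli (child, parent), good discs -/
structure LineDec (k : Type*) (C : Type u) (K : Type*) [NontriviallyNormedField k]
    [CompleteSpace k] [IsUltrametricDist k] [NormedField C] [IsUltrametricDist C] [NormedAlgebra k C]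
    [Algebra.IsAlgebraic k C] [IsAlgClosed C] [hk : Fact (DiscNorm k)]
    [Field K] [Algebra C K] [Algebra (RatFunc C) K] [IsScalarTower C (RatFunc C) K] where
  /-- vertices -/
  V : Type u
  V_fin : Finite V
  a : V → C
  ρ : V → C
  ρ_ne : ∀ x, ρ x ≠ 0
  V_inj : ∀ x y, ‖a x - a y‖₊ ≤ ‖ρ x‖₊ → ‖ρ x‖₊ = ‖ρ y‖₊ → x = y
  /-- root -/
  r : V
  a_r : a r = 0
  sub : ∀ x, ‖a x‖₊ ≤ ‖ρ r‖₊ ∧ ‖ρ x‖₊ ≤ ‖ρ r‖₊
  inf : GoodInf k C K (ρ r)
  /-- discs at the vertices -/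
  U : Type u
  uv : U → V
  cU : U → C
  cU_le : ∀ u, ‖cU u - a (uv u)‖₊ ≤ ‖ρ (uv u)‖₊
  goodU : ∀ u, GoodDisc k C K (cU u) (ρ (uv u))
  /-- annuli -/
  E : Type u
  E_fin : Finite E
  ch : E → V
  pa : E → V
  E_le : ∀ e, ‖a (ch e) - a (pa e)‖₊ ≤ ‖ρ (pa e)‖₊
  E_lt : ∀ e, ‖ρ (ch e)‖₊ < ‖ρ (pa e)‖₊
  goodE : ∀ e, GoodAnn k C K (a (ch e)) (ρ (ch e)) (ρ (pa e))
  gap : ∀ e z, ‖a z - a (ch e)‖₊ < ‖ρ (pa e)‖₊ → ‖ρ z‖₊ < ‖ρ (pa e)‖₊ →
    ‖a z - a (ch e)‖₊ ≤ ‖ρ (ch e)‖₊ ∧ ‖ρ z‖₊ ≤ ‖ρ (ch e)‖₊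
  ch_inj : Function.Injective ch
  ch_range : ∀ x, x ≠ r ↔ ∃ e, ch e = x
  /-- directions -/
  dir : ∀ x c, ‖c - a x‖₊ ≤ ‖ρ x‖₊ →
    (∃ e, pa e = x ∧ ‖a (ch e) - c‖₊ < ‖ρ x‖₊) ∨ (∃ u, uv u = x ∧ ‖cU u - c‖₊ < ‖ρ x‖₊)
  dirU : ∀ u u', uv u = uv u' → ‖cU u - cU u'‖₊ < ‖ρ (uv u)‖₊ → u = u'
  dirE : ∀ e e', pa e = pa e' → ‖a (ch e) - a (ch e')‖₊ < ‖ρ (pa e)‖₊ → e = e'
  dirV : ∀ u z, ‖a z - cU u‖₊ < ‖ρ (uv u)‖₊ → ‖ρ (uv u)‖₊ ≤ ‖ρ z‖₊

variable {k : Type*} {C : Type u} {K : Type*} [NontriviallyNormedField k] [CompleteSpace k]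
    [IsUltrametricDist k] [NormedField C] [IsUltrametricDist C] [NormedAlgebra k C]
    [Algebra.IsAlgebraic k C] [IsAlgClosed C] [hk : Fact (DiscNorm k)]
    [Field K] [Algebra C K] [Algebra (RatFunc C) K] [IsScalarTower C (RatFunc C) K]

/-- the norm of `C` as a valuation -/
noncomputable abbrev nv (C : Type*) [NormedField C] [IsUltrametricDist C] : Valuation C ℝ≥0 :=
  NormedField.valuation

theorem nv_apply (c : C) : nv C c = ‖c‖₊ := rfl

/-- representatives of the open discs of radius `r` -/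
theorem exists_rep {F : Type*} [Field F] (v : Valuation F ℝ≥0) : ∃ rep : ℝ≥0 → F → F,
    (∀ r, 0 < r → ∀ c, v (rep r c - c) < r) ∧
    ∀ r, 0 < r → ∀ c c', v (c - c') < r → rep r c = rep r c' := by
  classical
  let S : ∀ r : ℝ≥0, 0 < r → Setoid F := fun r hr =>
    { r := fun c c' => v (c - c') < r
      iseqv := ⟨fun c => by rw [sub_self, map_zero]; exact hr,
        fun h => sub_lt_swap h, fun h h' => SSG_109.sub_lt h h'⟩ }
  refine ⟨fun r c => if hr : 0 < r then (Quotient.mk (S r hr) c).out else c, ?_, ?_⟩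
  · intro r hr c
    simp only [dif_pos hr]
    have h := Quotient.mk_out (s := S r hr) c
    exact h
  · intro r hr c c' h
    simp only [dif_pos hr]
    have h1 : Quotient.mk (S r hr) c = Quotient.mk (S r hr) c' := Quotient.sound h
    rw [h1]

theorem exists_lineDec {V : Finset (C × ℝ≥0)} {E : Finset ((C × ℝ≥0) × (C × ℝ≥0))} {ρ₀ : C}
    (L : LineTree (nv C) (GoodDisc k C K) (GoodAnn k C K) (GoodInf k C K) V E ρ₀) :
    ∃ D : LineDec k C K, ∀ x ∈ V, ∃ x' : D.V, D.a x' = x.1 ∧ ‖D.ρ x'‖₊ = x.2 := by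
  classical
  have T := L.tree
  obtain ⟨rep, hrep, hrep'⟩ := exists_rep (nv C)
  have hpos : ∀ x ∈ V, 0 < x.2 := fun x hx => pos_iff_ne_zero.2 (T.val x hx).1
  -- radii
  have hρ : ∀ x : {x // x ∈ V}, ∃ c : C, ‖c‖₊ = x.1.2 := fun x => (T.val x.1 x.2).2
  choose ρ hρ using hρ
  let U : Type _ := {p : {x // x ∈ V} × C // nv C (p.2 - p.1.1.1) ≤ p.1.1.2 ∧
    rep p.1.1.2 p.2 = p.2 ∧ GDr (nv C) (GoodDisc k C K) p.2 p.1.1.2 ∧
    ∀ z ∈ V, nv C (z.1 - p.2) < p.1.1.2 → p.1.1.2 ≤ z.2}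
  have hdir : ∀ (x : {x // x ∈ V}) (c : C), nv C (c - x.1.1) ≤ x.1.2 →
      (∃ e : {e // e ∈ E}, e.1.2 = x.1 ∧ nv C (e.1.1.1 - c) < x.1.2) ∨
      (∃ u : U, u.1.1 = x ∧ nv C (u.1.2 - c) < x.1.2) := by
    intro x c hc
    have hx := hpos x.1 x.2
    rcases T.dir x.1 x.2 c hc with ⟨y, hy, hyc⟩ | ⟨h1, h2⟩
    · exact Or.inl ⟨⟨_, hy⟩, rfl, hyc⟩
    · right
      have hr := hrep x.1.2 hx c
      have hc' : nv C (rep x.1.2 c - x.1.1) ≤ x.1.2 :=
        (v_sub_le _ c _).trans (max_le hr.le hc)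
      have h2' : ∀ z ∈ V, nv C (z.1 - rep x.1.2 c) < x.1.2 → x.1.2 ≤ z.2 := by
        intro z hz hlt
        exact h2 z hz (SSG_109.sub_lt hlt hr)
      rcases T.dir x.1 x.2 _ hc' with ⟨y, hy, hyc⟩ | ⟨h3, h4⟩
      · exact absurd (T.edge _ hy).2.1 (not_lt.2 (h2' y (T.mem _ hy).1 hyc))
      · exact ⟨⟨⟨x, rep x.1.2 c⟩, hc', hrep' _ hx _ _ hr, h3, h4⟩, rfl, hr⟩
  let D : LineDec k C K :=
    { V := {x // x ∈ V}
      V_fin := inferInstance
      a := fun x => x.1.1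
      ρ := ρ
      ρ_ne := fun x h => by
        have h1 := hρ x
        rw [h, nnnorm_zero] at h1
        exact (hpos x.1 x.2).ne h1
      V_inj := fun x y h1 h2 => by
        rw [hρ x, hρ y] at h2
        rw [hρ x] at h1
        exact Subtype.ext (T.inj x.1 x.2 y.1 y.2 h1 h2)
      r := ⟨_, T.root_mem⟩
      a_r := rfl
      sub := fun x => by
        have h1 := T.sub x.1 x.2
        rw [hρ, hρ]
        simp only [sub_zero] at h1
        exact h1
      inf := L.inf _ (hρ ⟨_, T.root_mem⟩)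
      U := U
      uv := fun u => u.1.1
      cU := fun u => u.1.2
      cU_le := fun u => by rw [hρ]; exact u.2.1
      goodU := fun u => u.2.2.2.1 _ (hρ u.1.1)
      E := {e // e ∈ E}
      E_fin := inferInstance
      ch := fun e => ⟨e.1.1, (T.mem _ e.2).1⟩
      pa := fun e => ⟨e.1.2, (T.mem _ e.2).2⟩
      E_le := fun e => by rw [hρ]; exact (T.edge _ e.2).1
      E_lt := fun e => by rw [hρ, hρ]; exact (T.edge _ e.2).2.1
      goodE := fun e => (T.edge _ e.2).2.2 _ _ (hρ ⟨e.1.1, (T.mem _ e.2).1⟩)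
        (hρ ⟨e.1.2, (T.mem _ e.2).2⟩)
      gap := fun e z h1 h2 => by
        rw [hρ] at h1
        rw [hρ, hρ] at h2
        rw [hρ, hρ]
        exact T.gap _ e.2 z.1 z.2 h1 h2
      ch_inj := by
        rintro ⟨e, he⟩ ⟨e', he'⟩ h
        have h1 : e.1 = e'.1 := congrArg Subtype.val h
        obtain ⟨x, y⟩ := e
        obtain ⟨x', y'⟩ := e'
        simp only at h1
        subst h1
        have := T.parent_unique he he'
        subst this
        rfl
      ch_range := by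
        intro x
        constructor
        · intro hx
          obtain ⟨y, hy⟩ := T.parent x.1 x.2 fun h => hx (Subtype.ext h)
          exact ⟨⟨_, hy⟩, rfl⟩
        · rintro ⟨⟨⟨z, y⟩, he⟩, rfl⟩ h
          have h1 : z = (0, nv C ρ₀) := congrArg Subtype.val h
          subst h1
          exact T.root_no_parent he
      dir := fun x c hc => by
        rw [hρ] at hc
        rcases hdir x c hc with ⟨e, h1, h2⟩ | ⟨u, h1, h2⟩
        · refine Or.inl ⟨e, Subtype.ext h1, ?_⟩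
          rw [hρ]; exact h2
        · refine Or.inr ⟨u, h1, ?_⟩
          rw [hρ]; exact h2
      dirU := by
        rintro ⟨⟨x, c⟩, h1, h2, h3, h4⟩ ⟨⟨x', c'⟩, h1', h2', h3', h4'⟩ h h'
        simp only at h h'
        subst h
        rw [hρ] at h'
        have h5 : c = c' := by
          have e1 : rep x.1.2 c = c := h2
          have e2 : rep x.1.2 c' = c' := h2'
          rw [← e1, ← e2]
          exact hrep' _ (hpos x.1 x.2) _ _ h'
        subst h5
        rfl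
      dirE := by
        rintro ⟨⟨x, y⟩, he⟩ ⟨⟨x', y'⟩, he'⟩ h h'
        have h1 : y = y' := congrArg Subtype.val h
        subst h1
        rw [hρ] at h'
        have := T.child_unique he he' h'
        subst this
        rfl
      dirV := by
        rintro u z h
        rw [hρ] at h
        rw [hρ, hρ]
        exact u.2.2.2.2 z.1 z.2 h }
  exact ⟨D, fun x hx => ⟨⟨x, hx⟩, rfl, hρ _⟩⟩

namespace LineDec

variable (D : LineDec k C K)

/-! ### location of points and norms -/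

/-- the point `d` (see `IsPtL`) lies in the disc `u` -/
def inU (u : D.U) (d : C → ℝ≥0) : Prop := d (D.cU u) < ‖D.ρ (D.uv u)‖₊

/-- the point `d` lies in the annulus `e` -/
def inE (e : D.E) (d : C → ℝ≥0) : Prop :=
  ‖D.ρ (D.ch e)‖₊ < d (D.a (D.ch e)) ∧ d (D.a (D.ch e)) < ‖D.ρ (D.pa e)‖₊

/-- the point `d` lies in the disc at infinity -/
def inI (d : C → ℝ≥0) : Prop := ‖D.ρ D.r‖₊ < d 0

/-- the point `d` is the vertex `x` -/
def isV (x : D.V) (d : C → ℝ≥0) : Prop :=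
  d (D.a x) ≤ ‖D.ρ x‖₊ ∧ ∀ c, ‖c - D.a x‖₊ ≤ ‖D.ρ x‖₊ → ‖D.ρ x‖₊ ≤ d c

/-- minimal vertex above a point -/
structure MinV (d : C → ℝ≥0) (x : D.V) : Prop where
  le : d (D.a x) ≤ ‖D.ρ x‖₊
  min : ∀ z, d (D.a z) ≤ ‖D.ρ z‖₊ → ‖D.ρ x‖₊ ≤ ‖D.ρ z‖₊

variable {D} {d : C → ℝ≥0} (hd : IsPtL (nv C) d)
include hd

theorem MinV.unique {x x' : D.V} (h : D.MinV d x) (h' : D.MinV d x') : x = x' := by
  have h1 : ‖D.ρ x‖₊ = ‖D.ρ x'‖₊ := le_antisymm (h.min x' h'.le) (h'.min x h.le)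
  refine D.V_inj x x' ((hd.ge _ _).trans (max_le h.le ?_)) h1
  rw [h1]; exact h'.le

omit hd in
theorem exists_minV (h : ¬ D.inI d) : ∃ x, D.MinV d x := by
  classical
  haveI := D.V_fin
  have hne : ({z : D.V | d (D.a z) ≤ ‖D.ρ z‖₊} : Set D.V).Nonempty := by
    refine ⟨D.r, ?_⟩
    show d (D.a D.r) ≤ _
    rw [D.a_r]
    exact not_lt.1 h
  obtain ⟨x, hx, hmin⟩ := Set.exists_min_image _ (fun z => ‖D.ρ z‖₊) (Set.toFinite _) hne
  exact ⟨x, hx, fun z hz => hmin z hz⟩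

/-- **location** -/
theorem locate : (∃ x, D.isV x d) ∨ (∃ u, D.inU u d) ∨ (∃ e, D.inE e d) ∨ D.inI d := by
  by_cases hI : D.inI d
  · exact Or.inr (Or.inr (Or.inr hI))
  obtain ⟨x, hx⟩ := exists_minV hI
  by_cases h1 : ∀ c, ‖c - D.a x‖₊ ≤ ‖D.ρ x‖₊ → ‖D.ρ x‖₊ ≤ d c
  · exact Or.inl ⟨x, hx.le, h1⟩
  push Not at h1
  obtain ⟨c, hc, hlt⟩ := h1
  rcases D.dir x c hc with ⟨e, he, h2⟩ | ⟨u, hu, h2⟩
  · right; right; left
    refine ⟨e, ?_, ?_⟩
    · by_contra hcon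
      have h3 := hx.min (D.ch e) (not_lt.1 hcon)
      rw [← he] at h3
      exact absurd (D.E_lt e) (not_lt.2 h3)
    · rw [he]
      exact (hd.le _ c).trans_lt (max_lt hlt h2)
  · right; left
    refine ⟨u, ?_⟩
    show d _ < _
    rw [hu]
    exact (hd.le _ c).trans_lt (max_lt hlt h2)

theorem minV_of_inU {u : D.U} (h : D.inU u d) : D.MinV d (D.uv u) where
  le := (hd.le _ (D.cU u)).trans (max_le h.le (sub_le_swap (D.cU_le u)))
  min z hz := by
    by_contra hcon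
    push Not at hcon
    have h1 : nv C (D.a z - D.cU u) < ‖D.ρ (D.uv u)‖₊ :=
      (hd.ge _ _).trans_lt (max_lt (hz.trans_lt hcon) h)
    exact absurd (D.dirV u z h1) (not_le.2 hcon)

theorem minV_of_inE {e : D.E} (h : D.inE e d) : D.MinV d (D.pa e) where
  le := (hd.le _ (D.a (D.ch e))).trans (max_le h.2.le (sub_le_swap (D.E_le e)))
  min z hz := by
    by_contra hcon
    push Not at hcon
    have h3 : nv C (D.a z - D.a (D.ch e)) < ‖D.ρ (D.pa e)‖₊ :=
      (hd.ge _ _).trans_lt (max_lt (hz.trans_lt hcon) h.2)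
    obtain ⟨h4, h5⟩ := D.gap e z h3 hcon
    have h6 : d (D.a (D.ch e)) ≤ ‖D.ρ (D.ch e)‖₊ :=
      (hd.le _ (D.a z)).trans (max_le (hz.trans h5) (sub_le_swap h4))
    exact absurd h.1 (not_lt.2 h6)

theorem minV_of_isV {x : D.V} (h : D.isV x d) : D.MinV d x where
  le := h.1
  min z hz := by
    by_contra hcon
    push Not at hcon
    have h1 : nv C (D.a z - D.a x) ≤ ‖D.ρ x‖₊ := (hd.ge _ _).trans (max_le (hz.trans hcon.le) h.1)
    exact absurd (h.2 _ h1) (not_le.2 (hz.trans_lt hcon))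

theorem not_inI_of_minV {x : D.V} (h : D.MinV d x) : ¬ D.inI d := by
  intro hI
  have h1 : d 0 ≤ ‖D.ρ D.r‖₊ := by
    refine (hd.le 0 (D.a x)).trans (max_le (h.le.trans (D.sub x).2) ?_)
    rw [nv_apply, zero_sub, nnnorm_neg]
    exact (D.sub x).1
  exact absurd hI (not_lt.2 h1)

theorem inU_unique {u u' : D.U} (h : D.inU u d) (h' : D.inU u' d) : u = u' := by
  have h1 := (minV_of_inU hd h).unique hd (minV_of_inU hd h')
  refine D.dirU u u' h1 ?_
  have h2 : d (D.cU u') < ‖D.ρ (D.uv u)‖₊ := by rw [h1]; exact h'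
  exact (hd.ge _ _).trans_lt (max_lt h h2)

theorem inE_unique {e e' : D.E} (h : D.inE e d) (h' : D.inE e' d) : e = e' := by
  have h1 := (minV_of_inE hd h).unique hd (minV_of_inE hd h')
  refine D.dirE e e' h1 ?_
  have h2 : d (D.a (D.ch e')) < ‖D.ρ (D.pa e)‖₊ := by rw [h1]; exact h'.2
  exact (hd.ge _ _).trans_lt (max_lt h.2 h2)

theorem not_inU_inE {u : D.U} {e : D.E} (h : D.inU u d) (h' : D.inE e d) : False := by
  have h1 := (minV_of_inU hd h).unique hd (minV_of_inE hd h')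
  have h2 : d (D.a (D.ch e)) < ‖D.ρ (D.uv u)‖₊ := by rw [h1]; exact h'.2
  have h3 : nv C (D.a (D.ch e) - D.cU u) < ‖D.ρ (D.uv u)‖₊ :=
    (hd.ge _ _).trans_lt (max_lt h2 h)
  have h4 := D.dirV u _ h3
  rw [h1] at h4
  exact absurd (D.E_lt e) (not_lt.2 h4)

theorem not_inU_inI {u : D.U} (h : D.inU u d) (h' : D.inI d) : False :=
  not_inI_of_minV hd (minV_of_inU hd h) h'

theorem not_inE_inI {e : D.E} (h : D.inE e d) (h' : D.inI d) : False :=
  not_inI_of_minV hd (minV_of_inE hd h) h'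

theorem not_isV_inU {x : D.V} {u : D.U} (h : D.isV x d) (h' : D.inU u d) : False := by
  have h1 := (minV_of_isV hd h).unique hd (minV_of_inU hd h')
  subst h1
  exact absurd (h.2 _ (D.cU_le u)) (not_le.2 h')

theorem not_isV_inE {x : D.V} {e : D.E} (h : D.isV x d) (h' : D.inE e d) : False := by
  have h1 := (minV_of_isV hd h).unique hd (minV_of_inE hd h')
  subst h1
  exact absurd (h.2 _ (D.E_le e)) (not_le.2 h'.2)

theorem not_isV_inI {x : D.V} (h : D.isV x d) (h' : D.inI d) : False :=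
  not_inI_of_minV hd (minV_of_isV hd h) h'

theorem isV_unique {x x' : D.V} (h : D.isV x d) (h' : D.isV x' d) : x = x' :=
  (minV_of_isV hd h).unique hd (minV_of_isV hd h')

omit hd in
/-- a point of `C` is no vertex -/
theorem not_isV_point (y : C) {x : D.V} (h : D.isV x (fun b => nv C (b - y))) : False := by
  have h1 : ‖y - D.a x‖₊ ≤ ‖D.ρ x‖₊ := by
    have : nv C (D.a x - y) ≤ ‖D.ρ x‖₊ := h.1
    rw [nv_apply, ← nnnorm_neg, neg_sub] at this
    exact this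
  have h2 : ‖D.ρ x‖₊ ≤ nv C (y - y) := h.2 y h1
  rw [sub_self, map_zero] at h2
  exact D.ρ_ne x (nnnorm_eq_zero.1 (le_antisymm h2 (zero_le)))

end LineDec

end Crest.Agent.R013.LineDec_315
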