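import Mathlib
import Crest.Agent.R013.Conn4_315
import Crest.Agent.R013.Good2_408
import Crest.Agent.R013.Red6_332

/-!
# RED-PTS, part 5 (row 13): the order at a point of a cell, in the language of `SSK`

* `CellRing.exists_ord` : `f ≠ 0` is `(T - τ) ^ a g / (T - τ) ^ b h` with `g, h` nonzero at `τ`;
* `ordD`, `ordA` : the fields `ptD_ord`, `ptA_ord` of `SSK` for the places of `Pts3_315`.
-/

set_option autoImplicit false
set_option linter.style.haveILetI false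
set_option linter.unusedSectionVars false
set_option linter.unusedVariables false

open scoped NNReal
open WithZero

namespace Crest.Agent.R013.Pts5_315

open Crest.Agent.R013.Pts2_315 Crest.Agent.R013.Pts3_315 Crest.Agent.R013.Conn_315
open Crest.Agent.R013.Cell_408 (BD DiscNorm evp ev FinDef)
open Crest.Agent.R013.Comp_267 (FD)
open Crest.Agent.R013.EE809 Crest.Agent.R013.SSK_332 Crest.Agent.R013.Red332
open Crest.Agent.R013.RR7_948

section abs

variable {C B : Type*} [Field C] [CommRing B] [IsDomain B] [Algebra C B] {T : B} {S : Set C}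
  (H : CellRing T S) (F : Type*) [Field F] [Algebra B F] [IsFractionRing B F]
include H

/-- a nonzero element is a power of `T - τ` times an element which does not vanish at `τ` -/
theorem exists_pow_mul {τ : C} (hτ : τ ∈ S) {b : B} (hb : b ≠ 0) :
    ∃ (n : ℕ) (g : B), b = (T - algebraMap C B τ) ^ n * g ∧ ¬ (T - algebraMap C B τ) ∣ g := by
  haveI := H.isPID
  have hp : Prime (T - algebraMap C B τ) := by
    rw [← Ideal.span_singleton_prime (H.sub_ne_zero τ)]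
    exact (H.isMaximal hτ).isPrime
  obtain ⟨n, g, hg, e⟩ := WfDvdMonoid.max_power_factor hb hp.irreducible
  exact ⟨n, g, e, hg⟩

theorem exists_ord {τ : C} (hτ : τ ∈ S) {f : F} (hf : f ≠ 0) : ∃ (a b : ℕ) (g h : B),
    ¬ (T - algebraMap C B τ) ∣ g ∧ ¬ (T - algebraMap C B τ) ∣ h ∧
    f * algebraMap B F ((T - algebraMap C B τ) ^ b * h) =
      algebraMap B F ((T - algebraMap C B τ) ^ a * g) ∧
    H.vp F hτ f = exp ((b : ℤ) - a) := by
  obtain ⟨x, y, hy, rfl⟩ := IsFractionRing.div_surjective (A := B) f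
  have hy0 : y ≠ 0 := nonZeroDivisors.ne_zero hy
  have hx0 : x ≠ 0 := by
    rintro rfl
    rw [map_zero, zero_div] at hf
    exact hf rfl
  obtain ⟨a, g, ex, hg⟩ := exists_pow_mul H hτ hx0
  obtain ⟨b, h, ey, hh⟩ := exists_pow_mul H hτ hy0
  have hyF : algebraMap B F y ≠ 0 := by
    rw [Ne, map_eq_zero_iff _ (IsFractionRing.injective B F)]; exact hy0
  have hval : ∀ (n : ℕ) (g : B), ¬ (T - algebraMap C B τ) ∣ g →
      H.vp F hτ (algebraMap B F ((T - algebraMap C B τ) ^ n * g)) = exp (-(n : ℤ)) := by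
    intro n g hg
    rw [map_mul, map_pow, map_mul, map_pow, H.vp_T, (H.vp_eq_one_iff F hτ g).2 hg, mul_one,
      ← exp_nsmul]
    simp
  refine ⟨a, b, g, h, hg, hh, ?_, ?_⟩
  · rw [← ey, ← ex, div_mul_cancel₀ _ hyF]
  · rw [map_div₀, ex, ey, hval a g hg, hval b h hh, ← exp_sub]
    congr 1
    omega

end abs

variable {k C : Type*} [NontriviallyNormedField k] [CompleteSpace k] [IsUltrametricDist k]
  [NormedField C] [IsUltrametricDist C] [NormedAlgebra k C] [Algebra.IsAlgebraic k C]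
  [IsAlgClosed C] [hk : Fact (DiscNorm k)]

/-- order at a point of an open disc, in `EE k C` -/
theorem ordD {XB : BD k C} (H : CellRing XB {τ : C | ‖τ‖ < 1}) (hX : ofBD XB = (T 1 : EE k C))
    {τ : C} (hτ : ‖τ‖ < 1) {f : FD k C} (hf : f ≠ 0) :
    ∃ (a b : ℕ) (g h : EE k C), InD g ∧ InD h ∧ evE τ g ≠ 0 ∧ evE τ h ≠ 0 ∧
      toEE k C f * (lin τ ^ b * h) = lin τ ^ a * g ∧
      H.vp (FD k C) hτ f = exp ((b : ℤ) - a) := by
  obtain ⟨a, b, g, h, hg, hh, e, hv⟩ := exists_ord H (FD k C) hτ hf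
  have hlin : (lin τ : EE k C) = ofBD (XB - algebraMap C (BD k C) τ) := by
    rw [lin_eq_T, map_sub, hX, ofBD_algebraMap]
  have hX' : XB = Crest.Agent.R013.Pts4_315.XD k C := by
    apply ofBD_injective
    have h1 := lin_eq (k := k) (0 : C)
    rw [map_zero, sub_zero] at h1
    rw [hX, ← h1, lin_eq_T, map_zero, sub_zero]
  refine ⟨a, b, ofBD g, ofBD h, inD_iff.2 ⟨g, rfl⟩, inD_iff.2 ⟨h, rfl⟩, ?_, ?_, ?_, hv⟩
  · rw [evE_ofBD, Ne, ← ev_dvd_iff hk.out hτ, ← hX']; exact hg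
  · rw [evE_ofBD, Ne, ← ev_dvd_iff hk.out hτ, ← hX']; exact hh
  · have h1 := congrArg (toEE k C) e
    rw [map_mul, toEE_algebraMap, toEE_algebraMap, map_mul, map_mul, map_pow, map_pow,
      ← hlin] at h1
    exact h1

/-- order at a point of an open annulus, in `EE k C` -/
theorem ordA {c : C} (hc : c ≠ 0) (hc1 : ‖c‖ < 1) {A : Subalgebra C (EE k C)}
    (hA : ∀ a, a ∈ A ↔ SSK_332.InA c a) {F : Type*} [Field F] [Algebra A F] [IsFractionRing A F]
    (Φ : F →+* EE k C) (hΦ : ∀ a : A, Φ (algebraMap A F a) = a.1)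
    (H : CellRing (⟨T 1, T_mem_AN hA 1⟩ : A) {τ : C | ‖c‖ < ‖τ‖ ∧ ‖τ‖ < 1})
    {τ : C} (hτ : ‖c‖ < ‖τ‖ ∧ ‖τ‖ < 1) {f : F} (hf : f ≠ 0) :
    ∃ (a b : ℕ) (g h : EE k C), InA c g ∧ InA c h ∧ evE τ g ≠ 0 ∧ evE τ h ≠ 0 ∧
      Φ f * (lin τ ^ b * h) = lin τ ^ a * g ∧
      H.vp F hτ f = exp ((b : ℤ) - a) := by
  obtain ⟨a, b, g, h, hg, hh, e, hv⟩ := exists_ord H F hτ hf
  refine ⟨a, b, g.1, h.1, (hA _).1 g.2, (hA _).1 h.2, ?_, ?_, ?_, hv⟩
  · rw [Ne, ← dvd_AN_iff hc hc1 hA hτ.1 hτ.2]; exact hg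
  · rw [Ne, ← dvd_AN_iff hc hc1 hA hτ.1 hτ.2]; exact hh
  · have h1 := congrArg Φ e
    rw [map_mul, hΦ, hΦ] at h1
    have h2 : ∀ (n : ℕ) (x : A), ((((⟨T 1, T_mem_AN hA 1⟩ : A) - algebraMap C A τ) ^ n * x : A) :
        EE k C) = lin τ ^ n * x.1 := by
      intro n x
      rw [lin_eq_T]
      rfl
    rw [h2, h2] at h1
    exact h1

end Crest.Agent.R013.Pts5_315
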