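import Crest.Agent.R013.EE2_809

/-!
# Row 13, leaf SS-AN (helper809), file 3: `C`-algebra structure, `BD → EE`, radii, `EE` is a field,
the subfield `Ep` of overconvergent elements
-/

set_option autoImplicit false
set_option linter.unusedSectionVars false
open Filter Topology
open Crest.Agent.R013.Cell_408 (FinDef DiscNorm exists_max BD)

namespace Crest.Agent.R013.EE809

variable {k : Type*} [NontriviallyNormedField k] [CompleteSpace k]
variable {C : Type*} [NormedField C] [IsUltrametricDist C] [NormedAlgebra k C]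

/-! ### monomials, constants -/

theorem mono_mul_mono (n m : ℤ) (c d : C) (hc : FinDef k (fun _ : Unit => c))
    (hd : FinDef k (fun _ : Unit => d)) (hcd : FinDef k (fun _ : Unit => c * d)) :
    (mono n c hc * mono m d hd : EE k C) = mono (n + m) (c * d) hcd := by
  ext i
  rw [co_mono_mul, co_mono, co_mono]
  by_cases h : i = n + m
  · rw [if_pos h, if_pos (by omega)]
  · rw [if_neg h, if_neg (by omega), mul_zero]

section Alg

variable [Algebra.IsAlgebraic k C]

/-- the monomial `c T^n` -/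
noncomputable def mo (n : ℤ) (c : C) : EE k C := mono n c (finDef_const c)

@[simp] theorem co_mo (n : ℤ) (c : C) (m : ℤ) : (mo n c : EE k C).co m = if m = n then c else 0 := rfl

theorem co_mo_mul (n : ℤ) (c : C) (a : EE k C) (m : ℤ) : (mo n c * a).co m = c * a.co (m - n) :=
  co_mono_mul _ _ _ _ _

theorem mo_mul_mo (n m : ℤ) (c d : C) : (mo n c * mo m d : EE k C) = mo (n + m) (c * d) :=
  mono_mul_mono _ _ _ _ _ _ _

@[simp] theorem gn_mo (n : ℤ) (c : C) : gn (mo n c : EE k C) = ‖c‖ := gn_mono _ _ _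

theorem mo_zero_one : (mo 0 1 : EE k C) = 1 := rfl

theorem mo_zero (n : ℤ) : (mo n 0 : EE k C) = 0 := by ext m; simp

theorem mo_add (n : ℤ) (c d : C) : (mo n (c + d) : EE k C) = mo n c + mo n d := by
  ext m
  rw [co_add, co_mo, co_mo, co_mo]
  split_ifs
  · rfl
  · rw [add_zero]

/-- constants -/
noncomputable def constHom (k C : Type*) [NontriviallyNormedField k] [CompleteSpace k] [NormedField C]
    [IsUltrametricDist C] [NormedAlgebra k C] [Algebra.IsAlgebraic k C] : C →+* EE k C where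
  toFun c := mo 0 c
  map_one' := rfl
  map_mul' c d := by rw [mo_mul_mo, add_zero]
  map_zero' := mo_zero 0
  map_add' := mo_add 0

noncomputable instance : Algebra C (EE k C) := (constHom k C).toAlgebra

theorem algebraMap_eq (c : C) : algebraMap C (EE k C) c = mo 0 c := rfl

theorem co_algebraMap (c : C) (n : ℤ) : (algebraMap C (EE k C) c).co n = if n = 0 then c else 0 := rfl

@[simp] theorem co_smul (c : C) (a : EE k C) (n : ℤ) : (c • a).co n = c * a.co n := by
  rw [Algebra.smul_def, algebraMap_eq, co_mo_mul, sub_zero]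

@[simp] theorem gn_algebraMap (c : C) : gn (algebraMap C (EE k C) c) = ‖c‖ := gn_mo _ _

instance : Nontrivial (EE k C) := ⟨⟨0, 1, fun h => by
  have := congrArg gn h
  rw [gn_zero, gn_one] at this
  exact zero_ne_one this⟩⟩

/-- the variable to the power `n` -/
noncomputable def T (n : ℤ) : EE k C := mo n 1

theorem T_mul_T (m n : ℤ) : (T m * T n : EE k C) = T (m + n) := by
  rw [T, T, mo_mul_mo, one_mul, T]

theorem T_zero : (T 0 : EE k C) = 1 := rfl

theorem mo_eq (n : ℤ) (c : C) : (mo n c : EE k C) = algebraMap C (EE k C) c * T n := by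
  rw [algebraMap_eq, T, mo_mul_mo, zero_add, mul_one]

theorem co_T_mul (n : ℤ) (a : EE k C) (m : ℤ) : (T n * a).co m = a.co (m - n) := by
  rw [T, co_mo_mul, one_mul]

/-! ### power series -/

/-- extension of a power series by zero -/
noncomputable def psFun (f : PowerSeries C) (n : ℤ) : C :=
  if 0 ≤ n then PowerSeries.coeff n.toNat f else 0

omit [IsUltrametricDist C] [NormedAlgebra k C] [NontriviallyNormedField k] [CompleteSpace k] [Algebra.IsAlgebraic k C] in
theorem psFun_nat (f : PowerSeries C) (n : ℕ) : psFun f (n : ℤ) = PowerSeries.coeff n f := by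
  rw [psFun, if_pos (by omega), Int.toNat_natCast]

theorem psFun_neg (f : PowerSeries C) {n : ℤ} (hn : n < 0) : psFun f n = 0 := by
  rw [psFun, if_neg (by omega)]

/-- the element of `EE` given by a bounded power series -/
noncomputable def ofBDfun (f : BD k C) : EE k C :=
  mk' (psFun f.1)
    (by
      obtain ⟨L, hL, h⟩ := f.2.1
      refine ⟨L, hL, fun n => ?_⟩
      unfold psFun
      split_ifs
      · exact h _
      · exact zero_mem L)
    (by
      obtain ⟨M, hM⟩ := f.2.2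
      refine ⟨max M 0, fun n => ?_⟩
      unfold psFun
      split_ifs
      · exact (hM _).trans (le_max_left _ _)
      · rw [norm_zero]; exact le_max_right _ _)
    (by
      refine tendsto_const_nhds.congr' ?_
      filter_upwards [eventually_lt_atBot 0] with n hn
      rw [psFun_neg _ hn])

theorem co_ofBDfun (f : BD k C) (n : ℤ) : (ofBDfun f).co n = psFun f.1 n := rfl

/-- `BD k C → EE k C` -/
noncomputable def ofBD : BD k C →+* EE k C where
  toFun := ofBDfun
  map_one' := by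
    ext n
    rw [co_ofBDfun, co_one]
    rcases lt_or_ge n 0 with h | h
    · rw [psFun_neg _ h, if_neg h.ne]
    · obtain ⟨m, rfl⟩ := Int.eq_ofNat_of_zero_le h
      rw [psFun_nat, OneMemClass.coe_one, PowerSeries.coeff_one]
      simp
  map_zero' := by
    ext n
    rw [co_ofBDfun, co_zero, psFun]
    split_ifs <;> simp
  map_add' f g := by
    ext n
    rw [co_add, co_ofBDfun, co_ofBDfun, co_ofBDfun, psFun, psFun, psFun]
    split_ifs
    · rw [AddMemClass.coe_add, map_add]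
    · rw [add_zero]
  map_mul' f g := by
    ext n
    rw [co_mul, co_ofBDfun]
    simp only [co_ofBDfun]
    rcases lt_or_ge n 0 with h | h
    · rw [psFun_neg _ h]
      have h0 : ∀ i : ℤ, psFun f.1 i * psFun g.1 (n - i) = 0 := by
        intro i
        rcases lt_or_ge i 0 with h1 | h1
        · rw [psFun_neg _ h1, zero_mul]
        · rw [psFun_neg _ (show n - i < 0 by omega), mul_zero]
      simp only [h0, tsum_zero]
    · obtain ⟨m, rfl⟩ := Int.eq_ofNat_of_zero_le h
      rw [psFun_nat, MulMemClass.coe_mul, PowerSeries.coeff_mul,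
        Finset.Nat.sum_antidiagonal_eq_sum_range_succ_mk,
        tsum_eq_sum (s := (Finset.range m.succ).map Nat.castEmbedding), Finset.sum_map]
      · refine Finset.sum_congr rfl fun i hi => ?_
        have hi' : i ≤ m := Nat.lt_succ_iff.1 (Finset.mem_range.1 hi)
        rw [Nat.castEmbedding_apply, psFun_nat, ← Nat.cast_sub hi', psFun_nat]
      · intro i hi
        rcases lt_or_ge i 0 with h1 | h1
        · rw [psFun_neg _ h1, zero_mul]
        · obtain ⟨j, rfl⟩ := Int.eq_ofNat_of_zero_le h1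
          have h2 : m < j := by
            by_contra hle
            apply hi
            rw [Finset.mem_map]
            exact ⟨j, Finset.mem_range.2 (by omega), rfl⟩
          rw [psFun_neg _ (show (m : ℤ) - j < 0 by omega), mul_zero]

theorem co_ofBD (f : BD k C) (n : ℤ) : (ofBD f).co n = psFun f.1 n := rfl

theorem co_ofBD_nat (f : BD k C) (n : ℕ) : (ofBD f).co (n : ℤ) = PowerSeries.coeff n f.1 :=
  psFun_nat _ _

theorem co_ofBD_neg (f : BD k C) {n : ℤ} (hn : n < 0) : (ofBD f).co n = 0 := psFun_neg _ hn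

theorem ofBD_injective : Function.Injective (ofBD : BD k C → EE k C) := by
  intro f g h
  apply Subtype.ext
  ext n
  have := congrArg (fun a : EE k C => a.co (n : ℤ)) h
  simpa only [co_ofBD_nat] using this

theorem ofBD_algebraMap (c : C) : ofBD (algebraMap C (BD k C) c) = algebraMap C (EE k C) c := by
  ext n
  rw [co_ofBD, co_algebraMap]
  rcases lt_or_ge n 0 with h | h
  · rw [psFun_neg _ h, if_neg h.ne]
  · obtain ⟨m, rfl⟩ := Int.eq_ofNat_of_zero_le h
    rw [psFun_nat]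
    have : ((algebraMap C (BD k C) c : BD k C) : PowerSeries C) = PowerSeries.C c := rfl
    rw [this, PowerSeries.coeff_C]
    simp

/-- the nonnegative part -/
noncomputable def posPart (a : EE k C) : BD k C :=
  ⟨PowerSeries.mk fun n => a.co n, by
    obtain ⟨L, hL, h⟩ := a.fd
    obtain ⟨M, hM⟩ := a.bd
    refine ⟨⟨L, hL, fun n => ?_⟩, M, fun n => ?_⟩
    · dsimp only
      rw [PowerSeries.coeff_mk]; exact h _
    · rw [PowerSeries.coeff_mk]; exact hM _⟩

theorem coeff_posPart (a : EE k C) (n : ℕ) : PowerSeries.coeff n (posPart a).1 = a.co n := by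
  show PowerSeries.coeff n (PowerSeries.mk fun n : ℕ => a.co n) = a.co n
  rw [PowerSeries.coeff_mk]

theorem co_ofBD_posPart (a : EE k C) (n : ℤ) :
    (ofBD (posPart a)).co n = if 0 ≤ n then a.co n else 0 := by
  rcases lt_or_ge n 0 with h | h
  · rw [co_ofBD_neg _ h, if_neg (by omega)]
  · obtain ⟨m, rfl⟩ := Int.eq_ofNat_of_zero_le h
    rw [co_ofBD_nat, coeff_posPart, if_pos h]

end Alg

/-! ### radii -/

/-- the norm at radius `ρ` is at most `M` -/
def Bdd (ρ M : ℝ) (a : EE k C) : Prop := ∀ n, ‖a.co n‖ * ρ ^ n ≤ M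

theorem bdd_one_iff {M : ℝ} {a : EE k C} : Bdd 1 M a ↔ gn a ≤ M := by
  constructor
  · intro h
    refine gn_le fun n => ?_
    have := h n
    rwa [one_zpow, mul_one] at this
  · intro h n
    rw [one_zpow, mul_one]
    exact (le_gn a n).trans h

theorem Bdd.le {ρ M M' : ℝ} {a : EE k C} (h : Bdd ρ M a) (hM : M ≤ M') : Bdd ρ M' a :=
  fun n => (h n).trans hM

theorem Bdd.nonneg {ρ M : ℝ} (hρ : 0 < ρ) {a : EE k C} (h : Bdd ρ M a) : 0 ≤ M :=
  (mul_nonneg (norm_nonneg _) (zpow_nonneg hρ.le 0)).trans (h 0)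

theorem Bdd.add {ρ M : ℝ} (hρ : 0 < ρ) {a b : EE k C} (ha : Bdd ρ M a) (hb : Bdd ρ M b) :
    Bdd ρ M (a + b) := by
  intro n
  rw [co_add]
  have h0 : 0 ≤ ρ ^ n := zpow_nonneg hρ.le n
  calc ‖a.co n + b.co n‖ * ρ ^ n ≤ max ‖a.co n‖ ‖b.co n‖ * ρ ^ n :=
        mul_le_mul_of_nonneg_right (IsUltrametricDist.norm_add_le_max _ _) h0
    _ = max (‖a.co n‖ * ρ ^ n) (‖b.co n‖ * ρ ^ n) := max_mul_of_nonneg _ _ h0
    _ ≤ M := max_le (ha n) (hb n)

theorem Bdd.neg {ρ M : ℝ} {a : EE k C} (ha : Bdd ρ M a) : Bdd ρ M (-a) := by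
  intro n
  rw [co_neg, norm_neg]
  exact ha n

theorem Bdd.sub {ρ M : ℝ} (hρ : 0 < ρ) {a b : EE k C} (ha : Bdd ρ M a) (hb : Bdd ρ M b) :
    Bdd ρ M (a - b) := by
  rw [sub_eq_add_neg]; exact ha.add hρ hb.neg

theorem Bdd.zero {ρ M : ℝ} (hM : 0 ≤ M) : Bdd ρ M (0 : EE k C) := by
  intro n
  rw [co_zero, norm_zero, zero_mul]
  exact hM

theorem Bdd.sum {ι : Type*} {ρ M : ℝ} (hρ : 0 < ρ) (hM : 0 ≤ M) (s : Finset ι) {f : ι → EE k C}
    (h : ∀ i ∈ s, Bdd ρ M (f i)) : Bdd ρ M (∑ i ∈ s, f i) := by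
  classical
  induction s using Finset.induction_on with
  | empty => rw [Finset.sum_empty]; exact Bdd.zero hM
  | insert i s hi ih =>
    rw [Finset.sum_insert hi]
    exact (h _ (Finset.mem_insert_self _ _)).add hρ (ih fun j hj => h _ (Finset.mem_insert_of_mem hj))

theorem Bdd.mul {ρ M N : ℝ} (hρ : 0 < ρ) {a b : EE k C} (ha : Bdd ρ M a) (hb : Bdd ρ N b) :
    Bdd ρ (M * N) (a * b) := by
  intro n
  have hM := ha.nonneg hρ
  have hN := hb.nonneg hρ
  have h0 : 0 < ρ ^ n := zpow_pos hρ n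
  rw [← le_div_iff₀ h0, co_mul]
  refine IsUltrametricDist.norm_tsum_le_of_forall_le_of_nonneg (by positivity) fun i => ?_
  rw [le_div_iff₀ h0, norm_mul]
  have h1 : ρ ^ n = ρ ^ i * ρ ^ (n - i) := by
    rw [← zpow_add₀ hρ.ne']; congr 1; ring
  rw [h1]
  calc ‖a.co i‖ * ‖b.co (n - i)‖ * (ρ ^ i * ρ ^ (n - i))
      = (‖a.co i‖ * ρ ^ i) * (‖b.co (n - i)‖ * ρ ^ (n - i)) := by ring
    _ ≤ M * N := mul_le_mul (ha i) (hb _)
        (mul_nonneg (norm_nonneg _) (zpow_nonneg hρ.le _)) hM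

theorem Bdd.one {ρ : ℝ} : Bdd ρ 1 (1 : EE k C) := by
  intro n
  rw [co_one]
  split_ifs with h
  · rw [h]; simp
  · simp

theorem Bdd.pow {ρ M : ℝ} (hρ : 0 < ρ) {a : EE k C} (ha : Bdd ρ M a) (n : ℕ) :
    Bdd ρ (M ^ n) (a ^ n) := by
  induction n with
  | zero => rw [pow_zero, pow_zero]; exact Bdd.one
  | succ n ih => rw [pow_succ, pow_succ]; exact ih.mul hρ ha

theorem Bdd.mono {ρ : ℝ} (hρ : 0 < ρ) (n : ℤ) (c : C) (hc : FinDef k (fun _ : Unit => c)) :
    Bdd ρ (‖c‖ * ρ ^ n) (mono n c hc : EE k C) := by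
  intro m
  rw [co_mono]
  split_ifs with h
  · rw [h]
  · rw [norm_zero, zero_mul]
    exact mul_nonneg (norm_nonneg _) (zpow_nonneg hρ.le _)

/-- interpolation between two radii -/
theorem Bdd.interp {ρ ρ' M : ℝ} (hρ : 0 < ρ) (h1 : ρ ≤ ρ') (h2 : ρ' ≤ 1) {a : EE k C}
    (ha : Bdd ρ M a) (ha1 : Bdd 1 M a) : Bdd ρ' M a := by
  intro n
  rcases le_or_gt 0 n with h | h
  · have h3 := ha1 n
    rw [one_zpow, mul_one] at h3
    refine le_trans ?_ h3
    refine mul_le_of_le_one_right (norm_nonneg _) ?_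
    obtain ⟨m, rfl⟩ := Int.eq_ofNat_of_zero_le h
    rw [zpow_natCast]
    exact pow_le_one₀ (hρ.le.trans h1) h2
  · refine le_trans ?_ (ha n)
    refine mul_le_mul_of_nonneg_left ?_ (norm_nonneg _)
    obtain ⟨m, hm⟩ := Int.eq_ofNat_of_zero_le (show 0 ≤ -n by omega)
    have hn : n = -(m : ℤ) := by omega
    rw [hn, zpow_neg, zpow_neg, zpow_natCast, zpow_natCast]
    exact inv_anti₀ (pow_pos hρ m) (pow_le_pow_left₀ hρ.le h1 m)

/-- a strict bound at radius one holds near radius one -/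
theorem Bdd.shrink {ρ M r : ℝ} (hρ : 0 < ρ) (hρ1 : ρ < 1) {a : EE k C} (ha : Bdd ρ M a)
    (hr : gn a < r) : ∃ ρ', ρ < ρ' ∧ ρ' < 1 ∧ Bdd ρ' r a := by
  have hr0 : 0 < r := (gn_nonneg a).trans_lt hr
  have hM : 0 ≤ M := ha.nonneg hρ
  -- a radius where the far tail is small
  obtain ⟨s, hs1, hs2⟩ := exists_between hρ1
  have hs0 : 0 < s := hρ.trans hs1
  obtain ⟨K, hK⟩ := exists_pow_lt_of_lt_one (x := r / (M + 1)) (y := ρ / s) (by positivity)
    ((div_lt_one hs0).2 hs1)
  -- ρ' with ρ' ^ K * r ≥ gn a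
  have hlim : Tendsto (fun t : ℝ => r * t ^ K) (𝓝[<] 1) (𝓝 (r * 1 ^ K)) :=
    ((continuous_const.mul (continuous_pow K)).tendsto 1).mono_left nhdsWithin_le_nhds
  have h3 : ∀ᶠ t : ℝ in 𝓝[<] 1, gn a < r * t ^ K :=
    hlim.eventually_const_lt (by simpa using hr)
  have h4 : ∀ᶠ t : ℝ in 𝓝[<] 1, t ∈ Set.Ioo s 1 := Ioo_mem_nhdsLT hs2
  obtain ⟨ρ', h5, h6, h7⟩ := (h3.and h4).exists
  have hρ'0 : 0 < ρ' := hs0.trans h6
  refine ⟨ρ', hs1.trans h6, h7, fun n => ?_⟩
  rcases le_or_gt 0 n with h | h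
  · refine le_trans ?_ ((le_gn a n).trans hr.le)
    refine mul_le_of_le_one_right (norm_nonneg _) ?_
    obtain ⟨m, rfl⟩ := Int.eq_ofNat_of_zero_le h
    rw [zpow_natCast]
    exact pow_le_one₀ hρ'0.le h7.le
  · obtain ⟨m, hm⟩ := Int.eq_ofNat_of_zero_le (show 0 ≤ -n by omega)
    have hn : n = -(m : ℤ) := by omega
    rcases le_or_gt m K with hmK | hmK
    · rw [hn, zpow_neg, zpow_natCast, ← div_eq_mul_inv, div_le_iff₀ (pow_pos hρ'0 m)]
      refine (le_gn a _).trans (h5.le.trans ?_)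
      exact mul_le_mul_of_nonneg_left (pow_le_pow_of_le_one hρ'0.le h7.le hmK) hr0.le
    · have h8 := ha n
      rw [hn, zpow_neg, zpow_natCast, ← div_eq_mul_inv, div_le_iff₀ (pow_pos hρ m)] at h8
      rw [hn, zpow_neg, zpow_natCast, ← div_eq_mul_inv, div_le_iff₀ (pow_pos hρ'0 m)]
      refine h8.trans ?_
      have h9 : (ρ / s) ^ m < r / (M + 1) :=
        lt_of_le_of_lt (pow_le_pow_of_le_one (by positivity) ((div_lt_one hs0).2 hs1).le hmK.le) hK
      have h10 : ρ ^ m = (ρ / s) ^ m * s ^ m := by rw [div_pow]; field_simp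
      rw [h10]
      calc M * ((ρ / s) ^ m * s ^ m) ≤ M * (r / (M + 1) * s ^ m) := by gcongr
        _ = (M / (M + 1)) * (r * s ^ m) := by ring
        _ ≤ 1 * (r * s ^ m) := by
            refine mul_le_mul_of_nonneg_right ?_ (by positivity)
            rw [div_le_one (by positivity)]; linarith
        _ ≤ r * ρ' ^ m := by
            rw [one_mul]
            exact mul_le_mul_of_nonneg_left (pow_le_pow_left₀ hs0.le h6.le m) hr0.le

/-- bounds pass to limits -/
theorem Bdd.limit {ρ M : ℝ} (hρ : 0 < ρ) {S : EE k C} {s : ℕ → EE k C} {r : ℕ → ℝ}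
    (hr : Tendsto r atTop (𝓝 0)) (h1 : ∀ m, gn (S - s m) ≤ r m) (h2 : ∀ m, Bdd ρ M (s m)) :
    Bdd ρ M S := by
  intro n
  have hM := (h2 0).nonneg hρ
  have h3 : Tendsto (fun m => max (r m * ρ ^ n) M) atTop (𝓝 (max (0 * ρ ^ n) M)) :=
    (hr.mul_const _).max tendsto_const_nhds
  rw [zero_mul, max_eq_right hM] at h3
  refine ge_of_tendsto' h3 fun m => ?_
  have h0 : 0 ≤ ρ ^ n := zpow_nonneg hρ.le n
  have h4 : S.co n = (S - s m).co n + (s m).co n := by rw [co_sub]; ring
  rw [h4]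
  calc ‖(S - s m).co n + (s m).co n‖ * ρ ^ n
      ≤ max ‖(S - s m).co n‖ ‖(s m).co n‖ * ρ ^ n :=
        mul_le_mul_of_nonneg_right (IsUltrametricDist.norm_add_le_max _ _) h0
    _ = max (‖(S - s m).co n‖ * ρ ^ n) (‖(s m).co n‖ * ρ ^ n) := max_mul_of_nonneg _ _ h0
    _ ≤ max (r m * ρ ^ n) M := max_le_max
        (mul_le_mul_of_nonneg_right ((le_gn _ _).trans (h1 m)) h0) (h2 m n)

theorem Bdd.ofBD [Algebra.IsAlgebraic k C] {ρ M : ℝ} (hρ : 0 < ρ) (hρ1 : ρ ≤ 1) (hM : 0 ≤ M) (f : BD k C)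
    (h : ∀ n, ‖PowerSeries.coeff n f.1‖ ≤ M) : Bdd ρ M (ofBD f) := by
  intro n
  rcases lt_or_ge n 0 with h1 | h1
  · rw [co_ofBD_neg _ h1, norm_zero, zero_mul]; exact hM
  · obtain ⟨m, rfl⟩ := Int.eq_ofNat_of_zero_le h1
    rw [co_ofBD_nat, zpow_natCast]
    exact (mul_le_of_le_one_right (norm_nonneg _) (pow_le_one₀ hρ.le hρ1)).trans (h m)

end Crest.Agent.R013.EE809
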