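import Mathlib
import Crest.Agent.R013.SSDefs_332
import Crest.Agent.R013.Red9_332
import Crest.Agent.R013.EE3_809

/-!
# R013 / Red11: from a family of cells of `K` to the structure `SSK` (helper332)
-/

set_option autoImplicit false
set_option linter.all false

namespace Crest.Agent.R013.SSK_332

open scoped NNReal
open WithZero
open Crest.Agent.R013.RR7_948 Crest.Agent.R013.Red332
open Crest.Agent.R013.EE809

/-- cells of `K`: discs `KD` and annuli `KA`, whose ends are exactly the ends at the norms in `N` -/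
structure KCells (k C K : Type*) [NontriviallyNormedField k] [CompleteSpace k]
    [NormedField C] [IsUltrametricDist C] [IsAlgClosed C] [NormedAlgebra k C]
    [Algebra.IsAlgebraic k C] [Field K] [Algebra C K] where
  /-- the vertex norms -/
  N : Set (Nm C K)
  N_fin : N.Finite
  N_ff : ∀ w ∈ N, FF w
  /-- discs -/
  KD : Type*
  ioD : KD → K →ₐ[C] EE k C
  ioD_disc : ∀ a f, ∃ g h : EE k C, h ≠ 0 ∧ InD g ∧ InD h ∧ ioD a f * h = g
  endD : KD → End C K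
  endD_gn : ∀ a f, gn (ioD a f) = (endD a).1.v f
  endD_od : ∀ a f, f ≠ 0 → EE809.od (ioD a f) = Red332.od (endD a).1 (endD a).2 f
  /-- annuli -/
  KA : Type*
  KA_fin : Finite KA
  cA : KA → C
  cA_ne : ∀ a, cA a ≠ 0
  cA_lt : ∀ a, ‖cA a‖ < 1
  io0 : KA → K →ₐ[C] EE k C
  io1 : KA → K →ₐ[C] EE k C
  io_ann : ∀ a f, ∃ g h g' h' : EE k C, h ≠ 0 ∧ InA (cA a) g ∧ InA (cA a) h ∧
    Flip (cA a) g g' ∧ Flip (cA a) h h' ∧ io0 a f * h = g ∧ io1 a f * h' = g'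
  end0 : KA → End C K
  end0_gn : ∀ a f, gn (io0 a f) = (end0 a).1.v f
  end0_od : ∀ a f, f ≠ 0 → EE809.od (io0 a f) = Red332.od (end0 a).1 (end0 a).2 f
  end1 : KA → End C K
  end1_gn : ∀ a f, gn (io1 a f) = (end1 a).1.v f
  end1_od : ∀ a f, f ≠ 0 → EE809.od (io1 a f) = Red332.od (end1 a).1 (end1 a).2 f
  /-- the ends of the cells are exactly the ends at `N` -/
  inj : Function.Injective (Sum.elim endD (Sum.elim end0 end1))
  surj : ∀ s : End C K, s.1 ∈ N ↔ ∃ a, s = Sum.elim endD (Sum.elim end0 end1) a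
  /-- points of discs -/
  ptD : KD → ∀ τ : C, ‖τ‖ < 1 → Pl C K
  ptA : ∀ a : KA, ∀ τ : C, ‖cA a‖ < ‖τ‖ → ‖τ‖ < 1 → Pl C K
  ptD_ord : ∀ a τ hτ (f : K), f ≠ 0 → ∃ (n m : ℕ) (g h : EE k C), InD g ∧ InD h ∧
    evE τ g ≠ 0 ∧ evE τ h ≠ 0 ∧ ioD a f * (lin τ ^ m * h) = lin τ ^ n * g ∧
    (ptD a τ hτ).v f = exp ((m : ℤ) - n)
  ptA_ord : ∀ a τ h0 h1 (f : K), f ≠ 0 → ∃ (n m : ℕ) (g h : EE k C), InA (cA a) g ∧ InA (cA a) h ∧
    evE τ g ≠ 0 ∧ evE τ h ≠ 0 ∧ io0 a f * (lin τ ^ m * h) = lin τ ^ n * g ∧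
    (ptA a τ h0 h1).v f = exp ((m : ℤ) - n)
  pt_surj : ∀ P : Pl C K, (∃ a τ hτ, P = ptD a τ hτ) ∨ ∃ a τ h0 h1, P = ptA a τ h0 h1
  ptD_inj : ∀ a τ hτ a' τ' hτ', ptD a τ hτ = ptD a' τ' hτ' → a = a' ∧ τ = τ'
  ptA_inj : ∀ a τ h0 h1 a' τ' h0' h1', ptA a τ h0 h1 = ptA a' τ' h0' h1' → a = a' ∧ τ = τ'
  ptDA : ∀ a τ hτ a' τ' h0' h1', ptD a τ hτ ≠ ptA a' τ' h0' h1'

section

variable {k C K : Type*} [NontriviallyNormedField k] [CompleteSpace k]
    [NormedField C] [IsUltrametricDist C] [IsAlgClosed C] [NormedAlgebra k C]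
    [Algebra.IsAlgebraic k C] [Field K] [Algebra C K]

/-- **the semistable structure of a family of cells** -/
theorem KCells.exists_SSK (Z : KCells k C K) : ∃ S : SSK k C K,
    (∀ w : Nm C K, w ∈ Z.N ↔ ∃ v, S.nm v = w) ∧
    (∀ d : S.Dir, S.IsDisc d → ∃ a, Z.endD a = ⟨S.nm d.1, d.2⟩ ∧ S.em d = (Z.ioD a : K →+* EE k C)) ∧
    ∃ q : S.Ed ≃ Z.KA, ∀ e, S.cc e = Z.cA (q e) ∧
      Z.end0 (q e) = ⟨S.nm (S.e0 e).1, (S.e0 e).2⟩ ∧ Z.end1 (q e) = ⟨S.nm (S.e1 e).1, (S.e1 e).2⟩ ∧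
      S.em (S.e0 e) = (Z.io0 (q e) : K →+* EE k C) ∧ S.em (S.e1 e) = (Z.io1 (q e) : K →+* EE k C) := by
  classical
  haveI := Z.N_fin.to_subtype
  haveI := Z.KA_fin
  obtain ⟨n, ⟨eN⟩⟩ := Finite.exists_equiv_fin Z.N
  obtain ⟨m, ⟨eA⟩⟩ := Finite.exists_equiv_fin Z.KA
  let nm : Fin n → Nm C K := fun v => (eN.symm v).1
  have nm_inj : Function.Injective nm := fun a b h => eN.symm.injective (Subtype.ext h)
  have nm_mem : ∀ v, nm v ∈ Z.N := fun v => (eN.symm v).2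
  let sD : (Σ v, Pl (Ct C) (kap (nm v))) → End C K := fun d => ⟨nm d.1, d.2⟩
  have sD_inj : Function.Injective sD := by
    rintro ⟨v, x⟩ ⟨v', x'⟩ h
    simp only [sD, Sigma.mk.injEq] at h
    obtain ⟨h1, h2⟩ := h
    have := nm_inj h1
    subst this
    rw [eq_of_heq h2]
  have sD_surj : ∀ s : End C K, s.1 ∈ Z.N → ∃ d, sD d = s := by
    have key : ∀ (v : Fin n) (w : Nm C K) (h : nm v = w) (x : Pl (Ct C) (kap w)),
        ∃ d, sD d = ⟨w, x⟩ := by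
      rintro v _ rfl x
      exact ⟨⟨v, x⟩, rfl⟩
    rintro ⟨w, x⟩ hw
    exact key (eN ⟨w, hw⟩) w (by simp only [nm, Equiv.symm_apply_apply]) x
  have sD_mem : ∀ d, (sD d).1 ∈ Z.N := fun d => nm_mem _
  let T := Sum.elim Z.endD (Sum.elim Z.end0 Z.end1)
  have hT : ∀ d, ∃ a, T a = sD d := fun d => by
    obtain ⟨a, ha⟩ := (Z.surj (sD d)).1 (sD_mem d)
    exact ⟨a, ha.symm⟩
  choose τ hτ using hT
  have hτu : ∀ d a, T a = sD d → τ d = a := fun d a h => Z.inj ((hτ d).trans h.symm)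
  have h0m : ∀ a, (Z.end0 a).1 ∈ Z.N := fun a => (Z.surj _).2 ⟨Sum.inr (Sum.inl a), rfl⟩
  have h1m : ∀ a, (Z.end1 a).1 ∈ Z.N := fun a => (Z.surj _).2 ⟨Sum.inr (Sum.inr a), rfl⟩
  choose d0 hd0 using fun a => sD_surj (Z.end0 a) (h0m a)
  choose d1 hd1 using fun a => sD_surj (Z.end1 a) (h1m a)
  have hτ0 : ∀ a, τ (d0 a) = Sum.inr (Sum.inl a) := fun a => hτu _ _ (hd0 a).symm
  have hτ1 : ∀ a, τ (d1 a) = Sum.inr (Sum.inr a) := fun a => hτu _ _ (hd1 a).symm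
  let io : Z.KD ⊕ (Z.KA ⊕ Z.KA) → K →ₐ[C] EE k C := Sum.elim Z.ioD (Sum.elim Z.io0 Z.io1)
  have io_gn : ∀ a f, gn (io a f) = (T a).1.v f := by
    rintro (a | a | a) f
    · exact Z.endD_gn a f
    · exact Z.end0_gn a f
    · exact Z.end1_gn a f
  have io_od : ∀ a f, f ≠ 0 → EE809.od (io a f) = Red332.od (T a).1 (T a).2 f := by
    rintro (a | a | a) f
    · exact Z.endD_od a f
    · exact Z.end0_od a f
    · exact Z.end1_od a f
  -- discs
  have hdisc : ∀ d, (∀ e : Fin m, d ≠ d0 (eA.symm e)) → (∀ e : Fin m, d ≠ d1 (eA.symm e)) →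
      ∃ a, τ d = Sum.inl a := by
    intro d h0 h1
    rcases hd : τ d with a | a | a
    · exact ⟨a, rfl⟩
    · exfalso
      apply h0 (eA a)
      rw [Equiv.symm_apply_apply]
      apply sD_inj
      rw [hd0, ← hτ d, hd]
      rfl
    · exfalso
      apply h1 (eA a)
      rw [Equiv.symm_apply_apply]
      apply sD_inj
      rw [hd1, ← hτ d, hd]
      rfl
  have hnd0 : ∀ d a, τ d = Sum.inl a → ∀ e : Fin m, d ≠ d0 (eA.symm e) := by
    rintro d a h e rfl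
    rw [hτ0] at h
    cases h
  have hnd1 : ∀ d a, τ d = Sum.inl a → ∀ e : Fin m, d ≠ d1 (eA.symm e) := by
    rintro d a h e rfl
    rw [hτ1] at h
    cases h
  let dsc : ∀ d, (∀ e : Fin m, d ≠ d0 (eA.symm e)) → (∀ e : Fin m, d ≠ d1 (eA.symm e)) → Z.KD :=
    fun d h0 h1 => (hdisc d h0 h1).choose
  have hdsc : ∀ d h0 h1, τ d = Sum.inl (dsc d h0 h1) := fun d h0 h1 => (hdisc d h0 h1).choose_spec
  have hendD : ∀ d h0 h1, Z.endD (dsc d h0 h1) = sD d := by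
    intro d h0 h1
    rw [← hτ d, hdsc d h0 h1]
    rfl
  refine ⟨{
    V := Fin n
    fV := inferInstance
    nm := nm
    nm_inj := nm_inj
    ff := fun v => Z.N_ff _ (nm_mem v)
    em := fun d => (io (τ d) : K →+* EE k C)
    em_C := fun d c n => ?_
    em_gn := fun d f => ?_
    em_od := fun d f hf => ?_
    Ed := Fin m
    fEd := inferInstance
    e0 := fun e => d0 (eA.symm e)
    e1 := fun e => d1 (eA.symm e)
    ends_inj := ?_
    cc := fun e => Z.cA (eA.symm e)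
    cc_ne := fun e => Z.cA_ne _
    cc_lt := fun e => Z.cA_lt _
    ann := fun e f => ?_
    disc := fun d h0 h1 f => ?_
    ptD := fun d h0 h1 => Z.ptD (dsc d h0 h1)
    ptA := fun e => Z.ptA (eA.symm e)
    ptD_ord := fun d h0 h1 τ' hτ' f hf => ?_
    ptA_ord := fun e τ' h0 h1 f hf => ?_
    pt_surj := fun P => ?_
    ptD_inj := fun d h0 h1 t ht d' h0' h1' t' ht' h => ?_
    ptA_inj := fun e t h0 h1 e' t' h0' h1' h => ?_
    ptDA := fun d h0 h1 t ht e t' h0' h1' => ?_ }, ?_, ?_, ?_⟩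
  · show (io (τ d) (algebraMap C K c)).co n = _
    rw [AlgHom.commutes]
    exact co_algebraMap c n
  · show gn (io (τ d) f) = _
    rw [io_gn, hτ d]
  · show EE809.od (io (τ d) f) = _
    rw [io_od _ f hf, hτ d]
  · rintro (e | e) (e' | e') h
    · simp only [Sum.elim_inl] at h
      have h2 := congrArg τ h
      rw [hτ0, hτ0] at h2
      simp only [Sum.inr.injEq, Sum.inl.injEq] at h2
      rw [eA.symm.injective h2]
    · simp only [Sum.elim_inl, Sum.elim_inr] at h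
      have h2 := congrArg τ h
      rw [hτ0, hτ1] at h2
      simp at h2
    · simp only [Sum.elim_inl, Sum.elim_inr] at h
      have h2 := congrArg τ h
      rw [hτ0, hτ1] at h2
      simp at h2
    · simp only [Sum.elim_inr] at h
      have h2 := congrArg τ h
      rw [hτ1, hτ1] at h2
      simp only [Sum.inr.injEq] at h2
      rw [eA.symm.injective h2]
  · obtain ⟨g, h, g', h', a1, a2, a3, a4, a5, a6, a7⟩ := Z.io_ann (eA.symm e) f
    refine ⟨g, h, g', h', a1, a2, a3, a4, a5, ?_, ?_⟩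
    · show io (τ (d0 (eA.symm e))) f * h = g
      rw [hτ0]
      exact a6
    · show io (τ (d1 (eA.symm e))) f * h' = g'
      rw [hτ1]
      exact a7
  · obtain ⟨g, h, a1, a2, a3, a4⟩ := Z.ioD_disc (dsc d h0 h1) f
    refine ⟨g, h, a1, a2, a3, ?_⟩
    show io (τ d) f * h = g
    rw [hdsc d h0 h1]
    exact a4
  · obtain ⟨n', m', g, h, a1, a2, a3, a4, a5, a6⟩ := Z.ptD_ord (dsc d h0 h1) τ' hτ' f hf
    refine ⟨n', m', g, h, a1, a2, a3, a4, ?_, a6⟩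
    show io (τ d) f * _ = _
    rw [hdsc d h0 h1]
    exact a5
  · obtain ⟨n', m', g, h, a1, a2, a3, a4, a5, a6⟩ := Z.ptA_ord (eA.symm e) τ' h0 h1 f hf
    refine ⟨n', m', g, h, a1, a2, a3, a4, ?_, a6⟩
    show io (τ (d0 (eA.symm e))) f * _ = _
    rw [hτ0]
    exact a5
  · rcases Z.pt_surj P with ⟨a, t, ht, hP⟩ | ⟨a, t, h0, h1, hP⟩
    · left
      obtain ⟨d, hd⟩ := sD_surj (Z.endD a) ((Z.surj _).2 ⟨Sum.inl a, rfl⟩)
      have hτd : τ d = Sum.inl a := hτu _ _ hd.symm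
      refine ⟨d, hnd0 d a hτd, hnd1 d a hτd, t, ht, ?_⟩
      have h2 := hdsc d (hnd0 d a hτd) (hnd1 d a hτd)
      rw [hτd] at h2
      have h3 : a = dsc d (hnd0 d a hτd) (hnd1 d a hτd) := Sum.inl.inj h2
      rw [hP, ← h3]
    · right
      refine ⟨eA a, t, ?_, h1, ?_⟩
      · rw [Equiv.symm_apply_apply]; exact h0
      · rw [hP]
        have h2 : ∀ a', a = a' → ∀ h0', Z.ptA a t h0 h1 = Z.ptA a' t h0' h1 := by
          rintro a' rfl h0'
          rfl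
        exact h2 _ (Equiv.symm_apply_apply eA a).symm _
  · obtain ⟨h2, h3⟩ := Z.ptD_inj _ _ _ _ _ _ h
    refine ⟨?_, h3⟩
    apply sD_inj
    rw [← hendD d h0 h1, ← hendD d' h0' h1', h2]
  · obtain ⟨h2, h3⟩ := Z.ptA_inj _ _ _ _ _ _ _ _ h
    exact ⟨eA.symm.injective h2, h3⟩
  · exact Z.ptDA _ _ _ _ _ _ _
  · intro w
    constructor
    · intro hw
      refine ⟨eN ⟨w, hw⟩, ?_⟩
      show nm _ = w
      simp only [nm, Equiv.symm_apply_apply]
    · rintro ⟨v, rfl⟩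
      exact nm_mem v
  · intro d hd
    refine ⟨dsc d hd.1 hd.2, hendD d hd.1 hd.2, ?_⟩
    show (io (τ d) : K →+* EE k C) = _
    rw [hdsc d hd.1 hd.2]
    rfl
  · refine ⟨eA.symm, fun e => ⟨rfl, (hd0 _).symm, (hd1 _).symm, ?_, ?_⟩⟩
    · show (io (τ (d0 (eA.symm e))) : K →+* EE k C) = _
      rw [hτ0]
      rfl
    · show (io (τ (d1 (eA.symm e))) : K →+* EE k C) = _
      rw [hτ1]
      rfl

end

end Crest.Agent.R013.SSK_332
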