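import Mathlib
import Crest.Agent.R013.LineDec_315
import Crest.Agent.R013.GoodA2_315
import Crest.Agent.R013.Pts5_315
import Crest.Agent.R013.Red11_332
import Crest.Agent.R013.CE1_280

/-!
# RED-PTS (row 13): the cells of `K` over a `LineDec` and their points

All fields of `KCells` (Red11_332) which concern the cells and their points:
`KD, ioD, ioD_disc, KA, cA, io0, io1, io_ann, ptD, ptA, ptD_ord, ptA_ord, pt_surj, …`.
-/

set_option autoImplicit false
set_option linter.style.haveILetI false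
set_option linter.unusedSectionVars false
set_option linter.unusedVariables false
set_option linter.defProp false

open scoped NNReal
open WithZero

noncomputable section

namespace Crest.Agent.R013.LineDec_315

open Crest.Agent.R013.SSG_109
open Crest.Agent.R013.Cell_408 (BD DiscNorm)
open Crest.Agent.R013.Comp_267 (FD TF)
open Crest.Agent.R013.Good_408 Crest.Agent.R013.EE809 Crest.Agent.R013.SSK_332
open Crest.Agent.R013.CAn_243
open Crest.Agent.R013.Red332 (toEE toEE_algebraMap)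
open Crest.Agent.R013.Pts2_315 Crest.Agent.R013.Pts3_315 Crest.Agent.R013.Pts5_315
open Crest.Agent.R013.RR7_948

universe u

namespace LineDec

variable {k : Type*} {C : Type u} {K : Type*} [NontriviallyNormedField k] [CompleteSpace k]
    [IsUltrametricDist k] [NormedField C] [IsUltrametricDist C] [NormedAlgebra k C]
    [Algebra.IsAlgebraic k C] [IsAlgClosed C] [hk : Fact (DiscNorm k)]
    [Field K] [Algebra C K] [Algebra (RatFunc C) K] [IsScalarTower C (RatFunc C) K]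
    [FiniteDimensional (RatFunc C) K]
    (D : LineDec k C K)

/-! ### the cells over a base cell -/

/-- cells over the disc `u` -/
def cd (u : D.U) : DCells k C K (discY k C (D.cU u) (D.ρ (D.uv u))) := (D.goodU u).some

/-- cells over the disc at infinity -/
def ci : DCells k C K (infY k C (D.ρ D.r)) := D.inf.some

/-- cells over the annulus `e` -/
def ce (e : D.E) : ACells k C K (D.ρ (D.ch e) / D.ρ (D.pa e))
    (annY k C (D.a (D.ch e)) (D.ρ (D.pa e))) := (D.goodE e).some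

/-- affine coordinate -/
def tx (C : Type*) [Field C] (a ρ : C) : RatFunc C :=
  (RatFunc.X - algebraMap C (RatFunc C) a) * (algebraMap C (RatFunc C) ρ)⁻¹

/-- coordinate at infinity -/
def ti (C : Type*) [Field C] (ρ : C) : RatFunc C := algebraMap C (RatFunc C) ρ * RatFunc.X⁻¹

theorem X_mem_tx (a : C) {ρ : C} (hρ : ρ ≠ 0) :
    (RatFunc.X : RatFunc C) ∈ IntermediateField.adjoin C {tx C a ρ} := by
  have h : (RatFunc.X : RatFunc C) = algebraMap C _ a + algebraMap C _ ρ * tx C a ρ := by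
    rw [tx, mul_comm (algebraMap C (RatFunc C) ρ), mul_assoc, inv_mul_cancel₀, mul_one]
    · ring
    · rwa [Ne, map_eq_zero]
  rw [h]
  exact add_mem (algebraMap_mem _ a) (mul_mem (algebraMap_mem _ ρ)
    (IntermediateField.mem_adjoin_simple_self C _))

theorem X_mem_ti {ρ : C} (hρ : ρ ≠ 0) :
    (RatFunc.X : RatFunc C) ∈ IntermediateField.adjoin C {ti C ρ} := by
  have h : (RatFunc.X : RatFunc C) = algebraMap C _ ρ * (ti C ρ)⁻¹ := by
    rw [ti, mul_inv, inv_inv, ← mul_assoc, mul_inv_cancel₀, one_mul]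
    rwa [Ne, map_eq_zero]
  rw [h]
  exact mul_mem (algebraMap_mem _ ρ) (inv_mem (IntermediateField.mem_adjoin_simple_self C _))

theorem cd_i (u : D.U) : (D.cd u).i (tx C (D.cU u) (D.ρ (D.uv u))) = TF k C := by
  have hρ : algebraMap C (FD k C) (D.ρ (D.uv u)) ≠ 0 := by
    rw [Ne, map_eq_zero]; exact D.ρ_ne _
  rw [tx, map_mul, map_sub, map_inv₀, AlgHom.commutes, AlgHom.commutes, DCells.i_X, discY,
    add_sub_cancel_left, mul_comm, ← mul_assoc, inv_mul_cancel₀ hρ, one_mul]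

theorem ci_i : D.ci.i (ti C (D.ρ D.r)) = TF k C := by
  have hρ : algebraMap C (FD k C) (D.ρ D.r) ≠ 0 := by
    rw [Ne, map_eq_zero]; exact D.ρ_ne _
  rw [ti, map_mul, map_inv₀, AlgHom.commutes, DCells.i_X, infY, mul_inv, inv_inv, ← mul_assoc,
    mul_inv_cancel₀ hρ, one_mul]

theorem ce_i (e : D.E) : (D.ce e).i (tx C (D.a (D.ch e)) (D.ρ (D.pa e))) = T 1 := by
  have hρ : algebraMap C (EE k C) (D.ρ (D.pa e)) ≠ 0 := by
    rw [Ne, map_eq_zero]; exact D.ρ_ne _
  rw [tx, map_mul, map_sub, map_inv₀, AlgHom.commutes, AlgHom.commutes, ACells.i_X, annY,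
    add_sub_cancel_left, mul_comm, ← mul_assoc, inv_mul_cancel₀ hρ, one_mul]

def coverU (u : D.U) := (D.cd u).cover (tx C (D.cU u) (D.ρ (D.uv u)))
  (X_mem_tx _ (D.ρ_ne _)) (D.cd_i u)

def coverI := D.ci.cover (ti C (D.ρ D.r)) (X_mem_ti (D.ρ_ne _)) D.ci_i

/-- 243's representation on the annuli -/
def Span : Prop := ∀ e, (D.ce e).SpanAN

variable {D} in
def coverE (hs : D.Span) (e : D.E) := ACells.cover (hs e)
  (tx C (D.a (D.ch e)) (D.ρ (D.pa e))) (X_mem_tx _ (D.ρ_ne _)) (D.ce_i e)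

/-! ### location of places -/

/-- the function `x` in `K` -/
abbrev xx (C K : Type*) [Field C] [Field K] [Algebra (RatFunc C) K] : K :=
  algebraMap (RatFunc C) K RatFunc.X

/-- the point `y` of the line -/
def dp (y : C) : C → ℝ≥0 := fun b => nv C (b - y)

theorem isPtL_dp (y : C) : IsPtL (nv C) (dp y) := isPtL_point y

/-- the place lies over the disc `u` -/
def PU (u : D.U) (P : Pl C K) : Prop := ∃ y : C, D.inU u (dp y) ∧
  P.v (xx C K - algebraMap C K y) < 1

/-- the place lies over the annulus `e` -/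
def PE (e : D.E) (P : Pl C K) : Prop := ∃ y : C, D.inE e (dp y) ∧
  P.v (xx C K - algebraMap C K y) < 1

/-- the place lies over the disc at infinity -/
def PI (P : Pl C K) : Prop := 1 < P.v (xx C K) ∨ ∃ y : C, D.inI (dp y) ∧
  P.v (xx C K - algebraMap C K y) < 1

theorem algebraMap_tx (a ρ y : C) (hρ : ρ ≠ 0) :
    algebraMap (RatFunc C) K (tx C a ρ) - algebraMap C K ((y - a) / ρ) =
      (xx C K - algebraMap C K y) * (algebraMap C K ρ)⁻¹ := by
  have hρ' : algebraMap C K ρ ≠ 0 := by rwa [Ne, map_eq_zero]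
  rw [tx, map_mul, map_sub, map_inv₀, ← IsScalarTower.algebraMap_apply,
    ← IsScalarTower.algebraMap_apply, map_div₀, map_sub]
  field_simp
  ring

theorem v_tx (P : Pl C K) (a ρ y : C) (hρ : ρ ≠ 0) :
    P.v (algebraMap (RatFunc C) K (tx C a ρ) - algebraMap C K ((y - a) / ρ)) =
      P.v (xx C K - algebraMap C K y) := by
  rw [algebraMap_tx a ρ y hρ, map_mul, map_inv₀, P.const ρ hρ, inv_one, mul_one]

theorem v_const_le (P : Pl C K) (c : C) : P.v (algebraMap C K c) ≤ 1 := by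
  by_cases h : c = 0
  · rw [h, map_zero, map_zero]; exact zero_le_one
  · exact (P.const c h).le

theorem v_unique {P : Pl C K} {f : K} {c c' : C} (h : P.v (f - algebraMap C K c) < 1)
    (h' : P.v (f - algebraMap C K c') < 1) : c = c' :=
  CellCover.base_unique h h'

theorem v_x_le {P : Pl C K} {f : K} {c : C} (h : P.v (f - algebraMap C K c) < 1) : P.v f ≤ 1 := by
  have : f = (f - algebraMap C K c) + algebraMap C K c := by ring
  rw [this]
  exact (Valuation.map_add _ _ _).trans (max_le h.le (v_const_le P c))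

theorem PU_iff (u : D.U) (P : Pl C K) : D.PU u P ↔ ∃ τ₀ : C, ‖τ₀‖ < 1 ∧
    P.v (algebraMap (RatFunc C) K (tx C (D.cU u) (D.ρ (D.uv u))) - algebraMap C K τ₀) < 1 := by
  have hρ := D.ρ_ne (D.uv u)
  have hρ' : 0 < ‖D.ρ (D.uv u)‖ := norm_pos_iff.2 hρ
  constructor
  · rintro ⟨y, hy, hP⟩
    refine ⟨(y - D.cU u) / D.ρ (D.uv u), ?_, ?_⟩
    · rw [norm_div, div_lt_one hρ']
      have h1 : ‖D.cU u - y‖₊ < ‖D.ρ (D.uv u)‖₊ := hy
      rw [← nnnorm_neg, neg_sub] at h1
      exact h1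
    · rw [v_tx P _ _ _ hρ]; exact hP
  · rintro ⟨τ₀, hτ₀, hP⟩
    refine ⟨D.cU u + D.ρ (D.uv u) * τ₀, ?_, ?_⟩
    · show ‖D.cU u - (D.cU u + D.ρ (D.uv u) * τ₀)‖₊ < ‖D.ρ (D.uv u)‖₊
      rw [show D.cU u - (D.cU u + D.ρ (D.uv u) * τ₀) = -(D.ρ (D.uv u) * τ₀) by ring, nnnorm_neg]
      show ‖D.ρ (D.uv u) * τ₀‖ < ‖D.ρ (D.uv u)‖
      rw [norm_mul]
      exact mul_lt_of_lt_one_right hρ' hτ₀
    · rw [← v_tx P (D.cU u) _ _ hρ]
      have h1 : (D.cU u + D.ρ (D.uv u) * τ₀ - D.cU u) / D.ρ (D.uv u) = τ₀ := by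
        field_simp
        ring
      rw [h1]
      exact hP

theorem PE_iff (e : D.E) (P : Pl C K) : D.PE e P ↔ ∃ τ₀ : C,
    (‖D.ρ (D.ch e) / D.ρ (D.pa e)‖ < ‖τ₀‖ ∧ ‖τ₀‖ < 1) ∧
    P.v (algebraMap (RatFunc C) K (tx C (D.a (D.ch e)) (D.ρ (D.pa e))) - algebraMap C K τ₀) < 1 := by
  have hρ := D.ρ_ne (D.pa e)
  have hρ' : 0 < ‖D.ρ (D.pa e)‖ := norm_pos_iff.2 hρ
  constructor
  · rintro ⟨y, ⟨hy1, hy2⟩, hP⟩
    have h1 : ‖D.ρ (D.ch e)‖₊ < ‖D.a (D.ch e) - y‖₊ := hy1
    have h2 : ‖D.a (D.ch e) - y‖₊ < ‖D.ρ (D.pa e)‖₊ := hy2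
    rw [← nnnorm_neg, neg_sub] at h2
    rw [← nnnorm_neg (D.a (D.ch e) - y), neg_sub] at h1
    refine ⟨(y - D.a (D.ch e)) / D.ρ (D.pa e), ⟨?_, ?_⟩, ?_⟩
    · rw [norm_div, norm_div]
      exact div_lt_div_of_pos_right h1 hρ'
    · rw [norm_div, div_lt_one hρ']
      exact h2
    · rw [v_tx P _ _ _ hρ]; exact hP
  · rintro ⟨τ₀, ⟨h1, h2⟩, hP⟩
    have h3 : ‖D.a (D.ch e) - (D.a (D.ch e) + D.ρ (D.pa e) * τ₀)‖ = ‖D.ρ (D.pa e)‖ * ‖τ₀‖ := by
      rw [show D.a (D.ch e) - (D.a (D.ch e) + D.ρ (D.pa e) * τ₀) = -(D.ρ (D.pa e) * τ₀) by ring,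
        norm_neg, norm_mul]
    refine ⟨D.a (D.ch e) + D.ρ (D.pa e) * τ₀, ⟨?_, ?_⟩, ?_⟩
    · show ‖D.ρ (D.ch e)‖ < ‖D.a (D.ch e) - (D.a (D.ch e) + D.ρ (D.pa e) * τ₀)‖
      rw [h3]
      rw [norm_div, div_lt_iff₀ hρ'] at h1
      rw [mul_comm]
      exact h1
    · show ‖D.a (D.ch e) - (D.a (D.ch e) + D.ρ (D.pa e) * τ₀)‖ < ‖D.ρ (D.pa e)‖
      rw [h3]
      exact mul_lt_of_lt_one_right hρ' h2
    · rw [← v_tx P (D.a (D.ch e)) _ _ hρ]
      have h1 : (D.a (D.ch e) + D.ρ (D.pa e) * τ₀ - D.a (D.ch e)) / D.ρ (D.pa e) = τ₀ := by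
        field_simp
        ring
      rw [h1]
      exact hP

theorem PI_iff (P : Pl C K) : D.PI P ↔ ∃ τ₀ : C, ‖τ₀‖ < 1 ∧
    P.v (algebraMap (RatFunc C) K (ti C (D.ρ D.r)) - algebraMap C K τ₀) < 1 := by
  have hρ := D.ρ_ne D.r
  have hρ' : 0 < ‖D.ρ D.r‖ := norm_pos_iff.2 hρ
  have hx0 : xx C K ≠ 0 := by
    rw [xx, Ne, map_eq_zero]; exact RatFunc.X_ne_zero
  have hti : algebraMap (RatFunc C) K (ti C (D.ρ D.r)) = algebraMap C K (D.ρ D.r) * (xx C K)⁻¹ := by
    rw [ti, map_mul, map_inv₀, ← IsScalarTower.algebraMap_apply]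
  rw [hti]
  constructor
  · rintro (h | ⟨y, hy, hP⟩)
    · refine ⟨0, by rw [norm_zero]; exact one_pos, ?_⟩
      rw [map_zero, sub_zero, map_mul, P.const _ hρ, one_mul, map_inv₀]
      exact inv_lt_one_of_one_lt₀ h
    · have hy' : ‖D.ρ D.r‖ < ‖y‖ := by
        have h1 : ‖D.ρ D.r‖₊ < ‖0 - y‖₊ := hy
        rw [zero_sub, nnnorm_neg] at h1
        exact h1
      have hy0 : y ≠ 0 := by
        rintro rfl
        rw [norm_zero] at hy'
        exact absurd hy' (not_lt.2 hρ'.le)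
      have hyK : algebraMap C K y ≠ 0 := by rwa [Ne, map_eq_zero]
      have hvx : P.v (xx C K) = 1 := by
        have h1 : xx C K = (xx C K - algebraMap C K y) + algebraMap C K y := by ring
        rw [h1, Valuation.map_add_eq_of_lt_right _ (by rw [P.const y hy0]; exact hP), P.const y hy0]
      refine ⟨D.ρ D.r / y, ?_, ?_⟩
      · rw [norm_div, div_lt_one (hρ'.trans hy')]
        exact hy'
      · have h1 : algebraMap C K (D.ρ D.r) * (xx C K)⁻¹ - algebraMap C K (D.ρ D.r / y) =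
            -(algebraMap C K (D.ρ D.r) * (xx C K)⁻¹ * (algebraMap C K y)⁻¹ *
              (xx C K - algebraMap C K y)) := by
          rw [map_div₀]
          field_simp
          ring
        rw [h1, Valuation.map_neg, map_mul, map_mul, map_mul, map_inv₀, map_inv₀, P.const _ hρ,
          P.const y hy0, hvx, inv_one, mul_one, mul_one, one_mul]
        exact hP
  · rintro ⟨τ₀, hτ₀, hP⟩
    by_cases h0 : τ₀ = 0
    · left
      rw [h0, map_zero, sub_zero, map_mul, P.const _ hρ, one_mul, map_inv₀] at hP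
      by_contra hcon
      exact absurd hP (not_lt.2 ((one_le_inv₀ (zero_lt_iff.2
        ((Valuation.ne_zero_iff _).2 hx0))).2 (not_lt.1 hcon)))
    · right
      have hτK : algebraMap C K τ₀ ≠ 0 := by rwa [Ne, map_eq_zero]
      have hvx : P.v (algebraMap C K (D.ρ D.r) * (xx C K)⁻¹) = 1 := by
        have h1 : algebraMap C K (D.ρ D.r) * (xx C K)⁻¹ =
          (algebraMap C K (D.ρ D.r) * (xx C K)⁻¹ - algebraMap C K τ₀) + algebraMap C K τ₀ := by ring
        rw [h1, Valuation.map_add_eq_of_lt_right _ (by rw [P.const _ h0]; exact hP), P.const _ h0]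
      have hvx' : P.v (xx C K) = 1 := by
        rw [map_mul, P.const _ hρ, one_mul, map_inv₀, inv_eq_one] at hvx
        exact hvx
      refine ⟨D.ρ D.r / τ₀, ?_, ?_⟩
      · show ‖D.ρ D.r‖₊ < ‖0 - D.ρ D.r / τ₀‖₊
        rw [zero_sub, nnnorm_neg]
        show ‖D.ρ D.r‖ < ‖D.ρ D.r / τ₀‖
        rw [norm_div, lt_div_iff₀ (norm_pos_iff.2 h0)]
        exact mul_lt_of_lt_one_right hρ' hτ₀
      · have h1 : xx C K - algebraMap C K (D.ρ D.r / τ₀) =
            -((algebraMap C K τ₀)⁻¹ * xx C K *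
              (algebraMap C K (D.ρ D.r) * (xx C K)⁻¹ - algebraMap C K τ₀)) := by
          rw [map_div₀]
          field_simp
          ring
        rw [h1, Valuation.map_neg, map_mul, map_mul, map_inv₀, P.const _ h0, hvx', inv_one,
          one_mul, one_mul]
        exact hP

/-- every place lies over exactly one base cell: existence -/
theorem exists_cell [Algebra.IsSeparable (RatFunc C) K] (P : Pl C K) :
    (∃ u, D.PU u P) ∨ (∃ e, D.PE e P) ∨ D.PI P := by
  by_cases h : P.v (xx C K) ≤ 1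
  · obtain ⟨y, hy⟩ := CE1_280.exists_residue P h
    rcases locate (D := D) (isPtL_dp y) with ⟨x, hx⟩ | ⟨u, hu⟩ | ⟨e, he⟩ | hI
    · exact (not_isV_point y hx).elim
    · exact Or.inl ⟨u, y, hu, hy⟩
    · exact Or.inr (Or.inl ⟨e, y, he, hy⟩)
    · exact Or.inr (Or.inr (Or.inr ⟨y, hI, hy⟩))
  · exact Or.inr (Or.inr (Or.inl (not_le.1 h)))

variable {D}

theorem PU_unique {u u' : D.U} {P : Pl C K} (h : D.PU u P) (h' : D.PU u' P) : u = u' := by
  obtain ⟨y, hy, hP⟩ := h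
  obtain ⟨y', hy', hP'⟩ := h'
  obtain rfl := v_unique hP hP'
  exact inU_unique (isPtL_dp y) hy hy'

theorem PE_unique {e e' : D.E} {P : Pl C K} (h : D.PE e P) (h' : D.PE e' P) : e = e' := by
  obtain ⟨y, hy, hP⟩ := h
  obtain ⟨y', hy', hP'⟩ := h'
  obtain rfl := v_unique hP hP'
  exact inE_unique (isPtL_dp y) hy hy'

theorem not_PU_PE {u : D.U} {e : D.E} {P : Pl C K} (h : D.PU u P) (h' : D.PE e P) : False := by
  obtain ⟨y, hy, hP⟩ := h
  obtain ⟨y', hy', hP'⟩ := h'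
  obtain rfl := v_unique hP hP'
  exact not_inU_inE (isPtL_dp y) hy hy'

theorem not_PU_PI {u : D.U} {P : Pl C K} (h : D.PU u P) (h' : D.PI P) : False := by
  obtain ⟨y, hy, hP⟩ := h
  rcases h' with h' | ⟨y', hy', hP'⟩
  · exact absurd h' (not_lt.2 (v_x_le hP))
  · obtain rfl := v_unique hP hP'
    exact not_inU_inI (isPtL_dp y) hy hy'

theorem not_PE_PI {e : D.E} {P : Pl C K} (h : D.PE e P) (h' : D.PI P) : False := by
  obtain ⟨y, hy, hP⟩ := h
  rcases h' with h' | ⟨y', hy', hP'⟩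
  · exact absurd h' (not_lt.2 (v_x_le hP))
  · obtain rfl := v_unique hP hP'
    exact not_inE_inI (isPtL_dp y) hy hy'

end LineDec

end Crest.Agent.R013.LineDec_315
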