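import Mathlib
import Crest.Agent.R013.PtsK_315

/-!
# RED-PTS (row 13), part 2: the cells of `K` over a `LineDec`

`KD, ioD, ioD_disc, KA, cA, io0, io1, io_ann, ptD, ptA, ptD_ord, ptA_ord, pt_surj, ptD_inj, ptA_inj,
ptDA` in the shape of `KCells` (Red11_332).
-/

set_option autoImplicit false
set_option linter.style.haveILetI false
set_option linter.unusedSectionVars false
set_option linter.unusedVariables false
set_option linter.defProp false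

open scoped NNReal
open WithZero

noncomputable section

namespace Crest.Agent.R013.LineDec_315

open Crest.Agent.R013.SSG_109
open Crest.Agent.R013.Cell_408 (BD DiscNorm)
open Crest.Agent.R013.Comp_267 (FD TF)
open Crest.Agent.R013.Good_408 Crest.Agent.R013.EE809 Crest.Agent.R013.SSK_332
open Crest.Agent.R013.CAn_243
open Crest.Agent.R013.Red332 (toEE toEE_algebraMap)
open Crest.Agent.R013.Pts2_315 Crest.Agent.R013.Pts3_315 Crest.Agent.R013.Pts5_315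
open Crest.Agent.R013.RR7_948

universe u

namespace LineDec

variable {k : Type*} {C : Type u} {K : Type*} [NontriviallyNormedField k] [CompleteSpace k]
    [IsUltrametricDist k] [NormedField C] [IsUltrametricDist C] [NormedAlgebra k C]
    [Algebra.IsAlgebraic k C] [IsAlgClosed C] [hk : Fact (DiscNorm k)]
    [Field K] [Algebra C K] [Algebra (RatFunc C) K] [IsScalarTower C (RatFunc C) K]
    [FiniteDimensional (RatFunc C) K]
    (D : LineDec k C K)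

/-! ### cells of `K` -/

/-- the discs of `K` -/
abbrev KD : Type u := (Σ u : D.U, (D.cd u).J) ⊕ D.ci.J

/-- the annuli of `K` -/
abbrev KA : Type u := Σ e : D.E, (D.ce e).J

instance : Finite D.KA := by
  haveI := D.E_fin
  exact inferInstanceAs (Finite (Σ e : D.E, (D.ce e).J))

/-- expansion on the discs, with values in `FD` -/
def ioDF : D.KD → K →ₐ[C] FD k C :=
  Sum.elim (fun p => (D.cd p.1).io p.2) (fun j => D.ci.io j)

/-- expansion on the discs -/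
def ioD (a : D.KD) : K →ₐ[C] EE k C := (toEE k C).comp (D.ioDF a)

theorem ioD_inl (u : D.U) (j : (D.cd u).J) :
    D.ioD (Sum.inl ⟨u, j⟩) = (toEE k C).comp ((D.cd u).io j) := rfl

theorem ioD_inr (j : D.ci.J) : D.ioD (Sum.inr j) = (toEE k C).comp (D.ci.io j) := rfl

theorem ioD_disc (a : D.KD) (f : K) : ∃ g h : EE k C, h ≠ 0 ∧ InD g ∧ InD h ∧ D.ioD a f * h = g := by
  obtain ⟨x, y, hy, e⟩ := IsFractionRing.div_surjective (A := BD k C) (D.ioDF a f)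
  have hy0 : y ≠ 0 := nonZeroDivisors.ne_zero hy
  have hyF : algebraMap (BD k C) (FD k C) y ≠ 0 := by
    rw [Ne, map_eq_zero_iff _ (IsFractionRing.injective (BD k C) (FD k C))]; exact hy0
  refine ⟨ofBD x, ofBD y, fun h => hy0 (ofBD_injective (by rw [h, map_zero])),
    Conn_315.inD_iff.2 ⟨x, rfl⟩, Conn_315.inD_iff.2 ⟨y, rfl⟩, ?_⟩
  show toEE k C (D.ioDF a f) * ofBD y = ofBD x
  rw [← toEE_algebraMap, ← toEE_algebraMap, ← map_mul, ← e, div_mul_cancel₀ _ hyF]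

/-- the modulus of an annulus -/
def cA (a : D.KA) : C := (D.ce a.1).c' a.2

theorem cA_ne (a : D.KA) : D.cA a ≠ 0 := (D.ce a.1).c'_ne a.2

theorem cA_lt (a : D.KA) : ‖D.cA a‖ < 1 := (D.ce a.1).c'_lt a.2

/-- expansion on the annuli with values in `FA` -/
def ioAF (a : D.KA) : K →ₐ[C] FA k (D.cA a) := (D.ce a.1).ioF a.2

/-- expansion at the outer end -/
def io0 (a : D.KA) : K →ₐ[C] EE k C := (FA k (D.cA a)).val.comp (D.ioAF a)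

theorem io0_eq (e : D.E) (j : (D.ce e).J) : D.io0 ⟨e, j⟩ = (D.ce e).io j := by
  ext f : 1
  rfl

/-- expansion at the inner end -/
def io1 (a : D.KA) : K →ₐ[C] EE k C :=
  (FA k (D.cA a)).val.comp ((flipF (D.cA a) (D.cA_ne a) (D.cA_lt a)).comp (D.ioAF a))

theorem io_ann (a : D.KA) (f : K) : ∃ g h g' h' : EE k C, h ≠ 0 ∧ InA (D.cA a) g ∧
    InA (D.cA a) h ∧ Flip (D.cA a) g g' ∧ Flip (D.cA a) h h' ∧ D.io0 a f * h = g ∧
    D.io1 a f * h' = g' := by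
  obtain ⟨x, y, hy0, e⟩ := FA_div_surj (D.ioAF a f)
  have hyF : algebraMap (AN k (D.cA a)) (FA k (D.cA a)) y ≠ 0 := by
    rw [Ne, map_eq_zero_iff _ (algebraMap_FA_injective _)]; exact hy0
  have hyF' : algebraMap (AN k (D.cA a)) (FA k (D.cA a))
      (flip (D.cA a) (D.cA_ne a) (D.cA_lt a) y) ≠ 0 := by
    rw [Ne, map_eq_zero_iff _ (algebraMap_FA_injective _)]
    rw [flip_eq_zero]; exact hy0
  refine ⟨x, y, flip (D.cA a) (D.cA_ne a) (D.cA_lt a) x, flip (D.cA a) (D.cA_ne a) (D.cA_lt a) y,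
    fun h => hy0 (Subtype.ext h), x.2, y.2, fun n => co_flip _ _ _ x n,
    fun n => co_flip _ _ _ y n, ?_, ?_⟩
  · have h1 : D.ioAF a f * algebraMap (AN k (D.cA a)) (FA k (D.cA a)) y =
        algebraMap (AN k (D.cA a)) (FA k (D.cA a)) x := by
      rw [← e, div_mul_cancel₀ _ hyF]
    exact congrArg (fun z : FA k (D.cA a) => (z : EE k C)) h1
  · have h1 : flipF (D.cA a) (D.cA_ne a) (D.cA_lt a) (D.ioAF a f) *
        algebraMap (AN k (D.cA a)) (FA k (D.cA a)) (flip (D.cA a) (D.cA_ne a) (D.cA_lt a) y) =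
        algebraMap (AN k (D.cA a)) (FA k (D.cA a)) (flip (D.cA a) (D.cA_ne a) (D.cA_lt a) x) := by
      rw [← e, map_div₀, flipF_algebraMap, flipF_algebraMap, div_mul_cancel₀ _ hyF']
    exact congrArg (fun z : FA k (D.cA a) => (z : EE k C)) h1

/-! ### points -/

/-- points of the discs -/
def ptD (a : D.KD) (τ : C) (hτ : ‖τ‖ < 1) : Pl C K :=
  match a with
  | Sum.inl p => (D.coverU p.1).plc p.2 (τ := τ) hτ
  | Sum.inr j => D.coverI.plc j (τ := τ) hτ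

variable {D}
variable (hs : D.Span)

/-- points of the annuli -/
def ptA (a : D.KA) (τ : C) (h0 : ‖D.cA a‖ < ‖τ‖) (h1 : ‖τ‖ < 1) : Pl C K :=
  (coverE hs a.1).plc a.2 (τ := τ) ⟨h0, h1⟩

theorem XB_eq : (ofBD (Crest.Agent.R013.Comp_267.XB : BD k C) : EE k C) = T 1 := Pow2_931.ofBD_X

theorem ptD_inl (u : D.U) (j : (D.cd u).J) (τ : C) (hτ : ‖τ‖ < 1) :
    D.ptD (Sum.inl ⟨u, j⟩) τ hτ = (D.coverU u).plc j (τ := τ) hτ := rfl

theorem ptD_inr (j : D.ci.J) (τ : C) (hτ : ‖τ‖ < 1) :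
    D.ptD (Sum.inr j) τ hτ = D.coverI.plc j (τ := τ) hτ := rfl

theorem ptD_ord (a : D.KD) (τ : C) (hτ : ‖τ‖ < 1) (f : K) (hf : f ≠ 0) :
    ∃ (n m : ℕ) (g h : EE k C), InD g ∧ InD h ∧
    evE τ g ≠ 0 ∧ evE τ h ≠ 0 ∧ D.ioD a f * (lin τ ^ m * h) = lin τ ^ n * g ∧
    (D.ptD a τ hτ).v f = exp ((m : ℤ) - n) := by
  rcases a with ⟨u, j⟩ | j
  · exact ordD ((D.coverU u).up j) XB_eq hτ
      (f := (D.cd u).io j f) ((map_ne_zero _).2 hf)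
  · exact ordD (D.coverI.up j) XB_eq hτ
      (f := D.ci.io j f) ((map_ne_zero _).2 hf)

theorem ptA_ord (a : D.KA) (τ : C) (h0 : ‖D.cA a‖ < ‖τ‖) (h1 : ‖τ‖ < 1) (f : K) (hf : f ≠ 0) :
    ∃ (n m : ℕ) (g h : EE k C), InA (D.cA a) g ∧ InA (D.cA a) h ∧
    evE τ g ≠ 0 ∧ evE τ h ≠ 0 ∧ D.io0 a f * (lin τ ^ m * h) = lin τ ^ n * g ∧
    (ptA hs a τ h0 h1).v f = exp ((m : ℤ) - n) := by
  obtain ⟨e, j⟩ := a
  exact ordA (D.cA_ne ⟨e, j⟩) (D.cA_lt ⟨e, j⟩) (A := AN k (D.cA ⟨e, j⟩)) (fun _ => Iff.rfl)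
    (F := FA k (D.cA ⟨e, j⟩)) ((FA k (D.cA ⟨e, j⟩)).val : _ →+* EE k C) (fun _ => rfl)
    ((coverE hs e).up j) ⟨h0, h1⟩ (f := (D.ce e).ioF j f) ((map_ne_zero _).2 hf)

theorem PU_plc (u : D.U) (j : (D.cd u).J) (τ : C) (hτ : ‖τ‖ < 1) :
    D.PU u (D.ptD (Sum.inl ⟨u, j⟩) τ hτ) := by
  rw [PU_iff, ptD_inl]
  obtain ⟨τ₀, h1, h2⟩ := (D.coverU u).plc_lt_one j (τ := τ) hτ
  exact ⟨τ₀, h1, h2⟩

theorem PI_plc (j : D.ci.J) (τ : C) (hτ : ‖τ‖ < 1) :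
    D.PI (D.ptD (Sum.inr j) τ hτ) := by
  rw [PI_iff, ptD_inr]
  obtain ⟨τ₀, h1, h2⟩ := D.coverI.plc_lt_one j (τ := τ) hτ
  exact ⟨τ₀, h1, h2⟩

theorem PE_plc (a : D.KA) (τ : C) (h0 : ‖D.cA a‖ < ‖τ‖) (h1 : ‖τ‖ < 1) :
    D.PE a.1 (ptA hs a τ h0 h1) := by
  rw [PE_iff]
  obtain ⟨τ₀, h2, h3⟩ := (coverE hs a.1).plc_lt_one a.2 (τ := τ) ⟨h0, h1⟩
  exact ⟨τ₀, h2, h3⟩

theorem pt_surj [Algebra.IsSeparable (RatFunc C) K] (P : Pl C K) :
    (∃ a τ hτ, P = D.ptD a τ hτ) ∨ ∃ a τ h0 h1, P = ptA hs a τ h0 h1 := by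
  rcases D.exists_cell P with ⟨u, h⟩ | ⟨e, h⟩ | h
  · rw [PU_iff] at h
    obtain ⟨τ₀, h1, h2⟩ := h
    obtain ⟨j, τ, hτ, hP⟩ := (D.coverU u).exists_plc (τ₀ := τ₀) h1 h2
    exact Or.inl ⟨Sum.inl ⟨u, j⟩, τ, hτ, hP⟩
  · rw [PE_iff] at h
    obtain ⟨τ₀, h1, h2⟩ := h
    obtain ⟨j, τ, hτ, hP⟩ := (coverE hs e).exists_plc (τ₀ := τ₀) h1 h2
    exact Or.inr ⟨⟨e, j⟩, τ, hτ.1, hτ.2, hP⟩
  · rw [PI_iff] at h
    obtain ⟨τ₀, h1, h2⟩ := h
    obtain ⟨j, τ, hτ, hP⟩ := D.coverI.exists_plc (τ₀ := τ₀) h1 h2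
    exact Or.inl ⟨Sum.inr j, τ, hτ, hP⟩

theorem ptD_inj (a : D.KD) (τ : C) (hτ : ‖τ‖ < 1) (a' : D.KD) (τ' : C) (hτ' : ‖τ'‖ < 1)
    (h : D.ptD a τ hτ = D.ptD a' τ' hτ') : a = a' ∧ τ = τ' := by
  rcases a with ⟨u, j⟩ | j <;> rcases a' with ⟨u', j'⟩ | j'
  · have h1 : u = u' := PU_unique (PU_plc u j τ hτ) (by rw [h]; exact PU_plc u' j' τ' hτ')
    subst h1
    obtain ⟨h2, h3⟩ := (D.coverU u).plc_injective (hτ := hτ) (hτ' := hτ') h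
    have h4 : j = j' := h2
    subst h4
    exact ⟨rfl, h3⟩
  · exact (not_PU_PI (PU_plc u j τ hτ) (by rw [h]; exact PI_plc j' τ' hτ')).elim
  · exact (not_PU_PI (PU_plc u' j' τ' hτ') (by rw [← h]; exact PI_plc j τ hτ)).elim
  · obtain ⟨h2, h3⟩ := D.coverI.plc_injective (hτ := hτ) (hτ' := hτ') h
    exact ⟨by rw [h2], h3⟩

theorem ptA_inj (a : D.KA) (τ : C) (h0 : ‖D.cA a‖ < ‖τ‖) (h1 : ‖τ‖ < 1) (a' : D.KA) (τ' : C)
    (h0' : ‖D.cA a'‖ < ‖τ'‖) (h1' : ‖τ'‖ < 1)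
    (h : ptA hs a τ h0 h1 = ptA hs a' τ' h0' h1') : a = a' ∧ τ = τ' := by
  have h2 : a.1 = a'.1 := PE_unique (PE_plc hs a τ h0 h1) (by rw [h]; exact PE_plc hs a' τ' h0' h1')
  obtain ⟨e, j⟩ := a
  obtain ⟨e', j'⟩ := a'
  simp only at h2
  subst h2
  obtain ⟨h2, h3⟩ := (coverE hs e).plc_injective (hτ := ⟨h0, h1⟩) (hτ' := ⟨h0', h1'⟩) h
  have h4 : j = j' := h2
  subst h4
  exact ⟨rfl, h3⟩

theorem ptDA (a : D.KD) (τ : C) (hτ : ‖τ‖ < 1) (a' : D.KA) (τ' : C)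
    (h0' : ‖D.cA a'‖ < ‖τ'‖) (h1' : ‖τ'‖ < 1) : D.ptD a τ hτ ≠ ptA hs a' τ' h0' h1' := by
  intro h
  have h1 := PE_plc hs a' τ' h0' h1'
  rw [← h] at h1
  rcases a with ⟨u, j⟩ | j
  · exact not_PU_PE (PU_plc u j τ hτ) h1
  · exact not_PE_PI h1 (PI_plc j τ hτ)

end LineDec

end Crest.Agent.R013.LineDec_315
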