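import Mathlib
import Crest.Agent.R013.Red9_332
import Crest.Agent.R013.StabG_83
import Crest.Agent.R013.Ins3_240

/-!
# R013 / Red12: the norms over a Gauss norm; their residue fields are function fields (helper332)
-/

set_option autoImplicit false
set_option linter.all false

universe u

namespace Crest.Agent.R013.Red332

open scoped NNReal
open WithZero IsLocalRing Polynomial Module
open Crest.Agent.R013.RR7_948 Crest.Agent.R013.RR20_948

/-- the complete list of the norms of `K` over the norm `η` of `F0`, with orthonormal residues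
(= output of 83's `StabF`, without the completion) -/
structure SAt (F0 K : Type*) [Field F0] [Field K] [Algebra F0 K] (η : Valuation F0 ℝ≥0) where
  n : ℕ
  w : Fin n → Valuation K ℝ≥0
  inj : Function.Injective w
  w_alg : ∀ i f, w i (algebraMap F0 K f) = η f
  complete : ∀ v : Valuation K ℝ≥0, (∀ f, v (algebraMap F0 K f) = η f) → ∃ i, v = w i
  d : Fin n → ℕ
  sum_d : ∑ i, d i = finrank F0 K
  b : ∀ i, Fin (d i) → K
  b_le : ∀ i l, w i (b i l) ≤ 1
  val : ∀ i (y : K), ∃ f : F0, η f = w i y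
  res_ge : ∀ i (c : Fin (d i) → F0) (l : Fin (d i)),
    η (c l) ≤ w i (∑ l, algebraMap F0 K (c l) * b i l)
  res_gen : ∀ i (y : K), w i y ≤ 1 → ∃ c : Fin (d i) → F0, (∀ l, η (c l) ≤ 1) ∧
    w i (y - ∑ l, algebraMap F0 K (c l) * b i l) < 1

/-- 83's `Out` gives `SAt` -/
theorem SAt.ofOut {F E K : Type u} [Field F] [NontriviallyNormedField E]
    [IsUltrametricDist E] [Algebra F E] [Field K] [Algebra F K] {I : Type u} [Fintype I]
    (o : StabF_83.Out F E K I) (η : Valuation F ℝ≥0) (hη : ∀ f, η f = ‖algebraMap F E f‖₊) :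
    Nonempty (SAt F K η) := by
  classical
  let e : Fin (Fintype.card I) ≃ I := (Fintype.equivFin I).symm
  refine ⟨{
    n := Fintype.card I
    w := fun i => o.w (e i)
    inj := fun i j h => e.injective (o.w_injective h)
    w_alg := fun i f => by rw [hη]; exact o.w_alg _ f
    complete := fun v hv => by
      obtain ⟨i, hi⟩ := o.complete v (fun f => by rw [hv, hη])
      exact ⟨e.symm i, by rw [Equiv.apply_symm_apply]; exact hi⟩
    d := fun i => o.d (e i)
    sum_d := by
      rw [Module.finrank_eq_card_basis o.b, Fintype.card_sigma]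
      simp only [Fintype.card_fin]
      exact e.sum_comp o.d
    b := fun i l => o.b ⟨e i, l⟩
    b_le := fun i l => o.b_le _ _
    val := fun i y => by
      obtain ⟨f, hf⟩ := o.exists_val (e i) y
      exact ⟨f, by rw [hη]; exact hf⟩
    res_ge := fun i c l => by
      rw [hη]
      refine (o.res_ge (e i) c l).trans (le_of_eq ?_)
      congr 1
      exact Finset.sum_congr rfl fun l _ => Algebra.smul_def _ _
    res_gen := fun i y hy => by
      obtain ⟨c, h1, h2⟩ := o.res_gen (e i) y hy
      refine ⟨c, fun l => by rw [hη]; exact h1 l, ?_⟩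
      refine lt_of_eq_of_lt ?_ h2
      congr 2
      exact Finset.sum_congr rfl fun l _ => (Algebra.smul_def _ _).symm }⟩

section ff

variable {C : Type*} [NormedField C] [IsUltrametricDist C] [IsAlgClosed C]
variable {F0 K : Type*} [Field F0] [Algebra C F0] [Field K] [Algebra C K] [Algebra F0 K]
  [IsScalarTower C F0 K]

/-- a nonzero polynomial is a constant times a polynomial of Gauss norm one -/
theorem exists_scaled (p : C[X]) (hp : p ≠ 0) : ∃ (a : C) (q : C[X]) (m : ℕ), a ≠ 0 ∧
    p = Polynomial.C a * q ∧ (∀ n, ‖q.coeff n‖₊ ≤ 1) ∧ ‖q.coeff m‖₊ = 1 := by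
  classical
  obtain ⟨m, hm, hmax⟩ := Finset.exists_max_image p.support (fun n => ‖p.coeff n‖₊)
    (support_nonempty.2 hp)
  have ha : p.coeff m ≠ 0 := mem_support_iff.1 hm
  have hn : ‖p.coeff m‖₊ ≠ 0 := by rwa [Ne, nnnorm_eq_zero]
  refine ⟨p.coeff m, Polynomial.C (p.coeff m)⁻¹ * p, m, ha, ?_, fun n => ?_, ?_⟩
  · rw [← mul_assoc, ← Polynomial.C_mul, mul_inv_cancel₀ ha, Polynomial.C_1, one_mul]
  · rw [coeff_C_mul, nnnorm_mul, nnnorm_inv]
    by_cases h : n ∈ p.support
    · rw [mul_comm, ← div_eq_mul_inv]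
      exact div_le_one_of_le₀ (hmax n h) zero_le
    · rw [notMem_support_iff.1 h, nnnorm_zero, mul_zero]
      exact zero_le_one
  · rw [coeff_C_mul, nnnorm_mul, nnnorm_inv, inv_mul_cancel₀ hn]

variable (w : Nm C K)

/-- reductions of elements of `F0 = C(t)` are rational functions of the reduction of `t` -/
theorem red_mem_range {t : F0} (hg : Gen C t) (ht : w.v (algebraMap F0 K t) ≤ 1)
    (htr : Transcendental (Ct C) (red w (algebraMap F0 K t))) (f : F0)
    (hf : w.v (algebraMap F0 K f) ≤ 1) :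
    ∃ g : RatFunc (Ct C), ratHom (red w (algebraMap F0 K t)) htr g = red w (algebraMap F0 K f) := by
  classical
  have hal : ∀ p : C[X], algebraMap F0 K (aeval t p) = aeval (algebraMap F0 K t) p := by
    intro p
    rw [aeval_algebraMap_apply]
  by_cases hf0 : f = 0
  · exact ⟨0, by rw [hf0, map_zero, map_zero, red_zero]⟩
  obtain ⟨p, q, hq, rfl⟩ := hg f
  have hp0 : p ≠ 0 := by
    rintro rfl
    exact hf0 (by rw [map_zero, zero_div])
  have hq0 : q ≠ 0 := by
    rintro rfl
    exact hq (map_zero _)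
  -- reductions of scaled polynomials
  have key : ∀ p : C[X], p ≠ 0 → ∃ (a : C) (P : C[X]) (g : RatFunc (Ct C)), a ≠ 0 ∧
      p = Polynomial.C a * P ∧ w.v (algebraMap F0 K (aeval t P)) = 1 ∧
      ratHom (red w (algebraMap F0 K t)) htr g = red w (algebraMap F0 K (aeval t P)) := by
    intro p hp
    obtain ⟨a, P, m, ha, h1, h2, h3⟩ := exists_scaled p hp
    let c : (Ct C)[X] := ∑ m ∈ P.support, monomial m (rc (P.coeff m))
    have hc : ∀ m, rc (P.coeff m) = c.coeff m := by
      intro m
      simp only [c, finset_sum_coeff, coeff_monomial]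
      rw [Finset.sum_ite_eq' P.support m]
      split_ifs with h1
      · rfl
      · rw [notMem_support_iff.1 h1, rc_zero]
    have h4 := red_aeval w ht P h2 c hc
    have hc0 : c ≠ 0 := by
      intro h0
      have h5 := hc m
      rw [h0, coeff_zero, rc_eq_zero_iff (h2 m), h3] at h5
      exact lt_irrefl _ h5
    have h5 : red w (algebraMap F0 K (aeval t P)) ≠ 0 := by
      rw [hal, h4]
      intro h0
      exact htr ⟨c, hc0, h0⟩
    have h6 : w.v (algebraMap F0 K (aeval t P)) ≤ 1 := by
      rw [hal]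
      exact nm_aeval_le w ht P h2
    refine ⟨a, P, aeval RatFunc.X c, ha, h1, (red_ne_zero_iff w h6).1 h5, ?_⟩
    rw [hal, h4, ← aeval_algHom_apply, ratHom_X]
  obtain ⟨a, P, g1, ha, h1, h2, h3⟩ := key p hp0
  obtain ⟨b, Q, g2, hb, h4, h5, h6⟩ := key q hq0
  have e1 : algebraMap F0 K (aeval t p / aeval t q) =
      algebraMap C K (a / b) * (algebraMap F0 K (aeval t P) * (algebraMap F0 K (aeval t Q))⁻¹) := by
    rw [h1, h4, map_mul, map_mul, aeval_C, aeval_C, map_div₀, map_mul, map_mul, map_div₀,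
      ← IsScalarTower.algebraMap_apply, ← IsScalarTower.algebraMap_apply]
    have hbK : algebraMap C K b ≠ 0 := by rw [Ne, map_eq_zero]; exact hb
    have hQ : algebraMap F0 K (aeval t Q) ≠ 0 := by
      intro h0
      rw [h0, map_zero] at h5
      exact zero_ne_one h5
    field_simp
  have h7 : w.v (algebraMap F0 K (aeval t P) * (algebraMap F0 K (aeval t Q))⁻¹) = 1 := by
    rw [map_mul, map_inv₀, h2, h5, inv_one, one_mul]
  have h8 : w.v (algebraMap C K (a / b)) ≤ 1 := by
    rw [e1, map_mul, h7, mul_one] at hf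
    exact hf
  refine ⟨algebraMap (Ct C) (RatFunc (Ct C)) (rc (a / b)) * (g1 * g2⁻¹), ?_⟩
  rw [e1, red_mul w h8 h7.le, red_mul w h2.le (by rw [map_inv₀, h5, inv_one]), red_inv w h5,
    red_C w _ (by rw [w.hC] at h8; exact h8), map_mul, map_mul, map_inv₀, h3, h6,
    AlgHom.commutes]

/-- the residue field is a function field -/
theorem ff_of {t : F0} (hg : Gen C t) (ht : w.v (algebraMap F0 K t) ≤ 1)
    (htr : ∀ c : C, 1 ≤ w.v (algebraMap F0 K t - algebraMap C K c))
    {N : ℕ} (b : Fin N → K) (hb : ∀ l, w.v (b l) ≤ 1)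
    (hgen : ∀ y : K, w.v y ≤ 1 → ∃ c : Fin N → F0, (∀ l, w.v (algebraMap F0 K (c l)) ≤ 1) ∧
      w.v (y - ∑ l, algebraMap F0 K (c l) * b l) < 1) : FF w := by
  classical
  have htr' := transcendental_red w ht htr
  letI := ratAlg (red w (algebraMap F0 K t)) htr'
  haveI := ratAlg_tower (red w (algebraMap F0 K t)) htr'
  have hfin : FiniteDimensional (RatFunc (Ct C)) (kap w) := by
    refine ⟨⟨Finset.univ.image (fun l => red w (b l)), ?_⟩⟩
    rw [eq_top_iff]
    rintro g -
    obtain ⟨y, hy, rfl⟩ := red_surj w g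
    obtain ⟨c, h1, h2⟩ := hgen y hy
    have h3 : w.v (∑ l, algebraMap F0 K (c l) * b l) ≤ 1 := by
      refine Valuation.map_sum_le _ fun l _ => ?_
      rw [map_mul]
      exact mul_le_one' (h1 l) (hb l)
    rw [(red_eq_iff w hy h3).2 h2, red_sum w _ _ (fun l _ => by
      rw [map_mul]
      exact mul_le_one' (h1 l) (hb l))]
    refine Submodule.sum_mem _ fun l _ => ?_
    rw [red_mul w (h1 l) (hb l)]
    obtain ⟨g, hg'⟩ := red_mem_range w hg ht htr' (c l) (h1 l)
    rw [← hg']
    have h4 : ratHom (red w (algebraMap F0 K t)) htr' g * red w (b l) = g • red w (b l) :=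
      (Algebra.smul_def g (red w (b l))).symm
    rw [h4]
    refine Submodule.smul_mem _ _ (Submodule.subset_span ?_)
    rw [Finset.coe_image]
    exact ⟨l, Finset.mem_coe.2 (Finset.mem_univ l), rfl⟩
  obtain ⟨y, hy, h1, h2⟩ := Ins_240.exists_separating (k := Ct C) (K := kap w)
  exact ⟨ratAlg y hy, ratAlg_tower y hy, h1, h2⟩

end ff

section SAt

variable {C : Type*} [NormedField C] [IsUltrametricDist C] [IsAlgClosed C]
variable {F0 K : Type*} [Field F0] [Algebra C F0] [Field K] [Algebra C K] [Algebra F0 K]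
  [IsScalarTower C F0 K]

/-- the norms of `SAt` as `Nm`'s -/
noncomputable def SAt.nm {η : Valuation F0 ℝ≥0} (S : SAt F0 K η)
    (hC : ∀ c : C, η (algebraMap C F0 c) = ‖c‖₊) (hval : ∀ f : F0, f ≠ 0 → ∃ c : C, η f = ‖c‖₊)
    (i : Fin S.n) : Nm C K where
  v := S.w i
  hC := fun c => by rw [IsScalarTower.algebraMap_apply C F0 K, S.w_alg, hC]
  val := fun y hy => by
    obtain ⟨f, hf⟩ := S.val i y
    have hf0 : f ≠ 0 := by
      rintro rfl
      rw [map_zero] at hf
      exact (Valuation.ne_zero_iff _).2 hy hf.symm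
    obtain ⟨c, hc⟩ := hval f hf0
    exact ⟨c, by rw [← hf, hc]⟩

/-- the ends over a rational base end, from `SAt` -/
theorem SAt.exists_ends (E0 : End2 C F0) {t : F0} (hg : Gen C t) (ht : E0.nm t = 1)
    (ht' : E0.od t = 1) (S : SAt F0 K E0.nm) :
    ∃ (T : Finset (End C K)) (e : End C K → ℕ), (∀ s ∈ T, Over E0 (ofPl s.1 s.2) (e s)) ∧
      (∀ (s : End C K) (e' : ℕ), Over E0 (ofPl s.1 s.2) e' → s ∈ T) ∧
      finrank F0 K ≤ ∑ s ∈ T, e s := by
  classical
  have hlin : ∀ (w : Nm C K), (∀ f, w.v (algebraMap F0 K f) = E0.nm f) → ∀ c : C,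
      1 ≤ w.v (algebraMap F0 K t - algebraMap C K c) := by
    intro w hw c
    have h1 : algebraMap F0 K t - algebraMap C K c = algebraMap F0 K (t - algebraMap C F0 c) := by
      rw [map_sub, ← IsScalarTower.algebraMap_apply]
    rw [h1, hw, (E0.lin_val ht (by rw [ht']; exact one_pos) c).1]
    exact le_max_left _ _
  let w : Fin S.n → Nm C K := S.nm E0.hC E0.val
  obtain ⟨T, e, h1, h2, h3, h4⟩ := Red332.exists_ends (K := K) E0 hg ht ht' w
    (fun i j h => S.inj (congrArg Nm.v h)) (fun i f => S.w_alg i f)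
    (fun w' hw' => by
      obtain ⟨i, hi⟩ := S.complete w'.v hw'
      exact ⟨i, Nm.ext' fun f => by rw [hi]; rfl⟩)
    (fun i => ff_of (w i) hg (le_of_eq (by
      show S.w i (algebraMap F0 K t) = 1
      rw [S.w_alg, ht])) (hlin (w i) (fun f => S.w_alg i f)) (S.b i) (S.b_le i) (fun y hy => by
        obtain ⟨c, a1, a2⟩ := S.res_gen i y hy
        exact ⟨c, fun l => by
          show S.w i _ ≤ 1
          rw [S.w_alg]
          exact a1 l, a2⟩))
    S.d S.b S.b_le S.res_ge
  exact ⟨T, e, h1, h2, by rw [← S.sum_d]; exact h4⟩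

/-- all norms over the vertex have function fields as residue fields -/
theorem SAt.ff {η : Valuation F0 ℝ≥0} (S : SAt F0 K η) {t : F0} (hg : Gen C t) (ht : η t = 1)
    (htr : ∀ c : C, 1 ≤ η (t - algebraMap C F0 c)) (w : Nm C K)
    (hw : ∀ f, w.v (algebraMap F0 K f) = η f) : FF w := by
  obtain ⟨i, hi⟩ := S.complete w.v hw
  refine ff_of w hg (le_of_eq (by rw [hw, ht])) (fun c => ?_) (S.b i)
    (fun l => by rw [hi]; exact S.b_le i l) (fun y hy => ?_)
  · have h1 : algebraMap F0 K t - algebraMap C K c = algebraMap F0 K (t - algebraMap C F0 c) := by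
      rw [map_sub, ← IsScalarTower.algebraMap_apply]
    rw [h1, hw]
    exact htr c
  · obtain ⟨c, a1, a2⟩ := S.res_gen i y (by rw [← hi]; exact hy)
    refine ⟨c, fun l => by rw [hw]; exact a1 l, ?_⟩
    rw [hi]
    exact a2

/-- finitely many norms over the vertex -/
theorem SAt.finite {η : Valuation F0 ℝ≥0} (S : SAt F0 K η) :
    {w : Nm C K | ∀ f, w.v (algebraMap F0 K f) = η f}.Finite := by
  classical
  refine Set.Finite.of_injOn (t := Set.range S.w) (f := fun w : Nm C K => w.v) (fun w hw => ?_)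
    (fun w _ w' _ h => Nm.ext' fun f => by
      have h' : w.v = w'.v := h
      rw [h']) (Set.finite_range _)
  obtain ⟨i, hi⟩ := S.complete w.v hw
  exact ⟨i, hi.symm⟩

end SAt

end Crest.Agent.R013.Red332
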