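import Mathlib
import Crest.Agent.R013.Red12_332
import Crest.Agent.R013.Red13_332
import Crest.Agent.R013.Good2_408
import Crest.Agent.R013.PL1_109

/-!
# R013 / Red14: the ends over a good cell; directions on the line (helper332)
-/

set_option autoImplicit false
set_option linter.all false

namespace Crest.Agent.R013.Red332

open scoped NNReal
open WithZero IsLocalRing Polynomial Module
open Crest.Agent.R013.RR7_948
open Crest.Agent.R013.EE809 Crest.Agent.R013.CAn_243
open Crest.Agent.R013.Cell_408 Crest.Agent.R013.Comp_267 Crest.Agent.R013.Good_408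
open Crest.Agent.R013.PL_109

section pi

variable {k C : Type*} [NontriviallyNormedField k] [CompleteSpace k] [IsUltrametricDist k]
  [NormedField C] [IsUltrametricDist C] [NormedAlgebra k C] [Algebra.IsAlgebraic k C]
  [IsAlgClosed C] [hk : Fact (DiscNorm k)]
variable {F0 K : Type*} [Field F0] [Algebra C F0] [Field K] [Algebra C K] [Algebra F0 K]
  [IsScalarTower C F0 K]

/-- the ends over `E0` are given by the good embeddings -/
theorem GEnd.exists_pi {E0 : End2 C F0} {t : F0} (hg : Gen C t) (ht : E0.nm t = 1)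
    (ht' : E0.od t = 1) (S : SAt F0 K E0.nm) {J : Type*} [Fintype J] {m : J → ℕ}
    {io : J → K →ₐ[C] EE k C} (G : GEnd E0 m io) (hsum : ∑ j, m j = finrank F0 K) :
    ∃ π : J → End C K, Function.Injective π ∧
      (∀ j, Over E0 (ofPl (π j).1 (π j).2) (m j)) ∧
      (∀ (s : End C K) (e : ℕ), Over E0 (ofPl s.1 s.2) e → ∃ j, s = π j) ∧
      (∀ j z, gn (io j z) = (π j).1.v z) ∧
      ∀ j z, z ≠ 0 → EE809.od (io j z) = od (π j).1 (π j).2 z := by
  obtain ⟨T, e, h1, h2, h3⟩ := S.exists_ends E0 hg ht ht'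
  obtain ⟨π, a1, a2, a3⟩ := G.bij ht ht' T e h1 h2 (by rw [hsum]; exact h3)
  refine ⟨π, a1, fun j => ?_, fun s e' h => (a2 s).1 (h2 s e' h), fun j z => ?_, fun j z hz => ?_⟩
  · rw [(a3 j).1]
    exact h1 _ ((a2 _).2 ⟨j, rfl⟩)
  · rw [(a3 j).2.1 z, EEend_nm]
  · exact ((a3 j).2.2 z hz).symm

end pi

section dir

variable {C : Type*} [NormedField C] [IsUltrametricDist C] [IsAlgClosed C]
variable {K : Type*} [Field K] [Algebra C K]

/-- every place of the residue field at a coordinate is either at infinity or at a constant -/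
theorem exists_dir (w : Nm C K) (hff : FF w) (x : Pl (Ct C) (kap w)) {t : K} (ht : w.v t = 1)
    (htr : ∀ c : C, 1 ≤ w.v (t - algebraMap C K c)) :
    od w x t < 0 ∨ ∃ c : C, ‖c‖₊ ≤ 1 ∧ w.v (t - algebraMap C K c) = 1 ∧
      0 < od w x (t - algebraMap C K c) := by
  by_cases h : od w x t < 0
  · exact Or.inl h
  right
  push Not at h
  obtain ⟨i1, i2, i3, i4⟩ := hff
  have h1 : x.v (red w t) ≤ 1 := by
    rw [v_red_of_one x ht, ← exp_zero, exp_le_exp]
    omega
  obtain ⟨c, hc⟩ := GR2_921.exists_const x h1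
  obtain ⟨c', hc', rfl⟩ := rc_surj c
  have hle : w.v (t - algebraMap C K c') ≤ 1 :=
    (w.v.map_sub _ _).trans (max_le ht.le (by rw [w.hC]; exact hc'))
  have h2 : w.v (t - algebraMap C K c') = 1 := le_antisymm hle (htr c')
  refine ⟨c', hc', h2, ?_⟩
  have h3 := v_red_of_one x h2
  rw [red_sub w ht.le (by rw [w.hC]; exact hc'), red_C w c' hc'] at h3
  rw [h3, ← exp_zero, exp_lt_exp] at hc
  omega

variable (E : End2 C K)

/-- `t ↦ t + d`, `|d| < 1` -/
theorem End2.dir_congr {t : K} (ht : E.nm t = 1) {d : C} (hd : ‖d‖₊ < 1) :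
    E.nm (t + algebraMap C K d) = 1 ∧ E.od (t + algebraMap C K d) = E.od t := by
  have h : E.nm (algebraMap C K d) < E.nm t := by rw [E.hC, ht]; exact hd
  exact ⟨by rw [Valuation.map_add_eq_of_lt_left _ h, ht], E.od_lt _ _ h⟩

/-- two coordinates at a direction differ by a small constant -/
theorem End2.dir_unique {t : K} (ht : E.nm t = 1) (ht' : 0 < E.od t) {d : C}
    (h : E.nm (t + algebraMap C K d) = 1) (h' : 0 < E.od (t + algebraMap C K d)) : ‖d‖₊ < 1 := by
  by_contra hd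
  push Not at hd
  have h1 := (E.lin_val ht ht' (-d)).2
  rw [map_neg, sub_neg_eq_add, nnnorm_neg, if_neg (not_lt.2 hd)] at h1
  omega

end dir

section line

variable {C : Type*} [NormedField C] [IsUltrametricDist C] [IsAlgClosed C]

/-- the coordinate of a disc or of the outer side of an annulus -/
noncomputable def fT (a ρ : C) : RatFunc C := (RatFunc.X - RatFunc.C a) / RatFunc.C ρ

/-- the coordinate at infinity -/
noncomputable def fI (a ρ : C) : RatFunc C := RatFunc.C ρ / (RatFunc.X - RatFunc.C a)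

theorem fI_eq (a ρ : C) : fI a ρ = (fT a ρ)⁻¹ := by
  rw [fI, fT, inv_div]

theorem algC (c : C) : algebraMap C (RatFunc C) c = RatFunc.C c := rfl

theorem ratC_ne {ρ : C} (hρ : ρ ≠ 0) : (RatFunc.C ρ : RatFunc C) ≠ 0 := by
  rw [Ne, map_eq_zero]; exact hρ

theorem fT_ne {a ρ : C} (hρ : ρ ≠ 0) : fT a ρ ≠ 0 :=
  div_ne_zero (X_sub_C_ne_zero a) (ratC_ne hρ)

theorem gen_fT (a : C) {ρ : C} (hρ : ρ ≠ 0) : Gen C (fT a ρ) := by
  refine gen_of_mem ?_
  have h1 : fT a ρ ∈ IntermediateField.adjoin C {fT a ρ} := IntermediateField.mem_adjoin_simple_self _ _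
  have h2 : (RatFunc.X : RatFunc C) = algebraMap C (RatFunc C) ρ * fT a ρ + algebraMap C _ a := by
    rw [algC, algC, fT, mul_div_cancel₀ _ (ratC_ne hρ), sub_add_cancel]
  rw [h2]
  exact add_mem (mul_mem (algebraMap_mem _ ρ) h1) (algebraMap_mem _ a)

theorem gen_fI (a : C) {ρ : C} (hρ : ρ ≠ 0) : Gen C (fI a ρ) := by
  refine gen_of_mem ?_
  have h1 : fI a ρ ∈ IntermediateField.adjoin C {fI a ρ} := IntermediateField.mem_adjoin_simple_self _ _
  have h2 : (RatFunc.X : RatFunc C) = algebraMap C (RatFunc C) ρ * (fI a ρ)⁻¹ + algebraMap C _ a := by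
    rw [algC, algC, fI_eq, inv_inv, fT, mul_div_cancel₀ _ (ratC_ne hρ), sub_add_cancel]
  rw [h2]
  exact add_mem (mul_mem (algebraMap_mem _ ρ) (inv_mem h1)) (algebraMap_mem _ a)

/-- change of the centre -/
theorem fT_change (a b ρ : C) (hρ : ρ ≠ 0) : fT a ρ = fT b ρ + algebraMap C (RatFunc C) ((b - a) / ρ) := by
  rw [algC, fT, fT, map_div₀, map_sub, ← add_div]
  congr 1
  ring

variable {E : End2 C (RatFunc C)}

theorem nm_X_sub {a ρ : C} (hρ : ρ ≠ 0) (h : ∀ c : C, E.nm (fT a ρ - algebraMap C _ c) = max 1 ‖c‖₊)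
    (b : C) : E.nm (RatFunc.X - RatFunc.C b) = max ‖ρ‖₊ ‖a - b‖₊ := by
  have h1 : (RatFunc.X - RatFunc.C b : RatFunc C) =
      algebraMap C _ ρ * (fT a ρ - algebraMap C _ ((b - a) / ρ)) := by
    have h2 := fT_change a b ρ hρ
    rw [h2, add_sub_cancel_right, algC, fT, mul_div_cancel₀ _ (ratC_ne hρ)]
  rw [h1, map_mul, h, E.hC, mul_max_of_nonneg _ _ zero_le, mul_one, nnnorm_div,
    mul_div_cancel₀ _ (by rwa [Ne, nnnorm_eq_zero]), ← nnnorm_neg (b - a), neg_sub]

/-- the norm of an end at the coordinate of a disc is the Gauss norm of the disc -/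
theorem nm_eq_gauss {a ρ : C} (hρ : ρ ≠ 0)
    (h : ∀ c : C, E.nm (fT a ρ - algebraMap C _ c) = max 1 ‖c‖₊)
    (hr : ‖ρ‖₊ ≠ 0) : E.nm = gaussR (NormedField.valuation (K := C)) a ‖ρ‖₊ hr := by
  apply ext_of_linear
  · intro c
    rw [gaussR_C]
    exact E.hC c
  · intro b
    rw [gaussR_X_sub, nm_X_sub hρ h]
    rfl

theorem nm_fT {a ρ : C} (h1 : E.nm (fT a ρ) = 1) (h2 : 0 < E.od (fT a ρ)) (c : C) :
    E.nm (fT a ρ - algebraMap C _ c) = max 1 ‖c‖₊ := (E.lin_val h1 h2 c).1

theorem nm_fI {a ρ : C} (hρ : ρ ≠ 0) (h1 : E.nm (fI a ρ) = 1) (h2 : 0 < E.od (fI a ρ)) (c : C) :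
    E.nm (fT a ρ - algebraMap C _ c) = max 1 ‖c‖₊ := by
  have ht : E.nm (fT a ρ) = 1 := by
    have h3 : E.nm (fI a ρ) = (E.nm (fT a ρ))⁻¹ := by rw [fI_eq, map_inv₀]
    rw [h3] at h1
    exact inv_eq_one.1 h1
  by_cases hc : c = 0
  · rw [hc, map_zero, sub_zero, ht, nnnorm_zero, max_eq_left zero_le_one]
  have hcR : algebraMap C (RatFunc C) c ≠ 0 := by rw [Ne, map_eq_zero]; exact hc
  have hfT := fT_ne (a := a) hρ
  have e : fT a ρ - algebraMap C _ c =
      -(fT a ρ * algebraMap C _ c) * (fI a ρ - algebraMap C _ c⁻¹) := by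
    rw [fI_eq, map_inv₀]
    field_simp
    ring
  rw [e, map_mul, Valuation.map_neg, map_mul, ht, one_mul, (E.lin_val h1 h2 _).1, E.hC, nnnorm_inv,
    mul_max_of_nonneg _ _ zero_le, mul_one, mul_inv_cancel₀ (by rwa [Ne, nnnorm_eq_zero]),
    max_comm]

end line

section cells

variable {k C : Type*} [NontriviallyNormedField k] [CompleteSpace k] [IsUltrametricDist k]
  [NormedField C] [IsUltrametricDist C] [NormedAlgebra k C] [Algebra.IsAlgebraic k C]
  [IsAlgClosed C] [hk : Fact (DiscNorm k)]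
variable {K : Type*} [Field K] [Algebra C K] [Algebra (RatFunc C) K]
    [IsScalarTower C (RatFunc C) K] [FiniteDimensional (RatFunc C) K]

theorem baseD_one {y : FD k C} (D : DCells k C K y) {t : RatFunc C} (h : D.i t = TF k C) :
    (baseD D).nm t = 1 ∧ (baseD D).od t = 1 := by
  constructor
  · show (FDend k C).nm (D.i t) = 1
    rw [h]; exact FDend_TF.1
  · show (FDend k C).od (D.i t) = 1
    rw [h]; exact FDend_TF.2

theorem baseO_one {c : C} {y : EE k C} (D : ACells k C K c y) {t : RatFunc C} (h : D.i t = T 1) :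
    (baseO D).nm t = 1 ∧ (baseO D).od t = 1 := by
  constructor
  · show (EEend k C).nm (D.i t) = 1
    rw [h]; exact EEend_nm_one (by rw [T, gn_mo, norm_one])
  · show EE809.od (D.i t) = 1
    rw [h, T, mo, od_mono _ _ one_ne_zero]

theorem baseI_one {c : C} {y : EE k C} (D : ACells k C K c y) {t : RatFunc C} (h : D.i t = T 1) :
    (baseI D).nm (algebraMap C _ c / t) = 1 ∧ (baseI D).od (algebraMap C _ c / t) = 1 := by
  have e0 : iA D t = TA k c 1 := Subtype.ext (by rw [coe_iA, h, coe_TA])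
  have hc := D.c_ne
  have e1 : (flipF c D.c_ne D.c_lt (iA D (algebraMap C _ c / t)) : EE k C) = T 1 := by
    rw [map_div₀, map_div₀, AlgHom.commutes, AlgHom.commutes, e0]
    have e2 : ((algebraMap C (FA k c) c / flipF c D.c_ne D.c_lt (TA k c 1) : FA k c) : EE k C) =
      algebraMap C (EE k C) c / (flipF c D.c_ne D.c_lt (TA k c 1) : EE k C) := rfl
    rw [e2, flipF_TA, zpow_one]
    have h3 : (mo (-1) c : EE k C) ≠ 0 := by
      intro h0
      have := congrArg (fun z : EE k C => z.co (-1)) h0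
      simp only [co_mo, if_pos, co_zero] at this
      exact hc this
    rw [div_eq_iff h3, T, mo_mul_mo, EE809.algebraMap_eq]
    congr 1
    rw [one_mul]
  constructor
  · show (EEend k C).nm (flipF c D.c_ne D.c_lt (iA D (algebraMap C _ c / t)) : EE k C) = 1
    rw [e1]; exact EEend_nm_one (by rw [T, gn_mo, norm_one])
  · show EE809.od (flipF c D.c_ne D.c_lt (iA D (algebraMap C _ c / t)) : EE k C) = 1
    rw [e1, T, mo, od_mono _ _ one_ne_zero]

end cells

end Crest.Agent.R013.Red332
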