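import Mathlib
import Crest.Agent.R013.Red14_332
import Crest.Agent.R013.CAnR2_109
import Crest.Agent.R013.LineDec_315

/-!
# R013 / Red15: the ends over the base cells of a decomposition of the line (helper332)
-/

set_option autoImplicit false
set_option linter.all false

universe u

namespace Crest.Agent.R013.Red332

open scoped NNReal
open WithZero IsLocalRing Polynomial Module
open Crest.Agent.R013.RR7_948
open Crest.Agent.R013.EE809 Crest.Agent.R013.CAn_243
open Crest.Agent.R013.Cell_408 Crest.Agent.R013.Comp_267 Crest.Agent.R013.Good_408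
open Crest.Agent.R013.PL_109 Crest.Agent.R013.LineDec_315

section gauss

variable {C : Type*} [NormedField C] [IsUltrametricDist C] [IsAlgClosed C]

theorem gaussR_congr {a b : C} {r s : ℝ≥0} (hr : r ≠ 0) (hs : s ≠ 0) (hrs : r = s)
    (h : ‖a - b‖₊ ≤ r) : gaussR (nv C) a r hr = gaussR (nv C) b s hs := by
  subst hrs
  apply ext_of_linear
  · intro c
    rw [gaussR_C, gaussR_C]
  · intro c
    rw [gaussR_X_sub, gaussR_X_sub]
    have h1 : nv C (a - b) ≤ r := h
    have h2 : nv C (b - a) ≤ r := by rw [Valuation.map_sub_swap]; exact h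
    apply le_antisymm
    · refine max_le (le_max_left _ _) ?_
      have h3 : a - c = (a - b) + (b - c) := by ring
      rw [h3]
      refine ((nv C).map_add _ _).trans (max_le (h1.trans (le_max_left _ _)) (le_max_right _ _))
    · refine max_le (le_max_left _ _) ?_
      have h3 : b - c = (b - a) + (a - c) := by ring
      rw [h3]
      refine ((nv C).map_add _ _).trans (max_le (h2.trans (le_max_left _ _)) (le_max_right _ _))

theorem gaussR_inj {a b : C} {r s : ℝ≥0} (hr : r ≠ 0) (hs : s ≠ 0)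
    (h : gaussR (nv C) a r hr = gaussR (nv C) b s hs) : ‖a - b‖₊ ≤ r ∧ r = s := by
  have h1 : gaussR (nv C) a r hr (RatFunc.X - RatFunc.C a) = gaussR (nv C) b s hs (RatFunc.X - RatFunc.C a) := by
    rw [h]
  have h2 : gaussR (nv C) a r hr (RatFunc.X - RatFunc.C b) = gaussR (nv C) b s hs (RatFunc.X - RatFunc.C b) := by
    rw [h]
  rw [gaussR_X_sub, gaussR_X_sub, sub_self, map_zero, max_eq_left zero_le] at h1
  rw [gaussR_X_sub, gaussR_X_sub, sub_self, map_zero, max_eq_left zero_le] at h2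
  have h3 : r = s := le_antisymm (by rw [← h2]; exact le_max_left _ _) (by rw [h1]; exact le_max_left _ _)
  refine ⟨?_, h3⟩
  have h4 : nv C (a - b) ≤ s := by rw [← h2]; exact le_max_right _ _
  rw [h3]
  exact h4

end gauss

variable {k : Type*} {C : Type u} {K : Type*} [NontriviallyNormedField k]
    [CompleteSpace k] [IsUltrametricDist k] [NormedField C] [IsUltrametricDist C] [NormedAlgebra k C]
    [Algebra.IsAlgebraic k C] [IsAlgClosed C] [hk : Fact (DiscNorm k)]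
    [Field K] [Algebra C K] [Algebra (RatFunc C) K] [IsScalarTower C (RatFunc C) K]

variable [FiniteDimensional (RatFunc C) K]

/-- **spanning**: from 109's representation theorem -/
theorem spanA {c : C} {y : EE k C} (D : ACells k C K c y) : SpanA D := by
  intro j z hz
  obtain ⟨e, he, h⟩ := CAnR_109.repr_FA (D.c'_ne j) (D.c'_lt j) (D.we j) (wa_of D j) (D.m_ne j)
    (D.hc' j) hz
  refine ⟨e, he, ?_⟩
  rw [h]
  exact Finset.sum_congr rfl fun i _ => mul_comm _ _

theorem i_fT {a ρ : C} (hρ : ρ ≠ 0) (D : DCells k C K (discY k C a ρ)) : D.i (fT a ρ) = TF k C := by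
  have h1 : D.i (fT a ρ) = (D.i RatFunc.X - algebraMap C _ a) / algebraMap C _ ρ := by
    rw [fT, map_div₀, map_sub]
    congr 1
    · congr 1
      exact D.i.commutes a
    · exact D.i.commutes ρ
  rw [h1, D.i_X, discY, add_sub_cancel_left, mul_div_cancel_left₀]
  rw [Ne, map_eq_zero]
  exact hρ

theorem i_fI {ρ : C} (hρ : ρ ≠ 0) (D : DCells k C K (infY k C ρ)) : D.i (fI 0 ρ) = TF k C := by
  have h0 : TF k C ≠ 0 := (FDend k C).ne_zero_of_one FDend_TF.1
  have h2 : algebraMap C (FD k C) ρ ≠ 0 := by rw [Ne, map_eq_zero]; exact hρ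
  have h1 : D.i (fI 0 ρ) = algebraMap C _ ρ / D.i RatFunc.X := by
    rw [fI, map_div₀, map_zero, sub_zero]
    congr 1
    exact D.i.commutes ρ
  rw [h1, D.i_X, infY]
  field_simp

theorem i_annT {c a ρ : C} (hρ : ρ ≠ 0) (D : ACells k C K c (annY k C a ρ)) :
    D.i (fT a ρ) = T 1 := by
  have h1 : D.i (fT a ρ) = (D.i RatFunc.X - algebraMap C _ a) / algebraMap C _ ρ := by
    rw [fT, map_div₀, map_sub]
    congr 1
    · congr 1
      exact D.i.commutes a
    · exact D.i.commutes ρ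
  rw [h1, D.i_X, annY, add_sub_cancel_left, mul_div_cancel_left₀]
  rw [Ne, map_eq_zero]
  exact hρ

variable (D : LineDec k C K)

/-- the Gauss norm of a vertex -/
noncomputable def gvx (x : D.V) : Valuation (RatFunc C) ℝ≥0 :=
  gaussR (nv C) (D.a x) ‖D.ρ x‖₊ (by rw [Ne, nnnorm_eq_zero]; exact D.ρ_ne x)

theorem gvx_inj {x y : D.V} (h : gvx D x = gvx D y) : x = y := by
  obtain ⟨h1, h2⟩ := gaussR_inj _ _ h
  exact D.V_inj x y h1 h2

/-- the cells over the discs, the disc at infinity and the annuli -/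
noncomputable def cellU (u : D.U) : DCells k C K (discY k C (D.cU u) (D.ρ (D.uv u))) := (D.goodU u).some
noncomputable def cellI : DCells k C K (infY k C (D.ρ D.r)) := D.inf.some
noncomputable def cellE (e : D.E) : ACells k C K (D.ρ (D.ch e) / D.ρ (D.pa e))
    (annY k C (D.a (D.ch e)) (D.ρ (D.pa e))) := (D.goodE e).some

/-- the ends of the base cells -/
inductive Bs : Type _
  | u (u : D.U) : Bs
  | i : Bs
  | o (e : D.E) : Bs
  | j (e : D.E) : Bs

namespace Bs

variable {D}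

/-- the vertex -/
def vx : Bs D → D.V
  | u x => D.uv x
  | i => D.r
  | o e => D.pa e
  | j e => D.ch e

/-- the coordinate -/
noncomputable def t : Bs D → RatFunc C
  | u x => fT (D.cU x) (D.ρ (D.uv x))
  | i => fI 0 (D.ρ D.r)
  | o e => fT (D.a (D.ch e)) (D.ρ (D.pa e))
  | j e => fI (D.a (D.ch e)) (D.ρ (D.ch e))

/-- the end of `C(x)` -/
noncomputable def E : Bs D → End2 C (RatFunc C)
  | u x => baseD (cellU D x)
  | i => baseD (cellI D)
  | o e => baseO (cellE D e)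
  | j e => baseI (cellE D e)

/-- the cells of `K` over the base cell -/
def J : Bs D → Type
  | u x => (cellU D x).J
  | i => (cellI D).J
  | o e => (cellE D e).J
  | j e => (cellE D e).J

noncomputable instance (b : Bs D) : Fintype b.J := by
  cases b
  · exact (cellU D _).fJ
  · exact (cellI D).fJ
  · exact (cellE D _).fJ
  · exact (cellE D _).fJ

noncomputable def m : ∀ b : Bs D, b.J → ℕ
  | u x => (cellU D x).m
  | i => (cellI D).m
  | o e => (cellE D e).m
  | j e => (cellE D e).m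

noncomputable def io : ∀ b : Bs D, b.J → K →ₐ[C] EE k C
  | u x => fun l => (toEE k C).comp ((cellU D x).io l)
  | i => fun l => (toEE k C).comp ((cellI D).io l)
  | o e => fun l => (cellE D e).io l
  | j e => fun l => io1A (cellE D e) l

theorem t_j (e : D.E) : algebraMap C (RatFunc C) (D.ρ (D.ch e) / D.ρ (D.pa e)) /
    fT (D.a (D.ch e)) (D.ρ (D.pa e)) = fI (D.a (D.ch e)) (D.ρ (D.ch e)) := by
  have h1 := ratC_ne (D.ρ_ne (D.pa e))
  have h2 := PL_109.X_sub_C_ne_zero (D.a (D.ch e))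
  rw [algC, map_div₀, fT, fI]
  field_simp

theorem one (b : Bs D) : b.E.nm b.t = 1 ∧ b.E.od b.t = 1 := by
  cases b with
  | u x => exact baseD_one (cellU D x) (i_fT (D.ρ_ne _) _)
  | i => exact baseD_one (cellI D) (i_fI (D.ρ_ne _) _)
  | o e => exact baseO_one (cellE D e) (i_annT (D.ρ_ne _) _)
  | j e =>
    have := baseI_one (cellE D e) (i_annT (D.ρ_ne _) _)
    rw [t_j] at this
    exact this

theorem gen (b : Bs D) : Gen C b.t := by
  cases b with
  | u x => exact gen_fT _ (D.ρ_ne _)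
  | i => exact gen_fI _ (D.ρ_ne _)
  | o e => exact gen_fT _ (D.ρ_ne _)
  | j e => exact gen_fI _ (D.ρ_ne _)

theorem gEnd (b : Bs D) : GEnd b.E b.m b.io := by
  cases b with
  | u x => exact gEnd_disc (cellU D x) (one (u x)).1 (one (u x)).2
  | i => exact gEnd_disc (cellI D) (one i).1 (one i).2
  | o e => exact gEnd_out (cellE D e) (spanA _) (one (o e)).1 (one (o e)).2
  | j e => exact gEnd_in (cellE D e) (spanA _) (one (j e)).1 (one (j e)).2

theorem sum_m (b : Bs D) : ∑ l, b.m l = finrank (RatFunc C) K := by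
  cases b with
  | u x => exact (cellU D x).sum_m
  | i => exact (cellI D).sum_m
  | o e => exact (cellE D e).sum_m
  | j e => exact (cellE D e).sum_m

/-- an end at which `t b` is a coordinate has the Gauss norm of the vertex of `b` -/
theorem nm_eq (b : Bs D) {F : End2 C (RatFunc C)} (h1 : F.nm b.t = 1) (h2 : 0 < F.od b.t) :
    F.nm = gvx D b.vx := by
  cases b with
  | u x =>
    have h := nm_eq_gauss (D.ρ_ne _) (nm_fT h1 h2) (by rw [Ne, nnnorm_eq_zero]; exact D.ρ_ne _)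
    rw [h]
    exact gaussR_congr _ _ rfl (D.cU_le x)
  | i =>
    have h := nm_eq_gauss (D.ρ_ne _) (nm_fI (D.ρ_ne _) h1 h2) (by rw [Ne, nnnorm_eq_zero]; exact D.ρ_ne _)
    rw [h]
    refine gaussR_congr _ _ rfl ?_
    show ‖(0 : C) - D.a D.r‖₊ ≤ _
    rw [D.a_r, sub_self, nnnorm_zero]
    exact zero_le
  | o e =>
    have h := nm_eq_gauss (D.ρ_ne _) (nm_fT h1 h2) (by rw [Ne, nnnorm_eq_zero]; exact D.ρ_ne _)
    rw [h]
    exact gaussR_congr _ _ rfl (D.E_le e)
  | j e =>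
    have h := nm_eq_gauss (D.ρ_ne _) (nm_fI (D.ρ_ne _) h1 h2) (by rw [Ne, nnnorm_eq_zero]; exact D.ρ_ne _)
    rw [h]
    rfl

theorem nm_E (b : Bs D) : b.E.nm = gvx D b.vx :=
  nm_eq b (one b).1 (by rw [(one b).2]; exact one_pos)

/-- **existence of the direction** -/
theorem exists_dir (x : D.V) (w : Nm C K) (hff : FF w)
    (hw : ∀ f, w.v (algebraMap (RatFunc C) K f) = gvx D x f) (y : Pl (Ct C) (kap w)) :
    ∃ b : Bs D, b.vx = x ∧ w.v (algebraMap (RatFunc C) K b.t) = 1 ∧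
      0 < Red332.od w y (algebraMap (RatFunc C) K b.t) := by
  set T0 : RatFunc C := fT (D.a x) (D.ρ x) with hT0
  have hρ := D.ρ_ne x
  have hρn : ‖D.ρ x‖₊ ≠ 0 := by rwa [Ne, nnnorm_eq_zero]
  -- values of `T0 - c`
  have hlin : ∀ c : C, w.v (algebraMap (RatFunc C) K T0 - algebraMap C K c) = max 1 ‖c‖₊ := by
    intro c
    have e1 : T0 - algebraMap C (RatFunc C) c = fT (D.a x + D.ρ x * c) (D.ρ x) := by
      rw [fT_change (D.a x + D.ρ x * c) (D.a x) _ hρ, sub_eq_add_neg, ← map_neg]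
      congr 2
      field_simp
      ring
    rw [IsScalarTower.algebraMap_apply C (RatFunc C) K, ← map_sub, e1, hw, fT, map_div₀, gvx,
      gaussR_X_sub, gaussR_C]
    have e2 : D.a x - (D.a x + D.ρ x * c) = -(D.ρ x * c) := by ring
    rw [e2, Valuation.map_neg, map_mul]
    show max ‖D.ρ x‖₊ (‖D.ρ x‖₊ * ‖c‖₊) / ‖D.ρ x‖₊ = _
    rw [← mul_one (‖D.ρ x‖₊), mul_assoc, ← mul_max_of_nonneg _ _ zero_le, one_mul,
      mul_one (‖D.ρ x‖₊), mul_div_cancel_left₀ _ hρn]
  have h1 : w.v (algebraMap (RatFunc C) K T0) = 1 := by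
    have := hlin 0
    rw [map_zero, sub_zero, nnnorm_zero, max_eq_left zero_le_one] at this
    exact this
  have hT1 : algebraMap (RatFunc C) K T0 ≠ 0 := by
    intro h0
    rw [h0, map_zero] at h1
    exact zero_ne_one h1
  rcases Red332.exists_dir w hff y h1 (fun c => by rw [hlin]; exact le_max_left _ _) with h2 | ⟨c, hc, h2, h3⟩
  · -- infinity
    have hI : w.v (algebraMap (RatFunc C) K (fI (D.a x) (D.ρ x))) = 1 ∧
        0 < Red332.od w y (algebraMap (RatFunc C) K (fI (D.a x) (D.ρ x))) := by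
      rw [fI_eq, map_inv₀, map_inv₀, h1, inv_one]
      refine ⟨rfl, ?_⟩
      rw [Red332.od_inv y hT1]
      omega
    by_cases hx : x = D.r
    · subst hx
      refine ⟨i, rfl, ?_, ?_⟩
      · show w.v (algebraMap (RatFunc C) K (fI 0 (D.ρ D.r))) = 1
        rw [← D.a_r]; exact hI.1
      · show 0 < Red332.od w y (algebraMap (RatFunc C) K (fI 0 (D.ρ D.r)))
        rw [← D.a_r]; exact hI.2
    · obtain ⟨e, rfl⟩ := (D.ch_range x).1 hx
      exact ⟨j e, rfl, hI.1, hI.2⟩
  · -- the direction of a constant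
    set c' : C := D.a x + D.ρ x * c with hc'
    have hle : ‖c' - D.a x‖₊ ≤ ‖D.ρ x‖₊ := by
      rw [hc', add_sub_cancel_left, nnnorm_mul]
      exact mul_le_of_le_one_right zero_le hc
    have e1 : algebraMap (RatFunc C) K T0 - algebraMap C K c =
        algebraMap (RatFunc C) K (fT c' (D.ρ x)) := by
      rw [fT_change c' (D.a x) _ hρ, map_add, ← IsScalarTower.algebraMap_apply, sub_eq_add_neg,
        ← map_neg]
      congr 2
      rw [hc']
      field_simp
      ring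
    rw [e1] at h2 h3
    have key : ∀ b : C, ‖b - c'‖₊ < ‖D.ρ x‖₊ →
        w.v (algebraMap (RatFunc C) K (fT b (D.ρ x))) = 1 ∧
        0 < Red332.od w y (algebraMap (RatFunc C) K (fT b (D.ρ x))) := by
      intro b hb
      have e2 : algebraMap (RatFunc C) K (fT b (D.ρ x)) =
          algebraMap (RatFunc C) K (fT c' (D.ρ x)) + algebraMap C K ((c' - b) / D.ρ x) := by
        rw [fT_change b c' _ hρ, map_add, ← IsScalarTower.algebraMap_apply]
      have hlt : ‖(c' - b) / D.ρ x‖₊ < 1 := by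
        rw [nnnorm_div, ← nnnorm_neg (c' - b), neg_sub]
        exact (div_lt_one (pos_iff_ne_zero.2 hρn)).2 hb
      have h4 := (ofPl w y).dir_congr (t := algebraMap (RatFunc C) K (fT c' (D.ρ x))) h2 hlt
      rw [e2]
      refine ⟨h4.1, ?_⟩
      have h5 : Red332.od w y (algebraMap (RatFunc C) K (fT c' (D.ρ x)) +
        algebraMap C K ((c' - b) / D.ρ x)) = Red332.od w y (algebraMap (RatFunc C) K (fT c' (D.ρ x))) := h4.2
      rw [h5]
      exact h3
    rcases D.dir x c' hle with ⟨e, he, h4⟩ | ⟨v, hv, h4⟩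
    · refine ⟨o e, he, ?_⟩
      show w.v (algebraMap (RatFunc C) K (fT (D.a (D.ch e)) (D.ρ (D.pa e)))) = 1 ∧
        0 < Red332.od w y (algebraMap (RatFunc C) K (fT (D.a (D.ch e)) (D.ρ (D.pa e))))
      rw [he]
      exact key _ h4
    · refine ⟨u v, hv, ?_⟩
      show w.v (algebraMap (RatFunc C) K (fT (D.cU v) (D.ρ (D.uv v)))) = 1 ∧
        0 < Red332.od w y (algebraMap (RatFunc C) K (fT (D.cU v) (D.ρ (D.uv v))))
      rw [hv]
      exact key _ h4

/-- the centre of a finite direction -/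
theorem fin_unique {F : End2 C (RatFunc C)} {a b ρ : C} (hρ : ρ ≠ 0) (h1 : F.nm (fT a ρ) = 1)
    (h2 : 0 < F.od (fT a ρ)) (h3 : F.nm (fT b ρ) = 1) (h4 : 0 < F.od (fT b ρ)) :
    ‖a - b‖₊ < ‖ρ‖₊ := by
  rw [fT_change b a ρ hρ] at h3 h4
  have h5 := F.dir_unique h1 h2 h3 h4
  rw [nnnorm_div, div_lt_one (pos_iff_ne_zero.2 (by rwa [Ne, nnnorm_eq_zero]))] at h5
  exact h5

/-- a finite direction is not infinity -/
theorem fin_inf {F : End2 C (RatFunc C)} {a b ρ : C} (hρ : ρ ≠ 0) (h1 : F.nm (fT a ρ) = 1)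
    (h2 : 0 < F.od (fT a ρ)) (h4 : 0 < F.od (fI b ρ)) (hab : ‖a - b‖₊ ≤ ‖ρ‖₊) : False := by
  rw [fI_eq, F.od_inv (fT_ne hρ)] at h4
  have h5 : fT b ρ = fT a ρ - algebraMap C _ (-((a - b) / ρ)) := by
    rw [map_neg, sub_neg_eq_add]
    exact fT_change b a ρ hρ
  have h6 := (F.lin_val h1 h2 (-((a - b) / ρ))).2
  rw [← h5] at h6
  split_ifs at h6 <;> omega

/-- **uniqueness of the direction** -/
theorem dir_unique {b b' : Bs D} {F : End2 C (RatFunc C)} (h1 : F.nm b.t = 1) (h2 : 0 < F.od b.t)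
    (h1' : F.nm b'.t = 1) (h2' : 0 < F.od b'.t) : b = b' := by
  have hv : b.vx = b'.vx := gvx_inj D (by rw [← nm_eq b h1 h2, nm_eq b' h1' h2'])
  have hne : ∀ e : D.E, D.ch e ≠ D.r := fun e => (D.ch_range _).2 ⟨e, rfl⟩
  have key : ∀ (c1 c2 : C) (x1 x2 : D.V), x1 = x2 → F.nm (fT c1 (D.ρ x1)) = 1 →
      0 < F.od (fT c1 (D.ρ x1)) → F.nm (fT c2 (D.ρ x2)) = 1 → 0 < F.od (fT c2 (D.ρ x2)) →
      ‖c1 - c2‖₊ < ‖D.ρ x1‖₊ := by
    rintro c1 c2 x1 _ rfl a1 a2 a3 a4
    exact fin_unique (D.ρ_ne _) a1 a2 a3 a4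
  have keyI : ∀ (c1 c2 : C) (x1 x2 : D.V), x1 = x2 → F.nm (fT c1 (D.ρ x1)) = 1 →
      0 < F.od (fT c1 (D.ρ x1)) → 0 < F.od (fI c2 (D.ρ x2)) → ‖c1 - c2‖₊ ≤ ‖D.ρ x1‖₊ → False := by
    rintro c1 c2 x1 _ rfl a1 a2 a3 a4
    exact fin_inf (D.ρ_ne _) a1 a2 a3 a4
  have rootle : ∀ (c : C) (x : D.V), x = D.r → ‖c - D.a x‖₊ ≤ ‖D.ρ x‖₊ → ‖c - 0‖₊ ≤ ‖D.ρ x‖₊ := by
    rintro c _ rfl h
    rwa [D.a_r] at h
  have chle : ∀ (c : C) (x : D.V) (e : D.E), x = D.ch e → ‖c - D.a x‖₊ ≤ ‖D.ρ x‖₊ →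
      ‖c - D.a (D.ch e)‖₊ ≤ ‖D.ρ x‖₊ := by
    rintro c _ e rfl h
    exact h
  have hUO : ∀ (x : D.U) (e : D.E), D.uv x = D.pa e → F.nm (fT (D.cU x) (D.ρ (D.uv x))) = 1 →
      0 < F.od (fT (D.cU x) (D.ρ (D.uv x))) → F.nm (fT (D.a (D.ch e)) (D.ρ (D.pa e))) = 1 →
      0 < F.od (fT (D.a (D.ch e)) (D.ρ (D.pa e))) → False := by
    intro x e hx a1 a2 a3 a4
    have h5 := key _ _ _ _ hx.symm a3 a4 a1 a2
    have h6 := D.dirV x (D.ch e) (by rw [hx]; exact h5)
    rw [hx] at h6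
    exact absurd (D.E_lt e) (not_lt.2 h6)
  cases b with
  | u x =>
    cases b' with
    | u x' => rw [D.dirU x x' hv (key _ _ _ _ hv h1 h2 h1' h2')]
    | i => exact (keyI _ _ _ _ hv h1 h2 h2' (rootle _ _ hv (D.cU_le x))).elim
    | o e => exact (hUO x e hv h1 h2 h1' h2').elim
    | j e => exact (keyI _ _ _ _ hv h1 h2 h2' (chle _ _ e hv (D.cU_le x))).elim
  | i =>
    cases b' with
    | u x' => exact (keyI _ _ _ _ hv.symm h1' h2' h2 (rootle _ _ hv.symm (D.cU_le x'))).elim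
    | i => rfl
    | o e => exact (keyI _ _ _ _ hv.symm h1' h2' h2 (rootle _ _ hv.symm (D.E_le e))).elim
    | j e => exact (hne e hv.symm).elim
  | o e =>
    cases b' with
    | u x' => exact (hUO x' e hv.symm h1' h2' h1 h2).elim
    | i => exact (keyI _ _ _ _ hv h1 h2 h2' (rootle _ _ hv (D.E_le e))).elim
    | o e' => rw [D.dirE e e' hv (key _ _ _ _ hv h1 h2 h1' h2')]
    | j e' => exact (keyI _ _ _ _ hv h1 h2 h2' (chle _ _ e' hv (D.E_le e))).elim
  | j e =>
    cases b' with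
    | u x' => exact (keyI _ _ _ _ hv.symm h1' h2' h2 (chle _ _ e hv.symm (D.cU_le x'))).elim
    | i => exact (hne e hv).elim
    | o e' => exact (keyI _ _ _ _ hv.symm h1' h2' h2 (chle _ _ e hv.symm (D.E_le e'))).elim
    | j e' => rw [D.ch_inj hv]

end Bs

/-- the vertex norms of `K` -/
def NK : Set (Nm C K) := {w | ∃ x : D.V, ∀ f, w.v (algebraMap (RatFunc C) K f) = gvx D x f}

/-- **the ends over all base cells** -/
theorem exists_pi (S : ∀ x : D.V, Nonempty (SAt (RatFunc C) K (gvx D x))) :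
    ∃ π : ∀ b : Bs D, b.J → End C K,
      (∀ b l z, gn (b.io l z) = (π b l).1.v z) ∧
      (∀ b l z, z ≠ 0 → EE809.od (b.io l z) = Red332.od (π b l).1 (π b l).2 z) ∧
      (∀ b l b' l', π b l = π b' l' → (⟨b, l⟩ : Σ b : Bs D, b.J) = ⟨b', l'⟩) ∧
      (∀ s : End C K, s.1 ∈ NK D ↔ ∃ b l, s = π b l) ∧
      (∀ b l f, (π b l).1.v (algebraMap (RatFunc C) K f) = gvx D b.vx f) := by
  classical
  have key := fun b : Bs D => (b.gEnd).exists_pi b.gen b.one.1 b.one.2 (by
    rw [b.nm_E]; exact (S b.vx).some) b.sum_m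
  choose π h1 h2 h3 h4 h5 using key
  have hnm : ∀ b l f, (π b l).1.v (algebraMap (RatFunc C) K f) = gvx D b.vx f := by
    intro b l f
    rw [← b.nm_E]
    exact (h2 b l).nm f
  have ht : ∀ b l, (π b l).1.v (algebraMap (RatFunc C) K b.t) = 1 ∧
      0 < Red332.od (π b l).1 (π b l).2 (algebraMap (RatFunc C) K b.t) := by
    intro b l
    have e1 := (h2 b l).nm b.t
    have e2 := (h2 b l).od b.t (b.E.ne_zero_of_one b.one.1)
    have e3 := (h2 b l).pos
    rw [b.one.1] at e1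
    rw [b.one.2, mul_one] at e2
    refine ⟨e1, ?_⟩
    have e4 : Red332.od (π b l).1 (π b l).2 (algebraMap (RatFunc C) K b.t) = b.m l := e2
    rw [e4]
    exact_mod_cast e3
  refine ⟨π, h4, h5, ?_, fun s => ⟨?_, ?_⟩, hnm⟩
  · intro b l b' l' h
    obtain ⟨a1, a2⟩ := ht b l
    obtain ⟨a3, a4⟩ := ht b' l'
    rw [← h] at a3 a4
    let F : End2 C (RatFunc C) := (ofPl (π b l).1 (π b l).2).comap
      (IsScalarTower.toAlgHom C (RatFunc C) K)
    have hb : b = b' := Bs.dir_unique (F := F) a1 a2 a3 a4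
    subst hb
    rw [h1 b h]
  · obtain ⟨w, y⟩ := s
    rintro ⟨x, hx⟩
    have hx' : ∀ f, w.v (algebraMap (RatFunc C) K f) = gvx D x f := hx
    have hff : FF w := by
      obtain ⟨S'⟩ := S x
      refine S'.ff (t := fT (D.a x) (D.ρ x)) (gen_fT _ (D.ρ_ne x)) ?_ ?_ w hx'
      · have h6 := gaussR_X_sub (v := nv C) (D.a x) (r := ‖D.ρ x‖₊)
          (by rw [Ne, nnnorm_eq_zero]; exact D.ρ_ne x) (D.a x)
        rw [fT, map_div₀, gvx, h6, gaussR_C, sub_self, map_zero, max_eq_left zero_le]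
        exact div_self (by rw [Ne, nnnorm_eq_zero]; exact D.ρ_ne x)
      · intro c
        have e1 : fT (D.a x) (D.ρ x) - algebraMap C (RatFunc C) c =
            fT (D.a x + D.ρ x * c) (D.ρ x) := by
          have hρ := D.ρ_ne x
          rw [fT_change (D.a x + D.ρ x * c) (D.a x) _ hρ, sub_eq_add_neg, ← map_neg]
          congr 2
          field_simp
          ring
        rw [e1, fT, map_div₀, gvx, gaussR_X_sub, gaussR_C]
        rw [le_div_iff₀ (pos_iff_ne_zero.2 (by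
          rw [Valuation.ne_zero_iff]; exact D.ρ_ne x)), one_mul]
        exact le_max_left _ _
    obtain ⟨b, hb, a1, a2⟩ := Bs.exists_dir x w hff hx' y
    have hov : Over b.E (ofPl w y) (Red332.od w y (algebraMap (RatFunc C) K b.t)).toNat :=
      over_of b.E b.gen b.one.1 b.one.2 _ a1 (by omega) (Int.toNat_of_nonneg a2.le).symm
    obtain ⟨l, hl⟩ := h3 b ⟨w, y⟩ _ hov
    exact ⟨b, l, hl⟩
  · rintro ⟨b, l, rfl⟩
    exact ⟨b.vx, hnm b l⟩

theorem NK_ff (S : ∀ x : D.V, Nonempty (SAt (RatFunc C) K (gvx D x))) (w : Nm C K) (hw : w ∈ NK D) :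
    FF w := by
  obtain ⟨x, hx'⟩ := hw
  obtain ⟨S'⟩ := S x
  refine S'.ff (t := fT (D.a x) (D.ρ x)) (gen_fT _ (D.ρ_ne x)) ?_ ?_ w hx'
  · have h6 := gaussR_X_sub (v := nv C) (D.a x) (r := ‖D.ρ x‖₊)
      (by rw [Ne, nnnorm_eq_zero]; exact D.ρ_ne x) (D.a x)
    rw [fT, map_div₀, gvx, h6, gaussR_C, sub_self, map_zero, max_eq_left zero_le]
    exact div_self (by rw [Ne, nnnorm_eq_zero]; exact D.ρ_ne x)
  · intro c
    have e1 : fT (D.a x) (D.ρ x) - algebraMap C (RatFunc C) c =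
        fT (D.a x + D.ρ x * c) (D.ρ x) := by
      have hρ := D.ρ_ne x
      rw [fT_change (D.a x + D.ρ x * c) (D.a x) _ hρ, sub_eq_add_neg, ← map_neg]
      congr 2
      field_simp
      ring
    rw [e1, fT, map_div₀, gvx, gaussR_X_sub, gaussR_C]
    rw [le_div_iff₀ (pos_iff_ne_zero.2 (by
      rw [Valuation.ne_zero_iff]; exact D.ρ_ne x)), one_mul]
    exact le_max_left _ _

theorem NK_finite (S : ∀ x : D.V, Nonempty (SAt (RatFunc C) K (gvx D x))) : (NK D).Finite := by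
  haveI := D.V_fin
  have h : NK D = ⋃ x : D.V, {w : Nm C K | ∀ f, w.v (algebraMap (RatFunc C) K f) = gvx D x f} := by
    ext w
    simp only [NK, Set.mem_setOf_eq, Set.mem_iUnion]
  rw [h]
  exact Set.finite_iUnion fun x => (S x).some.finite

end Crest.Agent.R013.Red332
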