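import Mathlib
import Crest.Agent.R013.Red15_332
import Crest.Agent.R013.Red11_332
import Crest.Agent.R013.StabR_460

/-!
# R013 / Red16: the semistable structure of a decomposition of the line, from the point data
(helper332)
-/

set_option autoImplicit false
set_option linter.all false

universe u v w

namespace Crest.Agent.R013.Red332

open scoped NNReal
open WithZero IsLocalRing Polynomial Module
open Crest.Agent.R013.RR7_948
open Crest.Agent.R013.EE809 Crest.Agent.R013.CAn_243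
open Crest.Agent.R013.Cell_408 Crest.Agent.R013.Comp_267 Crest.Agent.R013.Good_408
open Crest.Agent.R013.PL_109 Crest.Agent.R013.LineDec_315 Crest.Agent.R013.SSK_332

variable {k : Type v} {C : Type u} {K : Type w} [NontriviallyNormedField k]
    [CompleteSpace k] [IsUltrametricDist k] [NormedField C] [IsUltrametricDist C] [NormedAlgebra k C]
    [Algebra.IsAlgebraic k C] [IsAlgClosed C] [hk : Fact (DiscNorm k)]
    [Field K] [Algebra C K] [Algebra (RatFunc C) K] [IsScalarTower C (RatFunc C) K]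
    [FiniteDimensional (RatFunc C) K]

variable (D : LineDec k C K)

/-- the discs of `K` -/
abbrev KD : Type _ := (Σ u : D.U, (cellU D u).J) ⊕ (cellI D).J

/-- the annuli of `K` -/
abbrev KA : Type _ := Σ e : D.E, (cellE D e).J

variable {D}

noncomputable def kioD : KD D → K →ₐ[C] EE k C :=
  Sum.elim (fun q => (toEE k C).comp ((cellU D q.1).io q.2))
    (fun l => (toEE k C).comp ((cellI D).io l))

noncomputable def kcA (a : KA D) : C := (cellE D a.1).c' a.2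

noncomputable def kio0 (a : KA D) : K →ₐ[C] EE k C := (cellE D a.1).io a.2

noncomputable def kio1 (a : KA D) : K →ₐ[C] EE k C := io1A (cellE D a.1) a.2

variable (D)

/-- the point data of `KCells` -/
structure PtCells where
  ptD : KD D → ∀ τ : C, ‖τ‖ < 1 → Pl C K
  ptA : ∀ a : KA D, ∀ τ : C, ‖kcA a‖ < ‖τ‖ → ‖τ‖ < 1 → Pl C K
  ptD_ord : ∀ a τ hτ (f : K), f ≠ 0 → ∃ (n m : ℕ) (g h : EE k C), InD g ∧ InD h ∧
    evE τ g ≠ 0 ∧ evE τ h ≠ 0 ∧ kioD a f * (lin τ ^ m * h) = lin τ ^ n * g ∧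
    (ptD a τ hτ).v f = exp ((m : ℤ) - n)
  ptA_ord : ∀ a τ h0 h1 (f : K), f ≠ 0 → ∃ (n m : ℕ) (g h : EE k C), InA (kcA a) g ∧ InA (kcA a) h ∧
    evE τ g ≠ 0 ∧ evE τ h ≠ 0 ∧ kio0 a f * (lin τ ^ m * h) = lin τ ^ n * g ∧
    (ptA a τ h0 h1).v f = exp ((m : ℤ) - n)
  pt_surj : ∀ P : Pl C K, (∃ a τ hτ, P = ptD a τ hτ) ∨ ∃ a τ h0 h1, P = ptA a τ h0 h1
  ptD_inj : ∀ a τ hτ a' τ' hτ', ptD a τ hτ = ptD a' τ' hτ' → a = a' ∧ τ = τ'
  ptA_inj : ∀ a τ h0 h1 a' τ' h0' h1', ptA a τ h0 h1 = ptA a' τ' h0' h1' → a = a' ∧ τ = τ'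
  ptDA : ∀ a τ hτ a' τ' h0' h1', ptD a τ hτ ≠ ptA a' τ' h0' h1'

variable {D}

theorem kioD_disc (a : KD D) (f : K) :
    ∃ g h : EE k C, h ≠ 0 ∧ InD g ∧ InD h ∧ kioD a f * h = g := by
  have key : ∀ z : FD k C, ∃ g h : EE k C, h ≠ 0 ∧ InD g ∧ InD h ∧ toEE k C z * h = g := by
    intro z
    obtain ⟨g, h, hh, rfl⟩ := IsFractionRing.div_surjective (A := BD k C) z
    have hh0 : h ≠ 0 := nonZeroDivisors.ne_zero hh
    have h1 : algebraMap (BD k C) (FD k C) h ≠ 0 := by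
      intro h0
      exact hh0 (IsFractionRing.injective (BD k C) (FD k C) (by rw [h0, map_zero]))
    have h2 : toEE k C (algebraMap (BD k C) (FD k C) h) ≠ 0 := by rw [Ne, map_eq_zero]; exact h1
    refine ⟨ofBD g, ofBD h, ?_, fun n hn => co_ofBD_neg _ hn, fun n hn => co_ofBD_neg _ hn, ?_⟩
    · rw [← toEE_algebraMap]; exact h2
    · rw [map_div₀, ← toEE_algebraMap, ← toEE_algebraMap, div_mul_cancel₀ _ h2]
  rcases a with q | l
  · exact key _
  · exact key _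

/-- from the ends to the cells -/
def invF : (Σ b : Bs D, b.J) → KD D ⊕ (KA D ⊕ KA D)
  | ⟨Bs.u x, l⟩ => Sum.inl (Sum.inl ⟨x, l⟩)
  | ⟨Bs.i, l⟩ => Sum.inl (Sum.inr l)
  | ⟨Bs.o e, l⟩ => Sum.inr (Sum.inl ⟨e, l⟩)
  | ⟨Bs.j e, l⟩ => Sum.inr (Sum.inr ⟨e, l⟩)

/-- **the cells of `K`** -/
theorem exists_kcells (S : ∀ x : D.V, Nonempty (SAt (RatFunc C) K (gvx D x))) (P : PtCells D) :
    ∃ Z : KCells.{v, u, w, u, u} k C K, Z.N = NK D := by
  classical
  obtain ⟨π, h1, h2, h3, h4, h5⟩ := exists_pi D S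
  haveI := D.E_fin
  haveI : ∀ e : D.E, Finite (cellE D e).J := fun e => Finite.of_fintype _
  haveI hfin : Finite (KA D) := inferInstance
  let F : KD D ⊕ (KA D ⊕ KA D) → Σ b : Bs D, b.J :=
    Sum.elim (Sum.elim (fun q => (⟨Bs.u q.1, q.2⟩ : Σ b : Bs D, b.J))
      (fun l => (⟨Bs.i, l⟩ : Σ b : Bs D, b.J)))
      (Sum.elim (fun a => (⟨Bs.o a.1, a.2⟩ : Σ b : Bs D, b.J))
        (fun a => (⟨Bs.j a.1, a.2⟩ : Σ b : Bs D, b.J)))
  have hF : Function.Injective F := by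
    refine Function.LeftInverse.injective (g := invF) ?_
    rintro ((q | l) | (a | a)) <;> rfl
  let eD : KD D → End C K := fun a => π (F (Sum.inl a)).1 (F (Sum.inl a)).2
  let e0 : KA D → End C K := fun a => π (F (Sum.inr (Sum.inl a))).1 (F (Sum.inr (Sum.inl a))).2
  let e1 : KA D → End C K := fun a => π (F (Sum.inr (Sum.inr a))).1 (F (Sum.inr (Sum.inr a))).2
  have hval : ∀ z, Sum.elim eD (Sum.elim e0 e1) z = π (F z).1 (F z).2 := by
    rintro (a | (a | a)) <;> rfl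
  have a1 : ∀ (a : KD D) (f : K), gn (kioD a f) = (eD a).1.v f := by
    rintro (q | l) f
    · exact h1 (Bs.u q.1) q.2 f
    · exact h1 Bs.i l f
  have a2 : ∀ (a : KD D) (f : K), f ≠ 0 → EE809.od (kioD a f) = Red332.od (eD a).1 (eD a).2 f := by
    rintro (q | l) f hf
    · exact h2 (Bs.u q.1) q.2 f hf
    · exact h2 Bs.i l f hf
  have a3 : ∀ (a : KA D) (f : K), gn (kio0 a f) = (e0 a).1.v f :=
    fun a f => h1 (Bs.o a.1) a.2 f
  have a4 : ∀ (a : KA D) (f : K), f ≠ 0 → EE809.od (kio0 a f) = Red332.od (e0 a).1 (e0 a).2 f :=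
    fun a f hf => h2 (Bs.o a.1) a.2 f hf
  have a5 : ∀ (a : KA D) (f : K), gn (kio1 a f) = (e1 a).1.v f :=
    fun a f => h1 (Bs.j a.1) a.2 f
  have a6 : ∀ (a : KA D) (f : K), f ≠ 0 → EE809.od (kio1 a f) = Red332.od (e1 a).1 (e1 a).2 f :=
    fun a f hf => h2 (Bs.j a.1) a.2 f hf
  have a7 : ∀ (a : KA D) (f : K), ∃ g h g' h' : EE k C, h ≠ 0 ∧ InA (kcA a) g ∧ InA (kcA a) h ∧
      Flip (kcA a) g g' ∧ Flip (kcA a) h h' ∧ kio0 a f * h = g ∧ kio1 a f * h' = g' :=
    fun a f => io_annA (cellE D a.1) a.2 f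
  have a8 : Function.Injective (Sum.elim eD (Sum.elim e0 e1)) := by
    intro z z' h
    rw [hval, hval] at h
    exact hF (h3 _ _ _ _ h)
  have a9 : ∀ s : End C K, s.1 ∈ NK D ↔ ∃ a, s = Sum.elim eD (Sum.elim e0 e1) a := by
    intro s
    rw [h4 s]
    constructor
    · rintro ⟨b, l, rfl⟩
      cases b with
      | u x => exact ⟨Sum.inl (Sum.inl ⟨x, l⟩), rfl⟩
      | i => exact ⟨Sum.inl (Sum.inr l), rfl⟩
      | o e => exact ⟨Sum.inr (Sum.inl ⟨e, l⟩), rfl⟩
      | j e => exact ⟨Sum.inr (Sum.inr ⟨e, l⟩), rfl⟩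
    · rintro ⟨z, rfl⟩
      exact ⟨_, _, hval z⟩
  exact ⟨{
    N := NK D
    N_fin := NK_finite D S
    N_ff := fun w hw => NK_ff D S w hw
    KD := KD D
    ioD := kioD
    ioD_disc := kioD_disc
    endD := eD
    endD_gn := a1
    endD_od := a2
    KA := KA D
    KA_fin := hfin
    cA := kcA
    cA_ne := fun a => (cellE D a.1).c'_ne a.2
    cA_lt := fun a => (cellE D a.1).c'_lt a.2
    io0 := kio0
    io1 := kio1
    io_ann := a7
    end0 := e0
    end0_gn := a3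
    end0_od := a4
    end1 := e1
    end1_gn := a5
    end1_od := a6
    inj := a8
    surj := a9
    ptD := P.ptD
    ptA := P.ptA
    ptD_ord := P.ptD_ord
    ptA_ord := P.ptA_ord
    pt_surj := P.pt_surj
    ptD_inj := P.ptD_inj
    ptA_inj := P.ptA_inj
    ptDA := P.ptDA }, rfl⟩

/-- **the semistable structure of a decomposition of the line** -/
theorem exists_SSK_of_lineDec (S : ∀ x : D.V, Nonempty (SAt (RatFunc C) K (gvx D x)))
    (P : PtCells D) : ∃ T : SSK k C K, (∀ w : Nm C K, w ∈ NK D ↔ ∃ v, T.nm v = w) ∧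
      T.Base (Set.range (gvx D)) := by
  classical
  obtain ⟨Z, hZ⟩ := exists_kcells S P
  obtain ⟨T, hT, -⟩ := Z.exists_SSK
  rw [hZ] at hT
  refine ⟨T, hT, ?_, ?_⟩
  · haveI := D.V_fin
    exact Set.finite_range _
  · intro w
    constructor
    · rintro ⟨v, rfl⟩
      obtain ⟨x, hx⟩ := (hT _).2 ⟨v, rfl⟩
      refine ⟨x, ?_⟩
      ext f
      rw [Valuation.comap_apply, hx f]
    · rintro ⟨x, hx⟩
      have hx' : ∀ f, w (algebraMap (RatFunc C) K f) = gvx D x f := by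
        intro f
        rw [hx]
        rfl
      obtain ⟨S'⟩ := S x
      obtain ⟨i, hi⟩ := S'.complete w hx'
      have hC : ∀ c : C, gvx D x (algebraMap C _ c) = ‖c‖₊ := fun c => gaussR_C _ _ _ c
      have hval : ∀ f : RatFunc C, f ≠ 0 → ∃ c : C, gvx D x f = ‖c‖₊ := by
        intro f hf
        have hpol : ∀ q : C[X], q ≠ 0 → ∃ c : C, gvx D x (algebraMap C[X] (RatFunc C) q) = ‖c‖₊ := by
          intro q hq
          obtain ⟨l, hl, h⟩ := exists_gf_eq (nv C) ‖D.ρ x‖₊ (f := taylor (D.a x) q)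
            (fun h => hq ((taylor_eq_zero _ q).1 h))
          refine ⟨(taylor (D.a x) q).coeff l * D.ρ x ^ l, ?_⟩
          rw [gvx, gaussR_algebraMap, h, nnnorm_mul, nnnorm_pow]
          rfl
        obtain ⟨p, q, hq, rfl⟩ := IsFractionRing.div_surjective (A := C[X]) f
        have hq0 : q ≠ 0 := nonZeroDivisors.ne_zero hq
        have hp0 : p ≠ 0 := by
          rintro rfl
          exact hf (by rw [map_zero, zero_div])
        obtain ⟨a, ha⟩ := hpol p hp0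
        obtain ⟨b, hb⟩ := hpol q hq0
        exact ⟨a / b, by rw [map_div₀, ha, hb, nnnorm_div]⟩
      let w' : Nm C K := S'.nm hC hval i
      have hw' : w'.v = w := hi.symm
      obtain ⟨v, hv⟩ := (hT w').1 ⟨x, fun f => by rw [hw']; exact hx' f⟩
      exact ⟨v, by rw [hv, hw']⟩

end Crest.Agent.R013.Red332
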