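import Mathlib
import Crest.Agent.R013.PtsK2_315
import Crest.Agent.R013.GoodA3_109
import Crest.Agent.R013.Red16_332

/-!
# RED-PTS (row 13), part 3: `PtCells` of Red16_332
-/

set_option autoImplicit false
set_option linter.style.haveILetI false
set_option linter.unusedSectionVars false
set_option linter.unusedVariables false

noncomputable section

namespace Crest.Agent.R013.PtsK_315

open Crest.Agent.R013.LineDec_315 Crest.Agent.R013.Red332
open Crest.Agent.R013.Cell_408 (DiscNorm)

universe u

variable {k : Type*} {C : Type u} {K : Type*} [NontriviallyNormedField k] [CompleteSpace k]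
    [IsUltrametricDist k] [NormedField C] [IsUltrametricDist C] [NormedAlgebra k C]
    [Algebra.IsAlgebraic k C] [IsAlgClosed C] [hk : Fact (DiscNorm k)]
    [Field K] [Algebra C K] [Algebra (RatFunc C) K] [IsScalarTower C (RatFunc C) K]
    [FiniteDimensional (RatFunc C) K]

theorem span_lineDec (D : LineDec k C K) : D.Span := fun e => (D.ce e).spanAN

theorem kioD_eq (D : LineDec k C K) (a : KD D) : kioD a = D.ioD a := by
  rcases a with p | j <;> rfl

/-- **the points of the cells of `K` over a decomposition of the line** -/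
def ptCells [Algebra.IsSeparable (RatFunc C) K] (D : LineDec k C K) : PtCells D where
  ptD := fun a τ hτ => D.ptD a τ hτ
  ptA := fun a τ h0 h1 => LineDec.ptA (span_lineDec D) a τ h0 h1
  ptD_ord := fun a τ hτ f hf => by rw [kioD_eq]; exact LineDec.ptD_ord a τ hτ f hf
  ptA_ord := fun a τ h0 h1 f hf => LineDec.ptA_ord (span_lineDec D) a τ h0 h1 f hf
  pt_surj := fun P => LineDec.pt_surj (span_lineDec D) P
  ptD_inj := fun a τ hτ a' τ' hτ' h => LineDec.ptD_inj a τ hτ a' τ' hτ' h
  ptA_inj := fun a τ h0 h1 a' τ' h0' h1' h =>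
    LineDec.ptA_inj (span_lineDec D) a τ h0 h1 a' τ' h0' h1' h
  ptDA := fun a τ hτ a' τ' h0' h1' => LineDec.ptDA (span_lineDec D) a τ hτ a' τ' h0' h1'

end Crest.Agent.R013.PtsK_315
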