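import Crest.Agent.R013.Red18_332
import Crest.Agent.R013.PtsK3_315
import Crest.Agent.R013.End5_809

/-!
# R013 / Red19_332 : semistable reduction from `DirIn`

The points of the cells (315) and the annuli at type 2 points (809) plugged in: everything follows
from the input `DirIn` (almost all residue discs at a type 2 point of the line are good).
-/

set_option autoImplicit false
set_option linter.unusedSectionVars false

universe v u

namespace Crest.Agent.R013.Red332

open scoped NNReal
open Crest.Agent.R013.Cell_408 Crest.Agent.R013.Good_408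
open Crest.Agent.R013.PL_109 Crest.Agent.R013.LineDec_315
open Crest.Agent.R013.SSG_109 Crest.Agent.R013.SSZorn_315 Crest.Agent.R013.SSK_332

section one

variable (k : Type v) {C : Type u} (K : Type u) [NontriviallyNormedField k]
    [CompleteSpace k] [IsUltrametricDist k] [NormedField C] [IsUltrametricDist C] [NormedAlgebra k C]
    [Algebra.IsAlgebraic k C] [IsAlgClosed C] [hk : Fact (DiscNorm k)]
    [Field K] [Algebra C K] [Algebra (RatFunc C) K] [IsScalarTower C (RatFunc C) K]
    [FiniteDimensional (RatFunc C) K]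

theorem sep_of_charZero [CharZero C] : Algebra.IsSeparable (RatFunc C) K := by
  have : CharZero (RatFunc C) :=
    charZero_of_injective_ringHom (algebraMap C (RatFunc C)).injective
  exact inferInstance

/-- all local inputs but `DirIn` -/
theorem inp_of_dir [CharZero C] {p : ℕ} (hp : p.Prime) (hp1 : ‖(p : C)‖ < 1)
    (dir : DirIn (nv C) (GoodDisc k C K)) :
    Inp (nv C) (GoodDisc k C K) (GoodAnn k C K) (GoodInf k C K) :=
  haveI : Fact p.Prime := ⟨hp⟩
  inp_of k K hp hp1 dir (EE809.endIn k K p hp1)

end one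

variable {k : Type v} {C : Type u} [NontriviallyNormedField k]
    [CompleteSpace k] [IsUltrametricDist k] [NormedField C] [IsUltrametricDist C] [NormedAlgebra k C]
    [Algebra.IsAlgebraic k C] [IsAlgClosed C] [hk : Fact (DiscNorm k)]

/-- the point data of all decompositions -/
theorem ptAll [CharZero C] : PtAll k C := fun K _ _ _ _ _ D =>
  haveI := sep_of_charZero (C := C) K
  ⟨PtsK_315.ptCells D⟩

/-- all function fields: the inputs at the directions of type 2 points -/
def DirAll (k : Type v) (C : Type u) [NontriviallyNormedField k]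
    [CompleteSpace k] [IsUltrametricDist k] [NormedField C] [IsUltrametricDist C] [NormedAlgebra k C]
    [Algebra.IsAlgebraic k C] [IsAlgClosed C] [hk : Fact (DiscNorm k)] : Prop :=
  ∀ (K : Type u) [Field K] [Algebra C K] [Algebra (RatFunc C) K] [IsScalarTower C (RatFunc C) K]
    [FiniteDimensional (RatFunc C) K], DirIn (nv C) (GoodDisc k C K)

/-- 903's input, from `DirAll` -/
theorem inDisc_of_dir [CharZero C] (p : ℕ) [hp : Fact p.Prime] (hp1 : ‖(p : C)‖ < 1)
    (dir : DirAll k C) : CB1_903.InDisc.{u} k C :=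
  inDisc p (by exact_mod_cast hp1) (fun K _ _ _ _ _ => inp_of_dir k K hp.out hp1 (dir K)) ptAll

/-- **semistable reduction**, from `DirAll` -/
theorem exists_SSK_of_dir [CharZero C] (p : ℕ) [hp : Fact p.Prime] (hp1 : ‖(p : C)‖ < 1)
    (dir : DirAll k C) (K : Type u) [Field K] [Algebra C K] [Algebra (RatFunc C) K]
    [IsScalarTower C (RatFunc C) K] [FiniteDimensional (RatFunc C) K] (T : Finset (C × ℝ≥0))
    (hT : ∀ t ∈ T, IsVal (nv C) t.2) :
    ∃ (S : SSK k C K) (B : Set (Valuation (RatFunc C) ℝ≥0)), S.Base B ∧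
      (∀ η ∈ B, ∃ (a : C) (r : ℝ≥0) (hr : r ≠ 0), η = gaussR (nv C) a r hr) ∧
      (∀ t ∈ T, ∀ ht : t.2 ≠ 0, gaussR (nv C) t.1 t.2 ht ∈ B) ∧
      ∀ w : Nm C K, w.v.comap (algebraMap (RatFunc C) K) ∈ B ↔ ∃ v, S.nm v = w :=
  exists_SSK_of_inp p (by exact_mod_cast hp1) (inp_of_dir k K hp.out hp1 (dir K))
    (fun D => (ptAll (k := k) (C := C)) K D) T hT

end Crest.Agent.R013.Red332
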