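import Crest.Agent.R013.CB1k_903
import Crest.Agent.R013.GR12_921
import Crest.Agent.R013.Red19_332

/-!
# (A1) from the directions (`DirAll`) only: 921's `inSig` and 332's `inDisc_of_dir` plugged in
-/

set_option autoImplicit false
set_option linter.unusedSectionVars false

namespace Crest.Agent.R013.CB1_903

open scoped NNReal
open WithZero
open Crest.NumberTheoryR.Sect
open Crest.Agent.R013.RR7_948 Crest.Agent.R013.Red332 Crest.Agent.R013.GR3_921
open Crest.Agent.R013.RR11_948 Crest.Agent.R013.RR12_948 Crest.Agent.R013.GR2_921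
open Crest.Agent.R013.GRK_903
open Crest.Agent.R013.Cell_408 (DiscNorm)
open Crest.Agent.R013.SSK_332 Crest.Agent.R013.EE809

universe u

/-- 921's invariant case, in the context of (A1) -/
theorem inSig' {C : Type*} [NormedField C] [IsUltrametricDist C] [IsAlgClosed C] [CharZero C]
    (p : ℕ) [hp : Fact p.Prime] [NormedAlgebra ℚ_[p] C] : InSig.{u} C p := by
  have _ := TP14_928.charP_Ct (C := C) p
  have _ : IsAlgClosed (Ct C) := TP14_928.isAlgClosed_Ct
  exact GR12_921.inSig C p (norm_p_lt_one p)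

section

variable {k C : Type*} [NontriviallyNormedField k] [CompleteSpace k] [IsUltrametricDist k]
  [NormedField C] [IsUltrametricDist C] [NormedAlgebra k C] [Algebra.IsAlgebraic k C]
  [IsAlgClosed C] [hk : Fact (DiscNorm k)] [CharZero C] (p : ℕ) [hp : Fact p.Prime]
  [NormedAlgebra ℚ_[p] C] [Algebra.IsAlgebraic ℚ_[p] C]

include hp in
/-- **(A1)** from 332's `InDisc` -/
theorem a1_of_disc (hD : InDisc.{u} k C) (K : Type u) [Field K] [Algebra C K] (g : ℕ)
    (hg : HasGen C K g) (h2 : 2 ≤ g) : A1 k C K :=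
  a1_two p hD (inSig' p) K g hg h2

end

section

variable {k : Type*} {C : Type u} [NontriviallyNormedField k] [CompleteSpace k]
  [IsUltrametricDist k] [NormedField C] [IsUltrametricDist C] [NormedAlgebra k C]
  [Algebra.IsAlgebraic k C] [IsAlgClosed C] [hk : Fact (DiscNorm k)] [CharZero C] (p : ℕ)
  [hp : Fact p.Prime] [NormedAlgebra ℚ_[p] C] [Algebra.IsAlgebraic ℚ_[p] C]

include hp in
/-- **(A1)** from `DirAll` (the only open input) -/
theorem a1_of_dir (dir : DirAll k C) (K : Type u) [Field K] [Algebra C K] (g : ℕ)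
    (hg : HasGen C K g) (h2 : 2 ≤ g) : A1 k C K :=
  a1_of_disc p (inDisc_of_dir p (norm_p_lt_one p) dir) K g hg h2

end

/-- **588's (A1)** from `DirAll` -/
theorem a1_588_of_dir (p : ℕ) [Fact p.Prime] (C : Type) [NormedField C] [IsUltrametricDist C]
    [NormedAlgebra ℚ_[p] C] [Algebra.IsAlgebraic ℚ_[p] C] [IsAlgClosed C] [CharZero C]
    (dir : DirAll ℚ_[p] C) : CDefs_588.A1 p C :=
  a1_588 p C (inDisc_of_dir p (norm_p_lt_one p) dir) (inSig' p)

/-- 588's (SS) from `DirAll` -/
theorem ssall_of_dir (p : ℕ) [Fact p.Prime] (C : Type) [NormedField C] [IsUltrametricDist C]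
    [NormedAlgebra ℚ_[p] C] [Algebra.IsAlgebraic ℚ_[p] C] [IsAlgClosed C] [CharZero C]
    (dir : DirAll ℚ_[p] C) : CDefs_588.SSALL p C := by
  intro K _ _ _ _ _
  obtain ⟨S, -⟩ := exists_SSK_of_dir p (norm_p_lt_one p) dir K ∅ (by simp)
  exact ⟨S⟩

end Crest.Agent.R013.CB1_903
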