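import Mathlib
import Crest.Agent.R013.CntF7_398
import Crest.Agent.R013.Car6_700
import Crest.Agent.R013.RR22_948

/-!
# R013 / CARTINJ 1: the Cartier operator is injective on the `χ^(p^j)`-parts of the regular
differentials of `L = C(u^(1/N))`, `(N, E, u)` from COUNT (helper398)
-/

set_option autoImplicit false
set_option linter.all false

namespace Crest.Agent.R013.CI1_398

open Polynomial WithZero Module
open Crest.Agent.R013.RR1_948 Crest.Agent.R013.RR7_948 Crest.Agent.R013.RR8_948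
open Crest.Agent.R013.RR9_948 Crest.Agent.R013.RR11_948 Crest.Agent.R013.RR12_948
open Crest.Agent.R013.RR13_948 Crest.Agent.R013.RR14_948 Crest.Agent.R013.RR18_948
open Crest.Agent.R013.RR19_948 Crest.Agent.R013.RR22_948
open Crest.Agent.R013.Car1_700 Crest.Agent.R013.Car2_700 Crest.Agent.R013.Car5_700
open Crest.Agent.R013.Car6_700
open Crest.Agent.R013.PicD_398 Crest.Agent.R013.CntF6_398

section CK

variable (p : ℕ) [hp : Fact p.Prime] {k : Type*} [Field k] [CharP k p] [PerfectField k]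
  {K : Type*} [Field K] [Algebra k K] [Algebra (RatFunc k) K]
  [IsScalarTower k (RatFunc k) K] [FiniteDimensional (RatFunc k) K]
  [Algebra.IsSeparable (RatFunc k) K]
  {L : Type*} [Field L] [Algebra k L] [Algebra K L] [IsScalarTower k K L]
  [FiniteDimensional K L] [Algebra.IsSeparable K L]
  [Algebra (RatFunc k) L] [IsScalarTower k (RatFunc k) L] [FiniteDimensional (RatFunc k) L]
  [Algebra.IsSeparable (RatFunc k) L] [IsScalarTower (RatFunc k) K L]

theorem algebraMap_xK' : algebraMap K L (xK k K) = xK k L := by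
  unfold xK
  rw [← IsScalarTower.algebraMap_apply]

/-- Cartier and inclusion -/
theorem CK_algebraMap (b : K) : CK p k L (algebraMap K L b) = algebraMap K L (CK p k K b) := by
  have h := (pb p k K).co_spec b
  have h1 : algebraMap K L b = ∑ i ∈ Finset.range p,
      (fun i => algebraMap K L ((pb p k K).co b i)) i ^ p * (pb p k L).x ^ i := by
    conv_lhs => rw [h]
    rw [map_sum]
    refine Finset.sum_congr rfl fun i _ => ?_
    rw [map_mul, map_pow, map_pow]
    rw [show (pb p k K).x = xK k K from rfl, show (pb p k L).x = xK k L from rfl, algebraMap_xK']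
  exact (pb p k L).C_eq h1

/-- Cartier commutes with automorphisms fixing `x` -/
theorem CK_algEquiv (σ : L ≃ₐ[K] L) (g : L) : CK p k L (σ g) = σ (CK p k L g) := by
  have h := (pb p k L).co_spec g
  have hx : σ (pb p k L).x = (pb p k L).x := by
    rw [show (pb p k L).x = xK k L from rfl, ← algebraMap_xK' (K := K), σ.commutes]
  have h1 : σ g = ∑ i ∈ Finset.range p,
      (fun i => σ ((pb p k L).co g i)) i ^ p * (pb p k L).x ^ i := by
    conv_lhs => rw [h]
    rw [map_sum]
    refine Finset.sum_congr rfl fun i _ => ?_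
    rw [map_mul, map_pow, map_pow, hx]
  exact (pb p k L).C_eq h1

theorem CK_pow_mul (y z : K) : CK p k K (y ^ p * z) = y * CK p k K z := (pb p k K).C_pow y z

theorem CK_zero : CK p k K 0 = 0 := (pb p k K).C_zero

end CK

section single

variable {p : ℕ} [hp : Fact p.Prime] {k : Type*} [Field k] [CharP k p] [IsAlgClosed k]
  {K : Type*} [Field K] [Algebra k K] [Algebra (RatFunc k) K]
  [IsScalarTower k (RatFunc k) K] [FiniteDimensional (RatFunc k) K]
  [Algebra.IsSeparable (RatFunc k) K]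
  {L : Type*} [Field L] [Algebra k L] [Algebra K L] [IsScalarTower k K L]
  [FiniteDimensional K L] [IsGalois K L]
  [Algebra (RatFunc k) L] [IsScalarTower k (RatFunc k) L] [FiniteDimensional (RatFunc k) L]
  [Algebra.IsSeparable (RatFunc k) L] [IsScalarTower (RatFunc k) K L]

theorem degP_eq_one_of_isAlgClosed (P : Pl k K) : degP P = 1 := by
  have h1 := CntB2_491.finite_Kap (degE_eq P)
  haveI := h1.1
  have h2 : finrank k (CntB2_491.Kap P) = 1 := by
    have hb := (IsAlgClosed.algebraMap_bijective_of_isIntegral (k := k)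
      (K := CntB2_491.Kap P)).2
    rw [finrank_eq_one_iff']
    refine ⟨1, one_ne_zero, fun w => ?_⟩
    obtain ⟨c, hc⟩ := hb w
    exact ⟨c, by rw [Algebra.smul_def, mul_one, hc]⟩
  rw [← h1.2, h2]

/-- ramification indices are prime to `p` -/
theorem eR_ne_zero (hpn : ¬ p ∣ finrank K L) (Q : Pl k L) : ((eR K Q : ℕ) : k) ≠ 0 := by
  have h1 := card_above_mul (K := K) Q
  rw [degP_eq_one_of_isAlgClosed, degP_eq_one_of_isAlgClosed, mul_one, mul_one] at h1
  rw [ne_eq, CharP.cast_eq_zero_iff k p]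
  intro h2
  apply hpn
  rw [← h1]
  exact h2.trans (dvd_mul_left _ _)

variable {N : ℕ} {E : Pl k K →₀ ℤ} {u : K}

theorem v_y (hN : N ≠ 0) (hu : u ≠ 0) (hdiv : divf (k := k) u = N • E) {y : L}
    (hy : y ^ N = algebraMap K L u) (Q : Pl k L) :
    Q.v y = exp (-(eR K Q * E (under K Q))) := by
  have hy0 : y ≠ 0 := by
    rintro rfl
    rw [zero_pow hN] at hy
    exact hu ((FaithfulSMul.algebraMap_eq_zero_iff K L).mp hy.symm)
  have h1 := v_eq (k := k) hu (under K Q)
  have h2 := v_algebraMap_exp Q h1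
  rw [← hy, map_pow, hdiv, Finsupp.smul_apply] at h2
  have hv0 : Q.v y ≠ 0 := (Valuation.ne_zero_iff _).mpr hy0
  rw [← exp_log hv0, ← exp_nsmul, exp_inj, nsmul_eq_mul, nsmul_eq_mul] at h2
  rw [← exp_log hv0, exp_inj]
  have hN' : (N : ℤ) ≠ 0 := by exact_mod_cast hN
  apply mul_left_cancel₀ hN'
  rw [h2]; ring

/-- **one component**: `b dx` exact, `y^(-p^(j+1)) b dx` regular on `L` implies `b = 0` -/
theorem eq_zero_of_exact (hpn : ¬ p ∣ finrank K L) (hN : N ≠ 0) (hu : u ≠ 0)
    (hdiv : divf (k := k) u = N • E)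
    (hord : ∀ (j : ℕ) (f : K), (∀ (P : Pl k K) (t : K), P.v t = exp (-1) →
      P.v (del k K f) ≤ P.v (del k K t) * exp (-(p ^ (j + 1) * E P))) → del k K f = 0)
    {y : L} (hy : y ^ N = algebraMap K L u) (j : ℕ) {b : K}
    (hreg : algebraMap K L b * (y ^ (p ^ (j + 1)))⁻¹ ∈ LD (canD k L)) (hC : CK p k K b = 0) :
    b = 0 := by
  obtain ⟨h, rfl⟩ := ((pb p k K).C_eq_zero_iff b).mp hC
  rw [pb_D] at hreg ⊢
  apply hord j
  intro P t ht
  by_cases hb0 : del k K h = 0
  · rw [hb0, map_zero]; exact zero_le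
  obtain ⟨Q, hQ⟩ := above_nonempty (L := L) P
  rw [mem_above] at hQ
  have h1 := mem_LD.mp hreg Q
  have hvb : (under K Q).v (del k K h) = exp (log ((under K Q).v (del k K h))) :=
    (exp_log ((Valuation.ne_zero_iff _).mpr hb0)).symm
  set β := log ((under K Q).v (del k K h)) with hβ
  rw [map_mul, map_inv₀, map_pow, v_algebraMap_exp Q hvb, v_y hN hu hdiv hy Q,
    canD_eq_of_tame (K := K) Q (eR_ne_zero hpn Q), ← exp_nsmul, ← exp_neg, ← exp_add,
    exp_le_exp, nsmul_eq_mul] at h1
  have he : 1 ≤ eR K Q := eR_pos (K := K) Q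
  rw [← hQ, hvb, v_del_eq (under K Q) (by rw [hQ]; exact ht), ← exp_add, exp_le_exp]
  set e : ℤ := ((eR K Q : ℕ) : ℤ) with heq
  have he' : 1 ≤ e := by rw [heq]; exact_mod_cast he
  set c := canD k K (under K Q) with hc
  set E' := E (under K Q) with hE'
  push_cast at h1
  have h2 : e * (β + p ^ (j + 1) * E' - c) ≤ e - 1 := by linarith
  have h3 : β + p ^ (j + 1) * E' - c < 1 := by
    by_contra hcon
    push Not at hcon
    nlinarith
  linarith

/-- **(CI-1)**, eigenvectors: `g dX` regular on `L`, `σ g = χ(σ)^(p^j) g`, Cartier nilpotent: `g = 0` -/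
theorem eq_zero_of_eigen (hpn : ¬ p ∣ finrank K L) (hN : N ≠ 0) (hNp : N.Coprime p) (hu : u ≠ 0)
    (hdiv : divf (k := k) u = N • E)
    (hord : ∀ (j : ℕ) (f : K), (∀ (P : Pl k K) (t : K), P.v t = exp (-1) →
      P.v (del k K f) ≤ P.v (del k K t) * exp (-(p ^ (j + 1) * E P))) → del k K f = 0)
    {y : L} (hy : y ^ N = algebraMap K L u) (χ : (L ≃ₐ[K] L) → k)
    (hχ : ∀ σ, algebraMap k L (χ σ) * σ y = y) (m : ℕ) :
    ∀ (j : ℕ) (g : L), (∀ σ : L ≃ₐ[K] L, σ g = algebraMap k L (χ σ ^ p ^ j) * g) →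
      g ∈ LD (canD k L) → (CK p k L)^[m] g = 0 → g = 0 := by
  have hy0 : y ≠ 0 := by
    rintro rfl
    rw [zero_pow hN] at hy
    exact hu ((FaithfulSMul.algebraMap_eq_zero_iff K L).mp hy.symm)
  -- `χ^N = 1`
  have hχN : ∀ σ, χ σ ^ N = 1 := by
    intro σ
    apply (algebraMap k L).injective
    have h1 : algebraMap k L (χ σ) ^ N * σ y ^ N = y ^ N := by rw [← mul_pow, hχ]
    rw [← map_pow σ y N, hy, σ.commutes] at h1
    have hu' : algebraMap K L u ≠ 0 := by simpa using hu
    rw [map_pow, map_one]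
    exact mul_right_cancel₀ hu' (by rw [h1, one_mul])
  -- periodicity of the exponents
  obtain ⟨f, hf0, hf⟩ : ∃ f : ℕ, 0 < f ∧ N ∣ p ^ f - 1 := by
    refine ⟨N.totient, Nat.totient_pos.mpr (Nat.pos_of_ne_zero hN), ?_⟩
    have h1 := Nat.ModEq.pow_totient hNp.symm
    exact (Nat.modEq_iff_dvd' (Nat.one_le_pow _ _ hp.out.pos)).mp h1.symm
  have hper : ∀ σ j, χ σ ^ p ^ (j + f) = χ σ ^ p ^ j := by
    intro σ j
    obtain ⟨c, hc⟩ := hf
    have h1 : p ^ f = N * c + 1 := by
      have := Nat.one_le_pow f p hp.out.pos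
      omega
    rw [pow_add p j f, h1, mul_add, mul_one, pow_add, ← mul_assoc, mul_comm (p ^ j) N, mul_assoc,
      pow_mul, hχN, one_pow, one_mul]
  induction m with
  | zero => intro j g _ _ h; exact h
  | succ m ih =>
    -- it suffices to treat `j ≥ 1`
    have key : ∀ (j : ℕ) (g : L), (∀ σ : L ≃ₐ[K] L, σ g = algebraMap k L (χ σ ^ p ^ (j + 1)) * g) →
        g ∈ LD (canD k L) → (CK p k L)^[m + 1] g = 0 → g = 0 := by
      intro j g hg hreg hC
      rw [Function.iterate_succ_apply] at hC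
      -- `C g` is an eigenvector
      have h1 : CK p k L g = 0 := by
        apply ih j (CK p k L g) _ (CK_mem_LD_canD p hreg) hC
        intro σ
        rw [← CK_algEquiv, hg σ, pow_succ, pow_mul, map_pow, CK_pow_mul]
      -- `g = b y^(-p^(j+1))`
      have h2 : ∀ σ : L ≃ₐ[K] L, σ (g * y ^ p ^ (j + 1)) = g * y ^ p ^ (j + 1) := by
        intro σ
        rw [map_mul, map_pow σ, hg σ, map_pow (algebraMap k L), mul_right_comm, ← mul_pow, hχ,
          mul_comm]
      obtain ⟨b, hb⟩ := (IsGalois.mem_range_algebraMap_iff_fixed (F := K) (E := L) _).mpr h2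
      have hyp : y ^ p ^ (j + 1) ≠ 0 := pow_ne_zero _ hy0
      have h3 : g = algebraMap K L b * (y ^ p ^ (j + 1))⁻¹ := by
        rw [hb, mul_inv_cancel_right₀ hyp]
      have h4 : CK p k K b = 0 := by
        apply (algebraMap K L).injective
        rw [map_zero, ← CK_algebraMap, hb, mul_comm, pow_succ, pow_mul, CK_pow_mul, h1, mul_zero]
      rw [h3] at hreg ⊢
      rw [eq_zero_of_exact hpn hN hu hdiv hord hy j hreg h4, map_zero, zero_mul]
    intro j g hg hreg hC
    obtain ⟨f', rfl⟩ : ∃ f', f = f' + 1 := ⟨f - 1, by omega⟩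
    apply key (j + f') g _ hreg hC
    intro σ
    rw [hg σ, ← hper σ j, add_assoc]

end single

end Crest.Agent.R013.CI1_398
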