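import Crest.Agent.R013.CI1_398

/-!
# R013 / CARTINJ 2: the Cartier operator is injective on the `e`-part (helper398)

`A` finite group of order prime to `p`, `B ≤ A` acts on `L` with invariants `K`,
`e : A → k` a linear combination of the characters `χ ^ (-p ^ j)`, `F : A → L` a `B`-equivariant
family of regular, Cartier nilpotent differentials with `e F = F`.  Then `F = 0`.
-/

set_option autoImplicit false
set_option linter.all false

namespace Crest.Agent.R013.CI2_398

open Polynomial WithZero Module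
open Crest.Agent.R013.RR1_948 Crest.Agent.R013.RR7_948 Crest.Agent.R013.RR8_948
open Crest.Agent.R013.RR9_948 Crest.Agent.R013.RR11_948 Crest.Agent.R013.RR12_948
open Crest.Agent.R013.RR13_948 Crest.Agent.R013.RR14_948 Crest.Agent.R013.RR18_948
open Crest.Agent.R013.RR19_948 Crest.Agent.R013.RR22_948
open Crest.Agent.R013.Car1_700 Crest.Agent.R013.Car2_700 Crest.Agent.R013.Car5_700
open Crest.Agent.R013.Car6_700
open Crest.Agent.R013.PicD_398 Crest.Agent.R013.CntF6_398 Crest.Agent.R013.CI1_398

/-! ### finite groups acting on fields -/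

section galois

variable {K L : Type*} [Field K] [Field L] [Algebra K L] [FiniteDimensional K L]
  {B : Type*} [Group B] (θ : B →* (L ≃ₐ[K] L))
  (hinv : ∀ g : L, (∀ b, θ b g = g) → g ∈ Set.range (algebraMap K L))

include hinv

theorem fixedField_range : IntermediateField.fixedField θ.range = (⊥ : IntermediateField K L) := by
  rw [eq_bot_iff]
  intro g hg
  rw [IntermediateField.mem_bot]
  apply hinv
  intro b
  exact hg ⟨θ b, b, rfl⟩

theorem isGalois : IsGalois K L := by
  apply IsGalois.of_fixedField_eq_bot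
  rw [eq_bot_iff, ← fixedField_range θ hinv]
  intro g hg σ
  exact hg ⟨σ.1, trivial⟩

theorem surjective : Function.Surjective θ := by
  rw [← MonoidHom.range_eq_top]
  have h1 := IntermediateField.fixingSubgroup_fixedField θ.range
  rw [fixedField_range θ hinv] at h1
  rw [← h1, IntermediateField.fixingSubgroup_bot]

theorem finrank_dvd [Finite B] : finrank K L ∣ Nat.card B := by
  haveI := isGalois θ hinv
  rw [← IsGalois.card_aut_eq_finrank]
  have h1 := Subgroup.card_range_dvd θ
  rwa [MonoidHom.range_eq_top.mpr (surjective θ hinv), Subgroup.card_top] at h1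

end galois

/-! ### genus zero -/

section genus

variable {k : Type*} [Field k] {K : Type*} [Field K] [Algebra k K] [Algebra (RatFunc k) K]
  [IsScalarTower k (RatFunc k) K] [FiniteDimensional (RatFunc k) K]
  [Algebra.IsSeparable (RatFunc k) K]

theorem eq_zero_of_gen (h : gen k K = 0) {g : K} (hg : g ∈ LD (canD k K)) : g = 0 := by
  have h1 : finrank k (LD (canD k K)) = 0 := h
  haveI := RR11_948.LD_finite (canD k K)
  have h2 : LD (canD k K) = ⊥ := Submodule.finrank_eq_zero.mp h1
  rw [h2] at hg
  exact (Submodule.mem_bot k).mp hg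

end genus

/-! ### the `e`-part -/

section main

variable (p : ℕ) [hp : Fact p.Prime] {k : Type*} [Field k] [IsAlgClosed k] [CharP k p]
  {K : Type*} [Field K] [Algebra k K] [Algebra (RatFunc k) K]
  [IsScalarTower k (RatFunc k) K] [FiniteDimensional (RatFunc k) K]
  [Algebra.IsSeparable (RatFunc k) K]
  {L : Type*} [Field L] [Algebra k L] [Algebra K L] [IsScalarTower k K L]
  [FiniteDimensional K L] [Algebra.IsSeparable K L]
  [Algebra (RatFunc k) L] [IsScalarTower k (RatFunc k) L] [FiniteDimensional (RatFunc k) L]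
  [Algebra.IsSeparable (RatFunc k) L] [IsScalarTower (RatFunc k) K L]

theorem CK_add (a b : L) : CK p k L (a + b) = CK p k L a + CK p k L b := (pb p k L).C_add a b

theorem CK_iter_add (m : ℕ) (a b : L) :
    (CK p k L)^[m] (a + b) = (CK p k L)^[m] a + (CK p k L)^[m] b := by
  induction m generalizing a b with
  | zero => rfl
  | succ m ih => rw [Function.iterate_succ_apply, Function.iterate_succ_apply,
      Function.iterate_succ_apply, CK_add, ih]

theorem CK_iter_zero (m : ℕ) : (CK p k L)^[m] (0 : L) = 0 := by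
  induction m with
  | zero => rfl
  | succ m ih => rw [Function.iterate_succ_apply, CK_zero, ih]

theorem CK_iter_sum {ι : Type*} (s : Finset ι) (g : ι → L) (m : ℕ) :
    (CK p k L)^[m] (∑ i ∈ s, g i) = ∑ i ∈ s, (CK p k L)^[m] (g i) := by
  classical
  induction s using Finset.induction_on with
  | empty => simp [CK_iter_zero]
  | insert i s hi ih => rw [Finset.sum_insert hi, Finset.sum_insert hi, CK_iter_add, ih]

/-- killed elements are stable under multiplication by constants (`k` perfect) -/
theorem CK_iter_const (m : ℕ) (c : k) {g : L} (h : (CK p k L)^[m] g = 0) :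
    (CK p k L)^[m] (algebraMap k L c * g) = 0 := by
  induction m generalizing c g with
  | zero => rw [Function.iterate_zero, id] at h ⊢; rw [h, mul_zero]
  | succ m ih =>
    rw [Function.iterate_succ_apply] at h ⊢
    obtain ⟨d, hd⟩ := IsAlgClosed.exists_pow_nat_eq c hp.out.pos
    rw [← hd, map_pow, CK_pow_mul]
    exact ih d h

variable {u : K} {E : Pl k K →₀ ℤ} {N : ℕ}

/-- **CARTINJ**: regular Cartier nilpotent families in the `e`-part vanish -/
theorem eq_zero_of_idem {A : Type*} [Group A] [Fintype A] (hA : ¬ p ∣ Fintype.card A)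
    (B : Subgroup A) (θ : B →* (L ≃ₐ[K] L))
    (hinv : ∀ g : L, (∀ b, θ b g = g) → g ∈ Set.range (algebraMap K L))
    (hN : N ≠ 0) (hNp : N.Coprime p) (hu : u ≠ 0) (hdiv : divf (k := k) u = N • E)
    (hord : ∀ (j : ℕ) (f : K), (∀ (P : Pl k K) (t : K), P.v t = exp (-1) →
      P.v (del k K f) ≤ P.v (del k K t) * exp (-(p ^ (j + 1) * E P))) → del k K f = 0)
    {y : L} (hy : y ^ N = algebraMap K L u) (χ : A →* kˣ)
    (hχ : ∀ b : B, algebraMap k L (χ b) * θ b y = y)
    (e : A → k) (s : Finset ℕ) (c : ℕ → k)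
    (he : ∀ a, e a = ∑ j ∈ s, c j * (((χ a)⁻¹ : kˣ) : k) ^ p ^ j)
    (F : A → L) (hF : ∀ (b : B) (a : A), F (b * a) = θ b (F a))
    (hR : ∀ a, F a ∈ LD (canD k L)) (m : ℕ) (hC : ∀ a, (CK p k L)^[m] (F a) = 0)
    (heF : ∀ a, ∑ b, algebraMap k L (e b) * F (b * a) = F a) (a : A) : F a = 0 := by
  haveI := isGalois θ hinv
  have hsurj := surjective θ hinv
  have hpn : ¬ p ∣ finrank K L := by
    intro h
    apply hA
    have h1 := finrank_dvd θ hinv
    have h2 : Nat.card B ∣ Nat.card A := Subgroup.card_subgroup_dvd_card B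
    rw [Nat.card_eq_fintype_card (α := A)] at h2
    exact h.trans (h1.trans h2)
  choose τ hτ using hsurj
  have hχ' : ∀ σ : L ≃ₐ[K] L, algebraMap k L ((χ (τ σ) : kˣ) : k) * σ y = y := by
    intro σ
    have h1 := hχ (τ σ)
    rwa [hτ] at h1
  have key : ∀ j, ∑ b, algebraMap k L ((((χ b)⁻¹ : kˣ) : k) ^ p ^ j) * F (b * a) = 0 := by
    intro j
    refine eq_zero_of_eigen hpn hN hNp hu hdiv hord hy (fun σ => ((χ (τ σ) : kˣ) : k)) hχ' m j
      _ ?_ ?_ ?_
    · intro σ
      obtain ⟨t, rfl⟩ : ∃ t : B, θ t = σ := ⟨τ σ, hτ σ⟩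
      set t' : B := τ (θ t) with ht'
      have ht : θ t' = θ t := hτ _
      rw [← ht, map_sum, Finset.mul_sum]
      refine Fintype.sum_equiv (Equiv.mulLeft (t' : A)) _ _ fun b => ?_
      rw [map_mul, Equiv.coe_mulLeft, mul_assoc (t' : A) b a, hF]
      have h1 : (θ t') (algebraMap k L ((((χ b)⁻¹ : kˣ) : k) ^ p ^ j)) =
          algebraMap k L ((((χ b)⁻¹ : kˣ) : k) ^ p ^ j) := by
        rw [IsScalarTower.algebraMap_apply k K L, (θ t').commutes]
      rw [h1, ← mul_assoc, ← map_mul, ← mul_pow]
      congr 3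
      rw [map_mul, mul_inv, ← Units.val_mul, mul_inv_cancel_left]
    · refine Submodule.sum_mem _ fun b _ => ?_
      rw [← Algebra.smul_def]
      exact Submodule.smul_mem _ _ (hR _)
    · rw [CK_iter_sum]
      exact Finset.sum_eq_zero fun b _ => CK_iter_const p m _ (hC _)
  rw [← heF a]
  have h1 : ∀ b, algebraMap k L (e b) * F (b * a) = ∑ j ∈ s, algebraMap k L (c j) *
      (algebraMap k L ((((χ b)⁻¹ : kˣ) : k) ^ p ^ j) * F (b * a)) := by
    intro b
    rw [he, map_sum, Finset.sum_mul]
    exact Finset.sum_congr rfl fun j _ => by rw [map_mul, mul_assoc]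
  simp_rw [h1]
  rw [Finset.sum_comm]
  refine Finset.sum_eq_zero fun j _ => ?_
  rw [← Finset.mul_sum, key j, mul_zero]

end main

end Crest.Agent.R013.CI2_398
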