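import Crest.Agent.R013.Kumv_275
import Crest.Agent.R013.Red1_332

/-!
# Row 13, KUMV for 332's norms `Nm C K`

`C` algebraically closed with `‖l‖ = 1`; `L = K(y)`, `y ^ l = h ∈ K`, `h` no `l`-th power.
* split: `W : Fin l → Nm C L`, all extensions of `w`, `kapMap` bijective;
* inert: exactly one extension `W`, `kap W = (kap w)(ȳ)`, degree `l`.
-/

set_option autoImplicit false
set_option linter.all false

noncomputable section

namespace Crest.Agent.R013.Kumv2_275

open scoped NNReal IntermediateField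
open Polynomial
open Crest.Agent.R013.A2d_275 Crest.Agent.R013.Unr9_957 Crest.Agent.R013.Kumv_275
open Crest.Agent.R013.Red332

variable {C : Type*} [NormedField C] [IsUltrametricDist C]
variable {K L : Type*} [Field K] [Field L] [Algebra C K] [Algebra K L] [Algebra C L]
  [IsScalarTower C K L]

/-- the map of residue fields `kap w → kap W` for `W` over `w` -/
def kapMap (w : Nm C K) (W : Nm C L) (hW : W.v.comap (algebraMap K L) = w.v) :
    kap w →+* kap W := kMap w.v W.v hW

theorem kapMap_red (w : Nm C K) (W : Nm C L) (hW : W.v.comap (algebraMap K L) = w.v) (f : K) :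
    kapMap w W hW (red w f) = red W (algebraMap K L f) := by
  have h1 : W.v (algebraMap K L f) = w.v f := DFunLike.congr_fun hW f
  by_cases hf : w.v f ≤ 1
  · rw [red_def w hf, red_def W (by rwa [h1])]
    rfl
  · rw [red_of_not w hf, red_of_not W (by rwa [h1]), map_zero]

theorem kapMap_algebraMap (w : Nm C K) (W : Nm C L) (hW : W.v.comap (algebraMap K L) = w.v)
    (c : Ct C) : kapMap w W hW (algebraMap (Ct C) (kap w) c) = algebraMap (Ct C) (kap W) c := by
  obtain ⟨a, ha, rfl⟩ := rc_surj c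
  rw [← red_C w a ha, ← red_C W a ha, kapMap_red, ← IsScalarTower.algebraMap_apply]

/-- an extension of `w.v` with the values of `C` is a norm over `C` -/
def mkNm (w : Nm C K) (W : Valuation L ℝ≥0) (hW : W.comap (algebraMap K L) = w.v)
    (hval : ∀ z : L, z ≠ 0 → ∃ c : K, c ≠ 0 ∧ w.v c = W z) : Nm C L where
  v := W
  hC c := by
    rw [IsScalarTower.algebraMap_apply C K L]
    exact (DFunLike.congr_fun hW (algebraMap C K c)).trans (w.hC c)
  val f hf := by
    obtain ⟨c, hc0, hc⟩ := hval f hf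
    obtain ⟨d, hd⟩ := w.val c hc0
    exact ⟨d, by rw [← hc, hd]⟩

variable {l : ℕ} {h : K} {y : L} {ζ : K}

theorem val_l (hCl : ‖(l : C)‖ = 1) (w : Nm C K) : w.v (l : K) = 1 := by
  have h1 := w.hC (l : C)
  rw [map_natCast] at h1
  rw [h1]
  ext
  exact hCl

/-- **split case** -/
theorem split (hl : l.Prime) (hCl : ‖(l : C)‖ = 1) (hζ : IsPrimitiveRoot ζ l) (h0 : h ≠ 0)
    (hy : y ^ l = algebraMap K L h) (htop : K⟮y⟯ = ⊤) (hh : ∀ g : K, g ^ l ≠ h)
    (w : Nm C K) {g : K} (hg : w.v (h / g ^ l - 1) < 1) :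
    ∃ W : Fin l → Nm C L, Function.Injective W ∧
      (∀ i, (W i).v.comap (algebraMap K L) = w.v) ∧
      (∀ i, (W i).v (y / algebraMap K L g - algebraMap K L (ζ ^ (i : ℕ))) < 1) ∧
      (∀ W' : Valuation L ℝ≥0, W'.comap (algebraMap K L) = w.v → ∃ i, W' = (W i).v) ∧
      (∀ i (z : L) (ε : ℝ≥0), 0 < ε → ∃ c : K, (W i).v (z - algebraMap K L c) < ε) ∧
      ∀ i hi, Function.Bijective (kapMap w (W i) hi) := by
  have hvl := val_l hCl w
  have hex : ∀ i : Fin l, ∃ W : Nm C L, W.v.comap (algebraMap K L) = w.v ∧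
      W.v (y / algebraMap K L g - algebraMap K L (ζ ^ (i : ℕ))) < 1 := by
    intro i
    obtain ⟨W, hW, hWi⟩ := split_exists w.v hl hvl hζ hy htop hh hg i.2
    refine ⟨mkNm w W hW ?_, hW, hWi⟩
    intro z hz
    obtain ⟨c, hc1, hc2⟩ := split_val w.v hl hvl hζ hy htop hg W hW z hz
    refine ⟨c, ?_, hc2⟩
    rintro rfl
    rw [map_zero] at hc2
    exact hz ((map_eq_zero W).mp hc2.symm)
  choose W hW hWi using hex
  refine ⟨W, ?_, hW, hWi, ?_, ?_, ?_⟩
  · intro i j hij
    have h1 := hWi i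
    rw [hij] at h1
    exact Fin.ext (split_idx_unique w.v hl hvl hζ (W j).v (hW j) i.2 j.2 h1 (hWi j))
  · intro W' hW'
    obtain ⟨i, hi, hiw⟩ := split_idx w.v hl hvl hζ hy hg W' hW'
    exact ⟨⟨i, hi⟩, split_unique w.v hl hvl hζ h0 hy htop hg hi W' (W ⟨i, hi⟩).v hW' (hW _) hiw
      (hWi ⟨i, hi⟩)⟩
  · intro i z ε hε
    exact split_dense w.v hl hvl hζ hy htop hg (W i).v (hW i) z ε hε
  · intro i hi
    refine ⟨(kapMap w (W i) hi).injective, ?_⟩
    intro b
    obtain ⟨f, hf, rfl⟩ := red_surj (W i) b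
    obtain ⟨c, hc⟩ := split_dense w.v hl hvl hζ hy htop hg (W i).v (hW i) f 1 zero_lt_one
    refine ⟨red w c, ?_⟩
    rw [kapMap_red]
    have hc1 : (W i).v (algebraMap K L c) ≤ 1 := by
      have h1 : algebraMap K L c = f - (f - algebraMap K L c) := by ring
      rw [h1]
      exact ((W i).v.map_sub _ _).trans (max_le hf hc.le)
    rw [red_eq_iff _ hc1 hf, Valuation.map_sub_swap]
    exact hc

/-- **inert case** -/
theorem inert [IsAlgClosed C] [CharZero K] (hnt : ∃ a : C, 1 < ‖a‖) (hl : l.Prime)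
    (hCl : ‖(l : C)‖ = 1) (hζ : IsPrimitiveRoot ζ l) (h0 : h ≠ 0)
    (hy : y ^ l = algebraMap K L h) (htop : K⟮y⟯ = ⊤)
    (w : Nm C K) (hg : ∀ g : K, ¬ w.v (h / g ^ l - 1) < 1) :
    ∃ (W : Nm C L) (hW : W.v.comap (algebraMap K L) = w.v) (c : C), c ≠ 0 ∧
      (∀ W' : Valuation L ℝ≥0, W'.comap (algebraMap K L) = w.v → W' = W.v) ∧
      w.v (h / algebraMap C K c ^ l) = 1 ∧
      W.v (y / algebraMap C L c) = 1 ∧
      red W (y / algebraMap C L c) ^ l = kapMap w W hW (red w (h / algebraMap C K c ^ l)) ∧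
      (∀ b : kap w, b ^ l ≠ red w (h / algebraMap C K c ^ l)) ∧
      (∀ a : ℕ → K, W.v (∑ j ∈ Finset.range l, algebraMap K L (a j) * (y / algebraMap C L c) ^ j) =
        (Finset.range l).sup fun j => w.v (a j)) ∧
      ∀ b : kap W, ∃ a : ℕ → kap w,
        b = ∑ j ∈ Finset.range l, kapMap w W hW (a j) * red W (y / algebraMap C L c) ^ j := by
  have hvl := val_l hCl w
  have hnt' : ∃ a : K, 1 < w.v a := by
    obtain ⟨a, ha⟩ := hnt
    exact ⟨algebraMap C K a, by rw [w.hC]; exact_mod_cast ha⟩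
  -- normalise
  obtain ⟨d, hd⟩ := w.val h h0
  have hd0 : d ≠ 0 := by
    rintro rfl
    rw [nnnorm_zero] at hd
    exact h0 ((map_eq_zero w.v).mp hd)
  obtain ⟨c, hc⟩ := IsAlgClosed.exists_pow_nat_eq d hl.pos
  have hc0 : c ≠ 0 := by
    rintro rfl
    rw [zero_pow hl.ne_zero] at hc
    exact hd0 hc.symm
  have hcK : algebraMap C K c ≠ 0 := by rwa [Ne, map_eq_zero]
  have hcL : algebraMap C L c ≠ 0 := by rwa [Ne, map_eq_zero]
  set h' : K := h / algebraMap C K c ^ l with hh'
  set y' : L := y / algebraMap C L c with hy'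
  have hvh' : w.v h' = 1 := by
    rw [hh', map_div₀, ← map_pow, hc, w.hC, hd, div_self]
    rwa [Ne, nnnorm_eq_zero]
  have hyl' : y' ^ l = algebraMap K L h' := by
    rw [hy', hh', div_pow, hy, map_div₀, map_pow, ← IsScalarTower.algebraMap_apply]
  have hh'0 : h' ≠ 0 := div_ne_zero h0 (pow_ne_zero _ hcK)
  have htop' : K⟮y'⟯ = ⊤ := by
    rw [eq_top_iff, ← htop, IntermediateField.adjoin_simple_le_iff]
    have h1 : y = y' * algebraMap K L (algebraMap C K c) := by
      rw [hy', ← IsScalarTower.algebraMap_apply, div_mul_cancel₀ _ hcL]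
    rw [h1]
    exact mul_mem (IntermediateField.mem_adjoin_simple_self K y') (IntermediateField.algebraMap_mem _ _)
  have hg' : ∀ g : K, ¬ w.v (h' / g ^ l - 1) < 1 := by
    intro g hlt
    refine hg (algebraMap C K c * g) ?_
    rwa [mul_pow, ← div_div, ← hh']
  have := finDim hl hyl' htop'
  obtain ⟨W, hW⟩ := exists_extend_alg (E := L) w.v
  have hWv : ∀ a : K, W (algebraMap K L a) = w.v a := fun a => DFunLike.congr_fun hW a
  have hnorm := inert_norm w.v hl hyl' hvh' hg' W hW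
  have hval : ∀ z : L, z ≠ 0 → ∃ c : K, c ≠ 0 ∧ w.v c = W z := by
    intro z hz
    obtain ⟨a, ha⟩ := exists_coeffs hl hyl' htop' z
    have h1 := hnorm a
    rw [← ha] at h1
    obtain ⟨i, hi, him⟩ := Finset.exists_mem_eq_sup (Finset.range l)
      ⟨0, Finset.mem_range.mpr hl.pos⟩ (fun j => w.v (a j))
    rw [him] at h1
    refine ⟨a i, ?_, h1.symm⟩
    intro h2
    rw [h2, map_zero] at h1
    exact hz ((map_eq_zero W).mp h1)
  have hWy' : W y' = 1 := by
    have h1 : W y' ^ l = 1 := by rw [← map_pow, hyl', hWv, hvh']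
    exact (pow_eq_one_iff_of_nonneg zero_le hl.ne_zero).mp h1
  obtain ⟨N, rfl⟩ : ∃ N : Nm C L, N.v = W := ⟨mkNm w W hW hval, rfl⟩
  refine ⟨N, hW, c, hc0, ?_, hvh', hWy', ?_, ?_, hnorm, ?_⟩
  · intro W' hW'
    exact inert_unique w.v hnt' hl hζ h0 hy htop hg W' N.v hW' hW
  · rw [kapMap_red, ← red_pow _ (le_of_eq hWy'), hyl']
  · intro b hb
    obtain ⟨f, hf, rfl⟩ := red_surj w b
    refine res_not_pow w.v hl hvh' hg' (red w f) ?_
    rw [red_def w hvh'.le] at hb
    exact hb
  · intro b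
    obtain ⟨f, hf, rfl⟩ := red_surj N b
    obtain ⟨a, ha⟩ := exists_coeffs hl hyl' htop' f
    have h1 := hnorm a
    rw [← ha] at h1
    have h2 : ∀ j < l, w.v (a j) ≤ 1 := by
      intro j hj
      have h3 := Finset.le_sup (f := fun j => w.v (a j)) (Finset.mem_range.mpr hj)
      rw [← h1] at h3
      exact h3.trans hf
    refine ⟨fun j => red w (a j), ?_⟩
    have h4 : ∀ (s : Finset ℕ), s ⊆ Finset.range l →
        N.v (∑ j ∈ s, algebraMap K L (a j) * y' ^ j) ≤ 1 ∧
        red N (∑ j ∈ s, algebraMap K L (a j) * y' ^ j) =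
        ∑ j ∈ s, kapMap w N hW (red w (a j)) * red N y' ^ j := by
      intro s
      induction s using Finset.induction_on with
      | empty =>
        intro _
        refine ⟨by simp, ?_⟩
        rw [Finset.sum_empty, Finset.sum_empty, red_zero]
      | insert j s hj ih =>
        intro hs
        obtain ⟨ih1, ih2⟩ := ih ((Finset.subset_insert _ _).trans hs)
        have hjl : j < l := Finset.mem_range.mp (hs (Finset.mem_insert_self _ _))
        have h5 : N.v (algebraMap K L (a j)) ≤ 1 := by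
          rw [hWv]
          exact h2 j hjl
        have h6 : N.v (y' ^ j) ≤ 1 := by
          rw [map_pow, hWy', one_pow]
        have h7 : N.v (algebraMap K L (a j) * y' ^ j) ≤ 1 := by
          rw [map_mul]
          exact mul_le_one' h5 h6
        rw [Finset.sum_insert hj, Finset.sum_insert hj]
        refine ⟨(N.v.map_add _ _).trans (max_le h7 ih1), ?_⟩
        rw [red_add _ h7 ih1, ih2, red_mul _ h5 h6, red_pow _ (le_of_eq hWy'), kapMap_red]
    have h8 := (h4 _ (Finset.Subset.refl _)).2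
    rw [← ha] at h8
    exact h8

end Crest.Agent.R013.Kumv2_275
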