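import Crest.Agent.R013.CI2_398
import Crest.Agent.R013.Kumv2_275
import Crest.Agent.R013.LiftA_168

/-!
# R013 / CARTINJ 3: the stabiliser of a norm and the Galois group of the residue fields
(helper398)

`A` finite group acting on `L` with invariants `K`, `w` a norm of `L` over the norm `v` of `K`:
`th : stab → Aut (kap w / kap v)`, with invariants `kap v` if `|A|` is invertible in `Ct C`.
-/

set_option autoImplicit false
set_option linter.all false

namespace Crest.Agent.R013.CI3_398

open scoped NNReal
open Module IsLocalRing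
open Crest.Agent.R013.Red332 Crest.Agent.R013.Kumv2_275

/-! ### Artin -/

section artin

variable {K L : Type*} [Field K] [Field L] [Algebra K L]
  {B : Type*} [Group B] [Finite B] (θ : B →* (L ≃ₐ[K] L))
  (hinv : ∀ g : L, (∀ b, θ b g = g) → g ∈ Set.range (algebraMap K L))

include hinv

theorem isGaloisGroup : IsGaloisGroup θ.range K L where
  faithful := inferInstance
  commutes := inferInstance
  isInvariant := ⟨fun x hx => hinv x fun b => hx ⟨θ b, b, rfl⟩⟩

theorem finiteDimensional : FiniteDimensional K L :=
  haveI := isGaloisGroup θ hinv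
  haveI : Finite θ.range := Finite.of_surjective θ.rangeRestrict θ.rangeRestrict_surjective
  IsGaloisGroup.finiteDimensional θ.range K L

theorem isGalois : IsGalois K L :=
  haveI := isGaloisGroup θ hinv
  haveI : Finite θ.range := Finite.of_surjective θ.rangeRestrict θ.rangeRestrict_surjective
  IsGaloisGroup.isGalois θ.range K L

end artin

section val

variable {C : Type*} [NormedField C] [IsUltrametricDist C]
  {K L : Type*} [Field K] [Field L] [Algebra C K] [Algebra K L] [Algebra C L]
  [IsScalarTower C K L] {A : Type*} [Group A] (cov : A →* (L ≃ₐ[C] L))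

/-- the stabiliser of a norm -/
def stab (w : Nm C L) : Subgroup A where
  carrier := {a | ∀ f, w.v (cov a f) = w.v f}
  mul_mem' := by
    intro a b ha hb f
    rw [map_mul]
    exact (ha _).trans (hb f)
  one_mem' := by
    intro f
    rw [map_one]
    rfl
  inv_mem' := by
    intro a ha f
    have h1 := ha (cov a⁻¹ f)
    rw [← h1, ← AlgEquiv.mul_apply, ← map_mul, mul_inv_cancel, map_one]
    rfl

theorem mem_stab {w : Nm C L} {a : A} : a ∈ stab cov w ↔ ∀ f, w.v (cov a f) = w.v f := Iff.rfl

/-- the action of the stabiliser on the residue field (ring automorphism) -/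
noncomputable def thO (w : Nm C L) (a : stab cov w) : w.v.valuationSubring ≃+*
    w.v.valuationSubring where
  toFun f := ⟨cov a.1 f.1, by
    have h := a.2 f.1
    rw [Valuation.mem_valuationSubring_iff, h]
    exact f.2⟩
  invFun f := ⟨cov a.1⁻¹ f.1, by
    have h := (inv_mem a.2 : a.1⁻¹ ∈ stab cov w) f.1
    rw [Valuation.mem_valuationSubring_iff, h]
    exact f.2⟩
  left_inv f := by
    apply Subtype.ext
    simp only
    rw [← AlgEquiv.mul_apply, ← map_mul, inv_mul_cancel, map_one]
    rfl
  right_inv f := by
    apply Subtype.ext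
    simp only
    rw [← AlgEquiv.mul_apply, ← map_mul, mul_inv_cancel, map_one]
    rfl
  map_mul' f g := Subtype.ext (map_mul (cov a.1) f.1 g.1)
  map_add' f g := Subtype.ext (map_add (cov a.1) f.1 g.1)

/-- the action of the stabiliser on the residue field -/
noncomputable def thR (w : Nm C L) (a : stab cov w) : kap w ≃+* kap w :=
  ResidueField.mapEquiv (thO cov w a)

theorem thR_red (w : Nm C L) (a : stab cov w) (f : L) :
    thR cov w a (red w f) = red w (cov a.1 f) := by
  have h := a.2 f
  by_cases hf : w.v f ≤ 1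
  · rw [red_def w hf, red_def w (by rwa [h])]
    rfl
  · rw [red_of_not w hf, red_of_not w (by rwa [h]), map_zero]

variable (v : Nm C K) (w : Nm C L) (hw : w.v.comap (algebraMap K L) = v.v)

/-- `kap v → kap w` as an algebra -/
@[reducible] noncomputable def kalg : Algebra (kap v) (kap w) := (kapMap v w hw).toAlgebra

theorem kalg_tower : @IsScalarTower (Ct C) (kap v) (kap w) _ (kalg v w hw).toSMul _ :=
  letI := kalg v w hw
  IsScalarTower.of_algebraMap_eq fun c => (kapMap_algebraMap v w hw c).symm

variable (hK : ∀ (a : A) (f : K), cov a (algebraMap K L f) = algebraMap K L f)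

include hK in
theorem thR_kapMap (a : stab cov w) (g : kap v) :
    thR cov w a (kapMap v w hw g) = kapMap v w hw g := by
  obtain ⟨f, -, rfl⟩ := red_surj v g
  rw [kapMap_red, thR_red, hK]

/-- the action of the stabiliser on the residue field, over `kap v` -/
noncomputable def th : letI := kalg v w hw
    stab cov w →* (kap w ≃ₐ[kap v] kap w) :=
  letI := kalg v w hw
  { toFun := fun a => AlgEquiv.ofRingEquiv (f := thR cov w a) (fun g => thR_kapMap cov v w hw hK a g)
    map_one' := by
      apply AlgEquiv.ext
      intro g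
      obtain ⟨f, -, rfl⟩ := red_surj w g
      change thR cov w 1 (red w f) = red w f
      rw [thR_red, Subgroup.coe_one, map_one]
      rfl
    map_mul' := by
      intro a b
      apply AlgEquiv.ext
      intro g
      obtain ⟨f, -, rfl⟩ := red_surj w g
      change thR cov w (a * b) (red w f) = thR cov w a (thR cov w b (red w f))
      rw [thR_red, thR_red, thR_red, Subgroup.coe_mul, map_mul]
      rfl }

theorem th_red (a : stab cov w) (f : L) :
    letI := kalg v w hw
    th cov v w hw hK a (red w f) = red w (cov a.1 f) := thR_red cov w a f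

variable [Fintype A]
  (hinv : ∀ f : L, (∀ a, cov a f = f) → f ∈ Set.range (algebraMap K L))

theorem v_sum_lt {ι : Type*} (s : Finset ι) (g : ι → L) (h : ∀ i ∈ s, w.v (g i) < 1) :
    w.v (∑ i ∈ s, g i) < 1 := by
  classical
  induction s using Finset.induction_on with
  | empty => simp
  | insert i s hi ih =>
    rw [Finset.sum_insert hi]
    exact (w.v.map_add _ _).trans_lt (max_lt (h i (Finset.mem_insert_self _ _))
      (ih fun j hj => h j (Finset.mem_insert_of_mem hj)))

theorem red_sum {ι : Type*} (s : Finset ι) (g : ι → L) (h : ∀ i ∈ s, w.v (g i) ≤ 1) :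
    w.v (∑ i ∈ s, g i) ≤ 1 ∧ red w (∑ i ∈ s, g i) = ∑ i ∈ s, red w (g i) := by
  classical
  induction s using Finset.induction_on with
  | empty => simp [red_zero]
  | insert i s hi ih =>
    have h1 := h i (Finset.mem_insert_self _ _)
    obtain ⟨h2, h3⟩ := ih fun j hj => h j (Finset.mem_insert_of_mem hj)
    rw [Finset.sum_insert hi, Finset.sum_insert hi]
    exact ⟨(w.v.map_add _ _).trans (max_le h1 h2), by rw [red_add w h1 h2, h3]⟩

include hinv in
/-- **the invariants of the stabiliser in the residue field** -/
theorem th_inv (hnt : ∃ c : C, c ≠ 0 ∧ ‖c‖ ≠ 1) (hA : (Fintype.card A : Ct C) ≠ 0)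
    (g : kap w) (hg : ∀ b : stab cov w, thR cov w b g = g) : g ∈ Set.range (kapMap v w hw) := by
  classical
  obtain ⟨f, hf, rfl⟩ := red_surj w g
  -- approximation
  let W : Set (Valuation L ℝ≥0) := Set.range fun a : A => w.v.comap (cov a : L →+* L)
  haveI : Finite W := Set.finite_range _
  obtain ⟨f', hf'⟩ := LiftA_168.weak_approx (k := C) (K := L) (v0 := NormedField.valuation (K := C))
    (by
      obtain ⟨c, hc0, hc1⟩ := hnt
      refine ⟨c, (Valuation.ne_zero_iff _).mpr hc0, fun h => hc1 ?_⟩
      have h2 : ‖c‖₊ = 1 := h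
      rw [← coe_nnnorm, h2, NNReal.coe_one])
    (fun W' : W => W'.1) Subtype.val_injective
    (by
      rintro ⟨_, a, rfl⟩ c
      change w.v (cov a (algebraMap C L c)) = _
      rw [(cov a).commutes, w.hC]
      rfl)
    (fun W' => if W'.1 = w.v then f else 0) 1 zero_lt_one
  have h1 : ∀ a ∈ stab cov w, w.v (cov a f') ≤ 1 ∧ red w (cov a f') = red w f := by
    intro a ha
    have h2 := hf' ⟨w.v.comap (cov a : L →+* L), a, rfl⟩
    have h3 : w.v.comap (cov a : L →+* L) = w.v := by
      ext z
      exact congrArg _ (ha z)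
    simp only [h3, if_true] at h2
    have h4 : w.v f' ≤ 1 := by
      have h5 : f' = (f' - f) + f := by ring
      rw [h5]
      exact (w.v.map_add _ _).trans (max_le h2.le hf)
    refine ⟨by rwa [ha], ?_⟩
    rw [← thR_red cov w ⟨a, ha⟩, (red_eq_iff w h4 hf).mpr h2, hg]
  have h2 : ∀ a, a ∉ stab cov w → w.v (cov a f') < 1 := by
    intro a ha
    have h2 := hf' ⟨w.v.comap (cov a : L →+* L), a, rfl⟩
    have h3 : ¬ w.v.comap (cov a : L →+* L) = w.v := by
      intro h
      apply ha
      intro z
      exact DFunLike.congr_fun h z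
    simp only [h3, if_false, sub_zero] at h2
    exact h2
  -- the trace
  have htr : ∀ b, cov b (∑ a, cov a f') = ∑ a, cov a f' := by
    intro b
    rw [map_sum]
    refine Fintype.sum_equiv (Equiv.mulLeft b) _ _ fun a => ?_
    rw [Equiv.coe_mulLeft, map_mul]
    rfl
  obtain ⟨s, hs⟩ := hinv _ htr
  have h3 : ∀ a ∈ (Finset.univ : Finset A), w.v (cov a f') ≤ 1 := by
    intro a _
    by_cases ha : a ∈ stab cov w
    · exact (h1 a ha).1
    · exact (h2 a ha).le
  obtain ⟨h4, h5⟩ := red_sum w Finset.univ (fun a => cov a f') h3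
  have h6 : ∑ a : A, red w (cov a f') = (Nat.card (stab cov w) : kap w) * red w f := by
    rw [← Finset.sum_filter_add_sum_filter_not Finset.univ (fun a => a ∈ stab cov w)]
    rw [Finset.sum_congr rfl (g := fun _ => red w f) (fun a ha =>
      (h1 a (Finset.mem_filter.mp ha).2).2)]
    rw [Finset.sum_eq_zero (s := Finset.univ.filter fun a => ¬ a ∈ stab cov w) (fun a ha =>
      (red_eq_zero_iff w (h3 a (Finset.mem_univ _))).mpr (h2 a (Finset.mem_filter.mp ha).2))]
    rw [Finset.sum_const, nsmul_eq_mul, add_zero]
    congr 2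
    rw [Nat.card_eq_fintype_card, Fintype.card_subtype]
  have hn : (Nat.card (stab cov w) : kap w) ≠ 0 := by
    intro h
    apply hA
    obtain ⟨m, hm⟩ := Subgroup.card_subgroup_dvd_card (stab cov w)
    rw [Nat.card_eq_fintype_card (α := A)] at hm
    apply (algebraMap (Ct C) (kap w)).injective
    rw [map_natCast, map_zero, hm, Nat.cast_mul, h, zero_mul]
  refine ⟨((Nat.card (stab cov w) : ℕ) : kap v)⁻¹ * red v s, ?_⟩
  rw [map_mul, map_inv₀, map_natCast, kapMap_red, hs, h5, h6, inv_mul_cancel_left₀ hn]

end val

end Crest.Agent.R013.CI3_398
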