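import Crest.Agent.R013.CI3_398
import Crest.Agent.R013.RR21_948

/-!
# R013 / CARTINJ 4: Cartier injectivity on the `e`-part at a norm of a Kummer cover (helper398)

`L / K` with group `A`, `Y ∈ L`, `cov a Y = ζ a * Y`, `Y ^ N = h ∈ K`; `w` a norm of `L` over `v`;
the reduction of `h / g ^ N` at `v` comes from COUNT (or `kap v` has genus zero).
-/

set_option autoImplicit false
set_option linter.all false

namespace Crest.Agent.R013.CI4_398

open scoped NNReal
open Module IsLocalRing WithZero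
open Crest.Agent.R013.Red332 Crest.Agent.R013.Kumv2_275
open Crest.Agent.R013.RR1_948 Crest.Agent.R013.RR7_948 Crest.Agent.R013.RR8_948
open Crest.Agent.R013.RR9_948 Crest.Agent.R013.RR11_948 Crest.Agent.R013.RR12_948
open Crest.Agent.R013.RR13_948 Crest.Agent.R013.RR14_948 Crest.Agent.R013.RR18_948
open Crest.Agent.R013.RR19_948 Crest.Agent.R013.RR21_948 Crest.Agent.R013.RR22_948
open Crest.Agent.R013.Car1_700 Crest.Agent.R013.Car2_700 Crest.Agent.R013.Car5_700
open Crest.Agent.R013.Car6_700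
open Crest.Agent.R013.PicD_398 Crest.Agent.R013.CntF6_398 Crest.Agent.R013.CI1_398
open Crest.Agent.R013.CI2_398 Crest.Agent.R013.CI3_398

/-- algebraically closed constants: roots of constants are constants -/
theorem root_const {k F : Type*} [Field k] [Field F] [Algebra k F] [IsAlgClosed k] {n : ℕ}
    (hn : 0 < n) {y : F} {c : k} (h : y ^ n = algebraMap k F c) : ∃ d : k, y = algebraMap k F d := by
  have hint : IsIntegral k y := ⟨Polynomial.X ^ n - Polynomial.C c,
    Polynomial.monic_X_pow_sub_C c hn.ne', by simp [h]⟩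
  obtain ⟨d, hd⟩ := minpoly.mem_range_of_degree_eq_one k y
    (IsAlgClosed.degree_eq_one_of_irreducible k (minpoly.irreducible hint))
  exact ⟨d, hd.symm⟩

section main

variable (p : ℕ) [hp : Fact p.Prime] {C : Type*} [NormedField C] [IsUltrametricDist C]
  [IsAlgClosed (Ct C)] [CharP (Ct C) p]
  {K L : Type*} [Field K] [Field L] [Algebra C K] [Algebra K L] [Algebra C L]
  [IsScalarTower C K L] {A : Type*} [Group A] [Fintype A] (cov : A →* (L ≃ₐ[C] L))
  (v : Nm C K) (w : Nm C L) (hw : w.v.comap (algebraMap K L) = v.v)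
  (hK : ∀ (a : A) (f : K), cov a (algebraMap K L f) = algebraMap K L f)
  (hinv : ∀ f : L, (∀ a, cov a f = f) → f ∈ Set.range (algebraMap K L))
  (hnt : ∃ c : C, c ≠ 0 ∧ ‖c‖ ≠ 1) (hA : ¬ p ∣ Fintype.card A)

include hA in
theorem hA' : (Fintype.card A : Ct C) ≠ 0 := by
  rw [Ne, CharP.cast_eq_zero_iff (Ct C) p]
  exact hA

variable {Y : L} (hY0 : Y ≠ 0) {ζ : A → C} (hY : ∀ a, cov a Y = algebraMap C L (ζ a) * Y)

include hY0 hY in
theorem zeta_one : ζ 1 = 1 := by
  have h1 := hY 1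
  rw [map_one] at h1
  have h2 : algebraMap C L (ζ 1) * Y = 1 * Y := by rw [one_mul, ← h1]; rfl
  apply (algebraMap C L).injective
  rw [mul_right_cancel₀ hY0 h2, map_one]

include hY0 hY in
theorem zeta_mul (a b : A) : ζ (a * b) = ζ a * ζ b := by
  have h1 := hY (a * b)
  rw [map_mul] at h1
  have h2 : algebraMap C L (ζ (a * b)) * Y = algebraMap C L (ζ a * ζ b) * Y := by
    rw [← h1, AlgEquiv.mul_apply, hY b, map_mul, (cov a).commutes, hY a, map_mul]
    ring
  exact (algebraMap C L).injective (mul_right_cancel₀ hY0 h2)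

include hY0 hY in
theorem zeta_pow (a : A) : ζ a ^ Fintype.card A = 1 := by
  have h1 : ∀ n : ℕ, ζ (a ^ n) = ζ a ^ n := by
    intro n
    induction n with
    | zero => rw [pow_zero, pow_zero, zeta_one cov hY0 hY]
    | succ n ih => rw [pow_succ, pow_succ, zeta_mul cov hY0 hY, ih]
  rw [← h1, pow_card_eq_one, zeta_one cov hY0 hY]

include hY0 hY in
theorem norm_zeta (a : A) : ‖ζ a‖₊ = 1 := by
  have h1 := congrArg nnnorm (zeta_pow cov hY0 hY a)
  rw [nnnorm_pow, nnnorm_one] at h1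
  exact (pow_eq_one_iff_of_nonneg zero_le Fintype.card_ne_zero).mp h1

variable {χ : A →* (Ct C)ˣ} (hχ : ∀ a, ((χ a : (Ct C)ˣ) : Ct C) * rc (ζ a) = 1)

variable {g : K} (hg : g ≠ 0) {N : ℕ} (hN : N ≠ 0) {h : K} (hYN : Y ^ N = algebraMap K L h)
  (hgv : v.v (h / g ^ N) = 1)

include hw hg hN hYN hgv in
theorem w_Y : w.v (Y / algebraMap K L g) = 1 := by
  have h1 : w.v (Y / algebraMap K L g) ^ N = 1 := by
    rw [← map_pow, div_pow, hYN, ← map_pow, ← map_div₀]
    have h2 : w.v (algebraMap K L (h / g ^ N)) = v.v (h / g ^ N) := DFunLike.congr_fun hw _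
    rw [h2, hgv]
  exact (pow_eq_one_iff_of_nonneg zero_le hN).mp h1

include hw hg hN hYN hgv in
theorem red_Y_pow : red w (Y / algebraMap K L g) ^ N = kapMap v w hw (red v (h / g ^ N)) := by
  rw [← red_pow w (w_Y v w hw hg hN hYN hgv).le, kapMap_red, div_pow, hYN, ← map_pow, ← map_div₀]

include hY0 hY hK hχ hw hg hN hYN hgv in
theorem th_Y (b : stab cov w) : algebraMap (Ct C) (kap w) (χ b.1) *
    thR cov w b (red w (Y / algebraMap K L g)) = red w (Y / algebraMap K L g) := by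
  have h1 := norm_zeta cov hY0 hY b.1
  rw [thR_red, map_div₀, hK, hY, mul_div_assoc,
    red_mul w (by rw [w.hC, h1]) (w_Y v w hw hg hN hYN hgv).le, red_C w _ h1.le, ← mul_assoc,
    ← map_mul, hχ, map_one, one_mul]

section field

variable [Algebra (RatFunc (Ct C)) (kap v)] [IsScalarTower (Ct C) (RatFunc (Ct C)) (kap v)]
  [FiniteDimensional (RatFunc (Ct C)) (kap v)] [Algebra.IsSeparable (RatFunc (Ct C)) (kap v)]
  [Algebra (RatFunc (Ct C)) (kap w)] [IsScalarTower (Ct C) (RatFunc (Ct C)) (kap w)]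
  [FiniteDimensional (RatFunc (Ct C)) (kap w)] [Algebra.IsSeparable (RatFunc (Ct C)) (kap w)]
  (hT : ∀ r, algebraMap (RatFunc (Ct C)) (kap w) r =
    kapMap v w hw (algebraMap (RatFunc (Ct C)) (kap v) r))
  (e : A → Ct C) (s : Finset ℕ) (c : ℕ → Ct C)
  (he : ∀ a, e a = ∑ j ∈ s, c j * (((χ a)⁻¹ : (Ct C)ˣ) : Ct C) ^ p ^ j)

include hK hinv hnt hA hY0 hY hχ hg hYN hgv hT he in
/-- **CARTINJ at a norm of the cover, positive genus** -/
theorem cartinj_pos {M n : ℕ} (hM : M ≠ 0) (hn : n ≠ 0) (hnp : n.Coprime p) (hNM : N = n * M)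
    {u : kap v} {E : Pl (Ct C) (kap v) →₀ ℤ} (hu : u ≠ 0) (hdiv : divf (k := Ct C) u = n • E)
    (hord : ∀ (j : ℕ) (f : kap v), (∀ (P : Pl (Ct C) (kap v)) (t : kap v), P.v t = exp (-1) →
      P.v (del (Ct C) (kap v) f) ≤ P.v (del (Ct C) (kap v) t) * exp (-(p ^ (j + 1) * E P))) →
      del (Ct C) (kap v) f = 0)
    (hred : red v (h / g ^ N) = u ^ M) (f : L)
    (hR : ∀ a, red w (cov a f) ∈ LD (canD (Ct C) (kap w))) (m : ℕ)
    (hC : ∀ a, (CK p (Ct C) (kap w))^[m] (red w (cov a f)) = 0)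
    (heF : ∀ a, ∑ b, algebraMap (Ct C) (kap w) (e b) * red w (cov (b * a) f) =
      red w (cov a f)) (a : A) : red w (cov a f) = 0 := by
  have hN : N ≠ 0 := by rw [hNM]; exact mul_ne_zero hn hM
  letI := kalg v w hw
  haveI := kalg_tower v w hw
  haveI : IsScalarTower (RatFunc (Ct C)) (kap v) (kap w) := IsScalarTower.of_algebraMap_eq hT
  have hinvb : ∀ z : kap w, (∀ b, th cov v w hw hK b z = z) →
      z ∈ Set.range (algebraMap (kap v) (kap w)) := by
    intro z hz
    exact th_inv cov v w hw hinv hnt (hA' p hA) z hz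
  haveI := CI3_398.finiteDimensional (th cov v w hw hK) hinvb
  haveI := CI3_398.isGalois (th cov v w hw hK) hinvb
  -- the root of `u`
  set y₀ := red w (Y / algebraMap K L g) with hy₀
  have h1 : y₀ ^ N = algebraMap (kap v) (kap w) (u ^ M) := by
    rw [hy₀, red_Y_pow v w hw hg hN hYN hgv, hred]
    rfl
  have hu' : algebraMap (kap v) (kap w) u ≠ 0 := by simpa using hu
  have h2 : (y₀ ^ n / algebraMap (kap v) (kap w) u) ^ M = algebraMap (Ct C) (kap w) 1 := by
    rw [div_pow, ← pow_mul, ← hNM, h1, map_pow, div_self (pow_ne_zero _ hu'), map_one]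
  obtain ⟨d, hd⟩ := root_const (Nat.pos_of_ne_zero hM) h2
  obtain ⟨d', hd'⟩ := IsAlgClosed.exists_pow_nat_eq d (Nat.pos_of_ne_zero hn)
  have hd0 : d ≠ 0 := by
    rintro rfl
    rw [map_zero] at hd
    rw [hd, zero_pow hM, map_one] at h2
    exact zero_ne_one h2
  have hd0' : d' ≠ 0 := by
    rintro rfl
    rw [zero_pow hn] at hd'
    exact hd0 hd'.symm
  have hdw : algebraMap (Ct C) (kap w) d' ≠ 0 := by
    rwa [Ne, FaithfulSMul.algebraMap_eq_zero_iff]
  set y := y₀ / algebraMap (Ct C) (kap w) d' with hy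
  have hyn : y ^ n = algebraMap (kap v) (kap w) u := by
    rw [hy, div_pow, ← map_pow, hd', ← hd, div_div_cancel₀]
    have h3 : y₀ ^ n ≠ 0 := by
      intro h4
      have h5 : (y₀ ^ n) ^ M = 0 := by rw [h4, zero_pow hM]
      rw [← pow_mul, ← hNM, h1, map_pow] at h5
      exact hu' (pow_eq_zero_iff hM |>.mp h5)
    exact h3
  refine eq_zero_of_idem p hA (stab cov w) (th cov v w hw hK) hinvb hn hnp hu hdiv hord hyn χ ?_
    e s c he (fun a => red w (cov a f)) ?_ hR m hC heF a
  · intro b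
    have h3 := th_Y cov v w hw hK hY0 hY hχ hg hN hYN hgv b
    rw [hy, map_div₀]
    have h4 : th cov v w hw hK b (algebraMap (Ct C) (kap w) d') = algebraMap (Ct C) (kap w) d' := by
      rw [IsScalarTower.algebraMap_apply (Ct C) (kap v) (kap w), AlgEquiv.commutes]
    rw [h4, ← mul_div_assoc]
    congr 1
  · intro b a
    rw [th_red, map_mul]
    rfl

include hw hK hinv hnt hA hY0 hY hχ hg hYN hgv in
/-- the stabiliser is trivial if the reduction of `h / g ^ N` is one -/
theorem stab_eq_bot (hN : N ≠ 0) (hinj : Function.Injective χ) (hred : red v (h / g ^ N) = 1) :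
    ∀ b : stab cov w, (b : A) = 1 := by
  intro b
  have h1 := red_Y_pow v w hw hg hN hYN hgv
  rw [hred, map_one, ← map_one (algebraMap (Ct C) (kap w))] at h1
  obtain ⟨d, hd⟩ := root_const (Nat.pos_of_ne_zero hN) h1
  have h2 := th_Y cov v w hw hK hY0 hY hχ hg hN hYN hgv b
  have hy : red w (Y / algebraMap K L g) ≠ 0 := red_ne_zero w (w_Y v w hw hg hN hYN hgv)
  have h3 : thR cov w b (red w (Y / algebraMap K L g)) = red w (Y / algebraMap K L g) := by
    rw [hd, ← kapMap_algebraMap v w hw, thR_kapMap cov v w hw hK]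
  rw [h3] at h2
  have h4 : algebraMap (Ct C) (kap w) (χ b.1) = 1 := mul_right_cancel₀ hy (by rw [h2, one_mul])
  have h5 : ((χ b.1 : (Ct C)ˣ) : Ct C) = 1 := by
    apply (algebraMap (Ct C) (kap w)).injective
    rw [h4, map_one]
  apply hinj
  rw [map_one]
  exact Units.ext h5

include hw hK hinv hnt hA hY0 hY hχ hg hYN hgv in
/-- **CARTINJ at a norm of the cover, genus zero** -/
theorem cartinj_zero (hN : N ≠ 0) (hinj : Function.Injective χ) (hred : red v (h / g ^ N) = 1)
    (hgen : gen (Ct C) (kap v) = 0) {z : kap w} (hz : z ∈ LD (canD (Ct C) (kap w))) : z = 0 := by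
  letI := kalg v w hw
  haveI := kalg_tower v w hw
  have h1 := stab_eq_bot p cov v w hw hK hinv hnt hA hY0 hY hχ hg hYN hgv hN hinj hred
  have hsurj : Function.Surjective (algebraMap (kap v) (kap w)) := by
    intro y
    apply th_inv cov v w hw hinv hnt (hA' p hA) y
    intro b
    have hb : b = 1 := Subtype.ext (h1 b)
    obtain ⟨f, -, rfl⟩ := red_surj w y
    rw [hb, thR_red, Subgroup.coe_one, map_one]
    rfl
  let σ : kap v ≃ₐ[Ct C] kap w := AlgEquiv.ofBijective
    (IsScalarTower.toAlgHom (Ct C) (kap v) (kap w)) ⟨(algebraMap (kap v) (kap w)).injective, hsurj⟩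
  have h2 := gen_map σ algClosed_const
  exact eq_zero_of_gen (by rw [← h2, hgen]) hz

end field

/-- the character -/
theorem exists_chi (hA : ¬ p ∣ Fintype.card A) (hY0 : Y ≠ 0)
    (hY : ∀ a, cov a Y = algebraMap C L (ζ a) * Y) :
    ∃ χ : A →* (Ct C)ˣ, (∀ a, ((χ a : (Ct C)ˣ) : Ct C) * rc (ζ a) = 1) ∧
      ∀ a, χ a = 1 → ζ a = 1 := by
  have h1 : ∀ a, ‖ζ a‖₊ ≤ 1 := fun a => (norm_zeta cov hY0 hY a).le
  have h0 : ∀ a, rc (ζ a) ≠ 0 := by
    intro a h
    rw [rc_eq_zero_iff (h1 a), norm_zeta cov hY0 hY a] at h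
    exact lt_irrefl _ h
  refine ⟨{ toFun := fun a => (Units.mk0 (rc (ζ a)) (h0 a))⁻¹
            map_one' := ?_
            map_mul' := ?_ }, ?_, ?_⟩
  · rw [inv_eq_one]
    apply Units.ext
    rw [Units.val_mk0, zeta_one cov hY0 hY, rc_one, Units.val_one]
  · intro a b
    rw [← mul_inv]
    congr 1
    apply Units.ext
    rw [Units.val_mul, Units.val_mk0, Units.val_mk0, Units.val_mk0, zeta_mul cov hY0 hY,
      rc_mul (h1 a) (h1 b)]
  · intro a
    change (((Units.mk0 (rc (ζ a)) (h0 a))⁻¹ : (Ct C)ˣ) : Ct C) * rc (ζ a) = 1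
    exact (Units.mk0 (rc (ζ a)) (h0 a)).inv_mul
  · intro a h
    have h2 : (Units.mk0 (rc (ζ a)) (h0 a))⁻¹ = 1 := h
    rw [inv_eq_one] at h2
    have h3 : rc (ζ a) = 1 := congrArg Units.val h2
    -- `ζ ^ n = 1` and `rc ζ = 1`
    set n := Fintype.card A with hn
    have h4 : (∑ i ∈ Finset.range n, ζ a ^ i) * (ζ a - 1) = 0 := by
      rw [geom_sum_mul, zeta_pow cov hY0 hY, sub_self]
    rcases mul_eq_zero.mp h4 with h5 | h5
    · exfalso
      have h6 : ∀ m : ℕ, ‖∑ i ∈ Finset.range m, ζ a ^ i‖₊ ≤ 1 ∧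
          rc (∑ i ∈ Finset.range m, ζ a ^ i) = (m : Ct C) := by
        intro m
        induction m with
        | zero => simp [rc_zero]
        | succ m ih =>
          have h7 : ‖ζ a ^ m‖₊ ≤ 1 := by
            rw [nnnorm_pow]
            exact pow_le_one' (h1 a) m
          have h8 : rc (ζ a ^ m) = 1 := by
            clear ih h7
            induction m with
            | zero => rw [pow_zero, rc_one]
            | succ m ih =>
              rw [pow_succ, rc_mul (by rw [nnnorm_pow]; exact pow_le_one' (h1 a) m) (h1 a), ih, h3,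
                one_mul]
          rw [Finset.sum_range_succ]
          refine ⟨(IsUltrametricDist.nnnorm_add_le_max _ _).trans (max_le ih.1 h7), ?_⟩
          rw [rc_add ih.1 h7, ih.2, h8, Nat.cast_succ]
      have h7 := (h6 n).2
      rw [h5, rc_zero] at h7
      apply hA
      exact (CharP.cast_eq_zero_iff (Ct C) p n).mp h7.symm
    · exact sub_eq_zero.mp h5

end main

end Crest.Agent.R013.CI4_398
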