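import Crest.Agent.R013.CY10_957

/-!
# R013 / CY11 (helper957): `YOut` from a completely split cover `W / U` at the level `κ`
-/

set_option autoImplicit false
set_option linter.unusedSectionVars false
set_option linter.style.haveILetI false

namespace Crest.Agent.R013.CY_957

open scoped NNReal
open Module WithZero
open Crest.NumberTheoryR.Sect
open Crest.Agent.R013.RR7_948 Crest.Agent.R013.Cell_408 Crest.Agent.R013.EE809
open Crest.Agent.R013.SSK_332 Crest.Agent.R013.Inh_770 Crest.Agent.R013.Red332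
open Crest.Agent.R013.TopE1_957 Crest.Agent.R013.TopE4_957 Crest.Agent.R013.TopE6_957
open Crest.Agent.R013.TopE7_957 Crest.Agent.R013.TopE8_957 Crest.Agent.R013.Unr10_957
open Crest.Agent.R013.Desc_372 Crest.Agent.R013.DEm_719 Crest.Agent.R013.DEm_719.GalAct
open Crest.Agent.R013.Kumv2_275 Crest.Agent.R013.Rank_770

/-- a place restricts to a place of a subfield over which the field is algebraic -/
theorem isPlace_comap {κ C M Y : Type*} [Field κ] [Field C] [Field M] [Field Y] [Algebra κ C]
    [Algebra κ M] [Algebra κ Y] [Algebra C Y] [Algebra M Y] [IsScalarTower κ C Y]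
    [IsScalarTower κ M Y] [Algebra.IsAlgebraic M Y] (v : Valuation Y ℝ≥0) (hv : IsPlace C v) :
    IsPlace κ (v.comap (algebraMap M Y)) := by
  have hv' : IsPlace κ v := by
    refine ⟨fun c hc => ?_, hv.2⟩
    rw [IsScalarTower.algebraMap_apply κ C Y]
    exact hv.1 _ ((_root_.map_ne_zero _).2 hc)
  refine ⟨fun c hc => ?_, ?_⟩
  · rw [Valuation.comap_apply, ← IsScalarTower.algebraMap_apply κ M Y]
    exact hv'.1 c hc
  · by_contra hcon
    push Not at hcon
    obtain ⟨a, ha0, ha1⟩ := hv.2
    refine ha1 (Unr9_957.trivial_of_trivial (F := M) v (fun x hx => ?_) a ?_)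
    · have h1 := hcon x
      rw [Valuation.comap_apply] at h1
      exact h1 ((_root_.map_ne_zero v).2 ((_root_.map_ne_zero _).2 hx))
    · rintro rfl
      exact ha0 (map_zero _)

/-- base change of a completely split cover at the level `κ` -/
theorem splitCov_base {κ U W M Y₀ : Type*} [NormedField κ] [Field U] [Algebra κ U] [Field W]
    [Algebra U W] [Field M] [Field Y₀] [Algebra κ M] [Algebra U M] [IsScalarTower κ U M]
    [Algebra W Y₀] [Algebra M Y₀] [Algebra U Y₀] [IsScalarTower U W Y₀] [IsScalarTower U M Y₀]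
    [Algebra.IsAlgebraic U M]
    (hL : IntermediateField.adjoin M (Set.range (algebraMap W Y₀)) = ⊤) (hW : SplitCov κ U W) :
    SplitCov κ M Y₀ where
  norm v hv := splitAt_normC (k := κ) (C := κ) hL hW (fun _ => le_rfl) v hv
  place v hv := splitAt_placeC (k := κ) (C := κ) hL hW v hv

universe w

variable {k C : Type*} [NontriviallyNormedField k] [CompleteSpace k] [IsUltrametricDist k]
  [NormedField C] [IsUltrametricDist C] [NormedAlgebra k C] [Algebra.IsAlgebraic k C]
  [IsAlgClosed C] [hk : Fact (DiscNorm k)] [CharZero C]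
variable {κ U M K1 W : Type*} {K Y₀ Y : Type w} [NormedField κ] [Field U] [Field M] [Field K1]
  [Field K] [Field W] [Field Y₀] [Field Y]
  [Algebra k κ] [Algebra κ C] [IsScalarTower k κ C]
  [Algebra κ U] [Algebra κ M] [Algebra κ K1] [Algebra κ K] [Algebra κ Y₀] [Algebra κ Y]
  [Algebra C K1] [Algebra C K] [Algebra C Y] [Algebra K1 K] [Algebra K1 Y] [Algebra K Y]
  [Algebra U M] [Algebra U K1] [Algebra U K] [Algebra U W] [Algebra U Y₀] [Algebra U Y]
  [Algebra W Y₀] [Algebra W Y]
  [Algebra M K] [Algebra M Y₀] [Algebra M Y] [Algebra Y₀ Y]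
  [IsScalarTower C K1 K] [IsScalarTower C K1 Y] [IsScalarTower C K Y] [IsScalarTower K1 K Y]
  [IsScalarTower κ C K1] [IsScalarTower κ U K1]
  [IsScalarTower κ C K] [IsScalarTower κ M K] [IsScalarTower κ C Y] [IsScalarTower κ Y₀ Y]
  [IsScalarTower κ U M] [IsScalarTower κ U K] [IsScalarTower κ M Y₀]
  [IsScalarTower M K Y] [IsScalarTower M Y₀ Y]
  [IsScalarTower U M K] [IsScalarTower U K1 K] [IsScalarTower U M Y₀] [IsScalarTower U W Y₀]
  [IsScalarTower U W Y] [IsScalarTower U K1 Y] [IsScalarTower U K Y] [IsScalarTower U Y₀ Y]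
  [IsScalarTower W Y₀ Y]
  [FiniteDimensional K1 K] [IsGalois K1 K] [FiniteDimensional U M] [IsGalois U M]
  [FiniteDimensional U W] [IsGalois U W] [IsCyclic (W ≃ₐ[U] W)]
  [Algebra (RatFunc C) K1] [IsScalarTower C (RatFunc C) K1]
  [FiniteDimensional (RatFunc C) K1] [Algebra.IsSeparable (RatFunc C) K1]
  [CE κ C U K1] [CE κ C M K] {S : SSK k C K1} (P : Spl S K)

/-- **`YOut` from the composita** -/
theorem yOut_of (hκ : ∀ c : κ, ‖algebraMap κ C c‖ = ‖c‖)
    (hW : SplitCov κ U W) {D1 : Set S.Dir}
    (H : Lvl P.inh κ M (⊥ : IntermediateField κ C) {y | (dI P y).1 ∈ D1})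
    (v₀ : Valuation M ℝ≥0) (hv₀ : IsRationalPlace κ M v₀)
    (hcop : (finrank U W).Coprime (finrank K1 K))
    (hY : IntermediateField.adjoin K (Set.range (algebraMap W Y)) = ⊤)
    (hY₀ : IntermediateField.adjoin M (Set.range (algebraMap W Y₀)) = ⊤) :
    Nonempty (YOut P κ M D1 (finrank U W)) := by
  -- characteristic zero
  have : CharZero κ := ⟨fun a b hab => Nat.cast_injective (R := C) (by
    simpa using congrArg (algebraMap κ C) hab)⟩
  have : CharZero U := charZero_of_injective_algebraMap (algebraMap κ U).injective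
  have : CharZero M := charZero_of_injective_algebraMap (algebraMap κ M).injective
  have : CharZero K1 := charZero_of_injective_algebraMap (algebraMap C K1).injective
  have hsepC : Algebra.IsAlgebraic κ C := CE.alg U K1
  -- level `κ`
  have hSM : SplitCov κ M Y₀ := splitCov_base (U := U) (W := W) hY₀ hW
  have fM : FiniteDimensional M Y₀ := finiteDimensional_compositum (U := U) (W := W) hY₀
  have gM : IsGalois M Y₀ := isGalois_compositum (U := U) (W := W) hY₀
  have hconst : algebraicClosure κ Y₀ = ⊥ := algClosure_eq_bot hv₀ (hSM.place v₀ hv₀.1)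
  have hce : CE κ C Y₀ Y :=
    ce_top (κ := κ) (C := C) (M := M) (K := K) (W := W) (Y₀ := Y₀) (Y := Y) hconst hY
  -- degrees
  have hdeg1 : finrank K1 K = finrank U M := finrank_level κ C
  have hdeg0 : finrank M Y₀ = finrank U W := finrank_compositum hY₀ (by rw [← hdeg1]; exact hcop)
  have hdeg : finrank K Y = finrank U W := by
    rw [← hdeg0]
    exact finrank_level κ C
  -- Galois
  have fK : FiniteDimensional K Y := finiteDimensional_compositum (U := U) (W := W) hY
  have gK : IsGalois K Y := isGalois_compositum (U := U) (W := W) hY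
  have cK : IsCyclic (Y ≃ₐ[K] Y) := isCyclic_compositum (U := U) (W := W) hY
  obtain ⟨fK1, gK1⟩ := isGalois_top (U := U) (F := K1) (A := K) (W := W) hY
  obtain ⟨fU, gU⟩ := isGalois_top (U := U) (F := U) (A := M) (W := W) hY₀
  -- splitting
  have halgMK : Algebra.IsAlgebraic M K := CE.isAlgebraic κ C M K
  have halgUK : Algebra.IsAlgebraic U K := Algebra.IsAlgebraic.trans U M K
  have hC : ∀ c : κ, ‖algebraMap κ C c‖ ≤ ‖c‖ := fun c => (hκ c).le
  have hspN : ∀ v : Valuation K ℝ≥0, (∀ c : C, v (algebraMap C K c) ≤ ‖c‖₊) → SplitAt v Y :=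
    fun v hv => splitAt_normC hY hW hC v hv
  have hspP : ∀ v : Valuation K ℝ≥0, IsPlace C v → SplitAt v Y :=
    fun v hv => splitAt_placeC hY hW v hv
  have halgMY : Algebra.IsAlgebraic M Y := by
    have : Algebra.IsAlgebraic Y₀ Y := CE.isAlgebraic κ C Y₀ Y
    exact Algebra.IsAlgebraic.trans M Y₀ Y
  have tκMY : IsScalarTower κ M Y := IsScalarTower.of_algebraMap_eq fun c => by
    rw [IsScalarTower.algebraMap_apply κ Y₀ Y, IsScalarTower.algebraMap_apply κ M Y₀,
      ← IsScalarTower.algebraMap_apply M Y₀ Y]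
  have hs : ∀ v : Valuation Y ℝ≥0, (∀ c : C, v (algebraMap C Y c) ≤ ‖c‖₊) →
      SplitAt (v.comap (algebraMap M Y)) Y₀ := fun v hv => hSM.norm _ fun c => by
    rw [Valuation.comap_apply, ← IsScalarTower.algebraMap_apply κ M Y,
      IsScalarTower.algebraMap_apply κ C Y]
    exact (hv _).trans (hC c)
  have hp : ∀ Q : Pl C Y, SplitAt ((plV Q).comap (algebraMap M Y)) Y₀ := fun Q =>
    hSM.place _ (isPlace_comap (C := C) (plV Q) (isPlace_plV Q))
  -- the semistable structure
  obtain ⟨Q⟩ := spl_of_top P.inh (L := Y) hY hW hC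
  let PY : Spl S Y := splTrans P Q
  -- the context of `Y`
  letI aRY : Algebra (RatFunc C) Y :=
    ((algebraMap K1 Y).comp (algebraMap (RatFunc C) K1)).toAlgebra
  haveI tR : IsScalarTower (RatFunc C) K1 Y := IsScalarTower.of_algebraMap_eq fun _ => rfl
  haveI tCR : IsScalarTower C (RatFunc C) Y := IsScalarTower.of_algebraMap_eq fun c => by
    rw [IsScalarTower.algebraMap_apply (RatFunc C) K1 Y,
      ← IsScalarTower.algebraMap_apply C (RatFunc C) K1, ← IsScalarTower.algebraMap_apply C K1 Y]
  haveI fR : FiniteDimensional (RatFunc C) Y := FiniteDimensional.trans (RatFunc C) K1 Y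
  -- the covering group
  have hcK := cov_K (U := U) (K1 := K1) hY hdeg
  have hcc := cov_comm (U := U) (K1 := K1) hY hdeg
  have hcop' : (finrank K Y).Coprime (finrank K1 K) := by rw [hdeg]; exact hcop
  exact ⟨{
    Y := Y
    Y₀ := Y₀
    finrank_K := hdeg
    cyc := cK
    unr := unrEv_C (C := C) hY hW
    splitN := hspN
    splitP := hspP
    const := hconst
    cov := cov (U := U) (K1 := K1) hY hdeg
    cov_K := hcK
    cov_comm := hcc
    res_Y₀ := fun σ f => exists_res U Y₀ σ f
    gal_comm := fun σ s f => gal_comm U σ s f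
    PY := PY
    lvl := lvl_top P PY hs H
    norm_fix := fun v hv s hK F => norm_lift (M := M) (K := K) v (hs v fun c => (hv c).le) s
      (fun c => by
        have h1 : ‖(s.restrictScalars k) c‖ = ‖c‖ := norm_mapE _ c
        rw [hv, hv]
        exact NNReal.eq h1) hK F
    place_fix := fun Q s hK F => place_lift (M := M) (K := K) Q (hp Q) s hK F
    kap := kapMap_top κ P PY hs
    fix_iff := fix_iff κ P PY hs _ hcK hcc hcop'
    rank := fun {F} _ _ _ {e} he h0 Q hQ d hd => by
      have h1 := rank_top κ P PY hs _ hcK hcc hcop' he h0 Q hQ d hd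
      rw [hdeg] at h1
      exact h1 }⟩

end Crest.Agent.R013.CY_957
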