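import Crest.Agent.R013.CY12_957
import Crest.Agent.R013.NB14_102
import Crest.Agent.R013.LevDefs_372

/-!
# R013 / CY13 (helper957): stage (C) from 372's `LevData`
-/

set_option autoImplicit false
set_option linter.unusedSectionVars false
set_option linter.style.haveILetI false

namespace Crest.Agent.R013.CY_957

open scoped NNReal
open Module WithZero
open Crest.NumberTheoryR.Sect
open Crest.Agent.R013.RR7_948 Crest.Agent.R013.Cell_408 Crest.Agent.R013.RR8_948
open Crest.Agent.R013.SSK_332 Crest.Agent.R013.Inh_770 Crest.Agent.R013.Red332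
open Crest.Agent.R013.TopE1_957
open Crest.Agent.R013.Desc_372 Crest.Agent.R013.DEm_719
open Crest.Agent.R013.NB_102 Crest.Agent.R013.Lev_372

universe v u

variable {k : Type v} {C K1 K : Type u} [NontriviallyNormedField k] [CompleteSpace k]
    [IsUltrametricDist k] [LocallyCompactSpace k]
    [NormedField C] [IsUltrametricDist C] [NormedAlgebra k C] [Algebra.IsAlgebraic k C]
    [IsAlgClosed C] [hk : Fact (DiscNorm k)] [CharZero C]
    [Field K1] [Algebra C K1] [Field K] [Algebra C K] [Algebra K1 K] [IsScalarTower C K1 K]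
    [FiniteDimensional K1 K] [IsGalois K1 K]
    [Algebra (RatFunc C) K1] [IsScalarTower C (RatFunc C) K1]
    [FiniteDimensional (RatFunc C) K1] [Algebra.IsSeparable (RatFunc C) K1]

/-- **stage (C)** from the level of 372 and a loop of norms of `K1 / C` at a vertex of `S` -/
theorem yOut_of_levData {S : SSK k C K1} {P : Spl S K} {D : Set S.Dir} {T : Set K1}
    {Pls : Set (Pl C K)} (d : LevData P P.ffL D T Pls) (hPls : Pls.Nonempty) {v : S.V} {y : K1}
    (hy : y ∈ T) (hL : LoopAt C y (S.nm v).v) (n : ℕ) (hn : n ≠ 0)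
    (hcop : n.Coprime (finrank K1 K)) : Nonempty (YOut P d.κ d.M d.D' n) := by
  obtain ⟨π, hπ⟩ := d.unif
  obtain ⟨Q, hQ⟩ := hPls
  obtain ⟨Q₀, hQ₀, -⟩ := d.rat Q hQ
  obtain ⟨y, rfl⟩ := d.T_mem y hy
  have : Algebra.IsAlgebraic d.κ C := Algebra.IsAlgebraic.tower_top (K := k) d.κ
  have hac : IsAlgClosure d.κ C := ⟨inferInstance, inferInstance⟩
  have hnorm : Normal d.κ C := IsAlgClosure.normal d.κ C
  have : CharZero (RatFunc d.κ) :=
    charZero_of_injective_algebraMap (algebraMap d.κ (RatFunc d.κ)).injective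
  have : Algebra.IsSeparable (RatFunc d.κ) d.M := inferInstance
  have h1 := loop_of_def_bot d.lvl.df d.norm_κ hL
  have h2 := (RR13_948.isRationalPlace_iff (RR13_948.isPlace_vR Q₀)
    (RR13_948.isEquiv_vR Q₀)).2 hQ₀
  exact stageC P d.norm_κ hπ h1 d.lvlL _ h2 n hn hcop

end Crest.Agent.R013.CY_957
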