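import Crest.Agent.R013.DEm3_719

/-!
# R013 / DEm4 (helper719), SS-DESC part D4, file 4: evaluation on discs and annuli, points

* `evE` is a ring homomorphism on `subD` (`‖t‖ < 1`) and `subA c` (`‖c‖ < ‖t‖ < 1`), equivariant.
* `ord_unique`: the order at a point is well defined.
* the places at the points of the cells of a semistable structure move with the points; a place is
  fixed by `Gam k'` iff its point lies in `k'`.
-/

set_option autoImplicit false
set_option linter.all false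

open Filter Topology

namespace Crest.Agent.R013.DEm_719

open scoped NNReal
open WithZero
open Crest.Agent.R013.Cell_408 Crest.Agent.R013.EE809 Crest.Agent.R013.Desc_372
  Crest.Agent.R013.RR7_948 Crest.Agent.R013.Red332 Crest.Agent.R013.SSK_332

section ev

variable {k C : Type*} [NontriviallyNormedField k] [CompleteSpace k]
  [NormedField C] [IsUltrametricDist C] [NormedAlgebra k C]

/-- the terms of the value at `t` tend to zero -/
def SumAt (t : C) (a : EE k C) : Prop := Tendsto (fun n : ℤ => a.co n * t ^ n) cofinite (𝓝 0)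

theorem zpow_small {r : ℝ} (h0 : 0 < r) (h1 : r < 1) {ε : ℝ} (hε : 0 < ε) :
    ∃ N : ℤ, ∀ n, N ≤ n → r ^ n < ε := by
  obtain ⟨N, hN⟩ := exists_pow_lt_of_lt_one hε h1
  refine ⟨N, fun n hn => lt_of_le_of_lt (zpow_le_zpow_right_of_le_one₀ h0 h1.le hn) ?_⟩
  rwa [zpow_natCast]

theorem sumAt_of {t : C} {a : EE k C} (h : ∀ ε : ℝ, 0 < ε → ∃ N₁ N₂ : ℤ,
    (∀ n, N₁ ≤ n → ‖a.co n * t ^ n‖ < ε) ∧ ∀ n, n ≤ N₂ → ‖a.co n * t ^ n‖ < ε) : SumAt t a := by
  rw [SumAt, Metric.tendsto_nhds]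
  intro ε hε
  obtain ⟨N₁, N₂, h1, h2⟩ := h ε hε
  rw [eventually_cofinite]
  refine (Set.finite_Icc N₂ N₁).subset fun n hn => ?_
  simp only [dist_zero_right, not_lt, Set.mem_ofPred_eq] at hn
  constructor
  · by_contra hlt
    exact absurd hn (not_le.2 (h2 n (not_le.1 hlt).le))
  · by_contra hlt
    exact absurd hn (not_le.2 (h1 n (not_le.1 hlt).le))

theorem small_right {t : C} (ht : ‖t‖ < 1) (a : EE k C) {ε : ℝ} (hε : 0 < ε) :
    ∃ N : ℤ, ∀ n, N ≤ n → ‖a.co n * t ^ n‖ < ε := by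
  obtain ⟨M, hM, hM'⟩ := a.bd'
  have hr0 : 0 < max ‖t‖ (1 / 2) := lt_max_of_lt_right (by norm_num)
  have hr1 : max ‖t‖ (1 / 2) < 1 := max_lt ht (by norm_num)
  obtain ⟨N, hN⟩ := zpow_small hr0 hr1 (div_pos hε hM)
  refine ⟨max N 0, fun n hn => ?_⟩
  obtain ⟨m, rfl⟩ := Int.eq_ofNat_of_zero_le ((le_max_right N 0).trans hn)
  rw [norm_mul, zpow_natCast, norm_pow]
  have h1 := hN m ((le_max_left N 0).trans hn)
  rw [zpow_natCast] at h1
  calc ‖a.co m‖ * ‖t‖ ^ m ≤ M * (max ‖t‖ (1 / 2)) ^ m := by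
        refine mul_le_mul (hM' _) ?_ (pow_nonneg (norm_nonneg _) _) hM.le
        exact pow_le_pow_left₀ (norm_nonneg _) (le_max_left _ _) _
    _ < M * (ε / M) := by exact mul_lt_mul_of_pos_left h1 hM
    _ = ε := by field_simp

theorem sumAt_D {t : C} (ht : ‖t‖ < 1) {a : EE k C} (ha : InD a) : SumAt t a := by
  refine sumAt_of fun ε hε => ?_
  obtain ⟨N, hN⟩ := small_right ht a hε
  refine ⟨N, -1, hN, fun n hn => ?_⟩
  rw [ha n (by omega), zero_mul, norm_zero]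
  exact hε

theorem sumAt_A {c t : C} (hc : c ≠ 0) (h0 : ‖c‖ < ‖t‖) (h1 : ‖t‖ < 1) {a : EE k C}
    (ha : InA c a) : SumAt t a := by
  refine sumAt_of fun ε hε => ?_
  obtain ⟨N, hN⟩ := small_right h1 a hε
  obtain ⟨M, hM⟩ := ha
  have hc0 : 0 < ‖c‖ := norm_pos_iff.2 hc
  have ht0 : 0 < ‖t‖ := hc0.trans h0
  have hM1 : 0 < max M 1 := lt_max_of_lt_right one_pos
  obtain ⟨N', hN'⟩ := zpow_small (r := ‖c‖ / ‖t‖) (by positivity) ((div_lt_one ht0).2 h0)
    (div_pos hε hM1)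
  refine ⟨N, -N', hN, fun n hn => ?_⟩
  have e1 : ‖a.co n * t ^ n‖ = (‖a.co n‖ * ‖c‖ ^ n) * (‖c‖ / ‖t‖) ^ (-n) := by
    rw [norm_mul, norm_zpow, div_zpow, zpow_neg, zpow_neg]
    have h2 : ‖c‖ ^ n ≠ 0 := zpow_ne_zero _ hc0.ne'
    have h3 : ‖t‖ ^ n ≠ 0 := zpow_ne_zero _ ht0.ne'
    field_simp
  rw [e1]
  calc (‖a.co n‖ * ‖c‖ ^ n) * (‖c‖ / ‖t‖) ^ (-n)
      ≤ max M 1 * (‖c‖ / ‖t‖) ^ (-n) :=
        mul_le_mul_of_nonneg_right ((hM n).trans (le_max_left _ _)) (by positivity)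
    _ < max M 1 * (ε / max M 1) := mul_lt_mul_of_pos_left (hN' (-n) (by omega)) hM1
    _ = ε := by field_simp

variable [Algebra.IsAlgebraic k C]

theorem exists_common (t : C) (a : EE k C) : ∃ L : IntermediateField k C, FiniteDimensional k L ∧
    (∀ n, a.co n ∈ L) ∧ t ∈ L := by
  obtain ⟨L, hL, h1, h2⟩ := a.fd.common (Cell_408.finDef_const (k := k) (ι := Unit) t)
  exact ⟨L, hL, h1, h2 ()⟩

theorem summable_at {t : C} {a : EE k C} (h : SumAt t a) : Summable fun n : ℤ => a.co n * t ^ n := by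
  obtain ⟨L, hL, h1, h2⟩ := exists_common t a
  exact summable_of L (fun n => mul_mem (h1 n) (zpow_mem h2 n)) h

theorem evE_add {t : C} {a b : EE k C} (ha : SumAt t a) (hb : SumAt t b) :
    evE t (a + b) = evE t a + evE t b := by
  unfold evE
  rw [← (summable_at ha).tsum_add (summable_at hb)]
  refine tsum_congr fun n => ?_
  rw [co_add, add_mul]

theorem evE_mul {t : C} (ht : t ≠ 0) {a b : EE k C} (ha : SumAt t a) (hb : SumAt t b) :
    evE t (a * b) = evE t a * evE t b := by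
  have hF := summable_at ha
  have hG := summable_at hb
  have := Cell_408.nonarchRing C
  have hFG : Summable (fun p : ℤ × ℤ => (a.co p.1 * t ^ p.1) * (b.co p.2 * t ^ p.2)) :=
    Summable.mul_of_nonarchimedean (f := fun n : ℤ => a.co n * t ^ n)
      (g := fun n : ℤ => b.co n * t ^ n) hF hG
  have key : ∀ p : ℤ × ℤ, a.co (shearEquiv p).2 * b.co ((shearEquiv p).1 - (shearEquiv p).2) *
      t ^ (shearEquiv p).1 = (a.co p.1 * t ^ p.1) * (b.co p.2 * t ^ p.2) := by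
    intro p
    simp only [shearEquiv, Equiv.coe_fn_mk]
    rw [show p.1 + p.2 - p.1 = p.2 by ring, zpow_add₀ ht]
    ring
  have hs : Summable (fun q : ℤ × ℤ => a.co q.2 * b.co (q.1 - q.2) * t ^ q.1) := by
    rw [← shearEquiv.summable_iff]
    exact hFG.congr fun p => (key p).symm
  have hfib : ∀ l : ℤ, Summable (fun i : ℤ => a.co i * b.co (l - i) * t ^ l) :=
    fun l => (summable_conv a b l).mul_right (t ^ l)
  unfold evE
  rw [hF.tsum_mul_tsum hG hFG]
  have h1 : ∑' p : ℤ × ℤ, (a.co p.1 * t ^ p.1) * (b.co p.2 * t ^ p.2) =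
      ∑' q : ℤ × ℤ, a.co q.2 * b.co (q.1 - q.2) * t ^ q.1 := by
    rw [← shearEquiv.tsum_eq (fun q : ℤ × ℤ => a.co q.2 * b.co (q.1 - q.2) * t ^ q.1)]
    exact tsum_congr fun p => (key p).symm
  rw [h1, Summable.tsum_prod' (f := fun q : ℤ × ℤ => a.co q.2 * b.co (q.1 - q.2) * t ^ q.1) hs hfib]
  refine tsum_congr fun l => ?_
  rw [co_mul]
  exact (tsum_mul_right (f := fun i : ℤ => a.co i * b.co (l - i)) (a := t ^ l)).symm

theorem evE_zero_pt (a : EE k C) : evE (0 : C) a = a.co 0 := by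
  unfold evE
  rw [tsum_eq_single (0 : ℤ) (fun n hn => by rw [zero_zpow n hn, mul_zero]), zpow_zero, mul_one]

theorem co_mul_zero_D {a b : EE k C} (ha : InD a) (hb : InD b) :
    (a * b).co 0 = a.co 0 * b.co 0 := by
  rw [co_mul, tsum_eq_single (0 : ℤ), sub_zero]
  intro i hi
  by_cases h : i < 0
  · rw [ha i h, zero_mul]
  · rw [hb (0 - i) (by omega), mul_zero]

/-- evaluation on the open disc -/
noncomputable def evD (k : Type*) {C : Type*} [NontriviallyNormedField k] [CompleteSpace k]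
    [NormedField C] [IsUltrametricDist C] [NormedAlgebra k C] [Algebra.IsAlgebraic k C]
    (t : C) (ht : ‖t‖ < 1) : subD k C →+* C where
  toFun a := evE t a.1
  map_one' := by
    show evE t (1 : EE k C) = 1
    unfold evE
    rw [tsum_eq_single (0 : ℤ) (fun n hn => by rw [co_one, if_neg hn, zero_mul]), co_one, if_pos rfl,
      zpow_zero, mul_one]
  map_mul' a b := by
    show evE t (a.1 * b.1) = _
    by_cases h0 : t = 0
    · subst h0
      rw [evE_zero_pt, evE_zero_pt, evE_zero_pt, co_mul_zero_D a.2 b.2]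
    · exact evE_mul h0 (sumAt_D ht a.2) (sumAt_D ht b.2)
  map_zero' := by
    show evE t (0 : EE k C) = 0
    unfold evE
    simp
  map_add' a b := evE_add (sumAt_D ht a.2) (sumAt_D ht b.2)

/-- evaluation on the open annulus -/
noncomputable def evA (k : Type*) {C : Type*} [NontriviallyNormedField k] [CompleteSpace k]
    [NormedField C] [IsUltrametricDist C] [NormedAlgebra k C] [Algebra.IsAlgebraic k C]
    (c : C) (hc : c ≠ 0) (t : C) (h0 : ‖c‖ < ‖t‖) (h1 : ‖t‖ < 1) : subA k c hc →+* C where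
  toFun a := evE t a.1
  map_one' := by
    show evE t (1 : EE k C) = 1
    unfold evE
    rw [tsum_eq_single (0 : ℤ) (fun n hn => by rw [co_one, if_neg hn, zero_mul]), co_one, if_pos rfl,
      zpow_zero, mul_one]
  map_mul' a b := by
    show evE t (a.1 * b.1) = _
    have ht : t ≠ 0 := by
      rintro rfl
      rw [norm_zero] at h0
      exact absurd h0 (not_lt.2 (norm_nonneg _))
    exact evE_mul ht (sumAt_A hc h0 h1 a.2) (sumAt_A hc h0 h1 b.2)
  map_zero' := by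
    show evE t (0 : EE k C) = 0
    unfold evE
    simp
  map_add' a b := evE_add (sumAt_A hc h0 h1 a.2) (sumAt_A hc h0 h1 b.2)

theorem evD_apply (t : C) (ht : ‖t‖ < 1) (a : subD k C) : evD k t ht a = evE t a.1 := rfl

theorem evA_apply (c : C) (hc : c ≠ 0) (t : C) (h0 : ‖c‖ < ‖t‖) (h1 : ‖t‖ < 1) (a : subA k c hc) :
    evA k c hc t h0 h1 a = evE t a.1 := rfl

theorem co_lin (τ : C) (n : ℤ) :
    (lin τ : EE k C).co n = (if n = 1 then 1 else 0) - if n = 0 then τ else 0 := rfl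

theorem inD_lin (τ : C) : InD (lin τ : EE k C) := fun n hn => by
  rw [co_lin, if_neg (by omega), if_neg (by omega), sub_zero]

theorem inA_lin {c : C} (hc : c ≠ 0) (τ : C) : InA c (lin τ : EE k C) := by
  have h1 : (mo 1 1 : EE k C) ∈ subA k c hc := ⟨_, Bdd.mo (norm_pos_iff.2 hc) 1 1⟩
  have h2 : (mo 0 τ : EE k C) ∈ subA k c hc := ⟨_, Bdd.mo (norm_pos_iff.2 hc) 0 τ⟩
  exact (subA k c hc).sub_mem h1 h2

theorem evE_lin (t τ : C) : evE t (lin τ : EE k C) = t - τ := by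
  unfold evE
  rw [tsum_eq_sum (s := ({0, 1} : Finset ℤ))]
  · rw [Finset.sum_pair (by norm_num), co_lin, co_lin]
    simp
    ring
  · intro n hn
    simp only [Finset.mem_insert, Finset.mem_singleton, not_or] at hn
    rw [co_lin, if_neg hn.2, if_neg hn.1, sub_zero, zero_mul]

theorem lin_ne_zero (τ : C) : (lin τ : EE k C) ≠ 0 := by
  intro h
  have : (lin τ : EE k C).co 1 = (0 : EE k C).co 1 := by rw [h]
  rw [co_lin, if_pos rfl, if_neg (by norm_num), sub_zero, co_zero] at this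
  exact one_ne_zero this

end ev

section order

/-- the order at a point is well defined -/
theorem ord_unique {E C : Type*} [CommRing E] [Field C] (B : Subring E)
    (hd : ∀ a b : E, a ≠ 0 → b ≠ 0 → a * b ≠ 0) (e : B →+* C) (l : B) (hl0 : (l : E) ≠ 0)
    (hl : e l = 0) {x : E} {a b a' b' : ℕ} {g h g' h' : B} (eg : e g ≠ 0) (eh : e h ≠ 0)
    (eg' : e g' ≠ 0) (eh' : e h' ≠ 0) (e1 : x * ((l : E) ^ b * h) = (l : E) ^ a * g)
    (e2 : x * ((l : E) ^ b' * h') = (l : E) ^ a' * g') : (b : ℤ) - a = b' - a' := by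
  have hpow : ∀ n : ℕ, (l : E) ^ n ≠ 0 := by
    intro n
    induction n with
    | zero =>
      rw [pow_zero]
      intro h1
      exact hl0 (by rw [← mul_one (l : E), h1, mul_zero])
    | succ n ih => rw [pow_succ]; exact hd _ _ ih hl0
  have key : ∀ {a b a' b' : ℕ} {g h g' h' : B}, e g ≠ 0 → e h' ≠ 0 →
      x * ((l : E) ^ b * h) = (l : E) ^ a * g → x * ((l : E) ^ b' * h') = (l : E) ^ a' * g' →
      ¬ a + b' < a' + b := by
    intro a b a' b' g h g' h' eg eh' e1 e2 hlt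
    obtain ⟨m, hm⟩ := Nat.exists_eq_add_of_lt hlt
    have h1 : (l : E) ^ (a + b') * (((g * h' : B) : E) - ((l ^ (m + 1) * (g' * h) : B) : E)) = 0 := by
      have h2 : (l : E) ^ a * g * ((l : E) ^ b' * h') = (l : E) ^ a' * g' * ((l : E) ^ b * h) := by
        rw [← e1, ← e2]; ring
      have h3 : (l : E) ^ (a' + b) = (l : E) ^ (a + b') * (l : E) ^ (m + 1) := by
        rw [← pow_add]; congr 1
      have h4 : (l : E) ^ (a + b') * (g * h') = (l : E) ^ (a' + b) * (g' * h) := by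
        rw [pow_add, pow_add]
        linear_combination h2
      rw [h3] at h4
      push_cast
      linear_combination h4
    have h5 : ((g * h' : B) : E) - ((l ^ (m + 1) * (g' * h) : B) : E) = 0 := by
      by_contra hne
      exact hd _ _ (hpow _) hne h1
    have h6 : g * h' = l ^ (m + 1) * (g' * h) := Subtype.ext (sub_eq_zero.1 h5)
    have h7 := congrArg e h6
    rw [map_mul, map_mul, map_pow, hl, zero_pow (Nat.succ_ne_zero m), zero_mul] at h7
    exact mul_ne_zero eg eh' h7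
  have k1 := key eg eh' e1 e2
  have k2 := key eg' eh e2 e1
  omega

end order

section equivariant

variable {k C : Type*} [NontriviallyNormedField k] [CompleteSpace k] [IsUltrametricDist k]
  [NormedField C] [IsUltrametricDist C] [NormedAlgebra k C] [Algebra.IsAlgebraic k C]

theorem map_tsum_equiv {ι : Type*} (s : C ≃ₐ[k] C) (f : ι → C) : s (∑' i, f i) = ∑' i, s (f i) := by
  by_cases h : Summable f
  · have h2 := h.hasSum.map (s : C →+ C) (continuous_mapE s)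
    exact h2.tsum_eq.symm
  · have h3 : ¬ Summable fun i => s (f i) := by
      intro h4
      apply h
      have h5 := h4.map ((s.symm : C ≃ₐ[k] C) : C →+ C) (continuous_mapE s.symm)
      refine h5.congr fun i => ?_
      exact s.symm_apply_apply (f i)
    rw [tsum_eq_zero_of_not_summable h, tsum_eq_zero_of_not_summable h3, map_zero]

/-- evaluation is equivariant -/
theorem evE_act (s : C ≃ₐ[k] C) (t : C) (a : EE k C) : evE (s t) (actEE s a) = s (evE t a) := by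
  unfold evE
  rw [map_tsum_equiv]
  refine tsum_congr fun n => ?_
  rw [co_actEE, map_mul, map_zpow₀]

theorem evE_act_ne {s : C ≃ₐ[k] C} {t : C} {a : EE k C} (h : evE t a ≠ 0) :
    evE (s t) (actEE s a) ≠ 0 := by
  rw [evE_act]
  exact (map_ne_zero s).2 h

theorem actEE_lin (s : C ≃ₐ[k] C) (τ : C) : actEE s (lin τ : EE k C) = lin (s τ) := by
  ext n
  rw [co_actEE, co_lin, co_lin, map_sub]
  congr 1
  · split_ifs
    · exact map_one s
    · exact map_zero s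
  · split_ifs
    · rfl
    · exact map_zero s

end equivariant

/-! ### points of a semistable structure -/

section SSK

variable {k C K : Type*} [NontriviallyNormedField k] [CompleteSpace k] [IsUltrametricDist k]
    [NormedField C] [IsUltrametricDist C] [NormedAlgebra k C] [Algebra.IsAlgebraic k C]
    [IsAlgClosed C] [Field K] [Algebra C K] {S : SSK k C K}

/-- transport of the place of a point of a disc: `s` acts on `C`, `g` on `K`, `em d` is equivariant -/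
theorem ptD_map (hk : DiscNorm k) (s : C ≃ₐ[k] C) (g : K ≃+* K) {d : S.Dir} (h0 : ∀ e, d ≠ S.e0 e)
    (h1 : ∀ e, d ≠ S.e1 e) (hem : ∀ f, S.em d (g f) = actEE s (S.em d f)) {τ : C} (hτ : ‖τ‖ < 1)
    (hτ' : ‖s τ‖ < 1) (f : K) :
    (S.ptD d h0 h1 (s τ) hτ').v (g f) = (S.ptD d h0 h1 τ hτ).v f := by
  by_cases hf : f = 0
  · rw [hf, map_zero, map_zero, map_zero]
  obtain ⟨a, b, u, v, hu, hv, eu, ev', e1, e2⟩ := S.ptD_ord d h0 h1 τ hτ f hf
  obtain ⟨a', b', u', v', hu', hv', eu', ev'', e1', e2'⟩ :=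
    S.ptD_ord d h0 h1 (s τ) hτ' (g f) ((map_ne_zero g).2 hf)
  rw [e2, e2']
  congr 1
  have e3 : S.em d (g f) * (lin (s τ) ^ b * actEE s v) = lin (s τ) ^ a * actEE s u := by
    rw [hem, ← actEE_lin, ← map_pow, ← map_mul, ← map_mul, e1, map_mul, map_pow]
  exact (ord_unique (subD k C) (fun a b ha hb => mul_ne_zero' hk ha hb) (evD k (s τ) hτ')
    ⟨lin (s τ), inD_lin _⟩ (lin_ne_zero _) (by rw [evD_apply, evE_lin, sub_self])
    (g := ⟨u', hu'⟩) (h := ⟨v', hv'⟩) (g' := ⟨actEE s u, inD_act hu s⟩)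
    (h' := ⟨actEE s v, inD_act hv s⟩) eu' ev'' (evE_act_ne eu) (evE_act_ne ev') e1' e3)

/-- the same for annuli -/
theorem ptA_map (hk : DiscNorm k) (s : C ≃ₐ[k] C) (g : K ≃+* K) {e : S.Ed}
    (hem : ∀ f, S.em (S.e0 e) (g f) = actEE s (S.em (S.e0 e) f)) {τ : C} (h0 : ‖S.cc e‖ < ‖τ‖)
    (h1 : ‖τ‖ < 1) (h0' : ‖S.cc e‖ < ‖s τ‖) (h1' : ‖s τ‖ < 1) (f : K) :
    (S.ptA e (s τ) h0' h1').v (g f) = (S.ptA e τ h0 h1).v f := by
  by_cases hf : f = 0
  · rw [hf, map_zero, map_zero, map_zero]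
  obtain ⟨a, b, u, v, hu, hv, eu, ev', e1, e2⟩ := S.ptA_ord e τ h0 h1 f hf
  obtain ⟨a', b', u', v', hu', hv', eu', ev'', e1', e2'⟩ :=
    S.ptA_ord e (s τ) h0' h1' (g f) ((map_ne_zero g).2 hf)
  rw [e2, e2']
  congr 1
  have e3 : S.em (S.e0 e) (g f) * (lin (s τ) ^ b * actEE s v) = lin (s τ) ^ a * actEE s u := by
    rw [hem, ← actEE_lin, ← map_pow, ← map_mul, ← map_mul, e1, map_mul, map_pow]
  exact (ord_unique (subA k (S.cc e) (S.cc_ne e)) (fun a b ha hb => mul_ne_zero' hk ha hb)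
    (evA k (S.cc e) (S.cc_ne e) (s τ) h0' h1')
    ⟨lin (s τ), inA_lin (S.cc_ne e) _⟩ (lin_ne_zero _) (by rw [evA_apply, evE_lin, sub_self])
    (g := ⟨u', hu'⟩) (h := ⟨v', hv'⟩) (g' := ⟨actEE s u, inA_act hu s⟩)
    (h' := ⟨actEE s v, inA_act hv s⟩) eu' ev'' (evE_act_ne eu) (evE_act_ne ev') e1' e3)

variable {k₁ K₀ : Type*} [Field k₁] [Field K₀] [Algebra k k₁] [Algebra k₁ C] [IsScalarTower k k₁ C]
  [Algebra k₁ K₀] [Algebra K₀ K] [Algebra k₁ K] [IsScalarTower k₁ C K] [IsScalarTower k₁ K₀ K]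
  [CE k₁ C K₀ K] {k' : IntermediateField k₁ C} {D : Set S.Dir}

/-- Galois moves the points of a disc of `D` -/
theorem Def.ptD [Normal k₁ C] (hk : DiscNorm k) (H : Def S k₁ K₀ k' D) {g : K ≃ₐ[K₀] K}
    (hg : g ∈ CE.Gam K₀ K k') {d : S.Dir} (hd : d ∈ D) (h0 : ∀ e, d ≠ S.e0 e)
    (h1 : ∀ e, d ≠ S.e1 e) {τ : C} (hτ : ‖τ‖ < 1) (hτ' : ‖rs k (k₁ := k₁) g τ‖ < 1) (f : K) :
    (S.ptD d h0 h1 (rs k (k₁ := k₁) g τ) hτ').v (g f) = (S.ptD d h0 h1 τ hτ).v f :=
  ptD_map hk (rs k (k₁ := k₁) g) (g : K ≃+* K) h0 h1 (fun f => H.em hg hd f) hτ hτ' f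

/-- Galois moves the points of the annuli -/
theorem Def.ptA [Normal k₁ C] (hk : DiscNorm k) (H : Def S k₁ K₀ k' D) {g : K ≃ₐ[K₀] K}
    (hg : g ∈ CE.Gam K₀ K k') (e : S.Ed) {τ : C} (h0 : ‖S.cc e‖ < ‖τ‖) (h1 : ‖τ‖ < 1)
    (h0' : ‖S.cc e‖ < ‖rs k (k₁ := k₁) g τ‖) (h1' : ‖rs k (k₁ := k₁) g τ‖ < 1) (f : K) :
    (S.ptA e (rs k (k₁ := k₁) g τ) h0' h1').v (g f) = (S.ptA e τ h0 h1).v f :=
  ptA_map hk (rs k (k₁ := k₁) g) (g : K ≃+* K) (fun f => H.em hg (H.e0_mem e) f) h0 h1 h0' h1' f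

theorem rs_lift [Normal k₁ C] (s : C ≃ₐ[k₁] C) :
    rs k (k₁ := k₁) (CE.lift k₁ C K₀ K s) = s.restrictScalars k := by
  unfold rs
  rw [CE.res_lift]

theorem lift_mem_Gam {s : C ≃ₐ[k₁] C} (hs : ∀ c ∈ k', s c = c) :
    CE.lift k₁ C K₀ K s ∈ CE.Gam K₀ K k' := by
  rw [CE.mem_Gam]
  intro c hc
  rw [CE.lift_algebraMap, hs c hc]

theorem mem_of_rs_fixed [IsGalois k₁ C] {x : C}
    (h : ∀ g ∈ CE.Gam K₀ K k', rs k (k₁ := k₁) g x = x) : x ∈ k' := by
  refine mem_of_fixed k' fun s hs => ?_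
  have h1 := h _ (lift_mem_Gam hs)
  rw [rs_lift] at h1
  exact h1

/-- the place of a point of a disc of `D` is fixed by `Gam k'` iff the point lies in `k'` -/
theorem Def.ptD_fixed_iff [IsGalois k₁ C] (hk : DiscNorm k) (H : Def S k₁ K₀ k' D) {d : S.Dir}
    (hd : d ∈ D) (h0 : ∀ e, d ≠ S.e0 e) (h1 : ∀ e, d ≠ S.e1 e) {τ : C} (hτ : ‖τ‖ < 1) :
    (∀ g ∈ CE.Gam K₀ K k', ∀ f, (S.ptD d h0 h1 τ hτ).v (g f) = (S.ptD d h0 h1 τ hτ).v f) ↔
      τ ∈ k' := by
  constructor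
  · intro h
    refine mem_of_rs_fixed (k := k) (K₀ := K₀) (K := K) fun g hg => ?_
    have hτ' : ‖rs k (k₁ := k₁) g τ‖ < 1 := by rw [norm_mapE]; exact hτ
    have e : S.ptD d h0 h1 (rs k (k₁ := k₁) g τ) hτ' = S.ptD d h0 h1 τ hτ := by
      apply Pl.ext
      ext f
      obtain ⟨f', rfl⟩ := g.surjective f
      rw [H.ptD hk hg hd h0 h1 hτ hτ', h g hg]
    exact (S.ptD_inj _ _ _ _ _ _ _ _ _ _ e).2
  · intro hτk g hg f
    have h2 : rs k (k₁ := k₁) g τ = τ := rs_fix hg hτk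
    have h3 := H.ptD hk hg hd h0 h1 hτ (by rw [h2]; exact hτ) f
    have h4 : S.ptD d h0 h1 (rs k (k₁ := k₁) g τ) (by rw [h2]; exact hτ) = S.ptD d h0 h1 τ hτ := by
      congr 1
    rw [h4] at h3
    exact h3

/-- the same for the points of the annuli -/
theorem Def.ptA_fixed_iff [IsGalois k₁ C] (hk : DiscNorm k) (H : Def S k₁ K₀ k' D) (e : S.Ed)
    {τ : C} (h0 : ‖S.cc e‖ < ‖τ‖) (h1 : ‖τ‖ < 1) :
    (∀ g ∈ CE.Gam K₀ K k', ∀ f, (S.ptA e τ h0 h1).v (g f) = (S.ptA e τ h0 h1).v f) ↔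
      τ ∈ k' := by
  constructor
  · intro h
    refine mem_of_rs_fixed (k := k) (K₀ := K₀) (K := K) fun g hg => ?_
    have h0' : ‖S.cc e‖ < ‖rs k (k₁ := k₁) g τ‖ := by rw [norm_mapE]; exact h0
    have h1' : ‖rs k (k₁ := k₁) g τ‖ < 1 := by rw [norm_mapE]; exact h1
    have e' : S.ptA e (rs k (k₁ := k₁) g τ) h0' h1' = S.ptA e τ h0 h1 := by
      apply Pl.ext
      ext f
      obtain ⟨f', rfl⟩ := g.surjective f
      rw [H.ptA hk hg e h0 h1 h0' h1', h g hg]
    exact (S.ptA_inj _ _ _ _ _ _ _ _ e').2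
  · intro hτk g hg f
    have h2 : rs k (k₁ := k₁) g τ = τ := rs_fix hg hτk
    have h3 := H.ptA hk hg e h0 h1 (by rw [h2]; exact h0) (by rw [h2]; exact h1) f
    have h4 : S.ptA e (rs k (k₁ := k₁) g τ) (by rw [h2]; exact h0) (by rw [h2]; exact h1) =
        S.ptA e τ h0 h1 := by
      congr 1
    rw [h4] at h3
    exact h3

end SSK

end Crest.Agent.R013.DEm_719
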