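import Crest.Agent.R013.TopE8_957
import Crest.Agent.R013.DEm4_719
import Crest.Agent.R013.Inh11_770

/-!
# R013 / CY1: stage (C) "C-Y" of the assembly of part C (helper957), part 1

`κ` a complete field, `C / κ` algebraic, `M ⊆ Y₀` function fields over `κ`, `K = M ⊗ C`,
`Y = Y₀ ⊗ C`.  If `M` is dense in `Y₀` for a norm `w` of `Y`, then `K` is dense in `Y`,
simultaneously for all Galois conjugates (`exists_close`).  Hence invariance of norms, places and
equivariance of embeddings pass from `K` to `Y`.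
-/

set_option autoImplicit false
set_option linter.unusedSectionVars false

namespace Crest.Agent.R013.CY_957

open scoped NNReal
open Module WithZero
open Crest.Agent.R013.RR7_948 Crest.Agent.R013.Cell_408 Crest.Agent.R013.EE809
open Crest.Agent.R013.SSK_332 Crest.Agent.R013.TopE1_957 Crest.Agent.R013.TopE4_957
open Crest.Agent.R013.Desc_372 Crest.Agent.R013.Inh_770 Crest.Agent.R013.Red332
open Crest.Agent.R013.DEm_719

section dense

variable {κ C M K Y₀ Y : Type*} [Field κ] [Field C] [Field M] [Field K] [Field Y₀] [Field Y]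
  [Algebra κ C] [Algebra κ M] [Algebra κ K] [Algebra κ Y₀] [Algebra κ Y] [Algebra C Y]
  [Algebra Y₀ Y] [Algebra C K] [Algebra M K] [Algebra K Y] [Algebra M Y₀] [Algebra M Y]
  [IsScalarTower κ C Y] [IsScalarTower κ Y₀ Y] [IsScalarTower C K Y] [IsScalarTower M K Y]
  [IsScalarTower M Y₀ Y] [IsScalarTower κ C K] [IsScalarTower κ M K] [CE κ C Y₀ Y]

/-- **Galois-equivariant density.** -/
theorem exists_close (w : Valuation Y ℝ≥0) (hs : SplitAt (w.comap (algebraMap M Y)) Y₀)
    (F : Y) {ε : ℝ≥0} (hε : 0 < ε) : ∃ F' : K, ∀ (s : C ≃ₐ[κ] C) (w' : Valuation Y ℝ≥0),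
      (∀ c : C, w' (algebraMap C Y (s c)) = w (algebraMap C Y c)) →
      (∀ f : Y₀, w' (algebraMap Y₀ Y f) = w (algebraMap Y₀ Y f)) →
      w' (CE.lift κ C Y₀ Y s (F - algebraMap K Y F')) < ε := by
  obtain ⟨n, c, f, rfl⟩ := CE.exists_sum κ C Y₀ Y F
  have h1 : ∀ i, ∃ g : M, w (algebraMap Y₀ Y (f i - algebraMap M Y₀ g)) <
      ε / (w (algebraMap C Y (c i)) + 1) := by
    intro i
    obtain ⟨g, hg⟩ := hs (w.comap (algebraMap Y₀ Y)) (by
      rw [← Valuation.comap_comp, ← IsScalarTower.algebraMap_eq]) (f i)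
      (ε / (w (algebraMap C Y (c i)) + 1)) (div_pos hε (by positivity))
    exact ⟨g, hg⟩
  choose g hg using h1
  refine ⟨∑ i, algebraMap C K (c i) * algebraMap M K (g i), fun s w' hc hf => ?_⟩
  have e1 : (∑ i, algebraMap C Y (c i) * algebraMap Y₀ Y (f i)) -
      algebraMap K Y (∑ i, algebraMap C K (c i) * algebraMap M K (g i)) =
      ∑ i, algebraMap C Y (c i) * algebraMap Y₀ Y (f i - algebraMap M Y₀ (g i)) := by
    rw [map_sum, ← Finset.sum_sub_distrib]
    refine Finset.sum_congr rfl fun i _ => ?_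
    rw [map_mul, map_sub, ← IsScalarTower.algebraMap_apply C K Y,
      ← IsScalarTower.algebraMap_apply M K Y, ← IsScalarTower.algebraMap_apply M Y₀ Y]
    ring
  rw [e1, map_sum]
  refine Valuation.map_sum_lt _ hε.ne' fun i _ => ?_
  rw [map_mul, AlgEquiv.commutes, CE.lift_algebraMap, map_mul, hc, hf]
  have h2 := hg i
  have h3 : 0 < w (algebraMap C Y (c i)) + 1 := by positivity
  rw [lt_div_iff₀ h3] at h2
  calc w (algebraMap C Y (c i)) * w (algebraMap Y₀ Y (f i - algebraMap M Y₀ (g i)))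
      ≤ w (algebraMap Y₀ Y (f i - algebraMap M Y₀ (g i))) * (w (algebraMap C Y (c i)) + 1) := by
        rw [mul_comm]
        exact mul_le_mul_right (le_add_of_nonneg_right zero_le_one) _
    _ < ε := h2

variable (κ C) in
include κ C in
/-- density of `K` in `Y` -/
theorem exists_close' (w : Valuation Y ℝ≥0) (hs : SplitAt (w.comap (algebraMap M Y)) Y₀)
    (F : Y) {ε : ℝ≥0} (hε : 0 < ε) : ∃ F' : K, w (F - algebraMap K Y F') < ε := by
  obtain ⟨F', h⟩ := exists_close (κ := κ) (C := C) (K := K) w hs F hε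
  refine ⟨F', ?_⟩
  have h1 := h 1 w (fun c => rfl) fun f => rfl
  rwa [map_one, AlgEquiv.one_apply] at h1

variable [CE κ C M K]

/-- the lifts to `K` and `Y` are compatible -/
theorem lift_algebraMap_K (s : C ≃ₐ[κ] C) (f : K) :
    CE.lift κ C Y₀ Y s (algebraMap K Y f) = algebraMap K Y (CE.lift κ C M K s f) := by
  have h := CE.ringHom_ext κ C M K
    (φ := (CE.lift κ C Y₀ Y s : Y →+* Y).comp (algebraMap K Y))
    (ψ := (algebraMap K Y).comp (CE.lift κ C M K s : K →+* K)) (fun c => by
      change CE.lift κ C Y₀ Y s (algebraMap K Y (algebraMap C K c)) =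
        algebraMap K Y (CE.lift κ C M K s (algebraMap C K c))
      rw [← IsScalarTower.algebraMap_apply C K Y, CE.lift_algebraMap, CE.lift_algebraMap,
        ← IsScalarTower.algebraMap_apply C K Y]) (fun m => by
      change CE.lift κ C Y₀ Y s (algebraMap K Y (algebraMap M K m)) =
        algebraMap K Y (CE.lift κ C M K s (algebraMap M K m))
      rw [← IsScalarTower.algebraMap_apply M K Y, IsScalarTower.algebraMap_apply M Y₀ Y,
        AlgEquiv.commutes, AlgEquiv.commutes, ← IsScalarTower.algebraMap_apply M K Y,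
        ← IsScalarTower.algebraMap_apply M Y₀ Y])
  exact congrArg (fun φ : K →+* Y => φ f) h

/-- **an invariant norm on `K` extends to an invariant norm on `Y`** -/
theorem norm_lift (w : Valuation Y ℝ≥0) (hs : SplitAt (w.comap (algebraMap M Y)) Y₀)
    (s : C ≃ₐ[κ] C) (hc : ∀ c : C, w (algebraMap C Y (s c)) = w (algebraMap C Y c))
    (hK : ∀ f : K, w (algebraMap K Y (CE.lift κ C M K s f)) = w (algebraMap K Y f)) (F : Y) :
    w (CE.lift κ C Y₀ Y s F) = w F := by
  by_cases hF : F = 0
  · rw [hF, map_zero]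
  have hpos : 0 < w F := (Valuation.pos_iff _).2 hF
  obtain ⟨F', h⟩ := exists_close (κ := κ) (C := C) (K := K) w hs F hpos
  have h1 : w (F - algebraMap K Y F') < w F := by
    have := h 1 w (fun c => rfl) fun f => rfl
    rwa [map_one, AlgEquiv.one_apply] at this
  have h2 : w (CE.lift κ C Y₀ Y s (F - algebraMap K Y F')) < w F := h s w hc fun f => rfl
  have h3 : w (algebraMap K Y F') = w F := Valuation.map_eq_of_sub_lt w (by
    rwa [Valuation.map_sub_swap])
  have h4 : w (CE.lift κ C Y₀ Y s (algebraMap K Y F')) = w F := by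
    rw [lift_algebraMap_K (M := M), hK, h3]
  rw [map_sub] at h2
  rw [← h4] at h2 ⊢
  exact Valuation.map_eq_of_sub_lt w h2

end dense

end Crest.Agent.R013.CY_957
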