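import Crest.Agent.R013.CY1_957
import Crest.Agent.R013.Kumv2_275

/-!
# R013 / CY2 (helper957): equivariant embeddings, places and residue fields of `Y = Y₀ ⊗ C`
-/

set_option autoImplicit false
set_option linter.unusedSectionVars false

namespace Crest.Agent.R013.CY_957

open scoped NNReal
open Module WithZero
open Crest.NumberTheoryR.Sect
open Crest.Agent.R013.RR7_948 Crest.Agent.R013.Cell_408 Crest.Agent.R013.EE809
open Crest.Agent.R013.SSK_332 Crest.Agent.R013.TopE1_957 Crest.Agent.R013.TopE4_957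
open Crest.Agent.R013.Desc_372 Crest.Agent.R013.Inh_770 Crest.Agent.R013.Red332
open Crest.Agent.R013.DEm_719 Crest.Agent.R013.DEm_719.GalAct Crest.Agent.R013.Kumv2_275

/-- the residue field of `w` is spanned over `Ct C` by reductions of elements of `F` -/
def SpanAt (F : Type*) {C K : Type*} [NormedField C] [IsUltrametricDist C] [Field F] [Field K]
    [Algebra C K] [Algebra F K] (w : Nm C K) : Prop :=
  Submodule.span (Ct C) {y : kap w | ∃ f : F, w.v (algebraMap F K f) ≤ 1 ∧
    Red332.red w (algebraMap F K f) = y} = ⊤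

section place

variable {κ C M K Y₀ Y : Type*} [Field κ] [Field C] [Field M] [Field K] [Field Y₀] [Field Y]
  [Algebra κ C] [Algebra κ M] [Algebra κ K] [Algebra κ Y₀] [Algebra κ Y] [Algebra C Y]
  [Algebra Y₀ Y] [Algebra C K] [Algebra M K] [Algebra K Y] [Algebra M Y₀] [Algebra M Y]
  [IsScalarTower κ C Y] [IsScalarTower κ Y₀ Y] [IsScalarTower C K Y] [IsScalarTower M K Y]
  [IsScalarTower M Y₀ Y] [IsScalarTower κ C K] [IsScalarTower κ M K] [CE κ C Y₀ Y] [CE κ C M K]

theorem plV_inj {k K : Type*} [Field k] [Field K] [Algebra k K] (P Q : Pl k K) {x y : K}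
    (h : plV P x = plV Q y) : P.v x = Q.v y :=
  (WithZeroMulInt.toNNReal_strictMono (e := 2) one_lt_two).injective h

/-- a place of `Y` over a Galois invariant place of `K` is Galois invariant -/
theorem place_lift (P : Pl C Y) (hs : SplitAt ((plV P).comap (algebraMap M Y)) Y₀)
    (s : C ≃ₐ[κ] C)
    (hK : ∀ f : K, P.v (algebraMap K Y (CE.lift κ C M K s f)) = P.v (algebraMap K Y f)) (F : Y) :
    P.v (CE.lift κ C Y₀ Y s F) = P.v F := by
  refine plV_inj P P (norm_lift (M := M) (K := K) (plV P) hs s (fun c => ?_) (fun f => ?_) F)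
  · rcases eq_or_ne c 0 with rfl | hc
    · rw [map_zero]
    · rw [plV_apply, plV_apply, P.const c hc, P.const (s c) ((map_ne_zero s).2 hc)]
  · rw [plV_apply, plV_apply, hK]

end place

section normed

variable {k C : Type*} [NontriviallyNormedField k] [CompleteSpace k] [IsUltrametricDist k]
  [NormedField C] [IsUltrametricDist C] [NormedAlgebra k C] [Algebra.IsAlgebraic k C]
  [IsAlgClosed C] [hk : Fact (DiscNorm k)]
variable {κ M K Y₀ Y : Type*} [Field κ] [Field M] [Field K] [Field Y₀] [Field Y]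
  [Algebra k κ] [Algebra κ C] [IsScalarTower k κ C]
  [Algebra κ M] [Algebra κ K] [Algebra κ Y₀] [Algebra κ Y] [Algebra C Y]
  [Algebra Y₀ Y] [Algebra C K] [Algebra M K] [Algebra K Y] [Algebra M Y₀] [Algebra M Y]
  [IsScalarTower κ C Y] [IsScalarTower κ Y₀ Y] [IsScalarTower C K Y] [IsScalarTower M K Y]
  [IsScalarTower M Y₀ Y] [IsScalarTower κ C K] [IsScalarTower κ M K] [CE κ C Y₀ Y]

/-- **exact equivariance of embeddings passes from `K` to `Y`** -/
theorem eqAt_lift [CE κ C M K] (ψ : Y →+* EE k C)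
    (hψC : ∀ c, ψ (algebraMap C Y c) = algebraMap C (EE k C) c)
    (hs : SplitAt ((gnV.comap ψ).comap (algebraMap M Y)) Y₀) (k' : IntermediateField κ C)
    (hK : EqAt k κ C M K (gaEE k C) (ψ.comp (algebraMap K Y)) k') :
    EqAt k κ C Y₀ Y (gaEE k C) ψ k' := by
  intro s hsk F
  rw [gaEE_act]
  set t : C ≃ₐ[k] C := s.restrictScalars k with ht
  by_contra hne
  set a : EE k C := actEE t (ψ F) - ψ (CE.lift κ C Y₀ Y s F) with ha
  have ha0 : a ≠ 0 := sub_ne_zero.2 hne
  have hpos : 0 < gnV a := (Valuation.pos_iff _).2 ha0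
  have hact : ∀ b : EE k C, gnV (actEE t b) = gnV b := fun b => gnV_eq.2 (gn_actEE t b)
  have hc : ∀ c : C, (gnV.comap ψ) (algebraMap C Y (s c)) = (gnV.comap ψ) (algebraMap C Y c) := by
    intro c
    rw [Valuation.comap_apply, Valuation.comap_apply, hψC, hψC, gnV_C, gnV_C]
    exact NNReal.eq (norm_mapE t c)
  obtain ⟨F', h⟩ := exists_close (κ := κ) (C := C) (K := K) (gnV.comap ψ) hs F hpos
  have h1 : gnV (ψ (F - algebraMap K Y F')) < gnV a := by
    have := h 1 (gnV.comap ψ) (fun c => rfl) fun f => rfl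
    rwa [map_one, AlgEquiv.one_apply, Valuation.comap_apply] at this
  have h2 : gnV (ψ (CE.lift κ C Y₀ Y s (F - algebraMap K Y F'))) < gnV a :=
    h s (gnV.comap ψ) hc fun f => rfl
  have h3 : actEE t (ψ (algebraMap K Y F')) = ψ (CE.lift κ C Y₀ Y s (algebraMap K Y F')) := by
    have := hK s hsk F'
    rw [gaEE_act] at this
    rw [lift_algebraMap_K (M := M)]
    exact this
  have e : a = actEE t (ψ (F - algebraMap K Y F')) -
      ψ (CE.lift κ C Y₀ Y s (F - algebraMap K Y F')) := by
    rw [ha, map_sub, map_sub, map_sub, map_sub, h3]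
    ring
  have h4 : gnV a ≤ max (gnV (actEE t (ψ (F - algebraMap K Y F'))))
      (gnV (ψ (CE.lift κ C Y₀ Y s (F - algebraMap K Y F')))) := by
    conv_lhs => rw [e]
    exact Valuation.map_sub _ _ _
  rw [hact] at h4
  exact absurd h4 (not_le.2 (max_lt h1 h2))

variable (κ M Y₀) in
include κ M Y₀ in
/-- the residue extension is trivial -/
theorem kapMap_bijective (w : Nm C K) (W : Nm C Y) (hW : W.v.comap (algebraMap K Y) = w.v)
    (hs : SplitAt (W.v.comap (algebraMap M Y)) Y₀) : Function.Bijective (kapMap w W hW) := by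
  refine ⟨(kapMap w W hW).injective, fun b => ?_⟩
  obtain ⟨f, hf, rfl⟩ := red_surj W b
  obtain ⟨c, hc⟩ := exists_close' κ C (M := M) (K := K) (Y₀ := Y₀) W.v hs f zero_lt_one
  refine ⟨red w c, ?_⟩
  rw [kapMap_red]
  have hc1 : W.v (algebraMap K Y c) ≤ 1 := by
    have h1 : algebraMap K Y c = f - (f - algebraMap K Y c) := by ring
    rw [h1]
    exact (W.v.map_sub _ _).trans (max_le hf hc.le)
  rw [red_eq_iff W hc1 hf, Valuation.map_sub_swap]
  exact hc

variable (κ) in
include κ in
/-- the residue fields of `Y` are spanned by reductions of elements of `Y₀` -/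
theorem span_lift (w : Nm C K) (W : Nm C Y) (hW : W.v.comap (algebraMap K Y) = w.v)
    (hs : SplitAt (W.v.comap (algebraMap M Y)) Y₀) (h : SpanAt M w) : SpanAt Y₀ W := by
  have hb := kapMap_bijective κ M Y₀ w W hW hs
  unfold SpanAt at h ⊢
  rw [eq_top_iff]
  intro y _
  obtain ⟨x, rfl⟩ := hb.2 y
  have hx : x ∈ Submodule.span (Ct C) {y : kap w | ∃ f : M, w.v (algebraMap M K f) ≤ 1 ∧
      Red332.red w (algebraMap M K f) = y} := by rw [h]; trivial
  refine Submodule.span_induction ?_ ?_ ?_ ?_ hx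
  · rintro _ ⟨f, hf, rfl⟩
    have hv : ∀ a : K, W.v (algebraMap K Y a) = w.v a := fun a => DFunLike.congr_fun hW a
    refine Submodule.subset_span ⟨algebraMap M Y₀ f, ?_, ?_⟩
    · rw [← IsScalarTower.algebraMap_apply M Y₀ Y, IsScalarTower.algebraMap_apply M K Y, hv]
      exact hf
    · rw [← IsScalarTower.algebraMap_apply M Y₀ Y, IsScalarTower.algebraMap_apply M K Y,
        kapMap_red]
  · rw [map_zero]; exact Submodule.zero_mem _
  · intro a b _ _ ha hb
    rw [map_add]
    exact Submodule.add_mem _ ha hb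
  · intro c a _ ha
    rw [Algebra.smul_def, map_mul, kapMap_algebraMap, ← Algebra.smul_def]
    exact Submodule.smul_mem _ _ ha

end normed

end Crest.Agent.R013.CY_957
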