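import Crest.Agent.R013.CY2_957

/-!
# R013 / CY3 (helper957): the composita `Y₀ = M W`, `Y = K W`

`U ⊆ M`, `U ⊆ K1 ⊆ K`, `M ⊆ K` (levels over `κ`, resp. `C`), `W / U` Galois of degree `n`, `K / K1`
and `M / U` Galois of degree prime to `n`; `Y₀ = M W ⊆ Y = K W`.
-/

set_option autoImplicit false
set_option linter.unusedSectionVars false

namespace Crest.Agent.R013.CY_957

open scoped NNReal Polynomial
open Module WithZero Polynomial
open Crest.NumberTheoryR.Sect
open Crest.Agent.R013.TopE1_957 Crest.Agent.R013.TopE6_957 Crest.Agent.R013.TopE7_957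
open Crest.Agent.R013.Desc_372

section sup

variable {F A W L : Type*} [Field F] [Field A] [Field W] [Field L] [CharZero F]
  [Algebra F A] [Algebra F L] [Algebra A L] [IsScalarTower F A L]

/-- a compositum of two Galois extensions is Galois -/
theorem isGalois_top {U : Type*} [Field U] [Algebra U F] [Algebra U W] [Algebra U L]
    [Algebra U A] [IsScalarTower U A L]
    [IsScalarTower U F A] [Algebra W L] [IsScalarTower U W L]
    [FiniteDimensional F A] [IsGalois F A] [FiniteDimensional U W] [IsGalois U W]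
    (hL : IntermediateField.adjoin A (Set.range (algebraMap W L)) = ⊤) :
    FiniteDimensional F L ∧ IsGalois F L := by
  have h0 : FiniteDimensional A L := finiteDimensional_compositum (U := U) (W := W) hL
  have h1 : FiniteDimensional F L := FiniteDimensional.trans F A L
  refine ⟨h1, ?_⟩
  obtain ⟨p, hp, hsp⟩ := IsGalois.is_separable_splitting_field U W
  have h2 := splitting_compositum hL p
  obtain ⟨q, hq, hsq⟩ := IsGalois.is_separable_splitting_field F A
  have h3 : p.map (algebraMap U A) = (p.map (algebraMap U F)).map (algebraMap F A) := by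
    rw [Polynomial.map_map, ← IsScalarTower.algebraMap_eq]
  rw [h3] at h2
  have hp0 : p.map (algebraMap U F) ≠ 0 := (Polynomial.map_ne_zero_iff (algebraMap U F).injective).2
    hp.ne_zero
  have h4 : (q * p.map (algebraMap U F)).IsSplittingField F L :=
    Polynomial.IsSplittingField.mul (K := A) L q (p.map (algebraMap U F)) hq.ne_zero hp0
  have h5 : Normal F L := Normal.of_isSplittingField (q * p.map (algebraMap U F))
  exact ⟨⟩

end sup

section degree

variable {U M W Y₀ : Type*} [Field U] [Field M] [Field W] [Field Y₀] [Algebra U M] [Algebra U W]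
  [Algebra U Y₀] [Algebra M Y₀] [Algebra W Y₀] [IsScalarTower U M Y₀] [IsScalarTower U W Y₀]

/-- coprime degrees -/
theorem finrank_compositum [FiniteDimensional U W] [IsGalois U W] [FiniteDimensional U M]
    (hL : IntermediateField.adjoin M (Set.range (algebraMap W Y₀)) = ⊤)
    (hcop : (finrank U W).Coprime (finrank U M)) : finrank M Y₀ = finrank U W := by
  have h0 : FiniteDimensional M Y₀ := finiteDimensional_compositum (U := U) (W := W) hL
  have h1 : IsGalois M Y₀ := isGalois_compositum (U := U) (W := W) hL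
  have h2 : FiniteDimensional U Y₀ := FiniteDimensional.trans U M Y₀
  have h3 : FiniteDimensional W Y₀ := Module.Finite.right U W Y₀
  have h4 : finrank U W * finrank W Y₀ = finrank U M * finrank M Y₀ := by
    rw [finrank_mul_finrank, finrank_mul_finrank]
  have h5 : finrank U W ∣ finrank M Y₀ := by
    refine hcop.dvd_of_dvd_mul_left ?_
    rw [← h4]
    exact dvd_mul_right _ _
  have h6 : finrank M Y₀ ≤ finrank U W := by
    have h7 := Nat.card_le_card_of_injective _ (restrict_injective (U := U) (W := W) hL)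
    rw [IsGalois.card_aut_eq_finrank, IsGalois.card_aut_eq_finrank] at h7
    exact h7
  exact le_antisymm h6 (Nat.le_of_dvd finrank_pos h5)

end degree

section ce

variable {κ C M K W Y₀ Y : Type*} [Field κ] [Field C] [Field M] [Field K] [Field Y₀] [Field Y]
  [Field W]
  [Algebra κ C] [Algebra κ M] [Algebra κ K] [Algebra κ Y₀] [Algebra κ Y] [Algebra C Y]
  [Algebra Y₀ Y] [Algebra C K] [Algebra M K] [Algebra K Y] [Algebra M Y₀] [Algebra M Y]
  [Algebra W Y₀] [Algebra W Y] [IsScalarTower W Y₀ Y]
  [IsScalarTower κ C Y] [IsScalarTower κ Y₀ Y] [IsScalarTower C K Y] [IsScalarTower M K Y]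
  [IsScalarTower M Y₀ Y] [IsScalarTower κ C K] [IsScalarTower κ M K] [IsScalarTower κ M Y₀]

/-- `Y = Y₀ C` -/
theorem adjoin_const [CE κ C M K]
    (hY : IntermediateField.adjoin K (Set.range (algebraMap W Y)) = ⊤) :
    IntermediateField.adjoin Y₀ (Set.range (algebraMap C Y)) = ⊤ := by
  set F := IntermediateField.adjoin Y₀ (Set.range (algebraMap C Y)) with hF
  have hC : ∀ c : C, algebraMap C Y c ∈ F := fun c => IntermediateField.subset_adjoin _ _ ⟨c, rfl⟩
  have h0 : ∀ f : Y₀, algebraMap Y₀ Y f ∈ F := fun f => F.algebraMap_mem f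
  have hK : ∀ f : K, algebraMap K Y f ∈ F := by
    intro f
    obtain ⟨m, c, g, rfl⟩ := CE.exists_sum κ C M K f
    rw [map_sum]
    refine sum_mem fun i _ => ?_
    rw [map_mul, ← IsScalarTower.algebraMap_apply C K Y, ← IsScalarTower.algebraMap_apply M K Y,
      IsScalarTower.algebraMap_apply M Y₀ Y]
    exact mul_mem (hC _) (h0 _)
  rw [eq_top_iff]
  intro y _
  have hy : y ∈ IntermediateField.adjoin K (Set.range (algebraMap W Y)) := by rw [hY]; trivial
  refine IntermediateField.adjoin_induction K (p := fun y _ => y ∈ F) ?_ ?_ ?_ ?_ ?_ hy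
  · rintro _ ⟨w, rfl⟩
    rw [IsScalarTower.algebraMap_apply W Y₀ Y]
    exact h0 _
  · exact hK
  · intro x y _ _ hx hy; exact add_mem hx hy
  · intro x _ hx; exact inv_mem hx
  · intro x y _ _ hx hy; exact mul_mem hx hy

/-- `Y = Y₀ ⊗ C` -/
theorem ce_top [CE κ C M K] [Algebra.IsSeparable κ C] (hc : algebraicClosure κ Y₀ = ⊥)
    (hY : IntermediateField.adjoin K (Set.range (algebraMap W Y)) = ⊤) : CE κ C Y₀ Y :=
  CE.of_hc κ C Y₀ Y hc (adjoin_const (κ := κ) (M := M) hY)

variable (κ C) in
/-- the degrees at both levels agree -/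
theorem finrank_level [h1 : CE κ C M K] [h2 : CE κ C Y₀ Y] : finrank K Y = finrank M Y₀ := by
  have p1 : Algebra.IsPushout κ M C K := h1.po.symm
  have p2 : Algebra.IsPushout κ Y₀ C Y := h2.po.symm
  have : IsScalarTower κ K Y := IsScalarTower.of_algebraMap_eq fun c => by
    rw [IsScalarTower.algebraMap_apply κ C Y, IsScalarTower.algebraMap_apply C K Y,
      ← IsScalarTower.algebraMap_apply κ C K]
  have p3 : Algebra.IsPushout M Y₀ K Y :=
    (Algebra.IsPushout.comp_iff κ M C (S' := K) (T := Y₀) (T' := Y)).1 p2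
  have p4 : Algebra.IsPushout M K Y₀ Y := p3.symm
  have e := p4.out.equiv
  rw [← e.finrank_eq, finrank_baseChange]

end ce

end Crest.Agent.R013.CY_957
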