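import Crest.Agent.R013.CY3_957

/-!
# R013 / CY4 (helper957): the Galois group of `Y = K W` over `K1`, and the constants of `Y₀`
-/

set_option autoImplicit false
set_option linter.unusedSectionVars false
set_option linter.style.haveILetI false

namespace Crest.Agent.R013.CY_957

open scoped NNReal Polynomial
open Module WithZero Polynomial
open Crest.NumberTheoryR.Sect
open Crest.Agent.R013.TopE1_957 Crest.Agent.R013.TopE6_957 Crest.Agent.R013.TopE7_957
open Crest.Agent.R013.Desc_372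

section group

variable {U K1 K W Y : Type*} [Field U] [Field K1] [Field K] [Field W] [Field Y]
  [Algebra U K1] [Algebra U K] [Algebra U W] [Algebra U Y] [Algebra K1 K] [Algebra K1 Y]
  [Algebra K Y] [Algebra W Y] [IsScalarTower U K1 Y] [IsScalarTower U K Y] [IsScalarTower U W Y]
  [IsScalarTower K1 K Y] [IsScalarTower U K1 K]
  [FiniteDimensional U W] [IsGalois U W] [FiniteDimensional K1 K] [IsGalois K1 K]

/-- restriction to `W` -/
noncomputable def resW (U K1 W Y : Type*) [Field U] [Field K1] [Field W] [Field Y]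
    [Algebra U K1] [Algebra U W] [Algebra U Y] [Algebra K1 Y] [Algebra W Y]
    [IsScalarTower U K1 Y] [IsScalarTower U W Y] [Normal U W] : (Y ≃ₐ[K1] Y) →* (W ≃ₐ[U] W) where
  toFun σ := (σ.restrictScalars U).restrictNormal W
  map_one' := by
    ext w
    apply (algebraMap W Y).injective
    rw [AlgEquiv.restrictNormal_commutes]
    rfl
  map_mul' σ τ := by
    ext w
    apply (algebraMap W Y).injective
    rw [AlgEquiv.restrictNormal_commutes, AlgEquiv.mul_apply, AlgEquiv.restrictNormal_commutes,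
      AlgEquiv.restrictNormal_commutes]
    rfl

theorem algebraMap_resW (σ : Y ≃ₐ[K1] Y) (w : W) :
    algebraMap W Y (resW U K1 W Y σ w) = σ (algebraMap W Y w) :=
  AlgEquiv.restrictNormal_commutes (σ.restrictScalars U) W w

/-- restriction to `W` and `K` -/
noncomputable def resWK (U K1 K W Y : Type*) [Field U] [Field K1] [Field K] [Field W] [Field Y]
    [Algebra U K1] [Algebra U W] [Algebra U Y] [Algebra K1 K] [Algebra K1 Y]
    [Algebra K Y] [Algebra W Y] [IsScalarTower U K1 Y] [IsScalarTower U W Y]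
    [IsScalarTower K1 K Y] [Normal U W] [Normal K1 K] :
    (Y ≃ₐ[K1] Y) →* (W ≃ₐ[U] W) × (K ≃ₐ[K1] K) :=
  (resW U K1 W Y).prod (AlgEquiv.restrictNormalHom K)

theorem algebraMap_resK (σ : Y ≃ₐ[K1] Y) (f : K) :
    algebraMap K Y (AlgEquiv.restrictNormalHom K σ f) = σ (algebraMap K Y f) :=
  AlgEquiv.restrictNormal_commutes σ K f

theorem resWK_injective (hY : IntermediateField.adjoin K (Set.range (algebraMap W Y)) = ⊤) :
    Function.Injective (resWK U K1 K W Y) := by
  rw [injective_iff_map_eq_one]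
  intro σ hσ
  have hW : ∀ w, σ (algebraMap W Y w) = algebraMap W Y w := by
    intro w
    have h1 : resW U K1 W Y σ = 1 := congrArg Prod.fst hσ
    rw [← algebraMap_resW (U := U), h1]
    rfl
  have hK : ∀ f, σ (algebraMap K Y f) = algebraMap K Y f := by
    intro f
    have h1 : AlgEquiv.restrictNormalHom K σ = 1 := congrArg Prod.snd hσ
    rw [← algebraMap_resK, h1]
    rfl
  ext y
  change σ y = y
  have hy : y ∈ IntermediateField.adjoin K (Set.range (algebraMap W Y)) := by rw [hY]; trivial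
  refine IntermediateField.adjoin_induction K (p := fun y _ => σ y = y) ?_ ?_ ?_ ?_ ?_ hy
  · rintro _ ⟨w, rfl⟩; exact hW w
  · exact hK
  · intro x y _ _ hx hy; rw [map_add, hx, hy]
  · intro x _ hx; rw [map_inv₀, hx]
  · intro x y _ _ hx hy; rw [map_mul, hx, hy]

variable [CharZero K1]

theorem resWK_bijective (hY : IntermediateField.adjoin K (Set.range (algebraMap W Y)) = ⊤)
    (hn : finrank K Y = finrank U W) : Function.Bijective (resWK U K1 K W Y) := by
  obtain ⟨h1, h2⟩ := isGalois_top (U := U) (F := K1) (A := K) (W := W) hY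
  have hi := resWK_injective (U := U) (K1 := K1) hY
  have : Finite ((W ≃ₐ[U] W) × (K ≃ₐ[K1] K)) := inferInstance
  refine (Nat.bijective_iff_injective_and_card _).2 ⟨hi, ?_⟩
  rw [Nat.card_prod, IsGalois.card_aut_eq_finrank, IsGalois.card_aut_eq_finrank,
    IsGalois.card_aut_eq_finrank, ← finrank_mul_finrank K1 K Y, hn, mul_comm]

/-- `Gal(Y/K1) = Gal(W/U) × Gal(K/K1)` -/
noncomputable def galE (hY : IntermediateField.adjoin K (Set.range (algebraMap W Y)) = ⊤)
    (hn : finrank K Y = finrank U W) : (Y ≃ₐ[K1] Y) ≃* (W ≃ₐ[U] W) × (K ≃ₐ[K1] K) :=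
  MulEquiv.ofBijective (resWK U K1 K W Y) (resWK_bijective hY hn)

/-- the lift of `Gal(K/K1)`, trivial on `W` -/
noncomputable def cov (hY : IntermediateField.adjoin K (Set.range (algebraMap W Y)) = ⊤)
    (hn : finrank K Y = finrank U W) : (K ≃ₐ[K1] K) →* (Y ≃ₐ[K1] Y) :=
  (galE (U := U) (K1 := K1) hY hn).symm.toMonoidHom.comp (MonoidHom.inr _ _)

theorem galE_cov (hY : IntermediateField.adjoin K (Set.range (algebraMap W Y)) = ⊤)
    (hn : finrank K Y = finrank U W) (a : K ≃ₐ[K1] K) :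
    resWK U K1 K W Y (cov (U := U) (K1 := K1) hY hn a) = (1, a) :=
  (galE (U := U) (K1 := K1) hY hn).apply_symm_apply (1, a)

theorem cov_K (hY : IntermediateField.adjoin K (Set.range (algebraMap W Y)) = ⊤)
    (hn : finrank K Y = finrank U W) (a : K ≃ₐ[K1] K) (f : K) :
    cov (U := U) (K1 := K1) hY hn a (algebraMap K Y f) = algebraMap K Y (a f) := by
  have h1 : AlgEquiv.restrictNormalHom K (cov (U := U) (K1 := K1) hY hn a) = a :=
    congrArg Prod.snd (galE_cov (U := U) (K1 := K1) hY hn a)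
  rw [← algebraMap_resK, h1]

theorem cov_W (hY : IntermediateField.adjoin K (Set.range (algebraMap W Y)) = ⊤)
    (hn : finrank K Y = finrank U W) (a : K ≃ₐ[K1] K) (w : W) :
    cov (U := U) (K1 := K1) hY hn a (algebraMap W Y w) = algebraMap W Y w := by
  have h1 : resW U K1 W Y (cov (U := U) (K1 := K1) hY hn a) = 1 :=
    congrArg Prod.fst (galE_cov (U := U) (K1 := K1) hY hn a)
  rw [← algebraMap_resW (U := U), h1]
  rfl

/-- `Gal(K/K1)` and `Gal(Y/K)` commute -/
theorem cov_comm (hY : IntermediateField.adjoin K (Set.range (algebraMap W Y)) = ⊤)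
    (hn : finrank K Y = finrank U W) (a : K ≃ₐ[K1] K) (τ : Y ≃ₐ[K] Y) (f : Y) :
    cov (U := U) (K1 := K1) hY hn a (τ f) = τ (cov (U := U) (K1 := K1) hY hn a f) := by
  have h1 : AlgEquiv.restrictNormalHom K (τ.restrictScalars K1) = 1 := by
    ext x
    apply (algebraMap K Y).injective
    rw [algebraMap_resK]
    exact τ.commutes x
  have h2 : cov (U := U) (K1 := K1) hY hn a * τ.restrictScalars K1 =
      τ.restrictScalars K1 * cov (U := U) (K1 := K1) hY hn a := by
    apply resWK_injective (U := U) (K1 := K1) hY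
    rw [map_mul, map_mul, galE_cov]
    have h3 : resWK U K1 K W Y (τ.restrictScalars K1) =
        (resW U K1 W Y (τ.restrictScalars K1), 1) := Prod.ext rfl h1
    rw [h3, Prod.mk_mul_mk, Prod.mk_mul_mk, one_mul, mul_one, one_mul, mul_one]
  exact congrArg (fun g : Y ≃ₐ[K1] Y => g f) h2

end group

section gal

variable {κ C U K1 Y₀ Y : Type*} [Field κ] [Field C] [Field U] [Field K1] [Field Y₀] [Field Y]
  [Algebra κ C] [Algebra κ Y₀] [Algebra κ Y] [Algebra C K1] [Algebra C Y] [Algebra Y₀ Y]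
  [Algebra U K1] [Algebra U Y₀] [Algebra U Y] [Algebra K1 Y]
  [IsScalarTower κ C Y] [IsScalarTower κ Y₀ Y] [IsScalarTower C K1 Y] [IsScalarTower U K1 Y]
  [IsScalarTower U Y₀ Y] [CE κ C Y₀ Y] [Normal U Y₀]

variable (U Y₀) in
include U in
/-- `Gal(Y/K1)` preserves `Y₀` -/
theorem exists_res (σ : Y ≃ₐ[K1] Y) (f : Y₀) :
    ∃ f' : Y₀, σ (algebraMap Y₀ Y f) = algebraMap Y₀ Y f' :=
  ⟨(σ.restrictScalars U).restrictNormal Y₀ f,
    (AlgEquiv.restrictNormal_commutes (σ.restrictScalars U) Y₀ f).symm⟩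

variable (U) in
include U in
/-- `Gal(Y/K1)` commutes with the Galois group of `C / κ` acting on `Y` -/
theorem gal_comm (σ : Y ≃ₐ[K1] Y) (s : C ≃ₐ[κ] C) (f : Y) :
    σ (CE.lift κ C Y₀ Y s f) = CE.lift κ C Y₀ Y s (σ f) := by
  have hC : ∀ c : C, σ (algebraMap C Y c) = algebraMap C Y c := fun c => by
    rw [IsScalarTower.algebraMap_apply C K1 Y, AlgEquiv.commutes]
  have h := CE.ringHom_ext κ C Y₀ Y
    (φ := (σ : Y →+* Y).comp (CE.lift κ C Y₀ Y s : Y →+* Y))
    (ψ := (CE.lift κ C Y₀ Y s : Y →+* Y).comp (σ : Y →+* Y)) (fun c => by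
      change σ (CE.lift κ C Y₀ Y s (algebraMap C Y c)) = CE.lift κ C Y₀ Y s (σ (algebraMap C Y c))
      rw [CE.lift_algebraMap, hC, hC, CE.lift_algebraMap]) (fun g => by
      change σ (CE.lift κ C Y₀ Y s (algebraMap Y₀ Y g)) =
        CE.lift κ C Y₀ Y s (σ (algebraMap Y₀ Y g))
      obtain ⟨g', hg'⟩ := exists_res U Y₀ σ g
      rw [AlgEquiv.commutes, hg', AlgEquiv.commutes])
  exact congrArg (fun φ : Y →+* Y => φ f) h

end gal

section const

variable {κ M Y₀ : Type*} [Field κ] [Field M] [Field Y₀] [Algebra κ M] [Algebra κ Y₀]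
  [Algebra M Y₀] [IsScalarTower κ M Y₀] [Algebra.IsAlgebraic M Y₀]

/-- no new constants -/
theorem algClosure_eq_bot {v : Valuation M ℝ≥0} (hv : IsRationalPlace κ M v)
    (hs : SplitAt v Y₀) : algebraicClosure κ Y₀ = ⊥ := by
  rw [eq_bot_iff]
  intro x hx
  rw [mem_algebraicClosure_iff] at hx
  obtain ⟨a, ha⟩ := algClosed_of_splitAt hv hs hx
  exact IntermediateField.mem_bot.2 ⟨a, ha⟩

end const

end Crest.Agent.R013.CY_957
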