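import Crest.Agent.R013.CY4_957
import Crest.Agent.R013.Inh12_770

/-!
# R013 / CY5 (helper957): `Spl` in towers; directions of the top and of the intermediate field
-/

set_option autoImplicit false
set_option linter.unusedSectionVars false
set_option linter.style.haveILetI false

namespace Crest.Agent.R013.CY_957

open scoped NNReal
open Module WithZero
open Crest.Agent.R013.RR7_948 Crest.Agent.R013.Cell_408 Crest.Agent.R013.EE809
open Crest.Agent.R013.SSK_332 Crest.Agent.R013.Inh_770 Crest.Agent.R013.Red332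

/-- two embeddings of a normal extension which agree on the base are conjugate -/
theorem exists_conj {F K E : Type*} [Field F] [Field K] [Field E] [Algebra F K] [Normal F K]
    (ψ ψ' : K →+* E) (h : ∀ x : F, ψ' (algebraMap F K x) = ψ (algebraMap F K x)) :
    ∃ a : K ≃ₐ[F] K, ∀ f, ψ' f = ψ (a f) := by
  let _ : Algebra F E := (ψ.comp (algebraMap F K)).toAlgebra
  let _ : Algebra K E := ψ.toAlgebra
  have : IsScalarTower F K E := IsScalarTower.of_algebraMap_eq fun _ => rfl
  let φ' : K →ₐ[F] E := { ψ' with commutes' := fun x => h x }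
  refine ⟨φ'.restrictNormal' K, fun f => ?_⟩
  exact (AlgHom.restrictNormal_commutes φ' K f).symm

variable {k : Type*} [NontriviallyNormedField k] [CompleteSpace k] [IsUltrametricDist k]
variable {C : Type*} [NormedField C] [IsUltrametricDist C] [NormedAlgebra k C]
variable [Algebra.IsAlgebraic k C] [IsAlgClosed C] [hk : Fact (DiscNorm k)]
variable {K1 K Y : Type*} [Field K1] [Field K] [Field Y] [Algebra C K1] [Algebra C K] [Algebra C Y]
  [Algebra K1 K] [Algebra K1 Y] [Algebra K Y] [IsScalarTower C K1 K] [IsScalarTower C K1 Y]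
  [IsScalarTower C K Y] [IsScalarTower K1 K Y] [FiniteDimensional K1 K] [IsGalois K1 K]
variable {S : SSK k C K1}

section wrap

variable {F L : Type*} [Field F] [Field L] [Algebra C F] [Algebra C L] [Algebra F L]
  [IsScalarTower C F L] [FiniteDimensional F L] [IsGalois F L]
  [Algebra (RatFunc C) F] [IsScalarTower C (RatFunc C) F]
  [FiniteDimensional (RatFunc C) F] [Algebra.IsSeparable (RatFunc C) F]
  {S : SSK k C F} (P : Spl S L)

/-- directions of `L` = (direction of `F`, element of the Galois group) -/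
noncomputable def dI : P.inh.Dir ≃ S.Dir × (L ≃ₐ[F] L) := P.dirE P.ffL

/-- edges of `L` = (edge of `F`, element of the Galois group) -/
noncomputable def eI : P.inh.Ed ≃ S.Ed × (L ≃ₐ[F] L) := P.edE P.ffL

/-- the vertex below a vertex -/
noncomputable def vI : P.inh.V → S.V := P.vK P.ffL

theorem em_I (y : P.inh.Dir) (f : L) : P.inh.em y f = P.ps (dI P y).1 ((dI P y).2 f) := rfl

theorem e0_I (e : P.inh.Ed) : dI P (P.inh.e0 e) = (S.e0 (eI P e).1, (eI P e).2) := P.e0_eq P.ffL e

theorem e1_I (e : P.inh.Ed) : dI P (P.inh.e1 e) = (S.e1 (eI P e).1, (eI P e).2) := P.e1_eq P.ffL e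

theorem cc_I (e : P.inh.Ed) : P.inh.cc e = S.cc (eI P e).1 := rfl

theorem fst_I (y : P.inh.Dir) : (dI P y).1.1 = vI P y.1 := P.dirE_fst P.ffL y

theorem nm_I (w : P.inh.V) (f : F) :
    (P.inh.nm w).v (algebraMap F L f) = (S.nm (vI P w)).v f := P.vK_nm P.ffL w f

theorem exists_vI (w : Valuation L ℝ≥0) (v : S.V)
    (hw : ∀ f : F, w (algebraMap F L f) = (S.nm v).v f) :
    ∃ i : P.inh.V, (P.inh.nm i).v = w ∧ vI P i = v := P.exists_V P.ffL w v hw

theorem isDisc_I (y : P.inh.Dir) : P.inh.IsDisc y ↔ S.IsDisc (dI P y).1 := P.isDisc_iff P.ffL y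

/-- the direction of `L` over `d` where the embedding is `P.ps d` -/
noncomputable def dir1 (d : S.Dir) : P.inh.Dir := (dI P).symm (d, 1)

theorem dI_dir1 (d : S.Dir) : dI P (dir1 P d) = (d, 1) := Equiv.apply_symm_apply _ _

theorem em_dir1 (d : S.Dir) (f : L) : P.inh.em (dir1 P d) f = P.ps d f := by
  rw [em_I, dI_dir1]
  rfl

/-- the edge of `L` over `e` with label `1` -/
noncomputable def ed1 (e : S.Ed) : P.inh.Ed := (eI P).symm (e, 1)

theorem eI_ed1 (e : S.Ed) : eI P (ed1 P e) = (e, 1) := Equiv.apply_symm_apply _ _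

theorem e0_ed1 (e : S.Ed) : P.inh.e0 (ed1 P e) = dir1 P (S.e0 e) := by
  apply (dI P).injective
  rw [dI_dir1, e0_I, eI_ed1]

theorem e1_ed1 (e : S.Ed) : P.inh.e1 (ed1 P e) = dir1 P (S.e1 e) := by
  apply (dI P).injective
  rw [dI_dir1, e1_I, eI_ed1]

end wrap

variable [Algebra (RatFunc C) K1] [IsScalarTower C (RatFunc C) K1]
  [FiniteDimensional (RatFunc C) K1] [Algebra.IsSeparable (RatFunc C) K1]

/-- **`Spl` in towers** -/
noncomputable def splTrans (P : Spl S K) (Q : Spl P.inh Y) : Spl S Y where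
  ps d := Q.ps (dir1 P d)
  ps_K d f := by
    rw [IsScalarTower.algebraMap_apply K1 K Y, Q.ps_K, em_dir1, P.ps_K]
  ps_ann e f := by
    have h := Q.ps_ann (ed1 P e) f
    rw [e0_ed1, e1_ed1, cc_I, eI_ed1] at h
    exact h
  ps_disc d hd f := by
    refine Q.ps_disc (dir1 P d) ?_ f
    rw [isDisc_I, dI_dir1]
    exact hd
  ni d := by
    intro σ hσ hw
    have hwK : ∀ f : K, gnV (Q.ps (dir1 P d) (algebraMap K Y f)) = gnV (P.ps d f) := fun f => by
      rw [Q.ps_K, em_dir1]
    by_cases h1 : AlgEquiv.restrictNormalHom K σ = 1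
    · -- `σ` is trivial on `K`
      have hσK : ∀ f : K, σ (algebraMap K Y f) = algebraMap K Y f := fun f => by
        rw [← AlgEquiv.restrictNormal_commutes σ K f]
        have : σ.restrictNormal K = 1 := h1
        rw [this]; rfl
      let τ : Y ≃ₐ[K] Y := AlgEquiv.ofRingEquiv (f := σ.toRingEquiv) hσK
      have hτ : τ ≠ 1 := by
        intro h
        apply hσ
        ext f
        exact congrArg (fun g : Y ≃ₐ[K] Y => g f) h
      exact Q.ni (dir1 P d) τ hτ hw
    · have h2 : ∀ f : K, (gnV.comap (P.ps d)) (AlgEquiv.restrictNormalHom K σ f) =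
          (gnV.comap (P.ps d)) f := fun f => by
        rw [Valuation.comap_apply, Valuation.comap_apply, ← hwK, ← hwK]
        have h3 : algebraMap K Y (AlgEquiv.restrictNormalHom K σ f) = σ (algebraMap K Y f) :=
          AlgEquiv.restrictNormal_commutes σ K f
        rw [h3]
        exact hw _
      obtain ⟨θ, hθ1, hθ2⟩ := P.ni d _ h1 h2
      refine ⟨algebraMap K Y θ, ?_, ?_⟩
      · rw [Valuation.comap_apply, hwK]; exact hθ1
      · have h3 : algebraMap K Y (AlgEquiv.restrictNormalHom K σ θ) = σ (algebraMap K Y θ) :=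
          AlgEquiv.restrictNormal_commutes σ K θ
        rw [Valuation.comap_apply, ← h3, ← map_sub, hwK]
        exact hθ2

/-- the embeddings of `Y` restrict to embeddings of `K` -/
theorem exists_ps (P : Spl S K) (PY : Spl S Y) (d : S.Dir) :
    ∃ a : K ≃ₐ[K1] K, ∀ f, PY.ps d (algebraMap K Y f) = P.ps d (a f) := by
  refine exists_conj (P.ps d) ((PY.ps d).comp (algebraMap K Y)) fun x => ?_
  rw [RingHom.comp_apply, ← IsScalarTower.algebraMap_apply K1 K Y, PY.ps_K, P.ps_K]

section top

variable [FiniteDimensional K1 Y] [IsGalois K1 Y]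

/-- every direction of `Y` lies over a direction of `K` (with the same direction of `K1`) -/
theorem exists_dirK (P : Spl S K) (PY : Spl S Y) (y : PY.inh.Dir) :
    ∃ x : P.inh.Dir, (dI P x).1 = (dI PY y).1 ∧
      ∀ f, PY.inh.em y (algebraMap K Y f) = P.inh.em x f := by
  obtain ⟨a, ha⟩ := exists_ps P PY (dI PY y).1
  refine ⟨(dI P).symm ((dI PY y).1, a * AlgEquiv.restrictNormalHom K (dI PY y).2), ?_,
    fun f => ?_⟩
  · rw [Equiv.apply_symm_apply]
  · rw [em_I, em_I, Equiv.apply_symm_apply, AlgEquiv.mul_apply, ← ha]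
    congr 1
    exact (AlgEquiv.restrictNormal_commutes _ K f).symm

end top

end Crest.Agent.R013.CY_957
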