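import Crest.Agent.R013.CY5_957
import Crest.Agent.R013.Desc8_372

/-!
# R013 / CY6 (helper957): the semistable structure of `Y` is defined over the fixed level
-/

set_option autoImplicit false
set_option linter.unusedSectionVars false

namespace Crest.Agent.R013.CY_957

open scoped NNReal
open Module WithZero
open Crest.NumberTheoryR.Sect
open Crest.Agent.R013.RR7_948 Crest.Agent.R013.Cell_408 Crest.Agent.R013.EE809
open Crest.Agent.R013.SSK_332 Crest.Agent.R013.Inh_770 Crest.Agent.R013.Red332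
open Crest.Agent.R013.TopE1_957 Crest.Agent.R013.TopE4_957 Crest.Agent.R013.TopE7_957
open Crest.Agent.R013.Desc_372 Crest.Agent.R013.DEm_719 Crest.Agent.R013.DEm_719.GalAct
open Crest.Agent.R013.Kumv2_275

section lev

variable {κ C M K : Type*} [Field κ] [Field C] [Field M] [Field K] [Algebra κ C] [Algebra κ M]
  [Algebra C K] [Algebra M K] [Algebra κ K] [IsScalarTower κ C K] [IsScalarTower κ M K]

/-- the level `⊥` is the model -/
theorem mem_lev_bot {f : K} :
    f ∈ CE.lev M K (⊥ : IntermediateField κ C) ↔ ∃ g : M, algebraMap M K g = f := by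
  constructor
  · intro h
    have h1 : CE.lev M K (⊥ : IntermediateField κ C) ≤ ⊥ := by
      rw [CE.lev_le_iff]
      intro c hc
      obtain ⟨x, rfl⟩ := IntermediateField.mem_bot.mp hc
      rw [← IsScalarTower.algebraMap_apply κ C K, IsScalarTower.algebraMap_apply κ M K]
      exact (⊥ : IntermediateField M K).algebraMap_mem _
    exact IntermediateField.mem_bot.1 (h1 h)
  · rintro ⟨g, rfl⟩
    exact (CE.lev M K (⊥ : IntermediateField κ C)).algebraMap_mem g

end lev

section span

variable {C : Type*} [NormedField C] [IsUltrametricDist C] {κ M K : Type*} [Field κ] [Field M]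
  [Field K] [Algebra κ C] [Algebra κ M] [Algebra C K] [Algebra M K] [Algebra κ K]
  [IsScalarTower κ C K] [IsScalarTower κ M K]

theorem spanAt_iff (w : Nm C K) : SpanAt M w ↔ Submodule.span (Ct C) {y : kap w |
    ∃ f ∈ CE.lev M K (⊥ : IntermediateField κ C), w.v f ≤ 1 ∧ Red332.red w f = y} = ⊤ := by
  have h : {y : kap w | ∃ f ∈ CE.lev M K (⊥ : IntermediateField κ C), w.v f ≤ 1 ∧
      Red332.red w f = y} = {y : kap w | ∃ f : M, w.v (algebraMap M K f) ≤ 1 ∧
      Red332.red w (algebraMap M K f) = y} := by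
    ext y
    constructor
    · rintro ⟨f, hf, h1, h2⟩
      obtain ⟨g, rfl⟩ := mem_lev_bot.1 hf
      exact ⟨g, h1, h2⟩
    · rintro ⟨g, h1, h2⟩
      exact ⟨_, mem_lev_bot.2 ⟨g, rfl⟩, h1, h2⟩
  rw [h]
  rfl

end span

section main

variable {k C : Type*} [NontriviallyNormedField k] [CompleteSpace k] [IsUltrametricDist k]
  [NormedField C] [IsUltrametricDist C] [NormedAlgebra k C] [Algebra.IsAlgebraic k C]
  [IsAlgClosed C] [hk : Fact (DiscNorm k)]
variable {κ M K1 K Y₀ Y : Type*} [Field κ] [Field M] [Field K1] [Field K] [Field Y₀] [Field Y]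
  [Algebra k κ] [Algebra κ C] [IsScalarTower k κ C]
  [Algebra κ M] [Algebra κ K] [Algebra κ Y₀] [Algebra κ Y]
  [Algebra C K1] [Algebra C K] [Algebra C Y] [Algebra K1 K] [Algebra K1 Y] [Algebra K Y]
  [Algebra M K] [Algebra M Y₀] [Algebra M Y] [Algebra Y₀ Y]
  [IsScalarTower C K1 K] [IsScalarTower C K1 Y] [IsScalarTower C K Y] [IsScalarTower K1 K Y]
  [IsScalarTower κ C K] [IsScalarTower κ M K] [IsScalarTower κ C Y] [IsScalarTower κ Y₀ Y]
  [IsScalarTower M K Y] [IsScalarTower M Y₀ Y]
  [FiniteDimensional K1 K] [IsGalois K1 K] [FiniteDimensional K1 Y] [IsGalois K1 Y]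
  [Algebra (RatFunc C) K1] [IsScalarTower C (RatFunc C) K1]
  [FiniteDimensional (RatFunc C) K1] [Algebra.IsSeparable (RatFunc C) K1]
  [CE κ C M K] [CE κ C Y₀ Y] {S : SSK k C K1} (P : Spl S K) (PY : Spl S Y)

/-- the vertex of `K` below a vertex of `Y` -/
theorem exists_vY (w : PY.inh.V) : ∃ v : P.inh.V,
    (∀ f : K, (PY.inh.nm w).v (algebraMap K Y f) = (P.inh.nm v).v f) ∧ vI P v = vI PY w := by
  obtain ⟨v, h1, h2⟩ := exists_vI P ((PY.inh.nm w).v.comap (algebraMap K Y)) (vI PY w) (fun f => by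
    rw [Valuation.comap_apply, ← IsScalarTower.algebraMap_apply K1 K Y, nm_I])
  exact ⟨v, fun f => by rw [h1]; rfl, h2⟩

/-- the vertex of `K` below a vertex of `Y` -/
noncomputable def vY (w : PY.inh.V) : P.inh.V := (exists_vY P PY w).choose

theorem nm_vY (w : PY.inh.V) (f : K) :
    (PY.inh.nm w).v (algebraMap K Y f) = (P.inh.nm (vY P PY w)).v f :=
  (exists_vY P PY w).choose_spec.1 f

theorem vI_vY (w : PY.inh.V) : vI P (vY P PY w) = vI PY w := (exists_vY P PY w).choose_spec.2

theorem comap_vY (w : PY.inh.V) :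
    (PY.inh.nm w).v.comap (algebraMap K Y) = (P.inh.nm (vY P PY w)).v := by
  ext f
  exact congrArg _ (nm_vY P PY w f)

/-- all norms of `Y` over a vertex of `K` -/
theorem exists_vY_eq (w : Valuation Y ℝ≥0) (v : P.inh.V)
    (hw : ∀ f : K, w (algebraMap K Y f) = (P.inh.nm v).v f) :
    ∃ i : PY.inh.V, (PY.inh.nm i).v = w ∧ vY P PY i = v := by
  obtain ⟨i, h1, h2⟩ := exists_vI PY w (vI P v) (fun f => by
    rw [IsScalarTower.algebraMap_apply K1 K Y, hw, nm_I])
  refine ⟨i, h1, P.inh.nm_inj (Nm.ext' fun f => ?_)⟩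
  rw [← nm_vY, h1, hw]

/-- a direction of `Y` over a direction `d` of `K1`, at a prescribed vertex over `d.1` -/
theorem exists_dir_at (w : PY.inh.V) (d : S.Dir) (hd : d.1 = vI PY w) :
    ∃ y : PY.inh.Dir, y.1 = w ∧ (dI PY y).1 = d := by
  obtain ⟨σ, hσ⟩ := PY.exists_sigma (PY.inh.nm w).v d (fun f => by rw [nm_I, hd])
  refine ⟨(dI PY).symm (d, σ), ?_, by rw [Equiv.apply_symm_apply]⟩
  apply PY.inh.nm_inj
  apply Nm.ext'
  intro f
  rw [hσ, ← Spl.em_gnV (S := PY.inh), em_I, Equiv.apply_symm_apply]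

variable (hs : ∀ w : Valuation Y ℝ≥0, (∀ c : C, w (algebraMap C Y c) ≤ ‖c‖₊) →
    SplitAt (w.comap (algebraMap M Y)) Y₀)

include hs

/-- **the semistable structure of `Y` is defined over the fixed level `κ`** -/
theorem lvl_top {D1 : Set S.Dir}
    (H : Lvl P.inh κ M (⊥ : IntermediateField κ C) {y | (dI P y).1 ∈ D1}) :
    Lvl PY.inh κ Y₀ (⊥ : IntermediateField κ C) {y | (dI PY y).1 ∈ D1} where
  df :=
    { e0_mem := fun e => by
        have h1 : (dI P (P.inh.e0 (ed1 P (eI PY e).1))).1 ∈ D1 := H.df.e0_mem _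
        rw [e0_I, eI_ed1] at h1
        change (dI PY (PY.inh.e0 e)).1 ∈ D1
        rw [e0_I]
        exact h1
      e1_mem := fun e => by
        have h1 : (dI P (P.inh.e1 (ed1 P (eI PY e).1))).1 ∈ D1 := H.df.e1_mem _
        rw [e1_I, eI_ed1] at h1
        change (dI PY (PY.inh.e1 e)).1 ∈ D1
        rw [e1_I]
        exact h1
      vert := fun w => by
        obtain ⟨y, hy, hyw⟩ := H.df.vert (vY P PY w)
        obtain ⟨z, hz1, hz2⟩ := exists_dir_at PY w (dI P y).1 (by rw [fst_I, hyw, vI_vY])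
        refine ⟨z, ?_, hz1⟩
        change (dI PY z).1 ∈ D1
        rw [hz2]
        exact hy
      cc_mem := fun e => by
        have h1 := H.df.cc_mem (ed1 P (eI PY e).1)
        rw [cc_I, eI_ed1] at h1
        exact h1
      eqAt := fun y hy => by
        obtain ⟨x, hx1, hx2⟩ := exists_dirK P PY y
        have hxD : x ∈ {y | (dI P y).1 ∈ D1} := by
          change (dI P x).1 ∈ D1
          rw [hx1]
          exact hy
        have hψC : ∀ c : C, PY.inh.em y (algebraMap C Y c) = algebraMap C (EE k C) c :=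
          fun c => em_algebraMap PY.inh y c
        refine eqAt_lift (M := M) (K := K) (PY.inh.em y) hψC ?_ ⊥ ?_
        · refine hs (gnV.comap (PY.inh.em y)) fun c => ?_
          rw [Valuation.comap_apply, hψC, gnV_C]
        · have he : (PY.inh.em y).comp (algebraMap K Y) = P.inh.em x := RingHom.ext hx2
          rw [he]
          exact H.df.eqAt x hxD }
  span := fun w => by
    rw [← spanAt_iff]
    refine span_lift κ (P.inh.nm (vY P PY w)) (PY.inh.nm w) (comap_vY P PY w)
      (hs _ fun c => ((PY.inh.nm w).hC c).le) ?_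
    rw [spanAt_iff (κ := κ)]
    exact H.span (vY P PY w)

variable (κ) in
include κ in
/-- the residue fields of `Y` are those of `K` -/
theorem kapMap_top (w : PY.inh.V) : Function.Bijective
    (kapMap (P.inh.nm (vY P PY w)) (PY.inh.nm w) (comap_vY P PY w)) :=
  kapMap_bijective κ M Y₀ _ _ _ (hs _ fun c => ((PY.inh.nm w).hC c).le)

end main

end Crest.Agent.R013.CY_957
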