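import Crest.Agent.R013.CY6_957

/-!
# R013 / CY7 (helper957): vertices of `Y`: fibres, stabilisers, actions
-/

set_option autoImplicit false
set_option linter.unusedSectionVars false
set_option linter.style.haveILetI false

namespace Crest.Agent.R013.CY_957

open scoped NNReal
open Module WithZero
open Crest.NumberTheoryR.Sect
open Crest.Agent.R013.RR7_948 Crest.Agent.R013.Cell_408 Crest.Agent.R013.EE809
open Crest.Agent.R013.SSK_332 Crest.Agent.R013.Inh_770 Crest.Agent.R013.Red332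
open Crest.Agent.R013.TopE1_957 Crest.Agent.R013.TopE4_957 Crest.Agent.R013.TopE7_957
open Crest.Agent.R013.Desc_372 Crest.Agent.R013.DEm_719 Crest.Agent.R013.DEm_719.GalAct
open Crest.Agent.R013.Kumv2_275

section nm

variable {C : Type*} [NormedField C] [IsUltrametricDist C] {K Y : Type*} [Field K] [Field Y]
  [Algebra C K] [Algebra C Y] [Algebra K Y] [IsScalarTower C K Y]

/-- norms over `C` with the same valuation ring are equal -/
theorem nm_eq_of_le_one (w w' : Nm C Y) (h : ∀ f, w.v f ≤ 1 ↔ w'.v f ≤ 1) (f : Y) :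
    w.v f = w'.v f := by
  have hE : w.v.IsEquiv w'.v := Valuation.isEquiv_iff_val_le_one.2 fun {x} => h x
  rcases eq_or_ne f 0 with rfl | hf
  · rw [map_zero, map_zero]
  obtain ⟨c, hc⟩ := w.val f hf
  have hc0 : c ≠ 0 := by
    rintro rfl
    rw [nnnorm_zero] at hc
    exact (Valuation.ne_zero_iff _).2 hf hc
  have hc1 : ‖c‖₊ ≠ 0 := nnnorm_ne_zero_iff.2 hc0
  have h1 : w.v (f / algebraMap C Y c) = 1 := by
    rw [map_div₀, w.hC, hc, div_self hc1]
  have h2 : w'.v (f / algebraMap C Y c) = 1 := hE.eq_one_iff_eq_one.1 h1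
  rw [map_div₀, w'.hC, div_eq_one_iff_eq hc1] at h2
  rw [hc, h2]

/-- the norm twisted by an automorphism -/
noncomputable def twist (w : Nm C Y) (g : Y ≃ₐ[C] Y) : Nm C Y where
  v := w.v.comap (g : Y →+* Y)
  hC c := by
    change w.v (g (algebraMap C Y c)) = _
    rw [g.commutes, w.hC]
  val f hf := w.val (g f) ((map_ne_zero g).2 hf)

theorem twist_v (w : Nm C Y) (g : Y ≃ₐ[C] Y) (f : Y) : (twist w g).v f = w.v (g f) := rfl

/-- norms of `Y` with the same restriction to `K` are conjugate over `K` -/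
theorem nm_conj [FiniteDimensional K Y] [IsGalois K Y] (w w' : Nm C Y)
    (h : ∀ f : K, w'.v (algebraMap K Y f) = w.v (algebraMap K Y f)) :
    ∃ τ : Y ≃ₐ[K] Y, ∀ f, w'.v f = w.v (τ f) := by
  obtain ⟨τ, hτ⟩ := Hens_899.conj_fin (K := K) w.v w'.v (fun a => by rw [h])
  refine ⟨τ, fun f => ?_⟩
  exact nm_eq_of_le_one w' (twist w (τ.restrictScalars C)) (fun f => (hτ f).symm) f

end nm

section coprime

variable {Y K K1 : Type*} [Field Y] [Field K] [Field K1] [Algebra K Y] [Algebra K1 Y]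

/-- iterated norms -/
theorem iter_eq (w : Valuation Y ℝ≥0) (ρ : Y ≃ₐ[K1] Y) (τ : Y ≃ₐ[K] Y)
    (hcomm : ∀ f, ρ (τ f) = τ (ρ f)) (h : ∀ f, w (ρ f) = w (τ f)) (m : ℕ) (f : Y) :
    w ((ρ ^ m) f) = w ((τ ^ m) f) := by
  have hc : ∀ (m : ℕ) (f : Y), (τ ^ m) (ρ f) = ρ ((τ ^ m) f) := by
    intro m
    induction m with
    | zero => intro f; rfl
    | succ m ih =>
      intro f
      rw [pow_succ', AlgEquiv.mul_apply, AlgEquiv.mul_apply, ih, hcomm]
  induction m generalizing f with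
  | zero => rfl
  | succ m ih =>
    have e1 : (ρ ^ (m + 1)) f = (ρ ^ m) (ρ f) := by rw [pow_succ, AlgEquiv.mul_apply]
    have e2 : (τ ^ (m + 1)) f = τ ((τ ^ m) f) := by rw [pow_succ', AlgEquiv.mul_apply]
    rw [e1, ih, hc, h, e2]

end coprime

section main

variable {k C : Type*} [NontriviallyNormedField k] [CompleteSpace k] [IsUltrametricDist k]
  [NormedField C] [IsUltrametricDist C] [NormedAlgebra k C] [Algebra.IsAlgebraic k C]
  [IsAlgClosed C] [hk : Fact (DiscNorm k)]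
variable {κ M K1 K Y₀ Y : Type*} [Field κ] [Field M] [Field K1] [Field K] [Field Y₀] [Field Y]
  [Algebra k κ] [Algebra κ C] [IsScalarTower k κ C]
  [Algebra κ M] [Algebra κ K] [Algebra κ Y₀] [Algebra κ Y]
  [Algebra C K1] [Algebra C K] [Algebra C Y] [Algebra K1 K] [Algebra K1 Y] [Algebra K Y]
  [Algebra M K] [Algebra M Y₀] [Algebra M Y] [Algebra Y₀ Y]
  [IsScalarTower C K1 K] [IsScalarTower C K1 Y] [IsScalarTower C K Y] [IsScalarTower K1 K Y]
  [IsScalarTower κ C K] [IsScalarTower κ M K] [IsScalarTower κ C Y] [IsScalarTower κ Y₀ Y]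
  [IsScalarTower M K Y] [IsScalarTower M Y₀ Y]
  [FiniteDimensional K1 K] [IsGalois K1 K] [FiniteDimensional K1 Y] [IsGalois K1 Y]
  [FiniteDimensional K Y] [IsGalois K Y]
  [Algebra (RatFunc C) K1] [IsScalarTower C (RatFunc C) K1]
  [FiniteDimensional (RatFunc C) K1] [Algebra.IsSeparable (RatFunc C) K1]
  [CE κ C M K] [CE κ C Y₀ Y] {S : SSK k C K1} (P : Spl S K) (PY : Spl S Y)

variable (hs : ∀ w : Valuation Y ℝ≥0, (∀ c : C, w (algebraMap C Y c) ≤ ‖c‖₊) →
    SplitAt (w.comap (algebraMap M Y)) Y₀)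

variable (κ) in
include κ hs in
/-- the group `Gal(Y/K)` acts freely on the norms -/
theorem free_top (w : Nm C Y) (τ : Y ≃ₐ[K] Y) (h : ∀ f, w.v (τ f) = w.v f) : τ = 1 := by
  refine eq_one_of_dense w.v (fun f a ha => ?_) τ h
  exact exists_close' κ C (M := M) (Y₀ := Y₀) w.v (hs w.v fun c => (w.hC c).le) f
    ((Valuation.pos_iff _).2 ha)

variable (κ) in
include κ hs in
/-- **stabilisers**: the group `Gal(K/K1)`, lifted to `Y` so that it commutes with `Gal(Y/K)`, of
order prime to `[Y : K]`, stabilises a norm iff it stabilises its restriction to `K` -/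
theorem stab_top (ρ : (K ≃ₐ[K1] K) →* (Y ≃ₐ[K1] Y))
    (hρ : ∀ a (f : K), ρ a (algebraMap K Y f) = algebraMap K Y (a f))
    (hcomm : ∀ a (τ : Y ≃ₐ[K] Y) f, ρ a (τ f) = τ (ρ a f))
    (hcop : (finrank K Y).Coprime (finrank K1 K)) (w : Nm C Y) (a : K ≃ₐ[K1] K)
    (h : ∀ f : K, w.v (algebraMap K Y (a f)) = w.v (algebraMap K Y f)) (f : Y) :
    w.v (ρ a f) = w.v f := by
  obtain ⟨τ, hτ⟩ := nm_conj (K := K) w (twist w ((ρ a).restrictScalars C)) (fun f => by
    change w.v (ρ a (algebraMap K Y f)) = _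
    rw [hρ, h])
  have hτ' : ∀ f, w.v (ρ a f) = w.v (τ f) := hτ
  set m := finrank K1 K with hm
  have h1 : (ρ a) ^ m = 1 := by
    rw [← map_pow, hm, ← IsGalois.card_aut_eq_finrank K1 K, pow_card_eq_one', map_one]
  have h2 : τ ^ m = 1 := by
    refine free_top κ (M := M) (Y₀ := Y₀) hs w (τ ^ m) fun f => ?_
    rw [← iter_eq w.v (ρ a) τ (hcomm a τ) hτ' m f, h1]
    rfl
  have h3 : τ ^ finrank K Y = 1 := by
    rw [← IsGalois.card_aut_eq_finrank K Y, pow_card_eq_one']
  have h4 : τ = 1 := by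
    have h5 := (pow_gcd_eq_one (a := τ)).2 ⟨h3, h2⟩
    rw [Nat.Coprime.gcd_eq_one hcop, pow_one] at h5
    exact h5
  rw [hτ', h4]
  rfl

/-! ### the action of `Gal(Y/K1)` on the vertices -/

/-- the vertex `g • w` -/
theorem exists_smul (g : Y ≃ₐ[K1] Y) (w : PY.inh.V) : ∃ w' : PY.inh.V,
    vI PY w' = vI PY w ∧ ∀ f, (PY.inh.nm w').v (g f) = (PY.inh.nm w).v f :=
  PY.exists_act_V PY.ffL g w

/-- the action on the vertices -/
@[reducible] noncomputable def actV : MulAction (Y ≃ₐ[K1] Y) PY.inh.V where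
  smul g w := (exists_smul PY g w).choose
  one_smul w := by
    apply PY.inh.nm_inj
    apply Nm.ext'
    intro f
    exact (exists_smul PY (1 : Y ≃ₐ[K1] Y) w).choose_spec.2 f
  mul_smul g h w := by
    apply PY.inh.nm_inj
    apply Nm.ext'
    intro f
    obtain ⟨f', rfl⟩ := (g * h).surjective f
    have h1 := (exists_smul PY (g * h) w).choose_spec.2 f'
    have h2 := (exists_smul PY h w).choose_spec.2 f'
    have h3 := (exists_smul PY g (exists_smul PY h w).choose).choose_spec.2 (h f')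
    exact h1.trans (h2.symm.trans h3.symm)

theorem nm_smul (g : Y ≃ₐ[K1] Y) (w : PY.inh.V) (f : Y) :
    (PY.inh.nm ((actV PY).toSMul.smul g w)).v (g f) = (PY.inh.nm w).v f :=
  (exists_smul PY g w).choose_spec.2 f

theorem vI_smul (g : Y ≃ₐ[K1] Y) (w : PY.inh.V) :
    vI PY ((actV PY).toSMul.smul g w) = vI PY w :=
  (exists_smul PY g w).choose_spec.1

theorem smul_eq_iff (g : Y ≃ₐ[K1] Y) (w w' : PY.inh.V) :
    (actV PY).toSMul.smul g w = w' ↔ ∀ f, (PY.inh.nm w').v (g f) = (PY.inh.nm w).v f := by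
  constructor
  · rintro rfl f
    exact nm_smul PY g w f
  · intro h
    apply PY.inh.nm_inj
    apply Nm.ext'
    intro f
    obtain ⟨f', rfl⟩ := g.surjective f
    rw [nm_smul, h]

/-- the vertices over a vertex of `K1` are conjugate -/
theorem exists_smul_eq (w w' : PY.inh.V) (h : vI PY w = vI PY w') :
    ∃ g : Y ≃ₐ[K1] Y, (actV PY).toSMul.smul g w = w' := by
  obtain ⟨g, hg⟩ := PY.exists_conj_V PY.ffL w w' h
  exact ⟨g, (smul_eq_iff PY g w w').2 hg⟩

end main

end Crest.Agent.R013.CY_957
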