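import Mathlib

/-!
R013 leaf C-RANK (helper770): rank of the `e`-part of the cycle lattice of a finite graph with a
group action.

Setting: a finite group `A` acts on finite sets `E` (edges) and `V` (vertices), freely on `E`;
`V0 ⊆ V` (the genus `0` vertices) with free action; `e : A → k` is an idempotent of the group
algebra `k[A]` (given by its coefficients, convolution product), which kills the vertices outside
`V0`; `d : (E → k) → (V → k)` is `A`-equivariant (the boundary map).  Then with
`c = dim e·k[A]`

  `c * |E| ≤ |A| * dim (e · ker d) + c * |V0|`.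
-/

namespace Crest.Agent.R013.Rank_770

open Finset Module

variable {k : Type*} [Field k] {A : Type*} [Group A]

/-- translation of functions: `(act a f) x = f (a⁻¹ • x)` -/
def act (k : Type*) [Field k] {A : Type*} [Group A] (X : Type*) [MulAction A X] (a : A) :
    (X → k) →ₗ[k] (X → k) where
  toFun f x := f (a⁻¹ • x)
  map_add' _ _ := rfl
  map_smul' _ _ := rfl

@[simp] theorem act_apply {X : Type*} [MulAction A X] (a : A) (f : X → k) (x : X) :
    act k X a f x = f (a⁻¹ • x) := rfl

theorem act_act {X : Type*} [MulAction A X] (a b : A) (f : X → k) :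
    act k X a (act k X b f) = act k X (a * b) f := by
  funext x; simp [mul_smul]

theorem act_one {X : Type*} [MulAction A X] (f : X → k) : act k X (1 : A) f = f := by
  funext x; simp

theorem act_single {X : Type*} [MulAction A X] [DecidableEq X] (a : A) (x : X) (c : k) :
    act k X a (Pi.single x c) = Pi.single (a • x) c := by
  funext y
  by_cases h : y = a • x
  · subst h; simp
  · have h' : a⁻¹ • y ≠ x := by
      intro hh; apply h; rw [← hh]; simp
    simp [h, h']

/-- the action of the element `∑ e a · a` of the group algebra on functions -/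
noncomputable def eop [Fintype A] (e : A → k) (X : Type*) [MulAction A X] :
    (X → k) →ₗ[k] (X → k) :=
  ∑ a, e a • act k X a

theorem eop_apply [Fintype A] (e : A → k) {X : Type*} [MulAction A X] (f : X → k) (x : X) :
    eop e X f x = ∑ a, e a * f (a⁻¹ • x) := by
  simp [eop]

/-- convolution idempotent -/
def IsIdem [Fintype A] (e : A → k) : Prop :=
  ∀ a, ∑ b, e b * e (b⁻¹ * a) = e a

theorem eop_eop [Fintype A] {e : A → k} (he : IsIdem e) {X : Type*} [MulAction A X] (f : X → k) :
    eop e X (eop e X f) = eop e X f := by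
  classical
  funext x
  simp only [eop_apply]
  have h1 : ∀ b : A, e b * ∑ a, e a * f (a⁻¹ • b⁻¹ • x) =
      ∑ c, e b * e (b⁻¹ * c) * f (c⁻¹ • x) := by
    intro b
    rw [Finset.mul_sum]
    refine Fintype.sum_equiv (Equiv.mulLeft b) _ _ (fun a => ?_)
    simp [mul_smul, mul_assoc]
  rw [Finset.sum_congr rfl (fun b _ => h1 b), Finset.sum_comm]
  refine Finset.sum_congr rfl (fun c _ => ?_)
  rw [← Finset.sum_mul, he c]

theorem eop_comm [Fintype A] (e : A → k) {X Y : Type*} [MulAction A X] [MulAction A Y]
    (d : (X → k) →ₗ[k] (Y → k)) (hd : ∀ (a : A) (f : X → k), d (act k X a f) = act k Y a (d f)) (f : X → k) :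
    d (eop e X f) = eop e Y (d f) := by
  simp [eop, hd]

/-- trace of the idempotent on a free `A`-set -/
theorem trace_eop [Fintype A] (e : A → k) (X : Type*) [Fintype X] [MulAction A X]
    (hfree : ∀ (a : A) (x : X), a • x = x → a = 1) :
    LinearMap.trace k (X → k) (eop e X) = e 1 * (Fintype.card X : k) := by
  classical
  rw [LinearMap.trace_eq_matrix_trace k (Pi.basisFun k X)]
  unfold Matrix.trace
  have hdiag : ∀ x : X, (LinearMap.toMatrix (Pi.basisFun k X) (Pi.basisFun k X) (eop e X)).diag x
      = e 1 := by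
    intro x
    rw [Matrix.diag_apply, LinearMap.toMatrix_apply]
    simp only [Pi.basisFun_apply, Pi.basisFun_repr]
    rw [eop_apply, Finset.sum_eq_single (1 : A)]
    · simp
    · intro a _ ha
      have : a⁻¹ • x ≠ x := by
        intro h
        apply ha
        have := hfree a⁻¹ x h
        simpa using this
      simp [this]
    · simp
  rw [Finset.sum_congr rfl (fun x _ => hdiag x)]
  simp [mul_comm]

/-- rank of an idempotent = its trace -/
theorem finrank_range_eq_trace {W : Type*} [AddCommGroup W] [Module k W] [FiniteDimensional k W]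
    (f : W →ₗ[k] W) (hf : ∀ x, f (f x) = f x) :
    (finrank k (LinearMap.range f) : k) = LinearMap.trace k W f := by
  have hp : LinearMap.IsProj (LinearMap.range f) f :=
    ⟨fun x => ⟨x, rfl⟩, fun x hx => by obtain ⟨y, rfl⟩ := hx; exact hf y⟩
  exact (hp.trace).symm

/-- dimension of `e · k[A]` -/
noncomputable def cdim [Fintype A] (e : A → k) : ℕ := finrank k (LinearMap.range (eop e A))

theorem card_mul_finrank [CharZero k] [Fintype A] {e : A → k} (he : IsIdem e) (X : Type*)
    [Fintype X] [MulAction A X] (hfree : ∀ (a : A) (x : X), a • x = x → a = 1) :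
    Fintype.card A * finrank k (LinearMap.range (eop e X)) = cdim e * Fintype.card X := by
  have h1 := finrank_range_eq_trace (eop e X) (fun x => eop_eop he x)
  have h2 := finrank_range_eq_trace (eop e A) (fun x => eop_eop he x)
  rw [trace_eop e X hfree] at h1
  rw [trace_eop e A (fun a x h => by simpa using h)] at h2
  have : ((Fintype.card A * finrank k (LinearMap.range (eop e X)) : ℕ) : k) =
      ((cdim e * Fintype.card X : ℕ) : k) := by
    push_cast
    rw [h1]
    unfold cdim
    rw [h2]; ring
  exact_mod_cast this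

theorem one_mem_range [Fintype A] {e : A → k} :
    e ∈ LinearMap.range (eop e A) := by
  classical
  refine ⟨Pi.single 1 1, ?_⟩
  funext x
  rw [eop_apply, Finset.sum_eq_single x]
  · simp
  · intro a _ ha
    have : a⁻¹ * x ≠ (1 : A) := by
      intro h
      exact ha (inv_mul_eq_one.mp h)
    simp [this]
  · simp

theorem cdim_pos [Fintype A] {e : A → k} (h0 : e ≠ 0) : 0 < cdim e := by
  unfold cdim
  rw [finrank_pos_iff]
  exact ⟨⟨⟨e, one_mem_range⟩, 0, fun h => h0 (congrArg Subtype.val h)⟩⟩

/-- `e · ker d` -/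
noncomputable def eker [Fintype A] (e : A → k) {E V : Type*} [MulAction A E]
    (d : (E → k) →ₗ[k] (V → k)) : Submodule k (E → k) :=
  LinearMap.ker d ⊓ LinearMap.range (eop e E)

theorem mem_eker [Fintype A] {e : A → k} (he : IsIdem e) {E V : Type*} [MulAction A E]
    {d : (E → k) →ₗ[k] (V → k)} {f : E → k} :
    f ∈ eker e d ↔ d f = 0 ∧ eop e E f = f := by
  constructor
  · rintro ⟨h1, ⟨g, rfl⟩⟩
    exact ⟨h1, eop_eop he g⟩
  · rintro ⟨h1, h2⟩
    exact ⟨h1, ⟨f, h2⟩⟩

/-- functions on `V` supported in `V0`, as an `A`-set -/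
theorem range_eop_le [Fintype A] {e : A → k} {V : Type*} [Fintype V] [DecidableEq V]
    [MulAction A V] (V0 : Set V) (hV1 : ∀ v, v ∉ V0 → eop e V (Pi.single v 1) = 0)
    (f : V → k) (hf : ∀ v ∈ V0, f v = 0) : eop e V f = 0 := by
  have : f = ∑ v, f v • (Pi.single v (1 : k)) := by
    funext x
    simp [Finset.sum_apply, Pi.single_apply]
  rw [this, map_sum]
  refine Finset.sum_eq_zero (fun v _ => ?_)
  rw [map_smul]
  by_cases hv : v ∈ V0
  · rw [hf v hv, zero_smul]
  · rw [hV1 v hv, smul_zero]

/-- **C-RANK.** -/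
theorem rank_main [CharZero k] [Fintype A] {e : A → k} (he : IsIdem e)
    {E V : Type*} [Fintype E] [Fintype V] [MulAction A E] [MulAction A V]
    (hE : ∀ (a : A) (x : E), a • x = x → a = 1)
    (V0 : SubMulAction A V) (hV0 : ∀ (a : A) (x : V), x ∈ V0 → a • x = x → a = 1)
    (hV1 : ∀ [DecidableEq V], ∀ v, v ∉ V0 → eop e V (Pi.single v 1) = 0)
    (d : (E → k) →ₗ[k] (V → k)) (hd : ∀ (a : A) f, d (act k E a f) = act k V a (d f)) :
    cdim e * Fintype.card E ≤
      Fintype.card A * finrank k (eker e d) + cdim e * Nat.card V0 := by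
  classical
  have : Fintype V0 := Fintype.ofFinite _
  rw [Nat.card_eq_fintype_card]
  have hVfree : ∀ (a : A) (x : V0), a • x = x → a = 1 := by
    intro a x h
    exact hV0 a x.1 x.2 (by simpa using congrArg Subtype.val h)
  have c1 := card_mul_finrank he E hE
  have c2 := card_mul_finrank he V0 hVfree
  -- restriction of functions to `V0`
  let r : (V → k) →ₗ[k] (V0 → k) :=
    { toFun := fun f x => f x.1
      map_add' := fun _ _ => rfl
      map_smul' := fun _ _ => rfl }
  have hr : ∀ (a : A) (f : V → k), r (act k V a f) = act k V0 a (r f) := by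
    intro a f; funext x; simp [r]
  -- `φ = r ∘ d` restricted to `range (eop e E)` lands in `range (eop e V0)`
  have hmem : ∀ x : LinearMap.range (eop e E), r (d x.1) ∈ LinearMap.range (eop e V0) := by
    rintro ⟨x, ⟨f, rfl⟩⟩
    refine ⟨r (d f), ?_⟩
    have := eop_comm e (r ∘ₗ d) (fun a f => by simp [hd, hr]) f
    simpa using this.symm
  let φ : LinearMap.range (eop e E) →ₗ[k] LinearMap.range (eop e V0) :=
    LinearMap.codRestrict _ ((r ∘ₗ d) ∘ₗ (Submodule.subtype _)) hmem
  have hker : ∀ x : LinearMap.range (eop e E), φ x = 0 → d x.1 = 0 := by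
    rintro ⟨x, ⟨f, rfl⟩⟩ h
    have h' : r (d (eop e E f)) = 0 := congrArg Subtype.val h
    have h2 : eop e V (d (eop e E f)) = d (eop e E f) := by
      rw [← eop_comm e d hd, eop_eop he]
    show d (eop e E f) = 0
    rw [← h2]
    refine range_eop_le (V0 : Set V) (fun v hv => hV1 v hv) _ (fun v hv => ?_)
    exact congrFun h' ⟨v, hv⟩
  have hrn := LinearMap.finrank_range_add_finrank_ker φ
  have hle : finrank k (LinearMap.range φ) ≤ finrank k (LinearMap.range (eop e V0)) :=
    Submodule.finrank_le _
  have hk : finrank k (LinearMap.ker φ) ≤ finrank k (eker e d) := by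
    refine LinearMap.finrank_le_finrank_of_injective
      (f := LinearMap.codRestrict (eker e d)
        ((Submodule.subtype _) ∘ₗ (Submodule.subtype (LinearMap.ker φ))) ?_) ?_
    · rintro ⟨x, hx⟩
      exact ⟨hker x hx, x.2⟩
    · intro x y hxy
      have := congrArg Subtype.val hxy
      exact Subtype.ext (Subtype.ext this)
  have hA : 0 < Fintype.card A := Fintype.card_pos
  calc cdim e * Fintype.card E = Fintype.card A * finrank k (LinearMap.range (eop e E)) := c1.symm
    _ = Fintype.card A * (finrank k (LinearMap.range φ) + finrank k (LinearMap.ker φ)) := by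
        rw [hrn]
    _ ≤ Fintype.card A * (finrank k (LinearMap.range (eop e V0)) + finrank k (eker e d)) :=
        Nat.mul_le_mul_left _ (Nat.add_le_add hle hk)
    _ = _ := by rw [Nat.mul_add, c2]; ring

/-- the vertices with a stabiliser on which `e` is trivial are killed -/
theorem eop_single_eq_zero [CharZero k] [Fintype A] {e : A → k} {V : Type*} [DecidableEq V]
    [MulAction A V] (B : Subgroup A) [Fintype B] (v : V) (hB : ∀ b ∈ B, b • v = v)
    (heB : ∀ a : A, ∑ b : B, e (a * (b : A)) = 0) :
    eop e V (Pi.single v 1) = 0 := by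
  classical
  have key : ∀ b : B, eop e V (Pi.single v 1) = ∑ a, e (a * (b : A)) • act k V a (Pi.single v 1) := by
    intro b
    have h1 : eop e V (Pi.single v 1) = ∑ a, e a • act k V a (Pi.single v (1 : k)) := by
      simp [eop]
    rw [h1]
    refine (Fintype.sum_equiv (Equiv.mulRight (b : A)) _ _ (fun a => ?_)).symm
    simp only [Equiv.coe_mulRight]
    rw [act_single, act_single, mul_smul, hB b b.2]
  have h2 : (Fintype.card B : k) • eop e V (Pi.single v 1) = 0 := by
    have : (Fintype.card B : k) • eop e V (Pi.single v 1)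
        = ∑ _b : B, eop e V (Pi.single v 1) := by
      rw [Finset.sum_const, Finset.card_univ, Nat.cast_smul_eq_nsmul]
    rw [this, Finset.sum_congr rfl (fun b _ => key b), Finset.sum_comm]
    refine Finset.sum_eq_zero (fun a _ => ?_)
    rw [← Finset.sum_smul, heB a, zero_smul]
  have h3 : (Fintype.card B : k) ≠ 0 := by
    exact_mod_cast Fintype.card_ne_zero
  exact (smul_eq_zero.mp h2).resolve_left h3

/-- **C-RANK, consumer form**: `|E| = |A| nE`, `|V0| = |A| n0`: `dim e·ker d ≥ nE - n0`. -/
theorem rank_ge [CharZero k] [Fintype A] {e : A → k} (he : IsIdem e) (h0 : e ≠ 0)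
    {E V : Type*} [Fintype E] [Fintype V] [MulAction A E] [MulAction A V]
    (hE : ∀ (a : A) (x : E), a • x = x → a = 1)
    (V0 : SubMulAction A V) (hV0 : ∀ (a : A) (x : V), x ∈ V0 → a • x = x → a = 1)
    (hV1 : ∀ v, v ∉ V0 → ∃ (B : Subgroup A) (_ : Fintype B), (∀ b ∈ B, b • v = v) ∧
      ∀ a : A, ∑ b : B, e (a * (b : A)) = 0)
    (d : (E → k) →ₗ[k] (V → k)) (hd : ∀ (a : A) f, d (act k E a f) = act k V a (d f))
    (nE n0 : ℕ) (hnE : Fintype.card E = Fintype.card A * nE)
    (hn0 : Nat.card V0 = Fintype.card A * n0) :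
    nE ≤ finrank k (eker e d) + n0 := by
  classical
  have h := rank_main he hE V0 hV0
    (fun v hv => by
      obtain ⟨B, _, hB, hB'⟩ := hV1 v hv
      exact eop_single_eq_zero B v hB hB') d hd
  rw [hnE, hn0] at h
  have hA : 0 < Fintype.card A := Fintype.card_pos
  have hc := cdim_pos h0
  have h' : cdim e * nE ≤ finrank k (eker e d) + cdim e * n0 := by
    have : Fintype.card A * (cdim e * nE) ≤
        Fintype.card A * (finrank k (eker e d) + cdim e * n0) := by
      calc Fintype.card A * (cdim e * nE) = cdim e * (Fintype.card A * nE) := by ring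
        _ ≤ _ := h
        _ = _ := by ring
    exact Nat.le_of_mul_le_mul_left this hA
  -- divide by `cdim e ≥ 1`
  by_contra hlt
  push Not at hlt
  have h1 : finrank k (eker e d) + n0 + 1 ≤ nE := hlt
  have h2 : cdim e * (finrank k (eker e d) + n0 + 1) ≤ cdim e * nE := Nat.mul_le_mul_left _ h1
  have h3 : finrank k (eker e d) ≤ cdim e * finrank k (eker e d) := Nat.le_mul_of_pos_left _ hc
  nlinarith

end Crest.Agent.R013.Rank_770
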