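import Crest.Agent.R013.CY7_957
import Crest.Agent.R013.Rank_770

/-!
# R013 / CY8 (helper957): the covering group acts on vertices and edges of `Y`; counting; the rank
-/

set_option autoImplicit false
set_option linter.unusedSectionVars false
set_option linter.style.haveILetI false

namespace Crest.Agent.R013.CY_957

open scoped NNReal
open Module WithZero
open Crest.NumberTheoryR.Sect
open Crest.Agent.R013.RR7_948 Crest.Agent.R013.Cell_408 Crest.Agent.R013.EE809
open Crest.Agent.R013.SSK_332 Crest.Agent.R013.Inh_770 Crest.Agent.R013.Red332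
open Crest.Agent.R013.TopE1_957 Crest.Agent.R013.TopE4_957 Crest.Agent.R013.TopE7_957
open Crest.Agent.R013.Desc_372 Crest.Agent.R013.DEm_719 Crest.Agent.R013.DEm_719.GalAct
open Crest.Agent.R013.Kumv2_275

variable {k C : Type*} [NontriviallyNormedField k] [CompleteSpace k] [IsUltrametricDist k]
  [NormedField C] [IsUltrametricDist C] [NormedAlgebra k C] [Algebra.IsAlgebraic k C]
  [IsAlgClosed C] [hk : Fact (DiscNorm k)]

section act

variable {K1 Y : Type*} [Field K1] [Field Y] [Algebra C K1] [Algebra C Y] [Algebra K1 Y]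
  [IsScalarTower C K1 Y] [FiniteDimensional K1 Y] [IsGalois K1 Y]
  [Algebra (RatFunc C) K1] [IsScalarTower C (RatFunc C) K1]
  [FiniteDimensional (RatFunc C) K1] [Algebra.IsSeparable (RatFunc C) K1]
  {S : SSK k C K1} (PY : Spl S Y) {A : Type*} [Group A] (ρ : A →* (Y ≃ₐ[K1] Y))

/-- the action of the Galois group on the edges (770) -/
@[reducible] noncomputable def actEd : MulAction (Y ≃ₐ[K1] Y) PY.inh.Ed := PY.actE PY.ffL

/-- the covering group acts on the vertices -/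
@[reducible] noncomputable def mV : MulAction A PY.inh.V :=
  @MulAction.compHom (Y ≃ₐ[K1] Y) A PY.inh.V _ (actV PY) _ ρ

/-- the covering group acts on the edges -/
@[reducible] noncomputable def mE : MulAction A PY.inh.Ed :=
  @MulAction.compHom (Y ≃ₐ[K1] Y) A PY.inh.Ed _ (actEd PY) _ ρ

theorem mV_smul (a : A) (w : PY.inh.V) :
    letI := mV PY ρ
    a • w = (actV PY).toSMul.smul (ρ a) w := rfl

theorem nm_mV (a : A) (w : PY.inh.V) (f : Y) :
    letI := mV PY ρ
    (PY.inh.nm (a • w)).v (ρ a f) = (PY.inh.nm w).v f := nm_smul PY (ρ a) w f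

theorem mV_eq_iff (a : A) (w w' : PY.inh.V) :
    letI := mV PY ρ
    a • w = w' ↔ ∀ f, (PY.inh.nm w').v (ρ a f) = (PY.inh.nm w).v f := smul_eq_iff PY (ρ a) w w'

theorem em_e0_mE (a : A) (e : PY.inh.Ed) (f : Y) :
    letI := mE PY ρ
    PY.inh.em (PY.inh.e0 (a • e)) (ρ a f) = PY.inh.em (PY.inh.e0 e) f :=
  PY.em_e0_act PY.ffL (ρ a) e f

theorem em_e1_mE (a : A) (e : PY.inh.Ed) (f : Y) :
    letI := mE PY ρ
    PY.inh.em (PY.inh.e1 (a • e)) (ρ a f) = PY.inh.em (PY.inh.e1 e) f :=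
  PY.em_e1_act PY.ffL (ρ a) e f

theorem od_e0_mE (a : A) (e : PY.inh.Ed) (f : Y) (hf : f ≠ 0) :
    letI := mE PY ρ
    Red332.od (PY.inh.nm (PY.inh.e0 (a • e)).1) (PY.inh.e0 (a • e)).2 (ρ a f) =
      Red332.od (PY.inh.nm (PY.inh.e0 e).1) (PY.inh.e0 e).2 f :=
  PY.od_e0_act PY.ffL (ρ a) e f hf

theorem od_e1_mE (a : A) (e : PY.inh.Ed) (f : Y) (hf : f ≠ 0) :
    letI := mE PY ρ
    Red332.od (PY.inh.nm (PY.inh.e1 (a • e)).1) (PY.inh.e1 (a • e)).2 (ρ a f) =
      Red332.od (PY.inh.nm (PY.inh.e1 e).1) (PY.inh.e1 e).2 f :=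
  PY.od_e1_act PY.ffL (ρ a) e f hf

theorem free_mE (hρ : Function.Injective ρ) (a : A) (e : PY.inh.Ed)
    (h : (mE PY ρ).toSMul.smul a e = e) : a = 1 := by
  apply hρ
  rw [map_one]
  exact PY.act_free PY.ffL (ρ a) e h

theorem card_Ed_top : Nat.card PY.inh.Ed = finrank K1 Y * Nat.card S.Ed := PY.card_Ed PY.ffL

end act

section count

variable {κ M K1 K Y₀ Y : Type*} [Field κ] [Field M] [Field K1] [Field K] [Field Y₀] [Field Y]
  [Algebra k κ] [Algebra κ C] [IsScalarTower k κ C]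
  [Algebra κ M] [Algebra κ K] [Algebra κ Y₀] [Algebra κ Y]
  [Algebra C K1] [Algebra C K] [Algebra C Y] [Algebra K1 K] [Algebra K1 Y] [Algebra K Y]
  [Algebra M K] [Algebra M Y₀] [Algebra M Y] [Algebra Y₀ Y]
  [IsScalarTower C K1 K] [IsScalarTower C K1 Y] [IsScalarTower C K Y] [IsScalarTower K1 K Y]
  [IsScalarTower κ C K] [IsScalarTower κ M K] [IsScalarTower κ C Y] [IsScalarTower κ Y₀ Y]
  [IsScalarTower M K Y] [IsScalarTower M Y₀ Y]
  [FiniteDimensional K1 K] [IsGalois K1 K] [FiniteDimensional K1 Y] [IsGalois K1 Y]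
  [FiniteDimensional K Y] [IsGalois K Y]
  [Algebra (RatFunc C) K1] [IsScalarTower C (RatFunc C) K1]
  [FiniteDimensional (RatFunc C) K1] [Algebra.IsSeparable (RatFunc C) K1]
  [CE κ C M K] [CE κ C Y₀ Y] {S : SSK k C K1} (P : Spl S K) (PY : Spl S Y)

/-- `a` fixes the vertex `w` of `K` -/
def Fix {K1 K : Type*} [Field K1] [Field K] [Algebra K1 K] {C : Type*} [NormedField C]
    [IsUltrametricDist C] [Algebra C K] (a : K ≃ₐ[K1] K) (w : Nm C K) : Prop :=
  ∀ f, w.v (a f) = w.v f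

variable (hs : ∀ w : Valuation Y ℝ≥0, (∀ c : C, w (algebraMap C Y c) ≤ ‖c‖₊) →
    SplitAt (w.comap (algebraMap M Y)) Y₀)
  (ρ : (K ≃ₐ[K1] K) →* (Y ≃ₐ[K1] Y))
  (hρ : ∀ a (f : K), ρ a (algebraMap K Y f) = algebraMap K Y (a f))
  (hcomm : ∀ a (τ : Y ≃ₐ[K] Y) f, ρ a (τ f) = τ (ρ a f))
  (hcop : (finrank K Y).Coprime (finrank K1 K))

variable (κ) in
include κ hs hρ hcomm hcop in
/-- stabilisers of vertices -/
theorem fix_iff (a : K ≃ₐ[K1] K) (w : PY.inh.V) :
    Fix (ρ a) (PY.inh.nm w) ↔ Fix a (P.inh.nm (vY P PY w)) := by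
  constructor
  · intro h f
    rw [← nm_vY, ← nm_vY, ← hρ]
    exact h _
  · intro h
    refine stab_top κ (M := M) (Y₀ := Y₀) hs ρ hρ hcomm hcop (PY.inh.nm w) a fun f => ?_
    rw [nm_vY P PY, nm_vY P PY]
    exact h f

omit [FiniteDimensional K1 Y] [IsGalois K1 Y] [FiniteDimensional K Y] [IsGalois K Y] in
/-- trivial stabilisers are constant on the fibres over the vertices of `K1` -/
theorem fix_conj (w w' : P.inh.V) (h : vI P w = vI P w')
    (hw : ∀ a : K ≃ₐ[K1] K, Fix a (P.inh.nm w) → a = 1) (a : K ≃ₐ[K1] K)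
    (ha : Fix a (P.inh.nm w')) : a = 1 := by
  obtain ⟨g, hg⟩ := exists_smul_eq P w w' h
  rw [smul_eq_iff] at hg
  have h1 : g⁻¹ * a * g = 1 := by
    apply hw
    intro f
    have h2 := hg ((g⁻¹ * a * g) f)
    rw [← h2, ← AlgEquiv.mul_apply, ← mul_assoc, ← mul_assoc, mul_inv_cancel, one_mul,
      AlgEquiv.mul_apply, ha, hg]
  have h3 : a = g * (g⁻¹ * a * g) * g⁻¹ := by group
  rw [h3, h1, mul_one, mul_inv_cancel]

variable (κ) in
include κ hs in
/-- `Gal(Y/K1)` acts freely on the vertices of `Y` over the vertices of `K` with trivial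
stabilisers -/
theorem free_V (w : PY.inh.V) (hw : ∀ a : K ≃ₐ[K1] K, Fix a (P.inh.nm (vY P PY w)) → a = 1)
    (g : Y ≃ₐ[K1] Y) (hg : ∀ f, (PY.inh.nm w).v (g f) = (PY.inh.nm w).v f) : g = 1 := by
  have h1 : AlgEquiv.restrictNormalHom K g = 1 := by
    apply hw
    intro f
    rw [← nm_vY, ← nm_vY]
    have h2 : algebraMap K Y (AlgEquiv.restrictNormalHom K g f) = g (algebraMap K Y f) :=
      AlgEquiv.restrictNormal_commutes g K f
    rw [h2]
    exact hg _
  have hgK : ∀ f : K, g (algebraMap K Y f) = algebraMap K Y f := fun f => by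
    rw [← AlgEquiv.restrictNormal_commutes g K f]
    have : g.restrictNormal K = 1 := h1
    rw [this]; rfl
  let τ : Y ≃ₐ[K] Y := AlgEquiv.ofRingEquiv (f := g.toRingEquiv) hgK
  have h3 : τ = 1 := free_top κ (M := M) (Y₀ := Y₀) hs (PY.inh.nm w) τ hg
  ext f
  exact congrArg (fun t : Y ≃ₐ[K] Y => t f) h3

/-- the vertices of `K1` over which the stabilisers are trivial -/
def Triv : Set S.V := {v | ∃ w : P.inh.V, vI P w = v ∧ ∀ a : K ≃ₐ[K1] K,
  Fix a (P.inh.nm w) → a = 1}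

omit [FiniteDimensional K Y] [IsGalois K Y] in
theorem vI_surj : Function.Surjective (vI PY) := PY.vK_surj PY.ffL

/-- the vertices of `Y` on which the covering group acts freely -/
noncomputable def V0 : letI := mV PY ρ; SubMulAction (K ≃ₐ[K1] K) PY.inh.V :=
  letI := mV PY ρ
  { carrier := {w | ∀ a : K ≃ₐ[K1] K, Fix (ρ a) (PY.inh.nm w) → a = 1}
    smul_mem' := fun a w hw b hb => by
      have h1 : a⁻¹ * b * a = 1 := by
        apply hw
        intro f
        have h2 : ∀ f, (PY.inh.nm (a • w)).v (ρ a f) = (PY.inh.nm w).v f := nm_mV PY ρ a w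
        rw [← h2, ← AlgEquiv.mul_apply, ← map_mul, ← mul_assoc, ← mul_assoc, mul_inv_cancel,
          one_mul, map_mul, AlgEquiv.mul_apply, hb, h2]
      have h3 : b = a * (a⁻¹ * b * a) * a⁻¹ := by group
      rw [h3, h1, mul_one, mul_inv_cancel] }

variable (κ) in
include κ hs hρ hcomm hcop in
/-- **the number of vertices with trivial stabilisers** -/
theorem card_V0 : letI := mV PY ρ
    Nat.card (V0 PY ρ) = Nat.card (K ≃ₐ[K1] K) * (finrank K Y * Nat.card (Triv P)) := by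
  classical
  letI := mV PY ρ
  have hfix := fix_iff κ P PY hs ρ hρ hcomm hcop
  have hbase : ∀ v : Triv P, ∃ w : PY.inh.V, vI PY w = v := fun v => vI_surj PY v
  choose b hb using hbase
  have hT : ∀ (w : PY.inh.V), vI PY w ∈ Triv P →
      ∀ a : K ≃ₐ[K1] K, Fix a (P.inh.nm (vY P PY w)) → a = 1 := by
    rintro w ⟨w', hw', hw''⟩
    exact fix_conj P w' _ (by rw [hw', vI_vY]) hw''
  have hmem : ∀ (v : Triv P) (g : Y ≃ₐ[K1] Y),
      (actV PY).toSMul.smul g (b v) ∈ V0 PY ρ := by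
    intro v g a ha
    rw [hfix] at ha
    refine hT _ ?_ a ha
    rw [vI_smul, hb]
    exact v.2
  let φ : Triv P × (Y ≃ₐ[K1] Y) → V0 PY ρ := fun q => ⟨_, hmem q.1 q.2⟩
  have hφ : Function.Bijective φ := by
    constructor
    · rintro ⟨v, g⟩ ⟨v', g'⟩ h
      have h1 : (actV PY).toSMul.smul g (b v) = (actV PY).toSMul.smul g' (b v') :=
        congrArg Subtype.val h
      have h2 : v = v' := by
        have h3 := congrArg (vI PY) h1
        rw [vI_smul, vI_smul, hb, hb] at h3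
        exact Subtype.ext h3
      subst h2
      have h4 : g'⁻¹ * g = 1 := by
        refine free_V κ (M := M) (Y₀ := Y₀) P PY hs (b v) (hT _ (by rw [hb]; exact v.2)) _
          fun f => ?_
        have h5 := nm_smul PY g' (b v) ((g'⁻¹ * g) f)
        rw [← h5, ← h1, ← AlgEquiv.mul_apply, mul_inv_cancel_left, nm_smul]
      rw [inv_mul_eq_one] at h4
      rw [h4]
    · rintro ⟨w, hw⟩
      have h1 : vI PY w ∈ Triv P := by
        refine ⟨vY P PY w, vI_vY P PY w, fun a ha => hw a ?_⟩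
        rw [hfix]
        exact ha
      obtain ⟨g, hg⟩ := exists_smul_eq PY (b ⟨_, h1⟩) w (hb _)
      exact ⟨(⟨_, h1⟩, g), Subtype.ext hg⟩
  rw [← Nat.card_eq_of_bijective φ hφ, Nat.card_prod, IsGalois.card_aut_eq_finrank,
    IsGalois.card_aut_eq_finrank, ← finrank_mul_finrank K1 K Y]
  ring

end count

end Crest.Agent.R013.CY_957
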