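import Mathlib
import Crest.Agent.R013.CntP2_127
/-
ROW 13, leaf CARTC (helper359), file 1: residue field side.

`span_rep` : κ of char p, generated by a perfect subfield κc, t and an element zb separable over κc(t): every element of κ
is Σ_{i<p} y_i^p t^i.
`car_*` : an operator CO with CO (Σ y_i^p t^i) = y_(p-1) satisfies all Cartier axioms with respect to the derivation with Δ t = 1.
-/
set_option autoImplicit false
set_option linter.unusedSectionVars false

namespace Crest.Agent.R013.CartC_359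

open Polynomial Finset

section Span

variable {κ : Type*} [Field κ] (p : ℕ) [hp : Fact p.Prime] [CharP κ p]

/-- representation property -/
def Rep (t f : κ) : Prop := ∃ y : ℕ → κ, f = ∑ i ∈ range p, y i ^ p * t ^ i

variable {p}

theorem Rep.add {t a b : κ} (ha : Rep p t a) (hb : Rep p t b) : Rep p t (a + b) := by
  obtain ⟨f, rfl⟩ := ha
  obtain ⟨g, rfl⟩ := hb
  refine ⟨fun i => f i + g i, ?_⟩
  rw [← sum_add_distrib]
  refine sum_congr rfl fun i _ => ?_
  rw [add_pow_char, add_mul]

theorem rep_mono (t f : κ) (n : ℕ) : Rep p t (f ^ p * t ^ n) := by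
  refine ⟨fun i => if i = n % p then f * t ^ (n / p) else 0, ?_⟩
  rw [sum_eq_single (n % p)]
  · simp only [if_true]
    rw [mul_pow, ← pow_mul, mul_assoc, ← pow_add, Nat.div_add_mod']
  · intro i _ hi
    simp only [if_neg hi]
    rw [zero_pow hp.out.ne_zero, zero_mul]
  · intro h
    exact absurd (mem_range.mpr (Nat.mod_lt _ hp.out.pos)) h

theorem rep_pow (t f : κ) : Rep p t (f ^ p) := by
  have := rep_mono (p := p) t f 0
  rwa [pow_zero, mul_one] at this

theorem Rep.sum {ι : Type*} {t : κ} (s : Finset ι) (f : ι → κ) (h : ∀ i ∈ s, Rep p t (f i)) :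
    Rep p t (∑ i ∈ s, f i) := by
  classical
  induction s using Finset.induction_on with
  | empty =>
    rw [sum_empty]
    have := rep_pow (p := p) t 0
    rwa [zero_pow hp.out.ne_zero] at this
  | insert a s ha ih =>
    rw [sum_insert ha]
    exact (h a (mem_insert_self _ _)).add (ih (fun i hi => h i (mem_insert_of_mem hi)))

theorem Rep.mul {t a b : κ} (ha : Rep p t a) (hb : Rep p t b) : Rep p t (a * b) := by
  obtain ⟨f, rfl⟩ := ha
  obtain ⟨g, rfl⟩ := hb
  rw [sum_mul_sum]
  refine Rep.sum _ _ (fun i _ => Rep.sum _ _ (fun j _ => ?_))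
  have : f i ^ p * t ^ i * (g j ^ p * t ^ j) = (f i * g j) ^ p * t ^ (i + j) := by
    rw [mul_pow, pow_add]; ring
  rw [this]
  exact rep_mono _ _ _

theorem Rep.inv {t a : κ} (ha : Rep p t a) : Rep p t a⁻¹ := by
  rcases eq_or_ne a 0 with rfl | h0
  · rw [inv_zero]
    have := rep_pow (p := p) t 0
    rwa [zero_pow hp.out.ne_zero] at this
  have hpow : ∀ n : ℕ, Rep p t (a ^ n) := by
    intro n
    induction n with
    | zero =>
      rw [pow_zero]
      have := rep_pow (p := p) t 1
      rwa [one_pow] at this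
    | succ n ih => rw [pow_succ]; exact ih.mul ha
  have h1 : a⁻¹ = a ^ (p - 1) * (a⁻¹) ^ p := by
    obtain ⟨q, hq⟩ : ∃ q, p = q + 1 := ⟨p - 1, by have := hp.out.pos; omega⟩
    rw [hq, Nat.add_sub_cancel, pow_succ, ← mul_assoc, ← mul_pow, mul_inv_cancel₀ h0, one_pow,
      one_mul]
  rw [h1]
  exact (hpow _).mul (rep_pow _ _)

omit [CharP κ p] in
theorem rep_neg_one [CharP κ p] (t : κ) : Rep p t (-1 : κ) := by
  have h := rep_pow (p := p) t (-1 : κ)
  rcases hp.out.eq_two_or_odd' with h2 | h2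
  · have h4 : (2 : κ) = 0 := by
      have := CharP.cast_eq_zero κ p
      rw [h2] at this
      exact_mod_cast this
    have : (-1 : κ) = 1 := by
      rw [neg_eq_iff_add_eq_zero, one_add_one_eq_two]
      exact h4
    rw [this]
    have := rep_pow (p := p) t 1
    rwa [one_pow] at this
  · rwa [h2.neg_one_pow] at h

/-- the subfield of representable elements -/
def repField (t : κ) : Subfield κ where
  carrier := {f | Rep p t f}
  mul_mem' := fun ha hb => Rep.mul ha hb
  one_mem' := by
    have := rep_pow (p := p) t 1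
    rwa [one_pow] at this
  add_mem' := fun ha hb => Rep.add ha hb
  zero_mem' := by
    have := rep_pow (p := p) t 0
    rwa [zero_pow hp.out.ne_zero] at this
  neg_mem' := by
    intro x hx
    have h1 : Rep p t (-1 : κ) := rep_neg_one t
    have : -x = (-1) * x := by ring
    rw [this]
    exact h1.mul hx
  inv_mem' := fun _ hx => Rep.inv hx

theorem mem_repField {t f : κ} : f ∈ repField (p := p) t ↔ Rep p t f := Iff.rfl

/-- an element separable over a subfield which contains its p-th power is in the subfield. -/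
theorem mem_of_separable_pow (E : Subfield κ) (zb : κ) (M : κ[X]) (hMc : ∀ i, M.coeff i ∈ E)
    (hMz : eval zb M = 0) (hM' : eval zb (derivative M) ≠ 0) (hpz : zb ^ p ∈ E) : zb ∈ E := by
  have hl : M ∈ Polynomial.lifts (algebraMap E κ) := by
    rw [Polynomial.lifts_iff_coeff_lifts]
    intro i
    exact ⟨⟨M.coeff i, hMc i⟩, rfl⟩
  obtain ⟨N, hN⟩ := (Polynomial.mem_lifts _).mp hl
  have hNz : aeval zb N = 0 := by
    rw [aeval_def, ← eval_map, hN, hMz]
  have hN' : aeval zb (derivative N) ≠ 0 := by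
    rw [aeval_def, ← eval_map, ← derivative_map, hN]
    exact hM'
  have hN0 : N ≠ 0 := by
    rintro rfl
    simp at hN'
  have hint : IsIntegral E zb := by
    apply IsAlgebraic.isIntegral
    exact ⟨N, hN0, hNz⟩
  have hsep : IsSeparable E zb := by
    rw [IsSeparable, separable_iff_derivative_ne_zero (minpoly.irreducible hint)]
    intro h0
    obtain ⟨q, hq⟩ := minpoly.dvd E zb hNz
    apply hN'
    rw [hq, derivative_mul, map_add, map_mul, map_mul, minpoly.aeval, zero_mul, add_zero, h0,
      map_zero, zero_mul]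
  have : CharP E p := ((algebraMap E κ).charP_iff (algebraMap E κ).injective p).mpr inferInstance
  have : ExpChar E p := ExpChar.prime hp.out
  have h1 := IntermediateField.adjoin_simple_eq_adjoin_pow_expChar_of_isSeparable E κ hsep p
  have h2 : zb ∈ IntermediateField.adjoin E {zb ^ p} := by
    rw [← h1]
    exact IntermediateField.mem_adjoin_simple_self E zb
  have h3 : IntermediateField.adjoin E {zb ^ p} = ⊥ := by
    rw [IntermediateField.adjoin_simple_eq_bot_iff]
    exact IntermediateField.mem_bot.mpr ⟨⟨zb ^ p, hpz⟩, rfl⟩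
  rw [h3, IntermediateField.mem_bot] at h2
  obtain ⟨y, hy⟩ := h2
  rw [← hy]
  exact y.2

/-- SPAN LEMMA -/
theorem span_rep (κc : Subfield κ) (hperf : ∀ a ∈ κc, ∃ b : κ, a = b ^ p) (t zb : κ)
    (M : κ[X]) (hMc : ∀ i, M.coeff i ∈ Subfield.closure ((κc : Set κ) ∪ {t}))
    (hMz : eval zb M = 0) (hM' : eval zb (derivative M) ≠ 0)
    (hgen : Subfield.closure ((κc : Set κ) ∪ {t, zb}) = ⊤) (f : κ) : Rep p t f := by
  have h1 : Subfield.closure ((κc : Set κ) ∪ {t}) ≤ repField (p := p) t := by
    rw [Subfield.closure_le]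
    rintro x (hx | hx)
    · obtain ⟨b, rfl⟩ := hperf x hx
      exact rep_pow t b
    · rw [Set.mem_singleton_iff] at hx
      subst hx
      have := rep_mono (p := p) x 1 1
      rw [one_pow, one_mul, pow_one] at this
      exact this
  have h2 : zb ∈ repField (p := p) t :=
    mem_of_separable_pow (p := p) _ zb M (fun i => h1 (hMc i)) hMz hM' (rep_pow t zb)
  have h3 : Subfield.closure ((κc : Set κ) ∪ {t, zb}) ≤ repField (p := p) t := by
    rw [Subfield.closure_le]
    rintro x (hx | hx)
    · exact h1 (Subfield.subset_closure (Or.inl hx))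
    · rcases hx with rfl | hx
      · exact h1 (Subfield.subset_closure (Or.inr rfl))
      · rw [Set.mem_singleton_iff] at hx
        rw [hx]; exact h2
  have h4 : f ∈ Subfield.closure ((κc : Set κ) ∪ {t, zb}) := by rw [hgen]; trivial
  exact h3 h4

end Span

theorem exists_delta {κ : Type*} [Field κ] {p : ℕ} [hp : Fact p.Prime] (Δ : Derivation ℤ κ κ)
    [Algebra (ZMod p) κ] :
    ∃ δ : Derivation (ZMod p) κ κ, ∀ x, δ x = Δ x :=
  ⟨Derivation.mk' (AddMonoidHom.toZModLinearMap p (Δ : κ →+ κ)) (fun a b => Δ.leibniz a b),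
    fun _ => rfl⟩

section Car

variable {κ : Type*} [Field κ] {p : ℕ} [hp : Fact p.Prime] [CharP κ p]
  (Δ : Derivation ℤ κ κ) {t : κ} (ht : Δ t = 1) (hspan : ∀ f : κ, Rep p t f)
  (CO : κ → κ) (hCO : ∀ y : ℕ → κ, CO (∑ i ∈ range p, y i ^ p * t ^ i) = y (p - 1))

include hspan hCO

theorem car_add (a b : κ) : CO (a + b) = CO a + CO b := by
  obtain ⟨f, rfl⟩ := hspan a
  obtain ⟨g, rfl⟩ := hspan b
  rw [hCO, hCO, ← hCO (fun i => f i + g i)]
  congr 1
  rw [← sum_add_distrib]
  exact sum_congr rfl fun i _ => by rw [add_pow_char, add_mul]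

theorem car_pow (y f : κ) : CO (y ^ p * f) = y * CO f := by
  obtain ⟨g, rfl⟩ := hspan f
  rw [hCO, ← hCO (fun i => y * g i)]
  congr 1
  rw [mul_sum]
  exact sum_congr rfl fun i _ => by rw [mul_pow, mul_assoc]



omit hCO in
include ht in
theorem exists_pow_of_delta (f : κ) (hf : Δ f = 0) : ∃ g : κ, f = g ^ p := by
  let _ : Algebra (ZMod p) κ := ZMod.algebra κ p
  obtain ⟨δ, hδ⟩ := exists_delta (p := p) Δ
  exact CntP2_127.exists_pow_of_del_eq_zero p δ (x := t) (by rw [hδ, ht]) hspan (by rw [hδ, hf])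

include ht

/-- `(CO f)^p = - Δ^(p-1) f` -/
theorem car_pow_eq (f : κ) : CO f ^ p = - Δ^[p - 1] f := by
  let _ : Algebra (ZMod p) κ := ZMod.algebra κ p
  obtain ⟨δ, hδ⟩ := exists_delta (p := p) Δ
  have hit : ∀ n x, δ^[n] x = Δ^[n] x := by
    intro n x
    have : (δ : κ → κ) = Δ := funext hδ
    rw [this]
  obtain ⟨y, rfl⟩ := hspan f
  rw [hCO, ← hit, CntP2_127.iter_sum]
  have hx : δ t = 1 := by rw [hδ, ht]
  have hp1 : p - 1 + 1 = p := Nat.sub_add_cancel hp.out.pos
  have hr : range p = range (p - 1 + 1) := by rw [hp1]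
  rw [hr, sum_range_succ, sum_eq_zero, zero_add, CntP2_127.iter_pow_mul,
    CntP2_127.iter_x_pow δ hx, Nat.descFactorial_self, Nat.sub_self, pow_zero, mul_one]
  · have hw : (((p - 1).factorial : ℕ) : κ) = -1 := by
      have := ZMod.wilsons_lemma p
      have h6 := congrArg (ZMod.castHom (dvd_refl p) κ) this
      rw [map_natCast, map_neg, map_one] at h6
      exact h6
    rw [hw]
    ring
  · intro i hi
    rw [mem_range] at hi
    rw [CntP2_127.iter_pow_mul, CntP2_127.iter_x_pow δ hx, Nat.descFactorial_of_lt hi]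
    simp

theorem car_exact (f : κ) : CO (Δ f) = 0 := by
  let _ : Algebra (ZMod p) κ := ZMod.algebra κ p
  obtain ⟨δ, hδ⟩ := exists_delta (p := p) Δ
  have hp1 : p - 1 + 1 = p := Nat.sub_add_cancel hp.out.pos
  have h1 := car_pow_eq Δ ht hspan CO hCO (Δ f)
  have h2 : Δ^[p - 1] (Δ f) = 0 := by
    rw [← Function.iterate_succ_apply, Nat.succ_eq_add_one, hp1]
    have h3 := CntP2_127.iter_p p δ (x := t) (by rw [hδ, ht]) hspan f
    have : (δ : κ → κ) = Δ := funext hδ
    rwa [this] at h3
  rw [h2, neg_zero] at h1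
  exact pow_eq_zero_iff hp.out.ne_zero |>.mp h1

theorem car_log (f : κ) : CO (f ^ (p - 1) * Δ f) = Δ f := by
  let _ : Algebra (ZMod p) κ := ZMod.algebra κ p
  obtain ⟨δ, hδ⟩ := exists_delta (p := p) Δ
  have h1 := car_pow_eq Δ ht hspan CO hCO (f ^ (p - 1) * Δ f)
  have h3 := CntP2_127.cartier p δ (x := t) (by rw [hδ, ht]) hspan f
  have h4 : (δ : κ → κ) = Δ := funext hδ
  rw [h4] at h3
  rw [h3, neg_neg] at h1
  exact frobenius_inj κ p (by rw [frobenius_def, frobenius_def, h1])

end Car

end Crest.Agent.R013.CartC_359
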