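import Crest.Agent.R013.Chart2_359
/-
ROW 13, leaf CARTC (helper359), file 2: levels.  K a field with a valuation v, L a subfield of constants, T Gauss over L, z etale over L(T).
-/
set_option autoImplicit false
set_option linter.unusedSectionVars false

namespace Crest.Agent.R013.CartC_359

open Polynomial Crest.Agent.R013.Chart_359

variable {K Γ₀ : Type*} [Field K] [LinearOrderedCommGroupWithZero Γ₀]

/-- `L` = subfield of constants, `T` has the Gauss property over `L`, `z` is a root of the monic polynomial `M` with `v`-integral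
coefficients in `L(T)` and `v (M'(z)) = 1`. -/
structure Level (v : Valuation K Γ₀) (L : Subfield K) (T z : K) (M : K[X]) : Prop where
  T_le : v T ≤ 1
  gauss : ∀ A : L[X], ∀ i, v (A.coeff i : K) ≤ v (aeval T A)
  monic : M.Monic
  coeff_mem : ∀ i, M.coeff i ∈ Subfield.closure ((L : Set K) ∪ {T})
  coeff_le : ∀ i, v (M.coeff i) ≤ 1
  root : eval z M = 0
  unit : v (eval z (derivative M)) = 1

/-- `L(T)` -/
abbrev FL (L : Subfield K) (T : K) : Subfield K := Subfield.closure ((L : Set K) ∪ {T})

/-- `L(T,z)` -/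
abbrev KL (L : Subfield K) (T z : K) : Subfield K := Subfield.closure ((L : Set K) ∪ {T, z})

theorem FL_le_KL (L : Subfield K) (T z : K) : FL L T ≤ KL L T z := by
  rw [Subfield.closure_le]
  rintro x (hx | hx)
  · exact Subfield.subset_closure (Or.inl hx)
  · rw [Set.mem_singleton_iff] at hx
    subst hx
    exact Subfield.subset_closure (Or.inr (Or.inl rfl))

theorem L_le_FL (L : Subfield K) (T : K) : L ≤ FL L T :=
  fun _ hx => Subfield.subset_closure (Or.inl hx)

theorem T_mem_FL (L : Subfield K) (T : K) : T ∈ FL L T := Subfield.subset_closure (Or.inr rfl)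

theorem z_mem_KL (L : Subfield K) (T z : K) : z ∈ KL L T z :=
  Subfield.subset_closure (Or.inr (Or.inr rfl))

theorem KL_mono {L L' : Subfield K} (h : L ≤ L') (T z : K) : KL L T z ≤ KL L' T z :=
  Subfield.closure_mono (Set.union_subset_union_left _ h)

theorem FL_mono {L L' : Subfield K} (h : L ≤ L') (T : K) : FL L T ≤ FL L' T :=
  Subfield.closure_mono (Set.union_subset_union_left _ h)

theorem mem_FL {L : Subfield K} {T x : K} (hx : x ∈ FL L T) :
    ∃ A B : L[X], aeval T B ≠ 0 ∧ x = aeval T A / aeval T B := by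
  induction hx using Subfield.closure_induction with
  | mem x hx =>
    rcases hx with hx | hx
    · exact ⟨C ⟨x, hx⟩, 1, by simp, by rw [aeval_C, map_one, div_one]; rfl⟩
    · rw [Set.mem_singleton_iff] at hx
      subst hx
      exact ⟨X, 1, by simp, by simp⟩
  | one => exact ⟨1, 1, by simp, by simp⟩
  | add x y _ _ hx hy =>
    obtain ⟨A, B, hB, rfl⟩ := hx
    obtain ⟨A', B', hB', rfl⟩ := hy
    refine ⟨A * B' + A' * B, B * B', by rw [map_mul]; exact mul_ne_zero hB hB', ?_⟩
    rw [map_add, map_mul, map_mul, map_mul, div_add_div _ _ hB hB']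
    ring_nf
  | neg x _ hx =>
    obtain ⟨A, B, hB, rfl⟩ := hx
    exact ⟨-A, B, hB, by rw [map_neg, neg_div]⟩
  | inv x _ hx =>
    obtain ⟨A, B, hB, rfl⟩ := hx
    by_cases hA : aeval T A = 0
    · exact ⟨0, 1, by simp, by rw [hA]; simp⟩
    · exact ⟨B, A, hA, by rw [inv_div]⟩
  | mul x y _ _ hx hy =>
    obtain ⟨A, B, hB, rfl⟩ := hx
    obtain ⟨A', B', hB', rfl⟩ := hy
    exact ⟨A * A', B * B', by rw [map_mul]; exact mul_ne_zero hB hB',
      by rw [map_mul, map_mul, div_mul_div_comm]⟩

namespace Level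

variable {v : Valuation K Γ₀} {L : Subfield K} {T z : K} {M : K[X]} (h : Level v L T z M)

include h

theorem v_aeval_le (A : L[X]) {c : Γ₀} (hA : ∀ i, v (A.coeff i : K) ≤ c) : v (aeval T A) ≤ c := by
  rw [aeval_eq_sum_range]
  refine Valuation.map_sum_le v (fun i _ => ?_)
  rw [Algebra.smul_def, map_mul, map_pow]
  exact (mul_le_of_le_one_right' (pow_le_one' h.T_le i)).trans (hA i)

theorem v_aeval_eq (A : L[X]) (hA : A ≠ 0) : ∃ j, A.coeff j ≠ 0 ∧ v (aeval T A) = v (A.coeff j : K) ∧
    ∀ i, v (A.coeff i : K) ≤ v (A.coeff j : K) := by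
  obtain ⟨j, hj, hmax⟩ := Finset.exists_max_image A.support (fun i => v (A.coeff i : K))
    (by rwa [Polynomial.support_nonempty])
  have hle : ∀ i, v (A.coeff i : K) ≤ v (A.coeff j : K) := by
    intro i
    by_cases hi : i ∈ A.support
    · exact hmax i hi
    · rw [Polynomial.notMem_support_iff.mp hi]
      simp
  exact ⟨j, Polynomial.mem_support_iff.mp hj, le_antisymm (h.v_aeval_le A hle) (h.gauss A j), hle⟩

/-- normal form of elements of `L(T)` -/
theorem normal {x : K} (hx : x ∈ FL L T) :
    ∃ A B : L[X], (∀ i, v (B.coeff i : K) ≤ 1) ∧ v (aeval T B) = 1 ∧ x = aeval T A / aeval T B := by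
  obtain ⟨A, B, hB, rfl⟩ := mem_FL hx
  have hB0 : B ≠ 0 := by rintro rfl; simp at hB
  obtain ⟨j, hj, hvj, hle⟩ := h.v_aeval_eq B hB0
  have hjK : (B.coeff j : K) ≠ 0 := fun h0 => hj (Subtype.ext h0)
  have hvj0 : v (B.coeff j : K) ≠ 0 := (Valuation.ne_zero_iff v).mpr hjK
  refine ⟨C (B.coeff j)⁻¹ * A, C (B.coeff j)⁻¹ * B, ?_, ?_, ?_⟩
  · intro i
    rw [coeff_C_mul]
    have : (((B.coeff j)⁻¹ * B.coeff i : L) : K) = (B.coeff j : K)⁻¹ * (B.coeff i : K) := rfl
    rw [this, map_mul, map_inv₀, mul_comm, ← div_eq_mul_inv]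
    exact div_le_one_of_le₀ (hle i) zero_le
  · rw [map_mul, aeval_C, map_mul, hvj]
    have : v (algebraMap L K (B.coeff j)⁻¹) = (v (B.coeff j : K))⁻¹ := by
      rw [← map_inv₀]; rfl
    rw [this, inv_mul_cancel₀ hvj0]
  · rw [map_mul, map_mul, aeval_C]
    have : algebraMap L K (B.coeff j)⁻¹ ≠ 0 := by
      rw [ne_eq, map_eq_zero, inv_eq_zero]; exact hj
    rw [mul_div_mul_left _ _ this]

/-- the value group of `L(T)` is that of `L` -/
theorem exists_value {x : K} (hx : x ∈ FL L T) : ∃ c ∈ L, v x = v c := by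
  obtain ⟨A, B, -, hB, rfl⟩ := h.normal hx
  rcases eq_or_ne A 0 with rfl | hA
  · exact ⟨0, L.zero_mem, by simp⟩
  · obtain ⟨j, -, hj, -⟩ := h.v_aeval_eq A hA
    exact ⟨A.coeff j, (A.coeff j).2, by rw [map_div₀, hB, div_one, hj]⟩

end Level

/-- `K' = F(z)` as an intermediate field, and its underlying subfield is `KL`. -/
theorem adjoin_eq_KL (L : Subfield K) (T z : K) (x : K) :
    x ∈ IntermediateField.adjoin (FL L T) {z} ↔ x ∈ KL L T z := by
  constructor
  · intro hx
    have h1 : IntermediateField.adjoin (FL L T) {z} ≤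
        ({ KL L T z with
            algebraMap_mem' := fun r => FL_le_KL L T z r.2 } : IntermediateField (FL L T) K) := by
      rw [IntermediateField.adjoin_le_iff, Set.singleton_subset_iff]
      exact z_mem_KL L T z
    exact h1 hx
  · intro hx
    have h1 : KL L T z ≤ (IntermediateField.adjoin (FL L T) {z}).toSubfield := by
      rw [Subfield.closure_le]
      rintro y (hy | hy)
      · exact (IntermediateField.adjoin (FL L T) {z}).algebraMap_mem ⟨y, L_le_FL L T hy⟩
      · rcases hy with rfl | hy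
        · exact (IntermediateField.adjoin (FL L y) {z}).algebraMap_mem ⟨y, T_mem_FL L y⟩
        · rw [Set.mem_singleton_iff] at hy
          subst hy
          exact IntermediateField.mem_adjoin_simple_self _ y
    exact h1 hx

namespace Level

variable {v : Valuation K Γ₀} {L : Subfield K} {T z : K} {M : K[X]} (h : Level v L T z M)

include h

/-- the chart at level `L` -/
theorem chart : IsChart (OF (FL L T) (v.comap (algebraMap (IntermediateField.adjoin (FL L T) {z}) K)))
    (FL L T) (v.comap (algebraMap (IntermediateField.adjoin (FL L T) {z}) K))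
    (IntermediateField.AdjoinSimple.gen (FL L T) z) := by
  have hl : M ∈ Polynomial.lifts (algebraMap (FL L T) K) := by
    rw [Polynomial.lifts_iff_coeff_lifts]
    intro i
    exact ⟨⟨M.coeff i, h.coeff_mem i⟩, rfl⟩
  obtain ⟨N, hN, -, hNm⟩ := Polynomial.lifts_and_natDegree_eq_and_monic hl h.monic
  have hgen : algebraMap (IntermediateField.adjoin (FL L T) {z}) K
      (IntermediateField.AdjoinSimple.gen (FL L T) z) = z :=
    IntermediateField.AdjoinSimple.algebraMap_gen _ _
  have hev : ∀ P : (FL L T)[X], algebraMap (IntermediateField.adjoin (FL L T) {z}) K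
      (aeval (IntermediateField.AdjoinSimple.gen (FL L T) z) P) = eval z (P.map (algebraMap (FL L T) K)) := by
    intro P
    rw [← aeval_algebraMap_apply, hgen, aeval_def, eval_map]
  have hNz : aeval (IntermediateField.AdjoinSimple.gen (FL L T) z) N = 0 := by
    apply (algebraMap (IntermediateField.adjoin (FL L T) {z}) K).injective
    rw [hev, hN, h.root, map_zero]
  have hint : IsIntegral (FL L T) z := by
    refine ⟨N, hNm, ?_⟩
    rw [← eval_map, hN, h.root]
  refine isChart_of_monic _ _ ?_ N hNm ?_ hNz ?_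
  · have h1 := (IntermediateField.adjoin.powerBasis hint).adjoin_gen_eq_top
    rwa [IntermediateField.adjoin.powerBasis_gen] at h1
  · intro i
    rw [Valuation.comap_apply]
    have : algebraMap (IntermediateField.adjoin (FL L T) {z}) K
        (algebraMap (FL L T) (IntermediateField.adjoin (FL L T) {z}) (N.coeff i)) = M.coeff i := by
      rw [← IsScalarTower.algebraMap_apply, ← coeff_map, hN]
    rw [this]
    exact h.coeff_le i
  · rw [Valuation.comap_apply, hev, ← derivative_map, hN]
    exact h.unit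


/-- `v x ≤ v a`, `v a < 1`, `a` a constant of `L` -/
theorem exists_dominate {x : K} (hx : x ∈ KL L T z) (hx1 : v x < 1) :
    ∃ a ∈ L, v a < 1 ∧ v x ≤ v a := by
  have hx' : x ∈ IntermediateField.adjoin (FL L T) {z} := (adjoin_eq_KL L T z x).mpr hx
  obtain ⟨a, ha, hxa⟩ := h.chart.exists_dominate ⟨x, hx'⟩ hx1
  obtain ⟨c, hc, hac⟩ := h.exists_value (x := ((a : FL L T) : K)) (a : FL L T).2
  have h1 : (v.comap (algebraMap (IntermediateField.adjoin (FL L T) {z}) K))
      (algebraMap _ (IntermediateField.adjoin (FL L T) {z}) a) = v (((a : FL L T) : K)) := rfl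
  have h2 : (v.comap (algebraMap (IntermediateField.adjoin (FL L T) {z}) K)) ⟨x, hx'⟩ = v x := rfl
  rw [h1] at ha hxa
  rw [h2] at hxa
  exact ⟨c, hc, by rw [← hac]; exact ha, by rw [← hac]; exact hxa⟩

/-- elements of value at most one: fractions of polynomials in `z` with coefficients in the `v`-integers of `L(T)` -/
theorem frac {x : K} (hx : x ∈ KL L T z) (hx1 : v x ≤ 1) :
    ∃ P Q : (FL L T)[X], (∀ i, v (P.coeff i : K) ≤ 1) ∧ (∀ i, v (Q.coeff i : K) ≤ 1) ∧
      v (aeval z Q) = 1 ∧ x * aeval z Q = aeval z P := by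
  have hx' : x ∈ IntermediateField.adjoin (FL L T) {z} := (adjoin_eq_KL L T z x).mpr hx
  obtain ⟨P, Q, hQ, hPQ⟩ := h.chart.frac ⟨x, hx'⟩ hx1
  have hgen : algebraMap (IntermediateField.adjoin (FL L T) {z}) K
      (IntermediateField.AdjoinSimple.gen (FL L T) z) = z :=
    IntermediateField.AdjoinSimple.algebraMap_gen _ _
  have hev : ∀ R : (OF (FL L T) (v.comap (algebraMap (IntermediateField.adjoin (FL L T) {z}) K)))[X],
      algebraMap (IntermediateField.adjoin (FL L T) {z}) K
      (aeval (IntermediateField.AdjoinSimple.gen (FL L T) z) R) = aeval z (R.map (algebraMap _ (FL L T))) := by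
    intro R
    rw [← aeval_algebraMap_apply, hgen, aeval_map_algebraMap]
  refine ⟨P.map (algebraMap _ (FL L T)), Q.map (algebraMap _ (FL L T)), ?_, ?_, ?_, ?_⟩
  · intro i
    rw [coeff_map]
    exact (P.coeff i).2
  · intro i
    rw [coeff_map]
    exact (Q.coeff i).2
  · rw [← hev]
    exact hQ
  · rw [← hev, ← hev, ← hPQ, map_mul]
    rfl

end Level

end Crest.Agent.R013.CartC_359
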