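import Crest.Agent.R013.CartC1_359
import Crest.Agent.R013.CartC2_359
/-
ROW 13, leaf CARTC (helper359), file 3: reduction maps, derivations at a level, residue fields at a level.
-/
set_option autoImplicit false
set_option linter.unusedSectionVars false

namespace Crest.Agent.R013.CartC_359

open Polynomial Crest.Agent.R013.Chart_359

variable {K Γ₀ κ : Type*} [Field K] [LinearOrderedCommGroupWithZero Γ₀] [Field κ]

/-- a reduction map: residue field of `v` in any model, as a total function on `K`. -/
structure Red (v : Valuation K Γ₀) (κ : Type*) [Field κ] where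
  res : K → κ
  add : ∀ x y, v x ≤ 1 → v y ≤ 1 → res (x + y) = res x + res y
  mul : ∀ x y, v x ≤ 1 → v y ≤ 1 → res (x * y) = res x * res y
  one : res 1 = 1
  zero_iff : ∀ x, v x ≤ 1 → (res x = 0 ↔ v x < 1)
  surj : ∀ y, ∃ x, v x ≤ 1 ∧ res x = y

namespace Red

variable {v : Valuation K Γ₀} (r : Red v κ)

include r

theorem zero : r.res 0 = 0 := (r.zero_iff 0 (by simp)).mpr (by simp)

theorem neg {x : K} (hx : v x ≤ 1) : r.res (-x) = - r.res x := by
  have h1 := r.add x (-x) hx (by rwa [Valuation.map_neg])
  rw [add_neg_cancel, r.zero] at h1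
  exact (neg_eq_of_add_eq_zero_right h1.symm).symm

theorem sub {x y : K} (hx : v x ≤ 1) (hy : v y ≤ 1) : r.res (x - y) = r.res x - r.res y := by
  rw [sub_eq_add_neg, r.add x (-y) hx (by rwa [Valuation.map_neg]), r.neg hy, sub_eq_add_neg]

theorem pow {x : K} (hx : v x ≤ 1) (n : ℕ) : r.res (x ^ n) = r.res x ^ n := by
  induction n with
  | zero => rw [pow_zero, pow_zero, r.one]
  | succ n ih => rw [pow_succ, pow_succ, r.mul _ _ (by rw [map_pow]; exact pow_le_one' hx n) hx, ih]

theorem sum {ι : Type*} (s : Finset ι) (f : ι → K) (hf : ∀ i ∈ s, v (f i) ≤ 1) :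
    r.res (∑ i ∈ s, f i) = ∑ i ∈ s, r.res (f i) := by
  classical
  induction s using Finset.induction_on with
  | empty => simp [r.zero]
  | insert a s ha ih =>
    rw [Finset.sum_insert ha, Finset.sum_insert ha, r.add _ _ (hf a (Finset.mem_insert_self _ _))
      (Valuation.map_sum_le v (fun i hi => hf i (Finset.mem_insert_of_mem hi))),
      ih (fun i hi => hf i (Finset.mem_insert_of_mem hi))]

theorem ne_zero_iff {x : K} (hx : v x ≤ 1) : r.res x ≠ 0 ↔ v x = 1 := by
  rw [ne_eq, r.zero_iff x hx, not_lt]
  exact ⟨fun h => le_antisymm hx h, fun h => h.ge⟩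

theorem inv {x : K} (hx : v x = 1) : r.res x⁻¹ = (r.res x)⁻¹ := by
  have hx0 : x ≠ 0 := by rintro rfl; simp at hx
  have h1 := r.mul x x⁻¹ hx.le (by rw [map_inv₀, hx, inv_one])
  rw [mul_inv_cancel₀ hx0, r.one] at h1
  exact eq_inv_of_mul_eq_one_right h1.symm

theorem div {x y : K} (hx : v x ≤ 1) (hy : v y = 1) : r.res (x / y) = r.res x / r.res y := by
  rw [div_eq_mul_inv, div_eq_mul_inv, r.mul _ _ hx (by rw [map_inv₀, hy, inv_one]), r.inv hy]

theorem congr {x y : K} (hx : v x ≤ 1) (hy : v y ≤ 1) (h : v (x - y) < 1) : r.res x = r.res y := by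
  have h1 := (r.zero_iff (x - y) h.le).mpr h
  rw [r.sub hx hy] at h1
  exact sub_eq_zero.mp h1

theorem congr_iff {x y : K} (hx : v x ≤ 1) (hy : v y ≤ 1) : r.res x = r.res y ↔ v (x - y) < 1 := by
  constructor
  · intro h
    have h1 : r.res (x - y) = 0 := by rw [r.sub hx hy, h, sub_self]
    exact (r.zero_iff _ ((v.map_sub _ _).trans (max_le hx hy))).mp h1
  · exact r.congr hx hy

end Red

/-- the canonical reduction map. -/
noncomputable def Red.canonical (v : Valuation K Γ₀) :
    Red v (IsLocalRing.ResidueField v.valuationSubring) where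
  res := fun x => by
    classical
    exact if h : x ∈ v.valuationSubring then IsLocalRing.residue v.valuationSubring ⟨x, h⟩ else 0
  add := by
    intro x y hx hy
    have hx' : x ∈ v.valuationSubring := (Valuation.mem_valuationSubring_iff v _).mpr hx
    have hy' : y ∈ v.valuationSubring := (Valuation.mem_valuationSubring_iff v _).mpr hy
    rw [dif_pos (add_mem hx' hy'), dif_pos hx', dif_pos hy', ← map_add]
    rfl
  mul := by
    intro x y hx hy
    have hx' : x ∈ v.valuationSubring := (Valuation.mem_valuationSubring_iff v _).mpr hx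
    have hy' : y ∈ v.valuationSubring := (Valuation.mem_valuationSubring_iff v _).mpr hy
    rw [dif_pos (mul_mem hx' hy'), dif_pos hx', dif_pos hy', ← map_mul]
    rfl
  one := by
    rw [dif_pos (one_mem v.valuationSubring)]
    exact map_one _
  zero_iff := by
    intro x hx
    have hx' : x ∈ v.valuationSubring := (Valuation.mem_valuationSubring_iff v _).mpr hx
    rw [dif_pos hx', IsLocalRing.residue_eq_zero_iff]
    exact Valuation.mem_maximalIdeal_iff K v
  surj := by
    intro y
    obtain ⟨x, rfl⟩ := IsLocalRing.residue_surjective y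
    exact ⟨x, (Valuation.mem_valuationSubring_iff v _).mp x.2, by rw [dif_pos x.2]⟩

namespace Level

variable {v : Valuation K Γ₀} {L : Subfield K} {T z : K} {M : K[X]} (h : Level v L T z M)

include h

section der

variable (D : Derivation ℤ K K) (hDL : ∀ a ∈ L, D a = 0) (hDT : D T = 1)

include hDL hDT

omit h in
theorem D_aeval (A : L[X]) : D (aeval T A) = aeval T (derivative A) := by
  induction A using Polynomial.induction_on' with
  | add P Q hP hQ => rw [map_add, map_add, hP, hQ, derivative_add, map_add]
  | monomial n a =>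
    rw [aeval_monomial, derivative_monomial, aeval_monomial, Derivation.leibniz,
      Derivation.leibniz_pow, hDT]
    have : D (algebraMap L K a) = 0 := hDL _ a.2
    rw [this, smul_zero, add_zero, map_mul, map_natCast, smul_eq_mul, nsmul_eq_mul, smul_eq_mul,
      mul_one]
    ring

theorem v_D_FL {x : K} (hx : x ∈ FL L T) : v (D x) ≤ v x := by
  obtain ⟨A, B, hBc, hB, rfl⟩ := h.normal hx
  have hBne : aeval T B ≠ 0 := by
    intro h0
    rw [h0, map_zero] at hB
    exact zero_ne_one hB
  have hder : ∀ P : L[X], ∀ c : Γ₀, (∀ i, v (P.coeff i : K) ≤ c) → v (aeval T (derivative P)) ≤ c := by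
    intro P c hc
    apply h.v_aeval_le
    intro i
    rw [coeff_derivative]
    have h1 : ((P.coeff (i + 1) * ((i : L) + 1) : L) : K) = (P.coeff (i + 1) : K) * ((i + 1 : ℕ) : K) := by
      push_cast
      rfl
    rw [h1, map_mul]
    have h2 : v (((i + 1 : ℕ) : K)) ≤ 1 := by
      have : ∀ n : ℕ, v (n : K) ≤ 1 := by
        intro n
        induction n with
        | zero => simp
        | succ n ih =>
          rw [Nat.cast_succ]
          exact (v.map_add _ _).trans (max_le ih (by rw [map_one]))
      exact this _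
    exact (mul_le_of_le_one_right' h2).trans (hc _)
  have hA : v (aeval T (derivative A)) ≤ v (aeval T A) := hder A _ (h.gauss A)
  have hB' : v (aeval T (derivative B)) ≤ 1 := hder B 1 hBc
  set q := aeval T A / aeval T B with hq
  have hqA : aeval T A = q * aeval T B := by rw [hq, div_mul_cancel₀ _ hBne]
  have hvq : v (aeval T A) = v q := by rw [hqA, map_mul, hB, mul_one]
  have e1 : D q * aeval T B = aeval T (derivative A) - q * aeval T (derivative B) := by
    rw [← D_aeval D hDL hDT, ← D_aeval D hDL hDT, hqA, Derivation.leibniz, smul_eq_mul, smul_eq_mul]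
    ring
  have e2 : v (D q) = v (aeval T (derivative A) - q * aeval T (derivative B)) := by
    rw [← e1, map_mul, hB, mul_one]
  rw [e2]
  refine (v.map_sub _ _).trans (max_le (hA.trans hvq.le) ?_)
  rw [map_mul]
  exact mul_le_of_le_one_right' hB'

/-- a derivation is `v`-contracting on `v`-integers of `L(T,z)` -/
theorem v_D_le {x : K} (hx : x ∈ KL L T z) (hx1 : v x ≤ 1) : v (D x) ≤ 1 := by
  have hzv : v z ≤ 1 := h.chart.v_z_le
  -- polynomials in z
  let Φ : (FL L T)[X] →+ K :=
    { toFun := fun P => D (aeval z P) - aeval z (derivative P) * D z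
      map_zero' := by simp
      map_add' := fun P Q => by
        rw [map_add, map_add, derivative_add, map_add]
        ring }
  have hmono : ∀ (i : ℕ) (a : FL L T), Φ (monomial i a) = z ^ i * D (a : K) := by
    intro i a
    change D (aeval z (monomial i a)) - aeval z (derivative (monomial i a)) * D z = _
    rw [aeval_monomial, derivative_monomial, aeval_monomial, Derivation.leibniz,
      Derivation.leibniz_pow, map_mul, map_natCast, smul_eq_mul, nsmul_eq_mul, smul_eq_mul,
      smul_eq_mul]
    have : algebraMap (FL L T) K a = (a : K) := rfl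
    rw [this]
    ring
  have key : ∀ P : (FL L T)[X], (∀ i, v (P.coeff i : K) ≤ 1) → v (Φ P) ≤ 1 := by
    intro P hP
    rw [P.as_sum_support, map_sum]
    refine Valuation.map_sum_le v (fun i _ => ?_)
    rw [hmono, map_mul, map_pow]
    exact mul_le_one' (pow_le_one' hzv _) ((h.v_D_FL D hDL hDT (P.coeff i).2).trans (hP i))
  have hΦ : ∀ P : (FL L T)[X], D (aeval z P) = aeval z (derivative P) * D z + Φ P := by
    intro P
    change D (aeval z P) = aeval z (derivative P) * D z +
      (D (aeval z P) - aeval z (derivative P) * D z)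
    ring
  have hval : ∀ P : (FL L T)[X], (∀ i, v (P.coeff i : K) ≤ 1) → v (aeval z P) ≤ 1 := by
    intro P hP
    rw [aeval_eq_sum_range]
    refine Valuation.map_sum_le v (fun i _ => ?_)
    rw [Algebra.smul_def, map_mul, map_pow]
    exact mul_le_one' (hP i) (pow_le_one' hzv _)
  have hcast : ∀ n : ℕ, v (n : K) ≤ 1 := by
    intro n
    induction n with
    | zero => simp
    | succ n ih =>
      rw [Nat.cast_succ]
      exact (v.map_add _ _).trans (max_le ih (by rw [map_one]))
  have hvald : ∀ P : (FL L T)[X], (∀ i, v (P.coeff i : K) ≤ 1) → v (aeval z (derivative P)) ≤ 1 := by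
    intro P hP
    apply hval
    intro i
    rw [coeff_derivative]
    have h1 : ((P.coeff (i + 1) * ((i : FL L T) + 1) : FL L T) : K) =
        (P.coeff (i + 1) : K) * ((i + 1 : ℕ) : K) := by
      push_cast
      rfl
    rw [h1, map_mul]
    exact mul_le_one' (hP _) (hcast _)
  -- D z
  have hDz : v (D z) ≤ 1 := by
    have hl : M ∈ Polynomial.lifts (algebraMap (FL L T) K) := by
      rw [Polynomial.lifts_iff_coeff_lifts]
      intro i
      exact ⟨⟨M.coeff i, h.coeff_mem i⟩, rfl⟩
    obtain ⟨N, hN⟩ := (Polynomial.mem_lifts _).mp hl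
    have hNc : ∀ i, v (N.coeff i : K) ≤ 1 := by
      intro i
      have : (N.coeff i : K) = M.coeff i := by rw [← hN, coeff_map]; rfl
      rw [this]
      exact h.coeff_le i
    have hNz : aeval z N = 0 := by rw [aeval_def, ← eval_map, hN, h.root]
    have hN' : v (aeval z (derivative N)) = 1 := by
      rw [aeval_def, ← eval_map, ← derivative_map, hN, h.unit]
    have h1 := hΦ N
    rw [hNz, map_zero] at h1
    have h2 : v (aeval z (derivative N) * D z) = v (Φ N) := by
      have : aeval z (derivative N) * D z = - Φ N := by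
        rw [eq_neg_iff_add_eq_zero]; exact h1.symm
      rw [this, Valuation.map_neg]
    rw [map_mul, hN', one_mul] at h2
    rw [h2]
    exact key N hNc
  have key2 : ∀ P : (FL L T)[X], (∀ i, v (P.coeff i : K) ≤ 1) → v (D (aeval z P)) ≤ 1 := by
    intro P hP
    rw [hΦ]
    refine (v.map_add _ _).trans (max_le ?_ (key P hP))
    rw [map_mul]
    exact mul_le_one' (hvald P hP) hDz
  obtain ⟨P, Q, hPc, hQc, hQ, hPQ⟩ := h.frac hx hx1
  have h1 : D x * aeval z Q = D (aeval z P) - x * D (aeval z Q) := by
    rw [← hPQ, Derivation.leibniz, smul_eq_mul, smul_eq_mul]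
    ring
  have h2 : v (D x * aeval z Q) ≤ 1 := by
    rw [h1]
    refine (v.map_sub _ _).trans (max_le (key2 P hPc) ?_)
    rw [map_mul]
    exact mul_le_one' hx1 (key2 Q hQc)
  rwa [map_mul, hQ, mul_one] at h2

theorem v_D_lt {x : K} (hx : x ∈ KL L T z) (hx1 : v x < 1) : v (D x) < 1 := by
  obtain ⟨a, ha, ha1, hxa⟩ := h.exists_dominate hx hx1
  rcases eq_or_ne a 0 with rfl | ha0
  · rw [map_zero, le_zero_iff, Valuation.zero_iff] at hxa
    rw [hxa, map_zero, map_zero]
    exact zero_lt_one
  · have hva : v a ≠ 0 := (Valuation.ne_zero_iff v).mpr ha0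
    have haK : a ∈ KL L T z := FL_le_KL L T z (L_le_FL L T ha)
    have h1 : v (x / a) ≤ 1 := by
      rw [map_div₀]
      exact div_le_one_of_le₀ hxa zero_le
    have h2 := h.v_D_le D hDL hDT (div_mem hx haK) h1
    have h3 : D x = a * D (x / a) := by
      have : x = a * (x / a) := by rw [mul_div_cancel₀ _ ha0]
      conv_lhs => rw [this, Derivation.leibniz, hDL a ha, smul_zero, add_zero, smul_eq_mul]
    rw [h3, map_mul]
    exact (mul_le_of_le_one_right' h2).trans_lt ha1

end der

end Level

end Crest.Agent.R013.CartC_359
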