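import Crest.Agent.R013.CartC3_359
/-
ROW 13, leaf CARTC (helper359), file 4: residue fields at a level.
-/
set_option autoImplicit false
set_option linter.unusedSectionVars false

namespace Crest.Agent.R013.CartC_359

open Polynomial Crest.Agent.R013.Chart_359

variable {K Γ₀ κ : Type*} [Field K] [LinearOrderedCommGroupWithZero Γ₀] [Field κ]

/-- residue field of the constants -/
def resL {v : Valuation K Γ₀} (r : Red v κ) (L : Subfield K) : Subfield κ where
  carrier := {y | ∃ a ∈ L, v a ≤ 1 ∧ r.res a = y}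
  mul_mem' := by
    rintro _ _ ⟨a, ha, ha1, rfl⟩ ⟨b, hb, hb1, rfl⟩
    exact ⟨a * b, mul_mem ha hb, by rw [map_mul]; exact mul_le_one' ha1 hb1, r.mul _ _ ha1 hb1⟩
  one_mem' := ⟨1, L.one_mem, by rw [map_one], r.one⟩
  add_mem' := by
    rintro _ _ ⟨a, ha, ha1, rfl⟩ ⟨b, hb, hb1, rfl⟩
    exact ⟨a + b, add_mem ha hb, (v.map_add _ _).trans (max_le ha1 hb1), r.add _ _ ha1 hb1⟩
  zero_mem' := ⟨0, L.zero_mem, by simp, r.zero⟩
  neg_mem' := by
    rintro _ ⟨a, ha, ha1, rfl⟩
    exact ⟨-a, neg_mem ha, by rwa [Valuation.map_neg], r.neg ha1⟩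
  inv_mem' := by
    rintro _ ⟨a, ha, ha1, rfl⟩
    by_cases h0 : r.res a = 0
    · exact ⟨0, L.zero_mem, by simp, by rw [h0, inv_zero, r.zero]⟩
    · have h1 : v a = 1 := (r.ne_zero_iff ha1).mp h0
      exact ⟨a⁻¹, inv_mem ha, by rw [map_inv₀, h1, inv_one], r.inv h1⟩

theorem mem_resL {v : Valuation K Γ₀} (r : Red v κ) (L : Subfield K) (y : κ) :
    y ∈ resL r L ↔ ∃ a ∈ L, v a ≤ 1 ∧ r.res a = y := Iff.rfl

theorem res_mem_cl {v : Valuation K Γ₀} (r : Red v κ) (L : Subfield K) (S : Set κ) {a : K}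
    (ha : a ∈ L) (ha1 : v a ≤ 1) : r.res a ∈ Subfield.closure ((resL r L : Set κ) ∪ S) := by
  have : r.res a ∈ resL r L := ⟨a, ha, ha1, rfl⟩
  exact Subfield.subset_closure (Or.inl this)

theorem closure_coe_top {F : Type*} [Field F] (s : Set F) :
    Subfield.closure ((fun x : Subfield.closure s => (x : F)) ⁻¹' s) = ⊤ := by
  rw [eq_top_iff]
  rintro ⟨x, hx⟩ -
  induction hx using Subfield.closure_induction with
  | mem x hx => exact Subfield.subset_closure hx
  | one => exact one_mem _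
  | add x y hx' hy' hx hy => exact add_mem hx hy
  | neg x hx' hx => exact neg_mem hx
  | inv x hx' hx => exact inv_mem hx
  | mul x y hx' hy' hx hy => exact mul_mem hx hy

namespace Level

variable {v : Valuation K Γ₀} {L : Subfield K} {T z : K} {M : K[X]} (h : Level v L T z M)
  (r : Red v κ)

include h

theorem res_aeval_T (A : L[X]) (hA : ∀ i, v (A.coeff i : K) ≤ 1) :
    r.res (aeval T A) ∈ Subfield.closure ((resL r L : Set κ) ∪ {r.res T}) := by
  rw [aeval_eq_sum_range, r.sum]
  · refine sum_mem (fun i _ => ?_)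
    have e : (A.coeff i) • T ^ i = (A.coeff i : K) * T ^ i := rfl
    rw [e, r.mul _ _ (hA i) (by rw [map_pow]; exact pow_le_one' h.T_le i),
      r.pow h.T_le]
    have hT : r.res T ∈ Subfield.closure ((resL r L : Set κ) ∪ {r.res T}) :=
      Subfield.subset_closure (Or.inr rfl)
    exact mul_mem (res_mem_cl r L _ (A.coeff i).2 (hA i)) (pow_mem hT _)
  · intro i _
    rw [Algebra.smul_def, map_mul, map_pow]
    exact mul_le_one' (hA i) (pow_le_one' h.T_le i)

theorem res_FL {x : K} (hx : x ∈ FL L T) (hx1 : v x ≤ 1) :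
    r.res x ∈ Subfield.closure ((resL r L : Set κ) ∪ {r.res T}) := by
  obtain ⟨A, B, hBc, hB, rfl⟩ := h.normal hx
  have hA : v (aeval T A) ≤ 1 := by rwa [map_div₀, hB, div_one] at hx1
  rw [r.div hA hB]
  exact div_mem (h.res_aeval_T r A (fun i => (h.gauss A i).trans hA)) (h.res_aeval_T r B hBc)

theorem res_aeval_z (P : (FL L T)[X]) (hP : ∀ i, v (P.coeff i : K) ≤ 1) :
    r.res (aeval z P) ∈ Subfield.closure ((resL r L : Set κ) ∪ {r.res T, r.res z}) := by
  have hzv : v z ≤ 1 := h.chart.v_z_le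
  rw [aeval_eq_sum_range, r.sum]
  · refine sum_mem (fun i _ => ?_)
    have e : (P.coeff i) • z ^ i = (P.coeff i : K) * z ^ i := rfl
    rw [e, r.mul _ _ (hP i) (by rw [map_pow]; exact pow_le_one' hzv i),
      r.pow hzv]
    have hz : r.res z ∈ Subfield.closure ((resL r L : Set κ) ∪ {r.res T, r.res z}) :=
      Subfield.subset_closure (Or.inr (Or.inr rfl))
    refine mul_mem ?_ (pow_mem hz _)
    exact Subfield.closure_mono (Set.union_subset_union_right _ (by
      intro y hy; exact Or.inl hy)) (h.res_FL r (P.coeff i).2 (hP i))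
  · intro i _
    rw [Algebra.smul_def, map_mul, map_pow]
    exact mul_le_one' (hP i) (pow_le_one' hzv i)

theorem v_aeval_z_le (P : (FL L T)[X]) (hP : ∀ i, v (P.coeff i : K) ≤ 1) : v (aeval z P) ≤ 1 := by
  rw [aeval_eq_sum_range]
  refine Valuation.map_sum_le v (fun i _ => ?_)
  rw [Algebra.smul_def, map_mul, map_pow]
  exact mul_le_one' (hP i) (pow_le_one' h.chart.v_z_le _)

theorem res_KL {x : K} (hx : x ∈ KL L T z) (hx1 : v x ≤ 1) :
    r.res x ∈ Subfield.closure ((resL r L : Set κ) ∪ {r.res T, r.res z}) := by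
  obtain ⟨P, Q, hPc, hQc, hQ, hPQ⟩ := h.frac hx hx1
  have hQ0 : aeval z Q ≠ 0 := by
    intro h0
    rw [h0, map_zero] at hQ
    exact zero_ne_one hQ
  have : x = aeval z P / aeval z Q := by rw [← hPQ, mul_div_cancel_right₀ _ hQ0]
  rw [this, r.div (h.v_aeval_z_le P hPc) hQ]
  exact div_mem (h.res_aeval_z r P hPc) (h.res_aeval_z r Q hQc)

theorem lift_KL {y : κ} (hy : y ∈ Subfield.closure ((resL r L : Set κ) ∪ {r.res T, r.res z})) :
    ∃ x ∈ KL L T z, v x ≤ 1 ∧ r.res x = y := by
  induction hy using Subfield.closure_induction with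
  | mem x hx =>
    rcases hx with ⟨a, ha, ha1, rfl⟩ | hx
    · exact ⟨a, FL_le_KL L T z (L_le_FL L T ha), ha1, rfl⟩
    · rcases hx with rfl | hx
      · exact ⟨T, FL_le_KL L T z (T_mem_FL L T), h.T_le, rfl⟩
      · rw [Set.mem_singleton_iff] at hx
        subst hx
        exact ⟨z, z_mem_KL L T z, h.chart.v_z_le, rfl⟩
  | one => exact ⟨1, one_mem _, by rw [map_one], r.one⟩
  | add x y _ _ hx hy =>
    obtain ⟨a, ha, ha1, rfl⟩ := hx
    obtain ⟨b, hb, hb1, rfl⟩ := hy
    exact ⟨a + b, add_mem ha hb, (v.map_add _ _).trans (max_le ha1 hb1), r.add _ _ ha1 hb1⟩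
  | neg x _ hx =>
    obtain ⟨a, ha, ha1, rfl⟩ := hx
    exact ⟨-a, neg_mem ha, by rwa [Valuation.map_neg], r.neg ha1⟩
  | inv x _ hx =>
    obtain ⟨a, ha, ha1, rfl⟩ := hx
    by_cases h0 : r.res a = 0
    · exact ⟨0, zero_mem _, by simp, by rw [h0, inv_zero, r.zero]⟩
    · have h1 : v a = 1 := (r.ne_zero_iff ha1).mp h0
      exact ⟨a⁻¹, inv_mem ha, by rw [map_inv₀, h1, inv_one], r.inv h1⟩
  | mul x y _ _ hx hy =>
    obtain ⟨a, ha, ha1, rfl⟩ := hx
    obtain ⟨b, hb, hb1, rfl⟩ := hy
    exact ⟨a * b, mul_mem ha hb, by rw [map_mul]; exact mul_le_one' ha1 hb1, r.mul _ _ ha1 hb1⟩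

/-- reduction of the chart polynomial -/
theorem exists_Mb : ∃ Mb : κ[X], (∀ i, Mb.coeff i ∈ Subfield.closure ((resL r L : Set κ) ∪ {r.res T})) ∧
    eval (r.res z) Mb = 0 ∧ eval (r.res z) (derivative Mb) ≠ 0 := by
  have hzv : v z ≤ 1 := h.chart.v_z_le
  let S := Finset.range (M.natDegree + 1)
  let Mb : κ[X] := ∑ i ∈ S, Polynomial.C (r.res (M.coeff i)) * X ^ i
  have hcast : ∀ n : ℕ, v (n : K) ≤ 1 := by
    intro n
    induction n with
    | zero => simp
    | succ n ih =>
      rw [Nat.cast_succ]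
      exact (v.map_add _ _).trans (max_le ih (by rw [map_one]))
  have hrn : ∀ n : ℕ, r.res (n : K) = n := by
    intro n
    induction n with
    | zero => simp [r.zero]
    | succ n ih => rw [Nat.cast_succ, Nat.cast_succ, r.add _ _ (hcast n) (by rw [map_one]), ih, r.one]
  refine ⟨Mb, ?_, ?_, ?_⟩
  · intro i
    have : Mb.coeff i = if i ∈ S then r.res (M.coeff i) else 0 := by
      simp only [Mb, finsetSum_coeff, coeff_C_mul, coeff_X_pow]
      simp [Finset.sum_ite_eq]
    rw [this]
    split_ifs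
    · exact h.res_FL r (h.coeff_mem i) (h.coeff_le i)
    · exact zero_mem _
  · have h1 : r.res (eval z M) = eval (r.res z) Mb := by
      rw [eval_eq_sum_range, r.sum]
      · simp only [Mb, eval_finsetSum, eval_mul, eval_C, eval_pow, eval_X]
        refine Finset.sum_congr rfl (fun i _ => ?_)
        rw [r.mul _ _ (h.coeff_le i) (by rw [map_pow]; exact pow_le_one' hzv i), r.pow hzv]
      · intro i _
        rw [map_mul, map_pow]
        exact mul_le_one' (h.coeff_le i) (pow_le_one' hzv i)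
    rw [← h1, h.root, r.zero]
  · have h1 : r.res (eval z (derivative M)) = eval (r.res z) (derivative Mb) := by
      have e1 : eval z (derivative M) = ∑ i ∈ S, M.coeff i * (i : K) * z ^ (i - 1) := by
        conv_lhs => rw [M.as_sum_range_C_mul_X_pow]
        rw [derivative_sum, eval_finsetSum]
        refine Finset.sum_congr rfl (fun i _ => ?_)
        rw [derivative_C_mul_X_pow]
        simp
      have e2 : eval (r.res z) (derivative Mb) =
          ∑ i ∈ S, r.res (M.coeff i) * (i : κ) * (r.res z) ^ (i - 1) := by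
        simp only [Mb]
        rw [derivative_sum, eval_finsetSum]
        refine Finset.sum_congr rfl (fun i _ => ?_)
        rw [derivative_C_mul_X_pow]
        simp
      rw [e1, e2, r.sum]
      · refine Finset.sum_congr rfl (fun i _ => ?_)
        rw [r.mul _ _ (by rw [map_mul]; exact mul_le_one' (h.coeff_le i) (hcast i))
          (by rw [map_pow]; exact pow_le_one' hzv _), r.pow hzv, r.mul _ _ (h.coeff_le i) (hcast i), hrn]
      · intro i _
        rw [map_mul, map_mul, map_pow]
        exact mul_le_one' (mul_le_one' (h.coeff_le i) (hcast i)) (pow_le_one' hzv _)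
    rw [← h1, r.ne_zero_iff h.unit.le]
    exact h.unit

/-- the residue field at level `L` -/
abbrev kapL (_ : Level v L T z M) (r : Red v κ) : Subfield κ :=
  Subfield.closure ((resL r L : Set κ) ∪ {r.res T, r.res z})

theorem span (p : ℕ) [hp : Fact p.Prime] [CharP κ p]
    (hperf : ∀ a ∈ L, v a ≤ 1 → ∃ b ∈ L, v b ≤ 1 ∧ v (a - b ^ p) < 1)
    (f : h.kapL r) : Rep p (⟨r.res T, Subfield.subset_closure (Or.inr (Or.inl rfl))⟩ : h.kapL r) f := by
  obtain ⟨Mb, hMc, hMz, hM'⟩ := h.exists_Mb r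
  have hle : Subfield.closure ((resL r L : Set κ) ∪ {r.res T}) ≤ h.kapL r :=
    Subfield.closure_mono (Set.union_subset_union_right _ (by intro y hy; exact Or.inl hy))
  have hl : Mb ∈ Polynomial.lifts (algebraMap (h.kapL r) κ) := by
    rw [Polynomial.lifts_iff_coeff_lifts]
    intro i
    exact ⟨⟨Mb.coeff i, hle (hMc i)⟩, rfl⟩
  obtain ⟨N, hN⟩ := (Polynomial.mem_lifts _).mp hl
  have : CharP (h.kapL r) p :=
    ((algebraMap (h.kapL r) κ).charP_iff (algebraMap (h.kapL r) κ).injective p).mpr inferInstance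
  have hev : ∀ P : (h.kapL r)[X], ∀ w : h.kapL r, ((eval w P : h.kapL r) : κ) =
      eval (w : κ) (P.map (algebraMap (h.kapL r) κ)) := by
    intro P w
    have : ((eval w P : h.kapL r) : κ) = algebraMap (h.kapL r) κ (eval w P) := rfl
    rw [this, ← eval₂_at_apply, eval_map]
    rfl
  refine span_rep (p := p) ((resL r L).comap (algebraMap (h.kapL r) κ)) ?_
    (⟨r.res T, Subfield.subset_closure (Or.inr (Or.inl rfl))⟩ : h.kapL r)
    (⟨r.res z, Subfield.subset_closure (Or.inr (Or.inr rfl))⟩ : h.kapL r) N ?_ ?_ ?_ ?_ f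
  · rintro ⟨a, ha⟩ ha'
    obtain ⟨a', ha'L, ha'1, ha'r⟩ := (mem_resL r L a).mp ha'
    obtain ⟨b, hb, hb1, hab⟩ := hperf a' ha'L ha'1
    refine ⟨⟨r.res b, Subfield.subset_closure (Or.inl ⟨b, hb, hb1, rfl⟩)⟩, ?_⟩
    apply Subtype.ext
    change a = r.res b ^ p
    rw [← r.pow hb1, ← ha'r]
    exact r.congr ha'1 (by rw [map_pow]; exact pow_le_one' hb1 p) hab
  · intro i
    have hi : ((N.coeff i : h.kapL r) : κ) = Mb.coeff i := by
      rw [← hN, coeff_map]; rfl
    have h1 : ((N.coeff i : h.kapL r) : κ) ∈ Subfield.closure ((resL r L : Set κ) ∪ {r.res T}) := by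
      rw [hi]; exact hMc i
    -- transfer to the subtype
    have h2 : ∀ y : κ, ∀ hy : y ∈ Subfield.closure ((resL r L : Set κ) ∪ {r.res T}),
        (⟨y, hle hy⟩ : h.kapL r) ∈ Subfield.closure
          ((((resL r L).comap (algebraMap (h.kapL r) κ) : Subfield (h.kapL r)) : Set (h.kapL r)) ∪
            {(⟨r.res T, Subfield.subset_closure (Or.inr (Or.inl rfl))⟩ : h.kapL r)}) := by
      intro y hy
      induction hy using Subfield.closure_induction with
      | mem x hx =>
        rcases hx with hx | hx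
        · exact Subfield.subset_closure (Or.inl hx)
        · rw [Set.mem_singleton_iff] at hx
          subst hx
          exact Subfield.subset_closure (Or.inr rfl)
      | one => exact one_mem _
      | add x y hx' hy' hx hy => exact add_mem hx hy
      | neg x hx' hx => exact neg_mem hx
      | inv x hx' hx => exact inv_mem hx
      | mul x y hx' hy' hx hy => exact mul_mem hx hy
    exact h2 _ h1
  · apply Subtype.ext
    rw [hev, hN]
    exact hMz
  · intro h0
    have h1 : ((eval _ (derivative N) : h.kapL r) : κ) = ((0 : h.kapL r) : κ) :=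
      congrArg (fun x : h.kapL r => (x : κ)) h0
    rw [hev, ← derivative_map, hN] at h1
    exact hM' h1
  · rw [eq_top_iff]
    have h1 := closure_coe_top ((resL r L : Set κ) ∪ {r.res T, r.res z})
    rw [← h1]
    apply Subfield.closure_mono
    rintro ⟨x, hx⟩ hx'
    rcases hx' with hx' | hx' | hx'
    · exact Or.inl hx'
    · exact Or.inr (Or.inl (Subtype.ext hx'))
    · exact Or.inr (Or.inr (Subtype.ext hx'))

end Level

end Crest.Agent.R013.CartC_359
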