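import Mathlib
/-
ROW 13, leaf CART (helper359).  CARTIER CONTRACTION.

R a domain, pi in R (think: uniformizer of a discrete valuation ring, constant for the derivation D), rho : R -> kappa surjective with
kernel (pi), D a derivation of R with D pi = 0 inducing Dbar on kappa, C a Cartier operator on kappa (kappa = coefficients of dx):
  C additive, C (y^p f) = y C f, C (Dbar f) = 0, C (f^(p-1) Dbar f) = Dbar f.
LEMMA (exact): b, r in R, D b = pi^N r  ==>  C^[N/e+1] (rho r) = 0, rho b in kappa^(p^ceil(N/e)).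
COROLLARY (dlog): h, g units, rho h = (rho g)^(p^n), D h = h pi^M t, M < n e   ==>   C^[M/e+1] (rho t) = 0.
-/
set_option autoImplicit false

namespace Crest.Agent.R013.Cart_359

open Function

/-- abstract data of a type 2 point: ring `R`, uniformizer `π`, reduction `ρ`, derivation `D`, reduced derivation `Db`,
Cartier operator `C`. -/
structure CartData (p : ℕ) (R κ : Type*) [CommRing R] [Field κ] where
  π : R
  ρ : R →+* κ
  D : R → R
  Db : κ → κ
  C : κ → κ
  u : R
  e : ℕ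
  hp : p.Prime
  charp : (p : κ) = 0
  reg : ∀ x : R, π * x = 0 → x = 0
  surj : Function.Surjective ρ
  ker : ∀ x : R, ρ x = 0 → ∃ y, x = π * y
  ρπ : ρ π = 0
  D_add : ∀ x y, D (x + y) = D x + D y
  D_mul : ∀ x y, D (x * y) = x * D y + y * D x
  Dπ : D π = 0
  ρD : ∀ x, ρ (D x) = Db (ρ x)
  C_add : ∀ x y, C (x + y) = C x + C y
  C_pow : ∀ y f, C (y ^ p * f) = y * C f
  C_exact : ∀ f, C (Db f) = 0
  C_log : ∀ f, C (f ^ (p - 1) * Db f) = Db f
  kerD : ∀ y, Db y = 0 → ∃ z, y = z ^ p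
  e_pos : 0 < e
  p_eq : (p : R) = u * π ^ e
  ρu : ρ u ≠ 0
  u_perf : ∀ i : ℕ, ∃ w : κ, w ^ (p ^ i) = ρ u

namespace CartData

variable {p : ℕ} {R κ : Type*} [CommRing R] [Field κ] (S : CartData p R κ)

include S

theorem C_zero : S.C 0 = 0 := by
  have h := S.C_add 0 0
  simpa using h

theorem C_neg (x : κ) : S.C (-x) = - S.C x := by
  have h := S.C_add x (-x)
  rw [add_neg_cancel, C_zero] at h
  exact (neg_eq_of_add_eq_zero_right h.symm).symm

theorem Cit_zero (n : ℕ) : S.C^[n] 0 = 0 := by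
  induction n with
  | zero => rfl
  | succ n ih => rw [Function.iterate_succ_apply, C_zero, ih]

theorem Cit_add (n : ℕ) (x y : κ) : S.C^[n] (x + y) = S.C^[n] x + S.C^[n] y := by
  induction n generalizing x y with
  | zero => rfl
  | succ n ih => rw [Function.iterate_succ_apply, S.C_add, ih, ← Function.iterate_succ_apply,
      ← Function.iterate_succ_apply]

theorem Cit_neg (n : ℕ) (x : κ) : S.C^[n] (-x) = - S.C^[n] x := by
  induction n generalizing x with
  | zero => rfl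
  | succ n ih => rw [Function.iterate_succ_apply, C_neg, ih, ← Function.iterate_succ_apply]

theorem Cit_pow (n : ℕ) (y f : κ) : S.C^[n] (y ^ (p ^ n) * f) = y * S.C^[n] f := by
  induction n generalizing f with
  | zero => simp
  | succ n ih =>
    rw [Function.iterate_succ_apply, pow_succ, pow_mul, S.C_pow, ih, ← Function.iterate_succ_apply]

theorem Cit_log (n : ℕ) (f : κ) : S.C^[n] (f ^ (p ^ n - 1) * S.Db f) = S.Db f := by
  induction n with
  | zero => simp
  | succ n ih =>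
    have h1 : 1 ≤ p := S.hp.one_lt.le
    have h2 : 1 ≤ p ^ n := Nat.one_le_pow _ _ h1
    have h3 : p ^ (n + 1) - 1 = (p ^ n - 1) * p + (p - 1) := by
      rw [pow_succ, Nat.sub_mul]
      have : p ≤ p ^ n * p := Nat.le_mul_of_pos_left p (by omega)
      omega
    rw [Function.iterate_succ_apply, h3, pow_add, pow_mul, mul_assoc, S.C_pow, S.C_log, ih]

/-- an iterate kills everything that a smaller iterate kills -/
theorem Cit_mono {m n : ℕ} (h : m ≤ n) {x : κ} (hx : S.C^[m] x = 0) : S.C^[n] x = 0 := by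
  obtain ⟨k, rfl⟩ := Nat.exists_eq_add_of_le' h
  rw [Function.iterate_add_apply, hx, Cit_zero]

theorem D_zero : S.D 0 = 0 := by
  have h := S.D_add 0 0
  simpa using h

theorem D_pow (x : R) (n : ℕ) : S.D (x ^ (n + 1)) = (n + 1 : ℕ) * x ^ n * S.D x := by
  induction n with
  | zero => simp
  | succ n ih =>
    rw [pow_succ x (n + 1), S.D_mul, ih]
    push_cast
    ring

theorem D_pow' (x : R) {n : ℕ} (hn : 1 ≤ n) : S.D (x ^ n) = (n : R) * x ^ (n - 1) * S.D x := by
  obtain ⟨m, rfl⟩ := Nat.exists_eq_add_of_le' hn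
  rw [D_pow]
  simp

theorem D_π_pow (n : ℕ) : S.D (S.π ^ n) = 0 := by
  rcases Nat.eq_zero_or_pos n with h | h
  · subst h
    have h1 := S.D_mul 1 1
    simp at h1
    simpa using h1
  · rw [D_pow' S S.π h, S.Dπ, mul_zero]

theorem D_π_mul (n : ℕ) (x : R) : S.D (S.π ^ n * x) = S.π ^ n * S.D x := by
  rw [S.D_mul, D_π_pow, mul_zero, add_zero]

theorem D_π_mul1 (x : R) : S.D (S.π * x) = S.π * S.D x := by
  simpa using D_π_mul S 1 x

theorem reg_pow (n : ℕ) {x y : R} (h : S.π ^ n * x = S.π ^ n * y) : x = y := by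
  induction n with
  | zero => simpa using h
  | succ n ih =>
    apply ih
    have : S.π * (S.π ^ n * x - S.π ^ n * y) = 0 := by
      rw [mul_sub, ← mul_assoc, ← mul_assoc, ← pow_succ', h, sub_self]
    exact sub_eq_zero.mp (S.reg _ this)

theorem reg1 {x y : R} (h : S.π * x = S.π * y) : x = y := by
  apply reg_pow S 1
  simpa using h

/-- lifting: `ρ b = (ρ a)^m` gives `b = a^m + π b₁` -/
theorem lift_pow (b a : R) (m : ℕ) (h : S.ρ b = S.ρ a ^ m) : ∃ b₁, b = a ^ m + S.π * b₁ := by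
  obtain ⟨y, hy⟩ := S.ker (b - a ^ m) (by rw [map_sub, map_pow, h, sub_self])
  exact ⟨y, by rw [← hy]; ring⟩

theorem p_pow (i : ℕ) : ((p ^ i : ℕ) : R) = S.u ^ i * S.π ^ (i * S.e) := by
  push_cast
  rw [S.p_eq, mul_pow, ← pow_mul, mul_comm S.e i]

/-- the constant factor: `C^[i]` of `ū^j * a^(p^i-1) * Da` -/
theorem Cit_const (i j k : ℕ) (a : κ) : ∃ w : κ, w ≠ 0 ∧ (∃ w', w = w' ^ (p ^ k)) ∧
    S.C^[i] (S.ρ S.u ^ j * (a ^ (p ^ i - 1) * S.Db a)) = w * S.Db a := by
  obtain ⟨w, hw⟩ := S.u_perf (k + i)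
  have hw0 : w ≠ 0 := by
    rintro rfl
    apply S.ρu
    rw [← hw, zero_pow]
    exact (Nat.pow_pos S.hp.pos).ne'
  refine ⟨(w ^ j) ^ (p ^ k), pow_ne_zero _ (pow_ne_zero _ hw0), ⟨w ^ j, rfl⟩, ?_⟩
  have h1 : S.ρ S.u ^ j = ((w ^ j) ^ (p ^ k)) ^ (p ^ i) := by
    rw [← hw, ← pow_mul, ← pow_mul, ← pow_mul, pow_add]
    ring_nf
  rw [h1, Cit_pow, Cit_log]

/-- MAIN LEMMA: reductions of exact forms (with denominators) are Cartier nilpotent. -/
theorem exact_nil (N : ℕ) : ∀ b r : R, S.D b = S.π ^ N * r →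
    (∀ i, i * S.e < N + S.e → ∃ y : κ, S.ρ b = y ^ (p ^ i)) ∧ S.C^[N / S.e + 1] (S.ρ r) = 0 := by
  induction N using Nat.strong_induction_on with
  | _ N IH =>
  intro b r hbr
  have he := S.e_pos
  rcases Nat.eq_zero_or_pos N with hN | hN
  · subst hN
    constructor
    · intro i hi
      have : i = 0 := by
        by_contra h
        have : S.e ≤ i * S.e := Nat.le_mul_of_pos_left _ (Nat.pos_of_ne_zero h)
        omega
      subst this
      exact ⟨S.ρ b, by simp⟩
    · have hr : r = S.D b := by simpa using hbr.symm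
      rw [hr, S.ρD]
      simp [S.C_exact]
  -- part (i)
  have hi : ∀ i, i * S.e < N + S.e → ∃ y : κ, S.ρ b = y ^ (p ^ i) := by
    intro i
    induction i with
    | zero => intro _; exact ⟨S.ρ b, by simp⟩
    | succ i ih =>
      intro hlt
      have hlt' : i * S.e < N := by
        have : (i + 1) * S.e = i * S.e + S.e := by ring
        omega
      obtain ⟨y, hy⟩ := ih (by omega)
      obtain ⟨a, rfl⟩ := S.surj y
      rcases Nat.eq_zero_or_pos i with hi0 | hi0
      · subst hi0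
        have h0 : S.Db (S.ρ b) = 0 := by
          rw [← S.ρD, hbr, map_mul, map_pow, S.ρπ, zero_pow hN.ne', zero_mul]
        obtain ⟨z, hz⟩ := S.kerD _ h0
        exact ⟨z, by simpa using hz⟩
      · obtain ⟨b₁, hb₁⟩ := lift_pow S b a _ hy
        have hpp : 1 ≤ p ^ i := Nat.one_le_pow _ _ S.hp.pos
        have h1 : S.D b = (S.u ^ i * S.π ^ (i * S.e)) * a ^ (p ^ i - 1) * S.D a + S.π * S.D b₁ := by
          rw [hb₁, S.D_add, D_pow' S a hpp, p_pow S, D_π_mul1 S]
        -- i * e ≥ 1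
        have hie : 1 ≤ i * S.e := Nat.mul_pos hi0 he
        obtain ⟨c, hc⟩ := Nat.exists_eq_add_of_le' hie
        obtain ⟨d, hd⟩ : ∃ d, N = i * S.e + (d + 1) := ⟨N - i * S.e - 1, by omega⟩
        have h2 : S.D b₁ = S.π ^ c * (S.π ^ (d + 1) * r - S.u ^ i * (a ^ (p ^ i - 1) * S.D a)) := by
          apply reg1 S
          have h3 : S.π * S.D b₁ = S.π ^ N * r - (S.u ^ i * S.π ^ (i * S.e)) * a ^ (p ^ i - 1) * S.D a := by
            rw [← hbr, h1]; ring
          rw [h3, hd, hc]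
          ring
        have hcN : c < N := by omega
        have h4 := (IH c hcN b₁ _ h2).2
        have hce : c / S.e + 1 = i := by
          have : c = i * S.e - 1 := by omega
          obtain ⟨i', hi'⟩ : ∃ i', i = i' + 1 := ⟨i - 1, by omega⟩
          subst hi'
          have h5 : c = i' * S.e + (S.e - 1) := by
            have : (i' + 1) * S.e = i' * S.e + S.e := by ring
            omega
          rw [h5]
          have : (i' * S.e + (S.e - 1)) / S.e = i' := by
            rw [mul_comm, Nat.mul_add_div he]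
            have : (S.e - 1) / S.e = 0 := Nat.div_eq_of_lt (by omega)
            omega
          omega
        rw [hce, map_sub, map_mul, map_pow, S.ρπ, zero_pow (Nat.succ_ne_zero d), zero_mul, zero_sub, Cit_neg,
          neg_eq_zero, map_mul, map_pow, map_mul, map_pow, S.ρD] at h4
        obtain ⟨w, hw0, -, hw⟩ := Cit_const S i i 0 (S.ρ a)
        rw [hw] at h4
        have h5 : S.Db (S.ρ a) = 0 := by
          rcases mul_eq_zero.mp h4 with h | h
          · exact absurd h hw0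
          · exact h
        obtain ⟨z, hz⟩ := S.kerD _ h5
        refine ⟨z, ?_⟩
        rw [hy, hz, ← pow_mul, pow_succ, mul_comm]
  refine ⟨hi, ?_⟩
  -- part (ii): j = ceil (N / e)
  obtain ⟨j, hj1, hj2⟩ : ∃ j, N ≤ j * S.e ∧ j * S.e < N + S.e := by
    refine ⟨(N + S.e - 1) / S.e, ?_, ?_⟩
    · have h1 := Nat.lt_div_mul_add (a := N + S.e - 1) he
      omega
    · have h1 := Nat.div_mul_le_self (N + S.e - 1) S.e
      omega
  obtain ⟨y, hy⟩ := hi j hj2
  obtain ⟨a, rfl⟩ := S.surj y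
  obtain ⟨b₁, hb₁⟩ := lift_pow S b a _ hy
  have hpp : 1 ≤ p ^ j := Nat.one_le_pow _ _ S.hp.pos
  have h1 : S.D b = (S.u ^ j * S.π ^ (j * S.e)) * a ^ (p ^ j - 1) * S.D a + S.π * S.D b₁ := by
    rw [hb₁, S.D_add, D_pow' S a hpp, p_pow S, D_π_mul1 S]
  obtain ⟨N', hN'⟩ := Nat.exists_eq_add_of_le' hN
  obtain ⟨d, hd⟩ := Nat.exists_eq_add_of_le hj1
  have h2 : S.D b₁ = S.π ^ N' * (r - S.u ^ j * S.π ^ d * (a ^ (p ^ j - 1) * S.D a)) := by
    apply reg1 S
    have h3 : S.π * S.D b₁ = S.π ^ N * r - (S.u ^ j * S.π ^ (j * S.e)) * a ^ (p ^ j - 1) * S.D a := by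
      rw [← hbr, h1]; ring
    rw [h3, hd, hN']
    ring
  have h4 := (IH N' (by omega) b₁ _ h2).2
  have h5 : S.ρ r = S.ρ (r - S.u ^ j * S.π ^ d * (a ^ (p ^ j - 1) * S.D a)) +
      S.ρ S.u ^ j * S.ρ S.π ^ d * (S.ρ a ^ (p ^ j - 1) * S.Db (S.ρ a)) := by
    rw [← S.ρD, ← map_pow, ← map_pow, ← map_mul, ← map_pow, ← map_mul, ← map_mul, ← map_add]
    congr 1
    ring
  have h6 : N' / S.e ≤ N / S.e := Nat.div_le_div_right (by omega)
  rw [h5, Cit_add, Cit_mono S (by omega) h4, zero_add]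
  rcases Nat.eq_zero_or_pos d with hd0 | hd0
  · subst hd0
    have hNj : N / S.e = j := by
      rw [add_zero] at hd
      rw [← hd, Nat.mul_div_cancel _ he]
    rw [pow_zero, mul_one, hNj]
    obtain ⟨w, -, ⟨w', hw'⟩, hw⟩ := Cit_const S j j 1 (S.ρ a)
    rw [Function.iterate_succ_apply', hw, hw', pow_one, S.C_pow, S.C_exact, mul_zero]
  · rw [S.ρπ, zero_pow hd0.ne', mul_zero, zero_mul, Cit_zero]

/-- COROLLARY (M2): if `h` and `g` are units, `h̄ = ḡ^(p^n)` and `dlog h = π^M t` with `M < n e`, then `t̄` is Cartier nilpotent. -/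
theorem dlog_nil (h g t : R) (n M : ℕ) (hg : IsUnit g) (hhg : S.ρ h = S.ρ g ^ (p ^ n))
    (hM : M < n * S.e) (ht : S.D h = h * (S.π ^ M * t)) : S.C^[M / S.e + 1] (S.ρ t) = 0 := by
  obtain ⟨g', hg'⟩ := hg.exists_right_inv
  -- h = g^(p^n) (1 + π b)
  obtain ⟨b₁, hb₁⟩ := lift_pow S h g _ hhg
  set P := p ^ n with hP
  have hP1 : 1 ≤ P := Nat.one_le_pow _ _ S.hp.pos
  have hgP : g ^ P * g' ^ P = 1 := by rw [← mul_pow, hg', one_pow]
  set y := S.π * (g' ^ P * b₁) with hy
  have hh : h = g ^ P * (1 + y) := by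
    rw [hb₁, hy]
    linear_combination (-(S.π * b₁)) * hgP
  have hD1 : S.D (1 : R) = 0 := by
    have h1 := S.D_mul 1 1
    simp at h1
    simpa using h1
  have h1 : S.D h = g ^ P * S.D y + (1 + y) * (((P : ℕ) : R) * g ^ (P - 1) * S.D g) := by
    rw [hh, S.D_mul, S.D_add, hD1, zero_add, D_pow' S g hP1]
  have hPe : ((P : ℕ) : R) = S.u ^ n * S.π ^ (n * S.e) := p_pow S n
  obtain ⟨d, hd⟩ : ∃ d, n * S.e = M + (d + 1) := ⟨n * S.e - M - 1, by omega⟩
  -- D y = π^M * r
  have h2 : S.D y = S.π ^ M * ((1 + y) * t - g' ^ P * ((1 + y) * (S.u ^ n * S.π ^ (d + 1) * g ^ (P - 1) * S.D g))) := by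
    have h3 : g ^ P * S.D y = h * (S.π ^ M * t) - (1 + y) * (((P : ℕ) : R) * g ^ (P - 1) * S.D g) := by
      rw [← ht, h1]; ring
    have h4 : S.D y = g' ^ P * (g ^ P * S.D y) := by
      linear_combination (-S.D y) * hgP
    rw [h4, h3, hPe, hd, hh]
    linear_combination ((1 + y) * S.π ^ M * t) * hgP
  have h5 := (exact_nil S M y _ h2).2
  have hρy : S.ρ y = 0 := by rw [hy, map_mul, S.ρπ, zero_mul]
  rw [map_sub, map_mul, map_add, map_one, hρy, add_zero, one_mul] at h5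
  rw [show g' ^ P * ((1 + y) * (S.u ^ n * S.π ^ (d + 1) * g ^ (P - 1) * S.D g)) =
      S.π * (g' ^ P * ((1 + y) * (S.u ^ n * S.π ^ d * g ^ (P - 1) * S.D g))) by ring,
    map_mul, S.ρπ, zero_mul, sub_zero] at h5
  exact h5

end CartData

end Crest.Agent.R013.Cart_359
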