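import Crest.Agent.R013.CartC4_359
import Crest.Agent.R013.Cart_359
/-
ROW 13, leaf CARTC (helper359), file 5: CartData at a discrete level and the Cartier contraction at that level.
-/
set_option autoImplicit false
set_option linter.unusedSectionVars false

namespace Crest.Agent.R013.CartC_359

open Polynomial Crest.Agent.R013.Chart_359 Crest.Agent.R013.Cart_359

variable {K Γ₀ κ : Type*} [Field K] [LinearOrderedCommGroupWithZero Γ₀] [Field κ]

namespace Level

variable {v : Valuation K Γ₀} {L : Subfield K} {T z : K} {M : K[X]} (h : Level v L T z M)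
  (r : Red v κ)

include h

/-- the valuation ring at level `L` -/
def RL (v : Valuation K Γ₀) (L : Subfield K) (T z : K) : Subring K :=
  (KL L T z).toSubring ⊓ v.integer

omit h in
theorem mem_RL {x : K} : x ∈ RL v L T z ↔ x ∈ KL L T z ∧ v x ≤ 1 := Iff.rfl

/-- reduction `RL → kapL` -/
def rhoL : RL v L T z →+* h.kapL r where
  toFun x := ⟨r.res x, h.res_KL r x.2.1 x.2.2⟩
  map_one' := Subtype.ext r.one
  map_mul' x y := Subtype.ext (r.mul _ _ x.2.2 y.2.2)
  map_zero' := Subtype.ext r.zero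
  map_add' x y := Subtype.ext (r.add _ _ x.2.2 y.2.2)

/-- the derivation on `RL` -/
theorem D_mem (D : Derivation ℤ K K) (hDL : ∀ a ∈ L, D a = 0) (hDT : D T = 1)
    (hDz : D z ∈ KL L T z) {x : K} (hx : x ∈ KL L T z) : D x ∈ KL L T z := by
  induction hx using Subfield.closure_induction with
  | mem x hx =>
    rcases hx with hx | hx
    · rw [hDL x hx]; exact zero_mem _
    · rcases hx with rfl | hx
      · rw [hDT]; exact one_mem _
      · rw [Set.mem_singleton_iff] at hx
        subst hx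
        exact hDz
  | one => rw [D.map_one_eq_zero]; exact zero_mem _
  | add x y _ _ hx hy => rw [map_add]; exact add_mem hx hy
  | neg x _ hx => rw [map_neg]; exact neg_mem hx
  | inv x hx' hx =>
    rcases eq_or_ne x 0 with rfl | h0
    · rw [inv_zero, map_zero]; exact zero_mem _
    · rw [Derivation.leibniz_inv, smul_eq_mul]
      exact mul_mem (neg_mem (pow_mem (inv_mem hx') 2)) hx
  | mul x y hx' hy' hx hy =>
    rw [Derivation.leibniz, smul_eq_mul, smul_eq_mul]
    exact add_mem (mul_mem hx' hy) (mul_mem hy' hx)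


section data

variable (D : Derivation ℤ K K) (hDL : ∀ a ∈ L, D a = 0) (hDT : D T = 1)
  (Δ : Derivation ℤ κ κ) (hΔ : ∀ x, v x ≤ 1 → r.res (D x) = Δ (r.res x))
  (hDz : D z ∈ KL L T z)

include hDL hDT hΔ hDz in
theorem Delta_mem (y : h.kapL r) : Δ (y : κ) ∈ h.kapL r := by
  obtain ⟨x, hx, hx1, hxy⟩ := h.lift_KL r y.2
  rw [← hxy, ← hΔ x hx1]
  exact h.res_KL r (h.D_mem D hDL hDT hDz hx) (h.v_D_le D hDL hDT hx hx1)

/-- the derivation on the residue field at level `L` -/
noncomputable def DeltaL (hm : ∀ y : h.kapL r, Δ (y : κ) ∈ h.kapL r) :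
    Derivation ℤ (h.kapL r) (h.kapL r) :=
  Derivation.mk' (AddMonoidHom.toIntLinearMap
    { toFun := fun y => ⟨Δ (y : κ), hm y⟩
      map_zero' := Subtype.ext (by simp)
      map_add' := fun x y => Subtype.ext (by simp) })
    (fun a b => Subtype.ext (by
      change Δ ((a : κ) * b) = (a : κ) • Δ (b : κ) + (b : κ) • Δ (a : κ)
      rw [Derivation.leibniz]))

theorem DeltaL_coe (hm : ∀ y : h.kapL r, Δ (y : κ) ∈ h.kapL r) (y : h.kapL r) :
    ((h.DeltaL r Δ hm y : h.kapL r) : κ) = Δ (y : κ) := rfl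

end data

/-- CARTIER CONTRACTION AT A DISCRETE LEVEL. -/
theorem cart (p : ℕ) [hp : Fact p.Prime] [CharP κ p]
    (π : K) (hπL : π ∈ L) (hπ0 : π ≠ 0) (hπ1 : v π < 1) (hπ : ∀ a ∈ L, v a < 1 → v a ≤ v π)
    (e : ℕ) (he : 0 < e) (hpe : v (p : K) = v π ^ e)
    (hperf : ∀ a ∈ L, v a ≤ 1 → ∃ b ∈ L, v b ≤ 1 ∧ v (a - b ^ p) < 1)
    (D : Derivation ℤ K K) (hDL : ∀ a ∈ L, D a = 0) (hDT : D T = 1)
    (Δ : Derivation ℤ κ κ) (hΔ : ∀ x, v x ≤ 1 → r.res (D x) = Δ (r.res x))
    (hDz : D z ∈ KL L T z)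
    (CO : κ → κ) (hCO : ∀ y : ℕ → κ, CO (∑ i ∈ Finset.range p, y i ^ p * r.res T ^ i) = y (p - 1))
    (x : K) (hx : x ∈ KL L T z) (hx1 : v x = 1) (g : K) (hg : g ∈ KL L T z) (hg1 : v g ≤ 1)
    (n : ℕ) (hxg : r.res x = r.res g ^ (p ^ n))
    (c : K) (hc : c ∈ L) (hcx : v c = v (D x)) (hcn : v (p : K) ^ n < v c) :
    ∃ m, CO^[m] (r.res (D x / (c * x))) = 0 := by
  have hvπ : v π ≠ 0 := (Valuation.ne_zero_iff v).mpr hπ0
  have hpn : CharP (h.kapL r) p :=
    ((algebraMap (h.kapL r) κ).charP_iff (algebraMap (h.kapL r) κ).injective p).mpr inferInstance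
  have hm := h.Delta_mem r D hDL hDT Δ hΔ hDz
  let Δ' := h.DeltaL r Δ hm
  let t' : h.kapL r := ⟨r.res T, Subfield.subset_closure (Or.inr (Or.inl rfl))⟩
  have hspan : ∀ f : h.kapL r, Rep p t' f := h.span r p hperf
  have ht' : Δ' t' = 1 := by
    apply Subtype.ext
    change Δ (r.res T) = 1
    rw [← hΔ T h.T_le, hDT, r.one]
  -- the Cartier operator at level L
  have hCmem : ∀ y : h.kapL r, CO (y : κ) ∈ h.kapL r := by
    intro y
    obtain ⟨w, hw⟩ := hspan y
    have h1 : (y : κ) = ∑ i ∈ Finset.range p, (w i : κ) ^ p * r.res T ^ i := by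
      have := congrArg (fun x : h.kapL r => (x : κ)) hw
      simpa using this
    rw [h1, hCO]
    exact (w (p - 1)).2
  let CO' : h.kapL r → h.kapL r := fun y => ⟨CO (y : κ), hCmem y⟩
  have hCO' : ∀ y : ℕ → h.kapL r, CO' (∑ i ∈ Finset.range p, y i ^ p * t' ^ i) = y (p - 1) := by
    intro y
    apply Subtype.ext
    change CO (((∑ i ∈ Finset.range p, y i ^ p * t' ^ i : h.kapL r)) : κ) = (y (p - 1) : κ)
    rw [← hCO (fun i => (y i : κ))]
    congr 1
    simp [t']
  -- the unit u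
  have hπR : π ∈ RL v L T z := ⟨FL_le_KL L T z (L_le_FL L T hπL), hπ1.le⟩
  have hpL : (p : K) ∈ L := natCast_mem L p
  have hu1 : v ((p : K) / π ^ e) = 1 := by
    rw [map_div₀, map_pow, hpe, div_self (pow_ne_zero _ hvπ)]
  have huL : (p : K) / π ^ e ∈ L := div_mem hpL (pow_mem hπL e)
  have huR : (p : K) / π ^ e ∈ RL v L T z := ⟨FL_le_KL L T z (L_le_FL L T huL), hu1.le⟩
  -- perfectness of the residue field of constants
  have hres : ∀ a ∈ L, v a ≤ 1 → ∀ i : ℕ, ∃ b ∈ L, v b ≤ 1 ∧ r.res b ^ (p ^ i) = r.res a := by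
    intro a ha ha1 i
    induction i with
    | zero => exact ⟨a, ha, ha1, by simp⟩
    | succ i ih =>
      obtain ⟨b, hb, hb1, hba⟩ := ih
      obtain ⟨b', hb', hb'1, hbb'⟩ := hperf b hb hb1
      refine ⟨b', hb', hb'1, ?_⟩
      rw [← hba, r.congr hb1 (by rw [map_pow]; exact pow_le_one' hb'1 p) hbb', r.pow hb'1, ← pow_mul,
        ← pow_succ']
  let S : CartData p (RL v L T z) (h.kapL r) :=
    { π := ⟨π, hπR⟩
      ρ := h.rhoL r
      D := fun x => ⟨D x, h.D_mem D hDL hDT hDz x.2.1, h.v_D_le D hDL hDT x.2.1 x.2.2⟩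
      Db := fun y => Δ' y
      C := CO'
      u := ⟨(p : K) / π ^ e, huR⟩
      e := e
      hp := hp.out
      charp := CharP.cast_eq_zero (h.kapL r) p
      reg := by
        intro x hx
        have h1 : π * (x : K) = 0 := congrArg (fun x : RL v L T z => (x : K)) hx
        rcases mul_eq_zero.mp h1 with h2 | h2
        · exact absurd h2 hπ0
        · exact Subtype.ext h2
      surj := by
        intro y
        obtain ⟨x, hx, hx1, hxy⟩ := h.lift_KL r y.2
        exact ⟨⟨x, hx, hx1⟩, Subtype.ext hxy⟩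
      ker := by
        intro x hx
        have h1 : r.res (x : K) = 0 := congrArg (fun x : h.kapL r => (x : κ)) hx
        have h2 : v (x : K) < 1 := (r.zero_iff _ x.2.2).mp h1
        obtain ⟨a, ha, ha1, hxa⟩ := h.exists_dominate x.2.1 h2
        have h3 : v (x : K) ≤ v π := hxa.trans (hπ a ha ha1)
        have h4 : (x : K) / π ∈ KL L T z := div_mem (show (x : K) ∈ KL L T z from x.2.1)
          (FL_le_KL L T z (L_le_FL L T hπL))
        have h5 : v ((x : K) / π) ≤ 1 := by
          rw [map_div₀]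
          exact div_le_one_of_le₀ h3 zero_le
        refine ⟨⟨(x : K) / π, h4, h5⟩, ?_⟩
        · apply Subtype.ext
          change (x : K) = π * ((x : K) / π)
          rw [mul_div_cancel₀ _ hπ0]
      ρπ := Subtype.ext ((r.zero_iff π hπ1.le).mpr hπ1)
      D_add := fun x y => Subtype.ext (map_add D _ _)
      D_mul := fun x y => Subtype.ext (by
        change D ((x : K) * y) = (x : K) * D y + (y : K) * D x
        rw [Derivation.leibniz, smul_eq_mul, smul_eq_mul])
      Dπ := Subtype.ext (hDL π hπL)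
      ρD := fun x => Subtype.ext (hΔ x x.2.2)
      C_add := car_add hspan CO' hCO'
      C_pow := car_pow hspan CO' hCO'
      C_exact := car_exact Δ' ht' hspan CO' hCO'
      C_log := car_log Δ' ht' hspan CO' hCO'
      kerD := exists_pow_of_delta Δ' ht' hspan
      e_pos := he
      p_eq := Subtype.ext (by
        change (p : K) = (p : K) / π ^ e * π ^ e
        rw [div_mul_cancel₀ _ (pow_ne_zero _ hπ0)])
      ρu := by
        intro h0
        have h1 : r.res ((p : K) / π ^ e) = 0 := congrArg (fun x : h.kapL r => (x : κ)) h0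
        exact (r.ne_zero_iff hu1.le).mpr hu1 h1
      u_perf := by
        intro i
        obtain ⟨b, hb, hb1, hbu⟩ := hres _ huL hu1.le i
        exact ⟨⟨r.res b, h.res_KL r (FL_le_KL L T z (L_le_FL L T hb)) hb1⟩, Subtype.ext hbu⟩ }
  -- the exponent of c
  have hcM : ∃ M, M < n * e ∧ v c ≤ v π ^ M ∧ ¬ v c ≤ v π ^ (M + 1) := by
    have hn : ¬ v c ≤ v π ^ (n * e) := by
      rw [not_le, mul_comm, pow_mul, ← hpe]
      exact hcn
    have h0 : v c ≤ v π ^ 0 := by
      rw [pow_zero, hcx]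
      exact h.v_D_le D hDL hDT hx hx1.le
    by_contra hcon
    push Not at hcon
    have : ∀ k, k ≤ n * e → v c ≤ v π ^ k := by
      intro k
      induction k with
      | zero => intro _; exact h0
      | succ k ih => intro hk; exact hcon k (by omega) (ih (by omega))
    exact hn (this _ le_rfl)
  obtain ⟨N, hN, hcN, hcN'⟩ := hcM
  set w := c / π ^ N with hw
  have hwL : w ∈ L := div_mem hc (pow_mem hπL N)
  have hw1 : v w = 1 := by
    have h1 : v w ≤ 1 := by
      rw [hw, map_div₀, map_pow]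
      exact div_le_one_of_le₀ hcN zero_le
    refine le_antisymm h1 (not_lt.mp (fun hlt => hcN' ?_))
    have h2 := hπ w hwL hlt
    have h3 : c = π ^ N * w := by rw [hw, mul_div_cancel₀ _ (pow_ne_zero _ hπ0)]
    rw [h3, map_mul, map_pow, pow_succ]
    exact mul_le_mul_right h2 _
  have hw0 : w ≠ 0 := by rintro h0; rw [h0, map_zero] at hw1; exact zero_ne_one hw1
  have hx0 : x ≠ 0 := by rintro rfl; rw [map_zero] at hx1; exact zero_ne_one hx1
  have hcw : c = π ^ N * w := by rw [hw, mul_div_cancel₀ _ (pow_ne_zero _ hπ0)]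
  -- g is a unit
  have hg1' : v g = 1 := by
    rw [← r.ne_zero_iff hg1]
    intro h0
    rw [h0, zero_pow (pow_ne_zero _ hp.out.ne_zero)] at hxg
    exact (r.ne_zero_iff hx1.le).mpr hx1 hxg
  have hg0 : g ≠ 0 := by rintro rfl; rw [map_zero] at hg1'; exact zero_ne_one hg1'
  -- t
  set t := D x / (x * π ^ N) with ht
  have hDx : D x ∈ KL L T z := h.D_mem D hDL hDT hDz hx
  have htK : t ∈ KL L T z := div_mem hDx (mul_mem hx (pow_mem (FL_le_KL L T z (L_le_FL L T hπL)) N))
  have htv : v t ≤ 1 := by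
    rw [ht, map_div₀, map_mul, map_pow, hx1, one_mul, ← hcx]
    exact div_le_one_of_le₀ hcN zero_le
  have key := S.dlog_nil ⟨x, hx, hx1.le⟩ ⟨g, hg, hg1⟩ ⟨t, htK, htv⟩ n N ?_ ?_ hN ?_
  · -- conclusion
    refine ⟨N / e + 1, ?_⟩
    obtain ⟨b, hb, hb1, hbw⟩ := hres w hwL hw1.le (N / e + 1)
    have hb1' : v b = 1 := by
      rw [← r.ne_zero_iff hb1]
      intro h0
      rw [h0, zero_pow (pow_ne_zero _ hp.out.ne_zero)] at hbw
      exact (r.ne_zero_iff hw1.le).mpr hw1 hbw.symm
    have hb0 : b ≠ 0 := by rintro rfl; rw [map_zero] at hb1'; exact zero_ne_one hb1'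
    have h1 : D x / (c * x) = t / w := by
      rw [ht, hcw]
      field_simp
    let bb : h.kapL r := ⟨r.res b⁻¹, h.res_KL r (inv_mem (FL_le_KL L T z (L_le_FL L T hb)))
      (by rw [map_inv₀, hb1', inv_one])⟩
    have h2 := S.Cit_pow (N / e + 1) bb (S.ρ ⟨t, htK, htv⟩)
    rw [key, mul_zero] at h2
    have h3 : ∀ m (y : h.kapL r), ((S.C^[m] y : h.kapL r) : κ) = CO^[m] (y : κ) := by
      intro m
      induction m with
      | zero => intro y; rfl
      | succ m ih =>
        intro y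
        rw [Function.iterate_succ_apply, Function.iterate_succ_apply, ih]
    have h4 := congrArg (fun x : h.kapL r => (x : κ)) h2
    simp only [h3] at h4
    have h5 : ((bb ^ p ^ (N / e + 1) * S.ρ ⟨t, htK, htv⟩ : h.kapL r) : κ) = r.res (D x / (c * x)) := by
      change r.res b⁻¹ ^ p ^ (N / e + 1) * r.res t = _
      rw [h1, r.div htv hw1, ← hbw, r.inv hb1', inv_pow, div_eq_inv_mul]
    rw [h5] at h4
    exact h4
  · rw [isUnit_iff_exists_inv]
    have h4 : g⁻¹ ∈ KL L T z := inv_mem hg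
    have h5 : v g⁻¹ ≤ 1 := by rw [map_inv₀, hg1', inv_one]
    exact ⟨⟨g⁻¹, h4, h5⟩, Subtype.ext (mul_inv_cancel₀ hg0)⟩
  · apply Subtype.ext
    change r.res x = ((h.rhoL r ⟨g, hg, hg1⟩ ^ p ^ n : h.kapL r) : κ)
    rw [hxg]
    rfl
  · apply Subtype.ext
    change D x = x * (π ^ N * t)
    rw [ht]
    field_simp

end Level

end Crest.Agent.R013.CartC_359
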