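import Crest.Agent.R013.CartG1_359
import Crest.Agent.R013.EE4_809
/-
ROW 13, leaf CARTC (helper359), file E1: the Cartier contraction in 809's field `EE k C` (two-sided series).
-/
set_option autoImplicit false
set_option linter.unusedSectionVars false

namespace Crest.Agent.R013.CartE_359

open Filter Topology
open scoped NNReal
open Crest.Agent.R013.Cell_408 (FinDef DiscNorm exists_max BD)
open Crest.Agent.R013.EE809 Crest.Agent.R013.CartC_359 Crest.Agent.R013.CartG_359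

variable {k : Type*} [NontriviallyNormedField k] [CompleteSpace k] [IsUltrametricDist k]
variable {C : Type*} [NormedField C] [IsUltrametricDist C] [NormedAlgebra k C]
  [Algebra.IsAlgebraic k C] [IsAlgClosed C] [hk : Fact (DiscNorm k)]

/-- the norm in `ℝ≥0` -/
noncomputable def gnn (a : EE k C) : ℝ≥0 := ⟨gn a, gn_nonneg a⟩

omit [IsUltrametricDist k] [IsAlgClosed C] hk in
theorem coe_gnn (a : EE k C) : (gnn a : ℝ) = gn a := rfl

/-- the norm `gn` as a valuation -/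
noncomputable def vE : Valuation (EE k C) ℝ≥0 where
  toFun a := gnn a
  map_zero' := by
    rw [← NNReal.coe_inj, coe_gnn, gn_zero, NNReal.coe_zero]
  map_one' := by
    rw [← NNReal.coe_inj, coe_gnn, gn_one, NNReal.coe_one]
  map_mul' a b := by
    rw [← NNReal.coe_inj, NNReal.coe_mul, coe_gnn, coe_gnn, coe_gnn, gn_mul hk.out a b]
  map_add_le_max' a b := by
    rw [← NNReal.coe_le_coe, NNReal.coe_max, coe_gnn, coe_gnn, coe_gnn]
    exact gn_add_le a b

theorem coe_vE (a : EE k C) : ((vE a : ℝ≥0) : ℝ) = gn a := rfl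

theorem vE_le_one {a : EE k C} : vE a ≤ 1 ↔ gn a ≤ 1 := by
  rw [← NNReal.coe_le_coe, coe_vE, NNReal.coe_one]

theorem vE_lt_one {a : EE k C} : vE a < 1 ↔ gn a < 1 := by
  rw [← NNReal.coe_lt_coe, coe_vE, NNReal.coe_one]

/-- elements with coefficients in `L` -/
noncomputable def EL (L : IntermediateField k C) [FiniteDimensional k L] : Subfield (EE k C) where
  carrier := {a | InL L a}
  mul_mem' := fun ha hb => InL.mul ha hb
  one_mem' := InL.one L
  add_mem' := fun ha hb => InL.add ha hb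
  zero_mem' := InL.zero L
  neg_mem' := fun ha => InL.neg ha
  inv_mem' := fun _ ha => inL_inv ha

theorem mem_EL {L : IntermediateField k C} [FiniteDimensional k L] {a : EE k C} :
    a ∈ EL L ↔ InL L a := Iff.rfl

/-- constants in `L` -/
noncomputable def LC (L : IntermediateField k C) : Subfield (EE k C) :=
  L.toSubfield.map (algebraMap C (EE k C))

theorem mem_LC {L : IntermediateField k C} {a : EE k C} :
    a ∈ LC L ↔ ∃ c ∈ L, algebraMap C (EE k C) c = a := Iff.rfl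

/-- all coefficients `< 1` implies `gn < 1` -/
theorem gn_lt_one {a : EE k C} (h : ∀ n, ‖a.co n‖ < 1) : gn a < 1 := by
  rcases eq_or_ne a 0 with rfl | h0
  · rw [gn_zero]; exact zero_lt_one
  · obtain ⟨n, hn⟩ := exists_gn hk.out h0
    rw [← hn]
    exact h n

/-- uniformizer of a finite level -/
theorem exists_unif (L : IntermediateField k C) [FiniteDimensional k L] :
    ∃ π ∈ L, π ≠ 0 ∧ ‖π‖ < 1 ∧ ∀ a ∈ L, ‖a‖ < 1 → ‖a‖ ≤ ‖π‖ := by
  obtain ⟨ρ, N, hρ0, hρ1, hN, hz⟩ := Cell_408.exists_zpow_of_mem hk.out L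
  obtain ⟨ϖ, h0, h1, -⟩ := hk.out
  have hϖ : ‖algebraMap k C ϖ‖ = ‖ϖ‖ := norm_algebraMap' C ϖ
  -- exponents of elements of norm < 1 are positive
  have hpos : ∀ a ∈ L, a ≠ 0 → ‖a‖ < 1 → ∃ n : ℕ, 0 < n ∧ ‖a‖ ^ N = ρ ^ n := by
    intro a ha ha0 ha1
    obtain ⟨n, hn⟩ := hz a ha ha0
    have h2 : ‖a‖ ^ N < 1 := pow_lt_one₀ (norm_nonneg _) ha1 hN.ne'
    have h3 : 0 < n := by
      by_contra hcon
      push Not at hcon
      have : (1 : ℝ) ≤ ρ ^ n := by
        have := zpow_le_zpow_right_of_le_one₀ hρ0 hρ1.le hcon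
        rwa [zpow_zero] at this
      rw [hn] at h2
      linarith
    obtain ⟨m, rfl⟩ := Int.eq_ofNat_of_zero_le h3.le
    exact ⟨m, by exact_mod_cast h3, by rw [hn]; exact zpow_natCast _ _⟩
  classical
  have hex : ∃ n : ℕ, ∃ a ∈ L, a ≠ 0 ∧ ‖a‖ < 1 ∧ ‖a‖ ^ N = ρ ^ n := by
    have hm : algebraMap k C ϖ ∈ L := L.algebraMap_mem ϖ
    have hne : algebraMap k C ϖ ≠ 0 := by
      rw [← norm_pos_iff, hϖ]; exact h0
    obtain ⟨n, -, hn⟩ := hpos _ hm hne (by rw [hϖ]; exact h1)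
    exact ⟨n, _, hm, hne, by rw [hϖ]; exact h1, hn⟩
  obtain ⟨π, hπ, hπ0, hπ1, hπn⟩ := Nat.find_spec hex
  refine ⟨π, hπ, hπ0, hπ1, fun a ha ha1 => ?_⟩
  rcases eq_or_ne a 0 with rfl | ha0
  · rw [norm_zero]; exact norm_nonneg _
  obtain ⟨n, -, hn⟩ := hpos a ha ha0 ha1
  have hle : Nat.find hex ≤ n := Nat.find_min' hex ⟨a, ha, ha0, ha1, hn⟩
  have h2 : ‖a‖ ^ N ≤ ‖π‖ ^ N := by
    rw [hn, hπn]
    exact pow_le_pow_of_le_one hρ0.le hρ1.le hle
  exact le_of_pow_le_pow_left₀ hN.ne' (norm_nonneg _) h2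

/-- every non-zero element of norm `≤ 1` of a finite level has the norm of a power of the uniformizer -/
theorem exists_pow_unif {L : IntermediateField k C} {π : C} (hπ : π ∈ L) (hπ0 : π ≠ 0) (hπ1 : ‖π‖ < 1)
    (hu : ∀ a ∈ L, ‖a‖ < 1 → ‖a‖ ≤ ‖π‖) {a : C} (ha : a ∈ L) (ha0 : a ≠ 0) (ha1 : ‖a‖ ≤ 1) :
    ∃ n : ℕ, ‖a‖ = ‖π‖ ^ n := by
  classical
  have hex : ∃ n : ℕ, ‖π‖ ^ (n + 1) < ‖a‖ := by
    obtain ⟨n, hn⟩ := exists_pow_lt_of_lt_one (norm_pos_iff.mpr ha0) hπ1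
    exact ⟨n, (pow_le_pow_of_le_one (norm_nonneg _) hπ1.le (Nat.le_succ n)).trans_lt hn⟩
  refine ⟨Nat.find hex, ?_⟩
  have h1 := Nat.find_spec hex
  have hπn : ∀ n : ℕ, 0 < ‖π‖ ^ n := fun n => pow_pos (norm_pos_iff.mpr hπ0) n
  have h2 : ‖a‖ ≤ ‖π‖ ^ Nat.find hex := by
    rcases Nat.eq_zero_or_pos (Nat.find hex) with h | h
    · rw [h, pow_zero]; exact ha1
    · have h3 := Nat.find_min hex (Nat.sub_lt h Nat.one_pos)
      rw [not_lt, Nat.sub_add_cancel h] at h3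
      exact h3
  refine le_antisymm h2 ?_
  by_contra hcon
  rw [not_le] at hcon
  have h3 : ‖a / π ^ Nat.find hex‖ < 1 := by
    rw [norm_div, norm_pow, div_lt_one (hπn _)]
    exact hcon
  have h4 := hu _ (div_mem ha (pow_mem hπ _)) h3
  rw [norm_div, norm_pow, div_le_iff₀ (hπn _), ← pow_succ'] at h4
  exact absurd h4 (not_le.mpr h1)

end Crest.Agent.R013.CartE_359
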