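import Crest.Agent.R013.CartE1_359
/-
ROW 13, leaf CARTC (helper359), file E2: p-basis of the residue field of `EE` at a finite level (freshman's dream for series).
-/
set_option autoImplicit false
set_option linter.unusedSectionVars false

namespace Crest.Agent.R013.CartE_359

open Filter Topology
open scoped NNReal
open Crest.Agent.R013.Cell_408 (FinDef DiscNorm exists_max BD)
open Crest.Agent.R013.EE809 Crest.Agent.R013.CartC_359 Crest.Agent.R013.CartG_359

section supp

variable {k : Type*} [NontriviallyNormedField k] [CompleteSpace k]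
variable {C : Type*} [NormedField C] [IsUltrametricDist C] [NormedAlgebra k C]

/-- support bounded below by `s` -/
def Supp (s : ℤ) (a : EE k C) : Prop := ∀ i < s, a.co i = 0

theorem Supp.mul {s t : ℤ} {a b : EE k C} (ha : Supp s a) (hb : Supp t b) : Supp (s + t) (a * b) := by
  intro m hm
  rw [co_mul']
  have : (fun i => a.co i * b.co (m - i)) = fun _ => 0 := by
    funext i
    rcases lt_or_ge i s with h | h
    · rw [ha i h, zero_mul]
    · rw [hb (m - i) (by omega), mul_zero]
  rw [this, tsum_zero]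

theorem Supp.add {s : ℤ} {a b : EE k C} (ha : Supp s a) (hb : Supp s b) : Supp s (a + b) := by
  intro m hm
  rw [co_add, ha m hm, hb m hm, add_zero]

theorem Supp.zero (s : ℤ) : Supp s (0 : EE k C) := fun m _ => co_zero m

theorem Supp.one : Supp 0 (1 : EE k C) := by
  intro m hm
  rw [co_one, if_neg (by omega)]

theorem Supp.sum {ι : Type*} {s : ℤ} (S : Finset ι) (f : ι → EE k C) (h : ∀ i ∈ S, Supp s (f i)) :
    Supp s (∑ i ∈ S, f i) := by
  classical
  induction S using Finset.induction_on with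
  | empty => rw [Finset.sum_empty]; exact Supp.zero s
  | insert a S ha ih =>
    rw [Finset.sum_insert ha]
    exact (h a (Finset.mem_insert_self _ _)).add (ih (fun i hi => h i (Finset.mem_insert_of_mem hi)))

theorem Supp.pow {N : ℤ} {a : EE k C} (ha : Supp (-N) a) (n : ℕ) : Supp (-(n * N)) (a ^ n) := by
  induction n with
  | zero => simpa using (Supp.one : Supp 0 (1 : EE k C))
  | succ n ih =>
    rw [pow_succ]
    have h1 := ih.mul ha
    have h2 : (-(((n + 1 : ℕ) : ℤ) * N)) = -((n : ℤ) * N) + -N := by push_cast; ring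
    rw [h2]
    exact h1

theorem Supp.mono {s t : ℤ} (h : t ≤ s) {a : EE k C} (ha : Supp s a) : Supp t a :=
  fun i hi => ha i (by omega)

theorem co_sum {ι : Type*} (S : Finset ι) (f : ι → EE k C) (m : ℤ) :
    (∑ i ∈ S, f i).co m = ∑ i ∈ S, (f i).co m := by
  classical
  induction S using Finset.induction_on with
  | empty => simp
  | insert a S ha ih => rw [Finset.sum_insert ha, Finset.sum_insert ha, co_add, ih]

end supp

variable {k : Type*} [NontriviallyNormedField k] [CompleteSpace k] [IsUltrametricDist k]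
variable {C : Type*} [NormedField C] [IsUltrametricDist C] [NormedAlgebra k C]
  [Algebra.IsAlgebraic k C] [IsAlgClosed C] [hk : Fact (DiscNorm k)]

theorem charP_res {κ : Type*} [Field κ] (r : Red (vE (k := k) (C := C)) κ) (p : ℕ) (hp : p.Prime)
    (hp1 : ‖(p : C)‖ < 1) : CharP κ p := by
  have hcast : ∀ n : ℕ, vE (k := k) (C := C) (n : EE k C) ≤ 1 := by
    intro n
    induction n with
    | zero => simp
    | succ n ih =>
      rw [Nat.cast_succ]
      exact (Valuation.map_add _ _ _).trans (max_le ih (by rw [map_one]))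
  have hrn : ∀ n : ℕ, r.res (n : EE k C) = n := by
    intro n
    induction n with
    | zero => simp [r.zero]
    | succ n ih => rw [Nat.cast_succ, Nat.cast_succ, r.add _ _ (hcast n) (by rw [map_one]), ih, r.one]
  have h0 : (p : κ) = 0 := by
    rw [← hrn p, r.zero_iff _ (hcast p), vE_lt_one]
    have : (p : EE k C) = algebraMap C (EE k C) (p : C) := by rw [map_natCast]
    rw [this, gn_algebraMap]
    exact hp1
  obtain ⟨q, hq⟩ := CharP.exists κ
  have hqp : q ∣ p := (CharP.cast_eq_zero_iff κ q p).mp h0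
  rcases (Nat.dvd_prime hp).mp hqp with h | h
  · subst h
    have h1 := CharP.cast_eq_zero κ 1
    rw [Nat.cast_one] at h1
    exact absurd h1 one_ne_zero
  · subst h; exact hq

theorem mo_pow (n : ℤ) (c : C) (m : ℕ) : (mo n c : EE k C) ^ m = mo (m * n) (c ^ m) := by
  induction m with
  | zero => rw [pow_zero, pow_zero]; simp [mo_zero_one]
  | succ m ih =>
    rw [pow_succ, ih, mo_mul_mo, pow_succ]
    congr 1
    push_cast
    ring

/-- freshman's dream for finite sums -/
theorem gn_sum_pow_sub {p : ℕ} (hp : p.Prime) (hp1 : ‖(p : C)‖ < 1) (S : Finset ℤ) (c : ℤ → C)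
    (hc : ∀ j, ‖c j‖ ≤ 1) :
    gn ((∑ j ∈ S, (mo j (c j) : EE k C)) ^ p - ∑ j ∈ S, (mo (p * j) (c j ^ p) : EE k C)) < 1 := by
  have : Fact p.Prime := ⟨hp⟩
  let r := Red.canonical (vE (k := k) (C := C))
  have := charP_res r p hp hp1
  have h1 : ∀ j ∈ S, vE (mo j (c j) : EE k C) ≤ 1 := by
    intro j _
    rw [vE_le_one, gn_mo]
    exact hc j
  have h2 : ∀ j ∈ S, vE (mo (p * j) (c j ^ p) : EE k C) ≤ 1 := by
    intro j _
    rw [vE_le_one, gn_mo, norm_pow]
    exact pow_le_one₀ (norm_nonneg _) (hc j)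
  rw [← vE_lt_one]
  rw [← r.congr_iff (by rw [map_pow]; exact pow_le_one' (Valuation.map_sum_le _ h1) p)
    (Valuation.map_sum_le _ h2)]
  rw [r.pow (Valuation.map_sum_le _ h1), r.sum _ _ h1, r.sum _ _ h2, sum_pow_char]
  refine Finset.sum_congr rfl (fun j hj => ?_)
  rw [← r.pow (h1 j hj), mo_pow]

/-- freshman's dream, coefficientwise -/
theorem co_pow_sub {p : ℕ} (hp : p.Prime) (hp1 : ‖(p : C)‖ < 1) (y : EE k C) (N : ℕ)
    (hN : Supp (-(N : ℤ)) y) (hy : ∀ j, ‖y.co j‖ ≤ 1) (m : ℤ) :
    ‖(y ^ p).co m - (if (p : ℤ) ∣ m then (y.co (m / p)) ^ p else 0)‖ < 1 := by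
  set M : ℤ := |m| + p * N + 1 with hM
  have hp0 : (0 : ℤ) < p := by exact_mod_cast hp.pos
  have hMpos : 0 < M := by positivity
  have hmM : m < M := by
    have := le_abs_self m
    have : (0 : ℤ) ≤ p * N := by positivity
    omega
  set P : EE k C := ∑ j ∈ Finset.Ico (-(N : ℤ)) M, mo j (y.co j) with hP
  have hPco : ∀ i, P.co i = if -(N : ℤ) ≤ i ∧ i < M then y.co i else 0 := by
    intro i
    rw [hP, co_sum]
    simp only [co_mo]
    rw [Finset.sum_ite_eq]
    simp only [Finset.mem_Ico]
  have hPs : Supp (-(N : ℤ)) P := by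
    intro i hi
    rw [hPco, if_neg (by omega)]
  have hQ : Supp M (y - P) := by
    intro i hi
    rw [co_sub, hPco]
    by_cases h : -(N : ℤ) ≤ i
    · rw [if_pos ⟨h, hi⟩, sub_self]
    · rw [if_neg (by omega), hN i (by omega), sub_zero]
  -- coefficients of y^p and P^p agree at m
  have h1 : (y ^ p - P ^ p).co m = 0 := by
    have h2 : y ^ p - P ^ p = (∑ i ∈ Finset.range p, y ^ i * P ^ (p - 1 - i)) * (y - P) :=
      (Commute.geom_sum₂_mul (Commute.all y P) p).symm
    rw [h2]
    have h3 : Supp (-((p : ℤ) * N)) (∑ i ∈ Finset.range p, y ^ i * P ^ (p - 1 - i)) := by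
      refine Supp.sum _ _ (fun i hi => ?_)
      have hi' : i < p := Finset.mem_range.mp hi
      refine ((hN.pow i).mul (hPs.pow (p - 1 - i))).mono ?_
      have h4 : ((p - 1 - i : ℕ) : ℤ) = (p : ℤ) - 1 - i := by omega
      rw [h4]
      have h5 : (0 : ℤ) ≤ N := by positivity
      nlinarith
    apply (h3.mul hQ)
    have := le_abs_self m
    omega
  have h2 : (y ^ p).co m = (P ^ p).co m := by
    rw [co_sub] at h1
    exact sub_eq_zero.mp h1
  have h3 := gn_sum_pow_sub (k := k) hp hp1 (Finset.Ico (-(N : ℤ)) M) y.co hy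
  have h4 := (le_gn _ m).trans_lt h3
  rw [co_sub, ← hP, ← h2] at h4
  have h5 : (∑ j ∈ Finset.Ico (-(N : ℤ)) M, (mo (p * j) (y.co j ^ p) : EE k C)).co m =
      (if (p : ℤ) ∣ m then (y.co (m / p)) ^ p else 0) := by
    rw [co_sum]
    simp only [co_mo]
    by_cases hd : (p : ℤ) ∣ m
    · obtain ⟨j, rfl⟩ := hd
      rw [if_pos (dvd_mul_right _ _), Int.mul_ediv_cancel_left _ hp0.ne']
      rw [Finset.sum_eq_single j]
      · simp
      · intro i _ hi
        rw [if_neg]
        intro h
        exact hi (mul_left_cancel₀ hp0.ne' h).symm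
      · intro hj
        rw [if_pos rfl]
        rw [Finset.mem_Ico, not_and_or, not_le, not_lt] at hj
        rcases hj with hj | hj
        · rw [hN j hj, zero_pow hp.ne_zero]
        · exfalso
          have : M ≤ p * j := by nlinarith
          omega
    · rw [if_neg hd]
      refine Finset.sum_eq_zero (fun i _ => ?_)
      rw [if_neg]
      rintro rfl
      exact hd (dvd_mul_right _ _)
  rw [h5] at h4
  exact h4

/-- SPAN: `p`-basis property of the residue field at level `L`. -/
theorem span_EE {p : ℕ} (hp : p.Prime) (hp1 : ‖(p : C)‖ < 1) (L : IntermediateField k C)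
    [FiniteDimensional k L]
    (hperf : ∀ a ∈ L, ‖a‖ ≤ 1 → ∃ b ∈ L, ‖b‖ ≤ 1 ∧ ‖a - b ^ p‖ < 1)
    (a : EE k C) (haL : InL L a) (ha1 : gn a ≤ 1) :
    ∃ y : ℕ → EE k C, (∀ i, InL L (y i) ∧ gn (y i) ≤ 1) ∧
      gn (a - ∑ i ∈ Finset.range p, y i ^ p * T 1 ^ i) < 1 := by
  have hp0 : (0 : ℤ) < p := by exact_mod_cast hp.pos
  have hch : ∀ m : ℤ, ∃ b ∈ L, ‖b‖ ≤ 1 ∧ ‖a.co m - b ^ p‖ < 1 ∧ (‖a.co m‖ < 1 → b = 0) := by
    intro m
    by_cases h : ‖a.co m‖ < 1
    · exact ⟨0, L.zero_mem, by simp, by rw [zero_pow hp.ne_zero, sub_zero]; exact h, fun _ => rfl⟩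
    · obtain ⟨b, hb, hb1, hab⟩ := hperf _ (haL m) ((le_gn a m).trans ha1)
      exact ⟨b, hb, hb1, hab, fun h' => absurd h' h⟩
  choose b hbL hb1 hab hb0 using hch
  obtain ⟨K, hK0, hK⟩ := a.small zero_lt_one
  have hbK : ∀ n, n < -K → b n = 0 := fun n hn => hb0 n (hK n hn)
  -- the series y i
  have hidx : ∀ i : ℕ, i < p → ∀ j : ℤ, j < -(K + 1) → b (p * j + i) = 0 := by
    intro i hi j hj
    apply hbK
    have h1 : (i : ℤ) < p := by exact_mod_cast hi
    nlinarith
  let Y : ℕ → EE k C := fun i => if hi : i < p then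
    mk' (fun j => b (p * j + i)) ⟨L, inferInstance, fun j => hbL _⟩ ⟨1, fun j => hb1 _⟩
      (by
        apply tendsto_const_nhds.congr'
        filter_upwards [Filter.eventually_lt_atBot (-(K + 1))] with j hj
        exact (hidx i hi j hj).symm)
    else 0
  have hYco : ∀ i, i < p → ∀ j, (Y i).co j = b (p * j + i) := by
    intro i hi j
    simp only [Y, dif_pos hi]
    rfl
  refine ⟨Y, ?_, ?_⟩
  · intro i
    by_cases hi : i < p
    · refine ⟨fun j => ?_, gn_le (fun j => ?_)⟩
      · rw [hYco i hi]; exact hbL _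
      · rw [hYco i hi]; exact hb1 _
    · simp only [Y, dif_neg hi]
      exact ⟨InL.zero L, by rw [gn_zero]; exact zero_le_one⟩
  · apply gn_lt_one
    intro m
    rw [co_sub, co_sum]
    have hterm : ∀ i ∈ Finset.range p,
        ‖(Y i ^ p * T 1 ^ i).co m - (if (p : ℤ) ∣ (m - i) then b m ^ p else 0)‖ < 1 := by
      intro i hi
      have hi' : i < p := Finset.mem_range.mp hi
      have h1 : (Y i ^ p * T 1 ^ i).co m = (Y i ^ p).co (m - i) := by
        rw [mul_comm, ← zpow_natCast, ← T_eq_zpow, co_T_mul]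
      have hS : Supp (-((K + 1).toNat : ℤ)) (Y i) := by
        intro j hj
        rw [hYco i hi', hidx i hi' j (by omega)]
      have h2 := co_pow_sub (k := k) hp hp1 (Y i) (K + 1).toNat hS
        (fun j => by rw [hYco i hi']; exact hb1 _) (m - i)
      rw [h1]
      by_cases hd : (p : ℤ) ∣ (m - i)
      · rw [if_pos hd] at h2 ⊢
        rw [hYco i hi'] at h2
        have h3 : (p : ℤ) * ((m - i) / p) + i = m := by
          rw [Int.mul_ediv_cancel' hd]; ring
        rwa [h3] at h2
      · rw [if_neg hd] at h2 ⊢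
        exact h2
    have hsum : ∑ i ∈ Finset.range p, (if (p : ℤ) ∣ (m - (i : ℤ)) then b m ^ p else 0) = b m ^ p := by
      rw [Finset.sum_eq_single (m % p).toNat]
      · rw [if_pos]
        have h1 : ((m % p).toNat : ℤ) = m % p := Int.toNat_of_nonneg (Int.emod_nonneg _ hp0.ne')
        rw [h1]
        exact Int.dvd_self_sub_emod
      · intro i hi hne
        rw [if_neg]
        intro hd
        apply hne
        have hi' : i < p := Finset.mem_range.mp hi
        have h2 : m % p = (i : ℤ) % p := (Int.modEq_iff_dvd.mpr hd : (i : ℤ) ≡ m [ZMOD p]).symm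
        have h3 : (i : ℤ) % p = i := Int.emod_eq_of_lt (by positivity) (by exact_mod_cast hi')
        rw [h2, h3, Int.toNat_natCast]
      · intro h
        exfalso
        apply h
        rw [Finset.mem_range]
        have h1 := Int.emod_lt_of_pos m hp0
        have h2 := Int.emod_nonneg m hp0.ne'
        omega
    have h6 : a.co m - ∑ i ∈ Finset.range p, (Y i ^ p * T 1 ^ i).co m = (a.co m - b m ^ p) -
        ∑ i ∈ Finset.range p, ((Y i ^ p * T 1 ^ i).co m -
          (if (p : ℤ) ∣ (m - (i : ℤ)) then b m ^ p else 0)) := by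
      rw [Finset.sum_sub_distrib, hsum]
      ring
    rw [h6, sub_eq_add_neg]
    refine lt_of_le_of_lt (IsUltrametricDist.norm_add_le_max _ _) (max_lt (hab m) ?_)
    rw [norm_neg]
    have hne : (Finset.range p).Nonempty := ⟨0, Finset.mem_range.mpr hp.pos⟩
    obtain ⟨i, hi, hle⟩ := IsUltrametricDist.exists_norm_finsetSum_le_of_nonempty hne
      (fun i => (Y i ^ p * T 1 ^ i).co m - (if (p : ℤ) ∣ (m - (i : ℤ)) then b m ^ p else 0))
    exact hle.trans_lt (hterm i hi)

end Crest.Agent.R013.CartE_359
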