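import Crest.Agent.R013.CartE2_359
/-
ROW 13, leaf CARTC (helper359), file E3: CARTIER CONTRACTION IN `EE k C` (C = kbar level, no chart, no discreteness of C).
-/
set_option autoImplicit false
set_option linter.unusedSectionVars false

namespace Crest.Agent.R013.CartE_359

open Filter Topology
open scoped NNReal
open Crest.Agent.R013.Cell_408 (FinDef DiscNorm exists_max BD)
open Crest.Agent.R013.EE809 Crest.Agent.R013.CartC_359 Crest.Agent.R013.CartG_359

/-- a derivation which contracts the valuation ring induces a derivation on the residue field -/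
theorem exists_Delta {K Γ₀ κ : Type*} [Field K] [LinearOrderedCommGroupWithZero Γ₀] [Field κ]
    {v : Valuation K Γ₀} (r : Red v κ) (D : Derivation ℤ K K) (h1 : ∀ x, v x ≤ 1 → v (D x) ≤ 1)
    (h2 : ∀ x, v x < 1 → v (D x) < 1) :
    ∃ Δ : Derivation ℤ κ κ, ∀ x, v x ≤ 1 → r.res (D x) = Δ (r.res x) := by
  choose lift hl1 hl2 using r.surj
  have key : ∀ x y, v x ≤ 1 → v y ≤ 1 → r.res x = r.res y → r.res (D x) = r.res (D y) := by
    intro x y hx hy hxy
    have h3 := (r.congr_iff hx hy).mp hxy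
    apply r.congr (h1 x hx) (h1 y hy)
    rw [← map_sub]
    exact h2 _ h3
  let Δ : Derivation ℤ κ κ := Derivation.mk' (AddMonoidHom.toIntLinearMap
    { toFun := fun y => r.res (D (lift y))
      map_zero' := by
        have := key (lift 0) 0 (hl1 0) (by simp) (by rw [hl2, r.zero])
        rw [this, map_zero, r.zero]
      map_add' := fun x y => by
        have h3 : v (lift x + lift y) ≤ 1 := (v.map_add _ _).trans (max_le (hl1 x) (hl1 y))
        have := key (lift (x + y)) (lift x + lift y) (hl1 _) h3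
          (by rw [hl2, r.add _ _ (hl1 x) (hl1 y), hl2, hl2])
        rw [this, map_add, r.add _ _ (h1 _ (hl1 x)) (h1 _ (hl1 y))] })
    (fun a b => by
      change r.res (D (lift (a * b))) = a • r.res (D (lift b)) + b • r.res (D (lift a))
      have h3 : v (lift a * lift b) ≤ 1 := by rw [map_mul]; exact mul_le_one' (hl1 a) (hl1 b)
      have := key (lift (a * b)) (lift a * lift b) (hl1 _) h3
        (by rw [hl2, r.mul _ _ (hl1 a) (hl1 b), hl2, hl2])
      rw [this, Derivation.leibniz, smul_eq_mul, smul_eq_mul, smul_eq_mul, smul_eq_mul,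
        r.add _ _ (by rw [map_mul]; exact mul_le_one' (hl1 a) (h1 _ (hl1 b)))
          (by rw [map_mul]; exact mul_le_one' (hl1 b) (h1 _ (hl1 a))),
        r.mul _ _ (hl1 a) (h1 _ (hl1 b)), r.mul _ _ (hl1 b) (h1 _ (hl1 a)), hl2, hl2])
  refine ⟨Δ, fun x hx => ?_⟩
  exact key x (lift (r.res x)) hx (hl1 _) (by rw [hl2])

variable {k : Type*} [NontriviallyNormedField k] [CompleteSpace k] [IsUltrametricDist k]
variable {C : Type*} [NormedField C] [IsUltrametricDist C] [NormedAlgebra k C]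
  [Algebra.IsAlgebraic k C] [IsAlgClosed C] [hk : Fact (DiscNorm k)]

section der

variable (dE : Derivation ℤ (EE k C) (EE k C))
  (hdE : ∀ (a : EE k C) (n : ℤ), (dE a).co n = ((n : C) + 1) * a.co (n + 1))

include hdE

theorem norm_intCast_le (n : ℤ) : ‖(n : C)‖ ≤ 1 := by
  have hnat : ∀ m : ℕ, ‖(m : C)‖ ≤ 1 := fun m => IsUltrametricDist.norm_natCast_le_one C m
  cases n with
  | ofNat m => simpa using hnat m
  | negSucc m =>
    rw [Int.cast_negSucc, norm_neg]
    exact hnat _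

theorem gn_dE_le (a : EE k C) : gn (dE a) ≤ gn a := by
  apply gn_le
  intro n
  rw [hdE, norm_mul]
  have h1 : ‖(n : C) + 1‖ ≤ 1 := by
    have := norm_intCast_le dE hdE (n + 1)
    push_cast at this
    exact this
  calc ‖(n : C) + 1‖ * ‖a.co (n + 1)‖ ≤ 1 * ‖a.co (n + 1)‖ :=
        mul_le_mul_of_nonneg_right h1 (norm_nonneg _)
    _ ≤ gn a := by rw [one_mul]; exact le_gn a _

theorem dE_algebraMap (c : C) : dE (algebraMap C (EE k C) c) = 0 := by
  ext n
  rw [hdE, co_algebraMap, co_zero]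
  by_cases h : n + 1 = 0
  · have : (n : C) + 1 = 0 := by
      have h2 : ((n + 1 : ℤ) : C) = 0 := by rw [h]; simp
      push_cast at h2
      exact h2
    rw [this, zero_mul]
  · rw [if_neg h, mul_zero]

theorem dE_T : dE (T 1 : EE k C) = 1 := by
  ext n
  rw [hdE, T, co_mo, co_one]
  by_cases h : n = 0
  · subst h; simp
  · rw [if_neg (by omega), if_neg h, mul_zero]

theorem dE_mem {L : IntermediateField k C} {a : EE k C} (ha : InL L a) : InL L (dE a) := by
  intro n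
  rw [hdE]
  refine mul_mem ?_ (ha _)
  have : ((n : C) + 1) = ((n + 1 : ℤ) : C) := by push_cast; rfl
  rw [this]
  exact intCast_mem L _

variable {κ : Type*} [Field κ] (r : Red (vE (k := k) (C := C)) κ)

theorem exists_DeltaE : ∃ Δ : Derivation ℤ κ κ, ∀ x, vE x ≤ 1 → r.res (dE x) = Δ (r.res x) := by
  apply exists_Delta
  · intro x hx
    rw [vE_le_one] at hx ⊢
    exact (gn_dE_le dE hdE x).trans hx
  · intro x hx
    rw [vE_lt_one] at hx ⊢
    exact (gn_dE_le dE hdE x).trans_lt hx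

/-- the level `L` of `EE` -/
theorem exists_DLev {p : ℕ} (hp : p.Prime) (hp0 : (p : C) ≠ 0) (hp1 : ‖(p : C)‖ < 1)
    (L : IntermediateField k C) [FiniteDimensional k L]
    (hperf : ∀ a ∈ L, ‖a‖ ≤ 1 → ∃ b ∈ L, ‖b‖ ≤ 1 ∧ ‖a - b ^ p‖ < 1)
    (Δ : Derivation ℤ κ κ) (hΔ : ∀ x, vE x ≤ 1 → r.res (dE x) = Δ (r.res x)) :
    ∃ (π : EE k C) (e : ℕ), DLev p vE r (LC L) (EL L) (T 1) π e dE Δ := by
  obtain ⟨π, hπ, hπ0, hπ1, hu⟩ := exists_unif (k := k) L
  obtain ⟨e, he⟩ := exists_pow_unif hπ hπ0 hπ1 hu (natCast_mem L p) hp0 hp1.le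
  have he0 : 0 < e := by
    rcases Nat.eq_zero_or_pos e with h | h
    · rw [h, pow_zero] at he
      rw [he] at hp1
      exact absurd hp1 (lt_irrefl _)
    · exact h
  have hvC : ∀ c : C, ((vE (algebraMap C (EE k C) c) : ℝ≥0) : ℝ) = ‖c‖ := by
    intro c
    rw [coe_vE, gn_algebraMap]
  refine ⟨algebraMap C (EE k C) π, e, ?_⟩
  refine
    { L_le := ?_
      T_mem := InL.T L 1
      T_le := ?_
      π_mem := ⟨π, hπ, rfl⟩
      π_ne := ?_
      π_lt := ?_
      unif := ?_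
      e_pos := he0
      p_eq := ?_
      perf := ?_
      DL := ?_
      DT := dE_T dE hdE
      D_mem := fun x hx => dE_mem dE hdE hx
      D_le := ?_
      res_D := fun x _ hx => hΔ x hx
      span := ?_ }
  · rintro _ ⟨c, hc, rfl⟩
    intro n
    rw [co_algebraMap]
    split_ifs
    · exact hc
    · exact zero_mem L
  · rw [vE_le_one, T, gn_mo, norm_one]
  · rw [ne_eq, map_eq_zero]; exact hπ0
  · rw [vE_lt_one, gn_algebraMap]; exact hπ1
  · intro x hx hx1
    rw [← NNReal.coe_le_coe, hvC, coe_vE]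
    rw [vE_lt_one] at hx1
    exact gn_le (fun n => hu _ (hx n) ((le_gn x n).trans_lt hx1))
  · rw [← NNReal.coe_inj, NNReal.coe_pow, hvC, ← he]
    have : (p : EE k C) = algebraMap C (EE k C) (p : C) := by rw [map_natCast]
    rw [this, hvC]
  · rintro _ ⟨c, hc, rfl⟩ hc1
    rw [← NNReal.coe_le_coe, hvC, NNReal.coe_one] at hc1
    obtain ⟨b, hb, hb1, hbc⟩ := hperf c hc hc1
    refine ⟨algebraMap C (EE k C) b, ⟨b, hb, rfl⟩, ?_, ?_⟩
    · rw [← NNReal.coe_le_coe, hvC, NNReal.coe_one]; exact hb1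
    · rw [← map_pow, ← map_sub, ← NNReal.coe_lt_coe, hvC, NNReal.coe_one]; exact hbc
  · rintro _ ⟨c, hc, rfl⟩
    exact dE_algebraMap dE hdE c
  · intro x _ hx
    rw [vE_le_one] at hx ⊢
    exact (gn_dE_le dE hdE x).trans hx
  · intro x hx hx1
    rw [vE_le_one] at hx1
    obtain ⟨y, hy, hxy⟩ := span_EE hp hp1 L hperf x hx hx1
    exact ⟨y, fun i => ⟨(hy i).1, vE_le_one.mpr (hy i).2⟩, vE_lt_one.mpr hxy⟩

/-- **CARTIER CONTRACTION in `EE`**. -/
theorem cartE {p : ℕ} [hp : Fact p.Prime] (hp0 : (p : C) ≠ 0) (hp1 : ‖(p : C)‖ < 1)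
    (hperf : ∀ L : IntermediateField k C, FiniteDimensional k L →
      ∀ a ∈ L, ‖a‖ ≤ 1 → ∃ b ∈ L, ‖b‖ ≤ 1 ∧ ‖a - b ^ p‖ < 1)
    (CO : κ → κ) (hCO : ∀ y : ℕ → κ, CO (∑ i ∈ Finset.range p, y i ^ p * r.res (T 1) ^ i) = y (p - 1))
    (a g : EE k C) (ha : gn a = 1) (hg : gn g ≤ 1) (n : ℕ) (hag : gn (a - g ^ (p ^ n)) < 1)
    (c : C) (hc : ‖c‖ = gn (dE a)) (hcn : ‖(p : C)‖ ^ n < ‖c‖) :
    ∃ m, CO^[m] (r.res (dE a / (algebraMap C (EE k C) c * a))) = 0 := by
  obtain ⟨L1, hL1, haL⟩ := a.exists_inL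
  obtain ⟨L2, hL2, hgL⟩ := g.exists_inL
  have hcint : IsIntegral k c := (Algebra.IsAlgebraic.isAlgebraic c).isIntegral
  have hL3 : FiniteDimensional k (IntermediateField.adjoin k {c}) :=
    IntermediateField.adjoin.finiteDimensional hcint
  let L := L1 ⊔ L2 ⊔ IntermediateField.adjoin k {c}
  have hL : FiniteDimensional k L := inferInstance
  have haL' : InL L a := haL.mono (le_sup_left.trans le_sup_left)
  have hgL' : InL L g := hgL.mono (le_sup_right.trans le_sup_left)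
  have hcL : c ∈ L := (le_sup_right : _ ≤ L) (IntermediateField.mem_adjoin_simple_self k c)
  obtain ⟨Δ, hΔ⟩ := exists_DeltaE dE hdE r
  obtain ⟨π, e, hD⟩ := exists_DLev dE hdE r hp.out hp0 hp1 L (hperf L hL) Δ hΔ
  have := charP_res r p hp.out hp1
  have hvC : ∀ c : C, ((vE (algebraMap C (EE k C) c) : ℝ≥0) : ℝ) = ‖c‖ := by
    intro c
    rw [coe_vE, gn_algebraMap]
  have hvp : ((vE (p : EE k C) : ℝ≥0) : ℝ) = ‖(p : C)‖ := by
    have : (p : EE k C) = algebraMap C (EE k C) (p : C) := by rw [map_natCast]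
    rw [this, hvC]
  refine hD.cart CO hCO a haL' ?_ g hgL' (vE_le_one.mpr hg) n ?_ (algebraMap C (EE k C) c)
    ⟨c, hcL, rfl⟩ ?_ ?_
  · rw [← NNReal.coe_inj, coe_vE, ha, NNReal.coe_one]
  · rw [← r.pow (vE_le_one.mpr hg)]
    apply r.congr (vE_le_one.mpr ha.le)
      (by rw [map_pow]; exact pow_le_one' (vE_le_one.mpr hg) _)
    rw [vE_lt_one]
    exact hag
  · rw [← NNReal.coe_inj, hvC, hc, coe_vE]
  · rw [← NNReal.coe_lt_coe, NNReal.coe_pow, hvp, hvC]
    exact hcn

end der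

end Crest.Agent.R013.CartE_359
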