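import Crest.Agent.R013.CartC4_359
import Crest.Agent.R013.Cart_359
/-
ROW 13, leaf CARTC (helper359), file G1: the Cartier contraction at an abstract discrete level `KL` (subfield of K with uniformizer π).
-/
set_option autoImplicit false
set_option linter.unusedSectionVars false

namespace Crest.Agent.R013.CartG_359

open Polynomial Crest.Agent.R013.Chart_359 Crest.Agent.R013.Cart_359 Crest.Agent.R013.CartC_359

variable {K Γ₀ κ : Type*} [Field K] [LinearOrderedCommGroupWithZero Γ₀] [Field κ]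

/-- An abstract discrete level: `L ≤ KL` constants, `T` coordinate, `π ∈ L` uniformizer of `KL`. -/
structure DLev (p : ℕ) (v : Valuation K Γ₀) (r : Red v κ) (L KL : Subfield K) (T π : K) (e : ℕ)
    (D : Derivation ℤ K K) (Δ : Derivation ℤ κ κ) : Prop where
  L_le : L ≤ KL
  T_mem : T ∈ KL
  T_le : v T ≤ 1
  π_mem : π ∈ L
  π_ne : π ≠ 0
  π_lt : v π < 1
  unif : ∀ x ∈ KL, v x < 1 → v x ≤ v π
  e_pos : 0 < e
  p_eq : v (p : K) = v π ^ e
  perf : ∀ a ∈ L, v a ≤ 1 → ∃ b ∈ L, v b ≤ 1 ∧ v (a - b ^ p) < 1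
  DL : ∀ a ∈ L, D a = 0
  DT : D T = 1
  D_mem : ∀ x ∈ KL, D x ∈ KL
  D_le : ∀ x ∈ KL, v x ≤ 1 → v (D x) ≤ 1
  res_D : ∀ x ∈ KL, v x ≤ 1 → r.res (D x) = Δ (r.res x)
  span : ∀ x ∈ KL, v x ≤ 1 → ∃ y : ℕ → K, (∀ i, y i ∈ KL ∧ v (y i) ≤ 1) ∧
    v (x - ∑ i ∈ Finset.range p, y i ^ p * T ^ i) < 1

/-- the valuation ring at level `KL` -/
def RL (v : Valuation K Γ₀) (KL : Subfield K) : Subring K := KL.toSubring ⊓ v.integer

theorem mem_RL {v : Valuation K Γ₀} {KL : Subfield K} {x : K} : x ∈ RL v KL ↔ x ∈ KL ∧ v x ≤ 1 := Iff.rfl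

/-- reduction `RL → resL` -/
def rhoL {v : Valuation K Γ₀} (r : Red v κ) (KL : Subfield K) : RL v KL →+* resL r KL where
  toFun x := ⟨r.res x, x, x.2.1, x.2.2, rfl⟩
  map_one' := Subtype.ext r.one
  map_mul' x y := Subtype.ext (r.mul _ _ x.2.2 y.2.2)
  map_zero' := Subtype.ext r.zero
  map_add' x y := Subtype.ext (r.add _ _ x.2.2 y.2.2)

namespace DLev

variable {p : ℕ} {v : Valuation K Γ₀} {r : Red v κ} {L KL : Subfield K} {T π : K} {e : ℕ}
  {D : Derivation ℤ K K} {Δ : Derivation ℤ κ κ} (h : DLev p v r L KL T π e D Δ)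

include h

theorem Delta_mem (y : resL r KL) : Δ (y : κ) ∈ resL r KL := by
  obtain ⟨x, hx, hx1, hxy⟩ := y.2
  rw [← hxy, ← h.res_D x hx hx1]
  exact ⟨D x, h.D_mem x hx, h.D_le x hx hx1, rfl⟩

/-- the derivation on the residue field at level `KL` -/
noncomputable def DeltaL : Derivation ℤ (resL r KL) (resL r KL) :=
  Derivation.mk' (AddMonoidHom.toIntLinearMap
    { toFun := fun y => ⟨Δ (y : κ), h.Delta_mem y⟩
      map_zero' := Subtype.ext (by simp)
      map_add' := fun x y => Subtype.ext (by simp) })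
    (fun a b => Subtype.ext (by
      change Δ ((a : κ) * b) = (a : κ) • Δ (b : κ) + (b : κ) • Δ (a : κ)
      rw [Derivation.leibniz]))

theorem res_rep {x : K} (y : ℕ → K) (hx1 : v x ≤ 1)
    (hy : ∀ i, y i ∈ KL ∧ v (y i) ≤ 1)
    (hxy : v (x - ∑ i ∈ Finset.range p, y i ^ p * T ^ i) < 1) :
    r.res x = ∑ i ∈ Finset.range p, r.res (y i) ^ p * r.res T ^ i := by
  have hterm : ∀ i ∈ Finset.range p, v (y i ^ p * T ^ i) ≤ 1 := by
    intro i _
    rw [map_mul, map_pow, map_pow]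
    exact mul_le_one' (pow_le_one' (hy i).2 _) (pow_le_one' h.T_le _)
  rw [r.congr hx1 (Valuation.map_sum_le v hterm) hxy, r.sum _ _ hterm]
  refine Finset.sum_congr rfl (fun i _ => ?_)
  rw [r.mul _ _ (by rw [map_pow]; exact pow_le_one' (hy i).2 _)
    (by rw [map_pow]; exact pow_le_one' h.T_le _), r.pow (hy i).2, r.pow h.T_le]

/-- CARTIER CONTRACTION AT AN ABSTRACT DISCRETE LEVEL. -/
theorem cart [hp : Fact p.Prime] [CharP κ p]
    (CO : κ → κ) (hCO : ∀ y : ℕ → κ, CO (∑ i ∈ Finset.range p, y i ^ p * r.res T ^ i) = y (p - 1))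
    (x : K) (hx : x ∈ KL) (hx1 : v x = 1) (g : K) (hg : g ∈ KL) (hg1 : v g ≤ 1)
    (n : ℕ) (hxg : r.res x = r.res g ^ (p ^ n))
    (c : K) (hc : c ∈ L) (hcx : v c = v (D x)) (hcn : v (p : K) ^ n < v c) :
    ∃ m, CO^[m] (r.res (D x / (c * x))) = 0 := by
  have hvπ : v π ≠ 0 := (Valuation.ne_zero_iff v).mpr h.π_ne
  have hpn : CharP (resL r KL) p :=
    ((algebraMap (resL r KL) κ).charP_iff (algebraMap (resL r KL) κ).injective p).mpr inferInstance
  have hLK := h.L_le
  have hπL := h.π_mem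
  have hπ0 := h.π_ne
  have hπ1 := h.π_lt
  have hpe := h.p_eq
  have hperf := h.perf
  let Δ' := h.DeltaL
  let t' : resL r KL := ⟨r.res T, T, h.T_mem, h.T_le, rfl⟩
  have hspan : ∀ f : resL r KL, Rep p t' f := by
    rintro ⟨_, x, hx, hx1, rfl⟩
    obtain ⟨y, hy, hxy⟩ := h.span x hx hx1
    refine ⟨fun i => ⟨r.res (y i), y i, (hy i).1, (hy i).2, rfl⟩, ?_⟩
    apply Subtype.ext
    have e1 := h.res_rep y hx1 hy hxy
    simpa [t'] using e1
  have ht' : Δ' t' = 1 := by
    apply Subtype.ext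
    change Δ (r.res T) = 1
    rw [← h.res_D T h.T_mem h.T_le, h.DT, r.one]
  -- the Cartier operator at level L
  have hCmem : ∀ y : resL r KL, CO (y : κ) ∈ resL r KL := by
    intro y
    obtain ⟨w, hw⟩ := hspan y
    have h1 : (y : κ) = ∑ i ∈ Finset.range p, (w i : κ) ^ p * r.res T ^ i := by
      have := congrArg (fun x : resL r KL => (x : κ)) hw
      simpa using this
    rw [h1, hCO]
    exact (w (p - 1)).2
  let CO' : resL r KL → resL r KL := fun y => ⟨CO (y : κ), hCmem y⟩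
  have hCO' : ∀ y : ℕ → resL r KL, CO' (∑ i ∈ Finset.range p, y i ^ p * t' ^ i) = y (p - 1) := by
    intro y
    apply Subtype.ext
    change CO (((∑ i ∈ Finset.range p, y i ^ p * t' ^ i : resL r KL)) : κ) = (y (p - 1) : κ)
    rw [← hCO (fun i => (y i : κ))]
    congr 1
    simp [t']
  -- the unit u
  have hπR : π ∈ RL v KL := ⟨hLK hπL, hπ1.le⟩
  have hpL : (p : K) ∈ L := natCast_mem L p
  have hu1 : v ((p : K) / π ^ e) = 1 := by
    rw [map_div₀, map_pow, hpe, div_self (pow_ne_zero _ hvπ)]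
  have huL : (p : K) / π ^ e ∈ L := div_mem hpL (pow_mem hπL e)
  have huR : (p : K) / π ^ e ∈ RL v KL := ⟨hLK huL, hu1.le⟩
  -- perfectness of the residue field of constants
  have hres : ∀ a ∈ L, v a ≤ 1 → ∀ i : ℕ, ∃ b ∈ L, v b ≤ 1 ∧ r.res b ^ (p ^ i) = r.res a := by
    intro a ha ha1 i
    induction i with
    | zero => exact ⟨a, ha, ha1, by simp⟩
    | succ i ih =>
      obtain ⟨b, hb, hb1, hba⟩ := ih
      obtain ⟨b', hb', hb'1, hbb'⟩ := hperf b hb hb1
      refine ⟨b', hb', hb'1, ?_⟩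
      rw [← hba, r.congr hb1 (by rw [map_pow]; exact pow_le_one' hb'1 p) hbb', r.pow hb'1, ← pow_mul,
        ← pow_succ']
  let S : CartData p (RL v KL) (resL r KL) :=
    { π := ⟨π, hπR⟩
      ρ := rhoL r KL
      D := fun x => ⟨D x, h.D_mem x x.2.1, h.D_le x x.2.1 x.2.2⟩
      Db := fun y => Δ' y
      C := CO'
      u := ⟨(p : K) / π ^ e, huR⟩
      e := e
      hp := hp.out
      charp := CharP.cast_eq_zero (resL r KL) p
      reg := by
        intro x hx
        have h1 : π * (x : K) = 0 := congrArg (fun x : RL v KL => (x : K)) hx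
        rcases mul_eq_zero.mp h1 with h2 | h2
        · exact absurd h2 hπ0
        · exact Subtype.ext h2
      surj := by
        intro y
        obtain ⟨x, hx, hx1, hxy⟩ := y.2
        exact ⟨⟨x, hx, hx1⟩, Subtype.ext hxy⟩
      ker := by
        intro x hx
        have h1 : r.res (x : K) = 0 := congrArg (fun x : resL r KL => (x : κ)) hx
        have h2 : v (x : K) < 1 := (r.zero_iff _ x.2.2).mp h1
        have h3 : v (x : K) ≤ v π := h.unif x x.2.1 h2
        have h4 : (x : K) / π ∈ KL := div_mem (show (x : K) ∈ KL from x.2.1)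
          (hLK hπL)
        have h5 : v ((x : K) / π) ≤ 1 := by
          rw [map_div₀]
          exact div_le_one_of_le₀ h3 zero_le
        refine ⟨⟨(x : K) / π, h4, h5⟩, ?_⟩
        · apply Subtype.ext
          change (x : K) = π * ((x : K) / π)
          rw [mul_div_cancel₀ _ hπ0]
      ρπ := Subtype.ext ((r.zero_iff π hπ1.le).mpr hπ1)
      D_add := fun x y => Subtype.ext (map_add D _ _)
      D_mul := fun x y => Subtype.ext (by
        change D ((x : K) * y) = (x : K) * D y + (y : K) * D x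
        rw [Derivation.leibniz, smul_eq_mul, smul_eq_mul])
      Dπ := Subtype.ext (h.DL π hπL)
      ρD := fun x => Subtype.ext (h.res_D x x.2.1 x.2.2)
      C_add := car_add hspan CO' hCO'
      C_pow := car_pow hspan CO' hCO'
      C_exact := car_exact Δ' ht' hspan CO' hCO'
      C_log := car_log Δ' ht' hspan CO' hCO'
      kerD := exists_pow_of_delta Δ' ht' hspan
      e_pos := h.e_pos
      p_eq := Subtype.ext (by
        change (p : K) = (p : K) / π ^ e * π ^ e
        rw [div_mul_cancel₀ _ (pow_ne_zero _ hπ0)])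
      ρu := by
        intro h0
        have h1 : r.res ((p : K) / π ^ e) = 0 := congrArg (fun x : resL r KL => (x : κ)) h0
        exact (r.ne_zero_iff hu1.le).mpr hu1 h1
      u_perf := by
        intro i
        obtain ⟨b, hb, hb1, hbu⟩ := hres _ huL hu1.le i
        exact ⟨⟨r.res b, b, hLK hb, hb1, rfl⟩, Subtype.ext hbu⟩ }
  -- the exponent of c
  have hcM : ∃ M, M < n * e ∧ v c ≤ v π ^ M ∧ ¬ v c ≤ v π ^ (M + 1) := by
    have hn : ¬ v c ≤ v π ^ (n * e) := by
      rw [not_le, mul_comm, pow_mul, ← hpe]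
      exact hcn
    have h0 : v c ≤ v π ^ 0 := by
      rw [pow_zero, hcx]
      exact h.D_le x hx hx1.le
    by_contra hcon
    push Not at hcon
    have : ∀ k, k ≤ n * e → v c ≤ v π ^ k := by
      intro k
      induction k with
      | zero => intro _; exact h0
      | succ k ih => intro hk; exact hcon k (by omega) (ih (by omega))
    exact hn (this _ le_rfl)
  obtain ⟨N, hN, hcN, hcN'⟩ := hcM
  set w := c / π ^ N with hw
  have hwL : w ∈ L := div_mem hc (pow_mem hπL N)
  have hw1 : v w = 1 := by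
    have h1 : v w ≤ 1 := by
      rw [hw, map_div₀, map_pow]
      exact div_le_one_of_le₀ hcN zero_le
    refine le_antisymm h1 (not_lt.mp (fun hlt => hcN' ?_))
    have h2 := h.unif w (hLK hwL) hlt
    have h3 : c = π ^ N * w := by rw [hw, mul_div_cancel₀ _ (pow_ne_zero _ hπ0)]
    rw [h3, map_mul, map_pow, pow_succ]
    exact mul_le_mul_right h2 _
  have hw0 : w ≠ 0 := by rintro h0; rw [h0, map_zero] at hw1; exact zero_ne_one hw1
  have hx0 : x ≠ 0 := by rintro rfl; rw [map_zero] at hx1; exact zero_ne_one hx1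
  have hcw : c = π ^ N * w := by rw [hw, mul_div_cancel₀ _ (pow_ne_zero _ hπ0)]
  -- g is a unit
  have hg1' : v g = 1 := by
    rw [← r.ne_zero_iff hg1]
    intro h0
    rw [h0, zero_pow (pow_ne_zero _ hp.out.ne_zero)] at hxg
    exact (r.ne_zero_iff hx1.le).mpr hx1 hxg
  have hg0 : g ≠ 0 := by rintro rfl; rw [map_zero] at hg1'; exact zero_ne_one hg1'
  -- t
  set t := D x / (x * π ^ N) with ht
  have hDx : D x ∈ KL := h.D_mem x hx
  have htK : t ∈ KL := div_mem hDx (mul_mem hx (pow_mem (hLK hπL) N))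
  have htv : v t ≤ 1 := by
    rw [ht, map_div₀, map_mul, map_pow, hx1, one_mul, ← hcx]
    exact div_le_one_of_le₀ hcN zero_le
  have key := S.dlog_nil ⟨x, hx, hx1.le⟩ ⟨g, hg, hg1⟩ ⟨t, htK, htv⟩ n N ?_ ?_ hN ?_
  · -- conclusion
    refine ⟨N / e + 1, ?_⟩
    obtain ⟨b, hb, hb1, hbw⟩ := hres w hwL hw1.le (N / e + 1)
    have hb1' : v b = 1 := by
      rw [← r.ne_zero_iff hb1]
      intro h0
      rw [h0, zero_pow (pow_ne_zero _ hp.out.ne_zero)] at hbw
      exact (r.ne_zero_iff hw1.le).mpr hw1 hbw.symm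
    have hb0 : b ≠ 0 := by rintro rfl; rw [map_zero] at hb1'; exact zero_ne_one hb1'
    have h1 : D x / (c * x) = t / w := by
      rw [ht, hcw]
      field_simp
    let bb : resL r KL := ⟨r.res b⁻¹, b⁻¹, inv_mem (hLK hb),
      by rw [map_inv₀, hb1', inv_one], rfl⟩
    have h2 := S.Cit_pow (N / e + 1) bb (S.ρ ⟨t, htK, htv⟩)
    rw [key, mul_zero] at h2
    have h3 : ∀ m (y : resL r KL), ((S.C^[m] y : resL r KL) : κ) = CO^[m] (y : κ) := by
      intro m
      induction m with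
      | zero => intro y; rfl
      | succ m ih =>
        intro y
        rw [Function.iterate_succ_apply, Function.iterate_succ_apply, ih]
    have h4 := congrArg (fun x : resL r KL => (x : κ)) h2
    simp only [h3] at h4
    have h5 : ((bb ^ p ^ (N / e + 1) * S.ρ ⟨t, htK, htv⟩ : resL r KL) : κ) = r.res (D x / (c * x)) := by
      change r.res b⁻¹ ^ p ^ (N / e + 1) * r.res t = _
      rw [h1, r.div htv hw1, ← hbw, r.inv hb1', inv_pow, div_eq_inv_mul]
    rw [h5] at h4
    exact h4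
  · rw [isUnit_iff_exists_inv]
    have h4 : g⁻¹ ∈ KL := inv_mem hg
    have h5 : v g⁻¹ ≤ 1 := by rw [map_inv₀, hg1', inv_one]
    exact ⟨⟨g⁻¹, h4, h5⟩, Subtype.ext (mul_inv_cancel₀ hg0)⟩
  · apply Subtype.ext
    change r.res x = ((rhoL r KL ⟨g, hg, hg1⟩ ^ p ^ n : resL r KL) : κ)
    rw [hxg]
    rfl
  · apply Subtype.ext
    change D x = x * (π ^ N * t)
    rw [ht]
    field_simp

end DLev

end Crest.Agent.R013.CartG_359
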