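import Mathlib

/-! # R013 / Cell1_408 : Weierstrass preparation over a complete ultrametric field, and the ring
`BD k C` of bounded, finitely defined power series over `C = kbar` (bounded functions on the open
unit disc). -/

set_option autoImplicit false

noncomputable section

namespace Crest.Agent.R013.Cell_408

open Topology

/-! ## The unit ball of a complete ultrametric field -/

section Ball

variable (K : Type*) [NormedField K] [IsUltrametricDist K]

/-- the closed unit ball as a subring -/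
def Ob : Subring K where
  carrier := {x | ‖x‖ ≤ 1}
  mul_mem' {a b} ha hb := by
    change ‖_‖ ≤ 1
    rw [norm_mul]; exact mul_le_one₀ ha (norm_nonneg _) hb
  one_mem' := by simp
  add_mem' {a b} ha hb := (IsUltrametricDist.norm_add_le_max a b).trans (max_le ha hb)
  zero_mem' := by simp
  neg_mem' {a} ha := by simpa using ha

variable {K}

theorem mem_Ob {x : K} : x ∈ Ob K ↔ ‖x‖ ≤ 1 := Iff.rfl

theorem Ob_norm_le_one (a : Ob K) : ‖(a : K)‖ ≤ 1 := a.2

/-- divisibility is detected by the norm -/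
theorem dvd_iff {a b : Ob K} (hb : b ≠ 0) : b ∣ a ↔ ‖(a : K)‖ ≤ ‖(b : K)‖ := by
  have hb' : (b : K) ≠ 0 := fun h => hb (Subtype.ext h)
  constructor
  · rintro ⟨c, rfl⟩
    rw [Subring.coe_mul, norm_mul]
    calc ‖(b : K)‖ * ‖(c : K)‖ ≤ ‖(b : K)‖ * 1 :=
          mul_le_mul_of_nonneg_left (Ob_norm_le_one c) (norm_nonneg _)
      _ = ‖(b : K)‖ := mul_one _
  · intro h
    refine ⟨⟨(a : K) / (b : K), ?_⟩, ?_⟩
    · rw [mem_Ob, norm_div]
      exact div_le_one_of_le₀ h (norm_nonneg _)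
    · apply Subtype.ext
      rw [Subring.coe_mul, mul_div_cancel₀ _ hb']

theorem mem_span_pow {ϖ : Ob K} (hϖ : ϖ ≠ 0) (a : Ob K) (k : ℕ) :
    a ∈ (Ideal.span {ϖ}) ^ k • (⊤ : Submodule (Ob K) (Ob K)) ↔ ‖(a : K)‖ ≤ ‖(ϖ : K)‖ ^ k := by
  rw [Ideal.smul_top_eq_map, Algebra.algebraMap_self, Ideal.map_id,
    Submodule.restrictScalars_self, Ideal.span_singleton_pow, Ideal.mem_span_singleton,
    dvd_iff (pow_ne_zero k hϖ), Subring.coe_pow, norm_pow]

/-- `Ob K` is complete for the `ϖ`-adic topology. -/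
theorem isAdicComplete_span [CompleteSpace K] (ϖ : Ob K) (hϖ : ‖(ϖ : K)‖ < 1) :
    IsAdicComplete (Ideal.span {ϖ}) (Ob K) := by
  rcases eq_or_ne ϖ 0 with h0 | h0
  · rw [h0, Ideal.span_singleton_zero]; infer_instance
  · have hpow : Filter.Tendsto (fun k : ℕ => ‖(ϖ : K)‖ ^ k) Filter.atTop (𝓝 0) :=
      tendsto_pow_atTop_nhds_zero_of_lt_one (norm_nonneg _) hϖ
    refine { haus' := fun x hx => ?_, prec' := fun f hf => ?_ }
    · have h1 : ∀ k : ℕ, ‖(x : K)‖ ≤ ‖(ϖ : K)‖ ^ k := by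
        intro k
        have := hx k
        rw [SModEq.zero, mem_span_pow h0] at this
        exact this
      have h2 : ‖(x : K)‖ ≤ 0 := ge_of_tendsto' hpow h1
      exact Subtype.ext (norm_le_zero_iff.1 h2)
    · have h1 : ∀ k l : ℕ, k ≤ l → ‖(f k : K) - (f l : K)‖ ≤ ‖(ϖ : K)‖ ^ k := by
        intro k l hkl
        have := hf hkl
        rw [SModEq.sub_mem, mem_span_pow h0] at this
        exact this
      have hc : CauchySeq (fun k => (f k : K)) := by
        refine cauchySeq_of_le_tendsto_0 (fun k => ‖(ϖ : K)‖ ^ k) (fun a b N ha hb => ?_) hpow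
        rw [dist_eq_norm]
        have e : (f a : K) - f b = -((f N : K) - f a) + ((f N : K) - f b) := by ring
        rw [e]
        refine (IsUltrametricDist.norm_add_le_max _ _).trans (max_le ?_ (h1 N b hb))
        rw [norm_neg]
        exact h1 N a ha
      obtain ⟨L, hL⟩ := cauchySeq_tendsto_of_complete hc
      have hLle : ‖L‖ ≤ 1 := le_of_tendsto hL.norm (Filter.Eventually.of_forall fun k => (f k).2)
      refine ⟨⟨L, hLle⟩, fun k => ?_⟩
      rw [SModEq.sub_mem, mem_span_pow h0]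
      have h2 : Filter.Tendsto (fun l => ‖(f k : K) - f l‖) Filter.atTop (𝓝 ‖(f k : K) - L‖) :=
        (tendsto_const_nhds.sub hL).norm
      exact le_of_tendsto h2 (Filter.eventually_atTop.2 ⟨k, fun l hl => h1 k l hl⟩)

/-- an element bounding finitely many elements of norm `< 1` -/
theorem exists_bound (hK : ∃ x : K, 0 < ‖x‖ ∧ ‖x‖ < 1) (m0 : ℕ) (c : ℕ → Ob K)
    (hlt : ∀ m < m0, ‖(c m : K)‖ < 1) :
    ∃ ϖ : Ob K, ϖ ≠ 0 ∧ ‖(ϖ : K)‖ < 1 ∧ ∀ m < m0, ‖(c m : K)‖ ≤ ‖(ϖ : K)‖ := by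
  induction m0 with
  | zero =>
    obtain ⟨x, hx0, hx1⟩ := hK
    exact ⟨⟨x, hx1.le⟩, fun h => by
      have := congrArg Subtype.val h
      simp only [ZeroMemClass.coe_zero] at this
      rw [this, norm_zero] at hx0
      exact lt_irrefl _ hx0, hx1, fun m hm => absurd hm (Nat.not_lt_zero m)⟩
  | succ k ih =>
    obtain ⟨ϖ, h0, h1, h2⟩ := ih fun m hm => hlt m (Nat.lt_succ_of_lt hm)
    rcases le_total ‖(c k : K)‖ ‖(ϖ : K)‖ with h | h
    · refine ⟨ϖ, h0, h1, fun m hm => ?_⟩
      rcases Nat.lt_succ_iff_lt_or_eq.1 hm with h3 | h3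
      · exact h2 m h3
      · rw [h3]; exact h
    · refine ⟨c k, ?_, hlt k (Nat.lt_succ_self k), fun m hm => ?_⟩
      · intro h3
        rw [h3] at h
        have h4 : ‖(ϖ : K)‖ ≤ 0 := by simpa using h
        exact h0 (Subtype.ext (norm_le_zero_iff.1 h4))
      · rcases Nat.lt_succ_iff_lt_or_eq.1 hm with h3 | h3
        · exact (h2 m h3).trans h
        · rw [h3]

theorem Ob_isUnit_iff {a : Ob K} : IsUnit a ↔ ‖(a : K)‖ = 1 := by
  constructor
  · rintro ⟨u, rfl⟩
    have h1 : ‖((u : Ob K) : K)‖ * ‖((↑u⁻¹ : Ob K) : K)‖ = 1 := by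
      rw [← norm_mul, ← Subring.coe_mul, Units.mul_inv, Subring.coe_one, norm_one]
    have h2 := Ob_norm_le_one (u : Ob K)
    have h3 := Ob_norm_le_one (↑u⁻¹ : Ob K)
    nlinarith [norm_nonneg ((u : Ob K) : K), norm_nonneg ((↑u⁻¹ : Ob K) : K)]
  · intro h
    have h0 : a ≠ 0 := by
      rintro rfl
      simp at h
    have h1 : (1 : Ob K) ≠ 0 := one_ne_zero
    exact isUnit_of_dvd_one ((dvd_iff h0).2 (by simp [h]))

/-- Weierstrass preparation over the unit ball. -/
theorem exists_weierstrass [CompleteSpace K] (hK : ∃ x : K, 0 < ‖x‖ ∧ ‖x‖ < 1)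
    (g : PowerSeries (Ob K)) (m0 : ℕ)
    (hlt : ∀ m < m0, ‖((PowerSeries.coeff m g : Ob K) : K)‖ < 1)
    (hm0 : ‖((PowerSeries.coeff m0 g : Ob K) : K)‖ = 1) :
    ∃ (q : PowerSeries (Ob K)) (P : Polynomial (Ob K)), IsUnit q ∧ P.Monic ∧ P.natDegree = m0 ∧
      (∀ m < m0, ‖((P.coeff m : Ob K) : K)‖ < 1) ∧ g = q * (P : PowerSeries (Ob K)) := by
  obtain ⟨ϖ, h0, h1, h2⟩ := exists_bound hK m0 (fun m => PowerSeries.coeff m g) hlt
  have hI : ∀ a : Ob K, a ∈ Ideal.span {ϖ} ↔ ‖(a : K)‖ ≤ ‖(ϖ : K)‖ := fun a => by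
    rw [Ideal.mem_span_singleton, dvd_iff h0]
  have := isAdicComplete_span ϖ h1
  set I : Ideal (Ob K) := Ideal.span {ϖ} with hIdef
  have hord : (g.map (Ideal.Quotient.mk I)).order = (m0 : ℕ∞) := by
    rw [PowerSeries.order_eq_nat]
    constructor
    · rw [PowerSeries.coeff_map, Ne, Ideal.Quotient.eq_zero_iff_mem, hI, hm0]
      exact not_le.2 h1
    · intro i hi
      rw [PowerSeries.coeff_map, Ideal.Quotient.eq_zero_iff_mem, hI]
      exact h2 i hi
  have hto : (g.map (Ideal.Quotient.mk I)).order.toNat = m0 := by rw [hord]; rfl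
  have hW : PowerSeries.IsWeierstrassDivisorAt g I := by
    unfold PowerSeries.IsWeierstrassDivisorAt
    rw [hto, Ob_isUnit_iff]
    exact hm0
  have hdiv := hW.isWeierstrassDivisionAt_div_mod (PowerSeries.X ^ m0)
  set q := hW.div (PowerSeries.X ^ m0)
  set r := hW.mod (PowerSeries.X ^ m0)
  have hdeg : r.degree < m0 := by
    have := hdiv.degree_lt
    rwa [hto] at this
  have heq : (PowerSeries.X ^ m0 : PowerSeries (Ob K)) = g * q + (r : PowerSeries (Ob K)) :=
    hdiv.eq_mul_add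
  have hrI : ∀ i < m0, ‖((r.coeff i : Ob K) : K)‖ ≤ ‖(ϖ : K)‖ := by
    intro i hi
    have := hdiv.coeff_f_sub_r_mem (i := i) (by rw [hto]; exact hi)
    rw [hI, map_sub, PowerSeries.coeff_X_pow, if_neg hi.ne, zero_sub, Subring.coe_neg, norm_neg,
      Polynomial.coeff_coe] at this
    exact this
  have hrm0 : r.coeff m0 = 0 := Polynomial.coeff_eq_zero_of_degree_lt hdeg
  -- q is a unit
  have hq : IsUnit q := by
    rw [PowerSeries.isUnit_iff_constantCoeff, Ob_isUnit_iff]
    have h3 := congrArg (PowerSeries.coeff m0) heq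
    rw [PowerSeries.coeff_X_pow, if_pos rfl, map_add, Polynomial.coeff_coe, hrm0, add_zero,
      PowerSeries.coeff_mul, Finset.Nat.sum_antidiagonal_eq_sum_range_succ
        (fun i j => PowerSeries.coeff i g * PowerSeries.coeff j q),
      Finset.sum_range_succ, Nat.sub_self] at h3
    set S : Ob K := ∑ i ∈ Finset.range m0, PowerSeries.coeff i g * PowerSeries.coeff (m0 - i) q
      with hS
    have h4 : ‖(S : K)‖ ≤ ‖(ϖ : K)‖ := by
      rw [hS, AddSubmonoidClass.coe_finsetSum]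
      refine IsUltrametricDist.norm_sum_le_of_forall_le_of_nonneg (norm_nonneg _) fun i hi => ?_
      rw [Subring.coe_mul, norm_mul]
      calc _ ≤ ‖(ϖ : K)‖ * 1 :=
            mul_le_mul (h2 i (Finset.mem_range.1 hi)) (Ob_norm_le_one _) (norm_nonneg _)
              (norm_nonneg _)
        _ = ‖(ϖ : K)‖ := mul_one _
    have h5 : ‖((PowerSeries.coeff m0 g * PowerSeries.coeff 0 q : Ob K) : K)‖ = 1 := by
      have h6 : PowerSeries.coeff m0 g * PowerSeries.coeff 0 q = 1 - S := by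
        rw [eq_sub_iff_add_eq, add_comm]; exact h3.symm
      rw [h6]
      refine le_antisymm (Ob_norm_le_one _) ?_
      by_contra hlt'
      push Not at hlt'
      have h7 : (1 : K) = ((1 - S : Ob K) : K) + (S : K) := by
        rw [AddSubgroupClass.coe_sub, Subring.coe_one]; ring
      have h8 : ‖(1 : K)‖ < 1 := by
        conv_lhs => rw [h7]
        exact (IsUltrametricDist.norm_add_le_max _ _).trans_lt (max_lt hlt' (h4.trans_lt h1))
      rw [norm_one] at h8
      exact lt_irrefl _ h8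
    rw [Subring.coe_mul, norm_mul, hm0, one_mul, PowerSeries.coeff_zero_eq_constantCoeff_apply] at h5
    exact h5
  refine ⟨↑hq.unit⁻¹, Polynomial.X ^ m0 - r, Units.isUnit _, Polynomial.monic_X_pow_sub ?_, ?_,
    fun m hm => ?_, ?_⟩
  · exact hdeg
  · apply Polynomial.natDegree_eq_of_degree_eq_some
    rw [Polynomial.degree_sub_eq_left_of_degree_lt, Polynomial.degree_X_pow]
    rwa [Polynomial.degree_X_pow]
  · rw [Polynomial.coeff_sub, Polynomial.coeff_X_pow, if_neg hm.ne, zero_sub, Subring.coe_neg,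
      norm_neg]
    exact (hrI m hm).trans_lt h1
  · have h3 : ((Polynomial.X ^ m0 - r : Polynomial (Ob K)) : PowerSeries (Ob K)) = g * q := by
      rw [Polynomial.coe_sub, Polynomial.coe_pow, Polynomial.coe_X, heq]
      ring
    rw [h3, mul_comm g q, ← mul_assoc]
    rw [show (↑hq.unit⁻¹ : PowerSeries (Ob K)) * q = 1 from hq.val_inv_mul, one_mul]

end Ball

end Crest.Agent.R013.Cell_408
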