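import Crest.Agent.R013.Cell1_408

/-! # R013 / Cell2_408 : finitely defined families, the ring `BD k C` of bounded finitely defined power
series over `C = kbar`, discrete norms, Weierstrass preparation in `BD`. -/

set_option autoImplicit false
set_option linter.unusedSectionVars false
set_option linter.style.haveILetI false

noncomputable section

namespace Crest.Agent.R013.Cell_408

open Topology

section Fin

variable (k : Type*) {C : Type*} [NontriviallyNormedField k] [NormedField C]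
  [NormedAlgebra k C]

/-- a family of elements of `C` that lies in one finite extension of `k` -/
def FinDef {ι : Type*} (a : ι → C) : Prop :=
  ∃ L : IntermediateField k C, FiniteDimensional k L ∧ ∀ i, a i ∈ L

variable {k}

theorem FinDef.mono {ι : Type*} {a : ι → C} {L : IntermediateField k C} (hL : FiniteDimensional k L)
    (h : ∀ i, a i ∈ L) : FinDef k a := ⟨L, hL, h⟩

theorem FinDef.common {ι κ : Type*} {a : ι → C} {b : κ → C} (ha : FinDef k a) (hb : FinDef k b) :
    ∃ L : IntermediateField k C, FiniteDimensional k L ∧ (∀ i, a i ∈ L) ∧ ∀ i, b i ∈ L := by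
  obtain ⟨L, hL, h1⟩ := ha
  obtain ⟨M, hM, h2⟩ := hb
  refine ⟨L ⊔ M, IntermediateField.finiteDimensional_sup L M, fun i => ?_, fun i => ?_⟩
  · exact (le_sup_left : L ≤ L ⊔ M) (h1 i)
  · exact (le_sup_right : M ≤ L ⊔ M) (h2 i)

theorem finDef_const [Algebra.IsAlgebraic k C] {ι : Type*} (c : C) : FinDef k (fun _ : ι => c) := by
  refine ⟨IntermediateField.adjoin k {c}, ?_, fun _ => IntermediateField.mem_adjoin_simple_self k c⟩
  exact IntermediateField.adjoin.finiteDimensional (Algebra.IsAlgebraic.isAlgebraic c).isIntegral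

theorem finDef_finite [Algebra.IsAlgebraic k C] {ι : Type*} [Finite ι] (a : ι → C) : FinDef k a := by
  refine ⟨IntermediateField.adjoin k (Set.range a), ?_, fun i =>
    IntermediateField.subset_adjoin k _ ⟨i, rfl⟩⟩
  exact IntermediateField.finiteDimensional_adjoin
    fun x _ => (Algebra.IsAlgebraic.isAlgebraic x).isIntegral

theorem FinDef.comp {ι κ : Type*} {a : ι → C} (h : FinDef k a) (f : κ → ι) :
    FinDef k (fun i => a (f i)) := by
  obtain ⟨L, hL, h1⟩ := h
  exact ⟨L, hL, fun i => h1 _⟩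

end Fin

section BD

variable (k C : Type*) [NontriviallyNormedField k] [NormedField C] [IsUltrametricDist C]
  [NormedAlgebra k C] [Algebra.IsAlgebraic k C]

/-- bounded finitely defined power series -/
def BD : Subalgebra C (PowerSeries C) where
  carrier := {f | FinDef k (fun n => PowerSeries.coeff n f) ∧ ∃ M : ℝ, ∀ n, ‖PowerSeries.coeff n f‖ ≤ M}
  mul_mem' {f g} hf hg := by
    obtain ⟨hf1, M, hf2⟩ := hf
    obtain ⟨hg1, N, hg2⟩ := hg
    obtain ⟨L, hL, h1, h2⟩ := hf1.common hg1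
    refine ⟨⟨L, hL, fun n => ?_⟩, M * N, fun n => ?_⟩
    · dsimp only
      rw [PowerSeries.coeff_mul]
      exact sum_mem fun p _ => mul_mem (h1 _) (h2 _)
    · rw [PowerSeries.coeff_mul]
      have hM : 0 ≤ M := (norm_nonneg _).trans (hf2 0)
      have hN : 0 ≤ N := (norm_nonneg _).trans (hg2 0)
      refine IsUltrametricDist.norm_sum_le_of_forall_le_of_nonneg (mul_nonneg hM hN) fun p _ => ?_
      rw [norm_mul]
      exact mul_le_mul (hf2 _) (hg2 _) (norm_nonneg _) hM
  add_mem' {f g} hf hg := by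
    obtain ⟨hf1, M, hf2⟩ := hf
    obtain ⟨hg1, N, hg2⟩ := hg
    obtain ⟨L, hL, h1, h2⟩ := hf1.common hg1
    refine ⟨⟨L, hL, fun n => ?_⟩, max M N, fun n => ?_⟩
    · dsimp only
      rw [map_add]; exact add_mem (h1 n) (h2 n)
    · rw [map_add]
      exact (IsUltrametricDist.norm_add_le_max _ _).trans (max_le_max (hf2 n) (hg2 n))
  algebraMap_mem' c := by
    obtain ⟨L, hL, h1⟩ := finDef_const (k := k) (ι := Unit) c
    refine ⟨⟨L, hL, fun n => ?_⟩, ‖c‖, fun n => ?_⟩
    · dsimp only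
      rw [PowerSeries.algebraMap_apply, Algebra.algebraMap_self, RingHom.id_apply,
        PowerSeries.coeff_C]
      split_ifs
      · exact h1 ()
      · exact zero_mem L
    · rw [PowerSeries.algebraMap_apply, Algebra.algebraMap_self, RingHom.id_apply,
        PowerSeries.coeff_C]
      split_ifs <;> simp

variable {k C}

theorem mem_BD {f : PowerSeries C} : f ∈ BD k C ↔
    FinDef k (fun n => PowerSeries.coeff n f) ∧ ∃ M : ℝ, ∀ n, ‖PowerSeries.coeff n f‖ ≤ M := Iff.rfl

theorem C_mem_BD (c : C) : (PowerSeries.C c : PowerSeries C) ∈ BD k C :=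
  (BD k C).algebraMap_mem c

theorem X_mem_BD : (PowerSeries.X : PowerSeries C) ∈ BD k C := by
  refine ⟨⟨⊥, inferInstance, fun n => ?_⟩, 1, fun n => ?_⟩
  · dsimp only
    rw [PowerSeries.coeff_X]; split_ifs
    · exact one_mem _
    · exact zero_mem _
  · rw [PowerSeries.coeff_X]; split_ifs <;> simp

theorem coe_mem_BD (P : Polynomial C) : (P : PowerSeries C) ∈ BD k C := by
  induction P using Polynomial.induction_on' with
  | add p q hp hq => rw [Polynomial.coe_add]; exact add_mem hp hq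
  | monomial n c =>
    rw [← Polynomial.C_mul_X_pow_eq_monomial, Polynomial.coe_mul, Polynomial.coe_pow,
      Polynomial.coe_C, Polynomial.coe_X]
    exact mul_mem (C_mem_BD c) (pow_mem X_mem_BD n)

end BD

section Disc

variable (k : Type*) [NontriviallyNormedField k]

/-- the value group of `k` is discrete -/
def DiscNorm : Prop :=
  ∃ ϖ : k, 0 < ‖ϖ‖ ∧ ‖ϖ‖ < 1 ∧ ∀ x : k, x ≠ 0 → ∃ n : ℤ, ‖x‖ = ‖ϖ‖ ^ n

variable {k}
variable {C : Type*} [CompleteSpace k] [IsUltrametricDist k] [NormedField C]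
  [NormedAlgebra k C] [Algebra.IsAlgebraic k C] [IsAlgClosed C]

theorem norm_pow_natDegree (x : C) : ∃ y : k, ‖x‖ ^ (minpoly k x).natDegree = ‖y‖ := by
  have hint : IsIntegral k x := (Algebra.IsAlgebraic.isAlgebraic x).isIntegral
  refine ⟨(minpoly k x).coeff 0, ?_⟩
  have hsp : ((minpoly k x).map (algebraMap k C)).Splits := IsAlgClosed.splits _
  have hmon : ((minpoly k x).map (algebraMap k C)).Monic := (minpoly.monic hint).map _
  have h1 := hsp.coeff_zero_eq_prod_roots_of_monic hmon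
  have h2 : ‖(minpoly k x).coeff 0‖ = ‖((minpoly k x).map (algebraMap k C)).roots.prod‖ := by
    rw [← norm_algebraMap' C ((minpoly k x).coeff 0), ← Polynomial.coeff_map, h1, norm_mul, norm_pow,
      norm_neg, norm_one, one_pow, one_mul]
  have h3 : ∀ y ∈ ((minpoly k x).map (algebraMap k C)).roots, ‖y‖ = ‖x‖ := by
    intro y hy
    have hy1 : Polynomial.aeval y (minpoly k x) = 0 := by
      have := (Polynomial.mem_roots'.1 hy).2
      rwa [Polynomial.IsRoot.def, Polynomial.eval_map_algebraMap] at this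
    have hy2 : minpoly k y = minpoly k x :=
      (minpoly.eq_of_irreducible_of_monic (minpoly.irreducible hint) hy1 (minpoly.monic hint)).symm
    rw [NormedAlgebra.norm_eq_spectralNorm k y, NormedAlgebra.norm_eq_spectralNorm k x,
      spectralNorm, spectralNorm, hy2]
  have h4 : ‖((minpoly k x).map (algebraMap k C)).roots.prod‖ =
      (((minpoly k x).map (algebraMap k C)).roots.map (fun y => ‖y‖)).prod := by
    have := map_multiset_prod (normHom : C →*₀ ℝ) ((minpoly k x).map (algebraMap k C)).roots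
    simpa using this
  rw [h2, h4, Multiset.map_congr rfl h3, Multiset.map_const', Multiset.prod_replicate]
  congr 1
  rw [← hsp.natDegree_eq_card_roots, (minpoly.monic hint).natDegree_map]

/-- the values on a finite extension lie, after raising to a fixed power, in the value group of `k` -/
theorem exists_zpow_of_mem (hk : DiscNorm k) (L : IntermediateField k C) [FiniteDimensional k L] :
    ∃ (ρ : ℝ) (N : ℕ), 0 < ρ ∧ ρ < 1 ∧ 0 < N ∧ ∀ x ∈ L, x ≠ 0 → ∃ n : ℤ, ‖x‖ ^ N = ρ ^ n := by
  obtain ⟨ϖ, h0, h1, h2⟩ := hk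
  refine ⟨‖ϖ‖, (Module.finrank k L).factorial, h0, h1, Nat.factorial_pos _, fun x hx hx0 => ?_⟩
  have hint : IsIntegral k x := (Algebra.IsAlgebraic.isAlgebraic x).isIntegral
  have hd : (minpoly k x).natDegree ≤ Module.finrank k L := by
    have h3 := minpoly.natDegree_le (A := k) (⟨x, hx⟩ : L)
    rwa [← IntermediateField.minpoly_eq (⟨x, hx⟩ : L)]
  have hd0 : 0 < (minpoly k x).natDegree := minpoly.natDegree_pos hint
  obtain ⟨y, hy⟩ := norm_pow_natDegree (k := k) x
  have hy0 : y ≠ 0 := by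
    rintro rfl
    rw [norm_zero] at hy
    exact hx0 (norm_eq_zero.1 (pow_eq_zero_iff (n := (minpoly k x).natDegree) hd0.ne' |>.1 hy))
  obtain ⟨n, hn⟩ := h2 y hy0
  obtain ⟨e, he⟩ := Nat.dvd_factorial hd0 hd
  refine ⟨n * e, ?_⟩
  rw [he, pow_mul, hy, hn, zpow_mul, zpow_natCast]

/-- a bounded finitely defined family attains its maximal norm -/
theorem exists_max (hk : DiscNorm k) {ι : Type*} {a : ι → C} (ha : FinDef k a) {M : ℝ}
    (hM : ∀ i, ‖a i‖ ≤ M) (hne : ∃ i, a i ≠ 0) : ∃ i, a i ≠ 0 ∧ ∀ j, ‖a j‖ ≤ ‖a i‖ := by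
  obtain ⟨L, hL, hmem⟩ := ha
  obtain ⟨ρ, N, hρ0, hρ1, hN, hz⟩ := exists_zpow_of_mem hk L
  obtain ⟨b, hb⟩ := exists_pow_lt_of_lt_one (x := (|M| ^ N + 1)⁻¹) (by positivity) hρ1
  have hbd : ∀ n : ℤ, (∃ i, a i ≠ 0 ∧ ‖a i‖ ^ N = ρ ^ n) → -(b : ℤ) ≤ n := by
    rintro n ⟨i, -, hn⟩
    by_contra hlt
    push Not at hlt
    have h1 : ρ ^ (-(b : ℤ)) ≤ ρ ^ n := zpow_le_zpow_right_of_le_one₀ hρ0 hρ1.le hlt.le
    have h2 : ‖a i‖ ^ N ≤ |M| ^ N :=
      pow_le_pow_left₀ (norm_nonneg _) ((hM i).trans (le_abs_self M)) N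
    have h3 : |M| ^ N + 1 < ρ ^ (-(b : ℤ)) := by
      rw [zpow_neg, zpow_natCast]
      rw [lt_inv_comm₀ (by positivity) (by positivity)]
      exact hb
    linarith
  obtain ⟨n, ⟨i, hi, hn⟩, hmin⟩ := Int.exists_least_of_bdd ⟨-(b : ℤ), hbd⟩ (by
    obtain ⟨i, hi⟩ := hne
    obtain ⟨n, hn⟩ := hz _ (hmem i) hi
    exact ⟨n, i, hi, hn⟩)
  refine ⟨i, hi, fun j => ?_⟩
  by_cases hj : a j = 0
  · rw [hj, norm_zero]; exact norm_nonneg _
  obtain ⟨m, hm⟩ := hz _ (hmem j) hj
  have h1 : n ≤ m := hmin m ⟨j, hj, hm⟩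
  have h2 : ‖a j‖ ^ N ≤ ‖a i‖ ^ N := by
    rw [hm, hn]; exact zpow_le_zpow_right_of_le_one₀ hρ0 hρ1.le h1
  exact le_of_pow_le_pow_left₀ hN.ne' (norm_nonneg _) h2

/-- the first index of maximal norm -/
theorem exists_wdeg (hk : DiscNorm k) {a : ℕ → C} (ha : FinDef k a) {M : ℝ}
    (hM : ∀ i, ‖a i‖ ≤ M) (hne : ∃ i, a i ≠ 0) :
    ∃ n, a n ≠ 0 ∧ (∀ j, ‖a j‖ ≤ ‖a n‖) ∧ ∀ j < n, ‖a j‖ < ‖a n‖ := by
  classical
  obtain ⟨i, hi, hi2⟩ := exists_max hk ha hM hne
  have hex : ∃ n, ‖a n‖ = ‖a i‖ := ⟨i, rfl⟩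
  refine ⟨Nat.find hex, ?_, ?_, ?_⟩
  · intro h0
    have := Nat.find_spec hex
    rw [h0, norm_zero] at this
    exact hi (norm_eq_zero.1 this.symm)
  · intro j
    rw [Nat.find_spec hex]; exact hi2 j
  · intro j hj
    rw [Nat.find_spec hex]
    exact lt_of_le_of_ne (hi2 j) (Nat.find_min hex hj)

/-! ### Summability of finitely defined families -/

theorem completeSpace_mem (L : IntermediateField k C) [FiniteDimensional k L] :
    CompleteSpace L := by
  exact FiniteDimensional.complete k L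

/-- a finitely defined family tending to zero is summable in `C` -/
theorem FinDef.summable {ι : Type*} [IsUltrametricDist C] {a : ι → C} (ha : FinDef k a)
    (h0 : Filter.Tendsto a Filter.cofinite (𝓝 0)) : Summable a := by
  obtain ⟨L, hL, hmem⟩ := ha
  haveI := completeSpace_mem L
  let b : ι → L := fun i => ⟨a i, hmem i⟩
  have hb : Filter.Tendsto b Filter.cofinite (𝓝 0) := by
    rw [tendsto_subtype_rng]
    exact h0
  have hs : Summable b := NonarchimedeanAddGroup.summable_of_tendsto_cofinite_zero hb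
  exact hs.map (L.val : L →+ C) continuous_subtype_val

/-- the sum of a finitely defined family stays in the field of definition -/
theorem hasSum_mem {ι : Type*} {a : ι → C} {s : C} (h : HasSum a s) (L : IntermediateField k C)
    [FiniteDimensional k L] (hmem : ∀ i, a i ∈ L) : s ∈ L := by
  haveI := completeSpace_mem L
  have hcl : IsClosed (L : Set C) := (completeSpace_coe_iff_isComplete.1 this).isClosed
  refine hcl.mem_of_tendsto h (Filter.Eventually.of_forall fun t => ?_)
  exact sum_mem fun i _ => hmem i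

end Disc

end Crest.Agent.R013.Cell_408
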