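import Crest.Agent.R013.Cell2_408

/-! # R013 / Cell3_408 : Weierstrass preparation in `BD k C`, units, `wdeg`. -/

set_option autoImplicit false
set_option linter.unusedSectionVars false
set_option linter.style.haveILetI false

noncomputable section

namespace Crest.Agent.R013.Cell_408

open Topology

section Weier

variable {k C : Type*} [NontriviallyNormedField k] [CompleteSpace k] [IsUltrametricDist k]
  [NormedField C] [IsUltrametricDist C] [NormedAlgebra k C] [Algebra.IsAlgebraic k C] [IsAlgClosed C]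

/-- the structure map of the unit ball of a subfield -/
def ballMap (L : IntermediateField k C) : Ob L →+* C :=
  (L.val : L →+* C).comp (Ob L).subtype

omit [CompleteSpace k] [IsUltrametricDist k] [Algebra.IsAlgebraic k C] [IsAlgClosed C] in
theorem ballMap_apply (L : IntermediateField k C) (x : Ob L) : ballMap L x = ((x : L) : C) := rfl

omit [CompleteSpace k] [IsUltrametricDist k] [Algebra.IsAlgebraic k C] [IsAlgClosed C] in
theorem norm_ballMap (L : IntermediateField k C) (x : Ob L) : ‖ballMap L x‖ = ‖(x : L)‖ := rfl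

theorem norm_root_lt_one {P : Polynomial C} (hP : P.Monic) (hlt : ∀ n < P.natDegree, ‖P.coeff n‖ < 1)
    {τ : C} (hτ : P.IsRoot τ) : ‖τ‖ < 1 := by
  by_contra h
  push Not at h
  have h1 : P.eval τ = ∑ i ∈ Finset.range P.natDegree, P.coeff i * τ ^ i + τ ^ P.natDegree := by
    rw [Polynomial.eval_eq_sum_range, Finset.sum_range_succ, hP.coeff_natDegree, one_mul]
  have h2 : τ ^ P.natDegree = -∑ i ∈ Finset.range P.natDegree, P.coeff i * τ ^ i := by
    rw [eq_neg_iff_add_eq_zero, add_comm, ← h1]; exact hτ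
  rcases Nat.eq_zero_or_pos P.natDegree with h0 | h0
  · rw [h0] at h2; simp at h2
  have h3 : ‖∑ i ∈ Finset.range P.natDegree, P.coeff i * τ ^ i‖ < ‖τ‖ ^ P.natDegree := by
    obtain ⟨i, hi, hi2⟩ := IsUltrametricDist.exists_norm_finsetSum_le_of_nonempty
      (t := Finset.range P.natDegree) (by simpa using h0.ne') (fun i => P.coeff i * τ ^ i)
    refine hi2.trans_lt ?_
    rw [norm_mul, norm_pow]
    have hi' := Finset.mem_range.1 hi
    calc ‖P.coeff i‖ * ‖τ‖ ^ i < 1 * ‖τ‖ ^ i := by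
          apply mul_lt_mul_of_pos_right (hlt i hi')
          exact pow_pos (lt_of_lt_of_le one_pos h) _
      _ ≤ ‖τ‖ ^ P.natDegree := by
          rw [one_mul]; exact pow_le_pow_right₀ h hi'.le
  rw [← norm_neg, ← h2, norm_pow] at h3
  exact lt_irrefl _ h3

/-- **Weierstrass preparation** for finitely defined power series with coefficients in the unit
ball. -/
theorem weierstrass {f : PowerSeries C} (hf : FinDef k fun n => PowerSeries.coeff n f) {m : ℕ}
    (h1 : ∀ n, ‖PowerSeries.coeff n f‖ ≤ 1) (hm : ‖PowerSeries.coeff m f‖ = 1)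
    (hlt : ∀ n < m, ‖PowerSeries.coeff n f‖ < 1) :
    ∃ (u : PowerSeries C) (P : Polynomial C), FinDef k (fun n => PowerSeries.coeff n u) ∧
      (∀ n, ‖PowerSeries.coeff n u‖ ≤ 1) ∧ ‖PowerSeries.coeff 0 u‖ = 1 ∧ P.Monic ∧
      P.natDegree = m ∧ (∀ n < m, ‖P.coeff n‖ < 1) ∧ f = u * (P : PowerSeries C) := by
  obtain ⟨L, hL, hmem⟩ := hf
  haveI : CompleteSpace L := completeSpace_mem L
  have hK : ∃ x : L, 0 < ‖x‖ ∧ ‖x‖ < 1 := by
    obtain ⟨x, hx0, hx1⟩ := NormedField.exists_norm_lt_one k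
    refine ⟨algebraMap k L x, ?_, ?_⟩
    · rw [norm_algebraMap']; exact hx0
    · rw [norm_algebraMap']; exact hx1
  let g : PowerSeries (Ob L) := PowerSeries.mk fun n =>
    ⟨⟨PowerSeries.coeff n f, hmem n⟩, h1 n⟩
  have hg : ∀ n, ballMap L (PowerSeries.coeff n g) = PowerSeries.coeff n f := by
    intro n
    rw [PowerSeries.coeff_mk]; rfl
  have hgf : PowerSeries.map (ballMap L) g = f := by
    ext n; rw [PowerSeries.coeff_map, hg]
  obtain ⟨q, P, hq, hP, hdeg, hP1, hgq⟩ := exists_weierstrass hK g m (fun n hn => by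
      rw [← norm_ballMap, hg]; exact hlt n hn) (by rw [← norm_ballMap, hg]; exact hm)
  refine ⟨PowerSeries.map (ballMap L) q, P.map (ballMap L), ⟨L, hL, fun n => ?_⟩, fun n => ?_, ?_,
    hP.map _, ?_, fun n hn => ?_, ?_⟩
  · dsimp only
    rw [PowerSeries.coeff_map, ballMap_apply]; exact Subtype.mem _
  · rw [PowerSeries.coeff_map, norm_ballMap]; exact Ob_norm_le_one _
  · rw [PowerSeries.coeff_map, norm_ballMap]
    rw [PowerSeries.isUnit_iff_constantCoeff, Ob_isUnit_iff] at hq
    rw [PowerSeries.coeff_zero_eq_constantCoeff_apply]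
    exact hq
  · rw [hP.natDegree_map, hdeg]
  · rw [Polynomial.coeff_map, norm_ballMap]; exact hP1 n hn
  · rw [← hgf, hgq, map_mul, Polynomial.polynomial_map_coe]

/-- Weierstrass preparation in factorised form. -/
theorem weierstrass_roots {f : PowerSeries C} (hf : FinDef k fun n => PowerSeries.coeff n f) {m : ℕ}
    (h1 : ∀ n, ‖PowerSeries.coeff n f‖ ≤ 1) (hm : ‖PowerSeries.coeff m f‖ = 1)
    (hlt : ∀ n < m, ‖PowerSeries.coeff n f‖ < 1) :
    ∃ (u : PowerSeries C) (S : Multiset C), FinDef k (fun n => PowerSeries.coeff n u) ∧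
      (∀ n, ‖PowerSeries.coeff n u‖ ≤ 1) ∧ ‖PowerSeries.coeff 0 u‖ = 1 ∧ S.card = m ∧
      (∀ τ ∈ S, ‖τ‖ < 1) ∧
      f = u * ((S.map fun τ => Polynomial.X - Polynomial.C τ).prod : Polynomial C) := by
  obtain ⟨u, P, hu1, hu2, hu3, hP, hdeg, hP1, hfu⟩ := weierstrass hf h1 hm hlt
  have hsp : P.Splits := IsAlgClosed.splits P
  refine ⟨u, P.roots, hu1, hu2, hu3, ?_, fun τ hτ => ?_, ?_⟩
  · rw [← hsp.natDegree_eq_card_roots, hdeg]
  · exact norm_root_lt_one hP (by rwa [hdeg]) (Polynomial.mem_roots'.1 hτ).2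
  · rw [hfu]
    congr 2
    have := hsp.eq_prod_roots
    rw [hP.leadingCoeff, Polynomial.C_1, one_mul] at this
    exact this

end Weier

end Crest.Agent.R013.Cell_408
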