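import Mathlib
/-
ROW 13, leaf CHART (helper359), file 1: etale charts, abstract part.

F a field, K = F(z), v a valuation on K.  IsChart F v z : the minimal polynomial M of z over F has v-integral coefficients
and v (M'(z)) = 1.  Then the valuation ring of v is the localisation of O[z] at the centre of v (O = v-integers of F),
-/
set_option autoImplicit false
set_option linter.unusedSectionVars false

namespace Crest.Agent.R013.Chart_359

open Polynomial

/-- `x` is integral over `O` if it lies in every valuation subring containing the image of `O`. -/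
theorem isIntegral_of_forall {O K : Type*} [CommRing O] [Field K] [Algebra O K] (x : K)
    (h : ∀ W : ValuationSubring K, (∀ a : O, algebraMap O K a ∈ W) → x ∈ W) : IsIntegral O x := by
  have h1 : x ∈ (⨅ V : {V : ValuationSubring K // Set.range (algebraMap O K) ⊆ V.toSubring},
      V.1.toSubring) := by
    rw [Subring.mem_iInf]
    rintro ⟨V, hV⟩
    exact h V (fun a => hV ⟨a, rfl⟩)
  rw [iInf_valuationSubring_superset] at h1
  obtain ⟨q, hq, hx⟩ := (show IsIntegral (Subring.closure (Set.range (algebraMap O K))) x from h1)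
  have hcl : ∀ y : Subring.closure (Set.range (algebraMap O K)), ∃ a : O, algebraMap O K a = y := by
    rintro ⟨y, hy⟩
    have : Subring.closure (Set.range (algebraMap O K)) = (algebraMap O K).range := by
      rw [← RingHom.coe_range]
      exact Subring.closure_eq _
    rw [this] at hy
    exact hy
  let g : O →+* Subring.closure (Set.range (algebraMap O K)) :=
    (algebraMap O K).codRestrict _ (fun a => Subring.subset_closure ⟨a, rfl⟩)
  have hg : Function.Surjective g := by
    intro y
    obtain ⟨a, ha⟩ := hcl y
    exact ⟨a, Subtype.ext ha⟩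
  have hl : q ∈ Polynomial.lifts g := by
    rw [Polynomial.mem_lifts]
    exact Polynomial.map_surjective g hg q
  obtain ⟨q', hq', -, hm⟩ := Polynomial.lifts_and_natDegree_eq_and_monic hl hq
  refine ⟨q', hm, ?_⟩
  rw [← hq', eval₂_map] at hx
  exact hx

/-- Horner coefficients of a polynomial relation are integral. -/
theorem horner {O K : Type*} [CommRing O] [Field K] [Algebra O K] (n : ℕ) (c : ℕ → O) (f : K)
    (h : ∑ i ∈ Finset.range (n + 1), algebraMap O K (c i) * f ^ i = 0) (j : ℕ) (hj : j ≤ n) :
    IsIntegral O (∑ i ∈ Finset.range (n + 1 - j), algebraMap O K (c (j + i)) * f ^ i) := by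
  refine isIntegral_of_forall _ (fun W hW => ?_)
  by_cases hf : f ∈ W
  · exact sum_mem (fun i _ => mul_mem (hW _) (pow_mem hf _))
  · have hf' : f⁻¹ ∈ W := (W.mem_or_inv_mem f).resolve_left hf
    have hf0 : f ≠ 0 := fun h0 => hf (h0 ▸ zero_mem W)
    have hs : (∑ i ∈ Finset.range (n + 1 - j), algebraMap O K (c (j + i)) * f ^ i) =
        - ∑ i ∈ Finset.range j, algebraMap O K (c i) * (f⁻¹) ^ (j - i) := by
      have h2 : n + 1 = j + (n + 1 - j) := by omega
      rw [h2, Finset.sum_range_add] at h
      have h3 : (∑ x ∈ Finset.range (n + 1 - j), algebraMap O K (c (j + x)) * f ^ (j + x)) =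
          f ^ j * ∑ i ∈ Finset.range (n + 1 - j), algebraMap O K (c (j + i)) * f ^ i := by
        rw [Finset.mul_sum]
        refine Finset.sum_congr rfl (fun x _ => by rw [pow_add]; ring)
      have h4 : (∑ x ∈ Finset.range j, algebraMap O K (c x) * f ^ x) =
          f ^ j * ∑ i ∈ Finset.range j, algebraMap O K (c i) * (f⁻¹) ^ (j - i) := by
        rw [Finset.mul_sum]
        refine Finset.sum_congr rfl (fun x hx => ?_)
        have hxj : x < j := Finset.mem_range.mp hx
        have : f ^ j = f ^ x * f ^ (j - x) := by rw [← pow_add]; congr 1; omega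
        rw [this, inv_pow]
        field_simp
      rw [h3, h4, ← mul_add] at h
      rcases mul_eq_zero.mp h with h0 | h0
      · exact absurd h0 (pow_ne_zero _ hf0)
      · exact (neg_eq_of_add_eq_zero_right h0).symm
    rw [hs]
    exact neg_mem (sum_mem (fun i _ => mul_mem (hW _) (pow_mem hf' _)))


theorem gcd_argument {κ0 κ : Type*} [Field κ0] [Field κ] [Algebra κ0 κ] (zb : κ) (M P : κ0[X])
    (hM : aeval zb M = 0) (hM' : aeval zb (derivative M) ≠ 0) (hP : aeval zb P = 0) :
    ∃ e q : κ0[X], aeval zb e ≠ 0 ∧ P * e = q * M := by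
  obtain ⟨e, he⟩ := minpoly.dvd κ0 zb hM
  obtain ⟨q, hq⟩ := minpoly.dvd κ0 zb hP
  refine ⟨e, q, ?_, ?_⟩
  · intro h0
    apply hM'
    rw [he, derivative_mul, map_add, map_mul, map_mul, minpoly.aeval, zero_mul, h0, mul_zero,
      add_zero]
  · rw [hq, he]; ring

section main

variable {O F K Γ₀ : Type*} [CommRing O] [IsDomain O] [IsIntegrallyClosed O] [Field F] [Algebra O F]
  [IsFractionRing O F] [Field K] [Algebra F K] [Algebra O K] [IsScalarTower O F K]
  [LinearOrderedCommGroupWithZero Γ₀]

/-- multiplication into the integral closure by a `v`-unit. -/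
theorem exists_mult (v : Valuation K Γ₀)
    (hv : ∀ x : F, v (algebraMap F K x) ≤ 1 ↔ ∃ a : O, algebraMap O F a = x)
    (f : K) (hf : v f ≤ 1) (hfa : IsIntegral F f) :
    ∃ b : K, v b = 1 ∧ IsIntegral O b ∧ IsIntegral O (b * f) := by
  classical
  have hv1 : ∀ a : O, v (algebraMap O K a) ≤ 1 := fun a => by
    rw [IsScalarTower.algebraMap_apply O F K]
    exact (hv _).mpr ⟨a, rfl⟩
  let q := minpoly F f
  let n := q.natDegree
  have hq0 : aeval f q = 0 := minpoly.aeval F f
  have hqn : q.coeff n = 1 := minpoly.monic hfa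
  let w : ℕ → Γ₀ := fun i => v (algebraMap F K (q.coeff i))
  obtain ⟨m, hm, hmax⟩ := Finset.exists_max_image (Finset.range (n + 1)) w ⟨0, by simp⟩
  have hwm : 1 ≤ w m := by
    have := hmax n (by simp)
    have h1 : w n = 1 := by simp only [w]; rw [hqn]; simp
    rwa [h1] at this
  let T := (Finset.range (n + 1)).filter (fun i => w i = w m)
  have hT : T.Nonempty := ⟨m, Finset.mem_filter.mpr ⟨hm, rfl⟩⟩
  let j := T.max' hT
  have hjT : j ∈ T := T.max'_mem hT
  have hjn : j ≤ n := by
    have := (Finset.mem_filter.mp hjT).1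
    simpa [Nat.lt_succ_iff] using this
  have hwj : w j = w m := (Finset.mem_filter.mp hjT).2
  have hlt : ∀ i, j < i → i ≤ n → w i < w j := by
    intro i hi hin
    refine lt_of_le_of_ne (by rw [hwj]; exact hmax i (by simp; omega)) (fun h => ?_)
    have : i ∈ T := by
      simp only [T, Finset.mem_filter]
      exact ⟨by simp; omega, by rw [h, hwj]⟩
    exact absurd (T.le_max' i this) (not_le.mpr hi)
  have hwj0 : w j ≠ 0 := by
    rw [hwj]
    exact (lt_of_lt_of_le zero_lt_one hwm).ne'
  have hqj : q.coeff j ≠ 0 := fun h => hwj0 (by simp [w, h])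
  have hc : ∀ i, ∃ a : O, i ≤ n → algebraMap O F a = q.coeff i / q.coeff j := by
    intro i
    by_cases hi : i ≤ n
    · have : v (algebraMap F K (q.coeff i / q.coeff j)) ≤ 1 := by
        rw [map_div₀, map_div₀]
        refine div_le_one_of_le₀ ?_ zero_le
        rw [show v (algebraMap F K (q.coeff j)) = w j from rfl, hwj]
        exact hmax i (by simp; omega)
      obtain ⟨a, ha⟩ := (hv _).mp this
      exact ⟨a, fun _ => ha⟩
    · exact ⟨0, fun h => absurd h hi⟩
  choose c hc using hc
  have hcK : ∀ i ≤ n, algebraMap O K (c i) =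
      algebraMap F K (q.coeff i) / algebraMap F K (q.coeff j) := by
    intro i hi
    rw [IsScalarTower.algebraMap_apply O F K, hc i hi, map_div₀]
  have hrel : ∑ i ∈ Finset.range (n + 1), algebraMap O K (c i) * f ^ i = 0 := by
    have h1 : ∑ i ∈ Finset.range (n + 1), algebraMap O K (c i) * f ^ i =
        (algebraMap F K (q.coeff j))⁻¹ * ∑ i ∈ Finset.range (n + 1),
          algebraMap F K (q.coeff i) * f ^ i := by
      rw [Finset.mul_sum]
      refine Finset.sum_congr rfl (fun i hi => ?_)
      rw [hcK i (by simpa [Nat.lt_succ_iff] using hi)]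
      ring
    have h2 : ∑ i ∈ Finset.range (n + 1), algebraMap F K (q.coeff i) * f ^ i = aeval f q := by
      rw [aeval_eq_sum_range]
      exact Finset.sum_congr rfl (fun i _ => by rw [Algebra.smul_def])
    rw [h1, h2, hq0, mul_zero]
  let b : K := ∑ i ∈ Finset.range (n + 1 - j), algebraMap O K (c (j + i)) * f ^ i
  have hbint : IsIntegral O b := horner n c f hrel j hjn
  have hvb : v b = 1 := by
    have hs : n + 1 - j = (n - j) + 1 := by omega
    have hb : b = algebraMap O K (c j) + ∑ i ∈ Finset.range (n - j),
        algebraMap O K (c (j + (i + 1))) * f ^ (i + 1) := by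
      simp only [b]
      rw [hs, Finset.sum_range_succ']
      simp [add_comm]
    have h1 : v (algebraMap O K (c j)) = 1 := by
      rw [hcK j hjn, div_self, map_one]
      rw [ne_eq, map_eq_zero]
      exact hqj
    have h2 : v (∑ i ∈ Finset.range (n - j), algebraMap O K (c (j + (i + 1))) * f ^ (i + 1)) < 1 := by
      refine Valuation.map_sum_lt v one_ne_zero (fun i hi => ?_)
      have hi' : i < n - j := Finset.mem_range.mp hi
      rw [map_mul, map_pow, hcK _ (by omega), map_div₀]
      have h3 : v (algebraMap F K (q.coeff (j + (i + 1)))) / v (algebraMap F K (q.coeff j)) < 1 := by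
        rw [div_lt_one₀ (zero_lt_iff.mpr hwj0)]
        exact hlt _ (by omega) (by omega)
      exact mul_lt_one_of_nonneg_of_lt_one_left zero_le h3 (pow_le_one' hf _)
    rw [hb, Valuation.map_add_eq_of_lt_left v (by rw [h1]; exact h2), h1]
  refine ⟨b, hvb, hbint, ?_⟩
  rcases Nat.eq_zero_or_pos j with h0 | hpos
  · exfalso
    have : b = 0 := by
      simp only [b]
      rw [h0]
      simpa using hrel
    rw [this, map_zero] at hvb
    exact zero_ne_one hvb
  · have h1 := horner n c f hrel (j - 1) (by omega)
    have hs : n + 1 - (j - 1) = (n + 1 - j) + 1 := by omega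
    rw [hs, Finset.sum_range_succ'] at h1
    have h2 : (∑ k ∈ Finset.range (n + 1 - j), algebraMap O K (c (j - 1 + (k + 1))) * f ^ (k + 1)) =
        b * f := by
      simp only [b]
      rw [Finset.sum_mul]
      refine Finset.sum_congr rfl (fun k _ => ?_)
      rw [show j - 1 + (k + 1) = j + k by omega, pow_succ]
      ring
    rw [h2] at h1
    have h3 : b * f = (b * f + algebraMap O K (c (j - 1 + 0)) * f ^ 0) -
        algebraMap O K (c (j - 1)) := by simp
    rw [h3]
    exact h1.sub isIntegral_algebraMap

variable (O F) in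
/-- An etale chart of the valuation `v` : `K = F(z)`, `z` integral over `O` with minimal polynomial `M`, `v (M'(z)) = 1`;
`O` = the `v`-integers of `F`. -/
structure IsChart (v : Valuation K Γ₀) (z : K) : Prop where
  hv : ∀ x : F, v (algebraMap F K x) ≤ 1 ↔ ∃ a : O, algebraMap O F a = x
  gen : Algebra.adjoin F {z} = ⊤
  int : IsIntegral O z
  unit : v (aeval z (derivative (minpoly F z))) = 1

namespace IsChart

variable {v : Valuation K Γ₀} {z : K} (h : IsChart O F v z)

include h

theorem v_le (a : O) : v (algebraMap O K a) ≤ 1 := by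
  rw [IsScalarTower.algebraMap_apply O F K]
  exact (h.hv _).mpr ⟨a, rfl⟩

theorem intF : IsIntegral F z := h.int.tower_top

theorem deriv_ne : aeval z (derivative (minpoly F z)) ≠ 0 := by
  intro h0
  have := h.unit
  rw [h0, map_zero] at this
  exact zero_ne_one this

theorem isSeparable_z : IsSeparable F z := by
  rw [IsSeparable, separable_iff_derivative_ne_zero (minpoly.irreducible h.intF)]
  intro h0
  exact h.deriv_ne (by rw [h0, map_zero])

theorem finiteDimensional : FiniteDimensional F K := by
  have h1 : Module.Finite F (Algebra.adjoin F {z}) := 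
    Algebra.finite_adjoin_simple_of_isIntegral h.intF
  rw [h.gen] at h1
  exact Module.Finite.equiv (Subalgebra.topEquiv (R := F) (A := K)).toLinearEquiv

theorem isSeparable : Algebra.IsSeparable F K := by
  have h1 : IntermediateField.adjoin F {z} = ⊤ := by
    rw [eq_top_iff]
    intro x _
    have : x ∈ Algebra.adjoin F {z} := by rw [h.gen]; trivial
    exact IntermediateField.algebra_adjoin_le_adjoin F {z} this
  have h2 : Algebra.IsSeparable F (IntermediateField.adjoin F {z}) := by
    rw [IntermediateField.isSeparable_adjoin_simple_iff_isSeparable]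
    exact h.isSeparable_z
  rw [h1] at h2
  exact AlgEquiv.Algebra.isSeparable (IntermediateField.topEquiv (F := F) (E := K))

theorem deriv_mul_mem (a : K) (ha : IsIntegral O a) :
    aeval z (derivative (minpoly F z)) * a ∈ Algebra.adjoin O {z} := by
  have := h.finiteDimensional
  have := h.isSeparable
  have h1 : a ∈ (Algebra.traceForm F K).dualSubmodule
      (Subalgebra.toSubmodule (Algebra.adjoin O {z})) := by
    rw [LinearMap.BilinForm.mem_dualSubmodule]
    intro y hy
    have hy' : IsIntegral O y := by
      have hle : Algebra.adjoin O {z} ≤ integralClosure O K := by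
        rw [Algebra.adjoin_le_iff, Set.singleton_subset_iff]
        exact h.int
      exact hle hy
    rw [Algebra.traceForm_apply, Submodule.mem_one]
    exact (IsIntegrallyClosed.isIntegral_iff).mp (Algebra.isIntegral_trace (ha.mul hy'))
  rw [traceForm_dualSubmodule_adjoin O F h.gen h.int] at h1
  rw [Submodule.mem_smul_pointwise_iff_exists] at h1
  obtain ⟨y, hy, hya⟩ := h1
  rw [← hya, smul_eq_mul, mul_inv_cancel_left₀ h.deriv_ne]
  exact hy

/-- the valuation ring of `v` is the localisation of `O[z]`. -/
theorem frac (f : K) (hf : v f ≤ 1) :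
    ∃ P Q : O[X], v (aeval z Q) = 1 ∧ f * aeval z Q = aeval z P := by
  have := h.finiteDimensional
  obtain ⟨b, hvb, hb, hbf⟩ := exists_mult v h.hv f hf (Algebra.IsIntegral.isIntegral f)
  have h1 := h.deriv_mul_mem b hb
  have h2 := h.deriv_mul_mem (b * f) hbf
  rw [Algebra.adjoin_singleton_eq_range_aeval] at h1 h2
  obtain ⟨Q, hQ⟩ := h1
  obtain ⟨P, hP⟩ := h2
  refine ⟨P, Q, ?_, ?_⟩
  · have : aeval z Q = aeval z (derivative (minpoly F z)) * b := hQ
    rw [this, map_mul, h.unit, hvb, one_mul]
  · have e1 : aeval z Q = aeval z (derivative (minpoly F z)) * b := hQ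
    have e2 : aeval z P = aeval z (derivative (minpoly F z)) * (b * f) := hP
    rw [e1, e2]
    ring


/-- value at most one for elements of `O[z]`. -/
theorem v_aeval_le (P : O[X]) : v (aeval z P) ≤ 1 := by
  have hle : Algebra.adjoin O {z} ≤ integralClosure O K := by
    rw [Algebra.adjoin_le_iff, Set.singleton_subset_iff]
    exact h.int
  have h1 : IsIntegral O (aeval z P) := by
    apply hle
    rw [Algebra.adjoin_singleton_eq_range_aeval]
    exact ⟨P, rfl⟩
  obtain ⟨q, hq, hq0⟩ := h1
  by_contra hcon
  rw [not_le] at hcon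
  have h2 : aeval z P ∈ v.valuationSubring := by
    have h3 : IsIntegral v.valuationSubring (aeval z P) := by
      let g : O →+* v.valuationSubring := (algebraMap O K).codRestrict v.valuationSubring
        (fun a => (Valuation.mem_valuationSubring_iff v _).mpr (h.v_le a))
      refine ⟨q.map g, hq.map g, ?_⟩
      rw [eval₂_map]
      exact hq0
    obtain ⟨y, hy⟩ := (IsIntegrallyClosed.isIntegral_iff (R := v.valuationSubring) (K := K)).mp h3
    rw [← hy]
    exact y.2
  exact absurd ((Valuation.mem_valuationSubring_iff v _).mp h2) (not_le.mpr hcon)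

theorem v_z_le : v z ≤ 1 := by
  have := h.v_aeval_le X
  rwa [aeval_X] at this

/-- A derivation-like map which preserves `O` preserves the valuation ring of `v` (norms of differentials). -/
theorem v_deriv_le (D : Derivation ℤ K K) (hD : ∀ a : O, v (D (algebraMap O K a)) ≤ 1)
    (f : K) (hf : v f ≤ 1) : v (D f) ≤ 1 := by
  -- the coefficientwise derivative
  have hmin : aeval z (minpoly O z) = 0 := minpoly.aeval O z
  have key : ∀ P : O[X], ∃ y : K, v y ≤ 1 ∧ D (aeval z P) = aeval z (derivative P) * D z + y := by
    intro P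
    induction P using Polynomial.induction_on' with
    | add P Q hP hQ =>
      obtain ⟨y, hy, hPy⟩ := hP
      obtain ⟨y', hy', hQy⟩ := hQ
      refine ⟨y + y', (v.map_add _ _).trans (max_le hy hy'), ?_⟩
      rw [map_add, map_add, hPy, hQy, derivative_add, map_add]
      ring
    | monomial n a =>
      refine ⟨z ^ n * D (algebraMap O K a), ?_, ?_⟩
      · rw [map_mul, map_pow]
        exact mul_le_one' (pow_le_one' h.v_z_le _) (hD a)
      · rw [aeval_monomial, Derivation.leibniz, derivative_monomial, aeval_monomial,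
          Derivation.leibniz_pow, smul_eq_mul, smul_eq_mul, map_mul, map_natCast]
        simp only [nsmul_eq_mul, smul_eq_mul]
        ring
  have hDz : v (D z) ≤ 1 := by
    obtain ⟨y, hy, hyz⟩ := key (minpoly O z)
    rw [hmin, map_zero] at hyz
    have h1 : aeval z (derivative (minpoly O z)) = aeval z (derivative (minpoly F z)) := by
      rw [minpoly.isIntegrallyClosed_eq_field_fractions' F h.int, derivative_map, aeval_map_algebraMap]
    have h2 : v (aeval z (derivative (minpoly O z)) * D z) = v y := by
      have : aeval z (derivative (minpoly O z)) * D z = - y := by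
        rw [eq_neg_iff_add_eq_zero]; exact hyz.symm
      rw [this, Valuation.map_neg]
    rw [map_mul, h1, h.unit, one_mul] at h2
    rw [h2]
    exact hy
  have key2 : ∀ P : O[X], v (D (aeval z P)) ≤ 1 := by
    intro P
    obtain ⟨y, hy, hPy⟩ := key P
    rw [hPy]
    refine (v.map_add _ _).trans (max_le ?_ hy)
    rw [map_mul]
    exact mul_le_one' (h.v_aeval_le _) hDz
  obtain ⟨P, Q, hQ, hPQ⟩ := h.frac f hf
  have h1 : D f * aeval z Q = D (aeval z P) - f * D (aeval z Q) := by
    rw [← hPQ, Derivation.leibniz, smul_eq_mul, smul_eq_mul]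
    ring
  have h2 : v (D f * aeval z Q) ≤ 1 := by
    rw [h1]
    refine (v.map_sub _ _).trans (max_le (key2 P) ?_)
    rw [map_mul]
    exact mul_le_one' hf (key2 Q)
  rwa [map_mul, hQ, mul_one] at h2


/-- `m_v = m_O O_v` : every element of value `< 1` is dominated by an element of `O` of value `< 1`. -/
theorem exists_dominate (f : K) (hf : v f < 1) :
    ∃ a : O, v (algebraMap O K a) < 1 ∧ v f ≤ v (algebraMap O K a) := by
  classical
  let W := v.valuationSubring
  let κ := IsLocalRing.ResidueField W
  let g : O →+* W := (algebraMap O K).codRestrict W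
        (fun a => (Valuation.mem_valuationSubring_iff v _).mpr (h.v_le a))
  let r : O →+* κ := (IsLocalRing.residue W).comp g
  have hres : ∀ w : W, IsLocalRing.residue W w = 0 ↔ v (w : K) < 1 := by
    intro w
    rw [IsLocalRing.residue_eq_zero_iff]
    exact Valuation.mem_maximalIdeal_iff K v
  have hr : ∀ a : O, r a = 0 ↔ v (algebraMap O K a) < 1 := fun a => hres (g a)
  -- the residue field of `O` as a subfield
  let κ0 : Subfield κ :=
    { r.range with
      inv_mem' := by
        rintro x ⟨a, rfl⟩
        by_cases ha : r a = 0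
        · rw [ha, inv_zero]; exact ⟨0, map_zero _⟩
        · have hva : v (algebraMap O K a) = 1 :=
            le_antisymm (h.v_le a) (not_lt.mp (fun hlt => ha ((hr a).mpr hlt)))
          have hinv : v (algebraMap F K (algebraMap O F a)⁻¹) ≤ 1 := by
            rw [map_inv₀, map_inv₀, ← IsScalarTower.algebraMap_apply O F K, hva, inv_one]
          obtain ⟨b, hb⟩ := (h.hv _).mp hinv
          refine ⟨b, ?_⟩
          have ha0 : algebraMap O F a ≠ 0 := by
            intro h0
            rw [IsScalarTower.algebraMap_apply O F K, h0, map_zero, map_zero] at hva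
            exact zero_ne_one hva
          have hab : a * b = 1 := by
            apply IsFractionRing.injective O F
            rw [map_mul, hb, map_one, mul_inv_cancel₀ ha0]
          have : r a * r b = 1 := by rw [← map_mul, hab, map_one]
          exact eq_inv_of_mul_eq_one_right this }
  let r0 : O →+* κ0 := r.codRestrict κ0 (fun a => ⟨a, rfl⟩)
  have hr0s : Function.Surjective r0 := by
    rintro ⟨x, a, rfl⟩
    exact ⟨a, rfl⟩
  have hr0 : ∀ a : O, r0 a = 0 ↔ v (algebraMap O K a) < 1 := by
    intro a
    rw [← hr a]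
    constructor
    · intro h0
      exact congrArg (fun x : κ0 => (x : κ)) h0
    · intro h0
      exact Subtype.ext h0
  have hzW : z ∈ W := (Valuation.mem_valuationSubring_iff v _).mpr h.v_z_le
  let zb : κ := IsLocalRing.residue W ⟨z, hzW⟩
  have hev : ∀ P : O[X], aeval zb (P.map r0) = 0 ↔ v (aeval z P) < 1 := by
    intro P
    have hPW : aeval z P ∈ W := (Valuation.mem_valuationSubring_iff v _).mpr (h.v_aeval_le P)
    have h1 : aeval zb (P.map r0) = IsLocalRing.residue W ⟨aeval z P, hPW⟩ := by
      have h2 : (⟨aeval z P, hPW⟩ : W) = eval₂ g ⟨z, hzW⟩ P := by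
        apply Subtype.ext
        have : ((eval₂ g (⟨z, hzW⟩ : W) P : W) : K) = W.subtype (eval₂ g (⟨z, hzW⟩ : W) P) := rfl
        rw [this, hom_eval₂]
        rfl
      rw [h2, hom_eval₂, aeval_def, eval₂_map]
      rfl
    rw [h1, hres]
  obtain ⟨P, Q, hQ, hPQ⟩ := h.frac f hf.le
  have hvP : v (aeval z P) = v f := by rw [← hPQ, map_mul, hQ, mul_one]
  have hP1 : v (aeval z P) < 1 := by rw [hvP]; exact hf
  have hmin : aeval z (minpoly O z) = 0 := minpoly.aeval O z
  have hder : v (aeval z (derivative (minpoly O z))) = 1 := by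
    have h1 : aeval z (derivative (minpoly O z)) = aeval z (derivative (minpoly F z)) := by
      rw [minpoly.isIntegrallyClosed_eq_field_fractions' F h.int, derivative_map, aeval_map_algebraMap]
    rw [h1, h.unit]
  obtain ⟨e, q, he, hq⟩ := gcd_argument zb ((minpoly O z).map r0) (P.map r0)
    ((hev _).mpr (by rw [hmin, map_zero]; exact zero_lt_one))
    (by rw [derivative_map, ne_eq, hev, hder]; exact lt_irrefl _)
    ((hev _).mpr hP1)
  obtain ⟨e', rfl⟩ := Polynomial.map_surjective r0 hr0s e
  obtain ⟨q', rfl⟩ := Polynomial.map_surjective r0 hr0s q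
  have hve : v (aeval z e') = 1 :=
    le_antisymm (h.v_aeval_le e') (not_lt.mp (fun hlt => he ((hev _).mpr hlt)))
  let R := P * e' - q' * minpoly O z
  have hR0 : R.map r0 = 0 := by
    simp only [R, Polynomial.map_sub, Polynomial.map_mul]
    rw [hq, sub_self]
  have hRc : ∀ i, v (algebraMap O K (R.coeff i)) < 1 := by
    intro i
    rw [← hr0, ← coeff_map, hR0, coeff_zero]
  have hRz : aeval z R = aeval z P * aeval z e' := by
    simp only [R, map_sub, map_mul, hmin, mul_zero, sub_zero]
  have hvR : v f = v (aeval z R) := by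
    rw [hRz, map_mul, hve, mul_one, hvP]
  obtain ⟨m, hm, hmax⟩ := Finset.exists_max_image (Finset.range (R.natDegree + 1))
    (fun i => v (algebraMap O K (R.coeff i))) ⟨0, by simp⟩
  refine ⟨R.coeff m, hRc m, ?_⟩
  rw [hvR, aeval_eq_sum_range]
  refine Valuation.map_sum_le v (fun i hi => ?_)
  rw [Algebra.smul_def, map_mul, map_pow]
  exact (mul_le_of_le_one_right' (pow_le_one' h.v_z_le i)).trans (hmax i hi)

/-- discrete form: a uniformizer of `O` is a uniformizer of `v`. -/
theorem uniformizer (π : O) (hπ : ∀ a : O, v (algebraMap O K a) < 1 → ∃ b : O, a = π * b)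
    (f : K) (hf : v f < 1) : v f ≤ v (algebraMap O K π) := by
  obtain ⟨a, ha, hfa⟩ := h.exists_dominate f hf
  obtain ⟨b, rfl⟩ := hπ a ha
  refine hfa.trans ?_
  rw [map_mul, map_mul]
  exact mul_le_of_le_one_right' (h.v_le b)

end IsChart

end main

end Crest.Agent.R013.Chart_359
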