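import Crest.Agent.R013.Chart1_359
/-
ROW 13, leaf CHART (helper359), file 2: charts from a monic polynomial with unit derivative; canonical `O`.
-/
set_option autoImplicit false
set_option linter.unusedSectionVars false

namespace Crest.Agent.R013.Chart_359

open Polynomial

section mk

variable {F K Γ₀ : Type*} [Field F] [Field K] [Algebra F K] [LinearOrderedCommGroupWithZero Γ₀]

/-- the `v`-integers of the subfield `F`. -/
abbrev OF (F : Type*) {K Γ₀ : Type*} [Field F] [Field K] [Algebra F K]
    [LinearOrderedCommGroupWithZero Γ₀] (v : Valuation K Γ₀) : ValuationSubring F :=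
  (v.comap (algebraMap F K)).valuationSubring

theorem mem_OF (v : Valuation K Γ₀) (x : F) : x ∈ OF F v ↔ v (algebraMap F K x) ≤ 1 := Iff.rfl

theorem v_OF_le (v : Valuation K Γ₀) (a : OF F v) : v (algebraMap (OF F v) K a) ≤ 1 := a.2

theorem v_integral_le (v : Valuation K Γ₀) {x : K} (hx : IsIntegral (OF F v) x) : v x ≤ 1 := by
  obtain ⟨q, hq, hq0⟩ := hx
  have h2 : x ∈ v.valuationSubring := by
    have h3 : IsIntegral v.valuationSubring x := by
      let g : OF F v →+* v.valuationSubring := (algebraMap (OF F v) K).codRestrict v.valuationSubring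
        (fun a => (Valuation.mem_valuationSubring_iff v _).mpr (v_OF_le v a))
      refine ⟨q.map g, hq.map g, ?_⟩
      rw [eval₂_map]
      exact hq0
    obtain ⟨y, hy⟩ := (IsIntegrallyClosed.isIntegral_iff (R := v.valuationSubring) (K := K)).mp h3
    rw [← hy]
    exact y.2
  exact (Valuation.mem_valuationSubring_iff v _).mp h2

/-- A chart from ANY monic polynomial with `v`-integral coefficients, root `z` and `v (M'(z)) = 1`. -/
theorem isChart_of_monic (v : Valuation K Γ₀) (z : K) (hgen : Algebra.adjoin F {z} = ⊤)
    (M : F[X]) (hM : M.Monic) (hMc : ∀ i, v (algebraMap F K (M.coeff i)) ≤ 1)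
    (hMz : aeval z M = 0) (hM' : v (aeval z (derivative M)) = 1) :
    IsChart (OF F v) F v z := by
  have hl : M ∈ Polynomial.lifts (algebraMap (OF F v) F) := by
    rw [Polynomial.lifts_iff_coeff_lifts]
    intro i
    exact ⟨⟨M.coeff i, hMc i⟩, rfl⟩
  obtain ⟨N, hN, -, hNm⟩ := Polynomial.lifts_and_natDegree_eq_and_monic hl hM
  have hNz : aeval z N = 0 := by
    rw [← hN, aeval_map_algebraMap] at hMz
    exact hMz
  have hN' : v (aeval z (derivative N)) = 1 := by
    rw [← hN, derivative_map, aeval_map_algebraMap] at hM'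
    exact hM'
  have hint : IsIntegral (OF F v) z := ⟨N, hNm, hNz⟩
  obtain ⟨q, hq⟩ := minpoly.isIntegrallyClosed_dvd hint hNz
  have hle : ∀ P : (OF F v)[X], v (aeval z P) ≤ 1 := by
    intro P
    apply v_integral_le (F := F) v
    have hle : Algebra.adjoin (OF F v) {z} ≤ integralClosure (OF F v) K := by
      rw [Algebra.adjoin_le_iff, Set.singleton_subset_iff]
      exact hint
    apply hle
    rw [Algebra.adjoin_singleton_eq_range_aeval]
    exact ⟨P, rfl⟩
  refine ⟨?_, hgen, hint, ?_⟩
  · intro x
    constructor
    · intro hx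
      exact ⟨⟨x, hx⟩, rfl⟩
    · rintro ⟨a, rfl⟩
      exact a.2
  · have h1 : aeval z (derivative (minpoly (OF F v) z)) = aeval z (derivative (minpoly F z)) := by
      rw [minpoly.isIntegrallyClosed_eq_field_fractions' F hint, derivative_map, aeval_map_algebraMap]
    rw [← h1]
    have h2 : aeval z (derivative N) = aeval z (derivative (minpoly (OF F v) z)) * aeval z q := by
      conv_lhs => rw [hq]
      rw [derivative_mul, map_add, map_mul, map_mul, minpoly.aeval, zero_mul, add_zero]
    rw [h2, map_mul] at hN'
    exact le_antisymm (hle _) (hN' ▸ mul_le_of_le_one_right' (hle q))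

end mk

end Crest.Agent.R013.Chart_359
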