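import Crest.Agent.R013.MaxUnr_97

/-!
Row 13, clause (1) of S0015: every decomposition group over a rational place is the image of a
section.
-/

set_option autoImplicit false

noncomputable section

namespace Crest.Agent.R013.Clause1_97

open Crest.NumberTheoryR.Sect
open Crest.Agent.R013.Places_97 Crest.Agent.R013.MaxUnr_97
open scoped NNReal Pointwise
open Polynomial

/-! ### The ring of elements integral at all conjugates of `w` -/

section Gal

variable {K M : Type*} [Field K] [Field M] [Algebra K M]

/-- Elements of value at most one at all conjugates of `w`. -/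
def BB (K : Type*) {M : Type*} [Field K] [Field M] [Algebra K M] (w : Valuation M ℝ≥0) :
    Subring M where
  carrier := {x | ∀ g : M ≃ₐ[K] M, w (g x) ≤ 1}
  mul_mem' {a b} ha hb g := by
    rw [map_mul, map_mul]
    exact mul_le_one₀ (ha g) zero_le (hb g)
  one_mem' g := by simp
  add_mem' {a b} ha hb g := by
    rw [map_add]
    exact w.map_add_le (ha g) (hb g)
  zero_mem' g := by simp
  neg_mem' {a} ha g := by
    rw [map_neg, Valuation.map_neg]
    exact ha g

lemma mem_BB (w : Valuation M ℝ≥0) (x : M) : x ∈ BB K w ↔ ∀ g : M ≃ₐ[K] M, w (g x) ≤ 1 := Iff.rfl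

/-- The polynomial trick: an element of value at most one is a quotient of elements of `BB` with
denominator a unit at `w`. -/
lemma exists_denominator [Algebra.IsIntegral K M] (w : Valuation M ℝ≥0) (x : M) (hx : w x ≤ 1) :
    ∃ s : M, w s = 1 ∧ s ∈ BB K w ∧ x * s ∈ BB K w := by
  classical
  have hxint : IsIntegral K x := Algebra.IsIntegral.isIntegral x
  set P := minpoly K x with hP
  set n := P.natDegree with hn
  have hPx : ∑ i ∈ Finset.range (n + 1), algebraMap K M (P.coeff i) * x ^ i = 0 := by
    rw [← minpoly.aeval K x, ← hP, Polynomial.aeval_eq_sum_range]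
    simp [Algebra.smul_def, hn]
  -- the largest index of maximal value
  obtain ⟨j₀, hj₀, hmax₀⟩ := (Finset.range (n + 1)).exists_max_image
    (fun i => w (algebraMap K M (P.coeff i))) ⟨0, by simp⟩
  let S := (Finset.range (n + 1)).filter
    (fun i => w (algebraMap K M (P.coeff i)) = w (algebraMap K M (P.coeff j₀)))
  have hSne : S.Nonempty := ⟨j₀, by simp [S, Finset.mem_range.mp hj₀]⟩
  set j := S.max' hSne with hj
  have hjS : j ∈ S := S.max'_mem hSne
  have hjr : j ∈ Finset.range (n + 1) := (Finset.mem_filter.mp hjS).1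
  have hjv : w (algebraMap K M (P.coeff j)) = w (algebraMap K M (P.coeff j₀)) :=
    (Finset.mem_filter.mp hjS).2
  have hmax : ∀ i ∈ Finset.range (n + 1),
      w (algebraMap K M (P.coeff i)) ≤ w (algebraMap K M (P.coeff j)) := by
    intro i hi; rw [hjv]; exact hmax₀ i hi
  have hlt : ∀ i ∈ Finset.range (n + 1), j < i →
      w (algebraMap K M (P.coeff i)) < w (algebraMap K M (P.coeff j)) := by
    intro i hi hji
    refine lt_of_le_of_ne (hmax i hi) ?_
    intro h
    have : i ∈ S := Finset.mem_filter.mpr ⟨hi, h.trans hjv⟩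
    have := S.le_max' i this
    omega
  have hlc : P.coeff n = 1 := (minpoly.monic hxint).coeff_natDegree
  have hvj : w (algebraMap K M (P.coeff j)) ≠ 0 := by
    have := hmax n (by simp)
    simp only [hlc, map_one] at this
    intro h
    rw [h] at this
    exact absurd this (by simp)
  have haj : P.coeff j ≠ 0 := by
    intro h; rw [h] at hvj; simp at hvj
  -- normalised coefficients
  set a : ℕ → K := fun i => P.coeff i / P.coeff j with ha
  have haj1 : a j = 1 := by simp [ha, haj]
  have hale : ∀ i ∈ Finset.range (n + 1), w (algebraMap K M (a i)) ≤ 1 := by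
    intro i hi
    simp only [ha, map_div₀]
    exact div_le_one_of_le₀ (hmax i hi) zero_le
  have halt : ∀ i ∈ Finset.range (n + 1), j < i → w (algebraMap K M (a i)) < 1 := by
    intro i hi hji
    simp only [ha, map_div₀]
    exact (div_lt_one₀ (pos_iff_ne_zero.mpr hvj)).mpr (hlt i hi hji)
  have hax : ∑ i ∈ Finset.range (n + 1), algebraMap K M (a i) * x ^ i = 0 := by
    have : ∑ i ∈ Finset.range (n + 1), algebraMap K M (a i) * x ^ i
        = algebraMap K M (P.coeff j)⁻¹ *
          ∑ i ∈ Finset.range (n + 1), algebraMap K M (P.coeff i) * x ^ i := by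
      rw [Finset.mul_sum]
      refine Finset.sum_congr rfl fun i _ => ?_
      simp only [ha, div_eq_mul_inv, map_mul]; ring
    rw [this, hPx, mul_zero]
  rcases eq_or_ne x 0 with hx0 | hx0
  · exact ⟨1, by simp, Subring.one_mem _, by rw [hx0, zero_mul]; exact Subring.zero_mem _⟩
  -- s = ∑_{i ≥ j} a i x^(i-j),   u = ∑_{i < j} a i x^i ;  s x^j + u = 0
  have hjn : j ≤ n := by simpa [Nat.lt_succ_iff] using hjr
  obtain ⟨N, hN⟩ : ∃ N, n = j + N := ⟨n - j, by omega⟩
  let sf : M → M := fun y => ∑ i ∈ Finset.range (N + 1), algebraMap K M (a (j + i)) * y ^ i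
  let uf : M → M := fun y => ∑ i ∈ Finset.range j, algebraMap K M (a i) * y ^ i
  have hsu : ∀ y : M, ∑ i ∈ Finset.range (n + 1), algebraMap K M (a i) * y ^ i
      = uf y + y ^ j * sf y := by
    intro y
    have : n + 1 = j + (N + 1) := by omega
    rw [this, Finset.sum_range_add]
    congr 1
    simp only [sf]
    rw [Finset.mul_sum]
    refine Finset.sum_congr rfl fun i _ => ?_
    rw [pow_add]; ring
  have hroot : ∀ g : M ≃ₐ[K] M, uf (g x) + (g x) ^ j * sf (g x) = 0 := by
    intro g
    rw [← hsu]
    have h1 := congrArg g hax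
    rw [map_sum, map_zero] at h1
    rw [← h1]
    refine Finset.sum_congr rfl fun i _ => ?_
    rw [map_mul, map_pow, AlgEquiv.commutes]
  have hgs : ∀ g : M ≃ₐ[K] M, g (sf x) = sf (g x) := by
    intro g
    simp only [sf, map_sum, map_mul, map_pow, AlgEquiv.commutes]
  have hcoef : ∀ i ∈ Finset.range (N + 1), w (algebraMap K M (a (j + i))) ≤ 1 := by
    intro i hi
    refine hale _ ?_
    rw [Finset.mem_range] at hi ⊢
    omega
  have hbound : ∀ g : M ≃ₐ[K] M, w (sf (g x)) ≤ 1 ∧ w (g x * sf (g x)) ≤ 1 := by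
    intro g
    set y := g x with hy
    have hy0 : y ≠ 0 := by
      rw [hy]; simpa using hx0
    rcases le_or_gt (w y) 1 with h | h
    · have h1 : w (sf y) ≤ 1 := by
        refine w.map_sum_le fun i hi => ?_
        rw [map_mul, map_pow]
        exact mul_le_one₀ (hcoef i hi) zero_le (pow_le_one₀ zero_le h)
      refine ⟨h1, ?_⟩
      rw [map_mul]
      exact mul_le_one₀ h zero_le h1
    · have h2 : w (y * sf y) ≤ 1 := by
        rcases Nat.eq_zero_or_pos j with hj0 | hjpos
        · have := hroot g
          have h3 : uf y = 0 := by simp [uf, hj0]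
          rw [← hy, h3, hj0, pow_zero, one_mul, zero_add] at this
          rw [this]; simp
        · have h3 : y ^ (j - 1) * (y * sf y) = - uf y := by
            have h4 := hroot g
            rw [← hy] at h4
            have h5 : y ^ (j - 1) * y = y ^ j := by
              rw [← pow_succ]; congr 1; omega
            rw [← mul_assoc, h5]
            linear_combination h4
          have h4 : w (uf y) ≤ w y ^ (j - 1) := by
            refine w.map_sum_le fun i hi => ?_
            rw [Finset.mem_range] at hi
            rw [map_mul, map_pow]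
            calc w (algebraMap K M (a i)) * w y ^ i ≤ 1 * w y ^ i := by
                  gcongr
                  exact hale i (by rw [Finset.mem_range]; omega)
              _ ≤ w y ^ (j - 1) := by
                  rw [one_mul]
                  exact pow_le_pow_right₀ h.le (by omega)
          have h5 := congrArg w h3
          rw [map_mul, map_pow, Valuation.map_neg] at h5
          have h6 : w y ^ (j - 1) * w (y * sf y) ≤ w y ^ (j - 1) * 1 := by
            rw [h5, mul_one]; exact h4
          exact le_of_mul_le_mul_left h6 (pow_pos (lt_trans one_pos h) _)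
      refine ⟨?_, h2⟩
      rw [map_mul] at h2
      by_contra hcon
      push Not at hcon
      have : 1 < w y * w (sf y) := one_lt_mul'' h hcon
      exact absurd h2 (not_le.mpr this)
  refine ⟨sf x, ?_, ?_, ?_⟩
  · have h1 : sf x = (∑ i ∈ Finset.range N, algebraMap K M (a (j + (i + 1))) * x ^ (i + 1)) + 1 := by
      simp only [sf]
      rw [Finset.sum_range_succ']
      simp [haj1]
    rw [h1, w.map_add_eq_of_lt_right, map_one]
    rw [map_one]
    refine w.map_sum_lt one_ne_zero fun i hi => ?_
    rw [Finset.mem_range] at hi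
    rw [map_mul, map_pow]
    refine mul_lt_one_of_nonneg_of_lt_one_left zero_le ?_ (pow_le_one₀ zero_le hx)
    refine halt _ ?_ (by omega)
    rw [Finset.mem_range]; omega
  · intro g
    rw [hgs]
    exact (hbound g).1
  · intro g
    rw [map_mul, hgs]
    exact (hbound g).2

/-- If `g` preserves the elements of `BB` of value less than one then `w ∘ g = w`. -/
lemma val_comp_eq [Algebra.IsIntegral K M] (w : Valuation M ℝ≥0)
    (hnt : ∃ a : K, w (algebraMap K M a) ≠ 0 ∧ w (algebraMap K M a) ≠ 1)
    (g : M ≃ₐ[K] M) (hg : ∀ b ∈ BB K w, w b < 1 ↔ w (g b) < 1) (x : M) : w (g x) = w x := by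
  classical
  -- unit ball inclusion
  have hBBg : ∀ b ∈ BB K w, w (g b) ≤ 1 := fun b hb => hb g
  have hBB : ∀ b ∈ BB K w, w b ≤ 1 := fun b hb => by
    have := hb 1
    simpa using this
  have h1 : ∀ x : M, w x ≤ 1 → w (g x) ≤ 1 := by
    intro x hx
    obtain ⟨s, hs1, hs2, hs3⟩ := exists_denominator (K := K) w x hx
    have h2 : w (g s) = 1 := by
      refine le_antisymm (hBBg s hs2) ?_
      by_contra hcon
      push Not at hcon
      have := (hg s hs2).mpr hcon
      rw [hs1] at this
      exact lt_irrefl _ this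
    have h3 := hBBg _ hs3
    rw [map_mul, map_mul, h2, mul_one] at h3
    exact h3
  -- powers
  have key : ∀ x : M, w (g x) ≤ w x := by
    intro x
    rcases eq_or_ne x 0 with rfl | hx0
    · simp
    obtain ⟨a, ha0, ha1⟩ := hnt
    -- choose a with value > 1
    obtain ⟨a, ha⟩ : ∃ a : K, 1 < w (algebraMap K M a) := by
      rcases lt_or_gt_of_ne ha1 with h | h
      · refine ⟨a⁻¹, ?_⟩
        rw [map_inv₀, map_inv₀]
        exact (one_lt_inv₀ (pos_iff_ne_zero.mpr ha0)).mpr h
      · exact ⟨a, h⟩
    set α := w (algebraMap K M a) with hα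
    have hα0 : α ≠ 0 := (lt_trans one_pos ha).ne'
    -- for all n m : w x ^ n ≤ α ^ m → w (g x) ^ n ≤ α ^ m
    have h2 : ∀ (n : ℕ) (m : ℤ), w x ^ n ≤ α ^ m → w (g x) ^ n ≤ α ^ m := by
      intro n m hnm
      have h3 : w (x ^ n * algebraMap K M (a ^ (-m))) ≤ 1 := by
        rw [map_mul, map_pow, map_zpow₀, map_zpow₀, ← hα, zpow_neg]
        calc w x ^ n * (α ^ m)⁻¹ ≤ α ^ m * (α ^ m)⁻¹ := by gcongr
          _ = 1 := mul_inv_cancel₀ (zpow_ne_zero _ hα0)
      have h4 := h1 _ h3
      rw [map_mul, map_pow, AlgEquiv.commutes, map_mul, map_pow, map_zpow₀, map_zpow₀, ← hα,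
        zpow_neg] at h4
      have h5 : w (g x) ^ n = (w (g x) ^ n * (α ^ m)⁻¹) * α ^ m := by
        rw [mul_assoc, inv_mul_cancel₀ (zpow_ne_zero _ hα0), mul_one]
      rw [h5]
      calc (w (g x) ^ n * (α ^ m)⁻¹) * α ^ m ≤ 1 * α ^ m := by gcongr
        _ = α ^ m := one_mul _
    by_contra hcon
    push Not at hcon
    have hwx : 0 < w x := pos_iff_ne_zero.mpr (by simpa using hx0)
    -- pick n with (w (g x) / w x)^n > α
    have hratio : 1 < w (g x) / w x := (one_lt_div hwx).mpr hcon
    obtain ⟨n, hn⟩ := pow_unbounded_of_one_lt (α : ℝ) (by exact_mod_cast hratio :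
      (1 : ℝ) < ((w (g x) / w x : ℝ≥0) : ℝ))
    have hn' : α < (w (g x) / w x) ^ n := by exact_mod_cast hn
    -- pick m with α^(m-1) < w x ^ n ≤ α^m
    obtain ⟨m, hm⟩ := exists_mem_Ioc_zpow (pow_pos hwx n) ha
    have h3 := h2 n (m + 1) hm.2
    have h4 : α * w x ^ n < w (g x) ^ n := by
      rw [div_pow, lt_div_iff₀ (pow_pos hwx n)] at hn'
      exact hn'
    have h5 : α ^ (m + 1) < α * w x ^ n := by
      rw [zpow_add_one₀ hα0, mul_comm]
      exact mul_lt_mul_of_pos_left hm.1 (pos_iff_ne_zero.mpr hα0)
    exact absurd h3 (not_le.mpr (h5.trans h4))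
  refine le_antisymm (key x) ?_
  by_contra hcon
  push Not at hcon
  have hx0 : x ≠ 0 := by
    rintro rfl
    simp at hcon
  have h2 := key x⁻¹
  rw [map_inv₀, map_inv₀, map_inv₀] at h2
  have hgx : 0 < w (g x) := pos_iff_ne_zero.mpr (by simpa using hx0)
  have h3 : w x ≤ w (g x) := (inv_le_inv₀ hgx (hgx.trans hcon)).mp h2
  exact absurd hcon (not_lt.mpr h3)

/-- The valuation ring of `w` restricted to `K`. -/
abbrev AA (K : Type*) {M : Type*} [Field K] [Field M] [Algebra K M] (w : Valuation M ℝ≥0) :
    Subring K := (w.comap (algebraMap K M)).integer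

instance algAABB (w : Valuation M ℝ≥0) : Algebra (AA K w) (BB K w) :=
  RingHom.toAlgebra (((algebraMap K M).comp (AA K w).subtype).codRestrict (BB K w) (by
    intro a g
    change w (g (algebraMap K M a)) ≤ 1
    rw [AlgEquiv.commutes]
    exact a.2))

lemma coe_algebraMap_AABB (w : Valuation M ℝ≥0) (a : AA K w) :
    ((algebraMap (AA K w) (BB K w) a : BB K w) : M) = algebraMap K M (a : K) := rfl

instance actBB (w : Valuation M ℝ≥0) : MulSemiringAction (M ≃ₐ[K] M) (BB K w) where
  smul g b := ⟨g b, fun h => b.2 (h * g)⟩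
  one_smul _ := rfl
  mul_smul _ _ _ := rfl
  smul_zero g := Subtype.ext (map_zero g)
  smul_add g a b := Subtype.ext (map_add g (a : M) (b : M))
  smul_one g := Subtype.ext (map_one g)
  smul_mul g a b := Subtype.ext (map_mul g (a : M) (b : M))

lemma coe_smul_BB (w : Valuation M ℝ≥0) (g : M ≃ₐ[K] M) (b : BB K w) :
    ((g • b : BB K w) : M) = g (b : M) := rfl

instance smulCommBB (w : Valuation M ℝ≥0) : SMulCommClass (M ≃ₐ[K] M) (AA K w) (BB K w) where
  smul_comm g a b := by
    rw [Algebra.smul_def, Algebra.smul_def, smul_mul']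
    congr 1
    apply Subtype.ext
    rw [coe_smul_BB, coe_algebraMap_AABB]
    exact AlgEquiv.commutes g _

instance topBB (w : Valuation M ℝ≥0) : TopologicalSpace (BB K w) := ⊥

instance discBB (w : Valuation M ℝ≥0) : DiscreteTopology (BB K w) := ⟨rfl⟩

instance contSMulBB [Algebra.IsIntegral K M] (w : Valuation M ℝ≥0) :
    ContinuousSMul (M ≃ₐ[K] M) (BB K w) := by
  rw [continuousSMul_iff_stabilizer_isOpen]
  intro x
  have h := stabilizer_isOpen_of_isIntegral (K := K) (x : M)
  convert h using 1
  ext g
  simp only [SetLike.mem_coe, MulAction.mem_stabilizer_iff]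
  constructor
  · intro hg
    have := congrArg (fun y : BB K w => (y : M)) hg
    exact this
  · intro hg
    exact Subtype.ext hg

instance invariantBB [IsGalois K M] (w : Valuation M ℝ≥0) :
    Algebra.IsInvariant (AA K w) (BB K w) (M ≃ₐ[K] M) where
  isInvariant b hb := by
    have h1 : ∀ g : M ≃ₐ[K] M, g (b : M) = b := fun g =>
      congrArg (fun y : BB K w => (y : M)) (hb g)
    have h2 : (b : M) ∈ (⊥ : IntermediateField K M) := by
      rw [← InfiniteGalois.fixedField_bot (k := K) (K := M)]
      intro g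
      exact h1 g
    rw [IntermediateField.mem_bot] at h2
    obtain ⟨a, ha⟩ := h2
    have ha1 : w (algebraMap K M a) ≤ 1 := by
      rw [ha]
      have := b.2 1
      simpa using this
    exact ⟨⟨a, ha1⟩, Subtype.ext ha⟩

/-- The prime of `BB` of elements of value less than one. -/
def QQ (K : Type*) {M : Type*} [Field K] [Field M] [Algebra K M] (w : Valuation M ℝ≥0) :
    Ideal (BB K w) where
  carrier := {b | w (b : M) < 1}
  add_mem' {a b} ha hb := w.map_add_lt ha hb
  zero_mem' := by
    change w ((0 : BB K w) : M) < 1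
    simp
  smul_mem' c x hx := by
    change w ((c : M) * (x : M)) < 1
    rw [map_mul]
    have : w (c : M) ≤ 1 := by
      have := c.2 1
      simpa using this
    exact mul_lt_one_of_nonneg_of_lt_one_right this zero_le hx

lemma mem_QQ (w : Valuation M ℝ≥0) (b : BB K w) : b ∈ QQ K w ↔ w (b : M) < 1 := Iff.rfl

instance primeQQ (w : Valuation M ℝ≥0) : (QQ K w).IsPrime where
  ne_top' := by
    rw [Ideal.ne_top_iff_one, mem_QQ]
    simp
  mem_or_mem' {x y} hxy := by
    rw [mem_QQ] at hxy ⊢
    rw [mem_QQ]
    by_contra hcon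
    push Not at hcon
    have hx : w (x : M) ≤ 1 := by
      have := x.2 1
      simpa using this
    have hy : w (y : M) ≤ 1 := by
      have := y.2 1
      simpa using this
    have h1 : w (x : M) = 1 := le_antisymm hx hcon.1
    have h2 : w (y : M) = 1 := le_antisymm hy hcon.2
    have h3 : w ((x * y : BB K w) : M) = 1 := by
      change w ((x : M) * (y : M)) = 1
      rw [map_mul, h1, h2, one_mul]
    rw [h3] at hxy
    exact lt_irrefl _ hxy

/-- Elements of the stabiliser of `QQ` preserve `w`. -/
lemma val_eq_of_mem_stabilizer [Algebra.IsIntegral K M] (w : Valuation M ℝ≥0)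
    (hnt : ∃ a : K, w (algebraMap K M a) ≠ 0 ∧ w (algebraMap K M a) ≠ 1)
    (g : M ≃ₐ[K] M) (hg : g ∈ MulAction.stabilizer (M ≃ₐ[K] M) (QQ K w)) (x : M) :
    w (g x) = w x := by
  refine val_comp_eq w hnt g ?_ x
  intro b hb
  have hg' : g • QQ K w = QQ K w := hg
  constructor
  · intro h
    have h1 : (⟨b, hb⟩ : BB K w) ∈ QQ K w := h
    have h2 : g • (⟨b, hb⟩ : BB K w) ∈ g • QQ K w := Ideal.smul_mem_pointwise_smul _ _ _ h1
    rw [hg'] at h2
    exact h2
  · intro h
    have h1 : g • (⟨b, hb⟩ : BB K w) ∈ QQ K w := h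
    rw [← hg', Ideal.smul_mem_pointwise_smul_iff] at h1
    exact h1

end Gal

/-! ### Lifting automorphisms of the constants -/

section FF

variable {k : Type*} [Field k] {K : Type*} [Field K] [Algebra k K]

/-- Elements of `constField` are integral over `k`. -/
lemma isIntegral_constField (c : constField k K) : IsIntegral k (c : maxUnramified k K) := by
  rw [← isAlgebraic_iff_isIntegral]
  exact mem_algebraicClosure_iff.mp c.2

lemma mem_constField {c : maxUnramified k K} (hc : IsIntegral k c) : c ∈ constField k K := by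
  unfold constField
  rw [mem_algebraicClosure_iff, isAlgebraic_iff_isIntegral]
  exact hc

variable [CharZero k] [Algebra (RatFunc k) K] [IsScalarTower k (RatFunc k) K]
  [FiniteDimensional (RatFunc k) K]

omit [CharZero k] [Algebra (RatFunc k) K] [IsScalarTower k (RatFunc k) K]
  [FiniteDimensional (RatFunc k) K] in
lemma isIntegral_gal (g : maxUnramified k K ≃ₐ[K] maxUnramified k K) {c : maxUnramified k K}
    (hc : IsIntegral k c) : IsIntegral k (g c) := by
  have : IsIntegral k ((g.toAlgHom.restrictScalars k) c) := hc.map _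
  exact this

omit [CharZero k] [Algebra (RatFunc k) K] [IsScalarTower k (RatFunc k) K]
  [FiniteDimensional (RatFunc k) K] in
lemma val_const_le {w : Valuation (maxUnramified k K) ℝ≥0}
    (hwk : ∀ c : k, c ≠ 0 → w (algebraMap k (maxUnramified k K) c) = 1)
    {c : maxUnramified k K} (hc : IsIntegral k c) : w c ≤ 1 := by
  rcases eq_or_ne c 0 with rfl | h
  · simp
  · exact (val_eq_one_of_isAlgebraic w hwk h hc).le

/-- Every automorphism of the constants lifts to the decomposition group. -/
theorem exists_lift (vt : Valuation (maxUnramified k K) ℝ≥0) (hvt : LiesOverRationalPlace k K vt)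
    (γ : ConstGal k K) :
    ∃ g : PiGroup k K, g ∈ decomp k K vt ∧
      ∀ a : constField k K, g (a : maxUnramified k K) = ((γ a : constField k K) : _) := by
  classical
  have hchar : CharZero K := charZero_of_injective_algebraMap (algebraMap k K).injective
  have hgal : IsGalois K (maxUnramified k K) := isGalois_maxUnramified
  have hrat : IsRationalPlace k K (vt.comap (algebraMap K (maxUnramified k K))) := hvt
  have hwk : ∀ c : k, c ≠ 0 → vt (algebraMap k (maxUnramified k K) c) = 1 := by
    intro c hc
    have := hrat.1.1 c hc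
    rw [IsScalarTower.algebraMap_apply k K]
    exact this
  let φ : constField k K →+* BB K vt :=
    ((algebraMap (constField k K) (maxUnramified k K))).codRestrict (BB K vt) (by
      intro c g
      exact val_const_le hwk (isIntegral_gal g (isIntegral_constField c)))
  have hφ : ∀ c, ((φ c : BB K vt) : maxUnramified k K) = c := fun c => rfl
  let ψ : constField k K →+* (BB K vt ⧸ QQ K vt) := (Ideal.Quotient.mk (QQ K vt)).comp φ
  have hψinj : Function.Injective ψ := ψ.injective
  have hψsurj : Function.Surjective ψ := by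
    intro y
    obtain ⟨b, rfl⟩ := Ideal.Quotient.mk_surjective y
    have hb : vt (b : maxUnramified k K) ≤ 1 := by
      have := b.2 1
      simpa using this
    obtain ⟨c, hc, hbc⟩ := exists_const_near vt hrat (b : maxUnramified k K) hb
    refine ⟨⟨c, mem_constField hc⟩, ?_⟩
    change Ideal.Quotient.mk (QQ K vt) (φ ⟨c, mem_constField hc⟩) = _
    rw [Ideal.Quotient.eq, mem_QQ]
    change vt (c - (b : maxUnramified k K)) < 1
    rw [Valuation.map_sub_swap]
    exact hbc
  let e : constField k K ≃+* (BB K vt ⧸ QQ K vt) := RingEquiv.ofBijective ψ ⟨hψinj, hψsurj⟩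
  have he : ∀ c, e c = Ideal.Quotient.mk (QQ K vt) (φ c) := fun c => rfl
  let f : (BB K vt ⧸ QQ K vt) ≃+* (BB K vt ⧸ QQ K vt) := (e.symm.trans γ.toRingEquiv).trans e
  have hf : ∀ c, f (e c) = e (γ c) := by
    intro c
    change e (γ (e.symm (e c))) = e (γ c)
    rw [RingEquiv.symm_apply_apply]
  let P : Ideal (AA K vt) := (QQ K vt).under (AA K vt)
  have hcomm : ∀ r : AA K vt ⧸ P, f (algebraMap (AA K vt ⧸ P) (BB K vt ⧸ QQ K vt) r)
      = algebraMap (AA K vt ⧸ P) (BB K vt ⧸ QQ K vt) r := by
    intro r
    obtain ⟨a, rfl⟩ := Ideal.Quotient.mk_surjective r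
    have h1 : algebraMap (AA K vt ⧸ P) (BB K vt ⧸ QQ K vt) (Ideal.Quotient.mk P a)
        = Ideal.Quotient.mk (QQ K vt) (algebraMap (AA K vt) (BB K vt) a) := rfl
    rw [h1]
    obtain ⟨c₀, hc₀⟩ := hrat.2 (a : K) a.2
    have h2 : Ideal.Quotient.mk (QQ K vt) (algebraMap (AA K vt) (BB K vt) a)
        = e (algebraMap k (constField k K) c₀) := by
      rw [he, Ideal.Quotient.eq, mem_QQ]
      change vt (algebraMap K (maxUnramified k K) (a : K)
        - ((algebraMap k (constField k K) c₀ : constField k K) : maxUnramified k K)) < 1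
      have h3 : ((algebraMap k (constField k K) c₀ : constField k K) : maxUnramified k K)
          = algebraMap K (maxUnramified k K) (algebraMap k K c₀) := by
        rw [← IsScalarTower.algebraMap_apply]
        rfl
      rw [h3, ← map_sub]
      exact hc₀
    rw [h2, hf, AlgEquiv.commutes]
  let σ : (BB K vt ⧸ QQ K vt) ≃ₐ[AA K vt ⧸ P] (BB K vt ⧸ QQ K vt) :=
    AlgEquiv.ofRingEquiv (f := f) hcomm
  obtain ⟨⟨g, hg⟩, hgσ⟩ := Ideal.Quotient.stabilizerHom_surjective_of_profinite
    (G := maxUnramified k K ≃ₐ[K] maxUnramified k K) P (QQ K vt) σ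
  refine ⟨g, ?_, ?_⟩
  · intro a
    exact val_eq_of_mem_stabilizer vt hrat.1.2 g hg a
  · intro a
    have h1 : Ideal.Quotient.stabilizerHom (QQ K vt) P
        (maxUnramified k K ≃ₐ[K] maxUnramified k K) ⟨g, hg⟩ (Ideal.Quotient.mk (QQ K vt) (φ a))
        = σ (e a) := by rw [hgσ, he]
    have h2 : σ (e a) = e (γ a) := hf a
    rw [h2, he] at h1
    have h3 : Ideal.Quotient.mk (QQ K vt) (g • φ a) = Ideal.Quotient.mk (QQ K vt) (φ (γ a)) := h1
    rw [Ideal.Quotient.eq, mem_QQ] at h3
    have h4 : vt (g (a : maxUnramified k K) - ((γ a : constField k K) : maxUnramified k K)) < 1 := h3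
    by_contra hne
    have h5 : g (a : maxUnramified k K) - ((γ a : constField k K) : maxUnramified k K) ≠ 0 :=
      sub_ne_zero.mpr hne
    have h6 := val_eq_one_of_isAlgebraic vt hwk h5
      ((isIntegral_gal g (isIntegral_constField a)).sub (isIntegral_constField (γ a)))
    rw [h6] at h4
    exact lt_irrefl _ h4

end FF

end Crest.Agent.R013.Clause1_97
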