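import Crest.Agent.R013.Gl7_946

/-!
# Patching, part 8: the homomorphisms `RU → Ω`, `FP → Ω` for norms and places.
-/

set_option autoImplicit false

namespace Crest.Agent.R013.Gl946

open Filter Topology Polynomial

variable {k E : Type*} [NormedField k] [NormedField E] [NormedAlgebra k E]

theorem const_mem_KY {y : E} (hG : IsGauss k y) (c : k) : algebraMap k E c ∈ KY hG :=
  ⟨C c, 1, one_ne_zero, by simp⟩

theorem aeval_mem_KY {y : E} (hG : IsGauss k y) (f : k[X]) : aeval y f ∈ KY hG :=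
  ⟨f, 1, one_ne_zero, by simp⟩

theorem y_mem_KY {y : E} (hG : IsGauss k y) : y ∈ KY hG := by
  have := aeval_mem_KY hG (X : k[X])
  rwa [aeval_X] at this

theorem yinv_mem_KY {y : E} (hG : IsGauss k y) : y⁻¹ ∈ KY hG := inv_mem (y_mem_KY hG)

theorem aeval_inv_mem_KY {y : E} (hG : IsGauss k y) (f : k[X]) : aeval (y⁻¹) f ∈ KY hG := by
  rw [aeval_eq_sum_range]
  refine sum_mem fun i _ => ?_
  rw [Algebra.smul_def]
  exact mul_mem (const_mem_KY hG _) (pow_mem (yinv_mem_KY hG) _)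

/-- If `y` is a Gauss coordinate, so is `1/y`. -/
theorem IsGauss.inv {y : E} (hG : IsGauss k y) : IsGauss k y⁻¹ := by
  refine ⟨by rw [norm_inv, hG.norm_eq, inv_one], fun h i => ?_⟩
  have hy := hG.ne_zero
  by_cases hi : h.natDegree < i
  · rw [coeff_eq_zero_of_natDegree_lt hi, norm_zero]; exact norm_nonneg _
  push Not at hi
  set q : k[X] := ∑ j ∈ Finset.range (h.natDegree + 1), C (h.coeff j) * X ^ (h.natDegree - j)
    with hq
  have e1 : aeval (y⁻¹) h * y ^ h.natDegree = aeval y q := by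
    rw [aeval_eq_sum_range, Finset.sum_mul, hq, map_sum]
    refine Finset.sum_congr rfl fun j hj => ?_
    rw [Finset.mem_range] at hj
    rw [map_mul, aeval_C, map_pow, aeval_X, Algebra.smul_def]
    have : y ^ h.natDegree = y ^ j * y ^ (h.natDegree - j) := by
      rw [← pow_add]; congr 1; omega
    rw [this, inv_pow]
    field_simp
  have e2 : q.coeff (h.natDegree - i) = h.coeff i := by
    rw [hq, finsetSum_coeff, Finset.sum_eq_single i]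
    · rw [coeff_C_mul_X_pow, if_pos rfl]
    · intro j hj hji
      rw [Finset.mem_range] at hj
      rw [coeff_C_mul_X_pow, if_neg (by omega)]
    · intro hcon
      exact absurd (Finset.mem_range.2 (by omega)) hcon
  have e3 : ‖aeval (y⁻¹) h‖ = ‖aeval y q‖ := by
    rw [← e1, norm_mul, norm_pow, hG.norm_eq, one_pow, mul_one]
  rw [e3, ← e2]
  exact hG.coeff_le q _

/-- Elements of `k(y)` are quotients of polynomials in `1/y`. -/
theorem KY_inv_rep {y : E} (hG : IsGauss k y) {z : E} (hz : z ∈ KY hG) :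
    ∃ p q : k[X], aeval (y⁻¹) q ≠ 0 ∧ z = aeval (y⁻¹) p / aeval (y⁻¹) q := by
  obtain ⟨f, g, h1, rfl⟩ := hz
  have hy := hG.ne_zero
  obtain ⟨p, hp⟩ := poly_div_pow hG f (max f.natDegree g.natDegree) (le_max_left _ _)
  obtain ⟨q, hq⟩ := poly_div_pow hG g (max f.natDegree g.natDegree) (le_max_right _ _)
  refine ⟨p, q, ?_, ?_⟩
  · rw [← hq]
    exact div_ne_zero (hG.aeval_ne_zero h1) (pow_ne_zero _ hy)
  · rw [← hp, ← hq, div_div_div_cancel_right₀ (pow_ne_zero _ hy)]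

section Bound

variable {Ω : Type*} [NormedField Ω] [IsUltrametricDist Ω]

/-- `‖ψ(f(T))‖ ≤ r` from coefficient bounds. -/
theorem psi_poly_le (F0 : Subfield E) (hk : ∀ c : k, algebraMap k E c ∈ F0) (T : E) (hT : T ∈ F0)
    (ψ : F0 →+* Ω) (hψT : ‖ψ ⟨T, hT⟩‖ ≤ 1) (f : k[X]) (hf : aeval T f ∈ F0) {r : ℝ} (hr : 0 ≤ r)
    (h : ∀ i, ‖ψ ⟨algebraMap k E (f.coeff i), hk _⟩‖ ≤ r) : ‖ψ ⟨aeval T f, hf⟩‖ ≤ r := by
  have e : (⟨aeval T f, hf⟩ : F0) = ∑ i ∈ Finset.range (f.natDegree + 1),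
      ⟨algebraMap k E (f.coeff i), hk _⟩ * (⟨T, hT⟩ : F0) ^ i := by
    ext
    push_cast
    rw [aeval_eq_sum_range]
    exact Finset.sum_congr rfl fun i _ => Algebra.smul_def _ _
  rw [e, map_sum]
  refine IsUltrametricDist.norm_sum_le_of_forall_le_of_nonneg hr fun i _ => ?_
  rw [map_mul, map_pow, norm_mul, norm_pow]
  calc _ ≤ r * 1 := mul_le_mul (h i) (pow_le_one₀ (norm_nonneg _) hψT) (by positivity) hr
    _ = r := mul_one r

end Bound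

variable [IsUltrametricDist E] [CompleteSpace E] {y : E} (hG : IsGauss k y)
variable {Ω : Type*} [NormedField Ω] [IsUltrametricDist Ω] [CompleteSpace Ω]

omit [IsUltrametricDist E] [CompleteSpace E] [IsUltrametricDist Ω] [CompleteSpace Ω] in
/-- From a homomorphism on `AU` to one on `RU`. -/
theorem mapRU_of_AU (ψ : KY hG →+* Ω) (Y : Subfield Ω)
    (Ψ : (AU k y).toSubring →+* Ω)
    (hΨ : ∀ f : k[X], Ψ ⟨aeval (y⁻¹) f, aeval_inv_mem_AU y f⟩ =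
      ψ ⟨aeval (y⁻¹) f, aeval_inv_mem_KY hG f⟩) (hΨY : ∀ a, Ψ a ∈ Y) :
    ∃ Φ : RU k y →+* Ω, (∀ z (hz : z ∈ KY hG), Φ ⟨z, KY_le_RU hG hz⟩ = ψ ⟨z, hz⟩) ∧
      ∀ r, Φ r ∈ Y := by
  have hinj : ∀ d (hd : d ∈ (aeval (y⁻¹) : k[X] →ₐ[k] E).range.toSubring), d ≠ 0 →
      Ψ ⟨d, Subalgebra.le_topologicalClosure _ hd⟩ ≠ 0 := by
    rintro _ ⟨f, rfl⟩ hd0
    have := hΨ f
    refine fun h => hd0 ?_
    have h2 : ψ ⟨aeval (y⁻¹) f, aeval_inv_mem_KY hG f⟩ = 0 := by rw [← this]; exact h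
    have h3 := (map_eq_zero ψ).1 h2
    exact congrArg Subtype.val h3
  obtain ⟨Φ, hΦ⟩ := ext_frac (AU k y).toSubring (aeval (y⁻¹) : k[X] →ₐ[k] E).range.toSubring
    (Subalgebra.le_topologicalClosure _) Ψ hinj
  refine ⟨Φ, ?_, ?_⟩
  · intro z hz
    obtain ⟨p, q, hq, e⟩ := KY_inv_rep hG hz
    have h1 := hΦ z (KY_le_RU hG hz) (aeval (y⁻¹) p) (aeval_inv_mem_AU y p) (aeval (y⁻¹) q)
      ⟨q, rfl⟩ hq e
    refine h1.trans ?_
    have h2 := hΨ p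
    have h3 := hΨ q
    have h4 : ψ ⟨z, hz⟩ = ψ ⟨aeval (y⁻¹) p, aeval_inv_mem_KY hG p⟩ /
        ψ ⟨aeval (y⁻¹) q, aeval_inv_mem_KY hG q⟩ := by
      rw [← map_div₀]; congr 1; ext; exact e
    rw [h4, ← h2, ← h3]
  · rintro ⟨z, hz⟩
    obtain ⟨a, ha, d, hd, hd0, e⟩ := hz
    have h6 : Ψ ⟨a, ha⟩ / Ψ ⟨d, Subalgebra.le_topologicalClosure _ hd⟩ ∈ Y :=
      Y.div_mem (hΨY _) (hΨY _)
    rw [← hΦ z ⟨a, ha, d, hd, hd0, e⟩ a ha d hd hd0 e] at h6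
    exact h6

/-- **norm case, outside**: `‖y‖_Ω ≥ 1`. -/
theorem mapRU_norm (ψ : KY hG →+* Ω)
    (hk : ∀ c : k, ‖ψ ⟨algebraMap k E c, const_mem_KY hG c⟩‖ ≤ ‖c‖)
    (hy : ‖ψ ⟨y⁻¹, yinv_mem_KY hG⟩‖ ≤ 1) (Y : Subfield Ω) (hY : IsClosed (Y : Set Ω))
    (hψY : ∀ z, ψ z ∈ Y) :
    ∃ Φ : RU k y →+* Ω, (∀ z (hz : z ∈ KY hG), Φ ⟨z, KY_le_RU hG hz⟩ = ψ ⟨z, hz⟩) ∧
      ∀ r, Φ r ∈ Y := by
  set S0 : Subring E := (aeval (y⁻¹) : k[X] →ₐ[k] E).range.toSubring with hS0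
  have hS0le : S0 ≤ (KY hG).toSubring := by
    rintro _ ⟨f, rfl⟩; exact aeval_inv_mem_KY hG f
  obtain ⟨Ψ, h1, h2⟩ := ext_closure S0 (ψ.comp (Subring.inclusion hS0le)) (by
    rintro ⟨_, f, rfl⟩
    exact psi_poly_le (KY hG) (const_mem_KY hG) y⁻¹ (yinv_mem_KY hG) ψ hy f
      (aeval_inv_mem_KY hG f) (norm_nonneg _) fun i => (hk _).trans (hG.inv.coeff_le f i))
    (Y : Set Ω) hY (fun s => hψY _)
  have hle : (AU k y).toSubring ≤ S0.topologicalClosure := fun x hx => hx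
  refine mapRU_of_AU hG ψ Y (Ψ.comp (Subring.inclusion hle)) (fun f => ?_) (fun a => h2 _)
  exact h1 _ ⟨f, rfl⟩

/-- From a homomorphism on `AP` to one on `FP`. -/
theorem mapFP_of_AP [CompleteSpace k] {π : k} (hπ : IsUnif π) (hd : DenseRat k y)
    (ψ : KY hG →+* Ω) (Y : Subfield Ω)
    (Ψ : (AP hG).toSubring →+* Ω)
    (hΨ : ∀ f : k[X], Ψ ⟨aeval y f, aeval_mem_AP hG f⟩ = ψ ⟨aeval y f, aeval_mem_KY hG f⟩)
    (hΨY : ∀ a, Ψ a ∈ Y) :
    ∃ Φ : FP hG hπ hd →+* Ω, (∀ z (hz : z ∈ KY hG), Φ ⟨z, KY_le_FP hG hπ hd hz⟩ = ψ ⟨z, hz⟩) ∧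
      ∀ r, Φ r ∈ Y := by
  have hle : (aeval y : k[X] →ₐ[k] E).range.toSubring ≤ (AP hG).toSubring := by
    rintro _ ⟨f, rfl⟩; exact aeval_mem_AP hG f
  have hinj : ∀ d (hd : d ∈ (aeval y : k[X] →ₐ[k] E).range.toSubring), d ≠ 0 →
      Ψ ⟨d, hle hd⟩ ≠ 0 := by
    rintro _ ⟨f, rfl⟩ hd0
    have := hΨ f
    refine fun h => hd0 ?_
    have h2 : ψ ⟨aeval y f, aeval_mem_KY hG f⟩ = 0 := by rw [← this]; exact h
    have h3 := (map_eq_zero ψ).1 h2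
    exact congrArg Subtype.val h3
  obtain ⟨Φ, hΦ⟩ := ext_frac (AP hG).toSubring (aeval y : k[X] →ₐ[k] E).range.toSubring
    hle Ψ hinj
  have hfr : ∀ z, z ∈ FP hG hπ hd → z ∈ fracSub (AP hG).toSubring
      (aeval y : k[X] →ₐ[k] E).range.toSubring hle := fun z hz => hz
  refine ⟨Φ.comp (Subring.inclusion (S := (FP hG hπ hd).toSubring) (T := fracSub (AP hG).toSubring
      (aeval y : k[X] →ₐ[k] E).range.toSubring hle) hfr), ?_, ?_⟩
  · intro z hz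
    obtain ⟨p, q, hq, e⟩ := id hz
    have h1 := hΦ z (hfr z (KY_le_FP hG hπ hd hz)) (aeval y p) (aeval_mem_AP hG p) (aeval y q)
      ⟨q, rfl⟩ (hG.aeval_ne_zero hq) e
    refine h1.trans ?_
    have h2 := hΨ p
    have h3 := hΨ q
    have h4 : ψ ⟨z, hz⟩ = ψ ⟨aeval y p, aeval_mem_KY hG p⟩ /
        ψ ⟨aeval y q, aeval_mem_KY hG q⟩ := by
      rw [← map_div₀]; congr 1; ext; exact e
    rw [h4, ← h2, ← h3]
  · rintro ⟨z, hz⟩
    obtain ⟨a, ha, d, hd', hd0, e⟩ := hfr z hz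
    have := hΦ z (hfr z hz) a ha d hd' hd0 e
    change Φ ⟨z, hfr z hz⟩ ∈ Y
    rw [this]
    exact Y.div_mem (hΨY _) (hΨY _)

/-- **norm case, inside**: `‖y‖_Ω < 1`. -/
theorem mapFP_norm [CompleteSpace k] {π : k} (hπ : IsUnif π) (hd : DenseRat k y)
    (ψ : KY hG →+* Ω) (hk : ∀ c : k, ‖ψ ⟨algebraMap k E c, const_mem_KY hG c⟩‖ ≤ ‖c‖)
    (hy : ‖ψ ⟨y, y_mem_KY hG⟩‖ < 1) (Y : Subfield Ω) (hY : IsClosed (Y : Set Ω))
    (hψY : ∀ z, ψ z ∈ Y) :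
    ∃ Φ : FP hG hπ hd →+* Ω, (∀ z (hz : z ∈ KY hG), Φ ⟨z, KY_le_FP hG hπ hd hz⟩ = ψ ⟨z, hz⟩) ∧
      ∀ r, Φ r ∈ Y := by
  set S0 : Subring E := (AP0alg hG).toSubring with hS0
  have hS0le : S0 ≤ (KY hG).toSubring := by
    rintro _ ⟨f, g, h1, h2, rfl⟩
    exact ⟨f, g, by rintro rfl; simp at h2, rfl⟩
  have oadd : ∀ a b : Ω, ‖a + b‖ ≤ max ‖a‖ ‖b‖ := fun a b => IsUltrametricDist.norm_add_le_max a b
  obtain ⟨Ψ, h1, h2⟩ := ext_closure S0 (ψ.comp (Subring.inclusion hS0le)) (by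
    rintro ⟨_, f, g, hg1, hg0, rfl⟩
    have hgn := hG.norm_of_coeff_zero g hg1 hg0
    have hg_ne : g ≠ 0 := by rintro rfl; simp at hg0
    have e1 : (ψ.comp (Subring.inclusion hS0le)) ⟨aeval y f / aeval y g, f, g, hg1, hg0, rfl⟩ =
        ψ ⟨aeval y f, aeval_mem_KY hG f⟩ / ψ ⟨aeval y g, aeval_mem_KY hG g⟩ :=
      map_div₀ ψ ⟨aeval y f, aeval_mem_KY hG f⟩ ⟨aeval y g, aeval_mem_KY hG g⟩
    rw [e1, norm_div, norm_div, hgn, div_one]
    have hf : ‖ψ ⟨aeval y f, aeval_mem_KY hG f⟩‖ ≤ ‖aeval y f‖ :=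
      psi_poly_le (KY hG) (const_mem_KY hG) y (y_mem_KY hG) ψ hy.le f (aeval_mem_KY hG f)
        (norm_nonneg _) fun i => (hk _).trans (hG.coeff_le f i)
    -- ‖ψ g‖ = 1
    have hg : ‖ψ ⟨aeval y g, aeval_mem_KY hG g⟩‖ = 1 := by
      have e2 : (⟨aeval y g, aeval_mem_KY hG g⟩ : KY hG) =
          ⟨aeval y g.divX, aeval_mem_KY hG _⟩ * ⟨y, y_mem_KY hG⟩ + 1 := by
        ext
        push_cast
        conv_lhs => rw [← divX_mul_X_add g, hg0]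
        simp
      have h3 : ‖ψ ⟨aeval y g.divX, aeval_mem_KY hG _⟩ * ψ ⟨y, y_mem_KY hG⟩‖ < 1 := by
        rw [norm_mul]
        have h4 : ‖ψ ⟨aeval y g.divX, aeval_mem_KY hG _⟩‖ ≤ 1 :=
          psi_poly_le (KY hG) (const_mem_KY hG) y (y_mem_KY hG) ψ hy.le _ (aeval_mem_KY hG _)
            zero_le_one fun i => (hk _).trans (by
              rw [coeff_divX]; exact (hG.coeff_le g _).trans hg1)
        calc _ ≤ 1 * ‖ψ ⟨y, y_mem_KY hG⟩‖ := mul_le_mul_of_nonneg_right h4 (norm_nonneg _)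
          _ < 1 := by rw [one_mul]; exact hy
      rw [e2, map_add, map_mul, map_one]
      set t := ψ ⟨aeval y g.divX, aeval_mem_KY hG _⟩ * ψ ⟨y, y_mem_KY hG⟩ with ht
      apply le_antisymm
      · refine (oadd _ _).trans (max_le h3.le ?_)
        rw [norm_one]
      · by_contra hcon
        push Not at hcon
        have h5 : (1 : Ω) = (t + 1) + (-t) := by ring
        have h6 : ‖(1 : Ω)‖ < 1 := by
          conv_lhs => rw [h5]
          refine (oadd _ _).trans_lt (max_lt hcon ?_)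
          rw [norm_neg]; exact h3
        rw [norm_one] at h6
        exact lt_irrefl _ h6
    rw [hg, div_one]
    exact hf) (Y : Set Ω) hY (fun s => hψY _)
  have hle : (AP hG).toSubring ≤ S0.topologicalClosure := fun x hx => hx
  refine mapFP_of_AP hG hπ hd ψ Y (Ψ.comp (Subring.inclusion hle)) (fun f => ?_) (fun a => h2 _)
  have := h1 (aeval y f) ⟨f, 1, by simp, by simp, by simp⟩
  exact this

end Crest.Agent.R013.Gl946
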