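import Crest.Agent.R013.Half2_930
import Crest.Agent.R013.Gl8_946

/-!
# Half annuli, part 3: restriction from discs of larger radius and from `|y| ≥ 1/s`

`(E₁, y₁)` and `(E, y)` are circle fields over the same `k`.
* `exists_resP`: `y₁ ↦ c y`, `‖c‖ s < 1`: `FP (E₁) → MN (E)`.
* `exists_resU`: `1/y₁ ↦ c (1/y)`, `‖c‖ s ≤ 1`: `RU (E₁) → MN (E)`.
-/

set_option autoImplicit false
set_option linter.unusedSectionVars false

namespace Crest.Agent.R013.Half_930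

open Filter Topology Polynomial Crest.Agent.R013.Gl946 Crest.Agent.R013.Annu_930
open scoped NNReal

/-- Extension of a norm-nonincreasing ring homomorphism to the closure of a subring, with
continuity. -/
theorem ext_closure' {E : Type*} [NormedField E] (S0 : Subring E) {Ω : Type*} [NormedField Ω]
    [CompleteSpace Ω] (ψ : S0 →+* Ω) (hψ : ∀ s, ‖ψ s‖ ≤ ‖(s : E)‖) :
    ∃ Ψ : S0.topologicalClosure →+* Ω,
      (∀ s (hs : s ∈ S0), Ψ ⟨s, S0.le_topologicalClosure hs⟩ = ψ ⟨s, hs⟩) ∧ Continuous Ψ := by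
  set i : S0 →+* S0.topologicalClosure := Subring.inclusion S0.le_topologicalClosure with hi
  have hui : IsUniformInducing i := by
    have h1 : IsUniformInducing (fun x : S0.topologicalClosure => (x : E)) :=
      isUniformInducing_val _
    have h2 : IsUniformInducing (fun x : S0 => (x : E)) := isUniformInducing_val _
    exact h1.of_comp_iff.1 h2
  have hdr : DenseRange i := by
    intro x
    rw [Metric.mem_closure_iff]
    intro ε hε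
    obtain ⟨s, hs, hxs⟩ := Metric.mem_closure_iff.1 (show (x : E) ∈ closure (S0 : Set E) from x.2)
      ε hε
    exact ⟨i ⟨s, hs⟩, ⟨⟨s, hs⟩, rfl⟩, hxs⟩
  have huc : UniformContinuous ψ := by
    refine AddMonoidHomClass.uniformContinuous_of_bound ψ 1 fun s => ?_
    rw [one_mul]; exact hψ s
  refine ⟨IsDenseInducing.extendRingHom hui hdr huc, ?_, ?_⟩
  · intro s hs
    exact (hui.isDenseInducing hdr).extend_eq huc.continuous ⟨s, hs⟩
  · exact uniformContinuous_uniformly_extend hui hdr huc |>.continuous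

variable {k E₁ E : Type*} [NormedField k] [NormedField E₁] [NormedAlgebra k E₁]
  [IsUltrametricDist E₁] [CompleteSpace E₁] [NormedField E] [NormedAlgebra k E]
  [IsUltrametricDist E] [CompleteSpace E] [CompleteSpace k] {y₁ : E₁} {y : E}

/-- A continuous homomorphism on a closure with good behaviour on the dense part has values in
`AN`. -/
theorem mem_AN_of_closure (hG : IsGauss k y) {s : ℝ≥0} (hs : 1 < s) (S0 : Subring E₁)
    (ψ : S0 →+* E) (h1 : ∀ z : S0, ψ z ∈ AN hG hs)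
    (h2 : ∀ z : S0, ψ z ∈ B k y s ‖(z : E₁)‖₊ ‖(z : E₁)‖₊)
    (Ψ : S0.topologicalClosure →+* E) (hc : Continuous Ψ)
    (hΨ : ∀ z (hz : z ∈ S0), Ψ ⟨z, S0.le_topologicalClosure hz⟩ = ψ ⟨z, hz⟩)
    (a : S0.topologicalClosure) :
    Ψ a ∈ AN hG hs ∧ Ψ a ∈ B k y s ‖(a : E₁)‖₊ ‖(a : E₁)‖₊ := by
  have hB : ∀ a : S0.topologicalClosure, Ψ a ∈ B k y s ‖(a : E₁)‖₊ ‖(a : E₁)‖₊ := by
    intro a
    by_cases ha : a = 0
    · rw [ha, map_zero]; exact zero_mem _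
    have han : 0 < ‖(a : E₁)‖ := norm_pos_iff.2 fun h => ha (Subtype.ext h)
    have hcl : IsClosed (B k y s ‖(a : E₁)‖₊ ‖(a : E₁)‖₊ : Set E) := isClosed_B s _ _
    have hmem : a ∈ closure {z : S0.topologicalClosure | (z : E₁) ∈ S0 ∧ ‖(z : E₁)‖ ≤ ‖(a : E₁)‖} := by
      rw [Metric.mem_closure_iff]
      intro ε hε
      obtain ⟨z, hz, hza⟩ := Metric.mem_closure_iff.1
        (show (a : E₁) ∈ closure (S0 : Set E₁) from a.2) (min ε ‖(a : E₁)‖) (lt_min hε han)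
      refine ⟨⟨z, S0.le_topologicalClosure hz⟩, ⟨hz, ?_⟩, hza.trans_le (min_le_left _ _)⟩
      change ‖z‖ ≤ ‖(a : E₁)‖
      have e : z = (a : E₁) - ((a : E₁) - z) := by ring
      rw [e]
      refine (nsub _ _).trans (max_le le_rfl ?_)
      rw [← dist_eq_norm]
      exact hza.le.trans (min_le_right _ _)
    refine hcl.closure_subset_iff.2 subset_rfl (map_mem_closure hc hmem ?_)
    rintro z ⟨hz, hza⟩
    have e : Ψ z = ψ ⟨(z : E₁), hz⟩ := hΨ _ hz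
    rw [e]
    have h3 : ‖(z : E₁)‖₊ ≤ ‖(a : E₁)‖₊ := hza
    exact B_mono h3 h3 (h2 ⟨z, hz⟩)
  refine ⟨fun ε hε => ?_, hB a⟩
  obtain ⟨z, hz, hza⟩ := Metric.mem_closure_iff.1
    (show (a : E₁) ∈ closure (S0 : Set E₁) from a.2) ε (by exact_mod_cast hε)
  obtain ⟨p, hp⟩ := h1 ⟨z, hz⟩ ε hε
  refine ⟨p, ?_⟩
  set z' : S0.topologicalClosure := ⟨z, S0.le_topologicalClosure hz⟩ with hz'
  have e : Ψ a - ev k y p = Ψ (a - z') + (ψ ⟨z, hz⟩ - ev k y p) := by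
    rw [map_sub, hΨ z hz]; ring
  rw [e]
  refine add_mem ?_ hp
  have h3 : ‖((a - z' : S0.topologicalClosure) : E₁)‖₊ ≤ ε := by
    rw [dist_eq_norm] at hza
    exact_mod_cast hza.le
  exact B_mono h3 h3 (hB (a - z'))

/-- **Restriction to the annulus of functions on `|y| ≥ 1/s`.** -/
theorem exists_resU (hG₁ : IsGauss k y₁) (hG : IsGauss k y) {s : ℝ≥0} (hs : 1 < s)
    (ψ : KY hG₁ →+* E)
    (hk : ∀ c : k, ψ ⟨algebraMap k E₁ c, const_mem_KY hG₁ c⟩ = algebraMap k E c) (c : k)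
    (hcs : ‖c‖₊ * s ≤ 1) (hy : ψ ⟨y₁⁻¹, yinv_mem_KY hG₁⟩ = algebraMap k E c * y⁻¹) :
    ∃ Φ : RU k y₁ →+* E, (∀ z (hz : z ∈ KY hG₁), Φ ⟨z, KY_le_RU hG₁ hz⟩ = ψ ⟨z, hz⟩) ∧
      ∀ r, Φ r ∈ MN hG hs := by
  have hsp : 0 < s := zero_lt_one.trans hs
  set S0 : Subring E₁ := (aeval (y₁⁻¹) : k[X] →ₐ[k] E₁).range.toSubring with hS0
  have hS0le : S0 ≤ (KY hG₁).toSubring := by
    rintro _ ⟨f, rfl⟩; exact aeval_inv_mem_KY hG₁ f
  set ψ0 : S0 →+* E := ψ.comp (Subring.inclusion hS0le) with hψ0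
  have hc1 : ‖c‖₊ ≤ 1 := by
    refine le_trans ?_ hcs
    calc ‖c‖₊ = ‖c‖₊ * 1 := (mul_one _).symm
      _ ≤ _ := mul_le_mul_right hs.le _
  have hform : ∀ f : k[X], ψ0 ⟨aeval (y₁⁻¹) f, f, rfl⟩ =
      ∑ i ∈ Finset.range (f.natDegree + 1), (f.coeff i * c ^ i) • y ^ (-(i : ℤ)) := by
    intro f
    have e : (⟨aeval (y₁⁻¹) f, aeval_inv_mem_KY hG₁ f⟩ : KY hG₁) =
        ∑ i ∈ Finset.range (f.natDegree + 1),
          ⟨algebraMap k E₁ (f.coeff i), const_mem_KY hG₁ _⟩ * (⟨y₁⁻¹, yinv_mem_KY hG₁⟩ : KY hG₁) ^ i := by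
      ext
      push_cast
      rw [aeval_eq_sum_range]
      exact Finset.sum_congr rfl fun i _ => Algebra.smul_def _ _
    change ψ ⟨aeval (y₁⁻¹) f, aeval_inv_mem_KY hG₁ f⟩ = _
    rw [e, map_sum]
    refine Finset.sum_congr rfl fun i _ => ?_
    rw [map_mul, map_pow, hk, hy, Algebra.smul_def, map_mul, map_pow, zpow_neg, zpow_natCast,
      mul_pow, inv_pow]
    ring
  have h1 : ∀ z : S0, ψ0 z ∈ AN hG hs := by
    rintro ⟨_, f, rfl⟩
    have := hform f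
    change ψ0 ⟨aeval (y₁⁻¹) f, f, rfl⟩ ∈ _
    rw [this]
    exact sum_mem fun i _ => (AN hG hs).smul_mem (zpow_mem_AN hG hs _) _
  have h2 : ∀ z : S0, ψ0 z ∈ B k y s ‖(z : E₁)‖₊ ‖(z : E₁)‖₊ := by
    rintro ⟨_, f, rfl⟩
    change ψ0 ⟨aeval (y₁⁻¹) f, f, rfl⟩ ∈ B k y s ‖aeval (y₁⁻¹) f‖₊ ‖aeval (y₁⁻¹) f‖₊
    rw [hform f]
    refine AddSubgroup.sum_mem _ fun i _ => ?_
    have h3 : ‖f.coeff i‖₊ ≤ ‖aeval (y₁⁻¹) f‖₊ := (isGauss_inv hG₁).coeff_le f i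
    have h4 : ‖c‖₊ ^ i * s ^ i ≤ 1 := by rw [← mul_pow]; exact pow_le_one₀ zero_le hcs
    refine smul_mem_Box (b := w s ‖aeval (y₁⁻¹) f‖₊ ‖aeval (y₁⁻¹) f‖₊) ?_
    rw [nnnorm_mul, nnnorm_pow]
    have h5 : ‖f.coeff i‖₊ * ‖c‖₊ ^ i ≤ ‖aeval (y₁⁻¹) f‖₊ * s ^ (-(i : ℤ)) := by
      refine mul_le_mul' h3 ?_
      rw [zpow_neg, zpow_natCast, ← one_div, le_div_iff₀ (pow_pos hsp _)]
      exact h4
    exact le_min (h5.trans (mul_le_mul_right (zpow_le_zpow_right₀ hs.le (by omega)) _)) h5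
  obtain ⟨Ψ, e1, e2⟩ := ext_closure' S0 ψ0 fun z => by
    have := norm_le_of_mem_B hG hs.le le_rfl le_rfl (h2 z)
    simpa using this
  have h3 := mem_AN_of_closure hG hs S0 ψ0 h1 h2 Ψ e2 e1
  have hle : (AU k y₁).toSubring ≤ S0.topologicalClosure := fun x hx => hx
  exact mapRU_of_AU hG₁ ψ (MN hG hs).toSubfield
    (Ψ.comp (Subring.inclusion hle)) (fun f => e1 _ ⟨f, rfl⟩) (fun a => AN_le_MN hG hs (h3 _).1)

/-- `1 - e` is invertible if `e` is small on the annulus. -/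
theorem one_sub_inv_mem (hG : IsGauss k y) {s : ℝ≥0} (hs : 1 < s) {q : ℝ≥0} (hq : q < 1) {e : E}
    (he : e ∈ AN hG hs) (heB : e ∈ B k y s q q) :
    (1 - e)⁻¹ ∈ AN hG hs ∧ (1 - e)⁻¹ ∈ B k y s 1 1 := by
  have hs0 : s ≠ 0 := (zero_lt_one.trans hs).ne'
  have hpow : ∀ i : ℕ, e ^ i ∈ B k y s (q ^ i * 1) (q ^ i * 1) := by
    intro i
    induction i with
    | zero =>
      rw [pow_zero, pow_zero, one_mul]
      have h := smul_mem_Box (k := k) (y := y) (b := w s 1 1) (c := 1) (n := 0) (by simp [w])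
      rw [one_smul, zpow_zero] at h
      exact h
    | succ i ih =>
      rw [pow_succ e]
      refine B_mono (le_of_eq ?_) (le_of_eq ?_) (mul_mem_B hG hs0 ih heB) <;>
      · rw [pow_succ]; ring
  obtain ⟨Q, hQ, hsum, hQB⟩ := hasSum_mem_AN hG hs hq hpow fun i => pow_mem he i
  have hen : ‖e‖ < 1 := by
    have := norm_le_of_mem_B hG hs.le le_rfl le_rfl heB
    exact this.trans_lt (by exact_mod_cast hq)
  have h1 := hasSum_geometric_of_norm_lt_one hen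
  rw [← hsum.unique h1]
  exact ⟨hQ, hQB⟩

/-- **Restriction to the annulus of functions on the disc `|y| < 1/‖c‖`.** -/
theorem exists_resP {π : k} (hπ : IsUnif π) (hG₁ : IsGauss k y₁) (hd₁ : DenseRat k y₁)
    (hG : IsGauss k y) {s : ℝ≥0} (hs : 1 < s) (ψ : KY hG₁ →+* E)
    (hk : ∀ c : k, ψ ⟨algebraMap k E₁ c, const_mem_KY hG₁ c⟩ = algebraMap k E c) (c : k)
    (hcs : ‖c‖₊ * s < 1) (hy : ψ ⟨y₁, y_mem_KY hG₁⟩ = algebraMap k E c * y) :
    ∃ Φ : FP hG₁ hπ hd₁ →+* E,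
      (∀ z (hz : z ∈ KY hG₁), Φ ⟨z, KY_le_FP hG₁ hπ hd₁ hz⟩ = ψ ⟨z, hz⟩) ∧
      ∀ r, Φ r ∈ MN hG hs := by
  have hsp : 0 < s := zero_lt_one.trans hs
  have hs0 : s ≠ 0 := hsp.ne'
  set S0 : Subring E₁ := (AP0alg hG₁).toSubring with hS0
  have hS0le : S0 ≤ (KY hG₁).toSubring := by
    rintro _ ⟨f, g, h1, h2, rfl⟩
    exact ⟨f, g, by rintro rfl; simp at h2, rfl⟩
  set ψ0 : S0 →+* E := ψ.comp (Subring.inclusion hS0le) with hψ0
  set F : k[X] → E := fun f => ψ ⟨aeval y₁ f, aeval_mem_KY hG₁ f⟩ with hF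
  have hform : ∀ f : k[X], F f =
      ∑ i ∈ Finset.range (f.natDegree + 1), (f.coeff i * c ^ i) • y ^ (i : ℤ) := by
    intro f
    have e : (⟨aeval y₁ f, aeval_mem_KY hG₁ f⟩ : KY hG₁) =
        ∑ i ∈ Finset.range (f.natDegree + 1),
          ⟨algebraMap k E₁ (f.coeff i), const_mem_KY hG₁ _⟩ * (⟨y₁, y_mem_KY hG₁⟩ : KY hG₁) ^ i := by
      ext
      push_cast
      rw [aeval_eq_sum_range]
      exact Finset.sum_congr rfl fun i _ => Algebra.smul_def _ _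
    change ψ ⟨aeval y₁ f, aeval_mem_KY hG₁ f⟩ = _
    rw [e, map_sum]
    refine Finset.sum_congr rfl fun i _ => ?_
    rw [map_mul, map_pow, hk, hy, Algebra.smul_def, map_mul, map_pow, zpow_natCast, mul_pow]
    ring
  have hbd : ∀ (f : k[X]) (D : ℝ≥0), (∀ i, ‖f.coeff i‖₊ * ‖c‖₊ ^ i * s ^ i ≤ D) →
      F f ∈ B k y s D D := by
    intro f D hD
    rw [hform f]
    refine AddSubgroup.sum_mem _ fun i _ => ?_
    refine smul_mem_Box (b := w s D D) ?_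
    have h5 : ‖f.coeff i * c ^ i‖₊ ≤ D * s ^ (-(i : ℤ)) := by
      rw [zpow_neg, zpow_natCast, ← div_eq_mul_inv, le_div_iff₀ (pow_pos hsp _), nnnorm_mul,
        nnnorm_pow]
      exact hD i
    exact le_min h5 (h5.trans (mul_le_mul_right (zpow_le_zpow_right₀ hs.le (by omega)) _))
  have hAN : ∀ f : k[X], F f ∈ AN hG hs := by
    intro f
    rw [hform f]
    exact sum_mem fun i _ => (AN hG hs).smul_mem (zpow_mem_AN hG hs _) _
  have hcs' : ∀ i : ℕ, ‖c‖₊ ^ i * s ^ i ≤ 1 := fun i => by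
    rw [← mul_pow]; exact pow_le_one₀ zero_le hcs.le
  -- denominators
  have hden : ∀ g : k[X], ‖aeval y₁ g‖ ≤ 1 → g.coeff 0 = 1 →
      (F g)⁻¹ ∈ AN hG hs ∧ (F g)⁻¹ ∈ B k y s 1 1 := by
    intro g hg1 hg0
    have e1 : F g = 1 - (-(F (g - 1))) := by
      have : F g = F ((g - 1) + 1) := by rw [sub_add_cancel]
      have h2 : F ((g - 1) + 1) = F (g - 1) + 1 := by
        change ψ _ = ψ _ + 1
        rw [← map_one ψ, ← map_add]
        congr 1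
        ext
        push_cast
        rw [map_add, map_one]
      rw [this, h2]; ring
    rw [e1]
    refine one_sub_inv_mem hG hs hcs (neg_mem (hAN _)) (neg_mem (hbd _ _ fun i => ?_))
    rcases i with _ | i
    · rw [coeff_sub, hg0, coeff_one_zero, sub_self, nnnorm_zero, zero_mul, zero_mul]
      exact zero_le
    · have h3 : ‖(g - 1).coeff (i + 1)‖₊ ≤ 1 := by
        rw [coeff_sub, coeff_one, if_neg (by omega), sub_zero]
        exact (hG₁.coeff_le g _).trans hg1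
      calc ‖(g - 1).coeff (i + 1)‖₊ * ‖c‖₊ ^ (i + 1) * s ^ (i + 1)
          ≤ 1 * ‖c‖₊ ^ (i + 1) * s ^ (i + 1) := mul_le_mul_left (mul_le_mul_left h3 _) _
        _ = (‖c‖₊ ^ i * s ^ i) * (‖c‖₊ * s) := by rw [pow_succ, pow_succ]; ring
        _ ≤ 1 * (‖c‖₊ * s) := mul_le_mul_left (hcs' i) _
        _ = _ := one_mul _
  have hψ0f : ∀ (f g : k[X]) (h1 : ‖aeval y₁ g‖ ≤ 1) (h2 : g.coeff 0 = 1),
      ψ0 ⟨aeval y₁ f / aeval y₁ g, f, g, h1, h2, rfl⟩ = F f * (F g)⁻¹ := by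
    intro f g h1 h2
    rw [← div_eq_mul_inv]
    exact map_div₀ ψ ⟨aeval y₁ f, aeval_mem_KY hG₁ f⟩ ⟨aeval y₁ g, aeval_mem_KY hG₁ g⟩
  have h1 : ∀ z : S0, ψ0 z ∈ AN hG hs := by
    rintro ⟨_, f, g, hg1, hg0, rfl⟩
    rw [hψ0f f g hg1 hg0]
    exact mul_mem (hAN f) (hden g hg1 hg0).1
  have h2 : ∀ z : S0, ψ0 z ∈ B k y s ‖(z : E₁)‖₊ ‖(z : E₁)‖₊ := by
    rintro ⟨_, f, g, hg1, hg0, rfl⟩
    rw [hψ0f f g hg1 hg0]
    have hgn := hG₁.norm_of_coeff_zero g hg1 hg0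
    have e : ‖aeval y₁ f / aeval y₁ g‖₊ = ‖aeval y₁ f‖₊ * 1 := by
      have : ‖aeval y₁ g‖₊ = 1 := NNReal.eq hgn
      rw [nnnorm_div, this, div_one, mul_one]
    change F f * (F g)⁻¹ ∈ B k y s ‖aeval y₁ f / aeval y₁ g‖₊ ‖aeval y₁ f / aeval y₁ g‖₊
    rw [e]
    refine mul_mem_B hG hs0 (hbd f _ fun i => ?_) (hden g hg1 hg0).2
    have h3 : ‖f.coeff i‖₊ ≤ ‖aeval y₁ f‖₊ := hG₁.coeff_le f i
    calc ‖f.coeff i‖₊ * ‖c‖₊ ^ i * s ^ i = ‖f.coeff i‖₊ * (‖c‖₊ ^ i * s ^ i) := mul_assoc _ _ _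
      _ ≤ ‖aeval y₁ f‖₊ * 1 := mul_le_mul' h3 (hcs' i)
      _ = _ := mul_one _
  obtain ⟨Ψ, e1, e2⟩ := ext_closure' S0 ψ0 fun z => by
    have := norm_le_of_mem_B hG hs.le le_rfl le_rfl (h2 z)
    simpa using this
  have h3 := mem_AN_of_closure hG hs S0 ψ0 h1 h2 Ψ e2 e1
  have hle : (AP hG₁).toSubring ≤ S0.topologicalClosure := fun x hx => hx
  refine mapFP_of_AP hG₁ hπ hd₁ ψ (MN hG hs).toSubfield
    (Ψ.comp (Subring.inclusion hle)) (fun f => ?_) (fun a => AN_le_MN hG hs (h3 _).1)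
  have h4 : aeval y₁ f ∈ S0 := ⟨f, 1, by rw [map_one, norm_one], by simp, by
    rw [map_one, div_one]⟩
  exact e1 _ h4

end Crest.Agent.R013.Half_930
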