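import Crest.Agent.R013.Set10_803
import Crest.Agent.R013.Half3_930

/-!
# Row 13: the disc embedding `iota` of 803 lands in the functions of the annulus `1/s ≤ |y| ≤ s`
-/

set_option autoImplicit false
set_option linter.unusedSectionVars false
set_option linter.style.haveILetI false

noncomputable section

namespace Crest.Agent.R013.Set_803

open scoped NNReal Topology
open Filter PowerSeries Crest.NumberTheoryR.Sect Crest.Agent.R013.A2a_275 Crest.Agent.R013.Gl946
  Crest.Agent.R013.SE_669 Crest.Agent.R013.KAS2_940 Crest.Agent.R013.KAS3_940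
  Crest.Agent.R013.Good1_940 Crest.Agent.R013.Good3_940 Crest.Agent.R013.CGood_588
  Crest.Agent.R013.Annu_930

section Gen

variable {k E : Type*} [NontriviallyNormedField k] [IsUltrametricDist k] [CompleteSpace k]
  [NormedField E] [NormedAlgebra k E] [IsUltrametricDist E] [CompleteSpace E]

/-- A series bounded at radius `R` evaluated at `ρ y`, `|ρ| s < R`, is a function on the closed
annulus. -/
theorem ev_mem_AN {y : E} (hG : IsGauss k y) {s : ℝ≥0} (hs : 1 < s) {r1 : ℝ} {hr1 : 0 < r1} (ρ : k)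
    (hρ : ‖ρ‖ * s < r1) {hx : ‖algebraMap k E ρ * y‖ < r1} (f : bsub (K := k) r1 hr1) :
    ev hr1 (algebraMap k E ρ * y) hx f ∈ AN hG hs := by
  obtain ⟨B, hB⟩ := f.2
  rcases eq_or_ne ρ 0 with h0 | h0
  · have h := hasSum_ev (hx := hx) f
    have h1 : ∀ n, n ≠ 0 → algebraMap k E (coeff n f.1) * (algebraMap k E ρ * y) ^ n = 0 := by
      intro n hn
      rw [h0, map_zero, zero_mul, zero_pow hn, mul_zero]
    have h2 := h.unique (hasSum_single 0 h1)
    rw [h2, pow_zero, mul_one]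
    exact (AN hG hs).algebraMap_mem _
  · have hρ0 : 0 < ‖ρ‖ := norm_pos_iff.2 h0
    set R : ℝ≥0 := ⟨r1 / ‖ρ‖, by positivity⟩ with hR
    have hsR : s < R := by
      rw [← NNReal.coe_lt_coe, hR]
      change (s : ℝ) < r1 / ‖ρ‖
      rwa [lt_div_iff₀ hρ0, mul_comm]
    refine hasSum_mem_AN_of_bounded hG hs (fun n => coeff n f.1 * ρ ^ n) (R := R)
      (C := Real.toNNReal B) hsR ?_ ?_
    · intro n
      have h1 := hB n
      have h2 : (‖coeff n f.1 * ρ ^ n‖₊ * R ^ n : ℝ≥0) ≤ Real.toNNReal B := by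
        rw [← NNReal.coe_le_coe]
        refine le_trans (le_of_eq ?_) (h1.trans (Real.le_coe_toNNReal B))
        push_cast
        rw [norm_mul, norm_pow, mul_assoc, ← mul_pow]
        congr 2
        change ‖ρ‖ * (r1 / ‖ρ‖) = r1
        field_simp
      exact h2
    · have h := hasSum_ev (hx := hx) f
      have e : (fun n => (coeff n f.1 * ρ ^ n) • y ^ n) = fun n =>
          algebraMap k E (coeff n f.1) * (algebraMap k E ρ * y) ^ n := by
        funext n
        rw [Algebra.smul_def, map_mul, map_pow, mul_pow, mul_assoc]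
      rw [e]
      exact h

end Gen

variable {k : Type*} [Field k] {Ω : Type*} [Field Ω] [Algebra k Ω]
variable {p : ℕ} [hp : Fact p.Prime] [Algebra ℚ_[p] k] {v P : Valuation Ω ℝ≥0}
  {C : IntermediateField k Ω}

namespace DiscData

variable {R : ℝ≥0} {x q c : Ω} (D : DiscData p v P C R x q c)
  [FiniteDimensional ℚ_[p] k] [FiniteDimensional k C]
  {E : Type*} [NormedField E] [IsUltrametricDist E] [CompleteSpace E]
  (A : NAlg D.hv C E) {y : E} (hy : IsG D.hv C A y)

theorem evE_mem_AN (ρ : C) (hρ : v ρ < R) {s : ℝ≥0} (hs : 1 < s) (hρs : v ρ * s < R)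
    (F : BS v C R D.hR) :
    letI := nC D.hv C; letI := A
    haveI := ultra_nC D.hv C
    D.evE A hy ρ hρ F ∈ AN hy hs := by
  letI := nC D.hv C
  haveI := ultra_nC D.hv C
  haveI := complete_nC D.hv C
  letI := A
  have hn : ‖ρ‖ = v (ρ : Ω) := norm_nC D.hv C ρ
  have h1 : pt (k := C) (0 : C) ρ y = algebraMap C E ρ * y := by
    rw [pt, map_zero, zero_add]
  have h2 : ‖pt (k := C) (0 : C) ρ y‖ < (R : ℝ) :=
    norm_pt_lt hy (by rw [norm_zero]; exact_mod_cast D.hR) (by rw [hn]; exact_mod_cast hρ)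
  have hx : ‖algebraMap C E ρ * y‖ < (R : ℝ) := h1 ▸ h2
  have h3 : D.evE A hy ρ hρ F = ev (k := C) (E := E) (r1 := (R : ℝ)) (by exact_mod_cast D.hR)
      (algebraMap C E ρ * y) hx F := by
    rw [D.evE_apply A hy ρ hρ F]; rfl
  rw [h3]
  exact ev_mem_AN hy hs ρ (by rw [hn]; exact_mod_cast hρs) F

/-- **`iota f` is a meromorphic function on the closed annulus `|ρ| / s ≤ |x| ≤ |ρ| s`**. -/
theorem iota_mem_MN (ρ : C) (hρ : v ρ < R) (h0 : ρ ≠ 0) {s : ℝ≥0} (hs : 1 < s)
    (hρs : v ρ * s < R) (f : D.SD) :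
    letI := nC D.hv C; letI := A
    haveI := ultra_nC D.hv C
    D.iota A hy ρ hρ h0 f ∈ MN hy hs := by
  letI := nC D.hv C
  haveI := ultra_nC D.hv C
  haveI := complete_nC D.hv C
  letI := A
  obtain ⟨f, hf⟩ := f
  obtain ⟨G, H, h⟩ := D.mem_SD.1 hf
  exact ⟨_, D.evE_mem_AN A hy ρ hρ hs hρs ⟨G, mem_BS.2 h.bG⟩, _,
    D.evE_mem_AN A hy ρ hρ hs hρs ⟨H, mem_BS.2 h.bH⟩, D.evE_ne_zero A hy ρ hρ h0 h.ne _,
    D.iota_rep A hy ρ hρ h0 h hf⟩

end DiscData

end Crest.Agent.R013.Set_803
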