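import Mathlib
import Crest.Agent.R013.BTor8_914
import Crest.Agent.R013.SetMN_930
import Crest.Agent.R013.Set8_803

/-!
# R013 / Cls2: the second class (split over the disc) at a circle inside the disc: the root `g2 ∈ E`
in `FP`, `MN`, `Ap` (helper914)
-/

set_option autoImplicit false
set_option linter.all false

noncomputable section

namespace Crest.Agent.R013.Cls2_914

open scoped NNReal Topology
open Filter PowerSeries Crest.NumberTheoryR.Sect Crest.Agent.R013.A2a_275 Crest.Agent.R013.Gl946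
  Crest.Agent.R013.SE_669 Crest.Agent.R013.KAS2_940 Crest.Agent.R013.KAS3_940
  Crest.Agent.R013.Good1_940 Crest.Agent.R013.Good3_940 Crest.Agent.R013.CGood_588
  Crest.Agent.R013.Annu_930 Crest.Agent.R013.Set_803 Crest.Agent.R013.BTor3_914
  Crest.Agent.R013.BTor8_914

variable {k : Type*} [Field k] {Ω : Type*} [Field Ω] [Algebra k Ω]
variable {p : ℕ} [hp : Fact p.Prime] [Algebra ℚ_[p] k] {v P : Valuation Ω ℝ≥0}
  {C : IntermediateField k Ω} {R R' : ℝ≥0} {x q c : Ω}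
  [FiniteDimensional ℚ_[p] k] [FiniteDimensional k C]
  {E : Type*} [NormedField E] [IsUltrametricDist E] [CompleteSpace E]

/-- `iota` does not depend on the radius of the disc -/
theorem iota_res (D : DiscData p v P C R x q c) (D' : DiscData p v P C R' x q c)
    (A : NAlg D.hv C E) {y : E} (hy : IsG D.hv C A y) (hR : R' ≤ R) (ρ : C) (hρ : v ρ < R')
    (h0 : ρ ≠ 0) {f : Ω} {G H : C⟦X⟧} (h : IsRep v P C R x f G H) (hf : f ∈ D.SD)
    (hf' : f ∈ D'.SD) :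
    D.iota A hy ρ (hρ.trans_le hR) h0 ⟨f, hf⟩ = D'.iota A hy ρ hρ h0 ⟨f, hf'⟩ := by
  rw [D.iota_rep A hy ρ (hρ.trans_le hR) h0 h hf, D'.iota_rep A hy ρ hρ h0 (h.res hR) hf',
    D.evE_apply, D.evE_apply, D'.evE_apply, D'.evE_apply]

/-- **The second class at the circle `|x| = |π|`.** -/
theorem exists_g2 (D : DiscData p v P C R x q c) (A : NAlg D.hv C E) {y : E}
    (hy : IsG D.hv C A y) {l : ℕ} {ρ : C} (hρ0 : ρ ≠ 0) (hρ : v (ρ : Ω) ≤ R)
    (hqρ : v q < v (ρ : Ω)) (hcρ : v c < v (ρ : Ω)) (π : C) (hπ0 : π ≠ 0)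
    (hπρ : v (π : Ω) < v (ρ : Ω)) (f : D.SD)
    (hf : letI := nC D.hv C; haveI := ultra_nC D.hv C
      ∃ g : FDisc C ‖ρ‖ (norm_pos_iff.mpr hρ0), g ≠ 0 ∧
        resF (k := C) (R := (R : ℝ)) (by exact_mod_cast D.hR) (norm_pos_iff.mpr hρ0)
          (by rw [norm_nC]; exact_mod_cast hρ) (D.kap f) = g ^ l) :
    ∃ g2 : E, g2 ≠ 0 ∧ g2 ^ l = D.iota A hy π (hπρ.trans_le hρ) hπ0 f ∧
      (∀ (ϖ : C) (hϖ : @IsUnif C (nC D.hv C).toNormedField ϖ) (hd : DenseR D.hv C A y),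
        letI := nC D.hv C
        haveI := complete_nC D.hv C
        letI := A
        g2 ∈ FP hy hϖ hd) ∧
      ∀ (s : ℝ≥0) (hs : 1 < s), v (π : Ω) * s < v (ρ : Ω) →
        letI := nC D.hv C; letI := A
        haveI := ultra_nC D.hv C
        g2 ∈ MN hy hs := by
  have D' : DiscData p v P C (v (ρ : Ω)) x q c := D.res hqρ hcρ
  obtain ⟨G, H, hG0, hH0, hG, hH, hrep⟩ := rep_of_FDisc D hρ0 hρ D'.hx f hf
  have bG : G ∈ BS v C (v (ρ : Ω)) D'.hR := mem_BS.2 hG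
  have bH : H ∈ BS v C (v (ρ : Ω)) D'.hR := mem_BS.2 hH
  have hf' : (f : Ω) ∈ D'.SD := ⟨_, _, hrep⟩
  obtain ⟨f, G₀, H₀, h₀⟩ := f
  have hG1 := D'.evE_ne_zero A hy π hπρ hπ0 hG0 bG
  have hH1 := D'.evE_ne_zero A hy π hπρ hπ0 hH0 bH
  refine ⟨D'.evE A hy π hπρ ⟨G, bG⟩ / D'.evE A hy π hπρ ⟨H, bH⟩, div_ne_zero hG1 hH1, ?_, ?_, ?_⟩
  · rw [iota_res D D' A hy hρ π hπρ hπ0 h₀ ⟨G₀, H₀, h₀⟩ hf', D'.iota_rep A hy π hπρ hπ0 hrep hf',
      div_pow, ← map_pow, ← map_pow]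
    rfl
  · intro ϖ hϖ hd
    letI := nC D.hv C
    haveI := ultra_nC D.hv C
    haveI := complete_nC D.hv C
    letI := A
    exact div_mem (AP_le_FP hy hϖ hd (D'.evE_mem_AP A hy π hπρ _))
      (AP_le_FP hy hϖ hd (D'.evE_mem_AP A hy π hπρ _))
  · intro s hs hs'
    letI := nC D.hv C
    haveI := ultra_nC D.hv C
    haveI := complete_nC D.hv C
    letI := A
    exact ⟨_, D'.evE_mem_AN A hy π hπρ hs hs' ⟨G, bG⟩, _,
      D'.evE_mem_AN A hy π hπρ hs hs' ⟨H, bH⟩, hH1, rfl⟩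

end Crest.Agent.R013.Cls2_914
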