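import Mathlib

/-! # R013 / Clu1_270 : clusters of zeros in an ultrametric field.

`S` a finite multiset of points of the closed unit disc, `r` with `0 < ‖r‖ ≤ 1`.  The set
`{t | ∏_{τ ∈ S} ‖t - τ‖ < ‖r‖}` is a disjoint union of open discs `ball α_i ‖b_i‖` (`α_i ∈ S`), with
`∏_{τ ∈ S} max ‖b_i‖ ‖α_i - τ‖ = ‖r‖`; every point of `S` lies in exactly one of them. -/

set_option autoImplicit false

noncomputable section

namespace Crest.Agent.R013.Clu_270

open Topology

section

variable {C : Type*} [NormedField C] [IsUltrametricDist C]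

/-- the value at radius `ρ` of the norm of `∏ (T - τ)` on the closed disc of radius `ρ` around `c` -/
def phi (S : Multiset C) (c : C) (ρ : ℝ) : ℝ := (S.map fun τ => max ρ ‖c - τ‖).prod

omit [IsUltrametricDist C] in
theorem phi_zero (c : C) (ρ : ℝ) : phi (0 : Multiset C) c ρ = 1 := by simp [phi]

omit [IsUltrametricDist C] in
theorem phi_cons (a : C) (S : Multiset C) (c : C) (ρ : ℝ) :
    phi (a ::ₘ S) c ρ = max ρ ‖c - a‖ * phi S c ρ := by
  simp [phi]

omit [IsUltrametricDist C] in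
theorem phi_pos (S : Multiset C) (c : C) {ρ : ℝ} (hρ : 0 < ρ) : 0 < phi S c ρ := by
  induction S using Multiset.induction_on with
  | empty => rw [phi_zero]; exact one_pos
  | cons a S ih => rw [phi_cons]; exact mul_pos (lt_max_of_lt_left hρ) ih

omit [IsUltrametricDist C] in
theorem phi_nonneg (S : Multiset C) (c : C) {ρ : ℝ} (hρ : 0 ≤ ρ) : 0 ≤ phi S c ρ := by
  induction S using Multiset.induction_on with
  | empty => rw [phi_zero]; exact zero_le_one
  | cons a S ih => rw [phi_cons]; exact mul_nonneg (le_max_of_le_left hρ) ih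

omit [IsUltrametricDist C] in
theorem continuous_phi (S : Multiset C) (c : C) : Continuous fun ρ : ℝ => phi S c ρ := by
  induction S using Multiset.induction_on with
  | empty => simp only [phi_zero]; exact continuous_const
  | cons a S ih =>
    simp only [phi_cons]
    exact (continuous_id.max continuous_const).mul ih

omit [IsUltrametricDist C] in
theorem phi_mono (S : Multiset C) (c : C) {ρ σ : ℝ} (hρ : 0 ≤ ρ) (h : ρ ≤ σ) :
    phi S c ρ ≤ phi S c σ := by
  induction S using Multiset.induction_on with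
  | empty => rw [phi_zero, phi_zero]
  | cons a S ih =>
    rw [phi_cons, phi_cons]
    exact mul_le_mul (max_le_max_right _ h) ih (phi_nonneg S c hρ)
      (le_max_of_le_left (hρ.trans h))

omit [IsUltrametricDist C] in
theorem phi_zero_of_mem {S : Multiset C} {α : C} (hα : α ∈ S) : phi S α 0 = 0 := by
  rw [phi, Multiset.prod_eq_zero_iff, Multiset.mem_map]
  exact ⟨α, hα, by simp⟩

omit [IsUltrametricDist C] in
theorem phi_strictMono {S : Multiset C} {α : C} (hα : α ∈ S) {ρ σ : ℝ} (hρ : 0 ≤ ρ) (h : ρ < σ) :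
    phi S α ρ < phi S α σ := by
  obtain ⟨S', rfl⟩ := Multiset.exists_cons_of_mem hα
  rw [phi_cons, phi_cons, sub_self, norm_zero, max_eq_left hρ, max_eq_left (hρ.trans h.le)]
  have h1 := phi_mono S' α hρ h.le
  have h2 := phi_pos S' α (hρ.trans_lt h)
  have h3 := phi_nonneg S' α hρ
  nlinarith

omit [IsUltrametricDist C] in
theorem phi_one {S : Multiset C} {c : C} (h : ∀ τ ∈ S, ‖c - τ‖ ≤ 1) : phi S c 1 = 1 := by
  induction S using Multiset.induction_on with
  | empty => rw [phi_zero]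
  | cons a S ih =>
    rw [phi_cons, ih fun τ hτ => h τ (Multiset.mem_cons_of_mem hτ),
      max_eq_left (h a (Multiset.mem_cons_self a S)), one_mul]

/-- changing the centre inside the disc does not change `phi` -/
theorem phi_congr (S : Multiset C) {c c' : C} {ρ : ℝ} (h : ‖c - c'‖ ≤ ρ) :
    phi S c ρ = phi S c' ρ := by
  have key : ∀ a b τ : C, ‖a - b‖ ≤ ρ → max ρ ‖a - τ‖ ≤ max ρ ‖b - τ‖ := by
    intro a b τ hab
    refine max_le (le_max_left _ _) ?_
    have e : a - τ = (a - b) + (b - τ) := by ring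
    rw [e]
    exact (IsUltrametricDist.norm_add_le_max _ _).trans (max_le_max_right _ hab)
  unfold phi
  congr 1
  refine Multiset.map_congr rfl fun τ _ => ?_
  exact le_antisymm (key _ _ _ h) (key _ _ _ (by rwa [norm_sub_rev]))

omit [IsUltrametricDist C] in
/-- `phi` is a power of `ρ` times the distances of the far points -/
theorem phi_eq (S : Multiset C) (c : C) {ρ : ℝ} (hρ : 0 ≤ ρ) :
    ∃ (n : ℕ) (b : C), (∀ τ ∈ S, ‖c - τ‖ ≤ ρ → 0 < n) ∧ phi S c ρ = ρ ^ n * ‖b‖ ∧
      (0 < ρ → b ≠ 0) := by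
  induction S using Multiset.induction_on with
  | empty => exact ⟨0, 1, by simp, by simp [phi_zero], fun _ => one_ne_zero⟩
  | cons a S ih =>
    obtain ⟨n, b, h1, h2, h3⟩ := ih
    rcases le_or_gt ‖c - a‖ ρ with h | h
    · refine ⟨n + 1, b, fun _ _ _ => n.succ_pos, ?_, h3⟩
      rw [phi_cons, h2, max_eq_left h]; ring
    · refine ⟨n, (c - a) * b, fun τ hτ hle => ?_, ?_, fun hρ' => ?_⟩
      · rcases Multiset.mem_cons.1 hτ with rfl | hτ'
        · exact absurd hle (not_le.2 h)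
        · exact h1 τ hτ' hle
      · rw [phi_cons, h2, max_eq_right h.le, norm_mul]; ring
      · refine mul_ne_zero ?_ (h3 hρ')
        intro h0
        rw [h0, norm_zero] at h
        exact absurd h (not_lt.2 hρ)

/-- the radius of the cluster of `α` -/
theorem exists_radius [IsAlgClosed C] {S : Multiset C} {α : C} (hα : α ∈ S)
    (hS : ∀ τ ∈ S, ‖τ‖ ≤ 1) {r : C} (hr0 : r ≠ 0) (hr : ‖r‖ ≤ 1) :
    ∃ b : C, b ≠ 0 ∧ ‖b‖ ≤ 1 ∧ phi S α ‖b‖ = ‖r‖ := by
  have h1 : phi S α 1 = 1 := phi_one fun τ hτ => by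
    have e : α - τ = α + -τ := by ring
    rw [e]
    refine (IsUltrametricDist.norm_add_le_max _ _).trans (max_le (hS α hα) ?_)
    rw [norm_neg]; exact hS τ hτ
  have h0 := phi_zero_of_mem hα
  have hr' : 0 < ‖r‖ := norm_pos_iff.2 hr0
  obtain ⟨ρ, ⟨hρ0, hρ1⟩, hρ⟩ := intermediate_value_Icc (zero_le_one' ℝ)
    (continuous_phi S α).continuousOn (show ‖r‖ ∈ Set.Icc (phi S α 0) (phi S α 1) by
      rw [h0, h1]; exact ⟨hr'.le, hr⟩)
  simp only at hρ
  have hρpos : 0 < ρ := by
    rcases hρ0.lt_or_eq with h | h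
    · exact h
    · rw [← h, h0] at hρ; exact absurd hρ hr'.ne
  obtain ⟨n, b, hn, hphi, hb⟩ := phi_eq S α hρ0
  have hn0 : 0 < n := hn α hα (by rw [sub_self, norm_zero]; exact hρ0)
  have hb0 : b ≠ 0 := hb hρpos
  obtain ⟨z, hz⟩ := IsAlgClosed.exists_pow_nat_eq (r / b) hn0
  have hz1 : ‖z‖ ^ n = ρ ^ n := by
    rw [← norm_pow, hz, norm_div, ← hρ, hphi]
    exact mul_div_cancel_right₀ _ (norm_ne_zero_iff.2 hb0)
  have hz2 : ‖z‖ = ρ := (pow_left_inj₀ (norm_nonneg _) hρ0 hn0.ne').1 hz1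
  refine ⟨z, ?_, ?_, ?_⟩
  · rintro rfl
    rw [norm_zero] at hz2
    exact hρpos.ne hz2
  · rw [hz2]; exact hρ1
  · rw [hz2]; exact hρ

/-- the radius is the same for all points of the open disc -/
theorem radius_eq {S : Multiset C} {α β b b' : C} (hβ : β ∈ S)
    (hb : phi S α ‖b‖ = phi S β ‖b'‖) (h : ‖α - β‖ ≤ ‖b‖) : ‖b‖ = ‖b'‖ := by
  have h1 : phi S β ‖b‖ = phi S β ‖b'‖ := by rw [← hb, phi_congr S h]
  rcases lt_trichotomy ‖b‖ ‖b'‖ with h2 | h2 | h2
  · exact absurd h1 (phi_strictMono hβ (norm_nonneg _) h2).ne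
  · exact h2
  · exact absurd h1 (phi_strictMono hβ (norm_nonneg _) h2).ne'

/-- **Clusters.** The zeros fall into finitely many disjoint open discs. -/
theorem exists_clusters [IsAlgClosed C] (S : Multiset C) (hS : ∀ τ ∈ S, ‖τ‖ ≤ 1) {r : C}
    (hr0 : r ≠ 0) (hr : ‖r‖ ≤ 1) :
    ∃ (n : ℕ) (α b : Fin n → C), (∀ i, α i ∈ S) ∧ (∀ i, b i ≠ 0) ∧ (∀ i, ‖b i‖ ≤ 1) ∧
      (∀ i, phi S (α i) ‖b i‖ = ‖r‖) ∧
      (∀ i j, i ≠ j → max ‖b i‖ ‖b j‖ ≤ ‖α i - α j‖) ∧
      (∀ τ ∈ S, ∃ i, ‖τ - α i‖ < ‖b i‖) ∧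
      ∑ i, (S.countP fun τ => ‖τ - α i‖ < ‖b i‖) = S.card := by
  classical
  choose! R hR0 hR1 hR using fun α (hα : α ∈ S) => exists_radius hα hS hr0 hr
  -- representatives of the balls
  let B : C → Set C := fun α => Metric.ball α ‖R α‖
  have hBmem : ∀ α ∈ S, α ∈ B α := fun α hα => Metric.mem_ball_self (norm_pos_iff.2 (hR0 α hα))
  have hBeq : ∀ α ∈ S, ∀ β ∈ S, β ∈ B α → B β = B α := by
    intro α hα β hβ h
    have h1 : ‖α - β‖ < ‖R α‖ := by
      rw [norm_sub_rev, ← dist_eq_norm]; exact h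
    have h2 : ‖R α‖ = ‖R β‖ := radius_eq hβ (by rw [hR α hα, hR β hβ]) h1.le
    change Metric.ball β ‖R β‖ = Metric.ball α ‖R α‖
    rw [← h2]
    exact IsUltrametricDist.ball_eq_of_mem (Metric.mem_ball'.1 (by
      rw [Metric.mem_ball'] ; exact h)) |>.symm
  let 𝓑 : Finset (Set C) := S.toFinset.image B
  have h𝓑 : ∀ U : 𝓑, ∃ α ∈ S, B α = U := fun U => by
    obtain ⟨α, hα, h⟩ := Finset.mem_image.1 U.2
    exact ⟨α, Multiset.mem_toFinset.1 hα, h⟩
  choose a ha haB using h𝓑
  let e : Fin (Fintype.card 𝓑) ≃ 𝓑 := (Fintype.equivFin 𝓑).symm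
  refine ⟨Fintype.card 𝓑, fun i => a (e i), fun i => R (a (e i)), fun i => ha _,
    fun i => hR0 _ (ha _), fun i => hR1 _ (ha _), fun i => hR _ (ha _), ?_, ?_, ?_⟩
  · intro i j hij
    by_contra hlt
    push Not at hlt
    have hne : (e i : Set C) ≠ e j := fun h => hij (e.injective (Subtype.ext h))
    apply hne
    rw [← haB (e i), ← haB (e j)]
    rcases lt_max_iff.1 hlt with h | h
    · refine (hBeq _ (ha _) _ (ha _) ?_).symm
      change dist _ _ < _
      rw [dist_eq_norm, norm_sub_rev]; exact h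
    · refine hBeq _ (ha _) _ (ha _) ?_
      change dist _ _ < _
      rw [dist_eq_norm]; exact h
  · intro τ hτ
    refine ⟨e.symm ⟨B τ, Finset.mem_image_of_mem _ (Multiset.mem_toFinset.2 hτ)⟩, ?_⟩
    rw [← dist_eq_norm]
    change τ ∈ B _
    rw [haB, Equiv.apply_symm_apply]
    exact hBmem τ hτ
  · have hone : ∀ τ ∈ S, ∑ i : Fin (Fintype.card 𝓑),
        (if ‖τ - a (e i)‖ < ‖R (a (e i))‖ then 1 else 0) = 1 := by
      intro τ hτ
      rw [Finset.sum_eq_single (e.symm ⟨B τ, Finset.mem_image_of_mem _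
        (Multiset.mem_toFinset.2 hτ)⟩)]
      · rw [if_pos]
        rw [← dist_eq_norm]
        change τ ∈ B _
        rw [haB, Equiv.apply_symm_apply]
        exact hBmem τ hτ
      · intro i _ hi
        rw [if_neg]
        intro hlt
        apply hi
        rw [Equiv.eq_symm_apply]
        apply Subtype.ext
        rw [← haB (e i)]
        refine (hBeq _ (ha _) _ hτ ?_).symm
        change dist _ _ < _
        rw [dist_eq_norm]; exact hlt
      · intro h; exact absurd (Finset.mem_univ _) h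
    have hgen : ∀ S' : Multiset C, S' ≤ S → ∑ i : Fin (Fintype.card 𝓑),
        (S'.countP fun τ => ‖τ - a (e i)‖ < ‖R (a (e i))‖) = S'.card := by
      intro S' hS'
      induction S' using Multiset.induction_on with
      | empty => simp
      | cons x S' ih =>
        have hx : x ∈ S := Multiset.mem_of_le hS' (Multiset.mem_cons_self x S')
        rw [Multiset.card_cons, ← ih ((Multiset.le_cons_self S' x).trans hS'), ← hone x hx,
          ← Finset.sum_add_distrib]
        exact Finset.sum_congr rfl fun i _ => by rw [Multiset.countP_cons]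
    exact hgen S le_rfl

end

end Crest.Agent.R013.Clu_270
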