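import Mathlib
import Crest.Agent.R013.CntA4_560

/-!
# R013 / CntA5: a function which is an `N`-th power in almost all residue fields is an `N`-th power
(`N ∣ q - 1`) (helper560)
-/

set_option autoImplicit false
set_option linter.all false

namespace Crest.Agent.R013.CntA5_560

open Polynomial WithZero Module IsDedekindDomain nonZeroDivisors
open Crest.Agent.R013.RR1_948 Crest.Agent.R013.RR2_948 Crest.Agent.R013.RR3_948
open Crest.Agent.R013.RR4_948 Crest.Agent.R013.RR5_948 Crest.Agent.R013.RR6_948
open Crest.Agent.R013.RR7_948 Crest.Agent.R013.RR8_948 Crest.Agent.R013.RR9_948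
open Crest.Agent.R013.RR11_948 Crest.Agent.R013.RR12_948 Crest.Agent.R013.RR13_948
open Crest.Agent.R013.PicD_398 Crest.Agent.R013.CntA1_560 Crest.Agent.R013.CntA2_560
open Crest.Agent.R013.CntA3_560 Crest.Agent.R013.CntA4_560

variable {k : Type*} [Field k] {K : Type*} [Field K] [Algebra k K] [Algebra (RatFunc k) K]
  [IsScalarTower k (RatFunc k) K] [FiniteDimensional (RatFunc k) K]
  [Algebra.IsSeparable (RatFunc k) K] [Finite k]

/-- **locally an `N`-th power almost everywhere implies `N`-th power** (`μ_N ⊆ k`) -/
theorem exists_root {N : ℕ} (hN : N ≠ 0) {ζ : k} (hζ : IsPrimitiveRoot ζ N) {h : K} (h0 : h ≠ 0)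
    (S : Set (Pl k K)) (hS : S.Finite)
    (hloc : ∀ P : Pl k K, P ∉ S → P.v h = 1 → ∃ a : K, P.v (a ^ N - h) < 1) :
    ∃ b : K, b ^ N = h := by
  classical
  haveI : NeZero N := ⟨hN⟩
  have hNk : (N : k) ≠ 0 := (hζ.neZero' (n := N)).ne
  have hNK : (N : K) ≠ 0 := by
    rw [← map_natCast (algebraMap k K), ne_eq, map_eq_zero]
    exact hNk
  let f : K[X] := Polynomial.X ^ N - Polynomial.C h
  have hf0 : f ≠ 0 := X_pow_sub_C_ne_zero (Nat.pos_of_ne_zero hN) h
  have hsep : f.Separable := separable_X_pow_sub_C h hNK h0
  let L := f.SplittingField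
  haveI : IsScalarTower k (RatFunc k) L := by
    refine IsScalarTower.of_algebraMap_eq fun x => ?_
    rw [IsScalarTower.algebraMap_apply k K L, IsScalarTower.algebraMap_apply (RatFunc k) K L,
      ← IsScalarTower.algebraMap_apply k (RatFunc k) K]
  haveI : FiniteDimensional (RatFunc k) L := FiniteDimensional.trans (RatFunc k) K L
  haveI : IsGalois K L := IsGalois.of_separable_splitting_field hsep
  haveI : Algebra.IsSeparable (RatFunc k) L := Algebra.IsSeparable.trans (RatFunc k) K L
  have hζL : IsPrimitiveRoot (algebraMap k L ζ) N :=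
    hζ.map_of_injective (algebraMap k L).injective
  -- the roots of unity come from `k`
  have hroots : ∀ η : L, η ^ N = 1 → ∃ c : k, algebraMap k L c = η := by
    intro η hη
    obtain ⟨i, -, hi⟩ := hζL.eq_pow_of_pow_eq_one hη
    exact ⟨ζ ^ i, by rw [map_pow, hi]⟩
  have hh0 : algebraMap K L h ≠ 0 := by
    rw [ne_eq, map_eq_zero]; exact h0
  -- the exceptional places of `L`
  choose pole hpole hpole' using fun P : Pl k K => exists_only_pole (k := k) (K := K) P
  have hpole0 : ∀ P, algebraMap K L (pole P) ≠ 0 := by
    intro P h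
    rw [map_eq_zero] at h
    have := hpole P
    rw [h, map_zero] at this
    exact not_lt_zero' this
  have hfin : ({Q : Pl k L | Q.v (algebraMap K L h) ≠ 1} ∪
      ⋃ P ∈ S, {Q : Pl k L | Q.v (algebraMap K L (pole P)) ≠ 1}).Finite :=
    (finite_ne_one hh0).union (hS.biUnion fun P _ => finite_ne_one (hpole0 P))
  have hone : finrank K L = 1 := by
    refine finrank_eq_one_of_free (k := k) hfin.toFinset ?_
    intro Q hQ σ hσ
    rw [Set.Finite.mem_toFinset, Set.mem_union, not_or] at hQ
    obtain ⟨hQ1, hQ2⟩ := hQ
    simp only [Set.mem_iUnion, Set.mem_ofPred_eq, not_exists, not_not] at hQ1 hQ2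
    obtain ⟨P, hP⟩ := exists_below (K := K) Q
    have hPS : P ∉ S := by
      intro h
      have h1 := hQ2 P h
      have h2 := hpole P
      rw [hP.one_lt_iff_one_lt, Valuation.comap_apply, h1] at h2
      exact lt_irrefl _ h2
    have hPh : P.v h = 1 := by
      rw [hP.eq_one_iff_eq_one, Valuation.comap_apply]
      exact hQ1
    obtain ⟨a, ha⟩ := hloc P hPS hPh
    rw [hP.lt_one_iff_lt_one, Valuation.comap_apply, map_sub, map_pow] at ha
    have key : ∀ y : L, y ^ N = algebraMap K L h → σ y = y := by
      intro y hy
      have hy0 : y ≠ 0 := by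
        rintro rfl
        rw [zero_pow hN] at hy
        exact hh0 hy.symm
      have hvy : Q.v y = 1 := by
        have h1 : Q.v y ^ N = 1 := by rw [← map_pow, hy, hQ1]
        exact (pow_eq_one_iff.mp h1).resolve_right hN
      -- one of the factors is small
      rw [← hy, hζL.pow_sub_pow_eq_prod_sub_mul _ _ (Nat.pos_of_ne_zero hN), map_prod] at ha
      obtain ⟨η, hη, hlt⟩ : ∃ η ∈ nthRootsFinset N (1 : L),
          Q.v (algebraMap K L a - η * y) < 1 := by
        by_contra hcon
        push Not at hcon
        exact absurd ha (not_lt.mpr (Finset.one_le_prod' hcon))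
      rw [mem_nthRootsFinset (Nat.pos_of_ne_zero hN)] at hη
      obtain ⟨c, hc⟩ := hroots η hη
      have hση : σ η = η := by
        rw [← hc, IsScalarTower.algebraMap_apply k K L, σ.commutes]
      have hvη : Q.v η = 1 := by
        have h1 : Q.v η ^ N = 1 := by rw [← map_pow, hη, map_one]
        exact (pow_eq_one_iff.mp h1).resolve_right hN
      have hlt' : Q.v (algebraMap K L a - η * σ y) < 1 := by
        have h1 := hσ (algebraMap K L a - η * y)
        rw [map_sub, map_mul, hση, σ.commutes] at h1
        rw [h1]
        exact hlt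
      have h1 : Q.v (σ y - y) < 1 := by
        have h2 : Q.v (η * (σ y - y)) < 1 := by
          have e : η * (σ y - y) = (algebraMap K L a - η * y) - (algebraMap K L a - η * σ y) := by
            ring
          rw [e]
          exact (Valuation.map_sub _ _ _).trans_lt (max_lt hlt hlt')
        rwa [map_mul, hvη, one_mul] at h2
      -- `σ y = θ y` with `θ ∈ k`
      have hθ : (σ y / y) ^ N = 1 := by
        rw [div_pow, ← map_pow, hy, σ.commutes, div_self hh0]
      obtain ⟨d, hd⟩ := hroots _ hθ
      have h2 : Q.v (algebraMap k L (d - 1)) < 1 := by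
        have e : algebraMap k L (d - 1) * y = σ y - y := by
          rw [map_sub, hd, map_one, sub_mul, div_mul_cancel₀ _ hy0, one_mul]
        have h3 := congrArg Q.v e
        rw [map_mul, hvy, mul_one] at h3
        rw [h3]
        exact h1
      have h3 : d - 1 = 0 := by
        by_contra hne
        rw [Q.const _ hne] at h2
        exact lt_irrefl _ h2
      rw [sub_eq_zero.mp h3, map_one] at hd
      rw [eq_div_iff hy0, one_mul] at hd
      exact hd.symm
    have htop := SplittingField.adjoin_rootSet f
    have h1 : ∀ x ∈ Algebra.adjoin K (f.rootSet L), σ x = x := by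
      intro x hx
      induction hx using Algebra.adjoin_induction with
      | mem x hx =>
        rw [mem_rootSet_of_ne hf0] at hx
        apply key
        simp only [f, map_sub, map_pow, aeval_X, aeval_C] at hx
        exact sub_eq_zero.mp hx
      | algebraMap r => exact σ.commutes r
      | add x y _ _ hx hy => rw [map_add, hx, hy]
      | mul x y _ _ hx hy => rw [map_mul, hx, hy]
    ext x
    exact h1 x (by rw [htop]; trivial)
  have hsplit : f.Splits := by
    rw [IsSplittingField.splits_iff L f]
    exact (Subalgebra.bot_eq_top_of_finrank_eq_one hone).symm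
  obtain ⟨b, hb⟩ := hsplit.exists_eval_eq_zero (by
    rw [degree_X_pow_sub_C (Nat.pos_of_ne_zero hN)]
    exact_mod_cast hN)
  refine ⟨b, ?_⟩
  simp only [f, eval_sub, eval_pow, eval_X, eval_C] at hb
  exact sub_eq_zero.mp hb

end Crest.Agent.R013.CntA5_560
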