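import Mathlib
import Crest.Agent.R013.CntA5_560
import Crest.Agent.R013.WR5_777

/-!
# R013 / CntA6: every character of order dividing `N` of the class group is a Kummer character
(`N ∣ q - 1`), by counting (helper560)
-/

set_option autoImplicit false
set_option linter.all false

namespace Crest.Agent.R013.CntA6_560

open Polynomial WithZero Module IsDedekindDomain nonZeroDivisors
open Crest.Agent.R013.RR1_948 Crest.Agent.R013.RR2_948 Crest.Agent.R013.RR3_948
open Crest.Agent.R013.RR4_948 Crest.Agent.R013.RR5_948 Crest.Agent.R013.RR6_948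
open Crest.Agent.R013.RR7_948 Crest.Agent.R013.RR8_948 Crest.Agent.R013.RR9_948
open Crest.Agent.R013.RR11_948 Crest.Agent.R013.RR12_948 Crest.Agent.R013.RR13_948
open Crest.Agent.R013.PicD_398 Crest.Agent.R013.CntA1_560 Crest.Agent.R013.CntA2_560
open Crest.Agent.R013.CntA3_560 Crest.Agent.R013.CntA4_560 Crest.Agent.R013.CntA5_560
open Crest.Agent.R013.WR2_777 Crest.Agent.R013.WR4_777 Crest.Agent.R013.WR5_777

section Abstract

/-- number of characters with values in a field -/
theorem card_monoidHom_le (G : Type*) [Group G] [Finite G] (L : Type*) [Field L] :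
    Finite (G →* L) ∧ Nat.card (G →* L) ≤ Nat.card G := by
  classical
  haveI := Fintype.ofFinite G
  have h := linearIndependent_monoidHom G L
  haveI : Finite (G →* L) := h.finite
  haveI := Fintype.ofFinite (G →* L)
  refine ⟨inferInstance, ?_⟩
  have h1 := h.fintype_card_le_finrank
  rw [Module.finrank_fintype_fun_eq_card] at h1
  rwa [Nat.card_eq_fintype_card, Nat.card_eq_fintype_card]

/-- for a finite commutative group: the cokernel and the kernel of `x ↦ x ^ N` have the same size -/
theorem card_quot_pow (A : Type*) [CommGroup A] [Finite A] (N : ℕ) :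
    Nat.card (A ⧸ (powMonoidHom N : A →* A).range) = Nat.card (powMonoidHom N : A →* A).ker := by
  have h1 := (powMonoidHom N : A →* A).range.card_eq_card_quotient_mul_card_subgroup
  have h2 := (powMonoidHom N : A →* A).ker.card_eq_card_quotient_mul_card_subgroup
  have h3 : Nat.card (A ⧸ (powMonoidHom N : A →* A).ker) =
      Nat.card (powMonoidHom N : A →* A).range :=
    Nat.card_congr (QuotientGroup.quotientKerEquivRange _).toEquiv
  rw [h1, h3, mul_comm] at h2
  exact Nat.eq_of_mul_eq_mul_left Nat.card_pos h2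

/-- characters of order dividing `N` of a finite commutative group -/
theorem card_char_le (A : Type*) [CommGroup A] [Finite A] (N : ℕ) (L : Type*) [Field L] :
    Finite {ψ : A →* L // ∀ x, ψ x ^ N = 1} ∧
    Nat.card {ψ : A →* L // ∀ x, ψ x ^ N = 1} ≤ Nat.card (powMonoidHom N : A →* A).ker := by
  have h1 := card_monoidHom_le (A ⧸ (powMonoidHom N : A →* A).range) L
  haveI := h1.1
  let F : {ψ : A →* L // ∀ x, ψ x ^ N = 1} → ((A ⧸ (powMonoidHom N : A →* A).range) →* L) :=
    fun ψ => QuotientGroup.lift _ ψ.1 (by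
      rintro _ ⟨x, rfl⟩
      show ψ.1 (x ^ N) = 1
      rw [map_pow]
      exact ψ.2 x)
  have hF : Function.Injective F := by
    intro ψ ψ' h
    apply Subtype.ext
    ext x
    have := congrArg (fun f : (A ⧸ (powMonoidHom N : A →* A).range) →* L => f (x : A ⧸ _)) h
    exact this
  refine ⟨Finite.of_injective F hF, ?_⟩
  calc _ ≤ Nat.card ((A ⧸ (powMonoidHom N : A →* A).range) →* L) := Nat.card_le_card_of_injective F hF
    _ ≤ _ := h1.2
    _ = _ := card_quot_pow A N

end Abstract

variable {k : Type*} [Field k] {K : Type*} [Field K] [Algebra k K] [Algebra (RatFunc k) K]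
  [IsScalarTower k (RatFunc k) K] [FiniteDimensional (RatFunc k) K]
  [Algebra.IsSeparable (RatFunc k) K] [Finite k] {N m : ℕ}

theorem hn_of (hNm : N * m = Nat.card k - 1) (c : kˣ) : c ^ (N * m) = 1 := by
  rw [hNm]; exact pow_card_sub_one c

theorem N_ne_zero (hNm : N * m = Nat.card k - 1) : N ≠ 0 := by
  rintro rfl
  rw [zero_mul] at hNm
  have hq : 1 < Nat.card k := Finite.one_lt_card
  omega

theorem exists_primitive (hNm : N * m = Nat.card k - 1) : ∃ ζ : k, IsPrimitiveRoot ζ N := by
  have hq : 1 < Nat.card k := Finite.one_lt_card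
  obtain ⟨g, hg⟩ := IsCyclic.exists_generator (α := kˣ)
  have ho : orderOf g = Nat.card k - 1 := by
    rw [orderOf_eq_card_of_forall_mem_zpowers hg, Nat.card_units]
  have h1 : IsPrimitiveRoot g (Nat.card k - 1) := ho ▸ IsPrimitiveRoot.orderOf g
  have h2 := h1.pow (by omega) (show Nat.card k - 1 = m * N by rw [← hNm, mul_comm])
  exact ⟨((g ^ m : kˣ) : k), IsPrimitiveRoot.coe_units_iff.mpr h2⟩

/-- the Kummer character of `h`, `div h = N E` -/
noncomputable def kum (hNm : N * m = Nat.card k - 1) {h : K} (hh : h ≠ 0) {E : Pl k K →₀ ℤ}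
    (hE : divf (k := k) h = N • E) : AddChar (Pic k K) k :=
  chiA (N * m) (hn_of hNm) (pow_ne_zero m hh) E
    (by rw [divf_pow hh, hE, smul_smul, mul_comm])

theorem kum_single (hNm : N * m = Nat.card k - 1) {h : K} (hh : h ≠ 0) {E : Pl k K →₀ ℤ}
    (hE : divf (k := k) h = N • E) (P : Pl k K) :
    kum hNm hh hE (cls (Finsupp.single P 1)) = (chiP (N * m) (h ^ m) E P : k) := by
  unfold kum
  rw [chiA_cls, pw_single, zpow_one]

theorem kum_pow (hNm : N * m = Nat.card k - 1) {h : K} (hh : h ≠ 0) {E : Pl k K →₀ ℤ}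
    (hE : divf (k := k) h = N • E) (z : Pic k K) : kum hNm hh hE z ^ N = 1 := by
  obtain ⟨D, rfl⟩ := cls_surjective z
  unfold kum
  rw [chiA_cls, ← Units.val_pow_eq_pow_val]
  have h1 : pw (chiP (N * m) (h ^ m) E) D ^ N = 1 := by
    unfold pw
    rw [Finsupp.prod, ← Finset.prod_pow]
    apply Finset.prod_eq_one
    intro P _
    have key : chiP (N * m) (h ^ m) E P ^ N = 1 := by
      rw [chiP_pow hh hE, ← pow_mul, mul_comm m N, hn_of hNm]
    rw [← zpow_natCast, ← zpow_mul, mul_comm (D P) (N : ℤ), zpow_mul, zpow_natCast, key, one_zpow]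
  rw [h1]
  rfl

/-- **kernel**: if the Kummer character is trivial, `h` is an `N`-th power -/
theorem exists_root_of_chiP (hNm : N * m = Nat.card k - 1) {h : K} (hh : h ≠ 0)
    {E : Pl k K →₀ ℤ} (hE : divf (k := k) h = N • E)
    (htriv : ∀ P : Pl k K, chiP (N * m) (h ^ m) E P = 1) : ∃ b : K, b ^ N = h := by
  have hN := N_ne_zero hNm
  obtain ⟨ζ, hζ⟩ := exists_primitive hNm
  refine exists_root hN hζ hh ∅ Set.finite_empty fun P _ hP => ?_
  have hEP : E P = 0 := by
    rw [v_eq hh, hE, ← exp_zero, exp_inj, Finsupp.smul_apply, neg_eq_zero] at hP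
    rcases smul_eq_zero.mp hP with h1 | h1
    · exact absurd h1 hN
    · exact h1
  obtain ⟨y, hy, hlt⟩ := (chiP_eq_one_iff hNm hh hE).mp (htriv P)
  have hpe : P.v (pe P (E P)) = 1 := by rw [v_pe, hEP, exp_zero]
  refine ⟨y / pe P (E P), ?_⟩
  have e : (y / pe P (E P)) ^ N - h = -((h * pe P (E P) ^ N - y ^ N) / pe P (E P) ^ N) := by
    have := pow_ne_zero N (pe_ne_zero P (E P))
    rw [div_pow]
    field_simp
    ring
  rw [e, Valuation.map_neg, map_div₀, map_pow, hpe, one_pow, div_one]
  exact hlt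

theorem chiP_one_zero (n : ℕ) (hn : ∀ c : kˣ, c ^ n = 1) (P : Pl k K) :
    chiP n (1 : K) 0 P = 1 := by
  rw [chiP_eq hn one_ne_zero (by rw [divf_one, smul_zero]) (e := 1) (by simp), one_pow, mul_one,
    nrm_one]

theorem kum_inj (hNm : N * m = Nat.card k - 1) {h h' : K} (hh : h ≠ 0) (hh' : h' ≠ 0)
    {E E' : Pl k K →₀ ℤ} (hE : divf (k := k) h = N • E) (hE' : divf (k := k) h' = N • E')
    (heq : kum hNm hh hE = kum hNm hh' hE') : ∃ b : K, b ^ N * h' = h := by
  have hP : ∀ P : Pl k K, chiP (N * m) (h ^ m) E P = chiP (N * m) (h' ^ m) E' P := by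
    intro P
    apply Units.ext
    rw [← kum_single hNm hh hE, ← kum_single hNm hh' hE', heq]
  have hEi : divf (k := k) h'⁻¹ = N • (-E') := by rw [divf_inv hh', hE', smul_neg]
  have hEm : divf (k := k) (h ^ m) = (N * m) • E := by
    rw [divf_pow hh, hE, smul_smul, mul_comm]
  have hEm' : divf (k := k) (h' ^ m) = (N * m) • E' := by
    rw [divf_pow hh', hE', smul_smul, mul_comm]
  have hEi' : divf (k := k) (h'⁻¹ ^ m) = (N * m) • (-E') := by
    rw [divf_pow (inv_ne_zero hh'), hEi, smul_smul, mul_comm]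
  have h1 : ∀ P : Pl k K, chiP (N * m) ((h * h'⁻¹) ^ m) (E + -E') P = 1 := by
    intro P
    rw [mul_pow, chiP_mul (hn_of hNm) (pow_ne_zero _ hh) (pow_ne_zero _ (inv_ne_zero hh')) hEm
      hEi', hP, ← chiP_mul (hn_of hNm) (pow_ne_zero _ hh') (pow_ne_zero _ (inv_ne_zero hh')) hEm'
      hEi', ← mul_pow, mul_inv_cancel₀ hh', one_pow, add_neg_cancel,
      chiP_one_zero _ (hn_of hNm)]
  obtain ⟨b, hb⟩ := exists_root_of_chiP hNm (mul_ne_zero hh (inv_ne_zero hh'))
    (E := E + -E') (by rw [divf_mul hh (inv_ne_zero hh'), hE, hEi, ← smul_add]) h1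
  exact ⟨b, by rw [hb, mul_assoc, inv_mul_cancel₀ hh', mul_one]⟩

/-- the group of `N`-torsion classes, multiplicatively -/
abbrev PT (k K : Type*) [Field k] [Field K] [Algebra k K] [Algebra (RatFunc k) K]
    [IsScalarTower k (RatFunc k) K] [FiniteDimensional (RatFunc k) K]
    [Algebra.IsSeparable (RatFunc k) K] (N : ℕ) : Type _ :=
  (powMonoidHom N : Multiplicative (Pic0 k K) →* Multiplicative (Pic0 k K)).ker

omit [Finite k] in
theorem exists_pair (z : PT k K N) : ∃ (E : Pl k K →₀ ℤ) (h : K), h ≠ 0 ∧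
    divf (k := k) h = N • E ∧ cls E = ((z : Multiplicative (Pic0 k K)).toAdd : Pic k K) := by
  obtain ⟨E, hE⟩ := cls_surjective ((z : Multiplicative (Pic0 k K)).toAdd : Pic k K)
  have h1 : (z : Multiplicative (Pic0 k K)) ^ N = 1 := z.2
  have h2 : N • (z : Multiplicative (Pic0 k K)).toAdd = 0 := by
    rw [← toAdd_pow, h1, toAdd_one]
  have h3 : cls (N • E) = 0 := by
    rw [map_nsmul, hE, ← AddSubgroup.coe_nsmul, h2]; rfl
  obtain ⟨h, hh, hE'⟩ := cls_eq_zero_iff.mp h3
  exact ⟨E, h, hh, hE', hE⟩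

theorem exists_kum (hc : algebraicClosure k K = ⊥) (hNm : N * m = Nat.card k - 1)
    (ψ : AddChar (Pic k K) k) (hψ : ∀ z, ψ z ^ N = 1) :
    ∃ (h : K) (hh : h ≠ 0) (E : Pl k K →₀ ℤ) (hE : divf (k := k) h = N • E),
      ψ = kum hNm hh hE := by
  classical
  have hN := N_ne_zero hNm
  let X := {ψ : AddChar (Pic k K) k // ∀ z, ψ z ^ N = 1}
  let U := (powMonoidHom N : kˣ →* kˣ).ker
  let Y := {χ : Multiplicative (Pic0 k K) →* k // ∀ x, χ x ^ N = 1}
  obtain ⟨D1, hD1⟩ := exists_degD_one (k := k) (K := K) hc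
  have hY := card_char_le (Multiplicative (Pic0 k K)) N k
  haveI : Finite Y := hY.1
  -- the restriction map
  have hne : ∀ (ψ : X) (z : Pic k K), ψ.1 z ≠ 0 := by
    intro ψ z h0
    have := ψ.2 z
    rw [h0, zero_pow hN] at this
    exact zero_ne_one this
  let R : X → Y × U := fun ψ =>
    (⟨{ toFun := fun x => ψ.1 (x.toAdd : Pic k K)
        map_one' := ψ.1.map_zero_eq_one
        map_mul' := fun x y => ψ.1.map_add_eq_mul _ _ }, fun x => ψ.2 _⟩,
     ⟨Units.mk0 (ψ.1 (cls D1)) (hne ψ _), by
        rw [MonoidHom.mem_ker]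
        apply Units.ext
        exact ψ.2 _⟩)
  have hR : Function.Injective R := by
    intro ψ ψ' h
    have h1 : ∀ x : Pic0 k K, ψ.1 (x : Pic k K) = ψ'.1 (x : Pic k K) := by
      intro x
      have := congrArg (fun r : Y × U => r.1.1 (Multiplicative.ofAdd x)) h
      exact this
    have h2 : ψ.1 (cls D1) = ψ'.1 (cls D1) := by
      have := congrArg (fun r : Y × U => ((r.2.1 : kˣ) : k)) h
      exact this
    apply Subtype.ext
    ext z
    have hz : z - degPic z • cls D1 ∈ Pic0 k K := by
      rw [mem_Pic0, map_sub, map_zsmul, degPic_cls, hD1, smul_eq_mul, mul_one, sub_self]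
    have h3 := h1 ⟨_, hz⟩
    have h4 : z = (z - degPic z • cls D1) + degPic z • cls D1 := by abel
    rw [h4, AddChar.map_add_eq_mul, AddChar.map_add_eq_mul, AddChar.map_zsmul_eq_zpow,
      AddChar.map_zsmul_eq_zpow, h2]
    congr 1
  haveI : Finite X := Finite.of_injective R hR
  -- the Kummer map
  choose E h hh hE hcls using exists_pair (k := k) (K := K) (N := N)
  let Q := kˣ ⧸ (powMonoidHom N : kˣ →* kˣ).range
  have hconst : ∀ (c : kˣ), algebraMap k K c ≠ 0 := fun c => by
    rw [ne_eq, map_eq_zero]; exact c.ne_zero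
  have hdc : ∀ (c : kˣ), divf (k := k) (algebraMap k K c) = 0 := by
    intro c
    ext P
    have := v_eq (k := k) (hconst c) P
    rw [P.const _ c.ne_zero, ← exp_zero, exp_inj] at this
    rw [Finsupp.zero_apply]
    omega
  let J : Q × PT k K N → X := fun x =>
    ⟨kum hNm (mul_ne_zero (hconst x.1.out) (hh x.2)) (E := E x.2)
      (by rw [divf_mul (hconst _) (hh _), hdc, zero_add, hE]), kum_pow _ _ _⟩
  have hJ : Function.Injective J := by
    rintro ⟨c, z⟩ ⟨c', z'⟩ heq
    have h1 := congrArg Subtype.val heq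
    obtain ⟨b, hb⟩ := kum_inj hNm (mul_ne_zero (hconst c.out) (hh z))
      (mul_ne_zero (hconst c'.out) (hh z')) (E := E z) (E' := E z')
      (by rw [divf_mul (hconst _) (hh _), hdc, zero_add, hE])
      (by rw [divf_mul (hconst _) (hh _), hdc, zero_add, hE]) h1
    have hb0 : b ≠ 0 := by
      rintro rfl
      rw [zero_pow hN, zero_mul] at hb
      exact mul_ne_zero (hconst c.out) (hh z) hb.symm
    have h2 := congrArg (divf (k := k)) hb
    rw [divf_mul (pow_ne_zero _ hb0) (mul_ne_zero (hconst _) (hh _)), divf_pow hb0,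
      divf_mul (hconst _) (hh _), hdc, zero_add, hE, divf_mul (hconst _) (hh _), hdc, zero_add, hE,
      ← smul_add] at h2
    have h3 : divf (k := k) b + E z' = E z := by
      ext P
      have := DFunLike.congr_fun h2 P
      rw [Finsupp.smul_apply, Finsupp.smul_apply] at this
      exact smul_right_injective ℤ hN this
    have h4 : z = z' := by
      apply Subtype.ext
      apply Multiplicative.toAdd.injective
      apply Subtype.ext
      rw [← hcls, ← hcls, ← h3, map_add, cls_divf hb0, zero_add]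
    subst h4
    have h5 : divf (k := k) b = 0 := by
      have : divf (k := k) b + E z = 0 + E z := by rw [h3, zero_add]
      exact add_right_cancel this
    have h6 := LD_zero_of_divf hb0 h5
    rw [LD_zero hc, Submodule.mem_one] at h6
    obtain ⟨β, rfl⟩ := h6
    have h7 : algebraMap k K (β ^ N * c'.out) = algebraMap k K c.out := by
      rw [map_mul, map_pow]
      have := hb
      rw [← mul_assoc] at this
      exact mul_right_cancel₀ (hh z) this
    have h8 : β ^ N * c'.out = c.out := (algebraMap k K).injective h7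
    have hβ : β ≠ 0 := by
      rintro rfl
      exact hb0 (map_zero _)
    have h9 : (Units.mk0 β hβ) ^ N * c'.out = c.out := by
      apply Units.ext
      exact h8
    have h10 : c = c' := by
      rw [← Quotient.out_eq c, ← Quotient.out_eq c']
      symm
      apply QuotientGroup.eq.mpr
      rw [← h9]
      refine ⟨Units.mk0 β hβ, ?_⟩
      show Units.mk0 β hβ ^ N = _
      rw [mul_comm (Units.mk0 β hβ ^ N), inv_mul_cancel_left]
    rw [h10]
  have hcard : Nat.card X ≤ Nat.card (Q × PT k K N) := by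
    calc Nat.card X ≤ Nat.card (Y × U) := Nat.card_le_card_of_injective R hR
      _ = Nat.card Y * Nat.card U := Nat.card_prod _ _
      _ ≤ Nat.card (PT k K N) * Nat.card U := Nat.mul_le_mul_right _ hY.2
      _ = Nat.card Q * Nat.card (PT k K N) := by
        rw [mul_comm]
        congr 1
        exact (card_quot_pow kˣ N).symm
      _ = _ := (Nat.card_prod _ _).symm
  have hbij := hJ.bijective_of_nat_card_le hcard
  obtain ⟨x, hx⟩ := hbij.2 ⟨ψ, hψ⟩
  exact ⟨algebraMap k K x.1.out * h x.2, mul_ne_zero (hconst _) (hh _), E x.2,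
    by rw [divf_mul (hconst _) (hh _), hdc, zero_add, hE], (congrArg Subtype.val hx).symm⟩

end Crest.Agent.R013.CntA6_560
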