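import Crest.Agent.R013.Comp1_267
import Crest.Agent.R013.Cell4_408

/-! # R013 / Comp2_267 : algebra homs of `BD` are determined by the image of `T`; evaluation of a
composite; associativity; Gauss norm and Weierstrass degree of a composite. -/

set_option autoImplicit false
set_option linter.unusedSectionVars false
set_option linter.style.haveILetI false

noncomputable section

namespace Crest.Agent.R013.Comp_267

open Crest.Agent.R013.Cell_408 Topology PowerSeries

variable {k C : Type*} [NontriviallyNormedField k] [CompleteSpace k] [IsUltrametricDist k]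
  [NormedField C] [IsUltrametricDist C] [NormedAlgebra k C] [Algebra.IsAlgebraic k C] [IsAlgClosed C]

theorem WD.hasW {f : PowerSeries C} {m : ℕ} (hf : WD k f m) : HasW f 1 m :=
  ⟨hf.le, hf.eq, hf.lt⟩

theorem WD.co {f : PowerSeries C} {m : ℕ} (hf : WD k f m) (hm : m ≠ 0) : Co k f :=
  ⟨hf.fin, hf.le, hf.lt 0 (Nat.pos_of_ne_zero hm)⟩

/-- the coordinate of the disc as an element of `BD` -/
def XB : BD k C := ⟨X, X_mem_BD⟩

/-- an element of `BD` vanishing at `s` is divisible by `T - s` -/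
theorem exists_factor (hk : DiscNorm k) (f : BD k C) {s : C} (hs : ‖s‖ < 1)
    (h0 : evp s (f : PowerSeries C) = 0) :
    ∃ g : BD k C, f = (XB - algebraMap C (BD k C) s) * g := by
  by_cases hf : (f : PowerSeries C) = 0
  · exact ⟨0, by rw [mul_zero]; exact Subtype.ext hf⟩
  obtain ⟨c, g, m, hc, hg, hfg, -, -⟩ := exists_normalise hk f.2 hf
  obtain ⟨u, S, hu, -, -, hgu⟩ := hg.exists_roots
  have h1 : s ∈ S := by
    rw [hfg, evp_mul (C_mem_BD c) hg.mem hs, evp_C, mul_eq_zero] at h0
    rcases h0 with h | h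
    · exact absurd h hc
    · rw [hgu, evp_roots_eq_zero hu S hs] at h
      exact h
  obtain ⟨S', rfl⟩ := Multiset.exists_cons_of_mem h1
  refine ⟨⟨PowerSeries.C c * (u * (rootPoly S' : PowerSeries C)),
    mul_mem (C_mem_BD c) (mul_mem hu.mem (coe_mem_BD _))⟩, Subtype.ext ?_⟩
  have h2 : (rootPoly (s ::ₘ S') : Polynomial C) = (Polynomial.X - Polynomial.C s) * rootPoly S' := by
    unfold rootPoly
    rw [Multiset.map_cons, Multiset.prod_cons]
  change (f : PowerSeries C) = (X - PowerSeries.C s) *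
    (PowerSeries.C c * (u * (rootPoly S' : PowerSeries C)))
  rw [hfg, hgu, h2, Polynomial.coe_mul, Polynomial.coe_sub, Polynomial.coe_X, Polynomial.coe_C]
  ring

/-- an algebra hom `BD → C` is the evaluation at the image of `T` -/
theorem algHom_eq_evp (hk : DiscNorm k) (φ : BD k C →ₐ[C] C) (hs : ‖φ XB‖ < 1) (f : BD k C) :
    φ f = evp (φ XB) (f : PowerSeries C) := by
  set s := φ XB with hsd
  have h1 : evp s ((f - algebraMap C (BD k C) (evp s (f : PowerSeries C)) : BD k C) :
      PowerSeries C) = 0 := by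
    have h2 : ev (k := k) s hs (f - algebraMap C (BD k C) (evp s (f : PowerSeries C))) = 0 := by
      rw [map_sub, AlgHom.commutes]
      exact sub_self _
    exact h2
  obtain ⟨g, hg⟩ := exists_factor hk _ hs h1
  have h3 := congrArg φ hg
  rw [map_sub, map_mul, map_sub, AlgHom.commutes, AlgHom.commutes, ← hsd] at h3
  simp only [Algebra.algebraMap_self, RingHom.id_apply, sub_self, zero_mul] at h3
  exact sub_eq_zero.1 h3

theorem Co.norm_evp {f : PowerSeries C} (hf : Co k f) {t : C} (ht : ‖t‖ < 1) : ‖evp t f‖ < 1 := by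
  refine norm_hasSum_lt (summable_ev hf.mem ht).hasSum one_pos fun n => ?_
  rw [norm_mul, norm_pow]
  rcases Nat.eq_zero_or_pos n with rfl | hn
  · rw [pow_zero, mul_one]; exact hf.lt
  · calc _ ≤ 1 * ‖t‖ ^ n := mul_le_mul_of_nonneg_right (hf.le n) (pow_nonneg (norm_nonneg _) _)
      _ < 1 := by
        rw [one_mul]; exact pow_lt_one₀ (norm_nonneg _) ht (by omega)

theorem comp_X (f : PowerSeries C) (hf : Co k f) : comp f hf XB = ⟨f, hf.mem⟩ :=
  Subtype.ext (compS_X f)

/-- evaluation of a composite -/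
theorem evp_compS (hk : DiscNorm k) {f g : PowerSeries C} (hf : Co k f) (hg : g ∈ BD k C) {t : C}
    (ht : ‖t‖ < 1) : evp t (compS f g) = evp (evp t f) g := by
  have h1 := algHom_eq_evp hk ((ev (k := k) t ht).comp (comp f hf)) (by
    rw [AlgHom.comp_apply, comp_X]
    exact hf.norm_evp ht) ⟨g, hg⟩
  rw [AlgHom.comp_apply, AlgHom.comp_apply, comp_X] at h1
  exact h1

theorem evp_comp (hk : DiscNorm k) {f : PowerSeries C} (hf : Co k f) (g : BD k C) {t : C}
    (ht : ‖t‖ < 1) : evp t (comp f hf g : PowerSeries C) = evp (evp t f) (g : PowerSeries C) :=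
  evp_compS hk hf g.2 ht

theorem ev_comp (hk : DiscNorm k) {f : PowerSeries C} (hf : Co k f) (g : BD k C) {t : C}
    (ht : ‖t‖ < 1) : ev (k := k) t ht (comp f hf g) = ev (evp t f) (hf.norm_evp ht) g :=
  evp_comp hk hf g ht

/-- an algebra endomorphism of `BD` is the composition with the image of `T` -/
theorem algHom_eq_comp (hk : DiscNorm k) (φ : BD k C →ₐ[C] BD k C)
    (hf : Co k (φ XB : PowerSeries C)) : φ = comp (φ XB : PowerSeries C) hf := by
  ext1 g
  refine Subtype.ext (evp_ext' hk (φ g).2 (comp _ hf g).2 fun t ht => ?_)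
  rw [evp_comp hk hf g ht]
  have h1 := algHom_eq_evp hk ((ev (k := k) t ht).comp φ) (hf.norm_evp ht) g
  exact h1

theorem Co.comp {f g : PowerSeries C} (hf : Co k f) (hg : Co k g) : Co k (compS f g) := by
  refine ⟨(compS_mem hf hg.mem).1, compS_le hf hg.mem hg.le, ?_⟩
  refine norm_hasSum_lt (hasSum_comp hf hg.mem 0) one_pos fun m => ?_
  rw [norm_mul]
  rcases Nat.eq_zero_or_pos m with rfl | hm
  · rw [pow_zero, coeff_zero_one, norm_one, mul_one]; exact hg.lt
  · have h1 := coeff_pow_le hf.le m 0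
    rw [Nat.sub_zero] at h1
    calc _ ≤ 1 * ‖coeff 0 f‖ ^ m := mul_le_mul (hg.le m) h1 (norm_nonneg _) zero_le_one
      _ < 1 := by rw [one_mul]; exact pow_lt_one₀ (norm_nonneg _) hf.lt (by omega)

/-- associativity of composition -/
theorem compS_compS (hk : DiscNorm k) {f g h : PowerSeries C} (hf : Co k f) (hg : Co k g)
    (hh : h ∈ BD k C) : compS f (compS g h) = compS (compS f g) h := by
  have h1 := algHom_eq_comp hk ((comp f hf).comp (comp g hg)) (by
    rw [AlgHom.comp_apply, comp_X]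
    exact hf.comp hg)
  have h2 := congrArg (fun φ => ((φ ⟨h, hh⟩ : BD k C) : PowerSeries C)) h1
  simp only [AlgHom.comp_apply, comp_X] at h2
  exact h2

/-- Gauss norm and Weierstrass degree of a composite -/
theorem HasW.comp {f g : PowerSeries C} {m s : ℕ} {r : ℝ} (hf : WD k f m) (hm : m ≠ 0)
    (hg : HasW g r s) (hgB : g ∈ BD k C) (hr : 0 < r) : HasW (compS f g) r (s * m) := by
  classical
  have hco := WD.co hf hm
  have hfW := WD.hasW hf
  have hle : ∀ j l, ‖coeff l (f ^ j)‖ ≤ 1 := fun j l =>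
    (coeff_pow_le hf.le j l).trans (pow_le_one₀ (norm_nonneg _) (hf.le 0))
  have hpow : ∀ j l, l < j * m → ‖coeff l (f ^ j)‖ < 1 := fun j l hl => by
    have := (hfW.pow one_pos j).lt l hl
    rwa [one_pow] at this
  have hterm : ∀ j l, (j < s ∨ l < j * m) → ‖coeff j g * coeff l (f ^ j)‖ < r := by
    intro j l hjl
    rw [norm_mul]
    rcases hjl with h | h
    · calc _ ≤ ‖coeff j g‖ * 1 := mul_le_mul_of_nonneg_left (hle _ _) (norm_nonneg _)
        _ < r := by rw [mul_one]; exact hg.lt j h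
    · calc _ ≤ r * ‖coeff l (f ^ j)‖ := mul_le_mul_of_nonneg_right (hg.le _) (norm_nonneg _)
        _ < r * 1 := mul_lt_mul_of_pos_left (hpow j l h) hr
        _ = r := mul_one r
  refine ⟨compS_le hco hgB hg.le, ?_, fun l hl => ?_⟩
  · have h1 := hasSum_ite_sub_hasSum (hasSum_comp hco hgB (s * m)) s
    have h2 : ‖coeff s g * coeff (s * m) (f ^ s)‖ = r := by
      rw [norm_mul, hg.eq]
      have := (hfW.pow one_pos s).eq
      rw [this, one_pow, mul_one]
    have h3 : ‖coeff (s * m) (compS f g) - coeff s g * coeff (s * m) (f ^ s)‖ < r := by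
      refine norm_hasSum_lt h1 hr fun j => ?_
      split_ifs with hj
      · rw [norm_zero]; exact hr
      · rcases lt_or_gt_of_ne hj with h | h
        · exact hterm j _ (Or.inl h)
        · exact hterm j _ (Or.inr (Nat.mul_lt_mul_of_pos_right h (Nat.pos_of_ne_zero hm)))
    have e : coeff (s * m) (compS f g) = coeff s g * coeff (s * m) (f ^ s) +
        (coeff (s * m) (compS f g) - coeff s g * coeff (s * m) (f ^ s)) := by ring
    rw [e, norm_add_eq, h2]
    rw [h2]; exact h3
  · refine norm_hasSum_lt (hasSum_comp hco hgB l) hr fun j => ?_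
    rcases lt_or_ge j s with h | h
    · exact hterm j l (Or.inl h)
    · exact hterm j l (Or.inr (hl.trans_le (Nat.mul_le_mul_right m h)))

theorem exists_hasW (hk : DiscNorm k) {g : PowerSeries C} (hg : g ∈ BD k C) (h0 : g ≠ 0) :
    ∃ (r : ℝ) (s : ℕ), 0 < r ∧ HasW g r s := by
  obtain ⟨c, g1, s, hc, hg1, hgg, -, -⟩ := exists_normalise hk hg h0
  refine ⟨‖c‖, s, norm_pos_iff.2 hc, ?_⟩
  have := (WD.hasW hg1).smul hc
  rwa [mul_one, ← hgg] at this

theorem comp_injective (hk : DiscNorm k) {f : PowerSeries C} {m : ℕ} (hf : WD k f m) (hm : m ≠ 0) :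
    Function.Injective (comp f (WD.co hf hm)) := by
  rw [injective_iff_map_eq_zero]
  intro g hg
  by_contra h0
  have h1 : (g : PowerSeries C) ≠ 0 := fun h => h0 (Subtype.ext h)
  obtain ⟨r, s, hr, hW⟩ := exists_hasW hk g.2 h1
  exact (HasW.comp hf hm hW g.2 hr).ne_zero hr (congrArg Subtype.val hg)

/-- linear independence of `1, T, …, T^(m-1)` over `comp f BD`, with norms -/
theorem hasW_repr (hk : DiscNorm k) {f : PowerSeries C} {m : ℕ} (hf : WD k f m) (hm : m ≠ 0)
    (A : ℕ → PowerSeries C) (hA : ∀ i, A i ∈ BD k C) (h0 : ∃ i < m, A i ≠ 0) :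
    ∃ (r : ℝ) (n : ℕ), 0 < r ∧ HasW (∑ i ∈ Finset.range m, X ^ i * compS f (A i)) r n ∧
      (∀ i < m, ∀ j, ‖coeff j (A i)‖ ≤ r) ∧ ∃ i < m, ∃ s, HasW (A i) r s ∧ n = i + s * m := by
  classical
  choose! r s hr hW using fun i (hi : A i ≠ 0) => exists_hasW hk (hA i) hi
  set S := (Finset.range m).filter fun i => A i ≠ 0 with hS
  have hne : S.Nonempty := by
    obtain ⟨i, hi, hi0⟩ := h0
    exact ⟨i, by simp [hS, hi, hi0]⟩
  have hSm : ∀ i ∈ S, i < m ∧ A i ≠ 0 := fun i hi => by simpa [hS] using hi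
  have h1 : ∀ i ∈ S, HasW (X ^ i * compS f (A i)) (r i) (i + s i * m) := by
    intro i hi
    have h2 := (hasW_X (C := C)).pow one_pos i
    have h3 := HasW.comp hf hm (hW i (hSm i hi).2) (hA i) (hr i (hSm i hi).2)
    have h4 := h2.mul h3 (pow_pos one_pos _) (hr i (hSm i hi).2)
    rwa [one_pow, one_mul, mul_one] at h4
  obtain ⟨i, hi, hmax, hWi⟩ := hasW_sum S hne (fun i => X ^ i * compS f (A i)) r
    (fun i => i + s i * m) h1 (fun i hi => hr i (hSm i hi).2) (by
      intro i hi j hj hij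
      have h5 := congrArg (· % m) hij
      simp only [Nat.add_mul_mod_self_right] at h5
      rwa [Nat.mod_eq_of_lt (hSm i hi).1, Nat.mod_eq_of_lt (hSm j hj).1] at h5)
  have hsum : ∑ i ∈ Finset.range m, X ^ i * compS f (A i) = ∑ i ∈ S, X ^ i * compS f (A i) := by
    rw [hS, Finset.sum_filter]
    refine Finset.sum_congr rfl fun j _ => ?_
    split_ifs with h6
    · rfl
    · push Not at h6
      rw [h6, ← map_zero (PowerSeries.C (R := C)), compS_C, map_zero, mul_zero]
  refine ⟨r i, i + s i * m, hr i (hSm i hi).2, hsum ▸ hWi, fun j hj l => ?_,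
    i, (hSm i hi).1, s i, hW i (hSm i hi).2, rfl⟩
  by_cases h7 : A j = 0
  · rw [h7, map_zero, norm_zero]; exact (hr i (hSm i hi).2).le
  · exact ((hW j h7).le l).trans (hmax j (by simp [hS, hj, h7]))

theorem repr_unique (hk : DiscNorm k) {f : PowerSeries C} {m : ℕ} (hf : WD k f m) (hm : m ≠ 0)
    (A : ℕ → PowerSeries C) (hA : ∀ i, A i ∈ BD k C)
    (h : ∑ i ∈ Finset.range m, X ^ i * compS f (A i) = 0) : ∀ i < m, A i = 0 := by
  intro i hi
  by_contra h0
  obtain ⟨r, n, hr, hW, -⟩ := hasW_repr hk hf hm A hA ⟨i, hi, h0⟩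
  exact hW.ne_zero hr h

end Crest.Agent.R013.Comp_267
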