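import Crest.Agent.R013.Comp2_267

/-! # R013 / Comp3_267 : `BD` is free over `comp f BD` with basis `1, T, …, T^(m-1)`
(iterated Weierstrass division by `f`). -/

set_option autoImplicit false
set_option linter.unusedSectionVars false
set_option linter.style.haveILetI false

noncomputable section

namespace Crest.Agent.R013.Comp_267

open Crest.Agent.R013.Cell_408 Topology PowerSeries

section Ball

variable {K : Type*} [NormedField K] [IsUltrametricDist K]

/-- Weierstrass division over the unit ball -/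
theorem exists_wdiv [CompleteSpace K] (hK : ∃ x : K, 0 < ‖x‖ ∧ ‖x‖ < 1)
    (f : PowerSeries (Ob K)) (m0 : ℕ)
    (hlt : ∀ m < m0, ‖((coeff m f : Ob K) : K)‖ < 1)
    (hm0 : ‖((coeff m0 f : Ob K) : K)‖ = 1) (g : PowerSeries (Ob K)) :
    ∃ (q : PowerSeries (Ob K)) (r : Polynomial (Ob K)), r.degree < m0 ∧
      g = f * q + (r : PowerSeries (Ob K)) := by
  obtain ⟨ϖ, h0, h1, h2⟩ := exists_bound hK m0 (fun m => coeff m f) hlt
  have hI : ∀ a : Ob K, a ∈ Ideal.span {ϖ} ↔ ‖(a : K)‖ ≤ ‖(ϖ : K)‖ := fun a => by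
    rw [Ideal.mem_span_singleton, dvd_iff h0]
  have := isAdicComplete_span ϖ h1
  set I : Ideal (Ob K) := Ideal.span {ϖ} with hIdef
  have hord : (f.map (Ideal.Quotient.mk I)).order = (m0 : ℕ∞) := by
    rw [PowerSeries.order_eq_nat]
    constructor
    · rw [PowerSeries.coeff_map, Ne, Ideal.Quotient.eq_zero_iff_mem, hI, hm0]
      exact not_le.2 h1
    · intro i hi
      rw [PowerSeries.coeff_map, Ideal.Quotient.eq_zero_iff_mem, hI]
      exact h2 i hi
  have hto : (f.map (Ideal.Quotient.mk I)).order.toNat = m0 := by rw [hord]; rfl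
  have hW : PowerSeries.IsWeierstrassDivisorAt f I := by
    unfold PowerSeries.IsWeierstrassDivisorAt
    rw [hto, Ob_isUnit_iff]
    exact hm0
  have hdiv := hW.isWeierstrassDivisionAt_div_mod g
  refine ⟨hW.div g, hW.mod g, ?_, hdiv.eq_mul_add⟩
  have := hdiv.degree_lt
  rwa [hto] at this

end Ball

variable {k C : Type*} [NontriviallyNormedField k] [CompleteSpace k] [IsUltrametricDist k]
  [NormedField C] [IsUltrametricDist C] [NormedAlgebra k C] [Algebra.IsAlgebraic k C] [IsAlgClosed C]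

omit [CompleteSpace k] [IsUltrametricDist k] [Algebra.IsAlgebraic k C] [IsAlgClosed C]
  [NontriviallyNormedField k] [NormedAlgebra k C] in
theorem norm_sub_le_mx (a b : C) : ‖a - b‖ ≤ max ‖a‖ ‖b‖ := by
  have := IsUltrametricDist.norm_add_le_max a (-b)
  rwa [norm_neg, ← sub_eq_add_neg] at this

theorem coeff_pow_mul_small {f b : PowerSeries C}
    (hf : ∀ n, ‖coeff n f‖ ≤ 1) (hb : ∀ n, ‖coeff n b‖ ≤ 1) (N n : ℕ) :
    ‖coeff n (f ^ N * b)‖ ≤ ‖coeff 0 f‖ ^ (N - n) := by
  have h0 : 0 ≤ ‖coeff 0 f‖ := norm_nonneg _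
  rw [coeff_mul]
  refine norm_sum_le _ _ (pow_nonneg h0 _) fun p hp => ?_
  rw [Finset.HasAntidiagonal.mem_antidiagonal] at hp
  rw [norm_mul]
  calc _ ≤ ‖coeff 0 f‖ ^ (N - p.1) * 1 :=
        mul_le_mul (coeff_pow_le hf N p.1) (hb _) (norm_nonneg _) (pow_nonneg h0 _)
    _ = ‖coeff 0 f‖ ^ (N - p.1) := mul_one _
    _ ≤ _ := pow_le_pow_of_le_one h0 (hf 0) (by omega)

theorem eq_of_pow_mul {f g : PowerSeries C} (hf : Co k f)
    (h : ∀ N : ℕ, ∃ b : PowerSeries C, (∀ n, ‖coeff n b‖ ≤ 1) ∧ g = f ^ N * b) : g = 0 := by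
  ext n
  rw [map_zero, ← norm_le_zero_iff]
  have h1 : Filter.Tendsto (fun N : ℕ => ‖coeff 0 f‖ ^ N) Filter.atTop (𝓝 0) :=
    tendsto_pow_atTop_nhds_zero_of_lt_one (norm_nonneg _) hf.lt
  refine ge_of_tendsto' h1 fun N => ?_
  obtain ⟨b, hb, hg⟩ := h (N + n)
  rw [hg]
  have h2 := coeff_pow_mul_small hf.le hb (N + n) n
  rwa [Nat.add_sub_cancel] at h2

/-- the shifted series -/
def shf (N : ℕ) (A : PowerSeries C) : PowerSeries C := PowerSeries.mk fun i => coeff (i + N) A

omit [CompleteSpace k] [IsUltrametricDist k] [Algebra.IsAlgebraic k C] [IsAlgClosed C]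
  [IsUltrametricDist C] [NontriviallyNormedField k] [NormedAlgebra k C] in
theorem shf_eq (N : ℕ) (A : PowerSeries C) :
    A = (∑ j ∈ Finset.range N, PowerSeries.C (coeff j A) * X ^ j) + X ^ N * shf N A := by
  conv_lhs => rw [A.eq_X_pow_mul_shift_add_trunc N]
  rw [add_comm]
  congr 1
  ext n
  rw [Polynomial.coeff_coe, coeff_trunc, map_sum]
  simp only [coeff_C_mul_X_pow]
  rw [Finset.sum_ite_eq]
  simp

theorem shf_mem (N : ℕ) {A : PowerSeries C} (hA : A ∈ BD k C) : shf N A ∈ BD k C := by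
  obtain ⟨⟨L, hL, h1⟩, M, h2⟩ := hA
  refine ⟨⟨L, hL, fun n => ?_⟩, M, fun n => ?_⟩
  · dsimp only
    rw [shf, coeff_mk]; exact h1 _
  · rw [shf, coeff_mk]; exact h2 _

theorem compS_shf {f : PowerSeries C} (hf : Co k f) {A : PowerSeries C} (hA : A ∈ BD k C) (N : ℕ) :
    compS f A = (∑ j ∈ Finset.range N, PowerSeries.C (coeff j A) * f ^ j) +
      f ^ N * compS f (shf N A) := by
  have h1 : (⟨A, hA⟩ : BD k C) = (∑ j ∈ Finset.range N,
      algebraMap C (BD k C) (coeff j A) * XB ^ j) + XB ^ N * ⟨shf N A, shf_mem N hA⟩ := by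
    refine Subtype.ext ?_
    rw [AddMemClass.coe_add, AddSubmonoidClass.coe_finsetSum]
    exact shf_eq N A
  have h2 := congrArg (comp f hf) h1
  simp only [map_add, map_sum, map_mul, map_pow, comp_X, AlgHom.commutes] at h2
  have h3 := congrArg Subtype.val h2
  rw [AddMemClass.coe_add, AddSubmonoidClass.coe_finsetSum] at h3
  exact h3

/-- **representation**, integral form: every `g` with `|g_n| ≤ 1` is `∑_{i<m} T^i (A_i ∘ f)` -/
theorem exists_repr_le {f : PowerSeries C} {m : ℕ} (hf : WD k f m) (hm : m ≠ 0)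
    {g : PowerSeries C} (hg : FinDef k fun n => coeff n g) (hg1 : ∀ n, ‖coeff n g‖ ≤ 1) :
    ∃ A : ℕ → PowerSeries C, (∀ i, A i ∈ BD k C) ∧ (∀ i n, ‖coeff n (A i)‖ ≤ 1) ∧
      g = ∑ i ∈ Finset.range m, X ^ i * compS f (A i) := by
  classical
  have hco := WD.co hf hm
  obtain ⟨L, hL, hfL, hgL⟩ := hf.fin.common hg
  haveI : CompleteSpace L := completeSpace_mem L
  have hK : ∃ x : L, 0 < ‖x‖ ∧ ‖x‖ < 1 := by
    obtain ⟨x, hx0, hx1⟩ := NormedField.exists_norm_lt_one k
    refine ⟨algebraMap k L x, ?_, ?_⟩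
    · rw [norm_algebraMap']; exact hx0
    · rw [norm_algebraMap']; exact hx1
  let f0 : PowerSeries (Ob L) := PowerSeries.mk fun n => ⟨⟨coeff n f, hfL n⟩, hf.le n⟩
  let g0 : PowerSeries (Ob L) := PowerSeries.mk fun n => ⟨⟨coeff n g, hgL n⟩, hg1 n⟩
  have hf0 : PowerSeries.map (ballMap L) f0 = f := by
    ext n; rw [PowerSeries.coeff_map, coeff_mk]; rfl
  have hg0 : PowerSeries.map (ballMap L) g0 = g := by
    ext n; rw [PowerSeries.coeff_map, coeff_mk]; rfl
  have hdiv := exists_wdiv hK f0 m (fun n hn => by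
      rw [← norm_ballMap, ← PowerSeries.coeff_map, hf0]; exact hf.lt n hn)
    (by rw [← norm_ballMap, ← PowerSeries.coeff_map, hf0]; exact hf.eq)
  choose D R hR hD using hdiv
  -- iterated quotients
  let q : ℕ → PowerSeries (Ob L) := fun j => D^[j] g0
  have hq : ∀ j, q j = f0 * q (j + 1) + (R (q j) : PowerSeries (Ob L)) := by
    intro j
    have h1 : q (j + 1) = D (q j) := Function.iterate_succ_apply' D j g0
    rw [h1]
    exact hD (q j)
  have hqN : ∀ N : ℕ, g0 = (∑ j ∈ Finset.range N, f0 ^ j * (R (q j) : PowerSeries (Ob L))) +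
      f0 ^ N * q N := by
    intro N
    induction N with
    | zero => simp [q]
    | succ N ih =>
      rw [Finset.sum_range_succ, ih]
      conv_lhs => rw [hq N]
      ring
  let A0 : ℕ → PowerSeries (Ob L) := fun i => PowerSeries.mk fun j => (R (q j)).coeff i
  let A : ℕ → PowerSeries C := fun i => PowerSeries.map (ballMap L) (A0 i)
  have hAc : ∀ i j, coeff j (A i) = ballMap L ((R (q j)).coeff i) := by
    intro i j
    change coeff j (PowerSeries.map (ballMap L) (A0 i)) = _
    rw [PowerSeries.coeff_map, coeff_mk]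
  have hA1 : ∀ i j, ‖coeff j (A i)‖ ≤ 1 := by
    intro i j
    rw [hAc, norm_ballMap]; exact Ob_norm_le_one _
  have hAB : ∀ i, A i ∈ BD k C := fun i =>
    ⟨⟨L, hL, fun j => by
      dsimp only
      rw [hAc, ballMap_apply]; exact Subtype.mem _⟩, 1, hA1 i⟩
  refine ⟨A, hAB, hA1, ?_⟩
  rw [← sub_eq_zero]
  refine eq_of_pow_mul hco fun N => ?_
  refine ⟨PowerSeries.map (ballMap L) (q N) -
    ∑ i ∈ Finset.range m, X ^ i * compS f (shf N (A i)), fun n => ?_, ?_⟩
  · rw [map_sub]
    refine (norm_sub_le_mx _ _).trans (max_le ?_ ?_)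
    · rw [PowerSeries.coeff_map, norm_ballMap]; exact Ob_norm_le_one _
    · rw [map_sum]
      refine norm_sum_le _ _ zero_le_one fun i _ => ?_
      rw [coeff_X_pow_mul']
      split_ifs
      · refine compS_le hco (shf_mem N (hAB i)) (fun l => ?_) _
        rw [shf, coeff_mk]; exact hA1 i _
      · rw [norm_zero]; exact zero_le_one
  · have h1 : g = (∑ j ∈ Finset.range N, f ^ j * ∑ i ∈ Finset.range m,
        X ^ i * PowerSeries.C (coeff j (A i))) + f ^ N * PowerSeries.map (ballMap L) (q N) := by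
      rw [← hg0]
      conv_lhs => rw [hqN N]
      rw [map_add, map_sum, map_mul, map_pow, hf0]
      congr 1
      refine Finset.sum_congr rfl fun j _ => ?_
      rw [map_mul, map_pow, hf0]
      congr 1
      ext n
      rw [PowerSeries.coeff_map, Polynomial.coeff_coe, map_sum]
      have h2 : ∀ i, coeff n (X ^ i * PowerSeries.C (coeff j (A i))) =
          if n = i then coeff j (A i) else 0 := by
        intro i
        rw [mul_comm, coeff_C_mul_X_pow]
      simp only [h2]
      rw [Finset.sum_ite_eq]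
      split_ifs with h3
      · rw [hAc]
      · rw [Polynomial.coeff_eq_zero_of_degree_lt, map_zero]
        refine (hR (q j)).trans_le ?_
        rw [Finset.mem_range, not_lt] at h3
        exact_mod_cast h3
    have h2 : ∑ i ∈ Finset.range m, X ^ i * compS f (A i) =
        (∑ j ∈ Finset.range N, f ^ j * ∑ i ∈ Finset.range m,
          X ^ i * PowerSeries.C (coeff j (A i))) +
        f ^ N * ∑ i ∈ Finset.range m, X ^ i * compS f (shf N (A i)) := by
      have h3 : ∀ i ∈ Finset.range m, X ^ i * compS f (A i) =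
          (∑ j ∈ Finset.range N, f ^ j * (X ^ i * PowerSeries.C (coeff j (A i)))) +
          f ^ N * (X ^ i * compS f (shf N (A i))) := by
        intro i _
        conv_lhs => rw [compS_shf hco (hAB i) N]
        rw [mul_add, Finset.mul_sum]
        congr 1
        · exact Finset.sum_congr rfl fun j _ => by ring
        · ring
      rw [Finset.sum_congr rfl h3, Finset.sum_add_distrib, Finset.sum_comm, ← Finset.mul_sum]
      congr 1
      exact Finset.sum_congr rfl fun j _ => by rw [Finset.mul_sum]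
    rw [h2]
    conv_lhs => rw [h1]
    ring

/-- **representation**: every `g ∈ BD` is `∑_{i<m} T^i (A_i ∘ f)` with `A_i ∈ BD` -/
theorem exists_repr (hk : DiscNorm k) {f : PowerSeries C} {m : ℕ} (hf : WD k f m) (hm : m ≠ 0)
    {g : PowerSeries C} (hg : g ∈ BD k C) :
    ∃ A : ℕ → PowerSeries C, (∀ i, A i ∈ BD k C) ∧
      g = ∑ i ∈ Finset.range m, X ^ i * compS f (A i) := by
  by_cases h0 : g = 0
  · refine ⟨fun _ => 0, fun _ => zero_mem _, ?_⟩
    have h1 : compS f (0 : PowerSeries C) = 0 := by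
      rw [← map_zero (PowerSeries.C (R := C)), compS_C]
    simp [h0, h1]
  · obtain ⟨c, g1, s, hc, hg1, hgg, -, -⟩ := exists_normalise hk hg h0
    obtain ⟨A, hA, -, hA2⟩ := exists_repr_le hf hm hg1.fin hg1.le
    refine ⟨fun i => PowerSeries.C c * A i, fun i => mul_mem (C_mem_BD c) (hA i), ?_⟩
    rw [hgg]
    conv_lhs => rw [hA2]
    rw [Finset.mul_sum]
    refine Finset.sum_congr rfl fun i _ => ?_
    rw [compS_mul (WD.co hf hm) (C_mem_BD c) (hA i), compS_C]
    ring

end Crest.Agent.R013.Comp_267
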