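import Mathlib

/-!
Row 13 (S0015), step (II) of post 184: coprime action in profinite groups.
Pure group theory, Mathlib only (helper658).
-/

set_option autoImplicit false
set_option linter.unusedSectionVars false
set_option linter.style.haveILetI false

namespace Crest.Agent.R013.Cop_658

section basics

variable {G : Type*} [Group G] [TopologicalSpace G] [IsTopologicalGroup G] [CompactSpace G]
  [TotallyDisconnectedSpace G]

/-- pro-`r` element: some `r`-power power of `g` lies in every open normal subgroup. -/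
def ProEl (r : ℕ) (g : G) : Prop := ∀ M : OpenNormalSubgroup G, ∃ n : ℕ, g ^ r ^ n ∈ M

omit [CompactSpace G] [TotallyDisconnectedSpace G] in
theorem isClosed_open (M : OpenNormalSubgroup G) : IsClosed ((M : Set G)) :=
  M.toOpenSubgroup.isClosed

/-- the whole group as an open normal subgroup -/
def topN (G : Type*) [Group G] [TopologicalSpace G] : OpenNormalSubgroup G where
  toOpenSubgroup := ⊤
  isNormal' := by
    show (⊤ : Subgroup G).Normal
    infer_instance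

instance : Nonempty (OpenNormalSubgroup G) := ⟨topN G⟩

omit [IsTopologicalGroup G] [CompactSpace G] [TotallyDisconnectedSpace G] in
theorem mem_inf {M N : OpenNormalSubgroup G} {g : G} : g ∈ M ⊓ N ↔ g ∈ M ∧ g ∈ N := Iff.rfl

theorem mem_closed {C : Set G} (hC : IsClosed C) {g : G}
    (h : ∀ M : OpenNormalSubgroup G, ∃ c ∈ C, c⁻¹ * g ∈ M) : g ∈ C := by
  by_contra hg
  have hU : IsOpen ((fun x : G => g * x⁻¹) ⁻¹' Cᶜ) :=
    hC.isOpen_compl.preimage (by fun_prop)
  obtain ⟨M, hM⟩ := ProfiniteGrp.exist_openNormalSubgroup_sub_open_nhds_of_one hU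
    (by simpa using hg)
  obtain ⟨c, hc, hcM⟩ := h M
  have := hM hcM
  simp only [mul_inv_rev, inv_inv, Set.preimage_compl, Set.mem_compl_iff, Set.mem_preimage,
    mul_inv_cancel_left] at this
  exact this hc

theorem eq_one_of_forall {g : G} (h : ∀ M : OpenNormalSubgroup G, g ∈ M) : g = 1 := by
  have : g ∈ ({1} : Set G) := mem_closed isClosed_singleton (fun M => ⟨1, rfl, by simpa using h M⟩)
  simpa using this

/-- compactness: a family of nonempty closed sets indexed by the open normal subgroups,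
compatible with inclusions, has a common point. -/
theorem exists_common (F : OpenNormalSubgroup G → Set G) (hcl : ∀ M, IsClosed (F M))
    (hne : ∀ M, (F M).Nonempty) (hmono : ∀ M N : OpenNormalSubgroup G,
      (∀ g, g ∈ N → g ∈ M) → F N ⊆ F M) : ∃ g, ∀ M, g ∈ F M := by
  have := IsCompact.nonempty_iInter_of_directed_nonempty_isCompact_isClosed F
    (fun M N => ⟨M ⊓ N, hmono _ _ (fun g hg => (mem_inf.1 hg).1),
      hmono _ _ (fun g hg => (mem_inf.1 hg).2)⟩) hne (fun M => (hcl M).isCompact) hcl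
  obtain ⟨g, hg⟩ := this
  exact ⟨g, fun M => Set.mem_iInter.1 hg M⟩

theorem mk_eq_iff (M : OpenNormalSubgroup G) {a b : G} :
    (QuotientGroup.mk' M.toSubgroup a = QuotientGroup.mk' M.toSubgroup b) ↔ a⁻¹ * b ∈ M := by
  rw [QuotientGroup.mk'_apply, QuotientGroup.mk'_apply, QuotientGroup.eq]
  rfl

theorem mk_eq_one_iff (M : OpenNormalSubgroup G) {a : G} :
    (QuotientGroup.mk' M.toSubgroup a = 1) ↔ a ∈ M := by
  rw [QuotientGroup.mk'_apply, QuotientGroup.eq_one_iff]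
  rfl

end basics

section coprime

variable {G : Type*} [Group G] [TopologicalSpace G] [IsTopologicalGroup G] [CompactSpace G]
  [TotallyDisconnectedSpace G]

/-- finite version -/
theorem finite_fixed {Q : Type*} [Group Q] [Finite Q] {l p : ℕ} [Fact l.Prime] [Fact p.Prime]
    (hlp : l ≠ p) {K : Subgroup Q} (hK : IsPGroup p K) {ψ u : Q} {n : ℕ} (hψ : ψ ^ l ^ n = 1)
    (hinv : ∀ c, u⁻¹ * c ∈ K → u⁻¹ * (ψ * c * ψ⁻¹) ∈ K) :
    ∃ c, u⁻¹ * c ∈ K ∧ ψ * c * ψ⁻¹ = c := by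
  classical
  let X := {c : Q // u⁻¹ * c ∈ K}
  haveI : Finite X := inferInstance
  haveI : Fintype X := Fintype.ofFinite X
  let f : Function.End X := fun c => ⟨ψ * c.1 * ψ⁻¹, hinv c.1 c.2⟩
  have hpow : ∀ (m : ℕ) (c : X), ((f ^ m : Function.End X) c).1 = ψ ^ m * c.1 * (ψ ^ m)⁻¹ := by
    intro m
    induction m with
    | zero => intro c; rw [pow_zero, pow_zero]; simp only [one_mul, inv_one, mul_one]; rfl
    | succ m ih =>
      intro c
      have h1 : (f ^ (m + 1) : Function.End X) c = f ((f ^ m : Function.End X) c) := by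
        rw [pow_succ']; rfl
      rw [h1]
      show ψ * ((f ^ m : Function.End X) c).1 * ψ⁻¹ = _
      rw [ih c]
      group
  have hf : f ^ l ^ n = 1 := by
    funext c
    apply Subtype.ext
    rw [hpow, hψ]
    simp only [one_mul, inv_one, mul_one]; rfl
  have hmod := Equiv.Perm.card_fixedPoints_modEq (p := l) (n := n) hf
  have hcard : Fintype.card X = Nat.card K := by
    rw [← Nat.card_eq_fintype_card]
    refine Nat.card_congr ⟨fun c => ⟨u⁻¹ * c.1, c.2⟩, fun k => ⟨u * k.1, by simp⟩, ?_, ?_⟩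
    · intro c; apply Subtype.ext; simp
    · intro k; apply Subtype.ext; simp
  obtain ⟨a, ha⟩ := (IsPGroup.iff_card).mp hK
  have hne : Fintype.card (Function.fixedPoints f) ≠ 0 := by
    intro h0
    rw [h0, hcard, ha] at hmod
    have : l ∣ p ^ a := (Nat.modEq_zero_iff_dvd).1 hmod
    have h2 := (Nat.Prime.dvd_of_dvd_pow (Fact.out : l.Prime) this)
    exact hlp ((Nat.prime_dvd_prime_iff_eq Fact.out Fact.out).1 h2)
  obtain ⟨c⟩ : Nonempty (Function.fixedPoints f) := by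
    by_contra hcon
    rw [not_nonempty_iff] at hcon
    exact hne (Fintype.card_eq_zero)
  refine ⟨c.1.1, c.1.2, ?_⟩
  have := c.2
  exact congrArg Subtype.val this

/-- **Coprime action.** If `K` is a closed pro-`p` subgroup, `ψ` a pro-`l` element (`l ≠ p`) and
conjugation by `ψ` maps the coset `uK` into itself, then `ψ` commutes with an element of `uK`. -/
theorem exists_commute {K : Subgroup G} (hK : IsClosed (K : Set G)) {l p : ℕ} [Fact l.Prime]
    [Fact p.Prime] (hlp : l ≠ p) (hKp : ∀ g ∈ K, ProEl p g) {ψ u : G} (hψ : ProEl l ψ)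
    (hinv : ∀ c, u⁻¹ * c ∈ K → u⁻¹ * (ψ * c * ψ⁻¹) ∈ K) :
    ∃ c, u⁻¹ * c ∈ K ∧ c * ψ = ψ * c := by
  obtain ⟨c, hc⟩ := exists_common
    (fun M : OpenNormalSubgroup G => {c : G | u⁻¹ * c ∈ K ∧ c⁻¹ * (ψ * c * ψ⁻¹) ∈ M})
    (fun M => by
      apply IsClosed.inter
      · exact hK.preimage (f := fun c => u⁻¹ * c) (by fun_prop)
      · exact (isClosed_open M).preimage (f := fun c => c⁻¹ * (ψ * c * ψ⁻¹)) (by fun_prop))
    (fun M => by
      haveI : Finite (G ⧸ M.toSubgroup) := Subgroup.quotient_finite_of_isOpen _ M.isOpen'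
      let π := QuotientGroup.mk' M.toSubgroup
      have hKM : IsPGroup p (K.map π) := by
        rintro ⟨x, hx⟩
        obtain ⟨g, hg, hgx⟩ := Subgroup.mem_map.1 hx
        obtain ⟨n, hn⟩ := hKp g hg M
        refine ⟨n, ?_⟩
        apply Subtype.ext
        show x ^ p ^ n = 1
        rw [← hgx, ← map_pow]
        exact (mk_eq_one_iff M).2 hn
      obtain ⟨n, hn⟩ := hψ M
      have hmem : ∀ c, (π u)⁻¹ * c ∈ K.map π → ∃ c', π c' = c ∧ u⁻¹ * c' ∈ K := by
        rintro c ⟨k, hk, hkc⟩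
        refine ⟨u * k, ?_, by simpa using hk⟩
        rw [map_mul, hkc]; group
      obtain ⟨c, hc1, hc2⟩ := finite_fixed (l := l) (p := p) hlp hKM (ψ := π ψ) (u := π u) (n := n)
        (by rw [← map_pow]; exact (mk_eq_one_iff M).2 hn)
        (by
          intro c hc
          obtain ⟨c', rfl, hc'⟩ := hmem c hc
          refine ⟨u⁻¹ * (ψ * c' * ψ⁻¹), hinv c' hc', ?_⟩
          simp [π])
      obtain ⟨c', rfl, hc'⟩ := hmem c hc1
      refine ⟨c', hc', ?_⟩
      apply (mk_eq_iff M).1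
      show π c' = π (ψ * c' * ψ⁻¹)
      rw [map_mul, map_mul, map_inv]
      exact hc2.symm)
    (fun M N hMN c hc => ⟨hc.1, hMN _ hc.2⟩)
  refine ⟨c, (hc (topN G)).1, ?_⟩
  have h1 : c⁻¹ * (ψ * c * ψ⁻¹) = 1 := eq_one_of_forall (fun M => (hc M).2)
  have h2 : ψ * c * ψ⁻¹ = c := by
    rw [inv_mul_eq_one] at h1
    exact h1.symm
  rw [mul_inv_eq_iff_eq_mul] at h2
  exact h2.symm

end coprime

section parts

/-- `e` is an exponent computing the `r`-part in groups of order `a`. -/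
def IsPart (r a e : ℕ) : Prop := e ≡ 1 [MOD ordProj[r] a] ∧ ordCompl[r] a ∣ e

theorem exists_isPart {r a : ℕ} (hr : r.Prime) (ha : a ≠ 0) : ∃ e, IsPart r a e := by
  have hco : Nat.Coprime (ordProj[r] a) (ordCompl[r] a) :=
    Nat.Coprime.pow_left _ (Nat.coprime_ordCompl hr ha)
  obtain ⟨e, he1, he2⟩ := Nat.chineseRemainder hco 1 0
  exact ⟨e, he1, (Nat.modEq_zero_iff_dvd).1 he2⟩

theorem IsPart.modEq {r a e e' : ℕ} (hr : r.Prime) (ha : a ≠ 0) (h : IsPart r a e)
    (h' : IsPart r a e') : e ≡ e' [MOD a] := by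
  have hco : Nat.Coprime (ordProj[r] a) (ordCompl[r] a) :=
    Nat.Coprime.pow_left _ (Nat.coprime_ordCompl hr ha)
  have h1 : e ≡ e' [MOD ordProj[r] a] := h.1.trans h'.1.symm
  have h2 : e ≡ e' [MOD ordCompl[r] a] :=
    ((Nat.modEq_zero_iff_dvd).2 h.2).trans ((Nat.modEq_zero_iff_dvd).2 h'.2).symm
  have := (Nat.modEq_and_modEq_iff_modEq_mul hco).1 ⟨h1, h2⟩
  rwa [Nat.ordProj_mul_ordCompl_eq_self] at this

theorem IsPart.of_dvd {r a a' e : ℕ} (_hr : r.Prime) (ha' : a' ≠ 0) (hd : a ∣ a')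
    (h : IsPart r a' e) : IsPart r a e := by
  refine ⟨h.1.of_dvd (Nat.ordProj_dvd_ordProj_of_dvd ha' hd r), ?_⟩
  exact (Nat.ordCompl_dvd_ordCompl_of_dvd hd r).trans h.2

theorem IsPart.pow_eq_one {r a e : ℕ} {Q : Type*} [Group Q] (hQ : Nat.card Q = a)
    (h : IsPart r a e) (g : Q) : (g ^ e) ^ (ordProj[r] a) = 1 := by
  obtain ⟨m, hm⟩ := h.2
  rw [← pow_mul, hm]
  have : ordCompl[r] a * m * ordProj[r] a = a * m := by
    calc ordCompl[r] a * m * ordProj[r] a = (ordProj[r] a * ordCompl[r] a) * m := by ring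
      _ = a * m := by rw [Nat.ordProj_mul_ordCompl_eq_self]
  rw [this, pow_mul, ← hQ, pow_card_eq_one', one_pow]

/-- in a finite group, an element all of whose `r`-parts lie in a subgroup lies in it. -/
theorem mem_of_parts {Q : Type*} [Group Q] [Finite Q] (D : Subgroup Q) (t : Q)
    (h : ∀ r e : ℕ, r.Prime → IsPart r (Nat.card Q) e → t ^ e ∈ D) : t ∈ D := by
  classical
  have hcard : Nat.card Q ≠ 0 := Nat.card_pos.ne'
  have hex : ∃ n : ℕ, 0 < n ∧ t ^ n ∈ D :=
    ⟨Nat.card Q, Nat.pos_of_ne_zero hcard, by rw [pow_card_eq_one']; exact D.one_mem⟩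
  set d := Nat.find hex with hd
  obtain ⟨hd0, hdD⟩ := Nat.find_spec hex
  have hdiv : ∀ n : ℕ, t ^ n ∈ D → d ∣ n := by
    intro n hn
    by_contra hnd
    have hlt : n % d < d := Nat.mod_lt _ hd0
    have hpos : 0 < n % d := Nat.pos_of_ne_zero (fun h0 => hnd (Nat.dvd_of_mod_eq_zero h0))
    have hmem : t ^ (n % d) ∈ D := by
      have e1 : t ^ n = (t ^ d) ^ (n / d) * t ^ (n % d) := by
        rw [← pow_mul, ← pow_add, Nat.div_add_mod]
      have e2 : t ^ (n % d) = ((t ^ d) ^ (n / d))⁻¹ * t ^ n := by rw [e1]; group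
      rw [e2]
      exact D.mul_mem (D.inv_mem (D.pow_mem hdD _)) hn
    exact (Nat.find_min hex hlt) ⟨hpos, hmem⟩
  by_cases h1 : d = 1
  · rw [← hd, h1, pow_one] at hdD; exact hdD
  · exfalso
    obtain ⟨r, hr, hrd⟩ := Nat.exists_prime_and_dvd h1
    obtain ⟨e, he⟩ := exists_isPart hr hcard
    have hde : d ∣ e := hdiv e (h r e hr he)
    have hdc : d ∣ Nat.card Q := hdiv _ (by rw [pow_card_eq_one']; exact D.one_mem)
    have hrP : r ∣ ordProj[r] (Nat.card Q) := by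
      apply dvd_pow_self
      exact (hr.factorization_pos_of_dvd hcard (hrd.trans hdc)).ne'
    have h3 : e ≡ 1 [MOD r] := he.1.of_dvd hrP
    have h4 : e ≡ 0 [MOD r] := (Nat.modEq_zero_iff_dvd).2 (hrd.trans hde)
    have h5 : 1 ≡ 0 [MOD r] := h3.symm.trans h4
    have h6 : r ∣ 1 := (Nat.modEq_zero_iff_dvd).1 h5
    exact hr.one_lt.ne' (Nat.dvd_one.1 h6)

variable {G : Type*} [Group G] [TopologicalSpace G] [IsTopologicalGroup G] [CompactSpace G]
  [TotallyDisconnectedSpace G]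

theorem card_ne (M : OpenNormalSubgroup G) : Nat.card (G ⧸ M.toSubgroup) ≠ 0 := by
  haveI : Finite (G ⧸ M.toSubgroup) := Subgroup.quotient_finite_of_isOpen _ M.isOpen'
  exact Nat.card_pos.ne'

/-- `τ` is the `r`-part of `g` -/
def IsPartEl (r : ℕ) (g τ : G) : Prop :=
  ∀ (M : OpenNormalSubgroup G) (e : ℕ), IsPart r (Nat.card (G ⧸ M.toSubgroup)) e →
    (g ^ e)⁻¹ * τ ∈ M

theorem pow_inv_mul_pow_mem {M : OpenNormalSubgroup G} {g : G} {e e' : ℕ}
    (h : e ≡ e' [MOD Nat.card (G ⧸ M.toSubgroup)]) : (g ^ e)⁻¹ * g ^ e' ∈ M := by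
  apply (mk_eq_iff M).1
  rw [map_pow, map_pow]
  apply pow_eq_pow_iff_modEq.2
  exact h.of_dvd (orderOf_dvd_natCard _)

theorem exists_part {r : ℕ} (hr : r.Prime) (g : G) : ∃ τ, IsPartEl r g τ := by
  obtain ⟨τ, hτ⟩ := exists_common
    (fun M : OpenNormalSubgroup G => {τ : G | ∀ e : ℕ, IsPart r (Nat.card (G ⧸ M.toSubgroup)) e →
      (g ^ e)⁻¹ * τ ∈ M})
    (fun M => by
      have hset : {τ : G | ∀ e : ℕ, IsPart r (Nat.card (G ⧸ M.toSubgroup)) e →
          (g ^ e)⁻¹ * τ ∈ M} = ⋂ e : ℕ, ⋂ _ : IsPart r (Nat.card (G ⧸ M.toSubgroup)) e,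
          (fun τ => (g ^ e)⁻¹ * τ) ⁻¹' (M : Set G) := by
        ext τ
        simp only [Set.mem_iInter, Set.mem_preimage, SetLike.mem_coe]
        rfl
      rw [hset]
      apply isClosed_iInter; intro e
      apply isClosed_iInter; intro _
      exact (isClosed_open M).preimage (f := fun τ => (g ^ e)⁻¹ * τ) (by fun_prop))
    (fun M => by
      obtain ⟨e, he⟩ := exists_isPart hr (card_ne M)
      exact ⟨g ^ e, fun e' he' => pow_inv_mul_pow_mem (he'.modEq hr (card_ne M) he)⟩)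
    (fun M N hMN τ hτ e he => by
      obtain ⟨e', he'⟩ := exists_isPart hr (card_ne N)
      have hle : N.toSubgroup ≤ M.toSubgroup := fun x hx => hMN x hx
      have hdvd : Nat.card (G ⧸ M.toSubgroup) ∣ Nat.card (G ⧸ N.toSubgroup) :=
        Subgroup.index_dvd_of_le hle
      have h1 := he'.of_dvd hr (card_ne N) hdvd
      have h2 := hMN _ (hτ e' he')
      have h3 : (g ^ e)⁻¹ * g ^ e' ∈ M := pow_inv_mul_pow_mem (he.modEq hr (card_ne M) h1)
      have h4 : (g ^ e)⁻¹ * τ = ((g ^ e)⁻¹ * g ^ e') * ((g ^ e')⁻¹ * τ) := by group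
      rw [h4]
      exact mul_mem h3 h2)
  exact ⟨τ, fun M e he => hτ M e he⟩

theorem IsPartEl.proEl {r : ℕ} (hr : r.Prime) {g τ : G} (h : IsPartEl r g τ) : ProEl r τ := by
  intro M
  obtain ⟨e, he⟩ := exists_isPart hr (card_ne M)
  refine ⟨(Nat.card (G ⧸ M.toSubgroup)).factorization r, ?_⟩
  apply (mk_eq_one_iff M).1
  have h1 := (mk_eq_iff M).2 (h M e he)
  rw [map_pow, ← h1, map_pow]
  exact he.pow_eq_one rfl _

theorem IsPartEl.commute {r : ℕ} (hr : r.Prime) {g τ : G} (h : IsPartEl r g τ) :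
    g * τ = τ * g := by
  have h1 : (g * τ)⁻¹ * (τ * g) = 1 := by
    apply eq_one_of_forall
    intro M
    obtain ⟨e, he⟩ := exists_isPart hr (card_ne M)
    apply (mk_eq_iff M).1
    have h1 := (mk_eq_iff M).2 (h M e he)
    rw [map_mul, map_mul, ← h1, map_pow]
    exact (Commute.self_pow _ _).eq
  rw [inv_mul_eq_one] at h1
  exact h1

theorem IsPartEl.mem {r : ℕ} (hr : r.Prime) {g τ : G} (h : IsPartEl r g τ) {D : Subgroup G}
    (hD : IsClosed (D : Set G)) (hg : g ∈ D) : τ ∈ D := by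
  apply mem_closed hD
  intro M
  obtain ⟨e, he⟩ := exists_isPart hr (card_ne M)
  exact ⟨g ^ e, D.pow_mem hg e, h M e he⟩

/-- an element all of whose primary parts lie in a closed subgroup lies in it -/
theorem mem_of_partEl {D : Subgroup G} (hD : IsClosed (D : Set G)) (t : G)
    (h : ∀ r : ℕ, r.Prime → ∀ τ, IsPartEl r t τ → τ ∈ D) : t ∈ D := by
  apply mem_closed hD
  intro M
  haveI : Finite (G ⧸ M.toSubgroup) := Subgroup.quotient_finite_of_isOpen _ M.isOpen'
  have hmem : QuotientGroup.mk' M.toSubgroup t ∈ D.map (QuotientGroup.mk' M.toSubgroup) := by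
    apply mem_of_parts
    intro r e hr he
    obtain ⟨τ, hτ⟩ := exists_part hr t
    refine ⟨τ, h r hr τ hτ, ?_⟩
    rw [← map_pow]
    exact ((mk_eq_iff M).2 (hτ M e he)).symm
  obtain ⟨c, hc, hct⟩ := hmem
  exact ⟨c, hc, (mk_eq_iff M).1 hct⟩

end parts

section main

theorem nt_aux {l r u o a b : ℕ} (hl : l.Prime) (hr : r.Prime) (hlr : l ≠ r) (ho : o = r ^ b)
    (hu : ¬ r ∣ u) (h : (u : ZMod o) ^ l ^ a = 1) : (u : ZMod o) ^ l ^ r = 1 := by
  subst ho
  rcases Nat.eq_zero_or_pos b with rfl | hb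
  · rw [pow_zero]
    exact Subsingleton.elim (α := ZMod 1) _ _
  haveI : NeZero (r ^ b) := ⟨pow_ne_zero _ hr.ne_zero⟩
  have hco : Nat.Coprime u (r ^ b) :=
    Nat.Coprime.pow_right _ ((Nat.coprime_comm.1 ((Nat.Prime.coprime_iff_not_dvd hr).2 hu)))
  set w : (ZMod (r ^ b))ˣ := ZMod.unitOfCoprime u hco with hw
  have hwv : (w : ZMod (r ^ b)) = (u : ZMod (r ^ b)) := ZMod.coe_unitOfCoprime u hco
  have h1 : w ^ l ^ a = 1 := by
    apply Units.ext
    rw [Units.val_pow_eq_pow_val, hwv, h, Units.val_one]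
  obtain ⟨i, -, hi⟩ := (Nat.dvd_prime_pow hl).1 (orderOf_dvd_of_pow_eq_one h1)
  have h2 : orderOf w ∣ Nat.totient (r ^ b) := by
    rw [← ZMod.card_units_eq_totient]
    exact orderOf_dvd_card
  rw [hi, Nat.totient_prime_pow hr hb] at h2
  have hcop : Nat.Coprime (l ^ i) (r ^ (b - 1)) :=
    Nat.Coprime.pow _ _ ((Nat.coprime_primes hl hr).2 hlr)
  have h3 : l ^ i ∣ r - 1 := hcop.dvd_of_dvd_mul_left h2
  have h4 : l ^ i ≤ r - 1 := Nat.le_of_dvd (Nat.sub_pos_of_lt hr.one_lt) h3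
  have h5 : i < r := by
    have := Nat.lt_pow_self (n := i) hl.one_lt
    omega
  have h6 : w ^ l ^ r = 1 := by
    apply orderOf_dvd_iff_pow_eq_one.1
    rw [hi]
    exact pow_dvd_pow _ h5.le
  have := congrArg Units.val h6
  rwa [Units.val_pow_eq_pow_val, hwv, Units.val_one] at this

theorem conj_pow_aux {Q : Type*} [Group Q] {y s : Q} {q : ℕ} (h : y * s * y⁻¹ = s ^ q) (i : ℕ) :
    y ^ i * s * (y ^ i)⁻¹ = s ^ q ^ i := by
  induction i with
  | zero => simp
  | succ i ih =>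
    have h1 : y ^ (i + 1) * s * (y ^ (i + 1))⁻¹ = y * (y ^ i * s * (y ^ i)⁻¹) * y⁻¹ := by
      rw [pow_succ']; group
    have h2 : y * s ^ q ^ i * y⁻¹ = (y * s * y⁻¹) ^ q ^ i := (conj_pow).symm
    rw [h1, ih, h2, h, ← pow_mul, pow_succ']

variable {G : Type*} [Group G] [TopologicalSpace G] [IsTopologicalGroup G] [CompactSpace G]
  [TotallyDisconnectedSpace G]

theorem ProEl.pow {l : ℕ} {g : G} (h : ProEl l g) (m : ℕ) : ProEl l (g ^ m) := by
  intro M
  obtain ⟨n, hn⟩ := h M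
  refine ⟨n, ?_⟩
  rw [← pow_mul, mul_comm, pow_mul]
  exact pow_mem hn m

theorem mem_of_sup {P : Subgroup G} [P.Normal] (hPc : IsClosed (P : Set G)) {s : G}
    (h : ∀ M : OpenNormalSubgroup G, s ∈ P ⊔ M.toSubgroup) : s ∈ P := by
  apply mem_closed hPc
  intro M
  obtain ⟨c, hc, m, hm, hcm⟩ := Subgroup.mem_sup_of_normal_left.1 (h M)
  refine ⟨c, hc, ?_⟩
  rw [← hcm, inv_mul_cancel_left]
  exact hm

/-- first step: the pro-`p` radical lies in `D` -/
theorem P_le {l p : ℕ} [Fact l.Prime] [Fact p.Prime] (hlp : l ≠ p) {P D : Subgroup G}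
    [hPn : P.Normal] (hPc : IsClosed (P : Set G)) (hP : ∀ g ∈ P, ProEl p g) {φ : G}
    (hφ : ProEl l φ) (hDc : IsClosed (D : Set G))
    (hD1 : ∀ n : ℕ, ∀ g, g * φ ^ l ^ n = φ ^ l ^ n * g → g ∈ D) : P ≤ D := by
  intro u hu
  apply mem_closed hDc
  intro M
  obtain ⟨n, hn⟩ := hφ M
  obtain ⟨c, hc, hcomm⟩ := exists_commute (K := P ⊓ M.toSubgroup)
    (by
      rw [Subgroup.coe_inf]
      exact hPc.inter (isClosed_open M)) hlp (fun g hg => hP g hg.1) (ψ := φ ^ l ^ n) (u := u)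
    (hφ.pow _)
    (by
      intro c hc
      have hcP : c ∈ P := by
        have := P.mul_mem hu hc.1
        simpa using this
      have e1 : u⁻¹ * (φ ^ l ^ n * c * (φ ^ l ^ n)⁻¹)
          = (u⁻¹ * c) * (c⁻¹ * (φ ^ l ^ n * c * (φ ^ l ^ n)⁻¹)) := by group
      rw [e1]
      refine (P ⊓ M.toSubgroup).mul_mem hc ⟨?_, ?_⟩
      · exact P.mul_mem (P.inv_mem hcP) (hPn.conj_mem c hcP _)
      · have e2 : c⁻¹ * (φ ^ l ^ n * c * (φ ^ l ^ n)⁻¹)
            = (c⁻¹ * φ ^ l ^ n * c) * (φ ^ l ^ n)⁻¹ := by group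
        rw [e2]
        refine M.toSubgroup.mul_mem ?_ (M.toSubgroup.inv_mem hn)
        have := M.isNormal'.conj_mem (φ ^ l ^ n) hn c⁻¹
        simpa using this)
  refine ⟨c, hD1 n c hcomm, ?_⟩
  have h3 : (u⁻¹ * c)⁻¹ ∈ M.toSubgroup := M.toSubgroup.inv_mem hc.2
  have h4 : (u⁻¹ * c)⁻¹ = c⁻¹ * u := by group
  rw [h4] at h3
  exact h3

/-- **Step (II)** of post 184. -/
theorem main {l p : ℕ} [Fact l.Prime] [Fact p.Prime] (hlp : l ≠ p) {P I D : Subgroup G}
    [hPn : P.Normal] (hPc : IsClosed (P : Set G)) (hIc : IsClosed (I : Set G))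
    (hP : ∀ g ∈ P, ProEl p g) {x φ : G} {q : ℕ}
    (hx : ∀ t ∈ I, (t ^ q)⁻¹ * (x * t * x⁻¹) ∈ P) (hφ : IsPartEl l x φ)
    (hDc : IsClosed (D : Set G))
    (hD1 : ∀ n : ℕ, ∀ g, g * φ ^ l ^ n = φ ^ l ^ n * g → g ∈ D)
    (hD2 : ∀ t ∈ I, ProEl l t → ∃ d ∈ D, d⁻¹ * t ∈ P)
    (hgen : ∀ (M : OpenNormalSubgroup G) (g : G), ∃ t ∈ I, ∃ n : ℤ, (t * x ^ n)⁻¹ * g ∈ M) :
    D = ⊤ := by
  have hl : l.Prime := Fact.out
  have hφl : ProEl l φ := hφ.proEl hl
  have hPD : P ≤ D := P_le hlp hPc hP hφl hDc hD1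
  have hID : I ≤ D := by
    intro t ht
    apply mem_of_partEl hDc
    intro r hr τ hτ
    have hτI : τ ∈ I := hτ.mem hr hIc ht
    have hτr : ProEl r τ := hτ.proEl hr
    by_cases hrl : r = l
    · subst hrl
      obtain ⟨d, hd, hdP⟩ := hD2 τ hτI hτr
      have := D.mul_mem hd (hPD hdP)
      simpa using this
    have key : ∀ M : OpenNormalSubgroup G,
        ∃ (Q : Type _) (_ : Group Q) (ρ : G →* Q), (∀ g, ρ g = 1 ↔ g ∈ P ⊔ M.toSubgroup) := by
      intro M
      exact ⟨G ⧸ (P ⊔ M.toSubgroup), inferInstance, QuotientGroup.mk' _,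
        fun g => QuotientGroup.eq_one_iff g⟩
    by_cases hrq : r ∣ q
    · apply hPD
      apply mem_of_sup hPc
      intro M
      obtain ⟨Q, _, ρ, hρ⟩ := key M
      obtain ⟨j, hj⟩ := hτr M
      have hs : (ρ τ) ^ r ^ j = 1 := by
        rw [← map_pow]; exact (hρ _).2 (Subgroup.mem_sup_right hj)
      have hrel : ρ x * ρ τ * (ρ x)⁻¹ = ρ τ ^ q := by
        have h1 := (hρ _).2 (Subgroup.mem_sup_left (hx τ hτI))
        rw [map_mul, map_inv, map_pow, map_mul, map_mul, map_inv, inv_mul_eq_one] at h1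
        exact h1.symm
      have h2 := conj_pow_aux hrel j
      have h3 : ρ τ ^ q ^ j = 1 := by
        obtain ⟨m, hm⟩ := pow_dvd_pow_of_dvd hrq j
        rw [hm, pow_mul, hs, one_pow]
      rw [h3] at h2
      apply (hρ _).1
      have h4 : ρ τ = (ρ x ^ j)⁻¹ * (ρ x ^ j * ρ τ * (ρ x ^ j)⁻¹) * ρ x ^ j := by group
      rw [h4, h2]; group
    · -- the prime `r` does not divide `q`
      have hcomm : τ⁻¹ * (φ ^ l ^ r * τ * (φ ^ l ^ r)⁻¹) ∈ P := by
        apply mem_of_sup hPc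
        intro M
        obtain ⟨Q, _, ρ, hρ⟩ := key M
        obtain ⟨j, hj⟩ := hτr M
        obtain ⟨a, ha⟩ := hφl M
        obtain ⟨e, he⟩ := exists_isPart hl (card_ne M)
        have hf : ρ φ = ρ x ^ e := by
          have h1 := (hρ _).2 (Subgroup.mem_sup_right (hφ M e he))
          rw [map_mul, map_inv, map_pow, inv_mul_eq_one] at h1
          exact h1.symm
        have hs : (ρ τ) ^ r ^ j = 1 := by
          rw [← map_pow]; exact (hρ _).2 (Subgroup.mem_sup_right hj)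
        have hfa : (ρ φ) ^ l ^ a = 1 := by
          rw [← map_pow]; exact (hρ _).2 (Subgroup.mem_sup_right ha)
        have hrel : ρ x * ρ τ * (ρ x)⁻¹ = ρ τ ^ q := by
          have h1 := (hρ _).2 (Subgroup.mem_sup_left (hx τ hτI))
          rw [map_mul, map_inv, map_pow, map_mul, map_mul, map_inv, inv_mul_eq_one] at h1
          exact h1.symm
        have hpw : ∀ k : ℕ, ρ φ ^ k * ρ τ * (ρ φ ^ k)⁻¹ = ρ τ ^ (q ^ e) ^ k := by
          intro k
          have := conj_pow_aux hrel (e * k)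
          rw [hf, ← pow_mul, this, pow_mul]
        obtain ⟨b, -, hb⟩ := (Nat.dvd_prime_pow hr).1 (orderOf_dvd_of_pow_eq_one hs)
        have hru : ¬ r ∣ q ^ e := fun h => hrq (hr.dvd_of_dvd_pow h)
        have h1 : ((q ^ e : ℕ) : ZMod (orderOf (ρ τ))) ^ l ^ a = 1 := by
          have h2 := hpw (l ^ a)
          rw [hfa] at h2
          simp only [one_mul, inv_one, mul_one] at h2
          have h3 : ρ τ ^ 1 = ρ τ ^ (q ^ e) ^ l ^ a := by rw [pow_one]; exact h2
          have h4 := pow_eq_pow_iff_modEq.1 h3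
          have h5 := (ZMod.natCast_eq_natCast_iff _ _ _).2 h4
          rw [Nat.cast_one, Nat.cast_pow] at h5
          exact h5.symm
        have h2 := nt_aux hl hr (Ne.symm hrl) hb hru h1
        have h3 : ρ τ ^ (q ^ e) ^ l ^ r = ρ τ := by
          have h4 : ((((q ^ e) ^ l ^ r : ℕ)) : ZMod (orderOf (ρ τ))) = ((1 : ℕ) : ZMod _) := by
            rw [Nat.cast_pow, h2, Nat.cast_one]
          have h5 := (ZMod.natCast_eq_natCast_iff _ _ _).1 h4
          have h6 := pow_eq_pow_iff_modEq.2 h5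
          rwa [pow_one] at h6
        apply (hρ _).1
        have h4 := hpw (l ^ r)
        rw [map_mul, map_inv, map_mul, map_mul, map_inv, map_pow, h4, h3, inv_mul_cancel]
      obtain ⟨c, hc, hcc⟩ := exists_commute hPc hlp hP (ψ := φ ^ l ^ r) (u := τ) (hφl.pow _)
        (by
          intro c hc
          have e1 : τ⁻¹ * (φ ^ l ^ r * c * (φ ^ l ^ r)⁻¹) =
              (τ⁻¹ * (φ ^ l ^ r * τ * (φ ^ l ^ r)⁻¹)) *
                (φ ^ l ^ r * (τ⁻¹ * c) * (φ ^ l ^ r)⁻¹) := by group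
          rw [e1]
          exact P.mul_mem hcomm (hPn.conj_mem _ hc _))
      have h1 : c ∈ D := hD1 r c hcc
      have h2 : τ⁻¹ * c ∈ D := hPD hc
      have h3 := D.mul_mem h1 (D.inv_mem h2)
      simpa using h3
  have hxD : x ∈ D := by
    apply hD1 0
    rw [pow_zero, pow_one]
    exact hφ.commute hl
  rw [eq_top_iff]
  intro g _
  apply mem_closed hDc
  intro M
  obtain ⟨t, ht, n, hn⟩ := hgen M g
  exact ⟨t * x ^ n, D.mul_mem (hID ht) (D.zpow_mem hxD n), hn⟩

end main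

end Crest.Agent.R013.Cop_658
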