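import Crest.Agent.R013.Gl6_946

/-!
# The cut cover (row 13, part B), lattice form

`D` a patching datum on `E`, `V = E ⊗ U` with an `E`-basis `b` whose `F0`-span is the subring `L = U`
(a field), `e ∈ V` an idempotent (an edge).  We reglue `n` copies of `U` with a cyclic shift along
the edge `e`: `W = {v : ZMod n → V | v i ∈ U ⊗ RU, (1 - e) v i + e v (i-1) ∈ U ⊗ FP}`.
-/

set_option autoImplicit false
set_option linter.unusedSectionVars false

namespace Crest.Agent.R013.CutCov_92

open Module Crest.Agent.R013.Gl946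

variable {E V : Type*} [Field E] [CommRing V] [Algebra E V]

/-- data: a patching datum, `V = E ⊗ L`, an idempotent of `V`. -/
structure Edge (D : PatchDatum E) (V : Type*) [CommRing V] [Algebra E V] (d : ℕ) where
  b : Basis (Fin d) E V
  L : Subring V
  hL : ∀ v, v ∈ L ↔ v ∈ cs b D.F0.toSubring
  e : V
  he : e * e = e

section Tau

variable (e : V) (he : e * e = e) (n : ℕ)

/-- the shift along the edge `e` -/
def tau : (ZMod n → V) ≃ₐ[E] (ZMod n → V) where
  toFun v := fun i => (1 - e) * v i + e * v (i - 1)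
  invFun v := fun i => (1 - e) * v i + e * v (i + 1)
  left_inv v := by
    funext i
    simp only [sub_add_cancel, add_sub_cancel_right]
    linear_combination (v i + v i - v (i - 1) - v (i + 1)) * he
  right_inv v := by
    funext i
    simp only [sub_add_cancel, add_sub_cancel_right]
    linear_combination (v i + v i - v (i - 1) - v (i + 1)) * he
  map_mul' v w := by
    funext i
    simp only [Pi.mul_apply]
    linear_combination (v i * w i + v (i - 1) * w (i - 1) - v i * w (i - 1) - v (i - 1) * w i) *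
      (-he)
  map_add' v w := by
    funext i
    simp only [Pi.add_apply]
    ring
  commutes' c := by
    funext i
    simp only [Pi.algebraMap_apply]
    ring

theorem tau_apply (v : ZMod n → V) (i : ZMod n) :
    tau (E := E) e he n v i = (1 - e) * v i + e * v (i - 1) := rfl

/-- the rotation -/
def sig : (ZMod n → V) ≃ₐ[E] (ZMod n → V) where
  toFun v := fun i => v (i + 1)
  invFun v := fun i => v (i - 1)
  left_inv v := by funext i; simp
  right_inv v := by funext i; simp
  map_mul' v w := rfl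
  map_add' v w := rfl
  commutes' c := rfl

theorem sig_apply (v : ZMod n → V) (i : ZMod n) : sig (E := E) n v i = v (i + 1) := rfl

theorem tau_sig (v : ZMod n → V) (i : ZMod n) :
    tau (E := E) e he n (sig (E := E) n v) i = tau (E := E) e he n v (i + 1) := by
  rw [tau_apply, tau_apply, sig_apply, sig_apply, sub_add_cancel, add_sub_cancel_right]

theorem tau_symm_apply (v : ZMod n → V) (i : ZMod n) :
    (tau (E := E) e he n).symm v i = (1 - e) * v i + e * v (i + 1) := rfl

theorem e_mul_tau (v : ZMod n → V) (i : ZMod n) :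
    e * tau (E := E) e he n v i = e * v (i - 1) := by
  rw [tau_apply]; linear_combination (v (i - 1) - v i) * he

theorem one_sub_e_mul_tau (v : ZMod n → V) (i : ZMod n) :
    (1 - e) * tau (E := E) e he n v i = (1 - e) * v i := by
  rw [tau_apply]; linear_combination (v i - v (i - 1)) * he

theorem sig_pow (v : ZMod n → V) (i : ZMod n) (m : ℕ) :
    ((sig (E := E) (V := V) n) ^ m) v i = v (i + m) := by
  induction m generalizing i with
  | zero => simp
  | succ m ih =>
    rw [pow_succ', AlgEquiv.mul_apply, sig_apply, ih]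
    push_cast
    congr 1
    ring

end Tau

namespace Edge

variable {D : PatchDatum E} {d : ℕ} (X : Edge D V d)

/-- `U ⊗ RU` -/
def VU : Subring V := csRing X.b D.F0.toSubring D.RU CutData.F0_le_RU' X.L X.hL

/-- `U ⊗ FP` -/
def VP : Subring V := csRing X.b D.F0.toSubring D.FP.toSubring D.F0_le_FP X.L X.hL

theorem mem_VU (v : V) : v ∈ X.VU ↔ v ∈ cs X.b D.RU := Iff.rfl

theorem mem_VP (v : V) : v ∈ X.VP ↔ v ∈ cs X.b D.FP.toSubring := Iff.rfl

theorem L_le_VU : X.L ≤ X.VU := fun v hv => cs_mono X.b CutData.F0_le_RU' ((X.hL v).1 hv)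

theorem L_le_VP : X.L ≤ X.VP := fun v hv =>
  cs_mono X.b (S := D.F0.toSubring) (T := D.FP.toSubring) D.F0_le_FP ((X.hL v).1 hv)

theorem mem_L_of (v : V) (h1 : v ∈ X.VU) (h2 : v ∈ X.VP) : v ∈ X.L :=
  (X.hL v).2 fun i => D.inter _ (h2 i) (h1 i)

/-- The cut cover. -/
def W (n : ℕ) : Subring (ZMod n → V) where
  carrier := {v | (∀ i, v i ∈ X.VU) ∧ ∀ i, tau (E := E) X.e X.he n v i ∈ X.VP}
  mul_mem' := by
    rintro v w ⟨h1, h2⟩ ⟨h1', h2'⟩
    exact ⟨fun i => mul_mem (h1 i) (h1' i), fun i => by
      rw [map_mul]; exact mul_mem (h2 i) (h2' i)⟩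
  one_mem' := ⟨fun i => one_mem _, fun i => by rw [map_one]; exact one_mem _⟩
  add_mem' := by
    rintro v w ⟨h1, h2⟩ ⟨h1', h2'⟩
    exact ⟨fun i => add_mem (h1 i) (h1' i), fun i => by
      rw [map_add]; exact add_mem (h2 i) (h2' i)⟩
  zero_mem' := ⟨fun i => zero_mem _, fun i => by rw [map_zero]; exact zero_mem _⟩
  neg_mem' := by
    rintro v ⟨h1, h2⟩
    exact ⟨fun i => neg_mem (h1 i), fun i => by rw [map_neg]; exact neg_mem (h2 i)⟩

theorem mem_W (n : ℕ) (v : ZMod n → V) : v ∈ X.W n ↔ (∀ i, v i ∈ X.VU) ∧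
    ∀ i, tau (E := E) X.e X.he n v i ∈ X.VP := Iff.rfl

theorem diag_mem (n : ℕ) {a : V} (ha : a ∈ X.L) : (fun _ => a) ∈ X.W n := by
  refine ⟨fun _ => X.L_le_VU ha, fun i => ?_⟩
  rw [tau_apply]
  have : (1 - X.e) * a + X.e * a = a := by ring
  rw [this]; exact X.L_le_VP ha

theorem sig_mem (n : ℕ) {v : ZMod n → V} (hv : v ∈ X.W n) : sig (E := E) n v ∈ X.W n :=
  ⟨fun i => hv.1 (i + 1), fun i => by rw [tau_sig]; exact hv.2 (i + 1)⟩

theorem sig_symm_mem (n : ℕ) {v : ZMod n → V} (hv : v ∈ X.W n) :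
    (sig (E := E) n).symm v ∈ X.W n := by
  refine ⟨fun i => hv.1 (i - 1), fun i => ?_⟩
  have : tau (E := E) X.e X.he n ((sig (E := E) n).symm v) i =
      tau (E := E) X.e X.he n v (i - 1) := by
    have h := tau_sig (E := E) X.e X.he n ((sig (E := E) n).symm v) (i - 1)
    rw [sub_add_cancel, AlgEquiv.apply_symm_apply] at h
    exact h.symm
  rw [this]; exact hv.2 (i - 1)

/-- The reglued lattice has a common basis. -/
theorem exists_basis (n : ℕ) [NeZero n] : ∃ B : Basis (Fin (n * d)) E (ZMod n → V),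
    (∀ v, v ∈ cs B D.RU ↔ ∀ i, v i ∈ X.VU) ∧
    (∀ v, v ∈ cs B D.FP.toSubring ↔ ∀ i, tau (E := E) X.e X.he n v i ∈ X.VP) ∧
    (∀ v, v ∈ X.W n ↔ v ∈ cs B D.F0.toSubring) := by
  classical
  have hcard : Fintype.card (Σ _ : ZMod n, Fin d) = n * d := by
    rw [Fintype.card_sigma]; simp [ZMod.card]
  set eqv : (Σ _ : ZMod n, Fin d) ≃ Fin (n * d) := Fintype.equivFinOfCardEq hcard with heqv
  set B0 : Basis (Σ _ : ZMod n, Fin d) E (ZMod n → V) := Pi.basis (fun _ => X.b) with hB0
  set BU : Basis (Fin (n * d)) E (ZMod n → V) := B0.reindex eqv with hBU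
  set BP : Basis (Fin (n * d)) E (ZMod n → V) :=
    (B0.map (tau (E := E) X.e X.he n).symm.toLinearEquiv).reindex eqv with hBP
  have hmemU : ∀ (S : Subring E) v, v ∈ cs BU S ↔ ∀ i, v i ∈ cs X.b S := by
    intro S v
    constructor
    · intro h i j
      have := h (eqv ⟨i, j⟩)
      rw [hBU, Basis.repr_reindex_apply, Equiv.symm_apply_apply, hB0, Pi.basis_repr] at this
      exact this
    · intro h k
      rw [hBU, Basis.repr_reindex_apply, hB0, Pi.basis_repr]
      exact h _ _
  have hmemP : ∀ (S : Subring E) v, v ∈ cs BP S ↔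
      ∀ i, tau (E := E) X.e X.he n v i ∈ cs X.b S := by
    intro S v
    have key : ∀ k, BP.repr v k = BU.repr (tau (E := E) X.e X.he n v) k := by
      intro k
      rw [hBP, Basis.repr_reindex_apply, Basis.map_repr, hBU, Basis.repr_reindex_apply]
      rfl
    rw [← hmemU S]
    exact ⟨fun h k => by rw [← key]; exact h k, fun h k => by rw [key]; exact h k⟩
  obtain ⟨B, h1, h2⟩ := common_basis D BU BP
  refine ⟨B, ?_, ?_, ?_⟩
  · intro v; rw [h1, hmemU]; rfl
  · intro v; rw [h2, hmemP]; rfl
  · intro v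
    constructor
    · rintro ⟨h3, h4⟩ i
      have h5 : v ∈ cs B D.RU := by rw [h1, hmemU]; exact h3
      have h6 : v ∈ cs B D.FP.toSubring := by rw [h2, hmemP]; exact h4
      exact D.inter _ (h6 i) (h5 i)
    · intro hv
      refine ⟨?_, ?_⟩
      · have : v ∈ cs B D.RU := cs_mono B CutData.F0_le_RU' hv
        rw [h1, hmemU] at this
        exact this
      · have : v ∈ cs B D.FP.toSubring :=
          cs_mono B (S := D.F0.toSubring) (T := D.FP.toSubring) D.F0_le_FP hv
        rw [h2, hmemP] at this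
        exact this

/-- `e` is not a bridge. -/
def NonBridge : Prop := ∀ ε ∈ X.VU, ∀ δ ∈ X.VP, ε * ε = ε → δ * δ = δ →
  (1 - X.e) * ε = (1 - X.e) * δ → ε = δ

/-- Idempotents of the cut cover at a non-bridge are trivial. -/
theorem idem_trivial (n : ℕ) [NeZero n] (hNB : X.NonBridge)
    (hid : ∀ x ∈ X.L, x * x = x → x = 0 ∨ x = 1) (he0 : X.e ≠ 0)
    (v : ZMod n → V) (hv : v ∈ X.W n) (hvv : v * v = v) : v = 0 ∨ v = 1 := by
  have hvi : ∀ i, v i * v i = v i := fun i => congrFun hvv i
  have hti : ∀ i, tau (E := E) X.e X.he n v i * tau (E := E) X.e X.he n v i =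
      tau (E := E) X.e X.he n v i := by
    intro i
    have : tau (E := E) X.e X.he n v * tau (E := E) X.e X.he n v =
        tau (E := E) X.e X.he n v := by rw [← map_mul, hvv]
    exact congrFun this i
  have h1 : ∀ i, v i = tau (E := E) X.e X.he n v i := fun i =>
    hNB _ (hv.1 i) _ (hv.2 i) (hvi i) (hti i) (one_sub_e_mul_tau (E := E) X.e X.he n v i).symm
  have h2 : ∀ i, v i = 0 ∨ v i = 1 := fun i =>
    hid _ (X.mem_L_of _ (hv.1 i) (by rw [h1]; exact hv.2 i)) (hvi i)
  have h3 : ∀ i, X.e * v i = X.e * v (i - 1) := by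
    intro i
    conv_lhs => rw [h1 i]
    rw [e_mul_tau]
  have h4 : ∀ i, v i = v (i - 1) := by
    intro i
    rcases h2 i with h | h <;> rcases h2 (i - 1) with h' | h'
    · rw [h, h']
    · exfalso; apply he0
      have := h3 i
      rw [h, h', mul_zero, mul_one] at this
      exact this.symm
    · exfalso; apply he0
      have := h3 i
      rw [h, h', mul_zero, mul_one] at this
      exact this
    · rw [h, h']
  have h5 : ∀ m : ℕ, v (m : ZMod n) = v 0 := by
    intro m
    induction m with
    | zero => simp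
    | succ m ih =>
      rw [h4 ((m + 1 : ℕ) : ZMod n), ← ih]
      congr 1
      push_cast
      ring
  have h6 : ∀ i, v i = v 0 := by
    intro i
    rw [← h5 i.val, ZMod.natCast_zmod_val]
  rcases h2 0 with h | h
  · left; funext i; rw [h6 i, h]; rfl
  · right; funext i; rw [h6 i, h]; rfl

/-- The cut cover at a non-bridge is a field. -/
theorem isField_W (n : ℕ) [NeZero n] [IsReduced V] (hNB : X.NonBridge)
    (hid : ∀ x ∈ X.L, x * x = x → x = 0 ∨ x = 1) (he0 : X.e ≠ 0) (hF0 : ∀ z ∈ D.F0,
      algebraMap E V z ∈ X.L) : IsField (X.W n) := by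
  classical
  obtain ⟨B, hB1, hB2, hB⟩ := X.exists_basis n
  -- `W` is a finite `F0`-algebra
  let φ : D.F0 →+* X.W n :=
    { toFun := fun z => ⟨fun _ => algebraMap E V z, X.diag_mem n (hF0 z z.2)⟩
      map_one' := by ext i; simp
      map_mul' := fun x y => by ext i; simp
      map_zero' := by ext i; simp
      map_add' := fun x y => by ext i; simp }
  letI : Algebra D.F0 (X.W n) := φ.toAlgebra
  have hφ : ∀ (z : D.F0) (w : X.W n), ((z • w : X.W n) : ZMod n → V) = (z : E) • (w : ZMod n → V) := by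
    intro z w
    rw [Algebra.smul_def]
    funext i
    change algebraMap E V z * w.1 i = (z : E) • w.1 i
    rw [Algebra.smul_def]
  have hfin : Module.Finite D.F0 (X.W n) := by
    refine ⟨⟨Finset.univ.image fun i => (⟨B i, (hB _).2 (basis_mem_cs B _ i)⟩ : X.W n), ?_⟩⟩
    rw [eq_top_iff]
    intro w _
    have hw := (hB _).1 w.2
    have : w = ∑ i, (⟨B.repr w.1 i, hw i⟩ : D.F0) •
        (⟨B i, (hB _).2 (basis_mem_cs B _ i)⟩ : X.W n) := by
      apply Subtype.ext
      rw [AddSubmonoidClass.coe_finset_sum]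
      simp only [hφ]
      exact (B.sum_repr w.1).symm
    rw [this]
    exact Submodule.sum_mem _ fun i _ => Submodule.smul_mem _ _
      (Submodule.subset_span (by simp))
  have hart : IsArtinianRing (X.W n) := IsArtinianRing.of_finite D.F0 (X.W n)
  have hred : IsReduced (X.W n) := by
    refine ⟨fun w hw => ?_⟩
    obtain ⟨m, hm⟩ := hw
    apply Subtype.ext
    funext i
    have h1 : (w.1 i) ^ m = 0 := by
      have := congrFun (congrArg Subtype.val hm) i
      simpa using this
    have : IsNilpotent (w.1 i) := ⟨m, h1⟩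
    exact this.eq_zero
  have hss : IsSemisimpleRing (X.W n) := IsArtinianRing.isSemisimpleRing_of_isReduced (X.W n)
  have hVnt : Nontrivial V := ⟨⟨X.e, 0, he0⟩⟩
  refine ⟨⟨0, 1, ?_⟩, mul_comm, ?_⟩
  · intro h
    have := congrFun (congrArg Subtype.val h) (0 : ZMod n)
    exact zero_ne_one (α := V) this
  · intro w hw
    obtain ⟨J, hJ⟩ := exists_isCompl (Ideal.span {w})
    have h1 : (1 : X.W n) ∈ Ideal.span {w} ⊔ J := by rw [hJ.sup_eq_top]; trivial
    obtain ⟨a, ha, c, hc, hac⟩ := Submodule.mem_sup.1 h1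
    have hacz : a * c = 0 := by
      have : a * c ∈ Ideal.span {w} ⊓ J := ⟨Ideal.mul_mem_right _ _ ha, Ideal.mul_mem_left _ _ hc⟩
      rw [hJ.inf_eq_bot] at this
      exact this
    have haa : a * a = a := by linear_combination a * hac - hacz
    have hwc : w * c = 0 := by
      have : w * c ∈ Ideal.span {w} ⊓ J :=
        ⟨Ideal.mul_mem_right _ _ (Ideal.mem_span_singleton_self w), Ideal.mul_mem_left _ _ hc⟩
      rw [hJ.inf_eq_bot] at this
      exact this
    obtain ⟨u, hu⟩ := Ideal.mem_span_singleton'.1 ha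
    have hav : (a : ZMod n → V) * (a : ZMod n → V) = a := congrArg Subtype.val haa
    rcases X.idem_trivial n hNB hid he0 a.1 a.2 hav with h | h
    · exfalso
      apply hw
      have ha0 : a = 0 := Subtype.ext h
      rw [ha0, zero_add] at hac
      rw [hac, mul_one] at hwc
      exact hwc
    · have ha1 : a = 1 := Subtype.ext h
      exact ⟨u, by rw [mul_comm, hu, ha1]⟩

end Edge

end Crest.Agent.R013.CutCov_92
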