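import Mathlib

/-!
# Row 13, leaf SS-ONE (helper863): Eisenstein's lemma

`k` a field, `O` a subring with fraction field `k`.  A power series `f ∈ k⟦x⟧` is *convergent*
(`Conv O f`) when `c f(b x) ∈ O⟦x⟧` for some nonzero `b, c ∈ O`.  Main theorem `conv_of_root`:
a simple root in `k⟦x⟧` of a polynomial with convergent coefficients is convergent.
-/

set_option autoImplicit false

open PowerSeries

namespace Crest.Agent.R013.Eis_863

variable {k : Type*} [Field k] (O : Subring k)

/-- power series whose coefficients of index `< n` are in `O` -/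
def IntN (n : ℕ) : Subring k⟦X⟧ where
  carrier := {f | ∀ j < n, coeff j f ∈ O}
  mul_mem' {a b} ha hb j hj := by
    rw [coeff_mul]
    refine O.sum_mem fun p hp => O.mul_mem (ha _ ?_) (hb _ ?_)
    · have := Finset.HasAntidiagonal.mem_antidiagonal.1 hp; omega
    · have := Finset.HasAntidiagonal.mem_antidiagonal.1 hp; omega
  one_mem' j _ := by
    rw [coeff_one]
    split_ifs
    · exact O.one_mem
    · exact O.zero_mem
  add_mem' {a b} ha hb j hj := by
    rw [map_add]
    exact O.add_mem (ha j hj) (hb j hj)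
  zero_mem' j _ := by simp
  neg_mem' {a} ha j hj := by
    rw [map_neg]
    exact O.neg_mem (ha j hj)

/-- power series with all coefficients in `O` -/
def IntS : Subring k⟦X⟧ where
  carrier := {f | ∀ j, coeff j f ∈ O}
  mul_mem' {a b} ha hb j := by
    rw [coeff_mul]
    exact O.sum_mem fun p hp => O.mul_mem (ha _) (hb _)
  one_mem' j := by
    rw [coeff_one]
    split_ifs
    · exact O.one_mem
    · exact O.zero_mem
  add_mem' {a b} ha hb j := by
    rw [map_add]
    exact O.add_mem (ha j) (hb j)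
  zero_mem' j := by simp
  neg_mem' {a} ha j := by
    rw [map_neg]
    exact O.neg_mem (ha j)

variable {O}

theorem mem_IntS {f : k⟦X⟧} : f ∈ IntS O ↔ ∀ j, coeff j f ∈ O := Iff.rfl

theorem mem_IntN {n : ℕ} {f : k⟦X⟧} : f ∈ IntN O n ↔ ∀ j < n, coeff j f ∈ O := Iff.rfl

theorem IntS_le_IntN (n : ℕ) : IntS O ≤ IntN O n := fun _ h j _ => h j

theorem X_mul_mem {n : ℕ} {f : k⟦X⟧} (h : f ∈ IntN O n) : X * f ∈ IntN O (n + 1) := by
  intro j hj
  cases j with
  | zero => simp
  | succ j =>
    rw [coeff_succ_X_mul]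
    exact h j (by omega)

theorem X_mem : (X : k⟦X⟧) ∈ IntS O := by
  intro j
  rw [coeff_X]
  split_ifs
  · exact O.one_mem
  · exact O.zero_mem

theorem C_mem {a : k} (ha : a ∈ O) : C a ∈ IntS O := by
  intro j
  rw [coeff_C]
  split_ifs
  · exact ha
  · exact O.zero_mem

theorem eval_mem {S : Subring k⟦X⟧} {R : Polynomial k⟦X⟧} (hR : ∀ i, R.coeff i ∈ S) {g : k⟦X⟧}
    (hg : g ∈ S) : R.eval g ∈ S := by
  rw [Polynomial.eval_eq_sum_range]
  exact S.sum_mem fun i _ => S.mul_mem (hR i) (S.pow_mem hg i)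

/-- Lemma A: a solution of `g = h + x R(g)` with `h`, `R` integral is integral. -/
theorem int_of_eq {h g : k⟦X⟧} {R : Polynomial k⟦X⟧} (hh : h ∈ IntS O)
    (hR : ∀ i, R.coeff i ∈ IntS O) (e : g = h + X * R.eval g) : g ∈ IntS O := by
  have key : ∀ n, g ∈ IntN O n := by
    intro n
    induction n with
    | zero => intro j hj; omega
    | succ n ih =>
      rw [e]
      exact (IntN O (n + 1)).add_mem (IntS_le_IntN _ hh)
        (X_mul_mem (eval_mem (fun i => IntS_le_IntN n (hR i)) ih))
  exact fun j => key (j + 1) j (Nat.lt_succ_self j)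

theorem rescale_mem {f : k⟦X⟧} (h : f ∈ IntS O) {b : k} (hb : b ∈ O) : rescale b f ∈ IntS O := by
  intro j
  rw [coeff_rescale]
  exact O.mul_mem (O.pow_mem hb j) (h j)

variable (O)

/-- convergent power series -/
def Conv (f : k⟦X⟧) : Prop :=
  ∃ b ∈ O, b ≠ 0 ∧ ∃ c ∈ O, c ≠ 0 ∧ C c * rescale b f ∈ IntS O

variable {O}

theorem conv_multiple {f : k⟦X⟧} {b c b' c' : k} (h : C c * rescale b f ∈ IntS O) (hb' : b' ∈ O)
    (hc' : c' ∈ O) : C (c * c') * rescale (b * b') f ∈ IntS O := by
  have h1 : C (c * c') * rescale (b * b') f = C c' * rescale b' (C c * rescale b f) := by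
    ext n
    simp only [coeff_C_mul, coeff_rescale]
    ring
  rw [h1]
  exact (IntS O).mul_mem (C_mem hc') (rescale_mem h hb')

theorem Conv.of_int {f : k⟦X⟧} (h : f ∈ IntS O) : Conv O f :=
  ⟨1, O.one_mem, one_ne_zero, 1, O.one_mem, one_ne_zero, by
    simpa [rescale_one] using h⟩

theorem Conv.common {f g : k⟦X⟧} (hf : Conv O f) (hg : Conv O g) :
    ∃ b ∈ O, b ≠ 0 ∧ ∃ c ∈ O, c ≠ 0 ∧ C c * rescale b f ∈ IntS O ∧ C c * rescale b g ∈ IntS O := by
  obtain ⟨b, hb, hb0, c, hc, hc0, h⟩ := hf
  obtain ⟨b', hb', hb0', c', hc', hc0', h'⟩ := hg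
  refine ⟨b * b', O.mul_mem hb hb', mul_ne_zero hb0 hb0', c * c', O.mul_mem hc hc',
    mul_ne_zero hc0 hc0', conv_multiple h hb' hc', ?_⟩
  have := conv_multiple h' hb hc
  rwa [mul_comm c' c, mul_comm b' b] at this

theorem Conv.common_finset {ι : Type*} (s : Finset ι) (f : ι → k⟦X⟧) (hf : ∀ i ∈ s, Conv O (f i)) :
    ∃ b ∈ O, b ≠ 0 ∧ ∃ c ∈ O, c ≠ 0 ∧ ∀ i ∈ s, C c * rescale b (f i) ∈ IntS O := by
  classical
  induction s using Finset.induction_on with
  | empty => exact ⟨1, O.one_mem, one_ne_zero, 1, O.one_mem, one_ne_zero, by simp⟩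
  | insert a s ha ih =>
    obtain ⟨b, hb, hb0, c, hc, hc0, h⟩ := ih fun i hi => hf i (Finset.mem_insert_of_mem hi)
    obtain ⟨b', hb', hb0', c', hc', hc0', h'⟩ := hf a (Finset.mem_insert_self a s)
    refine ⟨b * b', O.mul_mem hb hb', mul_ne_zero hb0 hb0', c * c', O.mul_mem hc hc',
      mul_ne_zero hc0 hc0', fun i hi => ?_⟩
    rcases Finset.mem_insert.1 hi with rfl | hi
    · have := conv_multiple h' hb hc
      rwa [mul_comm c' c, mul_comm b' b] at this
    · exact conv_multiple (h i hi) hb' hc'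

theorem Conv.add {f g : k⟦X⟧} (hf : Conv O f) (hg : Conv O g) : Conv O (f + g) := by
  obtain ⟨b, hb, hb0, c, hc, hc0, h, h'⟩ := hf.common hg
  refine ⟨b, hb, hb0, c, hc, hc0, ?_⟩
  rw [map_add, mul_add]
  exact (IntS O).add_mem h h'

theorem Conv.mul {f g : k⟦X⟧} (hf : Conv O f) (hg : Conv O g) : Conv O (f * g) := by
  obtain ⟨b, hb, hb0, c, hc, hc0, h, h'⟩ := hf.common hg
  refine ⟨b, hb, hb0, c * c, O.mul_mem hc hc, mul_ne_zero hc0 hc0, ?_⟩
  have : C (c * c) * rescale b (f * g) = (C c * rescale b f) * (C c * rescale b g) := by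
    rw [map_mul, map_mul]; ring
  rw [this]
  exact (IntS O).mul_mem h h'

variable (O) in
/-- the ring of convergent power series -/
def convS : Subring k⟦X⟧ where
  carrier := {f | Conv O f}
  mul_mem' h h' := h.mul h'
  one_mem' := Conv.of_int (IntS O).one_mem
  add_mem' h h' := h.add h'
  zero_mem' := Conv.of_int (IntS O).zero_mem
  neg_mem' {f} := by
    rintro ⟨b, hb, hb0, c, hc, hc0, h⟩
    refine ⟨b, hb, hb0, c, hc, hc0, ?_⟩
    rw [map_neg, mul_neg]
    exact (IntS O).neg_mem h

theorem mem_convS {f : k⟦X⟧} : f ∈ convS O ↔ Conv O f := Iff.rfl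

theorem conv_X : Conv O (X : k⟦X⟧) := Conv.of_int X_mem

theorem conv_C (hO : ∀ x : k, ∃ d ∈ O, d ≠ 0 ∧ d * x ∈ O) (a : k) : Conv O (C a : k⟦X⟧) := by
  obtain ⟨d, hd, hd0, h⟩ := hO a
  refine ⟨1, O.one_mem, one_ne_zero, d, hd, hd0, ?_⟩
  rw [rescale_one, RingHom.id_apply, ← map_mul]
  exact C_mem h

theorem conv_coe (hO : ∀ x : k, ∃ d ∈ O, d ≠ 0 ∧ d * x ∈ O) (p : Polynomial k) :
    Conv O (p : k⟦X⟧) := by
  rw [← mem_convS]
  induction p using Polynomial.induction_on' with
  | add p q hp hq =>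
    rw [Polynomial.coe_add]
    exact (convS O).add_mem hp hq
  | monomial n a =>
    rw [Polynomial.coe_monomial, monomial_eq_C_mul_X_pow]
    exact (convS O).mul_mem (conv_C hO a) ((convS O).pow_mem conv_X n)

/-- division by a power of `x` -/
theorem Conv.of_X_pow_mul {n : ℕ} {f : k⟦X⟧} (h : Conv O (X ^ n * f)) : Conv O f := by
  obtain ⟨b, hb, hb0, c, hc, hc0, h⟩ := h
  refine ⟨b, hb, hb0, c * b ^ n, O.mul_mem hc (O.pow_mem hb n), mul_ne_zero hc0 (pow_ne_zero _ hb0),
    fun j => ?_⟩
  have := h (j + n)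
  rw [coeff_C_mul, coeff_rescale, add_comm j n, coeff_X_pow_mul'] at this
  rw [coeff_C_mul, coeff_rescale]
  simp only [Nat.le_add_right, if_true, Nat.add_sub_cancel_left] at this
  have e : c * b ^ n * (b ^ j * (coeff j) f) = c * (b ^ (n + j) * (coeff j) f) := by ring
  rw [e]
  exact this

/-- Lemma B: a solution of `g = h + x R(g)` with `h`, `R` convergent is convergent. -/
theorem conv_of_eq {h g : k⟦X⟧} {R : Polynomial k⟦X⟧} (hh : Conv O h)
    (hR : ∀ i, Conv O (R.coeff i)) (e : g = h + X * R.eval g) : Conv O g := by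
  classical
  obtain ⟨b, hb, hb0, c, hc, hc0, H⟩ := Conv.common_finset
    (insert none ((Finset.range (R.natDegree + 1)).image some))
    (fun i : Option ℕ => i.elim h R.coeff) (by
      rintro (_ | i) _
      · exact hh
      · exact hR i)
  have Hh : C c * rescale b h ∈ IntS O := H none (by simp)
  have HR : ∀ i, C c * rescale b (R.coeff i) ∈ IntS O := by
    intro i
    by_cases hi : i ≤ R.natDegree
    · exact H (some i) (by simp; omega)
    · rw [Polynomial.coeff_eq_zero_of_natDegree_lt (by omega)]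
      simp
  set M := R.natDegree with hM
  set b' := b * c ^ M with hb'
  have hcM : c ^ M ∈ O := O.pow_mem hc M
  have hb'0 : b' ≠ 0 := mul_ne_zero hb0 (pow_ne_zero _ hc0)
  have hb'O : b' ∈ O := O.mul_mem hb hcM
  have Hh' : C c * rescale b' h ∈ IntS O := by
    have := conv_multiple Hh hcM O.one_mem
    rwa [mul_one] at this
  have HR' : ∀ i, C c * rescale b' (R.coeff i) ∈ IntS O := by
    intro i
    have := conv_multiple (HR i) hcM O.one_mem
    rwa [mul_one] at this
  refine ⟨b', hb'O, hb'0, c, hc, hc0, ?_⟩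
  -- the scaled equation
  let R' : Polynomial k⟦X⟧ := ∑ i ∈ Finset.range (M + 1),
    Polynomial.monomial i (C (b * c ^ (M - i)) * (C c * rescale b' (R.coeff i)))
  have hR'c : ∀ i, R'.coeff i ∈ IntS O := by
    intro i
    simp only [R', Polynomial.finsetSum_coeff, Polynomial.coeff_monomial]
    refine (IntS O).sum_mem fun j _ => ?_
    split_ifs
    · exact (IntS O).mul_mem (C_mem (O.mul_mem hb (O.pow_mem hc _))) (HR' _)
    · exact (IntS O).zero_mem
  refine int_of_eq (R := R') Hh' hR'c ?_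
  conv_lhs => rw [e]
  rw [map_add, map_mul, mul_add]
  congr 1
  have hX : rescale b' (X : k⟦X⟧) = C b' * X := by
    ext n
    rw [coeff_rescale, coeff_C_mul, coeff_X]
    split_ifs with hn
    · subst hn; simp
    · simp
  rw [hX]
  have h1 : R'.eval (C c * rescale b' g) = C c * C b' * rescale b' (R.eval g) := by
    simp only [R', Polynomial.eval_finsetSum, Polynomial.eval_monomial]
    rw [Polynomial.eval_eq_sum_range, map_sum, Finset.mul_sum]
    refine Finset.sum_congr rfl fun i hi => ?_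
    have hi' : i ≤ M := by simpa [Nat.lt_succ_iff] using hi
    rw [map_mul (rescale b'), map_pow (rescale b'), mul_pow]
    have h2 : (C (b * c ^ (M - i)) : k⟦X⟧) * C c ^ i = C b' := by
      rw [← map_pow, ← map_mul, hb', mul_assoc, ← pow_add, Nat.sub_add_cancel hi']
    calc (C (b * c ^ (M - i)) * (C c * rescale b' (R.coeff i))) * (C c ^ i * rescale b' g ^ i)
        = (C (b * c ^ (M - i)) * C c ^ i) * (C c * rescale b' (R.coeff i) * rescale b' g ^ i) := by
          ring
      _ = C b' * (C c * rescale b' (R.coeff i) * rescale b' g ^ i) := by rw [h2]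
      _ = _ := by ring
  rw [h1]
  ring

theorem conv_C_of_mul {a d : k} (hd : d ∈ O) (hd0 : d ≠ 0) (h : d * a ∈ O) :
    Conv O (C a : k⟦X⟧) := by
  refine ⟨1, O.one_mem, one_ne_zero, d, hd, hd0, ?_⟩
  rw [rescale_one, RingHom.id_apply, ← map_mul]
  exact C_mem h

/-- the constant term of a convergent series is convergent -/
theorem Conv.constantCoeff {f : k⟦X⟧} (h : Conv O f) :
    Conv O (C (constantCoeff f) : k⟦X⟧) := by
  obtain ⟨b, hb, hb0, c, hc, hc0, h⟩ := h
  have := h 0
  rw [coeff_C_mul, coeff_rescale, pow_zero, one_mul, coeff_zero_eq_constantCoeff_apply] at this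
  exact conv_C_of_mul hc hc0 this

/-- the inverse of the constant term of a convergent series is convergent -/
theorem Conv.constantCoeff_inv {f : k⟦X⟧} (h : Conv O f) :
    Conv O (C (PowerSeries.constantCoeff f)⁻¹ : k⟦X⟧) := by
  obtain ⟨b, hb, hb0, c, hc, hc0, h⟩ := h
  have := h 0
  rw [coeff_C_mul, coeff_rescale, pow_zero, one_mul, coeff_zero_eq_constantCoeff_apply] at this
  by_cases h0 : PowerSeries.constantCoeff f = 0
  · rw [h0, inv_zero, map_zero]
    exact (convS O).zero_mem
  · refine conv_C_of_mul this (mul_ne_zero hc0 h0) ?_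
    rwa [mul_assoc, mul_inv_cancel₀ h0, mul_one]

/-- **Eisenstein's lemma.** A simple root in `k⟦x⟧` of a polynomial with convergent coefficients is
convergent as soon as one of its truncations is. -/
theorem conv_of_root' {P : Polynomial k⟦X⟧}
    (hP : ∀ i, Conv O (P.coeff i)) {f : k⟦X⟧} (hf : P.eval f = 0)
    (hf' : P.derivative.eval f ≠ 0)
    (hpc : Conv O ((trunc ((P.derivative.eval f).order.toNat + 1) f : Polynomial k) : k⟦X⟧)) :
    Conv O f := by
  classical
  -- order of `P'(f)`
  obtain ⟨d, hd⟩ : ∃ d : ℕ, d = (P.derivative.eval f).order.toNat := ⟨_, rfl⟩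
  rw [← hd] at hpc
  obtain ⟨u, hu0, hu⟩ : ∃ (u : k⟦X⟧), PowerSeries.constantCoeff u ≠ 0 ∧
      P.derivative.eval f = X ^ d * u := by
    refine ⟨_, ?_, by rw [hd]; exact (X_pow_order_mul_divXPowOrder).symm⟩
    rwa [Ne, constantCoeff_divXPowOrder_eq_zero_iff]
  set N := d + 1 with hN
  set p : k⟦X⟧ := ((trunc N f : Polynomial k) : k⟦X⟧) with hp
  obtain ⟨g, hg⟩ : ∃ g : k⟦X⟧, f = p + X ^ N * g := by
    refine ⟨mk fun i => coeff (i + N) f, ?_⟩
    rw [add_comm]
    exact eq_X_pow_mul_shift_add_trunc N f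
  set t : ℕ → k⟦X⟧ := fun i => (Polynomial.taylor p P).coeff i with ht
  have htc : ∀ i, Conv O (t i) := by
    intro i
    rw [ht]
    simp only [Polynomial.taylor_coeff]
    refine eval_mem (S := convS O) (fun j => ?_) hpc
    rw [Polynomial.hasseDeriv_coeff, mem_convS]
    exact (convS O).mul_mem (natCast_mem _ _) (hP _)
  -- the order of `t 1`
  obtain ⟨q, hq⟩ := Polynomial.sub_dvd_eval_sub f p P.derivative
  have hfp : f - p = X ^ N * g := by rw [hg]; ring
  set v : k⟦X⟧ := u - X * (g * q) with hv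
  have ht1 : t 1 = X ^ d * v := by
    rw [ht]
    simp only [Polynomial.taylor_coeff_one]
    have : P.derivative.eval p = P.derivative.eval f - (f - p) * q := by rw [← hq]; ring
    rw [this, hfp, hu, hv, hN, pow_succ]
    ring
  have hv0 : PowerSeries.constantCoeff v ≠ 0 := by
    rw [hv, map_sub, map_mul, constantCoeff_X, zero_mul, sub_zero]
    exact hu0
  have hvc : Conv O v := Conv.of_X_pow_mul (n := d) (ht1 ▸ htc 1)
  -- the equation of `g`
  set m := (Polynomial.taylor p P).natDegree with hm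
  have h0 : 0 = t 0 + t 1 * (X ^ N * g) +
      ∑ i ∈ Finset.range m, t (i + 2) * (X ^ N * g) ^ (i + 2) := by
    have h1 : (Polynomial.taylor p P).eval (X ^ N * g) = 0 := by
      rw [Polynomial.taylor_eval, add_comm, ← hg, hf]
    rw [Polynomial.eval_eq_sum_range' (n := m + 2) (by omega), Finset.sum_range_succ',
      Finset.sum_range_succ'] at h1
    rw [← h1]
    simp only [ht, pow_zero, zero_add, pow_one, mul_one]
    ring
  set w : k⟦X⟧ := -(v * g + X * ∑ i ∈ Finset.range m, t (i + 2) * X ^ (N * i) * g ^ (i + 2)) with hw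
  have ht0 : t 0 = X ^ (N + d) * w := by
    have e1 : ∑ i ∈ Finset.range m, t (i + 2) * (X ^ N * g) ^ (i + 2) =
        X ^ (N + d) * (X * ∑ i ∈ Finset.range m, t (i + 2) * X ^ (N * i) * g ^ (i + 2)) := by
      rw [Finset.mul_sum, Finset.mul_sum]
      refine Finset.sum_congr rfl fun i _ => ?_
      have e2 : (X ^ N * g) ^ (i + 2) = X ^ (N + d) * X * X ^ (N * i) * g ^ (i + 2) := by
        rw [mul_pow, ← pow_mul, ← pow_succ, ← pow_add]
        congr 2
        rw [hN]; ring
      rw [e2]
      ring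
    have e3 : t 0 = -(t 1 * (X ^ N * g) +
      ∑ i ∈ Finset.range m, t (i + 2) * (X ^ N * g) ^ (i + 2)) := by
      linear_combination -h0
    rw [e3, e1, ht1, hw, pow_add]
    ring
  have hwc : Conv O w := Conv.of_X_pow_mul (n := N + d) (ht0 ▸ htc 0)
  set v0 := PowerSeries.constantCoeff v with hv0d
  set v1 : k⟦X⟧ := mk fun i => coeff (i + 1) v with hv1
  have hv01 : v = C v0 + X * v1 := by
    ext n
    cases n with
    | zero => simp [hv0d]
    | succ n => simp [hv1]
  have hv1c : Conv O v1 := by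
    apply Conv.of_X_pow_mul (n := 1)
    rw [pow_one]
    have : X * v1 = v - C v0 := by rw [hv01]; ring
    rw [this]
    exact (convS O).sub_mem hvc hvc.constantCoeff
  have hgc : Conv O g := by
    let R : Polynomial k⟦X⟧ := -(Polynomial.C (C v0⁻¹) * (Polynomial.monomial 1 v1 +
      ∑ i ∈ Finset.range m, Polynomial.monomial (i + 2) (t (i + 2) * X ^ (N * i))))
    refine conv_of_eq (h := -(C v0⁻¹ * w)) (R := R) ?_ (fun i => ?_) ?_
    · exact (convS O).neg_mem ((convS O).mul_mem hvc.constantCoeff_inv hwc)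
    · simp only [R, Polynomial.coeff_neg, Polynomial.coeff_C_mul, Polynomial.coeff_add,
        Polynomial.finsetSum_coeff, Polynomial.coeff_monomial]
      refine (convS O).neg_mem ((convS O).mul_mem hvc.constantCoeff_inv ((convS O).add_mem ?_
        ((convS O).sum_mem fun j _ => ?_)))
      · split_ifs
        · exact hv1c
        · exact (convS O).zero_mem
      · split_ifs
        · exact (convS O).mul_mem (htc _) ((convS O).pow_mem conv_X _)
        · exact (convS O).zero_mem
    · have hCC : (C v0⁻¹ : k⟦X⟧) * C v0 = 1 := by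
        rw [← map_mul, inv_mul_cancel₀ hv0, map_one]
      have hRe : R.eval g = -(C v0⁻¹ * (v1 * g +
          ∑ i ∈ Finset.range m, t (i + 2) * X ^ (N * i) * g ^ (i + 2))) := by
        simp only [R, Polynomial.eval_neg, Polynomial.eval_mul, Polynomial.eval_C,
          Polynomial.eval_add, Polynomial.eval_monomial, Polynomial.eval_finsetSum, pow_one]
      rw [hRe, hw]
      have e4 : v * g = C v0 * g + X * v1 * g := by rw [hv01]; ring
      rw [e4]
      linear_combination (-g) * hCC
  rw [hg]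
  exact (convS O).add_mem hpc ((convS O).mul_mem ((convS O).pow_mem conv_X _) hgc)

/-- **Eisenstein's lemma.** A simple root in `k⟦x⟧` of a polynomial with convergent coefficients is
convergent. -/
theorem conv_of_root (hO : ∀ x : k, ∃ d ∈ O, d ≠ 0 ∧ d * x ∈ O) {P : Polynomial k⟦X⟧}
    (hP : ∀ i, Conv O (P.coeff i)) {f : k⟦X⟧} (hf : P.eval f = 0)
    (hf' : P.derivative.eval f ≠ 0) : Conv O f :=
  conv_of_root' hP hf hf' (conv_coe hO _)

/-- the coefficients of a simple root are in every subfield containing the coefficients of the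
equation and of a truncation of the root -/
theorem coeff_mem_of_root {L : Subfield k} {P : Polynomial k⟦X⟧}
    (hP : ∀ i j, coeff j (P.coeff i) ∈ L) {f : k⟦X⟧} (hf : P.eval f = 0)
    (hf' : P.derivative.eval f ≠ 0)
    (ht : ∀ j < (P.derivative.eval f).order.toNat + 1, coeff j f ∈ L) (j : ℕ) :
    coeff j f ∈ L := by
  have h : Conv L.toSubring f := by
    refine conv_of_root' (fun i => Conv.of_int fun j => hP i j) hf hf' (Conv.of_int fun j => ?_)
    rw [Polynomial.coeff_coe, coeff_trunc]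
    split_ifs with hj
    · exact ht j hj
    · exact L.zero_mem
  obtain ⟨b, hb, hb0, c, hc, hc0, h⟩ := h
  have h1 : c * (b ^ j * coeff j f) ∈ L := by
    have := h j
    rwa [coeff_C_mul, coeff_rescale] at this
  have h2 : coeff j f = (c * b ^ j)⁻¹ * (c * (b ^ j * coeff j f)) := by
    field_simp
  rw [h2]
  exact L.mul_mem (L.inv_mem (L.mul_mem hc (L.pow_mem hb j))) h1

end Crest.Agent.R013.Eis_863
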