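import Mathlib
import Crest.Agent.R013.Cell2_408
import Crest.Agent.R013.Eis_863

/-!
# Row 13, leaf SS-ONE (helper863): algebraic power series are in `BD k C` after a rescaling
-/

set_option autoImplicit false
set_option linter.unusedSectionVars false

open PowerSeries

namespace Crest.Agent.R013.Cvg_863

open Crest.Agent.R013.Cell_408 Crest.Agent.R013.Eis_863

variable {k C : Type*} [NontriviallyNormedField k] [NormedField C] [IsUltrametricDist C]
  [NormedAlgebra k C] [Algebra.IsAlgebraic k C]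

/-- rescaling by an element of the closed unit disc -/
theorem rescale_mem_BD {f : C⟦X⟧} (hf : f ∈ BD k C) {s : C} (hs : ‖s‖ ≤ 1) :
    rescale s f ∈ BD k C := by
  obtain ⟨h1, M, h2⟩ := mem_BD.1 hf
  obtain ⟨L, hL, h3, h4⟩ := h1.common (finDef_const (k := k) (ι := Unit) s)
  refine mem_BD.2 ⟨⟨L, hL, fun n => ?_⟩, M, fun n => ?_⟩
  · dsimp only
    rw [coeff_rescale]
    exact mul_mem (pow_mem (h4 ()) n) (h3 n)
  · rw [coeff_rescale, norm_mul, norm_pow]
    calc ‖s‖ ^ n * ‖coeff n f‖ ≤ 1 * ‖coeff n f‖ :=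
          mul_le_mul_of_nonneg_right (pow_le_one₀ (norm_nonneg _) hs) (norm_nonneg _)
      _ = ‖coeff n f‖ := one_mul _
      _ ≤ M := h2 n

theorem rescale_mem_of_le {f : C⟦X⟧} {r r' : C} (hf : rescale r f ∈ BD k C) (hr : r ≠ 0)
    (h : ‖r'‖ ≤ ‖r‖) : rescale r' f ∈ BD k C := by
  have h1 : rescale r' f = rescale (r' / r) (rescale r f) := by
    rw [rescale_rescale, mul_div_cancel₀ _ hr]
  rw [h1]
  refine rescale_mem_BD hf ?_
  rw [norm_div]
  exact div_le_one_of_le₀ h (norm_nonneg _)

variable (k) in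
/-- **Eisenstein's lemma for `BD`**: a power series which is a simple root of a polynomial with
coefficients in `C[X]` is in `BD` after rescaling. -/
theorem exists_rescale_mem_BD {P : Polynomial C⟦X⟧}
    (hP : ∀ i, ∃ p : Polynomial C, P.coeff i = (p : C⟦X⟧)) {f : C⟦X⟧}
    (hf : P.eval f = 0) (hf' : P.derivative.eval f ≠ 0) :
    ∃ r : C, r ≠ 0 ∧ rescale r f ∈ BD k C := by
  classical
  choose p hp using hP
  -- boundedness
  have hO : ∀ x : C, ∃ d ∈ Ob C, d ≠ 0 ∧ d * x ∈ Ob C := by
    intro x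
    by_cases hx : ‖x‖ ≤ 1
    · exact ⟨1, (Ob C).one_mem, one_ne_zero, by rw [one_mul]; exact hx⟩
    · push Not at hx
      have hx0 : x ≠ 0 := by
        rintro rfl
        rw [norm_zero] at hx
        linarith
      refine ⟨x⁻¹, ?_, inv_ne_zero hx0, by rw [inv_mul_cancel₀ hx0]; exact (Ob C).one_mem⟩
      rw [mem_Ob, norm_inv]
      exact inv_le_one_of_one_le₀ hx.le
  obtain ⟨b, hb, hb0, c, hc, hc0, H⟩ :=
    conv_of_root hO (fun i => by rw [hp i]; exact conv_coe hO _) hf hf'
  -- field of definition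
  let S : Set C := (⋃ i ∈ Finset.range (P.natDegree + 1), ((p i).coeffs : Set C)) ∪
    ((fun j => coeff j f) '' (Finset.range ((P.derivative.eval f).order.toNat + 1) : Set ℕ)) ∪ {b}
  have hSfin : S.Finite := by
    refine Set.Finite.union (Set.Finite.union ?_ ?_) (Set.finite_singleton _)
    · exact Set.Finite.biUnion (Finset.finite_toSet _) fun i _ => Finset.finite_toSet _
    · exact (Finset.finite_toSet _).image _
  let L := IntermediateField.adjoin k S
  have := hSfin.to_subtype
  have hL : FiniteDimensional k L := IntermediateField.finiteDimensional_adjoin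
    fun x _ => (Algebra.IsAlgebraic.isAlgebraic x).isIntegral
  have hSL : ∀ x ∈ S, x ∈ L := fun x hx => IntermediateField.subset_adjoin k S hx
  have hcoef : ∀ j, coeff j f ∈ L.toSubfield := by
    refine coeff_mem_of_root (P := P) (fun i j => ?_) hf hf' (fun j hj => ?_)
    · by_cases hi : i ≤ P.natDegree
      · rw [hp i, Polynomial.coeff_coe]
        by_cases h0 : (p i).coeff j = 0
        · rw [h0]; exact zero_mem _
        · refine hSL _ (Or.inl (Or.inl ?_))
          simp only [Set.mem_iUnion]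
          exact ⟨i, by simp; omega, Polynomial.coeff_mem_coeffs h0⟩
      · rw [Polynomial.coeff_eq_zero_of_natDegree_lt (by omega)]
        simp
    · exact hSL _ (Or.inl (Or.inr ⟨j, by simpa using hj, rfl⟩))
  have hbL : b ∈ L := hSL _ (Or.inr rfl)
  refine ⟨b, hb0, mem_BD.2 ⟨⟨L, hL, fun n => ?_⟩, ‖c‖⁻¹, fun n => ?_⟩⟩
  · dsimp only
    rw [coeff_rescale]
    exact mul_mem (pow_mem hbL n) (hcoef n)
  · have h1 := H n
    rw [coeff_C_mul, mem_Ob, norm_mul] at h1
    have hc1 : 0 < ‖c‖ := norm_pos_iff.2 hc0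
    rw [← one_div, le_div_iff₀ hc1, mul_comm]
    exact h1

end Crest.Agent.R013.Cvg_863
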