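import Crest.Agent.R013.Puis3_702
import Crest.Agent.R013.RR20_948
import Crest.Prelude.Def_SectConj

/-!
# Row 13 (helper702): Laurent expansion at a rational place
-/

set_option autoImplicit false

open scoped NNReal
open Crest.NumberTheoryR.Sect Polynomial

namespace Crest.Agent.R013.Lau_702

variable {k : Type*} [Field k] {K : Type*} [Field K] [Algebra k K]

/-- `P` is a rational place with uniformiser `x` -/
structure RP (P : Valuation K ℝ≥0) (x : K) : Prop where
  triv : ∀ c : k, c ≠ 0 → P (algebraMap k K c) = 1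
  lt_one : P x < 1
  ne_zero : x ≠ 0
  res : ∀ a : K, P a ≤ 1 → ∃ c : k, P (a - algebraMap k K c) < 1
  unif : ∀ a : K, P a < 1 → P a ≤ P x

theorem RP.mk' {P : Valuation K ℝ≥0} {x : K} (hP : IsRationalPlace k K P)
    (hx : IsUniformizerAt P x) : RP (k := k) P x := by
  refine ⟨hP.1.1, hx.1, ?_, hP.2, hx.2⟩
  rintro rfl
  obtain ⟨a, ha0, ha1⟩ := hP.1.2
  have hx2 := hx.2
  simp only [map_zero, nonpos_iff_eq_zero] at hx2
  rcases lt_or_gt_of_ne ha1 with h | h
  · exact ha0 (hx2 a h)
  · have h1 : P a⁻¹ < 1 := by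
      rw [map_inv₀]; exact inv_lt_one_of_one_lt₀ h
    have h2 := hx2 _ h1
    rw [map_inv₀, inv_eq_zero] at h2
    exact ha0 h2

variable {P : Valuation K ℝ≥0} {x : K} (h : RP (k := k) P x)

namespace RP
include h

theorem pos : 0 < P x := zero_lt_iff.2 ((Valuation.ne_zero_iff _).2 h.ne_zero)

theorem triv_le (c : k) : P (algebraMap k K c) ≤ 1 := by
  by_cases hc : c = 0
  · rw [hc, map_zero, map_zero]; exact zero_le
  · exact (h.triv c hc).le

theorem aeval_le (q : k[X]) : P (aeval x q) ≤ 1 := by
  induction q using Polynomial.induction_on' with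
  | add p q hp hq =>
    rw [map_add]
    exact (P.map_add _ _).trans (max_le hp hq)
  | monomial n a =>
    rw [aeval_monomial, map_mul, map_pow]
    exact mul_le_one' (h.triv_le a) (pow_le_one₀ zero_le h.lt_one.le)

theorem aeval_le_pow {n : ℕ} {q : k[X]} (hq : ∀ i < n, q.coeff i = 0) :
    P (aeval x q) ≤ P x ^ n := by
  obtain ⟨r, rfl⟩ := X_pow_dvd_iff.2 hq
  rw [map_mul, map_pow, aeval_X, map_mul, map_pow]
  calc P x ^ n * P (aeval x r) ≤ P x ^ n * 1 := mul_le_mul' le_rfl (h.aeval_le r)
    _ = P x ^ n := mul_one _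

end RP

theorem trunc_zero' (g : PowerSeries k) : PowerSeries.trunc 0 g = 0 := by
  ext i
  rw [PowerSeries.coeff_trunc, if_neg (Nat.not_lt_zero i), Polynomial.coeff_zero]

/-- `g` is the expansion of `a` in powers of `x` -/
def Exp (P : Valuation K ℝ≥0) (x : K) (a : K) (g : PowerSeries k) : Prop :=
  ∀ n, P (a - aeval x (PowerSeries.trunc n g)) ≤ P x ^ n

theorem Exp.add {a b : K} {f g : PowerSeries k} (ha : Exp P x a f) (hb : Exp P x b g) :
    Exp P x (a + b) (f + g) := by
  intro n
  have : a + b - aeval x (PowerSeries.trunc n (f + g)) =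
      (a - aeval x (PowerSeries.trunc n f)) + (b - aeval x (PowerSeries.trunc n g)) := by
    rw [map_add, map_add]; ring
  rw [this]
  exact (P.map_add _ _).trans (max_le (ha n) (hb n))

include h in
theorem Exp.mul {a b : K} {f g : PowerSeries k} (ha : Exp P x a f) (hb : Exp P x b g) :
    Exp P x (a * b) (f * g) := by
  intro n
  set A := PowerSeries.trunc n f
  set B := PowerSeries.trunc n g
  have ha1 : P a ≤ 1 := by
    have h0 := ha 0
    rwa [trunc_zero', map_zero, sub_zero, pow_zero] at h0
  have h1 : a * b - aeval x (PowerSeries.trunc n (f * g)) =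
      a * (b - aeval x B) + (a - aeval x A) * aeval x B +
        aeval x (A * B - PowerSeries.trunc n (f * g)) := by
    rw [map_sub, map_mul (aeval x) A B]; ring
  rw [h1]
  refine (P.map_add _ _).trans (max_le ((P.map_add _ _).trans (max_le ?_ ?_)) ?_)
  · rw [map_mul]
    calc P a * P (b - aeval x B) ≤ 1 * P x ^ n := mul_le_mul' ha1 (hb n)
      _ = _ := one_mul _
  · rw [map_mul]
    calc P (a - aeval x A) * P (aeval x B) ≤ P x ^ n * 1 := mul_le_mul' (ha n) (h.aeval_le B)
      _ = _ := mul_one _
  · refine h.aeval_le_pow fun i hi => ?_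
    rw [coeff_sub, sub_eq_zero, ← PowerSeries.trunc_trunc_mul_trunc, PowerSeries.coeff_trunc,
      if_pos hi, ← Polynomial.coe_mul, Polynomial.coeff_coe]

include h in
theorem exp_C (c : k) : Exp P x (algebraMap k K c) (PowerSeries.C c) := by
  intro n
  rcases n with _ | n
  · rw [trunc_zero', map_zero, sub_zero, pow_zero]
    exact h.triv_le c
  · rw [PowerSeries.trunc_C, aeval_C, sub_self, map_zero]; exact zero_le

include h in
theorem exp_X : Exp P x x (PowerSeries.X : PowerSeries k) := by
  intro n
  rcases n with _ | _ | n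
  · rw [trunc_zero', map_zero, sub_zero, pow_zero]
    exact h.lt_one.le
  · have : PowerSeries.trunc 1 (PowerSeries.X : PowerSeries k) = 0 := by
      ext i
      rw [PowerSeries.coeff_trunc, PowerSeries.coeff_X]
      split_ifs <;> simp_all
    rw [zero_add, this, map_zero, sub_zero, pow_one]
  · rw [PowerSeries.trunc_X, aeval_X, sub_self, map_zero]; exact zero_le

include h in
/-- the leading term -/
theorem Exp.val {a : K} {g : PowerSeries k} (ha : Exp P x a g) (hg : g ≠ 0) :
    P a = P x ^ g.order.toNat := by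
  set m := g.order.toNat with hm
  have h1 := ha (m + 1)
  have hc : PowerSeries.coeff m g ≠ 0 := PowerSeries.coeff_order hg
  have ht : PowerSeries.trunc (m + 1) g = Polynomial.monomial m (PowerSeries.coeff m g) := by
    ext i
    rw [PowerSeries.coeff_trunc, coeff_monomial]
    split_ifs with h2 h3 h3
    · rw [h3]
    · exact PowerSeries.coeff_of_lt_order_toNat _ (by omega)
    · omega
    · rfl
  rw [ht, aeval_monomial] at h1
  have h2 : P (algebraMap k K (PowerSeries.coeff m g) * x ^ m) = P x ^ m := by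
    rw [map_mul, h.triv _ hc, one_mul, map_pow]
  have h3 : P (a - algebraMap k K (PowerSeries.coeff m g) * x ^ m) <
      P (algebraMap k K (PowerSeries.coeff m g) * x ^ m) := by
    rw [h2]
    refine h1.trans_lt ?_
    exact pow_lt_pow_right_of_lt_one₀ h.pos h.lt_one (Nat.lt_succ_self m)
  rw [← h2]
  exact (Valuation.map_eq_of_sub_lt P h3)

include h in
theorem Exp.zero_iff {a : K} {g : PowerSeries k} (ha : Exp P x a g) : g = 0 ↔ a = 0 := by
  constructor
  · rintro rfl
    by_contra h0
    have h1 : 0 < P a := zero_lt_iff.2 ((Valuation.ne_zero_iff _).2 h0)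
    obtain ⟨n, hn⟩ := exists_pow_lt_of_lt_one h1 h.lt_one
    have h2 := ha n
    have h3 : PowerSeries.trunc n (0 : PowerSeries k) = 0 := by simp
    rw [h3, map_zero, sub_zero] at h2
    exact absurd (h2.trans_lt hn) (lt_irrefl _)
  · rintro rfl
    by_contra hg
    have := ha.val h hg
    rw [map_zero] at this
    exact pow_ne_zero _ h.pos.ne' this.symm

include h in
theorem Exp.unique {a : K} {f g : PowerSeries k} (hf : Exp P x a f) (hg : Exp P x a g) : f = g := by
  have h1 : Exp P x (-a) (-g) := by
    have := (exp_C h (-1)).mul h hg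
    simpa using this
  have h2 := hf.add h1
  rw [add_neg_cancel] at h2
  have h3 := (h2.zero_iff h).2 rfl
  rwa [← sub_eq_add_neg, sub_eq_zero] at h3

include h in
theorem exists_exp {a : K} (ha : P a ≤ 1) : ∃ g : PowerSeries k, Exp P x a g := by
  choose c hc using h.res
  have hstep : ∀ b : {b : K // P b ≤ 1}, P ((b.1 - algebraMap k K (c b.1 b.2)) / x) ≤ 1 := by
    intro b
    rw [map_div₀]
    exact div_le_one_of_le₀ (h.unif _ (hc b.1 b.2)) zero_le
  let r : ℕ → {b : K // P b ≤ 1} := fun n => Nat.rec ⟨a, ha⟩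
    (fun _ b => ⟨(b.1 - algebraMap k K (c b.1 b.2)) / x, hstep b⟩) n
  have hr0 : (r 0).1 = a := rfl
  have hrS : ∀ n, (r (n + 1)).1 * x = (r n).1 - algebraMap k K (c (r n).1 (r n).2) := by
    intro n
    exact div_mul_cancel₀ _ h.ne_zero
  refine ⟨PowerSeries.mk fun n => c (r n).1 (r n).2, fun n => ?_⟩
  have key : ∀ n, a = aeval x (PowerSeries.trunc n (PowerSeries.mk fun n => c (r n).1 (r n).2)) +
      x ^ n * (r n).1 := by
    intro n
    induction n with
    | zero =>
      rw [trunc_zero', map_zero, zero_add, pow_zero, one_mul, hr0]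
    | succ n ih =>
      rw [PowerSeries.trunc_succ, map_add, aeval_monomial, PowerSeries.coeff_mk, pow_succ]
      have := hrS n
      conv_lhs => rw [ih]
      linear_combination (-x ^ n) * this
  have h1 : a - aeval x (PowerSeries.trunc n (PowerSeries.mk fun n => c (r n).1 (r n).2)) =
      x ^ n * (r n).1 := by
    conv_lhs => rw [key n]
    ring
  rw [h1, map_mul, map_pow]
  calc P x ^ n * P (r n).1 ≤ P x ^ n * 1 := mul_le_mul' le_rfl (r n).2
    _ = _ := mul_one _


include h in
theorem exists_j0 : ∃ j0 : P.valuationSubring →+* PowerSeries k,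
    ∀ a : P.valuationSubring, Exp P x a.1 (j0 a) := by
  have hex : ∀ a : P.valuationSubring, ∃ g : PowerSeries k, Exp P x a.1 g := fun a =>
    exists_exp h ((Valuation.mem_valuationSubring_iff P a.1).1 a.2)
  choose g hg using hex
  refine ⟨{ toFun := g, map_one' := ?_, map_mul' := ?_, map_zero' := ?_, map_add' := ?_ }, hg⟩
  · have h1 := exp_C h 1
    rw [map_one, map_one] at h1
    exact (hg 1).unique h h1
  · intro a b
    exact (hg (a * b)).unique h ((hg a).mul h (hg b))
  · have h1 := exp_C h 0
    rw [map_zero, map_zero] at h1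
    exact (hg 0).unique h h1
  · intro a b
    exact (hg (a + b)).unique h ((hg a).add (hg b))

theorem order_ofPS {g : PowerSeries k} (hg : g ≠ 0) :
    (HahnSeries.ofPowerSeries ℤ k g).order = g.order.toNat := by
  refine le_antisymm ?_ ?_
  · refine HahnSeries.order_le_of_coeff_ne_zero ?_
    rw [LaurentSeries.coeff_coe_powerSeries]
    exact PowerSeries.coeff_order hg
  · by_contra hlt
    push Not at hlt
    have hne : HahnSeries.ofPowerSeries ℤ k g ≠ 0 := by
      rw [Ne, map_eq_zero_iff _ HahnSeries.ofPowerSeries_injective]; exact hg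
    have h1 := HahnSeries.coeff_order_eq_zero.not.2 hne
    apply h1
    rw [PowerSeries.coeff_coe]
    split_ifs with h2
    · rfl
    · apply PowerSeries.coeff_of_lt_order_toNat
      omega

include h in
/-- **Laurent expansion at a rational place.** -/
theorem exists_laurent : ∃ j : K →+* LaurentSeries k,
    (∀ c, j (algebraMap k K c) = HahnSeries.C c) ∧ j x = HahnSeries.single (1 : ℤ) (1 : k) ∧
    (∀ a, P a ≤ 1 → ∃ g : PowerSeries k, j a = HahnSeries.ofPowerSeries ℤ k g ∧ Exp P x a g) ∧
    (∀ a, a ≠ 0 → P a = P x ^ (j a).order) := by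
  obtain ⟨j0, hj0⟩ := exists_j0 h
  set j1 := (HahnSeries.ofPowerSeries ℤ k).comp j0 with hj1
  have hinj : Function.Injective j1 := by
    rw [hj1, RingHom.coe_comp]
    refine HahnSeries.ofPowerSeries_injective.comp ?_
    rw [injective_iff_map_eq_zero]
    intro a ha
    have := ((hj0 a).zero_iff h).1 ha
    exact Subtype.ext this
  set j : K →+* LaurentSeries k := IsFractionRing.lift hinj with hj
  have hja : ∀ a : P.valuationSubring, j a.1 = HahnSeries.ofPowerSeries ℤ k (j0 a) := fun a =>
    IsFractionRing.lift_algebraMap hinj a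
  have h1 : ∀ a, P a ≤ 1 → ∃ g : PowerSeries k, j a = HahnSeries.ofPowerSeries ℤ k g ∧
      Exp P x a g := fun a ha =>
    ⟨j0 ⟨a, (Valuation.mem_valuationSubring_iff P a).2 ha⟩, hja ⟨a, _⟩, hj0 ⟨a, _⟩⟩
  have h2 : ∀ a, a ≠ 0 → P a ≤ 1 → P a = P x ^ (j a).order := by
    intro a ha0 ha
    obtain ⟨g, hg, he⟩ := h1 a ha
    have hg0 : g ≠ 0 := fun h0 => ha0 ((he.zero_iff h).1 h0)
    rw [hg, order_ofPS hg0, zpow_natCast]
    exact he.val h hg0
  refine ⟨j, fun c => ?_, ?_, h1, fun a ha0 => ?_⟩
  · obtain ⟨g, hg, he⟩ := h1 _ (h.triv_le c)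
    rw [hg, he.unique h (exp_C h c), HahnSeries.ofPowerSeries_C]
  · obtain ⟨g, hg, he⟩ := h1 _ h.lt_one.le
    rw [hg, he.unique h (exp_X h), HahnSeries.ofPowerSeries_X]
  · rcases le_total (P a) 1 with ha | ha
    · exact h2 a ha0 ha
    · have h3 : P a⁻¹ ≤ 1 := by
        rw [map_inv₀]; exact inv_le_one_of_one_le₀ ha
      have h4 := h2 a⁻¹ (inv_ne_zero ha0) h3
      have h5 : (j a⁻¹).order = -(j a).order := by
        have hne : j a ≠ 0 := (map_ne_zero j).2 ha0
        have hne' : j a⁻¹ ≠ 0 := (map_ne_zero j).2 (inv_ne_zero ha0)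
        have h6 : (j a * j a⁻¹).order = 0 := by
          rw [← map_mul, mul_inv_cancel₀ ha0, map_one, HahnSeries.order_one]
        rw [HahnSeries.order_mul hne hne'] at h6
        omega
      rw [h5, map_inv₀, zpow_neg, inv_inj] at h4
      exact h4

/-- for a function field everything is algebraic over `k(x)` -/
theorem isAlgebraic_adjoin [Algebra (RatFunc k) K] [IsScalarTower k (RatFunc k) K]
    [FiniteDimensional (RatFunc k) K] (y : K) (hy : Transcendental k y) :
    Algebra.IsAlgebraic (IntermediateField.adjoin k {y}) K := by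
  have hfin := RR20_948.ratAlg_finite (k := k) (K := K) y hy
  let i := RR20_948.ratAlg y hy
  have hfin' : @FiniteDimensional (RatFunc k) K _ _ i.toModule := hfin
  have halg : @Algebra.IsAlgebraic (RatFunc k) K _ _ i := by
    let _ := i
    exact Algebra.IsAlgebraic.of_finite (RatFunc k) K
  have hmem : ∀ f : RatFunc k, RR20_948.ratHom y hy f ∈ IntermediateField.adjoin k {y} := by
    intro f
    have : (RR20_948.ratHom y hy).fieldRange ≤ IntermediateField.adjoin k {y} := by
      rintro _ ⟨f, rfl⟩
      induction f using RatFunc.induction_on with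
      | f p q hq =>
        have h1 : ∀ p : k[X], RR20_948.ratHom y hy (algebraMap k[X] (RatFunc k) p) ∈
            IntermediateField.adjoin k {y} := by
          intro p
          have h2 := RatFunc.liftAlgHom_apply_div (Polynomial.aeval y)
            (nonZeroDivisors_le_comap_nonZeroDivisors_of_injective _
              (transcendental_iff_injective.mp hy)) p 1
          simp only [map_one, div_one] at h2
          have h3 : RR20_948.ratHom y hy (algebraMap k[X] (RatFunc k) p) = aeval y p := h2
          rw [h3]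
          exact (IntermediateField.algebra_adjoin_le_adjoin k {y})
            (Polynomial.aeval_mem_adjoin_singleton k y)
        have h4 := (IntermediateField.adjoin k {y}).div_mem (h1 p) (h1 q)
        rw [← map_div₀] at h4
        exact h4
    exact this ⟨f, rfl⟩
  let φ : RatFunc k →+* IntermediateField.adjoin k {y} :=
    ((RR20_948.ratHom y hy) : RatFunc k →+* K).codRestrict _ hmem
  refine ⟨fun a => ?_⟩
  obtain ⟨p, hp0, hp⟩ := @Algebra.IsAlgebraic.isAlgebraic (RatFunc k) K _ _ i halg a
  refine ⟨p.map φ, (Polynomial.map_ne_zero_iff φ.injective).2 hp0, ?_⟩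
  rw [← eval_map_algebraMap, Polynomial.map_map]
  have h5 : (algebraMap (IntermediateField.adjoin k {y}) K).comp φ = @algebraMap (RatFunc k) K _ _ i := rfl
  rw [h5]
  rw [← @eval_map_algebraMap (RatFunc k) K _ _ i] at hp
  exact hp

include h in
theorem transcendental : Transcendental k x := by
  intro halg
  have hx := h.ne_zero
  -- the valuation is trivial on the algebraic closure of `k`
  obtain ⟨p, hp0, hp⟩ := halg
  have hc : Exp P x (aeval x p) (p : PowerSeries k) := by
    intro n
    rw [← map_sub]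
    refine h.aeval_le_pow fun i hi => ?_
    rw [coeff_sub, PowerSeries.coeff_trunc, if_pos hi, Polynomial.coeff_coe, sub_self]
  rw [hp] at hc
  have := (hc.zero_iff h).2 rfl
  exact hp0 (Polynomial.coe_eq_zero_iff.1 this)

include h in
/-- **(DISC)** for a function field at a rational place: a Laurent expansion with convergent values. -/
theorem exists_disc {Ω : Type*} [Field Ω] [Algebra k Ω] [CharZero Ω] [Algebra (RatFunc k) K]
    [IsScalarTower k (RatFunc k) K] [FiniteDimensional (RatFunc k) K] (v : Valuation Ω ℝ≥0) :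
    ∃ j : K →+* LaurentSeries k,
      (∀ c, j (algebraMap k K c) = HahnSeries.C c) ∧ j x = HahnSeries.single (1 : ℤ) (1 : k) ∧
      (∀ a, P a ≤ 1 → ∃ g : PowerSeries k, j a = HahnSeries.ofPowerSeries ℤ k g ∧ Exp P x a g) ∧
      (∀ a, a ≠ 0 → P a = P x ^ (j a).order) ∧
      (∀ a, Puis_702.mapL (algebraMap k Ω) (j a) ∈ Puis_702.convL v) := by
  obtain ⟨j, h1, h2, h3, h4⟩ := exists_laurent h
  exact ⟨j, h1, h2, h3, h4, Puis_702.disc v j h1 x h2
    (isAlgebraic_adjoin x (transcendental h))⟩

end Crest.Agent.R013.Lau_702
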