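import Crest.Agent.R013.Small3_940
import Crest.Agent.R013.Lau_702
import Crest.Agent.R013.MaxUnr_97
import Crest.Agent.R013.Unr11_957

/-!
# R013 / Small4: the canonical expansion `J` of `maxUnramified k K` at a rational place (helper940)
-/

set_option autoImplicit false
set_option linter.unusedSectionVars false

namespace Crest.Agent.R013.Small4_940

open scoped NNReal
open Crest.NumberTheoryR.Sect Polynomial
open Crest.Agent.R013.Small2_940 Crest.Agent.R013.Small3_940
open Crest.Agent.R013.Puis_702 (mapL coeff_mapL convL CL)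
open Crest.Agent.R013.MaxUnr_97

variable {k : Type*} [Field k] [CharZero k] {K : Type*} [Field K] [Algebra k K]
  [Algebra (RatFunc k) K] [IsScalarTower k (RatFunc k) K] [FiniteDimensional (RatFunc k) K]

variable (k K) in
/-- the field of constants -/
noncomputable abbrev Cb := algebraicClosure k (AlgebraicClosure K)

variable (k K) in
/-- constants in `maxUnramified` -/
noncomputable def iM : Cb k K →+* maxUnramified k K :=
  (algebraMap (Cb k K) (AlgebraicClosure K)).codRestrict (maxUnramified k K) fun c =>
    mem_maxUnramified_of_isIntegral c.1 (isAlgebraic_iff_isIntegral.mp (mem_algebraicClosure_iff.mp c.2))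

@[simp] theorem coe_iM (c : Cb k K) : ((iM k K c : maxUnramified k K) : AlgebraicClosure K) = c := rfl

section place

variable {P : Valuation (AlgebraicClosure K) ℝ≥0} {x : K}

theorem ru_M (hP : IsRationalPlace k K (P.comap (algebraMap K (AlgebraicClosure K))))
    (hx : IsUniformizerAt (P.comap (algebraMap K (AlgebraicClosure K))) x) :
    RU (iM k K) (P.comap (algebraMap (maxUnramified k K) (AlgebraicClosure K)))
      (algebraMap K (maxUnramified k K) x) where
  rat a ha := by
    obtain ⟨c, hc, h1⟩ := exists_const_near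
      (P.comap (algebraMap (maxUnramified k K) (AlgebraicClosure K))) hP a ha
    have hc' : IsIntegral k (c : AlgebraicClosure K) := by
      have := hc.map (IsScalarTower.toAlgHom k (maxUnramified k K) (AlgebraicClosure K))
      exact this
    refine ⟨⟨(c : AlgebraicClosure K), mem_algebraicClosure_iff.mpr
      (isAlgebraic_iff_isIntegral.mpr hc')⟩, ?_⟩
    exact h1
  lt_one := hx.1
  unif a ha := by
    rcases eq_or_ne a 0 with rfl | ha0
    · rw [map_zero]; exact zero_le
    obtain ⟨L, hL, haL⟩ := Unr5_957.mem_maxUnramified_iff.mp a.2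
    have hpl : IsPlace k (P.comap (algebraMap L (AlgebraicClosure K))) := by
      refine ⟨fun c hc => ?_, ?_⟩
      · have := hP.1.1 c hc
        exact this
      · obtain ⟨b, hb0, hb1⟩ := hP.1.2
        exact ⟨algebraMap K L b, hb0, hb1⟩
    obtain ⟨b, hb⟩ := hL.2 _ hpl ⟨a, haL⟩ (fun h => ha0 (Subtype.ext (congrArg (Subtype.val : L → AlgebraicClosure K) h)))
    have hb' : P (a : AlgebraicClosure K) = P (algebraMap K (AlgebraicClosure K) b) := hb
    have h1 : P (a : AlgebraicClosure K) < 1 := ha
    show P (a : AlgebraicClosure K) ≤ P (algebraMap K (AlgebraicClosure K) x)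
    rw [hb'] at h1 ⊢
    exact hx.2 b h1
  ne := by
    have h1 := (Lau_702.RP.mk' hP hx).ne_zero
    exact (_root_.map_ne_zero _).mpr h1

/-- **the canonical expansion** -/
theorem exists_J {C Y : Type*} [Field C] [Field Y] (i : C →+* Y) (P : Valuation Y ℝ≥0) (x : Y)
    (h : RU i P x) (ht : ∀ c, c ≠ 0 → P (i c) = 1) : ∃ J : Y →+* LaurentSeries C, IsExp i P x J := by
  let _ : Algebra C Y := i.toAlgebra
  have h' : Lau_702.RP (k := C) P x := ⟨ht, h.lt_one, h.ne, h.rat, h.unif⟩
  obtain ⟨J, h1, h2, h3, -⟩ := Lau_702.exists_laurent h'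
  refine ⟨J, h1, h2, fun a ha n hn => ?_⟩
  obtain ⟨g, hg, -⟩ := h3 a ha
  rw [hg, PowerSeries.coeff_coe, if_pos hn]

theorem triv_const (hP : IsRationalPlace k K (P.comap (algebraMap K (AlgebraicClosure K))))
    {c : AlgebraicClosure K} (hc : IsIntegral k c) (hc0 : c ≠ 0) : P c = 1 := by
  have h1 : ∀ c : AlgebraicClosure K, IsIntegral k c → P c ≤ 1 := by
    intro c hc
    have hle : (⊤ : Subring k).map (algebraMap k (AlgebraicClosure K)) ≤ P.integer := by
      rintro _ ⟨a, -, rfl⟩
      rw [Valuation.mem_integer_iff]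
      rcases eq_or_ne a 0 with rfl | ha
      · rw [map_zero, map_zero]; exact zero_le
      · exact (hP.1.1 a ha).le
    have h2 : IsIntegral P.integer c := by
      obtain ⟨f, hf, hfc⟩ := hc
      let g : k →+* P.integer := (algebraMap k (AlgebraicClosure K)).codRestrict P.integer
        fun a => hle ⟨a, trivial, rfl⟩
      refine ⟨f.map g, hf.map g, ?_⟩
      rw [eval₂_map]
      exact hfc
    have h3 := Valuation.Integers.mem_of_integral (Valuation.integer.integers P) h2
    exact h3
  refine le_antisymm (h1 c hc) ?_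
  have h2 := h1 c⁻¹ hc.inv
  rw [map_inv₀] at h2
  have h3 : 0 < P c := by rwa [Valuation.pos_iff]
  exact (inv_le_one₀ h3).mp h2

theorem exists_JM (hP : IsRationalPlace k K (P.comap (algebraMap K (AlgebraicClosure K))))
    (hx : IsUniformizerAt (P.comap (algebraMap K (AlgebraicClosure K))) x) :
    ∃ J : maxUnramified k K →+* LaurentSeries (Cb k K),
      IsExp (iM k K) (P.comap (algebraMap (maxUnramified k K) (AlgebraicClosure K)))
        (algebraMap K (maxUnramified k K) x) J := by
  refine exists_J _ _ _ (ru_M hP hx) fun c hc => ?_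
  refine triv_const hP (c := (c : AlgebraicClosure K))
    (isAlgebraic_iff_isIntegral.mp (mem_algebraicClosure_iff.mp c.2)) ?_
  exact fun h => hc (Subtype.ext h)

theorem exists_JK (hP : IsRationalPlace k K (P.comap (algebraMap K (AlgebraicClosure K))))
    (hx : IsUniformizerAt (P.comap (algebraMap K (AlgebraicClosure K))) x)
    {J : maxUnramified k K →+* LaurentSeries (Cb k K)}
    (hJ : IsExp (iM k K) (P.comap (algebraMap (maxUnramified k K) (AlgebraicClosure K)))
        (algebraMap K (maxUnramified k K) x) J) :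
    ∃ JK : K →+* LaurentSeries k, IsExp (algebraMap k K)
      (P.comap (algebraMap K (AlgebraicClosure K))) x JK ∧
      J.comp (algebraMap K (maxUnramified k K)) = (mapL (algebraMap k (Cb k K))).comp JK := by
  have h := Lau_702.RP.mk' hP hx
  have h0 : RU (algebraMap k K) (P.comap (algebraMap K (AlgebraicClosure K))) x :=
    ⟨h.res, h.lt_one, h.unif, h.ne_zero⟩
  obtain ⟨JK, hJK⟩ := exists_J (algebraMap k K) _ x h0 hP.1.1
  refine ⟨JK, hJK, ?_⟩
  refine RingHom.ext fun a => ?_
  refine HahnSeries.ext (funext fun n => ?_)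
  rw [RingHom.comp_apply, RingHom.comp_apply, coeff_mapL]
  refine hJK.equiv hJ h0 (ru_M hP hx).ne (algebraMap K (maxUnramified k K)) (algebraMap k (Cb k K))
    (fun c => ?_) rfl (fun a ha => ha) a n
  apply Subtype.ext
  rfl

instance isGalois_Cb : IsGalois k (Cb k K) := by
  have : IsAlgClosure k (Cb k K) := inferInstance
  have : Normal k (Cb k K) := IsAlgClosure.normal k _
  exact IsGalois.mk

theorem exists_fin (hP : IsRationalPlace k K (P.comap (algebraMap K (AlgebraicClosure K))))
    (hx : IsUniformizerAt (P.comap (algebraMap K (AlgebraicClosure K))) x)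
    {J : maxUnramified k K →+* LaurentSeries (Cb k K)}
    (hJ : IsExp (iM k K) (P.comap (algebraMap (maxUnramified k K) (AlgebraicClosure K)))
        (algebraMap K (maxUnramified k K) x) J) (a : maxUnramified k K) :
    FiniteDimensional k (IntermediateField.adjoin k (Set.range (J a).coeff)) := by
  obtain ⟨JK, -, h1⟩ := exists_JK hP hx hJ
  have hint : IsIntegral K a := Algebra.IsIntegral.isIntegral a
  refine Puis_702.coeff_field ((minpoly K a).map JK)
    ((Polynomial.map_ne_zero_iff JK.injective).mpr (minpoly.ne_zero hint)) (J a) ?_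
  rw [Polynomial.map_map, ← h1, Polynomial.eval_map, ← Polynomial.hom_eval₂, ← Polynomial.aeval_def,
    minpoly.aeval, map_zero]

theorem exists_conv (hP : IsRationalPlace k K (P.comap (algebraMap K (AlgebraicClosure K))))
    (hx : IsUniformizerAt (P.comap (algebraMap K (AlgebraicClosure K))) x)
    {J : maxUnramified k K →+* LaurentSeries (Cb k K)}
    (hJ : IsExp (iM k K) (P.comap (algebraMap (maxUnramified k K) (AlgebraicClosure K)))
        (algebraMap K (maxUnramified k K) x) J) (v : Valuation (Cb k K) ℝ≥0)
    (a : maxUnramified k K) : J a ∈ convL v := by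
  obtain ⟨JK, hJK, h1⟩ := exists_JK hP hx hJ
  have h := Lau_702.RP.mk' hP hx
  have hK : ∀ b : K, J (algebraMap K (maxUnramified k K) b) ∈ convL v := by
    intro b
    have h2 := Puis_702.disc v JK hJK.con x hJK.par
      (Lau_702.isAlgebraic_adjoin x (Lau_702.transcendental h)) b
    have h3 := congrArg (fun f : K →+* LaurentSeries (Cb k K) => f b) h1
    simp only [RingHom.comp_apply] at h3
    rwa [h3]
  let j : K →+* convL v := (J.comp (algebraMap K (maxUnramified k K))).codRestrict (convL v) hK
  have hint : IsIntegral K a := Algebra.IsIntegral.isIntegral a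
  refine Puis_702.conv_of_alg (J a) ⟨(minpoly K a).map j,
    (Polynomial.map_ne_zero_iff j.injective).mpr (minpoly.ne_zero hint), ?_⟩
  rw [← Polynomial.eval_map_algebraMap, Polynomial.map_map]
  have h4 : (algebraMap (convL v) (LaurentSeries (Cb k K))).comp j =
    J.comp (algebraMap K (maxUnramified k K)) := rfl
  rw [h4, Polynomial.eval_map, ← Polynomial.hom_eval₂, ← Polynomial.aeval_def, minpoly.aeval,
    map_zero]

/-- **uniform bounds and finite level for finitely many functions** -/
theorem exists_common (hP : IsRationalPlace k K (P.comap (algebraMap K (AlgebraicClosure K))))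
    (hx : IsUniformizerAt (P.comap (algebraMap K (AlgebraicClosure K))) x)
    {J : maxUnramified k K →+* LaurentSeries (Cb k K)}
    (hJ : IsExp (iM k K) (P.comap (algebraMap (maxUnramified k K) (AlgebraicClosure K)))
        (algebraMap K (maxUnramified k K) x) J) (v : Valuation (Cb k K) ℝ≥0)
    (s : Finset (maxUnramified k K)) :
    ∃ C0 : IntermediateField k (Cb k K), FiniteDimensional k C0 ∧
      (∀ z ∈ s, ∀ i, (J z).coeff i ∈ C0) ∧
      ∃ ρ : ℝ≥0, 0 < ρ ∧ ∃ B : ℝ≥0, ∀ z ∈ s, ∀ i : ℤ, v ((J z).coeff i) * ρ ^ i ≤ B := by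
  classical
  have hf := fun a => exists_fin hP hx hJ a
  refine ⟨⨆ z ∈ s, IntermediateField.adjoin k (Set.range (J z).coeff), ?_, fun z hz i => ?_, ?_⟩
  · exact IntermediateField.finiteDimensional_iSup_of_finset' fun z _ => hf z
  · exact (le_iSup₂_of_le z hz le_rfl :
      IntermediateField.adjoin k (Set.range (J z).coeff) ≤ _)
        (IntermediateField.subset_adjoin _ _ ⟨i, rfl⟩)
  · obtain ⟨ρ, hρ, B, hB⟩ := Puis_702.bdd_common (v := v) (s.image J) (by
      intro z hz
      obtain ⟨a, -, rfl⟩ := Finset.mem_image.mp hz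
      exact exists_conv hP hx hJ v a)
    exact ⟨ρ, hρ, B, fun z hz i => hB _ (Finset.mem_image_of_mem J hz) i⟩

end place

end Crest.Agent.R013.Small4_940
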