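import Crest.Agent.R013.VData_803
import Crest.Agent.R013.DCut1_22
import Crest.Agent.R013.Small4_940

/-!
# Row 13, D-LINE: the interfaces (helper906)

`Ω = AlgebraicClosure K`, `Cb k K ⊆ Ω` the algebraic closure of `k`, `Kgeo k K = K k̄ ⊆ Ω`,
`jC : Cb k K → F` dense, `F` complete.  The pencil: `b : Fin m → K` (regular forms `b_j dX`),
`α β : Fin m → F` (the coordinates of two Hodge–Tate forms); approximations `a a' : Fin m → Cb k K`;
`phi b a a' = (∑ a_j b_j) / (∑ a'_j b_j) ∈ K k̄`.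

* `GoodG`, `SEG` : the input / output of part B at a geometric place `P` with uniformiser `x ∈ K k̄`.
* `TRans p` : part B for geometric places (leaf D-TR, from `BMain p`, `VSupply p`).
* `SeedGood`, `SeedSE` : at all places over `phi = n` (leaf D-ST1, and its image under `TRans`).
* `Stage2` : leaf D-ST2.
-/

set_option autoImplicit false

namespace Crest.Agent.R013.DDefs_906

open scoped NNReal Topology
open Filter Crest.NumberTheoryR.Sect
open Crest.Agent.R013.SE_669 Crest.Agent.R013.CGood_588 Crest.Agent.R013.GoodP_797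
  Crest.Agent.R013.VData_803 Crest.Agent.R013.Cof2_669 Crest.Agent.R013.Cof5_669
  Crest.Agent.R013.DCut_22 Crest.Agent.R013.Small4_940

/-- **Input of part B at a geometric place** `P` with uniformiser `x ∈ K k̄` (797's `GoodAt`, the
level of constants `C` being large enough for `x`). -/
def GoodG (p : ℕ) [Fact p.Prime] (k : Type*) [Field k] [Algebra ℚ_[p] k] (K : Type*) [Field K]
    [Algebra k K] (P : Valuation (AlgebraicClosure K) ℝ≥0) (x : AlgebraicClosure K)
    (δ η : ℝ≥0) : Prop :=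
  ∃ (C : IntermediateField k (AlgebraicClosure K)) (π q c : AlgebraicClosure K)
    (v : Valuation (AlgebraicClosure K) ℝ≥0),
    FiniteDimensional k C ∧ x ∈ KC K C ∧ π ∈ C ∧ q ∈ C ∧ c ∈ C ∧ π ≠ 0 ∧ c ≠ 0 ∧
    v π < δ ∧ v q < η * v π ∧ v c < η * v π ∧
    ExtendsPadicNorm k (AlgebraicClosure K) p v ∧
    (∃ R : ℝ≥0, v π < η * R ∧ DiscEmb K C P x R v) ∧
    GaussAt C ((x - q) / c) v ∧
    VertexEq p v (maxUnramified k K : Set (AlgebraicClosure K)) ((x - q) / c)

/-- **Output of part B at a geometric place**: a circle of radius `< δ` around `P` in the parameter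
`x` (for all sufficiently large finite levels `C` of constants), and an `e`-th root of `x` in the
closure of `maxUnramified` for its norm. -/
def SEG (p : ℕ) [Fact p.Prime] (k : Type*) [Field k] [Algebra ℚ_[p] k] (K : Type*) [Field K]
    [Algebra k K] (P : Valuation (AlgebraicClosure K) ℝ≥0) (x : AlgebraicClosure K) (e : ℕ)
    (δ : ℝ≥0) : Prop :=
  ∃ C₀ : IntermediateField k (AlgebraicClosure K), FiniteDimensional k C₀ ∧
    ∀ C : IntermediateField k (AlgebraicClosure K), C₀ ≤ C → FiniteDimensional k C →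
      ∃ (d : Circ p k K C) (ξ : AlgebraicClosure K), SameGeo k d.P P ∧ d.x = x ∧ d.v₀ d.π < δ ∧
        ξ ^ e = x ∧ ξ ∈ cl d.v₀ (maxUnramified k K : Set (AlgebraicClosure K))

/-- `x` is a uniformiser of the geometric place `P` -/
def UnifG (k : Type*) [Field k] {K : Type*} [Field K] [Algebra k K]
    (P : Valuation (AlgebraicClosure K) ℝ≥0) (x : AlgebraicClosure K) : Prop :=
  IsPlace k P ∧ x ∈ Kgeo k K ∧ P x < 1 ∧ ∀ g ∈ Kgeo k K, P g < 1 → P g ≤ P x

/-- **D-TR** (669): part B at geometric places.  To be proved: `BMain p → VSupply p → TRans p`. -/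
def TRans (p : ℕ) [Fact p.Prime] : Prop :=
  ∀ e : ℕ, 0 < e → ∃ η : ℝ≥0, 0 < η ∧
    ∀ (k : Type) [Field k] [Algebra ℚ_[p] k] [FiniteDimensional ℚ_[p] k] (K : Type) [Field K]
      [Algebra k K] [Algebra (RatFunc k) K] [IsScalarTower k (RatFunc k) K] [FunctionField k K],
      algebraicClosure k K = ⊥ → 2 ≤ genus k K →
      ∀ (P : Valuation (AlgebraicClosure K) ℝ≥0) (x : AlgebraicClosure K), UnifG k P x →
        ∀ δ : ℝ≥0, 0 < δ → GoodG p k K P x δ η → SEG p k K P x e δ

section pencil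

variable {k : Type*} [Field k] {K : Type*} [Field K] [Algebra k K] {m : ℕ}
  {F : Type*} [NormedField F]

/-- `∑ a_j b_j` -/
noncomputable def lc (b : Fin m → K) (a : Fin m → Cb k K) : AlgebraicClosure K :=
  ∑ j, (a j : AlgebraicClosure K) * algebraMap K (AlgebraicClosure K) (b j)

/-- `φ' = A' / B'` -/
noncomputable def phi (b : Fin m → K) (a a' : Fin m → Cb k K) : AlgebraicClosure K :=
  lc b a / lc b a'

/-- the coefficients `a` are `δ`-close to `α` -/
def Close (jC : Cb k K →+* F) (α : Fin m → F) (δ : ℝ) (a : Fin m → Cb k K) : Prop :=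
  ∀ j, ‖jC (a j) - α j‖ < δ

/-- **D-ST1** (749): at every place over `phi = n` (`n` not bad), at every scale, for all close
approximations of the pencil. -/
def SeedGood (p : ℕ) [Fact p.Prime] [Algebra ℚ_[p] k] (jC : Cb k K →+* F) (b : Fin m → K)
    (α β : Fin m → F) (Bad : Finset ℤ) : Prop :=
  ∀ n : ℤ, n ∉ Bad → ∀ δ η : ℝ≥0, 0 < δ → 0 < η → ∃ ε : ℝ, 0 < ε ∧
    ∀ a a' : Fin m → Cb k K, Close jC α ε a → Close jC β ε a' →
      ∀ P : Valuation (AlgebraicClosure K) ℝ≥0, IsPlace k P → P (phi b a a' - n) < 1 →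
        UnifG k P (phi b a a' - n) ∧ GoodG p k K P (phi b a a' - n) δ η

/-- `(SE)` at the seeds -/
def SeedSE (p : ℕ) [Fact p.Prime] [Algebra ℚ_[p] k] (jC : Cb k K →+* F) (b : Fin m → K)
    (α β : Fin m → F) (Bad : Finset ℤ) : Prop :=
  ∀ n : ℤ, n ∉ Bad → ∀ e : ℕ, 0 < e → ∀ δ : ℝ≥0, 0 < δ → ∃ ε : ℝ, 0 < ε ∧
    ∀ a a' : Fin m → Cb k K, Close jC α ε a → Close jC β ε a' →
      ∀ P : Valuation (AlgebraicClosure K) ℝ≥0, IsPlace k P → P (phi b a a' - n) < 1 →
        SEG p k K P (phi b a a' - n) e δ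

/-- **D-ST2** (205): the second stage at the rational place `P` with uniformiser `x`: integers
`n_i` (not bad), exponents `e_i` with sum `0`, a level `p ^ N`, such that for all close
approximations of the pencil, `y ^ (p ^ N) = ∏ (phi - n_i) ^ e_i` gives a vertex on `K k̄ (y)`. -/
def Stage2 (p : ℕ) [Fact p.Prime] [Algebra ℚ_[p] k] (jC : Cb k K →+* F) (b : Fin m → K)
    (α β : Fin m → F) (Bad : Finset ℤ) (P : Valuation (AlgebraicClosure K) ℝ≥0) (x : K)
    (δ η : ℝ≥0) : Prop :=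
  ∃ (M : ℕ) (n e : Fin M → ℤ) (N : ℕ) (κ : ℝ≥0), (∀ i, n i ∉ Bad) ∧ Function.Injective n ∧
    ∑ i, e i = 0 ∧ 0 < κ ∧ ∃ ε : ℝ, 0 < ε ∧
    ∀ a a' : Fin m → Cb k K, Close jC α ε a → Close jC β ε a' →
      ∀ y : AlgebraicClosure K, y ^ p ^ N = ∏ i, (phi b a a' - n i) ^ e i →
        ∃ (C : IntermediateField k (AlgebraicClosure K)) (π q c : AlgebraicClosure K)
          (v : Valuation (AlgebraicClosure K) ℝ≥0),
          FiniteDimensional k C ∧ π ∈ C ∧ q ∈ C ∧ c ∈ C ∧ π ≠ 0 ∧ c ≠ 0 ∧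
          v π < δ ∧ v q < η * v π ∧ v c < η * v π ∧
          ExtendsPadicNorm k (AlgebraicClosure K) p v ∧
          (∃ R : ℝ≥0, v π < η * R ∧ DiscEmb K C P (algebraMap K (AlgebraicClosure K) x) R v) ∧
          GaussAt C ((algebraMap K (AlgebraicClosure K) x - q) / c) v ∧
          VertexEq p v ((IntermediateField.adjoin (Kgeo k K) {y} :
              IntermediateField (Kgeo k K) (AlgebraicClosure K)) : Set (AlgebraicClosure K))
            ((algebraMap K (AlgebraicClosure K) x - q) / c) ∧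
          ∀ i, κ ≤ v (phi b a a' - n i)

theorem seedSE_of {p : ℕ} [Fact p.Prime] (hT : TRans p) {k : Type} [Field k] [Algebra ℚ_[p] k]
    [FiniteDimensional ℚ_[p] k] {K : Type} [Field K]
    [Algebra k K] [Algebra (RatFunc k) K] [IsScalarTower k (RatFunc k) K] [FunctionField k K]
    (hc : algebraicClosure k K = ⊥) (hg : 2 ≤ genus k K) {m : ℕ}
    {F : Type*} [NormedField F] {jC : Cb k K →+* F} {b : Fin m → K}
    {α β : Fin m → F} {Bad : Finset ℤ} (h : SeedGood p jC b α β Bad) :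
    SeedSE p jC b α β Bad := by
  intro n hn e he δ hδ
  obtain ⟨η, hη, hT'⟩ := hT e he
  obtain ⟨ε, hε, h1⟩ := h n hn δ η hδ hη
  refine ⟨ε, hε, fun a a' ha ha' P hP hPn => ?_⟩
  obtain ⟨h2, h3⟩ := h1 a a' ha ha' P hP hPn
  exact hT' k K hc hg P _ h2 δ hδ h3

end pencil

end Crest.Agent.R013.DDefs_906
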