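import Crest.Agent.R013.VData_803
import Crest.Agent.R013.Cof5_669

/-!
# Row 13, D-TR, definitions: `GoodPt` (pointwise in `π`) and `GoodC` (over a finite constant field)

* `GoodPt p k K P x π η` : 797's `GoodAt` with the radius element `π` fixed in advance;
* `SupplyPt p` : 803's / 797's `VSupply`, pointwise (the same `π`);
* `GoodC p k K C₀ P x π η` : `GoodPt` inside `AlgebraicClosure K` at a place `P` which is rational
  over the finite extension `C₀` of `k`, `x ∈ K C₀`;
* `CircC p k K C₀ P x π e` : the output, a circle with an `e`-th root of `x` in the closure.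
-/

set_option autoImplicit false

namespace Crest.Agent.R013.GoodC_669

open scoped NNReal Topology
open Filter Crest.NumberTheoryR.Sect SE_669 CGood_588 GoodP_797 VData_803
open Crest.Agent.R013.Cof5_669

/-- **(GOOD') at one place, one scale `η` and one radius `|π|`.** -/
def GoodPt (p : ℕ) [Fact p.Prime] (k : Type*) [Field k] [Algebra ℚ_[p] k] (K : Type*) [Field K]
    [Algebra k K] (P : Valuation (AlgebraicClosure K) ℝ≥0) (x : K) (π : AlgebraicClosure K)
    (η : ℝ≥0) : Prop :=
  ∃ (C : IntermediateField k (AlgebraicClosure K)) (q c : AlgebraicClosure K)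
    (v : Valuation (AlgebraicClosure K) ℝ≥0),
    FiniteDimensional k C ∧ π ∈ C ∧ q ∈ C ∧ c ∈ C ∧ π ≠ 0 ∧ c ≠ 0 ∧
    v q < η * v π ∧ v c < η * v π ∧
    ExtendsPadicNorm k (AlgebraicClosure K) p v ∧
    (∃ R : ℝ≥0, v π < η * R ∧ DiscEmb K C P (algebraMap K (AlgebraicClosure K) x) R v) ∧
    GaussAt C ((algebraMap K (AlgebraicClosure K) x - q) / c) v ∧
    VertexEq p v (maxUnramified k K : Set (AlgebraicClosure K))
      ((algebraMap K (AlgebraicClosure K) x - q) / c)

/-- **The supplier of vertex data, pointwise in `π`.** -/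
def SupplyPt (p : ℕ) [Fact p.Prime] : Prop :=
  ∀ (k : Type) [Field k] [Algebra ℚ_[p] k] [FiniteDimensional ℚ_[p] k] (K : Type) [Field K]
    [Algebra k K] [Algebra (RatFunc k) K] [IsScalarTower k (RatFunc k) K] [FunctionField k K],
    algebraicClosure k K = ⊥ → 2 ≤ genus k K →
    ∀ (P : Valuation (AlgebraicClosure K) ℝ≥0) (x : K),
      IsRationalPlace k K (P.comap (algebraMap K (AlgebraicClosure K))) →
      IsUniformizerAt (P.comap (algebraMap K (AlgebraicClosure K))) x →
      ∀ (π : AlgebraicClosure K) (η : ℝ≥0), η ≤ 1 → GoodPt p k K P x π η →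
        ∃ (C : IntermediateField k (AlgebraicClosure K)) (q c : AlgebraicClosure K) (R : ℝ≥0)
          (v : Valuation (AlgebraicClosure K) ℝ≥0)
          (M : IntermediateField K (AlgebraicClosure K)) (l : ℕ) (Y : AlgebraicClosure K),
          VData p k K P x η C π q c R v M l Y

/-- **(GOOD') over the constants `C₀`**: `P` is a place of `AlgebraicClosure K`, `x ∈ K C₀`. -/
def GoodC (p : ℕ) [Fact p.Prime] (k : Type*) [Field k] [Algebra ℚ_[p] k] (K : Type*) [Field K]
    [Algebra k K] (C₀ : IntermediateField k (AlgebraicClosure K))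
    (P : Valuation (AlgebraicClosure K) ℝ≥0) (x π : AlgebraicClosure K) (η : ℝ≥0) : Prop :=
  ∃ (C : IntermediateField k (AlgebraicClosure K)) (q c : AlgebraicClosure K)
    (v : Valuation (AlgebraicClosure K) ℝ≥0),
    C₀ ≤ C ∧ FiniteDimensional k C ∧ π ∈ C ∧ q ∈ C ∧ c ∈ C ∧ π ≠ 0 ∧ c ≠ 0 ∧
    v q < η * v π ∧ v c < η * v π ∧
    ExtendsPadicNorm k (AlgebraicClosure K) p v ∧
    (∃ R : ℝ≥0, v π < η * R ∧ DiscEmb K C P x R v) ∧
    GaussAt C ((x - q) / c) v ∧
    VertexEq p v (maxUnramified k K : Set (AlgebraicClosure K)) ((x - q) / c)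

/-- **The output of D-TR**: a circle of radius `|π|` with constants `C ≥ C₀` over which an `e`-th
root of `x` is in the closure of `maxUnramified` (22's `Circ` + `ξ`). -/
def CircC (p : ℕ) [Fact p.Prime] (k : Type*) [Field k] [Algebra ℚ_[p] k] (K : Type*) [Field K]
    [Algebra k K] (C₀ : IntermediateField k (AlgebraicClosure K))
    (P : Valuation (AlgebraicClosure K) ℝ≥0) (x π : AlgebraicClosure K) (e : ℕ) : Prop :=
  ∃ (C : IntermediateField k (AlgebraicClosure K)) (ξ : AlgebraicClosure K)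
    (v : Valuation (AlgebraicClosure K) ℝ≥0),
    C₀ ≤ C ∧ FiniteDimensional k C ∧ π ∈ C ∧ π ≠ 0 ∧
    ExtendsPadicNorm k (AlgebraicClosure K) p v ∧ IsCircle K C P x (v π) v ∧
    ξ ^ e = x ∧ ξ ∈ cl v (maxUnramified k K : Set (AlgebraicClosure K))

/-- `P` is rational over `C₀` and `x` is a uniformiser of `P` on `K C₀`. -/
structure RatUnif (k : Type*) [Field k] (K : Type*) [Field K] [Algebra k K]
    (C₀ : IntermediateField k (AlgebraicClosure K)) (P : Valuation (AlgebraicClosure K) ℝ≥0)
    (x : AlgebraicClosure K) : Prop where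
  place : IsPlace k P
  rat : ∀ g ∈ KC K C₀, P g ≤ 1 → ∃ c ∈ C₀, P (g - c) < 1
  mem : x ∈ KC K C₀
  lt_one : P x < 1
  unif : ∀ g ∈ KC K C₀, P g < 1 → P g ≤ P x

end Crest.Agent.R013.GoodC_669
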