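import Crest.Agent.R013.DCut3_22
import Crest.Agent.R013.GoodC_669
import Crest.Agent.R013.DDefs_906

/-!
# Row 13, D-LINE: the final assembly, part 1 (helper906)

`ST1` (stage 1, at the seeds), `ST2` (stage 2, at the place `P`), `TR` (part B at geometric places),
`CircMono`: the inputs.  `goodAt_of` : GOOD' at `(P, x)` at the scale `(δ, η)`.
-/

set_option autoImplicit false

namespace Crest.Agent.R013.DAsm1_906

open scoped NNReal Topology
open Filter Polynomial Crest.NumberTheoryR.Sect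
open Crest.Agent.R013.SE_669 Crest.Agent.R013.CGood_588 Crest.Agent.R013.GoodP_797
  Crest.Agent.R013.VData_803 Crest.Agent.R013.Cof2_669 Crest.Agent.R013.Cof4_669
  Crest.Agent.R013.Cof5_669
  Crest.Agent.R013.DCut_22 Crest.Agent.R013.Small4_940 Crest.Agent.R013.GoodC_669
  Crest.Agent.R013.DDefs_906

/-- **D-TR** (669) -/
def TR (p : ℕ) [Fact p.Prime] : Prop :=
  ∀ e : ℕ, 0 < e → ∃ η : ℝ≥0, 0 < η ∧
    ∀ (k : Type) [Field k] [Algebra ℚ_[p] k] [FiniteDimensional ℚ_[p] k] (K : Type) [Field K]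
      [Algebra k K] [Algebra (RatFunc k) K] [IsScalarTower k (RatFunc k) K] [FunctionField k K],
      algebraicClosure k K = ⊥ → 2 ≤ genus k K →
      ∀ (C₀ : IntermediateField k (AlgebraicClosure K)), FiniteDimensional k C₀ →
      ∀ (P : Valuation (AlgebraicClosure K) ℝ≥0) (x : AlgebraicClosure K), RatUnif k K C₀ P x →
      ∀ π : AlgebraicClosure K, GoodC p k K C₀ P x π η → CircC p k K C₀ P x π e

/-- circles with more constants (669: `circ_mono`) -/
def CircMono (p : ℕ) [Fact p.Prime] (k : Type*) [Field k] [Algebra ℚ_[p] k] (K : Type*) [Field K]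
    [Algebra k K] : Prop :=
  ∀ (C C' : IntermediateField k (AlgebraicClosure K)), C ≤ C' → FiniteDimensional k C →
    FiniteDimensional k C' →
    ∀ (P v : Valuation (AlgebraicClosure K) ℝ≥0) (x π : AlgebraicClosure K),
      ExtendsPadicNorm k (AlgebraicClosure K) p v → IsPlace k P → P x < 1 → x ≠ 0 → x ∈ KC K C →
      π ∈ C → π ≠ 0 →
      IsCircle K C P x (v π) v → IsCircle K C' P x (v π) v

section

variable {k : Type} [Field k] {K : Type} [Field K] [Algebra k K]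

local notation "Kb" => AlgebraicClosure K

section pencil

variable {F : Type*} [NormedField F] {m : ℕ}

/-- **D-ST1** (749) -/
def ST1 (p : ℕ) [Fact p.Prime] [Algebra ℚ_[p] k] (jC : Cb k K →+* F) (b : Fin m → K)
    (α β : Fin m → F) (Bad : Finset ℤ) : Prop :=
  ∀ n : ℤ, n ∉ Bad → ∀ η : ℝ≥0, 0 < η → ∃ r0 : ℝ, 0 < r0 ∧
    ∀ π : Cb k K, π ≠ 0 → ‖jC π‖ < r0 → ∃ ε : ℝ, 0 < ε ∧
    ∀ a a' : Fin m → Cb k K, Close jC α ε a → Close jC β ε a' →
      ∀ P : Valuation (AlgebraicClosure K) ℝ≥0, IsPlace k P → P (phi b a a' - n) < 1 →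
        ∃ C₀ : IntermediateField k (AlgebraicClosure K), FiniteDimensional k C₀ ∧
          RatUnif k K C₀ P (phi b a a' - n) ∧
          GoodC p k K C₀ P (phi b a a' - n) (π : AlgebraicClosure K) η

/-- **D-ST2** (205) at the place `P`, uniformiser `x`, scale `(δ, η)` -/
def ST2 (p : ℕ) [Fact p.Prime] [Algebra ℚ_[p] k] (jC : Cb k K →+* F) (b : Fin m → K)
    (α β : Fin m → F) (Bad : Finset ℤ) (P : Valuation (AlgebraicClosure K) ℝ≥0) (x : K)
    (δ η : ℝ≥0) : Prop :=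
  ∃ (M : ℕ) (n e : Fin M → ℤ) (N : ℕ), (∀ i, n i ∉ Bad) ∧ Function.Injective n ∧
    ∑ i, e i = 0 ∧ ∃ ε : ℝ, 0 < ε ∧
    ∀ a a' : Fin m → Cb k K, Close jC α ε a → Close jC β ε a' →
      ∀ y : AlgebraicClosure K, y ^ p ^ N = ∏ i, (phi b a a' - n i) ^ e i →
        ∃ v : Valuation (AlgebraicClosure K) ℝ≥0,
          ExtendsPadicNorm k (AlgebraicClosure K) p v ∧ (∀ i, 1 ≤ v (phi b a a' - n i)) ∧
          ∃ C₀ : IntermediateField k (AlgebraicClosure K), FiniteDimensional k C₀ ∧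
            ∀ C : IntermediateField k (AlgebraicClosure K), C₀ ≤ C → FiniteDimensional k C →
              ((KC K C ⊔ IntermediateField.adjoin K {y} :
                IntermediateField K (AlgebraicClosure K)) : Set (AlgebraicClosure K)) ⊆
                cl v (maxUnramified k K : Set (AlgebraicClosure K)) →
              GoodAt p k K P x δ η

end pencil

/-- the norm of constants is the norm in `F` -/
theorem val_eq_norm (p : ℕ) [Fact p.Prime] [Algebra ℚ_[p] k] [FiniteDimensional ℚ_[p] k]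
    {F : Type*} [NormedField F] [IsUltrametricDist F] {jC : Cb k K →+* F}
    (hjn : ∀ a : ℚ_[p], ‖jC (algebraMap k (Cb k K) (algebraMap ℚ_[p] k a))‖ = ‖a‖)
    {v : Valuation Kb ℝ≥0} (hv : ExtendsPadicNorm k Kb p v) (c : Cb k K) :
    v (c : Kb) = ‖jC c‖₊ := by
  let _ : Algebra ℚ_[p] (Cb k K) := ((algebraMap k (Cb k K)).comp (algebraMap ℚ_[p] k)).toAlgebra
  have : IsScalarTower ℚ_[p] k (Cb k K) := IsScalarTower.of_algebraMap_eq fun _ => rfl
  have : Algebra.IsAlgebraic ℚ_[p] k := Algebra.IsAlgebraic.of_finite _ _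
  have : Algebra.IsAlgebraic k (Cb k K) := inferInstance
  have : Algebra.IsAlgebraic ℚ_[p] (Cb k K) := Algebra.IsAlgebraic.trans ℚ_[p] k (Cb k K)
  have h1 : ((v (c : Kb) : ℝ≥0) : ℝ) = spectralNorm ℚ_[p] (Cb k K) c := by
    let f : AbsoluteValue (Cb k K) ℝ := A2a_275.absOf (v.comap (algebraMap (Cb k K) Kb))
    have hf : ∀ q : ℚ_[p], f (algebraMap ℚ_[p] (Cb k K) q) = ‖q‖ := by
      intro q
      have h1 := hv q
      have h2 : ((v (algebraMap k Kb (algebraMap ℚ_[p] k q)) : ℝ≥0) : ℝ) = ‖q‖ := by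
        rw [h1]; rfl
      exact h2
    exact spectralNorm_unique_field_norm_ext hf c
  have h2 : ‖jC c‖ = spectralNorm ℚ_[p] (Cb k K) c := by
    let f : AbsoluteValue (Cb k K) ℝ := (NormedField.toAbsoluteValue F).comp jC.injective
    have hf : ∀ q : ℚ_[p], f (algebraMap ℚ_[p] (Cb k K) q) = ‖q‖ := fun q => hjn q
    exact spectralNorm_unique_field_norm_ext hf c
  apply NNReal.eq
  rw [h1, coe_nnnorm, h2]

/-- finitely many geometric places at which a given element has a zero -/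
theorem finite_zero [CharZero k] [Algebra (RatFunc k) K] [IsScalarTower k (RatFunc k) K]
    [FiniteDimensional (RatFunc k) K] {g : Kb} (hg : g ≠ 0) :
    ∃ Ps : List (Valuation Kb ℝ≥0), (∀ P ∈ Ps, IsPlace k P) ∧
      ∀ v : Valuation Kb ℝ≥0, IsPlace k v → v g < 1 → ∃ P ∈ Ps, SameGeo k P v := by
  classical
  have := tower_RKb (k := k) (K := K)
  have := alg_RKb (k := k) (K := K)
  set q : (RatFunc k)[X] := minpoly (RatFunc k) g⁻¹ with hq
  have hint : IsIntegral (RatFunc k) g⁻¹ := Algebra.IsIntegral.isIntegral _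
  have hmon : q.Monic := minpoly.monic hint
  have hroot : aeval g⁻¹ q = 0 := minpoly.aeval _ _
  choose Ls hLs1 hLs2 using finite_pole (k := k) (K := K)
  refine ⟨((Finset.range q.natDegree).toList.map fun i => Ls (q.coeff i)).flatten, ?_, ?_⟩
  · intro P hP
    obtain ⟨l, hl, hPl⟩ := List.mem_flatten.mp hP
    obtain ⟨i, _, rfl⟩ := List.mem_map.mp hl
    exact hLs1 _ P hPl
  · intro v hv hvg
    have hvg' : 1 < v g⁻¹ := by
      rw [map_inv₀]
      exact (one_lt_inv₀ ((Valuation.pos_iff v).mpr hg)).mpr hvg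
    have h1 : ∃ i ∈ Finset.range q.natDegree, 1 < v (algebraMap (RatFunc k) Kb (q.coeff i)) := by
      by_contra hcon
      push Not at hcon
      have h2 : g⁻¹ ^ q.natDegree = - ∑ i ∈ Finset.range q.natDegree,
          algebraMap (RatFunc k) Kb (q.coeff i) * g⁻¹ ^ i := by
        have h3 := hroot
        rw [aeval_eq_sum_range, Finset.sum_range_succ, hmon.coeff_natDegree, one_smul] at h3
        rw [← sub_eq_zero, sub_neg_eq_add, add_comm, ← h3]
        congr 1
        exact Finset.sum_congr rfl fun i _ => by rw [Algebra.smul_def]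
      have hdeg : 0 < q.natDegree := minpoly.natDegree_pos hint
      have h4 : v (∑ i ∈ Finset.range q.natDegree,
          algebraMap (RatFunc k) Kb (q.coeff i) * g⁻¹ ^ i) < v g⁻¹ ^ q.natDegree := by
        refine Valuation.map_sum_lt v (pow_ne_zero _ (zero_lt_one.trans hvg').ne') fun i hi => ?_
        rw [map_mul, map_pow]
        refine lt_of_le_of_lt (mul_le_of_le_one_left' (hcon i hi)) ?_
        exact pow_lt_pow_right₀ hvg' (Finset.mem_range.mp hi)
      rw [← Valuation.map_neg, ← h2, map_pow] at h4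
      exact lt_irrefl _ h4
    obtain ⟨i, hi, hi1⟩ := h1
    obtain ⟨P, hP, hPv⟩ := hLs2 (q.coeff i) v hv hi1
    refine ⟨P, List.mem_flatten.mpr ⟨Ls (q.coeff i), List.mem_map.mpr ⟨i, ?_, rfl⟩, hP⟩, hPv⟩
    exact Finset.mem_toList.mpr hi

/-- **the final assembly at one place and one scale** -/
theorem goodAt_of (p : ℕ) [Fact p.Prime] [Algebra ℚ_[p] k] [FiniteDimensional ℚ_[p] k]
    [Algebra (RatFunc k) K] [IsScalarTower k (RatFunc k) K] [FunctionField k K]
    (hc : algebraicClosure k K = ⊥) (hg : 2 ≤ genus k K)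
    (hTR : TR p) (hM : CircMono p k K) (hCut : CutEndP p k K)
    {F : Type*} [NontriviallyNormedField F] [IsUltrametricDist F] {jC : Cb k K →+* F}
    (hjn : ∀ a : ℚ_[p], ‖jC (algebraMap k (Cb k K) (algebraMap ℚ_[p] k a))‖ = ‖a‖)
    (hjd : DenseRange jC) {m : ℕ} {b : Fin m → K} {α β : Fin m → F} {Bad : Finset ℤ}
    (h1 : ST1 p jC b α β Bad) {P : Valuation Kb ℝ≥0} {x : K} {δ η : ℝ≥0}
    (h2 : ST2 p jC b α β Bad P x δ η) : GoodAt p k K P x δ η := by
  classical
  have hp : p.Prime := Fact.out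
  have hk0 : CharZero k := charZero_of_injective_algebraMap (algebraMap ℚ_[p] k).injective
  have hKfd : FiniteDimensional (RatFunc k) K := inferInstance
  have hF0 : CharZero F := charZero_of_injective_ringHom jC.injective
  obtain ⟨M, n, e, N, hBad, hninj, hsum, ε2, hε2, h2⟩ := h2
  have hE : 0 < p ^ N := pow_pos hp.pos N
  obtain ⟨η1, hη1, hTR⟩ := hTR (p ^ N) hE
  choose r0 hr0 h1 using fun i => h1 (n i) (hBad i) η1 hη1
  -- the radius
  have hpn : ‖(p : F)‖ < 1 := by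
    have h3 := hjn (p : ℚ_[p])
    rw [map_natCast, map_natCast, map_natCast] at h3
    rw [h3]; exact Padic.norm_p_lt_one
  have hpn0 : 0 < ‖(p : F)‖ := norm_pos_iff.mpr (Nat.cast_ne_zero.mpr hp.ne_zero)
  obtain ⟨ρ, hρ, hρr, hρn, hρ1⟩ : ∃ ρ : ℝ, 0 < ρ ∧ (∀ i, ρ ≤ r0 i) ∧
      (∀ i l, l ≠ i → ρ ≤ ‖((p ^ N : ℕ) : F)‖ ^ 2 * ‖((n i : ℤ) : F) - (n l : F)‖) ∧ ρ ≤ 1 := by
    let f : Option (Fin M ⊕ (Fin M × Fin M)) → ℝ := fun o => match o with
      | none => 1
      | some (Sum.inl i) => r0 i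
      | some (Sum.inr t) => if t.2 = t.1 then 1 else
          ‖((p ^ N : ℕ) : F)‖ ^ 2 * ‖((n t.1 : ℤ) : F) - (n t.2 : F)‖
    have hf : ∀ o, 0 < f o := by
      rintro (_ | i | t)
      · exact one_pos
      · exact hr0 i
      · show 0 < if t.2 = t.1 then (1 : ℝ) else _
        split_ifs with h
        · exact one_pos
        · have h3 : ((p ^ N : ℕ) : F) ≠ 0 := Nat.cast_ne_zero.mpr hE.ne'
          have h4 : ((n t.1 : ℤ) : F) - (n t.2 : F) ≠ 0 := by
            rw [sub_ne_zero]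
            intro h5
            exact h (hninj (Int.cast_injective h5)).symm
          positivity
    obtain ⟨o, ho⟩ := Finite.exists_min f
    refine ⟨f o, hf o, fun i => ho (some (Sum.inl i)), fun i l hl => ?_, ho none⟩
    have h3 := ho (some (Sum.inr (i, l)))
    have h4 : f (some (Sum.inr (i, l))) =
        ‖((p ^ N : ℕ) : F)‖ ^ 2 * ‖((n i : ℤ) : F) - (n l : F)‖ := if_neg hl
    rwa [h4] at h3
  obtain ⟨s, hs⟩ := exists_pow_lt_of_lt_one hρ hpn
  let π : Cb k K := (p : Cb k K) ^ s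
  have hπ0 : π ≠ 0 := pow_ne_zero _ (Nat.cast_ne_zero.mpr hp.ne_zero)
  have hπn : ‖jC π‖ < ρ := by
    simp only [π]
    rw [map_pow, map_natCast, norm_pow]; exact hs
  choose ε1 hε1 h1 using fun i => h1 i π hπ0 (hπn.trans_le (hρr i))
  obtain ⟨ε, hε, hεε2, hεε1⟩ : ∃ ε : ℝ, 0 < ε ∧ ε ≤ ε2 ∧ ∀ i, ε ≤ ε1 i := by
    let f : Option (Fin M) → ℝ := fun o => o.elim ε2 ε1
    have hf : ∀ o, 0 < f o := by
      rintro (_ | i)
      · exact hε2
      · exact hε1 i
    obtain ⟨o, ho⟩ := Finite.exists_min f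
    exact ⟨f o, hf o, ho none, fun i => ho (some i)⟩
  -- the approximations
  have happ : ∀ γ : Fin m → F, ∃ a : Fin m → Cb k K, Close jC γ ε a := by
    intro γ
    have h3 : ∀ j, ∃ c : Cb k K, ‖jC c - γ j‖ < ε := by
      intro j
      obtain ⟨c, hc⟩ := hjd.exists_dist_lt (γ j) hε
      exact ⟨c, by rw [norm_sub_rev, ← dist_eq_norm]; exact hc⟩
    choose a ha using h3
    exact ⟨a, ha⟩
  obtain ⟨a, ha⟩ := happ α
  obtain ⟨a', ha'⟩ := happ β
  have hmono : ∀ {γ : Fin m → F} {c : Fin m → Cb k K} {ε' : ℝ}, ε ≤ ε' → Close jC γ ε c →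
      Close jC γ ε' c := fun h h' j => (h' j).trans_le h
  set φ : Kb := phi b a a' with hφ
  obtain ⟨y, hy⟩ := IsAlgClosed.exists_pow_nat_eq (∏ i, (φ - (n i : Kb)) ^ e i) hE
  obtain ⟨v, hv, hvn, C₁, hC₁, hGood⟩ := h2 a a' (hmono hεε2 ha) (hmono hεε2 ha') y hy
  have hφn : ∀ i, φ - (n i : Kb) ≠ 0 := by
    intro i h3
    have h4 := hvn i
    rw [h3, map_zero] at h4
    exact absurd h4 (not_le.mpr one_pos)
  have hφgeo : φ ∈ Kgeo k K := by
    have h3 : ∀ c : Fin m → Cb k K, lc b c ∈ Kgeo k K := fun c =>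
      sum_mem fun j _ => mul_mem (kb_le_Kgeo (c j).2) (IntermediateField.algebraMap_mem _ _)
    exact div_mem (h3 a) (h3 a')
  obtain ⟨Cφ, hCφ, hφC⟩ := exists_C_of_mem hφgeo
  -- the places
  choose Ls hLs1 hLs2 using fun i => finite_zero (k := k) (K := K) (hφn i)
  let Q : (C : IntermediateField k Kb) → Fin M → Valuation Kb ℝ≥0 → Circ p k K C → Prop :=
    fun C i P' d => SameGeo k d.P P' ∧ d.x = φ - (n i : Kb) ∧ d.π = (π : Kb) ∧
      ∃ ξ : Kb, ξ ^ (p ^ N) = d.x ∧ ξ ∈ cl d.v₀ (maxUnramified k K : Set Kb)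
  have hone : ∀ (i : Fin M) (P' : Valuation Kb ℝ≥0), IsPlace k P' → P' (φ - (n i : Kb)) < 1 →
      ∃ C₀ : IntermediateField k Kb, FiniteDimensional k C₀ ∧
        ∀ C : IntermediateField k Kb, C₀ ≤ C → FiniteDimensional k C → ∃ d, Q C i P' d := by
    intro i P' hP' hP'n
    obtain ⟨C₀, hC₀, hR, hG⟩ := h1 i a a' (hmono (hεε1 i) ha) (hmono (hεε1 i) ha') P' hP' hP'n
    obtain ⟨C', ξ, v', hCC, hC'f, hπC, hπ0', hv', hcirc, hξ, hξcl⟩ :=
      hTR k K hc hg C₀ hC₀ P' _ hR (π : Kb) hG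
    refine ⟨C', hC'f, fun C hC hCf => ?_⟩
    have hxC' : φ - (n i : Kb) ∈ KC K C' := KC_mono hCC hR.mem
    have hcirc' := hM C' C hC hC'f hCf P' v' _ _ hv' hP' hP'n (hφn i) hxC' hπC hπ0' hcirc
    exact ⟨{ P := P', v₀ := v', x := φ - (n i : Kb), π := (π : Kb), hπ := hC hπC, hπ0 := hπ0',
             hx := KC_mono hC hxC', hx0 := hφn i, hP := hP', hPx := hP'n, hv₀ := hv',
             hcirc := hcirc' }, fun _ _ => Iff.rfl, rfl, rfl, ξ, hξ, hξcl⟩
  have hlist : ∀ T : List (Fin M × Valuation Kb ℝ≥0),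
      (∀ t ∈ T, IsPlace k t.2 ∧ t.2 (φ - (n t.1 : Kb)) < 1) →
      ∃ C₀ : IntermediateField k Kb, FiniteDimensional k C₀ ∧
        ∀ C : IntermediateField k Kb, C₀ ≤ C → FiniteDimensional k C →
          ∃ D : List (Circ p k K C), (∀ t ∈ T, ∃ d ∈ D, Q C t.1 t.2 d) ∧
            ∀ d ∈ D, ∃ t ∈ T, Q C t.1 t.2 d := by
    intro T
    induction T with
    | nil =>
      intro _
      exact ⟨⊥, inferInstance, fun C _ _ => ⟨[], by simp, by simp⟩⟩
    | cons t T ih =>
      intro hT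
      obtain ⟨C₂, hC₂, ih⟩ := ih fun t' ht' => hT t' (List.mem_cons_of_mem _ ht')
      obtain ⟨h3, h4⟩ := hT t (List.mem_cons_self ..)
      obtain ⟨C₃, hC₃, h5⟩ := hone t.1 t.2 h3 h4
      refine ⟨C₂ ⊔ C₃, IntermediateField.finiteDimensional_sup C₂ C₃, fun C hC hCf => ?_⟩
      obtain ⟨D, hD1, hD2⟩ := ih C (le_sup_left.trans hC) hCf
      obtain ⟨d, hd⟩ := h5 C (le_sup_right.trans hC) hCf
      refine ⟨d :: D, ?_, ?_⟩
      · intro t' ht'
        rcases List.mem_cons.mp ht' with rfl | ht'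
        · exact ⟨d, List.mem_cons_self .., hd⟩
        · obtain ⟨d', hd', h6⟩ := hD1 t' ht'
          exact ⟨d', List.mem_cons_of_mem _ hd', h6⟩
      · intro d' hd'
        rcases List.mem_cons.mp hd' with rfl | hd'
        · exact ⟨t, List.mem_cons_self .., hd⟩
        · obtain ⟨t', ht', h6⟩ := hD2 d' hd'
          exact ⟨t', List.mem_cons_of_mem _ ht', h6⟩
  let T : List (Fin M × Valuation Kb ℝ≥0) := ((List.finRange M).map fun i =>
    ((Ls i).filter fun P' => P' (φ - (n i : Kb)) < 1).map fun P' => (i, P')).flatten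
  have hT : ∀ t : Fin M × Valuation Kb ℝ≥0, t ∈ T ↔ t.2 ∈ Ls t.1 ∧ t.2 (φ - (n t.1 : Kb)) < 1 := by
    intro t
    simp only [T, List.mem_flatten, List.mem_map, List.mem_finRange, true_and]
    constructor
    · rintro ⟨l, ⟨i, rfl⟩, h3⟩
      rw [List.mem_map] at h3
      obtain ⟨P', hP', rfl⟩ := h3
      rw [List.mem_filter, decide_eq_true_iff] at hP'
      exact hP'
    · intro h3
      refine ⟨_, ⟨t.1, rfl⟩, ?_⟩
      rw [List.mem_map]
      refine ⟨t.2, ?_, rfl⟩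
      rw [List.mem_filter, decide_eq_true_iff]
      exact h3
  obtain ⟨C₄, hC₄, hlist⟩ := hlist T fun t ht => ⟨hLs1 t.1 t.2 ((hT t).mp ht).1, ((hT t).mp ht).2⟩
  -- the level
  let C : IntermediateField k Kb := C₁ ⊔ C₄ ⊔ Cφ
  have hCf : FiniteDimensional k C := by
    have h3 : FiniteDimensional k (C₁ ⊔ C₄ : IntermediateField k Kb) :=
      IntermediateField.finiteDimensional_sup C₁ C₄
    exact IntermediateField.finiteDimensional_sup _ Cφ
  have hC1C : C₁ ≤ C := le_sup_left.trans le_sup_left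
  have hC4C : C₄ ≤ C := le_sup_right.trans le_sup_left
  have hφC' : φ ∈ KC K C := KC_mono (le_sup_right : Cφ ≤ C) hφC
  obtain ⟨D, hD1, hD2⟩ := hlist C hC4C hCf
  refine hGood C hC1C hCf ?_
  refine dcut_seeds p hCut v hv C n hninj e hsum hφC' (fun i h3 => hφn i (sub_eq_zero.mpr h3)) hE
    hy D ?_ ?_ ?_
  · intro d hd
    obtain ⟨t, ht, -, h4, h5, -⟩ := hD2 d hd
    rw [h4, h5, val_eq_norm p hjn hv π]
    refine le_trans ?_ (hvn t.1)
    rw [← NNReal.coe_le_coe, coe_nnnorm]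
    exact (hπn.trans_le hρ1).le
  · intro d hd
    obtain ⟨t, ht, -, h4, h5, h6⟩ := hD2 d hd
    refine ⟨t.1, h4, fun l hl => ?_, h6⟩
    have h7 : d.v₀ ((p ^ N : ℕ) : Kb) = ‖((p ^ N : ℕ) : F)‖₊ := by
      have h8 := val_eq_norm p hjn d.hv₀ ((p ^ N : ℕ) : Cb k K)
      rw [map_natCast] at h8
      rw [← h8]
      congr 1
    have h9 : d.v₀ ((n t.1 : Kb) - (n l : Kb)) = ‖((n t.1 : ℤ) : F) - (n l : F)‖₊ := by
      have h8 := val_eq_norm p hjn d.hv₀ (((n t.1 : ℤ) : Cb k K) - ((n l : ℤ) : Cb k K))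
      rw [map_sub, map_intCast, map_intCast] at h8
      rw [← h8]
      congr 1
    rw [h5, val_eq_norm p hjn d.hv₀ π, h7, h9, ← NNReal.coe_lt_coe]
    have h10 := hρn t.1 l hl
    push_cast at h10 ⊢
    exact hπn.trans_le h10
  · intro v' hv' i hv'i
    obtain ⟨P', hP', hsame⟩ := hLs2 i v' hv' hv'i
    have h3 : P' (φ - (n i : Kb)) < 1 := by
      have h4 : (φ - (n i : Kb))⁻¹ ∈ Kgeo k K :=
        inv_mem (sub_mem hφgeo (intCast_mem _ _))
      have h5 := hsame _ h4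
      by_contra h6
      push Not at h6
      have h7 : P' (φ - (n i : Kb))⁻¹ ≤ 1 := by
        rw [map_inv₀]; exact inv_le_one_of_one_le₀ h6
      have h8 := h5.mp h7
      rw [map_inv₀] at h8
      have h9 : 0 < v' (φ - (n i : Kb)) := (Valuation.pos_iff v').mpr (hφn i)
      exact absurd ((inv_le_one₀ h9).mp h8) (not_le.mpr hv'i)
    obtain ⟨d, hd, h4, -⟩ := hD1 (i, P') ((hT (i, P')).mpr ⟨hP', h3⟩)
    exact ⟨d, hd, fun f hf => (h4 f hf).trans (hsame f hf)⟩

end

end Crest.Agent.R013.DAsm1_906
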