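import Crest.Agent.R013.DAsm1_906
import Crest.Agent.R013.VSup2_797
import Crest.Agent.R013.CutP_669

/-!
# Row 13, D-LINE: the final assembly, part 2 (helper906)

`PencilAll p` : existence of the pencil with the two stages.  `s0016_of` : S0016 from B-MAIN, D-TR
and `PencilAll`.
-/

set_option autoImplicit false

namespace Crest.Agent.R013.DAsm2_906

open scoped NNReal Topology
open Crest.NumberTheoryR.Sect
open Crest.Agent.R013.SE_669 Crest.Agent.R013.GoodP_797
  Crest.Agent.R013.VData_803 Crest.Agent.R013.Small4_940 Crest.Agent.R013.DAsm1_906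

/-- **the pencil**: for every `(k, K)` of genus `≥ 2` there are two Hodge–Tate forms
`∑ α_j b_j`, `∑ β_j b_j` for which both stages work. -/
def PencilAll (p : ℕ) [Fact p.Prime] : Prop :=
  ∀ (k : Type) [Field k] [Algebra ℚ_[p] k] [FiniteDimensional ℚ_[p] k] (K : Type) [Field K]
    [Algebra k K] [Algebra (RatFunc k) K] [IsScalarTower k (RatFunc k) K] [FunctionField k K],
    algebraicClosure k K = ⊥ → 2 ≤ genus k K →
    ∃ (F : Type) (_ : NontriviallyNormedField F) (_ : IsUltrametricDist F) (jC : Cb k K →+* F)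
      (m : ℕ) (b : Fin m → K) (α β : Fin m → F) (Bad : Finset ℤ),
      (∀ a : ℚ_[p], ‖jC (algebraMap k (Cb k K) (algebraMap ℚ_[p] k a))‖ = ‖a‖) ∧
      DenseRange jC ∧ ST1 p jC b α β Bad ∧
      ∀ (P : Valuation (AlgebraicClosure K) ℝ≥0) (x : K),
        IsRationalPlace k K (P.comap (algebraMap K (AlgebraicClosure K))) →
        IsUniformizerAt (P.comap (algebraMap K (AlgebraicClosure K))) x →
        ∀ δ η : ℝ≥0, 0 < δ → 0 < η → ST2 p jC b α β Bad P x δ η

theorem goodP_all (p : ℕ) [Fact p.Prime] (hTR : TR p)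
    (hM : ∀ (k : Type) [Field k] [Algebra ℚ_[p] k] [FiniteDimensional ℚ_[p] k] (K : Type) [Field K]
      [Algebra k K] [Algebra (RatFunc k) K] [IsScalarTower k (RatFunc k) K] [FunctionField k K],
      CircMono p k K) (hP : PencilAll p)
    (k : Type) [Field k] [Algebra ℚ_[p] k] [FiniteDimensional ℚ_[p] k] (K : Type) [Field K]
    [Algebra k K] [Algebra (RatFunc k) K] [IsScalarTower k (RatFunc k) K] [FunctionField k K]
    (hc : algebraicClosure k K = ⊥) (hg : 2 ≤ genus k K) : GOODP p k K := by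
  intro P x hPr hx δ η hδ hη
  obtain ⟨F, _, _, jC, m, b, α, β, Bad, hjn, hjd, h1, h2⟩ := hP k K hc hg
  exact goodAt_of p hc hg hTR (hM k K) (CutP_669.cutEndP p) hjn hjd h1 (h2 P x hPr hx δ η hδ hη)

/-- **(SE) for all curves** -/
theorem seAll (p : ℕ) [Fact p.Prime] (hB : BMain p) (hTR : TR p)
    (hM : ∀ (k : Type) [Field k] [Algebra ℚ_[p] k] [FiniteDimensional ℚ_[p] k] (K : Type) [Field K]
      [Algebra k K] [Algebra (RatFunc k) K] [IsScalarTower k (RatFunc k) K] [FunctionField k K],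
      CircMono p k K) (hP : PencilAll p) : Cof6_669.SEall p := by
  intro k _ _ _ K _ _ _ _ _ hc hg
  exact SE_of hB (VSup2_797.vSupply p) k K hc hg (goodP_all p hTR hM hP k K hc hg)

/-- **S0016 from B-MAIN, D-TR and the pencil** -/
theorem s0016_of (p : ℕ) [Fact p.Prime] (hB : BMain p) (hTR : TR p)
    (hM : ∀ (k : Type) [Field k] [Algebra ℚ_[p] k] [FiniteDimensional ℚ_[p] k] (K : Type) [Field K]
      [Algebra k K] [Algebra (RatFunc k) K] [IsScalarTower k (RatFunc k) K] [FunctionField k K],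
      CircMono p k K) (hP : PencilAll p)
    (k : Type) [Field k] [Algebra ℚ_[p] k] [FiniteDimensional ℚ_[p] k]
    (K : Type) [Field K] [Algebra k K] [Algebra (RatFunc k) K] [IsScalarTower k (RatFunc k) K]
    [FunctionField k K] (hc : algebraicClosure k K = ⊥) (hg : 2 ≤ genus k K)
    (v : Valuation K ℝ≥0) (hv : ExtendsPadicNorm k K p v)
    (w : Valuation (AlgebraicClosure K) ℝ≥0)
    (hw : w.comap (algebraMap K (AlgebraicClosure K)) = v) :
    ∀ a : AlgebraicClosure K, ∀ ε : ℝ≥0, 0 < ε →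
      ∃ b : maxUnramified k K, w (a - (b : AlgebraicClosure K)) < ε :=
  CutP_669.s0016 p (seAll p hB hTR hM hP) k K hc hg v hv w hw

end Crest.Agent.R013.DAsm2_906
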