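import Crest.Agent.R013.VSup2_797
import Crest.Agent.R013.GoodC_669

/-!
# R013 / VSup3 (helper797): `SupplyPt p` (pointwise in `π`)
-/

set_option autoImplicit false

namespace Crest.Agent.R013.VSup3_797

open Crest.NumberTheoryR.Sect

/-- **The supplier of vertex data, pointwise in `π`.** -/
theorem supplyPt (p : ℕ) [Fact p.Prime] : GoodC_669.SupplyPt p := by
  intro k _ _ _ K _ _ _ _ _ hc hg P x hP hx π η hη h
  obtain ⟨C, q, c, v, h1, h2, h3, h4, h5, h6, h8, h9, h10, ⟨R, hR, hD⟩, h12, h13⟩ := h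
  obtain ⟨M, l, Y, hV⟩ := VSup2_797.exists_vdata hP hx hη h1 h2 h3 h4 h5 h6 h8 h9 h10 hR hD h12 h13
  exact ⟨C, q, c, R, v, M, l, Y, hV⟩

end Crest.Agent.R013.VSup3_797
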