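import Mathlib
import Crest.Agent.R013.GoodC_669
import Crest.Agent.R013.CutP_669
import Crest.Agent.R013.VSup3_797

/-!
# Row 13, D-TR: B-MAIN over a finite extension of the constants, inside `AlgebraicClosure K`
-/

set_option autoImplicit false
set_option linter.unusedSectionVars false

namespace Crest.Agent.R013.DTR_669

open scoped NNReal Topology
open Filter Polynomial Crest.NumberTheoryR.Sect
open Crest.Agent.R013.SE_669 Crest.Agent.R013.Unr3_957 Crest.Agent.R013.Unr4_957
  Crest.Agent.R013.Cof1_669 Crest.Agent.R013.Cof2_669 Crest.Agent.R013.Cof3_669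
  Crest.Agent.R013.Cof4_669 Crest.Agent.R013.Cof5_669 Crest.Agent.R013.Cof6_669
  Crest.Agent.R013.CGood_588 Crest.Agent.R013.GoodP_797 Crest.Agent.R013.VData_803
  Crest.Agent.R013.GoodC_669 Crest.Agent.R013.Set_803

section defs

theorem GoodPt.mono {p : ℕ} [Fact p.Prime] {k : Type*} [Field k] [Algebra ℚ_[p] k] {K : Type*}
    [Field K] [Algebra k K] {P : Valuation (AlgebraicClosure K) ℝ≥0} {x : K}
    {π : AlgebraicClosure K} {η η' : ℝ≥0} (hη : η ≤ η') (h : GoodPt p k K P x π η) :
    GoodPt p k K P x π η' := by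
  obtain ⟨C, q, c, v, h1, h2, h3, h4, h5, h6, h8, h9, h10, ⟨R, hR, hD⟩, h12, h13⟩ := h
  refine ⟨C, q, c, v, h1, h2, h3, h4, h5, h6, ?_, ?_, h10, ⟨R, ?_, hD⟩, h12, h13⟩
  · exact h8.trans_le (mul_le_mul_left hη _)
  · exact h9.trans_le (mul_le_mul_left hη _)
  · exact hR.trans_le (mul_le_mul_left hη _)

theorem goodPt_of_goodAt {p : ℕ} [Fact p.Prime] {k : Type*} [Field k] [Algebra ℚ_[p] k] {K : Type*}
    [Field K] [Algebra k K] {P : Valuation (AlgebraicClosure K) ℝ≥0} {x : K} {δ η : ℝ≥0}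
    (h : GoodAt p k K P x δ η) : ∃ π : AlgebraicClosure K, GoodPt p k K P x π η ∧
      ∃ v : Valuation (AlgebraicClosure K) ℝ≥0, ExtendsPadicNorm k (AlgebraicClosure K) p v ∧
        v π < δ ∧ ∃ C : IntermediateField k (AlgebraicClosure K), FiniteDimensional k C ∧ π ∈ C := by
  obtain ⟨C, π, q, c, v, h1, h2, h3, h4, h5, h6, h7, h8, h9, h10, h11, h12, h13⟩ := h
  exact ⟨π, ⟨C, q, c, v, h1, h2, h3, h4, h5, h6, h8, h9, h10, h11, h12, h13⟩, v, h10, h7, C, h1, h2⟩

/-- 803's `VSupply` from the pointwise version -/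
theorem supply_of_pt {p : ℕ} [Fact p.Prime] (h : SupplyPt p) : VSupply p := by
  intro k _ _ _ K _ _ _ _ _ hc hg P x hP hx δ η hη hG
  obtain ⟨π, hpt, v₁, hv₁, hπδ, C₁, hC₁, hπC₁⟩ := goodPt_of_goodAt hG
  obtain ⟨C, q, c, R, v, M, l, Y, hD⟩ := h k K hc hg P x hP hx π η hη hpt
  refine ⟨C, π, q, c, R, v, M, l, Y, ?_, hD⟩
  rw [Cof9_669.norm_unique p hD.hv hv₁ (le_kb C₁ hπC₁)]
  exact hπδ

/-- B-MAIN from pointwise GOOD' -/
theorem bmain_pt {p : ℕ} [Fact p.Prime] (hB : BMain p) (hS : SupplyPt p) (e : ℕ) (he : 0 < e) :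
    ∃ η : ℝ≥0, 0 < η ∧ η ≤ 1 ∧
    ∀ (k : Type) [Field k] [Algebra ℚ_[p] k] [FiniteDimensional ℚ_[p] k] (K : Type) [Field K]
      [Algebra k K] [Algebra (RatFunc k) K] [IsScalarTower k (RatFunc k) K] [FunctionField k K],
      algebraicClosure k K = ⊥ → 2 ≤ genus k K →
      ∀ (P : Valuation (AlgebraicClosure K) ℝ≥0) (x : K),
        IsRationalPlace k K (P.comap (algebraMap K (AlgebraicClosure K))) →
        IsUniformizerAt (P.comap (algebraMap K (AlgebraicClosure K))) x →
        ∀ π : AlgebraicClosure K, GoodPt p k K P x π η → ∃ r, SEAt p k K P x e π r := by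
  obtain ⟨η, hη, h⟩ := hB e he
  refine ⟨min η 1, lt_min hη one_pos, min_le_right _ _, ?_⟩
  intro k _ _ _ K _ _ _ _ _ hc hg P x hP hx π hpt
  obtain ⟨C, q, c, R, v, M, l, Y, hD⟩ := hS k K hc hg P x hP hx π (min η 1) (min_le_right _ _) hpt
  exact ⟨_, h k K hc hg P x hP hx C π q c R v M l Y (hD.mono (min_le_left _ _))⟩

end defs

section up

/-- the expansions extend to `K C₀`, the radius being fixed -/
theorem discEmb_KC {k K : Type*} [Field k] [Field K] [Algebra k K] {p : ℕ} [Fact p.Prime]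
    [Algebra ℚ_[p] k] [FiniteDimensional ℚ_[p] k]
    {C C₀ : IntermediateField k (AlgebraicClosure K)} [FiniteDimensional k C] (hC : C₀ ≤ C)
    {P v : Valuation (AlgebraicClosure K) ℝ≥0} {x q c : AlgebraicClosure K} {R : ℝ≥0}
    (D : DiscData p v P C R x q c) (h : DiscEmb K C P x R v) : DiscEmb (KC K C₀) C P x R v := by
  have hK : ∀ f : K, algebraMap K (AlgebraicClosure K) f ∈ D.SD := fun f => D.le_SD h f
  have hle : ∀ f ∈ KC K C₀, f ∈ D.SD := by
    intro f hf
    have hf' : f ∈ IntermediateField.adjoin K (C₀ : Set (AlgebraicClosure K)) := hf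
    induction hf' using IntermediateField.adjoin_induction with
    | mem a ha => exact D.C_le_SD ⟨a, hC ha⟩
    | algebraMap f => exact hK f
    | add a b ha' hb' ha hb => exact add_mem (ha ha') (hb hb')
    | inv a ha' ha => exact inv_mem (ha ha')
    | mul a b ha' hb' ha hb => exact mul_mem (ha ha') (hb hb')
  intro f
  obtain ⟨G, H, h⟩ := D.mem_SD.mp (hle f f.2)
  obtain ⟨B₁, hB₁⟩ := h.bG
  obtain ⟨B₂, hB₂⟩ := h.bH
  refine ⟨cf G, cf H, fun i => (PowerSeries.coeff i G).2, fun i => (PowerSeries.coeff i H).2, ?_,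
    ⟨max B₁ B₂, fun i => ⟨(hB₁ i).trans (le_max_left _ _),
      (hB₂ i).trans (le_max_right _ _)⟩⟩, h.lv, h.lP⟩
  by_contra hcon
  push Not at hcon
  apply h.ne
  ext i
  have := hcon i
  simpa [cf] using this

/-- a circle over larger constants -/
theorem circ_mono {k K : Type*} [Field k] [Field K] [Algebra k K] {p : ℕ} [Fact p.Prime]
    [Algebra ℚ_[p] k] [FiniteDimensional ℚ_[p] k]
    {C C' : IntermediateField k (AlgebraicClosure K)} [FiniteDimensional k C']
    (hC : C ≤ C') {P v : Valuation (AlgebraicClosure K) ℝ≥0} {x π : AlgebraicClosure K}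
    (hπ : π ∈ C) (hπ0 : π ≠ 0) (h : IsCircle K C P x (v π) v) : IsCircle K C' P x (v π) v := by
  have hπn : v π ≠ 0 := (Valuation.ne_zero_iff v).mpr hπ0
  refine ⟨?_, ?_⟩
  · have hG : GaussAt C (x / π) v := by
      intro n c hc
      have h1 : psum c (x / π) n = psum (fun i => c i * (π ^ i)⁻¹) x n := by
        unfold psum
        refine Finset.sum_congr rfl fun i _ => ?_
        rw [div_pow, div_eq_mul_inv]
        ring
      rw [h1, h.gauss n _ (fun i => mul_mem (hc i) (inv_mem (pow_mem hπ i)))]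
      refine Finset.sup_congr rfl fun i _ => ?_
      rw [map_mul, map_inv₀, map_pow, mul_assoc, inv_mul_cancel₀ (pow_ne_zero _ hπn), mul_one]
    have hG' : GaussAt C' (x / π) v := Set_803.GaussAt.mono hG fun a ha => isAlgebraic_of_mem ha
    intro n c hc
    have h1 : psum c x n = psum (fun i => c i * π ^ i) (x / π) n := by
      unfold psum
      refine Finset.sum_congr rfl fun i _ => ?_
      rw [div_pow]
      field_simp
    rw [h1, hG' n _ (fun i => mul_mem (hc i) (pow_mem (hC hπ) i))]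
    refine Finset.sup_congr rfl fun i _ => ?_
    rw [map_mul, map_pow]
  · intro f
    obtain ⟨G, H, hG, hH, h1⟩ := h.disc f
    exact ⟨G, H, fun i => hC (hG i), fun i => hC (hH i), h1⟩

end up

section main

variable {k : Type} [Field k] {K : Type} [Field K] [Algebra k K]

local notation "Kb" => AlgebraicClosure K

/-- **D-TR**, for one field and one place -/
theorem dtr_local (p : ℕ) [Fact p.Prime] [Algebra ℚ_[p] k]
    [FiniteDimensional ℚ_[p] k] [Algebra (RatFunc k) K] [IsScalarTower k (RatFunc k) K]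
    [FunctionField k K] (hc : algebraicClosure k K = ⊥) (hg : 2 ≤ genus k K)
    {e : ℕ} {η : ℝ≥0} (hη1 : η ≤ 1)
    (hB : ∀ (k : Type) [Field k] [Algebra ℚ_[p] k] [FiniteDimensional ℚ_[p] k] (K : Type) [Field K]
      [Algebra k K] [Algebra (RatFunc k) K] [IsScalarTower k (RatFunc k) K] [FunctionField k K],
      algebraicClosure k K = ⊥ → 2 ≤ genus k K →
      ∀ (P : Valuation (AlgebraicClosure K) ℝ≥0) (x : K),
        IsRationalPlace k K (P.comap (algebraMap K (AlgebraicClosure K))) →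
        IsUniformizerAt (P.comap (algebraMap K (AlgebraicClosure K))) x →
        ∀ π : AlgebraicClosure K, GoodPt p k K P x π η → ∃ r, SEAt p k K P x e π r)
    (C₀ : IntermediateField k Kb) [FiniteDimensional k C₀] {P : Valuation Kb ℝ≥0} {x π : Kb}
    (hRU : RatUnif k K C₀ P x) (hGC : GoodC p k K C₀ P x π η) : CircC p k K C₀ P x π e := by
  have hP := hRU.place
  have hrat := hRU.rat
  have hx := hRU.mem
  have hx1 := hRU.lt_one
  have hx2 := hRU.unif
  have hk0 : CharZero k := charZero_of_injective_algebraMap (algebraMap ℚ_[p] k).injective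
  have hK0 := charZero_K k K
  have hKfd : FiniteDimensional (RatFunc k) K := inferInstance
  have : CharZero (RatFunc k) :=
    charZero_of_injective_algebraMap (algebraMap k (RatFunc k)).injective
  -- the constant extension
  set L : IntermediateField K Kb := KC K C₀ with hL
  let iA : Algebra C₀ L := (ιC C₀).toAlgebra
  have iT : IsScalarTower k C₀ L := IsScalarTower.of_algebraMap_eq (fun _ => rfl)
  let iQ : Algebra ℚ_[p] C₀ := ((algebraMap k C₀).comp (algebraMap ℚ_[p] k)).toAlgebra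
  have iQT : IsScalarTower ℚ_[p] k C₀ := IsScalarTower.of_algebraMap_eq (fun _ => rfl)
  have iQf : FiniteDimensional ℚ_[p] C₀ := FiniteDimensional.trans ℚ_[p] k C₀
  have iLf : FiniteDimensional K L := finite_KC C₀
  have hC0 : CharZero C₀ := charZero_of_injective_algebraMap (algebraMap k C₀).injective
  have hce : CntB1_491.IsCE k C₀ K L := ⟨adjoin_top C₀, hc⟩
  obtain ⟨i1, i2, i3, i4, -⟩ := CntB7_491.exists_rat (k := k) (k' := C₀) (K := K) (K' := L)
  have hcL : algebraicClosure C₀ L = ⊥ := hce.hc'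
  have hgL : 2 ≤ genus C₀ L := by
    rw [RR17_948.genus_eq_gen, CntB3_491.gen_eq hce, ← RR17_948.genus_eq_gen]
    exact hg
  have iFF : FunctionField C₀ L := i3
  -- the identification of the algebraic closures
  have iLKb : Algebra.IsAlgebraic L Kb := Algebra.IsAlgebraic.tower_top (K := K) L
  have iLcl : IsAlgClosure L Kb := ⟨inferInstance, iLKb⟩
  let ε : AlgebraicClosure L ≃ₐ[L] Kb := IsAlgClosure.equiv L (AlgebraicClosure L) Kb
  have hεL : ∀ l : L, ε (algebraMap L (AlgebraicClosure L) l) = (l : Kb) := fun l => ε.commutes l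
  have hεC : ∀ c : C₀, ε (algebraMap C₀ (AlgebraicClosure L) c) = (c : Kb) := fun c =>
    hεL (algebraMap C₀ L c)
  have hεs : ∀ y : Kb, ε (ε.symm y) = y := fun y => ε.apply_symm_apply y
  have hεs' : ∀ y, ε.symm (ε y) = y := fun y => ε.symm_apply_apply y
  let P' : Valuation (AlgebraicClosure L) ℝ≥0 := P.comap (ε : AlgebraicClosure L →+* Kb)
  have hP' : ∀ y, P' y = P (ε y) := fun y => rfl
  have hP'L : ∀ l : L, (P'.comap (algebraMap L (AlgebraicClosure L))) l = P (l : Kb) := by
    intro l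
    rw [Valuation.comap_apply, hP', hεL]
  have hplL : IsPlace k (P.comap (algebraMap L Kb)) := by
    have : IsScalarTower k L Kb := tower_kLb L
    exact Unr3_957.isPlace_comap (F := L) hP
  have hpl : IsPlace C₀ (P'.comap (algebraMap L (AlgebraicClosure L))) := by
    refine ⟨fun c hc0 => ?_, ?_⟩
    · rw [hP'L]
      exact val_const hP (le_kb C₀ c.2) (fun h => hc0 (Subtype.ext h))
    · obtain ⟨a, h0, h1⟩ := hplL.2
      exact ⟨a, by rw [hP'L]; exact h0, by rw [hP'L]; exact h1⟩
  have hratL : IsRationalPlace C₀ L (P'.comap (algebraMap L (AlgebraicClosure L))) := by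
    refine ⟨hpl, fun a ha => ?_⟩
    rw [hP'L] at ha
    obtain ⟨c, hcC, hcP⟩ := hrat a a.2 ha
    exact ⟨⟨c, hcC⟩, by rw [hP'L]; exact hcP⟩
  have hunif : IsUniformizerAt (P'.comap (algebraMap L (AlgebraicClosure L))) (⟨x, hx⟩ : L) := by
    refine ⟨by rw [hP'L]; exact hx1, fun a ha => ?_⟩
    rw [hP'L] at ha ⊢
    rw [hP'L]
    exact hx2 a a.2 ha
  have hx' : ε (algebraMap L (AlgebraicClosure L) ⟨x, hx⟩) = x := hεL _
  -- the constants
  let ε₀ : AlgebraicClosure L →ₐ[C₀] Kb :=
    { (ε : AlgebraicClosure L →+* Kb) with commutes' := fun c => hεC c }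
  have hε₀ : ∀ y, ε₀ y = ε y := fun _ => rfl
  have hmap : ∀ (c : ℕ → AlgebraicClosure L) (y : AlgebraicClosure L) (n : ℕ),
      ε (psum c y n) = psum (fun i => ε (c i)) (ε y) n := by
    intro c y n
    unfold psum
    rw [map_sum]
    refine Finset.sum_congr rfl fun i _ => ?_
    rw [map_mul, map_pow]
  have hUnr : Unr10_957.UnrEv k K L := by
    have h1 : L ≤ maxUnramified k K := by
      rw [hL]
      unfold KC
      rw [IntermediateField.adjoin_le_iff]
      intro c hcC
      exact MaxUnr_97.mem_maxUnramified_of_isIntegral c (mem_kb.mp (le_kb C₀ hcC))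
    exact (Unr10_957.unr_iff_unrEv.mp (Unr5_957.le_maxUnramified_iff.mp h1)).2
  have htr : ∀ b : AlgebraicClosure L, b ∈ maxUnramified C₀ L ↔ ε b ∈ maxUnramified k K :=
    fun b => Unr10_957.mem_maxUnramified_transport (k := k) (K := K) (k₁ := C₀) (L := L) hUnr
        (ε.restrictScalars K) b
  -- the datum over `L`
  have hpt : GoodPt p C₀ L P' ⟨x, hx⟩ (ε.symm π) η := by
    obtain ⟨Cg, q, c, vg, hCC, hCf, hπC, hqC, hcC, hπ0, hc0, hq, hcv, hvg, ⟨R, hR, hDE⟩, hGA,
      hVE⟩ := hGC
    have hD : DiscData p vg P Cg R x q c :=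
      { hv := hvg
        hP := fun a => val_const_le hP (le_kb Cg a.2)
        hPx := hx1
        qC := hqC
        cC := hcC
        c0 := hc0
        qR := by
          have h1 : η * vg π ≤ vg π := mul_le_of_le_one_left' hη1
          have h2 : η * R ≤ R := mul_le_of_le_one_left' hη1
          exact (hq.trans_le h1).trans (hR.trans_le h2)
        cR := by
          have h1 : η * vg π ≤ vg π := mul_le_of_le_one_left' hη1
          have h2 : η * R ≤ R := mul_le_of_le_one_left' hη1
          exact (hcv.trans_le h1).trans (hR.trans_le h2)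
        gauss := hGA }
    have hDE' : DiscEmb L Cg P x R vg := discEmb_KC hCC hD hDE
    let Cg' : IntermediateField C₀ (AlgebraicClosure L) :=
      (IntermediateField.extendScalars hCC).comap ε₀
    have hmemCg : ∀ y, y ∈ Cg' ↔ ε y ∈ Cg := fun y => Iff.rfl
    let vg' : Valuation (AlgebraicClosure L) ℝ≥0 := vg.comap (ε : AlgebraicClosure L →+* Kb)
    have hvg' : ∀ y, vg' y = vg (ε y) := fun y => rfl
    have hfin : FiniteDimensional C₀ Cg' := by
      have f1 : FiniteDimensional k (IntermediateField.extendScalars hCC) :=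
        inferInstanceAs (FiniteDimensional k Cg)
      have f3 : IsScalarTower k C₀ (IntermediateField.extendScalars hCC) :=
        IsScalarTower.of_algebraMap_eq (fun _ => rfl)
      have f2 : FiniteDimensional C₀ (IntermediateField.extendScalars hCC) :=
        Module.Finite.of_restrictScalars_finite k C₀ _
      let φ : Cg' →ₗ[C₀] IntermediateField.extendScalars hCC :=
        { toFun := fun y => ⟨ε y, y.2⟩
          map_add' := fun a b => Subtype.ext (map_add ε _ _)
          map_smul' := fun a b => Subtype.ext (by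
            have h := ε₀.toLinearMap.map_smul a (b : AlgebraicClosure L)
            exact h) }
      exact FiniteDimensional.of_injective φ (fun a b h => Subtype.ext (ε.injective
        (congrArg Subtype.val h)))
    refine ⟨Cg', ε.symm q, ε.symm c, vg', hfin, ?_, ?_, ?_, ?_, ?_, ?_, ?_, ?_, ⟨R, ?_, ?_⟩, ?_, ?_⟩
    · rw [hmemCg, hεs]; exact hπC
    · rw [hmemCg, hεs]; exact hqC
    · rw [hmemCg, hεs]; exact hcC
    · intro h0; apply hπ0; rw [← hεs π, h0, map_zero]
    · intro h0; apply hc0; rw [← hεs c, h0, map_zero]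
    · rw [hvg', hvg', hεs, hεs]; exact hq
    · rw [hvg', hvg', hεs, hεs]; exact hcv
    · intro r
      rw [hvg', ← hvg r]
      congr 1
      exact hεC (algebraMap k C₀ (algebraMap ℚ_[p] k r))
    · rw [hvg', hεs]; exact hR
    · intro f
      obtain ⟨G, H, hG, hH, ⟨i₀, hi₀⟩, ⟨B, hB'⟩, l1, l2⟩ := hDE' f
      have h4 : ∀ n, ε (algebraMap L (AlgebraicClosure L) f *
          psum (fun i => ε.symm (H i)) (algebraMap L (AlgebraicClosure L) ⟨x, hx⟩) n -
          psum (fun i => ε.symm (G i)) (algebraMap L (AlgebraicClosure L) ⟨x, hx⟩) n) =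
          algebraMap L Kb f * psum H x n - psum G x n := by
        intro n
        rw [map_sub, map_mul, hmap, hmap, hx', hεL]
        simp only [hεs]
        rfl
      refine ⟨fun i => ε.symm (G i), fun i => ε.symm (H i), fun i => ?_, fun i => ?_, ⟨i₀, ?_⟩,
        ⟨B, fun i => ?_⟩, ?_, ?_⟩
      · rw [hmemCg, hεs]; exact hG i
      · rw [hmemCg, hεs]; exact hH i
      · intro h0
        have h0' : ε.symm (H i₀) = 0 := h0
        apply hi₀; rw [← hεs (H i₀), h0', map_zero]
      · rw [hvg', hvg', hεs, hεs]; exact hB' i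
      · simp_rw [hvg', h4]; exact l1
      · simp_rw [hP', h4]; exact l2
    · intro n a ha
      rw [hvg', hmap]
      have h5 : ε ((algebraMap L (AlgebraicClosure L) ⟨x, hx⟩ - ε.symm q) / ε.symm c) =
          (x - q) / c := by
        rw [map_div₀, map_sub, hx', hεs, hεs]
      rw [h5, hGA n _ (fun i => (hmemCg _).mp (ha i))]
      rfl
    · have h5 : ε ((algebraMap L (AlgebraicClosure L) ⟨x, hx⟩ - ε.symm q) / ε.symm c) =
          (x - q) / c := by
        rw [map_div₀, map_sub, hx', hεs, hεs]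
      rcases hVE with ⟨z, hz, m, hm, hpm, hz1, hzt⟩ | ⟨hp2, w, hw, u, hu, hw1, hu1, hwt, hut⟩
      · refine Or.inl ⟨ε.symm z, ?_, m, hm, hpm, ?_, ?_⟩
        · rw [SetLike.mem_coe, htr, hεs]; exact hz
        · rw [hvg', hεs]; exact hz1
        · have e1 : ε (ε.symm z ^ p - ε.symm z - ((algebraMap L (AlgebraicClosure L) ⟨x, hx⟩ -
              ε.symm q) / ε.symm c) ^ m) = z ^ p - z - ((x - q) / c) ^ m := by
            rw [map_sub, map_sub, map_pow, map_pow, h5, hεs]
          rw [hvg', e1]; exact hzt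
      · refine Or.inr ⟨hp2, ε.symm w, ?_, ε.symm u, ?_, ?_, ?_, ?_, ?_⟩
        · rw [SetLike.mem_coe, htr, hεs]; exact hw
        · rw [SetLike.mem_coe, htr, hεs]; exact hu
        · rw [hvg', hεs]; exact hw1
        · rw [hvg', hεs]; exact hu1
        · have e1 : ε (ε.symm w ^ 2 + ε.symm w - (algebraMap L (AlgebraicClosure L) ⟨x, hx⟩ -
              ε.symm q) / ε.symm c) = w ^ 2 + w - (x - q) / c := by
            rw [map_sub, map_add, map_pow, h5, hεs]
          rw [hvg', e1]; exact hwt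
        · have e1 : ε (ε.symm u ^ 2 + ε.symm u - (ε.symm w ^ 3 + ε.symm w)) =
              u ^ 2 + u - (w ^ 3 + w) := by
            rw [map_sub, map_add, map_add, map_pow, map_pow, hεs, hεs]
          rw [hvg', e1]; exact hut
  obtain ⟨r, C', ξ', v', hfd, hπC, hπr, hpn, hcirc, hξ, hcl⟩ :=
    hB C₀ L hcL hgL P' ⟨x, hx⟩ hratL hunif (ε.symm π) hpt
  have hπne : π ≠ 0 := by
    obtain ⟨_, _, _, _, _, _, _, _, _, h0, _⟩ := hGC
    exact h0
  have hvπ : v'.comap (ε.symm : Kb →+* AlgebraicClosure L) π = r := hπr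
  let C : IntermediateField k Kb := (C'.map ε₀).restrictScalars k
  have hmemC : ∀ y : Kb, y ∈ C ↔ ∃ y' ∈ C', ε y' = y := by
    intro y
    change y ∈ (C'.map ε₀) ↔ _
    rw [IntermediateField.mem_map]
    rfl
  let v : Valuation Kb ℝ≥0 := v'.comap (ε.symm : Kb →+* AlgebraicClosure L)
  have hv : ∀ y, v (ε y) = v' y := by
    intro y
    change v' (ε.symm (ε y)) = v' y
    rw [hεs']
  have hpsum : ∀ (c : ℕ → AlgebraicClosure L) (n : ℕ),
      ε (psum c (algebraMap L (AlgebraicClosure L) ⟨x, hx⟩) n) = psum (fun i => ε (c i)) x n := by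
    intro c n
    unfold psum
    rw [map_sum]
    refine Finset.sum_congr rfl fun i _ => ?_
    rw [map_mul, map_pow, hx']
  refine ⟨C, ε ξ', v, ?_, ?_, ?_, hπne, ?_, ?_, ?_, ?_⟩
  · intro c hcC
    rw [hmemC]
    exact ⟨algebraMap C₀ (AlgebraicClosure L) ⟨c, hcC⟩, C'.algebraMap_mem _, hεC ⟨c, hcC⟩⟩
  · have h1 : FiniteDimensional C₀ (C'.map ε₀) :=
      (C'.equivMap ε₀).toLinearEquiv.finiteDimensional
    have h2 : IsScalarTower k C₀ (C'.map ε₀) := IsScalarTower.of_algebraMap_eq (fun _ => rfl)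
    exact FiniteDimensional.trans k C₀ (C'.map ε₀)
  · exact (hmemC _).mpr ⟨ε.symm π, hπC, hεs π⟩
  · intro q
    have h1 := hpn q
    rw [← hv] at h1
    rw [← h1]
    congr 1
    exact (hεC (algebraMap k C₀ (algebraMap ℚ_[p] k q))).symm
  · rw [show v π = r from hvπ]
    constructor
    · intro n c hcC
      have h1 : ∀ i, ∃ y' ∈ C', ε y' = c i := fun i => (hmemC _).mp (hcC i)
      choose c' hc' hcc' using h1
      have h2 := hcirc.gauss n c' hc'
      have h3 : psum c x n = ε (psum c' (algebraMap L (AlgebraicClosure L) ⟨x, hx⟩) n) := by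
        rw [hpsum]
        congr 1
        funext i
        exact (hcc' i).symm
      rw [h3, hv, h2]
      refine Finset.sup_congr rfl fun i _ => ?_
      rw [← hcc' i, hv]
    · intro f
      obtain ⟨G, H, hG, hH, hH0, ⟨R, B, hR, hB⟩, ht1, ht2⟩ := hcirc.disc (algebraMap K L f)
      have h4 : ∀ n, algebraMap K Kb f * psum (fun i => ε (H i)) x n - psum (fun i => ε (G i)) x n =
          ε (algebraMap L (AlgebraicClosure L) (algebraMap K L f) *
            psum H (algebraMap L (AlgebraicClosure L) ⟨x, hx⟩) n -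
            psum G (algebraMap L (AlgebraicClosure L) ⟨x, hx⟩) n) := by
        intro n
        rw [map_sub, map_mul, hpsum, hpsum, hεL]
        rfl
      refine ⟨fun i => ε (G i), fun i => ε (H i), fun i => (hmemC _).mpr ⟨_, hG i, rfl⟩,
        fun i => (hmemC _).mpr ⟨_, hH i, rfl⟩, ?_, ⟨R, B, hR, fun i => ?_⟩, ?_, ?_⟩
      · obtain ⟨i, hi⟩ := hH0
        refine ⟨i, fun h => hi (ε.injective ?_)⟩
        rw [map_zero]
        exact h
      · rw [hv, hv]; exact hB i
      · simp_rw [h4, hv]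
        exact ht1
      · simp_rw [h4]
        exact ht2
  · rw [← map_pow, hξ, hx']
  · intro η hη
    obtain ⟨b', hb', hb1⟩ := hcl η hη
    have hUnr : Unr10_957.UnrEv k K L := by
      have h1 : L ≤ maxUnramified k K := by
        rw [hL]
        unfold KC
        rw [IntermediateField.adjoin_le_iff]
        intro c hcC
        exact MaxUnr_97.mem_maxUnramified_of_isIntegral c (mem_kb.mp (le_kb C₀ hcC))
      exact (Unr10_957.unr_iff_unrEv.mp (Unr5_957.le_maxUnramified_iff.mp h1)).2
    refine ⟨ε b', ?_, ?_⟩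
    · exact (Unr10_957.mem_maxUnramified_transport (k := k) (K := K) (k₁ := C₀) (L := L) hUnr
        (ε.restrictScalars K) b').mp hb'
    · rw [← map_sub, hv]
      exact hb1


/-- **D-TR** -/
theorem dtr {p : ℕ} [Fact p.Prime] (hB : BMain p) (e : ℕ) (he : 0 < e) :
    ∃ η : ℝ≥0, 0 < η ∧ η ≤ 1 ∧
    ∀ (k : Type) [Field k] [Algebra ℚ_[p] k] [FiniteDimensional ℚ_[p] k] (K : Type) [Field K]
      [Algebra k K] [Algebra (RatFunc k) K] [IsScalarTower k (RatFunc k) K] [FunctionField k K],
      algebraicClosure k K = ⊥ → 2 ≤ genus k K →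
      ∀ (C₀ : IntermediateField k (AlgebraicClosure K)) [FiniteDimensional k C₀]
        (P : Valuation (AlgebraicClosure K) ℝ≥0) (x π : AlgebraicClosure K),
        RatUnif k K C₀ P x → GoodC p k K C₀ P x π η → CircC p k K C₀ P x π e := by
  obtain ⟨η, hη0, hη1, h⟩ := bmain_pt hB (VSup3_797.supplyPt p) e he
  refine ⟨η, hη0, hη1, ?_⟩
  intro k _ _ _ K _ _ _ _ _ hc hg C₀ _ P x π hRU hGC
  exact dtr_local p hc hg hη1 h C₀ hRU hGC

end main

end Crest.Agent.R013.DTR_669
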