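import Crest.Agent.R013.DAsm2_906
import Crest.Agent.R013.DTR_669

/-!
# Row 13, D-LINE: the final assembly, part 3 (helper906)

`TR p` and `CircMono p k K` from helper669's `dtr`, `circ_mono`.
-/

set_option autoImplicit false

namespace Crest.Agent.R013.DAsm3_906

open scoped NNReal
open Crest.NumberTheoryR.Sect
open Crest.Agent.R013.VData_803 Crest.Agent.R013.DAsm1_906 Crest.Agent.R013.DAsm2_906

theorem tr {p : ℕ} [Fact p.Prime] (hB : BMain p) : TR p := by
  intro e he
  obtain ⟨η, h1, h2, h3⟩ := DTR_669.dtr hB e he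
  refine ⟨η, h1, ?_⟩
  intro k _ _ _ K _ _ _ _ _ hc hg C₀ hC₀ P x hRU π hG
  haveI := hC₀
  exact h3 k K hc hg C₀ P x π hRU hG

theorem circMono (p : ℕ) [Fact p.Prime] (k : Type) [Field k] [Algebra ℚ_[p] k]
    [FiniteDimensional ℚ_[p] k] (K : Type) [Field K] [Algebra k K] : CircMono p k K := by
  intro C C' hC _ hC'f P v x π _ _ _ _ _ hπ hπ0 h
  haveI := hC'f
  exact DTR_669.circ_mono (p := p) hC hπ hπ0 h

/-- **S0016 from B-MAIN and the pencil** -/
theorem s0016_of (p : ℕ) [Fact p.Prime] (hB : BMain p) (hP : PencilAll p)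
    (k : Type) [Field k] [Algebra ℚ_[p] k] [FiniteDimensional ℚ_[p] k]
    (K : Type) [Field K] [Algebra k K] [Algebra (RatFunc k) K] [IsScalarTower k (RatFunc k) K]
    [FunctionField k K] (hc : algebraicClosure k K = ⊥) (hg : 2 ≤ genus k K)
    (v : Valuation K ℝ≥0) (hv : ExtendsPadicNorm k K p v)
    (w : Valuation (AlgebraicClosure K) ℝ≥0)
    (hw : w.comap (algebraMap K (AlgebraicClosure K)) = v) :
    ∀ a : AlgebraicClosure K, ∀ ε : ℝ≥0, 0 < ε →
      ∃ b : maxUnramified k K, w (a - (b : AlgebraicClosure K)) < ε :=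
  DAsm2_906.s0016_of p hB (tr hB) (fun k _ _ _ K _ _ _ _ _ => circMono p k K) hP k K hc hg v hv w
    hw

end Crest.Agent.R013.DAsm3_906
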