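import Mathlib
import Crest.Agent.R013.RR24_948

/-!
# R013 / RR25: derivations, traces and norms; the functional `cinf ∘ Tr` (helper948)
-/

set_option autoImplicit false
set_option linter.all false

namespace Crest.Agent.R013.RR25_948

open Polynomial WithZero Module IsDedekindDomain nonZeroDivisors
open Crest.Agent.R013.RR1_948 Crest.Agent.R013.RR2_948 Crest.Agent.R013.RR3_948
open Crest.Agent.R013.RR4_948 Crest.Agent.R013.RR5_948 Crest.Agent.R013.RR6_948
open Crest.Agent.R013.RR7_948 Crest.Agent.R013.RR8_948 Crest.Agent.R013.RR9_948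
open Crest.Agent.R013.RR11_948 Crest.Agent.R013.RR12_948 Crest.Agent.R013.RR13_948
open Crest.Agent.R013.RR14_948 Crest.Agent.R013.RR15_948
open Crest.Agent.R013.RR18_948 Crest.Agent.R013.RR19_948 Crest.Agent.R013.RR20_948
open Crest.Agent.R013.RR21_948 Crest.Agent.R013.RR23_948

section rat

variable {k : Type*} [Field k]

theorem xK_ratFunc : xK k (RatFunc k) = RatFunc.X := rfl

theorem aeval_X_ratFunc (p : k[X]) :
    Polynomial.aeval (RatFunc.X : RatFunc k) p = algebraMap k[X] (RatFunc k) p := by
  have h := algebraMap_poly (k := k) (K := RatFunc k) p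
  rw [xK_ratFunc] at h
  rw [← h]; rfl

theorem dR_poly (p : k[X]) : del k (RatFunc k) (algebraMap k[X] (RatFunc k) p) =
    algebraMap k[X] (RatFunc k) (Polynomial.derivative p) := by
  have h := del_poly (k := k) (K := RatFunc k) p
  rw [xK_ratFunc, aeval_X_ratFunc, aeval_X_ratFunc] at h
  exact h

theorem dR_X : del k (RatFunc k) RatFunc.X = 1 := del_xK k (RatFunc k)

theorem vinf_dR_poly (p : k[X]) : vinf k (del k (RatFunc k) (algebraMap k[X] (RatFunc k) p)) ≤
    exp (-1) * vinf k (algebraMap k[X] (RatFunc k) p) := by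
  rw [dR_poly]
  by_cases h0 : Polynomial.derivative p = 0
  · rw [h0, map_zero, map_zero]; exact zero_le
  · have hp : p ≠ 0 := by rintro rfl; exact h0 (by simp)
    rw [vinf_poly k h0, vinf_poly k hp, ← exp_add, exp_le_exp]
    have h1 : p.natDegree ≠ 0 := by
      intro h
      apply h0
      rw [Polynomial.eq_C_of_natDegree_eq_zero h, Polynomial.derivative_C]
    have h2 := Polynomial.natDegree_derivative_lt h1
    omega

theorem vinf_dR (r : RatFunc k) : vinf k (del k (RatFunc k) r) ≤ exp (-1) * vinf k r := by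
  set p := algebraMap k[X] (RatFunc k) r.num with hp
  set q := algebraMap k[X] (RatFunc k) r.denom with hq
  have hq0 : q ≠ 0 := by simpa [hq] using r.denom_ne_zero
  have hr : r * q = p := by
    have h3 : p / q = r := RatFunc.num_div_denom r
    rw [div_eq_iff hq0] at h3
    exact h3.symm
  have h1 := congrArg (del k (RatFunc k)) hr
  rw [Derivation.leibniz, smul_eq_mul, smul_eq_mul] at h1
  have h2 : del k (RatFunc k) r = (del k (RatFunc k) p - r * del k (RatFunc k) q) * q⁻¹ := by
    rw [← h1]; field_simp; ring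
  have hvq : vinf k q ≠ 0 := (Valuation.ne_zero_iff _).mpr hq0
  rw [h2, map_mul, map_inv₀]
  calc _ ≤ (exp (-1) * (vinf k r * vinf k q)) * (vinf k q)⁻¹ := by
        apply mul_le_mul_left
        refine (Valuation.map_sub _ _ _).trans (max_le ?_ ?_)
        · rw [← map_mul, hr]
          exact vinf_dR_poly _
        · rw [map_mul]
          calc _ ≤ vinf k r * (exp (-1) * vinf k q) := mul_le_mul_right (vinf_dR_poly _) _
            _ = _ := by rw [mul_left_comm]
    _ = _ := by rw [mul_assoc, mul_assoc, mul_inv_cancel₀ hvq, mul_one]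

theorem cinf_dR (r : RatFunc k) : cinf k (del k (RatFunc k) r) = 0 := by
  obtain ⟨p, hp⟩ := exists_poly_sub k r
  rw [lt_one_iff] at hp
  have h : del k (RatFunc k) r = del k (RatFunc k) (algebraMap k[X] (RatFunc k) p) +
      del k (RatFunc k) (r - algebraMap k[X] (RatFunc k) p) := by
    rw [← map_add]; congr 1; ring
  rw [h, map_add, dR_poly, cinf_of_polyS ((mem_polyS k).mpr ⟨_, rfl⟩), cinf_of_infS, add_zero]
  rw [mem_infS]
  refine (vinf_dR _).trans ?_
  calc _ ≤ exp (-1) * exp (-1) := mul_le_mul_right hp _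
    _ = exp (-2) := by rw [← exp_add]; norm_num

theorem cinf_dlog {r : RatFunc k} {m : ℤ} (hm : vinf k r = exp m) :
    cinf k (del k (RatFunc k) r / r) = m := by
  have hr : r ≠ 0 := by rintro rfl; rw [map_zero] at hm; exact exp_ne_zero hm.symm
  set u := r * RatFunc.X ^ (-m) with hu
  have hX : (RatFunc.X : RatFunc k) ≠ 0 := RatFunc.X_ne_zero
  have hu0 : u ≠ 0 := mul_ne_zero hr (zpow_ne_zero _ hX)
  have hvu : vinf k u = 1 := by
    rw [hu, map_mul, hm, vinf_X_zpow, ← exp_add]; simp
  have hru : r = RatFunc.X ^ m * u := by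
    rw [hu, mul_comm, mul_assoc, ← zpow_add₀ hX]; simp
  obtain ⟨c, hc⟩ := exists_C_sub k hvu.le
  rw [lt_one_iff] at hc
  have h1 : del k (RatFunc k) r / r = (m : RatFunc k) * RatFunc.X⁻¹ + del k (RatFunc k) u / u := by
    rw [hru, Derivation.leibniz, Derivation.leibniz_zpow, dR_X, smul_eq_mul, smul_eq_mul, smul_eq_mul,
      zsmul_eq_mul, mul_one]
    have h2 : (RatFunc.X : RatFunc k) ^ m = RatFunc.X ^ (m - 1) * RatFunc.X := by
      rw [← zpow_add_one₀ hX]; simp
    have h3 : (RatFunc.X : RatFunc k) ^ (m - 1) ≠ 0 := zpow_ne_zero _ hX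
    rw [h2]
    field_simp
    ring
  apply cinf_eq
  apply Submodule.mem_sup_right
  have h4 : del k (RatFunc k) r / r - RatFunc.C (m : k) * RatFunc.X⁻¹ = del k (RatFunc k) u / u := by
    rw [h1, map_intCast]; ring
  rw [h4, mem_infS, map_div₀, hvu, div_one]
  have h5 : del k (RatFunc k) u = del k (RatFunc k) (u - RatFunc.C c) := by
    rw [map_sub, ← algebraMap_eq_C, Derivation.map_algebraMap, sub_zero]
  rw [h5]
  refine (vinf_dR _).trans ?_
  calc _ ≤ exp (-1) * exp (-1) := mul_le_mul_right hc _
    _ = exp (-2) := by rw [← exp_add]; norm_num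

end rat

section hom

variable {k : Type*} [Field k] {K : Type*} [Field K] [Algebra k K] [Algebra (RatFunc k) K]
  [IsScalarTower k (RatFunc k) K] [Algebra.IsSeparable (RatFunc k) K]
  {L : Type*} [Field L] [Algebra k L] [Algebra (RatFunc k) L] [IsScalarTower k (RatFunc k) L]
  [Algebra.IsSeparable (RatFunc k) L]

theorem del_algebraMap' [Algebra K L] [IsScalarTower k K L] [IsScalarTower (RatFunc k) K L] (f : K) :
    del k L (algebraMap K L f) = algebraMap K L (del k K f) := by
  have h1 := congrArg (KaehlerDifferential.map k k K L) (D_eq k K f)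
  have hx : algebraMap K L (xK k K) = xK k L := by
    unfold xK
    rw [← IsScalarTower.algebraMap_apply]
  rw [KaehlerDifferential.map_D] at h1
  rw [map_smul, KaehlerDifferential.map_D, hx] at h1
  rw [D_eq k L (algebraMap K L f)] at h1
  have h2 : (del k L (algebraMap K L f) - algebraMap K L (del k K f)) •
      KaehlerDifferential.D k L (xK k L) = 0 := by
    rw [sub_smul, h1, algebraMap_smul, sub_self]
  rcases smul_eq_zero.mp h2 with h3 | h3
  · exact sub_eq_zero.mp h3
  · exact absurd h3 (D_xK_ne_zero k L)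

/-- `d/dX` commutes with homomorphisms over `k(X)` -/
theorem del_hom (τ : K →ₐ[RatFunc k] L) (f : K) : del k L (τ f) = τ (del k K f) := by
  letI : Algebra K L := τ.toRingHom.toAlgebra
  haveI : IsScalarTower (RatFunc k) K L := IsScalarTower.of_algebraMap_eq fun c => (τ.commutes c).symm
  haveI : IsScalarTower k K L := IsScalarTower.of_algebraMap_eq fun c => by
    show _ = τ (algebraMap k K c)
    rw [IsScalarTower.algebraMap_apply k (RatFunc k) K, τ.commutes,
      ← IsScalarTower.algebraMap_apply]
  exact del_algebraMap' f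

theorem del_algebraMap_rat (r : RatFunc k) :
    del k L (algebraMap (RatFunc k) L r) = algebraMap (RatFunc k) L (del k (RatFunc k) r) :=
  del_hom (Algebra.ofId (RatFunc k) L) r

theorem dlog_prod {ι : Type*} (D : Derivation k L L) (s : Finset ι) (f : ι → L)
    (hf : ∀ i ∈ s, f i ≠ 0) : D (∏ i ∈ s, f i) / ∏ i ∈ s, f i = ∑ i ∈ s, D (f i) / f i := by
  classical
  induction s using Finset.induction_on with
  | empty => simp
  | insert a s ha ih =>
    have h1 : f a ≠ 0 := hf a (Finset.mem_insert_self _ _)
    have h2 : ∏ i ∈ s, f i ≠ 0 :=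
      Finset.prod_ne_zero_iff.mpr fun i hi => hf i (Finset.mem_insert_of_mem hi)
    rw [Finset.prod_insert ha, Finset.sum_insert ha,
      ← ih (fun i hi => hf i (Finset.mem_insert_of_mem hi)), Derivation.leibniz, smul_eq_mul,
      smul_eq_mul]
    field_simp
    ring

end hom

section trace

variable {k : Type*} [Field k] {K : Type*} [Field K] [Algebra k K] [Algebra (RatFunc k) K]
  [IsScalarTower k (RatFunc k) K] [FiniteDimensional (RatFunc k) K]
  [Algebra.IsSeparable (RatFunc k) K]

theorem exists_restrict (σ : K →ₐ[RatFunc k] AlgebraicClosure K) :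
    ∃ τ : K →ₐ[RatFunc k] separableClosure (RatFunc k) (AlgebraicClosure K),
      ∀ f, (τ f : AlgebraicClosure K) = σ f := by
  refine ⟨σ.codRestrict (separableClosure (RatFunc k) (AlgebraicClosure K)).toSubalgebra ?_,
    fun f => rfl⟩
  intro f
  show σ f ∈ separableClosure (RatFunc k) (AlgebraicClosure K)
  rw [mem_separableClosure_iff]
  have h : IsSeparable (RatFunc k) f := Algebra.IsSeparable.isSeparable _ f
  unfold IsSeparable at h ⊢
  rw [minpoly.algHom_eq σ σ.toRingHom.injective]
  exact h

/-- the trace commutes with `d/dX` -/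
theorem trace_del (f : K) : Algebra.trace (RatFunc k) K (del k K f) =
    del k (RatFunc k) (Algebra.trace (RatFunc k) K f) := by
  set E := AlgebraicClosure K
  set S := separableClosure (RatFunc k) E with hS
  haveI : IsScalarTower k (RatFunc k) S := inferInstance
  choose τ hτ using exists_restrict (k := k) (K := K)
  apply (algebraMap (RatFunc k) E).injective
  have h1 : algebraMap (RatFunc k) S (Algebra.trace (RatFunc k) K f) = ∑ σ, τ σ f := by
    apply Subtype.ext
    have h2 : ((algebraMap (RatFunc k) S (Algebra.trace (RatFunc k) K f) : S) : E)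
        = algebraMap (RatFunc k) E (Algebra.trace (RatFunc k) K f) := rfl
    rw [h2, trace_eq_sum_embeddings E]
    rw [AddSubmonoidClass.coe_finsetSum]
    exact Finset.sum_congr rfl fun σ _ => (hτ σ f).symm
  have h3 : algebraMap (RatFunc k) E (del k (RatFunc k) (Algebra.trace (RatFunc k) K f))
      = ((del k S (algebraMap (RatFunc k) S (Algebra.trace (RatFunc k) K f)) : S) : E) := by
    rw [del_algebraMap_rat]; rfl
  rw [h3, h1, map_sum, AddSubmonoidClass.coe_finsetSum, trace_eq_sum_embeddings E]
  refine Finset.sum_congr rfl fun σ _ => ?_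
  rw [del_hom, hτ]

/-- `Tr (dlog f) = dlog (N f)` -/
theorem trace_dlog {f : K} (hf : f ≠ 0) : Algebra.trace (RatFunc k) K (del k K f / f) =
    del k (RatFunc k) (Algebra.norm (RatFunc k) f) / Algebra.norm (RatFunc k) f := by
  set E := AlgebraicClosure K
  set S := separableClosure (RatFunc k) E with hS
  haveI : IsScalarTower k (RatFunc k) S := inferInstance
  choose τ hτ using exists_restrict (k := k) (K := K)
  apply (algebraMap (RatFunc k) E).injective
  have h1 : algebraMap (RatFunc k) S (Algebra.norm (RatFunc k) f) = ∏ σ, τ σ f := by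
    apply Subtype.ext
    have h2 : ((algebraMap (RatFunc k) S (Algebra.norm (RatFunc k) f) : S) : E)
        = algebraMap (RatFunc k) E (Algebra.norm (RatFunc k) f) := rfl
    rw [h2, Algebra.norm_eq_prod_embeddings (RatFunc k) E]
    rw [SubmonoidClass.coe_finsetProd]
    exact Finset.prod_congr rfl fun σ _ => (hτ σ f).symm
  have h3 : algebraMap (RatFunc k) E (del k (RatFunc k) (Algebra.norm (RatFunc k) f) /
      Algebra.norm (RatFunc k) f)
      = ((del k S (algebraMap (RatFunc k) S (Algebra.norm (RatFunc k) f)) /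
        algebraMap (RatFunc k) S (Algebra.norm (RatFunc k) f) : S) : E) := by
    rw [del_algebraMap_rat, ← map_div₀]; rfl
  rw [h3, h1, dlog_prod (del k S), AddSubmonoidClass.coe_finsetSum, trace_eq_sum_embeddings E]
  · refine Finset.sum_congr rfl fun σ _ => ?_
    rw [del_hom, map_div₀, ← hτ, ← hτ]
    rfl
  · intro σ _
    rw [_root_.map_ne_zero]
    exact hf

end trace

section lt

variable {k : Type*} [Field k] {K : Type*} [Field K] [Algebra k K] [Algebra (RatFunc k) K]
  [IsScalarTower k (RatFunc k) K] [FiniteDimensional (RatFunc k) K]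
  [Algebra.IsSeparable (RatFunc k) K]

variable (k K) in
/-- the total functional `f ↦ cinf (Tr f)` -/
noncomputable def lt : K →ₗ[k] k := (cinf k).comp ((Algebra.trace (RatFunc k) K).restrictScalars k)

theorem lt_apply (f : K) : lt k K f = cinf k (Algebra.trace (RatFunc k) K f) := rfl

theorem pair_eq_lt (f g : K) : pair k K f g = lt k K (f * g) := rfl

theorem lt_of_N0 {f : K} (h : f ∈ N0 (canD k K)) : lt k K f = 0 := by
  have h1 : (1 : K) ∈ N0 (canD k K - canD k K) := by
    rw [sub_self, mem_N0]
    intro P _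
    rw [map_one, Finsupp.zero_apply, exp_zero]
  have := mem_N0_iff.mp h1 f h
  rwa [pair_eq_lt, mul_one] at this

theorem lt_of_N1 {f : K} (h : f ∈ N1 (canD k K)) : lt k K f = 0 := by
  have h1 : (1 : K) ∈ N1 (canD k K - canD k K) := by
    rw [sub_self, mem_N1]
    intro P _
    rw [map_one, Finsupp.zero_apply, exp_zero]
  have := mem_N1_iff.mp h1 f h
  rwa [pair_eq_lt, mul_one] at this

theorem lt_del (f : K) : lt k K (del k K f) = 0 := by
  rw [lt_apply, trace_del, cinf_dR]

theorem lt_dlog {f : K} (hf : f ≠ 0) {m : ℤ} (hm : vinf k (Algebra.norm (RatFunc k) f) = exp m) :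
    lt k K (del k K f / f) = m := by
  rw [lt_apply, trace_dlog hf, cinf_dlog hm]

end lt

end Crest.Agent.R013.RR25_948
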