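import Mathlib
import Crest.Agent.R013.RR25_948

/-!
# R013 / RR26: residues and the residue theorem (helper948)

`res P f` is the residue at `P` of the differential `f dX`.
-/

set_option autoImplicit false
set_option linter.all false

namespace Crest.Agent.R013.RR26_948

open Polynomial WithZero Module IsDedekindDomain nonZeroDivisors
open Crest.Agent.R013.RR1_948 Crest.Agent.R013.RR2_948 Crest.Agent.R013.RR3_948
open Crest.Agent.R013.RR4_948 Crest.Agent.R013.RR5_948 Crest.Agent.R013.RR6_948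
open Crest.Agent.R013.RR7_948 Crest.Agent.R013.RR8_948 Crest.Agent.R013.RR9_948
open Crest.Agent.R013.RR11_948 Crest.Agent.R013.RR12_948 Crest.Agent.R013.RR13_948
open Crest.Agent.R013.RR14_948 Crest.Agent.R013.RR15_948
open Crest.Agent.R013.RR18_948 Crest.Agent.R013.RR19_948 Crest.Agent.R013.RR20_948
open Crest.Agent.R013.RR21_948 Crest.Agent.R013.RR22_948 Crest.Agent.R013.RR23_948
open Crest.Agent.R013.RR24_948 Crest.Agent.R013.RR25_948

section res

variable {k : Type*} [Field k] {K : Type*} [Field K] [Algebra k K] [Algebra (RatFunc k) K]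

/-- same chart: `x` finite or `x` infinite -/
def Same (P Q : Pl k K) : Prop := P.v (xK k K) ≤ 1 ↔ Q.v (xK k K) ≤ 1

theorem Same.refl (P : Pl k K) : Same P P := Iff.rfl

theorem Same.symm {P Q : Pl k K} (h : Same P Q) : Same Q P := Iff.symm h

theorem Same.trans {P Q R : Pl k K} (h : Same P Q) (h' : Same Q R) : Same P R := Iff.trans h h'

variable [IsScalarTower k (RatFunc k) K] [FiniteDimensional (RatFunc k) K]
  [Algebra.IsSeparable (RatFunc k) K]

variable (k K) in
theorem exists_infinite : ∃ P : Pl k K, 1 < P.v (xK k K) := by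
  obtain ⟨Q, hQ⟩ := above_nonempty (L := K) (pinf k)
  rw [mem_above] at hQ
  refine ⟨Q, ?_⟩
  by_contra h
  rw [not_lt] at h
  have h1 := (under_le_one_iff (K := RatFunc k) Q RatFunc.X).mpr h
  rw [hQ] at h1
  have h2 : (pinf k).v RatFunc.X = exp 1 := vinf_X k
  rw [h2, ← exp_zero, exp_le_exp] at h1
  norm_num at h1

variable (k K) in
theorem exists_finite : ∃ P : Pl k K, P.v (xK k K) ≤ 1 := by
  have hfin : {P : Pl k K | P.v (xK k K) ≠ 1}.Finite := RR11_948.finite_ne_one xK_ne_zero
  obtain ⟨P, hP⟩ := exists_notMem hfin.toFinset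
  refine ⟨P, ?_⟩
  rw [Set.Finite.mem_toFinset] at hP
  simp only [Set.mem_ofPred_eq, not_not] at hP
  exact hP.le

theorem exists_not_same (P : Pl k K) : ∃ Q : Pl k K, ¬ Same P Q := by
  by_cases hP : P.v (xK k K) ≤ 1
  · obtain ⟨Q, hQ⟩ := exists_infinite k K
    exact ⟨Q, fun h => absurd (h.mp hP) (not_le.mpr hQ)⟩
  · obtain ⟨Q, hQ⟩ := exists_finite k K
    exact ⟨Q, fun h => hP (h.mpr hQ)⟩

/-- approximation in one chart -/
theorem exists_app (P : Pl k K) (f : K) (D : Pl k K →₀ ℤ) :
    ∃ f' : K, P.v (f' - f) ≤ exp (D P) ∧ ∀ Q, Q ≠ P → Same P Q → Q.v f' ≤ exp (D Q) := by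
  classical
  obtain ⟨R, hR⟩ := exists_not_same P
  have hRP : R ≠ P := fun h => hR (h ▸ Same.refl P)
  obtain ⟨m, hm⟩ : ∃ m : ℕ, degD (canD k K) < degD (D + Finsupp.single R (m : ℤ)) := by
    refine ⟨(degD (canD k K) - degD D + 1).toNat, ?_⟩
    rw [degD_add, degD_single]
    have h1 := Int.self_le_toNat (degD (canD k K) - degD D + 1)
    have h2 : (1 : ℤ) ≤ degP R := by exact_mod_cast degP_pos R
    nlinarith [Int.natCast_nonneg (degD (canD k K) - degD D + 1).toNat]
  obtain ⟨f', h1, h2⟩ := approx_one hm P f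
  refine ⟨f', ?_, ?_⟩
  · rw [Finsupp.add_apply, Finsupp.single_apply, if_neg hRP, add_zero] at h1
    exact h1
  · intro Q hQP hS
    have h3 := h2 Q hQP
    have hRQ : R ≠ Q := fun h => hR (h ▸ hS)
    rwa [Finsupp.add_apply, Finsupp.single_apply, if_neg hRQ, add_zero] at h3

theorem lt_eq_zero (P : Pl k K) {g : K} (h : ∀ Q, Same P Q → Q.v g ≤ exp (canD k K Q)) :
    lt k K g = 0 := by
  by_cases hP : P.v (xK k K) ≤ 1
  · apply lt_of_N0
    rw [mem_N0]
    exact fun Q hQ => h Q ⟨fun _ => hQ, fun _ => hP⟩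
  · apply lt_of_N1
    rw [mem_N1]
    exact fun Q hQ => h Q ⟨fun h' => absurd h' hP, fun h' => absurd hQ (not_lt.mpr h')⟩

/-- the sign of the chart -/
noncomputable def sg (P : Pl k K) : k := by
  classical exact if P.v (xK k K) ≤ 1 then 1 else -1

theorem sg_ne_zero (P : Pl k K) : sg P ≠ 0 := by
  unfold sg
  split_ifs
  · exact one_ne_zero
  · exact neg_ne_zero.mpr one_ne_zero

theorem sg_eq {P Q : Pl k K} (h : Same P Q) : sg P = sg Q := by
  unfold sg
  unfold Same at h
  simp only [h]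

theorem res_aux (P : Pl k K) {f f' f'' : K} (h1 : P.v (f' - f) ≤ exp (canD k K P))
    (h2 : ∀ Q, Q ≠ P → Same P Q → Q.v f' ≤ exp (canD k K Q))
    (h1' : P.v (f'' - f) ≤ exp (canD k K P))
    (h2' : ∀ Q, Q ≠ P → Same P Q → Q.v f'' ≤ exp (canD k K Q)) : lt k K f' = lt k K f'' := by
  rw [← sub_eq_zero, ← map_sub]
  apply lt_eq_zero P
  intro Q hQ
  by_cases hQP : Q = P
  · subst hQP
    have : f' - f'' = (f' - f) - (f'' - f) := by ring
    rw [this]
    exact (Valuation.map_sub _ _ _).trans (max_le h1 h1')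
  · exact (Valuation.map_sub _ _ _).trans (max_le (h2 Q hQP hQ) (h2' Q hQP hQ))

/-- **the residue** of `f dX` at `P` -/
noncomputable def res (P : Pl k K) : K →ₗ[k] k where
  toFun f := sg P * lt k K (exists_app P f (canD k K)).choose
  map_add' f g := by
    rw [← mul_add, ← map_add]
    congr 1
    obtain ⟨h1, h2⟩ := (exists_app P f (canD k K)).choose_spec
    obtain ⟨h3, h4⟩ := (exists_app P g (canD k K)).choose_spec
    obtain ⟨h5, h6⟩ := (exists_app P (f + g) (canD k K)).choose_spec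
    refine res_aux P h5 h6 ?_ ?_
    · rw [add_sub_add_comm]
      exact (Valuation.map_add _ _ _).trans (max_le h1 h3)
    · intro Q hQ hS
      exact (Valuation.map_add _ _ _).trans (max_le (h2 Q hQ hS) (h4 Q hQ hS))
  map_smul' a f := by
    rw [RingHom.id_apply, smul_eq_mul, mul_left_comm, ← smul_eq_mul (a := a), ← map_smul]
    congr 1
    obtain ⟨h1, h2⟩ := (exists_app P f (canD k K)).choose_spec
    obtain ⟨h5, h6⟩ := (exists_app P (a • f) (canD k K)).choose_spec
    refine res_aux P h5 h6 ?_ ?_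
    · rw [← smul_sub]
      exact (ball P _).smul_mem a h1
    · intro Q hQ hS
      exact (ball Q _).smul_mem a (h2 Q hQ hS)

theorem res_eq (P : Pl k K) {f f' : K} (h1 : P.v (f' - f) ≤ exp (canD k K P))
    (h2 : ∀ Q, Q ≠ P → Same P Q → Q.v f' ≤ exp (canD k K Q)) : res P f = sg P * lt k K f' := by
  obtain ⟨h3, h4⟩ := (exists_app P f (canD k K)).choose_spec
  show sg P * lt k K (exists_app P f (canD k K)).choose = _
  rw [res_aux P h3 h4 h1 h2]

/-- regular differentials have no residues -/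
theorem res_of_le {P : Pl k K} {f : K} (h : P.v f ≤ exp (canD k K P)) : res P f = 0 := by
  rw [res_eq P (f' := 0) (by rw [zero_sub, Valuation.map_neg]; exact h)
    (fun Q _ _ => by rw [map_zero]; exact zero_le), map_zero, mul_zero]

/-- the residue depends only on the germ -/
theorem res_congr {P : Pl k K} {f g : K} (h : P.v (f - g) ≤ exp (canD k K P)) : res P f = res P g := by
  rw [← sub_eq_zero, ← map_sub, res_of_le h]

theorem finite_res (f : K) : {P : Pl k K | ¬ P.v f ≤ exp (canD k K P)}.Finite := by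
  by_cases hf : f = 0
  · subst hf
    convert Set.finite_empty
    ext P
    simp
  · have h1 : {P : Pl k K | ¬ P.v f ≤ exp (canD k K P)} ⊆
        {P : Pl k K | P.v f ≠ 1} ∪ ((canD k K).support : Set (Pl k K)) := by
      intro P hP
      by_contra hcon
      rw [Set.mem_union, not_or] at hcon
      obtain ⟨h2, h3⟩ := hcon
      simp only [Set.mem_ofPred_eq, not_not] at h2
      rw [Finset.mem_coe, Finsupp.notMem_support_iff] at h3
      apply hP
      rw [h2, h3, exp_zero]
    exact ((RR11_948.finite_ne_one hf).union (Finset.finite_toSet _)).subset h1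

/-- the sum of the residues in one chart -/
theorem lt_eq_sum (P0 : Pl k K) (f : K) (S : Finset (Pl k K)) (hS1 : ∀ Q ∈ S, Same P0 Q)
    (hS : ∀ Q, Same P0 Q → Q ∉ S → Q.v f ≤ exp (canD k K Q)) :
    sg P0 * lt k K f = ∑ P ∈ S, res P f := by
  classical
  choose a ha1 ha2 using fun P : Pl k K => exists_app P f (canD k K)
  have h1 : ∀ P ∈ S, res P f = sg P0 * lt k K (a P) := by
    intro P hP
    rw [res_eq P (ha1 P) (ha2 P), sg_eq (hS1 P hP)]
  rw [Finset.sum_congr rfl h1, ← Finset.mul_sum, ← map_sum]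
  congr 1
  rw [← sub_eq_zero, ← map_sub]
  apply lt_eq_zero P0
  intro Q hQ
  by_cases hQS : Q ∈ S
  · rw [← Finset.add_sum_erase S a hQS]
    have : f - (a Q + ∑ P ∈ S.erase Q, a P) = -((a Q - f) + ∑ P ∈ S.erase Q, a P) := by ring
    rw [this, Valuation.map_neg]
    refine (Valuation.map_add _ _ _).trans (max_le (ha1 Q) ?_)
    refine Valuation.map_sum_le _ fun P hP => ?_
    rw [Finset.mem_erase] at hP
    exact ha2 P Q (Ne.symm hP.1) ((hS1 P hP.2).symm.trans hQ)
  · refine (Valuation.map_sub _ _ _).trans (max_le (hS Q hQ hQS) ?_)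
    refine Valuation.map_sum_le _ fun P hP => ?_
    exact ha2 P Q (fun h => hQS (h ▸ hP)) ((hS1 P hP).symm.trans hQ)

/-- **the residue theorem** -/
theorem sum_res (f : K) (S : Finset (Pl k K)) (hS : ∀ Q ∉ S, Q.v f ≤ exp (canD k K Q)) :
    ∑ P ∈ S, res P f = 0 := by
  classical
  obtain ⟨P0, hP0⟩ := exists_finite k K
  obtain ⟨P1, hP1⟩ := exists_infinite k K
  rw [← Finset.sum_filter_add_sum_filter_not S (fun P => P.v (xK k K) ≤ 1)]
  rw [← lt_eq_sum P0 f, ← lt_eq_sum P1 f]
  · have h0 : sg P0 = 1 := by unfold sg; rw [if_pos hP0]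
    have h1 : sg P1 = -1 := by unfold sg; rw [if_neg (not_le.mpr hP1)]
    rw [h0, h1]; ring
  · intro Q hQ
    rw [Finset.mem_filter] at hQ
    exact ⟨fun h => absurd h (not_le.mpr hP1), fun h => absurd h hQ.2⟩
  · intro Q hQ hQS
    rw [Finset.mem_filter, not_and, not_not] at hQS
    by_cases hQS' : Q ∈ S
    · exact absurd (hQ.mpr (hQS hQS')) (not_le.mpr hP1)
    · exact hS Q hQS'
  · intro Q hQ
    rw [Finset.mem_filter] at hQ
    exact ⟨fun _ => hQ.2, fun _ => hP0⟩
  · intro Q hQ hQS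
    rw [Finset.mem_filter, not_and] at hQS
    by_cases hQS' : Q ∈ S
    · exact absurd (hQ.mp hP0) (hQS hQS')
    · exact hS Q hQS'

/-- the residue theorem, `finsum` form -/
theorem finsum_res (f : K) : ∑ᶠ P : Pl k K, res P f = 0 := by
  rw [finsum_eq_sum_of_support_subset (s := (finite_res (k := k) f).toFinset)]
  · apply sum_res
    intro Q hQ
    rw [Set.Finite.mem_toFinset] at hQ
    simpa using hQ
  · intro P hP
    rw [Function.mem_support] at hP
    rw [Finset.mem_coe, Set.Finite.mem_toFinset]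
    exact fun h => hP (res_of_le h)

end res

end Crest.Agent.R013.RR26_948
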