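import Mathlib
import Crest.Agent.R013.RR26_948
import Crest.Agent.R013.Car7_700
import Crest.Agent.R013.GR2_921

/-!
# R013 / RR27: computation of residues (helper948)

* `res_car` : `res P f = (res P (car f)) ^ p` (`k` perfect of characteristic `p`);
* `res_del` : exact differentials have no residues (`k` perfect);
* `sum_res_above` : `∑_{Q | P0} res Q f = res P0 (Tr f)`, `P0` a place of `k(x)`.
-/

set_option autoImplicit false
set_option linter.all false

namespace Crest.Agent.R013.RR27_948

open Polynomial WithZero Module IsDedekindDomain nonZeroDivisors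
open Crest.Agent.R013.RR1_948 Crest.Agent.R013.RR2_948 Crest.Agent.R013.RR3_948
open Crest.Agent.R013.RR4_948 Crest.Agent.R013.RR5_948 Crest.Agent.R013.RR6_948
open Crest.Agent.R013.RR7_948 Crest.Agent.R013.RR8_948 Crest.Agent.R013.RR9_948
open Crest.Agent.R013.RR11_948 Crest.Agent.R013.RR12_948 Crest.Agent.R013.RR13_948
open Crest.Agent.R013.RR14_948 Crest.Agent.R013.RR15_948
open Crest.Agent.R013.RR18_948 Crest.Agent.R013.RR19_948 Crest.Agent.R013.RR20_948
open Crest.Agent.R013.RR21_948 Crest.Agent.R013.RR22_948 Crest.Agent.R013.RR23_948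
open Crest.Agent.R013.RR24_948 Crest.Agent.R013.RR25_948 Crest.Agent.R013.RR26_948

section sg

variable {k : Type*} [Field k] {K : Type*} [Field K] [Algebra k K] [Algebra (RatFunc k) K]

theorem sg_eq_one_or (P : Pl k K) : sg P = 1 ∨ sg P = -1 := by
  unfold sg
  split_ifs
  · exact Or.inl rfl
  · exact Or.inr rfl

theorem sg_of_finite {P : Pl k K} (h : P.v (xK k K) ≤ 1) : sg P = 1 := by
  unfold sg; rw [if_pos h]

theorem sg_of_infinite {P : Pl k K} (h : ¬ P.v (xK k K) ≤ 1) : sg P = -1 := by
  unfold sg; rw [if_neg h]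

end sg

section car

variable {k : Type*} [Field k] (p : ℕ) [hp : Fact p.Prime] [CharP k p] [PerfectRing k p]
  {K : Type*} [Field K] [Algebra k K] [Algebra (RatFunc k) K]
  [IsScalarTower k (RatFunc k) K] [FiniteDimensional (RatFunc k) K]
  [Algebra.IsSeparable (RatFunc k) K]

theorem sg_pow (P : Pl k K) : sg P ^ p = sg P := by
  rcases sg_eq_one_or P with h | h
  · rw [h, one_pow]
  · rw [h, neg_one_pow_char k p]

theorem lt_car (f : K) : lt k K f = lt k K (car k p f) ^ p := by
  have h := pair_pow (k := k) p 1 f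
  rwa [one_pow, pair_eq_lt, pair_eq_lt, one_mul, one_mul] at h

theorem exists_mem_LD_at (g : K) (P : Pl k K) (m : ℤ) (h : P.v g ≤ exp (canD k K P - p * m)) :
    ∃ D : Pl k K →₀ ℤ, D P = m ∧ g ∈ LD (canD k K - (p : ℤ) • D) := by
  classical
  by_cases hg : g = 0
  · exact ⟨Finsupp.single P m, by simp, by rw [hg]; exact zero_mem _⟩
  · set E : Pl k K →₀ ℤ := -((canD k K).mapRange (fun n => |n|) (by simp) +
      (divf g).mapRange (fun n => |n|) (by simp)) with hE
    refine ⟨E.update P m, by simp, ?_⟩
    rw [mem_LD]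
    intro Q
    rw [Finsupp.sub_apply, Finsupp.smul_apply, Finsupp.coe_update]
    by_cases hQ : Q = P
    · subst hQ
      rw [Function.update_self, smul_eq_mul]
      exact h
    · rw [Function.update_of_ne hQ, hE, v_eq hg, exp_le_exp]
      simp only [Finsupp.neg_apply, Finsupp.add_apply, Finsupp.mapRange_apply, smul_eq_mul]
      have h1 : (1 : ℤ) ≤ p := by exact_mod_cast hp.out.one_lt.le
      have h2 := abs_nonneg (canD k K Q)
      have h3 := abs_nonneg (divf (k := k) g Q)
      have h4 := neg_abs_le (canD k K Q)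
      have h5 := neg_abs_le (divf (k := k) g Q)
      nlinarith

/-- the Cartier operator is local -/
theorem v_car_le (P : Pl k K) {g : K} {m : ℤ} (h : P.v g ≤ exp (canD k K P - p * m)) :
    P.v (car k p g) ≤ exp (canD k K P - m) := by
  obtain ⟨D, hD, hg⟩ := exists_mem_LD_at p g P m h
  have := (mem_LD.mp (car_mem_LD p hg)) P
  rwa [Finsupp.sub_apply, hD] at this

theorem v_car_le' (P : Pl k K) {g : K} (h : P.v g ≤ exp (canD k K P)) :
    P.v (car k p g) ≤ exp (canD k K P) := by
  have h1 := v_car_le p P (m := 0) (g := g) (by rwa [mul_zero, sub_zero])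
  rwa [sub_zero] at h1

theorem car_neg (g : K) : car k p (-g) = -car k p g := by
  have h := car_add (k := k) p g (-g)
  rw [add_neg_cancel, car_zero] at h
  exact (neg_eq_of_add_eq_zero_right h.symm).symm

theorem car_sub (g g' : K) : car k p (g - g') = car k p g - car k p g' := by
  rw [sub_eq_add_neg, car_add, car_neg, sub_eq_add_neg]

/-- **residues and the Cartier operator** -/
theorem res_car (P : Pl k K) (f : K) : res P f = res P (car k p f) ^ p := by
  obtain ⟨a, ha1, ha2⟩ := exists_app P f (canD k K)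
  rw [res_eq P ha1 ha2, res_eq P (f := car k p f) (f' := car k p a), mul_pow, sg_pow p, ← lt_car]
  · rw [← car_sub]
    exact v_car_le' p P ha1
  · intro Q hQ hS
    exact v_car_le' p Q (ha2 Q hQ hS)

end car

section del

variable {k : Type*} [Field k] [PerfectField k] {K : Type*} [Field K] [Algebra k K]
  [Algebra (RatFunc k) K] [IsScalarTower k (RatFunc k) K] [FiniteDimensional (RatFunc k) K]
  [Algebra.IsSeparable (RatFunc k) K]

/-- exact differentials have no residues -/
theorem res_del (P : Pl k K) (h : K) : res P (del k K h) = 0 := by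
  obtain ⟨a, ha1, ha2⟩ := exists_app P h 0
  rw [res_eq P (f' := del k K a), lt_del, mul_zero]
  · rw [← map_sub]
    apply Crest.Agent.R013.Car5_700.v_del_le
    rwa [Finsupp.zero_apply, exp_zero] at ha1
  · intro Q hQ hS
    apply Crest.Agent.R013.Car5_700.v_del_le
    have := ha2 Q hQ hS
    rwa [Finsupp.zero_apply, exp_zero] at this

/-- `dlog` of a unit is regular -/
theorem v_dlog_unit (P : Pl k K) {u : K} (hu : P.v u = 1) :
    P.v (del k K u / u) ≤ exp (canD k K P) := by
  rw [map_div₀, hu, div_one]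
  exact Crest.Agent.R013.Car5_700.v_del_le P hu.le

/-- `dlog f = n dlog t + regular` -/
theorem v_dlog_sub (P : Pl k K) {t f : K} {n : ℤ} (ht : P.v t = exp (-1)) (hf : P.v f = exp (-n)) :
    P.v (del k K f / f - (n : K) * (del k K t / t)) ≤ exp (canD k K P) := by
  have ht0 : t ≠ 0 := by rintro rfl; rw [map_zero] at ht; exact exp_ne_zero ht.symm
  have hf0 : f ≠ 0 := by rintro rfl; rw [map_zero] at hf; exact exp_ne_zero hf.symm
  set u := f * t ^ (-n) with hu
  have hu0 : u ≠ 0 := mul_ne_zero hf0 (zpow_ne_zero _ ht0)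
  have hvu : P.v u = 1 := by
    rw [hu, map_mul, map_zpow₀, hf, ht, ← exp_zsmul, ← exp_add]; simp
  have hfu : f = t ^ n * u := by
    rw [hu, mul_comm, mul_assoc, ← zpow_add₀ ht0]; simp
  have h1 : del k K f / f = (n : K) * (del k K t / t) + del k K u / u := by
    rw [hfu, Derivation.leibniz, Derivation.leibniz_zpow, smul_eq_mul, smul_eq_mul, smul_eq_mul,
      zsmul_eq_mul]
    have h2 : t ^ n = t ^ (n - 1) * t := by
      rw [← zpow_add_one₀ ht0]; simp
    have h3 : t ^ (n - 1) ≠ 0 := zpow_ne_zero _ ht0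
    rw [h2]
    field_simp
    ring
  rw [h1, add_sub_cancel_left]
  exact v_dlog_unit P hvu

theorem res_dlog_eq (P : Pl k K) {t f : K} {n : ℤ} (ht : P.v t = exp (-1)) (hf : P.v f = exp (-n)) :
    res P (del k K f / f) = n * res P (del k K t / t) := by
  have h := res_congr (v_dlog_sub P ht hf)
  rw [h]
  have h1 : (n : K) * (del k K t / t) = (n : k) • (del k K t / t) := by
    rw [Algebra.smul_def, map_intCast]
  rw [h1, map_smul, smul_eq_mul]

theorem res_dlog_unit (P : Pl k K) {u : K} (hu : P.v u = 1) : res P (del k K u / u) = 0 :=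
  res_of_le (v_dlog_unit P hu)

end del

section above

variable {k : Type*} [Field k] {K : Type*} [Field K] [Algebra k K]
  [Algebra (RatFunc k) K] [IsScalarTower k (RatFunc k) K] [FiniteDimensional (RatFunc k) K]
  [Algebra.IsSeparable (RatFunc k) K]

theorem lt_ratFunc (r : RatFunc k) : lt k (RatFunc k) r = cinf k r := by
  rw [lt_apply, Algebra.trace_self_apply]

theorem lt_trace (f : K) : lt k (RatFunc k) (Algebra.trace (RatFunc k) K f) = lt k K f := by
  rw [lt_ratFunc, lt_apply]

theorem algebraMap_X : algebraMap (RatFunc k) K RatFunc.X = xK k K := rfl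

theorem under_finite_iff (Q : Pl k K) :
    (under (RatFunc k) Q).v (xK k (RatFunc k)) ≤ 1 ↔ Q.v (xK k K) ≤ 1 := by
  rw [xK_ratFunc]
  exact under_le_one_iff (K := RatFunc k) Q RatFunc.X

theorem same_under_iff {P Q : Pl k K} :
    Same (under (RatFunc k) P) (under (RatFunc k) Q) ↔ Same P Q := by
  unfold Same
  rw [under_finite_iff, under_finite_iff]

theorem sg_under (Q : Pl k K) : sg (under (RatFunc k) Q) = sg Q := by
  by_cases h : Q.v (xK k K) ≤ 1
  · rw [sg_of_finite h, sg_of_finite ((under_finite_iff Q).mpr h)]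
  · rw [sg_of_infinite h, sg_of_infinite (fun h' => h ((under_finite_iff Q).mp h'))]

theorem trace_smul' (g : RatFunc k) (f : K) :
    Algebra.trace (RatFunc k) K (algebraMap (RatFunc k) K g * f) =
      g * Algebra.trace (RatFunc k) K f := by
  rw [← Algebra.smul_def, map_smul, smul_eq_mul]

theorem trace_mem_N0 {f : K} (h : f ∈ N0 (canD k K)) :
    Algebra.trace (RatFunc k) K f ∈ N0 (canD k (RatFunc k)) := by
  have h0 : canD k (RatFunc k) = canD k (RatFunc k) - 0 := by rw [sub_zero]
  rw [h0, mem_N0_iff]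
  intro g hg
  rw [pair_eq_lt, ← trace_smul', lt_trace]
  apply lt_of_N0
  rw [mem_N0] at h hg ⊢
  intro Q hQ
  rw [map_mul]
  have h1 : Q.v (algebraMap (RatFunc k) K g) ≤ 1 := by
    rw [← under_le_one_iff]
    have := hg (under (RatFunc k) Q) ((under_finite_iff Q).mpr hQ)
    rwa [Finsupp.zero_apply, exp_zero] at this
  calc _ ≤ 1 * exp (canD k K Q) := mul_le_mul' h1 (h Q hQ)
    _ = _ := one_mul _

theorem trace_mem_N1 {f : K} (h : f ∈ N1 (canD k K)) :
    Algebra.trace (RatFunc k) K f ∈ N1 (canD k (RatFunc k)) := by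
  have h0 : canD k (RatFunc k) = canD k (RatFunc k) - 0 := by rw [sub_zero]
  rw [h0, mem_N1_iff]
  intro g hg
  rw [pair_eq_lt, ← trace_smul', lt_trace]
  apply lt_of_N1
  rw [mem_N1] at h hg ⊢
  intro Q hQ
  rw [map_mul]
  have h1 : Q.v (algebraMap (RatFunc k) K g) ≤ 1 := by
    rw [← under_le_one_iff]
    have := hg (under (RatFunc k) Q) (by
      rw [← not_le]
      rw [← not_le] at hQ
      exact fun h' => hQ ((under_finite_iff Q).mp h'))
    rwa [Finsupp.zero_apply, exp_zero] at this
  calc _ ≤ 1 * exp (canD k K Q) := mul_le_mul' h1 (h Q hQ)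
    _ = _ := one_mul _

theorem trace_mem_chart (P0 : Pl k K) {f : K} (h : ∀ Q, Same P0 Q → Q.v f ≤ exp (canD k K Q)) :
    (under (RatFunc k) P0).v (Algebra.trace (RatFunc k) K f) ≤
      exp (canD k (RatFunc k) (under (RatFunc k) P0)) := by
  by_cases hP : P0.v (xK k K) ≤ 1
  · have h1 : f ∈ N0 (canD k K) := by
      rw [mem_N0]
      exact fun Q hQ => h Q ⟨fun _ => hQ, fun _ => hP⟩
    exact (mem_N0.mp (trace_mem_N0 h1)) _ ((under_finite_iff P0).mpr hP)
  · have h1 : f ∈ N1 (canD k K) := by
      rw [mem_N1]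
      exact fun Q hQ => h Q ⟨fun h' => absurd h' hP, fun h' => absurd hQ (not_lt.mpr h')⟩
    refine (mem_N1.mp (trace_mem_N1 h1)) _ ?_
    rw [← not_le]
    exact fun h' => hP ((under_finite_iff P0).mp h')

/-- the trace of elements of the inverse different, locally -/
theorem trace_le (P0 : Pl k (RatFunc k)) {f : K}
    (h : ∀ Q ∈ above K P0, Q.v f ≤ exp (canD k K Q)) :
    P0.v (Algebra.trace (RatFunc k) K f) ≤ exp (canD k (RatFunc k) P0) := by
  classical
  by_cases hf : f = 0
  · subst hf
    rw [map_zero, map_zero]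
    exact zero_le
  set S : Finset (Pl k K) := (canD k K).support ∪ (divf (k := k) f).support with hS
  set w : Pl k K → ℤ := fun Q => |canD k K Q| + |divf (k := k) f Q| with hw
  have hw0 : ∀ Q, 0 ≤ w Q := fun Q => add_nonneg (abs_nonneg _) (abs_nonneg _)
  set D0 : Pl k (RatFunc k) →₀ ℤ :=
    - ∑ Q ∈ S, Finsupp.single (under (RatFunc k) Q) (w Q) - Finsupp.single P0 1 with hD0
  have hD0le : ∀ Q : Pl k K, D0 (under (RatFunc k) Q) ≤ - w Q := by
    intro Q
    rw [hD0, Finsupp.sub_apply, Finsupp.neg_apply, Finsupp.finset_sum_apply]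
    have h1 : 0 ≤ Finsupp.single P0 (1 : ℤ) (under (RatFunc k) Q) := by
      rw [Finsupp.single_apply]; split_ifs <;> norm_num
    have h2 : ∀ R ∈ S, 0 ≤ Finsupp.single (under (RatFunc k) R) (w R) (under (RatFunc k) Q) := by
      intro R _
      rw [Finsupp.single_apply]; split_ifs
      · exact hw0 R
      · exact le_rfl
    by_cases hQ : Q ∈ S
    · have h3 := Finset.single_le_sum h2 hQ
      rw [Finsupp.single_apply, if_pos rfl] at h3
      linarith
    · have h3 := Finset.sum_nonneg h2
      have h4 : w Q = 0 := by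
        rw [hS, Finset.mem_union, not_or, Finsupp.notMem_support_iff, Finsupp.notMem_support_iff] at hQ
        rw [hw]
        simp only [hQ.1, hQ.2, abs_zero, add_zero]
      linarith
  obtain ⟨s, hs1, hs2⟩ := exists_app P0 (1 : RatFunc k) D0
  have hD0P : D0 P0 ≤ -1 := by
    rw [hD0, Finsupp.sub_apply, Finsupp.neg_apply, Finsupp.finset_sum_apply, Finsupp.single_eq_same]
    have h2 : ∀ R ∈ S, 0 ≤ Finsupp.single (under (RatFunc k) R) (w R) P0 := by
      intro R _
      rw [Finsupp.single_apply]; split_ifs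
      · exact hw0 R
      · exact le_rfl
    have h3 := Finset.sum_nonneg h2
    linarith
  have hs3 : P0.v s = 1 := by
    have h1 : P0.v (s - 1) < P0.v 1 := by
      rw [map_one]
      refine hs1.trans_lt ?_
      rw [← exp_zero, exp_lt_exp]
      linarith
    have h2 := Valuation.map_add_eq_of_lt_left P0.v h1
    rw [add_sub_cancel, map_one] at h2
    exact h2
  obtain ⟨Q0, hQ0⟩ := above_nonempty (L := K) P0
  rw [mem_above] at hQ0
  have key : ∀ Q, Same Q0 Q → Q.v (algebraMap (RatFunc k) K s * f) ≤ exp (canD k K Q) := by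
    intro Q hQ
    by_cases hQP : under (RatFunc k) Q = P0
    · rw [map_mul]
      have h1 : Q.v (algebraMap (RatFunc k) K s) = 1 := by
        have := v_algebraMap_exp (K := RatFunc k) Q (f := s) (n := 0) (by rw [hQP, hs3, exp_zero])
        rw [this, mul_zero, exp_zero]
      rw [h1, one_mul]
      exact h Q (by rw [mem_above]; exact hQP)
    · have h1 : (under (RatFunc k) Q).v s ≤ exp (D0 (under (RatFunc k) Q)) := by
        apply hs2 _ hQP
        rw [← hQ0, same_under_iff]
        exact hQ
      have h2 : Q.v (algebraMap (RatFunc k) K s) ≤ exp (-w Q) := by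
        rw [v_algebraMap]
        calc (under (RatFunc k) Q).v s ^ eR (RatFunc k) Q
            ≤ exp (-w Q) ^ eR (RatFunc k) Q :=
              pow_le_pow_left₀ zero_le (h1.trans (exp_le_exp.mpr (hD0le Q))) _
          _ ≤ exp (-w Q) := by
              rw [← exp_nsmul, exp_le_exp]
              have h3 := hw0 Q
              have h4 : (1 : ℤ) ≤ eR (RatFunc k) Q := by exact_mod_cast eR_pos (K := RatFunc k) Q
              rw [nsmul_eq_mul]
              nlinarith
      rw [map_mul, v_eq (k := k) hf Q]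
      calc _ ≤ exp (-w Q) * exp (-divf (k := k) f Q) := mul_le_mul_left h2 _
        _ ≤ _ := by
          rw [← exp_add, exp_le_exp, hw]
          have h5 := neg_abs_le (canD k K Q)
          have h6 := neg_abs_le (divf (k := k) f Q)
          simp only
          linarith
  have h1 := trace_mem_chart Q0 key
  rw [trace_smul', map_mul, hQ0, hs3, one_mul] at h1
  exact h1

/-- **residues and traces** -/
theorem sum_res_above (P0 : Pl k (RatFunc k)) (f : K) :
    ∑ Q ∈ above K P0, res Q f = res P0 (Algebra.trace (RatFunc k) K f) := by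
  classical
  choose a ha1 ha2 using fun P : Pl k K => exists_app P f (canD k K)
  set f' := ∑ P ∈ above K P0, a P with hf'
  obtain ⟨Q0, hQ0⟩ := above_nonempty (L := K) P0
  rw [mem_above] at hQ0
  have hsame : ∀ P ∈ above K P0, Same Q0 P := by
    intro P hP
    rw [mem_above] at hP
    rw [← same_under_iff, hQ0, hP]
    exact Same.refl _
  have h1 : ∀ Q ∈ above K P0, Q.v (f' - f) ≤ exp (canD k K Q) := by
    intro Q hQ
    rw [hf', ← Finset.add_sum_erase _ a hQ]
    have : a Q + ∑ P ∈ (above K P0).erase Q, a P - f =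
      (a Q - f) + ∑ P ∈ (above K P0).erase Q, a P := by ring
    rw [this]
    refine (Valuation.map_add _ _ _).trans (max_le (ha1 Q) ?_)
    refine Valuation.map_sum_le _ fun P hP => ?_
    rw [Finset.mem_erase] at hP
    exact ha2 P Q (Ne.symm hP.1) ((hsame P hP.2).symm.trans (hsame Q hQ))
  have h2 : ∀ Q, Same Q0 Q → Q ∉ above K P0 → Q.v f' ≤ exp (canD k K Q) := by
    intro Q hQ hQn
    refine Valuation.map_sum_le _ fun P hP => ?_
    exact ha2 P Q (fun h => hQn (h ▸ hP)) ((hsame P hP).symm.trans hQ)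
  have h3 := lt_eq_sum Q0 f' (above K P0) hsame h2
  have h4 : ∑ Q ∈ above K P0, res Q f' = ∑ Q ∈ above K P0, res Q f :=
    Finset.sum_congr rfl fun Q hQ => res_congr (h1 Q hQ)
  rw [← h4, ← h3, ← lt_trace, ← sg_under, hQ0]
  have h5 : P0.v (Algebra.trace (RatFunc k) K f' - Algebra.trace (RatFunc k) K f) ≤
      exp (canD k (RatFunc k) P0) := by
    rw [← map_sub]
    exact trace_le P0 h1
  symm
  apply res_eq P0 h5
  intro R hR hS
  apply trace_le
  intro Q hQ
  rw [mem_above] at hQ
  subst hQ
  apply h2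
  · rw [← same_under_iff, hQ0]
    exact hS
  · rw [mem_above]
    exact hR

end above

end Crest.Agent.R013.RR27_948
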