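import Mathlib
import Crest.Agent.R013.RR27_948

/-!
# R013 / RR28: residues over an algebraically closed field (helper948)

* `res_dlog` : `res P (del f / f) = ord_P f`;
* `res_zpow` : `res P (t ^ n * del t) = [n = -1]`, any characteristic;
* `res_eq_coeff` : the residue is the coefficient of `t⁻¹`;
* `coef`, `coef_spec` : Laurent expansions by residues;
* `res_mapPl` : invariance under isomorphisms (and change of `x`).
-/

set_option autoImplicit false
set_option linter.all false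

namespace Crest.Agent.R013.RR28_948

open Polynomial WithZero Module IsDedekindDomain nonZeroDivisors
open Crest.Agent.R013.RR1_948 Crest.Agent.R013.RR2_948 Crest.Agent.R013.RR3_948
open Crest.Agent.R013.RR4_948 Crest.Agent.R013.RR5_948 Crest.Agent.R013.RR6_948
open Crest.Agent.R013.RR7_948 Crest.Agent.R013.RR8_948 Crest.Agent.R013.RR9_948
open Crest.Agent.R013.RR11_948 Crest.Agent.R013.RR12_948 Crest.Agent.R013.RR13_948
open Crest.Agent.R013.RR14_948 Crest.Agent.R013.RR15_948
open Crest.Agent.R013.RR18_948 Crest.Agent.R013.RR19_948 Crest.Agent.R013.RR20_948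
open Crest.Agent.R013.RR21_948 Crest.Agent.R013.RR22_948 Crest.Agent.R013.RR23_948
open Crest.Agent.R013.RR24_948 Crest.Agent.R013.RR25_948 Crest.Agent.R013.RR26_948
open Crest.Agent.R013.RR27_948
open Crest.Agent.R013.GR2_921 (exists_const degP_eq_one)
open Crest.Agent.R013.Car5_700 (v_del_eq v_del_le v_del_le')

section gen

variable {k : Type*} [Field k] {K : Type*} [Field K] [Algebra k K]

theorem gen_of_zpow {P : Pl k K} {t : K} (ht : P.v t < 1)
    (h : ∀ f : K, f ≠ 0 → ∃ m : ℤ, P.v f = P.v t ^ m) : P.v t = exp (-1) := by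
  obtain ⟨f, hf⟩ := P.surj (exp (-1))
  have hf0 : f ≠ 0 := by rintro rfl; rw [map_zero] at hf; exact exp_ne_zero hf.symm
  obtain ⟨m, hm⟩ := h f hf0
  rw [hf] at hm
  have ht0 : P.v t ≠ 0 := by
    intro h0
    rw [h0] at hm
    by_cases hm0 : m = 0
    · rw [hm0, zpow_zero, ← exp_zero, exp_inj] at hm
      norm_num at hm
    · rw [zero_zpow m hm0] at hm
      exact exp_ne_zero hm
  have h1 := (exp_log ht0).symm
  set c := log (P.v t) with hc
  rw [h1] at hm ht ⊢
  rw [← exp_zsmul, exp_inj, smul_eq_mul] at hm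
  rw [← exp_zero, exp_lt_exp] at ht
  rw [exp_inj]
  have h2 : (-m) * c = 1 := by linarith
  rcases Int.eq_one_or_neg_one_of_mul_eq_one (show c * (-m) = 1 by linarith) with h3 | h3
  · omega
  · exact h3

end gen

section rat

variable {k : Type*} [Field k] [IsAlgClosed k]

theorem X_sub_C_ne (a : k) : (RatFunc.X : RatFunc k) - RatFunc.C a ≠ 0 := by
  have h := RatFunc.algebraMap_ne_zero (K := k) (X_sub_C_ne_zero a)
  rwa [map_sub, RatFunc.algebraMap_X, RatFunc.algebraMap_C] at h

theorem ratFunc_ind {M : RatFunc k → Prop} (hC : ∀ c : k, c ≠ 0 → M (RatFunc.C c))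
    (hX : ∀ a : k, M (RatFunc.X - RatFunc.C a))
    (hmul : ∀ f g, f ≠ 0 → g ≠ 0 → M f → M g → M (f * g))
    (hinv : ∀ f, f ≠ 0 → M f → M f⁻¹) {f : RatFunc k} (hf : f ≠ 0) : M f := by
  have hXa : ∀ a : k, (RatFunc.X : RatFunc k) - RatFunc.C a ≠ 0 := X_sub_C_ne
  have hp : ∀ q : k[X], q ≠ 0 → M (algebraMap k[X] (RatFunc k) q) := by
    intro q hq
    have h1 := (IsAlgClosed.splits q).eq_prod_roots
    rw [h1, map_mul, RatFunc.algebraMap_C]
    have h2 : ∀ s : Multiset k, M (algebraMap k[X] (RatFunc k) ((s.map fun a => X - C a).prod)) ∧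
        algebraMap k[X] (RatFunc k) ((s.map fun a => X - C a).prod) ≠ 0 := by
      intro s
      induction s using Multiset.induction_on with
      | empty =>
        simp only [Multiset.map_zero, Multiset.prod_zero, map_one]
        refine ⟨?_, one_ne_zero⟩
        have := hC 1 one_ne_zero
        rwa [map_one] at this
      | cons a s ih =>
        rw [Multiset.map_cons, Multiset.prod_cons, map_mul, map_sub, RatFunc.algebraMap_X,
          RatFunc.algebraMap_C]
        exact ⟨hmul _ _ (hXa a) ih.2 (hX a) ih.1, mul_ne_zero (hXa a) ih.2⟩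
    have hlc : q.leadingCoeff ≠ 0 := leadingCoeff_ne_zero.mpr hq
    exact hmul _ _ ((_root_.map_ne_zero _).mpr hlc) (h2 _).2 (hC _ hlc) (h2 _).1
  have h3 : algebraMap k[X] (RatFunc k) f.num / algebraMap k[X] (RatFunc k) f.denom = f :=
    RatFunc.num_div_denom f
  have hn : f.num ≠ 0 := RatFunc.num_ne_zero hf
  have hd : f.denom ≠ 0 := f.denom_ne_zero
  have hn' : algebraMap k[X] (RatFunc k) f.num ≠ 0 := RatFunc.algebraMap_ne_zero hn
  have hd' : algebraMap k[X] (RatFunc k) f.denom ≠ 0 := RatFunc.algebraMap_ne_zero hd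
  rw [← h3, div_eq_mul_inv]
  exact hmul _ _ hn' (inv_ne_zero hd') (hp _ hn) (hinv _ hd' (hp _ hd))

theorem v_C (P : Pl k (RatFunc k)) {c : k} (hc : c ≠ 0) : P.v (RatFunc.C c) = 1 := by
  rw [← algebraMap_eq_C, P.const c hc]

theorem v_C_le (P : Pl k (RatFunc k)) (c : k) : P.v (RatFunc.C c) ≤ 1 := by
  by_cases hc : c = 0
  · rw [hc, map_zero, map_zero]; exact zero_le
  · rw [v_C P hc]

theorem zpow_finite (a : k) {f : RatFunc k} (hf : f ≠ 0) :
    ∃ m : ℤ, ∀ P : Pl k (RatFunc k), P.v (RatFunc.X - RatFunc.C a) < 1 →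
      P.v f = P.v (RatFunc.X - RatFunc.C a) ^ m := by
  have hXa : (RatFunc.X : RatFunc k) - RatFunc.C a ≠ 0 := X_sub_C_ne a
  refine ratFunc_ind (M := fun f => ∃ m : ℤ, ∀ P : Pl k (RatFunc k),
    P.v (RatFunc.X - RatFunc.C a) < 1 → P.v f = P.v (RatFunc.X - RatFunc.C a) ^ m) ?_ ?_ ?_ ?_ hf
  · intro c hc
    exact ⟨0, fun P _ => by rw [v_C P hc, zpow_zero]⟩
  · intro b
    by_cases hb : b = a
    · subst hb
      exact ⟨1, fun P _ => by rw [zpow_one]⟩
    · refine ⟨0, fun P hP => ?_⟩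
      have h1 : (RatFunc.X : RatFunc k) - RatFunc.C b =
          RatFunc.C (a - b) + (RatFunc.X - RatFunc.C a) := by
        rw [map_sub]; ring
      have h2 : P.v (RatFunc.C (a - b)) = 1 := v_C P (sub_ne_zero.mpr (Ne.symm hb))
      rw [h1, Valuation.map_add_eq_of_lt_left _ (by rw [h2]; exact hP), h2, zpow_zero]
  · rintro f g hf hg ⟨m, hm⟩ ⟨n, hn⟩
    refine ⟨m + n, fun P hP => ?_⟩
    rw [map_mul, hm P hP, hn P hP, zpow_add₀ ((Valuation.ne_zero_iff _).mpr hXa)]
  · rintro f hf ⟨m, hm⟩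
    refine ⟨-m, fun P hP => ?_⟩
    rw [map_inv₀, hm P hP, zpow_neg]

theorem zpow_infinite {f : RatFunc k} (hf : f ≠ 0) :
    ∃ m : ℤ, ∀ P : Pl k (RatFunc k), 1 < P.v RatFunc.X →
      P.v f = P.v (RatFunc.X⁻¹) ^ m := by
  have hX : (RatFunc.X : RatFunc k) ≠ 0 := RatFunc.X_ne_zero
  refine ratFunc_ind (M := fun f => ∃ m : ℤ, ∀ P : Pl k (RatFunc k),
    1 < P.v RatFunc.X → P.v f = P.v (RatFunc.X⁻¹) ^ m) ?_ ?_ ?_ ?_ hf
  · intro c hc
    exact ⟨0, fun P _ => by rw [v_C P hc, zpow_zero]⟩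
  · intro b
    refine ⟨-1, fun P hP => ?_⟩
    have h1 : (RatFunc.X : RatFunc k) - RatFunc.C b = RatFunc.X + RatFunc.C (-b) := by
      rw [map_neg]; ring
    rw [h1, Valuation.map_add_eq_of_lt_left _ ((v_C_le P _).trans_lt hP), map_inv₀, zpow_neg,
      zpow_one, inv_inv]
  · rintro f g hf hg ⟨m, hm⟩ ⟨n, hn⟩
    refine ⟨m + n, fun P hP => ?_⟩
    rw [map_mul, hm P hP, hn P hP, zpow_add₀ ((Valuation.ne_zero_iff _).mpr (inv_ne_zero hX))]
  · rintro f hf ⟨m, hm⟩
    refine ⟨-m, fun P hP => ?_⟩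
    rw [map_inv₀, hm P hP, zpow_neg]

theorem zpow_le_one_iff' {t : ℤᵐ⁰} (ht : t < 1) (ht0 : t ≠ 0) (m : ℤ) : t ^ m ≤ 1 ↔ 0 ≤ m := by
  have h1 := (exp_log ht0).symm
  set c := log t with hc
  rw [h1] at ht ⊢
  rw [← exp_zero, exp_lt_exp] at ht
  rw [← exp_zsmul, ← exp_zero, exp_le_exp, smul_eq_mul]
  constructor
  · intro h
    by_contra hm
    nlinarith
  · intro h
    nlinarith

theorem ratFunc_finite (P : Pl k (RatFunc k)) (hP : P.v RatFunc.X ≤ 1) :
    ∃ a : k, P.v (RatFunc.X - RatFunc.C a) = exp (-1) ∧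
      ∀ R : Pl k (RatFunc k), R ≠ P → R.v RatFunc.X ≤ 1 → R.v (RatFunc.X - RatFunc.C a) = 1 := by
  obtain ⟨a, ha⟩ := exists_const P hP
  rw [algebraMap_eq_C] at ha
  have hXa : (RatFunc.X : RatFunc k) - RatFunc.C a ≠ 0 := X_sub_C_ne a
  refine ⟨a, gen_of_zpow ha fun f hf => ?_, ?_⟩
  · obtain ⟨m, hm⟩ := zpow_finite a hf
    exact ⟨m, hm P ha⟩
  · intro R hR hRX
    by_contra hcon
    apply hR
    have h1 : R.v (RatFunc.X - RatFunc.C a) < 1 := by
      refine lt_of_le_of_ne ?_ hcon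
      exact (Valuation.map_sub _ _ _).trans (max_le hRX (v_C_le R a))
    symm
    apply pl_eq_of_le
    intro f hf
    by_cases hf0 : f = 0
    · subst hf0; rw [map_zero]; exact zero_le
    obtain ⟨m, hm⟩ := zpow_finite a hf0
    rw [hm P ha, zpow_le_one_iff' ha ((Valuation.ne_zero_iff _).mpr hXa)] at hf
    rw [hm R h1, zpow_le_one_iff' h1 ((Valuation.ne_zero_iff _).mpr hXa)]
    exact hf

theorem ratFunc_infinite (P : Pl k (RatFunc k)) (hP : 1 < P.v RatFunc.X) :
    P.v (RatFunc.X⁻¹) = exp (-1) ∧ ∀ R : Pl k (RatFunc k), 1 < R.v RatFunc.X → R = P := by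
  have hX : (RatFunc.X : RatFunc k) ≠ 0 := RatFunc.X_ne_zero
  have hlt : ∀ R : Pl k (RatFunc k), 1 < R.v RatFunc.X → R.v (RatFunc.X⁻¹) < 1 := by
    intro R hR
    rw [map_inv₀]
    exact inv_lt_one_of_one_lt₀ hR
  refine ⟨gen_of_zpow (hlt P hP) fun f hf => ?_, fun R hR => ?_⟩
  · obtain ⟨m, hm⟩ := zpow_infinite hf
    exact ⟨m, hm P hP⟩
  · symm
    apply pl_eq_of_le
    intro f hf
    by_cases hf0 : f = 0
    · subst hf0; rw [map_zero]; exact zero_le
    obtain ⟨m, hm⟩ := zpow_infinite hf0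
    rw [hm P hP, zpow_le_one_iff' (hlt P hP) ((Valuation.ne_zero_iff _).mpr (inv_ne_zero hX))] at hf
    rw [hm R hR, zpow_le_one_iff' (hlt R hR) ((Valuation.ne_zero_iff _).mpr (inv_ne_zero hX))]
    exact hf

theorem del_X_sub_C (a : k) : del k (RatFunc k) (RatFunc.X - RatFunc.C a) = 1 := by
  rw [map_sub, dR_X, ← algebraMap_eq_C, Derivation.map_algebraMap, sub_zero]

theorem canD_ratFunc_finite (P : Pl k (RatFunc k)) (hP : P.v RatFunc.X ≤ 1) :
    canD k (RatFunc k) P = 0 := by
  obtain ⟨a, ha, _⟩ := ratFunc_finite P hP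
  have h := v_del_eq P ha
  rw [del_X_sub_C, map_one, ← exp_zero, exp_inj] at h
  exact h.symm

theorem canD_ratFunc_infinite (P : Pl k (RatFunc k)) (hP : 1 < P.v RatFunc.X) :
    canD k (RatFunc k) P = -2 := by
  have h := v_del_eq P (ratFunc_infinite P hP).1
  have h1 : del k (RatFunc k) (RatFunc.X⁻¹ : RatFunc k) = -(RatFunc.X⁻¹ * RatFunc.X⁻¹) := by
    rw [Derivation.leibniz_inv, dR_X]
    simp [sq]
  rw [h1, Valuation.map_neg, map_mul, (ratFunc_infinite P hP).1, ← exp_add, exp_inj] at h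
  omega

theorem cinf_inv_X_sub_C (a : k) : cinf k (RatFunc.X - RatFunc.C a)⁻¹ = 1 := by
  have hv : vinf k (RatFunc.X - RatFunc.C a) = exp 1 := by
    have h1 : (RatFunc.X : RatFunc k) - RatFunc.C a = RatFunc.X + RatFunc.C (-a) := by
      rw [map_neg]; ring
    rw [h1, Valuation.map_add_eq_of_lt_left _ (by
      rw [vinf_X]
      refine (vinf_C_le k (-a)).trans_lt ?_
      rw [← exp_zero, exp_lt_exp]; norm_num), vinf_X]
  have h := cinf_dlog hv
  rw [del_X_sub_C, one_div, Int.cast_one] at h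
  exact h

theorem res_dlog_rat (P : Pl k (RatFunc k)) {t : RatFunc k} (ht : P.v t = exp (-1)) :
    res P (del k (RatFunc k) t / t) = 1 := by
  by_cases hP : P.v RatFunc.X ≤ 1
  · obtain ⟨a, ha, ha'⟩ := ratFunc_finite P hP
    rw [res_dlog_eq P (n := 1) ha ht, Int.cast_one, one_mul, del_X_sub_C, one_div]
    rw [res_eq P (f' := (RatFunc.X - RatFunc.C a)⁻¹), lt_ratFunc, cinf_inv_X_sub_C, mul_one]
    · exact sg_of_finite hP
    · rw [sub_self, map_zero]; exact zero_le
    · intro Q hQ hS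
      have hQX : Q.v RatFunc.X ≤ 1 := hS.mp hP
      rw [map_inv₀, ha' Q hQ hQX, inv_one, canD_ratFunc_finite Q hQX, exp_zero]
  · have hP' : 1 < P.v RatFunc.X := not_le.mp hP
    obtain ⟨h1, h2⟩ := ratFunc_infinite P hP'
    rw [res_dlog_eq P (n := 1) h1 ht, Int.cast_one, one_mul]
    have h3 : del k (RatFunc k) (RatFunc.X⁻¹ : RatFunc k) / RatFunc.X⁻¹ = -RatFunc.X⁻¹ := by
      rw [Derivation.leibniz_inv, dR_X]
      have hX : (RatFunc.X : RatFunc k) ≠ 0 := RatFunc.X_ne_zero
      simp only [smul_eq_mul, mul_one]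
      field_simp
    rw [h3, map_neg, res_eq P (f' := RatFunc.X⁻¹), lt_ratFunc, cinf_X_inv, mul_one,
      sg_of_infinite hP, neg_neg]
    · rw [sub_self, map_zero]; exact zero_le
    · intro Q hQ hS
      exfalso
      apply hQ
      apply h2
      rw [← not_le]
      exact fun h => hP (hS.mpr h)

end rat

section closed

variable {k : Type*} [Field k] [IsAlgClosed k] {K : Type*} [Field K] [Algebra k K]
  [Algebra (RatFunc k) K] [IsScalarTower k (RatFunc k) K] [FiniteDimensional (RatFunc k) K]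
  [Algebra.IsSeparable (RatFunc k) K]

theorem v_exp_divf {f : K} (hf : f ≠ 0) {P : Pl k K} {n : ℤ} (h : P.v f = exp (-n)) :
    divf (k := k) f P = n := by
  rw [v_eq (k := k) hf P, exp_inj] at h
  omega

theorem res_dlog_one (P : Pl k K) {t : K} (ht : P.v t = exp (-1)) :
    res P (del k K t / t) = 1 := by
  classical
  set P0 := under (RatFunc k) P with hP0
  obtain ⟨F, hF0, hF⟩ := exists_prescribed (above K P0) (fun Q => if Q = P then (-1 : ℤ) else 0)
  have hPm : P ∈ above K P0 := by rw [mem_above]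
  have hFP : P.v F = exp (-1) := by rw [hF P hPm, if_pos rfl]
  have hFQ : ∀ Q ∈ above K P0, Q ≠ P → Q.v F = 1 := by
    intro Q hQ hQP
    rw [hF Q hQ, if_neg hQP, exp_zero]
  rw [res_dlog_eq P (n := 1) hFP ht, Int.cast_one, one_mul]
  have h1 := sum_res_above P0 (del k K F / F)
  rw [trace_dlog hF0, ← Finset.add_sum_erase _ _ hPm, Finset.sum_eq_zero, add_zero] at h1
  · rw [h1]
    apply res_dlog_rat
    have hN0 : Algebra.norm (RatFunc k) F ≠ 0 := Algebra.norm_ne_zero_iff.mpr hF0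
    rw [v_eq (k := k) hN0, divf_norm_of_degP hF0 P0 (fun Q _ => by rw [degP_eq_one, degP_eq_one]),
      ← Finset.add_sum_erase _ _ hPm, Finset.sum_eq_zero, add_zero, v_exp_divf hF0 (n := 1) hFP]
    intro Q hQ
    rw [Finset.mem_erase] at hQ
    apply v_exp_divf hF0
    rw [hFQ Q hQ.2 hQ.1, neg_zero, exp_zero]
  · intro Q hQ
    rw [Finset.mem_erase] at hQ
    exact res_dlog_unit Q (hFQ Q hQ.2 hQ.1)

/-- **the residue of `dlog f` is the order of `f`** -/
theorem res_dlog (P : Pl k K) {f : K} {n : ℤ} (hf : P.v f = exp (-n)) :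
    res P (del k K f / f) = n := by
  obtain ⟨t, _, ht⟩ := exists_v_eq P (-1)
  rw [res_dlog_eq P ht hf, res_dlog_one P ht, mul_one]

theorem res_dlog' (P : Pl k K) {f : K} (hf : f ≠ 0) :
    res P (del k K f / f) = (divf (k := k) f P : k) :=
  res_dlog P (v_eq (k := k) hf P)

/-- **the residue of `t ^ n dt`** (any characteristic) -/
theorem res_zpow (P : Pl k K) {t : K} (ht : P.v t = exp (-1)) (n : ℤ) :
    res P (t ^ n * del k K t) = if n = -1 then 1 else 0 := by
  have ht0 : t ≠ 0 := by rintro rfl; rw [map_zero] at ht; exact exp_ne_zero ht.symm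
  -- the general case by induction on `|n + 1|`
  have key : ∀ (N : ℕ) (n : ℤ), (n + 1).natAbs ≤ N → n ≠ -1 → res P (t ^ n * del k K t) = 0 := by
    intro N
    induction N with
    | zero => intro n hn hn1; omega
    | succ N ih =>
      intro n hn hn1
      by_cases hk : ((n + 1 : ℤ) : k) = 0
      · -- characteristic `p`
        obtain ⟨p, hp⟩ := CharP.exists k
        have hp0 : p ≠ 0 := by
          rintro rfl
          haveI : CharZero k := CharP.charP_to_charZero k
          rw [Int.cast_eq_zero] at hk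
          omega
        have hpp : p.Prime := (CharP.char_is_prime_or_zero k p).resolve_right hp0
        haveI : Fact p.Prime := ⟨hpp⟩
        have hdvd : (p : ℤ) ∣ n + 1 := (CharP.intCast_eq_zero_iff k p (n + 1)).mp hk
        obtain ⟨m, hm⟩ := hdvd
        have hm0 : m ≠ 0 := by
          rintro rfl
          omega
        have h1 : t ^ n * del k K t = (t ^ m) ^ p * (del k K t / t) := by
          have h2 : (t ^ m) ^ p = t ^ n * t := by
            rw [← zpow_add_one₀ ht0, hm, ← zpow_natCast, ← zpow_mul, mul_comm]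
          rw [h2]
          field_simp
        have h3 : t ^ m * (del k K t / t) = t ^ (m - 1) * del k K t := by
          rw [zpow_sub_one₀ ht0]
          field_simp
        rw [h1, res_car p, car_pow_mul, Crest.Agent.R013.Car7_700.car_dlog (p := p) ht0, h3,
          ih (m - 1) _ (by omega), zero_pow hpp.ne_zero]
        have hp2 := hpp.two_le
        have h4 : (n + 1).natAbs = p * m.natAbs := by rw [hm, Int.natAbs_mul]; rfl
        have h5 : m.natAbs ≠ 0 := by simpa using hm0
        have h6 : m - 1 + 1 = m := by ring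
        rw [h6]
        rw [h4] at hn
        nlinarith [Nat.pos_of_ne_zero h5]
      · have h1 : t ^ n * del k K t = ((n + 1 : ℤ) : k)⁻¹ • del k K (t ^ (n + 1)) := by
          rw [Derivation.leibniz_zpow, smul_eq_mul, zsmul_eq_mul, add_sub_cancel_right,
            Algebra.smul_def, map_inv₀, map_intCast]
          have h2 : ((n + 1 : ℤ) : K) ≠ 0 := by
            rw [← map_intCast (algebraMap k K)]
            rw [Ne, (algebraMap k K).injective.eq_iff' (map_zero _)]
            exact hk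
          field_simp
        rw [h1, map_smul, res_del, smul_zero]
  split_ifs with h
  · subst h
    rw [zpow_neg_one, mul_comm, ← div_eq_mul_inv, res_dlog_one P ht]
  · exact key _ n le_rfl h

/-- **the residue is the coefficient of `t⁻¹`** (310's form) -/
theorem res_eq_coeff (P : Pl k K) {t : K} (ht : P.v t = exp (-1)) (s : Finset ℤ) (a : ℤ → k) {f g : K}
    (hf : f = ∑ n ∈ s, a n • (t ^ n * del k K t) + g) (hg : P.v g ≤ exp (canD k K P)) :
    res P f = if -1 ∈ s then a (-1) else 0 := by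
  rw [hf, map_add, res_of_le hg, add_zero, map_sum]
  have : ∀ n ∈ s, res P (a n • (t ^ n * del k K t)) = if n = -1 then a (-1) else 0 := by
    intro n _
    rw [map_smul, res_zpow P ht, smul_eq_mul]
    split_ifs with h
    · rw [h, mul_one]
    · rw [mul_zero]
  rw [Finset.sum_congr rfl this, Finset.sum_ite_eq']

theorem res_eq_coeff_Icc (P : Pl k K) {t : K} (ht : P.v t = exp (-1)) {N : ℤ} (hN : 1 ≤ N)
    (a : ℤ → k) {f g : K} (hf : f = ∑ n ∈ Finset.Icc (-N) (-1), a n • (t ^ n * del k K t) + g)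
    (hg : P.v g ≤ exp (canD k K P)) : res P f = a (-1) := by
  rw [res_eq_coeff P ht _ a hf hg, if_pos]
  rw [Finset.mem_Icc]
  omega

end closed

end Crest.Agent.R013.RR28_948
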