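import Mathlib
import Crest.Agent.R013.RR28_948

/-!
# R013 / RR29: residues: principal parts, Laurent coefficients, isomorphisms, traces (helper948)

* `exists_principal_iff` : principal parts exist iff the residues against `L(W - D)` vanish;
* `coef`, `coef_spec` : Laurent expansions;
* `res_mul_dlog`;
* `res_mapPl` : invariance under isomorphisms (change of `x` included);
* `sum_res_above'` : `∑_{Q | P} res Q f = res P (Tr_{L/K} f)`.
-/

set_option autoImplicit false
set_option linter.all false

namespace Crest.Agent.R013.RR29_948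

open Polynomial WithZero Module IsDedekindDomain nonZeroDivisors
open Crest.Agent.R013.RR1_948 Crest.Agent.R013.RR2_948 Crest.Agent.R013.RR3_948
open Crest.Agent.R013.RR4_948 Crest.Agent.R013.RR5_948 Crest.Agent.R013.RR6_948
open Crest.Agent.R013.RR7_948 Crest.Agent.R013.RR8_948 Crest.Agent.R013.RR9_948
open Crest.Agent.R013.RR11_948 Crest.Agent.R013.RR12_948 Crest.Agent.R013.RR13_948
open Crest.Agent.R013.RR14_948 Crest.Agent.R013.RR15_948
open Crest.Agent.R013.RR18_948 Crest.Agent.R013.RR19_948 Crest.Agent.R013.RR20_948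
open Crest.Agent.R013.RR21_948 Crest.Agent.R013.RR22_948 Crest.Agent.R013.RR23_948
open Crest.Agent.R013.RR24_948 Crest.Agent.R013.RR25_948 Crest.Agent.R013.RR26_948
open Crest.Agent.R013.RR27_948 Crest.Agent.R013.RR28_948
open Crest.Agent.R013.GR2_921 (exists_const degP_eq_one)
open Crest.Agent.R013.Car5_700 (v_del_eq v_del_le v_del_le')

section principal

variable {k : Type*} [Field k] {K : Type*} [Field K] [Algebra k K]
  [Algebra (RatFunc k) K] [IsScalarTower k (RatFunc k) K] [FiniteDimensional (RatFunc k) K]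
  [Algebra.IsSeparable (RatFunc k) K]

/-- simultaneous approximation inside one chart -/
theorem exists_app_finset (P0 : Pl k K) (S : Finset (Pl k K)) (hS : ∀ P ∈ S, Same P0 P)
    (r : Pl k K → K) (D : Pl k K →₀ ℤ) :
    ∃ f : K, (∀ P ∈ S, P.v (f - r P) ≤ exp (D P)) ∧
      ∀ Q, Q ∉ S → Same P0 Q → Q.v f ≤ exp (D Q) := by
  classical
  choose a ha1 ha2 using fun P : Pl k K => exists_app P (r P) D
  refine ⟨∑ P ∈ S, a P, ?_, ?_⟩
  · intro Q hQ
    rw [← Finset.add_sum_erase _ a hQ]
    have : a Q + ∑ P ∈ S.erase Q, a P - r Q = (a Q - r Q) + ∑ P ∈ S.erase Q, a P := by ring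
    rw [this]
    refine (Valuation.map_add _ _ _).trans (max_le (ha1 Q) ?_)
    refine Valuation.map_sum_le _ fun P hP => ?_
    rw [Finset.mem_erase] at hP
    exact ha2 P Q (Ne.symm hP.1) ((hS P hP.2).symm.trans (hS Q hQ))
  · intro Q hQ hS'
    refine Valuation.map_sum_le _ fun P hP => ?_
    exact ha2 P Q (fun h => hQ (h ▸ hP)) ((hS P hP).symm.trans hS')

theorem v_mul_le {P : Pl k K} {f g : K} {m n : ℤ} (hf : P.v f ≤ exp m) (hg : P.v g ≤ exp n) :
    P.v (f * g) ≤ exp (m + n) := by
  rw [map_mul, exp_add]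
  exact mul_le_mul' hf hg

theorem res_mul_congr {P : Pl k K} {f r g : K} {d : ℤ} (hf : P.v (f - r) ≤ exp d)
    (hg : P.v g ≤ exp (canD k K P - d)) : res P (f * g) = res P (r * g) := by
  apply res_congr
  rw [← sub_mul]
  have := v_mul_le hf hg
  rwa [add_sub_cancel] at this

/-- **Mittag-Leffler / Serre duality with residues**: there is a function with the given local parts
modulo `D` iff all the sums of residues against `L(W - D)` vanish -/
theorem exists_principal_iff (D : Pl k K →₀ ℤ) (S : Finset (Pl k K)) (r : Pl k K → K) :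
    (∃ f : K, (∀ P ∈ S, P.v (f - r P) ≤ exp (D P)) ∧ ∀ Q ∉ S, Q.v f ≤ exp (D Q)) ↔
    ∀ g ∈ LD (canD k K - D), ∑ P ∈ S, res P (r P * g) = 0 := by
  classical
  constructor
  · rintro ⟨f, hf1, hf2⟩ g hg
    rw [mem_LD] at hg
    have hg' : ∀ P, P.v g ≤ exp (canD k K P - D P) := fun P => by
      have := hg P
      rwa [Finsupp.sub_apply] at this
    have h1 : ∀ P ∈ S, res P (r P * g) = res P (f * g) := fun P hP =>
      (res_mul_congr (hf1 P hP) (hg' P)).symm
    rw [Finset.sum_congr rfl h1]
    apply sum_res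
    intro Q hQ
    have := v_mul_le (hf2 Q hQ) (hg' Q)
    rwa [add_sub_cancel] at this
  · intro H
    obtain ⟨P0, hP0⟩ := exists_finite k K
    obtain ⟨P1, hP1⟩ := exists_infinite k K
    have hP1' : ¬ P1.v (xK k K) ≤ 1 := not_le.mpr hP1
    set S0 := S.filter (fun P => P.v (xK k K) ≤ 1) with hS0
    set S1 := S.filter (fun P => ¬ P.v (xK k K) ≤ 1) with hS1
    have same0 : ∀ P ∈ S0, Same P0 P := fun P hP => by
      rw [hS0, Finset.mem_filter] at hP
      exact ⟨fun _ => hP.2, fun _ => hP0⟩
    have same1 : ∀ P ∈ S1, Same P1 P := fun P hP => by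
      rw [hS1, Finset.mem_filter] at hP
      exact ⟨fun h => absurd h hP1', fun h => absurd h hP.2⟩
    obtain ⟨h0, h01, h02⟩ := exists_app_finset P0 S0 same0 r D
    obtain ⟨h1, h11, h12⟩ := exists_app_finset P1 S1 same1 r D
    have key : h0 - h1 ∈ N0 D ⊔ N1 D := by
      rw [mem_sup_iff]
      intro g hg
      have hg' : ∀ P, P.v g ≤ exp (canD k K P - D P) := fun P => by
        have := (mem_LD.mp hg) P
        rwa [Finsupp.sub_apply] at this
      have e0 := lt_eq_sum P0 (h0 * g) S0 same0 (fun Q hQ hQS => by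
        have := v_mul_le (h02 Q hQS hQ) (hg' Q)
        rwa [add_sub_cancel] at this)
      have e1 := lt_eq_sum P1 (h1 * g) S1 same1 (fun Q hQ hQS => by
        have := v_mul_le (h12 Q hQS hQ) (hg' Q)
        rwa [add_sub_cancel] at this)
      rw [sg_of_finite hP0, one_mul] at e0
      rw [sg_of_infinite hP1', neg_one_mul] at e1
      rw [pair_eq_lt, sub_mul, map_sub, sub_eq_add_neg, e0, e1]
      have e2 := H g hg
      rw [← Finset.sum_filter_add_sum_filter_not S (fun P => P.v (xK k K) ≤ 1)] at e2
      rw [← e2]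
      congr 1
      · exact Finset.sum_congr rfl fun P hP => res_mul_congr (h01 P hP) (hg' P)
      · exact Finset.sum_congr rfl fun P hP => res_mul_congr (h11 P hP) (hg' P)
    obtain ⟨a, ha, b, hb, hab⟩ := Submodule.mem_sup.mp key
    rw [mem_N0] at ha
    rw [mem_N1] at hb
    have hfeq : h0 - a = h1 + b := by linear_combination -hab
    refine ⟨h0 - a, ?_, ?_⟩
    · intro P hP
      by_cases hx : P.v (xK k K) ≤ 1
      · have : h0 - a - r P = (h0 - r P) - a := by ring
        rw [this]
        refine (Valuation.map_sub _ _ _).trans (max_le (h01 P ?_) (ha P hx))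
        rw [hS0, Finset.mem_filter]; exact ⟨hP, hx⟩
      · have : h0 - a - r P = (h1 - r P) + b := by rw [hfeq]; ring
        rw [this]
        refine (Valuation.map_add _ _ _).trans (max_le (h11 P ?_) (hb P (not_le.mp hx)))
        rw [hS1, Finset.mem_filter]; exact ⟨hP, hx⟩
    · intro Q hQ
      by_cases hx : Q.v (xK k K) ≤ 1
      · refine (Valuation.map_sub _ _ _).trans (max_le (h02 Q ?_ ?_) (ha Q hx))
        · exact fun h => hQ (Finset.mem_of_mem_filter _ h)
        · exact ⟨fun _ => hx, fun _ => hP0⟩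
      · rw [hfeq]
        refine (Valuation.map_add _ _ _).trans (max_le (h12 Q ?_ ?_) (hb Q (not_le.mp hx)))
        · exact fun h => hQ (Finset.mem_of_mem_filter _ h)
        · exact ⟨fun h => absurd h hP1', fun h => absurd h hx⟩

/-- differentials with prescribed local parts: `f dX` with `f ≡ r P mod ball (canD + D)` iff the residues
against `L(-D)` vanish -/
theorem exists_differential_iff (D : Pl k K →₀ ℤ) (S : Finset (Pl k K)) (r : Pl k K → K) :
    (∃ f : K, (∀ P ∈ S, P.v (f - r P) ≤ exp (canD k K P + D P)) ∧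
      ∀ Q ∉ S, Q.v f ≤ exp (canD k K Q + D Q)) ↔
    ∀ g ∈ LD (-D), ∑ P ∈ S, res P (r P * g) = 0 := by
  have h := exists_principal_iff (canD k K + D) S r
  have e : canD k K - (canD k K + D) = -D := by abel
  rw [e] at h
  exact h

/-- `f` is regular at `P` iff all the residues against regular elements vanish: local duality -/
theorem v_le_iff_res (P : Pl k K) (f : K) (n : ℤ) :
    P.v f ≤ exp (canD k K P + n) ↔ ∀ g : K, P.v g ≤ exp (-n) → res P (f * g) = 0 := by
  classical
  constructor
  · intro hf g hg
    apply res_of_le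
    have := v_mul_le hf hg
    rwa [add_neg_cancel_right] at this
  · intro H
    -- a divisor with `L(-D)` and one more: use the duality with a large divisor elsewhere
    by_contra hcon
    -- choose a place `R` in the other chart
    obtain ⟨R, hR⟩ := exists_not_same P
    have hRP : R ≠ P := fun h => hR (h ▸ Same.refl P)
    obtain ⟨m, hm⟩ : ∃ m : ℕ, degD (canD k K) <
        degD (canD k K + Finsupp.single P n + Finsupp.single R (m : ℤ)) := by
      refine ⟨(degD (canD k K) - degD (canD k K + Finsupp.single P n) + 1).toNat, ?_⟩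
      rw [degD_add _ (Finsupp.single R _), degD_single]
      have h1 := Int.self_le_toNat (degD (canD k K) - degD (canD k K + Finsupp.single P n) + 1)
      have h2 : (1 : ℤ) ≤ degP R := by exact_mod_cast degP_pos R
      nlinarith [Int.natCast_nonneg (degD (canD k K) - degD (canD k K + Finsupp.single P n) + 1).toNat]
    obtain ⟨a, ha1, ha2⟩ := exists_app P f (canD k K)
    -- `a` has the same local behaviour, and is regular in the chart
    have hpair : a ∈ (if P.v (xK k K) ≤ 1 then N0 (canD k K + Finsupp.single P n)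
        else N1 (canD k K + Finsupp.single P n)) ∨ True := Or.inr trivial
    -- the functional `g ↦ res P (f g)` on `N_i(-n P)`
    have hlt : ∀ g : K, P.v g ≤ exp (-n) → (∀ Q, Q ≠ P → Same P Q → Q.v g ≤ exp 0) →
        ∀ b : K, P.v (b - f) ≤ exp (canD k K P + n) →
        (∀ Q, Q ≠ P → Same P Q → Q.v b ≤ exp (canD k K Q)) → lt k K (b * g) = 0 := by
      intro g hg1 hg2 b hb1 hb2
      have e := lt_eq_sum P (b * g) {P} (fun Q hQ => by
        rw [Finset.mem_singleton] at hQ; exact hQ ▸ Same.refl P) (fun Q hS hQ => by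
          rw [Finset.mem_singleton] at hQ
          have := v_mul_le (hb2 Q hQ hS) (hg2 Q hQ hS)
          rwa [add_zero] at this)
      rw [Finset.sum_singleton] at e
      have e2 : res P (b * g) = res P (f * g) := by
        apply res_congr
        rw [← sub_mul]
        have := v_mul_le hb1 hg1
        rwa [add_neg_cancel_right] at this
      rw [e2, H g hg1] at e
      exact (mul_eq_zero.mp e).resolve_left (sg_ne_zero P)
    set E : Pl k K →₀ ℤ := canD k K + Finsupp.single P n with hE
    obtain ⟨b, hb1, hb2⟩ := exists_app P f E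
    have hEP : E P = canD k K P + n := by rw [hE, Finsupp.add_apply, Finsupp.single_eq_same]
    have hEQ : ∀ Q, Q ≠ P → E Q = canD k K Q := by
      intro Q hQ
      rw [hE, Finsupp.add_apply, Finsupp.single_apply, if_neg (Ne.symm hQ), add_zero]
    rw [hEP] at hb1
    have hb2' : ∀ Q, Q ≠ P → Same P Q → Q.v b ≤ exp (canD k K Q) := by
      intro Q hQ hS
      have := hb2 Q hQ hS
      rwa [hEQ Q hQ] at this
    apply hcon
    have hbE : P.v b ≤ exp (canD k K P + n) := by
      by_cases hx : P.v (xK k K) ≤ 1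
      · have h3 : b ∈ N0 E := by
          have h4 : E = canD k K - (-Finsupp.single P n) := by rw [hE]; abel
          rw [h4, mem_N0_iff]
          intro g hg
          rw [mem_N0] at hg
          rw [pair_eq_lt, mul_comm]
          refine hlt g ?_ ?_ b hb1 hb2'
          · have := hg P hx
            rwa [Finsupp.neg_apply, Finsupp.single_eq_same] at this
          · intro Q hQ hS
            have := hg Q (hS.mp hx)
            rwa [Finsupp.neg_apply, Finsupp.single_apply, if_neg (Ne.symm hQ), neg_zero] at this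
        have := (mem_N0.mp h3) P hx
        rwa [hEP] at this
      · have h3 : b ∈ N1 E := by
          have h4 : E = canD k K - (-Finsupp.single P n) := by rw [hE]; abel
          rw [h4, mem_N1_iff]
          intro g hg
          rw [mem_N1] at hg
          rw [pair_eq_lt, mul_comm]
          refine hlt g ?_ ?_ b hb1 hb2'
          · have := hg P (not_le.mp hx)
            rwa [Finsupp.neg_apply, Finsupp.single_eq_same] at this
          · intro Q hQ hS
            have := hg Q (not_le.mp fun h => hx (hS.mpr h))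
            rwa [Finsupp.neg_apply, Finsupp.single_apply, if_neg (Ne.symm hQ), neg_zero] at this
        have := (mem_N1.mp h3) P (not_le.mp hx)
        rwa [hEP] at this
    have : f = b - (b - f) := by ring
    rw [this]
    exact (Valuation.map_sub _ _ _).trans (max_le hbE hb1)

end principal

section closed

variable {k : Type*} [Field k] [IsAlgClosed k] {K : Type*} [Field K] [Algebra k K]
  [Algebra (RatFunc k) K] [IsScalarTower k (RatFunc k) K] [FiniteDimensional (RatFunc k) K]
  [Algebra.IsSeparable (RatFunc k) K]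

theorem uni_ne_zero {P : Pl k K} {t : K} (ht : P.v t = exp (-1)) : t ≠ 0 := by
  rintro rfl; rw [map_zero] at ht; exact exp_ne_zero ht.symm

theorem v_uni_zpow {P : Pl k K} {t : K} (ht : P.v t = exp (-1)) (n : ℤ) : P.v (t ^ n) = exp (-n) := by
  rw [map_zpow₀, ht, ← exp_zsmul]; simp

/-- the coefficient of `t ^ n` in the expansion of `h` at `P` -/
noncomputable def coef (P : Pl k K) (t : K) (n : ℤ) : K →ₗ[k] k :=
  (res P).comp (LinearMap.mulRight k (t ^ (-n - 1) * del k K t))

theorem coef_apply (P : Pl k K) (t : K) (n : ℤ) (h : K) :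
    coef P t n h = res P (h * (t ^ (-n - 1) * del k K t)) := rfl

theorem coef_of_le {P : Pl k K} {t : K} (ht : P.v t = exp (-1)) {n : ℤ} {h : K}
    (hh : P.v h ≤ exp (-n - 1)) : coef P t n h = 0 := by
  rw [coef_apply]
  apply res_of_le
  have h1 : P.v (t ^ (-n - 1) * del k K t) ≤ exp (n + 1 + canD k K P) := by
    rw [map_mul, v_uni_zpow ht, v_del_eq P ht, ← exp_add, exp_le_exp]; linarith
  have := v_mul_le hh h1
  refine this.trans ?_
  rw [exp_le_exp]; linarith

theorem coef_zpow {P : Pl k K} {t : K} (ht : P.v t = exp (-1)) (n m : ℤ) :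
    coef P t n (t ^ m) = if m = n then 1 else 0 := by
  rw [coef_apply, ← mul_assoc, ← zpow_add₀ (uni_ne_zero ht), res_zpow P ht]
  by_cases h : m = n
  · rw [if_pos h, if_pos (by rw [h]; ring)]
  · rw [if_neg h, if_neg (fun h' => h (by linarith))]

theorem exists_exp {P : Pl k K} {t : K} (ht : P.v t = exp (-1)) {h : K} {N : ℤ}
    (hh : P.v h ≤ exp N) (m : ℕ) :
    ∃ a : ℤ → k, P.v (h - ∑ n ∈ Finset.Ico (-N) (-N + m), a n • t ^ n) ≤ exp (N - m) := by
  classical
  induction m with
  | zero => exact ⟨0, by simpa using hh⟩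
  | succ m ih =>
    obtain ⟨a, ha⟩ := ih
    set r := h - ∑ n ∈ Finset.Ico (-N) (-N + m), a n • t ^ n with hr
    have h1 : P.v (r * t ^ (N - m)) ≤ 1 := by
      have h2 := v_mul_le ha (v_uni_zpow ht (N - m)).le
      rw [add_neg_cancel, exp_zero] at h2
      exact h2
    obtain ⟨c, hc⟩ := exists_const P h1
    refine ⟨fun n => if n = -N + m then c else a n, ?_⟩
    have hI : Finset.Ico (-N) (-N + ((m + 1 : ℕ) : ℤ)) = insert (-N + m) (Finset.Ico (-N) (-N + m)) := by
      ext z
      simp only [Finset.mem_Ico, Finset.mem_insert]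
      push_cast
      omega
    rw [hI, Finset.sum_insert (by simp)]
    beta_reduce
    rw [if_pos rfl]
    have hs : ∑ n ∈ Finset.Ico (-N) (-N + (m : ℤ)), (if n = -N + m then c else a n) • t ^ n
        = ∑ n ∈ Finset.Ico (-N) (-N + (m : ℤ)), a n • t ^ n := by
      refine Finset.sum_congr rfl fun n hn => ?_
      rw [Finset.mem_Ico] at hn
      rw [if_neg (by omega)]
    rw [hs]
    have h3 : h - (c • t ^ (-N + (m : ℤ)) + ∑ n ∈ Finset.Ico (-N) (-N + (m : ℤ)), a n • t ^ n)
        = (r * t ^ (N - m) - algebraMap k K c) * t ^ (-N + (m : ℤ)) := by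
      have h4 : t ^ (N - m) * t ^ (-N + (m : ℤ)) = 1 := by
        rw [← zpow_add₀ (uni_ne_zero ht)]
        have : (N - m) + (-N + (m : ℤ)) = 0 := by ring
        rw [this, zpow_zero]
      rw [sub_mul, mul_assoc, h4, mul_one, hr, Algebra.smul_def]
      ring
    rw [h3]
    have h5 := v_mul_le ((lt_one_iff _).mp hc) (v_uni_zpow ht (-N + (m : ℤ))).le
    refine h5.trans ?_
    rw [exp_le_exp]
    push_cast
    linarith

/-- **the Laurent expansion** -/
theorem coef_spec {P : Pl k K} {t : K} (ht : P.v t = exp (-1)) {h : K} {N : ℤ}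
    (hh : P.v h ≤ exp N) (m : ℕ) :
    P.v (h - ∑ n ∈ Finset.Ico (-N) (-N + m), coef P t n h • t ^ n) ≤ exp (N - m) := by
  obtain ⟨a, ha⟩ := exists_exp ht hh m
  have h1 : ∀ n ∈ Finset.Ico (-N) (-N + (m : ℤ)), coef P t n h = a n := by
    intro n hn
    rw [Finset.mem_Ico] at hn
    have h2 : h = (h - ∑ n ∈ Finset.Ico (-N) (-N + (m : ℤ)), a n • t ^ n) +
      ∑ n ∈ Finset.Ico (-N) (-N + (m : ℤ)), a n • t ^ n := by ring
    rw [h2, map_add, coef_of_le ht (ha.trans (exp_le_exp.mpr (by omega))), zero_add, map_sum]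
    have h3 : ∀ j ∈ Finset.Ico (-N) (-N + (m : ℤ)), coef P t n (a j • t ^ j) =
        if j = n then a n else 0 := by
      intro j _
      rw [map_smul, coef_zpow ht, smul_eq_mul]
      split_ifs with h4
      · rw [h4, mul_one]
      · rw [mul_zero]
    rw [Finset.sum_congr rfl h3, Finset.sum_ite_eq', if_pos (by rw [Finset.mem_Ico]; exact hn)]
  rw [Finset.sum_congr rfl fun n hn => by rw [h1 n hn]]
  exact ha

/-- the expansion of a function regular at `P` -/
theorem coef_spec_nat {P : Pl k K} {t : K} (ht : P.v t = exp (-1)) {h : K} (hh : P.v h ≤ 1) (m : ℕ) :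
    P.v (h - ∑ n ∈ Finset.range m, coef P t n h • t ^ n) ≤ exp (-(m : ℤ)) := by
  rw [← exp_zero] at hh
  have h1 := coef_spec ht hh m
  rw [neg_zero, zero_add, zero_sub] at h1
  have h2 : ∑ n ∈ Finset.Ico (0 : ℤ) (m : ℤ), coef P t n h • t ^ n =
      ∑ n ∈ Finset.range m, coef P t n h • t ^ n := by
    symm
    apply Finset.sum_bij (fun (n : ℕ) _ => (n : ℤ))
    · intro n hn
      rw [Finset.mem_range] at hn
      rw [Finset.mem_Ico]
      omega
    · intro a _ b _ hab
      exact_mod_cast hab
    · intro z hz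
      rw [Finset.mem_Ico] at hz
      exact ⟨z.toNat, by rw [Finset.mem_range]; omega, by simp; omega⟩
    · intro n _
      rw [zpow_natCast]
  rw [h2] at h1
  exact h1

/-- residues of `f dlog h` for `f` regular with value `c` -/
theorem res_mul_dlog (P : Pl k K) {f h : K} {c : k} {n : ℤ} (hf : P.v (f - algebraMap k K c) < 1)
    (hh : P.v h = exp (-n)) : res P (f * (del k K h / h)) = c * n := by
  have hh0 : h ≠ 0 := by rintro rfl; rw [map_zero] at hh; exact exp_ne_zero hh.symm
  have h1 : P.v (del k K h / h) ≤ exp (canD k K P + 1) := by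
    rw [map_div₀, div_le_iff₀ (zero_lt_iff.mpr ((Valuation.ne_zero_iff _).mpr hh0)), mul_comm]
    exact v_del_le' P h
  have h2 : res P (f * (del k K h / h)) = res P (algebraMap k K c * (del k K h / h)) := by
    apply res_mul_congr (d := -1) ((lt_one_iff _).mp hf)
    rw [sub_neg_eq_add]
    exact h1
  rw [h2, ← Algebra.smul_def, map_smul, res_dlog P hh, smul_eq_mul]

end closed

section iso

variable {k : Type*} [Field k] {K : Type*} [Field K] [Algebra k K]
  [Algebra (RatFunc k) K] [IsScalarTower k (RatFunc k) K]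
  [Algebra.IsSeparable (RatFunc k) K]
  {K' : Type*} [Field K'] [Algebra k K']
  [Algebra (RatFunc k) K'] [IsScalarTower k (RatFunc k) K']
  [Algebra.IsSeparable (RatFunc k) K']

/-- the chain rule -/
theorem del_map (σ : K →ₐ[k] K') (h : K) :
    del k K' (σ h) = σ (del k K h) * del k K' (σ (xK k K)) := by
  letI : Algebra K K' := σ.toRingHom.toAlgebra
  haveI : IsScalarTower k K K' := IsScalarTower.of_algebraMap_eq fun c => (σ.commutes c).symm
  have h1 := congrArg (KaehlerDifferential.map k k K K') (D_eq k K h)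
  rw [KaehlerDifferential.map_D, map_smul, KaehlerDifferential.map_D] at h1
  have e1 : algebraMap K K' h = σ h := rfl
  have e2 : algebraMap K K' (xK k K) = σ (xK k K) := rfl
  rw [e1, e2, D_eq k K' (σ h), D_eq k K' (σ (xK k K))] at h1
  have e3 : del k K h • del k K' (σ (xK k K)) • KaehlerDifferential.D k K' (xK k K') =
      (σ (del k K h) * del k K' (σ (xK k K))) • KaehlerDifferential.D k K' (xK k K') := by
    rw [← algebraMap_smul K' (del k K h), smul_smul]
    rfl
  rw [e3, ← sub_eq_zero, ← sub_smul] at h1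
  rcases smul_eq_zero.mp h1 with h3 | h3
  · exact sub_eq_zero.mp h3
  · exact absurd h3 (D_xK_ne_zero k K')

end iso

section iso2

variable {k : Type*} [Field k] [IsAlgClosed k] {K : Type*} [Field K] [Algebra k K]
  [Algebra (RatFunc k) K] [IsScalarTower k (RatFunc k) K] [FiniteDimensional (RatFunc k) K]
  [Algebra.IsSeparable (RatFunc k) K]
  {K' : Type*} [Field K'] [Algebra k K']
  [Algebra (RatFunc k) K'] [IsScalarTower k (RatFunc k) K'] [FiniteDimensional (RatFunc k) K']
  [Algebra.IsSeparable (RatFunc k) K']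

/-- **residues are invariant under isomorphisms** (change of `x` included) -/
theorem res_mapPl (σ : K ≃ₐ[k] K') (P : Pl k K) (f : K) :
    res (mapPl σ P) (σ f * del k K' (σ (xK k K))) = res P f := by
  obtain ⟨t, _, ht⟩ := exists_v_eq P (-1)
  have ht' : (mapPl σ P).v (σ t) = exp (-1) := by rw [mapPl_v_apply, ht]
  have hd0 : del k K t ≠ 0 := by
    intro h
    have := v_del_eq P ht
    rw [h, map_zero] at this
    exact exp_ne_zero this.symm
  -- expansion of `f / del t`
  obtain ⟨N, hN⟩ : ∃ N : ℕ, P.v (f / del k K t) ≤ exp (N : ℤ) := by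
    by_cases hf : f = 0
    · exact ⟨0, by rw [hf, zero_div, map_zero]; exact zero_le⟩
    · have h0 : f / del k K t ≠ 0 := div_ne_zero hf hd0
      refine ⟨(-divf (k := k) (f / del k K t) P).toNat, ?_⟩
      rw [v_eq (k := k) h0, exp_le_exp]
      exact Int.self_le_toNat _
  have h1 := coef_spec ht hN (N + 1)
  set a : ℤ → k := fun n => coef P t n (f / del k K t) with ha
  set s := Finset.Ico (-(N : ℤ)) (-N + ((N + 1 : ℕ) : ℤ)) with hs
  set g := (f / del k K t - ∑ n ∈ s, a n • t ^ n) * del k K t with hg
  have hgv : P.v g ≤ exp (canD k K P) := by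
    have h2 := v_mul_le h1 (v_del_eq P ht).le
    refine h2.trans ?_
    rw [exp_le_exp]; push_cast; linarith
  have hf : f = ∑ n ∈ s, a n • (t ^ n * del k K t) + g := by
    rw [hg, sub_mul, Finset.sum_mul, div_mul_cancel₀ _ hd0]
    simp only [smul_mul_assoc]
    ring
  clear_value g
  rw [res_eq_coeff P ht s a hf hgv]
  have hchain : del k K' (σ t) = σ (del k K t) * del k K' (σ (xK k K)) := del_map σ.toAlgHom t
  have hf' : σ f * del k K' (σ (xK k K)) =
      ∑ n ∈ s, a n • ((σ t) ^ n * del k K' (σ t)) + σ g * del k K' (σ (xK k K)) := by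
    conv_lhs => rw [hf]
    rw [map_add, add_mul, map_sum, Finset.sum_mul, hchain]
    congr 1
    refine Finset.sum_congr rfl fun n _ => ?_
    rw [map_smul, map_mul, map_zpow₀, smul_mul_assoc, mul_assoc]
  refine res_eq_coeff (mapPl σ P) ht' s a hf' ?_
  have h3 : (mapPl σ P).v (σ g * del k K' (σ (xK k K))) ≤
      (mapPl σ P).v (σ (del k K t) * del k K' (σ (xK k K))) := by
    rw [map_mul, map_mul, mapPl_v_apply, mapPl_v_apply]
    apply mul_le_mul_left
    rw [v_del_eq P ht]
    exact hgv
  rw [← hchain, v_del_eq _ ht'] at h3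
  exact h3

end iso2

section tower

variable {k : Type*} [Field k] {K : Type*} [Field K] [Algebra k K] [Algebra (RatFunc k) K]
  [IsScalarTower k (RatFunc k) K] [FiniteDimensional (RatFunc k) K]
  [Algebra.IsSeparable (RatFunc k) K]
  {L : Type*} [Field L] [Algebra k L] [Algebra K L] [IsScalarTower k K L]
  [FiniteDimensional K L] [Algebra.IsSeparable K L]
  [Algebra (RatFunc k) L] [IsScalarTower k (RatFunc k) L] [FiniteDimensional (RatFunc k) L]
  [Algebra.IsSeparable (RatFunc k) L] [IsScalarTower (RatFunc k) K L]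

theorem lt_trace' (f : L) : lt k K (Algebra.trace K L f) = lt k L f := by
  rw [lt_apply, lt_apply, Algebra.trace_trace]

theorem under_finite_iff' (Q : Pl k L) : (under K Q).v (xK k K) ≤ 1 ↔ Q.v (xK k L) ≤ 1 := by
  have h := under_le_one_iff (K := K) Q (xK k K)
  rwa [algebraMap_xK] at h

theorem same_under_iff' {P Q : Pl k L} : Same (under K P) (under K Q) ↔ Same P Q := by
  unfold Same
  rw [under_finite_iff', under_finite_iff']

theorem sg_under' (Q : Pl k L) : sg (under K Q) = sg Q := by
  by_cases h : Q.v (xK k L) ≤ 1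
  · rw [sg_of_finite h, sg_of_finite ((under_finite_iff' Q).mpr h)]
  · rw [sg_of_infinite h, sg_of_infinite (fun h' => h ((under_finite_iff' Q).mp h'))]

theorem trace_smul'' (g : K) (f : L) :
    Algebra.trace K L (algebraMap K L g * f) = g * Algebra.trace K L f := by
  rw [← Algebra.smul_def, map_smul, smul_eq_mul]

theorem trace_mem_chart' (P0 : Pl k L) {f : L} (h : ∀ Q, Same P0 Q → Q.v f ≤ exp (canD k L Q)) :
    (under K P0).v (Algebra.trace K L f) ≤ exp (canD k K (under K P0)) := by
  have h0 : canD k K = canD k K - 0 := by rw [sub_zero]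
  by_cases hP : P0.v (xK k L) ≤ 1
  · have h1 : Algebra.trace K L f ∈ N0 (canD k K) := by
      rw [h0, mem_N0_iff]
      intro g hg
      rw [pair_eq_lt, ← trace_smul'', lt_trace']
      apply lt_of_N0
      rw [mem_N0] at hg ⊢
      intro Q hQ
      rw [map_mul]
      have h1 : Q.v (algebraMap K L g) ≤ 1 := by
        rw [← under_le_one_iff]
        have := hg (under K Q) ((under_finite_iff' Q).mpr hQ)
        rwa [Finsupp.zero_apply, exp_zero] at this
      calc _ ≤ 1 * exp (canD k L Q) :=
            mul_le_mul' h1 (h Q ⟨fun _ => hQ, fun _ => hP⟩)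
        _ = _ := one_mul _
    exact (mem_N0.mp h1) _ ((under_finite_iff' P0).mpr hP)
  · have h1 : Algebra.trace K L f ∈ N1 (canD k K) := by
      rw [h0, mem_N1_iff]
      intro g hg
      rw [pair_eq_lt, ← trace_smul'', lt_trace']
      apply lt_of_N1
      rw [mem_N1] at hg ⊢
      intro Q hQ
      have hQ' : ¬ Q.v (xK k L) ≤ 1 := not_le.mpr hQ
      rw [map_mul]
      have h1 : Q.v (algebraMap K L g) ≤ 1 := by
        rw [← under_le_one_iff]
        have := hg (under K Q) (not_le.mp fun h' => hQ' ((under_finite_iff' Q).mp h'))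
        rwa [Finsupp.zero_apply, exp_zero] at this
      calc _ ≤ 1 * exp (canD k L Q) :=
            mul_le_mul' h1 (h Q ⟨fun h' => absurd h' hP, fun h' => absurd h' hQ'⟩)
        _ = _ := one_mul _
    exact (mem_N1.mp h1) _ (not_le.mp fun h' => hP ((under_finite_iff' P0).mp h'))

/-- local duality for the trace -/
theorem trace_le' (P0 : Pl k K) {f : L} (h : ∀ Q ∈ above L P0, Q.v f ≤ exp (canD k L Q)) :
    P0.v (Algebra.trace K L f) ≤ exp (canD k K P0) := by
  classical
  by_cases hf : f = 0
  · subst hf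
    rw [map_zero, map_zero]
    exact zero_le
  set S : Finset (Pl k L) := (canD k L).support ∪ (divf (k := k) f).support with hS
  set w : Pl k L → ℤ := fun Q => |canD k L Q| + |divf (k := k) f Q| with hw
  have hw0 : ∀ Q, 0 ≤ w Q := fun Q => add_nonneg (abs_nonneg _) (abs_nonneg _)
  set D0 : Pl k K →₀ ℤ :=
    - ∑ Q ∈ S, Finsupp.single (under K Q) (w Q) - Finsupp.single P0 1 with hD0
  have hsum : ∀ R : Pl k K, 0 ≤ ∑ Q ∈ S, Finsupp.single (under K Q) (w Q) R := by
    intro R
    refine Finset.sum_nonneg fun Q _ => ?_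
    rw [Finsupp.single_apply]; split_ifs
    · exact hw0 Q
    · exact le_rfl
  have hD0le : ∀ Q : Pl k L, D0 (under K Q) ≤ - w Q := by
    intro Q
    rw [hD0, Finsupp.sub_apply, Finsupp.neg_apply, Finsupp.finset_sum_apply]
    have h1 : 0 ≤ Finsupp.single P0 (1 : ℤ) (under K Q) := by
      rw [Finsupp.single_apply]; split_ifs <;> norm_num
    have h2 : ∀ R ∈ S, 0 ≤ Finsupp.single (under K R) (w R) (under K Q) := by
      intro R _
      rw [Finsupp.single_apply]; split_ifs
      · exact hw0 R
      · exact le_rfl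
    by_cases hQ : Q ∈ S
    · have h3 := Finset.single_le_sum h2 hQ
      rw [Finsupp.single_apply, if_pos rfl] at h3
      linarith
    · have h3 := Finset.sum_nonneg h2
      have h4 : w Q = 0 := by
        rw [hS, Finset.mem_union, not_or, Finsupp.notMem_support_iff, Finsupp.notMem_support_iff] at hQ
        rw [hw]
        simp only [hQ.1, hQ.2, abs_zero, add_zero]
      linarith
  obtain ⟨s, hs1, hs2⟩ := exists_app P0 (1 : K) D0
  have hD0P : D0 P0 ≤ -1 := by
    rw [hD0, Finsupp.sub_apply, Finsupp.neg_apply, Finsupp.finset_sum_apply, Finsupp.single_eq_same]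
    have := hsum P0
    linarith
  have hs3 : P0.v s = 1 := by
    have h1 : P0.v (s - 1) < P0.v 1 := by
      rw [map_one]
      refine hs1.trans_lt ?_
      rw [← exp_zero, exp_lt_exp]
      linarith
    have h2 := Valuation.map_add_eq_of_lt_left P0.v h1
    rw [add_sub_cancel, map_one] at h2
    exact h2
  obtain ⟨Q0, hQ0⟩ := above_nonempty (L := L) P0
  rw [mem_above] at hQ0
  have key : ∀ Q, Same Q0 Q → Q.v (algebraMap K L s * f) ≤ exp (canD k L Q) := by
    intro Q hQ
    by_cases hQP : under K Q = P0
    · rw [map_mul]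
      have h1 : Q.v (algebraMap K L s) = 1 := by
        have := v_algebraMap_exp (K := K) Q (f := s) (n := 0) (by rw [hQP, hs3, exp_zero])
        rw [this, mul_zero, exp_zero]
      rw [h1, one_mul]
      exact h Q (by rw [mem_above]; exact hQP)
    · have h1 : (under K Q).v s ≤ exp (D0 (under K Q)) := by
        apply hs2 _ hQP
        rw [← hQ0, same_under_iff']
        exact hQ
      have h2 : Q.v (algebraMap K L s) ≤ exp (-w Q) := by
        rw [v_algebraMap]
        calc (under K Q).v s ^ eR K Q
            ≤ exp (-w Q) ^ eR K Q :=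
              pow_le_pow_left₀ zero_le (h1.trans (exp_le_exp.mpr (hD0le Q))) _
          _ ≤ exp (-w Q) := by
              rw [← exp_nsmul, exp_le_exp]
              have h3 := hw0 Q
              have h4 : (1 : ℤ) ≤ eR K Q := by exact_mod_cast eR_pos (K := K) Q
              rw [nsmul_eq_mul]
              nlinarith
      rw [map_mul, v_eq (k := k) hf Q]
      calc _ ≤ exp (-w Q) * exp (-divf (k := k) f Q) := mul_le_mul_left h2 _
        _ ≤ _ := by
          rw [← exp_add, exp_le_exp, hw]
          have h5 := neg_abs_le (canD k L Q)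
          have h6 := neg_abs_le (divf (k := k) f Q)
          simp only
          linarith
  have h1 := trace_mem_chart' (K := K) Q0 key
  rw [trace_smul'', map_mul, hQ0, hs3, one_mul] at h1
  exact h1

/-- **residues and traces, general tower** -/
theorem sum_res_above' (P0 : Pl k K) (f : L) :
    ∑ Q ∈ above L P0, res Q f = res P0 (Algebra.trace K L f) := by
  classical
  obtain ⟨Q0, hQ0⟩ := above_nonempty (L := L) P0
  rw [mem_above] at hQ0
  have hsame : ∀ P ∈ above L P0, Same Q0 P := by
    intro P hP
    rw [mem_above] at hP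
    rw [← same_under_iff' (K := K), hQ0, hP]
    exact Same.refl _
  obtain ⟨f', h1, h2⟩ := exists_app_finset Q0 (above L P0) hsame (fun _ => f) (canD k L)
  have h3 := lt_eq_sum Q0 f' (above L P0) hsame (fun Q hQ hQS => h2 Q hQS hQ)
  have h4 : ∑ Q ∈ above L P0, res Q f' = ∑ Q ∈ above L P0, res Q f :=
    Finset.sum_congr rfl fun Q hQ => res_congr (h1 Q hQ)
  rw [← h4, ← h3, ← lt_trace' (K := K), ← sg_under' (K := K), hQ0]
  have h5 : P0.v (Algebra.trace K L f' - Algebra.trace K L f) ≤ exp (canD k K P0) := by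
    rw [← map_sub]
    exact trace_le' P0 h1
  symm
  apply res_eq P0 h5
  intro R hR hS
  apply trace_le'
  intro Q hQ
  rw [mem_above] at hQ
  subst hQ
  apply h2
  · rw [mem_above]
    exact hR
  · rw [← same_under_iff' (K := K), hQ0]
    exact hS

/-- residues of functions from below (`k` algebraically closed): `res_Q (f) = e · res_P f` for the
form `f dX` -/
theorem sum_res_algebraMap (P0 : Pl k K) (f : K) :
    ∑ Q ∈ above L P0, res Q (algebraMap K L f) = finrank K L * res P0 f := by
  rw [sum_res_above', Algebra.trace_algebraMap, map_nsmul, nsmul_eq_mul]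

end tower

end Crest.Agent.R013.RR29_948
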