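import Mathlib
import Crest.Agent.R013.RR29_948

/-!
# R013 / HTa: local forms orthogonal to functions are global (D-HT (3)) (helper948)

`k` algebraically closed, `K` a function field over `k`, `C` any field extension of `k`.
Local differentials `∑ W_i t^i dt` at finitely many places with coefficients in `C`, orthogonal (by
residues) to all the functions with poles only there, are the expansions of ONE global form
`∑ c_j ω_j`, `c_j ∈ C`, `ω_j = b_j dX` a basis of `L(canD) dX` over `k`.
-/

set_option autoImplicit false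
set_option linter.all false

namespace Crest.Agent.R013.HTa_948

open Polynomial WithZero Module
open Crest.Agent.R013.RR1_948 Crest.Agent.R013.RR2_948 Crest.Agent.R013.RR3_948
open Crest.Agent.R013.RR4_948 Crest.Agent.R013.RR5_948 Crest.Agent.R013.RR6_948
open Crest.Agent.R013.RR7_948 Crest.Agent.R013.RR8_948 Crest.Agent.R013.RR9_948
open Crest.Agent.R013.RR11_948 Crest.Agent.R013.RR12_948 Crest.Agent.R013.RR13_948
open Crest.Agent.R013.RR14_948 Crest.Agent.R013.RR15_948
open Crest.Agent.R013.RR18_948 Crest.Agent.R013.RR19_948 Crest.Agent.R013.RR20_948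
open Crest.Agent.R013.RR21_948 Crest.Agent.R013.RR22_948 Crest.Agent.R013.RR23_948
open Crest.Agent.R013.RR24_948 Crest.Agent.R013.RR25_948 Crest.Agent.R013.RR26_948
open Crest.Agent.R013.RR27_948 Crest.Agent.R013.RR28_948 Crest.Agent.R013.RR29_948
open Crest.Agent.R013.Car5_700 (v_del_eq v_del_le v_del_le')

variable {k : Type*} [Field k] [IsAlgClosed k] {K : Type*} [Field K] [Algebra k K]
  [Algebra (RatFunc k) K] [IsScalarTower k (RatFunc k) K] [FiniteDimensional (RatFunc k) K]
  [Algebra.IsSeparable (RatFunc k) K]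

/-- the divisor `m ∑_{P ∈ S} P` -/
noncomputable def mS (S : Finset (Pl k K)) (m : ℕ) : Pl k K →₀ ℤ :=
  ∑ P ∈ S, Finsupp.single P (m : ℤ)

theorem mS_apply_of_mem {S : Finset (Pl k K)} {m : ℕ} {P : Pl k K} (hP : P ∈ S) : mS S m P = m := by
  classical
  unfold mS
  rw [Finsupp.finset_sum_apply, Finset.sum_eq_single P]
  · rw [Finsupp.single_eq_same]
  · intro Q _ hQ
    rw [Finsupp.single_apply, if_neg hQ]
  · exact fun h => absurd hP h

theorem mS_apply_of_notMem {S : Finset (Pl k K)} {m : ℕ} {P : Pl k K} (hP : P ∉ S) :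
    mS S m P = 0 := by
  classical
  unfold mS
  rw [Finsupp.finset_sum_apply, Finset.sum_eq_zero]
  intro Q hQ
  rw [Finsupp.single_apply]
  exact if_neg (fun h : Q = P => hP (h ▸ hQ))

theorem mS_mono {S : Finset (Pl k K)} {m n : ℕ} (h : m ≤ n) : mS S m ≤ mS S n := by
  intro P
  by_cases hP : P ∈ S
  · rw [mS_apply_of_mem hP, mS_apply_of_mem hP]; exact_mod_cast h
  · rw [mS_apply_of_notMem hP, mS_apply_of_notMem hP]

theorem del_ne_zero {P : Pl k K} {t : K} (ht : P.v t = exp (-1)) : del k K t ≠ 0 := by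
  intro h
  have := v_del_eq P ht
  rw [h, map_zero] at this
  exact exp_ne_zero this.symm

theorem v_div_del {P : Pl k K} {t g : K} (ht : P.v t = exp (-1)) {n : ℤ}
    (hg : P.v g ≤ exp (canD k K P + n)) : P.v (g / del k K t) ≤ exp n := by
  have h0 := del_ne_zero ht
  rw [map_div₀, v_del_eq P ht, div_le_iff₀ (exp_pos), ← exp_add]
  refine hg.trans ?_
  rw [exp_le_exp]; linarith

theorem v_of_div_del {P : Pl k K} {t g : K} (ht : P.v t = exp (-1)) {n : ℤ}
    (hg : P.v (g / del k K t) ≤ exp n) : P.v g ≤ exp (canD k K P + n) := by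
  have h0 := del_ne_zero ht
  have h1 : g = g / del k K t * del k K t := by field_simp
  rw [h1]
  refine (v_mul_le hg (v_del_eq P ht).le).trans ?_
  rw [exp_le_exp]; linarith

/-- the coefficients of a form regular at `P` determine its order -/
theorem v_le_of_coef {P : Pl k K} {t g : K} (ht : P.v t = exp (-1)) (hg : P.v g ≤ exp (canD k K P))
    {m : ℕ} (h : ∀ i < m, coef P t (i : ℤ) (g / del k K t) = 0) :
    P.v g ≤ exp (canD k K P - m) := by
  have h1 : P.v (g / del k K t) ≤ 1 := by
    rw [← exp_zero]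
    apply v_div_del ht
    rwa [add_zero]
  have h2 := coef_spec_nat ht h1 m
  rw [Finset.sum_eq_zero, sub_zero] at h2
  · have h3 := v_of_div_del ht h2
    rwa [← sub_eq_add_neg] at h3
  · intro i hi
    rw [Finset.mem_range] at hi
    rw [h i hi, zero_smul]

/-- the finite version over `k` -/
theorem exists_form (S : Finset (Pl k K)) (t : Pl k K → K) (ht : ∀ P ∈ S, P.v (t P) = exp (-1))
    (m : ℕ) (w : Pl k K → ℕ → k)
    (H : ∀ f ∈ LD (mS S m), ∑ P ∈ S, ∑ i ∈ Finset.range m,
      coef P (t P) (-(i : ℤ) - 1) f * w P i = 0) :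
    ∃ g ∈ LD (canD k K), ∀ P ∈ S, ∀ i < m, coef P (t P) (i : ℤ) (g / del k K (t P)) = w P i := by
  classical
  set s : Pl k K → K := fun P => ∑ i ∈ Finset.range m, w P i • t P ^ i with hs
  have hsv : ∀ P ∈ S, P.v (s P) ≤ exp 0 := by
    intro P hP
    refine Valuation.map_sum_le _ fun i _ => ?_
    rw [Algebra.smul_def, map_mul, map_pow, ht P hP]
    have h1 : P.v (algebraMap k K (w P i)) ≤ 1 := by
      by_cases h : w P i = 0
      · rw [h]; simp
      · rw [P.const _ h]
    calc P.v (algebraMap k K (w P i)) * exp (-1) ^ i ≤ 1 * exp 0 := by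
          apply mul_le_mul' h1
          rw [← exp_nsmul, exp_le_exp]; simp
      _ = exp 0 := one_mul _
  obtain ⟨f, hf1, hf2⟩ := (exists_differential_iff (-mS S m) S
    (fun P => s P * del k K (t P))).mpr (by
      intro g hg
      rw [neg_neg] at hg
      rw [← H g hg]
      refine Finset.sum_congr rfl fun P hP => ?_
      rw [hs]
      beta_reduce
      rw [Finset.sum_mul, Finset.sum_mul, map_sum]
      refine Finset.sum_congr rfl fun i _ => ?_
      rw [coef_apply, smul_mul_assoc, smul_mul_assoc, map_smul, smul_eq_mul, mul_comm]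
      congr 2
      have h1 : -(-(i : ℤ) - 1) - 1 = i := by ring
      rw [h1, zpow_natCast]
      ring)
  have hreg : ∀ P ∈ S, P.v (s P * del k K (t P)) ≤ exp (canD k K P) := by
    intro P hP
    have := v_mul_le (hsv P hP) (v_del_eq P (ht P hP)).le
    rwa [zero_add] at this
  refine ⟨f, ?_, ?_⟩
  · rw [mem_LD]
    intro P
    by_cases hP : P ∈ S
    · have h1 := hf1 P hP
      rw [Finsupp.neg_apply, mS_apply_of_mem hP] at h1
      have h2 : f = (f - s P * del k K (t P)) + s P * del k K (t P) := by ring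
      rw [h2]
      refine (Valuation.map_add _ _ _).trans (max_le (h1.trans ?_) (hreg P hP))
      rw [exp_le_exp]
      linarith [Int.natCast_nonneg m]
    · have h1 := hf2 P hP
      rwa [Finsupp.neg_apply, mS_apply_of_notMem hP, neg_zero, add_zero] at h1
  · intro P hP i hi
    have h0 := del_ne_zero (ht P hP)
    have h1 := hf1 P hP
    rw [Finsupp.neg_apply, mS_apply_of_mem hP] at h1
    have h2 : f / del k K (t P) = (f - s P * del k K (t P)) / del k K (t P) + s P := by
      field_simp; ring
    rw [h2, map_add, coef_of_le (ht P hP), zero_add, hs, map_sum]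
    · have h3 : ∀ j ∈ Finset.range m, coef P (t P) (i : ℤ) (w P j • t P ^ j) =
          if j = i then w P i else 0 := by
        intro j _
        rw [map_smul, ← zpow_natCast, coef_zpow (ht P hP), smul_eq_mul]
        by_cases h : j = i
        · rw [if_pos (by exact_mod_cast h), if_pos h, h, mul_one]
        · rw [if_neg (by exact_mod_cast h), if_neg h, mul_zero]
      rw [Finset.sum_congr rfl h3, Finset.sum_ite_eq', if_pos (Finset.mem_range.mpr hi)]
    · refine (v_div_del (ht P hP) h1).trans ?_
      rw [exp_le_exp]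
      omega

section ext

variable {ι : Type*} [Fintype ι] (b : Basis ι k (LD (canD k K)))
  {C : Type*} [Field C] [Algebra k C]

/-- the expansion at `P` of the form `∑ c_j b_j dX`: coefficient of `t^i dt` -/
noncomputable def expan (c : ι → C) (P : Pl k K) (t : K) (i : ℤ) : C :=
  ∑ j, c j * algebraMap k C (coef P t i ((b j : K) / del k K t))

theorem expan_add (c c' : ι → C) (P : Pl k K) (t : K) (i : ℤ) :
    expan b (c + c') P t i = expan b c P t i + expan b c' P t i := by
  unfold expan
  rw [← Finset.sum_add_distrib]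
  exact Finset.sum_congr rfl fun j _ => by rw [Pi.add_apply, add_mul]

theorem expan_sub (c c' : ι → C) (P : Pl k K) (t : K) (i : ℤ) :
    expan b (c - c') P t i = expan b c P t i - expan b c' P t i := by
  unfold expan
  rw [← Finset.sum_sub_distrib]
  exact Finset.sum_congr rfl fun j _ => by rw [Pi.sub_apply, sub_mul]

theorem expan_smul (a : C) (c : ι → C) (P : Pl k K) (t : K) (i : ℤ) :
    expan b (a • c) P t i = a * expan b c P t i := by
  unfold expan
  rw [Finset.mul_sum]
  exact Finset.sum_congr rfl fun j _ => by rw [Pi.smul_apply, smul_eq_mul, mul_assoc]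

theorem expan_zero (P : Pl k K) (t : K) (i : ℤ) : expan b (0 : ι → C) P t i = 0 := by
  unfold expan
  exact Finset.sum_eq_zero fun j _ => by rw [Pi.zero_apply, zero_mul]

/-- the expansion of a form over `k` -/
theorem expan_repr (g : LD (canD k K)) (P : Pl k K) (t : K) (i : ℤ) :
    expan b (fun j => algebraMap k C (b.repr g j)) P t i =
      algebraMap k C (coef P t i ((g : K) / del k K t)) := by
  unfold expan
  have h1 : (g : K) = ∑ j, b.repr g j • (b j : K) := by
    have h2 := congrArg (LD (canD k K)).subtype (b.sum_repr g)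
    rw [map_sum] at h2
    simp only [map_smul, Submodule.subtype_apply] at h2
    exact h2.symm
  rw [h1, Finset.sum_div, map_sum, map_sum]
  refine Finset.sum_congr rfl fun j _ => ?_
  rw [smul_div_assoc, map_smul, smul_eq_mul, map_mul]

/-- **(3), finite level**: local forms with coefficients in `C` orthogonal to `L(m ∑ P)` -/
theorem exists_expan (S : Finset (Pl k K)) (t : Pl k K → K) (ht : ∀ P ∈ S, P.v (t P) = exp (-1))
    (m : ℕ) (W : Pl k K → ℕ → C)
    (H : ∀ f ∈ LD (mS S m), ∑ P ∈ S, ∑ i ∈ Finset.range m,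
      coef P (t P) (-(i : ℤ) - 1) f • W P i = 0) :
    ∃ c : ι → C, ∀ P ∈ S, ∀ i < m, W P i = expan b c P (t P) i := by
  classical
  set e := Basis.ofVectorSpace k C with he
  -- the coordinates
  have h1 : ∀ l, ∃ g ∈ LD (canD k K), ∀ P ∈ S, ∀ i < m,
      coef P (t P) (i : ℤ) (g / del k K (t P)) = e.repr (W P i) l := by
    intro l
    apply exists_form S t ht m (fun P i => e.repr (W P i) l)
    intro f hf
    have h2 := congrArg (fun z => e.repr z l) (H f hf)
    simp only [map_sum, map_smul, map_zero, Finsupp.zero_apply, Finsupp.finset_sum_apply,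
      Finsupp.smul_apply, smul_eq_mul] at h2
    exact h2
  choose g hg hg' using h1
  set Λ := S.biUnion fun P => (Finset.range m).biUnion fun i => (e.repr (W P i)).support with hΛ
  refine ⟨fun j => ∑ l ∈ Λ, algebraMap k C (b.repr ⟨g l, hg l⟩ j) * e l, ?_⟩
  intro P hP i hi
  have h3 : W P i = ∑ l ∈ Λ, algebraMap k C (e.repr (W P i) l) * e l := by
    conv_lhs => rw [← e.linearCombination_repr (W P i)]
    rw [Finsupp.linearCombination_apply, Finsupp.sum]
    rw [Finset.sum_subset (s₂ := Λ)]
    · exact Finset.sum_congr rfl fun l _ => by rw [Algebra.smul_def]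
    · intro l hl
      rw [hΛ, Finset.mem_biUnion]
      refine ⟨P, hP, ?_⟩
      rw [Finset.mem_biUnion]
      exact ⟨i, Finset.mem_range.mpr hi, hl⟩
    · intro l _ hl
      rw [Finsupp.notMem_support_iff] at hl
      rw [hl, zero_smul]
  rw [h3]
  unfold expan
  simp only [Finset.sum_mul]
  rw [Finset.sum_comm]
  refine Finset.sum_congr rfl fun l _ => ?_
  rw [← hg' l P hP i hi]
  have h4 := expan_repr b (C := C) ⟨g l, hg l⟩ P (t P) i
  rw [← h4]
  unfold expan
  rw [Finset.sum_mul]
  exact Finset.sum_congr rfl fun j _ => by ring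

/-- **uniqueness** (one place, finitely many coefficients) -/
theorem expan_eq_zero {P : Pl k K} {t : K} (ht : P.v t = exp (-1)) {m : ℕ}
    (hm : degD (canD k K) < m * degP P) {c : ι → C} (H : ∀ i < m, expan b c P t (i : ℤ) = 0) :
    c = 0 := by
  classical
  set e := Basis.ofVectorSpace k C with he
  -- the coordinates
  have h1 : ∀ l, ∑ j, e.repr (c j) l • b j = 0 := by
    intro l
    set g := ∑ j, e.repr (c j) l • b j with hg
    have h2 : ∀ i < m, coef P t (i : ℤ) ((g : K) / del k K t) = 0 := by
      intro i hi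
      have h3 := congrArg (fun z => e.repr z l) (H i hi)
      unfold expan at h3
      simp only [map_sum, map_zero, Finsupp.zero_apply, Finsupp.finset_sum_apply] at h3
      have h4 : (g : K) = ∑ j, e.repr (c j) l • (b j : K) := by
        rw [hg]; simp
      rw [h4, Finset.sum_div, map_sum, ← h3]
      refine Finset.sum_congr rfl fun j _ => ?_
      rw [smul_div_assoc, map_smul, smul_eq_mul, mul_comm (c j), ← Algebra.smul_def, map_smul,
        Finsupp.smul_apply, smul_eq_mul, mul_comm]
    have h5 : P.v (g : K) ≤ exp (canD k K P - m) :=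
      v_le_of_coef ht ((mem_LD.mp g.2) P) h2
    have h6 : (g : K) ∈ LD (canD k K - Finsupp.single P (m : ℤ)) := by
      rw [mem_LD]
      intro Q
      rw [Finsupp.sub_apply, Finsupp.single_apply]
      split_ifs with h
      · subst h; exact h5
      · rw [sub_zero]; exact (mem_LD.mp g.2) Q
    have h7 : (g : K) = 0 := by
      refine eq_zero_of_degD_neg ?_ h6
      rw [degD_sub, degD_single]
      linarith
    exact Subtype.ext h7
  funext j
  rw [Pi.zero_apply]
  apply e.repr.injective
  rw [map_zero]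
  ext l
  exact (Fintype.linearIndependent_iff.mp b.linearIndependent) _ (h1 l) j

theorem expan_injective {P : Pl k K} {t : K} (ht : P.v t = exp (-1)) {m : ℕ}
    (hm : degD (canD k K) < m * degP P) {c c' : ι → C}
    (H : ∀ i < m, expan b c P t (i : ℤ) = expan b c' P t i) : c = c' := by
  rw [← sub_eq_zero]
  apply expan_eq_zero b ht hm
  intro i hi
  rw [expan_sub, H i hi, sub_self]

theorem exists_deg_lt (P : Pl k K) : ∃ m : ℕ, degD (canD k K) < m * degP P := by
  refine ⟨(degD (canD k K) + 1).toNat, ?_⟩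
  have h1 := Int.self_le_toNat (degD (canD k K) + 1)
  have h2 : (1 : ℤ) ≤ degP P := by exact_mod_cast degP_pos P
  nlinarith [Int.natCast_nonneg (degD (canD k K) + 1).toNat]

/-- **(3), all orders at once** -/
theorem exists_expan_all (S : Finset (Pl k K)) (t : Pl k K → K)
    (ht : ∀ P ∈ S, P.v (t P) = exp (-1)) (W : Pl k K → ℕ → C)
    (H : ∀ m : ℕ, ∀ f ∈ LD (mS S m), ∑ P ∈ S, ∑ i ∈ Finset.range m,
      coef P (t P) (-(i : ℤ) - 1) f • W P i = 0) :
    ∃ c : ι → C, ∀ P ∈ S, ∀ i : ℕ, W P i = expan b c P (t P) i := by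
  classical
  rcases S.eq_empty_or_nonempty with hS | ⟨P0, hP0⟩
  · exact ⟨0, fun P hP => by rw [hS] at hP; exact absurd hP (Finset.notMem_empty _)⟩
  obtain ⟨m0, hm0⟩ := exists_deg_lt (k := k) P0
  choose c hc using fun m => exists_expan b S t ht m W (H m)
  refine ⟨c m0, fun P hP i => ?_⟩
  have h1 : c (max m0 (i + 1)) = c m0 := by
    apply expan_injective b (ht P0 hP0) hm0
    intro j hj
    rw [← hc m0 P0 hP0 j hj, ← hc _ P0 hP0 j (hj.trans_le (le_max_left _ _))]
  rw [← h1]
  exact hc _ P hP i ((Nat.lt_succ_self i).trans_le (le_max_right _ _))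

/-- the converse: a global form is orthogonal to the functions with poles only in `S` -/
theorem sum_expan_eq_zero (S : Finset (Pl k K)) (t : Pl k K → K)
    (ht : ∀ P ∈ S, P.v (t P) = exp (-1)) (c : ι → C) (m : ℕ) {f : K} (hf : f ∈ LD (mS S m)) :
    ∑ P ∈ S, ∑ i ∈ Finset.range m, coef P (t P) (-(i : ℤ) - 1) f • expan b c P (t P) i = 0 := by
  classical
  have key : ∀ g ∈ LD (canD k K), ∑ P ∈ S, ∑ i ∈ Finset.range m,
      coef P (t P) (-(i : ℤ) - 1) f * coef P (t P) (i : ℤ) (g / del k K (t P)) = 0 := by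
    intro g hg
    have h1 := sum_res (k := k) (f * g) S (by
      intro Q hQ
      have h2 := (mem_LD.mp hf) Q
      rw [mS_apply_of_notMem hQ] at h2
      have := v_mul_le h2 ((mem_LD.mp hg) Q)
      rwa [zero_add] at this)
    rw [← h1]
    refine Finset.sum_congr rfl fun P hP => ?_
    have h0 := del_ne_zero (ht P hP)
    have h3 : P.v (g / del k K (t P)) ≤ 1 := by
      rw [← exp_zero]
      apply v_div_del (ht P hP)
      rw [add_zero]
      exact (mem_LD.mp hg) P
    have h4 := coef_spec_nat (ht P hP) h3 m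
    have h5 : res P (f * g) = res P (f * ((∑ i ∈ Finset.range m,
        coef P (t P) (i : ℤ) (g / del k K (t P)) • t P ^ i) * del k K (t P))) := by
      apply res_congr
      have h6 : f * g - f * ((∑ i ∈ Finset.range m,
          coef P (t P) (i : ℤ) (g / del k K (t P)) • t P ^ i) * del k K (t P)) =
          f * ((g / del k K (t P) - ∑ i ∈ Finset.range m,
          coef P (t P) (i : ℤ) (g / del k K (t P)) • t P ^ i) * del k K (t P)) := by
        rw [sub_mul, div_mul_cancel₀ _ h0]; ring
      rw [h6]
      have h7 := (mem_LD.mp hf) P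
      rw [mS_apply_of_mem hP] at h7
      have h8 := v_mul_le h7 (v_mul_le h4 (v_del_eq P (ht P hP)).le)
      refine h8.trans ?_
      rw [exp_le_exp]; linarith
    rw [h5, Finset.sum_mul, Finset.mul_sum, map_sum]
    refine Finset.sum_congr rfl fun i _ => ?_
    rw [smul_mul_assoc, mul_smul_comm, map_smul, smul_eq_mul, mul_comm]
    congr 1
    rw [coef_apply]
    congr 2
    have h9 : -(-(i : ℤ) - 1) - 1 = i := by ring
    rw [h9, zpow_natCast]
  unfold expan
  have h1 : ∑ P ∈ S, ∑ i ∈ Finset.range m, coef P (t P) (-(i : ℤ) - 1) f •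
      ∑ j, c j * algebraMap k C (coef P (t P) (i : ℤ) ((b j : K) / del k K (t P))) =
      ∑ P ∈ S, ∑ i ∈ Finset.range m, ∑ j, c j * algebraMap k C (coef P (t P) (-(i : ℤ) - 1) f *
        coef P (t P) (i : ℤ) ((b j : K) / del k K (t P))) := by
    refine Finset.sum_congr rfl fun P _ => Finset.sum_congr rfl fun i _ => ?_
    rw [Finset.smul_sum]
    refine Finset.sum_congr rfl fun j _ => ?_
    rw [Algebra.smul_def, map_mul]
    ring
  rw [h1]
  have h2 : ∑ P ∈ S, ∑ i ∈ Finset.range m, ∑ j, c j * algebraMap k C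
      (coef P (t P) (-(i : ℤ) - 1) f * coef P (t P) (i : ℤ) ((b j : K) / del k K (t P))) =
      ∑ P ∈ S, ∑ j, ∑ i ∈ Finset.range m, c j * algebraMap k C
      (coef P (t P) (-(i : ℤ) - 1) f * coef P (t P) (i : ℤ) ((b j : K) / del k K (t P))) :=
    Finset.sum_congr rfl fun P _ => Finset.sum_comm
  rw [h2, Finset.sum_comm]
  refine Finset.sum_eq_zero fun j _ => ?_
  have h3 := key (b j) (b j).2
  have h4 : ∑ P ∈ S, ∑ i ∈ Finset.range m, c j * algebraMap k C
      (coef P (t P) (-(i : ℤ) - 1) f * coef P (t P) (i : ℤ) ((b j : K) / del k K (t P))) =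
      c j * algebraMap k C (∑ P ∈ S, ∑ i ∈ Finset.range m,
      coef P (t P) (-(i : ℤ) - 1) f * coef P (t P) (i : ℤ) ((b j : K) / del k K (t P))) := by
    simp only [map_sum, Finset.mul_sum]
  rw [h4, h3, map_zero, mul_zero]

end ext

end Crest.Agent.R013.HTa_948
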