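import Mathlib
import Crest.Agent.R013.HTa_948
import Crest.Agent.R013.CE5_280

/-!
# R013 / HTb: residues, expansions and forms in the constant field extension (helper948)

`F`, `Ω` algebraically closed, `K` a function field over `F`, `ι : K → L` the constant field extension
to `Ω` (280's `IsCE`), `hx : xK Ω L = ι (xK F K)`.
-/

set_option autoImplicit false
set_option linter.all false

namespace Crest.Agent.R013.HTb_948

open Polynomial WithZero Module
open Crest.Agent.R013.RR1_948 Crest.Agent.R013.RR2_948 Crest.Agent.R013.RR3_948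
open Crest.Agent.R013.RR4_948 Crest.Agent.R013.RR5_948 Crest.Agent.R013.RR6_948
open Crest.Agent.R013.RR7_948 Crest.Agent.R013.RR8_948 Crest.Agent.R013.RR9_948
open Crest.Agent.R013.RR11_948 Crest.Agent.R013.RR12_948 Crest.Agent.R013.RR13_948
open Crest.Agent.R013.RR14_948 Crest.Agent.R013.RR15_948
open Crest.Agent.R013.RR25_948 Crest.Agent.R013.RR26_948
open Crest.Agent.R013.RR27_948 Crest.Agent.R013.RR28_948 Crest.Agent.R013.RR29_948
open Crest.Agent.R013.HTa_948
open Crest.Agent.R013.CE3_280 Crest.Agent.R013.CE5_280 TensorProduct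
open Crest.Agent.R013.Car5_700 (v_del_eq v_del_le v_del_le')

section del

variable {F K Ω L : Type*} [Field F] [Field K] [Algebra F K]
  [Algebra (RatFunc F) K] [IsScalarTower F (RatFunc F) K] [Algebra.IsSeparable (RatFunc F) K]
  [Field Ω] [Algebra F Ω]
  [Field L] [Algebra Ω L] [Algebra F L] [IsScalarTower F Ω L]
  [Algebra (RatFunc Ω) L] [IsScalarTower Ω (RatFunc Ω) L] [Algebra.IsSeparable (RatFunc Ω) L]

/-- chain rule for extensions of constants -/
theorem del_iota' (ι : K →ₐ[F] L) (f : K) :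
    del Ω L (ι f) = ι (del F K f) * del Ω L (ι (xK F K)) := by
  letI : Algebra K L := ι.toRingHom.toAlgebra
  haveI : IsScalarTower F K L := IsScalarTower.of_algebraMap_eq fun c => (ι.commutes c).symm
  let D1 : Derivation F K L := ((del Ω L).restrictScalars F).compAlgebraMap K
  have h1 : ∀ g : K, D1 g = del Ω L (ι g) := fun g => rfl
  have h2 := congrArg D1.liftKaehlerDifferential (D_eq F K f)
  rw [map_smul, Derivation.liftKaehlerDifferential_comp_D,
    Derivation.liftKaehlerDifferential_comp_D, h1, h1] at h2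
  rw [h2, Algebra.smul_def]
  rfl

theorem del_iota {ι : K →ₐ[F] L} (hx : xK Ω L = ι (xK F K)) (f : K) :
    del Ω L (ι f) = ι (del F K f) := by
  rw [del_iota', ← hx, del_xK, mul_one]

end del

section forms

variable {F K Ω L : Type*} [Field F] [IsAlgClosed F] [Field K] [Algebra F K]
  [Algebra (RatFunc F) K] [IsScalarTower F (RatFunc F) K] [FiniteDimensional (RatFunc F) K]
  [Algebra.IsSeparable (RatFunc F) K]
  [Field Ω] [Algebra F Ω] [IsAlgClosed Ω]
  [Field L] [Algebra Ω L] [Algebra F L] [IsScalarTower F Ω L]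
  [Algebra (RatFunc Ω) L] [IsScalarTower Ω (RatFunc Ω) L]
  [FiniteDimensional (RatFunc Ω) L] [Algebra.IsSeparable (RatFunc Ω) L]
  {ι : K →ₐ[F] L}

theorem v_conP (hι : IsCE Ω ι) (P : Pl F K) (f : K) : (conP hι P).v (ι f) = P.v f :=
  (conP_Over hι P).v_iota hι f

theorem canD_conP (hι : IsCE Ω ι) (hx : xK Ω L = ι (xK F K)) (P : Pl F K) :
    canD Ω L (conP hι P) = canD F K P := by
  obtain ⟨t, _, ht⟩ := exists_v_eq P (-1)
  have h1 := v_del_eq (conP hι P) (t := ι t) (by rw [v_conP, ht])
  rw [del_iota hx, v_conP, v_del_eq P ht, exp_inj] at h1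
  exact h1.symm

theorem canD_plQ (hι : IsCE Ω ι) (hx : xK Ω L = ι (xK F K)) (Q : K →ₐ[F] Ω) :
    canD Ω L (plQ hι Q) = 0 := by
  have h1 := v_del_eq (plQ hι Q) ((plQ_At hι Q).v_pi hι)
  have h2 : del Ω L (mu (Ω := Ω) ι (CE2_280.piT F K (Q (xK F K)))) = 1 := by
    have h3 : mu (Ω := Ω) ι (CE2_280.piT F K (Q (xK F K))) =
        ι (xK F K) - algebraMap Ω L (Q (xK F K)) := by
      unfold CE2_280.piT
      rw [map_sub, mu_tmul, mu_tmul, map_one, one_mul, map_one, mul_one]
    rw [h3, map_sub, Derivation.map_algebraMap, sub_zero, ← hx, del_xK]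
  rw [h2, map_one, ← exp_zero, exp_inj] at h1
  exact h1.symm

/-- **the canonical divisor is compatible with extensions of constants** -/
theorem base_canD (hι : IsCE Ω ι) (hx : xK Ω L = ι (xK F K)) :
    base hι (canD F K) = canD Ω L := by
  ext w
  rcases cases hι w with ⟨P, rfl⟩ | ⟨Q, rfl⟩
  · rw [base_conP, canD_conP hι hx]
  · rw [base_plQ, canD_plQ hι hx]

/-- expansions are compatible with extensions of constants -/
theorem coef_iota (hι : IsCE Ω ι) {P : Pl F K} {t : K} (ht : P.v t = exp (-1)) (n : ℤ) (f : K) :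
    coef (conP hι P) (ι t) n (ι f) = algebraMap F Ω (coef P t n f) := by
  have ht' : (conP hι P).v (ι t) = exp (-1) := by rw [v_conP, ht]
  -- bound the pole
  obtain ⟨N, hN⟩ : ∃ N : ℕ, P.v f ≤ exp ((N : ℤ) - n) := by
    by_cases hf : f = 0
    · exact ⟨0, by rw [hf, map_zero]; exact zero_le⟩
    · refine ⟨(-divf (k := F) f P + n).toNat, ?_⟩
      rw [v_eq (k := F) hf, exp_le_exp]
      have := Int.self_le_toNat (-divf (k := F) f P + n)
      linarith
  have h1 := coef_spec ht hN (N + 1)
  set s := Finset.Ico (-((N : ℤ) - n)) (-((N : ℤ) - n) + ((N + 1 : ℕ) : ℤ)) with hs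
  have hn : n ∈ s := by
    rw [hs, Finset.mem_Ico]
    push_cast
    constructor <;> omega
  have h2 : ι f = ι (f - ∑ j ∈ s, coef P t j f • t ^ j) +
      ∑ j ∈ s, (algebraMap F Ω (coef P t j f)) • (ι t) ^ j := by
    rw [← sub_eq_iff_eq_add', ← sub_eq_zero]
    rw [map_sub, map_sum]
    have h3 : ∀ j ∈ s, ι (coef P t j f • t ^ j) = (algebraMap F Ω (coef P t j f)) • (ι t) ^ j := by
      intro j _
      rw [map_smul, map_zpow₀, algebraMap_smul]
    rw [Finset.sum_congr rfl h3]
    ring
  rw [h2, map_add, coef_of_le ht', zero_add, map_sum]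
  · have h3 : ∀ j ∈ s, coef (conP hι P) (ι t) n (algebraMap F Ω (coef P t j f) • (ι t) ^ j) =
        if j = n then algebraMap F Ω (coef P t n f) else 0 := by
      intro j _
      rw [map_smul, coef_zpow ht', smul_eq_mul]
      split_ifs with h
      · rw [h, mul_one]
      · rw [mul_zero]
    rw [Finset.sum_congr rfl h3, Finset.sum_ite_eq', if_pos hn]
  · rw [v_conP]
    refine h1.trans ?_
    rw [exp_le_exp]
    push_cast
    linarith

/-- residues are compatible with extensions of constants -/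
theorem res_iota (hι : IsCE Ω ι) (hx : xK Ω L = ι (xK F K)) (P : Pl F K) (f : K) :
    res (conP hι P) (ι f) = algebraMap F Ω (res P f) := by
  obtain ⟨t, _, ht⟩ := exists_v_eq P (-1)
  have h := coef_iota hι ht (-1) (f / del F K t)
  rw [coef_apply, coef_apply] at h
  have h0 := del_ne_zero ht
  have h0' : ι (del F K t) ≠ 0 := by simpa using h0
  have e : -(-1 : ℤ) - 1 = 0 := by ring
  rw [e, zpow_zero, zpow_zero, one_mul, one_mul, del_iota hx, map_div₀, div_mul_cancel₀ _ h0,
    div_mul_cancel₀ _ h0'] at h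
  exact h

/-- no residues at the non constant points -/
theorem res_plQ_iota (hι : IsCE Ω ι) (hx : xK Ω L = ι (xK F K)) (Q : K →ₐ[F] Ω) (f : K) :
    res (plQ hι Q) (ι f) = 0 := by
  apply res_of_le
  rw [canD_plQ hι hx, exp_zero]
  by_cases hf : f = 0
  · rw [hf, map_zero, map_zero]; exact zero_le
  · exact ((plQ_At hι Q).iota_eq_one hf).le

variable {κ : Type*} [Fintype κ] (b : Basis κ F (LD (canD F K)))

/-- the form `∑ c_j b_j` -/
noncomputable def form (ι : K →ₐ[F] L) (c : κ → Ω) : L := ∑ j, c j • ι (b j)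

omit [IsAlgClosed F] [Algebra (RatFunc Ω) L] [IsScalarTower Ω (RatFunc Ω) L]
  [FiniteDimensional (RatFunc Ω) L] [Algebra.IsSeparable (RatFunc Ω) L] [IsAlgClosed Ω] in
theorem form_add (c c' : κ → Ω) : form b ι (c + c') = form b ι c + form b ι c' := by
  unfold form
  rw [← Finset.sum_add_distrib]
  exact Finset.sum_congr rfl fun j _ => by rw [Pi.add_apply, add_smul]

omit [IsAlgClosed F] [Algebra (RatFunc Ω) L] [IsScalarTower Ω (RatFunc Ω) L]
  [FiniteDimensional (RatFunc Ω) L] [Algebra.IsSeparable (RatFunc Ω) L] [IsAlgClosed Ω] in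
theorem form_smul (a : Ω) (c : κ → Ω) : form b ι (a • c) = a • form b ι c := by
  unfold form
  rw [Finset.smul_sum]
  exact Finset.sum_congr rfl fun j _ => by rw [Pi.smul_apply, smul_assoc]

theorem form_mem (hι : IsCE Ω ι) (hx : xK Ω L = ι (xK F K)) (c : κ → Ω) :
    form b ι c ∈ LD (canD Ω L) := by
  unfold form
  refine Submodule.sum_mem _ fun j _ => Submodule.smul_mem _ _ ?_
  rw [← base_canD hι hx, ← range_lam hι hx]
  refine ⟨(1 : Ω) ⊗ₜ b j, ?_⟩
  rw [lam_tmul, map_one, one_mul]

/-- the expansion of the form at the constant places -/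
theorem coef_form (hι : IsCE Ω ι) (hx : xK Ω L = ι (xK F K)) {P : Pl F K} {t : K}
    (ht : P.v t = exp (-1)) (c : κ → Ω) (i : ℤ) :
    coef (conP hι P) (ι t) i (form b ι c / del Ω L (ι t)) = expan b c P t i := by
  unfold form expan
  rw [Finset.sum_div, map_sum]
  refine Finset.sum_congr rfl fun j _ => ?_
  rw [smul_div_assoc, map_smul, smul_eq_mul, del_iota hx, ← map_div₀, coef_iota hι ht]

theorem form_injective (hι : IsCE Ω ι) (hx : xK Ω L = ι (xK F K)) {c c' : κ → Ω}
    (h : form b ι c = form b ι c') : c = c' := by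
  obtain ⟨P, -⟩ := exists_notMem (∅ : Finset (Pl F K))
  obtain ⟨t, _, ht⟩ := exists_v_eq P (-1)
  obtain ⟨m, hm⟩ := exists_deg_lt (k := F) P
  apply expan_injective b ht hm
  intro i _
  rw [← coef_form b hι hx ht, ← coef_form b hι hx ht, h]

/-- **all the regular forms over `Ω`** -/
theorem exists_form_eq (hι : IsCE Ω ι) (hx : xK Ω L = ι (xK F K)) {ω : L}
    (hω : ω ∈ LD (canD Ω L)) : ∃ c : κ → Ω, form b ι c = ω := by
  rw [← base_canD hι hx, ← range_lam hι hx] at hω
  obtain ⟨z, rfl⟩ := hω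
  induction z with
  | zero => exact ⟨0, by rw [map_zero]; unfold form; simp⟩
  | add z z' h h' =>
    obtain ⟨c, hc⟩ := h
    obtain ⟨c', hc'⟩ := h'
    exact ⟨c + c', by rw [form_add, hc, hc', map_add]⟩
  | tmul a g =>
    refine ⟨fun j => a * algebraMap F Ω (b.repr g j), ?_⟩
    rw [lam_tmul]
    unfold form
    have h1 : (g : K) = ∑ j, b.repr g j • (b j : K) := by
      have h2 := congrArg (LD (canD F K)).subtype (b.sum_repr g)
      rw [map_sum] at h2
      simp only [map_smul, Submodule.subtype_apply] at h2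
      exact h2.symm
    rw [h1, map_sum, Finset.mul_sum]
    refine Finset.sum_congr rfl fun j _ => ?_
    rw [map_smul, mul_smul, algebraMap_smul, Algebra.smul_def]

/-- **local forms with coefficients in `Ω` orthogonal to the functions of `K` with poles in `S` are the
expansions of one regular form of `L`** -/
theorem exists_global (hι : IsCE Ω ι) (hx : xK Ω L = ι (xK F K)) (S : Finset (Pl F K))
    (t : Pl F K → K) (ht : ∀ P ∈ S, P.v (t P) = exp (-1)) (W : Pl F K → ℕ → Ω)
    (H : ∀ m : ℕ, ∀ f ∈ LD (mS S m), ∑ P ∈ S, ∑ i ∈ Finset.range m,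
      coef P (t P) (-(i : ℤ) - 1) f • W P i = 0) :
    ∃ ω ∈ LD (canD Ω L), ∀ P ∈ S, ∀ i : ℕ,
      W P i = coef (conP hι P) (ι (t P)) i (ω / del Ω L (ι (t P))) := by
  haveI : Module.Finite F (LD (canD F K)) := LD_finite _
  obtain ⟨c, hc⟩ := exists_expan_all (Module.finBasis F (LD (canD F K))) S t ht W H
  refine ⟨form (Module.finBasis F (LD (canD F K))) ι c, form_mem _ hι hx c, fun P hP i => ?_⟩
  rw [coef_form _ hι hx (ht P hP)]
  exact hc P hP i

/-- a regular form is determined by its expansion at one constant place -/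
theorem eq_of_coef (hι : IsCE Ω ι) (hx : xK Ω L = ι (xK F K)) {P : Pl F K} {t : K}
    (ht : P.v t = exp (-1)) {ω ω' : L} (hω : ω ∈ LD (canD Ω L)) (hω' : ω' ∈ LD (canD Ω L))
    (h : ∀ i : ℕ, coef (conP hι P) (ι t) i (ω / del Ω L (ι t)) =
      coef (conP hι P) (ι t) i (ω' / del Ω L (ι t))) : ω = ω' := by
  haveI : Module.Finite F (LD (canD F K)) := LD_finite _
  set b := Module.finBasis F (LD (canD F K)) with hb
  obtain ⟨c, rfl⟩ := exists_form_eq b hι hx hω
  obtain ⟨c', rfl⟩ := exists_form_eq b hι hx hω'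
  obtain ⟨m, hm⟩ := exists_deg_lt (k := F) P
  rw [expan_injective b ht hm (c := c) (c' := c')]
  intro i _
  rw [← coef_form b hι hx ht, ← coef_form b hι hx ht]
  exact h i

end forms

end Crest.Agent.R013.HTb_948
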