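import Mathlib
import Crest.Agent.R013.HTb_948

/-!
# Row 13, D-line (#4158), leaf D-BAD (helper920)

`F` algebraically closed of characteristic `0`, `L` a function field over `F` (948's context).

* `exists_const_of_del` : `del f = 0 → f` constant;
* `bad_const` : for a nonconstant `φ` and `B ≠ 0` there is a finite set of constants outside which
  every place `w` with `φ(w) = c` has `w.v (φ - c) = exp (-1)` and `w.v (B / del φ) = 1`;
* `bad_int` : the same for integers.
-/

set_option autoImplicit false
set_option linter.all false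

namespace Crest.Agent.R013.DBad_920

open Polynomial WithZero Module
open Crest.Agent.R013.RR7_948 Crest.Agent.R013.RR8_948 Crest.Agent.R013.RR9_948
open Crest.Agent.R013.RR11_948 Crest.Agent.R013.RR12_948 Crest.Agent.R013.RR13_948
open Crest.Agent.R013.RR14_948 Crest.Agent.R013.RR19_948
open Crest.Agent.R013.RR26_948 Crest.Agent.R013.RR28_948
open Crest.Agent.R013.GR2_921 (exists_const degP_eq_one)
open Crest.Agent.R013.Car5_700 (v_del_eq v_del_le v_del_le')

variable {F : Type*} [Field F] {L : Type*} [Field L] [Algebra F L] [Algebra (RatFunc F) L]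
  [IsScalarTower F (RatFunc F) L] [FiniteDimensional (RatFunc F) L]

section sep

variable [Algebra.IsSeparable (RatFunc F) L]

theorem exists_pl [IsAlgClosed F] : Nonempty (Pl F L) := by
  obtain ⟨D, hD⟩ := RR19_948.exists_degD_gt (k := F) (K := L) 0
  by_contra hcon
  rw [not_nonempty_iff] at hcon
  have : D = 0 := by ext P; exact hcon.elim P
  rw [this, degD_zero] at hD
  exact lt_irrefl _ hD

/-- the kernel of `del` is the field of constants (characteristic `0`) -/
theorem exists_const_of_del [IsAlgClosed F] [CharZero F] {f : L} (h : del F L f = 0) :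
    ∃ c : F, f = algebraMap F L c := by
  obtain ⟨P⟩ := exists_pl (F := F) (L := L)
  have key : ∀ g : L, g ≠ 0 → del F L g = 0 → P.v g = 1 := by
    intro g hg0 hg
    have h1 := res_dlog' P hg0
    rw [hg, zero_div, map_zero] at h1
    have h2 : divf (k := F) g P = 0 := by exact_mod_cast h1.symm
    rw [v_eq (k := F) hg0, h2, neg_zero, exp_zero]
  by_cases hf0 : f = 0
  · exact ⟨0, by rw [hf0, map_zero]⟩
  have hf1 := key f hf0 h
  obtain ⟨c, hc⟩ := exists_const P hf1.le
  refine ⟨c, ?_⟩
  by_contra hne
  have h3 : f - algebraMap F L c ≠ 0 := sub_ne_zero.mpr hne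
  have h4 := key _ h3 (by rw [map_sub, h, Derivation.map_algebraMap, sub_zero])
  rw [h4] at hc
  exact lt_irrefl _ hc

theorem del_ne_zero_of [IsAlgClosed F] [CharZero F] {f : L}
    (h : ∀ c : F, f ≠ algebraMap F L c) : del F L f ≠ 0 := by
  intro h0
  obtain ⟨c, hc⟩ := exists_const_of_del h0
  exact h c hc

end sep

section main

variable [CharZero F]

theorem finite_ne_canD [Algebra.IsSeparable (RatFunc F) L] {g : L} (hg : g ≠ 0) :
    {w : Pl F L | w.v g ≠ exp (canD F L w)}.Finite := by
  refine ((divf (k := F) g + canD F L).support.finite_toSet).subset ?_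
  intro w hw
  rw [Finset.mem_coe, Finsupp.mem_support_iff, Finsupp.add_apply]
  intro h0
  apply hw
  rw [v_eq (k := F) hg, exp_inj]
  linarith

/-- local form: at a place where `dφ` and `B dX` are generators -/
theorem good_at [Algebra.IsSeparable (RatFunc F) L] {φ B : L} {w : Pl F L}
    (h1 : w.v (del F L φ) = exp (canD F L w)) (h2 : w.v B = exp (canD F L w)) {c : F}
    (hc : w.v (φ - algebraMap F L c) < 1) :
    w.v (φ - algebraMap F L c) = exp (-1) ∧ w.v (B / del F L φ) = 1 := by
  have hd0 : del F L φ ≠ 0 := by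
    intro h0
    rw [h0, map_zero] at h1
    exact exp_ne_zero h1.symm
  have hne : φ - algebraMap F L c ≠ 0 := by
    intro h0
    apply hd0
    rw [sub_eq_zero.mp h0, Derivation.map_algebraMap]
  have h3 := v_del_le' w (φ - algebraMap F L c)
  rw [map_sub, Derivation.map_algebraMap, sub_zero, h1] at h3
  constructor
  · rw [v_eq (k := F) hne] at h3 hc ⊢
    rw [← exp_add, exp_le_exp] at h3
    rw [← exp_zero, exp_lt_exp] at hc
    rw [exp_inj]
    omega
  · rw [map_div₀, h1, h2]
    exact div_self exp_ne_zero

/-- **D-BAD**, constants -/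
theorem bad_const [Algebra.IsSeparable (RatFunc F) L] {φ B : L} (hB : B ≠ 0)
    (hφ : del F L φ ≠ 0) :
    ∃ S : Finset F, ∀ c ∉ S, ∀ w : Pl F L, w.v (φ - algebraMap F L c) < 1 →
      w.v (φ - algebraMap F L c) = exp (-1) ∧ w.v (B / del F L φ) = 1 := by
  classical
  have hfin := (finite_ne_canD (F := F) hφ).union (finite_ne_canD (F := F) hB)
  -- the constant of `φ` at a place
  let val : Pl F L → F := fun w =>
    if h : ∃ c : F, w.v (φ - algebraMap F L c) < 1 then h.choose else 0
  have hval : ∀ (w : Pl F L) (c : F), w.v (φ - algebraMap F L c) < 1 → val w = c := by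
    intro w c hc
    have h : ∃ c : F, w.v (φ - algebraMap F L c) < 1 := ⟨c, hc⟩
    have h1 : val w = h.choose := dif_pos h
    have h2 := h.choose_spec
    rw [← h1] at h2
    by_contra hne
    have h3 : w.v (algebraMap F L (val w - c)) = 1 := w.const _ (sub_ne_zero.mpr hne)
    have h4 : algebraMap F L (val w - c) =
        (φ - algebraMap F L c) - (φ - algebraMap F L (val w)) := by
      rw [map_sub]; ring
    rw [h4] at h3
    have h5 := (Valuation.map_sub w.v (φ - algebraMap F L c) (φ - algebraMap F L (val w)))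
    rw [h3] at h5
    exact absurd h5 (not_le.mpr (max_lt hc h2))
  refine ⟨hfin.toFinset.image val, fun c hc w hw => ?_⟩
  have hcon : w ∉ {w : Pl F L | w.v (del F L φ) ≠ exp (canD F L w)} ∪
      {w : Pl F L | w.v B ≠ exp (canD F L w)} := by
    intro hmem
    apply hc
    rw [Finset.mem_image]
    exact ⟨w, hfin.mem_toFinset.mpr hmem, hval w c hw⟩
  simp only [Set.mem_union, Set.mem_ofPred_eq, not_or, not_not] at hcon
  exact good_at hcon.1 hcon.2 hw

/-- **D-BAD** (#4158): a finite set of bad integers -/
theorem bad_int [Algebra.IsSeparable (RatFunc F) L] {φ B : L} (hB : B ≠ 0)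
    (hφ : del F L φ ≠ 0) :
    ∃ S : Finset ℤ, ∀ n ∉ S, ∀ w : Pl F L, w.v (φ - (n : L)) < 1 →
      w.v (φ - (n : L)) = exp (-1) ∧ w.v (B / del F L φ) = 1 := by
  classical
  obtain ⟨S, hS⟩ := bad_const (F := F) hB hφ
  have hinj : Function.Injective (fun n : ℤ => (n : F)) := Int.cast_injective
  refine ⟨S.preimage (fun n : ℤ => (n : F)) hinj.injOn, fun n hn w hw => ?_⟩
  rw [Finset.mem_preimage] at hn
  have h1 : algebraMap F L (n : F) = (n : L) := map_intCast _ n
  have h2 := hS (n : F) hn w (by rw [h1]; exact hw)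
  rwa [h1] at h2

end main

end Crest.Agent.R013.DBad_920
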