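import Crest.Agent.R013.Desc5_372
import Crest.Agent.R013.HTb_948

/-!
# Row 13, D-line, leaf D-BRIDGE, part 1 (helper920): the canonical derivation and divisor under an
algebraic constant extension

* `CE.del_algebraMap`, `CE.canD_eq : conC hc (canD k K₀) = canD C K`, `CE.mem_LD_canD`;
-/

set_option autoImplicit false
set_option linter.all false

namespace Crest.Agent.R013.DBr_920

open TensorProduct Module Polynomial WithZero
open scoped NNReal
open Crest.Agent.R013.RR7_948 Crest.Agent.R013.RR8_948 Crest.Agent.R013.RR9_948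
open Crest.Agent.R013.RR11_948 Crest.Agent.R013.RR12_948 Crest.Agent.R013.RR13_948
open Crest.Agent.R013.RR14_948
open Crest.Agent.R013.RR18_948 Crest.Agent.R013.RR19_948 Crest.Agent.R013.RR20_948
open Crest.Agent.R013.CntB1_491 Crest.Agent.R013.CntB2_491
open Crest.Agent.R013.Car5_700 (v_del_eq v_del_le v_del_le')
open Crest.Agent.R013.Desc_372 CE

section generic

variable {k C K₀ K : Type*} [Field k] [Field C] [Field K₀] [Field K]
  [Algebra k C] [Algebra k K₀] [Algebra C K] [Algebra K₀ K] [Algebra k K] [IsScalarTower k C K]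
  [IsScalarTower k K₀ K] [h : CE k C K₀ K] [CharZero k] [CharZero C]
  [Algebra (RatFunc k) K₀] [IsScalarTower k (RatFunc k) K₀] [FiniteDimensional (RatFunc k) K₀]
  [Algebra (RatFunc C) K] [IsScalarTower C (RatFunc C) K] [FiniteDimensional (RatFunc C) K]

omit h in
theorem del_algebraMap (hx : xK C K = algebraMap K₀ K (xK k K₀)) (f : K₀) :
    del C K (algebraMap K₀ K f) = algebraMap K₀ K (del k K₀ f) :=
  HTb_948.del_iota (ι := IsScalarTower.toAlgHom k K₀ K) hx f

variable (k C) in
include h in
omit [Algebra (RatFunc k) K₀] [IsScalarTower k (RatFunc k) K₀] [FiniteDimensional (RatFunc k) K₀]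
  [Algebra (RatFunc C) K] [IsScalarTower C (RatFunc C) K] [FiniteDimensional (RatFunc C) K]
  [CharZero C] in
theorem isGalois_C [IsAlgClosed C] : IsGalois k C := by
  haveI := h.alg
  haveI : IsAlgClosure k C := ⟨inferInstance, inferInstance⟩
  haveI : Normal k C := IsAlgClosure.normal k C
  exact {}

/-- the canonical divisor under an algebraic extension of constants -/
theorem canD_eq_resC [Algebra.IsAlgebraic K₀ K] [IsAlgClosed C] (hc : algebraicClosure k K₀ = ⊥)
    (hx : xK C K = algebraMap K₀ K (xK k K₀)) (P : Pl C K) :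
    canD C K P = canD k K₀ (resC k K₀ P) := by
  haveI := isGalois_C k C (K₀ := K₀) (K := K)
  obtain ⟨t, ht⟩ := (resC k K₀ P).surj (exp (-1))
  have h1 := v_del_eq (resC k K₀ P) ht
  rw [resC_v hc] at ht h1
  have h2 := v_del_eq P ht
  rw [del_algebraMap hx, h1, exp_inj] at h2
  exact h2.symm

theorem conC_canD [Algebra.IsAlgebraic K₀ K] [IsAlgClosed C] (hc : algebraicClosure k K₀ = ⊥)
    (hx : xK C K = algebraMap K₀ K (xK k K₀)) :
    haveI := isGalois_C k C (K₀ := K₀) (K := K)
    (conC hc (canD k K₀) : Pl C K →₀ ℤ) = canD C K := by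
  haveI := isGalois_C k C (K₀ := K₀) (K := K)
  ext P
  rw [conC_apply, canD_eq_resC hc hx]

/-- regular forms of `K₀` are regular forms of `K` -/
theorem mem_LD_canD [Algebra.IsAlgebraic K₀ K] [IsAlgClosed C] (hc : algebraicClosure k K₀ = ⊥)
    (hx : xK C K = algebraMap K₀ K (xK k K₀)) {f : K₀} :
    algebraMap K₀ K f ∈ LD (canD C K) ↔ f ∈ LD (canD k K₀) := by
  haveI := isGalois_C k C (K₀ := K₀) (K := K)
  rw [← conC_canD hc hx]
  exact algebraMap_mem_LD_conC hc

end generic

end Crest.Agent.R013.DBr_920
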