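import Crest.Agent.R013.DBr1_920
import Crest.Agent.R013.CAsm2_588
import Crest.Agent.R013.GoodC_669

/-!
# Row 13, D-line, leaf D-BRIDGE, part 2 (helper920): places of `E = K ⊗ C` and places of
`AlgebraicClosure K`

`C` algebraically closed and algebraic over `k`, `[CE k C K E]`, `φ : E →ₐ[K] AlgebraicClosure K`,
`e : Cb k K ≃+* C` with `φ (algebraMap C E c) = e.symm c` (588's `exists_e`).

* `phi_mem_Kgeo`, `exists_preimage`, `range_phi` : the image of `φ` is `Kgeo k K`;
* `exists_level` : finitely many elements of `E` are in one `KC K C₀`;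
* `exists_w` : a place `P` of `AlgebraicClosure K` restricts to `w : Pl C E`;
* `ratUnif` : if `w.v X = exp (-1)` then `RatUnif k K C₁ P (φ X)` for arbitrarily large finite `C₁`.
-/

set_option autoImplicit false
set_option linter.all false

namespace Crest.Agent.R013.DBr_920

open Module WithZero
open scoped NNReal
open Crest.NumberTheoryR.Sect
open Crest.Agent.R013.RR7_948 Crest.Agent.R013.RR8_948 Crest.Agent.R013.RR11_948
open Crest.Agent.R013.RR13_948
open Crest.Agent.R013.Desc_372 Crest.Agent.R013.Desc_372.CE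
open Crest.Agent.R013.Small4_940 (Cb)
open Crest.Agent.R013.Cof2_669 Crest.Agent.R013.Cof5_669 Crest.Agent.R013.GoodC_669

section range

variable {k : Type*} [Field k] {K : Type*} [Field K] [Algebra k K]
  {C : Type*} [Field C] [Algebra k C]
  {E : Type*} [Field E] [Algebra C E] [Algebra K E] [Algebra k E] [IsScalarTower k C E]
  [IsScalarTower k K E] [h : CE k C K E]
  (φ : E →ₐ[K] AlgebraicClosure K) {e : Cb k K ≃+* C}
  (he : ∀ c, φ (algebraMap C E c) = (e.symm c : AlgebraicClosure K))

include h he in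
theorem phi_mem_Kgeo (f : E) : φ f ∈ Kgeo k K := by
  obtain ⟨n, c, g, rfl⟩ := CE.exists_sum k C K E f
  rw [map_sum]
  refine sum_mem fun i _ => ?_
  rw [map_mul, he, φ.commutes]
  exact mul_mem (kb_le_Kgeo (e.symm (c i)).2) ((Kgeo k K).algebraMap_mem _)

omit h in
include he in
theorem exists_preimage {g : AlgebraicClosure K} (hg : g ∈ Kgeo k K) : ∃ f : E, φ f = g := by
  have h1 : Kgeo k K ≤ φ.fieldRange := by
    unfold Kgeo
    rw [IntermediateField.adjoin_le_iff]
    intro c hc
    refine ⟨algebraMap C E (e ⟨c, hc⟩), ?_⟩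
    have h2 := he (e ⟨c, hc⟩)
    rw [RingEquiv.symm_apply_apply] at h2
    exact h2
  exact h1 hg

include h he in
theorem range_phi : Set.range φ = Kgeo k K := by
  ext g
  constructor
  · rintro ⟨f, rfl⟩
    exact phi_mem_Kgeo φ he f
  · exact fun hg => exists_preimage φ he hg

include h he in
/-- finitely many elements live at a finite level -/
theorem exists_level (T : Set E) (hT : T.Finite) :
    ∃ C₀ : IntermediateField k (AlgebraicClosure K), FiniteDimensional k C₀ ∧
      ∀ f ∈ T, φ f ∈ KC K C₀ := by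
  induction T, hT using Set.Finite.induction_on with
  | empty => exact ⟨⊥, inferInstance, fun f hf => hf.elim⟩
  | @insert f T _ _ ih =>
    obtain ⟨C₀, h0, h1⟩ := ih
    obtain ⟨C₁, h2, h3⟩ := exists_C_of_mem (phi_mem_Kgeo φ he f)
    refine ⟨C₀ ⊔ C₁, IntermediateField.finiteDimensional_sup _ _, ?_⟩
    intro g hg
    rcases hg with rfl | hg
    · exact KC_mono le_sup_right h3
    · exact KC_mono le_sup_left (h1 g hg)

end range

section place

variable {k : Type*} [Field k] {K : Type*} [Field K] [Algebra k K]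
  {C : Type*} [Field C] [Algebra k C]
  {E : Type*} [Field E] [Algebra C E] [Algebra K E] [Algebra k E] [IsScalarTower k C E]
  [IsScalarTower k K E] [h : CE k C K E]
  [Algebra (RatFunc C) E] [IsScalarTower C (RatFunc C) E] [FiniteDimensional (RatFunc C) E]
  [Algebra.IsSeparable (RatFunc C) E]
  (φ : E →ₐ[K] AlgebraicClosure K) {e : Cb k K ≃+* C}
  (he : ∀ c, φ (algebraMap C E c) = (e.symm c : AlgebraicClosure K))
  {P : Valuation (AlgebraicClosure K) ℝ≥0} (hP : IsPlace k P)

include he hP in
omit h [Algebra (RatFunc C) E] [IsScalarTower C (RatFunc C) E] [FiniteDimensional (RatFunc C) E]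
  [Algebra.IsSeparable (RatFunc C) E] in
theorem isPlace_comap : IsPlace C (P.comap (φ : E →+* AlgebraicClosure K)) := by
  constructor
  · intro c hc
    rw [Valuation.comap_apply]
    change P (φ (algebraMap C E c)) = 1
    rw [he]
    refine val_const hP (e.symm c).2 ?_
    intro h0
    apply hc
    have h1 : e.symm c = 0 := Subtype.ext h0
    simpa using h1
  · by_contra hcon
    push Not at hcon
    have h1 : ∀ c : K, c ≠ 0 → P (algebraMap K (AlgebraicClosure K) c) = 1 := by
      intro c hc
      have h2 := hcon (algebraMap K E c)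
      rw [Valuation.comap_apply] at h2
      change P (φ (algebraMap K E c)) ≠ 0 → P (φ (algebraMap K E c)) = 1 at h2
      rw [φ.commutes] at h2
      exact h2 ((Valuation.ne_zero_iff _).mpr (by simpa using hc))
    obtain ⟨a, ha0, ha1⟩ := hP.2
    exact ha1 (Places_97.val_eq_one_of_isAlgebraic P h1 ((Valuation.ne_zero_iff _).mp ha0)
      (Algebra.IsIntegral.isIntegral a))

include he hP in
omit h in
/-- **a place of `AlgebraicClosure K` restricts to a place of `E / C`** -/
theorem exists_w : ∃ w : Pl C E, w.v.IsEquiv (P.comap (φ : E →+* AlgebraicClosure K)) :=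
  RR13_948.IsPlace.exists_pl (isPlace_comap φ he hP)

variable {φ} {w : Pl C E} (hw : w.v.IsEquiv (P.comap (φ : E →+* AlgebraicClosure K)))

include hw
omit h [Algebra (RatFunc C) E] [IsScalarTower C (RatFunc C) E] [FiniteDimensional (RatFunc C) E]
  [Algebra.IsSeparable (RatFunc C) E]

theorem w_le_iff (f g : E) : w.v f ≤ w.v g ↔ P (φ f) ≤ P (φ g) := hw f g

theorem w_lt_iff (f g : E) : w.v f < w.v g ↔ P (φ f) < P (φ g) := by
  rw [← not_le, ← not_le, w_le_iff hw]

theorem w_le_one_iff (f : E) : w.v f ≤ 1 ↔ P (φ f) ≤ 1 := by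
  have h1 := w_le_iff hw f 1
  rwa [map_one, map_one, map_one] at h1

theorem w_lt_one_iff (f : E) : w.v f < 1 ↔ P (φ f) < 1 := by
  have h1 := w_lt_iff hw f 1
  rwa [map_one, map_one, map_one] at h1

include he in
/-- the value of a function at the place -/
theorem w_sub_lt_iff (f : E) (c : C) :
    w.v (f - algebraMap C E c) < 1 ↔ P (φ f - (e.symm c : AlgebraicClosure K)) < 1 := by
  rw [w_lt_one_iff hw, map_sub, he]

/-- uniformisers of `w` are uniformisers of `P` on `Kgeo k K` -/
theorem unif_of_w {X : E} (hX : w.v X = exp (-1)) {f : E} (hf : P (φ f) < 1) :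
    P (φ f) ≤ P (φ X) := by
  rw [← w_le_iff hw, hX]
  rw [← w_lt_one_iff hw] at hf
  by_cases h0 : w.v f = 0
  · rw [h0]; exact zero_le
  have h1 := (exp_log h0).symm
  rw [h1] at hf ⊢
  rw [← exp_zero, exp_lt_exp] at hf
  rw [exp_le_exp]
  omega

end place

section rat

variable {k : Type*} [Field k] [CharZero k] {K : Type*} [Field K] [Algebra k K]
  [Algebra (RatFunc k) K] [IsScalarTower k (RatFunc k) K] [FiniteDimensional (RatFunc k) K]
  {C : Type*} [Field C] [Algebra k C]
  {E : Type*} [Field E] [Algebra C E] [Algebra K E] [Algebra k E] [IsScalarTower k C E]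
  [IsScalarTower k K E] [h : CE k C K E]
  {φ : E →ₐ[K] AlgebraicClosure K} {e : Cb k K ≃+* C}
  (he : ∀ c, φ (algebraMap C E c) = (e.symm c : AlgebraicClosure K))
  {P : Valuation (AlgebraicClosure K) ℝ≥0} (hP : IsPlace k P)
  {w : Pl C E} (hw : w.v.IsEquiv (P.comap (φ : E →+* AlgebraicClosure K)))

include he hP hw h in
/-- **rationality at a finite level and the uniformiser** (669's `RatUnif`), for arbitrarily large
levels; given finitely many functions are at that level too -/
theorem ratUnif (hc : algebraicClosure k K = ⊥) {X : E} (hX : w.v X = exp (-1))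
    (C₀ : IntermediateField k (AlgebraicClosure K)) [FiniteDimensional k C₀] (T : Set E)
    (hT : T.Finite) :
    ∃ C₁ : IntermediateField k (AlgebraicClosure K), C₀ ≤ C₁ ∧ FiniteDimensional k C₁ ∧
      RatUnif k K C₁ P (φ X) ∧ ∀ f ∈ T, φ f ∈ KC K C₁ := by
  obtain ⟨C₂, h2, h3⟩ := exists_level φ he (insert X T) (hT.insert X)
  haveI := h2
  haveI : FiniteDimensional k (C₀ ⊔ C₂ : IntermediateField k (AlgebraicClosure K)) :=
    IntermediateField.finiteDimensional_sup _ _
  obtain ⟨C₁, h4, h5, h6, h7⟩ := exists_rational hc hP (C₀ ⊔ C₂)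
  have hmem : ∀ f ∈ insert X T, φ f ∈ KC K C₁ := fun f hf =>
    KC_mono (le_sup_right.trans h4) (h3 f hf)
  refine ⟨C₁, le_sup_left.trans h4, h5, ⟨hP, h6, hmem X (Set.mem_insert _ _), ?_, ?_⟩,
    fun f hf => hmem f (Set.mem_insert_of_mem _ hf)⟩
  · rw [← w_lt_one_iff hw, hX, ← exp_zero, exp_lt_exp]
    norm_num
  · intro g hg hg1
    obtain ⟨f, rfl⟩ := exists_preimage φ he (KC_le_Kgeo C₁ hg)
    exact unif_of_w hw hX hg1

end rat

end Crest.Agent.R013.DBr_920
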