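import Crest.Agent.R013.Good5_940

/-!
# R013 / D-LINE, D-FRD: descent of bounded quotients to a locally compact subfield   (helper381)

* `exists_functional` : ultrametric Hahn-Banach over a proper (locally compact) field `D`: for `v ≠ 0`
  there is a `D`-linear `λ : V → D`, `λ v = 1`, `‖λ x‖ ≤ ‖x‖ / ‖v‖`.
* `frB_descent` : a Laurent series with coefficients in a proper subfield `D` of `F` which is a
  quotient of power series over `F` bounded at `R` is a quotient of power series over `D` bounded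
  at `R`.
-/

set_option autoImplicit false
set_option linter.unusedSectionVars false

namespace Crest.Agent.R013.FrD_381

open PowerSeries Filter
open scoped NNReal Topology

section HB

variable {D V : Type*} [NontriviallyNormedField D] [ProperSpace D] [IsUltrametricDist D]
  [NormedAddCommGroup V] [NormedSpace D V] [IsUltrametricDist V]

/-- one-step extension: the value at the new vector -/
theorem exists_value {M : ℝ} (hM : 0 ≤ M) (q : V →ₗ.[D] D) (hq : ∀ x : q.domain, ‖q x‖ ≤ M * ‖(x : V)‖)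
    (y : V) : ∃ c : D, ∀ x : q.domain, ‖c - q x‖ ≤ M * ‖y - x‖ := by
  let B : q.domain → Set D := fun x => Metric.closedBall (q x) (M * ‖y - x‖)
  have hne : (⋂ x, B x).Nonempty := by
    refine IsCompact.nonempty_iInter_of_directed_nonempty_isCompact_isClosed B ?_ ?_ ?_ ?_
    · intro x x'
      -- the ball of smaller radius is contained in the other one
      have key : ∀ x x' : q.domain, ‖y - x‖ ≤ ‖y - x'‖ → B x ⊆ B x' := by
        intro x x' h c hc
        rw [Metric.mem_closedBall, dist_eq_norm] at hc ⊢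
        have h1 : ‖q x - q x'‖ ≤ M * ‖y - x'‖ := by
          rw [← LinearPMap.map_sub]
          refine (hq _).trans ?_
          gcongr
          have h2 : ((x - x' : q.domain) : V) = (y - x') - (y - x) := by
            rw [Submodule.coe_sub]; abel
          rw [h2, sub_eq_add_neg (y - (x' : V))]
          refine (IsUltrametricDist.norm_add_le_max _ _).trans (max_le le_rfl ?_)
          rw [norm_neg]; exact h
        have h3 : c - q x' = (c - q x) + (q x - q x') := by ring
        rw [h3]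
        refine (IsUltrametricDist.norm_add_le_max _ _).trans (max_le ?_ h1)
        exact hc.trans (by gcongr)
      rcases le_total ‖y - x‖ ‖y - x'‖ with h | h
      · exact ⟨x, subset_rfl, key x x' h⟩
      · exact ⟨x', key x' x h, subset_rfl⟩
    · intro x
      exact ⟨q x, Metric.mem_closedBall_self (by positivity)⟩
    · intro x
      exact isCompact_closedBall _ _
    · intro x
      exact Metric.isClosed_closedBall
  obtain ⟨c, hc⟩ := hne
  refine ⟨c, fun x => ?_⟩
  have h1 := Set.mem_iInter.mp hc x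
  rwa [Metric.mem_closedBall, dist_eq_norm] at h1

theorem step {M : ℝ} (hM : 0 ≤ M) (q : V →ₗ.[D] D) (hq : ∀ x : q.domain, ‖q x‖ ≤ M * ‖(x : V)‖)
    (hdom : q.domain ≠ ⊤) : ∃ r, q < r ∧ ∀ x : r.domain, ‖r x‖ ≤ M * ‖(x : V)‖ := by
  obtain ⟨y, -, hy⟩ : ∃ y ∈ ⊤, y ∉ q.domain := SetLike.exists_of_lt (lt_top_iff_ne_top.2 hdom)
  obtain ⟨c, hc⟩ := exists_value hM q hq y
  refine ⟨q.supSpanSingleton y c hy, ?_, ?_⟩
  · refine lt_iff_le_not_ge.2 ⟨q.left_le_sup _ _, fun H => ?_⟩
    replace H := LinearPMap.domain_mono.monotone H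
    rw [LinearPMap.domain_supSpanSingleton, sup_le_iff, Submodule.span_le,
      Set.singleton_subset_iff] at H
    exact hy H.2
  · rintro ⟨z, hz⟩
    rcases Submodule.mem_sup.1 hz with ⟨x, hx, y', hy', rfl⟩
    rcases Submodule.mem_span_singleton.1 hy' with ⟨t, rfl⟩
    rw [LinearPMap.supSpanSingleton_apply_mk _ _ _ _ _ hx]
    simp only [RingHom.id_apply]
    rcases eq_or_ne t 0 with rfl | ht
    · rw [zero_smul, zero_smul, add_zero, add_zero]
      exact hq ⟨x, hx⟩
    · have h1 := hc (-(t⁻¹ • (⟨x, hx⟩ : q.domain)))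
      rw [LinearPMap.map_neg, sub_neg_eq_add, LinearPMap.map_smul] at h1
      have h2 : q ⟨x, hx⟩ + t • c = t • (c + t⁻¹ • q ⟨x, hx⟩) := by
        rw [smul_add, smul_smul, mul_inv_cancel₀ ht, one_smul, add_comm]
      have h3 : x + t • y = t • (y - ((-(t⁻¹ • (⟨x, hx⟩ : q.domain)) : q.domain) : V)) := by
        rw [Submodule.coe_neg, sub_neg_eq_add, Submodule.coe_smul, smul_add, smul_smul,
          mul_inv_cancel₀ ht, one_smul, add_comm]
      rw [h2, h3, norm_smul, norm_smul]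
      calc ‖t‖ * ‖c + t⁻¹ • q ⟨x, hx⟩‖ ≤ ‖t‖ * (M * ‖y - ((-(t⁻¹ • (⟨x, hx⟩ : q.domain)) : q.domain) : V)‖) := by
            gcongr
        _ = _ := by ring

/-- **ultrametric Hahn-Banach over a proper field** -/
theorem exists_functional (v : V) (hv : v ≠ 0) :
    ∃ l : V →ₗ[D] D, l v = 1 ∧ ∀ x, ‖l x‖ ≤ ‖v‖⁻¹ * ‖x‖ := by
  set M : ℝ := ‖v‖⁻¹ with hMdef
  have hM : 0 ≤ M := by positivity
  have hv0 : ‖v‖ ≠ 0 := norm_ne_zero_iff.mpr hv
  let S : Set (V →ₗ.[D] D) := {q | ∀ x : q.domain, ‖q x‖ ≤ M * ‖(x : V)‖}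
  let q0 : V →ₗ.[D] D := LinearPMap.mkSpanSingleton (K := D) (L := D) (σ := RingHom.id D) v (1 : D) hv
  have hq0 : q0 ∈ S := by
    rintro ⟨x, hx⟩
    obtain ⟨t, rfl⟩ := Submodule.mem_span_singleton.mp hx
    rw [LinearPMap.mkSpanSingleton'_apply]
    simp only [RingHom.id_apply, smul_eq_mul, mul_one]
    rw [norm_smul, hMdef]
    exact le_of_eq (by field_simp)
  have hSc : ∀ c, c ⊆ S → IsChain (· ≤ ·) c → ∀ y ∈ c, ∃ ub ∈ S, ∀ z ∈ c, z ≤ ub := by
    intro c hcs c_chain y hy
    have cne : c.Nonempty := ⟨y, hy⟩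
    have hcd : DirectedOn (· ≤ ·) c := c_chain.directedOn
    refine ⟨LinearPMap.sSup c hcd, ?_, fun _ ↦ LinearPMap.le_sSup hcd⟩
    rintro ⟨x, hx⟩
    rcases LinearPMap.mem_domain_sSup_iff cne hcd |>.mp hx with ⟨f, hfc, hfx⟩
    have hle : f ≤ LinearPMap.sSup c hcd := LinearPMap.le_sSup _ hfc
    have h1 : f ⟨x, hfx⟩ = LinearPMap.sSup c hcd ⟨x, hx⟩ := hle.2 rfl
    rw [← h1]
    exact hcs hfc ⟨x, hfx⟩
  obtain ⟨q, hpq, hqs⟩ := zorn_le_nonempty₀ S hSc q0 hq0
  have hqS : q ∈ S := hqs.prop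
  have htop : q.domain = ⊤ := by
    by_contra hcon
    obtain ⟨r, hr1, hr2⟩ := step hM q hqS hcon
    exact absurd (hqs.le_of_ge (y := r) hr2 hr1.le) (not_le_of_gt hr1)
  have hmem : ∀ x : V, x ∈ q.domain := fun x => by rw [htop]; exact Submodule.mem_top
  refine ⟨{ toFun := fun x => q ⟨x, hmem x⟩, map_add' := ?_, map_smul' := ?_ }, ?_, ?_⟩
  · intro x y
    exact q.map_add ⟨x, hmem x⟩ ⟨y, hmem y⟩
  · intro t x
    exact q.map_smul t ⟨x, hmem x⟩
  · show q ⟨v, hmem v⟩ = 1
    have h1 : q0 ⟨v, Submodule.mem_span_singleton_self v⟩ = q ⟨v, hmem v⟩ := hpq.2 rfl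
    rw [← h1]
    exact LinearPMap.mkSpanSingleton_apply D D hv 1
  · intro x
    exact hqS ⟨x, hmem x⟩

end HB

section descent

open Crest.Agent.R013.KAS2_940 (Bd)
open Crest.Agent.R013.KAS3_940 Crest.Agent.R013.Small3_940
open Crest.Agent.R013.Puis_702 (exists_pow_mul)

variable {F : Type*} [NontriviallyNormedField F] [IsUltrametricDist F]

/-- a bounded `D`-linear projection of `F` onto the subfield `D` -/
theorem exists_proj (D : Subfield F) [ProperSpace D] (hD : ∃ a ∈ D, 1 < ‖a‖) {v : F} (hv : v ≠ 0) :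
    ∃ l : F →+ F, (∀ x, l x ∈ D) ∧ (∀ d ∈ D, ∀ x, l (d * x) = d * l x) ∧ l v = 1 ∧
      ∀ x, ‖l x‖ ≤ ‖v‖⁻¹ * ‖x‖ := by
  let nn : NontriviallyNormedField D :=
    { (inferInstance : NormedField D) with
      non_trivial := by
        obtain ⟨a, ha, h1⟩ := hD
        exact ⟨⟨a, ha⟩, h1⟩ }
  let _ : NormedSpace D F :=
    { (inferInstance : Module D F) with
      norm_smul_le := fun a b => by
        rw [Subfield.smul_def, smul_eq_mul, norm_mul]
        exact le_rfl }
  obtain ⟨l, hl1, hl2⟩ := exists_functional (D := D) v hv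
  refine ⟨(D.subtype : D →+* F).toAddMonoidHom.comp l.toAddMonoidHom, fun x => (l x).2, ?_, ?_,
    fun x => hl2 x⟩
  · intro d hd x
    have h1 := l.map_smul ⟨d, hd⟩ x
    rw [Subfield.smul_def, smul_eq_mul, smul_eq_mul] at h1
    exact congrArg (Subtype.val : D → F) h1
  · exact congrArg (Subtype.val : D → F) hl1

/-- **frB descent** -/
theorem frB_descent (D : Subfield F) [ProperSpace D] (hD : ∃ a ∈ D, 1 < ‖a‖) {R : ℝ} (hR : 0 < R)
    {f : LaurentSeries F} (hf : ∀ i, f.coeff i ∈ D) (h : f ∈ frB (⊤ : Subfield F) hR) :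
    f ∈ frB D hR := by
  obtain ⟨a, ⟨-, Ba, hBa⟩, b, ⟨-, Bb, hBb⟩, hb0, hab⟩ := h
  obtain ⟨j, hj⟩ : ∃ j, coeff j b ≠ 0 := by
    by_contra hcon
    push Not at hcon
    exact hb0 (PowerSeries.ext fun n => by rw [hcon, map_zero])
  obtain ⟨l, hlD, hlin, hl1, hlb⟩ := exists_proj D hD hj
  obtain ⟨N, hN⟩ := exists_pow_mul f
  obtain ⟨g, hg⟩ := hN N le_rfl
  have hg' : toL F (X ^ N) * f = toL F g := hg
  have hgD : ∀ n, coeff n g ∈ D := by
    intro n
    have h1 : (toL F g).coeff (n : ℤ) = coeff n g := HahnSeries.ofPowerSeries_apply_coeff _ _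
    rw [← h1, ← hg', toL, map_pow, HahnSeries.ofPowerSeries_X, HahnSeries.single_pow]
    have h2 : (N • (1 : ℤ)) = (N : ℤ) := by simp
    rw [h2, one_pow, HahnSeries.coeff_single_mul, one_mul]
    exact hf _
  have hgb : g * b = X ^ N * a := by
    apply HahnSeries.ofPowerSeries_injective (Γ := ℤ)
    show toL F (g * b) = toL F (X ^ N * a)
    rw [map_mul, map_mul, ← hg', ← hab]; ring
  let T : F⟦X⟧ → F⟦X⟧ := fun w => PowerSeries.mk fun n => l (coeff n w)
  have hT : ∀ w n, coeff n (T w) = l (coeff n w) := fun w n => coeff_mk _ _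
  have hTg : g * T b = X ^ N * T a := by
    ext n
    have h1 := congrArg (fun w => l (coeff n w)) hgb
    simp only [coeff_mul, map_sum] at h1 ⊢
    have h2 : ∀ x ∈ Finset.HasAntidiagonal.antidiagonal n, l (coeff x.1 g * coeff x.2 b) =
        coeff x.1 g * coeff x.2 (T b) := by
      intro x _
      rw [hT, hlin _ (hgD _)]
    have h3 : ∀ x ∈ Finset.HasAntidiagonal.antidiagonal n, l (coeff x.1 (X ^ N : F⟦X⟧) * coeff x.2 a) =
        coeff x.1 (X ^ N : F⟦X⟧) * coeff x.2 (T a) := by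
      intro x _
      rw [hT, hlin]
      rw [coeff_X_pow]
      split_ifs
      · exact one_mem _
      · exact zero_mem _
    rw [Finset.sum_congr rfl h2, Finset.sum_congr rfl h3] at h1
    exact h1
  have hbd : ∀ w B, Bd R B w → Bd R (‖coeff j b‖⁻¹ * B) (T w) := by
    intro w B hB n
    rw [hT]
    have h1 := hlb (coeff n w)
    calc ‖l (coeff n w)‖ * R ^ n ≤ (‖coeff j b‖⁻¹ * ‖coeff n w‖) * R ^ n := by gcongr
      _ = ‖coeff j b‖⁻¹ * (‖coeff n w‖ * R ^ n) := by ring
      _ ≤ _ := by gcongr; exact hB n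
  refine ⟨T a, ⟨fun n => by rw [hT]; exact hlD _, _, hbd a Ba hBa⟩, T b,
    ⟨fun n => by rw [hT]; exact hlD _, _, hbd b Bb hBb⟩, ?_, ?_⟩
  · intro h0
    have h1 := hT b j
    rw [h0, map_zero, hl1] at h1
    exact zero_ne_one h1
  · have hX : toL F (X ^ N) ≠ 0 := by
      rw [ne_eq, map_eq_zero_iff _ HahnSeries.ofPowerSeries_injective]
      exact pow_ne_zero _ X_ne_zero
    apply mul_left_cancel₀ hX
    rw [← mul_assoc, hg', ← map_mul, ← map_mul, hTg]

end descent

end Crest.Agent.R013.FrD_381
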