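import Crest.Agent.R013.DLoc4_381
import Crest.Agent.R013.FrD_381
import Crest.Agent.R013.GoodC_669
import Crest.Agent.R013.Cof10_669

/-!
# R013 / D-LINE, leaf D-LOC, part D: the finite level   (helper381)

`P` a place of `Kb = AlgebraicClosure K`, rational over the finite extension `C₀` of `k`, `x ∈ K C₀` a
uniformiser (669's `RatUnif`); `J` its expansion on `Kgeo = K k̄`, all values being quotients of power
series over `F` bounded at `R`.  `level` : from the circle theorem `DLoc3_381.core` to the clauses of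
`GoodAt` / `GoodC`, with constants in a finite extension `C₁` of `k` and the SAME radius `R`.
-/

set_option autoImplicit false
set_option linter.unusedSectionVars false
set_option maxHeartbeats 1000000

namespace Crest.Agent.R013.DLoc5_381

open PowerSeries Filter
open scoped NNReal Topology
open Crest.NumberTheoryR.Sect
open Crest.Agent.R013.KAS2_940 (Bd bd_zero)
open Crest.Agent.R013.KAS2_940
open Crest.Agent.R013.KAS3_940 Crest.Agent.R013.Good1_940 Crest.Agent.R013.Gl946
open Crest.Agent.R013.Good3_940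
open Crest.Agent.R013.Small2_940 Crest.Agent.R013.Small3_940 Crest.Agent.R013.Small4_940
open Crest.Agent.R013.Small5_940 Crest.Agent.R013.Small6_940 Crest.Agent.R013.Good5_940
open Crest.Agent.R013.LemD_323 (shift coeff_shift)
open Crest.Agent.R013.Puis_702 (mapL coeff_mapL)
open Crest.Agent.R013.SE_669 Crest.Agent.R013.CGood_588 Crest.Agent.R013.GoodP_797
open Crest.Agent.R013.GoodC_669 Crest.Agent.R013.Cof1_669 Crest.Agent.R013.Cof2_669
open Crest.Agent.R013.Cof5_669 Crest.Agent.R013.Cof10_669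
open Crest.Agent.R013.DLoc1_381 Crest.Agent.R013.DLoc4_381

universe u uF

section basic

variable {k : Type*} [Field k] {K : Type*} [Field K] [Algebra k K]

local notation "Kb" => AlgebraicClosure K

variable (k K) in
/-- the constants in `K k̄` -/
noncomputable def iY : Cb k K →+* Kgeo k K :=
  (algebraMap (Cb k K) Kb).codRestrict (Kgeo k K) fun c => IntermediateField.subset_adjoin K _ c.2

@[simp] theorem coe_iY (c : Cb k K) : ((iY k K c : Kgeo k K) : Kb) = c := rfl

theorem shift_zero_left {F : Type*} [NontriviallyNormedField F] (f : F⟦X⟧) : shift (0 : F) f = f := by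
  ext l
  rw [coeff_shift, tsum_eq_single 0]
  · simp
  · intro n hn
    rw [zero_pow hn, mul_zero]

/-- a rational place of `K/k` with its uniformiser -/
theorem ratUnif_of_rational {P : Valuation Kb ℝ≥0} {x : K}
    (hP : IsRationalPlace k K (P.comap (algebraMap K Kb)))
    (hx : IsUniformizerAt (P.comap (algebraMap K Kb)) x) :
    RatUnif k K (⊥ : IntermediateField k Kb) P (algebraMap K Kb x) := by
  have hK : ∀ g ∈ KC K (⊥ : IntermediateField k Kb), ∃ b : K, algebraMap K Kb b = g := by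
    intro g hg
    have h1 : KC K (⊥ : IntermediateField k Kb) ≤ ⊥ := by
      unfold KC
      rw [IntermediateField.adjoin_le_iff]
      intro c hc
      obtain ⟨a, rfl⟩ := IntermediateField.mem_bot.mp hc
      rw [IsScalarTower.algebraMap_apply k K Kb]
      exact (⊥ : IntermediateField K Kb).algebraMap_mem _
    exact IntermediateField.mem_bot.mp (h1 hg)
  refine ⟨?_, ?_, ?_, hx.1, ?_⟩
  · refine ⟨fun c hc => ?_, ?_⟩
    · have := hP.1.1 c hc
      exact this
    · obtain ⟨b, hb0, hb1⟩ := hP.1.2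
      exact ⟨algebraMap K Kb b, hb0, hb1⟩
  · intro g hg hg1
    obtain ⟨b, rfl⟩ := hK g hg
    obtain ⟨c, hc⟩ := hP.2 b hg1
    refine ⟨algebraMap k Kb c, (⊥ : IntermediateField k Kb).algebraMap_mem c, ?_⟩
    rw [Valuation.comap_apply, map_sub, ← IsScalarTower.algebraMap_apply] at hc
    exact hc
  · exact (KC K (⊥ : IntermediateField k Kb)).algebraMap_mem x
  · intro g hg hg1
    obtain ⟨b, rfl⟩ := hK g hg
    exact hx.2 b hg1

variable [CharZero k] [Algebra (RatFunc k) K] [IsScalarTower k (RatFunc k) K]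
  [FiniteDimensional (RatFunc k) K]

/-- on `K k̄` the place `P` is rational over `k̄` with uniformiser `x` -/
theorem ru_Y (hc : algebraicClosure k K = ⊥) {C₀ : IntermediateField k Kb}
    [FiniteDimensional k C₀] {P : Valuation Kb ℝ≥0} {x : Kb} (h : RatUnif k K C₀ P x)
    (hx : x ∈ Kgeo k K) :
    RU (iY k K) (P.comap (algebraMap (Kgeo k K) Kb)) ⟨x, hx⟩ where
  rat a ha := by
    obtain ⟨C, hC, haC⟩ := exists_C_of_mem a.2
    obtain ⟨C₁, hCC₁, hC₁, hrat, -⟩ := exists_rational hc h.place C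
    obtain ⟨c, hcC, hcP⟩ := hrat a (KC_mono hCC₁ haC) ha
    exact ⟨⟨c, le_kb C₁ hcC⟩, hcP⟩
  lt_one := h.lt_one
  unif a ha := by
    rcases eq_or_ne a 0 with rfl | ha0
    · rw [map_zero]; exact zero_le
    obtain ⟨C, hC, haC⟩ := exists_C_of_mem a.2
    have hf := finite_KC C
    have hun : UnrAt K P (KC K C : Set Kb) := unrAt_of_le_M (KC_le_M C) h.place
    obtain ⟨b, hb⟩ := hun a haC (fun h => ha0 (Subtype.ext h))
    have h1 : P (a : Kb) < 1 := ha
    show P (a : Kb) ≤ P x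
    rw [hb] at h1 ⊢
    exact h.unif _ ((KC K C₀).algebraMap_mem b) h1
  ne := by
    intro h0
    have hx0 : x = 0 := congrArg Subtype.val h0
    have : Algebra.IsAlgebraic (KC K C₀) Kb := Algebra.IsAlgebraic.tower_top (K := K) (KC K C₀)
    have : IsScalarTower k (KC K C₀) Kb := tower_kLb (KC K C₀)
    obtain ⟨⟨b, hbm⟩, hb0, hb1⟩ := (Unr3_957.isPlace_comap (F := KC K C₀) h.place).2
    have hb0' : P b ≠ 0 := hb0
    have hb1' : P b ≠ 1 := hb1
    have key : ∀ g ∈ KC K C₀, P g < 1 → P g = 0 := by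
      intro g hg hg1
      have h2 := h.unif g hg hg1
      rw [hx0, map_zero] at h2
      exact le_antisymm h2 zero_le
    rcases lt_or_gt_of_ne hb1' with h2 | h2
    · exact hb0' (key b hbm h2)
    · have h3 : P b⁻¹ < 1 := by
        rw [map_inv₀]
        exact inv_lt_one_of_one_lt₀ h2
      have h4 := key b⁻¹ (inv_mem hbm) h3
      rw [map_inv₀, _root_.inv_eq_zero] at h4
      exact hb0' h4

end basic

section proper

variable {p : ℕ} [hpF : Fact p.Prime] {k : Type*} [Field k] [CharZero k] [Algebra ℚ_[p] k]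
  [FiniteDimensional ℚ_[p] k] {K : Type*} [Field K] [Algebra k K]
  [Algebra (RatFunc k) K] [IsScalarTower k (RatFunc k) K] [FiniteDimensional (RatFunc k) K]
  {F : Type*} [NontriviallyNormedField F] [IsUltrametricDist F]

local notation "Kb" => AlgebraicClosure K

theorem exists_gt_one_DC {jC : Cb k K →+* F}
    (hjn : ∀ a : ℚ_[p], ‖jC (algebraMap k (Cb k K) (algebraMap ℚ_[p] k a))‖ = ‖a‖)
    (C : IntermediateField k Kb) : ∃ a ∈ DC jC C, 1 < ‖a‖ := by
  refine ⟨jC (algebraMap k (Cb k K) (algebraMap ℚ_[p] k (p : ℚ_[p])⁻¹)), ?_, ?_⟩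
  · exact mem_DC.mpr ⟨_, C.algebraMap_mem _, rfl⟩
  · rw [hjn, norm_inv, Padic.norm_p, inv_inv]
    exact_mod_cast hpF.out.one_lt

/-- the constants of a finite level are locally compact -/
theorem proper_DC {jC : Cb k K →+* F}
    (hjn : ∀ a : ℚ_[p], ‖jC (algebraMap k (Cb k K) (algebraMap ℚ_[p] k a))‖ = ‖a‖)
    (C : IntermediateField k Kb) [FiniteDimensional k C] : ProperSpace (DC jC C) := by
  let φ : ℚ_[p] →+* DC jC C :=
    ((jC.comp (algebraMap k (Cb k K))).comp (algebraMap ℚ_[p] k)).codRestrict (DC jC C)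
      fun a => mem_DC.mpr ⟨_, C.algebraMap_mem _, rfl⟩
  let iA : Algebra ℚ_[p] (DC jC C) := φ.toAlgebra
  let iN : NormedSpace ℚ_[p] (DC jC C) :=
    { iA.toModule with
      norm_smul_le := fun a b => by
        rw [Algebra.smul_def, norm_mul]
        have h1 : ‖algebraMap ℚ_[p] (DC jC C) a‖ = ‖a‖ := hjn a
        rw [h1] }
  have hint : ∀ c ∈ C, IsIntegral k c := fun c hc => by
    have h1 : IsIntegral k (⟨c, hc⟩ : C) := Algebra.IsIntegral.isIntegral _
    exact h1.map (IsScalarTower.toAlgHom k C Kb)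
  let iQ : Algebra ℚ_[p] C := ((algebraMap k C).comp (algebraMap ℚ_[p] k)).toAlgebra
  have iT : IsScalarTower ℚ_[p] k C := IsScalarTower.of_algebraMap_eq (fun _ => rfl)
  have : FiniteDimensional ℚ_[p] C := FiniteDimensional.trans ℚ_[p] k C
  let l : C →ₗ[ℚ_[p]] (DC jC C) :=
    { toFun := fun c => ⟨jC ⟨c, mem_algebraicClosure_iff.mpr
        (isAlgebraic_iff_isIntegral.mpr (hint c c.2))⟩, mem_DC.mpr ⟨_, c.2, rfl⟩⟩
      map_add' := fun a b => by
        apply Subtype.ext
        show jC _ = jC _ + jC _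
        rw [← map_add]; rfl
      map_smul' := fun a b => by
        apply Subtype.ext
        show jC _ = jC _ * jC _
        rw [← map_mul]
        congr 1 }
  have hl : Function.Surjective l := by
    rintro ⟨a, ha⟩
    obtain ⟨c, hc, rfl⟩ := mem_DC.mp ha
    exact ⟨⟨c, hc⟩, rfl⟩
  have hfin : FiniteDimensional ℚ_[p] (DC jC C) := Module.Finite.of_surjective l hl
  exact FiniteDimensional.proper ℚ_[p] (DC jC C)

end proper

section level

variable {p : ℕ} [hpF : Fact p.Prime] {k : Type*} [Field k] [CharZero k] [Algebra ℚ_[p] k]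
  [FiniteDimensional ℚ_[p] k] {K : Type u} [Field K] [Algebra k K]
  [Algebra (RatFunc k) K] [IsScalarTower k (RatFunc k) K] [FiniteDimensional (RatFunc k) K]
  {F : Type uF} [NontriviallyNormedField F] [IsUltrametricDist F] [CompleteSpace F] [CharZero F]
  [Algebra ℚ F]

local notation "Kb" => AlgebraicClosure K

/-- the coefficients of the expansions of `K` lie in the finite level `C₀` -/
theorem coeff_mem_level {C₀ : IntermediateField k Kb} [FiniteDimensional k C₀]
    {P : Valuation Kb ℝ≥0} {x : Kb} (hRU : RatUnif k K C₀ P x) {hxY : x ∈ Kgeo k K}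
    (hru : RU (iY k K) (P.comap (algebraMap (Kgeo k K) Kb)) ⟨x, hxY⟩)
    {J : Kgeo k K →+* LaurentSeries (Cb k K)}
    (hJ : IsExp (iY k K) (P.comap (algebraMap (Kgeo k K) Kb)) ⟨x, hxY⟩ J) {f : Kgeo k K}
    (hf : (f : Kb) ∈ KC K C₀) (n : ℤ) : (((J f).coeff n : Cb k K) : Kb) ∈ C₀ := by
  let L : Subfield (Kgeo k K) := (KC K C₀).toSubfield.comap (algebraMap (Kgeo k K) Kb)
  let D : Subfield (Cb k K) := C₀.toSubfield.comap (algebraMap (Cb k K) Kb)
  refine hJ.coeff_mem hru L D hRU.mem (fun c hc => le_KC hc) ?_ (a := f) hf n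
  intro a ha ha1
  obtain ⟨c, hc, hc1⟩ := hRU.rat a ha ha1
  exact ⟨⟨c, le_kb C₀ hc⟩, hc, hc1⟩

/-- **the expansions of `K` are quotients of bounded series over every finite level `C ≥ C₀`** -/
theorem frB_level {jC : Cb k K →+* F}
    (hjn : ∀ a : ℚ_[p], ‖jC (algebraMap k (Cb k K) (algebraMap ℚ_[p] k a))‖ = ‖a‖)
    {C₀ : IntermediateField k Kb} [FiniteDimensional k C₀]
    {P : Valuation Kb ℝ≥0} {x : Kb} (hRU : RatUnif k K C₀ P x) {hxY : x ∈ Kgeo k K}
    (hru : RU (iY k K) (P.comap (algebraMap (Kgeo k K) Kb)) ⟨x, hxY⟩)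
    {J : Kgeo k K →+* LaurentSeries (Cb k K)}
    (hJ : IsExp (iY k K) (P.comap (algebraMap (Kgeo k K) Kb)) ⟨x, hxY⟩ J)
    {R : ℝ} (hR : 0 < R) (hYR : ∀ z : Kgeo k K, mapL jC (J z) ∈ frB (⊤ : Subfield F) hR)
    {C : IntermediateField k Kb} [FiniteDimensional k C] (hC : C₀ ≤ C) {f : Kgeo k K}
    (hf : (f : Kb) ∈ KC K C₀) : mapL jC (J f) ∈ frB (DC jC C) hR := by
  have := proper_DC (p := p) hjn C
  refine FrD_381.frB_descent (DC jC C) (exists_gt_one_DC (p := p) hjn C) hR (fun i => ?_) (hYR f)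
  rw [coeff_mapL]
  exact mem_DC.mpr ⟨_, hC (coeff_mem_level hRU hru hJ hf i), rfl⟩

/-- **D-LOC, final form.** -/
theorem level {jC : Cb k K →+* F}
    (hjn : ∀ a : ℚ_[p], ‖jC (algebraMap k (Cb k K) (algebraMap ℚ_[p] k a))‖ = ‖a‖)
    (hjd : DenseRange jC)
    {C₀ : IntermediateField k Kb} [FiniteDimensional k C₀]
    {P : Valuation Kb ℝ≥0} {x : Kb} (hRU : RatUnif k K C₀ P x) {hxY : x ∈ Kgeo k K}
    (hru : RU (iY k K) (P.comap (algebraMap (Kgeo k K) Kb)) ⟨x, hxY⟩)
    {J : Kgeo k K →+* LaurentSeries (Cb k K)}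
    (hJ : IsExp (iY k K) (P.comap (algebraMap (Kgeo k K) Kb)) ⟨x, hxY⟩ J)
    {R : ℝ} (hR : 0 < R) (hYR : ∀ z : Kgeo k K, mapL jC (J z) ∈ frB (⊤ : Subfield F) hR)
    {r : ℕ} {S : Set (MvPolynomial (Option (Fin r)) ℤ)} (hS : GoodS.{u} p S)
    {om H eta : F⟦X⟧} {D CH : ℝ} {n : ℕ} {q c : F} (hq : ‖q‖ < R) (hc0 : c ≠ 0) (hcR : ‖c‖ < R)
    (hom : Bd R D om) (hK : Kas.{uF} p S (shift q om) R n c)
    (hH : Bd R CH H) (heta : Bd R (‖(p : F)‖ ^ (n + 1) / R) eta) (hH0 : H ≠ 0)
    (hHom : d⁄dX F H = (om + eta) * H) {h : Kgeo k K}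
    {a b : F⟦X⟧} {Ba Bb : ℝ} (ha : Bd R Ba a) (hb : Bd R Bb b) (ha' : a ≠ 0) (hb' : b ≠ 0)
    (hab : mapL jC (J h) * toL F (b ^ p ^ (n + 1)) = toL F (H * a ^ p ^ (n + 1)))
    {y1 : Kb} (hy1 : y1 ^ p ^ (n + 1) = h)
    {η : ℝ≥0} {π : Cb k K} (hqπ : ‖q‖ < η * ‖jC π‖) (hcπ : ‖c‖ < η * ‖jC π‖)
    (hπR : ‖jC π‖ < η * R) :
    ∃ v : Valuation Kb ℝ≥0, (∀ c : Cb k K, v c = ‖jC c‖₊) ∧ ExtendsPadicNorm k Kb p v ∧
      (∀ (f : Kgeo k K) (a : F⟦X⟧) (B : ℝ), Bd R B a → mapL jC (J f) = toL F a →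
        (v f : ℝ) ≤ B) ∧
      (∀ (f : Kgeo k K) (a : F⟦X⟧) (a0 : F) (B : ℝ), Bd R B (a - C a0) → B < ‖a0‖ →
        mapL jC (J f) = toL F a → v f = ‖a0‖₊) ∧
      (π : Kb) ≠ 0 ∧ v π < η * ⟨R, hR.le⟩ ∧
      ∃ (C₁ : IntermediateField k Kb) (q1 c1 : Kb), C₀ ≤ C₁ ∧ FiniteDimensional k C₁ ∧
        (π : Kb) ∈ C₁ ∧ q1 ∈ C₁ ∧ c1 ∈ C₁ ∧ c1 ≠ 0 ∧ v q1 < η * v π ∧ v c1 < η * v π ∧
        (∀ C : IntermediateField k Kb, C₀ ≤ C → FiniteDimensional k C →
          DiscEmb K C P x ⟨R, hR.le⟩ v ∧ GaussAt C ((x - q1) / c1) v) ∧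
        ∀ T : Set Kb, ((KC K C₁ ⊔ IntermediateField.adjoin K {y1} : IntermediateField K Kb) :
          Set Kb) ⊆ T → VertexEq p v T ((x - q1) / c1) := by
  classical
  have hac : IsAlgClosed F := DLoc2_381.isAlgClosed_F hjd
  have halg : Algebra.IsAlgebraic (Kgeo k K) Kb := Algebra.IsAlgebraic.tower_top (K := K) (Kgeo k K)
  let JF : Kgeo k K →+* LaurentSeries F := (mapL jC).comp J
  have hJF : ∀ z, JF z = mapL jC (J z) := fun z => rfl
  have hJC : ∀ c, JF (iY k K c) = HahnSeries.C (jC c) := by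
    intro c
    rw [hJF, hJ.con, mapL_C]
  have hJx : JF ⟨x, hxY⟩ = HahnSeries.single (1 : ℤ) (1 : F) := by
    rw [hJF, hJ.par, mapL_single]
  obtain ⟨v, hvC, hv1, hv2, hdisc, z, hz, hvtx⟩ := DLoc3_381.core (p := p) hjd hac (Ω := Kb) (iY k K)
    (x := ⟨x, hxY⟩) (J := JF) hJC hJx hR hYR hq hc0 hcR hom hK hH heta hH0 hHom (h := h) ha hb ha'
    hb' hab (y1 := y1) hy1
  have hvC' : ∀ c : Cb k K, v c = ‖jC c‖₊ := hvC
  have hvn : ExtendsPadicNorm k Kb p v := by
    intro a
    have h1 := hvC' (algebraMap k (Cb k K) (algebraMap ℚ_[p] k a))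
    have h2 : ((algebraMap k (Cb k K) (algebraMap ℚ_[p] k a) : Cb k K) : Kb) =
        algebraMap k Kb (algebraMap ℚ_[p] k a) := rfl
    rw [h2] at h1
    rw [h1]
    exact NNReal.eq (hjn a)
  have hcpos : 0 < ‖c‖ := norm_pos_iff.mpr hc0
  obtain ⟨q1, hq1⟩ := hjd.exists_dist_lt q hcpos
  obtain ⟨c1, hc1⟩ := hjd.exists_dist_lt c hcpos
  rw [dist_eq_norm, norm_sub_rev] at hq1 hc1
  obtain ⟨hvtx1, hgauss⟩ := hvtx q1 c1 hq1 hc1
  have hc1n : ‖jC c1‖ = ‖c‖ := by
    have h1 : jC c1 = (jC c1 - c) + c := by ring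
    have h2 := IsUltrametricDist.norm_add_eq_max_of_norm_ne_norm (x := jC c1 - c) (y := c) hc1.ne
    rw [h1, h2]
    exact max_eq_right hc1.le
  have hc10 : c1 ≠ 0 := by
    rintro rfl
    rw [map_zero, norm_zero] at hc1n
    exact hcpos.ne hc1n
  have hq1n : ‖jC q1‖ < η * ‖jC π‖ := by
    have h1 : jC q1 = (jC q1 - q) + q := by ring
    rw [h1]
    exact (IsUltrametricDist.norm_add_le_max _ _).trans_lt (max_lt (hq1.trans hcπ) hqπ)
  -- the level of the `z i`
  have hlev : ∀ i, ∃ T : Finset Kb, (T : Set Kb) ⊆ CbS k K ∧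
      z i ∈ IntermediateField.adjoin K (T : Set Kb) ⊔ IntermediateField.adjoin K {y1} := by
    intro i
    have h1 : (IntermediateField.adjoin (Kgeo k K) {y1}).restrictScalars K =
        IntermediateField.adjoin K ((Kgeo k K : Set Kb) ∪ {y1}) :=
      IntermediateField.restrictScalars_adjoin K (Kgeo k K) {y1}
    have h2 : z i ∈ (IntermediateField.adjoin (Kgeo k K) {y1}).restrictScalars K := hz i
    rw [h1, IntermediateField.adjoin_union, IntermediateField.adjoin_self] at h2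
    have h3 : z i ∈ (⊥ : IntermediateField K Kb) ⊔ IntermediateField.adjoin K (CbS k K) ⊔
        IntermediateField.adjoin K {y1} := by
      rw [bot_sup_eq]
      exact h2
    obtain ⟨T, hT, hT2⟩ := exists_level (⊥ : IntermediateField K Kb) (CbS k K) {y1} h3
    rw [bot_sup_eq] at hT2
    exact ⟨T, hT, hT2⟩
  choose T hT hT2 using hlev
  let T' : Finset Kb := (Finset.univ.biUnion T) ∪ {(π : Kb), (q1 : Kb), (c1 : Kb)}
  have hT' : ∀ t ∈ T', IsIntegral k t := by
    intro t ht
    simp only [T', Finset.mem_union, Finset.mem_biUnion, Finset.mem_univ, true_and,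
      Finset.mem_insert, Finset.mem_singleton] at ht
    rcases ht with ⟨i, hi⟩ | rfl | rfl | rfl
    · exact mem_kb.mp (hT i hi)
    · exact mem_kb.mp π.2
    · exact mem_kb.mp q1.2
    · exact mem_kb.mp c1.2
  let C₁ : IntermediateField k Kb := C₀ ⊔ IntermediateField.adjoin k (T' : Set Kb)
  have hfT : FiniteDimensional k (IntermediateField.adjoin k (T' : Set Kb)) :=
    IntermediateField.finiteDimensional_adjoin fun t ht => hT' t ht
  have hC₁f : FiniteDimensional k C₁ := IntermediateField.finiteDimensional_sup _ _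
  have hTC : ∀ t ∈ T', t ∈ C₁ := fun t ht =>
    (le_sup_right : IntermediateField.adjoin k (T' : Set Kb) ≤ C₁)
      (IntermediateField.subset_adjoin k _ ht)
  refine ⟨v, hvC', hvn, hv1, hv2, ?_, ?_, C₁, q1, c1, le_sup_left, hC₁f, hTC _ (by simp [T']),
    hTC _ (by simp [T']), hTC _ (by simp [T']), fun h0 => hc10 (Subtype.ext h0), ?_, ?_, ?_, ?_⟩
  · intro h0
    have h1 : π = 0 := Subtype.ext h0
    rw [h1, map_zero, norm_zero, mul_zero] at hcπ
    exact absurd hcπ (not_lt.mpr hcpos.le)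
  · rw [hvC', ← NNReal.coe_lt_coe]
    push_cast
    exact hπR
  · rw [hvC', hvC', ← NNReal.coe_lt_coe]
    push_cast
    exact hq1n
  · rw [hvC', hvC', ← NNReal.coe_lt_coe]
    push_cast
    rw [hc1n]
    exact hcπ
  · intro C hC₀C hCf
    have hCint : ∀ c ∈ C, IsIntegral k c := fun c hc => mem_kb.mp (le_kb C hc)
    refine ⟨?_, ?_⟩
    · intro g
      let gY : Kgeo k K := ⟨algebraMap K Kb g, (Kgeo k K).algebraMap_mem g⟩
      obtain ⟨a, ha, b, hb, hb0', hab⟩ := frB_level (p := p) hjn hRU hru hJ hR hYR hC₀C (f := gY)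
        ((KC K C₀).algebraMap_mem g)
      choose G hGC hGa using fun n => mem_DC.mp (ha.1 n)
      choose G' hGC' hGb using fun n => mem_DC.mp (hb.1 n)
      have eA : (PowerSeries.mk fun n => jC (G n)) = a := by
        ext n; rw [coeff_mk, hGa]
      have eB : (PowerSeries.mk fun n => jC (G' n)) = b := by
        ext n; rw [coeff_mk, hGb]
      have hmk : ∀ G : ℕ → Cb k K, mapL jC (toL _ (PowerSeries.mk G)) =
          toL F (PowerSeries.mk fun n => jC (G n)) := by
        intro G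
        refine HahnSeries.ext (funext fun i => ?_)
        rw [coeff_mapL, toL, toL, PowerSeries.coeff_coe, PowerSeries.coeff_coe]
        split_ifs
        · rw [map_zero]
        · rw [coeff_mk, coeff_mk]
      have hJg : J gY * toL _ (PowerSeries.mk G') = toL _ (PowerSeries.mk G) := by
        apply Puis_702.mapL_injective jC.injective
        rw [map_mul, hmk, hmk, eA, eB]
        exact hab
      obtain ⟨Ba, hBa⟩ := ha.2
      obtain ⟨Bb, hBb⟩ := hb.2
      refine ⟨fun n => G n, fun n => G' n, hGC, hGC', ?_, ?_, ?_, ?_⟩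
      · by_contra hcon
        push Not at hcon
        apply hb0'
        rw [← eB]
        ext n
        rw [coeff_mk, map_zero, _root_.map_eq_zero]
        exact Subtype.ext (hcon n)
      · refine ⟨(max Ba Bb).toNNReal, fun n => ⟨?_, ?_⟩⟩
        · rw [hvC', ← NNReal.coe_le_coe]
          push_cast
          rw [hGa]
          exact (hBa n).trans ((le_max_left _ _).trans (Real.le_coe_toNNReal _))
        · rw [hvC', ← NNReal.coe_le_coe]
          push_cast
          rw [hGb]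
          exact (hBb n).trans ((le_max_right _ _).trans (Real.le_coe_toNNReal _))
      · have h1 := hdisc gY a b ha.2 hb.2 hab 0 (by rw [map_zero, norm_zero]; exact hR) G G'
          (fun l => by rw [map_zero, shift_zero_left, hGa])
          (fun l => by rw [map_zero, shift_zero_left, hGb])
        refine h1.congr fun N => ?_
        rw [map_zero, sub_zero]
        rfl
      · have h1 := tendsto_place hJ hru hJg
        refine h1.congr fun N => ?_
        simp only [coeff_mk]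
        show P (((gY : Kgeo k K) * (∑ l ∈ Finset.range N, iY k K (G' l) *
          (⟨x, hxY⟩ : Kgeo k K) ^ l) - ∑ l ∈ Finset.range N, iY k K (G l) *
          (⟨x, hxY⟩ : Kgeo k K) ^ l : Kgeo k K) : Kb) = _
        push_cast
        rfl
    · intro N a ha
      have h1 := hgauss N fun l => (⟨a l, mem_kb.mpr (hCint _ (ha l))⟩ : Cb k K)
      exact h1
  · intro T₁ hT₁
    refine hS Kb v z _ T₁ (fun i => hT₁ ?_) hvtx1
    refine (sup_le_sup ?_ le_rfl : IntermediateField.adjoin K (T i : Set Kb) ⊔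
      IntermediateField.adjoin K {y1} ≤ KC K C₁ ⊔ IntermediateField.adjoin K {y1}) (hT2 i)
    rw [IntermediateField.adjoin_le_iff]
    intro t ht
    refine le_KC (hTC t ?_)
    simp only [T', Finset.mem_union, Finset.mem_biUnion, Finset.mem_univ, true_and]
    exact Or.inl ⟨i, ht⟩

end level

end Crest.Agent.R013.DLoc5_381
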