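import Crest.Agent.R013.DBr2_920
import Crest.Agent.R013.DLoc5_381
import Crest.Agent.R013.RR29_948

/-!
# Row 13, D-line, leaf D-BRIDGE, part 3 (helper920): expansions

From expansions `ψ : E →+* LaurentSeries F` with coefficients 948's `coef w X n f` to 940's `IsExp`
on `Kgeo k K` with constants `Cb k K` (the input of 381's `DLoc5.level`, `DLoc6.goodC`).
-/

set_option autoImplicit false
set_option linter.all false

namespace Crest.Agent.R013.DBr_920

open Module WithZero
open scoped NNReal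
open Crest.NumberTheoryR.Sect
open Crest.Agent.R013.RR7_948 Crest.Agent.R013.RR8_948 Crest.Agent.R013.RR11_948
open Crest.Agent.R013.RR13_948 Crest.Agent.R013.RR29_948
open Crest.Agent.R013.Desc_372 Crest.Agent.R013.Desc_372.CE
open Crest.Agent.R013.Small4_940 (Cb)
open Crest.Agent.R013.Small2_940 (RU IsExp)
open Crest.Agent.R013.Puis_702 (mapL coeff_mapL mapL_injective)
open Crest.Agent.R013.DLoc5_381 (iY coe_iY)
open Crest.Agent.R013.Cof2_669 Crest.Agent.R013.Cof5_669 Crest.Agent.R013.GoodC_669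

section lift

variable {C F E : Type*} [Field C] [Field F] [Field E]

theorem exists_preimage_series (σ : C →+* F) (g : LaurentSeries F)
    (h : ∀ n, ∃ c, g.coeff n = σ c) : ∃ g' : LaurentSeries C, mapL σ g' = g := by
  choose c hc using h
  refine ⟨⟨c, ?_⟩, ?_⟩
  · refine g.isPWO_support.mono ?_
    intro n hn
    rw [Function.mem_support] at hn
    rw [HahnSeries.mem_support, hc]
    intro h0
    exact hn ((map_eq_zero σ).mp h0)
  · ext n
    rw [coeff_mapL, hc]

/-- lifting of expansions to a field of coefficients -/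
theorem exists_lift (σ : C →+* F) (ψ : E →+* LaurentSeries F)
    (h : ∀ f n, ∃ c, (ψ f).coeff n = σ c) :
    ∃ ψ' : E →+* LaurentSeries C, ∀ f, mapL σ (ψ' f) = ψ f := by
  have h1 : ∀ f, ∃ g' : LaurentSeries C, mapL σ g' = ψ f := fun f =>
    exists_preimage_series σ (ψ f) (h f)
  choose g hg using h1
  have hinj := mapL_injective (φ := σ) σ.injective
  exact ⟨{ toFun := g
           map_one' := hinj (by rw [hg, map_one, map_one])
           map_mul' := fun a b => hinj (by rw [hg, map_mul, map_mul, hg, hg])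
           map_zero' := hinj (by rw [hg, map_zero, map_zero])
           map_add' := fun a b => hinj (by rw [hg, map_add, map_add, hg, hg]) }, hg⟩

end lift

section main

variable {k : Type*} [Field k] {K : Type*} [Field K] [Algebra k K]
  {C : Type*} [Field C] [IsAlgClosed C] [Algebra k C]
  {E : Type*} [Field E] [Algebra C E] [Algebra K E] [Algebra k E] [IsScalarTower k C E]
  [IsScalarTower k K E] [h : CE k C K E]
  [Algebra (RatFunc C) E] [IsScalarTower C (RatFunc C) E] [FiniteDimensional (RatFunc C) E]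
  [Algebra.IsSeparable (RatFunc C) E]
  (φ : E →ₐ[K] AlgebraicClosure K) {e : Cb k K ≃+* C}
  (he : ∀ c, φ (algebraMap C E c) = (e.symm c : AlgebraicClosure K))
  {P : Valuation (AlgebraicClosure K) ℝ≥0}
  {w : Pl C E} (hw : w.v.IsEquiv (P.comap (φ : E →+* AlgebraicClosure K)))
  {F : Type*} [Field F]

/-- `E ≃ Kgeo k K` -/
noncomputable def phiG : E ≃+* Kgeo k K :=
  RingEquiv.ofBijective ((φ : E →+* AlgebraicClosure K).codRestrict (Kgeo k K)
    (phi_mem_Kgeo φ he)) ⟨RingHom.injective _, fun g => by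
      obtain ⟨f, hf⟩ := exists_preimage φ he g.2
      exact ⟨f, Subtype.ext hf⟩⟩

theorem coe_phiG (f : E) : ((phiG φ he f : Kgeo k K) : AlgebraicClosure K) = φ f := rfl

theorem phiG_algebraMap (c : C) : phiG φ he (algebraMap C E c) = iY k K (e.symm c) :=
  Subtype.ext (by rw [coe_phiG, he, coe_iY])

include h he hw in
/-- **expansions at `w` give expansions on `Kgeo k K` at `P`** -/
theorem exists_isExp {X : E} (hX : w.v X = exp (-1)) (σ : C →+* F) (ψ : E →+* LaurentSeries F)
    (hcoef : ∀ (f : E) (n : ℤ), (ψ f).coeff n = σ (coef w X n f)) :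
    ∃ J : Kgeo k K →+* LaurentSeries (Cb k K),
      IsExp (iY k K) (P.comap (algebraMap (Kgeo k K) (AlgebraicClosure K)))
        ⟨φ X, phi_mem_Kgeo φ he X⟩ J ∧
      (∀ f : E, mapL (σ.comp (e : Cb k K →+* C)) (J ⟨φ f, phi_mem_Kgeo φ he f⟩) = ψ f) ∧
      ∀ (f : E) (n : ℤ), e ((J ⟨φ f, phi_mem_Kgeo φ he f⟩).coeff n) = coef w X n f := by
  obtain ⟨ψ', hψ'⟩ := exists_lift σ ψ fun f n => ⟨_, hcoef f n⟩
  have hcf : ∀ (f : E) (n : ℤ), (ψ' f).coeff n = coef w X n f := by
    intro f n
    apply σ.injective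
    rw [← coeff_mapL, hψ', hcoef]
  let J : Kgeo k K →+* LaurentSeries (Cb k K) :=
    (mapL (e.symm : C →+* Cb k K)).comp (ψ'.comp ((phiG φ he).symm : Kgeo k K →+* E))
  have hJ : ∀ f : E, J ⟨φ f, phi_mem_Kgeo φ he f⟩ = mapL (e.symm : C →+* Cb k K) (ψ' f) := by
    intro f
    have h1 : (⟨φ f, phi_mem_Kgeo φ he f⟩ : Kgeo k K) = phiG φ he f := rfl
    show mapL (e.symm : C →+* Cb k K) (ψ' ((phiG φ he).symm _)) = _
    rw [h1, RingEquiv.symm_apply_apply]
  have hJc : ∀ (f : E) (n : ℤ), (J ⟨φ f, phi_mem_Kgeo φ he f⟩).coeff n =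
      e.symm (coef w X n f) := by
    intro f n
    rw [hJ, coeff_mapL, hcf]
    rfl
  refine ⟨J, ⟨?_, ?_, ?_⟩, ?_, ?_⟩
  · intro c
    have h1 : iY k K c = ⟨φ (algebraMap C E (e c)), phi_mem_Kgeo φ he _⟩ := by
      apply Subtype.ext
      rw [coe_iY]
      show _ = φ (algebraMap C E (e c))
      rw [he, RingEquiv.symm_apply_apply]
    rw [h1]
    ext n
    rw [hJc]
    have h2 : coef w X n (algebraMap C E (e c)) = if n = 0 then e c else 0 := by
      have h3 : algebraMap C E (e c) = (e c) • X ^ (0 : ℤ) := by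
        rw [zpow_zero, Algebra.smul_def, mul_one]
      rw [h3, map_smul, coef_zpow hX, smul_eq_mul]
      by_cases hn : n = 0
      · rw [if_pos hn, if_pos hn.symm, mul_one]
      · rw [if_neg hn, if_neg (fun h' => hn h'.symm), mul_zero]
    rw [h2, HahnSeries.C_apply, HahnSeries.coeff_single]
    split_ifs with hn
    · rw [RingEquiv.symm_apply_apply]
    · rw [map_zero]
  · ext n
    rw [hJc]
    have h2 : coef w X n X = if 1 = n then 1 else 0 := by
      have h3 := coef_zpow hX n 1
      rwa [zpow_one] at h3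
    rw [h2, HahnSeries.coeff_single]
    by_cases hn : n = 1
    · rw [if_pos hn.symm, if_pos hn, map_one]
    · rw [if_neg (fun h' => hn h'.symm), if_neg hn, map_zero]
  · rintro ⟨g, hg⟩ hga n hn
    obtain ⟨f, rfl⟩ := exists_preimage φ he hg
    rw [hJc]
    have h1 : P (φ f) ≤ 1 := hga
    rw [← w_le_one_iff hw] at h1
    rw [coef_of_le hX, map_zero]
    refine h1.trans ?_
    rw [← exp_zero, exp_le_exp]
    omega
  · intro f
    rw [hJ, ← hψ' f]
    ext n
    rw [coeff_mapL, coeff_mapL, coeff_mapL, RingHom.comp_apply]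
    congr 1
    exact e.apply_symm_apply _
  · intro f n
    rw [hJc, RingEquiv.apply_symm_apply]

include h he in
/-- all values of the expansion: what holds for `ψ` on `E` holds for `J` on `Kgeo k K` -/
theorem mapL_J {J : Kgeo k K →+* LaurentSeries (Cb k K)} {σ : C →+* F} {ψ : E →+* LaurentSeries F}
    (hJ : ∀ f : E, mapL (σ.comp (e : Cb k K →+* C)) (J ⟨φ f, phi_mem_Kgeo φ he f⟩) = ψ f)
    (z : Kgeo k K) : mapL (σ.comp (e : Cb k K →+* C)) (J z) = ψ ((phiG φ he).symm z) := by
  rw [← hJ]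
  congr 2
  apply Subtype.ext
  show (z : AlgebraicClosure K) = φ ((phiG φ he).symm z)
  rw [← coe_phiG φ he, RingEquiv.apply_symm_apply]

end main

end Crest.Agent.R013.DBr_920
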