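import Crest.Agent.R013.DBr3_920
import Crest.Agent.R013.DDefs_906

/-!
# Row 13, D-line, leaf D-BRIDGE, part 4 (helper920): the pencil

`φ` maps `A' = ∑ e(a_j) b_j`, `phi' = A' / B'` to 906's `lc b a`, `phi b a a'`; existence of `φ`, `e`.
-/

set_option autoImplicit false
set_option linter.all false

namespace Crest.Agent.R013.DBr_920

open Module WithZero
open scoped NNReal
open Crest.NumberTheoryR.Sect
open Crest.Agent.R013.RR7_948 Crest.Agent.R013.RR13_948
open Crest.Agent.R013.Desc_372 Crest.Agent.R013.Desc_372.CE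
open Crest.Agent.R013.Small4_940 (Cb)
open Crest.Agent.R013.DDefs_906
open Crest.Agent.R013.Cof2_669 Crest.Agent.R013.Cof5_669 Crest.Agent.R013.GoodC_669

section pencil

variable {k : Type*} [Field k] {K : Type*} [Field K] [Algebra k K]
  {C : Type*} [Field C] [Algebra k C]
  {E : Type*} [Field E] [Algebra C E] [Algebra K E] [Algebra k E] [IsScalarTower k C E]
  [IsScalarTower k K E]
  (φ : E →ₐ[K] AlgebraicClosure K) {e : Cb k K ≃+* C}
  (he : ∀ c, φ (algebraMap C E c) = (e.symm c : AlgebraicClosure K))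
  {m : ℕ}

/-- `∑ c_j b_j` in `E` -/
noncomputable def lcE (C : Type*) {K E : Type*} [Field C] [Field K] [Field E] [Algebra C E]
    [Algebra K E] {m : ℕ} (b : Fin m → K) (c : Fin m → C) : E :=
  ∑ j, algebraMap C E (c j) * algebraMap K E (b j)

include he in
theorem phi_lcE (b : Fin m → K) (a : Fin m → Cb k K) :
    φ (lcE C b fun j => e (a j)) = lc b a := by
  unfold lcE lc
  rw [map_sum]
  refine Finset.sum_congr rfl fun j _ => ?_
  rw [map_mul, he, RingEquiv.symm_apply_apply, φ.commutes]

include he in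
theorem phi_phiE (b : Fin m → K) (a a' : Fin m → Cb k K) :
    φ ((lcE C b fun j => e (a j)) / lcE C b fun j => e (a' j)) = phi b a a' := by
  rw [map_div₀, phi_lcE φ he, phi_lcE φ he]
  rfl

include he in
theorem phi_phiE_sub (b : Fin m → K) (a a' : Fin m → Cb k K) (n : ℤ) :
    φ ((lcE C b fun j => e (a j)) / (lcE C b fun j => e (a' j)) - n) = phi b a a' - n := by
  rw [map_sub, phi_phiE φ he, map_intCast]

end pencil

section exist

variable (k : Type*) [Field k] [CharZero k] (K : Type*) [Field K] [Algebra k K]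
  (C : Type*) [Field C] [IsAlgClosed C] [Algebra k C]
  (E : Type*) [Field E] [Algebra C E] [Algebra K E] [Algebra k E] [IsScalarTower k C E]
  [IsScalarTower k K E] [h : CE k C K E]

include h in
/-- existence of `φ` and `e` -/
theorem exists_phi : ∃ (φ : E →ₐ[K] AlgebraicClosure K) (e : Cb k K ≃+* C),
    (∀ a : k, e (algebraMap k (Cb k K) a) = algebraMap k C a) ∧
      ∀ c : C, φ (algebraMap C E c) = (e.symm c : AlgebraicClosure K) := by
  haveI := h.alg
  haveI := CE.isAlgebraic k C K E
  let φ : E →ₐ[K] AlgebraicClosure K := IsAlgClosed.lift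
  obtain ⟨e, h1, h2⟩ := CAsm2_588.exists_e (k := k) (C := C) φ
  exact ⟨φ, e, h1, h2⟩

end exist

end Crest.Agent.R013.DBr_920
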