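import Crest.Agent.R013.RR12_948

/-!
# R013 / DE4 (helper561): a rigid pair of rational places

`g ≥ 2`, `P` a place of degree one, `S` an infinite set of places of degree one: there is `Q ∈ S`
with `Q ≠ P` such that `P + Q` is the only effective divisor in its class.
-/

set_option autoImplicit false
set_option linter.all false

namespace Crest.Agent.R013.DE4_561

open WithZero Module
open Crest.Agent.R013.RR7_948 Crest.Agent.R013.RR8_948 Crest.Agent.R013.RR9_948
open Crest.Agent.R013.RR11_948 Crest.Agent.R013.RR12_948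

variable {k : Type*} [Field k] {K : Type*} [Field K] [Algebra k K] [Algebra (RatFunc k) K]
  [IsScalarTower k (RatFunc k) K] [FiniteDimensional (RatFunc k) K]
  [Algebra.IsSeparable (RatFunc k) K]

/-- a strictly increasing chain of Riemann-Roch spaces whose degrees grow by one -/
theorem chain (hc : algebraicClosure k K = ⊥) (D : ℕ → Pl k K →₀ ℤ)
    (hmono : ∀ n, D n ≤ D (n + 1)) (h : ∀ n, ∃ f : K, f ∈ LD (D (n + 1)) ∧ f ∉ LD (D n))
    (hdeg : ∀ n : ℕ, degD (D n) = degD (D 0) + n) :
    (ell (D 0) : ℤ) ≤ degD (D 0) + 1 - gen k K := by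
  have h1 : ∀ n : ℕ, ell (D 0) + n ≤ ell (D n) := by
    intro n
    induction n with
    | zero => simp
    | succ n ih =>
      have h2 : ell (D n) < ell (D (n + 1)) := by
        have := LD_finite (D (n + 1))
        unfold ell
        refine Submodule.finrank_lt_finrank_of_lt (lt_of_le_of_ne (LD_mono (hmono n)) ?_)
        intro he
        obtain ⟨f, hf, hf'⟩ := h n
        rw [he] at hf'
        exact hf' hf
      omega
  set n : ℕ := (2 * (gen k K : ℤ) + |degD (D 0)|).toNat with hn
  have h3 := h1 n
  have h4 : (n : ℤ) = 2 * (gen k K : ℤ) + |degD (D 0)| := by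
    rw [hn, Int.toNat_of_nonneg (by positivity)]
  have h5 := hdeg n
  have h6 : -degD (D 0) ≤ |degD (D 0)| := neg_le_abs _
  have h7 := ell_eq_of_lt hc (D := D n) (by omega)
  have h8 : (ell (D 0) : ℤ) + n ≤ ell (D n) := by exact_mod_cast h3
  omega

theorem single_mono_add (D : Pl k K →₀ ℤ) (P : Pl k K) : D ≤ D + Finsupp.single P 1 := by
  intro Q
  rw [Finsupp.add_apply]
  have : (0 : ℤ) ≤ Finsupp.single P 1 Q := by
    classical
    rw [Finsupp.single_apply]; split_ifs <;> norm_num
  omega

/-- a function of `L(P)`, `P` rational, is constant (`g ≥ 1`) -/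
theorem le_one_of_mem_LD_single (hc : algebraicClosure k K = ⊥) (hg : 1 ≤ gen k K) {P : Pl k K}
    (hP : degP P = 1) {f : K} (hf : f ∈ LD (Finsupp.single P (1 : ℤ))) : P.v f ≤ 1 := by
  by_contra hlt
  have hPf : P.v f = exp 1 := by
    have h1 := (mem_LD.mp hf) P
    rw [Finsupp.single_eq_same] at h1
    refine le_antisymm h1 ?_
    have hf0 : f ≠ 0 := by rintro rfl; simp at hlt
    rw [v_eq hf0 P] at hlt ⊢
    rw [← exp_zero, exp_le_exp] at hlt
    rw [exp_le_exp]
    omega
  have h := chain hc (fun n : ℕ => Finsupp.single P (n : ℤ)) (by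
      intro n
      have := single_mono_add (Finsupp.single P (n : ℤ)) P
      rw [← Finsupp.single_add] at this
      exact_mod_cast this) (by
      intro n
      refine ⟨f ^ (n + 1), ?_, ?_⟩
      · rw [mem_LD]
        intro Q
        by_cases hQ : Q = P
        · subst hQ
          rw [map_pow, hPf, Finsupp.single_eq_same, ← exp_nsmul]
          simp
        · rw [Finsupp.single_eq_of_ne hQ, exp_zero, map_pow]
          have h2 := (mem_LD.mp hf) Q
          rw [Finsupp.single_eq_of_ne hQ, exp_zero] at h2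
          exact pow_le_one' h2 _
      · intro h2
        have h3 := (mem_LD.mp h2) P
        rw [map_pow, hPf, Finsupp.single_eq_same, ← exp_nsmul, exp_le_exp] at h3
        simp at h3) (by
      intro n
      rw [degD_single, degD_single, hP]
      simp)
  rw [show (Finsupp.single P ((0 : ℕ) : ℤ)) = 0 by simp, ell_zero hc, degD_zero] at h
  push_cast at h
  omega

/-- `Q ∈ S` such that all functions of `L(P + Q)` are regular -/
theorem exists_rigid (hc : algebraicClosure k K = ⊥) (hg : 2 ≤ gen k K) {P : Pl k K}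
    (hP : degP P = 1) {S : Set (Pl k K)} (hS : S.Infinite) (hS1 : ∀ Q ∈ S, degP Q = 1) :
    ∃ Q ∈ S, Q ≠ P ∧ ∀ f : K, f ∈ LD (Finsupp.single P (1 : ℤ) + Finsupp.single Q 1) →
      ∀ R : Pl k K, R.v f ≤ 1 := by
  classical
  by_contra hcon
  push Not at hcon
  have hS' : (S \ {P}).Infinite := hS.diff (Set.finite_singleton P)
  set q : ℕ → Pl k K := fun n => (hS'.natEmbedding _ n : Pl k K) with hq
  have hqinj : Function.Injective q := fun a b hab =>
    (hS'.natEmbedding _).injective (Subtype.ext hab)
  have hqS : ∀ n, q n ∈ S := fun n => (hS'.natEmbedding _ n).2.1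
  have hqP : ∀ n, q n ≠ P := fun n => by simpa using (hS'.natEmbedding _ n).2.2
  -- a function with a simple pole at `q n`
  have hf : ∀ n, ∃ f : K, f ∈ LD (Finsupp.single P (1 : ℤ) + Finsupp.single (q n) 1) ∧
      (q n).v f = exp 1 := by
    intro n
    obtain ⟨f, hf, R, hR⟩ := hcon (q n) (hqS n) (hqP n)
    refine ⟨f, hf, ?_⟩
    have hf0 : f ≠ 0 := by rintro rfl; simp at hR
    have h1 := (mem_LD.mp hf) (q n)
    rw [Finsupp.add_apply, Finsupp.single_eq_of_ne (hqP n), Finsupp.single_eq_same,
      zero_add] at h1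
    refine le_antisymm h1 ?_
    by_contra hlt
    have h2 : (q n).v f ≤ 1 := by
      rw [v_eq hf0] at hlt ⊢
      rw [exp_le_exp] at hlt
      rw [← exp_zero, exp_le_exp]
      omega
    have h3 : f ∈ LD (Finsupp.single P (1 : ℤ)) := by
      rw [mem_LD]
      intro Q
      by_cases hQ : Q = q n
      · subst hQ
        rw [Finsupp.single_eq_of_ne (hqP n), exp_zero]
        exact h2
      · have := (mem_LD.mp hf) Q
        rwa [Finsupp.add_apply, Finsupp.single_eq_of_ne hQ, add_zero] at this
    have h4 := le_one_of_mem_LD_single hc (by omega) hP h3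
    have h5 : R.v f ≤ 1 := by
      by_cases hRP : R = P
      · subst hRP; exact h4
      · have := (mem_LD.mp h3) R
        rwa [Finsupp.single_eq_of_ne hRP, exp_zero] at this
    exact absurd hR (not_lt.mpr h5)
  choose F hF1 hF2 using hf
  set D : ℕ → Pl k K →₀ ℤ := fun n =>
    Finsupp.single P (1 : ℤ) + ∑ i ∈ Finset.range n, Finsupp.single (q i) 1 with hD
  have hDs : ∀ n, D (n + 1) = D n + Finsupp.single (q n) 1 := by
    intro n
    simp only [hD, Finset.sum_range_succ, add_assoc]
  have hDq : ∀ n, D n (q n) = 0 := by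
    intro n
    simp only [hD]
    rw [Finsupp.add_apply, Finsupp.single_eq_of_ne (hqP n), zero_add, Finsupp.finset_sum_apply]
    refine Finset.sum_eq_zero fun i hi => ?_
    rw [Finset.mem_range] at hi
    rw [Finsupp.single_eq_of_ne]
    intro h
    have := hqinj h
    omega
  have hDP : ∀ n, Finsupp.single P (1 : ℤ) ≤ D n := by
    intro n
    simp only [hD]
    refine le_add_of_nonneg_right (Finset.sum_nonneg fun i _ => ?_)
    intro Q
    rw [Finsupp.single_apply]; split_ifs <;> norm_num
  have h := chain hc D (fun n => by rw [hDs]; exact single_mono_add _ _) (by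
      intro n
      refine ⟨F n, ?_, ?_⟩
      · refine LD_mono ?_ (hF1 n)
        rw [hDs]
        exact add_le_add (hDP n) le_rfl
      · intro h2
        have h3 := (mem_LD.mp h2) (q n)
        rw [hF2, hDq, exp_le_exp] at h3
        omega) (by
      intro n
      induction n with
      | zero => simp
      | succ n ih =>
        rw [hDs, degD_add, ih, degD_single, hS1 _ (hqS n)]
        push_cast; ring)
  have h0 : D 0 = Finsupp.single P (1 : ℤ) := by simp [hD]
  rw [h0, degD_single, hP] at h
  have h1 : 1 ≤ ell (Finsupp.single P (1 : ℤ)) := by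
    rw [← ell_zero hc]
    refine ell_mono ?_
    intro Q
    rw [Finsupp.single_apply]; split_ifs <;> norm_num
  have h2 : (1 : ℤ) ≤ ell (Finsupp.single P (1 : ℤ)) := by exact_mod_cast h1
  push_cast at h
  omega

/-- `Q ∈ S` such that `P + Q` is the only effective divisor in its class -/
theorem exists_rigid_pair (hc : algebraicClosure k K = ⊥) (hg : 2 ≤ gen k K) {P : Pl k K}
    (hP : degP P = 1) {S : Set (Pl k K)} (hS : S.Infinite) (hS1 : ∀ Q ∈ S, degP Q = 1) :
    ∃ Q ∈ S, Q ≠ P ∧ ∀ (E : Pl k K →₀ ℤ) (f : K), 0 ≤ E → f ≠ 0 →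
      E = Finsupp.single P (1 : ℤ) + Finsupp.single Q 1 + divf f →
      E = Finsupp.single P (1 : ℤ) + Finsupp.single Q 1 := by
  obtain ⟨Q, hQS, hQP, h⟩ := exists_rigid hc hg hP hS hS1
  refine ⟨Q, hQS, hQP, fun E f hE hf0 hEf => ?_⟩
  have h1 : f ∈ LD (Finsupp.single P (1 : ℤ) + Finsupp.single Q 1) := by
    rw [mem_LD_iff hf0, ← hEf]
    exact hE
  have h2 := h f h1
  have h3 : f ∈ LD (0 : Pl k K →₀ ℤ) := by
    rw [mem_LD]
    intro R
    rw [Finsupp.zero_apply, exp_zero]
    exact h2 R
  have h4 : divf (k := k) f = 0 := by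
    rw [LD_zero hc, Submodule.mem_one] at h3
    obtain ⟨c, rfl⟩ := h3
    ext R
    have hc0 : c ≠ 0 := by rintro rfl; simp at hf0
    have h5 := v_eq (k := k) hf0 R
    rw [R.const c hc0, ← exp_zero, exp_inj] at h5
    rw [Finsupp.zero_apply]
    omega
  rw [hEf, h4, add_zero]

end Crest.Agent.R013.DE4_561
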