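import Crest.Agent.R013.DescP2_429
import Crest.Agent.R013.Desc5_372

/-!
# R013 / DE2 (helper854): descent of a Galois invariant divisor class (D-LINE, leaf E2)

`K₀/k` function field, `K = K₀ ⊗_k C`, `C/k` Galois, `C` algebraically closed.

* `Inv.of_degP_one` : a place over a place of degree one is invariant;
* `exists_inv_divisor` : a divisor whose class is Galois invariant is equivalent to a Galois
  invariant divisor, if there is an invariant place (no Hilbert 90: least `n` with
  `L(E + nP) ≠ 0`);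
* `exists_conC` : a Galois invariant divisor is the pull-back of a divisor of `K₀`;
* `descend` : `conC δ₀ = N E + (f)`, `[E]` invariant ⟹ `δ₀ = N D + (f₀)` over `K₀`.
-/

set_option autoImplicit false
set_option linter.all false

namespace Crest.Agent.R013.DE2_854

open Module WithZero Crest.Agent.R013.Desc_372 Crest.Agent.R013.DescP_429
open Crest.Agent.R013.RR7_948 Crest.Agent.R013.RR8_948 Crest.Agent.R013.RR9_948
open Crest.Agent.R013.RR11_948 Crest.Agent.R013.RR12_948

variable {k C K₀ K : Type*} [Field k] [Field C] [Field K₀] [Field K]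
  [Algebra k C] [Algebra k K₀] [Algebra C K] [Algebra K₀ K] [Algebra k K] [IsScalarTower k C K]
  [IsScalarTower k K₀ K]

section bot

variable (k C K₀ K)

/-- the lowest level is `K₀` -/
theorem mem_lev_bot {f : K} (hf : f ∈ CE.lev K₀ K (⊥ : IntermediateField k C)) :
    ∃ f₀ : K₀, algebraMap K₀ K f₀ = f := by
  have h1 : CE.lev K₀ K (⊥ : IntermediateField k C) ≤ ⊥ := by
    rw [CE.lev_le_iff]
    intro c hc
    obtain ⟨c₀, rfl⟩ := IntermediateField.mem_bot.1 hc
    rw [← IsScalarTower.algebraMap_apply k C K, IsScalarTower.algebraMap_apply k K₀ K]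
    exact IntermediateField.algebraMap_mem _ _
  exact IntermediateField.mem_bot.1 (h1 hf)

/-- every automorphism is in `Gam ⊥` -/
theorem mem_Gam_bot (s : K ≃ₐ[K₀] K) : s ∈ CE.Gam K₀ K (⊥ : IntermediateField k C) := by
  rw [CE.mem_Gam]
  intro c hc
  obtain ⟨c₀, rfl⟩ := IntermediateField.mem_bot.1 hc
  rw [← IsScalarTower.algebraMap_apply k C K, IsScalarTower.algebraMap_apply k K₀ K, s.commutes]

end bot

section RRC

variable [Algebra (RatFunc C) K] [IsScalarTower C (RatFunc C) K] [FiniteDimensional (RatFunc C) K]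
  [Algebra.IsSeparable (RatFunc C) K]

/-- divisors of large degree have no base points -/
theorem exists_gen_at {D : Pl C K →₀ ℤ} (Q : Pl C K)
    (hD : degD (canD C K) + degP Q < degD D) : ∃ f ∈ LD D, Q.v f = exp (D Q) := by
  classical
  obtain ⟨a, ha0, ha⟩ := exists_v_eq Q (D Q)
  have hE : degD (canD C K) < degD (D - Finsupp.single Q 1) := by
    rw [degD_sub, degD_single]
    push_cast
    linarith
  obtain ⟨f, h1, h2⟩ := approx_one hE Q a
  have h3 : Q.v (f - a) < Q.v a := by
    refine lt_of_le_of_lt h1 ?_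
    rw [ha, exp_lt_exp]
    simp
  have h4 : Q.v f = exp (D Q) := by
    rw [← ha, ← Valuation.map_eq_of_sub_lt _ h3]
  refine ⟨f, ?_, h4⟩
  rw [mem_LD]
  intro R
  by_cases hR : R = Q
  · rw [hR, h4]
  · refine (h2 R hR).trans ?_
    rw [exp_le_exp]
    simp [Finsupp.single_eq_of_ne hR]

end RRC

section main

variable [h : CE k C K₀ K] [IsGalois k C] [IsAlgClosed C] [CharZero k]
  [Algebra (RatFunc k) K₀] [IsScalarTower k (RatFunc k) K₀] [FiniteDimensional (RatFunc k) K₀]
  [Algebra (RatFunc C) K] [IsScalarTower C (RatFunc C) K] [FiniteDimensional (RatFunc C) K]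
  [Algebra.IsSeparable (RatFunc C) K] [Algebra.IsAlgebraic K₀ K]

omit [IsAlgClosed C] [Algebra (RatFunc C) K] [IsScalarTower C (RatFunc C) K]
  [FiniteDimensional (RatFunc C) K] [Algebra.IsSeparable (RatFunc C) K] [h : CE k C K₀ K] in
theorem resC_comapPl (s : K ≃ₐ[K₀] K) (P : Pl C K) :
    resC k K₀ (comapPl k C s P) = resC k K₀ P := by
  rw [resC_eq_iff]
  intro f hf
  rw [comapPl_v, s.commutes]
  exact (resC_le_one_iff P f).mp hf

omit [Algebra (RatFunc C) K] [IsScalarTower C (RatFunc C) K] [IsAlgClosed C]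
  [FiniteDimensional (RatFunc C) K] [Algebra.IsSeparable (RatFunc C) K] in
/-- a place over a place of degree one is invariant -/
theorem inv_of_degP_one (hc : algebraicClosure k K₀ = ⊥) {P : Pl C K}
    (hP : degP (resC k K₀ P) = 1) : Inv K₀ (⊥ : IntermediateField k C) P := by
  classical
  rw [inv_iff]
  intro s _
  by_contra hne
  have h1 := card_le_degP hc (resC k K₀ P) {comapPl k C s P, P} (by
    intro Q hQ
    rw [Finset.mem_insert, Finset.mem_singleton] at hQ
    rcases hQ with rfl | rfl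
    · exact resC_comapPl s P
    · rfl)
  rw [hP, Finset.card_pair hne] at h1
  omega

omit [IsAlgClosed C] in
/-- invariant divisors of large degree are constant on the fibres of `resC` -/
theorem const_of_large {D : Pl C K →₀ ℤ}
    (hc : algebraicClosure k K₀ = ⊥)
    (hD : ∀ s : K ≃ₐ[K₀] K, ∀ Q : Pl C K, D (comapPl k C s Q) = D Q) {Q Q' : Pl C K}
    (hQ : resC k K₀ Q = resC k K₀ Q') (h1 : degD (canD C K) + degP Q < degD D) : D Q ≤ D Q' := by
  obtain ⟨f, hf1, hf2, hf3⟩ := exists_lev_pole (k' := (⊥ : IntermediateField k C)) (K₀ := K₀)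
    (fun s _ => hD s) (exists_gen_at Q h1)
  obtain ⟨f₀, rfl⟩ := mem_lev_bot k C K₀ K hf2
  have h2 := (mem_LD.1 hf1) Q'
  rw [← resC_v hc, ← hQ, resC_v hc, hf3, exp_le_exp] at h2
  exact h2

/-- invariant divisors are constant on the fibres of `resC` -/
theorem const_fibre (hc : algebraicClosure k K₀ = ⊥) {P : Pl C K}
    (hP : Inv K₀ (⊥ : IntermediateField k C) P) {D : Pl C K →₀ ℤ}
    (hD : ∀ s : K ≃ₐ[K₀] K, ∀ Q : Pl C K, D (comapPl k C s Q) = D Q) {Q Q' : Pl C K}
    (hQ : resC k K₀ Q = resC k K₀ Q') : D Q = D Q' := by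
  classical
  have hinvP : ∀ n : ℤ, ∀ s : K ≃ₐ[K₀] K, ∀ R : Pl C K,
      (Finsupp.single P n : Pl C K →₀ ℤ) (comapPl k C s R) = Finsupp.single P n R := by
    intro n s R
    refine divisor_inv (k' := (⊥ : IntermediateField k C)) (fun S hS => ?_)
      (mem_Gam_bot k C K₀ K s) R
    have h1 : S = P := by simpa using Finsupp.support_single_subset hS
    rw [h1]; exact hP
  have hle : ∀ {D : Pl C K →₀ ℤ} (hD : ∀ s : K ≃ₐ[K₀] K, ∀ Q : Pl C K,
      D (comapPl k C s Q) = D Q) {Q Q' : Pl C K} (hQ : resC k K₀ Q = resC k K₀ Q')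
      (n : ℤ) (hn : degD (canD C K) + 1 < degD D + n),
      D Q + (Finsupp.single P n : Pl C K →₀ ℤ) Q ≤ D Q' + (Finsupp.single P n : Pl C K →₀ ℤ) Q' := by
    intro D hD Q Q' hQ n hn
    refine const_of_large (D := D + Finsupp.single P n) hc (fun s R => ?_) hQ ?_
    · rw [Finsupp.add_apply, Finsupp.add_apply, hD, hinvP]
    · rw [degD_add, degD_single, CE5_280.degP_eq_one, CE5_280.degP_eq_one]
      push_cast
      linarith
  set n : ℤ := |degD D| + |degD (canD C K)| + 2 with hn
  have e1 : degD (canD C K) + 1 < degD D + n := by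
    have := neg_abs_le (degD D)
    have := le_abs_self (degD (canD C K))
    omega
  have e2 : degD (canD C K) + 1 < degD (0 : Pl C K →₀ ℤ) + n := by
    rw [degD_zero]
    have := abs_nonneg (degD D)
    have := le_abs_self (degD (canD C K))
    omega
  have a1 := hle hD hQ n e1
  have a2 := hle hD hQ.symm n e1
  have b1 := hle (D := 0) (fun s R => rfl) hQ n e2
  have b2 := hle (D := 0) (fun s R => rfl) hQ.symm n e2
  rw [Finsupp.zero_apply, Finsupp.zero_apply] at b1 b2
  omega

/-- **an invariant divisor is the pull-back of a divisor of `K₀`** -/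
theorem exists_conC (hc : algebraicClosure k K₀ = ⊥) {P : Pl C K}
    (hP : Inv K₀ (⊥ : IntermediateField k C) P) {D : Pl C K →₀ ℤ}
    (hD : ∀ s : K ≃ₐ[K₀] K, ∀ Q : Pl C K, D (comapPl k C s Q) = D Q) :
    ∃ D₀ : Pl k K₀ →₀ ℤ, conC hc D₀ = D := by
  classical
  have halg : Algebra.IsAlgebraic k C := h.alg
  choose g hg using resC_surjective (k := k) (C := C) (K₀ := K₀) (K := K)
  refine ⟨Finsupp.onFinset (D.support.image (resC k K₀)) (fun Q => D (g Q)) (fun Q hQ => ?_), ?_⟩
  · rw [Finset.mem_image]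
    exact ⟨g Q, Finsupp.mem_support_iff.2 hQ, hg Q⟩
  · ext Q
    rw [conC_apply, Finsupp.onFinset_apply]
    exact const_fibre hc hP hD (hg _)

omit [CharZero k] [Algebra (RatFunc k) K₀] [IsScalarTower k (RatFunc k) K₀]
  [FiniteDimensional (RatFunc k) K₀] [Algebra.IsAlgebraic K₀ K] [IsGalois k C] [h : CE k C K₀ K] in
/-- **an invariant class contains an invariant divisor** (there is an invariant place) -/
theorem exists_inv_divisor [Normal k C] {P : Pl C K}
    (hP : Inv K₀ (⊥ : IntermediateField k C) P) (E : Pl C K →₀ ℤ)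
    (hE : ∀ s : K ≃ₐ[K₀] K, ∃ g : K, g ≠ 0 ∧
      ∀ Q : Pl C K, E (comapPl k C s Q) = E Q + divf (k := C) g Q) :
    ∃ f : K, f ≠ 0 ∧ ∀ s : K ≃ₐ[K₀] K, ∀ Q : Pl C K,
      (E + divf (k := C) f) (comapPl k C s Q) = (E + divf (k := C) f) Q := by
  classical
  -- the least `n` with `L(E + nP) ≠ 0`
  let A : ℤ → Prop := fun n => ∃ f : K, f ≠ 0 ∧ f ∈ LD (E + Finsupp.single P n)
  have hdeg : ∀ n, degD (E + Finsupp.single P n) = degD E + n := by
    intro n
    rw [degD_add, degD_single, CE5_280.degP_eq_one]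
    push_cast
    ring
  have hbdd : ∀ n, A n → -degD E ≤ n := by
    rintro n ⟨f, hf0, hf⟩
    by_contra hcon
    push Not at hcon
    exact hf0 (eq_zero_of_degD_neg (by rw [hdeg]; omega) hf)
  have hne : ∃ n, A n := by
    obtain ⟨f, hf1, hf2⟩ := exists_gen_at (D := E + Finsupp.single P
      (|degD E| + |degD (canD C K)| + 2)) P (by
        rw [hdeg, CE5_280.degP_eq_one]
        have := neg_abs_le (degD E)
        have := le_abs_self (degD (canD C K))
        push_cast
        omega)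
    refine ⟨_, f, ?_, hf1⟩
    rintro rfl
    rw [map_zero] at hf2
    exact exp_ne_zero hf2.symm
  obtain ⟨n, ⟨f, hf0, hf⟩, hmin⟩ := Int.exists_least_of_bdd ⟨-degD E, hbdd⟩ hne
  -- `f` is unique up to constants
  have huniq : ∀ g : K, g ≠ 0 → g ∈ LD (E + Finsupp.single P n) → ∃ c : C, c ≠ 0 ∧
      g = algebraMap C K c * f := by
    intro g hg0 hg
    have hval : ∀ g : K, g ≠ 0 → g ∈ LD (E + Finsupp.single P n) → P.v g = exp (E P + n) := by
      intro g hg0 hg
      by_contra hne'
      have h1 : P.v g ≤ exp (E P + n) := by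
        have := (mem_LD.1 hg) P
        simpa using this
      have h2 : g ∈ LD (E + Finsupp.single P (n - 1)) := by
        rw [mem_LD]
        intro R
        by_cases hR : R = P
        · subst hR
          have h3 := RR2_948.lt_exp_iff _ _ |>.1 (lt_of_le_of_ne h1 hne')
          rw [Finsupp.add_apply, Finsupp.single_eq_same]
          rw [show E R + (n - 1) = E R + n - 1 by ring]
          exact h3
        · have h3 := (mem_LD.1 hg) R
          rw [Finsupp.add_apply, Finsupp.single_eq_of_ne hR] at h3 ⊢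
          exact h3
      have := hmin (n - 1) ⟨g, hg0, h2⟩
      omega
    have hq : P.v (g / f) ≤ 1 := by
      rw [map_div₀, hval g hg0 hg, hval f hf0 hf, div_self exp_ne_zero]
    obtain ⟨c, hc⟩ := CE1_280.exists_residue P hq
    have h4 : g - algebraMap C K c * f = 0 := by
      by_contra h5
      have h6 : g - algebraMap C K c * f ∈ LD (E + Finsupp.single P n) := by
        refine Submodule.sub_mem _ hg ?_
        rw [← Algebra.smul_def]
        exact Submodule.smul_mem _ _ hf
      have h7 := hval _ h5 h6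
      have h8 : g - algebraMap C K c * f = (g / f - algebraMap C K c) * f := by
        rw [sub_mul, div_mul_cancel₀ _ hf0]
      rw [h8, map_mul, hval f hf0 hf] at h7
      have h9 : P.v (g / f - algebraMap C K c) = 1 := by
        have := mul_right_cancel₀ (exp_ne_zero) (h7.trans (one_mul _).symm)
        exact this
      rw [h9] at hc
      exact lt_irrefl _ hc
    rw [sub_eq_zero] at h4
    refine ⟨c, ?_, h4⟩
    rintro rfl
    rw [map_zero, zero_mul] at h4
    exact hg0 h4
  refine ⟨f, hf0, fun s Q => ?_⟩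
  obtain ⟨g, hg0, hg⟩ := hE s
  have hPs : comapPl k C s P = P := inv_iff.1 hP s (mem_Gam_bot k C K₀ K s)
  have hsf0 : s f ≠ 0 := by simpa using hf0
  have hsgl : ∀ R : Pl C K, (Finsupp.single P n : Pl C K →₀ ℤ) (comapPl k C s R) =
      Finsupp.single P n R := by
    intro R
    refine divisor_inv (k' := (⊥ : IntermediateField k C)) (fun S hS => ?_)
      (mem_Gam_bot k C K₀ K s) R
    have h1 : S = P := by simpa using Finsupp.support_single_subset hS
    rw [h1]; exact hP
  have hmem : s f * g ∈ LD (E + Finsupp.single P n) := by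
    rw [mem_LD]
    intro R
    have h1 := (mem_LD.1 hf) (comapPl k C s R)
    rw [comapPl_v, Finsupp.add_apply, hg, hsgl] at h1
    rw [map_mul, v_eq hg0 R, Finsupp.add_apply]
    calc R.v (s f) * exp (-divf (k := C) g R)
        ≤ exp (E R + divf (k := C) g R + (Finsupp.single P n : Pl C K →₀ ℤ) R) *
          exp (-divf (k := C) g R) := mul_le_mul_left h1 _
      _ = exp (E R + (Finsupp.single P n : Pl C K →₀ ℤ) R) := by
          rw [← exp_add]; congr 1; ring
  obtain ⟨c, hc0, hc⟩ := huniq _ (mul_ne_zero hsf0 hg0) hmem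
  have hcK : algebraMap C K c ≠ 0 := by simpa using hc0
  -- compare the divisors
  have h1 : divf (k := C) f (comapPl k C s Q) = divf (k := C) (s f) Q := by
    have e1 := v_eq (k := C) hf0 (comapPl k C s Q)
    rw [comapPl_v, v_eq (k := C) hsf0 Q, exp_inj] at e1
    omega
  have h2 : divf (k := C) (s f) Q + divf (k := C) g Q = divf (k := C) f Q := by
    have e1 := congrArg (fun D : Pl C K →₀ ℤ => D Q) (divf_mul (k := C) hsf0 hg0)
    have e2 := congrArg (fun D : Pl C K →₀ ℤ => D Q) (divf_mul (k := C) hcK hf0)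
    simp only [Finsupp.add_apply] at e1 e2
    rw [hc] at e1
    have e3 := v_eq (k := C) hcK Q
    rw [Q.const c hc0, ← exp_zero, exp_inj] at e3
    omega
  rw [Finsupp.add_apply, Finsupp.add_apply, hg, h1]
  omega

/-- **Descent of an invariant class** (leaf E2 of the D-line). -/
theorem descend (hc : algebraicClosure k K₀ = ⊥) {P : Pl C K}
    (hP : Inv K₀ (⊥ : IntermediateField k C) P) (E : Pl C K →₀ ℤ)
    (hE : ∀ s : K ≃ₐ[K₀] K, ∃ g : K, g ≠ 0 ∧
      ∀ Q : Pl C K, E (comapPl k C s Q) = E Q + divf (k := C) g Q) (N : ℤ)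
    (δ₀ : Pl k K₀ →₀ ℤ) {f : K} (hf : f ≠ 0) (hδ : conC hc δ₀ = N • E + divf (k := C) f) :
    ∃ (D : Pl k K₀ →₀ ℤ) (f₀ : K₀), f₀ ≠ 0 ∧ δ₀ = N • D + divf (k := k) f₀ := by
  obtain ⟨g, hg0, hg⟩ := exists_inv_divisor hP E hE
  obtain ⟨D, hD⟩ := exists_conC hc hP hg
  set F : K := f * (g ^ N)⁻¹ with hF
  have hgN : g ^ N ≠ 0 := zpow_ne_zero _ hg0
  have hF0 : F ≠ 0 := mul_ne_zero hf (inv_ne_zero hgN)
  have hdiv : divf (k := C) F = conC hc (δ₀ - N • D) := by
    ext Q
    have e1 := v_eq (k := C) hF0 Q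
    rw [hF, map_mul, map_inv₀, map_zpow₀, v_eq (k := C) hf Q, v_eq (k := C) hg0 Q, ← exp_zsmul,
      ← exp_neg, ← exp_add, exp_inj] at e1
    have e2 := congrArg (fun D : Pl C K →₀ ℤ => D Q) hδ
    have e3 := congrArg (fun D : Pl C K →₀ ℤ => D Q) hD
    simp only [conC_apply, Finsupp.add_apply, Finsupp.smul_apply, smul_eq_mul] at e2 e3 e1
    rw [conC_apply, Finsupp.sub_apply, Finsupp.smul_apply, smul_eq_mul]
    rw [← hF] at e1
    linear_combination e1 - e2 + N * e3
  obtain ⟨c, f₁, hc0, hf1, hf10, hcf⟩ := exists_lev_of_divf (k := k) (K₀ := K₀)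
    CE5_280.algebraicClosure_eq_bot (k' := (⊥ : IntermediateField k C)) hF0 (by
      intro s _ Q
      rw [hdiv, conC_apply, conC_apply, resC_comapPl])
  obtain ⟨f₀, rfl⟩ := mem_lev_bot k C K₀ K hf1
  have hf00 : f₀ ≠ 0 := by
    rintro rfl
    exact hf10 (map_zero _)
  refine ⟨D, f₀, hf00, ?_⟩
  have h1 : (conC hc (δ₀ - N • D) : Pl C K →₀ ℤ) = conC hc (divf (k := k) f₀) := by
    rw [← hdiv, conC_divf hc hf00]
    ext Q
    have e1 := v_eq (k := C) hF0 Q
    rw [hcf, Algebra.smul_def, map_mul, Q.const c hc0, one_mul, v_eq (k := C) hf10 Q,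
      exp_inj, ← Algebra.smul_def, ← hcf] at e1
    omega
  have h2 := conC_injective hc h1
  rw [← h2]
  abel

/-- `descend` with a place of degree one of `K₀/k`. -/
theorem descend_deg_one (hc : algebraicClosure k K₀ = ⊥) (P₀ : Pl k K₀) (hP₀ : degP P₀ = 1)
    (E : Pl C K →₀ ℤ)
    (hE : ∀ s : K ≃ₐ[K₀] K, ∃ g : K, g ≠ 0 ∧
      ∀ Q : Pl C K, E (comapPl k C s Q) = E Q + divf (k := C) g Q) (N : ℤ)
    (δ₀ : Pl k K₀ →₀ ℤ) {f : K} (hf : f ≠ 0) (hδ : conC hc δ₀ = N • E + divf (k := C) f) :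
    ∃ (D : Pl k K₀ →₀ ℤ) (f₀ : K₀), f₀ ≠ 0 ∧ δ₀ = N • D + divf (k := k) f₀ := by
  have halg : Algebra.IsAlgebraic k C := h.alg
  obtain ⟨P, rfl⟩ := resC_surjective (k := k) (C := C) (K₀ := K₀) (K := K) P₀
  exact descend hc (inv_of_degP_one hc hP₀) E hE N δ₀ hf hδ

end main

end Crest.Agent.R013.DE2_854
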