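import Crest.Agent.R013.Good3_940
import Crest.Agent.R013.HU1_522

/-!
# R013 / DE5a (helper561): integration of a form on a small disc

* `tendsto_ev_ex` : the value of `exp(F)` is the exponential of the value of `F`;
* `ev_prod_eq` : `H' = λ w H`, `z = ∫ w`, `z(a') + z(b') = z(a) + z(b)` ⟹
  `H(a') H(b') = H(a) H(b)`;
* `eventually_exists` : for `w(b) ≠ 0` and `a'` near `a` there is `b'` near `b` with
  `z(a') + z(b') = z(a) + z(b)`.
-/

set_option autoImplicit false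
set_option linter.all false

namespace Crest.Agent.R013.DE5a_561

open PowerSeries Filter Topology
open Crest.Agent.R013.KAS2_940 (Bd bd_C bd_zero bd_one bd_monomial antid antid_bd constantCoeff_antid
  derivative_antid coeff_antid ex ex_add ode_unique derivative_ex constantCoeff_ex coeff_ex'
  norm_factorial_ge coeff_pow_eq_zero)
open Crest.Agent.R013.KAS3_940
open Crest.Agent.R013.Good3_940
open Crest.Agent.R013.LemD_323 (ev shift coeff_shift ev_shift summable_shift summable_ev hasFPS)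

variable {F : Type*} [NontriviallyNormedField F] [IsUltrametricDist F] [CompleteSpace F]

theorem norm_ev_le {r B : ℝ} {f : F⟦X⟧} (hf : Bd r B f) {x : F} (hx : ‖x‖ ≤ r) : ‖ev f x‖ ≤ B := by
  unfold ev
  refine IsUltrametricDist.norm_tsum_le_of_forall_le_of_nonneg hf.nonneg fun m => ?_
  rw [norm_mul, norm_pow]
  refine le_trans ?_ (hf m)
  gcongr

theorem ev_add {r B D : ℝ} {f g : F⟦X⟧} (hf : Bd r B f) (hg : Bd r D g) {x : F} (hx : ‖x‖ < r) :
    ev (f + g) x = ev f x + ev g x := by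
  unfold ev
  rw [← (summable_ev (toBd hf) hx).tsum_add (summable_ev (toBd hg) hx)]
  exact tsum_congr fun m => by rw [map_add, add_mul]

theorem ev_sub {r B D : ℝ} {f g : F⟦X⟧} (hf : Bd r B f) (hg : Bd r D g) {x : F} (hx : ‖x‖ < r) :
    ev (f - g) x = ev f x - ev g x := by
  unfold ev
  rw [← (summable_ev (toBd hf) hx).tsum_sub (summable_ev (toBd hg) hx)]
  exact tsum_congr fun m => by rw [map_sub, sub_mul]

theorem ev_C_mul (c : F) (f : F⟦X⟧) (x : F) : ev (C c * f) x = c * ev f x := by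
  unfold ev
  rw [← tsum_mul_left]
  exact tsum_congr fun m => by rw [coeff_C_mul, mul_assoc]

theorem ev_one (x : F) : ev (1 : F⟦X⟧) x = 1 := by
  unfold ev
  rw [tsum_eq_single 0]
  · simp
  · intro m hm
    rw [coeff_one, if_neg hm, zero_mul]

theorem ev_X (x : F) : ev (X : F⟦X⟧) x = x := by
  unfold ev
  rw [tsum_eq_single 1]
  · simp
  · intro m hm
    rw [coeff_X, if_neg hm, zero_mul]

theorem ev_pow {r B : ℝ} {f : F⟦X⟧} (hf : Bd r B f) {x : F} (hx : ‖x‖ < r) (n : ℕ) :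
    ev (f ^ n) x = ev f x ^ n := by
  have hr : 0 < r := (norm_nonneg x).trans_lt hx
  induction n with
  | zero => rw [pow_zero, pow_zero, ev_one]
  | succ n ih => rw [pow_succ, pow_succ, ev_mul (hf.pow hr n) hf hx, ih]

section exp

variable [CharZero F] [Algebra ℚ F]

/-- the truncated exponential of a power series -/
noncomputable def tr (f : F⟦X⟧) (N : ℕ) : F⟦X⟧ :=
  ∑ d ∈ Finset.range N, C (((d.factorial : F))⁻¹) * f ^ d

theorem bd_tr {p : ℕ} (hp : p.Prime) {l : ℝ} (hl0 : 0 < l) (hl1 : l < 1)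
    (hl : l ^ (p - 1) = ‖(p : F)‖) {r B : ℝ} (hr : 0 < r) {f : F⟦X⟧} (hf : Bd r B f) (hB : B ≤ l)
    (N : ℕ) : Bd r 1 (tr f N) := by
  have hB0 := hf.nonneg
  unfold tr
  induction N with
  | zero => rw [Finset.range_zero, Finset.sum_empty]; exact bd_zero zero_le_one
  | succ N ih =>
    rw [Finset.sum_range_succ]
    refine ih.add hr.le (((hf.pow hr N).C_mul _).mono ?_)
    rcases N with _ | N
    · simp
    · have h3 := norm_factorial_ge (K := F) hp hl0 hl1 hl N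
      rw [norm_inv]
      have h4 : (0 : ℝ) < l ^ N := pow_pos hl0 _
      calc ‖(((N + 1).factorial : ℕ) : F)‖⁻¹ * B ^ (N + 1) ≤ (l ^ N)⁻¹ * l ^ (N + 1) := by gcongr
        _ = l := by rw [pow_succ]; field_simp
        _ ≤ 1 := hl1.le

theorem ev_tr {p : ℕ} (hp : p.Prime) {l : ℝ} (hl0 : 0 < l) (hl1 : l < 1)
    (hl : l ^ (p - 1) = ‖(p : F)‖) {r B : ℝ} {f : F⟦X⟧} (hf : Bd r B f) (hB : B ≤ l)
    {x : F} (hx : ‖x‖ < r) (N : ℕ) :
    ev (tr f N) x = ∑ d ∈ Finset.range N, ((d.factorial : F))⁻¹ * ev f x ^ d := by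
  have hr : 0 < r := (norm_nonneg x).trans_lt hx
  induction N with
  | zero =>
    unfold tr
    rw [Finset.range_zero, Finset.sum_empty, Finset.sum_empty]
    unfold ev; simp
  | succ N ih =>
    have h1 : tr f (N + 1) = tr f N + C (((N.factorial : F))⁻¹) * f ^ N := by
      unfold tr; rw [Finset.sum_range_succ]
    rw [h1, ev_add (bd_tr hp hl0 hl1 hl hr hf hB N) ((hf.pow hr N).C_mul _) hx, ih,
      Finset.sum_range_succ, ev_C_mul, ev_pow hf hx]

/-- distance of the exponential and the truncated exponential -/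
theorem bd_ex_sub_tr {p : ℕ} (hp : p.Prime) {l : ℝ} (hl0 : 0 < l) (hl1 : l < 1)
    (hl : l ^ (p - 1) = ‖(p : F)‖) {r B : ℝ} (hr : 0 < r) {f : F⟦X⟧}
    (h0 : constantCoeff f = 0) (hf : Bd r B f) (hB : B ≤ l) (N : ℕ) :
    Bd r (B * (B / l) ^ N) (ex f - tr f (N + 1)) := by
  intro m
  have hB0 := hf.nonneg
  have hrm : 0 < r ^ m := pow_pos hr m
  rw [← le_div_iff₀ hrm]
  have h1 : coeff m (ex f - tr f (N + 1)) =
      ∑ d ∈ Finset.range (m + 1), (((N + 1 + d).factorial : F))⁻¹ * coeff m (f ^ (N + 1 + d)) := by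
    rw [map_sub, coeff_ex' h0 m (N + 1 + (m + 1)) (by omega), Finset.sum_range_add]
    have h2 : coeff m (tr f (N + 1)) =
        ∑ d ∈ Finset.range (N + 1), ((d.factorial : F))⁻¹ * coeff m (f ^ d) := by
      unfold tr
      rw [map_sum]
      exact Finset.sum_congr rfl fun d _ => by rw [coeff_C_mul]
    rw [h2]
    ring
  rw [h1]
  refine IsUltrametricDist.norm_sum_le_of_forall_le_of_nonneg (by positivity) ?_
  intro d _
  rw [le_div_iff₀ hrm, norm_mul, norm_inv]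
  have h2 := (hf.pow hr (N + 1 + d)) m
  have h3 := norm_factorial_ge (K := F) hp hl0 hl1 hl (N + d)
  have h3' : l ^ (N + d) ≤ ‖(((N + 1 + d).factorial : ℕ) : F)‖ := by
    rw [show N + 1 + d = N + d + 1 by ring]; exact h3
  have h4 : (0 : ℝ) < l ^ (N + d) := pow_pos hl0 _
  calc ‖(((N + 1 + d).factorial : ℕ) : F)‖⁻¹ * ‖coeff m (f ^ (N + 1 + d))‖ * r ^ m
      = ‖(((N + 1 + d).factorial : ℕ) : F)‖⁻¹ * (‖coeff m (f ^ (N + 1 + d))‖ * r ^ m) := by ring
    _ ≤ (l ^ (N + d))⁻¹ * B ^ (N + 1 + d) := by gcongr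
    _ = B * (B / l) ^ N * (B / l) ^ d := by
        rw [pow_add, pow_add, pow_add, div_pow, div_pow, mul_inv]; field_simp
    _ ≤ B * (B / l) ^ N * 1 := by
        gcongr
        exact pow_le_one₀ (by positivity) ((div_le_one hl0).mpr hB)
    _ = _ := mul_one _

/-- the value of `exp(f)` is the exponential of the value of `f` -/
theorem tendsto_ev_ex {p : ℕ} (hp : p.Prime) {l : ℝ} (hl0 : 0 < l) (hl1 : l < 1)
    (hl : l ^ (p - 1) = ‖(p : F)‖) {r B : ℝ} {f : F⟦X⟧}
    (h0 : constantCoeff f = 0) (hf : Bd r B f) (hB : B < l) {x : F} (hx : ‖x‖ < r) :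
    Tendsto (fun N => ∑ d ∈ Finset.range (N + 1), ((d.factorial : F))⁻¹ * ev f x ^ d) atTop
      (𝓝 (ev (ex f) x)) := by
  have hr : 0 < r := (norm_nonneg x).trans_lt hx
  have hB0 := hf.nonneg
  have hex : Bd r 1 (ex f) := by
    have h1 := bd_ex_sub_tr hp hl0 hl1 hl hr h0 hf hB.le 0
    have h2 : ex f = (ex f - tr f 1) + tr f 1 := by ring
    rw [h2]
    refine (h1.mono ?_).add hr.le (bd_tr hp hl0 hl1 hl hr hf hB.le 1)
    rw [pow_zero, mul_one]
    exact hB.le.trans hl1.le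
  rw [tendsto_iff_norm_sub_tendsto_zero]
  have hlim : Tendsto (fun N : ℕ => B * (B / l) ^ N) atTop (𝓝 0) := by
    have := (tendsto_pow_atTop_nhds_zero_of_lt_one (r := B / l) (by positivity)
      ((div_lt_one hl0).mpr hB)).const_mul B
    rwa [mul_zero] at this
  refine squeeze_zero (fun N => norm_nonneg _) (fun N => ?_) hlim
  rw [← ev_tr hp hl0 hl1 hl hf hB.le hx, norm_sub_rev,
    ← ev_sub hex (bd_tr hp hl0 hl1 hl hr hf hB.le _) hx]
  exact norm_ev_le (bd_ex_sub_tr hp hl0 hl1 hl hr h0 hf hB.le N) hx.le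

/-- the `p`-adic exponential `y ↦ ∑ y^d/d!` for `|y| < l` -/
noncomputable def E (y : F) : F := ev (ex (C y * X)) 1

theorem bd_CX {y : F} {r : ℝ} (hr : 0 < r) : Bd r (‖y‖ * r) (C y * X : F⟦X⟧) := by
  have h := (bd_monomial (K := F) hr.le 1 1).C_mul y
  rw [← X_eq, norm_one, one_mul, pow_one] at h
  exact h

theorem cc_CX (y : F) : constantCoeff (C y * X : F⟦X⟧) = 0 := by simp

theorem exists_rad {l : ℝ} (hl0 : 0 < l) {y : F} (hy : ‖y‖ < l) : ∃ r : ℝ, 1 < r ∧ ‖y‖ * r < l := by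
  rcases (norm_nonneg y).eq_or_lt with h | h
  · exact ⟨2, by norm_num, by rw [← h, zero_mul]; exact hl0⟩
  · have h1 : 1 < l / ‖y‖ := (one_lt_div h).mpr hy
    refine ⟨(1 + l / ‖y‖) / 2, by linarith, ?_⟩
    have h2 : (1 + l / ‖y‖) / 2 < l / ‖y‖ := by linarith
    calc ‖y‖ * ((1 + l / ‖y‖) / 2) < ‖y‖ * (l / ‖y‖) := by gcongr
      _ = l := by field_simp

theorem tendsto_E {p : ℕ} (hp : p.Prime) {l : ℝ} (hl0 : 0 < l) (hl1 : l < 1)
    (hl : l ^ (p - 1) = ‖(p : F)‖) {y : F} (hy : ‖y‖ < l) :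
    Tendsto (fun N => ∑ d ∈ Finset.range (N + 1), ((d.factorial : F))⁻¹ * y ^ d) atTop
      (𝓝 (E y)) := by
  obtain ⟨r, hr1, hr2⟩ := exists_rad hl0 hy
  have h := tendsto_ev_ex hp hl0 hl1 hl (cc_CX y) (bd_CX (by linarith)) hr2
    (x := (1 : F)) (by rw [norm_one]; exact hr1)
  have h1 : ev (C y * X : F⟦X⟧) 1 = y := by rw [ev_C_mul, ev_X, mul_one]
  rw [h1] at h
  exact h

theorem E_add {p : ℕ} (hp : p.Prime) {l : ℝ} (hl0 : 0 < l) (hl1 : l < 1)
    (hl : l ^ (p - 1) = ‖(p : F)‖) {y y' : F} (hy : ‖y‖ < l) (hy' : ‖y'‖ < l) :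
    E (y + y') = E y * E y' := by
  obtain ⟨r1, hr1, hr2⟩ := exists_rad hl0 hy
  obtain ⟨r1', hr1', hr2'⟩ := exists_rad hl0 hy'
  have key : ∀ {y : F} {r : ℝ}, 1 < r → ‖y‖ * r < l → Bd r 1 (ex (C y * X)) := by
    intro y r hr hyr
    have hr0 : 0 < r := by linarith
    exact KAS2_940.ex_bd_one hp hl0 hl1 hl hr0 (cc_CX y) (bd_CX hr0) hyr.le
  set r := min r1 r1' with hr
  have hr1r : 1 < r := lt_min hr1 hr1'
  have h1 : ‖y‖ * r < l := lt_of_le_of_lt (by gcongr; exact min_le_left _ _) hr2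
  have h2 : ‖y'‖ * r < l := lt_of_le_of_lt (by gcongr; exact min_le_right _ _) hr2'
  unfold E
  rw [← ev_mul (key hr1r h1) (key hr1r h2) (by rw [norm_one]; exact hr1r),
    ← ex_add (cc_CX y) (cc_CX y')]
  congr 2
  rw [map_add, add_mul]

theorem ev_ex {p : ℕ} (hp : p.Prime) {l : ℝ} (hl0 : 0 < l) (hl1 : l < 1)
    (hl : l ^ (p - 1) = ‖(p : F)‖) {r B : ℝ} {f : F⟦X⟧}
    (h0 : constantCoeff f = 0) (hf : Bd r B f) (hB : B < l) {x : F} (hx : ‖x‖ < r) :
    ev (ex f) x = E (ev f x) :=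
  tendsto_nhds_unique (tendsto_ev_ex hp hl0 hl1 hl h0 hf hB hx)
    (tendsto_E hp hl0 hl1 hl ((norm_ev_le hf hx.le).trans_lt hB))

/-- on a smaller radius a series without constant term is small -/
theorem bd_shrink {f : F⟦X⟧} (h0 : constantCoeff f = 0) {s M : ℝ} (hs : 0 < s) (hf : Bd s M f)
    {r : ℝ} (hr : 0 ≤ r) (hrs : r ≤ s) : Bd r (M * (r / s)) f := by
  intro m
  have hM := hf.nonneg
  rcases m with _ | m
  · rw [coeff_zero_eq_constantCoeff_apply, h0, norm_zero, zero_mul]; positivity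
  · have h1 : ‖coeff (m + 1) f‖ ≤ M / s ^ (m + 1) := (le_div_iff₀ (pow_pos hs _)).mpr (hf (m + 1))
    calc ‖coeff (m + 1) f‖ * r ^ (m + 1) ≤ M / s ^ (m + 1) * r ^ (m + 1) := by gcongr
      _ = M * (r / s) * (r / s) ^ m := by rw [pow_succ, pow_succ, div_pow]; field_simp
      _ ≤ M * (r / s) * 1 := by
          gcongr
          exact pow_le_one₀ (by positivity) ((div_le_one hs).mpr hrs)
      _ = _ := mul_one _

/-- **values of a solution of `H' = λ w H` at four points** -/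
theorem ev_prod_eq {p : ℕ} (hp : p.Prime) {l : ℝ} (hl0 : 0 < l) (hl1 : l < 1)
    (hl : l ^ (p - 1) = ‖(p : F)‖) {w H : F⟦X⟧} {lam : F} (hH0 : constantCoeff H = 1)
    (hH : d⁄dX F H = (C lam * w) * H) (hw : Bd 1 1 (C lam * w)) {a b a' b' : F}
    (ha : ‖a‖ < l) (hb : ‖b‖ < l) (ha' : ‖a'‖ < l) (hb' : ‖b'‖ < l)
    (hz : ev (antid w) a' + ev (antid w) b' = ev (antid w) a + ev (antid w) b) :
    ev H a' * ev H b' = ev H a * ev H b := by
  set f : F⟦X⟧ := antid (C lam * w) with hf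
  have hf0 : constantCoeff f = 0 := constantCoeff_antid _
  have hHe : H = ex f := by
    refine ode_unique hH ?_ ?_
    · rw [derivative_ex hf0, hf, derivative_antid]
    · rw [hH0, constantCoeff_ex hf0]
  have hfz : f = C lam * antid w := by
    ext m
    rcases m with _ | m
    · rw [coeff_zero_eq_constantCoeff_apply, coeff_zero_eq_constantCoeff_apply, hf0, map_mul,
        constantCoeff_antid, mul_zero]
    · rw [hf, coeff_antid, coeff_C_mul, coeff_C_mul, coeff_antid, mul_div_assoc]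
  have hfb : Bd l l f := by
    have := antid_bd hp hl0 hl1 hl one_pos hw
    rwa [one_mul, one_mul] at this
  -- a radius between the points and `l`
  obtain ⟨r, hr1, hrl⟩ : ∃ r, max (max ‖a‖ ‖b‖) (max ‖a'‖ ‖b'‖) < r ∧ r < l :=
    exists_between (max_lt (max_lt ha hb) (max_lt ha' hb'))
  have hr0 : 0 < r := lt_of_le_of_lt ((norm_nonneg a).trans ((le_max_left _ _).trans
    (le_max_left _ _))) hr1
  have hfr : Bd r (l * (r / l)) f := bd_shrink hf0 hl0 hfb hr0.le hrl.le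
  have hB : l * (r / l) < l := by rw [mul_div_cancel₀ _ hl0.ne']; exact hrl
  have hax : ‖a‖ < r := lt_of_le_of_lt ((le_max_left _ _).trans (le_max_left _ _)) hr1
  have hbx : ‖b‖ < r := lt_of_le_of_lt ((le_max_right _ _).trans (le_max_left _ _)) hr1
  have hax' : ‖a'‖ < r := lt_of_le_of_lt ((le_max_left _ _).trans (le_max_right _ _)) hr1
  have hbx' : ‖b'‖ < r := lt_of_le_of_lt ((le_max_right _ _).trans (le_max_right _ _)) hr1
  have key : ∀ {x : F}, ‖x‖ < r → ev H x = E (ev f x) := fun {x} hx => by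
    rw [hHe]; exact ev_ex hp hl0 hl1 hl hf0 hfr hB hx
  have hsm : ∀ {x : F}, ‖x‖ < r → ‖ev f x‖ < l := fun {x} hx =>
    (norm_ev_le hfr hx.le).trans_lt hB
  rw [key hax, key hbx, key hax', key hbx', ← E_add hp hl0 hl1 hl (hsm hax') (hsm hbx'),
    ← E_add hp hl0 hl1 hl (hsm hax) (hsm hbx)]
  congr 1
  rw [hfz, ev_C_mul, ev_C_mul, ev_C_mul, ev_C_mul, ← mul_add, hz, mul_add]

end exp

/-! ### open mapping -/

theorem coeff_zero_shift {r : ℝ} {f : F⟦X⟧} {s : F} : coeff 0 (shift s f) = ev f s := by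
  rw [coeff_shift]
  unfold ev
  exact tsum_congr fun n => by simp

theorem coeff_one_shift_antid [CharZero F] {w : F⟦X⟧} {s : F} :
    coeff 1 (shift s (antid w)) = ev w s := by
  rw [coeff_shift]
  unfold ev
  refine tsum_congr fun n => ?_
  rw [coeff_antid, Nat.choose_one_right]
  have h3 : ((n + 1 : ℕ) : F) ≠ 0 := Nat.cast_ne_zero.mpr (Nat.succ_ne_zero n)
  field_simp

theorem hasFPS' {r B : ℝ} {f : F⟦X⟧} (hf : Bd r B f) {s : F} (hs : ‖s‖ < r) :
    HasFPowerSeriesOnBall (ev f) (LemD_323.fms F (shift s f)) s (ENNReal.ofReal r) := by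
  have := hasFPS (F := F) (k := F) (toBd hf) hs
  exact this

/-- **open mapping**: `z(a') + z(b') = z(a) + z(b)` can be solved for `b'` -/
theorem eventually_exists [CharZero F] {r B : ℝ} {w : F⟦X⟧} (hz : Bd r B (antid w)) {a b : F}
    (ha : ‖a‖ < r) (hb : ‖b‖ < r) (hw : ev w b ≠ 0) {ε : ℝ} (hε : 0 < ε) :
    ∀ᶠ a' in 𝓝 a, ∃ b' : F, ‖b' - b‖ < ε ∧
      ev (antid w) a' + ev (antid w) b' = ev (antid w) a + ev (antid w) b := by
  have h1 := (hasFPS' hz hb).hasFPowerSeriesAt.hasStrictDerivAt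
  have h2 : (LemD_323.fms F (shift b (antid w)) 1) (fun _ => 1) = ev w b := by
    rw [LemD_323.fms, ContinuousMultilinearMap.mkPiRing_apply]
    simp [coeff_one_shift_antid]
  rw [h2] at h1
  have h3 := h1.map_nhds_eq hw
  have h4 : Metric.ball b ε ∈ 𝓝 b := Metric.ball_mem_nhds b hε
  have h5 : ev (antid w) '' Metric.ball b ε ∈ 𝓝 (ev (antid w) b) := by
    rw [← h3]; exact image_mem_map h4
  have h6 : ContinuousAt (ev (antid w)) a :=
    (hasFPS' hz ha).hasFPowerSeriesAt.analyticAt.continuousAt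
  have h7 : Tendsto (fun a' => ev (antid w) a + ev (antid w) b - ev (antid w) a') (𝓝 a)
      (𝓝 (ev (antid w) b)) := by
    have h8 : ev (antid w) a + ev (antid w) b - ev (antid w) a = ev (antid w) b := by ring
    have := (tendsto_const_nhds (x := ev (antid w) a + ev (antid w) b) (f := 𝓝 a)).sub h6
    rwa [h8] at this
  filter_upwards [h7 h5] with a' ha'
  obtain ⟨b', hb', hb2⟩ := ha'
  refine ⟨b', by simpa [dist_eq_norm] using hb', ?_⟩
  rw [hb2]; ring

/-- a nonzero bounded series does not vanish at small nonzero points -/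
theorem exists_ev_ne_zero {r B : ℝ} (hr : 0 < r) {w : F⟦X⟧} (hw : Bd r B w) (h0 : w ≠ 0) :
    ∃ r1 : ℝ, 0 < r1 ∧ r1 ≤ r ∧ ∀ b : F, b ≠ 0 → ‖b‖ < r1 → ev w b ≠ 0 := by
  have h0r : ‖(0 : F)‖ < r := by rwa [norm_zero]
  have h1 := (hasFPS' hw h0r).hasFPowerSeriesAt
  rcases h1.analyticAt.eventually_eq_zero_or_eventually_ne_zero with h | h
  · exfalso
    exact h0 (LemD_323.eq_zero_of_ev (F := F) hr (toBd hw) h)
  · rw [eventually_nhdsWithin_iff, Metric.eventually_nhds_iff] at h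
    obtain ⟨ε, hε, h⟩ := h
    refine ⟨min ε r, lt_min hε hr, min_le_right _ _, fun b hb hb2 => ?_⟩
    refine h ?_ hb
    rw [dist_zero_right]
    exact hb2.trans_le (min_le_left _ _)

end Crest.Agent.R013.DE5a_561
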