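import Mathlib
import Crest.Agent.R013.HU9_522

/-!
# R013 / DERK1 (helper561): the units near `1`

`U p = {u : ‖u - 1‖ < ‖p‖}`: torsion free, `m`-divisible for `p ∤ m` (`C` algebraically closed).
-/

set_option autoImplicit false
set_option linter.all false

namespace Crest.Agent.R013.DERK1_561

open Finset
open Crest.Agent.R013.HU2_522 (norm_sub_le_max522)
open Crest.Agent.R013.HU9_522 (norm_eq_one_of_not_dvd)

variable {C : Type*} [NormedField C] [IsUltrametricDist C]

theorem norm_eq_one_of_sub_lt {u : C} (h : ‖u - 1‖ < 1) : ‖u‖ = 1 := by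
  have h1 : u = 1 + (u - 1) := by ring
  have h2 : ‖(1 : C)‖ = 1 := norm_one
  have h3 : ‖u - 1‖ < ‖(1 : C)‖ := by rw [h2]; exact h
  rw [h1, IsUltrametricDist.norm_add_eq_max_of_norm_ne_norm h3.ne', max_eq_left h3.le, h2]

theorem norm_pow_sub_le {u : C} (h : ‖u‖ ≤ 1) (i : ℕ) : ‖u ^ i - 1‖ ≤ ‖u - 1‖ := by
  induction i with
  | zero => rw [pow_zero, sub_self, norm_zero]; exact norm_nonneg _
  | succ i ih =>
    have h1 : u ^ (i + 1) - 1 = u ^ i * (u - 1) + (u ^ i - 1) := by ring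
    rw [h1]
    refine (IsUltrametricDist.norm_add_le_max _ _).trans (max_le ?_ ih)
    rw [norm_mul, norm_pow]
    exact mul_le_of_le_one_left (norm_nonneg _) (pow_le_one₀ (norm_nonneg _) h)

/-- the geometric sum has the norm of `q` -/
theorem norm_geom {u : C} {q : ℕ} (h1 : ‖u‖ ≤ 1) (h : ‖u - 1‖ < ‖(q : C)‖) :
    ‖∑ i ∈ range q, u ^ i‖ = ‖(q : C)‖ := by
  have h2 : ∑ i ∈ range q, u ^ i = (q : C) + ∑ i ∈ range q, (u ^ i - 1) := by
    rw [sum_sub_distrib]; simp
  have h3 : ‖∑ i ∈ range q, (u ^ i - 1)‖ < ‖(q : C)‖ :=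
    (IsUltrametricDist.norm_sum_le_of_forall_le_of_nonneg (norm_nonneg _)
      fun i _ => norm_pow_sub_le h1 i).trans_lt h
  rw [h2, IsUltrametricDist.norm_add_eq_max_of_norm_ne_norm h3.ne', max_eq_left h3.le]

variable (C) in
/-- the units `u` with `‖u - 1‖ < s` -/
def Us (s : ℝ) (hs0 : 0 < s) (hs1 : s ≤ 1) : Subgroup Cˣ where
  carrier := {u | ‖(u : C) - 1‖ < s}
  one_mem' := by
    show ‖((1 : Cˣ) : C) - 1‖ < s
    rw [Units.val_one, sub_self, norm_zero]; exact hs0
  mul_mem' := by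
    intro a b ha hb
    have ha1 := norm_eq_one_of_sub_lt (lt_of_lt_of_le ha hs1)
    show ‖((a * b : Cˣ) : C) - 1‖ < s
    have h1 : ((a * b : Cˣ) : C) - 1 = a * (b - 1) + (a - 1) := by push_cast; ring
    rw [h1]
    refine lt_of_le_of_lt (IsUltrametricDist.norm_add_le_max _ _) (max_lt ?_ ha)
    rw [norm_mul, ha1, one_mul]; exact hb
  inv_mem' := by
    intro a ha
    have ha1 := norm_eq_one_of_sub_lt (lt_of_lt_of_le ha hs1)
    show ‖((a⁻¹ : Cˣ) : C) - 1‖ < s
    have h1 : ((a⁻¹ : Cˣ) : C) - 1 = (a : C)⁻¹ * (1 - a) := by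
      rw [Units.val_inv_eq_inv_val, mul_sub, inv_mul_cancel₀ a.ne_zero, mul_one]
    rw [h1, norm_mul, norm_inv, ha1, inv_one, one_mul, norm_sub_rev]
    exact ha

theorem mem_Us {s : ℝ} {hs0 : 0 < s} {hs1 : s ≤ 1} {u : Cˣ} :
    u ∈ Us C s hs0 hs1 ↔ ‖(u : C) - 1‖ < s := Iff.rfl

section p

variable [CharZero C] {p : ℕ} [Fact p.Prime] (hp : ‖(p : C)‖ < 1)

include hp in
theorem norm_p_le_prime {q : ℕ} (hq : q.Prime) : ‖(p : C)‖ ≤ ‖(q : C)‖ := by
  by_cases h : p = q
  · rw [h]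
  · have h1 : ¬ (p : ℤ) ∣ (q : ℤ) := by
      rw [Int.natCast_dvd_natCast]
      intro h2
      exact h ((Nat.prime_dvd_prime_iff_eq (Fact.out : p.Prime) hq).mp h2)
    have h2 := norm_eq_one_of_not_dvd hp h1
    rw [Int.cast_natCast] at h2
    rw [h2]; exact hp.le

include hp in
theorem eq_one_of_pow_prime {u : C} (h : ‖u - 1‖ < ‖(p : C)‖) {q : ℕ} (hq : q.Prime)
    (hu : u ^ q = 1) : u = 1 := by
  have h1 : ‖u‖ ≤ 1 := (norm_eq_one_of_sub_lt (h.trans hp)).le
  have h2 := norm_geom h1 (h.trans_le (norm_p_le_prime hp hq))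
  have h3 : (∑ i ∈ range q, u ^ i) * (u - 1) = 0 := by rw [geom_sum_mul, hu, sub_self]
  rcases mul_eq_zero.mp h3 with h4 | h4
  · exfalso
    rw [h4, norm_zero] at h2
    exact (norm_ne_zero_iff.mpr (Nat.cast_ne_zero.mpr hq.ne_zero)) h2.symm
  · exact sub_eq_zero.mp h4

include hp in
/-- no torsion -/
theorem eq_one_of_pow {u : C} (h : ‖u - 1‖ < ‖(p : C)‖) {N : ℕ} (hN : 0 < N)
    (hu : u ^ N = 1) : u = 1 := by
  induction N using Nat.strong_induction_on generalizing u with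
  | _ N ih =>
    rcases Nat.lt_or_ge 1 N with h1 | h1
    · have hq := Nat.minFac_prime (by omega : N ≠ 1)
      obtain ⟨m, hm⟩ := Nat.minFac_dvd N
      have hm0 : 0 < m := by
        rcases Nat.eq_zero_or_pos m with h0 | h0
        · rw [h0, mul_zero] at hm; omega
        · exact h0
      have hmN : m < N := by
        rw [hm]
        exact lt_mul_of_one_lt_left hm0 hq.one_lt
      have hu1 : ‖u‖ ≤ 1 := (norm_eq_one_of_sub_lt (h.trans hp)).le
      have h2 : u ^ m = 1 := by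
        refine eq_one_of_pow_prime hp ((norm_pow_sub_le hu1 m).trans_lt h) hq ?_
        rw [← pow_mul, mul_comm, ← hm, hu]
      exact ih m hmN h hm0 h2
    · have : N = 1 := by omega
      rw [this, pow_one] at hu
      exact hu

end p

/-- `m`-th roots for a unit `m` -/
theorem exists_root [IsAlgClosed C] {m : ℕ} (hm : ‖(m : C)‖ = 1) {y : C} (hy : ‖y - 1‖ < 1) :
    ∃ u : C, u ^ m = y ∧ ‖u - 1‖ = ‖y - 1‖ := by
  classical
  have hm0 : m ≠ 0 := by
    rintro rfl
    rw [Nat.cast_zero, norm_zero] at hm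
    exact zero_ne_one hm
  have hmon : (Polynomial.X ^ m - Polynomial.C y : Polynomial C).Monic :=
    Polynomial.monic_X_pow_sub_C y hm0
  have h1 := (IsAlgClosed.splits (Polynomial.X ^ m - Polynomial.C y : Polynomial C)).eval_eq_prod_roots_of_monic
    hmon 1
  rw [Polynomial.eval_sub, Polynomial.eval_pow, Polynomial.eval_X, Polynomial.eval_C, one_pow] at h1
  obtain ⟨u, hu, hu1⟩ : ∃ u ∈ (Polynomial.X ^ m - Polynomial.C y : Polynomial C).roots,
      ‖u - 1‖ < 1 := by
    by_contra hcon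
    push Not at hcon
    have h2 : ∀ S : Multiset C, (∀ u ∈ S, 1 ≤ ‖u - 1‖) →
        1 ≤ ‖(S.map fun a => 1 - a).prod‖ := by
      intro S
      induction S using Multiset.induction_on with
      | empty => intro _; simp
      | cons a S ih =>
        intro h
        rw [Multiset.map_cons, Multiset.prod_cons, norm_mul, norm_sub_rev]
        exact one_le_mul_of_one_le_of_one_le (h a (Multiset.mem_cons_self a S))
          (ih fun u hu => h u (Multiset.mem_cons_of_mem hu))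
    have h3 := h2 _ hcon
    rw [← h1, norm_sub_rev] at h3
    exact absurd hy (not_lt.mpr h3)
  have hum : u ^ m = y := by
    rw [Polynomial.mem_roots hmon.ne_zero, Polynomial.IsRoot, Polynomial.eval_sub,
      Polynomial.eval_pow, Polynomial.eval_X, Polynomial.eval_C, sub_eq_zero] at hu
    exact hu
  refine ⟨u, hum, ?_⟩
  have hu2 : ‖u‖ ≤ 1 := (norm_eq_one_of_sub_lt hu1).le
  have h4 := norm_geom hu2 (by rw [hm]; exact hu1 : ‖u - 1‖ < ‖(m : C)‖)
  rw [hm] at h4
  have h5 : (∑ i ∈ range m, u ^ i) * (u - 1) = y - 1 := by rw [geom_sum_mul, hum]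
  rw [← h5, norm_mul, h4, one_mul]

end Crest.Agent.R013.DERK1_561
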