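import Mathlib
import Crest.Agent.R013.CE5_280
import Crest.Agent.R013.PicD_398

/-!
# R013 / Frob1: semilinear isomorphisms of function fields and their action on places, divisors,
classes (helper914)

`SI k K k' K'` : a ring isomorphism `K ≃ K'` that maps `k` onto `k'`.
-/

set_option autoImplicit false
set_option linter.all false

namespace Crest.Agent.R013.Frob1_914

open WithZero Module
open Crest.Agent.R013.RR7_948 Crest.Agent.R013.RR8_948 Crest.Agent.R013.RR9_948
open Crest.Agent.R013.RR11_948 Crest.Agent.R013.RR12_948 Crest.Agent.R013.PicD_398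
open Crest.Agent.R013.CE1_280 Crest.Agent.R013.CE5_280

/-- a ring isomorphism `K ≃ K'` that maps `k` onto `k'` -/
structure SI (k K k' K' : Type*) [Field k] [Field K] [Algebra k K] [Field k'] [Field K']
    [Algebra k' K'] where
  s : k ≃+* k'
  f : K ≃+* K'
  comm : ∀ c : k, f (algebraMap k K c) = algebraMap k' K' (s c)

namespace SI

section basic

variable {k K k' K' k'' K'' : Type*} [Field k] [Field K] [Algebra k K] [Field k'] [Field K']
  [Algebra k' K'] [Field k''] [Field K''] [Algebra k'' K'']

/-- identity -/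
def refl (k K : Type*) [Field k] [Field K] [Algebra k K] : SI k K k K where
  s := RingEquiv.refl k
  f := RingEquiv.refl K
  comm := fun _ => rfl

/-- inverse -/
def symm (e : SI k K k' K') : SI k' K' k K where
  s := e.s.symm
  f := e.f.symm
  comm := fun c => by
    apply e.f.injective
    rw [e.f.apply_symm_apply, e.comm, e.s.apply_symm_apply]

/-- composition -/
def trans (e : SI k K k' K') (e' : SI k' K' k'' K'') : SI k K k'' K'' where
  s := e.s.trans e'.s
  f := e.f.trans e'.f
  comm := fun c => by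
    show e'.f (e.f _) = _
    rw [e.comm, e'.comm]
    rfl

@[simp] theorem symm_f (e : SI k K k' K') : e.symm.f = e.f.symm := rfl
@[simp] theorem symm_s (e : SI k K k' K') : e.symm.s = e.s.symm := rfl
@[simp] theorem trans_f (e : SI k K k' K') (e' : SI k' K' k'' K'') :
    (e.trans e').f = e.f.trans e'.f := rfl
@[simp] theorem trans_s (e : SI k K k' K') (e' : SI k' K' k'' K'') :
    (e.trans e').s = e.s.trans e'.s := rfl

@[simp] theorem symm_symm (e : SI k K k' K') : e.symm.symm = e := rfl

/-- transport of places -/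
def pl (e : SI k K k' K') (P : Pl k K) : Pl k' K' where
  v := P.v.comap (e.f.symm : K' →+* K)
  const := fun c hc => by
    show P.v (e.f.symm (algebraMap k' K' c)) = 1
    have := e.symm.comm c
    simp only [symm_f, symm_s] at this
    rw [this]
    exact P.const _ (by simpa using hc)
  surj := fun y => by
    obtain ⟨t, ht⟩ := P.surj y
    exact ⟨e.f t, by show P.v (e.f.symm (e.f t)) = y; rw [e.f.symm_apply_apply]; exact ht⟩

theorem pl_v (e : SI k K k' K') (P : Pl k K) (x : K') : (e.pl P).v x = P.v (e.f.symm x) := rfl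

@[simp] theorem pl_v_apply (e : SI k K k' K') (P : Pl k K) (x : K) :
    (e.pl P).v (e.f x) = P.v x := by
  rw [pl_v, e.f.symm_apply_apply]

theorem pl_trans (e : SI k K k' K') (e' : SI k' K' k'' K'') (P : Pl k K) :
    (e.trans e').pl P = e'.pl (e.pl P) := by
  ext x; rfl

@[simp] theorem pl_refl (P : Pl k K) : (refl k K).pl P = P := by
  ext x; rfl

@[simp] theorem symm_pl_pl (e : SI k K k' K') (P : Pl k K) : e.symm.pl (e.pl P) = P := by
  ext x
  rw [pl_v, pl_v]
  simp

@[simp] theorem pl_symm_pl (e : SI k K k' K') (P : Pl k' K') : e.pl (e.symm.pl P) = P := by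
  ext x
  rw [pl_v, pl_v]
  simp

/-- the bijection of places -/
def plEquiv (e : SI k K k' K') : Pl k K ≃ Pl k' K' where
  toFun := e.pl
  invFun := e.symm.pl
  left_inv := e.symm_pl_pl
  right_inv := e.pl_symm_pl

theorem plEquiv_apply (e : SI k K k' K') (P : Pl k K) : e.plEquiv P = e.pl P := rfl

theorem pl_injective (e : SI k K k' K') : Function.Injective e.pl := e.plEquiv.injective

/-- transport of divisors -/
noncomputable def D (e : SI k K k' K') : (Pl k K →₀ ℤ) ≃+ (Pl k' K' →₀ ℤ) :=
  Finsupp.domCongr e.plEquiv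

theorem D_apply (e : SI k K k' K') (A : Pl k K →₀ ℤ) (P : Pl k' K') :
    e.D A P = A (e.symm.pl P) := by
  unfold D
  rw [Finsupp.domCongr_apply, Finsupp.equivMapDomain_apply]
  rfl

@[simp] theorem D_pl (e : SI k K k' K') (A : Pl k K →₀ ℤ) (P : Pl k K) :
    e.D A (e.pl P) = A P := by
  rw [D_apply, symm_pl_pl]

theorem D_single (e : SI k K k' K') (P : Pl k K) (n : ℤ) :
    e.D (Finsupp.single P n) = Finsupp.single (e.pl P) n := by
  unfold D
  rw [Finsupp.domCongr_apply, Finsupp.equivMapDomain_single]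
  rfl

@[simp] theorem symm_D_D (e : SI k K k' K') (A : Pl k K →₀ ℤ) : e.symm.D (e.D A) = A := by
  ext P
  rw [D_apply, D_apply, symm_symm, symm_pl_pl]

@[simp] theorem D_symm_D (e : SI k K k' K') (A : Pl k' K' →₀ ℤ) : e.D (e.symm.D A) = A := by
  ext P
  rw [D_apply, D_apply, symm_symm, pl_symm_pl]

theorem D_trans (e : SI k K k' K') (e' : SI k' K' k'' K'') (A : Pl k K →₀ ℤ) :
    (e.trans e').D A = e'.D (e.D A) := by
  ext P
  rw [D_apply, D_apply, D_apply]
  rfl

theorem D_nonneg (e : SI k K k' K') {A : Pl k K →₀ ℤ} (hA : 0 ≤ A) : 0 ≤ e.D A := by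
  intro P
  rw [D_apply]
  exact hA _

theorem mem_LD (e : SI k K k' K') {A : Pl k K →₀ ℤ} {x : K} :
    e.f x ∈ LD (e.D A) ↔ x ∈ LD A := by
  rw [RR9_948.mem_LD, RR9_948.mem_LD]
  constructor
  · intro h P
    have := h (e.pl P)
    rwa [pl_v_apply, D_pl] at this
  · intro h P
    have := h (e.symm.pl P)
    rw [D_apply, ← pl_v_apply e, pl_symm_pl] at *
    exact this

end basic

section ctx

variable {k K k' K' k'' K'' : Type*} [Field k] [Field K] [Algebra k K] [Field k'] [Field K']
  [Algebra k' K'] [Field k''] [Field K''] [Algebra k'' K'']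
  [Algebra (RatFunc k) K] [IsScalarTower k (RatFunc k) K] [FiniteDimensional (RatFunc k) K]
  [Algebra.IsSeparable (RatFunc k) K]
  [Algebra (RatFunc k') K'] [IsScalarTower k' (RatFunc k') K'] [FiniteDimensional (RatFunc k') K']
  [Algebra.IsSeparable (RatFunc k') K']
  [Algebra (RatFunc k'') K''] [IsScalarTower k'' (RatFunc k'') K'']
  [FiniteDimensional (RatFunc k'') K''] [Algebra.IsSeparable (RatFunc k'') K'']

theorem divf_f (e : SI k K k' K') {x : K} (hx : x ≠ 0) :
    divf (k := k') (e.f x) = e.D (divf (k := k) x) := by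
  ext P
  have h1 := v_eq (k := k') (f := e.f x) (by simpa using hx) P
  have h2 := v_eq (k := k) hx (e.symm.pl P)
  rw [← pl_v_apply e, pl_symm_pl, h1, exp_inj] at h2
  rw [D_apply]
  omega

theorem degD_D [IsAlgClosed k] [IsAlgClosed k'] (e : SI k K k' K') (A : Pl k K →₀ ℤ) :
    degD (e.D A) = degD A := by
  rw [degD_eq_sum, degD_eq_sum]
  unfold D
  rw [Finsupp.domCongr_apply, Finsupp.sum_equivMapDomain]

theorem map_prin (e : SI k K k' K') : Prin k K ≤ (Prin k' K').comap (e.D : _ →+ _) := by
  rintro _ ⟨x, hx, rfl⟩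
  exact ⟨e.f x, by simpa using hx, e.divf_f hx⟩

/-- transport of divisor classes -/
noncomputable def pic (e : SI k K k' K') : Pic k K ≃+ Pic k' K' where
  toFun := QuotientAddGroup.map (Prin k K) (Prin k' K') (e.D : _ →+ _) e.map_prin
  invFun := QuotientAddGroup.map (Prin k' K') (Prin k K) (e.symm.D : _ →+ _) e.symm.map_prin
  left_inv := fun z => by
    obtain ⟨A, rfl⟩ := cls_surjective z
    show cls (e.symm.D (e.D A)) = cls A
    rw [symm_D_D]
  right_inv := fun z => by
    obtain ⟨A, rfl⟩ := cls_surjective z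
    show cls (e.D (e.symm.D A)) = cls A
    rw [D_symm_D]
  map_add' := fun a b => map_add _ _ _

@[simp] theorem pic_cls (e : SI k K k' K') (A : Pl k K →₀ ℤ) : e.pic (cls A) = cls (e.D A) := rfl

theorem pic_trans (e : SI k K k' K') (e' : SI k' K' k'' K'') (z : Pic k K) :
    (e.trans e').pic z = e'.pic (e.pic z) := by
  obtain ⟨A, rfl⟩ := cls_surjective z
  rw [pic_cls, pic_cls, pic_cls, D_trans]

theorem degPic_pic [IsAlgClosed k] [IsAlgClosed k'] (e : SI k K k' K') (z : Pic k K) :
    degPic (e.pic z) = degPic z := by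
  obtain ⟨A, rfl⟩ := cls_surjective z
  rw [pic_cls, degPic_cls, degPic_cls, degD_D]

end ctx

end SI

end Crest.Agent.R013.Frob1_914
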