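import Mathlib

/-!
# R013 / Frob2: Lang's fixed vector (helper914)

`V ≠ 0` finite dimensional over an algebraically closed field `k`, `Φ : V → V` additive injective
with `Φ (c v) = c ^ q Φ v`, `q ≥ 2`. Then `Φ` has a nonzero fixed vector.
-/

set_option autoImplicit false
set_option linter.all false

namespace Crest.Agent.R013.Frob2_914

open Polynomial

section poly

variable {k : Type*} [Field k]

/-- the coefficient polynomials -/
noncomputable def Pc (q : ℕ) (a : ℕ → k) : ℕ → k[X]
  | 0 => C (a 0) * X ^ q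
  | i + 1 => Pc q a i ^ q + C (a (i + 1)) * X ^ q

theorem Pc_dvd {q : ℕ} (hq : 2 ≤ q) (a : ℕ → k) (i : ℕ) : (X : k[X]) ^ 2 ∣ Pc q a i := by
  have h0 : (X : k[X]) ^ 2 ∣ X ^ q := pow_dvd_pow _ hq
  induction i with
  | zero => exact Dvd.dvd.mul_left h0 _
  | succ i ih =>
    refine dvd_add ?_ (Dvd.dvd.mul_left h0 _)
    exact ih.trans (dvd_pow_self _ (by omega))

theorem natDegree_CX {q : ℕ} {c : k} (hc : c ≠ 0) : (C c * X ^ q : k[X]).natDegree = q :=
  natDegree_C_mul_X_pow q c hc

theorem Pc_deg {q : ℕ} (hq : 2 ≤ q) (a : ℕ → k) (i : ℕ) :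
    (Pc q a i = 0 ∧ ∀ j ≤ i, a j = 0) ∨ (Pc q a i ≠ 0 ∧ q ≤ (Pc q a i).natDegree) := by
  induction i with
  | zero =>
    by_cases h : a 0 = 0
    · left
      refine ⟨by simp [Pc, h], fun j hj => by
        rw [Nat.le_zero.mp hj]; exact h⟩
    · right
      have h1 : (Pc q a 0).natDegree = q := natDegree_CX h
      refine ⟨fun h0 => ?_, h1.ge⟩
      rw [h0, natDegree_zero] at h1
      omega
  | succ i ih =>
    rcases ih with ⟨h1, h2⟩ | ⟨h1, h2⟩
    · by_cases h : a (i + 1) = 0
      · left
        refine ⟨?_, fun j hj => ?_⟩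
        · show Pc q a i ^ q + C (a (i + 1)) * X ^ q = 0
          rw [h1, h, map_zero, zero_mul, add_zero, zero_pow (by omega)]
        · rcases Nat.lt_or_ge i j with h3 | h3
          · have : j = i + 1 := by omega
            rw [this]; exact h
          · exact h2 j h3
      · right
        have e : Pc q a (i + 1) = C (a (i + 1)) * X ^ q := by
          show Pc q a i ^ q + C (a (i + 1)) * X ^ q = _
          rw [h1, zero_pow (by omega), zero_add]
        rw [e]
        refine ⟨?_, (natDegree_CX h).ge⟩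
        intro h0
        have := natDegree_CX (q := q) h
        rw [h0, natDegree_zero] at this
        omega
    · right
      have e : Pc q a (i + 1) = Pc q a i ^ q + C (a (i + 1)) * X ^ q := rfl
      have hd1 : (Pc q a i ^ q).natDegree = q * (Pc q a i).natDegree := natDegree_pow _ _
      have hd2 : (C (a (i + 1)) * X ^ q : k[X]).natDegree ≤ q := natDegree_C_mul_X_pow_le _ _
      have hlt : q < q * (Pc q a i).natDegree := by nlinarith
      have hd : (Pc q a (i + 1)).natDegree = q * (Pc q a i).natDegree := by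
        rw [e, natDegree_add_eq_left_of_natDegree_lt (by rw [hd1]; exact hd2.trans_lt hlt), hd1]
      refine ⟨fun h0 => ?_, by rw [hd]; exact hlt.le⟩
      rw [h0, natDegree_zero] at hd
      omega

theorem exists_root_Pc [IsAlgClosed k] {q : ℕ} (hq : 2 ≤ q) (a : ℕ → k) (i : ℕ) (hj : ∃ j ≤ i, a j ≠ 0) :
    ∃ t : k, t ≠ 0 ∧ (Pc q a i).eval t = t := by
  obtain ⟨R, hR⟩ := Pc_dvd hq a i
  rcases Pc_deg hq a i with ⟨_, h2⟩ | ⟨h1, h2⟩
  · obtain ⟨j, hj1, hj2⟩ := hj
    exact absurd (h2 j hj1) hj2
  have hR0 : R ≠ 0 := by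
    rintro rfl
    exact h1 (by rw [hR, mul_zero])
  have hdeg : (X * R - 1 : k[X]).natDegree = R.natDegree + 1 := by
    rw [natDegree_sub_eq_left_of_natDegree_lt]
    · rw [natDegree_X_mul hR0]
    · rw [natDegree_X_mul hR0, natDegree_one]; omega
  obtain ⟨t, ht⟩ := IsAlgClosed.exists_root (X * R - 1 : k[X]) (by
    intro h
    have := natDegree_eq_of_degree_eq_some (n := 0) (by simpa using h)
    omega)
  have ht' : t * R.eval t = 1 := by
    have := ht
    rw [IsRoot.def, eval_sub, eval_mul, eval_X, eval_one, sub_eq_zero] at this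
    exact this
  refine ⟨t, ?_, ?_⟩
  · rintro rfl
    rw [zero_mul] at ht'
    exact zero_ne_one ht'
  · rw [hR, eval_mul, eval_pow, eval_X, pow_two, mul_assoc, ht', mul_one]

end poly

section lang

variable {k V : Type*} [Field k] [AddCommGroup V] [Module k V]

/-- **Lang's fixed vector** -/
theorem exists_fixed [IsAlgClosed k] [FiniteDimensional k V] {q : ℕ} (hq : 2 ≤ q) (Φ : V →+ V)
    (hΦ : ∀ (c : k) (v : V), Φ (c • v) = c ^ q • Φ v) (hinj : Function.Injective Φ) {v : V}
    (hv : v ≠ 0) : ∃ w : V, w ≠ 0 ∧ Φ w = w := by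
  classical
  let u : ℕ → V := fun i => Φ^[i] v
  have hu0 : ∀ i, u i ≠ 0 := by
    intro i
    induction i with
    | zero => exact hv
    | succ i ih =>
      show Φ^[i + 1] v ≠ 0
      rw [Function.iterate_succ_apply']
      intro h
      exact ih (hinj (by rw [map_zero]; exact h))
  have hus : ∀ i, Φ (u i) = u (i + 1) := fun i => (Function.iterate_succ_apply' Φ i v).symm
  -- minimal `r` with `u r` in the span of the previous ones
  let W : ℕ → Submodule k V := fun r => Submodule.span k (Set.range fun i : Fin r => u i)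
  have hmemW : ∀ r i, i < r → u i ∈ W r := fun r i h =>
    Submodule.subset_span ⟨⟨i, h⟩, rfl⟩
  have hWm : Monotone W := by
    intro r r' h
    refine Submodule.span_le.mpr ?_
    rintro _ ⟨i, rfl⟩
    exact hmemW r' i (lt_of_lt_of_le i.2 h)
  have hex : ∃ r, u r ∈ W r := by
    obtain ⟨n, hn⟩ := monotone_stabilizes_iff_noetherian.mpr
      (inferInstance : IsNoetherian k V) ⟨W, hWm⟩
    refine ⟨n, ?_⟩
    have h1 : W n = W (n + 1) := hn (n + 1) (Nat.le_succ n)
    rw [h1]
    exact hmemW _ _ (Nat.lt_succ_self n)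
  let r := Nat.find hex
  have hr : u r ∈ W r := Nat.find_spec hex
  have hmin : ∀ m, m < r → u m ∉ W m := fun m hm => Nat.find_min hex hm
  have hr0 : r ≠ 0 := by
    intro h0
    have h1 : u r ∈ W r := hr
    rw [h0] at h1
    have h2 : W 0 = ⊥ := by
      show Submodule.span k (Set.range fun i : Fin 0 => u i) = ⊥
      rw [Set.range_eq_empty, Submodule.span_empty]
    rw [h2, Submodule.mem_bot] at h1
    exact hu0 0 h1
  obtain ⟨s, hs⟩ := Nat.exists_eq_succ_of_ne_zero hr0
  rw [Nat.succ_eq_add_one] at hs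
  rw [hs] at hr
  obtain ⟨c, hc⟩ := (Submodule.mem_span_range_iff_exists_fun k).mp hr
  let a : ℕ → k := fun i => if h : i < s + 1 then c ⟨i, h⟩ else 0
  have ha : u (s + 1) = ∑ i ∈ Finset.range (s + 1), a i • u i := by
    rw [Finset.sum_range, ← hc]
    refine Finset.sum_congr rfl fun i _ => ?_
    show c i • u i = (if h : (i : ℕ) < s + 1 then c ⟨i, h⟩ else 0) • u i
    rw [dif_pos i.2]
  have hne : ∃ j ≤ s, a j ≠ 0 := by
    by_contra hcon
    push Not at hcon
    apply hu0 (s + 1)
    rw [ha]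
    refine Finset.sum_eq_zero fun i hi => ?_
    rw [hcon i (by rw [Finset.mem_range] at hi; omega), zero_smul]
  obtain ⟨t, ht0, ht⟩ := exists_root_Pc hq a s hne
  let d : ℕ → k := fun i => (Pc q a i).eval t
  have hd0 : d 0 = a 0 * t ^ q := by simp [d, Pc]
  have hd1 : ∀ i, d (i + 1) = d i ^ q + a (i + 1) * t ^ q := fun i => by simp [d, Pc]
  have hds : d s = t := ht
  refine ⟨∑ i ∈ Finset.range (s + 1), d i • u i, ?_, ?_⟩
  · intro h0
    rw [Finset.sum_range_succ, hds] at h0
    apply hmin s (by omega)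
    have h1 : u s = -(t⁻¹ • ∑ i ∈ Finset.range s, d i • u i) := by
      have : t⁻¹ • (∑ i ∈ Finset.range s, d i • u i + t • u s) = 0 := by rw [h0, smul_zero]
      rw [smul_add, smul_smul, inv_mul_cancel₀ ht0, one_smul] at this
      exact eq_neg_of_add_eq_zero_right this
    rw [h1]
    refine Submodule.neg_mem _ (Submodule.smul_mem _ _ (Submodule.sum_mem _ fun i hi => ?_))
    exact Submodule.smul_mem _ _ (hmemW s i (Finset.mem_range.mp hi))
  · rw [map_sum]
    have e1 : ∀ i, Φ (d i • u i) = d i ^ q • u (i + 1) := fun i => by rw [hΦ, hus]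
    simp only [e1]
    rw [Finset.sum_range_succ, Finset.sum_range_succ' (fun i => d i • u i), hds, ha,
      Finset.sum_range_succ' (fun i => a i • u i), smul_add, Finset.smul_sum, ← add_assoc,
      ← Finset.sum_add_distrib]
    congr 1
    · refine Finset.sum_congr rfl fun i _ => ?_
      rw [hd1, add_smul, smul_smul, mul_comm (t ^ q)]
    · rw [hd0, smul_smul, mul_comm]

end lang

end Crest.Agent.R013.Frob2_914
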