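import Mathlib
import Crest.Agent.R013.Frob1_914
import Crest.Agent.R013.Frob2_914

/-!
# R013 / Frob3: finitely many divisor classes of degree zero are fixed by the Frobenius (helper914)
-/

set_option autoImplicit false
set_option linter.all false

namespace Crest.Agent.R013.Frob3_914

open WithZero Module Polynomial
open Crest.Agent.R013.RR7_948 Crest.Agent.R013.RR8_948 Crest.Agent.R013.RR9_948
open Crest.Agent.R013.RR11_948 Crest.Agent.R013.RR12_948 Crest.Agent.R013.PicD_398
open Crest.Agent.R013.CE1_280 Crest.Agent.R013.CE5_280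
open Crest.Agent.R013.Frob1_914 Crest.Agent.R013.Frob2_914

section

variable {k K : Type*} [Field k] [IsAlgClosed k] [Field K] [Algebra k K]
  [Algebra (RatFunc k) K] [IsScalarTower k (RatFunc k) K] [FiniteDimensional (RatFunc k) K]
  [Algebra.IsSeparable (RatFunc k) K]

/-- iterate of the action on places -/
theorem pl_iterate_v (e : SI k K k K) (j : ℕ) (P : Pl k K) (x : K) :
    (e.pl^[j] P).v (e.f^[j] x) = P.v x := by
  induction j with
  | zero => rfl
  | succ j ih => rw [Function.iterate_succ_apply', Function.iterate_succ_apply', SI.pl_v_apply, ih]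

/-- places fixed by the `j`-th iterate of the Frobenius -/
theorem finite_fixed_pl (e : SI k K k K) {q : ℕ} (hq : 2 ≤ q) (he : ∀ c, e.s c = c ^ q) {y : K}
    (hy : e.f y = y) (hyc : y ∉ Set.range (algebraMap k K)) {j : ℕ} (hj : j ≠ 0) :
    {P : Pl k K | e.pl^[j] P = P}.Finite := by
  classical
  have hfy : e.f^[j] y = y := Function.iterate_fixed hy j
  have hfc : ∀ c : k, e.f^[j] (algebraMap k K c) = algebraMap k K (c ^ q ^ j) := by
    intro c
    clear hfy hj
    induction j with
    | zero => simp
    | succ j ih =>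
      rw [Function.iterate_succ_apply', ih, e.comm, he, ← pow_mul, pow_succ]
  have hsub : ∀ c : k, y - algebraMap k K c ≠ 0 := fun c h =>
    hyc ⟨c, (sub_eq_zero.mp h).symm⟩
  have hy0 : y ≠ 0 := by
    rintro rfl
    exact hyc ⟨0, map_zero _⟩
  have hqj : 1 < q ^ j := Nat.one_lt_pow hj (by omega)
  let R : k[X] := X ^ (q ^ j) - X
  have hR : R ≠ 0 := by
    intro h
    have : R.natDegree = q ^ j := by
      show (X ^ (q ^ j) - X : k[X]).natDegree = q ^ j
      rw [natDegree_sub_eq_left_of_natDegree_lt]
      · exact natDegree_X_pow _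
      · rw [natDegree_X_pow, natDegree_X]; exact hqj
    rw [h, natDegree_zero] at this
    omega
  have hfin : ({P : Pl k K | P.v y ≠ 1} ∪
      ⋃ c ∈ (R.roots.toFinset : Set k), {P : Pl k K | P.v (y - algebraMap k K c) ≠ 1}).Finite := by
    refine (finite_ne_one hy0).union ?_
    refine Set.Finite.biUnion (Finset.finite_toSet _) fun c _ => finite_ne_one (hsub c)
  refine hfin.subset fun P hP => ?_
  have hP : e.pl^[j] P = P := hP
  by_cases h1 : P.v y ≤ 1
  · obtain ⟨c, hc⟩ := exists_residue P h1
    right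
    have h2 : P.v (y - algebraMap k K (c ^ q ^ j)) < 1 := by
      have := pl_iterate_v e j P (y - algebraMap k K c)
      rw [hP] at this
      have e2 : e.f^[j] (y - algebraMap k K c) = y - algebraMap k K (c ^ q ^ j) := by
        rw [iterate_map_sub, hfy, hfc]
      rw [e2] at this
      rw [this]; exact hc
    have h3 : c = c ^ q ^ j := by
      have h4 : P.v (algebraMap k K (c - c ^ q ^ j)) < 1 := by
        have : algebraMap k K (c - c ^ q ^ j) =
            (y - algebraMap k K (c ^ q ^ j)) - (y - algebraMap k K c) := by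
          rw [map_sub]; ring
        rw [this]
        exact lt_of_le_of_lt (Valuation.map_sub _ _ _) (max_lt h2 hc)
      exact sub_eq_zero.mp (v_algebraMap_lt P h4)
    simp only [Set.mem_iUnion, Finset.mem_coe, Multiset.mem_toFinset, Set.mem_setOf_eq]
    refine ⟨c, ?_, hc.ne⟩
    rw [mem_roots hR, IsRoot.def]
    simp only [R, eval_sub, eval_pow, eval_X]
    rw [← h3, sub_self]
  · left
    exact fun h => h1 h.le

/-- every place has a finite orbit -/
theorem exists_iterate_eq (e : SI k K k K) {q : ℕ} (hq : 2 ≤ q) (he : ∀ c, e.s c = c ^ q)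
    (halg : ∀ c : k, ∃ m, m ≠ 0 ∧ c ^ q ^ m = c) {y : K}
    (hy : e.f y = y) (hyc : y ∉ Set.range (algebraMap k K)) (P : Pl k K) :
    ∃ j, j ≠ 0 ∧ e.pl^[j] P = P := by
  classical
  have hfy : ∀ j, e.f^[j] y = y := fun j => Function.iterate_fixed hy j
  have hfc : ∀ (j : ℕ) (c : k), e.f^[j] (algebraMap k K c) = algebraMap k K (c ^ q ^ j) := by
    intro j c
    induction j with
    | zero => simp
    | succ j ih =>
      rw [Function.iterate_succ_apply', ih, e.comm, he, ← pow_mul, pow_succ]
  have hsub : ∀ c : k, y - algebraMap k K c ≠ 0 := fun c h =>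
    hyc ⟨c, (sub_eq_zero.mp h).symm⟩
  have hy0 : y ≠ 0 := by
    rintro rfl
    exact hyc ⟨0, map_zero _⟩
  -- pigeonhole
  have key : ∀ (S : Set (Pl k K)) (_ : S.Finite) (m : ℕ) (_ : m ≠ 0)
      (_ : ∀ i, e.pl^[m * i] P ∈ S), ∃ j, j ≠ 0 ∧ e.pl^[j] P = P := by
    intro S hS m hm hmem
    obtain ⟨a, b, hab, h⟩ : ∃ a b : ℕ, a < b ∧ e.pl^[m * a] P = e.pl^[m * b] P := by
      have := hS.to_subtype
      obtain ⟨a, b, hne, h⟩ := Finite.exists_ne_map_eq_of_infinite (fun i : ℕ => (⟨_, hmem i⟩ : S))
      rcases lt_or_gt_of_ne hne with h1 | h1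
      · exact ⟨a, b, h1, congrArg Subtype.val h⟩
      · exact ⟨b, a, h1, (congrArg Subtype.val h).symm⟩
    refine ⟨m * (b - a), Nat.mul_ne_zero hm (by omega), ?_⟩
    have hinj : Function.Injective e.pl^[m * a] := e.pl_injective.iterate _
    apply hinj
    rw [← Function.iterate_add_apply, ← mul_add, Nat.add_sub_cancel' hab.le]
    exact h.symm
  by_cases h1 : P.v y ≤ 1
  · obtain ⟨c, hc⟩ := exists_residue P h1
    obtain ⟨m, hm, hcm⟩ := halg c
    refine key {Q : Pl k K | Q.v (y - algebraMap k K c) ≠ 1} (finite_ne_one (hsub c)) m hm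
      fun i => ?_
    have hci : c ^ q ^ (m * i) = c := by
      induction i with
      | zero => simp
      | succ i ih => rw [mul_add, mul_one, pow_add, pow_mul, ih, hcm]
    have := pl_iterate_v e (m * i) P (y - algebraMap k K c)
    rw [iterate_map_sub, hfy, hfc, hci] at this
    show (e.pl^[m * i] P).v _ ≠ 1
    rw [this]
    exact hc.ne
  · refine key {Q : Pl k K | Q.v y ≠ 1} (finite_ne_one hy0) 1 one_ne_zero fun i => ?_
    have := pl_iterate_v e (1 * i) P y
    rw [hfy] at this
    show (e.pl^[1 * i] P).v y ≠ 1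
    rw [this]
    exact fun h => h1 h.le

/-- finitely many Frobenius invariant effective divisors of given degree -/
theorem finite_inv_div (e : SI k K k K) {q : ℕ} (hq : 2 ≤ q) (he : ∀ c, e.s c = c ^ q) {y : K}
    (hy : e.f y = y) (hyc : y ∉ Set.range (algebraMap k K)) (M : ℕ) :
    {E : Pl k K →₀ ℤ | 0 ≤ E ∧ e.D E = E ∧ degD E = M}.Finite := by
  classical
  have hS : (⋃ j ∈ Finset.Icc 1 M, {P : Pl k K | e.pl^[j] P = P}).Finite := by
    refine Set.Finite.biUnion (Finset.finite_toSet _) fun j hj => ?_
    exact finite_fixed_pl e hq he hy hyc (by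
      have := (Finset.mem_Icc.mp hj).1
      omega)
  let S : Finset (Pl k K) := hS.toFinset
  let B : Pl k K →₀ ℤ := ∑ P ∈ S, Finsupp.single P (M : ℤ)
  refine (Set.finite_Icc (0 : Pl k K →₀ ℤ) B).subset ?_
  rintro E ⟨hE0, hE, hEd⟩
  refine ⟨hE0, fun P => ?_⟩
  have hsum : E.sum (fun _ n => n) = M := by rw [← degD_eq_sum, hEd]
  have hle : ∀ T : Finset (Pl k K), T ⊆ E.support → ∑ Q ∈ T, E Q ≤ M := by
    intro T hT
    rw [← hsum]
    exact Finset.sum_le_sum_of_subset_of_nonneg hT fun Q _ _ => hE0 Q
  by_cases hP : E P = 0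
  · rw [hP]
    simp only [B, Finsupp.coe_finset_sum, Finset.sum_apply]
    exact Finset.sum_nonneg fun Q _ => by
      rw [Finsupp.single_apply]
      split_ifs <;> positivity
  · have hPs : P ∈ E.support := Finsupp.mem_support_iff.mpr hP
    have hPM : E P ≤ M := by
      have := hle {P} (by simpa using hPs)
      simpa using this
    -- orbit of `P`
    have horb : ∀ i, E (e.pl^[i] P) = E P := by
      intro i
      induction i with
      | zero => rfl
      | succ i ih =>
        rw [Function.iterate_succ_apply', ← ih]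
        conv_lhs => rw [← hE]
        rw [SI.D_pl]
    have hPS : P ∈ S := by
      have hnot : ¬ Function.Injective (fun i : Fin (M + 1) => e.pl^[(i : ℕ)] P) := by
        intro hinj
        let T : Finset (Pl k K) := Finset.univ.image (fun i : Fin (M + 1) => e.pl^[(i : ℕ)] P)
        have h1 : ∑ Q ∈ T, E Q ≤ M := by
          apply hle
          intro Q hQ
          obtain ⟨i, _, rfl⟩ := Finset.mem_image.mp hQ
          rw [Finsupp.mem_support_iff, horb]
          exact hP
        have h2 : ∑ Q ∈ T, E Q = (M + 1) * E P := by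
          rw [Finset.sum_image fun a _ b _ h => hinj h]
          simp [horb]
        have h3 : 1 ≤ E P := by
          have := hE0 P
          simp only [Finsupp.coe_zero, Pi.zero_apply] at this
          omega
        nlinarith
      simp only [Function.Injective, not_forall] at hnot
      obtain ⟨a, b, h, hne⟩ := hnot
      have key : ∀ a b : Fin (M + 1), a < b → e.pl^[(a : ℕ)] P = e.pl^[(b : ℕ)] P → P ∈ S := by
        intro a b hab h
        have hab' : (a : ℕ) < b := hab
        have h1 : e.pl^[(b : ℕ) - a] P = P := by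
          have hinj : Function.Injective e.pl^[(a : ℕ)] := e.pl_injective.iterate _
          apply hinj
          rw [← Function.iterate_add_apply, Nat.add_sub_cancel' hab'.le]
          exact h.symm
        rw [Set.Finite.mem_toFinset]
        simp only [Set.mem_iUnion]
        refine ⟨(b : ℕ) - a, ?_, h1⟩
        rw [Finset.mem_Icc]
        have := b.2
        omega
      rcases lt_or_gt_of_ne hne with h1 | h1
      · exact key a b h1 h
      · exact key b a h1 h.symm
    have hBP : B P = M := by
      simp only [B, Finsupp.coe_finset_sum, Finset.sum_apply]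
      rw [Finset.sum_eq_single P]
      · simp
      · intro Q _ hQ
        rw [Finsupp.single_apply, if_neg hQ]
      · intro h; exact absurd hPS h
    rw [hBP]
    exact hPM

/-- **finitely many Frobenius-fixed classes of degree zero** -/
theorem finite_fixed (e : SI k K k K) {q : ℕ} (hq : 2 ≤ q) (he : ∀ c, e.s c = c ^ q)
    (halg : ∀ c : k, ∃ m, m ≠ 0 ∧ c ^ q ^ m = c) {y : K}
    (hy : e.f y = y) (hyc : y ∉ Set.range (algebraMap k K)) :
    {z : Pic k K | e.pic z = z ∧ degPic z = 0}.Finite := by
  classical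
  obtain ⟨P0, _⟩ := exists_notMem (∅ : Finset (Pl k K))
  obtain ⟨m, hm0, hm⟩ := exists_iterate_eq e hq he halg hy hyc P0
  -- the invariant divisor `A`
  let A : Pl k K →₀ ℤ := ∑ i ∈ Finset.range m, Finsupp.single (e.pl^[i] P0) 1
  have hA : e.D A = A := by
    simp only [A, map_sum, SI.D_single]
    have h1 : ∀ i, Finsupp.single (e.pl (e.pl^[i] P0)) (1 : ℤ) =
        Finsupp.single (e.pl^[i + 1] P0) 1 := fun i => by rw [Function.iterate_succ_apply']
    simp only [h1]
    obtain ⟨s, rfl⟩ := Nat.exists_eq_succ_of_ne_zero hm0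
    rw [Finset.sum_range_succ, Finset.sum_range_succ' (fun i => Finsupp.single (e.pl^[i] P0) (1 : ℤ))]
    congr 1
    rw [← Nat.succ_eq_add_one, hm]
    rfl
  have hAd : degD A = m := by
    rw [degD_eq_sum]
    simp only [A]
    rw [← Finsupp.sum_finset_sum_index (by intros; rfl) (by intros; rfl)]
    simp
  have hcb := algebraicClosure_eq_bot (k := k) (K := K)
  let g := gen k K
  let M : ℕ := g * m
  let NA : Pl k K →₀ ℤ := g • A
  have hNA : e.D NA = NA := by simp only [NA, map_nsmul, hA]
  have hNAd : degD NA = M := by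
    have : degD NA = degHom (k := k) (K := K) NA := rfl
    rw [this]
    simp only [NA, map_nsmul]
    show g • degD A = _
    rw [hAd]
    simp [M]
  refine ((finite_inv_div e hq he hy hyc M).image fun E => cls (E - NA)).subset ?_
  rintro z ⟨hz, hzd⟩
  obtain ⟨x, rfl⟩ := cls_surjective z
  rw [SI.pic_cls, cls_eq_iff] at hz
  obtain ⟨h, hh0, hxh⟩ := hz
  rw [degPic_cls] at hzd
  let Dv := x + NA
  have hDd : degD Dv = M := by
    simp only [Dv]
    rw [degD_add, hzd, hNAd, zero_add]
  have hell : 0 < ell Dv := by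
    have h1 := riemann_roch hcb Dv
    rw [hDd] at h1
    have h2 : (0 : ℤ) ≤ ell (canD k K - Dv) := by positivity
    have h3 : (g : ℤ) ≤ (M : ℤ) := by
      have : g ≤ g * m := Nat.le_mul_of_pos_right _ (Nat.pos_of_ne_zero hm0)
      exact_mod_cast this
    have h4 : (gen k K : ℤ) = g := rfl
    omega
  have hstab : ∀ f : K, f ∈ LD Dv → h * e.f f ∈ LD Dv := by
    intro f hf
    have h1 : e.f f ∈ LD (e.D Dv) := e.mem_LD.mpr hf
    have h2 : e.D Dv = Dv + divf h := by
      simp only [Dv, map_add, hxh, hNA]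
      abel
    rw [h2, RR9_948.mem_LD] at h1
    rw [RR9_948.mem_LD]
    intro P
    rw [map_mul, v_eq hh0 P]
    calc exp (-divf (k := k) h P) * P.v (e.f f)
        ≤ exp (-divf (k := k) h P) * exp ((Dv + divf (k := k) h) P) :=
          mul_le_mul_right (h1 P) _
      _ = exp (Dv P) := by
          rw [← exp_add, Finsupp.add_apply]
          congr 1
          ring
  haveI := LD_finite Dv
  let Φ : LD Dv →+ LD Dv :=
    { toFun := fun f => ⟨h * e.f f, hstab f f.2⟩
      map_zero' := by
        apply Subtype.ext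
        show h * e.f 0 = 0
        rw [map_zero, mul_zero]
      map_add' := fun a b => by
        apply Subtype.ext
        show h * e.f (a + b) = h * e.f a + h * e.f b
        rw [map_add, mul_add] }
  have hΦ : ∀ (c : k) (v : LD Dv), Φ (c • v) = c ^ q • Φ v := by
    intro c v
    apply Subtype.ext
    show h * e.f (c • (v : K)) = c ^ q • (h * e.f v)
    rw [Algebra.smul_def, map_mul, e.comm, he, Algebra.smul_def]
    ring
  have hinj : Function.Injective Φ := by
    intro a b hab
    have h1 : h * e.f a = h * e.f b := congrArg Subtype.val hab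
    exact Subtype.ext (e.f.injective (mul_left_cancel₀ hh0 h1))
  have hnt : ∃ v : LD Dv, v ≠ 0 := by
    haveI : Nontrivial (LD Dv) := (Module.finrank_pos_iff (R := k)).mp hell
    exact exists_ne 0
  obtain ⟨v, hv⟩ := hnt
  obtain ⟨w, hw0, hw⟩ := exists_fixed hq Φ hΦ hinj hv
  have hw1 : h * e.f w = w := congrArg Subtype.val hw
  have hw0' : (w : K) ≠ 0 := fun h => hw0 (Subtype.ext h)
  have hef0 : e.f (w : K) ≠ 0 := by simpa using hw0'
  let E := Dv + divf (k := k) (w : K)
  refine ⟨E, ⟨(RR11_948.mem_LD_iff hw0').mp w.2, ?_, ?_⟩, ?_⟩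
  · have h3 : divf (k := k) (w : K) = divf h + divf (e.f w) := by
      conv_lhs => rw [← hw1]
      exact divf_mul hh0 hef0
    simp only [E, Dv, map_add, hxh, hNA]
    rw [← e.divf_f hw0', h3]
    abel
  · simp only [E]
    rw [degD_add, degD_divf hw0', add_zero, hDd]
  · show cls (E - NA) = cls x
    rw [cls_eq_iff]
    refine ⟨w, hw0', ?_⟩
    simp only [E, Dv]
    abel

end

end Crest.Agent.R013.Frob3_914
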