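import Mathlib
import Crest.Agent.R013.Frob3_914
import Crest.Agent.R013.CntP4_127

/-!
# R013 / Frob4: leaves (FR1), (FR2) of C-TP (helper914)

`φ : κ ≃+* κ` with `φ c = c ^ q` on the constants, `κ` spanned over the constants by `φ`-fixed
elements.
-/

set_option autoImplicit false
set_option linter.all false

namespace Crest.Agent.R013.Frob4_914

open WithZero Module Polynomial
open Crest.Agent.R013.RR7_948 Crest.Agent.R013.RR8_948 Crest.Agent.R013.RR9_948
open Crest.Agent.R013.RR11_948 Crest.Agent.R013.RR12_948 Crest.Agent.R013.PicD_398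
open Crest.Agent.R013.CE1_280 Crest.Agent.R013.CE5_280
open Crest.Agent.R013.Frob1_914 Crest.Agent.R013.Frob2_914 Crest.Agent.R013.Frob3_914

section

variable {k K : Type*} [Field k] [Field K] [Algebra k K]

/-- the semilinear isomorphism given by a ring automorphism that is a power of the Frobenius on the
constants -/
noncomputable def frobSI [IsAlgClosed k] {p : ℕ} [Fact p.Prime] [CharP k p] {a : ℕ} (φ : K ≃+* K)
    (hφ : ∀ c : k, φ (algebraMap k K c) = algebraMap k K (c ^ p ^ a)) : SI k K k K where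
  s := iterateFrobeniusEquiv k p a
  f := φ
  comm := fun c => by rw [hφ, iterateFrobeniusEquiv_def]

theorem frobSI_s [IsAlgClosed k] {p : ℕ} [Fact p.Prime] [CharP k p] {a : ℕ} (φ : K ≃+* K)
    (hφ : ∀ c : k, φ (algebraMap k K c) = algebraMap k K (c ^ p ^ a)) (c : k) :
    (frobSI φ hφ).s c = c ^ p ^ a := iterateFrobeniusEquiv_def k p a c

@[simp] theorem frobSI_f [IsAlgClosed k] {p : ℕ} [Fact p.Prime] [CharP k p] {a : ℕ} (φ : K ≃+* K)
    (hφ : ∀ c : k, φ (algebraMap k K c) = algebraMap k K (c ^ p ^ a)) : (frobSI φ hφ).f = φ := rfl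

/-- algebraic over `F_p` implies finite Frobenius orbits -/
theorem exists_pow_eq {p : ℕ} [Fact p.Prime] [Algebra (ZMod p) k]
    [Algebra.IsAlgebraic (ZMod p) k] {a : ℕ} (ha : a ≠ 0) (c : k) :
    ∃ m, m ≠ 0 ∧ c ^ (p ^ a) ^ m = c := by
  have hc : IsIntegral (ZMod p) c := (Algebra.IsAlgebraic.isAlgebraic c).isIntegral
  let L := IntermediateField.adjoin (ZMod p) {c}
  haveI : FiniteDimensional (ZMod p) L := IntermediateField.adjoin.finiteDimensional hc
  haveI : Finite L := Module.finite_of_finite (ZMod p)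
  haveI := Fintype.ofFinite L
  let x : L := ⟨c, IntermediateField.mem_adjoin_simple_self _ _⟩
  have h1 : x ^ Fintype.card L = x := FiniteField.pow_card x
  have h2 : Fintype.card L = p ^ Module.finrank (ZMod p) L := by
    rw [Module.card_eq_pow_finrank (K := ZMod p), ZMod.card]
  have hn : Module.finrank (ZMod p) L ≠ 0 := Module.finrank_pos.ne'
  refine ⟨Module.finrank (ZMod p) L, hn, ?_⟩
  have h3 : ∀ j : ℕ, x ^ (Fintype.card L) ^ j = x := by
    intro j
    induction j with
    | zero => simp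
    | succ j ih => rw [pow_succ, pow_mul, ih, h1]
  have h4 := h3 a
  rw [h2, ← pow_mul, mul_comm, pow_mul] at h4
  have := congrArg Subtype.val h4
  simpa [x] using this

variable [Algebra (RatFunc k) K] [IsScalarTower k (RatFunc k) K] [FiniteDimensional (RatFunc k) K]
  [Algebra.IsSeparable (RatFunc k) K]

/-- the constants are a proper subfield -/
theorem exists_notMem_range : ∃ x : K, x ∉ Set.range (algebraMap k K) := by
  obtain ⟨P, _⟩ := exists_notMem (k := k) (K := K) ∅
  obtain ⟨t, ht⟩ := P.surj (exp (1 : ℤ))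
  refine ⟨t, ?_⟩
  rintro ⟨c, rfl⟩
  have h1 := v_algebraMap_le P c
  rw [ht, ← exp_zero, exp_le_exp] at h1
  omega

/-- **(FR2)** -/
theorem finite_fixed_pic [IsAlgClosed k] {p : ℕ} [Fact p.Prime] [CharP k p] [Algebra (ZMod p) k]
    [Algebra.IsAlgebraic (ZMod p) k] {a : ℕ} (ha : a ≠ 0) (φ : K ≃+* K)
    (hφ : ∀ c : k, φ (algebraMap k K c) = algebraMap k K (c ^ p ^ a))
    (hspan : Submodule.span k {g : K | φ g = g} = ⊤) :
    {z : Pic k K | (frobSI φ hφ).pic z = z ∧ ∃ n : ℕ, p ^ n • z = 0}.Finite := by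
  have hp : p.Prime := Fact.out
  have hq : 2 ≤ p ^ a := by
    have h1 := hp.two_le
    calc 2 ≤ p := h1
      _ = p ^ 1 := (pow_one p).symm
      _ ≤ p ^ a := Nat.pow_le_pow_right hp.pos (Nat.one_le_iff_ne_zero.mpr ha)
  obtain ⟨y, hy, hyc⟩ : ∃ y : K, φ y = y ∧ y ∉ Set.range (algebraMap k K) := by
    by_contra hcon
    push Not at hcon
    obtain ⟨x, hx⟩ := exists_notMem_range (k := k) (K := K)
    apply hx
    have h1 : Submodule.span k {g : K | φ g = g} ≤ Submodule.span k {(1 : K)} := by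
      refine Submodule.span_le.mpr fun g hg => ?_
      obtain ⟨c, rfl⟩ := hcon g hg
      rw [Algebra.algebraMap_eq_smul_one]
      exact Submodule.smul_mem _ _ (Submodule.mem_span_singleton_self _)
    rw [hspan] at h1
    obtain ⟨c, hc⟩ := Submodule.mem_span_singleton.mp (h1 (Submodule.mem_top (x := x)))
    exact ⟨c, by rw [← hc, Algebra.algebraMap_eq_smul_one]⟩
  refine (finite_fixed (frobSI φ hφ) hq (frobSI_s φ hφ) (exists_pow_eq ha) (y := y) hy hyc).subset ?_
  rintro z ⟨hz, n, hn⟩
  refine ⟨hz, ?_⟩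
  have h1 : p ^ n • degPic z = 0 := by rw [← map_nsmul, hn, map_zero]
  have h2 : (p ^ n : ℕ) ≠ 0 := (pow_pos hp.pos n).ne'
  simpa [h2, hp.ne_zero] using h1

/-- **(FR1)** (127) -/
theorem finite_torsion [PerfectField k] {p : ℕ} [Fact p.Prime] [CharP k p] :
    Finite {z : Pic k K // p • z = 0} := by
  haveI : CharP K p := charP_of_injective_algebraMap (algebraMap k K).injective p
  obtain ⟨W, hW⟩ := CntP4_127.exists_Bd k K
  exact (CntP4_127.card_pic_le (p := p) hW).1

end

end Crest.Agent.R013.Frob4_914
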