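import Crest.Agent.R013.TP6_928
import Crest.Agent.R013.Frob4_914

/-!
# R013 / C-TP (helper928), part 7: divisors of reductions

Semilinear isomorphisms: `Frob1_914.SI`.
* `dv : Additive Kˣ →+ (Pl k K →₀ ℤ)`.
* `RedD C K κ`: a valuation on `K` whose value group is that of the constants `C`, with residue
  map onto `κ` (function field over `Ct`); `rdv : Additive Kˣ →+ (Pl Ct κ →₀ ℤ)` = divisor of the
  reduction of `h / c`, `|c| = |h|_v`; equivariance.
-/

set_option autoImplicit false
set_option linter.unusedSectionVars false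

namespace Crest.Agent.R013.TP_928

open WithZero Module
open Crest.Agent.R013.RR7_948 Crest.Agent.R013.RR8_948 Crest.Agent.R013.RR9_948
open Crest.Agent.R013.RR11_948 Crest.Agent.R013.PicD_398 Crest.Agent.R013.Frob1_914

section dv

variable (k K : Type*) [Field k] [Field K] [Algebra k K] [Algebra (RatFunc k) K]
  [IsScalarTower k (RatFunc k) K] [FiniteDimensional (RatFunc k) K]
  [Algebra.IsSeparable (RatFunc k) K]

/-- the divisor map on units -/
noncomputable def dv : Additive Kˣ →+ (Pl k K →₀ ℤ) where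
  toFun e := divf (e.toMul : K)
  map_zero' := divf_one
  map_add' _ _ := divf_mul (Units.ne_zero _) (Units.ne_zero _)

theorem dv_apply (e : Additive Kˣ) : dv k K e = divf (e.toMul : K) := rfl

theorem dv_ofMul (u : Kˣ) : dv k K (Additive.ofMul u) = divf (u : K) := rfl

theorem mem_Prin_iff (D : Pl k K →₀ ℤ) : D ∈ Prin k K ↔ ∃ e, dv k K e = D := by
  constructor
  · rintro ⟨f, hf, rfl⟩
    exact ⟨Additive.ofMul (Units.mk0 f hf), rfl⟩
  · rintro ⟨e, rfl⟩
    exact ⟨_, Units.ne_zero e.toMul, rfl⟩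

theorem tf_div : IsAddTorsionFree (Pl k K →₀ ℤ) := inferInstance

variable {k K}

theorem divf_const {c : k} (hc : c ≠ 0) : divf (k := k) (algebraMap k K c) = 0 := by
  ext P
  have h1 := v_eq (k := k) (f := algebraMap k K c) (by simpa using hc) P
  rw [P.const c hc, ← exp_zero, exp_inj] at h1
  rw [Finsupp.zero_apply]
  linarith

/-- functions without zeros and poles are constants -/
theorem exists_const_of_divf_eq_zero (hc : algebraicClosure k K = ⊥) {f : K} (hf : f ≠ 0)
    (h : divf (k := k) f = 0) : ∃ c : k, f = algebraMap k K c := by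
  have h1 : IsAlgebraic k f := by
    apply isAlgebraic_of_no_poles
    intro P
    rw [v_eq hf, h]
    simp
  have h2 : f ∈ algebraicClosure k K := mem_algebraicClosure_iff.mpr h1
  rw [hc, IntermediateField.mem_bot] at h2
  obtain ⟨c, hc⟩ := h2
  exact ⟨c, hc.symm⟩

theorem exists_const_of_dv_eq_zero (hc : algebraicClosure k K = ⊥) {e : Additive Kˣ}
    (h : dv k K e = 0) : ∃ c : k, c ≠ 0 ∧ (e.toMul : K) = algebraMap k K c := by
  obtain ⟨c, hc⟩ := exists_const_of_divf_eq_zero hc (Units.ne_zero e.toMul) h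
  refine ⟨c, ?_, hc⟩
  rintro rfl
  rw [map_zero] at hc
  exact Units.ne_zero e.toMul hc

end dv

section redd

/-- a valuation with residue map onto a function field over the residue field of constants -/
structure RedD (C K Ct κ : Type*) [Field C] [Field K] [Algebra C K] [Field Ct] [Field κ]
    [Algebra Ct κ] (Γ : Type*) [LinearOrderedCommGroupWithZero Γ] where
  v : Valuation K Γ
  /-- same value group as the constants -/
  val : ∀ f : K, f ≠ 0 → ∃ c : C, c ≠ 0 ∧ v (algebraMap C K c) = v f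
  /-- the residue map -/
  ρ : v.integer →+* κ
  ρ_eq_zero : ∀ x, ρ x = 0 ↔ v x < 1
  /-- residues of constants are constants -/
  const : ∀ (c : C) (h : v (algebraMap C K c) ≤ 1), ∃ t : Ct, ρ ⟨algebraMap C K c, h⟩ =
    algebraMap Ct κ t

namespace RedD

variable {C K Ct κ : Type*} [Field C] [Field K] [Algebra C K] [Field Ct] [Field κ]
    [Algebra Ct κ] {Γ : Type*} [LinearOrderedCommGroupWithZero Γ] (R : RedD C K Ct κ Γ)

theorem exists_div (f : K) (hf : f ≠ 0) : ∃ c : C, c ≠ 0 ∧ R.v (f / algebraMap C K c) = 1 := by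
  obtain ⟨c, hc, h⟩ := R.val f hf
  refine ⟨c, hc, ?_⟩
  rw [map_div₀, h, div_self]
  exact (Valuation.ne_zero_iff _).mpr hf

/-- the reduction of `f / c` -/
noncomputable def rd (f : K) (c : C) (h : R.v (f / algebraMap C K c) = 1) : κ :=
  R.ρ ⟨f / algebraMap C K c, h.le⟩

theorem rd_ne_zero (f : K) (c : C) (h : R.v (f / algebraMap C K c) = 1) : R.rd f c h ≠ 0 := by
  unfold rd
  rw [Ne, R.ρ_eq_zero]
  simp [h]

theorem rd_mul {f g : K} {c d : C} (hf : R.v (f / algebraMap C K c) = 1)
    (hg : R.v (g / algebraMap C K d) = 1)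
    (h : R.v (f * g / algebraMap C K (c * d)) = 1) :
    R.rd (f * g) (c * d) h = R.rd f c hf * R.rd g d hg := by
  unfold rd
  rw [← map_mul]
  congr 1
  apply Subtype.ext
  change f * g / algebraMap C K (c * d) = f / algebraMap C K c * (g / algebraMap C K d)
  rw [map_mul, div_mul_div_comm]

/-- two choices of the constant differ by a constant -/
theorem rd_eq_of {f : K} {c d : C} (hf0 : f ≠ 0) (hc0 : c ≠ 0) (hd0 : d ≠ 0)
    (hc : R.v (f / algebraMap C K c) = 1) (hd : R.v (f / algebraMap C K d) = 1) :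
    ∃ t : Ct, t ≠ 0 ∧ R.rd f c hc = algebraMap Ct κ t * R.rd f d hd := by
  have hC0 : algebraMap C K c ≠ 0 := by simpa using hc0
  have hD0 : algebraMap C K d ≠ 0 := by simpa using hd0
  have h1 : R.v (algebraMap C K (d / c)) = 1 := by
    have : algebraMap C K (d / c) = (f / algebraMap C K c) / (f / algebraMap C K d) := by
      rw [map_div₀]
      field_simp
    rw [this, map_div₀, hc, hd, div_one]
  obtain ⟨t, ht⟩ := R.const (d / c) h1.le
  refine ⟨t, ?_, ?_⟩
  · rintro rfl
    rw [map_zero, R.ρ_eq_zero] at ht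
    exact absurd h1 (ne_of_lt ht)
  · rw [← ht]
    unfold rd
    rw [← map_mul]
    congr 1
    apply Subtype.ext
    change f / algebraMap C K c = algebraMap C K (d / c) * (f / algebraMap C K d)
    rw [map_div₀]
    field_simp

variable [Algebra (RatFunc Ct) κ] [IsScalarTower Ct (RatFunc Ct) κ]
  [FiniteDimensional (RatFunc Ct) κ] [Algebra.IsSeparable (RatFunc Ct) κ]

theorem divf_rd_eq_of {f : K} {c d : C} (hf0 : f ≠ 0) (hc0 : c ≠ 0) (hd0 : d ≠ 0)
    (hc : R.v (f / algebraMap C K c) = 1) (hd : R.v (f / algebraMap C K d) = 1) :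
    divf (k := Ct) (R.rd f c hc) = divf (R.rd f d hd) := by
  obtain ⟨t, ht, h⟩ := R.rd_eq_of hf0 hc0 hd0 hc hd
  rw [h, divf_mul (by simpa using ht) (R.rd_ne_zero _ _ _), divf_const ht, zero_add]

/-- the divisor of the reduction -/
noncomputable def rdv : Additive Kˣ →+ (Pl Ct κ →₀ ℤ) where
  toFun e := divf (R.rd (e.toMul : K) (R.exists_div _ (Units.ne_zero e.toMul)).choose
    (R.exists_div _ (Units.ne_zero e.toMul)).choose_spec.2)
  map_zero' := by
    have h1 : R.v ((1 : K) / algebraMap C K 1) = 1 := by simp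
    have h2 : R.rd (1 : K) (1 : C) h1 = 1 := by
      unfold rd
      rw [← map_one R.ρ]
      congr 1
      apply Subtype.ext
      simp
    rw [← divf_one (k := Ct) (K := κ), ← h2]
    exact R.divf_rd_eq_of (f := ((0 : Additive Kˣ).toMul : K)) (by simp)
      (R.exists_div _ (Units.ne_zero (0 : Additive Kˣ).toMul)).choose_spec.1 one_ne_zero _ h1
  map_add' e f := by
    obtain ⟨hc0, hc⟩ := (R.exists_div _ (Units.ne_zero e.toMul)).choose_spec
    obtain ⟨hd0, hd⟩ := (R.exists_div _ (Units.ne_zero f.toMul)).choose_spec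
    set c := (R.exists_div _ (Units.ne_zero e.toMul)).choose
    set d := (R.exists_div _ (Units.ne_zero f.toMul)).choose
    rw [← divf_mul (R.rd_ne_zero _ _ _) (R.rd_ne_zero _ _ _)]
    have h1 : R.v ((e.toMul : K) * (f.toMul : K) / algebraMap C K (c * d)) = 1 := by
      rw [map_mul, ← div_mul_div_comm, map_mul, hc, hd, one_mul]
    rw [← R.rd_mul hc hd h1]
    exact R.divf_rd_eq_of (f := ((e + f).toMul : K)) (Units.ne_zero _)
      (R.exists_div _ (Units.ne_zero (e + f).toMul)).choose_spec.1 (mul_ne_zero hc0 hd0) _ h1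

theorem rdv_eq (e : Additive Kˣ) {c : C} (hc0 : c ≠ 0)
    (hc : R.v ((e.toMul : K) / algebraMap C K c) = 1) :
    R.rdv e = divf (R.rd (e.toMul : K) c hc) :=
  R.divf_rd_eq_of (Units.ne_zero _) (R.exists_div _ (Units.ne_zero e.toMul)).choose_spec.1 hc0 _ hc

theorem rdv_mem_Prin (e : Additive Kˣ) : R.rdv e ∈ Prin Ct κ :=
  ⟨_, R.rd_ne_zero _ _ _, rfl⟩

/-- constants have trivial reduction -/
theorem rdv_const (e : Additive Kˣ) {c : C} (hc : (e.toMul : K) = algebraMap C K c) :
    R.rdv e = 0 := by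
  have hc0 : c ≠ 0 := by
    rintro rfl
    rw [map_zero] at hc
    exact Units.ne_zero e.toMul hc
  have h1 : (e.toMul : K) / algebraMap C K c = 1 := by
    rw [hc, div_self]
    simpa using hc0
  have h2 : R.v ((e.toMul : K) / algebraMap C K c) = 1 := by rw [h1, map_one]
  rw [R.rdv_eq e hc0 h2, ← divf_one (k := Ct) (K := κ)]
  congr 1
  unfold rd
  rw [← map_one R.ρ]
  congr 1
  exact Subtype.ext h1

/-- equivariance of the divisor of the reduction -/
theorem rdv_map {κ' : Type*} [Field κ'] [Algebra Ct κ'] [Algebra (RatFunc Ct) κ']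
    [IsScalarTower Ct (RatFunc Ct) κ'] [FiniteDimensional (RatFunc Ct) κ']
    [Algebra.IsSeparable (RatFunc Ct) κ'] (R' : RedD C K Ct κ' Γ) (σ : SI C K C K)
    (τ : SI Ct κ Ct κ') (hv : ∀ f, R'.v (σ.f f) = R.v f)
    (hρ : ∀ (f : K) (h : R.v f ≤ 1), R'.ρ ⟨σ.f f, by
      change R'.v (σ.f f) ≤ 1
      rw [hv]; exact h⟩ = τ.f (R.ρ ⟨f, h⟩))
    (e : Additive Kˣ) :
    R'.rdv (Additive.ofMul (Units.map (σ.f : K →* K) e.toMul)) = τ.D (R.rdv e) := by
  obtain ⟨c, hc0, hc⟩ := R.exists_div _ (Units.ne_zero e.toMul)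
  have hc'0 : σ.s c ≠ 0 := by simpa using hc0
  have h1 : σ.f (e.toMul : K) / algebraMap C K (σ.s c) =
      σ.f ((e.toMul : K) / algebraMap C K c) := by
    rw [map_div₀, σ.comm]
  have h2 : R'.v (σ.f (e.toMul : K) / algebraMap C K (σ.s c)) = 1 := by rw [h1, hv, hc]
  rw [R.rdv_eq e hc0 hc, ← τ.divf_f (R.rd_ne_zero _ _ _)]
  refine (R'.rdv_eq (Additive.ofMul (Units.map (σ.f : K →* K) e.toMul)) hc'0 h2).trans ?_
  congr 1
  unfold rd
  rw [← hρ _ hc.le]
  congr 1
  exact Subtype.ext h1

end RedD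

end redd

end Crest.Agent.R013.TP_928
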