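import Mathlib
import Crest.Agent.R013.WR5_777
import Crest.Agent.R013.WR4_777
import Crest.Agent.R013.CE5_280
import Crest.Agent.R013.Frob1_914
import Crest.Agent.R013.TP7_928

/-!
# R013 / Eps1 (helper184): evaluation of functions at divisors, moving lemma off a region

`K` a function field over an algebraically closed field `F`.
* `ev h D = ∏_P h(P)^(D P)` (value `1` at the places where `h` is no unit);
* `Coord V t`: `t` is a coordinate on the set `V` of places;
* `exists_move`: every divisor can be moved off `V` and off a finite set of places.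
-/

set_option autoImplicit false
set_option linter.all false

namespace Crest.Agent.R013.Eps1_184

open WithZero Module
open Crest.Agent.R013.RR7_948 Crest.Agent.R013.RR8_948 Crest.Agent.R013.RR9_948
open Crest.Agent.R013.RR11_948 Crest.Agent.R013.RR12_948
open Crest.Agent.R013.WR2_777 Crest.Agent.R013.WR4_777 Crest.Agent.R013.WR5_777
open Crest.Agent.R013.CE5_280 Crest.Agent.R013.Frob1_914

variable {F : Type*} [Field F] {K : Type*} [Field K] [Algebra F K] [Algebra (RatFunc F) K]
  [IsScalarTower F (RatFunc F) K] [FiniteDimensional (RatFunc F) K]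
  [Algebra.IsSeparable (RatFunc F) K]

/-- value of the function `h` at the divisor `D` -/
noncomputable def ev (h : K) (D : Pl F K →₀ ℤ) : Fˣ := pw (fun P => nrm P h) D

/-- `h` is a unit at the places of `D` -/
def Un (h : K) (D : Pl F K →₀ ℤ) : Prop := ∀ P, D P ≠ 0 → P.v h = 1

@[simp] theorem ev_zero (h : K) : ev h (0 : Pl F K →₀ ℤ) = 1 := pw_zero _

theorem ev_add (h : K) (D D' : Pl F K →₀ ℤ) : ev h (D + D') = ev h D * ev h D' := pw_add _ _ _

theorem ev_neg (h : K) (D : Pl F K →₀ ℤ) : ev h (-D) = (ev h D)⁻¹ := pw_neg _ _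

theorem ev_sub (h : K) (D D' : Pl F K →₀ ℤ) : ev h (D - D') = ev h D / ev h D' := pw_sub _ _ _

theorem ev_nsmul (h : K) (n : ℕ) (D : Pl F K →₀ ℤ) : ev h (n • D) = ev h D ^ n := pw_nsmul _ _ _

theorem ev_single (h : K) (P : Pl F K) (n : ℤ) : ev h (Finsupp.single P n) = nrm P h ^ n :=
  pw_single _ _ _

theorem ev_mul {h h' : K} {D : Pl F K →₀ ℤ} (hh : Un h D) (hh' : Un h' D) :
    ev (h * h') D = ev h D * ev h' D := by
  unfold ev
  rw [← pw_mul]
  exact pw_congr fun P hP => nrm_mul (hh P hP) (hh' P hP)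

theorem ev_inv (h : K) (D : Pl F K →₀ ℤ) : ev h⁻¹ D = (ev h D)⁻¹ := by
  have h1 : ev h⁻¹ D = pw (fun P => (nrm P h)⁻¹) D := pw_congr fun P _ => nrm_inv P h
  have h2 : pw (fun P => (nrm P h)⁻¹) D * pw (fun P => nrm P h) D = 1 := by
    rw [← pw_mul]
    simp only [inv_mul_cancel]
    unfold pw
    simp [Finsupp.prod]
  rw [h1]
  exact eq_inv_of_mul_eq_one_left h2

theorem Un.mul {h h' : K} {D : Pl F K →₀ ℤ} (hh : Un h D) (hh' : Un h' D) : Un (h * h') D :=
  fun P hP => by rw [map_mul, hh P hP, hh' P hP, one_mul]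

theorem Un.inv {h : K} {D : Pl F K →₀ ℤ} (hh : Un h D) : Un h⁻¹ D :=
  fun P hP => by rw [map_inv₀, hh P hP, inv_one]

theorem Un.pow {h : K} {D : Pl F K →₀ ℤ} (hh : Un h D) (n : ℕ) : Un (h ^ n) D :=
  fun P hP => by rw [map_pow, hh P hP, one_pow]

theorem Un.div {h h' : K} {D : Pl F K →₀ ℤ} (hh : Un h D) (hh' : Un h' D) : Un (h / h') D := by
  rw [div_eq_mul_inv]
  exact hh.mul hh'.inv

theorem ev_div {h h' : K} {D : Pl F K →₀ ℤ} (hh : Un h D) (hh' : Un h' D) :
    ev (h / h') D = ev h D / ev h' D := by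
  rw [div_eq_mul_inv, ev_mul hh hh'.inv, ev_inv, div_eq_mul_inv]

theorem ev_pow {h : K} {D : Pl F K →₀ ℤ} (hh : Un h D) (n : ℕ) : ev (h ^ n) D = ev h D ^ n := by
  induction n with
  | zero =>
    rw [pow_zero, pow_zero]
    unfold ev pw
    simp [Finsupp.prod]
  | succ n ih => rw [pow_succ, pow_succ, ev_mul (hh.pow n) hh, ih]

theorem prod_zpow_sum {G ι : Type*} [CommGroup G] (c : G) (s : Finset ι) (n : ι → ℤ) :
    ∏ i ∈ s, c ^ n i = c ^ ∑ i ∈ s, n i := by
  classical
  induction s using Finset.induction_on with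
  | empty => simp
  | insert a s ha ih => rw [Finset.prod_insert ha, Finset.sum_insert ha, ih, zpow_add]

/-- constants -/
theorem ev_const [IsAlgClosed F] (c : Fˣ) {D : Pl F K →₀ ℤ} (hD : degD D = 0) :
    ev (algebraMap F K (c : F)) D = 1 := by
  have h1 : ev (algebraMap F K (c : F)) D = pw (fun _ => c) D := by
    refine pw_congr fun P _ => ?_
    rw [nrm_const, degP_eq_one, pow_one]
  have h2 : pw (fun _ : Pl F K => c) D = c ^ (D.sum fun _ n => n) := by
    unfold pw Finsupp.prod Finsupp.sum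
    exact prod_zpow_sum c _ _
  rw [h1, h2, ← degD_eq_sum, hD, zpow_zero]

/-- Weil reciprocity -/
theorem ev_wr {f h : K} (hf : f ≠ 0) (hh : h ≠ 0)
    (hdis : ∀ P : Pl F K, divf (k := F) f P = 0 ∨ divf (k := F) h P = 0) :
    ev f (divf (k := F) h) = ev h (divf (k := F) f) := weil_reciprocity hf hh hdis

theorem un_iff {h : K} (hh : h ≠ 0) {D : Pl F K →₀ ℤ} :
    Un h D ↔ ∀ P, D P = 0 ∨ divf (k := F) h P = 0 := by
  unfold Un
  refine forall_congr' fun P => ?_
  rw [v_eq_one_iff hh]
  tauto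

theorem ev_SI {F' K' : Type*} [Field F'] [Field K'] [Algebra F' K'] [Algebra (RatFunc F') K']
    [IsScalarTower F' (RatFunc F') K'] [FiniteDimensional (RatFunc F') K']
    [Algebra.IsSeparable (RatFunc F') K'] [IsAlgClosed F] [IsAlgClosed F']
    (σ : SI F K F' K') {h : K} {D : Pl F K →₀ ℤ} (hh : Un h D) :
    ev (σ.f h) (σ.D D) = Units.map (σ.s : F →* F') (ev h D) := by
  classical
  have h0 : ∀ P : Pl F K, P.v h = 1 →
      nrm (σ.pl P) (σ.f h) = Units.map (σ.s : F →* F') (nrm P h) := by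
    intro P hP
    have h1 := v_sub_nrm_of_degP_one (degP_eq_one P) hP
    have h2 : (σ.pl P).v (σ.f h - algebraMap F' K' (Units.map (σ.s : F →* F') (nrm P h) : F'))
        < 1 := by
      have h3 : σ.f h - algebraMap F' K' (Units.map (σ.s : F →* F') (nrm P h) : F')
          = σ.f (h - algebraMap F K (nrm P h : F)) := by
        rw [map_sub, σ.comm]
        rfl
      rw [h3, SI.pl_v_apply]
      exact h1
    rw [nrm_of_sub_lt h2, degP_eq_one, pow_one]
  have h1 : ev (σ.f h) (σ.D D) = D.prod fun P n => nrm (σ.pl P) (σ.f h) ^ n := by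
    unfold ev pw SI.D
    rw [Finsupp.domCongr_apply, Finsupp.prod_equivMapDomain]
    rfl
  rw [h1]
  unfold ev pw Finsupp.prod
  rw [map_prod]
  refine Finset.prod_congr rfl fun P hP => ?_
  have h2 := h0 P (hh P (Finsupp.mem_support_iff.mp hP))
  show nrm (σ.pl P) (σ.f h) ^ (D P) = Units.map (σ.s : F →* F') (nrm P h ^ (D P))
  rw [h2, map_zpow]

theorem Un_SI {F' K' : Type*} [Field F'] [Field K'] [Algebra F' K'] (σ : SI F K F' K') {h : K}
    {D : Pl F K →₀ ℤ} : (∀ P, (σ.D D) P ≠ 0 → P.v (σ.f h) = 1) ↔ Un h D := by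
  constructor
  · intro H P hP
    have := H (σ.pl P) (by rwa [SI.D_pl])
    rwa [SI.pl_v_apply] at this
  · intro H P hP
    rw [SI.D_apply] at hP
    have := H _ hP
    rw [← SI.pl_v_apply σ, SI.pl_symm_pl] at this
    exact this

/-- equal divisors of degree `0` of functions: the functions differ by a constant -/
theorem exists_const_mul [IsAlgClosed F] {f g : K} (hf : f ≠ 0) (hg : g ≠ 0)
    (h : divf (k := F) f = divf (k := F) g) : ∃ c : Fˣ, f = algebraMap F K (c : F) * g := by
  have h1 : divf (k := F) (f / g) = 0 := by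
    rw [div_eq_mul_inv, divf_mul hf (inv_ne_zero hg), divf_inv hg, h, add_neg_cancel]
  obtain ⟨c, hc⟩ := Crest.Agent.R013.TP_928.exists_const_of_divf_eq_zero (k := F) (K := K)
    algebraicClosure_eq_bot (div_ne_zero hf hg) h1
  have hc0 : c ≠ 0 := by
    rintro rfl
    rw [map_zero, div_eq_zero_iff] at hc
    tauto
  refine ⟨Units.mk0 c hc0, ?_⟩
  rw [Units.val_mk0, ← hc, div_mul_cancel₀ _ hg]

/-- `t` is a coordinate on the set `V` of places -/
structure Coord (V : Set (Pl F K)) (t : K) : Prop where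
  zero : ∀ R ∈ V, ∃ c : F, R.v (t - algebraMap F K c) = exp (-1) ∧
    ∀ P ∈ V, P ≠ R → P.v (t - algebraMap F K c) = 1
  inf : {c : F | ∀ P ∈ V, P.v (t - algebraMap F K c) = 1}.Infinite

theorem v_sub_le_one {P : Pl F K} {t : K} (ht : P.v t ≤ 1) (c : F) :
    P.v (t - algebraMap F K c) ≤ 1 := by
  refine (P.v.map_sub _ _).trans (max_le ht ?_)
  by_cases hc : c = 0
  · rw [hc, map_zero, map_zero]; exact zero_le_one
  · exact (P.const c hc).le

theorem v_sub_of_one_lt {P : Pl F K} {t : K} (ht : 1 < P.v t) (c : F) :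
    P.v (t - algebraMap F K c) = P.v t := by
  by_cases hc : c = 0
  · rw [hc, map_zero, sub_zero]
  · have h1 : P.v (algebraMap F K c) < P.v t := by rw [P.const c hc]; exact ht
    exact Valuation.map_sub_eq_of_lt_left P.v h1

/-- the constant to which `t` reduces is unique -/
theorem const_unique {P : Pl F K} {t : K} {c c' : F} (h : P.v (t - algebraMap F K c) < 1)
    (h' : P.v (t - algebraMap F K c') < 1) : c = c' := by
  by_contra hne
  have h1 : P.v (algebraMap F K (c' - c)) < 1 := by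
    have : algebraMap F K (c' - c) = (t - algebraMap F K c) - (t - algebraMap F K c') := by
      rw [map_sub]; ring
    rw [this]
    exact (P.v.map_sub _ _).trans_lt (max_lt h h')
  rw [P.const _ (sub_ne_zero.mpr (Ne.symm hne))] at h1
  exact lt_irrefl _ h1

theorem divf_eq_iff {f : K} (hf : f ≠ 0) (P : Pl F K) (n : ℤ) :
    divf (k := F) f P = n ↔ P.v f = exp (-n) := by
  rw [v_eq hf, exp_inj]
  omega

/-- **Moving lemma**: a divisor can be moved off the region `V` and off a finite set. -/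
theorem exists_move {V : Set (Pl F K)} {t : K} (hV : Coord V t) (A : Finset (Pl F K))
    (C : Pl F K →₀ ℤ) :
    ∃ g : K, g ≠ 0 ∧ (∀ P ∈ V, (C + divf (k := F) g) P = 0) ∧
      ∀ P ∈ A, (C + divf (k := F) g) P = 0 := by
  classical
  rcases V.eq_empty_or_nonempty with hVe | ⟨R0, hR0⟩
  · obtain ⟨g, hg0, hg⟩ := exists_prescribed A fun P => C P
    refine ⟨g, hg0, by simp [hVe], fun P hP => ?_⟩
    have := (divf_eq_iff hg0 P (-C P)).mpr (by rw [neg_neg]; exact hg P hP)
    rw [Finsupp.add_apply, this, add_neg_cancel]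
  -- `t` is not constant
  have htc : ∀ c : F, t - algebraMap F K c ≠ 0 := by
    intro c hc
    obtain ⟨c', h1, -⟩ := hV.zero R0 hR0
    have h2 : t - algebraMap F K c' = algebraMap F K (c - c') := by
      rw [sub_eq_zero.mp hc, map_sub]
    by_cases hcc : c - c' = 0
    · rw [h2, hcc, map_zero, map_zero] at h1
      exact exp_ne_zero h1.symm
    · rw [h2, R0.const _ hcc, ← exp_zero, exp_inj] at h1
      omega
  have hfin : ∀ c : F, {P : Pl F K | P.v (t - algebraMap F K c) ≠ 1}.Finite := fun c =>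
    finite_ne_one (htc c)
  -- the constants attached to the places of `A`
  let cc : Pl F K → F := fun Q =>
    if h : ∃ c : F, Q.v (t - algebraMap F K c) < 1 then h.choose else 0
  have hcc : ∀ Q : Pl F K, (∃ c : F, Q.v (t - algebraMap F K c) < 1) →
      Q.v (t - algebraMap F K (cc Q)) < 1 := by
    intro Q h
    have : cc Q = h.choose := dif_pos h
    rw [this]
    exact h.choose_spec
  let A1 : Finset (Pl F K) := A ∪ A.biUnion fun Q => (hfin (cc Q)).toFinset
  obtain ⟨g1, hg10, hg1⟩ := exists_prescribed A1 fun P => C P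
  set C1 : Pl F K →₀ ℤ := C + divf (k := F) g1 with hC1
  have hC1A : ∀ P ∈ A1, C1 P = 0 := by
    intro P hP
    have := (divf_eq_iff hg10 P (-C P)).mpr (by rw [neg_neg]; exact hg1 P hP)
    rw [hC1, Finsupp.add_apply, this, add_neg_cancel]
  -- a constant `c0`
  obtain ⟨c0, hc0V, hc0A⟩ : ∃ c0 : F, (∀ P ∈ V, P.v (t - algebraMap F K c0) = 1) ∧
      ∀ Q ∈ A, Q.v t ≤ 1 → Q.v (t - algebraMap F K c0) = 1 := by
    obtain ⟨c0, h1, h2⟩ := (hV.inf.diff (A.image cc).finite_toSet).nonempty
    refine ⟨c0, h1, fun Q hQ ht => ?_⟩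
    by_contra hne
    have hlt : Q.v (t - algebraMap F K c0) < 1 := lt_of_le_of_ne (v_sub_le_one ht c0) hne
    apply h2
    rw [Finset.coe_image]
    exact ⟨Q, hQ, const_unique (hcc Q ⟨c0, hlt⟩) hlt⟩
  -- constants of the points of `V`
  let cV : Pl F K → F := fun R => if h : R ∈ V then (hV.zero R h).choose else 0
  have hcV : ∀ R (hR : R ∈ V), R.v (t - algebraMap F K (cV R)) = exp (-1) ∧
      ∀ P ∈ V, P ≠ R → P.v (t - algebraMap F K (cV R)) = 1 := by
    intro R hR
    have : cV R = (hV.zero R hR).choose := dif_pos hR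
    rw [this]
    exact (hV.zero R hR).choose_spec
  let W : Finset (Pl F K) := C1.support.filter fun R => R ∈ V
  let u : Pl F K → K := fun R =>
    (t - algebraMap F K c0) * (t - algebraMap F K (cV R))⁻¹
  have hu0 : ∀ R, u R ≠ 0 := fun R => mul_ne_zero (htc _) (inv_ne_zero (htc _))
  let g2 : K := ∏ R ∈ W, u R ^ (C1 R)
  have hg20 : g2 ≠ 0 := Finset.prod_ne_zero_iff.mpr fun R _ => zpow_ne_zero _ (hu0 R)
  -- valuations of `u R`
  have huV : ∀ R ∈ V, ∀ P ∈ V, P.v (u R) = if P = R then exp 1 else 1 := by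
    intro R hR P hP
    show P.v ((t - algebraMap F K c0) * (t - algebraMap F K (cV R))⁻¹) = _
    rw [map_mul, map_inv₀, hc0V P hP, one_mul]
    by_cases hPR : P = R
    · subst hPR
      rw [if_pos rfl, (hcV P hP).1, exp_neg, inv_inv]
    · rw [if_neg hPR, (hcV R hR).2 P hP hPR, inv_one]
  have huA : ∀ R ∈ W, ∀ Q ∈ A, Q.v (u R) = 1 := by
    intro R hR Q hQ
    obtain ⟨hR1, hRV⟩ := Finset.mem_filter.mp hR
    show Q.v ((t - algebraMap F K c0) * (t - algebraMap F K (cV R))⁻¹) = 1
    rw [map_mul, map_inv₀]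
    rcases le_or_gt (Q.v t) 1 with ht | ht
    · rw [hc0A Q hQ ht, one_mul, inv_eq_one]
      by_contra hne
      have hlt : Q.v (t - algebraMap F K (cV R)) < 1 := lt_of_le_of_ne (v_sub_le_one ht _) hne
      have h1 : cc Q = cV R := const_unique (hcc Q ⟨_, hlt⟩) hlt
      have h2 : R ∈ A1 := by
        refine Finset.mem_union_right _ (Finset.mem_biUnion.mpr ⟨Q, hQ, ?_⟩)
        rw [Set.Finite.mem_toFinset, Set.mem_setOf_eq, h1, (hcV R hRV).1, ← exp_zero, Ne, exp_inj]
        omega
      exact (Finsupp.mem_support_iff.mp hR1) (hC1A R h2)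
    · rw [v_sub_of_one_lt ht, v_sub_of_one_lt ht]
      exact mul_inv_cancel₀ (by rintro h; rw [h] at ht; exact not_lt_zero' ht)
  refine ⟨g1 * g2, mul_ne_zero hg10 hg20, fun P hP => ?_, fun P hP => ?_⟩
  · rw [divf_mul hg10 hg20, ← add_assoc, ← hC1, Finsupp.add_apply]
    have h1 : P.v g2 = exp (C1 P) := by
      show P.v (∏ R ∈ W, u R ^ (C1 R)) = _
      rw [map_prod]
      by_cases hPW : P ∈ W
      · rw [Finset.prod_eq_single P]
        · rw [map_zpow₀, huV P hP P hP, if_pos rfl, ← exp_zsmul]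
          simp
        · intro R hR hne
          rw [map_zpow₀, huV R (Finset.mem_filter.mp hR).2 P hP, if_neg (Ne.symm hne), one_zpow]
        · intro h; exact absurd hPW h
      · have h2 : C1 P = 0 := by
          by_contra hne
          exact hPW (Finset.mem_filter.mpr ⟨Finsupp.mem_support_iff.mpr hne, hP⟩)
        rw [h2, exp_zero]
        refine Finset.prod_eq_one fun R hR => ?_
        have hne : P ≠ R := by rintro rfl; exact hPW hR
        rw [map_zpow₀, huV R (Finset.mem_filter.mp hR).2 P hP, if_neg hne, one_zpow]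
    have h2 := (divf_eq_iff hg20 P (-C1 P)).mpr (by rw [neg_neg]; exact h1)
    rw [h2, add_neg_cancel]
  · rw [divf_mul hg10 hg20, ← add_assoc, ← hC1, Finsupp.add_apply,
      hC1A P (Finset.mem_union_left _ hP), zero_add]
    have h1 : P.v g2 = exp 0 := by
      show P.v (∏ R ∈ W, u R ^ (C1 R)) = _
      rw [map_prod, exp_zero]
      exact Finset.prod_eq_one fun R hR => by rw [map_zpow₀, huA R hR P hP, one_zpow]
    exact (divf_eq_iff hg20 P 0).mpr (by rw [neg_zero]; exact h1)

end Crest.Agent.R013.Eps1_184
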