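import Mathlib
import Crest.Agent.R013.HU9_522
import Crest.Agent.R013.GR2_921

/-!
# Row 13, D-line, leaf D-HT (helper434), file 1: the places of a disc end

Context of `HU9_522`: `em : K →+* EE k C` a disc end (`hc`, `hι`), and a global coordinate
`t : K`, `em t = r T`, `r ≠ 0`.

* `AtP τ P` : `P` is the place of the point `τ` of the disc; `exists_AtP`, `AtP.unique`,
  `AtP.point_unique`;
* `VP` : the set of the places of the disc;
* `mem_range_iff` : `f` has no pole on the disc iff `em f ∈ bdE (BD)`;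

-/

set_option autoImplicit false
set_option linter.unusedSectionVars false

open Filter Topology
open scoped NNReal
open Crest.Agent.R013.Cell_408

namespace Crest.Agent.R013.HT_434

open WithZero
open Crest.Agent.R013.RR7_948 Crest.Agent.R013.RR8_948 Crest.Agent.R013.RR9_948
open Crest.Agent.R013.RR11_948 Crest.Agent.R013.RR12_948 Crest.Agent.R013.RR13_948
open Crest.Agent.R013.RR14_948
open Crest.Agent.R013.EE809 Crest.Agent.R013.HU6_522 Crest.Agent.R013.HU3_522
open Crest.Agent.R013.HU1_522 Crest.Agent.R013.HU7_522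
open Crest.Agent.R013.HU8_522 Crest.Agent.R013.HU9_522

variable {k : Type*} [NontriviallyNormedField k] [CompleteSpace k] [IsUltrametricDist k]
variable {C : Type*} [NormedField C] [IsUltrametricDist C] [NormedAlgebra k C] [CharZero C]
  [Algebra.IsAlgebraic k C] [IsAlgClosed C]
variable {K : Type*} [Field K] [Algebra C K] [Algebra (RatFunc C) K] [IsScalarTower C (RatFunc C) K]
  [FiniteDimensional (RatFunc C) K]

/-- `EE` : order of the product of the root factors -/
theorem od_rootPoly (hk : DiscNorm k) (S : Multiset C) (hS : ∀ τ ∈ S, ‖τ‖ < 1) :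
    od (bdE (⟨(rootPoly S : PowerSeries C), coe_mem_BD _⟩ : BD k C)) = Multiset.card S := by
  induction S using Multiset.induction_on with
  | empty =>
    have : (⟨(rootPoly (0 : Multiset C) : PowerSeries C), coe_mem_BD _⟩ : BD k C) = 1 := by
      apply Subtype.ext
      show (rootPoly (0 : Multiset C) : PowerSeries C) = 1
      rw [rootPoly_zero, Polynomial.coe_one]
    rw [this, map_one, od_one]; simp
  | cons τ S ih =>
    have h1 : (⟨(rootPoly (τ ::ₘ S) : PowerSeries C), coe_mem_BD _⟩ : BD k C) =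
        ⟨(rootPoly {τ} : PowerSeries C), coe_mem_BD _⟩ *
          ⟨(rootPoly S : PowerSeries C), coe_mem_BD _⟩ := by
      apply Subtype.ext
      show (rootPoly (τ ::ₘ S) : PowerSeries C) =
        (rootPoly {τ} : PowerSeries C) * (rootPoly S : PowerSeries C)
      rw [← Polynomial.coe_mul, ← rootPoly_add, Multiset.singleton_add]
    have hτ : ∀ σ ∈ ({τ} : Multiset C), ‖σ‖ < 1 := fun σ hσ => by
      rw [Multiset.mem_singleton] at hσ; rw [hσ]; exact hS τ (Multiset.mem_cons_self τ S)
    have hS' : ∀ σ ∈ S, ‖σ‖ < 1 := fun t ht => hS t (Multiset.mem_cons_of_mem ht)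
    have hg1 := gn_rootPoly hk {τ} hτ
    have hg2 := gn_rootPoly hk S hS'
    have hne1 : bdE (⟨(rootPoly {τ} : PowerSeries C), coe_mem_BD _⟩ : BD k C) ≠ 0 := by
      intro h0; rw [h0, gn_zero] at hg1; exact zero_ne_one hg1
    have hne2 : bdE (⟨(rootPoly S : PowerSeries C), coe_mem_BD _⟩ : BD k C) ≠ 0 := by
      intro h0; rw [h0, gn_zero] at hg2; exact zero_ne_one hg2
    rw [h1, map_mul, od_mul hk hne1 hne2, ih hS', Multiset.card_cons]
    have h2 : od (bdE (⟨(rootPoly {τ} : PowerSeries C), coe_mem_BD _⟩ : BD k C)) = 1 := by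
      have hco : ∀ n : ℤ, (bdE (⟨(rootPoly {τ} : PowerSeries C), coe_mem_BD _⟩ : BD k C)).co n =
          if n = 1 then 1 else if n = 0 then -τ else 0 := by
        intro n
        rw [bdE_apply, co_bdF]
        show (if 0 ≤ n then PowerSeries.coeff n.toNat
          ((rootPoly {τ} : Polynomial C) : PowerSeries C) else 0) = _
        have h3 : rootPoly ({τ} : Multiset C) = Polynomial.X - Polynomial.C τ := by
          simp [rootPoly]
        rw [h3, Polynomial.coeff_coe, Polynomial.coeff_sub, Polynomial.coeff_X, Polynomial.coeff_C]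
        by_cases hn1 : n = 1
        · subst hn1; simp
        · by_cases hn0 : n = 0
          · subst hn0; simp
          · rw [if_neg hn1, if_neg hn0]
            split_ifs with h4 h5 h6 h7
            · exfalso; omega
            · exfalso; omega
            · exfalso; omega
            · simp
            · rfl
      have hτ1 := hτ τ (Multiset.mem_singleton_self τ)
      refine od_eq_of ?_ fun m hm => ?_
      · rw [hg1, hco, if_pos rfl, norm_one]
      · rw [hg1, hco, if_neg hm.ne]
        split_ifs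
        · rw [norm_neg]; exact hτ1
        · rw [norm_zero]; exact zero_lt_one
    rw [h2]
    push_cast
    ring

theorem ne_zero_of_gn {a : EE k C} (h : gn a = 1) : a ≠ 0 := by
  intro h0; rw [h0, gn_zero] at h; exact zero_ne_one h

/-- the order of a one-unit is `0` -/
theorem od_unit {u : U1 C} (hu : IsU k ((u : (PowerSeries C)ˣ) : PowerSeries C)) :
    gn (bdE (⟨_, hu.mem⟩ : BD k C)) = 1 ∧ od (bdE (⟨_, hu.mem⟩ : BD k C)) = 0 := by
  have hco0 : (bdE (⟨_, hu.mem⟩ : BD k C)).co ((0 : ℕ) : ℤ) = 1 := by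
    rw [bdE_apply, co_bdF_nat, PowerSeries.coeff_zero_eq_constantCoeff_apply]
    exact U1.const u
  have hg : gn (bdE (⟨_, hu.mem⟩ : BD k C)) = 1 := by
    apply le_antisymm
    · exact gn_bdE_le fun n => hu.le n
    · have := le_gn (bdE (⟨_, hu.mem⟩ : BD k C)) ((0 : ℕ) : ℤ)
      rwa [hco0, norm_one] at this
  refine ⟨hg, od_eq_of ?_ fun m hm => ?_⟩
  · rw [hg]
    have : (bdE (⟨_, hu.mem⟩ : BD k C)).co 0 = 1 := hco0
    rw [this, norm_one]
  · rw [hg, bdE_apply, co_bdF_neg _ hm, norm_zero]; exact zero_lt_one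

section Disc

variable (hk : DiscNorm k) (em : K →+* EE k C)
  (hc : ∀ c : C, em (algebraMap C K c) = mono 0 c (EE809.finDef_const c))
  (hι : ∀ z, ∃ a b : BD k C, b ≠ 0 ∧ em z * bdE b = bdE a)

/-- the order of `z` at the point `τ` of the disc -/
noncomputable def oE (τ : C) (z : Kˣ) : ℤ :=
  Multiplicative.toAdd (ordp hk bdE bdE_injective em hι τ z)

theorem oE_mul (τ : C) (z z' : Kˣ) : oE hk em hι τ (z * z') = oE hk em hι τ z + oE hk em hι τ z' := by
  unfold oE; rw [map_mul, toAdd_mul]

theorem oE_one (τ : C) : oE hk em hι τ 1 = 0 := by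
  unfold oE; rw [map_one, toAdd_one]

theorem oE_inv (τ : C) (z : Kˣ) : oE hk em hι τ z⁻¹ = - oE hk em hι τ z := by
  unfold oE; rw [map_inv, toAdd_inv]

theorem oE_eq [DecidableEq C] {z : Kˣ} {c : C} {u : U1 C} {S T : Multiset C}
    (h : Pres bdE em (z : K) c u S T) (τ : C) : oE hk em hι τ z = (S.count τ : ℤ) - T.count τ :=
  ordp_eq hk bdE bdE_injective em hι h τ

theorem oE_add {τ : C} (hτ : ‖τ‖ < 1) {z z' w : Kˣ} (h : (w : K) = z + z') :
    min (oE hk em hι τ z) (oE hk em hι τ z') ≤ oE hk em hι τ w :=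
  ordp_add hk bdE bdE_injective em hι hτ h

include hc in
theorem em_const (c : C) : em (algebraMap C K c) = bdE ⟨PowerSeries.C c, C_mem_BD c⟩ := by
  rw [hc, bdE_C]

/-- `P` is the place of the point `τ` -/
def AtP (τ : C) (P : Pl C K) : Prop := ∀ z : Kˣ, oE hk em hι τ z = divf (k := C) (z : K) P

include hk hι in
/-- a reduced presentation -/
theorem exists_pres_disj [DecidableEq C] (z : Kˣ) : ∃ c u S T, Pres bdE em (z : K) c u S T ∧
    ∀ τ, S.count τ = 0 ∨ T.count τ = 0 := by
  obtain ⟨c, u, S, T, h⟩ := exists_pres hk bdE bdE_injective em hι z.ne_zero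
  have hS : S = (S - T) + (S ∩ T) := by
    ext τ
    rw [Multiset.count_add, Multiset.count_sub, Multiset.count_inter]; omega
  have hT : T = (T - S) + (S ∩ T) := by
    ext τ
    rw [Multiset.count_add, Multiset.count_sub, Multiset.count_inter]; omega
  refine ⟨c, u, S - T, T - S, ?_, fun τ => ?_⟩
  · have h2 : Pres bdE em (z : K) c u ((S - T) + (S ∩ T)) ((T - S) + (S ∩ T)) := by
      rw [← hS, ← hT]; exact h
    refine Pres.cancel bdE em h2 fun a b hab => EE_cancel hk a b _ ?_ hab
    rw [ne_eq, map_eq_zero_iff bdE bdE_injective]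
    intro h3
    exact rootPoly_ne_zero (S ∩ T) (congrArg Subtype.val h3)
  · rw [Multiset.count_sub, Multiset.count_sub]; omega

/-! ### functions without poles on the disc -/

/-- no pole on the disc: `em z` is a bounded function -/
theorem mem_range_of_oE {z : Kˣ} (h : ∀ τ, ‖τ‖ < 1 → 0 ≤ oE hk em hι τ z) :
    ∃ g : BD k C, em (z : K) = bdE g := by
  classical
  obtain ⟨c, u, S, T, hp, hd⟩ := exists_pres_disj hk em hι z
  have hT : T = 0 := by
    rw [Multiset.eq_zero_iff_forall_notMem]
    intro τ hτ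
    obtain ⟨a, b, hab, ha, hb⟩ := hp.ex
    have h1 := h τ (hb.lt τ hτ)
    rw [oE_eq hk em hι hp τ] at h1
    have h2 : 0 < T.count τ := Multiset.count_pos.mpr hτ
    rcases hd τ with h3 | h3
    · omega
    · omega
  subst hT
  obtain ⟨a, b, hab, ha, hb⟩ := hp.ex
  have hb1 : b = 1 := by
    apply Subtype.ext
    have := hb.eq
    rw [rootPoly_zero, Polynomial.coe_one, map_one, one_mul, mul_one] at this
    exact this
  rw [hb1, map_one, mul_one] at hab
  exact ⟨a, hab⟩

theorem oE_nonneg_of_mem {z : Kˣ} {g : BD k C} (h : em (z : K) = bdE g) (τ : C) :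
    0 ≤ oE hk em hι τ z := by
  have h1 : em (z : K) * bdE (1 : BD k C) = bdE g := by rw [map_one, mul_one]; exact h
  have h2 := ordp_eq_mult hk bdE bdE_injective em hι (z := z) (one_ne_zero) h1 τ
  have h3 : mult hk τ (1 : BD k C) = 0 := by
    classical
    have hd : Dec k ((1 : BD k C) : PowerSeries C) 1 1 0 := by
      refine ⟨one_ne_zero, fun τ h => absurd h (Multiset.notMem_zero τ), ?_, ?_⟩
      · refine ⟨⊥, inferInstance, fun n => ?_⟩
        show PowerSeries.coeff n (1 : PowerSeries C) ∈ (⊥ : IntermediateField k C)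
        rw [PowerSeries.coeff_one]
        split_ifs
        · exact one_mem _
        · exact zero_mem _
      · rw [rootPoly_zero, Polynomial.coe_one, map_one]
        show (1 : PowerSeries C) = 1 * 1 * 1
        rw [one_mul, one_mul]
    rw [mult_eq hk τ hd]; simp
  unfold oE
  rw [h2, h3]
  simp

/-! ### the global coordinate -/

variable {t : K} {r : C} (hr : r ≠ 0) (ht : em t = mono 1 r (EE809.finDef_const r))

include hc ht hr in
/-- presentation of `t - r τ` -/
theorem pres_lin {τ : C} (hτ : ‖τ‖ < 1) :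
    Pres bdE em (t - algebraMap C K (r * τ)) r 1 {τ} 0 := by
  have h1 : IsU k (((1 : U1 C) : (PowerSeries C)ˣ) : PowerSeries C) := by
    refine ⟨⟨⊥, inferInstance, fun n => ?_⟩, fun n => U1.int 1 n, ?_⟩
    · show PowerSeries.coeff n (1 : PowerSeries C) ∈ (⊥ : IntermediateField k C)
      rw [PowerSeries.coeff_one]
      split_ifs
      · exact one_mem _
      · exact zero_mem _
    · rw [PowerSeries.coeff_zero_eq_constantCoeff_apply, U1.const, norm_one]
  refine ⟨⟨⟨PowerSeries.C r, C_mem_BD r⟩ * ⟨(rootPoly {τ} : PowerSeries C), coe_mem_BD _⟩, 1, ?_, ?_, ?_⟩⟩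
  · rw [map_one, mul_one, map_sub, ht, hc]
    ext n
    rw [co_sub, co_mono, co_mono, bdE_apply, co_bdF]
    have h3 : rootPoly ({τ} : Multiset C) = Polynomial.X - Polynomial.C τ := by
      simp [rootPoly]
    have h4 : ∀ m : ℕ, PowerSeries.coeff m
        ((⟨PowerSeries.C r, C_mem_BD r⟩ * ⟨(rootPoly {τ} : PowerSeries C), coe_mem_BD _⟩ : BD k C) :
          PowerSeries C) = if m = 1 then r else if m = 0 then -(r * τ) else 0 := by
      intro m
      show PowerSeries.coeff m (PowerSeries.C r * ((rootPoly {τ} : Polynomial C) : PowerSeries C)) = _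
      rw [PowerSeries.coeff_C_mul, h3, Polynomial.coeff_coe, Polynomial.coeff_sub,
        Polynomial.coeff_X, Polynomial.coeff_C]
      by_cases hm1 : m = 1
      · subst hm1; simp
      · by_cases hm0 : m = 0
        · subst hm0; simp
        · rw [if_neg hm1, if_neg hm0, if_neg (fun h => hm1 h.symm), if_neg hm0]; simp
    rw [h4]
    by_cases hn1 : n = 1
    · subst hn1; simp
    · by_cases hn0 : n = 0
      · subst hn0; simp
      · rw [if_neg hn1, if_neg hn0]
        split_ifs with h5 h6 h7
        · exfalso; omega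
        · exfalso; omega
        · simp
        · simp
  · refine ⟨hr, fun σ hσ => ?_, h1.fin, ?_⟩
    · rw [Multiset.mem_singleton] at hσ; rw [hσ]; exact hτ
    · show PowerSeries.C r * ((rootPoly {τ} : Polynomial C) : PowerSeries C) =
        PowerSeries.C r * 1 * ((rootPoly {τ} : Polynomial C) : PowerSeries C)
      rw [mul_one]
  · refine ⟨one_ne_zero, fun σ hσ => absurd hσ (Multiset.notMem_zero σ), h1.fin, ?_⟩
    rw [rootPoly_zero, Polynomial.coe_one, map_one]
    show (1 : PowerSeries C) = 1 * 1 * 1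
    rw [one_mul, one_mul]

include hc ht hr in
theorem lin_ne_zero (a : C) : t - algebraMap C K a ≠ 0 := by
  intro h
  have h1 := congrArg em h
  rw [map_sub, ht, hc, map_zero] at h1
  have h2 := congrArg (fun x => EE.co x 1) h1
  simp only [co_sub, co_mono, co_zero] at h2
  rw [if_pos trivial, if_neg one_ne_zero, sub_zero] at h2
  exact hr h2

/-- the unit `t - r τ` -/
noncomputable def lin (τ : C) : Kˣ := Units.mk0 (t - algebraMap C K (r * τ)) (lin_ne_zero em hc hr ht _)

@[simp] theorem coe_lin (τ : C) : ((lin em hc hr ht τ : Kˣ) : K) = t - algebraMap C K (r * τ) := rfl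

theorem oE_lin {τ : C} (hτ : ‖τ‖ < 1) (σ : C) [Decidable (σ = τ)] :
    oE hk em hι σ (lin em hc hr ht τ) = if σ = τ then 1 else 0 := by
  classical
  have h := oE_eq hk em hι (z := lin em hc hr ht τ) (pres_lin em hc hr ht hτ) σ
  rw [h, Multiset.count_singleton, Multiset.count_zero]
  split_ifs <;> simp

include hc hr ht in
/-- **the place of a point of the disc** -/
theorem exists_AtP {τ : C} (hτ : ‖τ‖ < 1) : ∃ P : Pl C K, AtP hk em hι τ P := by
  classical
  obtain ⟨P, e, he⟩ := ordp_eq_divf hk bdE bdE_injective em hι (em_const em hc) hτ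
  have he' : ∀ z : Kˣ, oE hk em hι τ z = e * divf (k := C) (z : K) P := he
  have h1 := he' (lin em hc hr ht τ)
  rw [oE_lin hk em hc hι hr ht hτ, if_pos rfl] at h1
  have h2 : e = 1 ∨ e = -1 := Int.eq_one_or_neg_one_of_mul_eq_one h1.symm
  rcases h2 with rfl | rfl
  · exact ⟨P, fun z => by rw [he' z, one_mul]⟩
  · exfalso
    set z0 := lin em hc hr ht τ with hz0
    have hd : divf (k := C) (z0 : K) P = -1 := by linarith
    have hv : P.v (z0 : K) = exp 1 := by rw [v_eq z0.ne_zero P, hd, neg_neg]
    have hv1 : P.v (1 + (z0 : K)) = exp 1 := by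
      rw [Valuation.map_add_eq_of_lt_right P.v (by
        rw [map_one, hv, ← exp_zero, exp_lt_exp]; norm_num)]
      exact hv
    have hne : (1 + (z0 : K)) ≠ 0 := by
      intro h0; rw [h0, map_zero] at hv1; exact exp_ne_zero hv1.symm
    have hd1 : divf (k := C) (1 + (z0 : K)) P = -1 := by
      have := v_eq (k := C) hne P
      rw [hv1, exp_inj] at this
      omega
    have h3 : oE hk em hι τ (Units.mk0 _ hne) = 1 := by
      rw [he' (Units.mk0 _ hne), Units.val_mk0, hd1]; norm_num
    have h4 : oE hk em hι τ (-z0) = 1 := by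
      have h5 : (((-z0 : Kˣ) : K)) = -(z0 : K) := rfl
      rw [he' (-z0), h5]
      have h6 : divf (k := C) (-(z0 : K)) P = -1 := by
        have := v_eq (k := C) (neg_ne_zero.mpr z0.ne_zero) P
        rw [Valuation.map_neg, hv, exp_inj] at this
        omega
      rw [h6]; norm_num
    have h7 := oE_add hk em hι hτ (z := Units.mk0 _ hne) (z' := -z0) (w := 1) (by
      show (1 : K) = (1 + (z0 : K)) + (-(z0 : K))
      ring)
    rw [h3, h4, oE_one, min_self] at h7
    omega

omit [CharZero C] in
theorem eq_of_divf_eq {P Q : Pl C K} [Algebra.IsSeparable (RatFunc C) K]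
    (h : ∀ z : Kˣ, divf (k := C) (z : K) P = divf (k := C) (z : K) Q) : P = Q := by
  apply Pl.ext
  ext z
  by_cases hz : z = 0
  · rw [hz, map_zero, map_zero]
  · have h1 := h (Units.mk0 z hz)
    rw [Units.val_mk0] at h1
    rw [v_eq hz P, v_eq hz Q, h1]

theorem AtP.unique {τ : C} {P Q : Pl C K} (hP : AtP hk em hι τ P) (hQ : AtP hk em hι τ Q) : P = Q :=
  eq_of_divf_eq fun z => by rw [← hP z, ← hQ z]

include hc hr ht in
theorem AtP.point_unique {τ σ : C} (hτ : ‖τ‖ < 1) {P : Pl C K} (hP : AtP hk em hι τ P)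
    (hQ : AtP hk em hι σ P) : τ = σ := by
  classical
  have h1 := hP (lin em hc hr ht τ)
  have h2 := hQ (lin em hc hr ht τ)
  rw [← h2, oE_lin hk em hc hι hr ht hτ, oE_lin hk em hc hι hr ht hτ, if_pos rfl] at h1
  by_contra hne
  rw [if_neg (fun h => hne h.symm)] at h1
  exact one_ne_zero h1

/-- the set of the places of the disc -/
def VP : Set (Pl C K) := {P | ∃ τ : C, ‖τ‖ < 1 ∧ AtP hk em hι τ P}

include hc hr ht in
/-- **no pole on the disc** -/
theorem mem_range_iff {f : K} : (∀ P ∈ VP hk em hι, P.v f ≤ 1) ↔ ∃ g : BD k C, em f = bdE g := by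
  by_cases hf : f = 0
  · subst hf
    refine ⟨fun _ => ⟨0, by rw [map_zero, map_zero]⟩, fun _ P _ => by rw [map_zero]; exact zero_le⟩
  constructor
  · intro h
    have h1 : ∀ τ, ‖τ‖ < 1 → 0 ≤ oE hk em hι τ (Units.mk0 f hf) := by
      intro τ hτ
      obtain ⟨P, hP⟩ := exists_AtP hk em hc hι hr ht hτ
      rw [hP (Units.mk0 f hf), Units.val_mk0]
      have h2 := h P ⟨τ, hτ, hP⟩
      rw [v_eq hf P, ← exp_zero, exp_le_exp] at h2
      omega
    exact mem_range_of_oE hk em hι h1
  · rintro ⟨g, hg⟩ P ⟨τ, hτ, hP⟩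
    have h1 := oE_nonneg_of_mem hk em hι (z := Units.mk0 f hf) hg τ
    rw [hP (Units.mk0 f hf), Units.val_mk0] at h1
    rw [v_eq hf P, ← exp_zero, exp_le_exp]
    omega

end Disc

end Crest.Agent.R013.HT_434
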