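import Mathlib
import Crest.Agent.R013.HT1_434
import Crest.Agent.R013.Eps1_184
import Crest.Agent.R013.DE5a_561
import Crest.Agent.R013.DERK1_561

/-!
# R013 / DERK2 (helper561): values at the points of a disc end

* `v_sub_value` : `em f = bdE g` ⟹ the value of `f` at the place of `x` is `g(x)`;
* `map_ev_dlt` : `σ (h(P_{a'} + P_{b'} - P_a - P_b)) = WU (nuF h)` for `h` without zeros and poles
  on the disc, where `WU : U1 F →* Fˣ`, `u ↦ u(a') u(b') / (u(a) u(b))`.
-/

set_option autoImplicit false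
set_option linter.all false

open scoped NNReal

namespace Crest.Agent.R013.DERK2_561

open WithZero
open Crest.Agent.R013.Cell_408 (DiscNorm BD FinDef evp evp_add evp_mul evp_C C_mem_BD coe_mem_BD
  rootPoly)
open Crest.Agent.R013.RR7_948 Crest.Agent.R013.RR8_948 Crest.Agent.R013.RR9_948
open Crest.Agent.R013.RR11_948 Crest.Agent.R013.RR12_948
open Crest.Agent.R013.EE809 Crest.Agent.R013.HU6_522 Crest.Agent.R013.HU3_522
open Crest.Agent.R013.HU1_522 Crest.Agent.R013.HU2_522 Crest.Agent.R013.HU7_522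
open Crest.Agent.R013.HU8_522 Crest.Agent.R013.HU9_522 Crest.Agent.R013.HT_434
open Crest.Agent.R013.WR4_777 Crest.Agent.R013.WR5_777 Crest.Agent.R013.WR2_777
open Crest.Agent.R013.CE5_280 (degP_eq_one)
open Crest.Agent.R013.DERK1_561
open Crest.Agent.R013.KAS2_940 (Bd)
open Crest.Agent.R013.LemD_323 (ev summable_ev)

section value

variable {k : Type*} [NontriviallyNormedField k] [CompleteSpace k] [IsUltrametricDist k]
variable {C : Type*} [NormedField C] [IsUltrametricDist C] [NormedAlgebra k C] [CharZero C]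
  [Algebra.IsAlgebraic k C] [IsAlgClosed C]
variable {K : Type*} [Field K] [Algebra C K] [Algebra (RatFunc C) K] [IsScalarTower C (RatFunc C) K]
  [FiniteDimensional (RatFunc C) K]
variable (hk : DiscNorm k) (em : K →+* EE k C)
  (hc : ∀ c : C, em (algebraMap C K c) = mono 0 c (EE809.finDef_const c))
  (hι : ∀ z, ∃ a b : BD k C, b ≠ 0 ∧ em z * bdE b = bdE a)

theorem mult_one (τ : C) : mult hk τ (1 : BD k C) = 0 := by
  classical
  have hd : Dec k ((1 : BD k C) : PowerSeries C) 1 1 0 := by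
    refine ⟨one_ne_zero, fun τ h => absurd h (Multiset.notMem_zero τ), ?_, ?_⟩
    · refine ⟨⊥, inferInstance, fun n => ?_⟩
      show PowerSeries.coeff n (1 : PowerSeries C) ∈ (⊥ : IntermediateField k C)
      rw [PowerSeries.coeff_one]
      split_ifs
      · exact one_mem _
      · exact zero_mem _
    · rw [rootPoly_zero, Polynomial.coe_one, map_one]
      show (1 : PowerSeries C) = 1 * 1 * 1
      rw [one_mul, one_mul]
  rw [mult_eq hk τ hd]; simp

include hc in
/-- **the value at a point of the disc** -/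
theorem v_sub_value {x : C} (hx : ‖x‖ < 1) {P : Pl C K} (hP : AtP hk em hι x P) {f : K}
    {g : BD k C} (hf : em f = bdE g) :
    P.v (f - algebraMap C K (evp x (g : PowerSeries C))) < 1 := by
  classical
  set c := evp x (g : PowerSeries C) with hc0
  by_cases hz : f - algebraMap C K c = 0
  · rw [hz, map_zero]; exact zero_lt_one
  let g' : BD k C := g - ⟨PowerSeries.C c, C_mem_BD c⟩
  have h1 : em (f - algebraMap C K c) = bdE g' := by
    rw [map_sub, hf, em_const em hc, ← map_sub]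
  have h2 : evp x (g' : PowerSeries C) = 0 := by
    have h3 : ((g' + ⟨PowerSeries.C c, C_mem_BD c⟩ : BD k C) : PowerSeries C) =
        (g : PowerSeries C) := by
      simp only [g', sub_add_cancel]
    have h4 := evp_add g'.2 (C_mem_BD (k := k) c) hx
    have h5 : (g' : PowerSeries C) + PowerSeries.C c = (g : PowerSeries C) := h3
    rw [h5, evp_C, ← hc0] at h4
    exact (left_eq_add.mp (by rw [add_comm]; exact h4))
  have hg'0 : g' ≠ 0 := by
    intro h0
    rw [h0, map_zero] at h1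
    exact em_ne_zero em hz h1
  obtain ⟨c', u, S, hS⟩ := exists_dec hk g'.2 (coe_ne_zero hg'0)
  have hxS : x ∈ S := (evp_dec hS hx).mp h2
  have hm := mult_eq hk x hS
  have hcount : 0 < S.count x := Multiset.count_pos.mpr hxS
  have h3 : em ((Units.mk0 _ hz : Kˣ) : K) * bdE (1 : BD k C) = bdE g' := by
    rw [map_one, mul_one]; exact h1
  have h4 := ordp_eq_mult hk bdE bdE_injective em hι (z := Units.mk0 _ hz) one_ne_zero h3 x
  rw [mult_one, hm] at h4
  have h5 := hP (Units.mk0 _ hz)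
  unfold oE at h5
  rw [h4, Units.val_mk0] at h5
  rw [v_eq hz P, ← h5, ← exp_zero, exp_lt_exp]
  simp only [Nat.cast_zero, sub_zero]
  omega

/-! ### functions without zeros and poles on the disc -/

variable {t : K} {r : C} (hr : r ≠ 0) (ht : em t = mono 1 r (EE809.finDef_const r))

include hc hr ht in
theorem exists_unit_pres {z : Kˣ} (hz : ∀ P ∈ VP hk em hι, divf (k := C) (z : K) P = 0) :
    ∃ (c : C) (hu : ((nuE hk em hι z : (PowerSeries C)ˣ) : PowerSeries C) ∈ BD k C), c ≠ 0 ∧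
      em (z : K) = bdE (⟨PowerSeries.C c, C_mem_BD c⟩ * ⟨_, hu⟩) := by
  classical
  obtain ⟨c, u, S, T, hp, hd⟩ := exists_pres_disj hk em hι z
  obtain ⟨a, b, hab, ha, hb⟩ := hp.ex
  have hcnt : ∀ τ : C, ‖τ‖ < 1 → S.count τ = 0 ∧ T.count τ = 0 := by
    intro τ hτ
    obtain ⟨P, hP⟩ := exists_AtP hk em hc hι hr ht hτ
    have h1 := hP z
    rw [hz P ⟨τ, hτ, hP⟩, oE_eq hk em hι hp τ] at h1
    rcases hd τ with h2 | h2 <;> omega
  have hS : S = 0 := by
    rw [Multiset.eq_zero_iff_forall_notMem]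
    intro τ hτ
    have := (hcnt τ (ha.lt τ hτ)).1
    exact (Multiset.count_eq_zero.mp this) hτ
  have hT : T = 0 := by
    rw [Multiset.eq_zero_iff_forall_notMem]
    intro τ hτ
    have := (hcnt τ (hb.lt τ hτ)).2
    exact (Multiset.count_eq_zero.mp this) hτ
  subst hS hT
  have hnu : nuE hk em hι z = u := nu_eq hk bdE bdE_injective em hι hp
  obtain ⟨hu, heq⟩ := Pres.eq bdE em hp
  have h0 : (⟨((rootPoly (0 : Multiset C) : Polynomial C) : PowerSeries C), coe_mem_BD _⟩ :
      BD k C) = 1 := by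
    apply Subtype.ext
    show ((rootPoly (0 : Multiset C) : Polynomial C) : PowerSeries C) = 1
    rw [rootPoly_zero, Polynomial.coe_one]
  rw [h0, map_one, mul_one, mul_one] at heq
  subst hnu
  exact ⟨c, hu, ha.c0, by rw [heq, map_mul]⟩

end value

/-! ### values in a complete field -/

section U1

variable {F : Type*} [NontriviallyNormedField F] [IsUltrametricDist F] [CompleteSpace F]

theorem U1.bd (u : U1 F) : Bd 1 1 (((u : (PowerSeries F)ˣ) : PowerSeries F)) := by
  rw [← int1_iff]; exact U1.int u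

/-- evaluation of one-units at a point of the open disc -/
noncomputable def evU (x : F) (hx : ‖x‖ < 1) : U1 F →* Fˣ :=
  MonoidHom.toHomUnits
    { toFun := fun u => ev ((u : (PowerSeries F)ˣ) : PowerSeries F) x
      map_one' := DE5a_561.ev_one x
      map_mul' := fun u v => Good3_940.ev_mul (U1.bd u) (U1.bd v) hx }

theorem evU_val (x : F) (hx : ‖x‖ < 1) (u : U1 F) :
    ((evU x hx u : Fˣ) : F) = ev ((u : (PowerSeries F)ˣ) : PowerSeries F) x := rfl

theorem norm_evU_sub_le (x : F) (hx : ‖x‖ < 1) (u : U1 F) :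
    ‖((evU x hx u : Fˣ) : F) - 1‖ ≤ ‖x‖ := by
  rw [evU_val, ← DE5a_561.ev_one x, ← DE5a_561.ev_sub (U1.bd u) KAS2_940.bd_one hx]
  unfold ev
  refine IsUltrametricDist.norm_tsum_le_of_forall_le_of_nonneg (norm_nonneg _) fun m => ?_
  rw [norm_mul, norm_pow]
  rcases m with _ | m
  · rw [map_sub, PowerSeries.coeff_zero_eq_constantCoeff_apply,
      PowerSeries.coeff_zero_eq_constantCoeff_apply, U1.const, map_one, sub_self, norm_zero,
      zero_mul]
    exact norm_nonneg _
  · have h1 : ‖PowerSeries.coeff (m + 1) ((((u : (PowerSeries F)ˣ) : PowerSeries F)) - 1)‖ ≤ 1 := by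
      rw [map_sub, PowerSeries.coeff_one, if_neg (Nat.succ_ne_zero m), sub_zero]
      exact U1.int u _
    calc ‖PowerSeries.coeff (m + 1) ((((u : (PowerSeries F)ˣ) : PowerSeries F)) - 1)‖ * ‖x‖ ^ (m + 1)
        ≤ 1 * ‖x‖ ^ (m + 1) := by gcongr
      _ = ‖x‖ ^ m * ‖x‖ := by rw [one_mul, pow_succ]
      _ ≤ 1 * ‖x‖ := by
          gcongr
          exact pow_le_one₀ (norm_nonneg _) hx.le
      _ = ‖x‖ := one_mul _

/-- `u ↦ u(a') u(b') / (u(a) u(b))` -/
noncomputable def WU (a b a' b' : F) (ha : ‖a‖ < 1) (hb : ‖b‖ < 1) (ha' : ‖a'‖ < 1)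
    (hb' : ‖b'‖ < 1) : U1 F →* Fˣ :=
  evU a' ha' * evU b' hb' / (evU a ha * evU b hb)

theorem WU_apply {a b a' b' : F} (ha : ‖a‖ < 1) (hb : ‖b‖ < 1) (ha' : ‖a'‖ < 1)
    (hb' : ‖b'‖ < 1) (u : U1 F) : WU a b a' b' ha hb ha' hb' u =
      evU a' ha' u * evU b' hb' u / (evU a ha u * evU b hb u) := rfl

theorem norm_WU_sub_lt {a b a' b' : F} {s : ℝ} (hs1 : s ≤ 1) (ha : ‖a‖ < s) (hb : ‖b‖ < s)
    (ha' : ‖a'‖ < s) (hb' : ‖b'‖ < s) (u : U1 F) :
    ‖((WU a b a' b' (ha.trans_le hs1) (hb.trans_le hs1) (ha'.trans_le hs1) (hb'.trans_le hs1) u :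
      Fˣ) : F) - 1‖ < s := by
  have hs0 : 0 < s := (norm_nonneg a).trans_lt ha
  have key : ∀ {x : F} (hx : ‖x‖ < s), evU x (hx.trans_le hs1) u ∈ Us F s hs0 hs1 := fun {x} hx =>
    mem_Us.mpr ((norm_evU_sub_le x _ u).trans_lt hx)
  exact (Us F s hs0 hs1).div_mem ((Us F s hs0 hs1).mul_mem (key ha') (key hb'))
    ((Us F s hs0 hs1).mul_mem (key ha) (key hb))

end U1

section transfer

variable {k : Type*} [NontriviallyNormedField k] [CompleteSpace k] [IsUltrametricDist k]
variable {C : Type*} [NormedField C] [IsUltrametricDist C] [NormedAlgebra k C]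
  [Algebra.IsAlgebraic k C] [IsAlgClosed C]
variable {F : Type*} [NontriviallyNormedField F] [IsUltrametricDist F] [CompleteSpace F]
  (σ : C →+* F) (hσ : ∀ a, ‖σ a‖ = ‖a‖)

include hσ in
/-- evaluation commutes with an isometric embedding -/
theorem map_evp {f : PowerSeries C} (hf : f ∈ BD k C) {x : C} (hx : ‖x‖ < 1) :
    σ (evp x f) = ev (PowerSeries.map σ f) (σ x) := by
  have hi : Isometry σ := AddMonoidHomClass.isometry_of_norm σ hσ
  have h := (Cell_408.summable_ev hf hx).hasSum.map σ hi.continuous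
  have h2 := h.tsum_eq
  unfold evp ev
  rw [← h2]
  refine tsum_congr fun n => ?_
  simp only [Function.comp_apply, map_mul, map_pow, PowerSeries.coeff_map]

end transfer

section main

variable {k : Type*} [NontriviallyNormedField k] [CompleteSpace k] [IsUltrametricDist k]
variable {C : Type*} [NormedField C] [IsUltrametricDist C] [NormedAlgebra k C] [CharZero C]
  [Algebra.IsAlgebraic k C] [IsAlgClosed C]
variable {K : Type*} [Field K] [Algebra C K] [Algebra (RatFunc C) K] [IsScalarTower C (RatFunc C) K]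
  [FiniteDimensional (RatFunc C) K] [Algebra.IsSeparable (RatFunc C) K]
variable (hk : DiscNorm k) (em : K →+* EE k C)
  (hc : ∀ c : C, em (algebraMap C K c) = mono 0 c (EE809.finDef_const c))
  (hι : ∀ z, ∃ a b : BD k C, b ≠ 0 ∧ em z * bdE b = bdE a)
  {t : K} {r : C} (hr : r ≠ 0) (ht : em t = mono 1 r (EE809.finDef_const r))
variable {F : Type*} [NontriviallyNormedField F] [IsUltrametricDist F] [CompleteSpace F]
  (σ : C →+* F) (hσ : ∀ a, ‖σ a‖ = ‖a‖)

include hc hr ht in
/-- the value of a function without zeros and poles on the disc -/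
theorem exists_nrm {z : Kˣ} (hz : ∀ P ∈ VP hk em hι, divf (k := C) (z : K) P = 0) :
    ∃ c : Cˣ, ∀ (x : C) (hx : ‖x‖ < 1) (hx' : ‖σ x‖ < 1) (P : Pl C K), AtP hk em hι x P →
      Units.map (σ : C →* F) (nrm P (z : K)) =
        Units.map (σ : C →* F) c * evU (σ x) hx' (nuF hk em hι σ hσ z) := by
  obtain ⟨c, hu, hc0, heq⟩ := exists_unit_pres hk em hc hι hr ht hz
  refine ⟨Units.mk0 c hc0, fun x hx hx' P hP => ?_⟩
  have h1 := v_sub_value hk em hc hι hx hP heq
  have h2 : evp x ((⟨PowerSeries.C c, C_mem_BD c⟩ * ⟨_, hu⟩ : BD k C) : PowerSeries C) =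
      c * evp x ((nuE hk em hι z : (PowerSeries C)ˣ) : PowerSeries C) := by
    have := evp_mul (C_mem_BD (k := k) c) hu hx
    rw [evp_C] at this
    exact this
  rw [h2] at h1
  have h3 : σ (evp x ((nuE hk em hι z : (PowerSeries C)ˣ) : PowerSeries C)) =
      ((evU (σ x) hx' (nuF hk em hι σ hσ z) : Fˣ) : F) := map_evp σ hσ hu hx
  have h4 : evp x ((nuE hk em hι z : (PowerSeries C)ˣ) : PowerSeries C) ≠ 0 := by
    intro h0
    rw [h0, map_zero] at h3
    exact (Units.ne_zero _) h3.symm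
  have h5 : nrm P (z : K) = Units.mk0 c hc0 * Units.mk0 _ h4 := by
    rw [nrm_of_sub_lt (c := Units.mk0 c hc0 * Units.mk0 _ h4) (by
      rw [Units.val_mul, Units.val_mk0, Units.val_mk0]; exact h1), degP_eq_one, pow_one]
  rw [h5, map_mul]
  congr 1
  apply Units.ext
  rw [Units.coe_map, Units.val_mk0]
  exact h3

include hc hr ht in
/-- **the value at `P_{a'} + P_{b'} - P_a - P_b`** -/
theorem map_ev_dlt {z : Kˣ} (hz : ∀ P ∈ VP hk em hι, divf (k := C) (z : K) P = 0)
    {a b a' b' : C} (ha : ‖a‖ < 1) (hb : ‖b‖ < 1) (ha' : ‖a'‖ < 1) (hb' : ‖b'‖ < 1)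
    (hFa : ‖σ a‖ < 1) (hFb : ‖σ b‖ < 1) (hFa' : ‖σ a'‖ < 1) (hFb' : ‖σ b'‖ < 1)
    {P Q P' Q' : Pl C K} (hP : AtP hk em hι a P) (hQ : AtP hk em hι b Q)
    (hP' : AtP hk em hι a' P') (hQ' : AtP hk em hι b' Q') :
    Units.map (σ : C →* F) (Eps1_184.ev (z : K) (Finsupp.single P' 1 + Finsupp.single Q' 1 -
      Finsupp.single P 1 - Finsupp.single Q 1)) =
      WU (σ a) (σ b) (σ a') (σ b') hFa hFb hFa' hFb' (nuF hk em hι σ hσ z) := by
  obtain ⟨c, h⟩ := exists_nrm hk em hc hι hr ht σ hσ hz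
  rw [Eps1_184.ev_sub, Eps1_184.ev_sub, Eps1_184.ev_add, Eps1_184.ev_single, Eps1_184.ev_single,
    Eps1_184.ev_single, Eps1_184.ev_single, zpow_one, zpow_one, zpow_one, zpow_one, map_div,
    map_div, map_mul, h a ha hFa P hP, h b hb hFb Q hQ, h a' ha' hFa' P' hP', h b' hb' hFb' Q' hQ',
    WU_apply, div_div, mul_mul_mul_comm, mul_mul_mul_comm _ (evU (σ a) hFa _),
    mul_div_mul_left_eq_div]

end main

end Crest.Agent.R013.DERK2_561
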