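import Mathlib
import Crest.Agent.R013.Eps1_184

/-!
# R013 / Eps2 (helper184): small `N`-th roots and the Weil pairing (task D-EPS)

`K` a function field over an algebraically closed field `F`, `N ≥ 1`, `D` a divisor of degree `0`
supported in a region `V` (with a coordinate `t`), `U` a subgroup of `Fˣ` without `N`-torsion.
Assume that for all `(C, h)`, `div h = N C`, `C` off `V`, the value `h(D)` has an `N`-th root in
`U`, and `g(D) ∈ U` for all `g` without zeros and poles in `V`.  If `D = N E + div f` then, after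
changing `E` by a torsion class, the class of `E` is fixed by every semilinear automorphism which
fixes `D`, `V` and `U`.
-/

set_option autoImplicit false
set_option linter.all false

namespace Crest.Agent.R013.Eps2_184

open WithZero Module
open Crest.Agent.R013.RR7_948 Crest.Agent.R013.RR8_948 Crest.Agent.R013.RR9_948
open Crest.Agent.R013.RR11_948 Crest.Agent.R013.RR12_948 Crest.Agent.R013.PicD_398
open Crest.Agent.R013.WR2_777 Crest.Agent.R013.WR4_777 Crest.Agent.R013.WR5_777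
open Crest.Agent.R013.CE5_280 Crest.Agent.R013.Frob1_914 Crest.Agent.R013.Eps1_184

variable {F : Type*} [Field F] {K : Type*} [Field K] [Algebra F K] [Algebra (RatFunc F) K]
  [IsScalarTower F (RatFunc F) K] [FiniteDimensional (RatFunc F) K]
  [Algebra.IsSeparable (RatFunc F) K]

/-- A perfect Weil pairing on the `N`-torsion of the class group:
`e([B],[C]) = b(C) / h(B)` for `div b = N B`, `div h = N C`, `B`, `C` disjoint. -/
structure IsWP (N : ℕ) (e : Pic F K → Pic F K → Fˣ) : Prop where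
  form : ∀ (B C : Pl F K →₀ ℤ) (b h : K), b ≠ 0 → h ≠ 0 → divf (k := F) b = N • B →
    divf (k := F) h = N • C → (∀ P, B P = 0 ∨ C P = 0) →
    e (cls B) (cls C) * ev h B = ev b C
  nondeg : ∀ β : Pic F K, N • β = 0 → (∀ γ : Pic F K, N • γ = 0 → e β γ = 1) → β = 0
  perf : ∀ χ : Pic F K → Fˣ,
    (∀ γ γ' : Pic F K, N • γ = 0 → N • γ' = 0 → χ (γ + γ') = χ γ * χ γ') →
    ∃ β : Pic F K, N • β = 0 ∧ ∀ γ : Pic F K, N • γ = 0 → χ γ = e β γ

/-- `(C, h)` is a representative of an `N`-torsion class off the region `V`. -/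
structure Rp (N : ℕ) (V : Set (Pl F K)) (C : Pl F K →₀ ℤ) (h : K) : Prop where
  ne : h ≠ 0
  div : divf (k := F) h = N • C
  off : ∀ P ∈ V, C P = 0

variable {N : ℕ} {V : Set (Pl F K)} {t : K}

theorem un_of_disj (hN : 0 < N) {C D : Pl F K →₀ ℤ} {h : K} (h0 : h ≠ 0)
    (hd : divf (k := F) h = N • C) (hdis : ∀ P, D P ≠ 0 → C P = 0) : Un h D := by
  rw [un_iff h0]
  intro P
  by_cases hP : D P = 0
  · exact Or.inl hP
  · right
    rw [hd, Finsupp.smul_apply, hdis P hP, smul_zero]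

theorem Rp.un (hN : 0 < N) {C : Pl F K →₀ ℤ} {h : K} (r : Rp N V C h) {D : Pl F K →₀ ℤ}
    (hD : ∀ P, D P ≠ 0 → C P = 0) : Un h D := un_of_disj hN r.ne r.div hD

theorem Rp.add {C C' : Pl F K →₀ ℤ} {h h' : K} (r : Rp N V C h) (r' : Rp N V C' h') :
    Rp N V (C + C') (h * h') where
  ne := mul_ne_zero r.ne r'.ne
  div := by rw [divf_mul r.ne r'.ne, r.div, r'.div, smul_add]
  off := fun P hP => by rw [Finsupp.add_apply, r.off P hP, r'.off P hP, add_zero]

/-- torsion classes have representatives off `V` and off a finite set -/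
theorem exists_rp (hV : Coord V t) (A : Finset (Pl F K)) {γ : Pic F K} (hγ : N • γ = 0) :
    ∃ C h, Rp N V C h ∧ cls C = γ ∧ ∀ P ∈ A, C P = 0 := by
  obtain ⟨C0, rfl⟩ := cls_surjective γ
  rw [← map_nsmul] at hγ
  obtain ⟨h0, hh0, hd0⟩ := cls_eq_zero_iff.mp hγ
  obtain ⟨g, hg0, hgV, hgA⟩ := exists_move hV A C0
  refine ⟨C0 + divf (k := F) g, h0 * g ^ N, ⟨mul_ne_zero hh0 (pow_ne_zero _ hg0), ?_, hgV⟩, ?_,
    hgA⟩
  · rw [divf_mul hh0 (pow_ne_zero _ hg0), hd0, divf_pow hg0, smul_add]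
  · rw [map_add, cls_divf hg0, add_zero]

variable [IsAlgClosed F]

/-- The data of the theorem. -/
structure Dat (N : ℕ) (V : Set (Pl F K)) (t : K) (D : Pl F K →₀ ℤ) (U : Subgroup Fˣ) : Prop where
  pos : 0 < N
  co : Coord V t
  supp : ∀ P, D P ≠ 0 → P ∈ V
  deg : degD D = 0
  inj : ∀ u ∈ U, u ^ N = 1 → u = 1
  root : ∀ C h, Rp N V C h → ∃ u ∈ U, u ^ N = ev h D
  loc : ∀ g : K, g ≠ 0 → (∀ P ∈ V, divf (k := F) g P = 0) → ev g D ∈ U

variable {D : Pl F K →₀ ℤ} {U : Subgroup Fˣ}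

theorem Dat.uniq (d : Dat N V t D U) {u u' : Fˣ} (hu : u ∈ U) (hu' : u' ∈ U)
    (h : u ^ N = u' ^ N) : u = u' := by
  have h1 : (u / u') ^ N = 1 := by rw [div_pow, h, div_self']
  exact div_eq_one.mp (d.inj _ (U.div_mem hu hu') h1)

/-- the set of places to be avoided -/
def Off (E : Pl F K →₀ ℤ) (f : K) (C : Pl F K →₀ ℤ) : Prop :=
  ∀ P, (E P ≠ 0 ∨ divf (k := F) f P ≠ 0) → C P = 0

/-- independence of the representative -/
theorem Dat.indep (d : Dat N V t D U) {E : Pl F K →₀ ℤ} {f : K} (hf : f ≠ 0)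
    (hE : D = N • E + divf (k := F) f) {C C' : Pl F K →₀ ℤ} {h h' : K} (r : Rp N V C h)
    (r' : Rp N V C' h') (hc : cls C = cls C') (ho : Off E f C) (ho' : Off E f C') {u u' : Fˣ}
    (hu : u ∈ U) (hu' : u' ∈ U) (hr : u ^ N = ev h D) (hr' : u' ^ N = ev h' D) :
    u * (ev f C' * ev h' E) = u' * (ev f C * ev h E) := by
  have hN := d.pos
  obtain ⟨g, hg0, hg⟩ := cls_eq_iff.mp hc.symm
  have hgN : g ^ N ≠ 0 := pow_ne_zero _ hg0
  obtain ⟨c, hcc⟩ := exists_const_mul (F := F) r'.ne (mul_ne_zero r.ne hgN) (by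
    rw [divf_mul r.ne hgN, r'.div, r.div, divf_pow hg0, hg, smul_add])
  have hc0 : algebraMap F K (c : F) ≠ 0 := by simp
  have hgP : ∀ P, C P = 0 → C' P = 0 → divf (k := F) g P = 0 := by
    intro P h1 h2
    have := congrArg (fun Z : Pl F K →₀ ℤ => Z P) hg
    simp only [Finsupp.add_apply] at this
    omega
  have hgV : ∀ P ∈ V, divf (k := F) g P = 0 := fun P hP => hgP P (r.off P hP) (r'.off P hP)
  have hcU : ∀ Z : Pl F K →₀ ℤ, Un (algebraMap F K (c : F)) Z := fun Z P _ =>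
    P.const _ c.ne_zero
  have hgD : Un g D := (un_iff hg0).mpr fun P => by
    by_cases hP : D P = 0
    · exact Or.inl hP
    · exact Or.inr (hgV P (d.supp P hP))
  have hhD : Un h D := r.un hN fun P hP => r.off P (d.supp P hP)
  have hgE : Un g E := (un_iff hg0).mpr fun P => by
    by_cases hP : E P = 0
    · exact Or.inl hP
    · exact Or.inr (hgP P (ho P (Or.inl hP)) (ho' P (Or.inl hP)))
  have hhE : Un h E := r.un hN fun P hP => ho P (Or.inl hP)
  have hdE : degD E = 0 := by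
    have h1 := congrArg degD hE
    rw [RR9_948.degD_add, degD_divf hf, add_zero, d.deg] at h1
    have h2 : degD (N • E) = N * degD E := by
      have := map_nsmul (degHom (k := F) (K := K)) N E
      rw [nsmul_eq_mul] at this
      exact this
    rw [h2] at h1
    have h3 : (N : ℤ) ≠ 0 := by exact_mod_cast hN.ne'
    have := h1.symm
    rcases mul_eq_zero.mp this with h | h
    · exact absurd h h3
    · exact h
  -- `h' = c h g^N`
  have e1 : ev h' D = ev h D * ev g D ^ N := by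
    rw [hcc, ev_mul (hcU _) (hhD.mul (hgD.pow _)), ev_const c d.deg, one_mul,
      ev_mul hhD (hgD.pow _), ev_pow hgD]
  have e2 : ev h' E = ev h E * ev g E ^ N := by
    rw [hcc, ev_mul (hcU _) (hhE.mul (hgE.pow _)), ev_const c hdE, one_mul,
      ev_mul hhE (hgE.pow _), ev_pow hgE]
  have e3 : u' = u * ev g D := by
    refine d.uniq hu' (U.mul_mem hu (d.loc g hg0 hgV)) ?_
    rw [hr', e1, mul_pow, hr]
  have e4 : ev f C' = ev f C * ev g (divf (k := F) f) := by
    rw [hg, ev_add, ev_wr hf hg0]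
    intro P
    by_cases hP : divf (k := F) f P = 0
    · exact Or.inl hP
    · exact Or.inr (hgP P (ho P (Or.inr hP)) (ho' P (Or.inr hP)))
  have e5 : ev g D = ev g E ^ N * ev g (divf (k := F) f) := by
    conv_lhs => rw [hE]
    rw [ev_add, ev_nsmul]
  rw [e4, e2, e3, e5]
  simp only [mul_comm, mul_left_comm, mul_assoc]

/-- the relation `ε(C,h) = f(C) h(E)` -/
def Rel (N : ℕ) (V : Set (Pl F K)) (D : Pl F K →₀ ℤ) (U : Subgroup Fˣ) (E : Pl F K →₀ ℤ)
    (f : K) : Prop :=
  ∀ C h, Rp N V C h → Off E f C → ∀ u ∈ U, u ^ N = ev h D → u = ev f C * ev h E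

open Classical in
/-- finite set avoiding `E` and `div f` -/
noncomputable def sup (E : Pl F K →₀ ℤ) (f : K) : Finset (Pl F K) :=
  E.support ∪ (divf (k := F) f).support

theorem off_of_sup {E : Pl F K →₀ ℤ} {f : K} {C : Pl F K →₀ ℤ} (h : ∀ P ∈ sup E f, C P = 0) :
    Off E f C := by
  classical
  intro P hP
  refine h P ?_
  unfold sup
  rcases hP with hP | hP
  · exact Finset.mem_union_left _ (Finsupp.mem_support_iff.mpr hP)
  · exact Finset.mem_union_right _ (Finsupp.mem_support_iff.mpr hP)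

/-- After changing `E` by a torsion class the relation holds. -/
theorem Dat.exists_rel (d : Dat N V t D U) {e : Pic F K → Pic F K → Fˣ} (he : IsWP N e)
    {E : Pl F K →₀ ℤ} {f : K} (hf : f ≠ 0) (hE : D = N • E + divf (k := F) f) :
    ∃ E' f', f' ≠ 0 ∧ D = N • E' + divf (k := F) f' ∧ Rel N V D U E' f' := by
  classical
  have hN := d.pos
  -- representatives off `V` and `sup E f`
  choose! C0 h0 r0 hc0 ho0 using fun (γ : Pic F K) (hγ : N • γ = 0) =>
    exists_rp (N := N) d.co (sup E f) hγ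
  choose! u0 hu0 hr0 using fun (γ : Pic F K) (hγ : N • γ = 0) =>
    d.root _ _ (r0 γ hγ)
  let χ : Pic F K → Fˣ := fun γ => u0 γ / (ev f (C0 γ) * ev (h0 γ) E)
  have hχ : ∀ γ : Pic F K, N • γ = 0 → ∀ C h, Rp N V C h → cls C = γ → Off E f C →
      ∀ u ∈ U, u ^ N = ev h D → χ γ * (ev f C * ev h E) = u := by
    intro γ hγ C h r hc ho u hu hr
    have := d.indep hf hE (r0 γ hγ) r ((hc0 γ hγ).trans hc.symm) (off_of_sup (ho0 γ hγ)) ho
      (hu0 γ hγ) hu (hr0 γ hγ) hr
    show u0 γ / (ev f (C0 γ) * ev (h0 γ) E) * (ev f C * ev h E) = u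
    rw [div_mul_eq_mul_div, this, mul_div_assoc, div_self', mul_one]
  obtain ⟨β, hβ, hχβ⟩ := he.perf χ (by
    intro γ γ' hγ hγ'
    have hs : N • (γ + γ') = 0 := by rw [nsmul_add, hγ, hγ', add_zero]
    have ra := (r0 γ hγ).add (r0 γ' hγ')
    have hoff : Off E f (C0 γ + C0 γ') := by
      intro P hP
      rw [Finsupp.add_apply, off_of_sup (ho0 γ hγ) P hP, off_of_sup (ho0 γ' hγ') P hP, add_zero]
    have hD1 : Un (h0 γ) D := (r0 γ hγ).un hN fun P hP => (r0 γ hγ).off P (d.supp P hP)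
    have hD2 : Un (h0 γ') D := (r0 γ' hγ').un hN fun P hP => (r0 γ' hγ').off P (d.supp P hP)
    have hE1 : Un (h0 γ) E := (r0 γ hγ).un hN fun P hP => off_of_sup (ho0 γ hγ) P (Or.inl hP)
    have hE2 : Un (h0 γ') E := (r0 γ' hγ').un hN fun P hP =>
      off_of_sup (ho0 γ' hγ') P (Or.inl hP)
    have := hχ (γ + γ') hs _ _ ra (by rw [map_add, hc0 γ hγ, hc0 γ' hγ']) hoff
      (u0 γ * u0 γ') (U.mul_mem (hu0 γ hγ) (hu0 γ' hγ')) (by
        rw [mul_pow, hr0 γ hγ, hr0 γ' hγ', ev_mul hD1 hD2])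
    rw [ev_add, ev_mul hE1 hE2] at this
    show χ (γ + γ') = u0 γ / (ev f (C0 γ) * ev (h0 γ) E) * (u0 γ' / (ev f (C0 γ') * ev (h0 γ') E))
    rw [div_mul_div_comm, eq_div_iff_mul_eq', ← this]
    simp only [mul_comm, mul_left_comm, mul_assoc])
  obtain ⟨B, rfl⟩ := cls_surjective β
  have hβ' := hβ
  rw [← map_nsmul] at hβ'
  obtain ⟨b, hb0, hbd⟩ := cls_eq_zero_iff.mp hβ'
  have hE' : D = N • (E - B) + divf (k := F) (f * b) := by
    rw [divf_mul hf hb0, hbd, smul_sub]
    conv_lhs => rw [hE]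
    abel
  refine ⟨E - B, f * b, mul_ne_zero hf hb0, hE', ?_⟩
  intro C h r ho u hu hr
  have hγ : N • cls C = 0 := by rw [← map_nsmul, ← r.div, cls_divf r.ne]
  -- a representative avoiding everything
  obtain ⟨C1, h1, r1, hc1, ho1⟩ := exists_rp (N := N) d.co
    (sup E f ∪ sup (E - B) (f * b) ∪ B.support) hγ
  obtain ⟨u1, hu1, hr1⟩ := d.root _ _ r1
  have o1 : Off E f C1 := off_of_sup fun P hP =>
    ho1 P (Finset.mem_union_left _ (Finset.mem_union_left _ hP))
  have o2 : Off (E - B) (f * b) C1 := off_of_sup fun P hP =>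
    ho1 P (Finset.mem_union_left _ (Finset.mem_union_right _ hP))
  have o3 : ∀ P, B P ≠ 0 → C1 P = 0 := fun P hP =>
    ho1 P (Finset.mem_union_right _ (Finsupp.mem_support_iff.mpr hP))
  have k1 := hχ (cls C) hγ C1 h1 r1 hc1 o1 u1 hu1 hr1
  rw [hχβ (cls C) hγ, ← hc1] at k1
  have k2 := he.form B C1 b h1 hb0 r1.ne hbd r1.div (fun P => by
    by_cases hP : B P = 0
    · exact Or.inl hP
    · exact Or.inr (o3 P hP))
  -- the relation for `C1`
  have hfC : Un f C1 := (un_iff hf).mpr fun P => by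
    by_cases hP : divf (k := F) f P = 0
    · exact Or.inr hP
    · exact Or.inl (o1 P (Or.inr hP))
  have hbC : Un b C1 := (un_iff hb0).mpr fun P => by
    by_cases hP : C1 P = 0
    · exact Or.inl hP
    · right
      rw [hbd, Finsupp.smul_apply]
      by_contra hne
      have hB : B P ≠ 0 := by
        intro h; rw [h, smul_zero] at hne; exact hne rfl
      exact hP (o3 P hB)
  have k3 : u1 = ev (f * b) C1 * ev h1 (E - B) := by
    rw [ev_mul hfC hbC, ev_sub, ← k1, ← k2]
    rw [div_eq_mul_inv]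
    have : ∀ x y z w : Fˣ, x * (y * z) = y * (x * w) * (z * w⁻¹) := by
      intro x y z w
      rw [show y * (x * w) * (z * w⁻¹) = x * (y * z) * (w * w⁻¹) by
        simp only [mul_comm, mul_left_comm, mul_assoc], mul_inv_cancel, mul_one]
    exact this _ _ _ _
  have k4 := d.indep (mul_ne_zero hf hb0) hE' r1 r (hc1) o2 ho hu1 hu hr1 hr
  rw [k3, mul_comm u] at k4
  exact (mul_left_cancel k4).symm

/-- **D-EPS.** -/
theorem Dat.main (d : Dat N V t D U) {e : Pic F K → Pic F K → Fˣ} (he : IsWP N e)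
    {E : Pl F K →₀ ℤ} {f : K} (hf : f ≠ 0) (hE : D = N • E + divf (k := F) f) :
    ∃ E' f', f' ≠ 0 ∧ D = N • E' + divf (k := F) f' ∧
      ∀ σ : SI F K F K, σ.D D = D → (∀ P ∈ V, σ.pl P ∈ V) →
        (∀ u ∈ U, Units.map (σ.s : F →* F) u ∈ U) →
        ∃ g : K, g ≠ 0 ∧ σ.D E' = E' + divf (k := F) g := by
  classical
  have hN := d.pos
  obtain ⟨E', f', hf', hE', hrel⟩ := d.exists_rel he hf hE
  refine ⟨E', f', hf', hE', fun σ hσD hσV hσU => ?_⟩
  have hσf : σ.f f' ≠ 0 := (map_ne_zero_iff _ σ.f.injective).mpr hf'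
  set E1 : Pl F K →₀ ℤ := σ.D E' - E' with hE1
  set f1 : K := f' / σ.f f' with hf1
  have hf10 : f1 ≠ 0 := div_ne_zero hf' hσf
  have hd1 : divf (k := F) f1 = N • E1 := by
    have h1 : divf (k := F) f1 = divf (k := F) f' - σ.D (divf (k := F) f') := by
      rw [hf1, div_eq_mul_inv, divf_mul hf' (inv_ne_zero hσf), divf_inv hσf, SI.divf_f σ hf']
      abel
    have h2 : divf (k := F) f' = D - N • E' := by
      conv_rhs => rw [hE']
      abel
    rw [h1, h2, map_sub, hσD, map_nsmul, hE1, smul_sub]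
    abel
  have key : cls E1 = 0 := by
    refine he.nondeg _ (by rw [← map_nsmul, ← hd1, cls_divf hf10]) fun γ hγ => ?_
    obtain ⟨C, h, r, hc, ho⟩ := exists_rp (N := N) d.co
      (sup E' f' ∪ sup (σ.D E') (σ.f f')) hγ
    have o1 : Off E' f' C := off_of_sup fun P hP => ho P (Finset.mem_union_left _ hP)
    have o2 : Off (σ.D E') (σ.f f') C := off_of_sup fun P hP =>
      ho P (Finset.mem_union_right _ hP)
    obtain ⟨u, hu, hur⟩ := d.root _ _ r
    have k1 := hrel C h r o1 u hu hur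
    -- the transported representative
    set τ : SI F K F K := σ.symm with hτ
    have hst : ∀ Z : Pl F K →₀ ℤ, σ.D (τ.D Z) = Z := fun Z => SI.D_symm_D σ Z
    have hsf : ∀ z : K, σ.f (τ.f z) = z := fun z => σ.f.apply_symm_apply z
    have hτh : τ.f h ≠ 0 := (map_ne_zero_iff _ τ.f.injective).mpr r.ne
    have hτC : ∀ P, (τ.D C) P = C (σ.pl P) := fun P => by rw [SI.D_apply]; rfl
    have r' : Rp N V (τ.D C) (τ.f h) :=
      ⟨hτh, by rw [SI.divf_f τ r.ne, r.div, map_nsmul], fun P hP => by rw [hτC]; exact r.off _ (hσV P hP)⟩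
    have o' : Off E' f' (τ.D C) := by
      intro P hP
      rw [hτC]
      refine o2 _ ?_
      rcases hP with hP | hP
      · left; rwa [SI.D_pl]
      · right; rwa [SI.divf_f σ hf', SI.D_pl]
    obtain ⟨u', hu', hur'⟩ := d.root _ _ r'
    have k2 := hrel _ _ r' o' u' hu' hur'
    have n1 : Un f' (τ.D C) := (un_iff hf').mpr fun P => by
      by_cases hP : divf (k := F) f' P = 0
      · exact Or.inr hP
      · exact Or.inl (o' P (Or.inr hP))
    have n2 : Un (τ.f h) E' := r'.un hN fun P hP => o' P (Or.inl hP)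
    have n3 : Un (τ.f h) D := r'.un hN fun P hP => r'.off P (d.supp P hP)
    have k3 : Units.map (σ.s : F →* F) u' = ev (σ.f f') C * ev h (σ.D E') := by
      rw [k2, map_mul, ← ev_SI σ n1, ← ev_SI σ n2, hst, hsf]
    have k4 : u = Units.map (σ.s : F →* F) u' := by
      refine d.uniq hu (hσU u' hu') ?_
      rw [← map_pow, hur', ← ev_SI σ n3, hsf, hσD, hur]
    have k5 := he.form E1 C f1 h hf10 r.ne hd1 r.div (fun P => by
      by_cases hP : C P = 0
      · exact Or.inr hP
      · left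
        have h1 : E' P = 0 := by
          by_contra hne; exact hP (o1 P (Or.inl hne))
        have h2 : (σ.D E') P = 0 := by
          by_contra hne; exact hP (o2 P (Or.inl hne))
        rw [hE1, Finsupp.sub_apply, h1, h2, sub_zero])
    have n4 : Un f' C := (un_iff hf').mpr fun P => by
      by_cases hP : divf (k := F) f' P = 0
      · exact Or.inr hP
      · exact Or.inl (o1 P (Or.inr hP))
    have n5 : Un (σ.f f') C := (un_iff hσf).mpr fun P => by
      by_cases hP : divf (k := F) (σ.f f') P = 0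
      · exact Or.inr hP
      · exact Or.inl (o2 P (Or.inr hP))
    rw [hE1, ev_sub, hf1, ev_div n4 n5] at k5
    rw [hc] at k5
    have k6 : ev f' C * ev h E' = ev (σ.f f') C * ev h (σ.D E') := by rw [← k1, k4, k3]
    have k7 : ev f' C / ev (σ.f f') C = ev h (σ.D E') / ev h E' := by
      rw [div_eq_div_iff_mul_eq_mul, k6, mul_comm]
    rw [k7, ← hE1] at k5
    exact mul_eq_right.mp k5
  obtain ⟨g, hg0, hg⟩ := cls_eq_zero_iff.mp key
  refine ⟨g, hg0, ?_⟩
  rw [hg, hE1]
  abel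

end Crest.Agent.R013.Eps2_184
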