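import Mathlib
import Crest.Agent.R013.HT1_434
import Crest.Agent.R013.RR29_948

/-!
# Row 13, D-line, leaf D-HT (helper434), file 2: the residue theorem on a disc

* `sum_VP` : `∑_{P ∈ VP} ord_P z = od (em z)`;
* `disc_res` : `(em f * th (em x)).co 0 = ∑ᶠ P ∈ VP, res P f` for every `f : K`;
* `max_principle` : if all poles of `f` lie on the disc then `|f(Q)| ≤ gn (em f)` outside;
* `estimate` : `‖(em f * dlog z).co 0‖ ≤ gn (em f) * ‖m‖` if `m` divides the divisor of `z`.
-/

set_option autoImplicit false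
set_option linter.unusedSectionVars false

open Filter Topology
open scoped NNReal
open Crest.Agent.R013.Cell_408

namespace Crest.Agent.R013.HT_434

open WithZero
open Crest.Agent.R013.RR7_948 Crest.Agent.R013.RR8_948 Crest.Agent.R013.RR9_948
open Crest.Agent.R013.RR11_948 Crest.Agent.R013.RR12_948 Crest.Agent.R013.RR13_948
open Crest.Agent.R013.RR14_948 Crest.Agent.R013.RR17_948
open Crest.Agent.R013.RR26_948 Crest.Agent.R013.RR27_948 Crest.Agent.R013.RR28_948
open Crest.Agent.R013.GR2_921 (exists_const degP_eq_one)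
open Crest.Agent.R013.EE809 Crest.Agent.R013.HU6_522 Crest.Agent.R013.HU3_522
open Crest.Agent.R013.HU1_522 Crest.Agent.R013.HU7_522
open Crest.Agent.R013.HU8_522 Crest.Agent.R013.HU9_522

variable {k : Type*} [NontriviallyNormedField k] [CompleteSpace k] [IsUltrametricDist k]
variable {C : Type*} [NormedField C] [IsUltrametricDist C] [NormedAlgebra k C] [CharZero C]
  [Algebra.IsAlgebraic k C] [IsAlgClosed C]
variable {K : Type*} [Field K] [Algebra C K] [Algebra (RatFunc C) K] [IsScalarTower C (RatFunc C) K]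
  [FiniteDimensional (RatFunc C) K]

section Disc

variable (hk : DiscNorm k) (em : K →+* EE k C)
  (hc : ∀ c : C, em (algebraMap C K c) = mono 0 c (EE809.finDef_const c))
  (hι : ∀ z, ∃ a b : BD k C, b ≠ 0 ∧ em z * bdE b = bdE a)

include hk in
/-- the order of `em z` from a presentation -/
theorem od_of_pres {z : Kˣ} {c : C} {u : U1 C} {S T : Multiset C} (h : Pres bdE em (z : K) c u S T) :
    od (em (z : K)) = (Multiset.card S : ℤ) - Multiset.card T := by
  obtain ⟨a, b, hab, ha, hb⟩ := h.ex
  obtain ⟨hu, heq⟩ := Pres.eq bdE em h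
  have hU := od_unit (k := k) ha.isU
  have hT := gn_rootPoly hk T hb.lt
  have hS := gn_rootPoly hk S ha.lt
  have e1 := od_rootPoly hk T hb.lt
  have e2 := od_rootPoly hk S ha.lt
  have hC : (bdE (⟨PowerSeries.C c, C_mem_BD c⟩ : BD k C)) = mono 0 c (EE809.finDef_const c) := bdE_C c
  rw [hC] at heq
  have hm0 : (mono 0 c (EE809.finDef_const c) : EE k C) ≠ 0 := by
    intro h0
    have := congrArg gn h0
    rw [gn_mono, gn_zero, norm_eq_zero] at this
    exact ha.c0 this
  have h1 := congrArg od heq
  rw [od_mul hk (em_ne_zero em z.ne_zero) (ne_zero_of_gn hT),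
    od_mul hk (mul_ne_zero' hk hm0 (ne_zero_of_gn hU.1)) (ne_zero_of_gn hS),
    od_mul hk hm0 (ne_zero_of_gn hU.1), od_mono 0 _ ha.c0, hU.2, e1, e2] at h1
  linarith

variable {t : K} {r : C} (hr : r ≠ 0) (ht : em t = mono 1 r (EE809.finDef_const r))

include hc hr ht in
/-- **the sum of the orders on the disc is the order at the end** -/
theorem sum_VP (z : Kˣ) (S : Finset (Pl C K)) (hSV : ∀ P ∈ S, P ∈ VP hk em hι)
    (hS : ∀ P ∈ VP hk em hι, divf (k := C) (z : K) P ≠ 0 → P ∈ S) :
    ∑ P ∈ S, divf (k := C) (z : K) P = od (em (z : K)) := by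
  classical
  obtain ⟨c, u, S0, T0, hp, hd⟩ := exists_pres_disj hk em hι z
  rw [od_of_pres hk em hp]
  obtain ⟨a, b, hab, ha, hb⟩ := hp.ex
  let pt : Pl C K → C := fun P => if h : P ∈ VP hk em hι then h.choose else 0
  have hpt : ∀ P ∈ VP hk em hι, ‖pt P‖ < 1 ∧ AtP hk em hι (pt P) P := by
    intro P hP
    have : pt P = hP.choose := dif_pos hP
    rw [this]
    exact hP.choose_spec
  have h1 : ∀ P ∈ S, divf (k := C) (z : K) P = (S0.count (pt P) : ℤ) - T0.count (pt P) := by
    intro P hP
    rw [← (hpt P (hSV P hP)).2 z, oE_eq hk em hι hp]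
  rw [Finset.sum_congr rfl h1]
  have hinj : Set.InjOn pt S := by
    intro P hP Q hQ h
    have h2 := (hpt P (hSV P hP)).2
    have h3 := (hpt Q (hSV Q hQ)).2
    rw [h] at h2
    exact AtP.unique hk em hι h2 h3
  rw [← Finset.sum_image (s := S) (g := pt) (f := fun τ => (S0.count τ : ℤ) - T0.count τ) hinj,
    Finset.sum_sub_distrib]
  have key : ∀ τ : C, ‖τ‖ < 1 → S0.count τ ≠ T0.count τ → τ ∈ S.image pt := by
    intro τ hτ hne
    obtain ⟨P, hP⟩ := exists_AtP hk em hc hι hr ht hτ
    have hPV : P ∈ VP hk em hι := ⟨τ, hτ, hP⟩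
    have h3 : P ∈ S := by
      refine hS P hPV ?_
      rw [← hP z, oE_eq hk em hι hp]
      omega
    rw [Finset.mem_image]
    refine ⟨P, h3, ?_⟩
    exact (AtP.point_unique hk em hc hι hr ht hτ hP (hpt P hPV).2).symm
  have hS0 : ∀ τ ∈ S0, τ ∈ S.image pt := by
    intro τ hτ
    refine key τ (ha.lt τ hτ) ?_
    have h4 : 0 < S0.count τ := Multiset.count_pos.mpr hτ
    rcases hd τ with h5 | h5 <;> omega
  have hT0 : ∀ τ ∈ T0, τ ∈ S.image pt := by
    intro τ hτ
    refine key τ (hb.lt τ hτ) ?_
    have h4 : 0 < T0.count τ := Multiset.count_pos.mpr hτ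
    rcases hd τ with h5 | h5 <;> omega
  have e1 : ∑ τ ∈ S.image pt, S0.count τ = Multiset.card S0 := Multiset.sum_count_eq_card hS0
  have e2 : ∑ τ ∈ S.image pt, T0.count τ = Multiset.card T0 := Multiset.sum_count_eq_card hT0
  rw [← e1, ← e2]
  push_cast
  rfl

/-! ### the residue theorem -/

/-- the residue of `f dX` at the end -/
noncomputable def endRes (f : K) : C := (em f * th (em (xK C K))).co 0

theorem endRes_add (f g : K) : endRes em (f + g) = endRes em f + endRes em g := by
  unfold endRes; rw [map_add, add_mul, co_add]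

include hc in
theorem endRes_del (h : K) : endRes em (del C K h) = 0 := by
  unfold endRes
  rw [← th_em em hc, co_th]
  simp

include hk hc in
theorem endRes_dlog {z : K} (hz : z ≠ 0) : endRes em (del C K z / z) = (od (em z) : C) := by
  unfold endRes
  rw [← dlog_em em hc]
  exact res_dlog hk (em_mul_inv em hz)

include hc in
theorem endRes_smul (c : C) (f : K) : endRes em (algebraMap C K c * f) = c * endRes em f := by
  unfold endRes
  rw [map_mul, hc, mul_assoc, co_mono_mul, sub_zero]

/-- the sum of the residues on the disc -/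
noncomputable def VRes (f : K) : C := ∑ᶠ P ∈ VP hk em hι, res P f

theorem finite_supp (f : K) : (VP hk em hι ∩ Function.support fun P : Pl C K => res P f).Finite := by
  refine (finite_res (k := C) f).subset ?_
  rintro P ⟨-, hP⟩
  rw [Set.mem_ofPred_eq]
  intro h
  exact hP (res_of_le h)

theorem VRes_add (f g : K) : VRes hk em hι (f + g) = VRes hk em hι f + VRes hk em hι g := by
  unfold VRes
  rw [← finsum_mem_add_distrib' (finite_supp hk em hι f) (finite_supp hk em hι g)]
  exact finsum_mem_congr rfl fun P _ => map_add _ _ _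

theorem VRes_smul (c : C) (f : K) :
    VRes hk em hι (algebraMap C K c * f) = c * VRes hk em hι f := by
  unfold VRes
  have h1 : ∀ P : Pl C K, res P (algebraMap C K c * f) = c * res P f := fun P => by
    rw [← Algebra.smul_def, map_smul, smul_eq_mul]
  simp only [h1]
  by_cases hc0 : c = 0
  · subst hc0; simp
  · rw [← smul_eq_mul (a := c) (b := ∑ᶠ P ∈ VP hk em hι, res P f)]
    have h2 := (DistribSMul.toAddMonoidHom C c).map_finsum_mem' (f := fun P : Pl C K => res P f)
      (s := VP hk em hι) (finite_supp hk em hι f)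
    exact h2.symm

theorem VRes_zero_of {f : K} (h : ∀ P ∈ VP hk em hι, res P f = 0) : VRes hk em hι f = 0 :=
  finsum_mem_of_eqOn_zero fun P hP => h P hP

theorem VRes_eq_sum (f : K) (S : Finset (Pl C K)) (hSV : ∀ P ∈ S, P ∈ VP hk em hι)
    (hS : ∀ P ∈ VP hk em hι, res P f ≠ 0 → P ∈ S) : VRes hk em hι f = ∑ P ∈ S, res P f :=
  finsum_mem_eq_sum_of_subset _ (fun P hP => hS P hP.1 hP.2) fun P hP => hSV P hP

include hc hr ht in
theorem VRes_dlog {z : K} (hz : z ≠ 0) : VRes hk em hι (del C K z / z) = (od (em z) : C) := by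
  classical
  have h1 := sum_VP hk em hc hι hr ht (Units.mk0 z hz)
    ((divf (k := C) z).support.filter fun P => P ∈ VP hk em hι)
    (fun P hP => (Finset.mem_filter.mp hP).2)
    (fun P hP h => Finset.mem_filter.mpr ⟨Finsupp.mem_support_iff.mpr h, hP⟩)
  rw [Units.val_mk0] at h1
  rw [VRes_eq_sum hk em hι (del C K z / z)
    ((divf (k := C) z).support.filter fun P => P ∈ VP hk em hι)
    (fun P hP => (Finset.mem_filter.mp hP).2) fun P hP h => ?_, ← h1]
  · push_cast
    exact Finset.sum_congr rfl fun P _ => res_dlog' P hz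
  · refine Finset.mem_filter.mpr ⟨Finsupp.mem_support_iff.mpr fun h0 => h ?_, hP⟩
    rw [res_dlog' P hz, h0]; simp

/-- the residue formula for `f` -/
def DR (f : K) : Prop := endRes em f = VRes hk em hι f

theorem DR.add {f g : K} (hf : DR hk em hι f) (hg : DR hk em hι g) : DR hk em hι (f + g) := by
  unfold DR at *
  rw [endRes_add, VRes_add, hf, hg]

include hc in
theorem DR.smul (c : C) {f : K} (hf : DR hk em hι f) : DR hk em hι (algebraMap C K c * f) := by
  unfold DR at *
  rw [endRes_smul em hc, VRes_smul, hf]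

include hc in
theorem DR_del (h : K) : DR hk em hι (del C K h) := by
  unfold DR
  rw [endRes_del em hc, VRes_zero_of hk em hι fun P _ => res_del P h]

include hc hr ht in
theorem DR_dlog {z : K} (hz : z ≠ 0) : DR hk em hι (del C K z / z) := by
  unfold DR
  rw [endRes_dlog hk em hc hz, VRes_dlog hk em hc hι hr ht hz]

include hc hr ht in
/-- place of `τ`: values of `t - r σ` -/
theorem v_lin {τ : C} (hτ : ‖τ‖ < 1) {σ : C} {P : Pl C K} (hP : AtP hk em hι σ P)
    [Decidable (σ = τ)] :
    P.v (t - algebraMap C K (r * τ)) = exp (if σ = τ then -1 else 0) := by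
  have h1 := oE_lin hk em hc hι hr ht hτ σ
  rw [hP (lin em hc hr ht τ)] at h1
  have h2 := v_eq (k := C) (lin em hc hr ht τ).ne_zero P
  rw [h1] at h2
  rw [← coe_lin em hc hr ht τ, h2]
  congr 1
  split_ifs <;> simp

theorem del_lin (τ : C) : del C K (t - algebraMap C K (r * τ)) = del C K t := by
  rw [map_sub, Derivation.map_algebraMap, sub_zero]

include hc hr ht in
/-- `v_P (dt) = v_P (dx)` on the disc -/
theorem v_del_t {P : Pl C K} (hP : P ∈ VP hk em hι) : P.v (del C K t) = exp (canD C K P) := by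
  classical
  obtain ⟨τ, hτ, hP'⟩ := hP
  have h1 := v_lin hk em hc hι hr ht hτ hP'
  rw [if_pos rfl] at h1
  rw [← del_lin (t := t) (r := r) τ]
  exact v_del_eq P h1

include hk hι hc hr ht in
theorem del_t_ne_zero : del C K t ≠ 0 := by
  have h0 : ‖(0 : C)‖ < 1 := by rw [norm_zero]; exact zero_lt_one
  obtain ⟨P, hP⟩ := exists_AtP hk em hc hι hr ht h0
  have h1 := v_del_t hk em hc hι hr ht (P := P) ⟨0, h0, hP⟩
  intro h2
  rw [h2, map_zero] at h1
  exact exp_ne_zero h1.symm

include hc hr ht in
/-- functions without poles on the disc -/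
theorem DR_regular {G : K} (hG : ∀ P ∈ VP hk em hι, P.v G ≤ 1) : DR hk em hι (G * del C K t) := by
  unfold DR
  obtain ⟨g, hg⟩ := (mem_range_iff hk em hc hι hr ht).mp hG
  have h1 : endRes em (G * del C K t) = 0 := by
    unfold endRes
    rw [map_mul, mul_assoc, ← th_em em hc, ht, hg, th_mono, Int.cast_one, one_mul, mul_comm,
      co_mono_mul, bdE_apply, co_bdF_neg _ (by norm_num), mul_zero]
  rw [h1, VRes_zero_of]
  intro P hP
  refine res_of_le ?_
  rw [map_mul, v_del_t hk em hc hι hr ht hP]
  calc P.v G * exp (canD C K P) ≤ 1 * exp (canD C K P) := mul_le_mul' (hG P hP) le_rfl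
    _ = _ := one_mul _

include hc hr ht in
/-- negative powers of `t - r τ` -/
theorem DR_pow {τ : C} {e : ℕ} (he : 1 ≤ e) :
    DR hk em hι ((t - algebraMap C K (r * τ)) ^ (-(e : ℤ)) * del C K t) := by
  have hs0 := lin_ne_zero em hc hr ht (r * τ)
  rcases Nat.lt_or_ge 1 e with h1 | h1
  · -- exact
    have hne : ((1 - (e : ℤ) : ℤ) : C) ≠ 0 := by
      rw [Int.cast_ne_zero]; omega
    have h2 : (t - algebraMap C K (r * τ)) ^ (-(e : ℤ)) * del C K t =
        algebraMap C K (((1 - (e : ℤ) : ℤ) : C)⁻¹) *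
          del C K ((t - algebraMap C K (r * τ)) ^ (1 - (e : ℤ))) := by
      rw [Derivation.leibniz_zpow, del_lin, smul_eq_mul]
      have h3 : (1 - (e : ℤ) - 1) = -(e : ℤ) := by ring
      rw [h3, ← Int.cast_smul_eq_zsmul C (1 - (e : ℤ))]
      rw [Algebra.smul_def, ← mul_assoc, ← map_mul, inv_mul_cancel₀ hne, map_one, one_mul]
    rw [h2]
    exact DR.smul hk em hc hι _ (DR_del hk em hc hι _)
  · have h2 : e = 1 := by omega
    subst h2
    have h3 := DR_dlog hk em hc hι hr ht hs0
    rw [del_lin, div_eq_inv_mul] at h3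
    rwa [Nat.cast_one, zpow_neg_one]

include hc hr ht in
open Classical in
theorem DR_aux : ∀ (T : Multiset C) (G : K),
    (∀ σ : C, ‖σ‖ < 1 → ∀ P : Pl C K, AtP hk em hι σ P →
      P.v G ≤ exp (T.count σ : ℤ)) → DR hk em hι (G * del C K t) := by
  intro T
  induction T using Multiset.induction_on with
  | empty =>
    intro G hG
    refine DR_regular hk em hc hι hr ht ?_
    rintro P ⟨τ, hτ, hP⟩
    have := hG τ hτ P hP
    simpa using this
  | cons τ T ih =>
    intro G hG
    by_cases hτ : ‖τ‖ < 1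
    · obtain ⟨P0, hP0⟩ := exists_AtP hk em hc hι hr ht hτ
      set s := t - algebraMap C K (r * τ) with hs
      have hs0 : s ≠ 0 := lin_ne_zero em hc hr ht (r * τ)
      set e : ℕ := T.count τ + 1 with he
      have hvs : P0.v s = exp (-1) := by
        have := v_lin hk em hc hι hr ht hτ hP0
        rwa [if_pos rfl] at this
      have hvG : P0.v G ≤ exp (e : ℤ) := by
        have := hG τ hτ P0 hP0
        rwa [Multiset.count_cons_self] at this
      have hGs : P0.v (G * s ^ e) ≤ 1 := by
        rw [map_mul, map_pow, hvs, ← exp_nsmul, nsmul_eq_mul]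
        calc P0.v G * exp ((e : ℤ) * -1) ≤ exp (e : ℤ) * exp ((e : ℤ) * -1) :=
              mul_le_mul' hvG le_rfl
          _ = 1 := by rw [← exp_add, ← exp_zero]; congr 1; ring
      obtain ⟨α, hα⟩ := exists_const P0 hGs
      set f2 := algebraMap C K α * s ^ (-(e : ℤ)) with hf2
      have hsplit : G * del C K t = (G - f2) * del C K t + f2 * del C K t := by ring
      rw [hsplit]
      refine DR.add hk em hι (ih (G - f2) ?_) ?_
      · intro σ hσ P hP
        by_cases hστ : σ = τ
        · subst hστ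
          have hPP : P = P0 := AtP.unique hk em hι hP hP0
          subst hPP
          have h5 : G - f2 = (G * s ^ e - algebraMap C K α) * s ^ (-(e : ℤ)) := by
            rw [sub_mul, hf2, mul_assoc G, ← zpow_natCast, ← zpow_add₀ hs0, add_neg_cancel,
              zpow_zero, mul_one]
          rw [h5, map_mul, map_zpow₀, hvs, ← exp_zsmul, smul_eq_mul]
          have h6 : P.v (G * s ^ e - algebraMap C K α) ≤ exp (-1) := by
            exact (RR2_948.lt_one_iff _).mp hα
          calc P.v (G * s ^ e - algebraMap C K α) * exp (-(e : ℤ) * -1) ≤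
              exp (-1) * exp (-(e : ℤ) * -1) := mul_le_mul' h6 le_rfl
            _ = exp ((Multiset.count σ T : ℕ) : ℤ) := by
              rw [← exp_add]; congr 1
              have : (e : ℤ) = (T.count σ : ℤ) + 1 := by rw [he]; push_cast; rfl
              rw [this]
              ring
        · have hvs' : P.v s = 1 := by
            have := v_lin hk em hc hι hr ht hτ hP
            rwa [if_neg hστ, exp_zero] at this
          have h5 : P.v f2 ≤ 1 := by
            rw [hf2, map_mul, map_zpow₀, hvs', one_zpow, mul_one]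
            by_cases hα0 : α = 0
            · rw [hα0, map_zero, map_zero]; exact zero_le
            · rw [P.const α hα0]
          have h6 : P.v G ≤ exp ((Multiset.count σ T : ℕ) : ℤ) := by
            have := hG σ hσ P hP
            rwa [Multiset.count_cons_of_ne hστ] at this
          refine (Valuation.map_sub _ _ _).trans (max_le h6 (h5.trans ?_))
          rw [← exp_zero, exp_le_exp]; positivity
      · rw [hf2, mul_assoc]
        exact DR.smul hk em hc hι α (DR_pow hk em hc hι hr ht (by omega))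
    · refine ih G fun σ hσ P hP => ?_
      have h1 : σ ≠ τ := by rintro rfl; exact hτ hσ
      have := hG σ hσ P hP
      rwa [Multiset.count_cons_of_ne h1] at this

include hc hr ht in
/-- **the residue theorem on a disc** -/
theorem disc_res (f : K) : endRes em f = VRes hk em hι f := by
  classical
  have hd := del_t_ne_zero hk em hc hι hr ht
  have hf : f = (f / del C K t) * del C K t := by rw [div_mul_cancel₀ _ hd]
  rw [hf]
  by_cases hG : f / del C K t = 0
  · rw [hG, zero_mul]
    have h1 : del C K (0 : K) = 0 := map_zero _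
    rw [← h1]
    exact DR_del hk em hc hι 0
  · obtain ⟨c, u, S, T, hp⟩ := exists_pres hk bdE bdE_injective em hι hG
    refine DR_aux hk em hc hι hr ht T (f / del C K t) fun σ hσ P hP => ?_
    have h1 := oE_eq hk em hι (z := Units.mk0 _ hG) hp σ
    rw [hP (Units.mk0 _ hG), Units.val_mk0] at h1
    rw [v_eq hG P, h1, exp_le_exp]
    have h2 : ∀ (i1 i2 : DecidableEq C), @Multiset.count C i1 σ T =
      @Multiset.count C i2 σ T := fun i1 i2 => by congr
    rw [h2 _ (fun a b => Classical.propDecidable (a = b))]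
    have h3 : (0 : ℤ) ≤ ((Multiset.count σ S : ℕ) : ℤ) := by positivity
    rw [neg_sub]
    linarith

/-! ### the maximum principle -/

include hc hr ht in
/-- **maximum principle**: if all poles of `f` lie on the disc, then `|f(Q)| ≤ gn (em f)` for the
places `Q` which are not on the disc -/
theorem max_principle {f : K} (hpol : ∀ Q : Pl C K, Q ∉ VP hk em hι → Q.v f ≤ 1) {Q : Pl C K}
    (hQ : Q ∉ VP hk em hι) {c : C} (h : Q.v (f - algebraMap C K c) < 1) : ‖c‖ ≤ gn (em f) := by
  classical
  by_contra hcon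
  push Not at hcon
  set g := f - algebraMap C K c with hg
  have hcpos : 0 < ‖c‖ := (gn_nonneg _).trans_lt hcon
  have hco : ∀ n : ℤ, (em g).co n = (em f).co n - if n = 0 then c else 0 := by
    intro n
    rw [hg, map_sub, hc, co_sub, co_mono]
  have h0 : ‖(em g).co 0‖ = ‖c‖ := by
    have hlt0 : ‖(em f).co 0‖ < ‖c‖ := (le_gn _ 0).trans_lt hcon
    rw [hco, if_pos rfl, sub_eq_add_neg, IsUltrametricDist.norm_add_eq_max_of_norm_ne_norm
      (by rw [norm_neg]; exact hlt0.ne), norm_neg]
    exact max_eq_right hlt0.le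
  have hlt : ∀ n : ℤ, n ≠ 0 → ‖(em g).co n‖ < ‖c‖ := by
    intro n hn
    rw [hco, if_neg hn, sub_zero]
    exact (le_gn _ n).trans_lt hcon
  have hgn : gn (em g) = ‖c‖ := by
    apply le_antisymm
    · refine gn_le fun n => ?_
      by_cases hn : n = 0
      · rw [hn, h0]
      · exact (hlt n hn).le
    · rw [← h0]; exact le_gn _ 0
  have hod : od (em g) = 0 := by
    refine od_eq_of ?_ fun m hm => ?_
    · rw [h0, hgn]
    · rw [hgn]; exact hlt m hm.ne
  have hg0 : g ≠ 0 := by
    intro h1
    rw [h1, map_zero, gn_zero] at hgn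
    rw [← hgn] at hcpos
    exact lt_irrefl _ hcpos
  have h1 := sum_VP hk em hc hι hr ht (Units.mk0 g hg0)
    ((divf (k := C) g).support.filter fun P => P ∈ VP hk em hι)
    (fun P hP => (Finset.mem_filter.mp hP).2)
    (fun P hP h => Finset.mem_filter.mpr ⟨Finsupp.mem_support_iff.mpr h, hP⟩)
  rw [Units.val_mk0, hod] at h1
  have h2 := degD_divf (k := C) hg0
  have h3 : degD (divf (k := C) g) = ∑ P ∈ (divf (k := C) g).support, divf (k := C) g P := by
    unfold degD
    rw [Finsupp.sum]
    refine Finset.sum_congr rfl fun P _ => ?_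
    rw [degP_eq_one]; simp
  rw [h3, ← Finset.sum_filter_add_sum_filter_not _ (fun P => P ∈ VP hk em hι), h1, zero_add] at h2
  have hvQ : Q.v g < 1 := h
  have hpos : ∀ P ∈ (divf (k := C) g).support.filter (fun P => P ∉ VP hk em hι),
      0 ≤ divf (k := C) g P := by
    intro P hP
    have h4 : P.v g ≤ 1 := by
      refine (Valuation.map_sub _ _ _).trans (max_le (hpol P (Finset.mem_filter.mp hP).2) ?_)
      by_cases hc0 : c = 0
      · rw [hc0, map_zero, map_zero]; exact zero_le
      · rw [P.const c hc0]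
    rw [v_eq hg0 P, ← exp_zero, exp_le_exp] at h4
    omega
  have hQd : 0 < divf (k := C) g Q := by
    rw [v_eq hg0 Q, ← exp_zero, exp_lt_exp] at hvQ
    omega
  have h5 := Finset.single_le_sum hpos (Finset.mem_filter.mpr
    ⟨Finsupp.mem_support_iff.mpr hQd.ne', hQ⟩ :
      Q ∈ (divf (k := C) g).support.filter (fun P => P ∉ VP hk em hι))
  rw [h2] at h5
  omega

include hc hr ht in
/-- **the estimate**: the residue of `f dlog z` at the end is small when the divisor of `z` is
divisible and the poles of `f` are on the disc -/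
theorem estimate {f : K} (hpol : ∀ Q : Pl C K, Q ∉ VP hk em hι → Q.v f ≤ 1) {z : Kˣ} {m : ℕ}
    (hz : ∀ P : Pl C K, (m : ℤ) ∣ divf (k := C) (z : K) P) :
    ‖(em f * (th (em (z : K)) * em (z : K)⁻¹)).co 0‖ ≤ gn (em f) * ‖(m : C)‖ := by
  classical
  set F : K := f * (del C K (z : K) / z) with hF
  have h1 : (em f * (th (em (z : K)) * em (z : K)⁻¹)).co 0 = endRes em F := by
    unfold endRes
    rw [hF, map_mul, mul_assoc, dlog_em em hc]
  set S0 : Finset (Pl C K) := (finite_res (k := C) F).toFinset with hS0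
  have hmem : ∀ P : Pl C K, P ∉ S0 → P.v F ≤ exp (canD C K P) := by
    intro P hP
    by_contra hcon
    exact hP (by rw [hS0, Set.Finite.mem_toFinset]; exact hcon)
  have h2 := sum_res F S0 hmem
  rw [← Finset.sum_filter_add_sum_filter_not S0 (fun P => P ∈ VP hk em hι)] at h2
  have h3 : VRes hk em hι F = ∑ P ∈ S0.filter (fun P => P ∈ VP hk em hι), res P F := by
    refine VRes_eq_sum hk em hι F _ (fun P hP => (Finset.mem_filter.mp hP).2) fun P hP h => ?_
    refine Finset.mem_filter.mpr ⟨?_, hP⟩
    by_contra hcon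
    exact h (res_of_le (hmem P hcon))
  rw [h1, disc_res hk em hc hι hr ht, h3, eq_neg_of_add_eq_zero_left h2, norm_neg]
  have hnn : 0 ≤ gn (em f) * ‖(m : C)‖ := mul_nonneg (gn_nonneg _) (norm_nonneg _)
  refine IsUltrametricDist.norm_sum_le_of_forall_le_of_nonneg hnn fun P hP => ?_
  have hPV : P ∉ VP hk em hι := (Finset.mem_filter.mp hP).2
  obtain ⟨c, hcP⟩ := exists_const P (hpol P hPV)
  have h4 := max_principle hk em hc hι hr ht hpol hPV hcP
  have h5 := RR29_948.res_mul_dlog P hcP (v_eq (k := C) z.ne_zero P)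
  rw [hF, h5, norm_mul]
  refine mul_le_mul h4 ?_ (norm_nonneg _) (gn_nonneg _)
  obtain ⟨b, hb⟩ := hz P
  rw [hb]
  push_cast
  rw [norm_mul]
  exact mul_le_of_le_one_right (norm_nonneg _) (IsUltrametricDist.norm_intCast_le_one C b)

end Disc

end Crest.Agent.R013.HT_434
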