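import Mathlib
import Crest.Agent.R013.DERK2_561
import Crest.Agent.R013.HT2_434
import Crest.Agent.R013.Div6_280
import Crest.Agent.R013.Eps2_184

/-!
# R013 / DERK3 (helper561): small roots

* `exists_PC` : `p^n ∣ div h` ⟹ `h` is the `n`-th component of a system `u ∈ DivP`;
* `WU_Hu` : `OmE u = λ w`, `z(a') + z(b') = z(a) + z(b)` ⟹ `WU (HuE u) = 1`;
* `exists_small_root` : `div h = N D`, `D` off the disc ⟹ the value of `h` at
  `P_{a'} + P_{b'} - P_a - P_b` has an `N`-th root `y` with `‖y - 1‖ < ‖p‖`;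
* `coord` : `Coord VP t`.
-/

set_option autoImplicit false
set_option linter.all false

open scoped NNReal

namespace Crest.Agent.R013.DERK3_561

open WithZero
open Crest.Agent.R013.Cell_408 (DiscNorm BD FinDef evp evp_add evp_mul evp_C C_mem_BD coe_mem_BD
  rootPoly)
open Crest.Agent.R013.RR7_948 Crest.Agent.R013.RR8_948 Crest.Agent.R013.RR9_948
open Crest.Agent.R013.RR11_948 Crest.Agent.R013.RR12_948
open Crest.Agent.R013.EE809 Crest.Agent.R013.HU6_522 Crest.Agent.R013.HU3_522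
open Crest.Agent.R013.HU1_522 Crest.Agent.R013.HU2_522 Crest.Agent.R013.HU7_522
open Crest.Agent.R013.HU8_522 Crest.Agent.R013.HU9_522 Crest.Agent.R013.HT_434
open Crest.Agent.R013.HU4_522 Crest.Agent.R013.PC_588
open Crest.Agent.R013.WR4_777 Crest.Agent.R013.WR5_777 Crest.Agent.R013.WR2_777
open Crest.Agent.R013.DERK1_561 Crest.Agent.R013.DERK2_561
open Crest.Agent.R013.KAS2_940 (Bd antid)
open Crest.Agent.R013.LemD_323 (ev)

section ext

variable {C : Type*} [Field C] [IsAlgClosed C] [CharZero C] {K : Type*} [Field K] [Algebra C K]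
  [Algebra (RatFunc C) K] [IsScalarTower C (RatFunc C) K] [FiniteDimensional (RatFunc C) K]
  [Algebra.IsSeparable (RatFunc C) K]

omit [IsAlgClosed C] [CharZero C] [Algebra (RatFunc C) K] [IsScalarTower C (RatFunc C) K]
  [FiniteDimensional (RatFunc C) K] [Algebra.IsSeparable (RatFunc C) K] in
theorem exists_smul_of_dvd {m : ℕ} {E : Pl C K →₀ ℤ} (h : ∀ P, (m : ℤ) ∣ E P) :
    ∃ D : Pl C K →₀ ℤ, E = m • D := by
  refine ⟨E.mapRange (fun n => n / (m : ℤ)) (by simp), ?_⟩
  ext P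
  rw [Finsupp.smul_apply, Finsupp.mapRange_apply, nsmul_eq_mul]
  exact (Int.mul_ediv_cancel' (h P)).symm

/-- one step -/
theorem step {p : ℕ} (hp : 0 < p) {j : ℕ} {x : Kˣ}
    (hx : ∀ P : Pl C K, ((p ^ j : ℕ) : ℤ) ∣ divf (k := C) (x : K) P) :
    ∃ y : Kˣ, ∀ P : Pl C K, ((p ^ (j + 1) : ℕ) : ℤ) ∣
      divf (k := C) ((x * y ^ (p ^ j) : Kˣ) : K) P := by
  obtain ⟨D, hD⟩ := exists_smul_of_dvd hx
  have hpj : ((p ^ j : ℕ) : ℤ) ≠ 0 := by
    have := pow_pos hp j
    exact_mod_cast this.ne'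
  have hD0 : degD D = 0 := by
    have h1 : degD (divf (k := C) (x : K)) = 0 := degD_divf x.ne_zero
    rw [hD, Div1_280.degD_nsmul] at h1
    exact (mul_eq_zero.mp h1).resolve_left hpj
  obtain ⟨E, f, hf, -, hE⟩ := Div6_280.exists_div hp hD0
  refine ⟨(Units.mk0 f hf)⁻¹, fun P => ?_⟩
  have h2 : divf (k := C) ((x * ((Units.mk0 f hf)⁻¹) ^ (p ^ j) : Kˣ) : K) = (p ^ (j + 1)) • E := by
    rw [Units.val_mul, Units.val_pow_eq_pow_val, Units.val_inv_eq_inv_val, Units.val_mk0,
      divf_mul x.ne_zero (pow_ne_zero _ (inv_ne_zero hf)), divf_pow (inv_ne_zero hf), divf_inv hf,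
      hD, ← smul_add, hE, add_neg_cancel_right, pow_succ, mul_smul]
  rw [h2, Finsupp.smul_apply, nsmul_eq_mul]
  exact dvd_mul_right _ _

/-- **extension to a system** -/
theorem exists_PC {p : ℕ} [Fact p.Prime] {n : ℕ} {h : Kˣ}
    (hh : ∀ P : Pl C K, ((p ^ n : ℕ) : ℤ) ∣ divf (k := C) (h : K) P) :
    ∃ u : PC p Kˣ, DivP C u ∧ Rep u n h := by
  have hp0 : 0 < p := (Fact.out : p.Prime).pos
  let T : ℕ → Type _ := fun j =>
    {x : Kˣ // ∀ P : Pl C K, ((p ^ (n + j) : ℕ) : ℤ) ∣ divf (k := C) (x : K) P}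
  let st : ∀ j, T j → T (j + 1) := fun j x =>
    ⟨x.1 * (step (C := C) (K := K) hp0 x.2).choose ^ (p ^ (n + j)), (step hp0 x.2).choose_spec⟩
  let G : ∀ j, T j := fun j => Nat.rec (motive := T) ⟨h, hh⟩ st j
  have hG0 : (G 0).1 = h := rfl
  have hGs : ∀ j m, m = n + j → ∃ y : Kˣ, (G (j + 1)).1 = (G j).1 * y ^ (p ^ m) := by
    rintro j _ rfl
    exact ⟨_, rfl⟩
  let g : ℕ → Kˣ := fun m => (G (m - n)).1
  have hg : ∀ m, ∃ y : Kˣ, g (m + 1) = g m * y ^ (p ^ m) := by
    intro m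
    rcases Nat.lt_or_ge m n with h1 | h1
    · refine ⟨1, ?_⟩
      simp only [g]
      rw [show m + 1 - n = 0 by omega, show m - n = 0 by omega, one_pow, mul_one]
    · obtain ⟨y, hy⟩ := hGs (m - n) m (by omega)
      refine ⟨y, ?_⟩
      simp only [g]
      rw [show m + 1 - n = m - n + 1 by omega, hy]
  refine ⟨PC.seq g hg, fun m h' hh' P => ?_, ?_⟩
  · obtain ⟨y, hy⟩ := (PC.rep_seq g hg m).eq_iff.1 hh'
    rw [hy, Units.val_mul, Units.val_pow_eq_pow_val, divf_mul (g m).ne_zero (pow_ne_zero _ y.ne_zero),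
      divf_pow y.ne_zero, Finsupp.add_apply, Finsupp.smul_apply, nsmul_eq_mul]
    refine dvd_add ?_ (dvd_mul_right _ _)
    have h1 := (G (m - n)).2 P
    refine dvd_trans ?_ h1
    exact_mod_cast pow_dvd_pow p (by omega : m ≤ n + (m - n))
  · have := PC.rep_seq (p := p) g hg n
    have h1 : g n = h := by simp only [g]; rw [Nat.sub_self, hG0]
    rw [h1] at this
    exact this

end ext

section key

variable {F : Type*} [NontriviallyNormedField F] [IsUltrametricDist F] [CompleteSpace F]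
  [CharZero F] {p : ℕ} [Fact p.Prime]

/-- `‖p‖ = l^(p-1)`, `‖p‖ ≤ l < 1` -/
theorem exists_l (hpF : ‖(p : F)‖ < 1) :
    ∃ l : ℝ, 0 < l ∧ l < 1 ∧ l ^ (p - 1) = ‖(p : F)‖ ∧ ‖(p : F)‖ ≤ l := by
  have hp2 := (Fact.out : p.Prime).two_le
  have hpos : 0 < ‖(p : F)‖ := norm_p_pos
  have hne : p - 1 ≠ 0 := by omega
  refine ⟨‖(p : F)‖ ^ ((((p - 1 : ℕ) : ℝ))⁻¹), Real.rpow_pos_of_pos hpos _, ?_, ?_, ?_⟩
  · refine Real.rpow_lt_one hpos.le hpF ?_
    have : (0 : ℝ) < ((p - 1 : ℕ) : ℝ) := by exact_mod_cast Nat.pos_of_ne_zero hne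
    positivity
  · exact Real.rpow_inv_natCast_pow hpos.le hne
  · have h1 : (((p - 1 : ℕ) : ℝ))⁻¹ ≤ 1 := by
      apply inv_le_one_of_one_le₀
      exact_mod_cast Nat.one_le_iff_ne_zero.mpr hne
    calc ‖(p : F)‖ = ‖(p : F)‖ ^ (1 : ℝ) := (Real.rpow_one _).symm
      _ ≤ ‖(p : F)‖ ^ ((((p - 1 : ℕ) : ℝ))⁻¹) :=
        Real.rpow_le_rpow_of_exponent_ge hpos hpF.le h1

/-- **the values of `H` with `H' = λ w H` at four points** -/
theorem WU_eq_one (hpF : ‖(p : F)‖ < 1) {H : U1 F} {lam : F} {w : PowerSeries F}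
    (hH : dl H = PowerSeries.C lam * w) {a b a' b' : F}
    (ha : ‖a‖ < ‖(p : F)‖) (hb : ‖b‖ < ‖(p : F)‖) (ha' : ‖a'‖ < ‖(p : F)‖)
    (hb' : ‖b'‖ < ‖(p : F)‖)
    (hz : ev (antid w) a' + ev (antid w) b' = ev (antid w) a + ev (antid w) b) :
    WU a b a' b' (ha.trans hpF) (hb.trans hpF) (ha'.trans hpF) (hb'.trans hpF) H = 1 := by
  letI : Algebra ℚ F := DivisionRing.toRatAlgebra
  obtain ⟨l, hl0, hl1, hl, hpl⟩ := exists_l (F := F) (p := p) hpF
  have hbd : Bd 1 1 (PowerSeries.C lam * w) := by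
    rw [← hH, ← int1_iff]; exact dl_int H
  have h1 := DE5a_561.ev_prod_eq (Fact.out : p.Prime) hl0 hl1 hl (U1.const H)
    (by rw [← hH]; exact dl_spec H) hbd (ha.trans_le hpl) (hb.trans_le hpl) (ha'.trans_le hpl)
    (hb'.trans_le hpl) hz
  rw [WU_apply, div_eq_one]
  apply Units.ext
  rw [Units.val_mul, Units.val_mul]
  exact h1

end key

section root

variable {k : Type*} [NontriviallyNormedField k] [CompleteSpace k] [IsUltrametricDist k]
variable {C : Type*} [NormedField C] [IsUltrametricDist C] [NormedAlgebra k C] [CharZero C]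
  [Algebra.IsAlgebraic k C] [IsAlgClosed C]
variable {K : Type*} [Field K] [Algebra C K] [Algebra (RatFunc C) K] [IsScalarTower C (RatFunc C) K]
  [FiniteDimensional (RatFunc C) K] [Algebra.IsSeparable (RatFunc C) K]
variable (hk : DiscNorm k) (em : K →+* EE k C)
  (hc : ∀ c : C, em (algebraMap C K c) = mono 0 c (EE809.finDef_const c))
  (hι : ∀ z, ∃ a b : BD k C, b ≠ 0 ∧ em z * bdE b = bdE a)
  {t : K} {r : C} (hr : r ≠ 0) (ht : em t = mono 1 r (EE809.finDef_const r))
variable {F : Type*} [NontriviallyNormedField F] [IsUltrametricDist F] [CompleteSpace F]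
  [CharZero F] (σ : C →+* F) (hσ : ∀ a, ‖σ a‖ = ‖a‖) {p : ℕ} [Fact p.Prime] (hp : ‖(p : C)‖ < 1)

omit [CharZero C] in
/-- an `N`-th root in `F` of an element of `C` is in `C` -/
theorem exists_of_root {N : ℕ} (hN : 0 < N) {c : C} {v : F} (h : v ^ N = σ c) :
    ∃ y : C, σ y = v ∧ y ^ N = c := by
  have h1 := (IsAlgClosed.splits (Polynomial.X ^ N - Polynomial.C c : Polynomial C))
  have hne : (Polynomial.X ^ N - Polynomial.C c : Polynomial C) ≠ 0 :=
    (Polynomial.monic_X_pow_sub_C c hN.ne').ne_zero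
  letI : Algebra C F := σ.toAlgebra
  have h2 : v ∈ (algebraMap C F).range := by
    refine h1.mem_range_of_isRoot hne ?_
    rw [Polynomial.map_sub, Polynomial.map_pow, Polynomial.map_X, Polynomial.map_C,
      Polynomial.IsRoot, Polynomial.eval_sub, Polynomial.eval_pow, Polynomial.eval_X,
      Polynomial.eval_C, h]
    exact sub_self _
  obtain ⟨y, hy⟩ := h2
  refine ⟨y, hy, σ.injective ?_⟩
  rw [map_pow, ← h, ← hy]
  rfl

include hp hc hr ht in
/-- **small roots** -/
theorem exists_small_root {a b a' b' : C} (ha : ‖a‖ < ‖(p : C)‖) (hb : ‖b‖ < ‖(p : C)‖)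
    (ha' : ‖a'‖ < ‖(p : C)‖) (hb' : ‖b'‖ < ‖(p : C)‖)
    {P Q P' Q' : Pl C K} (hP : AtP hk em hι a P) (hQ : AtP hk em hι b Q)
    (hP' : AtP hk em hι a' P') (hQ' : AtP hk em hι b' Q')
    {w : PowerSeries F}
    (hw : ∀ u : PC p Kˣ, DivP C u → ∃ lam : F, OmE hk em hι σ hσ u = PowerSeries.C lam * w)
    (hz : ev (antid w) (σ a') + ev (antid w) (σ b') = ev (antid w) (σ a) + ev (antid w) (σ b))
    {N : ℕ} (hN : 0 < N) {z : K} (hz0 : z ≠ 0) {E : Pl C K →₀ ℤ} (hE : divf (k := C) z = N • E)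
    (hoff : ∀ P ∈ VP hk em hι, E P = 0) :
    ∃ y : Cˣ, ‖(y : C) - 1‖ < ‖(p : C)‖ ∧
      y ^ N = Eps1_184.ev z (Finsupp.single P' 1 + Finsupp.single Q' 1 -
        Finsupp.single P 1 - Finsupp.single Q 1) := by
  have hpF' : ‖(p : F)‖ = ‖(p : C)‖ := norm_p_F σ hσ
  have hpF : ‖(p : F)‖ < 1 := by rw [hpF']; exact hp
  have hlt : ∀ {x : C}, ‖x‖ < ‖(p : C)‖ → ‖σ x‖ < ‖(p : F)‖ := fun {x} hx => by
    rw [hσ, hpF']; exact hx
  obtain ⟨n, m, hm, hNm⟩ := Nat.exists_eq_pow_mul_and_not_dvd hN.ne' p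
    (Fact.out : p.Prime).ne_one
  have hpn : 0 < p ^ n := pow_pos (Fact.out : p.Prime).pos n
  let Z : Kˣ := Units.mk0 z hz0
  have hdiv : ∀ R : Pl C K, ((p ^ n : ℕ) : ℤ) ∣ divf (k := C) (Z : K) R := by
    intro R
    show ((p ^ n : ℕ) : ℤ) ∣ divf (k := C) z R
    rw [hE, Finsupp.smul_apply, nsmul_eq_mul, hNm]
    exact ⟨(m : ℤ) * E R, by push_cast; ring⟩
  obtain ⟨u, hu, hrep⟩ := exists_PC (p := p) hdiv
  obtain ⟨lam, hlam⟩ := hw u hu
  have h1 := WU_eq_one hpF (H := HuE hk em hι σ hσ u) (lam := lam) (w := w) hlam (hlt ha) (hlt hb)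
    (hlt ha') (hlt hb') hz
  obtain ⟨V, hV⟩ := Hu_spec hpF (nuF hk em hι σ hσ) hrep
  have hV' : HuE hk em hι σ hσ u = nuF hk em hι σ hσ Z * V ^ (p ^ n) := hV
  rw [hV', map_mul, map_pow] at h1
  have hoff' : ∀ R ∈ VP hk em hι, divf (k := C) (Z : K) R = 0 := by
    intro R hR
    show divf (k := C) z R = 0
    rw [hE, Finsupp.smul_apply, hoff R hR, smul_zero]
  have h2 := map_ev_dlt hk em hc hι hr ht σ hσ hoff' (ha.trans hp) (hb.trans hp) (ha'.trans hp)
    (hb'.trans hp) ((hlt ha).trans hpF) ((hlt hb).trans hpF) ((hlt ha').trans hpF)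
    ((hlt hb').trans hpF) hP hQ hP' hQ'
  set e := Eps1_184.ev (Z : K) (Finsupp.single P' 1 + Finsupp.single Q' 1 -
        Finsupp.single P 1 - Finsupp.single Q 1) with he
  set v : Fˣ := (WU (σ a) (σ b) (σ a') (σ b') ((hlt ha).trans hpF) ((hlt hb).trans hpF)
    ((hlt ha').trans hpF) ((hlt hb').trans hpF) V)⁻¹ with hv
  have h3 : v ^ (p ^ n) = Units.map (σ : C →* F) e := by
    rw [h2, hv, inv_pow]
    exact (eq_inv_of_mul_eq_one_left h1).symm
  have hvs : ‖(v : F) - 1‖ < ‖(p : F)‖ := by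
    have h4 := norm_WU_sub_lt hpF.le (hlt ha) (hlt hb) (hlt ha') (hlt hb') V
    exact (Us F ‖(p : F)‖ norm_p_pos hpF.le).inv_mem (mem_Us.mpr h4)
  obtain ⟨y1, hy1, hy2⟩ := exists_of_root σ hpn (c := (e : C)) (v := (v : F)) (by
    have := congrArg (fun x : Fˣ => (x : F)) h3
    simpa using this)
  have hy1s : ‖y1 - 1‖ < ‖(p : C)‖ := by
    rw [← hσ, map_sub, map_one, hy1, ← hpF']; exact hvs
  have hm1 : ‖(m : C)‖ = 1 := by
    have h4 : ¬ (p : ℤ) ∣ (m : ℤ) := by
      rw [Int.natCast_dvd_natCast]; exact hm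
    have := norm_eq_one_of_not_dvd hp h4
    rwa [Int.cast_natCast] at this
  obtain ⟨y, hy, hys⟩ := exists_root hm1 (hy1s.trans hp)
  have hy0 : y ≠ 0 := by
    intro h0
    rw [h0, zero_sub, norm_neg, norm_one] at hys
    exact absurd (hy1s.trans hp) (by rw [← hys]; exact lt_irrefl 1)
  refine ⟨Units.mk0 y hy0, by rw [Units.val_mk0, hys]; exact hy1s, ?_⟩
  apply Units.ext
  rw [Units.val_pow_eq_pow_val, Units.val_mk0, hNm, mul_comm, pow_mul, hy]
  exact hy2

include hc hr ht in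
/-- `t` is a coordinate on the disc -/
theorem coord : Eps1_184.Coord (VP hk em hι) t where
  zero := by
    classical
    rintro R ⟨τ, hτ, hR⟩
    refine ⟨r * τ, ?_, ?_⟩
    · rw [v_lin hk em hc hι hr ht hτ hR, if_pos rfl]
    · rintro P ⟨τ', hτ', hP⟩ hne
      rw [v_lin hk em hc hι hr ht hτ hP, if_neg, exp_zero]
      rintro rfl
      exact hne (AtP.unique hk em hι hP hR)
  inf := by
    -- `c = r / (n + 1)`
    have hinj : Function.Injective fun n : ℕ => r / ((n : C) + 1) := by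
      intro n m h
      simp only at h
      have hn : ((n : C) + 1) ≠ 0 := by exact_mod_cast Nat.succ_ne_zero n
      have hm : ((m : C) + 1) ≠ 0 := by exact_mod_cast Nat.succ_ne_zero m
      rw [div_eq_div_iff hn hm] at h
      have h1 := mul_left_cancel₀ hr h
      have h2 : (m : C) = n := by linear_combination h1
      exact_mod_cast h2.symm
    refine Set.Infinite.mono ?_ (Set.infinite_range_of_injective hinj)
    rintro _ ⟨n, rfl⟩ P ⟨τ, hτ, hP⟩
    classical
    set c := r / ((n : C) + 1) with hcdef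
    have hn : ((n : C) + 1) ≠ 0 := by exact_mod_cast Nat.succ_ne_zero n
    have hc0 : c ≠ 0 := div_ne_zero hr hn
    -- the unit `1 - (n + 1) T`
    have hcc : PowerSeries.constantCoeff (1 - PowerSeries.C ((n : C) + 1) * PowerSeries.X :
        PowerSeries C) = 1 := by simp
    have hco : ∀ m, PowerSeries.coeff m (1 - PowerSeries.C ((n : C) + 1) * PowerSeries.X :
        PowerSeries C) = (if m = 0 then 1 else 0) - if m = 1 then ((n : C) + 1) else 0 := by
      intro m
      rw [map_sub, PowerSeries.coeff_one, PowerSeries.coeff_C_mul, PowerSeries.coeff_X]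
      congr 1
      split_ifs <;> simp
    have hn1 : ‖((n : C) + 1)‖ ≤ 1 := by
      have := IsUltrametricDist.norm_natCast_le_one C (n + 1)
      rwa [Nat.cast_add, Nat.cast_one] at this
    have hint : Int1 (1 - PowerSeries.C ((n : C) + 1) * PowerSeries.X : PowerSeries C) := by
      intro m
      rw [hco]
      refine (norm_sub_le_max522 _ _).trans (max_le ?_ ?_)
      · split_ifs <;> simp
      · split_ifs
        · exact hn1
        · simp
    let u : U1 C := U1.mk' _ hcc hint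
    have hp1 : Pres bdE em (t - algebraMap C K c) (-c) u 0 0 := by
      have hfd : FinDef k fun m => PowerSeries.coeff m ((u : (PowerSeries C)ˣ) : PowerSeries C) := by
        refine ⟨⊥, inferInstance, fun m => ?_⟩
        show PowerSeries.coeff m (1 - PowerSeries.C ((n : C) + 1) * PowerSeries.X :
          PowerSeries C) ∈ (⊥ : IntermediateField k C)
        rw [hco]
        refine sub_mem ?_ ?_
        · split_ifs
          · exact one_mem _
          · exact zero_mem _
        · split_ifs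
          · exact add_mem (natCast_mem _ _) (one_mem _)
          · exact zero_mem _
      have hub : ((u : (PowerSeries C)ˣ) : PowerSeries C) ∈ BD k C := ⟨hfd, 1, U1.int u⟩
      refine ⟨⟨⟨PowerSeries.C (-c), C_mem_BD _⟩ * ⟨_, hub⟩, 1, ?_, ?_, ?_⟩⟩
      · rw [map_one, mul_one, map_sub, ht, hc]
        ext m
        rw [co_sub, co_mono, co_mono, bdE_apply, co_bdF]
        have h4 : ∀ m : ℕ, PowerSeries.coeff m
            ((⟨PowerSeries.C (-c), C_mem_BD _⟩ * ⟨_, hub⟩ : BD k C) : PowerSeries C) =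
            -c * ((if m = 0 then 1 else 0) - if m = 1 then ((n : C) + 1) else 0) := by
          intro m
          show PowerSeries.coeff m (PowerSeries.C (-c) *
            (1 - PowerSeries.C ((n : C) + 1) * PowerSeries.X : PowerSeries C)) = _
          rw [PowerSeries.coeff_C_mul, hco]
        rw [h4]
        have hcr : c * ((n : C) + 1) = r := by rw [hcdef]; field_simp
        by_cases hm1 : m = 1
        · subst hm1
          simp
          linear_combination -hcr
        · by_cases hm0 : m = 0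
          · subst hm0; simp
          · rw [if_neg hm1, if_neg hm0]
            split_ifs with h5 h6 h7
            · exfalso; omega
            · exfalso; omega
            · exfalso; omega
            · simp
            · simp
      · refine ⟨neg_ne_zero.mpr hc0, fun σ hσ => absurd hσ (Multiset.notMem_zero σ), hfd, ?_⟩
        rw [rootPoly_zero, Polynomial.coe_one, mul_one]
        rfl
      · refine ⟨one_ne_zero, fun σ hσ => absurd hσ (Multiset.notMem_zero σ), ?_, ?_⟩
        · refine ⟨⊥, inferInstance, fun m => ?_⟩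
          show PowerSeries.coeff m (1 : PowerSeries C) ∈ (⊥ : IntermediateField k C)
          rw [PowerSeries.coeff_one]
          split_ifs
          · exact one_mem _
          · exact zero_mem _
        · rw [rootPoly_zero, Polynomial.coe_one, map_one]
          show (1 : PowerSeries C) = 1 * 1 * 1
          rw [one_mul, one_mul]
    have hne := lin_ne_zero em hc hr ht c
    have h1 := oE_eq hk em hι (z := Units.mk0 _ hne) hp1 τ
    rw [hP (Units.mk0 _ hne), Units.val_mk0] at h1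
    rw [v_eq hne P, h1]
    simp

end root

end Crest.Agent.R013.DERK3_561
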