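import Mathlib
import Crest.Agent.R013.DERK3_561
import Crest.Agent.R013.DE6_561
import Crest.Agent.R013.DE2_854

/-!
# R013 / DERK4 (helper561): the places of the `k`-rational points of the disc

* `atP_comap` : `s` maps the place of `τ` to the place of `s τ`;
* `degP_of_atP` : the place of `K₀` below the place of `x ∈ k` has degree one;
* `resC_inj` : it determines the point.
-/

set_option autoImplicit false
set_option linter.all false

open scoped NNReal

namespace Crest.Agent.R013.DERK4_561

open WithZero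
open Crest.Agent.R013.Cell_408 (DiscNorm BD FinDef evp evp_add evp_mul evp_C C_mem_BD coe_mem_BD
  rootPoly)
open Crest.Agent.R013.RR7_948 Crest.Agent.R013.RR8_948 Crest.Agent.R013.RR9_948
open Crest.Agent.R013.RR11_948 Crest.Agent.R013.RR12_948
open Crest.Agent.R013.EE809 Crest.Agent.R013.HU6_522 Crest.Agent.R013.HU3_522
open Crest.Agent.R013.HU1_522 Crest.Agent.R013.HU2_522 Crest.Agent.R013.HU7_522
open Crest.Agent.R013.HU8_522 Crest.Agent.R013.HU9_522 Crest.Agent.R013.HU11_522
open Crest.Agent.R013.HT_434 Crest.Agent.R013.HU4_522 Crest.Agent.R013.PC_588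
open Crest.Agent.R013.Desc_372 Crest.Agent.R013.DescP_429 Crest.Agent.R013.DE6_561

variable {k : Type*} [NontriviallyNormedField k] [CompleteSpace k] [IsUltrametricDist k]
  [CharZero k]
variable {C : Type*} [NormedField C] [IsUltrametricDist C] [NormedAlgebra k C] [CharZero C]
  [Algebra.IsAlgebraic k C] [IsAlgClosed C] [IsGalois k C]
variable {K₀ K : Type*} [Field K₀] [Field K] [Algebra k K₀] [Algebra C K] [Algebra K₀ K]
  [Algebra k K] [IsScalarTower k C K] [IsScalarTower k K₀ K] [hce : CE k C K₀ K]
  [Algebra (RatFunc C) K] [IsScalarTower C (RatFunc C) K] [FiniteDimensional (RatFunc C) K]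

section

variable (hk : DiscNorm k) (hnorm : ∀ (s : C ≃ₐ[k] C) (a : C), ‖s a‖ = ‖a‖)
  {em : K →+* EE k C} {t : K₀} {ρ : k} (he : IsEm em t ρ)

include hnorm he in
omit [CharZero k] [CharZero C] [Algebra (RatFunc C) K] [IsScalarTower C (RatFunc C) K]
  [FiniteDimensional (RatFunc C) K] in
theorem equiv' (s : K ≃ₐ[K₀] K) (z : K) :
    em (s z) = EEmap ((CE.res k C K₀ K s : C ≃ₐ[k] C) : C →ₐ[k] C)
      (fun a => hnorm (CE.res k C K₀ K s) a) (em z) := by
  have h := he.equiv (CE.res k C K₀ K s) (fun a => hnorm (CE.res k C K₀ K s) a) z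
  rw [CE.lift_res k C K₀ K s] at h
  exact h

include hnorm in
omit [CharZero k] in
/-- orders and automorphisms -/
theorem oE_map (s : K ≃ₐ[K₀] K) (τ : C) (z : Kˣ) :
    oE hk em he.frac τ (Units.map (s : K →* K) z) =
      oE hk em he.frac ((CE.res k C K₀ K s).symm τ) z := by
  classical
  obtain ⟨c, u, S, T, h⟩ := exists_pres hk bdE bdE_injective em he.frac z.ne_zero
  have h2 := Pres.map ((CE.res k C K₀ K s : C ≃ₐ[k] C) : C →ₐ[k] C)
    (fun a => hnorm (CE.res k C K₀ K s) a) em em (equiv' hnorm he s (z : K)) h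
  have h2' : Pres bdE em ((Units.map (s : K →* K) z : Kˣ) : K) _ _ _ _ := h2
  rw [oE_eq hk em he.frac h, oE_eq hk em he.frac h2']
  have h3 : ∀ R : Multiset C, (R.map ((CE.res k C K₀ K s : C ≃ₐ[k] C) : C →ₐ[k] C)).count τ =
      R.count ((CE.res k C K₀ K s).symm τ) := by
    intro R
    have h4 := Multiset.count_map_eq_count' ((CE.res k C K₀ K s : C ≃ₐ[k] C) : C →ₐ[k] C) R
      (CE.res k C K₀ K s).injective ((CE.res k C K₀ K s).symm τ)
    rw [← h4]
    congr 1
    exact ((CE.res k C K₀ K s).apply_symm_apply τ).symm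
  rw [h3, h3]

include hnorm in
omit [CharZero k] in
/-- **the place of `τ` and automorphisms** -/
theorem atP_comap (s : K ≃ₐ[K₀] K) {τ : C} {P : Pl C K} (hP : AtP hk em he.frac τ P) :
    AtP hk em he.frac ((CE.res k C K₀ K s).symm τ) (comapPl k C s P) := by
  intro z
  rw [← oE_map hk hnorm he, hP (Units.map (s : K →* K) z)]
  have h1 := v_eq (k := C) (Units.map (s : K →* K) z).ne_zero P
  have h2 := v_eq (k := C) z.ne_zero (comapPl k C s P)
  have h3 : (comapPl k C s P).v (z : K) = P.v ((Units.map (s : K →* K) z : Kˣ) : K) := rfl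
  rw [h3, h1, exp_inj] at h2
  omega

include hnorm in
omit [CharZero k] in
theorem comap_mem_VP (s : K ≃ₐ[K₀] K) {P : Pl C K} (hP : P ∈ VP hk em he.frac) :
    comapPl k C s P ∈ VP hk em he.frac := by
  obtain ⟨τ, hτ, hP⟩ := hP
  exact ⟨_, by rw [hnorm]; exact hτ, atP_comap hk hnorm he s hP⟩

variable [Algebra.IsSeparable (RatFunc C) K]

include hnorm in
omit [CharZero k] in
/-- the place of a rational point is invariant -/
theorem inv_of_atP {x : k} {P : Pl C K} (hP : AtP hk em he.frac (algebraMap k C x) P) :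
    Inv K₀ (⊥ : IntermediateField k C) P := by
  rw [inv_iff]
  intro s _
  have h1 := atP_comap hk hnorm he s hP
  rw [AlgEquiv.commutes] at h1
  exact AtP.unique hk em he.frac h1 hP

variable [Algebra (RatFunc k) K₀] [IsScalarTower k (RatFunc k) K₀]
  [FiniteDimensional (RatFunc k) K₀] [Algebra.IsAlgebraic K₀ K]

include hnorm in
/-- the place of `K₀` below the place of a rational point has degree one -/
theorem degP_of_atP (hc : algebraicClosure k K₀ = ⊥) {x : k} {P : Pl C K}
    (hP : AtP hk em he.frac (algebraMap k C x) P) : degP (resC k K₀ P) = 1 := by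
  apply degP_eq_one_of_rational
  intro f hf
  rw [resC_v hc] at hf
  obtain ⟨c, hc1, hc2⟩ := (inv_of_atP hk hnorm he hP).rational
    (IntermediateField.algebraMap_mem _ f) hf
  obtain ⟨c0, rfl⟩ := IntermediateField.mem_bot.1 hc1
  refine ⟨c0, ?_⟩
  rw [resC_v hc, map_sub, ← IsScalarTower.algebraMap_apply k K₀ K]
  rw [← IsScalarTower.algebraMap_apply k C K] at hc2
  exact hc2

include hnorm in
/-- the fibre over the place of a rational point has one element -/
theorem eq_of_resC (hc : algebraicClosure k K₀ = ⊥) {x : k} {P P' : Pl C K}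
    (hP : AtP hk em he.frac (algebraMap k C x) P) (h : resC k K₀ P' = resC k K₀ P) : P' = P := by
  classical
  by_contra hne
  have h1 := card_le_degP hc (resC k K₀ P) {P', P} (by
    intro Q hQ
    rw [Finset.mem_insert, Finset.mem_singleton] at hQ
    rcases hQ with rfl | rfl
    · exact h
    · rfl)
  rw [degP_of_atP hk hnorm he hc hP, Finset.card_pair hne] at h1
  omega

include hnorm in
theorem conC_single (hc : algebraicClosure k K₀ = ⊥) {x : k} {P : Pl C K}
    (hP : AtP hk em he.frac (algebraMap k C x) P) (n : ℤ) :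
    conC hc (Finsupp.single (resC k K₀ P) n) = Finsupp.single P n := by
  classical
  ext Q
  rw [conC_apply, Finsupp.single_apply, Finsupp.single_apply]
  by_cases h : P = Q
  · rw [if_pos (by rw [h]), if_pos h]
  · rw [if_neg, if_neg h]
    intro h1
    exact h (eq_of_resC hk hnorm he hc hP h1.symm).symm

include hnorm in
/-- the place determines the point -/
theorem resC_inj (hc : algebraicClosure k K₀ = ⊥) {x y : k} (hx : ‖x‖ < 1) {P Q : Pl C K}
    (hP : AtP hk em he.frac (algebraMap k C x) P) (hQ : AtP hk em he.frac (algebraMap k C y) Q)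
    (h : resC k K₀ Q = resC k K₀ P) : x = y := by
  have h1 : Q = P := eq_of_resC hk hnorm he hc hP h
  rw [h1] at hQ
  have hρ : algebraMap k C ρ ≠ 0 := (map_ne_zero _).mpr he.ρ0
  have h2 := AtP.point_unique hk em he.const he.frac hρ he.par (by rw [norm_algebraMap']; exact hx)
    hP hQ
  exact (algebraMap k C).injective h2

end

end Crest.Agent.R013.DERK4_561
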