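import Mathlib
import Crest.Agent.R013.RR20_948
import Crest.Agent.R013.Exp_863

/-!
# Row 13, leaf SS-ONE (helper863): Puiseux expansions at the places of a function field

`C` algebraically closed, `K/C` a function field of one variable, `Q` a place of `K`, `y ∈ K` with
`ord_Q y = e ≥ 1`, `e ≠ 0` in `C`.  There is a ring homomorphism `ψ : O_Q → C⟦X⟧` preserving the
orders, with `ψ y = X ^ e` (`exists_expansion`).
-/

set_option autoImplicit false
set_option linter.unusedSectionVars false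

open PowerSeries WithZero

namespace Crest.Agent.R013.PlX_863

open Crest.Agent.R013.RR7_948 Crest.Agent.R013.RR8_948 Crest.Agent.R013.RR11_948
open Crest.Agent.R013.RR12_948 Crest.Agent.R013.RR13_948
open Crest.Agent.R013.Exp_863

/-- `e`-th roots of power series -/
theorem exists_root {C : Type*} [Field C] [IsAlgClosed C] {e : ℕ} (he : (e : C) ≠ 0)
    (u : C⟦X⟧) (hu : constantCoeff u ≠ 0) : ∃ w : C⟦X⟧, w ^ e = u ∧ constantCoeff w ≠ 0 := by
  have he0 : 0 < e := by
    rcases Nat.eq_zero_or_pos e with h | h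
    · rw [h] at he; simp at he
    · exact h
  obtain ⟨c, hc⟩ := IsAlgClosed.exists_pow_nat_eq (constantCoeff u) he0
  have hc0 : c ≠ 0 := by
    rintro rfl
    rw [zero_pow he0.ne'] at hc
    exact hu hc.symm
  have hH : HenselianRing C⟦X⟧ (Ideal.span {X}) := inferInstance
  have hmem : ∀ f : C⟦X⟧, f ∈ Ideal.span {(X : C⟦X⟧)} ↔ constantCoeff f = 0 := by
    intro f
    rw [Ideal.mem_span_singleton, X_dvd_iff]
  obtain ⟨w, hw, hw'⟩ := hH.is_henselian (Polynomial.X ^ e - Polynomial.C u)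
    (Polynomial.monic_X_pow_sub_C u he0.ne') (PowerSeries.C c) (by
      rw [hmem]
      simp [hc]) (by
      have h1 : IsUnit ((Polynomial.derivative (Polynomial.X ^ e - Polynomial.C u)).eval
          (PowerSeries.C c)) := by
        rw [PowerSeries.isUnit_iff_constantCoeff, isUnit_iff_ne_zero]
        simp [Polynomial.derivative_X_pow, hc0, he]
      exact h1.map _)
  refine ⟨w, ?_, ?_⟩
  · have : w ^ e - u = 0 := by simpa [Polynomial.IsRoot.def] using hw
    exact sub_eq_zero.1 this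
  · rw [hmem, map_sub, constantCoeff_C, sub_eq_zero] at hw'
    rw [hw']
    exact hc0

section

variable {C : Type*} [Field C] {K : Type*} [Field K] [Algebra C K]

theorem const_le (Q : Pl C K) (c : C) : Q.v (algebraMap C K c) ≤ 1 := by
  by_cases hc : c = 0
  · simp [hc]
  · rw [Q.const c hc]

/-- the valuation ring of a place as a subalgebra -/
def OA (Q : Pl C K) : Subalgebra C K where
  carrier := {f | Q.v f ≤ 1}
  mul_mem' {a b} ha hb := by
    change Q.v _ ≤ 1
    rw [map_mul]; exact mul_le_one' ha hb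
  add_mem' {a b} ha hb := (Q.v.map_add a b).trans (max_le ha hb)
  algebraMap_mem' c := const_le Q c

theorem mem_OA {Q : Pl C K} {f : K} : f ∈ OA Q ↔ Q.v f ≤ 1 := Iff.rfl

theorem lt_one_iff_le {a : ℤᵐ⁰} : a < 1 ↔ a ≤ exp (-1) := RR2_948.lt_one_iff a

theorem dvd_iff {Q : Pl C K} {a b : OA Q} (hb : (b : K) ≠ 0) : b ∣ a ↔ Q.v (a : K) ≤ Q.v (b : K) := by
  constructor
  · rintro ⟨c, rfl⟩
    rw [MulMemClass.coe_mul, map_mul]
    calc Q.v (b : K) * Q.v (c : K) ≤ Q.v (b : K) * 1 := mul_le_mul_right c.2 _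
      _ = _ := mul_one _
  · intro h
    have hb' : Q.v (b : K) ≠ 0 := (Valuation.ne_zero_iff _).2 hb
    refine ⟨⟨(a : K) / b, ?_⟩, ?_⟩
    · rw [mem_OA, map_div₀]
      exact div_le_one_of_le₀ h zero_le
    · apply Subtype.ext
      rw [MulMemClass.coe_mul, mul_div_cancel₀ _ hb]

end

variable {C : Type*} [Field C] [IsAlgClosed C] {K : Type*} [Field K] [Algebra C K]
  [Algebra (RatFunc C) K] [IsScalarTower C (RatFunc C) K] [FiniteDimensional (RatFunc C) K]
  [Algebra.IsSeparable (RatFunc C) K]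

/-- the residue field of a place is `C` -/
theorem exists_const (Q : Pl C K) {f : K} (hf : Q.v f ≤ 1) :
    ∃ c : C, Q.v (f - algebraMap C K c) < 1 := by
  have hfin := (RR10_948.finite_of_length (k := C)
    (M := ball Q 0 ⧸ (ball Q (-1)).submoduleOf (ball Q 0)) (degE_eq Q))
  have := hfin.1
  have hpow : ∀ p : Polynomial C, Polynomial.aeval f p ∈ ball Q 0 := by
    intro p
    rw [mem_ball, exp_zero]
    have h1 : Polynomial.aeval f p = ((Polynomial.aeval (⟨f, hf⟩ : OA Q) p : OA Q) : K) := by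
      rw [← Subalgebra.coe_val, ← Polynomial.aeval_algHom_apply]
      rfl
    rw [h1]
    exact (Polynomial.aeval (⟨f, hf⟩ : OA Q) p : OA Q).2
  let φ : Polynomial C →ₗ[C] (ball Q 0 ⧸ (ball Q (-1)).submoduleOf (ball Q 0)) :=
    (Submodule.mkQ _).comp ((Polynomial.aeval f).toLinearMap.codRestrict (ball Q 0) hpow)
  have hnot : ¬ Function.Injective φ := by
    intro hinj
    exact Polynomial.not_finite (Module.Finite.of_injective φ hinj)
  obtain ⟨p, hp, hp0⟩ : ∃ p : Polynomial C, φ p = 0 ∧ p ≠ 0 := by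
    rw [injective_iff_map_eq_zero] at hnot
    push Not at hnot
    exact hnot
  have hp1 : Q.v (Polynomial.aeval f p) < 1 := by
    have h1 : φ p = Submodule.Quotient.mk ⟨Polynomial.aeval f p, hpow p⟩ := rfl
    rw [h1, Submodule.Quotient.mk_eq_zero, Submodule.submoduleOf, Submodule.mem_comap, mem_ball] at hp
    rw [lt_one_iff_le]
    exact hp
  have hsp := (IsAlgClosed.splits p).eq_prod_roots
  by_contra hcon
  push Not at hcon
  have h2 : ∀ c : C, Q.v (f - algebraMap C K c) = 1 := fun c =>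
    le_antisymm ((Q.v.map_sub f _).trans (max_le hf (const_le Q c))) (hcon c)
  have h3 : Q.v (Polynomial.aeval f p) = 1 := by
    rw [hsp, map_mul, map_mul, Polynomial.aeval_C, Q.const _ (Polynomial.leadingCoeff_ne_zero.2 hp0),
      one_mul, map_multiset_prod, Multiset.map_map, map_multiset_prod, Multiset.map_map]
    apply Multiset.prod_eq_one
    intro x hx
    obtain ⟨c, -, rfl⟩ := Multiset.mem_map.1 hx
    simp [h2 c]
  rw [h3] at hp1
  exact lt_irrefl _ hp1

theorem degP_eq_one (Q : Pl C K) : degP Q = 1 := by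
  rw [← isRationalPlace_iff (isPlace_vR Q) (isEquiv_vR Q)]
  refine ⟨isPlace_vR Q, fun a ha => ?_⟩
  obtain ⟨c, hc⟩ := exists_const Q ((isEquiv_vR Q).le_one_iff_le_one.2 ha)
  exact ⟨c, (isEquiv_vR Q).lt_one_iff_lt_one.1 hc⟩

theorem isUnif_place (Q : Pl C K) {π : K} (hπ : Q.v π = exp (-1)) :
    ∃ h : π ∈ OA Q, IsUnif C (⟨π, h⟩ : OA Q) := by
  have h1 : Q.v π ≤ 1 := by
    rw [hπ, ← exp_zero, exp_le_exp]; norm_num
  have hπ0 : π ≠ 0 := by
    rintro rfl
    rw [map_zero] at hπ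
    exact exp_ne_zero hπ.symm
  refine ⟨h1, ⟨fun a ha => ?_, fun f => ?_, fun c hc => ?_⟩⟩
  · rcases mul_eq_zero.1 ha with h | h
    · exact absurd (congrArg Subtype.val h) hπ0
    · exact h
  · obtain ⟨c, hc⟩ := exists_const Q f.2
    refine ⟨c, (dvd_iff hπ0).2 ?_⟩
    rw [hπ]
    exact lt_one_iff_le.1 hc
  · rw [dvd_iff hπ0, hπ] at hc
    by_contra hc0
    have h2 : Q.v (algebraMap C K c) ≤ exp (-1) := hc
    rw [Q.const c hc0, ← exp_zero, exp_le_exp] at h2
    norm_num at h2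

/-- **Puiseux expansion at a place.** -/
theorem exists_expansion (Q : Pl C K) {y : K} {e : ℕ} (hy : Q.v y = exp (-(e : ℤ)))
    (he : (e : C) ≠ 0) : ∃ (hyO : y ∈ OA Q) (ψ : OA Q →ₐ[C] C⟦X⟧), ψ ⟨y, hyO⟩ = X ^ e ∧
      ∀ (n : ℕ) (f : OA Q), X ^ n ∣ ψ f ↔ Q.v (f : K) ≤ exp (-(n : ℤ)) := by
  have hyO : Q.v y ≤ 1 := by
    rw [hy, ← exp_zero, exp_le_exp]; omega
  refine ⟨hyO, ?_⟩
  obtain ⟨π, hπ0, hπ⟩ := exists_v_eq Q (-1)
  obtain ⟨hπO, h⟩ := isUnif_place Q hπ
  have hord : ∀ (n : ℕ) (f : OA Q), X ^ n ∣ h.expand f ↔ Q.v (f : K) ≤ exp (-(n : ℤ)) := by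
    intro n f
    rw [← h.pow_dvd_iff, dvd_iff (by simpa using pow_ne_zero n hπ0)]
    rw [SubmonoidClass.coe_pow, map_pow, hπ, ← exp_nsmul]
    simp
  -- the unit part of `y`
  obtain ⟨u, hu⟩ : ∃ u, h.expand ⟨y, hyO⟩ = X ^ e * u :=
    (hord e ⟨y, hyO⟩).2 hy.le
  have hu0 : constantCoeff u ≠ 0 := by
    intro h0
    rw [← X_dvd_iff] at h0
    have h1 : X ^ (e + 1) ∣ h.expand ⟨y, hyO⟩ := by
      rw [hu, pow_succ]
      exact mul_dvd_mul_left _ h0
    rw [hord (e + 1)] at h1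
    have h2 : Q.v y ≤ exp (-((e + 1 : ℕ) : ℤ)) := h1
    rw [hy, exp_le_exp] at h2
    push_cast at h2
    omega
  obtain ⟨w, hw, hw0⟩ := exists_root he u hu0
  have h2 := isUnif_X_mul w hw0
  refine ⟨(h2.expand).comp h.expand, ?_, fun n f => ?_⟩
  · rw [AlgHom.comp_apply, hu, ← hw, ← mul_pow, map_pow, h2.expand_s]
  · rw [AlgHom.comp_apply, ← h2.pow_dvd_iff, ← hord]
    have hwu : IsUnit w := by
      rw [PowerSeries.isUnit_iff_constantCoeff]
      exact isUnit_iff_ne_zero.2 hw0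
    rw [mul_pow]
    exact (hwu.pow n).mul_right_dvd

end Crest.Agent.R013.PlX_863
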