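import Mathlib
import Crest.Agent.R013.WR5_777
import Crest.Agent.R013.RR22_948
import Crest.Agent.R013.PlX_863

/-!
# R013 / HWP1: evaluation of functions at divisors, push-forward of divisors (helper676)

Route H of helper906 (#3476), leaf H-WP.  `k` algebraically closed, `K/k` a function field.
-/

set_option autoImplicit false
set_option linter.all false

namespace Crest.Agent.R013.HWP_676

open WithZero Module
open Crest.Agent.R013.RR1_948 Crest.Agent.R013.RR2_948
open Crest.Agent.R013.RR7_948 Crest.Agent.R013.RR8_948 Crest.Agent.R013.RR9_948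
open Crest.Agent.R013.RR11_948 Crest.Agent.R013.RR12_948
open Crest.Agent.R013.RR18_948 Crest.Agent.R013.RR19_948 Crest.Agent.R013.RR20_948
open Crest.Agent.R013.RR21_948 Crest.Agent.R013.RR22_948
open Crest.Agent.R013.WR1_777 Crest.Agent.R013.WR2_777 Crest.Agent.R013.WR3_777
open Crest.Agent.R013.WR4_777 Crest.Agent.R013.WR5_777
open Crest.Agent.R013.PicD_398

section ev

variable {k : Type*} [Field k] {K : Type*} [Field K] [Algebra k K] [Algebra (RatFunc k) K]
  [IsScalarTower k (RatFunc k) K] [FiniteDimensional (RatFunc k) K]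
  [Algebra.IsSeparable (RatFunc k) K]

/-- `f(D) = ∏ f(P) ^ D(P)` -/
noncomputable def ev (f : K) (D : Pl k K →₀ ℤ) : kˣ := pw (fun P => nrm P f) D

theorem ev_zero_right (f : K) : ev f (0 : Pl k K →₀ ℤ) = 1 := pw_zero _

theorem ev_add_right (f : K) (D D' : Pl k K →₀ ℤ) : ev f (D + D') = ev f D * ev f D' :=
  pw_add _ D D'

theorem ev_neg_right (f : K) (D : Pl k K →₀ ℤ) : ev f (-D) = (ev f D)⁻¹ := pw_neg _ D

theorem ev_sub_right (f : K) (D D' : Pl k K →₀ ℤ) : ev f (D - D') = ev f D / ev f D' :=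
  pw_sub _ D D'

theorem ev_nsmul_right (f : K) (n : ℕ) (D : Pl k K →₀ ℤ) : ev f (n • D) = ev f D ^ n :=
  pw_nsmul _ n D

/-- disjointness of two divisors -/
def Dis (D E : Pl k K →₀ ℤ) : Prop := ∀ P, D P = 0 ∨ E P = 0

theorem Dis.symm {D E : Pl k K →₀ ℤ} (h : Dis D E) : Dis E D := fun P => (h P).symm

theorem Dis.add {D E E' : Pl k K →₀ ℤ} (h : Dis D E) (h' : Dis D E') : Dis D (E + E') := by
  intro P
  rcases h P with h1 | h1
  · exact Or.inl h1
  · rcases h' P with h2 | h2
    · exact Or.inl h2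
    · right; rw [Finsupp.add_apply, h1, h2, add_zero]

theorem Dis.neg {D E : Pl k K →₀ ℤ} (h : Dis D E) : Dis D (-E) := by
  intro P
  rcases h P with h1 | h1
  · exact Or.inl h1
  · right; rw [Finsupp.neg_apply, h1, neg_zero]

theorem Dis.sub {D E E' : Pl k K →₀ ℤ} (h : Dis D E) (h' : Dis D E') : Dis D (E - E') := by
  rw [sub_eq_add_neg]; exact h.add h'.neg

theorem Dis.nsmul {D E : Pl k K →₀ ℤ} (h : Dis D E) (n : ℕ) : Dis D (n • E) := by
  intro P
  rcases h P with h1 | h1
  · exact Or.inl h1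
  · right; rw [Finsupp.smul_apply, h1, smul_zero]

theorem Dis.of_nsmul {D E : Pl k K →₀ ℤ} {n : ℕ} (hn : n ≠ 0) (h : Dis D (n • E)) : Dis D E := by
  intro P
  rcases h P with h1 | h1
  · exact Or.inl h1
  · right
    rw [Finsupp.smul_apply, nsmul_eq_mul, mul_eq_zero] at h1
    rcases h1 with h2 | h2
    · exact absurd (by exact_mod_cast h2) hn
    · exact h2

theorem ev_mul_left {f g : K} (hf : f ≠ 0) (hg : g ≠ 0) {D : Pl k K →₀ ℤ}
    (h1 : Dis (divf (k := k) f) D) (h2 : Dis (divf (k := k) g) D) :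
    ev (f * g) D = ev f D * ev g D := by
  unfold ev
  rw [← pw_mul]
  refine pw_congr fun P hP => ?_
  exact nrm_mul ((v_eq_one_iff hf P).mpr ((h1 P).resolve_right hP))
    ((v_eq_one_iff hg P).mpr ((h2 P).resolve_right hP))

theorem ev_inv_left (f : K) (D : Pl k K →₀ ℤ) : ev f⁻¹ D = (ev f D)⁻¹ := by
  have h1 : ev f⁻¹ D * ev f D = 1 := by
    unfold ev
    rw [← pw_mul]
    have h2 : pw (fun P : Pl k K => nrm P f⁻¹ * nrm P f) D = pw (fun _ : Pl k K => (1 : kˣ)) D := by
      refine pw_congr fun P _ => ?_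
      rw [nrm_inv]
      exact inv_mul_cancel _
    rw [h2]
    unfold pw
    simp [Finsupp.prod]
  exact eq_inv_of_mul_eq_one_left h1

theorem ev_pow_left {f : K} (hf : f ≠ 0) (n : ℕ) {D : Pl k K →₀ ℤ}
    (h1 : Dis (divf (k := k) f) D) : ev (f ^ n) D = ev f D ^ n := by
  rw [← ev_nsmul_right]
  unfold ev
  have h2 : pw (fun P : Pl k K => nrm P (f ^ n)) D = pw (fun P : Pl k K => nrm P f ^ n) D :=
    pw_congr fun P hP => nrm_pow ((v_eq_one_iff hf P).mpr ((h1 P).resolve_right hP)) n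
  rw [h2]
  unfold pw
  rw [Finsupp.prod, Finsupp.prod_of_support_subset (s := D.support) _
    (by intro P hP; simp only [Finsupp.mem_support_iff, Finsupp.smul_apply] at hP ⊢
        intro h; exact hP (by rw [h, smul_zero])) _ (by simp)]
  refine Finset.prod_congr rfl fun P _ => ?_
  show (nrm P f ^ n) ^ D P = nrm P f ^ (n • D) P
  rw [Finsupp.smul_apply, nsmul_eq_mul, zpow_mul, zpow_natCast]

theorem recip {f h : K} (hf : f ≠ 0) (hh : h ≠ 0)
    (hdis : Dis (divf (k := k) f) (divf (k := k) h)) :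
    ev f (divf (k := k) h) = ev h (divf (k := k) f) := weil_reciprocity hf hh hdis

/-- moving a divisor away from a finite set -/
theorem exists_move (D : Pl k K →₀ ℤ) (S : Finset (Pl k K)) :
    ∃ g : K, g ≠ 0 ∧ ∀ P ∈ S, (D + divf (k := k) g) P = 0 := by
  obtain ⟨g, hg, h⟩ := exists_prescribed S (fun P => D P)
  refine ⟨g, hg, fun P hP => ?_⟩
  have h1 := h P hP
  rw [v_eq (k := k) hg, exp_inj] at h1
  rw [Finsupp.add_apply]
  omega

theorem exists_dis (D E : Pl k K →₀ ℤ) :
    ∃ g : K, g ≠ 0 ∧ Dis E (D + divf (k := k) g) := by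
  obtain ⟨g, hg, h⟩ := exists_move D E.support
  refine ⟨g, hg, fun P => ?_⟩
  by_cases hP : E P = 0
  · exact Or.inl hP
  · exact Or.inr (h P (Finsupp.mem_support_iff.mpr hP))

theorem divf_pow' {f : K} (hf : f ≠ 0) (n : ℕ) : divf (k := k) (f ^ n) = n • divf f :=
  divf_pow hf n

end ev

section alg

variable {k : Type*} [Field k] [IsAlgClosed k] {K : Type*} [Field K] [Algebra k K]
  [Algebra (RatFunc k) K] [IsScalarTower k (RatFunc k) K] [FiniteDimensional (RatFunc k) K]
  [Algebra.IsSeparable (RatFunc k) K]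

theorem degP1 (P : Pl k K) : degP P = 1 := PlX_863.degP_eq_one P

theorem ev_const (c : kˣ) (D : Pl k K →₀ ℤ) :
    ev (algebraMap k K c) D = c ^ degD D := by
  unfold ev pw degD
  rw [Finsupp.prod, Finsupp.sum]
  have : ∀ s : Finset (Pl k K), ∏ P ∈ s, nrm P (algebraMap k K (c : k)) ^ D P
      = c ^ ∑ P ∈ s, D P * (degP P : ℤ) := by
    intro s
    classical
    induction s using Finset.induction_on with
    | empty => simp
    | insert P s hP ih =>
      rw [Finset.prod_insert hP, Finset.sum_insert hP, ih, nrm_const, degP1, zpow_add]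
      simp
  exact this _

theorem nrm_spec {P : Pl k K} {f : K} (hf : P.v f = 1) :
    P.v (f - algebraMap k K (nrm P f)) < 1 := v_sub_nrm_of_degP_one (degP1 P) hf

theorem nrm_unique {P : Pl k K} {f : K} {c : kˣ} (h : P.v (f - algebraMap k K c) < 1) :
    nrm P f = c := by
  rw [nrm_of_sub_lt h, degP1, pow_one]

/-- a divisor principal up to a constant: functions with the same divisor -/
theorem exists_const_mul {f g : K} (hf : f ≠ 0) (hg : g ≠ 0)
    (h : divf (k := k) f = divf (k := k) g) : ∃ c : kˣ, f = algebraMap k K c * g := by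
  have h1 : divf (k := k) (f * g⁻¹) = 0 := by
    rw [divf_mul hf (inv_ne_zero hg), divf_inv hg, h, add_neg_cancel]
  have h0 : f * g⁻¹ ≠ 0 := mul_ne_zero hf (inv_ne_zero hg)
  obtain ⟨P, _⟩ := exists_notMem (k := k) (K := K) ∅
  have hv : P.v (f * g⁻¹) = 1 := (v_eq_one_iff h0 P).mpr (by rw [h1]; rfl)
  set c := nrm P (f * g⁻¹) with hc
  have h2 := nrm_spec hv
  have h3 : f * g⁻¹ = algebraMap k K c := by
    by_contra hne
    have h4 : f * g⁻¹ - algebraMap k K c ≠ 0 := sub_ne_zero.mpr hne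
    have h5 : 0 ≤ divf (k := k) (f * g⁻¹ - algebraMap k K c) := by
      intro Q
      have h6 : Q.v (f * g⁻¹ - algebraMap k K c) ≤ 1 := by
        refine (Q.v.map_sub _ _).trans (max_le ?_ (v_const_le Q _))
        exact le_of_eq ((v_eq_one_iff h0 Q).mpr (by rw [h1]; rfl))
      rw [v_eq (k := k) h4, ← exp_zero, exp_le_exp] at h6
      simpa using h6
    have h7 := eq_zero_of_nonneg h5 (degD_divf h4)
    have h8 : P.v (f * g⁻¹ - algebraMap k K c) = 1 := (v_eq_one_iff h4 P).mpr (by rw [h7]; rfl)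
    rw [← hc] at h2
    exact absurd h8 h2.ne
  refine ⟨c, ?_⟩
  rw [← h3]
  field_simp

end alg

end Crest.Agent.R013.HWP_676
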