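import Mathlib
import Crest.Agent.R013.HWP1_676

/-!
# R013 / HWP2: push-forward of divisors and values of norms (helper676)

Route H of helper906 (#3476), leaf H-WP.
-/

set_option autoImplicit false
set_option linter.all false

namespace Crest.Agent.R013.HWP_676

open WithZero Module
open Crest.Agent.R013.RR1_948 Crest.Agent.R013.RR2_948
open Crest.Agent.R013.RR7_948 Crest.Agent.R013.RR8_948 Crest.Agent.R013.RR9_948
open Crest.Agent.R013.RR11_948 Crest.Agent.R013.RR12_948
open Crest.Agent.R013.RR18_948 Crest.Agent.R013.RR19_948 Crest.Agent.R013.RR20_948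
open Crest.Agent.R013.RR21_948 Crest.Agent.R013.RR22_948
open Crest.Agent.R013.WR1_777 Crest.Agent.R013.WR2_777 Crest.Agent.R013.WR3_777
open Crest.Agent.R013.WR4_777 Crest.Agent.R013.WR5_777
open Crest.Agent.R013.PicD_398

section tower

variable {k : Type*} [Field k] [IsAlgClosed k] {K : Type*} [Field K] [Algebra k K]
  [Algebra (RatFunc k) K] [IsScalarTower k (RatFunc k) K] [FiniteDimensional (RatFunc k) K]
  [Algebra.IsSeparable (RatFunc k) K]
  {L : Type*} [Field L] [Algebra k L] [Algebra K L] [IsScalarTower k K L]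
  [FiniteDimensional K L] [Algebra.IsSeparable K L]
  [Algebra (RatFunc k) L] [IsScalarTower k (RatFunc k) L] [FiniteDimensional (RatFunc k) L]
  [Algebra.IsSeparable (RatFunc k) L] [IsScalarTower (RatFunc k) K L]

variable (K) in
/-- push-forward of divisors (all residue degrees are one) -/
noncomputable def push (V : Pl k L →₀ ℤ) : Pl k K →₀ ℤ := V.mapDomain (under K)

theorem push_add (V V' : Pl k L →₀ ℤ) : push K (V + V') = push K V + push K V' :=
  Finsupp.mapDomain_add

theorem push_zero : push K (0 : Pl k L →₀ ℤ) = 0 := Finsupp.mapDomain_zero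

/-- push-forward as a homomorphism -/
noncomputable def pushHom : (Pl k L →₀ ℤ) →+ (Pl k K →₀ ℤ) where
  toFun := push K
  map_zero' := push_zero
  map_add' := push_add

theorem push_sub (V V' : Pl k L →₀ ℤ) : push K (V - V') = push K V - push K V' :=
  map_sub (pushHom (k := k) (K := K) (L := L)) V V'

theorem push_neg (V : Pl k L →₀ ℤ) : push K (-V) = -push K V :=
  map_neg (pushHom (k := k) (K := K) (L := L)) V

theorem push_nsmul (n : ℕ) (V : Pl k L →₀ ℤ) : push K (n • V) = n • push K V :=
  map_nsmul (pushHom (k := k) (K := K) (L := L)) n V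

theorem push_single (Q : Pl k L) (n : ℤ) :
    push K (Finsupp.single Q n) = Finsupp.single (under K Q) n := Finsupp.mapDomain_single

theorem push_apply (V : Pl k L →₀ ℤ) (P : Pl k K) :
    push K V P = ∑ Q ∈ above L P, V Q := by
  classical
  induction V using Finsupp.induction_linear with
  | zero => rw [push_zero]; simp
  | add V V' h h' =>
    rw [push_add, Finsupp.add_apply, h, h', ← Finset.sum_add_distrib]
    rfl
  | single Q n =>
    rw [push_single, Finsupp.single_apply]
    split_ifs with h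
    · rw [Finset.sum_eq_single Q]
      · simp
      · intro Q' _ hne
        rw [Finsupp.single_apply, if_neg (Ne.symm hne)]
      · intro hQ
        exact absurd (mem_above.mpr h) hQ
    · symm
      refine Finset.sum_eq_zero fun Q' hQ' => ?_
      rw [Finsupp.single_apply, if_neg]
      rintro rfl
      exact h (mem_above.mp hQ')

theorem push_divf {f : L} (hf : f ≠ 0) :
    push K (divf (k := k) f) = divf (Algebra.norm K f) := by
  ext P
  rw [push_apply, divf_norm_of_degP hf P (fun Q _ => by rw [degP1, degP1])]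

theorem exists_above_of_push_ne {V : Pl k L →₀ ℤ} {P : Pl k K} (h : push K V P ≠ 0) :
    ∃ Q, under K Q = P ∧ V Q ≠ 0 := by
  rw [push_apply] at h
  obtain ⟨Q, hQ, hQ'⟩ := Finset.exists_ne_zero_of_sum_ne_zero h
  exact ⟨Q, mem_above.mp hQ, hQ'⟩

theorem pw_push {G : Type*} [CommGroup G] (φ : Pl k K → G) (V : Pl k L →₀ ℤ) :
    pw φ (push K V) = pw (fun Q => φ (under K Q)) V := by
  induction V using Finsupp.induction_linear with
  | zero => rw [push_zero, pw_zero, pw_zero]
  | add V V' h h' => rw [push_add, pw_add, h, h', pw_add]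
  | single Q n => rw [push_single, pw_single, pw_single]

theorem pw_sum {G : Type*} [CommGroup G] {ι : Type*} (φ : Pl k L → G) (s : Finset ι)
    (D : ι → (Pl k L →₀ ℤ)) : pw φ (∑ i ∈ s, D i) = ∏ i ∈ s, pw φ (D i) := by
  classical
  induction s using Finset.induction_on with
  | empty => simp
  | insert i s hi ih => rw [Finset.sum_insert hi, pw_add, ih, Finset.prod_insert hi]

theorem pw_con {G : Type*} [CommGroup G] (φ : Pl k L → G) (D : Pl k K →₀ ℤ) :
    pw φ (con L D) = pw (fun P => ∏ Q ∈ above L P, φ Q ^ eR K Q) D := by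
  induction D using Finsupp.induction_linear with
  | zero => rw [con_zero, pw_zero, pw_zero]
  | add V V' h h' => rw [con_add, pw_add, h, h', pw_add]
  | single P n =>
    rw [con_single, pw_sum, pw_single, ← Finset.prod_zpow]
    refine Finset.prod_congr rfl fun Q _ => ?_
    rw [pw_single, zpow_mul, zpow_natCast]

theorem nrm_algebraMap (Q : Pl k L) {f : K} (hf : (under K Q).v f = 1) :
    nrm Q (algebraMap K L f) = nrm (under K Q) f := by
  have h := nrm_spec hf
  apply nrm_unique
  rw [IsScalarTower.algebraMap_apply k K L, ← map_sub]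
  exact (under_lt_one_iff Q _).mp h

theorem v_algebraMap_one (Q : Pl k L) {f : K} (hf : (under K Q).v f = 1) :
    Q.v (algebraMap K L f) = 1 := by
  rw [v_algebraMap, hf, one_pow]

theorem nrm_mapPl (σ : L ≃ₐ[K] L) (Q : Pl k L) (f : L) (hf : Q.v (σ.symm f) = 1) :
    nrm (mapPl (σ.restrictScalars k) Q) f = nrm Q (σ.symm f) := by
  have h := nrm_spec hf
  apply nrm_unique
  rw [mapPl_v]
  show Q.v (σ.symm (f - algebraMap k L _)) < 1
  rw [map_sub, IsScalarTower.algebraMap_apply k K L, AlgEquiv.commutes,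
    ← IsScalarTower.algebraMap_apply]
  exact h

theorem card_fix [IsGalois K L] (Q Q' : Pl k L) (h : under K Q' = under K Q) [DecidableEq (Pl k L)] :
    (Finset.univ.filter fun σ : L ≃ₐ[K] L => mapPl (σ.restrictScalars k) Q = Q').card
      = eR K Q := by
  have h1 := sum_galois (K := K) Q (fun R => if R = Q' then (1 : ℤ) else 0)
  rw [degP1, degP1, Finset.sum_ite_eq' (above L (under K Q)) Q' (fun _ => (1 : ℤ)),
    if_pos (mem_above.mpr h)] at h1
  simp only [Nat.cast_one, mul_one, one_mul] at h1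
  rw [Finset.sum_ite, Finset.sum_const_zero, add_zero, Finset.sum_const, nsmul_eq_mul, mul_one] at h1
  exact_mod_cast h1.symm

theorem prod_galois [IsGalois K L] {G : Type*} [CommGroup G] (Q : Pl k L) (φ : Pl k L → G) :
    ∏ σ : L ≃ₐ[K] L, φ (mapPl (σ.restrictScalars k) Q)
      = ∏ Q' ∈ above L (under K Q), φ Q' ^ eR K Q' := by
  classical
  have hmaps : ∀ σ ∈ (Finset.univ : Finset (L ≃ₐ[K] L)),
      mapPl (σ.restrictScalars k) Q ∈ above L (under K Q) := by
    intro σ _
    rw [mem_above, under_mapPl]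
  rw [← Finset.prod_fiberwise_of_maps_to hmaps]
  refine Finset.prod_congr rfl fun Q' hQ' => ?_
  rw [mem_above] at hQ'
  have h1 : ∀ σ ∈ Finset.univ.filter (fun σ : L ≃ₐ[K] L => mapPl (σ.restrictScalars k) Q = Q'),
      φ (mapPl (σ.restrictScalars k) Q) = φ Q' := by
    intro σ hσ
    rw [Finset.mem_filter] at hσ
    rw [hσ.2]
  rw [Finset.prod_congr rfl h1, Finset.prod_const, card_fix Q Q' hQ', eR_eq_of_under_eq hQ']

theorem nrm_prod (Q : Pl k L) {ι : Type*} (s : Finset ι) (f : ι → L) (hf : ∀ i ∈ s, Q.v (f i) = 1) :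
    Q.v (∏ i ∈ s, f i) = 1 ∧ nrm Q (∏ i ∈ s, f i) = ∏ i ∈ s, nrm Q (f i) := by
  classical
  induction s using Finset.induction_on with
  | empty => simp
  | insert i s hi ih =>
    have h1 := hf i (Finset.mem_insert_self i s)
    obtain ⟨h2, h3⟩ := ih fun j hj => hf j (Finset.mem_insert_of_mem hj)
    rw [Finset.prod_insert hi, Finset.prod_insert hi]
    exact ⟨by rw [map_mul, h1, h2, one_mul], by rw [nrm_mul h1 h2, h3]⟩

/-- the value of the norm at `P` is the product of the values above `P` -/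
theorem nrm_norm [IsGalois K L] (P : Pl k K) {f : L} (hf : ∀ Q ∈ above L P, Q.v f = 1) :
    P.v (Algebra.norm K f) = 1 ∧
      nrm P (Algebra.norm K f) = ∏ Q ∈ above L P, nrm Q f ^ eR K Q := by
  classical
  obtain ⟨Q, hQ⟩ := above_nonempty (L := L) P
  have hQ' := mem_above.mp hQ
  have hσ : ∀ σ : L ≃ₐ[K] L, (mapPl (σ.restrictScalars k) Q).v f = 1 := by
    intro σ
    exact hf _ (by rw [mem_above, under_mapPl, hQ'])
  have hσ' : ∀ σ : L ≃ₐ[K] L, Q.v (σ.symm f) = 1 := hσ
  have h1 : algebraMap K L (Algebra.norm K f) = ∏ σ : L ≃ₐ[K] L, σ.symm f := by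
    rw [Algebra.norm_eq_prod_automorphisms, ← Equiv.prod_comp (Equiv.inv (L ≃ₐ[K] L))]
    rfl
  obtain ⟨h2, h3⟩ := nrm_prod Q Finset.univ (fun σ : L ≃ₐ[K] L => σ.symm f) (fun σ _ => hσ' σ)
  have h4 : P.v (Algebra.norm K f) = 1 := by
    have h5 : Q.v (algebraMap K L (Algebra.norm K f)) = 1 := by rw [h1]; exact h2
    have h6 := (under_le_one_iff Q (Algebra.norm K f)).mpr h5.le
    have h7 := (under_lt_one_iff Q (Algebra.norm K f))
    rw [hQ'] at h6 h7
    refine le_antisymm h6 (not_lt.mp fun h8 => ?_)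
    exact absurd h5 (h7.mp h8).ne
  refine ⟨h4, ?_⟩
  have h5 := nrm_algebraMap (K := K) Q (f := Algebra.norm K f) (by rw [hQ']; exact h4)
  rw [hQ'] at h5
  rw [← h5, h1, h3]
  have h6 : ∀ σ : L ≃ₐ[K] L, nrm Q (σ.symm f) = nrm (mapPl (σ.restrictScalars k) Q) f :=
    fun σ => (nrm_mapPl σ Q f (hσ' σ)).symm
  rw [Finset.prod_congr rfl fun σ _ => h6 σ, prod_galois Q (fun R => nrm R f), hQ']

/-- `f(con B) = N(f)(B)` -/
theorem ev_con [IsGalois K L] {f : L} (hf : f ≠ 0) {B : Pl k K →₀ ℤ}
    (h : Dis (divf (k := k) f) (con L B)) : ev f (con L B) = ev (Algebra.norm K f) B := by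
  unfold ev
  rw [pw_con]
  refine pw_congr fun P hP => ?_
  refine ((nrm_norm P fun Q hQ => ?_).2).symm
  rw [v_eq_one_iff hf]
  refine (h Q).resolve_right ?_
  rw [con_apply, mem_above.mp hQ]
  have := eR_pos (K := K) Q
  exact mul_ne_zero (by exact_mod_cast (by omega : eR K Q ≠ 0)) hP

/-- `f(N V) = (f)(V)` for `f ∈ K` -/
theorem ev_push {f : K} (hf : f ≠ 0) {V : Pl k L →₀ ℤ}
    (h : Dis (divf (k := k) (algebraMap K L f)) V) : ev f (push K V) = ev (algebraMap K L f) V := by
  unfold ev
  rw [pw_push]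
  refine pw_congr fun Q hQ => ?_
  have h1 := (h Q).resolve_right hQ
  rw [← con_divf hf, con_apply] at h1
  have h2 : divf (k := k) f (under K Q) = 0 := by
    rcases mul_eq_zero.mp h1 with h3 | h3
    · have := eR_pos (K := K) Q
      exact absurd h3 (by exact_mod_cast (by omega : eR K Q ≠ 0))
    · exact h3
  exact (nrm_algebraMap Q ((v_eq_one_iff hf _).mpr h2)).symm

end tower

end Crest.Agent.R013.HWP_676
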