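import Mathlib
import Crest.Agent.R013.HWP2_676

/-!
# R013 / HWP3: the Weil pairing on torsion classes, non-degeneracy from a Kummer cover (helper676)

Route H of helper906 (#3476), leaf H-WP.
-/

set_option autoImplicit false
set_option linter.all false

namespace Crest.Agent.R013.HWP_676

open WithZero Module
open Crest.Agent.R013.RR1_948 Crest.Agent.R013.RR2_948
open Crest.Agent.R013.RR7_948 Crest.Agent.R013.RR8_948 Crest.Agent.R013.RR9_948
open Crest.Agent.R013.RR11_948 Crest.Agent.R013.RR12_948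
open Crest.Agent.R013.RR18_948 Crest.Agent.R013.RR19_948 Crest.Agent.R013.RR20_948
open Crest.Agent.R013.RR21_948 Crest.Agent.R013.RR22_948
open Crest.Agent.R013.WR1_777 Crest.Agent.R013.WR2_777 Crest.Agent.R013.WR3_777
open Crest.Agent.R013.WR4_777 Crest.Agent.R013.WR5_777
open Crest.Agent.R013.PicD_398

section pairing

variable {k : Type*} [Field k] [IsAlgClosed k] {K : Type*} [Field K] [Algebra k K]
  [Algebra (RatFunc k) K] [IsScalarTower k (RatFunc k) K] [FiniteDimensional (RatFunc k) K]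
  [Algebra.IsSeparable (RatFunc k) K]

/-- `(f, B)` represents the `N`-torsion class `cls B`: `div f = N B` -/
structure Rep (N : ℕ) (B : Pl k K →₀ ℤ) (f : K) : Prop where
  ne : f ≠ 0
  eq : divf (k := k) f = N • B

theorem Rep.deg {N : ℕ} (hN : N ≠ 0) {B : Pl k K →₀ ℤ} {f : K} (h : Rep N B f) : degD B = 0 := by
  have h1 := degD_divf (k := k) h.ne
  rw [h.eq] at h1
  have h2 : degD (N • B) = N • degD B := map_nsmul (degHom (k := k) (K := K)) N B
  rw [h2, nsmul_eq_mul, mul_eq_zero] at h1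
  rcases h1 with h3 | h3
  · exact absurd (by exact_mod_cast h3) hN
  · exact h3

theorem Rep.dis {N : ℕ} {B D : Pl k K →₀ ℤ} {f : K} (h : Rep N B f) (hD : Dis B D) :
    Dis (divf (k := k) f) D := by
  rw [h.eq]; exact (hD.symm.nsmul N).symm

theorem Rep.move {N : ℕ} {B : Pl k K →₀ ℤ} {f u : K} (h : Rep N B f) (hu : u ≠ 0) :
    Rep N (B + divf (k := k) u) (f * u ^ N) where
  ne := mul_ne_zero h.ne (pow_ne_zero N hu)
  eq := by rw [divf_mul h.ne (pow_ne_zero N hu), h.eq, divf_pow hu, smul_add]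

theorem exists_rep {N : ℕ} {b : Pic k K} (hb : N • b = 0) (S : Pl k K →₀ ℤ) :
    ∃ B f, cls B = b ∧ Rep N B f ∧ Dis S B := by
  obtain ⟨B, rfl⟩ := cls_surjective b
  rw [← map_nsmul, cls_eq_zero_iff] at hb
  obtain ⟨f, hf, h⟩ := hb
  obtain ⟨g, hg, h'⟩ := exists_dis B S
  refine ⟨B + divf (k := k) g, f * g ^ N, ?_, Rep.move ⟨hf, h⟩ hg, h'⟩
  rw [map_add, cls_divf hg, add_zero]

/-- `f_B(C) / f_C(B)` -/
noncomputable def pr (f : K) (B : Pl k K →₀ ℤ) (g : K) (C : Pl k K →₀ ℤ) : kˣ :=
  ev f C / ev g B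

theorem pr_swap (f : K) (B : Pl k K →₀ ℤ) (g : K) (C : Pl k K →₀ ℤ) :
    pr g C f B = (pr f B g C)⁻¹ := by
  unfold pr; rw [inv_div]

/-- changing the left representative -/
theorem pr_move_left {N : ℕ} (hN : N ≠ 0) {B B' C : Pl k K →₀ ℤ} {f f' g : K} (h : Rep N B f)
    (h' : Rep N B' f') (hc : Rep N C g) (hcls : cls B = cls B') (hBC : Dis B C) (hBC' : Dis B' C) :
    pr f B g C = pr f' B' g C := by
  obtain ⟨u, hu, hBu⟩ := cls_eq_iff.mp hcls
  -- `B = B' + div u`
  have hdu : divf (k := k) u = B - B' := by rw [hBu]; abel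
  have hduC : Dis (divf (k := k) u) C := by
    rw [hdu]; exact (Dis.sub hBC.symm hBC'.symm).symm
  have h1 : divf (k := k) f = divf (k := k) (f' * u ^ N) := by
    rw [(h'.move hu).eq, h.eq, hBu]
  obtain ⟨c, hc1⟩ := exists_const_mul h.ne (h'.move hu).ne h1
  have hcne : algebraMap k K c ≠ 0 := by simp
  have hdc : divf (k := k) (algebraMap k K c) = 0 := by
    have h2 := congrArg (divf (k := k)) hc1
    rw [divf_mul hcne (h'.move hu).ne, h1] at h2
    exact add_eq_right.mp h2.symm
  have hgu : Dis (divf (k := k) u) (divf (k := k) g) := by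
    rw [hc.eq]; exact hduC.nsmul N
  have h3 : ev f C = ev f' C * ev u C ^ N := by
    rw [hc1, ev_mul_left hcne (h'.move hu).ne (by rw [hdc]; intro P; left; rfl)
      ((h'.move hu).dis (by rw [← hBu]; exact hBC)), ev_const, hc.deg hN, zpow_zero, one_mul,
      ev_mul_left h'.ne (pow_ne_zero N hu) (h'.dis hBC')
      (by rw [divf_pow hu]; exact (hduC.symm.nsmul N).symm), ev_pow_left hu N hduC]
  have h4 : ev g B = ev g B' * ev u C ^ N := by
    rw [hBu, ev_add_right]
    congr 1
    rw [recip hc.ne hu hgu.symm, hc.eq, ev_nsmul_right]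
  unfold pr
  rw [h3, h4, mul_div_mul_right_eq_div]

theorem pr_move_right {N : ℕ} (hN : N ≠ 0) {B C C' : Pl k K →₀ ℤ} {f g g' : K} (h : Rep N B f)
    (hc : Rep N C g) (hc' : Rep N C' g') (hcls : cls C = cls C') (hBC : Dis B C)
    (hBC' : Dis B C') : pr f B g C = pr f B g' C' := by
  have h5 := pr_move_left hN hc hc' h hcls hBC.symm hBC'.symm
  rw [pr_swap f B g C, pr_swap f B g' C'] at h5
  exact inv_inj.mp h5

theorem pr_indep {N : ℕ} (hN : N ≠ 0) {B B' C C' : Pl k K →₀ ℤ} {f f' g g' : K} (h : Rep N B f)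
    (h' : Rep N B' f') (hc : Rep N C g) (hc' : Rep N C' g') (hb : cls B = cls B')
    (hcc : cls C = cls C') (hBC : Dis B C) (hBC' : Dis B' C') : pr f B g C = pr f' B' g' C' := by
  classical
  -- a third representative of `B`, disjoint from `C` and `C'`
  obtain ⟨u, hu, hd⟩ := exists_move B (C.support ∪ C'.support)
  have h1 : Rep N (B + divf (k := k) u) (f * u ^ N) := h.move hu
  have hcls : cls (B + divf (k := k) u) = cls B := by rw [map_add, cls_divf hu, add_zero]
  have hd1 : Dis (B + divf (k := k) u) C := by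
    intro P
    by_cases hP : C P = 0
    · exact Or.inr hP
    · exact Or.inl (hd P (Finset.mem_union_left _ (Finsupp.mem_support_iff.mpr hP)))
  have hd2 : Dis (B + divf (k := k) u) C' := by
    intro P
    by_cases hP : C' P = 0
    · exact Or.inr hP
    · exact Or.inl (hd P (Finset.mem_union_right _ (Finsupp.mem_support_iff.mpr hP)))
  rw [pr_move_left hN h h1 hc hcls.symm hBC hd1, pr_move_right hN h1 hc hc' hcc hd1 hd2,
    pr_move_left hN h1 h' hc' (hcls.trans hb) hd2 hBC']

theorem pr_pow {N : ℕ} {B C : Pl k K →₀ ℤ} {f g : K} (h : Rep N B f) (hc : Rep N C g)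
    (hBC : Dis B C) : pr f B g C ^ N = 1 := by
  unfold pr
  rw [div_pow, ← ev_nsmul_right, ← ev_nsmul_right, ← hc.eq, ← h.eq, recip h.ne hc.ne, div_self']
  rw [hc.eq]
  exact (h.dis hBC).nsmul N

end pairing

section kummer

variable {k : Type*} [Field k] [IsAlgClosed k] {K : Type*} [Field K] [Algebra k K]
  [Algebra (RatFunc k) K] [IsScalarTower k (RatFunc k) K] [FiniteDimensional (RatFunc k) K]
  [Algebra.IsSeparable (RatFunc k) K]
  {L : Type*} [Field L] [Algebra k L] [Algebra K L] [IsScalarTower k K L]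
  [FiniteDimensional K L] [Algebra.IsSeparable K L]
  [Algebra (RatFunc k) L] [IsScalarTower k (RatFunc k) L] [FiniteDimensional (RatFunc k) L]
  [Algebra.IsSeparable (RatFunc k) L] [IsScalarTower (RatFunc k) K L]

/-- **non-degeneracy**: if `z^l = f` in the cyclic cover `L`, `σ z = ζ z`, and divisors of degree
zero on `L` are divisible by `l`, then `cls B` pairs with some class to `ζ` -/
theorem exists_pairing [IsGalois K L] {l : ℕ} (hl : l ≠ 0) {B : Pl k K →₀ ℤ} {f : K}
    (h : Rep l B f) (z : L) (hz : z ^ l = algebraMap K L f) (σ : L ≃ₐ[K] L) (ζ : kˣ)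
    (hσ : σ z = algebraMap k L ζ * z)
    (hdiv : ∀ D : Pl k L →₀ ℤ, degD D = 0 → ∃ (E : Pl k L →₀ ℤ) (g : L), g ≠ 0 ∧
      D = l • E + divf (k := k) g) :
    ∃ (C : Pl k K →₀ ℤ) (g : K), Rep l C g ∧ Dis B C ∧ pr f B g C = ζ := by
  classical
  have hz0 : z ≠ 0 := by
    rintro rfl
    rw [zero_pow hl] at hz
    exact h.ne (by simpa using hz.symm)
  -- the divisor of `z`
  have hdz : divf (k := k) z = con L B := by
    have h1 : l • divf (k := k) z = l • con L B := by
      rw [← divf_pow hz0, hz, ← con_divf h.ne, h.eq]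
      have h2 : con L (l • B) = l • con L B := by
        rw [← natCast_zsmul, con_zsmul, natCast_zsmul]
      exact h2
    ext Q
    have h2 := DFunLike.congr_fun h1 Q
    rw [Finsupp.smul_apply, Finsupp.smul_apply, nsmul_eq_mul, nsmul_eq_mul] at h2
    exact mul_left_cancel₀ (by exact_mod_cast hl) h2
  -- a place outside the support of `z`
  obtain ⟨Q, hQ⟩ := exists_notMem (divf (k := k) z).support
  rw [Finsupp.mem_support_iff, not_not] at hQ
  have hζ1 : ∀ R : Pl k L, R.v (algebraMap k L ζ) = 1 := fun R => R.const _ (by simp)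
  have hσz : σ.symm z = algebraMap k L (ζ⁻¹ : kˣ) * z := by
    rw [AlgEquiv.symm_apply_eq, map_mul, hσ, IsScalarTower.algebraMap_apply k K L,
      AlgEquiv.commutes, ← IsScalarTower.algebraMap_apply, ← mul_assoc, ← map_mul,
      Units.inv_mul, map_one, one_mul]
  have hvQ : Q.v z = 1 := (v_eq_one_iff hz0 Q).mpr hQ
  have hζ2 : ∀ R : Pl k L, R.v (algebraMap k L (ζ⁻¹ : kˣ)) = 1 := fun R => R.const _ (by simp)
  have hvQ' : Q.v (σ.symm z) = 1 := by rw [hσz, map_mul, hζ2, hvQ, one_mul]
  set Q' := mapPl (σ.restrictScalars k) Q with hQ'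
  have hvQ'' : Q'.v z = 1 := by rw [hQ', mapPl_v]; exact hvQ'
  have hnQ' : nrm Q' z = ζ⁻¹ * nrm Q z := by
    rw [hQ', nrm_mapPl σ Q z hvQ', hσz, nrm_mul (hζ2 Q) hvQ, nrm_const, degP1, pow_one]
  -- divisibility
  set D : Pl k L →₀ ℤ := Finsupp.single Q 1 - Finsupp.single Q' 1 with hD
  have hdD : degD D = 0 := by
    rw [hD, degD_sub, degD_single, degD_single, degP1, degP1, sub_self]
  obtain ⟨V, g, hg, hVg⟩ := hdiv D hdD
  obtain ⟨u, hu, hVu⟩ := exists_move V (divf (k := k) z).support
  set V' := V + divf (k := k) u with hV'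
  set g' := g * (u ^ l)⁻¹ with hg'
  have hul : (u ^ l)⁻¹ ≠ 0 := inv_ne_zero (pow_ne_zero l hu)
  have hg'0 : g' ≠ 0 := mul_ne_zero hg hul
  have hdg' : divf (k := k) g' = D - l • V' := by
    rw [hg', divf_mul hg hul, divf_inv (pow_ne_zero l hu), divf_pow hu, hV', smul_add, hVg]
    abel
  have hzV' : Dis (divf (k := k) z) V' := by
    intro R
    by_cases hR : divf (k := k) z R = 0
    · exact Or.inl hR
    · exact Or.inr (hVu R (Finsupp.mem_support_iff.mpr hR))
  have hzD : Dis (divf (k := k) z) D := by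
    intro R
    by_cases hRQ : R = Q
    · left; rw [hRQ, hQ]
    by_cases hRQ' : R = Q'
    · left; rw [hRQ']; exact (v_eq_one_iff hz0 Q').mp hvQ''
    · right
      rw [hD, Finsupp.sub_apply, Finsupp.single_apply, Finsupp.single_apply,
        if_neg (Ne.symm hRQ), if_neg (Ne.symm hRQ'), sub_zero]
  have hzg' : Dis (divf (k := k) z) (divf (k := k) g') := by
    rw [hdg']; exact hzD.sub (hzV'.nsmul l)
  -- the norm
  have hNg : Algebra.norm K g' ≠ 0 := by rw [Ne, Algebra.norm_eq_zero_iff]; exact hg'0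
  have hpD : push K D = 0 := by
    rw [hD, push_sub, push_single, push_single, hQ', under_mapPl, sub_self]
  have hdN : divf (k := k) (Algebra.norm K g') = -(l • push K V') := by
    rw [← push_divf hg'0, hdg', push_sub, hpD, push_nsmul, zero_sub]
  have hrep : Rep l (push K V') (Algebra.norm K g')⁻¹ :=
    ⟨inv_ne_zero hNg, by rw [divf_inv hNg, hdN, neg_neg]⟩
  have hBC : Dis B (push K V') := by
    intro P
    by_cases hP : push K V' P = 0
    · exact Or.inr hP
    · left
      obtain ⟨R, hR, hR'⟩ := exists_above_of_push_ne hP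
      have h1 := (hzV' R).resolve_right hR'
      rw [hdz, con_apply, hR] at h1
      rcases mul_eq_zero.mp h1 with h2 | h2
      · have := eR_pos (K := K) R
        exact absurd h2 (by exact_mod_cast (by omega : eR K R ≠ 0))
      · exact h2
  refine ⟨push K V', (Algebra.norm K g')⁻¹, hrep, hBC, ?_⟩
  -- the computation
  have hfz : divf (k := k) (algebraMap K L f) = l • divf (k := k) z := by rw [← hz, divf_pow hz0]
  have e1 : ev f (push K V') = ev z (l • V') := by
    rw [ev_push h.ne (by rw [hfz]; exact (hzV'.symm.nsmul l).symm), ← hz, ev_pow_left hz0 l hzV',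
      ev_nsmul_right]
  have e2 : l • V' = D - divf (k := k) g' := by rw [hdg']; abel
  have e3 : ev z (divf (k := k) g') = ev (Algebra.norm K g') B := by
    rw [recip hz0 hg'0 hzg', hdz, ev_con hg'0 (by rw [← hdz]; exact hzg'.symm)]
  have e4 : ev z D = ζ := by
    have : ev z D = nrm Q z / nrm Q' z := by
      rw [hD, ev_sub_right]
      unfold ev
      rw [pw_single, pw_single, zpow_one, zpow_one]
    rw [this, hnQ', div_eq_iff_eq_mul, ← mul_assoc, mul_inv_cancel, one_mul]
  unfold pr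
  rw [e1, e2, ev_sub_right, e3, e4, ev_inv_left, div_inv_eq_mul, div_mul_cancel]

end kummer

end Crest.Agent.R013.HWP_676
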