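import Mathlib
import Crest.Agent.R013.HWP3_676

/-!
# R013 / HWP4: the Weil pairing on `Pic[N]`, non-degeneracy (helper676)

Route H of helper906 (#3476), leaf H-WP.
-/

set_option autoImplicit false
set_option linter.all false

namespace Crest.Agent.R013.HWP_676

open WithZero Module
open Crest.Agent.R013.RR1_948 Crest.Agent.R013.RR2_948
open Crest.Agent.R013.RR7_948 Crest.Agent.R013.RR8_948 Crest.Agent.R013.RR9_948
open Crest.Agent.R013.RR11_948 Crest.Agent.R013.RR12_948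
open Crest.Agent.R013.RR18_948 Crest.Agent.R013.RR19_948 Crest.Agent.R013.RR20_948
open Crest.Agent.R013.RR21_948 Crest.Agent.R013.RR22_948
open Crest.Agent.R013.WR1_777 Crest.Agent.R013.WR2_777 Crest.Agent.R013.WR3_777
open Crest.Agent.R013.WR4_777 Crest.Agent.R013.WR5_777
open Crest.Agent.R013.PicD_398

universe u v

section pairing

variable {k : Type u} [Field k] [IsAlgClosed k] {K : Type v} [Field K] [Algebra k K]
  [Algebra (RatFunc k) K] [IsScalarTower k (RatFunc k) K] [FiniteDimensional (RatFunc k) K]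
  [Algebra.IsSeparable (RatFunc k) K]

/-- disjoint representatives -/
theorem exists_reps {N : ℕ} {b c : Pic k K} (hb : N • b = 0) (hc : N • c = 0) :
    ∃ B f C g, cls B = b ∧ cls C = c ∧ Rep N B f ∧ Rep N C g ∧ Dis B C := by
  obtain ⟨B, f, hB, hf, _⟩ := exists_rep hb 0
  obtain ⟨C, g, hC, hg, hd⟩ := exists_rep hc B
  exact ⟨B, f, C, g, hB, hC, hf, hg, hd⟩

open Classical in
/-- **the Weil pairing** -/
noncomputable def wp (N : ℕ) (b c : Pic k K) : kˣ :=
  if h : ∃ (B : Pl k K →₀ ℤ) (f : K) (C : Pl k K →₀ ℤ) (g : K), cls B = b ∧ cls C = c ∧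
      Rep N B f ∧ Rep N C g ∧ Dis B C then
    pr h.choose_spec.choose h.choose h.choose_spec.choose_spec.choose_spec.choose
      h.choose_spec.choose_spec.choose
  else 1

theorem wp_eq {N : ℕ} (hN : N ≠ 0) {B C : Pl k K →₀ ℤ} {f g : K} (h : Rep N B f) (hc : Rep N C g)
    (hd : Dis B C) : wp N (cls B) (cls C) = pr f B g C := by
  have hex : ∃ (B' : Pl k K →₀ ℤ) (f' : K) (C' : Pl k K →₀ ℤ) (g' : K), cls B' = cls B ∧
      cls C' = cls C ∧ Rep N B' f' ∧ Rep N C' g' ∧ Dis B' C' := ⟨B, f, C, g, rfl, rfl, h, hc, hd⟩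
  unfold wp
  rw [dif_pos hex]
  obtain ⟨h1, h2, h3, h4, h5⟩ := hex.choose_spec.choose_spec.choose_spec.choose_spec
  exact pr_indep hN h3 h h4 hc h1 h2 h5 hd

theorem wp_swap {N : ℕ} (hN : N ≠ 0) {b c : Pic k K} (hb : N • b = 0) (hc : N • c = 0) :
    wp N c b = (wp N b c)⁻¹ := by
  obtain ⟨B, f, C, g, rfl, rfl, hf, hg, hd⟩ := exists_reps hb hc
  rw [wp_eq hN hf hg hd, wp_eq hN hg hf hd.symm, pr_swap f B g C]

theorem wp_pow {N : ℕ} (hN : N ≠ 0) {b c : Pic k K} (hb : N • b = 0) (hc : N • c = 0) :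
    wp N b c ^ N = 1 := by
  obtain ⟨B, f, C, g, rfl, rfl, hf, hg, hd⟩ := exists_reps hb hc
  rw [wp_eq hN hf hg hd, pr_pow hf hg hd]

theorem Rep.add {N : ℕ} {B B' : Pl k K →₀ ℤ} {f f' : K} (h : Rep N B f) (h' : Rep N B' f') :
    Rep N (B + B') (f * f') :=
  ⟨mul_ne_zero h.ne h'.ne, by rw [divf_mul h.ne h'.ne, h.eq, h'.eq, smul_add]⟩

theorem Rep.zero (N : ℕ) : Rep N (0 : Pl k K →₀ ℤ) (1 : K) :=
  ⟨one_ne_zero, by rw [smul_zero, divf_one]⟩

theorem Rep.pow {N : ℕ} {B : Pl k K →₀ ℤ} {f : K} (h : Rep N B f) (m : ℕ) : Rep (m * N) B (f ^ m) :=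
  ⟨pow_ne_zero m h.ne, by rw [divf_pow h.ne, h.eq, mul_smul]⟩

theorem pr_mul_left {N : ℕ} {B B' C : Pl k K →₀ ℤ} {f f' g : K} (h : Rep N B f)
    (h' : Rep N B' f') (hd : Dis B C) (hd' : Dis B' C) :
    pr (f * f') (B + B') g C = pr f B g C * pr f' B' g C := by
  unfold pr
  rw [ev_mul_left h.ne h'.ne (h.dis hd) (h'.dis hd'), ev_add_right, mul_div_mul_comm]

theorem wp_add_left {N : ℕ} (hN : N ≠ 0) {b b' c : Pic k K} (hb : N • b = 0) (hb' : N • b' = 0)
    (hc : N • c = 0) : wp N (b + b') c = wp N b c * wp N b' c := by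
  obtain ⟨C, g, rfl, hg, _⟩ := exists_rep hc 0
  obtain ⟨B, f, rfl, hf, hd⟩ := exists_rep hb C
  obtain ⟨B', f', rfl, hf', hd'⟩ := exists_rep hb' C
  rw [← map_add, wp_eq hN (hf.add hf') hg (hd.add hd').symm, wp_eq hN hf hg hd.symm,
    wp_eq hN hf' hg hd'.symm, pr_mul_left hf hf' hd.symm hd'.symm]

theorem wp_add_right {N : ℕ} (hN : N ≠ 0) {b c c' : Pic k K} (hb : N • b = 0) (hc : N • c = 0)
    (hc' : N • c' = 0) : wp N b (c + c') = wp N b c * wp N b c' := by
  have hcc : N • (c + c') = 0 := by rw [nsmul_add, hc, hc', add_zero]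
  rw [wp_swap hN hcc hb, wp_add_left hN hc hc' hb, mul_inv, ← wp_swap hN hc hb,
    ← wp_swap hN hc' hb]

theorem wp_zero_left {N : ℕ} (hN : N ≠ 0) {c : Pic k K} (hc : N • c = 0) : wp N 0 c = 1 := by
  have h := wp_add_left hN (b := (0 : Pic k K)) (b' := 0) (nsmul_zero N) (nsmul_zero N) hc
  rw [add_zero] at h
  exact (mul_eq_left.mp h.symm)

theorem wp_zero_right {N : ℕ} (hN : N ≠ 0) {b : Pic k K} (hb : N • b = 0) : wp N b 0 = 1 := by
  rw [wp_swap hN (nsmul_zero N) hb, wp_zero_left hN hb, inv_one]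

theorem wp_nsmul_left {N : ℕ} (hN : N ≠ 0) {b c : Pic k K} (hb : N • b = 0) (hc : N • c = 0)
    (m : ℕ) : wp N (m • b) c = wp N b c ^ m := by
  induction m with
  | zero => rw [zero_nsmul, pow_zero, wp_zero_left hN hc]
  | succ m ih =>
    have hm : N • (m • b) = 0 := by rw [← mul_nsmul', mul_nsmul, hb, nsmul_zero]
    rw [succ_nsmul, wp_add_left hN hm hb hc, ih, pow_succ]

/-- compatibility: `e_{mN}(b, c) = e_N(b, m c)` for `N b = 0`, `m N c = 0` -/
theorem wp_compat {N m : ℕ} (hN : N ≠ 0) (hm : m ≠ 0) {b c : Pic k K} (hb : N • b = 0)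
    (hc : (m * N) • c = 0) : wp (m * N) b c = wp N b (m • c) := by
  obtain ⟨B, f, rfl, hf, _⟩ := exists_rep hb 0
  obtain ⟨C, g, rfl, hg, hd⟩ := exists_rep hc B
  have hg' : Rep N (m • C) g := ⟨hg.ne, by rw [hg.eq, mul_comm, mul_smul]⟩
  rw [wp_eq (mul_ne_zero hm hN) (hf.pow m) hg hd, ← map_nsmul, wp_eq hN hf hg' (hd.nsmul m)]
  unfold pr
  rw [ev_pow_left hf.ne m (hf.dis hd), ev_nsmul_right]

end pairing

section nondeg

/-- `Pic⁰` of every function field over `k` is divisible (helper280's DIV) -/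
def DivAll (k : Type u) [Field k] : Prop :=
  ∀ (L : Type v) [Field L] [Algebra k L] [Algebra (RatFunc k) L]
    [IsScalarTower k (RatFunc k) L] [FiniteDimensional (RatFunc k) L]
    [Algebra.IsSeparable (RatFunc k) L] (n : ℕ), n ≠ 0 → ∀ D : Pl k L →₀ ℤ, degD D = 0 →
      ∃ (E : Pl k L →₀ ℤ) (g : L), g ≠ 0 ∧ D = n • E + divf (k := k) g

/-- Kummer extensions of prime degree -/
theorem exists_kummer {K : Type v} [Field K] {l : ℕ} (hl : l.Prime) {ζ : K}
    (hζ : IsPrimitiveRoot ζ l) {f : K} (hf : ∀ g : K, g ^ l ≠ f) :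
    ∃ (L : Type v) (_ : Field L) (_ : Algebra K L) (z : L) (σ : L ≃ₐ[K] L),
      FiniteDimensional K L ∧ IsGalois K L ∧ z ^ l = algebraMap K L f ∧
        σ z = algebraMap K L ζ * z := by
  have hirr : Irreducible (Polynomial.X ^ l - Polynomial.C f) :=
    X_pow_sub_C_irreducible_of_prime hl hf
  haveI := Fact.mk hirr
  haveI : NeZero l := ⟨hl.ne_zero⟩
  have hne : (primitiveRoots l K).Nonempty :=
    ⟨ζ, (mem_primitiveRoots hl.pos).mpr hζ⟩
  haveI hsplit : Polynomial.IsSplittingField K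
      (AdjoinRoot (Polynomial.X ^ l - Polynomial.C f)) (Polynomial.X ^ l - Polynomial.C f) :=
    isSplittingField_AdjoinRoot_X_pow_sub_C hne hirr
  have hfin : FiniteDimensional K (AdjoinRoot (Polynomial.X ^ l - Polynomial.C f)) :=
    Polynomial.IsSplittingField.finiteDimensional _ (Polynomial.X ^ l - Polynomial.C f)
  have hgal : IsGalois K (AdjoinRoot (Polynomial.X ^ l - Polynomial.C f)) :=
    IsGalois.of_separable_splitting_field (Polynomial.separable_X_pow_sub_C_of_irreducible hne f hirr)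
  have hζu : ζ ^ l = 1 := hζ.pow_eq_one
  let η : rootsOfUnity l K := rootsOfUnity.mkOfPowEq ζ hζu
  refine ⟨AdjoinRoot (Polynomial.X ^ l - Polynomial.C f), inferInstance, inferInstance,
    AdjoinRoot.root _, autAdjoinRootXPowSubC l f η, hfin, hgal, ?_, ?_⟩
  · exact root_X_pow_sub_C_pow l f
  · rw [autAdjoinRootXPowSubC_root, Algebra.smul_def]
    rfl

variable {k : Type u} [Field k] [IsAlgClosed k] [CharZero k] {K : Type v} [Field K] [Algebra k K]
  [Algebra (RatFunc k) K] [IsScalarTower k (RatFunc k) K] [FiniteDimensional (RatFunc k) K]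
  [Algebra.IsSeparable (RatFunc k) K]

/-- non-degeneracy, prime order -/
theorem exists_ne_one_prime (hdiv : DivAll.{u, v} k) {l : ℕ} (hl : l.Prime) {b : Pic k K}
    (hb : l • b = 0) (hb0 : b ≠ 0) : ∃ c : Pic k K, l • c = 0 ∧ wp l b c ≠ 1 := by
  obtain ⟨B, f, rfl, hf, _⟩ := exists_rep hb 0
  haveI : NeZero l := ⟨hl.ne_zero⟩
  obtain ⟨ζ, hζ⟩ := HasEnoughRootsOfUnity.exists_primitiveRoot k l
  have hζ0 : ζ ≠ 0 := hζ.ne_zero hl.ne_zero
  have hζK : IsPrimitiveRoot (algebraMap k K ζ) l := hζ.map_of_injective (algebraMap k K).injective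
  have hnp : ∀ g : K, g ^ l ≠ f := by
    intro g hg
    have hg0 : g ≠ 0 := by
      rintro rfl
      rw [zero_pow hl.ne_zero] at hg
      exact hf.ne hg.symm
    apply hb0
    rw [cls_eq_zero_iff]
    refine ⟨g, hg0, ?_⟩
    have h1 : l • divf (k := k) g = l • B := by rw [← divf_pow hg0, hg, hf.eq]
    ext Q
    have h2 := DFunLike.congr_fun h1 Q
    rw [Finsupp.smul_apply, Finsupp.smul_apply, nsmul_eq_mul, nsmul_eq_mul] at h2
    exact mul_left_cancel₀ (by exact_mod_cast hl.ne_zero) h2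
  obtain ⟨L, iF, iA, z, σ, hfin, hgal, hz, hσ⟩ := exists_kummer hl hζK hnp
  letI : Algebra k L := ((algebraMap K L).comp (algebraMap k K)).toAlgebra
  letI : Algebra (RatFunc k) L := ((algebraMap K L).comp (algebraMap (RatFunc k) K)).toAlgebra
  haveI : IsScalarTower k K L := IsScalarTower.of_algebraMap_eq fun _ => rfl
  haveI : IsScalarTower (RatFunc k) K L := IsScalarTower.of_algebraMap_eq fun _ => rfl
  haveI : IsScalarTower k (RatFunc k) L := IsScalarTower.of_algebraMap_eq fun c => by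
    exact congrArg (algebraMap K L) (IsScalarTower.algebraMap_apply k (RatFunc k) K c)
  haveI : FiniteDimensional (RatFunc k) L := FiniteDimensional.trans (RatFunc k) K L
  haveI : CharZero (RatFunc k) := charZero_of_injective_algebraMap (algebraMap k (RatFunc k)).injective
  obtain ⟨C, g, hC, hd, hpr⟩ := exists_pairing hl.ne_zero hf z hz σ (Units.mk0 ζ hζ0)
    (by rw [hσ]; rfl) (fun D hD => hdiv L l hl.ne_zero D hD)
  refine ⟨cls C, ?_, ?_⟩
  · rw [← map_nsmul, cls_eq_zero_iff]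
    exact ⟨g, hC.ne, hC.eq⟩
  · rw [wp_eq hl.ne_zero hf hC hd, hpr]
    intro h1
    have h2 : ζ = 1 := by simpa using congrArg Units.val h1
    exact hζ.ne_one hl.one_lt h2

/-- **non-degeneracy of the Weil pairing**, every `N` -/
theorem nondeg (hdiv : DivAll.{u, v} k) {N : ℕ} (hN : N ≠ 0) {b : Pic k K} (hb : N • b = 0)
    (h : ∀ c : Pic k K, N • c = 0 → wp N b c = 1) : b = 0 := by
  by_contra hb0
  have hfin : IsOfFinAddOrder b := isOfFinAddOrder_iff_nsmul_eq_zero.mpr ⟨N, by omega, hb⟩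
  have ho : 0 < addOrderOf b := hfin.addOrderOf_pos
  have ho1 : addOrderOf b ≠ 1 := by rwa [Ne, AddMonoid.addOrderOf_eq_one_iff]
  obtain ⟨l, hl, hld⟩ := Nat.exists_prime_and_dvd ho1
  obtain ⟨m, hm⟩ := hld
  have hm0 : m ≠ 0 := by rintro rfl; omega
  -- `b' = m b` has order `l`
  have hlb : l • (m • b) = 0 := by
    rw [← mul_smul, ← hm]; exact addOrderOf_nsmul_eq_zero b
  have hmb : m • b ≠ 0 := by
    intro h0
    have h1 := Nat.le_of_dvd (by omega) (addOrderOf_dvd_iff_nsmul_eq_zero.mpr h0)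
    rw [hm] at h1
    have h2 := hl.two_le
    nlinarith
  obtain ⟨c', hc', hne⟩ := exists_ne_one_prime hdiv hl hlb hmb
  have hlN : l ∣ N := (Dvd.intro m hm.symm).trans (addOrderOf_dvd_iff_nsmul_eq_zero.mpr hb)
  obtain ⟨n, hn⟩ := hlN
  have hn0 : n ≠ 0 := by rintro rfl; omega
  -- divide `c'` by `n`
  obtain ⟨C', hC'⟩ := cls_surjective c'
  have hdeg : degD C' = 0 := by
    rw [← hC', ← map_nsmul, cls_eq_zero_iff] at hc'
    obtain ⟨g, hg, hg'⟩ := hc'
    exact Rep.deg hl.ne_zero ⟨hg, hg'⟩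
  obtain ⟨E, g, hg, hE⟩ := hdiv K n hn0 C' hdeg
  have hc1 : n • cls E = c' := by
    rw [← hC', hE, map_add, cls_divf hg, add_zero, map_nsmul]
  have hNn : N = n * l := by rw [hn, mul_comm]
  have hcE : (n * l) • cls E = 0 := by rw [mul_comm, mul_smul, hc1, hc']
  have h1 := wp_compat hl.ne_zero hn0 hlb hcE
  rw [hc1, ← hNn, wp_nsmul_left hN hb (by rw [hNn]; exact hcE), h _ (by rw [hNn]; exact hcE),
    one_pow] at h1
  exact hne h1.symm

end nondeg

end Crest.Agent.R013.HWP_676
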