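import Mathlib
import Crest.Agent.R013.HWP4_676
import Crest.Agent.R013.Div6_280

/-!
# R013 / HWP5: the Weil pairing is non-degenerate, unconditionally (helper676)
-/

set_option autoImplicit false
set_option linter.all false
namespace Crest.Agent.R013.HWP_676
open Module
open Crest.Agent.R013.RR7_948 Crest.Agent.R013.RR8_948 Crest.Agent.R013.RR9_948
open Crest.Agent.R013.RR11_948 Crest.Agent.R013.RR13_948 Crest.Agent.R013.PicD_398

universe u v

/-- **DIV** (helper280) in the form used by `nondeg` -/
theorem divAll (k : Type u) [Field k] [IsAlgClosed k] [CharZero k] : DivAll.{u, v} k := by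
  intro L _ _ _ _ _ _ n hn D hD
  obtain ⟨E, f, hf, -, h⟩ := Crest.Agent.R013.Div6_280.exists_div (Nat.pos_of_ne_zero hn) hD
  exact ⟨E, f, hf, h⟩

variable {k : Type u} [Field k] [IsAlgClosed k] [CharZero k] {K : Type v} [Field K] [Algebra k K]
  [Algebra (RatFunc k) K] [IsScalarTower k (RatFunc k) K] [FiniteDimensional (RatFunc k) K]
  [Algebra.IsSeparable (RatFunc k) K]

/-- **the Weil pairing is non-degenerate** -/
theorem wp_nondeg {N : ℕ} (hN : N ≠ 0) {b : Pic k K} (hb : N • b = 0)
    (h : ∀ c : Pic k K, N • c = 0 → wp N b c = 1) : b = 0 :=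
  nondeg (divAll.{u, v} k) hN hb h

end Crest.Agent.R013.HWP_676
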