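import Mathlib
import Crest.Agent.R013.Eps2_184
import Crest.Agent.R013.HWP5_676
import Crest.Agent.R013.DE2_854

/-!
# R013 / Eps3 (helper184): D-EPS, final form at the level of `K₀/k`

`K = K₀ ⊗_k C`, `C` algebraic closure of `k`.  If `δ₀` is a divisor of `K₀/k` such that the values
`h(conC δ₀)` (`div h = N C`) have Galois-stable small `N`-th roots then `δ₀` is divisible by `N` in
the class group of `K₀`.
-/

set_option autoImplicit false
set_option linter.all false

namespace Crest.Agent.R013.Eps3_184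

open WithZero Module
open Crest.Agent.R013.RR7_948 Crest.Agent.R013.RR8_948 Crest.Agent.R013.RR9_948
open Crest.Agent.R013.RR11_948 Crest.Agent.R013.RR12_948 Crest.Agent.R013.PicD_398
open Crest.Agent.R013.WR2_777 Crest.Agent.R013.WR4_777 Crest.Agent.R013.WR5_777
open Crest.Agent.R013.CE5_280 Crest.Agent.R013.Frob1_914 Crest.Agent.R013.Eps1_184
open Crest.Agent.R013.Eps2_184 Crest.Agent.R013.Desc_372 Crest.Agent.R013.DescP_429

universe u v

section wp

variable {F : Type u} [Field F] [IsAlgClosed F] [CharZero F] {K : Type v} [Field K] [Algebra F K]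
  [Algebra (RatFunc F) K] [IsScalarTower F (RatFunc F) K] [FiniteDimensional (RatFunc F) K]
  [Algebra.IsSeparable (RatFunc F) K]

/-- 676's Weil pairing satisfies `IsWP` as soon as it is perfect. -/
theorem isWP_of_perf {N : ℕ} (hN : N ≠ 0)
    (hp : ∀ χ : Pic F K → Fˣ,
      (∀ γ γ' : Pic F K, N • γ = 0 → N • γ' = 0 → χ (γ + γ') = χ γ * χ γ') →
      ∃ β : Pic F K, N • β = 0 ∧ ∀ γ : Pic F K, N • γ = 0 → χ γ = HWP_676.wp N β γ) :
    IsWP N (HWP_676.wp (k := F) (K := K) N) where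
  form := fun B C b h hb hh hdb hdh hdis => by
    rw [HWP_676.wp_eq hN ⟨hb, hdb⟩ ⟨hh, hdh⟩ hdis]
    unfold HWP_676.pr
    exact div_mul_cancel _ _
  nondeg := fun β hβ h => HWP_676.wp_nondeg hN hβ h
  perf := hp

end wp

section main

variable {k C K₀ K : Type*} [Field k] [Field C] [Field K₀] [Field K]
  [Algebra k C] [Algebra k K₀] [Algebra C K] [Algebra K₀ K] [Algebra k K] [IsScalarTower k C K]
  [IsScalarTower k K₀ K]
  [h : CE k C K₀ K] [IsGalois k C] [IsAlgClosed C] [CharZero k]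
  [Algebra (RatFunc k) K₀] [IsScalarTower k (RatFunc k) K₀] [FiniteDimensional (RatFunc k) K₀]
  [Algebra (RatFunc C) K] [IsScalarTower C (RatFunc C) K] [FiniteDimensional (RatFunc C) K]
  [Algebra.IsSeparable (RatFunc C) K] [Algebra.IsAlgebraic K₀ K]

/-- an automorphism of `K/K₀` as a semilinear automorphism of `K/C` -/
noncomputable def si (k C : Type*) {K₀ K : Type*} [Field k] [Field C] [Field K₀] [Field K]
    [Algebra k C] [Algebra k K₀] [Algebra C K] [Algebra K₀ K] [Algebra k K] [IsScalarTower k C K]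
    [IsScalarTower k K₀ K] [Normal k C] (s : K ≃ₐ[K₀] K) : SI C K C K where
  s := (CE.res k C K₀ K s : C ≃ₐ[k] C).toRingEquiv
  f := s.toRingEquiv
  comm := fun c => (CE.algebraMap_res k C K₀ K s c).symm

omit [IsAlgClosed C] [CharZero k] [h : CE k C K₀ K] [Algebra (RatFunc k) K₀]
  [IsScalarTower k (RatFunc k) K₀] [FiniteDimensional (RatFunc k) K₀]
  [Algebra (RatFunc C) K] [IsScalarTower C (RatFunc C) K] [FiniteDimensional (RatFunc C) K]
  [Algebra.IsSeparable (RatFunc C) K] [Algebra.IsAlgebraic K₀ K] in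
theorem si_symm_pl (s : K ≃ₐ[K₀] K) (P : Pl C K) : (si k C s).symm.pl P = comapPl k C s P := by
  apply Pl.ext
  ext x
  rfl

omit [IsAlgClosed C] [CharZero k] [h : CE k C K₀ K] [Algebra (RatFunc k) K₀]
  [IsScalarTower k (RatFunc k) K₀] [FiniteDimensional (RatFunc k) K₀]
  [Algebra (RatFunc C) K] [IsScalarTower C (RatFunc C) K] [FiniteDimensional (RatFunc C) K]
  [Algebra.IsSeparable (RatFunc C) K] [Algebra.IsAlgebraic K₀ K] in
theorem si_pl (s : K ≃ₐ[K₀] K) (P : Pl C K) : (si k C s).pl P = comapPl k C s.symm P := by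
  apply Pl.ext
  ext x
  rfl

/-- **D-EPS, final form.** -/
theorem exists_div (hc : algebraicClosure k K₀ = ⊥) (P₀ : Pl k K₀) (hP₀ : degP P₀ = 1)
    {N : ℕ} {e : Pic C K → Pic C K → Cˣ} (he : IsWP N e) {V : Set (Pl C K)} {t : K}
    (δ₀ : Pl k K₀ →₀ ℤ) {U : Subgroup Cˣ} (d : Dat N V t (conC hc δ₀) U)
    (hV : ∀ (s : K ≃ₐ[K₀] K), ∀ P ∈ V, comapPl k C s P ∈ V)
    (hU : ∀ s : C ≃ₐ[k] C, ∀ u ∈ U, Units.map (s : C →* C) u ∈ U)
    {E : Pl C K →₀ ℤ} {f : K} (hf : f ≠ 0) (hE : conC hc δ₀ = N • E + divf (k := C) f) :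
    ∃ (D : Pl k K₀ →₀ ℤ) (f₀ : K₀), f₀ ≠ 0 ∧ δ₀ = N • D + divf (k := k) f₀ := by
  obtain ⟨E', f', hf', hE', hσ⟩ := d.main he hf hE
  have key := DE2_854.descend_deg_one hc P₀ hP₀ E' (fun s => ?_) (N : ℤ) δ₀ hf'
    (by rw [hE']; simp)
  · obtain ⟨D, f₀, h0, h1⟩ := key
    exact ⟨D, f₀, h0, by rw [h1]; simp⟩
  · obtain ⟨g, hg0, hg⟩ := hσ (si k C s) (by
      ext Q
      rw [SI.D_apply, si_symm_pl, conC_apply, conC_apply, DE2_854.resC_comapPl])
      (fun P hP => by rw [si_pl]; exact hV _ P hP)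
      (fun u hu => hU (CE.res k C K₀ K s) u hu)
    refine ⟨g, hg0, fun Q => ?_⟩
    have := congrArg (fun Z : Pl C K →₀ ℤ => Z Q) hg
    simp only [Finsupp.add_apply] at this
    rw [SI.D_apply, si_symm_pl] at this
    exact this

end main

end Crest.Agent.R013.Eps3_184
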