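import Crest.Agent.R013.Ax2_280

/-!
# ROUTE H (#3476), leaf H-AX: semilinear descent of subspaces + Ax-Sen-Tate   (helper381)

* `span_fixed` : a subspace of `ι → L` stable under a set `T` of field endomorphisms (coordinatewise)
  is spanned by its `T`-fixed vectors.
* `span_base` : the same when the `T`-fixed elements of `L` come from a subfield `k`.
* `exists_ext` : isometric automorphisms of a dense subfield extend to the complete field.
* `hax` : `K` finite over `ℚ_p`, `L` an algebraic closure, `C` its completion: the `C`-span of a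
  Galois stable subset of `ι → C` is defined over `K`.
-/

set_option autoImplicit false

open scoped NNReal

namespace Crest.Agent.R013.HAx_381

noncomputable section

section alg

variable {L : Type*} [Field L] {ι : Type*} [Finite ι]

/-- coordinatewise action -/
def act (t : L →+* L) (v : ι → L) : ι → L := fun i => t (v i)

@[simp] theorem act_apply (t : L →+* L) (v : ι → L) (i : ι) : act t v i = t (v i) := rfl

theorem act_add (t : L →+* L) (v w : ι → L) : act t (v + w) = act t v + act t w := by
  ext i; simp [act]

theorem act_sub (t : L →+* L) (v w : ι → L) : act t (v - w) = act t v - act t w := by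
  ext i; simp [act]

theorem act_smul (t : L →+* L) (c : L) (v : ι → L) : act t (c • v) = t c • act t v := by
  ext i; simp [act]

theorem act_zero (t : L →+* L) : act t (0 : ι → L) = 0 := by
  ext i; simp [act]

theorem exists_fixed [Fintype ι] (T : Set (L →+* L)) (W : Submodule L (ι → L))
    (hW : ∀ t ∈ T, ∀ v ∈ W, act t v ∈ W) (n : ℕ) :
    ∀ S : Finset ι, S.card ≤ n → ∀ v ∈ W, v ≠ 0 → (∀ i, i ∉ S → v i = 0) →
      ∃ w ∈ W, w ≠ 0 ∧ (∀ i, i ∉ S → w i = 0) ∧ (∀ t ∈ T, act t w = w) ∧
        ∃ i ∈ S, w i = 1 := by
  classical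
  induction n with
  | zero =>
    intro S hS v _ hv0 hvS
    exfalso
    apply hv0
    have hS0 : S = ∅ := by
      apply Finset.card_eq_zero.mp
      omega
    ext i
    exact hvS i (by simp [hS0])
  | succ n ih =>
    intro S hS v hv hv0 hvS
    by_cases h : ∃ i0 ∈ S, ∃ u ∈ W, u ≠ 0 ∧ (∀ i, i ∉ S.erase i0 → u i = 0)
    · obtain ⟨i0, hi0, u, hu, hu0, huS⟩ := h
      obtain ⟨w, hw, hw0, hwS, hwT, i, hi, hwi⟩ := ih (S.erase i0) (by
        rw [Finset.card_erase_of_mem hi0]; omega) u hu hu0 huS
      exact ⟨w, hw, hw0, fun j hj => hwS j (fun h => hj (Finset.mem_of_mem_erase h)), hwT,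
        i, Finset.mem_of_mem_erase hi, hwi⟩
    · push Not at h
      obtain ⟨i0, hi0⟩ : ∃ i, v i ≠ 0 := by
        by_contra hc
        push Not at hc
        exact hv0 (funext hc)
      have hi0S : i0 ∈ S := by
        by_contra hc
        exact hi0 (hvS i0 hc)
      refine ⟨(v i0)⁻¹ • v, W.smul_mem _ hv, ?_, ?_, ?_, i0, hi0S, ?_⟩
      · intro hc
        have := congrFun hc i0
        simp [hi0] at this
      · intro i hi
        simp [hvS i hi]
      · intro t ht
        by_contra hne
        have hd : act t ((v i0)⁻¹ • v) - (v i0)⁻¹ • v ∈ W :=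
          W.sub_mem (hW t ht _ (W.smul_mem _ hv)) (W.smul_mem _ hv)
        obtain ⟨j, hj, hj2⟩ := h i0 hi0S _ hd (sub_ne_zero.mpr hne)
        apply hj2
        by_cases hj0 : j = i0
        · subst hj0
          simp [hi0]
        · have hjS : j ∉ S := fun h => hj (Finset.mem_erase.mpr ⟨hj0, h⟩)
          simp [hvS j hjS]
      · simp [hi0]

/-- a subspace stable under `T` is spanned by its `T`-fixed vectors -/
theorem span_fixed (T : Set (L →+* L)) (W : Submodule L (ι → L))
    (hW : ∀ t ∈ T, ∀ v ∈ W, act t v ∈ W) :
    W = Submodule.span L {v | v ∈ W ∧ ∀ t ∈ T, act t v = v} := by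
  classical
  have := Fintype.ofFinite ι
  apply le_antisymm
  · have key : ∀ n : ℕ, ∀ S : Finset ι, S.card ≤ n → ∀ v ∈ W, (∀ i, i ∉ S → v i = 0) →
        v ∈ Submodule.span L {v | v ∈ W ∧ ∀ t ∈ T, act t v = v} := by
      intro n
      induction n with
      | zero =>
        intro S hS v _ hvS
        have hS0 : S = ∅ := by
          apply Finset.card_eq_zero.mp
          omega
        have : v = 0 := by
          ext i
          exact hvS i (by simp [hS0])
        rw [this]
        exact Submodule.zero_mem _
      | succ n ih =>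
        intro S hS v hv hvS
        by_cases hv0 : v = 0
        · rw [hv0]; exact Submodule.zero_mem _
        obtain ⟨w, hw, _, hwS, hwT, i, hi, hwi⟩ :=
          exists_fixed T W hW (n + 1) S hS v hv hv0 hvS
        have h1 : v - v i • w ∈ Submodule.span L {v | v ∈ W ∧ ∀ t ∈ T, act t v = v} := by
          refine ih (S.erase i) (by rw [Finset.card_erase_of_mem hi]; omega) _
            (W.sub_mem hv (W.smul_mem _ hw)) ?_
          intro j hj
          by_cases hji : j = i
          · subst hji
            simp [hwi]
          · have hjS : j ∉ S := fun h => hj (Finset.mem_erase.mpr ⟨hji, h⟩)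
            simp [hvS j hjS, hwS j hjS]
        have h2 : v i • w ∈ Submodule.span L {v | v ∈ W ∧ ∀ t ∈ T, act t v = v} :=
          Submodule.smul_mem _ _ (Submodule.subset_span ⟨hw, hwT⟩)
        have := Submodule.add_mem _ h1 h2
        simpa using this
    intro v hv
    exact key _ Finset.univ le_rfl v hv (fun i hi => absurd (Finset.mem_univ i) hi)
  · rw [Submodule.span_le]
    exact fun v hv => hv.1

variable {k : Type*} [Field k] [Algebra k L]

/-- vectors with coordinates in the base field -/
def inc (k : Type*) {L : Type*} [Field k] [Field L] [Algebra k L] {ι : Type*} (v : ι → k) : ι → L :=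
  fun i => algebraMap k L (v i)

@[simp] theorem inc_apply (v : ι → k) (i : ι) : inc k (L := L) v i = algebraMap k L (v i) := rfl

/-- the rational vectors of a subspace -/
def base (k : Type*) {L : Type*} [Field k] [Field L] [Algebra k L] {ι : Type*}
    (W : Submodule L (ι → L)) : Submodule k (ι → k) where
  carrier := {v | inc k v ∈ W}
  add_mem' := by
    intro a b ha hb
    have h : inc k (L := L) (a + b) = inc k a + inc k b := by
      ext i; simp [inc]
    rw [Set.mem_setOf_eq, h]
    exact W.add_mem ha hb
  zero_mem' := by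
    have h : inc k (L := L) (0 : ι → k) = 0 := by
      ext i; simp [inc]
    rw [Set.mem_setOf_eq, h]
    exact W.zero_mem
  smul_mem' := by
    intro c a ha
    have h : inc k (L := L) (c • a) = algebraMap k L c • inc k a := by
      ext i; simp [inc]
    rw [Set.mem_setOf_eq, h]
    exact W.smul_mem _ ha

theorem mem_base (W : Submodule L (ι → L)) (v : ι → k) : v ∈ base k W ↔ inc k v ∈ W := Iff.rfl

theorem span_base (T : Set (L →+* L)) (hT : ∀ x : L, (∀ t ∈ T, t x = x) → x ∈ Set.range (algebraMap k L))
    (W : Submodule L (ι → L)) (hW : ∀ t ∈ T, ∀ v ∈ W, act t v ∈ W) :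
    W = Submodule.span L (inc k '' (base k W : Set (ι → k))) := by
  apply le_antisymm
  · conv_lhs => rw [span_fixed T W hW]
    rw [Submodule.span_le]
    rintro v ⟨hv, hvT⟩
    have h : ∀ i, ∃ a : k, algebraMap k L a = v i := by
      intro i
      exact hT (v i) (fun t ht => congrFun (hvT t ht) i)
    choose a ha using h
    have e : inc k a = v := funext ha
    refine Submodule.subset_span ⟨a, ?_, e⟩
    change inc k a ∈ W
    rw [e]; exact hv
  · rw [Submodule.span_le]
    rintro v ⟨a, ha, rfl⟩
    exact ha

/-- a proper stable subspace has a proper rational subspace -/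
theorem base_ne_top (W : Submodule L (ι → L)) (hW : W ≠ ⊤) : base k W ≠ ⊤ := by
  classical
  have := Fintype.ofFinite ι
  intro h
  apply hW
  rw [eq_top_iff]
  intro v _
  have e : v = ∑ i, v i • (inc k (Pi.single i (1 : k)) : ι → L) := by
    ext j
    simp [Finset.sum_apply, Pi.single_apply]
  rw [e]
  refine Submodule.sum_mem _ fun i _ => Submodule.smul_mem _ _ ?_
  have : (Pi.single i (1 : k) : ι → k) ∈ base k W := by rw [h]; trivial
  exact this

/-- a proper subspace of `ι → k` is killed by a nonzero functional -/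
theorem exists_dual [Fintype ι] (W : Submodule k (ι → k)) (hW : W ≠ ⊤) :
    ∃ y : ι → k, y ≠ 0 ∧ ∀ a ∈ W, ∑ i, a i * y i = 0 := by
  classical
  obtain ⟨f, hf0, hf⟩ := Submodule.exists_le_ker_of_lt_top W (lt_top_iff_ne_top.mpr hW)
  refine ⟨fun i => f (Pi.single i 1), ?_, ?_⟩
  · intro h
    apply hf0
    apply LinearMap.ext
    intro v
    have e : v = ∑ i, v i • (Pi.single i (1 : k) : ι → k) := by
      ext j
      simp [Finset.sum_apply, Pi.single_apply]
    rw [e, map_sum]
    simp only [map_smul, LinearMap.zero_apply]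
    refine Finset.sum_eq_zero fun i _ => ?_
    have := congrFun h i
    simp only [Pi.zero_apply] at this
    rw [this, smul_zero]
  · intro a ha
    have h1 : f a = 0 := hf ha
    have e : a = ∑ i, a i • (Pi.single i (1 : k) : ι → k) := by
      ext j
      simp [Finset.sum_apply, Pi.single_apply]
    rw [e, map_sum] at h1
    simp only [map_smul, smul_eq_mul] at h1
    exact h1

/-- the span of a stable set is stable -/
theorem span_stable (T : Set (L →+* L)) (S : Set (ι → L)) (hS : ∀ t ∈ T, ∀ v ∈ S, act t v ∈ S) :
    ∀ t ∈ T, ∀ v ∈ Submodule.span L S, act t v ∈ Submodule.span L S := by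
  intro t ht v hv
  induction hv using Submodule.span_induction with
  | mem x hx => exact Submodule.subset_span (hS t ht x hx)
  | zero => rw [act_zero]; exact Submodule.zero_mem _
  | add x y _ _ hx hy => rw [act_add]; exact Submodule.add_mem _ hx hy
  | smul c x _ hx => rw [act_smul]; exact Submodule.smul_mem _ _ hx

end alg

section ext

variable {L C : Type*} [Field L] [NormedField C] [CompleteSpace C] [Algebra L C]

/-- isometric automorphisms of a dense subfield extend to the complete field -/
theorem exists_ext (hd : DenseRange (algebraMap L C)) (s : L →+* L)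
    (hs : ∀ a, ‖algebraMap L C (s a)‖ = ‖algebraMap L C a‖) :
    ∃ t : C →+* C, Isometry t ∧ ∀ a, t (algebraMap L C a) = algebraMap L C (s a) := by
  letI : NormedField L := NormedField.induced L C (algebraMap L C) (algebraMap L C).injective
  have hi : Isometry (algebraMap L C) := fun a b => by
    rw [edist_nndist, edist_nndist]
    rfl
  have hiu : IsUniformInducing (algebraMap L C) := hi.isUniformInducing
  have hf : Isometry ((algebraMap L C).comp s) := by
    apply Isometry.of_dist_eq
    intro a b
    rw [← hi.dist_eq a b, dist_eq_norm, dist_eq_norm, ← map_sub, ← map_sub]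
    exact hs (a - b)
  have hfu : UniformContinuous ((algebraMap L C).comp s) := hf.uniformContinuous
  let t : C →+* C := IsDenseInducing.extendRingHom hiu hd hfu
  have hta : ∀ a, t (algebraMap L C a) = algebraMap L C (s a) := by
    intro a
    exact (hiu.isDenseInducing hd).extend_eq hfu.continuous a
  have htc : Continuous t := by
    exact (uniformContinuous_uniformly_extend hiu hd hfu).continuous
  refine ⟨t, ?_, hta⟩
  apply AddMonoidHomClass.isometry_of_norm
  intro x
  have h1 : IsClosed {x : C | ‖t x‖ = ‖x‖} := isClosed_eq (htc.norm) continuous_norm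
  have h2 : Set.range (algebraMap L C) ⊆ {x : C | ‖t x‖ = ‖x‖} := by
    rintro _ ⟨a, rfl⟩
    rw [Set.mem_setOf_eq, hta, hs]
  exact (h1.closure_subset_iff.mpr h2) (hd x)

end ext

section padic

variable {p : ℕ} [Fact p.Prime]

/-- automorphisms of the algebraic closure preserve the norm of `C` -/
theorem norm_inv {K L C : Type*} [Field K] [Algebra ℚ_[p] K] [FiniteDimensional ℚ_[p] K]
    [Field L] [Algebra K L] [Algebra.IsAlgebraic K L]
    [NormedField C] [NormedAlgebra ℚ_[p] C] [IsUltrametricDist C]
    [Algebra K C] [Algebra L C] [IsScalarTower K L C] [IsScalarTower ℚ_[p] K C]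
    (s : L ≃ₐ[K] L) (a : L) : ‖algebraMap L C (s a)‖ = ‖algebraMap L C a‖ := by
  let _ : Algebra ℚ_[p] L := ((algebraMap K L).comp (algebraMap ℚ_[p] K)).toAlgebra
  have : IsScalarTower ℚ_[p] K L := IsScalarTower.of_algebraMap_eq fun _ => rfl
  have : Algebra.IsAlgebraic ℚ_[p] L := Algebra.IsAlgebraic.trans ℚ_[p] K L
  let wC : Valuation C ℝ≥0 :=
    { toFun := fun x => ‖x‖₊
      map_zero' := by simp
      map_one' := by simp
      map_mul' := by intro x y; simp
      map_add_le_max' := fun x y => by
        have := IsUltrametricDist.norm_add_le_max x y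
        exact_mod_cast this }
  let w : Valuation L ℝ≥0 := wC.comap (algebraMap L C)
  have hwq : ∀ q : ℚ_[p], w (algebraMap ℚ_[p] L q) = ‖q‖₊ := by
    intro q
    change ‖algebraMap L C (algebraMap K L (algebraMap ℚ_[p] K q))‖₊ = ‖q‖₊
    rw [← IsScalarTower.algebraMap_apply K L C, ← IsScalarTower.algebraMap_apply ℚ_[p] K C]
    exact nnnorm_algebraMap' C q
  have h := Ax_280.w_inv w hwq s a
  have h2 : (w (s a) : ℝ) = (w a : ℝ) := by rw [h]
  exact h2

/-- the fixed elements of the completion of an algebraic closure -/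
theorem fixed_mem {K L C : Type*} [Field K] [Algebra ℚ_[p] K] [FiniteDimensional ℚ_[p] K]
    [Field L] [Algebra K L] [IsAlgClosed L] [Algebra.IsAlgebraic K L]
    [NormedField C] [NormedAlgebra ℚ_[p] C] [IsUltrametricDist C] [CompleteSpace C]
    [Algebra K C] [Algebra L C] [IsScalarTower K L C] [IsScalarTower ℚ_[p] K C]
    (hd : DenseRange (algebraMap L C)) (x : C)
    (hx : ∀ (s : L ≃ₐ[K] L) (t : C →+* C), Isometry t →
      (∀ a : L, t (algebraMap L C a) = algebraMap L C (s a)) → t x = x) :
    x ∈ Set.range (algebraMap K C) := by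
  refine Ax_280.ax_sen_tate (p := p) (L := L) x (hd x) fun s => ?_
  obtain ⟨t, ht, hta⟩ := exists_ext hd (s : L →+* L) (fun a => norm_inv (p := p) (C := C) s a)
  exact ⟨t, ht, hta, hx s t ht hta⟩

/-- **H-AX** : the `C`-span of a Galois stable set of vectors is defined over `K` -/
theorem hax {K L C : Type*} [Field K] [Algebra ℚ_[p] K] [FiniteDimensional ℚ_[p] K]
    [Field L] [Algebra K L] [IsAlgClosed L] [Algebra.IsAlgebraic K L]
    [NormedField C] [NormedAlgebra ℚ_[p] C] [IsUltrametricDist C] [CompleteSpace C]
    [Algebra K C] [Algebra L C] [IsScalarTower K L C] [IsScalarTower ℚ_[p] K C]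
    (hd : DenseRange (algebraMap L C)) {ι : Type*} [Finite ι] (S : Set (ι → C))
    (hS : ∀ (s : L ≃ₐ[K] L) (t : C →+* C), Isometry t →
      (∀ a : L, t (algebraMap L C a) = algebraMap L C (s a)) → ∀ v ∈ S, act t v ∈ S) :
    Submodule.span C S =
      Submodule.span C (inc K '' (base K (Submodule.span C S) : Set (ι → K))) := by
  let T : Set (C →+* C) := {t | ∃ s : L ≃ₐ[K] L, Isometry t ∧
    ∀ a : L, t (algebraMap L C a) = algebraMap L C (s a)}
  refine span_base T ?_ _ (span_stable T S ?_)
  · intro x hx
    exact fixed_mem (p := p) hd x fun s t ht hta => hx t ⟨s, ht, hta⟩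
  · rintro t ⟨s, ht, hta⟩ v hv
    exact hS s t ht hta v hv

/-- if the span of a Galois stable set is proper, a nonzero vector over `K` kills it -/
theorem hax_dual {K L C : Type*} [Field K] [Algebra ℚ_[p] K] [FiniteDimensional ℚ_[p] K]
    [Field L] [Algebra K L] [IsAlgClosed L] [Algebra.IsAlgebraic K L]
    [NormedField C] [NormedAlgebra ℚ_[p] C] [IsUltrametricDist C] [CompleteSpace C]
    [Algebra K C] [Algebra L C] [IsScalarTower K L C] [IsScalarTower ℚ_[p] K C]
    (hd : DenseRange (algebraMap L C)) {ι : Type*} [Fintype ι] (S : Set (ι → C))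
    (hS : ∀ (s : L ≃ₐ[K] L) (t : C →+* C), Isometry t →
      (∀ a : L, t (algebraMap L C a) = algebraMap L C (s a)) → ∀ v ∈ S, act t v ∈ S)
    (htop : Submodule.span C S ≠ ⊤) :
    ∃ y : ι → K, y ≠ 0 ∧ (∀ a ∈ base K (Submodule.span C S), ∑ i, a i * y i = 0) ∧
      ∀ v ∈ Submodule.span C S, ∑ i, v i * algebraMap K C (y i) = 0 := by
  obtain ⟨y, hy0, hy⟩ := exists_dual _ (base_ne_top (k := K) _ htop)
  refine ⟨y, hy0, hy, ?_⟩
  intro v hv
  rw [hax (p := p) hd S hS] at hv
  induction hv using Submodule.span_induction with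
  | mem x hx =>
    obtain ⟨a, ha, rfl⟩ := hx
    have h := hy a ha
    have h2 := congrArg (algebraMap K C) h
    rw [map_sum, map_zero] at h2
    simpa using h2
  | zero => simp
  | add x z _ _ hx hz =>
    simp only [Pi.add_apply, add_mul, Finset.sum_add_distrib, hx, hz, add_zero]
  | smul c x _ hx =>
    simp only [Pi.smul_apply, smul_eq_mul, mul_assoc, ← Finset.mul_sum, hx, mul_zero]

end padic

end

end Crest.Agent.R013.HAx_381
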