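import Mathlib
import Crest.Agent.R013.HWP5_676

/-!
# R013 / HWP6: the torsion of `Pic` is finite (helper676)

`Ω` an algebraic closure of `K`, `L = K_Ω`, `R` the generic place of `L/Ω`, `P₀` a constant place.
`R - P₀ = N E + div f` (DIV over `Ω`); reciprocity gives, for `div h = N C`,
`h = h(P₀) · (h(E) f(C)) ^ N` in `Ω`, and `h(E) f(C)` lies in a fixed finite extension `M` of `K`.
Kummer theory then bounds `Pic[N]`.
-/

set_option autoImplicit false
set_option linter.all false
namespace Crest.Agent.R013.HWP_676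
open WithZero Module TensorProduct
open Crest.Agent.R013.RR7_948 Crest.Agent.R013.RR8_948 Crest.Agent.R013.RR9_948
open Crest.Agent.R013.RR11_948 Crest.Agent.R013.RR13_948 Crest.Agent.R013.PicD_398
open Crest.Agent.R013.RR1_948 Crest.Agent.R013.RR2_948
open Crest.Agent.R013.RR12_948
open Crest.Agent.R013.RR18_948 Crest.Agent.R013.RR19_948 Crest.Agent.R013.RR20_948
open Crest.Agent.R013.RR21_948 Crest.Agent.R013.RR22_948
open Crest.Agent.R013.WR1_777 Crest.Agent.R013.WR2_777 Crest.Agent.R013.WR3_777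
open Crest.Agent.R013.WR4_777 Crest.Agent.R013.WR5_777
open Crest.Agent.R013.CE1_280
open Crest.Agent.R013.CE2_280 (xK_notMem_range algebraMap_poly_K)
open Crest.Agent.R013.CE3_280 Crest.Agent.R013.CE5_280
open Crest.Agent.R013.CE9_280 Crest.Agent.R013.CE10_280 Crest.Agent.R013.Div1_280
open Crest.Agent.R013.Div2_280

universe u v

section kummer

variable {K Ω : Type*} [Field K] [CharZero K] [Field Ω] [Algebra K Ω] [IsAlgClosed Ω]
  [Algebra.IsAlgebraic K Ω]

theorem isGalois_of_algClosed : IsGalois K Ω := by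
  haveI : Normal K Ω := by
    haveI : IsAlgClosure K Ω := ⟨inferInstance, inferInstance⟩
    exact IsAlgClosure.normal K Ω
  exact ⟨⟩

/-- Kummer: finitely many classes modulo `N`-th powers become `N`-th powers in a finite
extension -/
theorem finite_of_kummer (M : IntermediateField K Ω) [FiniteDimensional K M] {N : ℕ}
    (hN : N ≠ 0) {T : Type*} (h : T → K) (r : T → M)
    (hr : ∀ c, ((r c : M) : Ω) ^ N = algebraMap K Ω (h c)) (h0 : ∀ c, h c ≠ 0)
    (hinj : ∀ (c c' : T) (s : K), s ≠ 0 → h c = h c' * s ^ N → c = c') : Finite T := by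
  classical
  haveI : IsGalois K Ω := isGalois_of_algClosed
  haveI : Finite {x : Ω // x ^ N = 1} := by
    have : {x : Ω | x ^ N = 1}.Finite := by
      refine (Polynomial.nthRootsFinset N (1 : Ω)).finite_toSet.subset fun x hx => ?_
      rw [Finset.mem_coe, Polynomial.mem_nthRootsFinset (Nat.pos_of_ne_zero hN)]
      exact hx
    exact this
  have hr0 : ∀ c, ((r c : M) : Ω) ≠ 0 := by
    intro c hc
    have := hr c
    rw [hc, zero_pow hN] at this
    exact h0 c ((map_eq_zero _).mp this.symm)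
  have hr0' : ∀ c, r c ≠ 0 := fun c hc => hr0 c (by rw [hc]; rfl)
  have hsN : ∀ (σ : M →ₐ[K] Ω) c, (σ (r c)) ^ N = algebraMap K Ω (h c) := by
    intro σ c
    rw [← map_pow]
    have h1 : (r c) ^ N = algebraMap K M (h c) := by
      apply Subtype.ext
      exact hr c
    rw [h1, AlgHom.commutes]
  let Φ : T → (M →ₐ[K] Ω) → {x : Ω // x ^ N = 1} := fun c σ =>
    ⟨σ (r c) / (r c : Ω), by
      rw [div_pow, hsN, hr, div_self ((map_ne_zero _).mpr (h0 c))]⟩
  refine Finite.of_injective Φ fun c c' hcc => ?_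
  have h1 : ((r c : M) : Ω) / (r c' : M) ∈ Set.range (algebraMap K Ω) := by
    rw [InfiniteGalois.mem_range_algebraMap_iff_fixed]
    intro σ
    have h2 := congrArg Subtype.val (congrFun hcc ((σ : Ω →ₐ[K] Ω).comp M.val))
    have h3 : σ (r c : Ω) / (r c : Ω) = σ (r c' : Ω) / (r c' : Ω) := h2
    rw [map_div₀]
    rw [div_eq_div_iff (hr0 c) (hr0 c')] at h3
    rw [div_eq_div_iff ((map_ne_zero _).mpr (hr0 c')) (hr0 c')]
    rw [h3, mul_comm]
  obtain ⟨s, hs⟩ := h1
  have hs0 : s ≠ 0 := by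
    rintro rfl
    rw [map_zero] at hs
    exact div_ne_zero (hr0 c) (hr0 c') hs.symm
  refine hinj c c' s hs0 ?_
  apply (algebraMap K Ω).injective
  rw [map_mul, map_pow, hs, div_pow, hr, hr, mul_div_cancel₀]
  exact fun h' => h0 c' ((map_eq_zero _).mp h')

end kummer

section geo

variable {F K Ω L : Type*} [Field F] [IsAlgClosed F] [Field K] [Algebra F K]
  [Algebra (RatFunc F) K] [IsScalarTower F (RatFunc F) K] [FiniteDimensional (RatFunc F) K]
  [Algebra.IsSeparable (RatFunc F) K]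
  [Field Ω] [Algebra F Ω] [IsAlgClosed Ω] [Algebra K Ω] [IsScalarTower F K Ω]
  [Algebra.IsAlgebraic K Ω]
  [Field L] [Algebra Ω L] [Algebra F L] [IsScalarTower F Ω L]
  [Algebra (RatFunc Ω) L] [IsScalarTower Ω (RatFunc Ω) L]
  [FiniteDimensional (RatFunc Ω) L] [Algebra.IsSeparable (RatFunc Ω) L]
  {ι : K →ₐ[F] L}

theorem mem_of_gens (Q : K →ₐ[F] Ω) (M : IntermediateField K Ω)
    (hx : Q (xK F K) ∈ M) (hb : ∀ i, Q (Module.finBasis (RatFunc F) K i) ∈ M) (f : K) :
    Q f ∈ M := by
  have h1 : ∀ p : Polynomial F, Q (Polynomial.aeval (xK F K) p) ∈ M := by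
    intro p
    rw [← Polynomial.aeval_algHom_apply]
    have h2 : Polynomial.aeval (Q (xK F K)) p
        = ((Polynomial.aeval (⟨Q (xK F K), hx⟩ : M) p : M) : Ω) := by
      induction p using Polynomial.induction_on with
      | C a =>
        rw [Polynomial.aeval_C, Polynomial.aeval_C]
        rw [IsScalarTower.algebraMap_apply F K Ω, IsScalarTower.algebraMap_apply F K M]
        rfl
      | add p q hp hq => rw [map_add, map_add, hp, hq]; rfl
      | monomial n a h =>
        rw [pow_succ, ← mul_assoc, map_mul _ (Polynomial.C a * Polynomial.X ^ n) Polynomial.X,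
          map_mul _ (Polynomial.C a * Polynomial.X ^ n) Polynomial.X, h, Polynomial.aeval_X,
          Polynomial.aeval_X]
        rfl
    rw [h2]
    exact SetLike.coe_mem _
  have h2 : ∀ r : RatFunc F, Q (algebraMap (RatFunc F) K r) ∈ M := by
    intro r
    induction r using RatFunc.induction_on with
    | f p q hq =>
      rw [map_div₀, map_div₀, algebraMap_poly_K, algebraMap_poly_K]
      exact M.div_mem (h1 p) (h1 q)
  rw [← (Module.finBasis (RatFunc F) K).sum_repr f, map_sum]
  refine M.sum_mem fun i _ => ?_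
  rw [Algebra.smul_def, map_mul]
  exact M.mul_mem (h2 _) (hb i)

/-- the values of functions of `K` at a fixed place of `L` generate a finite extension of `K` -/
theorem exists_gens (hι : IsCE Ω ι) (w : Pl Ω L) : ∃ S : Finset Ω, ∀ M : IntermediateField K Ω,
    (∀ x ∈ S, x ∈ M) → ∀ (h : K) (c : Ω), w.v (ι h - algebraMap Ω L c) < 1 → c ∈ M := by
  classical
  rcases cases hι w with ⟨P, rfl⟩ | ⟨Q, rfl⟩
  · refine ⟨∅, fun M _ h c hc => ?_⟩
    have hle : P.v h ≤ 1 := by
      rw [← (conP_Over hι P).v_iota hι h]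
      have h1 : ι h = (ι h - algebraMap Ω L c) + algebraMap Ω L c := by ring
      rw [h1]
      exact (Valuation.map_add _ _ _).trans (max_le hc.le (v_algebraMap_le _ _))
    obtain ⟨a, ha⟩ := exists_residue P hle
    have h2 : (conP hι P).v (ι h - algebraMap Ω L (algebraMap F Ω a)) < 1 := by
      rw [← (conP_Over hι P).v_iota hι] at ha
      rwa [map_sub, AlgHom.commutes, IsScalarTower.algebraMap_apply F Ω L] at ha
    rw [residue_unique _ hc h2, IsScalarTower.algebraMap_apply F K Ω]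
    exact M.algebraMap_mem _
  · refine ⟨insert (Q (xK F K)) (Finset.univ.image fun i =>
      Q (Module.finBasis (RatFunc F) K i)), fun M hM h c hc => ?_⟩
    have h2 : (plQ hι Q).v (ι h - algebraMap Ω L (Q h)) < 1 := plQ_At hι Q h
    rw [residue_unique _ hc h2]
    refine mem_of_gens Q M (hM _ (Finset.mem_insert_self _ _)) (fun i => hM _ ?_) h
    exact Finset.mem_insert_of_mem (Finset.mem_image_of_mem _ (Finset.mem_univ i))

theorem mem_of_fixed [CharZero K] (M : IntermediateField K Ω) {c : Ω}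
    (h : ∀ σ : Ω ≃ₐ[K] Ω, (∀ x ∈ M, σ x = x) → σ c = c) : c ∈ M := by
  haveI : IsGalois K Ω := isGalois_of_algClosed
  rw [← InfiniteGalois.fixedField_fixingSubgroup M, IntermediateField.mem_fixedField_iff]
  intro σ hσ
  exact h σ fun x hx => (IntermediateField.mem_fixingSubgroup_iff M σ).mp hσ x hx

/-- the values of a function of `L` at the constant places lie in a finite extension of `K` -/
theorem exists_gens_const [CharZero K] (hι : IsCE Ω ι) (f : L) : ∃ S : Finset Ω,
    ∀ M : IntermediateField K Ω, (∀ x ∈ S, x ∈ M) → ∀ (P : Pl F K) (c : Ω),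
      (conP hι P).v (f - algebraMap Ω L c) < 1 → c ∈ M := by
  classical
  have key : ∀ t : Ω ⊗[F] K, ∃ S : Finset Ω, ∀ (σ : Ω ≃ₐ[F] Ω) (s : L ≃+* L), IsLift ι σ s →
      (∀ x ∈ S, σ x = x) → s (mu ι t) = mu ι t := by
    intro t
    induction t using TensorProduct.induction_on with
    | zero => exact ⟨∅, fun σ s _ _ => by rw [map_zero, map_zero]⟩
    | tmul c k =>
      refine ⟨{c}, fun σ s hs hc => ?_⟩
      rw [mu_tmul, map_mul, hs.const, hs.iota, hc c (Finset.mem_singleton_self c)]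
    | add a b ha hb =>
      obtain ⟨S, hS⟩ := ha
      obtain ⟨S', hS'⟩ := hb
      refine ⟨S ∪ S', fun σ s hs hc => ?_⟩
      rw [map_add, map_add, hS σ s hs fun x hx => hc x (Finset.mem_union_left _ hx),
        hS' σ s hs fun x hx => hc x (Finset.mem_union_right _ hx)]
  obtain ⟨a, b, hb, hab⟩ := hι.frac f
  obtain ⟨S, hS⟩ := key a
  obtain ⟨S', hS'⟩ := key b
  refine ⟨S ∪ S', fun M hM P c hc => mem_of_fixed M fun σ hσ => ?_⟩
  obtain ⟨s, hs⟩ := exists_lift hι (σ.restrictScalars F)
  have hf : s f = f := by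
    have h1 := hS _ s hs fun x hx => hσ x (hM x (Finset.mem_union_left _ hx))
    have h2 := hS' _ s hs fun x hx => hσ x (hM x (Finset.mem_union_right _ hx))
    have h3 := congrArg s hab
    rw [map_mul, h1, h2, ← hab] at h3
    exact mul_right_cancel₀ (hι.ne_zero hb) h3
  have h3 := act_v hs (conP hι P) (f - algebraMap Ω L c)
  rw [act_conP, map_sub, hf, hs.const] at h3
  exact residue_unique _ (lt_of_eq_of_lt h3 hc) hc

theorem ev_mem (M : IntermediateField K Ω) (g : L) (D : Pl Ω L →₀ ℤ)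
    (h : ∀ w : Pl Ω L, D w ≠ 0 → ∀ c : Ω, w.v (g - algebraMap Ω L c) < 1 → c ∈ M) :
    ((ev g D : Ωˣ) : Ω) ∈ M := by
  unfold ev pw
  rw [Finsupp.prod, Units.coe_prod]
  refine prod_mem fun w hw => ?_
  rw [Units.val_zpow_eq_zpow_val]
  refine zpow_mem ?_ _
  by_cases h1 : w.v g = 1
  · exact h w (Finsupp.mem_support_iff.mp hw) _ (nrm_spec h1)
  · show ((nrm w g : Ωˣ) : Ω) ∈ M
    rw [nrm_of_ne h1]; exact M.one_mem

theorem divf_iota (hι : IsCE Ω ι) {h : K} (h0 : h ≠ 0) :
    divf (k := Ω) (ι h) = base hι (divf (k := F) h) := by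
  have hi0 : ι h ≠ 0 := (map_ne_zero _).mpr h0
  ext w
  rcases cases hι w with ⟨P, rfl⟩ | ⟨Q, rfl⟩
  · have h1 := (conP_Over hι P).v_iota hι h
    rw [v_eq (k := Ω) hi0, v_eq (k := F) h0, exp_inj, neg_inj] at h1
    rw [h1, base_conP]
  · have h1 := (plQ_At hι Q).iota_eq_one h0
    rw [(v_eq_one_iff hi0 _).mp h1, base_plQ]

/-- **the key construction**: every `N`-torsion class has a representative whose function becomes
an `N`-th power in a fixed finite extension of `K` -/
theorem exists_root [CharZero F] (hι : IsCE Ω ι) {N : ℕ} (hN : N ≠ 0) :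
    ∃ (M : IntermediateField K Ω) (_ : FiniteDimensional K M), ∀ c : Pic F K, N • c = 0 →
      ∃ (C : Pl F K →₀ ℤ) (h : K) (r : M), cls C = c ∧ Rep N C h ∧
        ((r : M) : Ω) ^ N = algebraMap K Ω h := by
  classical
  haveI : CharZero Ω := charZero_of_injective_algebraMap (algebraMap F Ω).injective
  haveI : CharZero K := charZero_of_injective_algebraMap (algebraMap F K).injective
  let Q₀ : K →ₐ[F] Ω := IsScalarTower.toAlgHom F K Ω
  obtain ⟨P₀, _⟩ := exists_notMem (k := F) (K := K) ∅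
  set D : Pl Ω L →₀ ℤ := Finsupp.single (plQ hι Q₀) 1 - Finsupp.single (conP hι P₀) 1 with hD
  have hD0 : degD D = 0 := by
    rw [hD, degD_sub, degD_single, degD_single, degP1, degP1, sub_self]
  obtain ⟨E, f, hf, -, hE⟩ := Crest.Agent.R013.Div6_280.exists_div (Nat.pos_of_ne_zero hN) hD0
  choose S hS using exists_gens (K := K) (Ω := Ω) hι
  obtain ⟨S', hS'⟩ := exists_gens_const (K := K) (Ω := Ω) hι f
  let G : Finset Ω := E.support.biUnion S ∪ S'
  let M : IntermediateField K Ω := IntermediateField.adjoin K (G : Set Ω)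
  haveI hM : FiniteDimensional K M := by
    refine IntermediateField.finiteDimensional_adjoin fun x _ => ?_
    exact (Algebra.IsAlgebraic.isAlgebraic (R := K) x).isIntegral
  have hGM : ∀ x ∈ G, x ∈ M := fun x hx => IntermediateField.subset_adjoin K _ hx
  refine ⟨M, hM, fun c hc => ?_⟩
  -- a representative away from `P₀` and the constant part of `E`
  let Z : Finset (Pl F K) := insert P₀ (E.support.preimage (conP hι) (conP_injective hι).injOn)
  let B₀ : Pl F K →₀ ℤ := Finsupp.indicator Z fun _ _ => 1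
  obtain ⟨C, h, hC, hR, hdis⟩ := exists_rep hc B₀
  have hZ : ∀ P ∈ Z, C P = 0 := by
    intro P hP
    refine (hdis P).resolve_left ?_
    show Finsupp.indicator Z (fun _ _ => (1 : ℤ)) P ≠ 0
    rw [Finsupp.indicator_of_mem hP]
    exact one_ne_zero
  have hi0 : ι h ≠ 0 := (map_ne_zero _).mpr hR.ne
  have hRep : Rep N (base hι C) (ι h) := ⟨hi0, by rw [divf_iota hι hR.ne, hR.eq, map_nsmul]⟩
  have hdE : Dis (base hι C) E := by
    intro w
    by_cases hw : E w = 0
    · exact Or.inr hw
    · left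
      rcases cases hι w with ⟨P, rfl⟩ | ⟨Q, rfl⟩
      · rw [base_conP]
        refine hZ P (Finset.mem_insert_of_mem ?_)
        rw [Finset.mem_preimage, Finsupp.mem_support_iff]
        exact hw
      · rw [base_plQ]
  have hdD : Dis (base hι C) D := by
    intro w
    rcases cases hι w with ⟨P, rfl⟩ | ⟨Q, rfl⟩
    · by_cases hP : P = P₀
      · left; rw [base_conP]; exact hZ P (by rw [hP]; exact Finset.mem_insert_self _ _)
      · right
        rw [hD, Finsupp.sub_apply, Finsupp.single_eq_of_ne, Finsupp.single_eq_of_ne, sub_zero]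
        · exact fun h' => hP (conP_injective hι h')
        · exact conP_ne_plQ hι P Q₀
    · left; rw [base_plQ]
  have hdf : Dis (divf (k := Ω) (ι h)) (divf (k := Ω) f) := by
    have h1 : divf (k := Ω) f = D - N • E := by rw [hE]; abel
    rw [h1, hRep.eq]
    exact ((hdD.sub (hdE.nsmul N)).symm.nsmul N).symm
  -- reciprocity
  have hrec : ev (ι h) D = (ev (ι h) E * ev f (base hι C)) ^ N := by
    conv_lhs => rw [hE]
    rw [ev_add_right, ev_nsmul_right, recip hi0 hf hdf, hRep.eq, ev_nsmul_right, mul_pow]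
  have hval : ev (ι h) (Finsupp.single (plQ hι Q₀) 1 : Pl Ω L →₀ ℤ)
      = Units.mk0 (algebraMap K Ω h) ((map_ne_zero _).mpr hR.ne) := by
    unfold ev
    rw [pw_single, zpow_one]
    exact nrm_unique (plQ_At hι Q₀ h)
  have hP0 : C P₀ = 0 := hZ P₀ (Finset.mem_insert_self _ _)
  have hv0 : P₀.v h = 1 := by
    rw [v_eq_one_iff hR.ne, hR.eq, Finsupp.smul_apply, hP0, smul_zero]
  obtain ⟨u, hu⟩ : ∃ u : Ω, u ∈ M ∧ ((ev (ι h) (Finsupp.single (conP hι P₀) 1 : Pl Ω L →₀ ℤ) :
      Ωˣ) : Ω) = u ^ N := by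
    obtain ⟨a, ha⟩ := exists_residue P₀ hv0.le
    obtain ⟨b, hb⟩ := IsAlgClosed.exists_pow_nat_eq a (Nat.pos_of_ne_zero hN)
    refine ⟨algebraMap F Ω b, ?_, ?_⟩
    · rw [IsScalarTower.algebraMap_apply F K Ω]; exact M.algebraMap_mem _
    · rw [← map_pow, hb]
      unfold ev
      rw [pw_single, zpow_one]
      have h2 : (conP hι P₀).v (ι h - algebraMap Ω L (algebraMap F Ω a)) < 1 := by
        rw [← (conP_Over hι P₀).v_iota hι] at ha
        rwa [map_sub, AlgHom.commutes, IsScalarTower.algebraMap_apply F Ω L] at ha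
      have h3 : (conP hι P₀).v (ι h) = 1 := by rw [(conP_Over hι P₀).v_iota hι, hv0]
      exact residue_unique _ (nrm_spec h3) h2
  have hm1 : ((ev (ι h) E : Ωˣ) : Ω) ∈ M := by
    refine ev_mem M _ _ fun w hw a ha => ?_
    refine hS w M (fun x hx => hGM x ?_) h a ha
    exact Finset.mem_union_left _ (Finset.mem_biUnion.mpr ⟨w, Finsupp.mem_support_iff.mpr hw, hx⟩)
  have hm2 : ((ev f (base hι C) : Ωˣ) : Ω) ∈ M := by
    refine ev_mem M _ _ fun w hw a ha => ?_
    rcases cases hι w with ⟨P, rfl⟩ | ⟨Q, rfl⟩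
    · exact hS' M (fun x hx => hGM x (Finset.mem_union_right _ hx)) P a ha
    · exact absurd (base_plQ hι C Q) hw
  refine ⟨C, h, ⟨u * ((ev (ι h) E : Ωˣ) * (ev f (base hι C) : Ωˣ)),
    M.mul_mem hu.1 (M.mul_mem hm1 hm2)⟩, hC, hR, ?_⟩
  have h4 : ev (ι h) D = ev (ι h) (Finsupp.single (plQ hι Q₀) 1 : Pl Ω L →₀ ℤ) /
      ev (ι h) (Finsupp.single (conP hι P₀) 1 : Pl Ω L →₀ ℤ) := by
    rw [hD, ev_sub_right]
  rw [hrec, hval, eq_div_iff_mul_eq'] at h4
  have h5 := congrArg (Units.val) h4
  rw [Units.val_mul, Units.val_mk0, Units.val_pow_eq_pow_val, Units.val_mul, hu.2, ← mul_pow] at h5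
  rw [← h5]
  push_cast
  ring

end geo

section main

variable {k : Type u} [Field k] [IsAlgClosed k] [CharZero k] {K : Type v} [Field K] [Algebra k K]
  [Algebra (RatFunc k) K] [IsScalarTower k (RatFunc k) K] [FiniteDimensional (RatFunc k) K]
  [Algebra.IsSeparable (RatFunc k) K]

/-- **`Pic[N]` is finite** -/
theorem finite_torsion {N : ℕ} (hN : N ≠ 0) : Finite {c : Pic k K // N • c = 0} := by
  haveI : CharZero K := charZero_of_injective_algebraMap (algebraMap k K).injective
  let Ω := AlgebraicClosure K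
  haveI : CharZero Ω := charZero_of_injective_algebraMap (algebraMap K Ω).injective
  haveI : CharZero (RatFunc Ω) :=
    charZero_of_injective_algebraMap (algebraMap Ω (RatFunc Ω)).injective
  obtain ⟨M, hM, h⟩ := exists_root (K := K) (Ω := Ω) (isCE k K Ω) hN
  choose! C h r hC hR hr using h
  refine finite_of_kummer M hN (fun c : {c : Pic k K // N • c = 0} => h c.1) (fun c => r c.1)
    (fun c => hr c.1 c.2) (fun c => (hR c.1 c.2).ne) fun c c' s hs hcc => ?_
  apply Subtype.ext
  rw [← hC c.1 c.2, ← hC c'.1 c'.2, cls_eq_iff]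
  refine ⟨s, hs, ?_⟩
  have h1 := congrArg (divf (k := k)) hcc
  rw [divf_mul (hR c'.1 c'.2).ne (pow_ne_zero _ hs), divf_pow hs, (hR c.1 c.2).eq,
    (hR c'.1 c'.2).eq, ← nsmul_add] at h1
  exact nsmul_right_injective hN h1

end main

end Crest.Agent.R013.HWP_676
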