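import Mathlib
import Crest.Agent.R013.HWP6_676

/-!
# R013 / HWP7: the Weil pairing is perfect (helper676)
-/

set_option autoImplicit false
set_option linter.all false
namespace Crest.Agent.R013.HWP_676
open Module
open Crest.Agent.R013.RR7_948 Crest.Agent.R013.RR8_948 Crest.Agent.R013.RR9_948
open Crest.Agent.R013.RR11_948 Crest.Agent.R013.RR13_948 Crest.Agent.R013.PicD_398

universe u v

variable {k : Type u} [Field k] {K : Type v} [Field K] [Algebra k K]
  [Algebra (RatFunc k) K] [IsScalarTower k (RatFunc k) K] [FiniteDimensional (RatFunc k) K]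
  [Algebra.IsSeparable (RatFunc k) K]

/-- the `N`-torsion of `Pic` as a subgroup -/
noncomputable def tor (k : Type u) [Field k] (K : Type v) [Field K] [Algebra k K]
    [Algebra (RatFunc k) K] [IsScalarTower k (RatFunc k) K] [FiniteDimensional (RatFunc k) K]
    [Algebra.IsSeparable (RatFunc k) K] (N : ℕ) : AddSubgroup (Pic k K) :=
  (nsmulAddMonoidHom (α := Pic k K) N).ker

theorem mem_tor {N : ℕ} {c : Pic k K} : c ∈ tor k K N ↔ N • c = 0 := Iff.rfl

variable [IsAlgClosed k] [CharZero k]

/-- the pairing with a fixed class -/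
noncomputable def wpHom {N : ℕ} (hN : N ≠ 0) (b : tor k K N) :
    Multiplicative (tor k K N) →* kˣ where
  toFun c := wp N b.1 (Multiplicative.toAdd c).1
  map_one' := wp_zero_right hN b.2
  map_mul' c c' := wp_add_right hN b.2 (Multiplicative.toAdd c).2 (Multiplicative.toAdd c').2

theorem finite_tor {N : ℕ} (hN : N ≠ 0) : Finite (tor k K N) := finite_torsion hN

/-- **the Weil pairing is perfect**: every homomorphism `Pic[N] → kˣ` is the pairing with a unique
class -/
theorem wpHom_bijective {N : ℕ} (hN : N ≠ 0) :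
    Function.Bijective (wpHom (k := k) (K := K) hN) := by
  haveI : Finite (tor k K N) := finite_tor hN
  haveI : Finite (Multiplicative (tor k K N)) := inferInstanceAs (Finite (tor k K N))
  have hexp : Monoid.exponent (Multiplicative (tor k K N)) ∣ N := by
    refine Monoid.exponent_dvd_of_forall_pow_eq_one fun g => ?_
    apply Multiplicative.toAdd.injective
    apply Subtype.ext
    exact (Multiplicative.toAdd g).2
  haveI : NeZero (Monoid.exponent (Multiplicative (tor k K N))) :=
    ⟨fun h => hN (Nat.eq_zero_of_zero_dvd (h ▸ hexp))⟩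
  haveI : NeZero N := ⟨hN⟩
  have hinj : Function.Injective (wpHom (k := k) (K := K) hN) := by
    intro b b' h
    apply Subtype.ext
    rw [← sub_eq_zero]
    have hb : N • (b.1 - b'.1) = 0 := (tor k K N).sub_mem b.2 b'.2
    refine wp_nondeg hN hb fun c hc => ?_
    have h1 := DFunLike.congr_fun h (Multiplicative.ofAdd (⟨c, hc⟩ : tor k K N))
    have h2 : wp N b.1 c = wp N b'.1 c := h1
    have h3 := wp_add_left hN hb b'.2 hc
    rw [sub_add_cancel, h2] at h3
    exact (mul_eq_right.mp h3.symm)
  haveI : Finite (Multiplicative (tor k K N) →* kˣ) := by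
    apply Nat.finite_of_card_ne_zero
    rw [CommGroup.card_monoidHom_of_hasEnoughRootsOfUnity]
    exact Nat.card_pos.ne'
  rw [Nat.bijective_iff_injective_and_card]
  exact ⟨hinj, (CommGroup.card_monoidHom_of_hasEnoughRootsOfUnity (Multiplicative (tor k K N)) k).symm⟩

/-- perfectness, plain form -/
theorem wp_perfect {N : ℕ} (hN : N ≠ 0) (ρ : Pic k K → kˣ)
    (hρ : ∀ c c', N • c = 0 → N • c' = 0 → ρ (c + c') = ρ c * ρ c') :
    ∃ b : Pic k K, N • b = 0 ∧ ∀ c, N • c = 0 → ρ c = wp N b c := by
  let φ : Multiplicative (tor k K N) →* kˣ := MonoidHom.mk' (fun c => ρ (Multiplicative.toAdd c).1)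
    fun c c' => hρ _ _ (Multiplicative.toAdd c).2 (Multiplicative.toAdd c').2
  obtain ⟨b, hb⟩ := (wpHom_bijective (k := k) (K := K) hN).2 φ
  refine ⟨b.1, b.2, fun c hc => ?_⟩
  exact (DFunLike.congr_fun hb (Multiplicative.ofAdd (⟨c, hc⟩ : tor k K N))).symm

/-- perfectness for values in the roots of unity of a bigger field: a homomorphism
`Pic[N] → Cˣ` comes from `kˣ` -/
theorem wp_perfect' {C : Type*} [Field C] [Algebra k C] {N : ℕ} (hN : N ≠ 0) (ρ : Pic k K → Cˣ)
    (hρ : ∀ c c', N • c = 0 → N • c' = 0 → ρ (c + c') = ρ c * ρ c') :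
    ∃ b : Pic k K, N • b = 0 ∧ ∀ c, N • c = 0 →
      (ρ c : C) = algebraMap k C (wp N b c : kˣ) := by
  classical
  haveI : NeZero N := ⟨hN⟩
  have hroot : ∀ c : Pic k K, N • c = 0 → ∃ u : kˣ, Units.map (algebraMap k C).toMonoidHom u = ρ c := by
    intro c hc
    have h1 : ρ 0 = 1 := by
      have := hρ 0 0 (nsmul_zero N) (nsmul_zero N)
      rw [add_zero] at this
      exact mul_eq_left.mp this.symm
    have h2 : ∀ m : ℕ, ρ (m • c) = ρ c ^ m := by
      intro m
      induction m with
      | zero => rw [zero_nsmul, pow_zero, h1]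
      | succ m ih =>
        rw [succ_nsmul, hρ _ _ (by rw [← mul_nsmul', mul_nsmul, hc, nsmul_zero]) hc, ih, pow_succ]
    have h3 : ρ c ^ N = 1 := by rw [← h2, hc, h1]
    obtain ⟨ζ, hζ⟩ := HasEnoughRootsOfUnity.exists_primitiveRoot k N
    have hζ' : IsPrimitiveRoot (algebraMap k C ζ) N := hζ.map_of_injective (algebraMap k C).injective
    obtain ⟨i, _, hi⟩ := hζ'.eq_pow_of_pow_eq_one (ξ := (ρ c : C)) (by
      rw [← Units.val_pow_eq_pow_val, h3, Units.val_one])
    refine ⟨(Units.mk0 ζ (hζ.ne_zero hN)) ^ i, ?_⟩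
    ext
    rw [← hi]
    simp
  choose! u hu using hroot
  have hinj : Function.Injective (Units.map (algebraMap k C).toMonoidHom) :=
    Units.map_injective (algebraMap k C).injective
  obtain ⟨b, hb, h⟩ := wp_perfect (k := k) (K := K) hN u (fun c c' hc hc' => by
    apply hinj
    rw [map_mul, hu c hc, hu c' hc', hu (c + c') (by rw [nsmul_add, hc, hc', add_zero]),
      hρ c c' hc hc'])
  refine ⟨b, hb, fun c hc => ?_⟩
  rw [← h c hc, ← hu c hc]
  rfl

end Crest.Agent.R013.HWP_676
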