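import Crest.Agent.R013.NidE_429

/-!
# R013 / Nid (helper429): no infinitely divisible classes

`k` finite over `ℚ_[p]`, `K/k` a function field with `k` algebraically closed in `K`: a divisor
whose class is divisible by every positive integer is principal.
-/

set_option autoImplicit false
set_option linter.all false

namespace Crest.Agent.R013.NidC_429

open WithZero Module Filter Topology
open Crest.Agent.R013.RR7_948 Crest.Agent.R013.RR8_948 Crest.Agent.R013.RR9_948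
open Crest.Agent.R013.RR11_948 Crest.Agent.R013.RR12_948 Crest.Agent.R013.PicD_398
open Crest.Agent.R013.NidA_429 Crest.Agent.R013.NidB_429

section final

variable {p : ℕ} [Fact p.Prime] {k : Type*} [Field k] [Algebra ℚ_[p] k]
  [FiniteDimensional ℚ_[p] k] {K : Type*} [Field K] [Algebra k K] [Algebra (RatFunc k) K]
  [IsScalarTower k (RatFunc k) K] [FiniteDimensional (RatFunc k) K]
  [Algebra.IsSeparable (RatFunc k) K] [Algebra ℚ_[p] K] [IsScalarTower ℚ_[p] k K]
  {R : Pl k K →₀ ℤ}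

variable (p R) in
/-- classes which move effective divisors inside their residue class mod `p^i` -/
def Mon {m : ℕ} (b : Fin m → K) (i : ℕ) : AddSubmonoid (Pl k K →₀ ℤ) where
  carrier := {x | degD x = 0 ∧ ∀ E ∈ Eff R, ∃ E' ∈ Eff R,
    (∃ f : K, f ≠ 0 ∧ E' = E + x + divf (k := k) f) ∧ rho p R b i E' = rho p R b i E}
  add_mem' := by
    rintro x y ⟨hx, hx2⟩ ⟨hy, hy2⟩
    refine ⟨by rw [degD_add, hx, hy, add_zero], fun E hE => ?_⟩
    obtain ⟨E', hE', ⟨f, hf, hf2⟩, h1⟩ := hx2 E hE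
    obtain ⟨E'', hE'', ⟨g, hg, hg2⟩, h2⟩ := hy2 E' hE'
    refine ⟨E'', hE'', ⟨f * g, mul_ne_zero hf hg, ?_⟩, h2.trans h1⟩
    rw [hg2, hf2, divf_mul hf hg]
    abel
  zero_mem' := ⟨degD_zero, fun E hE => ⟨E, hE, ⟨1, one_ne_zero, by
    rw [divf_one, add_zero, add_zero]⟩, rfl⟩⟩

variable (p R) in
/-- generators: differences of effective divisors with the same residue mod `p^j`, and principal
divisors -/
def Gen {m : ℕ} (b : Fin m → K) (j : ℕ) : Set (Pl k K →₀ ℤ) :=
  {x | ∃ F ∈ Eff R, ∃ G ∈ Eff R, rho p R b j F = rho p R b j G ∧ x = F - G} ∪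
    {x | ∃ f : K, f ≠ 0 ∧ x = divf (k := k) f}

theorem exists_R (hc : algebraicClosure k K = ⊥) :
    ∃ R : Pl k K →₀ ℤ, 3 * (gen k K : ℤ) + 1 ≤ degD R := by
  obtain ⟨P, -⟩ := exists_notMem (k := k) (K := K) ∅
  refine ⟨Finsupp.single P (3 * (gen k K : ℤ) + 1), ?_⟩
  rw [degD_single]
  have h1 : (1 : ℤ) ≤ degP P := by exact_mod_cast degP_pos P
  have h2 : (0 : ℤ) ≤ gen k K := Int.natCast_nonneg _
  nlinarith

/-- small differences act without changing residues -/
theorem exists_small (hc : algebraicClosure k K = ⊥) (hR : 3 * (gen k K : ℤ) + 1 ≤ degD R)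
    {m : ℕ} {b : Fin m → K} (hb : LinearIndependent ℚ_[p] b)
    (hb2 : ∀ a ∈ LD (2 • R), ∃ y : Fin m → ℚ_[p], a = ∑ i, y i • b i) (i : ℕ) :
    ∃ j, ∀ F ∈ Eff R, ∀ G ∈ Eff R, rho p R b j F = rho p R b j G → F - G ∈ Mon p R b i := by
  have hg : (0 : ℤ) ≤ gen k K := Int.natCast_nonneg _
  by_contra hcon
  push Not at hcon
  choose F hF G hG hrho hnot using hcon
  have hbad : ∀ j, ∃ E ∈ Eff R, ∀ E' ∈ Eff R,
      (∃ f : K, f ≠ 0 ∧ E' = E + (F j - G j) + divf (k := k) f) →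
        rho p R b i E' ≠ rho p R b i E := by
    intro j
    by_contra hc2
    push Not at hc2
    apply hnot j
    refine ⟨by rw [degD_sub, (hF j).2, (hG j).2, sub_self], fun E hE => ?_⟩
    obtain ⟨E', h1, h2, h3⟩ := hc2 E hE
    exact ⟨E', h1, h2, h3⟩
  choose E hE hEbad using hbad
  let U : Ultrafilter ℕ := hyperfilter ℕ
  have hU : (U : Filter ℕ) ≤ atTop := Nat.hyperfilter_le_atTop
  obtain ⟨F', hF', hFcv⟩ := exists_cv (p := p) (U := U) hc hR hF
  obtain ⟨G', hG', hGcv⟩ := exists_cv (p := p) (U := U) hc hR hG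
  obtain ⟨E', hE', hEcv⟩ := exists_cv (p := p) (U := U) hc hR hE
  have hFG : F' = G' := sep hc hR hU hb hb2 hF hF' hG' hFcv hGcv hrho
  have hQex : ∀ j, ∃ Q ∈ Eff R, ∃ q : K, q ≠ 0 ∧ Q = (3 • R - E j - F j) + divf (k := k) q :=
    fun j => exists_Eff hc (by omega) (by
      rw [degD_sub, degD_sub, degD_three, (hE j).2, (hF j).2]; ring)
  choose Q hQ q hq hQq using hQex
  obtain ⟨Q', hQ', hQcv⟩ := exists_cv (p := p) (U := U) hc hR hQ
  have hTex : ∀ j, ∃ T ∈ Eff R, ∃ t : K, t ≠ 0 ∧ T = (3 • R - G j - Q j) + divf (k := k) t :=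
    fun j => exists_Eff hc (by omega) (by
      rw [degD_sub, degD_sub, degD_three, (hG j).2, (hQ j).2]; ring)
  choose T hT t ht hTt using hTex
  obtain ⟨T', hT', hTcv⟩ := exists_cv (p := p) (U := U) hc hR hT
  obtain ⟨h1, h10, h1d⟩ := closedT hc hR hE hF hQ hE' hF' hQ' hEcv hFcv hQcv
    (Eventually.of_forall fun j => ⟨q j, hq j, by rw [hQq j]; abel⟩)
  obtain ⟨h2, h20, h2d⟩ := closedT hc hR hT hG hQ hT' hG' hQ' hTcv hGcv hQcv
    (Eventually.of_forall fun j => ⟨t j, ht j, by rw [hTt j]; abel⟩)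
  have hET : E' = T' + divf (k := k) (h1 * h2⁻¹) := by
    rw [divf_mul h10 (inv_ne_zero h20), divf_inv h20, h1d, h2d, hFG]
    abel
  obtain ⟨E2, hE2, hE2cv, hE2div⟩ := lift hc hR hT hT' hE' hTcv
    (mul_ne_zero h10 (inv_ne_zero h20)) hET
  have hc1 := cont hb hb2 hE hEcv i
  have hc2 := cont hb hb2 hE2 hE2cv i
  obtain ⟨n, ⟨hn1, hn2⟩, hn3⟩ := ((hc1.and hc2).and hE2div).exists
  obtain ⟨ψ, hψ, hn3⟩ := hn3
  refine hEbad n (E2 n) (hE2 n) ⟨(q n)⁻¹ * t n * ψ,
    mul_ne_zero (mul_ne_zero (inv_ne_zero (hq n)) (ht n)) hψ, ?_⟩ (hn2.trans hn1.symm)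
  rw [hn3, divf_mul (mul_ne_zero (inv_ne_zero (hq n)) (ht n)) hψ,
    divf_mul (inv_ne_zero (hq n)) (ht n), divf_inv (hq n), hTt n]
  have h4 : divf (k := k) (q n) = Q n - (3 • R - E n - F n) := by
    rw [hQq n]; abel
  rw [h4]
  abel

theorem closure_le_Mon {m : ℕ} {b : Fin m → K} {i j : ℕ}
    (h : ∀ F ∈ Eff R, ∀ G ∈ Eff R, rho p R b j F = rho p R b j G → F - G ∈ Mon p R b i)
    {x : Pl k K →₀ ℤ} (hx : x ∈ AddSubgroup.closure (Gen p R b j)) : x ∈ Mon p R b i := by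
  have h1 : (AddSubgroup.closure (Gen p R b j)).toAddSubmonoid ≤ Mon p R b i := by
    rw [AddSubgroup.closure_toAddSubmonoid, AddSubmonoid.closure_le]
    have hpr : ∀ f : K, f ≠ 0 → divf (k := k) f ∈ Mon p R b i := by
      intro f hf
      refine ⟨degD_divf hf, fun E hE => ⟨E, hE, ⟨f⁻¹, inv_ne_zero hf, ?_⟩, rfl⟩⟩
      rw [divf_inv hf]
      abel
    rintro y (hy | hy)
    · rcases hy with ⟨F, hF, G, hG, h2, rfl⟩ | ⟨f, hf, rfl⟩
      · exact h F hF G hG h2
      · exact hpr f hf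
    · rw [Set.mem_neg] at hy
      rcases hy with ⟨F, hF, G, hG, h2, h3⟩ | ⟨f, hf, h3⟩
      · have : y = G - F := by rw [← neg_neg y, h3]; abel
        rw [this]
        exact h G hG F hF h2.symm
      · have : y = divf (k := k) f⁻¹ := by rw [divf_inv hf, ← h3, neg_neg]
        rw [this]
        exact hpr _ (inv_ne_zero hf)
  exact h1 hx

/-- infinitely divisible classes lie in the subgroups of finite index -/
theorem mem_closure (hc : algebraicClosure k K = ⊥) (hR : 3 * (gen k K : ℤ) + 1 ≤ degD R)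
    {m : ℕ} (b : Fin m → K) {D : Pl k K →₀ ℤ} (hD0 : degD D = 0)
    (hD : ∀ n : ℕ, 0 < n → ∃ (D' : Pl k K →₀ ℤ) (f : K), f ≠ 0 ∧ D = n • D' + divf (k := k) f)
    (j : ℕ) : D ∈ AddSubgroup.closure (Gen p R b j) := by
  have hg : (0 : ℤ) ≤ gen k K := Int.natCast_nonneg _
  set H := AddSubgroup.closure (Gen p R b j) with hH
  let A : AddSubgroup ((Pl k K →₀ ℤ) ⧸ H) := (degHom (k := k) (K := K)).ker.map
    (QuotientAddGroup.mk' H)
  have hAex : ∀ a : A, ∃ E ∈ Eff R, (QuotientAddGroup.mk' H) (E - R) = (a : _ ⧸ H) := by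
    rintro ⟨_, x, hx, rfl⟩
    have hx0 : degD x = 0 := hx
    obtain ⟨E, hE, f, hf, hEf⟩ := exists_Eff hc (R := R) (D := R + x) (by omega)
      (by rw [degD_add, hx0, add_zero])
    refine ⟨E, hE, ?_⟩
    show (QuotientAddGroup.mk' H) (E - R) = (QuotientAddGroup.mk' H) x
    have h1 : E - R = x + divf (k := k) f := by rw [hEf]; abel
    rw [h1, map_add]
    have h2 : (QuotientAddGroup.mk' H) (divf (k := k) f) = 0 :=
      (QuotientAddGroup.eq_zero_iff _).2 (AddSubgroup.subset_closure (Or.inr ⟨f, hf, rfl⟩))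
    rw [h2, add_zero]
  choose E hE hEa using hAex
  have : NeZero (p ^ j) := ⟨pow_ne_zero _ (Fact.out : p.Prime).ne_zero⟩
  have hfin : Finite A := by
    refine Finite.of_injective (fun a : A => rho p R b j (E a)) ?_
    intro a a' haa
    apply Subtype.ext
    rw [← hEa a, ← hEa a', ← sub_eq_zero, ← map_sub]
    have h1 : E a - R - (E a' - R) = E a - E a' := by abel
    rw [h1]
    exact (QuotientAddGroup.eq_zero_iff _).2 (AddSubgroup.subset_closure
      (Or.inl ⟨E a, hE a, E a', hE a', haa, rfl⟩))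
  have hcard : 0 < Nat.card A := Nat.card_pos
  obtain ⟨D', f, hf, hDD⟩ := hD (Nat.card A) hcard
  have hD'0 : degD D' = 0 := by
    have h1 : degHom (k := k) (K := K) D = Nat.card A • degHom (k := k) (K := K) D' +
        degHom (k := k) (K := K) (divf (k := k) f) := by
      conv_lhs => rw [hDD]
      rw [map_add, map_nsmul]
    have h2 : degHom (k := k) (K := K) (divf (k := k) f) = 0 := degD_divf hf
    have h3 : degHom (k := k) (K := K) D = 0 := hD0
    rw [h2, h3, add_zero, nsmul_eq_mul] at h1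
    rcases mul_eq_zero.1 h1.symm with h4 | h4
    · exact absurd (by exact_mod_cast h4) hcard.ne'
    · exact h4
  have hmem : (QuotientAddGroup.mk' H) D' ∈ A := ⟨D', hD'0, rfl⟩
  have h5 : Nat.card A • (⟨_, hmem⟩ : A) = 0 := card_nsmul_eq_zero'
  have h6 := congrArg (Subtype.val) h5
  have h7 : Nat.card A • (QuotientAddGroup.mk' H) D' = 0 := h6
  rw [← QuotientAddGroup.eq_zero_iff]
  show (QuotientAddGroup.mk' H) D = 0
  have h2 : (QuotientAddGroup.mk' H) (divf (k := k) f) = 0 :=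
    (QuotientAddGroup.eq_zero_iff _).2 (AddSubgroup.subset_closure (Or.inr ⟨f, hf, rfl⟩))
  conv_lhs => rw [hDD]
  rw [map_add, map_nsmul, h7, h2, add_zero]

end final

/-- **no infinitely divisible classes**: `k` finite over `ℚ_[p]`; a divisor whose class is
divisible by every positive integer is principal -/
theorem principal_of_divisible (p : ℕ) [Fact p.Prime] {k : Type*} [Field k] [Algebra ℚ_[p] k]
    [FiniteDimensional ℚ_[p] k] {K : Type*} [Field K] [Algebra k K] [Algebra (RatFunc k) K]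
    [IsScalarTower k (RatFunc k) K] [FiniteDimensional (RatFunc k) K]
    [Algebra.IsSeparable (RatFunc k) K] (hc : algebraicClosure k K = ⊥) (D : Pl k K →₀ ℤ)
    (hD : ∀ n : ℕ, 0 < n → ∃ (D' : Pl k K →₀ ℤ) (f : K), f ≠ 0 ∧
      D = n • D' + divf (k := k) f) :
    ∃ f : K, f ≠ 0 ∧ D = divf (k := k) f := by
  letI : Algebra ℚ_[p] K := ((algebraMap k K).comp (algebraMap ℚ_[p] k)).toAlgebra
  haveI : IsScalarTower ℚ_[p] k K := IsScalarTower.of_algebraMap_eq fun _ => rfl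
  obtain ⟨R, hR⟩ := exists_R hc
  have hg : (0 : ℤ) ≤ gen k K := Int.natCast_nonneg _
  -- degree zero
  have hD0 : degD D = 0 := by
    obtain ⟨D', f, hf, hDD⟩ := hD ((degD D).natAbs + 1) (Nat.succ_pos _)
    have h1 : degHom (k := k) (K := K) D = ((degD D).natAbs + 1) • degHom (k := k) (K := K) D' +
        degHom (k := k) (K := K) (divf (k := k) f) := by
      conv_lhs => rw [hDD]
      rw [map_add, map_nsmul]
    have h2 : degHom (k := k) (K := K) (divf (k := k) f) = 0 := degD_divf hf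
    have h3 : degHom (k := k) (K := K) D = degD D := rfl
    rw [h2, h3, add_zero, nsmul_eq_mul] at h1
    have h4 : (((degD D).natAbs + 1 : ℕ) : ℤ) ∣ degD D := ⟨_, h1⟩
    by_contra hne
    have h5 := Int.le_of_dvd (a := (((degD D).natAbs + 1 : ℕ) : ℤ)) (b := |degD D|)
      (abs_pos.2 hne) ((dvd_abs _ _).2 h4)
    rw [Int.abs_eq_natAbs] at h5
    omega
  have h2R := RR11_948.LD_finite (2 • R)
  have := finiteDimensional_restrict (p := p) (LD (2 • R))
  obtain ⟨m, b, hb, -, hb2⟩ := exists_fin_basis ((LD (2 • R)).restrictScalars ℚ_[p])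
  have hb3 : ∀ a ∈ LD (2 • R), ∃ y : Fin m → ℚ_[p], a = ∑ i, y i • b i := hb2
  have hmem : ∀ i, D ∈ Mon p R b i := by
    intro i
    obtain ⟨j, hj⟩ := exists_small hc hR hb hb3 i
    exact closure_le_Mon hj (mem_closure hc hR b hD0 hD j)
  obtain ⟨E0, hE0, -⟩ := exists_Eff hc (R := R) (D := R) (by omega) rfl
  have hex : ∀ i, ∃ E' ∈ Eff R, (∃ f : K, f ≠ 0 ∧ E' = E0 + D + divf (k := k) f) ∧
      rho p R b i E' = rho p R b i E0 := fun i => (hmem i).2 E0 hE0
  choose E hE hEf hErho using hex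
  choose f hf hEf using hEf
  let U : Ultrafilter ℕ := hyperfilter ℕ
  have hU : (U : Filter ℕ) ≤ atTop := Nat.hyperfilter_le_atTop
  obtain ⟨E', hE', hEcv⟩ := exists_cv (p := p) (U := U) hc hR hE
  have h1 : E0 = E' := sep hc hR hU hb hb3 (F := fun _ => E0) (G := E) (fun _ => hE0) hE0 hE'
    (Cv.const E0) hEcv (fun n => (hErho n).symm)
  obtain ⟨Q, hQ, q, hq, hQq⟩ := exists_Eff hc (R := R) (D := 3 • R - E0 - (E0 + D)) (by omega)
    (by rw [degD_sub, degD_sub, degD_add, degD_three, hE0.2, hD0]; ring)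
  obtain ⟨h, h0, hd⟩ := closedT hc hR hE (fun _ => hE0) (fun _ => hQ) hE' hE0 hQ hEcv
    (Cv.const E0) (Cv.const Q) (Eventually.of_forall fun n =>
      ⟨f n * q, mul_ne_zero (hf n) hq, by rw [divf_mul (hf n) hq, hEf n, hQq]; abel⟩)
  refine ⟨q * h⁻¹, mul_ne_zero hq (inv_ne_zero h0), ?_⟩
  rw [divf_mul hq (inv_ne_zero h0), divf_inv h0, hd, ← h1, hQq]
  abel

end Crest.Agent.R013.NidC_429
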