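import Mathlib
import Crest.Agent.R013.DERK4_561
import Crest.Agent.R013.Eps3_184
import Crest.Agent.R013.HWP7_676
import Crest.Agent.R013.Nid_429
import Crest.Agent.R013.DE4_561
import Crest.Agent.R013.HAx_381

/-!
# R013 / DERK5 (helper561): two systems with non proportional local forms (RK2)

`k/ℚ_p` finite, `K₀/k` a function field of genus `≥ 2`, `K = K₀ ⊗_k C`, `em` the disc end of a
rational place.  **`rk2`** : there are `u, u' ∈ T_p` with `OmE u`, `OmE u'` linearly independent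
over the complete field `F ⊇ C`.
-/

set_option autoImplicit false
set_option linter.all false

open scoped NNReal

namespace Crest.Agent.R013.DERK5_561

open WithZero Filter Topology
open Crest.Agent.R013.Cell_408 (DiscNorm BD FinDef evp evp_add evp_mul evp_C C_mem_BD coe_mem_BD
  rootPoly)
open Crest.Agent.R013.RR7_948 Crest.Agent.R013.RR8_948 Crest.Agent.R013.RR9_948
open Crest.Agent.R013.RR11_948 Crest.Agent.R013.RR12_948 Crest.Agent.R013.RR13_948
open Crest.Agent.R013.EE809 Crest.Agent.R013.HU6_522 Crest.Agent.R013.HU3_522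
open Crest.Agent.R013.HU1_522 Crest.Agent.R013.HU2_522 Crest.Agent.R013.HU7_522
open Crest.Agent.R013.HU8_522 Crest.Agent.R013.HU9_522 Crest.Agent.R013.HU11_522
open Crest.Agent.R013.HT_434 Crest.Agent.R013.HU4_522 Crest.Agent.R013.PC_588
open Crest.Agent.R013.Desc_372 Crest.Agent.R013.DescP_429 Crest.Agent.R013.DE6_561
open Crest.Agent.R013.DERK1_561 Crest.Agent.R013.DERK2_561 Crest.Agent.R013.DERK3_561
open Crest.Agent.R013.DERK4_561
open Crest.Agent.R013.KAS2_940 (Bd antid coeff_antid constantCoeff_antid)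
open Crest.Agent.R013.LemD_323 (ev)

section maps

variable {k F : Type*} [NontriviallyNormedField k] [IsUltrametricDist k] [CompleteSpace k]
  [NontriviallyNormedField F] [IsUltrametricDist F] [CompleteSpace F] (σ : k →+* F)
  (hσ : ∀ a, ‖σ a‖ = ‖a‖)

theorem map_antid (w : PowerSeries k) :
    PowerSeries.map σ (antid w) = antid (PowerSeries.map σ w) := by
  ext m
  rcases m with _ | m
  · rw [PowerSeries.coeff_map, PowerSeries.coeff_zero_eq_constantCoeff_apply,
      PowerSeries.coeff_zero_eq_constantCoeff_apply, constantCoeff_antid, constantCoeff_antid,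
      map_zero]
  · rw [PowerSeries.coeff_map, coeff_antid, coeff_antid, PowerSeries.coeff_map, map_div₀,
      map_natCast]

include hσ in
theorem map_ev {r B : ℝ} {f : PowerSeries k} (hf : Bd r B f) {x : k} (hx : ‖x‖ < r) :
    σ (ev f x) = ev (PowerSeries.map σ f) (σ x) := by
  have hi : Isometry σ := AddMonoidHomClass.isometry_of_norm σ hσ
  have h := (LemD_323.summable_ev (Good3_940.toBd hf) hx).hasSum.map σ hi.continuous
  have h2 := h.tsum_eq
  unfold ev
  rw [← h2]
  refine tsum_congr fun n => ?_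
  simp only [Function.comp_apply, map_mul, map_pow, PowerSeries.coeff_map]

end maps

section main

variable {p : ℕ} [Fact p.Prime]
variable {k : Type*} [NontriviallyNormedField k] [CompleteSpace k] [IsUltrametricDist k]
  [CharZero k]
variable {C : Type*} [NormedField C] [IsUltrametricDist C] [NormedAlgebra k C] [CharZero C]
  [Algebra.IsAlgebraic k C] [IsAlgClosed C] [IsGalois k C]
variable {K₀ K : Type*} [Field K₀] [Field K] [Algebra k K₀] [Algebra C K] [Algebra K₀ K]
  [Algebra k K] [IsScalarTower k C K] [IsScalarTower k K₀ K] [hce : CE k C K₀ K]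
  [Algebra (RatFunc C) K] [IsScalarTower C (RatFunc C) K] [FiniteDimensional (RatFunc C) K]
  [Algebra.IsSeparable (RatFunc C) K]

theorem divf_comap (s : K ≃ₐ[K₀] K) {z : K} (hz : z ≠ 0) (P : Pl C K) :
    divf (k := C) z (comapPl k C s P) = divf (k := C) (s z) P := by
  have hz' : s z ≠ 0 := (map_ne_zero s).mpr hz
  have h1 := v_eq (k := C) hz' P
  have h2 := v_eq (k := C) hz (comapPl k C s P)
  rw [comapPl_v, h1, exp_inj] at h2
  omega

include hce in
/-- automorphisms act on the systems -/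
theorem DivP.map (s : K ≃ₐ[K₀] K) {u : PC p Kˣ} (hu : DivP C u) :
    DivP C (PC.map (Units.map (s : K →* K)) u) := by
  intro n h' hh' P
  obtain ⟨g, hg⟩ := exists_rep u n
  obtain ⟨y, hy⟩ := (hg.map (Units.map (s : K →* K))).eq_iff.1 hh'
  rw [hy, Units.val_mul, Units.val_pow_eq_pow_val, divf_mul (Units.ne_zero _)
    (pow_ne_zero _ y.ne_zero), WR4_777.divf_pow y.ne_zero, Finsupp.add_apply, Finsupp.smul_apply,
    nsmul_eq_mul]
  refine dvd_add ?_ (dvd_mul_right _ _)
  have h1 := hu n g hg (comapPl k C s P)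
  rw [divf_comap s g.ne_zero] at h1
  exact h1

variable (hk : DiscNorm k) (hnorm : ∀ (s : C ≃ₐ[k] C) (a : C), ‖s a‖ = ‖a‖)
  {em : K →+* EE k C} {t : K₀} {ρ : k} (he : IsEm em t ρ)
variable {F : Type*} [NontriviallyNormedField F] [IsUltrametricDist F] [CompleteSpace F]
  [CharZero F] (σ : C →+* F) (hσ : ∀ a, ‖σ a‖ = ‖a‖) (hp : ‖(p : C)‖ < 1)
  (hfix : ∀ x : F, (∀ (s : C ≃ₐ[k] C) (tF : F →+* F), (∀ a, ‖tF a‖ = ‖a‖) →
    (∀ a, tF (σ a) = σ (s a)) → tF x = x) → ∃ y : k, σ (algebraMap k C y) = x)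
  (hext : ∀ s : C ≃ₐ[k] C, ∃ tF : F →+* F, (∀ a, ‖tF a‖ = ‖a‖) ∧ ∀ a, tF (σ a) = σ (s a))

include hp hnorm hfix in
/-- **AX for a line** -/
theorem exists_w
    (hpair : ∀ u u' : PC p Kˣ, DivP C u → DivP C u' →
      ¬ LinearIndependent F ![OmE hk em he.frac σ hσ u, OmE hk em he.frac σ hσ u']) :
    ∃ w : PowerSeries k, w ≠ 0 ∧ (∃ B, Bd 1 B w) ∧ ∀ u : PC p Kˣ, DivP C u →
      ∃ lam : F, OmE hk em he.frac σ hσ u =
        PowerSeries.C lam * PowerSeries.map (σ.comp (algebraMap k C)) w := by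
  by_cases h0 : ∀ u : PC p Kˣ, DivP C u → OmE hk em he.frac σ hσ u = 0
  · refine ⟨1, one_ne_zero, ⟨1, KAS2_940.bd_one⟩, fun u hu => ⟨0, ?_⟩⟩
    rw [h0 u hu, map_zero, zero_mul]
  push Not at h0
  obtain ⟨u0, hu0, hne⟩ := h0
  set W := OmE hk em he.frac σ hσ u0 with hW
  obtain ⟨n, hn⟩ : ∃ n, PowerSeries.coeff n W ≠ 0 := by
    by_contra hcon
    push Not at hcon
    exact hne (PowerSeries.ext fun n => by rw [hcon n, map_zero])
  set c := PowerSeries.coeff n W with hc
  have hdep : ∀ u : PC p Kˣ, DivP C u → ∃ a : F, OmE hk em he.frac σ hσ u = PowerSeries.C a * W := by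
    intro u hu
    have h1 := hpair u0 u hu0 hu
    rw [LinearIndependent.pair_iff' hne] at h1
    push Not at h1
    obtain ⟨a, ha⟩ := h1
    exact ⟨a, by rw [← ha, PowerSeries.smul_eq_C_mul]⟩
  obtain ⟨w, hw⟩ : ∃ w, w = PowerSeries.C c⁻¹ * W := ⟨_, rfl⟩
  have hWw : W = PowerSeries.C c * w := by
    rw [hw, ← mul_assoc, ← map_mul, mul_inv_cancel₀ hn, map_one, one_mul]
  have hwn : PowerSeries.coeff n w = 1 := by
    rw [hw, PowerSeries.coeff_C_mul, ← hc, inv_mul_cancel₀ hn]
  -- invariance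
  have hinv : ∀ (s : C ≃ₐ[k] C) (tF : F →+* F), (∀ a, ‖tF a‖ = ‖a‖) →
      (∀ a, tF (σ a) = σ (s a)) → PowerSeries.map tF w = w := by
    intro s tF htF hts
    let s' : K ≃ₐ[K₀] K := CE.lift k C K₀ K s
    have h1 := OmE_map hk (s : C →ₐ[k] C) (fun a => hnorm s a) em em he.frac he.frac
      (Units.map (s' : K →* K)) (fun z => he.equiv s (fun a => hnorm s a) (z : K)) σ hσ tF htF
      hts hp u0
    obtain ⟨a, ha⟩ := hdep _ (DivP.map (k := k) s' hu0)
    have h1' : PowerSeries.map tF (PowerSeries.C c * w) = PowerSeries.C a * (PowerSeries.C c * w) := by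
      rw [← hWw, ← h1]; exact ha
    rw [map_mul, PowerSeries.map_C, ← mul_assoc, ← map_mul] at h1'
    have htc : tF c ≠ 0 := (map_ne_zero tF).mpr hn
    have h2 : PowerSeries.map tF w = PowerSeries.C ((tF c)⁻¹ * (a * c)) * w := by
      have h4 : PowerSeries.C ((tF c)⁻¹ * (a * c)) * w =
          PowerSeries.C (tF c)⁻¹ * (PowerSeries.C (a * c) * w) := by
        rw [map_mul, mul_assoc]
      rw [h4, ← h1', ← mul_assoc, ← map_mul, inv_mul_cancel₀ htc, map_one, one_mul]
    have h3 := congrArg (PowerSeries.coeff n) h2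
    rw [PowerSeries.coeff_map, PowerSeries.coeff_C_mul, hwn, map_one, mul_one] at h3
    rw [h2, ← h3, map_one, one_mul]
  have hrange : ∀ m, ∃ y : k, σ (algebraMap k C y) = PowerSeries.coeff m w := by
    intro m
    refine hfix _ fun s tF htF hts => ?_
    have h1 := congrArg (PowerSeries.coeff m) (hinv s tF htF hts)
    rwa [PowerSeries.coeff_map] at h1
  choose y hy using hrange
  have hmap : PowerSeries.map (σ.comp (algebraMap k C)) (PowerSeries.mk y) = w := by
    ext m
    rw [PowerSeries.coeff_map, PowerSeries.coeff_mk]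
    exact hy m
  refine ⟨PowerSeries.mk y, ?_, ⟨‖c⁻¹‖, fun m => ?_⟩, fun u hu => ?_⟩
  · intro h
    rw [h, map_zero] at hmap
    rw [← hmap, map_zero] at hwn
    exact zero_ne_one hwn
  · rw [PowerSeries.coeff_mk, one_pow, mul_one]
    have h1 : ‖y m‖ = ‖PowerSeries.coeff m w‖ := by
      rw [← hy m, hσ, norm_algebraMap']
    rw [h1, hw, PowerSeries.coeff_C_mul, norm_mul]
    have h2 : ‖PowerSeries.coeff m W‖ ≤ 1 := Om_int _ _ m
    exact mul_le_of_le_one_right (norm_nonneg _) h2
  · obtain ⟨a, ha⟩ := hdep u hu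
    exact ⟨a * c, by rw [hmap, ha, hWw, ← mul_assoc, ← map_mul]⟩

variable [Algebra (RatFunc k) K₀] [IsScalarTower k (RatFunc k) K₀]
  [FiniteDimensional (RatFunc k) K₀] [Algebra.IsAlgebraic K₀ K]
  [Algebra ℚ_[p] k] [FiniteDimensional ℚ_[p] k]

include hnorm hσ hp in
/-- the contradiction -/
theorem false_of_line (hc : algebraicClosure k K₀ = ⊥) (hg : 2 ≤ gen k K₀)
    {w : PowerSeries k} (hw0 : w ≠ 0) {B : ℝ} (hwB : Bd 1 B w)
    (hw : ∀ u : PC p Kˣ, DivP C u → ∃ lam : F, OmE hk em he.frac σ hσ u =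
        PowerSeries.C lam * PowerSeries.map (σ.comp (algebraMap k C)) w) : False := by
  classical
  -- the norms of `p`
  have hpk' : ‖(p : C)‖ = ‖(p : k)‖ := by
    rw [← map_natCast (algebraMap k C) p, norm_algebraMap']
  have hpk : ‖(p : k)‖ < 1 := by rw [← hpk']; exact hp
  set s := ‖(p : k)‖ with hs
  have hs0 : 0 < s := norm_p_pos
  letI : Algebra ℚ k := DivisionRing.toRatAlgebra
  obtain ⟨l, hl0, hl1, hl, hsl⟩ := exists_l (F := k) (p := p) hpk
  have hz := KAS2_940.antid_bd (Fact.out : p.Prime) hl0 hl1 hl one_pos hwB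
  rw [one_mul] at hz
  obtain ⟨r1, hr10, hr11, hr1⟩ := DE5a_561.exists_ev_ne_zero one_pos hwB hw0
  -- the places
  have hρ : algebraMap k C ρ ≠ 0 := (map_ne_zero _).mpr he.ρ0
  have hex : ∀ x : k, ‖x‖ < 1 → ∃ P : Pl C K, AtP hk em he.frac (algebraMap k C x) P := fun x hx =>
    exists_AtP hk em he.const he.frac hρ he.par (by rw [norm_algebraMap']; exact hx)
  have h01 : ‖(0 : k)‖ < 1 := by rw [norm_zero]; exact one_pos
  obtain ⟨P0, hP0⟩ := hex 0 h01
  let S : Set (Pl k K₀) := {Q | ∃ (b : k) (P : Pl C K), b ≠ 0 ∧ ‖b‖ < min r1 s ∧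
    AtP hk em he.frac (algebraMap k C b) P ∧ Q = resC k K₀ P}
  have hmin : 0 < min r1 s := lt_min hr10 hs0
  have hSinf : S.Infinite := by
    have h1 : {b : k | b ≠ 0 ∧ ‖b‖ < min r1 s}.Infinite := by
      have h2 : (Metric.ball (0 : k) (min r1 s)).Infinite :=
        infinite_of_mem_nhds (0 : k) (Metric.ball_mem_nhds 0 hmin)
      refine (h2.diff (Set.finite_singleton (0 : k))).mono ?_
      rintro b ⟨hb1, hb2⟩
      exact ⟨hb2, by simpa using hb1⟩
    have hchoice : ∀ b : {b : k | b ≠ 0 ∧ ‖b‖ < min r1 s}, ∃ P : Pl C K,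
        AtP hk em he.frac (algebraMap k C (b : k)) P := fun b =>
      hex _ ((b.2.2.trans_le (min_le_right _ _)).trans hpk)
    choose g hgP using hchoice
    haveI : Infinite {b : k | b ≠ 0 ∧ ‖b‖ < min r1 s} := h1.to_subtype
    refine Set.infinite_of_injective_forall_mem (f := fun b => resC k K₀ (g b)) ?_ ?_
    · intro b b' hbb
      apply Subtype.ext
      exact (resC_inj hk hnorm he hc ((b'.2.2.trans_le (min_le_right _ _)).trans hpk) (hgP b')
        (hgP b) hbb).symm
    · intro b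
      exact ⟨b, g b, b.2.1, b.2.2, hgP b, rfl⟩
  obtain ⟨Q, hQS, hQP, hrig⟩ := DE4_561.exists_rigid_pair hc hg
    (degP_of_atP hk hnorm he hc hP0) hSinf (by
      rintro Q ⟨b, P, hb0, hb, hP, rfl⟩
      exact degP_of_atP hk hnorm he hc hP)
  obtain ⟨b, Pb, hb0, hb, hPb, rfl⟩ := hQS
  have hbs : ‖b‖ < s := hb.trans_le (min_le_right _ _)
  have hwb := hr1 b hb0 (hb.trans_le (min_le_left _ _))
  -- the other two points
  have hev := DE5a_561.eventually_exists hz (a := (0 : k)) (b := b)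
    (by rw [norm_zero]; exact hl0) (hbs.trans_le hsl) hwb (norm_pos_iff.mpr hb0)
  have hball : ∀ᶠ a' in 𝓝 (0 : k), ‖a'‖ < s := by
    filter_upwards [Metric.ball_mem_nhds (0 : k) hs0] with a' ha'
    simpa using ha'
  have hne : ∀ᶠ a' in 𝓝[≠] (0 : k), a' ≠ 0 := self_mem_nhdsWithin
  obtain ⟨a', ⟨⟨b', hb'b, hsum⟩, ha's⟩, ha'0⟩ :=
    (((hev.and hball).filter_mono nhdsWithin_le_nhds).and hne).exists
  have hb's : ‖b'‖ = ‖b‖ := by
    have h1 : b' = b + (b' - b) := by ring
    rw [h1, IsUltrametricDist.norm_add_eq_max_of_norm_ne_norm hb'b.ne', max_eq_left hb'b.le]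
  have hb'0 : b' ≠ 0 := by
    rw [← norm_pos_iff, hb's]; exact norm_pos_iff.mpr hb0
  obtain ⟨Pa', hPa'⟩ := hex a' (ha's.trans hpk)
  obtain ⟨Pb', hPb'⟩ := hex b' (by rw [hb's]; exact hbs.trans hpk)
  -- the divisor
  set δ : Pl k K₀ →₀ ℤ := Finsupp.single (resC k K₀ Pa') 1 + Finsupp.single (resC k K₀ Pb') 1 -
    Finsupp.single (resC k K₀ P0) 1 - Finsupp.single (resC k K₀ Pb) 1 with hδ
  have hconδ : (conC hc δ : Pl C K →₀ ℤ) = Finsupp.single Pa' 1 + Finsupp.single Pb' 1 -
      Finsupp.single P0 1 - Finsupp.single Pb 1 := by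
    have hsub : ∀ D E : Pl k K₀ →₀ ℤ, (conC hc (D - E) : Pl C K →₀ ℤ) = conC hc D - conC hc E := by
      intro D E
      ext R
      simp
    rw [hδ, hsub, hsub, conC_add, conC_single hk hnorm he hc hPa', conC_single hk hnorm he hc hPb',
      conC_single hk hnorm he hc hP0, conC_single hk hnorm he hc hPb]
  have hdeg : degD δ = 0 := by
    rw [hδ, degD_sub, degD_sub, degD_add, degD_single, degD_single, degD_single, degD_single,
      degP_of_atP hk hnorm he hc hPa', degP_of_atP hk hnorm he hc hPb',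
      degP_of_atP hk hnorm he hc hP0, degP_of_atP hk hnorm he hc hPb]
    norm_num
  -- the points over `C` and `F`
  have hn : ∀ {x : k}, ‖x‖ < s → ‖algebraMap k C x‖ < ‖(p : C)‖ := fun {x} hx => by
    rw [norm_algebraMap', hpk']; exact hx
  have h0s : ‖(0 : k)‖ < s := by rw [norm_zero]; exact hs0
  have hb's' : ‖b'‖ < s := by rw [hb's]; exact hbs
  let σ' : k →+* F := σ.comp (algebraMap k C)
  have hσ' : ∀ a, ‖σ' a‖ = ‖a‖ := fun a => by
    show ‖σ (algebraMap k C a)‖ = ‖a‖
    rw [hσ, norm_algebraMap']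
  have hzF : ev (antid (PowerSeries.map σ' w)) (σ (algebraMap k C a')) +
      ev (antid (PowerSeries.map σ' w)) (σ (algebraMap k C b')) =
      ev (antid (PowerSeries.map σ' w)) (σ (algebraMap k C 0)) +
      ev (antid (PowerSeries.map σ' w)) (σ (algebraMap k C b)) := by
    rw [← map_antid]
    have h1 : ∀ {x : k}, ‖x‖ < s → ev (PowerSeries.map σ' (antid w)) (σ (algebraMap k C x)) =
        σ' (ev (antid w) x) := fun {x} hx => (map_ev σ' hσ' hz (hx.trans_le hsl)).symm
    rw [h1 ha's, h1 hb's', h1 h0s, h1 hbs, ← map_add, ← map_add, hsum]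
  -- divisibility of `δ`
  have hdivδ : ∀ N : ℕ, 0 < N → ∃ (D : Pl k K₀ →₀ ℤ) (f : K₀), f ≠ 0 ∧
      δ = N • D + divf (k := k) f := by
    intro N hN
    have hdat : Eps2_184.Dat N (VP hk em he.frac) (algebraMap K₀ K t) (conC hc δ : Pl C K →₀ ℤ)
        (Us C ‖(p : C)‖ norm_p_pos hp.le) := by
      refine ⟨hN, coord hk em he.const he.frac hρ he.par, ?_, ?_, ?_, ?_, ?_⟩
      · intro R hR
        rw [hconδ] at hR
        have key : ∀ {x : k} {P : Pl C K}, ‖x‖ < s → AtP hk em he.frac (algebraMap k C x) P →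
            P ∈ VP hk em he.frac := fun {x P} hx hP =>
          ⟨_, by rw [norm_algebraMap']; exact hx.trans hpk, hP⟩
        by_contra hRV
        apply hR
        have hne : ∀ {x : k} {P : Pl C K}, ‖x‖ < s → AtP hk em he.frac (algebraMap k C x) P →
            (Finsupp.single P (1 : ℤ) : Pl C K →₀ ℤ) R = 0 := fun {x P} hx hP => by
          rw [Finsupp.single_apply, if_neg]
          rintro rfl
          exact hRV (key hx hP)
        simp only [Finsupp.sub_apply, Finsupp.add_apply]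
        rw [hne ha's hPa', hne hb's' hPb', hne h0s hP0, hne hbs hPb]
        norm_num
      · rw [degD_conC, hdeg]
      · intro u hu hu1
        apply Units.ext
        refine eq_one_of_pow hp (mem_Us.mp hu) hN ?_
        rw [← Units.val_pow_eq_pow_val, hu1, Units.val_one]
      · intro D h hrp
        obtain ⟨y, hy1, hy2⟩ := exists_small_root hk em he.const he.frac hρ he.par σ hσ hp
          (hn h0s) (hn hbs) (hn ha's) (hn hb's') hP0 hPb hPa' hPb' hw hzF hN hrp.ne hrp.div hrp.off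
        refine ⟨y, hy1, ?_⟩
        rw [hconδ]
        exact hy2
      · intro g hg0 hg
        have hpF' : ‖(p : F)‖ = ‖(p : C)‖ := norm_p_F σ hσ
        have hpF : ‖(p : F)‖ < 1 := by rw [hpF']; exact hp
        have hlt : ∀ {x : k}, ‖x‖ < s → ‖σ (algebraMap k C x)‖ < ‖(p : F)‖ := fun {x} hx => by
          rw [hσ, hpF']; exact hn hx
        have h1 := map_ev_dlt hk em he.const he.frac hρ he.par σ hσ (z := Units.mk0 g hg0) hg
          ((hn h0s).trans hp) ((hn hbs).trans hp) ((hn ha's).trans hp) ((hn hb's').trans hp)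
          ((hlt h0s).trans hpF) ((hlt hbs).trans hpF) ((hlt ha's).trans hpF)
          ((hlt hb's').trans hpF) hP0 hPb hPa' hPb'
        have h2 := norm_WU_sub_lt hpF.le (hlt h0s) (hlt hbs) (hlt ha's) (hlt hb's')
          (nuF hk em he.frac σ hσ (Units.mk0 g hg0))
        rw [← h1, hpF'] at h2
        rw [mem_Us, hconδ, ← hσ, map_sub, map_one]
        exact h2
    have hwp := Eps3_184.isWP_of_perf (F := C) (K := K) hN.ne'
      (fun χ hχ => HWP_676.wp_perfect (k := C) (K := K) hN.ne' χ hχ)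
    have hdegC : degD (conC hc δ : Pl C K →₀ ℤ) = 0 := by rw [degD_conC, hdeg]
    obtain ⟨E, f, hf, -, hE⟩ := Div6_280.exists_div hN hdegC
    exact Eps3_184.exists_div hc (resC k K₀ P0) (degP_of_atP hk hnorm he hc hP0) hwp δ hdat
      (fun s P hP => comap_mem_VP hk hnorm he s hP)
      (fun s u hu => by
        rw [mem_Us] at hu ⊢
        have h1 : ((Units.map (s : C →* C) u : Cˣ) : C) - 1 = s ((u : C) - 1) := by
          rw [map_sub, map_one]; rfl
        rw [h1, hnorm]
        exact hu) hf hE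
  obtain ⟨f, hf0, hf⟩ := NidC_429.principal_of_divisible p hc δ hdivδ
  -- the contradiction
  have hE := hrig (Finsupp.single (resC k K₀ Pa') 1 + Finsupp.single (resC k K₀ Pb') 1) f
    (by
      refine add_nonneg ?_ ?_
      · exact Finsupp.single_nonneg.mpr zero_le_one
      · exact Finsupp.single_nonneg.mpr zero_le_one) hf0 (by rw [← hf, hδ]; abel)
  have hna : resC k K₀ Pa' ≠ resC k K₀ P0 := fun h =>
    ha'0 (resC_inj hk hnorm he hc h01 hP0 hPa' h).symm
  have hnb : resC k K₀ Pb' ≠ resC k K₀ P0 := fun h =>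
    hb'0 (resC_inj hk hnorm he hc h01 hP0 hPb' h).symm
  have h1 := congrArg (fun E : Pl k K₀ →₀ ℤ => E (resC k K₀ P0)) hE
  simp only [Finsupp.add_apply, Finsupp.single_apply, if_neg hna, if_neg hnb, if_true] at h1
  split_ifs at h1 <;> omega

end main

section final

theorem norm_p_lt (p : ℕ) [Fact p.Prime] (k C : Type*) [NontriviallyNormedField k]
    [NormedAlgebra ℚ_[p] k] [NormedField C] [NormedAlgebra k C] : ‖(p : C)‖ < 1 := by
  have h1 : (p : C) = algebraMap k C (algebraMap ℚ_[p] k (p : ℚ_[p])) := by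
    rw [map_natCast, map_natCast]
  rw [h1, norm_algebraMap', norm_algebraMap']
  exact Padic.norm_p_lt_one

/-- all automorphisms of `C/k` are isometric -/
theorem norm_aut (p : ℕ) [Fact p.Prime] {k C : Type*} [NontriviallyNormedField k]
    [NormedAlgebra ℚ_[p] k] [FiniteDimensional ℚ_[p] k] [NormedField C] [IsUltrametricDist C]
    [NormedAlgebra k C] [Algebra.IsAlgebraic k C] (s : C ≃ₐ[k] C) (a : C) : ‖s a‖ = ‖a‖ := by
  letI : Algebra ℚ_[p] C := ((algebraMap k C).comp (algebraMap ℚ_[p] k)).toAlgebra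
  letI : NormedAlgebra ℚ_[p] C :=
    { norm_smul_le := fun r x => by
        have h1 : r • x = algebraMap k C (algebraMap ℚ_[p] k r) * x := rfl
        rw [h1, norm_mul, norm_algebraMap', norm_algebraMap'] }
  haveI : IsScalarTower ℚ_[p] k C := IsScalarTower.of_algebraMap_eq fun _ => rfl
  exact HAx_381.norm_inv (p := p) (K := k) (L := C) (C := C) s a

/-- **Ax-Sen-Tate** -/
theorem exists_of_fix (p : ℕ) [Fact p.Prime] {k C : Type*} [NontriviallyNormedField k]
    [NormedAlgebra ℚ_[p] k] [FiniteDimensional ℚ_[p] k] [NormedField C] [IsUltrametricDist C]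
    [NormedAlgebra k C] [Algebra.IsAlgebraic k C] [IsAlgClosed C]
    {F : Type*} [NormedField F] [IsUltrametricDist F] [CompleteSpace F]
    (σ : C →+* F) (hσ : ∀ a, ‖σ a‖ = ‖a‖) (hd : DenseRange σ)
    (x : F) (hx : ∀ (s : C ≃ₐ[k] C) (tF : F →+* F), (∀ a, ‖tF a‖ = ‖a‖) →
    (∀ a, tF (σ a) = σ (s a)) → tF x = x) : ∃ y : k, σ (algebraMap k C y) = x := by
  letI : Algebra C F := σ.toAlgebra
  letI : Algebra k F := (σ.comp (algebraMap k C)).toAlgebra
  letI : Algebra ℚ_[p] F := (σ.comp ((algebraMap k C).comp (algebraMap ℚ_[p] k))).toAlgebra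
  letI : NormedAlgebra ℚ_[p] F :=
    { norm_smul_le := fun r x => by
        have h1 : r • x = σ (algebraMap k C (algebraMap ℚ_[p] k r)) * x := rfl
        rw [h1, norm_mul, hσ, norm_algebraMap', norm_algebraMap'] }
  haveI : IsScalarTower k C F := IsScalarTower.of_algebraMap_eq fun _ => rfl
  haveI : IsScalarTower ℚ_[p] k F := IsScalarTower.of_algebraMap_eq fun _ => rfl
  have h := HAx_381.fixed_mem (p := p) (K := k) (L := C) (C := F) hd x fun s t ht hta =>
    hx s t (fun a => by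
      have := ht.dist_eq a 0
      rwa [map_zero, dist_zero_right, dist_zero_right] at this) hta
  exact h

/-- **RK2** : two systems with non proportional local forms -/
theorem rk2 {p : ℕ} [Fact p.Prime]
    {k : Type*} [NontriviallyNormedField k] [CompleteSpace k] [IsUltrametricDist k]
    [NormedAlgebra ℚ_[p] k] [FiniteDimensional ℚ_[p] k]
    {C : Type*} [NormedField C] [IsUltrametricDist C] [NormedAlgebra k C]
    [Algebra.IsAlgebraic k C] [IsAlgClosed C]
    {K₀ K : Type*} [Field K₀] [Field K] [Algebra k K₀] [Algebra C K] [Algebra K₀ K]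
    [Algebra k K] [IsScalarTower k C K] [IsScalarTower k K₀ K] [hce : CE k C K₀ K]
    [Algebra (RatFunc C) K] [IsScalarTower C (RatFunc C) K] [FiniteDimensional (RatFunc C) K]
    [Algebra.IsSeparable (RatFunc C) K]
    [Algebra (RatFunc k) K₀] [IsScalarTower k (RatFunc k) K₀]
    [FiniteDimensional (RatFunc k) K₀]
    [CharZero k] [CharZero C] (hk : DiscNorm k)
    (hc : algebraicClosure k K₀ = ⊥) (hg : 2 ≤ gen k K₀)
    {em : K →+* EE k C} {t : K₀} {ρ : k} (he : IsEm em t ρ)
    {F : Type*} [NormedField F] [IsUltrametricDist F] [CompleteSpace F] [CharZero F]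
    (σ : C →+* F) (hσ : ∀ a, ‖σ a‖ = ‖a‖) (hd : DenseRange σ) :
    ∃ u u' : PC p Kˣ, DivP C u ∧ DivP C u' ∧
      LinearIndependent F ![OmE hk em he.frac σ hσ u, OmE hk em he.frac σ hσ u'] := by
  haveI : IsAlgClosure k C := ⟨inferInstance, inferInstance⟩
  haveI : Normal k C := IsAlgClosure.normal k C
  haveI : IsGalois k C := {}
  haveI : Algebra.IsAlgebraic K₀ K := CE.isAlgebraic k C K₀ K
  have hp : ‖(p : C)‖ < 1 := norm_p_lt p k C
  have hn : ∀ (s : C ≃ₐ[k] C) (a : C), ‖s a‖ = ‖a‖ := norm_aut p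
  letI : NontriviallyNormedField F :=
    { (inferInstance : NormedField F) with
      non_trivial := by
        obtain ⟨x, hx⟩ := NormedField.exists_one_lt_norm k
        exact ⟨σ (algebraMap k C x), by rw [hσ, norm_algebraMap']; exact hx⟩ }
  by_contra hcon
  push Not at hcon
  obtain ⟨w, hw0, ⟨B, hwB⟩, hw⟩ := exists_w hk hn he σ hσ hp
    (exists_of_fix p σ hσ hd) (fun u u' hu hu' => hcon u u' hu hu')
  exact false_of_line hk hn he σ hσ hp hc hg hw0 hwB hw

end final

end Crest.Agent.R013.DERK5_561
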