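import Mathlib
import Crest.Agent.R013.DERK5_561

/-!
# R013 / DERK6 (helper561): RK2 in the form of 854's `exists_pencil`
-/

set_option autoImplicit false
set_option linter.all false

open scoped NNReal

namespace Crest.Agent.R013.DERK6_561

open Crest.Agent.R013.Cell_408 (DiscNorm BD)
open Crest.Agent.R013.RR7_948 Crest.Agent.R013.RR11_948 Crest.Agent.R013.RR13_948
open Crest.Agent.R013.EE809 Crest.Agent.R013.HU6_522 Crest.Agent.R013.HU9_522
open Crest.Agent.R013.PC_588 Crest.Agent.R013.Desc_372 Crest.Agent.R013.DE6_561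

/-- linearly independent power series have a nonzero `2 × 2` minor -/
theorem exists_minor {F : Type*} [Field F] {W W' : PowerSeries F}
    (h : LinearIndependent F ![W, W']) : ∃ i j, PowerSeries.coeff i W * PowerSeries.coeff j W' ≠
      PowerSeries.coeff j W * PowerSeries.coeff i W' := by
  by_contra hcon
  push Not at hcon
  have hW : W ≠ 0 := h.ne_zero 0
  rw [LinearIndependent.pair_iff' hW] at h
  obtain ⟨j, hj⟩ : ∃ j, PowerSeries.coeff j W ≠ 0 := by
    by_contra h2
    push Not at h2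
    exact hW (PowerSeries.ext fun n => by rw [h2 n, map_zero])
  refine h (PowerSeries.coeff j W' / PowerSeries.coeff j W) ?_
  ext i
  rw [PowerSeries.coeff_smul, smul_eq_mul, div_mul_eq_mul_div, div_eq_iff hj, mul_comm, hcon i j,
    mul_comm]

/-- **RK2**, `ℚ_p`-algebra form -/
theorem rk2 {p : ℕ} [Fact p.Prime]
    {k : Type*} [NontriviallyNormedField k] [CompleteSpace k] [IsUltrametricDist k]
    [Algebra ℚ_[p] k] [FiniteDimensional ℚ_[p] k] (hq : ∀ q : ℚ_[p], ‖algebraMap ℚ_[p] k q‖ = ‖q‖)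
    {C : Type*} [NormedField C] [IsUltrametricDist C] [NormedAlgebra k C]
    [Algebra.IsAlgebraic k C] [IsAlgClosed C]
    {K₀ K : Type*} [Field K₀] [Field K] [Algebra k K₀] [Algebra C K] [Algebra K₀ K]
    [Algebra k K] [IsScalarTower k C K] [IsScalarTower k K₀ K] [hce : CE k C K₀ K]
    [Algebra (RatFunc C) K] [IsScalarTower C (RatFunc C) K] [FiniteDimensional (RatFunc C) K]
    [Algebra.IsSeparable (RatFunc C) K]
    [Algebra (RatFunc k) K₀] [IsScalarTower k (RatFunc k) K₀]
    [FiniteDimensional (RatFunc k) K₀]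
    [CharZero k] [CharZero C] (hk : DiscNorm k)
    (hc : algebraicClosure k K₀ = ⊥) (hg : 2 ≤ gen k K₀)
    {em : K →+* EE k C} {t : K₀} {ρ : k} (he : IsEm em t ρ)
    {F : Type*} [NormedField F] [IsUltrametricDist F] [CompleteSpace F] [CharZero F]
    (σ : C →+* F) (hσ : ∀ a, ‖σ a‖ = ‖a‖) (hd : DenseRange σ) :
    ∃ u u' : PC p Kˣ, DivP C u ∧ DivP C u' ∧
      LinearIndependent F ![OmE hk em he.frac σ hσ u, OmE hk em he.frac σ hσ u'] ∧
      ∃ i j, PowerSeries.coeff i (OmE hk em he.frac σ hσ u) *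
          PowerSeries.coeff j (OmE hk em he.frac σ hσ u') ≠
        PowerSeries.coeff j (OmE hk em he.frac σ hσ u) *
          PowerSeries.coeff i (OmE hk em he.frac σ hσ u') := by
  letI : NormedAlgebra ℚ_[p] k :=
    { norm_smul_le := fun r x => by
        rw [Algebra.smul_def, norm_mul, hq] }
  obtain ⟨u, u', hu, hu', h⟩ := DERK5_561.rk2 (p := p) hk hc hg he σ hσ hd
  exact ⟨u, u', hu, hu', h, exists_minor h⟩

end Crest.Agent.R013.DERK6_561
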