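import Mathlib
import Crest.Agent.R013.HAx_381

/-!
# R013 / DW1 (helper854): the `k`-form of the span of a Galois stable group of vectors
-/

set_option autoImplicit false
set_option linter.all false

namespace Crest.Agent.R013.DW1_854

open Module
open Crest.Agent.R013.HAx_381

noncomputable section

/-- a `k`-basis `b` of the rational vectors of `span_F (range c₀)` and the coordinates `c` -/
theorem exists_form {p : ℕ} [Fact p.Prime]
    {k E F : Type*} [Field k] [Algebra ℚ_[p] k] [FiniteDimensional ℚ_[p] k]
    [Field E] [Algebra k E] [IsAlgClosed E] [Algebra.IsAlgebraic k E]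
    [NormedField F] [NormedAlgebra ℚ_[p] F] [IsUltrametricDist F] [CompleteSpace F]
    [Algebra k F] [Algebra E F] [IsScalarTower k E F] [IsScalarTower ℚ_[p] k F]
    (hd : DenseRange (algebraMap E F)) {g : ℕ} {T : Type*} [AddCommGroup T]
    (c₀ : T →+ (Fin g → F))
    (hS : ∀ (s : E ≃ₐ[k] E) (t : F →+* F), Isometry t →
      (∀ a : E, t (algebraMap E F a) = algebraMap E F (s a)) → ∀ u : T, ∃ u' : T,
        c₀ u' = act t (c₀ u)) :
    ∃ (m : ℕ) (b : Fin m → (Fin g → k)) (c : T →+ (Fin m → F)),
      LinearIndependent k b ∧ LinearIndependent F (fun j => inc k (L := F) (b j)) ∧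
      (∀ u, c₀ u = ∑ j, c u j • inc k (b j)) ∧
      Submodule.span F (Set.range c) = ⊤ ∧
      ∀ u u' : T, (∀ a a' : F, a • c₀ u + a' • c₀ u' = 0 → a = 0 ∧ a' = 0) → 2 ≤ m := by
  classical
  set W := Submodule.span F (Set.range c₀) with hW
  have hax := hax (p := p) (K := k) (L := E) hd (Set.range c₀) (by
    rintro s t ht hta _ ⟨u, rfl⟩
    obtain ⟨u', hu'⟩ := hS s t ht hta u
    exact ⟨u', hu'⟩)
  rw [← hW] at hax
  set W0 := base k W with hW0
  let B := Module.finBasis k W0
  set m := Module.finrank k W0 with hm
  let b : Fin m → (Fin g → k) := fun j => (B j : Fin g → k)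
  have hb : LinearIndependent k b := B.linearIndependent.map' W0.subtype (Submodule.ker_subtype _)
  let φ : (Fin m → k) →ₗ[k] (Fin g → k) := Fintype.linearCombination k b
  have hφ : LinearMap.ker φ = ⊥ := by
    rw [LinearMap.ker_eq_bot]
    exact linearIndependent_iff_injective_fintypeLinearCombination.mp hb
  obtain ⟨ψ, hψ⟩ := φ.exists_leftInverse_of_injective hφ
  have hψb : ∀ j, ψ (b j) = Pi.single j 1 := by
    intro j
    have h := LinearMap.congr_fun hψ (Pi.single j 1)
    rw [LinearMap.comp_apply, LinearMap.id_apply] at h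
    rw [← h]
    congr 1
    simp [φ, Fintype.linearCombination_apply_single]
  -- the `F`-linear extension of `ψ`
  let lam : (Fin g → F) →ₗ[F] (Fin m → F) :=
    { toFun := fun v i => ∑ l, v l * algebraMap k F (ψ (Pi.single l 1) i)
      map_add' := by
        intro v w; ext i
        simp [add_mul, Finset.sum_add_distrib]
      map_smul' := by
        intro a v; ext i
        simp [mul_assoc, Finset.mul_sum] }
  have hlam : ∀ (v : Fin g → F) i, lam v i = ∑ l, v l * algebraMap k F (ψ (Pi.single l 1) i) :=
    fun v i => rfl
  have hlinc : ∀ w : Fin g → k, lam (inc k w) = inc k (ψ w) := by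
    intro w
    ext i
    rw [hlam]
    have h1 : w = ∑ l, w l • (Pi.single l (1 : k) : Fin g → k) := by
      ext x
      simp [Finset.sum_apply, Pi.single_apply]
    have h2 : ψ w i = ∑ l, w l * ψ (Pi.single l 1) i := by
      conv_lhs => rw [h1]
      rw [map_sum, Finset.sum_apply]
      exact Finset.sum_congr rfl fun l _ => by rw [map_smul, Pi.smul_apply, smul_eq_mul]
    rw [inc_apply, h2, map_sum]
    exact Finset.sum_congr rfl fun l _ => by rw [map_mul, inc_apply]
  have hlb : ∀ j, lam (inc k (b j)) = Pi.single j 1 := by
    intro j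
    rw [hlinc, hψb]
    ext i
    rw [inc_apply, Pi.single_apply, Pi.single_apply]
    split_ifs <;> simp
  -- elements of W are combinations of the b_j
  have hcomb : ∀ v ∈ W, v = ∑ j, lam v j • inc k (b j) := by
    intro v hv
    have hv' : v ∈ Submodule.span F (Set.range fun j => inc k (L := F) (b j)) := by
      rw [hax] at hv
      refine Submodule.span_le.mpr ?_ hv
      rintro _ ⟨w, hw, rfl⟩
      have hw2 : (⟨w, hw⟩ : W0) = ∑ j, B.repr ⟨w, hw⟩ j • B j := (B.sum_repr _).symm
      have hw3 : w = ∑ j, B.repr ⟨w, hw⟩ j • b j := by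
        have h := congrArg (W0.subtype) hw2
        rw [map_sum] at h
        exact h
      have hw4 : inc k (L := F) w = ∑ j, algebraMap k F (B.repr ⟨w, hw⟩ j) • inc k (b j) := by
        ext i
        rw [inc_apply, Finset.sum_apply]
        conv_lhs => rw [hw3]
        rw [Finset.sum_apply, map_sum]
        exact Finset.sum_congr rfl fun j _ => by simp
      rw [hw4]
      exact Submodule.sum_mem _ fun j _ =>
        Submodule.smul_mem _ _ (Submodule.subset_span ⟨j, rfl⟩)
    induction hv' using Submodule.span_induction with
    | mem x hx =>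
      obtain ⟨j, rfl⟩ := hx
      simp only
      rw [hlb]
      simp [Pi.single_apply]
    | zero => simp
    | add x y hx hy ihx ihy =>
      have hx' : x ∈ W := by
        refine (Submodule.span_le.mpr ?_) hx
        rintro _ ⟨j, rfl⟩
        exact (B j).2
      have hy' : y ∈ W := by
        refine (Submodule.span_le.mpr ?_) hy
        rintro _ ⟨j, rfl⟩
        exact (B j).2
      rw [map_add]
      simp only [Pi.add_apply, add_smul, Finset.sum_add_distrib]
      rw [← ihx hx', ← ihy hy']
    | smul a x hx ih =>
      have hx' : x ∈ W := by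
        refine (Submodule.span_le.mpr ?_) hx
        rintro _ ⟨j, rfl⟩
        exact (B j).2
      rw [map_smul]
      simp only [Pi.smul_apply, smul_eq_mul, mul_smul, ← Finset.smul_sum]
      rw [← ih hx']
  let c : T →+ (Fin m → F) := lam.toAddMonoidHom.comp c₀
  have hc : ∀ u, c u = lam (c₀ u) := fun u => rfl
  have hc0 : ∀ u, c₀ u = ∑ j, c u j • inc k (b j) := fun u =>
    hcomb _ (Submodule.subset_span ⟨u, rfl⟩)
  refine ⟨m, b, c, hb, ?_, hc0, ?_, ?_⟩
  · rw [Fintype.linearIndependent_iff]
    intro a ha i
    have h := congrArg (fun v => lam v i) ha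
    simp only [map_sum, map_smul, map_zero, Finset.sum_apply, Pi.smul_apply, smul_eq_mul,
      Pi.zero_apply, hlb] at h
    simpa [Pi.single_apply] using h
  · rw [eq_top_iff]
    intro v _
    have h1 : Submodule.span F (Set.range c) = W.map lam := by
      rw [hW, Submodule.map_span, ← Set.range_comp]
      rfl
    rw [h1]
    refine ⟨∑ j, v j • inc k (b j), ?_, ?_⟩
    · exact W.sum_mem fun j _ => W.smul_mem _ (B j).2
    · rw [map_sum]
      simp only [map_smul, hlb]
      ext i
      simp [Finset.sum_apply, Pi.single_apply]
  · intro u u' huu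
    by_contra hlt
    have hm1 : m = 0 ∨ m = 1 := by omega
    rcases hm1 with h0 | h1
    · have hz : c₀ u = 0 := by
        rw [hc0]
        haveI : IsEmpty (Fin m) := by rw [h0]; infer_instance
        simp
      have := huu 1 0 (by rw [hz]; simp)
      exact one_ne_zero this.1
    · have hz : ∀ j j' : Fin m, j = j' := by
        intro j j'
        apply Fin.ext
        have := j.2
        have := j'.2
        omega
      have hm0 : 0 < m := by omega
      let j0 : Fin m := ⟨0, hm0⟩
      have hs : ∀ w : T, c₀ w = c w j0 • inc k (b j0) := by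
        intro w
        rw [hc0 w]
        rw [Finset.sum_eq_single j0]
        · intro j _ hj
          exact absurd (hz j j0) hj
        · intro h; exact absurd (Finset.mem_univ _) h
      by_cases hu0 : c u j0 = 0
      · have := huu 1 0 (by rw [hs u, hu0]; simp)
        exact one_ne_zero this.1
      · have := huu (c u' j0) (-(c u j0)) (by
          rw [hs u, hs u', smul_smul, smul_smul, ← add_smul]
          have : c u' j0 * c u j0 + -(c u j0) * c u' j0 = 0 := by ring
          rw [this, zero_smul])
        exact hu0 (by simpa using this.2)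

end

end Crest.Agent.R013.DW1_854
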