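import Mathlib
import Crest.Agent.R013.HT2_434
import Crest.Agent.R013.HTa_948

/-!
# Row 13, D-line, leaf D-HT (helper434), file 3: the local form is the expansion of a global form

* `co_eq_coef` : `(em f).co i = r ^ i * coef P0 t i f`;
* `limit_rel` : `omega_u` is orthogonal to the functions with poles only at the centre;
* `exists_global` : `omega_u` on the disc end `em` is the expansion of `∑ c_j ω_j`,
  `ω_j` a basis of the regular differentials over `C = k̄`, `c_j` in the complete field `F`.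
-/

set_option autoImplicit false
set_option linter.unusedSectionVars false

open Filter Topology
open scoped NNReal
open Crest.Agent.R013.Cell_408

namespace Crest.Agent.R013.HT_434

open WithZero
open Crest.Agent.R013.RR7_948 Crest.Agent.R013.RR8_948 Crest.Agent.R013.RR9_948
open Crest.Agent.R013.RR11_948 Crest.Agent.R013.RR12_948 Crest.Agent.R013.RR13_948
open Crest.Agent.R013.RR14_948 Crest.Agent.R013.RR17_948
open Crest.Agent.R013.RR26_948 Crest.Agent.R013.RR27_948 Crest.Agent.R013.RR28_948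
open Crest.Agent.R013.RR29_948 (coef coef_apply coef_of_le)
open Crest.Agent.R013.HTa_948 (mS mS_apply_of_mem mS_apply_of_notMem expan exists_expan_all)
open Crest.Agent.R013.GR2_921 (exists_const degP_eq_one)
open Crest.Agent.R013.EE809 Crest.Agent.R013.HU6_522 Crest.Agent.R013.HU3_522
open Crest.Agent.R013.HU1_522 Crest.Agent.R013.HU7_522 Crest.Agent.R013.PC_588
open Crest.Agent.R013.HU8_522 Crest.Agent.R013.HU9_522 Crest.Agent.R013.HU4_522
open Crest.Agent.R013.HU2_522

variable {k : Type*} [NontriviallyNormedField k] [CompleteSpace k] [IsUltrametricDist k]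
variable {C : Type*} [NormedField C] [IsUltrametricDist C] [NormedAlgebra k C] [CharZero C]
  [Algebra.IsAlgebraic k C] [IsAlgClosed C]
variable {K : Type*} [Field K] [Algebra C K] [Algebra (RatFunc C) K] [IsScalarTower C (RatFunc C) K]
  [FiniteDimensional (RatFunc C) K]

section Disc

variable (hk : DiscNorm k) (em : K →+* EE k C)
  (hc : ∀ c : C, em (algebraMap C K c) = mono 0 c (EE809.finDef_const c))
  (hι : ∀ z, ∃ a b : BD k C, b ≠ 0 ∧ em z * bdE b = bdE a)
variable {t : K} {r : C} (hr : r ≠ 0) (ht : em t = mono 1 r (EE809.finDef_const r))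

include hc hr ht in
theorem t_ne_zero : t ≠ 0 := by
  have := lin_ne_zero em hc hr ht 0
  simpa using this

theorem mono_congr {n m : ℤ} {c d : C} (h1 : n = m) (h2 : c = d) (hc : FinDef k (fun _ : Unit => c))
    (hd : FinDef k (fun _ : Unit => d)) : (mono n c hc : EE k C) = mono m d hd := by
  subst h1; subst h2; rfl

include ht in
theorem em_t_pow (n : ℕ) : em (t ^ n) = mono (n : ℤ) (r ^ n) (EE809.finDef_const _) := by
  induction n with
  | zero =>
    rw [pow_zero, map_one, one_def]
    exact mono_congr (by simp) (by simp) _ _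
  | succ n ih =>
    rw [pow_succ, map_mul, ih, ht]
    ext m
    rw [co_mono_mul, co_mono, co_mono]
    by_cases h : m = (n : ℤ) + 1
    · subst h
      rw [if_pos (by ring), if_pos (by push_cast; rfl), pow_succ]
    · rw [if_neg (by intro h1; exact h (by linarith)), if_neg (by push_cast; exact h), mul_zero]

include hk hc hr ht in
theorem em_t_zpow (n : ℤ) : em (t ^ n) = mono n (r ^ n) (EE809.finDef_const _) := by
  have ht0 := t_ne_zero em hc hr ht
  obtain ⟨m, rfl | rfl⟩ := n.eq_nat_or_neg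
  · rw [zpow_natCast, em_t_pow em ht]
    exact mono_congr rfl (by rw [zpow_natCast]) _ _
  · refine EE_cancel hk _ _ (em (t ^ m)) (em_ne_zero em (pow_ne_zero _ ht0)) ?_
    rw [← map_mul, ← zpow_natCast t m, ← zpow_add₀ ht0, neg_add_cancel, zpow_zero, map_one,
      zpow_natCast, em_t_pow em ht]
    ext i
    rw [co_mono_mul, co_mono, one_def, co_mono]
    by_cases h : i = 0
    · subst h
      rw [if_pos rfl, if_pos (by ring), zpow_neg, zpow_natCast, inv_mul_cancel₀ (pow_ne_zero _ hr)]
    · rw [if_neg h, if_neg (by intro h1; exact h (by linarith)), mul_zero]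

/-- values of `t` on the disc -/
theorem v_t {P0 : Pl C K} (hP0 : AtP hk em hι 0 P0)
    (hc : ∀ c : C, em (algebraMap C K c) = mono 0 c (EE809.finDef_const c)) (hr : r ≠ 0)
    (ht : em t = mono 1 r (EE809.finDef_const r)) : P0.v t = exp (-1) := by
  classical
  have h0 : ‖(0 : C)‖ < 1 := by rw [norm_zero]; exact zero_lt_one
  have := v_lin hk em hc hι hr ht h0 hP0
  rwa [if_pos rfl, mul_zero, map_zero, sub_zero] at this

theorem v_t_one {P0 P : Pl C K} (hP0 : AtP hk em hι 0 P0) (hP : P ∈ VP hk em hι) (hne : P ≠ P0)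
    (hc : ∀ c : C, em (algebraMap C K c) = mono 0 c (EE809.finDef_const c)) (hr : r ≠ 0)
    (ht : em t = mono 1 r (EE809.finDef_const r)) : P.v t = 1 := by
  classical
  have h0 : ‖(0 : C)‖ < 1 := by rw [norm_zero]; exact zero_lt_one
  obtain ⟨τ, hτ, hPτ⟩ := hP
  have hτ0 : τ ≠ 0 := by
    rintro rfl
    exact hne (AtP.unique hk em hι hPτ hP0)
  have := v_lin hk em hc hι hr ht h0 hPτ
  rwa [if_neg hτ0, mul_zero, map_zero, sub_zero, exp_zero] at this

include hc hr ht in
/-- **coefficients at the centre** -/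
theorem co_eq_coef {P0 : Pl C K} (hP0 : AtP hk em hι 0 P0) {f : K}
    (hf : ∀ P ∈ VP hk em hι, P ≠ P0 → P.v f ≤ 1) (i : ℤ) :
    (em f).co i = r ^ i * coef P0 t i f := by
  have ht0 := t_ne_zero em hc hr ht
  have h0 : ‖(0 : C)‖ < 1 := by rw [norm_zero]; exact zero_lt_one
  have h1 := disc_res hk em hc hι hr ht (f * (t ^ (-i - 1) * del C K t))
  have h2 : endRes em (f * (t ^ (-i - 1) * del C K t)) = r ^ (-i) * (em f).co i := by
    unfold endRes
    have h3 : em (f * (t ^ (-i - 1) * del C K t)) * th (em (xK C K)) = em (t ^ (-i)) * em f := by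
      rw [map_mul, map_mul, mul_assoc, mul_assoc, ← th_em em hc, ht, th_mono, Int.cast_one, one_mul,
        ← ht, ← map_mul, ← zpow_add_one₀ ht0, mul_comm]
      congr 3
      ring
    rw [h3, em_t_zpow hk em hc hr ht, co_mono_mul]
    congr 2
    ring
  have h4 : VRes hk em hι (f * (t ^ (-i - 1) * del C K t)) =
      ∑ P ∈ {P0}, res P (f * (t ^ (-i - 1) * del C K t)) := by
    refine VRes_eq_sum hk em hι _ {P0} (fun P hP => ?_) fun P hP hne => ?_
    · rw [Finset.mem_singleton] at hP
      rw [hP]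
      exact ⟨0, h0, hP0⟩
    · rw [Finset.mem_singleton]
      by_contra hcon
      refine hne (res_of_le ?_)
      rw [map_mul, map_mul, map_zpow₀, v_t_one hk em hι hP0 hP hcon hc hr ht, one_zpow, one_mul,
        v_del_t hk em hc hι hr ht hP]
      calc P.v f * exp (canD C K P) ≤ 1 * exp (canD C K P) := mul_le_mul' (hf P hP hcon) le_rfl
        _ = _ := one_mul _
  rw [h2, h4, Finset.sum_singleton, ← coef_apply] at h1
  rw [← h1, ← mul_assoc, ← zpow_add₀ hr, add_neg_cancel, zpow_zero, one_mul]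

include hk hc hr ht in
/-- functions with poles only at the centre have finitely many negative coefficients -/
theorem co_eq_zero {P0 : Pl C K} (hP0 : AtP hk em hι 0 P0) {f : K} {m : ℕ}
    (hf : f ∈ LD (mS {P0} m)) {i : ℤ} (hi : i < -m) : (em f).co i = 0 := by
  rw [mem_LD] at hf
  rw [co_eq_coef hk em hc hι hr ht hP0 (fun P _ hne => ?_) i]
  · have h1 := hf P0
    rw [mS_apply_of_mem (Finset.mem_singleton_self P0)] at h1
    rw [coef_of_le (v_t hk em hι hP0 hc hr ht) (h1.trans (by rw [exp_le_exp]; omega)), mul_zero]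
  · have h1 := hf P
    rwa [mS_apply_of_notMem (by rw [Finset.mem_singleton]; exact hne), exp_zero] at h1

variable {p : ℕ} [Fact p.Prime]

/-- the pairing with the unit part -/
theorem co_zero_mul {f W : EE k C} {w : PowerSeries C}
    (hW : ∀ n, W.co n = if 0 < n then PowerSeries.coeff (n - 1).toNat w else 0) {m : ℕ}
    (hf : ∀ i : ℤ, i < -m → f.co i = 0) :
    (f * W).co 0 = ∑ i ∈ Finset.range m, f.co (-(i : ℤ) - 1) * PowerSeries.coeff i w := by
  rw [co_mul]
  let φ : ℕ ↪ ℤ := ⟨fun i => -(i : ℤ) - 1, fun a b h => by simp only at h; omega⟩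
  rw [tsum_eq_sum (s := (Finset.range m).map φ)]
  · rw [Finset.sum_map]
    refine Finset.sum_congr rfl fun i _ => ?_
    show f.co (-(i : ℤ) - 1) * W.co (0 - (-(i : ℤ) - 1)) = _
    rw [hW, if_pos (by omega)]
    congr 3
    omega
  · intro i hi
    rw [hW]
    by_cases h1 : 0 < 0 - i
    · rw [if_pos h1]
      by_cases h2 : i < -m
      · rw [hf i h2, zero_mul]
      · exfalso
        apply hi
        rw [Finset.mem_map]
        refine ⟨(-i - 1).toNat, ?_, ?_⟩
        · rw [Finset.mem_range]; omega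
        · show -(((-i - 1).toNat : ℕ) : ℤ) - 1 = i
          omega
    · rw [if_neg h1, mul_zero]

include hc in
/-- the logarithmic derivative and its unit part -/
theorem exists_dlog_unit {m : ℕ} (hm : m ≠ 0) {z : Kˣ}
    (hz : ∀ P : Pl C K, (m : ℤ) ∣ divf (k := C) (z : K) P) :
    ∃ W : EE k C, (∀ n, W.co n = if 0 < n then
        PowerSeries.coeff (n - 1).toNat (dl (nuE hk em hι z)) else 0) ∧
      gn (th (em (z : K)) * em (z : K)⁻¹ - W) ≤ ‖(m : C)‖ := by
  obtain ⟨c, S, T, hp⟩ := exists_pres_div hk em hc hι hm hz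
  obtain ⟨A, D, U, V, hA, hD, hA', hD', hW, heq⟩ := dlog_disc hk em z.ne_zero hm hp
  refine ⟨th U * V, hW, ?_⟩
  have hAD : gn (A * D) = 1 := by rw [gn_mul hk, hA, hD, one_mul]
  have h1 : gn (th (em (z : K)) * em (z : K)⁻¹ - th U * V) =
      gn ((th (em (z : K)) * em (z : K)⁻¹ - th U * V) * (A * D)) := by
    rw [gn_mul hk _ (A * D), hAD, mul_one]
  rw [h1, sub_mul, heq, add_sub_cancel_left]
  refine (gn_natCast_mul_le _ _).trans ?_
  refine mul_le_of_le_one_right (norm_nonneg _) ((gn_sub_le _ _).trans (max_le ?_ ?_))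
  · rw [gn_mul hk, hA, one_mul]; exact hD'
  · rw [gn_mul hk, hD, one_mul]; exact hA'

include hc hr ht in
theorem finite_rel {P0 : Pl C K} (hP0 : AtP hk em hι 0 P0) {f : K} {m : ℕ}
    (hf : f ∈ LD (mS {P0} m)) {q : ℕ} (hq : q ≠ 0) {z : Kˣ}
    (hz : ∀ P : Pl C K, (q : ℤ) ∣ divf (k := C) (z : K) P) :
    ‖∑ i ∈ Finset.range m, (em f).co (-(i : ℤ) - 1) *
      PowerSeries.coeff i (dl (nuE hk em hι z))‖ ≤ gn (em f) * ‖(q : C)‖ := by
  have h0 : ‖(0 : C)‖ < 1 := by rw [norm_zero]; exact zero_lt_one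
  have hP0V : P0 ∈ VP hk em hι := ⟨0, h0, hP0⟩
  obtain ⟨W, hW, hWd⟩ := exists_dlog_unit hk em hc hι hq hz
  rw [← co_zero_mul hW fun i hi => co_eq_zero hk em hc hι hr ht hP0 hf hi]
  have hpol : ∀ Q : Pl C K, Q ∉ VP hk em hι → Q.v f ≤ 1 := by
    intro Q hQ
    have hne : Q ≠ P0 := by rintro rfl; exact hQ hP0V
    have h1 := (mem_LD.mp hf) Q
    rwa [mS_apply_of_notMem (by rw [Finset.mem_singleton]; exact hne), exp_zero] at h1
  have h1 := estimate hk em hc hι hr ht hpol hz
  set L := th (em (z : K)) * em (z : K)⁻¹ with hL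
  have h2 : em f * W = em f * L - em f * (L - W) := by ring
  rw [h2, co_sub]
  refine (norm_sub_le_max522 _ _).trans (max_le h1 ?_)
  refine (le_gn _ 0).trans ?_
  rw [gn_mul hk]
  exact mul_le_mul_of_nonneg_left hWd (gn_nonneg _)

/-! ### the limit -/

variable {F : Type*} [NormedField F] [IsUltrametricDist F] [CharZero F] [CompleteSpace F]
  (σ : C →+* F) (hσ : ∀ a, ‖σ a‖ = ‖a‖) (hp : ‖(p : C)‖ < 1)

include hc hr ht hp in
/-- **`omega_u` is orthogonal to the functions with poles only at the centre** -/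
theorem limit_rel {P0 : Pl C K} (hP0 : AtP hk em hι 0 P0) {f : K} {m : ℕ}
    (hf : f ∈ LD (mS {P0} m)) {u : PC p Kˣ} (hu : DivP C u) :
    ∑ i ∈ Finset.range m, σ ((em f).co (-(i : ℤ) - 1)) *
      PowerSeries.coeff i (OmE hk em hι σ hσ u) = 0 := by
  have hpF : ‖(p : F)‖ < 1 := by rw [norm_p_F σ hσ]; exact hp
  have key : ∀ n : ℕ, ‖∑ i ∈ Finset.range m, σ ((em f).co (-(i : ℤ) - 1)) *
      PowerSeries.coeff i (OmE hk em hι σ hσ u)‖ ≤ gn (em f) * ‖(p : C)‖ ^ n := by
    intro n
    obtain ⟨z, hz⟩ := exists_rep u n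
    have hpn : p ^ n ≠ 0 := pow_ne_zero _ (Fact.out : p.Prime).ne_zero
    have h1 := finite_rel hk em hc hι hr ht hP0 hf hpn (hu n z hz)
    have hsplit : ∑ i ∈ Finset.range m, σ ((em f).co (-(i : ℤ) - 1)) *
        PowerSeries.coeff i (OmE hk em hι σ hσ u) =
        σ (∑ i ∈ Finset.range m, (em f).co (-(i : ℤ) - 1) *
          PowerSeries.coeff i (dl (nuE hk em hι z))) +
        ∑ i ∈ Finset.range m, σ ((em f).co (-(i : ℤ) - 1)) *
          (PowerSeries.coeff i (OmE hk em hι σ hσ u) -
            PowerSeries.coeff i (dl (nuF hk em hι σ hσ z))) := by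
      rw [map_sum, ← Finset.sum_add_distrib]
      refine Finset.sum_congr rfl fun i _ => ?_
      have h2 : PowerSeries.coeff i (dl (nuF hk em hι σ hσ z)) =
          σ (PowerSeries.coeff i (dl (nuE hk em hι z))) := by
        show PowerSeries.coeff i (dl (mapU σ hσ (nuE hk em hι z))) = _
        rw [dl_mapU, PowerSeries.coeff_map]
      rw [map_mul, h2]
      ring
    rw [hsplit]
    refine (IsUltrametricDist.norm_add_le_max _ _).trans (max_le ?_ ?_)
    · rw [hσ]
      push_cast at h1
      rwa [norm_pow] at h1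
    · refine IsUltrametricDist.norm_sum_le_of_forall_le_of_nonneg
        (mul_nonneg (gn_nonneg _) (pow_nonneg (norm_nonneg _) _)) fun i _ => ?_
      rw [norm_mul, hσ]
      refine mul_le_mul (le_gn _ _) ?_ (norm_nonneg _) (gn_nonneg _)
      have h3 := norm_Om_sub_le hpF (nuF hk em hι σ hσ) hz i
      rw [norm_p_F σ hσ] at h3
      exact h3
  have hlim : Tendsto (fun n : ℕ => gn (em f) * ‖(p : C)‖ ^ n) atTop (𝓝 0) := by
    have := (tendsto_pow_atTop_nhds_zero_of_lt_one (norm_nonneg (p : C)) hp).const_mul (gn (em f))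
    rwa [mul_zero] at this
  exact norm_le_zero_iff.mp (ge_of_tendsto' hlim key)

variable {J : Type*} [Fintype J] (b : Module.Basis J C (LD (canD C K)))

include hc hr ht in
/-- the expansion of a regular form at the end, in terms of the coefficients at the centre -/
theorem co_form {P0 : Pl C K} (hP0 : AtP hk em hι 0 P0) {g : K} (hg : g ∈ LD (canD C K)) (i : ℤ) :
    (em g * th (em (xK C K))).co (i + 1) = r ^ (i + 1) * coef P0 t i (g / del C K t) := by
  have hd := del_t_ne_zero hk em hc hι hr ht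
  have h1 : em g * th (em (xK C K)) = em t * em (g / del C K t) := by
    have h2 : g = (g / del C K t) * del C K t := by rw [div_mul_cancel₀ _ hd]
    conv_lhs => rw [h2]
    rw [map_mul, mul_assoc, ← th_em em hc, ht, th_mono, Int.cast_one, one_mul, mul_comm]
  rw [h1, ht, co_mono_mul, add_sub_cancel_right,
    co_eq_coef hk em hc hι hr ht hP0 (fun P hP _ => ?_) i, zpow_add_one₀ hr]
  · ring
  · rw [map_div₀, v_del_t hk em hc hι hr ht hP]
    have h3 := (mem_LD.mp hg) P
    calc P.v g / exp (canD C K P) ≤ exp (canD C K P) / exp (canD C K P) := by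
          rw [div_eq_mul_inv, div_eq_mul_inv]
          exact mul_le_mul' h3 le_rfl
      _ = 1 := div_self exp_ne_zero

include hc hr ht hp in
/-- **`omega_u` is global**: there are `c_j ∈ F` with `omega_u = ∑ c_j ω_j` on the disc end -/
theorem exists_global {u : PC p Kˣ} (hu : DivP C u) :
    ∃ c : J → F, ∀ i : ℕ, PowerSeries.coeff i (OmE hk em hι σ hσ u) =
      ∑ j, c j * σ ((em (b j : K) * th (em (xK C K))).co ((i : ℤ) + 1)) := by
  have h0 : ‖(0 : C)‖ < 1 := by rw [norm_zero]; exact zero_lt_one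
  obtain ⟨P0, hP0⟩ := exists_AtP hk em hc hι hr ht h0
  letI : Algebra C F := σ.toAlgebra
  have hσr : σ r ≠ 0 := (map_ne_zero σ).mpr hr
  obtain ⟨c, hcW⟩ := exists_expan_all b (C := F) {P0} (fun _ => t)
    (fun P hP => by
      rw [Finset.mem_singleton] at hP
      rw [hP]
      exact v_t hk em hι hP0 hc hr ht)
    (fun _ i => PowerSeries.coeff i (OmE hk em hι σ hσ u) / σ r ^ (i + 1)) (fun m f hf => by
      rw [Finset.sum_singleton]
      rw [← limit_rel hk em hc hι hr ht σ hσ hp hP0 hf hu]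
      refine Finset.sum_congr rfl fun i _ => ?_
      have hf' := mem_LD.mp hf
      rw [co_eq_coef hk em hc hι hr ht hP0 (fun P _ hne => ?_) (-(i : ℤ) - 1), Algebra.smul_def]
      · show σ _ * _ = _
        rw [map_mul, map_zpow₀]
        have h3 : (-(i : ℤ) - 1) = -((i + 1 : ℕ) : ℤ) := by push_cast; ring
        rw [h3, zpow_neg, zpow_natCast]
        field_simp
      · have h1 := hf' P
        rwa [mS_apply_of_notMem (by rw [Finset.mem_singleton]; exact hne), exp_zero] at h1)
  refine ⟨c, fun i => ?_⟩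
  have h1 := hcW P0 (Finset.mem_singleton_self P0) i
  rw [div_eq_iff (pow_ne_zero _ hσr)] at h1
  rw [h1]
  unfold expan
  rw [Finset.sum_mul]
  refine Finset.sum_congr rfl fun j _ => ?_
  rw [co_form hk em hc hι hr ht hP0 (b j).2, map_mul, map_zpow₀]
  have h4 : ((i : ℤ) + 1) = ((i + 1 : ℕ) : ℤ) := by push_cast; rfl
  rw [h4, zpow_natCast]
  show c j * σ _ * _ = _
  ring

end Disc

end Crest.Agent.R013.HT_434
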