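import Mathlib
import Crest.Agent.R013.HT3_434

/-!
# Row 13, D-line, leaf D-HT (helper434), file 4: one global form for all disc ends

`glob σ b c em : PowerSeries F` is the expansion at the end `em` of the form `∑ c_j b_j dX`
(`b` a basis of the regular differentials over `C`, `c : J → F`).

* `exists_om` : for `u` with `DivP C u` there is `c : J → F` with `OmE hk em hι σ hσ u = glob σ b c em`
  for EVERY disc end `em` of `K`;
* `glob_injective` : `c` is determined by the expansion at one disc end with a global coordinate;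
* `omc` : the coordinates of the form of `u`, additive and `ℤ_p`-linear.
-/

set_option autoImplicit false
set_option linter.unusedSectionVars false

open Filter Topology
open scoped NNReal
open Crest.Agent.R013.Cell_408

namespace Crest.Agent.R013.HT_434

open WithZero
open Crest.Agent.R013.RR7_948 Crest.Agent.R013.RR8_948 Crest.Agent.R013.RR9_948
open Crest.Agent.R013.RR11_948 Crest.Agent.R013.RR12_948 Crest.Agent.R013.RR13_948
open Crest.Agent.R013.RR14_948 Crest.Agent.R013.RR17_948
open Crest.Agent.R013.RR26_948 Crest.Agent.R013.RR27_948 Crest.Agent.R013.RR28_948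
open Crest.Agent.R013.RR29_948 (coef coef_apply coef_of_le)
open Crest.Agent.R013.HTa_948 (mS mS_apply_of_mem mS_apply_of_notMem expan exists_expan_all
  expan_injective exists_deg_lt)
open Crest.Agent.R013.GR2_921 (exists_const degP_eq_one)
open Crest.Agent.R013.EE809 Crest.Agent.R013.HU6_522 Crest.Agent.R013.HU3_522
open Crest.Agent.R013.HU1_522 Crest.Agent.R013.HU7_522 Crest.Agent.R013.PC_588
open Crest.Agent.R013.HU8_522 Crest.Agent.R013.HU9_522 Crest.Agent.R013.HU4_522
open Crest.Agent.R013.HU2_522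

variable {k : Type*} [NontriviallyNormedField k] [CompleteSpace k] [IsUltrametricDist k]
variable {C : Type*} [NormedField C] [IsUltrametricDist C] [NormedAlgebra k C] [CharZero C]
  [Algebra.IsAlgebraic k C] [IsAlgClosed C]
variable {K : Type*} [Field K] [Algebra C K] [Algebra (RatFunc C) K] [IsScalarTower C (RatFunc C) K]
  [FiniteDimensional (RatFunc C) K]
variable {p : ℕ} [Fact p.Prime]
variable {F : Type*} [NormedField F] [IsUltrametricDist F] [CharZero F] [CompleteSpace F]
  (σ : C →+* F) (hσ : ∀ a, ‖σ a‖ = ‖a‖)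
variable {J : Type*} [Fintype J] (b : Module.Basis J C (LD (canD C K)))

/-- the expansion (coefficient of `T^i dT`) at the end `em` of the form `∑ c_j b_j dX` -/
noncomputable def glob (c : J → F) (em : K →+* EE k C) : PowerSeries F :=
  PowerSeries.mk fun i => ∑ j, c j * σ ((em (b j : K) * th (em (xK C K))).co ((i : ℤ) + 1))

theorem coeff_glob (c : J → F) (em : K →+* EE k C) (i : ℕ) :
    PowerSeries.coeff i (glob σ b c em) =
      ∑ j, c j * σ ((em (b j : K) * th (em (xK C K))).co ((i : ℤ) + 1)) := by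
  rw [glob, PowerSeries.coeff_mk]

theorem glob_add (c c' : J → F) (em : K →+* EE k C) :
    glob σ b (c + c') em = glob σ b c em + glob σ b c' em := by
  ext i
  rw [map_add, coeff_glob, coeff_glob, coeff_glob, ← Finset.sum_add_distrib]
  exact Finset.sum_congr rfl fun j _ => by rw [Pi.add_apply, add_mul]

theorem glob_smul (a : F) (c : J → F) (em : K →+* EE k C) :
    glob σ b (a • c) em = PowerSeries.C a * glob σ b c em := by
  ext i
  rw [PowerSeries.coeff_C_mul, coeff_glob, coeff_glob, Finset.mul_sum]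
  exact Finset.sum_congr rfl fun j _ => by rw [Pi.smul_apply, smul_eq_mul, mul_assoc]

theorem glob_zero (em : K →+* EE k C) : glob σ b (0 : J → F) em = 0 := by
  ext i
  rw [coeff_glob, map_zero]
  exact Finset.sum_eq_zero fun j _ => by rw [Pi.zero_apply, zero_mul]

section Disc

variable (hk : DiscNorm k)

/-- the norm comparison of two ends for functions with boundedly many poles -/
theorem exists_compare (em0 em1 : K →+* EE k C)
    (hc0 : ∀ c : C, em0 (algebraMap C K c) = mono 0 c (EE809.finDef_const c))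
    (hc1 : ∀ c : C, em1 (algebraMap C K c) = mono 0 c (EE809.finDef_const c)) (hk : DiscNorm k)
    (N : ℤ) : ∃ M : ℝ, 0 < M ∧ ∀ (f : K) (E : Pl C K →₀ ℤ), 0 ≤ E → degD E ≤ N → f ∈ LD E →
      gn (em1 f * th (em1 (xK C K))) ≤ M * gn (em0 f * th (em0 (xK C K))) := by
  obtain ⟨c, hcpos, H⟩ := NC2_522.nc ((wE em0 hk).comap (algebraMap C K))
    (wE em0 hk) (wE em1 hk) (fun a => rfl)
    (fun a => by rw [Valuation.comap_apply, wE_algebraMap em0 hc0, wE_algebraMap em1 hc1])
    (exists_eps em0 hc0 hk) (exists_eps em1 hc1 hk) N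
  set G0 := gn (th (em0 (xK C K))) with hG0
  set G1 := gn (th (em1 (xK C K))) with hG1
  have hG0pos : 0 < G0 := gn_pos (th_em_x_ne_zero em0 hc0)
  have hG1pos : 0 < G1 := gn_pos (th_em_x_ne_zero em1 hc1)
  have hcpos' : (0 : ℝ) < c := by exact_mod_cast hcpos
  refine ⟨G1 / (c * G0), by positivity, fun f E hE hdeg hf => ?_⟩
  have h1 : (c : ℝ) * gn (em1 f) ≤ gn (em0 f) := by
    have := NNReal.coe_le_coe.mpr (H f E hE hdeg hf)
    rwa [NNReal.coe_mul, wE_apply, wE_apply] at this
  rw [gn_mul hk, gn_mul hk, ← hG0, ← hG1]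
  have h2 : gn (em1 f) ≤ gn (em0 f) / c := by rw [le_div_iff₀ hcpos', mul_comm]; exact h1
  calc gn (em1 f) * G1 ≤ (gn (em0 f) / c) * G1 := mul_le_mul_of_nonneg_right h2 hG1pos.le
    _ = G1 / (c * G0) * (gn (em0 f) * G0) := by field_simp

/-- a regular form has an expansion in `T · BD` at a disc end with a coordinate -/
theorem co_form_nonpos (hk : DiscNorm k) (em : K →+* EE k C)
    (hc : ∀ c : C, em (algebraMap C K c) = mono 0 c (EE809.finDef_const c))
    (hι : ∀ z, ∃ a b : BD k C, b ≠ 0 ∧ em z * bdE b = bdE a)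
    {t : K} {r : C} (hr : r ≠ 0) (ht : em t = mono 1 r (EE809.finDef_const r))
    {g : K} (hg : g ∈ LD (canD C K)) {n : ℤ} (hn : n ≤ 0) :
    (em g * th (em (xK C K))).co n = 0 := by
  have h0 : ‖(0 : C)‖ < 1 := by rw [norm_zero]; exact zero_lt_one
  obtain ⟨P0, hP0⟩ := exists_AtP hk em hc hι hr ht h0
  have h1 := co_form hk em hc hι hr ht hP0 hg (n - 1)
  rw [sub_add_cancel] at h1
  rw [h1]
  have hv : P0.v (g / del C K t) ≤ 1 := by
    rw [map_div₀, v_del_t hk em hc hι hr ht (P := P0) ⟨0, h0, hP0⟩]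
    have h3 := (mem_LD.mp hg) P0
    calc P0.v g / exp (canD C K P0) ≤ exp (canD C K P0) / exp (canD C K P0) := by
          rw [div_eq_mul_inv, div_eq_mul_inv]
          exact mul_le_mul' h3 le_rfl
      _ = 1 := div_self exp_ne_zero
  rw [coef_of_le (v_t hk em hι hP0 hc hr ht) (hv.trans (by rw [← exp_zero, exp_le_exp]; omega)),
    mul_zero]

include hk hσ in
/-- **the transfer to every end** -/
theorem transfer (hσd : DenseRange σ) (hp : ‖(p : C)‖ < 1) (em0 em1 : K →+* EE k C)
    (hc0 : ∀ c : C, em0 (algebraMap C K c) = mono 0 c (EE809.finDef_const c))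
    (hι0 : ∀ z, ∃ a b : BD k C, b ≠ 0 ∧ em0 z * bdE b = bdE a)
    {t : K} {r : C} (hr : r ≠ 0) (ht : em0 t = mono 1 r (EE809.finDef_const r))
    (hc1 : ∀ c : C, em1 (algebraMap C K c) = mono 0 c (EE809.finDef_const c))
    (hι1 : ∀ z, ∃ a b : BD k C, b ≠ 0 ∧ em1 z * bdE b = bdE a)
    {u : PC p Kˣ} (hu : DivP C u) {c : J → F}
    (h : OmE hk em0 hι0 σ hσ u = glob σ b c em0) :
    OmE hk em1 hι1 σ hσ u = glob σ b c em1 := by
  classical
  have hpF : ‖(p : F)‖ < 1 := by rw [norm_p_F σ hσ]; exact hp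
  obtain ⟨N, hN⟩ := HU5_522.exists_dlog_rep C K
  obtain ⟨M, hM, HM⟩ := exists_compare em0 em1 hc0 hc1 hk (N + degD (canD C K ⊔ 0))
  -- uniform bounds for the basis at the two ends
  obtain ⟨B, hB0, hB1, hBpos⟩ : ∃ B : ℝ, (∀ j, gn (em0 (b j : K) * th (em0 (xK C K))) ≤ B) ∧
      (∀ j, gn (em1 (b j : K) * th (em1 (xK C K))) ≤ B) ∧ 1 ≤ B := by
    refine ⟨1 + ∑ j, (gn (em0 (b j : K) * th (em0 (xK C K))) +
      gn (em1 (b j : K) * th (em1 (xK C K)))), fun j => ?_, fun j => ?_, ?_⟩
    · have h1 := Finset.single_le_sum (f := fun j => gn (em0 (b j : K) * th (em0 (xK C K))) +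
        gn (em1 (b j : K) * th (em1 (xK C K)))) (fun j _ => add_nonneg (gn_nonneg _) (gn_nonneg _))
        (Finset.mem_univ j)
      have h2 := gn_nonneg (em1 (b j : K) * th (em1 (xK C K)))
      linarith
    · have h1 := Finset.single_le_sum (f := fun j => gn (em0 (b j : K) * th (em0 (xK C K))) +
        gn (em1 (b j : K) * th (em1 (xK C K)))) (fun j _ => add_nonneg (gn_nonneg _) (gn_nonneg _))
        (Finset.mem_univ j)
      have h2 := gn_nonneg (em0 (b j : K) * th (em0 (xK C K)))
      linarith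
    · have h1 : 0 ≤ ∑ j, (gn (em0 (b j : K) * th (em0 (xK C K))) +
        gn (em1 (b j : K) * th (em1 (xK C K)))) :=
        Finset.sum_nonneg fun j _ => add_nonneg (gn_nonneg _) (gn_nonneg _)
      linarith
  have hpC : 0 < ‖(p : C)‖ := norm_p_pos
  -- the estimate at level `n`
  have key : ∀ (n i : ℕ), ‖PowerSeries.coeff i (OmE hk em1 hι1 σ hσ u) -
      PowerSeries.coeff i (glob σ b c em1)‖ ≤ (max 1 M * B) * ‖(p : C)‖ ^ n := by
    intro n i
    have hpn : p ^ n ≠ 0 := pow_ne_zero _ (Fact.out : p.Prime).ne_zero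
    have hnorm : ‖((p ^ n : ℕ) : C)‖ = ‖(p : C)‖ ^ n := by push_cast; rw [norm_pow]
    have hεpos : 0 < ‖(p : C)‖ ^ n := pow_pos hpC n
    -- approximate the coordinates
    have happ : ∀ j, ∃ a : C, ‖c j - σ a‖ ≤ ‖(p : C)‖ ^ n := by
      intro j
      obtain ⟨a, ha⟩ := Metric.denseRange_iff.1 hσd (c j) _ hεpos
      rw [dist_eq_norm] at ha
      exact ⟨a, ha.le⟩
    choose a ha using happ
    set w : K := ∑ j, algebraMap C K (a j) * (b j : K) with hw
    have hwmem : w ∈ LD (canD C K) := by
      have : w = ((∑ j, a j • b j : LD (canD C K)) : K) := by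
        rw [AddSubmonoidClass.coe_finsetSum, hw]
        refine Finset.sum_congr rfl fun j _ => ?_
        rw [Submodule.coe_smul, Algebra.smul_def]
      rw [this]
      exact (∑ j, a j • b j : LD (canD C K)).2
    -- the good representative
    obtain ⟨z, hz⟩ := exists_rep u n
    obtain ⟨f, hf0, E, hE, hEdeg, hEmem⟩ := hN (p ^ n) (z : K) hpn z.ne_zero (hu n z hz)
    let z' : Kˣ := z * (Units.mk0 f hf0) ^ (p ^ n)
    have hz' : Rep u n z' := hz.eq_iff.2 ⟨_, rfl⟩
    have hval : (z' : K) = (z : K) * f ^ (p ^ n) := by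
      simp only [z']; push_cast; rfl
    rw [← hval] at hEmem
    set D : K := del C K (z' : K) / (z' : K) - w with hD
    have hDmem : D ∈ LD (E + (canD C K ⊔ 0)) := by
      have hcan0 : (0 : Pl C K →₀ ℤ) ≤ canD C K ⊔ 0 := le_sup_right
      have hcan1 : canD C K ≤ canD C K ⊔ 0 := le_sup_left
      refine sub_mem ?_ ?_
      · rw [mem_LD] at hEmem ⊢
        intro P
        refine (hEmem P).trans ?_
        rw [exp_le_exp, Finsupp.add_apply]
        have := hcan0 P
        rw [Finsupp.zero_apply] at this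
        omega
      · rw [mem_LD] at hwmem ⊢
        intro P
        refine (hwmem P).trans ?_
        rw [exp_le_exp, Finsupp.add_apply]
        have h1 := hcan1 P
        have h2 := hE P
        rw [Finsupp.zero_apply] at h2
        omega
    have hE' : 0 ≤ E + (canD C K ⊔ 0) := add_nonneg hE le_sup_right
    have hdeg' : degD (E + (canD C K ⊔ 0)) ≤ N + degD (canD C K ⊔ 0) := by
      rw [degD_add]; omega
    have hcmp := HM D _ hE' hdeg' hDmem
    -- expansions of `w`
    have hwco : ∀ (em : K →+* EE k C), (∀ c : C, em (algebraMap C K c) =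
        mono 0 c (EE809.finDef_const c)) → ∀ m : ℤ, (em w * th (em (xK C K))).co m =
        ∑ j, a j * (em (b j : K) * th (em (xK C K))).co m := by
      intro em hc m
      have h1 : ∀ (s : Finset J), (em (∑ j ∈ s, algebraMap C K (a j) * (b j : K)) *
          th (em (xK C K))).co m = ∑ j ∈ s, a j * (em (b j : K) * th (em (xK C K))).co m := by
        intro s
        induction s using Finset.induction_on with
        | empty => simp
        | insert j s hj ih =>
          rw [Finset.sum_insert hj, Finset.sum_insert hj, map_add, add_mul, co_add, ih, map_mul,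
            hc, mul_assoc, co_mono_mul, sub_zero]
      exact h1 Finset.univ
    -- the end em0
    obtain ⟨W0, hW0, hW0d⟩ := exists_dlog_unit hk em0 hc0 hι0 hpn (hu n z' hz')
    obtain ⟨W1, hW1, hW1d⟩ := exists_dlog_unit hk em1 hc1 hι1 hpn (hu n z' hz')
    rw [hnorm] at hW0d hW1d
    have hD0 : gn (em0 D * th (em0 (xK C K))) ≤ B * ‖(p : C)‖ ^ n := by
      have h1 : em0 D * th (em0 (xK C K)) = (th (em0 (z' : K)) * em0 (z' : K)⁻¹ - W0) +
          (W0 - em0 w * th (em0 (xK C K))) := by
        rw [hD, map_sub, sub_mul, ← dlog_em em0 hc0]; ring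
      rw [h1]
      refine (gn_add_le _ _).trans (max_le ?_ ?_)
      · refine hW0d.trans ?_
        exact le_mul_of_one_le_left hεpos.le hBpos
      · refine gn_le fun m => ?_
        rw [co_sub, hwco em0 hc0, hW0]
        split_ifs with hm
        · -- positive index
          have hmi : ((m - 1).toNat : ℤ) + 1 = m := by omega
          set i0 := (m - 1).toNat with hi0
          have e1 := norm_Om_sub_le hpF (nuF hk em0 hι0 σ hσ) hz' i0
          have e2 : PowerSeries.coeff i0 (dl (nuF hk em0 hι0 σ hσ z')) =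
              σ (PowerSeries.coeff i0 (dl (nuE hk em0 hι0 z'))) := by
            show PowerSeries.coeff i0 (dl (mapU σ hσ (nuE hk em0 hι0 z'))) = _
            rw [dl_mapU, PowerSeries.coeff_map]
          have e3 : PowerSeries.coeff i0 (Om (nuF hk em0 hι0 σ hσ) u) =
              PowerSeries.coeff i0 (glob σ b c em0) := congrArg (PowerSeries.coeff i0) h
          rw [e2, e3, norm_p_F σ hσ, coeff_glob, hmi] at e1
          rw [← hσ, map_sub, map_sum]
          have e4 : σ (PowerSeries.coeff i0 (dl (nuE hk em0 hι0 z'))) -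
              ∑ j, σ (a j * (em0 (b j : K) * th (em0 (xK C K))).co m) =
              -(∑ j, c j * σ ((em0 (b j : K) * th (em0 (xK C K))).co m) -
                σ (PowerSeries.coeff i0 (dl (nuE hk em0 hι0 z')))) +
              ∑ j, (c j - σ (a j)) * σ ((em0 (b j : K) * th (em0 (xK C K))).co m) := by
            have e5 : ∑ j, (c j - σ (a j)) * σ ((em0 (b j : K) * th (em0 (xK C K))).co m) =
                ∑ j, c j * σ ((em0 (b j : K) * th (em0 (xK C K))).co m) -
                ∑ j, σ (a j * (em0 (b j : K) * th (em0 (xK C K))).co m) := by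
              rw [← Finset.sum_sub_distrib]
              exact Finset.sum_congr rfl fun j _ => by rw [map_mul]; ring
            rw [e5]; ring
          rw [e4]
          refine (IsUltrametricDist.norm_add_le_max _ _).trans (max_le ?_ ?_)
          · rw [norm_neg]
            exact e1.trans (le_mul_of_one_le_left hεpos.le hBpos)
          · refine IsUltrametricDist.norm_sum_le_of_forall_le_of_nonneg (by positivity)
              fun j _ => ?_
            rw [norm_mul, hσ, mul_comm]
            exact mul_le_mul ((le_gn _ _).trans (hB0 j)) (ha j) (norm_nonneg _)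
              (by linarith)
        · -- nonpositive index
          rw [Finset.sum_eq_zero fun j _ => by
            rw [co_form_nonpos hk em0 hc0 hι0 hr ht (b j).2 (not_lt.mp hm), mul_zero]]
          rw [sub_zero, norm_zero]
          positivity
    have hD1 : gn (em1 D * th (em1 (xK C K))) ≤ (max 1 M * B) * ‖(p : C)‖ ^ n := by
      refine hcmp.trans ?_
      calc M * gn (em0 D * th (em0 (xK C K))) ≤ M * (B * ‖(p : C)‖ ^ n) :=
            mul_le_mul_of_nonneg_left hD0 hM.le
        _ ≤ max 1 M * (B * ‖(p : C)‖ ^ n) := by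
            refine mul_le_mul_of_nonneg_right (le_max_right _ _) ?_
            have : 0 ≤ B := by linarith
            positivity
        _ = _ := by ring
    have hMB : ‖(p : C)‖ ^ n ≤ (max 1 M * B) * ‖(p : C)‖ ^ n := by
      refine le_mul_of_one_le_left hεpos.le ?_
      exact one_le_mul_of_one_le_of_one_le (le_max_left _ _) hBpos
    -- back to the unit part at `em1`
    have hfin : gn (W1 - em1 w * th (em1 (xK C K))) ≤ (max 1 M * B) * ‖(p : C)‖ ^ n := by
      have h1 : W1 - em1 w * th (em1 (xK C K)) = em1 D * th (em1 (xK C K)) -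
          (th (em1 (z' : K)) * em1 (z' : K)⁻¹ - W1) := by
        rw [hD, map_sub, sub_mul, ← dlog_em em1 hc1]; ring
      rw [h1]
      exact (gn_sub_le _ _).trans (max_le hD1 (hW1d.trans hMB))
    have e0 := (le_gn (W1 - em1 w * th (em1 (xK C K))) ((i : ℤ) + 1)).trans hfin
    rw [co_sub, hwco em1 hc1, hW1, if_pos (by omega)] at e0
    have hi : ((i : ℤ) + 1 - 1).toNat = i := by omega
    rw [hi] at e0
    have e1 := norm_Om_sub_le hpF (nuF hk em1 hι1 σ hσ) hz' i
    have e2 : PowerSeries.coeff i (dl (nuF hk em1 hι1 σ hσ z')) =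
        σ (PowerSeries.coeff i (dl (nuE hk em1 hι1 z'))) := by
      show PowerSeries.coeff i (dl (mapU σ hσ (nuE hk em1 hι1 z'))) = _
      rw [dl_mapU, PowerSeries.coeff_map]
    rw [e2, norm_p_F σ hσ] at e1
    rw [← hσ, map_sub, map_sum] at e0
    rw [coeff_glob]
    have e4 : PowerSeries.coeff i (OmE hk em1 hι1 σ hσ u) -
        ∑ j, c j * σ ((em1 (b j : K) * th (em1 (xK C K))).co ((i : ℤ) + 1)) =
        (PowerSeries.coeff i (Om (nuF hk em1 hι1 σ hσ) u) -
          σ (PowerSeries.coeff i (dl (nuE hk em1 hι1 z')))) +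
        ((σ (PowerSeries.coeff i (dl (nuE hk em1 hι1 z'))) -
          ∑ j, σ (a j * (em1 (b j : K) * th (em1 (xK C K))).co ((i : ℤ) + 1))) -
        ∑ j, (c j - σ (a j)) * σ ((em1 (b j : K) * th (em1 (xK C K))).co ((i : ℤ) + 1))) := by
      have e5 : ∑ j, (c j - σ (a j)) * σ ((em1 (b j : K) * th (em1 (xK C K))).co ((i : ℤ) + 1)) =
          ∑ j, c j * σ ((em1 (b j : K) * th (em1 (xK C K))).co ((i : ℤ) + 1)) -
          ∑ j, σ (a j * (em1 (b j : K) * th (em1 (xK C K))).co ((i : ℤ) + 1)) := by
        rw [← Finset.sum_sub_distrib]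
        exact Finset.sum_congr rfl fun j _ => by rw [map_mul]; ring
      rw [e5]
      show PowerSeries.coeff i (Om (nuF hk em1 hι1 σ hσ) u) - _ = _
      ring
    rw [e4]
    refine (IsUltrametricDist.norm_add_le_max _ _).trans (max_le (e1.trans hMB) ?_)
    refine (norm_sub_le_max522 _ _).trans (max_le e0 ?_)
    refine IsUltrametricDist.norm_sum_le_of_forall_le_of_nonneg ?_ fun j _ => ?_
    · exact hεpos.le.trans hMB
    · rw [norm_mul, hσ, mul_comm]
      calc ‖(em1 (b j : K) * th (em1 (xK C K))).co ((i : ℤ) + 1)‖ * ‖c j - σ (a j)‖ ≤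
          B * ‖(p : C)‖ ^ n :=
            mul_le_mul ((le_gn _ _).trans (hB1 j)) (ha j) (norm_nonneg _) (by linarith)
        _ ≤ (max 1 M * B) * ‖(p : C)‖ ^ n := by
            refine mul_le_mul_of_nonneg_right ?_ hεpos.le
            exact le_mul_of_one_le_left (by linarith) (le_max_left _ _)
  ext i
  have hlim : Tendsto (fun n : ℕ => (max 1 M * B) * ‖(p : C)‖ ^ n) atTop (𝓝 0) := by
    have := (tendsto_pow_atTop_nhds_zero_of_lt_one (norm_nonneg (p : C)) hp).const_mul (max 1 M * B)
    rwa [mul_zero] at this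
  exact sub_eq_zero.mp (norm_le_zero_iff.mp (ge_of_tendsto' hlim fun n => key n i))

include hk hσ in
/-- **D-HT**: the local forms of `u` at all the disc ends are the expansions of ONE global form -/
theorem exists_om (hσd : DenseRange σ) (hp : ‖(p : C)‖ < 1) (em0 : K →+* EE k C)
    (hc0 : ∀ c : C, em0 (algebraMap C K c) = mono 0 c (EE809.finDef_const c))
    (hι0 : ∀ z, ∃ a b : BD k C, b ≠ 0 ∧ em0 z * bdE b = bdE a)
    {t : K} {r : C} (hr : r ≠ 0) (ht : em0 t = mono 1 r (EE809.finDef_const r))
    {u : PC p Kˣ} (hu : DivP C u) :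
    ∃ c : J → F, ∀ (em : K →+* EE k C)
      (_ : ∀ c : C, em (algebraMap C K c) = mono 0 c (EE809.finDef_const c))
      (hι : ∀ z, ∃ a b : BD k C, b ≠ 0 ∧ em z * bdE b = bdE a),
      OmE hk em hι σ hσ u = glob σ b c em := by
  obtain ⟨c, hc⟩ := exists_global hk em0 hc0 hι0 hr ht σ hσ hp b hu
  have h0 : OmE hk em0 hι0 σ hσ u = glob σ b c em0 := by
    ext i
    rw [coeff_glob, hc i]
  exact ⟨c, fun em hc1 hι1 => transfer σ hσ b hk hσd hp em0 em hc0 hι0 hr ht hc1 hι1 hu h0⟩

/-- **uniqueness**: the expansion at one disc end with a coordinate determines the form -/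
theorem glob_injective (em : K →+* EE k C)
    (hc : ∀ c : C, em (algebraMap C K c) = mono 0 c (EE809.finDef_const c))
    (hι : ∀ z, ∃ a b : BD k C, b ≠ 0 ∧ em z * bdE b = bdE a) (hk : DiscNorm k)
    {t : K} {r : C} (hr : r ≠ 0) (ht : em t = mono 1 r (EE809.finDef_const r))
    {c c' : J → F} (h : glob σ b c em = glob σ b c' em) : c = c' := by
  have h0 : ‖(0 : C)‖ < 1 := by rw [norm_zero]; exact zero_lt_one
  obtain ⟨P0, hP0⟩ := exists_AtP hk em hc hι hr ht h0
  let _ : Algebra C F := σ.toAlgebra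
  have hσr : σ r ≠ 0 := (map_ne_zero σ).mpr hr
  obtain ⟨m, hm⟩ := exists_deg_lt P0
  refine expan_injective b (C := F) (v_t hk em hι hP0 hc hr ht) hm fun i _ => ?_
  have key : ∀ d : J → F, PowerSeries.coeff i (glob σ b d em) =
      expan b (C := F) d P0 t (i : ℤ) * σ r ^ (i + 1) := by
    intro d
    rw [coeff_glob]
    unfold expan
    rw [Finset.sum_mul]
    refine Finset.sum_congr rfl fun j _ => ?_
    rw [co_form hk em hc hι hr ht hP0 (b j).2, map_mul, map_zpow₀]
    have h4 : ((i : ℤ) + 1) = ((i + 1 : ℕ) : ℤ) := by push_cast; rfl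
    rw [h4, zpow_natCast]
    show _ = d j * σ _ * _
    ring
  have h1 := congrArg (PowerSeries.coeff i) h
  rw [key, key] at h1
  exact mul_right_cancel₀ (pow_ne_zero _ hσr) h1

end Disc

end Crest.Agent.R013.HT_434
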