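import Mathlib
import Crest.Agent.R013.HT4_434
import Crest.Agent.R013.HU11_522
import Crest.Agent.R013.DE2_854
import Crest.Agent.R013.DW1_854

/-!
# R013 / DW2 (helper854): Galois action on forms and on `PC p Kˣ`

`K = K₀ ⊗_k C` (372's `CE`), `x = xK C K ∈ K₀`.

* `del_equiv` : `del C K (s f) = s (del C K f)` for `s : K ≃ₐ[K₀] K`;
* `canD_inv`, `exists_basis` : `LD (canD C K)` has a basis in `K₀`;
* `DivP_map` : `DivP` is stable under the Galois action;
* `glob_act` : the Galois action on expansions.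
-/

set_option autoImplicit false
set_option linter.all false

open scoped NNReal

namespace Crest.Agent.R013.DW2_854

open WithZero Module Crest.Agent.R013.Desc_372 Crest.Agent.R013.DescP_429
open Crest.Agent.R013.RR7_948 Crest.Agent.R013.RR8_948 Crest.Agent.R013.RR9_948
open Crest.Agent.R013.RR11_948 Crest.Agent.R013.RR12_948 Crest.Agent.R013.RR13_948
open Crest.Agent.R013.RR14_948 Crest.Agent.R013.RR15_948 Crest.Agent.R013.RR26_948
open Crest.Agent.R013.Car5_700 (v_del_eq)

section alg

variable {k C K₀ K : Type*} [Field k] [Field C] [Field K₀] [Field K] [Algebra k C]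
    [Algebra k K₀] [Algebra C K] [Algebra K₀ K] [Algebra k K] [IsScalarTower k C K]
    [IsScalarTower k K₀ K]
    [Algebra (RatFunc C) K] [IsScalarTower C (RatFunc C) K] [FiniteDimensional (RatFunc C) K]
    [Algebra.IsSeparable (RatFunc C) K]

/-- the derivation `d/dx` commutes with the Galois action -/
theorem del_equiv [Normal k C] (s : K ≃ₐ[K₀] K) (hx : s (xK C K) = xK C K) (f : K) :
    del C K (s f) = s (del C K f) := by
  have hs : ∀ (c : C) (g : K), s.symm (c • g) = CE.res k C K₀ K s.symm c • s.symm g := by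
    intro c g
    rw [Algebra.smul_def, Algebra.smul_def, map_mul, CE.algebraMap_res k C K₀ K]
  have hs' : ∀ (c : C) (g : K), s (CE.res k C K₀ K s.symm c • g) = c • s g := by
    intro c g
    rw [Algebra.smul_def, Algebra.smul_def, map_mul, CE.algebraMap_res k C K₀ K,
      AlgEquiv.apply_symm_apply]
  let D1 : Derivation C K K := Derivation.mk'
    { toFun := fun g => s (del C K (s.symm g))
      map_add' := fun a b => by rw [map_add, map_add, map_add]
      map_smul' := fun c g => by
        rw [hs, Derivation.map_smul, hs', RingHom.id_apply] }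
    (fun a b => by
      show s (del C K (s.symm (a * b))) = a • s (del C K (s.symm b)) + b • s (del C K (s.symm a))
      rw [map_mul, Derivation.leibniz, smul_eq_mul, smul_eq_mul, map_add, map_mul, map_mul,
        AlgEquiv.apply_symm_apply, AlgEquiv.apply_symm_apply, smul_eq_mul, smul_eq_mul])
  have hD1 : ∀ g, D1 g = s (del C K (s.symm g)) := fun g => rfl
  have h2 := congrArg D1.liftKaehlerDifferential (D_eq C K (s f))
  rw [map_smul, Derivation.liftKaehlerDifferential_comp_D,
    Derivation.liftKaehlerDifferential_comp_D, hD1, hD1, AlgEquiv.symm_apply_apply] at h2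
  have hx' : s.symm (xK C K) = xK C K := by
    rw [AlgEquiv.symm_apply_eq]; exact hx.symm
  rw [hx', del_xK, map_one, smul_eq_mul, mul_one] at h2
  exact h2.symm

/-- the canonical divisor is invariant -/
theorem canD_inv [PerfectField C] [Normal k C] (s : K ≃ₐ[K₀] K) (hx : s (xK C K) = xK C K) (Q : Pl C K) :
    canD C K (comapPl k C s Q) = canD C K Q := by
  obtain ⟨t, _, ht⟩ := exists_v_eq (comapPl k C s Q) (-1)
  have h1 := v_del_eq (comapPl k C s Q) ht
  rw [comapPl_v] at ht h1
  have h2 := v_del_eq Q (t := s t) ht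
  rw [del_equiv (k := k) (C := C) s hx, h1, exp_inj] at h2
  exact h2

/-- the regular forms have a basis in `K₀` -/
theorem exists_basis [PerfectField C] [IsGalois k C] [CE k C K₀ K]
    (hx : ∃ x₀ : K₀, algebraMap K₀ K x₀ = xK C K) :
    ∃ (b : Basis (Fin (ell (canD C K))) C (LD (canD C K))) (b₀ : Fin (ell (canD C K)) → K₀),
      ∀ j, algebraMap K₀ K (b₀ j) = b j := by
  have hxs : ∀ s : K ≃ₐ[K₀] K, s (xK C K) = xK C K := by
    obtain ⟨x₀, hx₀⟩ := hx
    intro s
    rw [← hx₀, s.commutes]
  obtain ⟨b, hb⟩ := exists_basis_LD (k := k) (C := C) (K₀ := K₀) (K := K) (k' := ⊥)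
    (D := canD C K) (fun s _ Q => canD_inv (k := k) (C := C) s (hxs s) Q)
  have h1 := fun j => DE2_854.mem_lev_bot k C K₀ K (hb j)
  choose b₀ hb₀ using h1
  exact ⟨b, b₀, hb₀⟩

end alg

section divP

open Crest.Agent.R013.PC_588 Crest.Agent.R013.HU9_522

variable {k C K₀ K : Type*} [Field k] [Field C] [Field K₀] [Field K] [Algebra k C]
    [Algebra k K₀] [Algebra C K] [Algebra K₀ K] [Algebra k K] [IsScalarTower k C K]
    [IsScalarTower k K₀ K]
    [Algebra (RatFunc C) K] [IsScalarTower C (RatFunc C) K] [FiniteDimensional (RatFunc C) K]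
    [Algebra.IsSeparable (RatFunc C) K]

theorem divf_equiv [Normal k C] (s : K ≃ₐ[K₀] K) {f : K} (hf : f ≠ 0) (Q : Pl C K) :
    divf (k := C) (s f) Q = divf (k := C) f (comapPl k C s Q) := by
  have hsf : s f ≠ 0 := by simpa using hf
  have h1 := v_eq (k := C) hsf Q
  have h2 := v_eq (k := C) hf (comapPl k C s Q)
  rw [comapPl_v, h1, exp_inj] at h2
  omega

/-- the Galois action on `Kˣ` -/
noncomputable def actU (s : K ≃ₐ[K₀] K) : Kˣ →* Kˣ := Units.map (s : K →* K)

@[simp] theorem coe_actU (s : K ≃ₐ[K₀] K) (z : Kˣ) : ((actU s z : Kˣ) : K) = s z := rfl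

/-- `DivP` is stable under the Galois action -/
theorem DivP_map [CharZero C] [Normal k C] (s : K ≃ₐ[K₀] K) {p : ℕ} [Fact p.Prime] {u : PC p Kˣ}
    (hu : DivP C u) : DivP C (PC.map (actU s) u) := by
  intro n h hr P
  obtain ⟨g, hg⟩ := exists_rep u n
  obtain ⟨h', rfl⟩ := ((hg.map (actU s)).eq_iff).1 hr
  have e1 : divf (k := C) (((actU s g * h' ^ p ^ n : Kˣ)) : K) P =
      divf (k := C) (g : K) (comapPl k C s P) + (p ^ n : ℕ) * divf (k := C) (h' : K) P := by
    rw [Units.val_mul, Units.val_pow_eq_pow_val, coe_actU,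
      divf_mul (by simpa using g.ne_zero) (pow_ne_zero _ h'.ne_zero), Finsupp.add_apply,
      divf_equiv (k := k) s g.ne_zero, HU5_522.divf_pow h'.ne_zero, Finsupp.smul_apply, smul_eq_mul]
  rw [e1]
  exact dvd_add (hu n g hg _) (dvd_mul_right _ _)

end divP

section glob

open Crest.Agent.R013.Cell_408
open Crest.Agent.R013.EE809 Crest.Agent.R013.HU6_522 Crest.Agent.R013.HU3_522
open Crest.Agent.R013.HU1_522 Crest.Agent.R013.HU7_522 Crest.Agent.R013.PC_588
open Crest.Agent.R013.HU8_522 Crest.Agent.R013.HU9_522 Crest.Agent.R013.HU4_522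
open Crest.Agent.R013.HU2_522 Crest.Agent.R013.HU11_522 Crest.Agent.R013.HT_434
open Crest.Agent.R013.HAx_381

variable {k : Type*} [NontriviallyNormedField k] [CompleteSpace k] [IsUltrametricDist k]
variable {C : Type*} [NormedField C] [IsUltrametricDist C] [NormedAlgebra k C] [CharZero C]
  [Algebra.IsAlgebraic k C] [IsAlgClosed C]
variable {K₀ K : Type*} [Field K₀] [Field K] [Algebra k K₀] [Algebra C K] [Algebra K₀ K]
  [Algebra k K] [IsScalarTower k C K] [IsScalarTower k K₀ K]
  [Algebra (RatFunc C) K] [IsScalarTower C (RatFunc C) K] [FiniteDimensional (RatFunc C) K]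
variable {p : ℕ} [Fact p.Prime]
variable {F : Type*} [NormedField F] [IsUltrametricDist F] [CharZero F] [CompleteSpace F]
  (σ : C →+* F) (hσ : ∀ a, ‖σ a‖ = ‖a‖)
variable {J : Type*} [Fintype J] (b : Module.Basis J C (LD (canD C K)))
  (em : K →+* EE k C) (τ : C →ₐ[k] C) (hτ : ∀ a, ‖τ a‖ = ‖a‖)
  (s : K ≃ₐ[K₀] K) (hs : ∀ z : K, em (s z) = EEmap τ hτ (em z))

include hs in
/-- the expansion of a form over `K₀` has invariant coefficients -/
theorem co_fixed {z x₀ : K} (hz : s z = z) (hx : s x₀ = x₀) (n : ℤ) :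
    τ ((em z * th (em x₀)).co n) = (em z * th (em x₀)).co n := by
  have h1 : EEmap τ hτ (em z * th (em x₀)) = em z * th (em x₀) := by
    rw [map_mul, ← th_EEmap, ← hs, ← hs, hz, hx]
  rw [← co_EEmap τ hτ, h1]

variable (τF : F →+* F) (hτσ : ∀ a, τF (σ a) = σ (τ a))

include hs hτσ in
/-- the Galois action on the expansions -/
theorem glob_act (hb : ∀ j, s (b j : K) = b j) (hx : s (xK C K) = xK C K) (c : J → F) :
    glob σ b (act τF c) em = PowerSeries.map τF (glob σ b c em) := by
  ext i
  rw [PowerSeries.coeff_map, coeff_glob, coeff_glob, map_sum]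
  refine Finset.sum_congr rfl fun j _ => ?_
  rw [map_mul, hτσ, co_fixed em τ hτ s hs (hb j) hx]
  rfl

variable (hk : DiscNorm k)
  (hc : ∀ c : C, em (algebraMap C K c) = mono 0 c (EE809.finDef_const c))
  (hι : ∀ z, ∃ a b : BD k C, b ≠ 0 ∧ em z * bdE b = bdE a)
  (hτF : ∀ a, ‖τF a‖ = ‖a‖) (hp : ‖(p : C)‖ < 1)

include hs hτσ hτF hp hc in
/-- **equivariance of the coordinates of the form of `u`** -/
theorem coord_act {t : K} {r : C} (hr : r ≠ 0) (ht : em t = mono 1 r (EE809.finDef_const r))
    (hb : ∀ j, s (b j : K) = b j) (hx : s (xK C K) = xK C K) {u : PC p Kˣ} {c c' : J → F}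
    (h : OmE hk em hι σ hσ u = glob σ b c em)
    (h' : OmE hk em hι σ hσ (PC.map (actU s) u) = glob σ b c' em) : c' = act τF c := by
  have h1 := OmE_map hk τ hτ em em hι hι (actU s) (fun z => hs z) σ hσ τF hτF hτσ hp u
  rw [h', h, ← glob_act σ b em τ hτ s hs τF hτσ hb hx] at h1
  exact glob_injective σ b em hc hι hk hr ht h1

end glob

end Crest.Agent.R013.DW2_854
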