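import Mathlib
import Crest.Agent.R013.HT4_434
import Crest.Agent.R013.HU11_522

/-!
# Row 13, D-line, leaf D-HT (helper434), file 5: the `ℤ_p`-module `TT` of systems, the coordinates
`c : TT →+ (J → F)` of the global forms, equivariance

* `TT C K p : Submodule ℤ_[p] (PC p Kˣ)` = `{u | DivP C u}`;
* `exists_omc` : `c : TT →+ (J → F)`, `ℤ_p`-linear, `OmE em u = glob σ b (c u) em` for ALL disc ends;
* `DivP.map`, `omc_map` : equivariance under semilinear automorphisms fixing the basis `b`.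
-/

set_option autoImplicit false
set_option linter.unusedSectionVars false

open Filter Topology
open scoped NNReal
open Crest.Agent.R013.Cell_408

namespace Crest.Agent.R013.HT_434

open WithZero
open Crest.Agent.R013.RR7_948 Crest.Agent.R013.RR8_948 Crest.Agent.R013.RR9_948
open Crest.Agent.R013.RR11_948 Crest.Agent.R013.RR12_948 Crest.Agent.R013.RR13_948
open Crest.Agent.R013.RR14_948 Crest.Agent.R013.RR17_948
open Crest.Agent.R013.EE809 Crest.Agent.R013.HU6_522 Crest.Agent.R013.HU3_522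
open Crest.Agent.R013.HU1_522 Crest.Agent.R013.HU7_522 Crest.Agent.R013.PC_588
open Crest.Agent.R013.HU8_522 Crest.Agent.R013.HU9_522 Crest.Agent.R013.HU4_522
open Crest.Agent.R013.HU2_522 Crest.Agent.R013.HU11_522

section T

variable {C : Type*} [Field C] [CharZero C]
variable {K : Type*} [Field K] [Algebra C K] [Algebra (RatFunc C) K] [IsScalarTower C (RatFunc C) K]
  [FiniteDimensional (RatFunc C) K]
variable {p : ℕ} [Fact p.Prime]

theorem divf_coe_pow (y : Kˣ) (m : ℕ) (P : Pl C K) :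
    divf (k := C) ((y ^ m : Kˣ) : K) P = m * divf (k := C) (y : K) P := by
  induction m with
  | zero => 
    rw [pow_zero, Units.val_one, divf_one]; simp
  | succ m ih =>
    rw [pow_succ, Units.val_mul, divf_mul (Units.ne_zero _) (Units.ne_zero _), Finsupp.add_apply, ih]
    push_cast
    ring

theorem divf_coe_mul (y z : Kˣ) (P : Pl C K) :
    divf (k := C) ((y * z : Kˣ) : K) P = divf (k := C) (y : K) P + divf (k := C) (z : K) P := by
  rw [Units.val_mul, divf_mul (Units.ne_zero _) (Units.ne_zero _), Finsupp.add_apply]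

/-- it is enough to look at one representative at each level -/
theorem DivP.of_rep {u : PC p Kˣ}
    (h : ∀ n, ∃ g : Kˣ, Rep u n g ∧ ∀ P : Pl C K, ((p ^ n : ℕ) : ℤ) ∣ divf (k := C) (g : K) P) :
    DivP C u := by
  intro n g' hg' P
  obtain ⟨g, hg, hd⟩ := h n
  obtain ⟨y, rfl⟩ := hg.eq_iff.1 hg'
  rw [divf_coe_mul, divf_coe_pow]
  exact dvd_add (hd P) (dvd_mul_right _ _)

theorem DivP.zero : DivP C (0 : PC p Kˣ) :=
  DivP.of_rep fun n => ⟨1, Rep.zero_iff.2 ⟨1, one_pow _⟩, fun P => by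
    rw [Units.val_one, divf_one]; simp⟩

theorem DivP.add {u v : PC p Kˣ} (hu : DivP C u) (hv : DivP C v) : DivP C (u + v) :=
  DivP.of_rep fun n => by
    obtain ⟨g, hg⟩ := exists_rep u n
    obtain ⟨g', hg'⟩ := exists_rep v n
    exact ⟨g * g', hg.add hg', fun P => by
      rw [divf_coe_mul]; exact dvd_add (hu n g hg P) (hv n g' hg' P)⟩

theorem DivP.smul (z : ℤ_[p]) {u : PC p Kˣ} (hu : DivP C u) : DivP C (z • u) :=
  DivP.of_rep fun n => by
    obtain ⟨g, hg⟩ := exists_rep u n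
    obtain ⟨m, hm⟩ := exists_nat_rep p n z
    exact ⟨g ^ m, hg.smul z m hm, fun P => by
      rw [divf_coe_pow]; exact (hu n g hg P).mul_left _⟩

variable (C K p) in
/-- **the `ℤ_p`-module of the systems of unramified classes** -/
def TT : Submodule ℤ_[p] (PC p Kˣ) where
  carrier := {u | DivP C u}
  add_mem' := fun hu hv => DivP.add hu hv
  zero_mem' := DivP.zero
  smul_mem' := fun z _ hu => DivP.smul z hu

theorem mem_TT {u : PC p Kˣ} : u ∈ TT C K p ↔ DivP C u := Iff.rfl

/-- transport of places by a semilinear automorphism -/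
noncomputable def plMap (s : K ≃+* K) (τ : C ≃+* C)
    (hsτ : ∀ c, s (algebraMap C K c) = algebraMap C K (τ c)) (P : Pl C K) : Pl C K where
  v := P.v.comap (s : K →+* K)
  const c hc := by
    rw [Valuation.comap_apply]
    show P.v (s (algebraMap C K c)) = 1
    rw [hsτ]
    exact P.const _ ((map_ne_zero τ).mpr hc)
  surj := P.surj.comp s.surjective

theorem divf_plMap (s : K ≃+* K) (τ : C ≃+* C)
    (hsτ : ∀ c, s (algebraMap C K c) = algebraMap C K (τ c)) (P : Pl C K) {z : K} (hz : z ≠ 0) :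
    divf (k := C) (s z) P = divf (k := C) z (plMap s τ hsτ P) := by
  have h1 := v_eq (k := C) hz (plMap s τ hsτ P)
  have h2 := v_eq (k := C) ((map_ne_zero s).mpr hz) P
  have h3 : (plMap s τ hsτ P).v z = P.v (s z) := rfl
  rw [h3, h2, exp_inj] at h1
  omega

/-- **`TT` is stable under semilinear automorphisms** -/
theorem DivP.map (s : K ≃+* K) (τ : C ≃+* C)
    (hsτ : ∀ c, s (algebraMap C K c) = algebraMap C K (τ c)) {u : PC p Kˣ} (hu : DivP C u) :
    DivP C (PC.map (Units.map (s : K →* K)) u) :=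
  DivP.of_rep fun n => by
    obtain ⟨g, hg⟩ := exists_rep u n
    refine ⟨_, hg.map _, fun P => ?_⟩
    have : ((Units.map (s : K →* K) g : Kˣ) : K) = s (g : K) := rfl
    rw [this, divf_plMap s τ hsτ P g.ne_zero]
    exact hu n g hg _

end T

variable {k : Type*} [NontriviallyNormedField k] [CompleteSpace k] [IsUltrametricDist k]
variable {C : Type*} [NormedField C] [IsUltrametricDist C] [NormedAlgebra k C] [CharZero C]
  [Algebra.IsAlgebraic k C] [IsAlgClosed C]
variable {K : Type*} [Field K] [Algebra C K] [Algebra (RatFunc C) K] [IsScalarTower C (RatFunc C) K]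
  [FiniteDimensional (RatFunc C) K]
variable {p : ℕ} [Fact p.Prime]
variable {F : Type*} [NormedField F] [IsUltrametricDist F] [CharZero F] [CompleteSpace F]
  (σ : C →+* F) (hσ : ∀ a, ‖σ a‖ = ‖a‖)
variable {J : Type*} [Fintype J] (b : Module.Basis J C (LD (canD C K)))

section coords

variable (hk : DiscNorm k)

/-- the property of the coordinates: at every disc end `em` the local form of `u` is the expansion -/
def IsOmc (c : TT C K p → (J → F)) : Prop :=
  ∀ (u : TT C K p) (em : K →+* EE k C)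
    (_ : ∀ c : C, em (algebraMap C K c) = mono 0 c (EE809.finDef_const c))
    (hι : ∀ z, ∃ a b : BD k C, b ≠ 0 ∧ em z * bdE b = bdE a),
    OmE hk em hι σ hσ (u : PC p Kˣ) = glob σ b (c u) em

include hσ hk in
/-- **the coordinates of the global forms** -/
theorem exists_omc (hσd : DenseRange σ) (hp : ‖(p : C)‖ < 1) (em0 : K →+* EE k C)
    (hc0 : ∀ c : C, em0 (algebraMap C K c) = mono 0 c (EE809.finDef_const c))
    (hι0 : ∀ z, ∃ a b : BD k C, b ≠ 0 ∧ em0 z * bdE b = bdE a)
    {t : K} {r : C} (hr : r ≠ 0) (ht : em0 t = mono 1 r (EE809.finDef_const r)) :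
    ∃ c : TT C K p →+ (J → F), IsOmc σ hσ b hk c := by
  have hpF : ‖(p : F)‖ < 1 := by rw [norm_p_F σ hσ]; exact hp
  choose c hc using fun u : TT C K p => exists_om σ hσ b hk hσd hp em0 hc0 hι0 hr ht (u := (u : PC p Kˣ)) u.2
  refine ⟨⟨⟨c, ?_⟩, ?_⟩, fun u em hcem hι => hc u em hcem hι⟩
  · refine glob_injective σ b em0 hc0 hι0 hk hr ht ?_
    rw [← hc 0 em0 hc0 hι0, glob_zero]
    exact Om_zero hpF _
  · intro u v
    refine glob_injective σ b em0 hc0 hι0 hk hr ht ?_
    rw [← hc (u + v) em0 hc0 hι0, glob_add, ← hc u em0 hc0 hι0, ← hc v em0 hc0 hι0]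
    exact Om_add hpF _ _ _

include hσ hk in
/-- `ℤ_p`-linearity -/
theorem IsOmc.smul (hp : ‖(p : C)‖ < 1) {c : TT C K p → (J → F)} (hc : IsOmc σ hσ b hk c)
    (em0 : K →+* EE k C)
    (hc0 : ∀ c : C, em0 (algebraMap C K c) = mono 0 c (EE809.finDef_const c))
    (hι0 : ∀ z, ∃ a b : BD k C, b ≠ 0 ∧ em0 z * bdE b = bdE a)
    {t : K} {r : C} (hr : r ≠ 0) (ht : em0 t = mono 1 r (EE809.finDef_const r))
    [Algebra ℤ_[p] F] (hZ : ∀ z : ℤ_[p], ‖algebraMap ℤ_[p] F z‖ ≤ 1) (z : ℤ_[p]) (u : TT C K p) :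
    c (z • u) = algebraMap ℤ_[p] F z • c u := by
  have hpF : ‖(p : F)‖ < 1 := by rw [norm_p_F σ hσ]; exact hp
  refine glob_injective σ b em0 hc0 hι0 hk hr ht ?_
  rw [glob_smul, ← hc (z • u) em0 hc0 hι0, ← hc u em0 hc0 hι0, ← PowerSeries.smul_eq_C_mul]
  exact Om_smul hpF _ hZ z _

include hσ hk in
/-- the form vanishes iff the local form at one end vanishes -/
theorem IsOmc.eq_of_OmE {c : TT C K p → (J → F)} (hc : IsOmc σ hσ b hk c)
    (em0 : K →+* EE k C)
    (hc0 : ∀ c : C, em0 (algebraMap C K c) = mono 0 c (EE809.finDef_const c))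
    (hι0 : ∀ z, ∃ a b : BD k C, b ≠ 0 ∧ em0 z * bdE b = bdE a)
    {t : K} {r : C} (hr : r ≠ 0) (ht : em0 t = mono 1 r (EE809.finDef_const r))
    {u : TT C K p} {d : J → F} (h : OmE hk em0 hι0 σ hσ (u : PC p Kˣ) = glob σ b d em0) :
    c u = d := by
  refine glob_injective σ b em0 hc0 hι0 hk hr ht ?_
  rw [← hc u em0 hc0 hι0, h]

/-! ### equivariance -/

variable (s : K ≃+* K) (τ : C →ₐ[k] C) (hτ : ∀ a, ‖τ a‖ = ‖a‖)
  (hsτ : ∀ c, s (algebraMap C K c) = algebraMap C K (τ c))

/-- the conjugate end -/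
noncomputable def conjEnd (em : K →+* EE k C) : K →+* EE k C :=
  (EEmap τ hτ).comp (em.comp (s.symm : K →+* K))

theorem conjEnd_apply (em : K →+* EE k C) (z : K) :
    conjEnd s τ hτ em (s z) = EEmap τ hτ (em z) := by
  show EEmap τ hτ (em (s.symm (s z))) = _
  rw [RingEquiv.symm_apply_apply]

include hsτ in
theorem conjEnd_const (hsurj : Function.Surjective τ) (em : K →+* EE k C)
    (hc : ∀ c : C, em (algebraMap C K c) = mono 0 c (EE809.finDef_const c)) (c : C) :
    conjEnd s τ hτ em (algebraMap C K c) = mono 0 c (EE809.finDef_const c) := by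
  obtain ⟨d, rfl⟩ := hsurj c
  rw [← hsτ, conjEnd_apply, hc]
  ext n
  rw [co_EEmap, co_mono, co_mono]
  split_ifs
  · rfl
  · exact map_zero _

theorem conjEnd_disc (em : K →+* EE k C)
    (hι : ∀ z, ∃ a b : BD k C, b ≠ 0 ∧ em z * bdE b = bdE a) (z : K) :
    ∃ a b : BD k C, b ≠ 0 ∧ conjEnd s τ hτ em z * bdE b = bdE a := by
  obtain ⟨a, b, hb, h⟩ := hι (s.symm z)
  refine ⟨BDmap τ hτ a, BDmap τ hτ b, ?_, ?_⟩
  · exact (map_ne_zero_iff _ (BDmap_injective τ hτ)).mpr hb
  · have h1 : z = s (s.symm z) := (s.apply_symm_apply z).symm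
    rw [h1, conjEnd_apply, ← EEmap_bdE, ← EEmap_bdE, ← map_mul, h]

theorem conjEnd_coord (em : K →+* EE k C) {t : K} {r : C}
    (ht : em t = mono 1 r (EE809.finDef_const r)) :
    conjEnd s τ hτ em (s t) = mono 1 (τ r) (EE809.finDef_const _) := by
  rw [conjEnd_apply, ht]
  ext n
  rw [co_EEmap, co_mono, co_mono]
  split_ifs
  · rfl
  · exact map_zero _

include hσ hk hsτ hτ in
/-- **equivariance of the coordinates** for a basis `b` fixed by `s` -/
theorem IsOmc.map (hsurj : Function.Surjective τ) (hp : ‖(p : C)‖ < 1) {c : TT C K p → (J → F)}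
    (hc : IsOmc σ hσ b hk c)
    (em0 : K →+* EE k C)
    (hc0 : ∀ c : C, em0 (algebraMap C K c) = mono 0 c (EE809.finDef_const c))
    (hι0 : ∀ z, ∃ a b : BD k C, b ≠ 0 ∧ em0 z * bdE b = bdE a)
    {t : K} {r : C} (hr : r ≠ 0) (ht : em0 t = mono 1 r (EE809.finDef_const r))
    (hb : ∀ j, s (b j : K) = b j) (hx : s (xK C K) = xK C K)
    (τF : F →+* F) (hτF : ∀ a, ‖τF a‖ = ‖a‖) (hτσ : ∀ a, τF (σ a) = σ (τ a))
    (u : TT C K p) (u' : TT C K p)
    (hu' : (u' : PC p Kˣ) = PC.map (Units.map (s : K →* K)) (u : PC p Kˣ)) :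
    c u' = fun j => τF (c u j) := by
  set em1 := conjEnd s τ hτ em0 with hem1
  have hc1 := conjEnd_const s τ hτ hsτ hsurj em0 hc0
  have hι1 := conjEnd_disc s τ hτ em0 hι0
  have ht1 := conjEnd_coord s τ hτ em0 ht
  have hr1 : τ r ≠ 0 := (map_ne_zero τ).mpr hr
  refine glob_injective σ b em1 hc1 hι1 hk hr1 ht1 ?_
  rw [← hc u' em1 hc1 hι1, hu']
  have h1 := OmE_map hk τ hτ em0 em1 hι0 hι1 (Units.map (s : K →* K))
    (fun z => conjEnd_apply s τ hτ em0 (z : K)) σ hσ τF hτF (fun a => hτσ a) hp (u : PC p Kˣ)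
  rw [h1, hc u em0 hc0 hι0]
  ext i
  rw [PowerSeries.coeff_map, coeff_glob, coeff_glob, map_sum]
  refine Finset.sum_congr rfl fun j _ => ?_
  have h2 : em1 (b j : K) * th (em1 (xK C K)) =
      EEmap τ hτ (em0 (b j : K) * th (em0 (xK C K))) := by
    have e1 : em1 (b j : K) = EEmap τ hτ (em0 (b j : K)) := by
      have := conjEnd_apply s τ hτ em0 (b j : K)
      rwa [hb j] at this
    have e2 : em1 (xK C K) = EEmap τ hτ (em0 (xK C K)) := by
      have := conjEnd_apply s τ hτ em0 (xK C K)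
      rwa [hx] at this
    rw [e1, e2, th_EEmap, map_mul]
  rw [map_mul, hτσ, h2, co_EEmap]

end coords

end Crest.Agent.R013.HT_434
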