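import Mathlib
import Crest.Agent.R013.DW2_854
import Crest.Agent.R013.HT5_434
import Crest.Agent.R013.HTb_948

/-!
# R013 / DW3 (helper854): D-W0, the `k`-form of the space of the limit forms

Tower `k ⊂ C` (algebraic closure, normed), `K₀/k`, `K = K₀ ⊗_k C`, `F` = completion of `C`
(`hd : DenseRange (algebraMap C F)`).

* `expF v c em` : the expansion at the end `em` of the form `∑ c_j v_j dX`, `v : Fin m → K`;
* `exists_W0` : `b : Fin m → K₀` (regular forms, independent over `F`), `c : T →+ (Fin m → F)` with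
  `omega_u = ∑ c_j(u) b_j dX` at every disc end, `span_F c(T) = ⊤`, `2 ≤ m` if two `omega_u` are not
  proportional.
-/

set_option autoImplicit false
set_option linter.all false

open scoped NNReal

namespace Crest.Agent.R013.DW3_854

open WithZero Module Crest.Agent.R013.Desc_372 Crest.Agent.R013.DescP_429
open Crest.Agent.R013.RR7_948 Crest.Agent.R013.RR8_948 Crest.Agent.R013.RR9_948
open Crest.Agent.R013.RR11_948 Crest.Agent.R013.RR12_948 Crest.Agent.R013.RR13_948
open Crest.Agent.R013.RR14_948 Crest.Agent.R013.RR15_948 Crest.Agent.R013.RR26_948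
open Crest.Agent.R013.Cell_408
open Crest.Agent.R013.EE809 Crest.Agent.R013.HU6_522 Crest.Agent.R013.HU3_522
open Crest.Agent.R013.HU1_522 Crest.Agent.R013.HU7_522 Crest.Agent.R013.PC_588
open Crest.Agent.R013.HU8_522 Crest.Agent.R013.HU9_522 Crest.Agent.R013.HU4_522
open Crest.Agent.R013.HU2_522 Crest.Agent.R013.HU11_522 Crest.Agent.R013.HT_434
open Crest.Agent.R013.HAx_381 Crest.Agent.R013.DW2_854
open Crest.Agent.R013.CE3_280 Crest.Agent.R013.CE5_280 Crest.Agent.R013.HTb_948

section expF

variable {k : Type*} [NontriviallyNormedField k] [CompleteSpace k] [IsUltrametricDist k]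
variable {C : Type*} [NormedField C] [IsUltrametricDist C] [NormedAlgebra k C]
  [Algebra.IsAlgebraic k C]
variable {K : Type*} [Field K] [Algebra C K] [Algebra (RatFunc C) K] [IsScalarTower C (RatFunc C) K]
variable {F : Type*} [Field F] (σ : C →+* F)

/-- the expansion (coefficient of `T^i dT`) at the end `em` of the form `∑ c_j v_j dX` -/
noncomputable def expF {J : Type*} [Fintype J] (v : J → K) (c : J → F) (em : K →+* EE k C) :
    PowerSeries F :=
  PowerSeries.mk fun i => ∑ j, c j * σ ((em (v j) * th (em (xK C K))).co ((i : ℤ) + 1))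

theorem coeff_expF {J : Type*} [Fintype J] (v : J → K) (c : J → F) (em : K →+* EE k C) (i : ℕ) :
    PowerSeries.coeff i (expF σ v c em) =
      ∑ j, c j * σ ((em (v j) * th (em (xK C K))).co ((i : ℤ) + 1)) := by
  rw [expF, PowerSeries.coeff_mk]

theorem expF_add {J : Type*} [Fintype J] (v : J → K) (c c' : J → F) (em : K →+* EE k C) :
    expF σ v (c + c') em = expF σ v c em + expF σ v c' em := by
  ext i
  rw [map_add, coeff_expF, coeff_expF, coeff_expF, ← Finset.sum_add_distrib]
  exact Finset.sum_congr rfl fun j _ => by rw [Pi.add_apply, add_mul]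

theorem expF_smul {J : Type*} [Fintype J] (v : J → K) (a : F) (c : J → F) (em : K →+* EE k C) :
    expF σ v (a • c) em = PowerSeries.C a * expF σ v c em := by
  ext i
  rw [PowerSeries.coeff_C_mul, coeff_expF, coeff_expF, Finset.mul_sum]
  exact Finset.sum_congr rfl fun j _ => by rw [Pi.smul_apply, smul_eq_mul, mul_assoc]

/-- change of the family of forms -/
theorem expF_comb {J J' : Type*} [Fintype J] [Fintype J'] (v : J → K) (d : J' → J → C)
    (c : J' → F) (em : K →+* EE k C)
    (hc : ∀ c : C, em (algebraMap C K c) = mono 0 c (EE809.finDef_const c)) :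
    expF σ (fun j' => ∑ j, algebraMap C K (d j' j) * v j) c em =
      expF σ v (fun j => ∑ j', c j' * σ (d j' j)) em := by
  ext i
  rw [coeff_expF, coeff_expF]
  have h1 : ∀ j', σ ((em (∑ j, algebraMap C K (d j' j) * v j) * th (em (xK C K))).co ((i : ℤ) + 1)) =
      ∑ j, σ (d j' j) * σ ((em (v j) * th (em (xK C K))).co ((i : ℤ) + 1)) := by
    intro j'
    rw [map_sum, Finset.sum_mul]
    have h2 : ∀ (s : Finset J) (f : J → EE k C) (n : ℤ), (∑ j ∈ s, f j).co n = ∑ j ∈ s, (f j).co n := by
      intro s f n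
      classical
      induction s using Finset.induction_on with
      | empty => rw [Finset.sum_empty, Finset.sum_empty, co_zero]
      | insert a s ha ih => rw [Finset.sum_insert ha, Finset.sum_insert ha, co_add, ih]
    rw [h2, map_sum]
    refine Finset.sum_congr rfl fun j _ => ?_
    rw [map_mul, hc, mul_assoc, co_mono_mul, sub_zero, map_mul]
  simp only [h1, Finset.mul_sum, Finset.sum_mul]
  rw [Finset.sum_comm]
  exact Finset.sum_congr rfl fun j _ => Finset.sum_congr rfl fun j' _ => by rw [mul_assoc]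

theorem glob_eq_expF [CharZero C] [IsAlgClosed C] [FiniteDimensional (RatFunc C) K]
    {J : Type*} [Fintype J] {F : Type*} [NormedField F] [IsUltrametricDist F] [CharZero F]
    [CompleteSpace F] (σ : C →+* F)
    (b : Module.Basis J C (LD (canD C K))) (c : J → F) (em : K →+* EE k C) :
    glob σ b c em = expF σ (fun j => (b j : K)) c em := by
  ext i
  rw [coeff_glob, coeff_expF]

end expF

section W0

variable {k : Type*} [NontriviallyNormedField k] [CompleteSpace k] [IsUltrametricDist k]
variable {C : Type*} [NormedField C] [IsUltrametricDist C] [NormedAlgebra k C] [CharZero C]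
  [Algebra.IsAlgebraic k C] [IsAlgClosed C]
variable {K₀ K : Type*} [Field K₀] [Field K] [Algebra k K₀] [Algebra C K] [Algebra K₀ K]
  [Algebra k K] [IsScalarTower k C K] [IsScalarTower k K₀ K]
  [Algebra (RatFunc C) K] [IsScalarTower C (RatFunc C) K] [FiniteDimensional (RatFunc C) K]
variable {p : ℕ} [Fact p.Prime]
variable {F : Type*} [NormedField F] [IsUltrametricDist F] [CharZero F] [CompleteSpace F]
  [Algebra C F] (hσ : ∀ a, ‖algebraMap C F a‖ = ‖a‖) (hk : DiscNorm k)

theorem norm_p_lt [Algebra ℚ_[p] k] (hq : ∀ q : ℚ_[p], ‖algebraMap ℚ_[p] k q‖ = ‖q‖) :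
    ‖(p : C)‖ < 1 := by
  have h1 : (p : C) = algebraMap k C (algebraMap ℚ_[p] k (p : ℚ_[p])) := by
    rw [map_natCast, map_natCast]
  rw [h1, norm_algebraMap', hq]
  exact Padic.norm_p_lt_one

theorem isGalois_alg [CharZero k] (C : Type*) [Field C] [Algebra k C] [Algebra.IsAlgebraic k C]
    [IsAlgClosed C] : IsGalois k C := by
  haveI : Algebra.IsSeparable k C := Algebra.IsAlgebraic.isSeparable_of_perfectField
  haveI : Normal k C := normal_iff.2 fun x => ⟨Algebra.IsIntegral.isIntegral x,
    IsAlgClosed.splits _⟩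
  exact IsGalois.mk

include hσ hk in
/-- **D-W0** (on coordinates) -/
theorem exists_coord [Algebra ℚ_[p] k] [FiniteDimensional ℚ_[p] k] [CE k C K₀ K]
    (hq : ∀ q : ℚ_[p], ‖algebraMap ℚ_[p] k q‖ = ‖q‖)
    (hd : DenseRange (algebraMap C F))
    (hx : ∃ x₀ : K₀, algebraMap K₀ K x₀ = xK C K)
    {g : ℕ} (b : Module.Basis (Fin g) C (LD (canD C K))) (b₀ : Fin g → K₀)
    (hb₀ : ∀ j, algebraMap K₀ K (b₀ j) = b j)
    (em0 : K →+* EE k C)
    (hc0 : ∀ c : C, em0 (algebraMap C K c) = mono 0 c (EE809.finDef_const c))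
    (hι0 : ∀ z, ∃ a b : BD k C, b ≠ 0 ∧ em0 z * bdE b = bdE a)
    {t : K} {r : C} (hr : r ≠ 0) (ht : em0 t = mono 1 r (EE809.finDef_const r))
    (omc : TT C K p →+ (Fin g → F)) (homc : IsOmc (algebraMap C F) hσ b hk omc) :
    ∃ (m : ℕ) (d : Fin m → (Fin g → k)) (c : TT C K p →+ (Fin m → F)),
      LinearIndependent k d ∧
      LinearIndependent F (fun j l => algebraMap C F (algebraMap k C (d j l))) ∧
      (∀ u l, omc u l = ∑ j, c u j * algebraMap C F (algebraMap k C (d j l))) ∧
      Submodule.span F (Set.range c) = ⊤ ∧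
      ∀ u u' : TT C K p, (∀ a a' : F, a • omc u + a' • omc u' = 0 → a = 0 ∧ a' = 0) → 2 ≤ m := by
  haveI : CharZero k := charZero_of_injective_algebraMap (algebraMap ℚ_[p] k).injective
  haveI : IsGalois k C := isGalois_alg C
  letI : Algebra k F := ((algebraMap C F).comp (algebraMap k C)).toAlgebra
  haveI : IsScalarTower k C F := IsScalarTower.of_algebraMap_eq fun _ => rfl
  letI aF : Algebra ℚ_[p] F :=
    ((algebraMap C F).comp ((algebraMap k C).comp (algebraMap ℚ_[p] k))).toAlgebra
  have hqF : ∀ q : ℚ_[p], ‖algebraMap ℚ_[p] F q‖ = ‖q‖ := by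
    intro q
    show ‖algebraMap C F (algebraMap k C (algebraMap ℚ_[p] k q))‖ = ‖q‖
    rw [hσ, norm_algebraMap', hq]
  letI : NormedAlgebra ℚ_[p] F :=
    { aF with
      norm_smul_le := fun r x => by
        rw [Algebra.smul_def, norm_mul, hqF] }
  haveI : IsScalarTower ℚ_[p] k F := IsScalarTower.of_algebraMap_eq fun _ => rfl
  have hp1 : ‖(p : C)‖ < 1 := norm_p_lt (k := k) hq
  obtain ⟨m, d, c, h1, h2, h3, h4, h5⟩ := DW1_854.exists_form (p := p) (k := k) (E := C) (F := F)
    hd omc (by
      intro s t' ht' hta u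
      have hτ : ∀ a, ‖(s : C →ₐ[k] C) a‖ = ‖a‖ := by
        intro a
        have e1 : ‖t' (algebraMap C F a)‖ = ‖algebraMap C F a‖ :=
          ht'.norm_map_of_map_zero (map_zero t') (algebraMap C F a)
        rw [hta, hσ, hσ] at e1
        exact e1
      have hsτ : ∀ c, (CE.lift k C K₀ K s : K ≃+* K) (algebraMap C K c) =
          algebraMap C K ((s : C →ₐ[k] C) c) := fun c => CE.lift_algebraMap k C K₀ K s c
      have hu' : DivP C (PC.map (Units.map ((CE.lift k C K₀ K s : K ≃+* K) : K →* K))
          (u : PC p Kˣ)) :=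
        HT_434.DivP.map (CE.lift k C K₀ K s : K ≃+* K) (s : C ≃+* C) hsτ u.2
      refine ⟨⟨_, hu'⟩, ?_⟩
      obtain ⟨x₀, hx₀⟩ := hx
      exact IsOmc.map (algebraMap C F) hσ b hk (CE.lift k C K₀ K s : K ≃+* K) (s : C →ₐ[k] C)
        hτ hsτ s.surjective hp1 homc em0 hc0 hι0 hr ht
        (fun j => by
          rw [← hb₀]
          exact AlgEquiv.commutes (CE.lift k C K₀ K s) _)
        (by
          rw [← hx₀]
          exact AlgEquiv.commutes (CE.lift k C K₀ K s) _) t'
        (fun a => ht'.norm_map_of_map_zero (map_zero t') a) hta u ⟨_, hu'⟩ rfl)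
  refine ⟨m, d, c, h1, h2, fun u l => ?_, h4, h5⟩
  have := congrFun (h3 u) l
  rw [this, Finset.sum_apply]
  rfl

variable {L : Type*} [Field L] [Algebra F L] [Algebra C L] [IsScalarTower C F L]
  [Algebra (RatFunc F) L] [IsScalarTower F (RatFunc F) L]
  [FiniteDimensional (RatFunc F) L] [Algebra.IsSeparable (RatFunc F) L] [IsAlgClosed F]
  {ι : K →ₐ[C] L}

include hσ hk in
/-- **D-W0**: regular forms `v_j dX`, `v_j ∈ K₀`, independent over `F`, and additive coordinates
`c` of the limit forms, with `span_F c(T) = ⊤` -/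
theorem exists_W0 [Algebra ℚ_[p] k] [FiniteDimensional ℚ_[p] k] [CE k C K₀ K]
    (hq : ∀ q : ℚ_[p], ‖algebraMap ℚ_[p] k q‖ = ‖q‖)
    (hd : DenseRange (algebraMap C F))
    (hx : ∃ x₀ : K₀, algebraMap K₀ K x₀ = xK C K)
    (hι : IsCE F ι) (hxL : xK F L = ι (xK C K))
    (em0 : K →+* EE k C)
    (hc0 : ∀ c : C, em0 (algebraMap C K c) = mono 0 c (EE809.finDef_const c))
    (hι0 : ∀ z, ∃ a b : BD k C, b ≠ 0 ∧ em0 z * bdE b = bdE a)
    {t : K} {r : C} (hr : r ≠ 0) (ht : em0 t = mono 1 r (EE809.finDef_const r)) :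
    ∃ (m : ℕ) (v : Fin m → K₀) (c : TT C K p →+ (Fin m → F)),
      (∀ j, algebraMap K₀ K (v j) ∈ LD (canD C K)) ∧
      LinearIndependent F (fun j => ι (algebraMap K₀ K (v j))) ∧
      (∀ (u : TT C K p) (em : K →+* EE k C)
        (_ : ∀ c : C, em (algebraMap C K c) = mono 0 c (EE809.finDef_const c))
        (hιe : ∀ z, ∃ a b : BD k C, b ≠ 0 ∧ em z * bdE b = bdE a),
        OmE hk em hιe (algebraMap C F) hσ (u : PC p Kˣ) =
          expF (algebraMap C F) (fun j => algebraMap K₀ K (v j)) (c u) em) ∧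
      Submodule.span F (Set.range c) = ⊤ ∧
      ∀ u u' : TT C K p, (∀ a a' : F,
        PowerSeries.C a * OmE hk em0 hι0 (algebraMap C F) hσ (u : PC p Kˣ) +
          PowerSeries.C a' * OmE hk em0 hι0 (algebraMap C F) hσ (u' : PC p Kˣ) = 0 →
          a = 0 ∧ a' = 0) → 2 ≤ m := by
  haveI : CharZero k := charZero_of_injective_algebraMap (algebraMap ℚ_[p] k).injective
  haveI : IsGalois k C := isGalois_alg C
  have hp1 : ‖(p : C)‖ < 1 := norm_p_lt (k := k) hq
  obtain ⟨b, b₀, hb₀⟩ := exists_basis (k := k) (C := C) (K₀ := K₀) (K := K) hx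
  obtain ⟨omc, homc⟩ := exists_omc (p := p) (algebraMap C F) hσ b hk hd hp1 em0 hc0 hι0 hr ht
  obtain ⟨m, d, c, h1, h2, h3, h4, h5⟩ := exists_coord (p := p) hσ hk hq hd hx b b₀ hb₀ em0 hc0 hι0
    hr ht omc homc
  let v : Fin m → K₀ := fun j => ∑ l, algebraMap k K₀ (d j l) * b₀ l
  have hv : ∀ j, algebraMap K₀ K (v j) = ∑ l, algebraMap C K (algebraMap k C (d j l)) * (b l : K) := by
    intro j
    simp only [v]
    rw [map_sum]
    refine Finset.sum_congr rfl fun l _ => ?_
    rw [map_mul, hb₀, ← IsScalarTower.algebraMap_apply k K₀ K, ← IsScalarTower.algebraMap_apply k C K]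
  have hιv : ∀ j, ι (algebraMap K₀ K (v j)) =
      form b ι (fun l => algebraMap C F (algebraMap k C (d j l))) := by
    intro j
    rw [hv, map_sum]
    unfold form
    refine Finset.sum_congr rfl fun l _ => ?_
    rw [map_mul, AlgHom.commutes, IsScalarTower.algebraMap_apply C F L, Algebra.smul_def]
  refine ⟨m, v, c, fun j => ?_, ?_, ?_, h4, ?_⟩
  · rw [hv]
    refine Submodule.sum_mem _ fun l _ => ?_
    rw [← Algebra.smul_def]
    exact Submodule.smul_mem _ _ (b l).2
  · rw [Fintype.linearIndependent_iff] at h2 ⊢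
    intro a ha
    apply h2 a
    have e1 : form b ι (∑ j, a j • fun l => algebraMap C F (algebraMap k C (d j l))) =
        form b ι (0 : Fin _ → F) := by
      have e2 : form b ι (∑ j, a j • fun l => algebraMap C F (algebraMap k C (d j l))) =
          ∑ j, a j • form b ι (fun l => algebraMap C F (algebraMap k C (d j l))) := by
        unfold form
        simp only [Finset.smul_sum, Finset.sum_apply, Pi.smul_apply, smul_eq_mul, Finset.sum_smul,
          mul_smul]
        exact Finset.sum_comm
      rw [e2]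
      have e3 : form b ι (0 : Fin (ell (canD C K)) → F) = 0 := by
        unfold form; simp
      rw [e3, ← ha]
      exact Finset.sum_congr rfl fun j _ => by rw [hιv]
    exact form_injective b hι hxL e1
  · intro u em hcem hιe
    rw [homc u em hcem hιe, glob_eq_expF]
    have e1 : omc u = fun l => ∑ j, c u j * algebraMap C F (algebraMap k C (d j l)) := by
      ext l; exact h3 u l
    rw [e1, ← expF_comb (algebraMap C F) (fun l => (b l : K)) (fun j l => algebraMap k C (d j l))
      (c u) em hcem]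
    congr 1
    ext j
    exact (hv j).symm
  · intro u u' huu
    refine h5 u u' fun a a' haa => huu a a' ?_
    rw [homc u em0 hc0 hι0, homc u' em0 hc0 hι0, ← glob_smul, ← glob_smul, ← glob_add, haa, glob_zero]

end W0

end Crest.Agent.R013.DW3_854
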