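import Mathlib
import Crest.Agent.R013.RR17_948

/-!
# R013 / NoBp (helper116): D-NOBP and D-BAD of the D-line
-/

set_option autoImplicit false
set_option linter.all false

namespace Crest.Agent.R013.NoBp_116

open WithZero Module
open Crest.Agent.R013.RR7_948 Crest.Agent.R013.RR8_948 Crest.Agent.R013.RR9_948
open Crest.Agent.R013.RR11_948 Crest.Agent.R013.RR14_948 Crest.Agent.R013.RR15_948
open Crest.Agent.R013.RR17_948

section cover

/-- a spanning subgroup is not covered by finitely many proper subspaces -/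
theorem exists_avoid {F : Type*} [Field F] [CharZero F] {V : Type*} [AddCommGroup V] [Module F V]
    {T : Type*} [AddCommGroup T] (c : T →+ V) (hc : Submodule.span F (Set.range c) = ⊤)
    {ι : Type*} (s : Finset ι) (W : ι → Submodule F V) (hW : ∀ i ∈ s, W i ≠ ⊤) :
    ∃ u : T, ∀ i ∈ s, c u ∉ W i := by
  classical
  by_contra hcon
  push Not at hcon
  let q : ι → Submodule ℤ T := fun i =>
    AddSubgroup.toIntSubmodule ((W i).toAddSubgroup.comap c)
  have hcov : ⋃ i ∈ s, (q i : Set T) = Set.univ := by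
    rw [Set.eq_univ_iff_forall]
    intro u
    obtain ⟨i, hi, hu⟩ := hcon u
    exact Set.mem_biUnion hi hu
  obtain ⟨i, hi, hfin⟩ := Submodule.exists_finiteIndex_of_cover hcov
  apply hW i hi
  rw [eq_top_iff, ← hc, Submodule.span_le]
  rintro _ ⟨u, rfl⟩
  have h1 := (q i).toAddSubgroup.nsmul_index_mem u
  have h2 : c ((q i).toAddSubgroup.index • u) ∈ W i := h1
  rw [map_nsmul, ← Nat.cast_smul_eq_nsmul F] at h2
  have h3 : ((q i).toAddSubgroup.index : F) ≠ 0 := by
    exact_mod_cast hfin.index_ne_zero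
  exact ((W i).smul_mem_iff h3).mp h2

end cover

variable {F : Type*} [Field F] {L : Type*} [Field L] [Algebra F L] [Algebra (RatFunc F) L]
  [IsScalarTower F (RatFunc F) L] [FiniteDimensional (RatFunc F) L]
  [Algebra.IsSeparable (RatFunc F) L]

omit [Algebra (RatFunc F) L] [IsScalarTower F (RatFunc F) L] [FiniteDimensional (RatFunc F) L]
  [Algebra.IsSeparable (RatFunc F) L] in
theorem v_smul_le (w : Pl F L) (a : F) (x : L) : w.v (a • x) ≤ w.v x := by
  by_cases ha : a = 0
  · rw [ha, zero_smul, map_zero]; exact zero_le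
  · rw [Algebra.smul_def, map_mul, w.const a ha, one_mul]

/-- the coefficient vectors giving a non-maximal form at `w` -/
def bad {m : ℕ} (b : Fin m → L) (w : Pl F L) (i : Fin m) (hi : b i ≠ 0) :
    Submodule F (Fin m → F) where
  carrier := {x | w.v (∑ j, x j • b j) < w.v (b i)}
  add_mem' := by
    intro x y hx hy
    simp only [Set.mem_setOf_eq] at hx hy ⊢
    have : ∑ j, (x + y) j • b j = ∑ j, x j • b j + ∑ j, y j • b j := by
      rw [← Finset.sum_add_distrib]
      exact Finset.sum_congr rfl fun j _ => by rw [Pi.add_apply, add_smul]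
    rw [this]
    exact (w.v.map_add _ _).trans_lt (max_lt hx hy)
  zero_mem' := by
    simp only [Set.mem_setOf_eq, Pi.zero_apply, zero_smul, Finset.sum_const_zero, map_zero]
    exact (Valuation.pos_iff w.v).mpr hi
  smul_mem' := by
    intro a x hx
    simp only [Set.mem_setOf_eq] at hx ⊢
    have : ∑ j, (a • x) j • b j = a • ∑ j, x j • b j := by
      rw [Finset.smul_sum]
      exact Finset.sum_congr rfl fun j _ => by rw [Pi.smul_apply, smul_assoc]
    rw [this]
    exact (v_smul_le w a _).trans_lt hx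

theorem mem_bad {m : ℕ} {b : Fin m → L} {w : Pl F L} {i : Fin m} {hi : b i ≠ 0} {x : Fin m → F} :
    x ∈ bad b w i hi ↔ w.v (∑ j, x j • b j) < w.v (b i) := Iff.rfl

theorem bad_ne_top {m : ℕ} {b : Fin m → L} {w : Pl F L} {i : Fin m} {hi : b i ≠ 0} :
    bad b w i hi ≠ ⊤ := by
  classical
  intro h
  have h1 : (Pi.single i 1 : Fin m → F) ∈ bad b w i hi := by rw [h]; trivial
  rw [mem_bad, Finset.sum_eq_single i] at h1
  · rw [Pi.single_eq_same, one_smul] at h1
    exact lt_irrefl _ h1
  · intro j _ hj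
    rw [Pi.single_eq_of_ne hj, zero_smul]
  · intro h; exact absurd (Finset.mem_univ i) h

/-- **D-NOBP**: two generic forms without common zeros -/
theorem exists_nobp [CharZero F] {m : ℕ} (b : Fin m → L) (hb : LinearIndependent F b) (hm : 2 ≤ m)
    {T : Type*} [AddCommGroup T] (c : T →+ (Fin m → F))
    (hc : Submodule.span F (Set.range c) = ⊤) :
    ∃ u u' : T, LinearIndependent F ![∑ j, c u j • b j, ∑ j, c u' j • b j] ∧
      ∀ (w : Pl F L) (j : Fin m),
        w.v (b j) ≤ max (w.v (∑ j, c u j • b j)) (w.v (∑ j, c u' j • b j)) := by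
  classical
  have hb0 : ∀ j, b j ≠ 0 := fun j => hb.ne_zero j
  have hne : Nonempty (Fin m) := ⟨⟨0, by omega⟩⟩
  have hbi := Fintype.linearIndependent_iff.mp hb
  -- maximal indices
  have hmax : ∀ w : Pl F L, ∃ i, ∀ j, w.v (b j) ≤ w.v (b i) := fun w =>
    Finite.exists_max fun j => w.v (b j)
  choose im him using hmax
  -- the first form
  obtain ⟨u, hu⟩ := exists_avoid c hc (Finset.univ : Finset Unit) (fun _ => ⊥) (by
    intro _ _ h
    have h1 : finrank F (⊥ : Submodule F (Fin m → F)) = finrank F (⊤ : Submodule F (Fin m → F)) := by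
      rw [h]
    rw [finrank_bot, finrank_top, finrank_fin_fun] at h1
    omega)
  have hu0 : c u ≠ 0 := fun h => hu () (Finset.mem_univ _) (by rw [h]; exact Submodule.zero_mem _)
  set A := ∑ j, c u j • b j with hA
  have hA0 : A ≠ 0 := fun h => hu0 (funext fun j => hbi (c u) h j)
  have hfin : {w : Pl F L | w.v A ≠ 1 ∨ ∃ j, w.v (b j) ≠ 1}.Finite := by
    have h1 : {w : Pl F L | w.v A ≠ 1 ∨ ∃ j, w.v (b j) ≠ 1} ⊆
        {w : Pl F L | w.v A ≠ 1} ∪ ⋃ j, {w : Pl F L | w.v (b j) ≠ 1} := by
      rintro w (h | ⟨j, h⟩)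
      · exact Or.inl h
      · exact Or.inr (Set.mem_iUnion.mpr ⟨j, h⟩)
    exact ((Crest.Agent.R013.RR11_948.finite_ne_one hA0).union
      (Set.finite_iUnion fun j => Crest.Agent.R013.RR11_948.finite_ne_one (hb0 j))).subset h1
  -- the second form
  obtain ⟨u', hu'⟩ := exists_avoid c hc (insert none (hfin.toFinset.image some))
    (fun o : Option (Pl F L) => match o with
      | none => Submodule.span F {c u}
      | some w => bad b w (im w) (hb0 _)) (by
    rintro (_ | w) _ h
    · have h1 : finrank F (Submodule.span F {c u}) = finrank F (⊤ : Submodule F (Fin m → F)) := by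
        simp only at h
        rw [h]
      rw [finrank_top, finrank_fin_fun, finrank_span_singleton hu0] at h1
      omega
    · exact bad_ne_top h)
  have hu1 : c u' ∉ Submodule.span F {c u} := hu' none (Finset.mem_insert_self _ _)
  have hu2 : ∀ w : Pl F L, (w.v A ≠ 1 ∨ ∃ j, w.v (b j) ≠ 1) →
      w.v (b (im w)) ≤ w.v (∑ j, c u' j • b j) := fun w hw => by
    have h1 := hu' (some w) (Finset.mem_insert_of_mem (Finset.mem_image_of_mem _
      (hfin.mem_toFinset.mpr hw)))
    exact not_lt.mp h1
  refine ⟨u, u', ?_, ?_⟩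
  · rw [LinearIndependent.pair_iff]
    intro s t hst
    have h1 : ∑ j, (s • c u + t • c u') j • b j = 0 := by
      rw [← hst, Finset.smul_sum, Finset.smul_sum, ← Finset.sum_add_distrib]
      refine Finset.sum_congr rfl fun j _ => ?_
      rw [Pi.add_apply, add_smul, Pi.smul_apply, Pi.smul_apply, smul_assoc, smul_assoc]
    have h2 : s • c u + t • c u' = 0 := funext fun j => hbi _ h1 j
    have ht : t = 0 := by
      by_contra ht
      apply hu1
      rw [Submodule.mem_span_singleton]
      refine ⟨-(t⁻¹ * s), ?_⟩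
      have h3 : t • c u' = -(s • c u) := by rw [eq_neg_iff_add_eq_zero, add_comm]; exact h2
      calc (-(t⁻¹ * s)) • c u = t⁻¹ • -(s • c u) := by rw [neg_smul, mul_smul, smul_neg]
        _ = t⁻¹ • t • c u' := by rw [h3]
        _ = c u' := by rw [smul_smul, inv_mul_cancel₀ ht, one_smul]
    rw [ht, zero_smul, add_zero] at h2
    exact ⟨(smul_eq_zero.mp h2).resolve_right hu0, ht⟩
  · intro w j
    by_cases hw : w.v A ≠ 1 ∨ ∃ j, w.v (b j) ≠ 1
    · exact ((him w j).trans (hu2 w hw)).trans (le_max_right _ _)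
    · push Not at hw
      rw [hw.2 j, hw.1]
      exact le_max_left _ _

/-- **D-BAD**: outside finitely many integers `n`, every place with `φ = n` is a simple point of
`φ` at which the form `B` has no zero or pole -/
theorem exists_bad [CharZero F] (φ B : L) (hB : B ≠ 0) (hφ : del F L φ ≠ 0) :
    ∃ S : Finset ℤ, ∀ n ∉ S, ∀ w : Pl F L, w.v (φ - (n : L)) < 1 →
      w.v (φ - (n : L)) = exp (-1) ∧ w.v (B / del F L φ) = 1 := by
  classical
  have hcz : CharZero L := charZero_of_injective_algebraMap (algebraMap F L).injective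
  let W : Finset (Pl F L) := (canD F L).support ∪
    (Crest.Agent.R013.RR11_948.finite_ne_one hB).toFinset ∪
    (Crest.Agent.R013.RR11_948.finite_ne_one hφ).toFinset
  -- the values at the bad places
  have hval : ∀ w : Pl F L, {n : ℤ | w.v (φ - (n : L)) < 1}.Subsingleton := by
    intro w n hn n' hn'
    by_contra hne
    have h1 : w.v (((n' - n : ℤ) : F) • (1 : L)) = 1 := by
      rw [Algebra.smul_def, mul_one]
      refine w.const _ ?_
      exact_mod_cast sub_ne_zero.mpr (Ne.symm hne)
    have h2 : ((n' - n : ℤ) : F) • (1 : L) = (φ - (n : L)) - (φ - (n' : L)) := by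
      rw [Algebra.smul_def, mul_one, map_intCast]
      push_cast
      ring
    rw [h2] at h1
    exact absurd h1 (ne_of_lt ((w.v.map_sub _ _).trans_lt (max_lt hn hn')))
  have hfin : (⋃ w ∈ W, {n : ℤ | w.v (φ - (n : L)) < 1}).Finite :=
    W.finite_toSet.biUnion fun w _ => (hval w).finite
  refine ⟨hfin.toFinset, fun n hn w hw => ?_⟩
  have hwW : w ∉ W := fun h => hn (hfin.mem_toFinset.mpr (Set.mem_biUnion h hw))
  simp only [W, Finset.mem_union, not_or, Finsupp.notMem_support_iff, Set.Finite.mem_toFinset,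
    Set.mem_setOf_eq, not_not] at hwW
  obtain ⟨⟨hc, hBw⟩, hφw⟩ := hwW
  refine ⟨?_, by rw [map_div₀, hBw, hφw, div_one]⟩
  have hd : del F L (φ - (n : L)) = del F L φ := by
    rw [map_sub, Derivation.map_intCast, sub_zero]
  have hne : φ - (n : L) ≠ 0 := by
    intro h0
    rw [h0, map_zero] at hd
    exact hφ hd.symm
  obtain ⟨t, ht⟩ := w.surj (exp (-1))
  obtain ⟨e, he⟩ : ∃ e : ℤ, w.v (φ - (n : L)) = exp (-e) :=
    ⟨-log (w.v (φ - (n : L))), by rw [neg_neg, exp_log ((Valuation.ne_zero_iff _).mpr hne)]⟩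
  have he0 : 0 < e := by
    rw [he, ← exp_zero, exp_lt_exp] at hw
    omega
  have h1 := v_del_pow w (del F L) ht (fun u hu => del_le_uniformizer w ht hu)
    (del_uniformizer_ne_zero w ht) he he0.ne'
  rw [hd, hφw, v_del_eq w ht, hc, exp_zero, mul_one, ← exp_zero, exp_inj] at h1
  rw [he]
  congr 1
  omega

end Crest.Agent.R013.NoBp_116
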