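import Mathlib
import Crest.Agent.R013.DW3_854
import Crest.Agent.R013.NoBp_116
import Crest.Agent.R013.DBad_920

/-!
# R013 / DW4 (helper854): the pencil of the D-line

From two non-proportional limit forms (RK2) to `A = ∑ α_j b_j`, `B = ∑ β_j b_j` (`b_j ∈ K₀` regular
forms, `α, β ∈ F^m` the coordinates of the forms of two systems `u, u'`), independent over `F`,
without common zeros beyond those of all the `b_j`, and the finite set of bad integers.
-/

set_option autoImplicit false
set_option linter.all false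

open scoped NNReal

namespace Crest.Agent.R013.DW4_854

open WithZero Module Crest.Agent.R013.Desc_372 Crest.Agent.R013.DescP_429
open Crest.Agent.R013.RR7_948 Crest.Agent.R013.RR8_948 Crest.Agent.R013.RR9_948
open Crest.Agent.R013.RR11_948 Crest.Agent.R013.RR12_948 Crest.Agent.R013.RR13_948
open Crest.Agent.R013.RR14_948 Crest.Agent.R013.RR15_948 Crest.Agent.R013.RR26_948
open Crest.Agent.R013.Cell_408
open Crest.Agent.R013.EE809 Crest.Agent.R013.HU6_522 Crest.Agent.R013.HU3_522
open Crest.Agent.R013.HU1_522 Crest.Agent.R013.HU7_522 Crest.Agent.R013.PC_588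
open Crest.Agent.R013.HU8_522 Crest.Agent.R013.HU9_522 Crest.Agent.R013.HU4_522
open Crest.Agent.R013.HU2_522 Crest.Agent.R013.HU11_522 Crest.Agent.R013.HT_434
open Crest.Agent.R013.DW3_854
open Crest.Agent.R013.CE3_280 Crest.Agent.R013.CE5_280 Crest.Agent.R013.HTb_948

/-- non-proportional power series -/
theorem indep_of_coeff {F : Type*} [Field F] {f g : PowerSeries F}
    (h : ∃ i j, PowerSeries.coeff i f * PowerSeries.coeff j g ≠
      PowerSeries.coeff j f * PowerSeries.coeff i g) (a a' : F)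
    (haa : PowerSeries.C a * f + PowerSeries.C a' * g = 0) : a = 0 ∧ a' = 0 := by
  obtain ⟨i, j, hij⟩ := h
  have hi := congrArg (PowerSeries.coeff i) haa
  have hj := congrArg (PowerSeries.coeff j) haa
  rw [map_add, PowerSeries.coeff_C_mul, PowerSeries.coeff_C_mul, map_zero] at hi hj
  have hd : PowerSeries.coeff i f * PowerSeries.coeff j g -
      PowerSeries.coeff j f * PowerSeries.coeff i g ≠ 0 := sub_ne_zero.mpr hij
  constructor
  · have : a * (PowerSeries.coeff i f * PowerSeries.coeff j g -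
        PowerSeries.coeff j f * PowerSeries.coeff i g) = 0 := by
      linear_combination PowerSeries.coeff j g * hi - PowerSeries.coeff i g * hj
    exact (mul_eq_zero.mp this).resolve_right hd
  · have : a' * (PowerSeries.coeff i f * PowerSeries.coeff j g -
        PowerSeries.coeff j f * PowerSeries.coeff i g) = 0 := by
      linear_combination PowerSeries.coeff i f * hj - PowerSeries.coeff j f * hi
    exact (mul_eq_zero.mp this).resolve_right hd

section alg

variable {C K₀ K F L : Type*} [Field C] [Field K₀] [Field K] [Algebra C K] [Algebra K₀ K]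
  [Field F] [Field L] [Algebra F L] [Algebra C L] (ι : K →ₐ[C] L)

/-- the form `∑ a_j v_j` in `L` -/
noncomputable def lcL {m : ℕ} (v : Fin m → K₀) (a : Fin m → F) : L :=
  ∑ j, a j • ι (algebraMap K₀ K (v j))

theorem lcL_sub_zsmul {m : ℕ} (v : Fin m → K₀) (a a' : Fin m → F) (n : ℤ) :
    lcL ι v (a - n • a') = lcL ι v a - (n : L) * lcL ι v a' := by
  unfold lcL
  rw [Finset.mul_sum, ← Finset.sum_sub_distrib]
  refine Finset.sum_congr rfl fun j _ => ?_
  rw [Pi.sub_apply, Pi.smul_apply, sub_smul, ← Int.cast_smul_eq_zsmul F n (a' j), smul_assoc,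
    Algebra.smul_def ((n : F)), map_intCast]

variable [CharZero C] [Algebra (RatFunc C) K] [IsScalarTower C (RatFunc C) K]
  [FiniteDimensional (RatFunc C) K] [CharZero F]
  [Algebra (RatFunc F) L] [IsScalarTower F (RatFunc F) L] [FiniteDimensional (RatFunc F) L]

/-- **the properties of the pencil** `A / B`, `A = ∑ α_j v_j`, `B = ∑ β_j v_j` -/
structure IsPencil {m : ℕ} (v : Fin m → K₀) (α β : Fin m → F) (Bad : Finset ℤ) : Prop where
  /-- the `v_j dX` are regular forms -/
  reg : ∀ j, algebraMap K₀ K (v j) ∈ LD (canD C K)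
  /-- independent over `F` -/
  indep : LinearIndependent F fun j => ι (algebraMap K₀ K (v j))
  /-- `A`, `B` are not proportional -/
  nonprop : LinearIndependent F ![lcL ι v α, lcL ι v β]
  /-- no base points besides the common zeros of all `v_j` -/
  nobp : ∀ (w : Pl F L) (j : Fin m),
    w.v (ι (algebraMap K₀ K (v j))) ≤ max (w.v (lcL ι v α)) (w.v (lcL ι v β))
  /-- good integers -/
  good : ∀ n : ℤ, n ∉ Bad → ∀ w : Pl F L, w.v (lcL ι v α / lcL ι v β - (n : L)) < 1 →
    w.v (lcL ι v α / lcL ι v β - (n : L)) = exp (-1) ∧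
      w.v (lcL ι v β / del F L (lcL ι v α / lcL ι v β)) = 1

end alg

variable {k : Type*} [NontriviallyNormedField k] [CompleteSpace k] [IsUltrametricDist k]
variable {C : Type*} [NormedField C] [IsUltrametricDist C] [NormedAlgebra k C] [CharZero C]
  [Algebra.IsAlgebraic k C] [IsAlgClosed C]
variable {K₀ K : Type*} [Field K₀] [Field K] [Algebra k K₀] [Algebra C K] [Algebra K₀ K]
  [Algebra k K] [IsScalarTower k C K] [IsScalarTower k K₀ K]
  [Algebra (RatFunc C) K] [IsScalarTower C (RatFunc C) K] [FiniteDimensional (RatFunc C) K]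
variable {p : ℕ} [Fact p.Prime]
variable {F : Type*} [NormedField F] [IsUltrametricDist F] [CharZero F] [CompleteSpace F]
  [Algebra C F] (hσ : ∀ a, ‖algebraMap C F a‖ = ‖a‖) (hk : DiscNorm k)
/-- the form of the system `u` is `∑ α_j v_j dX` at all the disc ends -/
def FormsOf {m : ℕ} (v : Fin m → K₀) (α : Fin m → F) (u : TT C K p) : Prop :=
  ∀ (em : K →+* EE k C)
    (_ : ∀ c : C, em (algebraMap C K c) = mono 0 c (EE809.finDef_const c))
    (hιe : ∀ z, ∃ a b : BD k C, b ≠ 0 ∧ em z * bdE b = bdE a),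
    OmE hk em hιe (algebraMap C F) hσ (u : PC p Kˣ) =
      expF (algebraMap C F) (fun j => algebraMap K₀ K (v j)) α em

/-- the forms of `u - n u'` -/
theorem FormsOf.sub_zsmul {m : ℕ} {v : Fin m → K₀} {c : TT C K p →+ (Fin m → F)}
    (h : ∀ w : TT C K p, FormsOf hσ hk v (c w) w) (u u' : TT C K p) (n : ℤ) :
    FormsOf hσ hk v (c u - n • c u') (u - n • u') := by
  have e : c (u - n • u') = c u - n • c u' := by
    have e1 : c (u - n • u') = c u - c (n • u') := c.map_sub _ _
    rw [e1]
    congr 1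
    exact map_zsmul c n u'
  rw [← e]
  exact h (u - n • u')

variable {L : Type*} [Field L] [Algebra F L] [Algebra C L] [IsScalarTower C F L]
  [Algebra (RatFunc F) L] [IsScalarTower F (RatFunc F) L]
  [FiniteDimensional (RatFunc F) L] [IsAlgClosed F]
  (ι : K →ₐ[C] L)

include hσ hk in
/-- **the pencil**: from RK2 to the data of STEP B–E of the D-line. -/
theorem exists_pencil [Algebra ℚ_[p] k] [FiniteDimensional ℚ_[p] k] [CE k C K₀ K]
    (hq : ∀ q : ℚ_[p], ‖algebraMap ℚ_[p] k q‖ = ‖q‖)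
    (hd : DenseRange (algebraMap C F))
    (hx : ∃ x₀ : K₀, algebraMap K₀ K x₀ = xK C K)
    (hι : IsCE F ι) (hxL : xK F L = ι (xK C K))
    (em0 : K →+* EE k C)
    (hc0 : ∀ c : C, em0 (algebraMap C K c) = mono 0 c (EE809.finDef_const c))
    (hι0 : ∀ z, ∃ a b : BD k C, b ≠ 0 ∧ em0 z * bdE b = bdE a)
    {t : K} {r : C} (hr : r ≠ 0) (ht : em0 t = mono 1 r (EE809.finDef_const r))
    (hRK : ∃ u u' : PC p Kˣ, DivP C u ∧ DivP C u' ∧ ∃ i j,
      PowerSeries.coeff i (OmE hk em0 hι0 (algebraMap C F) hσ u) *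
        PowerSeries.coeff j (OmE hk em0 hι0 (algebraMap C F) hσ u') ≠
      PowerSeries.coeff j (OmE hk em0 hι0 (algebraMap C F) hσ u) *
        PowerSeries.coeff i (OmE hk em0 hι0 (algebraMap C F) hσ u')) :
    ∃ (m : ℕ) (v : Fin m → K₀) (c : TT C K p →+ (Fin m → F)) (u u' : TT C K p) (Bad : Finset ℤ),
      (∀ w : TT C K p, FormsOf hσ hk v (c w) w) ∧ IsPencil ι v (c u) (c u') Bad := by
  obtain ⟨m, v, c, h1, h2, h3, h4, h5⟩ := exists_W0 (p := p) (K₀ := K₀) (L := L) hσ hk hq hd hx hι
    hxL em0 hc0 hι0 hr ht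
  obtain ⟨u₁, u₂, hu₁, hu₂, hij⟩ := hRK
  have hm : 2 ≤ m := h5 ⟨u₁, hu₁⟩ ⟨u₂, hu₂⟩ fun a a' haa => indep_of_coeff hij a a' haa
  obtain ⟨u, u', h6, h7⟩ := NoBp_116.exists_nobp (fun j => ι (algebraMap K₀ K (v j))) h2 hm c h4
  have hA : (∑ j, c u j • ι (algebraMap K₀ K (v j))) = lcL ι v (c u) := rfl
  have hB : (∑ j, c u' j • ι (algebraMap K₀ K (v j))) = lcL ι v (c u') := rfl
  rw [hA, hB] at h6
  have hpair := LinearIndependent.pair_iff.mp h6
  have hB0 : lcL ι v (c u') ≠ 0 := by
    intro h0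
    have := hpair 0 1 (by rw [h0]; simp)
    exact one_ne_zero this.2
  have hφ : ∀ a : F, lcL ι v (c u) / lcL ι v (c u') ≠ algebraMap F L a := by
    intro a ha
    rw [div_eq_iff hB0] at ha
    have := hpair 1 (-a) (by rw [ha, Algebra.smul_def, Algebra.smul_def, map_neg, map_one]; ring)
    exact one_ne_zero this.1
  have hdel := DBad_920.del_ne_zero_of hφ
  obtain ⟨Bad, hBad⟩ := NoBp_116.exists_bad (lcL ι v (c u) / lcL ι v (c u')) (lcL ι v (c u')) hB0 hdel
  exact ⟨m, v, c, u, u', Bad, fun w em hcem hιe => h3 w em hcem hιe,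
    { reg := h1, indep := h2, nonprop := h6, nobp := fun w j => h7 w j, good := hBad }⟩

end Crest.Agent.R013.DW4_854
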