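import Mathlib
import Crest.Agent.R013.DW4_854

/-!
# R013 / DPa (helper854): the pencil at a place, in Laurent series

* `v_le_of_coef`, `v_eq_order` : valuation and order of the expansion;
* `exp_unique` : an expansion `J : K →+* LaurentSeries C` has the coefficients `coef P t n`;
* `lcS` : `∑ a_j g_j` in `LaurentSeries F`;
* `IsPencil.at` : the pencil at a place of `K`: independence and orders.
-/

set_option autoImplicit false
set_option linter.all false

namespace Crest.Agent.R013.DPa_854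

open WithZero Module
open Crest.Agent.R013.RR2_948
open Crest.Agent.R013.RR7_948 Crest.Agent.R013.RR8_948 Crest.Agent.R013.RR9_948
open Crest.Agent.R013.RR11_948 Crest.Agent.R013.RR12_948 Crest.Agent.R013.RR13_948
open Crest.Agent.R013.RR14_948 Crest.Agent.R013.RR15_948 Crest.Agent.R013.RR26_948
open Crest.Agent.R013.RR29_948

section order

variable {k K : Type*} [Field k] [PerfectField k] [Field K] [Algebra k K]
  [Algebra (RatFunc k) K] [IsScalarTower k (RatFunc k) K] [FiniteDimensional (RatFunc k) K]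
  [Algebra.IsSeparable (RatFunc k) K] [IsAlgClosed k]

theorem exists_bound (P : Pl k K) (h : K) : ∃ N : ℕ, P.v h ≤ exp (N : ℤ) := by
  by_cases hf : h = 0
  · exact ⟨0, by rw [hf, map_zero]; exact zero_le⟩
  · refine ⟨(-divf (k := k) h P).toNat, ?_⟩
    rw [v_eq (k := k) hf, exp_le_exp]
    exact Int.self_le_toNat _

/-- if all coefficients before `n` vanish, then `ord ≥ n` -/
theorem v_le_of_coef {P : Pl k K} {t : K} (ht : P.v t = exp (-1)) {h : K} {n : ℤ}
    (H : ∀ i < n, coef P t i h = 0) : P.v h ≤ exp (-n) := by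
  obtain ⟨N, hN⟩ := exists_bound P h
  rcases le_total ((N : ℤ)) (-n) with h1 | h1
  · exact hN.trans (exp_le_exp.mpr h1)
  · have h2 := coef_spec ht hN ((N : ℤ) + n).toNat
    have h3 : (((((N : ℤ) + n).toNat : ℕ)) : ℤ) = N + n := Int.toNat_of_nonneg (by omega)
    rw [Finset.sum_eq_zero, sub_zero, h3] at h2
    · refine h2.trans (exp_le_exp.mpr (by omega))
    · intro i hi
      rw [Finset.mem_Ico, h3] at hi
      rw [H i (by omega), zero_smul]

/-- the order of the expansion -/
theorem v_eq_order {P : Pl k K} {t : K} (ht : P.v t = exp (-1)) {h : K} (hh : h ≠ 0)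
    {H : LaurentSeries k} (hH : ∀ n, H.coeff n = coef P t n h) :
    H ≠ 0 ∧ P.v h = exp (-H.order) := by
  have hne : H ≠ 0 := by
    intro h0
    have h1 : ∀ n : ℕ, P.v h ≤ exp (-(n : ℤ)) := fun n => v_le_of_coef ht fun i _ => by
      rw [← hH, h0]; rfl
    have h2 := h1 (divf (k := k) h P + 1).toNat
    rw [v_eq (k := k) hh, exp_le_exp] at h2
    have := Int.self_le_toNat (divf (k := k) h P + 1)
    omega
  refine ⟨hne, le_antisymm ?_ ?_⟩
  · refine v_le_of_coef ht fun i hi => ?_
    rw [← hH]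
    exact HahnSeries.coeff_eq_zero_of_lt_order hi
  · by_contra hlt
    push Not at hlt
    have h1 : P.v h ≤ exp (-H.order - 1) := by
      rw [v_eq (k := k) hh] at hlt ⊢
      rw [exp_lt_exp] at hlt
      rw [exp_le_exp]
      omega
    have h2 := coef_of_le ht h1
    rw [← hH] at h2
    exact HahnSeries.coeff_order_eq_zero.not.mpr hne h2

/-- **uniqueness of the expansion** -/
theorem exp_unique {P : Pl k K} {t : K} (ht : P.v t = exp (-1)) {J : K →+* LaurentSeries k}
    (hc : ∀ c, J (algebraMap k K c) = HahnSeries.C c)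
    (hJt : J t = HahnSeries.single (1 : ℤ) (1 : k))
    (hn : ∀ a, P.v a ≤ 1 → ∀ n < 0, (J a).coeff n = 0) (f : K) (n : ℤ) :
    (J f).coeff n = coef P t n f := by
  obtain ⟨N, hN, hnN⟩ : ∃ N : ℕ, P.v f ≤ exp (N : ℤ) ∧ |n| ≤ (N : ℤ) := by
    obtain ⟨N, hN⟩ := exists_bound P f
    have h0 := abs_nonneg n
    refine ⟨N + n.natAbs, hN.trans (exp_le_exp.mpr (by push_cast; linarith)), ?_⟩
    push_cast
    linarith [Int.natCast_nonneg N]
  obtain ⟨m, hm⟩ : ∃ m : ℕ, (N : ℤ) + |n| + 1 ≤ m := ⟨((N : ℤ) + |n| + 1).toNat, Int.self_le_toNat _⟩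
  have h1 := coef_spec ht hN m
  set s := Finset.Ico (-(N : ℤ)) (-(N : ℤ) + (m : ℤ)) with hs
  set r := f - ∑ i ∈ s, coef P t i f • t ^ i with hr
  have ht0 : t ≠ 0 := uni_ne_zero ht
  have hpow : ∀ i : ℤ, J (t ^ i) = HahnSeries.single i (1 : k) := by
    intro i
    rw [map_zpow₀, hJt]
    have h2 : ∀ j : ℕ, (HahnSeries.single (1 : ℤ) (1 : k)) ^ j = HahnSeries.single (j : ℤ) 1 := by
      intro j
      rw [HahnSeries.single_pow]; simp
    rcases i.eq_nat_or_neg with ⟨j, rfl | rfl⟩
    · rw [zpow_natCast, h2]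
    · rw [zpow_neg, zpow_natCast, h2]
      refine inv_eq_of_mul_eq_one_right ?_
      rw [HahnSeries.single_mul_single]
      simp
  have hr' : P.v (r / t ^ ((m : ℤ) - N)) ≤ 1 := by
    rw [map_div₀, v_uni_zpow ht]
    calc P.v r / exp (-((m : ℤ) - N)) ≤ exp ((N : ℤ) - m) / exp (-((m : ℤ) - N)) := by
          rw [div_eq_mul_inv, div_eq_mul_inv]
          exact mul_le_mul' h1 le_rfl
      _ = 1 := by
          have : (N : ℤ) - m = -((m : ℤ) - N) := by ring
          rw [this]
          exact div_self exp_ne_zero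
  have hJr : (J r).coeff n = 0 := by
    have h3 : r = t ^ ((m : ℤ) - N) * (r / t ^ ((m : ℤ) - N)) := by
      rw [mul_div_cancel₀ _ (zpow_ne_zero _ ht0)]
    have h4 : n = (n - ((m : ℤ) - N)) + ((m : ℤ) - N) := by ring
    rw [h3, map_mul, hpow, h4, HahnSeries.coeff_single_mul_add, one_mul]
    refine hn _ hr' _ ?_
    have := le_abs_self n
    omega
  have hf : f = r + ∑ i ∈ s, coef P t i f • t ^ i := by rw [hr]; ring
  have hns : n ∈ s := by
    rw [hs, Finset.mem_Ico]
    have h5 := le_abs_self n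
    have h6 := neg_abs_le n
    constructor <;> omega
  conv_lhs => rw [hf]
  rw [map_add, HahnSeries.coeff_add, hJr, zero_add, map_sum]
  have h7 : ∀ i ∈ s, (J (coef P t i f • t ^ i)).coeff n = if i = n then coef P t n f else 0 := by
    intro i _
    rw [Algebra.smul_def, map_mul, hc, hpow, HahnSeries.C_apply, HahnSeries.single_mul_single,
      zero_add, mul_one, HahnSeries.coeff_single]
    by_cases h8 : n = i
    · subst h8; rw [if_pos rfl, if_pos rfl]
    · rw [if_neg h8, if_neg (fun h => h8 h.symm)]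
  have h9 : ∀ (u : Finset ℤ) (g : ℤ → LaurentSeries k), (∑ i ∈ u, g i).coeff n =
      ∑ i ∈ u, (g i).coeff n := by
    intro u g
    exact map_sum (HahnSeries.coeff.addMonoidHom n) g u
  rw [h9, Finset.sum_congr rfl h7, Finset.sum_ite_eq', if_pos hns]

end order

end Crest.Agent.R013.DPa_854
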