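import Mathlib
import Crest.Agent.R013.DPa_854

/-!
# R013 / DPb (helper854): D-PENP, the pencil at a place in Laurent series

`w : Pl C K`, `t` a uniformiser, `g j : LaurentSeries F` the expansion of `v j`
(`(g j).coeff n = algebraMap C F (coef w t n (v j))`), `lcS g a = ∑ a_j g_j`.

* `lcS_eq_zero` : the `g j` are independent over `F`;
* `nonprop` : `A`, `B` are not proportional in `LaurentSeries F`;
* `order_le` : `B.order ≤ (g j).order` for all `j`, or the same for `A`.
-/

set_option autoImplicit false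
set_option linter.all false

namespace Crest.Agent.R013.DW4_854

open WithZero Module
open Crest.Agent.R013.RR2_948 Crest.Agent.R013.RR7_948 Crest.Agent.R013.RR8_948
open Crest.Agent.R013.RR11_948 Crest.Agent.R013.RR12_948 Crest.Agent.R013.RR13_948
open Crest.Agent.R013.RR14_948 Crest.Agent.R013.RR15_948 Crest.Agent.R013.RR26_948
open Crest.Agent.R013.RR29_948 Crest.Agent.R013.CE3_280 Crest.Agent.R013.CE5_280
open Crest.Agent.R013.HTb_948 Crest.Agent.R013.DPa_854

variable {k C K₀ K F L : Type*} [Field k] [Field C] [CharZero C] [IsAlgClosed C] [Field K₀] [Field K]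
  [Algebra C K] [Algebra K₀ K]
  [Algebra (RatFunc C) K] [IsScalarTower C (RatFunc C) K] [FiniteDimensional (RatFunc C) K]
  [Field F] [CharZero F] [IsAlgClosed F] [Algebra C F]
  [Field L] [Algebra F L] [Algebra C L] [IsScalarTower C F L]
  [Algebra (RatFunc F) L] [IsScalarTower F (RatFunc F) L] [FiniteDimensional (RatFunc F) L]
  {ι : K →ₐ[C] L} {m : ℕ}

/-- `∑ a_j g_j` -/
noncomputable def lcS (g : Fin m → LaurentSeries F) (a : Fin m → F) : LaurentSeries F :=
  ∑ j, HahnSeries.C (a j) * g j

theorem coeff_lcS (g : Fin m → LaurentSeries F) (a : Fin m → F) (n : ℤ) :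
    (lcS g a).coeff n = ∑ j, a j * (g j).coeff n := by
  unfold lcS
  rw [HahnSeries.coeff_sum]
  refine Finset.sum_congr rfl fun j _ => ?_
  rw [HahnSeries.C_apply]
  have := HahnSeries.coeff_single_mul_add (r := a j) (x := g j) (a := n) (b := (0 : ℤ))
  rwa [add_zero] at this

theorem lcS_add (g : Fin m → LaurentSeries F) (a a' : Fin m → F) :
    lcS g (a + a') = lcS g a + lcS g a' := by
  unfold lcS
  rw [← Finset.sum_add_distrib]
  exact Finset.sum_congr rfl fun j _ => by rw [Pi.add_apply, map_add, add_mul]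

theorem lcS_smul (g : Fin m → LaurentSeries F) (c : F) (a : Fin m → F) :
    lcS g (c • a) = HahnSeries.C c * lcS g a := by
  unfold lcS
  rw [Finset.mul_sum]
  exact Finset.sum_congr rfl fun j _ => by rw [Pi.smul_apply, smul_eq_mul, map_mul, mul_assoc]

theorem lcL_add (v : Fin m → K₀) (a a' : Fin m → F) :
    lcL ι v (a + a') = lcL ι v a + lcL ι v a' := by
  unfold lcL
  rw [← Finset.sum_add_distrib]
  exact Finset.sum_congr rfl fun j _ => by rw [Pi.add_apply, add_smul]

theorem lcL_smul (v : Fin m → K₀) (c : F) (a : Fin m → F) :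
    lcL ι v (c • a) = c • lcL ι v a := by
  unfold lcL
  rw [Finset.smul_sum]
  exact Finset.sum_congr rfl fun j _ => by rw [Pi.smul_apply, smul_eq_mul, mul_smul]

section at_place

variable (hι : IsCE F ι) {w : Pl C K} {t : K} (ht : w.v t = exp (-1)) {v : Fin m → K₀}
  {g : Fin m → LaurentSeries F}
  (hg : ∀ j n, (g j).coeff n = algebraMap C F (coef w t n (algebraMap K₀ K (v j))))

include ht hg in
theorem coeff_lcS_eq (a : Fin m → F) (n : ℤ) :
    (lcS g a).coeff n = coef (conP hι w) (ι t) n (lcL ι v a) := by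
  rw [coeff_lcS]
  unfold lcL
  rw [map_sum]
  exact Finset.sum_congr rfl fun j _ => by rw [map_smul, coef_iota hι ht, hg, smul_eq_mul]

include ht in
theorem conP_t : (conP hι w).v (ι t) = exp (-1) := by rw [v_conP, ht]

include hι ht hg in
/-- the order of `∑ a_j g_j` is the order of `∑ a_j v_j` at the place -/
theorem order_lcS {a : Fin m → F} (ha : lcL ι v a ≠ 0) :
    lcS g a ≠ 0 ∧ (conP hι w).v (lcL ι v a) = exp (-(lcS g a).order) :=
  v_eq_order (conP_t hι ht) ha fun n => coeff_lcS_eq hι ht hg a n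

include ht hg in
theorem order_g {j : Fin m} (hj : v j ≠ 0) :
    g j ≠ 0 ∧ (conP hι w).v (ι (algebraMap K₀ K (v j))) = exp (-(g j).order) := by
  refine v_eq_order (conP_t hι ht) ?_ fun n => ?_
  · simpa using hj
  · rw [coef_iota hι ht, hg]

end at_place

section pencil

variable {v : Fin m → K₀} {α β : Fin m → F} {Bad : Finset ℤ} (h : IsPencil ι v α β Bad)

include h in
theorem IsPencil.lcL_ne {a : Fin m → F} (ha : a ≠ 0) : lcL ι v a ≠ 0 := by
  intro h0
  apply ha
  funext j
  exact Fintype.linearIndependent_iff.mp h.indep a h0 j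

include h in
theorem IsPencil.comb_ne {a a' : F} (haa : ¬ (a = 0 ∧ a' = 0)) : lcL ι v (a • α + a' • β) ≠ 0 := by
  intro h0
  rw [lcL_add, lcL_smul, lcL_smul] at h0
  exact haa (LinearIndependent.pair_iff.mp h.nonprop a a' h0)

include h in
theorem IsPencil.beta_ne : lcL ι v β ≠ 0 := by
  have := h.comb_ne (a := 0) (a' := 1) (fun h1 => one_ne_zero h1.2)
  rwa [zero_smul, one_smul, zero_add] at this

include h in
theorem IsPencil.alpha_ne : lcL ι v α ≠ 0 := by
  have := h.comb_ne (a := 1) (a' := 0) (fun h1 => one_ne_zero h1.1)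
  rwa [zero_smul, one_smul, add_zero] at this

include h in
theorem IsPencil.v_ne (j : Fin m) : v j ≠ 0 := by
  intro h0
  have := h.indep.ne_zero j
  rw [h0, map_zero, map_zero] at this
  exact this rfl

variable (hι : IsCE F ι) {w : Pl C K} {t : K} (ht : w.v t = exp (-1))
  {g : Fin m → LaurentSeries F}
  (hg : ∀ j n, (g j).coeff n = algebraMap C F (coef w t n (algebraMap K₀ K (v j))))

include h hι ht hg in
/-- the series `g j` are independent over `F` -/
theorem IsPencil.lcS_ne {a : Fin m → F} (ha : a ≠ 0) : lcS g a ≠ 0 :=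
  (order_lcS hι ht hg (h.lcL_ne ha)).1

include h hι ht hg in
/-- `A`, `B` are not proportional in `LaurentSeries F` -/
theorem IsPencil.lcS_comb_ne {a a' : F} (haa : ¬ (a = 0 ∧ a' = 0)) :
    HahnSeries.C a * lcS g α + HahnSeries.C a' * lcS g β ≠ 0 := by
  rw [← lcS_smul, ← lcS_smul, ← lcS_add]
  exact (order_lcS hι ht hg (h.comb_ne haa)).1

include h hι ht hg in
theorem IsPencil.lcS_beta_ne : lcS g β ≠ 0 := (order_lcS hι ht hg h.beta_ne).1

include h hι ht hg in
theorem IsPencil.lcS_alpha_ne : lcS g α ≠ 0 := (order_lcS hι ht hg h.alpha_ne).1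

include h hι ht hg in
theorem IsPencil.ne_smul (lam : F) : lcS g α ≠ HahnSeries.C lam * lcS g β := by
  intro h0
  apply h.lcS_comb_ne hι ht hg (a := 1) (a' := -lam) (fun h1 => one_ne_zero h1.1)
  rw [h0, map_one, map_neg]
  ring

include h hι ht hg in
/-- **no common zeros**: after exchanging `A` and `B`, `B` has the smallest order -/
theorem IsPencil.order_le : (∀ j, (lcS g β).order ≤ (g j).order) ∨
    (∀ j, (lcS g α).order ≤ (g j).order) := by
  obtain ⟨-, hA⟩ := order_lcS hι ht hg h.alpha_ne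
  obtain ⟨-, hB⟩ := order_lcS hι ht hg h.beta_ne
  rcases le_total ((conP hι w).v (lcL ι v α)) ((conP hι w).v (lcL ι v β)) with hle | hle
  · left
    intro j
    have h1 := h.nobp (conP hι w) j
    rw [max_eq_right hle, (order_g hι ht hg (h.v_ne j)).2, hB, exp_le_exp] at h1
    omega
  · right
    intro j
    have h1 := h.nobp (conP hι w) j
    rw [max_eq_left hle, (order_g hι ht hg (h.v_ne j)).2, hA, exp_le_exp] at h1
    omega

include h hι ht hg in
/-- **the pencil at a place** (205's `PencilAt`) -/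
theorem IsPencil.at_place : (∃ o : ℤ, (∀ j, ∀ i < o, (g j).coeff i = 0) ∧
      (∑ j, α j * (g j).coeff o ≠ 0 ∨ ∑ j, β j * (g j).coeff o ≠ 0)) ∧
    ∀ s t : F, (∀ i : ℤ, ∑ j, (s * α j + t * β j) * (g j).coeff i = 0) → s = 0 ∧ t = 0 := by
  constructor
  · rcases h.order_le hι ht hg with hle | hle
    · refine ⟨(lcS g β).order, fun j i hi => HahnSeries.coeff_eq_zero_of_lt_order
        (hi.trans_le (hle j)), Or.inr ?_⟩
      rw [← coeff_lcS]
      exact HahnSeries.coeff_order_eq_zero.not.mpr (h.lcS_beta_ne hι ht hg)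
    · refine ⟨(lcS g α).order, fun j i hi => HahnSeries.coeff_eq_zero_of_lt_order
        (hi.trans_le (hle j)), Or.inl ?_⟩
      rw [← coeff_lcS]
      exact HahnSeries.coeff_order_eq_zero.not.mpr (h.lcS_alpha_ne hι ht hg)
  · intro a a' H
    by_contra hcon
    apply h.lcS_comb_ne hι ht hg hcon
    rw [← lcS_smul, ← lcS_smul, ← lcS_add]
    ext i
    rw [coeff_lcS]
    exact H i

/-- the pencil with `A` and `B` exchanged: the statements used at a place -/
theorem IsPencil.order_g_le (hle : ∀ j, (lcS g β).order ≤ (g j).order)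
    (hB : lcS g β ≠ 0) (j : Fin m) (n : ℤ) (hn : n < (lcS g β).order) : (g j).coeff n = 0 :=
  HahnSeries.coeff_eq_zero_of_lt_order (hn.trans_le (hle j))

end pencil

end Crest.Agent.R013.DW4_854
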