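import Crest.Agent.R013.Puis_702
import Crest.Agent.R013.Eis_863

set_option autoImplicit false

open Polynomial

namespace Crest.Agent.R013.Puis_702

section Laurent

variable {R S T : Type*} [CommRing R] [CommRing S] [CommRing T]

/-- coefficientwise map of Laurent series -/
noncomputable def mapL (φ : R →+* S) : LaurentSeries R →+* LaurentSeries S where
  toFun x := HahnSeries.map x φ
  map_one' := by
    ext i
    rw [HahnSeries.map_coeff, HahnSeries.coeff_one, HahnSeries.coeff_one]
    split_ifs <;> simp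
  map_mul' x y := by
    have := HahnSeries.map_mul (φ : R →ₙ+* S) (x := x) (y := y)
    exact this
  map_zero' := by
    ext i
    simp
  map_add' x y := by
    ext i
    simp

@[simp] theorem coeff_mapL (φ : R →+* S) (x : LaurentSeries R) (i : ℤ) :
    (mapL φ x).coeff i = φ (x.coeff i) := rfl

theorem mapL_comp (φ : R →+* S) (ψ : S →+* T) : (mapL ψ).comp (mapL φ) = mapL (ψ.comp φ) := by
  ext x i
  rfl

theorem mapL_id : mapL (RingHom.id R) = RingHom.id (LaurentSeries R) := by
  ext x i
  rfl

/-- `X ↦ X ^ e` on Laurent series -/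
noncomputable def expL (e : ℕ) (he : e ≠ 0) : LaurentSeries R →+* LaurentSeries R :=
  HahnSeries.embDomainRingHom (AddMonoidHom.mulLeft (e : ℤ))
    (fun a b h => mul_left_cancel₀ (by exact_mod_cast he : (e : ℤ) ≠ 0) h)
    (fun g g' => by
      have h : (0 : ℤ) < e := by exact_mod_cast Nat.pos_of_ne_zero he
      exact mul_le_mul_iff_right₀ h)

theorem coeff_expL_mul (e : ℕ) (he : e ≠ 0) (x : LaurentSeries R) (i : ℤ) :
    (expL e he x).coeff (e * i) = x.coeff i :=
  HahnSeries.embDomain_coeff

theorem coeff_expL_of_not_dvd (e : ℕ) (he : e ≠ 0) (x : LaurentSeries R) {i : ℤ}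
    (h : ¬ (e : ℤ) ∣ i) : (expL e he x).coeff i = 0 := by
  refine HahnSeries.embDomain_of_notMem_range ?_
  rintro ⟨j, rfl⟩
  exact h ⟨j, rfl⟩

theorem expL_mapL (φ : R →+* S) (e : ℕ) (he : e ≠ 0) :
    (expL e he).comp (mapL φ) = (mapL φ).comp (expL e he) := by
  ext x i
  simp only [RingHom.comp_apply, coeff_mapL]
  by_cases h : (e : ℤ) ∣ i
  · obtain ⟨j, rfl⟩ := h
    rw [coeff_expL_mul, coeff_expL_mul, coeff_mapL]
  · rw [coeff_expL_of_not_dvd _ _ _ h, coeff_expL_of_not_dvd _ _ _ h, map_zero]

theorem expL_comp (a b : ℕ) (ha : a ≠ 0) (hb : b ≠ 0) :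
    (expL a ha).comp (expL b hb) = (expL (a * b) (mul_ne_zero ha hb) : LaurentSeries R →+* _) := by
  ext x i
  simp only [RingHom.comp_apply]
  by_cases h : (a : ℤ) ∣ i
  · obtain ⟨j, rfl⟩ := h
    rw [coeff_expL_mul]
    by_cases h2 : (b : ℤ) ∣ j
    · obtain ⟨l, rfl⟩ := h2
      rw [coeff_expL_mul]
      have : (a : ℤ) * (b * l) = ((a * b : ℕ) : ℤ) * l := by push_cast; ring
      rw [this, coeff_expL_mul]
    · rw [coeff_expL_of_not_dvd _ _ _ h2, coeff_expL_of_not_dvd]
      intro h3
      push_cast at h3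
      exact h2 (Int.dvd_of_mul_dvd_mul_left (by exact_mod_cast ha) h3)
  · rw [coeff_expL_of_not_dvd _ _ _ h, coeff_expL_of_not_dvd]
    intro h3
    push_cast at h3
    exact h (dvd_trans (Dvd.intro _ rfl) h3)

theorem expL_ofPowerSeries (e : ℕ) (he : e ≠ 0) (f : PowerSeries R) :
    expL e he (HahnSeries.ofPowerSeries ℤ R f) =
      HahnSeries.ofPowerSeries ℤ R (PowerSeries.expand e he f) := by
  ext i
  by_cases h : (e : ℤ) ∣ i
  · obtain ⟨j, rfl⟩ := h
    rw [coeff_expL_mul, PowerSeries.coeff_coe, PowerSeries.coeff_coe]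
    have he' : (0 : ℤ) < e := by exact_mod_cast Nat.pos_of_ne_zero he
    by_cases hj : j < 0
    · rw [if_pos hj, if_pos (mul_neg_of_pos_of_neg he' hj)]
    · rw [if_neg hj, if_neg (by
        have : (0 : ℤ) ≤ e * j := by nlinarith
        omega)]
      rw [Int.natAbs_mul, Int.natAbs_natCast, PowerSeries.coeff_expand_mul]
  · rw [coeff_expL_of_not_dvd _ _ _ h, PowerSeries.coeff_coe]
    split_ifs with hi
    · rfl
    · rw [PowerSeries.coeff_expand_of_not_dvd]
      intro h2
      exact h (Int.natCast_dvd.2 h2)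

end Laurent


section CoeffField

variable {C Ω : Type*} [Field C] [Field Ω] [Algebra C Ω]

theorem mapL_injective {R S : Type*} [CommRing R] [CommRing S] {φ : R →+* S}
    (h : Function.Injective φ) : Function.Injective (mapL φ) := by
  intro x y hxy
  ext i
  apply h
  rw [← coeff_mapL, hxy, coeff_mapL]

/-- The coefficients of a Laurent series over `Ω` algebraic over `C((X))` generate a finite
extension of `C` (`Ω/C` Galois). -/
theorem coeff_field [IsGalois C Ω] (f : (LaurentSeries C)[X]) (hf : f ≠ 0) (z : LaurentSeries Ω)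
    (hz : (f.map (mapL (algebraMap C Ω))).eval z = 0) :
    FiniteDimensional C (IntermediateField.adjoin C (Set.range z.coeff)) := by
  classical
  set L := IntermediateField.adjoin C (Set.range z.coeff) with hL
  set F := f.map (mapL (algebraMap C Ω)) with hF
  have hF0 : F ≠ 0 := (Polynomial.map_ne_zero_iff (mapL_injective (algebraMap C Ω).injective)).2 hf
  rw [← InfiniteGalois.isOpen_iff_finite]
  have hroot : ∀ σ : Ω ≃ₐ[C] Ω, mapL (σ : Ω →+* Ω) z ∈ F.roots := by
    intro σ
    rw [mem_roots hF0, IsRoot.def]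
    have h1 : F.map (mapL (σ : Ω →+* Ω)) = F := by
      rw [hF, Polynomial.map_map, mapL_comp]
      congr 2
      ext c
      simp
    rw [← h1, eval_map, Polynomial.eval₂_at_apply, hz, map_zero]
  let Φ : (Ω ≃ₐ[C] Ω) ⧸ L.fixingSubgroup → F.roots.toFinset :=
    Quotient.lift (fun σ => ⟨mapL (σ : Ω →+* Ω) z, Multiset.mem_toFinset.2 (hroot σ)⟩) (by
      intro σ τ h
      have h1 : σ⁻¹ * τ ∈ L.fixingSubgroup := QuotientGroup.leftRel_apply.1 h
      ext i
      have h2 : (σ⁻¹ * τ) (z.coeff i) = z.coeff i :=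
        (IntermediateField.mem_fixingSubgroup_iff _ _).1 h1 _
          (IntermediateField.subset_adjoin C _ ⟨i, rfl⟩)
      have h3 : τ (z.coeff i) = σ (z.coeff i) := by
        have := congrArg σ h2
        rw [AlgEquiv.mul_apply] at this
        rw [← this]
        exact (AlgEquiv.apply_symm_apply σ _).symm
      exact h3.symm)
  have hΦ : Function.Injective Φ := by
    intro a b
    refine Quotient.inductionOn₂ a b fun σ τ h => ?_
    have h0 : mapL (σ : Ω →+* Ω) z = mapL (τ : Ω →+* Ω) z := congrArg Subtype.val h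
    refine Quotient.sound (QuotientGroup.leftRel_apply.2 ?_)
    rw [IntermediateField.mem_fixingSubgroup_iff]
    intro x hx
    have h1 : ∀ i, (σ⁻¹ * τ) (z.coeff i) = z.coeff i := by
      intro i
      have h2 := congrArg (fun w => w.coeff i) h0
      simp only [coeff_mapL] at h2
      rw [AlgEquiv.mul_apply]
      have h3 : τ (z.coeff i) = σ (z.coeff i) := h2.symm
      rw [h3]
      exact AlgEquiv.symm_apply_apply σ _
    have h2 : L ≤ IntermediateField.fixedField (Subgroup.closure {σ⁻¹ * τ}) := by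
      rw [hL, IntermediateField.adjoin_le_iff]
      rintro _ ⟨i, rfl⟩
      rw [SetLike.mem_coe, IntermediateField.mem_fixedField_iff]
      intro g hg
      induction hg using Subgroup.closure_induction with
      | mem g hg => rw [Set.mem_singleton_iff.1 hg]; exact h1 i
      | one => rfl
      | mul a b _ _ ha hb => rw [AlgEquiv.mul_apply, hb, ha]
      | inv a _ ha =>
        have := congrArg (a⁻¹ : Ω ≃ₐ[C] Ω) ha
        rw [← this]
        exact (AlgEquiv.symm_apply_apply a _).symm ▸ rfl
    exact (IntermediateField.mem_fixedField_iff _ _).1 (h2 hx) _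
      (Subgroup.subset_closure (Set.mem_singleton _))
  have hfin : Finite ((Ω ≃ₐ[C] Ω) ⧸ L.fixingSubgroup) := Finite.of_injective Φ hΦ
  have : L.fixingSubgroup.FiniteIndex := Subgroup.finiteIndex_of_finite_quotient
  exact Subgroup.isOpen_of_isClosed_of_finiteIndex _ (InfiniteGalois.fixingSubgroup_isClosed L)

end CoeffField


section PuiseuxL

variable {Ω : Type*} [Field Ω]

/-- multiplication by a high power of `X` makes a Laurent series a power series -/
theorem exists_pow_mul (a : LaurentSeries Ω) : ∃ N : ℕ, ∀ M ≥ N, ∃ w : PowerSeries Ω,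
    HahnSeries.ofPowerSeries ℤ Ω (PowerSeries.X ^ M) * a = HahnSeries.ofPowerSeries ℤ Ω w := by
  refine ⟨(-a.order).toNat, fun M hM => ?_⟩
  refine ⟨PowerSeries.X ^ (M + a.order).toNat * a.powerSeriesPart, ?_⟩
  have h1 := LaurentSeries.single_order_mul_powerSeriesPart a
  conv_lhs => rw [← h1]
  rw [map_mul, map_pow, map_pow, HahnSeries.ofPowerSeries_X, HahnSeries.single_pow,
    HahnSeries.single_pow, ← mul_assoc, HahnSeries.single_mul_single]
  have h2 : (M : ℤ) • (1 : ℤ) + a.order = ((M + a.order).toNat : ℤ) • (1 : ℤ) := by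
    have : (-a.order).toNat ≤ M := hM
    simp only [smul_eq_mul, mul_one]
    omega
  simp only [one_pow, mul_one]
  congr 2
  simp only [nsmul_eq_mul, smul_eq_mul, mul_one] at h2 ⊢
  rw [h2]
  rfl

theorem ofPS_injective : Function.Injective (HahnSeries.ofPowerSeries ℤ Ω) :=
  HahnSeries.ofPowerSeries_injective

/-- a polynomial over Laurent series becomes a polynomial over power series after scaling -/
theorem exists_scale (f : (LaurentSeries Ω)[X]) (hf : f.Monic) : ∃ N : ℕ,
    ∀ i, ∃ w : PowerSeries Ω,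
    (f.scaleRoots (HahnSeries.ofPowerSeries ℤ Ω (PowerSeries.X ^ N))).coeff i =
      HahnSeries.ofPowerSeries ℤ Ω w := by
  choose N hN using fun i => exists_pow_mul (f.coeff i)
  refine ⟨∑ i ∈ Finset.range (f.natDegree + 1), N i, fun i => ?_⟩
  rw [coeff_scaleRoots]
  rcases Nat.lt_trichotomy i f.natDegree with h | h | h
  · obtain ⟨w, hw⟩ := hN i (∑ i ∈ Finset.range (f.natDegree + 1), N i)
      (Finset.single_le_sum (f := N) (fun _ _ => Nat.zero_le _) (Finset.mem_range.2 (by omega)))
    obtain ⟨m, hm⟩ : ∃ m, f.natDegree - i = m + 1 := ⟨f.natDegree - i - 1, by omega⟩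
    refine ⟨w * (PowerSeries.X ^ (∑ i ∈ Finset.range (f.natDegree + 1), N i)) ^ m, ?_⟩
    rw [map_mul, ← hw, hm, pow_succ, map_pow _ _ m]
    ring
  · refine ⟨1, ?_⟩
    rw [h, coeff_natDegree, hf.leadingCoeff, Nat.sub_self, pow_zero, mul_one, map_one]
  · refine ⟨0, ?_⟩
    rw [coeff_eq_zero_of_natDegree_lt h, zero_mul, map_zero]

/-- **Puiseux's theorem** over Laurent series. -/
theorem puiseux_L [IsAlgClosed Ω] [CharZero Ω] (f : (LaurentSeries Ω)[X]) (hf : f.Monic) :
    ∃ e, ∃ he : e ≠ 0, (f.map (expL e he)).Splits := by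
  obtain ⟨N, hN⟩ := exists_scale f hf
  set s := HahnSeries.ofPowerSeries ℤ Ω (PowerSeries.X ^ N) with hs
  have hs0 : s ≠ 0 := by
    rw [hs, Ne, map_eq_zero_iff _ ofPS_injective]
    exact pow_ne_zero _ PowerSeries.X_ne_zero
  have hsm : (f.scaleRoots s).Monic := (monic_scaleRoots_iff s).2 hf
  have hl : f.scaleRoots s ∈ lifts (HahnSeries.ofPowerSeries ℤ Ω) := by
    rw [lifts_iff_coeff_lifts]
    intro i
    obtain ⟨w, hw⟩ := hN i
    exact ⟨w, hw.symm⟩
  obtain ⟨g, hg, -, hgm⟩ := lifts_and_natDegree_eq_and_monic hl hsm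
  obtain ⟨e, he, hsp⟩ := puiseux_ps g hgm
  refine ⟨e, he, ?_⟩
  have h1 : (g.map (ex e he)).map (HahnSeries.ofPowerSeries ℤ Ω) =
      (f.map (expL e he)).scaleRoots (expL e he s) := by
    rw [← map_scaleRoots _ _ _ (by rw [hf.leadingCoeff, map_one]; exact one_ne_zero), ← hg,
      Polynomial.map_map, Polynomial.map_map]
    congr 1
    ext1 w
    exact (expL_ofPowerSeries e he w).symm
  have h2 : (f.map (expL e he)).scaleRoots (expL e he s) |>.Splits := by
    rw [← h1]
    exact hsp.map _
  have h3 := h2.scaleRoots (expL e he s)⁻¹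
  have h4 : expL e he s ≠ 0 := (_root_.map_ne_zero _).2 hs0
  rwa [← scaleRoots_mul, mul_inv_cancel₀ h4, scaleRoots_one] at h3

end PuiseuxL

section General

variable {C Ω : Type*} [Field C] [Field Ω] [Algebra C Ω] [CharZero C]

/-- the case of an algebraic closure -/
theorem puiseux_alg [IsAlgClosed Ω] [IsGalois C Ω] (f : (LaurentSeries C)[X]) (hf : f.Monic) :
    ∃ e, ∃ he : e ≠ 0, ∃ C' : IntermediateField C Ω, FiniteDimensional C C' ∧
      ∃ R : Multiset (LaurentSeries Ω), (∀ r ∈ R, ∀ i, r.coeff i ∈ C') ∧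
        f.map ((expL e he).comp (mapL (algebraMap C Ω))) = (R.map fun r => X - Polynomial.C r).prod := by
  classical
  have : CharZero Ω := charZero_of_injective_algebraMap (algebraMap C Ω).injective
  obtain ⟨e, he, h⟩ := puiseux_L (f.map (mapL (algebraMap C Ω))) (hf.map _)
  rw [Polynomial.map_map] at h
  set F := f.map ((expL e he).comp (mapL (algebraMap C Ω))) with hF
  have hFm : F.Monic := hf.map _
  have hF2 : F = (f.map (expL e he)).map (mapL (algebraMap C Ω)) := by
    rw [hF, Polynomial.map_map, expL_mapL]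
  have hfd : ∀ r ∈ F.roots.toFinset,
      FiniteDimensional C (IntermediateField.adjoin C (Set.range r.coeff)) := by
    intro r hr
    refine coeff_field (f.map (expL e he)) (hf.map _).ne_zero r ?_
    rw [← hF2]
    exact (mem_roots hFm.ne_zero).1 (Multiset.mem_toFinset.1 hr)
  refine ⟨e, he, ⨆ r ∈ F.roots.toFinset, IntermediateField.adjoin C (Set.range r.coeff),
    IntermediateField.finiteDimensional_iSup_of_finset' hfd, F.roots, ?_, ?_⟩
  · intro r hr i
    have h1 : IntermediateField.adjoin C (Set.range r.coeff) ≤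
        ⨆ r ∈ F.roots.toFinset, IntermediateField.adjoin C (Set.range r.coeff) :=
      le_iSup₂_of_le r (Multiset.mem_toFinset.2 hr) le_rfl
    exact h1 (IntermediateField.subset_adjoin C _ ⟨i, rfl⟩)
  · exact h.eq_prod_roots_of_monic hFm

/-- **Puiseux's theorem.** `C` a field of characteristic zero, `Ω` an algebraically closed
extension, `f` a monic polynomial over `C((X))`. After `X ↦ X ^ e` the polynomial `f` is a product of
linear factors `T - r`, the Laurent series `r` having their coefficients in one finite extension of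
`C`. -/
theorem puiseux [IsAlgClosed Ω] (f : (LaurentSeries C)[X]) (hf : f.Monic) :
    ∃ e, ∃ he : e ≠ 0, ∃ C' : IntermediateField C Ω, FiniteDimensional C C' ∧
      ∃ R : Multiset (LaurentSeries Ω), (∀ r ∈ R, ∀ i, r.coeff i ∈ C') ∧
        f.map ((expL e he).comp (mapL (algebraMap C Ω))) = (R.map fun r => X - Polynomial.C r).prod := by
  have hcl : IsAlgClosure C (algebraicClosure C Ω) := inferInstance
  have : IsAlgClosed (algebraicClosure C Ω) := hcl.isAlgClosed
  have : Normal C (algebraicClosure C Ω) := IsAlgClosure.normal C _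
  have : IsGalois C (algebraicClosure C Ω) := ⟨⟩
  obtain ⟨e, he, C', hC', R, hR, h⟩ := puiseux_alg (Ω := algebraicClosure C Ω) f hf
  refine ⟨e, he, C'.map (algebraicClosure C Ω).val, ?_, R.map (mapL (algebraMap (algebraicClosure C Ω) Ω)), ?_, ?_⟩
  · exact (IntermediateField.equivMap C' (algebraicClosure C Ω).val).toLinearEquiv.finiteDimensional
  · intro r hr i
    obtain ⟨r', hr', rfl⟩ := Multiset.mem_map.1 hr
    exact ⟨r'.coeff i, hR r' hr' i, rfl⟩
  · have h1 := congrArg (Polynomial.map (mapL (algebraMap (algebraicClosure C Ω) Ω))) h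
    rw [Polynomial.map_map, ← RingHom.comp_assoc, ← expL_mapL, RingHom.comp_assoc, mapL_comp] at h1
    have h2 : (algebraMap (algebraicClosure C Ω) Ω).comp (algebraMap C (algebraicClosure C Ω)) =
        algebraMap C Ω := rfl
    rw [h2] at h1
    rw [h1, Polynomial.map_multiset_prod, Multiset.map_map, Multiset.map_map]
    congr 1
    refine Multiset.map_congr rfl fun r _ => ?_
    simp

end General

end Crest.Agent.R013.Puis_702
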