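import Mathlib
import Crest.Agent.R013.DPb_854
import Crest.Agent.R013.DBr2_920
import Crest.Agent.R013.DLoc5_381
import Crest.Agent.R013.Puis2_702

/-!
# R013 / DPc (helper854): D-PENP in the language of `Ω = AlgebraicClosure K`

`E = K ⊗ C` (372's `CE k C K E`), `φ : E →ₐ[K] Ω`, `e : Cb k K ≃+* C`, `jC = (C → F) ∘ e`.
`pencil_at` : from `IsPencil` to 205's `PencilAt` at a rational place `P` with uniformiser `x : K`.
-/

set_option autoImplicit false
set_option linter.all false

namespace Crest.Agent.R013.DPc_854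

open WithZero Module
open scoped NNReal
open Crest.NumberTheoryR.Sect
open Crest.Agent.R013.RR7_948 Crest.Agent.R013.RR8_948 Crest.Agent.R013.RR11_948
open Crest.Agent.R013.RR13_948 Crest.Agent.R013.RR29_948
open Crest.Agent.R013.Desc_372 Crest.Agent.R013.Desc_372.CE
open Crest.Agent.R013.Small2_940
open Crest.Agent.R013.Small4_940 (Cb)
open Crest.Agent.R013.Cof2_669 Crest.Agent.R013.Cof5_669 Crest.Agent.R013.GoodC_669
open Crest.Agent.R013.DBr_920 Crest.Agent.R013.DLoc5_381 Crest.Agent.R013.Puis_702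
open Crest.Agent.R013.CE3_280 Crest.Agent.R013.CE5_280 Crest.Agent.R013.DW4_854

variable {k : Type*} [Field k] [CharZero k] {K : Type*} [Field K] [Algebra k K]
  [Algebra (RatFunc k) K] [IsScalarTower k (RatFunc k) K] [FiniteDimensional (RatFunc k) K]
  {C : Type*} [Field C] [CharZero C] [IsAlgClosed C] [Algebra k C]
  {E : Type*} [Field E] [Algebra C E] [Algebra K E] [Algebra k E] [IsScalarTower k C E]
  [IsScalarTower k K E] [h : CE k C K E]
  [Algebra (RatFunc C) E] [IsScalarTower C (RatFunc C) E] [FiniteDimensional (RatFunc C) E]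
  {φ : E →ₐ[K] AlgebraicClosure K} {e : Cb k K ≃+* C}
  (he : ∀ c, φ (algebraMap C E c) = (e.symm c : AlgebraicClosure K))



/-- `φ` with values in `Kgeo k K` -/
noncomputable def phiY : E →+* Kgeo k K :=
  (φ : E →+* (AlgebraicClosure K)).codRestrict (Kgeo k K) fun f => phi_mem_Kgeo φ he f

theorem coe_phiY (f : E) : ((phiY he f : Kgeo k K) : (AlgebraicClosure K)) = φ f := rfl

theorem phiY_algebraMap (x : K) : phiY he (algebraMap K E x) = algebraMap K (Kgeo k K) x := by
  apply Subtype.ext
  rw [coe_phiY, φ.commutes]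
  rfl

theorem phiY_const (c : C) : phiY he (algebraMap C E c) = iY k K (e.symm c) := by
  apply Subtype.ext
  rw [coe_phiY, he]
  rfl

section place

variable {P : Valuation (AlgebraicClosure K) ℝ≥0} {w : Pl C E}
  (hw : w.v.IsEquiv (P.comap (φ : E →+* (AlgebraicClosure K))))

include hw in
/-- a uniformiser on `Kgeo` is a uniformiser of `w` -/
theorem v_unif {X : E} (hru : RU (iY k K) (P.comap (algebraMap (Kgeo k K) (AlgebraicClosure K))) (phiY he X)) :
    w.v X = exp (-1) := by
  have h1 : w.v X < 1 := (w_lt_one_iff hw X).mpr hru.lt_one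
  obtain ⟨f, hf⟩ := w.surj (exp (-1))
  have h2 : w.v f < 1 := by
    rw [hf, ← exp_zero, exp_lt_exp]; norm_num
  have h3 : P (φ f) ≤ P (φ X) := hru.unif (phiY he f) ((w_lt_one_iff hw f).mp h2)
  have h4 : w.v f ≤ w.v X := (w_le_iff hw f X).mpr h3
  rw [hf] at h4
  have h5 : w.v X ≤ exp (-1) := (RR2_948.lt_one_iff _).mp h1
  exact le_antisymm h5 h4

include hw in
/-- **the expansions on `Kgeo` are the coefficients `coef`** -/
theorem coeff_J {X : E} (hX : w.v X = exp (-1)) {J : Kgeo k K →+* LaurentSeries (Cb k K)}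
    (hJ : IsExp (iY k K) (P.comap (algebraMap (Kgeo k K) (AlgebraicClosure K))) (phiY he X) J) (f : E) (n : ℤ) :
    e ((J (phiY he f)).coeff n) = coef w X n f := by
  have h1 := DPa_854.exp_unique hX (J := (mapL (e : Cb k K →+* C)).comp (J.comp (phiY he)))
    (fun c => by
      rw [RingHom.comp_apply, RingHom.comp_apply, phiY_const, hJ.con]
      ext n
      rw [coeff_mapL, HahnSeries.C_apply, HahnSeries.C_apply, HahnSeries.coeff_single,
        HahnSeries.coeff_single]
      split_ifs
      · exact e.apply_symm_apply c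
      · exact map_zero _)
    (by
      rw [RingHom.comp_apply, RingHom.comp_apply, hJ.par]
      ext n
      rw [coeff_mapL, HahnSeries.coeff_single, HahnSeries.coeff_single]
      split_ifs
      · exact map_one _
      · exact map_zero _)
    (fun a ha n hn => by
      have h2 : P.comap (algebraMap (Kgeo k K) (AlgebraicClosure K)) (phiY he a) ≤ 1 := (w_le_one_iff hw a).mp ha
      have h3 := hJ.nonneg (phiY he a) h2 n hn
      show e ((J (phiY he a)).coeff n) = 0
      rw [h3, map_zero]) f n
  exact h1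

end place

variable {F : Type*} [Field F] [CharZero F] [IsAlgClosed F] [Algebra C F]
  {L : Type*} [Field L] [Algebra F L] [Algebra C L] [IsScalarTower C F L]
  [Algebra (RatFunc F) L] [IsScalarTower F (RatFunc F) L] [FiniteDimensional (RatFunc F) L]
  {ι : E →ₐ[C] L} {m : ℕ} {b : Fin m → K} {α β : Fin m → F} {Bad : Finset ℤ}

include he in
/-- **D-PENP**: the pencil at a rational place (205's `PencilAt`) -/
theorem pencil_at (hc : algebraicClosure k K = ⊥) (hpen : IsPencil ι b α β Bad) (hι : IsCE F ι)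
    {jC : Cb k K →+* F} (hjC : ∀ c, jC c = algebraMap C F (e c))
    {P : Valuation (AlgebraicClosure K) ℝ≥0} {x : K}
    (hP : IsRationalPlace k K (P.comap (algebraMap K (AlgebraicClosure K))))
    (hx : IsUniformizerAt (P.comap (algebraMap K (AlgebraicClosure K))) x)
    {J : Kgeo k K →+* LaurentSeries (Cb k K)}
    (hJ : IsExp (iY k K) (P.comap (algebraMap (Kgeo k K) (AlgebraicClosure K))) (algebraMap K (Kgeo k K) x) J) :
    (∃ o : ℤ, (∀ j, ∀ i < o, (J (algebraMap K (Kgeo k K) (b j))).coeff i = 0) ∧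
      (∑ j, α j * jC ((J (algebraMap K (Kgeo k K) (b j))).coeff o) ≠ 0 ∨
        ∑ j, β j * jC ((J (algebraMap K (Kgeo k K) (b j))).coeff o) ≠ 0)) ∧
    ∀ s t : F, (∀ i : ℤ, ∑ j, (s * α j + t * β j) *
      jC ((J (algebraMap K (Kgeo k K) (b j))).coeff i) = 0) → s = 0 ∧ t = 0 := by
  have hrat := ratUnif_of_rational hP hx
  obtain ⟨w, hw⟩ := exists_w φ he hrat.place
  have hmem : algebraMap K (AlgebraicClosure K) x ∈ Kgeo k K := (Kgeo k K).algebraMap_mem x
  have hru := ru_Y hc hrat hmem
  have hxe : phiY he (algebraMap K E x) = ⟨algebraMap K (AlgebraicClosure K) x, hmem⟩ := by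
    rw [phiY_algebraMap]; rfl
  have hX : w.v (algebraMap K E x) = exp (-1) := v_unif he hw (by rw [hxe]; exact hru)
  have hJ' : IsExp (iY k K) (P.comap (algebraMap (Kgeo k K) (AlgebraicClosure K))) (phiY he (algebraMap K E x)) J := by
    rw [phiY_algebraMap]; exact hJ
  have hco : ∀ j n, jC ((J (algebraMap K (Kgeo k K) (b j))).coeff n) =
      algebraMap C F (coef w (algebraMap K E x) n (algebraMap K E (b j))) := by
    intro j n
    rw [hjC, ← phiY_algebraMap he (b j), coeff_J he hw hX hJ']
  have key := hpen.at_place hι hX (g := fun j => mapL jC (J (algebraMap K (Kgeo k K) (b j))))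
    (fun j n => hco j n)
  obtain ⟨⟨o, ho1, ho2⟩, h3⟩ := key
  refine ⟨⟨o, fun j i hi => ?_, ho2⟩, h3⟩
  have h4 : jC ((J (algebraMap K (Kgeo k K) (b j))).coeff i) = 0 := ho1 j i hi
  exact (map_eq_zero jC).mp h4

end Crest.Agent.R013.DPc_854
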