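import Crest.Agent.R013.DInst_906
import Crest.Agent.R013.DW4_854
import Crest.Agent.R013.DPc_854
import Crest.Agent.R013.DERK6_561

/-!
# Row 13, D-LINE: `CoreD` from the two stages (helper906)

`ST1All` : stage 1 for a pencil of Hodge–Tate forms (target of helper920);
`ST2All` : stage 2 at a rational place, from the local form of the pencil (target of helper205).
`coreD_of : ST1All p → ST2All p → CoreD p`.
-/

set_option autoImplicit false
set_option linter.style.haveILetI false

namespace Crest.Agent.R013.DCore_906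

open scoped NNReal Topology
open Crest.NumberTheoryR.Sect
open Crest.Agent.R013.RR7_948 Crest.Agent.R013.RR8_948 Crest.Agent.R013.RR9_948
  Crest.Agent.R013.RR11_948 Crest.Agent.R013.RR12_948 Crest.Agent.R013.RR13_948
  Crest.Agent.R013.RR14_948
open Crest.Agent.R013.Desc_372 Crest.Agent.R013.Desc_372.CE
open Crest.Agent.R013.Cell_408
open Crest.Agent.R013.CE3_280
open Crest.Agent.R013.HU9_522 Crest.Agent.R013.DE6_561 Crest.Agent.R013.DW4_854
open Crest.Agent.R013.PC_588 (PC)
open Crest.Agent.R013.HT_434 (TT)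
open Crest.Agent.R013.Small2_940 (IsExp)
open Crest.Agent.R013.Small4_940 (Cb)
open Crest.Agent.R013.Cof2_669 (Kgeo)
open Crest.Agent.R013.DAsm1_906 Crest.Agent.R013.DAsm2_906 Crest.Agent.R013.DInst_906

/-- **stage 1 for a pencil of Hodge–Tate forms** -/
def ST1All (p : ℕ) [Fact p.Prime] : Prop :=
  ∀ (k : Type) [NontriviallyNormedField k] [CompleteSpace k] [IsUltrametricDist k]
    [Algebra ℚ_[p] k] [FiniteDimensional ℚ_[p] k]
    (K : Type) [Field K] [Algebra k K] [Algebra (RatFunc k) K] [IsScalarTower k (RatFunc k) K]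
    [FunctionField k K]
    (C : Type) [NormedField C] [IsUltrametricDist C] [NormedAlgebra k C] [CharZero C]
    [Algebra.IsAlgebraic k C] [IsAlgClosed C]
    (KC : Type) [Field KC] [Algebra C KC] [Algebra K KC] [Algebra k KC] [IsScalarTower k C KC]
    [IsScalarTower k K KC] [CE k C K KC] [Algebra (RatFunc C) KC]
    [IsScalarTower C (RatFunc C) KC] [FiniteDimensional (RatFunc C) KC]
    (F : Type) [NontriviallyNormedField F] [IsUltrametricDist F] [CharZero F] [CompleteSpace F]
    [IsAlgClosed F] [Algebra C F]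
    (L : Type) [Field L] [Algebra F L] [Algebra C L] [IsScalarTower C F L]
    [Algebra (RatFunc F) L] [IsScalarTower F (RatFunc F) L] [FiniteDimensional (RatFunc F) L]
    (ι : KC →ₐ[C] L) (e : Cb k K ≃+* C) (φ : KC →ₐ[K] AlgebraicClosure K)
    (_ : ∀ q : ℚ_[p], ‖algebraMap ℚ_[p] k q‖ = ‖q‖) (hk : DiscNorm k)
    (hσ : ∀ a : C, ‖algebraMap C F a‖ = ‖a‖) (_ : DenseRange (algebraMap C F))
    (_ : IsCE F ι) (_ : xK F L = ι (xK C KC)) (_ : xK C KC = algebraMap K KC (xK k K))
    (_ : ∀ a : k, e (algebraMap k (Cb k K) a) = algebraMap k C a)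
    (_ : ∀ c : C, φ (algebraMap C KC c) = (e.symm c : AlgebraicClosure K))
    (_ : algebraicClosure k K = ⊥) (_ : 2 ≤ genus k K) (_ : 2 ≤ gen C KC)
    (m : ℕ) (b : Fin m → K) (c : TT C KC p →+ (Fin m → F)) (u u' : TT C KC p) (Bad : Finset ℤ),
    (∀ w : TT C KC p, FormsOf hσ hk b (c w) w) → IsPencil ι b (c u) (c u') Bad →
    ST1 p ((algebraMap C F).comp (e : Cb k K →+* C)) b (c u) (c u') Bad

end Crest.Agent.R013.DCore_906
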