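import Mathlib
import Crest.Agent.R013.DCut1_22
import Crest.Agent.R013.Hens4_899

/-!
# Row 13, D-line, D-CUT part 2: Kummer roots near a closure, unramified places of a Kummer extension,
the multi-circle cutoff for one Kummer root.
-/

set_option autoImplicit false
set_option linter.unusedSectionVars false

namespace Crest.Agent.R013.DCut_22

open scoped NNReal Topology
open Filter Polynomial Crest.NumberTheoryR.Sect
open Crest.Agent.R013.SE_669 Crest.Agent.R013.Unr1_957 Crest.Agent.R013.Unr3_957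
  Crest.Agent.R013.Unr4_957 Crest.Agent.R013.Unr5_957
  Crest.Agent.R013.Cof1_669 Crest.Agent.R013.Cof2_669 Crest.Agent.R013.Cof3_669
  Crest.Agent.R013.Cof4_669 Crest.Agent.R013.Cof5_669 Crest.Agent.R013.Cof6_669
  Crest.Agent.R013.Cof7_669 Crest.Agent.R013.Cof8_669 Crest.Agent.R013.Cof9_669
  Crest.Agent.R013.Cof10_669

section root

variable {Ω : Type*} [Field Ω] (v : Valuation Ω ℝ≥0)

/-- `|N| ≤ |1 - ζ|` for `ζ^N = 1`, `ζ ≠ 1` -/
theorem natCast_le_one_sub {N : ℕ} (hN : 0 < N) {ζ : Ω} (h1 : ζ ^ N = 1) (h2 : ζ ≠ 1) :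
    v (N : Ω) ≤ v (1 - ζ) := by
  have hζ : v ζ = 1 := by
    have h3 : v ζ ^ N = 1 := by rw [← map_pow, h1, map_one]
    exact (pow_eq_one_iff_of_nonneg zero_le hN.ne').mp h3
  have hsum : ∑ i ∈ Finset.range N, ζ ^ i = 0 := by
    have h3 := geom_sum_mul ζ N
    rw [h1, sub_self] at h3
    exact (mul_eq_zero.mp h3).resolve_right (sub_ne_zero.mpr h2)
  have hN' : (N : Ω) = ∑ i ∈ Finset.range N, (1 - ζ ^ i) := by
    rw [Finset.sum_sub_distrib, hsum, sub_zero]
    simp
  rw [hN']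
  refine Valuation.map_sum_le _ fun i _ => ?_
  have h3 : (1 : Ω) - ζ ^ i = (1 - ζ) * ∑ j ∈ Finset.range i, ζ ^ j := (mul_neg_geom_sum ζ i).symm
  rw [h3, map_mul]
  refine mul_le_of_le_one_right' (Valuation.map_sum_le _ fun j _ => ?_)
  rw [map_pow, hζ, one_pow]

/-- a root of `1 + δ` near `1` -/
theorem exists_root_near_one [IsAlgClosed Ω] {N : ℕ} (hN : (N : Ω) ≠ 0) (δ : Ω) :
    ∃ ρ : Ω, ρ ^ N = 1 + δ ∧ v (ρ - 1) * v (N : Ω) ≤ v δ := by
  have hd : (derivative (X ^ N - C (1 + δ))).eval (1 : Ω) = (N : Ω) := by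
    rw [derivative_sub, derivative_C, sub_zero, derivative_X_pow]
    simp
  obtain ⟨ρ, h1, h2⟩ := Hens_899.root_near v (X ^ N - C (1 + δ)) 1 (by rw [hd]; exact hN)
  refine ⟨ρ, ?_, ?_⟩
  · simpa [sub_eq_zero] using h1
  · rw [hd] at h2
    rw [Valuation.map_sub_swap]
    simpa using h2

end root

section cl

variable {K : Type*} [Field K] [CharZero K] {Ω : Type*} [Field Ω] [IsAlgClosed Ω] [Algebra K Ω]
  [Algebra.IsAlgebraic K Ω]

/-- **roots of `1 + δ`**, `|δ| < |N|²` -/
theorem root_mem_cl_of_mem (v : Valuation Ω ℝ≥0) (hnt : ∃ a : K, 1 < v (algebraMap K Ω a))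
    (S : IntermediateField K Ω) {N : ℕ} (hN : 0 < N)
    {δ ρ : Ω} (hδS : δ ∈ S) (hρ : ρ ^ N = 1 + δ) (h1 : v (ρ - 1) < v (N : Ω)) :
    ρ ∈ cl v (S : Set Ω) := by
  have hSc : CharZero S := charZero_of_injective_algebraMap (algebraMap K S).injective
  have : Algebra.IsAlgebraic S Ω := Algebra.IsAlgebraic.tower_top (K := K) S
  have hvN1 : v (N : Ω) ≤ 1 := by
    have : ∀ n : ℕ, v (n : Ω) ≤ 1 := by
      intro n
      induction n with
      | zero => simp
      | succ n ih =>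
        push_cast
        exact v.map_add_le ih (by rw [map_one])
    exact this N
  have hvρ : v ρ = 1 := by
    have h2 : v (ρ - 1) < v 1 := by rw [map_one]; exact h1.trans_le hvN1
    have h3 := Valuation.map_eq_of_sub_lt v h2
    rw [h3, map_one]
  have h4 := mem_cl_of_krasner (F := S) (Ω := Ω) v (by
    obtain ⟨a, ha⟩ := hnt
    exact ⟨algebraMap K S a, ha⟩) ρ 1 (by
    intro ρ' hρ' hne
    have hρ'N : ρ' ^ N = 1 + δ := by
      have hdvd : minpoly S ρ ∣ X ^ N - C (⟨1 + δ, add_mem S.one_mem hδS⟩ : S) := by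
        refine minpoly.dvd S ρ ?_
        simp only [map_sub, map_pow, aeval_X, aeval_C]
        rw [hρ]
        exact sub_self _
      obtain ⟨q, hq⟩ := hdvd
      have h5 := congrArg (aeval ρ') hq
      rw [map_mul, hρ', zero_mul] at h5
      simp only [map_sub, map_pow, aeval_X, aeval_C] at h5
      exact sub_eq_zero.mp h5
    rw [map_one]
    refine h1.trans_le ?_
    have hρ0 : ρ ≠ 0 := by
      rintro rfl
      rw [map_zero] at hvρ
      exact zero_ne_one hvρ
    have h6 : (ρ' / ρ) ^ N = 1 := by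
      rw [div_pow, hρ'N, ← hρ, div_self (pow_ne_zero _ hρ0)]
    have h7 : ρ' / ρ ≠ 1 := fun h => hne ((div_eq_one_iff_eq hρ0).mp h)
    have h8 := natCast_le_one_sub v hN h6 h7
    have h9 : ρ - ρ' = ρ * (1 - ρ' / ρ) := by field_simp
    rw [h9, map_mul, hvρ, one_mul]
    exact h8)
  have h5 : (Set.range (algebraMap S Ω)) = (S : Set Ω) := by
    ext z
    constructor
    · rintro ⟨y, rfl⟩
      exact y.2
    · intro hz
      exact ⟨⟨z, hz⟩, rfl⟩
  rwa [h5] at h4

/-- **roots of `1 + δ`**, `|δ| < |N|²`, `δ` in the closure -/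
theorem root_one_add_mem_cl (v : Valuation Ω ℝ≥0) (hnt : ∃ a : K, 1 < v (algebraMap K Ω a))
    (S : IntermediateField K Ω) {N : ℕ} (hN : 0 < N) (hroot : ∀ z : Ω, z ^ N = 1 → z ∈ S)
    {δ r : Ω} (hδS : δ ∈ cl v (S : Set Ω)) (hδ : v δ < v (N : Ω) ^ 2) (hr : r ^ N = 1 + δ) :
    r ∈ cl v (S : Set Ω) := by
  have hN0' : (N : K) ≠ 0 := Nat.cast_ne_zero.mpr hN.ne'
  have hN0 : (N : Ω) ≠ 0 := by
    rw [← map_natCast (algebraMap K Ω)]
    exact (_root_.map_ne_zero _).2 hN0'
  have hvN : 0 < v (N : Ω) := (Valuation.pos_iff v).mpr hN0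
  have hvN1 : v (N : Ω) ≤ 1 := by
    have : ∀ n : ℕ, v (n : Ω) ≤ 1 := by
      intro n
      induction n with
      | zero => simp
      | succ n ih =>
        push_cast
        exact v.map_add_le ih (by rw [map_one])
    exact this N
  have hvN2 : v (N : Ω) ^ 2 ≤ 1 := pow_le_one' hvN1 2
  have hδ1 : v δ < 1 := hδ.trans_le hvN2
  have hv1δ : v (1 + δ) = 1 := by
    rw [Valuation.map_add_eq_of_lt_left v (by rw [map_one]; exact hδ1), map_one]
  have h1δ : 1 + δ ≠ 0 := by
    intro h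
    rw [h, map_zero] at hv1δ
    exact zero_ne_one hv1δ
  have hr0 : r ≠ 0 := by
    rintro rfl
    rw [zero_pow hN.ne'] at hr
    exact h1δ hr.symm
  -- it suffices to approximate `r`
  intro ε hε
  obtain ⟨δ', hδ', h1⟩ := hδS (min (v (N : Ω) ^ 2) (ε * v (N : Ω))) (lt_min (by positivity)
    (by positivity))
  have h2 : v (δ - δ') < v (N : Ω) ^ 2 := h1.trans_le (min_le_left _ _)
  have h3 : v (δ - δ') < ε * v (N : Ω) := h1.trans_le (min_le_right _ _)
  have hδ'2 : v δ' < v (N : Ω) ^ 2 := by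
    have h4 : δ' = δ - (δ - δ') := by ring
    rw [h4]
    exact Valuation.map_sub_lt v hδ h2
  have hv1δ' : v (1 + δ') = 1 := by
    rw [Valuation.map_add_eq_of_lt_left v (by rw [map_one]; exact hδ'2.trans_le hvN2), map_one]
  have h1δ' : 1 + δ' ≠ 0 := by
    intro h
    rw [h, map_zero] at hv1δ'
    exact zero_ne_one hv1δ'
  obtain ⟨ρ', hρ'1, hρ'2⟩ := exists_root_near_one v hN0 δ'
  have hρ'3 : v (ρ' - 1) < v (N : Ω) := by
    by_contra hcon
    push Not at hcon
    have h4 : v (N : Ω) ^ 2 ≤ v (ρ' - 1) * v (N : Ω) := by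
      rw [pow_two]
      exact mul_le_mul' hcon le_rfl
    exact absurd (h4.trans hρ'2) (not_le.mpr hδ'2)
  have hρ'S : ρ' ∈ cl v (S : Set Ω) := root_mem_cl_of_mem v hnt S hN hδ' hρ'1 hρ'3
  have hρ'v : v ρ' = 1 := by
    have h4 : v (ρ' - 1) < v 1 := by rw [map_one]; exact hρ'3.trans_le hvN1
    rw [Valuation.map_eq_of_sub_lt v h4, map_one]
  have hρ'0 : ρ' ≠ 0 := by
    rintro h
    rw [h, map_zero] at hρ'v
    exact zero_ne_one hρ'v
  -- the quotient
  set δ'' : Ω := (1 + δ) / (1 + δ') - 1 with hδ''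
  have hδ''v : v δ'' = v (δ - δ') := by
    have h4 : δ'' = (δ - δ') / (1 + δ') := by
      rw [hδ'']
      field_simp
      ring
    rw [h4, map_div₀, hv1δ', div_one]
  obtain ⟨ρ, hρ1, hρ2⟩ := exists_root_near_one v hN0 δ''
  have hρε : v (ρ - 1) < ε := by
    rw [hδ''v] at hρ2
    exact lt_of_mul_lt_mul_right (hρ2.trans_lt h3) zero_le
  have hζ : (r / (ρ' * ρ)) ^ N = 1 := by
    have h4 : (1 + δ') * (1 + δ'') = 1 + δ := by
      rw [hδ'']
      field_simp
      ring
    rw [div_pow, mul_pow, hr, hρ'1, hρ1, h4, div_self h1δ]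
  have hρ0 : ρ ≠ 0 := by
    rintro h
    have h5 : ρ ^ N ≠ 0 := by
      rw [hρ1, hδ'']
      have : (1 : Ω) + ((1 + δ) / (1 + δ') - 1) = (1 + δ) / (1 + δ') := by ring
      rw [this]
      exact div_ne_zero h1δ h1δ'
    rw [h, zero_pow hN.ne'] at h5
    exact h5 rfl
  set ζ : Ω := r / (ρ' * ρ) with hζd
  have hζS : ζ ∈ S := hroot ζ hζ
  have hζv : v ζ = 1 := by
    have h6 : v ζ ^ N = 1 := by rw [← map_pow, hζ, map_one]
    exact (pow_eq_one_iff_of_nonneg zero_le hN.ne').mp h6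
  have hrζ : r = ζ * ρ' * ρ := by
    rw [hζd]
    field_simp
  have h7 : ζ * ρ' ∈ clI v S := mul_mem (le_clI v S hζS) hρ'S
  obtain ⟨b, hb, h8⟩ := h7 ε hε
  refine ⟨b, hb, ?_⟩
  have h9 : r - b = ζ * ρ' * (ρ - 1) + (ζ * ρ' - b) := by rw [hrζ]; ring
  rw [h9]
  refine (v.map_add _ _).trans_lt (max_lt ?_ h8)
  rw [map_mul, map_mul, hζv, hρ'v, one_mul, one_mul]
  exact hρε

/-- **Kummer roots**: `y^N = u^N (1 + δ)`, `|δ| < |N|²`, `u`, `y^N` in the closure -/
theorem kummer_cl (v : Valuation Ω ℝ≥0) (hnt : ∃ a : K, 1 < v (algebraMap K Ω a))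
    (S : IntermediateField K Ω) {N : ℕ} (hN : 0 < N) (hroot : ∀ z : Ω, z ^ N = 1 → z ∈ S)
    {y u : Ω} (hyS : y ^ N ∈ cl v (S : Set Ω)) (hu : u ∈ cl v (S : Set Ω)) (hu0 : u ≠ 0)
    (h : v (y ^ N / u ^ N - 1) < v (N : Ω) ^ 2) : y ∈ cl v (S : Set Ω) := by
  have h1 : y ^ N / u ^ N - 1 ∈ clI v S :=
    sub_mem (div_mem hyS (pow_mem hu N)) (one_mem _)
  have h2 : y / u ∈ clI v S := root_one_add_mem_cl v hnt S hN hroot (δ := y ^ N / u ^ N - 1) h1 h (by
    rw [div_pow]; ring)
  have h3 : y / u * u ∈ clI v S := mul_mem h2 hu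
  rwa [div_mul_cancel₀ _ hu0] at h3

end cl

section unr

variable {k : Type*} [Field k] {K : Type*} [Field K] [Algebra k K]
variable [CharZero k] [Algebra (RatFunc k) K] [IsScalarTower k (RatFunc k) K]
  [FiniteDimensional (RatFunc k) K]

local notation "Kb" => AlgebraicClosure K

/-- **unramified places of a Kummer extension** -/
theorem unrAt_kummer (F : IntermediateField K Kb) [FiniteDimensional K F] {v : Valuation Kb ℝ≥0}
    (hv : IsPlace k v) (hF : UnrAt K v (F : Set Kb)) {N : ℕ} (hN : 0 < N) {y g : Kb}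
    (hy : y ^ N ∈ F) (hg : g ∈ F) (hyg : v y = v g) :
    UnrAt K v ((F ⊔ IntermediateField.adjoin K {y} : IntermediateField K Kb) : Set Kb) := by
  have hK := charZero_K k K
  by_cases hy0 : y = 0
  · have h1 : (F ⊔ IntermediateField.adjoin K {y} : IntermediateField K Kb) ≤ F := by
      refine sup_le le_rfl ?_
      rw [IntermediateField.adjoin_simple_le_iff, hy0]
      exact F.zero_mem
    exact UnrAt.mono hF h1
  have hg0 : g ≠ 0 := by
    rintro rfl
    rw [map_zero] at hyg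
    exact hy0 ((Valuation.zero_iff v).mp hyg)
  have hyf : FiniteDimensional K (IntermediateField.adjoin K {y}) :=
    IntermediateField.adjoin.finiteDimensional (Algebra.IsIntegral.isIntegral y)
  have hLf : FiniteDimensional K (F ⊔ IntermediateField.adjoin K {y} : IntermediateField K Kb) :=
    IntermediateField.finiteDimensional_sup F _
  obtain ⟨N', hLN, hN1, hN2⟩ := exists_galois k (F ⊔ IntermediateField.adjoin K {y})
  have hFN : F ≤ N' := le_sup_left.trans hLN
  have hyN : y ∈ N' := hLN ((le_sup_right : IntermediateField.adjoin K {y} ≤ _)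
    (IntermediateField.mem_adjoin_simple_self K y))
  have e1 := (unrAt_iff hFN hv).mp hF
  refine (unrAt_iff hLN hv).mpr fun σ hσ x hx => ?_
  -- `σ` fixes `y`
  have hσy : σ ⟨y, hyN⟩ = ⟨y, hyN⟩ := by
    set Y : N' := ⟨y, hyN⟩ with hY
    set G : N' := ⟨g, hFN hg⟩ with hG
    have hG0 : G ≠ 0 := fun h => hg0 (congrArg Subtype.val h)
    have hY0 : Y ≠ 0 := fun h => hy0 (congrArg Subtype.val h)
    have hσG : σ G = G := e1 σ hσ G hg
    have hσYN : σ (Y ^ N) = Y ^ N := e1 σ hσ (Y ^ N) hy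
    set Z : N' := Y / G with hZ
    have hvZ : v (Z : Kb) = 1 := by
      have h1 : (Z : Kb) = y / g := rfl
      rw [h1, map_div₀, hyg, div_self ((Valuation.ne_zero_iff v).mpr hg0)]
    have hσZ := hσ.2 Z (by
      change v (Z : Kb) ≤ 1
      exact hvZ.le)
    have hσZ' : v ((σ Z : N') - (Z : Kb)) < 1 := hσZ
    have hZ0 : Z ≠ 0 := div_ne_zero hY0 hG0
    -- the root of unity
    set ζ : N' := σ Z / Z with hζ
    have hζN : ζ ^ N = 1 := by
      rw [hζ, hZ, map_div₀, hσG, div_pow, div_pow, div_pow, ← map_pow, hσYN,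
        div_self (div_ne_zero (pow_ne_zero _ hY0) (pow_ne_zero _ hG0))]
    have hζ1 : v ((ζ : Kb) - 1) < 1 := by
      have h1 : (ζ : Kb) - 1 = ((σ Z : N') - (Z : Kb)) / (Z : Kb) := by
        have h2 : (Z : Kb) ≠ 0 := fun h => hZ0 (Subtype.ext h)
        have h3 : (ζ : Kb) = (σ Z : N') / (Z : Kb) := rfl
        rw [h3, sub_div, div_self h2]
      rw [h1, map_div₀, hvZ, div_one]
      exact hσZ'
    have hζkb : ((ζ : Kb) - 1) ∈ kb k K := by
      have h1 : (ζ : Kb) ^ N = 1 := congrArg (fun z : N' => (z : Kb)) hζN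
      refine sub_mem ?_ (one_mem _)
      rw [mem_kb]
      exact IsIntegral.of_pow hN (by rw [h1]; exact isIntegral_one)
    have hζe : (ζ : Kb) - 1 = 0 := by
      by_contra hne
      exact hζ1.ne (val_const hv hζkb hne)
    have hζ' : ζ = 1 := Subtype.ext (sub_eq_zero.mp hζe)
    have hσZe : σ Z = Z := by
      rw [hζ, div_eq_one_iff_eq hZ0] at hζ'
      exact hζ'
    have h1 : Y = Z * G := by rw [hZ, div_mul_cancel₀ _ hG0]
    rw [h1, map_mul, hσZe, hσG]
  rw [sup_eq_iSup] at hx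
  refine fix_iSup σ _ ?_ ?_ hx
  · intro b
    cases b
    · exact (le_sup_right : IntermediateField.adjoin K {y} ≤ _).trans hLN
    · exact hFN
  · intro b z hz
    cases b
    · -- `z ∈ K(y)`
      have h1 : IntermediateField.adjoin K {y} ≤
          (IntermediateField.fixedField (Subgroup.zpowers σ)).map N'.val := by
        rw [IntermediateField.adjoin_simple_le_iff]
        refine ⟨⟨y, hyN⟩, ?_, rfl⟩
        rintro ⟨τ, n, rfl⟩
        change (σ ^ n) ⟨y, hyN⟩ = ⟨y, hyN⟩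
        have h2 : σ ∈ MulAction.stabilizer (N' ≃ₐ[K] N') (⟨y, hyN⟩ : N') := hσy
        exact (zpow_mem h2 n)
      obtain ⟨z', hz', hzz⟩ := h1 hz
      have h2 : z' = z := Subtype.ext hzz
      rw [← h2]
      exact hz' ⟨σ, Subgroup.mem_zpowers σ⟩
    · exact e1 σ hσ z hz

end unr

section main

variable {k : Type} [Field k] {K : Type} [Field K] [Algebra k K]

local notation "Kb" => AlgebraicClosure K

/-- **the multi-circle cutoff for a Kummer root**: `y^N = h ∈ K C`; the places where `h` is not an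
`N`-th power up to a unit are centres of the circles `d ∈ D`; over the circle `d`,
`h = c x^a (1 + δ)` with `|δ| < |N|²` and (if `a ≠ 0`) the `N`-th root of `x` is in the closure of
`maxUnramified`. -/
theorem dcut_kummer (p : ℕ) [Fact p.Prime] [Algebra ℚ_[p] k]
    [FiniteDimensional ℚ_[p] k] [Algebra (RatFunc k) K] [IsScalarTower k (RatFunc k) K]
    [FunctionField k K] (hCut : CutEndP p k K) (w : Valuation Kb ℝ≥0)
    (hw : ExtendsPadicNorm k Kb p w) (C : IntermediateField k Kb) [FiniteDimensional k C]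
    (D : List (Circ p k K C)) (hDw : ∀ d ∈ D, w d.π ≤ w d.x) {N : ℕ} (hN : 0 < N) {y : Kb}
    (hy0 : y ≠ 0) (hy : y ^ N ∈ KC K C)
    (hbr : ∀ v : Valuation Kb ℝ≥0, IsPlace k v →
      (∃ g ∈ KC K C, v (y ^ N) = v g ^ N) ∨ ∃ d ∈ D, SameGeo k d.P v)
    (hcl : ∀ d ∈ D, ∃ c ∈ C, ∃ a : ℤ, c ≠ 0 ∧
      d.v₀ (y ^ N / (c * d.x ^ a) - 1) < d.v₀ (N : Kb) ^ 2 ∧
      (a ≠ 0 → ∃ ξ : Kb, ξ ^ N = d.x ∧ ξ ∈ cl d.v₀ (maxUnramified k K : Set Kb))) :
    ((KC K C ⊔ IntermediateField.adjoin K {y} : IntermediateField K Kb) : Set Kb) ⊆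
      cl w (maxUnramified k K : Set Kb) := by
  have hk0 : CharZero k := charZero_of_injective_algebraMap (algebraMap ℚ_[p] k).injective
  have hK0 := charZero_K k K
  have hKfd : FiniteDimensional (RatFunc k) K := inferInstance
  have hKCf : FiniteDimensional K (KC K C) := finite_KC C
  have hyf : FiniteDimensional K (IntermediateField.adjoin K {y}) :=
    IntermediateField.adjoin.finiteDimensional (Algebra.IsIntegral.isIntegral y)
  have hLf : FiniteDimensional K (KC K C ⊔ IntermediateField.adjoin K {y} :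
      IntermediateField K Kb) := IntermediateField.finiteDimensional_sup _ _
  have hKCM : KC K C ≤ maxUnramified k K := KC_le_M C
  have hroot : ∀ z : Kb, z ^ N = 1 → z ∈ maxUnramified k K := fun z hz =>
    kb_le_M (mem_kb.mpr (IsIntegral.of_pow hN (by rw [hz]; exact isIntegral_one)))
  refine dcut p hCut w hw C D hDw (KC K C ⊔ IntermediateField.adjoin K {y}) ?_ ?_
  · -- the branch places
    intro v v' hv hv' hvv' hun
    rcases hbr v hv with ⟨g, hg, h1⟩ | h1
    swap
    · exact h1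
    exfalso
    apply hun
    have hyN0 : y ^ N ≠ 0 := pow_ne_zero _ hy0
    have hg0 : g ≠ 0 := by
      rintro rfl
      rw [map_zero, zero_pow hN.ne'] at h1
      exact hyN0 ((Valuation.zero_iff v).mp h1)
    have h2 : v' (y ^ N) = v' g ^ N := by
      have h3 : ∀ z ∈ KC K C, z ≠ 0 → v z = 1 → v' z = 1 := by
        intro z hz hz0 h4
        have h5 := (hvv' z hz).mp h4.le
        have h6 := (hvv' z⁻¹ (inv_mem hz)).mp (by rw [map_inv₀, h4, inv_one])
        refine le_antisymm h5 ?_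
        rw [map_inv₀] at h6
        exact (inv_le_one₀ ((Valuation.pos_iff v').mpr hz0)).mp h6
      have h4 := h3 (y ^ N / g ^ N) (div_mem hy (pow_mem hg N))
        (div_ne_zero hyN0 (pow_ne_zero _ hg0)) (by
          rw [map_div₀, h1, map_pow, div_self (pow_ne_zero _ ((Valuation.ne_zero_iff v).mpr hg0))])
      rw [map_div₀, map_pow v' g N,
        div_eq_one_iff_eq (pow_ne_zero _ ((Valuation.ne_zero_iff v').mpr hg0))] at h4
      exact h4
    have h5 : v' y = v' g := by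
      rw [map_pow] at h2
      exact (pow_left_inj₀ zero_le zero_le hN.ne').mp h2
    exact unrAt_kummer (KC K C) hv' (unrAt_of_le_M hKCM hv') hN hy hg h5
  · -- the circles
    intro d hd v hv hvd
    obtain ⟨σ, hσ, hσC⟩ := exists_conj_KC C d.v₀ v hvd
    obtain ⟨c, hcC, a, hc0, h1, h2⟩ := hcl d hd
    have hnt := one_lt_norm (k := k) (K := K) p hv
    -- `N`-th roots of `c` and `x ^ a`
    obtain ⟨γ, hγ⟩ := IsAlgClosed.exists_pow_nat_eq c hN
    have hγM : γ ∈ maxUnramified k K := by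
      refine kb_le_M (mem_kb.mpr (IsIntegral.of_pow hN ?_))
      rw [hγ]
      exact mem_kb.mp (le_kb C hcC)
    have hγ0 : γ ≠ 0 := by
      rintro rfl
      rw [zero_pow hN.ne'] at hγ
      exact hc0 hγ.symm
    obtain ⟨η, hη, hηM, hη0⟩ : ∃ η : Kb, η ^ N = d.x ^ a ∧
        η ∈ cl v (maxUnramified k K : Set Kb) ∧ η ≠ 0 := by
      by_cases ha : a = 0
      · exact ⟨1, by rw [ha, one_pow, zpow_zero], subset_cl v _ (one_mem (maxUnramified k K)),
          one_ne_zero⟩
      · obtain ⟨ξ, hξ1, hξ2⟩ := h2 ha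
        obtain ⟨ξ', hξ'⟩ := IsAlgClosed.exists_pow_nat_eq d.x hN
        have hξ'0 : ξ' ≠ 0 := by
          rintro rfl
          rw [zero_pow hN.ne'] at hξ'
          exact d.hx0 hξ'.symm
        have h3 : ξ' ∈ cl v (maxUnramified k K : Set Kb) := by
          rw [hσ, mem_cl_aut d.v₀ σ (fun z hz => aut_mem_M σ hz) (fun z hz => aut_mem_M σ.symm hz)]
          refine Cof10_669.root_mem_cl hN hξ1 ?_ d.hx0 hξ2
          rw [← map_pow, hξ', hσC d.x d.hx]
        refine ⟨ξ' ^ a, ?_, ?_, zpow_ne_zero _ hξ'0⟩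
        · rw [← hξ', ← zpow_natCast, ← zpow_natCast, ← zpow_mul, ← zpow_mul, mul_comm]
        · exact (clI v (maxUnramified k K)).toSubfield.zpow_mem h3 a
    have hyM : y ∈ cl v (maxUnramified k K : Set Kb) := by
      refine kummer_cl v hnt (maxUnramified k K) hN hroot (u := γ * η)
        (subset_cl v _ (hKCM hy)) ?_ (mul_ne_zero hγ0 hη0) ?_
      · exact (clI v (maxUnramified k K)).mul_mem (le_clI v _ hγM) hηM
      · have h3 : y ^ N / (γ * η) ^ N - 1 ∈ KC K C := by
          rw [mul_pow, hγ, hη]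
          refine sub_mem (div_mem hy (mul_mem (le_KC hcC) ?_)) (one_mem _)
          exact (KC K C).toSubfield.zpow_mem d.hx a
        have h4 : (N : Kb) ∈ KC K C := natCast_mem _ N
        rw [hvd _ h3, hvd _ h4, mul_pow, hγ, hη]
        exact h1
    have h5 : (KC K C ⊔ IntermediateField.adjoin K {y} : IntermediateField K Kb) ≤
        clI v (maxUnramified k K) := by
      refine sup_le (hKCM.trans (le_clI v _)) ?_
      rw [IntermediateField.adjoin_simple_le_iff]
      exact hyM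
    exact fun z hz => h5 hz

end main

end Crest.Agent.R013.DCut_22
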