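import Mathlib
import Crest.Agent.R013.DCut2_22

/-!
# Row 13, D-line, D-CUT part 3: the cutoff for `y^N = ∏ (φ - n_i)^(a_i)`, `∑ a_i = 0`
-/

set_option autoImplicit false
set_option linter.unusedSectionVars false

namespace Crest.Agent.R013.DCut_22

open scoped NNReal Topology
open Filter Polynomial Crest.NumberTheoryR.Sect
open Crest.Agent.R013.SE_669 Crest.Agent.R013.Unr1_957 Crest.Agent.R013.Unr3_957
  Crest.Agent.R013.Unr4_957 Crest.Agent.R013.Unr5_957
  Crest.Agent.R013.Cof1_669 Crest.Agent.R013.Cof2_669 Crest.Agent.R013.Cof3_669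
  Crest.Agent.R013.Cof4_669 Crest.Agent.R013.Cof5_669 Crest.Agent.R013.Cof6_669
  Crest.Agent.R013.Cof7_669 Crest.Agent.R013.Cof8_669 Crest.Agent.R013.Cof9_669
  Crest.Agent.R013.Cof10_669

section gen

variable {Ω : Type*} [Field Ω] (v : Valuation Ω ℝ≥0)

theorem val_pow_sub_one_le {u : Ω} {τ : ℝ≥0} (hτ : τ < 1) (hu : v (u - 1) ≤ τ) (n : ℕ) :
    v (u ^ n - 1) ≤ τ := by
  have hv : v u = 1 := by
    have h1 : v (u - 1) < v 1 := by rw [map_one]; exact hu.trans_lt hτ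
    rw [Valuation.map_eq_of_sub_lt v h1, map_one]
  induction n with
  | zero => simp
  | succ n ih =>
    have h1 : u ^ (n + 1) - 1 = u ^ n * (u - 1) + (u ^ n - 1) := by ring
    rw [h1]
    refine v.map_add_le ?_ ih
    rw [map_mul, map_pow, hv, one_pow, one_mul]
    exact hu

theorem val_inv_sub_one_le {u : Ω} {τ : ℝ≥0} (hτ : τ < 1) (hu : v (u - 1) ≤ τ) :
    v (u⁻¹ - 1) ≤ τ := by
  have hv : v u = 1 := by
    have h1 : v (u - 1) < v 1 := by rw [map_one]; exact hu.trans_lt hτ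
    rw [Valuation.map_eq_of_sub_lt v h1, map_one]
  have hu0 : u ≠ 0 := by
    rintro rfl
    rw [map_zero] at hv
    exact zero_ne_one hv
  have h1 : u⁻¹ - 1 = -(u - 1) / u := by field_simp; ring
  rw [h1, map_div₀, Valuation.map_neg, hv, div_one]
  exact hu

theorem val_zpow_sub_one_le {u : Ω} {τ : ℝ≥0} (hτ : τ < 1) (hu : v (u - 1) ≤ τ) (n : ℤ) :
    v (u ^ n - 1) ≤ τ := by
  obtain ⟨m, rfl | rfl⟩ := n.eq_nat_or_neg
  · rw [zpow_natCast]
    exact val_pow_sub_one_le v hτ hu m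
  · rw [zpow_neg, zpow_natCast]
    exact val_inv_sub_one_le v hτ (val_pow_sub_one_le v hτ hu m)

theorem val_prod_sub_one_le {ι : Type*} (s : Finset ι) (f : ι → Ω) {τ : ℝ≥0} (hτ : τ < 1)
    (hf : ∀ i ∈ s, v (f i - 1) ≤ τ) : v (∏ i ∈ s, f i - 1) ≤ τ := by
  classical
  induction s using Finset.induction_on with
  | empty => simp
  | insert i s hi ih =>
    rw [Finset.prod_insert hi]
    have h1 := hf i (Finset.mem_insert_self i s)
    have h2 := ih fun j hj => hf j (Finset.mem_insert_of_mem hj)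
    have hv : v (f i) = 1 := by
      have h3 : v (f i - 1) < v 1 := by rw [map_one]; exact h1.trans_lt hτ
      rw [Valuation.map_eq_of_sub_lt v h3, map_one]
    have h4 : f i * ∏ j ∈ s, f j - 1 = f i * (∏ j ∈ s, f j - 1) + (f i - 1) := by ring
    rw [h4]
    refine v.map_add_le ?_ h1
    rw [map_mul, hv, one_mul]
    exact h2

/-- values of `∏ (φ - n_i)^(a_i)` where no factor is small -/
theorem val_prod_eq_one {ι : Type*} [Fintype ι] (n : ι → ℤ) (a : ι → ℤ) (ha : ∑ i, a i = 0) {φ : Ω}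
    (hn : ∀ i, v ((n i : ℤ) : Ω) ≤ 1) (h : ∀ i, 1 ≤ v (φ - (n i : Ω))) :
    v (∏ i, (φ - (n i : Ω)) ^ a i) = 1 := by
  rw [map_prod]
  rcases le_or_gt (v φ) 1 with hφ | hφ
  · refine Finset.prod_eq_one fun i _ => ?_
    rw [map_zpow₀, le_antisymm (v.map_sub_le hφ (hn i)) (h i), one_zpow]
  · have h1 : ∀ i, v (φ - (n i : Ω)) = v φ := fun i =>
      Valuation.map_sub_eq_of_lt_left v ((hn i).trans_lt hφ)
    have hφ0 : v φ ≠ 0 := (zero_lt_one.trans hφ).ne'
    have h2 : ∀ s : Finset ι, ∏ i ∈ s, v ((φ - (n i : Ω)) ^ a i) = v φ ^ ∑ i ∈ s, a i := by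
      classical
      intro s
      induction s using Finset.induction_on with
      | empty => simp
      | insert i s hi ih =>
        rw [Finset.prod_insert hi, Finset.sum_insert hi, ih, zpow_add₀ hφ0, map_zpow₀, h1]
    rw [h2, ha, zpow_zero]

/-- the leading term of `∏ (φ - n_i)^(a_i)` near `φ = n_i` -/
theorem val_lead {ι : Type*} [Fintype ι] [DecidableEq ι] (n : ι → ℤ) (a : ι → ℤ) {φ : Ω} (i : ι)
    {τ : ℝ≥0} (hτ : τ < 1) (hne : ∀ l, l ≠ i → ((n i : ℤ) : Ω) - (n l : Ω) ≠ 0)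
    (hx0 : φ - (n i : Ω) ≠ 0)
    (h : ∀ l, l ≠ i → v (φ - (n i : Ω)) ≤ τ * v ((n i : Ω) - (n l : Ω))) :
    v ((∏ l, (φ - (n l : Ω)) ^ a l) /
      ((∏ l ∈ Finset.univ.erase i, ((n i : Ω) - (n l : Ω)) ^ a l) * (φ - (n i : Ω)) ^ a i) - 1) ≤
      τ := by
  have h1 : (∏ l, (φ - (n l : Ω)) ^ a l) /
      ((∏ l ∈ Finset.univ.erase i, ((n i : Ω) - (n l : Ω)) ^ a l) * (φ - (n i : Ω)) ^ a i) =
      ∏ l ∈ Finset.univ.erase i, ((φ - (n l : Ω)) / ((n i : Ω) - (n l : Ω))) ^ a l := by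
    rw [← Finset.prod_erase_mul _ _ (Finset.mem_univ i),
      mul_div_mul_right _ _ (zpow_ne_zero _ hx0), ← Finset.prod_div_distrib]
    refine Finset.prod_congr rfl fun l _ => ?_
    rw [div_zpow]
  rw [h1]
  refine val_prod_sub_one_le v _ _ hτ fun l hl => ?_
  have hli : l ≠ i := Finset.ne_of_mem_erase hl
  refine val_zpow_sub_one_le v hτ ?_ _
  have h2 : (φ - (n l : Ω)) / ((n i : Ω) - (n l : Ω)) - 1 =
      (φ - (n i : Ω)) / ((n i : Ω) - (n l : Ω)) := by
    have := hne l hli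
    field_simp
    ring
  rw [h2, map_div₀, div_le_iff₀ ((Valuation.pos_iff v).mpr (hne l hli))]
  exact h l hli

end gen

section main

variable {k : Type} [Field k] {K : Type} [Field K] [Algebra k K]

local notation "Kb" => AlgebraicClosure K

/-- on a circle `|x| = |π|` -/
theorem Circ.val_x {p : ℕ} [Fact p.Prime] [Algebra ℚ_[p] k] {C : IntermediateField k Kb}
    (d : Circ p k K C) : d.v₀ d.x = d.v₀ d.π := by
  have h1 := d.hcirc.gauss 2 (fun i => if i = 1 then 1 else 0) (by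
    intro i
    by_cases hi : i = 1
    · simp [hi, C.one_mem]
    · simp [hi, C.zero_mem])
  simpa [psum, Finset.sum_range_succ, Finset.sup_insert, Finset.range_add_one] using h1

/-- **the cutoff for `y^N = ∏ (φ - n_i)^(a_i)`**, `∑ a_i = 0`, `n_i` pairwise distinct integers -/
theorem dcut_seeds (p : ℕ) [Fact p.Prime] [Algebra ℚ_[p] k]
    [FiniteDimensional ℚ_[p] k] [Algebra (RatFunc k) K] [IsScalarTower k (RatFunc k) K]
    [FunctionField k K] (hCut : CutEndP p k K) (w : Valuation Kb ℝ≥0)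
    (hw : ExtendsPadicNorm k Kb p w) (C : IntermediateField k Kb) [FiniteDimensional k C]
    {ι : Type*} [Fintype ι] (n : ι → ℤ) (hn : Function.Injective n) (a : ι → ℤ)
    (ha : ∑ i, a i = 0) {φ : Kb} (hφ : φ ∈ KC K C) (hφn : ∀ i, φ ≠ (n i : Kb)) {N : ℕ} (hN : 0 < N)
    {y : Kb} (hy : y ^ N = ∏ i, (φ - (n i : Kb)) ^ a i)
    (D : List (Circ p k K C)) (hDw : ∀ d ∈ D, w d.π ≤ w d.x)
    (hD1 : ∀ d ∈ D, ∃ i, d.x = φ - (n i : Kb) ∧
      (∀ l, l ≠ i → d.v₀ d.π < d.v₀ (N : Kb) ^ 2 * d.v₀ ((n i : Kb) - (n l : Kb))) ∧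
      ∃ ξ : Kb, ξ ^ N = d.x ∧ ξ ∈ cl d.v₀ (maxUnramified k K : Set Kb))
    (hD2 : ∀ v : Valuation Kb ℝ≥0, IsPlace k v → ∀ i, v (φ - (n i : Kb)) < 1 →
      ∃ d ∈ D, SameGeo k d.P v) :
    ((KC K C ⊔ IntermediateField.adjoin K {y} : IntermediateField K Kb) : Set Kb) ⊆
      cl w (maxUnramified k K : Set Kb) := by
  classical
  have hk0 : CharZero k := charZero_of_injective_algebraMap (algebraMap ℚ_[p] k).injective
  have hK0 := charZero_K k K
  have hb0 : CharZero Kb := charZero_of_injective_algebraMap (algebraMap K Kb).injective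
  have hφ0 : ∀ i, φ - (n i : Kb) ≠ 0 := fun i => sub_ne_zero.mpr (hφn i)
  have hyN0 : y ^ N ≠ 0 := by
    rw [hy]
    exact Finset.prod_ne_zero_iff.mpr fun i _ => zpow_ne_zero _ (hφ0 i)
  have hy0 : y ≠ 0 := by
    rintro rfl
    rw [zero_pow hN.ne'] at hyN0
    exact hyN0 rfl
  have hyKC : y ^ N ∈ KC K C := by
    rw [hy]
    refine prod_mem fun i _ => ?_
    exact (KC K C).toSubfield.zpow_mem (sub_mem hφ (intCast_mem _ _)) _
  have hint : ∀ (v : Valuation Kb ℝ≥0), IsPlace k v → ∀ m : ℤ, v (m : Kb) ≤ 1 := by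
    intro v hv m
    refine val_const_le hv (mem_kb.mpr ?_)
    have h1 : ((m : ℤ) : Kb) = algebraMap k Kb (m : k) := by rw [map_intCast]
    rw [h1]
    exact isIntegral_algebraMap
  refine dcut_kummer p hCut w hw C D hDw hN hy0 hyKC ?_ ?_
  · intro v hv
    by_cases h : ∃ i, v (φ - (n i : Kb)) < 1
    · obtain ⟨i, hi⟩ := h
      exact Or.inr (hD2 v hv i hi)
    · push Not at h
      refine Or.inl ⟨1, one_mem _, ?_⟩
      rw [hy, val_prod_eq_one v n a ha (fun i => hint v hv (n i)) h, map_one, one_pow]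
  · intro d hd
    obtain ⟨i, hdx, hsmall, ξ, hξ1, hξ2⟩ := hD1 d hd
    have hne : ∀ l, l ≠ i → ((n i : ℤ) : Kb) - (n l : Kb) ≠ 0 := by
      intro l hl h
      apply hl
      exact (hn (by exact_mod_cast sub_eq_zero.mp h)).symm
    have hNpos : 0 < d.v₀ (N : Kb) := (Valuation.pos_iff d.v₀).mpr (by
      exact_mod_cast hN.ne')
    have hN1 : d.v₀ (N : Kb) ≤ 1 := by
      have : ∀ m : ℕ, d.v₀ (m : Kb) ≤ 1 := by
        intro m
        induction m with
        | zero => simp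
        | succ m ih =>
          push_cast
          exact d.v₀.map_add_le ih (by rw [map_one])
      exact this N
    refine ⟨∏ l ∈ Finset.univ.erase i, ((n i : Kb) - (n l : Kb)) ^ a l, ?_, a i, ?_, ?_,
      fun _ => ⟨ξ, hξ1, hξ2⟩⟩
    · refine prod_mem fun l _ => ?_
      exact C.toSubfield.zpow_mem (sub_mem (intCast_mem _ _) (intCast_mem _ _)) _
    · exact Finset.prod_ne_zero_iff.mpr fun l hl =>
        zpow_ne_zero _ (hne l (Finset.ne_of_mem_erase hl))
    · -- the maximal ratio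
      obtain ⟨τ, hτ1, hτ2⟩ : ∃ τ : ℝ≥0, τ < d.v₀ (N : Kb) ^ 2 ∧ ∀ l, l ≠ i →
          d.v₀ (φ - (n i : Kb)) ≤ τ * d.v₀ ((n i : Kb) - (n l : Kb)) := by
        refine ⟨(Finset.univ.erase i).sup fun l =>
          d.v₀ (φ - (n i : Kb)) / d.v₀ ((n i : Kb) - (n l : Kb)), ?_, ?_⟩
        · rw [Finset.sup_lt_iff (by
            change (0 : ℝ≥0) < _
            positivity)]
          intro l hl
          have hl' := Finset.ne_of_mem_erase hl
          rw [div_lt_iff₀ ((Valuation.pos_iff d.v₀).mpr (hne l hl')), ← hdx, d.val_x]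
          exact hsmall l hl'
        · intro l hl
          rw [← div_le_iff₀ ((Valuation.pos_iff d.v₀).mpr (hne l hl))]
          exact Finset.le_sup (f := fun l => d.v₀ (φ - (n i : Kb)) /
            d.v₀ ((n i : Kb) - (n l : Kb))) (Finset.mem_erase.mpr ⟨hl, Finset.mem_univ l⟩)
      have h1 := val_lead d.v₀ n a i (τ := τ) (hτ1.trans_le (pow_le_one' hN1 2)) hne (hφ0 i) hτ2
      rw [hy, hdx]
      exact h1.trans_lt hτ1

end main

end Crest.Agent.R013.DCut_22
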