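import Crest.Agent.R013.DLoc4_381

/-!
# R013 / D-LINE, leaf D-ST2 (STEP E of #4158), part 1: bounded power series   (helper205)

* `inv_bd` : the inverse of a power series close to a constant;
* `deriv_bd`, `shrink` : derivative, restriction to a smaller disc;
* `exists_series` : an element of `frB` without pole at the centre is a bounded power series on a
  smaller disc;
* `units`: logarithmic derivative of products of units.
-/

set_option autoImplicit false
set_option linter.unusedSectionVars false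

namespace Crest.Agent.R013.DE2_205

open PowerSeries Filter
open scoped NNReal Topology
open Crest.Agent.R013.KAS2_940 (Bd bd_zero bd_C bd_one)
open Crest.Agent.R013.KAS2_940
open Crest.Agent.R013.KAS3_940 Crest.Agent.R013.Small3_940 Crest.Agent.R013.Good3_940
open Crest.Agent.R013.LemD_323 (shift)

section basic

variable {F : Type*} [NontriviallyNormedField F] [IsUltrametricDist F]

theorem norm_constantCoeff_sub {r B : ℝ} {f : F⟦X⟧} {a0 : F} (h : Bd r B (f - C a0)) :
    ‖constantCoeff f - a0‖ ≤ B := by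
  have h1 := h 0
  rw [pow_zero, mul_one, map_sub, coeff_zero_eq_constantCoeff_apply,
    coeff_zero_eq_constantCoeff_apply, constantCoeff_C] at h1
  exact h1

theorem constantCoeff_ne_zero {r B : ℝ} {f : F⟦X⟧} {a0 : F} (h : Bd r B (f - C a0))
    (hB : B < ‖a0‖) : constantCoeff f ≠ 0 := by
  intro h0
  have h1 := norm_constantCoeff_sub h
  rw [h0, zero_sub, norm_neg] at h1
  exact absurd hB (not_lt.mpr h1)

theorem norm_constantCoeff_eq {r B : ℝ} {f : F⟦X⟧} {a0 : F} (h : Bd r B (f - C a0))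
    (hB : B < ‖a0‖) : ‖constantCoeff f‖ = ‖a0‖ := by
  have h1 := norm_constantCoeff_sub h
  have h2 : constantCoeff f = (constantCoeff f - a0) + a0 := by ring
  rw [h2, IsUltrametricDist.norm_add_eq_max_of_norm_ne_norm (h1.trans_lt hB).ne]
  exact max_eq_right (h1.trans hB.le)

theorem mul_inv' {f : F⟦X⟧} (h : constantCoeff f ≠ 0) : f * f⁻¹ = 1 := PowerSeries.mul_inv_cancel f h

theorem inv_bd {r B : ℝ} (hr : 0 < r) {f : F⟦X⟧} {a0 : F} (h : Bd r B (f - C a0))
    (hB : B < ‖a0‖) : Bd r ‖a0‖⁻¹ f⁻¹ := by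
  have hB0 : 0 ≤ B := h.nonneg
  have ha : 0 < ‖a0‖ := hB0.trans_lt hB
  have hc := constantCoeff_ne_zero h hB
  have hcn := norm_constantCoeff_eq h hB
  have hfi := mul_inv' hc
  intro m
  induction m using Nat.strong_induction_on with
  | _ m ih =>
    rcases Nat.eq_zero_or_pos m with rfl | hm
    · rw [pow_zero, mul_one, coeff_zero_eq_constantCoeff_apply, constantCoeff_inv, norm_inv, hcn]
    · have h1 := congrArg (coeff m) hfi
      rw [coeff_mul, coeff_one, if_neg hm.ne'] at h1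
      have h2 : (0, m) ∈ Finset.HasAntidiagonal.antidiagonal m := by simp
      rw [← Finset.add_sum_erase _ _ h2] at h1
      have h3 : ‖coeff 0 f * coeff m f⁻¹‖ ≤ ‖a0‖ * (‖a0‖⁻¹ / r ^ m) := by
        have h4 : coeff 0 f * coeff m f⁻¹ =
            - ∑ x ∈ (Finset.HasAntidiagonal.antidiagonal m).erase (0, m), coeff x.1 f * coeff x.2 f⁻¹ := by
          linear_combination h1
        rw [h4, norm_neg]
        refine IsUltrametricDist.norm_sum_le_of_forall_le_of_nonneg (by positivity) ?_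
        rintro ⟨i, j⟩ hij
        rw [Finset.mem_erase, Finset.HasAntidiagonal.mem_antidiagonal] at hij
        obtain ⟨hij1, hij2⟩ := hij
        simp only at hij2 ⊢
        have hi : i ≠ 0 := by
          rintro rfl
          rw [zero_add] at hij2
          exact hij1 (by rw [hij2])
        have hj : j < m := by omega
        have h5 := ih j hj
        have h6 := h i
        rw [map_sub, coeff_C, if_neg hi, sub_zero] at h6
        rw [← mul_div_assoc, le_div_iff₀ (pow_pos hr m), norm_mul, ← hij2, pow_add]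
        calc ‖coeff i f‖ * ‖coeff j f⁻¹‖ * (r ^ i * r ^ j)
            = (‖coeff i f‖ * r ^ i) * (‖coeff j f⁻¹‖ * r ^ j) := by ring
          _ ≤ ‖a0‖ * ‖a0‖⁻¹ := mul_le_mul (h6.trans hB.le) h5 (by positivity) ha.le
      rw [norm_mul, coeff_zero_eq_constantCoeff_apply, hcn] at h3
      have h4 := le_of_mul_le_mul_left h3 ha
      rwa [le_div_iff₀ (pow_pos hr m)] at h4

theorem deriv_bd {r B : ℝ} (hr : 0 < r) {f : F⟦X⟧} (h : Bd r B f) : Bd r (B / r) (d⁄dX F f) := by
  intro m
  rw [coeff_derivative, le_div_iff₀ hr, norm_mul]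
  have h1 := h (m + 1)
  have h2 : ‖((m : F) + 1)‖ ≤ 1 := by
    have := IsUltrametricDist.norm_natCast_le_one F (m + 1)
    push_cast at this
    exact this
  calc ‖coeff (m + 1) f‖ * ‖(m : F) + 1‖ * r ^ m * r
      ≤ ‖coeff (m + 1) f‖ * 1 * r ^ m * r := by gcongr
    _ = ‖coeff (m + 1) f‖ * r ^ (m + 1) := by rw [pow_succ]; ring
    _ ≤ B := h1

theorem shrink {R B : ℝ} (hR : 0 < R) {f : F⟦X⟧} (h : Bd R B f) {r : ℝ} (hr : 0 < r)
    (hrR : r ≤ R) : Bd r (B * (r / R)) (f - C (constantCoeff f)) := by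
  have hB := h.nonneg
  intro m
  rcases Nat.eq_zero_or_pos m with rfl | hm
  · rw [map_sub, coeff_zero_eq_constantCoeff_apply, coeff_zero_eq_constantCoeff_apply,
      constantCoeff_C, sub_self, norm_zero, zero_mul]
    positivity
  · rw [map_sub, coeff_C, if_neg hm.ne', sub_zero]
    obtain ⟨j, rfl⟩ : ∃ j, m = j + 1 := ⟨m - 1, by omega⟩
    have h1 := h (j + 1)
    have h2 : r ^ (j + 1) = R ^ (j + 1) * ((r / R) ^ j * (r / R)) := by
      rw [← pow_succ, div_pow]
      field_simp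
    have h3 : (r / R) ^ j ≤ 1 := pow_le_one₀ (by positivity) ((div_le_one hR).mpr hrR)
    rw [h2, ← mul_assoc]
    calc ‖coeff (j + 1) f‖ * R ^ (j + 1) * ((r / R) ^ j * (r / R))
        ≤ B * (1 * (r / R)) := by gcongr
      _ = B * (r / R) := by ring

theorem bd_sum {r B : ℝ} (hr : 0 ≤ r) (hB : 0 ≤ B) {ι : Type*} (s : Finset ι) {f : ι → F⟦X⟧}
    (h : ∀ i ∈ s, Bd r B (f i)) : Bd r B (∑ i ∈ s, f i) := by
  classical
  induction s using Finset.induction_on with
  | empty => rw [Finset.sum_empty]; exact bd_zero hB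
  | insert a s ha ih =>
    rw [Finset.sum_insert ha]
    exact (h a (Finset.mem_insert_self a s)).add hr
      (ih fun i hi => h i (Finset.mem_insert_of_mem hi))

end basic

section units

variable {F : Type*} [Field F]

/-- the logarithmic derivative of a unit -/
noncomputable def dl (u : (F⟦X⟧)ˣ) : F⟦X⟧ := d⁄dX F (u : F⟦X⟧) * ((u⁻¹ : (F⟦X⟧)ˣ) : F⟦X⟧)

theorem derivative_eq_dl (u : (F⟦X⟧)ˣ) : d⁄dX F (u : F⟦X⟧) = dl u * u := by
  rw [dl, mul_assoc, Units.inv_mul, mul_one]

theorem dl_mul (u v : (F⟦X⟧)ˣ) : dl (u * v) = dl u + dl v := by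
  have h : d⁄dX F ((u * v : (F⟦X⟧)ˣ) : F⟦X⟧) = (dl u + dl v) * ((u * v : (F⟦X⟧)ˣ) : F⟦X⟧) := by
    rw [Units.val_mul, Derivation.leibniz, smul_eq_mul, smul_eq_mul, derivative_eq_dl u,
      derivative_eq_dl v]
    ring
  rw [dl, h, mul_assoc, Units.mul_inv, mul_one]

theorem dl_one : dl (1 : (F⟦X⟧)ˣ) = 0 := by
  have := dl_mul (1 : (F⟦X⟧)ˣ) 1
  rw [mul_one] at this
  exact left_eq_add.mp this

/-- `dl` as a homomorphism -/
noncomputable def dlHom : (F⟦X⟧)ˣ →* Multiplicative (F⟦X⟧) where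
  toFun u := Multiplicative.ofAdd (dl u)
  map_one' := by rw [dl_one]; rfl
  map_mul' u v := by rw [dl_mul]; rfl

theorem dl_prod_zpow {ι : Type*} (s : Finset ι) (u : ι → (F⟦X⟧)ˣ) (a : ι → ℤ) :
    dl (∏ i ∈ s, u i ^ a i) = ∑ i ∈ s, (a i : F⟦X⟧) * dl (u i) := by
  have h : dlHom (∏ i ∈ s, u i ^ a i) = ∏ i ∈ s, dlHom (u i) ^ a i := by
    rw [map_prod]
    exact Finset.prod_congr rfl fun i _ => map_zpow _ _ _
  have h2 := congrArg Multiplicative.toAdd h
  rw [toAdd_prod] at h2
  have h3 : ∀ u : (F⟦X⟧)ˣ, Multiplicative.toAdd (dlHom u) = dl u := fun u => rfl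
  rw [h3] at h2
  rw [h2]
  refine Finset.sum_congr rfl fun i _ => ?_
  rw [toAdd_zpow, h3, zsmul_eq_mul]

end units

end Crest.Agent.R013.DE2_205
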