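import Crest.Agent.R013.DG1_779

/-!
# R013 / D-LINE, leaf D-ST2 (STEP E of #4158), part 2: the integers `N i` and the exponents `a i`
(helper205; on 779's `pf_identity`)
-/

set_option autoImplicit false
set_option linter.unusedSectionVars false

namespace Crest.Agent.R013.DE2_205

open Polynomial Finset
open Crest.Agent.R013.DG_779

theorem exists_mu {F : Type*} [Field F] [CharZero F] [Algebra ℚ F] {s0 : F}
    (h : IsAlgebraic ℚ s0) :
    ∃ μ : ℤ[X], aeval s0 μ = 0 ∧ aeval s0 (derivative μ) ≠ 0 := by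
  have hi : IsIntegral ℚ s0 := h.isIntegral
  have hsep : (minpoly ℚ s0).Separable := (minpoly.irreducible hi).separable
  have h1 : aeval s0 (derivative (minpoly ℚ s0)) ≠ 0 :=
    hsep.aeval_derivative_ne_zero (minpoly.aeval ℚ s0)
  obtain ⟨b, hbm, hb⟩ := IsLocalization.integerNormalization_spec (nonZeroDivisors ℤ)
    (minpoly ℚ s0)
  have hb0 : b ≠ 0 := nonZeroDivisors.ne_zero hbm
  rw [zsmul_eq_mul] at hb
  refine ⟨IsLocalization.integerNormalization (nonZeroDivisors ℤ) (minpoly ℚ s0), ?_, ?_⟩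
  · rw [← aeval_map_algebraMap ℚ, hb, map_mul, minpoly.aeval, mul_zero]
  · rw [← aeval_map_algebraMap ℚ, ← derivative_map, hb, derivative_mul, derivative_intCast,
      zero_mul, zero_add, map_mul, map_intCast]
    exact mul_ne_zero (Int.cast_ne_zero.mpr hb0) h1

theorem exists_distinct' (p : ℕ) (hp : 0 < p) (r : ℤ) (Bad : Finset ℤ) (M : ℕ) :
    ∃ α : Fin M → ℤ, Function.Injective α ∧ (∀ i, α i ∉ Bad) ∧ ∀ i, (p : ℤ) ∣ α i - r := by
  classical
  have hinf0 : (Set.range fun n : ℤ => r + p * n).Infinite := by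
    refine Set.infinite_range_of_injective fun a b hab => ?_
    have hab' : r + p * a = r + p * b := hab
    have hp' : (p : ℤ) ≠ 0 := by exact_mod_cast hp.ne'
    exact mul_left_cancel₀ hp' (add_left_cancel hab')
  have hinf : ((Set.range fun n : ℤ => r + p * n) \ (Bad : Set ℤ)).Infinite :=
    hinf0.sdiff (Finset.finite_toSet _)
  obtain ⟨t, ht, hcard⟩ := hinf.exists_subset_card_eq M
  refine ⟨fun i => (t.orderEmbOfFin hcard i : ℤ), (t.orderEmbOfFin hcard).injective, ?_, ?_⟩
  · intro i hi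
    exact (ht (t.orderEmbOfFin_mem hcard i)).2 hi
  · intro i
    obtain ⟨n, hn⟩ := (ht (t.orderEmbOfFin_mem hcard i)).1
    have hn' : r + p * n = (t.orderEmbOfFin hcard i : ℤ) := hn
    exact ⟨n, by simp only [← hn']; ring⟩

/-- **(G1)** -/
theorem exists_g1 {F : Type*} [Field F] [CharZero F] [Algebra ℚ F] {s0 : F}
    (h : IsAlgebraic ℚ s0) {p : ℕ} (hp : 0 < p) {r : ℤ}
    (hs0 : ∀ n : ℤ, (p : ℤ) ∣ n - r → s0 ≠ (n : F)) (Bad : Finset ℤ) :
    ∃ (M : ℕ) (N a : Fin M → ℤ), Function.Injective N ∧ (∀ i, N i ∉ Bad) ∧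
      (∀ i, (p : ℤ) ∣ N i - r) ∧ ∑ i, a i = 0 ∧ ∑ i, (a i : F) / (s0 - N i) = 0 ∧
      ∑ i, (a i : F) / (s0 - N i) ^ 2 ≠ 0 := by
  classical
  obtain ⟨μ, hμ0, hμ1⟩ := exists_mu h
  obtain ⟨α, hα, hbad, hres⟩ := exists_distinct' p hp r Bad (μ.natDegree + 2)
  have key := pf_identity μ α hα (by simp)
  set a : Fin (μ.natDegree + 2) → ℤ := fun i =>
    μ.eval (α i) * ∏ j ∈ univ.erase i, ∏ l ∈ univ.erase j, (α j - α l) with ha
  set c : ℤ := ∏ j, ∏ l ∈ univ.erase j, (α j - α l) with hc
  have hc0 : c ≠ 0 := by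
    refine Finset.prod_ne_zero_iff.mpr fun j _ => Finset.prod_ne_zero_iff.mpr fun l hl => ?_
    rw [sub_ne_zero]
    exact fun h => (Finset.ne_of_mem_erase hl) (hα h).symm
  have key' : ∑ i, C (a i) * ∏ j ∈ univ.erase i, (X - C (α j)) = C c * μ := key
  have hne : ∀ i, s0 - (α i : F) ≠ 0 := fun i => sub_ne_zero.mpr (hs0 _ (hres i))
  have hPne : ∏ i, (s0 - (α i : F)) ≠ 0 := Finset.prod_ne_zero_iff.mpr fun i _ => hne i
  refine ⟨μ.natDegree + 2, α, a, hα, hbad, hres, ?_, ?_, ?_⟩
  · -- the sum of the `a i`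
    have h1 := congrArg (fun q : ℤ[X] => q.coeff (μ.natDegree + 1)) key'
    simp only [finsetSum_coeff, coeff_C_mul] at h1
    have h2 : μ.coeff (μ.natDegree + 1) = 0 := coeff_eq_zero_of_natDegree_lt (by omega)
    rw [h2, mul_zero] at h1
    rw [← h1]
    refine Finset.sum_congr rfl (fun i _ => ?_)
    have hmon : (∏ j ∈ univ.erase i, (X - C (α j))).Monic :=
      monic_prod_of_monic _ _ (fun j _ => monic_X_sub_C _)
    have hdeg : (∏ j ∈ univ.erase i, (X - C (α j))).natDegree = μ.natDegree + 1 := by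
      rw [natDegree_prod_of_monic _ _ (fun j _ => monic_X_sub_C _),
        Finset.sum_congr rfl (fun j _ => natDegree_X_sub_C _)]
      simp
    have : (∏ j ∈ univ.erase i, (X - C (α j))).coeff (μ.natDegree + 1) = 1 := by
      rw [← hdeg]; exact hmon.coeff_natDegree
    rw [this, mul_one]
  all_goals
    have hS1 : ∑ i, (a i : F) / (s0 - α i) = 0 := by
      have h1 := congrArg (fun q : ℤ[X] => aeval s0 q) key'
      simp only [map_sum, map_mul, map_prod, map_sub, aeval_X, eq_intCast, map_intCast,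
        hμ0, mul_zero] at h1
      have h2 : (∏ i, (s0 - (α i : F))) * ∑ i, (a i : F) / (s0 - α i) = 0 := by
        rw [Finset.mul_sum, ← h1]
        refine Finset.sum_congr rfl fun i _ => ?_
        rw [← Finset.mul_prod_erase univ _ (Finset.mem_univ i)]
        field_simp [hne i]
      exact (mul_eq_zero.mp h2).resolve_left hPne
  · exact hS1
  · -- the derivative
    intro hS2
    have h1 := congrArg (fun q : ℤ[X] => aeval s0 (derivative q)) key'
    simp only [derivative_sum, derivative_mul, derivative_C, zero_mul, zero_add] at h1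
    rw [map_mul, aeval_C] at h1
    rw [map_sum] at h1
    have hP : ∀ i, aeval s0 (derivative (∏ j ∈ univ.erase i, (X - C (α j)))) =
        (aeval s0 (derivative (∏ j, (X - C (α j)))) -
          ∏ j ∈ univ.erase i, (s0 - (α j : F))) / (s0 - α i) := by
      intro i
      rw [eq_div_iff (hne i), ← Finset.mul_prod_erase univ _ (Finset.mem_univ i), derivative_mul,
        derivative_sub, derivative_X, derivative_C, sub_zero, one_mul]
      simp only [map_add, map_mul, map_prod, map_sub, aeval_X, eq_intCast, map_intCast]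
      ring
    have h2 : ∑ i, (a i : F) * ((aeval s0 (derivative (∏ j, (X - C (α j)))) -
        ∏ j ∈ univ.erase i, (s0 - (α j : F))) / (s0 - α i)) = 0 := by
      have h3 : ∀ i, (a i : F) * ((aeval s0 (derivative (∏ j, (X - C (α j)))) -
          ∏ j ∈ univ.erase i, (s0 - (α j : F))) / (s0 - α i)) =
          aeval s0 (derivative (∏ j, (X - C (α j)))) * ((a i : F) / (s0 - α i)) -
          (∏ j, (s0 - (α j : F))) * ((a i : F) / (s0 - α i) ^ 2) := by
        intro i
        rw [← Finset.mul_prod_erase univ (fun j => s0 - (α j : F)) (Finset.mem_univ i)]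
        field_simp [hne i]
      rw [Finset.sum_congr rfl fun i _ => h3 i, Finset.sum_sub_distrib, ← Finset.mul_sum,
        ← Finset.mul_sum, hS1, hS2, mul_zero, mul_zero, sub_zero]
    apply mul_ne_zero (Int.cast_ne_zero.mpr hc0 : (c : F) ≠ 0) hμ1
    have h4 : (algebraMap ℤ F) c = (c : F) := by simp
    rw [h4] at h1
    rw [← h1, ← h2]
    refine Finset.sum_congr rfl fun i _ => ?_
    rw [map_mul, aeval_C, hP i]
    simp

end Crest.Agent.R013.DE2_205
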