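import Crest.Agent.R013.KAS1_940

/-!
# R013 / HZ4a: the vertex at `p = 2`, algebraic part (helper610, task H-Z4)

`L` a field with a valuation `w`, `w 2 < 1`, `i ^ 2 = -1`, `S = (i - 1) X - X ^ 2`, `w X ≤ 1` and
`y ^ 4 = 1 + 4 S + 8 S ^ 2 + e`, `w e < w 8`.  Then `V := (y ^ 2 - 1) / 2 - X` and
`u := (y / (1 + (i - 1) V) - 1) / 2 + X ^ 2` satisfy `V ^ 2 + V = X`, `u ^ 2 + u = V ^ 3 + V` in the
residue field (`z4base`).  With constants `s ^ 4 + s + 1 = 0`, `τ ^ 2 + τ = s ^ 6 + s ^ 2` this is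
`z ^ 2 - z = α ^ 3`, `α = V + s ^ 2`, `z = u + s α + τ` (`toAS`).
-/

set_option autoImplicit false

namespace Crest.Agent.R013.HZ4a_610

open Crest.Agent.R013.KAS1_940

variable {L : Type*} [Field L] {Γ : Type*} [LinearOrderedCommGroupWithZero Γ] (w : Valuation L Γ)

/-- a root of `z ^ 2 + z = a` with `a` integral is integral -/
theorem le_one_of_sq_add {z a : L} (ha : w a ≤ 1) (h : w (z ^ 2 + z - a) ≤ 1) : w z ≤ 1 := by
  by_contra hcon
  rw [not_le] at hcon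
  have h1 : w (z ^ 2 + z) ≤ 1 := by
    have : z ^ 2 + z = (z ^ 2 + z - a) + a := by ring
    rw [this]
    exact (w.map_add _ _).trans (max_le h ha)
  have h2 : w z < w (z ^ 2) := by
    rw [map_pow, sq]
    have h0 : 0 < w z := lt_trans zero_lt_one hcon
    calc w z = 1 * w z := (one_mul _).symm
      _ < w z * w z := mul_lt_mul_of_pos_right hcon h0
  rw [Valuation.map_add_eq_of_lt_left w h2, map_pow] at h1
  have h3 : 1 < w z ^ 2 := one_lt_pow₀ hcon two_ne_zero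
  exact absurd h1 (not_le.mpr h3)

theorem mul_lt_one_of_lt_of_le {a b : L} (ha : w a < 1) (hb : w b ≤ 1) : w (a * b) < 1 := by
  rw [map_mul]
  calc w a * w b ≤ w a * 1 := by gcongr
    _ = w a := mul_one _
    _ < 1 := ha

theorem mul_le_one' {a b : L} (ha : w a ≤ 1) (hb : w b ≤ 1) : w (a * b) ≤ 1 := by
  rw [map_mul]
  calc w a * w b ≤ 1 * 1 := by gcongr
    _ = 1 := mul_one _

/-- the integers of `w` -/
theorem int_natCast (n : ℕ) : w (n : L) ≤ 1 := w_natCast_le w n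

variable {w}

/-- `π := i - 1` is topologically nilpotent, `i` is integral -/
theorem pi_lt (h2 : w 2 < 1) {i : L} (hi : i ^ 2 = -1) : w i ≤ 1 ∧ w (i - 1) < 1 := by
  have hi1 : w i ≤ 1 := by
    by_contra hcon
    rw [not_le] at hcon
    have h1 : w (i ^ 2) = 1 := by rw [hi, Valuation.map_neg, map_one]
    rw [map_pow] at h1
    exact absurd h1 (one_lt_pow₀ hcon two_ne_zero).ne'
  refine ⟨hi1, ?_⟩
  have h1 : w ((i - 1) ^ 2) < 1 := by
    have : (i - 1) ^ 2 = 2 * (-i) := by linear_combination hi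
    rw [this]
    exact mul_lt_one_of_lt_of_le w h2 (by rw [Valuation.map_neg]; exact hi1)
  by_contra hcon
  rw [not_lt] at hcon
  rw [map_pow] at h1
  exact absurd h1 (not_lt.mpr (one_le_pow_of_one_le' hcon 2))

/-- **The vertex at `p = 2`**: `V ^ 2 + V = X`, `u ^ 2 + u = V ^ 3 + V` in the residue field. -/
theorem z4base (h2 : w 2 < 1) (h20 : (2 : L) ≠ 0) {i X y S e V u : L} (hi : i ^ 2 = -1)
    (hX : w X ≤ 1) (hS : S = (i - 1) * X - X ^ 2) (he : w e < w 8)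
    (hy : y ^ 4 = 1 + 4 * S + 8 * S ^ 2 + e) (hV : V = (y ^ 2 - 1) / 2 - X)
    (hu : u = (y / (1 + (i - 1) * V) - 1) / 2 + X ^ 2) :
    w V ≤ 1 ∧ w u ≤ 1 ∧ w (V ^ 2 + V - X) < 1 ∧ w (u ^ 2 + u - (V ^ 3 + V)) < 1 := by
  set O := w.integer with hO
  have memO : ∀ b : L, b ∈ O ↔ w b ≤ 1 := fun b => Iff.rfl
  have hXO : X ∈ O := hX
  have hnat : ∀ n : ℕ, (n : L) ∈ O := fun n => w_natCast_le w n
  have h2O : (2 : L) ∈ O := by exact_mod_cast hnat 2
  obtain ⟨hi1, hπ1⟩ := pi_lt h2 hi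
  have hiO : i ∈ O := hi1
  set π : L := i - 1 with hπ
  have hπO : π ∈ O := sub_mem hiO (one_mem _)
  have hππ : π ^ 2 = -2 - 2 * π := by rw [hπ]; linear_combination hi
  have hSO : S ∈ O := by
    rw [hS]; exact sub_mem (mul_mem hπO hXO) (pow_mem hXO 2)
  have h4ne : (4 : L) ≠ 0 := by
    have : (4 : L) = 2 * 2 := by norm_num
    rw [this]; exact mul_ne_zero h20 h20
  have h8 : (8 : L) = 4 * 2 := by norm_num
  -- first level
  set z1 : L := (y ^ 2 - 1) / 2 with hz1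
  have hyz : y ^ 2 = 1 + 2 * z1 := by rw [hz1]; field_simp; ring
  set e1 : L := e / 4 with he1
  have he1' : e = 4 * e1 := by rw [he1]; field_simp
  have he12 : w e1 < w 2 := by
    rw [he1', h8, map_mul, map_mul] at he
    exact lt_of_mul_lt_mul_left he zero_le
  have hz1e : z1 ^ 2 + z1 = S + 2 * S ^ 2 + e1 := by
    have h1 : (1 + 2 * z1) ^ 2 = 1 + 4 * S + 8 * S ^ 2 + 4 * e1 := by
      rw [← hyz, ← he1', ← hy]; ring
    have h3 : (4 : L) * (z1 ^ 2 + z1) = 4 * (S + 2 * S ^ 2 + e1) := by linear_combination h1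
    exact mul_left_cancel₀ h4ne h3
  have he1O : e1 ∈ O := (he12.trans h2).le
  have hz1O : z1 ∈ O := by
    refine le_one_of_sq_add w (a := S + 2 * S ^ 2 + e1) ?_ ?_
    · exact (memO _).1 (add_mem (add_mem hSO (mul_mem h2O (pow_mem hSO 2))) he1O)
    · rw [hz1e, sub_self, map_zero]; exact zero_le_one
  have hVO : V ∈ O := by rw [hV]; exact sub_mem hz1O hXO
  have hVeq : V ^ 2 + V + X = π * X - 2 * X ^ 2 + 2 * S ^ 2 - 2 * X * V + e1 := by
    have h1 : z1 = V + X := by rw [hV]; ring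
    rw [h1, hS] at hz1e
    rw [hS]
    linear_combination hz1e
  -- e1 = 2 e2
  set e2 : L := e1 / 2 with he2
  have he2' : e1 = 2 * e2 := by rw [he2]; field_simp
  have he21 : w e2 < 1 := by
    rw [he2', map_mul] at he12
    by_contra hcon
    rw [not_lt] at hcon
    have : w (2 : L) * 1 ≤ w 2 * w e2 := by gcongr
    rw [mul_one] at this
    exact absurd he12 (not_lt.mpr this)
  have he2O : e2 ∈ O := he21.le
  rw [he2'] at hVeq
  -- second level
  set σ : L := 1 + π * V with hσ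
  have hσ1 : w (σ - 1) < 1 := by
    have : σ - 1 = π * V := by rw [hσ]; ring
    rw [this]; exact mul_lt_one_of_lt_of_le w hπ1 hVO
  have hσw : w σ = 1 := by
    have : σ = 1 + (σ - 1) := by ring
    rw [this, Valuation.map_add_eq_of_lt_left, map_one]
    rw [map_one]; exact hσ1
  have hσ0 : σ ≠ 0 := by
    intro h; rw [h, map_zero] at hσw; exact zero_ne_one hσw
  have hσO : σ ∈ O := hσw.le
  have hσiO : σ⁻¹ ∈ O := by rw [memO, map_inv₀, hσw, inv_one]
  set c0 : L := -X - X ^ 2 + S ^ 2 - X * V +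
    π * (-X - X ^ 2 + S ^ 2 - X * V - V + e2) + e2 with hc0
  have hyσ : y ^ 2 - σ ^ 2 = 4 * c0 := by
    rw [hyz, hc0, hσ]
    have hzV : z1 = V + X := by rw [hV]; ring
    rw [hzV]
    linear_combination (2 + 2 * π) * hVeq - (V ^ 2 - 2 * X) * hππ
  set u0 : L := (y / σ - 1) / 2 with hu0
  have hyu : y / σ = 1 + 2 * u0 := by rw [hu0]; field_simp; ring
  have huu : u0 ^ 2 + u0 = c0 * (σ⁻¹) ^ 2 := by
    have h1 : (y / σ) ^ 2 = 1 + 4 * (c0 * (σ⁻¹) ^ 2) := by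
      have : y ^ 2 = σ ^ 2 + 4 * c0 := by linear_combination hyσ
      rw [div_pow, this]
      field_simp
    rw [hyu] at h1
    have h3 : (4 : L) * (u0 ^ 2 + u0) = 4 * (c0 * (σ⁻¹) ^ 2) := by linear_combination h1
    exact mul_left_cancel₀ h4ne h3
  have h1O : -X - X ^ 2 + S ^ 2 - X * V ∈ O :=
    sub_mem (add_mem (sub_mem (neg_mem hXO) (pow_mem hXO 2)) (pow_mem hSO 2)) (mul_mem hXO hVO)
  have hc0O : c0 ∈ O := by
    rw [hc0]
    exact add_mem (add_mem h1O (mul_mem hπO (add_mem (sub_mem h1O hVO) he2O))) he2O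
  have hu0O : u0 ∈ O := by
    refine le_one_of_sq_add w (a := c0 * (σ⁻¹) ^ 2) ?_ ?_
    · exact (memO _).1 (mul_mem hc0O (pow_mem hσiO 2))
    · rw [huu, sub_self, map_zero]; exact zero_le_one
  have huO : u ∈ O := by rw [hu]; exact add_mem hu0O (pow_mem hXO 2)
  refine ⟨(memO _).1 hVO, (memO _).1 huO, ?_, ?_⟩
  · have key : V ^ 2 + V - X =
        2 * (-X - X ^ 2 + S ^ 2 - X * V + e2) + π * X := by
      linear_combination hVeq
    rw [key]
    refine w.map_add_lt (mul_lt_one_of_lt_of_le w h2 ?_) (mul_lt_one_of_lt_of_le w hπ1 hX)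
    exact (memO _).1 (add_mem h1O he2O)
  · have key : u ^ 2 + u - (V ^ 3 + V) =
        (σ⁻¹ - 1) * (c0 * (σ⁻¹ + 1)) +
        π * (π * X ^ 2 - 2 * X ^ 3 + (-X - X ^ 2 + S ^ 2 - X * V - V + e2) - (1 + V) * X) + e2 +
        2 * (-(1 + V) * (-X ^ 2 + S ^ 2 - X * V + e2) + V ^ 2 + X ^ 4 + u0 * X ^ 2) := by
      have huu' : u0 ^ 2 + u0 = c0 + (σ⁻¹ - 1) * (c0 * (σ⁻¹ + 1)) := by rw [huu]; ring
      have hc0' : c0 = -X - X ^ 2 + X ^ 4 - X * V + π * (π * X ^ 2 - 2 * X ^ 3) +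
          π * (-X - X ^ 2 + S ^ 2 - X * V - V + e2) + e2 := by
        rw [hc0, hS]; ring
      rw [hu]
      linear_combination huu' + hc0' - (1 + V) * hVeq
    rw [key]
    have h3 : -X ^ 2 + S ^ 2 - X * V + e2 ∈ O :=
      add_mem (sub_mem (add_mem (neg_mem (pow_mem hXO 2)) (pow_mem hSO 2)) (mul_mem hXO hVO)) he2O
    have h1V : 1 + V ∈ O := add_mem (one_mem _) hVO
    refine w.map_add_lt (w.map_add_lt (w.map_add_lt ?_ ?_) he21) ?_
    · have h4 : w (σ⁻¹ - 1) < 1 := by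
        have : σ⁻¹ - 1 = -((σ - 1) * σ⁻¹) := by field_simp; ring
        rw [this, Valuation.map_neg]
        exact mul_lt_one_of_lt_of_le w hσ1 ((memO _).1 hσiO)
      exact mul_lt_one_of_lt_of_le w h4
        ((memO _).1 (mul_mem hc0O (add_mem hσiO (one_mem _))))
    · refine mul_lt_one_of_lt_of_le w hπ1 ((memO _).1 ?_)
      exact sub_mem (add_mem (sub_mem (mul_mem hπO (pow_mem hXO 2)) (mul_mem h2O (pow_mem hXO 3)))
        (add_mem (sub_mem h1O hVO) he2O)) (mul_mem h1V hXO)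
    · refine mul_lt_one_of_lt_of_le w h2 ((memO _).1 ?_)
      exact add_mem (add_mem (add_mem (mul_mem (neg_mem h1V) h3) (pow_mem hVO 2))
        (pow_mem hXO 4)) (mul_mem hu0O (pow_mem hXO 2))

/-- over constants containing `F_16` the vertex is `z ^ 2 - z = α ^ 3` -/
theorem toAS (h2 : w 2 < 1) {s τ X V u : L} (hs : w (s ^ 4 + s + 1) < 1)
    (hτ : w (τ ^ 2 + τ - (s ^ 6 + s ^ 2)) < 1) (hX : w X ≤ 1) (hV : w V ≤ 1) (hu : w u ≤ 1)
    (h1 : w (V ^ 2 + V - X) < 1) (h3 : w (u ^ 2 + u - (V ^ 3 + V)) < 1) :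
    w (V + s ^ 2) ≤ 1 ∧ w (u + s * (V + s ^ 2) + τ) ≤ 1 ∧
      w ((V + s ^ 2) ^ 2 - (V + s ^ 2) - (X + s ^ 4 + s ^ 2)) < 1 ∧
      w ((u + s * (V + s ^ 2) + τ) ^ 2 - (u + s * (V + s ^ 2) + τ) - (V + s ^ 2) ^ 3) < 1 := by
  set O := w.integer with hO
  have memO : ∀ b : L, b ∈ O ↔ w b ≤ 1 := fun b => Iff.rfl
  have hsO : s ∈ O := by
    rw [memO]
    by_contra hcon
    rw [not_le] at hcon
    have h4 : s ^ 4 = (s ^ 4 + s + 1) - (s + 1) := by ring
    have h5 : w (s ^ 4) ≤ w s := by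
      rw [h4]
      refine (w.map_sub _ _).trans (max_le (hs.le.trans hcon.le) ?_)
      exact (w.map_add _ _).trans (max_le le_rfl (by rw [map_one]; exact hcon.le))
    rw [map_pow] at h5
    have h6 : w s < w s ^ 4 := by
      calc w s = w s ^ 1 := (pow_one _).symm
        _ < w s ^ 4 := pow_lt_pow_right₀ hcon (by norm_num)
    exact absurd h5 (not_le.mpr h6)
  have hτO : τ ∈ O := by
    refine le_one_of_sq_add w (a := s ^ 6 + s ^ 2) ?_ hτ.le
    exact (memO _).1 (add_mem (pow_mem hsO 6) (pow_mem hsO 2))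
  have hXO : X ∈ O := hX
  have hVO : V ∈ O := hV
  have huO : u ∈ O := hu
  have hVs : V + s ^ 2 ∈ O := add_mem hVO (pow_mem hsO 2)
  refine ⟨hVs, add_mem (add_mem huO (mul_mem hsO hVs)) hτO, ?_, ?_⟩
  · have key : (V + s ^ 2) ^ 2 - (V + s ^ 2) - (X + s ^ 4 + s ^ 2) =
        (V ^ 2 + V - X) + 2 * (V * s ^ 2 - V - s ^ 2) := by ring
    rw [key]
    refine w.map_add_lt h1 (mul_lt_one_of_lt_of_le w h2 ((memO _).1 ?_))
    exact sub_mem (sub_mem (mul_mem hVO (pow_mem hsO 2)) hVO) (pow_mem hsO 2)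
  · have key : (u + s * (V + s ^ 2) + τ) ^ 2 - (u + s * (V + s ^ 2) + τ) - (V + s ^ 2) ^ 3 =
        (u ^ 2 + u - (V ^ 3 + V)) + (τ ^ 2 + τ - (s ^ 6 + s ^ 2)) + (s ^ 4 + s + 1) * (s ^ 2 - V) +
        2 * (V - u - τ - s ^ 2 * V ^ 2 - s ^ 3 + (u * s * (V + s ^ 2) + u * τ +
          s * (V + s ^ 2) * τ)) := by ring
    rw [key]
    refine w.map_add_lt (w.map_add_lt (w.map_add_lt h3 hτ) ?_) ?_
    · exact mul_lt_one_of_lt_of_le w hs ((memO _).1 (sub_mem (pow_mem hsO 2) hVO))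
    · refine mul_lt_one_of_lt_of_le w h2 ((memO _).1 ?_)
      refine add_mem (sub_mem (sub_mem (sub_mem (sub_mem hVO huO) hτO) (mul_mem (pow_mem hsO 2)
        (pow_mem hVO 2))) (pow_mem hsO 3)) ?_
      exact add_mem (add_mem (mul_mem (mul_mem huO hsO) hVs) (mul_mem huO hτO))
        (mul_mem (mul_mem hsO hVs) hτO)

end Crest.Agent.R013.HZ4a_610
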