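import Crest.Agent.R013.KAS3_940
import Crest.Agent.R013.HZ4a_610

/-!
# R013 / HZ4b: the vertex at `p = 2`, power series part (helper610, task H-Z4)

`u' = om1 u`, `u(0) = 1`, `om1 = a t1 + a X + (small)`, `a t1 ^ 2 = i 2 ^ n`, `c = t1 (1 + i)`,
`P = (i - 1) (X / c) - (X / c) ^ 2`: then `u = A ^ (2 ^ n) * B ^ (2 ^ (n - 2))` with
`B = 1 + 4 P + 8 P ^ 2 + e`, `e` small on the circle `|X| = |c|`.
-/

set_option autoImplicit false

namespace Crest.Agent.R013.HZ4b_610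

open PowerSeries Finset
open scoped NNReal
open Crest.Agent.R013.KAS1_940 Crest.Agent.R013.KAS2_940 Crest.Agent.R013.KAS3_940

variable {K : Type*} [NormedField K] [IsUltrametricDist K] [CharZero K] [Algebra ℚ K]

omit [CharZero K] in
/-- second order estimate of the exponential -/
theorem ex_bd2 {p : ℕ} (hp : p.Prime) {l : ℝ} (hl0 : 0 < l) (hl1 : l < 1)
    (hl : l ^ (p - 1) = ‖(p : K)‖) {r : ℝ} (hr : 0 < r) {F : K⟦X⟧}
    (hF : constantCoeff F = 0) {B : ℝ} (hB : Bd r B F) (hBl : B ≤ l) :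
    Bd r (B * (B / l) ^ 2) (ex F - 1 - F - C ((2 : K)⁻¹) * F ^ 2) := by
  intro m
  have hB0 := hB.nonneg
  have hrm : 0 < r ^ m := pow_pos hr m
  rw [← le_div_iff₀ hrm]
  have h1 : coeff m (ex F - 1 - F - C ((2 : K)⁻¹) * F ^ 2) =
      ∑ d ∈ range (m + 1), (((d + 3).factorial : K))⁻¹ * coeff m (F ^ (d + 3)) := by
    rw [map_sub, map_sub, map_sub, coeff_ex' hF m (m + 1 + 3) (by omega), sum_range_succ',
      sum_range_succ', sum_range_succ', coeff_C_mul]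
    simp [Nat.factorial]
  rw [h1]
  refine IsUltrametricDist.norm_sum_le_of_forall_le_of_nonneg (by positivity) ?_
  intro d _
  rw [le_div_iff₀ hrm, norm_mul, norm_inv]
  have h2 := (hB.pow hr (d + 3)) m
  have h3 := norm_factorial_ge (K := K) hp hl0 hl1 hl (d + 2)
  have h4 : (0 : ℝ) < l ^ (d + 2) := pow_pos hl0 _
  have h5 : ‖(((d + 3).factorial : ℕ) : K)‖⁻¹ ≤ (l ^ (d + 2))⁻¹ := by
    gcongr
  calc ‖(((d + 3).factorial : ℕ) : K)‖⁻¹ * ‖coeff m (F ^ (d + 3))‖ * r ^ m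
      = ‖(((d + 3).factorial : ℕ) : K)‖⁻¹ * (‖coeff m (F ^ (d + 3))‖ * r ^ m) := by ring
    _ ≤ (l ^ (d + 2))⁻¹ * B ^ (d + 3) := by
        gcongr
    _ = B * (B / l) ^ 2 * (B / l) ^ d := by
        rw [div_pow, div_pow, pow_add, pow_add]; field_simp
    _ ≤ B * (B / l) ^ 2 * 1 := by
        gcongr
        exact pow_le_one₀ (by positivity) ((div_le_one hl0).mpr hBl)
    _ = _ := mul_one _

/-- the norms of `i - 1` and `1 + i` -/
theorem norm_i {i : K} (hi : i ^ 2 = -1) :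
    ‖i - 1‖ ^ 2 = ‖(2 : K)‖ ∧ ‖1 + i‖ ^ 2 = ‖(2 : K)‖ := by
  have hi1 : ‖i‖ = 1 := by
    have : ‖i‖ ^ 2 = 1 := by rw [← norm_pow, hi, norm_neg, norm_one]
    nlinarith [norm_nonneg i, sq_nonneg (‖i‖ - 1)]
  constructor
  · rw [← norm_pow]
    have : (i - 1) ^ 2 = -(2 * i) := by linear_combination hi
    rw [this, norm_neg, norm_mul, hi1, mul_one]
  · rw [← norm_pow]
    have : (1 + i) ^ 2 = 2 * i := by linear_combination hi
    rw [this, norm_mul, hi1, mul_one]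

theorem formal (h2 : ‖(2 : K)‖ < 1) {i t1 a : K} (hi : i ^ 2 = -1) {n : ℕ} (hn : 2 ≤ n)
    (ht1 : t1 ≠ 0) (hat : a * t1 ^ 2 = i * 2 ^ n) {om1 : K⟦X⟧}
    (hom1 : Bd (‖t1‖ / ‖(2 : K)‖) (‖(2 : K)‖ ^ (n + 2) / ‖t1‖) (om1 - C (a * t1) - C a * X))
    {u : K⟦X⟧} (hu0 : constantCoeff u = 1) (hu : d⁄dX K u = om1 * u) :
    ∃ A A2 B e P : K⟦X⟧, P = C ((i - 1) / (t1 * (1 + i))) * X - C ((t1 * (1 + i))⁻¹ ^ 2) * X ^ 2 ∧
      u = A ^ 2 ^ n * B ^ 2 ^ (n - 2) ∧ A * A2 = 1 ∧ Bd ‖t1‖ 1 A ∧ Bd ‖t1‖ 1 A2 ∧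
      Bd ‖t1‖ 1 B ∧ Bd ‖t1‖ 1 e ∧ Bd ‖t1‖ ‖(2 : K)‖⁻¹ P ∧
      B = 1 + C 4 * P + C 8 * P ^ 2 + e ∧ Bd ‖t1 * (1 + i)‖ (‖(2 : K)‖ ^ 4) e := by
  have h20 : (2 : K) ≠ 0 := two_ne_zero
  set l : ℝ := ‖(2 : K)‖ with hl
  have hl0 : 0 < l := norm_pos_iff.mpr h20
  have hll : l ^ (2 - 1) = ‖((2 : ℕ) : K)‖ := by rw [hl]; norm_num
  have hp2 := Nat.prime_two
  obtain ⟨hn1, hn2⟩ := norm_i hi
  have hi0 : 1 + i ≠ 0 := by
    intro h
    rw [h, norm_zero, zero_pow two_ne_zero] at hn2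
    exact hl0.ne hn2
  have hii0 : i ≠ 0 := by
    rintro rfl
    rw [zero_pow two_ne_zero] at hi
    exact one_ne_zero (neg_eq_zero.mp hi.symm)
  set c : K := t1 * (1 + i) with hc
  have hc0 : c ≠ 0 := mul_ne_zero ht1 hi0
  have ht1n : 0 < ‖t1‖ := norm_pos_iff.mpr ht1
  have hcn : ‖c‖ ^ 2 = ‖t1‖ ^ 2 * l := by rw [hc, norm_mul, mul_pow, hn2]
  have hc0n : 0 < ‖c‖ := norm_pos_iff.mpr hc0
  have h2n : (2 : K) ^ n ≠ 0 := pow_ne_zero _ h20
  set P : K⟦X⟧ := C ((i - 1) / c) * X - C (c⁻¹ ^ 2) * X ^ 2 with hP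
  have hPX : P = monomial 1 ((i - 1) / c) - monomial 2 (c⁻¹ ^ 2) := by
    rw [hP, monomial_eq_C_mul_X_pow, monomial_eq_C_mul_X_pow, pow_one]
  have hP0 : constantCoeff P = 0 := by
    rw [hP]; simp
  -- the primitive
  set E1 := om1 - C (a * t1) - C a * X with hE1
  set G := antid E1 with hG
  have hG0 : constantCoeff G = 0 := constantCoeff_antid E1
  have hGb : Bd ‖t1‖ (l ^ (n + 2)) G := by
    have h1 := antid_bd (K := K) hp2 hl0 h2 hll (r := ‖t1‖ / l) (div_pos ht1n hl0) hom1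
    have h3 : ‖t1‖ / l * l = ‖t1‖ := by field_simp
    rw [h3] at h1
    refine h1.mono (le_of_eq ?_)
    field_simp
  have hmain : d⁄dX K (C ((2 : K) ^ n) * P) = C (a * t1) + C a * X := by
    have e1 : (2 : K) ^ n * ((i - 1) / c) = a * t1 := by
      have h1 : (2 : K) ^ n * i = a * t1 ^ 2 := by rw [hat]; ring
      have h3 : (i - 1) * i * 1 = -(1 + i) := by linear_combination hi
      rw [hc]
      field_simp
      apply mul_left_cancel₀ hii0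
      linear_combination (i - 1) * h1 + a * t1 ^ 2 * (-1) * hi
    have e2 : (2 : K) ^ n * c⁻¹ ^ 2 * 2 = -a := by
      have h1 : (2 : K) ^ n * i = a * t1 ^ 2 := by rw [hat]; ring
      rw [hc]
      field_simp
      apply mul_left_cancel₀ hii0
      linear_combination 2 * h1 + a * t1 ^ 2 * (i + 2) * hi
    have hd : d⁄dX K P = C ((i - 1) / c) - C (c⁻¹ ^ 2) * (2 * X) := by
      rw [hP, map_sub, Derivation.leibniz, Derivation.leibniz, derivative_C, derivative_C,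
        derivative_X, derivative_pow, derivative_X]
      simp
    rw [Derivation.leibniz, derivative_C, smul_zero, add_zero, smul_eq_mul, hd, ← e1]
    have e3 : C a = -(C ((2 : K) ^ n * c⁻¹ ^ 2 * 2) : K⟦X⟧) := by rw [e2, map_neg, neg_neg]
    rw [e3]
    simp only [map_mul, map_pow, map_ofNat]
    ring
  have h2nP0 : constantCoeff (C ((2 : K) ^ n) * P) = 0 := by rw [map_mul, hP0, mul_zero]
  have huG : u = ex G * ex (C ((2 : K) ^ n) * P) := by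
    rw [← ex_add hG0 h2nP0]
    have h0 : constantCoeff (G + C ((2 : K) ^ n) * P) = 0 := by rw [map_add, hG0, h2nP0, add_zero]
    refine ode_unique (a := om1) hu ?_ ?_
    · rw [derivative_ex h0, map_add, hG, derivative_antid, hmain, hE1]; ring
    · rw [hu0, constantCoeff_ex h0]
  -- `A`
  have hN : (2 ^ n : ℕ) ≠ 0 := pow_ne_zero _ (by norm_num)
  set G' := C (((2 ^ n : ℕ) : K)⁻¹) * G with hG'
  have hG'0 : constantCoeff G' = 0 := by rw [hG', map_mul, hG0, mul_zero]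
  have hcast : (((2 ^ n : ℕ) : K)) = 2 ^ n := by push_cast; rfl
  have hG'b : Bd ‖t1‖ l G' := by
    have h1 := hGb.C_mul (((2 ^ n : ℕ) : K)⁻¹)
    refine h1.mono ?_
    rw [norm_inv, hcast, norm_pow, ← hl, pow_add]
    have h3 : (0 : ℝ) < l ^ n := pow_pos hl0 n
    calc (l ^ n)⁻¹ * (l ^ n * l ^ 2) = l * l := by field_simp
      _ ≤ l * 1 := by gcongr
      _ = l := mul_one l
  have hA : ex G = ex G' ^ 2 ^ n := ex_nat hG0 hN
  have hA1 : Bd ‖t1‖ 1 (ex G') := ex_bd_one hp2 hl0 h2 hll ht1n hG'0 hG'b le_rfl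
  have hG'0' : constantCoeff (-G') = 0 := by rw [map_neg, hG'0, neg_zero]
  have hA2 : Bd ‖t1‖ 1 (ex (-G')) := ex_bd_one hp2 hl0 h2 hll ht1n hG'0' hG'b.neg le_rfl
  -- `B`
  set F := C (4 : K) * P with hF
  have hF0 : constantCoeff F = 0 := by rw [hF, map_mul, hP0, mul_zero]
  have hB : ex (C ((2 : K) ^ n) * P) = ex F ^ 2 ^ (n - 2) := by
    have hN' : (2 ^ (n - 2) : ℕ) ≠ 0 := pow_ne_zero _ (by norm_num)
    rw [ex_nat h2nP0 hN']
    congr 2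
    rw [← mul_assoc, ← map_mul, hF]
    congr 2
    obtain ⟨m, rfl⟩ := Nat.exists_eq_add_of_le hn
    rw [Nat.add_sub_cancel_left]
    push_cast
    field_simp
    ring
  have hni : ‖i - 1‖ ≤ 1 := by nlinarith [norm_nonneg (i - 1)]
  have hPt : Bd ‖t1‖ l⁻¹ P := by
    rw [hPX]
    refine ((bd_monomial ht1n.le 1 _).mono ?_).sub ht1n.le ((bd_monomial ht1n.le 2 _).mono ?_)
    · rw [norm_div, pow_one]
      have h1 : ‖c‖ = ‖t1‖ * ‖1 + i‖ := by rw [hc, norm_mul]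
      have h3 : ‖i - 1‖ = ‖1 + i‖ := by
        have := hn1.trans hn2.symm
        exact (pow_left_inj₀ (norm_nonneg _) (norm_nonneg _) two_ne_zero).mp this
      have h4 : 0 < ‖1 + i‖ := norm_pos_iff.mpr hi0
      rw [h1, h3]
      have : ‖1 + i‖ / (‖t1‖ * ‖1 + i‖) * ‖t1‖ = 1 := by field_simp
      rw [this]
      exact (one_le_inv₀ hl0).mpr h2.le
    · rw [norm_pow, norm_inv, inv_pow, hcn]
      have : (‖t1‖ ^ 2 * l)⁻¹ * ‖t1‖ ^ 2 = l⁻¹ := by field_simp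
      rw [this]
  have hPc : Bd ‖c‖ 1 P := by
    rw [hPX]
    refine ((bd_monomial hc0n.le 1 _).mono ?_).sub hc0n.le ((bd_monomial hc0n.le 2 _).mono ?_)
    · rw [norm_div, pow_one, div_mul_cancel₀ _ hc0n.ne']
      exact hni
    · rw [norm_pow, norm_inv, inv_pow, inv_mul_cancel₀ (pow_ne_zero 2 hc0n.ne')]
  have h4n : ‖(4 : K)‖ = l ^ 2 := by
    have : (4 : K) = 2 ^ 2 := by norm_num
    rw [this, norm_pow]
  have h8n : ‖(8 : K)‖ = l ^ 3 := by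
    have : (8 : K) = 2 ^ 3 := by norm_num
    rw [this, norm_pow]
  have hFt : Bd ‖t1‖ l F := by
    refine (hPt.C_mul 4).mono (le_of_eq ?_)
    rw [h4n]; field_simp
  have hFc : Bd ‖c‖ (l ^ 2) F := by
    refine (hPc.C_mul 4).mono (le_of_eq ?_)
    rw [h4n, mul_one]
  have hB1 : Bd ‖t1‖ 1 (ex F) := ex_bd_one hp2 hl0 h2 hll ht1n hF0 hFt le_rfl
  have hF2 : C ((2 : K)⁻¹) * F ^ 2 = C 8 * P ^ 2 := by
    rw [hF, mul_pow, ← map_pow, ← mul_assoc, ← map_mul]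
    norm_num
  refine ⟨ex G', ex (-G'), ex F, ex F - 1 - F - C ((2 : K)⁻¹) * F ^ 2, P, rfl, ?_, ex_mul_neg hG'0,
    hA1, hA2, hB1, ?_, hPt, ?_, ?_⟩
  · rw [huG, hA, hB]
  · refine ((hB1.sub ht1n.le bd_one).sub ht1n.le (hFt.mono h2.le)).sub ht1n.le ?_
    rw [hF2]
    refine ((hPt.pow ht1n 2).C_mul 8).mono ?_
    rw [h8n]
    have : l ^ 3 * l⁻¹ ^ 2 = l := by field_simp
    rw [this]; exact h2.le
  · rw [hF2]; ring
  · have h1 := ex_bd2 (K := K) hp2 hl0 h2 hll hc0n hF0 hFc (by nlinarith : l ^ 2 ≤ l)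
    refine h1.mono (le_of_eq ?_)
    field_simp

end Crest.Agent.R013.HZ4b_610
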