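import Crest.Agent.R013.DLoc1_381
import Crest.Agent.R013.HZ4b_610

/-!
# R013 / HZ4c: the vertex at `p = 2` over small circles (helper610, task H-Z4)

* `z4S` : the vertex clause `{w ^ 2 + w - t, u ^ 2 + u - w ^ 3 - w}` of helper381's `Vtx`;
* `kas_z4` : `Kas 2 z4S (shift t1 om) R n (t1 (1 + i))` (helper381's `Kas`) for every form `om` with
  a simple zero at `0` and every small `t1` with `coeff 1 om * t1 ^ 2 = i * 2 ^ (n + 1)`.
-/

set_option autoImplicit false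
set_option linter.unusedSectionVars false

namespace Crest.Agent.R013.HZ4c_610

open PowerSeries Finset
open scoped NNReal
open Crest.Agent.R013.KAS1_940 Crest.Agent.R013.KAS2_940 Crest.Agent.R013.KAS3_940
open Crest.Agent.R013.Good1_940 Crest.Agent.R013.Good3_940 Crest.Agent.R013.DLoc1_381
open Crest.Agent.R013.LemD_323 (shift coeff_shift)

universe uE

/-- the vertex at `p = 2`: `w ^ 2 + w = t`, `u ^ 2 + u = w ^ 3 + w`. -/
noncomputable def z4S : Set (MvPolynomial (Option (Fin 2)) ℤ) :=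
  {MvPolynomial.X (some 0) ^ 2 + MvPolynomial.X (some 0) - MvPolynomial.X none,
   MvPolynomial.X (some 1) ^ 2 + MvPolynomial.X (some 1) -
    (MvPolynomial.X (some 0) ^ 3 + MvPolynomial.X (some 0))}

theorem vtx_z4S {L : Type*} [Field L] {w : Valuation L ℝ≥0} {z : Fin 2 → L} {t : L} :
    Vtx z4S w z t ↔ w (z 0) ≤ 1 ∧ w (z 1) ≤ 1 ∧ w (z 0 ^ 2 + z 0 - t) < 1 ∧
      w (z 1 ^ 2 + z 1 - (z 0 ^ 3 + z 0)) < 1 := by
  unfold Vtx z4S
  rw [Fin.forall_fin_two]
  simp only [Set.mem_insert_iff, Set.mem_singleton_iff, forall_eq_or_imp, forall_eq, map_sub,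
    map_add, map_pow, MvPolynomial.aeval_X, Option.elim]
  tauto

section Kas2

variable {K : Type*} [NormedField K] [IsUltrametricDist K] [CharZero K] [Algebra ℚ K]

theorem norm_c_lt (h2 : ‖(2 : K)‖ < 1) {i t1 : K} (hi : i ^ 2 = -1) (ht1 : t1 ≠ 0) :
    ‖t1 * (1 + i)‖ < ‖t1‖ := by
  have h3 := (HZ4b_610.norm_i hi).2
  have h4 : ‖1 + i‖ < 1 := by nlinarith [norm_nonneg (1 + i)]
  rw [norm_mul]
  have h5 : 0 < ‖t1‖ := norm_pos_iff.mpr ht1
  calc ‖t1‖ * ‖1 + i‖ < ‖t1‖ * 1 := by gcongr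
    _ = ‖t1‖ := mul_one _

theorem kas2 (h2 : ‖(2 : K)‖ < 1) {i t1 a : K} (hi : i ^ 2 = -1) {n : ℕ} (hn : 2 ≤ n)
    (ht1 : t1 ≠ 0) (hat : a * t1 ^ 2 = i * 2 ^ n)
    (hzeta : ∃ zeta : K, IsPrimitiveRoot zeta (2 ^ n))
    (hr1 : 0 < ‖t1‖) {om1 : K⟦X⟧}
    (hom1 : Bd (‖t1‖ / ‖(2 : K)‖) (‖(2 : K)‖ ^ (n + 2) / ‖t1‖) (om1 - C (a * t1) - C a * X))
    {u : K⟦X⟧} (hu0 : constantCoeff u = 1) (hu : d⁄dX K u = om1 * u) :
    ∃ hu' : u ∈ bsub (K := K) ‖t1‖ hr1, ∀ (L : Type uE) [Field L] (w : Valuation L ℝ≥0)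
      (iota : (bsub (K := K) ‖t1‖ hr1) →+* L), GaussPt ‖t1 * (1 + i)‖ ‖t1‖ hr1 L w iota →
      ∀ (y b : L), b ≠ 0 → y ^ 2 ^ n = iota ⟨u, hu'⟩ * b ^ 2 ^ n →
        ∃ z : Fin 2 → L, Vtx z4S w z (iota ⟨X, X_mem⟩ / iota ⟨C (t1 * (1 + i)), C_mem _⟩) := by
  obtain ⟨A, A2, B, e, P, hP, huAB, hAA2, hA1, hA2, hB1, he1, hPb, hBe, he⟩ :=
    HZ4b_610.formal h2 hi hn ht1 hat hom1 hu0 hu
  have h20 : (2 : K) ≠ 0 := two_ne_zero
  have hl0 : 0 < ‖(2 : K)‖ := norm_pos_iff.mpr h20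
  have huB : Bd ‖t1‖ (1 ^ 2 ^ n * 1 ^ 2 ^ (n - 2)) u := by
    rw [huAB]; exact (hA1.pow hr1 _).mul hr1 (hB1.pow hr1 _)
  refine ⟨mem_bsub huB, ?_⟩
  intro L _ w iota hG y b hb hy
  set c : K := t1 * (1 + i) with hc
  obtain ⟨hn1, hn2⟩ := HZ4b_610.norm_i hi
  have hi0 : 1 + i ≠ 0 := by
    intro h
    rw [h, norm_zero, zero_pow two_ne_zero] at hn2
    exact hl0.ne hn2
  have hc0 : c ≠ 0 := mul_ne_zero ht1 hi0
  have hc0n : 0 < ‖c‖ := norm_pos_iff.mpr hc0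
  set A' : bsub (K := K) ‖t1‖ hr1 := ⟨A, mem_bsub hA1⟩ with hA'
  set B' : bsub (K := K) ‖t1‖ hr1 := ⟨B, mem_bsub hB1⟩ with hB'
  set e' : bsub (K := K) ‖t1‖ hr1 := ⟨e, mem_bsub he1⟩ with he'
  set P' : bsub (K := K) ‖t1‖ hr1 := ⟨P, mem_bsub hPb⟩ with hP'
  set X' : bsub (K := K) ‖t1‖ hr1 := ⟨X, X_mem⟩ with hX'
  have hC : ∀ a : K, (C a : K⟦X⟧) ∈ bsub ‖t1‖ hr1 := fun a => C_mem a
  let phi : K →+* L := iota.comp ((C (R := K)).codRestrict (bsub ‖t1‖ hr1) hC)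
  have hphi : ∀ a : K, iota ⟨C a, C_mem a⟩ = phi a := fun a => rfl
  have hwphi : ∀ a : K, (w (phi a) : ℝ) = ‖a‖ := fun a => hG.w_C a
  have hphi0 : ∀ a : K, a ≠ 0 → phi a ≠ 0 := fun a ha => (map_ne_zero phi).mpr ha
  rw [hphi]
  have hu1 : iota ⟨u, mem_bsub huB⟩ = iota A' ^ 2 ^ n * iota B' ^ 2 ^ (n - 2) := by
    rw [← map_pow, ← map_pow, ← map_mul]
    congr 1
    exact Subtype.ext huAB
  set Y : L := iota X' / phi c with hY
  have hPY : iota P' = (phi i - 1) * Y - Y ^ 2 := by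
    have h1 : (P' : bsub (K := K) ‖t1‖ hr1) =
        ((C (R := K)).codRestrict (bsub ‖t1‖ hr1) hC) ((i - 1) / c) * X' -
        ((C (R := K)).codRestrict (bsub ‖t1‖ hr1) hC) (c⁻¹ ^ 2) * X' ^ 2 := by
      apply Subtype.ext
      rw [hP']
      exact hP
    rw [h1, map_sub, map_mul iota, map_mul iota, map_pow iota X']
    show phi ((i - 1) / c) * iota X' - phi (c⁻¹ ^ 2) * iota X' ^ 2 = _
    rw [map_div₀, map_sub, map_one, map_pow, map_inv₀, hY]
    have := hphi0 c hc0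
    field_simp
  have hBY : iota B' = 1 + 4 * iota P' + 8 * iota P' ^ 2 + iota e' := by
    have h1 : (B' : bsub (K := K) ‖t1‖ hr1) =
        1 + ((C (R := K)).codRestrict (bsub ‖t1‖ hr1) hC) 4 * P' +
        ((C (R := K)).codRestrict (bsub ‖t1‖ hr1) hC) 8 * P' ^ 2 + e' := by
      apply Subtype.ext
      exact hBe
    rw [h1, map_add, map_add, map_add, map_one, map_mul, map_mul, map_pow]
    show 1 + phi 4 * iota P' + phi 8 * iota P' ^ 2 + iota e' = _
    rw [map_ofNat, map_ofNat]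
  have hw2 : w (2 : L) < 1 := by
    have h3 : (2 : L) = phi (2 : K) := (map_ofNat phi 2).symm
    rw [h3, ← NNReal.coe_lt_coe, hwphi]
    exact_mod_cast h2
  have h2L : (2 : L) ≠ 0 := by
    have h3 : (2 : L) = phi (2 : K) := (map_ofNat phi 2).symm
    rw [h3]; exact hphi0 2 h20
  have hX1 : (w (iota X') : ℝ) ≤ ‖c‖ := by
    refine hG.le_of_bd X' ‖c‖ ?_
    have := bd_monomial (K := K) (norm_nonneg c) 1 1
    rw [norm_one, one_mul, pow_one, ← X_eq] at this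
    exact this
  have hwY : w Y ≤ 1 := by
    rw [hY, map_div₀, ← NNReal.coe_le_coe, NNReal.coe_div, hwphi, NNReal.coe_one]
    exact (div_le_one hc0n).mpr hX1
  have hwe : w (iota e') < w (8 : L) := by
    have h3 : (8 : L) = phi (8 : K) := (map_ofNat phi 8).symm
    rw [h3, ← NNReal.coe_lt_coe, hwphi]
    refine (hG.le_of_bd e' (‖(2 : K)‖ ^ 4) he).trans_lt ?_
    have h4 : (8 : K) = 2 ^ 3 := by norm_num
    rw [h4, norm_pow]
    exact pow_lt_pow_right_of_lt_one₀ hl0 h2 (by norm_num)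
  have hA0' : iota A' ≠ 0 := by
    intro h
    have h1 : A' * ⟨A2, mem_bsub hA2⟩ = 1 := Subtype.ext hAA2
    have h3 := congrArg iota h1
    rw [map_mul, h, zero_mul, map_one] at h3
    exact zero_ne_one h3
  have hiL : phi i ^ 2 = -1 := by rw [← map_pow, hi, map_neg, map_one]
  have hwi : w (phi i) ≤ 1 := (HZ4a_610.pi_lt hw2 hiL).1
  have hB0' : iota B' ≠ 0 := by
    have hwP : w (iota P') ≤ 1 := by
      rw [hPY]
      refine (w.map_sub _ _).trans (max_le ?_ ?_)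
      · exact HZ4a_610.mul_le_one' w ((w.map_sub _ _).trans (max_le hwi (by rw [map_one]))) hwY
      · rw [map_pow]; exact pow_le_one' hwY _
    have h4 : w (4 : L) < 1 := by
      have : (4 : L) = 2 * 2 := by norm_num
      rw [this]; exact HZ4a_610.mul_lt_one_of_lt_of_le w hw2 hw2.le
    have h8 : w (8 : L) < 1 := by
      have : (8 : L) = 4 * 2 := by norm_num
      rw [this]; exact HZ4a_610.mul_lt_one_of_lt_of_le w h4 hw2.le
    have h5 : w (iota B' - 1) < 1 := by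
      have : iota B' - 1 = 4 * iota P' + 8 * iota P' ^ 2 + iota e' := by rw [hBY]; ring
      rw [this]
      refine w.map_add_lt (w.map_add_lt ?_ ?_) (hwe.trans h8)
      · exact HZ4a_610.mul_lt_one_of_lt_of_le w h4 hwP
      · refine HZ4a_610.mul_lt_one_of_lt_of_le w h8 ?_
        rw [map_pow]; exact pow_le_one' hwP _
    intro h
    rw [h, zero_sub, Valuation.map_neg, map_one] at h5
    exact lt_irrefl _ h5
  -- the root
  have hAb : iota A' * b ≠ 0 := mul_ne_zero hA0' hb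
  have hy' : y ^ 2 ^ n = (iota A' * b) ^ 2 ^ n * iota B' ^ 2 ^ (n - 2) := by
    rw [hy, hu1, mul_pow]; ring
  have hroot : ∃ ξ : L, ξ ≠ 0 ∧ (y / (iota A' * b * ξ)) ^ 4 = iota B' := by
    obtain ⟨m, rfl⟩ := Nat.exists_eq_add_of_le hn
    rw [Nat.add_sub_cancel_left] at hy'
    have e1 : ((y / (iota A' * b)) ^ 4 / iota B') ^ 2 ^ m = 1 := by
      rw [div_pow, ← pow_mul, div_pow]
      have : 4 * 2 ^ m = 2 ^ (2 + m) := by rw [pow_add]; norm_num
      rw [this, hy']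
      have h3 : (iota A' * b) ^ 2 ^ (2 + m) ≠ 0 := pow_ne_zero _ hAb
      have h4 : iota B' ^ 2 ^ m ≠ 0 := pow_ne_zero _ hB0'
      field_simp
    obtain ⟨zeta, hzeta⟩ := hzeta
    have hz : IsPrimitiveRoot (phi zeta) (2 ^ (2 + m)) := hzeta.map_of_injective phi.injective
    have hz1 : IsPrimitiveRoot (phi zeta ^ 4) (2 ^ m) :=
      hz.pow (by positivity) (by rw [pow_add]; norm_num)
    have : NeZero (2 ^ m) := ⟨by positivity⟩
    obtain ⟨k, _, hk⟩ := hz1.eq_pow_of_pow_eq_one e1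
    have hξ : ((phi zeta) ^ k) ^ 4 = (y / (iota A' * b)) ^ 4 / iota B' := by
      rw [← hk, ← pow_mul, ← pow_mul, mul_comm]
    have hz0 : phi zeta ≠ 0 := hz.ne_zero (by positivity)
    refine ⟨phi zeta ^ k, pow_ne_zero _ hz0, ?_⟩
    have hy0 : y ≠ 0 := by
      rintro rfl
      rw [zero_pow (by positivity)] at hy'
      exact mul_ne_zero (pow_ne_zero _ hAb) (pow_ne_zero _ hB0') hy'.symm
    have h5 : (y / (iota A' * b)) ^ 4 ≠ 0 := pow_ne_zero _ (div_ne_zero hy0 hAb)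
    rw [← div_div, div_pow, hξ]
    field_simp
  obtain ⟨ξ, hξ0, hξ⟩ := hroot
  set y' : L := y / (iota A' * b * ξ) with hy'def
  have hy4 : y' ^ 4 = 1 + 4 * iota P' + 8 * iota P' ^ 2 + iota e' := by rw [hξ, hBY]
  have H := HZ4a_610.z4base (w := w) hw2 h2L hiL hwY hPY hwe hy4 rfl rfl
  exact ⟨![_, _], vtx_z4S.mpr H⟩

end Kas2

section Shift

variable {k : Type*} [NontriviallyNormedField k] [IsUltrametricDist k] [CompleteSpace k]

omit [IsUltrametricDist k] [CompleteSpace k] in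
theorem shift_monomial_one (s a : k) : shift s (monomial 1 a) = C (a * s) + C a * X := by
  ext l
  rw [coeff_shift]
  rcases l with _ | _ | l
  · rw [tsum_eq_single 1]
    · simp
    · intro m hm
      simp [coeff_monomial, hm]
  · rw [tsum_eq_single 0]
    · simp [coeff_C]
    · intro m hm
      have : m + 1 ≠ 1 := by omega
      simp [coeff_monomial, hm]
  · have h1 : ∀ n : ℕ, coeff (n + (l + 1 + 1)) (monomial 1 a) = 0 := by
      intro n
      rw [coeff_monomial, if_neg (by omega)]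
    simp only [h1, zero_mul, mul_zero, tsum_zero]
    rw [map_add, coeff_C, if_neg (by omega), zero_add, coeff_C_mul, coeff_X, if_neg (by omega),
      mul_zero]

/-- **H-Z4, the circle-level input at `p = 2`** for a simple zero at `0`. -/
theorem kas_z4 [CharZero k] [Algebra ℚ k] (h2 : ‖(2 : k)‖ < 1) {i : k} (hi : i ^ 2 = -1)
    {om : k⟦X⟧} {R D : ℝ} (hR : 0 < R) (hom : Bd R D om) (h0 : coeff 0 om = 0)
    (h1 : coeff 1 om ≠ 0) :
    ∃ rs : ℝ, 0 < rs ∧ ∀ (n : ℕ) (t1 : k), t1 ≠ 0 → ‖t1‖ < rs →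
      coeff 1 om * t1 ^ 2 = i * 2 ^ (n + 1) →
      (∃ zeta : k, IsPrimitiveRoot zeta (2 ^ (n + 1))) →
      Kas.{uE} 2 z4S (shift t1 om) R n (t1 * (1 + i)) := by
  have h20 : (2 : k) ≠ 0 := two_ne_zero
  set l : ℝ := ‖(2 : k)‖ with hl
  have hl0 : 0 < l := norm_pos_iff.mpr h20
  have hD := hom.nonneg
  set a := coeff 1 om with ha
  have ha0 : 0 < ‖a‖ := norm_pos_iff.mpr h1
  -- the radius
  obtain ⟨rs, hrs0, hrs1, hrs2, hrs3⟩ : ∃ rs : ℝ, 0 < rs ∧ rs ≤ l ^ 2 * R ∧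
      rs ≤ ‖a‖ * l ^ 4 * R ^ 2 / (D + 1) ∧ rs ≤ l / (‖a‖ + 1) :=
    ⟨min (min (l ^ 2 * R) (‖a‖ * l ^ 4 * R ^ 2 / (D + 1))) (l / (‖a‖ + 1)),
      lt_min (lt_min (by positivity) (by positivity)) (by positivity),
      (min_le_left _ _).trans (min_le_left _ _), (min_le_left _ _).trans (min_le_right _ _),
      min_le_right _ _⟩
  refine ⟨rs, hrs0, fun n t1 ht1 htrs hat hzeta => ?_⟩
  have ht : 0 < ‖t1‖ := norm_pos_iff.mpr ht1
  set t : ℝ := ‖t1‖ with htdef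
  have hi1 : ‖i‖ = 1 := by
    have : ‖i‖ ^ 2 = 1 := by rw [← norm_pow, hi, norm_neg, norm_one]
    nlinarith [norm_nonneg i, sq_nonneg (‖i‖ - 1)]
  have hatn : ‖a‖ * t ^ 2 = l ^ (n + 1) := by
    have := congrArg norm hat
    rwa [norm_mul, norm_pow, norm_mul, norm_pow, hi1, one_mul] at this
  have ht3 : t * (‖a‖ + 1) < l := by
    have := htrs.trans_le hrs3
    rwa [lt_div_iff₀ (by positivity)] at this
  have hn : 1 ≤ n := by
    by_contra hcon
    have hn0 : n = 0 := by omega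
    subst hn0
    rw [zero_add, pow_one] at hatn
    have h3 : t < 1 := by nlinarith
    nlinarith
  have htl : t < t / l := by
    rw [lt_div_iff₀ hl0]
    calc t * l < t * 1 := by gcongr
      _ = t := mul_one t
  have htR : t < l ^ 2 * R := htrs.trans_le hrs1
  have htlR : t / l ≤ R := by
    rw [div_le_iff₀ hl0]
    calc t ≤ l ^ 2 * R := htR.le
      _ = l * (l * R) := by ring
      _ ≤ 1 * (l * R) := by gcongr
      _ = R * l := by ring
  have htR' : t < R := htl.trans_le htlR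
  refine ⟨t, ht, norm_c_lt h2 hi ht1, fun eta heta u hu0 hu => ?_⟩
  rw [Nat.cast_ofNat] at heta
  have htail0 : ∀ s : ℝ, 0 < s → s ≤ R →
      Bd s (D / R ^ (1 + 1) * s ^ (1 + 1)) (om - monomial 1 a) := fun s hs hsR =>
    tail_bd hR hom (k := 1) (fun m hm => by rw [Nat.lt_one_iff.mp hm]; exact h0) hs hsR
  have hsh : shift t1 om = C (a * t1) + C a * X + shift t1 (om - monomial 1 a) := by
    have e1 : om = monomial 1 a + (om - monomial 1 a) := by ring
    conv_lhs => rw [e1]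
    rw [shift_add hR (bd_monomial hR.le 1 a) (htail0 R hR le_rfl) htR', shift_monomial_one]
  have hom1 : Bd (t / l) (l ^ (n + 1 + 2) / t) (shift t1 om + eta - C (a * t1) - C a * X) := by
    have e1 : shift t1 om + eta - C (a * t1) - C a * X = shift t1 (om - monomial 1 a) + eta := by
      rw [hsh]; ring
    rw [e1]
    refine Bd.add (by positivity) ?_ ?_
    · refine (bd_shift' (htail0 (t / l) (by positivity) htlR) htl).mono ?_
      have h4 : t * (D + 1) < ‖a‖ * l ^ 4 * R ^ 2 := by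
        have := htrs.trans_le hrs2
        rwa [lt_div_iff₀ (by positivity)] at this
      have h5 : D * t ≤ ‖a‖ * l ^ 4 * R ^ 2 := by nlinarith
      have h6 : l ^ (n + 1 + 2) / t = ‖a‖ * t * l ^ 2 := by
        rw [pow_add, ← hatn]; field_simp
      rw [h6]
      calc D / R ^ (1 + 1) * (t / l) ^ (1 + 1) = (D * t) * t / (R ^ 2 * l ^ 2) := by
            rw [div_pow]; norm_num; field_simp
        _ ≤ (‖a‖ * l ^ 4 * R ^ 2) * t / (R ^ 2 * l ^ 2) := by gcongr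
        _ = ‖a‖ * t * l ^ 2 := by field_simp
    · refine (heta.mono_left (by positivity) htlR).mono ?_
      rw [div_le_div_iff₀ hR ht]
      calc l ^ (n + 1) * t ≤ l ^ (n + 1) * (l ^ 2 * R) := by gcongr
        _ = l ^ (n + 1 + 2) * R := by ring
  obtain ⟨hu', H⟩ := kas2 h2 hi (n := n + 1) (by omega) ht1 hat hzeta ht hom1 hu0 hu
  exact ⟨hu', H⟩

end Shift

end Crest.Agent.R013.HZ4c_610
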