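import Crest.Agent.R013.DLoc3_381
import Crest.Agent.R013.HZ4c_610
import Crest.Agent.R013.GoodP_797

/-!
# R013 / D-LINE, leaf D-LOC, part C: existence of vertices   (helper381)

`F` complete, algebraically closed, `‖p‖ < 1`.
* `GoodS p S` : the vertex clause `S` implies 797's `VertexEq p`;
* `exists_kas_order` : `om` of exact order `i` at `q`, `i + 1 = p ^ j * m` ⟹ circles `(q, ‖c‖)`, `c → 0`,
  with `Kas p (asS p m)`;
* `exists_kas_simple` : `om` with a simple zero at `q` (any `p`, `p = 2` by helper610) ⟹ a clause `S`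
  with `GoodS p S` and circles `(q', ‖c‖)`, `q' → q`, `c → 0`, with `Kas p S`.
-/

set_option autoImplicit false
set_option linter.unusedSectionVars false

namespace Crest.Agent.R013.DLoc4_381

open PowerSeries Filter
open scoped NNReal Topology
open Crest.Agent.R013.KAS2_940 (Bd bd_zero)
open Crest.Agent.R013.KAS2_940
open Crest.Agent.R013.KAS3_940 Crest.Agent.R013.Good1_940 Crest.Agent.R013.Gl946
open Crest.Agent.R013.Good3_940
open Crest.Agent.R013.LemD_323 (shift)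
open Crest.Agent.R013.DLoc1_381 Crest.Agent.R013.DLoc2_381 Crest.Agent.R013.DLoc3_381
open Crest.Agent.R013.GoodP_797 Crest.Agent.R013.HZ4c_610

universe u uF

/-- the clause `S` gives `VertexEq` -/
def GoodS (p : ℕ) {r : ℕ} (S : Set (MvPolynomial (Option (Fin r)) ℤ)) : Prop :=
  ∀ (Ω : Type u) [Field Ω] (v : Valuation Ω ℝ≥0) (z : Fin r → Ω) (t : Ω) (T : Set Ω),
    (∀ i, z i ∈ T) → Vtx S v z t → VertexEq p v T t

theorem goodS_as {p m : ℕ} (hm : 2 ≤ m) (hpm : ¬ p ∣ m) : GoodS.{u} p (asS p m) := by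
  intro Ω _ v z t T hT h
  obtain ⟨h1, h2⟩ := vtx_asS.mp h
  exact Or.inl ⟨z 0, hT 0, m, hm, hpm, h1, h2⟩

theorem goodS_z4 : GoodS.{u} 2 z4S := by
  intro Ω _ v z t T hT h
  obtain ⟨h1, h2, h3, h4⟩ := vtx_z4S.mp h
  exact Or.inr ⟨rfl, z 0, hT 0, z 1, hT 1, h1, h2, h3, h4⟩

variable {F : Type uF} [NontriviallyNormedField F] [IsUltrametricDist F] [CompleteSpace F]
  [CharZero F] [Algebra ℚ F] [IsAlgClosed F]

theorem exists_lam {p : ℕ} (hp : p.Prime) (hpn : ‖(p : F)‖ < 1) :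
    ∃ lam : F, lam ^ (p - 1) = -(p : F) ∧ ‖lam‖ < 1 ∧ lam ≠ 0 := by
  have hp1 : 0 < p - 1 := by have := hp.two_le; omega
  obtain ⟨lam, hlam⟩ := IsAlgClosed.exists_pow_nat_eq (-(p : F)) hp1
  have hp0 : (p : F) ≠ 0 := Nat.cast_ne_zero.mpr hp.ne_zero
  refine ⟨lam, hlam, ?_, ?_⟩
  · have h1 : ‖lam‖ ^ (p - 1) < 1 := by
      rw [← norm_pow, hlam, norm_neg]; exact hpn
    by_contra hcon
    push Not at hcon
    exact absurd h1 (not_lt.mpr (one_le_pow₀ hcon))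
  · rintro rfl
    rw [zero_pow hp1.ne'] at hlam
    exact hp0 (neg_eq_zero.mp hlam.symm)

theorem exists_root_small {p : ℕ} (hp : p.Prime) (hpn : ‖(p : F)‖ < 1) {a : F} (d : ℕ)
    (hd : 0 < d) {ε : ℝ} (hε : 0 < ε) (ha : a ≠ 0) :
    ∃ (n : ℕ) (c : F), c ≠ 0 ∧ ‖c‖ < ε ∧ c ^ d = (p : F) ^ n * a := by
  have hp0 : (p : F) ≠ 0 := Nat.cast_ne_zero.mpr hp.ne_zero
  have hA0 : 0 < ‖a‖ := norm_pos_iff.mpr ha
  obtain ⟨n, hn⟩ := exists_pow_lt_of_lt_one (show 0 < ε ^ d / ‖a‖ by positivity) hpn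
  obtain ⟨c, hc⟩ := IsAlgClosed.exists_pow_nat_eq ((p : F) ^ n * a) hd
  refine ⟨n, c, ?_, ?_, hc⟩
  · rintro rfl
    rw [zero_pow hd.ne'] at hc
    exact mul_ne_zero (pow_ne_zero _ hp0) ha hc.symm
  · have h1 : ‖c‖ ^ d < ε ^ d := by
      rw [← norm_pow, hc, norm_mul, norm_pow]
      rwa [lt_div_iff₀ hA0] at hn
    exact lt_of_pow_lt_pow_left₀ _ hε.le h1

theorem exists_zeta (p : ℕ) (hp : p.Prime) (n : ℕ) : ∃ zeta : F, IsPrimitiveRoot zeta (p ^ n) := by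
  have : NeZero ((p ^ n : ℕ) : F) :=
    ⟨by exact_mod_cast pow_ne_zero _ (Nat.cast_ne_zero.mpr hp.ne_zero : (p : F) ≠ 0)⟩
  exact HasEnoughRootsOfUnity.exists_primitiveRoot F (p ^ n)

/-- **exact order `i` at `q`** -/
theorem exists_kas_order {p : ℕ} (hp : p.Prime) (hpn : ‖(p : F)‖ < 1) {om : F⟦X⟧} {R D : ℝ}
    (hR : 0 < R) (hom : Bd R D om) {q : F} (hq : ‖q‖ < R) {i : ℕ}
    (h0 : ∀ l < i, coeff l (shift q om) = 0) (hi : coeff i (shift q om) ≠ 0) {j m : ℕ}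
    (hjm : i + 1 = p ^ j * m) {ε : ℝ} (hε : 0 < ε) :
    ∃ (n : ℕ) (c : F), c ≠ 0 ∧ ‖c‖ < ε ∧ Kas.{uF} p (asS p m) (shift q om) R n c := by
  obtain ⟨lam, hlam, hlam1, hlam0⟩ := exists_lam hp hpn
  obtain ⟨rs, hrs, H⟩ := kas_of_order.{uF} hp hlam hlam1 hR (bd_shift' hom hq) h0 hi hjm
  have hi1 : ((i + 1 : ℕ) : F) ≠ 0 := Nat.cast_ne_zero.mpr (Nat.succ_ne_zero i)
  obtain ⟨n, c, hc0, hc, hcn⟩ := exists_root_small hp hpn
    (a := lam ^ p * ((i + 1 : ℕ) : F) / coeff i (shift q om)) (i + 1) (Nat.succ_pos i)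
    (lt_min hε hrs) (div_ne_zero (mul_ne_zero (pow_ne_zero _ hlam0) hi1) hi)
  refine ⟨n, c, hc0, hc.trans_le (min_le_left _ _), H n c hc0 (hc.trans_le (min_le_right _ _)) ?_
    (exists_zeta p hp (n + 1))⟩
  rw [hcn]
  field_simp

/-- **simple zero at `q`**, all `p` -/
theorem exists_kas_simple {p : ℕ} (hp : p.Prime) (hpn : ‖(p : F)‖ < 1) {om : F⟦X⟧} {R D : ℝ}
    (hR : 0 < R) (hom : Bd R D om) {q : F} (hq : ‖q‖ < R)
    (h0 : coeff 0 (shift q om) = 0) (h1 : coeff 1 (shift q om) ≠ 0) :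
    ∃ (r : ℕ) (S : Set (MvPolynomial (Option (Fin r)) ℤ)), GoodS.{u} p S ∧
      ∀ ε : ℝ, 0 < ε → ∃ (n : ℕ) (q' c : F), ‖q' - q‖ < ε ∧ c ≠ 0 ∧ ‖c‖ < ε ∧
        Kas.{uF} p S (shift q' om) R n c := by
  rcases eq_or_ne p 2 with rfl | hp2
  · refine ⟨2, z4S, goodS_z4, fun ε hε => ?_⟩
    obtain ⟨i, hi⟩ := IsAlgClosed.exists_pow_nat_eq (-1 : F) (n := 2) two_pos
    have h2 : ‖(2 : F)‖ < 1 := by simpa using hpn
    have hi0 : i ≠ 0 := by
      rintro rfl
      rw [zero_pow two_ne_zero] at hi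
      exact neg_ne_zero.mpr one_ne_zero hi.symm
    obtain ⟨rs, hrs, H⟩ := kas_z4.{_, uF} h2 hi hR (bd_shift' hom hq) h0 h1
    obtain ⟨n, t1, ht0, ht, htn⟩ := exists_root_small (p := 2) hp hpn
      (a := i * 2 / coeff 1 (shift q om)) 2 two_pos (lt_min (lt_min hε hrs) hR)
      (div_ne_zero (mul_ne_zero hi0 two_ne_zero) h1)
    have hte : ‖t1‖ < ε := ht.trans_le ((min_le_left _ _).trans (min_le_left _ _))
    have htrs : ‖t1‖ < rs := ht.trans_le ((min_le_left _ _).trans (min_le_right _ _))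
    have htR : ‖t1‖ < R := ht.trans_le (min_le_right _ _)
    have hin : ‖i‖ = 1 := by
      have h3 : ‖i‖ ^ 2 = 1 := by rw [← norm_pow, hi, norm_neg, norm_one]
      exact (pow_eq_one_iff_of_nonneg (norm_nonneg _) two_ne_zero).mp h3
    have h1i : ‖1 + i‖ ≤ 1 := by
      refine (IsUltrametricDist.norm_add_le_max _ _).trans (max_le ?_ ?_)
      · rw [norm_one]
      · rw [hin]
    have h1i0 : 1 + i ≠ 0 := by
      intro h3
      have h4 : i = -1 := by linear_combination h3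
      rw [h4] at hi
      norm_num at hi
    refine ⟨n, q + t1, t1 * (1 + i), ?_, mul_ne_zero ht0 h1i0, ?_, ?_⟩
    · rw [add_sub_cancel_left]; exact hte
    · rw [norm_mul]
      exact (mul_le_of_le_one_right (norm_nonneg _) h1i).trans_lt hte
    · have h3 := H n t1 ht0 htrs (by
        rw [htn]
        push_cast
        field_simp
        ring) (exists_zeta 2 hp (n + 1))
      have h4 : shift t1 (shift q om) = shift (q + t1) om := by
        refine eq_of_ev hR (bd_shift' (bd_shift' hom hq) htR) (bd_shift' hom (norm_add_lt' hq htR))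
          fun t ht' => ?_
        rw [LemD_323.ev_shift (toBd (bd_shift' hom hq)) htR ht',
          LemD_323.ev_shift (toBd hom) hq (norm_add_lt' htR ht'),
          LemD_323.ev_shift (toBd hom) (norm_add_lt' hq htR) ht', add_assoc]
      rwa [h4] at h3
  · refine ⟨1, asS p 2, goodS_as le_rfl ?_, fun ε hε => ?_⟩
    · intro h
      exact hp2 ((Nat.prime_dvd_prime_iff_eq hp Nat.prime_two).mp h)
    · obtain ⟨n, c, hc0, hc, hK⟩ := exists_kas_order hp hpn hR hom hq (i := 1)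
        (fun l hl => by
          have : l = 0 := by omega
          rw [this]; exact h0) h1 (j := 0) (m := 2) (by norm_num) hε
      exact ⟨n, q, c, by rw [sub_self, norm_zero]; exact hε, hc0, hc, hK⟩

end Crest.Agent.R013.DLoc4_381
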