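import Crest.Agent.R013.LemD4_323
import Crest.Agent.R013.DLoc4_381

/-!
# R013 / D-LINE, leaf D-ST2, part (E-a)  (helper610)

`F` complete, algebraically closed, ultrametric, of characteristic zero.
* `dense_alg` : the numbers algebraic over `ℚ` are dense in `F`, if the image of an algebraic extension
  of `ℚ_p` (with its norm on `ℚ_p`) is dense in `F` (continuity of roots);
* `ev_deriv`, `hasStrictDerivAt_ev` : the strict derivative of the evaluation of a power series;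
* `exists_point` : near `0` there are `q` and `s0 = φ(q)` algebraic over `ℚ`, `φ'(q) ≠ 0`.
-/

set_option autoImplicit false
set_option linter.unusedSectionVars false

namespace Crest.Agent.R013.DE2a_610

open PowerSeries Filter
open scoped NNReal Topology
open Crest.Agent.R013.KAS2_940 (Bd)
open Crest.Agent.R013.LemD_323 (ev shift coeff_shift)

section dense

variable {F : Type*} [NontriviallyNormedField F] [IsUltrametricDist F]
  [CharZero F] [Algebra ℚ F] [IsAlgClosed F]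

omit [IsUltrametricDist F] [CharZero F] [Algebra ℚ F] in
/-- a root close to an approximate root -/
theorem exists_root_near {g : Polynomial F} (hg : g.Monic) {a : F} {ε : ℝ} (hε : 0 ≤ ε)
    (h : ‖g.eval a‖ < ε ^ g.natDegree) : ∃ b, g.IsRoot b ∧ ‖a - b‖ < ε := by
  by_contra hcon
  push Not at hcon
  have hs : g.Splits := IsAlgClosed.splits g
  have h1 : g.eval a = (g.roots.map fun b => a - b).prod := by
    conv_lhs => rw [hs.eq_prod_roots_of_monic hg]
    rw [Polynomial.eval_multiset_prod, Multiset.map_map]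
    congr 1
    refine Multiset.map_congr rfl fun b _ => ?_
    simp
  have h2 : ∀ s : Multiset F, (∀ b ∈ s, ε ≤ ‖a - b‖) →
      ε ^ Multiset.card s ≤ ‖(s.map fun b => a - b).prod‖ := by
    intro s
    induction s using Multiset.induction_on with
    | empty => intro _; simp
    | cons b s ih =>
      intro hb
      rw [Multiset.card_cons, Multiset.map_cons, Multiset.prod_cons, norm_mul, pow_succ, mul_comm]
      exact mul_le_mul (hb b (Multiset.mem_cons_self _ _))
        (ih fun c hc => hb c (Multiset.mem_cons_of_mem hc)) (pow_nonneg hε _) (norm_nonneg _)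
  have h3 := h2 g.roots fun b hb => hcon b (Polynomial.isRoot_of_mem_roots hb)
  rw [← h1, ← hs.natDegree_eq_card_roots] at h3
  exact absurd h (not_lt.mpr h3)

/-- **the algebraic numbers are dense in `F`** -/
theorem dense_alg {p : ℕ} [Fact p.Prime] {A : Type*} [Field A] [Algebra ℚ_[p] A]
    [Algebra.IsAlgebraic ℚ_[p] A] {jC : A →+* F} (hjd : DenseRange jC)
    (hn : ∀ a : ℚ_[p], ‖jC (algebraMap ℚ_[p] A a)‖ = ‖a‖) (x : F) {ε : ℝ} (hε : 0 < ε) :
    ∃ y : F, IsAlgebraic ℚ y ∧ ‖x - y‖ < ε := by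
  obtain ⟨a, ha⟩ : ∃ a, ‖x - jC a‖ < ε := by
    obtain ⟨a, ha⟩ := hjd.exists_dist_lt x hε
    exact ⟨a, by rwa [dist_eq_norm] at ha⟩
  set f := minpoly ℚ_[p] a with hf
  have hint : IsIntegral ℚ_[p] a := Algebra.IsIntegral.isIntegral a
  have hfm : f.Monic := minpoly.monic hint
  set n := f.natDegree with hnn
  have hn0 : 0 < n := minpoly.natDegree_pos hint
  set j : ℚ_[p] →+* F := jC.comp (algebraMap ℚ_[p] A) with hj
  have hfa : f.eval₂ j (jC a) = 0 := by
    rw [hj, ← Polynomial.hom_eval₂, ← Polynomial.aeval_def, minpoly.aeval, map_zero]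
  set B : ℝ := max 1 ‖jC a‖ with hB
  have hB1 : 1 ≤ B := le_max_left _ _
  have hB0 : 0 < B := lt_of_lt_of_le one_pos hB1
  have hη : 0 < ε ^ n / B ^ n := by positivity
  have hq : ∀ i, ∃ q : ℚ, ‖f.coeff i - (q : ℚ_[p])‖ < ε ^ n / B ^ n :=
    fun i => Padic.rat_dense p (f.coeff i) hη
  choose q hq using hq
  set g : Polynomial ℚ := Polynomial.X ^ n + ∑ i ∈ Finset.range n, Polynomial.C (q i) * Polynomial.X ^ i
    with hg
  have hdeg : (∑ i ∈ Finset.range n, Polynomial.C (q i) * Polynomial.X ^ i).degree < (n : WithBot ℕ) := by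
    refine (Polynomial.degree_sum_le _ _).trans_lt ?_
    rw [Finset.sup_lt_iff (by exact_mod_cast WithBot.bot_lt_coe n)]
    intro i hi
    refine (Polynomial.degree_C_mul_X_pow_le _ _).trans_lt ?_
    exact_mod_cast Finset.mem_range.mp hi
  have hgm : g.Monic := Polynomial.monic_X_pow_add hdeg
  have hgn : g.natDegree = n := by
    apply Polynomial.natDegree_eq_of_degree_eq_some
    rw [hg, Polynomial.degree_add_eq_left_of_degree_lt] <;> rw [Polynomial.degree_X_pow]
    exact hdeg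
  have hgm' : (g.map (algebraMap ℚ F)).Monic := hgm.map _
  have hgn' : (g.map (algebraMap ℚ F)).natDegree = n := by
    rw [hgm.natDegree_map, hgn]
  have hrat : ∀ r : ℚ, algebraMap ℚ F r = j (r : ℚ_[p]) := by
    intro r
    rw [map_ratCast, eq_ratCast]
  have heval : ‖(g.map (algebraMap ℚ F)).eval (jC a)‖ < ε ^ (g.map (algebraMap ℚ F)).natDegree := by
    rw [hgn']
    have h1 : (g.map (algebraMap ℚ F)).eval (jC a) =
        ∑ i ∈ Finset.range n, j ((q i : ℚ_[p]) - f.coeff i) * jC a ^ i := by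
      have h2 : (g.map (algebraMap ℚ F)).eval (jC a) =
          jC a ^ n + ∑ i ∈ Finset.range n, j (q i : ℚ_[p]) * jC a ^ i := by
        rw [hg]
        simp only [Polynomial.map_add, Polynomial.map_pow, Polynomial.map_X, Polynomial.map_sum,
          Polynomial.map_mul, Polynomial.map_C, Polynomial.eval_add, Polynomial.eval_pow,
          Polynomial.eval_X, Polynomial.eval_finsetSum, Polynomial.eval_mul, Polynomial.eval_C,
          hrat]
      have h3 : f.eval₂ j (jC a) = jC a ^ n + ∑ i ∈ Finset.range n, j (f.coeff i) * jC a ^ i := by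
        rw [Polynomial.eval₂_eq_sum_range, ← hnn, Finset.sum_range_succ, hnn, hfm.coeff_natDegree,
          map_one, one_mul, add_comm]
      rw [h2]
      have h4 : jC a ^ n + ∑ i ∈ Finset.range n, j (q i : ℚ_[p]) * jC a ^ i =
          jC a ^ n + ∑ i ∈ Finset.range n, j (q i : ℚ_[p]) * jC a ^ i - f.eval₂ j (jC a) := by
        rw [hfa, sub_zero]
      rw [h4, h3, add_sub_add_left_eq_sub, ← Finset.sum_sub_distrib]
      refine Finset.sum_congr rfl fun i _ => ?_
      rw [map_sub, sub_mul]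
    rw [h1]
    obtain ⟨i, hi, hle⟩ := IsUltrametricDist.exists_norm_finsetSum_le_of_nonempty
      (Finset.nonempty_range_iff.mpr hn0.ne')
      (fun i => j ((q i : ℚ_[p]) - f.coeff i) * jC a ^ i)
    refine hle.trans_lt ?_
    rw [norm_mul, norm_pow]
    have h5 : ‖j ((q i : ℚ_[p]) - f.coeff i)‖ < ε ^ n / B ^ n := by
      rw [hj, RingHom.comp_apply, hn, norm_sub_rev]
      exact hq i
    have h6 : ‖jC a‖ ^ i ≤ B ^ n :=
      (pow_le_pow_left₀ (norm_nonneg _) (le_max_right _ _) i).trans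
        (pow_le_pow_right₀ hB1 (Finset.mem_range.mp hi).le)
    calc ‖j ((q i : ℚ_[p]) - f.coeff i)‖ * ‖jC a‖ ^ i
        ≤ ‖j ((q i : ℚ_[p]) - f.coeff i)‖ * B ^ n := by gcongr
      _ < ε ^ n / B ^ n * B ^ n := by gcongr
      _ = ε ^ n := div_mul_cancel₀ _ (by positivity)
  obtain ⟨b, hb, hab⟩ := exists_root_near hgm' hε.le heval
  refine ⟨b, ⟨g, hgm.ne_zero, ?_⟩, ?_⟩
  · rw [Polynomial.aeval_def, ← Polynomial.eval_map]
    exact hb
  · have h1 : x - b = (x - jC a) + (jC a - b) := by ring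
    rw [h1]
    exact (IsUltrametricDist.norm_add_le_max _ _).trans_lt (max_lt ha hab)

/-- `dense_alg` for `k / ℚ_p` algebraic, `A / k` algebraic (`A = Cb k K`) -/
theorem dense_alg' {p : ℕ} [Fact p.Prime] {k A : Type*} [Field k] [Field A] [Algebra ℚ_[p] k]
    [Algebra.IsAlgebraic ℚ_[p] k] [Algebra k A] [Algebra.IsAlgebraic k A] {jC : A →+* F}
    (hjd : DenseRange jC)
    (hn : ∀ a : ℚ_[p], ‖jC (algebraMap k A (algebraMap ℚ_[p] k a))‖ = ‖a‖) (x : F) (ε : ℝ)
    (hε : 0 < ε) : ∃ y : F, IsAlgebraic ℚ y ∧ ‖x - y‖ < ε := by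
  let _ : Algebra ℚ_[p] A := ((algebraMap k A).comp (algebraMap ℚ_[p] k)).toAlgebra
  have : IsScalarTower ℚ_[p] k A := IsScalarTower.of_algebraMap_eq fun _ => rfl
  have : Algebra.IsAlgebraic ℚ_[p] A := Algebra.IsAlgebraic.trans ℚ_[p] k A
  exact dense_alg hjd hn x hε

end dense

section point

variable {F : Type*} [NontriviallyNormedField F] [IsUltrametricDist F] [CompleteSpace F]

theorem bd_of {R D : ℝ} {φ : F⟦X⟧} (h : Bd R D φ) : LemD_323.Bd R φ := ⟨D, h⟩

theorem bd_deriv {R D : ℝ} (hR : 0 < R) {φ : F⟦X⟧} (h : Bd R D φ) : Bd R (D / R) (d⁄dX F φ) := by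
  intro m
  rw [PowerSeries.coeff_derivative, le_div_iff₀ hR, norm_mul]
  have h1 : ‖((m : F) + 1)‖ ≤ 1 := by
    have := IsUltrametricDist.norm_natCast_le_one F (m + 1)
    rwa [Nat.cast_add, Nat.cast_one] at this
  calc ‖coeff (m + 1) φ‖ * ‖((m : F) + 1)‖ * R ^ m * R
      = (‖coeff (m + 1) φ‖ * R ^ (m + 1)) * ‖((m : F) + 1)‖ := by ring
    _ ≤ (‖coeff (m + 1) φ‖ * R ^ (m + 1)) * 1 := by gcongr
    _ = ‖coeff (m + 1) φ‖ * R ^ (m + 1) := mul_one _
    _ ≤ D := h (m + 1)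

omit [IsUltrametricDist F] [CompleteSpace F] in
theorem coeff_one_shift (φ : F⟦X⟧) (s : F) : coeff 1 (shift s φ) = ev (d⁄dX F φ) s := by
  rw [coeff_shift, ev]
  refine tsum_congr fun n => ?_
  rw [PowerSeries.coeff_derivative, Nat.choose_one_right]
  push_cast
  ring

/-- the strict derivative of the evaluation -/
theorem hasStrictDerivAt_ev {R D : ℝ} {φ : F⟦X⟧} (h : Bd R D φ) {s : F} (hs : ‖s‖ < R) :
    HasStrictDerivAt (ev φ) (ev (d⁄dX F φ) s) s := by
  have h1 := (LemD_323.hasFPS (F := F) (bd_of h) hs).hasFPowerSeriesAt.hasStrictDerivAt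
  have h2 : (LemD_323.fms F (shift (algebraMap F F s) φ) 1 fun _ => 1) = ev (d⁄dX F φ) s := by
    rw [← coeff_one_shift]
    simp [LemD_323.fms]
  rw [h2] at h1
  exact h1

theorem continuousAt_ev {R D : ℝ} {φ : F⟦X⟧} (h : Bd R D φ) {s : F} (hs : ‖s‖ < R) :
    ContinuousAt (ev φ) s := (hasStrictDerivAt_ev h hs).hasDerivAt.continuousAt

omit [IsUltrametricDist F] [CompleteSpace F] in
theorem ev_zero (φ : F⟦X⟧) : ev φ 0 = constantCoeff φ := by
  rw [ev, tsum_eq_single 0]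
  · simp
  · intro n hn
    rw [zero_pow hn, mul_zero]

/-- a nonzero bounded power series does not vanish on a punctured neighbourhood of `0` -/
theorem eventually_ne {R D : ℝ} (hR : 0 < R) {f : F⟦X⟧} (h : Bd R D f) (hf : f ≠ 0) :
    ∀ᶠ z in 𝓝[≠] (0 : F), ev f z ≠ 0 := by
  have hs : ‖(0 : F)‖ < R := by rwa [norm_zero]
  have h1 := LemD_323.analyticAt_ev (F := F) (k := F) (bd_of h) hs
  rcases h1.eventually_eq_zero_or_eventually_ne_zero with h2 | h2
  · exact absurd (LemD_323.eq_zero_of_ev (F := F) (k := F) hR (bd_of h) h2) hf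
  · exact h2

/-- **(E-a)** -/
theorem exists_point [CharZero F] [Algebra ℚ F] {R D : ℝ} (hR : 0 < R) {φ : F⟦X⟧} (hφ : Bd R D φ)
    (hφ' : d⁄dX F φ ≠ 0)
    (hd : ∀ (x : F) (ε : ℝ), 0 < ε → ∃ y : F, IsAlgebraic ℚ y ∧ ‖x - y‖ < ε)
    {ε : ℝ} (hε : 0 < ε) :
    ∃ q s0 : F, ‖q‖ < ε ∧ ‖q‖ < R ∧ IsAlgebraic ℚ s0 ∧ ev φ q = s0 ∧ ev (d⁄dX F φ) q ≠ 0 ∧
      ‖s0 - constantCoeff φ‖ < ε := by
  have hs0 : ‖(0 : F)‖ < R := by rwa [norm_zero]
  have hball : ∀ᶠ z in 𝓝 (0 : F), ‖z‖ < min ε R := by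
    have : Metric.ball (0 : F) (min ε R) ∈ 𝓝 (0 : F) := Metric.ball_mem_nhds _ (lt_min hε hR)
    filter_upwards [this] with z hz
    simpa using hz
  have hcont : ∀ᶠ z in 𝓝 (0 : F), ‖ev φ z - constantCoeff φ‖ < ε := by
    have h1 := (continuousAt_ev hφ hs0)
    rw [ContinuousAt, ev_zero] at h1
    have h2 : Metric.ball (constantCoeff φ) ε ∈ 𝓝 (constantCoeff φ) := Metric.ball_mem_nhds _ hε
    filter_upwards [h1 h2] with z hz
    simpa [dist_eq_norm] using hz
  obtain ⟨q1, ⟨h1, h2⟩, h3⟩ := ((hball.and hcont).filter_mono nhdsWithin_le_nhds |>.and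
    (eventually_ne hR (bd_deriv hR hφ) hφ')).exists
  have hq1R : ‖q1‖ < R := h1.trans_le (min_le_right _ _)
  -- open conditions at `q1`
  have hU : ∀ᶠ z in 𝓝 q1, ‖z‖ < min ε R ∧ ‖ev φ z - constantCoeff φ‖ < ε ∧
      ev (d⁄dX F φ) z ≠ 0 := by
    have hc := continuousAt_ev hφ hq1R
    have hc' := continuousAt_ev (bd_deriv hR hφ) hq1R
    have e1 : ∀ᶠ z in 𝓝 q1, ‖z‖ < min ε R :=
      continuous_norm.continuousAt.eventually_lt continuousAt_const h1
    have e2 : ∀ᶠ z in 𝓝 q1, ‖ev φ z - constantCoeff φ‖ < ε :=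
      ((hc.sub continuousAt_const).norm).eventually_lt continuousAt_const h2
    have e3 : ∀ᶠ z in 𝓝 q1, ev (d⁄dX F φ) z ≠ 0 := hc'.eventually_ne h3
    filter_upwards [e1, e2, e3] with z a b c using ⟨a, b, c⟩
  have hopen := (hasStrictDerivAt_ev hφ hq1R).map_nhds_eq h3
  have hIm : (ev φ) '' {z | ‖z‖ < min ε R ∧ ‖ev φ z - constantCoeff φ‖ < ε ∧
      ev (d⁄dX F φ) z ≠ 0} ∈ 𝓝 (ev φ q1) := by
    rw [← hopen]
    exact image_mem_map hU
  obtain ⟨δ, hδ, hsub⟩ := Metric.mem_nhds_iff.mp hIm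
  obtain ⟨y, hy, hyd⟩ := hd (ev φ q1) δ hδ
  obtain ⟨q, ⟨hq1, hq2, hq3⟩, hqy⟩ := hsub (show y ∈ Metric.ball (ev φ q1) δ by
    rw [Metric.mem_ball, dist_comm, dist_eq_norm]; exact hyd)
  exact ⟨q, y, hq1.trans_le (min_le_left _ _), hq1.trans_le (min_le_right _ _), hy, hqy, hq3,
    by rw [← hqy]; exact hq2⟩

end point

end Crest.Agent.R013.DE2a_610
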