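import Crest.Agent.R013.DE21_205
import Crest.Agent.R013.DE22_205
import Crest.Agent.R013.DE2a_610

/-!
# R013 / D-LINE, leaf D-ST2 (STEP E of #4158), part 3: the analysis at the target disc   (helper205)

`UD` : the units `l_i φ + m_i` (`l_i`, `m_i` integers); `omU` : the form `∑ a_i l_i dφ / (l_i φ + m_i)`;
* `omU_zero`, `omU_one` : it has a simple zero at `q` if `∑ a_i l_i / (l_i s₀ + m_i) = 0`,
  `∑ a_i l_i² / (l_i s₀ + m_i)² ≠ 0`, `s₀ = φ(q)`, `φ'(q) ≠ 0`;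
* `omU_close` : the form of a perturbation of `φ`.
-/

set_option autoImplicit false
set_option linter.unusedSectionVars false

namespace Crest.Agent.R013.DE2_205

open PowerSeries Filter
open scoped NNReal Topology
open Crest.Agent.R013.KAS2_940 (Bd bd_zero bd_C bd_one)
open Crest.Agent.R013.KAS2_940
open Crest.Agent.R013.KAS3_940 Crest.Agent.R013.Small3_940 Crest.Agent.R013.Good3_940
open Crest.Agent.R013.LemD_323 (shift coeff_shift)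
open Crest.Agent.R013.DE2a_610 (coeff_one_shift)

section UD

variable {F : Type*} [NontriviallyNormedField F] [IsUltrametricDist F] {ι : Type*}

/-- the units `l i * φ + m i` of the ring of bounded series -/
structure UD (R : ℝ) (φ : F⟦X⟧) (l m : ι → ℤ) (u : ι → (F⟦X⟧)ˣ) : Prop where
  val : ∀ i, (u i : F⟦X⟧) = C ((l i : ℤ) : F) * φ + C ((m i : ℤ) : F)
  inv : ∀ i, Bd R 1 (((u i)⁻¹ : (F⟦X⟧)ˣ) : F⟦X⟧)

theorem norm_intCast_le (n : ℤ) : ‖(n : F)‖ ≤ 1 := by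
  rcases Int.eq_nat_or_neg n with ⟨m, rfl | rfl⟩
  · rw [Int.cast_natCast]
    exact IsUltrametricDist.norm_natCast_le_one F m
  · rw [Int.cast_neg, Int.cast_natCast, norm_neg]
    exact IsUltrametricDist.norm_natCast_le_one F m

theorem bd_affine {R B : ℝ} {φ : F⟦X⟧} {a : F} (h : Bd R B (φ - C a)) (l m : ℤ) :
    Bd R B (C (l : F) * φ + C (m : F) - C (l * a + m)) := by
  have h1 : C (l : F) * φ + C (m : F) - C (l * a + m) = C (l : F) * (φ - C a) := by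
    rw [map_add, map_mul]; ring
  rw [h1]
  exact (h.C_mul _).mono (mul_le_of_le_one_left h.nonneg (norm_intCast_le l))

theorem exists_UD {R B : ℝ} (hR : 0 < R) {φ : F⟦X⟧} {a : F} (h : Bd R B (φ - C a)) (hB : B < 1)
    {l m : ι → ℤ} (hN : ∀ i, 1 ≤ ‖(l i : F) * a + (m i : F)‖) : ∃ u, UD R φ l m u := by
  have h1 : ∀ i, constantCoeff (C ((l i : ℤ) : F) * φ + C ((m i : ℤ) : F)) ≠ 0 := fun i =>
    constantCoeff_ne_zero (bd_affine h (l i) (m i)) (hB.trans_le (hN i))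
  refine ⟨fun i => ⟨C ((l i : ℤ) : F) * φ + C ((m i : ℤ) : F),
    (C ((l i : ℤ) : F) * φ + C ((m i : ℤ) : F))⁻¹, mul_inv' (h1 i), by
    rw [mul_comm]; exact mul_inv' (h1 i)⟩, fun i => rfl, fun i => ?_⟩
  have h2 := inv_bd hR (bd_affine h (l i) (m i)) (hB.trans_le (hN i))
  exact h2.mono (inv_le_one_of_one_le₀ (hN i))

variable [Fintype ι]

/-- the form `∑ a_i l_i dφ / (l_i φ + m_i)` -/
noncomputable def omU (u : ι → (F⟦X⟧)ˣ) (a : ι → ℤ) : F⟦X⟧ := ∑ i, (a i : F⟦X⟧) * dl (u i)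

theorem derivative_prod (u : ι → (F⟦X⟧)ˣ) (a : ι → ℤ) :
    d⁄dX F ((∏ i, u i ^ a i : (F⟦X⟧)ˣ) : F⟦X⟧) = omU u a * ((∏ i, u i ^ a i : (F⟦X⟧)ˣ) : F⟦X⟧) := by
  rw [derivative_eq_dl, dl_prod_zpow]
  rfl

theorem UD.deriv {R : ℝ} {φ : F⟦X⟧} {l m : ι → ℤ} {u : ι → (F⟦X⟧)ˣ} (h : UD R φ l m u) (i : ι) :
    d⁄dX F (u i : F⟦X⟧) = C ((l i : ℤ) : F) * d⁄dX F φ := by
  rw [h.val, map_add, derivative_C, add_zero, Derivation.leibniz, derivative_C, smul_zero, add_zero,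
    smul_eq_mul]

theorem UD.dl_eq {R : ℝ} {φ : F⟦X⟧} {l m : ι → ℤ} {u : ι → (F⟦X⟧)ˣ} (h : UD R φ l m u) (i : ι) :
    dl (u i) = C ((l i : ℤ) : F) * d⁄dX F φ * (((u i)⁻¹ : (F⟦X⟧)ˣ) : F⟦X⟧) := by
  rw [dl, h.deriv]

theorem UD.bd {R D : ℝ} {φ : F⟦X⟧} {l m : ι → ℤ} {u : ι → (F⟦X⟧)ˣ} (h : UD R φ l m u) (hR : 0 < R)
    (hφ : Bd R D φ) (i : ι) : Bd R (max D 1) (u i : F⟦X⟧) := by
  rw [h.val]
  exact (((hφ.C_mul _).mono (mul_le_of_le_one_left hφ.nonneg (norm_intCast_le (l i)))).mono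
    (le_max_left _ _)).add hR.le
    (((bd_C _).mono (norm_intCast_le (m i))).mono (le_max_right _ _))

theorem cast_eq_C (n : ℤ) : ((n : ℤ) : F⟦X⟧) = C ((n : ℤ) : F) := by
  rw [map_intCast]

theorem bd_int_mul {R B : ℝ} (n : ℤ) {f : F⟦X⟧} (hf : Bd R B f) :
    Bd R B ((n : F⟦X⟧) * f) := by
  rw [cast_eq_C]
  refine (hf.C_mul (n : F)).mono ?_
  exact mul_le_of_le_one_left hf.nonneg (norm_intCast_le n)

theorem omU_bd {R D : ℝ} {φ : F⟦X⟧} {l m : ι → ℤ} {u : ι → (F⟦X⟧)ˣ} (h : UD R φ l m u) (hR : 0 < R)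
    (hφ : Bd R D φ) (a : ι → ℤ) : Bd R (D / R) (omU u a) := by
  have hD := hφ.nonneg
  refine bd_sum hR.le (by positivity) _ fun i _ => bd_int_mul _ ?_
  rw [h.dl_eq, ← cast_eq_C, mul_assoc]
  have := (deriv_bd hR hφ).mul hR (h.inv i)
  rw [mul_one] at this
  exact bd_int_mul _ this

theorem prod_bd {R D : ℝ} {φ : F⟦X⟧} {l m : ι → ℤ} {u : ι → (F⟦X⟧)ˣ} (h : UD R φ l m u) (hR : 0 < R)
    (hφ : Bd R D φ) (a : ι → ℤ) : ∃ CH, Bd R CH ((∏ i, u i ^ a i : (F⟦X⟧)ˣ) : F⟦X⟧) := by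
  have h1 : ∀ i, ((u i ^ a i : (F⟦X⟧)ˣ) : F⟦X⟧) ∈ bsub (K := F) R hR := by
    intro i
    rcases Int.eq_nat_or_neg (a i) with ⟨n, hn | hn⟩
    · rw [hn, zpow_natCast, Units.val_pow_eq_pow_val]
      exact pow_mem (mem_bsub (h.bd hR hφ i)) n
    · rw [hn, zpow_neg, zpow_natCast, ← inv_pow, Units.val_pow_eq_pow_val]
      exact pow_mem (mem_bsub (h.inv i)) n
  have h2 : ((∏ i, u i ^ a i : (F⟦X⟧)ˣ) : F⟦X⟧) ∈ bsub (K := F) R hR := by
    rw [Units.coe_prod]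
    exact prod_mem fun i _ => h1 i
  exact h2

/-- **the form of a perturbation** -/
theorem omU_close {R D e : ℝ} {φ φ' : F⟦X⟧} {l m : ι → ℤ} {u u' : ι → (F⟦X⟧)ˣ} (h : UD R φ l m u)
    (h' : UD R φ' l m u') (hR : 0 < R) (hφ : Bd R D φ) (he : Bd R e (φ' - φ)) (a : ι → ℤ) :
    Bd R (e * max D 1 / R) (omU u' a - omU u a) := by
  have hD := hφ.nonneg
  have he0 := he.nonneg
  have hM : 0 < max D 1 := lt_max_of_lt_right one_pos
  rw [omU, omU, ← Finset.sum_sub_distrib]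
  refine bd_sum hR.le (by positivity) _ fun i _ => ?_
  rw [← mul_sub]
  refine bd_int_mul _ ?_
  have h1 : dl (u' i) - dl (u i) = (l i : F⟦X⟧) *
      ((d⁄dX F (φ' - φ) * (u i : F⟦X⟧) - (l i : F⟦X⟧) * (d⁄dX F φ * (φ' - φ))) *
        ((((u' i)⁻¹ : (F⟦X⟧)ˣ) : F⟦X⟧) * (((u i)⁻¹ : (F⟦X⟧)ˣ) : F⟦X⟧))) := by
    have h2 : (l i : F⟦X⟧) * (φ' - φ) = (u' i : F⟦X⟧) - (u i : F⟦X⟧) := by
      rw [h'.val, h.val, ← cast_eq_C]; ring
    rw [h'.dl_eq, h.dl_eq, map_sub, ← cast_eq_C]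
    have e1 : (u i : F⟦X⟧) * (((u i)⁻¹ : (F⟦X⟧)ˣ) : F⟦X⟧) = 1 := Units.mul_inv _
    have e2 : (u' i : F⟦X⟧) * (((u' i)⁻¹ : (F⟦X⟧)ˣ) : F⟦X⟧) = 1 := Units.mul_inv _
    set v := (((u i)⁻¹ : (F⟦X⟧)ˣ) : F⟦X⟧) with hv
    set v' := (((u' i)⁻¹ : (F⟦X⟧)ˣ) : F⟦X⟧) with hv'
    linear_combination
      (l i : F⟦X⟧) * d⁄dX F φ * v * v' * h2 - (l i : F⟦X⟧) * d⁄dX F φ' * v' * e1 +
      (l i : F⟦X⟧) * d⁄dX F φ * v * e2
  rw [h1]
  refine bd_int_mul _ ?_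
  have h3 : Bd R (e * max D 1 / R) (d⁄dX F (φ' - φ) * (u i : F⟦X⟧) -
      (l i : F⟦X⟧) * (d⁄dX F φ * (φ' - φ))) := by
    refine Bd.sub hR.le ?_ ?_
    · refine ((deriv_bd hR he).mul hR (h.bd hR hφ i)).mono (le_of_eq ?_)
      ring
    · refine (bd_int_mul _ ((deriv_bd hR hφ).mul hR he)).mono ?_
      rw [div_mul_eq_mul_div, mul_comm D e]
      gcongr
      exact le_max_left _ _
  have h4 := h3.mul hR ((h'.inv i).mul hR (h.inv i))
  rwa [mul_one, mul_one] at h4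

end UD

section zero

variable {F : Type*} [NontriviallyNormedField F] [IsUltrametricDist F] [CompleteSpace F]
  {ι : Type*} [Fintype ι]

theorem coeff_zero_shift (φ : F⟦X⟧) (s : F) : coeff 0 (shift s φ) = LemD_323.ev φ s := by
  rw [coeff_shift, LemD_323.ev]
  refine tsum_congr fun n => ?_
  simp

variable {R D : ℝ} {φ : F⟦X⟧} {l m : ι → ℤ} {u : ι → (F⟦X⟧)ˣ}

/-- evaluation as a ring homomorphism -/
noncomputable abbrev evh (hR : 0 < R) {q : F} (hq : ‖q‖ < R) : bsub (K := F) R hR →+* F :=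
  Good1_940.ev (E := F) hR q hq

theorem evh_apply (hR : 0 < R) {q : F} (hq : ‖q‖ < R) (f : bsub (K := F) R hR) :
    evh hR hq f = LemD_323.ev f.1 q := rfl

theorem evh_int (hR : 0 < R) {q : F} (hq : ‖q‖ < R) (n : ℤ) : evh hR hq (n : bsub (K := F) R hR) =
    (n : F) := map_intCast _ n

theorem evh_inv (h : UD R φ l m u) (hR : 0 < R) (hφ : Bd R D φ) {q : F} (hq : ‖q‖ < R) {s0 : F}
    (hs : LemD_323.ev φ q = s0) (i : ι) :
    evh hR hq ⟨_, mem_bsub (h.inv i)⟩ = ((l i : F) * s0 + (m i : F))⁻¹ := by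
  have h1 : (⟨_, mem_bsub (h.bd hR hφ i)⟩ : bsub (K := F) R hR) * ⟨_, mem_bsub (h.inv i)⟩ = 1 :=
    Subtype.ext (Units.mul_inv _)
  have h2 : (⟨_, mem_bsub (h.bd hR hφ i)⟩ : bsub (K := F) R hR) =
      ((l i : ℤ) : bsub (K := F) R hR) * ⟨φ, mem_bsub hφ⟩ + ((m i : ℤ) : bsub (K := F) R hR) := by
    apply Subtype.ext
    show (u i : F⟦X⟧) = (((l i : ℤ) : bsub (K := F) R hR) : F⟦X⟧) * φ +
      (((m i : ℤ) : bsub (K := F) R hR) : F⟦X⟧)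
    rw [h.val, ← cast_eq_C, ← cast_eq_C]
    push_cast
    rfl
  have h3 := congrArg (evh hR hq) h1
  rw [map_mul, map_one, h2, map_add, map_mul, evh_int, evh_int, evh_apply, hs] at h3
  exact eq_inv_of_mul_eq_one_right h3

/-- **the form vanishes at `q`** -/
theorem omU_zero (h : UD R φ l m u) (hR : 0 < R) (hφ : Bd R D φ) {q : F} (hq : ‖q‖ < R) {s0 : F}
    (hs : LemD_323.ev φ q = s0) {a : ι → ℤ} (h0 : ∑ i, (a i : F) * (l i : F) / ((l i : F) * s0 + (m i : F)) = 0) :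
    coeff 0 (shift q (omU u a)) = 0 := by
  rw [coeff_zero_shift]
  let dφ : bsub (K := F) R hR := ⟨_, mem_bsub (deriv_bd hR hφ)⟩
  have h1 : (⟨omU u a, mem_bsub (omU_bd h hR hφ a)⟩ : bsub (K := F) R hR) =
      ∑ i, (a i : bsub (K := F) R hR) * ((l i : bsub (K := F) R hR) * dφ *
        ⟨_, mem_bsub (h.inv i)⟩) := by
    apply Subtype.ext
    show omU u a = ((∑ i, (a i : bsub (K := F) R hR) * ((l i : bsub (K := F) R hR) * dφ *
      ⟨_, mem_bsub (h.inv i)⟩) : bsub (K := F) R hR) : F⟦X⟧)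
    push_cast
    refine Finset.sum_congr rfl fun i _ => ?_
    rw [h.dl_eq, ← cast_eq_C]
  have h2 := congrArg (evh hR hq) h1
  rw [evh_apply] at h2
  show LemD_323.ev (omU u a) q = 0
  rw [h2, map_sum]
  have h3 : ∀ i, evh hR hq ((a i : bsub (K := F) R hR) * ((l i : bsub (K := F) R hR) * dφ *
        ⟨_, mem_bsub (h.inv i)⟩)) =
      evh hR hq dφ * ((a i : F) * (l i : F) / ((l i : F) * s0 + (m i : F))) := by
    intro i
    rw [map_mul, map_mul, map_mul, evh_int, evh_int, evh_inv h hR hφ hq hs]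
    ring
  rw [Finset.sum_congr rfl fun i _ => h3 i, ← Finset.mul_sum, h0, mul_zero]

/-- **the zero is simple** -/
theorem omU_one (h : UD R φ l m u) (hR : 0 < R) (hφ : Bd R D φ) {q : F} (hq : ‖q‖ < R) {s0 : F}
    (hs : LemD_323.ev φ q = s0) (hd : LemD_323.ev (d⁄dX F φ) q ≠ 0) {a : ι → ℤ}
    (h0 : ∑ i, (a i : F) * (l i : F) / ((l i : F) * s0 + (m i : F)) = 0)
    (h1 : ∑ i, (a i : F) * (l i : F) ^ 2 / ((l i : F) * s0 + (m i : F)) ^ 2 ≠ 0) :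
    coeff 1 (shift q (omU u a)) ≠ 0 := by
  rw [coeff_one_shift]
  let dφ : bsub (K := F) R hR := ⟨_, mem_bsub (deriv_bd hR hφ)⟩
  let ddφ : bsub (K := F) R hR := ⟨_, mem_bsub (deriv_bd hR (deriv_bd hR hφ))⟩
  have h2 : (⟨d⁄dX F (omU u a), mem_bsub (deriv_bd hR (omU_bd h hR hφ a))⟩ : bsub (K := F) R hR) =
      ∑ i, (a i : bsub (K := F) R hR) * ((l i : bsub (K := F) R hR) *
        (ddφ * ⟨_, mem_bsub (h.inv i)⟩ -
        (l i : bsub (K := F) R hR) * (dφ ^ 2 * (⟨_, mem_bsub (h.inv i)⟩) ^ 2))) := by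
    apply Subtype.ext
    show d⁄dX F (omU u a) = ((∑ i, (a i : bsub (K := F) R hR) * ((l i : bsub (K := F) R hR) *
        (ddφ * ⟨_, mem_bsub (h.inv i)⟩ -
        (l i : bsub (K := F) R hR) * (dφ ^ 2 * (⟨_, mem_bsub (h.inv i)⟩) ^ 2))) :
          bsub (K := F) R hR) : F⟦X⟧)
    push_cast
    rw [omU, map_sum]
    refine Finset.sum_congr rfl fun i _ => ?_
    have hC : ∀ (n : ℤ) (g : F⟦X⟧), d⁄dX F ((n : F⟦X⟧) * g) = (n : F⟦X⟧) * d⁄dX F g := by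
      intro n g
      rw [cast_eq_C, Derivation.leibniz, derivative_C, smul_zero, add_zero, smul_eq_mul]
    rw [h.dl_eq, ← cast_eq_C, hC, mul_assoc, hC, Derivation.leibniz, smul_eq_mul, smul_eq_mul]
    have h3 : d⁄dX F (((u i)⁻¹ : (F⟦X⟧)ˣ) : F⟦X⟧) =
        - ((((u i)⁻¹ : (F⟦X⟧)ˣ) : F⟦X⟧) ^ 2 * ((l i : F⟦X⟧) * d⁄dX F φ)) := by
      have h4 := congrArg (d⁄dX F) (Units.mul_inv (u i))
      rw [Derivation.leibniz, smul_eq_mul, smul_eq_mul, h.deriv, Derivation.map_one_eq_zero,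
        ← cast_eq_C] at h4
      have e1 : (((u i)⁻¹ : (F⟦X⟧)ˣ) : F⟦X⟧) * (u i : F⟦X⟧) = 1 := Units.inv_mul _
      linear_combination (((u i)⁻¹ : (F⟦X⟧)ˣ) : F⟦X⟧) * h4 -
        d⁄dX F (((u i)⁻¹ : (F⟦X⟧)ˣ) : F⟦X⟧) * e1
    rw [h3]
    ring
  have h3 := congrArg (evh hR hq) h2
  rw [evh_apply] at h3
  show LemD_323.ev (d⁄dX F (omU u a)) q ≠ 0
  rw [h3, map_sum]
  have h4 : ∀ i, evh hR hq ((a i : bsub (K := F) R hR) * ((l i : bsub (K := F) R hR) *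
        (ddφ * ⟨_, mem_bsub (h.inv i)⟩ -
        (l i : bsub (K := F) R hR) * (dφ ^ 2 * (⟨_, mem_bsub (h.inv i)⟩) ^ 2)))) =
      evh hR hq ddφ * ((a i : F) * (l i : F) / ((l i : F) * s0 + (m i : F))) -
        (evh hR hq dφ) ^ 2 * ((a i : F) * (l i : F) ^ 2 / ((l i : F) * s0 + (m i : F)) ^ 2) := by
    intro i
    rw [map_mul, map_mul, map_sub, map_mul, map_mul, map_mul, map_pow, map_pow, evh_int, evh_int,
      evh_inv h hR hφ hq hs, div_eq_mul_inv, div_eq_mul_inv, ← inv_pow]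
    ring
  rw [Finset.sum_congr rfl fun i _ => h4 i, Finset.sum_sub_distrib, ← Finset.mul_sum,
    ← Finset.mul_sum, h0, mul_zero, zero_sub]
  exact neg_ne_zero.mpr (mul_ne_zero (pow_ne_zero _ hd) h1)

end zero

end Crest.Agent.R013.DE2_205
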