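import Crest.Agent.R013.DE23_205

/-!
# R013 / D-LINE, leaf D-ST2 (STEP E of #4158), part 4: `ana`, the analytic theorem   (helper205)

`ana` : `φ = ∑ al_j f_j`, `1 = ∑ be_j f_j`, `f_j` bounded series; integers `l N`, `m N` (`l = 1`,
`m = -N` : `φ - N`; `l = -N`, `m = 1` : `1 - N φ`); choice of `R`, the `N_i`, `a_i`, the point `q`, the
level `n` and the radius `c` with `Kas`, and `δ`; for all `δ`-close coefficients the series `φ'`,
`H' = ∏ (l φ' + m)^(a_i)` with `H'' = (om + eta) H'`, `|eta| ≤ |p|^(n+1) / R`.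
-/

set_option autoImplicit false
set_option linter.unusedSectionVars false

namespace Crest.Agent.R013.DE2_205

open PowerSeries Filter
open scoped NNReal Topology
open Crest.Agent.R013.KAS2_940 (Bd bd_zero bd_C bd_one)
open Crest.Agent.R013.KAS2_940
open Crest.Agent.R013.KAS3_940 Crest.Agent.R013.Small3_940 Crest.Agent.R013.Good3_940
open Crest.Agent.R013.LemD_323 (shift coeff_shift)
open Crest.Agent.R013.DE2a_610 (coeff_one_shift)
open Crest.Agent.R013.DLoc1_381 Crest.Agent.R013.DLoc4_381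

universe u uF

variable {F : Type uF} [NontriviallyNormedField F] [IsUltrametricDist F]

theorem toL_units (v : (F⟦X⟧)ˣ) (n : ℤ) :
    toL F ((v ^ n : (F⟦X⟧)ˣ) : F⟦X⟧) = (toL F (v : F⟦X⟧)) ^ n := by
  have h1 : ((Units.map (toL F).toMonoidHom (v ^ n) : (LaurentSeries F)ˣ) : LaurentSeries F) =
      ((Units.map (toL F).toMonoidHom v ^ n : (LaurentSeries F)ˣ) : LaurentSeries F) := by
    rw [map_zpow]
  rw [Units.val_zpow_eq_zpow_val] at h1
  exact h1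

theorem toL_prod {ι : Type*} [Fintype ι] {R : ℝ} {φ : F⟦X⟧} {l m : ι → ℤ} {u : ι → (F⟦X⟧)ˣ}
    (h : UD R φ l m u) (a : ι → ℤ) :
    toL F ((∏ i, u i ^ a i : (F⟦X⟧)ˣ) : F⟦X⟧) =
      ∏ i, (((l i : ℤ) : LaurentSeries F) * toL F φ + ((m i : ℤ) : LaurentSeries F)) ^ a i := by
  rw [Units.coe_prod, map_prod]
  refine Finset.prod_congr rfl fun i _ => ?_
  rw [toL_units, h.val, ← cast_eq_C, ← cast_eq_C, map_add, map_mul, map_intCast, map_intCast]

theorem exists_res {p : ℕ} (hpn : ‖(p : F)‖ < 1) (φ0 : F) :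
    ∃ r : ℤ, ∀ n : ℤ, (p : ℤ) ∣ n - r → 1 ≤ ‖φ0 - (n : F)‖ := by
  have key : ∀ r : ℤ, 1 ≤ ‖φ0 - (r : F)‖ → ∀ n : ℤ, (p : ℤ) ∣ n - r → 1 ≤ ‖φ0 - (n : F)‖ := by
    rintro r hr n ⟨d, hd⟩
    have h1 : φ0 - (n : F) = (φ0 - (r : F)) - (p : F) * (d : F) := by
      have h2 : (n : F) = (r : F) + (p : F) * (d : F) := by
        have h3 : n = r + p * d := by omega
        rw [h3]; push_cast; ring
      rw [h2]; ring
    have h4 : ‖(p : F) * (d : F)‖ < 1 := by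
      rw [norm_mul]
      exact (mul_le_of_le_one_right (norm_nonneg _) (norm_intCast_le d)).trans_lt hpn
    have h5 : ‖φ0 - (n : F)‖ = ‖φ0 - (r : F)‖ := by
      rw [h1, sub_eq_add_neg, IsUltrametricDist.norm_add_eq_max_of_norm_ne_norm]
      · rw [norm_neg]; exact max_eq_left (h4.le.trans hr)
      · rw [norm_neg]; exact (h4.trans_le hr).ne'
    rw [h5]
    exact hr
  by_cases h : 1 ≤ ‖φ0‖
  · exact ⟨0, key 0 (by rwa [Int.cast_zero, sub_zero])⟩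
  · push Not at h
    refine ⟨1, key 1 ?_⟩
    rw [Int.cast_one, sub_eq_add_neg, IsUltrametricDist.norm_add_eq_max_of_norm_ne_norm]
    · rw [norm_neg, norm_one]; exact le_max_right _ _
    · rw [norm_neg, norm_one]; exact h.ne

theorem sum_mem_bsub {m : ℕ} {f : Fin m → F⟦X⟧} {R C0 : ℝ} (hR : 0 < R)
    (hf : ∀ j, Bd R C0 (f j)) (al : Fin m → F) : ∃ D, Bd R D (∑ j, C (al j) * f j) := by
  have h : (∑ j, C (al j) * f j) ∈ bsub (K := F) R hR :=
    sum_mem fun j _ => mul_mem (C_mem _) (mem_bsub (hf j))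
  exact h

theorem bd_diff {m : ℕ} {f : Fin m → F⟦X⟧} {R C0 δ : ℝ} (hR : 0 < R) (hC0 : 0 ≤ C0) (hδ : 0 ≤ δ)
    (hf : ∀ j, Bd R C0 (f j)) {al al' : Fin m → F} (h : ∀ j, ‖al' j - al j‖ < δ) :
    Bd R (δ * C0) (∑ j, C (al' j) * f j - ∑ j, C (al j) * f j) := by
  rw [← Finset.sum_sub_distrib]
  refine bd_sum hR.le (by positivity) _ fun j _ => ?_
  rw [← sub_mul, ← map_sub]
  exact ((hf j).C_mul _).mono (mul_le_mul_of_nonneg_right (h j).le hC0)

variable [CompleteSpace F] [CharZero F] [Algebra ℚ F] [IsAlgClosed F]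

omit [IsAlgClosed F] in
/-- 610's point with a non zero value -/
theorem exists_point' {R D : ℝ} (hR : 0 < R) {φ : F⟦X⟧} (hφ : Bd R D φ) (hφ' : d⁄dX F φ ≠ 0)
    (hd : ∀ (x : F) (ε : ℝ), 0 < ε → ∃ y : F, IsAlgebraic ℚ y ∧ ‖x - y‖ < ε)
    {ε : ℝ} (hε : 0 < ε) :
    ∃ q s0 : F, ‖q‖ < ε ∧ ‖q‖ < R ∧ IsAlgebraic ℚ s0 ∧ s0 ≠ 0 ∧ LemD_323.ev φ q = s0 ∧
      LemD_323.ev (d⁄dX F φ) q ≠ 0 ∧ ‖s0 - constantCoeff φ‖ < ε := by
  have hφ0 : φ ≠ 0 := by
    rintro rfl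
    exact hφ' (map_zero _)
  have hs0 : ‖(0 : F)‖ < R := by rwa [norm_zero]
  have hball : ∀ᶠ z in 𝓝 (0 : F), ‖z‖ < min ε R := by
    have : Metric.ball (0 : F) (min ε R) ∈ 𝓝 (0 : F) := Metric.ball_mem_nhds _ (lt_min hε hR)
    filter_upwards [this] with z hz
    simpa using hz
  have hcont : ∀ᶠ z in 𝓝 (0 : F), ‖LemD_323.ev φ z - constantCoeff φ‖ < ε := by
    have h1 := (DE2a_610.continuousAt_ev hφ hs0)
    rw [ContinuousAt, DE2a_610.ev_zero] at h1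
    have h2 : Metric.ball (constantCoeff φ) ε ∈ 𝓝 (constantCoeff φ) := Metric.ball_mem_nhds _ hε
    filter_upwards [h1 h2] with z hz
    simpa [dist_eq_norm] using hz
  obtain ⟨q1, ⟨h1, h2⟩, h3⟩ := ((hball.and hcont).filter_mono nhdsWithin_le_nhds |>.and
    (DE2a_610.eventually_ne hR hφ hφ0)).exists
  have hq1ε : ‖q1‖ < ε := h1.trans_le (min_le_left _ _)
  have hq1R : ‖q1‖ < R := h1.trans_le (min_le_right _ _)
  have hφs : Bd R D (shift q1 φ) := bd_shift' hφ hq1R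
  have hφs' : d⁄dX F (shift q1 φ) ≠ 0 := by
    rw [← shift_derivative]
    exact shift_ne_zero hR (DE2a_610.bd_deriv hR hφ) hq1R hφ'
  have hc : constantCoeff (shift q1 φ) = LemD_323.ev φ q1 := by
    rw [← coeff_zero_eq_constantCoeff_apply, coeff_zero_shift]
  obtain ⟨q, s0, hq1, hq2, hs, hev, hev', hcl⟩ := DE2a_610.exists_point hR hφs hφs' hd
    (lt_min hε (norm_pos_iff.mpr h3))
  rw [hc] at hcl
  refine ⟨q1 + q, s0, ?_, norm_add_lt' hq1R hq2, hs, ?_, ?_, ?_, ?_⟩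
  · exact (IsUltrametricDist.norm_add_le_max _ _).trans_lt
      (max_lt hq1ε (hq1.trans_le (min_le_left _ _)))
  · rintro rfl
    rw [zero_sub, norm_neg] at hcl
    exact absurd (hcl.trans_le (min_le_right _ _)) (lt_irrefl _)
  · rw [LemD_323.ev_shift (toBd hφ) hq1R hq2] at hev
    exact hev
  · rw [← shift_derivative, LemD_323.ev_shift (toBd (DE2a_610.bd_deriv hR hφ)) hq1R hq2] at hev'
    exact hev'
  · have e1 : s0 - constantCoeff φ = (s0 - LemD_323.ev φ q1) +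
        (LemD_323.ev φ q1 - constantCoeff φ) := by ring
    rw [e1]
    exact (IsUltrametricDist.norm_add_le_max _ _).trans_lt
      (max_lt (hcl.trans_le (min_le_left _ _)) h2)

/-- **the analytic part of stage 2** -/
theorem ana {p : ℕ} (hp : p.Prime) (hpn : ‖(p : F)‖ < 1)
    (hd : ∀ (x : F) (ε : ℝ), 0 < ε → ∃ y : F, IsAlgebraic ℚ y ∧ ‖x - y‖ < ε)
    {m : ℕ} {f : Fin m → F⟦X⟧} {al be : Fin m → F} {R0 Cf : ℝ} (hR0 : 0 < R0) (hCf : 0 ≤ Cf)
    (hf : ∀ j, Bd R0 Cf (f j)) (h1 : ∑ j, C (be j) * f j = 1) {φ : F⟦X⟧}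
    (hφd : φ = ∑ j, C (al j) * f j) (hφ : d⁄dX F φ ≠ 0) (Bad : Finset ℤ) (l μ : ℤ → ℤ)
    (hsel : ∀ s0 : F, IsAlgebraic ℚ s0 → s0 ≠ 0 → ‖s0 - constantCoeff φ‖ < 1 →
      ∃ (M : ℕ) (N a : Fin M → ℤ), Function.Injective N ∧ (∀ i, N i ∉ Bad) ∧ ∑ i, a i = 0 ∧
        (∀ i, 1 ≤ ‖(l (N i) : F) * constantCoeff φ + (μ (N i) : F)‖) ∧
        ∑ i, (a i : F) * (l (N i) : F) / ((l (N i) : F) * s0 + (μ (N i) : F)) = 0 ∧
        ∑ i, (a i : F) * (l (N i) : F) ^ 2 / ((l (N i) : F) * s0 + (μ (N i) : F)) ^ 2 ≠ 0) :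
    ∃ R : ℝ, 0 < R ∧ R ≤ R0 ∧ ∀ ε : ℝ, 0 < ε →
      ∃ (M : ℕ) (N a : Fin M → ℤ) (om : F⟦X⟧) (D : ℝ) (r : ℕ)
        (S : Set (MvPolynomial (Option (Fin r)) ℤ)) (n : ℕ) (q c : F),
        Function.Injective N ∧ (∀ i, N i ∉ Bad) ∧ ∑ i, a i = 0 ∧ GoodS.{u} p S ∧ Bd R D om ∧
        ‖q‖ < ε ∧ ‖q‖ < R ∧ c ≠ 0 ∧ ‖c‖ < ε ∧ ‖c‖ < R ∧ Kas.{uF} p S (shift q om) R n c ∧
        ∃ δ : ℝ, 0 < δ ∧ ∀ al' be' : Fin m → F, (∀ j, ‖al' j - al j‖ < δ) →
          (∀ j, ‖be' j - be j‖ < δ) →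
          ∃ (φ' H' eta : F⟦X⟧) (CH B : ℝ),
            ∑ j, C (al' j) * f j = φ' * ∑ j, C (be' j) * f j ∧ ∑ j, C (be' j) * f j ≠ 0 ∧
            φ' ≠ 0 ∧ B < 1 ∧ Bd R B (φ' - C (constantCoeff φ)) ∧
            (∀ i, 1 ≤ ‖(l (N i) : F) * constantCoeff φ + (μ (N i) : F)‖) ∧
            Bd R CH H' ∧ H' ≠ 0 ∧ Bd R (‖(p : F)‖ ^ (n + 1) / R) eta ∧
            d⁄dX F H' = (om + eta) * H' ∧
            toL F H' = ∏ i, (((l (N i) : ℤ) : LaurentSeries F) * toL F φ' +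
              ((μ (N i) : ℤ) : LaurentSeries F)) ^ a i := by
  classical
  obtain ⟨D0, hD0⟩ : ∃ D, Bd R0 D φ := by rw [hφd]; exact sum_mem_bsub hR0 hf al
  have hD00 := hD0.nonneg
  set φ0 := constantCoeff φ with hφ0
  have hφne : φ ≠ 0 := by
    rintro h
    rw [h, map_zero] at hφ
    exact hφ rfl
  set R : ℝ := R0 * (1 / (D0 + 2)) with hRd
  have hD2 : 0 < D0 + 2 := by linarith
  have hR : 0 < R := by positivity
  have hRR0 : R ≤ R0 := by
    rw [hRd]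
    refine mul_le_of_le_one_right hR0.le ?_
    rw [div_le_one hD2]
    linarith
  have hRdiv : R / R0 = 1 / (D0 + 2) := by
    rw [hRd]; field_simp
  set B0 : ℝ := D0 * (R / R0) with hB0
  have hB01 : B0 < 1 := by
    rw [hB0, hRdiv, mul_one_div, div_lt_one hD2]
    linarith
  have hs0 : Bd R B0 (φ - C φ0) := shrink hR0 hD0 hR hRR0
  have hφR : Bd R D0 φ := hD0.mono_left hR.le hRR0
  have hfR : ∀ j, Bd R Cf (f j) := fun j => (hf j).mono_left hR.le hRR0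
  refine ⟨R, hR, hRR0, fun ε hε => ?_⟩
  obtain ⟨q0, s0, hq0ε, hq0R, hs0a, hs00, hev, hev', hs0c⟩ := exists_point' hR hφR hφ hd
    (lt_min hε one_pos)
  obtain ⟨M, N, a, hN1, hN2, ha0, hw, hg0, hg1⟩ := hsel s0 hs0a hs00
    (hs0c.trans_le (min_le_right _ _))
  obtain ⟨U, hU⟩ := exists_UD (l := fun i => l (N i)) (m := fun i => μ (N i)) hR hs0 hB01 hw
  have hom : Bd R (D0 / R) (omU U a) := omU_bd hU hR hφR a
  obtain ⟨r, S, hS, hkas⟩ := exists_kas_simple.{u, uF} hp hpn hR hom hq0R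
    (omU_zero hU hR hφR hq0R hev hg0) (omU_one hU hR hφR hq0R hev hev' hg0 hg1)
  obtain ⟨n, q, c, hqq, hc0, hc, hK⟩ := hkas (min ε R) (lt_min hε hR)
  have hqn : ‖q‖ < min ε R := by
    have h2 : q = (q - q0) + q0 := by ring
    rw [h2]
    refine (IsUltrametricDist.norm_add_le_max _ _).trans_lt (max_lt hqq (lt_min ?_ hq0R))
    exact hq0ε.trans_le (min_le_left _ _)
  refine ⟨M, N, a, omU U a, D0 / R, r, S, n, q, c, hN1, hN2, ha0, hS, hom,
    hqn.trans_le (min_le_left _ _), hqn.trans_le (min_le_right _ _), hc0,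
    hc.trans_le (min_le_left _ _), hc.trans_le (min_le_right _ _), hK, ?_⟩
  -- the perturbation
  have hp0 : 0 < ‖(p : F)‖ := norm_pos_iff.mpr (Nat.cast_ne_zero.mpr hp.ne_zero)
  obtain ⟨i0, hi0⟩ : ∃ i, coeff i φ ≠ 0 := by
    by_contra hcon
    push Not at hcon
    exact hφne (PowerSeries.ext fun i => by rw [hcon i, map_zero])
  set τ : ℝ := ‖coeff i0 φ‖ * R ^ i0 / 2 with hτ
  have hτ0 : 0 < τ := by
    have := norm_pos_iff.mpr hi0
    positivity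
  set K1 : ℝ := max D0 1 with hK1
  have hK11 : 1 ≤ K1 := le_max_right _ _
  have hpn1 : ‖(p : F)‖ ^ (n + 1) < 1 := pow_lt_one₀ hp0.le hpn (Nat.succ_ne_zero n)
  set T : ℝ := min τ (‖(p : F)‖ ^ (n + 1)) with hT
  have hT0 : 0 < T := lt_min hτ0 (by positivity)
  have hTp : T ≤ ‖(p : F)‖ ^ (n + 1) := min_le_right _ _
  have hTτ : T ≤ τ := min_le_left _ _
  set δ : ℝ := T / ((Cf + 1) * K1 * K1) with hδd
  have hCf1 : 0 < Cf + 1 := by linarith
  have hδ : 0 < δ := by positivity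
  have hδ1 : δ * (Cf + 1) * K1 * K1 = T := by
    rw [hδd]; field_simp
  set e : ℝ := δ * Cf * K1 with he
  have he0 : 0 ≤ e := by positivity
  have heK : e * K1 ≤ T := by
    rw [← hδ1, he]
    gcongr
    linarith
  have heT : e ≤ T := (le_mul_of_one_le_right he0 hK11).trans heK
  have he1 : e < 1 := heT.trans_lt (hTp.trans_lt hpn1)
  have hδC : δ * Cf < 1 := (le_mul_of_one_le_right (by positivity) hK11).trans_lt he1
  refine ⟨δ, hδ, fun al' be' hal hbe => ?_⟩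
  set b' : F⟦X⟧ := ∑ j, C (be' j) * f j with hb'
  set a' : F⟦X⟧ := ∑ j, C (al' j) * f j with ha'
  have hb1 : Bd R (δ * Cf) (b' - C (1 : F)) := by
    have h2 := bd_diff hR hCf hδ.le hfR hbe
    rw [h1] at h2
    rwa [map_one]
  have hb1' : δ * Cf < ‖(1 : F)‖ := by rw [norm_one]; exact hδC
  have hbc : constantCoeff b' ≠ 0 := constantCoeff_ne_zero hb1 hb1'
  have hbi : Bd R 1 b'⁻¹ := by
    have h2 := inv_bd hR hb1 hb1'
    rwa [norm_one, inv_one] at h2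
  have hbb : b' * b'⁻¹ = 1 := mul_inv' hbc
  have hb0 : b' ≠ 0 := by
    intro h2
    rw [h2, map_zero] at hbc
    exact hbc rfl
  set φ' : F⟦X⟧ := a' * b'⁻¹ with hφ'
  have hφφ : Bd R e (φ' - φ) := by
    have h2 : φ' - φ = ((a' - φ) - φ * (b' - C (1 : F))) * b'⁻¹ := by
      rw [hφ', map_one]
      linear_combination φ * hbb
    rw [h2]
    have h3 : Bd R e ((a' - φ) - φ * (b' - C (1 : F))) := by
      refine Bd.sub hR.le ?_ ?_
      · have h4 := bd_diff hR hCf hδ.le hfR hal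
        rw [← ha', ← hφd] at h4
        exact h4.mono (le_mul_of_one_le_right (by positivity) hK11)
      · refine (hφR.mul hR hb1).mono ?_
        rw [mul_comm, he]
        gcongr
        exact le_max_left _ _
    have h4 := h3.mul hR hbi
    rwa [mul_one] at h4
  have hφ'ne : φ' ≠ 0 := by
    intro h2
    rw [h2, zero_sub] at hφφ
    have h3 := hφφ i0
    rw [map_neg, norm_neg] at h3
    have h4 : ‖coeff i0 φ‖ * R ^ i0 = 2 * τ := by rw [hτ]; ring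
    rw [h4] at h3
    linarith [heT.trans hTτ]
  have hφ'0 : Bd R (max e B0) (φ' - C φ0) := by
    have h2 : φ' - C φ0 = (φ' - φ) + (φ - C φ0) := by ring
    rw [h2]
    exact (hφφ.mono (le_max_left _ _)).add hR.le (hs0.mono (le_max_right _ _))
  have hm1 : max e B0 < 1 := max_lt he1 hB01
  obtain ⟨U', hU'⟩ := exists_UD (l := fun i => l (N i)) (m := fun i => μ (N i)) hR hφ'0 hm1 hw
  have hφ'b : Bd R (max e D0) φ' := by
    have h2 : φ' = (φ' - φ) + φ := by ring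
    rw [h2]
    exact (hφφ.mono (le_max_left _ _)).add hR.le (hφR.mono (le_max_right _ _))
  obtain ⟨CH, hCH⟩ := prod_bd hU' hR hφ'b a
  refine ⟨φ', _, omU U' a - omU U a, CH, max e B0, ?_, hb0, hφ'ne, hm1, hφ'0, hw, hCH,
    Units.ne_zero _, ?_, ?_, toL_prod hU' a⟩
  · rw [hφ', mul_assoc, mul_comm b'⁻¹ b', hbb, mul_one]
  · refine (omU_close hU hU' hR hφR hφφ a).mono ?_
    gcongr
    exact heK.trans hTp
  · rw [derivative_prod]
    congr 1
    ring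

end Crest.Agent.R013.DE2_205
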