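import Crest.Agent.R013.DE24_205

/-!
# R013 / D-LINE, leaf D-ST2 (STEP E of #4158), part 5: the two selections, `frB` without poles
(helper205)

* `sel_fin`, `sel_inf` : the integers and the exponents (`φ(P)` finite, `φ(P) = ∞`);
* `exists_series` : elements of `frB` without poles at the centre are bounded series on a smaller disc;
* `pencil_series` : `A / B` and `b_j / B` as bounded series.
-/

set_option autoImplicit false
set_option linter.unusedSectionVars false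

namespace Crest.Agent.R013.DE2_205

open PowerSeries Filter
open scoped NNReal Topology
open Crest.Agent.R013.KAS2_940 (Bd bd_zero bd_C bd_one)
open Crest.Agent.R013.KAS2_940
open Crest.Agent.R013.KAS3_940 Crest.Agent.R013.Small3_940 Crest.Agent.R013.Good3_940

section sel

variable {F : Type*} [NontriviallyNormedField F] [IsUltrametricDist F] [CharZero F] [Algebra ℚ F]

theorem sel_fin {p : ℕ} (hp : p.Prime) (hpn : ‖(p : F)‖ < 1) (φ0 : F) (Bad : Finset ℤ) (s0 : F)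
    (hs0 : IsAlgebraic ℚ s0) (hs1 : ‖s0 - φ0‖ < 1) :
    ∃ (M : ℕ) (N a : Fin M → ℤ), Function.Injective N ∧ (∀ i, N i ∉ Bad) ∧ ∑ i, a i = 0 ∧
      (∀ i, 1 ≤ ‖((1 : ℤ) : F) * φ0 + ((-(N i) : ℤ) : F)‖) ∧
      ∑ i, (a i : F) * ((1 : ℤ) : F) / (((1 : ℤ) : F) * s0 + ((-(N i) : ℤ) : F)) = 0 ∧
      ∑ i, (a i : F) * ((1 : ℤ) : F) ^ 2 /
        (((1 : ℤ) : F) * s0 + ((-(N i) : ℤ) : F)) ^ 2 ≠ 0 := by
  obtain ⟨r, hr⟩ := exists_res hpn φ0
  have hs0N : ∀ n : ℤ, (p : ℤ) ∣ n - r → s0 ≠ (n : F) := by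
    intro n hn h
    have h2 := hr n hn
    rw [h, norm_sub_rev] at hs1
    exact absurd h2 (not_le.mpr hs1)
  obtain ⟨M, N, a, h1, h2, h3, h4, h5, h6⟩ := exists_g1 hs0 hp.pos hs0N Bad
  have e : ∀ (i : Fin M) (s : F), ((1 : ℤ) : F) * s + ((-(N i) : ℤ) : F) = s - N i := by
    intro i s
    push_cast
    ring
  refine ⟨M, N, a, h1, h2, h4, fun i => ?_, ?_, ?_⟩
  · rw [e]; exact hr _ (h3 i)
  · simp only [e]
    push_cast
    simpa only [mul_one] using h5
  · simp only [e]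
    push_cast
    simpa only [mul_one, one_pow] using h6

theorem sel_inf {p : ℕ} (hp : p.Prime) (Bad : Finset ℤ) (t0 : F)
    (ht : IsAlgebraic ℚ t0) (ht0 : t0 ≠ 0) (ht1 : ‖t0 - 0‖ < 1) :
    ∃ (M : ℕ) (N a : Fin M → ℤ), Function.Injective N ∧ (∀ i, N i ∉ Bad) ∧ ∑ i, a i = 0 ∧
      (∀ i, 1 ≤ ‖((-(N i) : ℤ) : F) * 0 + ((1 : ℤ) : F)‖) ∧
      ∑ i, (a i : F) * ((-(N i) : ℤ) : F) / (((-(N i) : ℤ) : F) * t0 + ((1 : ℤ) : F)) = 0 ∧
      ∑ i, (a i : F) * ((-(N i) : ℤ) : F) ^ 2 /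
        (((-(N i) : ℤ) : F) * t0 + ((1 : ℤ) : F)) ^ 2 ≠ 0 := by
  rw [sub_zero] at ht1
  have hn : ∀ n : ℤ, t0⁻¹ ≠ (n : F) := by
    intro n h
    have h1 : 1 < ‖t0⁻¹‖ := by
      rw [norm_inv]
      exact (one_lt_inv₀ (norm_pos_iff.mpr ht0)).mpr ht1
    rw [h] at h1
    exact absurd h1 (not_lt.mpr (norm_intCast_le n))
  obtain ⟨M, N, a, h1, h2, -, h4, h5, h6⟩ := exists_g1 (s0 := t0⁻¹) ht.inv hp.pos
    (r := 0) (fun n _ => hn n) Bad
  have hne : ∀ i, t0⁻¹ - (N i : F) ≠ 0 := fun i => sub_ne_zero.mpr (hn _)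
  have e : ∀ i : Fin M, ((-(N i) : ℤ) : F) * t0 + ((1 : ℤ) : F) = t0 * (t0⁻¹ - N i) := by
    intro i
    push_cast
    field_simp
    ring
  have h4' : ∑ i, (a i : F) = 0 := by
    have := congrArg (Int.cast : ℤ → F) h4
    push_cast at this
    exact this
  have key1 : ∀ i : Fin M, (a i : F) * ((-(N i) : ℤ) : F) / (t0 * (t0⁻¹ - N i)) =
      t0⁻¹ * (a i : F) - t0⁻¹ ^ 2 * ((a i : F) / (t0⁻¹ - N i)) := by
    intro i
    have h := hne i
    rw [div_eq_iff (mul_ne_zero ht0 h)]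
    push_cast
    have h7 : (a i : F) / (t0⁻¹ - N i) * (t0⁻¹ - N i) = a i := div_mul_cancel₀ _ h
    have h8 : t0⁻¹ * t0 = 1 := inv_mul_cancel₀ ht0
    linear_combination (-(a i : F) * (t0⁻¹ - N i) + t0⁻¹ ^ 2 * t0 * 0 + (a i : F) * t0⁻¹) * h8 +
      t0⁻¹ ^ 2 * t0 * h7
  refine ⟨M, N, a, h1, h2, h4, fun i => ?_, ?_, ?_⟩
  · rw [mul_zero, zero_add, Int.cast_one, norm_one]
  · simp only [e]
    rw [Finset.sum_congr rfl fun i _ => key1 i, Finset.sum_sub_distrib, ← Finset.mul_sum,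
      ← Finset.mul_sum, h4', h5, mul_zero, mul_zero, sub_zero]
  · simp only [e]
    have key2 : ∀ i : Fin M, (a i : F) * ((-(N i) : ℤ) : F) ^ 2 / (t0 * (t0⁻¹ - N i)) ^ 2 =
        t0⁻¹ ^ 2 * (a i : F) - 2 * t0⁻¹ ^ 3 * ((a i : F) / (t0⁻¹ - N i)) +
          t0⁻¹ ^ 4 * ((a i : F) / (t0⁻¹ - N i) ^ 2) := by
      intro i
      have h := hne i
      have h9 : ((-(N i) : ℤ) : F) = (t0⁻¹ - N i) - t0⁻¹ := by push_cast; ring
      rw [h9]
      set w := t0⁻¹ - (N i : F) with hw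
      set s := t0⁻¹ with hs
      have h10 : t0 = s⁻¹ := by rw [hs, inv_inv]
      have hs0 : s ≠ 0 := inv_ne_zero ht0
      rw [h10]
      field_simp
      ring
    rw [Finset.sum_congr rfl fun i _ => key2 i, Finset.sum_add_distrib, Finset.sum_sub_distrib,
      ← Finset.mul_sum, ← Finset.mul_sum, ← Finset.mul_sum, h4', h5, mul_zero, mul_zero, sub_zero,
      zero_add]
    exact mul_ne_zero (pow_ne_zero _ (inv_ne_zero ht0)) h6

end sel

section series

variable {F : Type*} [NontriviallyNormedField F] [IsUltrametricDist F]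

theorem bd_of_X_pow_mul {R B : ℝ} (hR : 0 < R) {f : F⟦X⟧} {d : ℕ} (h : Bd R B (X ^ d * f)) :
    Bd R (B / R ^ d) f := by
  intro n
  have h1 := h (n + d)
  rw [coeff_X_pow_mul', if_pos (Nat.le_add_left d n), Nat.add_sub_cancel, pow_add] at h1
  rw [le_div_iff₀ (pow_pos hR d), mul_assoc]
  exact h1

theorem toL_injective : Function.Injective (toL F) := HahnSeries.ofPowerSeries_injective

theorem exists_toL {z : LaurentSeries F} (h : ∀ i < 0, z.coeff i = 0) : ∃ f : F⟦X⟧, z = toL F f := by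
  refine ⟨PowerSeries.mk fun n => z.coeff n, ?_⟩
  refine HahnSeries.ext (funext fun i => ?_)
  rw [toL, PowerSeries.coeff_coe]
  split_ifs with hi
  · exact h i hi
  · rw [coeff_mk]
    congr 1
    omega

/-- an element of `frB` without pole at the centre is a bounded series on a smaller disc -/
theorem exists_series {R0 : ℝ} {hR0 : 0 < R0} {z : LaurentSeries F}
    (hz : z ∈ frB (⊤ : Subfield F) hR0) (h : ∀ i < 0, z.coeff i = 0) :
    ∃ f : F⟦X⟧, z = toL F f ∧ ∃ R : ℝ, 0 < R ∧ R ≤ R0 ∧ ∃ D, Bd R D f := by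
  classical
  obtain ⟨f, rfl⟩ := exists_toL h
  refine ⟨f, rfl, ?_⟩
  obtain ⟨a, ⟨-, Ba, ha⟩, b, ⟨-, Bb, hb⟩, hb0, hab⟩ := hz
  rw [← map_mul] at hab
  have hfb : f * b = a := toL_injective hab
  have hex : ∃ n, coeff n b ≠ 0 := by
    by_contra hcon
    push Not at hcon
    exact hb0 (PowerSeries.ext fun i => by rw [hcon i, map_zero])
  set d := Nat.find hex with hd
  have hd1 : coeff d b ≠ 0 := Nat.find_spec hex
  have hd2 : ∀ n < d, coeff n b = 0 := fun n hn => by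
    by_contra hcon
    exact Nat.find_min hex hn hcon
  obtain ⟨b1, hb1⟩ := X_pow_dvd_iff.mpr hd2
  have hb10 : constantCoeff b1 ≠ 0 := by
    rw [hb1, coeff_X_pow_mul', if_pos le_rfl, Nat.sub_self, coeff_zero_eq_constantCoeff_apply] at hd1
    exact hd1
  have hb1b : Bd R0 (Bb / R0 ^ d) b1 := bd_of_X_pow_mul hR0 (by rw [← hb1]; exact hb)
  have hfb1 : Bd R0 (Ba / R0 ^ d) (f * b1) := bd_of_X_pow_mul hR0 (by
    rw [mul_left_comm, ← hb1, hfb]; exact ha)
  set D1 := Bb / R0 ^ d with hD1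
  have hD10 : 0 ≤ D1 := hb1b.nonneg
  set β := ‖constantCoeff b1‖ with hβ
  have hβ0 : 0 < β := norm_pos_iff.mpr hb10
  set R : ℝ := R0 * (β / (D1 + β)) with hR
  have hDβ : 0 < D1 + β := by linarith
  have hRpos : 0 < R := by positivity
  have hRR0 : R ≤ R0 := by
    rw [hR]
    refine mul_le_of_le_one_right hR0.le ?_
    rw [div_le_one hDβ]
    linarith
  have hdiv : R / R0 = β / (D1 + β) := by
    rw [hR]; field_simp
  refine ⟨R, hRpos, hRR0, ?_⟩
  have h1 := shrink hR0 hb1b hRpos hRR0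
  have h2 : D1 * (R / R0) < ‖constantCoeff b1‖ := by
    rw [hdiv, ← mul_div_assoc, div_lt_iff₀ hDβ, ← hβ]
    nlinarith
  have h3 := inv_bd hRpos h1 h2
  have h4 := (hfb1.mono_left hRpos.le hRR0).mul hRpos h3
  rw [mul_assoc, mul_inv' hb10, mul_one] at h4
  exact ⟨_, h4⟩

theorem exists_pos_le {ι : Type*} [Finite ι] (g : ι → ℝ) (hg : ∀ i, 0 < g i) :
    ∃ r : ℝ, 0 < r ∧ ∀ i, r ≤ g i := by
  rcases isEmpty_or_nonempty ι with h | h
  · exact ⟨1, one_pos, fun i => h.elim i⟩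
  · obtain ⟨i0, hi0⟩ := Finite.exists_min g
    exact ⟨g i0, hg i0, hi0⟩

theorem exists_le {ι : Type*} [Finite ι] (g : ι → ℝ) : ∃ r : ℝ, 0 ≤ r ∧ ∀ i, g i ≤ r := by
  rcases isEmpty_or_nonempty ι with h | h
  · exact ⟨0, le_rfl, fun i => h.elim i⟩
  · obtain ⟨i0, hi0⟩ := Finite.exists_max g
    exact ⟨max 0 (g i0), le_max_left _ _, fun i => (hi0 i).trans (le_max_right _ _)⟩

theorem coeff_sum_C {m : ℕ} (c : Fin m → F) (g : Fin m → LaurentSeries F) (i : ℤ) :
    (∑ j, HahnSeries.C (c j) * g j).coeff i = ∑ j, c j * (g j).coeff i := by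
  rw [HahnSeries.coeff_sum]
  refine Finset.sum_congr rfl fun j _ => ?_
  rw [HahnSeries.C_mul_eq_smul, HahnSeries.coeff_smul, smul_eq_mul]

/-- **the pencil as bounded series** -/
theorem pencil_series {m : ℕ} {R0 : ℝ} {hR0 : 0 < R0} {g : Fin m → LaurentSeries F}
    (hg : ∀ j, g j ∈ frB (⊤ : Subfield F) hR0) {al be : Fin m → F} {o : ℤ}
    (ho : ∀ j, ∀ i < o, (g j).coeff i = 0) (hbe : ∑ j, be j * (g j).coeff o ≠ 0) :
    ∃ (f : Fin m → F⟦X⟧) (R Cf : ℝ), 0 < R ∧ R ≤ R0 ∧ 0 ≤ Cf ∧ (∀ j, Bd R Cf (f j)) ∧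
      (∀ j, g j = toL F (f j) * ∑ l, HahnSeries.C (be l) * g l) ∧
      ∑ l, HahnSeries.C (be l) * g l ≠ 0 ∧
      ∑ j, C (be j) * f j = 1 ∧
      ∑ j, al j * (g j).coeff o =
        (∑ j, be j * (g j).coeff o) * constantCoeff (∑ j, C (al j) * f j) := by
  classical
  set B : LaurentSeries F := ∑ l, HahnSeries.C (be l) * g l with hB
  have hBo : B.coeff o ≠ 0 := by rw [hB, coeff_sum_C]; exact hbe
  have hB0 : B ≠ 0 := by
    rintro h
    rw [h] at hBo
    exact hBo rfl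
  have hBlow : ∀ i < o, B.coeff i = 0 := by
    intro i hi
    rw [hB, coeff_sum_C]
    exact Finset.sum_eq_zero fun j _ => by rw [ho j i hi, mul_zero]
  have hord : B.order = o := by
    refine le_antisymm (HahnSeries.order_le_of_coeff_ne_zero hBo) ?_
    by_contra hcon
    push Not at hcon
    exact (HahnSeries.coeff_order_eq_zero.not.mpr hB0) (hBlow _ hcon)
  have hBm : B ∈ frB (⊤ : Subfield F) hR0 :=
    sum_mem fun l _ => mul_mem (C_mem_frB trivial) (hg l)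
  have hz : ∀ j, ∃ f : F⟦X⟧, g j / B = toL F f ∧ ∃ R : ℝ, 0 < R ∧ R ≤ R0 ∧ ∃ D, Bd R D f := by
    intro j
    refine exists_series (hR0 := hR0) (div_mem (hg j) hBm) fun i hi => ?_
    by_contra hcon
    have hz0 : g j / B ≠ 0 := fun h => hcon (by rw [h]; rfl)
    have h1 : (g j / B).order ≤ i := HahnSeries.order_le_of_coeff_ne_zero hcon
    have h2 : (g j).order = (g j / B).order + B.order := by
      rw [← HahnSeries.order_mul hz0 hB0, div_mul_cancel₀ _ hB0]
    have hg0 : g j ≠ 0 := by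
      intro h
      rw [h, zero_div] at hz0
      exact hz0 rfl
    have h3 : (g j).order < o := by omega
    exact (HahnSeries.coeff_order_eq_zero.not.mpr hg0) (ho j _ h3)
  choose f hf R hR hRR0 D hD using hz
  obtain ⟨R1, hR1, hR1le⟩ := exists_pos_le R hR
  obtain ⟨Cf, hCf, hCfle⟩ := exists_le D
  have hfg : ∀ j, g j = toL F (f j) * B := fun j => by rw [← hf j, div_mul_cancel₀ _ hB0]
  have hsum : ∀ c : Fin m → F, toL F (∑ j, C (c j) * f j) * B = ∑ j, HahnSeries.C (c j) * g j := by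
    intro c
    rw [map_sum, Finset.sum_mul]
    refine Finset.sum_congr rfl fun j _ => ?_
    rw [map_mul, hfg j, mul_assoc, toL, HahnSeries.ofPowerSeries_C]
  refine ⟨f, min R1 R0, Cf, lt_min hR1 hR0, min_le_right _ _, hCf, fun j => ?_, hfg, hB0, ?_, ?_⟩
  · exact ((hD j).mono (hCfle j)).mono_left (lt_min hR1 hR0).le
      ((min_le_left _ _).trans (hR1le j))
  · apply toL_injective
    rw [map_one]
    have h1 := hsum be
    rw [← hB] at h1
    exact mul_right_cancel₀ hB0 (by rw [h1, one_mul])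
  · have h1 : (toL F (∑ j, C (al j) * f j) * B).coeff o =
        (∑ j, HahnSeries.C (al j) * g j).coeff o := by rw [hsum al]
    rw [coeff_sum_C] at h1
    rw [← h1]
    set φ := ∑ j, C (al j) * f j with hφ
    have h2 : ∑ j, be j * (g j).coeff o = B.coeff o := by rw [hB, coeff_sum_C]
    rw [h2]
    -- `φ = φ₀ + X φ₁`
    obtain ⟨φ1, hφ1⟩ : ∃ φ1 : F⟦X⟧, φ - C (constantCoeff φ) = X * φ1 := by
      refine X_dvd_iff.mpr ?_
      rw [map_sub, constantCoeff_C, sub_self]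
    have h3 : φ = C (constantCoeff φ) + X * φ1 := by rw [← hφ1]; ring
    have h4 : toL F φ * B = HahnSeries.C (constantCoeff φ) * B +
        HahnSeries.single (1 : ℤ) (1 : F) * (toL F φ1 * B) := by
      conv_lhs => rw [h3]
      rw [map_add, map_mul, toL, HahnSeries.ofPowerSeries_C, HahnSeries.ofPowerSeries_X]
      ring
    rw [h4, HahnSeries.coeff_add, HahnSeries.C_mul_eq_smul, HahnSeries.coeff_smul, smul_eq_mul]
    have h5 : (HahnSeries.single (1 : ℤ) (1 : F) * (toL F φ1 * B)).coeff o = 0 := by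
      have h6 : o = (o - 1) + 1 := by ring
      rw [h6, HahnSeries.coeff_single_mul_add, one_mul]
      by_contra hcon
      have hne : toL F φ1 * B ≠ 0 := fun h => hcon (by rw [h]; rfl)
      have h7 := HahnSeries.order_le_of_coeff_ne_zero hcon
      have hφ10 : toL F φ1 ≠ 0 := fun h => hne (by rw [h, zero_mul])
      rw [HahnSeries.order_mul hφ10 hB0, hord] at h7
      have h8 : 0 ≤ (toL F φ1).order := by
        by_contra hc
        push Not at hc
        refine (HahnSeries.coeff_order_eq_zero.not.mpr hφ10) ?_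
        rw [toL, PowerSeries.coeff_coe, if_pos hc]
      omega
    rw [h5, add_zero, mul_comm]

end series

end Crest.Agent.R013.DE2_205
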