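import Crest.Agent.R013.DG1_779

/-!
# Row 13, D-line, leaf D-G (helper779), file 2: the function `h = ∏ (F - α i)^(a i)`

* `PF.h S F`, `PF.h_ne_zero`;
* `PF.dlog` : `D h = h * (c μ(F) / ∏ (F - α i)) * D F`;
* values of `h`: `v_h_of_large`, `v_h_of_unit`, `v_h_of_near`;
* order of `dlog h`: `v_dlog`.
-/

set_option autoImplicit false

namespace Crest.Agent.R013.DG_779

open Polynomial Finset

variable {μ : ℤ[X]} {ι : Type} [Fintype ι] [DecidableEq ι]

theorem prod_zpow_sum {G : Type*} [CommGroupWithZero G] {x : G} (hx : x ≠ 0) (a : ι → ℤ) :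
    ∏ i, x ^ a i = x ^ ∑ i, a i := by
  have : ∀ s : Finset ι, ∏ i ∈ s, x ^ a i = x ^ ∑ i ∈ s, a i := by
    intro s
    induction s using Finset.induction_on with
    | empty => simp
    | insert i s hi ih => rw [Finset.prod_insert hi, Finset.sum_insert hi, ih, zpow_add₀ hx]
  exact this univ

namespace PF

variable (S : PF μ ι) {K : Type*} [Field K]

/-- the function `h = ∏ (F - α i) ^ (a i)` -/
noncomputable def h (F : K) : K := ∏ i, (F - (S.α i : K)) ^ S.a i

theorem h_ne_zero {F : K} (hF : ∀ i, F ≠ (S.α i : K)) : S.h F ≠ 0 :=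
  Finset.prod_ne_zero_iff.mpr (fun i _ => zpow_ne_zero _ (sub_ne_zero.mpr (hF i)))

theorem map_h {L : Type*} [Field L] (f : K →+* L) (F : K) : f (S.h F) = S.h (f F) := by
  simp [h, map_prod, map_zpow₀]

/-- the partial fraction identity in a field -/
theorem sum_div {F : K} (hF : ∀ i, F ≠ (S.α i : K)) :
    ∑ i, (S.a i : K) / (F - (S.α i : K)) =
      (S.c : K) * aeval F μ / ∏ i, (F - (S.α i : K)) := by
  have hne : ∀ i, F - (S.α i : K) ≠ 0 := fun i => sub_ne_zero.mpr (hF i)
  have hprod : ∏ i, (F - (S.α i : K)) ≠ 0 := Finset.prod_ne_zero_iff.mpr (fun i _ => hne i)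
  have key := congrArg (fun q : ℤ[X] => aeval F q) S.key
  simp only [map_sum, map_mul, map_prod, map_sub, aeval_X, eq_intCast, map_intCast] at key
  rw [eq_div_iff hprod, ← key, Finset.sum_mul]
  refine Finset.sum_congr rfl (fun i _ => ?_)
  rw [← Finset.mul_prod_erase univ _ (Finset.mem_univ i)]
  field_simp [hne i]

/-- **logarithmic derivative** -/
theorem dlog {R : Type*} [CommRing R] [Algebra R K] (D : Derivation R K K) {F : K}
    (hF : ∀ i, F ≠ (S.α i : K)) :
    D (S.h F) = S.h F * ((S.c : K) * aeval F μ / (∏ i, (F - (S.α i : K))) * D F) := by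
  have hne : ∀ i, F - (S.α i : K) ≠ 0 := fun i => sub_ne_zero.mpr (hF i)
  have hz : ∀ (x : K), x ≠ 0 → ∀ n : ℤ, D (x ^ n) = x ^ n * ((n : K) / x * D x) := by
    intro x hx n
    rw [Derivation.leibniz_zpow]
    rw [zsmul_eq_mul, smul_eq_mul, zpow_sub_one₀ hx]
    field_simp
  have hprod : ∀ s : Finset ι, D (∏ i ∈ s, (F - (S.α i : K)) ^ S.a i) =
      (∏ i ∈ s, (F - (S.α i : K)) ^ S.a i) * ((∑ i ∈ s, (S.a i : K) / (F - (S.α i : K))) * D F) := by
    intro s
    induction s using Finset.induction_on with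
    | empty => simp
    | insert i s hi ih =>
      rw [Finset.prod_insert hi, Derivation.leibniz, ih, Finset.sum_insert hi, hz _ (hne i)]
      have : D (F - (S.α i : K)) = D F := by
        rw [map_sub]
        simp
      rw [this, smul_eq_mul, smul_eq_mul]
      ring
  rw [h, hprod univ, S.sum_div hF]

variable {Γ : Type*} [LinearOrderedCommGroupWithZero Γ] (v : Valuation K Γ)

/-- at the poles of `F` -/
theorem v_h_of_large {F : K} (hF : ∀ i, v (S.α i : K) < v F) : v (S.h F) = 1 := by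
  have h1 : ∀ i, v (F - (S.α i : K)) = v F := fun i => by
    rw [Valuation.map_sub_eq_of_lt_left v (hF i)]
  rcases isEmpty_or_nonempty ι with hι | ⟨⟨i₀⟩⟩
  · simp [h]
  · have hv0 : v F ≠ 0 := fun h0 => not_lt_zero (h0 ▸ hF i₀)
    rw [h, map_prod]
    simp only [map_zpow₀, h1]
    rw [prod_zpow_sum hv0, S.sum_a, zpow_zero]

/-- at the points where `F - α i` are units -/
theorem v_h_of_unit {F : K} (hF : ∀ i, v (F - (S.α i : K)) = 1) : v (S.h F) = 1 := by
  rw [h, map_prod]
  simp [hF]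

/-- near a point of the fibre of `α i₀` -/
theorem v_h_of_near {F : K} (i₀ : ι)
    (hF : ∀ j, j ≠ i₀ → v (F - (S.α i₀ : K)) < v ((S.α i₀ : K) - (S.α j : K))) :
    v (S.h F) = v (F - (S.α i₀ : K)) ^ S.a i₀ *
      ∏ j ∈ univ.erase i₀, v ((S.α i₀ : K) - (S.α j : K)) ^ S.a j := by
  rw [h, map_prod, ← Finset.mul_prod_erase univ _ (Finset.mem_univ i₀), map_zpow₀]
  congr 1
  refine Finset.prod_congr rfl (fun j hj => ?_)
  have h1 : F - (S.α j : K) = (F - (S.α i₀ : K)) + ((S.α i₀ : K) - (S.α j : K)) := by ring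
  rw [map_zpow₀, h1, Valuation.map_add_eq_of_lt_right v (hF j (Finset.ne_of_mem_erase hj))]

end PF

end Crest.Agent.R013.DG_779
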