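import Crest.Agent.R013.DLoc5_381

/-!
# R013 / D-LINE, D-LOC: `GoodC` (stage 1) and `GoodAt` (stage 2) from `DLoc5_381.level`  (helper381)
-/

set_option autoImplicit false
set_option linter.unusedSectionVars false
set_option maxHeartbeats 1000000

namespace Crest.Agent.R013.DLoc6_381

open PowerSeries Filter
open scoped NNReal Topology
open Crest.NumberTheoryR.Sect
open Crest.Agent.R013.KAS2_940 (Bd)
open Crest.Agent.R013.Small2_940 Crest.Agent.R013.Small3_940 Crest.Agent.R013.Small4_940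
open Crest.Agent.R013.Good5_940
open Crest.Agent.R013.LemD_323 (shift)
open Crest.Agent.R013.Puis_702 (mapL)
open Crest.Agent.R013.SE_669 Crest.Agent.R013.CGood_588 Crest.Agent.R013.GoodP_797
open Crest.Agent.R013.GoodC_669 Crest.Agent.R013.Cof1_669 Crest.Agent.R013.Cof2_669
open Crest.Agent.R013.Cof5_669 Crest.Agent.R013.Cof10_669
open Crest.Agent.R013.DLoc1_381 Crest.Agent.R013.DLoc4_381 Crest.Agent.R013.DLoc5_381

universe u uF

variable {p : ℕ} [hpF : Fact p.Prime] {k : Type*} [Field k] [CharZero k] [Algebra ℚ_[p] k]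
  [FiniteDimensional ℚ_[p] k] {K : Type u} [Field K] [Algebra k K]
  [Algebra (RatFunc k) K] [IsScalarTower k (RatFunc k) K] [FiniteDimensional (RatFunc k) K]
  {F : Type uF} [NontriviallyNormedField F] [IsUltrametricDist F] [CompleteSpace F] [CharZero F]
  [Algebra ℚ F]

local notation "Kb" => AlgebraicClosure K

/-- **stage 1**: the class is unramified. -/
theorem goodC {jC : Cb k K →+* F}
    (hjn : ∀ a : ℚ_[p], ‖jC (algebraMap k (Cb k K) (algebraMap ℚ_[p] k a))‖ = ‖a‖)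
    (hjd : DenseRange jC)
    {C₀ : IntermediateField k Kb} [FiniteDimensional k C₀]
    {P : Valuation Kb ℝ≥0} {x : Kb} (hRU : RatUnif k K C₀ P x) {hxY : x ∈ Kgeo k K}
    (hru : RU (iY k K) (P.comap (algebraMap (Kgeo k K) Kb)) ⟨x, hxY⟩)
    {J : Kgeo k K →+* LaurentSeries (Cb k K)}
    (hJ : IsExp (iY k K) (P.comap (algebraMap (Kgeo k K) Kb)) ⟨x, hxY⟩ J)
    {R : ℝ} (hR : 0 < R) (hYR : ∀ z : Kgeo k K, mapL jC (J z) ∈ frB (⊤ : Subfield F) hR)
    {r : ℕ} {S : Set (MvPolynomial (Option (Fin r)) ℤ)} (hS : GoodS.{u} p S)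
    {om H eta : F⟦X⟧} {D CH : ℝ} {n : ℕ} {q c : F} (hq : ‖q‖ < R) (hc0 : c ≠ 0) (hcR : ‖c‖ < R)
    (hom : Bd R D om) (hK : Kas.{uF} p S (shift q om) R n c)
    (hH : Bd R CH H) (heta : Bd R (‖(p : F)‖ ^ (n + 1) / R) eta) (hH0 : H ≠ 0)
    (hHom : d⁄dX F H = (om + eta) * H) {h : Kgeo k K}
    {a b : F⟦X⟧} {Ba Bb : ℝ} (ha : Bd R Ba a) (hb : Bd R Bb b) (ha' : a ≠ 0) (hb' : b ≠ 0)
    (hab : mapL jC (J h) * toL F (b ^ p ^ (n + 1)) = toL F (H * a ^ p ^ (n + 1)))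
    {y1 : Kb} (hy1 : y1 ^ p ^ (n + 1) = h) (hy1M : y1 ∈ maxUnramified k K)
    {η : ℝ≥0} {π : Cb k K} (hqπ : ‖q‖ < η * ‖jC π‖) (hcπ : ‖c‖ < η * ‖jC π‖)
    (hπR : ‖jC π‖ < η * R) : GoodC p k K C₀ P x π η := by
  obtain ⟨v, hvC, hvn, -, -, hπ0, hπv, C₁, q1, c1, hC, hCf, hπC, hqC, hcC, hc10, hq1, hc1, hlev, hT⟩ :=
    level (p := p) hjn hjd hRU hru hJ hR hYR hS hq hc0 hcR hom hK hH heta hH0 hHom ha hb ha' hb'
      hab hy1 hqπ hcπ hπR
  obtain ⟨h1, h2⟩ := hlev C₁ hC hCf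
  refine ⟨C₁, q1, c1, v, hC, hCf, hπC, hqC, hcC, hπ0, hc10, hq1, hc1, hvn, ⟨_, hπv, h1⟩, h2, hT _ ?_⟩
  have h3 : (KC K C₁ ⊔ IntermediateField.adjoin K {y1} : IntermediateField K Kb) ≤
      maxUnramified k K := by
    refine sup_le (KC_le_M C₁) ?_
    rw [IntermediateField.adjoin_simple_le_iff]
    exact hy1M
  exact h3

/-- **stage 2**: the class is in the closure; `level` is applied first (it gives `v`, `C₁`, `q1`,
`c1`), then the cut gives `hcl` for some finite `C ≥ C₁`. -/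
theorem goodAt_of_cl {P : Valuation Kb ℝ≥0} {x : K} {v : Valuation Kb ℝ≥0}
    (hvn : ExtendsPadicNorm k Kb p v) {δ η : ℝ≥0} {π : Kb} (hπ0 : π ≠ 0) (hπδ : v π < δ)
    {R : ℝ≥0} (hπR : v π < η * R) {C₁ : IntermediateField k Kb} {q1 c1 : Kb}
    (hC₁ : FiniteDimensional k C₁) (hπC : π ∈ C₁) (hqC : q1 ∈ C₁) (hcC : c1 ∈ C₁) (hc10 : c1 ≠ 0)
    (hq1 : v q1 < η * v π) (hc1 : v c1 < η * v π)
    (hdisc : DiscEmb K C₁ P (algebraMap K Kb x) R v)
    (hgauss : GaussAt C₁ ((algebraMap K Kb x - q1) / c1) v) {y1 : Kb}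
    (hT : ∀ T : Set Kb, ((KC K C₁ ⊔ IntermediateField.adjoin K {y1} : IntermediateField K Kb) :
          Set Kb) ⊆ T → VertexEq p v T ((algebraMap K Kb x - q1) / c1))
    {C : IntermediateField k Kb} (hC : C₁ ≤ C)
    (hcl : ((KC K C ⊔ IntermediateField.adjoin K {y1} : IntermediateField K Kb) : Set Kb) ⊆
      cl v (maxUnramified k K : Set Kb)) : GoodAt p k K P x δ η := by
  refine ⟨C₁, π, q1, c1, v, hC₁, hπC, hqC, hcC, hπ0, hc10, hπδ, hq1, hc1, hvn, ⟨R, hπR, hdisc⟩,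
    hgauss, ?_⟩
  refine VertexEq.of_cl (hT _ ?_)
  have h1 : (KC K C₁ ⊔ IntermediateField.adjoin K {y1} : IntermediateField K Kb) ≤
      KC K C ⊔ IntermediateField.adjoin K {y1} := sup_le_sup (KC_mono hC) le_rfl
  exact fun z hz => hcl (h1 hz)

end Crest.Agent.R013.DLoc6_381
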