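import Crest.Agent.R013.DE25_205
import Crest.Agent.R013.DLoc6_381
import Crest.Agent.R013.DAsm1_906
import Crest.Agent.R013.DG2_779

/-!
# R013 / D-LINE, leaf D-ST2 (STEP E of #4158), part 6: `st2 : DAsm1_906.ST2`   (helper205)

* `PencilAt` : the input at the place `P` (906's NOBP at `P`, non proportionality), in expansions;
* `exists_JY` : the expansion on `K k̄` and its radius;
* `fin_step` : 381's `level` + `goodAt_of_cl`;
* `st2`.
-/

set_option autoImplicit false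
set_option linter.unusedSectionVars false
set_option maxHeartbeats 1000000

namespace Crest.Agent.R013.DE2_205

open PowerSeries Filter
open scoped NNReal Topology
open Crest.NumberTheoryR.Sect
open Crest.Agent.R013.KAS2_940 (Bd bd_zero bd_C bd_one)
open Crest.Agent.R013.KAS2_940
open Crest.Agent.R013.KAS3_940 Crest.Agent.R013.Good3_940 Crest.Agent.R013.Good5_940
open Crest.Agent.R013.Small2_940 Crest.Agent.R013.Small3_940 Crest.Agent.R013.Small4_940
open Crest.Agent.R013.LemD_323 (shift coeff_shift)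
open Crest.Agent.R013.Puis_702 (mapL coeff_mapL)
open Crest.Agent.R013.SE_669 Crest.Agent.R013.CGood_588 Crest.Agent.R013.GoodP_797
open Crest.Agent.R013.GoodC_669 Crest.Agent.R013.Cof1_669 Crest.Agent.R013.Cof2_669
open Crest.Agent.R013.Cof5_669 Crest.Agent.R013.Cof10_669
open Crest.Agent.R013.DLoc1_381 Crest.Agent.R013.DLoc4_381 Crest.Agent.R013.DLoc5_381
open Crest.Agent.R013.DLoc6_381 Crest.Agent.R013.DDefs_906 Crest.Agent.R013.DAsm1_906

universe uF

section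

variable {k : Type} [Field k] {K : Type} [Field K] [Algebra k K]

local notation "Kb" => AlgebraicClosure K

/-- **the input at the place `P`** : `o = min (ord A, ord B) ≤ ord b_j` for all `j`; `A`, `B` are not
proportional. -/
def PencilAt {F : Type*} [Field F] {m : ℕ} (jC : Cb k K →+* F) (b : Fin m → K) (al be : Fin m → F)
    (J : Kgeo k K →+* LaurentSeries (Cb k K)) : Prop :=
  (∃ o : ℤ, (∀ j, ∀ i < o, (J (algebraMap K (Kgeo k K) (b j))).coeff i = 0) ∧
    (∑ j, al j * jC ((J (algebraMap K (Kgeo k K) (b j))).coeff o) ≠ 0 ∨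
      ∑ j, be j * jC ((J (algebraMap K (Kgeo k K) (b j))).coeff o) ≠ 0)) ∧
  ∀ s t : F, (∀ i : ℤ, ∑ j, (s * al j + t * be j) *
    jC ((J (algebraMap K (Kgeo k K) (b j))).coeff i) = 0) → s = 0 ∧ t = 0

theorem PencilAt.symm {F : Type*} [Field F] {m : ℕ} {jC : Cb k K →+* F} {b : Fin m → K}
    {al be : Fin m → F} {J : Kgeo k K →+* LaurentSeries (Cb k K)} (h : PencilAt jC b al be J) :
    PencilAt jC b be al J := by
  obtain ⟨⟨o, h1, h2⟩, h3⟩ := h
  refine ⟨⟨o, h1, h2.symm⟩, fun s t hst => ?_⟩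
  have h4 := h3 t s fun i => by
    rw [← hst i]
    exact Finset.sum_congr rfl fun j _ => by ring
  exact ⟨h4.2, h4.1⟩

variable {p : ℕ} [hpF : Fact p.Prime] [CharZero k] [Algebra ℚ_[p] k] [FiniteDimensional ℚ_[p] k]
  [Algebra (RatFunc k) K] [IsScalarTower k (RatFunc k) K] [FiniteDimensional (RatFunc k) K]
  {F : Type uF} [NontriviallyNormedField F] [IsUltrametricDist F]

/-- the expansion on `K k̄` and its radius of convergence -/
theorem exists_JY {P : Valuation Kb ℝ≥0} {x : K}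
    (hP : IsRationalPlace k K (P.comap (algebraMap K Kb)))
    (hx : IsUniformizerAt (P.comap (algebraMap K Kb)) x) (jC : Cb k K →+* F) :
    ∃ J : Kgeo k K →+* LaurentSeries (Cb k K),
      IsExp (iY k K) (P.comap (algebraMap (Kgeo k K) Kb)) (algebraMap K (Kgeo k K) x) J ∧
      ∃ R0 : ℝ, 0 < R0 ∧ ∀ (R : ℝ) (hR : 0 < R), R ≤ R0 → ∀ z : Kgeo k K,
        mapL jC (J z) ∈ frB (⊤ : Subfield F) hR := by
  obtain ⟨JM, hJM⟩ := exists_JM (k := k) hP hx
  have hle : Kgeo k K ≤ maxUnramified k K := by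
    unfold Kgeo
    rw [IntermediateField.adjoin_le_iff]
    intro c hc
    exact kb_le_M hc
  let inc : Kgeo k K →+* maxUnramified k K := (IntermediateField.inclusion hle).toRingHom
  have hbot : (⊥ : IntermediateField K Kb) ≤ maxUnramified k K := bot_le
  obtain ⟨T0, ρ, hρ, hrad⟩ := exists_radius hP hx hJM jC (⊥ : IntermediateField K Kb) hbot
  refine ⟨JM.comp inc, ⟨fun c => ?_, ?_, fun a ha n hn => ?_⟩, ρ, hρ, fun R hR hRρ z => ?_⟩
  · have h1 : inc (iY k K c) = iM k K c := rfl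
    rw [RingHom.comp_apply, h1, hJM.con]
  · have h1 : inc (algebraMap K (Kgeo k K) x) = algebraMap K (maxUnramified k K) x := rfl
    rw [RingHom.comp_apply, h1, hJM.par]
  · exact hJM.nonneg (inc a) ha n hn
  · refine frB_mono le_top (hrad R hR hRρ (algebraicClosure k Kb) (fun t _ => t.2)
      (fun c hc => mem_kb.mp hc) (inc z) ?_)
    have h1 : (z : Kb) ∈ (⊥ : IntermediateField K Kb) ⊔ IntermediateField.adjoin K (CbS k K) := by
      rw [bot_sup_eq]
      exact z.2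
    exact closure_of_mem_sup (⊥ : IntermediateField K Kb) (CbS k K) h1

variable [CompleteSpace F] [CharZero F] [Algebra ℚ F]

/-- 381's `level` and `goodAt_of_cl` -/
theorem fin_step (hc : algebraicClosure k K = ⊥) {jC : Cb k K →+* F}
    (hjn : ∀ a : ℚ_[p], ‖jC (algebraMap k (Cb k K) (algebraMap ℚ_[p] k a))‖ = ‖a‖)
    (hjd : DenseRange jC) {P : Valuation Kb ℝ≥0} {x : K}
    (hP : IsRationalPlace k K (P.comap (algebraMap K Kb)))
    (hx : IsUniformizerAt (P.comap (algebraMap K Kb)) x)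
    {J : Kgeo k K →+* LaurentSeries (Cb k K)}
    (hJ : IsExp (iY k K) (P.comap (algebraMap (Kgeo k K) Kb)) (algebraMap K (Kgeo k K) x) J)
    {R : ℝ} (hR : 0 < R) (hYR : ∀ z : Kgeo k K, mapL jC (J z) ∈ frB (⊤ : Subfield F) hR)
    {r : ℕ} {S : Set (MvPolynomial (Option (Fin r)) ℤ)} (hS : GoodS.{0} p S)
    {om H eta : F⟦X⟧} {D CH : ℝ} {n : ℕ} {q c : F} (hq : ‖q‖ < R) (hc0 : c ≠ 0) (hcR : ‖c‖ < R)
    (hom : Bd R D om) (hK : Kas.{uF} p S (shift q om) R n c)
    (hH : Bd R CH H) (heta : Bd R (‖(p : F)‖ ^ (n + 1) / R) eta) (hH0 : H ≠ 0)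
    (hHom : d⁄dX F H = (om + eta) * H) {h : Kgeo k K} (hh : mapL jC (J h) = toL F H)
    {y : Kb} (hy : y ^ p ^ (n + 1) = h)
    {δ η : ℝ≥0} {π : Cb k K} (hqπ : ‖q‖ < η * ‖jC π‖) (hcπ : ‖c‖ < η * ‖jC π‖)
    (hπR : ‖jC π‖ < η * R) (hπδ : ‖jC π‖ < δ) :
    ∃ v : Valuation Kb ℝ≥0, ExtendsPadicNorm k Kb p v ∧
      (∀ (f : Kgeo k K) (a : F⟦X⟧) (B : ℝ), Bd R B a → mapL jC (J f) = toL F a →
        (v f : ℝ) ≤ B) ∧
      (∀ (f : Kgeo k K) (a : F⟦X⟧) (a0 : F) (B : ℝ), Bd R B (a - C a0) → B < ‖a0‖ →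
        mapL jC (J f) = toL F a → v f = ‖a0‖₊) ∧
      ∃ C₀ : IntermediateField k Kb, FiniteDimensional k C₀ ∧
        ∀ C : IntermediateField k Kb, C₀ ≤ C → FiniteDimensional k C →
          ((KC K C ⊔ IntermediateField.adjoin K {y} : IntermediateField K Kb) : Set Kb) ⊆
            cl v (maxUnramified k K : Set Kb) → GoodAt p k K P x δ η := by
  have hRU : RatUnif k K (⊥ : IntermediateField k Kb) P (algebraMap K Kb x) :=
    ratUnif_of_rational hP hx
  have hxY : algebraMap K Kb x ∈ Kgeo k K := (Kgeo k K).algebraMap_mem x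
  have hru := ru_Y hc hRU hxY
  have hJ' : IsExp (iY k K) (P.comap (algebraMap (Kgeo k K) Kb)) ⟨algebraMap K Kb x, hxY⟩ J := hJ
  have hab : mapL jC (J h) * toL F ((1 : F⟦X⟧) ^ p ^ (n + 1)) =
      toL F (H * (1 : F⟦X⟧) ^ p ^ (n + 1)) := by
    rw [one_pow, map_one, mul_one, mul_one]; exact hh
  obtain ⟨v, hvC, hvn, hv1, hv2, hπ0, hπv, C₁, q1, c1, -, hCf, hπC, hqC, hcC, hc10, hq1, hc1, hlev,
    hT⟩ := level (p := p) hjn hjd hRU hru hJ' hR hYR hS hq hc0 hcR hom hK hH heta hH0 hHom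
      (bd_one (r := R)) (bd_one (r := R)) one_ne_zero one_ne_zero hab hy hqπ hcπ hπR
  refine ⟨v, hvn, hv1, hv2, C₁, hCf, fun C hC _ hcl => ?_⟩
  obtain ⟨h1, h2⟩ := hlev C₁ bot_le hCf
  refine goodAt_of_cl (p := p) hvn hπ0 ?_ hπv hCf hπC hqC hcC hc10 hq1 hc1 h1 h2 hT hC hcl
  rw [hvC, ← NNReal.coe_lt_coe]
  exact hπδ

/-- the linear combinations in `K k̄` -/
noncomputable def lcY {m : ℕ} (b : Fin m → K) (a : Fin m → Cb k K) : Kgeo k K :=
  ∑ j, iY k K (a j) * algebraMap K (Kgeo k K) (b j)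

omit [CharZero k] [Algebra (RatFunc k) K] [IsScalarTower k (RatFunc k) K]
  [FiniteDimensional (RatFunc k) K] in
theorem coe_lcY {m : ℕ} (b : Fin m → K) (a : Fin m → Cb k K) : ((lcY b a : Kgeo k K) : Kb) = lc b a := by
  unfold lcY lc
  push_cast
  rfl

theorem mapL_lcY {m : ℕ} {b : Fin m → K} {a : Fin m → Cb k K} {jC : Cb k K →+* F}
    {J : Kgeo k K →+* LaurentSeries (Cb k K)} {P : Valuation Kb ℝ≥0} {x : Kgeo k K}
    (hJ : IsExp (iY k K) (P.comap (algebraMap (Kgeo k K) Kb)) x J) :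
    mapL jC (J (lcY b a)) =
      ∑ j, HahnSeries.C (jC (a j)) * mapL jC (J (algebraMap K (Kgeo k K) (b j))) := by
  unfold lcY
  rw [map_sum, map_sum]
  refine Finset.sum_congr rfl fun j _ => ?_
  rw [map_mul, map_mul, hJ.con, mapL_C]

/-- **both cases** -/
theorem main_case (hc : algebraicClosure k K = ⊥) {jC : Cb k K →+* F}
    (hjn : ∀ a : ℚ_[p], ‖jC (algebraMap k (Cb k K) (algebraMap ℚ_[p] k a))‖ = ‖a‖)
    (hjd : DenseRange jC) {P : Valuation Kb ℝ≥0} {x : K}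
    (hP : IsRationalPlace k K (P.comap (algebraMap K Kb)))
    (hx : IsUniformizerAt (P.comap (algebraMap K Kb)) x)
    {J : Kgeo k K →+* LaurentSeries (Cb k K)}
    (hJ : IsExp (iY k K) (P.comap (algebraMap (Kgeo k K) Kb)) (algebraMap K (Kgeo k K) x) J)
    {R00 : ℝ} (hR00 : 0 < R00) (hYR : ∀ (R : ℝ) (hR : 0 < R), R ≤ R00 → ∀ z : Kgeo k K,
        mapL jC (J z) ∈ frB (⊤ : Subfield F) hR)
    {m : ℕ} {b : Fin m → K} {al be : Fin m → F} {o : ℤ}
    (ho : ∀ j, ∀ i < o, (J (algebraMap K (Kgeo k K) (b j))).coeff i = 0)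
    (hbe : ∑ j, be j * jC ((J (algebraMap K (Kgeo k K) (b j))).coeff o) ≠ 0)
    (hnp : ∀ s t : F, (∀ i : ℤ, ∑ j, (s * al j + t * be j) *
      jC ((J (algebraMap K (Kgeo k K) (b j))).coeff i) = 0) → s = 0 ∧ t = 0)
    (Bad : Finset ℤ) (l μ : ℤ → ℤ)
    (hsel : ∀ φ0 : F, ∑ j, al j * jC ((J (algebraMap K (Kgeo k K) (b j))).coeff o) =
        (∑ j, be j * jC ((J (algebraMap K (Kgeo k K) (b j))).coeff o)) * φ0 →
      ∀ s0 : F, IsAlgebraic ℚ s0 → s0 ≠ 0 → ‖s0 - φ0‖ < 1 →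
      ∃ (M : ℕ) (N a : Fin M → ℤ), Function.Injective N ∧ (∀ i, N i ∉ Bad) ∧ ∑ i, a i = 0 ∧
        (∀ i, 1 ≤ ‖(l (N i) : F) * φ0 + (μ (N i) : F)‖) ∧
        ∑ i, (a i : F) * (l (N i) : F) / ((l (N i) : F) * s0 + (μ (N i) : F)) = 0 ∧
        ∑ i, (a i : F) * (l (N i) : F) ^ 2 / ((l (N i) : F) * s0 + (μ (N i) : F)) ^ 2 ≠ 0)
    {δ η : ℝ≥0} (hδ : 0 < δ) (hη : 0 < η) :
    ∃ (φ0 : F), ∑ j, al j * jC ((J (algebraMap K (Kgeo k K) (b j))).coeff o) =
        (∑ j, be j * jC ((J (algebraMap K (Kgeo k K) (b j))).coeff o)) * φ0 ∧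
      ∃ (M : ℕ) (N a : Fin M → ℤ) (n : ℕ), Function.Injective N ∧ (∀ i, N i ∉ Bad) ∧
        ∑ i, a i = 0 ∧ ∃ ε : ℝ, 0 < ε ∧ ∀ a1 a2 : Fin m → Cb k K, Close jC al ε a1 →
          Close jC be ε a2 → lcY b a2 ≠ 0 ∧ lcY b a1 / lcY b a2 ≠ 0 ∧
          ∀ y : Kb, y ^ p ^ (n + 1) = ((∏ i, ((l (N i) : Kgeo k K) * (lcY b a1 / lcY b a2) +
              (μ (N i) : Kgeo k K)) ^ a i : Kgeo k K) : Kb) →
            ∃ v : Valuation Kb ℝ≥0, ExtendsPadicNorm k Kb p v ∧
              (∀ i, 1 ≤ v (((l (N i) : Kgeo k K) * (lcY b a1 / lcY b a2) +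
                (μ (N i) : Kgeo k K) : Kgeo k K) : Kb)) ∧
              (φ0 = 0 → v ((lcY b a1 / lcY b a2 : Kgeo k K) : Kb) ≤ 1) ∧
              ∃ C₀ : IntermediateField k Kb, FiniteDimensional k C₀ ∧
                ∀ C : IntermediateField k Kb, C₀ ≤ C → FiniteDimensional k C →
                  ((KC K C ⊔ IntermediateField.adjoin K {y} : IntermediateField K Kb) : Set Kb) ⊆
                    cl v (maxUnramified k K : Set Kb) → GoodAt p k K P x δ η := by
  classical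
  have hp := hpF.out
  have hac : IsAlgClosed F := DLoc2_381.isAlgClosed_F hjd
  have hpn : ‖(p : F)‖ < 1 := norm_p_lt (k := k) (K := K) hjn
  have hd : ∀ (x : F) (ε : ℝ), 0 < ε → ∃ y : F, IsAlgebraic ℚ y ∧ ‖x - y‖ < ε := by
    have : Algebra.IsAlgebraic ℚ_[p] k := Algebra.IsAlgebraic.of_finite _ _
    exact DE2a_610.dense_alg' (p := p) (k := k) hjd hjn
  set g : Fin m → LaurentSeries F := fun j => mapL jC (J (algebraMap K (Kgeo k K) (b j))) with hg
  have hgc : ∀ j i, (g j).coeff i = jC ((J (algebraMap K (Kgeo k K) (b j))).coeff i) := by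
    intro j i
    rw [hg]
    exact coeff_mapL _ _ _
  obtain ⟨f, R1, Cf, hR1, hR1le, hCf, hf, hgf, hB0, hbe1, hrel⟩ := pencil_series (hR0 := hR00)
    (g := g) (al := al) (be := be) (o := o) (fun j => hYR R00 hR00 le_rfl _)
    (fun j i hi => by rw [hgc, ho j i hi, map_zero]) (by simpa only [hgc] using hbe)
  simp only [hgc] at hrel
  set φ : F⟦X⟧ := ∑ j, C (al j) * f j with hφd
  set B : LaurentSeries F := ∑ l, HahnSeries.C (be l) * g l with hB
  have hsum : ∀ c : Fin m → F, ∑ j, HahnSeries.C (c j) * g j = toL F (∑ j, C (c j) * f j) * B := by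
    intro c
    rw [map_sum, Finset.sum_mul]
    refine Finset.sum_congr rfl fun j _ => ?_
    rw [map_mul, hgf j, mul_assoc, toL, HahnSeries.ofPowerSeries_C]
  -- `φ` is not constant
  have hφ' : d⁄dX F φ ≠ 0 := by
    intro h0
    have h1 : φ = C (constantCoeff φ) := by
      ext n
      rw [coeff_C]
      rcases n with _ | n
      · rw [if_pos rfl, coeff_zero_eq_constantCoeff_apply]
      · rw [if_neg (Nat.succ_ne_zero n)]
        have h2 := congrArg (coeff n) h0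
        rw [coeff_derivative, map_zero] at h2
        have h3 : ((n : F) + 1) ≠ 0 := Nat.cast_add_one_ne_zero n
        exact (mul_eq_zero.mp h2).resolve_right h3
    have h2 : ∑ j, HahnSeries.C (al j) * g j = HahnSeries.C (constantCoeff φ) * B := by
      rw [hsum al, ← hφd]
      conv_lhs => rw [h1]
      rw [toL, HahnSeries.ofPowerSeries_C]
    have h3 := hnp 1 (-(constantCoeff φ)) fun i => by
      have h4 : (∑ j, HahnSeries.C (al j) * g j).coeff i =
          (HahnSeries.C (constantCoeff φ) * B).coeff i := by rw [h2]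
      rw [coeff_sum_C, HahnSeries.C_mul_eq_smul, HahnSeries.coeff_smul, smul_eq_mul, hB,
        coeff_sum_C] at h4
      simp only [hgc] at h4
      rw [← sub_eq_zero, Finset.mul_sum, ← Finset.sum_sub_distrib] at h4
      rw [← h4]
      exact Finset.sum_congr rfl fun j _ => by ring
    exact one_ne_zero h3.1
  obtain ⟨R, hR, hRR1, hana⟩ := ana.{0, uF} hp hpn hd hR1 hCf hf hbe1 hφd hφ' Bad l μ
    (hsel (constantCoeff φ) hrel)
  have hYR' : ∀ z : Kgeo k K, mapL jC (J z) ∈ frB (⊤ : Subfield F) hR :=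
    hYR R hR (hRR1.trans hR1le)
  -- `π`
  have hp0 : 0 < ‖(p : F)‖ := norm_p_pos
  obtain ⟨N1, hN1⟩ := exists_pow_lt_of_lt_one
    (show (0 : ℝ) < min (δ : ℝ) (η * R) from lt_min hδ (mul_pos hη hR)) hpn
  have hπ : ‖jC ((p : Cb k K) ^ N1)‖ = ‖(p : F)‖ ^ N1 := by
    rw [map_pow, map_natCast, norm_pow]
  have hπ0 : 0 < ‖(p : F)‖ ^ N1 := by positivity
  have hη' : (0 : ℝ) < η := hη
  obtain ⟨M, N, a, om, D, r, S, n, q, c, hN, hBad, ha0, hS, hom, hqε, hqR, hc0, hcε, hcR, hK, ε, hε,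
    hpert⟩ := hana (η * ‖(p : F)‖ ^ N1) (by positivity)
  refine ⟨constantCoeff φ, hrel, M, N, a, n, hN, hBad, ha0, ε, hε, fun a1 a2 h1 h2 => ?_⟩
  obtain ⟨φ', H', eta, CH, B1, hφ'1, hb'0, hφ'0, hB1, hφ'b, hw, hCH, hH'0, heta, hH', hprod⟩ :=
    hpert (fun j => jC (a1 j)) (fun j => jC (a2 j)) h1 h2
  have hJa : ∀ c : Fin m → Cb k K, mapL jC (J (lcY b c)) =
      toL F (∑ j, C (jC (c j)) * f j) * B := by
    intro c
    rw [mapL_lcY hJ]
    exact hsum fun j => jC (c j)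
  have hJinj : Function.Injective fun z => mapL jC (J z) :=
    (Puis_702.mapL_injective jC.injective).comp J.injective
  have hden : mapL jC (J (lcY b a2)) ≠ 0 := by
    rw [hJa]
    refine mul_ne_zero ?_ hB0
    rw [ne_eq, map_eq_zero_iff _ toL_injective]
    exact hb'0
  have hden' : lcY b a2 ≠ 0 := by
    intro h
    rw [h, map_zero, map_zero] at hden
    exact hden rfl
  set ψ : Kgeo k K := lcY b a1 / lcY b a2 with hψ
  have hJψ : mapL jC (J ψ) = toL F φ' := by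
    rw [hψ, map_div₀, map_div₀, div_eq_iff hden, hJa, hJa, hφ'1, map_mul, mul_assoc]
  have hψ0 : ψ ≠ 0 := by
    intro h
    rw [h, map_zero, map_zero] at hJψ
    exact hφ'0 (toL_injective (by rw [map_zero]; exact hJψ.symm))
  refine ⟨hden', hψ0, fun y hy => ?_⟩
  have hJlin : ∀ s t : ℤ, mapL jC (J ((s : Kgeo k K) * ψ + (t : Kgeo k K))) =
      toL F (C (s : F) * φ' + C (t : F)) := by
    intro s t
    rw [map_add, map_add, map_mul, map_mul, hJψ, map_intCast, map_intCast, map_intCast,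
      map_intCast, map_add, map_mul, ← cast_eq_C, ← cast_eq_C, map_intCast, map_intCast]
  have hh : mapL jC (J (∏ i, ((l (N i) : Kgeo k K) * ψ + (μ (N i) : Kgeo k K)) ^ a i)) =
      toL F H' := by
    rw [hprod, map_prod, map_prod]
    refine Finset.prod_congr rfl fun i _ => ?_
    rw [map_zpow₀, map_zpow₀, hJlin, map_add, map_mul, ← cast_eq_C, ← cast_eq_C, map_intCast,
      map_intCast]
  obtain ⟨v, hvn, hv1, hv2, C₀, hC₀, hfin⟩ := fin_step (p := p) hc hjn hjd hP hx hJ hR hYR' hS hqR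
    hc0 hcR hom hK hCH heta hH'0 hH' hh hy (δ := δ) (η := η) (π := (p : Cb k K) ^ N1)
    (by rw [hπ]; exact hqε) (by rw [hπ]; exact hcε)
    (by rw [hπ]; exact hN1.trans_le (min_le_right _ _))
    (by rw [hπ]; exact hN1.trans_le (min_le_left _ _))
  refine ⟨v, hvn, fun i => ?_, fun h0 => ?_, C₀, hC₀, hfin⟩
  · rw [hv2 _ _ _ B1 (bd_affine hφ'b (l (N i)) (μ (N i))) (hB1.trans_le (hw i)) (hJlin _ _),
      ← NNReal.coe_le_coe]
    exact hw i
  · rw [h0, map_zero, sub_zero] at hφ'b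
    have h3 := hv1 ψ φ' B1 hφ'b hJψ
    rw [← NNReal.coe_le_coe]
    exact h3.trans hB1.le

end

section final

variable {k : Type} [Field k] {K : Type} [Field K] [Algebra k K]

local notation "Kb" => AlgebraicClosure K

/-- **D-ST2** : `DAsm1_906.ST2` at every rational place `P` (also if `φ(P) = ∞`). -/
theorem st2 (p : ℕ) [Fact p.Prime] [Algebra ℚ_[p] k] [FiniteDimensional ℚ_[p] k]
    [Algebra (RatFunc k) K] [IsScalarTower k (RatFunc k) K] [FunctionField k K]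
    (hc : algebraicClosure k K = ⊥) {F : Type uF} [NontriviallyNormedField F] [IsUltrametricDist F]
    [CompleteSpace F] {jC : Cb k K →+* F}
    (hjn : ∀ a : ℚ_[p], ‖jC (algebraMap k (Cb k K) (algebraMap ℚ_[p] k a))‖ = ‖a‖)
    (hjd : DenseRange jC) {m : ℕ} {b : Fin m → K} {al be : Fin m → F}
    {P : Valuation Kb ℝ≥0} {x : K}
    (hP : IsRationalPlace k K (P.comap (algebraMap K Kb)))
    (hx : IsUniformizerAt (P.comap (algebraMap K Kb)) x)
    (h : ∀ J : Kgeo k K →+* LaurentSeries (Cb k K),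
      IsExp (iY k K) (P.comap (algebraMap (Kgeo k K) Kb)) (algebraMap K (Kgeo k K) x) J →
      PencilAt jC b al be J) (Bad : Finset ℤ) {δ η : ℝ≥0} (hδ : 0 < δ) (hη : 0 < η) :
    ST2 p jC b al be Bad P x δ η := by
  classical
  have hk0 : CharZero k := charZero_of_injective_algebraMap (algebraMap ℚ_[p] k).injective
  have hKfd : FiniteDimensional (RatFunc k) K := inferInstance
  have hCb0 : CharZero (Cb k K) := charZero_of_injective_algebraMap (algebraMap k (Cb k K)).injective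
  have hF0 : CharZero F := charZero_of_injective_ringHom jC.injective
  let iQ : Algebra ℚ F := DivisionRing.toRatAlgebra
  have hp := (Fact.out : p.Prime)
  have hpn : ‖(p : F)‖ < 1 := norm_p_lt (k := k) (K := K) hjn
  obtain ⟨J, hJ, R00, hR00, hYR⟩ := exists_JY (k := k) hP hx jC
  obtain ⟨⟨o, ho, hor⟩, hnp⟩ := h J hJ
  by_cases hbe : ∑ j, be j * jC ((J (algebraMap K (Kgeo k K) (b j))).coeff o) = 0
  · -- `φ(P) = ∞`
    have hal := hor.resolve_right (not_not.mpr hbe)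
    obtain ⟨φ0, hrel, M, N, a, n, hN, hBad, ha0, ε, hε, hmain⟩ := main_case (p := p) hc hjn hjd hP hx
      hJ hR00 hYR (al := be) (be := al) ho hal (fun s t hst => by
        have h4 := hnp t s fun i => by
          rw [← hst i]
          exact Finset.sum_congr rfl fun j _ => by ring
        exact ⟨h4.2, h4.1⟩) Bad (fun n => -n) (fun _ => 1) (by
        intro φ0 hφ0 s0 hs0 hs00 hs1
        rw [hbe] at hφ0
        have h0 : φ0 = 0 := (mul_eq_zero.mp hφ0.symm).resolve_left hal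
        subst h0
        exact sel_inf hp Bad s0 hs0 hs00 hs1) hδ hη
    have hφ00 : φ0 = 0 := by
      rw [hbe] at hrel
      exact (mul_eq_zero.mp hrel.symm).resolve_left hal
    refine ⟨M, N, a, n + 1, hBad, hN, ha0, ε, hε, fun a1 a2 h1 h2 y hy => ?_⟩
    obtain ⟨hden, hψ0, hfin⟩ := hmain a2 a1 h2 h1
    set ψ : Kgeo k K := lcY b a2 / lcY b a1 with hψ
    have hphi : phi b a1 a2 = ((ψ : Kgeo k K) : Kb)⁻¹ := by
      rw [hψ, phi, ← coe_lcY, ← coe_lcY]
      push_cast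
      rw [inv_div]
    have hψ0' : ((ψ : Kgeo k K) : Kb) ≠ 0 := fun h => hψ0 (Subtype.ext h)
    have hsub : ∀ i, phi b a1 a2 - (N i : Kb) =
        ((((-(N i) : ℤ) : Kgeo k K) * ψ + ((1 : ℤ) : Kgeo k K) : Kgeo k K) : Kb) *
          ((ψ : Kgeo k K) : Kb)⁻¹ := by
      intro i
      rw [hphi]
      push_cast
      field_simp
      ring
    obtain ⟨v, hvn, hv1, hv2, C₀, hC₀, hfin⟩ := hfin y (by
      rw [hy]
      have h3 : (((∏ i, (((-(N i) : ℤ) : Kgeo k K) * ψ + ((1 : ℤ) : Kgeo k K)) ^ a i : Kgeo k K)) :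
          Kb) = ∏ i, ((((-(N i) : ℤ) : Kgeo k K) * ψ + ((1 : ℤ) : Kgeo k K) : Kgeo k K) : Kb) ^ a i := by
        push_cast
        rfl
      rw [h3, Finset.prod_congr rfl fun i _ => by rw [hsub i, mul_zpow], Finset.prod_mul_distrib,
        DG_779.prod_zpow_sum (inv_ne_zero hψ0'), ha0, zpow_zero, mul_one])
    refine ⟨v, hvn, fun i => ?_, C₀, hC₀, hfin⟩
    have h4 := hv1 i
    have h5 := hv2 hφ00
    rw [hsub i, map_mul, map_inv₀]
    have h6 : 1 ≤ (v ((ψ : Kgeo k K) : Kb))⁻¹ :=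
      (one_le_inv₀ ((Valuation.pos_iff v).mpr hψ0')).mpr h5
    exact one_le_mul h4 h6
  · -- `φ(P)` finite
    obtain ⟨φ0, hrel, M, N, a, n, hN, hBad, ha0, ε, hε, hmain⟩ := main_case (p := p) hc hjn hjd hP hx
      hJ hR00 hYR (al := al) (be := be) ho hbe hnp Bad (fun _ => 1) (fun n => -n)
      (fun φ0 _ s0 hs0 _ hs1 => sel_fin hp hpn φ0 Bad s0 hs0 hs1) hδ hη
    refine ⟨M, N, a, n + 1, hBad, hN, ha0, ε, hε, fun a1 a2 h1 h2 y hy => ?_⟩
    obtain ⟨hden, hψ0, hfin⟩ := hmain a1 a2 h1 h2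
    set ψ : Kgeo k K := lcY b a1 / lcY b a2 with hψ
    have hphi : phi b a1 a2 = ((ψ : Kgeo k K) : Kb) := by
      rw [hψ, phi, ← coe_lcY, ← coe_lcY]
      push_cast
      rfl
    have hsub : ∀ i, ((((1 : ℤ) : Kgeo k K) * ψ + ((-(N i) : ℤ) : Kgeo k K) : Kgeo k K) : Kb) =
        phi b a1 a2 - (N i : Kb) := by
      intro i
      rw [hphi]
      push_cast
      ring
    obtain ⟨v, hvn, hv1, -, C₀, hC₀, hfin⟩ := hfin y (by
      rw [hy]
      have h3 : (((∏ i, (((1 : ℤ) : Kgeo k K) * ψ + ((-(N i) : ℤ) : Kgeo k K)) ^ a i : Kgeo k K)) :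
          Kb) = ∏ i, ((((1 : ℤ) : Kgeo k K) * ψ + ((-(N i) : ℤ) : Kgeo k K) : Kgeo k K) : Kb) ^ a i := by
        push_cast
        rfl
      rw [h3]
      exact Finset.prod_congr rfl fun i _ => by rw [hsub i])
    refine ⟨v, hvn, fun i => ?_, C₀, hC₀, hfin⟩
    rw [← hsub i]
    exact hv1 i

end final

end Crest.Agent.R013.DE2_205
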