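import Mathlib

/-!
# Row 13, D-line, leaf D-G (helper779), file 1: pure algebra

Partial fractions over `ℤ`: for `μ : ℤ[X]`, `μ ≠ 0`, and a finite set of forbidden integers there
are distinct integers `α i` (`i : Fin (deg μ + 2)`), non zero integers `a i` with sum zero, and
`c ≠ 0` such that `∑ a i / (X - α i) = c μ / ∏ (X - α i)`.
-/

set_option autoImplicit false

namespace Crest.Agent.R013.DG_779

open Polynomial Finset

/-- The data `(α, a, c)` for `μ`. -/
structure PF (μ : ℤ[X]) (ι : Type) [Fintype ι] [DecidableEq ι] where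
  α : ι → ℤ
  a : ι → ℤ
  c : ℤ
  inj : Function.Injective α
  c_ne : c ≠ 0
  a_ne : ∀ i, a i ≠ 0
  eval_ne : ∀ i, μ.eval (α i) ≠ 0
  sum_a : ∑ i, a i = 0
  key : ∑ i, C (a i) * ∏ j ∈ univ.erase i, (X - C (α j)) = C c * μ

theorem exists_distinct (μ : ℤ[X]) (hμ : μ ≠ 0) (Bad : Finset ℤ) (M : ℕ) :
    ∃ α : Fin M → ℤ, Function.Injective α ∧ (∀ i, α i ∉ Bad) ∧ ∀ i, μ.eval (α i) ≠ 0 := by
  classical
  have hinf : (Set.univ \ ((Bad ∪ μ.roots.toFinset : Finset ℤ) : Set ℤ)).Infinite :=
    Set.infinite_univ.sdiff (Finset.finite_toSet _)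
  obtain ⟨t, ht, hcard⟩ := hinf.exists_subset_card_eq M
  refine ⟨fun i => (t.orderEmbOfFin hcard i : ℤ), (t.orderEmbOfFin hcard).injective, ?_, ?_⟩
  · intro i hi
    have h1 := ht (t.orderEmbOfFin_mem hcard i)
    exact h1.2 (by simp only [coe_union, Set.mem_union, mem_coe]; exact Or.inl hi)
  · intro i hi
    have h1 := ht (t.orderEmbOfFin_mem hcard i)
    refine h1.2 ?_
    simp only [coe_union, Set.mem_union, mem_coe, Multiset.mem_toFinset]
    exact Or.inr ((mem_roots hμ).mpr hi)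

theorem pf_identity {ι : Type} [Fintype ι] [DecidableEq ι] (μ : ℤ[X]) (α : ι → ℤ)
    (hα : Function.Injective α) (hdeg : μ.natDegree + 1 < Fintype.card ι) :
    ∑ i, C (μ.eval (α i) * ∏ j ∈ univ.erase i, ∏ l ∈ univ.erase j, (α j - α l)) *
      ∏ j ∈ univ.erase i, (X - C (α j)) =
    C (∏ j, ∏ l ∈ univ.erase j, (α j - α l)) * μ := by
  classical
  have hinj : Function.Injective (Polynomial.map (Int.castRingHom ℚ)) :=
    Polynomial.map_injective _ Int.cast_injective
  apply hinj
  set P := Polynomial.map (Int.castRingHom ℚ) μ with hP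
  set β : ι → ℚ := fun i => (α i : ℚ) with hβ
  have hβi : Function.Injective β := fun i j hij => hα (by simpa [hβ] using hij)
  have hw : ∀ j, ∏ l ∈ univ.erase j, (β j - β l) ≠ 0 := by
    intro j
    refine Finset.prod_ne_zero_iff.mpr (fun l hl => ?_)
    rw [sub_ne_zero]
    exact fun h => (Finset.ne_of_mem_erase hl) (hβi h).symm
  have hPdeg : P.degree < (univ : Finset ι).card := by
    refine lt_of_le_of_lt degree_le_natDegree ?_
    have h1 : P.natDegree ≤ μ.natDegree := natDegree_map_le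
    have h2 : P.natDegree < (univ : Finset ι).card := by
      rw [Finset.card_univ]; omega
    exact_mod_cast h2
  have hint := Lagrange.eq_interpolate (s := univ) (v := β) (f := P) hβi.injOn hPdeg
  rw [Lagrange.interpolate_apply] at hint
  simp only [Polynomial.map_sum, Polynomial.map_mul, Polynomial.map_prod, Polynomial.map_sub,
    Polynomial.map_C, Polynomial.map_X]
  rw [← hP]
  conv_rhs => rw [hint, Finset.mul_sum]
  refine Finset.sum_congr rfl (fun i _ => ?_)
  have hb : Lagrange.basis univ β i =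
      C (∏ l ∈ univ.erase i, (β i - β l))⁻¹ * ∏ j ∈ univ.erase i, (X - C (β j)) := by
    rw [Lagrange.basis]
    simp only [Lagrange.basisDivisor]
    rw [Finset.prod_mul_distrib, ← map_prod, Finset.prod_inv_distrib]
  have he : Polynomial.eval (β i) P = ((μ.eval (α i) : ℤ) : ℚ) := by
    simp [hP, hβ]
  rw [hb, he]
  have hcw : (Int.castRingHom ℚ) (∏ j, ∏ l ∈ univ.erase j, (α j - α l)) =
      (∏ l ∈ univ.erase i, (β i - β l)) * ∏ j ∈ univ.erase i, ∏ l ∈ univ.erase j, (β j - β l) := by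
    rw [← Finset.mul_prod_erase univ _ (Finset.mem_univ i)]
    simp [hβ]
  have hcw' : (Int.castRingHom ℚ) (μ.eval (α i) * ∏ j ∈ univ.erase i, ∏ l ∈ univ.erase j, (α j - α l)) =
      ((μ.eval (α i) : ℤ) : ℚ) * ∏ j ∈ univ.erase i, ∏ l ∈ univ.erase j, (β j - β l) := by
    simp [hβ]
  have hX : (∏ j ∈ univ.erase i, (X - C ((Int.castRingHom ℚ) (α j)) : ℚ[X])) =
      ∏ j ∈ univ.erase i, (X - C (β j)) := by
    simp [hβ]
  rw [hcw, hcw', hX, ← mul_assoc, ← mul_assoc, ← C_mul, ← C_mul]
  congr 2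
  field_simp [hw i]

/-- **Existence of the partial fraction data.** -/
theorem exists_PF (μ : ℤ[X]) (hμ : μ ≠ 0) (Bad : Finset ℤ) (M : ℕ) (hM : μ.natDegree + 1 < M) :
    ∃ S : PF μ (Fin M), ∀ i, S.α i ∉ Bad := by
  classical
  obtain ⟨α, hα, hbad, hev⟩ := exists_distinct μ hμ Bad M
  have hw : ∀ j, ∏ l ∈ univ.erase j, (α j - α l) ≠ 0 := by
    intro j
    refine Finset.prod_ne_zero_iff.mpr (fun l hl => ?_)
    rw [sub_ne_zero]
    exact fun h => (Finset.ne_of_mem_erase hl) (hα h).symm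
  have key := pf_identity μ α hα (by simpa using hM)
  refine ⟨{ α := α, a := _, c := _, inj := hα, c_ne := Finset.prod_ne_zero_iff.mpr (fun j _ => hw j),
            a_ne := fun i => mul_ne_zero (hev i) (Finset.prod_ne_zero_iff.mpr (fun j _ => hw j)),
            eval_ne := hev, sum_a := ?_, key := key }, hbad⟩
  -- compare the coefficients of `X ^ (M - 1)`
  have h1 := congrArg (fun q : ℤ[X] => q.coeff (M - 1)) key
  simp only [finsetSum_coeff, coeff_C_mul] at h1
  have h2 : μ.coeff (M - 1) = 0 := coeff_eq_zero_of_natDegree_lt (by omega)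
  rw [h2, mul_zero] at h1
  rw [← h1]
  refine Finset.sum_congr rfl (fun i _ => ?_)
  have hmon : (∏ j ∈ univ.erase i, (X - C (α j))).Monic := monic_prod_of_monic _ _ (fun j _ => monic_X_sub_C _)
  have hdeg : (∏ j ∈ univ.erase i, (X - C (α j))).natDegree = M - 1 := by
    rw [natDegree_prod_of_monic _ _ (fun j _ => monic_X_sub_C _),
      Finset.sum_congr rfl (fun j _ => natDegree_X_sub_C _)]
    simp
  have : (∏ j ∈ univ.erase i, (X - C (α j))).coeff (M - 1) = 1 := by
    rw [← hdeg]; exact hmon.coeff_natDegree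
  rw [this, mul_one]

end Crest.Agent.R013.DG_779
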