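import Mathlib
import Crest.Agent.R013.PlX_863
import Crest.Agent.R013.Cvg_863

/-!
# Row 13, leaf SS-ONE (helper863): uniform convergence of the expansions of the integral functions
-/

set_option autoImplicit false
set_option linter.unusedSectionVars false
set_option linter.style.haveILetI false

open PowerSeries WithZero

namespace Crest.Agent.R013.One_863

open Crest.Agent.R013.RR7_948 Crest.Agent.R013.RR8_948 Crest.Agent.R013.RR11_948
open Crest.Agent.R013.RR12_948
open Crest.Agent.R013.Cell_408 Crest.Agent.R013.PlX_863 Crest.Agent.R013.Cvg_863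

variable {k C : Type*} [NontriviallyNormedField k] [NormedField C] [IsUltrametricDist C]
  [NormedAlgebra k C] [Algebra.IsAlgebraic k C]
variable {K : Type*} [Field K] [Algebra C K]
  [Algebra (RatFunc C) K] [IsScalarTower C (RatFunc C) K] [FiniteDimensional (RatFunc C) K]
  [Algebra.IsSeparable (RatFunc C) K]

theorem algPoly_apply (p : Polynomial C) :
    letI := algPoly C K
    algebraMap (Polynomial C) K p = Polynomial.aeval (xK C K) p := by
  letI := algPoly C K
  have h : (Polynomial.aeval (xK C K) : Polynomial C →ₐ[C] K) =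
      (IsScalarTower.toAlgHom C (RatFunc C) K).comp (IsScalarTower.toAlgHom C (Polynomial C) (RatFunc C)) := by
    apply Polynomial.algHom_ext
    rw [Polynomial.aeval_X, AlgHom.comp_apply, IsScalarTower.coe_toAlgHom', IsScalarTower.coe_toAlgHom',
      RatFunc.algebraMap_X]
    rfl
  rw [h]
  rfl

/-- integral functions are in the valuation ring -/
theorem integral_mem_OA {Q : Pl C K} (hy : xK C K ∈ OA Q) {b : K}
    (hb : letI := algPoly C K; IsIntegral (Polynomial C) b) : b ∈ OA Q := by
  letI := algPoly C K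
  refine RR8_948.le_one_of_integral (S := Polynomial C) Q.v (fun p => ?_) hb
  rw [algPoly_apply]
  have h1 : Polynomial.aeval (xK C K) p =
      ((Polynomial.aeval (⟨xK C K, hy⟩ : OA Q) p : OA Q) : K) := by
    rw [← Subalgebra.coe_val, ← Polynomial.aeval_algHom_apply]
    rfl
  rw [h1]
  exact (Polynomial.aeval (⟨xK C K, hy⟩ : OA Q) p : OA Q).2

variable (k) in
/-- the expansion of an integral function is in `BD` after rescaling -/
theorem exists_rescale {Q : Pl C K} (hy : xK C K ∈ OA Q) (ψ : OA Q →ₐ[C] C⟦X⟧) {P1 : Polynomial C}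
    (hψ : ψ ⟨xK C K, hy⟩ = (P1 : C⟦X⟧)) (hinj : Function.Injective ψ) (b : OA Q)
    (hb : letI := algPoly C K; IsIntegral (Polynomial C) (b : K)) :
    ∃ r : C, r ≠ 0 ∧ rescale r (ψ b) ∈ BD k C := by
  letI := algPoly C K
  haveI := towerPoly C K
  let j : Polynomial C →ₐ[C] OA Q := Polynomial.aeval ⟨xK C K, hy⟩
  have hj : ∀ p, ((j p : OA Q) : K) = algebraMap (Polynomial C) K p := by
    intro p
    rw [algPoly_apply, ← Subalgebra.coe_val, ← Polynomial.aeval_algHom_apply]
    rfl
  let P0 : Polynomial (Polynomial C) := minpoly (Polynomial C) (b : K)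
  have hP0 : Polynomial.aeval (b : K) P0 = 0 := minpoly.aeval _ _
  have hP0' : Polynomial.aeval (b : K) (Polynomial.derivative P0) ≠ 0 := by
    have h1 : minpoly (RatFunc C) (b : K) = P0.map (algebraMap (Polynomial C) (RatFunc C)) :=
      minpoly.isIntegrallyClosed_eq_field_fractions' (RatFunc C) hb
    have h3 : Polynomial.aeval (b : K) (minpoly (RatFunc C) (b : K)) = 0 := minpoly.aeval _ _
    have h4 : (minpoly (RatFunc C) (b : K)).Separable :=
      Algebra.IsSeparable.isSeparable (RatFunc C) (b : K)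
    have h2 := h4.aeval_derivative_ne_zero h3
    rw [h1, Polynomial.derivative_map, Polynomial.aeval_map_algebraMap] at h2
    exact h2
  -- transport to `OA Q`
  have hev : ∀ R : Polynomial (Polynomial C),
      (((R.map (j : Polynomial C →+* OA Q)).eval b : OA Q) : K) = Polynomial.aeval (b : K) R := by
    intro R
    rw [Polynomial.eval_map, Polynomial.aeval_def]
    have h1 := Polynomial.hom_eval₂ R (j : Polynomial C →+* OA Q) (OA Q).val.toRingHom b
    have h2 : ((OA Q).val.toRingHom).comp (j : Polynomial C →+* OA Q) =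
        algebraMap (Polynomial C) K := RingHom.ext hj
    rw [h2] at h1
    exact h1
  let P : Polynomial C⟦X⟧ := (P0.map (j : Polynomial C →+* OA Q)).map (ψ : OA Q →+* C⟦X⟧)
  refine exists_rescale_mem_BD k (P := P) (fun i => ?_) ?_ ?_
  · refine ⟨Polynomial.aeval P1 (P0.coeff i), ?_⟩
    rw [Polynomial.coeff_map, Polynomial.coeff_map]
    have h1 : (ψ : OA Q →+* C⟦X⟧) ((j : Polynomial C →+* OA Q) (P0.coeff i)) =
        Polynomial.aeval (P1 : C⟦X⟧) (P0.coeff i) := by
      show ψ (Polynomial.aeval (⟨xK C K, hy⟩ : OA Q) (P0.coeff i)) = _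
      rw [← Polynomial.aeval_algHom_apply, hψ]
    rw [h1]
    have h2 := Polynomial.aeval_algHom_apply (Polynomial.coeToPowerSeries.algHom (R := C) C)
      P1 (P0.coeff i)
    simpa [Polynomial.coeToPowerSeries.algHom_apply] using h2
  · have h1 : (P0.map (j : Polynomial C →+* OA Q)).eval b = 0 := by
      apply Subtype.ext
      rw [hev, hP0]; rfl
    show Polynomial.eval (ψ b) _ = 0
    have h2 := Polynomial.eval_map_apply (ψ : OA Q →+* C⟦X⟧) b
      (p := P0.map (j : Polynomial C →+* OA Q))
    rw [h1, map_zero] at h2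
    exact h2
  · have h1 : ((Polynomial.derivative P0).map (j : Polynomial C →+* OA Q)).eval b ≠ 0 := by
      intro h0
      apply hP0'
      rw [← hev, h0]; rfl
    show Polynomial.eval (ψ b) (Polynomial.derivative P) ≠ 0
    have h2 := Polynomial.eval_map_apply (ψ : OA Q →+* C⟦X⟧) b
      (p := (Polynomial.derivative P0).map (j : Polynomial C →+* OA Q))
    have h3 : Polynomial.derivative P = ((Polynomial.derivative P0).map
        (j : Polynomial C →+* OA Q)).map (ψ : OA Q →+* C⟦X⟧) := by
      rw [Polynomial.derivative_map, Polynomial.derivative_map]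
    rw [h3]
    intro h4
    have h5 : (ψ : OA Q →+* C⟦X⟧) (((Polynomial.derivative P0).map
        (j : Polynomial C →+* OA Q)).eval b) = 0 := h2.symm.trans h4
    exact h1 (hinj (by simpa using h5))

theorem aeval_mem {R A : Type*} [CommRing R] [CommRing A] [Algebra R A] (S : Subalgebra R A) {a : A}
    (ha : a ∈ S) (p : Polynomial R) : Polynomial.aeval a p ∈ S := by
  have h1 : Polynomial.aeval a p = ((Polynomial.aeval (⟨a, ha⟩ : S) p : S) : A) := by
    rw [← Subalgebra.coe_val, ← Polynomial.aeval_algHom_apply]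
    rfl
  rw [h1]
  exact (Polynomial.aeval (⟨a, ha⟩ : S) p : S).2

/-- rescaling of polynomials -/
theorem rescale_coe_mem (r : C) (P : Polynomial C) : rescale r (P : C⟦X⟧) ∈ BD k C := by
  have h1 : rescale r (P : C⟦X⟧) = ((P.comp (Polynomial.C r * Polynomial.X) : Polynomial C) : C⟦X⟧) := by
    ext n
    rw [coeff_rescale, Polynomial.coeff_coe, Polynomial.coeff_coe, Polynomial.comp_C_mul_X_coeff,
      mul_comm]
  rw [h1]
  exact coe_mem_BD _

variable (k) in
/-- uniform radius -/
theorem exists_uniform {Q : Pl C K} (hy : xK C K ∈ OA Q) (ψ : OA Q →ₐ[C] C⟦X⟧) {P1 : Polynomial C}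
    (hψ : ψ ⟨xK C K, hy⟩ = (P1 : C⟦X⟧)) (hinj : Function.Injective ψ) :
    ∃ r : C, r ≠ 0 ∧ ∀ r' : C, ‖r'‖ ≤ ‖r‖ → ∀ b : OA Q,
      (letI := algPoly C K; IsIntegral (Polynomial C) (b : K)) → rescale r' (ψ b) ∈ BD k C := by
  classical
  letI := algPoly C K
  haveI := towerPoly C K
  have hfin : Module.Finite (Polynomial C) (integralClosure (Polynomial C) K) :=
    IsIntegralClosure.finite (Polynomial C) (RatFunc C) K (integralClosure (Polynomial C) K)
  obtain ⟨S, hS⟩ := hfin.1
  have hmem : ∀ b : integralClosure (Polynomial C) K, (b : K) ∈ OA Q := fun b =>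
    integral_mem_OA hy b.2
  choose r hr0 hr using fun b : integralClosure (Polynomial C) K =>
    exists_rescale k hy ψ hψ hinj ⟨(b : K), hmem b⟩ b.2
  obtain ⟨s0, hs0, hmin⟩ := Finset.exists_min_image (insert 0 S) (fun s => ‖r s‖)
    (Finset.insert_nonempty _ _)
  refine ⟨r s0, hr0 s0, fun r' hr' b hb => ?_⟩
  have key : ∀ c : integralClosure (Polynomial C) K, c ∈ Submodule.span (Polynomial C) (S : Set _) →
      rescale r' (ψ ⟨(c : K), hmem c⟩) ∈ BD k C := by
    intro c hc
    induction hc using Submodule.span_induction with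
    | mem x hx =>
      exact rescale_mem_of_le (hr x) (hr0 x)
        (hr'.trans (hmin x (Finset.mem_insert_of_mem hx)))
    | zero =>
      have h1 : (⟨((0 : integralClosure (Polynomial C) K) : K), hmem 0⟩ : OA Q) = 0 := rfl
      rw [h1, map_zero, map_zero]
      exact zero_mem _
    | add x z _ _ hx hz =>
      have h1 : (⟨((x + z : integralClosure (Polynomial C) K) : K), hmem (x + z)⟩ : OA Q) =
        ⟨(x : K), hmem x⟩ + ⟨(z : K), hmem z⟩ := rfl
      rw [h1, map_add, map_add]
      exact add_mem hx hz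
    | smul p x _ hx =>
      have h1 : (⟨((p • x : integralClosure (Polynomial C) K) : K), hmem (p • x)⟩ : OA Q) =
          Polynomial.aeval (⟨xK C K, hy⟩ : OA Q) p * ⟨(x : K), hmem x⟩ := by
        apply Subtype.ext
        rw [MulMemClass.coe_mul, ← Subalgebra.coe_val, ← Polynomial.aeval_algHom_apply]
        show ((p • x : integralClosure (Polynomial C) K) : K) = _
        rw [Algebra.smul_def, MulMemClass.coe_mul]
        congr 1
        exact algPoly_apply p
      rw [h1, map_mul, map_mul]
      refine mul_mem ?_ hx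
      rw [← Polynomial.aeval_algHom_apply, hψ]
      have h2 : rescale r' (Polynomial.aeval (P1 : C⟦X⟧) p) =
          rescaleAlgHom r' (Polynomial.aeval (P1 : C⟦X⟧) p) := by
        rw [← coe_rescaleAlgHom]; rfl
      rw [h2, ← Polynomial.aeval_algHom_apply]
      refine aeval_mem _ ?_ p
      have h4 : rescaleAlgHom r' (P1 : C⟦X⟧) = rescale r' (P1 : C⟦X⟧) := by
        rw [← coe_rescaleAlgHom]; rfl
      rw [h4]
      exact rescale_coe_mem r' P1
  exact key ⟨(b : K), hb⟩ (by rw [hS]; trivial)

end Crest.Agent.R013.One_863
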