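import Mathlib
import Crest.Agent.R013.One1_863

/-!
# Row 13, leaf SS-ONE (helper863): the homomorphisms `K → FD` and the injectivity
-/

set_option autoImplicit false
set_option linter.unusedSectionVars false
set_option linter.style.haveILetI false

open PowerSeries WithZero

namespace Crest.Agent.R013.One_863

open Crest.Agent.R013.RR7_948 Crest.Agent.R013.RR8_948 Crest.Agent.R013.RR11_948
open Crest.Agent.R013.RR12_948
open Crest.Agent.R013.Cell_408 Crest.Agent.R013.PlX_863 Crest.Agent.R013.Cvg_863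

section Order

variable {C : Type*} [Field C]

theorem X_pow_dvd_rescale {r : C} (hr : r ≠ 0) (n : ℕ) (f : C⟦X⟧) :
    X ^ n ∣ rescale r f ↔ X ^ n ∣ f := by
  rw [X_pow_dvd_iff, X_pow_dvd_iff]
  refine forall_congr' fun m => forall_congr' fun hm => ?_
  rw [coeff_rescale]
  exact ⟨fun h => (mul_eq_zero.1 h).resolve_left (pow_ne_zero _ hr), fun h => by rw [h, mul_zero]⟩

theorem rescale_injective {r : C} (hr : r ≠ 0) : Function.Injective (rescale r : C⟦X⟧ →+* C⟦X⟧) := by
  rw [injective_iff_map_eq_zero]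
  intro f hf
  ext n
  have h := congrArg (coeff n) hf
  rw [coeff_rescale, map_zero] at h
  rw [map_zero]
  exact (mul_eq_zero.1 h).resolve_left (pow_ne_zero _ hr)

end Order

variable {k C : Type*} [NontriviallyNormedField k] [NormedField C] [IsUltrametricDist C]
  [NormedAlgebra k C] [Algebra.IsAlgebraic k C]

section Iota

variable {K : Type*} [Field K] [Algebra C K]
  [Algebra (RatFunc C) K] [IsScalarTower C (RatFunc C) K] [FiniteDimensional (RatFunc C) K]
  [Algebra.IsSeparable (RatFunc C) K]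

/-- the embedding of the function field in the fraction field of `BD` -/
theorem exists_iota {Q : Pl C K} (hy : xK C K ∈ OA Q) (ψ : OA Q →ₐ[C] C⟦X⟧)
    (hinj : Function.Injective ψ) {r : C} (hr : r ≠ 0)
    (hu : ∀ b : OA Q, (letI := algPoly C K; IsIntegral (Polynomial C) (b : K)) →
      rescale r (ψ b) ∈ BD k C) :
    ∃ ι : K →+* FractionRing (BD k C), ∀ w : OA Q, ∃ u v : BD k C, v ≠ 0 ∧
      ι w = algebraMap _ _ u / algebraMap _ _ v ∧ (u : C⟦X⟧) = rescale r (ψ w) * v := by
  letI := algPoly C K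
  haveI := towerPoly C K
  haveI : IsFractionRing (integralClosure (Polynomial C) K) K :=
    integralClosure.isFractionRing_of_finite_extension (RatFunc C) K
  have hmem : ∀ b : integralClosure (Polynomial C) K, (b : K) ∈ OA Q := fun b =>
    integral_mem_OA hy b.2
  let g0 : integralClosure (Polynomial C) K →+* C⟦X⟧ :=
    ((rescale r).comp (ψ : OA Q →+* C⟦X⟧)).comp
      ((integralClosure (Polynomial C) K).val.toRingHom.codRestrict (OA Q) hmem)
  have hg0 : ∀ b, g0 b = rescale r (ψ ⟨(b : K), hmem b⟩) := fun b => rfl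
  let g : integralClosure (Polynomial C) K →+* BD k C :=
    g0.codRestrict (BD k C) fun b => hu ⟨(b : K), hmem b⟩ b.2
  have hg : ∀ b, ((g b : BD k C) : C⟦X⟧) = rescale r (ψ ⟨(b : K), hmem b⟩) := fun b => rfl
  have hginj : Function.Injective g := by
    intro a b hab
    have h1 : ((g a : BD k C) : C⟦X⟧) = ((g b : BD k C) : C⟦X⟧) := by rw [hab]
    rw [hg, hg] at h1
    have h2 := hinj (rescale_injective hr h1)
    exact Subtype.ext (congrArg (fun z : OA Q => (z : K)) h2)
  have hGinj : Function.Injective ((algebraMap (BD k C) (FractionRing (BD k C))).comp g) :=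
    (IsFractionRing.injective (BD k C) (FractionRing (BD k C))).comp hginj
  let ι : K →+* FractionRing (BD k C) := IsFractionRing.lift hGinj
  refine ⟨ι, fun w => ?_⟩
  obtain ⟨a, b, hb, hab⟩ := IsFractionRing.div_surjective (A := integralClosure (Polynomial C) K)
    (w : K)
  have hb0 : b ≠ 0 := nonZeroDivisors.ne_zero hb
  refine ⟨g a, g b, fun h => hb0 (hginj (by rw [h, map_zero])), ?_, ?_⟩
  · rw [← hab, map_div₀]
    have h1 : ∀ c, ι (algebraMap _ K c) = algebraMap (BD k C) _ (g c) := fun c =>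
      IsFractionRing.lift_algebraMap hGinj c
    rw [h1, h1]
  · rw [hg, hg, ← map_mul (rescale r), ← map_mul ψ]
    congr 2
    apply Subtype.ext
    rw [MulMemClass.coe_mul]
    show (a : K) = (w : K) * (b : K)
    have hbK : (b : K) ≠ 0 := fun h => hb0 (Subtype.ext h)
    rw [← hab]
    exact (div_mul_cancel₀ _ hbK).symm

/-- value of `ι` when the expansion is in `BD` -/
theorem iota_eq {Q : Pl C K} {ψ : OA Q →ₐ[C] C⟦X⟧} {r : C} {ι : K →+* FractionRing (BD k C)}
    (hι : ∀ w : OA Q, ∃ u v : BD k C, v ≠ 0 ∧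
      ι w = algebraMap _ _ u / algebraMap _ _ v ∧ (u : C⟦X⟧) = rescale r (ψ w) * v)
    (w : OA Q) (g : BD k C) (hg : rescale r (ψ w) = g) : ι w = algebraMap _ _ g := by
  obtain ⟨u, v, hv, h1, h2⟩ := hι w
  have h3 : u = g * v := by
    apply Subtype.ext
    rw [h2, hg]; rfl
  have hv' : algebraMap (BD k C) (FractionRing (BD k C)) v ≠ 0 := by
    rw [Ne, FaithfulSMul.algebraMap_eq_zero_iff]; exact hv
  rw [h1, h3, map_mul, mul_div_cancel_right₀ _ hv']

end Iota

end Crest.Agent.R013.One_863
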