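import Mathlib
import Crest.Agent.R013.One2_863

/-!
# Row 13, D-line, leaf D-G (helper779), file 3: the place of a homomorphism to a field of Laurent series

`C` algebraically closed of characteristic zero, `K / C` a function field, `F` a field containing `C`,
`Φ : K → F((X))` a homomorphism over `C` with `Φ y = r X`, `r ∈ C`, `r ≠ 0`.  Then there is a place `P`
of `K` with uniformiser `y`, and `Φ` is the expansion at `P` in `y`, rescaled by `r`.
-/

set_option autoImplicit false
set_option linter.unusedSectionVars false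

open PowerSeries WithZero

namespace Crest.Agent.R013.DG_779

open Crest.Agent.R013.RR7_948 Crest.Agent.R013.RR8_948 Crest.Agent.R013.PlX_863

section Hom

variable {C : Type*} [Field C] {K : Type*} [Field K] [Algebra C K]
variable {F : Type*} [Field F] [Algebra C F]

/-- the valuation of `F((X))` -/
noncomputable def vX (F : Type*) [Field F] : Valuation (LaurentSeries F) ℤᵐ⁰ :=
  (Valued.v : Valuation (LaurentSeries F) ℤᵐ⁰)

theorem vX_single {r : F} (hr : r ≠ 0) (n : ℤ) : vX F (HahnSeries.single n r) = exp (-n) := by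
  apply le_antisymm
  · show Valued.v _ ≤ _
    rw [LaurentSeries.valuation_le_iff_coeff_lt_eq_zero]
    intro m hm
    rw [HahnSeries.coeff_single_of_ne hm.ne]
  · by_contra hcon
    push Not at hcon
    have h1 : vX F (HahnSeries.single n r) ≤ WithZero.exp (-(n + 1) : ℤ) := by
      have h2 : vX F (HahnSeries.single n r) ≠ 0 := by
        rw [Valuation.ne_zero_iff]
        exact (HahnSeries.single_ne_zero hr)
      rw [← exp_log h2, exp_lt_exp] at hcon
      rw [← exp_log h2, exp_le_exp]
      omega
    have h3 := LaurentSeries.coeff_zero_of_lt_valuation F h1 (n := n) (by omega)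
    rw [HahnSeries.coeff_single_same] at h3
    exact hr h3

theorem vX_le_iff {D : ℤ} {f : LaurentSeries F} :
    vX F f ≤ exp (-D) ↔ ∀ n : ℤ, n < D → f.coeff n = 0 :=
  LaurentSeries.valuation_le_iff_coeff_lt_eq_zero F

theorem vX_le_one_iff {f : LaurentSeries F} :
    vX F f ≤ 1 ↔ ∃ G : F⟦X⟧, (G : LaurentSeries F) = f :=
  LaurentSeries.val_le_one_iff_eq_coe F f

theorem coe_injective : Function.Injective (fun G : F⟦X⟧ => (G : LaurentSeries F)) :=
  HahnSeries.ofPowerSeries_injective

/-- the place of a homomorphism -/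
theorem exists_pl (Φ : K →+* LaurentSeries F)
    (hc : ∀ c : C, Φ (algebraMap C K c) = HahnSeries.C (algebraMap C F c)) {y : K} {r : F}
    (hr : r ≠ 0) (hy : Φ y = HahnSeries.single 1 r) :
    ∃ P : Pl C K, (∀ f, P.v f = vX F (Φ f)) ∧ P.v y = exp (-1) := by
  have hy' : vX F (Φ y) = exp (-1) := by rw [hy, vX_single hr]
  refine ⟨⟨(vX F).comap Φ, fun c hc0 => ?_, fun z => ?_⟩, fun f => rfl, hy'⟩
  · rw [Valuation.comap_apply, hc]
    have h1 : (HahnSeries.C (algebraMap C F c) : LaurentSeries F) =
        HahnSeries.single 0 (algebraMap C F c) := rfl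
    rw [h1, vX_single (by rwa [Ne, _root_.map_eq_zero]), neg_zero, exp_zero]
  · rcases eq_or_ne z 0 with h0 | h0
    · exact ⟨0, by rw [map_zero, h0]⟩
    · refine ⟨y ^ (-(log z)), ?_⟩
      rw [Valuation.comap_apply, map_zpow₀, map_zpow₀, hy', ← exp_zsmul]
      conv_rhs => rw [← exp_log h0]
      congr 1
      simp

variable [IsAlgClosed C] [CharZero C] [Algebra (RatFunc C) K] [IsScalarTower C (RatFunc C) K]
  [FiniteDimensional (RatFunc C) K] [Algebra.IsSeparable (RatFunc C) K]

/-- **the homomorphism is the rescaled expansion at its place** -/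
theorem exists_place_expansion (Φ : K →+* LaurentSeries F)
    (hc : ∀ c : C, Φ (algebraMap C K c) = HahnSeries.C (algebraMap C F c)) {y : K} {r : C}
    (hr : r ≠ 0) (hy : Φ y = HahnSeries.single 1 (algebraMap C F r)) :
    ∃ (P : Pl C K) (hyO : y ∈ OA P) (ψ : OA P →ₐ[C] C⟦X⟧), P.v y = exp (-1) ∧
      (∀ f, P.v f = vX F (Φ f)) ∧ ψ ⟨y, hyO⟩ = X ∧
      (∀ (n : ℕ) (f : OA P), X ^ n ∣ ψ f ↔ P.v (f : K) ≤ exp (-(n : ℤ))) ∧
      ∀ f : OA P, Φ (f : K) =
        ((PowerSeries.map (algebraMap C F) (rescale r (ψ f)) : F⟦X⟧) : LaurentSeries F) := by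
  have hrF : algebraMap C F r ≠ 0 := by rwa [Ne, _root_.map_eq_zero]
  obtain ⟨P, hP, hPy⟩ := exists_pl Φ hc hrF hy
  obtain ⟨hyO, ψ, hψ, hord⟩ := exists_expansion P (y := y) (e := 1) (by simpa using hPy) (by simp)
  rw [pow_one] at hψ
  refine ⟨P, hyO, ψ, hPy, hP, hψ, hord, fun f => ?_⟩
  -- `Φ f` is a power series
  obtain ⟨G, hG⟩ := vX_le_one_iff.mp ((hP (f : K)).symm.le.trans f.2)
  rw [← hG]
  congr 1
  ext n
  -- truncation
  let p : Polynomial C := PowerSeries.trunc (n + 1) (ψ f)
  let q : OA P := Polynomial.aeval (⟨y, hyO⟩ : OA P) p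
  have hq : ψ q = (p : C⟦X⟧) := by
    show ψ (Polynomial.aeval _ p) = _
    rw [← Polynomial.aeval_algHom_apply, hψ]
    have h2 := Polynomial.aeval_algHom_apply (Polynomial.coeToPowerSeries.algHom (R := C) C)
      Polynomial.X p
    rw [Polynomial.aeval_X_left_apply] at h2
    simpa [Polynomial.coeToPowerSeries.algHom_apply] using h2
  have hdvd : X ^ (n + 1) ∣ ψ (f - q) := by
    rw [map_sub, hq, PowerSeries.X_pow_dvd_iff]
    intro m hm
    rw [map_sub, Polynomial.coeff_coe, PowerSeries.coeff_trunc, if_pos hm, sub_self]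
  rw [hord, hP] at hdvd
  have h1 := LaurentSeries.coeff_zero_of_lt_valuation F hdvd (n := (n : ℤ)) (by push_cast; omega)
  have h2 : Φ ((f - q : OA P) : K) = (G : LaurentSeries F) - Φ (q : K) := by
    rw [AddSubgroupClass.coe_sub, map_sub, hG]
  have hΦq : Φ (q : K) = ((PowerSeries.map (algebraMap C F) (rescale r (p : C⟦X⟧)) : F⟦X⟧) :
      LaurentSeries F) := by
    have h3 : (q : K) = Polynomial.aeval y p := by
      show ((OA P).val (Polynomial.aeval _ p)) = _
      rw [← Polynomial.aeval_algHom_apply]
      rfl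
    rw [h3]
    induction p using Polynomial.induction_on' with
    | add p₁ p₂ h₁ h₂ =>
      rw [map_add, map_add, h₁, h₂, Polynomial.coe_add, map_add, map_add]
      push_cast
      rfl
    | monomial m c =>
      rw [Polynomial.aeval_monomial, map_mul, map_pow, hc, hy, HahnSeries.single_pow]
      have h4 : (HahnSeries.C (algebraMap C F c) : LaurentSeries F) =
        HahnSeries.single 0 (algebraMap C F c) := rfl
      rw [h4, HahnSeries.single_mul_single]
      refine HahnSeries.ext (funext fun i => ?_)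
      rw [PowerSeries.coeff_coe, HahnSeries.coeff_single]
      simp only [PowerSeries.coeff_map, coeff_rescale, Polynomial.coeff_coe,
        Polynomial.coeff_monomial]
      by_cases hi : i < 0
      · rw [if_pos hi, if_neg]
        rintro rfl
        simp at hi
        omega
      · rw [if_neg hi]
        by_cases hi2 : i = m
        · subst hi2
          simp [mul_comm]
        · have h5 : ¬ (m = i.natAbs) := by omega
          rw [if_neg h5, mul_zero, map_zero, if_neg]
          simpa using hi2
  rw [h2, hΦq, HahnSeries.coeff_sub, LaurentSeries.coeff_coe_powerSeries,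
    LaurentSeries.coeff_coe_powerSeries, sub_eq_zero] at h1
  rw [h1, PowerSeries.coeff_map, PowerSeries.coeff_map, coeff_rescale, coeff_rescale,
    Polynomial.coeff_coe, PowerSeries.coeff_trunc, if_pos (Nat.lt_succ_self n)]

end Hom

end Crest.Agent.R013.DG_779
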