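import Crest.Agent.R013.Good4_940

/-!
# R013 / D-LINE, leaf D-LOC, part A: vertices over small circles, with error term   (helper381)

Generalisation of `Good1_940.exists_val_kummer` and `Good4_940.good`:

* the vertex clause is abstract: `Vtx S w z t` = "`z` is integral and the integral polynomials `S`
  vanish at `(t, z)` in the residue field of `w`" (`asS p m` = Artin-Schreier, one polynomial
  `z ^ p - z - t ^ m`);
* the class is allowed to satisfy `H' = (om + eta) * H`, `eta` of norm `≤ ‖p‖ ^ (n + 1) / R`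
  (`h` runs through a compatible system of `p ^ (n + 1)`-torsion classes, `om` is the limit form).
-/

set_option autoImplicit false

namespace Crest.Agent.R013.DLoc1_381

open PowerSeries
open scoped NNReal
open Crest.Agent.R013.KAS2_940 (Bd bd_zero)
open Crest.Agent.R013.KAS2_940
open Crest.Agent.R013.KAS3_940 Crest.Agent.R013.Good1_940 Crest.Agent.R013.Gl946
open Crest.Agent.R013.Good3_940 Crest.Agent.R013.Good4_940
open Crest.Agent.R013.LemD_323 (shift)

universe uE

/-! ### the vertex clause -/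

section Vtx

/-- `z` is integral at `w` and all `f ∈ S` (integral polynomials in `t, z₀, …, z_(r-1)`) vanish at
`(t, z)` in the residue field of `w`. -/
def Vtx {r : ℕ} (S : Set (MvPolynomial (Option (Fin r)) ℤ)) {L : Type*} [Field L]
    (w : Valuation L ℝ≥0) (z : Fin r → L) (t : L) : Prop :=
  (∀ i, w (z i) ≤ 1) ∧ ∀ f ∈ S, w (MvPolynomial.aeval (fun o : Option (Fin r) => o.elim t z) f) < 1

/-- Artin-Schreier: `z ^ p - z - t ^ m`. -/
noncomputable def asS (p m : ℕ) : Set (MvPolynomial (Option (Fin 1)) ℤ) :=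
  {MvPolynomial.X (some 0) ^ p - MvPolynomial.X (some 0) - MvPolynomial.X none ^ m}

theorem vtx_asS {p m : ℕ} {L : Type*} [Field L] {w : Valuation L ℝ≥0} {z : Fin 1 → L} {t : L} :
    Vtx (asS p m) w z t ↔ w (z 0) ≤ 1 ∧ w (z 0 ^ p - z 0 - t ^ m) < 1 := by
  unfold Vtx asS
  simp [Fin.forall_fin_one]

theorem aeval_close {ι : Type*} {L : Type*} [Field L] (w : Valuation L ℝ≥0) {x y : ι → L}
    (hx : ∀ i, w (x i) ≤ 1) (hy : ∀ i, w (y i) ≤ 1) (hxy : ∀ i, w (x i - y i) < 1)
    (f : MvPolynomial ι ℤ) :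
    w (MvPolynomial.aeval x f) ≤ 1 ∧ w (MvPolynomial.aeval y f) ≤ 1 ∧
      w (MvPolynomial.aeval x f - MvPolynomial.aeval y f) < 1 := by
  induction f using MvPolynomial.induction_on with
  | C a =>
    have h1 : w ((a : ℤ) : L) ≤ 1 := by
      have := (((a : ℤ) : w.integer)).2
      rw [Valuation.mem_integer_iff] at this
      simpa using this
    refine ⟨by simpa using h1, by simpa using h1, by simp⟩
  | add f g hf hg =>
    refine ⟨?_, ?_, ?_⟩
    · rw [map_add]; exact (w.map_add _ _).trans (max_le hf.1 hg.1)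
    · rw [map_add]; exact (w.map_add _ _).trans (max_le hf.2.1 hg.2.1)
    · rw [map_add, map_add]
      have h : ∀ a b c d : L, a + b - (c + d) = (a - c) + (b - d) := fun a b c d => by ring
      rw [h]
      exact w.map_add_lt hf.2.2 hg.2.2
  | mul_X f i hf =>
    refine ⟨?_, ?_, ?_⟩
    · rw [map_mul, map_mul, MvPolynomial.aeval_X]; exact mul_le_one' hf.1 (hx i)
    · rw [map_mul, map_mul, MvPolynomial.aeval_X]; exact mul_le_one' hf.2.1 (hy i)
    · rw [map_mul, map_mul, MvPolynomial.aeval_X, MvPolynomial.aeval_X]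
      have h : ∀ a b c d : L, a * b - c * d = (a - c) * b + c * (b - d) := fun a b c d => by ring
      rw [h]
      refine w.map_add_lt ?_ ?_
      · rw [map_mul]
        exact (mul_le_of_le_one_right' (hx i)).trans_lt hf.2.2
      · rw [map_mul]
        exact (mul_le_of_le_one_left' hf.2.1).trans_lt (hxy i)

/-- the vertex clause only depends on the reductions. -/
theorem Vtx.congr {r : ℕ} {S : Set (MvPolynomial (Option (Fin r)) ℤ)} {L : Type*} [Field L]
    {w : Valuation L ℝ≥0} {z z' : Fin r → L} {t t' : L} (h : Vtx S w z t) (ht : w t ≤ 1)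
    (hzz : ∀ i, w (z' i - z i) < 1) (htt : w (t' - t) < 1) : Vtx S w z' t' := by
  have hz' : ∀ i, w (z' i) ≤ 1 := by
    intro i
    have h1 : z' i = (z' i - z i) + z i := by ring
    rw [h1]
    exact (w.map_add _ _).trans (max_le (hzz i).le (h.1 i))
  have ht' : w t' ≤ 1 := by
    have h1 : t' = (t' - t) + t := by ring
    rw [h1]
    exact (w.map_add _ _).trans (max_le htt.le ht)
  refine ⟨hz', fun f hf => ?_⟩
  have h1 := (aeval_close w (x := fun o : Option (Fin r) => o.elim t' z')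
    (y := fun o : Option (Fin r) => o.elim t z) ?_ ?_ ?_ f).2.2
  · have h2 := h.2 f hf
    have h3 : MvPolynomial.aeval (fun o : Option (Fin r) => o.elim t' z') f =
      (MvPolynomial.aeval (fun o : Option (Fin r) => o.elim t' z') f -
        MvPolynomial.aeval (fun o : Option (Fin r) => o.elim t z) f) +
        MvPolynomial.aeval (fun o : Option (Fin r) => o.elim t z) f := by ring
    rw [h3]
    exact w.map_add_lt h1 h2
  · intro o
    cases o with
    | none => exact ht'
    | some i => exact hz' i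
  · intro o
    cases o with
    | none => exact ht
    | some i => exact h.1 i
  · intro o
    cases o with
    | none => exact htt
    | some i => exact hzz i

/-- the vertex clause is pulled back along a homomorphism. -/
theorem vtx_comap {r : ℕ} {S : Set (MvPolynomial (Option (Fin r)) ℤ)} {L L' : Type*} [Field L]
    [Field L'] {w : Valuation L' ℝ≥0} {j : L →+* L'} {z : Fin r → L} {t : L} :
    Vtx S (w.comap j) z t ↔ Vtx S w (fun i => j (z i)) (j t) := by
  unfold Vtx
  have h : ∀ f : MvPolynomial (Option (Fin r)) ℤ,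
      j (MvPolynomial.aeval (fun o : Option (Fin r) => o.elim t z) f) =
      MvPolynomial.aeval (fun o : Option (Fin r) => o.elim (j t) (fun i => j (z i))) f := by
    intro f
    have h2 : j.comp (MvPolynomial.aeval (fun o : Option (Fin r) => o.elim t z) :
        MvPolynomial (Option (Fin r)) ℤ →ₐ[ℤ] L).toRingHom =
        (MvPolynomial.aeval (fun o : Option (Fin r) => o.elim (j t) (fun i => j (z i))) :
          MvPolynomial (Option (Fin r)) ℤ →ₐ[ℤ] L').toRingHom := by
      apply MvPolynomial.ringHom_ext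
      · intro n; simp
      · intro o
        cases o <;> simp
    exact congrArg (fun φ : MvPolynomial (Option (Fin r)) ℤ →+* L' => φ f) h2
  simp only [Valuation.comap_apply, h]

end Vtx

/-! ### (GOOD1) for an abstract vertex clause -/

section Main

variable {k : Type*} {E : Type uE} [NormedField k] [IsUltrametricDist k]
  [NontriviallyNormedField E] [IsUltrametricDist E] [NormedAlgebra k E] [CompleteSpace E]

/-- The conclusion of a `kas`-like theorem for `u` passes to a valuation of the Kummer extension. -/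
theorem exists_val_kummer' {N r : ℕ} {S : Set (MvPolynomial (Option (Fin r)) ℤ)} {c : k}
    (hc : c ≠ 0) {r1 : ℝ} {hr1 : 0 < r1} (hcr : ‖c‖ < r1)
    (u : bsub (K := k) r1 hr1)
    (hkas : ∀ (L : Type uE) [Field L] (w : Valuation L ℝ≥0) (iota : (bsub (K := k) r1 hr1) →+* L),
      GaussPt ‖c‖ r1 hr1 L w iota → ∀ (y b : L), b ≠ 0 → y ^ N = iota u * b ^ N →
        ∃ z : Fin r → L, Vtx S w z (iota ⟨X, X_mem⟩ / iota ⟨C c, C_mem c⟩))
    {x : E} (hx : ‖x‖ = ‖c‖) {K K1 : Type*} [Field K] [Field K1] [Algebra K K1]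
    [Algebra.IsAlgebraic K K1] (iota : K →+* E) (hd : DenseRange iota) {h : K} {g : E} (hg : g ≠ 0)
    (hh : iota h = ev hr1 x (hx.trans_lt hcr) u * g ^ N) {y : K1} (hy : y ^ N = algebraMap K K1 h) :
    ∃ v : Valuation K1 ℝ≥0, (∀ a : K, v (algebraMap K K1 a) = ‖iota a‖₊) ∧
      ∃ z : Fin r → K1, (∀ i, v (z i) ≤ 1) ∧ ∀ t : K, ‖iota t - x / algebraMap k E c‖ < 1 →
        Vtx S v z (algebraMap K K1 t) := by
  classical
  let : Algebra K (AlgebraicClosure E) := ((algebraMap E (AlgebraicClosure E)).comp iota).toAlgebra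
  let j : K1 →ₐ[K] AlgebraicClosure E := IsAlgClosed.lift
  have hj : ∀ a : K, j (algebraMap K K1 a) = algebraMap E (AlgebraicClosure E) (iota a) := fun a =>
    j.commutes a
  set w := specVal E (AlgebraicClosure E) with hw
  let L := IntermediateField.adjoin E {(j : K1 →+* AlgebraicClosure E) y}
  let yL : L := ⟨(j : K1 →+* AlgebraicClosure E) y, IntermediateField.mem_adjoin_simple_self E _⟩
  let wL : Valuation L ℝ≥0 := w.comap (algebraMap L (AlgebraicClosure E))
  have hwL : ∀ e : E, wL (algebraMap E L e) = ‖e‖₊ := by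
    intro e
    exact specVal_algebraMap E (AlgebraicClosure E) e
  have hG : GaussPt ‖c‖ r1 hr1 L wL ((algebraMap E L).comp (ev (k := k) hr1 x (hx.trans_lt hcr))) :=
    gaussPt_ev (k := k) (hr1 := hr1) (hx := hx.trans_lt hcr) hx wL (algebraMap E L) hwL
  have hgL : algebraMap E L g ≠ 0 := (map_ne_zero _).mpr hg
  have hyL : yL ^ N = ((algebraMap E L).comp (ev (k := k) hr1 x (hx.trans_lt hcr))) u * (algebraMap E L g) ^ N := by
    rw [RingHom.comp_apply, ← map_pow, ← map_mul, ← hh]
    apply Subtype.ext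
    show ((j : K1 →+* AlgebraicClosure E) y) ^ N = algebraMap E (AlgebraicClosure E) (iota h)
    rw [← hj h, ← hy, map_pow]
    rfl
  obtain ⟨zL, hzL⟩ := hkas L wL _ hG yL (algebraMap E L g) hgL hyL
  have hap : ∀ i, ∃ z : K1, w ((zL i : AlgebraicClosure E) - (j : K1 →+* AlgebraicClosure E) z) < 1 :=
    fun i => exists_approx iota hd (j : K1 →+* AlgebraicClosure E) hj y (zL i : AlgebraicClosure E)
      (zL i).2
  choose z hz using hap
  have hzL' : Vtx S w (fun i => (zL i : AlgebraicClosure E))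
      (algebraMap E (AlgebraicClosure E) (x / algebraMap k E c)) := by
    have h1 : ((algebraMap E L).comp (ev (k := k) hr1 x (hx.trans_lt hcr))) ⟨X, X_mem⟩ /
        ((algebraMap E L).comp (ev (k := k) hr1 x (hx.trans_lt hcr))) ⟨C c, C_mem c⟩ =
        algebraMap E L (x / algebraMap k E c) := by
      rw [RingHom.comp_apply, RingHom.comp_apply, ev_X, ev_C, map_div₀]
    rw [h1] at hzL
    exact vtx_comap.mp hzL
  have hcn : algebraMap k E c ≠ 0 := (map_ne_zero _).mpr hc
  have hxc : ‖x / algebraMap k E c‖ = 1 := by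
    rw [norm_div, norm_algebraMap', hx, div_self (norm_ne_zero_iff.mpr hc)]
  have hwx : w (algebraMap E (AlgebraicClosure E) (x / algebraMap k E c)) ≤ 1 := by
    rw [hw, specVal_algebraMap, ← NNReal.coe_le_coe, coe_nnnorm, hxc, NNReal.coe_one]
  have hwdz : ∀ i, w ((j : K1 →+* AlgebraicClosure E) (z i) - (zL i : AlgebraicClosure E)) < 1 :=
    fun i => by rw [Valuation.map_sub_swap]; exact hz i
  refine ⟨w.comap (j : K1 →+* AlgebraicClosure E), ?_, z, ?_, ?_⟩
  · intro a
    rw [Valuation.comap_apply]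
    show w (j (algebraMap K K1 a)) = _
    rw [hj]
    exact specVal_algebraMap E (AlgebraicClosure E) (iota a)
  · intro i
    rw [Valuation.comap_apply]
    have h1 : (j : K1 →+* AlgebraicClosure E) (z i) =
        ((j : K1 →+* AlgebraicClosure E) (z i) - (zL i : AlgebraicClosure E)) +
          (zL i : AlgebraicClosure E) := by ring
    rw [h1]
    exact (w.map_add _ _).trans (max_le (hwdz i).le (hzL'.1 i))
  · intro t ht
    have hwd : w (algebraMap E (AlgebraicClosure E) (iota t) -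
        algebraMap E (AlgebraicClosure E) (x / algebraMap k E c)) < 1 := by
      rw [← map_sub, hw, specVal_algebraMap, ← NNReal.coe_lt_coe, coe_nnnorm]
      exact ht
    rw [vtx_comap]
    have h2 : (j : K1 →+* AlgebraicClosure E) (algebraMap K K1 t) =
        algebraMap E (AlgebraicClosure E) (iota t) := hj t
    rw [h2]
    exact hzL'.congr hwx hwdz hwd

end Main

/-! ### `kas`-like statements and the disc field -/

section Good

variable {k : Type*} [NontriviallyNormedField k] [IsUltrametricDist k]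

/-- **the circle-level input** at centre `0`: `om` bounded at `R`; for all `eta` of norm
`≤ ‖p‖ ^ (n + 1) / R` and `u = exp (∫ (om + eta))`, every field containing a `p ^ (n + 1)`-th root of
`u · b ^ (p ^ (n + 1))` has the vertex `S` over the circle of radius `‖c‖` (coordinate `t = X / c`). -/
def Kas (p : ℕ) {r : ℕ} (S : Set (MvPolynomial (Option (Fin r)) ℤ)) (om : k⟦X⟧) (R : ℝ) (n : ℕ)
    (c : k) : Prop :=
  ∃ (r1 : ℝ) (hr1 : 0 < r1), ‖c‖ < r1 ∧
    ∀ eta : k⟦X⟧, Bd R (‖(p : k)‖ ^ (n + 1) / R) eta →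
    ∀ u : k⟦X⟧, constantCoeff u = 1 → d⁄dX k u = (om + eta) * u →
    ∃ hu : u ∈ bsub (K := k) r1 hr1,
    ∀ (L : Type uE) [Field L] (w : Valuation L ℝ≥0) (iota : (bsub (K := k) r1 hr1) →+* L),
      GaussPt ‖c‖ r1 hr1 L w iota → ∀ (y b : L), b ≠ 0 →
        y ^ p ^ (n + 1) = iota ⟨u, hu⟩ * b ^ p ^ (n + 1) →
        ∃ z : Fin r → L, Vtx S w z (iota ⟨X, X_mem⟩ / iota ⟨C c, C_mem c⟩)

/-- `kas` of helper940. -/
theorem kas_of_order [CharZero k] [Algebra ℚ k] {p : ℕ} (hp : p.Prime) {lam : k}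
    (hlam : lam ^ (p - 1) = -(p : k)) (hlam1 : ‖lam‖ < 1) {om : k⟦X⟧} {R D : ℝ} (hR : 0 < R)
    (hom : Bd R D om) {i : ℕ} (h0 : ∀ m < i, coeff m om = 0) (hi : coeff i om ≠ 0) {j m : ℕ}
    (hjm : i + 1 = p ^ j * m) :
    ∃ rs : ℝ, 0 < rs ∧ ∀ (n : ℕ) (c : k), c ≠ 0 → ‖c‖ < rs →
      coeff i om / ((i + 1 : ℕ) : k) * c ^ (i + 1) = (p : k) ^ n * lam ^ p →
      (∃ zeta : k, IsPrimitiveRoot zeta (p ^ (n + 1))) →
      Kas.{uE} p (asS p m) om R n c := by
  obtain ⟨rs, hrs, H⟩ := kas.{_, uE} hp hlam hlam1 hR hom h0 hi hjm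
  refine ⟨rs, hrs, fun n c hc hcrs hcn hzeta => ?_⟩
  obtain ⟨r1, hr1, h1, h2, H⟩ := H n c hc hcrs hcn hzeta
  refine ⟨r1, hr1, h1, fun eta heta u hu0 hu => ?_⟩
  obtain ⟨hu', H⟩ := H eta heta u hu0 hu
  refine ⟨hu', fun L _ w iota hG y b hb hy => ?_⟩
  obtain ⟨z, hz⟩ := H L w iota hG y b hb hy
  exact ⟨fun _ => z, vtx_asS.mpr hz⟩

variable [CompleteSpace k]

theorem ev_add {R C D : ℝ} {f g : k⟦X⟧} (hf : Bd R C f) (hg : Bd R D g) {t : k}
    (ht : ‖t‖ < R) : LemD_323.ev (f + g) t = LemD_323.ev f t + LemD_323.ev g t := by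
  rw [ev_eq, ev_eq, ev_eq]
  exact tsum_add' (E := k) hf hg ht

theorem shift_add {R C D : ℝ} (hR : 0 < R) {f g : k⟦X⟧} (hf : Bd R C f) (hg : Bd R D g) {q : k}
    (hq : ‖q‖ < R) : shift q (f + g) = shift q f + shift q g := by
  have hfg : Bd R (max C D) (f + g) :=
    (hf.mono (le_max_left _ _)).add hR.le (hg.mono (le_max_right _ _))
  have hfg' : Bd R (max C D) (shift q f + shift q g) :=
    ((bd_shift' hf hq).mono (le_max_left _ _)).add hR.le ((bd_shift' hg hq).mono (le_max_right _ _))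
  refine eq_of_ev hR (bd_shift' hfg hq) hfg' fun t ht => ?_
  rw [LemD_323.ev_shift (toBd hfg) hq ht, ev_add (bd_shift' hf hq) (bd_shift' hg hq) ht,
    ev_add hf hg (norm_add_lt' hq ht), LemD_323.ev_shift (toBd hf) hq ht,
    LemD_323.ev_shift (toBd hg) hq ht]

/-- **vertices at the level of the disc field**, centre `q`, radius `‖c‖`, with error term. -/
theorem good' [CharZero k] [Algebra ℚ k] {p : ℕ} (hp : p.Prime) {R : ℝ} (hR : 0 < R) {om : k⟦X⟧}
    {D : ℝ} (hom : Bd R D om) {q : k} (hq : ‖q‖ < R) {r : ℕ}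
    {S : Set (MvPolynomial (Option (Fin r)) ℤ)} {n : ℕ} {c : k} (hc0 : c ≠ 0) (hcR : ‖c‖ < R)
    (hK : Kas.{uE} p S (shift q om) R n c)
    {H eta : k⟦X⟧} {CH : ℝ} (hH : Bd R CH H) (heta : Bd R (‖(p : k)‖ ^ (n + 1) / R) eta)
    (hH0 : H ≠ 0) (hHom : d⁄dX k H = (om + eta) * H)
    (he : ∃ e : k, e ^ p ^ (n + 1) = constantCoeff (shift q H))
    (E : Type uE) [NormedField E] [IsUltrametricDist E] [NormedAlgebra k E] [CompleteSpace E]
    (y : E) (hy : IsGauss k y) (K K1 : Type*) [Field K] [Field K1] [Algebra K K1]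
    [Algebra.IsAlgebraic K K1] (iota : K →+* FDisc k R hR)
    (hd : DenseRange ((frq hR hy hq hcR hc0).comp iota)) (h : K) (g : FDisc k R hR) (hg : g ≠ 0)
    (hh : iota h = algebraMap _ _ (⟨H, mem_bsub hH⟩ : bsub (K := k) R hR) * g ^ p ^ (n + 1))
    (y1 : K1) (hy1 : y1 ^ p ^ (n + 1) = algebraMap K K1 h) :
    ∃ v : Valuation K1 ℝ≥0,
      (∀ a : K, v (algebraMap K K1 a) = ‖frq hR hy hq hcR hc0 (iota a)‖₊) ∧
      ∃ z : Fin r → K1, (∀ i, v (z i) ≤ 1) ∧ ∀ t : K, ‖frq hR hy hq hcR hc0 (iota t) - y‖ < 1 →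
        Vtx S v z (algebraMap K K1 t) := by
  obtain ⟨r1, hr1, hcr1, Hk⟩ := hK
  have homq : Bd R D (shift q om) := bd_shift' hom hq
  have hHq : Bd R CH (shift q H) := bd_shift' hH hq
  have hetaq : Bd R (‖(p : k)‖ ^ (n + 1) / R) (shift q eta) := bd_shift' heta hq
  -- the normalised series
  set a0 : k := constantCoeff (shift q H) with ha0
  have hder0 : Bd R (max D (‖(p : k)‖ ^ (n + 1) / R)) (om + eta) :=
    (hom.mono (le_max_left _ _)).add hR.le (heta.mono (le_max_right _ _))
  have hsadd : shift q (om + eta) = shift q om + shift q eta := shift_add hR hom heta hq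
  have hderq : d⁄dX k (shift q H) = (shift q om + shift q eta) * shift q H := by
    rw [← shift_derivative, hHom, shift_mul hR hder0 hH hq, hsadd]
  have ha00 : a0 ≠ 0 := by
    intro h
    have h1 : shift q H = 0 := by
      refine ode_unique (a := shift q om + shift q eta) hderq ?_ ?_
      · rw [map_zero, mul_zero]
      · rw [← ha0, h, map_zero]
    exact shift_ne_zero hR hH hq hH0 h1
  set u : k⟦X⟧ := C (a0⁻¹) * shift q H with hu
  have hu0 : constantCoeff u = 1 := by
    rw [hu, map_mul, constantCoeff_C, ← ha0, inv_mul_cancel₀ ha00]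
  have hud : d⁄dX k u = (shift q om + shift q eta) * u := by
    rw [hu, Derivation.leibniz, derivative_C, smul_zero, add_zero, smul_eq_mul, hderq]
    ring
  obtain ⟨hu', Hk⟩ := Hk (shift q eta) hetaq u hu0 hud
  obtain ⟨e, he⟩ := he
  let nnE : NontriviallyNormedField E :=
    { ‹NormedField E› with
      non_trivial := by
        obtain ⟨a, ha⟩ := NontriviallyNormedField.non_trivial (α := k)
        exact ⟨algebraMap k E a, by rwa [norm_algebraMap']⟩ }
  have hxc : ‖algebraMap k E c * y‖ = ‖c‖ := by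
    rw [norm_mul, norm_algebraMap', hy.norm_eq, mul_one]
  have he0 : e ≠ 0 := by
    rintro rfl
    rw [zero_pow (pow_ne_zero _ hp.ne_zero)] at he
    exact ha00 (he.symm)
  have hcE : algebraMap k E c ≠ 0 := (map_ne_zero _).mpr hc0
  have hgE : algebraMap k E e * frq hR hy hq hcR hc0 g ≠ 0 :=
    mul_ne_zero ((map_ne_zero _).mpr he0) ((map_ne_zero _).mpr hg)
  have hjh : ((frq hR hy hq hcR hc0).comp iota) h =
      ev hr1 (algebraMap k E c * y) (hxc.trans_lt hcr1) ⟨u, hu'⟩ *
        (algebraMap k E e * frq hR hy hq hcR hc0 g) ^ p ^ (n + 1) := by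
    have h2 : algebraMap k E e ^ p ^ (n + 1) = algebraMap k E a0 := by rw [← map_pow, he]
    rw [RingHom.comp_apply, hh, map_mul, map_pow, frq_algebraMap, evq_eq_shift, ev_apply, ev_apply,
      mul_pow, h2]
    have h1 : (shiftB hR hq (⟨H, mem_bsub hH⟩ : bsub (K := k) R hR)).1 = C a0 * u := by
      rw [hu, ← mul_assoc, ← map_mul, mul_inv_cancel₀ ha00, map_one, one_mul]
      rfl
    rw [h1, tsum_C_mul]
    ring
  obtain ⟨v, hv1, z, hz1, hz2⟩ := exists_val_kummer' (N := p ^ (n + 1)) (S := S) hc0 hcr1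
    ⟨u, hu'⟩ (fun L _ w io hG yy b hb hyy => Hk L w io hG yy b hb hyy) hxc
    ((frq hR hy hq hcR hc0).comp iota) hd hgE hjh hy1
  refine ⟨v, hv1, z, hz1, fun t ht => hz2 t ?_⟩
  rw [mul_div_cancel_left₀ _ hcE]
  exact ht

end Good

end Crest.Agent.R013.DLoc1_381
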