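import Mathlib
import Crest.Agent.R013.DG3_779
import Crest.Agent.R013.DLoc1_381

/-!
# Row 13, D-line, leaf D-G (helper779), file 4: convergence of the expansions, Taylor expansion as a
homomorphism
-/

set_option autoImplicit false
set_option linter.unusedSectionVars false
set_option linter.style.haveILetI false

open PowerSeries WithZero

namespace Crest.Agent.R013.DG_779

open Crest.Agent.R013.RR7_948 Crest.Agent.R013.RR8_948 Crest.Agent.R013.RR11_948
open Crest.Agent.R013.PlX_863 Crest.Agent.R013.Cell_408 Crest.Agent.R013.Cvg_863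
open Crest.Agent.R013.KAS2_940 (Bd)
open Crest.Agent.R013.KAS3_940 Crest.Agent.R013.Good1_940 Crest.Agent.R013.Good3_940
open Crest.Agent.R013.LemD_323 (shift coeff_shift)

section Conv

variable {C : Type*} [NormedField C] [IsUltrametricDist C]
variable {K : Type*} [Field K] [Algebra C K]
  [Algebra (RatFunc C) K] [IsScalarTower C (RatFunc C) K] [FiniteDimensional (RatFunc C) K]
  [Algebra.IsSeparable (RatFunc C) K]

/-- the expansion of every function regular at the place is in `BD` after rescaling -/
theorem exists_conv (k : Type*) [NontriviallyNormedField k] [NormedAlgebra k C]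
    [Algebra.IsAlgebraic k C] {Q : Pl C K} (hy : xK C K ∈ OA Q) (ψ : OA Q →ₐ[C] C⟦X⟧)
    {P1 : Polynomial C} (hψ : ψ ⟨xK C K, hy⟩ = (P1 : C⟦X⟧)) (hinj : Function.Injective ψ)
    (b : OA Q) : ∃ r : C, r ≠ 0 ∧ rescale r (ψ b) ∈ BD k C := by
  letI := algPoly C K
  haveI := towerPoly C K
  let j : Polynomial C →ₐ[C] OA Q := Polynomial.aeval ⟨xK C K, hy⟩
  have hj : ∀ p, ((j p : OA Q) : K) = algebraMap (Polynomial C) K p := by
    intro p
    rw [One_863.algPoly_apply, ← Subalgebra.coe_val, ← Polynomial.aeval_algHom_apply]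
    rfl
  obtain ⟨d, hd, hP0⟩ := IsLocalization.integerNormalization_spec
    (nonZeroDivisors (Polynomial C)) (minpoly (RatFunc C) (b : K))
  set P0 : Polynomial (Polynomial C) := IsLocalization.integerNormalization
    (nonZeroDivisors (Polynomial C)) (minpoly (RatFunc C) (b : K)) with hP0def
  have hd0 : d ≠ 0 := nonZeroDivisors.ne_zero hd
  have hdK : algebraMap (Polynomial C) K d ≠ 0 := by
    rw [IsScalarTower.algebraMap_apply (Polynomial C) (RatFunc C) K, Ne, _root_.map_eq_zero,
      map_eq_zero_iff _ (IsFractionRing.injective (Polynomial C) (RatFunc C))]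
    exact hd0
  rw [← algebraMap_smul (RatFunc C)] at hP0
  have hae : ∀ R : Polynomial (Polynomial C), Polynomial.aeval (b : K) R =
      Polynomial.aeval (b : K) (R.map (algebraMap (Polynomial C) (RatFunc C))) := fun R =>
    (Polynomial.aeval_map_algebraMap (RatFunc C) (b : K) R).symm
  have hP1 : Polynomial.aeval (b : K) P0 = 0 := by
    rw [hae, hP0, map_smul, minpoly.aeval, smul_zero]
  have hP1' : Polynomial.aeval (b : K) (Polynomial.derivative P0) ≠ 0 := by
    have h3 : Polynomial.aeval (b : K) (minpoly (RatFunc C) (b : K)) = 0 := minpoly.aeval _ _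
    have h4 : (minpoly (RatFunc C) (b : K)).Separable :=
      Algebra.IsSeparable.isSeparable (RatFunc C) (b : K)
    have h2 := h4.aeval_derivative_ne_zero h3
    rw [hae, ← Polynomial.derivative_map, hP0, Polynomial.derivative_smul, map_smul,
      Algebra.smul_def, ← IsScalarTower.algebraMap_apply]
    exact mul_ne_zero hdK h2
  -- transport to `OA Q`
  have hev : ∀ R : Polynomial (Polynomial C),
      (((R.map (j : Polynomial C →+* OA Q)).eval b : OA Q) : K) = Polynomial.aeval (b : K) R := by
    intro R
    rw [Polynomial.eval_map, Polynomial.aeval_def]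
    have h1 := Polynomial.hom_eval₂ R (j : Polynomial C →+* OA Q) (OA Q).val.toRingHom b
    have h2 : ((OA Q).val.toRingHom).comp (j : Polynomial C →+* OA Q) =
        algebraMap (Polynomial C) K := RingHom.ext hj
    rw [h2] at h1
    exact h1
  let P : Polynomial C⟦X⟧ := (P0.map (j : Polynomial C →+* OA Q)).map (ψ : OA Q →+* C⟦X⟧)
  refine exists_rescale_mem_BD k (P := P) (fun i => ?_) ?_ ?_
  · refine ⟨Polynomial.aeval P1 (P0.coeff i), ?_⟩
    rw [Polynomial.coeff_map, Polynomial.coeff_map]
    have h1 : (ψ : OA Q →+* C⟦X⟧) ((j : Polynomial C →+* OA Q) (P0.coeff i)) =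
        Polynomial.aeval (P1 : C⟦X⟧) (P0.coeff i) := by
      show ψ (Polynomial.aeval _ (P0.coeff i)) = _
      rw [← Polynomial.aeval_algHom_apply, hψ]
    rw [h1]
    have h2 := Polynomial.aeval_algHom_apply (Polynomial.coeToPowerSeries.algHom (R := C) C)
      P1 (P0.coeff i)
    simpa [Polynomial.coeToPowerSeries.algHom_apply] using h2
  · have h1 : (P0.map (j : Polynomial C →+* OA Q)).eval b = 0 := by
      apply Subtype.ext
      rw [hev, hP1]; rfl
    show Polynomial.eval (ψ b) _ = 0
    have h2 := Polynomial.eval_map_apply (ψ : OA Q →+* C⟦X⟧) b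
      (p := P0.map (j : Polynomial C →+* OA Q))
    rw [h1, map_zero] at h2
    exact h2
  · have h1 : ((Polynomial.derivative P0).map (j : Polynomial C →+* OA Q)).eval b ≠ 0 := by
      intro h0
      apply hP1'
      rw [← hev, h0]; rfl
    show Polynomial.eval (ψ b) (Polynomial.derivative P) ≠ 0
    have h2 := Polynomial.eval_map_apply (ψ : OA Q →+* C⟦X⟧) b
      (p := (Polynomial.derivative P0).map (j : Polynomial C →+* OA Q))
    have h3 : Polynomial.derivative P = ((Polynomial.derivative P0).map
        (j : Polynomial C →+* OA Q)).map (ψ : OA Q →+* C⟦X⟧) := by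
      rw [Polynomial.derivative_map, Polynomial.derivative_map]
    rw [h3]
    intro h4
    have h5 : (ψ : OA Q →+* C⟦X⟧) (((Polynomial.derivative P0).map
        (j : Polynomial C →+* OA Q)).eval b) = 0 := h2.symm.trans h4
    exact h1 (hinj (by simpa using h5))

end Conv

section Shift

variable {F : Type*} [NontriviallyNormedField F] [IsUltrametricDist F]

theorem bd_of_rescale {r : F} {f : F⟦X⟧} (h : rescale r f ∈ BD F F) :
    ∃ B, Bd ‖r‖ B f := by
  obtain ⟨-, M, hM⟩ := mem_BD.1 h
  refine ⟨M, fun n => ?_⟩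
  have h1 := hM n
  rw [coeff_rescale, norm_mul, norm_pow] at h1
  rwa [mul_comm]

variable [CompleteSpace F]

theorem shift_C (s c : F) : shift s (C c) = C c := by
  ext l
  rw [coeff_shift]
  rcases l with _ | l
  · rw [tsum_eq_single 0]
    · simp
    · intro n hn
      rw [coeff_C, if_neg (by omega)]; simp
  · rw [coeff_C, if_neg (by omega)]
    convert tsum_zero with n
    rw [coeff_C, if_neg (by omega)]; simp

theorem shift_one (s : F) : shift s (1 : F⟦X⟧) = 1 := by
  have := shift_C s (1 : F)
  rwa [map_one] at this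

theorem shift_X (s : F) : shift s (X : F⟦X⟧) = X + C s := by
  ext l
  rw [coeff_shift]
  rcases l with _ | _ | l
  · rw [tsum_eq_single 1]
    · simp [coeff_X]
    · intro n hn
      rw [coeff_X, if_neg (by omega)]; simp
  · rw [tsum_eq_single 0]
    · simp [coeff_X, coeff_C]
    · intro n hn
      rw [coeff_X, if_neg (by omega)]; simp
  · rw [map_add, coeff_X, if_neg (by omega), coeff_C, if_neg (by omega), add_zero]
    convert tsum_zero with n
    rw [coeff_X, if_neg (by omega)]; simp

theorem shift_zero_left (f : F⟦X⟧) : shift (0 : F) f = f := by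
  ext l
  rw [coeff_shift, tsum_eq_single 0]
  · simp
  · intro n hn
    rw [zero_pow hn, mul_zero]

theorem shift_add_left {R B : ℝ} (hR : 0 < R) {f : F⟦X⟧} (hf : Bd R B f) {s t : F}
    (hs : ‖s‖ < R) (ht : ‖t‖ < R) : shift t (shift s f) = shift (s + t) f := by
  have hst : ‖s + t‖ < R := norm_add_lt' hs ht
  refine eq_of_ev hR (bd_shift' (bd_shift' hf hs) ht) (bd_shift' hf hst) fun u hu => ?_
  rw [LemD_323.ev_shift (toBd (bd_shift' hf hs)) ht hu,
    LemD_323.ev_shift (toBd hf) hs (norm_add_lt' ht hu),
    LemD_323.ev_shift (toBd hf) hst hu]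
  congr 1
  ring

/-- Taylor expansion as a homomorphism -/
noncomputable def shH {R : ℝ} (hR : 0 < R) {s : F} (hs : ‖s‖ < R) :
    bsub (K := F) R hR →+* F⟦X⟧ where
  toFun f := shift s f.1
  map_one' := shift_one s
  map_zero' := shift_zero s
  map_add' f g := DLoc1_381.shift_add hR f.2.choose_spec g.2.choose_spec hs
  map_mul' f g := shift_mul hR f.2.choose_spec g.2.choose_spec hs

theorem shH_apply {R : ℝ} (hR : 0 < R) {s : F} (hs : ‖s‖ < R) (f : bsub (K := F) R hR) :
    shH hR hs f = shift s f.1 := rfl

theorem shH_injective {R : ℝ} (hR : 0 < R) {s : F} (hs : ‖s‖ < R) :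
    Function.Injective (shH hR hs) := by
  rw [injective_iff_map_eq_zero]
  intro f hf
  by_contra hne
  exact shift_ne_zero hR f.2.choose_spec hs (fun h => hne (Subtype.ext h)) hf

end Shift

end Crest.Agent.R013.DG_779
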