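import Mathlib
import Crest.Agent.R013.DG4_779
import Crest.Agent.R013.EE4_809
import Crest.Agent.R013.HU6_522

/-!
# Row 13, D-line, leaf D-G (helper779), file 5: discs over `C` around every place of `L = K_F`

`z` a place of `L / F` (classical or not), `x` the coordinate, `x - a` a uniformiser at `z`.  There is
a radius `R` such that for all `r, a' ∈ C`, `0 < ‖r‖ ≤ R`, `‖a' - a‖ < ‖r‖`, there is a disc end
`em : K → EE k C` with `em (x - a') = r T`, and the expansions under `em` are the Taylor expansions of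
the expansions at `z`.
-/

set_option autoImplicit false
set_option linter.unusedSectionVars false
set_option linter.style.haveILetI false
set_option maxHeartbeats 1000000

open PowerSeries WithZero

namespace Crest.Agent.R013.DG_779

open Crest.Agent.R013.RR7_948 Crest.Agent.R013.RR8_948 Crest.Agent.R013.RR11_948
open Crest.Agent.R013.PlX_863 Crest.Agent.R013.Cell_408 Crest.Agent.R013.Cvg_863
open Crest.Agent.R013.KAS2_940 (Bd bd_C bd_one)
open Crest.Agent.R013.KAS3_940 Crest.Agent.R013.Good1_940 Crest.Agent.R013.Good3_940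
open Crest.Agent.R013.LemD_323 (shift coeff_shift)
open Crest.Agent.R013.EE809 Crest.Agent.R013.HU6_522

section Aux

theorem psi_injective {C : Type*} [Field C] {K : Type*} [Field K] [Algebra C K] {Q : Pl C K}
    {ψ : OA Q →ₐ[C] C⟦X⟧}
    (hord : ∀ (n : ℕ) (f : OA Q), X ^ n ∣ ψ f ↔ Q.v (f : K) ≤ exp (-(n : ℤ))) :
    Function.Injective ψ := by
  rw [injective_iff_map_eq_zero]
  intro f hf
  by_contra hne
  have h0 : Q.v (f : K) ≠ 0 := (Valuation.ne_zero_iff _).mpr fun h => hne (Subtype.ext h)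
  have h1 := (hord (-(log (Q.v (f : K))) + 1).toNat f).1 (by rw [hf]; exact dvd_zero _)
  rw [← exp_log h0, exp_le_exp] at h1
  simp only [log_exp] at h1
  omega

variable {k C : Type*} [NontriviallyNormedField k] [NormedField C] [IsUltrametricDist C]
  [NormedAlgebra k C] [Algebra.IsAlgebraic k C]

/-- finite definition is invariant by rescaling -/
theorem finDef_of_rescale {r : C} (hr : r ≠ 0) {f : C⟦X⟧} (h : rescale r f ∈ BD k C) (r' : C) :
    FinDef k (fun n => coeff n (rescale r' f)) := by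
  obtain ⟨h1, -⟩ := mem_BD.1 h
  obtain ⟨L, hL, h2, h3⟩ := h1.common (finDef_finite (k := k) ![r, r'])
  refine ⟨L, hL, fun n => ?_⟩
  have h4 := h2 n
  dsimp only at h4 ⊢
  rw [coeff_rescale] at h4 ⊢
  have hr1 : r ∈ L := h3 0
  have hr2 : r' ∈ L := h3 1
  have h5 : coeff n f = (r ^ n)⁻¹ * (r ^ n * coeff n f) := by
    rw [← mul_assoc, inv_mul_cancel₀ (pow_ne_zero n hr), one_mul]
  rw [h5]
  exact mul_mem (pow_mem hr2 n) (mul_mem (inv_mem (pow_mem hr1 n)) h4)

end Aux

section Main

variable {k : Type*} [NontriviallyNormedField k] [CompleteSpace k] [IsUltrametricDist k]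
variable {C : Type*} [NormedField C] [IsUltrametricDist C] [NormedAlgebra k C] [CharZero C]
  [Algebra.IsAlgebraic k C] [IsAlgClosed C]
variable {K : Type*} [Field K] [Algebra C K] [Algebra (RatFunc C) K] [IsScalarTower C (RatFunc C) K]
  [FiniteDimensional (RatFunc C) K] [Algebra.IsSeparable (RatFunc C) K]
variable {F : Type*} [NontriviallyNormedField F] [IsUltrametricDist F] [CompleteSpace F]
  [IsAlgClosed F] [CharZero F] [Algebra C F]
variable {L : Type*} [Field L] [Algebra F L] [Algebra C L] [IsScalarTower C F L]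
  [Algebra (RatFunc F) L] [IsScalarTower F (RatFunc F) L] [FiniteDimensional (RatFunc F) L]
  [Algebra.IsSeparable (RatFunc F) L]

/-- the expansion at a place `z` of `L` in `x - a`, with a uniform radius for the integral functions -/
structure ZExp (z : Pl F L) (a : F) (x : L) where
  /-- the coordinate is regular -/
  mem : x - algebraMap F L a ∈ OA z
  /-- the expansion -/
  ψ : OA z →ₐ[F] F⟦X⟧
  ψx : ψ ⟨_, mem⟩ = X
  ord : ∀ (n : ℕ) (f : OA z), X ^ n ∣ ψ f ↔ z.v (f : L) ≤ exp (-(n : ℤ))

/-- existence -/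
theorem exists_ZExp {z : Pl F L} {a : F} {x : L} (hz : z.v (x - algebraMap F L a) = exp (-1)) :
    Nonempty (ZExp z a x) := by
  obtain ⟨h1, ψ, h2, h3⟩ := exists_expansion z (e := 1) (by simpa using hz) (by simp)
  rw [pow_one] at h2
  exact ⟨⟨h1, ψ, h2, h3⟩⟩

variable {z : Pl F L} {a : F} {x : L}

theorem ZExp.inj (E : ZExp z a x) : Function.Injective E.ψ := psi_injective E.ord

theorem ZExp.memx (E : ZExp z a x) : x ∈ OA z := by
  have h1 : x = (x - algebraMap F L a) + algebraMap F L a := by ring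
  rw [h1]
  exact add_mem E.mem ((OA z).algebraMap_mem a)

theorem ZExp.ψx' (E : ZExp z a x) (hx : x ∈ OA z) :
    E.ψ ⟨x, hx⟩ = ((Polynomial.X + Polynomial.C a : Polynomial F) : F⟦X⟧) := by
  have h1 : (⟨x, hx⟩ : OA z) = ⟨x - algebraMap F L a, E.mem⟩ + algebraMap F (OA z) a := by
    apply Subtype.ext
    show x = (x - algebraMap F L a) + algebraMap F L a
    ring
  rw [h1, map_add, E.ψx, AlgHom.commutes, Polynomial.coe_add, Polynomial.coe_X, Polynomial.coe_C]
  rfl

/-- convergence of the expansions -/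
theorem ZExp.exists_bd {z : Pl F L} {a : F} (E : ZExp z a (xK F L)) (f : OA z) :
    ∃ R : ℝ, 0 < R ∧ ∃ B, Bd R B (E.ψ f) := by
  obtain ⟨r, hr, h⟩ := exists_conv F E.memx E.ψ (E.ψx' E.memx) E.inj f
  obtain ⟨B, hB⟩ := bd_of_rescale h
  exact ⟨‖r‖, norm_pos_iff.2 hr, B, hB⟩

/-- uniform radius for the integral functions -/
theorem ZExp.exists_unif {z : Pl F L} {a : F} (E : ZExp z a (xK F L)) :
    ∃ R : ℝ, 0 < R ∧ ∀ f : OA z, (letI := algPoly F L; IsIntegral (Polynomial F) (f : L)) →
      ∃ B, Bd R B (E.ψ f) := by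
  obtain ⟨r, hr, h⟩ := One_863.exists_uniform F E.memx E.ψ (E.ψx' E.memx) E.inj
  exact ⟨‖r‖, norm_pos_iff.2 hr, fun f hf => bd_of_rescale (h r le_rfl f hf)⟩

end Main

end Crest.Agent.R013.DG_779
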