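import Mathlib
import Crest.Agent.R013.DG5_779
import Crest.Agent.R013.HU9_522

/-!
# Row 13, D-line, leaf D-G (helper779), file 6: the disc ends around a place of `L = K_F`
-/

set_option autoImplicit false
set_option linter.unusedSectionVars false
set_option linter.style.haveILetI false
set_option maxHeartbeats 1000000

open PowerSeries WithZero

namespace Crest.Agent.R013.DG_779

open Crest.Agent.R013.RR7_948 Crest.Agent.R013.RR8_948 Crest.Agent.R013.RR11_948
open Crest.Agent.R013.PlX_863 Crest.Agent.R013.Cell_408 Crest.Agent.R013.Cvg_863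
open Crest.Agent.R013.KAS2_940 (Bd bd_C bd_one)
open Crest.Agent.R013.KAS3_940 Crest.Agent.R013.Good1_940 Crest.Agent.R013.Good3_940
open Crest.Agent.R013.LemD_323 (shift coeff_shift)
open Crest.Agent.R013.EE809 Crest.Agent.R013.HU6_522 Crest.Agent.R013.HU9_522

section Hom

variable {C : Type*} [NormedField C] [IsUltrametricDist C] [CharZero C] [IsAlgClosed C]
variable {K : Type*} [Field K] [Algebra C K] [Algebra (RatFunc C) K] [IsScalarTower C (RatFunc C) K]
  [FiniteDimensional (RatFunc C) K] [Algebra.IsSeparable (RatFunc C) K]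
variable {F : Type*} [NontriviallyNormedField F] [IsUltrametricDist F] [CompleteSpace F]
  [IsAlgClosed F] [CharZero F] [Algebra C F]
variable {L : Type*} [Field L] [Algebra F L] [Algebra C L] [IsScalarTower C F L]
  [Algebra (RatFunc F) L] [IsScalarTower F (RatFunc F) L] [FiniteDimensional (RatFunc F) L]
  [Algebra.IsSeparable (RatFunc F) L] (ι : K →ₐ[C] L)

/-- integral functions of `K` are integral functions of `L` -/
theorem integral_iota (hx : xK F L = ι (xK C K)) {b : K}
    (hb : letI := algPoly C K; IsIntegral (Polynomial C) b) :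
    letI := algPoly F L; IsIntegral (Polynomial F) (ι b) := by
  letI := algPoly C K
  letI := algPoly F L
  obtain ⟨p, hp, hpb⟩ := hb
  refine ⟨p.map (Polynomial.mapRingHom (algebraMap C F)), hp.map _, ?_⟩
  have h1 : ((algebraMap (Polynomial F) L).comp (Polynomial.mapRingHom (algebraMap C F))) =
      (ι : K →+* L).comp (algebraMap (Polynomial C) K) := by
    apply Polynomial.ringHom_ext
    · intro c
      rw [RingHom.comp_apply, RingHom.comp_apply, Polynomial.coe_mapRingHom, Polynomial.map_C,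
        One_863.algPoly_apply, One_863.algPoly_apply, Polynomial.aeval_C, Polynomial.aeval_C]
      rw [← IsScalarTower.algebraMap_apply C F L]
      exact (ι.commutes c).symm
    · rw [RingHom.comp_apply, RingHom.comp_apply, Polynomial.coe_mapRingHom, Polynomial.map_X,
        One_863.algPoly_apply, One_863.algPoly_apply, Polynomial.aeval_X, Polynomial.aeval_X, hx]
      rfl
  rw [Polynomial.eval₂_map, h1]
  have h2 := Polynomial.hom_eval₂ p (algebraMap (Polynomial C) K) (ι : K →+* L) b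
  rw [hpb, map_zero] at h2
  exact h2.symm

variable {ι} {z : Pl F L} {a : F}

/-- the uniform radius of `E` -/
def Unif (E : ZExp z a (xK F L)) (R : ℝ) : Prop :=
  ∀ f : OA z, (letI := algPoly F L; IsIntegral (Polynomial F) (f : L)) → ∃ B, Bd R B (E.ψ f)

/-- the homomorphism `K → F((X))`, Taylor expansion at the point `a + s` -/
theorem exists_Phi (hx : xK F L = ι (xK C K)) (E : ZExp z a (xK F L)) {R : ℝ} (hR : 0 < R)
    (hU : Unif E R) {s : F} (hs : ‖s‖ < R) :
    ∃ Φ : K →+* LaurentSeries F,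
      (∀ c : C, Φ (algebraMap C K c) = HahnSeries.C (algebraMap C F c)) ∧
      Φ (xK C K) = HahnSeries.single 1 1 + HahnSeries.C (a + s) ∧
      (∀ b : K, (letI := algPoly C K; IsIntegral (Polynomial C) b) →
        ∃ h : ι b ∈ OA z, Φ b = ((shift s (E.ψ ⟨ι b, h⟩) : F⟦X⟧) : LaurentSeries F)) ∧
      ∀ (f : K) (hf : ι f ∈ OA z) {R' B : ℝ}, 0 < R' → R' ≤ R → ‖s‖ < R' →
        Bd R' B (E.ψ ⟨ι f, hf⟩) →
        Φ f = ((shift s (E.ψ ⟨ι f, hf⟩) : F⟦X⟧) : LaurentSeries F) := by
  letI := algPoly C K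
  haveI := towerPoly C K
  haveI : IsFractionRing (integralClosure (Polynomial C) K) K :=
    integralClosure.isFractionRing_of_finite_extension (RatFunc C) K
  have hmem : ∀ b : integralClosure (Polynomial C) K, ι (b : K) ∈ OA z := fun b =>
    One_863.integral_mem_OA E.memx (integral_iota ι hx b.2)
  have hbd : ∀ b : integralClosure (Polynomial C) K, ∃ B, Bd R B (E.ψ ⟨ι (b : K), hmem b⟩) :=
    fun b => hU ⟨ι (b : K), hmem b⟩ (integral_iota ι hx b.2)
  let g1 : integralClosure (Polynomial C) K →+* OA z :=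
    ((ι : K →+* L).comp (integralClosure (Polynomial C) K).val.toRingHom).codRestrict (OA z) hmem
  have hg1 : ∀ b, g1 b = ⟨ι (b : K), hmem b⟩ := fun b => rfl
  let g2 : integralClosure (Polynomial C) K →+* bsub (K := F) R hR :=
    ((E.ψ : OA z →+* F⟦X⟧).comp g1).codRestrict (bsub R hR) fun b => by
      obtain ⟨B, hB⟩ := hbd b
      exact mem_bsub hB
  have hg2 : ∀ b, ((g2 b : bsub R hR) : F⟦X⟧) = E.ψ ⟨ι (b : K), hmem b⟩ := fun b => rfl
  let g : integralClosure (Polynomial C) K →+* LaurentSeries F :=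
    (HahnSeries.ofPowerSeries ℤ F).comp ((shH hR hs).comp g2)
  have hg : ∀ b, g b = ((shift s (E.ψ ⟨ι (b : K), hmem b⟩) : F⟦X⟧) : LaurentSeries F) :=
    fun b => rfl
  have hinj : Function.Injective g := by
    refine HahnSeries.ofPowerSeries_injective.comp ((shH_injective hR hs).comp ?_)
    intro b b' h
    have h1 : ((g2 b : bsub R hR) : F⟦X⟧) = ((g2 b' : bsub R hR) : F⟦X⟧) := by rw [h]
    rw [hg2, hg2] at h1
    have h2 := E.inj h1
    have h3 : ι (b : K) = ι (b' : K) := congrArg Subtype.val h2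
    exact Subtype.ext (ι.injective h3)
  let Φ : K →+* LaurentSeries F := IsFractionRing.lift hinj
  have hΦ : ∀ b : integralClosure (Polynomial C) K, Φ (b : K) = g b := fun b =>
    IsFractionRing.lift_algebraMap hinj b
  have hgen : ∀ (f : K) (hf : ι f ∈ OA z) {R' B : ℝ}, 0 < R' → R' ≤ R → ‖s‖ < R' →
        Bd R' B (E.ψ ⟨ι f, hf⟩) →
        Φ f = ((shift s (E.ψ ⟨ι f, hf⟩) : F⟦X⟧) : LaurentSeries F) := by
    intro f hf R' B hR' hRR hs' hB
    obtain ⟨b₁, b₂, hb₂, hab⟩ := IsFractionRing.div_surjective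
      (A := integralClosure (Polynomial C) K) f
    have hb0 : b₂ ≠ 0 := nonZeroDivisors.ne_zero hb₂
    have hb0K : (b₂ : K) ≠ 0 := fun h => hb0 (Subtype.ext h)
    have h1 : f * (b₂ : K) = (b₁ : K) := by
      rw [← hab]
      exact div_mul_cancel₀ _ hb0K
    have h2 : (⟨ι f, hf⟩ : OA z) * ⟨ι (b₂ : K), hmem b₂⟩ = ⟨ι (b₁ : K), hmem b₁⟩ := by
      apply Subtype.ext
      show ι f * ι (b₂ : K) = ι (b₁ : K)
      rw [← map_mul, h1]
    have h3 := congrArg E.ψ h2
    rw [map_mul] at h3
    obtain ⟨B2, hB2⟩ := hbd b₂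
    have h4 := congrArg (shift s) h3
    rw [shift_mul hR' hB (hB2.mono_left hR'.le hRR) hs'] at h4
    have h5 := congrArg (HahnSeries.ofPowerSeries ℤ F) h4
    rw [map_mul, ← hg b₂, ← hg b₁, ← hΦ, ← hΦ, ← h1, map_mul] at h5
    exact (mul_right_cancel₀ ((_root_.map_ne_zero Φ).2 hb0K) h5).symm
  have hgB : ∀ b : K, (letI := algPoly C K; IsIntegral (Polynomial C) b) →
        ∃ h : ι b ∈ OA z, Φ b = ((shift s (E.ψ ⟨ι b, h⟩) : F⟦X⟧) : LaurentSeries F) := by
    intro b hb
    exact ⟨hmem ⟨b, hb⟩, (hΦ ⟨b, hb⟩).trans (hg ⟨b, hb⟩)⟩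
  refine ⟨Φ, fun c => ?_, ?_, hgB, hgen⟩
  · have hm : ι (algebraMap C K c) ∈ OA z := by
      rw [ι.commutes, IsScalarTower.algebraMap_apply C F L]
      exact (OA z).algebraMap_mem _
    have h1 : E.ψ ⟨ι (algebraMap C K c), hm⟩ = PowerSeries.C (algebraMap C F c) := by
      have h2 : (⟨ι (algebraMap C K c), hm⟩ : OA z) = algebraMap F (OA z) (algebraMap C F c) := by
        apply Subtype.ext
        show ι (algebraMap C K c) = algebraMap F L (algebraMap C F c)
        rw [ι.commutes, IsScalarTower.algebraMap_apply C F L]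
      rw [h2, AlgHom.commutes]
      rfl
    rw [hgen _ hm hR le_rfl hs (B := ‖algebraMap C F c‖) (by rw [h1]; exact bd_C _), h1, shift_C,
      HahnSeries.ofPowerSeries_C]
  · have hm : ι (xK C K) ∈ OA z := by rw [← hx]; exact E.memx
    have h1 : E.ψ ⟨ι (xK C K), hm⟩ = X + PowerSeries.C a := by
      have h2 : (⟨ι (xK C K), hm⟩ : OA z) = ⟨xK F L, E.memx⟩ := Subtype.ext hx.symm
      rw [h2, E.ψx', Polynomial.coe_add, Polynomial.coe_X, Polynomial.coe_C]
    have hX : Bd R R (X : F⟦X⟧) := by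
      have := Crest.Agent.R013.KAS2_940.bd_monomial (K := F) hR.le 1 1
      rwa [← X_eq, norm_one, one_mul, pow_one] at this
    have h2 : Bd R (max R ‖a‖) (X + PowerSeries.C a : F⟦X⟧) :=
      (hX.mono (le_max_left _ _)).add hR.le ((bd_C a).mono (le_max_right _ _))
    rw [hgen _ hm hR le_rfl hs (B := max R ‖a‖) (by rw [h1]; exact h2), h1,
      DLoc1_381.shift_add hR hX (bd_C a) hs, shift_X, shift_C, map_add, map_add,
      HahnSeries.ofPowerSeries_C, HahnSeries.ofPowerSeries_C, HahnSeries.ofPowerSeries_X, map_add]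
    abel

end Hom

end Crest.Agent.R013.DG_779
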