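import Mathlib
import Crest.Agent.R013.DG6_779

/-!
# Row 13, D-line, leaf D-G (helper779), file 7: the disc ends around a place of `L = K_F`
-/

set_option autoImplicit false
set_option linter.unusedSectionVars false
set_option linter.style.haveILetI false
set_option maxHeartbeats 1000000

open PowerSeries WithZero

namespace Crest.Agent.R013.DG_779

open Crest.Agent.R013.RR7_948 Crest.Agent.R013.RR8_948 Crest.Agent.R013.RR11_948
open Crest.Agent.R013.PlX_863 Crest.Agent.R013.Cell_408 Crest.Agent.R013.Cvg_863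
open Crest.Agent.R013.KAS2_940 (Bd bd_C bd_one)
open Crest.Agent.R013.KAS3_940 Crest.Agent.R013.Good1_940 Crest.Agent.R013.Good3_940
open Crest.Agent.R013.LemD_323 (shift coeff_shift)
open Crest.Agent.R013.EE809 Crest.Agent.R013.HU6_522 Crest.Agent.R013.HU9_522

variable {k : Type*} [NontriviallyNormedField k] [CompleteSpace k] [IsUltrametricDist k]
variable {C : Type*} [NormedField C] [IsUltrametricDist C] [NormedAlgebra k C] [CharZero C]
  [Algebra.IsAlgebraic k C] [IsAlgClosed C]

theorem rescale_one_eq {R : Type*} [CommSemiring R] (f : R⟦X⟧) : rescale (1 : R) f = f := by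
  ext n
  rw [coeff_rescale, one_pow, one_mul]

theorem map_rescale' {R S : Type*} [CommSemiring R] [CommSemiring S] (σ : R →+* S) (r : R)
    (f : R⟦X⟧) : PowerSeries.map σ (rescale r f) = rescale (σ r) (PowerSeries.map σ f) := by
  ext n
  rw [PowerSeries.coeff_map, coeff_rescale, coeff_rescale, PowerSeries.coeff_map, map_mul, map_pow]

section Frac

variable (k C) in
/-- the fraction field of `BD` in `EE` -/
theorem exists_frE (hk : DiscNorm k) : ∃ fr : FractionRing (BD k C) →+* EE k C,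
    ∀ g : BD k C, fr (algebraMap _ _ g) = bdE g := by
  haveI : Fact (DiscNorm k) := ⟨hk⟩
  exact ⟨IsFractionRing.lift (K := FractionRing (BD k C)) (L := EE k C)
    (g := (bdE : BD k C →+* EE k C)) bdE_injective,
    fun g => IsFractionRing.lift_algebraMap (K := FractionRing (BD k C)) (L := EE k C)
    (g := (bdE : BD k C →+* EE k C)) bdE_injective g⟩

end Frac

variable {K : Type*} [Field K] [Algebra C K] [Algebra (RatFunc C) K] [IsScalarTower C (RatFunc C) K]
  [FiniteDimensional (RatFunc C) K] [Algebra.IsSeparable (RatFunc C) K]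
variable {F : Type*} [NontriviallyNormedField F] [IsUltrametricDist F] [CompleteSpace F]
  [IsAlgClosed F] [CharZero F] [Algebra C F]
variable {L : Type*} [Field L] [Algebra F L] [Algebra C L] [IsScalarTower C F L]
  [Algebra (RatFunc F) L] [IsScalarTower F (RatFunc F) L] [FiniteDimensional (RatFunc F) L]
  [Algebra.IsSeparable (RatFunc F) L] {ι : K →ₐ[C] L} {z : Pl F L} {a : F}

/-- **the disc ends around `z`** -/
theorem exists_end (hk : DiscNorm k) (hσ : ∀ c : C, ‖algebraMap C F c‖ = ‖c‖)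
    (hx : xK F L = ι (xK C K)) (E : ZExp z a (xK F L)) {R : ℝ} (hR : 0 < R) (hU : Unif E R)
    {a' r : C} (hr : r ≠ 0) (hrR : ‖r‖ ≤ R) (ha : ‖algebraMap C F a' - a‖ < ‖r‖) :
    ∃ em : K →+* EE k C,
      (∀ c : C, em (algebraMap C K c) = mono 0 c (EE809.finDef_const c)) ∧
      (∀ f, ∃ u v : BD k C, v ≠ 0 ∧ em f * bdE v = bdE u) ∧
      em (xK C K - algebraMap C K a') = mono 1 r (EE809.finDef_const r) ∧
      ∀ (f : K) (hf : ι f ∈ OA z) (B : ℝ), Bd ‖r‖ B (E.ψ ⟨ι f, hf⟩) →
        ∃ W : BD k C, em f = bdE W ∧ PowerSeries.map (algebraMap C F) (W : C⟦X⟧) =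
          rescale (algebraMap C F r) (shift (algebraMap C F a' - a) (E.ψ ⟨ι f, hf⟩)) := by
  set σ := algebraMap C F with hσdef
  set s : F := σ a' - a with hs
  have hsR : ‖s‖ < R := ha.trans_le hrR
  have hrpos : 0 < ‖r‖ := norm_pos_iff.2 hr
  obtain ⟨Φ, hΦc, hΦx, hΦB, hΦ⟩ := exists_Phi hx E hR hU hsR
  set y : K := xK C K - algebraMap C K a' with hy
  have hΦy : Φ y = HahnSeries.single 1 (σ 1) := by
    have h1 : a + s = σ a' := by rw [hs]; ring
    have h2 : σ 1 = 1 := map_one σ
    rw [hy, map_sub, hΦx, hΦc, h2, h1]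
    exact add_sub_cancel_right _ _
  obtain ⟨P, hyO, ψ, hPy, hPv, hψy, hord, hψ⟩ := exists_place_expansion Φ hΦc one_ne_zero hΦy
  have hψ' : ∀ f : OA P, Φ (f : K) = ((PowerSeries.map σ (ψ f) : F⟦X⟧) : LaurentSeries F) := by
    intro f
    rw [hψ f, rescale_one_eq]
  -- the coordinate at `P`
  have hxO : xK C K ∈ OA P := by
    have h1 : xK C K = y + algebraMap C K a' := by rw [hy]; ring
    rw [h1]
    exact add_mem hyO ((OA P).algebraMap_mem a')
  have hψx : ψ ⟨xK C K, hxO⟩ = ((Polynomial.X + Polynomial.C a' : Polynomial C) : C⟦X⟧) := by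
    have h1 : (⟨xK C K, hxO⟩ : OA P) = ⟨y, hyO⟩ + algebraMap C (OA P) a' := by
      apply Subtype.ext
      show xK C K = y + algebraMap C K a'
      rw [hy]; ring
    rw [h1, map_add, hψy, AlgHom.commutes, Polynomial.coe_add, Polynomial.coe_X, Polynomial.coe_C]
    rfl
  have hinj := psi_injective hord
  -- general membership
  have hfin : ∀ f : OA P, FinDef k (fun n => coeff n (rescale r (ψ f))) := by
    intro f
    obtain ⟨r', hr', h⟩ := exists_conv k hxO ψ hψx hinj f
    exact finDef_of_rescale hr' h r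
  have hmemBD : ∀ (f : OA P) (G : F⟦X⟧) (B : ℝ), PowerSeries.map σ (ψ f) = G → Bd ‖r‖ B G →
      rescale r (ψ f) ∈ BD k C := by
    intro f G B hG hB
    refine mem_BD.2 ⟨hfin f, B, fun n => ?_⟩
    have h1 := hB n
    rw [← hG, PowerSeries.coeff_map, hσ] at h1
    rw [coeff_rescale, norm_mul, norm_pow, mul_comm]
    exact h1
  -- functions regular at `z`
  have hreg : ∀ (f : K) (hf : ι f ∈ OA z) (B : ℝ), Bd ‖r‖ B (E.ψ ⟨ι f, hf⟩) →
      ∃ h : f ∈ OA P, PowerSeries.map σ (ψ ⟨f, h⟩) = shift s (E.ψ ⟨ι f, hf⟩) := by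
    intro f hf B hB
    have h1 := hΦ f hf hrpos hrR ha hB
    have h2 : f ∈ OA P := by
      rw [mem_OA, hPv f]
      exact vX_le_one_iff.mpr ⟨_, h1.symm⟩
    refine ⟨h2, ?_⟩
    have h3 := hψ' ⟨f, h2⟩
    rw [h1] at h3
    exact (HahnSeries.ofPowerSeries_injective h3).symm
  -- the embedding
  obtain ⟨j, hj⟩ := One_863.exists_iota (k := k) hxO ψ hinj hr (fun b hb => by
    obtain ⟨h1, h2⟩ := hΦB (b : K) hb
    have h3 := hψ' b
    rw [h2] at h3
    have h4 := HahnSeries.ofPowerSeries_injective h3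
    obtain ⟨B, hB⟩ := hU ⟨ι (b : K), h1⟩ (integral_iota ι hx hb)
    exact hmemBD b _ B h4.symm (bd_shift' (hB.mono_left hrpos.le hrR) ha))
  obtain ⟨fr, hfr⟩ := exists_frE k C hk
  have hem : ∀ (w : OA P) (g : BD k C), rescale r (ψ w) = g → (fr.comp j) (w : K) = bdE g := by
    intro w g hg
    rw [RingHom.comp_apply, One_863.iota_eq hj w g hg, hfr]
  refine ⟨fr.comp j, fun c => ?_, fun f => ?_, ?_, fun f hf B hB => ?_⟩
  · have h1 := hem (algebraMap C (OA P) c) ⟨PowerSeries.C c, C_mem_BD c⟩ (by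
      rw [AlgHom.commutes]
      show rescale r (PowerSeries.C c) = PowerSeries.C c
      ext n
      rw [coeff_rescale, coeff_C]
      split_ifs with h0
      · rw [h0, pow_zero, one_mul]
      · rw [mul_zero])
    rw [bdE_C] at h1
    exact h1
  · obtain ⟨u, v, hv, huv⟩ := IsFractionRing.div_surjective (A := BD k C) (j f)
    have hv0 : v ≠ 0 := nonZeroDivisors.ne_zero hv
    refine ⟨u, v, hv0, ?_⟩
    rw [RingHom.comp_apply, ← hfr v, ← map_mul, ← huv, div_mul_cancel₀, hfr]
    rw [Ne, FaithfulSMul.algebraMap_eq_zero_iff]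
    exact hv0
  · have h0 : (PowerSeries.monomial 1 r : C⟦X⟧) ∈ BD k C := by
      have h1 : (PowerSeries.monomial 1 r : C⟦X⟧) =
          ((Polynomial.monomial 1 r : Polynomial C) : C⟦X⟧) := by
        rw [Polynomial.coe_monomial]
      rw [h1]
      exact coe_mem_BD _
    have h1 := hem ⟨y, hyO⟩ ⟨PowerSeries.monomial 1 r, h0⟩ (by
      rw [hψy]
      ext n
      rw [coeff_rescale, coeff_X]
      show _ = coeff n (PowerSeries.monomial 1 r)
      rw [coeff_monomial]
      split_ifs with h2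
      · rw [h2, pow_one, mul_one]
      · rw [mul_zero])
    refine Eq.trans h1 ?_
    ext n
    rw [co_mono, bdE_apply, co_bdF]
    show (if 0 ≤ n then coeff n.toNat (PowerSeries.monomial 1 r) else 0) = _
    rw [coeff_monomial]
    by_cases hn : n = 1
    · subst hn; simp
    · rw [if_neg hn]
      split_ifs with h2 h3
      · exfalso; omega
      · rfl
      · rfl
  · obtain ⟨h1, h2⟩ := hreg f hf B hB
    have h3 := hmemBD ⟨f, h1⟩ _ B h2 (bd_shift' hB ha)
    refine ⟨⟨_, h3⟩, hem ⟨f, h1⟩ ⟨_, h3⟩ rfl, ?_⟩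
    show PowerSeries.map σ (rescale r (ψ ⟨f, h1⟩)) = _
    rw [map_rescale', h2]

end Crest.Agent.R013.DG_779
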