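import Mathlib
import Crest.Agent.R013.DG1_779

/-!
# Row 13, D-line, leaf D-G (helper779), file 8: partial fractions with a prescribed zero

`s0` algebraic over `ℚ`, `e0 ≥ 1`, a residue class `r` modulo `p ≥ 1`, a finite set `Bad` of integers:
there are distinct integers `N i = r mod p` outside `Bad` and non zero integers `a i` with sum zero
such that `∑ a i / (X - N i)` has a zero of exact order `e0` at `s0`.
-/

set_option autoImplicit false

namespace Crest.Agent.R013.DG_779

open Polynomial Finset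

/-- partial fraction data for given `α` -/
theorem exists_PF_of (μ : ℤ[X]) (M : ℕ) (hM : μ.natDegree + 1 < M) (α : Fin M → ℤ)
    (hα : Function.Injective α) (hev : ∀ i, μ.eval (α i) ≠ 0) : ∃ S : PF μ (Fin M), S.α = α := by
  classical
  have hw : ∀ j, ∏ l ∈ univ.erase j, (α j - α l) ≠ 0 := by
    intro j
    refine Finset.prod_ne_zero_iff.mpr (fun l hl => ?_)
    rw [sub_ne_zero]
    exact fun h => (Finset.ne_of_mem_erase hl) (hα h).symm
  have key := pf_identity μ α hα (by simpa using hM)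
  refine ⟨{ α := α, a := _, c := _, inj := hα, c_ne := Finset.prod_ne_zero_iff.mpr (fun j _ => hw j),
            a_ne := fun i => mul_ne_zero (hev i) (Finset.prod_ne_zero_iff.mpr (fun j _ => hw j)),
            eval_ne := hev, sum_a := ?_, key := key }, rfl⟩
  have h1 := congrArg (fun q : ℤ[X] => q.coeff (M - 1)) key
  simp only [finsetSum_coeff, coeff_C_mul] at h1
  have h2 : μ.coeff (M - 1) = 0 := coeff_eq_zero_of_natDegree_lt (by omega)
  rw [h2, mul_zero] at h1
  rw [← h1]
  refine Finset.sum_congr rfl (fun i _ => ?_)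
  have hmon : (∏ j ∈ univ.erase i, (X - C (α j))).Monic :=
    monic_prod_of_monic _ _ (fun j _ => monic_X_sub_C _)
  have hdeg : (∏ j ∈ univ.erase i, (X - C (α j))).natDegree = M - 1 := by
    rw [natDegree_prod_of_monic _ _ (fun j _ => monic_X_sub_C _)]
    simp only [natDegree_X_sub_C, Finset.sum_const, smul_eq_mul, mul_one]
    rw [Finset.card_erase_of_mem (Finset.mem_univ _), Finset.card_univ, Fintype.card_fin]
  have h3 : (∏ j ∈ univ.erase i, (X - C (α j))).coeff (M - 1) = 1 := by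
    rw [← hdeg]; exact hmon
  rw [h3, mul_one]

/-- distinct integers in an infinite set, outside the roots of `μ` -/
theorem exists_distinct_of (μ : ℤ[X]) (hμ : μ ≠ 0) {T : Set ℤ} (hT : T.Infinite) (M : ℕ) :
    ∃ α : Fin M → ℤ, Function.Injective α ∧ (∀ i, α i ∈ T) ∧ ∀ i, μ.eval (α i) ≠ 0 := by
  classical
  have hinf : (T \ ((μ.roots.toFinset : Finset ℤ) : Set ℤ)).Infinite :=
    hT.sdiff (Finset.finite_toSet _)
  obtain ⟨t, ht, hcard⟩ := hinf.exists_subset_card_eq M
  refine ⟨fun i => (t.orderEmbOfFin hcard i : ℤ), (t.orderEmbOfFin hcard).injective, ?_, ?_⟩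
  · intro i
    exact (ht (t.orderEmbOfFin_mem hcard i)).1
  · intro i hi
    refine (ht (t.orderEmbOfFin_mem hcard i)).2 ?_
    simp only [mem_coe, Multiset.mem_toFinset]
    exact (mem_roots hμ).mpr hi

/-- an integral polynomial with a zero of exact order `e0` at `s0` -/
theorem exists_mu {F : Type*} [Field F] [CharZero F] [Algebra ℚ F] {s0 : F} (hs : IsAlgebraic ℚ s0)
    (e0 : ℕ) : ∃ μ : ℤ[X], μ ≠ 0 ∧ (μ.map (Int.castRingHom F)).rootMultiplicity s0 = e0 := by
  classical
  set m := minpoly ℚ s0 with hm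
  have hm0 : m ≠ 0 := minpoly.ne_zero hs.isIntegral
  obtain ⟨b, hb, hb2⟩ := IsLocalization.integerNormalization_spec (nonZeroDivisors ℤ) m
  set m0 := IsLocalization.integerNormalization (nonZeroDivisors ℤ) m with hm0def
  have hb0 : b ≠ 0 := nonZeroDivisors.ne_zero hb
  have hmapQ : m0.map (Int.castRingHom ℚ) = C (b : ℚ) * m := by
    have h1 : m0.map (algebraMap ℤ ℚ) = b • m := hb2
    rw [show (Int.castRingHom ℚ) = algebraMap ℤ ℚ from rfl, h1, zsmul_eq_mul]
    congr 1
  have hbQ : (b : ℚ) ≠ 0 := by exact_mod_cast hb0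
  have hmapF : m0.map (Int.castRingHom F) = C (b : F) * m.map (algebraMap ℚ F) := by
    have h1 : (Int.castRingHom F) = (algebraMap ℚ F).comp (Int.castRingHom ℚ) :=
      RingHom.ext_int _ _
    rw [h1, ← Polynomial.map_map, hmapQ, Polynomial.map_mul, Polynomial.map_C]
    congr 2
    simp
  have hbF : (b : F) ≠ 0 := by exact_mod_cast hb0
  have hmF0 : m.map (algebraMap ℚ F) ≠ 0 := by
    rwa [Ne, Polynomial.map_eq_zero]
  have hroot : (m.map (algebraMap ℚ F)).IsRoot s0 := by
    rw [IsRoot.def, eval_map_algebraMap]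
    exact minpoly.aeval ℚ s0
  have hsep : (m.map (algebraMap ℚ F)).Separable :=
    (minpoly.irreducible hs.isIntegral).separable.map
  have h1 : (m.map (algebraMap ℚ F)).rootMultiplicity s0 = 1 := by
    apply le_antisymm
    · exact rootMultiplicity_le_one_of_separable hsep s0
    · exact (rootMultiplicity_pos hmF0).mpr hroot
  have h2 : (m0.map (Int.castRingHom F)).rootMultiplicity s0 = 1 := by
    rw [hmapF, rootMultiplicity_mul (mul_ne_zero (C_ne_zero.mpr hbF) hmF0), rootMultiplicity_C,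
      zero_add, h1]
  have hm00 : m0 ≠ 0 := by
    intro h0
    rw [h0, Polynomial.map_zero] at hmapQ
    exact mul_ne_zero (C_ne_zero.mpr hbQ) hm0 hmapQ.symm
  refine ⟨m0 ^ e0, pow_ne_zero _ hm00, ?_⟩
  rw [Polynomial.map_pow, ← count_roots, roots_pow, Multiset.count_nsmul, count_roots, h2, mul_one]

/-- **(G1)** partial fractions with a zero of exact order `e0` at `s0`; the poles are integers of the
infinite set `T`. -/
theorem exists_G1_of {F : Type*} [Field F] [CharZero F] [Algebra ℚ F] {s0 : F}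
    (hs : IsAlgebraic ℚ s0) (e0 : ℕ) {T : Set ℤ} (hT : T.Infinite) :
    ∃ (M : ℕ) (N a : Fin M → ℤ) (mu : F[X]), Function.Injective N ∧ (∀ i, N i ∈ T) ∧
      (∀ i, a i ≠ 0) ∧ ∑ i, a i = 0 ∧ mu ≠ 0 ∧ mu.rootMultiplicity s0 = e0 ∧
      (∀ i, mu.eval (N i : F) ≠ 0) ∧
      ∑ i, C (a i : F) * ∏ l ∈ univ.erase i, (X - C (N l : F)) = mu := by
  classical
  obtain ⟨μ, hμ, hmult⟩ := exists_mu hs e0
  obtain ⟨α, hα, hαT, hev⟩ := exists_distinct_of μ hμ hT (μ.natDegree + 2)
  obtain ⟨S, rfl⟩ := exists_PF_of μ (μ.natDegree + 2) (by omega) α hα hev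
  have hcF : (S.c : F) ≠ 0 := by exact_mod_cast S.c_ne
  have hinj : Function.Injective (Int.castRingHom F) := Int.cast_injective
  have hmap0 : μ.map (Int.castRingHom F) ≠ 0 := by
    rwa [Ne, Polynomial.map_eq_zero_iff hinj]
  refine ⟨μ.natDegree + 2, S.α, S.a, C (S.c : F) * μ.map (Int.castRingHom F), S.inj, hαT, S.a_ne,
    S.sum_a, mul_ne_zero (C_ne_zero.mpr hcF) hmap0, ?_, ?_, ?_⟩
  · rw [rootMultiplicity_mul (mul_ne_zero (C_ne_zero.mpr hcF) hmap0), rootMultiplicity_C, zero_add,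
      hmult]
  · intro i
    rw [eval_mul, eval_C]
    refine mul_ne_zero hcF ?_
    have h1 : (μ.map (Int.castRingHom F)).eval (S.α i : F) = ((μ.eval (S.α i) : ℤ) : F) := by
      have h2 := Polynomial.eval_map_apply (Int.castRingHom F) (S.α i) (p := μ)
      exact h2
    rw [h1]
    exact_mod_cast S.eval_ne i
  · have h1 := congrArg (Polynomial.map (Int.castRingHom F)) S.key
    rw [Polynomial.map_sum, Polynomial.map_mul, Polynomial.map_C] at h1
    have h2 : (Int.castRingHom F) S.c = (S.c : F) := rfl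
    rw [h2] at h1
    rw [← h1]
    refine Finset.sum_congr rfl fun i _ => ?_
    rw [Polynomial.map_mul, Polynomial.map_C, Polynomial.map_prod]
    simp only [Polynomial.map_sub, Polynomial.map_X, Polynomial.map_C]
    rfl

/-- **(G1)**, poles in one residue class modulo `p`, outside a finite set. -/
theorem exists_G1 {F : Type*} [Field F] [CharZero F] [Algebra ℚ F] {s0 : F}
    (hs : IsAlgebraic ℚ s0) (e0 : ℕ) {Bad : Set ℤ} (hB : Bad.Finite) {p : ℕ} (hp : p ≠ 0) (r : ℤ) :
    ∃ (M : ℕ) (N a : Fin M → ℤ) (mu : F[X]), Function.Injective N ∧ (∀ i, N i ∉ Bad) ∧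
      (∀ i, N i ≡ r [ZMOD p]) ∧ (∀ i, a i ≠ 0) ∧ ∑ i, a i = 0 ∧ mu ≠ 0 ∧
      mu.rootMultiplicity s0 = e0 ∧ (∀ i, mu.eval (N i : F) ≠ 0) ∧
      ∑ i, C (a i : F) * ∏ l ∈ univ.erase i, (X - C (N l : F)) = mu := by
  have hinf : (Set.range (fun n : ℤ => r + p * n) \ Bad).Infinite := by
    refine Set.Infinite.sdiff (Set.infinite_range_of_injective fun m n h => ?_) hB
    have h1 : (p : ℤ) * m = p * n := by simpa using h
    exact mul_left_cancel₀ (by exact_mod_cast hp) h1
  obtain ⟨M, N, a, mu, h1, h2, h3⟩ := exists_G1_of hs e0 hinf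
  refine ⟨M, N, a, mu, h1, fun i => (h2 i).2, fun i => ?_, h3⟩
  obtain ⟨n, hn⟩ := (h2 i).1
  rw [← hn]
  exact (Int.modEq_iff_dvd.mpr ⟨-n, by ring⟩)

/-- the exact zero at `s0` -/
theorem exists_factor_of_rootMultiplicity {F : Type*} [Field F] {mu : F[X]} (h0 : mu ≠ 0) {s0 : F}
    {e0 : ℕ} (h : mu.rootMultiplicity s0 = e0) :
    ∃ q : F[X], mu = (X - C s0) ^ e0 * q ∧ q.eval s0 ≠ 0 := by
  subst h
  refine ⟨_, (pow_mul_divByMonic_rootMultiplicity_eq mu s0).symm,
    eval_divByMonic_pow_rootMultiplicity_ne_zero s0 h0⟩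

end Crest.Agent.R013.DG_779
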