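import Crest.Agent.R013.Gl17_946

/-!
# Patching, part 18: finite extensions of `ℚ_p` as complete discretely valued fields; change of
base fields.
-/

set_option autoImplicit false

namespace Crest.Agent.R013.Gl946

open Module Filter Topology Polynomial
open scoped NNReal
open Crest.Agent.R013.A2a_275 (Cpl toCpl norm_toCpl absOf)
open Crest.Agent.R013.SE_669 (cl)
open Crest.NumberTheoryR.Sect (IsPlace)

section Norm

variable {C : Type*} [Field C] (v : Valuation C ℝ≥0)

/-- The normed field attached to a valuation. -/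
@[instance_reducible]
noncomputable def nfV : NormedField C := (absOf v).toNormedField

/-- The nontrivially normed field attached to a nontrivial valuation. -/
@[instance_reducible]
noncomputable def nnfV (hnt : ∃ a, 1 < v a) : NontriviallyNormedField C :=
  { nfV v with
    non_trivial := by
      obtain ⟨a, ha⟩ := hnt
      exact ⟨a, by change (1 : ℝ) < (v a : ℝ); exact_mod_cast ha⟩ }

theorem nnfV_norm (hnt : ∃ a, 1 < v a) (a : C) : letI := nnfV v hnt; ‖a‖ = v a := rfl

theorem nnfV_ultra (hnt : ∃ a, 1 < v a) : letI := nnfV v hnt; IsUltrametricDist C := by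
  let := nnfV v hnt
  refine IsUltrametricDist.isUltrametricDist_of_forall_norm_add_le_max_norm fun x y => ?_
  change ((v (x + y) : ℝ≥0) : ℝ) ≤ max (v x : ℝ) (v y : ℝ)
  have h := v.map_add x y
  have h1 : ((v (x + y) : ℝ≥0) : ℝ) ≤ ((max (v x) (v y) : ℝ≥0) : ℝ) := by exact_mod_cast h
  rwa [NNReal.coe_max] at h1

theorem exists_unif {C : Type*} [NontriviallyNormedField C] [IsUltrametricDist C] [ProperSpace C] :
    ∃ ϖ : C, IsUnif ϖ := by
  obtain ⟨c, hc0, hc1⟩ := NormedField.exists_norm_lt_one C
  have hcpt : IsCompact (Metric.ball (0 : C) 1) := by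
    refine IsCompact.of_isClosed_subset (isCompact_closedBall (0 : C) 1)
      (IsUltrametricDist.isClosed_ball 0 1) Metric.ball_subset_closedBall
  obtain ⟨ϖ, hϖ1, hϖ2⟩ := hcpt.exists_isMaxOn ⟨c, by rwa [mem_ball_zero_iff]⟩
    (f := fun a : C => ‖a‖) continuous_norm.continuousOn
  have hmax : ∀ a : C, ‖a‖ < 1 → ‖a‖ ≤ ‖ϖ‖ := fun a ha => hϖ2 (mem_ball_zero_iff.2 ha)
  refine ⟨ϖ, ⟨hc0.trans_le (hmax c hc1), mem_ball_zero_iff.1 hϖ1, hmax⟩⟩

variable {p : ℕ} [Fact p.Prime] [Algebra ℚ_[p] C]
  (hv : ∀ q : ℚ_[p], v (algebraMap ℚ_[p] C q) = ‖q‖₊)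

include hv in
theorem nt_of_padic : ∃ a, 1 < v a := by
  obtain ⟨q, hq⟩ := NormedField.exists_one_lt_norm ℚ_[p]
  refine ⟨algebraMap ℚ_[p] C q, ?_⟩
  rw [hv]; exact_mod_cast hq

variable [FiniteDimensional ℚ_[p] C]

include hv in
theorem nnfV_complete (hnt : ∃ a, 1 < v a) :
    letI := nnfV v hnt; CompleteSpace C ∧ ProperSpace C := by
  let i1 := nnfV v hnt
  let i2 : NormedAlgebra ℚ_[p] C :=
    { (inferInstance : Algebra ℚ_[p] C) with
      norm_smul_le := by
        intro q a
        rw [Algebra.smul_def, norm_mul]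
        refine mul_le_mul_of_nonneg_right (le_of_eq ?_) (norm_nonneg _)
        change ((v (algebraMap ℚ_[p] C q) : ℝ≥0) : ℝ) = _
        rw [hv]; rfl }
  exact ⟨FiniteDimensional.complete ℚ_[p] C, FiniteDimensional.proper ℚ_[p] C⟩

include hv in
theorem unique_val (w : Valuation C ℝ≥0) (hw : ∀ q : ℚ_[p], w (algebraMap ℚ_[p] C q) = ‖q‖₊)
    (c : C) : v c = w c := by
  have h1 := spectralNorm_unique_field_norm_ext (K := ℚ_[p]) (L := C) (f := absOf v) (fun q => by
    change ((v (algebraMap ℚ_[p] C q) : ℝ≥0) : ℝ) = _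
    rw [hv]; rfl) c
  have h2 := spectralNorm_unique_field_norm_ext (K := ℚ_[p]) (L := C) (f := absOf w) (fun q => by
    change ((w (algebraMap ℚ_[p] C q) : ℝ≥0) : ℝ) = _
    rw [hw]; rfl) c
  exact NNReal.coe_injective (h1.trans h2.symm)

end Norm

section Reb

variable {k K C Kb : Type*} [Field k] [Field K] [Field C] [Field Kb] [Algebra k K] [Algebra k C]
  [Algebra C Kb] [Algebra K Kb] [Algebra k Kb] [IsScalarTower k K Kb] [IsScalarTower k C Kb]

/-- A field between `K` and `Kb` containing `F`, as an extension of `F`. -/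
def reb (F : IntermediateField C Kb) (M : IntermediateField K Kb) (h : ∀ f ∈ F, f ∈ M) :
    IntermediateField F Kb :=
  { M.toSubfield with algebraMap_mem' := fun f => h f f.2 }

theorem mem_reb (F : IntermediateField C Kb) (M : IntermediateField K Kb) (h : ∀ f ∈ F, f ∈ M)
    (a : Kb) : a ∈ reb F M h ↔ a ∈ M := Iff.rfl

/-- `k(x) → F`. -/
theorem exists_r (F : IntermediateField C Kb) (x : K) (hx : algebraMap K Kb x ∈ F) :
    ∃ r : IntermediateField.adjoin k {x} →+* F, ∀ a, ((r a : F) : Kb) = algebraMap K Kb a := by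
  let F' : IntermediateField k K :=
    { F.toSubfield.comap (algebraMap K Kb) with
      algebraMap_mem' := fun c => by
        change algebraMap K Kb (algebraMap k K c) ∈ F
        rw [← IsScalarTower.algebraMap_apply, IsScalarTower.algebraMap_apply k C Kb]
        exact F.algebraMap_mem _ }
  have hle : IntermediateField.adjoin k {x} ≤ F' := by
    rw [IntermediateField.adjoin_le_iff]
    rintro _ rfl
    exact hx
  refine ⟨((algebraMap K Kb).comp (algebraMap (IntermediateField.adjoin k {x}) K)).codRestrict F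
    (fun a => hle a.2), fun a => rfl⟩

theorem finite_reb (F : IntermediateField C Kb) (x : K) (hx : algebraMap K Kb x ∈ F)
    [FiniteDimensional (IntermediateField.adjoin k {x}) K]
    (M : IntermediateField K Kb) [FiniteDimensional K M] (h : ∀ f ∈ F, f ∈ M) :
    FiniteDimensional F (reb F M h) := by
  obtain ⟨r, hr⟩ := exists_r (k := k) F x hx
  let t : M →+* reb F M h :=
    { toFun := fun a => ⟨a.1, a.2⟩
      map_one' := rfl
      map_mul' := fun _ _ => rfl
      map_zero' := rfl
      map_add' := fun _ _ => rfl }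
  have ht : t.Finite := RingHom.Finite.of_surjective t fun a => ⟨⟨a.1, a.2⟩, rfl⟩
  have h1 : (algebraMap K M).Finite := RingHom.finite_algebraMap.2 inferInstance
  have h2 : (algebraMap (IntermediateField.adjoin k {x}) K).Finite :=
    RingHom.finite_algebraMap.2 inferInstance
  have h3 := ht.comp (h1.comp h2)
  have h4 : (algebraMap F (reb F M h)).comp r =
      t.comp ((algebraMap K M).comp (algebraMap (IntermediateField.adjoin k {x}) K)) := by
    ext a
    exact hr a
  rw [← h4] at h3
  exact RingHom.finite_algebraMap.1 h3.of_comp_finite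

theorem algebraic_F (F : IntermediateField C Kb) (x : K) (hx : algebraMap K Kb x ∈ F)
    [FiniteDimensional (IntermediateField.adjoin k {x}) K] [Algebra.IsAlgebraic K Kb] :
    Algebra.IsAlgebraic F Kb := by
  obtain ⟨r, hr⟩ := exists_r (k := k) F x hx
  have h1 : (algebraMap K Kb).IsIntegral := fun a =>
    (Algebra.IsAlgebraic.isAlgebraic (R := K) a).isIntegral
  have h2 : (algebraMap (IntermediateField.adjoin k {x}) K).IsIntegral :=
    (RingHom.finite_algebraMap.2 inferInstance :
      (algebraMap (IntermediateField.adjoin k {x}) K).Finite).to_isIntegral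
  have h3 := RingHom.IsIntegral.trans _ _ h2 h1
  have h4 : (algebraMap F Kb).comp r =
      (algebraMap K Kb).comp (algebraMap (IntermediateField.adjoin k {x}) K) := by
    ext a
    exact hr a
  rw [← h4] at h3
  have h5 := RingHom.IsIntegral.tower_top _ _ h3
  exact ⟨fun a => (show IsIntegral F a from h5 a).isAlgebraic⟩

theorem finite_reb' (F : IntermediateField C Kb) (KC M : IntermediateField K Kb)
    (hF : ∀ f ∈ F, f ∈ KC) (h : KC ≤ M) [FiniteDimensional K M]
    (hfin : FiniteDimensional F (reb F KC hF)) :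
    FiniteDimensional F (reb F M (fun f hf => h (hF f hf))) := by
  let t : M →+* reb F M (fun f hf => h (hF f hf)) :=
    { toFun := fun a => ⟨a.1, a.2⟩
      map_one' := rfl
      map_mul' := fun _ _ => rfl
      map_zero' := rfl
      map_add' := fun _ _ => rfl }
  let t' : reb F KC hF →+* KC :=
    { toFun := fun a => ⟨a.1, a.2⟩
      map_one' := rfl
      map_mul' := fun _ _ => rfl
      map_zero' := rfl
      map_add' := fun _ _ => rfl }
  let a1 : KC →+* M := (IntermediateField.inclusion h).toRingHom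
  have ht : t.Finite := RingHom.Finite.of_surjective t fun a => ⟨⟨a.1, a.2⟩, rfl⟩
  have ht' : t'.Finite := RingHom.Finite.of_surjective t' fun a => ⟨⟨a.1, a.2⟩, rfl⟩
  have h1 : (algebraMap K M).Finite := RingHom.finite_algebraMap.2 inferInstance
  have h2 : a1.comp (algebraMap K KC) = algebraMap K M := rfl
  rw [← h2] at h1
  have h3 : a1.Finite := h1.of_comp_finite
  have h4 : (algebraMap F (reb F KC hF)).Finite := RingHom.finite_algebraMap.2 hfin
  have h5 := ht.comp (h3.comp (ht'.comp h4))
  exact RingHom.finite_algebraMap.1 h5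

theorem algebraic_F' (F : IntermediateField C Kb) (KC : IntermediateField K Kb)
    (hF : ∀ f ∈ F, f ∈ KC) [Algebra.IsAlgebraic K Kb]
    (hfin : FiniteDimensional F (reb F KC hF)) : Algebra.IsAlgebraic F Kb := by
  let t' : reb F KC hF →+* KC :=
    { toFun := fun a => ⟨a.1, a.2⟩
      map_one' := rfl
      map_mul' := fun _ _ => rfl
      map_zero' := rfl
      map_add' := fun _ _ => rfl }
  have ht' : t'.Finite := RingHom.Finite.of_surjective t' fun a => ⟨⟨a.1, a.2⟩, rfl⟩
  have h1 : (algebraMap K Kb).IsIntegral := fun a =>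
    (Algebra.IsAlgebraic.isAlgebraic (R := K) a).isIntegral
  have h2 : (algebraMap KC Kb).comp (algebraMap K KC) = algebraMap K Kb := rfl
  rw [← h2] at h1
  have h3 := RingHom.IsIntegral.tower_top _ _ h1
  have h4 : (algebraMap F (reb F KC hF)).Finite := RingHom.finite_algebraMap.2 hfin
  have h5 := RingHom.IsIntegral.trans _ _ (ht'.comp h4).to_isIntegral h3
  exact ⟨fun a => (show IsIntegral F a from h5 a).isAlgebraic⟩

/-- `x ∈ KC`, `KC` finite over `k(x)`. -/
theorem finite_KC' (F : IntermediateField C Kb) (KC : IntermediateField K Kb)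
    (hF : ∀ f ∈ F, f ∈ KC) [IsScalarTower k KC Kb] (x : KC) (hx : (x : Kb) ∈ F)
    [FiniteDimensional (IntermediateField.adjoin k {x}) KC] :
    FiniteDimensional F (reb F KC hF) := by
  obtain ⟨r, hr⟩ := exists_r (k := k) (K := KC) F x hx
  let t : KC →+* reb F KC hF :=
    { toFun := fun a => ⟨a.1, a.2⟩
      map_one' := rfl
      map_mul' := fun _ _ => rfl
      map_zero' := rfl
      map_add' := fun _ _ => rfl }
  have ht : t.Finite := RingHom.Finite.of_surjective t fun a => ⟨⟨a.1, a.2⟩, rfl⟩
  have h2 : (algebraMap (IntermediateField.adjoin k {x}) KC).Finite :=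
    RingHom.finite_algebraMap.2 inferInstance
  have h3 := ht.comp h2
  have h4 : (algebraMap F (reb F KC hF)).comp r =
      t.comp (algebraMap (IntermediateField.adjoin k {x}) KC) := by
    ext a
    exact hr a
  rw [← h4] at h3
  exact RingHom.finite_algebraMap.1 h3.of_comp_finite

end Reb

end Crest.Agent.R013.Gl946
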