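import Mathlib
import Crest.Agent.R013.Cell2_408
import Crest.Agent.R013.Gl18_946

/-!
# Row 13, D-line, leaf D-INST, part 1 (helper920): the norm of a finite extension of `ℚ_[p]`
-/

set_option autoImplicit false
set_option linter.all false

namespace Crest.Agent.R013.DIn_920

open Crest.Agent.R013.Cell_408 (DiscNorm)
open Crest.Agent.R013.Gl946

section zpow

/-- values of a discretely normed field are powers of the norm of a uniformiser -/
theorem exists_zpow {k : Type*} [NormedField k] {π : k} (h : IsUnif π) {x : k} (hx : x ≠ 0) :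
    ∃ n : ℤ, ‖x‖ = ‖π‖ ^ n := by
  have hπ0 : ‖π‖ ≠ 0 := h.pos.ne'
  have hx0 : 0 < ‖x‖ := norm_pos_iff.mpr hx
  obtain ⟨n, hn1, hn2⟩ := exists_mem_Ioc_zpow hx0 ((one_lt_inv₀ h.pos).mpr h.lt_one)
  -- `‖π‖⁻¹ ^ n < ‖x‖ ≤ ‖π‖⁻¹ ^ (n + 1)`
  refine ⟨-(n + 1), ?_⟩
  have h1 : ‖π‖ ^ (-(n + 1)) = ‖π‖⁻¹ ^ (n + 1) := by rw [inv_zpow, zpow_neg]
  rw [h1]
  refine le_antisymm hn2 ?_
  -- `x π^(n)` has norm `> 1`?  `y := (x π^n)⁻¹` has norm `< 1`, so `≤ ‖π‖`
  have h2 : ‖(x * π ^ n)⁻¹‖ < 1 := by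
    rw [norm_inv, norm_mul, norm_zpow]
    apply inv_lt_one_of_one_lt₀
    have h3 : ‖π‖⁻¹ ^ n * ‖π‖ ^ n = 1 := by
      rw [inv_zpow, inv_mul_cancel₀ (zpow_ne_zero n hπ0)]
    calc (1 : ℝ) = ‖π‖⁻¹ ^ n * ‖π‖ ^ n := h3.symm
      _ < ‖x‖ * ‖π‖ ^ n := by
        apply mul_lt_mul_of_pos_right hn1 (zpow_pos h.pos n)
  have h3 := h.le _ h2
  rw [norm_inv, norm_mul, norm_zpow] at h3
  have h4 : 0 < ‖x‖ * ‖π‖ ^ n := mul_pos hx0 (zpow_pos h.pos n)
  have h5 : ‖π‖⁻¹ ≤ ‖x‖ * ‖π‖ ^ n := by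
    rw [inv_le_comm₀ h.pos h4]
    exact h3
  rw [zpow_add_one₀ (inv_ne_zero hπ0)]
  have h6 : ‖π‖⁻¹ ^ n * ‖π‖ ^ n = 1 := by
    rw [inv_zpow, inv_mul_cancel₀ (zpow_ne_zero n hπ0)]
  calc ‖π‖⁻¹ ^ n * ‖π‖⁻¹ ≤ ‖π‖⁻¹ ^ n * (‖x‖ * ‖π‖ ^ n) := by
        apply mul_le_mul_of_nonneg_left h5 (zpow_nonneg (inv_nonneg.mpr h.pos.le) n)
    _ = ‖x‖ * (‖π‖⁻¹ ^ n * ‖π‖ ^ n) := by ring
    _ = ‖x‖ := by rw [h6, mul_one]

theorem discNorm_of_unif {k : Type*} [NontriviallyNormedField k] {π : k} (h : IsUnif π) : DiscNorm k :=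
  ⟨π, h.pos, h.lt_one, fun x hx => exists_zpow h hx⟩

theorem discNorm_of_proper (k : Type*) [NontriviallyNormedField k] [IsUltrametricDist k]
    [ProperSpace k] : DiscNorm k := by
  obtain ⟨π, hπ⟩ := exists_unif (C := k)
  exact discNorm_of_unif hπ

end zpow

section knorm

variable (p : ℕ) [hp : Fact p.Prime] (k : Type*) [Field k] [Algebra ℚ_[p] k]
  [FiniteDimensional ℚ_[p] k]

/-- the norm of `k` -/
@[instance_reducible]
noncomputable def nk : NontriviallyNormedField k := spectralNorm.nontriviallyNormedField ℚ_[p] k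

theorem nk_toField : (nk p k).toField = ‹Field k› := rfl

theorem norm_nk (x : k) : letI := nk p k; ‖x‖ = spectralNorm ℚ_[p] k x := rfl

theorem norm_algebraMap_nk (q : ℚ_[p]) : letI := nk p k; ‖algebraMap ℚ_[p] k q‖ = ‖q‖ := by
  letI := nk p k
  rw [norm_nk]
  exact spectralNorm_extends q

theorem ultra_nk : letI := nk p k; IsUltrametricDist k := by
  letI := nk p k
  exact IsUltrametricDist.isUltrametricDist_of_isNonarchimedean_norm
    (isNonarchimedean_spectralNorm (K := ℚ_[p]) (L := k))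

/-- `k` is a normed algebra over `ℚ_[p]` -/
@[instance_reducible]
noncomputable def naQ : letI := nk p k; NormedAlgebra ℚ_[p] k :=
  letI := nk p k
  { (inferInstance : Algebra ℚ_[p] k) with
    norm_smul_le := fun q x => by
      rw [Algebra.smul_def, norm_mul, norm_algebraMap_nk] }

theorem complete_nk : letI := nk p k; CompleteSpace k := by
  letI := nk p k
  letI := naQ p k
  exact FiniteDimensional.complete ℚ_[p] k

theorem proper_nk : letI := nk p k; ProperSpace k := by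
  letI := nk p k
  letI := naQ p k
  exact FiniteDimensional.proper ℚ_[p] k

theorem discNorm_nk : letI := nk p k; DiscNorm k := by
  letI := nk p k
  haveI := ultra_nk p k
  haveI := proper_nk p k
  exact discNorm_of_proper k

end knorm

section Cnorm

variable (p : ℕ) [hp : Fact p.Prime] (k : Type*) [Field k] [Algebra ℚ_[p] k]
  [FiniteDimensional ℚ_[p] k]

/-- an embedding of `k` in `ℚ_p^al` -/
noncomputable def jk : k →ₐ[ℚ_[p]] PadicAlgCl p := IsAlgClosed.lift

/-- `ℚ_p^al` as a `k`-algebra -/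
@[instance_reducible]
noncomputable def algC : Algebra k (PadicAlgCl p) := (jk p k : k →+* PadicAlgCl p).toAlgebra

theorem towerC : letI := algC p k; IsScalarTower ℚ_[p] k (PadicAlgCl p) :=
  letI := algC p k
  IsScalarTower.of_algebraMap_eq fun a => ((jk p k).commutes a).symm

theorem norm_algC (a : k) : letI := nk p k; letI := algC p k;
    ‖algebraMap k (PadicAlgCl p) a‖ = ‖a‖ := by
  letI := nk p k
  letI := algC p k
  haveI := towerC p k
  show spectralNorm ℚ_[p] (PadicAlgCl p) (algebraMap k (PadicAlgCl p) a) = spectralNorm ℚ_[p] k a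
  unfold spectralNorm
  rw [minpoly.algebraMap_eq (algebraMap k (PadicAlgCl p)).injective]

@[instance_reducible]
noncomputable def naC : letI := nk p k; NormedAlgebra k (PadicAlgCl p) :=
  letI := nk p k
  { algC p k with
    norm_smul_le := fun a x => by
      letI := algC p k
      have h := norm_algC p k a
      show ‖jk p k a * x‖ ≤ _
      rw [norm_mul]
      exact mul_le_mul_of_nonneg_right h.le (norm_nonneg _) }

theorem isAlgC : letI := algC p k; Algebra.IsAlgebraic k (PadicAlgCl p) := by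
  letI := algC p k
  haveI := towerC p k
  exact Algebra.IsAlgebraic.tower_top (K := ℚ_[p]) k

end Cnorm

section CF

variable (p : ℕ) [hp : Fact p.Prime]

theorem norm_CF (a : PadicAlgCl p) : ‖algebraMap (PadicAlgCl p) ℂ_[p] a‖ = ‖a‖ :=
  UniformSpace.Completion.norm_coe a

theorem dense_CF : DenseRange (algebraMap (PadicAlgCl p) ℂ_[p]) :=
  UniformSpace.Completion.denseRange_coe

end CF

end Crest.Agent.R013.DIn_920
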