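import Crest.Agent.R013.DIn1_920
import Crest.Agent.R013.DBr4_920
import Crest.Agent.R013.CE9_280
import Crest.Agent.R013.CAsm1_588

/-!
# Row 13, D-line, leaf D-INST (helper920): the abstract tower

`of_tower` : to prove a proposition about `k`, `K` (finite over `ℚ_[p]`, function field with
`algebraicClosure k K = ⊥`) one may assume the whole tower of 854's #4670: `C`, `E = K ⊗ C`, `F`,
`L = E ⊗ F`, `φ : E →ₐ[K] AlgebraicClosure K`, `e : Cb k K ≃+* C`.
-/

set_option autoImplicit false
set_option linter.all false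

namespace Crest.Agent.R013.DIn_920

open Module WithZero
open scoped NNReal
open Crest.NumberTheoryR.Sect
open Crest.Agent.R013.Cell_408 (DiscNorm)
open Crest.Agent.R013.RR7_948 Crest.Agent.R013.RR8_948 Crest.Agent.R013.RR13_948
open Crest.Agent.R013.Desc_372 Crest.Agent.R013.Desc_372.CE
open Crest.Agent.R013.CE1_280 Crest.Agent.R013.CE2_280 Crest.Agent.R013.CE3_280
open Crest.Agent.R013.CE9_280
open Crest.Agent.R013.Small4_940 (Cb)

theorem of_tower (p : ℕ) [hp : Fact p.Prime] (k : Type) [Field k] [Algebra ℚ_[p] k]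
    [FiniteDimensional ℚ_[p] k] (K : Type) [Field K] [Algebra k K] [Algebra (RatFunc k) K]
    [IsScalarTower k (RatFunc k) K] [FiniteDimensional (RatFunc k) K]
    (hc : algebraicClosure k K = ⊥) {Q : Prop}
    (H : letI := nk p k
      ∀ (C : Type) [NormedField C] [IsUltrametricDist C] [NormedAlgebra k C] [CharZero C]
        [Algebra.IsAlgebraic k C] [IsAlgClosed C] [NormedAlgebra ℚ_[p] C]
        [IsScalarTower ℚ_[p] k C]
        (E : Type) [Field E] [Algebra C E] [Algebra K E] [Algebra k E] [IsScalarTower k C E]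
        [IsScalarTower k K E] [CE k C K E] [Algebra (RatFunc C) E]
        [IsScalarTower C (RatFunc C) E] [FiniteDimensional (RatFunc C) E]
        (F : Type) [NontriviallyNormedField F] [IsUltrametricDist F] [CompleteSpace F]
        [IsAlgClosed F] [CharZero F] [NormedAlgebra ℚ_[p] F] [Algebra C F] [Algebra k F]
        [IsScalarTower k C F] [IsScalarTower ℚ_[p] k F]
        (L : Type) [Field L] [Algebra F L] [Algebra C L] [IsScalarTower C F L]
        [Algebra (RatFunc F) L] [IsScalarTower F (RatFunc F) L]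
        [FiniteDimensional (RatFunc F) L]
        (ι : E →ₐ[C] L) (φ : E →ₐ[K] AlgebraicClosure K) (e : Cb k K ≃+* C),
        xK C E = algebraMap K E (xK k K) →
        (∀ a : C, ‖algebraMap C F a‖ = ‖a‖) → DenseRange (algebraMap C F) →
        IsCE F ι → xK F L = ι (xK C E) →
        (∀ a : k, e (algebraMap k (Cb k K) a) = algebraMap k C a) →
        (∀ c : C, φ (algebraMap C E c) = (e.symm c : AlgebraicClosure K)) → Q) : Q := by
  letI i1 := nk p k
  letI i2 := naC p k
  haveI i3 : IsScalarTower ℚ_[p] k (PadicAlgCl p) := towerC p k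
  haveI i4 : Algebra.IsAlgebraic k (PadicAlgCl p) := isAlgC p k
  haveI : CharZero k := charZero_of_injective_algebraMap (algebraMap ℚ_[p] k).injective
  haveI : CharZero K := charZero_of_injective_algebraMap (algebraMap k K).injective
  obtain ⟨E, j1, j2, hCE⟩ := CAsm1_588.exists_CE k (PadicAlgCl p) K hc
  haveI := hCE
  letI j3 : Algebra (RatFunc (PadicAlgCl p)) E := ratCE k (PadicAlgCl p) K E
  haveI j4 : IsScalarTower (PadicAlgCl p) (RatFunc (PadicAlgCl p)) E :=
    ratCE_tower k (PadicAlgCl p) K E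
  have hx : xK (PadicAlgCl p) E = algebraMap K E (xK k K) := ratCE_xK k (PadicAlgCl p) K E
  haveI j5 : FiniteDimensional (RatFunc (PadicAlgCl p)) E := finite_rat k (PadicAlgCl p) K E hx
  haveI l2 : IsScalarTower k (PadicAlgCl p) ℂ_[p] := inferInstance
  haveI l3 : IsScalarTower ℚ_[p] k ℂ_[p] := IsScalarTower.of_algebraMap_eq fun a => by
    rw [IsScalarTower.algebraMap_apply k (PadicAlgCl p) ℂ_[p],
      ← IsScalarTower.algebraMap_apply ℚ_[p] k (PadicAlgCl p)]
    exact IsScalarTower.algebraMap_apply ℚ_[p] (PadicAlgCl p) ℂ_[p] a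
  obtain ⟨φ, e, he1, he2⟩ := DBr_920.exists_phi k K (PadicAlgCl p) E
  exact H (PadicAlgCl p) E ℂ_[p] (KO (PadicAlgCl p) E ℂ_[p]) (iota (PadicAlgCl p) E ℂ_[p]) φ e hx
    (norm_CF p) (dense_CF p) (isCE (PadicAlgCl p) E ℂ_[p]) (xK_eq (PadicAlgCl p) E ℂ_[p]) he1 he2

end Crest.Agent.R013.DIn_920
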