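import Crest.Agent.R013.Ax2_280
import Crest.Agent.R013.A2b_275
import Crest.Agent.R013.Lift6_903

/-!
R013 / A-PPT, part 1 (helper894): a finite extension of `ℚ_p` as a complete discretely valued normed
field; residues at a point of the `p`-adic analytic space of a field.
-/

set_option autoImplicit false
set_option linter.style.haveILetI false

noncomputable section

namespace Crest.Agent.R013.PPt_894

open Polynomial Topology
open scoped NNReal ENNReal
open Crest.Agent.R013.Gl946 Crest.Agent.R013.A2b_275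

universe u v

section norm

variable {p : ℕ} [hp : Fact p.Prime] {k : Type u} [Field k]

/-- the normed field structure given by a real valued valuation -/
@[reducible] def nk (vk : Valuation k ℝ≥0) : NormedField k := (Lift903.absv vk).toNormedField

theorem norm_nk (vk : Valuation k ℝ≥0) (c : k) : (nk vk).norm c = vk c := rfl

theorem ultra_nk (vk : Valuation k ℝ≥0) :
    @IsUltrametricDist k (nk vk).toPseudoMetricSpace.toDist := by
  letI := nk vk
  refine IsUltrametricDist.isUltrametricDist_of_forall_norm_add_le_max_norm fun x y => ?_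
  rw [norm_nk, norm_nk, norm_nk]
  exact_mod_cast vk.map_add x y

variable [Algebra ℚ_[p] k] {vk : Valuation k ℝ≥0}

/-- `k` as a normed algebra over `ℚ_p` -/
@[reducible] def nalg (hvk : ∀ q : ℚ_[p], vk (algebraMap ℚ_[p] k q) = ‖q‖₊) :
    letI := nk vk; NormedAlgebra ℚ_[p] k :=
  letI := nk vk
  { (inferInstance : Algebra ℚ_[p] k) with
    norm_smul_le := fun a x => by
      rw [Algebra.smul_def, norm_mul]
      refine le_of_eq ?_
      congr 1
      rw [norm_nk, hvk]
      rfl }

theorem proper_nk [FiniteDimensional ℚ_[p] k]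
    (hvk : ∀ q : ℚ_[p], vk (algebraMap ℚ_[p] k q) = ‖q‖₊) :
    @ProperSpace k (nk vk).toPseudoMetricSpace := by
  letI := nk vk
  letI := nalg hvk
  exact FiniteDimensional.proper ℚ_[p] k

theorem complete_nk [FiniteDimensional ℚ_[p] k]
    (hvk : ∀ q : ℚ_[p], vk (algebraMap ℚ_[p] k q) = ‖q‖₊) :
    @CompleteSpace k (nk vk).toPseudoMetricSpace.toUniformSpace := by
  letI := nk vk
  haveI := proper_nk hvk
  infer_instance

theorem vk_p (hvk : ∀ q : ℚ_[p], vk (algebraMap ℚ_[p] k q) = ‖q‖₊) :
    vk (p : k) = (p : ℝ≥0)⁻¹ := by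
  have h1 := hvk (p : ℚ_[p])
  rw [map_natCast] at h1
  rw [h1]
  ext
  rw [coe_nnnorm, Padic.norm_p, NNReal.coe_inv, NNReal.coe_natCast]

/-- a uniformiser of `k` -/
theorem exists_unif_nk [FiniteDimensional ℚ_[p] k]
    (hvk : ∀ q : ℚ_[p], vk (algebraMap ℚ_[p] k q) = ‖q‖₊) :
    letI := nk vk; ∃ π₀ : k, IsUnif π₀ := by
  letI := nk vk
  haveI := ultra_nk vk
  haveI := proper_nk hvk
  have hcl : IsClosed (Metric.ball (0 : k) 1) := IsUltrametricDist.isClosed_ball 0 1
  have hK : IsCompact (Metric.ball (0 : k) 1) :=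
    Metric.isCompact_of_isClosed_isBounded hcl Metric.isBounded_ball
  have hp1 : ‖(p : k)‖ < 1 := by
    rw [norm_nk, vk_p hvk, NNReal.coe_inv, NNReal.coe_natCast]
    exact inv_lt_one_of_one_lt₀ (by exact_mod_cast hp.out.one_lt)
  obtain ⟨x, hx, hmax⟩ := hK.exists_isMaxOn ⟨(p : k), by simpa using hp1⟩
    (continuous_norm (E := k)).continuousOn
  have hx1 : ‖x‖ < 1 := by simpa using hx
  have hle : ∀ a : k, ‖a‖ < 1 → ‖a‖ ≤ ‖x‖ := fun a ha => hmax (by simpa using ha)
  refine ⟨x, ?_, hx1, hle⟩
  have h1 := hle _ hp1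
  have h2 : 0 < ‖(p : k)‖ := by
    rw [norm_nk, vk_p hvk, NNReal.coe_inv, NNReal.coe_natCast]
    have := hp.out.pos
    positivity
  exact h2.trans_le h1

/-- integers prime to `p` have norm one -/
theorem vk_nat (hvk : ∀ q : ℚ_[p], vk (algebraMap ℚ_[p] k q) = ‖q‖₊) {N : ℕ} (hN : ¬ p ∣ N) :
    vk (N : k) = 1 := by
  have h1 := hvk (N : ℚ_[p])
  rw [map_natCast] at h1
  rw [h1]
  ext
  rw [coe_nnnorm, NNReal.coe_one]
  have h2 : ‖((N : ℤ) : ℚ_[p])‖ = 1 := by
    refine le_antisymm (Padic.norm_int_le_one _) ?_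
    by_contra hlt
    push Not at hlt
    rw [Padic.norm_intCast_lt_one_iff] at hlt
    exact hN (by exact_mod_cast hlt)
  exact_mod_cast h2

end norm

section pt

variable {p : ℕ} [hp : Fact p.Prime] {k : Type u} [Field k] [Algebra ℚ_[p] k] {K : Type v}
  [Field K] [Algebra k K] {φ : K → ℝ≥0∞}

theorem ring_lt_one_iff (h : IsPt p k K φ) (a : K) : h.ring.valuation a < 1 ↔ φ a = 0 := by
  rcases eq_or_ne a 0 with rfl | ha
  · rw [map_zero, h.map_zero]
    simp
  have h1 : h.ring.valuation a ≠ 0 := (Valuation.ne_zero_iff _).2 ha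
  rw [← not_le, ← inv_le_one₀ (zero_lt_iff.2 h1), ← map_inv₀, h.ring.valuation_le_one_iff,
    h.mem_ring, not_not, h.inv a ha, ENNReal.inv_eq_top]

theorem residue_eq_iff (h : IsPt p k K φ) (a b : h.ring) :
    IsLocalRing.residue h.ring a = IsLocalRing.residue h.ring b ↔ φ ((a : K) - b) = 0 := by
  rw [← sub_eq_zero, ← _root_.map_sub, IsLocalRing.residue_eq_zero_iff,
    h.ring.valuation_lt_one_iff, ← ring_lt_one_iff h]
  rfl

theorem eq_of_residue_eq (h : IsPt p k K φ) {a b : h.ring}
    (hab : IsLocalRing.residue h.ring a = IsLocalRing.residue h.ring b) :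
    φ (a : K) = φ (b : K) := by
  have key : ∀ a b : h.ring, IsLocalRing.residue h.ring a = IsLocalRing.residue h.ring b →
      φ (a : K) ≤ φ (b : K) := by
    intro a b hab
    have h1 := (residue_eq_iff h a b).1 hab
    have h2 := h.add ((a : K) - b) b
    rw [sub_add_cancel, h1] at h2
    simpa using h2
  exact le_antisymm (key a b hab) (key b a hab.symm)

/-- the norm on the residue field of a point -/
def resW (h : IsPt p k K φ) : Valuation (IsLocalRing.ResidueField h.ring) ℝ≥0 where
  toFun x := (φ (Function.surjInv (IsLocalRing.residue_surjective (R := h.ring)) x : h.ring)).toNNReal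
  map_zero' := by
    have h1 := Function.surjInv_eq (IsLocalRing.residue_surjective (R := h.ring)) 0
    rw [← _root_.map_zero (IsLocalRing.residue h.ring)] at h1
    rw [← _root_.map_zero (IsLocalRing.residue h.ring), eq_of_residue_eq h h1]
    change (φ 0).toNNReal = 0
    rw [h.map_zero]; rfl
  map_one' := by
    have h1 := Function.surjInv_eq (IsLocalRing.residue_surjective (R := h.ring)) 1
    rw [← _root_.map_one (IsLocalRing.residue h.ring)] at h1
    rw [← _root_.map_one (IsLocalRing.residue h.ring), eq_of_residue_eq h h1]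
    change (φ 1).toNNReal = 1
    rw [h.map_one]; rfl
  map_mul' x y := by
    have h1 := Function.surjInv_eq (IsLocalRing.residue_surjective (R := h.ring)) x
    have h2 := Function.surjInv_eq (IsLocalRing.residue_surjective (R := h.ring)) y
    have h3 := Function.surjInv_eq (IsLocalRing.residue_surjective (R := h.ring)) (x * y)
    set a := Function.surjInv (IsLocalRing.residue_surjective (R := h.ring)) x
    set b := Function.surjInv (IsLocalRing.residue_surjective (R := h.ring)) y
    set c := Function.surjInv (IsLocalRing.residue_surjective (R := h.ring)) (x * y)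
    have h4 : IsLocalRing.residue h.ring c = IsLocalRing.residue h.ring (a * b) := by
      rw [h3, _root_.map_mul, h1, h2]
    rw [eq_of_residue_eq h h4]
    have ha : φ (a : K) ≠ ∞ := a.2
    have hb : φ (b : K) ≠ ∞ := b.2
    change (φ ((a : K) * b)).toNNReal = _
    rw [h.mul a b (Or.inr hb) (Or.inr ha), ENNReal.toNNReal_mul]
  map_add_le_max' x y := by
    have h1 := Function.surjInv_eq (IsLocalRing.residue_surjective (R := h.ring)) x
    have h2 := Function.surjInv_eq (IsLocalRing.residue_surjective (R := h.ring)) y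
    have h3 := Function.surjInv_eq (IsLocalRing.residue_surjective (R := h.ring)) (x + y)
    set a := Function.surjInv (IsLocalRing.residue_surjective (R := h.ring)) x
    set b := Function.surjInv (IsLocalRing.residue_surjective (R := h.ring)) y
    set c := Function.surjInv (IsLocalRing.residue_surjective (R := h.ring)) (x + y)
    have h4 : IsLocalRing.residue h.ring c = IsLocalRing.residue h.ring (a + b) := by
      rw [h3, _root_.map_add, h1, h2]
    rw [eq_of_residue_eq h h4]
    have ha : φ (a : K) ≠ ∞ := a.2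
    have hb : φ (b : K) ≠ ∞ := b.2
    have hab : φ ((a : K) + b) ≠ ∞ := (a + b).2
    change (φ ((a : K) + b)).toNNReal ≤ _
    rw [← ENNReal.coe_le_coe, ENNReal.coe_max, ENNReal.coe_toNNReal ha, ENNReal.coe_toNNReal hb,
      ENNReal.coe_toNNReal hab]
    exact h.add a b

theorem resW_residue (h : IsPt p k K φ) (a : h.ring) :
    resW h (IsLocalRing.residue h.ring a) = (φ (a : K)).toNNReal := by
  have h1 := Function.surjInv_eq (IsLocalRing.residue_surjective (R := h.ring))
    (IsLocalRing.residue h.ring a)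
  change (φ (Function.surjInv (IsLocalRing.residue_surjective (R := h.ring)) _ : h.ring)).toNNReal
    = _
  rw [eq_of_residue_eq h h1]

/-- the constants are in the ring of a point -/
theorem const_ne_top [FiniteDimensional ℚ_[p] k] (h : IsPt p k K φ) (c : k) :
    φ (algebraMap k K c) ≠ ∞ := by
  letI : Algebra ℚ_[p] K := ((algebraMap k K).comp (algebraMap ℚ_[p] k)).toAlgebra
  haveI : IsScalarTower ℚ_[p] k K := IsScalarTower.of_algebraMap_eq fun _ => rfl
  refine h.ne_top_of_isIntegral ?_
  have h1 : IsIntegral ℚ_[p] c := Algebra.IsIntegral.isIntegral c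
  exact h1.map (IsScalarTower.toAlgHom ℚ_[p] k K)

/-- a polynomial killing the residue, with bounded coefficients -/
theorem pt_poly [FiniteDimensional ℚ_[p] k] {vk : Valuation k ℝ≥0}
    (hvk : ∀ q : ℚ_[p], vk (algebraMap ℚ_[p] k q) = ‖q‖₊) (h : IsPt p k K φ)
    (halg : ∀ a : K, φ a ≠ ∞ → ∃ Q : k[X], Q.Monic ∧ φ (aeval a Q) = 0) (a : K) (ha : φ a ≤ 1) :
    ∃ Q : k[X], Q.Monic ∧ (∀ i, vk (Q.coeff i) ≤ 1) ∧ φ (aeval a Q) = 0 ∧
      (φ a < 1 → ∀ i < Q.natDegree, vk (Q.coeff i) < 1) := by
  classical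
  have hatop : φ a ≠ ∞ := ne_top_of_le_ne_top ENNReal.one_ne_top ha
  let kO : k →+* h.ring := (algebraMap k K).codRestrict h.ring.toSubring (const_ne_top h)
  let κ := IsLocalRing.ResidueField h.ring
  let res : h.ring →+* κ := IsLocalRing.residue h.ring
  letI algk : Algebra k κ := (res.comp kO).toAlgebra
  letI algQ : Algebra ℚ_[p] κ := ((algebraMap k κ).comp (algebraMap ℚ_[p] k)).toAlgebra
  haveI : IsScalarTower ℚ_[p] k κ := IsScalarTower.of_algebraMap_eq fun _ => rfl
  have hres : ∀ (b : h.ring) (Q : k[X]), ∃ hQ : φ (aeval (b : K) Q) ≠ ∞,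
      res ⟨aeval (b : K) Q, hQ⟩ = aeval (res b) Q := by
    intro b Q
    have h1 : aeval (b : K) Q = ((Q.eval₂ kO b : h.ring) : K) := by
      rw [aeval_def]
      have h2 := Polynomial.hom_eval₂ Q kO h.ring.subtype b
      change _ = h.ring.subtype (Q.eval₂ kO b)
      rw [h2]
      rfl
    have h2 : φ (aeval (b : K) Q) ≠ ∞ := by
      rw [h1]; exact (Q.eval₂ kO b).2
    refine ⟨h2, ?_⟩
    have h3 : (⟨aeval (b : K) Q, h2⟩ : h.ring) = Q.eval₂ kO b := Subtype.ext h1
    rw [h3, Polynomial.hom_eval₂, aeval_def]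
    rfl
  have hint : Algebra.IsAlgebraic ℚ_[p] κ := by
    have h1 : Algebra.IsAlgebraic k κ := by
      refine ⟨fun x => ?_⟩
      obtain ⟨b, rfl⟩ := IsLocalRing.residue_surjective x
      obtain ⟨Q, hQm, hQ⟩ := halg b b.2
      obtain ⟨h2, h3⟩ := hres b Q
      refine ⟨Q, hQm.ne_zero, ?_⟩
      change aeval (res b) Q = 0
      rw [← h3, ← _root_.map_zero res]
      refine (residue_eq_iff h _ _).2 ?_
      change φ (aeval (b : K) Q - 0) = 0
      rw [sub_zero, hQ]
    exact Algebra.IsAlgebraic.trans ℚ_[p] k κ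
  have hW : ∀ q : ℚ_[p], resW h (algebraMap ℚ_[p] κ q) = ‖q‖₊ := by
    intro q
    have h1 : algebraMap ℚ_[p] κ q = res (kO (algebraMap ℚ_[p] k q)) := rfl
    rw [h1, resW_residue]
    change (φ (algebraMap k K (algebraMap ℚ_[p] k q))).toNNReal = _
    rw [h.ext]
    rfl
  set x : κ := res ⟨a, hatop⟩ with hx
  have hWx : (resW h x : ℝ) = spectralValue (minpoly ℚ_[p] x) :=
    Ax_280.w_eq_spectralNorm (resW h) hW x
  have hWφ : resW h x = (φ a).toNNReal := resW_residue h ⟨a, hatop⟩
  have hm : (minpoly ℚ_[p] x).Monic := minpoly.monic (Algebra.IsIntegral.isIntegral x)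
  refine ⟨(minpoly ℚ_[p] x).map (algebraMap ℚ_[p] k), hm.map _, ?_, ?_, ?_⟩
  · intro i
    rw [Polynomial.coeff_map, hvk]
    have h1 : spectralValue (minpoly ℚ_[p] x) ≤ 1 := by
      rw [← hWx, hWφ]
      have : (φ a).toNNReal ≤ 1 := by
        rw [← ENNReal.coe_le_coe, ENNReal.coe_toNNReal hatop]; exact ha
      exact_mod_cast this
    exact_mod_cast (spectralValue_le_one_iff hm).1 h1 i
  · obtain ⟨h2, h3⟩ := hres ⟨a, hatop⟩ ((minpoly ℚ_[p] x).map (algebraMap ℚ_[p] k))
    have h4 : res ⟨aeval a ((minpoly ℚ_[p] x).map (algebraMap ℚ_[p] k)), h2⟩ = res 0 := by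
      rw [_root_.map_zero]
      refine h3.trans ?_
      rw [aeval_map_algebraMap]
      exact minpoly.aeval ℚ_[p] x
    have h5 := (residue_eq_iff h _ _).1 h4
    change φ (_ - 0) = 0 at h5
    rwa [sub_zero] at h5
  · intro hlt i hi
    rw [hm.natDegree_map] at hi
    rw [Polynomial.coeff_map, hvk]
    have h1 : spectralValue (minpoly ℚ_[p] x) < 1 := by
      rw [← hWx, hWφ]
      have : (φ a).toNNReal < 1 := by
        rw [← ENNReal.coe_lt_coe, ENNReal.coe_toNNReal hatop]; exact hlt
      exact_mod_cast this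
    by_contra hcon
    push Not at hcon
    have h2 : spectralValueTerms (minpoly ℚ_[p] x) i ≤ spectralValue (minpoly ℚ_[p] x) :=
      le_ciSup (spectralValueTerms_bddAbove _) i
    rw [spectralValueTerms_of_lt_natDegree _ hi] at h2
    have h3 : (1 : ℝ) ≤ ‖(minpoly ℚ_[p] x).coeff i‖ := by exact_mod_cast hcon
    have h4 : (1 : ℝ) ≤ ‖(minpoly ℚ_[p] x).coeff i‖ ^
        (1 / ((minpoly ℚ_[p] x).natDegree - i : ℝ)) := by
      refine Real.one_le_rpow h3 ?_
      have : (i : ℝ) < (minpoly ℚ_[p] x).natDegree := by exact_mod_cast hi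
      have h5 : (0 : ℝ) < (minpoly ℚ_[p] x).natDegree - i := sub_pos.2 this
      positivity
    linarith

end pt

end Crest.Agent.R013.PPt_894
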