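import Crest.Agent.R013.DAsm2_906
import Crest.Agent.R013.CAsm2_588
import Crest.Agent.R013.PPtA_894
import Crest.Agent.R013.CE9_280

/-!
# Row 13, D-LINE: the context (helper906)

`CoreD p` : the pencil in the presence of the whole tower
`ℚ_p ⊂ k ⊂ C ⊂ F`, `K ⊂ KC = K ⊗ C ⊂ L = K ⊗ F`, `φ : KC → AlgebraicClosure K`, `e : Cb k K ≃ C`.
`pencilAll` : `CoreD p → PencilAll p` (`C = PadicAlgCl p`, `F = ℂ_[p]`).
-/

set_option autoImplicit false
set_option linter.style.haveILetI false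

namespace Crest.Agent.R013.DInst_906

open scoped NNReal Topology
open Crest.NumberTheoryR.Sect
open Crest.Agent.R013.RR7_948 Crest.Agent.R013.RR8_948 Crest.Agent.R013.RR9_948
  Crest.Agent.R013.RR11_948 Crest.Agent.R013.RR12_948 Crest.Agent.R013.RR13_948
  Crest.Agent.R013.RR14_948
open Crest.Agent.R013.Desc_372 Crest.Agent.R013.Desc_372.CE
open Crest.Agent.R013.Cell_408 Crest.Agent.R013.PPt_894
open Crest.Agent.R013.CE3_280
open Crest.Agent.R013.Small4_940 (Cb)
open Crest.Agent.R013.DAsm1_906 Crest.Agent.R013.DAsm2_906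

/-- **the core of the D-line** -/
def CoreD (p : ℕ) [Fact p.Prime] : Prop :=
  ∀ (k : Type) [NontriviallyNormedField k] [CompleteSpace k] [IsUltrametricDist k]
    [Algebra ℚ_[p] k] [FiniteDimensional ℚ_[p] k]
    (K : Type) [Field K] [Algebra k K] [Algebra (RatFunc k) K] [IsScalarTower k (RatFunc k) K]
    [FunctionField k K]
    (C : Type) [NormedField C] [IsUltrametricDist C] [NormedAlgebra k C] [CharZero C]
    [Algebra.IsAlgebraic k C] [IsAlgClosed C]
    (KC : Type) [Field KC] [Algebra C KC] [Algebra K KC] [Algebra k KC] [IsScalarTower k C KC]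
    [IsScalarTower k K KC] [CE k C K KC] [Algebra (RatFunc C) KC]
    [IsScalarTower C (RatFunc C) KC] [FiniteDimensional (RatFunc C) KC]
    (F : Type) [NontriviallyNormedField F] [IsUltrametricDist F] [CharZero F] [CompleteSpace F]
    [IsAlgClosed F] [Algebra C F]
    (L : Type) [Field L] [Algebra F L] [Algebra C L] [IsScalarTower C F L]
    [Algebra (RatFunc F) L] [IsScalarTower F (RatFunc F) L] [FiniteDimensional (RatFunc F) L]
    (ι : KC →ₐ[C] L) (e : Cb k K ≃+* C) (φ : KC →ₐ[K] AlgebraicClosure K),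
    (∀ q : ℚ_[p], ‖algebraMap ℚ_[p] k q‖ = ‖q‖) → DiscNorm k →
    (∀ a : C, ‖algebraMap C F a‖ = ‖a‖) → DenseRange (algebraMap C F) →
    IsCE F ι → xK F L = ι (xK C KC) → xK C KC = algebraMap K KC (xK k K) →
    (∀ a : k, e (algebraMap k (Cb k K) a) = algebraMap k C a) →
    (∀ c : C, φ (algebraMap C KC c) = (e.symm c : AlgebraicClosure K)) →
    algebraicClosure k K = ⊥ → 2 ≤ genus k K → 2 ≤ gen C KC →
    ∃ (m : ℕ) (b : Fin m → K) (α β : Fin m → F) (Bad : Finset ℤ),
      ST1 p ((algebraMap C F).comp (e : Cb k K →+* C)) b α β Bad ∧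
      ∀ (P : Valuation (AlgebraicClosure K) ℝ≥0) (x : K),
        IsRationalPlace k K (P.comap (algebraMap K (AlgebraicClosure K))) →
        IsUniformizerAt (P.comap (algebraMap K (AlgebraicClosure K))) x →
        ∀ δ η : ℝ≥0, 0 < δ → 0 < η →
          ST2 p ((algebraMap C F).comp (e : Cb k K →+* C)) b α β Bad P x δ η

theorem discNorm_of {k : Type*} [NontriviallyNormedField k] {π : k} (h0 : 0 < ‖π‖) (h1 : ‖π‖ < 1)
    (hle : ∀ a : k, ‖a‖ < 1 → ‖a‖ ≤ ‖π‖) : DiscNorm k := by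
  refine ⟨π, h0, h1, fun x hx => ?_⟩
  obtain ⟨n, hn1, hn2⟩ := exists_mem_Ico_zpow (norm_pos_iff.mpr hx) ((one_lt_inv₀ h0).2 h1)
  have hp : 0 < ‖π‖ ^ n := zpow_pos h0 n
  have h2 : ‖x * π ^ n‖ = ‖x‖ * ‖π‖ ^ n := by rw [norm_mul, norm_zpow]
  have h3 : 1 ≤ ‖x * π ^ n‖ := by
    rw [h2]
    calc (1 : ℝ) = ‖π‖⁻¹ ^ n * ‖π‖ ^ n := by rw [inv_zpow, inv_mul_cancel₀ hp.ne']
      _ ≤ _ := mul_le_mul_of_nonneg_right hn1 hp.le
  have h4 : ‖x * π ^ n‖ < ‖π‖⁻¹ := by
    rw [h2]
    calc ‖x‖ * ‖π‖ ^ n < ‖π‖⁻¹ ^ (n + 1) * ‖π‖ ^ n := mul_lt_mul_of_pos_right hn2 hp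
      _ = ‖π‖⁻¹ := by
        rw [zpow_add₀ (inv_ne_zero h0.ne'), zpow_one, inv_zpow]
        field_simp
  have h5 : ‖x * π ^ n‖ = 1 := by
    refine le_antisymm (not_lt.mp fun h => ?_) h3
    have h6 := hle (x * π ^ n)⁻¹ (by rw [norm_inv]; exact inv_lt_one_of_one_lt₀ h)
    rw [norm_inv] at h6
    have h7 : ‖π‖⁻¹ ≤ ‖x * π ^ n‖ := by
      rw [inv_le_comm₀ h0 (zero_lt_one.trans h)]
      exact h6
    exact absurd h4 (not_lt.mpr h7)
  refine ⟨-n, ?_⟩
  rw [h2] at h5
  rw [zpow_neg]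
  exact eq_inv_of_mul_eq_one_left h5

theorem pencilAll (p : ℕ) [Fact p.Prime] (h : CoreD p) : PencilAll p := by
  intro k _ _ _ K _ _ _ _ _ hc hg
  haveI : FiniteDimensional (RatFunc k) K := ‹FunctionField k K›
  haveI : CharZero k := charZero_of_injective_algebraMap (algebraMap ℚ_[p] k).injective
  haveI : CharZero K := charZero_of_injective_algebraMap (algebraMap k K).injective
  let C := PadicAlgCl p
  let j : k →ₐ[ℚ_[p]] C := IsAlgClosed.lift
  letI ikC : Algebra k C := (j : k →+* C).toAlgebra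
  haveI : IsScalarTower ℚ_[p] k C := IsScalarTower.of_algebraMap_eq fun a => (j.commutes a).symm
  haveI : Algebra.IsAlgebraic k C := Algebra.IsAlgebraic.tower_top (K := ℚ_[p]) k
  haveI : CharZero C := charZero_of_injective_algebraMap (algebraMap ℚ_[p] C).injective
  -- the norm of `k`
  let vk : Valuation k ℝ≥0 := (Valued.v : Valuation C ℝ≥0).comap (algebraMap k C)
  have hvk0 : ∀ c : k, ((vk c : ℝ≥0) : ℝ) = ‖algebraMap k C c‖ := fun c =>
    PadicAlgCl.valuation_coe p _
  have hvk : ∀ q : ℚ_[p], vk (algebraMap ℚ_[p] k q) = ‖q‖₊ := by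
    intro q
    apply NNReal.eq
    rw [hvk0, ← IsScalarTower.algebraMap_apply, coe_nnnorm]
    exact PadicAlgCl.norm_extends p _
  obtain ⟨KC, i1, i2, hCE⟩ := CAsm1_588.exists_CE k C K hc
  haveI := hCE
  letI i3 : Algebra (RatFunc C) KC := ratCE k C K KC
  haveI i4 : IsScalarTower C (RatFunc C) KC := ratCE_tower k C K KC
  haveI i5 : FiniteDimensional (RatFunc C) KC := finite_rat k C K KC (ratCE_xK k C K KC)
  haveI : CharZero KC := charZero_of_injective_algebraMap (algebraMap C KC).injective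
  let φ : KC →ₐ[K] AlgebraicClosure K := KC.val
  obtain ⟨e, he1, he2⟩ := CAsm2_588.exists_e (k := k) (C := C) φ
  let F := ℂ_[p]
  have hjn : ∀ a : ℚ_[p], ‖((algebraMap C F).comp (e : Cb k K →+* C))
      (algebraMap k (Cb k K) (algebraMap ℚ_[p] k a))‖ = ‖a‖ := by
    intro a
    rw [RingHom.comp_apply, RingEquiv.coe_toRingHom, he1,
      ← IsScalarTower.algebraMap_apply ℚ_[p] k C]
    exact (PadicComplex.norm_extends p _).trans (PadicAlgCl.norm_extends p _)
  have hd : DenseRange (algebraMap C F) := UniformSpace.Completion.denseRange_coe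
  have hjd : DenseRange ((algebraMap C F).comp (e : Cb k K →+* C)) := by
    intro x
    have h1 := hd x
    have h2 : Set.range ((algebraMap C F).comp (e : Cb k K →+* C)) = Set.range (algebraMap C F) := by
      ext y
      constructor
      · rintro ⟨z, rfl⟩
        exact ⟨e z, rfl⟩
      · rintro ⟨z, rfl⟩
        exact ⟨e.symm z, by rw [RingHom.comp_apply, RingEquiv.coe_toRingHom, e.apply_symm_apply]⟩
    rw [h2]
    exact h1
  haveI : IsGalois k C := by
    haveI : IsAlgClosure k C := ⟨inferInstance, inferInstance⟩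
    haveI : Normal k C := IsAlgClosure.normal k C
    exact {}
  have hgen : 2 ≤ gen C KC := by
    rw [gen_eqC (k := k) (C := C) (K₀ := K) (K := KC) hc, ← RR17_948.genus_eq_gen]
    exact hg
  obtain ⟨m, b, α, β, Bad, h1, h2⟩ : ∃ (m : ℕ) (b : Fin m → K) (α β : Fin m → F) (Bad : Finset ℤ),
      ST1 p ((algebraMap C F).comp (e : Cb k K →+* C)) b α β Bad ∧
      ∀ (P : Valuation (AlgebraicClosure K) ℝ≥0) (x : K),
        IsRationalPlace k K (P.comap (algebraMap K (AlgebraicClosure K))) →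
        IsUniformizerAt (P.comap (algebraMap K (AlgebraicClosure K))) x →
        ∀ δ η : ℝ≥0, 0 < δ → 0 < η →
          ST2 p ((algebraMap C F).comp (e : Cb k K →+* C)) b α β Bad P x δ η := by
    letI nf := nk vk
    haveI := ultra_nk vk
    haveI := complete_nk hvk
    obtain ⟨π, hπ⟩ := exists_unif_nk hvk
    letI nn : NontriviallyNormedField k :=
      { nf with
        non_trivial := ⟨π⁻¹, by rw [norm_inv]; exact (one_lt_inv₀ hπ.pos).2 hπ.lt_one⟩ }
    letI nal : NormedAlgebra k C :=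
      { ikC with
        norm_smul_le := fun a x => by
          rw [Algebra.smul_def, norm_mul]
          exact le_of_eq (congrArg (· * ‖x‖) (hvk0 a).symm) }
    exact h k K C KC F (CE9_280.KO C KC F) (CE9_280.iota C KC F) e φ
      (fun q => by
        rw [show ‖algebraMap ℚ_[p] k q‖ = vk (algebraMap ℚ_[p] k q) from rfl, hvk]; rfl)
      (discNorm_of hπ.pos hπ.lt_one hπ.le)
      (fun a => PadicComplex.norm_extends p a) hd (CE9_280.isCE C KC F) (CE9_280.xK_eq C KC F)
      (ratCE_xK k C K KC) he1 he2 hc hg hgen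
  exact ⟨F, inferInstance, inferInstance, (algebraMap C F).comp (e : Cb k K →+* C), m, b, α, β,
    Bad, hjn, hjd, h1, h2⟩

end Crest.Agent.R013.DInst_906
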