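import Crest.Agent.R013.Good7_940
import Crest.Agent.R013.DLoc1_381

/-!
# R013 / D-LINE, leaf D-LOC, part B1: `good_core` with an abstract vertex clause, centre and radius in
the complete field, error term, no condition on the cover   (helper381; adapted from Good6_940)
-/

set_option autoImplicit false
set_option linter.unusedSectionVars false
set_option maxHeartbeats 1000000

namespace Crest.Agent.R013.DLoc2_381

open PowerSeries Filter
open scoped NNReal Topology
open Crest.NumberTheoryR.Sect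
open Crest.Agent.R013.KAS2_940 (Bd bd_zero)
open Crest.Agent.R013.KAS2_940
open Crest.Agent.R013.KAS3_940 Crest.Agent.R013.Good1_940 Crest.Agent.R013.Gl946
open Crest.Agent.R013.Good3_940 Crest.Agent.R013.Good4_940
open Crest.Agent.R013.Small2_940 Crest.Agent.R013.Small3_940 Crest.Agent.R013.Small4_940
open Crest.Agent.R013.Small5_940 Crest.Agent.R013.Small6_940 Crest.Agent.R013.Good5_940
open Crest.Agent.R013.LemD_323 (shift)
open Crest.Agent.R013.Puis_702 (mapL coeff_mapL)
open Crest.Agent.R013.SE_669 Crest.Agent.R013.CGood_588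
open Crest.Agent.R013.Unr9_957 (exists_extend_alg)
open Crest.Agent.R013.DLoc1_381

universe uF

section gauss

variable {F : Type*} {E : Type*} [NontriviallyNormedField F] [IsUltrametricDist F]
  [CompleteSpace F] [CharZero F] [Algebra ℚ F] [NormedField E] [IsUltrametricDist E]
  [NormedAlgebra F E] [CompleteSpace E]

theorem norm_pow_sub_pow_le {a b : E} (ha : ‖a‖ ≤ 1) (hb : ‖b‖ ≤ 1) (n : ℕ) :
    ‖a ^ n - b ^ n‖ ≤ ‖a - b‖ :=
  w_pow_sub_pow_le (NormedField.valuation (K := E)) ha hb n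

/-- Gauss norm for a perturbation of the Gauss point. -/
theorem gauss_sum' {y y' : E} (hy : IsGauss F y) (hyy : ‖y' - y‖ < 1) (n : ℕ) (c : ℕ → F) :
    ‖∑ l ∈ Finset.range n, algebraMap F E (c l) * y' ^ l‖₊ =
      (Finset.range n).sup fun l => ‖c l‖₊ := by
  have hy1 : ‖y‖ ≤ 1 := hy.norm_eq.le
  have hy'1 : ‖y'‖ ≤ 1 := by
    have h1 : y' = (y' - y) + y := by ring
    rw [h1]
    exact (IsUltrametricDist.norm_add_le_max _ _).trans (max_le hyy.le hy1)
  have h1 := gauss_sum hy n c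
  set M := (Finset.range n).sup fun l => ‖c l‖₊ with hM
  rcases eq_or_ne M 0 with h0 | h0
  · have h2 : ∀ l ∈ Finset.range n, c l = 0 := by
      intro l hl
      have h3 : ‖c l‖₊ ≤ M := Finset.le_sup (f := fun l => ‖c l‖₊) hl
      rw [h0] at h3
      exact nnnorm_eq_zero.mp (le_antisymm h3 zero_le)
    rw [h0, nnnorm_eq_zero]
    exact Finset.sum_eq_zero fun l hl => by rw [h2 l hl, map_zero, zero_mul]
  have hMpos : 0 < M := pos_iff_ne_zero.mpr h0
  have h2 : ‖∑ l ∈ Finset.range n, algebraMap F E (c l) * y' ^ l -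
      ∑ l ∈ Finset.range n, algebraMap F E (c l) * y ^ l‖₊ < M := by
    rw [← Finset.sum_sub_distrib]
    have h3 : ‖∑ l ∈ Finset.range n, (algebraMap F E (c l) * y' ^ l - algebraMap F E (c l) * y ^ l)‖₊
        ≤ M * ‖y' - y‖₊ := by
      refine ((Finset.range n).nnnorm_sum_le_sup_nnnorm _).trans ?_
      refine Finset.sup_le fun l hl => ?_
      rw [← mul_sub, nnnorm_mul, nnnorm_algebraMap']
      have h4 : ‖c l‖₊ ≤ M := Finset.le_sup (f := fun l => ‖c l‖₊) hl
      have h5 : ‖y' ^ l - y ^ l‖₊ ≤ ‖y' - y‖₊ := norm_pow_sub_pow_le hy'1 hy1 l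
      exact mul_le_mul' h4 h5
    refine h3.trans_lt ?_
    have h6 : ‖y' - y‖₊ < 1 := hyy
    calc M * ‖y' - y‖₊ < M * 1 := by gcongr
      _ = M := mul_one M
  have h3 : ∑ l ∈ Finset.range n, algebraMap F E (c l) * y' ^ l =
      (∑ l ∈ Finset.range n, algebraMap F E (c l) * y' ^ l -
      ∑ l ∈ Finset.range n, algebraMap F E (c l) * y ^ l) +
      ∑ l ∈ Finset.range n, algebraMap F E (c l) * y ^ l := by ring
  rw [← h1] at h2 ⊢
  rw [h3]
  have h4 := IsUltrametricDist.norm_add_eq_max_of_norm_ne_norm (x := ∑ l ∈ Finset.range n, algebraMap F E (c l) * y' ^ l -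
      ∑ l ∈ Finset.range n, algebraMap F E (c l) * y ^ l) (y := ∑ l ∈ Finset.range n, algebraMap F E (c l) * y ^ l) (by
        intro h
        have h2' : ‖∑ l ∈ Finset.range n, algebraMap F E (c l) * y' ^ l -
            ∑ l ∈ Finset.range n, algebraMap F E (c l) * y ^ l‖ <
            ‖∑ l ∈ Finset.range n, algebraMap F E (c l) * y ^ l‖ := h2
        exact absurd h h2'.ne)
  refine NNReal.eq ?_
  rw [coe_nnnorm, h4, coe_nnnorm]
  exact max_eq_right (NNReal.coe_le_coe.mpr h2.le)

end gauss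

variable {p : ℕ} [hpF : Fact p.Prime] {k : Type*} [Field k] [CharZero k] [Algebra ℚ_[p] k]
  {K : Type*} [Field K] [Algebra k K]
  [Algebra (RatFunc k) K] [IsScalarTower k (RatFunc k) K] [FiniteDimensional (RatFunc k) K]
  {P : Valuation (AlgebraicClosure K) ℝ≥0} {x : K}
  {F : Type uF} [NontriviallyNormedField F] [IsUltrametricDist F] [CompleteSpace F] [CharZero F]
  [Algebra ℚ F]

theorem isAlgClosed_F {jC : Cb k K →+* F} (hjd : DenseRange jC) :
    IsAlgClosed F := by
  let _ : Algebra (Cb k K) F := jC.toAlgebra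
  have : IsAlgClosed (Cb k K) := IsAlgClosure.isAlgClosed k
  exact IsAlgClosed.of_denseRange (K := Cb k K) (L := F) hjd

/-- the data at the circle -/
theorem core {jC : Cb k K →+* F} (hjd : DenseRange jC)
    {J : maxUnramified k K →+* LaurentSeries (Cb k K)}
    (hJ : IsExp (iM k K) (P.comap (algebraMap (maxUnramified k K) (AlgebraicClosure K)))
        (algebraMap K (maxUnramified k K) x) J)
    (Y : IntermediateField K (AlgebraicClosure K)) (hY : Y ≤ maxUnramified k K)
    (hYC : ∀ c : Cb k K, (c : AlgebraicClosure K) ∈ Y)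
    {R : ℝ} (hR : 0 < R)
    (hYR : ∀ z : Y, mapL jC (J ⟨z, hY z.2⟩) ∈ frB (⊤ : Subfield F) hR)
    {r : ℕ} {S : Set (MvPolynomial (Option (Fin r)) ℤ)}
    {om H eta : F⟦X⟧} {D CH : ℝ} {n : ℕ} {q c : F} (hq : ‖q‖ < R) (hc0 : c ≠ 0) (hcR : ‖c‖ < R)
    (hom : Bd R D om) (hK : Kas.{uF} p S (shift q om) R n c)
    (hH : Bd R CH H) (heta : Bd R (‖(p : F)‖ ^ (n + 1) / R) eta) (hH0 : H ≠ 0)
    (hHom : d⁄dX F H = (om + eta) * H)
    {h : maxUnramified k K} (hhY : (h : AlgebraicClosure K) ∈ Y)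
    {a b : F⟦X⟧} {Ba Bb : ℝ} (ha : Bd R Ba a) (hb : Bd R Bb b) (ha' : a ≠ 0) (hb' : b ≠ 0)
    (hab : mapL jC (J h) * toL F (b ^ p ^ (n + 1)) = toL F (H * a ^ p ^ (n + 1)))
    {y1 : AlgebraicClosure K} (hy1 : y1 ^ p ^ (n + 1) = h) :
    ∃ v : Valuation (AlgebraicClosure K) ℝ≥0, (∀ c : Cb k K, v c = ‖jC c‖₊) ∧
      (∀ (f : AlgebraicClosure K) (hf : f ∈ Y) (G G' : ℕ → Cb k K),
        (∃ B, Bd R B (PowerSeries.mk fun n => jC (G n))) →
        (∃ B, Bd R B (PowerSeries.mk fun n => jC (G' n))) →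
        J ⟨f, hY hf⟩ * toL _ (PowerSeries.mk G') = toL _ (PowerSeries.mk G) →
        Tendsto (fun n => v (f * (∑ l ∈ Finset.range n, (G' l : AlgebraicClosure K) *
          algebraMap K (AlgebraicClosure K) x ^ l) -
          ∑ l ∈ Finset.range n, (G l : AlgebraicClosure K) *
          algebraMap K (AlgebraicClosure K) x ^ l)) atTop (𝓝 0)) ∧
      ∃ z : Fin r → AlgebraicClosure K, (∀ i, z i ∈ IntermediateField.adjoin Y {y1}) ∧
        ∀ q1 c1 : Cb k K, ‖jC q1 - q‖ < ‖c‖ → ‖jC c1 - c‖ < ‖c‖ →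
          Vtx S v z ((algebraMap K (AlgebraicClosure K) x - q1) / c1) ∧
          (∀ (n : ℕ) (a : ℕ → Cb k K), v (∑ l ∈ Finset.range n, (a l : AlgebraicClosure K) *
            ((algebraMap K (AlgebraicClosure K) x - q1) / c1) ^ l) =
              (Finset.range n).sup fun l => v (a l)) := by
  classical
  have hp := hpF.out
  have hFac : IsAlgClosed F := isAlgClosed_F hjd
  -- the field `Y`
  let inc : Y →+* maxUnramified k K := (IntermediateField.inclusion hY).toRingHom
  have hinc : ∀ z : Y, inc z = ⟨z, hY z.2⟩ := fun z => rfl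
  let jY : Y →+* LaurentSeries F := ((mapL jC).comp J).comp inc
  have hjY : ∀ z : Y, jY z = mapL jC (J ⟨z, hY z.2⟩) := fun z => rfl
  let iota : Y →+* FDisc F R hR := liftD hR jY fun z => by rw [hjY]; exact hYR z
  have hiota : ∀ z : Y, frL hR (iota z) = mapL jC (J ⟨z, hY z.2⟩) := fun z => frL_liftD z
  have hiC : ∀ c : Cb k K, iota ⟨c, hYC c⟩ =
      algebraMap _ _ (⟨C (jC c), C_mem (jC c)⟩ : bsub (K := F) R hR) := by
    intro c
    apply (frL (F := F) hR).injective
    rw [hiota, frL_algebraMap]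
    have h1 : (⟨((⟨(c : AlgebraicClosure K), hYC c⟩ : Y) : AlgebraicClosure K), hY (hYC c)⟩ :
      maxUnramified k K) = iM k K c := rfl
    rw [h1, hJ.con, mapL_C, toL, HahnSeries.ofPowerSeries_C]
  have hxY : algebraMap K (AlgebraicClosure K) x ∈ Y := Y.algebraMap_mem x
  have hiX : iota ⟨algebraMap K (AlgebraicClosure K) x, hxY⟩ =
      algebraMap _ _ (⟨X, X_mem⟩ : bsub (K := F) R hR) := by
    apply (frL (F := F) hR).injective
    rw [hiota, frL_algebraMap]
    have h1 : (⟨((⟨algebraMap K (AlgebraicClosure K) x, hxY⟩ : Y) : AlgebraicClosure K), hY hxY⟩ :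
      maxUnramified k K) = algebraMap K (maxUnramified k K) x := rfl
    rw [h1, hJ.par, mapL_single, toL, HahnSeries.ofPowerSeries_X]
  -- the circle field
  obtain ⟨E, iE1, iE2, iE3, iE4, y, hy, hyd⟩ := Good2_940.exists_circle F
  have hdense : DenseRange ((frq hR hy hq hcR hc0).comp iota) := by
    refine dense_of_const hyd iota hiX fun a ε hε => ?_
    obtain ⟨c, hc⟩ := hjd.exists_dist_lt a hε
    exact ⟨⟨c, hYC c⟩, jC c, by rw [← dist_eq_norm]; exact hc, hiC c⟩
  -- the class
  let aF : FDisc F R hR := algebraMap _ _ (⟨a, mem_bsub ha⟩ : bsub (K := F) R hR)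
  let bF : FDisc F R hR := algebraMap _ _ (⟨b, mem_bsub hb⟩ : bsub (K := F) R hR)
  have haF : aF ≠ 0 := by
    intro h0
    have h1 := congrArg (frL hR) h0
    rw [frL_algebraMap, map_zero, map_eq_zero_iff _ HahnSeries.ofPowerSeries_injective] at h1
    exact ha' h1
  have hbF : bF ≠ 0 := by
    intro h0
    have h1 := congrArg (frL hR) h0
    rw [frL_algebraMap, map_zero, map_eq_zero_iff _ HahnSeries.ofPowerSeries_injective] at h1
    exact hb' h1
  have hgh : iota ⟨h, hhY⟩ = algebraMap _ _ (⟨H, mem_bsub hH⟩ : bsub (K := F) R hR) *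
      (aF / bF) ^ p ^ (n + 1) := by
    rw [div_pow, ← mul_div_assoc, eq_div_iff (pow_ne_zero _ hbF)]
    apply (frL (F := F) hR).injective
    rw [map_mul, map_mul, map_pow, map_pow, hiota, frL_algebraMap, frL_algebraMap, frL_algebraMap,
      ← map_pow, ← map_pow, ← map_mul]
    exact hab
  let K1 : IntermediateField Y (AlgebraicClosure K) := IntermediateField.adjoin Y {y1}
  have hy1K : y1 ∈ K1 := IntermediateField.mem_adjoin_simple_self Y y1
  have : Algebra.IsAlgebraic Y (AlgebraicClosure K) :=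
    Algebra.IsAlgebraic.tower_top (K := K) Y
  obtain ⟨v1, hv1, z, hz1, hz2⟩ := good' hp hR hom hq hc0 hcR hK hH heta hH0 hHom
    (IsAlgClosed.exists_pow_nat_eq _ (pow_pos hp.pos (n + 1))) E y hy Y K1 iota hdense
    ⟨h, hhY⟩ (aF / bF) (div_ne_zero haF hbF) hgh ⟨y1, hy1K⟩ (Subtype.ext hy1)
  obtain ⟨v, hv⟩ := exists_extend_alg (E := AlgebraicClosure K) v1
  have hvY : ∀ a : Y, v (a : AlgebraicClosure K) = ‖frq hR hy hq hcR hc0 (iota a)‖₊ := by
    intro a
    rw [← hv1 a, ← hv]
    rfl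
  have hvC : ∀ c : Cb k K, v c = ‖jC c‖₊ := by
    intro c
    have h1 := hvY ⟨c, hYC c⟩
    rw [hiC, frq_algebraMap, evq_C, nnnorm_algebraMap'] at h1
    exact h1
  have hfX : frq hR hy hq hcR hc0 (iota ⟨algebraMap K (AlgebraicClosure K) x, hxY⟩) =
      pt q c y := by
    rw [hiX, frq_algebraMap, evq_X]
  have hfC : ∀ c : Cb k K, frq hR hy hq hcR hc0 (iota ⟨c, hYC c⟩) = algebraMap F E (jC c) := by
    intro c
    rw [hiC, frq_algebraMap, evq_C]
  refine ⟨v, hvC, ?_, fun i => (z i : AlgebraicClosure K), fun i => (z i).2, ?_⟩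
  · rintro f hf G G' ⟨B, hB⟩ ⟨B', hB'⟩ hfG
    let gA : bsub (K := F) R hR := ⟨_, mem_bsub hB⟩
    let gB : bsub (K := F) R hR := ⟨_, mem_bsub hB'⟩
    have h1 : iota ⟨f, hf⟩ * algebraMap _ _ gB = algebraMap _ _ gA := by
      apply (frL (F := F) hR).injective
      rw [map_mul, hiota, frL_algebraMap, frL_algebraMap]
      have h2 := congrArg (mapL jC) hfG
      rw [map_mul] at h2
      have h3 : ∀ G : ℕ → Cb k K, mapL jC (toL _ (PowerSeries.mk G)) =
          toL F (PowerSeries.mk fun n => jC (G n)) := by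
        intro G
        refine HahnSeries.ext (funext fun i => ?_)
        rw [coeff_mapL, toL, toL, PowerSeries.coeff_coe, PowerSeries.coeff_coe]
        split_ifs
        · rw [map_zero]
        · rw [coeff_mk, coeff_mk]
      rw [h3, h3] at h2
      exact h2
    have h2 := tendsto_circle (hy := hy) (hq := hq) (hc := hcR) (hc0 := hc0) h1
    refine h2.congr fun N => ?_
    have h3 : (f * (∑ l ∈ Finset.range N, (G' l : AlgebraicClosure K) *
          algebraMap K (AlgebraicClosure K) x ^ l) -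
          ∑ l ∈ Finset.range N, (G l : AlgebraicClosure K) *
          algebraMap K (AlgebraicClosure K) x ^ l) =
        (((⟨f, hf⟩ : Y) * (∑ l ∈ Finset.range N, (⟨G' l, hYC (G' l)⟩ : Y) *
          (⟨algebraMap K (AlgebraicClosure K) x, hxY⟩ : Y) ^ l) -
          ∑ l ∈ Finset.range N, (⟨G l, hYC (G l)⟩ : Y) *
          (⟨algebraMap K (AlgebraicClosure K) x, hxY⟩ : Y) ^ l : Y) : AlgebraicClosure K) := by
      push_cast
      rfl
    rw [h3, hvY, map_sub, map_sub, map_mul, map_mul, map_sum, map_sum, map_sum, map_sum]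
    simp only [map_mul, map_pow, hfX, hfC]
    simp only [gA, gB, coeff_mk]
  · intro q1 c1 hq1 hc1
    have hcn : ‖jC c1‖ = ‖c‖ := by
      have h1 : jC c1 = (jC c1 - c) + c := by ring
      have h2 := IsUltrametricDist.norm_add_eq_max_of_norm_ne_norm (x := jC c1 - c) (y := c) hc1.ne
      rw [h1, h2]
      exact max_eq_right hc1.le
    have hcpos : 0 < ‖c‖ := norm_pos_iff.mpr hc0
    have hc10 : jC c1 ≠ 0 := by rw [← norm_pos_iff, hcn]; exact hcpos
    let t : Y := (⟨algebraMap K (AlgebraicClosure K) x, hxY⟩ - ⟨q1, hYC q1⟩) / ⟨c1, hYC c1⟩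
    have ht : (t : AlgebraicClosure K) = (algebraMap K (AlgebraicClosure K) x - q1) / c1 := rfl
    have hft : frq hR hy hq hcR hc0 (iota t) =
        (pt q c y - algebraMap F E (jC q1)) / algebraMap F E (jC c1) := by
      show frq hR hy hq hcR hc0 (iota ((⟨algebraMap K (AlgebraicClosure K) x, hxY⟩ -
        ⟨q1, hYC q1⟩) / ⟨c1, hYC c1⟩)) = _
      rw [map_div₀, map_div₀, map_sub, map_sub, hfX, hfC, hfC]
    have hcE : algebraMap F E (jC c1) ≠ 0 := (_root_.map_ne_zero _).mpr hc10
    have hclose : ‖frq hR hy hq hcR hc0 (iota t) - y‖ < 1 := by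
      rw [hft]
      have h1 : (pt q c y - algebraMap F E (jC q1)) / algebraMap F E (jC c1) - y =
          (algebraMap F E (q - jC q1) + algebraMap F E (c - jC c1) * y) / algebraMap F E (jC c1) := by
        rw [pt]
        field_simp
        rw [map_sub, map_sub]
        ring
      rw [h1, norm_div, norm_algebraMap', hcn, div_lt_one hcpos]
      refine (IsUltrametricDist.norm_add_le_max _ _).trans_lt (max_lt ?_ ?_)
      · rw [norm_algebraMap', norm_sub_rev]; exact hq1
      · rw [norm_mul, norm_algebraMap', hy.norm_eq, mul_one, norm_sub_rev]; exact hc1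
    refine ⟨?_, ?_⟩
    · have h1 := hz2 t hclose
      rw [← hv] at h1
      exact vtx_comap.mp h1
    · intro N a
      have h1 : (∑ l ∈ Finset.range N, (a l : AlgebraicClosure K) *
          ((algebraMap K (AlgebraicClosure K) x - q1) / c1) ^ l) =
          ((∑ l ∈ Finset.range N, (⟨a l, hYC (a l)⟩ : Y) * t ^ l : Y) : AlgebraicClosure K) := by
        rw [← ht]
        push_cast
        rfl
      rw [h1, hvY, map_sum, map_sum]
      have h2 : ∀ l, frq hR hy hq hcR hc0 (iota ((⟨a l, hYC (a l)⟩ : Y) * t ^ l)) =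
          algebraMap F E (jC (a l)) * (frq hR hy hq hcR hc0 (iota t)) ^ l := by
        intro l
        rw [map_mul, map_mul, map_pow, map_pow, hfC]
      rw [Finset.sum_congr rfl fun l _ => h2 l, gauss_sum' hy hclose]
      exact Finset.sup_congr rfl fun l _ => (hvC (a l)).symm

end Crest.Agent.R013.DLoc2_381
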