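import Crest.Agent.R013.DLoc2_381

/-!
# R013 / D-LINE, leaf D-LOC, part B2: the abstract form of `DLoc2_381.core`   (helper381)

`Y` any field (of functions), `Ω` an algebraic field extension, `i : A →+* Y` the constants,
`jC : A →+* F` dense, `J : Y →+* F((X))` an expansion with values in the quotients of power series
bounded at `R`, `J x = X`.  No place, no `maxUnramified`, no function field.
The disc clause is stated at every centre `s : A`, `‖jC s‖ < R`.
-/

set_option autoImplicit false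
set_option linter.unusedSectionVars false
set_option maxHeartbeats 1000000

namespace Crest.Agent.R013.DLoc3_381

open PowerSeries Filter
open scoped NNReal Topology
open Crest.Agent.R013.KAS2_940 (Bd bd_zero)
open Crest.Agent.R013.KAS2_940
open Crest.Agent.R013.KAS3_940 Crest.Agent.R013.Good1_940 Crest.Agent.R013.Gl946
open Crest.Agent.R013.Good3_940 Crest.Agent.R013.Good4_940
open Crest.Agent.R013.Small3_940 Crest.Agent.R013.Small6_940
open Crest.Agent.R013.LemD_323 (shift)
open Crest.Agent.R013.Unr9_957 (exists_extend_alg)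
open Crest.Agent.R013.DLoc1_381 Crest.Agent.R013.DLoc2_381

universe uF

variable {p : ℕ} [hpF : Fact p.Prime]
  {F : Type uF} [NontriviallyNormedField F] [IsUltrametricDist F] [CompleteSpace F] [CharZero F]
  [Algebra ℚ F]

/-- Taylor expansion of the evaluation at the point of the circle field -/
theorem tendsto_shift {E : Type*} [NormedField E] [IsUltrametricDist E] [NormedAlgebra F E]
    [CompleteSpace E] {R : ℝ} {hR : 0 < R} {q c : F} {y : E} {hy : IsGauss F y} {hq : ‖q‖ < R}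
    {hc : ‖c‖ < R} (f : bsub (K := F) R hR) {s : F} (hs : ‖s‖ < R) :
    Tendsto (fun n => ∑ l ∈ Finset.range n, algebraMap F E (coeff l (shift s f.1)) *
      (pt q c y - algebraMap F E s) ^ l) atTop (𝓝 (evq hR hy hq hc f)) := by
  obtain ⟨B, hB⟩ := f.2
  have hpt : ‖pt q c y‖ < R := norm_pt_lt hy hq hc
  have hz : ‖pt q c y - algebraMap F E s‖ < R := by
    rw [sub_eq_add_neg]
    refine (IsUltrametricDist.norm_add_le_max _ _).trans_lt (max_lt hpt ?_)
    rwa [norm_neg, norm_algebraMap']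
  have h1 := (summable_norm (bd_shift' hB hs) hz).of_norm.hasSum.tendsto_sum_nat
  rw [tsum_shift hB hs hz, add_sub_cancel] at h1
  exact h1

/-- **the data at the circle**, abstract form -/
theorem core {A : Type*} [Field A] {jC : A →+* F} (hjd : DenseRange jC) (hac : IsAlgClosed F)
    {Y Ω : Type*} [Field Y] [Field Ω] [Algebra Y Ω] [Algebra.IsAlgebraic Y Ω]
    (i : A →+* Y) {x : Y} {J : Y →+* LaurentSeries F} (hJC : ∀ c, J (i c) = HahnSeries.C (jC c))
    (hJx : J x = HahnSeries.single (1 : ℤ) (1 : F))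
    {R : ℝ} (hR : 0 < R) (hYR : ∀ z : Y, J z ∈ frB (⊤ : Subfield F) hR)
    {r : ℕ} {S : Set (MvPolynomial (Option (Fin r)) ℤ)}
    {om H eta : F⟦X⟧} {D CH : ℝ} {n : ℕ} {q c : F} (hq : ‖q‖ < R) (hc0 : c ≠ 0) (hcR : ‖c‖ < R)
    (hom : Bd R D om) (hK : Kas.{uF} p S (shift q om) R n c)
    (hH : Bd R CH H) (heta : Bd R (‖(p : F)‖ ^ (n + 1) / R) eta) (hH0 : H ≠ 0)
    (hHom : d⁄dX F H = (om + eta) * H) {h : Y}
    {a b : F⟦X⟧} {Ba Bb : ℝ} (ha : Bd R Ba a) (hb : Bd R Bb b) (ha' : a ≠ 0) (hb' : b ≠ 0)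
    (hab : J h * toL F (b ^ p ^ (n + 1)) = toL F (H * a ^ p ^ (n + 1)))
    {y1 : Ω} (hy1 : y1 ^ p ^ (n + 1) = algebraMap Y Ω h) :
    ∃ v : Valuation Ω ℝ≥0, (∀ c : A, v (algebraMap Y Ω (i c)) = ‖jC c‖₊) ∧
      (∀ (f : Y) (a : F⟦X⟧) (B : ℝ), Bd R B a → J f = toL F a → (v (algebraMap Y Ω f) : ℝ) ≤ B) ∧
      (∀ (f : Y) (a : F⟦X⟧) (a0 : F) (B : ℝ), Bd R B (a - C a0) → B < ‖a0‖ → J f = toL F a →
        v (algebraMap Y Ω f) = ‖a0‖₊) ∧
      (∀ (f : Y) (a b : F⟦X⟧), (∃ B, Bd R B a) → (∃ B, Bd R B b) → J f * toL F b = toL F a →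
        ∀ s : A, ‖jC s‖ < R → ∀ G G' : ℕ → A, (∀ l, jC (G l) = coeff l (shift (jC s) a)) →
        (∀ l, jC (G' l) = coeff l (shift (jC s) b)) →
        Tendsto (fun n => v (algebraMap Y Ω f * (∑ l ∈ Finset.range n, algebraMap Y Ω (i (G' l)) *
          (algebraMap Y Ω (x - i s)) ^ l) -
          ∑ l ∈ Finset.range n, algebraMap Y Ω (i (G l)) *
          (algebraMap Y Ω (x - i s)) ^ l)) atTop (𝓝 0)) ∧
      ∃ z : Fin r → Ω, (∀ l, z l ∈ IntermediateField.adjoin Y {y1}) ∧
        ∀ q1 c1 : A, ‖jC q1 - q‖ < ‖c‖ → ‖jC c1 - c‖ < ‖c‖ →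
          Vtx S v z (algebraMap Y Ω ((x - i q1) / i c1)) ∧
          (∀ (n : ℕ) (a : ℕ → A), v (∑ l ∈ Finset.range n, algebraMap Y Ω (i (a l)) *
            (algebraMap Y Ω ((x - i q1) / i c1)) ^ l) =
              (Finset.range n).sup fun l => v (algebraMap Y Ω (i (a l)))) := by
  classical
  have hp := hpF.out
  let iota : Y →+* FDisc F R hR := liftD hR J hYR
  have hiota : ∀ z : Y, frL hR (iota z) = J z := fun z => frL_liftD z
  have hiC : ∀ c : A, iota (i c) =
      algebraMap _ _ (⟨C (jC c), C_mem (jC c)⟩ : bsub (K := F) R hR) := by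
    intro c
    apply (frL (F := F) hR).injective
    rw [hiota, frL_algebraMap, hJC, toL, HahnSeries.ofPowerSeries_C]
  have hiX : iota x = algebraMap _ _ (⟨X, X_mem⟩ : bsub (K := F) R hR) := by
    apply (frL (F := F) hR).injective
    rw [hiota, frL_algebraMap, hJx, toL, HahnSeries.ofPowerSeries_X]
  -- the circle field
  obtain ⟨E, iE1, iE2, iE3, iE4, y, hy, hyd⟩ := Good2_940.exists_circle F
  have hdense : DenseRange ((frq hR hy hq hcR hc0).comp iota) := by
    refine dense_of_const hyd iota hiX fun a ε hε => ?_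
    obtain ⟨c, hc⟩ := hjd.exists_dist_lt a hε
    exact ⟨i c, jC c, by rw [← dist_eq_norm]; exact hc, hiC c⟩
  -- the class
  let aF : FDisc F R hR := algebraMap _ _ (⟨a, mem_bsub ha⟩ : bsub (K := F) R hR)
  let bF : FDisc F R hR := algebraMap _ _ (⟨b, mem_bsub hb⟩ : bsub (K := F) R hR)
  have haF : aF ≠ 0 := by
    intro h0
    have h1 := congrArg (frL hR) h0
    rw [frL_algebraMap, map_zero, map_eq_zero_iff _ HahnSeries.ofPowerSeries_injective] at h1
    exact ha' h1
  have hbF : bF ≠ 0 := by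
    intro h0
    have h1 := congrArg (frL hR) h0
    rw [frL_algebraMap, map_zero, map_eq_zero_iff _ HahnSeries.ofPowerSeries_injective] at h1
    exact hb' h1
  have hgh : iota h = algebraMap _ _ (⟨H, mem_bsub hH⟩ : bsub (K := F) R hR) *
      (aF / bF) ^ p ^ (n + 1) := by
    rw [div_pow, ← mul_div_assoc, eq_div_iff (pow_ne_zero _ hbF)]
    apply (frL (F := F) hR).injective
    rw [map_mul, map_mul, map_pow, map_pow, hiota, frL_algebraMap, frL_algebraMap, frL_algebraMap,
      ← map_pow, ← map_pow, ← map_mul]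
    exact hab
  let K1 : IntermediateField Y Ω := IntermediateField.adjoin Y {y1}
  have hy1K : y1 ∈ K1 := IntermediateField.mem_adjoin_simple_self Y y1
  obtain ⟨v1, hv1, z, hz1, hz2⟩ := good' hp hR hom hq hc0 hcR hK hH heta hH0 hHom
    (IsAlgClosed.exists_pow_nat_eq _ (pow_pos hp.pos (n + 1))) E y hy Y K1 iota hdense
    h (aF / bF) (div_ne_zero haF hbF) hgh ⟨y1, hy1K⟩ (Subtype.ext hy1)
  obtain ⟨v, hv⟩ := exists_extend_alg (E := Ω) v1
  have hvY : ∀ a : Y, v (algebraMap Y Ω a) = ‖frq hR hy hq hcR hc0 (iota a)‖₊ := by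
    intro a
    rw [← hv1 a, ← hv]
    rfl
  have hvC : ∀ c : A, v (algebraMap Y Ω (i c)) = ‖jC c‖₊ := by
    intro c
    rw [hvY, hiC, frq_algebraMap, evq_C, nnnorm_algebraMap']
  have hfX : frq hR hy hq hcR hc0 (iota x) = pt q c y := by
    rw [hiX, frq_algebraMap, evq_X]
  have hfC : ∀ c : A, frq hR hy hq hcR hc0 (iota (i c)) = algebraMap F E (jC c) := by
    intro c
    rw [hiC, frq_algebraMap, evq_C]
  have hpt : ‖pt q c y‖ < R := norm_pt_lt hy hq hcR
  have hle : ∀ (a : F⟦X⟧) (B : ℝ) (h : a ∈ bsub (K := F) R hR), Bd R B a →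
      ‖evq hR hy hq hcR ⟨a, h⟩‖ ≤ B := by
    intro a B h hB
    exact norm_ev_le _ (hB.mono_left (norm_nonneg _) hpt.le)
  have hval : ∀ (f : Y) (a : F⟦X⟧) (h : a ∈ bsub (K := F) R hR), J f = toL F a →
      frq hR hy hq hcR hc0 (iota f) = evq hR hy hq hcR ⟨a, h⟩ := by
    intro f a h hf
    rw [← frq_algebraMap (hc0 := hc0)]
    congr 1
    apply (frL (F := F) hR).injective
    rw [hiota, frL_algebraMap, hf]
  refine ⟨v, hvC, ?_, ?_, ?_, fun i => (z i : Ω), fun i => (z i).2, ?_⟩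
  · intro f a B hB hf
    have h1 := hvY f
    rw [hval f a ⟨B, hB⟩ hf] at h1
    rw [h1, coe_nnnorm]
    exact hle a B ⟨B, hB⟩ hB
  · intro f a a0 B hB hB0 hf
    have ha : a ∈ bsub (K := F) R hR := by
      have h1 : a = (a - C a0) + C a0 := by ring
      rw [h1]
      exact add_mem ⟨B, hB⟩ (C_mem a0)
    have h1 := hvY f
    rw [hval f a ha hf] at h1
    rw [h1]
    have h2 : (⟨a, ha⟩ : bsub (K := F) R hR) = ⟨a - C a0, ⟨B, hB⟩⟩ + ⟨C a0, C_mem a0⟩ :=
      Subtype.ext (by show a = (a - C a0) + C a0; ring)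
    have h3 := hle (a - C a0) B ⟨B, hB⟩ hB
    have h4 : ‖evq hR hy hq hcR (⟨C a0, C_mem a0⟩ : bsub (K := F) R hR)‖ = ‖a0‖ := by
      rw [evq_C, norm_algebraMap']
    have h5 : ‖evq hR hy hq hcR (⟨a - C a0, ⟨B, hB⟩⟩ : bsub (K := F) R hR)‖ <
        ‖evq hR hy hq hcR (⟨C a0, C_mem a0⟩ : bsub (K := F) R hR)‖ := by
      rw [h4]; exact h3.trans_lt hB0
    refine NNReal.eq ?_
    rw [coe_nnnorm, coe_nnnorm, h2, map_add,
      IsUltrametricDist.norm_add_eq_max_of_norm_ne_norm h5.ne, max_eq_right h5.le, h4]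
  · rintro f a b ⟨B, hB⟩ ⟨B', hB'⟩ hfG s hs G G' hG hG'
    let gA : bsub (K := F) R hR := ⟨_, mem_bsub hB⟩
    let gB : bsub (K := F) R hR := ⟨_, mem_bsub hB'⟩
    have h1 : iota f * algebraMap _ _ gB = algebraMap _ _ gA := by
      apply (frL (F := F) hR).injective
      rw [map_mul, hiota, frL_algebraMap, frL_algebraMap]
      exact hfG
    have h2 : Tendsto (fun n => ‖frq hR hy hq hcR hc0 (iota f) *
        ∑ l ∈ Finset.range n, algebraMap F E (coeff l (shift (jC s) gB.1)) *
          (pt q c y - algebraMap F E (jC s)) ^ l -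
        ∑ l ∈ Finset.range n, algebraMap F E (coeff l (shift (jC s) gA.1)) *
          (pt q c y - algebraMap F E (jC s)) ^ l‖₊) atTop (𝓝 0) := by
      have h3 := (tendsto_const_nhds (x := frq hR hy hq hcR hc0 (iota f))).mul
        (tendsto_shift (hy := hy) (hq := hq) (hc := hcR) gB hs)
      have h4 := h3.sub (tendsto_shift (hy := hy) (hq := hq) (hc := hcR) gA hs)
      have h5 : frq hR hy hq hcR hc0 (iota f) * evq hR hy hq hcR gB - evq hR hy hq hcR gA = 0 := by
        rw [← frq_algebraMap (hc0 := hc0), ← frq_algebraMap (hc0 := hc0), ← map_mul, h1, sub_self]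
      rw [h5] at h4
      have h6 := h4.nnnorm
      rw [nnnorm_zero] at h6
      exact h6
    refine h2.congr fun N => ?_
    have h3 : (algebraMap Y Ω f * (∑ l ∈ Finset.range N, algebraMap Y Ω (i (G' l)) *
          (algebraMap Y Ω (x - i s)) ^ l) -
          ∑ l ∈ Finset.range N, algebraMap Y Ω (i (G l)) *
          (algebraMap Y Ω (x - i s)) ^ l) =
        algebraMap Y Ω (f * (∑ l ∈ Finset.range N, i (G' l) * (x - i s) ^ l) -
          ∑ l ∈ Finset.range N, i (G l) * (x - i s) ^ l) := by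
      simp only [map_sub, map_mul, map_sum, map_pow]
    rw [h3, hvY, map_sub, map_sub, map_mul, map_mul, map_sum, map_sum, map_sum, map_sum]
    simp only [map_mul, map_pow, map_sub, hfX, hfC, hG, hG']
    rfl
  · intro q1 c1 hq1 hc1
    have hcn : ‖jC c1‖ = ‖c‖ := by
      have h1 : jC c1 = (jC c1 - c) + c := by ring
      have h2 := IsUltrametricDist.norm_add_eq_max_of_norm_ne_norm (x := jC c1 - c) (y := c) hc1.ne
      rw [h1, h2]
      exact max_eq_right hc1.le
    have hcpos : 0 < ‖c‖ := norm_pos_iff.mpr hc0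
    have hc10 : jC c1 ≠ 0 := by rw [← norm_pos_iff, hcn]; exact hcpos
    have hft : frq hR hy hq hcR hc0 (iota ((x - i q1) / i c1)) =
        (pt q c y - algebraMap F E (jC q1)) / algebraMap F E (jC c1) := by
      rw [map_div₀, map_div₀, map_sub, map_sub, hfX, hfC, hfC]
    have hcE : algebraMap F E (jC c1) ≠ 0 := (_root_.map_ne_zero _).mpr hc10
    have hclose : ‖frq hR hy hq hcR hc0 (iota ((x - i q1) / i c1)) - y‖ < 1 := by
      rw [hft]
      have h1 : (pt q c y - algebraMap F E (jC q1)) / algebraMap F E (jC c1) - y =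
          (algebraMap F E (q - jC q1) + algebraMap F E (c - jC c1) * y) / algebraMap F E (jC c1) := by
        rw [pt]
        field_simp
        rw [map_sub, map_sub]
        ring
      rw [h1, norm_div, norm_algebraMap', hcn, div_lt_one hcpos]
      refine (IsUltrametricDist.norm_add_le_max _ _).trans_lt (max_lt ?_ ?_)
      · rw [norm_algebraMap', norm_sub_rev]; exact hq1
      · rw [norm_mul, norm_algebraMap', hy.norm_eq, mul_one, norm_sub_rev]; exact hc1
    refine ⟨?_, ?_⟩
    · have h1 := hz2 _ hclose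
      rw [← hv] at h1
      exact vtx_comap.mp h1
    · intro N a
      have h1 : (∑ l ∈ Finset.range N, algebraMap Y Ω (i (a l)) *
          (algebraMap Y Ω ((x - i q1) / i c1)) ^ l) =
          algebraMap Y Ω (∑ l ∈ Finset.range N, i (a l) * ((x - i q1) / i c1) ^ l) := by
        rw [map_sum]
        simp only [map_mul, map_pow]
      rw [h1, hvY, map_sum, map_sum]
      have h2 : ∀ l, frq hR hy hq hcR hc0 (iota (i (a l) * ((x - i q1) / i c1) ^ l)) =
          algebraMap F E (jC (a l)) * (frq hR hy hq hcR hc0 (iota ((x - i q1) / i c1))) ^ l := by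
        intro l
        rw [map_mul, map_mul, map_pow, map_pow, hfC]
      rw [Finset.sum_congr rfl fun l _ => h2 l, gauss_sum' hy hclose]
      exact Finset.sup_congr rfl fun l _ => (hvC (a l)).symm

end Crest.Agent.R013.DLoc3_381
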