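import Crest.Agent.R013.DUni6_429
import Crest.Agent.R013.DW4_854
import Crest.Agent.R013.FrD_381
import Crest.Agent.R013.Desc5_372

/-!
# Row 13, D-LINE, D-ST1 (end side): part 1 (helper854)

* `coef_mem_lev` : the coefficients of the expansion of an element of a finite level lie in that
  level, as soon as the place is isolated (`Uniq`) and the uniformiser is in the level;
* `exists_em_alg` : a ring homomorphism with values in the fractions of `A` seen in another field;
* `proper_map` : the image in `F` of a finite level is locally compact;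
* `exists_end` : a chart of radius `ρ` and `r ∈ C`, `0 < ‖r‖ ≤ ρ` give a disc end.
-/

set_option autoImplicit false
set_option linter.all false

namespace Crest.Agent.R013.DQ_854

open PowerSeries WithZero
open scoped NNReal Topology
open Crest.Agent.R013.KAS2_940 (Bd)
open Crest.Agent.R013.KAS3_940 Crest.Agent.R013.Small3_940
open Crest.Agent.R013.RR7_948 (Pl)
open Crest.Agent.R013.RR8_948 (xK)
open Crest.Agent.R013.RR29_948
open Crest.Agent.R013.Cell_408 Crest.Agent.R013.EE809
open Crest.Agent.R013.HU9_522 (bdE_C)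
open Crest.Agent.R013.Desc_372 Crest.Agent.R013.Desc_372.CE
open Crest.Agent.R013.DUni_429

section lev

variable {k C K₀ K : Type*} [Field k] [Field C] [Field K₀] [Field K]
  [Algebra k C] [Algebra k K₀] [Algebra C K] [Algebra K₀ K] [Algebra k K] [IsScalarTower k C K]
  [IsScalarTower k K₀ K] [h : CE k C K₀ K] [CharZero k]
  [Algebra (RatFunc k) K₀] [IsScalarTower k (RatFunc k) K₀] [FiniteDimensional (RatFunc k) K₀]
  [Algebra.IsAlgebraic K₀ K] [IsGalois k C] [IsAlgClosed C] [Algebra (RatFunc C) K]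
  [IsScalarTower C (RatFunc C) K] [FiniteDimensional (RatFunc C) K]
  [Algebra.IsSeparable (RatFunc C) K]

theorem exists_exp_lev {k' : IntermediateField k C} {P : Pl C K} (hP : Uniq K₀ k' P) {t : K}
    (ht : P.v t = exp (-1)) (htk : t ∈ lev K₀ K k') {f : K} (hf : f ∈ lev K₀ K k') {N : ℤ}
    (hfN : P.v f ≤ exp N) (m : ℕ) :
    ∃ a : ℤ → C, (∀ n, a n ∈ k') ∧
      P.v (f - ∑ n ∈ Finset.Ico (-N) (-N + m), a n • t ^ n) ≤ exp (N - m) := by
  classical
  induction m with
  | zero => exact ⟨0, fun n => zero_mem _, by simpa using hfN⟩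
  | succ m ih =>
    obtain ⟨a, ha0, ha⟩ := ih
    set r := f - ∑ n ∈ Finset.Ico (-N) (-N + m), a n • t ^ n with hr
    have h1 : P.v (r * t ^ (N - m)) ≤ 1 := by
      rw [map_mul, v_uni_zpow ht]
      calc P.v r * exp (-(N - m)) ≤ exp (N - m) * exp (-(N - m)) := by gcongr
        _ = 1 := by rw [← exp_add, add_neg_cancel, exp_zero]
    have hmem : r * t ^ (N - m) ∈ lev K₀ K k' := by
      refine mul_mem (sub_mem hf (sum_mem fun i _ => ?_)) (zpow_mem htk _)
      rw [Algebra.smul_def]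
      exact mul_mem (algebraMap_mem_lev K₀ K k' (ha0 i)) (zpow_mem htk _)
    obtain ⟨c, hck, hc⟩ := hP.rational hmem h1
    refine ⟨fun n => if n = -N + m then c else a n, fun n => ?_, ?_⟩
    · dsimp only
      split_ifs
      · exact hck
      · exact ha0 n
    have hI : Finset.Ico (-N) (-N + ((m + 1 : ℕ) : ℤ)) = insert (-N + m) (Finset.Ico (-N) (-N + m)) := by
      ext z
      simp only [Finset.mem_Ico, Finset.mem_insert]
      push_cast
      omega
    rw [hI, Finset.sum_insert (by simp)]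
    beta_reduce
    rw [if_pos rfl]
    have hs : ∑ n ∈ Finset.Ico (-N) (-N + (m : ℤ)), (if n = -N + m then c else a n) • t ^ n
        = ∑ n ∈ Finset.Ico (-N) (-N + (m : ℤ)), a n • t ^ n := by
      refine Finset.sum_congr rfl fun n hn => ?_
      rw [Finset.mem_Ico] at hn
      rw [if_neg (by omega)]
    rw [hs]
    have h3 : f - (c • t ^ (-N + (m : ℤ)) + ∑ n ∈ Finset.Ico (-N) (-N + (m : ℤ)), a n • t ^ n)
        = (r * t ^ (N - m) - algebraMap C K c) * t ^ (-N + (m : ℤ)) := by
      have h4 : t ^ (N - m) * t ^ (-N + (m : ℤ)) = 1 := by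
        rw [← zpow_add₀ (uni_ne_zero ht)]
        have : (N - m) + (-N + (m : ℤ)) = 0 := by ring
        rw [this, zpow_zero]
      rw [sub_mul, mul_assoc, h4, mul_one, hr, Algebra.smul_def]
      ring
    rw [h3, map_mul, v_uni_zpow ht]
    have hc' : P.v (r * t ^ (N - m) - algebraMap C K c) ≤ exp (-1) :=
      CE3_280.lt_one_iff_le.mp hc
    calc P.v (r * t ^ (N - m) - algebraMap C K c) * exp (-(-N + (m : ℤ)))
        ≤ exp (-1) * exp (-(-N + (m : ℤ))) := by gcongr
      _ ≤ exp (N - ((m + 1 : ℕ) : ℤ)) := by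
        rw [← exp_add, exp_le_exp]
        push_cast
        linarith

/-- **coefficients at a finite level** -/
theorem coef_mem_lev {k' : IntermediateField k C} {P : Pl C K} (hP : Uniq K₀ k' P) {t : K}
    (ht : P.v t = exp (-1)) (htk : t ∈ lev K₀ K k') {f : K} (hf : f ∈ lev K₀ K k') (n : ℤ) :
    coef P t n f ∈ k' := by
  classical
  obtain ⟨N, hN⟩ : ∃ N : ℤ, P.v f ≤ exp N := by
    by_cases hf : f = 0
    · exact ⟨0, by rw [hf, map_zero]; exact zero_le⟩
    · exact ⟨log (P.v f), (exp_log ((Valuation.ne_zero_iff _).mpr hf)).ge⟩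
  rcases lt_or_ge n (-N) with hn | hn
  · rw [coef_of_le ht (hN.trans (exp_le_exp.mpr (by omega)))]
    exact zero_mem _
  · obtain ⟨m, hm⟩ : ∃ m : ℕ, n < -N + m := by
      refine ⟨(n + N + 1).toNat, ?_⟩
      omega
    obtain ⟨a, ha0, ha⟩ := exists_exp_lev hP ht htk hf hN m
    have h2 : f = (f - ∑ n ∈ Finset.Ico (-N) (-N + (m : ℤ)), a n • t ^ n) +
      ∑ n ∈ Finset.Ico (-N) (-N + (m : ℤ)), a n • t ^ n := by ring
    rw [h2, map_add, coef_of_le ht (ha.trans (exp_le_exp.mpr (by omega))), zero_add, map_sum]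
    have h3 : ∀ j ∈ Finset.Ico (-N) (-N + (m : ℤ)), coef P t n (a j • t ^ j) =
        if j = n then a n else 0 := by
      intro j _
      rw [map_smul, coef_zpow ht, smul_eq_mul]
      split_ifs with h4
      · rw [h4, mul_one]
      · rw [mul_zero]
    rw [Finset.sum_congr rfl h3, Finset.sum_ite_eq', if_pos (by rw [Finset.mem_Ico]; exact ⟨hn, hm⟩)]
    exact ha0 n

end lev

section alg

/-- fractions of `A` in two fields -/
theorem exists_em_alg {A Ω E K : Type*} [CommRing A] [IsDomain A] [Field Ω] [Field E] [Field K]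
    (f1 : A →+* Ω) (h1 : Function.Injective f1) (f2 : A →+* E) (h2 : Function.Injective f2)
    (J : K →+* Ω) (hJ : ∀ z, ∃ a b, b ≠ 0 ∧ J z * f1 b = f1 a) :
    ∃ em : K →+* E, ∀ z a b, b ≠ 0 → (em z * f2 b = f2 a ↔ J z * f1 b = f1 a) := by
  classical
  let g1 : FractionRing A →+* Ω := IsFractionRing.lift h1
  let g2 : FractionRing A →+* E := IsFractionRing.lift h2
  have e1 : ∀ a, g1 (algebraMap A (FractionRing A) a) = f1 a := fun a =>
    IsFractionRing.lift_algebraMap h1 a
  have e2 : ∀ a, g2 (algebraMap A (FractionRing A) a) = f2 a := fun a =>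
    IsFractionRing.lift_algebraMap h2 a
  have hq : ∀ z, ∃ q, g1 q = J z := by
    intro z
    obtain ⟨a, b, hb, hab⟩ := hJ z
    refine ⟨algebraMap A _ a / algebraMap A _ b, ?_⟩
    rw [map_div₀, e1, e1, ← hab, mul_div_cancel_right₀]
    rw [Ne, map_eq_zero_iff f1 h1]
    exact hb
  choose q hq using hq
  let em0 : K →+* FractionRing A :=
    { toFun := q
      map_one' := g1.injective (by rw [hq, map_one, map_one])
      map_mul' := fun x y => g1.injective (by rw [hq, map_mul, map_mul, hq, hq])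
      map_zero' := g1.injective (by rw [hq, map_zero, map_zero])
      map_add' := fun x y => g1.injective (by rw [hq, map_add, map_add, hq, hq]) }
  refine ⟨g2.comp em0, fun z a b hb => ?_⟩
  have h3 : ∀ (g : FractionRing A →+* Ω), (g (q z) * g (algebraMap A _ b) = g (algebraMap A _ a) ↔
      q z * algebraMap A _ b = algebraMap A _ a) := fun g => by
    rw [← map_mul]; exact g.injective.eq_iff
  have h4 : ∀ (g : FractionRing A →+* E), (g (q z) * g (algebraMap A _ b) = g (algebraMap A _ a) ↔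
      q z * algebraMap A _ b = algebraMap A _ a) := fun g => by
    rw [← map_mul]; exact g.injective.eq_iff
  have h5 := h3 g1
  have h6 := h4 g2
  rw [e1, e1, hq] at h5
  rw [e2, e2] at h6
  rw [h5]
  exact h6

end alg

section proper

variable {p : ℕ} [hpF : Fact p.Prime] {k : Type*} [NontriviallyNormedField k] [CompleteSpace k]
  [IsUltrametricDist k] [Algebra ℚ_[p] k] [FiniteDimensional ℚ_[p] k]
  {C : Type*} [NormedField C] [IsUltrametricDist C] [NormedAlgebra k C]
  {F : Type*} [NontriviallyNormedField F] [IsUltrametricDist F] (σ : C →+* F)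
  (hσ : ∀ a, ‖σ a‖ = ‖a‖) (hq : ∀ q : ℚ_[p], ‖algebraMap ℚ_[p] k q‖ = ‖q‖)

/-- the image of a finite level in `F` -/
def DF (k' : IntermediateField k C) : Subfield F := k'.toSubfield.map σ

omit [CompleteSpace k] [IsUltrametricDist k] [IsUltrametricDist C] [IsUltrametricDist F] in
theorem mem_DF {k' : IntermediateField k C} {x : F} : x ∈ DF σ k' ↔ ∃ c ∈ k', σ c = x := Iff.rfl

include hσ hq in
theorem norm_padic (q : ℚ_[p]) : ‖σ (algebraMap k C (algebraMap ℚ_[p] k q))‖ = ‖q‖ := by
  rw [hσ, norm_algebraMap', hq]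

include hσ hq in
theorem exists_gt_one_DF (k' : IntermediateField k C) : ∃ a ∈ DF σ k', 1 < ‖a‖ := by
  refine ⟨σ (algebraMap k C (algebraMap ℚ_[p] k (p : ℚ_[p])⁻¹)), ?_, ?_⟩
  · exact (mem_DF σ).mpr ⟨_, k'.algebraMap_mem _, rfl⟩
  · rw [norm_padic σ hσ hq, norm_inv, Padic.norm_p, inv_inv]
    exact_mod_cast hpF.out.one_lt

include hσ hq in
/-- a finite level is locally compact -/
theorem proper_DF (k' : IntermediateField k C) [FiniteDimensional k k'] :
    ProperSpace (DF σ k') := by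
  let φ : ℚ_[p] →+* DF σ k' :=
    ((σ.comp (algebraMap k C)).comp (algebraMap ℚ_[p] k)).codRestrict (DF σ k')
      fun a => (mem_DF σ).mpr ⟨_, k'.algebraMap_mem _, rfl⟩
  let iA : Algebra ℚ_[p] (DF σ k') := φ.toAlgebra
  let iN : NormedSpace ℚ_[p] (DF σ k') :=
    { iA.toModule with
      norm_smul_le := fun a b => by
        rw [Algebra.smul_def, norm_mul]
        have h1 : ‖algebraMap ℚ_[p] (DF σ k') a‖ = ‖a‖ := norm_padic σ hσ hq a
        rw [h1] }
  let iQ : Algebra ℚ_[p] k' := ((algebraMap k k').comp (algebraMap ℚ_[p] k)).toAlgebra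
  have iT : IsScalarTower ℚ_[p] k k' := IsScalarTower.of_algebraMap_eq (fun _ => rfl)
  have : FiniteDimensional ℚ_[p] k' := FiniteDimensional.trans ℚ_[p] k k'
  let l : k' →ₗ[ℚ_[p]] (DF σ k') :=
    { toFun := fun c => ⟨σ c, (mem_DF σ).mpr ⟨_, c.2, rfl⟩⟩
      map_add' := fun a b => by
        apply Subtype.ext
        show σ _ = σ _ + σ _
        rw [← map_add]; rfl
      map_smul' := fun a b => by
        apply Subtype.ext
        show σ _ = σ _ * σ _
        rw [← map_mul]
        congr 1 }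
  have hl : Function.Surjective l := by
    rintro ⟨a, ha⟩
    obtain ⟨c, hc, rfl⟩ := (mem_DF σ).mp ha
    exact ⟨⟨c, hc⟩, rfl⟩
  have hfin : FiniteDimensional ℚ_[p] (DF σ k') := Module.Finite.of_surjective l hl
  exact FiniteDimensional.proper ℚ_[p] (DF σ k')

end proper

section scale

variable {C : Type*} [NormedField C] {F : Type*} [NormedField F] (σ : C →+* F)

/-- `a(T) ↦ (σ a)(X / σ r)` -/
noncomputable def sc (r : C) : C⟦X⟧ →+* F⟦X⟧ := (rescale (σ r)⁻¹).comp (PowerSeries.map σ)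

theorem coeff_sc (r : C) (a : C⟦X⟧) (n : ℕ) :
    coeff n (sc σ r a) = (σ r)⁻¹ ^ n * σ (coeff n a) := by
  rw [sc, RingHom.comp_apply, coeff_rescale, coeff_map]

theorem sc_injective {r : C} (hr : r ≠ 0) : Function.Injective (sc σ r) := by
  intro a b hab
  ext n
  have h1 := congrArg (coeff n) hab
  rw [coeff_sc, coeff_sc] at h1
  exact σ.injective (mul_left_cancel₀ (pow_ne_zero n (inv_ne_zero ((map_ne_zero σ).mpr hr))) h1)

theorem bd_sc (hσ : ∀ a, ‖σ a‖ = ‖a‖) {r : C} (hr : r ≠ 0) {a : C⟦X⟧} {M : ℝ}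
    (ha : ∀ n, ‖coeff n a‖ ≤ M) : Bd ‖r‖ M (sc σ r a) := by
  intro n
  rw [coeff_sc, norm_mul, norm_pow, norm_inv, hσ, hσ]
  have hr0 : ‖r‖ ≠ 0 := norm_ne_zero_iff.mpr hr
  calc ‖r‖⁻¹ ^ n * ‖coeff n a‖ * ‖r‖ ^ n = ‖coeff n a‖ * (‖r‖⁻¹ * ‖r‖) ^ n := by
        rw [mul_pow]; ring
    _ = ‖coeff n a‖ := by rw [inv_mul_cancel₀ hr0, one_pow, mul_one]
    _ ≤ M := ha n

end scale

end Crest.Agent.R013.DQ_854
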