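import Crest.Agent.R013.DQ1_854
import Crest.Agent.R013.EE4_809

/-!
# Row 13, D-LINE, D-ST1 (end side): part 2 (helper854)

`exists_end` : a chart (429) of radius `ρ` and `r ∈ C`, `0 < ‖r‖ ≤ ρ` give a disc end `em` of `K`
with `em X' = r T`, compatible with the expansion.
-/

set_option autoImplicit false
set_option linter.all false

namespace Crest.Agent.R013.DQ_854

open PowerSeries WithZero
open scoped NNReal Topology
open Crest.Agent.R013.KAS2_940 (Bd)
open Crest.Agent.R013.KAS3_940 Crest.Agent.R013.Small3_940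
open Crest.Agent.R013.RR7_948 (Pl)
open Crest.Agent.R013.RR8_948 (xK)
open Crest.Agent.R013.RR29_948
open Crest.Agent.R013.Cell_408 Crest.Agent.R013.EE809
open Crest.Agent.R013.HU6_522 (bdE_apply co_bdF bdE bdE_injective)
open Crest.Agent.R013.HU9_522 (bdE_C)
open Crest.Agent.R013.Desc_372 Crest.Agent.R013.Desc_372.CE
open Crest.Agent.R013.DUni_429

section lift

variable {k : Type*} [NontriviallyNormedField k] [CompleteSpace k] [IsUltrametricDist k]
  {C : Type*} [NormedField C] [IsUltrametricDist C] [NormedAlgebra k C] [Algebra.IsAlgebraic k C]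
  {F : Type*} [NontriviallyNormedField F] [IsUltrametricDist F] (σ : C →+* F)

/-- a series over a finite level, bounded at `ρ ≥ ‖r‖`, comes from `BD` -/
theorem exists_lift_BD (hσ : ∀ a, ‖σ a‖ = ‖a‖) {k' : IntermediateField k C}
    [FiniteDimensional k k'] {ρ : ℝ} (hρ : 0 < ρ) {r : C} (hr0 : r ≠ 0) (hr : ‖r‖ ≤ ρ)
    {a0 : F⟦X⟧} (ha0 : a0 ∈ bsD (DF σ k') hρ) : ∃ a : BD k C, sc σ r (a : C⟦X⟧) = a0 := by
  obtain ⟨h1, M, hM⟩ := ha0
  choose c hc hcσ using fun n => (mem_DF σ).mp (h1 n)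
  have hfd : FiniteDimensional k (IntermediateField.adjoin k {r}) :=
    IntermediateField.adjoin.finiteDimensional (Algebra.IsAlgebraic.isAlgebraic r).isIntegral
  have hmem : (PowerSeries.mk fun n => r ^ n * c n : C⟦X⟧) ∈ BD k C := by
    refine ⟨⟨k' ⊔ IntermediateField.adjoin k {r}, IntermediateField.finiteDimensional_sup _ _,
      fun n => ?_⟩, M, fun n => ?_⟩
    · dsimp only
      rw [coeff_mk]
      exact mul_mem (pow_mem ((le_sup_right : _ ≤ k' ⊔ IntermediateField.adjoin k {r})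
        (IntermediateField.mem_adjoin_simple_self k r)) n)
        ((le_sup_left : k' ≤ k' ⊔ IntermediateField.adjoin k {r}) (hc n))
    · rw [coeff_mk, norm_mul, norm_pow, ← hσ (c n), hcσ, mul_comm]
      exact (mul_le_mul_of_nonneg_left (pow_le_pow_left₀ (norm_nonneg _) hr n)
        (norm_nonneg _)).trans (hM n)
  refine ⟨⟨_, hmem⟩, ?_⟩
  ext n
  rw [coeff_sc]
  show (σ r)⁻¹ ^ n * σ (coeff n (PowerSeries.mk fun n => r ^ n * c n)) = _
  rw [coeff_mk, map_mul, map_pow, hcσ, ← mul_assoc, ← mul_pow,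
    inv_mul_cancel₀ ((map_ne_zero σ).mpr hr0), one_pow, one_mul]

end lift

section scale

variable {C : Type*} [NormedField C] {F : Type*} [NormedField F] (σ : C →+* F)

theorem sc_CX {r : C} (hr0 : r ≠ 0) :
    sc σ r ((Polynomial.C r * Polynomial.X : Polynomial C) : C⟦X⟧) = X := by
  ext n
  rw [coeff_sc, Polynomial.coe_mul, Polynomial.coe_C, Polynomial.coe_X, coeff_C_mul,
    coeff_X, coeff_X]
  by_cases hn : n = 1
  · subst hn
    rw [if_pos rfl, if_pos rfl, mul_one, pow_one, inv_mul_cancel₀ ((map_ne_zero σ).mpr hr0)]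
  · rw [if_neg hn, if_neg hn, mul_zero, map_zero, mul_zero]

theorem sc_C (r c : C) : sc σ r (PowerSeries.C c) = PowerSeries.C (σ c) := by
  ext n
  rw [coeff_sc, coeff_C, coeff_C]
  by_cases hn : n = 0
  · subst hn; simp
  · rw [if_neg hn, if_neg hn, map_zero, mul_zero]

end scale

section CX

variable {k : Type*} [NontriviallyNormedField k] [CompleteSpace k] [IsUltrametricDist k]
  {C : Type*} [NormedField C] [IsUltrametricDist C] [NormedAlgebra k C] [Algebra.IsAlgebraic k C]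

theorem bdE_CX (r : C) (hxm : ((Polynomial.C r * Polynomial.X : Polynomial C) : C⟦X⟧) ∈ BD k C) :
    (bdE ⟨_, hxm⟩ : EE k C) = mono 1 r (EE809.finDef_const r) := by
  ext n
  rw [bdE_apply, co_bdF, co_mono]
  show (if 0 ≤ n then coeff n.toNat ((Polynomial.C r * Polynomial.X : Polynomial C) : C⟦X⟧) else 0)
    = _
  rw [Polynomial.coe_mul, Polynomial.coe_C, Polynomial.coe_X, coeff_C_mul, coeff_X]
  by_cases hn : n = 1
  · subst hn
    simp
  · rw [if_neg hn]
    split_ifs with h0 h1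
    · omega
    · rw [mul_zero]
    · rfl

end CX

section main

variable {p : ℕ} [hpF : Fact p.Prime] {k : Type*} [NontriviallyNormedField k] [CompleteSpace k]
  [IsUltrametricDist k] [Algebra ℚ_[p] k] [FiniteDimensional ℚ_[p] k]
  {C : Type*} [NormedField C] [IsUltrametricDist C] [NormedAlgebra k C] [CharZero C]
  [Algebra.IsAlgebraic k C] [IsAlgClosed C]
  {K₀ : Type*} [Field K₀] [Algebra k K₀] [Algebra (RatFunc k) K₀] [IsScalarTower k (RatFunc k) K₀]
  [FiniteDimensional (RatFunc k) K₀]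
  {K : Type*} [Field K] [Algebra C K] [Algebra K₀ K] [Algebra k K] [IsScalarTower k C K]
  [IsScalarTower k K₀ K] [h : CE k C K₀ K]
  [Algebra (RatFunc C) K] [IsScalarTower C (RatFunc C) K] [FiniteDimensional (RatFunc C) K]
  {F : Type*} [NontriviallyNormedField F] [IsUltrametricDist F] [CompleteSpace F] [Algebra C F]
  {L : Type*} [Field L] [Algebra F L] {ι : K →+* L}

/-- constants in a chart -/
theorem chart_const {P : Pl C K} {X' : K} {ρ : ℝ} {hρ : 0 < ρ} {J : L →+* LaurentSeries F}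
    (hJ : Chart ι P X' hρ J) (c : C) : J (ι (algebraMap C K c)) = HahnSeries.C (algebraMap C F c) := by
  ext n
  rw [hJ.coef, HahnSeries.C_apply, HahnSeries.coeff_single]
  have h1 : coef P X' n (algebraMap C K c) = c * if (0 : ℤ) = n then 1 else 0 := by
    have h2 : algebraMap C K c = c • (X' ^ (0 : ℤ)) := by
      rw [zpow_zero, Algebra.smul_def, mul_one]
    rw [h2, map_smul, coef_zpow hJ.unif, smul_eq_mul]
  rw [h1]
  by_cases hn : n = 0
  · subst hn; simp
  · rw [if_neg (Ne.symm hn), if_neg hn, mul_zero, map_zero]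

include h in
/-- **the disc end of a chart** -/
theorem exists_end (hk : DiscNorm k) (hcl : algebraicClosure k K₀ = ⊥)
    (hq : ∀ q : ℚ_[p], ‖algebraMap ℚ_[p] k q‖ = ‖q‖) (hσ : ∀ a : C, ‖algebraMap C F a‖ = ‖a‖)
    {P : Pl C K} {X' : K} {ρ : ℝ} {hρ : 0 < ρ} {J : L →+* LaurentSeries F}
    (hJ : Chart ι P X' hρ J) {r : C} (hr0 : r ≠ 0) (hr : ‖r‖ ≤ ρ) :
    ∃ em : K →+* EE k C, (∀ c : C, em (algebraMap C K c) = mono 0 c (EE809.finDef_const c)) ∧
      (∀ z, ∃ a b : BD k C, b ≠ 0 ∧ em z * bdE b = bdE a) ∧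
      em X' = mono 1 r (EE809.finDef_const r) ∧
      ∀ z (a b : BD k C), b ≠ 0 → em z * bdE b = bdE a →
        J (ι z) * toL F (sc (algebraMap C F) r (b : C⟦X⟧)) =
          toL F (sc (algebraMap C F) r (a : C⟦X⟧)) := by
  haveI : Fact (DiscNorm k) := ⟨hk⟩
  haveI : CharZero k := charZero_of_injective_algebraMap (algebraMap ℚ_[p] k).injective
  haveI : IsGalois k C := by
    haveI : IsAlgClosure k C := ⟨inferInstance, inferInstance⟩
    haveI : Normal k C := IsAlgClosure.normal k C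
    exact {}
  haveI : Algebra.IsAlgebraic K₀ K := CE.isAlgebraic k C K₀ K
  set σ : C →+* F := algebraMap C F with hσdef
  let f1 : BD k C →+* LaurentSeries F := (toL F).comp ((sc σ r).comp ((BD k C).val : BD k C →+* C⟦X⟧))
  have hf1 : ∀ a : BD k C, f1 a = toL F (sc σ r (a : C⟦X⟧)) := fun a => rfl
  have h1 : Function.Injective f1 := by
    intro a b hab
    rw [hf1, hf1] at hab
    exact Subtype.ext (sc_injective σ hr0 (HahnSeries.ofPowerSeries_injective hab))
  have hex : ∀ z, ∃ a b : BD k C, b ≠ 0 ∧ (J.comp ι) z * f1 b = f1 a := by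
    intro z
    obtain ⟨k1, hk1, hu⟩ := exists_uniq (k := k) (K₀ := K₀) hcl {P} (Set.finite_singleton P)
    obtain ⟨k2, hk2, hlev⟩ := exists_lev (k := k) (C := C) K₀ K {X', z}
      ((Set.finite_singleton z).insert X')
    haveI : FiniteDimensional k (k1 ⊔ k2 : IntermediateField k C) :=
      IntermediateField.finiteDimensional_sup _ _
    have hu' : Uniq K₀ (k1 ⊔ k2) P := (hu P rfl).mono le_sup_left
    have hX : X' ∈ lev K₀ K (k1 ⊔ k2) := lev_mono K₀ K le_sup_right (hlev (Set.mem_insert _ _))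
    have hz : z ∈ lev K₀ K (k1 ⊔ k2) :=
      lev_mono K₀ K le_sup_right (hlev (Set.mem_insert_of_mem _ rfl))
    haveI := proper_DF σ hσ hq (k1 ⊔ k2)
    have h2 : J (ι z) ∈ frB (DF σ (k1 ⊔ k2)) hρ := by
      refine FrD_381.frB_descent (DF σ (k1 ⊔ k2)) (exists_gt_one_DF σ hσ hq _) hρ (fun i => ?_)
        (hJ.disc.bd _)
      rw [hJ.coef]
      exact (mem_DF σ).mpr ⟨_, coef_mem_lev hu' hJ.unif hX hz i, rfl⟩
    obtain ⟨a0, ha0, b0, hb0, hb00, hab⟩ := h2
    obtain ⟨a, ha⟩ := exists_lift_BD σ hσ hρ hr0 hr ha0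
    obtain ⟨b, hb⟩ := exists_lift_BD σ hσ hρ hr0 hr hb0
    refine ⟨a, b, ?_, ?_⟩
    · rintro rfl
      apply hb00
      rw [← hb]
      exact map_zero _
    · rw [hf1, hf1, ha, hb]
      exact hab
  obtain ⟨em, hem⟩ := exists_em_alg (E := EE k C) f1 h1 bdE bdE_injective (J.comp ι) hex
  refine ⟨em, fun c => ?_, fun z => ?_, ?_, fun z a b hb hab => ?_⟩
  · have h5 : f1 ⟨PowerSeries.C c, C_mem_BD c⟩ = HahnSeries.C (σ c) :=
      (congrArg (toL F) (sc_C σ r c)).trans (toL_C _)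
    have h2 := (hem (algebraMap C K c) ⟨PowerSeries.C c, C_mem_BD c⟩ 1 one_ne_zero).mpr (by
      rw [RingHom.comp_apply, chart_const hJ, map_one f1, mul_one, h5])
    rw [map_one, mul_one, bdE_C] at h2
    exact h2
  · obtain ⟨a, b, hb, hab⟩ := hex z
    exact ⟨a, b, hb, (hem z a b hb).mpr hab⟩
  · have hxm : ((Polynomial.C r * Polynomial.X : Polynomial C) : C⟦X⟧) ∈ BD k C := coe_mem_BD _
    have h5 : f1 ⟨_, hxm⟩ = HahnSeries.single (1 : ℤ) (1 : F) :=
      (congrArg (toL F) (sc_CX σ hr0)).trans toL_X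
    have h2 := (hem X' ⟨_, hxm⟩ 1 one_ne_zero).mpr (by
      rw [RingHom.comp_apply, hJ.disc.par, map_one f1, mul_one, h5])
    rw [map_one, mul_one] at h2
    rw [h2]
    exact bdE_CX r hxm
  · exact (hem z a b hb).mp hab

end main

end Crest.Agent.R013.DQ_854
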