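import Crest.Agent.R013.DQ2_854

/-!
# Row 13, D-LINE, D-ST1 (end side): part 3 (helper854)

* `atP_of_chart` : the place of a chart is the centre of its disc end;
* `stage1_H` : on a chart, the class `w ∈ T_p` with forms `∑ α_j v_j` has the unit part `H`
  (`H' = om H`, bounded by `1`), and every representative `z` of `w` modulo `p^N` is
  `H * (a / b)^(p^N)` there.
-/

set_option autoImplicit false
set_option linter.all false

namespace Crest.Agent.R013.DQ_854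

open PowerSeries WithZero
open scoped NNReal Topology
open Crest.Agent.R013.KAS2_940 (Bd bd_C)
open Crest.Agent.R013.KAS3_940 Crest.Agent.R013.Small3_940
open Crest.Agent.R013.RR7_948 (Pl)
open Crest.Agent.R013.RR8_948 (xK)
open Crest.Agent.R013.RR11_948 (divf v_eq canD)
open Crest.Agent.R013.RR9_948 (LD)
open Crest.Agent.R013.RR14_948 (del)
open Crest.Agent.R013.RR29_948
open Crest.Agent.R013.Cell_408 Crest.Agent.R013.EE809
open Crest.Agent.R013.HU1_522 Crest.Agent.R013.HU2_522 Crest.Agent.R013.HU3_522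
open Crest.Agent.R013.HU4_522
open Crest.Agent.R013.HU6_522
open Crest.Agent.R013.HU9_522
open Crest.Agent.R013.PC_588
open Crest.Agent.R013.HT_434
open Crest.Agent.R013.Desc_372 Crest.Agent.R013.Desc_372.CE
open Crest.Agent.R013.DU_948 (vX vX_single vX_toL_eq_one)
open Crest.Agent.R013.DUni_429
open Crest.Agent.R013.DW3_854 Crest.Agent.R013.DW4_854

section scale

variable {C : Type*} [NormedField C] [IsUltrametricDist C] [IsAlgClosed C]
  {F : Type*} [NormedField F] (σ : C →+* F)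

theorem vX_sc_root (S : Multiset C) [DecidableEq C] {r : C} (hr0 : r ≠ 0) :
    vX F (toL F (sc σ r (rootPoly S : C⟦X⟧))) = exp (-(S.count 0 : ℤ)) := by
  induction S using Multiset.induction_on with
  | empty =>
    rw [rootPoly_zero, Polynomial.coe_one, map_one, map_one, map_one]
    simp
  | cons τ S ih =>
    rw [rootPoly_cons, Polynomial.coe_mul, map_mul, map_mul, map_mul, ih]
    by_cases hτ : τ = 0
    · subst hτ
      have h1 : sc σ r ((Polynomial.X - Polynomial.C 0 : Polynomial C) : C⟦X⟧) =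
          PowerSeries.C (σ r)⁻¹ * X := by
        rw [map_zero, sub_zero, Polynomial.coe_X]
        ext n
        rw [coeff_sc, coeff_X, coeff_C_mul, coeff_X]
        by_cases hn : n = 1
        · subst hn; simp
        · rw [if_neg hn, map_zero, mul_zero, if_neg hn, mul_zero]
      rw [h1, map_mul, map_mul, toL_X'', vX_single, vX_toL_eq_one, one_mul, Multiset.count_cons_self,
        ← exp_add]
      · congr 1
        push_cast
        ring
      · rw [coeff_zero_C]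
        exact inv_ne_zero ((map_ne_zero σ).mpr hr0)
    · rw [Multiset.count_cons_of_ne (Ne.symm hτ), vX_toL_eq_one, one_mul]
      rw [coeff_sc, Polynomial.coe_sub, Polynomial.coe_X, Polynomial.coe_C, map_sub, coeff_zero_X,
        coeff_zero_C, pow_zero, one_mul, zero_sub, map_neg, neg_ne_zero]
      exact (map_ne_zero σ).mpr hτ

theorem derivative_rescale (a : F) (f : F⟦X⟧) :
    d⁄dX F (rescale a f) = PowerSeries.C a * rescale a (d⁄dX F f) := by
  ext n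
  rw [coeff_derivative, coeff_rescale, coeff_C_mul, coeff_rescale, coeff_derivative]
  ring

theorem bd_rescale {r : F} (hr : r ≠ 0) {f : F⟦X⟧} {M : ℝ} (hf : ∀ n, ‖coeff n f‖ ≤ M) :
    Bd ‖r‖ M (rescale r⁻¹ f) := by
  intro n
  rw [coeff_rescale, norm_mul, norm_pow, norm_inv]
  have hr0 : ‖r‖ ≠ 0 := norm_ne_zero_iff.mpr hr
  calc ‖r‖⁻¹ ^ n * ‖coeff n f‖ * ‖r‖ ^ n = ‖coeff n f‖ * (‖r‖⁻¹ * ‖r‖) ^ n := by
        rw [mul_pow]; ring
    _ = ‖coeff n f‖ := by rw [inv_mul_cancel₀ hr0, one_pow, mul_one]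
    _ ≤ M := hf n

end scale

section dec

variable {k : Type*} [NontriviallyNormedField k]
  {C : Type*} [NormedField C] [IsUltrametricDist C] [NormedAlgebra k C] [IsAlgClosed C]
  [CharZero C] [Algebra.IsAlgebraic k C]
  {F : Type*} [NormedField F] (σ : C →+* F)

theorem vX_dec [DecidableEq C] {f : C⟦X⟧} {c : C} {u : U1 C} {S : Multiset C}
    (h : Dec k f c u S) {r : C} (hr0 : r ≠ 0) :
    vX F (toL F (sc σ r f)) = exp (-(S.count 0 : ℤ)) := by
  rw [h.eq, map_mul, map_mul, map_mul, map_mul, map_mul, map_mul, vX_sc_root σ S hr0,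
    vX_toL_eq_one, vX_toL_eq_one, one_mul, one_mul]
  · rw [coeff_sc, pow_zero, one_mul, coeff_zero_eq_constantCoeff_apply, U1.const, map_one]
    exact one_ne_zero
  · rw [coeff_sc, pow_zero, one_mul, coeff_zero_C]
    exact (map_ne_zero σ).mpr h.c0

end dec

section main

variable {p : ℕ} [hpF : Fact p.Prime] {k : Type*} [NontriviallyNormedField k] [CompleteSpace k]
  [IsUltrametricDist k]
  {C : Type*} [NormedField C] [IsUltrametricDist C] [NormedAlgebra k C] [CharZero C]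
  [Algebra.IsAlgebraic k C] [IsAlgClosed C]
  {K : Type*} [Field K] [Algebra C K]
  [Algebra (RatFunc C) K] [IsScalarTower C (RatFunc C) K] [FiniteDimensional (RatFunc C) K]
  {F : Type*} [NontriviallyNormedField F] [IsUltrametricDist F] [CompleteSpace F] [Algebra C F]
  {L : Type*} [Field L] [Algebra F L] {ι : K →+* L}
  (hk : DiscNorm k) (em : K →+* EE k C)
  (hι : ∀ z, ∃ a b : BD k C, b ≠ 0 ∧ em z * bdE b = bdE a)
  {P : Pl C K} {X' : K} {ρ : ℝ} {hρ : 0 < ρ} {J : LaurentSeries F →+* LaurentSeries F}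

/-- **the place of the chart is the centre of the disc end** -/
theorem atP_of_chart {J : L →+* LaurentSeries F} (hJ : Chart ι P X' hρ J) {r : C} (hr0 : r ≠ 0)
    (hcomp : ∀ z (a b : BD k C), b ≠ 0 → em z * bdE b = bdE a →
        J (ι z) * toL F (sc (algebraMap C F) r (b : C⟦X⟧)) =
          toL F (sc (algebraMap C F) r (a : C⟦X⟧))) : AtP hk em hι 0 P := by
  classical
  intro z
  obtain ⟨c, S, T, hp⟩ := nu_pres hk bdE bdE_injective em hι z
  rw [oE_eq hk em hι hp 0]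
  obtain ⟨a, b, hab, ha, hb⟩ := hp.ex
  have hb0 : b ≠ 0 := by
    rintro rfl
    have h1 := hb.eq
    have h2 : ((0 : BD k C) : C⟦X⟧) = 0 := rfl
    rw [h2, map_one, one_mul] at h1
    have h3 : (((1 : U1 C) : (C⟦X⟧)ˣ) : C⟦X⟧) * (rootPoly T : C⟦X⟧) ≠ 0 :=
      mul_ne_zero (U1.coe_ne_zero _) (rootPoly_ne_zero _)
    exact h3 h1.symm
  have h1 := congrArg (vX F) (hcomp z a b hb0 hab)
  rw [map_mul, ← hJ.val, vX_dec (algebraMap C F) ha hr0, vX_dec (algebraMap C F) hb hr0,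
    v_eq z.ne_zero, ← exp_add, exp_inj] at h1
  omega

end main

section form

variable {p : ℕ} [hpF : Fact p.Prime] {k : Type*} [NontriviallyNormedField k] [CompleteSpace k]
  [IsUltrametricDist k] [Algebra ℚ_[p] k] [FiniteDimensional ℚ_[p] k]
  {C : Type*} [NormedField C] [IsUltrametricDist C] [NormedAlgebra k C] [CharZero C]
  [Algebra.IsAlgebraic k C] [IsAlgClosed C]
  {K₀ : Type*} [Field K₀] [Algebra k K₀] [Algebra (RatFunc k) K₀] [IsScalarTower k (RatFunc k) K₀]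
  [FiniteDimensional (RatFunc k) K₀]
  {K : Type*} [Field K] [Algebra C K] [Algebra K₀ K] [Algebra k K] [IsScalarTower k C K]
  [IsScalarTower k K₀ K] [h : CE k C K₀ K]
  [Algebra (RatFunc C) K] [IsScalarTower C (RatFunc C) K] [FiniteDimensional (RatFunc C) K]
  {F : Type*} [NontriviallyNormedField F] [IsUltrametricDist F] [CompleteSpace F] [CharZero F]
  [Algebra C F] (hσ : ∀ a : C, ‖algebraMap C F a‖ = ‖a‖) (hk : DiscNorm k)
  {L : Type*} [Field L] [Algebra F L] [Algebra C L] [IsScalarTower C F L] {ι : K →ₐ[C] L}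

omit [CompleteSpace F] [IsUltrametricDist F] [CharZero F] [Algebra C L] [IsScalarTower C F L] in
theorem coeff_J_lc {J : L →+* LaurentSeries F}
    (hcon : ∀ c : F, J (algebraMap F L c) = HahnSeries.C c) {m : ℕ} (y : Fin m → L)
    (α : Fin m → F) (d : L) (i : ℤ) :
    (J ((∑ j, α j • y j) / d)).coeff i = ∑ j, α j * (J (y j / d)).coeff i := by
  rw [Finset.sum_div, map_sum, HahnSeries.coeff_sum]
  refine Finset.sum_congr rfl fun j _ => ?_
  rw [Algebra.smul_def, mul_div_assoc, map_mul, hcon, HahnSeries.C_mul_eq_smul,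
    HahnSeries.coeff_smul, smul_eq_mul]

include h in
/-- **stage 1**: the unit part and the representatives on a chart -/
theorem stage1_H (hcl : algebraicClosure k K₀ = ⊥)
    (hq : ∀ q : ℚ_[p], ‖algebraMap ℚ_[p] k q‖ = ‖q‖) {m : ℕ} {v : Fin m → K₀} {α : Fin m → F}
    (hreg : ∀ j, algebraMap K₀ K (v j) ∈ LD (canD C K)) {w : TT C K p}
    (hF : FormsOf hσ hk v α w) {P : Pl C K} {X' : K} {ρ : ℝ} {hρ : 0 < ρ}
    {J : L →+* LaurentSeries F} (hJ : Chart (ι : K →+* L) P X' hρ J) {om : F⟦X⟧}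
    (hom : J (lcL ι v α / ι (del C K X')) = toL F om) {r : C} (hr0 : r ≠ 0) (hr : ‖r‖ ≤ ρ) :
    ∃ H : F⟦X⟧, Bd ‖r‖ 1 H ∧ coeff 0 H = 1 ∧ d⁄dX F H = om * H ∧
      ∀ (N : ℕ) (z : Kˣ), Rep (w : PC p Kˣ) N z →
        ∃ (a b : F⟦X⟧) (Ba Bb : ℝ), Bd ‖r‖ Ba a ∧ Bd ‖r‖ Bb b ∧ a ≠ 0 ∧ b ≠ 0 ∧
          J (ι (z : K)) * toL F (b ^ p ^ N) = toL F (H * a ^ p ^ N) := by
  set σ : C →+* F := algebraMap C F with hσdef
  have hσr : σ r ≠ 0 := (map_ne_zero σ).mpr hr0
  have hnr : ‖σ r‖ = ‖r‖ := hσ r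
  obtain ⟨em, hc, hι, hX, hcomp⟩ := exists_end (ι := (ι : K →+* L)) hk hcl hq hσ hJ hr0 hr
  have hAt : AtP hk em hι 0 P := atP_of_chart hk em hι hJ hr0 hcomp
  -- the form
  have hOm : PowerSeries.C (σ r)⁻¹ * rescale (σ r)⁻¹ (OmE hk em hι σ hσ (w : PC p Kˣ)) = om := by
    rw [hF em hc hι]
    ext i
    have h1 : coeff i om = (toL F om).coeff (i : ℤ) :=
      (HahnSeries.ofPowerSeries_apply_coeff _ _).symm
    rw [coeff_C_mul, coeff_rescale, coeff_expF, h1, ← hom]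
    unfold lcL
    rw [coeff_J_lc hJ.disc.con, Finset.mul_sum, Finset.mul_sum]
    refine Finset.sum_congr rfl fun j _ => ?_
    rw [co_form hk em hc hι hr0 hX hAt (hreg j) i, ← map_div₀]
    have h2 := hJ.coef (algebraMap K₀ K (v j) / del C K X') i
    rw [show J (ι (algebraMap K₀ K (v j) / del C K X')) =
      J ((ι : K →+* L) (algebraMap K₀ K (v j) / del C K X')) from rfl, h2, map_mul, map_zpow₀,
      zpow_add_one₀ hσr, zpow_natCast]
    have h3 : (σ r)⁻¹ * σ r = 1 := inv_mul_cancel₀ hσr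
    have h4 : (σ r)⁻¹ ^ i * (σ r) ^ i = 1 := by rw [← mul_pow, h3, one_pow]
    linear_combination (α j * σ (coef P X' (i : ℤ) (algebraMap K₀ K (v j) / del C K X'))) *
      ((σ r)⁻¹ * σ r) * h4 +
      (α j * σ (coef P X' (i : ℤ) (algebraMap K₀ K (v j) / del C K X'))) * h3
  have hpF : ‖(p : F)‖ < 1 := by
    rw [norm_p_F σ hσ]
    exact norm_p_lt (k := k) hq
  set Hu' : U1 F := HuE hk em hι σ hσ (w : PC p Kˣ) with hHu
  refine ⟨rescale (σ r)⁻¹ ((Hu' : (F⟦X⟧)ˣ) : F⟦X⟧), ?_, ?_, ?_, fun N z hz => ?_⟩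
  · rw [← hnr]
    exact bd_rescale hσr (U1.int _)
  · rw [coeff_rescale, pow_zero, one_mul, coeff_zero_eq_constantCoeff_apply, U1.const]
  · rw [derivative_rescale, dl_spec, map_mul, ← mul_assoc]
    have h1 : dl Hu' = OmE hk em hι σ hσ (w : PC p Kˣ) := rfl
    rw [h1, hOm]
  · have hpn : p ^ N ≠ 0 := pow_ne_zero _ (Fact.out : p.Prime).ne_zero
    obtain ⟨c, S, T, hc0, -, -, hu, heq⟩ := hu_disc hk em hc hι hpn (z := z)
      ((mem_TT.mp w.2) N z hz)
    obtain ⟨c', hc'⟩ := IsAlgClosed.exists_pow_nat_eq c (Nat.pos_of_ne_zero hpn)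
    obtain ⟨V, hV⟩ := Hu_spec hpF (nuF hk em hι σ hσ) hz
    have hV' : nuF hk em hι σ hσ z = Hu' * (V⁻¹) ^ (p ^ N) := by
      rw [hHu, HuE, hV, inv_pow, mul_inv_cancel_right]
    obtain ⟨-, MS, hMS⟩ := coe_mem_BD (k := k) (rootPoly S)
    obtain ⟨-, MT, hMT⟩ := coe_mem_BD (k := k) (rootPoly T)
    have hB0 : (⟨(rootPoly T : C⟦X⟧), coe_mem_BD _⟩ : BD k C) ^ p ^ N ≠ 0 := by
      intro h0
      have h1 := congrArg (fun x : BD k C => (x : C⟦X⟧)) h0
      exact pow_ne_zero (p ^ N) (rootPoly_ne_zero T) h1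
    have h1 := hcomp (z : K) (⟨PowerSeries.C c, C_mem_BD c⟩ * ⟨_, hu⟩ *
      (⟨(rootPoly S : C⟦X⟧), coe_mem_BD _⟩ : BD k C) ^ p ^ N)
      ((⟨(rootPoly T : C⟦X⟧), coe_mem_BD _⟩ : BD k C) ^ p ^ N) hB0 (by
        rw [map_pow, map_mul, map_mul, map_pow]
        exact heq)
    have h2 : sc σ r (((⟨PowerSeries.C c, C_mem_BD c⟩ * ⟨_, hu⟩ *
        (⟨(rootPoly S : C⟦X⟧), coe_mem_BD _⟩ : BD k C) ^ p ^ N : BD k C)) : C⟦X⟧) =
        rescale (σ r)⁻¹ ((Hu' : (F⟦X⟧)ˣ) : F⟦X⟧) *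
          (PowerSeries.C (σ c') * rescale (σ r)⁻¹ (((V⁻¹ : U1 F) : (F⟦X⟧)ˣ) : F⟦X⟧) *
            sc σ r (rootPoly S : C⟦X⟧)) ^ p ^ N := by
      have e1 : (((⟨PowerSeries.C c, C_mem_BD c⟩ * ⟨_, hu⟩ *
        (⟨(rootPoly S : C⟦X⟧), coe_mem_BD _⟩ : BD k C) ^ p ^ N : BD k C)) : C⟦X⟧) =
          PowerSeries.C c * ((nuE hk em hι z : (C⟦X⟧)ˣ) : C⟦X⟧) * (rootPoly S : C⟦X⟧) ^ p ^ N := rfl
      have e2 : sc σ r ((nuE hk em hι z : (C⟦X⟧)ˣ) : C⟦X⟧) =
          rescale (σ r)⁻¹ ((nuF hk em hι σ hσ z : (F⟦X⟧)ˣ) : F⟦X⟧) := rfl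
      rw [e1, map_mul, map_mul, map_pow, sc_C, e2, hV', ← hc', map_pow, map_pow]
      have e3 : ((((Hu' * (V⁻¹) ^ (p ^ N) : U1 F)) : (F⟦X⟧)ˣ) : F⟦X⟧) =
          ((Hu' : (F⟦X⟧)ˣ) : F⟦X⟧) * (((V⁻¹ : U1 F) : (F⟦X⟧)ˣ) : F⟦X⟧) ^ (p ^ N) := rfl
      rw [e3, map_mul, map_pow]
      ring
    rw [h2] at h1
    refine ⟨PowerSeries.C (σ c') * rescale (σ r)⁻¹ (((V⁻¹ : U1 F) : (F⟦X⟧)ˣ) : F⟦X⟧) *
      sc σ r (rootPoly S : C⟦X⟧), sc σ r (rootPoly T : C⟦X⟧), ‖σ c'‖ * 1 * MS, MT, ?_, ?_, ?_, ?_, ?_⟩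
    · refine Bd.mul (norm_pos_iff.mpr hr0) (Bd.mul (norm_pos_iff.mpr hr0) (bd_C _) ?_)
        (bd_sc σ hσ hr0 hMS)
      rw [← hnr]
      exact bd_rescale hσr (U1.int _)
    · exact bd_sc σ hσ hr0 hMT
    · refine mul_ne_zero (mul_ne_zero ?_ ?_) ?_
      · intro h0
        have h3 := congrArg (coeff 0) h0
        rw [coeff_zero_C, map_zero, _root_.map_eq_zero] at h3
        rw [h3, zero_pow hpn] at hc'
        exact hc0 hc'.symm
      · intro h0
        have h3 := congrArg (coeff 0) h0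
        rw [coeff_rescale, pow_zero, one_mul, coeff_zero_eq_constantCoeff_apply, U1.const,
          map_zero] at h3
        exact one_ne_zero h3
      · rw [Ne, map_eq_zero_iff _ (sc_injective σ hr0)]
        exact rootPoly_ne_zero S
    · rw [Ne, map_eq_zero_iff _ (sc_injective σ hr0)]
      exact rootPoly_ne_zero T
    · have e4 : sc σ r ((((⟨(rootPoly T : C⟦X⟧), coe_mem_BD _⟩ : BD k C) ^ p ^ N : BD k C)) : C⟦X⟧) =
          (sc σ r (rootPoly T : C⟦X⟧)) ^ p ^ N := map_pow (sc σ r) _ _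
      rw [← e4]
      exact h1

end form

end Crest.Agent.R013.DQ_854
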