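import Crest.Agent.R013.Small3_940
import Crest.Agent.R013.HTb_948

/-!
# Row 13, D-line, D-UNI (U1), file a: the points of an analytic disc (helper948)

`F` complete ultrametric, `L/F` a function field, `J : L →+* F((X))` with values in the quotients of
series bounded at the radius `ρ`, `J = id` on constants, `J T = X`.

* `shB` : Taylor expansion at `t`, `‖t‖ < ρ`, as a ring hom of the bounded series;
* `exists_shift` : the expansion `Jt` of `L` at the point `t`;
* `plJ` : the place of an expansion; `At hρ J t w` : `w` is the place of the point `t` of the disc;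
  `exists_at`, `At.unique`, `At.point`.
-/

set_option autoImplicit false
set_option linter.unusedSectionVars false

namespace Crest.Agent.R013.DU_948

open PowerSeries WithZero
open scoped NNReal
open Crest.Agent.R013.KAS2_940 (Bd)
open Crest.Agent.R013.KAS3_940 Crest.Agent.R013.Good1_940 Crest.Agent.R013.Gl946
open Crest.Agent.R013.Good3_940 Crest.Agent.R013.Small3_940
open Crest.Agent.R013.LemD_323 (shift coeff_shift ev_shift summable_shift ev)
open Crest.Agent.R013.RR7_948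

section Shift

variable {F : Type*} [NontriviallyNormedField F] [IsUltrametricDist F] [CompleteSpace F]

omit [IsUltrametricDist F] [CompleteSpace F] in
theorem shift_C (s c : F) : shift s (C c : F⟦X⟧) = C c := by
  ext l
  rw [coeff_shift, tsum_eq_single 0, coeff_C]
  · rw [zero_add, pow_zero, mul_one, Nat.choose_self, Nat.cast_one, one_mul, coeff_C]
  · intro n hn
    rw [coeff_C, if_neg (by omega), mul_zero, zero_mul]

omit [IsUltrametricDist F] [CompleteSpace F] in
theorem shift_X (s : F) : shift s (X : F⟦X⟧) = X + C s := by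
  ext l
  rw [coeff_shift, map_add, coeff_X, coeff_C]
  rcases l with _ | l
  · rw [tsum_eq_single 1]
    · simp [coeff_X]
    · intro n hn
      rw [coeff_X, if_neg (by omega), mul_zero, zero_mul]
  · rw [tsum_eq_single 0]
    · by_cases hl : l = 0
      · subst hl; simp [coeff_X]
      · rw [coeff_X, if_neg (by omega), if_neg (by omega), if_neg (by omega)]; simp
    · intro n hn
      rw [coeff_X, if_neg (by omega), mul_zero, zero_mul]

theorem shift_add {r C' D' : ℝ} {f g : F⟦X⟧} (hf : Bd r C' f) (hg : Bd r D' g) {s : F}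
    (hs : ‖s‖ < r) : shift s (f + g) = shift s f + shift s g := by
  ext l
  rw [map_add, coeff_shift, coeff_shift, coeff_shift,
    ← (summable_shift (toBd hf) hs l).tsum_add (summable_shift (toBd hg) hs l)]
  refine tsum_congr fun n => ?_
  rw [map_add]; ring

/-- **Taylor expansion at `t`**, a ring hom of the series bounded at the radius `ρ`. -/
noncomputable def shB {ρ : ℝ} (hρ : 0 < ρ) {t : F} (ht : ‖t‖ < ρ) :
    bsub (K := F) ρ hρ →+* bsub (K := F) ρ hρ where
  toFun f := shiftB hρ ht f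
  map_one' := Subtype.ext (by
    show shift t (1 : F⟦X⟧) = 1
    rw [← map_one C, shift_C])
  map_mul' f g := Subtype.ext (by
    show shift t (f.1 * g.1) = shift t f.1 * shift t g.1
    exact shift_mul hρ f.2.choose_spec g.2.choose_spec ht)
  map_zero' := Subtype.ext (by
    show shift t (0 : F⟦X⟧) = 0
    exact shift_zero t)
  map_add' f g := Subtype.ext (by
    show shift t (f.1 + g.1) = shift t f.1 + shift t g.1
    exact shift_add f.2.choose_spec g.2.choose_spec ht)

theorem shB_coe {ρ : ℝ} {hρ : 0 < ρ} {t : F} {ht : ‖t‖ < ρ} (f : bsub (K := F) ρ hρ) :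
    ((shB hρ ht f : bsub (K := F) ρ hρ) : F⟦X⟧) = shift t (f : F⟦X⟧) := rfl

theorem shB_injective {ρ : ℝ} {hρ : 0 < ρ} {t : F} {ht : ‖t‖ < ρ} :
    Function.Injective (shB hρ ht) := by
  rw [injective_iff_map_eq_zero]
  intro f hf
  by_contra hne
  have h1 : f.1 ≠ 0 := fun h => hne (Subtype.ext h)
  exact shift_ne_zero hρ f.2.choose_spec ht h1 (congrArg Subtype.val hf)

/-- Taylor expansion of the meromorphic functions of the disc -/
noncomputable def shF {ρ : ℝ} (hρ : 0 < ρ) {t : F} (ht : ‖t‖ < ρ) : FDisc F ρ hρ →+* FDisc F ρ hρ :=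
  IsFractionRing.lift (g := (algebraMap (bsub (K := F) ρ hρ) (FDisc F ρ hρ)).comp (shB hρ ht))
    ((IsFractionRing.injective _ _).comp shB_injective)

theorem shF_algebraMap {ρ : ℝ} {hρ : 0 < ρ} {t : F} {ht : ‖t‖ < ρ} (f : bsub (K := F) ρ hρ) :
    shF hρ ht (algebraMap _ _ f) = algebraMap _ _ (shB hρ ht f) :=
  IsFractionRing.lift_algebraMap _ f

theorem mem_bsD_top {ρ : ℝ} {hρ : 0 < ρ} {f : F⟦X⟧} :
    f ∈ bsD (⊤ : Subfield F) hρ ↔ f ∈ bsub (K := F) ρ hρ :=
  ⟨fun h => h.2, fun h => ⟨fun _ => Subfield.mem_top _, h⟩⟩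

theorem frL_mem {ρ : ℝ} {hρ : 0 < ρ} (z : FDisc F ρ hρ) : frL hρ z ∈ frB (⊤ : Subfield F) hρ := by
  obtain ⟨a, b, hb, rfl⟩ := IsFractionRing.div_surjective (A := bsub (K := F) ρ hρ) z
  have hb0 : (b : F⟦X⟧) ≠ 0 := fun h => nonZeroDivisors.ne_zero hb (Subtype.ext h)
  refine ⟨a.1, mem_bsD_top.mpr a.2, b.1, mem_bsD_top.mpr b.2, hb0, ?_⟩
  rw [map_div₀, frL_algebraMap, frL_algebraMap, div_mul_cancel₀]
  rwa [ne_eq, map_eq_zero_iff _ HahnSeries.ofPowerSeries_injective]

variable {L : Type*} [Field L] [Algebra F L]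

/-- **an analytic disc** of `L/F` with coordinate `T` and radius `ρ` -/
structure IsDisc {ρ : ℝ} (hρ : 0 < ρ) (T : L) (J : L →+* LaurentSeries F) : Prop where
  con : ∀ c : F, J (algebraMap F L c) = HahnSeries.C c
  par : J T = HahnSeries.single (1 : ℤ) (1 : F)
  bd : ∀ f : L, J f ∈ frB (⊤ : Subfield F) hρ

/-- `w` is the place of the point `t` of the disc `J` -/
def At {ρ : ℝ} (hρ : 0 < ρ) (J : L →+* LaurentSeries F) (t : F) (w : Pl F L) : Prop :=
  ∀ (f : L) (a b : F⟦X⟧), a ∈ bsub (K := F) ρ hρ → b ∈ bsub (K := F) ρ hρ → ev b t ≠ 0 →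
    J f * toL F b = toL F a → w.v (f - algebraMap F L (ev a t / ev b t)) < 1

/-- **the expansion at the point `t` of a disc** -/
theorem exists_shift {ρ : ℝ} {hρ : 0 < ρ} {T : L} {J : L →+* LaurentSeries F} (hJ : IsDisc hρ T J)
    {t : F} (ht : ‖t‖ < ρ) : ∃ Jt : L →+* LaurentSeries F,
      IsDisc hρ (T - algebraMap F L t) Jt ∧
      ∀ (f : L) (a b : F⟦X⟧), a ∈ bsub (K := F) ρ hρ → b ∈ bsub (K := F) ρ hρ → b ≠ 0 →
        J f * toL F b = toL F a → Jt f * toL F (shift t b) = toL F (shift t a) := by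
  obtain ⟨Jt, hJt⟩ : ∃ Jt : L →+* LaurentSeries F,
    Jt = (frL hρ).comp ((shF hρ ht).comp (liftD hρ J hJ.bd)) := ⟨_, rfl⟩
  have key : ∀ (f : L) (a b : F⟦X⟧), a ∈ bsub (K := F) ρ hρ → b ∈ bsub (K := F) ρ hρ → b ≠ 0 →
      J f * toL F b = toL F a → Jt f * toL F (shift t b) = toL F (shift t a) := by
    intro f a b ha hb hb0 h
    have hb0' : toL F b ≠ 0 := by
      rwa [ne_eq, map_eq_zero_iff _ HahnSeries.ofPowerSeries_injective]
    have h1 : liftD hρ J hJ.bd f = algebraMap _ _ (⟨a, ha⟩ : bsub (K := F) ρ hρ) /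
        algebraMap _ _ (⟨b, hb⟩ : bsub (K := F) ρ hρ) := by
      apply liftD_eq
      rw [map_div₀, frL_algebraMap, frL_algebraMap, eq_div_iff hb0']
      exact h
    have h2 : (shift t b : F⟦X⟧) ≠ 0 := shift_ne_zero hρ hb.choose_spec ht hb0
    have h3 : toL F (shift t b) ≠ 0 := by
      rwa [ne_eq, map_eq_zero_iff _ HahnSeries.ofPowerSeries_injective]
    rw [hJt, RingHom.comp_apply, RingHom.comp_apply, h1, map_div₀, map_div₀, shF_algebraMap,
      shF_algebraMap, frL_algebraMap, frL_algebraMap, shB_coe, shB_coe, div_mul_cancel₀]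
    exact h3
  have h1 : toL F (1 : F⟦X⟧) = 1 := map_one _
  have hs1 : shift t (1 : F⟦X⟧) = 1 := by rw [← map_one C, shift_C]
  have hcon : ∀ c : F, Jt (algebraMap F L c) = HahnSeries.C c := by
    intro c
    have h2 := key (algebraMap F L c) (C c) 1 (C_mem c) (one_mem _) one_ne_zero
      (by rw [h1, mul_one, hJ.con, ← HahnSeries.ofPowerSeries_C])
    rw [hs1, h1, mul_one, shift_C] at h2
    rw [h2, ← HahnSeries.ofPowerSeries_C]
  refine ⟨Jt, ⟨hcon, ?_, ?_⟩, key⟩
  · have h2 := key T X 1 X_mem (one_mem _) one_ne_zero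
      (by rw [h1, mul_one, hJ.par, ← HahnSeries.ofPowerSeries_X])
    rw [hs1, h1, mul_one, shift_X] at h2
    rw [map_sub, hcon, h2, map_add, HahnSeries.ofPowerSeries_X, HahnSeries.ofPowerSeries_C,
      add_sub_cancel_right]
  · intro f
    rw [hJt]
    exact frL_mem _

end Shift

section Place

open LaurentSeries

variable {F : Type*} [Field F] {L : Type*} [Field L] [Algebra F L]

/-- the `X`-adic valuation of `F((X))` -/
noncomputable def vX (F : Type*) [Field F] : Valuation (LaurentSeries F) ℤᵐ⁰ :=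
  (PowerSeries.idealX F).valuation (LaurentSeries F)

theorem vX_le_iff {D : ℤ} {z : LaurentSeries F} :
    vX F z ≤ exp (-D) ↔ ∀ n : ℤ, n < D → z.coeff n = 0 :=
  LaurentSeries.valuation_le_iff_coeff_lt_eq_zero F

theorem vX_single (s : ℤ) : vX F (HahnSeries.single s (1 : F)) = exp (-s) :=
  LaurentSeries.valuation_single_zpow F s

theorem vX_toL_le (f : F⟦X⟧) : vX F (toL F f) ≤ 1 := by
  exact (PowerSeries.idealX F).valuation_le_one (K := LaurentSeries F) f

theorem vX_toL_lt {f : F⟦X⟧} (h : coeff 0 f = 0) : vX F (toL F f) < 1 := by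
  obtain ⟨g, hg⟩ := PowerSeries.X_dvd_iff.mpr (by rwa [coeff_zero_eq_constantCoeff_apply] at h)
  rw [hg, map_mul, map_mul, HahnSeries.ofPowerSeries_X, vX_single]
  calc exp (-1) * vX F (toL F g) ≤ exp (-1) * 1 := by gcongr; exact vX_toL_le g
    _ < 1 := by rw [mul_one, ← exp_zero, exp_lt_exp]; norm_num

theorem vX_toL_eq_one {f : F⟦X⟧} (h : coeff 0 f ≠ 0) : vX F (toL F f) = 1 := by
  apply le_antisymm (vX_toL_le f)
  by_contra hcon
  rw [not_le] at hcon
  have h1 : vX F (toL F f) ≤ exp (-1) := by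
    by_cases h0 : vX F (toL F f) = 0
    · rw [h0]; exact zero_le
    · rw [← exp_zero, ← log_lt_iff_lt_exp h0] at hcon
      rw [← log_le_iff_le_exp h0]
      omega
  have h2 := vX_le_iff.mp h1 0 (by norm_num)
  rw [toL, show (0 : ℤ) = ((0 : ℕ) : ℤ) from rfl] at h2
  rw [HahnSeries.ofPowerSeries_apply_coeff] at h2
  exact h h2

/-- the place of an expansion -/
noncomputable def plJ (J : L →+* LaurentSeries F)
    (hcon : ∀ c : F, J (algebraMap F L c) = HahnSeries.C c) (T : L)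
    (hT : J T = HahnSeries.single (1 : ℤ) (1 : F)) : Pl F L where
  v := (vX F).comap J
  const c hc := by
    rw [Valuation.comap_apply, hcon, ← HahnSeries.ofPowerSeries_C]
    exact vX_toL_eq_one (by rwa [coeff_zero_C])
  surj := by
    intro γ
    by_cases hγ : γ = 0
    · exact ⟨0, by rw [map_zero, hγ]⟩
    · refine ⟨T ^ (-log γ), ?_⟩
      rw [Valuation.comap_apply, map_zpow₀, hT, map_zpow₀, vX_single, ← exp_zsmul, smul_eq_mul,
        neg_mul_neg, mul_one, exp_log hγ]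

theorem plJ_v {J : L →+* LaurentSeries F}
    {hcon : ∀ c : F, J (algebraMap F L c) = HahnSeries.C c} {T : L}
    {hT : J T = HahnSeries.single (1 : ℤ) (1 : F)} (f : L) :
    (plJ J hcon T hT).v f = vX F (J f) := rfl

theorem plJ_le_iff {J : L →+* LaurentSeries F}
    {hcon : ∀ c : F, J (algebraMap F L c) = HahnSeries.C c} {T : L}
    {hT : J T = HahnSeries.single (1 : ℤ) (1 : F)} (f : L) (D : ℤ) :
    (plJ J hcon T hT).v f ≤ exp (-D) ↔ ∀ n : ℤ, n < D → (J f).coeff n = 0 := vX_le_iff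

/-- the quotient of two series, the denominator being a unit at `0` -/
theorem vX_sub_lt {z : LaurentSeries F} {a b : F⟦X⟧} (hb : coeff 0 b ≠ 0)
    (h : z * toL F b = toL F a) : vX F (z - HahnSeries.C (coeff 0 a / coeff 0 b)) < 1 := by
  have h1 : (z - HahnSeries.C (coeff 0 a / coeff 0 b)) * toL F b =
      toL F (a - C (coeff 0 a / coeff 0 b) * b) := by
    rw [sub_mul, h, map_sub, map_mul, HahnSeries.ofPowerSeries_C]
  have h2 : vX F ((z - HahnSeries.C (coeff 0 a / coeff 0 b)) * toL F b) < 1 := by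
    rw [h1]
    apply vX_toL_lt
    rw [map_sub, coeff_C_mul, div_mul_cancel₀ _ hb, sub_self]
  rwa [map_mul, vX_toL_eq_one hb, mul_one] at h2

end Place

section AtT

variable {F : Type*} [NontriviallyNormedField F] [IsUltrametricDist F] [CompleteSpace F]
variable {L : Type*} [Field L] [Algebra F L]

omit [IsUltrametricDist F] [CompleteSpace F] in
theorem coeff_zero_shift (t : F) (a : F⟦X⟧) : coeff 0 (shift t a) = ev a t := by
  rw [coeff_shift, LemD_323.ev]
  refine tsum_congr fun n => ?_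
  rw [add_zero, Nat.choose_zero_right, Nat.cast_one, one_mul]

omit [IsUltrametricDist F] [CompleteSpace F] in
theorem ev_zero' (a : F⟦X⟧) : ev a (0 : F) = coeff 0 a := by
  rw [LemD_323.ev, tsum_eq_single 0]
  · rw [pow_zero, mul_one]
  · intro n hn
    rw [zero_pow hn, mul_zero]

/-- an expansion compatible with Taylor expansion gives a place at `t` -/
theorem at_of_shift {ρ : ℝ} {hρ : 0 < ρ} {J Jt : L →+* LaurentSeries F} {t : F}
    (hcon : ∀ c : F, Jt (algebraMap F L c) = HahnSeries.C c) {T' : L}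
    (hT : Jt T' = HahnSeries.single (1 : ℤ) (1 : F))
    (h : ∀ (f : L) (a b : F⟦X⟧), a ∈ bsub (K := F) ρ hρ → b ∈ bsub (K := F) ρ hρ → b ≠ 0 →
        J f * toL F b = toL F a → Jt f * toL F (shift t b) = toL F (shift t a)) :
    At hρ J t (plJ Jt hcon T' hT) := by
  intro f a b ha hb hb0 hf
  have hb1 : b ≠ 0 := by
    rintro rfl
    apply hb0
    rw [LemD_323.ev]
    simp
  have h1 := h f a b ha hb hb1 hf
  rw [plJ_v, map_sub, hcon]
  have h2 := vX_sub_lt (by rwa [coeff_zero_shift]) h1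
  rwa [coeff_zero_shift, coeff_zero_shift] at h2

/-- the centre of a disc -/
theorem at_zero {ρ : ℝ} {hρ : 0 < ρ} {T : L} {J : L →+* LaurentSeries F} (hJ : IsDisc hρ T J) :
    At hρ J 0 (plJ J hJ.con T hJ.par) := by
  intro f a b ha hb hb0 hf
  rw [plJ_v, map_sub, hJ.con, ev_zero', ev_zero']
  rw [ev_zero'] at hb0
  exact vX_sub_lt hb0 hf

theorem exists_at {ρ : ℝ} {hρ : 0 < ρ} {T : L} {J : L →+* LaurentSeries F} (hJ : IsDisc hρ T J)
    {t : F} (ht : ‖t‖ < ρ) : ∃ w : Pl F L, At hρ J t w := by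
  obtain ⟨Jt, hJt, h⟩ := exists_shift hJ ht
  exact ⟨_, at_of_shift hJt.con hJt.par h⟩

/-- the point of the disc is determined by the place -/
theorem At.sub_lt {ρ : ℝ} {hρ : 0 < ρ} {T : L} {J : L →+* LaurentSeries F} (hJ : IsDisc hρ T J)
    {t : F} {w : Pl F L} (h : At hρ J t w) : w.v (T - algebraMap F L t) < 1 := by
  have h1 : toL F (1 : F⟦X⟧) = 1 := map_one _
  have h2 : ev (1 : F⟦X⟧) t = 1 := by
    rw [← coeff_zero_shift, ← map_one C, shift_C, coeff_zero_C]
  have h3 : ev (X : F⟦X⟧) t = t := by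
    rw [← coeff_zero_shift, shift_X, map_add, coeff_zero_C, coeff_zero_X, zero_add]
  have h4 := h T X 1 X_mem (one_mem _) (by rw [h2]; exact one_ne_zero)
    (by rw [h1, mul_one, hJ.par, HahnSeries.ofPowerSeries_X])
  rwa [h2, h3, div_one] at h4

theorem At.point {ρ : ℝ} {hρ : 0 < ρ} {T : L} {J : L →+* LaurentSeries F} (hJ : IsDisc hρ T J)
    {t t' : F} {w : Pl F L} (h : At hρ J t w) (h' : At hρ J t' w) : t = t' := by
  have h1 := h.sub_lt hJ
  have h2 := h'.sub_lt hJ
  by_contra hne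
  have h3 : w.v (algebraMap F L (t' - t)) = 1 := w.const _ (sub_ne_zero.mpr (Ne.symm hne))
  have h4 : algebraMap F L (t' - t) = (T - algebraMap F L t) - (T - algebraMap F L t') := by
    rw [map_sub]; ring
  rw [h4] at h3
  exact absurd h3 (Valuation.map_sub_lt _ h1 h2).ne

end AtT

section Unique

variable {F : Type*} [NontriviallyNormedField F] [IsUltrametricDist F] [CompleteSpace F]
variable {L : Type*} [Field L] [Algebra F L] [Algebra (RatFunc F) L] [IsScalarTower F (RatFunc F) L]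
  [FiniteDimensional (RatFunc F) L] [Algebra.IsSeparable (RatFunc F) L]

omit [CompleteSpace F] in
/-- division by `X` preserves boundedness -/
theorem mem_of_X_mul {ρ : ℝ} {hρ : 0 < ρ} {f : F⟦X⟧} {m : ℕ}
    (h : X ^ m * f ∈ bsub (K := F) ρ hρ) : f ∈ bsub (K := F) ρ hρ := by
  obtain ⟨B, hB⟩ := h
  refine ⟨B / ρ ^ m, fun n => ?_⟩
  have h1 := hB (n + m)
  rw [PowerSeries.coeff_X_pow_mul, pow_add, ← mul_assoc] at h1
  rwa [le_div_iff₀ (pow_pos hρ m)]

theorem shift_mem {ρ : ℝ} {hρ : 0 < ρ} {f : F⟦X⟧} (hf : f ∈ bsub (K := F) ρ hρ) {t : F}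
    (ht : ‖t‖ < ρ) : shift t f ∈ bsub (K := F) ρ hρ := ⟨_, bd_shift' hf.choose_spec ht⟩

/-- a function regular at the point `t` has a presentation with denominator `≠ 0` at `t` -/
theorem exists_pres {ρ : ℝ} {hρ : 0 < ρ} {a b : F⟦X⟧} (ha : a ∈ bsub (K := F) ρ hρ)
    (hb : b ∈ bsub (K := F) ρ hρ) (hb0 : b ≠ 0) {t : F} (ht : ‖t‖ < ρ) {z : LaurentSeries F}
    (hz : z * toL F (shift t b) = toL F (shift t a)) (hv : vX F z ≤ 1) :
    ∃ e a' b' : F⟦X⟧, e ∈ bsub (K := F) ρ hρ ∧ a' ∈ bsub (K := F) ρ hρ ∧ b' ∈ bsub (K := F) ρ hρ ∧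
      e ≠ 0 ∧ a = e * a' ∧ b = e * b' ∧ ev b' t ≠ 0 := by
  have htn : ‖-t‖ < ρ := by rwa [norm_neg]
  have hsb0 : (shift t b : F⟦X⟧) ≠ 0 := shift_ne_zero hρ hb.choose_spec ht hb0
  obtain ⟨b₁, hb₁⟩ : ∃ b₁ : F⟦X⟧, shift t b = X ^ (shift t b).order.toNat * b₁ :=
    PowerSeries.X_pow_order_dvd
  set m := (shift t b).order.toNat with hm
  have hcb₁ : coeff 0 b₁ ≠ 0 := by
    have h1 := PowerSeries.coeff_order hsb0
    rw [← hm, hb₁, PowerSeries.coeff_X_pow_mul'] at h1
    simpa using h1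
  -- `X ^ m` divides `shift t a`
  have h2 : vX F (toL F (shift t a)) ≤ exp (-(m : ℤ)) := by
    rw [← hz, hb₁, map_mul, map_mul, map_mul, map_pow, map_pow, HahnSeries.ofPowerSeries_X,
      vX_single, vX_toL_eq_one hcb₁, mul_one, ← exp_nsmul]
    calc vX F z * exp (m • (-1 : ℤ)) ≤ 1 * exp (m • (-1 : ℤ)) := by gcongr
      _ = exp (-(m : ℤ)) := by rw [one_mul]; congr 1; simp
  have h3 : X ^ m ∣ shift t a := by
    rw [PowerSeries.X_pow_dvd_iff]
    intro n hn
    have := vX_le_iff.mp h2 n (by exact_mod_cast hn)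
    rwa [toL, HahnSeries.ofPowerSeries_apply_coeff] at this
  obtain ⟨a₁, ha₁⟩ := h3
  have ha₁m : a₁ ∈ bsub (K := F) ρ hρ := mem_of_X_mul (m := m) (ha₁ ▸ shift_mem ha ht)
  have hb₁m : b₁ ∈ bsub (K := F) ρ hρ := mem_of_X_mul (m := m) (hb₁ ▸ shift_mem hb ht)
  have hXm : (X ^ m : F⟦X⟧) ∈ bsub (K := F) ρ hρ := (bsub (K := F) ρ hρ).pow_mem X_mem m
  refine ⟨shift (-t) (X ^ m), shift (-t) a₁, shift (-t) b₁, shift_mem hXm htn, shift_mem ha₁m htn,
    shift_mem hb₁m htn, shift_ne_zero hρ hXm.choose_spec htn (pow_ne_zero _ X_ne_zero), ?_, ?_, ?_⟩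
  · rw [← shift_mul hρ hXm.choose_spec ha₁m.choose_spec htn, ← ha₁,
      shift_shift hρ ha.choose_spec ht]
  · rw [← shift_mul hρ hXm.choose_spec hb₁m.choose_spec htn, ← hb₁,
      shift_shift hρ hb.choose_spec ht]
  · have h4 : shift t (shift (-t) b₁) = b₁ := by
      have := shift_shift hρ hb₁m.choose_spec htn
      rwa [neg_neg] at this
    rw [← coeff_zero_shift, h4]
    exact hcb₁

/-- **the place at a point of a disc is unique** -/
theorem At.eq_plJ {ρ : ℝ} {hρ : 0 < ρ} {T : L} {J Jt : L →+* LaurentSeries F}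
    (hJ : IsDisc hρ T J) {t : F} (ht : ‖t‖ < ρ)
    {hcon : ∀ c : F, Jt (algebraMap F L c) = HahnSeries.C c} {T' : L}
    {hT : Jt T' = HahnSeries.single (1 : ℤ) (1 : F)}
    (h : ∀ (f : L) (a b : F⟦X⟧), a ∈ bsub (K := F) ρ hρ → b ∈ bsub (K := F) ρ hρ → b ≠ 0 →
        J f * toL F b = toL F a → Jt f * toL F (shift t b) = toL F (shift t a))
    {w : Pl F L} (hw : At hρ J t w) : w = plJ Jt hcon T' hT := by
  symm
  apply RR18_948.pl_eq_of_le
  intro f hf
  obtain ⟨a, ha, b, hb, hb0, hab⟩ := hJ.bd f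
  have hz := h f a b ha.2 hb.2 hb0 hab
  obtain ⟨e, a', b', he, ha', hb', he0, h1, h2, h3⟩ := exists_pres ha.2 hb.2 hb0 ht hz hf
  have h4 : J f * toL F b' = toL F a' := by
    have he1 : toL F e ≠ 0 := by
      rwa [ne_eq, map_eq_zero_iff _ HahnSeries.ofPowerSeries_injective]
    apply mul_left_cancel₀ he1
    rw [← map_mul, ← h1, ← hab, h2, map_mul]; ring
  have h5 := hw f a' b' ha' hb' h3 h4
  have h6 : f = (f - algebraMap F L (ev a' t / ev b' t)) + algebraMap F L (ev a' t / ev b' t) := by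
    ring
  rw [h6]
  refine w.v.map_add_le h5.le ?_
  by_cases hc : ev a' t / ev b' t = 0
  · rw [hc, map_zero, map_zero]; exact zero_le
  · exact (w.const _ hc).le

theorem At.unique {ρ : ℝ} {hρ : 0 < ρ} {T : L} {J : L →+* LaurentSeries F}
    (hJ : IsDisc hρ T J) {t : F} (ht : ‖t‖ < ρ) {w w' : Pl F L} (hw : At hρ J t w)
    (hw' : At hρ J t w') : w = w' := by
  obtain ⟨Jt, hJt, h⟩ := exists_shift hJ ht
  rw [At.eq_plJ (hcon := hJt.con) (hT := hJt.par) hJ ht h hw,
    At.eq_plJ (hcon := hJt.con) (hT := hJt.par) hJ ht h hw']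

end Unique

end Crest.Agent.R013.DU_948
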