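import Crest.Agent.R013.DUa_948
import Crest.Agent.R013.LemD4_323
import Crest.Agent.R013.GR2_921

/-!
# Row 13, D-line, D-UNI (U1), file b: the fibre of a function with a pole at the centre of a disc

* `exists_roots` : `t ^ N * U t = ε` has `N` distinct small solutions;
* `exists_fibre` : `z` the centre of a disc, `z.v f = exp N`, `N ≥ 1`: for `‖c‖` large there are `N`
  places in the disc of radius `r` where `f = c`;
* `exists_near` (continuity), `exists_disjoint` (small discs around distinct places are disjoint).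
-/

set_option autoImplicit false
set_option linter.unusedSectionVars false

namespace Crest.Agent.R013.DU_948

open PowerSeries WithZero Filter Topology
open scoped NNReal
open Crest.Agent.R013.KAS2_940 (Bd)
open Crest.Agent.R013.KAS3_940 Crest.Agent.R013.Good1_940 Crest.Agent.R013.Gl946
open Crest.Agent.R013.Good3_940 Crest.Agent.R013.Small3_940
open Crest.Agent.R013.LemD_323 (shift coeff_shift ev_shift summable_shift ev)
open Crest.Agent.R013.RR7_948

section Roots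

variable {F : Type*} [NontriviallyNormedField F] [CompleteSpace F] [IsAlgClosed F] [CharZero F]

/-- the `N`-th roots of a non zero element -/
theorem exists_nth_roots {ε : F} (hε : ε ≠ 0) {N : ℕ} (hN : N ≠ 0) :
    ∃ S : Finset F, S.card = N ∧ ∀ σ ∈ S, σ ^ N = ε := by
  classical
  have hNF : (N : F) ≠ 0 := Nat.cast_ne_zero.mpr hN
  have hsep : (Polynomial.X ^ N - Polynomial.C ε : Polynomial F).Separable :=
    Polynomial.separable_X_pow_sub_C ε hNF hε
  refine ⟨(Polynomial.X ^ N - Polynomial.C ε : Polynomial F).roots.toFinset, ?_, ?_⟩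
  · rw [Multiset.toFinset_card_of_nodup (Polynomial.nodup_roots hsep),
      ← (IsAlgClosed.splits _).natDegree_eq_card_roots, Polynomial.natDegree_X_pow_sub_C]
  · intro σ hσ
    rw [Multiset.mem_toFinset, Polynomial.mem_roots (Polynomial.X_pow_sub_C_ne_zero
      (Nat.pos_of_ne_zero hN) ε)] at hσ
    simpa [sub_eq_zero] using hσ

theorem exists_roots {U : F → F} (hU : AnalyticAt F U 0) (hU0 : U 0 ≠ 0) {N : ℕ} (hN : N ≠ 0)
    {r : ℝ} (hr : 0 < r) :
    ∃ η > 0, ∀ ε : F, ε ≠ 0 → ‖ε‖ < η →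
      ∃ S : Finset F, S.card = N ∧ ∀ t ∈ S, ‖t‖ < r ∧ t ^ N * U t = ε := by
  classical
  obtain ⟨lam, hlam⟩ := IsAlgClosed.exists_pow_nat_eq (U 0) (Nat.pos_of_ne_zero hN)
  have hlam0 : lam ≠ 0 := by
    rintro rfl
    rw [zero_pow hN] at hlam
    exact hU0 hlam.symm
  have hNF : (N : F) ≠ 0 := Nat.cast_ne_zero.mpr hN
  have hp : HasStrictDerivAt (fun x : F => x ^ N) ((N : F) * lam ^ (N - 1)) lam :=
    hasStrictDerivAt_pow N lam
  have hp0 : (N : F) * lam ^ (N - 1) ≠ 0 := mul_ne_zero hNF (pow_ne_zero _ hlam0)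
  obtain ⟨φ, hφ⟩ : ∃ φ, φ = hp.localInverse (fun x : F => x ^ N) _ lam hp0 := ⟨_, rfl⟩
  have hφd : HasStrictDerivAt φ ((N : F) * lam ^ (N - 1))⁻¹ (U 0) := by
    rw [hφ, ← hlam]
    exact hp.to_localInverse hp0
  have hφr : ∀ᶠ x in 𝓝 (U 0), φ x ^ N = x := by
    rw [hφ, ← hlam]
    exact hp.eventually_right_inverse hp0
  have hφ0 : φ (U 0) = lam := by
    rw [hφ, ← hlam]
    exact HasStrictFDerivAt.localInverse_apply_image _
  have hUd : HasStrictDerivAt U (deriv U 0) 0 := hU.hasStrictDerivAt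
  have hcomp : HasStrictDerivAt (fun t => φ (U t)) (((N : F) * lam ^ (N - 1))⁻¹ * deriv U 0) 0 :=
    HasStrictDerivAt.comp (0 : F) hφd hUd
  have hs : HasStrictDerivAt (fun t : F => t * φ (U t)) lam 0 := by
    have h1 := (hasStrictDerivAt_id (0 : F)).mul hcomp
    have h2 : (1 : F) * φ (U 0) + id (0 : F) * (((N : F) * lam ^ (N - 1))⁻¹ * deriv U 0) = lam := by
      rw [hφ0, one_mul, id, zero_mul, add_zero]
    rw [h2] at h1
    exact h1
  have hmap := hs.map_nhds_eq hlam0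
  have hE : {t : F | ‖t‖ < r ∧ φ (U t) ^ N = U t} ∈ 𝓝 (0 : F) := by
    have h1 : ∀ᶠ t in 𝓝 (0 : F), φ (U t) ^ N = U t := hU.continuousAt.eventually hφr
    have h2 : ∀ᶠ t in 𝓝 (0 : F), ‖t‖ < r := by
      filter_upwards [Metric.ball_mem_nhds (0 : F) hr] with t ht
      simpa using ht
    exact h2.and h1
  have him : (fun t : F => t * φ (U t)) '' {t : F | ‖t‖ < r ∧ φ (U t) ^ N = U t} ∈ 𝓝 (0 : F) := by
    have h1 := Filter.image_mem_map (m := fun t : F => t * φ (U t)) hE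
    rw [hmap, zero_mul] at h1
    exact h1
  obtain ⟨η0, hη0, hball⟩ := Metric.mem_nhds_iff.mp him
  refine ⟨η0 ^ N, pow_pos hη0 N, fun ε hε hεη => ?_⟩
  obtain ⟨S, hScard, hS⟩ := exists_nth_roots hε hN
  have hσ : ∀ σ ∈ S, ∃ t : F, ‖t‖ < r ∧ φ (U t) ^ N = U t ∧ t * φ (U t) = σ := by
    intro σ hσ
    have h1 : ‖σ‖ < η0 := by
      have h2 : ‖σ‖ ^ N < η0 ^ N := by rw [← norm_pow, hS σ hσ]; exact hεη
      exact lt_of_pow_lt_pow_left₀ N hη0.le h2
    obtain ⟨t, ht, hts⟩ := hball (by simpa using h1 : σ ∈ Metric.ball (0 : F) η0)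
    exact ⟨t, ht.1, ht.2, hts⟩
  choose! T hT1 hT2 hT3 using hσ
  refine ⟨S.image T, ?_, ?_⟩
  · rw [Finset.card_image_of_injOn, hScard]
    intro σ hσ τ hτ h
    have h1 := hT3 σ hσ
    have h2 := hT3 τ hτ
    rw [h] at h1
    rw [← h1, h2]
  · intro t ht
    obtain ⟨σ, hσ, rfl⟩ := Finset.mem_image.mp ht
    refine ⟨hT1 σ hσ, ?_⟩
    have h1 := hT3 σ hσ
    calc T σ ^ N * U (T σ) = T σ ^ N * φ (U (T σ)) ^ N := by rw [hT2 σ hσ]
      _ = (T σ * φ (U (T σ))) ^ N := by rw [mul_pow]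
      _ = ε := by rw [h1, hS σ hσ]

end Roots

section Fibre

variable {F : Type*} [NontriviallyNormedField F] [IsUltrametricDist F] [CompleteSpace F]
variable {L : Type*} [Field L] [Algebra F L] [Algebra (RatFunc F) L] [IsScalarTower F (RatFunc F) L]
  [FiniteDimensional (RatFunc F) L] [Algebra.IsSeparable (RatFunc F) L]

omit [IsUltrametricDist F] [CompleteSpace F] in
theorem shift_zero_left (f : F⟦X⟧) : shift (0 : F) f = f := by
  ext l
  rw [coeff_shift, tsum_eq_single 0]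
  · simp
  · intro n hn
    rw [zero_pow hn, mul_zero]

/-- the centre is the place of the expansion -/
theorem At.eq_zero {ρ : ℝ} {hρ : 0 < ρ} {T : L} {J : L →+* LaurentSeries F}
    (hJ : IsDisc hρ T J) {z : Pl F L} (hz : At hρ J 0 z) : z = plJ J hJ.con T hJ.par :=
  At.unique hJ (by rwa [norm_zero]) hz (at_zero hJ)

/-- presentation of a function regular at the centre -/
theorem exists_pres_zero {ρ : ℝ} {hρ : 0 < ρ} {T : L} {J : L →+* LaurentSeries F}
    (hJ : IsDisc hρ T J) {z : Pl F L} (hz : At hρ J 0 z) {g : L} (hg : z.v g ≤ 1) :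
    ∃ a b : F⟦X⟧, a ∈ bsub (K := F) ρ hρ ∧ b ∈ bsub (K := F) ρ hρ ∧ ev b (0 : F) ≠ 0 ∧
      J g * toL F b = toL F a := by
  rw [hz.eq_zero hJ, plJ_v] at hg
  obtain ⟨a, ha, b, hb, hb0, hab⟩ := hJ.bd g
  obtain ⟨e, a', b', he, ha', hb', he0, h1, h2, h3⟩ := exists_pres ha.2 hb.2 hb0
    (t := (0 : F)) (z := J g) (by rwa [norm_zero])
    (by rw [shift_zero_left, shift_zero_left]; exact hab) hg
  refine ⟨a', b', ha', hb', h3, ?_⟩
  have he1 : toL F e ≠ 0 := by
    rwa [ne_eq, map_eq_zero_iff _ HahnSeries.ofPowerSeries_injective]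
  apply mul_left_cancel₀ he1
  rw [← map_mul, ← h1, ← hab, h2, map_mul]; ring

theorem analyticAt_ev' {ρ : ℝ} {hρ : 0 < ρ} {a : F⟦X⟧} (ha : a ∈ bsub (K := F) ρ hρ) {s : F}
    (hs : ‖s‖ < ρ) : AnalyticAt F (fun t : F => LemD_323.ev a t) s :=
  LemD_323.analyticAt_ev (F := F) (k := F) (toBd ha.choose_spec) hs

/-- **continuity at the centre** -/
theorem exists_near {ρ : ℝ} {hρ : 0 < ρ} {T : L} {J : L →+* LaurentSeries F}
    (hJ : IsDisc hρ T J) {z : Pl F L} (hz : At hρ J 0 z) {g : L} {c : F}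
    (hg : z.v (g - algebraMap F L c) < 1) {ε : ℝ} (hε : 0 < ε) :
    ∃ r > 0, ∀ (t : F) (w : Pl F L), ‖t‖ < r → At hρ J t w →
      ∃ c' : F, ‖c' - c‖ < ε ∧ w.v (g - algebraMap F L c') < 1 := by
  have hg1 : z.v g ≤ 1 := by
    have h : g = (g - algebraMap F L c) + algebraMap F L c := by ring
    rw [h]
    refine z.v.map_add_le hg.le ?_
    by_cases hc : c = 0
    · rw [hc, map_zero, map_zero]; exact zero_le
    · exact (z.const c hc).le
  obtain ⟨a, b, ha, hb, hb0, hab⟩ := exists_pres_zero hJ hz hg1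
  have hρ0 : ‖(0 : F)‖ < ρ := by rwa [norm_zero]
  have hc : ev a (0 : F) / ev b (0 : F) = c := by
    by_contra hne
    have h1 := hz g a b ha hb hb0 hab
    have h2 : z.v (algebraMap F L (ev a (0 : F) / ev b (0 : F) - c)) = 1 :=
      z.const _ (sub_ne_zero.mpr hne)
    have h3 : algebraMap F L (ev a (0 : F) / ev b (0 : F) - c) =
      (g - algebraMap F L c) - (g - algebraMap F L (ev a (0 : F) / ev b (0 : F))) := by
      rw [map_sub]; ring
    rw [h3] at h2
    exact absurd h2 (Valuation.map_sub_lt _ hg h1).ne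
  have hcont : ContinuousAt (fun t : F => LemD_323.ev a t / LemD_323.ev b t) 0 :=
    (analyticAt_ev' ha hρ0).continuousAt.div (analyticAt_ev' hb hρ0).continuousAt hb0
  have hne : ∀ᶠ t in 𝓝 (0 : F), LemD_323.ev b t ≠ 0 :=
    (analyticAt_ev' hb hρ0).continuousAt.eventually_ne hb0
  have hcl : ∀ᶠ t in 𝓝 (0 : F), ‖LemD_323.ev a t / LemD_323.ev b t - c‖ < ε := by
    have h1 := hcont.eventually (Metric.ball_mem_nhds _ hε)
    simp only [hc] at h1
    filter_upwards [h1] with t ht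
    rwa [dist_eq_norm] at ht
  obtain ⟨r, hr, hball⟩ := Metric.eventually_nhds_iff.mp (hne.and hcl)
  refine ⟨r, hr, fun t w ht hw => ?_⟩
  obtain ⟨h1, h2⟩ := hball (y := t) (by simpa using ht)
  exact ⟨_, h2, hw g a b ha hb h1 hab⟩

/-- **small discs around distinct places are disjoint** -/
theorem exists_disjoint [IsAlgClosed F] {ρ ρ' : ℝ} {hρ : 0 < ρ} {hρ' : 0 < ρ'} {T T' : L}
    {J J' : L →+* LaurentSeries F} (hJ : IsDisc hρ T J) (hJ' : IsDisc hρ' T' J') {z z' : Pl F L}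
    (hz : At hρ J 0 z) (hz' : At hρ' J' 0 z') (hne : z ≠ z') :
    ∃ r > 0, ∀ (t t' : F) (w : Pl F L), ‖t‖ < r → ‖t'‖ < r → At hρ J t w → At hρ' J' t' w →
      False := by
  classical
  obtain ⟨g, hg0, hg⟩ := RR12_948.exists_prescribed (k := F) (K := L) {z, z'}
    (fun R => if R = z then -1 else 0)
  have h1 := hg z (by simp)
  have h2 := hg z' (by simp)
  rw [if_pos rfl] at h1
  rw [if_neg (Ne.symm hne), exp_zero] at h2
  obtain ⟨c, hc⟩ := GR2_921.exists_const z' h2.le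
  have hc0 : c ≠ 0 := by
    rintro rfl
    rw [map_zero, sub_zero, h2] at hc
    exact lt_irrefl _ hc
  have hgz : z.v (g - algebraMap F L 0) < 1 := by
    rw [map_zero, sub_zero, h1, ← exp_zero, exp_lt_exp]; norm_num
  have hcn : 0 < ‖c‖ := norm_pos_iff.mpr hc0
  obtain ⟨r, hr, hR⟩ := exists_near hJ hz hgz hcn
  obtain ⟨r', hr', hR'⟩ := exists_near hJ' hz' hc hcn
  refine ⟨min r r', lt_min hr hr', fun t t' w ht ht' hw hw' => ?_⟩
  obtain ⟨c₁, h3, h4⟩ := hR t w (ht.trans_le (min_le_left _ _)) hw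
  obtain ⟨c₂, h5, h6⟩ := hR' t' w (ht'.trans_le (min_le_right _ _)) hw'
  have h7 : c₁ = c₂ := by
    by_contra hne'
    have h8 : w.v (algebraMap F L (c₂ - c₁)) = 1 := w.const _ (sub_ne_zero.mpr (Ne.symm hne'))
    have h9 : algebraMap F L (c₂ - c₁) = (g - algebraMap F L c₁) - (g - algebraMap F L c₂) := by
      rw [map_sub]; ring
    rw [h9] at h8
    exact absurd h8 (Valuation.map_sub_lt _ h4 h6).ne
  rw [← h7] at h5
  rw [sub_zero] at h3
  have h8 : ‖c‖ ≤ max ‖c₁‖ ‖c₁ - c‖ := by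
    have : c = c₁ + -(c₁ - c) := by ring
    have h9 := IsUltrametricDist.norm_add_le_max c₁ (-(c₁ - c))
    rwa [← this, norm_neg] at h9
  exact absurd h8 (not_le.mpr (max_lt h3 h5))

/-- **the fibre near a pole** -/
theorem exists_fibre [IsAlgClosed F] [CharZero F] {ρ : ℝ} {hρ : 0 < ρ} {T : L}
    {J : L →+* LaurentSeries F} (hJ : IsDisc hρ T J) {z : Pl F L} (hz : At hρ J 0 z) {f : L} {N : ℕ}
    (hN : N ≠ 0) (hf : z.v f = exp (N : ℤ)) {r : ℝ} (hr : 0 < r) :
    ∃ M : ℝ, ∀ c : F, M < ‖c‖ → ∃ S : Finset (Pl F L), S.card = N ∧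
      ∀ w ∈ S, w.v (f - algebraMap F L c) < 1 ∧ ∃ t : F, ‖t‖ < r ∧ At hρ J t w := by
  classical
  have hf0 : f ≠ 0 := by
    rintro rfl
    rw [map_zero] at hf
    exact exp_ne_zero hf.symm
  have hfi : z.v f⁻¹ = exp (-(N : ℤ)) := by rw [map_inv₀, hf, exp_neg]
  have hfi1 : z.v f⁻¹ ≤ 1 := by
    rw [hfi, ← exp_zero, exp_le_exp]; omega
  obtain ⟨a, b, ha, hb, hb0, hab⟩ := exists_pres_zero hJ hz hfi1
  have hρ0 : ‖(0 : F)‖ < ρ := by rwa [norm_zero]
  -- `a = X ^ N * a₁`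
  have hb1 : coeff 0 b ≠ 0 := by rwa [← ev_zero']
  have hva : vX F (toL F a) = exp (-(N : ℤ)) := by
    rw [← hab, map_mul, vX_toL_eq_one hb1, mul_one, ← hfi, hz.eq_zero hJ, plJ_v]
  have hXa : X ^ N ∣ a := by
    rw [PowerSeries.X_pow_dvd_iff]
    intro n hn
    have := vX_le_iff.mp hva.le n (by exact_mod_cast hn)
    rwa [toL, HahnSeries.ofPowerSeries_apply_coeff] at this
  obtain ⟨a₁, ha₁⟩ := hXa
  have ha₁m : a₁ ∈ bsub (K := F) ρ hρ := mem_of_X_mul (m := N) (ha₁ ▸ ha)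
  have ha₁0 : coeff 0 a₁ ≠ 0 := by
    intro h0
    have h1 : vX F (toL F a) < exp (-(N : ℤ)) := by
      rw [ha₁, map_mul, map_mul, map_pow, map_pow, HahnSeries.ofPowerSeries_X, vX_single]
      have h2 := vX_toL_lt h0
      have h3 : exp (-1 : ℤ) ^ N = exp (-(N : ℤ)) := by
        rw [← exp_nsmul]; congr 1; simp
      rw [h3]
      calc exp (-(N : ℤ)) * vX F (toL F a₁) < exp (-(N : ℤ)) * 1 := by
            apply mul_lt_mul_of_pos_left h2
            exact zero_lt_iff.mpr exp_ne_zero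
        _ = _ := mul_one _
    rw [hva] at h1
    exact lt_irrefl _ h1
  have hU : AnalyticAt F (fun t : F => LemD_323.ev a₁ t / LemD_323.ev b t) 0 :=
    (analyticAt_ev' ha₁m hρ0).div (analyticAt_ev' hb hρ0) hb0
  have hU0 : (fun t : F => LemD_323.ev a₁ t / LemD_323.ev b t) 0 ≠ 0 := by
    apply div_ne_zero _ hb0
    rwa [ev_zero']
  have hne : ∀ᶠ t in 𝓝 (0 : F), LemD_323.ev b t ≠ 0 :=
    (analyticAt_ev' hb hρ0).continuousAt.eventually_ne hb0
  obtain ⟨r₁, hr₁, hball⟩ := Metric.eventually_nhds_iff.mp hne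
  obtain ⟨η, hη, hroots⟩ := exists_roots hU hU0 hN (lt_min (lt_min hr hρ) hr₁)
  refine ⟨η⁻¹, fun c hc => ?_⟩
  have hcpos : 0 < ‖c‖ := (inv_pos.mpr hη).trans hc
  have hc0 : c ≠ 0 := norm_pos_iff.mp hcpos
  obtain ⟨S, hScard, hS⟩ := hroots c⁻¹ (inv_ne_zero hc0) (by
    rw [norm_inv]
    exact inv_lt_of_inv_lt₀ hη hc)
  have hex : ∀ t ∈ S, ∃ w : Pl F L, At hρ J t w := fun t ht =>
    exists_at hJ ((hS t ht).1.trans_le ((min_le_left _ _).trans (min_le_right _ _)))
  have : Nonempty (Pl F L) := ⟨z⟩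
  choose! W hW using hex
  refine ⟨S.image W, ?_, ?_⟩
  · rw [Finset.card_image_of_injOn, hScard]
    intro t ht t' ht' h
    have h1 := hW t ht
    rw [h] at h1
    exact h1.point hJ (hW t' ht')
  · intro w hw
    obtain ⟨t, ht, rfl⟩ := Finset.mem_image.mp hw
    have hw1 := hW t ht
    obtain ⟨htr, hteq⟩ := hS t ht
    refine ⟨?_, t, htr.trans_le ((min_le_left _ _).trans (min_le_left _ _)), hw1⟩
    have hbt : LemD_323.ev b t ≠ 0 := hball (by
      simpa using htr.trans_le (min_le_right _ _))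
    have h1 := hw1 f⁻¹ a b ha hb hbt hab
    have htρ : ‖t‖ < ρ := htr.trans_le ((min_le_left _ _).trans (min_le_right _ _))
    have h2 : LemD_323.ev a t / LemD_323.ev b t = c⁻¹ := by
      have hXN : (X ^ N : F⟦X⟧) ∈ bsub (K := F) ρ hρ := (bsub (K := F) ρ hρ).pow_mem X_mem N
      have h3 : LemD_323.ev (X ^ N : F⟦X⟧) t = t ^ N := by
        rw [← coeff_zero_shift]
        have h4 : shift t (X ^ N : F⟦X⟧) = (X + C t) ^ N := by
          have h5 := congrArg Subtype.val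
            (map_pow (shB hρ htρ) (⟨X, X_mem⟩ : bsub (K := F) ρ hρ) N)
          rw [shB_coe] at h5
          have h6 : (((⟨X, X_mem⟩ : bsub (K := F) ρ hρ) ^ N : bsub (K := F) ρ hρ) : F⟦X⟧) = X ^ N :=
            rfl
          rw [h6] at h5
          rw [h5]
          show (shift t X) ^ N = _
          rw [shift_X]
        rw [h4, coeff_zero_eq_constantCoeff_apply, map_pow, map_add, constantCoeff_X,
          constantCoeff_C, zero_add]
      rw [ha₁, ev_mul hXN.choose_spec ha₁m.choose_spec htρ, h3, mul_div_assoc]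
      exact hteq
    rw [h2] at h1
    have hvc : ∀ (P : Pl F L), P.v (algebraMap F L c) = 1 := fun P => P.const c hc0
    have h3 : (W t).v f⁻¹ = 1 := by
      have h4 : f⁻¹ = (f⁻¹ - algebraMap F L c⁻¹) + algebraMap F L c⁻¹ := by ring
      have h5 : (W t).v (algebraMap F L c⁻¹) = 1 := (W t).const _ (inv_ne_zero hc0)
      rw [h4, Valuation.map_add_eq_of_lt_right, h5]
      rwa [h5]
    have h4 : (W t).v f = 1 := by
      rw [map_inv₀] at h3
      rw [← inv_inv ((W t).v f), h3, inv_one]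
    have h5 : f - algebraMap F L c = -(f * algebraMap F L c * (f⁻¹ - algebraMap F L c⁻¹)) := by
      rw [map_inv₀]
      have : algebraMap F L c ≠ 0 := (map_ne_zero _).mpr hc0
      field_simp
      ring
    rw [h5, Valuation.map_neg, map_mul, map_mul, h4, hvc, one_mul, one_mul]
    exact h1

end Fibre

end Crest.Agent.R013.DU_948
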