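import Crest.Agent.R013.DUb_948

/-!
# Row 13, D-line, D-UNI (U1), file c: functions are bounded outside discs around their poles

`bounded_off` : `f ∈ L` with poles in the finite set `Z`, a disc around each `z ∈ Z`, radii `r z > 0`:
`f` is bounded outside the discs of radii `r z`.
`near` : the zeros of `A' - n B'` (as forms) lie in the discs around the zeros of `A - n B`, for
`(A', B')` close to `(A, B)`.
-/

set_option autoImplicit false
set_option linter.unusedSectionVars false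

namespace Crest.Agent.R013.DU_948

open PowerSeries WithZero Filter Topology
open scoped NNReal
open Crest.Agent.R013.KAS3_940 Crest.Agent.R013.Small3_940
open Crest.Agent.R013.RR7_948 Crest.Agent.R013.RR8_948 Crest.Agent.R013.RR9_948
open Crest.Agent.R013.RR11_948

section Count

variable {F : Type*} [Field F] [IsAlgClosed F]
variable {L : Type*} [Field L] [Algebra F L] [Algebra (RatFunc F) L] [IsScalarTower F (RatFunc F) L]
  [FiniteDimensional (RatFunc F) L] [Algebra.IsSeparable (RatFunc F) L]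

/-- a function has at most as many distinct zeros as poles -/
theorem card_zeros_le {h : L} (h0 : h ≠ 0) (Z : Finset (Pl F L)) (N : Pl F L → ℕ)
    (hZ : ∀ z ∈ Z, z.v h ≤ exp (N z : ℤ)) (hZ' : ∀ w ∉ Z, w.v h ≤ 1) (S : Finset (Pl F L))
    (hS : ∀ w ∈ S, w.v h < 1) : S.card ≤ ∑ z ∈ Z, N z := by
  classical
  have hdeg := degD_divf (k := F) h0
  rw [GR2_921.degD_eq_sum, Finsupp.sum] at hdeg
  set D := divf (k := F) h with hD
  -- extend the sum
  have h1 : ∑ P ∈ D.support, D P = ∑ P ∈ D.support ∪ (S ∪ Z), D P := by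
    apply Finset.sum_subset Finset.subset_union_left
    intro P _ hP
    exact Finsupp.notMem_support_iff.mp hP
  rw [h1] at hdeg
  have hlow : ∀ P, (if P ∈ S then (1 : ℤ) else 0) - (if P ∈ Z then (N P : ℤ) else 0) ≤ D P := by
    intro P
    have hv := v_eq (k := F) h0 P
    rw [← hD] at hv
    by_cases hPS : P ∈ S
    · have h2 := hS P hPS
      rw [hv, ← exp_zero, exp_lt_exp] at h2
      rw [if_pos hPS]
      split_ifs <;> omega
    · rw [if_neg hPS]
      by_cases hPZ : P ∈ Z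
      · have h2 := hZ P hPZ
        rw [hv, exp_le_exp] at h2
        rw [if_pos hPZ]; omega
      · have h2 := hZ' P hPZ
        rw [hv, ← exp_zero, exp_le_exp] at h2
        rw [if_neg hPZ]; omega
  have h2 : ∑ P ∈ D.support ∪ (S ∪ Z), ((if P ∈ S then (1 : ℤ) else 0) -
      (if P ∈ Z then (N P : ℤ) else 0)) ≤ 0 :=
    (Finset.sum_le_sum fun P _ => hlow P).trans hdeg.le
  rw [Finset.sum_sub_distrib, ← Finset.sum_filter, ← Finset.sum_filter] at h2
  have h3 : (D.support ∪ (S ∪ Z)).filter (· ∈ S) = S := by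
    ext P; simp only [Finset.mem_filter, Finset.mem_union]; tauto
  have h4 : (D.support ∪ (S ∪ Z)).filter (· ∈ Z) = Z := by
    ext P; simp only [Finset.mem_filter, Finset.mem_union]; tauto
  rw [h3, h4, Finset.sum_const, nsmul_eq_mul, mul_one] at h2
  have h5 : ((S.card : ℤ)) ≤ ((∑ z ∈ Z, N z : ℕ) : ℤ) := by
    rw [Nat.cast_sum]; linarith
  exact_mod_cast h5

/-- a function without poles is constant -/
theorem eq_const_of_le {f : L} (hf : ∀ w : Pl F L, w.v f ≤ 1) : ∃ c : F, f = algebraMap F L c := by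
  classical
  obtain ⟨w0, -⟩ := RR12_948.exists_notMem (k := F) (K := L) ∅
  obtain ⟨c, hc⟩ := GR2_921.exists_const w0 (hf w0)
  refine ⟨c, ?_⟩
  by_contra hne
  have h0 : f - algebraMap F L c ≠ 0 := sub_ne_zero.mpr hne
  have h1 := card_zeros_le (F := F) h0 ∅ (fun _ => 0) (by simp) (fun w _ => by
    refine w.v.map_sub_le (hf w) ?_
    by_cases hc0 : c = 0
    · rw [hc0, map_zero, map_zero]; exact zero_le
    · exact (w.const c hc0).le) {w0} (by simpa using hc)
  simp at h1

end Count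

section Main

variable {F : Type*} [NontriviallyNormedField F] [IsUltrametricDist F] [CompleteSpace F]
  [IsAlgClosed F] [CharZero F]
variable {L : Type*} [Field L] [Algebra F L] [Algebra (RatFunc F) L] [IsScalarTower F (RatFunc F) L]
  [FiniteDimensional (RatFunc F) L] [Algebra.IsSeparable (RatFunc F) L]

/-- **(U1)** a function is bounded outside discs around its poles -/
theorem bounded_off (Z : Finset (Pl F L)) (ρ : Pl F L → ℝ) (hρ : ∀ z, 0 < ρ z) (T : Pl F L → L)
    (J : Pl F L → L →+* LaurentSeries F) (hJ : ∀ z ∈ Z, IsDisc (hρ z) (T z) (J z))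
    (hz : ∀ z ∈ Z, At (hρ z) (J z) 0 z) (r : Pl F L → ℝ) (hr : ∀ z ∈ Z, 0 < r z) (f : L)
    (hf : ∀ w : Pl F L, w ∉ Z → w.v f ≤ 1) :
    ∃ B : ℝ, ∀ w : Pl F L, (∀ z ∈ Z, ¬ ∃ t : F, ‖t‖ < r z ∧ At (hρ z) (J z) t w) →
      ∃ c : F, ‖c‖ ≤ B ∧ w.v (f - algebraMap F L c) < 1 := by
  classical
  by_cases hconst : ∀ w : Pl F L, w.v f ≤ 1
  · obtain ⟨c, rfl⟩ := eq_const_of_le hconst
    exact ⟨‖c‖, fun w _ => ⟨c, le_rfl, by rw [sub_self, map_zero]; exact zero_lt_one⟩⟩
  push Not at hconst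
  obtain ⟨w0, hw0⟩ := hconst
  have hnc : ∀ c : F, f ≠ algebraMap F L c := by
    rintro c rfl
    refine absurd hw0 (not_lt.mpr ?_)
    by_cases hc0 : c = 0
    · rw [hc0, map_zero, map_zero]; exact zero_le
    · exact (w0.const c hc0).le
  have hf0 : f ≠ 0 := fun h => hnc 0 (by rw [h, map_zero])
  -- the poles and their orders
  set Z' := Z.filter (fun z => 1 < z.v f) with hZ'
  set N : Pl F L → ℕ := fun z => (log (z.v f)).toNat with hN
  have hNv : ∀ z ∈ Z', z.v f = exp (N z : ℤ) ∧ N z ≠ 0 := by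
    intro z hz'
    have h1 := (Finset.mem_filter.mp hz').2
    have h0 : z.v f ≠ 0 := (zero_lt_one.trans h1).ne'
    have h2 : 0 < log (z.v f) := by
      rw [← exp_log h0, ← exp_zero, exp_lt_exp] at h1
      exact h1
    have h3 : ((log (z.v f)).toNat : ℤ) = log (z.v f) := Int.toNat_of_nonneg h2.le
    refine ⟨?_, ?_⟩
    · rw [hN]; simp only; rw [h3, exp_log h0]
    · rw [hN]; simp only; omega
  -- disjointness radii
  have hdis : ∀ z ∈ Z, ∀ z' ∈ Z, z ≠ z' → ∃ s > 0, ∀ (t t' : F) (w : Pl F L), ‖t‖ < s → ‖t'‖ < s →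
      At (hρ z) (J z) t w → At (hρ z') (J z') t' w → False := fun z h1 z' h2 hne =>
    exists_disjoint (hJ z h1) (hJ z' h2) (hz z h1) (hz z' h2) hne
  choose! s hs hsd using hdis
  -- one radius for everything
  obtain ⟨r0, hr0, hr0z, hr0s⟩ : ∃ r0 : ℝ, 0 < r0 ∧ (∀ z ∈ Z, r0 ≤ r z) ∧
      ∀ z ∈ Z, ∀ z' ∈ Z, z ≠ z' → r0 ≤ s z z' := by
    have key : ∀ (ι : Type _) (A : Finset ι) (g : ι → ℝ), (∀ i ∈ A, 0 < g i) →
        ∃ x : ℝ, 0 < x ∧ ∀ i ∈ A, x ≤ g i := by
      intro ι A g hg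
      rcases A.eq_empty_or_nonempty with rfl | hne
      · exact ⟨1, one_pos, by simp⟩
      · exact ⟨A.inf' hne g, (Finset.lt_inf'_iff _).mpr hg, fun i hi => Finset.inf'_le _ hi⟩
    obtain ⟨x, hx, hx'⟩ := key _ Z r hr
    obtain ⟨y, hy, hy'⟩ := key _ ((Z ×ˢ Z).filter fun q => q.1 ≠ q.2) (fun q => s q.1 q.2) (by
      rintro ⟨z, z'⟩ hq
      simp only [Finset.mem_filter, Finset.mem_product] at hq
      exact hs z hq.1.1 z' hq.1.2 hq.2)
    refine ⟨min x y, lt_min hx hy, fun z h => (min_le_left _ _).trans (hx' z h), ?_⟩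
    intro z h z' h' hne
    exact (min_le_right _ _).trans (hy' (z, z') (by simp [h, h', hne]))
  -- fibres
  have hfib : ∀ z ∈ Z', ∃ M : ℝ, ∀ c : F, M < ‖c‖ → ∃ S : Finset (Pl F L), S.card = N z ∧
      ∀ w ∈ S, w.v (f - algebraMap F L c) < 1 ∧ ∃ t : F, ‖t‖ < r0 ∧ At (hρ z) (J z) t w := by
    intro z hz'
    have hzZ := (Finset.mem_filter.mp hz').1
    exact exists_fibre (hJ z hzZ) (hz z hzZ) (hNv z hz').2 (hNv z hz').1 hr0
  choose! M hM using hfib
  obtain ⟨B, hB0, hB⟩ : ∃ B : ℝ, 0 ≤ B ∧ ∀ z ∈ Z', M z ≤ B := by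
    refine ⟨∑ z ∈ Z', |M z|, Finset.sum_nonneg fun _ _ => abs_nonneg _, fun z hz' => ?_⟩
    exact (le_abs_self _).trans
      (Finset.single_le_sum (f := fun z => |M z|) (fun _ _ => abs_nonneg _) hz')
  refine ⟨B, fun w hw => ?_⟩
  -- `w` is not in `Z`
  have hwZ : w ∉ Z := fun h => hw w h ⟨0, by rw [norm_zero]; exact hr w h, hz w h⟩
  obtain ⟨c, hc⟩ := GR2_921.exists_const w (hf w hwZ)
  refine ⟨c, ?_, hc⟩
  by_contra hcon
  rw [not_le] at hcon
  have hS : ∀ z ∈ Z', ∃ S : Finset (Pl F L), S.card = N z ∧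
      ∀ w ∈ S, w.v (f - algebraMap F L c) < 1 ∧ ∃ t : F, ‖t‖ < r0 ∧ At (hρ z) (J z) t w :=
    fun z hz' => hM z hz' c ((hB z hz').trans_lt hcon)
  choose! S hScard hSw using hS
  have hSd : (Z' : Set (Pl F L)).PairwiseDisjoint S := by
    intro z h1 z' h2 hne
    rw [Function.onFun, Finset.disjoint_left]
    intro u hu hu'
    obtain ⟨-, t, ht, hat⟩ := hSw z h1 u hu
    obtain ⟨-, t', ht', hat'⟩ := hSw z' h2 u hu'
    have h3 := (Finset.mem_filter.mp (Finset.mem_coe.mp h1)).1
    have h4 := (Finset.mem_filter.mp (Finset.mem_coe.mp h2)).1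
    exact hsd z h3 z' h4 hne t t' u (ht.trans_le (hr0s z h3 z' h4 hne))
      (ht'.trans_le (hr0s z h3 z' h4 hne)) hat hat'
  have hwS : w ∉ Z'.biUnion S := by
    intro h
    obtain ⟨z, hz', hwz⟩ := Finset.mem_biUnion.mp h
    obtain ⟨-, t, ht, hat⟩ := hSw z hz' w hwz
    have hzZ := (Finset.mem_filter.mp hz').1
    exact hw z hzZ ⟨t, ht.trans_le (hr0z z hzZ), hat⟩
  have hcw : ∀ u : Pl F L, u.v (algebraMap F L c) ≤ 1 := by
    intro u
    by_cases hc0 : c = 0
    · rw [hc0, map_zero, map_zero]; exact zero_le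
    · exact (u.const c hc0).le
  have hcount := card_zeros_le (F := F) (sub_ne_zero.mpr (hnc c)) Z' N (fun z hz' => by
      refine z.v.map_sub_le (hNv z hz').1.le ((hcw z).trans ?_)
      rw [← exp_zero, exp_le_exp]; omega)
    (fun u hu => by
      refine u.v.map_sub_le ?_ (hcw u)
      by_cases huZ : u ∈ Z
      · by_contra h
        rw [not_le] at h
        exact hu (Finset.mem_filter.mpr ⟨huZ, h⟩)
      · exact hf u huZ)
    (insert w (Z'.biUnion S)) (fun u hu => by
      rcases Finset.mem_insert.mp hu with rfl | hu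
      · exact hc
      · obtain ⟨z, hz', huz⟩ := Finset.mem_biUnion.mp hu
        exact (hSw z hz' u huz).1)
  have hsum : ∑ z ∈ Z', (S z).card = ∑ z ∈ Z', N z := Finset.sum_congr rfl hScard
  rw [Finset.card_insert_of_notMem hwS, Finset.card_biUnion (fun z h1 z' h2 hne => hSd h1 h2 hne),
    hsum] at hcount
  omega

/-- **(U1')** the zeros of `A' - n B'` are in the discs around the zeros of `A - n B`. -/
theorem near {m : ℕ} (b : Fin m → L) (c c' : Fin m → F) {A B : L}
    (hA : A = ∑ j, algebraMap F L (c j) * b j) (hB : B = ∑ j, algebraMap F L (c' j) * b j)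
    (nobp : ∀ (w : Pl F L) (j : Fin m), w.v (b j) ≤ max (w.v A) (w.v B)) (n : F)
    (hD0 : A - algebraMap F L n * B ≠ 0)
    (Z : Finset (Pl F L)) (hZ : ∀ w : Pl F L,
      w.v (A - algebraMap F L n * B) < max (w.v A) (w.v B) → w ∈ Z)
    (ρ : Pl F L → ℝ) (hρ : ∀ z, 0 < ρ z) (T : Pl F L → L)
    (J : Pl F L → L →+* LaurentSeries F) (hJ : ∀ z ∈ Z, IsDisc (hρ z) (T z) (J z))
    (hz : ∀ z ∈ Z, At (hρ z) (J z) 0 z) (r : Pl F L → ℝ) (hr : ∀ z ∈ Z, 0 < r z) :
    ∃ δ > 0, ∀ α' β' : Fin m → F, (∀ j, ‖α' j - c j‖ < δ) → (∀ j, ‖β' j - c' j‖ < δ) →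
      ∀ w : Pl F L, w.v ((∑ j, algebraMap F L (α' j) * b j) -
          algebraMap F L n * ∑ j, algebraMap F L (β' j) * b j) <
          w.v (∑ j, algebraMap F L (β' j) * b j) →
        ∃ z ∈ Z, ∃ t : F, ‖t‖ < r z ∧ At (hρ z) (J z) t w := by
  classical
  set D := A - algebraMap F L n * B with hD
  -- the functions `b j / D` are bounded outside the discs
  have hg : ∀ j : Fin m, ∃ M : ℝ, ∀ w : Pl F L,
      (∀ z ∈ Z, ¬ ∃ t : F, ‖t‖ < r z ∧ At (hρ z) (J z) t w) →
      ∃ x : F, ‖x‖ ≤ M ∧ w.v (b j / D - algebraMap F L x) < 1 := by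
    intro j
    refine bounded_off Z ρ hρ T J hJ hz r hr (b j / D) fun w hw => ?_
    have h1 : max (w.v A) (w.v B) ≤ w.v D := by
      by_contra h
      exact hw (hZ w (not_le.mp h))
    rw [map_div₀]
    exact div_le_one_of_le₀ ((nobp w j).trans h1) zero_le
  choose M hM using hg
  obtain ⟨M0, hM00, hM0⟩ : ∃ M0 : ℝ, 0 < M0 ∧ ∀ j, M j ≤ M0 := by
    refine ⟨∑ j, |M j| + 1, by positivity, fun j => ?_⟩
    have := Finset.single_le_sum (f := fun j => |M j|) (fun _ _ => abs_nonneg _) (Finset.mem_univ j)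
    have h2 := le_abs_self (M j)
    linarith
  set X := max 1 ‖n‖ with hX
  have hX0 : 0 < X := lt_of_lt_of_le one_pos (le_max_left _ _)
  refine ⟨(X * M0)⁻¹, inv_pos.mpr (mul_pos hX0 hM00), fun α' β' hα hβ w hw => ?_⟩
  by_contra hcon
  push Not at hcon
  have hout : ∀ z ∈ Z, ¬ ∃ t : F, ‖t‖ < r z ∧ At (hρ z) (J z) t w := by
    rintro z hzZ ⟨t, ht, hat⟩
    exact hcon z hzZ t ht hat
  choose x hx hxw using fun j => hM j w hout
  -- the value of `D' / D` at `w`
  set A' := ∑ j, algebraMap F L (α' j) * b j with hA'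
  set B' := ∑ j, algebraMap F L (β' j) * b j with hB'
  set e : Fin m → F := fun j => (α' j - c j) - n * (β' j - c' j) with he
  have he1 : ∀ j, ‖e j‖ * M0 < 1 := by
    intro j
    have h1 : ‖e j‖ < M0⁻¹ := by
      have h2 : ‖n * (β' j - c' j)‖ < M0⁻¹ := by
        rw [norm_mul]
        calc ‖n‖ * ‖β' j - c' j‖ ≤ X * ‖β' j - c' j‖ := by gcongr; exact le_max_right _ _
          _ < X * (X * M0)⁻¹ := by
              apply mul_lt_mul_of_pos_left (hβ j) hX0
          _ = M0⁻¹ := by field_simp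
      have h3 : ‖α' j - c j‖ < M0⁻¹ := by
        refine (hα j).trans_le ?_
        rw [mul_inv]
        calc X⁻¹ * M0⁻¹ ≤ 1 * M0⁻¹ := by
              gcongr
              exact inv_le_one_of_one_le₀ (le_max_left _ _)
          _ = M0⁻¹ := one_mul _
      have h4 := IsUltrametricDist.norm_add_le_max (α' j - c j) (-(n * (β' j - c' j)))
      rw [← sub_eq_add_neg, norm_neg] at h4
      exact h4.trans_lt (max_lt h3 h2)
    calc ‖e j‖ * M0 < M0⁻¹ * M0 := mul_lt_mul_of_pos_right h1 hM00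
      _ = 1 := inv_mul_cancel₀ hM00.ne'
  have hD' : A' - algebraMap F L n * B' = D + ∑ j, algebraMap F L (e j) * b j := by
    rw [hD, hA, hB, hA', hB', Finset.mul_sum, Finset.mul_sum, ← Finset.sum_sub_distrib,
      ← Finset.sum_sub_distrib, ← Finset.sum_add_distrib]
    refine Finset.sum_congr rfl fun j _ => ?_
    simp only [he, map_sub, map_mul]
    ring
  -- value `y = Σ e_j x_j`, `‖y‖ < 1`
  have hy : ‖∑ j, e j * x j‖ < 1 := by
    rcases Nat.eq_zero_or_pos m with hm | hm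
    · subst hm; simp
    · have : Nonempty (Fin m) := ⟨⟨0, hm⟩⟩
      obtain ⟨j, -, hj⟩ := IsUltrametricDist.exists_norm_finsetSum_le_of_nonempty
        (Finset.univ_nonempty (α := Fin m)) (fun j => e j * x j)
      refine hj.trans_lt ?_
      rw [norm_mul]
      calc ‖e j‖ * ‖x j‖ ≤ ‖e j‖ * M0 := by
            gcongr
            exact (hx j).trans (hM0 j)
        _ < 1 := he1 j
  have hconst : ∀ a : F, w.v (algebraMap F L a) ≤ 1 := by
    intro a
    by_cases hc0 : a = 0
    · rw [hc0, map_zero, map_zero]; exact zero_le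
    · exact (w.const a hc0).le
  have hsum : w.v ((∑ j, algebraMap F L (e j) * b j) / D - algebraMap F L (∑ j, e j * x j)) < 1 := by
    have h1 : (∑ j, algebraMap F L (e j) * b j) / D - algebraMap F L (∑ j, e j * x j) =
        ∑ j, algebraMap F L (e j) * (b j / D - algebraMap F L (x j)) := by
      rw [Finset.sum_div, map_sum, ← Finset.sum_sub_distrib]
      refine Finset.sum_congr rfl fun j _ => ?_
      rw [map_mul]; ring
    rw [h1]
    refine Valuation.map_sum_lt _ one_ne_zero fun j _ => ?_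
    rw [map_mul]
    exact (mul_le_of_le_one_left' (hconst _)).trans_lt (hxw j)
  have hone : w.v ((A' - algebraMap F L n * B') / D) = 1 := by
    have h1 : (A' - algebraMap F L n * B') / D =
        ((∑ j, algebraMap F L (e j) * b j) / D - algebraMap F L (∑ j, e j * x j)) +
          algebraMap F L (1 + ∑ j, e j * x j) := by
      rw [hD', add_div, div_self hD0, map_add, map_one]; ring
    have h2 : (1 : F) + ∑ j, e j * x j ≠ 0 := by
      intro h0
      have h3 : ∑ j, e j * x j = -1 := by linear_combination h0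
      rw [h3, norm_neg, norm_one] at hy
      exact lt_irrefl _ hy
    have h3 := w.const _ h2
    rw [h1, Valuation.map_add_eq_of_lt_right, h3]
    rwa [h3]
  have hDw : w.v (A' - algebraMap F L n * B') = w.v D := by
    rw [map_div₀, div_eq_one_iff_eq ((Valuation.ne_zero_iff _).mpr hD0)] at hone
    exact hone
  have hbj : ∀ j, w.v (b j) ≤ w.v D := by
    intro j
    have h1 : w.v (b j / D) ≤ 1 := by
      have h2 : b j / D = (b j / D - algebraMap F L (x j)) + algebraMap F L (x j) := by ring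
      rw [h2]
      exact w.v.map_add_le (hxw j).le (hconst _)
    rw [map_div₀] at h1
    exact (div_le_one₀ (zero_lt_iff.mpr ((Valuation.ne_zero_iff _).mpr hD0))).mp h1
  have hB'w : w.v B' ≤ w.v D := by
    rw [hB']
    refine Valuation.map_sum_le _ fun j _ => ?_
    rw [map_mul]
    exact (mul_le_of_le_one_left' (hconst _)).trans (hbj j)
  rw [hDw] at hw
  exact absurd hw (not_lt.mpr hB'w)

end Main

end Crest.Agent.R013.DU_948
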