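import Crest.Agent.R013.Small3_940

/-!
# R013 / DUni1: composition of bounded power series with `X + e`, `e` small (helper429)

D-LINE, step B (U3) of 906 #4158.  `F` complete, ultrametric.
* `cmp s f = f ∘ s`, `ev_cmp`, `bd_cmp`;
* `phi he hε : bsub R ≃+* bsub R`, `f ↦ f (X + e)` for `Bd R ε e`, `ε < R`; isometric, and
  `phi f - f` has the bound `(ε / R) * |f|`.
-/

set_option autoImplicit false
set_option linter.unusedSectionVars false

namespace Crest.Agent.R013.DUni_429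

open PowerSeries Filter
open scoped NNReal Topology
open Crest.Agent.R013.KAS2_940 (Bd bd_zero bd_one bd_C)
open Crest.Agent.R013.KAS2_940
open Crest.Agent.R013.KAS3_940 Crest.Agent.R013.Good1_940
open Crest.Agent.R013.Good3_940
open Crest.Agent.R013.LemD_323 (shift ev_shift)

variable {F : Type*} [NontriviallyNormedField F]

/-- composition `f ∘ s` -/
noncomputable def cmp (s f : F⟦X⟧) : F⟦X⟧ := mk fun m => ∑' n, coeff n f * coeff m (s ^ n)

theorem coeff_cmp (s f : F⟦X⟧) (m : ℕ) :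
    coeff m (cmp s f) = ∑' n, coeff n f * coeff m (s ^ n) := coeff_mk _ _

/-- a bound at all the radii `r < R` is a bound at `R` -/
theorem bd_of_lt {R B r0 : ℝ} {f : F⟦X⟧} (hr0 : r0 < R) (h : ∀ r, r0 < r → r < R → Bd r B f) :
    Bd R B f := by
  intro m
  have h1 : Tendsto (fun r : ℝ => ‖coeff m f‖ * r ^ m) (𝓝[<] R) (𝓝 (‖coeff m f‖ * R ^ m)) := by
    have : Continuous fun r : ℝ => ‖coeff m f‖ * r ^ m := by fun_prop
    exact (this.tendsto R).mono_left nhdsWithin_le_nhds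
  refine le_of_tendsto h1 ?_
  filter_upwards [Ioo_mem_nhdsLT hr0] with r hr
  exact h r hr.1 hr.2 m

variable [IsUltrametricDist F]

theorem term_le {R B r σ : ℝ} (hR : 0 < R) (hr : 0 < r) {f s : F⟦X⟧} (hf : Bd R B f)
    (hs : Bd r σ s) (n m : ℕ) :
    ‖coeff n f * coeff m (s ^ n)‖ * r ^ m ≤ B * (σ / R) ^ n := by
  have hσ : 0 ≤ σ := hs.nonneg
  have h1 := hf n
  have h2 := hs.pow hr n m
  have h3 : ‖coeff n f‖ ≤ B / R ^ n := by rwa [le_div_iff₀ (by positivity)]
  rw [norm_mul, div_pow, mul_assoc]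
  calc ‖coeff n f‖ * (‖coeff m (s ^ n)‖ * r ^ m) ≤ B / R ^ n * σ ^ n :=
        mul_le_mul h3 h2 (by positivity) ((norm_nonneg _).trans h3)
    _ = B * (σ ^ n / R ^ n) := by ring

theorem norm_evl_le {r σ : ℝ} {s : F⟦X⟧} (hs : Bd r σ s) {t : F} (ht : ‖t‖ ≤ r) :
    ‖LemD_323.ev s t‖ ≤ σ := by
  refine IsUltrametricDist.norm_tsum_le_of_forall_le_of_nonneg hs.nonneg fun n => ?_
  rw [norm_mul, norm_pow]
  refine le_trans ?_ (hs n)
  gcongr

variable [CompleteSpace F]

theorem evl_pow {r σ : ℝ} (hr : 0 < r) {s : F⟦X⟧} (hs : Bd r σ s) {t : F} (ht : ‖t‖ < r) (n : ℕ) :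
    LemD_323.ev (s ^ n) t = LemD_323.ev s t ^ n := by
  induction n with
  | zero =>
    rw [pow_zero, pow_zero, ev_eq]
    have := tsum_C' (k := F) (E := F) (x := t) 1
    rwa [map_one, map_one] at this
  | succ n ih => rw [pow_succ, pow_succ, ev_mul (hs.pow hr n) hs ht, ih]

theorem evl_add {r C D : ℝ} {f g : F⟦X⟧} (hf : Bd r C f) (hg : Bd r D g) {t : F} (ht : ‖t‖ < r) :
    LemD_323.ev (f + g) t = LemD_323.ev f t + LemD_323.ev g t := by
  rw [ev_eq, ev_eq, ev_eq]
  exact tsum_add' (E := F) hf hg ht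

theorem evl_C (a t : F) : LemD_323.ev (C a) t = a := by
  rw [ev_eq]
  exact tsum_C' (k := F) (E := F) (x := t) a

theorem evl_X (t : F) : LemD_323.ev X t = t := by
  rw [ev_eq]
  exact tsum_X' (k := F) (E := F) (x := t)

theorem evl_one (t : F) : LemD_323.ev 1 t = 1 := by
  have := evl_C 1 t
  rwa [map_one] at this

theorem bd_cmp {R B r σ : ℝ} (hR : 0 < R) (hr : 0 < r) {f s : F⟦X⟧} (hf : Bd R B f)
    (hs : Bd r σ s) (hσ : σ ≤ R) : Bd r B (cmp s f) := by
  intro m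
  rw [coeff_cmp, ← le_div_iff₀ (by positivity)]
  have hσ0 : 0 ≤ σ := hs.nonneg
  refine IsUltrametricDist.norm_tsum_le_of_forall_le_of_nonneg
    (div_nonneg hf.nonneg (by positivity)) fun n => ?_
  rw [le_div_iff₀ (by positivity)]
  refine (term_le hR hr hf hs n m).trans ?_
  have h1 : (σ / R) ^ n ≤ 1 := pow_le_one₀ (by positivity) ((div_le_one hR).mpr hσ)
  calc B * (σ / R) ^ n ≤ B * 1 := mul_le_mul_of_nonneg_left h1 hf.nonneg
    _ = B := mul_one B

/-- **evaluation of a composition** -/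
theorem ev_cmp {R B r σ : ℝ} (hR : 0 < R) {f s : F⟦X⟧} (hf : Bd R B f)
    (hs : Bd r σ s) (hσ : σ < R) {t : F} (ht : ‖t‖ < r) :
    LemD_323.ev (cmp s f) t = LemD_323.ev f (LemD_323.ev s t) := by
  have hr : 0 < r := (norm_nonneg t).trans_lt ht
  have hσ0 : 0 ≤ σ := hs.nonneg
  obtain ⟨T, hTdef⟩ : ∃ T : ℕ → ℕ → F, ∀ n m, T n m = coeff n f * coeff m (s ^ n) * t ^ m :=
    ⟨_, fun _ _ => rfl⟩
  have hT : Summable (Function.uncurry T) := by
    have h1 : Summable fun x : ℕ × ℕ => B * ((σ / R) ^ x.1 * (‖t‖ / r) ^ x.2) := by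
      refine Summable.mul_left _ ?_
      refine Summable.mul_of_nonneg (f := fun n => (σ / R) ^ n) (g := fun m => (‖t‖ / r) ^ m)
        (summable_geometric_of_lt_one (by positivity) ((div_lt_one hR).mpr hσ))
        (summable_geometric_of_lt_one (by positivity) ((div_lt_one hr).mpr ht))
        (fun _ => by positivity) (fun _ => by positivity)
    refine Summable.of_norm_bounded h1 ?_
    rintro ⟨n, m⟩
    rw [Function.uncurry_apply_pair, hTdef, norm_mul, norm_pow]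
    have h2 := term_le hR hr hf hs n m
    calc ‖coeff n f * coeff m (s ^ n)‖ * ‖t‖ ^ m
        = ‖coeff n f * coeff m (s ^ n)‖ * r ^ m * (‖t‖ / r) ^ m := by
          rw [div_pow]; field_simp
      _ ≤ B * (σ / R) ^ n * (‖t‖ / r) ^ m := by gcongr
      _ = B * ((σ / R) ^ n * (‖t‖ / r) ^ m) := by ring
  have h1 : LemD_323.ev (cmp s f) t = ∑' m, ∑' n, T n m := by
    unfold LemD_323.ev
    refine tsum_congr fun m => ?_
    rw [coeff_cmp, ← tsum_mul_right]
    exact tsum_congr fun n => (hTdef n m).symm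
  have h2 : LemD_323.ev f (LemD_323.ev s t) = ∑' n, ∑' m, T n m := by
    conv_lhs => unfold LemD_323.ev
    refine tsum_congr fun n => ?_
    have h3 : LemD_323.ev s t ^ n = ∑' m, coeff m (s ^ n) * t ^ m := (evl_pow hr hs ht n).symm
    change coeff n f * LemD_323.ev s t ^ n = _
    rw [h3, ← tsum_mul_left]
    refine tsum_congr fun m => ?_
    rw [hTdef, mul_assoc]
  rw [h1, h2]
  exact (Summable.tsum_comm (f := fun n m => T n m) hT)

section Hom

variable {R ε : ℝ} {e : F⟦X⟧}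

theorem bd_X_add (he : Bd R ε e) {r : ℝ} (hr : 0 < r) (hεr : ε ≤ r) (hrR : r ≤ R) :
    Bd r r (X + e) := by
  have h1 : Bd r r (X : F⟦X⟧) := by
    intro m
    rw [coeff_X]
    split_ifs with h
    · rw [h, norm_one, one_mul, pow_one]
    · rw [norm_zero, zero_mul]; exact hr.le
  exact h1.add hr.le ((he.mono_left hr.le hrR).mono hεr)

/-- radii between `max ε 0` and `R` -/
theorem exists_mid (hR : 0 < R) (hε : ε < R) {t : F} (ht : ‖t‖ < R) :
    ∃ r, 0 < r ∧ ε ≤ r ∧ r < R ∧ ‖t‖ < r := by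
  obtain ⟨r, h1, h2⟩ := exists_between (max_lt (max_lt hε ht) hR)
  exact ⟨r, (le_max_right _ _).trans_lt h1, ((le_max_left _ _).trans (le_max_left _ _)).trans h1.le,
    h2, ((le_max_right _ _).trans (le_max_left _ _)).trans_lt h1⟩

theorem norm_ev_X_add (he : Bd R ε e) (hR : 0 < R) (hε : ε < R) {t : F} (ht : ‖t‖ < R) :
    ‖LemD_323.ev (X + e) t‖ < R := by
  obtain ⟨r, h1, h2, h3, h4⟩ := exists_mid hR hε ht
  exact (norm_evl_le (bd_X_add he h1 h2 h3.le) h4.le).trans_lt h3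

theorem ev_cmp' (he : Bd R ε e) (hR : 0 < R) (hε : ε < R) {B : ℝ} {f : F⟦X⟧} (hf : Bd R B f)
    {t : F} (ht : ‖t‖ < R) :
    LemD_323.ev (cmp (X + e) f) t = LemD_323.ev f (LemD_323.ev (X + e) t) := by
  obtain ⟨r, h1, h2, h3, h4⟩ := exists_mid hR hε ht
  exact ev_cmp hR hf (bd_X_add he h1 h2 h3.le) h3 h4

theorem bd_cmp' (he : Bd R ε e) (hR : 0 < R) (hε : ε < R) {B : ℝ} {f : F⟦X⟧} (hf : Bd R B f) :
    Bd R B (cmp (X + e) f) := by
  refine bd_of_lt (max_lt hε hR) fun r h1 h2 => ?_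
  have hr : 0 < r := (le_max_right _ _).trans_lt h1
  exact bd_cmp hR hr hf (bd_X_add he hr ((le_max_left _ _).trans h1.le) h2.le) h2.le

theorem bd_pow_sub {r : ℝ} (hr : 0 < r) {s t : F⟦X⟧} (hs : Bd r r s) (ht : Bd r r t) {δ : ℝ}
    (h : Bd r δ (s - t)) (n : ℕ) : Bd r (δ * r ^ n) (s ^ (n + 1) - t ^ (n + 1)) := by
  induction n with
  | zero => simpa using h
  | succ n ih =>
    have h1 : s ^ (n + 1 + 1) - t ^ (n + 1 + 1) =
        (s ^ (n + 1) - t ^ (n + 1)) * s + (s - t) * t ^ (n + 1) := by ring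
    rw [h1]
    refine Bd.add hr.le ((ih.mul hr hs).mono (le_of_eq (by ring))) ?_
    exact (h.mul hr (ht.pow hr (n + 1)))

theorem bd_cmp_sub (he : Bd R ε e) (hR : 0 < R) (hε : ε < R) {B : ℝ} {f : F⟦X⟧} (hf : Bd R B f) :
    Bd R (ε / R * B) (cmp (X + e) f - f) := by
  have hε0 : 0 ≤ ε := he.nonneg
  have hB0 : 0 ≤ B := hf.nonneg
  refine bd_of_lt (max_lt hε hR) fun r h1 h2 => ?_
  have hr : 0 < r := (le_max_right _ _).trans_lt h1
  have hεr : ε ≤ r := (le_max_left _ _).trans h1.le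
  have hX : Bd r r (X : F⟦X⟧) := by
    have := bd_X_add (F := F) (bd_zero (r := R) le_rfl) hr hr.le h2.le
    rwa [add_zero] at this
  have hs := bd_X_add he hr hεr h2.le
  have hd : Bd r ε (X + e - X) := by
    rw [add_sub_cancel_left]
    exact he.mono_left hr.le h2.le
  intro m
  have h3 : coeff m (cmp (X + e) f - f) =
      ∑' n, coeff n f * coeff m ((X + e) ^ n - X ^ n) := by
    have hsum : ∀ s : F⟦X⟧, Bd r r s → Summable fun n => coeff n f * coeff m (s ^ n) := by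
      intro s hs
      refine Summable.of_norm_bounded (g := fun n => B / r ^ m * (r / R) ^ n)
        (Summable.mul_left _ (summable_geometric_of_lt_one (by positivity)
          ((div_lt_one hR).mpr h2))) fun n => ?_
      have := term_le hR hr hf hs n m
      rw [← le_div_iff₀ (by positivity)] at this
      refine this.trans (le_of_eq (by ring))
    have h4 : coeff m f = ∑' n, coeff n f * coeff m ((X : F⟦X⟧) ^ n) := by
      rw [tsum_eq_single m]
      · rw [coeff_X_pow, if_pos rfl, mul_one]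
      · intro n hn
        rw [coeff_X_pow, if_neg (Ne.symm hn), mul_zero]
    rw [map_sub, coeff_cmp]
    conv_lhs => rw [h4]
    rw [← (hsum _ hs).tsum_sub (hsum _ hX)]
    refine tsum_congr fun n => ?_
    rw [map_sub]; ring
  rw [h3, ← le_div_iff₀ (by positivity)]
  refine IsUltrametricDist.norm_tsum_le_of_forall_le_of_nonneg (by positivity) fun n => ?_
  rw [le_div_iff₀ (by positivity), norm_mul]
  rcases n with _ | n
  · rw [pow_zero, pow_zero, sub_self, map_zero, norm_zero, mul_zero, zero_mul]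
    positivity
  · have h5 := bd_pow_sub hr hs hX hd n m
    have h6 : ‖coeff (n + 1) f‖ ≤ B / R ^ (n + 1) := by
      rw [le_div_iff₀ (by positivity)]; exact hf (n + 1)
    calc ‖coeff (n + 1) f‖ * ‖coeff m ((X + e) ^ (n + 1) - X ^ (n + 1))‖ * r ^ m
        = ‖coeff (n + 1) f‖ * (‖coeff m ((X + e) ^ (n + 1) - X ^ (n + 1))‖ * r ^ m) := by ring
      _ ≤ B / R ^ (n + 1) * (ε * r ^ n) := by gcongr
      _ ≤ B / R ^ (n + 1) * (ε * R ^ n) := by gcongr
      _ = ε / R * B := by field_simp; ring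

/-! ### the ring automorphism -/

theorem cmp_one (he : Bd R ε e) (hR : 0 < R) (hε : ε < R) : cmp (X + e) (1 : F⟦X⟧) = 1 := by
  refine eq_of_ev hR (bd_cmp' he hR hε bd_one) bd_one fun t ht => ?_
  rw [ev_cmp' he hR hε bd_one ht, evl_one, evl_one]

theorem cmp_zero (he : Bd R ε e) (hR : 0 < R) (hε : ε < R) : cmp (X + e) (0 : F⟦X⟧) = 0 := by
  refine eq_of_ev hR (bd_cmp' he hR hε (bd_zero le_rfl)) (bd_zero le_rfl) fun t ht => ?_
  rw [ev_cmp' he hR hε (bd_zero le_rfl) ht]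
  simp [LemD_323.ev]

theorem cmp_add (he : Bd R ε e) (hR : 0 < R) (hε : ε < R) {B D : ℝ} {f g : F⟦X⟧} (hf : Bd R B f)
    (hg : Bd R D g) : cmp (X + e) (f + g) = cmp (X + e) f + cmp (X + e) g := by
  have hfg : Bd R (max B D) (f + g) :=
    (hf.mono (le_max_left _ _)).add hR.le (hg.mono (le_max_right _ _))
  refine eq_of_ev hR (bd_cmp' he hR hε hfg)
    (((bd_cmp' he hR hε hf).mono (le_max_left _ _)).add hR.le
      ((bd_cmp' he hR hε hg).mono (le_max_right _ _))) fun t ht => ?_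
  rw [ev_cmp' he hR hε hfg ht, evl_add hf hg (norm_ev_X_add he hR hε ht),
    evl_add (bd_cmp' he hR hε hf) (bd_cmp' he hR hε hg) ht, ev_cmp' he hR hε hf ht,
    ev_cmp' he hR hε hg ht]

theorem cmp_mul (he : Bd R ε e) (hR : 0 < R) (hε : ε < R) {B D : ℝ} {f g : F⟦X⟧} (hf : Bd R B f)
    (hg : Bd R D g) : cmp (X + e) (f * g) = cmp (X + e) f * cmp (X + e) g := by
  have hfg : Bd R (B * D) (f * g) := hf.mul hR hg
  refine eq_of_ev hR (bd_cmp' he hR hε hfg)
    ((bd_cmp' he hR hε hf).mul hR (bd_cmp' he hR hε hg)) fun t ht => ?_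
  rw [ev_cmp' he hR hε hfg ht, ev_mul hf hg (norm_ev_X_add he hR hε ht),
    ev_mul (bd_cmp' he hR hε hf) (bd_cmp' he hR hε hg) ht, ev_cmp' he hR hε hf ht,
    ev_cmp' he hR hε hg ht]

theorem cmp_mem (he : Bd R ε e) (hR : 0 < R) (hε : ε < R) (f : bsub (K := F) R hR) :
    cmp (X + e) f.1 ∈ bsub (K := F) R hR := by
  obtain ⟨B, hB⟩ := f.2
  exact ⟨B, bd_cmp' he hR hε hB⟩

/-- `f ↦ f (X + e)` on the bounded power series -/
noncomputable def phiHom (he : Bd R ε e) (hR : 0 < R) (hε : ε < R) :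
    bsub (K := F) R hR →+* bsub (K := F) R hR where
  toFun f := ⟨cmp (X + e) f.1, cmp_mem he hR hε f⟩
  map_one' := Subtype.ext (cmp_one he hR hε)
  map_zero' := Subtype.ext (cmp_zero he hR hε)
  map_add' f g := Subtype.ext (by
    obtain ⟨B, hf⟩ := f.2
    obtain ⟨D, hg⟩ := g.2
    exact cmp_add he hR hε hf hg)
  map_mul' f g := Subtype.ext (by
    obtain ⟨B, hf⟩ := f.2
    obtain ⟨D, hg⟩ := g.2
    exact cmp_mul he hR hε hf hg)

variable (he : Bd R ε e) (hR : 0 < R) (hε : ε < R)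

theorem coe_phiHom (f : bsub (K := F) R hR) : (phiHom he hR hε f : F⟦X⟧) = cmp (X + e) f.1 := rfl

theorem phiHom_C (c : F) : phiHom he hR hε ⟨C c, C_mem c⟩ = ⟨C c, C_mem c⟩ := Subtype.ext (by
  rw [coe_phiHom]
  refine eq_of_ev hR (bd_cmp' he hR hε (bd_C c)) (bd_C c) fun t ht => ?_
  rw [ev_cmp' he hR hε (bd_C c) ht, evl_C, evl_C])

theorem bd_X' (hR : 0 < R) : Bd R R (X : F⟦X⟧) := by
  have := bd_X_add (F := F) (bd_zero (r := R) le_rfl) hR hR.le le_rfl
  rwa [add_zero] at this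

theorem phiHom_X : (phiHom he hR hε ⟨X, X_mem⟩ : F⟦X⟧) = X + e := by
  rw [coe_phiHom]
  refine eq_of_ev hR (bd_cmp' he hR hε (bd_X' hR)) (bd_X_add he hR hε.le le_rfl) fun t ht => ?_
  rw [ev_cmp' he hR hε (bd_X' hR) ht, evl_X]

theorem bd_phiHom_sub {B : ℝ} (f : bsub (K := F) R hR) (hf : Bd R B f.1) :
    Bd R (ε / R * B) ((phiHom he hR hε f : F⟦X⟧) - f.1) := bd_cmp_sub he hR hε hf

/-- **isometry** -/
theorem bd_of_phiHom {B : ℝ} (f : bsub (K := F) R hR) (hf : Bd R B (phiHom he hR hε f : F⟦X⟧)) :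
    Bd R B f.1 := by
  have hε0 : 0 ≤ ε := he.nonneg
  obtain ⟨B0, hB0⟩ := f.2
  have h1 : ∀ n : ℕ, Bd R (max B ((ε / R) ^ n * B0)) f.1 := by
    intro n
    induction n with
    | zero => exact hB0.mono (by rw [pow_zero, one_mul]; exact le_max_right _ _)
    | succ n ih =>
      have h2 := (bd_phiHom_sub he hR hε f ih)
      have h3 : f.1 = (phiHom he hR hε f : F⟦X⟧) - ((phiHom he hR hε f : F⟦X⟧) - f.1) := by ring
      rw [h3]
      refine Bd.sub hR.le (hf.mono (le_max_left _ _)) (h2.mono ?_)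
      have hθ : ε / R ≤ 1 := (div_le_one hR).mpr hε.le
      rw [mul_max_of_nonneg _ _ (by positivity)]
      refine max_le_max ?_ (le_of_eq (by ring))
      calc ε / R * B ≤ 1 * B := mul_le_mul_of_nonneg_right hθ hf.nonneg
        _ = B := one_mul B
  intro m
  have h4 : Tendsto (fun n : ℕ => max B ((ε / R) ^ n * B0)) atTop (𝓝 (max B (0 * B0))) := by
    refine Tendsto.max tendsto_const_nhds (Tendsto.mul_const _ ?_)
    exact tendsto_pow_atTop_nhds_zero_of_lt_one (by positivity) ((div_lt_one hR).mpr hε)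
  rw [zero_mul, max_eq_left hf.nonneg] at h4
  exact ge_of_tendsto' h4 fun n => h1 n m

theorem phiHom_injective : Function.Injective (phiHom he hR hε) := by
  rw [injective_iff_map_eq_zero]
  intro f hf
  have h1 : Bd R 0 (phiHom he hR hε f : F⟦X⟧) := by
    rw [hf]; exact bd_zero le_rfl
  have h2 := bd_of_phiHom he hR hε f h1
  refine Subtype.ext (PowerSeries.ext fun m => ?_)
  have h3 := h2 m
  have h4 : ‖coeff m f.1‖ = 0 := by
    have h5 : 0 ≤ ‖coeff m f.1‖ * R ^ m := by positivity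
    have h6 : ‖coeff m f.1‖ * R ^ m = 0 := le_antisymm h3 h5
    exact (mul_eq_zero.mp h6).resolve_right (by positivity)
  rw [norm_eq_zero.mp h4]
  exact (map_zero _).symm

/-- `f - phi f` -/
noncomputable def psi (f : bsub (K := F) R hR) : bsub (K := F) R hR := f - phiHom he hR hε f

theorem bd_psi {B : ℝ} (f : bsub (K := F) R hR) (hf : Bd R B f.1) :
    Bd R (ε / R * B) (psi he hR hε f : F⟦X⟧) := by
  have := (bd_phiHom_sub he hR hε f hf).neg
  rw [neg_sub] at this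
  exact this

theorem bd_iter {B : ℝ} (f : bsub (K := F) R hR) (hf : Bd R B f.1) (n : ℕ) :
    Bd R ((ε / R) ^ n * B) ((psi he hR hε)^[n] f : F⟦X⟧) := by
  induction n with
  | zero => rw [pow_zero, one_mul]; exact hf
  | succ n ih =>
    rw [Function.iterate_succ_apply', pow_succ', mul_assoc]
    exact bd_psi he hR hε _ ih

theorem phiHom_surjective : Function.Surjective (phiHom he hR hε) := by
  intro f
  have hε0 : 0 ≤ ε := he.nonneg
  obtain ⟨B, hB⟩ := f.2
  have hB0 : 0 ≤ B := hB.nonneg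
  obtain ⟨T, hT⟩ : ∃ T : ℕ → bsub (K := F) R hR, ∀ n, T n = (psi he hR hε)^[n] f := ⟨_, fun _ => rfl⟩
  have hTb : ∀ n, Bd R ((ε / R) ^ n * B) (T n : F⟦X⟧) := fun n => by
    rw [hT]; exact bd_iter he hR hε f hB n
  have hθ0 : 0 ≤ ε / R := by positivity
  have hθ1 : ε / R < 1 := (div_lt_one hR).mpr hε
  have hsum : ∀ m, Summable fun n => coeff m (T n : F⟦X⟧) := by
    intro m
    refine Summable.of_norm_bounded (g := fun n => B / R ^ m * (ε / R) ^ n)
      (Summable.mul_left _ (summable_geometric_of_lt_one hθ0 hθ1)) fun n => ?_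
    have := hTb n m
    rw [← le_div_iff₀ (by positivity)] at this
    exact this.trans (le_of_eq (by ring))
  -- the limit
  obtain ⟨g0, hg0⟩ : ∃ g0 : F⟦X⟧, ∀ m, coeff m g0 = ∑' n, coeff m (T n : F⟦X⟧) :=
    ⟨mk fun m => ∑' n, coeff m (T n : F⟦X⟧), fun m => coeff_mk _ _⟩
  have htail : ∀ N : ℕ, Bd R ((ε / R) ^ N * B)
      (g0 - ((∑ n ∈ Finset.range N, T n : bsub (K := F) R hR) : F⟦X⟧)) := by
    intro N m
    have h1 : coeff m (g0 - ((∑ n ∈ Finset.range N, T n : bsub (K := F) R hR) : F⟦X⟧)) =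
        ∑' n, coeff m (T (n + N) : F⟦X⟧) := by
      rw [map_sub, hg0, ← (hsum m).sum_add_tsum_nat_add N]
      rw [show ((∑ n ∈ Finset.range N, T n : bsub (K := F) R hR) : F⟦X⟧) =
        ∑ n ∈ Finset.range N, (T n : F⟦X⟧) from by
          rw [← Subring.coe_subtype, map_sum]]
      rw [map_sum]
      ring
    rw [h1, ← le_div_iff₀ (by positivity)]
    refine IsUltrametricDist.norm_tsum_le_of_forall_le_of_nonneg (by positivity) fun n => ?_
    rw [le_div_iff₀ (by positivity)]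
    refine (hTb (n + N) m).trans ?_
    rw [pow_add]
    have h2 : (ε / R) ^ n ≤ 1 := pow_le_one₀ hθ0 hθ1.le
    calc (ε / R) ^ n * (ε / R) ^ N * B ≤ 1 * (ε / R) ^ N * B := by gcongr
      _ = (ε / R) ^ N * B := by ring
  have hg0b : g0 ∈ bsub (K := F) R hR := by
    have h1 := htail 0
    simp only [Finset.range_zero, Finset.sum_empty, ZeroMemClass.coe_zero, sub_zero] at h1
    exact ⟨_, h1⟩
  refine ⟨⟨g0, hg0b⟩, ?_⟩
  -- telescoping
  have htel : ∀ N : ℕ, phiHom he hR hε (∑ n ∈ Finset.range N, T n) = f - T N := by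
    intro N
    induction N with
    | zero => rw [Finset.sum_range_zero, map_zero, hT]; simp
    | succ N ih =>
      rw [Finset.sum_range_succ, map_add, ih]
      have h1 : T (N + 1) = T N - phiHom he hR hε (T N) := by
        rw [hT, hT, Function.iterate_succ_apply']; rfl
      rw [h1]; ring
  have hfin : ∀ N : ℕ, Bd R ((ε / R) ^ N * B) ((phiHom he hR hε ⟨g0, hg0b⟩ - f :
      bsub (K := F) R hR) : F⟦X⟧) := by
    intro N
    have h1 : phiHom he hR hε ⟨g0, hg0b⟩ - f =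
        phiHom he hR hε (⟨g0, hg0b⟩ - ∑ n ∈ Finset.range N, T n) - T N := by
      rw [map_sub, htel]; ring
    rw [h1]
    exact (bd_cmp' he hR hε (htail N)).sub hR.le (hTb N)
  have h5 : ∀ m, coeff m ((phiHom he hR hε ⟨g0, hg0b⟩ - f : bsub (K := F) R hR) : F⟦X⟧) = 0 := by
    intro m
    have h6 : Tendsto (fun N : ℕ => (ε / R) ^ N * B) atTop (𝓝 (0 * B)) :=
      (tendsto_pow_atTop_nhds_zero_of_lt_one hθ0 hθ1).mul_const _
    rw [zero_mul] at h6
    have h7 := ge_of_tendsto' h6 fun N => hfin N m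
    have h8 : ‖coeff m ((phiHom he hR hε ⟨g0, hg0b⟩ - f : bsub (K := F) R hR) : F⟦X⟧)‖ * R ^ m = 0 :=
      le_antisymm h7 (by positivity)
    exact norm_eq_zero.mp ((mul_eq_zero.mp h8).resolve_right (by positivity))
  have h9 : phiHom he hR hε ⟨g0, hg0b⟩ - f = 0 :=
    Subtype.ext (PowerSeries.ext fun m => by rw [h5 m]; simp)
  exact sub_eq_zero.mp h9

/-- **the automorphism `f ↦ f (X + e)` of the ring of bounded power series** -/
noncomputable def phi : bsub (K := F) R hR ≃+* bsub (K := F) R hR :=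
  RingEquiv.ofBijective (phiHom he hR hε) ⟨phiHom_injective he hR hε, phiHom_surjective he hR hε⟩

theorem phi_apply (f : bsub (K := F) R hR) : phi he hR hε f = phiHom he hR hε f := rfl

theorem phiHom_symm (f : bsub (K := F) R hR) : phiHom he hR hε ((phi he hR hε).symm f) = f :=
  (phi he hR hε).apply_symm_apply f

theorem bd_symm {B : ℝ} (f : bsub (K := F) R hR) (hf : Bd R B f.1) :
    Bd R B ((phi he hR hε).symm f : F⟦X⟧) := by
  refine bd_of_phiHom he hR hε _ ?_
  rw [phiHom_symm]; exact hf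

theorem bd_symm_sub {B : ℝ} (f : bsub (K := F) R hR) (hf : Bd R B f.1) :
    Bd R (ε / R * B) (((phi he hR hε).symm f : F⟦X⟧) - f.1) := by
  have h1 := (bd_phiHom_sub he hR hε _ (bd_symm he hR hε f hf)).neg
  rw [phiHom_symm, neg_sub] at h1
  exact h1

theorem symm_C (c : F) : (phi he hR hε).symm ⟨C c, C_mem c⟩ = ⟨C c, C_mem c⟩ := by
  rw [RingEquiv.symm_apply_eq, phi_apply, phiHom_C]

/-- `X + e ↦ X` -/
theorem symm_X_add (h : X + e ∈ bsub (K := F) R hR) :
    (phi he hR hε).symm ⟨X + e, h⟩ = ⟨X, X_mem⟩ := by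
  rw [RingEquiv.symm_apply_eq, phi_apply]
  exact Subtype.ext (phiHom_X he hR hε).symm

/-- the inverse series `X + d` -/
theorem bd_d : Bd R ε (((phi he hR hε).symm ⟨X, X_mem⟩ : F⟦X⟧) - X) := by
  refine bd_of_phiHom he hR hε ((phi he hR hε).symm ⟨X, X_mem⟩ - ⟨X, X_mem⟩) ?_
  rw [map_sub, phiHom_symm]
  have h1 : ((⟨X, X_mem⟩ - phiHom he hR hε ⟨X, X_mem⟩ : bsub (K := F) R hR) : F⟦X⟧) = -e := by
    change X - (phiHom he hR hε ⟨X, X_mem⟩ : F⟦X⟧) = -e
    rw [phiHom_X]; ring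
  rw [h1]
  exact he.neg

end Hom

end Crest.Agent.R013.DUni_429
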