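import Crest.Agent.R013.DUni1_429
import Crest.Agent.R013.RR7_948
import Crest.Agent.R013.Lau_702

/-!
# R013 / DUni2: places of the points of a disc (helper429)

D-LINE, step B of 906 #4158.  `J : L →+* F((X))`, all values in `frB ⊤ hR`.
* `xval` : the `X`-adic valuation of `F((X))`; `plJ` : the place pulled back by `J`;
* `chg Φ J hJ` : change of coordinate by an automorphism `Φ` of `bsub R`;
* `AtD J hR t w` : `w` is the place of the point `t`, `‖t‖ < R`; existence, uniqueness, values.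
-/

set_option autoImplicit false
set_option linter.unusedSectionVars false

namespace Crest.Agent.R013.DUni_429

open PowerSeries Filter
open scoped NNReal Topology
open WithZero
open Crest.Agent.R013.KAS2_940 (Bd bd_zero bd_one bd_C)
open Crest.Agent.R013.KAS2_940
open Crest.Agent.R013.KAS3_940 Crest.Agent.R013.Good1_940
open Crest.Agent.R013.Good3_940 Crest.Agent.R013.Small3_940
open Crest.Agent.R013.LemD_323 (shift ev_shift coeff_shift)
open Crest.Agent.R013.RR7_948 (Pl)
open Crest.Agent.R013.Lau_702 (order_ofPS)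

section xval

variable {F : Type*} [Field F]

open Classical in
/-- the `X`-adic valuation -/
noncomputable def xval (F : Type*) [Field F] : Valuation (LaurentSeries F) ℤᵐ⁰ where
  toFun z := if z = 0 then 0 else exp (-z.order)
  map_zero' := if_pos rfl
  map_one' := by rw [if_neg one_ne_zero, HahnSeries.order_one, neg_zero, exp_zero]
  map_mul' y z := by
    by_cases hy : y = 0
    · rw [hy, zero_mul, if_pos rfl, zero_mul]
    by_cases hz : z = 0
    · rw [hz, mul_zero, if_pos rfl, mul_zero]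
    rw [if_neg hy, if_neg hz, if_neg (mul_ne_zero hy hz), HahnSeries.order_mul hy hz, neg_add, exp_add]
  map_add_le_max' y z := by
    by_cases hyz : y + z = 0
    · rw [if_pos hyz]; exact zero_le
    by_cases hy : y = 0
    · rw [hy, zero_add]; exact le_max_right _ _
    by_cases hz : z = 0
    · rw [hz, add_zero]; exact le_max_left _ _
    rw [if_neg hy, if_neg hz, if_neg hyz]
    have h := HahnSeries.min_order_le_order_add hyz
    rcases min_le_iff.mp h with h1 | h1
    · exact le_max_of_le_left (exp_le_exp.mpr (by omega))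
    · exact le_max_of_le_right (exp_le_exp.mpr (by omega))

theorem xval_ne {z : LaurentSeries F} (hz : z ≠ 0) : xval F z = exp (-z.order) := if_neg hz

theorem xval_le_iff {z : LaurentSeries F} {n : ℤ} :
    xval F z ≤ exp (-n) ↔ ∀ i < n, z.coeff i = 0 := by
  by_cases hz : z = 0
  · rw [hz, map_zero]
    exact ⟨fun _ _ _ => rfl, fun _ => zero_le⟩
  · rw [xval_ne hz, exp_le_exp, neg_le_neg_iff, HahnSeries.le_order_iff_forall hz]

theorem xval_toL {a : F⟦X⟧} (ha : a ≠ 0) : xval F (toL F a) = exp (-(a.order.toNat : ℤ)) := by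
  have h0 : toL F a ≠ 0 := by
    intro h
    refine ha (HahnSeries.ofPowerSeries_injective (Γ := ℤ) ?_)
    rw [map_zero]; exact h
  rw [xval_ne h0]
  congr 2
  exact order_ofPS ha

theorem xval_C {c : F} (hc : c ≠ 0) : xval F (HahnSeries.C c) = 1 := by
  have h0 : (HahnSeries.C c : LaurentSeries F) ≠ 0 := by
    rw [Ne, _root_.map_eq_zero]; exact hc
  rw [xval_ne h0, HahnSeries.order_C, neg_zero, exp_zero]

theorem xval_X : xval F (HahnSeries.single (1 : ℤ) (1 : F)) = exp (-1) := by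
  have h0 : (HahnSeries.single (1 : ℤ) (1 : F)) ≠ 0 := HahnSeries.single_ne_zero one_ne_zero
  rw [xval_ne h0, HahnSeries.order_single one_ne_zero]

/-- the place pulled back by an expansion -/
noncomputable def plJ {C K : Type*} [Field C] [Field K] [Algebra C K] [Algebra C F]
    (J : K →+* LaurentSeries F) (hc : ∀ c, J (algebraMap C K c) = HahnSeries.C (algebraMap C F c))
    {x : K} (hx : J x = HahnSeries.single (1 : ℤ) (1 : F)) : Pl C K where
  v := (xval F).comap J
  const c h := by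
    rw [Valuation.comap_apply, hc]
    exact xval_C (by rw [Ne, _root_.map_eq_zero]; exact h)
  surj y := by
    rcases eq_or_ne y 0 with rfl | hy
    · exact ⟨0, map_zero _⟩
    · refine ⟨x ^ (-log y), ?_⟩
      rw [map_zpow₀, Valuation.comap_apply, hx, xval_X, ← exp_zsmul, smul_eq_mul, mul_neg_one, neg_neg,
        exp_log hy]

theorem plJ_v {C K : Type*} [Field C] [Field K] [Algebra C K] [Algebra C F]
    (J : K →+* LaurentSeries F) (hc : ∀ c, J (algebraMap C K c) = HahnSeries.C (algebraMap C F c))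
    {x : K} (hx : J x = HahnSeries.single (1 : ℤ) (1 : F)) (f : K) :
    (plJ J hc hx).v f = xval F (J f) := rfl

end xval

section chg

variable {F : Type*} [NontriviallyNormedField F] [IsUltrametricDist F]
variable {R : ℝ} {hR : 0 < R} {L : Type*} [Field L]

/-- change of coordinate -/
noncomputable def chg (Φ : bsub (K := F) R hR ≃+* bsub (K := F) R hR) (J : L →+* LaurentSeries F)
    (hJ : ∀ z, J z ∈ frB (⊤ : Subfield F) hR) : L →+* LaurentSeries F :=
  (frL hR).comp ((IsFractionRing.ringEquivOfRingEquiv (K := FDisc F R hR) (L := FDisc F R hR)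
    Φ : FDisc F R hR →+* FDisc F R hR).comp (liftD hR J hJ))

/-- **the rule for quotients** -/
theorem chg_spec (Φ : bsub (K := F) R hR ≃+* bsub (K := F) R hR) (J : L →+* LaurentSeries F)
    (hJ : ∀ z, J z ∈ frB (⊤ : Subfield F) hR) {z : L} {a b : bsub (K := F) R hR}
    (h : J z * toL F b.1 = toL F a.1) :
    chg Φ J hJ z * toL F (Φ b).1 = toL F (Φ a).1 := by
  have h1 : liftD hR J hJ z * algebraMap _ (FDisc F R hR) b = algebraMap _ (FDisc F R hR) a := by
    apply (frL (F := F) hR).injective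
    rw [map_mul, frL_liftD, frL_algebraMap, frL_algebraMap, h]
  have h2 := congrArg (fun x => frL hR (IsFractionRing.ringEquivOfRingEquiv (K := FDisc F R hR)
    (L := FDisc F R hR) Φ x)) h1
  simp only [map_mul, IsFractionRing.ringEquivOfRingEquiv_algebraMap, frL_algebraMap] at h2
  exact h2

theorem chg_toL (Φ : bsub (K := F) R hR ≃+* bsub (K := F) R hR) (J : L →+* LaurentSeries F)
    (hJ : ∀ z, J z ∈ frB (⊤ : Subfield F) hR) {z : L} {a : bsub (K := F) R hR}
    (h : J z = toL F a.1) : chg Φ J hJ z = toL F (Φ a).1 := by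
  have h1 : J z * toL F (1 : bsub (K := F) R hR).1 = toL F a.1 := by
    rw [OneMemClass.coe_one, map_one, mul_one, h]
  have h2 := chg_spec Φ J hJ h1
  rwa [map_one, OneMemClass.coe_one, map_one, mul_one] at h2

theorem toL_C (c : F) : toL F (C c) = HahnSeries.C c := HahnSeries.ofPowerSeries_C c

theorem toL_X : toL F (X : F⟦X⟧) = HahnSeries.single (1 : ℤ) (1 : F) := HahnSeries.ofPowerSeries_X

theorem chg_C (Φ : bsub (K := F) R hR ≃+* bsub (K := F) R hR)
    (hΦ : ∀ c, Φ ⟨C c, C_mem c⟩ = ⟨C c, C_mem c⟩) (J : L →+* LaurentSeries F)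
    (hJ : ∀ z, J z ∈ frB (⊤ : Subfield F) hR) {z : L} {c : F} (h : J z = HahnSeries.C c) :
    chg Φ J hJ z = HahnSeries.C c := by
  rw [← toL_C] at h
  rw [chg_toL Φ J hJ (a := ⟨C c, C_mem c⟩) h, hΦ, toL_C]

/-- representatives as quotients -/
theorem exists_rep {z : LaurentSeries F} (hz : z ∈ frB (⊤ : Subfield F) hR) :
    ∃ a b : bsub (K := F) R hR, b.1 ≠ 0 ∧ z * toL F b.1 = toL F a.1 := by
  obtain ⟨a, ha, b, hb, hb0, h⟩ := mem_frB.mp hz
  exact ⟨⟨a, ha.2⟩, ⟨b, hb.2⟩, hb0, h⟩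

theorem mem_frB_of_rep {z : LaurentSeries F} {a b : bsub (K := F) R hR} (hb : b.1 ≠ 0)
    (h : z * toL F b.1 = toL F a.1) : z ∈ frB (⊤ : Subfield F) hR :=
  mem_frB.mpr ⟨a.1, ⟨fun _ => trivial, a.2⟩, b.1, ⟨fun _ => trivial, b.2⟩, hb, h⟩

theorem ne_zero_apply (Φ : bsub (K := F) R hR ≃+* bsub (K := F) R hR) {b : bsub (K := F) R hR}
    (hb : b.1 ≠ 0) : (Φ b).1 ≠ 0 := by
  have h1 : b ≠ 0 := fun h => hb (by rw [h]; rfl)
  have h2 : Φ b ≠ 0 := by rwa [Ne, EmbeddingLike.map_eq_zero_iff]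
  exact fun h => h2 (Subtype.ext h)

theorem chg_mem (Φ : bsub (K := F) R hR ≃+* bsub (K := F) R hR) (J : L →+* LaurentSeries F)
    (hJ : ∀ z, J z ∈ frB (⊤ : Subfield F) hR) (z : L) : chg Φ J hJ z ∈ frB (⊤ : Subfield F) hR := by
  obtain ⟨a, b, hb, h⟩ := exists_rep (hJ z)
  exact mem_frB_of_rep (ne_zero_apply Φ hb) (chg_spec Φ J hJ h)

theorem toL_ne_zero {b : F⟦X⟧} (hb : b ≠ 0) : toL F b ≠ 0 := by
  intro h
  refine hb (HahnSeries.ofPowerSeries_injective (Γ := ℤ) ?_)
  rw [map_zero]; exact h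

theorem rep_ne_zero {J : L →+* LaurentSeries F} {z : L} (hz : z ≠ 0) {a b : F⟦X⟧} (hb : b ≠ 0)
    (h : J z * toL F b = toL F a) : a ≠ 0 := by
  rintro rfl
  rw [map_zero, mul_eq_zero] at h
  rcases h with h | h
  · exact hz ((_root_.map_eq_zero J).mp h)
  · exact toL_ne_zero hb h

/-- the valuation of a quotient -/
theorem xval_rep {y : LaurentSeries F} {a b : F⟦X⟧} (ha : a ≠ 0) (hb : b ≠ 0)
    (h : y * toL F b = toL F a) : xval F y = exp ((b.order.toNat : ℤ) - a.order.toNat) := by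
  have h1 := congrArg (xval F) h
  rw [map_mul, xval_toL hb, xval_toL ha] at h1
  have h2 : xval F y = exp (-(a.order.toNat : ℤ)) / exp (-(b.order.toNat : ℤ)) := by
    rw [← h1, mul_div_cancel_right₀ _ exp_ne_zero]
  rw [h2, ← exp_sub]
  congr 1
  ring

end chg

section AtD

variable {F : Type*} [NontriviallyNormedField F] [IsUltrametricDist F] [CompleteSpace F]
variable {R : ℝ} {L : Type*} [Field L] [Algebra F L]

/-- **the place `w` is the place of the point `t` of the disc of `J`** -/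
def AtD (J : L →+* LaurentSeries F) (hR : 0 < R) (t : F) (w : Pl F L) : Prop :=
  ∀ (f : L) (a b : F⟦X⟧), a ∈ bsub (K := F) R hR → b ∈ bsub (K := F) R hR → a ≠ 0 → b ≠ 0 →
    J f * toL F b = toL F a →
    w.v f = exp (((shift t b).order.toNat : ℤ) - ((shift t a).order.toNat : ℤ))

/-- the translation `f ↦ f (X + t)` as an automorphism -/
noncomputable def shiftE (hR : 0 < R) {t : F} (ht : ‖t‖ < R) :
    bsub (K := F) R hR ≃+* bsub (K := F) R hR := phi (bd_C (r := R) t) hR ht

theorem coe_shiftE (hR : 0 < R) {t : F} (ht : ‖t‖ < R) (f : bsub (K := F) R hR) :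
    (shiftE hR ht f : F⟦X⟧) = shift t f.1 := by
  obtain ⟨B, hB⟩ := f.2
  change cmp (X + C t) f.1 = _
  refine eq_of_ev hR (bd_cmp' (bd_C t) hR ht hB) (bd_shift' hB ht) fun s hs => ?_
  rw [ev_cmp' (bd_C t) hR ht hB hs, ev_shift (toBd hB) ht hs, evl_add (bd_X' hR) (bd_C t) hs,
    evl_X, evl_C, add_comm]

theorem shiftE_C (hR : 0 < R) {t : F} (ht : ‖t‖ < R) (c : F) :
    shiftE hR ht ⟨C c, C_mem c⟩ = ⟨C c, C_mem c⟩ := phiHom_C (bd_C t) hR ht c

theorem shift_X' (hR : 0 < R) {t : F} (ht : ‖t‖ < R) : shift t (X : F⟦X⟧) = X + C t := by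
  have h := coe_shiftE hR ht ⟨X, X_mem⟩
  rw [← h]
  exact phiHom_X (bd_C t) hR ht

theorem shift_C' (hR : 0 < R) {t : F} (ht : ‖t‖ < R) (c : F) : shift t (C c : F⟦X⟧) = C c := by
  have h := coe_shiftE hR ht ⟨C c, C_mem c⟩
  rw [← h, shiftE_C]

theorem coeff_zero_shift (t : F) (f : F⟦X⟧) : coeff 0 (shift t f) = LemD_323.ev f t := by
  rw [coeff_shift]
  unfold LemD_323.ev
  refine tsum_congr fun n => ?_
  simp

variable {J : L →+* LaurentSeries F} {hR : 0 < R}

theorem atD_iff (hJ : ∀ z, J z ∈ frB (⊤ : Subfield F) hR) {t : F} (ht : ‖t‖ < R) (w : Pl F L) :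
    AtD J hR t w ↔ ∀ f, w.v f = xval F (chg (shiftE hR ht) J hJ f) := by
  constructor
  · intro h f
    by_cases hf : f = 0
    · rw [hf, map_zero, map_zero, map_zero]
    obtain ⟨a, b, hb, hab⟩ := exists_rep (hJ f)
    have ha : a.1 ≠ 0 := rep_ne_zero hf hb hab
    rw [h f a.1 b.1 a.2 b.2 ha hb hab]
    have h1 := chg_spec (shiftE hR ht) J hJ hab
    rw [xval_rep (ne_zero_apply _ ha) (ne_zero_apply _ hb) h1, coe_shiftE, coe_shiftE]
  · intro h f a b ha hb ha0 hb0 hab
    rw [h f]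
    have h1 := chg_spec (shiftE hR ht) J hJ (a := ⟨a, ha⟩) (b := ⟨b, hb⟩) hab
    rw [xval_rep (ne_zero_apply (b := ⟨a, ha⟩) _ ha0) (ne_zero_apply (b := ⟨b, hb⟩) _ hb0) h1,
      coe_shiftE, coe_shiftE]

theorem AtD.unique (hJ : ∀ z, J z ∈ frB (⊤ : Subfield F) hR) {t : F} {w w' : Pl F L}
    (h : AtD J hR t w) (h' : AtD J hR t w') : w = w' := by
  refine Crest.Agent.R013.RR7_948.Pl.ext (Valuation.ext fun f => ?_)
  by_cases hf : f = 0
  · rw [hf, map_zero, map_zero]
  obtain ⟨a, b, hb, hab⟩ := exists_rep (hJ f)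
  have ha : a.1 ≠ 0 := rep_ne_zero hf hb hab
  rw [h f a.1 b.1 a.2 b.2 ha hb hab, h' f a.1 b.1 a.2 b.2 ha hb hab]

/-- existence of the places of the disc -/
theorem exists_atD (hJc : ∀ c, J (algebraMap F L c) = HahnSeries.C c)
    (hJ : ∀ z, J z ∈ frB (⊤ : Subfield F) hR) {T : L}
    (hT : J T = HahnSeries.single (1 : ℤ) (1 : F)) {t : F} (ht : ‖t‖ < R) :
    ∃ w : Pl F L, AtD J hR t w := by
  have hc : ∀ c, chg (shiftE hR ht) J hJ (algebraMap F L c) =
      HahnSeries.C (algebraMap F F c) := fun c =>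
    chg_C _ (shiftE_C hR ht) J hJ (hJc c)
  have hx : chg (shiftE hR ht) J hJ (T - algebraMap F L t) = HahnSeries.single (1 : ℤ) (1 : F) := by
    rw [map_sub, hc]
    have h1 : J T = toL F (⟨X, X_mem⟩ : bsub (K := F) R hR).1 := by rw [hT, toL_X]
    rw [chg_toL _ J hJ h1, coe_shiftE, shift_X' hR ht, map_add, toL_X, toL_C]
    exact add_sub_cancel_right _ _
  exact ⟨plJ _ hc hx, (atD_iff hJ ht _).mpr fun f => plJ_v _ hc hx f⟩

/-- **values** -/
theorem AtD.sub_lt (hJc : ∀ c, J (algebraMap F L c) = HahnSeries.C c) {t : F} (ht : ‖t‖ < R)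
    {w : Pl F L} (h : AtD J hR t w) {f : L} {g : F⟦X⟧} (hg : g ∈ bsub (K := F) R hR)
    (hf : J f = toL F g) : w.v (f - algebraMap F L (LemD_323.ev g t)) < 1 := by
  set c := LemD_323.ev g t with hc
  by_cases h0 : f - algebraMap F L c = 0
  · rw [h0, map_zero]; exact zero_lt_one
  have h1 : J (f - algebraMap F L c) = toL F (g - C c) := by
    rw [map_sub, hf, hJc, map_sub, toL_C]
  have h2 : g - C c ≠ 0 := by
    intro h3
    rw [h3, map_zero] at h1
    exact h0 ((_root_.map_eq_zero J).mp h1)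
  have h3 : g - C c ∈ bsub (K := F) R hR := sub_mem hg (C_mem c)
  rw [h _ (g - C c) 1 h3 (one_mem _) h2 one_ne_zero (by rw [map_one, mul_one, h1])]
  have h4 : coeff 0 (shift t (g - C c)) = 0 := by
    have h5 := coe_shiftE hR ht ⟨g - C c, h3⟩
    have h6 : (⟨g - C c, h3⟩ : bsub (K := F) R hR) = ⟨g, hg⟩ - ⟨C c, C_mem c⟩ := rfl
    rw [h6, map_sub] at h5
    change (shiftE hR ht ⟨g, hg⟩ : F⟦X⟧) - (shiftE hR ht ⟨C c, C_mem c⟩ : F⟦X⟧) = _ at h5
    rw [coe_shiftE, shiftE_C] at h5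
    change shift t g - C c = shift t (g - C c) at h5
    rw [← h5, map_sub, coeff_zero_shift, ← hc]
    simp
  have h5 : shift t (1 : F⟦X⟧) = 1 := by
    have := shift_C' hR ht (1 : F)
    rwa [map_one] at this
  have h6 : 0 < (shift t (g - C c)).order.toNat := by
    rw [Nat.pos_iff_ne_zero]
    intro h7
    have h8 : shift t (g - C c) ≠ 0 := by
      obtain ⟨B, hB⟩ := h3
      exact shift_ne_zero hR hB ht h2
    have h9 := PowerSeries.coeff_order h8
    rw [h7] at h9
    exact h9 h4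
  rw [h5, PowerSeries.order_one, ENat.toNat_zero, ← exp_zero, exp_lt_exp]
  omega

end AtD

end Crest.Agent.R013.DUni_429
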