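import Crest.Agent.R013.DUni2_429
import Crest.Agent.R013.DUa_948
import Crest.Agent.R013.CE6_280
import Crest.Agent.R013.HTb_948

/-!
# R013 / DUni3: one disc, change of coordinate (helper429)

D-LINE, step B (U3) of 906 #4158.
* `Dom R g` : `‖g_i‖ R ^ i < ‖g_0‖` for `i ≥ 1`; a group; stable under small perturbations;
* `exists_dL` : `d/dX` on `F((X))`; `dL_J` : `d/dX (J f) = J (del f / del T)`;
* `vX_shift_eq` : the order of `phi.symm a` at `0` is the order of `a` at the zero of `X + e`.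
-/

set_option autoImplicit false
set_option linter.unusedSectionVars false

namespace Crest.Agent.R013.DUni_429

open PowerSeries Filter
open scoped NNReal Topology
open WithZero
open Crest.Agent.R013.KAS2_940 (Bd bd_zero bd_one bd_C)
open Crest.Agent.R013.KAS2_940
open Crest.Agent.R013.KAS3_940 Crest.Agent.R013.Good1_940
open Crest.Agent.R013.Good3_940 Crest.Agent.R013.Small3_940
open Crest.Agent.R013.LemD_323 (shift ev_shift coeff_shift)
open Crest.Agent.R013.RR7_948 (Pl)
open Crest.Agent.R013.RR8_948 (xK)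
open Crest.Agent.R013.RR14_948 (del del_xK D_eq)
open Crest.Agent.R013.DU_948 (IsDisc At vX vX_le_iff vX_single vX_toL_le vX_toL_lt vX_toL_eq_one
  exists_shift mem_of_X_mul)

/-! ### dominant constant term -/

section Dom

variable {F : Type*} [NontriviallyNormedField F]

/-- the constant term dominates at the radius `R` -/
def Dom (R : ℝ) (g : F⟦X⟧) : Prop :=
  coeff 0 g ≠ 0 ∧ ∀ i, 0 < i → ‖coeff i g‖ * R ^ i < ‖coeff 0 g‖

theorem Dom.bd {R : ℝ} {g : F⟦X⟧} (h : Dom R g) : Bd R ‖coeff 0 g‖ g := by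
  intro m
  rcases Nat.eq_zero_or_pos m with rfl | hm
  · rw [pow_zero, mul_one]
  · exact (h.2 m hm).le

theorem Dom.pos {R : ℝ} {g : F⟦X⟧} (h : Dom R g) : 0 < ‖coeff 0 g‖ := norm_pos_iff.mpr h.1

theorem Dom.mono {R R' : ℝ} (hR' : 0 ≤ R') (hle : R' ≤ R) {g : F⟦X⟧} (h : Dom R g) : Dom R' g :=
  ⟨h.1, fun i hi => lt_of_le_of_lt (by gcongr) (h.2 i hi)⟩

variable [IsUltrametricDist F]

theorem norm_sum_lt {ι : Type*} (s : Finset ι) (f : ι → F) {B : ℝ} (hB : 0 < B)
    (h : ∀ i ∈ s, ‖f i‖ < B) : ‖∑ i ∈ s, f i‖ < B := by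
  classical
  induction s using Finset.induction_on with
  | empty => rw [Finset.sum_empty, norm_zero]; exact hB
  | insert a s ha ih =>
    rw [Finset.sum_insert ha]
    refine (IsUltrametricDist.norm_add_le_max _ _).trans_lt (max_lt ?_ ?_)
    · exact h a (Finset.mem_insert_self _ _)
    · exact ih fun i hi => h i (Finset.mem_insert_of_mem hi)

theorem Dom.mul {R : ℝ} (hR : 0 < R) {g h : F⟦X⟧} (hg : Dom R g) (hh : Dom R h) :
    Dom R (g * h) := by
  have h0 : coeff 0 (g * h) = coeff 0 g * coeff 0 h := by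
    rw [coeff_mul, Finset.Nat.antidiagonal_zero, Finset.sum_singleton]
  refine ⟨by rw [h0]; exact mul_ne_zero hg.1 hh.1, fun i hi => ?_⟩
  rw [h0, norm_mul, coeff_mul, ← lt_div_iff₀ (by positivity)]
  have hpos : 0 < ‖coeff 0 g‖ * ‖coeff 0 h‖ / R ^ i :=
    div_pos (mul_pos hg.pos hh.pos) (by positivity)
  refine norm_sum_lt _ _ hpos fun x hx => ?_
  rw [Finset.HasAntidiagonal.mem_antidiagonal] at hx
  rw [lt_div_iff₀ (by positivity), norm_mul, ← hx, pow_add]
  have h1 := hg.bd x.1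
  have h2 := hh.bd x.2
  have h3 : ‖coeff x.1 g‖ * ‖coeff x.2 h‖ * (R ^ x.1 * R ^ x.2) =
      (‖coeff x.1 g‖ * R ^ x.1) * (‖coeff x.2 h‖ * R ^ x.2) := by ring
  rw [h3]
  rcases Nat.eq_zero_or_pos x.1 with h4 | h4
  · have h5 : 0 < x.2 := by omega
    exact mul_lt_mul_of_le_of_lt_of_nonneg_of_pos h1 (hh.2 _ h5) (by positivity) hg.pos
  · exact mul_lt_mul_of_lt_of_le_of_nonneg_of_pos (hg.2 _ h4) h2 (by positivity) hh.pos

theorem Dom.inv {R : ℝ} (hR : 0 < R) {g h : F⟦X⟧} (hg : Dom R g) (hgh : g * h = 1) :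
    Dom R h := by
  have h0 : coeff 0 g * coeff 0 h = 1 := by
    have := congrArg (coeff 0) hgh
    rwa [coeff_mul, Finset.Nat.antidiagonal_zero, Finset.sum_singleton, coeff_zero_one] at this
  have hh0 : coeff 0 h ≠ 0 := right_ne_zero_of_mul_eq_one h0
  refine ⟨hh0, fun i => ?_⟩
  induction i using Nat.strong_induction_on with
  | _ i ih =>
    intro hi
    have h1 := congrArg (coeff i) hgh
    rw [coeff_mul, coeff_one, if_neg (by omega), Finset.Nat.sum_antidiagonal_eq_sum_range_succ_mk,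
      Finset.sum_range_succ'] at h1
    have h2 : coeff 0 g * coeff i h = - ∑ k ∈ Finset.range i,
        coeff (k + 1) g * coeff (i - (k + 1)) h := by
      rw [eq_neg_iff_add_eq_zero, add_comm]
      simpa using h1
    have hpos : 0 < ‖coeff 0 g‖ * ‖coeff 0 h‖ / R ^ i :=
      div_pos (mul_pos hg.pos (norm_pos_iff.mpr hh0)) (by positivity)
    have h3 : ‖coeff 0 g * coeff i h‖ < ‖coeff 0 g‖ * ‖coeff 0 h‖ / R ^ i := by
      rw [h2, norm_neg]
      refine norm_sum_lt _ _ hpos fun k hk => ?_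
      rw [Finset.mem_range] at hk
      rw [lt_div_iff₀ (by positivity), norm_mul]
      have h4 : R ^ i = R ^ (k + 1) * R ^ (i - (k + 1)) := by
        rw [← pow_add]; congr 1; omega
      have h5 : ‖coeff (k + 1) g‖ * ‖coeff (i - (k + 1)) h‖ * R ^ i =
        (‖coeff (k + 1) g‖ * R ^ (k + 1)) * (‖coeff (i - (k + 1)) h‖ * R ^ (i - (k + 1))) := by
        rw [h4]; ring
      rw [h5]
      have h6 : ‖coeff (i - (k + 1)) h‖ * R ^ (i - (k + 1)) ≤ ‖coeff 0 h‖ := by
        rcases Nat.eq_zero_or_pos (i - (k + 1)) with h7 | h7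
        · rw [h7, pow_zero, mul_one]
        · exact (ih _ (by omega) h7).le
      exact mul_lt_mul_of_lt_of_le_of_nonneg_of_pos (hg.2 _ (by omega)) h6 (by positivity)
        (norm_pos_iff.mpr hh0)
    rw [norm_mul, mul_div_assoc] at h3
    have h8 := lt_of_mul_lt_mul_left h3 (norm_nonneg _)
    rwa [lt_div_iff₀ (by positivity)] at h8

theorem Dom.congr {R η : ℝ} (hR : 0 < R) {g h : F⟦X⟧} (hg : Dom R g) (hd : Bd R η (h - g))
    (hη : η < ‖coeff 0 g‖) : Dom R h ∧ ‖coeff 0 h‖ = ‖coeff 0 g‖ := by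
  have h0 : ‖coeff 0 h‖ = ‖coeff 0 g‖ := by
    have h1 := hd 0
    rw [pow_zero, mul_one, map_sub] at h1
    have h2 : coeff 0 h = (coeff 0 h - coeff 0 g) + coeff 0 g := by ring
    rw [h2]
    exact IsUltrametricDist.norm_add_eq_max_of_norm_ne_norm (h1.trans_lt hη).ne |>.trans
      (max_eq_right (h1.trans_lt hη).le)
  refine ⟨⟨?_, fun i hi => ?_⟩, h0⟩
  · rw [← norm_pos_iff, h0]; exact hg.pos
  · have h1 := hd i
    rw [map_sub] at h1
    have h2 : coeff i h = (coeff i h - coeff i g) + coeff i g := by ring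
    rw [h2, h0]
    have h3 := IsUltrametricDist.norm_add_le_max (coeff i h - coeff i g) (coeff i g)
    calc ‖coeff i h - coeff i g + coeff i g‖ * R ^ i
        ≤ max ‖coeff i h - coeff i g‖ ‖coeff i g‖ * R ^ i := by gcongr
      _ = max (‖coeff i h - coeff i g‖ * R ^ i) (‖coeff i g‖ * R ^ i) :=
        max_mul_of_nonneg _ _ (by positivity)
      _ < ‖coeff 0 g‖ := max_lt (h1.trans_lt hη) (hg.2 i hi)

theorem dom_one {R : ℝ} : Dom R (1 : F⟦X⟧) := by
  refine ⟨by rw [coeff_zero_one]; exact one_ne_zero, fun i hi => ?_⟩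
  rw [coeff_one, if_neg (by omega), norm_zero, zero_mul, coeff_zero_one, norm_one]
  exact one_pos

theorem dom_one_add {R η : ℝ} (hR : 0 < R) {v : F⟦X⟧} (hv : Bd R η v) (hη : η < 1) :
    Dom R (1 + v) := by
  refine (Dom.congr hR dom_one (h := 1 + v) (η := η) (by rwa [add_sub_cancel_left]) ?_).1
  rwa [coeff_zero_one, norm_one]

theorem dom_inv_mul {g : F⟦X⟧} (hg : coeff 0 g ≠ 0) : g * g⁻¹ = 1 :=
  PowerSeries.mul_inv_cancel g (by rwa [← coeff_zero_eq_constantCoeff_apply])

theorem exists_inv_one_add {R η : ℝ} (hR : 0 < R) {v : F⟦X⟧} (hv : Bd R η v) (hη : η < 1) :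
    ∃ v' : F⟦X⟧, Bd R η v' ∧ (1 + v) * (1 + v') = 1 := by
  have h1 := dom_one_add hR hv hη
  have h2 := dom_inv_mul h1.1
  have h3 := Dom.inv hR h1 h2
  set u := (1 + v)⁻¹ with hu
  have h4 : u - 1 = -(v * u) := by
    have : u + v * u = 1 := by rw [← h2]; ring
    rw [eq_neg_iff_add_eq_zero, ← sub_eq_zero.mpr this]; ring
  have h5 : ‖coeff 0 u‖ = 1 := by
    have h6 : ‖coeff 0 (1 + v)‖ = 1 := by
      have := (Dom.congr hR dom_one (h := 1 + v) (η := η) (by rwa [add_sub_cancel_left])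
        (by rwa [coeff_zero_one, norm_one])).2
      rwa [coeff_zero_one, norm_one] at this
    have h7 := congrArg (fun x => ‖coeff 0 x‖) h2
    simp only [coeff_mul, Finset.Nat.antidiagonal_zero, Finset.sum_singleton, norm_mul, h6, one_mul,
      coeff_zero_one, norm_one] at h7
    exact h7
  refine ⟨u - 1, ?_, by rw [add_sub_cancel]; exact h2⟩
  rw [h4]
  have h6 := (hv.mul hR h3.bd).neg
  rwa [h5, mul_one] at h6

theorem bd_deriv {R ε : ℝ} (hR : 0 < R) {e : F⟦X⟧} (he : Bd R ε e) : Bd R (ε / R) (d⁄dX F e) := by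
  intro m
  rw [coeff_derivative, norm_mul, le_div_iff₀ hR]
  have h1 := he (m + 1)
  have h2 : ‖((m : F) + 1)‖ ≤ 1 := by
    have := IsUltrametricDist.norm_natCast_le_one F (m + 1)
    push_cast at this
    exact this
  calc ‖coeff (m + 1) e‖ * ‖((m : F) + 1)‖ * R ^ m * R
      ≤ ‖coeff (m + 1) e‖ * 1 * R ^ m * R := by gcongr
    _ = ‖coeff (m + 1) e‖ * R ^ (m + 1) := by ring
    _ ≤ ε := h1

end Dom

/-! ### the derivation of `F((X))` -/

section dL

/-- `F((X))` with its structure of algebra over `F` and `F[[X]]` -/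
def LS (F : Type*) [Field F] : Type _ := LaurentSeries F

noncomputable instance (F : Type*) [Field F] : Field (LS F) := inferInstanceAs (Field (LaurentSeries F))

noncomputable instance (F : Type*) [Field F] : Algebra F⟦X⟧ (LS F) :=
  inferInstanceAs (Algebra F⟦X⟧ (LaurentSeries F))

noncomputable instance (F : Type*) [Field F] : Algebra F (LS F) :=
  RingHom.toAlgebra ((algebraMap F⟦X⟧ (LS F)).comp (algebraMap F F⟦X⟧))

instance (F : Type*) [Field F] : IsScalarTower F F⟦X⟧ (LS F) :=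
  IsScalarTower.of_algebraMap_eq fun _ => rfl

instance (F : Type*) [Field F] : IsFractionRing F⟦X⟧ (LS F) :=
  inferInstanceAs (IsFractionRing F⟦X⟧ (LaurentSeries F))

theorem toL_C' {F : Type*} [Field F] (c : F) : toL F (C c) = HahnSeries.C c :=
  HahnSeries.ofPowerSeries_C c

theorem toL_X'' {F : Type*} [Field F] : toL F (X : F⟦X⟧) = HahnSeries.single (1 : ℤ) (1 : F) :=
  HahnSeries.ofPowerSeries_X

theorem exists_dL (F : Type*) [Field F] : ∃ D : Derivation F (LS F) (LS F),
    ∀ a : F⟦X⟧, D (algebraMap F⟦X⟧ (LS F) a) = algebraMap F⟦X⟧ (LS F) (d⁄dX F a) := by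
  have : Algebra.FormallySmooth F⟦X⟧ (LS F) :=
    Algebra.FormallySmooth.of_isLocalization (nonZeroDivisors F⟦X⟧)
  let δ : Derivation F F⟦X⟧ (LS F) :=
    Derivation.mk' (((Algebra.linearMap F⟦X⟧ (LS F)).restrictScalars F).comp
      ((d⁄dX F : Derivation F F⟦X⟧ F⟦X⟧) : F⟦X⟧ →ₗ[F] F⟦X⟧)) (fun a b => by
        simp only [LinearMap.comp_apply, LinearMap.coe_restrictScalars, Algebra.linearMap_apply,
          Derivation.coeFn_coe, Derivation.leibniz, smul_eq_mul, map_add, map_mul, Algebra.smul_def])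
  obtain ⟨D, hD⟩ := Crest.Agent.R013.CE6_280.exists_extend (R := F) (A := F⟦X⟧)
    (B := LS F) δ
  exact ⟨D, fun a => hD a⟩

/-- the derivation `d/dX` of `F((X))` -/
noncomputable def dL (F : Type*) [Field F] : Derivation F (LS F) (LS F) := (exists_dL F).choose

/-- the derivation `d/dX` of `F((X))`, as a map -/
noncomputable def dLf (F : Type*) [Field F] (z : LaurentSeries F) : LaurentSeries F := dL F z

theorem dLf_toL {F : Type*} [Field F] (a : F⟦X⟧) : dLf F (toL F a) = toL F (d⁄dX F a) :=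
  (exists_dL F).choose_spec a

theorem dLf_mul {F : Type*} [Field F] (y z : LaurentSeries F) :
    dLf F (y * z) = y * dLf F z + z * dLf F y := by
  exact (dL F).leibniz (y : LS F) (z : LS F)

theorem dLf_add {F : Type*} [Field F] (y z : LaurentSeries F) :
    dLf F (y + z) = dLf F y + dLf F z := (dL F).map_add (y : LS F) (z : LS F)

/-- the chain rule for expansions -/
theorem dLf_J {F : Type*} [Field F] {L : Type*} [Field L] [Algebra F L] [Algebra (RatFunc F) L]
    [IsScalarTower F (RatFunc F) L] [Algebra.IsSeparable (RatFunc F) L]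
    (J : L →+* LaurentSeries F) (hcon : ∀ c : F, J (algebraMap F L c) = HahnSeries.C c) (f : L) :
    dLf F (J f) = J (del F L f) * dLf F (J (xK F L)) := by
  let _ : Algebra L (LS F) := RingHom.toAlgebra (S := LS F) J
  have : IsScalarTower F L (LS F) := IsScalarTower.of_algebraMap_eq fun c => by
    change toL F (algebraMap F F⟦X⟧ c) = J (algebraMap F L c)
    rw [hcon, PowerSeries.algebraMap_apply, Algebra.algebraMap_self, RingHom.id_apply, toL_C']
  let D1 : Derivation F L (LS F) := (dL F).compAlgebraMap L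
  have h1 : ∀ g : L, D1 g = dLf F (J g) := fun g => rfl
  have h2 := congrArg D1.liftKaehlerDifferential (D_eq F L f)
  rw [map_smul, Derivation.liftKaehlerDifferential_comp_D,
    Derivation.liftKaehlerDifferential_comp_D, h1, h1] at h2
  exact h2

/-- `d/dX (J f) = J (del f / del T)` if `J T = X` -/
theorem dLf_J' {F : Type*} [Field F] {L : Type*} [Field L] [Algebra F L] [Algebra (RatFunc F) L]
    [IsScalarTower F (RatFunc F) L] [Algebra.IsSeparable (RatFunc F) L]
    {J : L →+* LaurentSeries F} (hcon : ∀ c : F, J (algebraMap F L c) = HahnSeries.C c) {T : L}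
    (hT : J T = HahnSeries.single (1 : ℤ) (1 : F)) (f : L) :
    del F L T ≠ 0 ∧ dLf F (J f) = J (del F L f / del F L T) := by
  have h1 := dLf_J J hcon T
  rw [hT, ← toL_X'', dLf_toL, PowerSeries.derivative_X, map_one] at h1
  have h2 : J (del F L T) ≠ 0 := left_ne_zero_of_mul_eq_one h1.symm
  refine ⟨fun h => h2 (by rw [h, map_zero]), ?_⟩
  rw [dLf_J J hcon f, map_div₀, eq_div_iff h2, mul_assoc, mul_comm (dLf F _) (J _), ← h1, mul_one]

end dL

end Crest.Agent.R013.DUni_429
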