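import Crest.Agent.R013.DUni3_429

/-!
# R013 / DUni4: one disc, the new coordinate and its place (helper429)

D-LINE, step B (U3) of 906 #4158.  `hJ : IsDisc hR T J`, `J X₁ = X + e`, `Bd R ε e`, `ε < R`.
* `newJ` : the expansion in the coordinate `X₁`; `isDisc_newJ`;
* `at_newJ` : a place of the disc at which `X₁` vanishes is the place of `newJ`;
* `coeff_eq_coef` : coefficients on `K`; `Chart`;
* `newJ_div` : forms.
-/

set_option autoImplicit false
set_option linter.unusedSectionVars false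

namespace Crest.Agent.R013.DUni_429

open PowerSeries Filter
open scoped NNReal Topology
open WithZero
open Crest.Agent.R013.KAS2_940 (Bd bd_zero bd_one bd_C)
open Crest.Agent.R013.KAS2_940
open Crest.Agent.R013.KAS3_940 Crest.Agent.R013.Good1_940
open Crest.Agent.R013.Good3_940 Crest.Agent.R013.Small3_940
open Crest.Agent.R013.LemD_323 (shift ev_shift coeff_shift)
open Crest.Agent.R013.RR7_948 (Pl)
open Crest.Agent.R013.RR8_948 (xK)
open Crest.Agent.R013.RR14_948 (del del_xK D_eq)
open Crest.Agent.R013.RR29_948 (coef coef_spec coef_of_le)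
open Crest.Agent.R013.DU_948 (IsDisc At vX vX_le_iff vX_single vX_toL_le vX_toL_lt vX_toL_eq_one
  exists_shift mem_of_X_mul)

section order

variable {F : Type*} [NontriviallyNormedField F] [IsUltrametricDist F] [CompleteSpace F]
variable {R ε : ℝ} {e : F⟦X⟧}

theorem vX_toL_of_coeff {s : F⟦X⟧} (h0 : coeff 0 s = 0) (h1 : coeff 1 s ≠ 0) :
    vX F (toL F s) = exp (-1) := by
  obtain ⟨s1, hs1⟩ : (X : F⟦X⟧) ∣ s := by
    rw [PowerSeries.X_dvd_iff, ← coeff_zero_eq_constantCoeff_apply]; exact h0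
  have h2 : coeff 0 s1 ≠ 0 := by
    have h3 : coeff 1 s = coeff 0 s1 := by
      rw [hs1]
      exact coeff_succ_X_mul 0 s1
    rwa [← h3]
  rw [hs1, map_mul, map_mul, toL_X'', vX_single, vX_toL_eq_one h2, mul_one]

theorem vX_shift_X_add (he : Bd R ε e) (hR : 0 < R) (hε : ε < R) {t : F} (ht : ‖t‖ < R)
    (h0 : LemD_323.ev (X + e) t = 0) : vX F (toL F (shift t (X + e))) = exp (-1) := by
  refine vX_toL_of_coeff ?_ ?_
  · rw [coeff_zero_shift, h0]
  · have h1 : shift t (X + e) = X + C t + shift t e := by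
      rw [Crest.Agent.R013.DU_948.shift_add (bd_X' hR) he ht, shift_X' hR ht]
    have h2 : ‖coeff 1 (shift t e)‖ < 1 := by
      have h3 := bd_shift' he ht 1
      rw [pow_one, ← le_div_iff₀ hR] at h3
      exact h3.trans_lt ((div_lt_one hR).mpr hε)
    intro h3
    rw [h1, map_add, map_add, coeff_one_X, coeff_C, if_neg one_ne_zero, add_zero] at h3
    have h4 : ‖(1 : F)‖ = ‖coeff 1 (shift t e)‖ := by
      rw [eq_neg_of_add_eq_zero_left h3, norm_neg]
    rw [norm_one] at h4
    exact absurd h4 h2.ne'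

/-- **the order of `phi.symm a` at `0` is the order of `a` at the zero of `X + e`** -/
theorem vX_shift_eq (he : Bd R ε e) (hR : 0 < R) (hε : ε < R) {t : F} (ht : ‖t‖ < R)
    (h0 : LemD_323.ev (X + e) t = 0) (a : bsub (K := F) R hR) :
    vX F (toL F (shift t a.1)) = vX F (toL F ((phi he hR hε).symm a).1) := by
  by_cases ha : a.1 = 0
  · have h1 : a = 0 := Subtype.ext ha
    rw [h1, map_zero]
    change vX F (toL F (shift t (0 : F⟦X⟧))) = vX F (toL F (0 : F⟦X⟧))
    rw [shift_zero]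
  set g := (phi he hR hε).symm a with hg
  have hg0 : g.1 ≠ 0 := ne_zero_apply _ ha
  obtain ⟨g1, hg1⟩ := PowerSeries.X_pow_order_dvd (φ := g.1)
  set m := g.1.order.toNat with hm
  have hg1m : g1 ∈ bsub (K := F) R hR := mem_of_X_mul (m := m) (by rw [← hg1]; exact g.2)
  have hc : coeff 0 g1 ≠ 0 := by
    have h2 := PowerSeries.coeff_order hg0
    rw [← hm, hg1] at h2
    have h3 : coeff m (X ^ m * g1) = coeff 0 g1 := by
      have := coeff_X_pow_mul g1 m 0
      rwa [zero_add] at this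
    rwa [h3] at h2
  have h1 : g = ⟨X, X_mem⟩ ^ m * ⟨g1, hg1m⟩ := Subtype.ext (by
    rw [hg1]; rfl)
  have h2 : a = phiHom he hR hε g := (phiHom_symm he hR hε a).symm
  have h3 : shiftE hR ht a = (shiftE hR ht (phiHom he hR hε ⟨X, X_mem⟩)) ^ m *
      shiftE hR ht (phiHom he hR hε ⟨g1, hg1m⟩) := by
    rw [h2, h1, map_mul, map_pow, map_mul, map_pow]
  have h4 : toL F (shift t a.1) = toL F (shift t (X + e)) ^ m *
      toL F (shift t (phiHom he hR hε ⟨g1, hg1m⟩).1) := by
    have h5 : ((shiftE hR ht (phiHom he hR hε ⟨X, X_mem⟩)) ^ m *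
      shiftE hR ht (phiHom he hR hε ⟨g1, hg1m⟩) : bsub (K := F) R hR).1 =
      (shiftE hR ht (phiHom he hR hε ⟨X, X_mem⟩)).1 ^ m *
        (shiftE hR ht (phiHom he hR hε ⟨g1, hg1m⟩)).1 := by
      rw [Subring.coe_mul, SubmonoidClass.coe_pow]
    rw [← coe_shiftE hR ht a, h3, h5, map_mul, map_pow, coe_shiftE, coe_shiftE, phiHom_X]
  have h5 : coeff 0 (shift t (phiHom he hR hε ⟨g1, hg1m⟩).1) ≠ 0 := by
    obtain ⟨B, hB⟩ := hg1m
    rw [coeff_zero_shift, coe_phiHom, ev_cmp' he hR hε hB ht, h0, Crest.Agent.R013.DU_948.ev_zero']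
    exact hc
  rw [h4, map_mul, map_pow, vX_shift_X_add he hR hε ht h0, vX_toL_eq_one h5, hg1, map_mul, map_pow,
    map_mul, map_pow, toL_X'', vX_single, vX_toL_eq_one hc]

end order

section disc

variable {F : Type*} [NontriviallyNormedField F] [IsUltrametricDist F] [CompleteSpace F]
variable {L : Type*} [Field L] [Algebra F L]
variable {R ε : ℝ} {hR : 0 < R} {e : F⟦X⟧} {T : L} {J : L →+* LaurentSeries F}

/-- the expansion in the coordinate `X + e` -/
noncomputable def newJ (he : Bd R ε e) (hR : 0 < R) (hε : ε < R) (hJ : IsDisc hR T J) :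
    L →+* LaurentSeries F := chg (phi he hR hε).symm J hJ.bd

variable (he : Bd R ε e) (hε : ε < R) (hJ : IsDisc hR T J)

theorem newJ_toL {f : L} {a : bsub (K := F) R hR} (h : J f = toL F a.1) :
    newJ he hR hε hJ f = toL F ((phi he hR hε).symm a).1 := chg_toL _ J hJ.bd h

theorem newJ_spec {f : L} {a b : bsub (K := F) R hR} (h : J f * toL F b.1 = toL F a.1) :
    newJ he hR hε hJ f * toL F ((phi he hR hε).symm b).1 = toL F ((phi he hR hε).symm a).1 :=
  chg_spec _ J hJ.bd h

include he hε in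
theorem X_add_mem : X + e ∈ bsub (K := F) R hR := ⟨_, bd_X_add he hR hε.le le_rfl⟩

include he hε in
theorem isDisc_newJ {X₁ : L} (hX : J X₁ = toL F (X + e)) : IsDisc hR X₁ (newJ he hR hε hJ) where
  con c := chg_C _ (symm_C he hR hε) J hJ.bd (hJ.con c)
  par := by
    rw [newJ_toL he hε hJ (a := ⟨X + e, X_add_mem he hε⟩) hX, symm_X_add, toL_X]
  bd := chg_mem _ J hJ.bd

/-- the old coordinate in terms of the new one -/
theorem newJ_T : newJ he hR hε hJ T = toL F ((phi he hR hε).symm ⟨X, X_mem⟩).1 := by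
  refine newJ_toL he hε hJ (a := ⟨X, X_mem⟩) ?_
  rw [hJ.par, toL_X]

theorem exists_newJ_T : ∃ d : F⟦X⟧, Bd R ε d ∧ newJ he hR hε hJ T = toL F (X + d) := by
  refine ⟨((phi he hR hε).symm ⟨X, X_mem⟩).1 - X, bd_d he hR hε, ?_⟩
  rw [newJ_T, add_sub_cancel]

variable [Algebra (RatFunc F) L] [IsScalarTower F (RatFunc F) L]
  [FiniteDimensional (RatFunc F) L] [Algebra.IsSeparable (RatFunc F) L]

/-- **a place of the disc at which `X₁` vanishes is the place of `newJ`** -/
theorem at_newJ {X₁ : L} (hX : J X₁ = toL F (X + e)) {t : F} (ht : ‖t‖ < R) {w : Pl F L}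
    (hw : At hR J t w) (hwX : w.v X₁ < 1) (f : L) : w.v f = vX F (newJ he hR hε hJ f) := by
  -- the point
  have h0 : LemD_323.ev (X + e) t = 0 := by
    have h1 := hw X₁ (X + e) 1 (X_add_mem he hε) (one_mem _)
      (by rw [evl_one]; exact one_ne_zero) (by rw [map_one, mul_one, hX])
    rw [evl_one, div_one] at h1
    by_contra h2
    have h3 := w.const _ h2
    have h4 : algebraMap F L (LemD_323.ev (X + e) t) =
      X₁ - (X₁ - algebraMap F L (LemD_323.ev (X + e) t)) := by ring
    rw [h4] at h3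
    exact absurd h3 ((Valuation.map_sub _ _ _).trans_lt (max_lt hwX h1)).ne
  obtain ⟨Jt, hJt, hspec⟩ := exists_shift hJ ht
  have hw' := Crest.Agent.R013.DU_948.At.eq_plJ (hcon := hJt.con) (hT := hJt.par) hJ ht hspec hw
  rw [hw', Crest.Agent.R013.DU_948.plJ_v]
  by_cases hf : f = 0
  · rw [hf, map_zero, map_zero, map_zero, map_zero]
  obtain ⟨a, b, hb, hab⟩ := exists_rep (hJ.bd f)
  have h1 := hspec f a.1 b.1 a.2 b.2 hb hab
  have h2 := newJ_spec he hε hJ hab
  have h3 := congrArg (vX F) h1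
  have h4 := congrArg (vX F) h2
  rw [map_mul, vX_shift_eq he hR hε ht h0, vX_shift_eq he hR hε ht h0] at h3
  rw [map_mul] at h4
  have h5 : vX F (toL F ((phi he hR hε).symm b).1) ≠ 0 := by
    rw [Valuation.ne_zero_iff]
    exact toL_ne_zero (ne_zero_apply _ hb)
  exact mul_right_cancel₀ h5 (h3.trans h4.symm)

end disc

section coef

variable {C F K : Type*} [Field C] [IsAlgClosed C] [Field F] [Algebra C F] [Field K] [Algebra C K]
  [Algebra (RatFunc C) K] [IsScalarTower C (RatFunc C) K] [FiniteDimensional (RatFunc C) K]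
  [Algebra.IsSeparable (RatFunc C) K]

/-- **the coefficients of an expansion are the coefficients at the place** -/
theorem coeff_eq_coef {J : K →+* LaurentSeries F}
    (hcon : ∀ c : C, J (algebraMap C K c) = HahnSeries.C (algebraMap C F c)) {x : K}
    (hx : J x = HahnSeries.single (1 : ℤ) (1 : F)) {P : Pl C K} (hP : ∀ f, P.v f = vX F (J f))
    (f : K) (n : ℤ) : (J f).coeff n = algebraMap C F (coef P x n f) := by
  have hPx : P.v x = exp (-1) := by rw [hP, hx, vX_single]
  obtain ⟨N, hN⟩ : ∃ N : ℤ, P.v f ≤ exp N := by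
    by_cases hf : f = 0
    · exact ⟨0, by rw [hf, map_zero]; exact zero_le⟩
    · exact ⟨log (P.v f), (exp_log ((Valuation.ne_zero_iff _).mpr hf)).ge⟩
  rcases lt_or_ge n (-N) with hn | hn
  · rw [coef_of_le hPx (hN.trans (exp_le_exp.mpr (by omega))), map_zero]
    rw [hP, ← neg_neg N, vX_le_iff] at hN
    exact hN n hn
  · obtain ⟨m, hm⟩ : ∃ m : ℕ, n < -N + m := by
      refine ⟨(n + N + 1).toNat, ?_⟩
      omega
    have h1 := coef_spec hPx hN m
    have h2 : exp (N - m) = exp (-(-N + (m : ℤ))) := by congr 1; ring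
    rw [h2, hP, vX_le_iff] at h1
    have h3 := h1 n hm
    rw [map_sub, HahnSeries.coeff_sub, sub_eq_zero] at h3
    rw [h3, map_sum]
    have h4 : ∀ k : ℤ, J (coef P x k f • x ^ k) =
        HahnSeries.single k (algebraMap C F (coef P x k f)) := by
      intro k
      rw [Algebra.smul_def, map_mul, hcon, map_zpow₀, hx]
      have h5 : (HahnSeries.single (1 : ℤ) (1 : F)) ^ k = HahnSeries.single k (1 : F) := by
        exact (RatFunc.single_zpow k).symm
      rw [h5, HahnSeries.C_mul_eq_smul]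
      ext i
      rw [HahnSeries.coeff_smul, HahnSeries.coeff_single, HahnSeries.coeff_single]
      split_ifs
      · rw [smul_eq_mul, mul_one]
      · rw [smul_zero]
    rw [Finset.sum_congr rfl fun k _ => h4 k]
    have h6 : (∑ k ∈ Finset.Ico (-N) (-N + (m : ℤ)),
        HahnSeries.single k (algebraMap C F (coef P x k f))).coeff n =
        ∑ k ∈ Finset.Ico (-N) (-N + (m : ℤ)),
          (HahnSeries.single k (algebraMap C F (coef P x k f))).coeff n := by
      rw [HahnSeries.coeff_sum]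
    rw [h6, Finset.sum_eq_single n]
    · rw [HahnSeries.coeff_single_same]
    · intro k _ hk
      rw [HahnSeries.coeff_single_of_ne (Ne.symm hk)]
    · intro h
      exact absurd (Finset.mem_Ico.mpr ⟨hn, hm⟩) h

end coef

section forms

variable {F : Type*} [NontriviallyNormedField F] [IsUltrametricDist F] [CompleteSpace F]
variable {L : Type*} [Field L] [Algebra F L] [Algebra (RatFunc F) L] [IsScalarTower F (RatFunc F) L]
  [Algebra.IsSeparable (RatFunc F) L]
variable {R ε : ℝ} {hR : 0 < R} {e : F⟦X⟧} {T : L} {J : L →+* LaurentSeries F}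
variable (he : Bd R ε e) (hε : ε < R) (hJ : IsDisc hR T J)

include he hε in
theorem Dom.symm {b : bsub (K := F) R hR} (hb : Dom R b.1) : Dom R ((phi he hR hε).symm b).1 := by
  refine (Dom.congr hR hb (bd_symm_sub he hR hε b hb.bd) ?_).1
  have h1 : ε / R < 1 := (div_lt_one hR).mpr hε
  calc ε / R * ‖coeff 0 b.1‖ < 1 * ‖coeff 0 b.1‖ := mul_lt_mul_of_pos_right h1 hb.pos
    _ = _ := one_mul _

theorem bsub_of_dom {b : F⟦X⟧} (hb : Dom R b) : b ∈ bsub (K := F) R hR := ⟨_, hb.bd⟩

/-- a quotient of dominant series -/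
theorem exists_toL_div {y : LaurentSeries F} {b g : F⟦X⟧} (hb : Dom R b) (hg : Dom R g)
    (h : y * toL F g = toL F b) (hR : 0 < R) : ∃ β, Dom R β ∧ y = toL F β := by
  have h1 := dom_inv_mul hg.1
  refine ⟨b * g⁻¹, hb.mul hR (Dom.inv hR hg h1), ?_⟩
  rw [map_mul, ← h, mul_assoc, ← map_mul, h1, map_one, mul_one]

/-- **forms in the new coordinate** -/
theorem newJ_form {X₁ : L} (hX : J X₁ = toL F (X + e)) {f : L} {b : F⟦X⟧} (hb : Dom R b)
    (hf : J (f / del F L T) = toL F b) :
    ∃ β, Dom R β ∧ newJ he hR hε hJ (f / del F L X₁) = toL F β := by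
  obtain ⟨hT0, h1⟩ := dLf_J' hJ.con hJ.par X₁
  rw [hX, dLf_toL] at h1
  have h2 : d⁄dX F (X + e) = 1 + d⁄dX F e := by
    rw [map_add, PowerSeries.derivative_X]
  have hε1 : ε / R < 1 := (div_lt_one hR).mpr hε
  have hg : Dom R (d⁄dX F (X + e)) := by
    rw [h2]; exact dom_one_add hR (bd_deriv hR he) hε1
  have h3 := newJ_toL he hε hJ (a := ⟨_, bsub_of_dom hg⟩) h1.symm
  have h4 := newJ_toL he hε hJ (a := ⟨_, bsub_of_dom hb⟩) hf
  have h5 : f / del F L X₁ * (del F L X₁ / del F L T) = f / del F L T := by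
    have h6 : del F L X₁ ≠ 0 := by
      intro h7
      rw [h7, zero_div, map_zero] at h1
      exact toL_ne_zero (fun h8 => hg.1 (by rw [h8]; exact map_zero _)) h1
    field_simp
  have h7 := congrArg (newJ he hR hε hJ) h5
  rw [map_mul, h3, h4] at h7
  exact exists_toL_div (hb := Dom.symm he hε (b := ⟨_, bsub_of_dom hb⟩) hb)
    (hg := Dom.symm he hε (b := ⟨_, bsub_of_dom hg⟩) hg) h7 hR

end forms

end Crest.Agent.R013.DUni_429
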