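import Mathlib

/-!
# R013 / Small2: expansions at a rational place with uniformiser `x` (helper940)

`IsExp i P x J` : `J : Y →+* LaurentSeries C` is the expansion at the place `P` in the uniformiser
`x` (`i : C →+* Y` the constants).  Uniqueness, equivariance, coefficients in subfields, order.
-/

set_option autoImplicit false
set_option linter.unusedSectionVars false

namespace Crest.Agent.R013.Small2_940

open scoped NNReal

/-- `P` is rational over `i : C →+* Y`, with uniformiser `x` -/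
structure RU {C Y : Type*} [Field C] [Field Y] (i : C →+* Y) (P : Valuation Y ℝ≥0) (x : Y) : Prop where
  rat : ∀ a, P a ≤ 1 → ∃ c, P (a - i c) < 1
  lt_one : P x < 1
  unif : ∀ a, P a < 1 → P a ≤ P x
  ne : x ≠ 0

/-- `J` is an expansion at `(P, x)` -/
structure IsExp {C Y : Type*} [Field C] [Field Y] (i : C →+* Y) (P : Valuation Y ℝ≥0) (x : Y)
    (J : Y →+* LaurentSeries C) : Prop where
  con : ∀ c, J (i c) = HahnSeries.C c
  par : J x = HahnSeries.single (1 : ℤ) (1 : C)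
  nonneg : ∀ a, P a ≤ 1 → ∀ n < 0, (J a).coeff n = 0

section

variable {C Y : Type*} [Field C] [Field Y] {i : C →+* Y} {P : Valuation Y ℝ≥0} {x : Y}

theorem RU.pos (h : RU i P x) : 0 < P x := by
  rw [Valuation.pos_iff]; exact h.ne

theorem RU.div_le (h : RU i P x) {a : Y} (ha : P a < 1) : P (a / x) ≤ 1 := by
  rw [map_div₀]
  exact div_le_one_of_le₀ (h.unif a ha) zero_le

theorem RU.exists_pow (h : RU i P x) {a : Y} (ha : a ≠ 0) : ∃ n : ℤ, P a = P x ^ n := by
  -- first the case `P a ≤ 1`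
  have key : ∀ (N : ℕ) (a : Y), P x ^ N < P a → P a ≤ 1 → ∃ n : ℕ, P a = P x ^ n := by
    intro N
    induction N with
    | zero =>
      intro a h1 h2
      rw [pow_zero] at h1
      exact absurd (h1.trans_le h2) (lt_irrefl _)
    | succ N ih =>
      intro a h1 h2
      rcases h2.lt_or_eq with h3 | h3
      · have h4 := h.div_le h3
        have h5 : P x ^ N < P (a / x) := by
          rw [map_div₀, lt_div_iff₀ h.pos, ← pow_succ]
          exact h1
        obtain ⟨n, hn⟩ := ih _ h5 h4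
        refine ⟨n + 1, ?_⟩
        rw [map_div₀, div_eq_iff h.pos.ne'] at hn
        rw [hn, pow_succ]
      · exact ⟨0, by rw [h3, pow_zero]⟩
  have key' : ∀ a : Y, a ≠ 0 → P a ≤ 1 → ∃ n : ℕ, P a = P x ^ n := by
    intro a ha h1
    obtain ⟨N, hN⟩ := exists_pow_lt_of_lt_one (show 0 < P a by rwa [Valuation.pos_iff]) h.lt_one
    exact key N a hN h1
  rcases le_total (P a) 1 with h1 | h1
  · obtain ⟨n, hn⟩ := key' a ha h1
    exact ⟨n, by rw [hn, zpow_natCast]⟩
  · obtain ⟨n, hn⟩ := key' a⁻¹ (inv_ne_zero ha) (by rw [map_inv₀]; exact inv_le_one_of_one_le₀ h1)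
    refine ⟨-n, ?_⟩
    rw [map_inv₀, inv_eq_iff_eq_inv] at hn
    rw [hn, zpow_neg, zpow_natCast]

theorem RU.comap {D Z : Type*} [Field D] [Field Z] {j : D →+* Z} {f : Z →+* Y} {x : Z}
    (h : RU i P (f x)) (hr : ∀ a : Z, P (f a) ≤ 1 → ∃ c, P (f (a - j c)) < 1) :
    RU j (P.comap f) x where
  rat := hr
  lt_one := h.lt_one
  unif a ha := h.unif _ ha
  ne := fun h0 => h.ne (by rw [h0, map_zero])

theorem coeff_T_mul (f : LaurentSeries C) (n : ℤ) :
    (HahnSeries.single (1 : ℤ) (1 : C) * f).coeff (n + 1) = f.coeff n := by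
  rw [HahnSeries.coeff_single_mul_add, one_mul]

theorem coeff_T_mul' (f : LaurentSeries C) (n : ℤ) :
    (HahnSeries.single (1 : ℤ) (1 : C) * f).coeff n = f.coeff (n - 1) := by
  have := coeff_T_mul f (n - 1)
  rwa [sub_add_cancel] at this

variable {J : Y →+* LaurentSeries C}

theorem IsExp.eq_step (hJ : IsExp i P x J) (hx : x ≠ 0) (a : Y) (c : C) :
    J a = HahnSeries.C c + HahnSeries.single (1 : ℤ) (1 : C) * J ((a - i c) / x) := by
  rw [← hJ.par, ← map_mul, ← hJ.con, ← map_add]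
  congr 1
  field_simp
  ring

theorem IsExp.coeff_zero_eq (hJ : IsExp i P x J) (h : RU i P x) {a : Y} {c : C}
    (hc : P (a - i c) < 1) : (J a).coeff 0 = c := by
  rw [hJ.eq_step h.ne a c, HahnSeries.coeff_add, coeff_T_mul', HahnSeries.C_apply,
    HahnSeries.coeff_single, if_pos rfl, hJ.nonneg _ (h.div_le hc) _ (by norm_num), add_zero]

theorem IsExp.sub_coeff_lt (hJ : IsExp i P x J) (h : RU i P x) {a : Y} (ha : P a ≤ 1) :
    P (a - i ((J a).coeff 0)) < 1 := by
  obtain ⟨c, hc⟩ := h.rat a ha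
  rwa [hJ.coeff_zero_eq h hc]

theorem IsExp.coeff_succ (hJ : IsExp i P x J) (hx : x ≠ 0) (a : Y) (c : C) (n : ℕ) :
    (J a).coeff ((n + 1 : ℕ) : ℤ) = (J ((a - i c) / x)).coeff (n : ℤ) := by
  rw [hJ.eq_step hx a c, HahnSeries.coeff_add, Nat.cast_succ, coeff_T_mul, HahnSeries.C_apply,
    HahnSeries.coeff_single, if_neg (by positivity), zero_add]

theorem IsExp.coeff_mul_pow (hJ : IsExp i P x J) (a : Y) (n : ℕ) (m : ℤ) :
    (J (x ^ n * a)).coeff (m + n) = (J a).coeff m := by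
  induction n with
  | zero => rw [pow_zero, one_mul, Nat.cast_zero, add_zero]
  | succ n ih =>
    rw [← ih, pow_succ', mul_assoc, map_mul, hJ.par, Nat.cast_succ, ← add_assoc, coeff_T_mul]

/-- **equivariance / uniqueness** -/
theorem IsExp.equiv {C' Y' : Type*} [Field C'] [Field Y'] {i' : C' →+* Y'}
    {P' : Valuation Y' ℝ≥0} {x' : Y'} {J' : Y' →+* LaurentSeries C'} (hJ : IsExp i P x J)
    (hJ' : IsExp i' P' x' J') (h : RU i P x) (hx' : x' ≠ 0) (s : Y →+* Y') (t : C →+* C')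
    (hs : ∀ c, s (i c) = i' (t c)) (hsx : s x = x') (hP : ∀ a, P a ≤ 1 → P' (s a) ≤ 1) (a : Y)
    (n : ℤ) : (J' (s a)).coeff n = t ((J a).coeff n) := by
  -- nonnegative part
  have key : ∀ (n : ℕ) (a : Y), P a ≤ 1 → (J' (s a)).coeff (n : ℤ) = t ((J a).coeff (n : ℤ)) := by
    intro n
    induction n with
    | zero =>
      intro a ha
      have h1 := hJ.sub_coeff_lt h ha
      set c := (J a).coeff 0 with hc
      have h2 := hP _ (h.div_le h1)
      rw [map_div₀, map_sub, hs, hsx] at h2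
      rw [Nat.cast_zero, ← hc, hJ'.eq_step hx' (s a) (t c), HahnSeries.coeff_add, coeff_T_mul',
        HahnSeries.C_apply, HahnSeries.coeff_single, if_pos rfl, hJ'.nonneg _ h2 _ (by norm_num),
        add_zero]
    | succ n ih =>
      intro a ha
      have h1 := hJ.sub_coeff_lt h ha
      set c := (J a).coeff 0 with hc
      have h2 := ih _ (h.div_le h1)
      have h3 : s ((a - i c) / x) = (s a - i' (t c)) / x' := by rw [map_div₀, map_sub, hs, hsx]
      rw [hJ'.coeff_succ hx' (s a) (t c), hJ.coeff_succ h.ne a c, ← h2, h3]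
  -- the general case
  have key2 : ∀ (n : ℤ) (a : Y), P a ≤ 1 → (J' (s a)).coeff n = t ((J a).coeff n) := by
    intro n a ha
    rcases lt_or_ge n 0 with hn | hn
    · rw [hJ.nonneg a ha n hn, hJ'.nonneg _ (hP a ha) n hn, map_zero]
    · obtain ⟨m, rfl⟩ := Int.eq_ofNat_of_zero_le hn
      exact key m a ha
  obtain ⟨N, hN⟩ : ∃ N : ℕ, P (x ^ N * a) ≤ 1 := by
    rcases eq_or_ne a 0 with rfl | ha
    · exact ⟨0, by rw [mul_zero, map_zero]; exact zero_le⟩
    · obtain ⟨N, hN⟩ := exists_pow_lt_of_lt_one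
        (show 0 < (P a)⁻¹ by rw [inv_pos, Valuation.pos_iff]; exact ha) h.lt_one
      refine ⟨N, ?_⟩
      rw [map_mul, map_pow]
      have h1 : 0 < P a := by rwa [Valuation.pos_iff]
      rw [← inv_inv (P a), ← div_eq_mul_inv]
      exact div_le_one_of_le₀ hN.le zero_le
  have h3 := key2 (n + N) _ hN
  rw [map_mul, map_pow, hsx, hJ'.coeff_mul_pow, hJ.coeff_mul_pow] at h3
  exact h3

/-- coefficients in subfields -/
theorem IsExp.coeff_mem (hJ : IsExp i P x J) (h : RU i P x) (L : Subfield Y) (D : Subfield C)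
    (hxL : x ∈ L) (hD : ∀ c ∈ D, i c ∈ L) (hr : ∀ a ∈ L, P a ≤ 1 → ∃ c ∈ D, P (a - i c) < 1)
    {a : Y} (ha : a ∈ L) (n : ℤ) : (J a).coeff n ∈ D := by
  have key : ∀ (n : ℕ) (a : Y), a ∈ L → P a ≤ 1 → (J a).coeff (n : ℤ) ∈ D := by
    intro n
    induction n with
    | zero =>
      intro a ha ha1
      obtain ⟨c, hc, hc1⟩ := hr a ha ha1
      rw [Nat.cast_zero, hJ.coeff_zero_eq h hc1]
      exact hc
    | succ n ih =>
      intro a ha ha1
      obtain ⟨c, hc, hc1⟩ := hr a ha ha1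
      rw [hJ.coeff_succ h.ne a c]
      exact ih _ (div_mem (sub_mem ha (hD c hc)) hxL) (h.div_le hc1)
  obtain ⟨N, hN⟩ : ∃ N : ℕ, P (x ^ N * a) ≤ 1 := by
    rcases eq_or_ne a 0 with rfl | ha
    · exact ⟨0, by rw [mul_zero, map_zero]; exact zero_le⟩
    · obtain ⟨N, hN⟩ := exists_pow_lt_of_lt_one
        (show 0 < (P a)⁻¹ by rw [inv_pos, Valuation.pos_iff]; exact ha) h.lt_one
      refine ⟨N, ?_⟩
      rw [map_mul, map_pow]
      rw [← inv_inv (P a), ← div_eq_mul_inv]
      exact div_le_one_of_le₀ hN.le zero_le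
  have hmem : x ^ N * a ∈ L := mul_mem (pow_mem hxL N) ha
  rw [← hJ.coeff_mul_pow a N n]
  rcases lt_or_ge (n + N) 0 with hn | hn
  · rw [hJ.nonneg _ hN _ hn]; exact zero_mem D
  · obtain ⟨m, hm⟩ := Int.eq_ofNat_of_zero_le hn
    rw [hm]
    exact key m _ hmem hN

/-- `P a = P x ^ order` -/
theorem IsExp.val_eq (hJ : IsExp i P x J) (h : RU i P x) {a : Y} (ha : a ≠ 0) :
    P a = P x ^ (J a).order := by
  obtain ⟨n, hn⟩ := h.exists_pow ha
  suffices h1 : (J a).order = n by rw [h1, hn]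
  have hJx : ∀ m : ℤ, J (x ^ m) = HahnSeries.single m 1 := by
    have h1 : ∀ m : ℕ, J (x ^ m) = HahnSeries.single (m : ℤ) 1 := by
      intro m
      rw [map_pow, hJ.par, HahnSeries.single_pow, one_pow, nsmul_eq_mul, mul_one]
    intro m
    rcases Int.eq_nat_or_neg m with ⟨m, rfl | rfl⟩
    · rw [zpow_natCast, h1]
    · rw [zpow_neg, zpow_natCast, map_inv₀, h1, HahnSeries.inv_single, inv_one]
  have h0 : J a ≠ 0 := (map_ne_zero J).mpr ha
  have hP : P (a * x ^ (-n)) = 1 := by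
    rw [map_mul, map_zpow₀, hn, ← zpow_add₀ h.pos.ne', add_neg_cancel, zpow_zero]
  have hP' : P (a * x ^ (-n))⁻¹ = 1 := by rw [map_inv₀, hP, inv_one]
  have hne : a * x ^ (-n) ≠ 0 := mul_ne_zero ha (zpow_ne_zero _ h.ne)
  have e1 : ∀ b : Y, b ≠ 0 → P b ≤ 1 → 0 ≤ (J b).order := by
    intro b hb hb1
    by_contra hc
    push Not at hc
    have := hJ.nonneg b hb1 _ hc
    exact HahnSeries.coeff_order_eq_zero.not.2 ((map_ne_zero J).mpr hb) this
  have e2 := e1 _ hne hP.le
  have e3 := e1 _ (inv_ne_zero hne) hP'.le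
  have e4 : (J (a * x ^ (-n))).order = (J a).order - n := by
    rw [map_mul, hJx, HahnSeries.order_mul h0 (by
      rw [ne_eq, HahnSeries.single_eq_zero_iff]; exact one_ne_zero), HahnSeries.order_single one_ne_zero]
    ring
  have e5 : (J (a * x ^ (-n))⁻¹).order = -(J (a * x ^ (-n))).order := by
    have h1 : J (a * x ^ (-n)) * J (a * x ^ (-n))⁻¹ = 1 := by
      rw [← map_mul, mul_inv_cancel₀ hne, map_one]
    have h2 := congrArg HahnSeries.order h1
    rw [HahnSeries.order_mul ((map_ne_zero J).mpr hne) ((map_ne_zero J).mpr (inv_ne_zero hne)),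
      HahnSeries.order_one] at h2
    linarith
  linarith

theorem IsExp.order_pos (hJ : IsExp i P x J) (h : RU i P x) {a : Y} (ha : P a ≤ 1) (n : ℕ)
    (hn : ∀ m < n, (J a).coeff (m : ℤ) = 0) : P a ≤ P x ^ n := by
  rcases eq_or_ne a 0 with rfl | h0
  · rw [map_zero]; exact zero_le
  rw [hJ.val_eq h h0]
  have h1 : (n : ℤ) ≤ (J a).order := by
    by_contra hc
    push Not at hc
    have h2 := HahnSeries.coeff_order_eq_zero.not.2 ((map_ne_zero J).mpr h0)
    rcases lt_or_ge (J a).order 0 with h3 | h3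
    · exact h2 (hJ.nonneg a ha _ h3)
    · obtain ⟨m, hm⟩ := Int.eq_ofNat_of_zero_le h3
      rw [hm] at h2 hc
      exact h2 (hn m (by exact_mod_cast hc))
  rw [← zpow_natCast]
  exact zpow_le_zpow_right_of_le_one₀ h.pos h.lt_one.le h1

end

end Crest.Agent.R013.Small2_940
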