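import Crest.Agent.R013.Good4_940
import Crest.Agent.R013.Small2_940
import Crest.Agent.R013.Puis3_702

/-!
# R013 / Small3: fields of functions on small discs inside Laurent series (helper940)

`frB D hR` : the subfield of `F((X))` of quotients of power series with coefficients in `D`,
bounded at the radius `R`.
`frL` : `FDisc F R →+* F((X))`; `lift` : a ring hom `Y → F((X))` with values in `frB ⊤ hR` lifts to
`FDisc F R`.
-/

set_option autoImplicit false
set_option linter.unusedSectionVars false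

namespace Crest.Agent.R013.Small3_940

open PowerSeries Filter
open scoped NNReal Topology
open Crest.Agent.R013.KAS2_940 (Bd bd_zero bd_one bd_C)
open Crest.Agent.R013.KAS2_940
open Crest.Agent.R013.KAS3_940 Crest.Agent.R013.Good1_940 Crest.Agent.R013.Gl946
open Crest.Agent.R013.Good3_940
open Crest.Agent.R013.Puis_702 (mapL coeff_mapL exists_pow_mul)

section frB

variable {F : Type*} [NontriviallyNormedField F] [IsUltrametricDist F]

/-- power series as Laurent series -/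
noncomputable abbrev toL (F : Type*) [Field F] : F⟦X⟧ →+* LaurentSeries F :=
  HahnSeries.ofPowerSeries ℤ F

/-- bounded power series with coefficients in `D` -/
def bsD (D : Subfield F) {R : ℝ} (hR : 0 < R) : Subring F⟦X⟧ where
  carrier := {f | (∀ n, coeff n f ∈ D) ∧ f ∈ bsub (K := F) R hR}
  mul_mem' := by
    rintro f g ⟨hf, hf'⟩ ⟨hg, hg'⟩
    refine ⟨fun n => ?_, mul_mem hf' hg'⟩
    rw [coeff_mul]
    exact sum_mem fun x _ => mul_mem (hf _) (hg _)
  one_mem' := by
    refine ⟨fun n => ?_, one_mem _⟩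
    rw [coeff_one]
    split_ifs
    · exact one_mem _
    · exact zero_mem _
  add_mem' := by
    rintro f g ⟨hf, hf'⟩ ⟨hg, hg'⟩
    exact ⟨fun n => by rw [map_add]; exact add_mem (hf n) (hg n), add_mem hf' hg'⟩
  zero_mem' := ⟨fun n => by rw [map_zero]; exact zero_mem _, zero_mem _⟩
  neg_mem' := by
    rintro f ⟨hf, hf'⟩
    exact ⟨fun n => by rw [map_neg]; exact neg_mem (hf n), neg_mem hf'⟩

theorem mem_bsD {D : Subfield F} {R : ℝ} {hR : 0 < R} {f : F⟦X⟧} :
    f ∈ bsD D hR ↔ (∀ n, coeff n f ∈ D) ∧ ∃ B, Bd R B f := Iff.rfl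

/-- quotients of bounded power series with coefficients in `D` -/
def frB (D : Subfield F) {R : ℝ} (hR : 0 < R) : Subfield (LaurentSeries F) where
  carrier := {z | ∃ a ∈ bsD D hR, ∃ b ∈ bsD D hR, b ≠ 0 ∧ z * toL F b = toL F a}
  mul_mem' := by
    rintro z z' ⟨a, ha, b, hb, hb0, h⟩ ⟨a', ha', b', hb', hb0', h'⟩
    refine ⟨a * a', mul_mem ha ha', b * b', mul_mem hb hb', mul_ne_zero hb0 hb0', ?_⟩
    rw [map_mul, map_mul, ← h, ← h']; ring
  one_mem' := ⟨1, one_mem _, 1, one_mem _, one_ne_zero, by rw [one_mul]⟩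
  add_mem' := by
    rintro z z' ⟨a, ha, b, hb, hb0, h⟩ ⟨a', ha', b', hb', hb0', h'⟩
    refine ⟨a * b' + a' * b, add_mem (mul_mem ha hb') (mul_mem ha' hb), b * b', mul_mem hb hb',
      mul_ne_zero hb0 hb0', ?_⟩
    rw [map_mul, map_add, map_mul, map_mul, ← h, ← h']; ring
  zero_mem' := ⟨0, zero_mem _, 1, one_mem _, one_ne_zero, by rw [zero_mul, map_zero]⟩
  neg_mem' := by
    rintro z ⟨a, ha, b, hb, hb0, h⟩
    exact ⟨-a, neg_mem ha, b, hb, hb0, by rw [map_neg, neg_mul, h]⟩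
  inv_mem' := by
    rintro z ⟨a, ha, b, hb, hb0, h⟩
    by_cases hz : z = 0
    · subst hz
      rw [inv_zero]
      exact ⟨0, zero_mem _, 1, one_mem _, one_ne_zero, by rw [zero_mul, map_zero]⟩
    · refine ⟨b, hb, a, ha, ?_, ?_⟩
      · rintro rfl
        rw [map_zero] at h
        rcases mul_eq_zero.mp h with h | h
        · exact hz h
        · exact hb0 (HahnSeries.ofPowerSeries_injective (by rw [h, map_zero]))
      · rw [← h, ← mul_assoc, inv_mul_cancel₀ hz, one_mul]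

theorem mem_frB {D : Subfield F} {R : ℝ} {hR : 0 < R} {z : LaurentSeries F} :
    z ∈ frB D hR ↔ ∃ a ∈ bsD D hR, ∃ b ∈ bsD D hR, b ≠ 0 ∧ z * toL F b = toL F a := Iff.rfl

theorem bsD_mono {D D' : Subfield F} (h : D ≤ D') {R : ℝ} {hR : 0 < R} : bsD D hR ≤ bsD D' hR :=
  fun _ hf => ⟨fun n => h (hf.1 n), hf.2⟩

theorem frB_mono {D D' : Subfield F} (h : D ≤ D') {R : ℝ} {hR : 0 < R} : frB D hR ≤ frB D' hR := by
  rintro z ⟨a, ha, b, hb, hb0, hz⟩
  exact ⟨a, bsD_mono h ha, b, bsD_mono h hb, hb0, hz⟩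

theorem bsub_mono {R R' : ℝ} {hR : 0 < R} {hR' : 0 < R'} (h : R' ≤ R) :
    bsub (K := F) R hR ≤ bsub (K := F) R' hR' := by
  rintro f ⟨B, hB⟩
  exact ⟨B, hB.mono_left hR'.le h⟩

theorem frB_anti {D : Subfield F} {R R' : ℝ} {hR : 0 < R} {hR' : 0 < R'} (h : R' ≤ R) :
    frB D hR ≤ frB D hR' := by
  rintro z ⟨a, ha, b, hb, hb0, hz⟩
  exact ⟨a, ⟨ha.1, bsub_mono h ha.2⟩, b, ⟨hb.1, bsub_mono h hb.2⟩, hb0, hz⟩

theorem C_mem_bsD {D : Subfield F} {R : ℝ} {hR : 0 < R} {c : F} (hc : c ∈ D) :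
    (C c : F⟦X⟧) ∈ bsD D hR := by
  refine ⟨fun n => ?_, C_mem c⟩
  rw [coeff_C]
  split_ifs
  · exact hc
  · exact zero_mem _

theorem X_mem_bsD {D : Subfield F} {R : ℝ} {hR : 0 < R} : (X : F⟦X⟧) ∈ bsD D hR := by
  refine ⟨fun n => ?_, X_mem⟩
  rw [coeff_X]
  split_ifs
  · exact one_mem _
  · exact zero_mem _

theorem toL_mem_frB {D : Subfield F} {R : ℝ} {hR : 0 < R} {f : F⟦X⟧} (hf : f ∈ bsD D hR) :
    toL F f ∈ frB D hR := ⟨f, hf, 1, one_mem _, one_ne_zero, by rw [map_one, mul_one]⟩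

theorem C_mem_frB {D : Subfield F} {R : ℝ} {hR : 0 < R} {c : F} (hc : c ∈ D) :
    (HahnSeries.C c : LaurentSeries F) ∈ frB D hR := by
  rw [← HahnSeries.ofPowerSeries_C]
  exact toL_mem_frB (C_mem_bsD hc)

theorem X_mem_frB {D : Subfield F} {R : ℝ} {hR : 0 < R} :
    (HahnSeries.single (1 : ℤ) (1 : F)) ∈ frB D hR := by
  rw [← HahnSeries.ofPowerSeries_X]
  exact toL_mem_frB X_mem_bsD

theorem mem_frB_of_bdd {D : Subfield F} {R : ℝ} {hR : 0 < R} {z : LaurentSeries F} {B : ℝ}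
    (hD : ∀ i, z.coeff i ∈ D) (hB : ∀ i : ℤ, ‖z.coeff i‖ * R ^ i ≤ B) : z ∈ frB D hR := by
  obtain ⟨N, hN⟩ := exists_pow_mul z
  obtain ⟨w, hw⟩ := hN N le_rfl
  have hcoeff : ∀ n : ℕ, coeff n w = z.coeff ((n : ℤ) - N) := by
    intro n
    have h1 : (toL F w).coeff (n : ℤ) = coeff n w := by
      exact HahnSeries.ofPowerSeries_apply_coeff _ _
    rw [← h1, toL, ← hw, map_pow, HahnSeries.ofPowerSeries_X, HahnSeries.single_pow]
    have h2 : (N • (1 : ℤ)) = (N : ℤ) := by simp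
    rw [h2, one_pow, HahnSeries.coeff_single_mul, one_mul]
  refine ⟨w, ⟨fun n => by rw [hcoeff]; exact hD _, B * R ^ (N : ℤ), fun n => ?_⟩, X ^ N,
    pow_mem X_mem_bsD N, pow_ne_zero _ X_ne_zero, ?_⟩
  · rw [hcoeff]
    have h3 : (R : ℝ) ^ n = R ^ ((n : ℤ) - N) * R ^ (N : ℤ) := by
      rw [← zpow_add₀ hR.ne', sub_add_cancel, zpow_natCast]
    rw [h3, ← mul_assoc]
    exact mul_le_mul_of_nonneg_right (hB _) (by positivity)
  · rw [mul_comm]; exact hw

end frB

section lift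

/-- factorisation of ring homs through an injective ring hom -/
noncomputable def liftInj {A B Y : Type*} [Semiring A] [Semiring B] [Semiring Y] (f : A →+* B)
    (hf : Function.Injective f) (J : Y →+* B) (h : ∀ z, ∃ a, f a = J z) : Y →+* A where
  toFun z := (h z).choose
  map_one' := hf (by rw [(h 1).choose_spec, map_one, map_one])
  map_mul' a b := hf (by
    rw [(h (a * b)).choose_spec, map_mul, map_mul, (h a).choose_spec, (h b).choose_spec])
  map_zero' := hf (by rw [(h 0).choose_spec, map_zero, map_zero])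
  map_add' a b := hf (by
    rw [(h (a + b)).choose_spec, map_add, map_add, (h a).choose_spec, (h b).choose_spec])

theorem liftInj_spec {A B Y : Type*} [Semiring A] [Semiring B] [Semiring Y] (f : A →+* B)
    (hf : Function.Injective f) (J : Y →+* B) (h : ∀ z, ∃ a, f a = J z) (z : Y) :
    f (liftInj f hf J h z) = J z := (h z).choose_spec

end lift

section frL

variable {F : Type*} [NontriviallyNormedField F] [IsUltrametricDist F]

/-- the disc field inside the Laurent series -/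
noncomputable def frL {R : ℝ} (hR : 0 < R) : FDisc F R hR →+* LaurentSeries F :=
  IsFractionRing.lift (g := (toL F).comp (bsub (K := F) R hR).subtype)
    (HahnSeries.ofPowerSeries_injective.comp Subtype.val_injective)

theorem frL_algebraMap {R : ℝ} {hR : 0 < R} (f : bsub (K := F) R hR) :
    frL hR (algebraMap _ (FDisc F R hR) f) = toL F f.1 :=
  IsFractionRing.lift_algebraMap _ f

theorem mem_range_frL {R : ℝ} {hR : 0 < R} {z : LaurentSeries F}
    (hz : z ∈ frB (⊤ : Subfield F) hR) : ∃ w, frL (F := F) hR w = z := by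
  obtain ⟨a, ha, b, hb, hb0, h⟩ := hz
  refine ⟨algebraMap _ _ (⟨a, ha.2⟩ : bsub (K := F) R hR) / algebraMap _ _ (⟨b, hb.2⟩ : bsub (K := F) R hR), ?_⟩
  rw [map_div₀, frL_algebraMap, frL_algebraMap, ← h, mul_div_cancel_right₀]
  rw [ne_eq, map_eq_zero_iff _ HahnSeries.ofPowerSeries_injective]
  exact hb0

/-- **lifting of expansions to the disc field** -/
noncomputable def liftD {R : ℝ} (hR : 0 < R) {Y : Type*} [Field Y] (J : Y →+* LaurentSeries F)
    (h : ∀ z, J z ∈ frB (⊤ : Subfield F) hR) : Y →+* FDisc F R hR :=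
  liftInj (frL hR) (frL hR).injective J fun z => mem_range_frL (h z)

theorem frL_liftD {R : ℝ} {hR : 0 < R} {Y : Type*} [Field Y] {J : Y →+* LaurentSeries F}
    {h : ∀ z, J z ∈ frB (⊤ : Subfield F) hR} (z : Y) : frL hR (liftD hR J h z) = J z :=
  liftInj_spec _ _ _ _ z

theorem liftD_eq {R : ℝ} {hR : 0 < R} {Y : Type*} [Field Y] {J : Y →+* LaurentSeries F}
    {h : ∀ z, J z ∈ frB (⊤ : Subfield F) hR} {z : Y} {w : FDisc F R hR} (hw : J z = frL hR w) :
    liftD hR J h z = w := (frL hR).injective (by rw [frL_liftD, hw])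

end frL

end Crest.Agent.R013.Small3_940
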