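import Crest.Agent.R013.Disc_702
import Crest.Agent.R013.Small3_940
import Crest.Agent.R013.RR13_948
import Crest.Agent.R013.GR2_921

/-!
# Row 13 (helper702): (U2) of the D-LINE: the disc around a place of a function field over a
complete algebraically closed field, with a given uniformiser
-/

set_option autoImplicit false
set_option linter.unusedSectionVars false

open scoped NNReal
open Polynomial WithZero

namespace Crest.Agent.R013.U2_702

open Crest.Agent.R013.KAS2_940 Crest.Agent.R013.KAS3_940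
open Crest.Agent.R013.Good1_940 Crest.Agent.R013.Good3_940
open Crest.Agent.R013.Puis_702 Crest.Agent.R013.Lau_702 Crest.Agent.R013.Disc_702
open Crest.Agent.R013.RR7_948 Crest.Agent.R013.RR13_948
open Crest.Agent.R013.Small3_940 (bsD frB mem_frB mem_bsD toL_mem_frB)

variable {F : Type*} [NontriviallyNormedField F] [IsUltrametricDist F]

theorem range_toL_le {ρ : ℝ} (hρ : 0 < ρ) {z : LaurentSeries F}
    (hz : z ∈ (Disc_702.toL (k := F) ρ hρ).fieldRange) : z ∈ frB (⊤ : Subfield F) hρ := by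
  obtain ⟨w, rfl⟩ := hz
  obtain ⟨a, b, hb, rfl⟩ := IsFractionRing.div_surjective (A := bsub (K := F) ρ hρ) w
  rw [map_div₀, Disc_702.toL_algebraMap, Disc_702.toL_algebraMap]
  have key : ∀ f : bsub (K := F) ρ hρ,
      HahnSeries.ofPowerSeries ℤ F f.1 ∈ frB (⊤ : Subfield F) hρ := fun f =>
    toL_mem_frB ⟨fun _ => Subfield.mem_top _, f.2⟩
  exact div_mem (key a) (key b)

variable {L : Type*} [Field L] [Algebra F L] [Algebra (RatFunc F) L]
  [IsScalarTower F (RatFunc F) L] [FiniteDimensional (RatFunc F) L]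

/-- a place over an algebraically closed field with a uniformiser, in the language of `Lau_702` -/
theorem rp_vR [IsAlgClosed F] [CharZero F] (z : Pl F L) {T : L} (hT : z.v T = exp (-1)) :
    RP (k := F) (vR z) T := by
  have : Algebra.IsSeparable (RatFunc F) L := inferInstance
  exact RP.mk' ((isRationalPlace_iff (isPlace_vR z) (isEquiv_vR z)).2 (GR2_921.degP_eq_one z))
    ((isUniformizerAt_iff (isEquiv_vR z) T).2 hT)

/-- **(U2)** -/
theorem exists_disc [IsAlgClosed F] [CharZero F] (z : Pl F L) {T : L} (hT : z.v T = exp (-1)) :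
    ∃ J : L →+* LaurentSeries F, (∀ c, J (algebraMap F L c) = HahnSeries.C c) ∧
      J T = HahnSeries.single (1 : ℤ) (1 : F) ∧
      (∀ f, f ≠ 0 → z.v f = exp (-(J f).order)) ∧
      ∃ ρ₀ : ℝ, 0 < ρ₀ ∧ ∀ (ρ : ℝ) (hρ : 0 < ρ), ρ ≤ ρ₀ → ∀ f, J f ∈ frB (⊤ : Subfield F) hρ := by
  obtain ⟨J, h1, h2, h3, h4, h5⟩ := Lau_702.exists_disc (Ω := F) (rp_vR z hT)
    (NormedField.valuation (K := F))
  have h5' : ∀ a, J a ∈ convL (NormedField.valuation (K := F)) := by
    intro a
    have := h5 a
    rwa [Algebra.algebraMap_self, mapL_id, RingHom.id_apply] at this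
  obtain ⟨r0, hr0, hr⟩ := exists_radius J h1 h5'
  refine ⟨J, h1, h2, fun f hf => ?_, r0, hr0, fun ρ hρ hle f => range_toL_le hρ (hr ρ hρ hle f)⟩
  have h6 := h4 f hf
  have h7 : vR z T = (2 : ℝ≥0) ^ (-1 : ℤ) := by rw [vR_apply, hT, toReal_exp]
  rw [h7, ← zpow_mul, vR_apply, neg_one_mul, ← toReal_exp] at h6
  exact toReal_strictMono.injective h6

end Crest.Agent.R013.U2_702
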