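import Crest.Agent.R013.DUni4_429
import Crest.Agent.R013.DUc_948
import Crest.Agent.R013.U2_702

/-!
# R013 / DUni5: uniform local data at the zeros of `φ - n` (helper429)

D-LINE, step B of 906 #4158.
-/

set_option autoImplicit false
set_option linter.unusedSectionVars false

namespace Crest.Agent.R013.DUni_429

open PowerSeries Filter
open scoped NNReal Topology
open WithZero
open Crest.Agent.R013.KAS2_940 (Bd bd_zero bd_one bd_C)
open Crest.Agent.R013.KAS2_940
open Crest.Agent.R013.KAS3_940 Crest.Agent.R013.Good1_940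
open Crest.Agent.R013.Good3_940 Crest.Agent.R013.Small3_940
open Crest.Agent.R013.LemD_323 (shift ev_shift coeff_shift)
open Crest.Agent.R013.RR7_948 (Pl)
open Crest.Agent.R013.RR8_948 (xK)
open Crest.Agent.R013.RR14_948 (del del_xK D_eq)
open Crest.Agent.R013.DU_948 (IsDisc At vX vX_le_iff vX_single vX_toL_le vX_toL_lt vX_toL_eq_one
  exists_shift mem_of_X_mul)

theorem vX_eq_order {F : Type*} [Field F] {y : LaurentSeries F} (hy : y ≠ 0) :
    vX F y = exp (-y.order) := by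
  obtain ⟨k, hk⟩ : ∃ k : ℤ, vX F y = exp k :=
    ⟨log (vX F y), (exp_log ((Valuation.ne_zero_iff _).mpr hy)).symm⟩
  have h1 : vX F y ≤ exp (-y.order) := by
    rw [vX_le_iff]
    intro n hn
    exact HahnSeries.coeff_eq_zero_of_lt_order hn
  have h2 : ¬ vX F y ≤ WithZero.exp (-(y.order + 1)) := by
    rw [vX_le_iff]
    intro h
    exact (HahnSeries.coeff_order_eq_zero.not.mpr hy) (h y.order (by omega))
  rw [hk, exp_le_exp] at h1
  rw [hk, exp_le_exp] at h2
  rw [hk]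
  congr 1
  omega

section radius

variable {F : Type*} [NontriviallyNormedField F] [IsUltrametricDist F] [CompleteSpace F]

/-- on small discs the constant term dominates -/
theorem exists_dom {R0 B : ℝ} (hR0 : 0 < R0) {b : F⟦X⟧} (hb : Bd R0 B b) (h0 : coeff 0 b ≠ 0) :
    ∃ R1 : ℝ, 0 < R1 ∧ R1 ≤ R0 ∧ Dom R1 b := by
  have hc : 0 < ‖coeff 0 b‖ := norm_pos_iff.mpr h0
  have hB : ‖coeff 0 b‖ ≤ B := by simpa using hb 0
  have hB0 : 0 < B := hc.trans_le hB
  set s : ℝ := ‖coeff 0 b‖ / (2 * B) with hs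
  have hs0 : 0 < s := by positivity
  have hs1 : s ≤ 1 := by
    rw [hs, div_le_one (by positivity)]; linarith
  refine ⟨R0 * s, by positivity, mul_le_of_le_one_right hR0.le hs1, h0, fun i hi => ?_⟩
  obtain ⟨j, rfl⟩ : ∃ j, i = j + 1 := ⟨i - 1, by omega⟩
  rw [mul_pow, ← mul_assoc]
  have h1 := hb (j + 1)
  have h2 : s ^ (j + 1) ≤ s := by
    rw [pow_succ]
    exact mul_le_of_le_one_left hs0.le (pow_le_one₀ hs0.le hs1)
  calc ‖coeff (j + 1) b‖ * R0 ^ (j + 1) * s ^ (j + 1) ≤ B * s := by gcongr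
    _ = ‖coeff 0 b‖ / 2 := by rw [hs]; field_simp
    _ < ‖coeff 0 b‖ := by linarith

/-- a function regular at `0` is bounded on small discs -/
theorem exists_reg {R0 : ℝ} {hR0 : 0 < R0} {y : LaurentSeries F}
    (hy : y ∈ frB (⊤ : Subfield F) hR0) (hv : vX F y ≤ 1) :
    ∃ (g : F⟦X⟧) (R1 M : ℝ), y = toL F g ∧ 0 < R1 ∧ Bd R1 M g ∧
      (vX F y = 1 → Dom R1 g) := by
  obtain ⟨a, b, hb, hab⟩ := exists_rep hy
  have ha' : shift (0 : F) a.1 = a.1 := by
    obtain ⟨B, hB⟩ := a.2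
    have h1 := shift_shift hR0 hB (s := (0 : F)) (by rwa [norm_zero])
    rw [neg_zero] at h1
    -- `shift 0` is an involution; use values instead
    refine eq_of_ev hR0 (bd_shift' hB (by rwa [norm_zero])) hB fun t ht => ?_
    rw [ev_shift (toBd hB) (by rwa [norm_zero]) ht, zero_add]
  have hb' : shift (0 : F) b.1 = b.1 := by
    obtain ⟨B, hB⟩ := b.2
    refine eq_of_ev hR0 (bd_shift' hB (by rwa [norm_zero])) hB fun t ht => ?_
    rw [ev_shift (toBd hB) (by rwa [norm_zero]) ht, zero_add]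
  obtain ⟨e, a₁, b₁, -, ⟨Ba, ha₁⟩, ⟨Bb, hb₁⟩, he, hae, hbe, hev⟩ :=
    Crest.Agent.R013.DU_948.exists_pres a.2 b.2 hb (t := (0 : F)) (by rwa [norm_zero])
      (z := y) (by rw [ha', hb']; exact hab) hv
  rw [Crest.Agent.R013.DU_948.ev_zero'] at hev
  have h1 : y * toL F b₁ = toL F a₁ := by
    rw [hae, hbe, map_mul, map_mul] at hab
    have h2 : toL F e * (y * toL F b₁) = toL F e * toL F a₁ := by rw [← hab]; ring
    exact mul_left_cancel₀ (toL_ne_zero he) h2
  obtain ⟨R1, hR1, hle, hdom⟩ := exists_dom hR0 hb₁ hev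
  have h2 := dom_inv_mul hev
  have hinv := Dom.inv hR1 hdom h2
  have hy' : y = toL F (a₁ * b₁⁻¹) := by
    rw [map_mul, ← h1, mul_assoc, ← map_mul, h2, map_one, mul_one]
  by_cases h3 : vX F y = 1
  · have h4 : coeff 0 a₁ ≠ 0 := by
      intro h5
      have h6 := congrArg (vX F) h1
      rw [map_mul, h3, one_mul, vX_toL_eq_one hev] at h6
      exact absurd h6.symm (vX_toL_lt h5).ne
    obtain ⟨R2, hR2, hle2, hdom2⟩ := exists_dom hR0 ha₁ h4
    have hR3 : 0 < min R1 R2 := lt_min hR1 hR2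
    have h7 : Dom (min R1 R2) (a₁ * b₁⁻¹) :=
      (hdom2.mono hR3.le (min_le_right _ _)).mul hR3 (hinv.mono hR3.le (min_le_left _ _))
    exact ⟨_, min R1 R2, _, hy', hR3, h7.bd, fun _ => h7⟩
  · refine ⟨_, R1, _, hy', hR1, (ha₁.mono_left hR1.le hle).mul hR1 hinv.bd, fun h => absurd h h3⟩

end radius

/-- a common radius for finitely many conditions -/
theorem exists_common {α : Type*} (Z : Finset α) {Q : α → ℝ → Prop}
    (h : ∀ z ∈ Z, ∃ R1 : ℝ, 0 < R1 ∧ ∀ R, 0 < R → R ≤ R1 → Q z R) :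
    ∃ R1 : ℝ, 0 < R1 ∧ ∀ z ∈ Z, ∀ R, 0 < R → R ≤ R1 → Q z R := by
  classical
  induction Z using Finset.induction_on with
  | empty => exact ⟨1, one_pos, fun z hz => absurd hz (Finset.notMem_empty z)⟩
  | insert a s ha ih =>
    obtain ⟨R1, hR1, h1⟩ := ih fun z hz => h z (Finset.mem_insert_of_mem hz)
    obtain ⟨R2, hR2, h2⟩ := h a (Finset.mem_insert_self _ _)
    refine ⟨min R1 R2, lt_min hR1 hR2, fun z hz R hR hle => ?_⟩
    rcases Finset.mem_insert.mp hz with rfl | hz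
    · exact h2 R hR (hle.trans (min_le_right _ _))
    · exact h1 z hz R hR (hle.trans (min_le_left _ _))

/-- a common bound for finitely many conditions -/
theorem exists_common_bd {α : Type*} (Z : Finset α) {Q : α → ℝ → Prop}
    (h : ∀ z ∈ Z, ∃ M : ℝ, ∀ M', M ≤ M' → Q z M') :
    ∃ M : ℝ, 1 ≤ M ∧ ∀ z ∈ Z, Q z M := by
  classical
  have h' : ∃ M : ℝ, 1 ≤ M ∧ ∀ z ∈ Z, ∀ M', M ≤ M' → Q z M' := by
    induction Z using Finset.induction_on with
    | empty => exact ⟨1, le_rfl, fun z hz => absurd hz (Finset.notMem_empty z)⟩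
    | insert a s ha ih =>
      obtain ⟨M1, hM1, h1⟩ := ih fun z hz => h z (Finset.mem_insert_of_mem hz)
      obtain ⟨M2, h2⟩ := h a (Finset.mem_insert_self _ _)
      refine ⟨max M1 M2, hM1.trans (le_max_left _ _), fun z hz M' hle => ?_⟩
      rcases Finset.mem_insert.mp hz with rfl | hz
      · exact h2 M' ((le_max_right _ _).trans hle)
      · exact h1 z hz M' ((le_max_left _ _).trans hle)
  obtain ⟨M, hM, h1⟩ := h'
  exact ⟨M, hM, fun z hz => h1 z hz M le_rfl⟩

section place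

variable {F : Type*} [NontriviallyNormedField F] [IsUltrametricDist F] [CompleteSpace F]
  [IsAlgClosed F] [CharZero F]
variable {L : Type*} [Field L] [Algebra F L] [Algebra (RatFunc F) L] [IsScalarTower F (RatFunc F) L]
  [FiniteDimensional (RatFunc F) L] [Algebra.IsSeparable (RatFunc F) L]

/-- **the disc at a place, with finitely many regular functions and one unit** -/
theorem exists_local (z : Pl F L) {T : L} (hT : z.v T = exp (-1)) {m : ℕ} (f : Fin m → L)
    (hf : ∀ j, z.v (f j) ≤ 1) (u : L) (hu : z.v u = 1) :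
    ∃ (J : L →+* LaurentSeries F) (g : Fin m → F⟦X⟧) (h : F⟦X⟧) (R1 M : ℝ), 0 < R1 ∧
      (∀ j, J (f j) = toL F (g j)) ∧ J u = toL F h ∧
      ∀ (R : ℝ) (hR : 0 < R), R ≤ R1 →
        IsDisc hR T J ∧ At hR J 0 z ∧ (∀ j, Bd R M (g j)) ∧ Dom R h := by
  obtain ⟨J, hcon, hpar, hord, R0, hR0, hmem⟩ := Crest.Agent.R013.U2_702.exists_disc z hT
  have hzv : ∀ y, z.v y = vX F (J y) := by
    intro y
    by_cases hy : y = 0
    · rw [hy, map_zero, map_zero, map_zero]
    · rw [hord y hy, vX_eq_order (by rwa [Ne, _root_.map_eq_zero])]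
  have h1 : ∀ j, ∃ (g : F⟦X⟧) (R1 M : ℝ), J (f j) = toL F g ∧ 0 < R1 ∧ Bd R1 M g := by
    intro j
    obtain ⟨g, R1, M, h1, h2, h3, -⟩ := exists_reg (hmem R0 hR0 le_rfl (f j))
      (by rw [← hzv]; exact hf j)
    exact ⟨g, R1, M, h1, h2, h3⟩
  choose g Rg Mg hg hRg hMg using h1
  obtain ⟨h, Rh, Mh, hh, hRh, -, hdom⟩ := exists_reg (hmem R0 hR0 le_rfl u) (by rw [← hzv, hu])
  have hdom := hdom (by rw [← hzv, hu])
  obtain ⟨R2, hR2, hR2'⟩ := exists_common (Finset.univ : Finset (Fin m))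
    (Q := fun j R => R ≤ Rg j) (fun j _ => ⟨Rg j, hRg j, fun R _ h => h⟩)
  obtain ⟨M, -, hM⟩ := exists_common_bd (Finset.univ : Finset (Fin m))
    (Q := fun j M => Mg j ≤ M) (fun j _ => ⟨Mg j, fun _ h => h⟩)
  refine ⟨J, g, h, min R0 (min Rh R2), M, lt_min hR0 (lt_min hRh hR2), hg, hh,
    fun R hR hle => ?_⟩
  have hd : IsDisc hR T J := ⟨hcon, hpar, fun y => hmem R hR (hle.trans (min_le_left _ _)) y⟩
  refine ⟨hd, ?_, fun j => ?_, hdom.mono hR.le (hle.trans ((min_le_right _ _).trans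
    (min_le_left _ _)))⟩
  · have h2 := Crest.Agent.R013.DU_948.at_zero hd
    have h3 : z = Crest.Agent.R013.DU_948.plJ J hd.con T hd.par :=
      Crest.Agent.R013.RR7_948.Pl.ext (Valuation.ext fun y => by
        rw [hzv, Crest.Agent.R013.DU_948.plJ_v])
    rw [h3]
    exact h2
  · have h2 : R ≤ Rg j := hR2' j (Finset.mem_univ j) R hR
      (hle.trans ((min_le_right _ _).trans (min_le_right _ _)))
    exact ((hMg j).mono_left hR.le h2).mono (hM j (Finset.mem_univ j))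

end place

end Crest.Agent.R013.DUni_429
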