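import Crest.Agent.R013.DUni5_429

/-!
# R013 / DUni6: D-UNI, uniform discs around the seeds (helper429)

D-LINE, step B of 906 #4158: `d_uni`.
-/

set_option autoImplicit false
set_option linter.unusedSectionVars false

namespace Crest.Agent.R013.DUni_429

open PowerSeries Filter
open scoped NNReal Topology
open WithZero
open Crest.Agent.R013.KAS2_940 (Bd bd_zero bd_one bd_C)
open Crest.Agent.R013.KAS2_940
open Crest.Agent.R013.KAS3_940 Crest.Agent.R013.Good1_940
open Crest.Agent.R013.Good3_940 Crest.Agent.R013.Small3_940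
open Crest.Agent.R013.LemD_323 (shift ev_shift coeff_shift)
open Crest.Agent.R013.RR7_948 (Pl)
open Crest.Agent.R013.RR8_948 (xK)
open Crest.Agent.R013.RR14_948 (del del_xK D_eq)
open Crest.Agent.R013.RR29_948 (coef)
open Crest.Agent.R013.CE3_280 (IsCE)
open Crest.Agent.R013.CE3_280 (conP)
open Crest.Agent.R013.HTb_948 (v_conP del_iota)
open Crest.Agent.R013.DU_948 (IsDisc At vX vX_le_iff vX_single vX_toL_le vX_toL_lt vX_toL_eq_one
  exists_shift mem_of_X_mul)

section small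

variable {F : Type*} [NontriviallyNormedField F] [IsUltrametricDist F] [CompleteSpace F]
variable {L : Type*} [Field L] [Algebra F L]

theorem bd_sum {ι : Type*} (s : Finset ι) {R η : ℝ} (hR : 0 < R) (hη : 0 ≤ η) (g : ι → F⟦X⟧)
    (h : ∀ i ∈ s, Bd R η (g i)) : Bd R η (∑ i ∈ s, g i) := by
  classical
  induction s using Finset.induction_on with
  | empty => rw [Finset.sum_empty]; exact bd_zero hη
  | insert a s ha ih =>
    rw [Finset.sum_insert ha]
    exact (h a (Finset.mem_insert_self _ _)).add hR.le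
      (ih fun i hi => h i (Finset.mem_insert_of_mem hi))

/-- a perturbed linear combination on the disc -/
theorem J_lc {m : ℕ} {b : Fin m → L} {B : L} {J : L →+* LaurentSeries F}
    (hcon : ∀ c : F, J (algebraMap F L c) = HahnSeries.C c) {g : Fin m → F⟦X⟧}
    (hg : ∀ j, J (b j / B) = toL F (g j)) (c c₁ : Fin m → F) {R M δ : ℝ} (hR : 0 < R)
    (hM : 0 ≤ M) (hgM : ∀ j, Bd R M (g j)) (hc : ∀ j, ‖c₁ j - c j‖ ≤ δ) (hδ : 0 ≤ δ) :
    ∃ u : F⟦X⟧, Bd R (δ * M) u ∧
      J ((∑ j, algebraMap F L (c₁ j) * b j) / B) =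
        J ((∑ j, algebraMap F L (c j) * b j) / B) + toL F u := by
  refine ⟨∑ j, C (c₁ j - c j) * g j, ?_, ?_⟩
  · refine bd_sum _ hR (by positivity) _ fun j _ => ?_
    refine ((hgM j).C_mul (c₁ j - c j)).mono ?_
    gcongr
    exact hc j
  · rw [← sub_eq_iff_eq_add', ← map_sub, ← sub_div, ← Finset.sum_sub_distrib, Finset.sum_div,
      map_sum, map_sum]
    refine Finset.sum_congr rfl fun j _ => ?_
    rw [← sub_mul, ← map_sub, mul_div_assoc, map_mul, hcon, hg, map_mul, toL_C]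

/-- **the perturbed coordinate**: `J (A' / B' - ν) = X + e` -/
theorem exists_e {m : ℕ} {b : Fin m → L} {A B T : L} {c c' c₁ c₁' : Fin m → F}
    (hA : A = ∑ j, algebraMap F L (c j) * b j) (hB : B = ∑ j, algebraMap F L (c' j) * b j)
    (hB0 : B ≠ 0) {ν : F} (hT : T = A / B - algebraMap F L ν)
    {J : L →+* LaurentSeries F} {R : ℝ} {hR : 0 < R} (hJ : IsDisc hR T J)
    {g : Fin m → F⟦X⟧} (hg : ∀ j, J (b j / B) = toL F (g j)) {M : ℝ}
    (hM : 1 ≤ M) (hgM : ∀ j, Bd R M (g j)) {ε : ℝ} (hε : 0 < ε) {W : ℝ}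
    (hW1 : 1 ≤ W) (hWR : R ≤ W) (hWν : ‖ν‖ ≤ W) {δ : ℝ} (hδ : 0 < δ)
    (hδ1 : δ ≤ 1 / 2 / M) (hδ2 : δ ≤ ε / W / M)
    (hc : ∀ j, ‖c₁ j - c j‖ ≤ δ) (hc' : ∀ j, ‖c₁' j - c' j‖ ≤ δ) :
    (∑ j, algebraMap F L (c₁' j) * b j) ≠ 0 ∧ ∃ e : F⟦X⟧, Bd R ε e ∧
      J ((∑ j, algebraMap F L (c₁ j) * b j) / (∑ j, algebraMap F L (c₁' j) * b j) -
        algebraMap F L ν) = toL F (X + e) := by
  have hM0 : 0 < M := one_pos.trans_le hM
  have hW0 : 0 < W := one_pos.trans_le hW1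
  obtain ⟨u, hu, hu'⟩ := J_lc hJ.con hg c c₁ hR hM0.le hgM hc hδ.le
  obtain ⟨v, hv, hv'⟩ := J_lc hJ.con hg c' c₁' hR hM0.le hgM hc' hδ.le
  set A₁ := ∑ j, algebraMap F L (c₁ j) * b j with hA₁
  set B₁ := ∑ j, algebraMap F L (c₁' j) * b j with hB₁
  set η := δ * M with hη
  have hη1 : η ≤ 1 / 2 := by
    rw [hη]
    calc δ * M ≤ 1 / 2 / M * M := by gcongr
      _ = 1 / 2 := by field_simp
  have hη2 : η ≤ ε / W := by
    rw [hη]
    calc δ * M ≤ ε / W / M * M := by gcongr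
      _ = ε / W := by field_simp
  have hη0 : 0 ≤ η := by positivity
  rw [← hA] at hu'
  rw [← hB, div_self hB0, map_one] at hv'
  obtain ⟨v', hv1, hv2⟩ := exists_inv_one_add hR hv (by linarith)
  have h1 : J (A / B) = toL F (X + C ν) := by
    have h2 : A / B = T + algebraMap F L ν := by rw [hT]; ring
    rw [h2, map_add, hJ.par, hJ.con, map_add, toL_X, toL_C]
  rw [h1, ← map_add] at hu'
  have hv3 : J (B₁ / B) = toL F (1 + v) := by rw [hv', map_add, map_one]
  have hB₁0 : B₁ ≠ 0 := by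
    intro h
    rw [h, zero_div, map_zero] at hv3
    have h2 : (1 + v) ≠ 0 := left_ne_zero_of_mul_eq_one hv2
    exact toL_ne_zero h2 hv3.symm
  refine ⟨hB₁0, u + v' * (X + C ν + u), ?_, ?_⟩
  · have hue : Bd R ε u := hu.mono (hη2.trans (div_le_self hε.le hW1))
    have h2 : Bd R W (X + C ν + u) := by
      have h3 : Bd R W (X : F⟦X⟧) := (bd_X' hR).mono hWR
      have h4 : Bd R W (C ν : F⟦X⟧) := (bd_C ν).mono hWν
      have h5 : Bd R W u := hu.mono (by linarith)
      exact (h3.add hR.le h4).add hR.le h5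
    refine hue.add hR.le ((hv1.mul hR h2).mono ?_)
    calc η * W ≤ ε / W * W := by gcongr
      _ = ε := by field_simp
  · have h2 : A₁ / B₁ = (A₁ / B) / (B₁ / B) := by field_simp
    have h3 : J (A₁ / B₁) = toL F ((X + C ν + u) * (1 + v')) := by
      rw [h2, map_div₀, hu', hv3, map_mul, div_eq_iff, mul_assoc, ← map_mul, mul_comm (1 + v'), hv2,
        map_one, mul_one]
      exact toL_ne_zero (left_ne_zero_of_mul_eq_one hv2)
    rw [map_sub, h3, hJ.con, ← toL_C, ← map_sub]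
    congr 1
    ring

end small

/-- **a chart of `K/C` with coefficients in `F`**: the place `P`, the uniformiser `x ∈ K`, the
expansion `J` of the whole field `L` on the disc of radius `R` in the coordinate `x` -/
structure Chart {C K F L : Type*} [Field C] [IsAlgClosed C] [Field K] [Algebra C K]
    [Algebra (RatFunc C) K] [IsScalarTower C (RatFunc C) K] [FiniteDimensional (RatFunc C) K]
    [Algebra.IsSeparable (RatFunc C) K]
    [NontriviallyNormedField F] [IsUltrametricDist F] [CompleteSpace F] [Algebra C F]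
    [Field L] [Algebra F L] (ι : K →+* L) (P : Pl C K) (x : K) {R : ℝ} (hR : 0 < R)
    (J : L →+* LaurentSeries F) : Prop where
  unif : P.v x = exp (-1)
  disc : IsDisc hR (ι x) J
  val : ∀ f : K, P.v f = vX F (J (ι f))
  coef : ∀ (f : K) (n : ℤ), (J (ι f)).coeff n = algebraMap C F (coef P x n f)

section main

variable {C K F L : Type*} [Field C] [IsAlgClosed C] [CharZero C] [Field K] [Algebra C K]
  [Algebra (RatFunc C) K] [IsScalarTower C (RatFunc C) K] [FiniteDimensional (RatFunc C) K]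
  [Algebra.IsSeparable (RatFunc C) K]
  [NontriviallyNormedField F] [IsUltrametricDist F] [CompleteSpace F] [IsAlgClosed F] [CharZero F]
  [Algebra C F]
  [Field L] [Algebra F L] [Algebra C L] [IsScalarTower C F L] [Algebra (RatFunc F) L]
  [IsScalarTower F (RatFunc F) L] [FiniteDimensional (RatFunc F) L]
  [Algebra.IsSeparable (RatFunc F) L]
  {ι : K →ₐ[C] L}

/-- **D-UNI** -/
theorem d_uni (hι : IsCE F ι) (hx : xK F L = ι (xK C K)) {m : ℕ} (b : Fin m → K)
    (c c' : Fin m → F) {A B : L} (hA : A = ∑ j, algebraMap F L (c j) * ι (b j))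
    (hB : B = ∑ j, algebraMap F L (c' j) * ι (b j))
    (nobp : ∀ (w : Pl F L) (j : Fin m), w.v (ι (b j)) ≤ max (w.v A) (w.v B)) (n : C)
    (hB0 : B ≠ 0) (hnc : ∀ a : F, A / B ≠ algebraMap F L a)
    (hgood : ∀ w : Pl F L, w.v (A / B - algebraMap C L n) < 1 →
      w.v (A / B - algebraMap C L n) = exp (-1) ∧ w.v (B / del F L (A / B)) = 1) :
    ∃ (ρ : ℝ) (hρ : 0 < ρ), ∀ ε : ℝ, 0 < ε → ∃ δ : ℝ, 0 < δ ∧ ∀ α' β' : Fin m → C,
      (∀ j, ‖algebraMap C F (α' j) - c j‖ < δ) → (∀ j, ‖algebraMap C F (β' j) - c' j‖ < δ) →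
      (∑ j, β' j • b j) ≠ 0 ∧ ∀ (X' : K),
        X' = (∑ j, α' j • b j) / (∑ j, β' j • b j) - algebraMap C K n →
        ∀ P' : Pl C K, P'.v X' < 1 →
          ∃ J : L →+* LaurentSeries F, Chart (ι : K →+* L) P' X' hρ J ∧
            (∃ d : F⟦X⟧, Bd ρ ε d ∧ J (A / B - algebraMap C L n) = toL F (X + d)) ∧
            ∃ β : F⟦X⟧, Dom ρ β ∧ J (B / ι (del C K X')) = toL F β := by
  classical
  set ν : F := algebraMap C F n with hν
  have hνL : algebraMap C L n = algebraMap F L ν := IsScalarTower.algebraMap_apply C F L n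
  rw [hνL] at hgood ⊢
  obtain ⟨T, hT⟩ : ∃ T : L, T = A / B - algebraMap F L ν := ⟨_, rfl⟩
  rw [← hT] at hgood ⊢
  have hT0 : T ≠ 0 := by
    intro h
    refine hnc ν ?_
    rw [h] at hT
    exact (sub_eq_zero.mp hT.symm)
  have hAB : A - algebraMap F L ν * B = T * B := by
    rw [hT, sub_mul, div_mul_cancel₀ _ hB0]
  -- the zeros
  have hfin : {w : Pl F L | w.v T < 1}.Finite :=
    (Crest.Agent.R013.RR11_948.finite_ne_one hT0).subset fun w hw => ne_of_lt hw
  obtain ⟨Z, hZ⟩ : ∃ Z : Finset (Pl F L), ∀ w, w ∈ Z ↔ w.v T < 1 :=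
    ⟨hfin.toFinset, fun w => by rw [Set.Finite.mem_toFinset]; rfl⟩
  have hZne : Z.Nonempty := by
    by_contra hne
    rw [Finset.not_nonempty_iff_eq_empty] at hne
    have h1 : ∀ w : Pl F L, w.v T⁻¹ ≤ 1 := by
      intro w
      have h2 : ¬ w.v T < 1 := by rw [← hZ, hne]; exact Finset.notMem_empty w
      rw [not_lt] at h2
      rw [map_inv₀]
      exact inv_le_one_of_one_le₀ h2
    obtain ⟨a, ha⟩ := Crest.Agent.R013.DU_948.eq_const_of_le h1
    refine hnc (a⁻¹ + ν) ?_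
    rw [map_add, map_inv₀, ← ha, inv_inv, hT]
    ring
  -- local data
  have hloc : ∀ z ∈ Z, ∃ (J : L →+* LaurentSeries F) (g : Fin m → F⟦X⟧) (h : F⟦X⟧) (R1 M : ℝ),
      0 < R1 ∧ (∀ j, J (ι (b j) / B) = toL F (g j)) ∧ J (B / del F L (A / B)) = toL F h ∧
      ∀ (R : ℝ) (hR : 0 < R), R ≤ R1 →
        IsDisc hR T J ∧ At hR J 0 z ∧ (∀ j, Bd R M (g j)) ∧ Dom R h := by
    intro z hz
    obtain ⟨h1, h2⟩ := hgood z ((hZ z).mp hz)
    refine exists_local z h1 _ (fun j => ?_) _ h2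
    have h3 : z.v A ≤ z.v B := by
      have h4 : A = B * (T + algebraMap F L ν) := by
        rw [hT, sub_add_cancel, mul_div_cancel₀ _ hB0]
      rw [h4, map_mul]
      have h5 : z.v (T + algebraMap F L ν) ≤ 1 := by
        refine (Valuation.map_add _ _ _).trans (max_le ((hZ z).mp hz).le ?_)
        by_cases h6 : ν = 0
        · rw [h6, map_zero, map_zero]; exact zero_le
        · exact (z.const _ h6).le
      exact mul_le_of_le_one_right' h5
    have h4 := nobp z j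
    rw [max_eq_right h3] at h4
    rw [map_div₀]
    exact div_le_one_of_le₀ h4 zero_le
  obtain ⟨z0, hz0⟩ := hZne
  obtain ⟨J0, -⟩ := hloc z0 hz0
  have : Nonempty (L →+* LaurentSeries F) := ⟨J0⟩
  choose! J g h R1 M hR1 hg hh hloc' using hloc
  obtain ⟨ρ, hρ, hρ'⟩ := exists_common Z (Q := fun z R => R ≤ R1 z)
    (fun z hz => ⟨R1 z, hR1 z hz, fun R _ h => h⟩)
  obtain ⟨M1, hM1, hM1'⟩ := exists_common_bd Z (Q := fun z M' => M z ≤ M')
    (fun z _ => ⟨M z, fun _ h => h⟩)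
  have hdat : ∀ z ∈ Z, IsDisc hρ T (J z) ∧ At hρ (J z) 0 z ∧ (∀ j, Bd ρ M1 (g z j)) ∧
      Dom ρ (h z) := by
    intro z hz
    obtain ⟨h1, h2, h3, h4⟩ := hloc' z hz ρ hρ (hρ' z hz ρ hρ le_rfl)
    exact ⟨h1, h2, fun j => (h3 j).mono (hM1' z hz), h4⟩
  refine ⟨ρ, hρ, fun ε hε => ?_⟩
  -- the constants
  obtain ⟨ε', hε'0, hε'ρ, hε'ε⟩ : ∃ ε' : ℝ, 0 < ε' ∧ ε' < ρ ∧ ε' ≤ ε :=
    ⟨min ε (ρ / 2), lt_min hε (by positivity), (min_le_right _ _).trans_lt (by linarith),
      min_le_left _ _⟩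
  obtain ⟨W, hW1, hWR, hWν⟩ : ∃ W : ℝ, 1 ≤ W ∧ ρ ≤ W ∧ ‖ν‖ ≤ W :=
    ⟨max 1 (max ρ ‖ν‖), le_max_left _ _, (le_max_left _ _).trans (le_max_right _ _),
      (le_max_right _ _).trans (le_max_right _ _)⟩
  have hW0 : 0 < W := one_pos.trans_le hW1
  have hM0 : 0 < M1 := one_pos.trans_le hM1
  obtain ⟨δ1, hδ1, hδ2, hδ3⟩ : ∃ δ : ℝ, 0 < δ ∧ δ ≤ 1 / 2 / M1 ∧ δ ≤ ε' / W / M1 :=
    ⟨min (1 / 2 / M1) (ε' / W / M1), lt_min (by positivity) (by positivity), min_le_left _ _,
      min_le_right _ _⟩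
  have hD0 : A - algebraMap F L ν * B ≠ 0 := by rw [hAB]; exact mul_ne_zero hT0 hB0
  obtain ⟨δ4, hδ4, hnear⟩ := Crest.Agent.R013.DU_948.near (fun j => ι (b j)) c c' hA hB nobp ν hD0 Z
    (fun w hw => by
      rw [hZ]
      rw [hAB, map_mul] at hw
      by_contra h1
      rw [not_lt] at h1
      have hBw : w.v B ≤ w.v T * w.v B := le_mul_of_one_le_left' h1
      have hAw : w.v A ≤ w.v T * w.v B := by
        have h2 : A = T * B + algebraMap F L ν * B := by rw [← hAB]; ring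
        rw [h2]
        refine (Valuation.map_add _ _ _).trans (max_le (by rw [map_mul]) ?_)
        rw [map_mul]
        by_cases h6 : ν = 0
        · rw [h6, map_zero, map_zero, zero_mul]; exact zero_le
        · rw [w.const _ h6, one_mul]; exact hBw
      exact absurd hw (not_lt.mpr (max_le hAw hBw)))
    (fun _ => ρ) (fun _ => hρ) (fun _ => T) J (fun z hz => (hdat z hz).1)
    (fun z hz => (hdat z hz).2.1) (fun _ => ρ) (fun _ _ => hρ)
  refine ⟨min δ1 δ4, lt_min hδ1 hδ4, fun α' β' hα hβ => ?_⟩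
  have hαL : ι (∑ j, α' j • b j) = ∑ j, algebraMap F L (algebraMap C F (α' j)) * ι (b j) := by
    rw [map_sum]
    refine Finset.sum_congr rfl fun j _ => ?_
    rw [map_smul, Algebra.smul_def, IsScalarTower.algebraMap_apply C F L]
  have hβL : ι (∑ j, β' j • b j) = ∑ j, algebraMap F L (algebraMap C F (β' j)) * ι (b j) := by
    rw [map_sum]
    refine Finset.sum_congr rfl fun j _ => ?_
    rw [map_smul, Algebra.smul_def, IsScalarTower.algebraMap_apply C F L]
  have hex : ∀ z ∈ Z, (∑ j, algebraMap F L (algebraMap C F (β' j)) * ι (b j)) ≠ 0 ∧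
      ∃ e : F⟦X⟧, Bd ρ ε' e ∧ J z ((∑ j, algebraMap F L (algebraMap C F (α' j)) * ι (b j)) /
        (∑ j, algebraMap F L (algebraMap C F (β' j)) * ι (b j)) - algebraMap F L ν) =
          toL F (X + e) := by
    intro z hz
    obtain ⟨h1, h2, h3, h4⟩ := hdat z hz
    exact exists_e hA hB hB0 hT h1 (hg z hz) hM1 h3 hε'0 hW1 hWR hWν hδ1 hδ2 hδ3
      (fun j => (hα j).le.trans (min_le_left _ _)) (fun j => (hβ j).le.trans (min_le_left _ _))
  have hβ0 : (∑ j, β' j • b j) ≠ 0 := by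
    intro h0
    refine (hex z0 hz0).1 ?_
    rw [← hβL, h0, map_zero]
  refine ⟨hβ0, fun X' hX' P' hP' => ?_⟩
  have hιX : ι X' = (∑ j, algebraMap F L (algebraMap C F (α' j)) * ι (b j)) /
        (∑ j, algebraMap F L (algebraMap C F (β' j)) * ι (b j)) - algebraMap F L ν := by
    rw [hX', map_sub, map_div₀, hαL, hβL, ι.commutes, hνL]
  -- the place of `L` over `P'`
  have hw : (conP hι P').v (ι X') < 1 := by rwa [v_conP]
  have hB'0 := (hex z0 hz0).1
  obtain ⟨z, hz, t, ht, hAt⟩ := hnear (fun j => algebraMap C F (α' j)) (fun j => algebraMap C F (β' j))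
    (fun j => (hα j).trans_le (min_le_right _ _)) (fun j => (hβ j).trans_le (min_le_right _ _))
    (conP hι P') (by
      have h1 : (∑ j, algebraMap F L (algebraMap C F (α' j)) * ι (b j)) -
          algebraMap F L ν * ∑ j, algebraMap F L (algebraMap C F (β' j)) * ι (b j) =
          ι X' * ∑ j, algebraMap F L (algebraMap C F (β' j)) * ι (b j) := by
        rw [hιX, sub_mul, div_mul_cancel₀ _ hB'0]
      rw [h1, map_mul]
      exact mul_lt_of_lt_one_left (by
        rw [zero_lt_iff, Valuation.ne_zero_iff]; exact hB'0) hw)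
  obtain ⟨hJz, -, -, hdom⟩ := hdat z hz
  obtain ⟨-, e, he, heX⟩ := hex z hz
  rw [← hιX] at heX
  have hdisc := isDisc_newJ he hε'ρ hJz heX
  have hval : ∀ f : K, P'.v f = vX F (newJ he hρ hε'ρ hJz (ι f)) := by
    intro f
    rw [← v_conP hι P' f]
    exact at_newJ he hε'ρ hJz heX ht hAt hw (ι f)
  refine ⟨newJ he hρ hε'ρ hJz, ⟨?_, hdisc, hval, ?_⟩, ?_, ?_⟩
  · rw [hval]
    have h1 := hdisc.par
    rw [h1, vX_single]
  · intro f k
    exact coeff_eq_coef (J := (newJ he hρ hε'ρ hJz).comp (ι : K →+* L)) (fun a => by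
      change newJ he hρ hε'ρ hJz (ι (algebraMap C K a)) = _
      rw [ι.commutes, IsScalarTower.algebraMap_apply C F L, hdisc.con]) (x := X') hdisc.par hval f k
  · obtain ⟨d, hd, hd'⟩ := exists_newJ_T he hε'ρ hJz
    exact ⟨d, hd.mono hε'ε, hd'⟩
  · have h1 : del F L (A / B) = del F L T := by
      rw [hT, map_sub, Derivation.map_algebraMap, sub_zero]
    obtain ⟨β, hβ1, hβ2⟩ := newJ_form he hε'ρ hJz heX hdom (f := B) (by rw [← h1]; exact hh z hz)
    refine ⟨β, hβ1, ?_⟩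
    rw [← hβ2]
    congr 2
    exact (del_iota hx X').symm

end main

end Crest.Agent.R013.DUni_429
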