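import Crest.Agent.R013.DUni6_429
import Crest.Agent.R013.DW4_854

/-!
# R013 / DUni7: D-UNI from 854's pencil, and the local form of `A - n B` (helper429)
-/

set_option autoImplicit false
set_option linter.unusedSectionVars false

namespace Crest.Agent.R013.DUni_429

open PowerSeries Filter
open scoped NNReal Topology
open WithZero
open Crest.Agent.R013.KAS2_940 (Bd)
open Crest.Agent.R013.Small3_940
open Crest.Agent.R013.LemD_323 (shift ev_shift coeff_shift)
open Crest.Agent.R013.RR7_948 (Pl)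
open Crest.Agent.R013.RR8_948 (xK)
open Crest.Agent.R013.RR14_948 (del del_xK D_eq)
open Crest.Agent.R013.RR29_948 (coef)
open Crest.Agent.R013.CE3_280 (IsCE)
open Crest.Agent.R013.DU_948 (IsDisc At vX)
open Crest.Agent.R013.DW4_854 (IsPencil lcL)

variable {C K₀ K F L : Type*} [Field C] [IsAlgClosed C] [CharZero C] [Field K₀] [Field K]
  [Algebra C K] [Algebra K₀ K]
  [Algebra (RatFunc C) K] [IsScalarTower C (RatFunc C) K] [FiniteDimensional (RatFunc C) K]
  [NontriviallyNormedField F] [IsUltrametricDist F] [CompleteSpace F] [IsAlgClosed F] [CharZero F]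
  [Algebra C F]
  [Field L] [Algebra F L] [Algebra C L] [IsScalarTower C F L] [Algebra (RatFunc F) L]
  [IsScalarTower F (RatFunc F) L] [FiniteDimensional (RatFunc F) L]
  {ι : K →ₐ[C] L}

/-- **D-UNI for the pencil**, with the local form `(A - n B) dX` -/
theorem d_uni_pencil (hι : IsCE F ι) (hx : xK F L = ι (xK C K)) {m : ℕ} {v : Fin m → K₀}
    {α β : Fin m → F} {Bad : Finset ℤ} (hpen : IsPencil ι v α β Bad) (n : ℤ) (hn : n ∉ Bad) :
    ∃ (ρ : ℝ) (hρ : 0 < ρ), ∀ ε : ℝ, 0 < ε → ∃ δ : ℝ, 0 < δ ∧ ∀ a b : Fin m → C,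
      (∀ j, ‖algebraMap C F (a j) - α j‖ < δ) → (∀ j, ‖algebraMap C F (b j) - β j‖ < δ) →
      (∑ j, b j • algebraMap K₀ K (v j)) ≠ 0 ∧ ∀ (X' : K),
        X' = (∑ j, a j • algebraMap K₀ K (v j)) / (∑ j, b j • algebraMap K₀ K (v j)) - (n : K) →
        ∀ P' : Pl C K, P'.v X' < 1 →
          ∃ J : L →+* LaurentSeries F, Chart (ι : K →+* L) P' X' hρ J ∧
            ∃ d g : F⟦X⟧, Bd ρ ε d ∧ Dom ρ g ∧
              J (lcL ι v α / lcL ι v β - (n : L)) = toL F (X + d) ∧
              J (lcL ι v β / ι (del C K X')) = toL F g ∧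
              J (lcL ι v (α - n • β) / ι (del C K X')) = toL F ((X + d) * g) ∧
              ∀ i : ℕ, coeff i ((X + d) * g) = ∑ j, (α - n • β) j *
                algebraMap C F (coef P' X' i (algebraMap K₀ K (v j) / del C K X')) := by
  have hind := hpen.nonprop
  have hB0 : lcL ι v β ≠ 0 := by
    have := hind.ne_zero 1
    simpa using this
  have hlc : ∀ c : Fin m → F, lcL ι v c = ∑ j, algebraMap F L (c j) * ι (algebraMap K₀ K (v j)) := by
    intro c
    unfold lcL
    exact Finset.sum_congr rfl fun j _ => Algebra.smul_def _ _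
  have hnc : ∀ a : F, lcL ι v α / lcL ι v β ≠ algebraMap F L a := by
    intro a ha
    rw [div_eq_iff hB0] at ha
    rw [LinearIndependent.pair_iff] at hind
    have h1 := hind 1 (-a) (by
      rw [one_smul, neg_smul, ha, Algebra.smul_def, add_neg_cancel])
    exact one_ne_zero h1.1
  have hnL : algebraMap C L (n : C) = (n : L) := map_intCast _ n
  have hnK : algebraMap C K (n : C) = (n : K) := map_intCast _ n
  obtain ⟨ρ, hρ, h1⟩ := d_uni hι hx (fun j => algebraMap K₀ K (v j)) α β (hlc α) (hlc β) hpen.nobp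
    (n : C) hB0 hnc (by rw [hnL]; exact hpen.good n hn)
  refine ⟨ρ, hρ, fun ε hε => ?_⟩
  obtain ⟨δ, hδ, h2⟩ := h1 ε hε
  refine ⟨δ, hδ, fun a b ha hb => ?_⟩
  obtain ⟨h3, h4⟩ := h2 a b ha hb
  refine ⟨h3, fun X' hX' P' hP' => ?_⟩
  obtain ⟨J, hJ, ⟨d, hd, hd'⟩, g, hg, hg'⟩ := h4 X' (by rw [hnK]; exact hX') P' hP'
  rw [hnL] at hd'
  have h5 : lcL ι v (α - n • β) / ι (del C K X') =
      (lcL ι v α / lcL ι v β - (n : L)) * (lcL ι v β / ι (del C K X')) := by
    rw [Crest.Agent.R013.DW4_854.lcL_sub_zsmul, sub_mul, div_mul_div_comm, mul_comm (lcL ι v β) (ι _),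
      mul_div_mul_right _ _ hB0, sub_div, mul_div_assoc]
  have h6 : J (lcL ι v (α - n • β) / ι (del C K X')) = toL F ((X + d) * g) := by
    rw [h5, map_mul, hd', hg', ← map_mul]
  refine ⟨J, hJ, d, g, hd, hg, hd', hg', h6, fun i => ?_⟩
  have h7 : (J (lcL ι v (α - n • β) / ι (del C K X'))).coeff (i : ℤ) =
      (toL F ((X + d) * g)).coeff (i : ℤ) := by rw [h6]
  have h8 : (toL F ((X + d) * g)).coeff (i : ℤ) = coeff i ((X + d) * g) :=
    HahnSeries.ofPowerSeries_apply_coeff _ _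
  rw [h8] at h7
  rw [← h7, hlc, Finset.sum_div, map_sum, HahnSeries.coeff_sum]
  refine Finset.sum_congr rfl fun j _ => ?_
  rw [mul_div_assoc, map_mul, hJ.disc.con, ← map_div₀, HahnSeries.C_mul_eq_smul,
    HahnSeries.coeff_smul, smul_eq_mul]
  congr 1
  exact hJ.coef _ _

end Crest.Agent.R013.DUni_429
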