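import Mathlib
import Crest.Agent.R013.Desc8_372
import Crest.Agent.R013.TP14_928
import Crest.Agent.R013.CDefs_588

/-!
# R013 / SS-DESC, part 9 (helper372): 588's leaves `FROBC` and `DESC`
-/

set_option autoImplicit false
set_option linter.all false

namespace Crest.Agent.R013.Desc_372

open scoped NNReal
open WithZero Module
open Crest.Agent.R013.RR7_948 Crest.Agent.R013.Red332 Crest.Agent.R013.SSK_332
  Crest.Agent.R013.DEm_719 Crest.Agent.R013.CDefs_588

section leaves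

variable (p : ℕ) [Fact p.Prime] (C : Type) [NormedField C] [IsUltrametricDist C]
  [NormedAlgebra ℚ_[p] C] [Algebra.IsAlgebraic ℚ_[p] C] [IsAlgClosed C] [CharZero C]

/-- 588's leaf `FROBC` -/
theorem frobc : FROBC p C := by
  intro k₁ _ _ _ _ _
  haveI : CharP (Ct C) p := TP14_928.charP_Ct p
  haveI : IsGalois ℚ_[p] C := by
    haveI : Normal ℚ_[p] C := normal_iff.mpr fun x =>
      ⟨(Algebra.IsAlgebraic.isAlgebraic x).isIntegral, IsAlgClosed.splits _⟩
    exact ⟨⟩
  let M : IntermediateField ℚ_[p] C := (⊥ : IntermediateField k₁ C).restrictScalars ℚ_[p]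
  haveI : FiniteDimensional k₁ (⊥ : IntermediateField k₁ C) := inferInstance
  haveI : FiniteDimensional ℚ_[p] M :=
    FiniteDimensional.trans ℚ_[p] k₁ (⊥ : IntermediateField k₁ C)
  obtain ⟨a, ha0, h1, s, hs, h2⟩ := exists_frob (k := ℚ_[p]) M p
  have hbot : ∀ x : k₁, algebraMap k₁ C x ∈ M := fun x =>
    (⊥ : IntermediateField k₁ C).algebraMap_mem x
  refine ⟨a, ha0, fun g c hc h => ?_, ?_⟩
  · refine h1 (g.restrictScalars ℚ_[p]) (fun c hc => ?_) c hc h
    obtain ⟨x, rfl⟩ := IntermediateField.mem_bot.mp (show c ∈ (⊥ : IntermediateField k₁ C) from hc)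
    exact g.commutes x
  · exact ⟨AlgEquiv.ofRingEquiv (f := s.toRingEquiv) fun x => hs _ (hbot x), h2⟩

/-- 588's leaf `DESC` -/
theorem desc : DESC p C := by
  intro k₀ K₀ K _ _ _ _ _ _ _ _ _ _ _ _ _ _ _ _ _ _ hfg S D hD
  obtain ⟨k', D', h1, h2, h3, H⟩ := exists_lvl S (k₁ := k₀) (K₀ := K₀) hfg D hD
  refine ⟨k', h1, fun g hg => ⟨fun v f => H.df.nm hg v f, fun e => ?_, fun d hd f => ?_,
    fun e => ⟨fun f => ?_, fun f => ?_⟩⟩, fun v => ?_⟩
  · exact H.df.cc hg e
  · exact H.df.em hg (h3 hd) f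
  · exact H.df.em hg (H.df.e0_mem e) f
  · exact H.df.em hg (H.df.e1_mem e) f
  · rw [eq_top_iff, ← H.span v]
    refine Submodule.span_mono ?_
    rintro y ⟨f, hf, h1, h2⟩
    exact ⟨f, h1, fun g hg => CE.mem_Gam'.mp hg f hf, h2⟩

end leaves

end Crest.Agent.R013.Desc_372
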