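import Crest.Agent.R013.Desc2_372

/-!
# R013 / DescP1 (helper429): Galois descent of subspaces for constant extensions

`CE k C K₀ K` (372), `C/k` Galois. Every `C`-subspace of `K` stable under `Gam K₀ K k'` is spanned
by its elements in the level `lev K₀ K k' = K₀[k']`; Hilbert 90 for constants.
-/

set_option autoImplicit false
set_option linter.all false

namespace Crest.Agent.R013.DescP_429

open Module Crest.Agent.R013.Desc_372

section res

variable (k C : Type*) {K₀ K : Type*} [Field k] [Field C] [Field K₀] [Field K] [Algebra k C]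
    [Algebra k K₀]
    [Algebra C K] [Algebra K₀ K] [Algebra k K] [IsScalarTower k C K] [IsScalarTower k K₀ K]

theorem fix_lift [h : CE k C K₀ K] {k' : IntermediateField k C} {s : C ≃ₐ[k] C}
    (hs : s ∈ k'.fixingSubgroup) : CE.lift k C K₀ K s ∈ CE.Gam K₀ K k' := by
  rw [CE.mem_Gam]
  intro c hc
  rw [CE.lift_algebraMap]
  rw [IntermediateField.mem_fixingSubgroup_iff] at hs
  rw [hs c hc]

/-- elements of `C` fixed by all `s ∈ Gam k'` lie in `k'` -/
theorem mem_of_fix [IsGalois k C] [h : CE k C K₀ K] {k' : IntermediateField k C} {c : C}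
    (hc : ∀ s ∈ CE.Gam K₀ K k', s (algebraMap C K c) = algebraMap C K c) : c ∈ k' := by
  apply CE.mem_of_algebraMap_mem_lev (k := k) (C := C) K₀ K k'
  rw [CE.mem_lev_iff_fixed]
  exact hc

variable {ι : Type*} (b : Basis ι k K₀)

theorem repr_apply [Normal k C] [h : CE k C K₀ K] (s : K ≃ₐ[K₀] K) (f : K) (i : ι) :
    (CE.basisL k C K₀ K b).repr (s f) i =
      CE.res k C K₀ K s ((CE.basisL k C K₀ K b).repr f i) := by
  set B := CE.basisL k C K₀ K b
  have h1 : s f = Finsupp.linearCombination C B
      ((B.repr f).mapRange (CE.res k C K₀ K s) (map_zero _)) := by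
    conv_lhs => rw [← B.linearCombination_repr f]
    rw [Finsupp.linearCombination_apply, Finsupp.linearCombination_apply, Finsupp.sum, map_sum,
      Finsupp.sum_mapRange_index (by intro i; simp), Finsupp.sum]
    refine Finset.sum_congr rfl fun j _ => ?_
    rw [Algebra.smul_def, Algebra.smul_def, map_mul, ← CE.algebraMap_res k C K₀ K]
    congr 1
    rw [CE.basisL_apply, AlgEquiv.commutes]
  rw [h1, Basis.repr_linearCombination, Finsupp.mapRange_apply]

end res

section descent

variable (k C : Type*) {K₀ K : Type*} [Field k] [Field C] [Field K₀] [Field K] [Algebra k C]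
    [Algebra k K₀]
    [Algebra C K] [Algebra K₀ K] [Algebra k K] [IsScalarTower k C K] [IsScalarTower k K₀ K]

/-- **Galois descent**: a subspace of `K` stable under `Gal(C/k')` is spanned by its elements in
the level `k'`. -/
theorem span_lev [IsGalois k C] [h : CE k C K₀ K] {k' : IntermediateField k C}
    (V : Submodule C K) (hV : ∀ s ∈ CE.Gam K₀ K k', ∀ f ∈ V, s f ∈ V) :
    V = Submodule.span C {f | f ∈ V ∧ f ∈ CE.lev K₀ K k'} := by
  classical
  refine le_antisymm ?_ (Submodule.span_le.2 fun f hf => hf.1)
  set B := CE.basisL k C K₀ K (Basis.ofVectorSpace k K₀) with hB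
  -- a nonzero element with minimal support below `f` can be scaled into the level
  have key : ∀ n : ℕ, ∀ w ∈ V, w ≠ 0 → (B.repr w).support.card = n →
      ∃ u ∈ V, u ∈ CE.lev K₀ K k' ∧ u ≠ 0 ∧ (B.repr u).support ⊆ (B.repr w).support := by
    intro n
    induction n using Nat.strong_induction_on with
    | _ n ih =>
      intro w hw hw0 hn
      have hne : (B.repr w) ≠ 0 := fun h0 => hw0 (by simpa using h0)
      obtain ⟨i, hi⟩ := Finsupp.ne_iff.1 hne
      rw [Finsupp.zero_apply] at hi
      set w1 : K := (B.repr w i)⁻¹ • w with hw1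
      have hw1V : w1 ∈ V := V.smul_mem _ hw
      have hi1 : B.repr w1 i = 1 := by
        rw [hw1, map_smul, Finsupp.smul_apply, smul_eq_mul, inv_mul_cancel₀ hi]
      have hs1 : (B.repr w1).support = (B.repr w).support := by
        rw [hw1, map_smul]
        exact Finsupp.support_smul_eq (inv_ne_zero hi)
      have hw10 : w1 ≠ 0 := by
        intro h0; rw [h0] at hi1; simp at hi1
      by_cases hfix : ∀ s ∈ CE.Gam K₀ K k', s w1 = w1
      · exact ⟨w1, hw1V, (CE.mem_lev_iff_fixed k' w1).2 hfix, hw10, hs1.le⟩
      · push Not at hfix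
        obtain ⟨s, hs, hne⟩ := hfix
        set w2 : K := s w1 - w1 with hw2
        have hw20 : w2 ≠ 0 := sub_ne_zero.2 hne
        have hsub : (B.repr w2).support ⊆ (B.repr w).support := by
          intro j hj
          rw [← hs1, Finsupp.mem_support_iff]
          rw [Finsupp.mem_support_iff] at hj
          intro h0
          apply hj
          rw [hw2, map_sub, Finsupp.sub_apply, hB, repr_apply, ← hB, h0, map_zero, sub_zero]
        have hlt : (B.repr w2).support ⊂ (B.repr w).support := by
          refine Finset.ssubset_iff_subset_ne.2 ⟨hsub, fun heq => ?_⟩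
          have : i ∈ (B.repr w2).support := by
            rw [heq, Finsupp.mem_support_iff]; exact hi
          rw [Finsupp.mem_support_iff] at this
          apply this
          rw [hw2, map_sub, Finsupp.sub_apply, hB, repr_apply, ← hB, hi1, map_one, sub_self]
        obtain ⟨u, hu1, hu2, hu3, hu4⟩ := ih _ (by rw [← hn]; exact Finset.card_lt_card hlt) w2
          (V.sub_mem (hV s hs _ hw1V) hw1V) hw20 rfl
        exact ⟨u, hu1, hu2, hu3, hu4.trans hsub⟩
  have main : ∀ n : ℕ, ∀ w ∈ V, (B.repr w).support.card = n →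
      w ∈ Submodule.span C {f | f ∈ V ∧ f ∈ CE.lev K₀ K k'} := by
    intro n
    induction n using Nat.strong_induction_on with
    | _ n ih =>
      intro w hw hn
      by_cases hw0 : w = 0
      · rw [hw0]; exact zero_mem _
      obtain ⟨u, hu1, hu2, hu3, hu4⟩ := key _ w hw hw0 rfl
      have hne : (B.repr u) ≠ 0 := fun h0 => hu3 (by simpa using h0)
      obtain ⟨i, hi⟩ := Finsupp.ne_iff.1 hne
      rw [Finsupp.zero_apply] at hi
      set c : C := B.repr w i * (B.repr u i)⁻¹ with hc
      set w2 : K := w - c • u with hw2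
      have hi2 : B.repr w2 i = 0 := by
        rw [hw2, map_sub, map_smul, Finsupp.sub_apply, Finsupp.smul_apply, smul_eq_mul, hc,
          mul_assoc, inv_mul_cancel₀ hi, mul_one, sub_self]
      have hsub : (B.repr w2).support ⊆ (B.repr w).support := by
        intro j hj
        by_contra hjw
        have h1 : B.repr w j = 0 := by rwa [Finsupp.notMem_support_iff] at hjw
        have h2 : B.repr u j = 0 := by
          rw [← Finsupp.notMem_support_iff]; exact fun hh => hjw (hu4 hh)
        rw [Finsupp.mem_support_iff] at hj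
        apply hj
        rw [hw2, map_sub, map_smul, Finsupp.sub_apply, Finsupp.smul_apply, h1, h2]
        simp
      have hlt : (B.repr w2).support ⊂ (B.repr w).support := by
        refine Finset.ssubset_iff_subset_ne.2 ⟨hsub, fun heq => ?_⟩
        have : i ∈ (B.repr w2).support := by
          rw [heq]; exact hu4 (Finsupp.mem_support_iff.2 hi)
        rw [Finsupp.mem_support_iff] at this
        exact this hi2
      have h3 := ih _ (by rw [← hn]; exact Finset.card_lt_card hlt) w2
        (V.sub_mem hw (V.smul_mem _ hu1)) rfl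
      have h4 : w = w2 + c • u := by rw [hw2]; ring
      rw [h4]
      exact add_mem h3 (Submodule.smul_mem _ _ (Submodule.subset_span ⟨hu1, hu2⟩))
  intro w hw
  exact main _ w hw rfl

/-- a stable subspace of finite dimension has a basis in the level -/
theorem exists_basis_lev [IsGalois k C] [h : CE k C K₀ K] {k' : IntermediateField k C}
    (V : Submodule C K) [FiniteDimensional C V]
    (hV : ∀ s ∈ CE.Gam K₀ K k', ∀ f ∈ V, s f ∈ V) :
    ∃ b : Basis (Fin (finrank C V)) C V, ∀ i, (b i : K) ∈ CE.lev K₀ K k' := by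
  classical
  let T : Set V := {f | (f : K) ∈ CE.lev K₀ K k'}
  have hT : ⊤ ≤ Submodule.span C T := by
    intro x _
    have h1 := span_lev k C V hV
    have h2 : (x : K) ∈ Submodule.span C {f | f ∈ V ∧ f ∈ CE.lev K₀ K k'} := by
      rw [← h1]; exact x.2
    have h3 : (Submodule.span C T).map V.subtype =
        Submodule.span C {f | f ∈ V ∧ f ∈ CE.lev K₀ K k'} := by
      rw [Submodule.map_span]
      congr 1
      ext f
      constructor
      · rintro ⟨g, hg, rfl⟩
        exact ⟨g.2, hg⟩
      · rintro ⟨hf1, hf2⟩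
        exact ⟨⟨f, hf1⟩, hf2, rfl⟩
    rw [← h3] at h2
    obtain ⟨y, hy, hyx⟩ := h2
    have : y = x := Subtype.ext hyx
    rwa [← this]
  let B := Basis.ofSpan hT
  have hfin := Module.Finite.finite_basis B
  have := Fintype.ofFinite ((linearIndepOn_empty C id).extend (Set.empty_subset T))
  have hcard : Fintype.card ((linearIndepOn_empty C id).extend (Set.empty_subset T)) =
      finrank C V := (finrank_eq_card_basis B).symm
  refine ⟨B.reindex (Fintype.equivFinOfCardEq hcard), fun i => ?_⟩
  rw [Basis.reindex_apply]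
  have hr : Set.range B ⊆ T := Basis.ofSpan_subset hT
  exact hr ⟨_, rfl⟩

/-- **Hilbert 90** for constants: a function which every `s` multiplies by a constant is a constant
times a function of the level `k'`. -/
theorem exists_lev_of_smul [IsGalois k C] [h : CE k C K₀ K] {k' : IntermediateField k C} {f : K}
    (hf : f ≠ 0) (hs : ∀ s ∈ CE.Gam K₀ K k', ∃ c : C, s f = c • f) :
    ∃ (c : C) (f₀ : K), c ≠ 0 ∧ f₀ ∈ CE.lev K₀ K k' ∧ f₀ ≠ 0 ∧ f = c • f₀ := by
  have hV := span_lev k C (Submodule.span C {f}) (k' := k') (by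
    intro s hs' g hg
    obtain ⟨a, rfl⟩ := Submodule.mem_span_singleton.1 hg
    obtain ⟨c, hc⟩ := hs s hs'
    rw [Algebra.smul_def, map_mul, ← CE.algebraMap_res k C K₀ K, hc, ← Algebra.smul_def,
      smul_smul]
    exact Submodule.smul_mem _ _ (Submodule.mem_span_singleton_self f))
  by_cases hex : ∃ g, g ∈ Submodule.span C {f} ∧ g ∈ CE.lev K₀ K k' ∧ g ≠ 0
  · obtain ⟨g, h1, h2, h3⟩ := hex
    obtain ⟨a, rfl⟩ := Submodule.mem_span_singleton.1 h1
    have ha : a ≠ 0 := by rintro rfl; simp at h3
    exact ⟨a⁻¹, a • f, inv_ne_zero ha, h2, h3, by rw [smul_smul, inv_mul_cancel₀ ha, one_smul]⟩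
  · exfalso
    push Not at hex
    have h0 : Submodule.span C {g | g ∈ Submodule.span C {f} ∧ g ∈ CE.lev K₀ K k'} = ⊥ := by
      rw [Submodule.span_eq_bot]
      intro g hg
      exact hex g hg.1 hg.2
    rw [h0] at hV
    exact hf (by simpa using hV)

end descent

end Crest.Agent.R013.DescP_429
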