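import Crest.Agent.R013.DescP3_429
import Crest.Agent.R013.SSDefs_332
import Crest.Agent.R013.CE5_280

/-!
# R013 / DescP4 (helper429): the place of the level `K₀[k']` under an invariant place; directions of
a semistable structure
-/

set_option autoImplicit false
set_option linter.all false

namespace Crest.Agent.R013.DescP_429

open Module WithZero Crest.Agent.R013.Desc_372
open Crest.Agent.R013.RR7_948 Crest.Agent.R013.RR8_948 Crest.Agent.R013.RR9_948
open Crest.Agent.R013.RR11_948 Crest.Agent.R013.RR12_948 Crest.Agent.R013.Red332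
open scoped NNReal

/-- a place is rational if every integral function has a constant residue -/
theorem degP_eq_one_of {k K : Type*} [Field k] [Field K] [Algebra k K] (P : Pl k K)
    (hres : ∀ f, P.v f ≤ 1 → ∃ c : k, P.v (f - algebraMap k K c) < 1) : degP P = 1 := by
  have hlt : ∀ c : k, P.v (algebraMap k K c) < 1 → c = 0 := by
    intro c hc
    by_contra h0
    rw [P.const c h0] at hc
    exact lt_irrefl _ hc
  have hle : ∀ c : k, P.v (algebraMap k K c) ≤ 1 := by
    intro c
    by_cases h0 : c = 0
    · rw [h0, map_zero, map_zero]; exact zero_le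
    · rw [P.const c h0]
  let g : k →ₗ[k] (ball P 0 ⧸ (ball P (-1)).submoduleOf (ball P 0)) :=
    (Submodule.mkQ _).comp (LinearMap.codRestrict (ball P 0) (Algebra.linearMap k K)
      (fun c => by rw [mem_ball, exp_zero]; exact hle c))
  have hg : Function.Bijective g := by
    constructor
    · rw [← LinearMap.ker_eq_bot, LinearMap.ker_eq_bot']
      intro c hc
      simp only [g, LinearMap.comp_apply, Submodule.mkQ_apply] at hc
      rw [Submodule.Quotient.mk_eq_zero, Submodule.submoduleOf, Submodule.mem_comap, mem_ball,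
        ← RR2_948.lt_one_iff] at hc
      exact hlt c hc
    · intro y
      obtain ⟨⟨f, hf⟩, rfl⟩ := Submodule.Quotient.mk_surjective _ y
      rw [mem_ball, exp_zero] at hf
      obtain ⟨c, hc⟩ := hres f hf
      refine ⟨c, ?_⟩
      simp only [g, LinearMap.comp_apply, Submodule.mkQ_apply]
      rw [Submodule.Quotient.eq, Submodule.submoduleOf, Submodule.mem_comap, mem_ball,
        ← RR2_948.lt_one_iff]
      rw [Valuation.map_sub_swap] at hc
      exact hc
  have h1 : degE P = 1 := by
    unfold degE RR1_948.ri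
    rw [← (LinearEquiv.ofBijective g hg).length_eq]
    exact Module.length_eq_one_iff.mpr inferInstance
  unfold degP
  rw [h1]
  rfl

section levPl

variable {k C K₀ K : Type*} [Field k] [Field C] [Field K₀] [Field K] [Algebra k C]
    [Algebra k K₀]
    [Algebra C K] [Algebra K₀ K] [Algebra k K] [IsScalarTower k C K] [IsScalarTower k K₀ K]

/-- the place of the level `K₀[k']` under `P`, if `P` has a uniformizer in the level -/
noncomputable def levPl (k' : IntermediateField k C) (P : Pl C K)
    (ht : ∃ t ∈ CE.lev K₀ K k', P.v t = exp (-1)) : Pl k' (CE.lev K₀ K k') where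
  v := P.v.comap (algebraMap (CE.lev K₀ K k') K)
  const := fun c hc => by
    show P.v (algebraMap C K (c : C)) = 1
    exact P.const _ (by simpa using hc)
  surj := fun y => by
    obtain ⟨t, ht1, ht2⟩ := ht
    induction y using WithZero.expRecOn with
    | zero => exact ⟨0, map_zero _⟩
    | exp n =>
      refine ⟨⟨t, ht1⟩ ^ (-n), ?_⟩
      show P.v (algebraMap (CE.lev K₀ K k') K (⟨t, ht1⟩ ^ (-n))) = exp n
      rw [map_zpow₀, map_zpow₀]
      show P.v t ^ (-n) = exp n
      rw [ht2, ← exp_zsmul]
      congr 1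
      simp

theorem levPl_v (k' : IntermediateField k C) (P : Pl C K)
    (ht : ∃ t ∈ CE.lev K₀ K k', P.v t = exp (-1)) (f : CE.lev K₀ K k') :
    (levPl k' P ht).v f = P.v (f : K) := rfl

theorem degP_levPl [IsGalois k C] [IsAlgClosed C] [h : CE k C K₀ K]
    [Algebra (RatFunc C) K] [IsScalarTower C (RatFunc C) K]
    [FiniteDimensional (RatFunc C) K] [Algebra.IsSeparable (RatFunc C) K]
    (k' : IntermediateField k C) (P : Pl C K)
    (ht : ∃ t ∈ CE.lev K₀ K k', P.v t = exp (-1)) (hP : Inv K₀ k' P) :
    degP (levPl k' P ht) = 1 := by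
  refine degP_eq_one_of _ fun f hf => ?_
  obtain ⟨c, hc, h1⟩ := hP.rational f.2 hf
  exact ⟨⟨c, hc⟩, h1⟩

end levPl

section SSK

open Crest.Agent.R013.SSK_332

variable {k C K : Type*} [NontriviallyNormedField k] [CompleteSpace k]
    [NormedField C] [IsUltrametricDist C] [NormedAlgebra k C] [Algebra.IsAlgebraic k C]
    [Field K] [Algebra C K] (S : SSK k C K)
    {K₀ : Type*} [Field K₀] [Algebra k K₀]
    [Algebra K₀ K] [Algebra k K] [IsScalarTower k C K] [IsScalarTower k K₀ K]

/-- all directions in a finite set are fixed by some `Gam k'`, and have parameters in `K₀[k']` -/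
theorem exists_inv_dirs [Normal k C] [IsAlgClosed (Ct C)] [h : CE k C K₀ K] (D : Finset S.Dir) :
    ∃ k' : IntermediateField k C, FiniteDimensional k k' ∧
      ∀ d ∈ D, InvX K₀ k' (S.nm d.1) d.2 ∧
        ∃ t ∈ CE.lev K₀ K k', (S.nm d.1).v t = 1 ∧ d.2.v (red (S.nm d.1) t) = exp (-1) := by
  classical
  induction D using Finset.induction_on with
  | empty => exact ⟨⊥, inferInstance, fun d hd => absurd hd (Finset.notMem_empty d)⟩
  | insert d D _ ih =>
    obtain ⟨k₁, hk₁, h1⟩ := ih
    obtain ⟨i, j1, j2, j3⟩ := S.ff d.1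
    obtain ⟨k₂, hk₂, h2, h3⟩ := exists_invX (k := k) (K₀ := K₀) (S.nm d.1)
      (CE5_280.algebraicClosure_eq_bot) {d.2}
    refine ⟨k₁ ⊔ k₂, inferInstance, fun e he => ?_⟩
    rw [Finset.mem_insert] at he
    rcases he with rfl | he
    · obtain ⟨t, ht1, ht2⟩ := h3 e.2 (Finset.mem_singleton_self _)
      exact ⟨(h2 e.2 (Finset.mem_singleton_self _)).mono le_sup_right, t,
        CE.lev_mono K₀ K le_sup_right ht1, ht2⟩
    · obtain ⟨h4, t, ht1, ht2⟩ := h1 e he
      exact ⟨h4.mono le_sup_left, t, CE.lev_mono K₀ K le_sup_left ht1, ht2⟩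

end SSK

end Crest.Agent.R013.DescP_429
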