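import Crest.Agent.R013.Good3_408
import Mathlib.RingTheory.Henselian
import Mathlib.RingTheory.AdicCompletion.Completeness

/-!
# SS-DIR, file 1: Hensel's lemma in the ring of bounded series on the open disc

`BI k C` : the subring of `FD k C` of the series with coefficients of norm at most one.
-/

set_option autoImplicit false
set_option linter.unusedSectionVars false

noncomputable section

namespace Crest.Agent.R013.Dir_408

open Crest.Agent.R013.Cell_408 Crest.Agent.R013.Comp_267 Crest.Agent.R013.Good_408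

variable {k C : Type*} [NontriviallyNormedField k] [CompleteSpace k] [IsUltrametricDist k]
  [NormedField C] [IsUltrametricDist C] [NormedAlgebra k C] [Algebra.IsAlgebraic k C]
  [IsAlgClosed C]

/-- the integers of a field between `k` and `C` -/
def RL (L : IntermediateField k C) : Subring C where
  carrier := {c | c ∈ L ∧ ‖c‖ ≤ 1}
  mul_mem' {a b} ha hb := ⟨mul_mem ha.1 hb.1, by
    rw [norm_mul]; exact mul_le_one₀ ha.2 (norm_nonneg _) hb.2⟩
  one_mem' := ⟨one_mem L, by rw [norm_one]⟩
  add_mem' {a b} ha hb := ⟨add_mem ha.1 hb.1,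
    (IsUltrametricDist.norm_add_le_max _ _).trans (max_le ha.2 hb.2)⟩
  zero_mem' := ⟨zero_mem L, by rw [norm_zero]; exact zero_le_one⟩
  neg_mem' {a} ha := ⟨neg_mem ha.1, by rw [norm_neg]; exact ha.2⟩

theorem mem_RL {L : IntermediateField k C} {c : C} : c ∈ RL L ↔ c ∈ L ∧ ‖c‖ ≤ 1 := Iff.rfl

theorem isUnit_RL {L : IntermediateField k C} {c : RL L} (h : ‖(c : C)‖ = 1) : IsUnit c := by
  have hc0 : (c : C) ≠ 0 := by
    intro h0
    rw [h0, norm_zero] at h
    exact zero_ne_one h
  refine IsUnit.of_mul_eq_one ⟨(c : C)⁻¹, inv_mem c.2.1, by rw [norm_inv, h, inv_one]⟩ ?_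
  exact Subtype.ext (mul_inv_cancel₀ hc0)

variable (k C) in
/-- series with coefficients of norm at most one, as elements of `FD` -/
def BI : Subring (FD k C) where
  carrier := {x | ∃ b : BD k C, (∀ n, ‖PowerSeries.coeff n (b : PowerSeries C)‖ ≤ 1) ∧
    algebraMap (BD k C) (FD k C) b = x}
  mul_mem' := by
    rintro _ _ ⟨a, ha, rfl⟩ ⟨b, hb, rfl⟩
    refine ⟨a * b, fun n => ?_, map_mul _ _ _⟩
    change ‖PowerSeries.coeff n ((a : PowerSeries C) * (b : PowerSeries C))‖ ≤ 1
    rw [PowerSeries.coeff_mul]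
    refine IsUltrametricDist.norm_sum_le_of_forall_le_of_nonneg zero_le_one fun p _ => ?_
    rw [norm_mul]
    exact mul_le_one₀ (ha _) (norm_nonneg _) (hb _)
  one_mem' := by
    refine ⟨1, fun n => ?_, map_one _⟩
    change ‖PowerSeries.coeff n (1 : PowerSeries C)‖ ≤ 1
    rw [PowerSeries.coeff_one]
    split_ifs <;> simp
  add_mem' := by
    rintro _ _ ⟨a, ha, rfl⟩ ⟨b, hb, rfl⟩
    refine ⟨a + b, fun n => ?_, map_add _ _ _⟩
    change ‖PowerSeries.coeff n ((a : PowerSeries C) + (b : PowerSeries C))‖ ≤ 1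
    rw [map_add]
    exact (IsUltrametricDist.norm_add_le_max _ _).trans (max_le (ha n) (hb n))
  zero_mem' := ⟨0, fun n => by
    change ‖PowerSeries.coeff n (0 : PowerSeries C)‖ ≤ 1
    rw [map_zero, norm_zero]; exact zero_le_one, map_zero _⟩
  neg_mem' := by
    rintro _ ⟨a, ha, rfl⟩
    refine ⟨-a, fun n => ?_, map_neg _ _⟩
    change ‖PowerSeries.coeff n (-(a : PowerSeries C))‖ ≤ 1
    rw [map_neg, norm_neg]
    exact ha n

theorem mem_BI {x : FD k C} : x ∈ BI k C ↔ ∃ b : BD k C,
    (∀ n, ‖PowerSeries.coeff n (b : PowerSeries C)‖ ≤ 1) ∧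
    algebraMap (BD k C) (FD k C) b = x := Iff.rfl

theorem C_mem_BI {c : C} (hc : ‖c‖ ≤ 1) : algebraMap C (FD k C) c ∈ BI k C := by
  refine ⟨algebraMap C (BD k C) c, fun n => ?_, (IsScalarTower.algebraMap_apply _ _ _ _).symm⟩
  change ‖PowerSeries.coeff n (algebraMap C (PowerSeries C) c)‖ ≤ 1
  rw [PowerSeries.algebraMap_apply, Algebra.algebraMap_self, RingHom.id_apply, PowerSeries.coeff_C]
  split_ifs
  · exact hc
  · rw [norm_zero]; exact zero_le_one

theorem TF_mem_BI : TF k C ∈ BI k C := by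
  refine ⟨XB, fun n => ?_, rfl⟩
  change ‖PowerSeries.coeff n (PowerSeries.X : PowerSeries C)‖ ≤ 1
  rw [PowerSeries.coeff_X]
  split_ifs <;> simp

/-- power series with coefficients in the integers of a finite extension -/
def rl (L : IntermediateField k C) [FiniteDimensional k L] : PowerSeries (RL L) →+* BD k C :=
  (PowerSeries.map (RL L).subtype).codRestrict (BD k C) (fun f => by
    refine ⟨⟨L, inferInstance, fun n => ?_⟩, 1, fun n => ?_⟩
    · dsimp only
      rw [PowerSeries.coeff_map]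
      exact (PowerSeries.coeff n f).2.1
    · rw [PowerSeries.coeff_map]
      exact (PowerSeries.coeff n f).2.2)

theorem coe_rl (L : IntermediateField k C) [FiniteDimensional k L] (f : PowerSeries (RL L)) :
    ((rl L f : BD k C) : PowerSeries C) = PowerSeries.map (RL L).subtype f := rfl

theorem coeff_rl (L : IntermediateField k C) [FiniteDimensional k L] (f : PowerSeries (RL L))
    (n : ℕ) : PowerSeries.coeff n ((rl L f : BD k C) : PowerSeries C) =
      ((PowerSeries.coeff n f : RL L) : C) := by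
  rw [coe_rl, PowerSeries.coeff_map]
  rfl

theorem rl_mem (L : IntermediateField k C) [FiniteDimensional k L] (f : PowerSeries (RL L)) :
    algebraMap (BD k C) (FD k C) (rl L f) ∈ BI k C :=
  ⟨rl L f, fun n => by rw [coeff_rl]; exact (PowerSeries.coeff n f).2.2, rfl⟩

theorem exists_rl {b : BD k C} {L : IntermediateField k C} [FiniteDimensional k L]
    (h1 : ∀ n, PowerSeries.coeff n (b : PowerSeries C) ∈ L)
    (h2 : ∀ n, ‖PowerSeries.coeff n (b : PowerSeries C)‖ ≤ 1) : ∃ f, rl L f = b := by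
  refine ⟨PowerSeries.mk fun n => ⟨PowerSeries.coeff n (b : PowerSeries C), h1 n, h2 n⟩, ?_⟩
  apply Subtype.ext
  ext n
  rw [coeff_rl, PowerSeries.coeff_mk]

/-- the value at the centre of an element of `BI` -/
theorem exists_unit_BI {b : BD k C} (h : ∀ n, ‖PowerSeries.coeff n (b : PowerSeries C)‖ ≤ 1)
    (h0 : ‖PowerSeries.coeff 0 (b : PowerSeries C)‖ = 1) :
    ∃ b' : BD k C, (∀ n, ‖PowerSeries.coeff n (b' : PowerSeries C)‖ ≤ 1) ∧ b * b' = 1 := by
  obtain ⟨L, hL, h1⟩ := b.2.1
  obtain ⟨f, rfl⟩ := exists_rl (L := L) h1 h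
  rw [coeff_rl] at h0
  have hu : IsUnit f := by
    rw [PowerSeries.isUnit_iff_constantCoeff, ← PowerSeries.coeff_zero_eq_constantCoeff_apply]
    exact isUnit_RL h0
  obtain ⟨g, hg⟩ := hu.exists_right_inv
  refine ⟨rl L g, fun n => ?_, ?_⟩
  · rw [coeff_rl]; exact (PowerSeries.coeff n g).2.2
  · rw [← map_mul, hg, map_one]

theorem inv_mem_BI {b : BD k C} (h : ∀ n, ‖PowerSeries.coeff n (b : PowerSeries C)‖ ≤ 1)
    (h0 : ‖PowerSeries.coeff 0 (b : PowerSeries C)‖ = 1) :
    (algebraMap (BD k C) (FD k C) b)⁻¹ ∈ BI k C := by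
  obtain ⟨b', h1, h2⟩ := exists_unit_BI h h0
  have h3 : algebraMap (BD k C) (FD k C) b * algebraMap (BD k C) (FD k C) b' = 1 := by
    rw [← map_mul, h2, map_one]
  rw [inv_eq_of_mul_eq_one_right h3]
  exact ⟨b', h1, rfl⟩

open Polynomial in
/-- **Hensel's lemma on the disc** -/
theorem hensel_BI (P : (FD k C)[X]) (hP : P.Monic) (B : ℕ → BD k C)
    (hB : ∀ i, algebraMap (BD k C) (FD k C) (B i) = P.coeff i)
    (hB1 : ∀ i n, ‖PowerSeries.coeff n (B i : PowerSeries C)‖ ≤ 1)
    (Pc : C[X]) (hPc : ∀ i, Pc.coeff i = PowerSeries.coeff 0 (B i : PowerSeries C))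
    (ζ : C) (hζ : ‖ζ‖ ≤ 1) (h0 : ‖Pc.eval ζ‖ < 1) (h1 : ‖Pc.derivative.eval ζ‖ = 1) :
    ∃ b : BD k C, (∀ n, ‖PowerSeries.coeff n (b : PowerSeries C)‖ ≤ 1) ∧
      P.eval (algebraMap (BD k C) (FD k C) b) = 0 ∧
      ‖PowerSeries.coeff 0 (b : PowerSeries C) - ζ‖ < 1 := by
  classical
  have hinj := IsFractionRing.injective (BD k C) (FD k C)
  -- degrees
  have hBhigh : ∀ i, P.natDegree < i → B i = 0 := fun i hi => hinj (by
    rw [hB, map_zero, coeff_eq_zero_of_natDegree_lt hi])
  have hBtop : B P.natDegree = 1 := hinj (by rw [hB, map_one]; exact hP)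
  have hPc1 : Pc.coeff P.natDegree = 1 := by
    rw [hPc, hBtop]
    change PowerSeries.coeff 0 (1 : PowerSeries C) = 1
    rw [PowerSeries.coeff_one, if_pos rfl]
  have hPcdeg : Pc.natDegree ≤ P.natDegree := by
    refine natDegree_le_iff_coeff_eq_zero.2 fun i hi => ?_
    rw [hPc, hBhigh i hi]
    exact map_zero _
  have hPcdeg' : Pc.natDegree = P.natDegree := le_antisymm hPcdeg
    (le_natDegree_of_ne_zero (by rw [hPc1]; exact one_ne_zero))
  have hPcm : Pc.Monic := by
    rw [Monic, leadingCoeff, hPcdeg', hPc1]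
  have hPcle : ∀ i, ‖Pc.coeff i‖ ≤ 1 := fun i => by rw [hPc]; exact hB1 i 0
  have heval : ∀ (Q : C[X]), (∀ i, ‖Q.coeff i‖ ≤ 1) → ∀ x y : C, ‖x‖ ≤ 1 → ‖y‖ ≤ 1 →
      ‖Q.eval x - Q.eval y‖ ≤ ‖x - y‖ := by
    intro Q hQ x y hx hy
    rw [eval_eq_sum_range, eval_eq_sum_range, ← Finset.sum_sub_distrib]
    refine IsUltrametricDist.norm_sum_le_of_forall_le_of_nonneg (norm_nonneg _) fun i _ => ?_
    rw [← mul_sub, norm_mul]
    rcases Nat.eq_zero_or_pos i with hi | hi
    · rw [hi, pow_zero, pow_zero, sub_self, norm_zero, mul_zero]; exact norm_nonneg _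
    rw [← (Commute.all x y).geom_sum₂_mul, norm_mul]
    have h2 : ‖∑ l ∈ Finset.range i, x ^ l * y ^ (i - 1 - l)‖ ≤ 1 := by
      refine IsUltrametricDist.norm_sum_le_of_forall_le_of_nonneg zero_le_one fun l _ => ?_
      rw [norm_mul, norm_pow, norm_pow]
      exact mul_le_one₀ (pow_le_one₀ (norm_nonneg _) hx) (by positivity)
        (pow_le_one₀ (norm_nonneg _) hy)
    calc ‖Q.coeff i‖ * (‖∑ l ∈ Finset.range i, x ^ l * y ^ (i - 1 - l)‖ * ‖x - y‖)
        ≤ 1 * (1 * ‖x - y‖) := by gcongr; exact hQ i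
      _ = ‖x - y‖ := by ring
  -- an exact root of `Pc`
  obtain ⟨α, hα0, hα1⟩ : ∃ α, Pc.eval α = 0 ∧ ‖ζ - α‖ < 1 := by
    by_contra hcon
    push Not at hcon
    have hsp : Pc.Splits := IsAlgClosed.splits Pc
    have h2 := hsp.eq_prod_roots
    rw [hPcm.leadingCoeff, C_1, one_mul] at h2
    have h3 : Pc.eval ζ = (Pc.roots.map fun a => ζ - a).prod := by
      conv_lhs => rw [h2]
      rw [eval_multiset_prod, Multiset.map_map]
      congr 1
      refine Multiset.map_congr rfl fun a _ => ?_
      simp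
    have h4 : ∀ S : Multiset C, (∀ a ∈ S, 1 ≤ ‖ζ - a‖) → 1 ≤ ‖(S.map fun a => ζ - a).prod‖ := by
      intro S
      induction S using Multiset.induction_on with
      | empty => intro _; simp
      | cons b S ih =>
        intro hS
        rw [Multiset.map_cons, Multiset.prod_cons, norm_mul]
        exact one_le_mul_of_one_le_of_one_le (hS b (Multiset.mem_cons_self _ _))
          (ih fun a ha => hS a (Multiset.mem_cons_of_mem ha))
    have h5 := h4 Pc.roots (fun a ha => hcon a (isRoot_of_mem_roots ha))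
    rw [← h3] at h5
    exact absurd h0 (not_lt.2 h5)
  have hαle : ‖α‖ ≤ 1 := by
    have : α = ζ - (ζ - α) := by ring
    rw [this]
    rw [sub_eq_add_neg]
    exact (IsUltrametricDist.norm_add_le_max _ _).trans (max_le hζ (by rw [norm_neg]; exact hα1.le))
  have hαd : ‖Pc.derivative.eval α‖ = 1 := by
    have h2 : ‖Pc.derivative.eval ζ - Pc.derivative.eval α‖ < 1 :=
      (heval _ (fun i => by
        rw [coeff_derivative, norm_mul]
        refine mul_le_one₀ (hPcle _) (norm_nonneg _) ?_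
        have := IsUltrametricDist.norm_natCast_le_one C (i + 1)
        push_cast at this
        exact this) ζ α hζ hαle).trans_lt hα1
    have h3 : Pc.derivative.eval α = Pc.derivative.eval ζ -
        (Pc.derivative.eval ζ - Pc.derivative.eval α) := by ring
    rw [h3]
    rw [sub_eq_add_neg, IsUltrametricDist.norm_add_eq_max_of_norm_ne_norm (by
      rw [norm_neg, h1]; exact h2.ne'), norm_neg, h1]
    exact max_eq_left h2.le
  -- the field of definition
  obtain ⟨L0, hL0, hL1⟩ : ∃ L : IntermediateField k C, FiniteDimensional k L ∧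
      ∀ i n, PowerSeries.coeff n (B i : PowerSeries C) ∈ L := by
    have h2 : ∀ N : ℕ, ∃ L : IntermediateField k C, FiniteDimensional k L ∧
      ∀ i < N, ∀ n, PowerSeries.coeff n (B i : PowerSeries C) ∈ L := by
      intro N
      induction N with
      | zero => exact ⟨⊥, inferInstance, fun i hi => absurd hi (Nat.not_lt_zero _)⟩
      | succ N ih =>
        obtain ⟨L, hL, h2⟩ := ih
        obtain ⟨M, hM, h3⟩ := (B N).2.1
        refine ⟨L ⊔ M, IntermediateField.finiteDimensional_sup L M, fun i hi n => ?_⟩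
        rcases Nat.lt_succ_iff_lt_or_eq.1 hi with h | h
        · exact (le_sup_left : L ≤ L ⊔ M) (h2 i h n)
        · rw [h]; exact (le_sup_right : M ≤ L ⊔ M) (h3 n)
    obtain ⟨L, hL, h3⟩ := h2 (P.natDegree + 1)
    refine ⟨L, hL, fun i n => ?_⟩
    rcases Nat.lt_or_ge i (P.natDegree + 1) with h | h
    · exact h3 i h n
    · rw [hBhigh i h]
      change PowerSeries.coeff n (0 : PowerSeries C) ∈ L
      rw [map_zero]
      exact zero_mem L
  obtain ⟨L1, hL1', hα2⟩ := finDef_const (k := k) (ι := Unit) α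
  let L : IntermediateField k C := L0 ⊔ L1
  have : FiniteDimensional k L := IntermediateField.finiteDimensional_sup L0 L1
  have hBL : ∀ i, ∃ f, rl L f = B i := fun i =>
    exists_rl (fun n => (le_sup_left : L0 ≤ L0 ⊔ L1) (hL1 i n)) (hB1 i)
  choose g hg using hBL
  let α' : RL L := ⟨α, (le_sup_right : L1 ≤ L0 ⊔ L1) (hα2 ()), hαle⟩
  have hrinj : Function.Injective (rl L) := by
    intro f f' h
    ext n
    rw [← coeff_rl L f n, ← coeff_rl L f' n, h]
  -- the polynomial over the integers of `L`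
  let P1 : (PowerSeries (RL L))[X] := ∑ i ∈ Finset.range (P.natDegree + 1), monomial i (g i)
  have hP1 : ∀ i, P1.coeff i = g i := by
    intro i
    simp only [P1, finsetSum_coeff, coeff_monomial]
    rw [Finset.sum_ite_eq' (Finset.range (P.natDegree + 1)) i]
    split_ifs with h
    · rfl
    · refine (hrinj ?_).symm
      rw [hg, map_zero]
      exact hBhigh i (by simpa using h)
  have hP1deg : P1.natDegree ≤ P.natDegree := by
    refine natDegree_le_iff_coeff_eq_zero.2 fun i hi => ?_
    rw [hP1]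
    exact hrinj (by rw [hg, map_zero]; exact hBhigh i hi)
  have hP1top : P1.coeff P.natDegree = 1 := by
    rw [hP1]
    exact hrinj (by rw [hg, map_one]; exact hBtop)
  have hP1m : P1.Monic := monic_of_natDegree_le_of_coeff_eq_one _ hP1deg hP1top
  let ρ : PowerSeries (RL L) →+* FD k C := (algebraMap (BD k C) (FD k C)).comp (rl L)
  have hmap : P1.map ρ = P := by
    ext i
    rw [coeff_map, hP1]
    change algebraMap (BD k C) (FD k C) (rl L (g i)) = _
    rw [hg, hB]
  -- evaluation at the centre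
  let κ : PowerSeries (RL L) →+* C := (RL L).subtype.comp (PowerSeries.constantCoeff (R := RL L))
  have hmapc : P1.map κ = Pc := by
    ext i
    rw [coeff_map, hP1, hPc, ← hg i, coeff_rl, PowerSeries.coeff_zero_eq_constantCoeff_apply]
    rfl
  have hκ : ∀ Q : (PowerSeries (RL L))[X], κ (Q.eval (PowerSeries.C α')) = (Q.map κ).eval α := by
    intro Q
    have e : α = κ (PowerSeries.C α') := by
      change α = ((PowerSeries.constantCoeff (PowerSeries.C α') : RL L) : C)
      rw [PowerSeries.constantCoeff_C]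
    rw [eval_map]
    conv_rhs => rw [e]
    rw [eval₂_at_apply]
  have hH : HenselianRing (PowerSeries (RL L)) (Ideal.span {PowerSeries.X}) := inferInstance
  have hmem : ∀ f : PowerSeries (RL L), f ∈ Ideal.span {(PowerSeries.X : PowerSeries (RL L))} ↔
      PowerSeries.constantCoeff f = 0 := by
    intro f
    rw [Ideal.mem_span_singleton, PowerSeries.X_dvd_iff]
  obtain ⟨a, ha0, ha1⟩ := hH.is_henselian P1 hP1m (PowerSeries.C α') (by
      rw [hmem]
      apply Subtype.ext
      have := hκ P1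
      rw [hmapc, hα0] at this
      exact this) (by
      have h2 : IsUnit (P1.derivative.eval (PowerSeries.C α')) := by
        rw [PowerSeries.isUnit_iff_constantCoeff]
        apply isUnit_RL
        have := hκ P1.derivative
        rw [← derivative_map, hmapc] at this
        rw [← hαd, ← this]
        rfl
      exact h2.map _)
  refine ⟨rl L a, fun n => by rw [coeff_rl]; exact (PowerSeries.coeff n a).2.2, ?_, ?_⟩
  · have h2 : ρ (P1.eval a) = P.eval (ρ a) := by
      rw [← hmap, eval_map, eval₂_at_apply]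
    have h3 : P.eval (ρ a) = 0 := by
      rw [← h2, ha0, map_zero]
    exact h3
  · rw [hmem, map_sub, PowerSeries.constantCoeff_C, sub_eq_zero] at ha1
    rw [coeff_rl, PowerSeries.coeff_zero_eq_constantCoeff_apply, ha1]
    change ‖α - ζ‖ < 1
    rw [norm_sub_rev]
    exact hα1

end Crest.Agent.R013.Dir_408
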