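import Crest.Agent.R013.Cell4_408

/-!
# R013 / Dir1 (helper83): Hensel's lemma for power series with coefficients of norm at most one
which lie in one finite extension of `k`.
-/

set_option autoImplicit false
set_option linter.unusedSectionVars false
set_option linter.style.haveILetI false

noncomputable section

namespace Crest.Agent.R013.Dir_83

open Crest.Agent.R013.Cell_408 Topology Polynomial

variable (k C : Type*) [NontriviallyNormedField k] [NormedField C] [IsUltrametricDist C]
  [NormedAlgebra k C] [Algebra.IsAlgebraic k C]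

/-- power series with coefficients of norm at most one in one finite extension of `k` -/
def OB : Subring (PowerSeries C) where
  carrier := {f | FinDef k (fun n => PowerSeries.coeff n f) ∧ ∀ n, ‖PowerSeries.coeff n f‖ ≤ 1}
  mul_mem' {f g} hf hg := by
    obtain ⟨hf1, hf2⟩ := hf
    obtain ⟨hg1, hg2⟩ := hg
    obtain ⟨L, hL, h1, h2⟩ := hf1.common hg1
    refine ⟨⟨L, hL, fun n => ?_⟩, fun n => ?_⟩
    · dsimp only
      rw [PowerSeries.coeff_mul]
      exact sum_mem fun p _ => mul_mem (h1 _) (h2 _)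
    · rw [PowerSeries.coeff_mul]
      refine IsUltrametricDist.norm_sum_le_of_forall_le_of_nonneg zero_le_one fun p _ => ?_
      rw [norm_mul]
      exact mul_le_one₀ (hf2 _) (norm_nonneg _) (hg2 _)
  one_mem' := by
    refine ⟨⟨⊥, inferInstance, fun n => ?_⟩, fun n => ?_⟩
    · dsimp only
      rw [PowerSeries.coeff_one]; split_ifs
      · exact one_mem _
      · exact zero_mem _
    · rw [PowerSeries.coeff_one]; split_ifs <;> simp
  add_mem' {f g} hf hg := by
    obtain ⟨hf1, hf2⟩ := hf
    obtain ⟨hg1, hg2⟩ := hg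
    obtain ⟨L, hL, h1, h2⟩ := hf1.common hg1
    refine ⟨⟨L, hL, fun n => ?_⟩, fun n => ?_⟩
    · dsimp only
      rw [map_add]; exact add_mem (h1 n) (h2 n)
    · rw [map_add]
      exact (IsUltrametricDist.norm_add_le_max _ _).trans (max_le (hf2 n) (hg2 n))
  zero_mem' := by
    refine ⟨⟨⊥, inferInstance, fun n => ?_⟩, fun n => ?_⟩
    · dsimp only
      rw [map_zero]; exact zero_mem _
    · rw [map_zero, norm_zero]; exact zero_le_one
  neg_mem' {f} hf := by
    obtain ⟨⟨L, hL, h1⟩, h2⟩ := hf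
    refine ⟨⟨L, hL, fun n => ?_⟩, fun n => ?_⟩
    · dsimp only
      rw [map_neg]; exact neg_mem (h1 n)
    · rw [map_neg, norm_neg]; exact h2 n

variable {k C}

theorem mem_OB {f : PowerSeries C} : f ∈ OB k C ↔
    FinDef k (fun n => PowerSeries.coeff n f) ∧ ∀ n, ‖PowerSeries.coeff n f‖ ≤ 1 := Iff.rfl

theorem OB_le {f : PowerSeries C} (hf : f ∈ OB k C) : f ∈ BD k C := ⟨hf.1, 1, hf.2⟩

theorem coe_mem_OB {P : C[X]} (hP : ∀ i, ‖P.coeff i‖ ≤ 1) : (P : PowerSeries C) ∈ OB k C := by
  refine ⟨?_, fun n => by rw [Polynomial.coeff_coe]; exact hP n⟩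
  exact (coe_mem_BD (k := k) P).1

theorem C_mem_OB {c : C} (hc : ‖c‖ ≤ 1) : (PowerSeries.C c : PowerSeries C) ∈ OB k C := by
  rw [← Polynomial.coe_C]
  refine coe_mem_OB fun i => ?_
  rw [Polynomial.coeff_C]
  split_ifs
  · exact hc
  · rw [norm_zero]; exact zero_le_one

theorem inv_mem_OB [CompleteSpace k] [IsUltrametricDist k] [IsAlgClosed C] {f : PowerSeries C}
    (hf : f ∈ OB k C) (h0 : ‖PowerSeries.constantCoeff f‖ = 1) : ∃ g ∈ OB k C, f * g = 1 := by
  have hu : IsU k f := ⟨hf.1, hf.2, by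
    rw [PowerSeries.coeff_zero_eq_constantCoeff_apply]; exact h0⟩
  obtain ⟨v, hv, hfv⟩ := hu.inv
  exact ⟨v, ⟨hv.fin, hv.le⟩, hfv⟩

/-- the coefficients of finitely many elements of `OB` lie in one finite level -/
theorem exists_level {ι : Type*} (s : Finset ι) (f : ι → PowerSeries C)
    (hf : ∀ i ∈ s, f i ∈ OB k C) : ∃ L : IntermediateField k C, FiniteDimensional k L ∧
      ∀ i ∈ s, ∀ n, PowerSeries.coeff n (f i) ∈ L := by
  classical
  induction s using Finset.induction_on with
  | empty => exact ⟨⊥, inferInstance, fun i hi => absurd hi (Finset.notMem_empty i)⟩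
  | insert a s ha ih =>
    obtain ⟨L, hL, h1⟩ := ih fun i hi => hf i (Finset.mem_insert_of_mem hi)
    obtain ⟨M, hM, h2⟩ := (hf a (Finset.mem_insert_self a s)).1
    refine ⟨L ⊔ M, IntermediateField.finiteDimensional_sup L M, fun i hi n => ?_⟩
    rcases Finset.mem_insert.1 hi with rfl | hi
    · exact (le_sup_right : M ≤ L ⊔ M) (h2 n)
    · exact (le_sup_left : L ≤ L ⊔ M) (h1 i hi n)

/-- **Hensel's lemma** in `OB`. -/
theorem hensel [CompleteSpace k] [IsUltrametricDist k] [IsAlgClosed C] {G : Polynomial (PowerSeries C)} (hG : G.Monic)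
    (hc : ∀ i, G.coeff i ∈ OB k C) (a : C) (ha : ‖a‖ ≤ 1)
    (h0 : ‖PowerSeries.constantCoeff (G.eval (PowerSeries.C a))‖ < 1)
    (h1 : ‖PowerSeries.constantCoeff (G.derivative.eval (PowerSeries.C a))‖ = 1) :
    ∃ z ∈ OB k C, G.eval z = 0 ∧ ‖PowerSeries.constantCoeff z - a‖ < 1 := by
  classical
  obtain ⟨L1, hL1, hm1⟩ := exists_level (Finset.range (G.natDegree + 1)) (fun i => G.coeff i)
    (fun i _ => hc i)
  obtain ⟨L2, hL2, hm2⟩ := finDef_const (k := k) (ι := Unit) a
  set L := L1 ⊔ L2 with hLdef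
  haveI : FiniteDimensional k L := IntermediateField.finiteDimensional_sup L1 L2
  haveI : CompleteSpace L := completeSpace_mem L
  have hmG : ∀ i n, PowerSeries.coeff n (G.coeff i) ∈ L := by
    intro i n
    by_cases hi : i ∈ Finset.range (G.natDegree + 1)
    · exact (le_sup_left : L1 ≤ L) (hm1 i hi n)
    · rw [Polynomial.coeff_eq_zero_of_natDegree_lt (by simpa using hi), map_zero]
      exact zero_mem L
  have haL : a ∈ L := (le_sup_right : L2 ≤ L) (hm2 ())
  let a' : Ob L := ⟨⟨a, haL⟩, ha⟩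
  have ha' : ballMap L a' = a := rfl
  -- lift the coefficients
  let lift : ℕ → PowerSeries (Ob L) := fun i => PowerSeries.mk fun n =>
    ⟨⟨PowerSeries.coeff n (G.coeff i), hmG i n⟩, (hc i).2 n⟩
  have hlift : ∀ i, PowerSeries.map (ballMap L) (lift i) = G.coeff i := by
    intro i
    ext n
    rw [PowerSeries.coeff_map, PowerSeries.coeff_mk]; rfl
  have hGl : G ∈ Polynomial.lifts (PowerSeries.map (ballMap L)) := by
    rw [Polynomial.lifts_iff_coeff_lifts]
    exact fun n => ⟨lift n, hlift n⟩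
  obtain ⟨G', hG', -, hG'm⟩ := Polynomial.lifts_and_degree_eq_and_monic hGl hG
  have hinj : Function.Injective (ballMap L) := by
    intro x y hxy
    exact Subtype.ext (Subtype.ext hxy)
  -- evaluation
  have hev : ∀ (P : Polynomial (PowerSeries (Ob L))) (z : PowerSeries (Ob L)),
      PowerSeries.map (ballMap L) (P.eval z) =
      (P.map (PowerSeries.map (ballMap L))).eval (PowerSeries.map (ballMap L) z) := by
    intro P z
    rw [Polynomial.eval_map, Polynomial.eval₂_at_apply]
  have hcc : ∀ g : PowerSeries (Ob L), ballMap L (PowerSeries.constantCoeff g) =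
      PowerSeries.constantCoeff (PowerSeries.map (ballMap L) g) := by
    intro g
    rw [← PowerSeries.coeff_zero_eq_constantCoeff_apply,
      ← PowerSeries.coeff_zero_eq_constantCoeff_apply, PowerSeries.coeff_map]
  have hmC : ∀ x : Ob L, PowerSeries.map (ballMap L) (PowerSeries.C x) =
      PowerSeries.C (ballMap L x) := fun x => PowerSeries.map_C _ x
  let g0 : Polynomial (Ob L) := G'.map PowerSeries.constantCoeff
  have hg0 : ∀ (P : Polynomial (PowerSeries (Ob L))) (x : Ob L),
      (P.map PowerSeries.constantCoeff).eval x =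
      PowerSeries.constantCoeff (P.eval (PowerSeries.C x)) := by
    intro P x
    rw [Polynomial.eval_map]
    have : x = PowerSeries.constantCoeff (PowerSeries.C x : PowerSeries (Ob L)) := by simp
    conv_lhs => rw [this]
    rw [Polynomial.eval₂_at_apply]
  have e0 : ‖((g0.eval a' : Ob L) : L)‖ < 1 := by
    rw [← norm_ballMap, hg0, hcc, hev, hG', hmC, ha']
    exact h0
  have e1 : ‖((g0.derivative.eval a' : Ob L) : L)‖ = 1 := by
    rw [← norm_ballMap, Polynomial.derivative_map, hg0, hcc, hev, ← Polynomial.derivative_map,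
      hG', hmC, ha']
    exact h1
  -- step 1: constants
  have hK : ∃ x : L, 0 < ‖x‖ ∧ ‖x‖ < 1 := by
    obtain ⟨x, hx0, hx1⟩ := NormedField.exists_norm_lt_one k
    refine ⟨algebraMap k L x, ?_, ?_⟩
    · rw [norm_algebraMap']; exact hx0
    · rw [norm_algebraMap']; exact hx1
  obtain ⟨ϖ, hϖ0, hϖ1, hϖ2⟩ := Cell_408.exists_bound hK 1 (fun _ => g0.eval a') (fun _ _ => e0)
  have hI : ∀ x : Ob L, x ∈ Ideal.span {ϖ} ↔ ‖(x : L)‖ ≤ ‖(ϖ : L)‖ := fun x => by
    rw [Ideal.mem_span_singleton, dvd_iff hϖ0]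
  haveI := isAdicComplete_span ϖ hϖ1
  obtain ⟨b, hb0, hb1⟩ := HenselianRing.is_henselian (I := Ideal.span {ϖ}) g0 (hG'm.map _) a'
    ((hI _).2 (hϖ2 0 one_pos)) ((Ob_isUnit_iff.2 e1).map _)
  have hbn : ‖((b - a' : Ob L) : L)‖ < 1 := ((hI _).1 hb1).trans_lt hϖ1
  have hbu : IsUnit (g0.derivative.eval b) := by
    rw [Ob_isUnit_iff]
    have h2 : g0.derivative.eval b - g0.derivative.eval a' ∈ Ideal.span {ϖ} := by
      have h3 := Polynomial.sub_dvd_eval_sub b a' g0.derivative
      exact Ideal.mem_of_dvd _ h3 hb1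
    have h3 : ‖((g0.derivative.eval b - g0.derivative.eval a' : Ob L) : L)‖ < 1 :=
      ((hI _).1 h2).trans_lt hϖ1
    refine le_antisymm (Ob_norm_le_one _) (not_lt.1 fun h4 => ?_)
    have h5 : ((g0.derivative.eval a' : Ob L) : L) = ((g0.derivative.eval b : Ob L) : L) -
        ((g0.derivative.eval b - g0.derivative.eval a' : Ob L) : L) := by
      push_cast; ring
    have h6 : ‖((g0.derivative.eval a' : Ob L) : L)‖ < 1 := by
      rw [h5, sub_eq_add_neg]
      refine (IsUltrametricDist.norm_add_le_max _ _).trans_lt (max_lt h4 ?_)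
      rw [norm_neg]; exact h3
    rw [e1] at h6
    exact lt_irrefl _ h6
  -- step 2: T-adic
  obtain ⟨z, hz0, hz1⟩ := HenselianRing.is_henselian
    (I := Ideal.span {(PowerSeries.X : PowerSeries (Ob L))}) G' hG'm (PowerSeries.C b)
    (by
      rw [Ideal.mem_span_singleton, PowerSeries.X_dvd_iff, ← hg0]
      exact hb0)
    (by
      refine IsUnit.map _ ?_
      rw [PowerSeries.isUnit_iff_constantCoeff, ← hg0, ← Polynomial.derivative_map]
      exact hbu)
  refine ⟨PowerSeries.map (ballMap L) z, ⟨⟨L, inferInstance, fun n => ?_⟩, fun n => ?_⟩, ?_, ?_⟩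
  · dsimp only
    rw [PowerSeries.coeff_map, ballMap_apply]; exact Subtype.mem _
  · rw [PowerSeries.coeff_map, norm_ballMap]; exact Ob_norm_le_one _
  · have h2 := hev G' z
    rw [hG', hz0, map_zero] at h2
    exact h2.symm
  · rw [Ideal.mem_span_singleton, PowerSeries.X_dvd_iff, map_sub] at hz1
    have h2 : PowerSeries.constantCoeff z = b := by
      have h3 := sub_eq_zero.1 hz1
      simpa using h3
    rw [← hcc, h2]
    have h3 : ballMap L b - a = ballMap L (b - a') := by rw [map_sub, ha']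
    rw [h3, norm_ballMap]
    exact hbn

end Crest.Agent.R013.Dir_83
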