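import Crest.Agent.R013.EE7_809
import Crest.Agent.R013.Red4_332

/-!
# SS-DIR, file 2: equality of the orders of two ends at an étale point
-/

set_option autoImplicit false
set_option linter.unusedSectionVars false

noncomputable section

namespace Crest.Agent.R013.Dir_408

open Polynomial
open Crest.Agent.R013.Red332 Crest.Agent.R013.EE809
open scoped NNReal

section GeLemmas

variable {C : Type*} [NormedField C] [IsUltrametricDist C] {F : Type*} [Field F] [Algebra C F]
  {E : End2 C F}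

theorem ge_zero_mul {f g : F} (hf : Ge E 0 f) (hg : Ge E 0 g) : Ge E 0 (f * g) := by
  simpa using hf.mul hg

theorem ge_one_mul {f g : F} (hf : Ge E 0 f) (hg : Ge E 1 g) : Ge E 1 (f * g) := by
  simpa using hf.mul hg

/-- an element of the ring which is not in the maximal ideal -/
theorem unit_of_ge {f : F} (h : Ge E 0 f) (h1 : ¬ Ge E 1 f) : E.nm f = 1 ∧ E.od f = 0 := by
  rcases h with h | ⟨h, h'⟩
  · exact absurd (Or.inl h) h1
  · refine ⟨h, ?_⟩
    by_contra h2
    exact h1 (Or.inr ⟨h, by omega⟩)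

theorem not_ge_of_unit {f : F} (h : E.nm f = 1) (h' : E.od f = 0) : ¬ Ge E 1 f := by
  rintro (h1 | ⟨h1, h2⟩)
  · rw [h] at h1; exact lt_irrefl _ h1
  · omega

theorem ge_natCast' (n : ℕ) : Ge E 0 (n : F) := by
  have h : (n : F) = algebraMap C F (n : C) := by simp
  rw [h]
  apply Ge.const
  rw [← NNReal.coe_le_coe, coe_nnnorm, NNReal.coe_one]
  exact IsUltrametricDist.norm_natCast_le_one C n

theorem ge_succ (i : ℕ) : Ge E 0 ((i : F) + 1) := by
  have := ge_natCast' (E := E) (i + 1)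
  push_cast at this
  exact this

theorem ge_one_iff_of_sub {f g : F} (h : Ge E 1 (f - g)) : Ge E 1 f ↔ Ge E 1 g := by
  constructor
  · intro hf
    have : g = f - (f - g) := by ring
    rw [this]; exact hf.sub h
  · intro hg
    have : f = g + (f - g) := by ring
    rw [this]; exact hg.add h

theorem taylor_nm_le {v : Valuation F ℝ≥0} {Q : F[X]} (hQ : ∀ i, v (Q.coeff i) ≤ 1) {a : F}
    (ha : v a ≤ 1) (i : ℕ) : v ((taylor a Q).coeff i) ≤ 1 :=
  taylor_coeff_mem (P := Q) (z := a) v.integer hQ ha i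

theorem taylor_ge_zero {Q : F[X]} (hQ : ∀ i, Ge E 0 (Q.coeff i)) {a : F}
    (ha : Ge E 0 a) (i : ℕ) : Ge E 0 ((taylor a Q).coeff i) :=
  taylor_coeff_mem (P := Q) (z := a) (E.ring.toSubring) (fun i => hQ i) ha i

end GeLemmas

variable {C F0 K : Type*} [NormedField C] [IsUltrametricDist C] [Field F0] [Algebra C F0]
  [Field K] [Algebra C K] [Algebra F0 K] [IsScalarTower C F0 K]

theorem over_ge {E0 : End2 C F0} {E : End2 C K} {e : ℕ} (h : Over E0 E e) {r : F0}
    (hr : Ge E0 0 r) : Ge E 0 (algebraMap F0 K r) := by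
  rcases hr with hr | ⟨hr, hr'⟩
  · left; rw [h.nm]; exact hr
  · right
    rw [h.nm]
    refine ⟨hr, ?_⟩
    rw [h.od r (E0.ne_zero_of_one hr)]
    positivity

theorem over_ge_one_iff {E0 : End2 C F0} {E : End2 C K} {e : ℕ} (h : Over E0 E e) {r : F0} :
    Ge E 1 (algebraMap F0 K r) ↔ Ge E0 1 r := by
  have he : (1 : ℤ) ≤ e := by exact_mod_cast h.pos
  constructor
  · rintro (hr | ⟨hr, hr'⟩)
    · left; rwa [h.nm] at hr
    · right
      rw [h.nm] at hr
      refine ⟨hr, ?_⟩
      rw [h.od r (E0.ne_zero_of_one hr)] at hr'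
      by_contra h2
      have h3 : E0.od r ≤ 0 := by omega
      nlinarith
  · rintro (hr | ⟨hr, hr'⟩)
    · left; rw [h.nm]; exact hr
    · right
      rw [h.nm]
      refine ⟨hr, ?_⟩
      rw [h.od r (E0.ne_zero_of_one hr)]
      nlinarith

/-- integral polynomials at an element of the maximal ideal -/
theorem aeval_sub_coeff {E0 : End2 C F0} {E : End2 C K} {e : ℕ} (h : Over E0 E e) {s : K}
    (hs : Ge E 1 s) (Q : F0[X]) (hQ : ∀ i, Ge E0 0 (Q.coeff i)) :
    Ge E 0 (aeval s Q) ∧ Ge E 1 (aeval s Q - algebraMap F0 K (Q.coeff 0)) := by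
  have key : ∀ Q : F0[X], (∀ i, Ge E0 0 (Q.coeff i)) → Ge E 0 (aeval s Q) := by
    intro Q hQ
    rw [aeval_eq_sum_range]
    refine Ge.sum _ fun i _ => ?_
    rw [Algebra.smul_def]
    exact ge_zero_mul (over_ge h (hQ i)) ((hs.anti (by norm_num)).pow i)
  refine ⟨key Q hQ, ?_⟩
  have h1 : aeval s Q - algebraMap F0 K (Q.coeff 0) = aeval s Q.divX * s := by
    conv_lhs => rw [← divX_mul_X_add Q]
    simp
  rw [h1]
  exact ge_one_mul (key _ fun i => by rw [coeff_divX]; exact hQ _) hs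

theorem aeval_ge_one_iff {E0 : End2 C F0} {E : End2 C K} {e : ℕ} (h : Over E0 E e) {s : K}
    (hs : Ge E 1 s) (Q : F0[X]) (hQ : ∀ i, Ge E0 0 (Q.coeff i)) :
    Ge E 1 (aeval s Q) ↔ Ge E0 1 (Q.coeff 0) := by
  rw [ge_one_iff_of_sub (aeval_sub_coeff h hs Q hQ).2, over_ge_one_iff h]

/-- division by the uniformiser of the base -/
theorem ge_div {E0 : End2 C F0} {u : F0} (hu : E0.nm u = 1) (hu' : E0.od u = 1) {r : F0}
    (hr : Ge E0 1 r) : Ge E0 0 (r / u) := by
  have h1 := Ge.inv hu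
  rw [hu'] at h1
  rw [div_eq_mul_inv]
  simpa using hr.mul h1

/-- **equality of the orders** -/
theorem od_eq_aux {E0 : End2 C F0} {E E' : End2 C K} {e : ℕ} (h : Over E0 E e)
    (h' : Over E0 E' 1) (hnm : ∀ f, E'.nm f = E.nm f) {u : F0} (hu : E0.nm u = 1)
    (hu' : E0.od u = 1) (hsurj : ∃ f, E.nm f = 1 ∧ E.od f = 1) {s : K} (hs : Ge E 1 s)
    (hs' : Ge E' 1 s) (P : F0[X]) (hP : ∀ i, Ge E0 0 (P.coeff i)) (hP0 : aeval s P = 0)
    (hP1 : ¬ Ge E0 1 (P.coeff 1))
    (app : ∀ y, E.nm y ≤ 1 → ∃ Q : F0[X], (∀ n, E0.nm (Q.coeff n) ≤ 1) ∧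
      E.nm (y - aeval s Q) < 1) (y : K) (hy : y ≠ 0) : E'.od y = E.od y := by
  classical
  have hu0 : u ≠ 0 := E0.ne_zero_of_one hu
  have huK : algebraMap F0 K u ≠ 0 := (_root_.map_ne_zero _).2 hu0
  have hEu : E.nm (algebraMap F0 K u) = 1 := by rw [h.nm, hu]
  have hEu' : E.od (algebraMap F0 K u) = e := by rw [h.od u hu0, hu', mul_one]
  have hE'u' : E'.od (algebraMap F0 K u) = 1 := by rw [h'.od u hu0, hu']; norm_num
  have he : 1 ≤ e := h.pos
  -- the polynomial `H`
  set H : F0[X] := P.divX with hH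
  have hHi : ∀ i, Ge E0 0 (H.coeff i) := fun i => by rw [hH, coeff_divX]; exact hP _
  have hH0 : ¬ Ge E0 1 (H.coeff 0) := by rw [hH, coeff_divX]; exact hP1
  have hP00 : Ge E0 1 (P.coeff 0) := by
    rw [← aeval_ge_one_iff h hs P hP, hP0]
    exact Ge.zero _
  set b : F0 := P.coeff 0 / u with hb
  have hb0 : Ge E0 0 b := ge_div hu hu' hP00
  have hsH : s * aeval s H = -(algebraMap F0 K u * algebraMap F0 K b) := by
    have h1 : aeval s P = aeval s H * s + algebraMap F0 K (P.coeff 0) := by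
      conv_lhs => rw [← divX_mul_X_add P]
      simp [hH]
    rw [hP0] at h1
    have h2 : P.coeff 0 = u * b := by rw [hb]; field_simp
    rw [h2, map_mul] at h1
    linear_combination -h1
  have hHu := unit_of_ge (aeval_sub_coeff h hs H hHi).1
    (fun h1 => hH0 ((aeval_ge_one_iff h hs H hHi).1 h1))
  have hHu' := unit_of_ge (aeval_sub_coeff h' hs' H hHi).1
    (fun h1 => hH0 ((aeval_ge_one_iff h' hs' H hHi).1 h1))
  have hHne : aeval s H ≠ 0 := E.ne_zero_of_one hHu.1
  -- integral polynomials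
  have key : ∀ (n : ℕ) (Q : F0[X]), (∀ i, Ge E0 0 (Q.coeff i)) → E.nm (aeval s Q) = 1 →
      E.od (aeval s Q) < n → ∃ m : ℤ, E.od (aeval s Q) = m * e ∧ E'.od (aeval s Q) = m := by
    intro n
    induction n with
    | zero =>
      intro Q hQ hQ1 hlt
      exfalso
      rcases (aeval_sub_coeff h hs Q hQ).1 with h1 | h1
      · rw [hQ1] at h1; exact lt_irrefl _ h1
      · have := h1.2
        push_cast at hlt
        omega
    | succ n ih =>
      intro Q hQ hQ1 hlt
      by_cases h0 : Ge E0 1 (Q.coeff 0)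
      · set a : F0 := Q.coeff 0 / u with ha
        have ha0 : Ge E0 0 a := ge_div hu hu' h0
        set Q1 : F0[X] := Polynomial.C a * H - Polynomial.C b * Q.divX with hQ1def
        have hQ1i : ∀ i, Ge E0 0 (Q1.coeff i) := fun i => by
          rw [hQ1def, coeff_sub, coeff_C_mul, coeff_C_mul]
          exact (ge_zero_mul ha0 (hHi i)).sub (ge_zero_mul hb0 (by rw [coeff_divX]; exact hQ _))
        have hmul : aeval s Q * aeval s H = algebraMap F0 K u * aeval s Q1 := by
          have h1 : aeval s Q = aeval s Q.divX * s + algebraMap F0 K (Q.coeff 0) := by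
            conv_lhs => rw [← divX_mul_X_add Q]
            simp
          have h2 : Q.coeff 0 = u * a := by rw [ha]; field_simp
          rw [h2, map_mul] at h1
          rw [hQ1def, map_sub, map_mul, map_mul, aeval_C, aeval_C, h1]
          linear_combination (aeval s Q.divX) * hsH
        have hQne : aeval s Q ≠ 0 := E.ne_zero_of_one hQ1
        have hQ1n : E.nm (aeval s Q1) = 1 := by
          have h1 := congrArg E.nm hmul
          rw [map_mul, map_mul, hQ1, hHu.1, hEu, one_mul, one_mul] at h1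
          exact h1.symm
        have hQ1ne : aeval s Q1 ≠ 0 := E.ne_zero_of_one hQ1n
        have h2 : E.od (aeval s Q) = e + E.od (aeval s Q1) := by
          have h1 := congrArg E.od hmul
          rw [E.od_mul _ _ hQne hHne, E.od_mul _ _ huK hQ1ne, hHu.2, hEu', add_zero] at h1
          exact h1
        have h3 : E'.od (aeval s Q) = 1 + E'.od (aeval s Q1) := by
          have h1 := congrArg E'.od hmul
          rw [E'.od_mul _ _ hQne hHne, E'.od_mul _ _ huK hQ1ne, hHu'.2, hE'u', add_zero] at h1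
          exact h1
        obtain ⟨m, h4, h5⟩ := ih Q1 hQ1i hQ1n (by push_cast at hlt; omega)
        refine ⟨m + 1, ?_, ?_⟩
        · rw [h2, h4]; ring
        · rw [h3, h5]; ring
      · have h1 := unit_of_ge (aeval_sub_coeff h hs Q hQ).1
          (fun h1 => h0 ((aeval_ge_one_iff h hs Q hQ).1 h1))
        have h2 := unit_of_ge (aeval_sub_coeff h' hs' Q hQ).1
          (fun h1 => h0 ((aeval_ge_one_iff h' hs' Q hQ).1 h1))
        exact ⟨0, by rw [h1.2]; ring, h2.2⟩
  -- elements of norm one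
  have key2 : ∀ y : K, E.nm y = 1 → ∃ m : ℤ, E.od y = m * e ∧ E'.od y = m := by
    intro y hy1
    obtain ⟨Q, hQ, hQy⟩ := app y hy1.le
    choose m hm using fun i => Ge.exists (hQ i)
    obtain ⟨N, hN⟩ : ∃ N : ℕ, ∀ i ∈ Finset.range (Q.natDegree + 1), -(N : ℤ) ≤ m i := by
      refine ⟨∑ i ∈ Finset.range (Q.natDegree + 1), (m i).natAbs, fun i hi => ?_⟩
      have h1 : (m i).natAbs ≤ ∑ i ∈ Finset.range (Q.natDegree + 1), (m i).natAbs :=
        Finset.single_le_sum (f := fun i => (m i).natAbs) (fun i _ => Nat.zero_le _) hi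
      omega
    set R : F0[X] := Polynomial.C (u ^ N) * Q with hR
    have hRi : ∀ i, Ge E0 0 (R.coeff i) := by
      intro i
      rw [hR, coeff_C_mul]
      by_cases hi : i ∈ Finset.range (Q.natDegree + 1)
      · have h1 : Ge E0 (N : ℤ) (u ^ N) := by
          right
          rw [map_pow, hu, one_pow, E0.od_pow hu0, hu', mul_one]
          exact ⟨rfl, le_rfl⟩
        exact (h1.mul (hm i)).anti (by have := hN i hi; omega)
      · rw [coeff_eq_zero_of_natDegree_lt (by simpa using hi), mul_zero]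
        exact Ge.zero _
    have hsub : E.nm (aeval s Q - y) < E.nm y := by
      rw [Valuation.map_sub_swap, hy1]; exact hQy
    have hQ1 : E.nm (aeval s Q) = 1 := by
      have h1 : aeval s Q = y + (aeval s Q - y) := by ring
      rw [h1, Valuation.map_add_eq_of_lt_left _ hsub, hy1]
    have hod1 : E.od (aeval s Q) = E.od y := by
      have h1 := E.od_lt y (aeval s Q - y) hsub
      rwa [add_sub_cancel] at h1
    have hod2 : E'.od (aeval s Q) = E'.od y := by
      have h1 := E'.od_lt y (aeval s Q - y) (by rw [hnm, hnm]; exact hsub)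
      rwa [add_sub_cancel] at h1
    have hQne : aeval s Q ≠ 0 := E.ne_zero_of_one hQ1
    have hRs : aeval s R = (algebraMap F0 K u) ^ N * aeval s Q := by
      rw [hR, map_mul, aeval_C, map_pow]
    have hpne : (algebraMap F0 K u) ^ N ≠ 0 := pow_ne_zero _ huK
    have hR1 : E.nm (aeval s R) = 1 := by
      rw [hRs, map_mul, map_pow, hEu, one_pow, one_mul, hQ1]
    obtain ⟨m, h1, h2⟩ := key ((E.od (aeval s R)).toNat + 1) R hRi hR1 (by
      have := Int.self_le_toNat (E.od (aeval s R))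
      push_cast
      omega)
    rw [hRs, E.od_mul _ _ hpne hQne, E.od_pow huK, hEu', hod1] at h1
    rw [hRs, E'.od_mul _ _ hpne hQne, E'.od_pow huK, hE'u', hod2] at h2
    exact ⟨m - N, by linear_combination h1, by linear_combination h2⟩
  -- `e = 1`
  have he1 : (e : ℤ) = 1 := by
    obtain ⟨f, hf, hf'⟩ := hsurj
    obtain ⟨m, h1, -⟩ := key2 f hf
    rw [hf'] at h1
    have h2 : (e : ℤ) ∣ 1 := ⟨m, by rw [h1]; ring⟩
    have h3 := Int.le_of_dvd one_pos h2
    have h4 : (1 : ℤ) ≤ e := by exact_mod_cast he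
    omega
  obtain ⟨c, hc0, hc1, hc2⟩ := E.exists_one hy
  obtain ⟨m, h1, h2⟩ := key2 _ hc1
  rw [hc2, he1, mul_one] at h1
  rw [h1, ← h2, ← map_inv₀, E'.od_mul _ _ hy ((_root_.map_ne_zero _).2 (inv_ne_zero hc0)),
    E'.od_C _ (inv_ne_zero hc0), add_zero]

end Crest.Agent.R013.Dir_408
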