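import Crest.Agent.R013.Red3_332
import Crest.Agent.R013.Cell1_408

/-!
# R013 / Dir2 (helper83): integral polynomials in two functions at an end; an end is determined by
the values of two functions at a simple point of the reduction.
-/

set_option autoImplicit false
set_option linter.unusedSectionVars false
set_option linter.style.haveILetI false
set_option linter.unusedSimpArgs false

noncomputable section

namespace Crest.Agent.R013.Dir_83

open Crest.Agent.R013.Cell_408 Crest.Agent.R013.Red332 Polynomial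
open scoped NNReal

local notation "PC" => Polynomial.C

variable {C K : Type*} [NormedField C] [IsUltrametricDist C] [Field K] [Algebra C K]

variable (C K) in
/-- the integers of `C` in `K` -/
def jK : Ob C →+* K := (algebraMap C K).comp (Ob C).subtype

theorem jK_apply (c : Ob C) : jK C K c = algebraMap C K (c : C) := rfl

theorem Ob_nnnorm_le (c : Ob C) : ‖(c : C)‖₊ ≤ 1 := c.2

variable (C) in
/-- evaluation of an integral polynomial at `t` -/
def ev1 (t : K) : (Ob C)[X] →+* K := eval₂RingHom (jK C K) t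

variable (C) in
/-- evaluation of an integral polynomial in two variables at `(t, z)` -/
def ev2 (t z : K) : (Ob C)[X][X] →+* K := eval₂RingHom (ev1 C t) z

/-- evaluation at constants -/
def val2 (c ζ : Ob C) : (Ob C)[X][X] →+* Ob C := eval₂RingHom (evalRingHom c) ζ

theorem ev1_C (t : K) (a : Ob C) : ev1 C t (PC a) = jK C K a := eval₂_C _ _
theorem ev1_X (t : K) : ev1 C t X = t := eval₂_X _ _
theorem ev2_C (t z : K) (a : (Ob C)[X]) : ev2 C t z (PC a) = ev1 C t a := eval₂_C _ _
theorem ev2_X (t z : K) : ev2 C t z X = z := eval₂_X _ _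
theorem val2_C (c ζ : Ob C) (a : (Ob C)[X]) : val2 c ζ (PC a) = a.eval c := eval₂_C _ _
theorem val2_X (c ζ : Ob C) : val2 c ζ X = ζ := eval₂_X _ _

theorem ev1_sub (t : K) (a b : (Ob C)[X]) : ev1 C t (a - b) = ev1 C t a - ev1 C t b :=
  map_sub (ev1 C t) a b
theorem ev2_sub (t z : K) (a b : (Ob C)[X][X]) : ev2 C t z (a - b) = ev2 C t z a - ev2 C t z b :=
  map_sub (ev2 C t z) a b
theorem val2_sub (c ζ : Ob C) (a b : (Ob C)[X][X]) : val2 c ζ (a - b) = val2 c ζ a - val2 c ζ b :=
  map_sub (val2 c ζ) a b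

/-- congruence of values -/
theorem lt1_sub_val2 (E : End2 C K) {t z : K} {c ζ : Ob C} (ht : E.lt1 (t - jK C K c))
    (hz : E.lt1 (z - jK C K ζ)) (H : (Ob C)[X][X]) :
    E.lt1 (ev2 C t z H - jK C K (val2 c ζ H)) := by
  have hj : ∀ a : Ob C, jK C K a ∈ E.ring := fun a => E.C_mem (Ob_nnnorm_le a)
  have htr : t ∈ E.ring := by
    have : t = (t - jK C K c) + jK C K c := by ring
    rw [this]; exact add_mem (E.lt1_mem ht) (hj c)
  have hzr : z ∈ E.ring := by
    have : z = (z - jK C K ζ) + jK C K ζ := by ring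
    rw [this]; exact add_mem (E.lt1_mem hz) (hj ζ)
  let R : Subring K := E.ring.toSubring
  let I : Ideal R := E.idl R (fun b hb => hb)
  let jR : Ob C →+* R := (jK C K).codRestrict R hj
  let e1 : (Ob C)[X] →+* R := eval₂RingHom jR ⟨t, htr⟩
  let e2 : (Ob C)[X][X] →+* R := eval₂RingHom e1 ⟨z, hzr⟩
  have h1 : (R.subtype).comp e2 = ev2 C t z := by
    apply Polynomial.ringHom_ext
    · intro a
      rw [ev2_C]
      show R.subtype (e2 (PC a)) = _
      have : e2 (PC a) = e1 a := eval₂_C _ _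
      rw [this]
      have h2 : (R.subtype).comp e1 = ev1 C t := by
        apply Polynomial.ringHom_ext
        · intro b
          rw [ev1_C]
          show R.subtype (e1 (PC b)) = _
          have : e1 (PC b) = jR b := eval₂_C _ _
          rw [this]; rfl
        · rw [ev1_X]
          show R.subtype (e1 X) = _
          have : e1 X = ⟨t, htr⟩ := eval₂_X _ _
          rw [this]; rfl
      exact RingHom.congr_fun h2 a
    · rw [ev2_X]
      show R.subtype (e2 X) = _
      have : e2 X = ⟨z, hzr⟩ := eval₂_X _ _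
      rw [this]; rfl
  have h2 : (Ideal.Quotient.mk I).comp e2 = ((Ideal.Quotient.mk I).comp jR).comp (val2 c ζ) := by
    apply Polynomial.ringHom_ext
    · intro a
      have h3 : (Ideal.Quotient.mk I).comp e1 =
          ((Ideal.Quotient.mk I).comp jR).comp (evalRingHom c) := by
        apply Polynomial.ringHom_ext
        · intro b
          have : e1 (PC b) = jR b := eval₂_C _ _
          simp only [RingHom.comp_apply, this, coe_evalRingHom, eval_C]
        · have : e1 X = ⟨t, htr⟩ := eval₂_X _ _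
          simp only [RingHom.comp_apply, this, coe_evalRingHom, eval_X]
          rw [Ideal.Quotient.eq]
          exact ht
      have h4 := RingHom.congr_fun h3 a
      simp only [RingHom.comp_apply, coe_evalRingHom] at h4 ⊢
      have : e2 (PC a) = e1 a := eval₂_C _ _
      rw [this, h4, val2_C]
    · have : e2 X = ⟨z, hzr⟩ := eval₂_X _ _
      simp only [RingHom.comp_apply, this, val2_X]
      rw [Ideal.Quotient.eq]
      exact hz
  have h3 := RingHom.congr_fun h2 H
  simp only [RingHom.comp_apply] at h3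
  rw [Ideal.Quotient.eq] at h3
  have h4 : ((e2 H : R) : K) = ev2 C t z H := RingHom.congr_fun h1 H
  have h5 : E.lt1 (((e2 H : R) : K) - jK C K (val2 c ζ H)) := h3
  rwa [h4] at h5

theorem lt1_ev2_iff (E : End2 C K) {t z : K} {c ζ : Ob C} (ht : E.lt1 (t - jK C K c))
    (hz : E.lt1 (z - jK C K ζ)) (H : (Ob C)[X][X]) :
    E.lt1 (ev2 C t z H) ↔ ‖(val2 c ζ H : C)‖₊ < 1 := by
  have h := lt1_sub_val2 E ht hz H
  rw [← E.lt1_C, ← jK_apply]
  constructor
  · intro h1
    have h2 := E.lt1_add h1 (E.lt1_neg h)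
    have : ev2 C t z H + -(ev2 C t z H - jK C K (val2 c ζ H)) = jK C K (val2 c ζ H) := by ring
    rwa [this] at h2
  · intro h1
    have h2 := E.lt1_add h1 h
    have : jK C K (val2 c ζ H) + (ev2 C t z H - jK C K (val2 c ζ H)) = ev2 C t z H := by ring
    rwa [this] at h2

theorem ev2_mem (E : End2 C K) {t z : K} {c ζ : Ob C} (ht : E.lt1 (t - jK C K c))
    (hz : E.lt1 (z - jK C K ζ)) (H : (Ob C)[X][X]) : ev2 C t z H ∈ E.ring := by
  have h := lt1_sub_val2 E ht hz H
  have : ev2 C t z H = (ev2 C t z H - jK C K (val2 c ζ H)) + jK C K (val2 c ζ H) := by ring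
  rw [this]
  exact add_mem (E.lt1_mem h) (E.C_mem (Ob_nnnorm_le _))

/-- an element of the ring which is not in the maximal ideal has norm one and order zero -/
theorem unit_of_not_lt1 (E : End2 C K) {f : K} (hf : f ∈ E.ring) (h : ¬ E.lt1 f) :
    E.nm f = 1 ∧ E.od f = 0 := by
  rcases hf with h1 | ⟨h1, h2⟩
  · exact absurd (Or.inl h1) h
  · refine ⟨h1, le_antisymm ?_ h2⟩
    by_contra h3
    exact h (Or.inr ⟨h1, not_le.1 h3⟩)

theorem nm_le_of_mem (E : End2 C K) {f : K} (hf : f ∈ E.ring) : E.nm f ≤ 1 := by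
  rcases hf with h | h
  · exact h.le
  · exact h.1.le

theorem exists_decomp (c ζ : Ob C) (H : (Ob C)[X][X]) : ∃ H1 H2 : (Ob C)[X][X],
    H = PC (PC (val2 c ζ H)) + PC (X - PC c) * H1 + (X - PC (PC ζ)) * H2 := by
  obtain ⟨H2, h2⟩ := X_sub_C_dvd_sub_C_eval (a := PC ζ) (p := H)
  obtain ⟨h1', h1⟩ := X_sub_C_dvd_sub_C_eval (a := c) (p := H.eval (PC ζ))
  have hv : val2 c ζ H = (H.eval (PC ζ)).eval c := by
    have : val2 c ζ = (evalRingHom c).comp (evalRingHom (PC ζ)) := by
      apply Polynomial.ringHom_ext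
      · intro a
        rw [val2_C]; simp
      · rw [val2_X]; simp
    rw [this]; rfl
  refine ⟨PC h1', H2, ?_⟩
  rw [hv, ← C_mul, ← h1, ← h2, C_sub]
  ring

theorem val2_derivative (c ζ : Ob C) {G G1 G2 : (Ob C)[X][X]} {a : Ob C}
    (hG : G = PC (PC a) + PC (X - PC c) * G1 + (X - PC (PC ζ)) * G2) :
    val2 c ζ (derivative G) = val2 c ζ G2 := by
  rw [hG]
  simp only [derivative_C, derivative_mul, derivative_sub, derivative_X, zero_add,
    zero_mul, sub_zero, one_mul, map_add, map_mul, val2_sub, val2_C, val2_X, eval_sub, eval_X, eval_C,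
    sub_self, add_zero]

/-- **uniqueness of an end at a simple point** -/
theorem od_aux (E E' : End2 C K) (hnm : ∀ f, E.nm f = E'.nm f) {t z : K} {c ζ : Ob C}
    (ht : E.lt1 (t - jK C K c)) (hz : E.lt1 (z - jK C K ζ))
    (ht' : E'.lt1 (t - jK C K c)) (hz' : E'.lt1 (z - jK C K ζ))
    (G : (Ob C)[X][X]) (hG : ev2 C t z G = 0) (hG' : ‖(val2 c ζ (derivative G) : C)‖₊ = 1) :
    ∀ (n : ℕ) (H : (Ob C)[X][X]), E.nm (ev2 C t z H) = 1 → E.od (ev2 C t z H) = n →
      ∃ m : ℤ, E.od (ev2 C t z H) = m * E.od (t - jK C K c) ∧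
        E'.od (ev2 C t z H) = m * E'.od (t - jK C K c) := by
  intro n
  induction n using Nat.strong_induction_on with
  | _ n ih =>
    intro H hH hn
    have hH' : E'.nm (ev2 C t z H) = 1 := by rw [← hnm]; exact hH
    by_cases hl : ‖(val2 c ζ H : C)‖₊ < 1
    · obtain ⟨H1, H2, hdec⟩ := exists_decomp c ζ H
      obtain ⟨G1, G2, hdG⟩ := exists_decomp c ζ G
      have hg2 : ‖(val2 c ζ G2 : C)‖₊ = 1 := by rw [← val2_derivative c ζ hdG]; exact hG'
      have hg0 : ‖(val2 c ζ G : C)‖₊ < 1 := by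
        rw [← lt1_ev2_iff E ht hz G, hG]; exact E.lt1_zero
      have u1 : E.nm (ev2 C t z G2) = 1 ∧ E.od (ev2 C t z G2) = 0 :=
        unit_of_not_lt1 E (ev2_mem E ht hz G2) (by
          rw [lt1_ev2_iff E ht hz, hg2]; exact lt_irrefl 1)
      have u2 : E'.nm (ev2 C t z G2) = 1 ∧ E'.od (ev2 C t z G2) = 0 :=
        unit_of_not_lt1 E' (ev2_mem E' ht' hz' G2) (by
          rw [lt1_ev2_iff E' ht' hz', hg2]; exact lt_irrefl 1)
      set τ : K := t - jK C K c with hτ
      set g2 := ev2 C t z G2 with hg2def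
      set H' : (Ob C)[X][X] := H1 * G2 - H2 * G1 with hH'def
      have eH : ev2 C t z H = jK C K (val2 c ζ H) + τ * ev2 C t z H1 + (z - jK C K ζ) * ev2 C t z H2 := by
        conv_lhs => rw [hdec]
        simp only [map_add, map_mul, ev1_sub, ev2_sub, ev2_C, ev2_X, ev1_C, ev1_X, hτ]
      have eG : (0 : K) = jK C K (val2 c ζ G) + τ * ev2 C t z G1 + (z - jK C K ζ) * g2 := by
        rw [← hG]
        conv_lhs => rw [hdG]
        simp only [map_add, map_mul, ev1_sub, ev2_sub, ev2_C, ev2_X, ev1_C, ev1_X, hg2def, hτ]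
      have key : ev2 C t z H * g2 = τ * ev2 C t z H' +
          (jK C K (val2 c ζ H) * g2 - jK C K (val2 c ζ G) * ev2 C t z H2) := by
        rw [eH, hH'def, ev2_sub, map_mul, map_mul, ← hg2def]
        linear_combination (-ev2 C t z H2) * eG
      have herr : ∀ F : End2 C K, F.nm g2 = 1 → F.nm (ev2 C t z H2) ≤ 1 →
          F.nm (jK C K (val2 c ζ H) * g2 - jK C K (val2 c ζ G) * ev2 C t z H2) < 1 := by
        intro F hF1 hF2
        refine (Valuation.map_sub _ _ _).trans_lt (max_lt ?_ ?_)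
        · rw [map_mul, hF1, mul_one, jK_apply, F.hC]; exact hl
        · rw [map_mul, jK_apply, F.hC]
          calc _ ≤ ‖(val2 c ζ G : C)‖₊ * 1 := mul_le_mul' le_rfl hF2
            _ < 1 := by rw [mul_one]; exact hg0
      have e1 := herr E u1.1 (nm_le_of_mem E (ev2_mem E ht hz H2))
      have e2 := herr E' u2.1 (nm_le_of_mem E' (ev2_mem E' ht' hz' H2))
      -- norm of tau * H'
      have step : ∀ F : End2 C K, F.lt1 τ → ev2 C t z H' ∈ F.ring → F.nm (ev2 C t z H) = 1 →
          F.nm g2 = 1 ∧ F.od g2 = 0 →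
          F.nm (jK C K (val2 c ζ H) * g2 - jK C K (val2 c ζ G) * ev2 C t z H2) < 1 →
          F.nm τ = 1 ∧ F.nm (ev2 C t z H') = 1 ∧
            F.od (ev2 C t z H) = F.od τ + F.od (ev2 C t z H') := by
        intro F h1 h2 h3 h4 h5
        have hprod : F.nm (ev2 C t z H * g2) = 1 := by rw [map_mul, h3, h4.1, one_mul]
        have h6 : F.nm (ev2 C t z H * g2 - τ * ev2 C t z H') < F.nm (ev2 C t z H * g2) := by
          rw [hprod]
          have : ev2 C t z H * g2 - τ * ev2 C t z H' =
            jK C K (val2 c ζ H) * g2 - jK C K (val2 c ζ G) * ev2 C t z H2 := by rw [key]; ring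
          rw [this]; exact h5
        have h7 : F.nm (τ * ev2 C t z H') = 1 := by
          rw [← hprod]
          exact Valuation.map_eq_of_sub_lt _ (by rwa [Valuation.map_sub_swap])
        have h8 := F.od_congr h6
        have h9 : F.nm τ ≤ 1 := nm_le_of_mem F (F.lt1_mem h1)
        have h10 : F.nm (ev2 C t z H') ≤ 1 := nm_le_of_mem F h2
        rw [map_mul] at h7
        have h11 : F.nm τ = 1 := by
          refine le_antisymm h9 ?_
          calc 1 = F.nm τ * F.nm (ev2 C t z H') := h7.symm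
            _ ≤ F.nm τ * 1 := mul_le_mul' le_rfl h10
            _ = F.nm τ := mul_one _
        rw [h11, one_mul] at h7
        refine ⟨h11, h7, ?_⟩
        rw [F.od_mul _ _ (F.ne_zero_of_one h11) (F.ne_zero_of_one h7),
          F.od_mul _ _ (F.ne_zero_of_one h3) (F.ne_zero_of_one h4.1), h4.2, add_zero] at h8
        exact h8.symm
      obtain ⟨a1, a2, a3⟩ := step E ht (ev2_mem E ht hz H') hH u1 e1
      obtain ⟨b1, b2, b3⟩ := step E' ht' (ev2_mem E' ht' hz' H') hH' u2 e2
      have hpos : 0 < E.od τ := by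
        rcases ht with h | h
        · rw [a1] at h; exact absurd h (lt_irrefl 1)
        · exact h.2
      have hnn : 0 ≤ E.od (ev2 C t z H') := by
        rcases ev2_mem E ht hz H' with h | h
        · rw [a2] at h; exact absurd h (lt_irrefl 1)
        · exact h.2
      obtain ⟨n', hn'⟩ := Int.eq_ofNat_of_zero_le hnn
      obtain ⟨m, hm1, hm2⟩ := ih n' (by omega) H' a2 hn'
      exact ⟨m + 1, by rw [a3, hm1]; ring, by rw [b3, hm2]; ring⟩
    · refine ⟨0, ?_, ?_⟩
      · rw [zero_mul]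
        exact (unit_of_not_lt1 E (ev2_mem E ht hz H) (by rwa [lt1_ev2_iff E ht hz])).2
      · rw [zero_mul]
        exact (unit_of_not_lt1 E' (ev2_mem E' ht' hz' H) (by rwa [lt1_ev2_iff E' ht' hz'])).2

/-- **uniqueness of an end at a simple point** -/
theorem od_eq (E E' : End2 C K) (hnm : ∀ f, E.nm f = E'.nm f) {t z : K} {c ζ : Ob C}
    (ht : E.lt1 (t - jK C K c)) (hz : E.lt1 (z - jK C K ζ))
    (ht' : E'.lt1 (t - jK C K c)) (hz' : E'.lt1 (z - jK C K ζ))
    (G : (Ob C)[X][X]) (hG : ev2 C t z G = 0) (hG' : ‖(val2 c ζ (derivative G) : C)‖₊ = 1)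
    (gen : ∀ y : K, E.nm y = 1 → ∃ H D : (Ob C)[X][X], E.nm (ev2 C t z D) = 1 ∧
      E.nm (y * ev2 C t z D - ev2 C t z H) < 1)
    (hs : ∃ y, y ≠ 0 ∧ E.od y = 1) (hs' : ∃ y, y ≠ 0 ∧ E'.od y = 1) :
    ∀ y, y ≠ 0 → E.od y = E'.od y := by
  have key : ∀ y, E.nm y = 1 → ∃ m : ℤ, E.od y = m * E.od (t - jK C K c) ∧
      E'.od y = m * E'.od (t - jK C K c) := by
    intro y hy
    obtain ⟨H, D, hD, hyD⟩ := gen y hy
    have hyD1 : E.nm (y * ev2 C t z D) = 1 := by rw [map_mul, hy, hD, one_mul]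
    have hH : E.nm (ev2 C t z H) = 1 := by
      rw [← hyD1]
      exact Valuation.map_eq_of_sub_lt _ (by rw [Valuation.map_sub_swap, hyD1]; exact hyD)
    have hnn : ∀ F : (Ob C)[X][X], E.nm (ev2 C t z F) = 1 → ∃ n : ℕ, E.od (ev2 C t z F) = n := by
      intro F hF
      refine Int.eq_ofNat_of_zero_le ?_
      rcases ev2_mem E ht hz F with h | h
      · rw [hF] at h; exact absurd h (lt_irrefl 1)
      · exact h.2
    obtain ⟨n1, hn1⟩ := hnn H hH
    obtain ⟨n2, hn2⟩ := hnn D hD
    obtain ⟨m1, a1, b1⟩ := od_aux E E' hnm ht hz ht' hz' G hG hG' n1 H hH hn1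
    obtain ⟨m2, a2, b2⟩ := od_aux E E' hnm ht hz ht' hz' G hG hG' n2 D hD hn2
    have o1 : E.od y + E.od (ev2 C t z D) = E.od (ev2 C t z H) := by
      rw [← E.od_mul _ _ (E.ne_zero_of_one hy) (E.ne_zero_of_one hD)]
      exact (E.od_congr (by rw [hyD1]; exact hyD)).symm
    have hy' : E'.nm y = 1 := by rw [← hnm]; exact hy
    have hD' : E'.nm (ev2 C t z D) = 1 := by rw [← hnm]; exact hD
    have o2 : E'.od y + E'.od (ev2 C t z D) = E'.od (ev2 C t z H) := by
      rw [← E'.od_mul _ _ (E'.ne_zero_of_one hy') (E'.ne_zero_of_one hD')]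
      refine (E'.od_congr ?_).symm
      rw [← hnm, ← hnm, hyD1]; exact hyD
    exact ⟨m1 - m2, by rw [sub_mul, ← a1, ← a2]; omega, by rw [sub_mul, ← b1, ← b2]; omega⟩
  -- scaling
  have scale : ∀ y, y ≠ 0 → ∃ y', E.nm y' = 1 ∧ E.od y' = E.od y ∧ E'.od y' = E'.od y := by
    intro y hy
    obtain ⟨a, ha0, ha1, ha2⟩ := E.exists_one hy
    refine ⟨_, ha1, ha2, ?_⟩
    have ha : (algebraMap C K a)⁻¹ = algebraMap C K a⁻¹ := (map_inv₀ _ _).symm
    rw [ha, E'.od_mul _ _ hy (by rw [Ne, map_eq_zero]; exact inv_ne_zero ha0),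
      E'.od_C _ (inv_ne_zero ha0), add_zero]
  have hτ : ∀ F : End2 C K, F.lt1 (t - jK C K c) → F.nm (t - jK C K c) = 1 →
      0 < F.od (t - jK C K c) := by
    intro F h h1
    rcases h with h | h
    · rw [h1] at h; exact absurd h (lt_irrefl 1)
    · exact h.2
  obtain ⟨y1, hy1, hy1'⟩ := hs
  obtain ⟨y2, hy2, hy2'⟩ := hs'
  obtain ⟨y1', p1, p2, p3⟩ := scale y1 hy1
  obtain ⟨y2', q1, q2, q3⟩ := scale y2 hy2
  obtain ⟨m1, r1, r2⟩ := key y1' p1
  obtain ⟨m2, s1, s2⟩ := key y2' q1
  have hone : IsUnit (E.od (t - jK C K c)) := by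
    refine IsUnit.of_mul_eq_one m1 ?_
    rw [mul_comm, ← r1, p2, hy1']
  have hone' : IsUnit (E'.od (t - jK C K c)) := by
    refine IsUnit.of_mul_eq_one m2 ?_
    rw [mul_comm, ← s2, q3, hy2']
  -- the norm of `t - c` is one
  have hτ1 : E.nm (t - jK C K c) = 1 := by
    by_contra hne
    have hlt : E.nm (t - jK C K c) < 1 :=
      lt_of_le_of_ne (nm_le_of_mem E (E.lt1_mem ht)) hne
    -- then every `ev2 H` of norm one has order zero
    have hz0 : ∀ F : (Ob C)[X][X], E.nm (ev2 C t z F) = 1 → E.od (ev2 C t z F) = 0 := by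
      intro F hF
      by_contra hod
      have hmem := ev2_mem E ht hz F
      have hlt1 : E.lt1 (ev2 C t z F) := by
        by_contra hnl
        exact hod (unit_of_not_lt1 E hmem hnl).2
      have hv : ‖(val2 c ζ F : C)‖₊ < 1 := (lt1_ev2_iff E ht hz F).1 hlt1
      obtain ⟨H1, H2, hdec⟩ := exists_decomp c ζ F
      obtain ⟨G1, G2, hdG⟩ := exists_decomp c ζ G
      have hg2 : ‖(val2 c ζ G2 : C)‖₊ = 1 := by rw [← val2_derivative c ζ hdG]; exact hG'
      have hg0 : ‖(val2 c ζ G : C)‖₊ < 1 := by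
        rw [← lt1_ev2_iff E ht hz G, hG]; exact E.lt1_zero
      have u1 := unit_of_not_lt1 E (ev2_mem E ht hz G2) (by
          rw [lt1_ev2_iff E ht hz, hg2]; exact lt_irrefl 1)
      have eG : (0 : K) = jK C K (val2 c ζ G) + (t - jK C K c) * ev2 C t z G1 +
          (z - jK C K ζ) * ev2 C t z G2 := by
        rw [← hG]
        conv_lhs => rw [hdG]
        simp only [map_add, map_mul, ev1_sub, ev2_sub, ev2_C, ev2_X, ev1_C, ev1_X]
      have hzlt : E.nm (z - jK C K ζ) < 1 := by
        have h1 : (z - jK C K ζ) * ev2 C t z G2 =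
            -(jK C K (val2 c ζ G) + (t - jK C K c) * ev2 C t z G1) := by
          linear_combination -eG
        have h2 : E.nm ((z - jK C K ζ) * ev2 C t z G2) < 1 := by
          rw [h1, Valuation.map_neg]
          refine (Valuation.map_add _ _ _).trans_lt (max_lt ?_ ?_)
          · rw [jK_apply, E.hC]; exact hg0
          · rw [map_mul]
            calc _ ≤ E.nm (t - jK C K c) * 1 :=
                  mul_le_mul' le_rfl (nm_le_of_mem E (ev2_mem E ht hz G1))
              _ < 1 := by rw [mul_one]; exact hlt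
        rwa [map_mul, u1.1, mul_one] at h2
      have eF : ev2 C t z F = jK C K (val2 c ζ F) + (t - jK C K c) * ev2 C t z H1 +
          (z - jK C K ζ) * ev2 C t z H2 := by
        conv_lhs => rw [hdec]
        simp only [map_add, map_mul, ev1_sub, ev2_sub, ev2_C, ev2_X, ev1_C, ev1_X]
      have hFlt : E.nm (ev2 C t z F) < 1 := by
        rw [eF]
        refine (Valuation.map_add _ _ _).trans_lt (max_lt ((Valuation.map_add _ _ _).trans_lt
          (max_lt ?_ ?_)) ?_)
        · rw [jK_apply, E.hC]; exact hv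
        · rw [map_mul]
          calc _ ≤ E.nm (t - jK C K c) * 1 :=
                mul_le_mul' le_rfl (nm_le_of_mem E (ev2_mem E ht hz H1))
            _ < 1 := by rw [mul_one]; exact hlt
        · rw [map_mul]
          calc _ ≤ E.nm (z - jK C K ζ) * 1 :=
                mul_le_mul' le_rfl (nm_le_of_mem E (ev2_mem E ht hz H2))
            _ < 1 := by rw [mul_one]; exact hzlt
      rw [hF] at hFlt
      exact lt_irrefl _ hFlt
    obtain ⟨H, D, hD, hyD⟩ := gen y1' p1
    have hyD1 : E.nm (y1' * ev2 C t z D) = 1 := by rw [map_mul, p1, hD, one_mul]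
    have hH : E.nm (ev2 C t z H) = 1 := by
      rw [← hyD1]
      exact Valuation.map_eq_of_sub_lt _ (by rw [Valuation.map_sub_swap, hyD1]; exact hyD)
    have o1 : E.od y1' + E.od (ev2 C t z D) = E.od (ev2 C t z H) := by
      rw [← E.od_mul _ _ (E.ne_zero_of_one p1) (E.ne_zero_of_one hD)]
      exact (E.od_congr (by rw [hyD1]; exact hyD)).symm
    rw [hz0 D hD, hz0 H hH, p2, hy1'] at o1
    omega
  have e1 : E.od (t - jK C K c) = 1 := by
    rcases Int.isUnit_iff.1 hone with h | h
    · exact h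
    · have := hτ E ht hτ1
      omega
  have e2 : E'.od (t - jK C K c) = 1 := by
    rcases Int.isUnit_iff.1 hone' with h | h
    · exact h
    · have := hτ E' ht' (by rw [← hnm]; exact hτ1)
      omega
  intro y hy
  obtain ⟨y', v1, v2, v3⟩ := scale y hy
  obtain ⟨m, w1, w2⟩ := key y' v1
  rw [← v2, ← v3, w1, w2, e1, e2]

end Crest.Agent.R013.Dir_83
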