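import Crest.Agent.R013.EE5_809
import Crest.Agent.R013.Red3_332

/-!
# Row 13, leaf SS-END (helper809): the end of `EE k C`, elements of order `≥ m`, rank two Newton
-/

set_option autoImplicit false
set_option linter.unusedSectionVars false
open Filter Topology
open scoped NNReal
open Crest.Agent.R013.Cell_408 (FinDef DiscNorm exists_max BD)
open Crest.Agent.R013.Red332

namespace Crest.Agent.R013.EE809

/-! ### elements of order at least `m` of an end -/

section Ge

variable {C : Type*} [NormedField C] [IsUltrametricDist C] {F : Type*} [Field F] [Algebra C F]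

/-- norm `≤ 1` and the reduction has order `≥ m` -/
def Ge (E : End2 C F) (m : ℤ) (f : F) : Prop := E.nm f < 1 ∨ (E.nm f = 1 ∧ m ≤ E.od f)

variable {E : End2 C F}

theorem Ge.le_one {m : ℤ} {f : F} (h : Ge E m f) : E.nm f ≤ 1 := by
  rcases h with h | h
  · exact h.le
  · exact h.1.le

theorem Ge.anti {m m' : ℤ} {f : F} (h : Ge E m f) (hm : m' ≤ m) : Ge E m' f := by
  rcases h with h | h
  · exact Or.inl h
  · exact Or.inr ⟨h.1, hm.trans h.2⟩

theorem Ge.zero (m : ℤ) : Ge E m (0 : F) := Or.inl (by rw [map_zero]; exact zero_lt_one)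

theorem Ge.add {m : ℤ} {f g : F} (hf : Ge E m f) (hg : Ge E m g) : Ge E m (f + g) := by
  rcases hf with hf | hf <;> rcases hg with hg | hg
  · exact Or.inl (E.nm.map_add_lt hf hg)
  · right
    have h : E.nm f < E.nm g := by rw [hg.1]; exact hf
    rw [add_comm]
    exact ⟨by rw [Valuation.map_add_eq_of_lt_left _ h, hg.1], by rw [E.od_lt g f h]; exact hg.2⟩
  · right
    have h : E.nm g < E.nm f := by rw [hf.1]; exact hg
    exact ⟨by rw [Valuation.map_add_eq_of_lt_left _ h, hf.1], by rw [E.od_lt f g h]; exact hf.2⟩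
  · have h1 : E.nm (f + g) ≤ 1 := (E.nm.map_add f g).trans (max_le hf.1.le hg.1.le)
    rcases h1.lt_or_eq with h1 | h1
    · exact Or.inl h1
    · right
      refine ⟨h1, le_trans (le_min hf.2 hg.2) ?_⟩
      exact E.od_add f g (E.ne_zero_of_one hf.1) (E.ne_zero_of_one hg.1) (by rw [hf.1, hg.1])
        (by rw [h1, hf.1])

theorem Ge.neg {m : ℤ} {f : F} (hf : Ge E m f) : Ge E m (-f) := by
  rcases hf with hf | hf
  · left; rwa [Valuation.map_neg]
  · right
    rw [Valuation.map_neg, E.od_neg]; exact hf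

theorem Ge.sub {m : ℤ} {f g : F} (hf : Ge E m f) (hg : Ge E m g) : Ge E m (f - g) := by
  rw [sub_eq_add_neg]; exact hf.add hg.neg

theorem Ge.mul {m m' : ℤ} {f g : F} (hf : Ge E m f) (hg : Ge E m' g) : Ge E (m + m') (f * g) := by
  rcases hf with hf | hf
  · left
    rw [map_mul]
    exact mul_lt_one_of_nonneg_of_lt_one_left zero_le hf hg.le_one
  · rcases hg with hg | hg
    · left
      rw [map_mul, hf.1, one_mul]; exact hg
    · right
      refine ⟨by rw [map_mul, hf.1, hg.1, one_mul], ?_⟩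
      rw [E.od_mul f g (E.ne_zero_of_one hf.1) (E.ne_zero_of_one hg.1)]
      exact add_le_add hf.2 hg.2

theorem Ge.sum {ι : Type*} {m : ℤ} (s : Finset ι) {f : ι → F} (h : ∀ i ∈ s, Ge E m (f i)) :
    Ge E m (∑ i ∈ s, f i) := by
  classical
  induction s using Finset.induction_on with
  | empty => rw [Finset.sum_empty]; exact Ge.zero m
  | insert i s hi ih =>
    rw [Finset.sum_insert hi]
    exact (h _ (Finset.mem_insert_self _ _)).add (ih fun j hj => h _ (Finset.mem_insert_of_mem hj))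

theorem Ge.one : Ge E 0 (1 : F) := Or.inr ⟨map_one _, E.od_one.ge⟩

theorem Ge.pow {f : F} (h : Ge E 0 f) (n : ℕ) : Ge E 0 (f ^ n) := by
  induction n with
  | zero => rw [pow_zero]; exact Ge.one
  | succ n ih => rw [pow_succ]; simpa using ih.mul h

theorem Ge.const {c : C} (hc : ‖c‖₊ ≤ 1) : Ge E 0 (algebraMap C F c) := by
  rcases hc.lt_or_eq with h | h
  · left; rw [E.hC]; exact h
  · right
    rw [E.hC]
    refine ⟨h, ?_⟩
    rw [E.od_C c (by rintro rfl; simp at h)]

theorem Ge.of_one {f : F} (h : E.nm f = 1) : Ge E (E.od f) f := Or.inr ⟨h, le_rfl⟩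

theorem Ge.inv {f : F} (h : E.nm f = 1) : Ge E (-E.od f) f⁻¹ := by
  right
  rw [map_inv₀, h, inv_one, E.od_inv (E.ne_zero_of_one h)]
  exact ⟨rfl, le_rfl⟩

theorem Ge.exists {f : F} (h : E.nm f ≤ 1) : ∃ m : ℤ, Ge E m f := by
  rcases h.lt_or_eq with h | h
  · exact ⟨0, Or.inl h⟩
  · exact ⟨_, Ge.of_one h⟩

/-- an element of norm one close to another one has the same order -/
theorem Ge.od_eq {f g : F} (hf : E.nm f = 1) (h : Ge E (E.od f + 1) (f - g)) :
    E.nm g = 1 ∧ E.od g = E.od f := by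
  rcases h with h | ⟨h, h'⟩
  · have h1 : E.nm (g - f) < E.nm f := by rw [Valuation.map_sub_swap, hf]; exact h
    have h2 : g = f + (g - f) := by ring
    constructor
    · rw [h2, Valuation.map_add_eq_of_lt_left _ h1, hf]
    · conv_lhs => rw [h2]
      exact E.od_lt _ _ h1
  · -- the reductions have different orders
    have hf0 := E.ne_zero_of_one hf
    have hle : E.nm g ≤ 1 := by
      have h2 : g = f - (f - g) := by ring
      rw [h2]
      exact (Valuation.map_sub _ _ _).trans (max_le hf.le h.le)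
    have hg1 : E.nm g = 1 := by
      by_contra hne
      have hlt : E.nm g < 1 := lt_of_le_of_ne hle hne
      have h3 : E.od (f - g) = E.od f := by
        rw [sub_eq_add_neg]
        exact E.od_lt _ _ (by rw [Valuation.map_neg, hf]; exact hlt)
      omega
    refine ⟨hg1, ?_⟩
    have hg0 := E.ne_zero_of_one hg1
    have hfg0 := E.ne_zero_of_one h
    have h3 : min (E.od g) (E.od (f - g)) ≤ E.od f := by
      have := E.od_add g (f - g) hg0 hfg0 (by rw [hg1, h]) (by rw [add_sub_cancel, hf, hg1])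
      rwa [add_sub_cancel] at this
    have h4 : min (E.od f) (E.od (f - g)) ≤ E.od g := by
      have h5 : g = f + -(f - g) := by ring
      have := E.od_add f (-(f - g)) hf0 (neg_ne_zero.2 hfg0) (by rw [Valuation.map_neg, hf, h])
        (by rw [← h5, hf, hg1])
      rwa [← h5, E.od_neg] at this
    omega

end Ge

/-! ### the end of `EE` -/

section EEnd

variable {k : Type*} [NontriviallyNormedField k] [CompleteSpace k]
variable {C : Type*} [NormedField C] [IsUltrametricDist C] [NormedAlgebra k C]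
variable [Algebra.IsAlgebraic k C] [IsUltrametricDist k] [IsAlgClosed C] [hk : Fact (DiscNorm k)]

/-- `gn` in `ℝ≥0` -/
noncomputable def gnn (a : EE k C) : ℝ≥0 := (gn a).toNNReal

theorem coe_gnn (a : EE k C) : (gnn a : ℝ) = gn a := Real.coe_toNNReal _ (gn_nonneg a)

variable (k C) in
/-- the norm `gn` as a valuation -/
noncomputable def gv : Valuation (EE k C) ℝ≥0 where
  toFun a := gnn a
  map_zero' := by
    apply NNReal.coe_injective
    rw [coe_gnn, gn_zero, NNReal.coe_zero]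
  map_one' := by
    apply NNReal.coe_injective
    rw [coe_gnn, gn_one, NNReal.coe_one]
  map_mul' a b := by
    apply NNReal.coe_injective
    rw [coe_gnn, NNReal.coe_mul, coe_gnn, coe_gnn, gn_mul hk.out]
  map_add_le_max' a b := by
    rw [← NNReal.coe_le_coe, NNReal.coe_max, coe_gnn, coe_gnn, coe_gnn]
    exact gn_add_le a b

theorem coe_gv (a : EE k C) : (gv k C a : ℝ) = gn a := coe_gnn a

theorem gv_eq_nnnorm {a : EE k C} {c : C} : gv k C a = ‖c‖₊ ↔ gn a = ‖c‖ := by
  rw [← NNReal.coe_inj, coe_gv, coe_nnnorm]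

theorem gv_lt_one {a : EE k C} : gv k C a < 1 ↔ gn a < 1 := by
  rw [← NNReal.coe_lt_coe, coe_gv, NNReal.coe_one]

theorem gv_le_one {a : EE k C} : gv k C a ≤ 1 ↔ gn a ≤ 1 := by
  rw [← NNReal.coe_le_coe, coe_gv, NNReal.coe_one]

theorem gv_eq_one {a : EE k C} : gv k C a = 1 ↔ gn a = 1 := by
  rw [← NNReal.coe_inj, coe_gv, NNReal.coe_one]

theorem od_add_lt {a b : EE k C} (h : gn b < gn a) : od (a + b) = od a := by
  have ha : a ≠ 0 := by
    rintro rfl
    rw [gn_zero] at h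
    exact absurd h (not_lt.2 (gn_nonneg b))
  have hg : gn (a + b) = gn a := gn_eq_of_sub_lt (by rwa [add_sub_cancel_left])
  refine od_eq_of ?_ fun m hm => ?_
  · rw [hg, co_add, IsUltrametricDist.norm_add_eq_max_of_norm_ne_norm, norm_co_od hk.out ha]
    · exact max_eq_left ((le_gn b _).trans h.le)
    · rw [norm_co_od hk.out ha]
      exact ((le_gn b _).trans_lt h).ne'
  · rw [hg, co_add]
    exact lt_of_le_of_lt (IsUltrametricDist.norm_add_le_max _ _)
      (max_lt (norm_lt_of_lt_od ha hm) ((le_gn b _).trans_lt h))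

theorem od_add_ge' {a b : EE k C} (ha : a ≠ 0) (hb : b ≠ 0) (h : gn a = gn b)
    (h' : gn (a + b) = gn a) : min (od a) (od b) ≤ od (a + b) := by
  have hab : a + b ≠ 0 := by
    intro h0
    rw [h0, gn_zero] at h'
    exact (gn_pos ha).ne h'
  by_contra hlt
  push Not at hlt
  have h1 := norm_lt_of_lt_od ha (lt_of_lt_of_le hlt (min_le_left _ _))
  have h2 := norm_lt_of_lt_od hb (lt_of_lt_of_le hlt (min_le_right _ _))
  have h3 := norm_co_od hk.out hab
  rw [co_add, h'] at h3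
  have h4 := IsUltrametricDist.norm_add_le_max (a.co (od (a + b))) (b.co (od (a + b)))
  rw [h3] at h4
  exact absurd h4 (not_le.2 (max_lt h1 (by rw [h]; exact h2)))

variable (k C) in
/-- the end of `EE k C` -/
noncomputable def endE : End2 C (EE k C) where
  nm := gv k C
  od := od
  hC c := gv_eq_nnnorm.2 (gn_algebraMap c)
  val f hf := ⟨f.co (od f), gv_eq_nnnorm.2 (norm_co_od hk.out hf).symm⟩
  od_C c hc := by
    rw [algebraMap_eq]
    exact od_mono 0 _ hc
  od_mul f g hf hg := od_mul hk.out hf hg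
  od_lt f g h := od_add_lt (by rw [← coe_gv, ← coe_gv]; exact_mod_cast h)
  od_add f g hf hg h h' := od_add_ge' hf hg (by rw [← coe_gv, ← coe_gv, h])
    (by rw [← coe_gv, ← coe_gv, h'])

theorem endE_nm (a : EE k C) : (endE k C).nm a = gv k C a := rfl
theorem endE_od (a : EE k C) : (endE k C).od a = od a := rfl

theorem ge_iff {a : EE k C} {m : ℤ} :
    Ge (endE k C) m a ↔ (∀ n, ‖a.co n‖ ≤ 1) ∧ ∀ n < m, ‖a.co n‖ < 1 := by
  constructor
  · intro h
    have hle : gn a ≤ 1 := gv_le_one.1 h.le_one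
    refine ⟨fun n => (le_gn a n).trans hle, fun n hn => ?_⟩
    rcases h with h | ⟨h, h'⟩
    · exact (le_gn a n).trans_lt (gv_lt_one.1 h)
    · have h1 : gn a = 1 := gv_eq_one.1 h
      have ha : a ≠ 0 := by
        rintro rfl
        rw [gn_zero] at h1
        exact zero_ne_one h1
      have := norm_lt_of_lt_od ha (lt_of_lt_of_le hn h')
      rwa [h1] at this
  · rintro ⟨h1, h2⟩
    have hle : gn a ≤ 1 := gn_le h1
    rcases hle.lt_or_eq with h | h
    · exact Or.inl (gv_lt_one.2 h)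
    · right
      refine ⟨gv_eq_one.2 h, ?_⟩
      by_contra hlt
      have ha : a ≠ 0 := by
        rintro rfl
        rw [gn_zero] at h
        exact zero_ne_one h
      have h3 := h2 (od a) (not_le.1 hlt)
      rw [norm_co_od hk.out ha, h] at h3
      exact lt_irrefl _ h3

theorem ge_T (n : ℤ) : Ge (endE k C) n (T n : EE k C) := by
  rw [ge_iff]
  constructor
  · intro m
    rw [T, co_mo]; split_ifs <;> simp
  · intro m hm
    rw [T, co_mo, if_neg hm.ne, norm_zero]; exact one_pos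

theorem ge_T_mul {a : EE k C} {m n : ℤ} : Ge (endE k C) (m + n) (T n * a) ↔ Ge (endE k C) m a := by
  constructor
  · intro h
    have h1 := (ge_T (k := k) (C := C) (-n)).mul h
    rw [← mul_assoc, T_mul_T, neg_add_cancel, T_zero, one_mul] at h1
    exact h1.anti (by omega)
  · intro h
    have h1 := (ge_T (k := k) (C := C) n).mul h
    exact h1.anti (by omega)

/-! ### radii -/

/-- elements of order `≥ 1` are small at the radii close to one -/
theorem eventually_bdd_max {a : EE k C} (ha : a ∈ Ep k C) (h : Ge (endE k C) 1 a) :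
    ∃ θ : ℝ, 0 ≤ θ ∧ θ < 1 ∧ ∀ᶠ ρ in 𝓝[<] (1 : ℝ), Bdd ρ (max ρ θ) a := by
  obtain ⟨h1, h2⟩ := ge_iff.1 h
  -- the part with `n ≤ 0`
  set d : EE k C := a - T 1 * ofBD (posPart (T (-1) * a)) with hd
  have hco : ∀ n, d.co n = if 1 ≤ n then 0 else a.co n := by
    intro n
    rw [hd, co_sub, co_T_mul, co_ofBD_posPart, co_T_mul]
    have : n - 1 - -1 = n := by ring
    rw [this]
    by_cases hn : 1 ≤ n
    · rw [if_pos hn, if_pos (by omega), sub_self]
    · rw [if_neg hn, if_neg (by omega), sub_zero]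
  have hdE : d ∈ Ep k C := sub_mem ha (mul_mem (T_mem_Ep _) (ofBD_mem_Ep _))
  have hlt : ∀ n, ‖d.co n‖ < 1 := by
    intro n
    rw [hco]
    split_ifs with hn
    · rw [norm_zero]; exact one_pos
    · exact h2 n (by omega)
  have htend : Tendsto d.co cofinite (𝓝 0) := by
    rw [Metric.tendsto_nhds]
    intro ε hε
    obtain ⟨K, hK, h3⟩ := d.small hε
    rw [eventually_cofinite]
    refine (Set.finite_Icc (-K) 0).subset fun n hn => ?_
    rw [Set.mem_ofPred_eq, dist_zero_right] at hn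
    rw [Set.mem_Icc]
    constructor
    · by_contra hlt'
      exact hn (h3 n (by omega))
    · by_contra hlt'
      apply hn
      rw [hco, if_pos (by omega), norm_zero]
      exact hε
  obtain ⟨θ0, h3, h4, h5⟩ := exists_lt_bound one_pos htend hlt
  have hg : gn d ≤ θ0 := gn_le h5
  obtain ⟨θ, h6, h7⟩ := exists_between h4
  refine ⟨θ, h3.trans h6.le, h7, ?_⟩
  have e1 := eventually_bdd hdE (hg.trans_lt h6)
  have e2 : ∀ᶠ ρ in 𝓝[<] (1 : ℝ), ρ ∈ Set.Ioo (0 : ℝ) 1 := Ioo_mem_nhdsLT one_pos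
  filter_upwards [e1, e2] with ρ h8 h9 n
  by_cases hn : 1 ≤ n
  · refine le_trans ?_ (le_max_left _ _)
    have h10 : ρ ^ n ≤ ρ := by
      obtain ⟨m, hm⟩ := Int.eq_ofNat_of_zero_le (show 0 ≤ n - 1 by omega)
      have : n = (m : ℤ) + 1 := by omega
      rw [this, zpow_add_one₀ h9.1.ne', zpow_natCast]
      exact mul_le_of_le_one_left h9.1.le (pow_le_one₀ h9.1.le h9.2.le)
    calc ‖a.co n‖ * ρ ^ n ≤ 1 * ρ := mul_le_mul (h1 n) h10 (zpow_nonneg h9.1.le _) zero_le_one
      _ = ρ := one_mul _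
  · refine le_trans ?_ (le_max_right _ _)
    have := h8 n
    rwa [hco, if_neg hn] at this

end EEnd

/-! ### completeness at a radius `< 1` -/

section Rad

variable {k : Type*} [NontriviallyNormedField k] [CompleteSpace k]
variable {C : Type*} [NormedField C] [IsUltrametricDist C] [NormedAlgebra k C]

theorem co_eq_zero_of_bdd {ρ : ℝ} (hρ : 0 < ρ) {a : EE k C} {r : ℕ → ℝ} (hr : Tendsto r atTop (𝓝 0))
    (h : ∀ m, Bdd ρ (r m) a) : a = 0 := by
  ext n
  have h1 : ‖a.co n‖ * ρ ^ n ≤ 0 := ge_of_tendsto' hr fun m => h m n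
  have h2 : 0 < ρ ^ n := zpow_pos hρ n
  have h3 : ‖a.co n‖ ≤ 0 := by
    by_contra hlt
    push Not at hlt
    have := mul_pos hlt h2
    linarith
  simpa using h3

/-- completeness at a radius `ρ < 1` for bounded sequences -/
theorem complete_rad (L : IntermediateField k C) [FiniteDimensional k L] {ρ B : ℝ} (hρ : 0 < ρ)
    (hρ1 : ρ < 1) (s : ℕ → EE k C)
    (hL : ∀ m, InL L (s m)) (r : ℕ → ℝ) (hr : Tendsto r atTop (𝓝 0))
    (hs : ∀ m n, m ≤ n → Bdd ρ (r m) (s n - s m)) (hB : ∀ m, Bdd 1 B (s m)) :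
    ∃ S : EE k C, InL L S ∧ (∀ m, Bdd ρ (r m) (S - s m)) ∧ Bdd 1 B S ∧
      ∀ i, Tendsto (fun m => (s m).co i) atTop (𝓝 (S.co i)) := by
  have : CompleteSpace L := FiniteDimensional.complete k L
  have hpos : ∀ i : ℤ, 0 < ρ ^ i := fun i => zpow_pos hρ i
  have h1 : ∀ i : ℤ, ∃ l : L, Tendsto (fun m => (⟨(s m).co i, hL m i⟩ : L)) atTop (𝓝 l) := by
    intro i
    apply cauchySeq_tendsto_of_complete
    rw [Metric.cauchySeq_iff']
    intro ε hε
    obtain ⟨N, hN⟩ := (Metric.tendsto_atTop.1 hr) (ε * ρ ^ i) (mul_pos hε (hpos i))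
    refine ⟨N, fun n hn => ?_⟩
    rw [dist_eq_norm]
    have h2 : ‖(s n).co i - (s N).co i‖ * ρ ^ i ≤ r N := hs N n hn i
    have h3 := hN N le_rfl
    rw [Real.dist_eq, sub_zero] at h3
    have h4 : ‖(s n).co i - (s N).co i‖ * ρ ^ i < ε * ρ ^ i := lt_of_le_of_lt (h2.trans (le_abs_self _)) h3
    exact lt_of_mul_lt_mul_right h4 (hpos i).le
  choose l hl using h1
  have hl' : ∀ i, Tendsto (fun m => (s m).co i) atTop (𝓝 ((l i : L) : C)) := fun i =>
    (continuous_subtype_val.tendsto _).comp (hl i)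
  have h4 : ∀ m i, ‖(l i : C) - (s m).co i‖ * ρ ^ i ≤ r m := by
    intro m i
    have h5 : Tendsto (fun n => ‖(s n).co i - (s m).co i‖ * ρ ^ i) atTop
        (𝓝 (‖(l i : C) - (s m).co i‖ * ρ ^ i)) :=
      (((hl' i).sub_const _).norm).mul_const _
    refine le_of_tendsto h5 ?_
    filter_upwards [eventually_ge_atTop m] with n hn
    exact hs m n hn i
  have hB' : ∀ i, ‖(l i : C)‖ ≤ B := by
    intro i
    refine le_of_tendsto' (hl' i).norm fun m => ?_
    have := hB m i
    rwa [one_zpow, mul_one] at this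
  refine ⟨mk' (fun i => (l i : C)) ⟨L, inferInstance, fun i => (l i).2⟩ ⟨B, hB'⟩ ?_,
    fun i => (l i).2, h4, fun i => by rw [one_zpow, mul_one]; exact hB' i, hl'⟩
  rw [Metric.tendsto_nhds]
  intro ε hε
  obtain ⟨N, hN⟩ := (Metric.tendsto_atTop.1 hr) 1 one_pos
  have h3 := hN N le_rfl
  rw [Real.dist_eq, sub_zero] at h3
  have h7 := (s N).lim
  rw [Metric.tendsto_nhds] at h7
  -- `ρ ^ (-i) → 0` for `i → -∞`
  have h8 : ∀ᶠ i : ℤ in atBot, (1 : ℝ) < ε * ρ ^ i := by
    obtain ⟨K, hK⟩ := exists_pow_lt_of_lt_one hε hρ1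
    rw [eventually_atBot]
    refine ⟨-(K : ℤ), fun i hi => ?_⟩
    have h9 : ρ ^ (-(K : ℤ)) ≤ ρ ^ i := zpow_le_zpow_right_of_le_one₀ hρ hρ1.le hi
    rw [zpow_neg, zpow_natCast] at h9
    have h10 : 0 < ρ ^ K := pow_pos hρ K
    calc (1 : ℝ) = ρ ^ K * (ρ ^ K)⁻¹ := by field_simp
      _ < ε * (ρ ^ K)⁻¹ := mul_lt_mul_of_pos_right hK (by positivity)
      _ ≤ ε * ρ ^ i := mul_le_mul_of_nonneg_left h9 hε.le
  filter_upwards [h7 ε hε, h8] with i hi hi'
  rw [dist_zero_right] at hi ⊢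
  have h6 : (l i : C) = ((l i : C) - (s N).co i) + (s N).co i := by ring
  show ‖(l i : C)‖ < ε
  rw [h6]
  refine lt_of_le_of_lt (IsUltrametricDist.norm_add_le_max _ _) (max_lt ?_ hi)
  have h11 : ‖(l i : C) - (s N).co i‖ * ρ ^ i < ε * ρ ^ i :=
    lt_of_le_of_lt (h4 N i) (lt_trans (lt_of_le_of_lt (le_abs_self _) h3) hi')
  exact lt_of_mul_lt_mul_right h11 (hpos i).le

/-- fixed points at a radius `ρ < 1` -/
theorem exists_fix_rad (L : IntermediateField k C) [FiniteDimensional k L] {b : ℕ → EE k C} {N : ℕ}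
    (hL0 : InL L (b 0)) (hL : ∀ i ∈ Finset.Ico 2 N, InL L (b i)) {ρ θ : ℝ} (hρ : 0 < ρ)
    (hρ1 : ρ < 1) (hθ0 : 0 ≤ θ) (hθ1 : θ < 1) (h0 : Bdd ρ θ (b 0))
    (hb : ∀ i ∈ Finset.Ico 2 N, Bdd ρ θ (b i)) (h01 : Bdd 1 1 (b 0))
    (hb1 : ∀ i ∈ Finset.Ico 2 N, Bdd 1 1 (b i)) :
    ∃ (h : EE k C) (s : ℕ → EE k C), InL L h ∧ Bdd ρ 1 h ∧ Bdd 1 1 h ∧ phi b N h = h ∧
      s 0 = 0 ∧ (∀ m, s (m + 1) = phi b N (s m)) ∧
      ∀ i, Tendsto (fun m => (s m).co i) atTop (𝓝 (h.co i)) := by
  set s : ℕ → EE k C := fun m => (phi b N)^[m] 0 with hs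
  have hs0 : s 0 = 0 := rfl
  have hsucc : ∀ m, s (m + 1) = phi b N (s m) := fun m => Function.iterate_succ_apply' _ _ _
  have hb' : ∀ i ∈ Finset.Ico 2 N, Bdd ρ (θ / 1 ^ (i - 1)) (b i) := fun i hi => by
    rw [one_pow, div_one]; exact hb i hi
  have hb1' : ∀ i ∈ Finset.Ico 2 N, Bdd 1 (1 / 1 ^ (i - 1)) (b i) := fun i hi => by
    rw [one_pow, div_one]; exact hb1 i hi
  have hB : ∀ m, Bdd ρ 1 (s m) := by
    intro m
    induction m with
    | zero => rw [hs0]; exact Bdd.zero zero_le_one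
    | succ m ih => rw [hsucc]; exact phi_bdd hρ one_pos hθ1.le (h0.le hθ1.le) hb' ih
  have hB1 : ∀ m, Bdd 1 1 (s m) := by
    intro m
    induction m with
    | zero => rw [hs0]; exact Bdd.zero zero_le_one
    | succ m ih => rw [hsucc]; exact phi_bdd one_pos one_pos le_rfl h01 hb1' ih
  have hsL : ∀ m, InL L (s m) := by
    intro m
    induction m with
    | zero => rw [hs0]; exact InL.zero L
    | succ m ih =>
      rw [hsucc]
      exact hL0.add (InL.sum _ fun i hi => (hL i hi).mul (ih.pow i))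
  have hstep : ∀ m, Bdd ρ (θ ^ m) (s (m + 1) - s m) := by
    intro m
    induction m with
    | zero => rw [hs0, sub_zero, pow_zero]; exact hB 1
    | succ m ih =>
      have := phi_contr hρ one_pos hθ0 hb' (hB (m + 1)) (hB m) ih
      rw [← hsucc, ← hsucc, ← pow_succ'] at this
      exact this
  have hr' : Tendsto (fun m : ℕ => θ ^ m) atTop (𝓝 0) :=
    tendsto_pow_atTop_nhds_zero_of_lt_one hθ0 hθ1
  obtain ⟨S, hS, h1, hS1, hStend⟩ := complete_rad L hρ hρ1 s hsL (fun m => θ ^ m) hr' (fun m n hmn => by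
    obtain ⟨d, rfl⟩ := Nat.exists_eq_add_of_le hmn
    induction d with
    | zero =>
      rw [add_zero, sub_self]; exact Bdd.zero (by positivity)
    | succ d ih =>
      have h2 : s (m + (d + 1)) - s m = (s (m + d + 1) - s (m + d)) + (s (m + d) - s m) := by
        rw [← add_assoc]; ring
      rw [h2]
      refine Bdd.add hρ ((hstep _).le ?_) (ih (by omega))
      exact pow_le_pow_of_le_one hθ0 hθ1.le (by omega)) hB1
  have hSr : Bdd ρ 1 S := by
    have h2 : S = (S - s 0) + s 0 := by ring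
    rw [h2]
    refine Bdd.add hρ ((h1 0).le (by simp)) (hB 0)
  refine ⟨S, s, hS, hSr, hS1, ?_, hs0, hsucc, hStend⟩
  have h2 : ∀ m, Bdd ρ (θ ^ m) (phi b N S - S) := by
    intro m
    have h3 : phi b N S - S = (phi b N S - phi b N (s m)) - (S - s (m + 1)) := by
      rw [hsucc]; ring
    rw [h3]
    refine Bdd.sub hρ ?_ ((h1 (m + 1)).le (pow_le_pow_of_le_one hθ0 hθ1.le (by omega)))
    have h4 := phi_contr hρ one_pos hθ0 hb' hSr (hB m) (h1 m)
    exact h4.le (mul_le_of_le_one_left (by positivity) hθ1.le)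
  exact sub_eq_zero.1 (co_eq_zero_of_bdd hρ hr' h2)

/-- uniqueness of the fixed point at a radius -/
theorem fix_unique_rad {b : ℕ → EE k C} {N : ℕ} {ρ θ : ℝ} (hρ : 0 < ρ)
    (hθ0 : 0 ≤ θ) (hθ1 : θ < 1) (hb : ∀ i ∈ Finset.Ico 2 N, Bdd ρ θ (b i))
    {h h' : EE k C} (hh : Bdd ρ 1 h) (hh' : Bdd ρ 1 h') (h1 : phi b N h = h)
    (h2 : phi b N h' = h') : h = h' := by
  have hb' : ∀ i ∈ Finset.Ico 2 N, Bdd ρ (θ / 1 ^ (i - 1)) (b i) := fun i hi => by
    rw [one_pow, div_one]; exact hb i hi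
  have h3 : ∀ m : ℕ, Bdd ρ (θ ^ m) (h - h') := by
    intro m
    induction m with
    | zero => rw [pow_zero]; exact hh.sub hρ hh'
    | succ m ih =>
      have := phi_contr hρ one_pos hθ0 hb' hh hh' ih
      rw [h1, h2, ← pow_succ'] at this
      exact this
  exact sub_eq_zero.1 (co_eq_zero_of_bdd hρ (tendsto_pow_atTop_nhds_zero_of_lt_one hθ0 hθ1) h3)

end Rad

/-! ### rank two Newton in `Ep` -/

section Newton

open Polynomial

variable {k : Type*} [NontriviallyNormedField k] [CompleteSpace k]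
variable {C : Type*} [NormedField C] [IsUltrametricDist C] [NormedAlgebra k C]
variable [Algebra.IsAlgebraic k C] [IsUltrametricDist k] [IsAlgClosed C] [hk : Fact (DiscNorm k)]

/-- a common radius for finitely many elements of order `≥ 1` -/
theorem exists_radius {b : ℕ → EE k C} (s : Finset ℕ) (hbE : ∀ i ∈ s, b i ∈ Ep k C)
    (hb : ∀ i ∈ s, Ge (endE k C) 1 (b i)) :
    ∀ᶠ ρ in 𝓝[<] (1 : ℝ), ∃ θ, 0 ≤ θ ∧ θ < 1 ∧ ∀ i ∈ s, Bdd ρ θ (b i) := by
  classical
  have e2 : ∀ᶠ ρ in 𝓝[<] (1 : ℝ), ρ ∈ Set.Ioo (0 : ℝ) 1 := Ioo_mem_nhdsLT one_pos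
  induction s using Finset.induction_on with
  | empty =>
    exact Eventually.of_forall fun ρ => ⟨0, le_rfl, one_pos, fun i hi => by simp at hi⟩
  | insert j s hj ih =>
    have ih' := ih (fun i hi => hbE i (Finset.mem_insert_of_mem hi))
      (fun i hi => hb i (Finset.mem_insert_of_mem hi))
    obtain ⟨θ, h1, h2, h3⟩ := eventually_bdd_max (hbE j (Finset.mem_insert_self _ _))
      (hb j (Finset.mem_insert_self _ _))
    filter_upwards [ih', h3, e2] with ρ ⟨θ', h4, h5, h6⟩ h7 h8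
    refine ⟨max θ' (max ρ θ), le_max_of_le_left h4, max_lt h5 (max_lt h8.2 h2), fun i hi => ?_⟩
    rcases Finset.mem_insert.1 hi with rfl | hi
    · exact h7.le (le_max_right _ _)
    · exact (h6 i hi).le (le_max_left _ _)

/-- fixed points of order `≥ 1` -/
theorem exists_fix_ge {b : ℕ → EE k C} {N : ℕ} (hE0 : b 0 ∈ Ep k C)
    (hE : ∀ i ∈ Finset.Ico 2 N, b i ∈ Ep k C) (h0 : Ge (endE k C) 1 (b 0))
    (hb : ∀ i ∈ Finset.Ico 2 N, Ge (endE k C) 1 (b i)) :
    (∃ h : EE k C, h ∈ Ep k C ∧ Ge (endE k C) 1 h ∧ phi b N h = h) ∧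
      ∀ h h' : EE k C, h ∈ Ep k C → h' ∈ Ep k C → Ge (endE k C) 1 h → Ge (endE k C) 1 h' →
        phi b N h = h → phi b N h' = h' → h = h' := by
  classical
  have e2 : ∀ᶠ ρ in 𝓝[<] (1 : ℝ), ρ ∈ Set.Ioo (0 : ℝ) 1 := Ioo_mem_nhdsLT one_pos
  have e3 := exists_radius (b := b) (insert 0 (Finset.Ico 2 N))
    (fun i hi => by
      rcases Finset.mem_insert.1 hi with rfl | hi
      · exact hE0
      · exact hE i hi)
    (fun i hi => by
      rcases Finset.mem_insert.1 hi with rfl | hi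
      · exact h0
      · exact hb i hi)
  constructor
  · obtain ⟨L, hL, hLb⟩ := exists_inL_finset (insert 0 (Finset.Ico 2 N)) b
    obtain ⟨ρ, ⟨θ, h1, h2, h3⟩, h4⟩ := (e3.and e2).exists
    have hone : ∀ {a : EE k C}, Ge (endE k C) 1 a → Bdd 1 1 a := fun ha =>
      bdd_one_iff.2 (gv_le_one.1 ha.le_one)
    obtain ⟨h, s, -, h5, h6, h7, h8, h9, h10⟩ := exists_fix_rad L (b := b) (N := N)
      (hLb 0 (Finset.mem_insert_self _ _)) (fun i hi => hLb i (Finset.mem_insert_of_mem hi)) h4.1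
      h4.2 h1 h2 (h3 0 (Finset.mem_insert_self _ _)) (fun i hi => h3 i (Finset.mem_insert_of_mem hi))
      (hone h0) (fun i hi => hone (hb i hi))
    refine ⟨h, ⟨ρ, 1, h4.1, h4.2, h5⟩, ?_, h7⟩
    have hsge : ∀ m, Ge (endE k C) 1 (s m) := by
      intro m
      induction m with
      | zero => rw [h8]; exact Ge.zero 1
      | succ m ih =>
        rw [h9]
        refine h0.add (Ge.sum _ fun i hi => ?_)
        have := (hb i hi).mul ((ih.anti (by norm_num : (0 : ℤ) ≤ 1)).pow i)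
        rwa [add_zero] at this
    rw [ge_iff]
    constructor
    · intro n
      have := h6 n
      rwa [one_zpow, mul_one] at this
    · intro n hn
      have h11 := (Metric.tendsto_atTop.1 (h10 n)) 1 one_pos
      obtain ⟨m, hm⟩ := h11
      have h12 := hm m le_rfl
      rw [dist_comm, dist_eq_norm] at h12
      have h13 := (ge_iff.1 (hsge m)).2 n hn
      have h14 : h.co n = (h.co n - (s m).co n) + (s m).co n := by ring
      rw [h14]
      exact lt_of_le_of_lt (IsUltrametricDist.norm_add_le_max _ _) (max_lt h12 h13)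
  · intro h h' hE1 hE2 g1 g2 f1 f2
    have e4 := exists_radius (b := fun i => if i = 0 then h else h') {0, 1}
      (fun i hi => by
        split_ifs
        · exact hE1
        · exact hE2)
      (fun i hi => by
        split_ifs
        · exact g1
        · exact g2)
    obtain ⟨ρ, ⟨⟨θ, h1, h2, h3⟩, h4⟩, ⟨θ', h5, h6, h7⟩⟩ := ((e3.and e2).and e4).exists
    have h8 := h7 0 (by simp)
    have h9 := h7 1 (by simp)
    simp only [if_true, one_ne_zero, if_false] at h8 h9
    exact fix_unique_rad h4.1 h1 h2 (fun i hi => h3 i (Finset.mem_insert_of_mem hi))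
      (h8.le h6.le) (h9.le h6.le) f1 f2

theorem T_pow (M : ℤ) (i : ℕ) : (T M : EE k C) ^ i = T ((i : ℤ) * M) := by
  induction i with
  | zero => simp [T_zero]
  | succ i ih =>
    rw [pow_succ, ih, T_mul_T]
    congr 1
    push_cast; ring

theorem phi_T (b : ℕ → EE k C) (N : ℕ) (M : ℤ) (h : EE k C) :
    phi b N (T M * h) = T M * phi (fun i => T (((i : ℤ) - 1) * M) * b i) N h := by
  unfold phi
  rw [mul_add, Finset.mul_sum]
  congr 1
  · rw [← mul_assoc, T_mul_T]
    have : M + (((0 : ℕ) : ℤ) - 1) * M = 0 := by push_cast; ring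
    rw [this, T_zero, one_mul]
  · refine Finset.sum_congr rfl fun i _ => ?_
    have h1 : (T M : EE k C) ^ i = T ((i : ℤ) * M) := T_pow M i
    have h2 : (T M * T (((i : ℤ) - 1) * M) : EE k C) = T ((i : ℤ) * M) := by
      rw [T_mul_T]; congr 1; ring
    calc b i * (T M * h) ^ i = T ((i : ℤ) * M) * b i * h ^ i := by rw [mul_pow, h1]; ring
      _ = T M * (T (((i : ℤ) - 1) * M) * b i * h ^ i) := by rw [← h2]; ring

/-- **rank two Newton**: `s` is an approximate root of `P` -/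
theorem newton2 {P : (EE k C)[X]} (hPE : ∀ i, P.coeff i ∈ Ep k C) {s : EE k C} (hs : s ∈ Ep k C)
    (M : ℤ) (h1 : P.derivative.eval s ≠ 0) (hb0 : Ge (endE k C) (M + 1) (nwt P s 0))
    (hbi : ∀ i : ℕ, 2 ≤ i → Ge (endE k C) (1 - ((i : ℤ) - 1) * M) (nwt P s i)) :
    (∃ h : EE k C, h ∈ Ep k C ∧ Ge (endE k C) (M + 1) h ∧ P.eval (s + h) = 0) ∧
      ∀ h h' : EE k C, h ∈ Ep k C → h' ∈ Ep k C → Ge (endE k C) (M + 1) h →
        Ge (endE k C) (M + 1) h' → P.eval (s + h) = 0 → P.eval (s + h') = 0 → h = h' := by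
  have hbE : ∀ i, nwt P s i ∈ Ep k C := fun i =>
    neg_mem (div_mem (taylor_coeff_mem (Ep k C).toSubfield.toSubring hPE hs i)
      (taylor_coeff_mem (Ep k C).toSubfield.toSubring hPE hs 1))
  set b' : ℕ → EE k C := fun i => T (((i : ℤ) - 1) * M) * nwt P s i with hb'
  have hb'E : ∀ i, b' i ∈ Ep k C := fun i => mul_mem (T_mem_Ep _) (hbE i)
  have hb'0 : Ge (endE k C) 1 (b' 0) := by
    have := (ge_T (k := k) (C := C) (-M)).mul hb0
    rw [hb']
    dsimp only
    have h2 : (((0 : ℕ) : ℤ) - 1) * M = -M := by push_cast; ring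
    rw [h2]
    exact this.anti (by omega)
  have hb'i : ∀ i ∈ Finset.Ico 2 (P.natDegree + 2), Ge (endE k C) 1 (b' i) := by
    intro i hi
    have := (ge_T (k := k) (C := C) (((i : ℤ) - 1) * M)).mul (hbi i (Finset.mem_Ico.1 hi).1)
    exact this.anti (by omega)
  obtain ⟨⟨h, e1, e2, e3⟩, e4⟩ := exists_fix_ge (hb'E 0) (fun i _ => hb'E i) hb'0 hb'i
  have hT0 : (T M : EE k C) ≠ 0 := T_ne_zero M
  constructor
  · refine ⟨T M * h, mul_mem (T_mem_Ep _) e1, ?_, ?_⟩
    · have := (ge_T (k := k) (C := C) M).mul e2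
      exact this
    · rw [root_iff_fix P s h1, phi_T, e3]
  · intro h h' a1 a2 a3 a4 a5 a6
    have key : ∀ g : EE k C, g ∈ Ep k C → Ge (endE k C) (M + 1) g → P.eval (s + g) = 0 →
        (T (-M) * g ∈ Ep k C ∧ Ge (endE k C) 1 (T (-M) * g) ∧
          phi b' (P.natDegree + 2) (T (-M) * g) = T (-M) * g) := by
      intro g hg1 hg2 hg3
      refine ⟨mul_mem (T_mem_Ep _) hg1, ?_, ?_⟩
      · have := (ge_T (k := k) (C := C) (-M)).mul hg2
        exact this.anti (by omega)
      · rw [root_iff_fix P s h1] at hg3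
        have h5 : g = T M * (T (-M) * g) := by
          rw [← mul_assoc, T_mul_T, add_neg_cancel, T_zero, one_mul]
        have h6 := phi_T (nwt P s) (P.natDegree + 2) M (T (-M) * g)
        rw [← h5, hg3] at h6
        rw [← hb'] at h6
        apply mul_left_cancel₀ hT0
        rw [← h6]
        exact h5
    obtain ⟨k1, k2, k3⟩ := key h a1 a3 a5
    obtain ⟨k4, k5, k6⟩ := key h' a2 a4 a6
    have := e4 _ _ k1 k4 k2 k5 k3 k6
    exact mul_left_cancel₀ (T_ne_zero (-M)) this

end Newton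

end Crest.Agent.R013.EE809
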