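import Crest.Agent.R013.Good0_408
import Crest.Agent.R013.Red3_332

/-!
# A criterion for `Inj` in terms of ends (norm + order)

`E0 : End2 C Fc`, `EJ j : End2 C (E j)`, `φ j` preserves the norm and multiplies the order by
`m j`. If `z (j, l) : K`, `l < m j`, has norm `1` and order `l` at `j`, and norm `< 1` or order
`≥ m j'` at the other `j'`, then the family `z` satisfies `Inj φ ι z`.
-/

set_option autoImplicit false
set_option linter.unusedSectionVars false

noncomputable section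

namespace Crest.Agent.R013.Good_408

open Module
open Crest.Agent.R013.Red332
open scoped NNReal

section Ends

variable {C : Type*} [NormedField C] [IsUltrametricDist C]

theorem lt1_sum {F : Type*} [Field F] [Algebra C F] (E : End2 C F) {ι : Type*} (s : Finset ι)
    (f : ι → F) (h : ∀ i ∈ s, E.lt1 (f i)) : E.lt1 (∑ i ∈ s, f i) := by
  classical
  induction s using Finset.induction_on with
  | empty => rw [Finset.sum_empty]; exact E.lt1_zero
  | insert i s hi ih =>
    rw [Finset.sum_insert hi]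
    exact E.lt1_add (h i (Finset.mem_insert_self _ _))
      (ih fun j hj => h j (Finset.mem_insert_of_mem hj))

variable {Fc K : Type*} [Field Fc] [Field K] [Algebra C Fc]
variable {J : Type*} [Fintype J] {E : J → Type*} [∀ j, Field (E j)] [∀ j, Algebra C (E j)]

theorem Inj.of_ends (E0 : End2 C Fc) (EJ : ∀ j, End2 C (E j)) (m : J → ℕ)
    (φ : ∀ j, Fc →+* E j) (ι : ∀ j, K →+* E j)
    (hφn : ∀ j a, (EJ j).nm (φ j a) = E0.nm a)
    (hφo : ∀ j a, a ≠ 0 → (EJ j).od (φ j a) = m j * E0.od a)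
    (z : (Σ j, Fin (m j)) → K)
    (h1 : ∀ p, (EJ p.1).nm (ι p.1 (z p)) = 1)
    (h2 : ∀ p, (EJ p.1).od (ι p.1 (z p)) = ((p.2 : ℕ) : ℤ))
    (h3 : ∀ p j, j ≠ p.1 → (EJ j).nm (ι j (z p)) < 1 ∨
      ((EJ j).nm (ι j (z p)) = 1 ∧ (m j : ℤ) ≤ (EJ j).od (ι j (z p)))) :
    Inj φ ι z := by
  classical
  intro e he
  by_contra hne
  obtain ⟨p1, hp1⟩ : ∃ p, e p ≠ 0 := by
    by_contra h
    push Not at h
    exact hne (funext h)
  obtain ⟨p2, -, hp2⟩ := Finset.exists_max_image (Finset.univ : Finset (Σ j, Fin (m j)))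
    (fun p => E0.nm (e p)) ⟨p1, Finset.mem_univ _⟩
  set M := E0.nm (e p2) with hM
  have hMpos : 0 < M := lt_of_lt_of_le (zero_lt_iff.2 ((Valuation.ne_zero_iff _).2 hp1))
    (hp2 p1 (Finset.mem_univ _))
  obtain ⟨p0, hp0, hmin⟩ := Finset.exists_min_image
    ((Finset.univ : Finset (Σ j, Fin (m j))).filter fun p => E0.nm (e p) = M)
    (fun p => ((E0.od (e p) : ℤ) : ℚ) + ((p.2 : ℕ) : ℚ) / (m p.1 : ℚ))
    ⟨p2, by simp [hM]⟩
  rw [Finset.mem_filter] at hp0
  replace hp0 := hp0.2
  obtain ⟨j0, l0⟩ := p0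
  have he0 : e ⟨j0, l0⟩ ≠ 0 := by
    intro h
    rw [h, map_zero] at hp0
    exact hMpos.ne hp0
  set A := EJ j0 with hA
  set a : (Σ j, Fin (m j)) → E j0 := fun p => φ j0 (e p) * ι j0 (z p) with ha
  set t := a ⟨j0, l0⟩ with ht
  have hz0 : ι j0 (z ⟨j0, l0⟩) ≠ 0 := by
    intro h
    have h' := h1 ⟨j0, l0⟩
    change A.nm (ι j0 (z ⟨j0, l0⟩)) = 1 at h'
    rw [h, map_zero] at h'
    exact zero_ne_one h'
  have hφ0 : ∀ x : Fc, x ≠ 0 → φ j0 x ≠ 0 := fun x hx => (map_ne_zero (φ j0)).2 hx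
  have ht0 : t ≠ 0 := mul_ne_zero (hφ0 _ he0) hz0
  have htn : A.nm t = M := by
    change A.nm (φ j0 (e ⟨j0, l0⟩) * ι j0 (z ⟨j0, l0⟩)) = M
    rw [map_mul, hφn, hp0]
    have h' := h1 ⟨j0, l0⟩
    change A.nm (ι j0 (z ⟨j0, l0⟩)) = 1 at h'
    rw [h', mul_one]
  have hto : A.od t = m j0 * E0.od (e ⟨j0, l0⟩) + ((l0 : ℕ) : ℤ) := by
    change A.od (φ j0 (e ⟨j0, l0⟩) * ι j0 (z ⟨j0, l0⟩)) = _
    rw [A.od_mul _ _ (hφ0 _ he0) hz0, hφo _ _ he0]
    congr 1
    exact h2 ⟨j0, l0⟩
  have hmj : ∀ p : (Σ j, Fin (m j)), (0 : ℚ) < m p.1 := fun p => by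
    have := p.2.2
    exact_mod_cast (Nat.zero_le _).trans_lt this
  have hkey : ∀ p, p ≠ ⟨j0, l0⟩ → A.lt1 (a p / t) := by
    intro p hp
    by_cases hep : e p = 0
    · have : a p = 0 := by
        change φ j0 (e p) * ι j0 (z p) = 0
        rw [hep, map_zero, zero_mul]
      rw [this, zero_div]
      exact A.lt1_zero
    have hle : A.nm (ι j0 (z p)) ≤ 1 := by
      by_cases hj : j0 = p.1
      · subst hj
        exact (h1 p).le
      · rcases h3 p j0 hj with h | h
        · exact h.le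
        · exact h.1.le
    have hn : A.nm (a p / t) = E0.nm (e p) * A.nm (ι j0 (z p)) / M := by
      rw [map_div₀, htn]
      change A.nm (φ j0 (e p) * ι j0 (z p)) / M = _
      rw [map_mul, hφn]
    rcases (hp2 p (Finset.mem_univ _)).lt_or_eq with hlt | heq
    · left
      rw [hn, div_lt_one hMpos]
      exact (mul_le_of_le_one_right zero_le hle).trans_lt hlt
    · replace heq : E0.nm (e p) = M := heq
      have hmin' := hmin p (by rw [Finset.mem_filter]; exact ⟨Finset.mem_univ _, heq⟩)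
      rcases hle.lt_or_eq with hlt1 | heq1
      · left
        rw [hn, heq, mul_div_right_comm, div_self hMpos.ne', one_mul]
        exact hlt1
      · have hzp : ι j0 (z p) ≠ 0 := by
          intro h
          rw [h, map_zero] at heq1
          exact zero_ne_one heq1
        right
        refine ⟨by rw [hn, heq, heq1, mul_one, div_self hMpos.ne'], ?_⟩
        have hap0 : a p ≠ 0 := mul_ne_zero (hφ0 _ hep) hzp
        have hod : A.od (a p / t) = m j0 * E0.od (e p) + A.od (ι j0 (z p)) -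
            (m j0 * E0.od (e ⟨j0, l0⟩) + ((l0 : ℕ) : ℤ)) := by
          rw [div_eq_mul_inv, A.od_mul _ _ hap0 (inv_ne_zero ht0), A.od_inv ht0, hto]
          change A.od (φ j0 (e p) * ι j0 (z p)) + _ = _
          rw [A.od_mul _ _ (hφ0 _ hep) hzp, hφo _ _ hep]
          ring
        rw [hod]
        have hm0 : (0 : ℚ) < m j0 := hmj ⟨j0, l0⟩
        have hmp : (0 : ℚ) < m p.1 := hmj p
        dsimp only at hmin'
        by_cases hj : j0 = p.1
        · obtain ⟨j, l⟩ := p
          dsimp only at hj hmin' hmp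
          subst hj
          have ho := h2 ⟨j0, l⟩
          change A.od (ι j0 (z ⟨j0, l⟩)) = ((l : ℕ) : ℤ) at ho
          rw [ho]
          have h5 : (m j0 : ℤ) * E0.od (e ⟨j0, l0⟩) + ((l0 : ℕ) : ℤ) ≤
              (m j0 : ℤ) * E0.od (e ⟨j0, l⟩) + ((l : ℕ) : ℤ) := by
            have h6 := mul_le_mul_of_nonneg_left hmin' hm0.le
            rw [mul_add, mul_add, mul_div_cancel₀ _ hm0.ne', mul_div_cancel₀ _ hm0.ne'] at h6
            exact_mod_cast h6
          rcases h5.lt_or_eq with h6 | h6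
          · omega
          · exfalso
            have h7 : (m j0 : ℤ) * (E0.od (e ⟨j0, l0⟩) - E0.od (e ⟨j0, l⟩)) =
                ((l : ℕ) : ℤ) - ((l0 : ℕ) : ℤ) := by linarith
            have hl := l.2
            have hl0 := l0.2
            have h8 : E0.od (e ⟨j0, l0⟩) - E0.od (e ⟨j0, l⟩) = 0 := by
              by_contra h9
              have h10 : (m j0 : ℤ) ≤ |((l : ℕ) : ℤ) - ((l0 : ℕ) : ℤ)| := by
                rw [← h7, abs_mul, Nat.abs_cast]
                have : 1 ≤ |E0.od (e ⟨j0, l0⟩) - E0.od (e ⟨j0, l⟩)| := Int.one_le_abs h9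
                nlinarith
              rw [le_abs] at h10
              omega
            rw [h8, mul_zero] at h7
            have h9 : l = l0 := Fin.ext (by omega)
            exact hp (by rw [h9])
        · have ho : (m j0 : ℤ) ≤ A.od (ι j0 (z p)) := by
            rcases h3 p j0 hj with h | h
            · rw [heq1] at h; exact absurd h (lt_irrefl _)
            · exact h.2
          have hlt : ((p.2 : ℕ) : ℚ) / (m p.1 : ℚ) < 1 := by
            rw [div_lt_one hmp]
            exact_mod_cast p.2.2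
          have h5 : (m j0 : ℤ) * E0.od (e ⟨j0, l0⟩) + ((l0 : ℕ) : ℤ) <
              (m j0 : ℤ) * (E0.od (e p) + 1) := by
            have h6 := mul_lt_mul_of_pos_left (hmin'.trans_lt (by linarith :
              ((E0.od (e p) : ℤ) : ℚ) + ((p.2 : ℕ) : ℚ) / (m p.1 : ℚ) <
                ((E0.od (e p) : ℤ) : ℚ) + 1)) hm0
            rw [mul_add, mul_div_cancel₀ _ hm0.ne'] at h6
            exact_mod_cast h6
          rw [mul_add, mul_one] at h5
          omega
  -- conclusion
  have hsum : ∑ p, a p = 0 := he j0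
  rw [← Finset.add_sum_erase _ _ (Finset.mem_univ (⟨j0, l0⟩ : Σ j, Fin (m j)))] at hsum
  have h4 : A.lt1 (∑ p ∈ Finset.univ.erase (⟨j0, l0⟩ : Σ j, Fin (m j)), a p / t) :=
    lt1_sum A _ _ fun p hp => hkey p (Finset.ne_of_mem_erase hp)
  rw [← Finset.sum_div] at h4
  have h5 : (∑ p ∈ Finset.univ.erase (⟨j0, l0⟩ : Σ j, Fin (m j)), a p) = -t :=
    eq_neg_of_add_eq_zero_right hsum
  rw [h5, neg_div, div_self ht0] at h4
  have h6 := A.lt1_neg h4
  rw [neg_neg] at h6
  exact A.not_lt1_one h6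

end Ends

end Crest.Agent.R013.Good_408
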