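import Crest.Agent.R013.Good3_408
import Crest.Agent.R013.Good4_408
import Crest.Agent.R013.Good5_408
import Crest.Agent.R013.EE6_809

/-!
# Constructors of good discs and good annuli through ends (norm + order)
-/

set_option autoImplicit false
set_option linter.unusedSectionVars false

noncomputable section

namespace Crest.Agent.R013.Good_408

open Module
open Crest.Agent.R013.Cell_408 Crest.Agent.R013.Comp_267 Crest.Agent.R013.EE809
open Crest.Agent.R013.CAn_243 Crest.Agent.R013.Red332
open scoped NNReal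

variable {k C : Type*} [NontriviallyNormedField k] [CompleteSpace k] [IsUltrametricDist k]
  [NormedField C] [IsUltrametricDist C] [NormedAlgebra k C] [Algebra.IsAlgebraic k C]
  [IsAlgClosed C] [hk : Fact (DiscNorm k)]

variable (k C) in
/-- the end of `FD` -/
def endF : End2 C (FD k C) := (endE k C).comap (toEE k C)

theorem endF_nm (x : FD k C) : (endF k C).nm x = gv k C (toEE k C x) := rfl

theorem endF_od (x : FD k C) : (endF k C).od x = od (toEE k C x) := rfl

variable {K : Type*} [Field K] [Algebra C K] [Algebra (RatFunc C) K]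
    [IsScalarTower C (RatFunc C) K] [FiniteDimensional (RatFunc C) K]

/-- good disc from a family of elements with prescribed norms and orders -/
theorem GoodD.mk_res (y : FD k C) (hy : Transcendental C y) (J : Type) [Fintype J] (m : J → ℕ)
    (f : J → PowerSeries C) (wd : ∀ j, WD k (f j) (m j)) (m_ne : ∀ j, m j ≠ 0)
    (io : J → K →ₐ[C] FD k C)
    (hx : ∀ j, io j (algebraMap (RatFunc C) K RatFunc.X) = compF hk.out (wd j) (m_ne j) y)
    (sum_m : ∑ j, m j = finrank (RatFunc C) K)
    (z : (Σ j, Fin (m j)) → K)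
    (h1 : ∀ p, gn (toEE k C (io p.1 (z p))) = 1)
    (h2 : ∀ p, od (toEE k C (io p.1 (z p))) = ((p.2 : ℕ) : ℤ))
    (h3 : ∀ p j, j ≠ p.1 → gn (toEE k C (io j (z p))) < 1 ∨
      (gn (toEE k C (io j (z p))) = 1 ∧ (m j : ℤ) ≤ od (toEE k C (io j (z p))))) :
    GoodD k C K y := by
  classical
  let i : RatFunc C →ₐ[C] FD k C := ratHom y hy
  have hc : ∀ j (r : RatFunc C), compF hk.out (wd j) (m_ne j) (i r) =
      io j (algebraMap (RatFunc C) K r) := by
    intro j r
    have h : (compF hk.out (wd j) (m_ne j)).toRingHom.comp i.toRingHom =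
        (io j).toRingHom.comp (algebraMap (RatFunc C) K) := by
      refine rat_ext (fun c => ?_) ?_
      · change compF hk.out (wd j) (m_ne j) (i (algebraMap C _ c)) =
          io j (algebraMap (RatFunc C) K (algebraMap C _ c))
        rw [AlgHom.commutes, AlgHom.commutes, ← IsScalarTower.algebraMap_apply, AlgHom.commutes]
      · change compF hk.out (wd j) (m_ne j) (i RatFunc.X) =
          io j (algebraMap (RatFunc C) K RatFunc.X)
        rw [ratHom_X, hx]
    exact DFunLike.congr_fun h r
  have hinj : Inj (fun j => (compF hk.out (wd j) (m_ne j)).toRingHom)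
      (fun j => (io j).toRingHom) z := by
    refine Inj.of_ends (C := C) (E := fun _ => FD k C) (endF k C) (fun _ => endF k C) m _ _
      (fun j a => ?_) (fun j a ha => ?_) z (fun p => ?_) (fun p => h2 p) (fun p j hj => ?_)
    · change gv k C (toEE k C (compF hk.out (wd j) (m_ne j) a)) = gv k C (toEE k C a)
      apply NNReal.coe_injective
      rw [coe_gv, coe_gv, gn_toEE_compF]
    · exact od_toEE_compF (wd j) (m_ne j) ha
    · exact gv_eq_one.2 (h1 p)
    · rcases h3 p j hj with h | h
      · exact Or.inl (gv_lt_one.2 h)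
      · exact Or.inr ⟨gv_eq_one.2 h.1, h.2⟩
  have hli : LinearIndependent (RatFunc C) z := by
    rw [Fintype.linearIndependent_iff]
    intro r hr
    have h4 := hinj (fun p => i (r p)) (fun j => by
      change ∑ p, compF hk.out (wd j) (m_ne j) (i (r p)) * io j (z p) = 0
      have h5 := congrArg (io j) hr
      rw [map_zero, map_sum] at h5
      rw [← h5]
      refine Finset.sum_congr rfl fun p _ => ?_
      rw [hc, Algebra.smul_def, map_mul])
    intro p
    exact (map_eq_zero i).1 (congrFun h4 p)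
  have hcard : Fintype.card (Σ j, Fin (m j)) = finrank (RatFunc C) K := by
    rw [Fintype.card_sigma, ← sum_m]
    exact Finset.sum_congr rfl fun j _ => Fintype.card_fin _
  exact GoodD.mk' y hy J m f wd m_ne io hx sum_m.le z hli hcard hinj

/-- compatibility of expansions is automatic -/
theorem commE {y : EE k C} (hy : Transcendental C y) {J : Type*} {m : J → ℕ} {f : J → EE k C}
    {we : ∀ j, WE (f j) (m j)} {m_ne : ∀ j, m j ≠ 0} {io : J → K →ₐ[C] EE k C}
    (hx : ∀ j, io j (algebraMap (RatFunc C) K RatFunc.X) = compE (f j) (we j) (m_ne j) y)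
    (j : J) (r : RatFunc C) : compE (f j) (we j) (m_ne j) (ratHom y hy r) =
      io j (algebraMap (RatFunc C) K r) := by
  have h : (compE (f j) (we j) (m_ne j)).toRingHom.comp (ratHom y hy).toRingHom =
      (io j).toRingHom.comp (algebraMap (RatFunc C) K) := by
    refine rat_ext (fun c => ?_) ?_
    · change compE (f j) (we j) (m_ne j) (ratHom y hy (algebraMap C _ c)) =
        io j (algebraMap (RatFunc C) K (algebraMap C _ c))
      rw [AlgHom.commutes, AlgHom.commutes, ← IsScalarTower.algebraMap_apply, AlgHom.commutes]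
    · change compE (f j) (we j) (m_ne j) (ratHom y hy RatFunc.X) =
        io j (algebraMap (RatFunc C) K RatFunc.X)
      rw [ratHom_X, hx]
  exact DFunLike.congr_fun h r

/-- `Inj` over `EE` for a family with prescribed norms and orders -/
theorem inj_ends (J : Type*) [Fintype J] (m : J → ℕ)
    (f : J → EE k C) (we : ∀ j, WE (f j) (m j)) (m_ne : ∀ j, m j ≠ 0)
    (io : J → K →ₐ[C] EE k C) (z : (Σ j, Fin (m j)) → K)
    (h1 : ∀ p, gn (io p.1 (z p)) = 1)
    (h2 : ∀ p, od (io p.1 (z p)) = ((p.2 : ℕ) : ℤ))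
    (h3 : ∀ p j, j ≠ p.1 → gn (io j (z p)) < 1 ∨
      (gn (io j (z p)) = 1 ∧ (m j : ℤ) ≤ od (io j (z p)))) :
    Inj (fun j => (compE (f j) (we j) (m_ne j)).toRingHom) (fun j => (io j).toRingHom) z := by
  refine Inj.of_ends (C := C) (E := fun _ => EE k C) (endE k C) (fun _ => endE k C) m _ _
    (fun j a => ?_) (fun j a ha => ?_) z (fun p => ?_) (fun p => h2 p) (fun p j hj => ?_)
  · change gv k C (compE (f j) (we j) (m_ne j) a) = gv k C a
    apply NNReal.coe_injective
    rw [coe_gv, coe_gv, gn_compE]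
  · exact od_compE (we j) (m_ne j) a
  · exact gv_eq_one.2 (h1 p)
  · rcases h3 p j hj with h | h
    · exact Or.inl (gv_lt_one.2 h)
    · exact Or.inr ⟨gv_eq_one.2 h.1, h.2⟩

/-- from one family to all independent families, over `EE` -/
theorem inj_all {y : EE k C} (hy : Transcendental C y) {J : Type*} {m : J → ℕ} {f : J → EE k C}
    {we : ∀ j, WE (f j) (m j)} {m_ne : ∀ j, m j ≠ 0} {io : J → K →ₐ[C] EE k C}
    (hx : ∀ j, io j (algebraMap (RatFunc C) K RatFunc.X) = compE (f j) (we j) (m_ne j) y)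
    {I : Type*} [Fintype I] (z : I → K) (hcard : Fintype.card I = finrank (RatFunc C) K)
    (hz : Inj (fun j => (compE (f j) (we j) (m_ne j)).toRingHom) (fun j => (io j).toRingHom) z)
    {I' : Type*} [Fintype I'] (b : I' → K) (hb : LinearIndependent (RatFunc C) b) :
    Inj (fun j => (compE (f j) (we j) (m_ne j)).toRingHom) (fun j => (io j).toRingHom) b := by
  have hli : LinearIndependent (RatFunc C) z := by
    rw [Fintype.linearIndependent_iff]
    intro r hr
    have h4 := hz (fun p => ratHom y hy (r p)) (fun j => by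
      change ∑ p, compE (f j) (we j) (m_ne j) (ratHom y hy (r p)) * io j (z p) = 0
      have h5 := congrArg (io j) hr
      rw [map_zero, map_sum] at h5
      rw [← h5]
      refine Finset.sum_congr rfl fun p _ => ?_
      rw [commE hy hx, Algebra.smul_def, map_mul])
    intro p
    exact (map_eq_zero (ratHom y hy)).1 (congrFun h4 p)
  let _ : Algebra (RatFunc C) (EE k C) := (ratHom y hy).toRingHom.toAlgebra
  exact Inj.of_linearIndependent (F0 := RatFunc C) (Fc := EE k C) (E := fun _ => EE k C)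
    (φ := fun j => (compE (f j) (we j) (m_ne j)).toRingHom)
    (ι := fun j => (io j).toRingHom) (fun j r => commE hy hx j r) z hli hcard hz b hb

/-- good annulus from `Inj` for one family -/
theorem GoodA.mk' {c : C} (c_ne : c ≠ 0) (c_lt : ‖c‖ < 1) (y : EE k C)
    (hy : Transcendental C y) (hyA : y ∈ FA k c) (J : Type) [Fintype J] (m : J → ℕ)
    (m_ne : ∀ j, m j ≠ 0) (c' : J → C) (hc' : ∀ j, ‖c' j‖ ^ m j = ‖c‖)
    (f : J → EE k C) (we : ∀ j, WE (f j) (m j))
    (wa : ∀ j (n : ℤ), ‖(f j).co n‖ * ‖c' j‖ ^ n ≤ ‖c' j‖ ^ m j)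
    (io : J → K →ₐ[C] EE k C) (io_mem : ∀ j a, io j a ∈ FA k (c' j))
    (hx : ∀ j, io j (algebraMap (RatFunc C) K RatFunc.X) = compE (f j) (we j) (m_ne j) y)
    (sum_m : ∑ j, m j = finrank (RatFunc C) K)
    {I : Type*} [Fintype I] (z : I → K) (hcard : Fintype.card I = finrank (RatFunc C) K)
    (hz : Inj (fun j => (compE (f j) (we j) (m_ne j)).toRingHom) (fun j => (io j).toRingHom) z) :
    GoodA k C K c y :=
  ⟨⟨c_ne, c_lt, hyA, J, inferInstance, m, m_ne, c', hc', f, we, wa, io, io_mem, hx, sum_m,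
    fun _ b hb e _ h0 => inj_all hy hx z hcard hz b hb e h0⟩⟩

/-- good annulus from a family of elements with prescribed norms and orders -/
theorem GoodA.mk_res {c : C} (c_ne : c ≠ 0) (c_lt : ‖c‖ < 1) (y : EE k C)
    (hy : Transcendental C y) (hyA : y ∈ FA k c) (J : Type) [Fintype J] (m : J → ℕ)
    (m_ne : ∀ j, m j ≠ 0) (c' : J → C) (hc' : ∀ j, ‖c' j‖ ^ m j = ‖c‖)
    (f : J → EE k C) (we : ∀ j, WE (f j) (m j))
    (wa : ∀ j (n : ℤ), ‖(f j).co n‖ * ‖c' j‖ ^ n ≤ ‖c' j‖ ^ m j)
    (io : J → K →ₐ[C] EE k C) (io_mem : ∀ j a, io j a ∈ FA k (c' j))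
    (hx : ∀ j, io j (algebraMap (RatFunc C) K RatFunc.X) = compE (f j) (we j) (m_ne j) y)
    (sum_m : ∑ j, m j = finrank (RatFunc C) K)
    (z : (Σ j, Fin (m j)) → K)
    (h1 : ∀ p, gn (io p.1 (z p)) = 1)
    (h2 : ∀ p, od (io p.1 (z p)) = ((p.2 : ℕ) : ℤ))
    (h3 : ∀ p j, j ≠ p.1 → gn (io j (z p)) < 1 ∨
      (gn (io j (z p)) = 1 ∧ (m j : ℤ) ≤ od (io j (z p)))) : GoodA k C K c y := by
  refine GoodA.mk' c_ne c_lt y hy hyA J m m_ne c' hc' f we wa io io_mem hx sum_m z ?_
    (inj_ends J m f we m_ne io z h1 h2 h3)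
  rw [Fintype.card_sigma, ← sum_m]
  exact Finset.sum_congr rfl fun j _ => Fintype.card_fin _

end Crest.Agent.R013.Good_408
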