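import Crest.Agent.R013.Dir1_408
import Crest.Agent.R013.Dir2_408
import Crest.Agent.R013.Good6_408
import Crest.Agent.R013.Red8_332

/-!
# SS-DIR, file 3: the embedding of `K` in `FD k C` at an étale point
-/

set_option autoImplicit false
set_option linter.unusedSectionVars false
set_option linter.style.haveILetI false

noncomputable section

namespace Crest.Agent.R013.Dir_408

open Polynomial
open Crest.Agent.R013.Red332 Crest.Agent.R013.EE809
open Crest.Agent.R013.Cell_408 Crest.Agent.R013.Comp_267 Crest.Agent.R013.Good_408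
open Crest.Agent.R013.RR7_948 Crest.Agent.R013.RR8_948
open scoped NNReal

section Gen

variable {C : Type*} [Field C]

/-- affine coordinates generate `C(x)` -/
theorem gen_affine (a ρ : C) (hρ : ρ ≠ 0) : Gen C
    (algebraMap C (RatFunc C) ρ⁻¹ * (RatFunc.X - algebraMap C (RatFunc C) a)) := by
  set t : RatFunc C := algebraMap C (RatFunc C) ρ⁻¹ * (RatFunc.X - algebraMap C (RatFunc C) a) with ht
  have hX : algebraMap C (RatFunc C) ρ * t + algebraMap C (RatFunc C) a = RatFunc.X := by
    rw [ht, ← mul_assoc, ← map_mul, mul_inv_cancel₀ hρ, map_one, one_mul, sub_add_cancel]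
  have hp : ∀ P : C[X], aeval t (P.comp (Polynomial.C ρ * X + Polynomial.C a)) =
      algebraMap C[X] (RatFunc C) P := by
    intro P
    rw [aeval_comp, map_add, map_mul, aeval_C, aeval_C, aeval_X, hX, aeval_ratFunc_X]
  intro f
  refine ⟨f.num.comp (Polynomial.C ρ * X + Polynomial.C a),
    f.denom.comp (Polynomial.C ρ * X + Polynomial.C a), ?_, ?_⟩
  · rw [hp]
    exact RatFunc.algebraMap_ne_zero f.denom_ne_zero
  · rw [hp, hp, RatFunc.num_div_denom]

end Gen

variable {k C : Type*} [NontriviallyNormedField k] [CompleteSpace k] [IsUltrametricDist k]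
  [NormedField C] [IsUltrametricDist C] [NormedAlgebra k C] [Algebra.IsAlgebraic k C]
  [IsAlgClosed C] [hk : Fact (DiscNorm k)]

theorem ge_endF_iff {m : ℤ} {x : FD k C} : Ge (endF k C) m x ↔ Ge (endE k C) m (toEE k C x) :=
  Iff.rfl

theorem ge_zero_of_BI {x : FD k C} (h : x ∈ BI k C) : Ge (endF k C) 0 x := by
  obtain ⟨b, hb, rfl⟩ := h
  rw [ge_endF_iff, toEE_algebraMap, ge_iff]
  refine ⟨fun n => ?_, fun n hn => ?_⟩
  · rcases le_or_gt 0 n with h | h
    · obtain ⟨l, rfl⟩ := Int.eq_ofNat_of_zero_le h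
      rw [co_ofBD_nat]; exact hb l
    · rw [co_ofBD_neg _ h, norm_zero]; exact zero_le_one
  · rw [co_ofBD_neg _ hn, norm_zero]; exact zero_lt_one

theorem ge_one_of_BI {b : BD k C} (h : ∀ n, ‖PowerSeries.coeff n (b : PowerSeries C)‖ ≤ 1)
    (h0 : ‖PowerSeries.coeff 0 (b : PowerSeries C)‖ < 1) :
    Ge (endF k C) 1 (algebraMap (BD k C) (FD k C) b) := by
  rw [ge_endF_iff, toEE_algebraMap, ge_iff]
  refine ⟨fun n => ?_, fun n hn => ?_⟩
  · rcases le_or_gt 0 n with h1 | h1
    · obtain ⟨l, rfl⟩ := Int.eq_ofNat_of_zero_le h1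
      rw [co_ofBD_nat]; exact h l
    · rw [co_ofBD_neg _ h1, norm_zero]; exact zero_le_one
  · rcases (show n = 0 ∨ n < 0 by omega) with h1 | h1
    · rw [h1]
      have := co_ofBD_nat b 0
      rw [Nat.cast_zero] at this
      rw [this]; exact h0
    · rw [co_ofBD_neg _ h1, norm_zero]; exact zero_lt_one

/-- an element of `BI` is congruent to its value at the centre -/
theorem ge_one_sub_coeff {b : BD k C} (h : ∀ n, ‖PowerSeries.coeff n (b : PowerSeries C)‖ ≤ 1) :
    Ge (endF k C) 1 (algebraMap (BD k C) (FD k C) b -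
      algebraMap C (FD k C) (PowerSeries.coeff 0 (b : PowerSeries C))) := by
  rw [IsScalarTower.algebraMap_apply C (BD k C) (FD k C), ← map_sub]
  have e : ∀ n, PowerSeries.coeff n ((b - algebraMap C (BD k C)
      (PowerSeries.coeff 0 (b : PowerSeries C)) : BD k C) : PowerSeries C) =
      PowerSeries.coeff n (b : PowerSeries C) -
        if n = 0 then PowerSeries.coeff 0 (b : PowerSeries C) else 0 := by
    intro n
    change PowerSeries.coeff n ((b : PowerSeries C) - algebraMap C (PowerSeries C) _) = _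
    rw [map_sub, PowerSeries.algebraMap_apply, Algebra.algebraMap_self, RingHom.id_apply,
      PowerSeries.coeff_C]
  refine ge_one_of_BI (fun n => ?_) ?_
  · rw [e]
    split_ifs with hn
    · rw [hn, sub_self, norm_zero]; exact zero_le_one
    · rw [sub_zero]; exact h n
  · rw [e, if_pos rfl, sub_self, norm_zero]
    exact zero_lt_one

theorem ge_one_C {F : Type*} [Field F] [Algebra C F] {E : End2 C F} {c : C} :
    Ge E 1 (algebraMap C F c) ↔ ‖c‖₊ < 1 := by
  constructor
  · rintro (h | ⟨h, h'⟩)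
    · rwa [E.hC] at h
    · rw [E.hC] at h
      rw [E.od_C c (by rintro rfl; simp at h)] at h'
      omega
  · intro h
    left; rwa [E.hC]

theorem endF_TF : (endF k C).nm (TF k C) = 1 ∧ (endF k C).od (TF k C) = 1 := by
  constructor
  · rw [endF_nm, toEE_TF, ← endE_nm]; exact nm_T
  · rw [endF_od, toEE_TF]; exact od_T 1

variable (k C) in
/-- the coordinate function `τ + T` -/
def dy (τ : C) : FD k C := algebraMap C (FD k C) τ + TF k C

theorem transc_dy (τ : C) : Transcendental C (dy k C τ) := by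
  have h1 : Transcendental C (TF k C) := transcendental_of endF_TF.1 endF_TF.2
  intro h
  apply h1
  have h2 : TF k C = dy k C τ - algebraMap C (FD k C) τ := by rw [dy]; ring
  rw [h2]
  exact h.sub (isAlgebraic_algebraMap τ)

variable (k C) in
/-- expansion of rational functions on the disc `|x - τ| < 1` -/
def ex (τ : C) : RatFunc C →ₐ[C] FD k C := ratHom (dy k C τ) (transc_dy τ)

theorem ex_X (τ : C) : ex k C τ RatFunc.X = dy k C τ := ratHom_X _ _

variable (k C) in
/-- the end of `C(x)` at the open disc `|x - τ| < 1` -/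
def E0 (τ : C) : End2 C (RatFunc C) := (endF k C).comap (ex k C τ)

/-- the coordinate `x - τ` -/
def ux (τ : C) : RatFunc C := RatFunc.X - algebraMap C (RatFunc C) τ

theorem ex_ux (τ : C) : ex k C τ (ux τ) = TF k C := by
  rw [ux, map_sub, ex_X, AlgHom.commutes, dy]
  ring

theorem E0_ux (τ : C) : (E0 k C τ).nm (ux τ) = 1 ∧ (E0 k C τ).od (ux τ) = 1 := by
  constructor
  · change (endF k C).nm (ex k C τ (ux τ)) = 1
    rw [ex_ux]; exact endF_TF.1
  · change (endF k C).od (ex k C τ (ux τ)) = 1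
    rw [ex_ux]; exact endF_TF.2

theorem gen_ux (τ : C) : Gen C (ux τ) := by
  have := gen_affine τ (1 : C) one_ne_zero
  rwa [inv_one, map_one, one_mul] at this

theorem ge_E0_iff {τ : C} {m : ℤ} {r : RatFunc C} :
    Ge (E0 k C τ) m r ↔ Ge (endF k C) m (ex k C τ r) := Iff.rfl

section Chart

variable {K : Type*} [Field K] [Algebra C K] [Algebra (RatFunc C) K]
  [IsScalarTower C (RatFunc C) K]

/-- `z` is a chart element at the norm `w` -/
structure ChartW (w : Nm C K) (z : K) : Prop where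
  tr : ∀ c : C, ‖c‖₊ ≤ 1 → w.v (algebraMap (RatFunc C) K (ux c)) = 1
  gen : IntermediateField.adjoin (RatFunc C) {z} = ⊤
  int : ∀ n, w.v (algebraMap (RatFunc C) K ((minpoly (RatFunc C) z).coeff n)) ≤ 1
  der : w.v (aeval z (derivative (minpoly (RatFunc C) z))) = 1
  z1 : w.v z = 1
  app : ∀ y, w.v y ≤ 1 → ∃ Q : (RatFunc C)[X],
    (∀ n, w.v (algebraMap (RatFunc C) K (Q.coeff n)) ≤ 1) ∧ w.v (y - aeval z Q) < 1
  uniq : ∀ v : Valuation K ℝ≥0, (∀ f, v (algebraMap (RatFunc C) K f) =
    w.v (algebraMap (RatFunc C) K f)) → v z = 1 → v = w.v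

theorem over_E0 {w : Nm C K} {z : K} (hc : ChartW w z) (q : Pl (Ct C) (kap w)) {τ : C}
    (hτ : ‖τ‖₊ ≤ 1) (hx : Ge (ofPl w q) 1 (algebraMap (RatFunc C) K (ux τ))) :
    ∃ e : ℕ, Over (E0 k C τ) (ofPl w q) e := by
  have h1 : (ofPl w q).nm (algebraMap (RatFunc C) K (ux τ)) = 1 := hc.tr τ hτ
  have h2 : 1 ≤ (ofPl w q).od (algebraMap (RatFunc C) K (ux τ)) := by
    rcases hx with h | h
    · rw [h1] at h; exact absurd h (lt_irrefl _)
    · exact h.2
  obtain ⟨e, he⟩ := Int.eq_ofNat_of_zero_le (zero_le_one.trans h2)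
  refine ⟨e, over_of (E0 k C τ) (gen_ux τ) (E0_ux τ).1 (E0_ux τ).2 (ofPl w q) h1 ?_ he⟩
  rw [he] at h2
  exact_mod_cast h2

/-- the root at an étale point -/
theorem exists_root_disc [FiniteDimensional (RatFunc C) K] {w : Nm C K} {z : K}
    (hc : ChartW w z) (q : Pl (Ct C) (kap w)) {τ ζ : C} (hζ : ‖ζ‖₊ = 1)
    {e : ℕ} (hover : Over (E0 k C τ) (ofPl w q) e)
    (hz : Ge (ofPl w q) 1 (z - algebraMap C K ζ))
    (hd : Red332.od w q (aeval z (derivative (minpoly (RatFunc C) z))) = 0)
    (hB : ∀ i, ex k C τ ((minpoly (RatFunc C) z).coeff i) ∈ BI k C) :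
    (∀ i, Ge (E0 k C τ) 0 ((minpoly (RatFunc C) z).coeff i)) ∧
    ¬ Ge (E0 k C τ) 1 ((taylor (algebraMap C (RatFunc C) ζ) (minpoly (RatFunc C) z)).coeff 1) ∧
    ∃ β : FD k C, β ∈ BI k C ∧
      ((minpoly (RatFunc C) z).map (ex k C τ).toRingHom).eval β = 0 ∧
      Ge (endF k C) 1 (β - algebraMap C (FD k C) ζ) := by
  classical
  set E : End2 C K := ofPl w q with hE
  have hnmF : ∀ f : RatFunc C, w.v (algebraMap (RatFunc C) K f) = (E0 k C τ).nm f := hover.nm
  set F := RatFunc C with hF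
  set P : F[X] := minpoly F z with hPdef
  have hint : IsIntegral F z := Algebra.IsIntegral.isIntegral z
  have hPm : P.Monic := minpoly.monic hint
  have hPz : aeval z P = 0 := minpoly.aeval F z
  choose B hB1 hB0 using hB
  have hPi : ∀ i, Ge (E0 k C τ) 0 (P.coeff i) := fun i =>
    ge_E0_iff.2 (ge_zero_of_BI ⟨B i, hB1 i, hB0 i⟩)
  have hζge : Ge (E0 k C τ) 0 (algebraMap C F ζ) := Ge.const hζ.le
  -- the shifted polynomial
  set s : K := z - algebraMap C K ζ with hs
  set P' : F[X] := taylor (algebraMap C F ζ) P with hP'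
  have hsum : s + algebraMap F K (algebraMap C F ζ) = z := by
    rw [← IsScalarTower.algebraMap_apply, hs, sub_add_cancel]
  have htay : ∀ Q : F[X], aeval s (taylor (algebraMap C F ζ) Q) = aeval z Q := by
    intro Q
    rw [taylor_apply, aeval_comp, map_add, aeval_X, aeval_C, hsum]
  have hintT : ∀ Q : F[X], (∀ i, Ge (E0 k C τ) 0 (Q.coeff i)) →
      ∀ i, Ge (E0 k C τ) 0 ((taylor (algebraMap C F ζ) Q).coeff i) := by
    intro Q hQ i
    exact taylor_ge_zero hQ hζge i
  have hP'i : ∀ i, Ge (E0 k C τ) 0 (P'.coeff i) := hintT P hPi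
  have hP'0 : aeval s P' = 0 := by rw [hP', htay, hPz]
  have hder : derivative P' = taylor (algebraMap C F ζ) (derivative P) := by
    rw [hP', taylor_apply, taylor_apply, derivative_comp]
    simp
  have hdi : ∀ i, Ge (E0 k C τ) 0 ((derivative P).coeff i) := by
    intro i
    rw [coeff_derivative]
    exact ge_zero_mul (hPi _) (ge_succ i)
  have hdne : ¬ Ge E 1 (aeval s (derivative P')) := by
    rw [hder, htay]
    exact not_ge_of_unit (E := E) hc.der hd
  have hP'1 : ¬ Ge (E0 k C τ) 1 (P'.coeff 1) := by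
    intro h1
    apply hdne
    rw [hder, aeval_ge_one_iff hover hz _ (hintT _ hdi), ← hder, coeff_derivative]
    simpa using h1
  have hP'00 : Ge (E0 k C τ) 1 (P'.coeff 0) := by
    rw [← aeval_ge_one_iff hover hz _ hP'i, hP'0]
    exact Ge.zero _
  have hP'1' := hP'1
  rw [hP', taylor_coeff_one] at hP'1
  rw [hP', taylor_coeff_zero] at hP'00
  -- the reduced polynomial
  let Pc : C[X] := ∑ i ∈ Finset.range (P.natDegree + 1),
    monomial i (PowerSeries.coeff 0 (B i : PowerSeries C))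
  have hinj := IsFractionRing.injective (BD k C) (FD k C)
  have hPc : ∀ i, Pc.coeff i = PowerSeries.coeff 0 (B i : PowerSeries C) := by
    intro i
    simp only [Pc, finsetSum_coeff, coeff_monomial]
    rw [Finset.sum_ite_eq' (Finset.range (P.natDegree + 1)) i]
    split_ifs with h
    · rfl
    · have h1 : B i = 0 := hinj (by
        rw [hB0, map_zero, coeff_eq_zero_of_natDegree_lt (by simpa using h), map_zero])
      rw [h1]
      exact (map_zero (PowerSeries.coeff 0)).symm
  have hcoef : ∀ i, Ge (E0 k C τ) 1 (P.coeff i - algebraMap C F (Pc.coeff i)) := by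
    intro i
    rw [ge_E0_iff, map_sub, AlgHom.commutes, ← hB0, hPc]
    exact ge_one_sub_coeff (hB1 i)
  have hval : ∀ (Q : F[X]) (Qc : C[X]), (∀ i, Ge (E0 k C τ) 1
      (Q.coeff i - algebraMap C F (Qc.coeff i))) →
      Ge (E0 k C τ) 1 (Q.eval (algebraMap C F ζ) - algebraMap C F (Qc.eval ζ)) := by
    intro Q Qc h
    have h1 : algebraMap C F (Qc.eval ζ) = (Qc.map (algebraMap C F)).eval (algebraMap C F ζ) := by
      rw [eval_map, eval₂_at_apply]
    rw [h1, ← eval_sub, eval_eq_sum_range]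
    refine Ge.sum _ fun i _ => ?_
    rw [coeff_sub, coeff_map, mul_comm]
    exact ge_one_mul (hζge.pow i) (h i)
  have hPc0 : ‖Pc.eval ζ‖₊ < 1 := by
    rw [← ge_one_C (E := E0 k C τ), ← ge_one_iff_of_sub (hval P Pc hcoef)]
    exact hP'00
  have hPcd : ¬ ‖(derivative Pc).eval ζ‖₊ < 1 := by
    rw [← ge_one_C (E := E0 k C τ), ← ge_one_iff_of_sub (hval (derivative P) (derivative Pc)
      (fun i => by
        rw [coeff_derivative, coeff_derivative]
        have h1 : P.coeff (i + 1) * ((i : F) + 1) -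
            algebraMap C F (Pc.coeff (i + 1) * ((i : C) + 1)) =
            ((i : F) + 1) * (P.coeff (i + 1) - algebraMap C F (Pc.coeff (i + 1))) := by
          rw [map_mul, map_add, map_natCast, map_one]; ring
        rw [h1]
        exact ge_one_mul (ge_succ i) (hcoef _)))]
    exact hP'1
  have hPcle : ∀ i, ‖Pc.coeff i‖ ≤ 1 := fun i => by rw [hPc]; exact hB1 i 0
  have hPcd1 : ‖(derivative Pc).eval ζ‖ = 1 := by
    refine le_antisymm ?_ ?_
    · rw [eval_eq_sum_range]
      refine IsUltrametricDist.norm_sum_le_of_forall_le_of_nonneg zero_le_one fun i _ => ?_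
      rw [norm_mul, norm_pow, show ‖ζ‖ = 1 from congrArg NNReal.toReal hζ, one_pow, mul_one,
        coeff_derivative, norm_mul]
      refine mul_le_one₀ (hPcle _) (norm_nonneg _) ?_
      have := IsUltrametricDist.norm_natCast_le_one C (i + 1)
      push_cast at this
      exact this
    · rw [← not_lt]
      intro h
      exact hPcd (by rw [← NNReal.coe_lt_coe, coe_nnnorm, NNReal.coe_one]; exact h)
  -- the root
  let e' : F →+* FD k C := (ex k C τ).toRingHom
  obtain ⟨b, hb1, hb2, hb3⟩ := hensel_BI (P.map e') (hPm.map _) B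
    (fun i => by rw [coeff_map]; exact hB0 i) hB1 Pc hPc ζ
    (by rw [show ‖ζ‖ = 1 from congrArg NNReal.toReal hζ])
    (by have h1 := hPc0; rw [← NNReal.coe_lt_coe, coe_nnnorm, NNReal.coe_one] at h1; exact h1)
    hPcd1
  refine ⟨hPi, hP'1', algebraMap (BD k C) (FD k C) b, ⟨b, hb1, rfl⟩, hb2, ?_⟩
  have h1 := ge_one_sub_coeff hb1
  have h2 : algebraMap (BD k C) (FD k C) b - algebraMap C (FD k C) ζ =
      (algebraMap (BD k C) (FD k C) b - algebraMap C (FD k C)
        (PowerSeries.coeff 0 (b : PowerSeries C))) + algebraMap C (FD k C)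
        (PowerSeries.coeff 0 (b : PowerSeries C) - ζ) := by
    rw [map_sub]; ring
  rw [h2]
  refine h1.add (ge_one_C.2 ?_)
  rw [← NNReal.coe_lt_coe, coe_nnnorm, NNReal.coe_one]
  exact hb3

theorem nm_of_close {β : FD k C} {ζ : C} (hβ : β ∈ BI k C)
    (hβζ : Ge (endF k C) 1 (β - algebraMap C (FD k C) ζ)) (hζ : ‖ζ‖₊ = 1) :
    (endF k C).nm β = 1 := by
  have h1 : ¬ Ge (endF k C) 1 β := by
    rw [ge_one_iff_of_sub hβζ]
    rw [ge_one_C]
    rw [hζ]
    exact lt_irrefl 1
  have h2 : Ge (endF k C) 0 β := ge_zero_of_BI hβ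
  have h3 := unit_of_ge h2 h1
  exact h3.1

/-- **the embedding at an étale point** -/
theorem exists_emb_disc [FiniteDimensional (RatFunc C) K] {w : Nm C K} {z : K}
    (hc : ChartW w z) (q : Pl (Ct C) (kap w)) {τ ζ : C} (hτ : ‖τ‖₊ ≤ 1) (hζ : ‖ζ‖₊ = 1)
    (hx : Ge (ofPl w q) 1 (algebraMap (RatFunc C) K (ux τ)))
    (hz : Ge (ofPl w q) 1 (z - algebraMap C K ζ))
    (hd : Red332.od w q (aeval z (derivative (minpoly (RatFunc C) z))) = 0)
    (hB : ∀ i, ex k C τ ((minpoly (RatFunc C) z).coeff i) ∈ BI k C) :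
    ∃ ψ : K →ₐ[C] FD k C, (∀ r, ψ (algebraMap (RatFunc C) K r) = ex k C τ r) ∧ ψ z ∈ BI k C ∧
      (∀ f, (endF k C).nm (ψ f) = w.v f) ∧
      ∀ f, f ≠ 0 → (endF k C).od (ψ f) = Red332.od w q f := by
  classical
  set E : End2 C K := ofPl w q with hE
  obtain ⟨e, hover⟩ := over_E0 (k := k) hc q hτ hx
  have hnmF : ∀ f : RatFunc C, w.v (algebraMap (RatFunc C) K f) = (E0 k C τ).nm f := hover.nm
  obtain ⟨hPi, hP'1, β, hβ, hβ0, hβζ⟩ := exists_root_disc hc q hζ hover hz hd hB
  have hβn : (endF k C).nm β = 1 := nm_of_close hβ hβζ hζ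
  set F := RatFunc C with hF
  set P : F[X] := minpoly F z with hPdef
  have hint : IsIntegral F z := Algebra.IsIntegral.isIntegral z
  have hPz : aeval z P = 0 := minpoly.aeval F z
  have hζge : Ge (E0 k C τ) 0 (algebraMap C F ζ) := Ge.const hζ.le
  set s : K := z - algebraMap C K ζ with hs
  have hsum : s + algebraMap F K (algebraMap C F ζ) = z := by
    rw [← IsScalarTower.algebraMap_apply, hs, sub_add_cancel]
  have htay : ∀ Q : F[X], aeval s (taylor (algebraMap C F ζ) Q) = aeval z Q := by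
    intro Q
    rw [taylor_apply, aeval_comp, map_add, aeval_X, aeval_C, hsum]
  -- the embedding
  letI : Algebra F (FD k C) := (ex k C τ).toRingHom.toAlgebra
  have halg : ∀ f : F, algebraMap F (FD k C) f = ex k C τ f := fun _ => rfl
  have hadj : Algebra.adjoin F {z} = ⊤ := by
    rw [← IntermediateField.adjoin_simple_toSubalgebra_of_isAlgebraic hint.isAlgebraic, hc.gen]
    rfl
  let pb := PowerBasis.ofAdjoinEqTop hint hadj
  have hgen : pb.gen = z := rfl
  have hroot : aeval β (minpoly F pb.gen) = 0 := by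
    rw [hgen, ← eval_map_algebraMap]
    exact hβ0
  let ψ0 : K →ₐ[F] FD k C := pb.lift β hroot
  have hψz : ψ0 z = β := pb.lift_gen β hroot
  have hψF : ∀ f : F, ψ0 (algebraMap F K f) = ex k C τ f := fun f => ψ0.commutes f
  have hψC : ∀ c : C, ψ0 (algebraMap C K c) = algebraMap C (FD k C) c := by
    intro c
    rw [IsScalarTower.algebraMap_apply C F K, hψF]
    exact (ex k C τ).commutes c
  let ψ : K →ₐ[C] FD k C := { ψ0.toRingHom with commutes' := hψC }
  have hψψ : ∀ f, ψ f = ψ0 f := fun _ => rfl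
  set E' : End2 C K := (endF k C).comap ψ with hE'
  have hs' : Ge E' 1 s := by
    change Ge (endF k C) 1 (ψ0 s)
    rw [hs, map_sub, hψz, hψC]
    exact hβζ
  -- the norm
  have hnm : E'.nm = w.v := by
    apply hc.uniq
    · intro f
      change (endF k C).nm (ψ0 (algebraMap F K f)) = _
      rw [hψF, hnmF]
      rfl
    · change (endF k C).nm (ψ0 z) = 1
      rw [hψz]; exact hβn
  have hnm' : ∀ f, E'.nm f = w.v f := fun f => by rw [hnm]
  have hover' : Over (E0 k C τ) E' 1 := by
    refine ⟨le_rfl, fun f => ?_, fun f hf => ?_⟩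
    · rw [hnm']; exact hnmF f
    · change (endF k C).od (ψ0 (algebraMap F K f)) = _
      rw [hψF, Nat.cast_one, one_mul]
      rfl
  have hod := od_eq_aux (E0 := E0 k C τ) (E := E) (E' := E') hover hover' hnm' (E0_ux τ).1
    (E0_ux τ).2 (od_surj q 1) (s := s) hz hs'
    (taylor (algebraMap C F ζ) P) (taylor_ge_zero hPi hζge) (by rw [htay, hPz]) hP'1
    (fun y hy => by
      obtain ⟨Q, h1, h2⟩ := hc.app y hy
      refine ⟨taylor (algebraMap C F ζ) Q, fun n => ?_, ?_⟩
      · exact taylor_nm_le (fun i => by rw [← hnmF]; exact h1 i) hζge.le_one n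
      · rw [htay]; exact h2)
  refine ⟨ψ, hψF, ?_, hnm', hod⟩
  rw [hψψ, hψz]
  exact hβ

end Chart

end Crest.Agent.R013.Dir_408
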