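import Crest.Agent.R013.Dir2_83

/-!
# R013 / Dir3 (helper83): rational functions as quotients of integral polynomials.
-/

set_option autoImplicit false
set_option linter.unusedSectionVars false
set_option linter.style.haveILetI false
set_option linter.unusedSimpArgs false

noncomputable section

namespace Crest.Agent.R013.Dir_83

open Crest.Agent.R013.Cell_408 Crest.Agent.R013.Red332 Polynomial
open scoped NNReal

local notation "PC" => Polynomial.C

section Rt

variable {C : Type*} [NormedField C] [IsUltrametricDist C]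

variable (C) in
/-- integral polynomials as rational functions -/
def rt : (Ob C)[X] →+* RatFunc C :=
  (algebraMap C[X] (RatFunc C)).comp (mapRingHom (Ob C).subtype)

theorem rt_apply (f : (Ob C)[X]) :
    rt C f = algebraMap C[X] (RatFunc C) (f.map (Ob C).subtype) := rfl

theorem rt_injective : Function.Injective (rt C) := by
  intro a b h
  rw [rt_apply, rt_apply] at h
  exact Polynomial.map_injective _ Subtype.val_injective (RatFunc.algebraMap_injective C h)

theorem rt_mul (a b : (Ob C)[X]) : rt C (a * b) = rt C a * rt C b := map_mul (rt C) a b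

theorem rt_X : rt C X = RatFunc.X := by
  rw [rt_apply, Polynomial.map_X, RatFunc.algebraMap_X]

theorem rt_C (a : Ob C) : rt C (PC a) = algebraMap C (RatFunc C) (a : C) := by
  rw [rt_apply, Polynomial.map_C]
  exact RatFunc.algebraMap_C (a : C)

/-- a polynomial with coefficients of norm at most one is integral -/
theorem exists_lift_poly {p : C[X]} (hp : ∀ n, ‖p.coeff n‖₊ ≤ 1) :
    ∃ f : (Ob C)[X], f.map (Ob C).subtype = p := by
  have hl : p ∈ Polynomial.lifts (Ob C).subtype := by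
    rw [Polynomial.lifts_iff_coeff_lifts]
    intro n
    exact ⟨⟨p.coeff n, hp n⟩, rfl⟩
  exact hl

end Rt

section K

variable {C K : Type*} [NormedField C] [IsUltrametricDist C] [Field K] [Algebra C K]

/-- `ev1` through rational functions -/
theorem ev1_eq (φ : RatFunc C →ₐ[C] K) (f : (Ob C)[X]) : φ (rt C f) = ev1 C (φ RatFunc.X) f := by
  have h : (φ : RatFunc C →+* K).comp (rt C) = ev1 C (φ RatFunc.X) := by
    apply Polynomial.ringHom_ext
    · intro a
      rw [ev1_C]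
      show φ (rt C (PC a)) = _
      rw [rt_C, AlgHom.commutes]
      rfl
    · rw [ev1_X]
      show φ (rt C X) = _
      rw [rt_X]
  exact RingHom.congr_fun h f

theorem ev1_eq_aeval (t : K) (f : (Ob C)[X]) : ev1 C t f = aeval t (f.map (Ob C).subtype) := by
  have h : ev1 C t = (aeval (R := C) t : C[X] →ₐ[C] K).toRingHom.comp (mapRingHom (Ob C).subtype) := by
    apply Polynomial.ringHom_ext
    · intro a
      rw [ev1_C]
      show _ = aeval t ((PC a).map (Ob C).subtype)
      rw [Polynomial.map_C, aeval_C]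
      rfl
    · rw [ev1_X]
      show _ = aeval t ((X : (Ob C)[X]).map (Ob C).subtype)
      rw [Polynomial.map_X, aeval_X]
  exact RingHom.congr_fun h f

/-- `ev2` through polynomials over the field of rational functions -/
theorem ev2_eq (φ : RatFunc C →ₐ[C] K) (z : K) (H : (Ob C)[X][X]) :
    ev2 C (φ RatFunc.X) z H = (H.map (rt C)).eval₂ (φ : RatFunc C →+* K) z := by
  have h : ev2 C (φ RatFunc.X) z =
      (eval₂RingHom (φ : RatFunc C →+* K) z).comp (mapRingHom (rt C)) := by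
    apply Polynomial.ringHom_ext
    · intro a
      rw [ev2_C, ← ev1_eq]
      show _ = ((PC a).map (rt C)).eval₂ (φ : RatFunc C →+* K) z
      rw [Polynomial.map_C, eval₂_C]
      rfl
    · rw [ev2_X]
      show _ = ((X : (Ob C)[X][X]).map (rt C)).eval₂ (φ : RatFunc C →+* K) z
      rw [Polynomial.map_X, eval₂_X]
  exact RingHom.congr_fun h H

/-- Gauss property of a norm at `t` -/
def Gauss (v : Valuation K ℝ≥0) (t : K) : Prop :=
  ∀ p : C[X], (∀ n, ‖p.coeff n‖₊ ≤ 1) → (∃ n, ‖p.coeff n‖₊ = 1) → v (aeval t p) = 1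

theorem exists_max_coeff {p : C[X]} (hp : p ≠ 0) : ∃ c : C, c ≠ 0 ∧
    (∀ n, ‖(PC c⁻¹ * p).coeff n‖₊ ≤ 1) ∧ ∃ n, ‖(PC c⁻¹ * p).coeff n‖₊ = 1 := by
  obtain ⟨m, hm, hmax⟩ := Finset.exists_max_image p.support (fun n => ‖p.coeff n‖₊)
    (Polynomial.nonempty_support_iff.2 hp)
  have hc : p.coeff m ≠ 0 := Polynomial.mem_support_iff.1 hm
  have hn : ‖p.coeff m‖₊ ≠ 0 := nnnorm_ne_zero_iff.2 hc
  refine ⟨p.coeff m, hc, fun n => ?_, m, ?_⟩
  · rw [coeff_C_mul, nnnorm_mul, nnnorm_inv]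
    by_cases hn0 : n ∈ p.support
    · rw [inv_mul_le_iff₀ (pos_iff_ne_zero.2 hn), mul_one]
      exact hmax n hn0
    · rw [Polynomial.notMem_support_iff.1 hn0, nnnorm_zero, mul_zero]
      exact zero_le_one
  · rw [coeff_C_mul, nnnorm_mul, nnnorm_inv, inv_mul_cancel₀ hn]

variable {v : Valuation K ℝ≥0} {t : K}

theorem Gauss.exists_eq (hg : Gauss (C := C) v t) (hC : ∀ c : C, v (algebraMap C K c) = ‖c‖₊)
    {p : C[X]} (hp : p ≠ 0) : ∃ c : C, c ≠ 0 ∧ v (aeval t p) = ‖c‖₊ ∧
      (∀ n, ‖(PC c⁻¹ * p).coeff n‖₊ ≤ 1) ∧ ∃ n, ‖(PC c⁻¹ * p).coeff n‖₊ = 1 := by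
  obtain ⟨c, hc, h1, h2⟩ := exists_max_coeff hp
  refine ⟨c, hc, ?_, h1, h2⟩
  have h3 := hg _ h1 h2
  rw [map_mul, aeval_C, map_mul, hC, nnnorm_inv,
    inv_mul_eq_one₀ (nnnorm_ne_zero_iff.2 hc)] at h3
  exact h3.symm

/-- a function of norm at most one is a quotient of integral polynomials with denominator of norm
one -/
theorem Gauss.exists_frac (hC : ∀ c : C, v (algebraMap C K c) = ‖c‖₊) (φ : RatFunc C →ₐ[C] K)
    (hg : Gauss (C := C) v (φ RatFunc.X)) (f : RatFunc C) (hf : v (φ f) ≤ 1) :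
    ∃ A D : (Ob C)[X], v (ev1 C (φ RatFunc.X) D) = 1 ∧ f * rt C D = rt C A := by
  set t := φ RatFunc.X with ht
  obtain ⟨c, hc, h1, h2, h3⟩ := hg.exists_eq hC f.denom_ne_zero
  obtain ⟨D, hD⟩ := exists_lift_poly h2
  have hphi : ∀ p : C[X], φ (algebraMap C[X] (RatFunc C) p) = aeval t p := by
    intro p
    have h : (φ.comp (IsScalarTower.toAlgHom C C[X] (RatFunc C))) = aeval t := by
      apply Polynomial.algHom_ext
      simp [ht]
    exact congrArg (fun f => f p) h
  have hDn : v (ev1 C t D) = 1 := by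
    rw [ev1_eq_aeval, hD]; exact hg _ h2 h3
  have hcoef : ∀ n, ‖(PC c⁻¹ * f.num).coeff n‖₊ ≤ 1 := by
    by_cases hn0 : f.num = 0
    · intro n; rw [hn0, mul_zero, coeff_zero, nnnorm_zero]; exact zero_le_one
    · obtain ⟨d, hd, e1, e2, e3⟩ := hg.exists_eq hC hn0
      have h4 : v (φ f) = ‖d‖₊ / ‖c‖₊ := by
        conv_lhs => rw [← RatFunc.num_div_denom f]
        rw [map_div₀, map_div₀, hphi, hphi, e1, h1]
      rw [h4] at hf
      have hc' : ‖c‖₊ ≠ 0 := nnnorm_ne_zero_iff.2 hc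
      have hd' : ‖d‖₊ ≠ 0 := nnnorm_ne_zero_iff.2 hd
      have h5 : ‖d‖₊ ≤ ‖c‖₊ := by
        rwa [div_le_one₀ (pos_iff_ne_zero.2 hc')] at hf
      intro n
      have h6 := e2 n
      rw [coeff_C_mul, nnnorm_mul, nnnorm_inv, inv_mul_le_iff₀ (pos_iff_ne_zero.2 hd'), mul_one] at h6
      rw [coeff_C_mul, nnnorm_mul, nnnorm_inv, inv_mul_le_iff₀ (pos_iff_ne_zero.2 hc'), mul_one]
      exact h6.trans h5
  obtain ⟨A, hA⟩ := exists_lift_poly hcoef
  refine ⟨A, D, hDn, ?_⟩
  rw [rt_apply, rt_apply, hA, hD, map_mul, map_mul]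
  have hd0 : algebraMap C[X] (RatFunc C) f.denom ≠ 0 := by
    rw [Ne, FaithfulSMul.algebraMap_eq_zero_iff]; exact f.denom_ne_zero
  have h6 := (div_eq_iff hd0).1 (RatFunc.num_div_denom f)
  rw [h6]; ring

/-- common denominators -/
theorem Gauss.exists_common (hC : ∀ c : C, v (algebraMap C K c) = ‖c‖₊) (φ : RatFunc C →ₐ[C] K)
    (hg : Gauss (C := C) v (φ RatFunc.X)) {ι : Type*} (s : Finset ι) (f : ι → RatFunc C)
    (hf : ∀ i ∈ s, v (φ (f i)) ≤ 1) :
    ∃ (D : (Ob C)[X]) (A : ι → (Ob C)[X]), v (ev1 C (φ RatFunc.X) D) = 1 ∧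
      ∀ i ∈ s, f i * rt C D = rt C (A i) := by
  classical
  induction s using Finset.induction_on with
  | empty =>
    refine ⟨1, fun _ => 0, by rw [map_one, map_one], fun i hi => absurd hi (Finset.notMem_empty i)⟩
  | insert a s ha ih =>
    obtain ⟨D, A, h1, h2⟩ := ih fun i hi => hf i (Finset.mem_insert_of_mem hi)
    obtain ⟨A', D', h3, h4⟩ := Gauss.exists_frac hC φ hg (f a) (hf a (Finset.mem_insert_self a s))
    refine ⟨D * D', fun i => if i = a then A' * D else A i * D', ?_, fun i hi => ?_⟩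
    · rw [map_mul, map_mul, h1, h3, one_mul]
    · dsimp only
      by_cases hia : i = a
      · subst hia
        rw [if_pos rfl, rt_mul, rt_mul, ← h4]; ring
      · rw [if_neg hia, rt_mul, rt_mul, ← h2 i ((Finset.mem_insert.1 hi).resolve_left hia)]; ring

/-- clearing denominators in a polynomial -/
theorem Gauss.exists_clear (hC : ∀ c : C, v (algebraMap C K c) = ‖c‖₊) (φ : RatFunc C →ₐ[C] K)
    (hg : Gauss (C := C) v (φ RatFunc.X)) (Q : (RatFunc C)[X]) (hQ : ∀ n, v (φ (Q.coeff n)) ≤ 1) :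
    ∃ (D : (Ob C)[X]) (H : (Ob C)[X][X]), v (ev1 C (φ RatFunc.X) D) = 1 ∧
      H.map (rt C) = PC (rt C D) * Q := by
  classical
  obtain ⟨D, A, h1, h2⟩ := Gauss.exists_common hC φ hg (Finset.range (Q.natDegree + 1))
    (fun n => Q.coeff n) (fun n _ => hQ n)
  refine ⟨D, ∑ n ∈ Finset.range (Q.natDegree + 1), monomial n (A n), h1, ?_⟩
  ext n
  rw [coeff_map, coeff_C_mul, finsetSum_coeff]
  simp only [coeff_monomial]
  rw [Finset.sum_ite_eq']
  split_ifs with h
  · rw [← h2 n h, mul_comm]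
  · rw [map_zero, coeff_eq_zero_of_natDegree_lt (by simpa using h), mul_zero]

theorem Gauss.ev1_ne_zero {t : K} {D : (Ob C)[X]} (h : v (ev1 C t D) = 1) : D ≠ 0 := by
  rintro rfl
  rw [map_zero, map_zero] at h
  exact zero_ne_one h

end K

end Crest.Agent.R013.Dir_83
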