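import Crest.Agent.R013.Dir3_408
import Crest.Agent.R013.Red12_332

/-!
# SS-DIR, file 4: almost all places are good
-/

set_option autoImplicit false
set_option linter.unusedSectionVars false
set_option linter.style.haveILetI false

noncomputable section

namespace Crest.Agent.R013.Dir_408

open Polynomial WithZero
open Crest.Agent.R013.Red332 Crest.Agent.R013.EE809
open Crest.Agent.R013.Cell_408 Crest.Agent.R013.Comp_267 Crest.Agent.R013.Good_408
open Crest.Agent.R013.RR7_948 Crest.Agent.R013.RR8_948 Crest.Agent.R013.RR9_948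
open Crest.Agent.R013.RR11_948 Crest.Agent.R013.RR12_948
open scoped NNReal

section Finite

variable {C : Type*} [NormedField C] [IsUltrametricDist C] [IsAlgClosed C]
variable {K : Type*} [Field K] [Algebra C K] {w : Nm C K}

/-- an element of norm one has order zero at almost all places -/
theorem finite_od (hff : FF w) {g : K} (hg : w.v g = 1) :
    ∃ S : Finset (Pl (Ct C) (kap w)), ∀ q ∉ S, Red332.od w q g = 0 := by
  classical
  obtain ⟨i1, i2, i3, i4⟩ := hff
  refine ⟨(divf (k := Ct C) (red w g)).support, fun q hq => ?_⟩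
  have h2 := v_eq (k := Ct C) (red_ne_zero w hg) q
  rw [v_red_of_one q hg, exp_inj] at h2
  rw [Finsupp.notMem_support_iff.1 hq] at h2
  omega

/-- finitely many elements of norm one -/
theorem finite_od' (hff : FF w) {I : Type*} (s : Finset I) (g : I → K)
    (hg : ∀ i ∈ s, w.v (g i) = 1) :
    ∃ S : Finset (Pl (Ct C) (kap w)), ∀ q ∉ S, ∀ i ∈ s, Red332.od w q (g i) = 0 := by
  classical
  induction s using Finset.induction_on with
  | empty => exact ⟨∅, fun q _ i hi => absurd hi (Finset.notMem_empty i)⟩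
  | insert a s ha ih =>
    obtain ⟨S, hS⟩ := ih fun i hi => hg i (Finset.mem_insert_of_mem hi)
    obtain ⟨T, hT⟩ := finite_od hff (hg a (Finset.mem_insert_self _ _))
    refine ⟨S ∪ T, fun q hq i hi => ?_⟩
    rw [Finset.mem_union, not_or] at hq
    rcases Finset.mem_insert.1 hi with rfl | hi
    · exact hT q hq.2
    · exact hS q hq.1 i hi

/-- residues are constants -/
theorem exists_res (hff : FF w) (q : Pl (Ct C) (kap w)) {f : K} (h : Ge (ofPl w q) 0 f) :
    ∃ c : C, ‖c‖₊ ≤ 1 ∧ Ge (ofPl w q) 1 (f - algebraMap C K c) := by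
  obtain ⟨i1, i2, i3, i4⟩ := hff
  rcases h with h | ⟨h, h'⟩
  · exact ⟨0, by simp, by rw [map_zero, sub_zero]; exact Or.inl h⟩
  · have h1 : w.v f = 1 := h
    have h2 : q.v (red w f) ≤ 1 := by
      rw [v_red_of_one q h1, ← exp_zero, exp_le_exp]
      have : 0 ≤ Red332.od w q f := h'
      omega
    obtain ⟨c', hc'⟩ := GR2_921.exists_const (k := Ct C) (K := kap w) q h2
    obtain ⟨c, hc, rfl⟩ := rc_surj c'
    refine ⟨c, hc, ?_⟩
    have hcn : w.v (algebraMap C K c) ≤ 1 := by rw [w.hC]; exact hc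
    have h3 : w.v (f - algebraMap C K c) ≤ 1 := (w.v.map_sub _ _).trans (max_le h1.le hcn)
    rcases h3.lt_or_eq with h4 | h4
    · exact Or.inl h4
    · right
      refine ⟨h4, ?_⟩
      have h5 : red w (f - algebraMap C K c) = red w f - algebraMap (Ct C) (kap w) (rc c) := by
        rw [red_sub w h1.le hcn, red_C w c hc]
      rw [← h5, v_red_of_one q h4, ← exp_zero, exp_lt_exp] at hc'
      change 1 ≤ Red332.od w q _
      omega

end Finite

section Fin

variable {k C : Type*} [NontriviallyNormedField k] [CompleteSpace k] [IsUltrametricDist k]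
  [NormedField C] [IsUltrametricDist C] [NormedAlgebra k C] [Algebra.IsAlgebraic k C]
  [IsAlgClosed C] [hk : Fact (DiscNorm k)]
variable {K : Type*} [Field K] [Algebra C K] [Algebra (RatFunc C) K]
  [IsScalarTower C (RatFunc C) K]

theorem ux_zero : algebraMap (RatFunc C) K (ux (0 : C)) = algebraMap (RatFunc C) K RatFunc.X := by
  rw [ux, map_zero, sub_zero]

/-- polynomials with coefficients of norm at most one in `BI` -/
theorem ex_poly_mem {τ : C} (hτ : ‖τ‖₊ ≤ 1) {a : C[X]} (ha : ∀ i, ‖a.coeff i‖₊ ≤ 1) :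
    ex k C τ (algebraMap C[X] (RatFunc C) a) ∈ BI k C := by
  have h1 : ex k C τ (algebraMap C[X] (RatFunc C) a) = aeval (dy k C τ) a :=
    ratHom_algebraMap _ _ _
  have h2 : dy k C τ ∈ BI k C := add_mem (C_mem_BI hτ) TF_mem_BI
  rw [h1, aeval_eq_sum_range]
  refine sum_mem fun i _ => ?_
  rw [Algebra.smul_def]
  exact mul_mem (C_mem_BI (ha i)) (pow_mem h2 i)

/-- a rational function of norm at most one as a quotient with denominator of Gauss norm one -/
theorem exists_quot (w : Nm C K) (htr : ∀ c : C, ‖c‖₊ ≤ 1 →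
    w.v (algebraMap (RatFunc C) K (ux c)) = 1) (r : RatFunc C)
    (hr : w.v (algebraMap (RatFunc C) K r) ≤ 1) :
    ∃ a b : C[X], (∀ i, ‖a.coeff i‖₊ ≤ 1) ∧ (∀ i, ‖b.coeff i‖₊ ≤ 1) ∧
      w.v (algebraMap (RatFunc C) K (algebraMap C[X] (RatFunc C) b)) = 1 ∧
      r = algebraMap C[X] (RatFunc C) a / algebraMap C[X] (RatFunc C) b := by
  classical
  set x : K := algebraMap (RatFunc C) K RatFunc.X with hx
  have hx1 : w.v x = 1 := by
    have := htr 0 (by simp)
    rwa [ux_zero] at this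
  have htrans : Transcendental (Ct C) (red w x) := by
    refine transcendental_red w hx1.le fun c => ?_
    rcases le_or_gt ‖c‖₊ 1 with h | h
    · have := htr c h
      rw [ux, map_sub, ← IsScalarTower.algebraMap_apply] at this
      exact this.ge
    · have h1 : w.v x < w.v (algebraMap C K c) := by rw [hx1, w.hC]; exact h
      rw [Valuation.map_sub_swap, Valuation.map_sub_eq_of_lt_left _ h1, w.hC]
      exact h.le
  have hal : ∀ p : C[X], algebraMap (RatFunc C) K (algebraMap C[X] (RatFunc C) p) =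
      aeval x p := by
    intro p
    rw [← aeval_ratFunc_X, hx, aeval_algebraMap_apply]
  -- Gauss norm
  have gauss : ∀ p : C[X], (∀ i, ‖p.coeff i‖₊ ≤ 1) → (∃ i, ‖p.coeff i‖₊ = 1) →
      w.v (aeval x p) = 1 := by
    intro p hp ⟨m, hm⟩
    let c : (Ct C)[X] := ∑ m ∈ p.support, monomial m (rc (p.coeff m))
    have hc : ∀ m, rc (p.coeff m) = c.coeff m := by
      intro m
      simp only [c, finsetSum_coeff, coeff_monomial]
      rw [Finset.sum_ite_eq' p.support m]
      split_ifs with h1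
      · rfl
      · rw [notMem_support_iff.1 h1, rc_zero]
    have h4 := red_aeval w hx1.le p hp c hc
    have hc0 : c ≠ 0 := by
      intro h0
      have h5 := hc m
      rw [h0, coeff_zero, rc_eq_zero_iff (hp m), hm] at h5
      exact lt_irrefl _ h5
    have h5 : red w (aeval x p) ≠ 0 := by
      rw [h4]
      intro h0
      exact htrans ⟨c, hc0, h0⟩
    exact (red_ne_zero_iff w (nm_aeval_le w hx1.le p hp)).1 h5
  by_cases hr0 : r = 0
  · exact ⟨0, 1, fun i => by simp, fun i => by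
      rw [coeff_one]; split_ifs <;> simp, by rw [map_one, map_one, map_one], by
      rw [hr0, map_zero, zero_div]⟩
  have hn : r.num ≠ 0 := fun h => hr0 (RatFunc.num_eq_zero_iff.1 h)
  obtain ⟨α, a, m, hα, ha1, ha2, ha3⟩ := exists_scaled r.num hn
  obtain ⟨β, b, m', hβ, hb1, hb2, hb3⟩ := exists_scaled r.denom r.denom_ne_zero
  have hga := gauss a ha2 ⟨m, ha3⟩
  have hgb := gauss b hb2 ⟨m', hb3⟩
  have hrab : r = algebraMap C[X] (RatFunc C) (Polynomial.C (α / β) * a) /
      algebraMap C[X] (RatFunc C) b := by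
    conv_lhs => rw [← RatFunc.num_div_denom r, ha1, hb1]
    have hb0 : algebraMap C[X] (RatFunc C) b ≠ 0 := by
      refine RatFunc.algebraMap_ne_zero ?_
      rintro rfl
      rw [coeff_zero, nnnorm_zero] at hb3
      exact zero_ne_one hb3
    have hβ0 : algebraMap C[X] (RatFunc C) (Polynomial.C β) ≠ 0 :=
      RatFunc.algebraMap_ne_zero (Polynomial.C_ne_zero.2 hβ)
    have e : (Polynomial.C α : C[X]) = Polynomial.C (α / β) * Polynomial.C β := by
      rw [← Polynomial.C_mul, div_mul_cancel₀ _ hβ]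
    rw [map_mul, map_mul, e, map_mul, map_mul]
    field_simp
  have hq : ‖α / β‖₊ ≤ 1 := by
    rw [hrab, map_div₀, map_div₀, hal, hal, hgb, div_one, map_mul, map_mul, aeval_C, w.hC, hga,
      mul_one] at hr
    exact hr
  refine ⟨Polynomial.C (α / β) * a, b, fun i => ?_, hb2, by rw [hal]; exact hgb, hrab⟩
  rw [coeff_C_mul, nnnorm_mul]
  exact mul_le_one' hq (ha2 i)

/-- the expansion of a rational function is integral if the denominator has order zero -/
theorem ex_mem_of {τ : C} (hτ : ‖τ‖₊ ≤ 1) {a b : C[X]} (ha : ∀ i, ‖a.coeff i‖₊ ≤ 1)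
    (hb : ∀ i, ‖b.coeff i‖₊ ≤ 1)
    (hb1 : ¬ Ge (E0 k C τ) 1 (algebraMap C[X] (RatFunc C) b)) :
    ex k C τ (algebraMap C[X] (RatFunc C) a / algebraMap C[X] (RatFunc C) b) ∈ BI k C := by
  obtain ⟨b', h1, h2⟩ := ex_poly_mem (k := k) hτ hb
  rw [ge_E0_iff, ← h2] at hb1
  have h3 : ‖PowerSeries.coeff 0 (b' : PowerSeries C)‖ = 1 := by
    refine le_antisymm (h1 0) ?_
    by_contra h
    exact hb1 (ge_one_of_BI h1 (not_le.1 h))
  rw [map_div₀, ← h2, div_eq_mul_inv]
  exact mul_mem (ex_poly_mem hτ ha) (inv_mem_BI h1 h3)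

/-- **almost all places are good** -/
theorem almost_all [FiniteDimensional (RatFunc C) K] {w : Nm C K} (hff : FF w) {z : K}
    (hc : ChartW w z) (f0 : K) (hf0 : w.v f0 ≤ 1) :
    ∃ S : Finset (Pl (Ct C) (kap w)), ∀ q ∉ S,
      ∃ ψ : K →ₐ[C] FD k C, (∀ f, (endF k C).nm (ψ f) = w.v f) ∧
        (∀ f, f ≠ 0 → (endF k C).od (ψ f) = Red332.od w q f) ∧ ψ f0 ∈ BI k C := by
  classical
  have hx1 : w.v (algebraMap (RatFunc C) K RatFunc.X) = 1 := by
    have := hc.tr 0 (by simp)
    rwa [ux_zero] at this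
  set P := minpoly (RatFunc C) z with hP
  choose a b ha hb hb1 hab using fun i => exists_quot w hc.tr (P.coeff i) (hc.int i)
  -- expression of `f0`
  have hint : IsIntegral (RatFunc C) z := Algebra.IsIntegral.isIntegral z
  have hadj : Algebra.adjoin (RatFunc C) {z} = ⊤ := by
    rw [← IntermediateField.adjoin_simple_toSubalgebra_of_isAlgebraic hint.isAlgebraic, hc.gen]
    rfl
  have hf : f0 ∈ Algebra.adjoin (RatFunc C) {z} := by rw [hadj]; trivial
  rw [Algebra.adjoin_singleton_eq_range_aeval] at hf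
  obtain ⟨Q, hQ⟩ := hf
  have hQ' : aeval z Q = f0 := hQ
  -- scaling of the coefficients of `Q`
  have hsc : ∀ i, ∃ c : C, c ≠ 0 ∧
      w.v (algebraMap (RatFunc C) K (algebraMap C (RatFunc C) c * Q.coeff i)) ≤ 1 := by
    intro i
    by_cases h0 : Q.coeff i = 0
    · exact ⟨1, one_ne_zero, by rw [h0, mul_zero, map_zero, map_zero]; exact zero_le_one⟩
    · obtain ⟨c, hc0, hc1⟩ := exists_C w (algebraMap (RatFunc C) K (Q.coeff i))
        ((_root_.map_ne_zero _).2 h0)
      refine ⟨c⁻¹, inv_ne_zero hc0, ?_⟩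
      rw [map_mul, ← IsScalarTower.algebraMap_apply, mul_comm, map_inv₀]
      exact hc1.le
  choose c hc0 hc1 using hsc
  choose a' b' ha' hb' hb1' hab' using fun i =>
    exists_quot w hc.tr (algebraMap C (RatFunc C) (c i) * Q.coeff i) (hc1 i)
  -- the finite set
  obtain ⟨S1, hS1⟩ := finite_od hff hx1
  obtain ⟨S2, hS2⟩ := finite_od hff hc.z1
  obtain ⟨S3, hS3⟩ := finite_od hff hc.der
  obtain ⟨S4, hS4⟩ := finite_od' hff (Finset.range (P.natDegree + 1))
    (fun i => algebraMap (RatFunc C) K (algebraMap C[X] (RatFunc C) (b i))) (fun i _ => hb1 i)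
  obtain ⟨S5, hS5⟩ := finite_od' hff (Finset.range (Q.natDegree + 1))
    (fun i => algebraMap (RatFunc C) K (algebraMap C[X] (RatFunc C) (b' i))) (fun i _ => hb1' i)
  refine ⟨S1 ∪ S2 ∪ S3 ∪ S4 ∪ S5, fun q hq => ?_⟩
  simp only [Finset.mem_union, not_or] at hq
  obtain ⟨⟨⟨⟨q1, q2⟩, q3⟩, q4⟩, q5⟩ := hq
  -- the residues
  obtain ⟨τ, hτ, hxτ⟩ := exists_res hff q (f := algebraMap (RatFunc C) K RatFunc.X)
    (Or.inr ⟨hx1, (hS1 q q1).ge⟩)
  have hx : Ge (ofPl w q) 1 (algebraMap (RatFunc C) K (ux τ)) := by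
    rw [ux, map_sub, ← IsScalarTower.algebraMap_apply]
    exact hxτ
  obtain ⟨ζ, hζ, hz⟩ := exists_res hff q (f := z) (Or.inr ⟨hc.z1, (hS2 q q2).ge⟩)
  have hζ1 : ‖ζ‖₊ = 1 := by
    refine le_antisymm hζ ?_
    by_contra h
    have h1 : Ge (ofPl w q) 1 z := by
      rw [ge_one_iff_of_sub hz]
      exact ge_one_C.2 (not_le.1 h)
    exact not_ge_of_unit (E := ofPl w q) hc.z1 (hS2 q q2) h1
  obtain ⟨e, hover⟩ := over_E0 (k := k) hc q hτ hx
  have hmem : ∀ (r : RatFunc C) (a b : C[X]), (∀ i, ‖a.coeff i‖₊ ≤ 1) → (∀ i, ‖b.coeff i‖₊ ≤ 1) →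
      w.v (algebraMap (RatFunc C) K (algebraMap C[X] (RatFunc C) b)) = 1 →
      Red332.od w q (algebraMap (RatFunc C) K (algebraMap C[X] (RatFunc C) b)) = 0 →
      r = algebraMap C[X] (RatFunc C) a / algebraMap C[X] (RatFunc C) b →
      ex k C τ r ∈ BI k C := by
    intro r a b ha hb hb1 hb2 hr
    rw [hr]
    refine ex_mem_of hτ ha hb ?_
    rw [← over_ge_one_iff hover]
    exact not_ge_of_unit (E := ofPl w q) hb1 hb2
  have hB : ∀ i, ex k C τ (P.coeff i) ∈ BI k C := by
    intro i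
    by_cases hi : i ∈ Finset.range (P.natDegree + 1)
    · exact hmem _ _ _ (ha i) (hb i) (hb1 i) (hS4 q q4 i hi) (hab i)
    · rw [coeff_eq_zero_of_natDegree_lt (by simpa using hi), map_zero]
      exact zero_mem _
  obtain ⟨ψ, h1, h2, h3, h4⟩ := exists_emb_disc hc q hτ hζ1 hx hz (hS3 q q3) hB
  refine ⟨ψ, h3, h4, ?_⟩
  -- `f0` is a bounded series
  obtain ⟨B, hB'⟩ : ∃ B : BD k C, algebraMap (BD k C) (FD k C) B = ψ f0 := by
    have h5 : ψ f0 = ∑ i ∈ Finset.range (Q.natDegree + 1),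
        ex k C τ (Q.coeff i) * ψ z ^ i := by
      rw [← hQ', aeval_eq_sum_range, map_sum]
      refine Finset.sum_congr rfl fun i _ => ?_
      rw [Algebra.smul_def, map_mul, map_pow, h1]
    have h6 : ψ f0 ∈ (algebraMap (BD k C) (FD k C)).range := by
      rw [h5]
      refine sum_mem fun i hi => mul_mem ?_ (pow_mem ?_ i)
      · obtain ⟨b0, -, hb0⟩ := hmem _ _ _ (ha' i) (hb' i) (hb1' i) (hS5 q q5 i hi) (hab' i)
        rw [map_mul, AlgHom.commutes] at hb0
        refine ⟨algebraMap C (BD k C) (c i)⁻¹ * b0, ?_⟩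
        rw [map_mul, hb0, ← IsScalarTower.algebraMap_apply, ← mul_assoc, ← map_mul,
          inv_mul_cancel₀ (hc0 i), map_one, one_mul]
      · obtain ⟨b0, -, hb0⟩ := h2
        exact ⟨b0, hb0⟩
    exact h6
  refine ⟨B, fun n => ?_, hB'⟩
  have h5 : (endF k C).nm (ψ f0) ≤ 1 := by rw [h3]; exact hf0
  rw [← hB', endF_nm, toEE_algebraMap] at h5
  have h6 : gn (ofBD B : EE k C) ≤ 1 := gv_le_one.1 h5
  have h7 := le_gn (ofBD B : EE k C) (n : ℤ)
  rw [co_ofBD_nat] at h7
  exact h7.trans h6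

end Fin

end Crest.Agent.R013.Dir_408
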