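import Crest.Agent.R013.Red1_332
import Crest.Agent.R013.RR12_948
import Crest.Agent.R013.LiftA_168

/-!
# DIR-Z: elements with prescribed norms and orders at finitely many ends of type 2 norms
-/

set_option autoImplicit false
set_option linter.unusedSectionVars false

noncomputable section

namespace Crest.Agent.R013.Good_408

open Module WithZero
open Crest.Agent.R013.RR7_948 Crest.Agent.R013.Red332 Crest.Agent.R013.RR12_948
open scoped NNReal

variable {C : Type*} [NormedField C] [IsUltrametricDist C] {K : Type*} [Field K] [Algebra C K]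

/-- an element with prescribed order at one end of a norm, and of norm `≤ 1`, large order
at finitely many other ends -/
theorem exists_end_elt {I : Type*} [Finite I] (w : I → Nm C K)
    (ff : ∀ i, ∃ _ : Algebra (RatFunc (Ct C)) (kap (w i)),
      IsScalarTower (Ct C) (RatFunc (Ct C)) (kap (w i)) ∧
      FiniteDimensional (RatFunc (Ct C)) (kap (w i)) ∧
      Algebra.IsSeparable (RatFunc (Ct C)) (kap (w i)))
    (approx : ∀ a : I → K, ∃ y : K, ∀ i, (w i).v (y - a i) < 1)
    (s : Finset (Σ i, Pl (Ct C) (kap (w i)))) (t0 : Σ i, Pl (Ct C) (kap (w i))) (l N : ℤ) :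
    ∃ z : K, (w t0.1).v z = 1 ∧ Red332.od (w t0.1) t0.2 z = l ∧
      ∀ t ∈ s, t ≠ t0 → (w t.1).v z < 1 ∨
        ((w t.1).v z = 1 ∧ N ≤ Red332.od (w t.1) t.2 z) := by
  classical
  obtain ⟨i0, P0⟩ := t0
  obtain ⟨h1, h2, h3, h4⟩ := ff i0
  let S : Finset (Pl (Ct C) (kap (w i0))) :=
    insert P0 (s.preimage (fun P => (⟨i0, P⟩ : Σ i, Pl (Ct C) (kap (w i))))
      (Function.Injective.injOn fun P Q h => by
        have := congrArg (fun t : (Σ i, Pl (Ct C) (kap (w i))) => t) h
        exact eq_of_heq (Sigma.mk.inj_iff.1 this).2))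
  obtain ⟨g, hg0, hg⟩ := exists_prescribed (k := Ct C) (K := kap (w i0)) S
    (fun P => if P = P0 then -l else -N)
  obtain ⟨f, hf1, hf⟩ := red_surj (w i0) g
  have hf1' : (w i0).v f = 1 := (red_ne_zero_iff (w i0) hf1).1 (by rw [hf]; exact hg0)
  obtain ⟨z, hz⟩ := approx (fun i => if i = i0 then f else 0)
  have hz0 : (w i0).v (z - f) < 1 := by
    have := hz i0
    rwa [if_pos rfl] at this
  have hz1 : (w i0).v z = 1 := by
    have e : z = f + (z - f) := by ring
    rw [e, Valuation.map_add_eq_of_lt_left _ (by rw [hf1']; exact hz0), hf1']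
  have hzr : red (w i0) z = g := by
    rw [(red_eq_iff (w i0) hz1.le hf1).2 hz0, hf]
  have hod : ∀ P ∈ S, Red332.od (w i0) P z = -(if P = P0 then -l else -N) := by
    intro P hP
    rw [od_of_one P hz1, hzr, hg P hP, log_exp]
  refine ⟨z, hz1, ?_, ?_⟩
  · have := hod P0 (Finset.mem_insert_self _ _)
    rw [if_pos rfl, neg_neg] at this
    exact this
  · rintro ⟨i, P⟩ ht hne
    by_cases hi : i = i0
    · subst hi
      have hPP : P ≠ P0 := fun h => hne (by rw [h])
      refine Or.inr ⟨hz1, ?_⟩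
      have := hod P (Finset.mem_insert_of_mem (Finset.mem_preimage.2 ht))
      rw [if_neg hPP, neg_neg] at this
      exact this.ge
    · left
      have := hz i
      rwa [if_neg hi, sub_zero] at this

/-- approximation for finitely many different norms -/
theorem approx_of_inj {I : Type*} [Finite I] (w : I → Nm C K) (hw : Function.Injective w)
    (hnt : ∃ c : C, ‖c‖₊ ≠ 0 ∧ ‖c‖₊ ≠ 1) (a : I → K) : ∃ y : K, ∀ i, (w i).v (y - a i) < 1 :=
by
  have h1 : Function.Injective fun i => (w i).v := fun i j h =>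
    hw (Nm.ext' fun f => by rw [show (w i).v = (w j).v from h])
  have h2 : ∀ i c, (w i).v (algebraMap C K c) = (NormedField.valuation (K := C)) c :=
    fun i c => (w i).hC c
  exact LiftA_168.weak_approx (k := C) (v0 := NormedField.valuation (K := C)) hnt
    (fun i => (w i).v) h1 h2 a 1 one_pos

/-- **family of elements with prescribed norms and orders**, for finitely many different ends -/
theorem exists_family {I : Type*} [Finite I] (w : I → Nm C K)
    (ff : ∀ i, ∃ _ : Algebra (RatFunc (Ct C)) (kap (w i)),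
      IsScalarTower (Ct C) (RatFunc (Ct C)) (kap (w i)) ∧
      FiniteDimensional (RatFunc (Ct C)) (kap (w i)) ∧
      Algebra.IsSeparable (RatFunc (Ct C)) (kap (w i)))
    (approx : ∀ a : I → K, ∃ y : K, ∀ i, (w i).v (y - a i) < 1)
    {J : Type*} [Fintype J] (m : J → ℕ) (en : J → Σ i, Pl (Ct C) (kap (w i)))
    (hen : Function.Injective en) :
    ∃ z : (Σ j, Fin (m j)) → K, (∀ p : (Σ j, Fin (m j)), (w (en p.1).1).v (z p) = 1) ∧
      (∀ p : (Σ j, Fin (m j)),
        Red332.od (w (en p.1).1) (en p.1).2 (z p) = ((p.2 : ℕ) : ℤ)) ∧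
      (∀ (p : (Σ j, Fin (m j))) (j : J), j ≠ p.1 → (w (en j).1).v (z p) < 1 ∨
        ((w (en j).1).v (z p) = 1 ∧
          (m j : ℤ) ≤ Red332.od (w (en j).1) (en j).2 (z p))) := by
  classical
  have h : ∀ p : (Σ j, Fin (m j)), ∃ z : K, (w (en p.1).1).v z = 1 ∧
      Red332.od (w (en p.1).1) (en p.1).2 z = ((p.2 : ℕ) : ℤ) ∧
      ∀ t ∈ Finset.univ.image en, t ≠ en p.1 → (w t.1).v z < 1 ∨
        ((w t.1).v z = 1 ∧ ((∑ j, m j : ℕ) : ℤ) ≤ Red332.od (w t.1) t.2 z) := fun p =>
    exists_end_elt w ff approx (Finset.univ.image en) (en p.1) _ _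
  choose z h1 h2 h3 using h
  refine ⟨z, h1, h2, fun p j hj => ?_⟩
  rcases h3 p (en j) (Finset.mem_image_of_mem _ (Finset.mem_univ j)) (fun h => hj (hen h)) with
    h | h
  · exact Or.inl h
  · refine Or.inr ⟨h.1, le_trans ?_ h.2⟩
    exact_mod_cast Finset.single_le_sum (f := m) (fun i _ => Nat.zero_le _) (Finset.mem_univ j)

end Crest.Agent.R013.Good_408
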