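import Crest.Agent.R013.End2_809
import Crest.Agent.R013.Good6_408
import Crest.Agent.R013.Good7_408
import Crest.Agent.R013.StabR2_460
import Crest.Agent.R013.Red12_332
import Crest.Agent.R013.CAn4_243

/-!
# Row 13, leaf SS-END (helper809): the embedding of `K` at every end, and good annuli at the ends
-/

set_option autoImplicit false
set_option linter.unusedSectionVars false
open Filter Topology
open scoped NNReal
open WithZero
open Crest.Agent.R013.Cell_408 (FinDef DiscNorm exists_max BD)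
open Crest.Agent.R013.Red332 hiding od od_C od_mul od_inv od_pow od_one red_sum red_aeval
open Crest.Agent.R013.RR7_948 Crest.Agent.R013.RR8_948 Crest.Agent.R013.RR14_948
open Crest.Agent.R013.RR15_948 Crest.Agent.R013.RR20_948
open Crest.Agent.R013.StabF_83

namespace Crest.Agent.R013.EE809

open Polynomial Module

section emb

universe u

variable (k : Type*) [NontriviallyNormedField k] [CompleteSpace k] [IsUltrametricDist k]
variable {C : Type u} [NormedField C] [IsUltrametricDist C] [NormedAlgebra k C]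
variable [Algebra.IsAlgebraic k C] [IsAlgClosed C] [hk : Fact (DiscNorm k)]

variable (C) in
/-- the end `X = 0` of the Gauss norm of `C(X)` -/
noncomputable def endX : End2 C (RatFunc C) := (endE k C).comap (expn k C)

theorem endX_nm (f : RatFunc C) : (endX k C).nm f = gv k C (expn k C f) := rfl

theorem endX_od (f : RatFunc C) : (endX k C).od f = od (expn k C f) := rfl

theorem endX_X : (endX k C).nm RatFunc.X = 1 := by
  rw [endX_nm, expn_X]; exact nm_T

theorem endX_X' : (endX k C).od RatFunc.X = 1 := by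
  rw [endX_od, expn_X]; exact od_T1

theorem le_endX (p : C[X]) (i : ℕ) :
    ‖p.coeff i‖₊ ≤ (endX k C).nm (algebraMap C[X] (RatFunc C) p) := by
  by_cases hp : p = 0
  · rw [hp, coeff_zero, nnnorm_zero]; exact zero_le
  obtain ⟨m, h0, h1, h2⟩ := exists_lead hp
  rw [endX_nm, expn_poly]
  have h3 := (poly_end (E := endE k C) nm_T od_T1 h0 h1 h2).1
  rw [endE_nm] at h3
  rw [h3]
  exact h1 i

/-- `STABF` at the Gauss norm -/
theorem exists_out [CharZero C] (p : ℕ) [Fact p.Prime] (hp : ‖(p : C)‖ < 1)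
    (K : Type u) [Field K] [Algebra (RatFunc C) K] [FiniteDimensional (RatFunc C) K] :
    ∃ (E : Type u) (_ : NontriviallyNormedField E) (_ : CompleteSpace E)
      (_ : IsUltrametricDist E) (_ : Algebra (RatFunc C) E),
      DenseRange (algebraMap (RatFunc C) E) ∧
      (∀ f, ‖algebraMap (RatFunc C) E f‖₊ = (endX k C).nm f) ∧
      ∃ (I : Type u) (_ : Fintype I), Nonempty (Out (RatFunc C) E K I) :=
  StabR_460.out_of_gaussNorm (NormedField.valuation (K := C)) (endX k C).nm p hp
    (fun c => (endX k C).hC c) (endX_X k) (fun f i => le_endX k f i) K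

theorem exists_emb_x [CharZero C] (p : ℕ) [Fact p.Prime] (hp : ‖(p : C)‖ < 1)
    {K : Type u} [Field K] [Algebra C K] [Algebra (RatFunc C) K] [IsScalarTower C (RatFunc C) K]
    [FiniteDimensional (RatFunc C) K] (w : Nm C K) (hff : FF w) (q : Pl (Ct C) (kap w))
    (ht : w.v (xK C K) = 1) (ht' : Red332.od w q (xK C K) = 1) :
    ∃ ψ : K →ₐ[C] EE k C, (∀ f, ψ f ∈ Ep k C) ∧ (∀ f, gv k C (ψ f) = w.v f) ∧
      ∀ f, f ≠ 0 → od (ψ f) = Red332.od w q f := by
  obtain ⟨i1, i2, i3, i4⟩ := hff
  obtain ⟨E', j1, j2, j3, j4, hd, hE, I, j5, ⟨o⟩⟩ := exists_out k p hp K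
  obtain ⟨z, hz⟩ := exists_chart (k := k) o hd hE w q ht ht'
  obtain ⟨ψ, -, h1, h2, h3⟩ := hz.exists_emb (k := k)
  exact ⟨ψ, h1, h2, h3⟩

theorem transc_of_od {K : Type*} [Field K] [Algebra C K] {w : Nm C K} {q : Pl (Ct C) (kap w)}
    {t : K} (h : Red332.od w q t ≠ 0) (h0 : t ≠ 0) : Transcendental C t := by
  intro halg
  have hint : IsIntegral C t := halg.isIntegral
  have h1 := IsAlgClosed.degree_eq_one_of_irreducible C (minpoly.irreducible hint)
  obtain ⟨c, hc⟩ := minpoly.mem_range_of_degree_eq_one C _ h1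
  apply h
  rw [← hc]
  refine Red332.od_C q ?_
  rintro rfl
  rw [map_zero] at hc
  exact h0 hc.symm

/-- **THEOREM END1.** At every end of `K` there is an embedding of `K` in `EE k C` with values in
`Ep k C`. -/
theorem exists_emb_end [CharZero C] (p : ℕ) [Fact p.Prime] (hp : ‖(p : C)‖ < 1)
    {K : Type u} [Field K] [Algebra C K] [Algebra (RatFunc C) K] [IsScalarTower C (RatFunc C) K]
    [FiniteDimensional (RatFunc C) K] (w : Nm C K) (hff : FF w) (q : Pl (Ct C) (kap w)) :
    ∃ ψ : K →ₐ[C] EE k C, (∀ f, ψ f ∈ Ep k C) ∧ (∀ f, gv k C (ψ f) = w.v f) ∧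
      ∀ f, f ≠ 0 → od (ψ f) = Red332.od w q f := by
  obtain ⟨t, ht, ht'⟩ := Red332.od_surj q 1
  have h0 : t ≠ 0 := (ofPl w q).ne_zero_of_one ht
  have htr : Transcendental C t := transc_of_od (q := q) (by rw [ht']; exact one_ne_zero) h0
  have hx : @xK C _ K _ (ratAlg t htr) = t := ratAlg_xK t htr
  exact @exists_emb_x k _ _ _ C _ _ _ _ _ _ _ p _ hp K _ _ (ratAlg t htr) (ratAlg_tower t htr)
    (ratAlg_finite t htr) w hff q (by rw [hx]; exact ht) (by rw [hx]; exact ht')

end emb

end Crest.Agent.R013.EE809
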