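import Crest.Agent.R013.Dir4_408
import Crest.Agent.R013.End3_809
import Crest.Agent.R013.Good7_408

/-!
# SS-DIR, file 5: at every norm of type two, `K` embeds in the disc field at almost all places
-/

set_option autoImplicit false
set_option linter.unusedSectionVars false
set_option linter.style.haveILetI false

noncomputable section

namespace Crest.Agent.R013.Dir_408

open Polynomial WithZero
open Crest.Agent.R013.Red332 Crest.Agent.R013.EE809
open Crest.Agent.R013.Cell_408 Crest.Agent.R013.Comp_267 Crest.Agent.R013.Good_408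
open Crest.Agent.R013.RR7_948 Crest.Agent.R013.RR8_948 Crest.Agent.R013.RR12_948
open scoped NNReal

universe u

section Emb

variable (k : Type*) {C : Type u} [NontriviallyNormedField k] [CompleteSpace k]
  [IsUltrametricDist k]
  [NormedField C] [IsUltrametricDist C] [NormedAlgebra k C] [Algebra.IsAlgebraic k C]
  [IsAlgClosed C] [hk : Fact (DiscNorm k)]

theorem chartW_of_chart {K : Type u} [Field K] [Algebra C K] [Algebra (RatFunc C) K]
    [IsScalarTower C (RatFunc C) K] {w : Nm C K} {q : Pl (Ct C) (kap w)} {z : K}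
    (h : Chart (ofPl w q) z) : ChartW w z where
  tr := by
    intro c hc
    have h1 := ((ofPl w q).lin_val h.ht (by rw [h.ht']; exact one_pos) c).1
    rw [max_eq_left hc] at h1
    rw [ux, map_sub, ← IsScalarTower.algebraMap_apply]
    exact h1
  gen := h.gen
  int := h.int
  der := h.der
  z1 := h.z1
  app := h.app
  uniq := h.uniq

theorem almost_all_x [CharZero C] (p : ℕ) [Fact p.Prime] (hp : ‖(p : C)‖ < 1)
    {K : Type u} [Field K] [Algebra C K] [Algebra (RatFunc C) K] [IsScalarTower C (RatFunc C) K]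
    [FiniteDimensional (RatFunc C) K] (w : Nm C K) (hff : FF w) (q : Pl (Ct C) (kap w))
    (ht : w.v (xK C K) = 1) (ht' : Red332.od w q (xK C K) = 1) (f0 : K) (hf0 : w.v f0 ≤ 1) :
    ∃ S : Finset (Pl (Ct C) (kap w)), ∀ q ∉ S,
      ∃ ψ : K →ₐ[C] FD k C, (∀ f, (endF k C).nm (ψ f) = w.v f) ∧
        (∀ f, f ≠ 0 → (endF k C).od (ψ f) = Red332.od w q f) ∧ ψ f0 ∈ BI k C := by
  have hff' := hff
  obtain ⟨i1, i2, i3, i4⟩ := hff
  obtain ⟨E', j1, j2, j3, j4, hd, hE, I, j5, ⟨o⟩⟩ := exists_out k p hp K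
  obtain ⟨z, hz⟩ := exists_chart (k := k) o hd hE w q ht ht'
  exact almost_all hff' (chartW_of_chart hz) f0 hf0

/-- **embeddings in the disc field at almost all places** -/
theorem exists_disc_emb [CharZero C] (p : ℕ) [Fact p.Prime] (hp : ‖(p : C)‖ < 1)
    {K : Type u} [Field K] [Algebra C K] [Algebra (RatFunc C) K] [IsScalarTower C (RatFunc C) K]
    [FiniteDimensional (RatFunc C) K] (w : Nm C K) (hff : FF w) (f0 : K) (hf0 : w.v f0 ≤ 1) :
    ∃ S : Finset (Pl (Ct C) (kap w)), ∀ q ∉ S,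
      ∃ ψ : K →ₐ[C] FD k C, (∀ f, (endF k C).nm (ψ f) = w.v f) ∧
        (∀ f, f ≠ 0 → (endF k C).od (ψ f) = Red332.od w q f) ∧ ψ f0 ∈ BI k C := by
  obtain ⟨q, -⟩ : ∃ q : Pl (Ct C) (kap w), q ∉ (∅ : Finset (Pl (Ct C) (kap w))) := by
    obtain ⟨i1, i2, i3, i4⟩ := hff
    exact exists_notMem (k := Ct C) (K := kap w) ∅
  obtain ⟨t, ht, ht'⟩ := Red332.od_surj q 1
  have h0 : t ≠ 0 := (ofPl w q).ne_zero_of_one ht
  have htr : Transcendental C t := transc_of_od (q := q) (by rw [ht']; exact one_ne_zero) h0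
  have hx : @xK C _ K _ (RR20_948.ratAlg t htr) = t := RR20_948.ratAlg_xK t htr
  exact @almost_all_x k C _ _ _ _ _ _ _ _ _ _ p _ hp K _ _ (RR20_948.ratAlg t htr)
    (RR20_948.ratAlg_tower t htr) (RR20_948.ratAlg_finite t htr) w hff q
    (by rw [hx]; exact ht) (by rw [hx]; exact ht') f0 hf0

end Emb

end Crest.Agent.R013.Dir_408
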