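import Crest.Agent.R013.Spr9_607
import Crest.Agent.R013.EE5_809

/-! # R013 / DirE1_607 : a simple root in `EE` of a polynomial over the ball of `BD` is in `BD`
(no Hensel: the negative part `y₋` satisfies `|y₋| ≤ |y₋|²`). -/

set_option autoImplicit false
set_option linter.unusedSectionVars false
set_option linter.style.haveILetI false

noncomputable section

namespace Crest.Agent.R013.DirE_607

open Crest.Agent.R013.Cell_408 Crest.Agent.R013.Comp_267 Crest.Agent.R013.EE809
open Crest.Agent.R013.Spread_607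

variable {k C : Type*} [NontriviallyNormedField k] [CompleteSpace k] [IsUltrametricDist k]
  [NormedField C] [IsUltrametricDist C] [NormedAlgebra k C] [Algebra.IsAlgebraic k C]
  [IsAlgClosed C] [hk : Fact (DiscNorm k)]

theorem gn_ofBD_le {f : BD k C} {M : ℝ} (hM : 0 ≤ M) (h : BdS M f) : gn (ofBD f : EE k C) ≤ M := by
  refine gn_le fun n => ?_
  rcases lt_or_ge n 0 with hn | hn
  · rw [co_ofBD_neg _ hn, norm_zero]; exact hM
  · obtain ⟨m, rfl⟩ := Int.eq_ofNat_of_zero_le hn
    rw [co_ofBD_nat]; exact h m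

theorem bdS_of_gn {f : BD k C} : BdS (gn (ofBD f : EE k C)) f := fun n => by
  rw [← co_ofBD_nat]; exact le_gn _ _

/-- elements of the ball with `|b₀| = 1` are units of the ball -/
theorem exists_inv_ball {f : BD k C} (h : BdS 1 f) (h0 : ‖PowerSeries.coeff 0 (f : PowerSeries C)‖ = 1) :
    ∃ g : BD k C, BdS 1 g ∧ f * g = 1 := by
  have hu : IsU k (f : PowerSeries C) := ⟨(mem_BD.1 f.2).1, h, h0⟩
  obtain ⟨v, hv, huv⟩ := hu.inv
  exact ⟨⟨v, hv.mem⟩, hv.le, Subtype.ext huv⟩

/-- the ball of `BD` in the ball of `EE` -/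
def obv (k C : Type*) [NontriviallyNormedField k] [CompleteSpace k] [IsUltrametricDist k]
    [NormedField C] [IsUltrametricDist C] [NormedAlgebra k C] [Algebra.IsAlgebraic k C]
    [IsAlgClosed C] [hk : Fact (DiscNorm k)] : OB k C →+* Ov k C :=
  ((ofBD : BD k C →+* EE k C).comp (OB k C).subtype).codRestrict (Ov k C)
    (fun x => gn_ofBD_le zero_le_one x.2)

theorem coe_obv (x : OB k C) : ((obv k C x : Ov k C) : EE k C) = ofBD (x : BD k C) := rfl

/-- **main lemma** -/
theorem root_mem (Q : Polynomial (OB k C)) {y : EE k C} (hy : gn y ≤ 1)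
    (hneg : ∀ n < 0, ‖y.co n‖ < 1) (h0 : (Q.map (obv k C)).eval (⟨y, hy⟩ : Ov k C) = 0)
    (h1 : gn (((Q.map (obv k C)).derivative.eval (⟨y, hy⟩ : Ov k C) : Ov k C) : EE k C) = 1)
    (h2 : EE809.od (((Q.map (obv k C)).derivative.eval (⟨y, hy⟩ : Ov k C) : Ov k C) : EE k C) = 0) :
    ∃ b : BD k C, BdS 1 b ∧ ofBD b = y := by
  have hb : BdS 1 (posPart y) := fun n => by
    rw [coeff_posPart]; exact (le_gn _ _).trans hy
  refine ⟨posPart y, hb, ?_⟩
  set Yp' : OB k C := ⟨posPart y, hb⟩ with hYp'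
  set Y : Ov k C := ⟨y, hy⟩ with hY
  set Yp : Ov k C := obv k C Yp' with hYp
  set Ym : Ov k C := Y - Yp with hYm
  have hYmco : ∀ n, ((Ym : Ov k C) : EE k C).co n = if 0 ≤ n then 0 else y.co n := by
    intro n
    have e : ((Ym : Ov k C) : EE k C) = y - ofBD (posPart y) := rfl
    rw [e]
    have e2 : (y - ofBD (posPart y)).co n = y.co n - (ofBD (posPart y)).co n := rfl
    rw [e2]
    split_ifs with h
    · obtain ⟨m, rfl⟩ := Int.eq_ofNat_of_zero_le h
      rw [co_ofBD_nat, coeff_posPart, sub_self]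
    · rw [co_ofBD_neg _ (not_le.1 h), sub_zero]
  set ε := gn ((Ym : Ov k C) : EE k C) with hε
  have hε0 : 0 ≤ ε := gn_nonneg _
  by_contra hne
  have hYm0 : ((Ym : Ov k C) : EE k C) ≠ 0 := by
    intro h
    apply hne
    have e : ((Ym : Ov k C) : EE k C) = y - ofBD (posPart y) := rfl
    rw [e] at h
    exact (sub_eq_zero.1 h).symm
  have hεpos : 0 < ε := gn_pos hYm0
  have hε1 : ε < 1 := by
    obtain ⟨n, hn⟩ := exists_gn hk.out hYm0
    rw [← hε, hYmco] at hn
    split_ifs at hn with h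
    · rw [norm_zero] at hn; rw [← hn]; exact one_pos
    · rw [← hn]; exact hneg n (not_le.1 h)
  set P : Polynomial (Ov k C) := Q.map (obv k C) with hP
  have hYsum : Yp + Ym = Y := by rw [hYm]; ring
  -- the derivative at `Yp` is a unit of the ball of `BD`
  set U : OB k C := Q.derivative.eval Yp' with hU
  have hUe : P.derivative.eval Yp = obv k C U := by
    rw [hP, Polynomial.derivative_map, hYp, Polynomial.eval_map, Polynomial.eval₂_at_apply]
  obtain ⟨R', hR'⟩ := P.derivative.evalSubFactor Y Yp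
  have hdiff : gn (((P.derivative.eval Y - P.derivative.eval Yp : Ov k C)) : EE k C) ≤ ε := by
    rw [hR']
    have e : ((R' * (Y - Yp) : Ov k C) : EE k C) = (R' : EE k C) * ((Ym : Ov k C) : EE k C) := rfl
    rw [e]
    refine (gn_mul_le _ _).trans ?_
    calc gn (R' : EE k C) * ε ≤ 1 * ε := mul_le_mul_of_nonneg_right R'.2 hε0
      _ = ε := one_mul ε
  have hU0 : ‖PowerSeries.coeff 0 ((U : BD k C) : PowerSeries C)‖ = 1 := by
    have e1 : PowerSeries.coeff 0 ((U : BD k C) : PowerSeries C) =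
        ((P.derivative.eval Yp : Ov k C) : EE k C).co 0 := by
      rw [hUe, coe_obv]
      exact (co_ofBD_nat _ 0).symm
    have e2 : ((P.derivative.eval Yp : Ov k C) : EE k C).co 0 =
        ((P.derivative.eval Y : Ov k C) : EE k C).co 0 -
        (((P.derivative.eval Y - P.derivative.eval Yp : Ov k C)) : EE k C).co 0 := by
      have e3 : (((P.derivative.eval Y - P.derivative.eval Yp : Ov k C)) : EE k C).co 0 =
        ((P.derivative.eval Y : Ov k C) : EE k C).co 0 -
        ((P.derivative.eval Yp : Ov k C) : EE k C).co 0 := rfl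
      rw [e3]; ring
    have e4 : ‖((P.derivative.eval Y : Ov k C) : EE k C).co 0‖ = 1 := by
      have hne' : ((P.derivative.eval Y : Ov k C) : EE k C) ≠ 0 := by
        intro h
        rw [h, gn_eq_zero.2 rfl] at h1
        exact zero_ne_one h1
      have := norm_co_od hk.out hne'
      rw [h2, h1] at this
      exact this
    have e5 : ‖(((P.derivative.eval Y - P.derivative.eval Yp : Ov k C)) : EE k C).co 0‖ < 1 :=
      ((le_gn _ _).trans hdiff).trans_lt hε1
    rw [e1, e2, sub_eq_add_neg, IsUltrametricDist.norm_add_eq_max_of_norm_ne_norm (by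
      rw [norm_neg, e4]; exact e5.ne'), norm_neg, e4, max_eq_left e5.le]
  obtain ⟨V, hV, hUV⟩ := exists_inv_ball (f := (U : BD k C)) U.2 hU0
  -- Taylor expansion
  obtain ⟨R, hR⟩ := P.binomExpansion Yp Ym
  rw [hYsum, h0] at hR
  have hPYp : P.eval Yp = obv k C (Q.eval Yp') := by
    rw [hP, hYp, Polynomial.eval_map, Polynomial.eval₂_at_apply]
  rw [hPYp, hUe] at hR
  have hR2 := congrArg (fun x : Ov k C => obv k C ⟨V, hV⟩ * x) hR
  simp only [mul_zero, mul_add] at hR2
  have hVU : obv k C ⟨V, hV⟩ * (obv k C U * Ym) = Ym := by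
    rw [← mul_assoc, ← map_mul]
    have : (⟨V, hV⟩ : OB k C) * U = 1 := Subtype.ext (by
      change V * (U : BD k C) = 1
      rw [mul_comm]; exact hUV)
    rw [this, map_one, one_mul]
  rw [hVU, ← map_mul] at hR2
  -- compare negative coefficients
  have hfin : ε ≤ ε ^ 2 := by
    conv_lhs => rw [hε]
    refine gn_le fun n => ?_
    rw [hYmco]
    split_ifs with h
    · rw [norm_zero]; positivity
    · have hn : n < 0 := not_le.1 h
      have e1 := congrArg (fun x : Ov k C => ((x : EE k C)).co n) hR2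
      have e2 : ((((obv k C) (⟨V, hV⟩ * Q.eval Yp') + Ym + (obv k C) ⟨V, hV⟩ * (R * Ym ^ 2) :
          Ov k C)) : EE k C).co n =
          ((obv k C (⟨V, hV⟩ * Q.eval Yp') : Ov k C) : EE k C).co n +
          ((Ym : Ov k C) : EE k C).co n +
          (((obv k C ⟨V, hV⟩ * (R * Ym ^ 2) : Ov k C)) : EE k C).co n := rfl
      have e3 : ((0 : Ov k C) : EE k C).co n = 0 := rfl
      rw [e2, e3, coe_obv, co_ofBD_neg _ hn, zero_add, hYmco, if_neg h] at e1
      have e4 : y.co n = -(((obv k C ⟨V, hV⟩ * (R * Ym ^ 2) : Ov k C)) : EE k C).co n := by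
        linear_combination -e1
      rw [e4, norm_neg]
      refine (le_gn _ _).trans ?_
      have e5 : ((obv k C ⟨V, hV⟩ * (R * Ym ^ 2) : Ov k C) : EE k C) =
          ((obv k C ⟨V, hV⟩ : Ov k C) : EE k C) * ((R : EE k C) * ((Ym : Ov k C) : EE k C) ^ 2) := rfl
      rw [e5]
      refine (gn_mul_le _ _).trans ?_
      have h3 : gn ((obv k C ⟨V, hV⟩ : Ov k C) : EE k C) ≤ 1 := (obv k C ⟨V, hV⟩).2
      have h4 : gn ((R : EE k C) * ((Ym : Ov k C) : EE k C) ^ 2) ≤ ε ^ 2 := by
        refine (gn_mul_le _ _).trans ?_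
        calc gn (R : EE k C) * gn (((Ym : Ov k C) : EE k C) ^ 2) ≤ 1 * ε ^ 2 :=
              mul_le_mul R.2 (gn_pow_le _ 2) (gn_nonneg _) zero_le_one
          _ = ε ^ 2 := one_mul _
      calc _ ≤ 1 * ε ^ 2 := mul_le_mul h3 h4 (gn_nonneg _) zero_le_one
        _ = ε ^ 2 := one_mul _
  nlinarith

end Crest.Agent.R013.DirE_607
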