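import Crest.Agent.R013.End3_809
import Crest.Agent.R013.Car5_700

/-! # R013 / DirE2_607 : embeddings at the ends with prescribed coordinate; almost all directions -/

set_option autoImplicit false
set_option linter.unusedSectionVars false
set_option linter.style.haveILetI false

open scoped NNReal
open WithZero
open Crest.Agent.R013.Cell_408 (FinDef DiscNorm exists_max BD)
open Crest.Agent.R013.Red332 hiding od od_C od_mul od_inv od_pow od_one red_sum red_aeval
open Crest.Agent.R013.RR7_948 Crest.Agent.R013.RR8_948 Crest.Agent.R013.RR14_948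
open Crest.Agent.R013.RR15_948 Crest.Agent.R013.RR20_948
open Crest.Agent.R013.StabF_83 Crest.Agent.R013.EE809

namespace Crest.Agent.R013.DirE_607

universe u

variable (k : Type*) [NontriviallyNormedField k] [CompleteSpace k] [IsUltrametricDist k]
variable {C : Type u} [NormedField C] [IsUltrametricDist C] [NormedAlgebra k C]
variable [Algebra.IsAlgebraic k C] [IsAlgClosed C] [hk : Fact (DiscNorm k)]

/-- the embedding and the chart element, at an end where `x` has norm one and order one -/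
theorem exists_emb_x [CharZero C] (p : ℕ) [Fact p.Prime] (hp : ‖(p : C)‖ < 1)
    {K : Type u} [Field K] [Algebra C K] [Algebra (RatFunc C) K] [IsScalarTower C (RatFunc C) K]
    [FiniteDimensional (RatFunc C) K] (w : Nm C K) (hff : FF w) (q : Pl (Ct C) (kap w))
    (ht : w.v (xK C K) = 1) (ht' : Red332.od w q (xK C K) = 1) :
    ∃ (z : K) (ψ : K →ₐ[C] EE k C), Chart (ofPl w q) z ∧ ψ (xK C K) = T 1 ∧
      (∀ f, gv k C (ψ f) = w.v f) ∧ ∀ f, f ≠ 0 → EE809.od (ψ f) = Red332.od w q f := by
  obtain ⟨i1, i2, i3, i4⟩ := hff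
  obtain ⟨E', j1, j2, j3, j4, hd, hE, I, j5, ⟨o⟩⟩ := exists_out k p hp K
  obtain ⟨z, hz⟩ := exists_chart (k := k) o hd hE w q ht ht'
  obtain ⟨ψ, h0, h1, h2, h3⟩ := hz.exists_emb (k := k)
  exact ⟨z, ψ, hz, h0, h2, h3⟩

/-- the embedding with prescribed coordinate -/
theorem exists_emb_t [CharZero C] (p : ℕ) [Fact p.Prime] (hp : ‖(p : C)‖ < 1)
    {K : Type u} [Field K] [Algebra C K] [Algebra (RatFunc C) K] [IsScalarTower C (RatFunc C) K]
    [FiniteDimensional (RatFunc C) K] (w : Nm C K) (hff : FF w) (q : Pl (Ct C) (kap w)) (t : K)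
    (ht : w.v t = 1) (ht' : Red332.od w q t = 1) :
    ∃ ψ : K →ₐ[C] EE k C, ψ t = T 1 ∧
      (∀ f, gv k C (ψ f) = w.v f) ∧ ∀ f, f ≠ 0 → EE809.od (ψ f) = Red332.od w q f := by
  have h0 : t ≠ 0 := (ofPl w q).ne_zero_of_one ht
  have htr : Transcendental C t := transc_of_od (q := q) (by rw [ht']; exact one_ne_zero) h0
  have hx : @xK C _ K _ (ratAlg t htr) = t := ratAlg_xK t htr
  obtain ⟨z, ψ, -, h1, h2, h3⟩ := @exists_emb_x k _ _ _ C _ _ _ _ _ _ _ p _ hp K _ _ (ratAlg t htr)
    (ratAlg_tower t htr) (ratAlg_finite t htr) w hff q (by rw [hx]; exact ht)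
    (by rw [hx]; exact ht')
  exact ⟨ψ, by rw [← hx]; exact h1, h2, h3⟩

include k in
/-- a polynomial of a chart element -/
theorem exists_gen [CharZero C] (p : ℕ) [Fact p.Prime] (hp : ‖(p : C)‖ < 1)
    {K : Type u} [Field K] [Algebra C K] [Algebra (RatFunc C) K] [IsScalarTower C (RatFunc C) K]
    [FiniteDimensional (RatFunc C) K] (w : Nm C K) (hff : FF w) (q : Pl (Ct C) (kap w)) (t : K)
    (ht : w.v t = 1) (ht' : Red332.od w q t = 1) :
    ∃ (z : K) (P : Polynomial K), w.v z = 1 ∧ P.eval z = 0 ∧ w.v (P.derivative.eval z) = 1 ∧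
      (∀ n, w.v (P.coeff n) ≤ 1) ∧
      (∀ S : Subfield K, (∀ c : C, algebraMap C K c ∈ S) → t ∈ S → ∀ n, P.coeff n ∈ S) ∧
      (∀ S : Subfield K, (∀ c : C, algebraMap C K c ∈ S) → t ∈ S → z ∈ S → ∀ f, f ∈ S) := by
  have h0 : t ≠ 0 := (ofPl w q).ne_zero_of_one ht
  have htr : Transcendental C t := transc_of_od (q := q) (by rw [ht']; exact one_ne_zero) h0
  have hfin := ratAlg_finite t htr
  letI := ratAlg t htr
  haveI := ratAlg_tower t htr
  haveI : FiniteDimensional (RatFunc C) K := hfin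
  have hx : xK C K = t := ratAlg_xK t htr
  obtain ⟨z, ψ, hz, -, -, -⟩ := exists_emb_x k p hp w hff q (by rw [hx]; exact ht)
    (by rw [hx]; exact ht')
  have hF : ∀ S : Subfield K, (∀ c : C, algebraMap C K c ∈ S) → t ∈ S →
      ∀ f : RatFunc C, algebraMap (RatFunc C) K f ∈ S := by
    intro S hC hS f
    have hpoly : ∀ g : Polynomial C, algebraMap (RatFunc C) K (algebraMap _ _ g) ∈ S := by
      intro g
      induction g using Polynomial.induction_on' with
      | add a b ha hb => rw [map_add, map_add]; exact add_mem ha hb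
      | monomial n c =>
        rw [← Polynomial.C_mul_X_pow_eq_monomial, map_mul, map_mul, map_pow, map_pow,
          RatFunc.algebraMap_C, RatFunc.algebraMap_X]
        refine mul_mem ?_ (pow_mem ?_ n)
        · have := hC c
          rw [IsScalarTower.algebraMap_apply C (RatFunc C) K] at this
          exact this
        · rw [← hx] at hS; exact hS
    rw [← RatFunc.num_div_denom f, map_div₀]
    exact div_mem (hpoly _) (hpoly _)
  refine ⟨z, (minpoly (RatFunc C) z).map (algebraMap (RatFunc C) K), hz.z1, ?_, ?_, ?_, ?_, ?_⟩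
  · rw [Polynomial.eval_map_algebraMap, minpoly.aeval]
  · rw [Polynomial.derivative_map, Polynomial.eval_map_algebraMap]
    exact hz.der
  · intro n
    rw [Polynomial.coeff_map]
    exact hz.int n
  · intro S hC hS n
    rw [Polynomial.coeff_map]
    exact hF S hC hS _
  · intro S hC hS hzS f
    let S' : IntermediateField (RatFunc C) K :=
      { S with
        algebraMap_mem' := fun r => hF S hC hS r }
    have h1 : IntermediateField.adjoin (RatFunc C) {z} ≤ S' := by
      rw [IntermediateField.adjoin_le_iff, Set.singleton_subset_iff]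
      exact hzS
    rw [hz.gen] at h1
    exact h1 (IntermediateField.mem_top (x := f))

section good

variable {K : Type*} [Field K] [Algebra C K]

/-- almost all directions: a coordinate `t - τ` of order one -/
theorem exists_shift (w : Nm C K) (hff : FF w) : ∃ t : K, w.v t = 1 ∧
    ∃ S : Set (Pl (Ct C) (kap w)), S.Finite ∧ ∀ q ∉ S, ∃ τ : C, ‖τ‖ ≤ 1 ∧
      w.v (t - algebraMap C K τ) = 1 ∧ Red332.od w q (t - algebraMap C K τ) = 1 := by
  classical
  obtain ⟨i1, i2, i3, i4⟩ := hff
  have hx0 : xK (Ct C) (kap w) ≠ 0 := RR9_948.xK_ne_zero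
  obtain ⟨t, ht, htx⟩ := red_surj w (xK (Ct C) (kap w))
  have ht1 : w.v t = 1 := by
    rw [← red_ne_zero_iff w ht, htx]; exact hx0
  refine ⟨t, ht1, {q | q.v (xK (Ct C) (kap w)) ≠ 1} ∪ {q | RR11_948.canD (Ct C) (kap w) q ≠ 0},
    (RR11_948.finite_ne_one hx0).union ?_, fun q hq => ?_⟩
  · exact (RR11_948.canD (Ct C) (kap w)).hasFiniteSupport
  · rw [Set.mem_union, not_or, Set.mem_ofPred_eq, Set.mem_ofPred_eq, not_not, not_not] at hq
    obtain ⟨a, ha⟩ := CE1_280.exists_residue q hq.1.le
    obtain ⟨τ, hτ, rfl⟩ := rc_surj a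
    have hle : q.v (xK (Ct C) (kap w) - algebraMap (Ct C) (kap w) (rc τ)) ≤ exp (-1) := by
      by_contra hcon
      push Not at hcon
      have hne : q.v (xK (Ct C) (kap w) - algebraMap (Ct C) (kap w) (rc τ)) ≠ 0 := by
        intro h0; rw [h0] at hcon; simp at hcon
      rw [← exp_log hne, ← exp_zero, exp_lt_exp] at ha
      rw [← exp_log hne, exp_lt_exp] at hcon
      omega
    have hge : exp (-1) ≤ q.v (xK (Ct C) (kap w) - algebraMap (Ct C) (kap w) (rc τ)) := by
      have h1 := Car5_700.v_del_le' q (xK (Ct C) (kap w) - algebraMap (Ct C) (kap w) (rc τ))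
      rw [map_sub, del_xK, Derivation.map_algebraMap, sub_zero, map_one, hq.2, zero_add] at h1
      have hne : q.v (xK (Ct C) (kap w) - algebraMap (Ct C) (kap w) (rc τ)) ≠ 0 := by
        intro h0; rw [h0, zero_mul] at h1; simp at h1
      rw [← exp_log hne, ← exp_add, ← exp_zero, exp_le_exp] at h1
      rw [← exp_log hne, exp_le_exp]
      omega
    have heq := le_antisymm hle hge
    have hτ1 : w.v (algebraMap C K τ) ≤ 1 := by rw [w.hC]; exact hτ
    have hred : red w (t - algebraMap C K τ) =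
        xK (Ct C) (kap w) - algebraMap (Ct C) (kap w) (rc τ) := by
      rw [red_sub w ht hτ1, htx, red_C w τ hτ]
    have h1 : w.v (t - algebraMap C K τ) = 1 := by
      rw [← red_ne_zero_iff w ((Valuation.map_sub _ _ _).trans (max_le ht hτ1)), hred]
      intro h0
      rw [h0, map_zero] at heq
      exact (exp_ne_zero heq.symm).elim
    refine ⟨τ, hτ, h1, ?_⟩
    have h2 := v_red_of_one q h1
    rw [hred, heq, exp_inj] at h2
    omega

/-- almost all orders are zero -/
theorem od_eq_zero (w : Nm C K) (hff : FF w) {f : K} (hf : f ≠ 0) :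
    {q : Pl (Ct C) (kap w) | Red332.od w q f ≠ 0}.Finite := by
  obtain ⟨i1, i2, i3, i4⟩ := hff
  obtain ⟨c, hc⟩ := w.val f hf
  have hc0 : c ≠ 0 := by
    rintro rfl
    rw [nnnorm_zero, map_eq_zero] at hc
    exact hf hc
  have h1 : w.v (f * (algebraMap C K c)⁻¹) = 1 := by
    rw [map_mul, map_inv₀, w.hC, hc, mul_inv_cancel₀]
    rwa [Ne, nnnorm_eq_zero]
  refine (RR11_948.finite_ne_one (red_ne_zero w h1)).subset fun q hq => ?_
  intro h2
  apply hq
  rw [v_red_of_one q h1, ← exp_zero, exp_inj] at h2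
  have hc' : (algebraMap C K c)⁻¹ = algebraMap C K c⁻¹ := (map_inv₀ _ _).symm
  rw [Red332.od_mul q hf (by rw [hc', Ne, map_eq_zero]; exact inv_ne_zero hc0), hc',
    Red332.od_C q (inv_ne_zero hc0), add_zero] at h2
  omega

end good

end Crest.Agent.R013.DirE_607
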