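import Crest.Agent.R013.Good1_408
import Crest.Agent.R013.EE4_809

/-!
# The Gauss norm and the Weierstrass degree on `FD`; `FD → EE`
-/

set_option autoImplicit false
set_option linter.unusedSectionVars false

noncomputable section

namespace Crest.Agent.R013.Good_408

open Module
open Crest.Agent.R013.Cell_408 Crest.Agent.R013.Comp_267 Crest.Agent.R013.EE809

variable {k C : Type*} [NontriviallyNormedField k] [CompleteSpace k] [IsUltrametricDist k]
  [NormedField C] [IsUltrametricDist C] [NormedAlgebra k C] [Algebra.IsAlgebraic k C]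
  [IsAlgClosed C]

theorem ofBD_hasW {g : BD k C} {r : ℝ} {n : ℕ} (h : HasW (g : PowerSeries C) r n) (hr : 0 < r) :
    gn (ofBD g : EE k C) = r ∧ od (ofBD g : EE k C) = n := by
  have h1 : ‖(ofBD g : EE k C).co (n : ℤ)‖ = r := by rw [co_ofBD_nat]; exact h.eq
  have h2 : ∀ j, ‖(ofBD g : EE k C).co j‖ ≤ ‖(ofBD g : EE k C).co (n : ℤ)‖ := by
    intro j
    rw [h1]
    rcases le_or_gt 0 j with hj | hj
    · obtain ⟨l, rfl⟩ := Int.eq_ofNat_of_zero_le hj
      rw [co_ofBD_nat]; exact h.le l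
    · rw [co_ofBD_neg _ hj, norm_zero]; exact hr.le
  have h3 : gn (ofBD g : EE k C) = r := by rw [gn_eq_of h2, h1]
  refine ⟨h3, od_eq_of (h1.trans h3.symm) fun j hj => ?_⟩
  rw [h3]
  rcases le_or_gt 0 j with hj0 | hj0
  · obtain ⟨l, rfl⟩ := Int.eq_ofNat_of_zero_le hj0
    rw [co_ofBD_nat]; exact h.lt l (by omega)
  · rw [co_ofBD_neg _ hj0, norm_zero]; exact hr

theorem gn_ofBD_comp (hk : DiscNorm k) {f : PowerSeries C} {m : ℕ} (hf : WD k f m) (hm : m ≠ 0)
    (g : BD k C) : gn (ofBD (comp f (WD.co hf hm) g) : EE k C) = gn (ofBD g : EE k C) := by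
  by_cases h0 : g = 0
  · rw [h0, map_zero]
  have h0' : (g : PowerSeries C) ≠ 0 := fun h => h0 (Subtype.ext h)
  obtain ⟨r, n, hr, hW⟩ := exists_hasW hk g.2 h0'
  rw [(ofBD_hasW hW hr).1]
  exact (ofBD_hasW (g := comp f (WD.co hf hm) g) (HasW.comp hf hm hW g.2 hr) hr).1

theorem od_ofBD_comp (hk : DiscNorm k) {f : PowerSeries C} {m : ℕ} (hf : WD k f m) (hm : m ≠ 0)
    {g : BD k C} (h0 : g ≠ 0) :
    od (ofBD (comp f (WD.co hf hm) g) : EE k C) = m * od (ofBD g : EE k C) := by
  have h0' : (g : PowerSeries C) ≠ 0 := fun h => h0 (Subtype.ext h)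
  obtain ⟨r, n, hr, hW⟩ := exists_hasW hk g.2 h0'
  rw [(ofBD_hasW hW hr).2,
    (ofBD_hasW (g := comp f (WD.co hf hm) g) (HasW.comp hf hm hW g.2 hr) hr).2]
  push_cast
  ring

variable (k C) in
/-- `ofBD` as an algebra homomorphism -/
def ofBDa : BD k C →ₐ[C] EE k C :=
  { ofBD with commutes' := fun c => ofBD_algebraMap c }

theorem ofBDa_apply (g : BD k C) : ofBDa k C g = ofBD g := rfl

theorem ofBDa_injective : Function.Injective (ofBDa k C) := ofBD_injective

variable [hk : Fact (DiscNorm k)]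

variable (k C) in
/-- `FD → EE` -/
def toEE : FD k C →ₐ[C] EE k C :=
  IsFractionRing.liftAlgHom (K := FD k C) (g := ofBDa k C) ofBDa_injective

theorem toEE_algebraMap (g : BD k C) :
    toEE k C (algebraMap (BD k C) (FD k C) g) = ofBD g := by
  unfold toEE
  rw [IsFractionRing.liftAlgHom_apply, IsFractionRing.lift_algebraMap]
  rfl

theorem toEE_injective : Function.Injective (toEE k C) := (toEE k C).toRingHom.injective

theorem toEE_TF : toEE k C (TF k C) = T 1 := by
  rw [TF, toEE_algebraMap]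
  ext n
  rw [co_ofBD]
  change psFun PowerSeries.X n = if n = 1 then 1 else 0
  rcases le_or_gt 0 n with hn | hn
  · obtain ⟨l, rfl⟩ := Int.eq_ofNat_of_zero_le hn
    rw [psFun_nat, PowerSeries.coeff_X]
    norm_cast
  · rw [psFun_neg _ hn, if_neg (by omega)]

theorem gn_toEE_compF {f : PowerSeries C} {m : ℕ} (hf : WD k f m) (hm : m ≠ 0) (x : FD k C) :
    gn (toEE k C (compF hk.out hf hm x)) = gn (toEE k C x) := by
  obtain ⟨a, b, hb, rfl⟩ := IsFractionRing.div_surjective (A := BD k C) x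
  rw [map_div₀, map_div₀, map_div₀, compF_algebraMap, compF_algebraMap, toEE_algebraMap,
    toEE_algebraMap, toEE_algebraMap, toEE_algebraMap, gn_div, gn_div, gn_ofBD_comp hk.out hf hm,
    gn_ofBD_comp hk.out hf hm]

theorem od_div {a b : EE k C} (ha : a ≠ 0) (hb : b ≠ 0) : od (a / b) = od a - od b := by
  rw [div_eq_mul_inv, od_mul hk.out ha (inv_ne_zero hb), od_inv hb]
  ring

theorem od_toEE_compF {f : PowerSeries C} {m : ℕ} (hf : WD k f m) (hm : m ≠ 0) {x : FD k C}
    (hx : x ≠ 0) : od (toEE k C (compF hk.out hf hm x)) = m * od (toEE k C x) := by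
  obtain ⟨a, b, hb, rfl⟩ := IsFractionRing.div_surjective (A := BD k C) x
  have hb0 : b ≠ 0 := nonZeroDivisors.ne_zero hb
  have ha0 : a ≠ 0 := by
    rintro rfl
    exact hx (by rw [map_zero, zero_div])
  have hne : ∀ {g : BD k C}, g ≠ 0 → (ofBD g : EE k C) ≠ 0 := fun h h' =>
    h (ofBD_injective (h'.trans (map_zero ofBD).symm))
  have hne' : ∀ {g : BD k C}, g ≠ 0 → (ofBD (comp f (WD.co hf hm) g) : EE k C) ≠ 0 := fun h =>
    hne fun h' => h (comp_injective hk.out hf hm (h'.trans (map_zero _).symm))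
  rw [map_div₀, map_div₀, map_div₀, compF_algebraMap, compF_algebraMap, toEE_algebraMap,
    toEE_algebraMap, toEE_algebraMap, toEE_algebraMap, od_div (hne' ha0) (hne' hb0),
    od_div (hne ha0) (hne hb0), od_ofBD_comp hk.out hf hm ha0, od_ofBD_comp hk.out hf hm hb0]
  ring

/-- elements of the image of `FD` in `EE` -/
theorem mem_range_toEE {z : EE k C} : z ∈ (toEE k C).range ↔
    ∃ g h : BD k C, h ≠ 0 ∧ z * ofBD h = ofBD g := by
  constructor
  · rintro ⟨x, rfl⟩
    obtain ⟨a, b, hb, rfl⟩ := IsFractionRing.div_surjective (A := BD k C) x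
    have hb0 : b ≠ 0 := nonZeroDivisors.ne_zero hb
    refine ⟨a, b, hb0, ?_⟩
    have hne : (ofBD b : EE k C) ≠ 0 := fun h' => hb0 (ofBD_injective (h'.trans (map_zero ofBD).symm))
    change toEE k C (algebraMap (BD k C) (FD k C) a / algebraMap (BD k C) (FD k C) b) * _ = _
    rw [map_div₀, toEE_algebraMap, toEE_algebraMap, div_mul_cancel₀ _ hne]
  · rintro ⟨g, h, hh, hz⟩
    have hne : (ofBD h : EE k C) ≠ 0 := fun h' => hh (ofBD_injective (h'.trans (map_zero ofBD).symm))
    refine ⟨algebraMap (BD k C) (FD k C) g / algebraMap (BD k C) (FD k C) h, ?_⟩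
    change toEE k C (algebraMap (BD k C) (FD k C) g / algebraMap (BD k C) (FD k C) h) = z
    rw [map_div₀, toEE_algebraMap, toEE_algebraMap, ← hz, mul_div_cancel_right₀ _ hne]

namespace DCells

variable {K : Type*} [Field K] [Algebra C K] [Algebra (RatFunc C) K]
    [IsScalarTower C (RatFunc C) K] [FiniteDimensional (RatFunc C) K] {y : FD k C}

/-- the embedding of `K` in `EE` given by the disc `j` -/
def em (D : DCells k C K y) (j : D.J) : K →ₐ[C] EE k C := (toEE k C).comp (D.io j)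

theorem em_apply (D : DCells k C K y) (j : D.J) (f : K) : D.em j f = toEE k C (D.io j f) := rfl

theorem gn_em (D : DCells k C K y) (j : D.J) (r : RatFunc C) :
    gn (D.em j (algebraMap (RatFunc C) K r)) = gn (toEE k C (D.i r)) := by
  rw [em_apply, ← D.comm, φ, gn_toEE_compF]

theorem od_em (D : DCells k C K y) (j : D.J) {r : RatFunc C} (hr : r ≠ 0) :
    od (D.em j (algebraMap (RatFunc C) K r)) = D.m j * od (toEE k C (D.i r)) := by
  rw [em_apply, ← D.comm, φ, od_toEE_compF]
  exact (map_ne_zero D.i).2 hr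

theorem em_disc (D : DCells k C K y) (j : D.J) (f : K) :
    ∃ g h : BD k C, h ≠ 0 ∧ D.em j f * ofBD h = ofBD g :=
  mem_range_toEE.1 ⟨D.io j f, rfl⟩

end DCells

end Crest.Agent.R013.Good_408
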