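import Crest.Agent.R013.DirE1_607
import Crest.Agent.R013.DirE2_607
import Crest.Agent.R013.Good3_408

/-! # R013 / DirE3_607 : **embD**, the embedding of `K` in `FD` at almost every direction -/

set_option autoImplicit false
set_option linter.unusedSectionVars false
set_option linter.style.haveILetI false

noncomputable section

open scoped NNReal
open WithZero
open Crest.Agent.R013.Cell_408 Crest.Agent.R013.Comp_267
open Crest.Agent.R013.Red332 hiding od od_C od_mul od_inv od_pow od_one red_sum red_aeval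
open Crest.Agent.R013.RR7_948 Crest.Agent.R013.RR8_948
open Crest.Agent.R013.EE809 Crest.Agent.R013.Spread_607 Crest.Agent.R013.Good_408

namespace Crest.Agent.R013.DirE_607

universe u

variable {k : Type*} [NontriviallyNormedField k] [CompleteSpace k] [IsUltrametricDist k]
variable {C : Type u} [NormedField C] [IsUltrametricDist C] [NormedAlgebra k C]
variable [Algebra.IsAlgebraic k C] [IsAlgClosed C] [hk : Fact (DiscNorm k)]
variable {K : Type u} [Field K] [Algebra C K] {w : Nm C K}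

/-- an embedding attached to a direction -/
structure Emb (w : Nm C K) (q : Pl (Ct C) (kap w)) (ψ : K →ₐ[C] EE k C) : Prop where
  nm : ∀ f, gn (ψ f) = w.v f
  od : ∀ f, f ≠ 0 → EE809.od (ψ f) = Red332.od w q f

variable (ψ : Pl (Ct C) (kap w) → (K →ₐ[C] EE k C))

/-- almost all images are bounded power series -/
def Al (f : K) : Prop := ∃ S : Set (Pl (Ct C) (kap w)), S.Finite ∧
  ∀ q ∉ S, ∃ b : BD k C, ofBD b = ψ q f

variable {ψ}

theorem Al.add {f g : K} (hf : Al ψ f) (hg : Al ψ g) : Al ψ (f + g) := by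
  obtain ⟨S, hS, h1⟩ := hf
  obtain ⟨T, hT, h2⟩ := hg
  refine ⟨S ∪ T, hS.union hT, fun q hq => ?_⟩
  rw [Set.mem_union, not_or] at hq
  obtain ⟨a, ha⟩ := h1 q hq.1
  obtain ⟨b, hb⟩ := h2 q hq.2
  exact ⟨a + b, by rw [map_add, map_add, ha, hb]⟩

theorem Al.mul {f g : K} (hf : Al ψ f) (hg : Al ψ g) : Al ψ (f * g) := by
  obtain ⟨S, hS, h1⟩ := hf
  obtain ⟨T, hT, h2⟩ := hg
  refine ⟨S ∪ T, hS.union hT, fun q hq => ?_⟩
  rw [Set.mem_union, not_or] at hq
  obtain ⟨a, ha⟩ := h1 q hq.1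
  obtain ⟨b, hb⟩ := h2 q hq.2
  exact ⟨a * b, by rw [map_mul, map_mul, ha, hb]⟩

theorem Al.neg {f : K} (hf : Al ψ f) : Al ψ (-f) := by
  obtain ⟨S, hS, h1⟩ := hf
  refine ⟨S, hS, fun q hq => ?_⟩
  obtain ⟨a, ha⟩ := h1 q hq
  exact ⟨-a, by rw [map_neg, map_neg, ha]⟩

theorem Al.const (c : C) : Al ψ (algebraMap C K c) :=
  ⟨∅, Set.finite_empty, fun q _ => ⟨algebraMap C (BD k C) c, by
    rw [ofBD_algebraMap, AlgHom.commutes]⟩⟩

/-- a bounded power series of order zero is a unit -/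
theorem exists_inv_od {b : BD k C} (hb : (ofBD b : EE k C) ≠ 0) {c : C}
    (hc : gn (ofBD b : EE k C) = ‖c‖) (h0 : EE809.od (ofBD b : EE k C) = 0) :
    ∃ g : BD k C, b * g = 1 := by
  have hg0 : 0 < gn (ofBD b : EE k C) := gn_pos hb
  have hc0 : c ≠ 0 := by
    rintro rfl
    rw [norm_zero] at hc
    exact hg0.ne' hc
  have e : (ofBD (algebraMap C (BD k C) c⁻¹ * b) : EE k C) = algebraMap C (EE k C) c⁻¹ * ofBD b := by
    rw [map_mul, ofBD_algebraMap]
  have h1 : gn (ofBD (algebraMap C (BD k C) c⁻¹ * b) : EE k C) = 1 := by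
    rw [e, gn_mul hk.out, gn_algebraMap, hc, norm_inv, inv_mul_cancel₀]
    exact norm_ne_zero_iff.2 hc0
  have h2 : ‖PowerSeries.coeff 0 ((algebraMap C (BD k C) c⁻¹ * b : BD k C) : PowerSeries C)‖ = 1 := by
    have h3 := norm_co_od hk.out (a := (ofBD b : EE k C)) hb
    rw [h0] at h3
    have h4 : PowerSeries.coeff 0 ((algebraMap C (BD k C) c⁻¹ * b : BD k C) : PowerSeries C) =
        (ofBD (algebraMap C (BD k C) c⁻¹ * b) : EE k C).co 0 := (co_ofBD_nat _ 0).symm
    rw [h4, e, ← Algebra.smul_def, co_smul, norm_mul, h3, hc, norm_inv, inv_mul_cancel₀]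
    exact norm_ne_zero_iff.2 hc0
  obtain ⟨g, -, hg⟩ := exists_inv_ball (f := algebraMap C (BD k C) c⁻¹ * b)
    (by rw [← h1]; exact bdS_of_gn) h2
  exact ⟨algebraMap C (BD k C) c⁻¹ * g, by rw [← hg]; ring⟩

theorem Al.inv (hff : FF w) {S0 : Set (Pl (Ct C) (kap w))} (hS0 : S0.Finite)
    (hψ : ∀ q ∉ S0, Emb w q (ψ q)) {f : K} (hf : Al ψ f) : Al ψ f⁻¹ := by
  rcases eq_or_ne f 0 with rfl | hf0
  · rw [inv_zero]; exact hf
  obtain ⟨S, hS, h1⟩ := hf
  refine ⟨(S ∪ S0) ∪ {q | Red332.od w q f ≠ 0}, (hS.union hS0).union (od_eq_zero w hff hf0),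
    fun q hq => ?_⟩
  rw [Set.mem_union, Set.mem_union, not_or, not_or, Set.mem_ofPred_eq, not_not] at hq
  obtain ⟨⟨hq1, hq2⟩, hq3⟩ := hq
  obtain ⟨b, hb⟩ := h1 q hq1
  have hE := hψ q hq2
  have hne : ψ q f ≠ 0 := by rwa [Ne, map_eq_zero]
  obtain ⟨c, hc⟩ := w.val f hf0
  obtain ⟨g, hg⟩ := exists_inv_od (b := b) (c := c) (by rw [hb]; exact hne)
    (by rw [hb, hE.nm, hc, coe_nnnorm]) (by rw [hb, hE.od f hf0, hq3])
  refine ⟨g, ?_⟩
  rw [map_inv₀]
  refine eq_inv_of_mul_eq_one_right ?_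
  rw [← hb, ← map_mul, hg, map_one]

/-- roots -/
theorem Al.root (hff : FF w) {S0 : Set (Pl (Ct C) (kap w))} (hS0 : S0.Finite)
    (hψ : ∀ q ∉ S0, Emb w q (ψ q)) {z : K} (hz : w.v z = 1) (P : Polynomial K)
    (hP : ∀ n, Al ψ (P.coeff n)) (hP1 : ∀ n, w.v (P.coeff n) ≤ 1) (h0 : P.eval z = 0)
    (h1 : w.v (P.derivative.eval z) = 1) : Al ψ z := by
  classical
  choose S hS hS' using hP
  have hz0 : z ≠ 0 := (Valuation.ne_zero_iff w.v).1 (by rw [hz]; exact one_ne_zero)
  have hd0 : P.derivative.eval z ≠ 0 :=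
    (Valuation.ne_zero_iff w.v).1 (by rw [h1]; exact one_ne_zero)
  refine ⟨((S0 ∪ ⋃ n ∈ Finset.range (P.natDegree + 1), S n) ∪ {q | Red332.od w q z ≠ 0}) ∪
    {q | Red332.od w q (P.derivative.eval z) ≠ 0},
    ((hS0.union (Set.Finite.biUnion (Finset.finite_toSet _) fun n _ => hS n)).union
      (od_eq_zero w hff hz0)).union (od_eq_zero w hff hd0), fun q hq => ?_⟩
  simp only [Set.mem_union, Set.mem_iUnion, not_or, Set.mem_ofPred_eq, not_not, not_exists] at hq
  obtain ⟨⟨⟨hq1, hq2⟩, hq3⟩, hq4⟩ := hq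
  have hE := hψ q hq1
  have hco : ∀ n, ∃ b : OB k C, (ofBD (b : BD k C) : EE k C) = ψ q (P.coeff n) := by
    intro n
    by_cases hn : n ∈ Finset.range (P.natDegree + 1)
    · obtain ⟨b, hb⟩ := hS' n q (hq2 n hn)
      refine ⟨⟨b, ?_⟩, hb⟩
      show BdS 1 b
      have h2 : gn (ofBD b : EE k C) ≤ 1 := by
        rw [hb, hE.nm]
        exact_mod_cast hP1 n
      exact fun n => (bdS_of_gn n).trans h2
    · refine ⟨0, ?_⟩
      rw [Polynomial.coeff_eq_zero_of_natDegree_lt (by simpa using hn), map_zero]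
      exact map_zero _
  choose b hb using hco
  set Q : Polynomial (OB k C) := ∑ n ∈ Finset.range (P.natDegree + 1), Polynomial.monomial n (b n)
    with hQ
  have hQco : ∀ n, (ofBD ((Q.coeff n : OB k C) : BD k C) : EE k C) = ψ q (P.coeff n) := by
    intro n
    rw [hQ, Polynomial.finsetSum_coeff]
    simp only [Polynomial.coeff_monomial]
    rw [Finset.sum_ite_eq']
    split_ifs with h
    · exact hb n
    · rw [Polynomial.coeff_eq_zero_of_natDegree_lt (by simpa using h), map_zero]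
      exact map_zero _
  have hmap : (Q.map (obv k C)).map (Ov k C).subtype = P.map (ψ q : K →+* EE k C) := by
    ext1 n
    rw [Polynomial.coeff_map, Polynomial.coeff_map, Polynomial.coeff_map]
    exact hQco n
  have hy : gn (ψ q z) ≤ 1 := by rw [hE.nm, hz]; exact le_refl _
  have hev : ∀ R : Polynomial (Ov k C), ∀ R' : Polynomial K,
      R.map (Ov k C).subtype = R'.map (ψ q : K →+* EE k C) →
      ((R.eval (⟨ψ q z, hy⟩ : Ov k C) : Ov k C) : EE k C) = ψ q (R'.eval z) := by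
    intro R R' hR
    have e1 : ((R.eval (⟨ψ q z, hy⟩ : Ov k C) : Ov k C) : EE k C) =
        (R.map (Ov k C).subtype).eval (ψ q z) := by
      rw [Polynomial.eval_map]
      exact (Polynomial.eval₂_at_apply (Ov k C).subtype (⟨ψ q z, hy⟩ : Ov k C)).symm
    rw [e1, hR, Polynomial.eval_map]
    exact Polynomial.eval₂_at_apply (ψ q : K →+* EE k C) z
  have hder := hev ((Q.map (obv k C)).derivative) P.derivative (by
    rw [← Polynomial.derivative_map, hmap, Polynomial.derivative_map])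
  have a1 : ∀ n < 0, ‖(ψ q z).co n‖ < 1 := by
    intro n hn
    have hne : ψ q z ≠ 0 := by rwa [Ne, map_eq_zero]
    have h2 := norm_lt_of_lt_od (a := ψ q z) hne (n := n) (by rw [hE.od z hz0, hq3]; exact hn)
    rw [hE.nm, hz] at h2
    exact h2
  have a2 : (Q.map (obv k C)).eval (⟨ψ q z, hy⟩ : Ov k C) = 0 := by
    apply Subtype.ext
    rw [hev _ P hmap, h0, map_zero]
    rfl
  have a3 : gn (((Q.map (obv k C)).derivative.eval (⟨ψ q z, hy⟩ : Ov k C) : Ov k C) : EE k C) = 1 := by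
    rw [hder, hE.nm, h1]; rfl
  have a4 : EE809.od (((Q.map (obv k C)).derivative.eval (⟨ψ q z, hy⟩ : Ov k C) : Ov k C) : EE k C) = 0 := by
    rw [hder, hE.od _ hd0, hq4]
  obtain ⟨c, -, hc⟩ := root_mem Q hy a1 a2 a3 a4
  exact ⟨c, hc⟩

variable (k) in
/-- **embD + embD'** -/
theorem embD [CharZero C] (p : ℕ) [Fact p.Prime] (hp : ‖(p : C)‖ < 1)
    [Algebra (RatFunc C) K] [IsScalarTower C (RatFunc C) K]
    [FiniteDimensional (RatFunc C) K] (w : Nm C K) (hff : FF w) :
    ∃ (S : Set (Pl (Ct C) (kap w))) (ψ : ∀ q, q ∉ S → (K →ₐ[C] FD k C)), S.Finite ∧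
      (∀ q (hq : q ∉ S), (∀ f, gn (toEE k C (ψ q hq f)) = w.v f) ∧
        ∀ f, f ≠ 0 → EE809.od (toEE k C (ψ q hq f)) = Red332.od w q f) ∧
      ∀ f, ∃ T : Set (Pl (Ct C) (kap w)), T.Finite ∧ S ⊆ T ∧ ∀ q (hq : q ∉ S), q ∉ T →
        ∃ b : BD k C, ψ q hq f = algebraMap (BD k C) (FD k C) b ∧
          ∀ n, ‖PowerSeries.coeff n (b : PowerSeries C)‖ ≤ w.v f := by
  classical
  obtain ⟨t, ht, S0, hS0, hτ⟩ := exists_shift w hff
  -- a direction
  by_cases hex : ∃ q0, q0 ∉ S0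
  swap
  · -- then all directions are exceptional
    push Not at hex
    have hfin : (Set.univ : Set (Pl (Ct C) (kap w))).Finite := hS0.subset fun q _ => hex q
    exact ⟨Set.univ, fun q hq => absurd (Set.mem_univ q) hq, hfin,
      fun q hq => absurd (Set.mem_univ q) hq, fun f =>
      ⟨Set.univ, hfin, le_rfl, fun q hq => absurd (Set.mem_univ q) hq⟩⟩
  obtain ⟨q0, hq0⟩ := hex
  choose! τ hτ1 hτ2 hτ3 using hτ
  -- the embeddings in `EE`
  have hemb : ∀ q, ∃ φ : K →ₐ[C] EE k C, q ∉ S0 →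
      φ (t - algebraMap C K (τ q)) = T 1 ∧ Emb w q φ := by
    intro q
    by_cases hq : q ∈ S0
    · obtain ⟨φ, -, -⟩ := exists_emb_t k p hp w hff q0 _ (hτ2 q0 hq0) (hτ3 q0 hq0)
      exact ⟨φ, fun h => absurd hq h⟩
    · obtain ⟨φ, h1, h2, h3⟩ := exists_emb_t k p hp w hff q _ (hτ2 q hq) (hτ3 q hq)
      refine ⟨φ, fun _ => ⟨h1, ⟨fun f => ?_, h3⟩⟩⟩
      rw [← h2 f]; exact (coe_gnn _).symm
  choose φ hφ using hemb
  obtain ⟨z, P, hz1, hP0, hPd, hPc, hPF, hgen⟩ := exists_gen k p hp w hff q0 _ (hτ2 q0 hq0)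
    (hτ3 q0 hq0)
  have hE : ∀ q ∉ S0, Emb w q (φ q) := fun q hq => (hφ q hq).2
  -- the field of good functions
  let G : Subfield K :=
    { carrier := {f | Al φ f}
      mul_mem' := fun ha hb => Al.mul ha hb
      one_mem' := by
        have := Al.const (ψ := φ) (1 : C)
        rwa [map_one] at this
      add_mem' := fun ha hb => Al.add ha hb
      zero_mem' := by
        have := Al.const (ψ := φ) (0 : C)
        rwa [map_zero] at this
      neg_mem' := fun ha => Al.neg ha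
      inv_mem' := fun f hf => Al.inv hff hS0 hE hf }
  have hTt : ∀ q ∉ S0, φ q t = ofBD (⟨PowerSeries.X, X_mem_BD⟩ + algebraMap C (BD k C) (τ q)) := by
    intro q hq
    have h1 := (hφ q hq).1
    rw [map_sub, AlgHom.commutes, sub_eq_iff_eq_add] at h1
    rw [h1, map_add, ofBD_algebraMap, ← toEE_TF, TF, toEE_algebraMap]
    rfl
  have hGC : ∀ c : C, algebraMap C K c ∈ G := fun c => Al.const c
  have hGt : t - algebraMap C K (τ q0) ∈ G := by
    refine sub_mem ?_ (hGC _)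
    exact ⟨S0, hS0, fun q hq => ⟨_, (hTt q hq).symm⟩⟩
  have hGz : z ∈ G := Al.root hff hS0 hE hz1 P (fun n => hPF G hGC hGt n) hPc hP0 hPd
  have hG : ∀ f, f ∈ G := hgen G hGC hGt hGz
  obtain ⟨S1, hS1, hS1'⟩ := hGz
  -- the embeddings in `FD`
  have key : ∀ q, q ∉ S0 ∪ S1 → ∃ ψ : K →ₐ[C] FD k C, ∀ f, toEE k C (ψ f) = φ q f := by
    intro q hq
    rw [Set.mem_union, not_or] at hq
    let H : Subfield K := (toEE k C : FD k C →+* EE k C).fieldRange.comap (φ q : K →+* EE k C)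
    have hH : ∀ f, f ∈ H := by
      refine hgen H (fun c => ?_) ?_ ?_
      · refine ⟨algebraMap C (FD k C) c, ?_⟩
        show toEE k C _ = φ q _
        rw [AlgHom.commutes, AlgHom.commutes]
      · refine ⟨algebraMap (BD k C) (FD k C) (⟨PowerSeries.X, X_mem_BD⟩ +
          algebraMap C (BD k C) (τ q) - algebraMap C (BD k C) (τ q0)), ?_⟩
        show toEE k C _ = φ q _
        rw [toEE_algebraMap, map_sub, map_sub, hTt q hq.1, AlgHom.commutes, ofBD_algebraMap]
      · obtain ⟨b, hb⟩ := hS1' q hq.2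
        refine ⟨algebraMap (BD k C) (FD k C) b, ?_⟩
        show toEE k C _ = φ q _
        rw [toEE_algebraMap, hb]
    choose g hg using hH
    have hg' : ∀ f, toEE k C (g f) = φ q f := hg
    exact ⟨{ toFun := g
             map_one' := toEE_injective (by rw [hg', map_one, map_one])
             map_mul' := fun a b => toEE_injective (by rw [map_mul, hg', hg', hg', map_mul])
             map_zero' := toEE_injective (by rw [hg', map_zero, map_zero])
             map_add' := fun a b => toEE_injective (by rw [map_add, hg', hg', hg', map_add])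
             commutes' := fun c => toEE_injective (by
               rw [hg', AlgHom.commutes, AlgHom.commutes]) }, hg'⟩
  choose ψ hψ using key
  refine ⟨S0 ∪ S1, ψ, hS0.union hS1, fun q hq => ?_, fun f => ?_⟩
  · have hq' := hq
    rw [Set.mem_union, not_or] at hq'
    refine ⟨fun f => ?_, fun f hf => ?_⟩
    · rw [hψ q hq, (hE q hq'.1).nm]
    · rw [hψ q hq, (hE q hq'.1).od f hf]
  · obtain ⟨T, hT, hT'⟩ := hG f
    refine ⟨(S0 ∪ S1) ∪ T, (hS0.union hS1).union hT, Set.subset_union_left, fun q hq hqT => ?_⟩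
    rw [Set.mem_union, not_or] at hqT
    obtain ⟨b, hb⟩ := hT' q hqT.2
    have hq1 := hq
    rw [Set.mem_union, not_or] at hq1
    refine ⟨b, toEE_injective (by rw [hψ q hq, toEE_algebraMap, hb]), fun n => ?_⟩
    have h1 := bdS_of_gn (f := b) (k := k) (C := C) n
    rw [hb, (hE q hq1.1).nm] at h1
    exact h1

end Crest.Agent.R013.DirE_607
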