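import Crest.Agent.R013.Gl2_946

/-!
# Patching, part 3: Weierstrass preparation, the field `FP`, the ring `RU`, factorisation and
intersection.
-/

set_option autoImplicit false

namespace Crest.Agent.R013.Gl946

open Filter Topology Polynomial

section CartanUltra

variable {R : Type*} [NormedRing R] [CompleteSpace R] [IsUltrametricDist R]

private def step' (α β : R → R) (s : R × R × R) : R × R × R :=
  ((1 - α s.2.2) * s.1, s.2.1 * (1 - β s.2.2),
    - (α s.2.2 * s.2.2) - β s.2.2 * β s.2.2 + α s.2.2 * s.2.2 * β s.2.2)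

private def iter' (α β : R → R) (m : R) : ℕ → R × R × R
  | 0 => (1, 1, m - 1)
  | n + 1 => step' α β (iter' α β m n)

omit [CompleteSpace R] in
private theorem rsub (a b : R) : ‖a - b‖ ≤ max ‖a‖ ‖b‖ := by
  have := IsUltrametricDist.norm_add_le_max a (-b)
  rwa [norm_neg, ← sub_eq_add_neg] at this

/-- Ultrametric Cartan lemma: it is enough that `‖m - 1‖ < 1`. -/
theorem cartan_ultra (A B : Subring R) (hA : IsClosed (A : Set R)) (hB : IsClosed (B : Set R))
    (dec : ∀ x : R, ∃ a ∈ A, ∃ b ∈ B, x = a + b ∧ ‖a‖ ≤ ‖x‖ ∧ ‖b‖ ≤ ‖x‖)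
    (m : R) (hm : ‖m - 1‖ < 1) :
    ∃ a ∈ A, ∃ a' ∈ A, ∃ b ∈ B, ∃ b' ∈ B, a * a' = 1 ∧ a' * a = 1 ∧ b * b' = 1 ∧ b' * b = 1 ∧
      m = a * b := by
  choose α hαA β hβB hdec hα hβ using dec
  set q := ‖m - 1‖ with hqdef
  have hq0 : 0 ≤ q := norm_nonneg _
  set s : ℕ → R × R × R := iter' α β m with hs
  have s0 : s 0 = (1, 1, m - 1) := rfl
  have sS : ∀ n, s (n + 1) = step' α β (s n) := fun n => rfl
  have sA : ∀ n, (s n).1 ∈ A := by
    intro n
    induction n with
    | zero => rw [s0]; exact A.one_mem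
    | succ n ih => rw [sS]; exact A.mul_mem (A.sub_mem A.one_mem (hαA _)) ih
  have sB : ∀ n, (s n).2.1 ∈ B := by
    intro n
    induction n with
    | zero => rw [s0]; exact B.one_mem
    | succ n ih => rw [sS]; exact B.mul_mem ih (B.sub_mem B.one_mem (hβB _))
  have sX : ∀ n, (s n).1 * m * (s n).2.1 = 1 + (s n).2.2 := by
    intro n
    induction n with
    | zero => rw [s0]; simp
    | succ n ih =>
      rw [sS]
      have h1 : (step' α β (s n)).1 * m * (step' α β (s n)).2.1 =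
          (1 - α (s n).2.2) * ((s n).1 * m * (s n).2.1) * (1 - β (s n).2.2) := by
        simp only [step']; noncomm_ring
      rw [h1, ih]
      have h2 : (s n).2.2 = α (s n).2.2 + β (s n).2.2 := hdec _
      simp only [step']
      generalize α (s n).2.2 = a at *
      generalize β (s n).2.2 = b at *
      generalize (s n).2.2 = X at *
      subst h2
      noncomm_ring
  have sN : ∀ n, ‖(s n).2.2‖ ≤ q ^ (n + 1) := by
    intro n
    induction n with
    | zero => rw [s0]; simp [hqdef]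
    | succ n ih =>
      rw [sS]
      have hx0 : 0 ≤ ‖(s n).2.2‖ := norm_nonneg _
      have hxq : ‖(s n).2.2‖ ≤ q := ih.trans (by
        rw [pow_succ]
        calc q ^ n * q ≤ 1 * q := mul_le_mul_of_nonneg_right (pow_le_one₀ hq0 hm.le) hq0
          _ = q := one_mul q)
      have hx1 : ‖(s n).2.2‖ ≤ 1 := hxq.trans hm.le
      have ha := hα (s n).2.2
      have hb := hβ (s n).2.2
      have ha0 : 0 ≤ ‖α (s n).2.2‖ := norm_nonneg _
      have hb0 : 0 ≤ ‖β (s n).2.2‖ := norm_nonneg _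
      have hsq : ‖(s n).2.2‖ * ‖(s n).2.2‖ ≤ q ^ (n + 1 + 1) := by
        rw [pow_succ]
        exact mul_le_mul ih hxq hx0 (by positivity)
      have e2 : ‖α (s n).2.2 * (s n).2.2‖ ≤ ‖(s n).2.2‖ * ‖(s n).2.2‖ :=
        (norm_mul_le _ _).trans (mul_le_mul_of_nonneg_right ha hx0)
      have e3 : ‖β (s n).2.2 * β (s n).2.2‖ ≤ ‖(s n).2.2‖ * ‖(s n).2.2‖ :=
        (norm_mul_le _ _).trans (mul_le_mul hb hb hb0 hx0)
      have e4 : ‖α (s n).2.2 * (s n).2.2 * β (s n).2.2‖ ≤ ‖(s n).2.2‖ * ‖(s n).2.2‖ := by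
        refine (norm_mul_le _ _).trans ?_
        calc _ ≤ (‖(s n).2.2‖ * ‖(s n).2.2‖) * 1 :=
              mul_le_mul e2 (hb.trans hx1) hb0 (by positivity)
          _ = _ := mul_one _
      simp only [step']
      refine (IsUltrametricDist.norm_add_le_max _ _).trans (max_le ?_ (e4.trans hsq))
      refine (rsub _ _).trans (max_le ?_ (e3.trans hsq))
      rw [norm_neg]
      exact e2.trans hsq
  have sNq : ∀ n, ‖(s n).2.2‖ ≤ q := fun n => (sN n).trans (by
    rw [pow_succ]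
    calc q ^ n * q ≤ 1 * q := mul_le_mul_of_nonneg_right (pow_le_one₀ hq0 hm.le) hq0
      _ = q := one_mul q)
  have a_le : ∀ n, ‖α (s n).2.2‖ ≤ q ^ (n + 1) := fun n => (hα _).trans (sN n)
  have b_le : ∀ n, ‖β (s n).2.2‖ ≤ q ^ (n + 1) := fun n => (hβ _).trans (sN n)
  have sP1 : ∀ n, ‖(s n).1 - 1‖ ≤ q := by
    intro n
    induction n with
    | zero => rw [s0]; simpa using hq0
    | succ n ih =>
      have h1 : (s (n + 1)).1 - 1 = ((s n).1 - 1) - α (s n).2.2 * ((s n).1 - 1)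
          - α (s n).2.2 := by
        rw [sS]; simp only [step']; noncomm_ring
      rw [h1]
      have haq : ‖α (s n).2.2‖ ≤ q := (hα _).trans (sNq n)
      refine (rsub _ _).trans (max_le ((rsub _ _).trans (max_le ih ?_)) haq)
      refine (norm_mul_le _ _).trans ?_
      calc _ ≤ q * 1 := mul_le_mul haq (ih.trans hm.le) (norm_nonneg _) hq0
        _ = q := mul_one q
  have sQ1 : ∀ n, ‖(s n).2.1 - 1‖ ≤ q := by
    intro n
    induction n with
    | zero => rw [s0]; simpa using hq0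
    | succ n ih =>
      have h1 : (s (n + 1)).2.1 - 1 = ((s n).2.1 - 1) - ((s n).2.1 - 1) * β (s n).2.2
          - β (s n).2.2 := by
        rw [sS]; simp only [step']; noncomm_ring
      rw [h1]
      have hbq : ‖β (s n).2.2‖ ≤ q := (hβ _).trans (sNq n)
      refine (rsub _ _).trans (max_le ((rsub _ _).trans (max_le ih ?_)) hbq)
      refine (norm_mul_le _ _).trans ?_
      calc _ ≤ 1 * q := mul_le_mul (ih.trans hm.le) hbq (norm_nonneg _) zero_le_one
        _ = q := one_mul q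
  have cP : CauchySeq fun n => (s n).1 := by
    refine cauchySeq_of_le_geometric q (q * (‖(1:R)‖ + 1)) hm fun n => ?_
    rw [dist_eq_norm]
    have h1 : (s n).1 - (s (n + 1)).1 = α (s n).2.2 * (s n).1 := by
      rw [sS]; simp only [step']; noncomm_ring
    rw [h1]
    have h2 : ‖(s n).1‖ ≤ ‖(1:R)‖ + 1 := by
      have := norm_add_le ((s n).1 - 1) 1
      rw [sub_add_cancel] at this
      have h3 := sP1 n
      linarith
    have h3 : ‖α (s n).2.2 * (s n).1‖ ≤ q ^ (n + 1) * (‖(1:R)‖ + 1) :=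
      (norm_mul_le _ _).trans (mul_le_mul (a_le n) h2 (norm_nonneg _) (by positivity))
    refine h3.trans (le_of_eq ?_)
    rw [pow_succ]; ring
  have cQ : CauchySeq fun n => (s n).2.1 := by
    refine cauchySeq_of_le_geometric q (q * (‖(1:R)‖ + 1)) hm fun n => ?_
    rw [dist_eq_norm]
    have h1 : (s n).2.1 - (s (n + 1)).2.1 = (s n).2.1 * β (s n).2.2 := by
      rw [sS]; simp only [step']; noncomm_ring
    rw [h1]
    have h2 : ‖(s n).2.1‖ ≤ ‖(1:R)‖ + 1 := by
      have := norm_add_le ((s n).2.1 - 1) 1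
      rw [sub_add_cancel] at this
      have h3 := sQ1 n
      linarith
    have h3 : ‖(s n).2.1 * β (s n).2.2‖ ≤ (‖(1:R)‖ + 1) * q ^ (n + 1) :=
      (norm_mul_le _ _).trans (mul_le_mul h2 (b_le n) (norm_nonneg _) (by positivity))
    refine h3.trans (le_of_eq ?_)
    rw [pow_succ]; ring
  obtain ⟨P, hP⟩ := cauchySeq_tendsto_of_complete cP
  obtain ⟨Q, hQ⟩ := cauchySeq_tendsto_of_complete cQ
  have PA : P ∈ A := hA.mem_of_tendsto hP (Eventually.of_forall sA)
  have QB : Q ∈ B := hB.mem_of_tendsto hQ (Eventually.of_forall sB)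
  have P1 : ‖P - 1‖ < 1 :=
    (le_of_tendsto (hP.sub_const 1).norm (Eventually.of_forall sP1)).trans_lt hm
  have Q1 : ‖Q - 1‖ < 1 :=
    (le_of_tendsto (hQ.sub_const 1).norm (Eventually.of_forall sQ1)).trans_lt hm
  have X0 : Tendsto (fun n => (s n).2.2) atTop (𝓝 0) := by
    refine squeeze_zero_norm sN ?_
    exact (tendsto_pow_atTop_nhds_zero_of_lt_one hq0 hm).comp (tendsto_add_atTop_nat 1)
  have key : P * m * Q = 1 := by
    have h1 : Tendsto (fun n => (s n).1 * m * (s n).2.1) atTop (𝓝 (P * m * Q)) :=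
      (hP.mul_const m).mul hQ
    have h2 : Tendsto (fun n => 1 + (s n).2.2) atTop (𝓝 (1 + 0)) := X0.const_add 1
    have h3 : (fun n => (s n).1 * m * (s n).2.1) = fun n => 1 + (s n).2.2 := funext sX
    rw [h3] at h1
    have := tendsto_nhds_unique h1 h2
    simpa using this
  obtain ⟨P', hP'A, hPP', hP'P⟩ := exists_inv_of_near_one A hA P PA P1
  obtain ⟨Q', hQ'B, hQQ', hQ'Q⟩ := exists_inv_of_near_one B hB Q QB Q1
  refine ⟨P', hP'A, P, PA, Q', hQ'B, Q, QB, hP'P, hPP', hQ'Q, hQQ', ?_⟩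
  calc m = P' * P * m * (Q * Q') := by rw [hP'P, hQQ']; simp
    _ = P' * (P * m * Q) * Q' := by noncomm_ring
    _ = P' * Q' := by rw [key]; simp

end CartanUltra

variable {k E : Type*} [NormedField k] [NormedField E] [NormedAlgebra k E]
  [IsUltrametricDist E] [CompleteSpace E] {y : E} (hG : IsGauss k y)

/-- **Weierstrass preparation in `AP`**: a nonzero element is a unit times a polynomial. -/
theorem weierstrass [CompleteSpace k] {π : k} (hπ : IsUnif π) (hd : DenseRat k y)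
    (f : E) (hf : f ∈ AP hG) (hf0 : f ≠ 0) :
    ∃ u ∈ AP hG, ∃ u' ∈ AP hG, ∃ p : k[X], p ≠ 0 ∧ u * u' = 1 ∧ f = u * aeval y p := by
  have hfn : 0 < ‖f‖ := norm_pos_iff.2 hf0
  obtain ⟨z, hz, hzw⟩ := Metric.mem_closure_iff.1 (show f ∈ closure (AP0alg hG : Set E) from hf)
    (‖π‖ * ‖f‖) (mul_pos hπ.pos hfn)
  obtain ⟨f0, g0, hg1, hg0, rfl⟩ := hz
  rw [dist_eq_norm] at hzw
  have hg0n := hG.norm_of_coeff_zero g0 hg1 hg0
  have hg0ne : aeval y g0 ≠ 0 := by
    intro h; rw [h, norm_zero] at hg0n; norm_num at hg0n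
  have hlt : ‖f - aeval y f0 / aeval y g0‖ < ‖f‖ := hzw.trans (by
    calc ‖π‖ * ‖f‖ < 1 * ‖f‖ := mul_lt_mul_of_pos_right hπ.lt_one hfn
      _ = ‖f‖ := one_mul _)
  have hf0n : ‖aeval y f0‖ = ‖f‖ := by
    have h1 : ‖aeval y f0 / aeval y g0‖ = ‖aeval y f0‖ := by rw [norm_div, hg0n, div_one]
    rw [← h1]
    apply le_antisymm
    · have : aeval y f0 / aeval y g0 = f - (f - aeval y f0 / aeval y g0) := by ring
      rw [this]
      exact (nsub _ _).trans (max_le le_rfl hlt.le)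
    · by_contra hcon
      push Not at hcon
      have : f = (f - aeval y f0 / aeval y g0) + aeval y f0 / aeval y g0 := by ring
      have h2 : ‖f‖ ≤ max ‖f - aeval y f0 / aeval y g0‖ ‖aeval y f0 / aeval y g0‖ := by
        conv_lhs => rw [this]
        exact nadd _ _
      rcases le_max_iff.1 h2 with h | h
      · exact absurd hlt (not_lt.2 h)
      · exact absurd hcon (not_lt.2 h)
  have hf0ne : f0 ≠ 0 := by
    rintro rfl
    rw [map_zero, norm_zero] at hf0n
    exact hfn.ne hf0n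
  obtain ⟨m, hm, hmin⟩ := hG.exists_index hf0ne
  set c := f0.coeff m with hc
  have hcn : ‖c‖ = ‖f‖ := hm.trans hf0n
  have hc0 : c ≠ 0 := by
    intro h; rw [h, norm_zero] at hcn; exact hfn.ne hcn
  obtain ⟨l, g', h1, h2, h3, h4⟩ := split_low (C c⁻¹ * f0) m
  have hco : ∀ i, ‖(C c⁻¹ * f0).coeff i‖ ≤ 1 := fun i => by
    rw [coeff_C_mul, norm_mul, norm_inv, hcn, inv_mul_le_iff₀ hfn, mul_one, ← hf0n]
    exact hG.coeff_le _ _
  have hl : ‖aeval y l‖ ≤ ‖π‖ := by
    refine hG.aeval_le l hπ.pos.le fun i => ?_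
    rcases lt_or_ge i m with h | h
    · rw [h2 i h]
      refine hπ.le _ ?_
      rw [coeff_C_mul, norm_mul, norm_inv, hcn, inv_mul_lt_iff₀ hfn, mul_one, ← hf0n]
      exact hmin i h
    · rw [h3 i h, norm_zero]; exact hπ.pos.le
  have hg'1 : ‖aeval y g'‖ ≤ 1 := hG.aeval_le g' zero_le_one fun i => by rw [h4]; exact hco _
  have hg'0 : g'.coeff 0 = 1 := by
    rw [h4, coeff_C_mul, Nat.zero_add]
    exact inv_mul_cancel₀ hc0
  have hg'n : ‖aeval y g'‖ = 1 := hG.norm_of_coeff_zero g' hg'1 hg'0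
  have hg'ne : aeval y g' ≠ 0 := by
    intro h; rw [h, norm_zero] at hg'n; norm_num at hg'n
  have hy := hG.ne_zero
  have hcE : algebraMap k E c ≠ 0 := by
    intro h
    have := norm_algebraMap' E c
    rw [h, norm_zero, hcn] at this
    exact hfn.ne this
  -- v = g'/g0 unit
  set v : E := aeval y g' / aeval y g0 with hv
  have hvAP : v ∈ AP hG := AP0_le_AP hG ⟨g', g0, hg1, hg0, rfl⟩
  have hv'AP : v⁻¹ ∈ AP hG := AP0_le_AP hG ⟨g0, g', hg'1, hg'0, by rw [hv, inv_div]⟩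
  have hvne : v ≠ 0 := div_ne_zero hg'ne hg0ne
  have hvn : ‖v‖ = 1 := by rw [hv, norm_div, hg'n, hg0n, div_one]
  -- h = f / (c v y^m) is close to 1
  set h : E := f / (algebraMap k E c * v * y ^ m) with hh
  have hden : algebraMap k E c * v * y ^ m ≠ 0 :=
    mul_ne_zero (mul_ne_zero hcE hvne) (pow_ne_zero _ hy)
  have hdenn : ‖algebraMap k E c * v * y ^ m‖ = ‖f‖ := by
    rw [norm_mul, norm_mul, norm_algebraMap', hvn, norm_pow, hG.norm_eq, one_pow, hcn, mul_one,
      mul_one]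
  have hh1 : ‖h - 1‖ < 1 := by
    have e1 : h - 1 = (f - algebraMap k E c * v * y ^ m) / (algebraMap k E c * v * y ^ m) := by
      rw [hh, sub_div, div_self hden]
    have e2 : f - algebraMap k E c * v * y ^ m =
        (f - aeval y f0 / aeval y g0) + algebraMap k E c * (aeval y l / aeval y g0) := by
      have e3 : aeval y f0 = algebraMap k E c * (aeval y l + y ^ m * aeval y g') := by
        have e4 : aeval y (C c⁻¹ * f0) = aeval y l + y ^ m * aeval y g' := by
          rw [h1, map_add, map_mul, map_pow, aeval_X]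
        rw [← e4, map_mul, aeval_C, map_inv₀, mul_inv_cancel_left₀ hcE]
      rw [e3, hv]
      field_simp
      ring
    rw [e1, norm_div, hdenn, div_lt_one hfn, e2]
    refine (nadd _ _).trans_lt (max_lt hlt ?_)
    rw [norm_mul, norm_algebraMap', norm_div, hg0n, div_one, hcn]
    calc ‖f‖ * ‖aeval y l‖ ≤ ‖f‖ * ‖π‖ := mul_le_mul_of_nonneg_left hl hfn.le
      _ < ‖f‖ * 1 := mul_lt_mul_of_pos_left hπ.lt_one hfn
      _ = ‖f‖ := mul_one _
  obtain ⟨a, ha, a', ha', b, hb, b', hb', e1, e2, e3, e4, e5⟩ :=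
    cartan_ultra (AU k y).toSubring (AP hG).toSubring (isClosed_AU y) (isClosed_AP hG)
      (dec hG hπ hd) h hh1
  -- y^m a = f b'/(c v) is in AP
  have hbne : b ≠ 0 := left_ne_zero_of_mul_eq_one e3
  have hw : y ^ m * a ∈ AP hG := by
    have : y ^ m * a = (algebraMap k E c)⁻¹ * (f * v⁻¹ * b') := by
      have e6 : a = h * b' := by rw [e5, mul_assoc, e3, mul_one]
      rw [e6, hh]
      field_simp
    rw [this, ← map_inv₀]
    exact mul_mem ((AP hG).algebraMap_mem _) (mul_mem (mul_mem hf hv'AP) hb')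
  obtain ⟨p, hp⟩ := inter_poly hG hπ m (y ^ m * a) hw (by
    rw [mul_div_cancel_left₀ _ (pow_ne_zero _ hy)]; exact ha)
  have hane : a ≠ 0 := left_ne_zero_of_mul_eq_one e1
  refine ⟨algebraMap k E c * v * b, ?_, (algebraMap k E c)⁻¹ * v⁻¹ * b', ?_, p, ?_, ?_, ?_⟩
  · exact mul_mem (mul_mem ((AP hG).algebraMap_mem _) hvAP) hb
  · rw [← map_inv₀]
    exact mul_mem (mul_mem ((AP hG).algebraMap_mem _) hv'AP) hb'
  · rintro rfl
    rw [map_zero] at hp
    exact mul_ne_zero (pow_ne_zero _ hy) hane hp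
  · calc _ = (algebraMap k E c * (algebraMap k E c)⁻¹) * (v * v⁻¹) * (b * b') := by ring
      _ = 1 := by rw [mul_inv_cancel₀ hcE, mul_inv_cancel₀ hvne, e3]; ring
  · rw [← hp]
    have : f = h * (algebraMap k E c * v * y ^ m) := by rw [hh, div_mul_cancel₀ _ hden]
    rw [this, e5]; ring

/-! ### Fraction subrings -/

/-- `{a/d : a ∈ A, d ∈ B, d ≠ 0}` for subrings `B ≤ A` of a field. -/
def fracSub {E : Type*} [Field E] (A B : Subring E) (h : B ≤ A) : Subring E where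
  carrier := {z | ∃ a ∈ A, ∃ d ∈ B, d ≠ 0 ∧ z = a / d}
  mul_mem' := by
    rintro _ _ ⟨a, ha, d, hd, h1, rfl⟩ ⟨a', ha', d', hd', h1', rfl⟩
    exact ⟨a * a', mul_mem ha ha', d * d', mul_mem hd hd', mul_ne_zero h1 h1',
      by rw [div_mul_div_comm]⟩
  one_mem' := ⟨1, one_mem _, 1, one_mem _, one_ne_zero, by simp⟩
  add_mem' := by
    rintro _ _ ⟨a, ha, d, hd, h1, rfl⟩ ⟨a', ha', d', hd', h1', rfl⟩
    exact ⟨a * d' + d * a', add_mem (mul_mem ha (h hd')) (mul_mem (h hd) ha'), d * d',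
      mul_mem hd hd', mul_ne_zero h1 h1', by rw [div_add_div _ _ h1 h1']⟩
  zero_mem' := ⟨0, zero_mem _, 1, one_mem _, one_ne_zero, by simp⟩
  neg_mem' := by
    rintro _ ⟨a, ha, d, hd, h1, rfl⟩
    exact ⟨-a, neg_mem ha, d, hd, h1, by rw [neg_div]⟩

theorem le_fracSub {E : Type*} [Field E] (A B : Subring E) (h : B ≤ A) : A ≤ fracSub A B h :=
  fun a ha => ⟨a, ha, 1, one_mem _, one_ne_zero, by simp⟩

/-! ### The subfields `KY = k(y) ⊆ FP ⊆ E` and the ring `RU` -/

/-- `k(y)` inside `E`. -/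
def KY {y : E} (hG : IsGauss k y) : Subfield E where
  carrier := {z | ∃ f g : k[X], g ≠ 0 ∧ z = aeval y f / aeval y g}
  mul_mem' := by
    rintro _ _ ⟨f, g, h1, rfl⟩ ⟨f', g', h1', rfl⟩
    exact ⟨f * f', g * g', mul_ne_zero h1 h1', by rw [map_mul, map_mul, div_mul_div_comm]⟩
  one_mem' := ⟨1, 1, one_ne_zero, by simp⟩
  add_mem' := by
    rintro _ _ ⟨f, g, h1, rfl⟩ ⟨f', g', h1', rfl⟩
    refine ⟨f * g' + g * f', g * g', mul_ne_zero h1 h1', ?_⟩
    rw [map_mul, map_add, map_mul, map_mul,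
      div_add_div _ _ (hG.aeval_ne_zero h1) (hG.aeval_ne_zero h1')]
  zero_mem' := ⟨0, 1, one_ne_zero, by simp⟩
  neg_mem' := by
    rintro _ ⟨f, g, h1, rfl⟩
    exact ⟨-f, g, h1, by rw [map_neg, neg_div]⟩
  inv_mem' := by
    rintro _ ⟨f, g, h1, rfl⟩
    by_cases hf : f = 0
    · exact ⟨0, 1, one_ne_zero, by simp [hf]⟩
    · exact ⟨g, f, hf, by rw [inv_div]⟩

omit [IsUltrametricDist E] [CompleteSpace E] in
/-- A polynomial in `y` divided by `y^n`, `n ≥ deg`, is a polynomial in `1/y`. -/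
theorem poly_div_pow {y : E} (hG : IsGauss k y) (p : k[X]) (n : ℕ) (hn : p.natDegree ≤ n) :
    ∃ q : k[X], aeval y p / y ^ n = aeval (y⁻¹) q := by
  have hy := hG.ne_zero
  refine ⟨∑ i ∈ Finset.range (p.natDegree + 1), C (p.coeff i) * X ^ (n - i), ?_⟩
  rw [aeval_eq_sum_range, Finset.sum_div, map_sum]
  refine Finset.sum_congr rfl fun i hi => ?_
  rw [Finset.mem_range] at hi
  rw [map_mul, aeval_C, map_pow, aeval_X, Algebra.smul_def]
  have : y ^ n = y ^ i * y ^ (n - i) := by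
    rw [← pow_add]; congr 1; omega
  rw [this, inv_pow]
  field_simp

/-- `RU = AU · k(y)`: meromorphic functions on `|y| ≥ 1` with poles given by a polynomial. -/
noncomputable def RU (k : Type*) {E : Type*} [NormedField k] [NormedField E] [NormedAlgebra k E]
    (y : E) : Subring E :=
  fracSub (AU k y).toSubring (aeval (y⁻¹) : k[X] →ₐ[k] E).range.toSubring
    (Subalgebra.le_topologicalClosure _)

omit [IsUltrametricDist E] [CompleteSpace E] in
theorem KY_le_RU {y : E} (hG : IsGauss k y) : (KY hG).toSubring ≤ RU k y := by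
  rintro _ ⟨f, g, h1, rfl⟩
  have hy := hG.ne_zero
  obtain ⟨p, hp⟩ := poly_div_pow hG f (max f.natDegree g.natDegree) (le_max_left _ _)
  obtain ⟨q, hq⟩ := poly_div_pow hG g (max f.natDegree g.natDegree) (le_max_right _ _)
  refine ⟨aeval (y⁻¹) p, aeval_inv_mem_AU y p, aeval (y⁻¹) q, ⟨q, rfl⟩, ?_, ?_⟩
  · rw [← hq]
    exact div_ne_zero (hG.aeval_ne_zero h1) (pow_ne_zero _ hy)
  · rw [← hp, ← hq, div_div_div_cancel_right₀ (pow_ne_zero _ hy)]

/-- `FP = AP · k(y)`, the field of meromorphic functions on the open disc `|y| < 1`. -/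
noncomputable def FP [CompleteSpace k] {π : k} (hπ : IsUnif π) (hd : DenseRat k y) : Subfield E :=
  { fracSub (AP hG).toSubring (aeval y : k[X] →ₐ[k] E).range.toSubring (by
      rintro _ ⟨f, rfl⟩; exact aeval_mem_AP hG f) with
    inv_mem' := by
      rintro _ ⟨a, ha, d, hd', h1, rfl⟩
      by_cases ha0 : a = 0
      · exact ⟨0, zero_mem _, 1, one_mem _, one_ne_zero, by simp [ha0]⟩
      · obtain ⟨u, hu, u', hu', p, hp, e1, e2⟩ := weierstrass hG hπ hd a ha ha0
        obtain ⟨q, rfl⟩ := hd'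
        have hune : u ≠ 0 := left_ne_zero_of_mul_eq_one e1
        have hpne := hG.aeval_ne_zero hp
        have hu'e : u' = u⁻¹ := eq_inv_of_mul_eq_one_right e1
        refine ⟨u' * aeval y q, mul_mem hu' (aeval_mem_AP hG q), aeval y p, ⟨p, rfl⟩, hpne, ?_⟩
        rw [e2, hu'e]
        simp only [inv_div]
        field_simp
        rfl }

theorem mem_FP [CompleteSpace k] {π : k} (hπ : IsUnif π) (hd : DenseRat k y) (z : E) :
    z ∈ FP hG hπ hd ↔ ∃ a ∈ AP hG, ∃ g : k[X], g ≠ 0 ∧ z = a / aeval y g := by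
  constructor
  · rintro ⟨a, ha, _, ⟨g, rfl⟩, h1, rfl⟩
    exact ⟨a, ha, g, by rintro rfl; exact h1 (map_zero _), rfl⟩
  · rintro ⟨a, ha, g, h1, rfl⟩
    exact ⟨a, ha, _, ⟨g, rfl⟩, hG.aeval_ne_zero h1, rfl⟩

theorem KY_le_FP [CompleteSpace k] {π : k} (hπ : IsUnif π) (hd : DenseRat k y) :
    KY hG ≤ FP hG hπ hd := by
  rintro _ ⟨f, g, h1, rfl⟩
  exact (mem_FP hG hπ hd _).2 ⟨_, aeval_mem_AP hG f, g, h1, rfl⟩

omit [IsUltrametricDist E] [CompleteSpace E] in
/-- A polynomial in `1/y` times `y^n`, `n ≥ deg`, is a polynomial in `y`. -/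
theorem inv_poly_mul_pow {y : E} (hG : IsGauss k y) (h : k[X]) :
    ∃ q : k[X], aeval (y⁻¹) h * y ^ h.natDegree = aeval y q := by
  have hy := hG.ne_zero
  refine ⟨∑ i ∈ Finset.range (h.natDegree + 1), C (h.coeff i) * X ^ (h.natDegree - i), ?_⟩
  rw [aeval_eq_sum_range, Finset.sum_mul, map_sum]
  refine Finset.sum_congr rfl fun i hi => ?_
  rw [Finset.mem_range] at hi
  rw [map_mul, aeval_C, map_pow, aeval_X, Algebra.smul_def]
  have : y ^ h.natDegree = y ^ i * y ^ (h.natDegree - i) := by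
    rw [← pow_add]; congr 1; omega
  rw [this, inv_pow]
  field_simp

/-- **(G2)** `FP ∩ RU = k(y)`. -/
theorem inter_FP_RU [CompleteSpace k] {π : k} (hπ : IsUnif π) (hd : DenseRat k y) (z : E)
    (h1 : z ∈ FP hG hπ hd) (h2 : z ∈ RU k y) : z ∈ KY hG := by
  obtain ⟨a, ha, g, hg, rfl⟩ := (mem_FP hG hπ hd _).1 h1
  obtain ⟨b, hb, _, ⟨h, rfl⟩, hh, hab⟩ := h2
  have hy := hG.ne_zero
  have hgne := hG.aeval_ne_zero hg
  replace hh : aeval (y⁻¹) h ≠ 0 := hh
  replace hab : a / aeval y g = b / aeval (y⁻¹) h := hab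
  obtain ⟨h', hh'⟩ := inv_poly_mul_pow hG h
  have hh'ne : aeval y h' ≠ 0 := by
    rw [← hh']; exact mul_ne_zero hh (pow_ne_zero _ hy)
  have hh'0 : h' ≠ 0 := by rintro rfl; exact hh'ne (map_zero _)
  rw [div_eq_div_iff hgne hh] at hab
  have hw : a * aeval y h' = b * aeval y g * y ^ h.natDegree := by
    rw [← hh', ← mul_assoc, hab]
  obtain ⟨q, hq⟩ := poly_div_pow hG g g.natDegree le_rfl
  obtain ⟨p, hp⟩ := inter_poly hG hπ (h.natDegree + g.natDegree) (a * aeval y h')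
    (mul_mem ha (aeval_mem_AP hG h')) (by
      have : a * aeval y h' / y ^ (h.natDegree + g.natDegree) =
          b * (aeval y g / y ^ g.natDegree) := by
        rw [hw, pow_add]
        field_simp
      rw [this, hq]
      exact mul_mem hb (aeval_inv_mem_AU y q))
  refine ⟨p, h' * g, mul_ne_zero hh'0 hg, ?_⟩
  rw [← hp, map_mul]
  field_simp

/-- **(G1)** every invertible matrix over `E` is (invertible over `RU`) × (invertible over `FP`). -/
theorem fac_RU_FP [CompleteSpace k] {π : k} (hπ : IsUnif π) (hd : DenseRat k y)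
    {ι : Type*} [Fintype ι] [DecidableEq ι] (M M' : Matrix ι ι E) (hM : M * M' = 1) :
    ∃ P Q : Matrix ι ι E, GLin (RU k y) P ∧ GLin (FP hG hπ hd).toSubring Q ∧ M = P * Q := by
  obtain ⟨P, Q, C, hP, hQ, hC, e⟩ := factor_matrix (AU k y).toSubring (AP hG).toSubring
    (isClosed_AU y) (isClosed_AP hG) (dec hG hπ hd) (KY hG) (by
      intro x ε hε
      obtain ⟨f, g, hg, h⟩ := hd x ε hε
      exact ⟨_, ⟨f, g, hg, rfl⟩, h⟩) M M' hM
  refine ⟨P, Q * C, hP.mono (le_fracSub _ _ _), (hQ.mono ?_).mul (hC.mono ?_), ?_⟩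
  · intro a ha
    exact (mem_FP hG hπ hd _).2 ⟨a, ha, 1, one_ne_zero, by simp⟩
  · intro z hz
    exact KY_le_FP hG hπ hd hz
  · rw [e, Matrix.mul_assoc]

end Crest.Agent.R013.Gl946
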