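import Crest.Agent.R013.Lau_702
import Crest.Agent.R013.Good3_940
import Crest.Agent.R013.Gl3_946

/-!
# Row 13 (helper702): (DISC) embedding of a function field in the field of a small disc
-/

set_option autoImplicit false
set_option linter.unusedSectionVars false

open scoped NNReal
open Polynomial

namespace Crest.Agent.R013.Disc_702

open Crest.Agent.R013.KAS2_940 Crest.Agent.R013.KAS3_940
open Crest.Agent.R013.Good1_940 Crest.Agent.R013.Good3_940
open Crest.Agent.R013.Gl946 Crest.Agent.R013.Puis_702 Crest.Agent.R013.Lau_702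
open Crest.Agent.R013.Eis_863

section toL

variable {k : Type*} [NontriviallyNormedField k] [IsUltrametricDist k]

theorem incl_injective (r : ℝ) (hr : 0 < r) :
    Function.Injective ((HahnSeries.ofPowerSeries ℤ k).comp (bsub (K := k) r hr).subtype) := by
  rw [RingHom.coe_comp]
  exact HahnSeries.ofPowerSeries_injective.comp Subtype.val_injective

/-- the Laurent expansion at `0` of a meromorphic function on the disc of radius `r` -/
noncomputable def toL (r : ℝ) (hr : 0 < r) : FDisc k r hr →+* LaurentSeries k :=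
  IsFractionRing.lift (incl_injective r hr)

theorem toL_algebraMap {r : ℝ} {hr : 0 < r} (f : bsub (K := k) r hr) :
    toL r hr (algebraMap _ (FDisc k r hr) f) = HahnSeries.ofPowerSeries ℤ k f.1 :=
  IsFractionRing.lift_algebraMap (incl_injective r hr) f

theorem bd_radius {r r' C : ℝ} {f : PowerSeries k} (h : Bd r C f) (hr' : 0 < r') (hle : r' ≤ r) :
    Bd r' C f := by
  intro m
  refine le_trans ?_ (h m)
  gcongr

theorem exists_bd_of_conv {w : PowerSeries k} (h : Conv (NormedField.valuation (K := k)).integer w) :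
    ∃ r : ℝ, 0 < r ∧ ∃ C : ℝ, Bd r C w := by
  obtain ⟨b, hb, hb0, c, hc, hc0, h2⟩ := h
  have hbn : 0 < ‖b‖ := norm_pos_iff.2 hb0
  have hcn : 0 < ‖c‖ := norm_pos_iff.2 hc0
  refine ⟨‖b‖, hbn, ‖c‖⁻¹, fun m => ?_⟩
  have h3 := h2 m
  rw [PowerSeries.coeff_C_mul, PowerSeries.coeff_rescale, Valuation.mem_integer_iff,
    NormedField.valuation_apply, ← NNReal.coe_le_coe, coe_nnnorm, NNReal.coe_one, norm_mul,
    norm_mul, norm_pow] at h3
  rw [mul_comm, ← one_div, le_div_iff₀' hcn]
  exact h3

/-- a convergent Laurent series comes from the field of every small disc -/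
theorem exists_toL {z : LaurentSeries k} (h : CL (NormedField.valuation (K := k)) z) :
    ∃ r0 : ℝ, 0 < r0 ∧ ∀ (r : ℝ) (hr : 0 < r), r ≤ r0 → z ∈ (toL (k := k) r hr).fieldRange := by
  obtain ⟨N, w, h1, h2⟩ := h
  obtain ⟨r0, hr0, C, hC⟩ := exists_bd_of_conv h2
  refine ⟨r0, hr0, fun r hr hle => ?_⟩
  have hw : w ∈ bsub (K := k) r hr := ⟨C, bd_radius hC hr hle⟩
  have hX : (PowerSeries.X ^ N : PowerSeries k) ∈ bsub (K := k) r hr :=
    (bsub (K := k) r hr).pow_mem X_mem N
  refine ⟨algebraMap _ (FDisc k r hr) (⟨w, hw⟩ : bsub (K := k) r hr) /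
    algebraMap _ (FDisc k r hr) (⟨_, hX⟩ : bsub (K := k) r hr), ?_⟩
  rw [map_div₀, toL_algebraMap, toL_algebraMap, ← h1, mul_comm, mul_div_assoc, div_self, mul_one]
  rw [Ne, map_eq_zero_iff _ HahnSeries.ofPowerSeries_injective]
  exact pow_ne_zero _ PowerSeries.X_ne_zero

end toL

section emb

variable {k : Type*} [NontriviallyNormedField k] [IsUltrametricDist k]
variable {K : Type*} [Field K] [Algebra k K] [Algebra (RatFunc k) K] [IsScalarTower k (RatFunc k) K]
  [FiniteDimensional (RatFunc k) K]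

/-- uniform radius -/
theorem exists_radius (j : K →+* LaurentSeries k) (hjC : ∀ c, j (algebraMap k K c) = HahnSeries.C c)
    (hj : ∀ a, j a ∈ convL (NormedField.valuation (K := k))) :
    ∃ r0 : ℝ, 0 < r0 ∧ ∀ (r : ℝ) (hr : 0 < r), r ≤ r0 →
      ∀ a, j a ∈ (toL (k := k) r hr).fieldRange := by
  classical
  obtain ⟨T, hT⟩ := IntermediateField.fg_of_noetherian (⊤ : IntermediateField (RatFunc k) K)
  have hex : ∀ a : K, ∃ r0 : ℝ, 0 < r0 ∧ ∀ (r : ℝ) (hr : 0 < r), r ≤ r0 →
      j a ∈ (toL (k := k) r hr).fieldRange := fun a => exists_toL (hj a)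
  choose ρ hρ hρ2 using hex
  set T' : Finset K := insert (algebraMap (RatFunc k) K RatFunc.X) T with hT'
  have hne : T'.Nonempty := Finset.insert_nonempty _ _
  refine ⟨T'.inf' hne ρ, ?_, fun r hr hle => ?_⟩
  · rw [Finset.lt_inf'_iff]
    intro t _
    exact hρ t
  have hgen : ∀ t ∈ T', j t ∈ (toL (k := k) r hr).fieldRange := fun t ht =>
    hρ2 t r hr (hle.trans (Finset.inf'_le _ ht))
  have hC : ∀ c : k, HahnSeries.C c ∈ (toL (k := k) r hr).fieldRange := by
    intro c
    refine ⟨algebraMap _ (FDisc k r hr)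
      (⟨PowerSeries.C c, KAS3_940.C_mem c⟩ : bsub (K := k) r hr), ?_⟩
    rw [toL_algebraMap, HahnSeries.ofPowerSeries_C]
  have hX : j (algebraMap (RatFunc k) K RatFunc.X) ∈ (toL (k := k) r hr).fieldRange :=
    hgen _ (Finset.mem_insert_self _ _)
  have hpoly : ∀ p : k[X], j (algebraMap (RatFunc k) K (algebraMap k[X] (RatFunc k) p)) ∈
      (toL (k := k) r hr).fieldRange := by
    intro p
    induction p using Polynomial.induction_on' with
    | add p q hp hq =>
      rw [map_add, map_add, map_add]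
      exact add_mem hp hq
    | monomial n a =>
      rw [← C_mul_X_pow_eq_monomial, map_mul, map_mul, map_mul, map_pow, map_pow, map_pow,
        RatFunc.algebraMap_C, RatFunc.algebraMap_X]
      refine mul_mem ?_ (pow_mem hX n)
      have : algebraMap (RatFunc k) K (RatFunc.C a) = algebraMap k K a := by
        rw [IsScalarTower.algebraMap_apply k (RatFunc k) K]
        rfl
      rw [this, hjC]
      exact hC a
  intro a
  have ha : a ∈ IntermediateField.adjoin (RatFunc k) (T : Set K) := by
    rw [hT]; exact IntermediateField.mem_top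
  induction ha using IntermediateField.adjoin_induction with
  | mem y hy => exact hgen y (Finset.mem_insert_of_mem hy)
  | algebraMap f =>
    induction f using RatFunc.induction_on with
    | f p q hq =>
      rw [map_div₀, map_div₀]
      exact div_mem (hpoly p) (hpoly q)
  | add a b _ _ ha hb => rw [map_add]; exact add_mem ha hb
  | inv a _ ha => rw [map_inv₀]; exact inv_mem ha
  | mul a b _ _ ha hb => rw [map_mul]; exact mul_mem ha hb

/-- **(DISC)** A function field embeds in the field of meromorphic functions on all small discs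
around a rational place. -/
theorem exists_disc_emb [CharZero k] {P : Valuation K ℝ≥0} {x : K} (h : RP (k := k) P x) :
    ∃ j : K →+* LaurentSeries k,
      (∀ c, j (algebraMap k K c) = HahnSeries.C c) ∧ j x = HahnSeries.single (1 : ℤ) (1 : k) ∧
      (∀ a, P a ≤ 1 → ∃ g : PowerSeries k, j a = HahnSeries.ofPowerSeries ℤ k g ∧ Exp P x a g) ∧
      (∀ a, a ≠ 0 → P a = P x ^ (j a).order) ∧
      (∀ a, j a ∈ convL (NormedField.valuation (K := k))) ∧
      ∃ r0 : ℝ, 0 < r0 ∧ ∀ (r : ℝ) (hr : 0 < r), r ≤ r0 →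
        ∃ jr : K →+* FDisc k r hr, (∀ a, toL r hr (jr a) = j a) ∧
          (∀ c, jr (algebraMap k K c) =
            algebraMap _ (FDisc k r hr) (⟨PowerSeries.C c, KAS3_940.C_mem c⟩ : bsub (K := k) r hr)) ∧
          jr x = algebraMap _ (FDisc k r hr) (⟨PowerSeries.X, KAS3_940.X_mem⟩ : bsub (K := k) r hr) := by
  obtain ⟨j, h1, h2, h3, h4, h5⟩ := exists_disc (Ω := k) h (NormedField.valuation (K := k))
  have h5' : ∀ a, j a ∈ convL (NormedField.valuation (K := k)) := by
    intro a
    have := h5 a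
    rwa [Algebra.algebraMap_self, mapL_id, RingHom.id_apply] at this
  obtain ⟨r0, hr0, hr⟩ := exists_radius j h1 h5'
  refine ⟨j, h1, h2, h3, h4, h5', r0, hr0, fun r hr' hle => ?_⟩
  have hrange := hr r hr' hle
  choose g hg using hrange
  have hinj := (toL (k := k) r hr').injective
  let jr : K →+* FDisc k r hr' :=
    { toFun := g
      map_one' := hinj (by rw [hg, map_one, map_one])
      map_mul' := fun a b => hinj (by rw [hg, map_mul, map_mul, hg, hg])
      map_zero' := hinj (by rw [hg, map_zero, map_zero])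
      map_add' := fun a b => hinj (by rw [hg, map_add, map_add, hg, hg]) }
  refine ⟨jr, hg, fun c => hinj ?_, hinj ?_⟩
  · rw [toL_algebraMap, HahnSeries.ofPowerSeries_C, ← h1]
    exact hg _
  · rw [toL_algebraMap, HahnSeries.ofPowerSeries_X, ← h2]
    exact hg _

end emb

section FP

variable {k : Type*} [NontriviallyNormedField k] [IsUltrametricDist k] [CompleteSpace k]
variable {E : Type*} [NormedField E] [NormedAlgebra k E] [IsUltrametricDist E] [CompleteSpace E]

/-- bounded functions on a bigger disc are in `AP` -/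
theorem evq_mem_AP {r : ℝ} {hr : 0 < r} {q c : k} {y : E} (hy : IsGauss k y) {hq : ‖q‖ < r}
    {hc : ‖c‖ < r} (f : bsub (K := k) r hr) : evq hr hy hq hc f ∈ AP hy := by
  rw [evq, ev_apply]
  have hpt : pt q c y ∈ AP hy := by
    have := aeval_mem_AP hy (C q + C c * X)
    rwa [map_add, map_mul, aeval_C, aeval_C, aeval_X] at this
  have hsum : Summable fun m => algebraMap k E (PowerSeries.coeff m f.1) * pt q c y ^ m :=
    (summable_norm f.2.choose_spec (norm_pt_lt hy hq hc)).of_norm
  refine (isClosed_AP hy).mem_of_tendsto hsum.hasSum (Filter.Eventually.of_forall fun s => ?_)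
  exact (AP hy).sum_mem fun i _ => (AP hy).mul_mem ((AP hy).algebraMap_mem _)
    ((AP hy).pow_mem hpt i)

theorem frq_mem_FP {r : ℝ} {hr : 0 < r} {q c : k} {y : E} (hy : IsGauss k y) {hq : ‖q‖ < r}
    {hc : ‖c‖ < r} {hc0 : c ≠ 0} {π : k} (hπ : IsUnif π) (hd : DenseRat k y) (z : FDisc k r hr) :
    frq hr hy hq hc hc0 z ∈ FP hy hπ hd := by
  obtain ⟨a, b, hb, rfl⟩ := IsFractionRing.div_surjective (A := bsub (K := k) r hr) z
  rw [map_div₀, frq_algebraMap, frq_algebraMap]
  have key : ∀ f : bsub (K := k) r hr, evq hr hy hq hc f ∈ FP hy hπ hd := fun f =>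
    (mem_FP hy hπ hd _).2 ⟨_, evq_mem_AP hy f, 1, one_ne_zero, by rw [map_one, div_one]⟩
  exact div_mem (key a) (key b)

end FP

section iota

universe uE

variable {k : Type*} [NontriviallyNormedField k] [IsUltrametricDist k] [CompleteSpace k]
variable {K : Type*} [Field K] [Algebra k K] [Algebra (RatFunc k) K] [IsScalarTower k (RatFunc k) K]
  [FiniteDimensional (RatFunc k) K]

/-- **(DISC), final form.** For every `a ≠ 0` in `k` with `‖a‖ < r0` and every circle field `(E, y)`:
an embedding `K → E` over `k` with `x ↦ a y`, with values in `FP`, equal to `frq ∘ jr`. -/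
theorem exists_iota [CharZero k] {P : Valuation K ℝ≥0} {x : K} (h : RP (k := k) P x) :
    ∃ r0 : ℝ, 0 < r0 ∧ ∀ (a : k), a ≠ 0 → ‖a‖ < r0 →
      ∀ (E : Type uE) [NormedField E] [NormedAlgebra k E] [IsUltrametricDist E] [CompleteSpace E]
        (y : E) (hy : IsGauss k y) (π : k) (hπ : IsUnif π) (hd : DenseRat k y),
        ∃ iota : K →+* E, (∀ c, iota (algebraMap k K c) = algebraMap k E c) ∧
          iota x = algebraMap k E a * y ∧ ∀ f, iota f ∈ FP hy hπ hd := by
  obtain ⟨j, h1, h2, h3, h4, h5, r0, hr0, hr⟩ := exists_disc_emb h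
  refine ⟨r0, hr0, fun a ha0 ha E _ _ _ _ y hy π hπ hd => ?_⟩
  obtain ⟨jr, e1, e2, e3⟩ := hr r0 hr0 le_rfl
  have h0 : ‖(0 : k)‖ < r0 := by rwa [norm_zero]
  refine ⟨(frq hr0 hy h0 ha ha0).comp jr, fun c => ?_, ?_, 
    fun f => frq_mem_FP (hc0 := ha0) hy hπ hd _⟩
  · rw [RingHom.comp_apply, e2, frq_algebraMap, evq_C]
  · rw [RingHom.comp_apply, e3, frq_algebraMap, evq_X, pt, map_zero, zero_add]

end iota

end Crest.Agent.R013.Disc_702
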