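import Mathlib

/-! Riemann-Zariski space: compactness, coarsening by inverting an element (helper97, row 13). -/

set_option autoImplicit false

namespace Crest.Agent.R013.E1_97

variable {L : Type*} [Field L]

theorem val_lt_one_iff (O : ValuationSubring L) (x : L) :
    O.valuation x < 1 ↔ x = 0 ∨ x⁻¹ ∉ O := by
  rw [← ValuationSubring.mem_nonunits_iff, ValuationSubring.mem_nonunits_iff_or]

theorem not_val_lt_one_iff (O : ValuationSubring L) (x : L) :
    ¬ O.valuation x < 1 ↔ x ≠ 0 ∧ x⁻¹ ∈ O := by
  rw [val_lt_one_iff]; push Not; rfl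

/-- **Compactness of the Riemann-Zariski space.** -/
theorem rzc {ι : Type*} (A B : Set L) (c : ι → L)
    (h : ∀ O : ValuationSubring L, (∀ a ∈ A, a ∈ O) → (∀ b ∈ B, O.valuation b < 1) →
      ∃ i, O.valuation (c i) < 1) :
    ∃ (A' B' : Finset L) (s : Finset ι), (A' : Set L) ⊆ A ∧ (B' : Set L) ⊆ B ∧
      ∀ O : ValuationSubring L, (∀ a ∈ A', a ∈ O) → (∀ b ∈ B', O.valuation b < 1) →
        ∃ i ∈ s, O.valuation (c i) < 1 := by
  classical
  by_contra hcon
  push Not at hcon
  -- index set: triples of finite sets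
  let J := Finset A × Finset B × Finset ι
  have hex : ∀ j : J, ∃ O : ValuationSubring L, (∀ a ∈ j.1, (a : L) ∈ O) ∧
      (∀ b ∈ j.2.1, O.valuation (b : L) < 1) ∧ ∀ i ∈ j.2.2, 1 ≤ O.valuation (c i) := by
    intro j
    obtain ⟨O, h1, h2, h3⟩ := hcon (j.1.image Subtype.val) (j.2.1.image Subtype.val) j.2.2
      (by intro x hx; simp only [Finset.coe_image, Set.mem_image] at hx
          obtain ⟨y, _, rfl⟩ := hx; exact y.2)
      (by intro x hx; simp only [Finset.coe_image, Set.mem_image] at hx
          obtain ⟨y, _, rfl⟩ := hx; exact y.2)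
    refine ⟨O, fun a ha => h1 _ (Finset.mem_image_of_mem _ ha),
      fun b hb => h2 _ (Finset.mem_image_of_mem _ hb), h3⟩
  choose O hO1 hO2 hO3 using hex
  have : Nonempty J := ⟨(∅, ∅, ∅)⟩
  let U : Ultrafilter J := Ultrafilter.of Filter.atTop
  have hU : (U : Filter J) ≤ Filter.atTop := Ultrafilter.of_le _
  let S : Subring L :=
    { carrier := {a | ∀ᶠ j in (U : Filter J), a ∈ O j}
      mul_mem' := by
        intro a b ha hb
        simp only [Set.mem_ofPred_eq] at ha hb ⊢
        filter_upwards [ha, hb] with j h1 h2 using mul_mem h1 h2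
      one_mem' := by
        simp only [Set.mem_ofPred_eq]
        exact Filter.Eventually.of_forall fun j => one_mem _
      add_mem' := by
        intro a b ha hb
        simp only [Set.mem_ofPred_eq] at ha hb ⊢
        filter_upwards [ha, hb] with j h1 h2 using add_mem h1 h2
      zero_mem' := by
        simp only [Set.mem_ofPred_eq]
        exact Filter.Eventually.of_forall fun j => zero_mem _
      neg_mem' := by
        intro a ha
        simp only [Set.mem_ofPred_eq] at ha ⊢
        filter_upwards [ha] with j h1 using neg_mem h1 }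
  have hS : ∀ a : L, a ∈ S ↔ ∀ᶠ j in (U : Filter J), a ∈ O j := fun a => Iff.rfl
  let V : ValuationSubring L := ValuationSubring.ofSubring S (by
    intro x
    rw [hS, hS, ← Ultrafilter.eventually_or]
    exact Filter.Eventually.of_forall fun j => (O j).mem_or_inv_mem x)
  have hV : ∀ a : L, a ∈ V ↔ ∀ᶠ j in (U : Filter J), a ∈ O j := fun a => Iff.rfl
  have hV1 : ∀ a : L, V.valuation a < 1 ↔ ∀ᶠ j in (U : Filter J), (O j).valuation a < 1 := by
    intro a
    rw [val_lt_one_iff, hV, ← Ultrafilter.eventually_not]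
    constructor
    · rintro (rfl | h1)
      · exact Filter.Eventually.of_forall fun j => by simp
      · filter_upwards [h1] with j hj
        rw [val_lt_one_iff]; exact Or.inr hj
    · intro h1
      by_cases ha : a = 0
      · exact Or.inl ha
      · right
        filter_upwards [h1] with j hj
        rw [val_lt_one_iff] at hj
        exact hj.resolve_left ha
  obtain ⟨i, hi⟩ := h V (fun a ha => by
      rw [hV]
      refine hU ?_
      filter_upwards [Filter.eventually_ge_atTop (({⟨a, ha⟩}, ∅, ∅) : J)] with j hj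
      exact hO1 j ⟨a, ha⟩ (hj.1 (Finset.mem_singleton_self _)))
    (fun b hb => by
      rw [hV1]
      refine hU ?_
      filter_upwards [Filter.eventually_ge_atTop ((∅, {⟨b, hb⟩}, ∅) : J)] with j hj
      exact hO2 j ⟨b, hb⟩ (hj.2.1 (Finset.mem_singleton_self _)))
  rw [hV1] at hi
  have h2 : ∀ᶠ j in (U : Filter J), 1 ≤ (O j).valuation (c i) := by
    refine hU ?_
    filter_upwards [Filter.eventually_ge_atTop ((∅, ∅, {i}) : J)] with j hj
    exact hO3 j i (hj.2.2 (Finset.mem_singleton_self _))
  obtain ⟨j, hj1, hj2⟩ := (hi.and h2).exists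
  exact absurd hj1 (not_lt.2 hj2)

/-- the valuation ring `O[1/z]` for `z ∈ O`, `z ≠ 0` -/
theorem exists_coarse (O : ValuationSubring L) (z : L) (hz : z ∈ O) (hz0 : z ≠ 0) :
    ∃ V : ValuationSubring L, O ≤ V ∧ z⁻¹ ∈ V ∧ ∀ y, y ∈ V ↔ ∃ n : ℕ, z ^ n * y ∈ O := by
  let S : Subring L :=
    { carrier := {y | ∃ n : ℕ, z ^ n * y ∈ O}
      mul_mem' := by
        rintro a b ⟨n, hn⟩ ⟨m, hm⟩
        refine ⟨n + m, ?_⟩
        have := mul_mem hn hm
        convert this using 1; ring
      one_mem' := ⟨0, by simp⟩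
      add_mem' := by
        rintro a b ⟨n, hn⟩ ⟨m, hm⟩
        refine ⟨n + m, ?_⟩
        have h1 := mul_mem (pow_mem hz m) hn
        have h2 := mul_mem (pow_mem hz n) hm
        have := add_mem h1 h2
        convert this using 1; ring
      zero_mem' := ⟨0, by simp⟩
      neg_mem' := by
        rintro a ⟨n, hn⟩
        refine ⟨n, ?_⟩
        have := neg_mem hn
        convert this using 1; ring }
  have hS : ∀ y, y ∈ S ↔ ∃ n : ℕ, z ^ n * y ∈ O := fun y => Iff.rfl
  have hle : O.toSubring ≤ S := by
    intro y hy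
    rw [hS]
    exact ⟨0, by simpa using hy⟩
  refine ⟨ValuationSubring.ofSubring S (by
    intro x
    rcases O.mem_or_inv_mem x with h | h
    · exact Or.inl (hle h)
    · exact Or.inr (hle h)), ?_, ?_, ?_⟩
  · intro y hy
    exact hle hy
  · rw [ValuationSubring.mem_ofSubring, hS]
    exact ⟨1, by rw [pow_one, mul_inv_cancel₀ hz0]; exact O.one_mem⟩
  · intro y
    rw [ValuationSubring.mem_ofSubring, hS]

end Crest.Agent.R013.E1_97
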