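import Mathlib
import Crest.Agent.R013.E1a_97

/-! Seidenberg / Nagata `u, u⁻¹` lemma in valuation form (helper97, row 13). -/

set_option autoImplicit false

namespace Crest.Agent.R013.E1_97

open Polynomial

variable {L : Type*} [Field L]

/-- a ring hom to a field and a prime containing its kernel: a valuation ring centered there -/
theorem exists_dom {R : Type*} [CommRing R] (φ : R →+* L) (P : Ideal R) [hP : P.IsPrime]
    (h : ∀ r, φ r = 0 → r ∈ P) :
    ∃ O : ValuationSubring L, (∀ r, φ r ∈ O) ∧ (∀ r ∈ P, O.valuation (φ r) < 1) ∧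
      ∀ r ∉ P, O.valuation (φ r) = 1 := by
  let ψ : Localization.AtPrime P →+* L := IsLocalization.lift (M := P.primeCompl) (g := φ) (by
    rintro ⟨y, hy⟩
    rw [isUnit_iff_ne_zero]
    intro h0
    exact hy (h y h0))
  have hψ : ∀ r, ψ (algebraMap R _ r) = φ r := fun r => IsLocalization.lift_eq _ _
  obtain ⟨O, hO, hloc⟩ := IsLocalRing.exists_factor_valuationRing ψ
  refine ⟨O, fun r => ?_, fun r hr => ?_, fun r hr => ?_⟩
  · rw [← hψ]; exact hO _
  · have h1 : ¬ IsUnit (algebraMap R (Localization.AtPrime P) r) := by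
      intro hu
      have := (IsLocalization.AtPrime.isUnit_to_map_iff (Localization.AtPrime P) P r).1 hu
      exact this hr
    have h2 : ¬ IsUnit (ψ.codRestrict O.toSubring hO (algebraMap R _ r)) :=
      fun hu => h1 (hloc.map_nonunit _ hu)
    have h3 : ¬ IsUnit (⟨φ r, by rw [← hψ]; exact hO _⟩ : O) := by
      intro hu
      apply h2
      have he : (ψ.codRestrict O.toSubring hO (algebraMap R _ r)) =
          (⟨φ r, by rw [← hψ]; exact hO _⟩ : O.toSubring) := Subtype.ext (hψ r)
      rw [he]
      exact hu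
    have h4 := O.valuation_lt_one_or_eq_one ⟨φ r, by rw [← hψ]; exact hO _⟩
    rcases h4 with h4 | h4
    · exact h4
    · exact absurd ((O.valuation_eq_one_iff _).2 h4) h3
  · have h1 : IsUnit (algebraMap R (Localization.AtPrime P) r) :=
      (IsLocalization.AtPrime.isUnit_to_map_iff (Localization.AtPrime P) P r).2 hr
    have h2 : IsUnit (ψ.codRestrict O.toSubring hO (algebraMap R _ r)) := h1.map _
    have h3 : IsUnit (⟨φ r, by rw [← hψ]; exact hO _⟩ : O) := by
      have he : (ψ.codRestrict O.toSubring hO (algebraMap R _ r)) =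
          (⟨φ r, by rw [← hψ]; exact hO _⟩ : O.toSubring) := Subtype.ext (hψ r)
      rw [he] at h2
      exact h2
    exact (O.valuation_eq_one_iff _).1 h3

variable {B : Type*} [CommRing B] [Algebra B L]

theorem poly_alt (hinj : Function.Injective (algebraMap B L))
    (hB : ∀ x : L, IsIntegral B x → ∃ r : B, algebraMap B L r = x)
    (n : Ideal B) [n.IsPrime] (a : L) :
    ∀ (d : ℕ) (f : B[X]), f.natDegree ≤ d → aeval a f = 0 → (∃ i, f.coeff i ∉ n) →
      (∃ r s : B, s ∉ n ∧ a * algebraMap B L s = algebraMap B L r) ∨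
      (∃ r s : B, s ∉ n ∧ a * algebraMap B L r = algebraMap B L s) := by
  intro d
  induction d with
  | zero =>
    rintro f hd hf ⟨i, hi⟩
    exfalso
    have h1 : f = C (f.coeff 0) := Polynomial.eq_C_of_natDegree_le_zero hd
    rw [h1, aeval_C, map_eq_zero_iff _ hinj] at hf
    rw [h1, hf] at hi
    simp at hi
  | succ d ih =>
    rintro f hd hf ⟨i, hi⟩
    obtain ⟨r, hr⟩ := hB _ (isIntegral_leadingCoeff_smul f a hf)
    rw [Algebra.smul_def] at hr
    by_cases hdeg : f.natDegree ≤ d
    · exact ih f hdeg hf ⟨i, hi⟩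
    have hdeg' : f.natDegree = d + 1 := by omega
    let f' : B[X] := f.eraseLead + C r * X ^ d
    have hf' : aeval a f' = 0 := by
      have h1 : aeval a f = aeval a f.eraseLead + algebraMap B L f.leadingCoeff * a ^ (d + 1) := by
        conv_lhs => rw [← f.eraseLead_add_C_mul_X_pow]
        simp [hdeg']
      have h2 : aeval a f' = aeval a f.eraseLead + algebraMap B L r * a ^ d := by
        simp [f']
      rw [h2, hr, ← hf, h1]
      ring
    have hfd : f'.natDegree ≤ d := by
      refine (Polynomial.natDegree_add_le _ _).trans (max_le ?_ ?_)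
      · have := f.eraseLead_natDegree_le
        omega
      · exact (Polynomial.natDegree_C_mul_X_pow_le _ _)
    by_cases h3 : ∃ j, f'.coeff j ∉ n
    · exact ih f' hfd hf' h3
    push Not at h3
    by_cases hlc : f.leadingCoeff ∈ n
    · -- coefficient d is not in n
      have hcoef : ∀ j, j ≠ d + 1 → f'.coeff j = f.coeff j + if j = d then r else 0 := by
        intro j hj
        simp only [f', coeff_add, coeff_C_mul, coeff_X_pow]
        rw [eraseLead_coeff_of_ne _ (by rw [hdeg']; exact hj)]
        split_ifs <;> simp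
      have hi1 : i ≠ d + 1 := by
        rintro rfl
        apply hi
        rw [← hdeg']
        exact hlc
      have hid : i = d := by
        by_contra hne
        have := h3 i
        rw [hcoef i hi1, if_neg hne, add_zero] at this
        exact hi this
      subst hid
      have h4 := h3 i
      rw [hcoef i (by omega), if_pos rfl] at h4
      right
      refine ⟨f.leadingCoeff, r, fun hr' => hi ?_, ?_⟩
      · have := n.sub_mem h4 hr'
        simpa using this
      · rw [hr]; ring
    · left
      exact ⟨r, f.leadingCoeff, hlc, by rw [hr]; ring⟩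

/-- **Nagata's / Seidenberg's lemma.** -/
theorem nagata (hinj : Function.Injective (algebraMap B L))
    (hB : ∀ x : L, IsIntegral B x → ∃ r : B, algebraMap B L r = x)
    (n : Ideal B) [n.IsPrime] (a : L) :
    (∃ r s : B, s ∉ n ∧ a * algebraMap B L s = algebraMap B L r) ∨
    (∃ r s : B, s ∉ n ∧ a * algebraMap B L r = algebraMap B L s) ∨
    ∃ O : ValuationSubring L, (∀ r : B, algebraMap B L r ∈ O) ∧
      (∀ r ∈ n, O.valuation (algebraMap B L r) < 1) ∧
      (∀ r ∉ n, O.valuation (algebraMap B L r) = 1) ∧
      ∀ f : B[X], (∃ i, f.coeff i ∉ n) → O.valuation (aeval a f) = 1 := by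
  by_cases h : ∀ f : B[X], aeval a f = 0 → ∀ i, f.coeff i ∈ n
  · right; right
    let P : Ideal B[X] := Ideal.map C n
    have hP : P.IsPrime := Ideal.isPrime_map_C_of_isPrime
    have hmem : ∀ f : B[X], f ∈ P ↔ ∀ i, f.coeff i ∈ n := fun f => Ideal.mem_map_C_iff
    obtain ⟨O, h1, h2, h3⟩ := exists_dom (aeval a : B[X] →ₐ[B] L).toRingHom P
      (fun f hf => (hmem f).2 (h f hf))
    have hC : ∀ r : B, (aeval a : B[X] →ₐ[B] L).toRingHom (C r) = algebraMap B L r :=
      fun r => aeval_C a r
    refine ⟨O, fun r => ?_, fun r hr => ?_, fun r hr => ?_, fun f hf => ?_⟩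
    · rw [← hC]; exact h1 _
    · rw [← hC]
      refine h2 _ ((hmem _).2 fun i => ?_)
      rw [coeff_C]
      split_ifs
      · exact hr
      · exact n.zero_mem
    · rw [← hC]
      refine h3 _ fun hmem' => hr ?_
      have := (hmem _).1 hmem' 0
      simpa using this
    · refine h3 f fun hmem' => ?_
      obtain ⟨i, hi⟩ := hf
      exact hi ((hmem _).1 hmem' i)
  · push Not at h
    obtain ⟨f, hf, i, hi⟩ := h
    rcases poly_alt hinj hB n a f.natDegree f le_rfl hf ⟨i, hi⟩ with h1 | h1
    · exact Or.inl h1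
    · exact Or.inr (Or.inl h1)

end Crest.Agent.R013.E1_97
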