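import Mathlib
import Crest.Agent.R013.E1b_97

/-! CRT-ROOT: local approximate `l`-th roots over a normal local domain glue (helper97, row 13). -/

set_option autoImplicit false

namespace Crest.Agent.R013.E1_97

open Polynomial

variable {L : Type*} [Field L]

/-- `O` dominates the local ring `A`. -/
def Dm (A : Type*) [CommRing A] [IsLocalRing A] {L : Type*} [Field L] [Algebra A L]
    (O : ValuationSubring L) : Prop :=
  (∀ r : A, algebraMap A L r ∈ O) ∧
    ∀ r ∈ IsLocalRing.maximalIdeal A, O.valuation (algebraMap A L r) < 1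

/-- `a` is residually transcendental at `O` over `A`. -/
def RT (A : Type*) [CommRing A] {L : Type*} [Field L] [Algebra A L]
    (O : ValuationSubring L) (a : L) : Prop :=
  ∀ f : A[X], (∃ i, IsUnit (f.coeff i)) → O.valuation (aeval a f) = 1

theorem val_pow_sub_lt (O : ValuationSubring L) {c s : L} (hc : c ∈ O) (hs : s ∈ O)
    (h : O.valuation (c - s) < 1) (l : ℕ) : O.valuation (c ^ l - s ^ l) < 1 := by
  obtain ⟨q, hq⟩ := sub_dvd_pow_sub_pow (⟨c, hc⟩ : O) (⟨s, hs⟩ : O) l
  have h1 : c ^ l - s ^ l = (c - s) * (q : L) := by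
    have := congrArg (Subtype.val : O → L) hq
    simpa using this
  rw [h1, map_mul]
  exact mul_lt_one_of_lt_of_le h (O.valuation_le_one q)

theorem val_eq_one_of_sub_lt (O : ValuationSubring L) {c s : L} (hs : O.valuation s = 1)
    (h : O.valuation (c - s) < 1) : O.valuation c = 1 := by
  have h1 : c = (c - s) + s := by ring
  rw [h1, Valuation.map_add_eq_of_lt_right]
  · exact hs
  · rw [hs]; exact h

theorem val_add_lt (O : ValuationSubring L) {a b : L} (ha : O.valuation a < 1)
    (hb : O.valuation b < 1) : O.valuation (a + b) < 1 :=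
  Valuation.map_add_lt _ ha hb

section

variable {A : Type*} [CommRing A] [IsDomain A] [IsLocalRing A] [IsNoetherianRing A]
  [IsIntegrallyClosed A] [Algebra A L]
  {F : Type*} [Field F] [Algebra A F] [IsFractionRing A F] [Algebra F L] [IsScalarTower A F L]
  [FiniteDimensional F L] [Algebra.IsSeparable F L]

include F in
theorem root (x : L) (hx : x ≠ 0) (l : ℕ) (hl : 0 < l) {ι : Type*} (b : ι → L)
    (hb : ∀ i, b i ≠ 0)
    (h1 : ∀ O : ValuationSubring L, Dm A O → ∃ i, O.valuation (x / b i ^ l - 1) < 1)
    (h2 : ∀ O : ValuationSubring L, Dm A O → ∀ i, ¬ RT A O (x / b i ^ l)) :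
    ∃ y : L, y ≠ 0 ∧ ∀ O : ValuationSubring L, Dm A O → O.valuation (x / y ^ l - 1) < 1 := by
  classical
  let B := integralClosure A L
  have hinjB : Function.Injective (algebraMap B L) := Subtype.val_injective
  have hinjA : Function.Injective (algebraMap A L) := by
    rw [IsScalarTower.algebraMap_eq A F L]
    exact (algebraMap F L).injective.comp (IsFractionRing.injective A F)
  have hB : ∀ z : L, IsIntegral B z → ∃ r : B, algebraMap B L r = z := by
    intro z hz
    exact ⟨⟨z, isIntegral_trans (R := A) (A := B) z hz⟩, rfl⟩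
  have hfinB : Module.Finite A B := IsIntegralClosure.finite A F L B
  have hmapAB : ∀ r : A, algebraMap B L (algebraMap A B r) = algebraMap A L r := fun r => rfl
  let N := {n : Ideal B // n.IsMaximal}
  have hcomap : ∀ n : N, n.1.comap (algebraMap A B) = IsLocalRing.maximalIdeal A := by
    intro n
    have := n.2
    exact IsLocalRing.eq_maximalIdeal
      (Ideal.isMaximal_comap_of_isIntegral_of_isMaximal (R := A) n.1)
  have hfinN : Finite N := by
    have h := Algebra.QuasiFinite.finite_primesOver (S := B) (IsLocalRing.maximalIdeal A)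
    have h' : Finite (↥((IsLocalRing.maximalIdeal A).primesOver B)) := h
    refine Finite.of_injective (β := ↥((IsLocalRing.maximalIdeal A).primesOver B))
      (fun n => ⟨n.1, n.2.isPrime, ⟨(hcomap n).symm⟩⟩) ?_
    intro n m hnm
    apply Subtype.ext
    exact congrArg (Subtype.val : ↥((IsLocalRing.maximalIdeal A).primesOver B) → Ideal B) hnm
  have := Fintype.ofFinite N
  -- local data
  have hloc : ∀ n : N, ∃ (i : ι) (s s' : B), s ∉ n.1 ∧ s' ∉ n.1 ∧ s - s' ∈ n.1 ∧
      x * algebraMap B L s = algebraMap B L s' * b i ^ l := by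
    intro n
    have hnp : n.1.IsPrime := n.2.isPrime
    obtain ⟨O, hO1, hO2, hO3⟩ := exists_dom (algebraMap B L) n.1
      (fun r hr => by rw [(map_eq_zero_iff _ hinjB).1 hr]; exact n.1.zero_mem)
    have hdmO : ∀ O : ValuationSubring L, (∀ r : B, algebraMap B L r ∈ O) →
        (∀ r ∈ n.1, O.valuation (algebraMap B L r) < 1) → Dm A O := by
      intro O h1 h2
      refine ⟨fun r => by rw [← hmapAB]; exact h1 _, fun r hr => ?_⟩
      rw [← hmapAB]
      refine h2 _ ?_
      rw [← hcomap n] at hr
      exact hr
    obtain ⟨i, hi⟩ := h1 O (hdmO O hO1 hO2)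
    have hbl : b i ^ l ≠ 0 := pow_ne_zero _ (hb i)
    set a := x / b i ^ l with ha
    have hval : ∀ r : B, O.valuation (algebraMap B L r) < 1 → r ∈ n.1 := by
      intro r hr
      by_contra hcon
      rw [hO3 r hcon] at hr
      exact lt_irrefl _ hr
    have ha1 : O.valuation a = 1 := val_eq_one_of_sub_lt O (map_one _) hi
    rcases nagata hinjB hB n.1 a with ⟨r, s, hs, hrs⟩ | ⟨r, s, hs, hrs⟩ | ⟨V, hV1, hV2, _, hV4⟩
    · have h3 : s - r ∈ n.1 := by
        apply hval
        have : algebraMap B L (s - r) = - ((a - 1) * algebraMap B L s) := by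
          rw [map_sub, ← hrs]; ring
        rw [this, Valuation.map_neg, map_mul, hO3 s hs, mul_one]
        exact hi
      refine ⟨i, s, r, hs, fun hr => hs ?_, h3, ?_⟩
      · have := n.1.add_mem h3 hr
        simpa using this
      · rw [← hrs, ha]
        field_simp
    · have h3 : r - s ∈ n.1 := by
        apply hval
        have : algebraMap B L (r - s) = - ((a - 1) * algebraMap B L r) := by
          rw [map_sub, ← hrs]; ring
        rw [this, Valuation.map_neg, map_mul]
        exact mul_lt_one_of_lt_of_le hi ((O.valuation_le_one_iff _).2 (hO1 r))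
      refine ⟨i, r, s, fun hr => hs ?_, hs, h3, ?_⟩
      · have := n.1.sub_mem hr h3
        simpa using this
      · rw [← hrs, ha]
        field_simp
    · exfalso
      refine h2 V (hdmO V hV1 hV2) i ?_
      rintro f ⟨j, hj⟩
      have h4 := hV4 (f.map (algebraMap A B)) ⟨j, by
        rw [coeff_map]
        intro hmem
        exact hnp.ne_top (Ideal.eq_top_of_isUnit_mem _ hmem (hj.map _))⟩
      rwa [aeval_map_algebraMap] at h4
  choose idx s s' hs hs' hss' hxs using hloc
  -- CRT elements
  have hcop : Pairwise (Function.onFun IsCoprime fun n : N => n.1) := by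
    intro n m hnm
    exact Ideal.isCoprime_iff_sup_eq.2 (n.2.coprime_of_ne m.2 (fun h => hnm (Subtype.ext h)))
  have ht : ∀ n : N, ∃ t : B, t * s' n - 1 ∈ n.1 ∧ ∀ m : N, m ≠ n → t ∈ m.1 := by
    intro n
    obtain ⟨u, i, hi, hui⟩ := n.2.exists_inv (hs' n)
    obtain ⟨t, ht⟩ := Ideal.exists_forall_sub_mem_ideal hcop (fun m => if m = n then u else 0)
    refine ⟨t, ?_, fun m hm => ?_⟩
    · have h3 := ht n
      simp only [if_true] at h3
      have h4 : t * s' n - 1 = (t - u) * s' n - i := by
        rw [← hui]; ring
      rw [h4]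
      exact n.1.sub_mem (n.1.mul_mem_right _ h3) hi
    · have h3 := ht m
      rw [if_neg hm, sub_zero] at h3
      exact h3
  choose t ht1 ht2 using ht
  let y : N → L := fun n => algebraMap B L (s' n) * b (idx n)
  let β : L := ∑ n, algebraMap B L (t n) * y n
  -- key claim
  have hkey : ∀ n m : N, ∃ c : B, algebraMap B L c = algebraMap B L (s n) * y m / b (idx n) := by
    intro n m
    refine hB _ (IsIntegral.of_pow hl ?_)
    have h3 : (algebraMap B L (s n) * y m / b (idx n)) ^ l =
        algebraMap B L (s n ^ (l - 1) * s' m ^ (l - 1) * s m * s' n) := by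
      have hbn : b (idx n) ≠ 0 := hb _
      rw [div_pow, mul_pow, div_eq_iff (pow_ne_zero _ hbn)]
      simp only [y, mul_pow, map_mul, map_pow]
      have e1 : algebraMap B L (s n) ^ l = algebraMap B L (s n) ^ (l - 1) * algebraMap B L (s n) := by
        rw [← pow_succ]; congr 1; omega
      have e2 : algebraMap B L (s' m) ^ l = algebraMap B L (s' m) ^ (l - 1) * algebraMap B L (s' m) := by
        rw [← pow_succ]; congr 1; omega
      rw [e1, e2]
      have e3 := hxs m
      have e4 := hxs n
      calc _ = algebraMap B L (s n) ^ (l - 1) * algebraMap B L (s' m) ^ (l - 1) *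
            (algebraMap B L (s n) * (algebraMap B L (s' m) * b (idx m) ^ l)) := by ring
        _ = algebraMap B L (s n) ^ (l - 1) * algebraMap B L (s' m) ^ (l - 1) *
            (algebraMap B L (s m) * (x * algebraMap B L (s n))) := by rw [← e3]; ring
        _ = _ := by rw [e4]; ring
    rw [h3]
    exact isIntegral_algebraMap
  have hmain : ∀ O : ValuationSubring L, Dm A O → β ≠ 0 ∧ O.valuation (x / β ^ l - 1) < 1 := by
    intro O hO
    have hBO : ∀ r : B, algebraMap B L r ∈ O := by
      intro r
      have h3 : IsIntegral A (algebraMap B L r) := r.2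
      obtain ⟨p, hp, hpr⟩ := h3
      rw [← ValuationSubring.valuation_le_one_iff]
      have h4 : IsIntegral O (algebraMap B L r) := by
        let g : A →+* O := (algebraMap A L).codRestrict O.toSubring (fun a => hO.1 a)
        refine ⟨p.map g, hp.map g, ?_⟩
        rw [eval₂_map]
        have hg : (algebraMap O L).comp g = algebraMap A L := RingHom.ext fun _ => rfl
        rw [hg]
        exact hpr
      obtain ⟨w, hw⟩ := IsIntegrallyClosed.isIntegral_iff.1 h4
      rw [ValuationSubring.valuation_le_one_iff, ← hw]
      exact w.2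
    let g : B →+* O := (algebraMap B L).codRestrict O.toSubring (fun a => hBO a)
    let q : Ideal B := (IsLocalRing.maximalIdeal O).comap g
    have hq : ∀ r : B, r ∈ q ↔ O.valuation (algebraMap B L r) < 1 := by
      intro r
      rw [Ideal.mem_comap, ValuationSubring.valuation_lt_one_iff]
      rfl
    have hqp : q.IsPrime := Ideal.comap_isPrime _ _
    have hqc : q.comap (algebraMap A B) = IsLocalRing.maximalIdeal A := by
      symm
      have hne : q.comap (algebraMap A B) ≠ ⊤ := (Ideal.comap_isPrime _ _).ne_top
      refine IsLocalRing.isMaximal_iff A |>.1 ?_ |>.symm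
      refine ⟨⟨hne, fun J hJ => ?_⟩⟩
      by_contra hJt
      have h4 : J ≤ IsLocalRing.maximalIdeal A := IsLocalRing.le_maximalIdeal hJt
      have h5 : IsLocalRing.maximalIdeal A ≤ q.comap (algebraMap A B) := by
        intro r hr
        rw [Ideal.mem_comap, hq]
        exact hO.2 r hr
      exact absurd (lt_of_lt_of_le hJ (h4.trans h5)) (lt_irrefl _)
    have hqm : q.IsMaximal := by
      refine Ideal.isMaximal_of_isIntegral_of_isMaximal_comap (R := A) q ?_
      rw [hqc]
      infer_instance
    let n : N := ⟨q, hqm⟩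
    have hn1 : ∀ r : B, r ∈ n.1 → O.valuation (algebraMap B L r) < 1 := fun r hr => (hq r).1 hr
    have hn2 : ∀ r : B, r ∉ n.1 → O.valuation (algebraMap B L r) = 1 := by
      intro r hr
      rcases lt_or_eq_of_le ((O.valuation_le_one_iff _).2 (hBO r)) with h | h
      · exact absurd ((hq r).2 h) hr
      · exact h
    choose c hc using hkey n
    have hbn : b (idx n) ≠ 0 := hb _
    have e0 : algebraMap B L (s n) * β / b (idx n) = ∑ m, algebraMap B L (t m * c m) := by
      simp only [β, Finset.mul_sum, Finset.sum_div]
      refine Finset.sum_congr rfl fun m _ => ?_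
      rw [map_mul, hc m]
      ring
    have ecn : c n = s n * s' n := by
      apply hinjB
      rw [hc n]
      simp only [y, map_mul]
      field_simp
    have e1 : (∑ m, t m * c m) - s n ∈ n.1 := by
      rw [← Finset.add_sum_erase _ _ (Finset.mem_univ n)]
      have h3 : ∑ m ∈ Finset.univ.erase n, t m * c m ∈ n.1 := by
        refine n.1.sum_mem fun m hm => n.1.mul_mem_right _ ?_
        exact ht2 m n (Finset.ne_of_mem_erase hm).symm
      have h4 : t n * c n - s n ∈ n.1 := by
        rw [ecn]
        have : t n * (s n * s' n) - s n = (t n * s' n - 1) * s n := by ring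
        rw [this]
        exact n.1.mul_mem_right _ (ht1 n)
      have := n.1.add_mem h4 h3
      convert this using 1
      ring
    set C : L := algebraMap B L (s n) * β / b (idx n) with hC
    have hCs : O.valuation (C - algebraMap B L (s n)) < 1 := by
      rw [e0, ← map_sum, ← map_sub]
      exact hn1 _ e1
    have hvs : O.valuation (algebraMap B L (s n)) = 1 := hn2 _ (hs n)
    have hvC : O.valuation C = 1 := val_eq_one_of_sub_lt O hvs hCs
    have hC0 : C ≠ 0 := by
      intro h0
      rw [h0] at hvC
      simp at hvC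
    have hβ : β ≠ 0 := by
      intro h0
      apply hC0
      rw [hC, h0]; simp
    refine ⟨hβ, ?_⟩
    have hs0 : algebraMap B L (s n) ≠ 0 := by
      intro h0
      rw [h0] at hvs
      simp at hvs
    have e2 : x / β ^ l - 1 = (algebraMap B L (s' n) * algebraMap B L (s n) ^ (l - 1) - C ^ l) / C ^ l := by
      have e4 := hxs n
      have hx' : x = algebraMap B L (s' n) * b (idx n) ^ l / algebraMap B L (s n) := by
        rw [eq_div_iff hs0]; exact e4
      have hβ' : β = C * b (idx n) / algebraMap B L (s n) := by
        rw [hC]; field_simp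
      have e1 : algebraMap B L (s n) ^ l = algebraMap B L (s n) ^ (l - 1) * algebraMap B L (s n) := by
        rw [← pow_succ]; congr 1; omega
      rw [sub_div, div_self (pow_ne_zero _ hC0), sub_left_inj]
      rw [hx', hβ', div_pow, mul_pow, e1]
      field_simp
    rw [e2, map_div₀, map_pow, hvC, one_pow, div_one]
    have hsO : algebraMap B L (s n) ∈ O := hBO _
    have hCO : C ∈ O := by rw [← ValuationSubring.valuation_le_one_iff, hvC]
    have e5 : algebraMap B L (s' n) * algebraMap B L (s n) ^ (l - 1) - C ^ l =
        -(algebraMap B L (s n - s' n) * algebraMap B L (s n) ^ (l - 1)) +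
          -(C ^ l - algebraMap B L (s n) ^ l) := by
      have e1 : algebraMap B L (s n) ^ l = algebraMap B L (s n) * algebraMap B L (s n) ^ (l - 1) := by
        rw [← pow_succ']; congr 1; omega
      rw [e1, map_sub]; ring
    rw [e5]
    refine val_add_lt O ?_ ?_
    · rw [Valuation.map_neg, map_mul, map_pow, hvs, one_pow, mul_one]
      exact hn1 _ (hss' n)
    · rw [Valuation.map_neg]
      exact val_pow_sub_lt O hCO hsO hCs l
  -- nonvanishing of β needs one dominating valuation ring
  obtain ⟨O, hO1, hO2, -⟩ := exists_dom (algebraMap A L) (IsLocalRing.maximalIdeal A)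
    (fun r hr => by rw [(map_eq_zero_iff _ hinjA).1 hr]; exact Ideal.zero_mem _)
  exact ⟨β, (hmain O ⟨hO1, hO2⟩).1, fun O hO => (hmain O hO).2⟩

end

end Crest.Agent.R013.E1_97
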