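import Mathlib
import Crest.Agent.R013.E1c_97
import Crest.Agent.R013.Hens5_899

/-! Finiteness of the set of residually transcendental prolongations (helper97, row 13). -/

set_option autoImplicit false

namespace Crest.Agent.R013.E1_97

open Polynomial

theorem exists_prim {R : Type*} [CommRing R] [IsDomain R] [IsDiscreteValuationRing R] {ϖ : R}
    (hϖ : Irreducible ϖ) (f : R[X]) (hf : f ≠ 0) :
    ∃ (m : ℕ) (g : R[X]), f = C (ϖ ^ m) * g ∧ ∃ i, IsUnit (g.coeff i) := by
  have hp : Prime (C ϖ : R[X]) := Polynomial.prime_C_iff.2 hϖ.prime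
  obtain ⟨m, g, hg, hfg⟩ := WfDvdMonoid.max_power_factor hf hp.irreducible
  refine ⟨m, g, by rw [hfg, C_pow], ?_⟩
  by_contra hcon
  push Not at hcon
  apply hg
  rw [Polynomial.C_dvd_iff_dvd_coeff]
  intro i
  have h1 : g.coeff i ∈ IsLocalRing.maximalIdeal R := (IsLocalRing.mem_maximalIdeal _).2 (hcon i)
  rw [hϖ.maximalIdeal_eq, Ideal.mem_span_singleton] at h1
  exact h1

variable {R : Type*} [CommRing R] [IsDomain R] [IsDiscreteValuationRing R]
variable {k : Type*} [Field k] [Algebra R k] [IsFractionRing R k]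
variable {L : Type*} [Field L] [Algebra R L] [Algebra k L] [IsScalarTower R k L]

omit [IsDomain R] [IsDiscreteValuationRing R] in
include k in
theorem algebraMap_inj : Function.Injective (algebraMap R L) := by
  rw [IsScalarTower.algebraMap_eq R k L]
  exact (algebraMap k L).injective.comp (IsFractionRing.injective R k)

omit [IsDomain R] [IsDiscreteValuationRing R] in
theorem RT.mem {O : ValuationSubring L} {a : L} (h : RT R O a) : a ∈ O := by
  by_cases hs : Subsingleton R
  · have := h 0 ⟨0, by rw [isUnit_iff_exists_inv]; exact ⟨0, Subsingleton.elim _ _⟩⟩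
    simp at this
  · have hn : Nontrivial R := not_subsingleton_iff_nontrivial.1 hs
    have := h X ⟨1, by simp⟩
    rw [aeval_X] at this
    rw [← ValuationSubring.valuation_le_one_iff, this]

omit [IsDomain R] [IsDiscreteValuationRing R] in
theorem RT.val_eq_one [Nontrivial R] {O : ValuationSubring L} {a : L} (h : RT R O a) :
    O.valuation a = 1 := by
  have := h X ⟨1, by simp⟩
  rwa [aeval_X] at this

include k in
theorem RT.transcendental_base {O : ValuationSubring L} {a : L} (h : RT R O a) :
    Transcendental R a := by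
  rintro ⟨p, hp, hpa⟩
  obtain ⟨ϖ, hϖ⟩ := IsDiscreteValuationRing.exists_irreducible R
  obtain ⟨m, g, hg, hu⟩ := exists_prim hϖ p hp
  have h1 := h g hu
  rw [hg, map_mul, aeval_C, mul_eq_zero] at hpa
  rcases hpa with h2 | h2
  · rw [map_eq_zero_iff _ (algebraMap_inj (k := k))] at h2
    exact pow_ne_zero _ hϖ.ne_zero h2
  · rw [h2] at h1
    simp at h1

theorem RT.transcendental {O : ValuationSubring L} {a : L} (h : RT R O a) :
    Transcendental k a := by
  have h1 := RT.transcendental_base (k := k) h
  rwa [Transcendental, IsFractionRing.isAlgebraic_iff R k L] at h1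

omit [IsDiscreteValuationRing R] in
/-- elements of `k(a)` as fractions of polynomials over `R` -/
theorem exists_frac {a y : L} (hy : y ∈ IntermediateField.adjoin k {a}) :
    ∃ g h : R[X], aeval a h ≠ 0 ∧ y * aeval a h = aeval a g := by
  obtain ⟨r, s, hrs⟩ := (IntermediateField.mem_adjoin_simple_iff k y).1 hy
  by_cases hs : aeval a s = 0
  · refine ⟨0, 1, by simp, ?_⟩
    rw [hrs, hs]; simp
  obtain ⟨c, hcm, hc⟩ := IsLocalization.integerNormalization_spec (nonZeroDivisors R) r
  obtain ⟨d, hdm, hd⟩ := IsLocalization.integerNormalization_spec (nonZeroDivisors R) s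
  set r' := IsLocalization.integerNormalization (nonZeroDivisors R) r
  set s' := IsLocalization.integerNormalization (nonZeroDivisors R) s
  have hr : aeval a r' = algebraMap R L c * aeval a r := by
    have h1 : aeval a r' = aeval a (r'.map (algebraMap R k)) := by
      rw [aeval_map_algebraMap]
    rw [h1, hc, Algebra.smul_def, map_mul]
    congr 1
    rw [show (algebraMap R k[X] (c : R)) = C (algebraMap R k c) from rfl, aeval_C,
      ← IsScalarTower.algebraMap_apply]
  have hs2 : aeval a s' = algebraMap R L d * aeval a s := by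
    have h1 : aeval a s' = aeval a (s'.map (algebraMap R k)) := by
      rw [aeval_map_algebraMap]
    rw [h1, hd, Algebra.smul_def, map_mul]
    congr 1
    rw [show (algebraMap R k[X] (d : R)) = C (algebraMap R k d) from rfl, aeval_C,
      ← IsScalarTower.algebraMap_apply]
  have hinj := algebraMap_inj (R := R) (k := k) (L := L)
  have hc0 : algebraMap R L c ≠ 0 := fun h0 =>
    nonZeroDivisors.ne_zero hcm ((map_eq_zero_iff _ hinj).1 h0)
  have hd0 : algebraMap R L d ≠ 0 := fun h0 =>
    nonZeroDivisors.ne_zero hdm ((map_eq_zero_iff _ hinj).1 h0)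
  refine ⟨C (d : R) * r', C (c : R) * s', ?_, ?_⟩
  · rw [map_mul, aeval_C, hs2]
    exact mul_ne_zero hc0 (mul_ne_zero hd0 hs)
  · rw [map_mul, map_mul, aeval_C, aeval_C, hs2, hr, hrs]
    field_simp

theorem mem_of_mem_RT {ϖ : R} (hϖ : Irreducible ϖ) {O O' : ValuationSubring L} {a : L}
    (hO : Dm R O) (hO' : Dm R O') (h : RT R O a) (h' : RT R O' a) {y : L}
    (hy : y ∈ IntermediateField.adjoin k {a}) (hyO : y ∈ O) : y ∈ O' := by
  by_cases hy0 : y = 0
  · rw [hy0]; exact O'.zero_mem
  obtain ⟨g, f, hf, hyg⟩ := exists_frac (R := R) hy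
  have hf0 : f ≠ 0 := by rintro rfl; simp at hf
  have hg0 : g ≠ 0 := by
    rintro rfl
    rw [map_zero, mul_eq_zero] at hyg
    exact hyg.elim hy0 hf
  obtain ⟨m, f1, hf1, hu1⟩ := exists_prim hϖ f hf0
  obtain ⟨n, g1, hg1, hu2⟩ := exists_prim hϖ g hg0
  have hkey : ∀ V : ValuationSubring L, Dm R V → RT R V a →
      V.valuation y * V.valuation (algebraMap R L ϖ) ^ m =
        V.valuation (algebraMap R L ϖ) ^ n := by
    intro V hV hRT
    have h1 := congrArg V.valuation hyg
    rw [hf1, hg1, map_mul, map_mul, map_mul, map_mul, map_mul, aeval_C, aeval_C, map_pow, map_pow,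
      map_pow, map_pow, hRT f1 hu1, hRT g1 hu2, mul_one, mul_one] at h1
    exact h1
  have hv : ∀ V : ValuationSubring L, Dm R V → V.valuation (algebraMap R L ϖ) < 1 ∧
      V.valuation (algebraMap R L ϖ) ≠ 0 := by
    intro V hV
    refine ⟨hV.2 _ ((IsLocalRing.mem_maximalIdeal _).2 hϖ.not_isUnit), ?_⟩
    rw [Valuation.ne_zero_iff]
    intro h0
    exact hϖ.ne_zero ((map_eq_zero_iff _ (algebraMap_inj (k := k))).1 h0)
  have hmn : m ≤ n := by
    by_contra hcon
    push Not at hcon
    have h1 := hkey O hO h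
    obtain ⟨hv1, hv0⟩ := hv O hO
    have hy1 : O.valuation y ≤ 1 := (O.valuation_le_one_iff _).2 hyO
    have h2 : O.valuation (algebraMap R L ϖ) ^ n ≤ O.valuation (algebraMap R L ϖ) ^ m := by
      rw [← h1]
      exact mul_le_of_le_one_left' hy1
    have h3 : O.valuation (algebraMap R L ϖ) ^ m < O.valuation (algebraMap R L ϖ) ^ n :=
      pow_lt_pow_right_of_lt_one₀ (zero_lt_iff.2 hv0) hv1 hcon
    exact absurd h2 (not_le.2 h3)
  rw [← ValuationSubring.valuation_le_one_iff]
  obtain ⟨hv1, hv0⟩ := hv O' hO'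
  have h1 := hkey O' hO' h'
  have h2 : O'.valuation y = O'.valuation (algebraMap R L ϖ) ^ (n - m) := by
    have h3 : O'.valuation (algebraMap R L ϖ) ^ n =
        O'.valuation (algebraMap R L ϖ) ^ (n - m) * O'.valuation (algebraMap R L ϖ) ^ m := by
      rw [← pow_add, Nat.sub_add_cancel hmn]
    rw [h3] at h1
    exact mul_right_cancel₀ (pow_ne_zero _ hv0) h1
  rw [h2]
  exact pow_le_one' hv1.le _

/-- finitely many prolongations of a valuation ring to a finite extension -/
theorem finite_ext {F : Type*} [Field F] [CharZero F] {L : Type*} [Field L] [Algebra F L]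
    [FiniteDimensional F L] (S : Set (ValuationSubring L))
    (h : ∀ O ∈ S, ∀ O' ∈ S, ∀ c : F, algebraMap F L c ∈ O → algebraMap F L c ∈ O') :
    S.Finite := by
  classical
  rcases Set.eq_empty_or_nonempty S with h0 | ⟨O₀, hO₀⟩
  · rw [h0]; exact Set.finite_empty
  have hgal : IsGalois F (AlgebraicClosure F) := { }
  let f₀ : L →ₐ[F] AlgebraicClosure F := IsAlgClosed.lift
  let _ : Algebra L (AlgebraicClosure F) := f₀.toRingHom.toAlgebra
  obtain ⟨B, hB⟩ := Hens_899.exists_extend (L := L) (Ω := AlgebraicClosure F) O₀.valuation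
  have hcoe : ∀ x : L, algebraMap L (AlgebraicClosure F) x = f₀ x := fun x => rfl
  have hsub : S ⊆ Set.range
      (fun f : L →ₐ[F] AlgebraicClosure F => B.comap (f : L →+* AlgebraicClosure F)) := by
    intro O hO
    obtain ⟨f, hf⟩ := Hens_899.exists_emb' (K := F) (Ω := AlgebraicClosure F) (L := L) B.valuation
      O.valuation (by
      intro c
      rw [ValuationSubring.valuation_le_one_iff, ValuationSubring.valuation_le_one_iff,
        ← f₀.commutes c, ← hcoe, hB, ValuationSubring.valuation_le_one_iff]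
      exact ⟨h O₀ hO₀ O hO c, h O hO O₀ hO₀ c⟩)
    refine ⟨f, ?_⟩
    ext x
    rw [ValuationSubring.mem_comap]
    have := hf x
    rw [ValuationSubring.valuation_le_one_iff, ValuationSubring.valuation_le_one_iff] at this
    exact this
  exact (Set.finite_range _).subset hsub

include k in
/-- **finitely many residually transcendental prolongations** -/
theorem finite_RT [CharZero L] (a : L)
    (hfin : FiniteDimensional (IntermediateField.adjoin k {a}) L) :
    {O : ValuationSubring L | Dm R O ∧ RT R O a}.Finite := by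
  obtain ⟨ϖ, hϖ⟩ := IsDiscreteValuationRing.exists_irreducible R
  have : CharZero (IntermediateField.adjoin k {a}) :=
    (algebraMap (IntermediateField.adjoin k {a}) L).charZero
  refine finite_ext (F := IntermediateField.adjoin k {a}) _ ?_
  intro O hO O' hO' c hc
  exact mem_of_mem_RT (k := k) hϖ hO.1 hO'.1 hO.2 hO'.2 c.2 hc

end Crest.Agent.R013.E1_97
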