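import Mathlib
import Crest.Agent.R013.E1d_97

/-! Choice of a coordinate residually transcendental at finitely many rings (helper97, row 13). -/

set_option autoImplicit false

namespace Crest.Agent.R013.E1_97

open Polynomial IsLocalRing

section Alg

variable {F K : Type*} [Field F] [Field K] [Algebra F K]

theorem alg_of_root (z : K) (p : (algebraicClosure F K)[X]) (hp : p ≠ 0) (h : aeval z p = 0) :
    IsAlgebraic F z := by
  have h1 : IsAlgebraic (algebraicClosure F K) z := ⟨p, hp, h⟩
  exact h1.restrictScalars F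

theorem alg_of_pow_sub (z : K) (m n : ℕ) (hmn : n < m)
    (h : IsAlgebraic F (z ^ m - z ^ n)) : IsAlgebraic F z := by
  refine alg_of_root z (X ^ m - X ^ n - C ⟨z ^ m - z ^ n, mem_algebraicClosure_iff.2 h⟩) ?_ ?_
  · intro h0
    have h1 := congrArg (fun q => coeff q m) h0
    have hmn' : m ≠ n := by omega
    have hm0 : m ≠ 0 := by omega
    simp [coeff_X_pow, coeff_C, hmn', hm0] at h1
  · simp

theorem alg_of_div (w t : K) (ht : IsAlgebraic F t) (h : t * (w ^ 2 + 1) = w) :
    IsAlgebraic F w := by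
  let t' : algebraicClosure F K := ⟨t, mem_algebraicClosure_iff.2 ht⟩
  refine alg_of_root w (C t' * X ^ 2 - X + C t') ?_ ?_
  · intro h0
    have h1 := congrArg (fun q => coeff q 1) h0
    simp [coeff_X] at h1
  · simp only [map_add, map_sub, map_mul, aeval_C, map_pow, aeval_X]
    have : algebraMap (algebraicClosure F K) K t' = t := rfl
    rw [this]
    linear_combination h

theorem exists_pow_eq_of_algebraic [Finite F] (z : K) (hz : IsAlgebraic F z) :
    ∃ c : ℕ, 2 ≤ c ∧ z ^ c = z := by
  have hint : IsIntegral F z := hz.isIntegral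
  have hfin : Module.Finite F (Algebra.adjoin F {z}) := by
    have := hint.fg_adjoin_singleton
    exact Module.Finite.iff_fg.2 this
  have hfin2 : Finite (Algebra.adjoin F {z}) := Module.finite_of_finite F
  obtain ⟨m, n, hmn, h⟩ := Finite.exists_ne_map_eq_of_infinite
    (fun i : ℕ => (⟨z, Algebra.self_mem_adjoin_singleton F z⟩ : Algebra.adjoin F {z}) ^ i)
  have h1 : z ^ m = z ^ n := by
    have := congrArg Subtype.val h
    simpa using this
  wlog hlt : m < n generalizing m n
  · exact this n m hmn.symm h.symm h1.symm (by omega)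
  by_cases hz0 : z = 0
  · exact ⟨2, le_rfl, by rw [hz0]; simp⟩
  refine ⟨n - m + 1, by omega, ?_⟩
  have h2 : z ^ (n - m) = 1 := by
    have h3 : z ^ n = z ^ (n - m) * z ^ m := by rw [← pow_add, Nat.sub_add_cancel hlt.le]
    rw [h3] at h1
    have h4 : z ^ m * 1 = z ^ m * z ^ (n - m) := by rw [mul_one, mul_comm]; rw [mul_comm] at h1; exact h1.trans (mul_comm _ _)
    exact (mul_left_cancel₀ (pow_ne_zero _ hz0) h4).symm
  rw [pow_succ, h2, one_mul]

end Alg

variable {R : Type*} [CommRing R] [IsDomain R] [IsDiscreteValuationRing R]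
variable {L : Type*} [Field L] [Algebra R L]

/-- the map `R → O` -/
def toO {O : ValuationSubring L} (hO : Dm R O) : R →+* O :=
  (algebraMap R L).codRestrict O.toSubring hO.1

theorem toO_coe {O : ValuationSubring L} (hO : Dm R O) (r : R) :
    (toO hO r : L) = algebraMap R L r := rfl

theorem isLocalHom_toO {O : ValuationSubring L} (hO : Dm R O) : IsLocalHom (toO hO) := by
  constructor
  intro r hr
  by_contra hcon
  have h1 := hO.2 r ((mem_maximalIdeal _).2 hcon)
  have h2 := (O.valuation_eq_one_iff _).1 hr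
  rw [toO_coe] at h2
  rw [h2] at h1
  exact lt_irrefl _ h1

/-- algebra structure on the residue field -/
noncomputable abbrev dmAlg {O : ValuationSubring L} (hO : Dm R O) :
    Algebra (ResidueField R) (ResidueField O) :=
  haveI := isLocalHom_toO hO
  (ResidueField.map (toO hO)).toAlgebra

theorem dmAlg_residue {O : ValuationSubring L} (hO : Dm R O) (r : R) :
    letI := dmAlg hO
    algebraMap (ResidueField R) (ResidueField O) (residue R r) = residue O (toO hO r) := rfl

theorem residue_eq_zero_iff' {O : ValuationSubring L} (x : O) :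
    residue O x = 0 ↔ O.valuation (x : L) < 1 := by
  rw [residue_eq_zero_iff, ValuationSubring.valuation_lt_one_iff]

theorem aeval_residue {O : ValuationSubring L} (hO : Dm R O) (x : O) (f : R[X]) :
    letI := dmAlg hO
    ∃ y : O, (y : L) = aeval (x : L) f ∧
      residue O y = aeval (residue O x) (f.map (residue R)) := by
  letI := dmAlg hO
  refine ⟨eval₂ (toO hO) x f, ?_, ?_⟩
  · rw [aeval_def]
    change (algebraMap O L) (eval₂ (toO hO) x f) = _
    rw [hom_eval₂]
    rfl
  · rw [hom_eval₂, aeval_def, eval₂_map]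
    rfl

theorem RT_iff {O : ValuationSubring L} (hO : Dm R O) (x : O) :
    letI := dmAlg hO
    RT R O (x : L) ↔ Transcendental (ResidueField R) (residue O x) := by
  letI := dmAlg hO
  constructor
  · rintro h ⟨p, hp, hpx⟩
    obtain ⟨f, hf⟩ := Polynomial.map_surjective (residue R) residue_surjective p
    obtain ⟨y, hy1, hy2⟩ := aeval_residue hO x f
    rw [hf, hpx, residue_eq_zero_iff', hy1] at hy2
    rw [h f] at hy2
    · exact lt_irrefl _ hy2
    · by_contra hcon
      push Not at hcon
      apply hp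
      rw [← hf]
      ext i
      rw [coeff_map, coeff_zero, residue_eq_zero_iff, mem_maximalIdeal]
      exact hcon i
  · rintro h f ⟨i, hi⟩
    obtain ⟨y, hy1, hy2⟩ := aeval_residue hO x f
    rw [← hy1]
    rcases O.valuation_lt_one_or_eq_one y with h1 | h1
    · exfalso
      rw [← residue_eq_zero_iff', hy2] at h1
      have h2 : f.map (residue R) ≠ 0 := by
        intro h0
        have h3 := congrArg (fun q => coeff q i) h0
        simp only [coeff_map, coeff_zero] at h3
        rw [residue_eq_zero_iff, mem_maximalIdeal] at h3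
        exact h3 hi
      exact h ⟨_, h2, h1⟩
    · exact h1

theorem not_RT_iff {O : ValuationSubring L} (hO : Dm R O) (x : O) :
    letI := dmAlg hO
    ¬ RT R O (x : L) ↔ IsAlgebraic (ResidueField R) (residue O x) := by
  letI := dmAlg hO
  rw [RT_iff hO, Transcendental, not_not]

/-- the function `θ` -/
noncomputable def th (Q : ℕ) (x : L) : L := (x ^ Q - x) / ((x ^ Q - x) ^ 2 + 1)

theorem th_of_small {O : ValuationSubring L} {Q : ℕ} {x : L}
    (h : O.valuation (x ^ Q - x) < 1) : O.valuation (th Q x) < 1 := by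
  have h1 : O.valuation ((x ^ Q - x) ^ 2 + 1) = 1 := by
    apply val_eq_one_of_sub_lt O (map_one _)
    have : (x ^ Q - x) ^ 2 + 1 - 1 = (x ^ Q - x) ^ 2 := by ring
    rw [this, map_pow]
    exact pow_lt_one₀ zero_le h (by norm_num)
  rw [th, map_div₀, h1, div_one]
  exact h

theorem th_of_not_mem {O : ValuationSubring L} {Q : ℕ} (hQ : 2 ≤ Q) {x : L}
    (h : x ∉ O) : O.valuation (th Q x) < 1 := by
  have hx0 : x ≠ 0 := by rintro rfl; exact h O.zero_mem
  have hv : 1 < O.valuation x := by
    by_contra hcon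
    push Not at hcon
    exact h ((O.valuation_le_one_iff _).1 hcon)
  have h1 : O.valuation (x ^ Q - x) = O.valuation x ^ Q := by
    rw [← map_pow]
    rw [sub_eq_add_neg, Valuation.map_add_eq_of_lt_left]
    rw [Valuation.map_neg, map_pow]
    calc O.valuation x = O.valuation x ^ 1 := (pow_one _).symm
      _ < O.valuation x ^ Q := pow_lt_pow_right₀ hv (by omega)
  set w := x ^ Q - x with hw
  have hvw : 1 < O.valuation w := by
    rw [h1]
    exact one_lt_pow₀ hv (by omega)
  have h2 : O.valuation (w ^ 2 + 1) = O.valuation w ^ 2 := by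
    rw [← map_pow, Valuation.map_add_eq_of_lt_left]
    rw [map_one, map_pow]
    exact one_lt_pow₀ hvw (by norm_num)
  have hw0 : w ≠ 0 := by
    intro h0
    rw [h0] at hvw
    simp at hvw
  have hw0' : O.valuation w ≠ 0 := (Valuation.ne_zero_iff _).2 hw0
  rw [th, map_div₀, ← hw, h2, pow_two, div_mul_cancel_left₀ hw0']
  exact inv_lt_one_of_one_lt₀ hvw

theorem th_RT {O : ValuationSubring L} (hO : Dm R O) {Q : ℕ} (hQ : 2 ≤ Q) {x : L}
    (h : RT R O x) : RT R O (th Q x) := by
  letI := dmAlg hO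
  have hx : x ∈ O := h.mem
  have h1 := (RT_iff hO ⟨x, hx⟩).1 h
  set ξ := residue O ⟨x, hx⟩ with hξ
  set w : O := ⟨x, hx⟩ ^ Q - ⟨x, hx⟩ with hw
  have hw1 : residue O w = ξ ^ Q - ξ := by rw [hw, map_sub, map_pow]
  have hwL : (w : L) = x ^ Q - x := rfl
  have hwt : Transcendental (ResidueField R) (residue O w) := by
    intro halg
    rw [hw1] at halg
    refine h1 (alg_of_pow_sub ξ Q 1 (by omega) ?_)
    rwa [pow_one]
  have hne : residue O (w ^ 2 + 1) ≠ 0 := by
    intro h0
    apply hwt
    rw [map_add, map_pow, map_one] at h0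
    refine ⟨X ^ 2 + 1, ?_, by simpa using h0⟩
    have : (X ^ 2 + 1 : (ResidueField R)[X]).Monic := by
      have := monic_X_pow_add (n := 2) (p := (1 : (ResidueField R)[X])) (by
        rw [degree_one]; norm_num)
      exact this
    exact this.ne_zero
  have hunit : IsUnit (w ^ 2 + 1) := by
    by_contra hcon
    exact hne ((residue_eq_zero_iff _).2 ((mem_maximalIdeal _).2 hcon))
  obtain ⟨u, hu⟩ := hunit
  have hth : th Q x = ((w * (↑u⁻¹ : O) : O) : L) := by
    rw [th, ← hwL]
    have h3 : ((w : L) ^ 2 + 1) * ((↑u⁻¹ : O) : L) = 1 := by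
      have h4 : (w ^ 2 + 1) * (↑u⁻¹ : O) = 1 := by rw [← hu, Units.mul_inv]
      have := congrArg (Subtype.val : O → L) h4
      simpa using this
    have h5 : (w : L) ^ 2 + 1 ≠ 0 := left_ne_zero_of_mul_eq_one h3
    rw [div_eq_iff h5]
    push_cast
    linear_combination (-(w : L)) * h3
  rw [hth]
  rw [RT_iff hO]
  intro halg
  apply hwt
  refine alg_of_div (residue O w) _ halg ?_
  rw [← map_one (residue O), ← map_pow, ← map_add, ← map_mul, mul_assoc, ← hu, Units.inv_mul,
    mul_one]

theorem RT_congr {O : ValuationSubring L} (hO : Dm R O) {a b : L} (h : RT R O a)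
    (hab : O.valuation (b - a) < 1) : RT R O b := by
  have ha := h.mem
  have hba : b - a ∈ O := (O.valuation_le_one_iff _).1 hab.le
  have hb : b ∈ O := by
    have := add_mem hba ha
    rwa [sub_add_cancel] at this
  have h1 := (RT_iff hO ⟨a, ha⟩).1 h
  refine (RT_iff hO ⟨b, hb⟩).2 ?_
  have h2 : residue O ⟨b, hb⟩ = residue O ⟨a, ha⟩ := by
    rw [← sub_eq_zero, ← map_sub, residue_eq_zero_iff']
    exact hab
  rw [h2]
  exact h1

theorem pow_iter {M : Type*} [Monoid M] (x : M) (c : ℕ) (hc : 1 ≤ c) (h : x ^ c = x) (j : ℕ) :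
    x ^ (1 + (c - 1) * j) = x := by
  induction j with
  | zero => simp
  | succ j ih =>
    rw [Nat.mul_succ, ← add_assoc, pow_add, ih]
    calc x * x ^ (c - 1) = x ^ (1 + (c - 1)) := by rw [pow_add, pow_one]
      _ = x ^ c := by congr 1; omega
      _ = x := h

theorem exists_c [Finite (ResidueField R)] {O : ValuationSubring L} (hO : Dm R O) (x : L) :
    ∃ c : ℕ, 2 ≤ c ∧ (x ∈ O → ¬ RT R O x → ∀ Q : ℕ, (c - 1) ∣ (Q - 1) → 2 ≤ Q →
      O.valuation (x ^ Q - x) < 1) := by
  letI := dmAlg hO
  by_cases hx : x ∈ O ∧ ¬ RT R O x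
  · obtain ⟨hx1, hx2⟩ := hx
    have h1 := (not_RT_iff hO ⟨x, hx1⟩).1 hx2
    obtain ⟨c, hc, h⟩ := exists_pow_eq_of_algebraic _ h1
    refine ⟨c, hc, fun _ _ Q hQ hQ2 => ?_⟩
    obtain ⟨j, hj⟩ := hQ
    have h2 : Q = 1 + (c - 1) * j := by omega
    have h3 := pow_iter _ c (by omega) h j
    rw [← h2] at h3
    have h4 : residue O (⟨x, hx1⟩ ^ Q - ⟨x, hx1⟩) = 0 := by
      rw [map_sub, map_pow, h3, sub_self]
    rw [residue_eq_zero_iff'] at h4
    exact h4
  · refine ⟨2, le_rfl, fun h1 h2 => absurd ⟨h1, h2⟩ hx⟩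

theorem step [Finite (ResidueField R)] (W : Set (ValuationSubring L)) (hW : W.Finite)
    (hdm : ∀ O ∈ W, Dm R O) (u t : L) (h : ∀ O ∈ W, RT R O u ∨ RT R O t) :
    ∃ u' : L, ∀ O ∈ W, RT R O u' := by
  classical
  let c : L → ValuationSubring L → ℕ := fun x O =>
    if hO : Dm R O then (exists_c hO x).choose else 2
  have hc : ∀ x O, 2 ≤ c x O := by
    intro x O
    by_cases hO : Dm R O
    · simp only [c, dif_pos hO]; exact (exists_c hO x).choose_spec.1
    · simp only [c, dif_neg hO]; exact le_rfl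
  have hc2 : ∀ x, ∀ O, Dm R O → x ∈ O → ¬ RT R O x → ∀ Q : ℕ, (c x O - 1) ∣ (Q - 1) → 2 ≤ Q →
      O.valuation (x ^ Q - x) < 1 := by
    intro x O hO
    simp only [c, dif_pos hO]; exact (exists_c hO x).choose_spec.2
  let Q := 1 + (∏ O ∈ hW.toFinset, (c u O - 1)) * (∏ O ∈ hW.toFinset, (c t O - 1))
  have hpos : ∀ x, 0 < ∏ O ∈ hW.toFinset, (c x O - 1) := by
    intro x
    refine Finset.prod_pos fun O _ => ?_
    have := hc x O
    omega
  have hQ : 2 ≤ Q := by
    have := Nat.mul_pos (hpos u) (hpos t)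
    simp only [Q]; omega
  have hQ1 : Q - 1 = (∏ O ∈ hW.toFinset, (c u O - 1)) * (∏ O ∈ hW.toFinset, (c t O - 1)) := by
    simp only [Q]; omega
  have hsmall : ∀ x, (x = u ∨ x = t) → ∀ O ∈ W, ¬ RT R O x → O.valuation (th Q x) < 1 := by
    intro x hx O hO hRT
    by_cases hxO : x ∈ O
    · refine th_of_small (hc2 x O (hdm O hO) hxO hRT Q ?_ hQ)
      rw [hQ1]
      have hmem : O ∈ hW.toFinset := hW.mem_toFinset.2 hO
      rcases hx with rfl | rfl
      · exact Dvd.dvd.mul_right (Finset.dvd_prod_of_mem (fun O => c x O - 1) hmem) _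
      · exact Dvd.dvd.mul_left (Finset.dvd_prod_of_mem (fun O => c x O - 1) hmem) _
    · exact th_of_not_mem hQ hxO
  have hM : ∀ O ∈ W, ∃ M : ℕ, ∀ m, M < m → RT R O (th Q u ^ m + th Q t) := by
    intro O hO
    have hOd := hdm O hO
    letI := dmAlg hOd
    by_cases hu : RT R O u
    · have hthu := th_RT hOd hQ hu
      have htht : th Q t ∈ O := by
        by_cases ht : RT R O t
        · exact (th_RT hOd hQ ht).mem
        · exact (O.valuation_le_one_iff _).1 (hsmall t (Or.inr rfl) O hO ht).le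
      have h1 := (RT_iff hOd ⟨_, hthu.mem⟩).1 hthu
      by_cases hbad : ∃ m0 : ℕ, ¬ RT R O (th Q u ^ m0 + th Q t)
      · obtain ⟨m0, hm0⟩ := hbad
        refine ⟨m0, fun m hm => ?_⟩
        by_contra hcon
        have e1 := (not_RT_iff hOd (⟨th Q u, hthu.mem⟩ ^ m + ⟨th Q t, htht⟩)).1 hcon
        have e2 := (not_RT_iff hOd (⟨th Q u, hthu.mem⟩ ^ m0 + ⟨th Q t, htht⟩)).1 hm0
        apply h1
        refine alg_of_pow_sub _ m m0 hm ?_
        have e3 := e1.sub e2
        rw [map_add, map_add, map_pow, map_pow, add_sub_add_right_eq_sub] at e3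
        exact e3
      · push Not at hbad
        exact ⟨0, fun m _ => hbad m⟩
    · have ht : RT R O t := (h O hO).resolve_left hu
      have htht := th_RT hOd hQ ht
      refine ⟨0, fun m hm => RT_congr hOd htht ?_⟩
      rw [add_sub_cancel_right, map_pow]
      exact pow_lt_one₀ zero_le (hsmall u (Or.inl rfl) O hO hu) (by omega)
  let M : ValuationSubring L → ℕ := fun O => if hO : O ∈ W then (hM O hO).choose else 0
  have hMs : ∀ O ∈ W, ∀ m, M O < m → RT R O (th Q u ^ m + th Q t) := by
    intro O hO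
    simp only [M, dif_pos hO]
    exact (hM O hO).choose_spec
  refine ⟨th Q u ^ (1 + ∑ O ∈ hW.toFinset, M O) + th Q t, fun O hO => hMs O hO _ ?_⟩
  have := Finset.single_le_sum (f := M) (fun _ _ => Nat.zero_le _) (hW.mem_toFinset.2 hO)
  omega

/-- **one coordinate residually transcendental at all exceptional rings** -/
theorem exists_coord [Finite (ResidueField R)] {ι : Type*} (a : ι → L) (s : Finset ι)
    (hfin : ∀ i ∈ s, {O : ValuationSubring L | Dm R O ∧ RT R O (a i)}.Finite) :
    ∃ u : L, ∀ O : ValuationSubring L, Dm R O → (∃ i ∈ s, RT R O (a i)) → RT R O u := by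
  classical
  induction s using Finset.induction_on with
  | empty => exact ⟨0, fun O _ ⟨i, hi, _⟩ => absurd hi (Finset.notMem_empty i)⟩
  | insert j s hj ih =>
    obtain ⟨u, hu⟩ := ih fun i hi => hfin i (Finset.mem_insert_of_mem hi)
    let W : Set (ValuationSubring L) := {O | Dm R O ∧ ∃ i ∈ insert j s, RT R O (a i)}
    have hW : W.Finite := by
      have : W ⊆ ⋃ i ∈ insert j s, {O : ValuationSubring L | Dm R O ∧ RT R O (a i)} := by
        rintro O ⟨hO, i, hi, hi2⟩
        simp only [Set.mem_iUnion]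
        exact ⟨i, hi, hO, hi2⟩
      exact (Set.Finite.biUnion (Finset.finite_toSet _) hfin).subset this
    obtain ⟨u', hu'⟩ := step W hW (fun O hO => hO.1) u (a j) (by
      rintro O ⟨hO, i, hi, hi2⟩
      rcases Finset.mem_insert.1 hi with rfl | hi
      · exact Or.inr hi2
      · exact Or.inl (hu O hO ⟨i, hi, hi2⟩))
    exact ⟨u', fun O hO h => hu' O ⟨hO, h⟩⟩

end Crest.Agent.R013.E1_97
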