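import Mathlib
import Crest.Agent.R013.E1e_97

/-! The Gauss ring of `k(u)` and (P1) of the one-circle theorem (helper97, row 13). -/

set_option autoImplicit false

namespace Crest.Agent.R013.E1_97

open Polynomial IsLocalRing

theorem finite_of_range {F₁ F₂ L : Type*} [Field F₁] [Field F₂] [Field L] [Algebra F₁ L]
    [Algebra F₂ L] (h : ∀ c : F₁, ∃ d : F₂, algebraMap F₂ L d = algebraMap F₁ L c)
    [hfin : Module.Finite F₁ L] : Module.Finite F₂ L := by
  obtain ⟨s, hs⟩ := hfin.fg_top
  refine ⟨⟨s, ?_⟩⟩
  rw [eq_top_iff]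
  rintro x -
  have hx : x ∈ Submodule.span F₁ (s : Set L) := by rw [hs]; trivial
  induction hx using Submodule.span_induction with
  | mem x hx => exact Submodule.subset_span hx
  | zero => exact Submodule.zero_mem _
  | add x y _ _ hx hy => exact Submodule.add_mem _ hx hy
  | smul c x _ hx =>
    obtain ⟨d, hd⟩ := h c
    have : c • x = d • x := by rw [Algebra.smul_def, Algebra.smul_def, hd]
    rw [this]
    exact Submodule.smul_mem _ _ hx

/-- rank one property over a discrete valuation ring -/
theorem rank_one {A : Type*} [CommRing A] [IsDomain A] [IsDiscreteValuationRing A] {L : Type*}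
    [Field L] [Algebra A L] (hinj : Function.Injective (algebraMap A L)) {ϖ : A}
    (hϖ : Irreducible ϖ) {O : ValuationSubring L} (hO : Dm A O) {y : L} (hy : IsAlgebraic A y)
    (hy1 : O.valuation y < 1) :
    ∃ n : ℕ, O.valuation y ^ n ≤ O.valuation (algebraMap A L ϖ) := by
  classical
  obtain ⟨p, hp, hpy⟩ := hy
  obtain ⟨m, g, hg, i, hi⟩ := exists_prim hϖ p hp
  have hϖ0 : algebraMap A L ϖ ≠ 0 := fun h0 =>
    hϖ.ne_zero ((map_eq_zero_iff _ hinj).1 h0)
  have hgy : aeval y g = 0 := by
    rw [hg, map_mul, aeval_C, mul_eq_zero, map_pow] at hpy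
    exact hpy.resolve_left (pow_ne_zero _ hϖ0)
  have hex : ∃ i, IsUnit (g.coeff i) := ⟨i, hi⟩
  set j := Nat.find hex with hj
  have hju : IsUnit (g.coeff j) := Nat.find_spec hex
  refine ⟨j, ?_⟩
  by_contra hcon
  push Not at hcon
  have hvu : O.valuation (algebraMap A L (g.coeff j)) = 1 := by
    have h1 : O.valuation (algebraMap A L (g.coeff j)) ≤ 1 :=
      (O.valuation_le_one_iff _).2 (hO.1 _)
    obtain ⟨v, hv⟩ := hju
    have h2 : O.valuation (algebraMap A L (↑v⁻¹ : A)) ≤ 1 :=
      (O.valuation_le_one_iff _).2 (hO.1 _)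
    have h3 : O.valuation (algebraMap A L (g.coeff j)) * O.valuation (algebraMap A L (↑v⁻¹ : A)) = 1 := by
      rw [← map_mul, ← map_mul, ← hv, Units.mul_inv, map_one, map_one]
    refine le_antisymm h1 ?_
    rw [← h3]
    exact mul_le_of_le_one_right' h2
  have hy0 : O.valuation y ^ j ≠ 0 := by
    intro h0
    rw [h0] at hcon
    exact not_lt_zero hcon
  have hsum : aeval y g = ∑ i ∈ Finset.range (g.natDegree + 1), algebraMap A L (g.coeff i) * y ^ i := by
    rw [aeval_eq_sum_range]
    exact Finset.sum_congr rfl fun i _ => Algebra.smul_def _ _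
  have hjr : j ∈ Finset.range (g.natDegree + 1) := by
    rw [Finset.mem_range, Nat.lt_succ_iff]
    refine le_natDegree_of_ne_zero ?_
    intro h0
    rw [h0] at hju
    exact not_isUnit_zero hju
  rw [hgy, ← Finset.add_sum_erase _ _ hjr] at hsum
  have hlt : O.valuation (∑ i ∈ (Finset.range (g.natDegree + 1)).erase j,
      algebraMap A L (g.coeff i) * y ^ i) < O.valuation y ^ j := by
    refine Valuation.map_sum_lt _ hy0 fun i hi => ?_
    rw [map_mul, map_pow]
    rcases lt_trichotomy i j with h | h | h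
    · have h1 : ¬ IsUnit (g.coeff i) := Nat.find_min hex h
      have h2 : g.coeff i ∈ maximalIdeal A := (mem_maximalIdeal _).2 h1
      rw [hϖ.maximalIdeal_eq, Ideal.mem_span_singleton] at h2
      obtain ⟨c, hc⟩ := h2
      rw [hc, map_mul, map_mul]
      calc _ ≤ O.valuation (algebraMap A L ϖ) * 1 * 1 := by
            refine mul_le_mul' (mul_le_mul' le_rfl ((O.valuation_le_one_iff _).2 (hO.1 _))) ?_
            exact pow_le_one' hy1.le _
        _ < O.valuation y ^ j := by rw [mul_one, mul_one]; exact hcon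
    · exact absurd h (Finset.ne_of_mem_erase hi)
    · calc _ ≤ 1 * O.valuation y ^ i :=
            mul_le_mul' ((O.valuation_le_one_iff _).2 (hO.1 _)) le_rfl
        _ = O.valuation y ^ i := one_mul _
        _ < O.valuation y ^ j := by
            have h0 : O.valuation y ≠ 0 := by
              intro h0
              apply hy0
              rw [h0] at hcon ⊢
              rcases Nat.eq_zero_or_pos j with h' | h'
              · rw [h', pow_zero] at hcon
                rw [h', pow_zero]
                exfalso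
                have hv1 : O.valuation (algebraMap A L ϖ) < 1 := hcon
                -- y = 0 forces g.coeff 0 = 0
                have hy00 : y = 0 := (Valuation.zero_iff _).1 h0
                rw [hy00] at hgy
                rw [aeval_def, eval₂_at_zero] at hgy
                rw [h'] at hju
                rw [(map_eq_zero_iff _ hinj).1 hgy] at hju
                exact not_isUnit_zero hju
              · exact zero_pow (by omega)
            exact pow_lt_pow_right_of_lt_one₀ (zero_lt_iff.2 h0) hy1 h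
  have h1 : algebraMap A L (g.coeff j) * y ^ j =
      -(∑ i ∈ (Finset.range (g.natDegree + 1)).erase j, algebraMap A L (g.coeff i) * y ^ i) := by
    rw [eq_neg_iff_add_eq_zero]
    exact hsum.symm
  have h2 := congrArg O.valuation h1
  rw [map_mul, map_pow, hvu, one_mul, Valuation.map_neg] at h2
  rw [← h2] at hlt
  exact lt_irrefl _ hlt

variable {R : Type*} [CommRing R] [IsDomain R] [IsDiscreteValuationRing R]
variable {L : Type*} [Field L] [Algebra R L]

section Gauss

variable {P : Ideal R[X]} [hPp : P.IsPrime]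

theorem gauss_dvr {ϖ : R} (hϖ : Irreducible ϖ) (hP : P = Ideal.span {C ϖ}) :
    IsDiscreteValuationRing (Localization.AtPrime P) := by
  have hne : P ≠ ⊥ := by
    rw [hP]
    intro h0
    rw [Ideal.span_singleton_eq_bot] at h0
    exact hϖ.ne_zero (C_eq_zero.1 h0)
  have hnoeth : IsNoetherianRing (Localization.AtPrime P) :=
    IsLocalization.isNoetherianRing P.primeCompl _ inferInstance
  have hdom : IsDomain (Localization.AtPrime P) := inferInstance
  have hinj : Function.Injective (algebraMap R[X] (Localization.AtPrime P)) :=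
    IsLocalization.injective _ P.primeCompl_le_nonZeroDivisors
  have hmax : maximalIdeal (Localization.AtPrime P) =
      Ideal.span {algebraMap R[X] (Localization.AtPrime P) (C ϖ)} := by
    rw [← IsLocalization.AtPrime.map_eq_maximalIdeal P (Localization.AtPrime P),
      congrArg (Ideal.map (algebraMap R[X] (Localization.AtPrime P))) hP,
      Ideal.map_span, Set.image_singleton]
  have hnf : ¬ IsField (Localization.AtPrime P) := by
    rw [isField_iff_maximalIdeal_eq, hmax, Ideal.span_singleton_eq_bot]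
    intro h0
    rw [map_eq_zero_iff _ hinj, C_eq_zero] at h0
    exact hϖ.ne_zero h0
  have hpr : (maximalIdeal (Localization.AtPrime P)).IsPrincipal := ⟨⟨_, hmax⟩⟩
  exact ((IsDiscreteValuationRing.TFAE (Localization.AtPrime P) hnf).out 4 0).1 hpr

/-- the algebra structure of the Gauss ring -/
noncomputable abbrev gaussAlg (P : Ideal R[X]) [P.IsPrime] (u : L) (hu : Transcendental R u) :
    Algebra (Localization.AtPrime P) L :=
  (IsLocalization.lift (M := P.primeCompl) (g := (aeval u : R[X] →ₐ[R] L).toRingHom) (by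
    rintro ⟨y, hy⟩
    rw [isUnit_iff_ne_zero]
    intro h0
    apply hy
    have h1 : y = 0 := by
      by_contra hne
      exact hu ⟨y, hne, h0⟩
    rw [h1]
    exact P.zero_mem)).toAlgebra

theorem gauss_map (u : L) (hu : Transcendental R u) (f : R[X]) :
    letI := gaussAlg P u hu
    algebraMap (Localization.AtPrime P) L (algebraMap R[X] _ f) = aeval u f :=
  IsLocalization.lift_eq _ _

theorem gauss_inj (u : L) (hu : Transcendental R u) :
    letI := gaussAlg P u hu
    Function.Injective (algebraMap (Localization.AtPrime P) L) := by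
  letI := gaussAlg P u hu
  rw [injective_iff_map_eq_zero]
  intro z hz
  obtain ⟨f, s, rfl⟩ := IsLocalization.exists_mk'_eq P.primeCompl z
  have h1 : algebraMap (Localization.AtPrime P) L (IsLocalization.mk' _ f s) *
      aeval u (s : R[X]) = aeval u f := by
    rw [← gauss_map (P := P) u hu, ← gauss_map (P := P) u hu, ← map_mul,
      IsLocalization.mk'_spec]
  rw [hz, zero_mul] at h1
  have h2 : f = 0 := by
    by_contra hne
    exact hu ⟨f, hne, h1.symm⟩
  rw [h2, IsLocalization.mk'_zero]

theorem gauss_Dm {ϖ : R} (hϖ : Irreducible ϖ) (hP : P = Ideal.span {C ϖ}) (u : L)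
    (hu : Transcendental R u) (O : ValuationSubring L) :
    letI := gaussAlg P u hu
    Dm (Localization.AtPrime P) O ↔ Dm R O ∧ RT R O u := by
  letI := gaussAlg P u hu
  have hmemP : ∀ f : R[X], f ∈ P ↔ ∀ i, ¬ IsUnit (f.coeff i) := by
    intro f
    rw [hP, Ideal.mem_span_singleton, C_dvd_iff_dvd_coeff]
    refine forall_congr' fun i => ?_
    rw [← Ideal.mem_span_singleton, ← hϖ.maximalIdeal_eq, mem_maximalIdeal]
    rfl
  constructor
  · intro hO
    have hval1 : ∀ f : R[X], f ∉ P → O.valuation (aeval u f) = 1 := by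
      intro f hf
      have h1 : IsUnit (algebraMap R[X] (Localization.AtPrime P) f) :=
        (IsLocalization.AtPrime.isUnit_to_map_iff (Localization.AtPrime P) P f).2 hf
      obtain ⟨v, hv⟩ := h1
      have h2 : O.valuation (aeval u f) ≤ 1 := by
        rw [← gauss_map (P := P) u hu]
        exact (O.valuation_le_one_iff _).2 (hO.1 _)
      have h3 : O.valuation (algebraMap (Localization.AtPrime P) L (↑v⁻¹)) ≤ 1 :=
        (O.valuation_le_one_iff _).2 (hO.1 _)
      have h4 : O.valuation (aeval u f) *
          O.valuation (algebraMap (Localization.AtPrime P) L (↑v⁻¹)) = 1 := by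
        rw [← gauss_map (P := P) u hu, ← map_mul, ← map_mul, ← hv, Units.mul_inv, map_one, map_one]
      refine le_antisymm h2 ?_
      rw [← h4]
      exact mul_le_of_le_one_right' h3
    refine ⟨⟨fun r => ?_, fun r hr => ?_⟩, fun f hf => ?_⟩
    · have := hO.1 (algebraMap R[X] _ (C r))
      rwa [gauss_map (P := P) u hu, aeval_C] at this
    · have h1 : algebraMap R[X] (Localization.AtPrime P) (C r) ∈
          maximalIdeal (Localization.AtPrime P) := by
        rw [IsLocalization.AtPrime.to_map_mem_maximal_iff (Localization.AtPrime P) P, hmemP]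
        intro i
        rw [coeff_C]
        split_ifs
        · exact (mem_maximalIdeal _).1 hr
        · exact not_isUnit_zero
      have h2 := hO.2 _ h1
      rwa [gauss_map (P := P) u hu, aeval_C] at h2
    · refine hval1 f fun hfP => ?_
      obtain ⟨i, hi⟩ := hf
      exact (hmemP f).1 hfP i hi
  · rintro ⟨hO, hRT⟩
    have hval : ∀ (f : R[X]), aeval u f ∈ O := by
      intro f
      rw [aeval_eq_sum_range]
      refine sum_mem fun i _ => ?_
      rw [Algebra.smul_def]
      exact mul_mem (hO.1 _) (pow_mem hRT.mem _)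
    have hval1 : ∀ f : R[X], f ∉ P → O.valuation (aeval u f) = 1 := by
      intro f hf
      apply hRT
      rw [hmemP] at hf
      push Not at hf
      exact hf
    have hfrac : ∀ (f : R[X]) (s : P.primeCompl),
        O.valuation (algebraMap (Localization.AtPrime P) L (IsLocalization.mk' _ f s)) =
          O.valuation (aeval u f) := by
      intro f s
      have h1 : algebraMap (Localization.AtPrime P) L (IsLocalization.mk' _ f s) *
          aeval u (s : R[X]) = aeval u f := by
        rw [← gauss_map (P := P) u hu, ← gauss_map (P := P) u hu, ← map_mul,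
          IsLocalization.mk'_spec]
      rw [← h1, map_mul, hval1 _ s.2, mul_one]
    refine ⟨fun z => ?_, fun z hz => ?_⟩
    · obtain ⟨f, s, rfl⟩ := IsLocalization.exists_mk'_eq P.primeCompl z
      rw [← ValuationSubring.valuation_le_one_iff, hfrac, ValuationSubring.valuation_le_one_iff]
      exact hval f
    · obtain ⟨f, s, rfl⟩ := IsLocalization.exists_mk'_eq P.primeCompl z
      rw [hfrac]
      rw [IsLocalization.AtPrime.mk'_mem_maximal_iff (Localization.AtPrime P) P] at hz
      rw [hP, Ideal.mem_span_singleton] at hz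
      obtain ⟨g, rfl⟩ := hz
      rw [map_mul, map_mul, aeval_C]
      exact mul_lt_one_of_lt_of_le (hO.2 _ ((mem_maximalIdeal _).2 hϖ.not_isUnit))
        ((O.valuation_le_one_iff _).2 (hval g))

end Gauss

section P1

variable {k : Type*} [Field k] [Algebra R k] [IsFractionRing R k] [Algebra k L]
  [IsScalarTower R k L] [CharZero L]

include k in
theorem gauss_root_aux {A : Type*} [CommRing A] [IsDomain A] [IsDiscreteValuationRing A]
    [Algebra A L] (hinj : Function.Injective (algebraMap A L)) {ϖ : R} (u : L)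
    (hDm : ∀ O : ValuationSubring L, Dm A O ↔ Dm R O ∧ RT R O u) (j : R[X] →+* A)
    (hmap : ∀ f : R[X], algebraMap A L (j f) = aeval u f) (hirr : Irreducible (j (C ϖ)))
    (hfin : FiniteDimensional (IntermediateField.adjoin k {u}) L) (x : L) (hx : x ≠ 0) (l : ℕ)
    (hl : 0 < l) {ι : Type*} (b : ι → L) (hb : ∀ i, b i ≠ 0)
    (h1 : ∀ O : ValuationSubring L, Dm R O → ∃ i, O.valuation (x / b i ^ l - 1) < 1) :
    (∃ y : L, y ≠ 0 ∧ ∀ O : ValuationSubring L, Dm R O → RT R O u →
      O.valuation (x / y ^ l - 1) < 1) ∧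
    ∀ O : ValuationSubring L, Dm R O → RT R O u → ∀ y : L, O.valuation y < 1 →
      ∃ n : ℕ, O.valuation y ^ n ≤ O.valuation (algebraMap R L ϖ) := by
  have hfs : FaithfulSMul A L := (faithfulSMul_iff_algebraMap_injective _ _).2 hinj
  let _ : Algebra (FractionRing A) L := FractionRing.liftAlgebra A L
  have htow : IsScalarTower A (FractionRing A) L :=
    FractionRing.isScalarTower_liftAlgebra _ _
  have hFL : FiniteDimensional (FractionRing A) L := by
    refine finite_of_range (F₁ := IntermediateField.adjoin k {u}) ?_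
    rintro ⟨c, hc⟩
    obtain ⟨g, h, hh, hgh⟩ := exists_frac (R := R) hc
    refine ⟨algebraMap A (FractionRing A) (j g) / algebraMap A (FractionRing A) (j h), ?_⟩
    rw [map_div₀, ← IsScalarTower.algebraMap_apply, ← IsScalarTower.algebraMap_apply, hmap, hmap]
    rw [div_eq_iff hh]
    exact hgh.symm
  have hF0 : CharZero (FractionRing A) := (algebraMap (FractionRing A) L).charZero
  refine ⟨?_, ?_⟩
  · obtain ⟨y, hy, hy2⟩ := root (A := A) (F := FractionRing A) x hx l hl b hb
      (fun O hO => h1 O ((hDm O).1 hO).1) (by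
        intro O hO i hRT
        have h2 := RT.transcendental (k := FractionRing A) hRT
        exact h2 (Algebra.IsAlgebraic.isAlgebraic _))
    exact ⟨y, hy, fun O hO hRT => hy2 O ((hDm O).2 ⟨hO, hRT⟩)⟩
  · intro O hO hRT y hy
    obtain ⟨n, hn⟩ := rank_one (A := A) hinj hirr ((hDm O).2 ⟨hO, hRT⟩)
      (y := y) ((IsFractionRing.isAlgebraic_iff A (FractionRing A) L).2
        (Algebra.IsAlgebraic.isAlgebraic y)) hy
    rw [hmap, aeval_C] at hn
    exact ⟨n, hn⟩

include k in
/-- one approximate root at all rings over the Gauss ring of `k(u)`, and the rank one property -/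
theorem gauss_root {ϖ : R} (hϖ : Irreducible ϖ) (u : L) (hu : Transcendental k u)
    (hfin : FiniteDimensional (IntermediateField.adjoin k {u}) L) (x : L) (hx : x ≠ 0) (l : ℕ)
    (hl : 0 < l) {ι : Type*} (b : ι → L) (hb : ∀ i, b i ≠ 0)
    (h1 : ∀ O : ValuationSubring L, Dm R O → ∃ i, O.valuation (x / b i ^ l - 1) < 1) :
    (∃ y : L, y ≠ 0 ∧ ∀ O : ValuationSubring L, Dm R O → RT R O u →
      O.valuation (x / y ^ l - 1) < 1) ∧
    ∀ O : ValuationSubring L, Dm R O → RT R O u → ∀ y : L, O.valuation y < 1 →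
      ∃ n : ℕ, O.valuation y ^ n ≤ O.valuation (algebraMap R L ϖ) := by
  have huR : Transcendental R u := by
    rwa [Transcendental, IsFractionRing.isAlgebraic_iff R k L]
  have hPp : (Ideal.span {C ϖ} : Ideal R[X]).IsPrime := by
    rw [Ideal.span_singleton_prime (C_ne_zero.2 hϖ.ne_zero)]
    exact Polynomial.prime_C_iff.2 hϖ.prime
  have hdvr : IsDiscreteValuationRing (Localization.AtPrime (Ideal.span {C ϖ} : Ideal R[X])) :=
    gauss_dvr hϖ rfl
  let _ : Algebra (Localization.AtPrime (Ideal.span {C ϖ} : Ideal R[X])) L :=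
    gaussAlg (Ideal.span {C ϖ} : Ideal R[X]) u huR
  refine gauss_root_aux (k := k) (gauss_inj (P := Ideal.span {C ϖ}) u huR) u
    (gauss_Dm hϖ rfl u huR)
    (algebraMap R[X] (Localization.AtPrime (Ideal.span {C ϖ} : Ideal R[X])))
    (gauss_map (P := Ideal.span {C ϖ}) u huR) ?_ hfin x hx l hl b hb h1
  rw [IsDiscreteValuationRing.irreducible_iff_uniformizer,
    ← IsLocalization.AtPrime.map_eq_maximalIdeal (Ideal.span {C ϖ} : Ideal R[X])
      (Localization.AtPrime (Ideal.span {C ϖ} : Ideal R[X])),
    Ideal.map_span, Set.image_singleton]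

/-- **(P1)** -/
theorem p1 [Finite (ResidueField R)] {ϖ : R} (hϖ : Irreducible ϖ)
    (hfin : ∀ a : L, Transcendental k a → FiniteDimensional (IntermediateField.adjoin k {a}) L)
    (htr : ∃ t : L, Transcendental k t) (x : L) (hx : x ≠ 0) (l : ℕ) (hl : 0 < l)
    (hyp : ∀ O : ValuationSubring L, Dm R O → ∃ b : L, b ≠ 0 ∧ O.valuation (x / b ^ l - 1) < 1) :
    ∃ (s : Finset L) (u₀ : L) (m : ℕ), (∀ u ∈ s, u ≠ 0) ∧ u₀ ≠ 0 ∧ 0 < m ∧
      Transcendental k (x / u₀ ^ l - 1) ∧
      (∀ O : ValuationSubring L, Dm R O → ∃ u ∈ s, O.valuation (x / u ^ l - 1) < 1) ∧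
      ∀ O : ValuationSubring L, Dm R O → ∀ u ∈ s, RT R O (x / u ^ l - 1) →
        (x / u₀ ^ l - 1) ^ m / algebraMap R L ϖ ^ 2 ∈ O := by
  classical
  have hinj := algebraMap_inj (R := R) (k := k) (L := L)
  have hϖ0 : algebraMap R L ϖ ≠ 0 := fun h0 => hϖ.ne_zero ((map_eq_zero_iff _ hinj).1 h0)
  -- step 1: compactness
  obtain ⟨A', B', s', hA', hB', hs'⟩ := rzc (L := L) (ι := {b : L // b ≠ 0})
    (Set.range (algebraMap R L)) ((algebraMap R L) '' (maximalIdeal R : Set R))
    (fun b => x / (b : L) ^ l - 1) (by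
      intro O h1 h2
      obtain ⟨b, hb, hb2⟩ := hyp O ⟨fun r => h1 _ ⟨r, rfl⟩, fun r hr => h2 _ ⟨r, hr, rfl⟩⟩
      exact ⟨⟨b, hb⟩, hb2⟩)
  have hcov : ∀ O : ValuationSubring L, Dm R O → ∃ i ∈ s', O.valuation (x / (i : L) ^ l - 1) < 1 := by
    intro O hO
    refine hs' O (fun a ha => ?_) (fun b hb => ?_)
    · obtain ⟨r, rfl⟩ := hA' ha
      exact hO.1 r
    · obtain ⟨r, hr, rfl⟩ := hB' hb
      exact hO.2 r hr
  -- step 2: the coordinate
  let f : {b : L // b ≠ 0} → L := fun b => x / (b : L) ^ l - 1
  have hfinRT : ∀ i ∈ s', {O : ValuationSubring L | Dm R O ∧ RT R O (f i)}.Finite := by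
    intro i _
    by_cases htr' : Transcendental k (f i)
    · exact finite_RT (k := k) _ (hfin _ htr')
    · have : {O : ValuationSubring L | Dm R O ∧ RT R O (f i)} = ∅ := by
        rw [Set.eq_empty_iff_forall_notMem]
        rintro O ⟨_, hO⟩
        exact htr' (RT.transcendental (k := k) hO)
      rw [this]
      exact Set.finite_empty
  obtain ⟨u, hu, hutr⟩ : ∃ u : L, (∀ O : ValuationSubring L, Dm R O → (∃ i ∈ s', RT R O (f i)) →
      RT R O u) ∧ Transcendental k u := by
    obtain ⟨u, hu⟩ := exists_coord f s' hfinRT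
    by_cases hut : Transcendental k u
    · exact ⟨u, hu, hut⟩
    · obtain ⟨t, ht⟩ := htr
      refine ⟨t, fun O hO h => ?_, ht⟩
      exact absurd (RT.transcendental (k := k) (hu O hO h)) hut
  obtain ⟨⟨y, hy0, hy⟩, hrank⟩ := gauss_root (k := k) hϖ u hutr (hfin u hutr) x hx l hl
    (fun i : {b : L // b ≠ 0} => (i : L)) (fun i => i.2)
    (fun O hO => by obtain ⟨i, _, hi⟩ := hcov O hO; exact ⟨i, hi⟩)
  -- step 3: transcendental remainder
  obtain ⟨u₀, hu₀, hu₀v, hu₀t⟩ : ∃ u₀ : L, u₀ ≠ 0 ∧ (∀ O : ValuationSubring L, Dm R O →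
      RT R O u → O.valuation (x / u₀ ^ l - 1) < 1) ∧ Transcendental k (x / u₀ ^ l - 1) := by
    by_cases halg : Transcendental k (x / y ^ l - 1)
    · exact ⟨y, hy0, hy, halg⟩
    · rw [Transcendental, not_not] at halg
      set v : L := 1 + algebraMap R L ϖ * u with hv
      have hvt : Transcendental k v := by
        intro hva
        apply hutr
        have h1 : IsAlgebraic k (v - 1) := hva.sub isAlgebraic_one
        have h2 : u = (v - 1) * (algebraMap R L ϖ)⁻¹ := by
          rw [hv]; field_simp; ring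
        rw [h2]
        refine h1.mul (IsAlgebraic.inv ?_)
        rw [IsScalarTower.algebraMap_apply R k L]
        exact isAlgebraic_algebraMap _
      have hv0 : v ≠ 0 := by
        intro h0
        apply hvt
        rw [h0]
        exact isAlgebraic_zero
      refine ⟨y * v, mul_ne_zero hy0 hv0, ?_, ?_⟩
      · intro O hO hRT
        have h1 := hy O hO hRT
        have hvv : O.valuation (v - 1) < 1 := by
          rw [hv, add_sub_cancel_left, map_mul]
          exact mul_lt_one_of_lt_of_le (hO.2 _ ((mem_maximalIdeal _).2 hϖ.not_isUnit))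
            ((O.valuation_le_one_iff _).2 hRT.mem)
        have hv1 : O.valuation v = 1 := val_eq_one_of_sub_lt O (map_one _) hvv
        have hvO : v ∈ O := by rw [← ValuationSubring.valuation_le_one_iff, hv1]
        have h2 : x / (y * v) ^ l - 1 = ((x / y ^ l - 1) + -(v ^ l - 1 ^ l)) / v ^ l := by
          rw [mul_pow, one_pow]
          field_simp
          ring
        rw [h2, map_div₀, map_pow, hv1]
        have h3 := val_pow_sub_lt O hvO O.one_mem hvv l
        have h4 : (1 : O.ValueGroup) ^ l = 1 := one_pow _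
        rw [h4, div_one]
        refine val_add_lt O h1 ?_
        rw [Valuation.map_neg]
        exact h3
      · intro h2
        apply hvt
        have h3 : IsAlgebraic k (x / y ^ l) := by
          have := halg.add (isAlgebraic_one (R := k))
          rwa [sub_add_cancel] at this
        have h4 : IsAlgebraic k (x / (y * v) ^ l) := by
          have := h2.add (isAlgebraic_one (R := k))
          rwa [sub_add_cancel] at this
        refine IsAlgebraic.of_pow hl ?_
        have h5 : v ^ l = x / y ^ l * (x / (y * v) ^ l)⁻¹ := by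
          rw [mul_pow]
          field_simp
        rw [h5]
        exact h3.mul h4.inv
  -- step 4: the exponent
  let W : Set (ValuationSubring L) := {O | Dm R O ∧ ∃ i ∈ s', RT R O (f i)}
  have hW : W.Finite := by
    have : W ⊆ ⋃ i ∈ s', {O : ValuationSubring L | Dm R O ∧ RT R O (f i)} := by
      rintro O ⟨hO, i, hi, hi2⟩
      simp only [Set.mem_iUnion]
      exact ⟨i, hi, hO, hi2⟩
    exact (Set.Finite.biUnion (Finset.finite_toSet _) hfinRT).subset this
  set f₀ := x / u₀ ^ l - 1 with hf₀
  have hn : ∀ O ∈ W, ∃ n : ℕ, O.valuation f₀ ^ n ≤ O.valuation (algebraMap R L ϖ) := by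
    intro O hO
    have hRT := hu O hO.1 hO.2
    exact hrank O hO.1 hRT f₀ (hu₀v O hO.1 hRT)
  let n : ValuationSubring L → ℕ := fun O => if hO : O ∈ W then (hn O hO).choose else 0
  have hns : ∀ O ∈ W, O.valuation f₀ ^ n O ≤ O.valuation (algebraMap R L ϖ) := by
    intro O hO
    simp only [n, dif_pos hO]
    exact (hn O hO).choose_spec
  refine ⟨s'.image Subtype.val, u₀, 2 * (∑ O ∈ hW.toFinset, n O) + 1, ?_, hu₀, by omega, hu₀t,
    ?_, ?_⟩
  · intro v hv
    obtain ⟨i, _, rfl⟩ := Finset.mem_image.1 hv
    exact i.2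
  · intro O hO
    obtain ⟨i, hi, hi2⟩ := hcov O hO
    exact ⟨i, Finset.mem_image_of_mem _ hi, hi2⟩
  · intro O hO v hv hRT
    obtain ⟨i, hi, rfl⟩ := Finset.mem_image.1 hv
    have hOW : O ∈ W := ⟨hO, i, hi, hRT⟩
    have h1 : n O ≤ ∑ O ∈ hW.toFinset, n O :=
      Finset.single_le_sum (f := n) (fun _ _ => Nat.zero_le _) (hW.mem_toFinset.2 hOW)
    rw [← ValuationSubring.valuation_le_one_iff, map_div₀, map_pow, map_pow]
    have hvϖ : O.valuation (algebraMap R L ϖ) ≠ 0 := (Valuation.ne_zero_iff _).2 hϖ0
    rw [div_le_iff₀ (zero_lt_iff.2 (pow_ne_zero _ hvϖ)), one_mul]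
    have hlt : O.valuation f₀ ≤ 1 := (hu₀v O hO (hu O hO hOW.2)).le
    calc O.valuation f₀ ^ (2 * (∑ O ∈ hW.toFinset, n O) + 1) ≤ O.valuation f₀ ^ (2 * n O) :=
          pow_le_pow_right_of_le_one' hlt (by omega)
      _ = (O.valuation f₀ ^ n O) ^ 2 := by rw [← pow_mul, mul_comm]
      _ ≤ O.valuation (algebraMap R L ϖ) ^ 2 := pow_le_pow_left' (hns O hOW) 2

end P1

end Crest.Agent.R013.E1_97
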