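import Crest.Agent.R013.Cell2_408

/-!
# Row 13, leaf SS-AN (helper809): the field of two-sided series at the boundary of a disc

`EE k C` : two-sided sequences `a : ℤ → C` (think of `∑ a n T^n`) with values in ONE finite extension
`L ⊆ C` of the complete field `k`, bounded, and tending to `0` for `n → -∞`; multiplication is the
convolution.  This file: the commutative ring structure.
-/

set_option autoImplicit false
set_option linter.unusedSectionVars false
open Filter Topology
open Crest.Agent.R013.Cell_408 (FinDef)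

namespace Crest.Agent.R013.EE809

section Fin

variable (k : Type*) [NontriviallyNormedField k]
variable {C : Type*} [NormedField C] [NormedAlgebra k C]

variable {k}

variable [CompleteSpace k]

theorem isClosed_of (L : IntermediateField k C) [h : FiniteDimensional k L] :
    IsClosed (L : Set C) := by
  have h' : FiniteDimensional k (Subalgebra.toSubmodule L.toSubalgebra) := h
  exact Submodule.closed_of_finiteDimensional (Subalgebra.toSubmodule L.toSubalgebra)

theorem summable_of [IsUltrametricDist C] {ι : Type*} {f : ι → C} (L : IntermediateField k C)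
    [h : FiniteDimensional k L] (hf : ∀ i, f i ∈ L) (h0 : Tendsto f cofinite (𝓝 0)) :
    Summable f := by
  let S : Submodule k C := Subalgebra.toSubmodule L.toSubalgebra
  have h' : FiniteDimensional k S := h
  have h1 : CompleteSpace S := FiniteDimensional.complete k S
  let g : ι → S := fun i => ⟨f i, hf i⟩
  have hg : Tendsto g cofinite (𝓝 0) := by
    rw [tendsto_subtype_rng]
    exact h0
  have h2 := NonarchimedeanAddGroup.summable_of_tendsto_cofinite_zero hg
  exact h2.map S.subtype.toAddMonoidHom continuous_subtype_val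

theorem tsum_mem_of {ι : Type*} {f : ι → C} (L : IntermediateField k C)
    [h : FiniteDimensional k L] (hf : ∀ i, f i ∈ L) : ∑' i, f i ∈ L :=
  tsum_mem (isClosed_of L) hf

end Fin

variable (k : Type*) [NontriviallyNormedField k]
variable (C : Type*) [NormedField C] [IsUltrametricDist C] [NormedAlgebra k C]

/-- the additive group of two-sided series -/
def E0 : AddSubgroup (ℤ → C) where
  carrier := {a | FinDef k a ∧ (∃ M : ℝ, ∀ n, ‖a n‖ ≤ M) ∧ Tendsto a atBot (𝓝 0)}
  add_mem' := by
    rintro a b ⟨ha, ⟨M, hM⟩, ha0⟩ ⟨hb, ⟨N, hN⟩, hb0⟩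
    obtain ⟨L, hL, h1, h2⟩ := ha.common hb
    refine ⟨⟨L, hL, fun i => add_mem (h1 i) (h2 i)⟩, ⟨max M N, fun n => ?_⟩, ?_⟩
    · exact (IsUltrametricDist.norm_add_le_max _ _).trans (max_le_max (hM n) (hN n))
    · have := ha0.add hb0
      rw [add_zero] at this
      exact this
  zero_mem' := ⟨⟨⊥, inferInstance, fun _ => zero_mem _⟩, ⟨0, fun _ => by simp⟩, tendsto_const_nhds⟩
  neg_mem' := by
    rintro a ⟨⟨L, hL, h1⟩, ⟨M, hM⟩, ha0⟩
    refine ⟨⟨L, hL, fun i => neg_mem (h1 i)⟩, ⟨M, fun n => ?_⟩, ?_⟩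
    · simpa using hM n
    · have := ha0.neg
      rw [neg_zero] at this
      exact this

/-- **The ring of two-sided series** `∑ a n T^n`. -/
def EE : Type _ := ↥(E0 k C)

noncomputable instance : AddCommGroup (EE k C) := inferInstanceAs (AddCommGroup ↥(E0 k C))

variable {k C}

/-- coefficients -/
def EE.co (a : EE k C) (n : ℤ) : C := a.1 n

@[ext] theorem EE.ext {a b : EE k C} (h : ∀ n, a.co n = b.co n) : a = b :=
  Subtype.ext (funext h)

@[simp] theorem co_add (a b : EE k C) (n : ℤ) : (a + b).co n = a.co n + b.co n := rfl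
@[simp] theorem co_zero (n : ℤ) : (0 : EE k C).co n = 0 := rfl
@[simp] theorem co_neg (a : EE k C) (n : ℤ) : (-a).co n = -a.co n := rfl
@[simp] theorem co_sub (a b : EE k C) (n : ℤ) : (a - b).co n = a.co n - b.co n := rfl

theorem EE.fd (a : EE k C) : FinDef k a.co := a.2.1
theorem EE.bd (a : EE k C) : ∃ M : ℝ, ∀ n, ‖a.co n‖ ≤ M := a.2.2.1
theorem EE.lim (a : EE k C) : Tendsto a.co atBot (𝓝 0) := a.2.2.2

/-- constructor -/
def mk' (a : ℤ → C) (h1 : FinDef k a) (h2 : ∃ M : ℝ, ∀ n, ‖a n‖ ≤ M) (h3 : Tendsto a atBot (𝓝 0)) :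
    EE k C := ⟨a, h1, h2, h3⟩

@[simp] theorem co_mk' (a : ℤ → C) (h1 : FinDef k a) (h2 : ∃ M : ℝ, ∀ n, ‖a n‖ ≤ M)
    (h3 : Tendsto a atBot (𝓝 0)) (n : ℤ) : (mk' a h1 h2 h3).co n = a n := rfl

theorem EE.bd' (a : EE k C) : ∃ M : ℝ, 0 < M ∧ ∀ n, ‖a.co n‖ ≤ M := by
  obtain ⟨M, hM⟩ := a.bd
  exact ⟨max M 1, lt_max_of_lt_right one_pos, fun n => (hM n).trans (le_max_left _ _)⟩

/-- small far to the left -/
theorem EE.small (a : EE k C) {ε : ℝ} (hε : 0 < ε) : ∃ K : ℤ, 0 ≤ K ∧ ∀ n, n < -K → ‖a.co n‖ < ε := by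
  have h := a.lim
  rw [Metric.tendsto_nhds] at h
  obtain ⟨N, hN⟩ := (eventually_atBot.1 (h ε hε))
  refine ⟨max 0 (-N), le_max_left _ _, fun n hn => ?_⟩
  have h1 : n ≤ N := by
    have := le_max_right 0 (-N)
    omega
  simpa using hN n h1

section conv

theorem tendsto_conv (a b : EE k C) (n : ℤ) :
    Tendsto (fun i => a.co i * b.co (n - i)) cofinite (𝓝 0) := by
  obtain ⟨A, hA, hA'⟩ := a.bd'
  obtain ⟨B, hB, hB'⟩ := b.bd'
  rw [Metric.tendsto_nhds]
  intro ε hε
  obtain ⟨K, hK, h1⟩ := a.small (ε := ε / B) (by positivity)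
  obtain ⟨K', hK', h2⟩ := b.small (ε := ε / A) (by positivity)
  rw [eventually_cofinite]
  refine (Set.finite_Icc (-K) (n + K')).subset ?_
  intro i hi
  simp only [dist_zero_right, norm_mul, not_lt, Set.mem_ofPred_eq] at hi
  by_contra hc
  rw [Set.mem_Icc, not_and_or, not_le, not_le] at hc
  rcases hc with hc | hc
  · have h3 := h1 i hc
    have : ‖a.co i‖ * ‖b.co (n - i)‖ < ε := by
      calc ‖a.co i‖ * ‖b.co (n - i)‖ ≤ ‖a.co i‖ * B := by gcongr; exact hB' _
        _ < ε / B * B := by gcongr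
        _ = ε := by field_simp
    linarith
  · have h3 := h2 (n - i) (by omega)
    have : ‖a.co i‖ * ‖b.co (n - i)‖ < ε := by
      calc ‖a.co i‖ * ‖b.co (n - i)‖ ≤ A * ‖b.co (n - i)‖ := by gcongr; exact hA' _
        _ < A * (ε / A) := by gcongr
        _ = ε := by field_simp
    linarith

variable [CompleteSpace k]

theorem summable_conv (a b : EE k C) (n : ℤ) : Summable (fun i => a.co i * b.co (n - i)) := by
  obtain ⟨L, hL, h1, h2⟩ := a.fd.common b.fd
  exact summable_of L (fun i => mul_mem (h1 i) (h2 _)) (tendsto_conv a b n)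

/-- the convolution -/
noncomputable def conv (a b : EE k C) (n : ℤ) : C := ∑' i, a.co i * b.co (n - i)

theorem conv_mem (a b : EE k C) :
    FinDef k (conv a b) ∧ (∃ M : ℝ, ∀ n, ‖conv a b n‖ ≤ M) ∧ Tendsto (conv a b) atBot (𝓝 0) := by
  obtain ⟨A, hA, hA'⟩ := a.bd'
  obtain ⟨B, hB, hB'⟩ := b.bd'
  obtain ⟨L, hL, h1, h2⟩ := a.fd.common b.fd
  refine ⟨⟨L, hL, fun n => tsum_mem_of L fun i => mul_mem (h1 i) (h2 _)⟩, ⟨A * B, fun n => ?_⟩, ?_⟩
  · refine IsUltrametricDist.norm_tsum_le_of_forall_le_of_nonneg (by positivity) fun i => ?_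
    rw [norm_mul]
    exact mul_le_mul (hA' _) (hB' _) (norm_nonneg _) hA.le
  · rw [Metric.tendsto_nhds]
    intro ε hε
    obtain ⟨K, hK, h1⟩ := a.small (ε := ε / 2 / B) (by positivity)
    obtain ⟨K', hK', h2⟩ := b.small (ε := ε / 2 / A) (by positivity)
    rw [eventually_atBot]
    refine ⟨-K - K' - 1, fun n hn => ?_⟩
    rw [dist_zero_right]
    refine lt_of_le_of_lt (b := ε / 2) ?_ (by linarith)
    refine IsUltrametricDist.norm_tsum_le_of_forall_le_of_nonneg (by positivity) fun i => ?_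
    rw [norm_mul]
    by_cases hi : i < -K
    · have h3 := (h1 i hi).le
      calc ‖a.co i‖ * ‖b.co (n - i)‖ ≤ ε / 2 / B * B := by
            gcongr; exact hB' _
        _ = ε / 2 := by field_simp
    · have h3 := (h2 (n - i) (by omega)).le
      calc ‖a.co i‖ * ‖b.co (n - i)‖ ≤ A * (ε / 2 / A) := by
            gcongr; exact hA' _
        _ = ε / 2 := by field_simp

noncomputable instance : Mul (EE k C) := ⟨fun a b => ⟨conv a b, conv_mem a b⟩⟩

theorem co_mul (a b : EE k C) (n : ℤ) : (a * b).co n = ∑' i, a.co i * b.co (n - i) := rfl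

theorem tendsto_triple (a b c : EE k C) (n : ℤ) :
    Tendsto (fun p : ℤ × ℤ => a.co p.1 * (b.co p.2 * c.co (n - p.1 - p.2))) cofinite (𝓝 0) := by
  obtain ⟨A, hA, hA'⟩ := a.bd'
  obtain ⟨B, hB, hB'⟩ := b.bd'
  obtain ⟨D, hD, hD'⟩ := c.bd'
  rw [Metric.tendsto_nhds]
  intro ε hε
  obtain ⟨Ka, hKa, h1⟩ := a.small (ε := ε / (B * D)) (by positivity)
  obtain ⟨Kb, hKb, h2⟩ := b.small (ε := ε / (A * D)) (by positivity)
  obtain ⟨Kc, hKc, h3⟩ := c.small (ε := ε / (A * B)) (by positivity)
  rw [eventually_cofinite]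
  refine ((Set.finite_Icc (-Ka) (n + Kc + Kb)).prod (Set.finite_Icc (-Kb) (n + Kc + Ka))).subset ?_
  rintro ⟨i, j⟩ hi
  simp only [dist_zero_right, norm_mul, not_lt, Set.mem_ofPred_eq] at hi
  by_contra hc
  have hc' : i < -Ka ∨ j < -Kb ∨ n - i - j < -Kc := by
    by_contra h
    push Not at h
    exact hc ⟨⟨h.1, by omega⟩, ⟨h.2.1, by omega⟩⟩
  have h4 := hA' i
  have h5 := hB' j
  have h6 := hD' (n - i - j)
  have : ‖a.co i‖ * (‖b.co j‖ * ‖c.co (n - i - j)‖) < ε := by
    rcases hc' with hc' | hc' | hc'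
    · have h7 := h1 i hc'
      calc ‖a.co i‖ * (‖b.co j‖ * ‖c.co (n - i - j)‖) ≤ ‖a.co i‖ * (B * D) := by gcongr
        _ < ε / (B * D) * (B * D) := by gcongr
        _ = ε := by field_simp
    · have h7 := h2 j hc'
      calc ‖a.co i‖ * (‖b.co j‖ * ‖c.co (n - i - j)‖) ≤ A * (‖b.co j‖ * D) := by gcongr
        _ < A * (ε / (A * D) * D) := by gcongr
        _ = ε := by field_simp
    · have h7 := h3 _ hc'
      calc ‖a.co i‖ * (‖b.co j‖ * ‖c.co (n - i - j)‖) ≤ A * (B * ‖c.co (n - i - j)‖) := by gcongr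
        _ < A * (B * (ε / (A * B))) := by gcongr
        _ = ε := by field_simp
  linarith

theorem _root_.Crest.Agent.R013.Cell_408.FinDef.triple {ι κ μ : Type*} {a : ι → C} {b : κ → C} {c : μ → C} (ha : FinDef k a)
    (hb : FinDef k b) (hc : FinDef k c) :
    ∃ L : IntermediateField k C, FiniteDimensional k L ∧ (∀ i, a i ∈ L) ∧ (∀ i, b i ∈ L) ∧
      ∀ i, c i ∈ L := by
  obtain ⟨L, hL, h1, h2⟩ := ha.common hb
  have h3 : FinDef k (Sum.elim a b) := ⟨L, hL, by rintro (i | i) <;> simp [h1, h2]⟩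
  obtain ⟨L', hL', h4, h5⟩ := h3.common hc
  exact ⟨L', hL', fun i => h4 (.inl i), fun i => h4 (.inr i), h5⟩

theorem summable_triple (a b c : EE k C) (n : ℤ) :
    Summable (fun p : ℤ × ℤ => a.co p.1 * (b.co p.2 * c.co (n - p.1 - p.2))) := by
  obtain ⟨L, hL, h1, h2, h3⟩ := a.fd.triple b.fd c.fd
  exact summable_of L (fun i => mul_mem (h1 _) (mul_mem (h2 _) (h3 _))) (tendsto_triple a b c n)

theorem mul_assoc_right (a b c : EE k C) (n : ℤ) : (a * (b * c)).co n
    = ∑' p : ℤ × ℤ, a.co p.1 * (b.co p.2 * c.co (n - p.1 - p.2)) := by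
  have hfib : ∀ i : ℤ, Summable (fun j : ℤ => a.co i * (b.co j * c.co (n - i - j))) :=
    fun i => (summable_conv b c (n - i)).mul_left (a.co i)
  have h := Summable.tsum_prod' (f := fun p : ℤ × ℤ => a.co p.1 * (b.co p.2 * c.co (n - p.1 - p.2)))
    (summable_triple a b c n) hfib
  rw [h, co_mul]
  refine tsum_congr fun i => ?_
  rw [co_mul]
  exact (tsum_mul_left (f := fun j : ℤ => b.co j * c.co (n - i - j)) (a := a.co i)).symm

/-- reindexing -/
def shearEquiv : ℤ × ℤ ≃ ℤ × ℤ where
  toFun := fun p => (p.1 + p.2, p.1)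
  invFun := fun q => (q.2, q.1 - q.2)
  left_inv := fun p => by simp
  right_inv := fun q => by simp

theorem triple_shear (a b c : EE k C) (n : ℤ) (p : ℤ × ℤ) :
    a.co (shearEquiv p).2 * b.co ((shearEquiv p).1 - (shearEquiv p).2) * c.co (n - (shearEquiv p).1)
      = a.co p.1 * (b.co p.2 * c.co (n - p.1 - p.2)) := by
  simp only [shearEquiv, Equiv.coe_fn_mk]
  rw [show p.1 + p.2 - p.1 = p.2 by ring, show n - (p.1 + p.2) = n - p.1 - p.2 by ring]
  ring

theorem mul_assoc_left (a b c : EE k C) (n : ℤ) : (a * b * c).co n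
    = ∑' q : ℤ × ℤ, a.co q.2 * b.co (q.1 - q.2) * c.co (n - q.1) := by
  have hs : Summable (fun q : ℤ × ℤ => a.co q.2 * b.co (q.1 - q.2) * c.co (n - q.1)) := by
    rw [← shearEquiv.summable_iff]
    exact (summable_triple a b c n).congr fun p => (triple_shear a b c n p).symm
  have hfib : ∀ l : ℤ, Summable (fun i : ℤ => a.co i * b.co (l - i) * c.co (n - l)) :=
    fun l => (summable_conv a b l).mul_right (c.co (n - l))
  have h := Summable.tsum_prod' (f := fun q : ℤ × ℤ => a.co q.2 * b.co (q.1 - q.2) * c.co (n - q.1))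
    hs hfib
  rw [h, co_mul]
  refine tsum_congr fun l => ?_
  rw [co_mul]
  exact (tsum_mul_right (f := fun i : ℤ => a.co i * b.co (l - i)) (a := c.co (n - l))).symm

theorem mul_assoc' (a b c : EE k C) : a * b * c = a * (b * c) := by
  ext n
  rw [mul_assoc_left, mul_assoc_right, ← shearEquiv.tsum_eq]
  exact tsum_congr fun p => triple_shear a b c n p

theorem mul_comm' (a b : EE k C) : a * b = b * a := by
  ext n
  rw [co_mul, co_mul, ← (Equiv.subLeft n).tsum_eq]
  refine tsum_congr fun i => ?_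
  simp only [Equiv.subLeft_apply, sub_sub_cancel]
  ring

theorem add_mul' (a b c : EE k C) : (a + b) * c = a * c + b * c := by
  ext n
  rw [co_add, co_mul, co_mul, co_mul, ← (summable_conv a c n).tsum_add (summable_conv b c n)]
  refine tsum_congr fun i => ?_
  rw [co_add]
  ring

/-- the monomial `c T^n` -/
def mono (n : ℤ) (c : C) (hc : FinDef k (fun _ : Unit => c)) : EE k C :=
  ⟨fun m => if m = n then c else 0, by
    obtain ⟨L, hL, h⟩ := hc
    exact ⟨L, hL, fun i => by
      by_cases h1 : i = n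
      · simp only [h1, if_true]; exact h ()
      · simp only [h1, if_false]; exact zero_mem _⟩,
   ⟨‖c‖, fun m => by
      by_cases h1 : m = n
      · simp [h1]
      · simp [h1]⟩, by
    refine tendsto_const_nhds.congr' ?_
    filter_upwards [eventually_lt_atBot n] with m hm
    simp [hm.ne]⟩

omit [CompleteSpace k] [IsUltrametricDist C] in
theorem finDef_const [Algebra.IsAlgebraic k C] (c : C) : FinDef k (fun _ : Unit => c) :=
  ⟨IntermediateField.adjoin k {c},
    IntermediateField.adjoin.finiteDimensional (Algebra.IsAlgebraic.isAlgebraic c).isIntegral,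
    fun _ => IntermediateField.mem_adjoin_simple_self k c⟩

omit [CompleteSpace k] [IsUltrametricDist C] in
theorem finDef_one : FinDef k (fun _ : Unit => (1 : C)) := ⟨⊥, inferInstance, fun _ => one_mem _⟩

omit [CompleteSpace k] in
theorem co_mono (n : ℤ) (c : C) (hc : FinDef k (fun _ : Unit => c)) (m : ℤ) :
    (mono n c hc : EE k C).co m = if m = n then c else 0 := rfl

theorem co_mono_mul (n : ℤ) (c : C) (hc : FinDef k (fun _ : Unit => c)) (a : EE k C) (m : ℤ) :
    (mono n c hc * a).co m = c * a.co (m - n) := by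
  rw [co_mul, tsum_eq_single n]
  · rw [co_mono, if_pos rfl]
  · intro i hi
    rw [co_mono, if_neg hi, zero_mul]

noncomputable instance : One (EE k C) := ⟨mono 0 1 finDef_one⟩

theorem one_def : (1 : EE k C) = mono 0 1 finDef_one := rfl

theorem co_one (n : ℤ) : (1 : EE k C).co n = if n = 0 then 1 else 0 := rfl

theorem one_mul' (a : EE k C) : 1 * a = a := by
  ext n
  rw [one_def, co_mono_mul, one_mul, sub_zero]

noncomputable instance : CommRing (EE k C) :=
  { (inferInstance : AddCommGroup (EE k C)), (inferInstance : Mul (EE k C)),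
    (inferInstance : One (EE k C)) with
    left_distrib := fun a b c => by rw [mul_comm' a, add_mul', mul_comm' b, mul_comm' c]
    right_distrib := add_mul'
    zero_mul := fun a => by
      have h := add_mul' 0 0 a
      rw [add_zero] at h
      exact left_eq_add.1 h
    mul_zero := fun a => by
      have h := add_mul' 0 0 a
      rw [add_zero] at h
      rw [mul_comm']
      exact left_eq_add.1 h
    mul_assoc := mul_assoc'
    one_mul := one_mul'
    mul_one := fun a => by rw [mul_comm', one_mul']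
    mul_comm := mul_comm' }

theorem co_mul' (a b : EE k C) (n : ℤ) : (a * b).co n = ∑' i, a.co i * b.co (n - i) := rfl

end conv

end Crest.Agent.R013.EE809
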