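import Crest.Agent.R013.EE6_809
import Crest.Agent.R013.RR20_948

/-!
# Row 13, leaf SS-END (helper809): rational functions of an element of norm one and order one,
the expansion `C(X) → EE k C`
-/

set_option autoImplicit false
set_option linter.unusedSectionVars false
open Filter Topology
open scoped NNReal
open Crest.Agent.R013.Cell_408 (FinDef DiscNorm exists_max BD)
open Crest.Agent.R013.Red332
open Crest.Agent.R013.RR8_948 Crest.Agent.R013.RR20_948

namespace Crest.Agent.R013.EE809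

open Polynomial

section PolyEnd

variable {C : Type*} [NormedField C] [IsUltrametricDist C] {F : Type*} [Field F] [Algebra C F]
  {E : End2 C F} {t : F}

theorem nm_pow (ht : E.nm t = 1) (n : ℕ) : E.nm (t ^ n) = 1 := by rw [map_pow, ht, one_pow]

theorem od_pow' (ht : E.nm t = 1) (ht' : E.od t = 1) (n : ℕ) : E.od (t ^ n) = n := by
  rw [E.od_pow (E.ne_zero_of_one ht), ht', mul_one]

theorem ge_pow (ht : E.nm t = 1) (ht' : E.od t = 1) (n : ℕ) : Ge E n (t ^ n) :=
  Or.inr ⟨nm_pow ht n, (od_pow' ht ht' n).ge⟩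

theorem ge_of_lt {m : ℤ} {f : F} (h : E.nm f < 1) : Ge E m f := Or.inl h

/-- lower bound for the order of a polynomial in `t` -/
theorem poly_ge (ht : E.nm t = 1) (ht' : E.od t = 1) {p : C[X]} {m : ℕ}
    (h1 : ∀ n, ‖p.coeff n‖₊ ≤ 1) (h2 : ∀ n < m, ‖p.coeff n‖₊ < 1) : Ge E m (aeval t p) := by
  rw [aeval_eq_sum_range]
  refine Ge.sum _ fun i _ => ?_
  rw [Algebra.smul_def]
  by_cases hi : i < m
  · left
    rw [map_mul, nm_pow ht, mul_one, E.hC]
    exact h2 i hi
  · have := (Ge.const (E := E) (h1 i)).mul (ge_pow ht ht' i)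
    exact this.anti (by omega)

theorem poly_end_one (ht : E.nm t = 1) (ht' : E.od t = 1) {p : C[X]} {m : ℕ}
    (h1 : ∀ n, ‖p.coeff n‖₊ ≤ 1) (h2 : ∀ n < m, ‖p.coeff n‖₊ < 1) (h3 : ‖p.coeff m‖₊ = 1) :
    E.nm (aeval t p) = 1 ∧ E.od (aeval t p) = m := by
  have hc : p.coeff m ≠ 0 := by
    intro h
    rw [h, nnnorm_zero] at h3
    exact zero_ne_one h3
  set f : F := algebraMap C F (p.coeff m) * t ^ m with hf
  have hf1 : E.nm f = 1 := by rw [hf, map_mul, nm_pow ht, E.hC, h3, one_mul]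
  have hf2 : E.od f = m := by
    rw [hf, E.od_mul _ _ (by rw [Ne, map_eq_zero]; exact hc) (pow_ne_zero _ (E.ne_zero_of_one ht)),
      E.od_C _ hc, od_pow' ht ht', zero_add]
  have hdiff : f - aeval t p = -aeval t (p - monomial m (p.coeff m)) := by
    rw [map_sub, aeval_monomial, hf]; ring
  have hge : Ge E ((m + 1 : ℕ) : ℤ) (aeval t (p - monomial m (p.coeff m))) := by
    refine poly_ge ht ht' (fun n => ?_) fun n hn => ?_
    · rw [coeff_sub, coeff_monomial]
      split_ifs with h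
      · rw [h, sub_self, nnnorm_zero]; exact zero_le_one
      · rw [sub_zero]; exact h1 n
    · rw [coeff_sub, coeff_monomial]
      split_ifs with h
      · rw [h, sub_self, nnnorm_zero]; exact zero_lt_one
      · rw [sub_zero]; exact h2 n (by omega)
  have := Ge.od_eq (E := E) (f := f) (g := aeval t p) hf1 (by
    rw [hdiff, hf2]
    exact_mod_cast hge.neg)
  rw [hf2] at this
  exact this

/-- norm and order of a polynomial in `t` -/
theorem poly_end (ht : E.nm t = 1) (ht' : E.od t = 1) {p : C[X]} {m : ℕ} (h0 : p.coeff m ≠ 0)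
    (h1 : ∀ n, ‖p.coeff n‖₊ ≤ ‖p.coeff m‖₊) (h2 : ∀ n < m, ‖p.coeff n‖₊ < ‖p.coeff m‖₊) :
    E.nm (aeval t p) = ‖p.coeff m‖₊ ∧ E.od (aeval t p) = m := by
  set c := p.coeff m with hc
  have hc0 : 0 < ‖c‖₊ := by rw [pos_iff_ne_zero, Ne, nnnorm_eq_zero]; exact h0
  set p' : C[X] := Polynomial.C c⁻¹ * p with hp'
  have hco : ∀ n, ‖p'.coeff n‖₊ = ‖c‖₊⁻¹ * ‖p.coeff n‖₊ := fun n => by
    rw [hp', coeff_C_mul, nnnorm_mul, nnnorm_inv]
  obtain ⟨h3, h4⟩ := poly_end_one ht ht' (p := p') (m := m)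
    (fun n => by
      rw [hco]
      calc ‖c‖₊⁻¹ * ‖p.coeff n‖₊ ≤ ‖c‖₊⁻¹ * ‖c‖₊ := mul_le_mul_right (h1 n) _
        _ = 1 := inv_mul_cancel₀ hc0.ne')
    (fun n hn => by
      rw [hco]
      calc ‖c‖₊⁻¹ * ‖p.coeff n‖₊ < ‖c‖₊⁻¹ * ‖c‖₊ :=
            mul_lt_mul_of_pos_left (h2 n hn) (by positivity)
        _ = 1 := inv_mul_cancel₀ hc0.ne')
    (by rw [hco, ← hc, inv_mul_cancel₀ hc0.ne'])
  have hp : aeval t p = algebraMap C F c * aeval t p' := by
    rw [hp', map_mul, aeval_C, ← mul_assoc, ← map_mul, mul_inv_cancel₀ h0, map_one, one_mul]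
  have h0' : aeval t p' ≠ 0 := E.ne_zero_of_one h3
  constructor
  · rw [hp, map_mul, h3, mul_one, E.hC]
  · rw [hp, E.od_mul _ _ (by rw [Ne, map_eq_zero]; exact h0) h0', E.od_C _ h0, zero_add, h4]

omit [IsUltrametricDist C] in
theorem exists_lead {p : C[X]} (hp : p ≠ 0) : ∃ m, p.coeff m ≠ 0 ∧
    (∀ n, ‖p.coeff n‖₊ ≤ ‖p.coeff m‖₊) ∧ ∀ n < m, ‖p.coeff n‖₊ < ‖p.coeff m‖₊ := by
  classical
  obtain ⟨i, hi, hi2⟩ := Finset.exists_max_image p.support (fun n => ‖p.coeff n‖₊)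
    (nonempty_support_iff.2 hp)
  have hall : ∀ n, ‖p.coeff n‖₊ ≤ ‖p.coeff i‖₊ := by
    intro n
    by_cases hn : n ∈ p.support
    · exact hi2 n hn
    · rw [notMem_support_iff.1 hn, nnnorm_zero]; exact zero_le
  have hex : ∃ n, ‖p.coeff n‖₊ = ‖p.coeff i‖₊ := ⟨i, rfl⟩
  refine ⟨Nat.find hex, ?_, fun n => ?_, fun n hn => ?_⟩
  · intro h0
    have := Nat.find_spec hex
    rw [h0, nnnorm_zero] at this
    exact (mem_support_iff.1 hi) (nnnorm_eq_zero.1 this.symm)
  · rw [Nat.find_spec hex]; exact hall n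
  · rw [Nat.find_spec hex]
    exact lt_of_le_of_ne (hall n) (Nat.find_min hex hn)

theorem transcendental_of (ht : E.nm t = 1) (ht' : E.od t = 1) : Transcendental C t := by
  rw [transcendental_iff]
  intro p hp
  by_contra h0
  obtain ⟨m, h1, h2, h3⟩ := exists_lead h0
  have := (poly_end ht ht' h1 h2 h3).1
  rw [hp, map_zero] at this
  exact h1 (nnnorm_eq_zero.1 this.symm)

omit [IsUltrametricDist C] in
theorem hom_poly (φ : RatFunc C →ₐ[C] F) (p : C[X]) :
    φ (algebraMap C[X] (RatFunc C) p) = aeval (φ RatFunc.X) p := by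
  have h : (φ.comp (IsScalarTower.toAlgHom C C[X] (RatFunc C))) = aeval (φ RatFunc.X) := by
    apply Polynomial.algHom_ext
    simp
  exact congrArg (fun f => f p) h

end PolyEnd

section Compare

variable {C : Type*} [NormedField C] [IsUltrametricDist C] {F F' : Type*} [Field F] [Algebra C F]
  [Field F'] [Algebra C F'] {E : End2 C F} {E' : End2 C F'}

/-- norm and order of rational functions in elements of norm one and order one -/
theorem rat_end {φ : RatFunc C →ₐ[C] F} {φ' : RatFunc C →ₐ[C] F'} (h1 : E.nm (φ RatFunc.X) = 1)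
    (h2 : E.od (φ RatFunc.X) = 1) (h1' : E'.nm (φ' RatFunc.X) = 1)
    (h2' : E'.od (φ' RatFunc.X) = 1) (f : RatFunc C) :
    E.nm (φ f) = E'.nm (φ' f) ∧ (f ≠ 0 → E.od (φ f) = E'.od (φ' f)) := by
  have key : ∀ p : C[X], p ≠ 0 → E.nm (φ (algebraMap C[X] (RatFunc C) p)) =
      E'.nm (φ' (algebraMap C[X] (RatFunc C) p)) ∧ E.od (φ (algebraMap C[X] (RatFunc C) p)) =
      E'.od (φ' (algebraMap C[X] (RatFunc C) p)) := by
    intro p hp
    obtain ⟨m, a1, a2, a3⟩ := exists_lead hp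
    rw [hom_poly, hom_poly, (poly_end h1 h2 a1 a2 a3).1, (poly_end h1' h2' a1 a2 a3).1,
      (poly_end h1 h2 a1 a2 a3).2, (poly_end h1' h2' a1 a2 a3).2]
    exact ⟨rfl, rfl⟩
  by_cases hf : f = 0
  · rw [hf, map_zero, map_zero, map_zero, map_zero]
    exact ⟨rfl, fun h => absurd rfl h⟩
  have hn : f.num ≠ 0 := RatFunc.num_ne_zero hf
  have hd : f.denom ≠ 0 := f.denom_ne_zero
  have hn' : algebraMap C[X] (RatFunc C) f.num ≠ 0 := by
    rw [Ne, FaithfulSMul.algebraMap_eq_zero_iff]; exact hn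
  have hd' : algebraMap C[X] (RatFunc C) f.denom ≠ 0 := by
    rw [Ne, FaithfulSMul.algebraMap_eq_zero_iff]; exact hd
  have hf' : f = algebraMap C[X] (RatFunc C) f.num * (algebraMap C[X] (RatFunc C) f.denom)⁻¹ := by
    rw [← div_eq_mul_inv, RatFunc.num_div_denom]
  constructor
  · conv_lhs => rw [hf']
    conv_rhs => rw [hf']
    rw [map_mul, map_mul, map_mul, map_mul, map_inv₀, map_inv₀, map_inv₀, map_inv₀,
      (key _ hn).1, (key _ hd).1]
  · intro _
    conv_lhs => rw [hf']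
    conv_rhs => rw [hf']
    rw [map_mul, map_mul, map_inv₀ φ, map_inv₀ φ',
      E.od_mul _ _ (by rw [Ne, map_eq_zero]; exact hn')
        (inv_ne_zero (by rw [Ne, map_eq_zero]; exact hd')),
      E'.od_mul _ _ (by rw [Ne, map_eq_zero]; exact hn')
        (inv_ne_zero (by rw [Ne, map_eq_zero]; exact hd')),
      E.od_inv (by rw [Ne, map_eq_zero]; exact hd'), E'.od_inv (by rw [Ne, map_eq_zero]; exact hd'),
      (key _ hn).2, (key _ hd).2]

theorem rat_ge {φ : RatFunc C →ₐ[C] F} {φ' : RatFunc C →ₐ[C] F'} (h1 : E.nm (φ RatFunc.X) = 1)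
    (h2 : E.od (φ RatFunc.X) = 1) (h1' : E'.nm (φ' RatFunc.X) = 1)
    (h2' : E'.od (φ' RatFunc.X) = 1) (f : RatFunc C) (m : ℤ) :
    Ge E m (φ f) ↔ Ge E' m (φ' f) := by
  obtain ⟨h3, h4⟩ := rat_end h1 h2 h1' h2' f
  by_cases hf : f = 0
  · rw [hf, map_zero, map_zero]
    exact ⟨fun _ => Ge.zero m, fun _ => Ge.zero m⟩
  · unfold Ge
    rw [h3, h4 hf]

end Compare

section Expn

variable {k : Type*} [NontriviallyNormedField k] [CompleteSpace k]
variable {C : Type*} [NormedField C] [IsUltrametricDist C] [NormedAlgebra k C]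
variable [Algebra.IsAlgebraic k C] [IsUltrametricDist k] [IsAlgClosed C] [hk : Fact (DiscNorm k)]

theorem nm_T : (endE k C).nm (T 1 : EE k C) = 1 := by
  rw [endE_nm, gv_eq_one, T, gn_mo, norm_one]

theorem od_T (n : ℤ) : od (T n : EE k C) = n := od_mono n (finDef_const 1) one_ne_zero

theorem od_T1 : (endE k C).od (T 1 : EE k C) = 1 := od_T 1

variable (k C) in
/-- the expansion of rational functions -/
noncomputable def expn : RatFunc C →ₐ[C] EE k C :=
  ratHom (T 1) (transcendental_of nm_T od_T1)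

@[simp] theorem expn_X : expn k C RatFunc.X = T 1 := ratHom_X _ _

theorem expn_poly (p : C[X]) : expn k C (algebraMap C[X] (RatFunc C) p) = aeval (T 1) p := by
  rw [hom_poly, expn_X]

theorem expn_mem_Ep (f : RatFunc C) : expn k C f ∈ Ep k C := by
  have hp : ∀ p : C[X], expn k C (algebraMap C[X] (RatFunc C) p) ∈ Ep k C := by
    intro p
    rw [expn_poly, aeval_eq_sum_range]
    refine sum_mem fun i _ => ?_
    rw [Algebra.smul_def]
    exact mul_mem ((Ep k C).algebraMap_mem _) (pow_mem (T_mem_Ep 1) i)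
  rw [← RatFunc.num_div_denom f, map_div₀]
  exact div_mem (hp _) (hp _)

end Expn

end Crest.Agent.R013.EE809
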