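import Crest.Agent.R013.EE7_809

/-!
# Row 13, leaf SS-END (helper809): the embedding of `K` in `EE k C` attached to an end
-/

set_option autoImplicit false
set_option linter.unusedSectionVars false
open Filter Topology
open scoped NNReal
open Crest.Agent.R013.Cell_408 (FinDef DiscNorm exists_max BD)
open Crest.Agent.R013.Red332
open Crest.Agent.R013.RR8_948 Crest.Agent.R013.RR20_948

namespace Crest.Agent.R013.EE809

open Polynomial

section PolyGe

variable {C : Type*} [NormedField C] [IsUltrametricDist C] {F : Type*} [Field F] [Algebra C F]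
  {E : End2 C F}

theorem ge_zpow {t : F} (ht : E.nm t = 1) (ht' : E.od t = 1) (n : ℤ) : Ge E n (t ^ n) := by
  right
  rw [map_zpow₀, ht, one_zpow, E.od_zpow (E.ne_zero_of_one ht), ht', mul_one]
  exact ⟨rfl, le_rfl⟩

theorem ge_neg_pow {D : ℤ} {a : F} (h : Ge E (-D) a) (n : ℕ) : Ge E (-(n * D)) (a ^ n) := by
  induction n with
  | zero => simpa using Ge.one
  | succ n ih =>
    rw [pow_succ]
    exact (ih.mul h).anti (by push_cast; linarith)

theorem ge_natCast (n : ℕ) : Ge E 0 (n : F) := by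
  have h : (n : F) = algebraMap C F (n : C) := by simp
  rw [h]
  apply Ge.const
  rw [← NNReal.coe_le_coe, coe_nnnorm, NNReal.coe_one]
  exact IsUltrametricDist.norm_natCast_le_one C n

/-- polynomials with bounded coefficients at close points -/
theorem eval_close {R : F[X]} {D D0 N : ℤ} (hD0 : 0 ≤ D0) (hR : ∀ i, Ge E (-D) (R.coeff i))
    {a b : F} (ha : Ge E (-D0) a) (hb : Ge E (-D0) b) (hab : Ge E N (a - b)) :
    Ge E (N - D - R.natDegree * D0) (R.eval a - R.eval b) := by
  rw [eval_eq_sum_range, eval_eq_sum_range, ← Finset.sum_sub_distrib]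
  refine Ge.sum _ fun i hi => ?_
  have hi' : i ≤ R.natDegree := Nat.lt_succ_iff.1 (Finset.mem_range.1 hi)
  rw [← mul_sub]
  rcases Nat.eq_zero_or_pos i with h0 | h0
  · rw [h0, pow_zero, pow_zero, sub_self, mul_zero]; exact Ge.zero _
  obtain ⟨j, rfl⟩ : ∃ j, i = j + 1 := ⟨i - 1, by omega⟩
  rw [← (Commute.all a b).geom_sum₂_mul]
  have h1 : Ge E (-(j * D0)) (∑ l ∈ Finset.range (j + 1), a ^ l * b ^ (j + 1 - 1 - l)) := by
    refine Ge.sum _ fun l hl => ?_
    have hl' : l ≤ j := Nat.lt_succ_iff.1 (Finset.mem_range.1 hl)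
    refine ((ge_neg_pow ha l).mul (ge_neg_pow hb (j + 1 - 1 - l))).anti ?_
    rw [Nat.add_sub_cancel, Nat.cast_sub hl']
    linarith
  refine ((hR (j + 1)).mul (h1.mul hab)).anti ?_
  have h2 : (j : ℤ) * D0 ≤ R.natDegree * D0 := by
    refine mul_le_mul_of_nonneg_right ?_ hD0
    exact_mod_cast (by omega : j ≤ R.natDegree)
  linarith

/-- common bound of the coefficients -/
theorem exists_coeff_bound {R : F[X]} (hR : ∀ i, E.nm (R.coeff i) ≤ 1) :
    ∃ D : ℤ, 0 ≤ D ∧ ∀ i, Ge E (-D) (R.coeff i) := by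
  choose m hm using fun i => Ge.exists (hR i)
  obtain ⟨D, hD⟩ : ∃ D : ℤ, 0 ≤ D ∧ ∀ i ∈ Finset.range (R.natDegree + 1), -D ≤ m i := by
    refine ⟨∑ i ∈ Finset.range (R.natDegree + 1), |m i|, Finset.sum_nonneg fun i _ => abs_nonneg _,
      fun i hi => ?_⟩
    have h1 : |m i| ≤ ∑ i ∈ Finset.range (R.natDegree + 1), |m i| :=
      Finset.single_le_sum (f := fun i => |m i|) (fun i _ => abs_nonneg _) hi
    have h2 := neg_abs_le (m i)
    omega
  refine ⟨D, hD.1, fun i => ?_⟩
  by_cases hi : i ∈ Finset.range (R.natDegree + 1)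
  · exact (hm i).anti (hD.2 i hi)
  · rw [coeff_eq_zero_of_natDegree_lt (by simpa using hi)]
    exact Ge.zero _

/-- bound of the Taylor coefficients -/
theorem taylor_ge {R : F[X]} {D D0 : ℤ} (hD0 : 0 ≤ D0) (hR : ∀ i, Ge E (-D) (R.coeff i))
    {a : F} (ha : Ge E (-D0) a) (i : ℕ) :
    Ge E (-(D + R.natDegree * D0)) ((taylor a R).coeff i) := by
  rw [taylor_coeff, hasseDeriv_apply, sum_over_range, eval_finsetSum]
  · refine Ge.sum _ fun j hj => ?_
    have hj' : j ≤ R.natDegree := Nat.lt_succ_iff.1 (Finset.mem_range.1 hj)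
    rw [eval_monomial]
    refine (((ge_natCast (E := E) (j.choose i)).mul (hR j)).mul (ge_neg_pow ha (j - i))).anti ?_
    have h2 : ((j - i : ℕ) : ℤ) * D0 ≤ R.natDegree * D0 := by
      refine mul_le_mul_of_nonneg_right ?_ hD0
      exact_mod_cast (by omega : j - i ≤ R.natDegree)
    linarith
  · intro n; simp

/-- approximate value near a root -/
theorem eval_near_root {R : F[X]} {z a : F} (hz : R.eval z = 0) {D M e : ℤ}
    (hD : ∀ i, Ge E (-D) ((taylor z R).coeff i)) (h1 : Ge E e (R.derivative.eval z))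
    (hM : D + e ≤ M) (hM0 : 0 ≤ M) (ha : Ge E M (a - z)) : Ge E (M + e) (R.eval a) := by
  have h2 : R.eval a = ∑ i ∈ Finset.range (R.natDegree + 2), (taylor z R).coeff i * (a - z) ^ i := by
    have : a = (a - z) + z := by ring
    conv_lhs => rw [this, ← taylor_eval]
    rw [eval_eq_sum_range' (n := R.natDegree + 2)]
    rw [natDegree_taylor]; omega
  rw [h2]
  refine Ge.sum _ fun i hi => ?_
  rcases Nat.lt_or_ge i 2 with h | h
  · rcases Nat.lt_or_ge i 1 with h' | h'
    · have : i = 0 := by omega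
      rw [this, taylor_coeff_zero, hz, zero_mul]
      exact Ge.zero _
    · have : i = 1 := by omega
      rw [this, taylor_coeff_one, pow_one]
      exact (h1.mul ha).anti (by linarith)
  · have h3 : Ge E ((i : ℤ) * M) ((a - z) ^ i) := by
      have := ge_neg_pow (D := -M) (a := a - z) (by rwa [neg_neg]) i
      exact this.anti (by linarith)
    refine ((hD i).mul h3).anti ?_
    have h4 : (2 : ℤ) * M ≤ i * M := by
      refine mul_le_mul_of_nonneg_right ?_ hM0
      exact_mod_cast h
    linarith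

end PolyGe

section Approx

variable {C : Type*} [NormedField C] [IsUltrametricDist C] {K : Type*} [Field K] [Algebra C K]
  [Algebra (RatFunc C) K] [IsScalarTower C (RatFunc C) K]

/-- approximation by rational functions of the uniformiser -/
theorem exists_approx {E : End2 C K} (ht : E.nm (xK C K) = 1) (ht' : E.od (xK C K) = 1)
    (hres : ∀ f, Ge E 0 f → ∃ c : C, ‖c‖₊ ≤ 1 ∧ Ge E 1 (f - algebraMap C K c)) {m : ℤ} {f : K}
    (hf : Ge E m f) (N : ℤ) : ∃ g : RatFunc C, Ge E N (f - algebraMap (RatFunc C) K g) := by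
  have key : ∀ n : ℕ, ∃ g : RatFunc C, Ge E (m + n) (f - algebraMap (RatFunc C) K g) := by
    intro n
    induction n with
    | zero => exact ⟨0, by simpa using hf⟩
    | succ n ih =>
      obtain ⟨g, hg⟩ := ih
      set t := xK C K with htdef
      have ht0 : t ≠ 0 := E.ne_zero_of_one ht
      have h1 : Ge E 0 ((f - algebraMap (RatFunc C) K g) * t ^ (-(m + n : ℤ))) :=
        (hg.mul (ge_zpow ht ht' _)).anti (by linarith)
      obtain ⟨c, hc, hc1⟩ := hres _ h1
      refine ⟨g + algebraMap C (RatFunc C) c * RatFunc.X ^ (m + n : ℤ), ?_⟩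
      have h2 : f - algebraMap (RatFunc C) K (g + algebraMap C (RatFunc C) c * RatFunc.X ^ (m + n : ℤ))
          = ((f - algebraMap (RatFunc C) K g) * t ^ (-(m + n : ℤ)) - algebraMap C K c) *
            t ^ (m + n : ℤ) := by
        rw [map_add, map_mul, ← IsScalarTower.algebraMap_apply C (RatFunc C) K, map_zpow₀]
        have h3 : algebraMap (RatFunc C) K RatFunc.X = t := rfl
        rw [h3, sub_mul, mul_assoc, ← zpow_add₀ ht0, neg_add_cancel, zpow_zero]
        ring
      rw [h2]
      exact (hc1.mul (ge_zpow ht ht' _)).anti (by push_cast; linarith)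
  obtain ⟨g, hg⟩ := key (N - m).toNat
  refine ⟨g, hg.anti ?_⟩
  have := Int.self_le_toNat (N - m)
  omega

end Approx

section Main

variable {k : Type*} [NontriviallyNormedField k] [CompleteSpace k]
variable {C : Type*} [NormedField C] [IsUltrametricDist C] [NormedAlgebra k C]
variable [Algebra.IsAlgebraic k C] [IsUltrametricDist k] [IsAlgClosed C] [hk : Fact (DiscNorm k)]
variable {K : Type*} [Field K] [Algebra C K] [Algebra (RatFunc C) K] [IsScalarTower C (RatFunc C) K]

/-- `z` is a chart element at the end `E`; `x` has norm one and order one -/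
structure Chart (E : End2 C K) (z : K) : Prop where
  ht : E.nm (xK C K) = 1
  ht' : E.od (xK C K) = 1
  res : ∀ f, Ge E 0 f → ∃ c : C, ‖c‖₊ ≤ 1 ∧ Ge E 1 (f - algebraMap C K c)
  gen : IntermediateField.adjoin (RatFunc C) {z} = ⊤
  int : ∀ n, E.nm (algebraMap (RatFunc C) K ((minpoly (RatFunc C) z).coeff n)) ≤ 1
  der : E.nm (aeval z (derivative (minpoly (RatFunc C) z))) = 1
  z1 : E.nm z = 1
  app : ∀ y, E.nm y ≤ 1 → ∃ Q : (RatFunc C)[X],
    (∀ n, E.nm (algebraMap (RatFunc C) K (Q.coeff n)) ≤ 1) ∧ E.nm (y - aeval z Q) < 1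
  uniq : ∀ v : Valuation K ℝ≥0, (∀ f, v (algebraMap (RatFunc C) K f) =
    E.nm (algebraMap (RatFunc C) K f)) → v z = 1 → v = E.nm

variable {E : End2 C K} {z : K}

/-- comparison of `C(X) → K` and `C(X) → EE` -/
theorem Chart.rat_ge (h : Chart E z) (f : RatFunc C) (m : ℤ) :
    Ge E m (algebraMap (RatFunc C) K f) ↔ Ge (endE k C) m (expn k C f) :=
  EE809.rat_ge (E := E) (E' := endE k C) (φ := IsScalarTower.toAlgHom C (RatFunc C) K)
    (φ' := expn k C) h.ht h.ht' (by rw [expn_X]; exact nm_T) (by rw [expn_X]; exact od_T1) f m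

theorem Chart.rat_nm (h : Chart E z) (f : RatFunc C) :
    E.nm (algebraMap (RatFunc C) K f) = gv k C (expn k C f) :=
  (rat_end (E := E) (E' := endE k C) (φ := IsScalarTower.toAlgHom C (RatFunc C) K)
    (φ' := expn k C) h.ht h.ht' (by rw [expn_X]; exact nm_T) (by rw [expn_X]; exact od_T1) f).1

theorem Chart.rat_od (h : Chart E z) {f : RatFunc C} (hf : f ≠ 0) :
    E.od (algebraMap (RatFunc C) K f) = od (expn k C f) :=
  (rat_end (E := E) (E' := endE k C) (φ := IsScalarTower.toAlgHom C (RatFunc C) K)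
    (φ' := expn k C) h.ht h.ht' (by rw [expn_X]; exact nm_T) (by rw [expn_X]; exact od_T1) f).2 hf

/-- **the root**: an element of `Ep` close to all the approximations of `z` -/
theorem Chart.exists_root [FiniteDimensional (RatFunc C) K] (h : Chart E z) :
    ∃ ζ : EE k C, ζ ∈ Ep k C ∧
      ((minpoly (RatFunc C) z).map (expn k C : RatFunc C →+* EE k C)).eval ζ = 0 ∧
      ∃ (D0 : ℤ) (g : ℤ → RatFunc C), 0 ≤ D0 ∧ Ge E (-D0) z ∧
        ∃ M0 : ℤ, ∀ M, M0 ≤ M → Ge E (M + 1) (z - algebraMap (RatFunc C) K (g M)) ∧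
          Ge (endE k C) (M + 1) (ζ - expn k C (g M)) := by
  classical
  set F := RatFunc C with hF
  set P : F[X] := minpoly F z with hPdef
  set PK : K[X] := P.map (algebraMap F K) with hPK
  have hPKco : ∀ i, PK.coeff i = algebraMap F K (P.coeff i) := fun i => coeff_map _ _
  have hPKz : PK.eval z = 0 := by rw [hPK, eval_map_algebraMap]; exact minpoly.aeval F z
  have hder : PK.derivative.eval z = aeval z (derivative P) := by
    rw [hPK, derivative_map, eval_map_algebraMap]
  -- order bounds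
  obtain ⟨D, hD, hDi⟩ := exists_coeff_bound (E := E) (R := PK) (fun i => by rw [hPKco]; exact h.int i)
  have hder1 : E.nm (PK.derivative.eval z) = 1 := by rw [hder]; exact h.der
  obtain ⟨D', hD', hD'i⟩ := exists_coeff_bound (E := E) (R := PK.derivative) (fun i => by
    rw [coeff_derivative, map_mul, hPKco]
    have h1 := (ge_natCast (E := E) (i + 1)).le_one
    push_cast at h1
    exact mul_le_one' (h.int _) h1)
  set e : ℤ := E.od (PK.derivative.eval z) with he
  obtain ⟨m0, hm0⟩ := Ge.exists h.z1.le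
  set D0 : ℤ := |m0| with hD0def
  have hD0 : 0 ≤ D0 := abs_nonneg _
  have hzD : Ge E (-D0) z := hm0.anti (neg_abs_le _)
  -- approximations
  choose g hg using fun M : ℤ => exists_approx h.ht h.ht' h.res hzD (M + 1)
  set n : ℤ := (P.natDegree : ℤ) with hn
  have hn0 : 0 ≤ n := by positivity
  have hdegPK : PK.natDegree = P.natDegree := natDegree_map _
  have hdegPK' : (PK.derivative.natDegree : ℤ) ≤ n := by
    have := natDegree_derivative_le PK
    rw [hdegPK] at this
    rw [hn]; exact_mod_cast (by omega)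
  -- threshold
  set M0 : ℤ := D + D' + 2 * (n * D0) + |e| + D0 + 1 with hM0
  have hnD : 0 ≤ n * D0 := mul_nonneg hn0 hD0
  have he0 := abs_nonneg e
  have he1 := le_abs_self e
  have he2 := neg_abs_le e
  -- properties at level `M ≥ M0`
  have hclose : ∀ M, M0 ≤ M → Ge E (-D0) (algebraMap F K (g M)) := by
    intro M hM
    have h1 : algebraMap F K (g M) = z - (z - algebraMap F K (g M)) := by ring
    rw [h1]
    exact hzD.sub ((hg M).anti (by linarith))
  have hα1 : ∀ M, M0 ≤ M → E.nm (PK.derivative.eval (algebraMap F K (g M))) = 1 ∧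
      E.od (PK.derivative.eval (algebraMap F K (g M))) = e := by
    intro M hM
    refine Ge.od_eq hder1 ?_
    refine (eval_close hD0 hD'i hzD (hclose M hM) (hg M)).anti ?_
    have h2 : (PK.derivative.natDegree : ℤ) * D0 ≤ n * D0 := mul_le_mul_of_nonneg_right hdegPK' hD0
    rw [← he]
    linarith
  have hα0 : ∀ M, M0 ≤ M → Ge E (M + 1 + e) (PK.eval (algebraMap F K (g M))) := by
    intro M hM
    refine eval_near_root hPKz (D := D + n * D0) (fun i => ?_) (Ge.of_one hder1) ?_ (by linarith) ?_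
    · have := taylor_ge hD0 hDi hzD i
      rwa [hdegPK, ← hn] at this
    · linarith
    · have h1 := (hg M).neg
      rwa [neg_sub] at h1
  -- the polynomial over EE
  set PE : (EE k C)[X] := P.map (expn k C : F →+* EE k C) with hPE
  have hPEE : ∀ i, PE.coeff i ∈ Ep k C := fun i => by rw [hPE, coeff_map]; exact expn_mem_Ep _
  have htay : ∀ M i, (taylor (expn k C (g M)) PE).coeff i = expn k C ((taylor (g M) P).coeff i) := by
    intro M i
    rw [hPE]
    have h1 : (expn k C (g M) : EE k C) = (expn k C : F →+* EE k C) (g M) := rfl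
    rw [h1, ← map_taylor, coeff_map]
    rfl
  have htayK : ∀ M i, (taylor (algebraMap F K (g M)) PK).coeff i =
      algebraMap F K ((taylor (g M) P).coeff i) := by
    intro M i
    rw [hPK, ← map_taylor, coeff_map]
  have hnwt : ∀ M i, nwt PE (expn k C (g M)) i =
      expn k C (-((taylor (g M) P).coeff i / (taylor (g M) P).coeff 1)) := by
    intro M i
    rw [nwt, htay, htay, map_neg, map_div₀]
  have hq : ∀ M, M0 ≤ M → ∀ (m : ℤ) (i : ℕ), Ge E m ((taylor (algebraMap F K (g M)) PK).coeff i) →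
      Ge (endE k C) (m - e) (nwt PE (expn k C (g M)) i) := by
    intro M hM m i hi
    rw [hnwt, ← h.rat_ge, map_neg, map_div₀, ← htayK, ← htayK]
    obtain ⟨h1, h2⟩ := hα1 M hM
    rw [← taylor_coeff_one] at h1 h2
    have h3 := Ge.inv h1
    rw [h2] at h3
    rw [div_eq_mul_inv]
    exact ((hi.mul h3).neg).anti (by linarith)
  have hnew : ∀ M, M0 ≤ M → PE.derivative.eval (expn k C (g M)) ≠ 0 ∧
      Ge (endE k C) (M + 1) (nwt PE (expn k C (g M)) 0) ∧
      ∀ i : ℕ, 2 ≤ i → Ge (endE k C) (1 - ((i : ℤ) - 1) * M) (nwt PE (expn k C (g M)) i) := by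
    intro M hM
    refine ⟨?_, ?_, fun i hi => ?_⟩
    · rw [← taylor_coeff_one, htay]
      intro h0
      rw [map_eq_zero] at h0
      obtain ⟨h1, -⟩ := hα1 M hM
      rw [← taylor_coeff_one, htayK, h0, map_zero, map_zero] at h1
      exact zero_ne_one h1
    · have h1 := hα0 M hM
      rw [← taylor_coeff_zero] at h1
      exact (hq M hM _ 0 h1).anti (by linarith)
    · have h1 := taylor_ge hD0 hDi (hclose M hM) i
      rw [hdegPK, ← hn] at h1
      refine (hq M hM _ i h1).anti ?_
      have hM1 : 0 ≤ M := by linarith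
      have h2 : (1 : ℤ) * M ≤ ((i : ℤ) - 1) * M := by
        refine mul_le_mul_of_nonneg_right ?_ hM1
        have : (2 : ℤ) ≤ i := by exact_mod_cast hi
        linarith
      linarith
  -- roots
  have hroot : ∀ M, M0 ≤ M → ∃ ζ : EE k C, ζ ∈ Ep k C ∧ PE.eval ζ = 0 ∧
      Ge (endE k C) (M + 1) (ζ - expn k C (g M)) := by
    intro M hM
    obtain ⟨h1, h2, h3⟩ := hnew M hM
    obtain ⟨⟨x, e1, e2, e3⟩, -⟩ := newton2 hPEE (expn_mem_Ep (g M)) M h1 h2 h3
    refine ⟨expn k C (g M) + x, add_mem (expn_mem_Ep _) e1, e3, ?_⟩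
    rwa [add_sub_cancel_left]
  obtain ⟨ζ, hζE, hζ0, hζ1⟩ := hroot M0 le_rfl
  refine ⟨ζ, hζE, hζ0, D0, g, hD0, hzD, M0, fun M hM => ⟨hg M, ?_⟩⟩
  obtain ⟨ζ', hζ'E, hζ'0, hζ'1⟩ := hroot M hM
  have hgg : Ge (endE k C) (M0 + 1) (expn k C (g M) - expn k C (g M0)) := by
    rw [← map_sub, ← h.rat_ge, map_sub]
    have h1 : algebraMap F K (g M) - algebraMap F K (g M0) =
        (z - algebraMap F K (g M0)) - (z - algebraMap F K (g M)) := by ring
    rw [h1]
    exact (hg M0).sub ((hg M).anti (by linarith))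
  obtain ⟨h1, h2, h3⟩ := hnew M0 le_rfl
  obtain ⟨-, huniq⟩ := newton2 hPEE (expn_mem_Ep (g M0)) M0 h1 h2 h3
  have h4 := huniq (ζ - expn k C (g M0)) (ζ' - expn k C (g M0)) (sub_mem hζE (expn_mem_Ep _))
    (sub_mem hζ'E (expn_mem_Ep _)) hζ1 (by
      have h5 : ζ' - expn k C (g M0) = (ζ' - expn k C (g M)) + (expn k C (g M) - expn k C (g M0)) := by
        ring
      rw [h5]
      exact (hζ'1.anti (by linarith)).add hgg) (by rw [add_sub_cancel]; exact hζ0)
      (by rw [add_sub_cancel]; exact hζ'0)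
  have h5 : ζ = ζ' := sub_left_injective h4
  rw [h5]
  exact hζ'1

/-- **THEOREM END1**: the embedding attached to an end. -/
theorem Chart.exists_emb [FiniteDimensional (RatFunc C) K] (h : Chart E z) :
    ∃ ψ : K →ₐ[C] EE k C, ψ (xK C K) = T 1 ∧ (∀ f, ψ f ∈ Ep k C) ∧ (∀ f, gv k C (ψ f) = E.nm f) ∧
      ∀ f, f ≠ 0 → od (ψ f) = E.od f := by
  classical
  obtain ⟨ζ, hζE, hζ0, D0, g, hD0, hzD, M0, hM0⟩ := h.exists_root (k := k)
  -- polynomials in `z`
  have key : ∀ Q : (RatFunc C)[X], (∀ n, E.nm (algebraMap (RatFunc C) K (Q.coeff n)) ≤ 1) →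
      E.nm (aeval z Q) = 1 →
      gv k C ((Q.map (expn k C : RatFunc C →+* EE k C)).eval ζ) = 1 ∧
        od ((Q.map (expn k C : RatFunc C →+* EE k C)).eval ζ) = E.od (aeval z Q) := by
    intro Q hQ hQ1
    set QK : K[X] := Q.map (algebraMap (RatFunc C) K) with hQK
    set QE : (EE k C)[X] := Q.map (expn k C : RatFunc C →+* EE k C) with hQE
    have hQKco : ∀ i, QK.coeff i = algebraMap (RatFunc C) K (Q.coeff i) := fun i => coeff_map _ _
    have hQEco : ∀ i, QE.coeff i = expn k C (Q.coeff i) := fun i => coeff_map _ _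
    have hQz : QK.eval z = aeval z Q := by rw [hQK, eval_map_algebraMap]
    obtain ⟨D, hD, hDi⟩ := exists_coeff_bound (E := E) (R := QK) (fun i => by rw [hQKco]; exact hQ i)
    have hDi' : ∀ i, Ge (endE k C) (-D) (QE.coeff i) := fun i => by
      rw [hQEco, ← h.rat_ge, ← hQKco]; exact hDi i
    set n : ℤ := (Q.natDegree : ℤ) with hn
    have hn0 : 0 ≤ n := by positivity
    have hnD : 0 ≤ n * D0 := mul_nonneg hn0 hD0
    set e := E.od (aeval z Q) with he
    set M : ℤ := max M0 0 + D + n * D0 + |e| + D0 + 1 with hM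
    have he0 := abs_nonneg e
    have he1 := le_abs_self e
    have hmax1 := le_max_left M0 0
    have hmax2 := le_max_right M0 0
    obtain ⟨h1, h2⟩ := hM0 M (by linarith)
    have hgK : Ge E (-D0) (algebraMap (RatFunc C) K (g M)) := by
      have h1' : algebraMap (RatFunc C) K (g M) = z - (z - algebraMap (RatFunc C) K (g M)) := by ring
      rw [h1']
      exact hzD.sub (h1.anti (by linarith))
    have hgE : Ge (endE k C) (-D0) (expn k C (g M)) := h.rat_ge _ _ |>.1 hgK
    have hζD : Ge (endE k C) (-D0) ζ := by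
      have h1' : ζ = expn k C (g M) + (ζ - expn k C (g M)) := by ring
      rw [h1']
      exact hgE.add (h2.anti (by linarith))
    have hdeg1 : QK.natDegree = Q.natDegree := natDegree_map _
    have hdeg2 : QE.natDegree = Q.natDegree := natDegree_map _
    have c1 := eval_close hD0 hDi hzD hgK h1
    rw [hdeg1, ← hn] at c1
    have c2 := eval_close hD0 hDi' hgE hζD (by
      have := h2.neg
      rwa [neg_sub] at this)
    rw [hdeg2, ← hn] at c2
    have hQK1 : E.nm (QK.eval z) = 1 := by rw [hQz]; exact hQ1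
    obtain ⟨d1, d2⟩ := Ge.od_eq (g := QK.eval (algebraMap (RatFunc C) K (g M))) hQK1
      (c1.anti (by rw [hQz, ← he]; linarith))
    have hQg : QK.eval (algebraMap (RatFunc C) K (g M)) = algebraMap (RatFunc C) K (Q.eval (g M)) := by
      rw [hQK, eval_map, eval₂_at_apply]
    have hQgE : QE.eval (expn k C (g M)) = expn k C (Q.eval (g M)) := by
      have : (expn k C (g M) : EE k C) = (expn k C : RatFunc C →+* EE k C) (g M) := rfl
      rw [hQE, eval_map, this, eval₂_at_apply]
      rfl
    have hne : Q.eval (g M) ≠ 0 := by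
      intro h0
      rw [hQg, h0, map_zero, map_zero] at d1
      exact zero_ne_one d1
    have d3 : (endE k C).nm (QE.eval (expn k C (g M))) = 1 := by
      rw [hQgE, endE_nm, ← h.rat_nm, ← hQg, d1]
    have d4 : (endE k C).od (QE.eval (expn k C (g M))) = e := by
      rw [hQgE, endE_od, ← h.rat_od hne, ← hQg, d2, hQz]
    obtain ⟨d5, d6⟩ := Ge.od_eq (g := QE.eval ζ) d3 (c2.anti (by rw [d4]; linarith))
    exact ⟨d5, by rw [← endE_od, d6, d4]⟩
  -- the embedding
  letI : Algebra (RatFunc C) (EE k C) := (expn k C : RatFunc C →+* EE k C).toAlgebra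
  have halg : ∀ f : RatFunc C, algebraMap (RatFunc C) (EE k C) f = expn k C f := fun _ => rfl
  have hint : IsIntegral (RatFunc C) z := Algebra.IsIntegral.isIntegral z
  have hadj : Algebra.adjoin (RatFunc C) {z} = ⊤ := by
    rw [← IntermediateField.adjoin_simple_toSubalgebra_of_isAlgebraic hint.isAlgebraic, h.gen]
    rfl
  let pb := PowerBasis.ofAdjoinEqTop hint hadj
  have hgen : pb.gen = z := rfl
  let ψ0 : K →ₐ[RatFunc C] EE k C := pb.lift ζ (by
    rw [hgen, ← eval_map_algebraMap]
    exact hζ0)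
  have hψz : ψ0 z = ζ := by
    have := pb.lift_gen ζ (by rw [hgen, ← eval_map_algebraMap]; exact hζ0)
    exact this
  have hψF : ∀ f : RatFunc C, ψ0 (algebraMap (RatFunc C) K f) = expn k C f := fun f => ψ0.commutes f
  have hψQ : ∀ Q : (RatFunc C)[X], ψ0 (aeval z Q) =
      (Q.map (expn k C : RatFunc C →+* EE k C)).eval ζ := by
    intro Q
    rw [← aeval_algHom_apply, hψz, ← eval_map_algebraMap]
    rfl
  -- the norm
  have hnm : (gv k C).comap (ψ0 : K →+* EE k C) = E.nm := by
    apply h.uniq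
    · intro f
      rw [Valuation.comap_apply]
      show gv k C (ψ0 _) = _
      rw [hψF, h.rat_nm (k := k)]
    · rw [Valuation.comap_apply]
      show gv k C (ψ0 z) = 1
      have h1 := (key Polynomial.X (fun n => by
        rw [coeff_X]
        split_ifs
        · rw [map_one, map_one]
        · rw [map_zero, map_zero]; exact zero_le_one) (by rw [aeval_X]; exact h.z1)).1
      rw [map_X, eval_X] at h1
      rw [hψz]; exact h1
  have hnm' : ∀ f, gv k C (ψ0 f) = E.nm f := fun f => by
    rw [← hnm]; rfl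
  have hψC : ∀ c : C, ψ0 (algebraMap C K c) = algebraMap C (EE k C) c := by
    intro c
    rw [IsScalarTower.algebraMap_apply C (RatFunc C) K, hψF]
    exact (expn k C).commutes c
  refine ⟨{ ψ0.toRingHom with commutes' := hψC }, ?_, fun f => ?_, hnm', fun f hf => ?_⟩
  · show ψ0 (algebraMap (RatFunc C) K RatFunc.X) = T 1
    rw [hψF, expn_X]
  · show ψ0 f ∈ Ep k C
    have hf : f ∈ Algebra.adjoin (RatFunc C) {z} := by rw [hadj]; trivial
    rw [Algebra.adjoin_singleton_eq_range_aeval] at hf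
    obtain ⟨Q, hQ⟩ := hf
    have hQ' : aeval z Q = f := hQ
    rw [← hQ', hψQ, eval_eq_sum_range]
    refine sum_mem fun i _ => mul_mem ?_ (pow_mem hζE i)
    rw [coeff_map]
    exact expn_mem_Ep _
  · show od (ψ0 f) = E.od f
    obtain ⟨c, hc0, hc1, hc2⟩ := E.exists_one hf
    set f' := f * (algebraMap C K c)⁻¹ with hf'
    obtain ⟨Q, hQ, hQf⟩ := h.app f' hc1.le
    have hQ1 : E.nm (aeval z Q) = 1 := by
      have h1 : aeval z Q = f' - (f' - aeval z Q) := by ring
      rw [h1, Valuation.map_sub_eq_of_lt_left _ (by rw [hc1]; exact hQf), hc1]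
    have h1 : E.od (aeval z Q) = E.od f' := E.od_congr (f := f') (g := aeval z Q) (by rw [hc1]; exact hQf)
    obtain ⟨h2, h3⟩ := key Q hQ hQ1
    have h4 : od (ψ0 f') = od (ψ0 (aeval z Q)) := by
      have := (endE k C).od_congr (f := ψ0 (aeval z Q)) (g := ψ0 f') (by
        rw [endE_nm, endE_nm, ← map_sub, hnm', hnm', Valuation.map_sub_swap, hQ1]
        exact hQf)
      exact this
    have h5 : od (ψ0 f') = E.od f' := by rw [h4, hψQ, h3, h1]
    have h6 : od (ψ0 f') = od (ψ0 f) := by
      rw [hf', map_mul, map_inv₀, hψC, ← endE_od, (endE k C).od_mul _ _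
        (by rw [Ne, map_eq_zero]; exact hf) (inv_ne_zero (by rw [Ne, map_eq_zero]; exact hc0)),
        (endE k C).od_inv (by rw [Ne, map_eq_zero]; exact hc0), (endE k C).od_C c hc0]
      simp [endE_od]
    rw [← h6, h5, hc2]

end Main

end Crest.Agent.R013.EE809
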