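import Crest.Agent.R013.StabG_83
import Crest.Agent.R013.T2A_83

/-!
# T2A at the level of `StabF_83.Out`: the chart element (helper83, row 13)
-/

set_option autoImplicit false
set_option linter.unusedSectionVars false
set_option linter.style.haveILetI false

namespace Crest.Agent.R013.StabF_83

open NNReal Polynomial
open scoped NNReal

universe u

theorem separable_of_root {κ l : Type*} [Field κ] [Field l] [Algebra κ l] (x : l) (P : κ[X])
    (h0 : aeval x P = 0) (h1 : aeval x (derivative P) ≠ 0) : IsSeparable κ x := by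
  have hP : P ≠ 0 := by
    rintro rfl
    simp at h1
  have hint : IsIntegral κ x := by
    rw [← isAlgebraic_iff_isIntegral]
    exact ⟨P, hP, h0⟩
  obtain ⟨q, hq⟩ := minpoly.dvd κ x h0
  rw [IsSeparable, Polynomial.separable_iff_derivative_ne_zero (minpoly.irreducible hint)]
  intro hd
  apply h1
  rw [hq, derivative_mul, hd, zero_mul, zero_add, map_mul, minpoly.aeval, zero_mul]

theorem exists_primitive_of_finite {F K : Type*} [Field F] [Field K] [Algebra F K]
    [FiniteDimensional F K] [Algebra.IsSeparable F K] (z0 u : K)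
    (hu : IntermediateField.adjoin F {u} = ⊤) (c : ℕ → F) (hc : Function.Injective c) :
    ∃ n, IntermediateField.adjoin F {z0 + c n • u} = ⊤ := by
  haveI : Finite (IntermediateField F K) :=
    Field.finite_intermediateField_of_exists_primitive_element F K ⟨u, hu⟩
  obtain ⟨n, m, hnm, h⟩ := Finite.exists_ne_map_eq_of_infinite
    (fun n => IntermediateField.adjoin F {z0 + c n • u})
  refine ⟨n, ?_⟩
  set M := IntermediateField.adjoin F {z0 + c n • u} with hM
  have h1 : z0 + c n • u ∈ M := IntermediateField.mem_adjoin_simple_self F _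
  have h2 : z0 + c m • u ∈ M := by
    have : z0 + c m • u ∈ IntermediateField.adjoin F {z0 + c m • u} :=
      IntermediateField.mem_adjoin_simple_self F _
    rwa [← h] at this
  have h3 : (c n - c m) • u ∈ M := by
    have := M.sub_mem h1 h2
    rwa [add_sub_add_left_eq_sub, ← sub_smul] at this
  have h4 : u ∈ M := by
    have hne : c n - c m ≠ 0 := sub_ne_zero.mpr fun h => hnm (hc h)
    have := M.smul_mem h3 (x := (c n - c m)⁻¹)
    rwa [inv_smul_smul₀ hne] at this
  rw [eq_top_iff, ← hu, IntermediateField.adjoin_simple_le_iff]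
  exact h4

namespace Out

variable {F E K : Type u} [Field F] [NontriviallyNormedField E] [IsUltrametricDist E]
  [Algebra F E] [Field K] [Algebra F K] {I : Type u} [Fintype I] (o : Out F E K I)

variable (F E) in
/-- ring of integers of `F` -/
noncomputable def OF : ValuationSubring F :=
  ((NormedField.valuation (K := E)).comap (algebraMap F E)).valuationSubring

theorem mem_OF (f : F) : f ∈ OF F E ↔ ‖algebraMap F E f‖₊ ≤ 1 := Iff.rfl

theorem mem_max (f : OF F E) :
    f ∈ IsLocalRing.maximalIdeal (OF F E) ↔ ‖algebraMap F E (f : F)‖₊ < 1 := by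
  exact Valuation.mem_maximalIdeal_iff _ _

/-- the unit ball of the sup of the `w i`, as a subalgebra over the integers of `F`. -/
def B : Subalgebra (OF F E) K where
  carrier := {y | ∀ i, o.w i y ≤ 1}
  mul_mem' {x y} hx hy i := by
    rw [map_mul]; exact mul_le_one' (hx i) (hy i)
  add_mem' {x y} hx hy i := (Valuation.map_add _ _ _).trans (max_le (hx i) (hy i))
  algebraMap_mem' r i := by
    have : (algebraMap (OF F E) K r) = algebraMap F K (r : F) := rfl
    rw [this, o.w_alg]; exact r.2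

theorem mem_B (y : K) : y ∈ o.B ↔ ∀ i, o.w i y ≤ 1 := Iff.rfl

/-- basis of `B` -/
noncomputable def basisB : Module.Basis (Σ i, Fin (o.d i)) (OF F E) o.B :=
  Module.Basis.ofEquivFun
    { toFun := fun y j => ⟨o.b.repr (y : K) j, (o.all_le_iff (y : K) 1).mp y.2 j⟩
      map_add' := fun x y => by
        funext j; ext; simp
      map_smul' := fun r y => by
        funext j; ext
        have : ((r • y : o.B) : K) = (r : F) • (y : K) := rfl
        simp [this]
      invFun := fun c => ⟨∑ j, (c j : F) • o.b j, fun i => o.sum_le i _ 1 fun l => (c l).2⟩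
      left_inv := fun y => by
        ext
        exact o.b.sum_repr (y : K)
      right_inv := fun c => by
        funext j; ext
        show o.b.repr (∑ j, (c j : F) • o.b j) j = (c j : F)
        rw [o.b.repr_sum_self] }

instance : Module.Free (OF F E) o.B := Module.Free.of_basis o.basisB
instance : Module.Finite (OF F E) o.B := Module.Finite.of_basis o.basisB

theorem basisB_repr (y : o.B) (j) : ((o.basisB.repr y j : OF F E) : F) = o.b.repr (y : K) j := rfl

/-- the maximal ideal of `w i` -/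
def pI (i : I) : Ideal o.B where
  carrier := {y | o.w i (y : K) < 1}
  add_mem' {x y} hx hy := by
    show o.w i ((x : K) + (y : K)) < 1
    exact (Valuation.map_add _ _ _).trans_lt (max_lt hx hy)
  zero_mem' := by simp
  smul_mem' c x hx := by
    have : ((c • x : o.B) : K) = (c : K) * (x : K) := rfl
    show o.w i ((c • x : o.B) : K) < 1
    rw [this, map_mul]
    calc o.w i (c : K) * o.w i (x : K) ≤ 1 * o.w i (x : K) := mul_le_mul' (c.2 i) le_rfl
      _ < 1 := by rw [one_mul]; exact hx

theorem mem_pI (i : I) (y : o.B) : y ∈ o.pI i ↔ o.w i (y : K) < 1 := Iff.rfl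

/-- the complementary ideal -/
def jI (i : I) : Ideal o.B where
  carrier := {y | ∀ j, j ≠ i → o.w j (y : K) < 1}
  add_mem' {x y} hx hy j hj := by
    show o.w j ((x : K) + (y : K)) < 1
    exact (Valuation.map_add _ _ _).trans_lt (max_lt (hx j hj) (hy j hj))
  zero_mem' := by intro j _; simp
  smul_mem' c x hx j hj := by
    have : ((c • x : o.B) : K) = (c : K) * (x : K) := rfl
    show o.w j ((c • x : o.B) : K) < 1
    rw [this, map_mul]
    calc o.w j (c : K) * o.w j (x : K) ≤ 1 * o.w j (x : K) := mul_le_mul' (c.2 j) le_rfl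
      _ < 1 := by rw [one_mul]; exact hx j hj

/-- adapted approximation inside `B` -/
theorem exists_B (i : I) (y : K) (hy : o.w i y ≤ 1) : ∃ z : o.B, o.w i ((z : K) - y) < 1 ∧
    z ∈ o.jI i := by
  classical
  obtain ⟨z, hz⟩ := o.approx (fun j => if j = i then y else 0) 1 one_pos
  have hzi : o.w i (z - y) < 1 := by simpa using hz i
  have hzj : ∀ j, j ≠ i → o.w j z < 1 := by
    intro j hj
    have h := hz j
    simpa only [if_neg hj, sub_zero] using h
  have hall : ∀ j, o.w j z ≤ 1 := by
    intro j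
    by_cases hj : j = i
    · subst hj
      have : z = (z - y) + y := by ring
      rw [this]
      exact (Valuation.map_add _ _ _).trans (max_le hzi.le hy)
    · exact (hzj j hj).le
  exact ⟨⟨z, hall⟩, hzi, hzj⟩

instance pI_max (i : I) : (o.pI i).IsMaximal := by
  rw [Ideal.isMaximal_iff]
  constructor
  · rw [mem_pI]; simp
  · intro J' x hle hx hxJ
    rw [mem_pI, not_lt] at hx
    have hx1 : o.w i (x : K) = 1 := le_antisymm (x.2 i) hx
    have hx0 : (x : K) ≠ 0 := by
      intro h; rw [h, map_zero] at hx1; exact zero_ne_one hx1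
    obtain ⟨z, hz, -⟩ := o.exists_B i (x : K)⁻¹ (by rw [map_inv₀, hx1, inv_one])
    have h1 : z * x - 1 ∈ o.pI i := by
      rw [mem_pI]
      have : ((z * x - 1 : o.B) : K) = ((z : K) - (x : K)⁻¹) * (x : K) := by
        push_cast
        field_simp
      rw [this, map_mul, hx1, mul_one]
      exact hz
    have h2 : (1 : o.B) = z * x - (z * x - 1) := by ring
    rw [h2]
    exact J'.sub_mem (J'.mul_mem_left z hxJ) (hle h1)

theorem coprime (i : I) : IsCoprime (o.pI i) (o.jI i) := by
  rw [Ideal.isCoprime_iff_exists]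
  obtain ⟨z, hz, hzj⟩ := o.exists_B i 1 (by simp)
  refine ⟨1 - z, ?_, z, hzj, by ring⟩
  rw [mem_pI]
  have : ((1 - z : o.B) : K) = -((z : K) - 1) := by push_cast; ring
  rw [this, Valuation.map_neg]
  exact hz

theorem inf_eq (i : I) : o.pI i ⊓ o.jI i =
    (RingHom.ker (algebraMap (OF F E) (IsLocalRing.ResidueField (OF F E)))).map
      (algebraMap (OF F E) o.B) := by
  classical
  have hker : ∀ r : OF F E, r ∈ RingHom.ker (algebraMap (OF F E)
      (IsLocalRing.ResidueField (OF F E))) ↔ ‖algebraMap F E (r : F)‖₊ < 1 := by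
    intro r
    rw [RingHom.mem_ker, IsLocalRing.ResidueField.algebraMap_eq, IsLocalRing.residue_eq_zero_iff,
      mem_max]
  apply le_antisymm
  · intro y hy
    have hall : ∀ j, o.w j (y : K) < 1 := by
      intro j
      by_cases h : j = i
      · subst h; exact hy.1
      · exact hy.2 j h
    have hc := (o.all_lt_iff (y : K) 1 one_pos).mp hall
    rw [← o.basisB.sum_repr y]
    refine Ideal.sum_mem _ fun j _ => ?_
    rw [Algebra.smul_def]
    refine Ideal.mul_mem_right _ _ (Ideal.mem_map_of_mem _ ?_)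
    rw [hker]
    exact hc j
  · rw [Ideal.map_le_iff_le_comap]
    intro r hr
    rw [hker] at hr
    have h1 : ∀ j, o.w j ((algebraMap (OF F E) o.B r : o.B) : K) < 1 := by
      intro j
      have : ((algebraMap (OF F E) o.B r : o.B) : K) = algebraMap F K (r : F) := rfl
      rw [this, o.w_alg]; exact hr
    exact ⟨h1 i, fun j _ => h1 j⟩

/-- the map from the residue field of `F` to the residue field of `w i` -/
noncomputable def redMap (i : I) : IsLocalRing.ResidueField (OF F E) →+* (o.B ⧸ o.pI i) :=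
  Ideal.Quotient.lift (IsLocalRing.maximalIdeal (OF F E))
    ((Ideal.Quotient.mk (o.pI i)).comp (algebraMap (OF F E) o.B)) (by
      intro a ha
      rw [mem_max] at ha
      rw [RingHom.comp_apply, Ideal.Quotient.eq_zero_iff_mem, mem_pI]
      show o.w i (algebraMap F K (a : F)) < 1
      rwa [o.w_alg])

theorem exists_scaled (π : F) (hπ0 : π ≠ 0) (hπ1 : ‖algebraMap F E π‖₊ < 1) (y : K) :
    ∃ N : ℕ, ∀ i, o.w i ((π ^ N) • y) ≤ 1 := by
  obtain ⟨C, hC⟩ : ∃ C : ℝ≥0, ∀ i, o.w i y ≤ C :=
    ⟨∑ i, o.w i y, fun i => Finset.single_le_sum (f := fun i => o.w i y)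
      (fun _ _ => zero_le) (Finset.mem_univ i)⟩
  obtain ⟨N, hN⟩ := _root_.exists_pow_lt_of_lt_one (show (0 : ℝ≥0) < (C + 1)⁻¹ by positivity) hπ1
  refine ⟨N, fun i => ?_⟩
  rw [Algebra.smul_def, map_mul, o.w_alg, map_pow, nnnorm_pow]
  calc _ ≤ (C + 1)⁻¹ * (C + 1) := mul_le_mul' hN.le ((hC i).trans (le_self_add))
    _ = 1 := inv_mul_cancel₀ (by positivity)

theorem w_aeval_le (i : I) (z : K) (hz : o.w i z ≤ 1) (P : F[X])
    (hP : ∀ n, ‖algebraMap F E (P.coeff n)‖₊ ≤ 1) : o.w i (aeval z P) ≤ 1 := by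
  rw [aeval_eq_sum_range]
  refine Valuation.map_sum_le _ fun n _ => ?_
  rw [Algebra.smul_def, map_mul, o.w_alg, map_pow]
  calc _ ≤ 1 * 1 := mul_le_mul' (hP n) (pow_le_one' hz n)
    _ = 1 := one_mul 1

/-- **T2A**: chart element at `w i`, from separability of the residue extension. -/
theorem chart_out [FiniteDimensional F K] [Algebra.IsSeparable F K] (i : I)
    (hd : DenseRange (algebraMap F E))
    (hsep : ∀ y, o.w i y = 1 → ∃ P : F[X], (∀ n, ‖algebraMap F E (P.coeff n)‖₊ ≤ 1) ∧
      o.w i (aeval y P) < 1 ∧ o.w i (aeval y (derivative P)) = 1) :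
    ∃ z : K, (∀ n, ‖algebraMap F E ((minpoly F z).coeff n)‖₊ ≤ 1) ∧
      o.w i (aeval z (derivative (minpoly F z))) = 1 ∧ o.w i z = 1 ∧
      (∀ j, j ≠ i → o.w j z < 1) ∧ IntermediateField.adjoin F {z} = ⊤ ∧
      ∀ y, o.w i y ≤ 1 → ∃ Q : F[X], (∀ n, ‖algebraMap F E (Q.coeff n)‖₊ ≤ 1) ∧
        o.w i (y - aeval z Q) < 1 := by
  classical
  let κ := IsLocalRing.ResidueField (OF F E)
  letI : Field (o.B ⧸ o.pI i) := Ideal.Quotient.field (o.pI i)
  letI : Algebra κ (o.B ⧸ o.pI i) := (o.redMap i).toAlgebra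
  haveI : IsScalarTower (OF F E) κ (o.B ⧸ o.pI i) := IsScalarTower.of_algebraMap_eq fun a => rfl
  haveI : Module.Finite κ (o.B ⧸ o.pI i) :=
    Module.Finite.of_restrictScalars_finite (OF F E) κ (o.B ⧸ o.pI i)
  -- evaluation compatibilities
  have hcoe : ∀ (y : o.B) (P : (OF F E)[X]), ((aeval y P : o.B) : K) =
      aeval (y : K) (P.map (algebraMap (OF F E) F)) := by
    intro y P
    rw [aeval_map_algebraMap]
    exact (aeval_algebraMap_apply K y P).symm
  have hred : ∀ (y : o.B) (P : (OF F E)[X]), Ideal.Quotient.mk (o.pI i) (aeval y P) =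
      aeval (Ideal.Quotient.mk (o.pI i) y : o.B ⧸ o.pI i) (P.map (algebraMap (OF F E) κ)) := by
    intro y P
    rw [aeval_map_algebraMap]
    exact (aeval_algebraMap_apply (o.B ⧸ o.pI i) y P).symm
  -- lifting polynomials with coefficients of norm at most one
  have hlift : ∀ P : F[X], (∀ n, ‖algebraMap F E (P.coeff n)‖₊ ≤ 1) →
      ∃ P' : (OF F E)[X], P'.map (algebraMap (OF F E) F) = P := by
    intro P hP
    have hl : P ∈ Polynomial.lifts (algebraMap (OF F E) F) := by
      rw [Polynomial.lifts_iff_coeff_lifts]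
      intro n
      exact ⟨⟨P.coeff n, hP n⟩, rfl⟩
    exact hl
  have hsepκ : Algebra.IsSeparable κ (o.B ⧸ o.pI i) := by
    constructor
    intro x
    obtain ⟨y, rfl⟩ := Ideal.Quotient.mk_surjective x
    by_cases hy : y ∈ o.pI i
    · rw [Ideal.Quotient.eq_zero_iff_mem.mpr hy]
      rw [← map_zero (algebraMap κ (o.B ⧸ o.pI i))]
      exact isSeparable_algebraMap _
    · have hy1 : o.w i (y : K) = 1 := le_antisymm (y.2 i) (not_lt.mp hy)
      obtain ⟨P, hP, h0, h1⟩ := hsep (y : K) hy1
      obtain ⟨P', hP'⟩ := hlift P hP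
      refine separable_of_root _ (P'.map (algebraMap (OF F E) κ)) ?_ ?_
      · rw [← hred, Ideal.Quotient.eq_zero_iff_mem, mem_pI, hcoe, hP']
        exact h0
      · rw [derivative_map, ← hred, Ne, Ideal.Quotient.eq_zero_iff_mem, mem_pI, hcoe,
          ← derivative_map, hP', h1]
        exact lt_irrefl 1
  obtain ⟨α, hα, hα0⟩ : ∃ α : o.B ⧸ o.pI i, IntermediateField.adjoin κ {α} = ⊤ ∧ α ≠ 0 := by
    obtain ⟨α, hα⟩ := Field.exists_primitive_element κ (o.B ⧸ o.pI i)
    by_cases h : α = 0
    · refine ⟨1, ?_, one_ne_zero⟩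
      rw [h, IntermediateField.adjoin_zero] at hα
      rw [IntermediateField.adjoin_one, hα]
    · exact ⟨α, hα, h⟩
  have hαa : Algebra.adjoin κ {α} = ⊤ := by
    rw [← IntermediateField.adjoin_simple_toSubalgebra_of_isAlgebraic
      (Algebra.IsAlgebraic.isAlgebraic α), hα]
    rfl
  -- lift alpha
  obtain ⟨y0, hy0⟩ := Ideal.Quotient.mk_surjective α
  have hy0n : y0 ∉ o.pI i := fun h => hα0 (by rw [← hy0]; exact Ideal.Quotient.eq_zero_iff_mem.mpr h)
  obtain ⟨z0, hz0, hz0J⟩ := o.exists_B i (y0 : K) (y0.2 i)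
  have hz0α : Ideal.Quotient.mk (o.pI i) z0 = α := by
    rw [← hy0, Ideal.Quotient.eq, mem_pI]
    exact hz0
  -- perturbation
  obtain ⟨π, hπ0, hπ1⟩ : ∃ π : F, π ≠ 0 ∧ ‖algebraMap F E π‖₊ < 1 := by
    obtain ⟨x, hx0, hx1⟩ := NormedField.exists_norm_lt_one E
    obtain ⟨f, hf⟩ := hd.exists_dist_lt x hx0
    rw [dist_eq_norm] at hf
    have hnf : ‖algebraMap F E f‖ ≤ ‖x‖ := by
      have h1 : ‖algebraMap F E f - x‖ < ‖x‖ := by rwa [norm_sub_rev]
      have : algebraMap F E f = x + (algebraMap F E f - x) := by ring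
      rw [this]
      exact (IsUltrametricDist.norm_add_le_max _ _).trans (max_le le_rfl h1.le)
    refine ⟨f, ?_, ?_⟩
    · rintro rfl
      rw [map_zero, sub_zero] at hf
      exact lt_irrefl _ hf
    · rw [← NNReal.coe_lt_coe, coe_nnnorm]; exact hnf.trans_lt hx1
  obtain ⟨u0, hu0⟩ := Field.exists_primitive_element F K
  obtain ⟨N, hN⟩ := o.exists_scaled π hπ0 hπ1 u0
  have hπN : π ^ N ≠ 0 := pow_ne_zero _ hπ0
  have hu : IntermediateField.adjoin F {π ^ N • u0} = ⊤ := by
    rw [eq_top_iff, ← hu0, IntermediateField.adjoin_simple_le_iff]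
    have := (IntermediateField.adjoin F {π ^ N • u0}).smul_mem
      (IntermediateField.mem_adjoin_simple_self F _) (x := (π ^ N)⁻¹)
    rwa [inv_smul_smul₀ hπN] at this
  have hinj : Function.Injective (fun n : ℕ => π ^ (n + 1)) := by
    intro a b hab
    have h1 : ‖algebraMap F E π‖₊ ^ (a + 1) = ‖algebraMap F E π‖₊ ^ (b + 1) := by
      have := congrArg (fun f => ‖algebraMap F E f‖₊) hab
      simpa only [map_pow, nnnorm_pow] using this
    have h0 : 0 < ‖algebraMap F E π‖₊ := by
      rw [nnnorm_pos, Ne, map_eq_zero]; exact hπ0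
    have := pow_right_injective₀ h0 hπ1.ne h1
    omega
  obtain ⟨n, hn⟩ := exists_primitive_of_finite (z0 : K) (π ^ N • u0) hu _ hinj
  set e : K := π ^ (n + 1) • (π ^ N • u0) with he
  have hesmall : ∀ j, o.w j e < 1 := by
    intro j
    rw [he, Algebra.smul_def, map_mul, o.w_alg, map_pow, nnnorm_pow]
    calc _ ≤ ‖algebraMap F E π‖₊ ^ (n + 1) * 1 := mul_le_mul' le_rfl (hN j)
      _ = ‖algebraMap F E π‖₊ ^ (n + 1) := mul_one _
      _ < 1 := pow_lt_one₀ zero_le hπ1 (Nat.succ_ne_zero n)
  let eB : o.B := ⟨e, fun j => (hesmall j).le⟩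
  let z : o.B := z0 + eB
  have hzc : (z : K) = (z0 : K) + e := rfl
  have hzα : Ideal.Quotient.mk (o.pI i) z = α := by
    rw [← hz0α, Ideal.Quotient.eq, mem_pI]
    have : ((z - z0 : o.B) : K) = e := by
      show (z : K) - (z0 : K) = e
      rw [hzc]; ring
    rw [this]; exact hesmall i
  have hzJ : z ∈ o.jI i := (o.jI i).add_mem hz0J fun j _ => hesmall j
  have hzp : z ∉ o.pI i := fun h => hα0 (by rw [← hzα]; exact Ideal.Quotient.eq_zero_iff_mem.mpr h)
  obtain ⟨P, hPm, hP0, hP1⟩ := T2A_83.chart (O := OF F E) (κ := κ)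
    IsLocalRing.residue_surjective (o.pI i) (o.jI i) (o.inf_eq i) (o.coprime i) hsepκ z
    (by rw [hzα]; exact hαa) hzp (Ideal.le_radical hzJ)
  have hint : IsIntegral (OF F E) z := ⟨P, hPm, hP0⟩
  haveI : IsDomain o.B := inferInstance
  have hmp : minpoly F (z : K) = (minpoly (OF F E) z).map (algebraMap (OF F E) F) := by
    have h1 : minpoly (OF F E) (z : K) = minpoly (OF F E) z :=
      minpoly.algebraMap_eq (B := o.B) (B' := K) Subtype.val_injective z
    rw [← h1]
    exact minpoly.isIntegrallyClosed_eq_field_fractions' F (hint.map (IsScalarTower.toAlgHom (OF F E) o.B K))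
  have hzi : o.w i (z : K) = 1 := le_antisymm (z.2 i) (not_lt.mp hzp)
  refine ⟨(z : K), ?_, ?_, hzi, hzJ, hn, ?_⟩
  · intro m
    rw [hmp, coeff_map]
    exact ((minpoly (OF F E) z).coeff m).2
  · obtain ⟨Q, hQ⟩ := minpoly.isIntegrallyClosed_dvd hint hP0
    have h2 : aeval z (derivative P) = aeval z (derivative (minpoly (OF F E) z)) * aeval z Q := by
      conv_lhs => rw [hQ]
      rw [derivative_mul, map_add, map_mul, map_mul, minpoly.aeval, zero_mul, add_zero]
    rw [hmp, derivative_map, ← hcoe]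
    have h3 : o.w i ((aeval z (derivative (minpoly (OF F E) z)) : o.B) : K) ≤ 1 :=
      (aeval z (derivative (minpoly (OF F E) z)) : o.B).2 i
    refine le_antisymm h3 (not_lt.mp fun h4 => hP1 ?_)
    rw [h2]
    exact (o.pI i).mul_mem_right _ h4
  · intro y hy
    obtain ⟨y', hy', -⟩ := o.exists_B i y hy
    have hmem : (Ideal.Quotient.mk (o.pI i) y' : o.B ⧸ o.pI i) ∈ Algebra.adjoin κ {α} := by
      rw [hαa]; trivial
    rw [Algebra.adjoin_singleton_eq_range_aeval] at hmem
    obtain ⟨q, hq⟩ := hmem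
    obtain ⟨Q, hQ⟩ := Polynomial.map_surjective (algebraMap (OF F E) κ)
      IsLocalRing.residue_surjective q
    refine ⟨Q.map (algebraMap (OF F E) F), fun m => ?_, ?_⟩
    · rw [coeff_map]; exact (Q.coeff m).2
    · rw [← hcoe]
      have h1 : y' - aeval z Q ∈ o.pI i := by
        rw [← Ideal.Quotient.eq, hred, hQ, hzα]
        exact hq.symm
      rw [mem_pI] at h1
      have h2 : y - ((aeval z Q : o.B) : K) =
          -((y' : K) - y) + ((y' - aeval z Q : o.B) : K) := by
        have : ((y' - aeval z Q : o.B) : K) = (y' : K) - ((aeval z Q : o.B) : K) := rfl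
        rw [this]; ring
      rw [h2]
      refine (Valuation.map_add _ _ _).trans_lt (max_lt ?_ h1)
      rw [Valuation.map_neg]; exact hy'

end Out

end Crest.Agent.R013.StabF_83
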