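import Crest.Agent.R013.End1_809
import Crest.Agent.R013.Red7_332
import Crest.Agent.R013.StabH_83
import Crest.Agent.R013.Ins3_240
import Crest.Agent.R013.CE1_280

/-!
# Row 13, leaf SS-END (helper809): chart elements at an end from STABF and a uniformiser
-/

set_option autoImplicit false
set_option linter.unusedSectionVars false
open Filter Topology
open scoped NNReal
open WithZero
open Crest.Agent.R013.Cell_408 (FinDef DiscNorm exists_max BD)
open Crest.Agent.R013.Red332 hiding od od_C od_mul od_inv od_pow od_one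
open Crest.Agent.R013.RR7_948 Crest.Agent.R013.RR8_948 Crest.Agent.R013.RR14_948
open Crest.Agent.R013.RR15_948 Crest.Agent.R013.RR20_948
open Crest.Agent.R013.StabF_83

namespace Crest.Agent.R013.EE809

open Polynomial

/-! ### separability over `k(t)`, `t` a uniformiser -/

section Sep

theorem isSeparable_of_span {k F K : Type*} [Field k] [Field F] [Field K] [Algebra k F]
    [Algebra k K] [Algebra F K] [IsScalarTower k F K] [FiniteDimensional F K] {t : F}
    (hΩ : ∀ ω : Ω[K⁄k], ∃ g : K, ω = g • KaehlerDifferential.D k K (algebraMap F K t)) :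
    Algebra.IsSeparable F K := by
  have h1 : Subsingleton Ω[K⁄F] := by
    refine subsingleton_of_forall_eq 0 fun ω => ?_
    obtain ⟨ω', rfl⟩ := KaehlerDifferential.map_surjective k F K ω
    obtain ⟨g, rfl⟩ := hΩ ω'
    rw [map_smul, KaehlerDifferential.map_D]
    have : KaehlerDifferential.D F K (algebraMap K K (algebraMap F K t)) = 0 :=
      Derivation.map_algebraMap (KaehlerDifferential.D F K) t
    rw [this, smul_zero]
  have h2 : Algebra.FormallyUnramified F K := ⟨h1⟩
  exact Algebra.FormallyUnramified.isSeparable F K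

variable {k : Type*} [Field k] {K : Type*} [Field K] [Algebra k K] [Algebra (RatFunc k) K]
  [IsScalarTower k (RatFunc k) K] [FiniteDimensional (RatFunc k) K]
  [Algebra.IsSeparable (RatFunc k) K]

/-- `K` is separable over `k(t)` if `t` is a uniformiser of a place -/
theorem ratAlg_isSeparable_of_unif [PerfectField k] (P : Pl k K) {t : K} (ht : P.v t = exp (-1))
    (htr : Transcendental k t) : @Algebra.IsSeparable (RatFunc k) K _ _ (ratAlg t htr) := by
  have hd := del_uniformizer_ne_zero P ht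
  refine @isSeparable_of_span k (RatFunc k) K _ _ _ _ _ (ratAlg t htr) (ratAlg_tower t htr)
    (ratAlg_finite t htr) RatFunc.X ?_
  intro ω
  have hX : @algebraMap (RatFunc k) K _ _ (ratAlg t htr) RatFunc.X = t := ratHom_X t htr
  rw [hX]
  obtain ⟨g, hg⟩ := exists_smul_D_xK k K ω
  refine ⟨g * (del k K t)⁻¹, ?_⟩
  rw [D_eq k K t, smul_smul, mul_assoc, inv_mul_cancel₀ hd, mul_one, hg]

end Sep

/-! ### lifting from the residue field -/

section Lift

variable {C : Type*} [NormedField C] [IsUltrametricDist C] {K : Type*} [Field K] [Algebra C K]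
  (w : Nm C K)

/-- the residue map -/
noncomputable def rs : w.v.valuationSubring →+* kap w :=
  IsLocalRing.residue w.v.valuationSubring

theorem rs_eq {f : K} (h : w.v f ≤ 1) : rs w ⟨f, h⟩ = red w f := (red_def w h).symm

theorem rs_eq' (f : w.v.valuationSubring) : rs w f = red w (f : K) := rs_eq w f.2

theorem red_sum {ι : Type*} (s : Finset ι) (f : ι → K) (h : ∀ i ∈ s, w.v (f i) ≤ 1) :
    red w (∑ i ∈ s, f i) = ∑ i ∈ s, red w (f i) := by
  classical
  induction s using Finset.induction_on with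
  | empty => rw [Finset.sum_empty, Finset.sum_empty, red_zero]
  | insert i s hi ih =>
    rw [Finset.sum_insert hi, Finset.sum_insert hi, red_add, ih fun j hj => h j (Finset.mem_insert_of_mem hj)]
    · exact h i (Finset.mem_insert_self _ _)
    · exact Valuation.map_sum_le _ fun j hj => h j (Finset.mem_insert_of_mem hj)

theorem v_aeval_le {t : K} (ht : w.v t ≤ 1) {p : C[X]} (hp : ∀ n, ‖p.coeff n‖₊ ≤ 1) :
    w.v (aeval t p) ≤ 1 := by
  rw [aeval_eq_sum_range]
  refine Valuation.map_sum_le _ fun i _ => ?_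
  rw [Algebra.smul_def, map_mul, map_pow, w.hC]
  exact mul_le_one' (hp i) (pow_le_one' ht i)

/-- reduction of a polynomial in `t` -/
theorem red_aeval {t : K} (ht : w.v t ≤ 1) {p : C[X]} {p' : (Ct C)[X]} (hp : ∀ n, ‖p.coeff n‖₊ ≤ 1)
    (hpp : ∀ n, rc (p.coeff n) = p'.coeff n) : red w (aeval t p) = aeval (red w t) p' := by
  have hN : ∃ N, p.natDegree < N ∧ p'.natDegree < N :=
    ⟨max p.natDegree p'.natDegree + 1, by omega, by omega⟩
  obtain ⟨N, hN1, hN2⟩ := hN
  rw [aeval_eq_sum_range' hN1, aeval_eq_sum_range' hN2, red_sum]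
  · refine Finset.sum_congr rfl fun i _ => ?_
    have h1 : w.v (algebraMap C K (p.coeff i)) ≤ 1 := by rw [w.hC]; exact hp i
    rw [Algebra.smul_def, Algebra.smul_def, red_mul w h1 (by
      rw [map_pow]; exact pow_le_one' ht i), red_C w _ (hp i), red_pow w ht, hpp]
  · intro i _
    rw [Algebra.smul_def, map_mul, map_pow, w.hC]
    exact mul_le_one' (hp i) (pow_le_one' ht i)

omit [Algebra C K] in
theorem lift_poly (p' : (Ct C)[X]) :
    ∃ p : C[X], (∀ n, ‖p.coeff n‖₊ ≤ 1) ∧ ∀ n, rc (p.coeff n) = p'.coeff n := by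
  classical
  choose c hc hc' using fun n => rc_surj (C := C) (p'.coeff n)
  refine ⟨∑ n ∈ Finset.range (p'.natDegree + 1), monomial n (c n), fun n => ?_, fun n => ?_⟩
  · rw [finsetSum_coeff]
    simp only [coeff_monomial]
    rw [Finset.sum_ite_eq' ]
    split_ifs
    · exact hc n
    · rw [nnnorm_zero]; exact zero_le_one
  · rw [finsetSum_coeff]
    simp only [coeff_monomial]
    rw [Finset.sum_ite_eq' ]
    split_ifs with h
    · exact hc' n
    · rw [rc_zero, coeff_eq_zero_of_natDegree_lt (by simpa using h)]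

/-- lifting rational functions -/
theorem lift_rat {φ : RatFunc C →ₐ[C] K} (ht : w.v (φ RatFunc.X) = 1)
    {φ' : RatFunc (Ct C) →ₐ[Ct C] kap w} (hφ : φ' RatFunc.X = red w (φ RatFunc.X))
    (r : RatFunc (Ct C)) : ∃ f : RatFunc C, w.v (φ f) ≤ 1 ∧ red w (φ f) = φ' r := by
  obtain ⟨p, hp, hp'⟩ := lift_poly r.num
  obtain ⟨d, hd, hd'⟩ := lift_poly r.denom
  have hφp : ∀ p : C[X], φ (algebraMap C[X] (RatFunc C) p) = aeval (φ RatFunc.X) p := by
    intro p
    have h : (φ.comp (IsScalarTower.toAlgHom C C[X] (RatFunc C))) = aeval (φ RatFunc.X) := by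
      apply Polynomial.algHom_ext
      simp
    exact congrArg (fun f => f p) h
  have hφ'p : ∀ p : (Ct C)[X], φ' (algebraMap (Ct C)[X] (RatFunc (Ct C)) p) =
      aeval (φ' RatFunc.X) p := by
    intro p
    have h : (φ'.comp (IsScalarTower.toAlgHom (Ct C) (Ct C)[X] (RatFunc (Ct C)))) =
        aeval (φ' RatFunc.X) := by
      apply Polynomial.algHom_ext
      simp
    exact congrArg (fun f => f p) h
  have h1 := red_aeval w ht.le hp hp'
  have h2 := red_aeval w ht.le hd hd'
  rw [← hφ, ← hφ'p] at h1 h2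
  have h3 : red w (aeval (φ RatFunc.X) d) ≠ 0 := by
    rw [h2, Ne, map_eq_zero, FaithfulSMul.algebraMap_eq_zero_iff]
    exact r.denom_ne_zero
  have h4 : w.v (aeval (φ RatFunc.X) d) = 1 :=
    (red_ne_zero_iff w (v_aeval_le w ht.le hd)).1 h3
  refine ⟨algebraMap C[X] (RatFunc C) p / algebraMap C[X] (RatFunc C) d, ?_, ?_⟩
  · rw [map_div₀, map_div₀, hφp, hφp, h4, div_one]
    exact v_aeval_le w ht.le hp
  · rw [map_div₀, hφp, hφp, div_eq_mul_inv, red_mul w (v_aeval_le w ht.le hp)
      (by rw [map_inv₀, h4, inv_one]), red_inv w h4, h1, h2, ← div_eq_mul_inv, ← map_div₀,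
      RatFunc.num_div_denom]

/-- lifting a separable equation -/
theorem lift_sep {φ : RatFunc C →ₐ[C] K} (ht : w.v (φ RatFunc.X) = 1)
    {φ' : RatFunc (Ct C) →ₐ[Ct C] kap w} (hφ : φ' RatFunc.X = red w (φ RatFunc.X))
    {y : K} (hy : w.v y ≤ 1) {p : (RatFunc (Ct C))[X]} (hp : p.eval₂ (φ' : RatFunc (Ct C) →+* kap w)
      (red w y) = 0) (hp' : p.derivative.eval₂ (φ' : RatFunc (Ct C) →+* kap w) (red w y) ≠ 0) :
    ∃ P : (RatFunc C)[X], (∀ n, w.v (φ (P.coeff n)) ≤ 1) ∧
      w.v (P.eval₂ (φ : RatFunc C →+* K) y) < 1 ∧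
      w.v (P.derivative.eval₂ (φ : RatFunc C →+* K) y) = 1 := by
  classical
  choose f hf hf' using fun n => lift_rat w ht hφ (p.coeff n)
  set P : (RatFunc C)[X] := ∑ n ∈ Finset.range (p.natDegree + 1), monomial n (f n) with hP
  have hPco : ∀ n, P.coeff n = if n ∈ Finset.range (p.natDegree + 1) then f n else 0 := by
    intro n
    rw [hP, finsetSum_coeff]
    simp only [coeff_monomial]
    rw [Finset.sum_ite_eq']
  have hPle : ∀ n, w.v (φ (P.coeff n)) ≤ 1 := by
    intro n
    rw [hPco]
    split_ifs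
    · exact hf n
    · rw [map_zero, map_zero]; exact zero_le_one
  have hPred : ∀ n, red w (φ (P.coeff n)) = φ' (p.coeff n) := by
    intro n
    rw [hPco]
    split_ifs with h
    · exact hf' n
    · rw [map_zero, red_zero, coeff_eq_zero_of_natDegree_lt (by simpa using h), map_zero]
  -- the polynomial over the valuation ring
  have hl : P.map (φ : RatFunc C →+* K) ∈ Polynomial.lifts (algebraMap w.v.valuationSubring K) := by
    rw [Polynomial.lifts_iff_coeff_lifts]
    intro n
    refine ⟨⟨φ (P.coeff n), hPle n⟩, ?_⟩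
    rw [coeff_map]
    rfl
  obtain ⟨PO, hPO⟩ := hl
  have hPO' : PO.map (algebraMap w.v.valuationSubring K) = P.map (φ : RatFunc C →+* K) := hPO
  have hPOr : PO.map (rs w) = p.map (φ' : RatFunc (Ct C) →+* kap w) := by
    ext n
    rw [coeff_map, coeff_map, rs_eq']
    have h1 := congrArg (fun q => q.coeff n) hPO'
    simp only [coeff_map] at h1
    have h2 : ((PO.coeff n : w.v.valuationSubring) : K) = φ (P.coeff n) := h1
    rw [h2, hPred]
    rfl
  have hev : ∀ Q : (w.v.valuationSubring)[X],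
      rs w (Q.eval ⟨y, hy⟩) = (Q.map (rs w)).eval (red w y) := by
    intro Q
    rw [eval_map, ← rs_eq w hy, eval₂_at_apply]
  have hev2 : ∀ Q : (w.v.valuationSubring)[X],
      ((Q.eval ⟨y, hy⟩ : w.v.valuationSubring) : K) =
        (Q.map (algebraMap w.v.valuationSubring K)).eval y := by
    intro Q
    rw [eval_map]
    exact (eval₂_at_apply (algebraMap w.v.valuationSubring K) ⟨y, hy⟩).symm
  refine ⟨P, hPle, ?_, ?_⟩
  · rw [← eval_map, ← hPO', ← hev2, ← red_eq_zero_iff w (PO.eval ⟨y, hy⟩).2, ← rs_eq', hev, hPOr,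
      eval_map, hp]
  · rw [← eval_map, ← derivative_map, ← hPO', derivative_map, ← hev2,
      ← red_ne_zero_iff w (PO.derivative.eval ⟨y, hy⟩).2, ← rs_eq', hev, ← derivative_map, hPOr,
      derivative_map, eval_map]
    exact hp'

end Lift

/-! ### the chart -/

section ChartOut

universe u

variable {k : Type*} [NontriviallyNormedField k] [CompleteSpace k]
variable {C : Type u} [NormedField C] [IsUltrametricDist C] [NormedAlgebra k C]
variable [Algebra.IsAlgebraic k C] [IsUltrametricDist k] [IsAlgClosed C] [hk : Fact (DiscNorm k)]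
variable {K : Type u} [Field K] [Algebra C K] [Algebra (RatFunc C) K] [IsScalarTower C (RatFunc C) K]

/-- the residue field of an end is `Ct C` -/
theorem end_res (w : Nm C K) [Algebra (RatFunc (Ct C)) (kap w)]
    [IsScalarTower (Ct C) (RatFunc (Ct C)) (kap w)] [FiniteDimensional (RatFunc (Ct C)) (kap w)]
    [Algebra.IsSeparable (RatFunc (Ct C)) (kap w)] (q : Pl (Ct C) (kap w)) (f : K)
    (hf : Ge (ofPl w q) 0 f) : ∃ c : C, ‖c‖₊ ≤ 1 ∧ Ge (ofPl w q) 1 (f - algebraMap C K c) := by
  have hnm : ∀ g, (ofPl w q).nm g = w.v g := fun _ => rfl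
  have hod : ∀ g, (ofPl w q).od g = Red332.od w q g := fun _ => rfl
  rcases hf with h | ⟨h, h'⟩
  · refine ⟨0, by rw [nnnorm_zero]; exact zero_le_one, Or.inl ?_⟩
    rw [map_zero, sub_zero]; exact h
  · rw [hnm] at h
    rw [hod] at h'
    have h1 : q.v (red w f) ≤ 1 := by
      rw [v_red_of_one q h, ← exp_zero, exp_le_exp]; omega
    obtain ⟨c', hc'⟩ := CE1_280.exists_residue q h1
    obtain ⟨c, hc, rfl⟩ := rc_surj c'
    refine ⟨c, hc, ?_⟩
    have h2 : w.v (algebraMap C K c) ≤ 1 := by rw [w.hC]; exact hc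
    rw [← red_C w c hc, ← red_sub w h.le h2] at hc'
    have h3 : w.v (f - algebraMap C K c) ≤ 1 := (Valuation.map_sub _ _ _).trans (max_le h.le h2)
    rcases h3.lt_or_eq with h4 | h4
    · exact Or.inl h4
    · right
      refine ⟨h4, ?_⟩
      rw [hod]
      rw [v_red_of_one q h4, ← exp_zero, exp_lt_exp] at hc'
      omega

/-- **chart elements exist** at the end `(w, q)` if `x` has norm one and order one. -/
theorem exists_chart [CharZero C] [FiniteDimensional (RatFunc C) K] {E' : Type u}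
    [NontriviallyNormedField E'] [CompleteSpace E'] [IsUltrametricDist E'] [Algebra (RatFunc C) E']
    {I : Type u} [Fintype I] (o : Out (RatFunc C) E' K I) (hd : DenseRange (algebraMap (RatFunc C) E'))
    (hE : ∀ f, ‖algebraMap (RatFunc C) E' f‖₊ = gv k C (expn k C f))
    (w : Nm C K) [Algebra (RatFunc (Ct C)) (kap w)]
    [IsScalarTower (Ct C) (RatFunc (Ct C)) (kap w)] [FiniteDimensional (RatFunc (Ct C)) (kap w)]
    [Algebra.IsSeparable (RatFunc (Ct C)) (kap w)] (q : Pl (Ct C) (kap w))
    (ht : w.v (xK C K) = 1) (ht' : Red332.od w q (xK C K) = 1) :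
    ∃ z : K, Chart (ofPl w q) z := by
  classical
  have hE1 : (ofPl w q).nm (xK C K) = 1 := ht
  have hE2 : (ofPl w q).od (xK C K) = 1 := ht'
  -- the norm of `C(X)`
  have hnorm : ∀ f : RatFunc C, w.v (algebraMap (RatFunc C) K f) = ‖algebraMap (RatFunc C) E' f‖₊ := by
    intro f
    rw [hE]
    exact (rat_end (E := ofPl w q) (E' := endE k C) (φ := IsScalarTower.toAlgHom C (RatFunc C) K)
      (φ' := expn k C) hE1 hE2 (by rw [expn_X]; exact nm_T) (by rw [expn_X]; exact od_T1) f).1
  obtain ⟨i, hi⟩ := o.complete w.v hnorm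
  -- the residue of `x`
  have hq : q.v (red w (xK C K)) = exp (-1) := by rw [v_red_of_one q ht, ht']
  have htr : Transcendental (Ct C) (red w (xK C K)) := by
    intro halg
    have h1 : q.v (red w (xK C K)) = 1 := by
      have hne : red w (xK C K) ≠ 0 := red_ne_zero w ht
      obtain ⟨c, hc⟩ : ∃ c : Ct C, algebraMap (Ct C) (kap w) c = red w (xK C K) := by
        have hint : IsIntegral (Ct C) (red w (xK C K)) := halg.isIntegral
        have := IsAlgClosed.degree_eq_one_of_irreducible (Ct C) (minpoly.irreducible hint)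
        exact minpoly.mem_range_of_degree_eq_one (Ct C) _ this
      rw [← hc]
      refine q.const c ?_
      rintro rfl
      rw [map_zero] at hc
      exact hne hc.symm
    rw [h1, ← exp_zero, exp_inj] at hq
    omega
  have hsep := ratAlg_isSeparable_of_unif q hq htr
  have hfin := @ratAlg_finite (Ct C) _ (kap w) _ _ _ _ _ (red w (xK C K)) htr
  -- separable equations
  have hsep' : ∀ y, o.w i y = 1 → ∃ P : (RatFunc C)[X],
      (∀ n, ‖algebraMap (RatFunc C) E' (P.coeff n)‖₊ ≤ 1) ∧
      o.w i (aeval y P) < 1 ∧ o.w i (aeval y (derivative P)) = 1 := by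
    intro y hy
    rw [← hi] at hy
    have hint : @IsIntegral (RatFunc (Ct C)) (kap w) _ _ (ratAlg (red w (xK C K)) htr) (red w y) :=
      @Algebra.IsIntegral.isIntegral _ _ _ _ (ratAlg (red w (xK C K)) htr)
        (@Algebra.IsIntegral.of_finite _ _ _ _ (ratAlg (red w (xK C K)) htr) hfin) _
    have hs : @IsSeparable (RatFunc (Ct C)) (kap w) _ _ (ratAlg (red w (xK C K)) htr) (red w y) :=
      @Algebra.IsSeparable.isSeparable _ _ _ _ (ratAlg (red w (xK C K)) htr) hsep _
    obtain ⟨P, hP1, hP2, hP3⟩ := lift_sep w (φ := IsScalarTower.toAlgHom C (RatFunc C) K) ht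
      (φ' := ratHom (red w (xK C K)) htr) (ratHom_X _ _) (y := y) hy.le
      (p := @minpoly (RatFunc (Ct C)) (kap w) _ _ (ratAlg (red w (xK C K)) htr) (red w y))
      (@minpoly.aeval _ _ _ _ (ratAlg (red w (xK C K)) htr) (red w y))
      (@Polynomial.Separable.aeval_derivative_ne_zero _ _ _ _ _ (ratAlg (red w (xK C K)) htr) _ hs _
        (@minpoly.aeval _ _ _ _ (ratAlg (red w (xK C K)) htr) (red w y)))
    refine ⟨P, fun n => ?_, ?_, ?_⟩
    · rw [← hnorm]; exact hP1 n
    · rw [← hi]; exact hP2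
    · rw [← hi]; exact hP3
  obtain ⟨z, h1, h2, h3, h4, h5, h6⟩ := o.chart_out i hd hsep'
  refine ⟨z, ?_⟩
  constructor
  · exact hE1
  · exact hE2
  · exact fun f hf => end_res w q f hf
  · exact h5
  · intro n
    show w.v _ ≤ 1
    rw [hnorm]; exact h1 n
  · show w.v _ = 1
    rw [hi]; exact h2
  · show w.v _ = 1
    rw [hi]; exact h3
  · intro y hy
    have hy' : o.w i y ≤ 1 := by rw [← hi]; exact hy
    obtain ⟨Q, hQ1, hQ2⟩ := h6 y hy'
    refine ⟨Q, fun n => ?_, ?_⟩
    · show w.v _ ≤ 1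
      rw [hnorm]; exact hQ1 n
    · show w.v _ < 1
      rw [hi]; exact hQ2
  · intro v hv hvz
    have hv' : ∀ f, v (algebraMap (RatFunc C) K f) = ‖algebraMap (RatFunc C) E' f‖₊ := by
      intro f
      rw [hv, ← hnorm]
      rfl
    obtain ⟨j, hj⟩ := o.complete v hv'
    show v = w.v
    by_cases hij : j = i
    · rw [hj, hi, hij]
    · have := h4 j hij
      rw [← hj, hvz] at this
      exact absurd this (lt_irrefl 1)

end ChartOut

end Crest.Agent.R013.EE809
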