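import Crest.Agent.R013.End3_809

/-!
# Row 13, leaf SS-END (helper809): the good annulus at the end `X = 0` of the Gauss norm
-/

set_option autoImplicit false
set_option linter.unusedSectionVars false
open Filter Topology
open scoped NNReal
open WithZero
open Crest.Agent.R013.Cell_408 (FinDef DiscNorm exists_max BD)
open Crest.Agent.R013.Red332 hiding od od_C od_mul od_inv od_pow od_one red_sum red_aeval
open Crest.Agent.R013.RR7_948 Crest.Agent.R013.RR8_948
open Crest.Agent.R013.CAn_243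

namespace Crest.Agent.R013.EE809

open Polynomial Module

section rad

variable {k : Type*} [NontriviallyNormedField k] [CompleteSpace k] [IsUltrametricDist k]
variable {C : Type*} [NormedField C] [IsUltrametricDist C] [NormedAlgebra k C]
variable [Algebra.IsAlgebraic k C] [IsAlgClosed C] [hk : Fact (DiscNorm k)]

/-- dominance of the monomial `T ^ m` at the radii close to one -/
theorem eventually_wa {f : EE k C} {m : ℕ} (h : WE f m) (hf : f ∈ Ep k C) :
    ∀ᶠ ρ in 𝓝[<] (1 : ℝ), ∀ n : ℤ, ‖f.co n‖ * ρ ^ n ≤ ρ ^ m := by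
  set a : EE k C := T (1 - (m : ℤ)) * f with ha
  have hco : ∀ n, a.co n = f.co (n - (1 - (m : ℤ))) := fun n => by rw [ha, co_T_mul]
  have haE : a ∈ Ep k C := mul_mem (T_mem_Ep _) hf
  have hG : Ge (endE k C) 1 a := by
    rw [ge_iff]
    refine ⟨fun n => ?_, fun n hn => ?_⟩
    · rw [hco]; exact h.le _
    · rw [hco]; exact h.lt _ (by omega)
  obtain ⟨θ, h1, h2, h3⟩ := eventually_bdd_max haE hG
  have e2 : ∀ᶠ ρ in 𝓝[<] (1 : ℝ), ρ ∈ Set.Ioo (0 : ℝ) 1 := Ioo_mem_nhdsLT one_pos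
  have e3 : ∀ᶠ ρ in 𝓝[<] (1 : ℝ), ρ ∈ Set.Ioo θ 1 := Ioo_mem_nhdsLT h2
  filter_upwards [h3, e2, e3] with ρ h4 h5 h6 n
  have h7 := h4 (n + (1 - (m : ℤ)))
  rw [hco, add_sub_cancel_right, max_eq_left h6.1.le, zpow_add₀ h5.1.ne',
    zpow_sub₀ h5.1.ne', zpow_one, zpow_natCast] at h7
  have h8 : 0 < ρ ^ m := pow_pos h5.1 m
  have h9 : ‖f.co n‖ * (ρ ^ n * (ρ / ρ ^ m)) = ‖f.co n‖ * ρ ^ n * ρ / ρ ^ m := by
    field_simp
  rw [h9, div_le_iff₀ h8, mul_comm ρ (ρ ^ m)] at h7
  exact le_of_mul_le_mul_right h7 h5.1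

theorem eventually_AN {a : EE k C} (ha : a ∈ Ep k C) : ∀ᶠ ρ in 𝓝[<] (1 : ℝ), ∃ M : ℝ, Bdd ρ M a := by
  filter_upwards [eventually_bdd ha (lt_add_one (gn a))] with ρ h
  exact ⟨_, h⟩

theorem tendsto_pow_lt {n : ℕ} (hn : n ≠ 0) :
    Tendsto (fun r : ℝ => r ^ n) (𝓝[<] (1 : ℝ)) (𝓝[<] (1 : ℝ)) := by
  rw [tendsto_nhdsWithin_iff]
  constructor
  · have h : Tendsto (fun r : ℝ => r ^ n) (𝓝 (1 : ℝ)) (𝓝 ((1 : ℝ) ^ n)) :=
      (continuous_pow n).tendsto 1
    rw [one_pow] at h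
    exact h.mono_left nhdsWithin_le_nhds
  · have e2 : ∀ᶠ ρ in 𝓝[<] (1 : ℝ), ρ ∈ Set.Ioo (0 : ℝ) 1 := Ioo_mem_nhdsLT one_pos
    filter_upwards [e2] with ρ h
    exact pow_lt_one₀ h.1.le h.2 hn

theorem exists_norm_near (k : Type*) [NontriviallyNormedField k] {C : Type*} [NormedField C]
    [NormedAlgebra k C] [IsAlgClosed C] {P : ℝ → Prop} (h : ∀ᶠ ρ in 𝓝[<] (1 : ℝ), P ρ) :
    ∃ d : C, d ≠ 0 ∧ ‖d‖ < 1 ∧ P ‖d‖ := by
  obtain ⟨ρ0, h0, h1⟩ := (mem_nhdsLT_iff_exists_Ioo_subset (a := (1 : ℝ))).1 h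
  have h0' : ρ0 < 1 := h0
  obtain ⟨x, hx0, hx1⟩ := NormedField.exists_norm_lt_one k
  obtain ⟨n, hn⟩ := exists_pow_lt_of_lt_one (y := max ρ0 (1 / 2)) hx0 (max_lt h0' (by norm_num))
  have hn0 : n ≠ 0 := by
    rintro rfl
    rw [pow_zero] at hn
    linarith
  obtain ⟨d, hd⟩ := IsAlgClosed.exists_pow_nat_eq (algebraMap k C x) (Nat.pos_of_ne_zero hn0)
  have hd' : ‖d‖ ^ n = ‖x‖ := by rw [← norm_pow, hd, norm_algebraMap']
  have h2 : max ρ0 (1 / 2) < ‖d‖ := by
    by_contra hcon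
    have := pow_le_pow_left₀ (norm_nonneg d) (not_lt.1 hcon) n
    linarith
  have h3 : ‖d‖ < 1 := by
    by_contra hcon
    have := one_le_pow₀ (not_lt.1 hcon) (n := n)
    linarith
  refine ⟨d, ?_, h3, h1 ⟨(le_max_left _ _).trans_lt h2, h3⟩⟩
  rintro rfl
  rw [norm_zero] at h2
  have := le_max_right ρ0 (1 / 2 : ℝ)
  linarith

variable {K : Type*} [Field K] [Algebra C K] [Algebra (RatFunc C) K] [IsScalarTower C (RatFunc C) K]

theorem mem_of_basis (L : IntermediateField C (EE k C)) (φ : K →ₐ[C] EE k C)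
    (hx : φ (xK C K) ∈ L) {ι : Type*} [Fintype ι] (b : Basis ι (RatFunc C) K)
    (hb : ∀ i, φ (b i) ∈ L) (a : K) : φ a ∈ L := by
  have h1 : ∀ r : RatFunc C, φ (algebraMap (RatFunc C) K r) ∈ L := by
    intro r
    have h2 : ∀ p : C[X], φ (algebraMap (RatFunc C) K (algebraMap C[X] (RatFunc C) p)) ∈ L := by
      intro p
      have h3 := hom_poly (φ.comp (IsScalarTower.toAlgHom C (RatFunc C) K)) p
      have h4 : φ (algebraMap (RatFunc C) K (algebraMap C[X] (RatFunc C) p)) =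
          aeval (φ (xK C K)) p := h3
      rw [h4, aeval_eq_sum_range]
      exact sum_mem fun i _ => by
        rw [Algebra.smul_def]
        exact mul_mem (L.algebraMap_mem _) (pow_mem hx i)
    rw [← RatFunc.num_div_denom r, map_div₀, map_div₀]
    exact div_mem (h2 _) (h2 _)
  rw [← b.sum_repr a, map_sum]
  refine sum_mem fun i _ => ?_
  rw [Algebra.smul_def, map_mul]
  exact mul_mem (h1 _) (hb i)

theorem gen_X : Gen C (RatFunc.X : RatFunc C) := by
  intro f
  have h : ∀ p : C[X], aeval (RatFunc.X : RatFunc C) p = algebraMap C[X] (RatFunc C) p := by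
    intro p
    have h3 := hom_poly (AlgHom.id C (RatFunc C)) p
    exact h3.symm
  refine ⟨f.num, f.denom, ?_, ?_⟩
  · rw [h, Ne, FaithfulSMul.algebraMap_eq_zero_iff]
    exact f.denom_ne_zero
  · rw [h, h, RatFunc.num_div_denom]

end rad

section unit

universe u

variable (k : Type*) [NontriviallyNormedField k] [CompleteSpace k] [IsUltrametricDist k]
variable {C : Type u} [NormedField C] [IsUltrametricDist C] [NormedAlgebra k C]
variable [Algebra.IsAlgebraic k C] [IsAlgClosed C] [hk : Fact (DiscNorm k)]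

open Crest.Agent.R013.Good_408 in
/-- **the good annulus** at the end `X = 0` of the Gauss norm -/
theorem exists_ann_unit [CharZero C] (p : ℕ) [Fact p.Prime] (hp : ‖(p : C)‖ < 1)
    (K : Type u) [Field K] [Algebra C K] [Algebra (RatFunc C) K] [IsScalarTower C (RatFunc C) K]
    [FiniteDimensional (RatFunc C) K] :
    ∃ c : C, c ≠ 0 ∧ ‖c‖ < 1 ∧ GoodA k C K c (T 1) := by
  classical
  obtain ⟨E', j1, j2, j3, j4, hd, hE, I, j5, ⟨o⟩⟩ := exists_out k p hp K
  obtain ⟨S⟩ := SAt.ofOut o (endX k C).nm (fun f => (hE f).symm)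
  have hX := endX_X (C := C) k
  have hX' := endX_X' (C := C) k
  obtain ⟨T0, e, h1, h2, h3⟩ := S.exists_ends (endX k C) gen_X hX hX'
  have htr : ∀ c : C, 1 ≤ (endX k C).nm (RatFunc.X - algebraMap C (RatFunc C) c) := fun c => by
    rw [((endX k C).lin_val hX (by rw [hX']; exact one_pos) c).1]
    exact le_max_left _ _
  have hff : ∀ s : T0, FF s.1.1 := fun s => S.ff gen_X hX htr s.1.1 (fun f => (h1 s.1 s.2).nm f)
  -- the index type
  let en0 : Fin T0.card ≃ T0 := T0.equivFin.symm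
  have hff' : ∀ j, FF (en0 j).1.1 := fun j => hff (en0 j)
  choose ψ hψE hψn hψo using fun j : Fin T0.card =>
    exists_emb_end k p hp (K := K) (en0 j).1.1 (hff' j) (en0 j).1.2
  let m : Fin T0.card → ℕ := fun j => e (en0 j).1
  have hov : ∀ j, Over (endX k C) (ofPl (en0 j).1.1 (en0 j).1.2) (m j) := fun j => h1 _ (en0 j).2
  have hm : ∀ j, m j ≠ 0 := fun j => Nat.one_le_iff_ne_zero.1 (hov j).pos
  let f : Fin T0.card → EE k C := fun j => ψ j (xK C K)
  have hx1 : ∀ j, (en0 j).1.1.v (xK C K) = 1 := fun j => by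
    have := (hov j).nm RatFunc.X
    rw [hX] at this
    exact this
  have hx0 : xK C K ≠ 0 := by
    intro h0
    have h1 : (RatFunc.X : RatFunc C) = 0 :=
      (algebraMap (RatFunc C) K).injective (by rw [map_zero]; exact h0)
    exact RatFunc.X_ne_zero h1
  have hwe : ∀ j, WE (f j) (m j) := by
    intro j
    refine WE.of (gv_eq_one.1 ((hψn j _).trans (hx1 j))) ?_
    rw [hψo j _ hx0]
    have := (hov j).od RatFunc.X RatFunc.X_ne_zero
    rw [hX', mul_one] at this
    exact this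
  -- the family
  let W : Finset (Nm C K) := T0.image Sigma.fst
  let w : W → Nm C K := fun i => i.1
  let en : Fin T0.card → Σ i : W, Pl (Ct C) (kap (w i)) := fun j =>
    ⟨⟨(en0 j).1.1, Finset.mem_image_of_mem _ (en0 j).2⟩, (en0 j).1.2⟩
  have hen : Function.Injective en := by
    intro j j' h
    apply en0.injective
    apply Subtype.ext
    have h4 := congrArg (fun t : (Σ i : W, Pl (Ct C) (kap (w i))) =>
      (⟨t.1.1, t.2⟩ : Red332.End C K)) h
    exact h4
  obtain ⟨d0, hd0, hd1, -⟩ := exists_norm_near k (C := C) (P := fun _ => True)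
    (Filter.Eventually.of_forall fun _ => trivial)
  have happ := approx_of_inj w (fun i j h => Subtype.ext h)
    ⟨d0, by rwa [Ne, nnnorm_eq_zero], fun h => by
      have := congrArg NNReal.toReal h
      rw [coe_nnnorm, NNReal.coe_one] at this
      linarith⟩
  obtain ⟨z, z1, z2, z3⟩ := exists_family w (fun i => by
    obtain ⟨s, hs, hs'⟩ := Finset.mem_image.1 i.2
    have h5 : FF s.1 := hff ⟨s, hs⟩
    have h6 : FF (w i) := by
      show FF i.1
      rw [← hs']; exact h5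
    exact h6) happ m en hen
  have zz1 : ∀ q : (Σ j, Fin (m j)), gn (ψ q.1 (z q)) = 1 := fun q =>
    gv_eq_one.1 ((hψn _ _).trans (z1 q))
  have hz0 : ∀ q j, (en0 j).1.1.v (z q) = 1 → z q ≠ 0 := by
    intro q j h h0
    rw [h0, map_zero] at h
    exact zero_ne_one h
  have zz2 : ∀ q : (Σ j, Fin (m j)), od (ψ q.1 (z q)) = ((q.2 : ℕ) : ℤ) := fun q =>
    (hψo _ _ (hz0 q q.1 (z1 q))).trans (z2 q)
  have zz3 : ∀ (q : (Σ j, Fin (m j))) (j : Fin T0.card), j ≠ q.1 → gn (ψ j (z q)) < 1 ∨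
      (gn (ψ j (z q)) = 1 ∧ (m j : ℤ) ≤ od (ψ j (z q))) := by
    intro q j hj
    rcases z3 q j hj with h | h
    · left
      rw [← gv_lt_one, hψn]
      exact h
    · right
      refine ⟨gv_eq_one.1 ((hψn _ _).trans h.1), ?_⟩
      rw [hψo _ _ (hz0 q j h.1)]
      exact h.2
  -- the degree
  have hy : Transcendental C (T 1 : EE k C) := transc_T
  have hxio : ∀ j, ψ j (algebraMap (RatFunc C) K RatFunc.X) = compE (f j) (hwe j) (hm j) (T 1) := by
    intro j
    rw [compE_T_one]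
    rfl
  have hInj := inj_ends (K := K) (Fin T0.card) m f hwe hm ψ z zz1 zz2 zz3
  have hli : LinearIndependent (RatFunc C) z := by
    rw [Fintype.linearIndependent_iff]
    intro r hr
    have h4 := hInj (fun q => Good_408.ratHom (T 1) hy (r q)) (fun j => by
      change ∑ q, compE (f j) (hwe j) (hm j) (Good_408.ratHom (T 1) hy (r q)) * ψ j (z q) = 0
      have h5 := congrArg (ψ j) hr
      rw [map_zero, map_sum] at h5
      rw [← h5]
      refine Finset.sum_congr rfl fun q _ => ?_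
      rw [commE hy hxio, Algebra.smul_def, map_mul])
    intro q
    exact (map_eq_zero (Good_408.ratHom (T 1) hy)).1 (congrFun h4 q)
  have hsum : ∑ j, m j = finrank (RatFunc C) K := by
    apply le_antisymm
    · have h5 := hli.fintype_card_le_finrank
      rw [Fintype.card_sigma] at h5
      simpa using h5
    · refine h3.trans (le_of_eq ?_)
      rw [← Finset.sum_coe_sort T0 e]
      exact (en0.sum_comp (fun s : T0 => e s.1)).symm
  -- the radii
  let b := Module.finBasis (RatFunc C) K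
  let N : ℕ := ∏ j, m j
  have hN : N ≠ 0 := Finset.prod_ne_zero_iff.2 fun j _ => hm j
  let n : Fin T0.card → ℕ := fun j => N / m j
  have hmn : ∀ j, m j * n j = N := fun j => Nat.mul_div_cancel' (Finset.dvd_prod_of_mem m (Finset.mem_univ j))
  have hn : ∀ j, n j ≠ 0 := by
    intro j h0
    have := hmn j
    rw [h0, mul_zero] at this
    exact hN this.symm
  have hev : ∀ᶠ r in 𝓝[<] (1 : ℝ), ∀ j, (∀ i : ℤ, ‖(f j).co i‖ * (r ^ n j) ^ i ≤ (r ^ n j) ^ m j) ∧
      (∃ M : ℝ, Bdd (r ^ n j) M (f j)) ∧ ∀ i, ∃ M : ℝ, Bdd (r ^ n j) M (ψ j (b i)) := by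
    rw [Filter.eventually_all]
    intro j
    have e1 := (tendsto_pow_lt (hn j)).eventually (eventually_wa (hwe j) (hψE j _))
    have e2 := (tendsto_pow_lt (hn j)).eventually (eventually_AN (hψE j (xK C K)))
    have e3 := (tendsto_pow_lt (hn j)).eventually (Filter.eventually_all.2 fun i =>
      eventually_AN (hψE j (b i)))
    filter_upwards [e1, e2, e3] with r a1 a2 a3
    exact ⟨a1, a2, a3⟩
  obtain ⟨d, hd0, hd1, hd2⟩ := exists_norm_near k (C := C) hev
  have hcn : ‖d ^ N‖ < 1 := by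
    rw [norm_pow]
    exact pow_lt_one₀ (norm_nonneg _) hd1 hN
  refine ⟨d ^ N, pow_ne_zero _ hd0, hcn, ?_⟩
  refine GoodA.mk_res (pow_ne_zero _ hd0) hcn (T 1) hy (AN_le_FA _ (T_mem_AN _ 1)) (Fin T0.card) m hm
    (fun j => d ^ n j) (fun j => ?_) f hwe (fun j i => ?_) ψ (fun j a => ?_) hxio hsum z zz1 zz2 zz3
  · rw [norm_pow, norm_pow, ← pow_mul, mul_comm, hmn]
  · rw [norm_pow]
    exact (hd2 j).1 i
  · refine mem_of_basis (FA k (d ^ n j)) (ψ j) (AN_le_FA _ ?_) b (fun i => AN_le_FA _ ?_) a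
    · obtain ⟨M, hM⟩ := (hd2 j).2.1
      exact ⟨M, by rw [norm_pow]; exact hM⟩
    · obtain ⟨M, hM⟩ := (hd2 j).2.2 i
      exact ⟨M, by rw [norm_pow]; exact hM⟩

end unit

end Crest.Agent.R013.EE809
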