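/-
Row 13 (helper48): F. K. Schmidt's theorem for group actions.

A group `H` acts with finite orbits on an algebraically closed field `Ω` and preserves two
inequivalent non-trivial rank one valuations. Then `H` acts trivially. (Equivalently: a field which is
henselian for two inequivalent rank one valuations is separably closed.)
-/
import Mathlib

set_option autoImplicit false

open Polynomial Filter Topology
open scoped NNReal

namespace Crest.Agent.R013.FKS_48

section approx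

variable {F : Type*} [Field F]

/-- inequivalent rank one valuations: an element small for the first and at least one for the second -/
theorem exists_lt_one_le (w₁ w₂ : Valuation F ℝ≥0) (nt₁ : ∃ a, a ≠ 0 ∧ w₁ a ≠ 1)
    (hne : ¬ w₁.IsEquiv w₂) : ∃ a, a ≠ 0 ∧ w₁ a < 1 ∧ 1 ≤ w₂ a := by
  by_contra hcon
  push Not at hcon
  apply hne
  -- `w₁ a < 1 → w₂ a < 1`
  have h1 : ∀ a, a ≠ 0 → w₁ a < 1 → w₂ a < 1 := hcon
  -- an element with `w₁ b < 1`
  obtain ⟨b, hb0, hb⟩ : ∃ b, b ≠ 0 ∧ w₁ b < 1 := by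
    obtain ⟨a, ha0, ha⟩ := nt₁
    rcases lt_or_gt_of_ne ha with h | h
    · exact ⟨a, ha0, h⟩
    · refine ⟨a⁻¹, inv_ne_zero ha0, ?_⟩
      rw [map_inv₀]
      exact inv_lt_one_of_one_lt₀ h
  have hb2 := h1 b hb0 hb
  have hwb1 : 0 < w₁ b := by
    rw [pos_iff_ne_zero]
    exact (Valuation.ne_zero_iff _).2 hb0
  have hwb2 : 0 < w₂ b := by
    rw [pos_iff_ne_zero]
    exact (Valuation.ne_zero_iff _).2 hb0
  rw [Valuation.isEquiv_iff_val_lt_one]
  intro x
  rcases eq_or_ne x 0 with rfl | hx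
  · simp
  refine ⟨h1 x hx, fun h => ?_⟩
  by_contra h3
  push Not at h3
  -- `w₁ x ≥ 1`, `w₂ x < 1`: `x⁻¹` has `w₁ ≤ 1`; consider `b * x⁻ⁿ`
  have hwx2 : 0 < w₂ x := by
    rw [pos_iff_ne_zero]
    exact (Valuation.ne_zero_iff _).2 hx
  obtain ⟨n, hn⟩ : ∃ n : ℕ, (w₂ x) ^ n < w₂ b := exists_pow_lt_of_lt_one hwb2 h
  have h4 : w₁ (b * (x⁻¹) ^ n) < 1 := by
    rw [map_mul, map_pow, map_inv₀]
    calc w₁ b * (w₁ x)⁻¹ ^ n ≤ w₁ b * 1 := by
          gcongr
          exact pow_le_one₀ (by positivity) (inv_le_one_of_one_le₀ h3)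
      _ < 1 := by rwa [mul_one]
  have h5 := h1 _ (mul_ne_zero hb0 (pow_ne_zero _ (inv_ne_zero hx))) h4
  rw [map_mul, map_pow, map_inv₀, inv_pow] at h5
  rw [← div_eq_mul_inv, div_lt_one (by positivity)] at h5
  exact absurd h5 (not_lt.2 hn.le)

end approx

section action

variable {Ω : Type*} [Field Ω] {H : Type*} [Group H] [MulSemiringAction H Ω]

/-- invariant version of `exists_lt_one_le` -/
theorem exists_fixed_lt_one_le (hfin : ∀ a : Ω, (MulAction.orbit H a).Finite)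
    (w₁ w₂ : Valuation Ω ℝ≥0) (h₁ : ∀ (σ : H) a, w₁ (σ • a) = w₁ a)
    (h₂ : ∀ (σ : H) a, w₂ (σ • a) = w₂ a) (nt₁ : ∃ a, a ≠ 0 ∧ w₁ a ≠ 1)
    (hne : ¬ w₁.IsEquiv w₂) : ∃ a, a ≠ 0 ∧ (∀ σ : H, σ • a = a) ∧ w₁ a < 1 ∧ 1 ≤ w₂ a := by
  obtain ⟨a, ha0, ha1, ha2⟩ := exists_lt_one_le w₁ w₂ nt₁ hne
  have hn : ∀ b ∈ (hfin a).toFinset, b ≠ 0 ∧ w₁ b = w₁ a ∧ w₂ b = w₂ a := by
    intro b hb
    rw [Set.Finite.mem_toFinset] at hb
    obtain ⟨σ, rfl⟩ := hb
    exact ⟨by
      intro h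
      apply ha0
      have := congrArg (fun z => σ⁻¹ • z) h
      simpa using this, h₁ σ a, h₂ σ a⟩
  have hcard : (hfin a).toFinset.card ≠ 0 := by
    rw [Finset.card_ne_zero]
    exact ⟨a, by
      rw [Set.Finite.mem_toFinset]
      exact MulAction.mem_orbit_self a⟩
  refine ⟨∏ b ∈ (hfin a).toFinset, b, Finset.prod_ne_zero_iff.2 fun b hb => (hn b hb).1, ?_, ?_, ?_⟩
  · intro σ
    rw [Finset.smul_prod']
    refine Finset.prod_nbij (fun b => σ • b) ?_ ?_ ?_ ?_
    · intro b hb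
      rw [Set.Finite.mem_toFinset] at hb ⊢
      exact (MulAction.mem_orbit_iff.2 (by
        obtain ⟨τ, rfl⟩ := hb
        exact ⟨σ * τ, mul_smul σ τ a⟩))
    · intro b _ c _ h
      exact MulAction.injective σ h
    · intro b hb
      rw [Finset.mem_coe, Set.Finite.mem_toFinset] at hb
      obtain ⟨τ, rfl⟩ := hb
      refine ⟨σ⁻¹ • τ • a, ?_, by simp⟩
      rw [Finset.mem_coe, Set.Finite.mem_toFinset]
      exact ⟨σ⁻¹ * τ, mul_smul _ _ _⟩
    · intro b _
      rfl
  · rw [map_prod, Finset.prod_congr rfl fun b hb => (hn b hb).2.1, Finset.prod_const]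
    exact pow_lt_one₀ (by positivity) ha1 hcard
  · rw [map_prod, Finset.prod_congr rfl fun b hb => (hn b hb).2.2, Finset.prod_const]
    exact one_le_pow₀ ha2

/-- the approximation idempotents -/
theorem exists_idem (hfin : ∀ a : Ω, (MulAction.orbit H a).Finite)
    (w₁ w₂ : Valuation Ω ℝ≥0) (h₁ : ∀ (σ : H) a, w₁ (σ • a) = w₁ a)
    (h₂ : ∀ (σ : H) a, w₂ (σ • a) = w₂ a) (nt₁ : ∃ a, a ≠ 0 ∧ w₁ a ≠ 1)
    (nt₂ : ∃ a, a ≠ 0 ∧ w₂ a ≠ 1) (hne : ¬ w₁.IsEquiv w₂) (ε : ℝ≥0) (hε : 0 < ε) :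
    ∃ e : Ω, (∀ σ : H, σ • e = e) ∧ w₁ e < ε ∧ w₂ (1 - e) < ε := by
  obtain ⟨a, ha0, haf, ha1, ha2⟩ := exists_fixed_lt_one_le hfin w₁ w₂ h₁ h₂ nt₁ hne
  obtain ⟨b, hb0, hbf, hb2, hb1⟩ := exists_fixed_lt_one_le hfin w₂ w₁ h₂ h₁ nt₂
    (fun h => hne h.symm)
  have hwb1 : 0 < w₁ b := lt_of_lt_of_le one_pos hb1
  have hwb2 : 0 < w₂ b := by
    rw [pos_iff_ne_zero]
    exact (Valuation.ne_zero_iff _).2 hb0
  have hwa1 : 0 < w₁ a := by
    rw [pos_iff_ne_zero]
    exact (Valuation.ne_zero_iff _).2 ha0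
  set c : Ω := a / b with hc
  have hcf : ∀ σ : H, σ • c = c := by
    intro σ
    rw [hc, div_eq_mul_inv, smul_mul', haf, smul_inv'', hbf]
  have hc1 : w₁ c < 1 := by
    rw [hc, map_div₀, div_lt_one hwb1]
    exact lt_of_lt_of_le ha1 hb1
  have hc2 : 1 < w₂ c := by
    rw [hc, map_div₀, one_lt_div hwb2]
    exact lt_of_lt_of_le hb2 ha2
  obtain ⟨n, hn⟩ : ∃ n : ℕ, (w₁ c) ^ n < ε := exists_pow_lt_of_lt_one hε hc1
  obtain ⟨m, hm⟩ : ∃ m : ℕ, (w₂ c)⁻¹ ^ m < ε :=
    exists_pow_lt_of_lt_one hε (inv_lt_one_of_one_lt₀ hc2)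
  set N := n + m + 1 with hN
  have hc1N : w₁ (c ^ N) < ε := by
    rw [map_pow]
    refine lt_of_le_of_lt ?_ hn
    exact pow_le_pow_of_le_one (by positivity) hc1.le (by omega)
  have hc1N' : w₁ (c ^ N) < 1 := by
    rw [map_pow]
    exact pow_lt_one₀ (by positivity) hc1 (by omega)
  have hc2N : 1 < w₂ (c ^ N) := by
    rw [map_pow]
    exact one_lt_pow₀ hc2 (by omega)
  have hd1 : w₁ (1 + c ^ N) = 1 := by
    rw [Valuation.map_add_eq_of_lt_left _ (by rwa [map_one]), map_one]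
  have hd2 : w₂ (1 + c ^ N) = w₂ (c ^ N) := by
    rw [Valuation.map_add_eq_of_lt_right _ (by rwa [map_one])]
  have hd0 : 1 + c ^ N ≠ 0 := by
    intro h
    rw [h, map_zero] at hd1
    exact zero_ne_one hd1
  refine ⟨c ^ N / (1 + c ^ N), ?_, ?_, ?_⟩
  · intro σ
    rw [div_eq_mul_inv, smul_mul', smul_inv'', smul_add, smul_one, smul_pow', hcf]
  · rw [map_div₀, hd1, div_one]
    exact hc1N
  · have h1 : 1 - c ^ N / (1 + c ^ N) = (1 + c ^ N)⁻¹ := by
      field_simp
      ring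
    rw [h1, map_inv₀, hd2, map_pow, ← inv_pow]
    refine lt_of_le_of_lt ?_ hm
    exact pow_le_pow_of_le_one (by positivity) (inv_le_one_of_one_le₀ hc2.le) (by omega)

theorem smul_prod_orbit {a : Ω} (hO : (MulAction.orbit H a).Finite) (σ : H) (z : Ω) :
    ∏ b ∈ hO.toFinset, (σ • z - b) = σ • ∏ b ∈ hO.toFinset, (z - b) := by
  rw [Finset.smul_prod']
  symm
  refine Finset.prod_nbij (fun b => σ • b) ?_ ?_ ?_ ?_
  · intro b hb
    rw [Set.Finite.mem_toFinset] at hb ⊢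
    obtain ⟨τ, rfl⟩ := hb
    exact ⟨σ * τ, mul_smul σ τ a⟩
  · intro b _ c _ h
    exact MulAction.injective σ h
  · intro b hb
    rw [Finset.mem_coe, Set.Finite.mem_toFinset] at hb
    obtain ⟨τ, rfl⟩ := hb
    refine ⟨σ⁻¹ • τ • a, ?_, by simp⟩
    rw [Finset.mem_coe, Set.Finite.mem_toFinset]
    exact ⟨σ⁻¹ * τ, mul_smul _ _ _⟩
  · intro b _
    rw [smul_sub]

/-- a lower bound for the distances in a finite set -/
theorem exists_sep (w : Valuation Ω ℝ≥0) (A : Finset Ω) :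
    ∃ ρ : ℝ≥0, 0 < ρ ∧ ∀ b ∈ A, ∀ c ∈ A, w (b - c) < ρ → b = c := by
  classical
  set P := ((A ×ˢ A).filter fun q => q.1 ≠ q.2).image fun q => w (q.1 - q.2) with hP
  by_cases hne : P.Nonempty
  · refine ⟨P.min' hne, ?_, ?_⟩
    · have h0 : ∀ t ∈ P, 0 < t := by
        intro t ht
        rw [hP, Finset.mem_image] at ht
        obtain ⟨q, hq, h2⟩ := ht
        rw [← h2, pos_iff_ne_zero]
        rw [Finset.mem_filter] at hq
        exact (Valuation.ne_zero_iff _).2 (sub_ne_zero.2 hq.2)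
      exact h0 _ (Finset.min'_mem P hne)
    · intro b hb c hc h
      by_contra hbc
      refine absurd (Finset.min'_le P (w (b - c)) ?_) (not_le.2 h)
      rw [hP, Finset.mem_image]
      exact ⟨(b, c), Finset.mem_filter.2 ⟨Finset.mem_product.2 ⟨hb, hc⟩, hbc⟩, rfl⟩
  · refine ⟨1, one_pos, ?_⟩
    intro b hb c hc _
    by_contra hbc
    apply hne
    exact ⟨w (b - c), by
      rw [hP, Finset.mem_image]
      exact ⟨(b, c), Finset.mem_filter.2 ⟨Finset.mem_product.2 ⟨hb, hc⟩, hbc⟩, rfl⟩⟩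

/-- a factor of a small product is small -/
theorem exists_root_near [IsAlgClosed Ω] (w : Valuation Ω ℝ≥0) (g : Polynomial Ω) (hg : g.Monic) (z : Ω)
    {ρ : ℝ≥0} (h : w (g.eval z) < ρ ^ g.natDegree) : ∃ β ∈ g.roots, w (z - β) < ρ := by
  by_contra hcon
  push Not at hcon
  have h1 : g = (g.roots.map fun β => X - C β).prod := by
    have := (IsAlgClosed.splits g).eq_prod_roots
    rw [hg.leadingCoeff, C_1, one_mul] at this
    exact this
  have h2 : g.eval z = (g.roots.map fun β => z - β).prod := by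
    conv_lhs => rw [h1]
    rw [eval_multiset_prod, Multiset.map_map]
    simp
  have h3 : Multiset.card g.roots = g.natDegree := (IsAlgClosed.splits g).natDegree_eq_card_roots.symm
  have h4 : ρ ^ g.natDegree ≤ w (g.eval z) := by
    rw [h2, map_multiset_prod, Multiset.map_map, ← h3]
    have : ∀ s : Multiset Ω, (∀ β ∈ s, ρ ≤ w (z - β)) →
        ρ ^ Multiset.card s ≤ (s.map (⇑w ∘ fun β => z - β)).prod := by
      intro s
      induction s using Multiset.induction_on with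
      | empty => intro _; simp
      | cons b s ih =>
        intro hs
        rw [Multiset.card_cons, Multiset.map_cons, Multiset.prod_cons, pow_succ, mul_comm]
        refine mul_le_mul' (hs b (Multiset.mem_cons_self b s)) (ih fun β hβ => hs β ?_)
        exact Multiset.mem_cons_of_mem hβ
    exact this _ hcon
  exact absurd h (not_lt.2 h4)

/-- **F. K. Schmidt.** -/
theorem fk_schmidt [IsAlgClosed Ω] (hfin : ∀ a : Ω, (MulAction.orbit H a).Finite)
    (w₁ w₂ : Valuation Ω ℝ≥0) (h₁ : ∀ (σ : H) a, w₁ (σ • a) = w₁ a)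
    (h₂ : ∀ (σ : H) a, w₂ (σ • a) = w₂ a) (nt₁ : ∃ a, a ≠ 0 ∧ w₁ a ≠ 1)
    (nt₂ : ∃ a, a ≠ 0 ∧ w₂ a ≠ 1) (hne : ¬ w₁.IsEquiv w₂) (σ : H) (α : Ω) : σ • α = α := by
  classical
  set O := (hfin α).toFinset with hO
  have hαO : α ∈ O := by
    rw [hO, Set.Finite.mem_toFinset]
    exact MulAction.mem_orbit_self α
  set n := O.card with hn
  -- the points `c i`
  obtain ⟨a, ha0, haf, ha1, -⟩ := exists_fixed_lt_one_le hfin w₁ w₂ h₁ h₂ nt₁ hne
  have hwa : 0 < w₁ a := by
    rw [pos_iff_ne_zero]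
    exact (Valuation.ne_zero_iff _).2 ha0
  have hcinj : Function.Injective (fun i : ℕ => a ^ i) := by
    intro i j hij
    have h := congrArg w₁ hij
    simp only [map_pow] at h
    exact pow_right_injective₀ hwa ha1.ne h
  set A : Finset Ω := (Finset.range n).image fun i => a ^ i with hA
  have hAcard : A.card = n := by
    rw [hA, Finset.card_image_of_injective _ hcinj, Finset.card_range]
  have hAf : ∀ c ∈ A, ∀ τ : H, τ • c = c := by
    intro c hc τ
    rw [hA, Finset.mem_image] at hc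
    obtain ⟨i, -, rfl⟩ := hc
    rw [smul_pow', haf]
  obtain ⟨ρ₁, hρ₁, hs₁⟩ := exists_sep w₁ O
  obtain ⟨ρ₂, hρ₂, hs₂⟩ := exists_sep w₂ A
  -- bounds
  set B₁ : ℝ≥0 := w₁ (∏ c ∈ A, (α - c)) + 1 with hB₁
  set B₂ : ℝ≥0 := (∑ c ∈ A, w₂ (∏ b ∈ O, (c - b))) + 1 with hB₂
  have hB₁p : 0 < B₁ := by positivity
  have hB₂p : 0 < B₂ := by positivity
  set ε : ℝ≥0 := min (ρ₁ ^ n / B₁) (ρ₂ ^ n / B₂) with hε
  have hεp : 0 < ε := by
    rw [hε, lt_min_iff]
    exact ⟨by positivity, by positivity⟩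
  obtain ⟨e, hef, he1, he2⟩ := exists_idem hfin w₁ w₂ h₁ h₂ nt₁ nt₂ hne ε hεp
  -- the polynomial
  set f : Polynomial Ω := ∏ b ∈ O, (X - C b) with hf
  set h : Polynomial Ω := ∏ c ∈ A, (X - C c) with hh
  have hfm : f.Monic := monic_prod_of_monic _ _ fun b _ => monic_X_sub_C b
  have hhm : h.Monic := monic_prod_of_monic _ _ fun b _ => monic_X_sub_C b
  have hfd : f.natDegree = n := by
    rw [hf, natDegree_prod_of_monic _ _ fun b _ => monic_X_sub_C b]
    simp [hn]
  have hhd : h.natDegree = n := by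
    rw [hh, natDegree_prod_of_monic _ _ fun b _ => monic_X_sub_C b]
    simp [hAcard]
  set g : Polynomial Ω := f + C e * (h - f) with hg
  have hdeg : (C e * (h - f)).degree < f.degree := by
    have h0 : (C e * (h - f)).degree ≤ (h - f).degree := by
      calc (C e * (h - f)).degree ≤ (C e).degree + (h - f).degree := degree_mul_le _ _
        _ ≤ 0 + (h - f).degree := by
            gcongr
            exact degree_C_le
        _ = (h - f).degree := zero_add _
    refine lt_of_le_of_lt h0 ?_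
    have h3 : h.degree = f.degree := by
      rw [degree_eq_natDegree hhm.ne_zero, degree_eq_natDegree hfm.ne_zero, hfd, hhd]
    rw [← h3]
    exact degree_sub_lt_left h3 hhm.ne_zero (by rw [hfm.leadingCoeff, hhm.leadingCoeff])
  have hgm : g.Monic := hfm.add_of_left hdeg
  have hgd : g.natDegree = n := by
    rw [hg, natDegree_add_eq_left_of_degree_lt hdeg, hfd]
  have hfe : ∀ z, f.eval z = ∏ b ∈ O, (z - b) := fun z => by
    rw [hf, eval_prod]
    simp
  have hhe : ∀ z, h.eval z = ∏ c ∈ A, (z - c) := fun z => by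
    rw [hh, eval_prod]
    simp
  have hge : ∀ z, g.eval z = f.eval z + e * (h.eval z - f.eval z) := fun z => by
    rw [hg]
    simp
  -- invariance
  have hfσ : ∀ (τ : H) z, f.eval (τ • z) = τ • f.eval z := fun τ z => by
    rw [hfe, hfe]
    exact smul_prod_orbit (hfin α) τ z
  have hhσ : ∀ (τ : H) z, h.eval (τ • z) = τ • h.eval z := fun τ z => by
    rw [hhe, hhe, Finset.smul_prod']
    refine Finset.prod_congr rfl fun c hc => ?_
    rw [smul_sub, hAf c hc]
  have hgσ : ∀ (τ : H) z, g.eval (τ • z) = τ • g.eval z := fun τ z => by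
    rw [hge, hge, hfσ, hhσ, smul_add, smul_mul', hef, smul_sub]
  -- a root near α
  have hfα : f.eval α = 0 := by
    rw [hfe]
    exact Finset.prod_eq_zero hαO (sub_self α)
  obtain ⟨β, hβ, hβα⟩ : ∃ β ∈ g.roots, w₁ (α - β) < ρ₁ := by
    apply exists_root_near w₁ g hgm α
    rw [hgd, hge, hfα, zero_add, sub_zero, map_mul, hhe]
    have h3 : w₁ (∏ c ∈ A, (α - c)) < B₁ := by
      rw [hB₁]
      exact lt_add_one _
    calc w₁ e * w₁ (∏ c ∈ A, (α - c)) ≤ ε * w₁ (∏ c ∈ A, (α - c)) := by gcongr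
      _ < ε * B₁ := by gcongr
      _ ≤ ρ₁ ^ n / B₁ * B₁ := by
          gcongr
          exact min_le_left _ _
      _ = ρ₁ ^ n := div_mul_cancel₀ _ hB₁p.ne'
  -- roots near the `c`
  have hnear : ∀ c ∈ A, ∃ β ∈ g.roots, w₂ (c - β) < ρ₂ := by
    intro c hc
    apply exists_root_near w₂ g hgm c
    have hhc : h.eval c = 0 := by
      rw [hhe]
      exact Finset.prod_eq_zero hc (sub_self c)
    have h3 : g.eval c = (1 - e) * f.eval c := by
      rw [hge, hhc]
      ring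
    rw [hgd, h3, map_mul, hfe]
    have h4 : w₂ (∏ b ∈ O, (c - b)) < B₂ := by
      rw [hB₂]
      refine lt_of_le_of_lt ?_ (lt_add_one _)
      exact Finset.single_le_sum (f := fun c => w₂ (∏ b ∈ O, (c - b))) (fun i _ => bot_le) hc
    calc w₂ (1 - e) * w₂ (∏ b ∈ O, (c - b)) ≤ ε * w₂ (∏ b ∈ O, (c - b)) := by gcongr
      _ < ε * B₂ := by gcongr
      _ ≤ ρ₂ ^ n / B₂ * B₂ := by
          gcongr
          exact min_le_right _ _
      _ = ρ₂ ^ n := div_mul_cancel₀ _ hB₂p.ne'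
  choose! r hr1 hr2 using hnear
  have hult : ∀ c ∈ A, ∀ c' ∈ A, ∀ z, w₂ (c - z) < ρ₂ → w₂ (c' - z) < ρ₂ → c = c' := by
    intro c hc c' hc' z h3 h4
    apply hs₂ c hc c' hc'
    have : c - c' = (c - z) - (c' - z) := by ring
    rw [this]
    exact lt_of_le_of_lt (Valuation.map_sub _ _ _) (max_lt h3 h4)
  have hinj : Set.InjOn r A := by
    intro c hc c' hc' hcc
    refine hult c hc c' hc' (r c) (hr2 c hc) ?_
    rw [hcc]
    exact hr2 c' hc'
  have himg : A.image r = g.roots.toFinset := by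
    apply Finset.eq_of_subset_of_card_le
    · intro z hz
      rw [Finset.mem_image] at hz
      obtain ⟨c, hc, rfl⟩ := hz
      rw [Multiset.mem_toFinset]
      exact hr1 c hc
    · rw [Finset.card_image_of_injOn hinj, hAcard]
      calc g.roots.toFinset.card ≤ Multiset.card g.roots := Multiset.toFinset_card_le _
        _ ≤ g.natDegree := card_roots' g
        _ = n := hgd
  -- every root is fixed
  have hfixed : ∀ z ∈ g.roots, ∀ τ : H, τ • z = z := by
    intro z hz τ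
    have hz1 : z ∈ A.image r := by
      rw [himg, Multiset.mem_toFinset]
      exact hz
    have hz2 : τ • z ∈ A.image r := by
      rw [himg, Multiset.mem_toFinset, mem_roots hgm.ne_zero, IsRoot.def, hgσ]
      rw [mem_roots hgm.ne_zero, IsRoot.def] at hz
      rw [hz, smul_zero]
    rw [Finset.mem_image] at hz1 hz2
    obtain ⟨c, hc, hcz⟩ := hz1
    obtain ⟨c', hc', hcz'⟩ := hz2
    have h3 : w₂ (c - τ • z) < ρ₂ := by
      have h5 : c - τ • z = τ • (c - z) := by rw [smul_sub, hAf c hc]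
      rw [h5, h₂, ← hcz]
      exact hr2 c hc
    have h4 : w₂ (c' - τ • z) < ρ₂ := by
      rw [← hcz']
      exact hr2 c' hc'
    have hcc := hult c hc c' hc' (τ • z) h3 h4
    rw [← hcz', ← hcc, hcz]
  have hβf := hfixed β hβ σ
  apply hs₁
  · rw [hO, Set.Finite.mem_toFinset]
    exact ⟨σ, rfl⟩
  · exact hαO
  · have h3 : w₁ (σ • α - β) < ρ₁ := by
      have h5 : σ • α - β = σ • (α - β) := by rw [smul_sub, hβf]
      rw [h5, h₁]
      exact hβα
    have : σ • α - α = (σ • α - β) - (α - β) := by ring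
    rw [this]
    exact lt_of_le_of_lt (Valuation.map_sub _ _ _) (max_lt h3 hβα)

end action

end Crest.Agent.R013.FKS_48
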