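import Mathlib

/-!
# Fixed point lemma for finite `l`-groups acting on towers of graphs (helper406, row 13, part A)

A finite `l`-group acting on a tower of (oriented) graphs whose transition maps kill `H₁(·, 𝔽_l)` and
reduced `H₀(·, 𝔽_l)` fixes a vertex at every level.  Pure chain level argument.
-/

set_option autoImplicit false

noncomputable section

open Finsupp

namespace Crest.Agent.R013.FixL_406

universe u w

/-! ## Permutations of order `l` -/

section perm

variable {l : ℕ} [hl : Fact l.Prime] {X : Type u}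

theorem dvd_of_fix {σ : Equiv.Perm X} (hσ : σ ^ l = 1) {x : X} (hx : σ x ≠ x) {m : ℤ}
    (hm : (σ ^ m) x = x) : (l : ℤ) ∣ m := by
  by_contra h
  have hc : IsCoprime (l : ℤ) m :=
    (Nat.prime_iff_prime_int.mp hl.out).coprime_iff_not_dvd.mpr h
  obtain ⟨a, b, hab⟩ := hc
  apply hx
  have h1 : (σ ^ (b * m)) x = x := by
    rw [mul_comm, zpow_mul]
    exact Function.IsFixedPt.perm_zpow hm b
  have h2 : σ ^ (a * (l : ℤ)) = 1 := by
    rw [mul_comm, zpow_mul, zpow_natCast, hσ, one_zpow]
  calc σ x = (σ ^ (a * (l : ℤ) + b * m)) x := by rw [hab, zpow_one]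
    _ = (σ ^ (a * (l : ℤ))) ((σ ^ (b * m)) x) := by rw [zpow_add, Equiv.Perm.mul_apply]
    _ = x := by rw [h1, h2, Equiv.Perm.one_apply]

/-- an equivariant function to `ℤ/l` on the non-fixed points -/
theorem exists_theta {σ : Equiv.Perm X} (hσ : σ ^ l = 1) :
    ∃ θ : X → ZMod l, ∀ x, σ x ≠ x → θ (σ x) = θ x + 1 := by
  classical
  let S := Equiv.Perm.SameCycle.setoid σ
  let rep : X → X := fun x => (Quotient.mk S x).out
  have hrep : ∀ x, ∃ i : ℤ, (σ ^ i) (rep x) = x := fun x =>
    (Quotient.exact (Quotient.out_eq (Quotient.mk S x)) : S.r (rep x) x)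
  choose i hi using hrep
  refine ⟨fun x => ((i x : ℤ) : ZMod l), fun x hx => ?_⟩
  have hr : rep (σ x) = rep x := by
    have : Quotient.mk S (σ x) = Quotient.mk S x :=
      Quotient.sound (show Equiv.Perm.SameCycle σ (σ x) x from ⟨-1, by simp⟩)
    simp only [rep, this]
  have h1 : (σ ^ (i (σ x))) (rep x) = σ x := by
    have := hi (σ x)
    rwa [hr] at this
  have h2 : (σ ^ (1 + i x)) (rep x) = σ x := by
    rw [zpow_add, Equiv.Perm.mul_apply, hi x, zpow_one]
  have h3 : (σ ^ (i (σ x) - (1 + i x))) (σ x) = σ x := by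
    have : (σ ^ (i (σ x) - (1 + i x))) (σ x) = (σ ^ (i (σ x))) (rep x) := by
      rw [← h2, ← Equiv.Perm.mul_apply, ← zpow_add]
      congr 2
      ring
    rw [this, h1]
  have hx' : σ (σ x) ≠ σ x := fun h => hx (σ.injective h)
  have h4 := dvd_of_fix hσ hx' h3
  have h5 : ((i (σ x) - (1 + i x) : ℤ) : ZMod l) = 0 :=
    (ZMod.intCast_zmod_eq_zero_iff_dvd _ _).mpr h4
  push_cast at h5
  linear_combination h5

theorem theta_pow {σ : Equiv.Perm X} {θ : X → ZMod l}
    (hθ : ∀ x, σ x ≠ x → θ (σ x) = θ x + 1) {x : X} (hx : σ x ≠ x) (n : ℕ) :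
    θ ((σ ^ n) x) = θ x + n ∧ σ ((σ ^ n) x) ≠ (σ ^ n) x := by
  induction n with
  | zero => simpa using hx
  | succ n ih =>
    rw [pow_succ', Equiv.Perm.mul_apply]
    refine ⟨?_, fun h => ih.2 (σ.injective h)⟩
    rw [hθ _ ih.2, ih.1]
    push_cast
    ring

/-- an invariant function vanishing at the fixed points is a norm -/
theorem exists_norm {σ : Equiv.Perm X} (hσ : σ ^ l = 1) (M : X → ZMod l)
    (hM : ∀ x, M (σ x) = M x) (h0 : ∀ x, σ x = x → M x = 0) :
    ∃ L : X → ZMod l, ∀ x, M x = ∑ a : ZMod l, L ((σ ^ a.val) x) := by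
  classical
  obtain ⟨θ, hθ⟩ := exists_theta hσ
  have hM' : ∀ (n : ℕ) (x : X), M ((σ ^ n) x) = M x := by
    intro n x
    induction n with
    | zero => simp
    | succ n ih => rw [pow_succ', Equiv.Perm.mul_apply, hM, ih]
  refine ⟨fun x => if σ x = x then 0 else if θ x = 0 then M x else 0, fun x => ?_⟩
  by_cases hx : σ x = x
  · have : ∀ n : ℕ, (σ ^ n) x = x := by
      intro n
      induction n with
      | zero => simp
      | succ n ih => rw [pow_succ', Equiv.Perm.mul_apply, ih, hx]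
    simp [this, hx, h0 x hx]
  · have : ∀ a : ZMod l, (if σ ((σ ^ a.val) x) = (σ ^ a.val) x then (0 : ZMod l) else
        if θ ((σ ^ a.val) x) = 0 then M ((σ ^ a.val) x) else 0)
        = if a = - θ x then M x else 0 := by
      intro a
      obtain ⟨h1, h2⟩ := theta_pow hθ hx a.val
      rw [if_neg h2, h1, hM', ZMod.natCast_zmod_val]
      refine if_congr ?_ rfl rfl
      constructor
      · intro h; linear_combination h
      · intro h; rw [h]; ring
    simp only [this]
    simp

end perm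

/-! ## Chains -/

section chains

variable {l : ℕ} [hl : Fact l.Prime] {X Y : Type u}

/-- the norm `∑ σ^a` on chains -/
def nrm (σ : Equiv.Perm X) (c : X →₀ ZMod l) : X →₀ ZMod l :=
  ∑ a : ZMod l, mapDomain (σ ^ a.val) c

theorem nrm_sub (σ : Equiv.Perm X) (c d : X →₀ ZMod l) :
    nrm σ (c - d) = nrm σ c - nrm σ d := by
  simp only [nrm]
  rw [← Finset.sum_sub_distrib]
  refine Finset.sum_congr rfl fun a _ => ?_
  exact (mapDomain.addMonoidHom (σ ^ a.val) : (X →₀ ZMod l) →+ _).map_sub c d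

theorem nrm_map {σ : Equiv.Perm X} (hσ : σ ^ l = 1) (c : X →₀ ZMod l) :
    nrm σ (mapDomain σ c) = nrm σ c := by
  have h2 : ∀ m : ℕ, σ ^ m = σ ^ (m % l) := fun m => by
    conv_lhs => rw [← Nat.div_add_mod m l, pow_add, pow_mul, hσ, one_pow, one_mul]
  have h3 : ∑ a : ZMod l, mapDomain (σ ^ a.val : Equiv.Perm X) c
      = ∑ a : ZMod l, mapDomain (σ ^ (a + 1).val : Equiv.Perm X) c :=
    (Equiv.sum_comp (Equiv.addRight (1 : ZMod l))
      (fun a : ZMod l => mapDomain (σ ^ a.val : Equiv.Perm X) c)).symm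
  simp only [nrm]
  rw [h3]
  refine Finset.sum_congr rfl fun a _ => ?_
  rw [← mapDomain_comp]
  have h1 : (a + 1).val ≡ a.val + 1 [MOD l] := by
    rw [← ZMod.natCast_eq_natCast_iff]
    push_cast
    rw [ZMod.natCast_zmod_val, ZMod.natCast_zmod_val]
  have h4 : (σ ^ (a + 1).val : Equiv.Perm X) = σ ^ a.val * σ := by
    rw [h2, h1, ← h2, pow_succ]
  rw [h4]
  rfl

theorem nrm_of_fix {σ : Equiv.Perm X} {c : X →₀ ZMod l} (hc : mapDomain σ c = c) :
    nrm σ c = 0 := by
  have h : ∀ n : ℕ, mapDomain (σ ^ n : Equiv.Perm X) c = c := by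
    intro n
    induction n with
    | zero => simp
    | succ n ih =>
      rw [pow_succ']
      have : ((σ * σ ^ n : Equiv.Perm X) : X → X) = σ ∘ (σ ^ n : Equiv.Perm X) := rfl
      rw [this, mapDomain_comp, ih, hc]
  simp only [nrm, h]
  rw [Finset.sum_const, Finset.card_univ, ZMod.card]
  ext x
  simp

/-- pairing of a chain with a function -/
def pr (φ : X → ZMod l) : (X →₀ ZMod l) →ₗ[ZMod l] ZMod l := linearCombination (ZMod l) φ

theorem pr_map (φ : Y → ZMod l) (f : X → Y) (c : X →₀ ZMod l) :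
    pr φ (mapDomain f c) = pr (φ ∘ f) c := by
  simp [pr, linearCombination_mapDomain]

theorem pr_single (φ : X → ZMod l) (x : X) : pr φ (single x 1) = φ x := by
  simp [pr]

theorem pr_nrm {σ : Equiv.Perm X} {M L : X → ZMod l}
    (hL : ∀ x, M x = ∑ a : ZMod l, L ((σ ^ a.val) x)) (c : X →₀ ZMod l) :
    pr M c = pr L (nrm σ c) := by
  simp only [nrm, map_sum, pr_map]
  simp only [pr, linearCombination_apply, Finsupp.sum]
  rw [Finset.sum_comm]
  refine Finset.sum_congr rfl fun x _ => ?_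
  rw [hL x, Finset.smul_sum]
  rfl

/-- boundary of an edge chain -/
def bd (s t : Y → X) (c : Y →₀ ZMod l) : X →₀ ZMod l := mapDomain t c - mapDomain s c

theorem bd_zero (s t : Y → X) : bd s t (0 : Y →₀ ZMod l) = 0 := by simp [bd]

theorem bd_sub (s t : Y → X) (c d : Y →₀ ZMod l) : bd s t (c - d) = bd s t c - bd s t d := by
  simp only [bd]
  have h1 := (mapDomain.addMonoidHom t : (Y →₀ ZMod l) →+ _).map_sub c d
  have h2 := (mapDomain.addMonoidHom s : (Y →₀ ZMod l) →+ _).map_sub c d
  simp only [mapDomain.addMonoidHom_apply] at h1 h2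
  rw [h1, h2]
  abel

theorem bd_add (s t : Y → X) (c d : Y →₀ ZMod l) : bd s t (c + d) = bd s t c + bd s t d := by
  simp only [bd, mapDomain_add]
  abel

theorem bd_sum {ι : Type*} (s t : Y → X) (S : Finset ι) (c : ι → Y →₀ ZMod l) :
    bd s t (∑ i ∈ S, c i) = ∑ i ∈ S, bd s t (c i) := by
  classical
  induction S using Finset.induction_on with
  | empty => simp [bd_zero]
  | insert a S ha ih => rw [Finset.sum_insert ha, Finset.sum_insert ha, bd_add, ih]

/-- boundary commutes with maps of graphs -/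
theorem bd_map {X' Y' : Type u} {s t : Y → X} {s' t' : Y' → X'} (fV : X → X') (fE : Y → Y')
    (hs : ∀ e, s' (fE e) = fV (s e)) (ht : ∀ e, t' (fE e) = fV (t e)) (c : Y →₀ ZMod l) :
    bd s' t' (mapDomain fE c) = mapDomain fV (bd s t c) := by
  simp only [bd]
  have h := (mapDomain.addMonoidHom fV : (X →₀ ZMod l) →+ _).map_sub (mapDomain t c) (mapDomain s c)
  simp only [mapDomain.addMonoidHom_apply] at h
  rw [h, ← mapDomain_comp, ← mapDomain_comp, ← mapDomain_comp, ← mapDomain_comp]
  congr 2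
  · funext e; exact ht e
  · funext e; exact hs e


theorem nrm_comm {X' : Type u} {σ : Equiv.Perm X} {σ' : Equiv.Perm X'} (f : X → X')
    (hf : ∀ x, f (σ x) = σ' (f x)) (c : X →₀ ZMod l) :
    mapDomain f (nrm σ c) = nrm σ' (mapDomain f c) := by
  have h : ∀ (n : ℕ) (x : X), f ((σ ^ n) x) = (σ' ^ n) (f x) := by
    intro n x
    induction n with
    | zero => rfl
    | succ n ih => rw [pow_succ', pow_succ', Equiv.Perm.mul_apply, Equiv.Perm.mul_apply, hf, ih]
  simp only [nrm]
  rw [mapDomain_finsetSum]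
  refine Finset.sum_congr rfl fun a _ => ?_
  rw [← mapDomain_comp, ← mapDomain_comp]
  congr 1
  funext x
  exact h _ x

theorem nrm_bd {s t : Y → X} {σ : Equiv.Perm X} {τ : Equiv.Perm Y}
    (hs : ∀ e, s (τ e) = σ (s e)) (ht : ∀ e, t (τ e) = σ (t e)) (c : Y →₀ ZMod l) :
    bd s t (nrm τ c) = nrm σ (bd s t c) := by
  simp only [bd]
  rw [nrm_comm t ht, nrm_comm s hs, nrm_sub]

theorem pr_bd (s t : Y → X) (φ : X → ZMod l) (c : Y →₀ ZMod l) :
    pr φ (bd s t c) = pr (fun e => φ (t e) - φ (s e)) c := by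
  simp only [bd, map_sub, pr_map]
  simp only [pr, linearCombination_apply, Finsupp.sum, smul_eq_mul, Function.comp_apply]
  rw [← Finset.sum_sub_distrib]
  exact Finset.sum_congr rfl fun e _ => by ring

end chains

/-! ## Null maps of graphs -/

section null

variable {l : ℕ} [hl : Fact l.Prime] {V E V' E' V'' E'' : Type u}

variable (l) in
/-- a map of graphs which kills `H₁(·, 𝔽_l)` and reduced `H₀(·, 𝔽_l)` -/
structure Null (s t : E → V) (s' t' : E' → V') (f : V' → V) (g : E' → E) : Prop where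
  hs : ∀ e, s (g e) = f (s' e)
  ht : ∀ e, t (g e) = f (t' e)
  h0 : ∀ v w : V', ∃ c : E →₀ ZMod l, bd s t c = single (f v) 1 - single (f w) 1
  h1 : ∀ c : E' →₀ ZMod l, bd s' t' c = 0 → mapDomain g c = 0

theorem single_map {X : Type u} (σ : Equiv.Perm X) (x : X) :
    mapDomain σ (single x (1 : ZMod l)) = single (σ x) 1 := mapDomain_single

/-- a permutation of order `l` acting on a two step tower of null maps has a fixed vertex -/
theorem exists_fixed {s t : E → V} {s' t' : E' → V'} {s'' t'' : E'' → V''}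
    {f : V' → V} {g : E' → E} {f' : V'' → V'} {g' : E'' → E'}
    (hn : Null l s t s' t' f g) (hn' : Null l s' t' s'' t'' f' g')
    {σ : Equiv.Perm V} {τ : Equiv.Perm E} {σ' : Equiv.Perm V'} {τ' : Equiv.Perm E'}
    {σ'' : Equiv.Perm V''}
    (hσ : σ ^ l = 1) (hτ : τ ^ l = 1) (hσ' : σ' ^ l = 1)
    (hs : ∀ e, s (τ e) = σ (s e)) (ht : ∀ e, t (τ e) = σ (t e))
    (hs' : ∀ e, s' (τ' e) = σ' (s' e)) (ht' : ∀ e, t' (τ' e) = σ' (t' e))
    (hf : ∀ v, f (σ' v) = σ (f v)) (hg : ∀ e, g (τ' e) = τ (g e))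
    (hf' : ∀ v, f' (σ'' v) = σ' (f' v)) (v'' : V'') : ∃ v : V, σ v = v := by
  by_contra hno
  push Not at hno
  obtain ⟨c', hc'⟩ := hn'.h0 (σ'' v'') v''
  rw [hf'] at hc'
  set v' := f' v'' with hv'
  have h1 : bd s' t' (nrm τ' c') = 0 := by
    rw [nrm_bd hs' ht', hc', nrm_sub, ← single_map, nrm_map hσ', sub_self]
  have h2 : nrm τ (mapDomain g c') = 0 := by
    rw [← nrm_comm g hg]
    exact hn.h1 _ h1
  have h3 : bd s t (mapDomain g c') = single (σ (f v')) 1 - single (f v') 1 := by
    rw [bd_map f g hn.hs hn.ht, hc']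
    have h := (mapDomain.addMonoidHom f : (V' →₀ ZMod l) →+ _).map_sub
      (single (σ' v') 1) (single v' 1)
    simp only [mapDomain.addMonoidHom_apply, mapDomain_single] at h
    rw [h, hf]
  obtain ⟨θ, hθ⟩ := exists_theta hσ
  obtain ⟨L, hL⟩ := exists_norm hτ (fun e => θ (t e) - θ (s e))
    (fun e => by
      rw [hs, ht, hθ _ (hno _), hθ _ (hno _)]
      ring)
    (fun e he => absurd (by rw [← hs, he]) (hno (s e)))
  have h4 : pr θ (bd s t (mapDomain g c')) = 1 := by
    rw [h3, map_sub, pr_single, pr_single, hθ _ (hno _)]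
    ring
  rw [pr_bd, pr_nrm hL, h2, map_zero] at h4
  exact zero_ne_one h4

theorem bd_apply [DecidableEq V] (s t : E → V) (c : E →₀ ZMod l) (u : V) :
    bd s t c u = pr (fun e => if t e = u then 1 else 0) c
      - pr (fun e => if s e = u then 1 else 0) c := by
  have key : ∀ r : E → V, mapDomain r c u = pr (fun e => if r e = u then 1 else 0) c := by
    intro r
    simp only [mapDomain, pr, linearCombination_apply, Finsupp.sum, Finsupp.finsetSum_apply,
      single_apply, smul_eq_mul, mul_ite, mul_one, mul_zero]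
  simp only [bd, Finsupp.sub_apply, key]

/-- the fixed graphs of a permutation of order `l` on a two step tower of null maps -/
theorem null_fixed {s t : E → V} {s' t' : E' → V'} {s'' t'' : E'' → V''}
    {f : V' → V} {g : E' → E} {f' : V'' → V'} {g' : E'' → E'}
    (hn : Null l s t s' t' f g) (hn' : Null l s' t' s'' t'' f' g')
    {σ : Equiv.Perm V} {τ : Equiv.Perm E} {σ' : Equiv.Perm V'} {τ' : Equiv.Perm E'}
    {σ'' : Equiv.Perm V''}
    (hτ : τ ^ l = 1)
    (hs : ∀ e, s (τ e) = σ (s e)) (ht : ∀ e, t (τ e) = σ (t e))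
    (hs' : ∀ e, s' (τ' e) = σ' (s' e)) (ht' : ∀ e, t' (τ' e) = σ' (t' e))
    (hg : ∀ e, g (τ' e) = τ (g e))
    (hf' : ∀ v, f' (σ'' v) = σ' (f' v))
    (hf : ∀ v, f (σ' v) = σ (f v))
    (v w : V'') (hv : σ'' v = v) (hw : σ'' w = w) :
    ∃ c : {e : E // τ e = e} →₀ ZMod l,
      bd s t (mapDomain Subtype.val c) = single (f (f' v)) 1 - single (f (f' w)) 1 := by
  classical
  obtain ⟨c', hc'⟩ := hn'.h0 v w
  have hv' : σ' (f' v) = f' v := by rw [← hf', hv]
  have hw' : σ' (f' w) = f' w := by rw [← hf', hw]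
  have h1 : bd s' t' (mapDomain τ' c' - c') = 0 := by
    rw [bd_sub, bd_map σ' τ' hs' ht', hc']
    have h := (mapDomain.addMonoidHom σ' : (V' →₀ ZMod l) →+ _).map_sub
      (single (f' v) 1) (single (f' w) 1)
    simp only [mapDomain.addMonoidHom_apply, mapDomain_single, hv', hw'] at h
    rw [h, sub_self]
  set c := mapDomain g c' with hc
  have h2 : mapDomain τ c = c := by
    have h3 := hn.h1 _ h1
    have h := (mapDomain.addMonoidHom g : (E' →₀ ZMod l) →+ _).map_sub
      (mapDomain τ' c') c'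
    simp only [mapDomain.addMonoidHom_apply] at h
    rw [h, sub_eq_zero, ← mapDomain_comp] at h3
    rw [hc, ← mapDomain_comp, ← h3]
    congr 1
    funext e
    exact (hg e).symm
  have h3 : bd s t c = single (f (f' v)) 1 - single (f (f' w)) 1 := by
    rw [hc, bd_map f g hn.hs hn.ht, hc']
    have h := (mapDomain.addMonoidHom f : (V' →₀ ZMod l) →+ _).map_sub
      (single (f' v) 1) (single (f' w) 1)
    simp only [mapDomain.addMonoidHom_apply, mapDomain_single] at h
    exact h
  have h4 : nrm τ c = 0 := nrm_of_fix h2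
  have hv0 : σ (f (f' v)) = f (f' v) := by rw [← hf, hv']
  have hw0 : σ (f (f' w)) = f (f' w) := by rw [← hf, hw']
  -- the part of `c` on the fixed edges
  let d : E →₀ ZMod l := c.filter (fun e => τ e = e)
  have hd : mapDomain Subtype.val (comapDomain (Subtype.val : {e : E // τ e = e} → E) d
      Subtype.val_injective.injOn) = d := by
    refine mapDomain_comapDomain _ Subtype.val_injective d ?_
    intro e he
    have he' : e ∈ d.support := he
    rw [Finsupp.support_filter, Finset.mem_filter] at he'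
    exact ⟨⟨e, he'.2⟩, rfl⟩
  refine ⟨comapDomain (Subtype.val : {e : E // τ e = e} → E) d Subtype.val_injective.injOn, ?_⟩
  rw [hd, ← h3]
  ext u
  have key : ∀ r : E → V, (∀ e, r (τ e) = σ (r e)) → ∀ u : V, σ u = u →
      pr (fun e => if r e = u then 1 else 0) d = pr (fun e => if r e = u then 1 else 0) c := by
    intro r hr u hu
    obtain ⟨L, hL⟩ := exists_norm hτ
      (fun e => if τ e = e then 0 else if r e = u then 1 else 0)
      (fun e => by
        simp only [hr, EmbeddingLike.apply_eq_iff_eq]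
        refine if_congr Iff.rfl rfl (if_congr ?_ rfl rfl)
        constructor
        · intro h; exact σ.injective (h.trans hu.symm)
        · intro h; rw [h, hu])
      (fun e he => by simp only [he, if_true])
    have h5 := pr_nrm hL c
    rw [h4, map_zero] at h5
    have h6 : pr (fun e => if r e = u then 1 else 0) c
        = pr (fun e => if r e = u then (1 : ZMod l) else 0) d
          + pr (fun e => if τ e = e then 0 else if r e = u then 1 else 0) c := by
      simp only [d, pr, linearCombination_apply]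
      rw [Finsupp.sum_filter_index, Finsupp.sum, Finsupp.sum, Finsupp.support_filter,
        Finset.sum_filter, ← Finset.sum_add_distrib]
      refine Finset.sum_congr rfl fun e _ => ?_
      by_cases he : τ e = e
      · simp [he]
      · simp [he]
    rw [h6, h5, add_zero]
  by_cases hu : σ u = u
  · rw [bd_apply, bd_apply, key s hs u hu, key t ht u hu]
  · have h7 : bd s t c u = 0 := by
      rw [h3, Finsupp.sub_apply, single_apply, single_apply, if_neg, if_neg, sub_zero]
      · intro h; exact hu (h ▸ hw0)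
      · intro h; exact hu (h ▸ hv0)
    rw [h7, bd_apply]
    have h8 : ∀ r : E → V, (∀ e, r (τ e) = σ (r e)) →
        pr (fun e => if r e = u then (1 : ZMod l) else 0) d = 0 := by
      intro r hr
      simp only [d, pr, linearCombination_apply]
      rw [Finsupp.sum_filter_index, Finsupp.support_filter, Finset.sum_filter]
      refine Finset.sum_eq_zero fun e _ => ?_
      by_cases he : τ e = e
      · have : r e ≠ u := by
          intro h
          apply hu
          rw [← h, ← hr, he]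
        simp [this]
      · simp [he]
    rw [h8 s hs, h8 t ht, sub_zero]

end null

/-! ## Towers -/

/-- a tower of nonempty graphs with null transition maps -/
structure Tow (l : ℕ) [Fact l.Prime] where
  V : ℕ → Type u
  E : ℕ → Type u
  s : ∀ j, E j → V j
  t : ∀ j, E j → V j
  f : ∀ j, V (j + 1) → V j
  g : ∀ j, E (j + 1) → E j
  null : ∀ j, Null l (s j) (t j) (s (j + 1)) (t (j + 1)) (f j) (g j)
  ne : ∀ j, Nonempty (V j)

/-- an action of a group on a tower -/
structure Act {l : ℕ} [Fact l.Prime] (T : Tow.{u} l) (Q : Type w) [Group Q] where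
  aV : ∀ j, Q →* Equiv.Perm (T.V j)
  aE : ∀ j, Q →* Equiv.Perm (T.E j)
  hs : ∀ j q e, T.s j (aE j q e) = aV j q (T.s j e)
  ht : ∀ j q e, T.t j (aE j q e) = aV j q (T.t j e)
  hf : ∀ j q v, T.f j (aV (j + 1) q v) = aV j q (T.f j v)
  hg : ∀ j q e, T.g j (aE (j + 1) q e) = aE j q (T.g j e)

section tower

variable {l : ℕ} [hl : Fact l.Prime] {Q : Type w} [Group Q]

/-- the kernel of the action -/
def Act.ker {T : Tow.{u} l} (A : Act T Q) : Subgroup Q :=
  (⨅ j, (A.aV j).ker) ⊓ (⨅ j, (A.aE j).ker)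

theorem Act.mem_ker {T : Tow.{u} l} (A : Act T Q) (q : Q) :
    q ∈ A.ker ↔ (∀ j v, A.aV j q v = v) ∧ (∀ j e, A.aE j q e = e) := by
  simp only [Act.ker, Subgroup.mem_inf, Subgroup.mem_iInf, MonoidHom.mem_ker, Equiv.Perm.ext_iff,
    Equiv.Perm.one_apply]

instance Act.ker_normal {T : Tow.{u} l} (A : Act T Q) : A.ker.Normal := by
  refine ⟨fun n hn g => ?_⟩
  rw [Act.mem_ker] at hn ⊢
  refine ⟨fun j v => ?_, fun j e => ?_⟩
  · rw [map_mul, map_mul, Equiv.Perm.mul_apply, Equiv.Perm.mul_apply, hn.1, ← Equiv.Perm.mul_apply,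
      ← map_mul, mul_inv_cancel, map_one, Equiv.Perm.one_apply]
  · rw [map_mul, map_mul, Equiv.Perm.mul_apply, Equiv.Perm.mul_apply, hn.2, ← Equiv.Perm.mul_apply,
      ← map_mul, mul_inv_cancel, map_one, Equiv.Perm.one_apply]

/-- the data of an element acting as a central element of order `l` -/
structure Act.Cen {T : Tow.{u} l} (A : Act T Q) (z : Q) : Prop where
  pow : z ^ l ∈ A.ker
  comm : ∀ q, (q * z)⁻¹ * (z * q) ∈ A.ker

theorem Act.Cen.V {T : Tow.{u} l} {A : Act T Q} {z : Q} (h : A.Cen z) (j : ℕ) (q : Q) (v : T.V j) :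
    A.aV j z (A.aV j q v) = A.aV j q (A.aV j z v) := by
  have h1 := ((A.mem_ker _).mp (h.comm q)).1 j v
  have h2 : A.aV j (q * z) (A.aV j ((q * z)⁻¹ * (z * q)) v) = A.aV j (z * q) v := by
    rw [← Equiv.Perm.mul_apply, ← map_mul, mul_inv_cancel_left]
  rw [h1, map_mul, map_mul, Equiv.Perm.mul_apply, Equiv.Perm.mul_apply] at h2
  exact h2.symm

theorem Act.Cen.E {T : Tow.{u} l} {A : Act T Q} {z : Q} (h : A.Cen z) (j : ℕ) (q : Q) (v : T.E j) :
    A.aE j z (A.aE j q v) = A.aE j q (A.aE j z v) := by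
  have h1 := ((A.mem_ker _).mp (h.comm q)).2 j v
  have h2 : A.aE j (q * z) (A.aE j ((q * z)⁻¹ * (z * q)) v) = A.aE j (z * q) v := by
    rw [← Equiv.Perm.mul_apply, ← map_mul, mul_inv_cancel_left]
  rw [h1, map_mul, map_mul, Equiv.Perm.mul_apply, Equiv.Perm.mul_apply] at h2
  exact h2.symm

theorem Act.Cen.powV {T : Tow.{u} l} {A : Act T Q} {z : Q} (h : A.Cen z) (j : ℕ) :
    (A.aV j z) ^ l = 1 := by
  rw [← map_pow]
  exact Equiv.Perm.ext fun v => ((A.mem_ker _).mp h.pow).1 j v

theorem Act.Cen.powE {T : Tow.{u} l} {A : Act T Q} {z : Q} (h : A.Cen z) (j : ℕ) :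
    (A.aE j z) ^ l = 1 := by
  rw [← map_pow]
  exact Equiv.Perm.ext fun v => ((A.mem_ker _).mp h.pow).2 j v

/-- the tower of fixed graphs at the even levels -/
def fixT (T : Tow.{u} l) (A : Act T Q) (z : Q) (h : A.Cen z) : Tow.{u} l where
  V j := {v : T.V (2 * j) // A.aV (2 * j) z v = v}
  E j := {e : T.E (2 * j) // A.aE (2 * j) z e = e}
  s j e := ⟨T.s (2 * j) e.1, by rw [← A.hs, e.2]⟩
  t j e := ⟨T.t (2 * j) e.1, by rw [← A.ht, e.2]⟩
  f j v := ⟨T.f (2 * j) (T.f (2 * j + 1) v.1), by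
    have h1 := v.2
    rw [← A.hf, ← A.hf]
    exact congrArg (fun w => T.f (2 * j) (T.f (2 * j + 1) w)) h1⟩
  g j e := ⟨T.g (2 * j) (T.g (2 * j + 1) e.1), by
    have h1 := e.2
    rw [← A.hg, ← A.hg]
    exact congrArg (fun w => T.g (2 * j) (T.g (2 * j + 1) w)) h1⟩
  null j := by
    have n1 := T.null (2 * j)
    have n2 := T.null (2 * j + 1)
    refine ⟨?_, ?_, ?_, ?_⟩
    · intro e
      apply Subtype.ext
      exact (n1.hs _).trans (congrArg _ (n2.hs _))
    · intro e
      apply Subtype.ext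
      exact (n1.ht _).trans (congrArg _ (n2.ht _))
    · intro v w
      obtain ⟨c, hc⟩ := null_fixed (σ'' := A.aV (2 * j + 1 + 1) z) n1 n2 (h.powE (2 * j))
        (A.hs (2 * j) z) (A.ht (2 * j) z) (A.hs (2 * j + 1) z) (A.ht (2 * j + 1) z)
        (A.hg (2 * j) z) (A.hf (2 * j + 1) z) (A.hf (2 * j) z) v.1 w.1 v.2 w.2
      refine ⟨c, ?_⟩
      apply mapDomain_injective (f := (Subtype.val : {v : T.V (2 * j) // A.aV (2 * j) z v = v} → _))
        Subtype.val_injective
      have hb := bd_map (l := l) (s := fun e : {e : T.E (2 * j) // A.aE (2 * j) z e = e} =>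
            (⟨T.s (2 * j) e.1, by rw [← A.hs, e.2]⟩ : {v : T.V (2 * j) // A.aV (2 * j) z v = v}))
          (t := fun e : {e : T.E (2 * j) // A.aE (2 * j) z e = e} =>
            (⟨T.t (2 * j) e.1, by rw [← A.ht, e.2]⟩ : {v : T.V (2 * j) // A.aV (2 * j) z v = v}))
          (s' := T.s (2 * j)) (t' := T.t (2 * j)) Subtype.val Subtype.val (fun _ => rfl)
          (fun _ => rfl) c
      refine hb.symm.trans (hc.trans ?_)
      have h := (mapDomain.addMonoidHom (Subtype.val : {v : T.V (2 * j) // A.aV (2 * j) z v = v}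
        → _) : (_ →₀ ZMod l) →+ _).map_sub
        (single ⟨T.f (2 * j) (T.f (2 * j + 1) v.1), by
          have h1 := v.2
          rw [← A.hf, ← A.hf]
          exact congrArg (fun w => T.f (2 * j) (T.f (2 * j + 1) w)) h1⟩ 1)
        (single ⟨T.f (2 * j) (T.f (2 * j + 1) w.1), by
          have h1 := w.2
          rw [← A.hf, ← A.hf]
          exact congrArg (fun w => T.f (2 * j) (T.f (2 * j + 1) w)) h1⟩ 1)
      simp only [mapDomain.addMonoidHom_apply, mapDomain_single] at h
      exact h.symm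
    · intro c hc
      have hb := bd_map (l := l)
        (s := fun e : {e : T.E (2 * j + 1 + 1) // A.aE (2 * j + 1 + 1) z e = e} =>
            (⟨T.s (2 * j + 1 + 1) e.1, by rw [← A.hs, e.2]⟩ :
              {v : T.V (2 * j + 1 + 1) // A.aV (2 * j + 1 + 1) z v = v}))
        (t := fun e : {e : T.E (2 * j + 1 + 1) // A.aE (2 * j + 1 + 1) z e = e} =>
            (⟨T.t (2 * j + 1 + 1) e.1, by rw [← A.ht, e.2]⟩ :
              {v : T.V (2 * j + 1 + 1) // A.aV (2 * j + 1 + 1) z v = v}))
        (s' := T.s (2 * j + 1 + 1)) (t' := T.t (2 * j + 1 + 1))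
        Subtype.val Subtype.val (fun _ => rfl) (fun _ => rfl) c
      have h1 : bd (T.s (2 * j + 1 + 1)) (T.t (2 * j + 1 + 1)) (mapDomain Subtype.val c) = 0 :=
        hb.trans ((congrArg (mapDomain Subtype.val) hc).trans mapDomain_zero)
      have h2 := n2.h1 _ h1
      apply mapDomain_injective (f := (Subtype.val : {v : T.E (2 * j) // A.aE (2 * j) z v = v} → _))
        Subtype.val_injective
      rw [← mapDomain_comp, mapDomain_zero]
      have h3 : mapDomain (T.g (2 * j)) (mapDomain (T.g (2 * j + 1))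
          (mapDomain Subtype.val c)) = 0 := by rw [h2, mapDomain_zero]
      rw [← mapDomain_comp, ← mapDomain_comp] at h3
      exact h3
  ne j := by
    have n1 := T.null (2 * j)
    have n2 := T.null (2 * j + 1)
    obtain ⟨v⟩ := T.ne (2 * j + 1 + 1)
    obtain ⟨v, hv⟩ := exists_fixed (σ'' := A.aV (2 * j + 1 + 1) z) n1 n2
      (h.powV (2 * j)) (h.powE (2 * j)) (h.powV (2 * j + 1))
      (A.hs (2 * j) z) (A.ht (2 * j) z) (A.hs (2 * j + 1) z) (A.ht (2 * j + 1) z)
      (A.hf (2 * j) z) (A.hg (2 * j) z) (A.hf (2 * j + 1) z) v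
    exact ⟨⟨v, hv⟩⟩

/-- restriction of a permutation to the fixed points of a commuting one -/
def resP {X : Type u} (A : Q →* Equiv.Perm X) (z : Q) (h : ∀ q x, A z (A q x) = A q (A z x)) :
    Q →* Equiv.Perm {x : X // A z x = x} where
  toFun q := (A q).subtypePerm (fun x => by
    constructor
    · intro hx
      rw [h] at hx
      exact (A q).injective hx
    · intro hx
      rw [h, hx])
  map_one' := by
    ext x
    simp
  map_mul' a b := by
    apply Equiv.ext
    intro x
    apply Subtype.ext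
    change A (a * b) x.1 = A a (A b x.1)
    rw [map_mul, Equiv.Perm.mul_apply]

theorem resP_apply {X : Type u} (A : Q →* Equiv.Perm X) (z : Q)
    (h : ∀ q x, A z (A q x) = A q (A z x)) (q : Q) (x : {x : X // A z x = x}) :
    (resP A z h q x).1 = A q x.1 := rfl

/-- the action on the tower of fixed graphs -/
def fixA (T : Tow.{u} l) (A : Act T Q) (z : Q) (h : A.Cen z) : Act (fixT T A z h) Q where
  aV j := resP (A.aV (2 * j)) z (h.V (2 * j))
  aE j := resP (A.aE (2 * j)) z (h.E (2 * j))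
  hs j q e := Subtype.ext (A.hs (2 * j) q e.1)
  ht j q e := Subtype.ext (A.ht (2 * j) q e.1)
  hf j q v := Subtype.ext (by
    have h1 := A.hf (2 * j) q (T.f (2 * j + 1) v.1)
    have h2 := A.hf (2 * j + 1) q v.1
    exact (congrArg (T.f (2 * j)) h2).trans h1)
  hg j q e := Subtype.ext (by
    have h1 := A.hg (2 * j) q (T.g (2 * j + 1) e.1)
    have h2 := A.hg (2 * j + 1) q e.1
    exact (congrArg (T.g (2 * j)) h2).trans h1)

theorem ker_lt (T : Tow.{u} l) (A : Act T Q) (z : Q) (h : A.Cen z) (hz : z ∉ A.ker) :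
    A.ker < (fixA T A z h).ker := by
  refine lt_of_le_of_ne (fun q hq => ?_) (fun he => hz ?_)
  · rw [Act.mem_ker] at hq ⊢
    exact ⟨fun j v => Subtype.ext (hq.1 (2 * j) v.1), fun j v => Subtype.ext (hq.2 (2 * j) v.1)⟩
  · rw [he, Act.mem_ker]
    exact ⟨fun j v => Subtype.ext v.2, fun j v => Subtype.ext v.2⟩

theorem push (T : Tow.{u} l) (A : Act T Q) (d : ℕ) : ∀ j : ℕ,
    (∃ v : T.V (j + d), ∀ q, A.aV (j + d) q v = v) → ∃ v : T.V j, ∀ q, A.aV j q v = v := by
  induction d with
  | zero => intro j h; exact h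
  | succ d ih =>
    rintro j ⟨v, hv⟩
    refine ih j ⟨T.f (j + d) v, fun q => ?_⟩
    rw [← A.hf]
    exact congrArg _ (hv q)

variable [Finite Q]

theorem exists_cen (hQ : IsPGroup l Q) {T : Tow.{u} l} (A : Act T Q) (hA : A.ker ≠ ⊤) :
    ∃ z, A.Cen z ∧ z ∉ A.ker := by
  have hQ' : IsPGroup l (Q ⧸ A.ker) := hQ.to_quotient _
  have : Nontrivial (Q ⧸ A.ker) := by
    by_contra hn
    rw [not_nontrivial_iff_subsingleton] at hn
    exact hA (QuotientGroup.subgroup_eq_top_of_subsingleton _ hn)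
  have hc : Nontrivial (Subgroup.center (Q ⧸ A.ker)) := hQ'.center_nontrivial
  have hcp : IsPGroup l (Subgroup.center (Q ⧸ A.ker)) := hQ'.to_subgroup _
  obtain ⟨n, hn, hcard⟩ := hcp.nontrivial_iff_card.mp hc
  obtain ⟨x, hx⟩ := exists_prime_orderOf_dvd_card' (G := Subgroup.center (Q ⧸ A.ker)) l
    (by rw [hcard]; exact dvd_pow_self _ hn.ne')
  obtain ⟨z, hz⟩ := QuotientGroup.mk_surjective x.1
  have hx1 : x ≠ 1 := by
    intro h
    rw [h, orderOf_one] at hx
    exact hl.out.one_lt.ne hx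
  have hxl : x ^ l = 1 := by
    have := pow_orderOf_eq_one x
    rwa [hx] at this
  refine ⟨z, ⟨?_, fun q => ?_⟩, ?_⟩
  · rw [← QuotientGroup.eq_one_iff, QuotientGroup.mk_pow, hz, ← Subgroup.coe_pow, hxl,
      Subgroup.coe_one]
  · rw [← QuotientGroup.eq_one_iff, QuotientGroup.mk_mul, QuotientGroup.mk_inv,
      QuotientGroup.mk_mul, QuotientGroup.mk_mul, hz, Subgroup.mem_center_iff.mp x.2,
      inv_mul_cancel]
  · rw [← QuotientGroup.eq_one_iff, hz]
    intro h
    exact hx1 (Subtype.ext h)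

theorem aux (hQ : IsPGroup l Q) (K : Subgroup Q) :
    ∀ (T : Tow.{u} l) (A : Act T Q), A.ker = K → ∀ j, ∃ v : T.V j, ∀ q, A.aV j q v = v := by
  induction K using WellFoundedGT.induction with
  | ind K ih =>
    intro T A hK j
    by_cases hA : A.ker = ⊤
    · obtain ⟨v⟩ := T.ne j
      refine ⟨v, fun q => ?_⟩
      have : q ∈ A.ker := by rw [hA]; trivial
      exact ((A.mem_ker q).mp this).1 j v
    · obtain ⟨z, hz, hzk⟩ := exists_cen hQ A hA
      obtain ⟨v, hv⟩ := ih _ (by rw [← hK]; exact ker_lt T A z hz hzk) (fixT T A z hz)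
        (fixA T A z hz) rfl j
      refine push T A j j ?_
      have h2 : 2 * j = j + j := by ring
      rw [← h2]
      exact ⟨v.1, fun q => congrArg Subtype.val (hv q)⟩

/-- **Fixed point lemma.** A finite `l`-group acting on a tower of nonempty graphs with null
transition maps fixes a vertex at every level. -/
theorem fixL (hQ : IsPGroup l Q) (T : Tow.{u} l) (A : Act T Q) (j : ℕ) :
    ∃ v : T.V j, ∀ q, A.aV j q v = v :=
  aux hQ _ T A rfl j

end tower

end Crest.Agent.R013.FixL_406
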