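import Crest.Agent.R013.Gl9_946
import Crest.Agent.R013.A2a_275

/-!
# Patching, part 13: for every norm or place `v` of a field over `k(y)` one of the maps
`RU → Ω_v`, `FP → Ω_v` exists.
-/

set_option autoImplicit false

namespace Crest.Agent.R013.Gl946

open Filter Topology Polynomial
open scoped NNReal

/-- The centre of a place on the `y`-line, integral form: a monic irreducible polynomial `Q0` with
roots of norm `< 1`, or else a monic integral polynomial vanishing at the inverse of the centre. -/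
theorem centre_dichotomy {k : Type*} [NontriviallyNormedField k] [CompleteSpace k]
    [IsUltrametricDist k] (Q0 : k[X]) (hirr : Irreducible Q0) (hm : Q0.Monic) :
    (∀ i < Q0.natDegree, ‖Q0.coeff i‖ < 1) ∨
    (¬ X ∣ Q0 ∧ ∃ Q1 : k[X], Q1.Monic ∧ (∀ i, ‖Q1.coeff i‖ ≤ 1) ∧ Q0 ∣ Q1.reverse) := by
  classical
  let kb := AlgebraicClosure k
  obtain ⟨c, hc⟩ := IsAlgClosed.exists_aeval_eq_zero kb Q0 (by
    intro h
    have := natDegree_eq_zero_iff_degree_le_zero.2 (le_of_eq h)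
    exact hirr.natDegree_pos.ne' this)
  have hmin : minpoly k c = Q0 := (minpoly.eq_of_irreducible_of_monic hirr hc hm).symm
  have hint : IsIntegral k c := ⟨Q0, hm, hc⟩
  rcases lt_or_ge (spectralNorm k kb c) 1 with hlt | hge
  · left
    intro i hi
    have h1 : spectralValueTerms Q0 i ≤ spectralValue Q0 :=
      le_ciSup (spectralValueTerms_bddAbove Q0) i
    have h2 : spectralValue Q0 < 1 := by
      have : spectralNorm k kb c = spectralValue Q0 := by rw [spectralNorm, hmin]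
      rw [← this]; exact hlt
    have h3 := h1.trans_lt h2
    rw [spectralValueTerms_of_lt_natDegree _ hi] at h3
    by_contra hcon
    push Not at hcon
    have h4 : (0 : ℝ) ≤ 1 / ((Q0.natDegree : ℝ) - (i : ℝ)) := by
      have : (i : ℝ) ≤ (Q0.natDegree : ℝ) := by exact_mod_cast hi.le
      exact div_nonneg zero_le_one (by linarith)
    exact absurd (Real.one_le_rpow hcon h4) (not_le.2 h3)
  · right
    have hc0 : c ≠ 0 := by
      rintro rfl
      rw [spectralNorm_zero] at hge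
      norm_num at hge
    have hX : ¬ X ∣ Q0 := by
      intro hX
      have : Associated X Q0 := (irreducible_X (R := k)).associated_of_dvd hirr hX
      have h2 : X = Q0 := eq_of_monic_of_associated monic_X hm this
      rw [← h2, aeval_X] at hc
      exact hc0 hc
    refine ⟨hX, minpoly k c⁻¹, ?_, ?_, ?_⟩
    · exact minpoly.monic hint.inv
    · have h1 : spectralNorm k kb c⁻¹ ≤ 1 := by
        have h2 : spectralNorm k kb c * spectralNorm k kb c⁻¹ = 1 := by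
          rw [← spectralMulAlgNorm_def, ← spectralMulAlgNorm_def, ← map_mul,
            mul_inv_cancel₀ hc0, map_one]
        have h3 : 0 ≤ spectralNorm k kb c⁻¹ := spectralNorm_nonneg _
        nlinarith
      exact (spectralValue_le_one_iff (minpoly.monic hint.inv)).1 h1
    · rw [← hmin]
      refine minpoly.dvd k c ?_
      have h1 : aeval c⁻¹ (minpoly k c⁻¹) = 0 := minpoly.aeval k c⁻¹
      let _ : Invertible c⁻¹ := ⟨c, mul_inv_cancel₀ hc0, inv_mul_cancel₀ hc0⟩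
      exact (eval₂_reverse_eq_zero_iff (algebraMap k kb) c⁻¹ (minpoly k c⁻¹)).2 h1

section ExistsMap

variable {k E : Type*} [NontriviallyNormedField k] [CompleteSpace k] [IsUltrametricDist k]
  [NormedField E] [NormedAlgebra k E] [IsUltrametricDist E] [CompleteSpace E] {y : E}
  (hG : IsGauss k y)
variable {Ω : Type*} [NormedField Ω] [IsUltrametricDist Ω] [CompleteSpace Ω]

/-- The restriction of a homomorphism on `k(y)` to polynomials in `y`. -/
noncomputable def psiPoly (ψ : KY hG →+* Ω) : k[X] →+* Ω :=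
  ψ.comp ((aeval y : k[X] →ₐ[k] E).toRingHom.codRestrict (KY hG) (aeval_mem_KY hG))

omit [CompleteSpace k] [IsUltrametricDist k] [IsUltrametricDist E] [CompleteSpace E]
  [IsUltrametricDist Ω] [CompleteSpace Ω] in
theorem psiPoly_apply (ψ : KY hG →+* Ω) (f : k[X]) :
    psiPoly hG ψ f = ψ ⟨aeval y f, aeval_mem_KY hG f⟩ := rfl

/-- **Existence of the local maps.** -/
theorem exists_map {π : k} (hπ : IsUnif π) (hd : DenseRat k y) (ψ : KY hG →+* Ω)
    (hcase : (∀ c : k, ‖ψ ⟨algebraMap k E c, const_mem_KY hG c⟩‖ ≤ ‖c‖) ∨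
      ((∀ c : k, ‖ψ ⟨algebraMap k E c, const_mem_KY hG c⟩‖ ≤ 1) ∧ ∃ z : KY hG, z ≠ 0 ∧ ‖ψ z‖ < 1))
    (Y : Subfield Ω) (hY : IsClosed (Y : Set Ω)) (hψY : ∀ z, ψ z ∈ Y) :
    (∃ Φ : RU k y →+* Ω, (∀ z (hz : z ∈ KY hG), Φ ⟨z, KY_le_RU hG hz⟩ = ψ ⟨z, hz⟩) ∧
      ∀ r, Φ r ∈ Y) ∨
    (∃ Φ : FP hG hπ hd →+* Ω, (∀ z (hz : z ∈ KY hG),
      Φ ⟨z, KY_le_FP hG hπ hd hz⟩ = ψ ⟨z, hz⟩) ∧ ∀ r, Φ r ∈ Y) := by
  have hy0 : y ≠ 0 := by
    have := hG.aeval_ne_zero (f := X) X_ne_zero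
    rwa [aeval_X] at this
  have hyinv : ψ ⟨y⁻¹, yinv_mem_KY hG⟩ = (ψ ⟨y, y_mem_KY hG⟩)⁻¹ := by
    rw [← map_inv₀]; rfl
  rcases hcase with hk | ⟨hk, hnt⟩
  · rcases lt_or_ge ‖ψ ⟨y, y_mem_KY hG⟩‖ 1 with h | h
    · exact Or.inr (mapFP_norm hG hπ hd ψ hk h Y hY hψY)
    · refine Or.inl (mapRU_norm hG ψ hk ?_ Y hY hψY)
      rw [hyinv, norm_inv]; exact inv_le_one_of_one_le₀ h
  · rcases lt_or_ge 1 ‖ψ ⟨y, y_mem_KY hG⟩‖ with h | h
    · left
      have h1 : ‖ψ ⟨y⁻¹, yinv_mem_KY hG⟩‖ < 1 := by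
        rw [hyinv, norm_inv]; exact inv_lt_one_of_one_lt₀ h
      refine mapRU_place hG hπ ψ hk h1.le X monic_X (fun i => ?_) ?_ Y hY hψY
      · rw [coeff_X]; split_ifs
        · rw [norm_one]
        · rw [norm_zero]; exact zero_le_one
      · have : (⟨aeval (y⁻¹) (X : k[X]), aeval_inv_mem_KY hG X⟩ : KY hG) =
            ⟨y⁻¹, yinv_mem_KY hG⟩ := by ext; exact aeval_X _
        rw [this]; exact h1
    · set S := psiPoly hG ψ with hS
      have hSle : ∀ f, ‖S f‖ ≤ 1 := fun f =>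
        psi_poly_le (KY hG) (const_mem_KY hG) y (y_mem_KY hG) ψ h f (aeval_mem_KY hG f)
          zero_le_one fun i => hk _
      let I : Ideal k[X] :=
        { carrier := {f | ‖S f‖ < 1}
          add_mem' := by
            intro a b ha hb
            change ‖S (a + b)‖ < 1
            rw [map_add]
            exact (IsUltrametricDist.norm_add_le_max _ _).trans_lt (max_lt ha hb)
          zero_mem' := by
            change ‖S 0‖ < 1
            rw [map_zero, norm_zero]; exact zero_lt_one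
          smul_mem' := by
            intro a b hb
            change ‖S (a * b)‖ < 1
            rw [map_mul, norm_mul]
            exact mul_lt_one_of_nonneg_of_lt_one_right (hSle a) (norm_nonneg _) hb }
      have hmemI : ∀ f, f ∈ I ↔ ‖S f‖ < 1 := fun f => Iff.rfl
      have hprime : I.IsPrime := by
        refine ⟨fun h1 => ?_, fun {a b} hab => ?_⟩
        · have : (1 : k[X]) ∈ I := by rw [h1]; trivial
          rw [hmemI, map_one, norm_one] at this
          exact lt_irrefl _ this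
        · rw [hmemI, map_mul, norm_mul] at hab
          by_contra hcon
          push Not at hcon
          obtain ⟨h1, h2⟩ := hcon
          rw [hmemI, not_lt] at h1 h2
          exact absurd hab (not_lt.2 (one_le_mul_of_one_le_of_one_le h1 h2))
      have hbot : I ≠ ⊥ := by
        obtain ⟨z, hz0, hz⟩ := hnt
        obtain ⟨p, q, hq, e⟩ := id z.2
        have hp : p ≠ 0 := by
          rintro rfl
          apply hz0
          ext
          rw [e]; simp
        have e2 : ψ z = S p / S q := by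
          rw [hS, psiPoly_apply, psiPoly_apply, ← map_div₀]
          congr 1; ext; exact e
        have hSq : S q ≠ 0 := by
          rw [hS, psiPoly_apply]
          intro h0
          have h1 := (map_eq_zero ψ).1 h0
          exact hG.aeval_ne_zero hq (congrArg Subtype.val h1)
        have hSp : ‖S p‖ < 1 := by
          have : ‖S p‖ = ‖ψ z‖ * ‖S q‖ := by
            rw [e2, norm_div, div_mul_cancel₀ _ (norm_ne_zero_iff.2 hSq)]
          rw [this]
          exact mul_lt_one_of_nonneg_of_lt_one_left (norm_nonneg _) hz (hSle q)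
        intro hI
        have : p ∈ (⊥ : Ideal k[X]) := by rw [← hI]; exact hSp
        exact hp ((Submodule.mem_bot _).1 this)
      obtain ⟨q0, hq0I, hq0⟩ := Ideal.IsPrime.exists_mem_prime_of_ne_bot hprime hbot
      set Q0 := q0 * C (q0.leadingCoeff)⁻¹ with hQ0
      have hmon : Q0.Monic := monic_mul_leadingCoeff_inv hq0.ne_zero
      have hirr : Irreducible Q0 := by
        have : Associated q0 Q0 := by
          refine ⟨Units.map C.toMonoidHom (Units.mk0 _ (inv_ne_zero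
            (leadingCoeff_ne_zero.2 hq0.ne_zero))), rfl⟩
        exact this.irreducible hq0.irreducible
      have hQ0I : ‖S Q0‖ < 1 := (I.mul_mem_right _ hq0I : Q0 ∈ I)
      rcases centre_dichotomy Q0 hirr hmon with hdis | ⟨hX, Q1, hQ1m, hQ1i, hdvd⟩
      · exact Or.inr (mapFP_place hG hπ hd ψ hk h Q0 hmon hdis hQ0I Y hY hψY)
      · left
        have hy1 : 1 ≤ ‖ψ ⟨y, y_mem_KY hG⟩‖ := by
          by_contra hcon
          push Not at hcon
          have hXI : (X : k[X]) ∈ I := by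
            rw [hmemI, hS, psiPoly_apply]
            have : (⟨aeval y (X : k[X]), aeval_mem_KY hG X⟩ : KY hG) = ⟨y, y_mem_KY hG⟩ := by
              ext; exact aeval_X _
            rw [this]; exact hcon
          have hcop : IsCoprime (X : k[X]) Q0 := (irreducible_X.coprime_iff_not_dvd).2 hX
          obtain ⟨a, b, hab⟩ := hcop
          have : (1 : k[X]) ∈ I := by
            rw [← hab]
            exact I.add_mem (I.mul_mem_left _ hXI) (I.mul_mem_left _ hQ0I)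
          exact hprime.ne_top ((Ideal.eq_top_iff_one _).2 this)
        have hyi : ‖ψ ⟨y⁻¹, yinv_mem_KY hG⟩‖ ≤ 1 := by
          rw [hyinv, norm_inv]; exact inv_le_one_of_one_le₀ hy1
        refine mapRU_place hG hπ ψ hk hyi Q1 hQ1m hQ1i ?_ Y hY hψY
        have hrev : ‖S Q1.reverse‖ < 1 := by
          obtain ⟨T, hT⟩ := hdvd
          rw [hT]; exact (I.mul_mem_right T hQ0I : Q0 * T ∈ I)
        let _ : Invertible y⁻¹ := ⟨y, mul_inv_cancel₀ hy0, inv_mul_cancel₀ hy0⟩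
        have e1 : aeval y Q1.reverse * (y⁻¹) ^ Q1.natDegree = aeval (y⁻¹) Q1 :=
          eval₂_reverse_mul_pow (algebraMap k E) y⁻¹ Q1
        have e2 : (⟨aeval (y⁻¹) Q1, aeval_inv_mem_KY hG Q1⟩ : KY hG) =
            ⟨aeval y Q1.reverse, aeval_mem_KY hG _⟩ * ⟨y⁻¹, yinv_mem_KY hG⟩ ^ Q1.natDegree := by
          ext; exact e1.symm
        rw [e2, map_mul, map_pow, norm_mul, norm_pow]
        calc _ ≤ ‖S Q1.reverse‖ * 1 := by
              refine mul_le_mul_of_nonneg_left (pow_le_one₀ (norm_nonneg _) hyi) (norm_nonneg _)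
          _ < 1 := by rw [mul_one]; exact hrev

omit [CompleteSpace k] [IsUltrametricDist k] [IsUltrametricDist Ω] [CompleteSpace Ω] in
/-- From a homomorphism on `AP` to one on `FP`, with compatibility on `AP`. -/
theorem mapFP_of_AP' [CompleteSpace k] {π : k} (hπ : IsUnif π) (hd : DenseRat k y)
    (ψ : KY hG →+* Ω) (Y : Subfield Ω)
    (Ψ : (AP hG).toSubring →+* Ω)
    (hΨ : ∀ f : k[X], Ψ ⟨aeval y f, aeval_mem_AP hG f⟩ = ψ ⟨aeval y f, aeval_mem_KY hG f⟩)
    (hΨY : ∀ a, Ψ a ∈ Y) :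
    ∃ Φ : FP hG hπ hd →+* Ω, (∀ z (hz : z ∈ KY hG), Φ ⟨z, KY_le_FP hG hπ hd hz⟩ = ψ ⟨z, hz⟩) ∧
      (∀ r, Φ r ∈ Y) ∧ ∀ a (ha : a ∈ AP hG) (ha' : a ∈ FP hG hπ hd), Φ ⟨a, ha'⟩ = Ψ ⟨a, ha⟩ := by
  have hle : (aeval y : k[X] →ₐ[k] E).range.toSubring ≤ (AP hG).toSubring := by
    rintro _ ⟨f, rfl⟩; exact aeval_mem_AP hG f
  have hinj : ∀ d (hd : d ∈ (aeval y : k[X] →ₐ[k] E).range.toSubring), d ≠ 0 →
      Ψ ⟨d, hle hd⟩ ≠ 0 := by
    rintro _ ⟨f, rfl⟩ hd0
    have := hΨ f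
    refine fun h => hd0 ?_
    have h2 : ψ ⟨aeval y f, aeval_mem_KY hG f⟩ = 0 := by rw [← this]; exact h
    have h3 := (map_eq_zero ψ).1 h2
    exact congrArg Subtype.val h3
  obtain ⟨Φ, hΦ⟩ := ext_frac (AP hG).toSubring (aeval y : k[X] →ₐ[k] E).range.toSubring
    hle Ψ hinj
  have hfr : ∀ z, z ∈ FP hG hπ hd → z ∈ fracSub (AP hG).toSubring
      (aeval y : k[X] →ₐ[k] E).range.toSubring hle := fun z hz => hz
  refine ⟨Φ.comp (Subring.inclusion (S := (FP hG hπ hd).toSubring) (T := fracSub (AP hG).toSubring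
      (aeval y : k[X] →ₐ[k] E).range.toSubring hle) hfr), ?_, ?_, ?_⟩
  · intro z hz
    obtain ⟨p, q, hq, e⟩ := id hz
    have h1 := hΦ z (hfr z (KY_le_FP hG hπ hd hz)) (aeval y p) (aeval_mem_AP hG p) (aeval y q)
      ⟨q, rfl⟩ (hG.aeval_ne_zero hq) e
    refine h1.trans ?_
    have h2 := hΨ p
    have h3 := hΨ q
    have h4 : ψ ⟨z, hz⟩ = ψ ⟨aeval y p, aeval_mem_KY hG p⟩ /
        ψ ⟨aeval y q, aeval_mem_KY hG q⟩ := by
      rw [← map_div₀]; congr 1; ext; exact e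
    rw [h4, ← h2, ← h3]
  · rintro ⟨z, hz⟩
    obtain ⟨a, ha, d, hd', hd0, e⟩ := hfr z hz
    have := hΦ z (hfr z hz) a ha d hd' hd0 e
    change Φ ⟨z, hfr z hz⟩ ∈ Y
    rw [this]
    exact Y.div_mem (hΨY _) (hΨY _)
  · intro a ha ha'
    have h1 := hΦ a (hfr a ha') a ha 1 (one_mem _) one_ne_zero (by rw [div_one])
    refine h1.trans ?_
    have : Ψ ⟨1, hle (one_mem _)⟩ = 1 := map_one Ψ
    rw [this, div_one]

/-- **place case, inside**, with the bound on `AP`. -/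
theorem mapFP_place' {π : k} (hπ : IsUnif π) (hd : DenseRat k y)
    (ψ : KY hG →+* Ω) (hk : ∀ c : k, ‖ψ ⟨algebraMap k E c, const_mem_KY hG c⟩‖ ≤ 1)
    (hy : ‖ψ ⟨y, y_mem_KY hG⟩‖ ≤ 1) (Q : k[X]) (hQ : Q.Monic)
    (hQ1 : ∀ i < Q.natDegree, ‖Q.coeff i‖ < 1)
    (hψQ : ‖ψ ⟨aeval y Q, aeval_mem_KY hG Q⟩‖ < 1)
    (Y : Subfield Ω) (hY : IsClosed (Y : Set Ω)) (hψY : ∀ z, ψ z ∈ Y) :
    ∃ Φ : FP hG hπ hd →+* Ω, (∀ z (hz : z ∈ KY hG), Φ ⟨z, KY_le_FP hG hπ hd hz⟩ = ψ ⟨z, hz⟩) ∧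
      (∀ r, Φ r ∈ Y) ∧ ∀ a (_ : a ∈ AP hG) (ha' : a ∈ FP hG hπ hd), ‖Φ ⟨a, ha'⟩‖ ≤ 1 := by
  set S0 : Subring (AP hG).toSubring :=
    ((aeval y : k[X] →ₐ[k] E).range.toSubring).comap (AP hG).toSubring.subtype with hS0
  have hmem : ∀ s : S0, ((s : (AP hG).toSubring) : E) ∈ KY hG := by
    rintro ⟨⟨z, hs'⟩, f, hf⟩
    have h : aeval y f = z := hf
    subst h
    exact aeval_mem_KY hG f
  let ψ0 : S0 →+* Ω :=
    { toFun := fun s => ψ ⟨s.1.1, hmem s⟩
      map_one' := map_one ψ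
      map_mul' := fun a b => map_mul ψ ⟨a.1.1, hmem a⟩ ⟨b.1.1, hmem b⟩
      map_zero' := map_zero ψ
      map_add' := fun a b => map_add ψ ⟨a.1.1, hmem a⟩ ⟨b.1.1, hmem b⟩ }
  have hψ0 : ∀ s, ‖ψ0 s‖ ≤ 1 := by
    rintro ⟨⟨z, hs'⟩, f, hf⟩
    have h : aeval y f = z := hf
    subst h
    exact psi_poly_le (KY hG) (const_mem_KY hG) y (y_mem_KY hG) ψ hy f
      (aeval_mem_KY hG f) zero_le_one fun i => hk _
  have hQmem : (⟨aeval y Q, aeval_mem_AP hG Q⟩ : (AP hG).toSubring) ∈ S0 := ⟨Q, rfl⟩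
  obtain ⟨Ψ, h1, h2⟩ := ext_Q S0 ⟨aeval y Q, aeval_mem_AP hG Q⟩ hQmem (by
      rintro ⟨a, ha⟩
      obtain ⟨s, b, hb, e⟩ := divP hG hπ Q hQ hQ1 a ha
      exact ⟨⟨aeval y s, aeval_mem_AP hG s⟩, ⟨s, rfl⟩, ⟨b, hb⟩, Subtype.ext e⟩) (by
      rintro ⟨b, hb⟩ ⟨h, hh⟩
      obtain ⟨g, hg⟩ := satP hG hπ Q hQ hQ1 b hb h hh.symm
      exact ⟨g, hg.symm⟩) ψ0 hψ0 hψQ ((Y : Set Ω) ∩ Metric.closedBall 0 1)
      (hY.inter Metric.isClosed_closedBall) (fun s => ⟨hψY _, by
        rw [mem_closedBall_zero_iff]; exact hψ0 s⟩)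
  obtain ⟨Φ, h3, h4, h5⟩ := mapFP_of_AP' hG hπ hd ψ Y Ψ (fun f => h1 _ ⟨f, rfl⟩)
    (fun a => (h2 a).1)
  refine ⟨Φ, h3, h4, fun a ha ha' => ?_⟩
  rw [h5 a ha ha']
  exact mem_closedBall_zero_iff.1 (h2 _).2

end ExistsMap

end Crest.Agent.R013.Gl946
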