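import Crest.Agent.R013.Gl14_946

/-!
# Patching, part 15: the cutting theorem over a base with `K → FP`.
-/

set_option autoImplicit false
set_option linter.unusedSectionVars false

namespace Crest.Agent.R013.Gl946

open Module Filter Topology Polynomial TensorProduct
open scoped NNReal
open Crest.Agent.R013.A2a_275 (Cpl toCpl norm_toCpl)
open Crest.Agent.R013.SE_669 (cl)
open Crest.NumberTheoryR.Sect (IsPlace)

/-- Lift of a homomorphism through an injective one. -/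
theorem lift_range {R Kb Ω : Type*} [CommRing R] [CommRing Kb] [CommRing Ω] (i : Kb →+* Ω)
    (hi : Function.Injective i) (g : R →+* Ω) (h : ∀ a, ∃ b, i b = g a) :
    ∃ gb : R →+* Kb, ∀ a, i (gb a) = g a := by
  choose b hb using h
  refine ⟨{ toFun := b, map_one' := ?_, map_mul' := ?_, map_zero' := ?_, map_add' := ?_ }, hb⟩
  · apply hi; rw [hb, map_one, map_one]
  · intro a a'; apply hi; rw [hb, map_mul, map_mul, hb, hb]
  · apply hi; rw [hb, map_zero, map_zero]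
  · intro a a'; apply hi; rw [hb, map_add, map_add, hb, hb]

/-- A homomorphism `L → Ω_v` extending `N → Ω_v` comes from an automorphism of `Kb` over `N`. -/
theorem conj_of_h {N L Kb : Type*} [Field N] [Field L] [Field Kb] [IsAlgClosed Kb]
    [Algebra N L] [Algebra N Kb] [Algebra L Kb] [IsScalarTower N L Kb]
    [Algebra.IsAlgebraic N L] [Algebra.IsAlgebraic N Kb] (v : Valuation Kb ℝ≥0)
    (h : L →+* Cpl v) (hN : ∀ n : N, h (algebraMap N L n) = toCpl v (algebraMap N Kb n)) :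
    ∃ s : Kb ≃ₐ[N] Kb, ∀ l : L, h l = toCpl v (s (algebraMap L Kb l)) := by
  obtain ⟨hb, hhb⟩ := lift_range (toCpl v) (toCpl v).injective h fun a =>
    mem_range_of_integral (F := N) (toCpl v) (algebraMap N Kb) h hN a
      (Algebra.IsAlgebraic.isAlgebraic a).isIntegral
  let hbN : L →ₐ[N] Kb := { hb with
    commutes' := fun n => by
      apply (toCpl v).injective
      exact (hhb _).trans (hN n) }
  have : Normal N Kb := by
    have : IsAlgClosure N Kb := ⟨inferInstance, inferInstance⟩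
    exact IsAlgClosure.normal N Kb
  let s0 : Kb →ₐ[N] Kb := hbN.liftNormal Kb
  have hs0 : ∀ l : L, s0 (algebraMap L Kb l) = hb l := fun l => hbN.liftNormal_commutes Kb l
  refine ⟨AlgEquiv.ofBijective s0 (AlgHom.normal_bijective N Kb Kb _), fun l => ?_⟩
  rw [← hhb l, ← hs0 l]
  rfl

theorem rL_injective {E F L : Type*} [Field E] [Field F] [Field L] [Algebra F E] [Algebra F L] :
    Function.Injective (rL E F L) :=
  Algebra.TensorProduct.includeRight_injective (algebraMap F E).injective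

theorem algebraMap_eq_rL {E F L : Type*} [Field E] [Field F] [Field L] [Algebra F E] [Algebra F L]
    (f : F) : algebraMap E (E ⊗[F] L) (algebraMap F E f) = rL E F L (algebraMap F L f) := by
  change (algebraMap F E f) ⊗ₜ[F] (1 : L) = (1 : E) ⊗ₜ[F] (algebraMap F L f)
  rw [Algebra.algebraMap_eq_smul_one, Algebra.algebraMap_eq_smul_one, TensorProduct.smul_tmul]

section Cut1

variable {E F N L Kb : Type*} [Field E] [Field F] [Field N] [Field L] [Field Kb]
  [IsAlgClosed Kb] [Algebra F E] [Algebra F N] [Algebra F L] [Algebra N L] [IsScalarTower F N L]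
  [Algebra F Kb] [Algebra N Kb] [Algebra L Kb] [IsScalarTower F N Kb] [IsScalarTower N L Kb]
  [FiniteDimensional F L] [FiniteDimensional N L]
variable {D : PatchDatum E} (hF0 : ∀ z, z ∈ D.F0 ↔ ∃ f : F, algebraMap F E f = z) {d n : ℕ}
  (C : CutData D (E ⊗[F] L) d n)
  (hCL : C.L = (rL E F L).range) (hCN : C.N = ((rL E F L).comp (algebraMap N L)).range)

theorem algebraMap_eq_rLN (N : Type*) [Field N] [Algebra F N] [Algebra N L] [IsScalarTower F N L]
    (f : F) : algebraMap E (E ⊗[F] L) (algebraMap F E f) =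
      rL E F L (algebraMap N L (algebraMap F N f)) := by
  rw [← IsScalarTower.algebraMap_apply F N L]
  exact algebraMap_eq_rL f

include hCL in
theorem exists_rho : ∃ ρ : C.L →+* L, ∀ (l : L) (h : rL E F L l ∈ C.L), ρ ⟨rL E F L l, h⟩ = l := by
  let e : L ≃+* C.L := RingEquiv.ofBijective ((rL E F L).codRestrict C.L
      fun l => by rw [hCL]; exact ⟨l, rfl⟩) ⟨fun a b hab => rL_injective
        (congrArg Subtype.val hab), fun z => by
          obtain ⟨f, hf⟩ := (SetLike.ext_iff.1 hCL _).1 z.2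
          exact ⟨f, Subtype.ext hf⟩⟩
  exact ⟨e.symm.toRingHom, fun l h => e.symm_apply_apply l⟩

variable {C}
variable (G : C.Glued)

include hCN in
theorem rLN_mem_N (x : N) : rL E F L (algebraMap N L x) ∈ C.N := by rw [hCN]; exact ⟨x, rfl⟩

/-- The glued algebra as an `F`-subalgebra. -/
def GA : Subalgebra F (E ⊗[F] L) :=
  { G.A with
    algebraMap_mem' := fun f => by
      rw [IsScalarTower.algebraMap_apply F E (E ⊗[F] L)]
      exact G.F0_mem_A ((hF0 _).2 ⟨f, rfl⟩) }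

theorem mem_GA (x : E ⊗[F] L) : x ∈ GA hF0 G ↔ x ∈ G.A := Iff.rfl

theorem GA_fg : (Subalgebra.toSubmodule (GA hF0 G)).FG := by
  classical
  refine ⟨Finset.univ.image G.b, ?_⟩
  apply le_antisymm
  · rw [Submodule.span_le]
    intro x hx
    rw [Finset.coe_image, Finset.coe_univ, Set.image_univ] at hx
    obtain ⟨i, rfl⟩ := hx
    exact (G.hA _).2 (basis_mem_cs _ _ i)
  · intro x hx
    have hx' := (G.hA x).1 hx
    choose f hf using fun i => (hF0 _).1 (hx' i)
    rw [← G.b.sum_repr x]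
    refine Submodule.sum_mem _ fun i _ => ?_
    rw [← hf i, algebraMap_smul]
    refine Submodule.smul_mem _ _ (Submodule.subset_span ?_)
    rw [Finset.coe_image, Finset.coe_univ, Set.image_univ]
    exact ⟨i, rfl⟩

/-- Forgetful map. -/
def GAto : GA hF0 G →+* G.A where
  toFun a := ⟨a.1, a.2⟩
  map_one' := rfl
  map_mul' _ _ := rfl
  map_zero' := rfl
  map_add' _ _ := rfl

theorem GA_integral (a : GA hF0 G) : IsIntegral F a := by
  have h1 : IsIntegral F (a : E ⊗[F] L) := IsIntegral.of_mem_of_fg _ (GA_fg hF0 G) _ a.2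
  exact (isIntegral_algHom_iff (GA hF0 G).val Subtype.val_injective).1 h1

include hF0 in
theorem gb_of_g (w : Valuation Kb ℝ≥0) (g : G.A →+* Cpl w)
    (hg : ∀ (f : F) (h : algebraMap E (E ⊗[F] L) (algebraMap F E f) ∈ G.A),
      g ⟨_, h⟩ = toCpl w (algebraMap F Kb f)) :
    ∃ gb : G.A →+* Kb, ∀ a, toCpl w (gb a) = g a := by
  refine lift_range (toCpl w) (toCpl w).injective g fun a => ?_
  obtain ⟨b, hb⟩ := mem_range_of_integral (F := F) (R := GA hF0 G) (toCpl w) (algebraMap F Kb)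
    (g.comp (GAto hF0 G)) (fun f => by
      refine Eq.trans ?_ (hg f (G.F0_mem_A ((hF0 _).2 ⟨f, rfl⟩)))
      change g ⟨_, _⟩ = g ⟨_, _⟩
      congr 1) ⟨a.1, a.2⟩ (GA_integral hF0 G _)
  exact ⟨b, hb⟩

include hF0 in
theorem exists_A' (gb : G.A →+* Kb)
    (hgb : ∀ (f : F) (h : algebraMap E (E ⊗[F] L) (algebraMap F E f) ∈ G.A),
      gb ⟨_, h⟩ = algebraMap F Kb f) :
    ∃ A' : IntermediateField F Kb, FiniteDimensional F A' ∧ ∀ x, x ∈ A' ↔ ∃ a, gb a = x := by
  let gF : GA hF0 G →ₐ[F] Kb := { gb.comp (GAto hF0 G) with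
    commutes' := fun f => hgb f (G.F0_mem_A ((hF0 _).2 ⟨f, rfl⟩)) }
  have hgF : ∀ a : GA hF0 G, gF a = gb ⟨a.1, a.2⟩ := fun a => rfl
  have hfg : (Subalgebra.toSubmodule gF.range).FG := by
    have h1 : (⊤ : Submodule F (GA hF0 G)).FG :=
      (Submodule.fg_top _).2 (GA_fg hF0 G)
    have h2 := h1.map gF.toLinearMap
    rw [Submodule.map_top] at h2
    exact h2
  have hfin : Module.Finite F gF.range := Module.Finite.iff_fg.2 hfg
  have halg : ∀ x ∈ gF.range, IsAlgebraic F x := fun x hx =>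
    (IsIntegral.of_mem_of_fg _ hfg x hx).isAlgebraic
  refine ⟨gF.range.toIntermediateField fun x hx => ?_, ?_, fun x => ?_⟩
  · exact gF.range.inv_mem_of_algebraic (x := ⟨x, hx⟩) (halg x hx)
  · exact hfin
  · constructor
    · rintro ⟨a, rfl⟩; exact ⟨⟨a.1, a.2⟩, rfl⟩
    · rintro ⟨a, rfl⟩; exact ⟨⟨a.1, a.2⟩, rfl⟩

include hF0 hCL hCN in
/-- The homomorphism `A → Kb` attached to a norm `w` on the `RU` side. -/
theorem exists_gb (w : Valuation Kb ℝ≥0) (Φ : D.RU →+* Cpl w)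
    (hΦ : ∀ (f : F) (h : algebraMap F E f ∈ D.RU), Φ ⟨_, h⟩ = toCpl w (algebraMap F Kb f))
    (hΦY : ∀ r, Φ r ∈ clS w (algebraMap F Kb).fieldRange) :
    ∃ gb : G.A →+* Kb, (∀ (x : N) (h : rL E F L (algebraMap N L x) ∈ G.A),
      gb ⟨_, h⟩ = algebraMap N Kb x) ∧
      ∀ S : Subfield Kb, (algebraMap F Kb).fieldRange ≤ S → (∀ a, gb a ∈ S) →
        ∀ l : L, algebraMap L Kb l ∈ cl w S := by
  obtain ⟨ρ, hρ⟩ := exists_rho C hCL
  have hmem : ∀ l : L, rL E F L l ∈ C.L := fun l => by rw [hCL]; exact ⟨l, rfl⟩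
  have hcomp : ∀ (z : E) (hz : z ∈ D.F0), ((toCpl w).comp ((algebraMap L Kb).comp ρ))
      ⟨algebraMap E _ z, C.F0_mem_L hz⟩ = Φ ⟨z, D.F0_le_RU z hz⟩ := by
    intro z hz
    obtain ⟨f, rfl⟩ := (hF0 z).1 hz
    rw [hΦ]
    have e1 : (⟨algebraMap E (E ⊗[F] L) (algebraMap F E f), C.F0_mem_L hz⟩ : C.L) =
        ⟨rL E F L (algebraMap F L f), hmem _⟩ := Subtype.ext (algebraMap_eq_rL f)
    rw [e1]
    change toCpl w (algebraMap L Kb (ρ _)) = _
    rw [hρ, IsScalarTower.algebraMap_apply F N L, ← IsScalarTower.algebraMap_apply N L Kb,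
      ← IsScalarTower.algebraMap_apply F N Kb]
  obtain ⟨g, hgN, hgY⟩ := G.homU' Φ ((toCpl w).comp ((algebraMap L Kb).comp ρ)) hcomp
  have hgN' : ∀ (x : N) (h : rL E F L (algebraMap N L x) ∈ G.A), g ⟨_, h⟩ =
      toCpl w (algebraMap N Kb x) := by
    intro x h
    rw [hgN _ (rLN_mem_N hCN x)]
    change toCpl w (algebraMap L Kb (ρ _)) = _
    rw [hρ, ← IsScalarTower.algebraMap_apply N L Kb]
  obtain ⟨gb, hgb⟩ := gb_of_g hF0 G w g (fun f h => by
    have e1 : (⟨algebraMap E (E ⊗[F] L) (algebraMap F E f), h⟩ : G.A) =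
        ⟨rL E F L (algebraMap N L (algebraMap F N f)), G.hN (rLN_mem_N hCN _)⟩ := by
      exact Subtype.ext (algebraMap_eq_rLN N f)
    rw [e1, hgN', ← IsScalarTower.algebraMap_apply F N Kb])
  refine ⟨gb, fun x h => ?_, fun S hFS hS l => ?_⟩
  · apply (toCpl w).injective
    rw [hgb, hgN']
  · rw [← mem_clS_iff]
    have h1 := hgY (clS w S).toSubring (fun z => clS_mono w hFS (hΦY z)) (fun a => by
      rw [← hgb a]; exact toCpl_mem_clS w S (hS a)) ⟨rL E F L l, hmem l⟩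
    change toCpl w (algebraMap L Kb (ρ _)) ∈ _ at h1
    rw [hρ] at h1
    exact h1

include hCL hCN in
/-- Local analysis, outside the circle. -/
theorem local_out [Algebra.IsAlgebraic N Kb] (v : Valuation Kb ℝ≥0) (gb : G.A →+* Kb)
    (hgbN : ∀ (x : N) (h : rL E F L (algebraMap N L x) ∈ G.A), gb ⟨_, h⟩ = algebraMap N Kb x)
    (h : C.L →+* Cpl v)
    (hh : ∀ (x : E ⊗[F] L) (hx : x ∈ C.N), h ⟨x, C.hN hx⟩ = toCpl v (gb ⟨x, G.hN hx⟩))
    (hY : ∀ (Y : Subring (Cpl v)), (∀ z ∈ clS v (algebraMap F Kb).fieldRange, z ∈ Y) →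
      (∀ l, h l ∈ Y) → ∀ a, toCpl v (gb a) ∈ Y) :
    ∃ s : Kb ≃ₐ[N] Kb, ∀ a, gb a ∈ cl v (Set.range fun l : L => s (algebraMap L Kb l)) := by
  have hmem : ∀ l : L, rL E F L l ∈ C.L := fun l => by rw [hCL]; exact ⟨l, rfl⟩
  let hL : L →+* Cpl v := h.comp ((rL E F L).codRestrict C.L hmem)
  have hhL : ∀ l, hL l = h ⟨rL E F L l, hmem l⟩ := fun l => rfl
  obtain ⟨s, hs⟩ := conj_of_h (N := N) (L := L) v hL (fun x => by
    rw [hhL, hh _ (rLN_mem_N hCN x), hgbN])
  refine ⟨s, fun a => ?_⟩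
  set S : Subfield Kb := ((s : Kb →+* Kb).comp (algebraMap L Kb)).fieldRange with hS
  have hSset : (Set.range fun l : L => s (algebraMap L Kb l)) = (S : Set Kb) := rfl
  rw [hSset, ← mem_clS_iff]
  refine hY (clS v S).toSubring (fun z hz => clS_mono v ?_ hz) (fun l => ?_) a
  · rintro _ ⟨f, rfl⟩
    refine ⟨algebraMap F L f, ?_⟩
    change s (algebraMap L Kb (algebraMap F L f)) = _
    rw [IsScalarTower.algebraMap_apply F N L, ← IsScalarTower.algebraMap_apply N L Kb, s.commutes,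
      ← IsScalarTower.algebraMap_apply F N Kb]
  · obtain ⟨l', hl'⟩ := (SetLike.ext_iff.1 hCL _).1 l.2
    have e1 : l = ⟨rL E F L l', hmem l'⟩ := Subtype.ext hl'.symm
    rw [e1, ← hhL, hs]
    exact toCpl_mem_clS v S ⟨l', rfl⟩

end Cut1

/-! ### The cutting theorem, level 1 -/

section T1

variable {k E : Type*} [NontriviallyNormedField k] [CompleteSpace k] [IsUltrametricDist k]
  [NontriviallyNormedField E] [NormedAlgebra k E] [IsUltrametricDist E] [CompleteSpace E] {y : E}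
variable {F K N L Kb : Type*} [Field F] [Field K] [Field N] [Field L] [Field Kb] [IsAlgClosed Kb]
  [CharZero F]
  [Algebra F E] [Algebra K E] [Algebra F K] [Algebra F N] [Algebra F L]
  [Algebra K N] [Algebra K L] [Algebra N L] [IsScalarTower F K E] [IsScalarTower F K N]
  [IsScalarTower F K L] [IsScalarTower F N L] [IsScalarTower K N L]
  [Algebra F Kb] [Algebra K Kb] [Algebra N Kb] [Algebra L Kb] [IsScalarTower F K Kb]
  [IsScalarTower F N Kb] [IsScalarTower K N Kb] [IsScalarTower N L Kb]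
  [Algebra k F] [IsScalarTower k F E] [Algebra k Kb] [IsScalarTower k F Kb]

/-- **The cutting theorem, level 1.**  `F = k(y) ≤ K ≤ N ≤ L ≤ Kb`, `K → FP ⊂ E`, and `N` is dense
in `L` for every norm over the norm of `E`.  Then the cover `N` of the region `K → FP` of the disc
`|y| < 1` and the cover `L` elsewhere are glued to `A'`. -/
theorem cut_level1 (hG : IsGauss k y) {π : k} (hπ : IsUnif π) (hd : DenseRat k y)
    [FiniteDimensional F K] [FiniteDimensional F N] [FiniteDimensional F L]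
    [FiniteDimensional K N] [FiniteDimensional N L]
    [Algebra.IsAlgebraic F Kb] [Algebra.IsAlgebraic K Kb] [Algebra.IsAlgebraic N Kb]
    (hF0 : ∀ z, z ∈ KY hG ↔ ∃ f : F, algebraMap F E f = z)
    (hK : ∀ f : K, algebraMap K E f ∈ FP hG hπ hd)
    (hdense : ∀ v : Valuation Kb ℝ≥0,
      (∀ f : K, v (algebraMap K Kb f) = ‖algebraMap K E f‖₊) →
      ∀ l : L, algebraMap L Kb l ∈ cl v (Set.range (algebraMap N Kb)))
    (w : Valuation Kb ℝ≥0) (hw : ∀ c : k, w (algebraMap k Kb c) = ‖c‖₊)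
    (yF : F) (hyF : algebraMap F E yF = y) (hwy : 1 ≤ w (algebraMap F Kb yF)) :
    ∃ A' : IntermediateField F Kb, FiniteDimensional F A' ∧ (∀ x : N, algebraMap N Kb x ∈ A') ∧
      (∀ l : L, algebraMap L Kb l ∈ cl w (A' : Set Kb)) ∧
      (∀ v : Valuation Kb ℝ≥0, ((∀ c : k, v (algebraMap k Kb c) = ‖c‖₊) ∨ IsPlace k v) →
        (∃ s : Kb ≃ₐ[N] Kb, ∀ a ∈ A', a ∈ cl v (Set.range fun l : L => s (algebraMap L Kb l))) ∨
        (∀ a ∈ A', a ∈ cl v (Set.range (algebraMap N Kb)))) ∧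
      (∀ v : Valuation Kb ℝ≥0, (∃ Φ : FP hG hπ hd →+* Cpl v,
        (∀ f : K, Φ ⟨algebraMap K E f, hK f⟩ = toCpl v (algebraMap K Kb f)) ∧
        ∀ r, Φ r ∈ clS v (algebraMap N Kb).fieldRange) →
        ∀ a ∈ A', a ∈ cl v (Set.range (algebraMap N Kb))) := by
  classical
  have hcK : CharZero K := charZero_of_injective_algebraMap (algebraMap F K).injective
  have hcN : CharZero N := charZero_of_injective_algebraMap (algebraMap F N).injective
  -- the splitting over `E ⊗ N`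
  obtain ⟨α, hα⟩ := Field.exists_primitive_element N L
  have hαint : IsIntegral N α := IsIntegral.of_finite N α
  have hadj : Algebra.adjoin N {α} = ⊤ := by
    have := IntermediateField.adjoin_simple_toSubalgebra_of_isAlgebraic hαint.isAlgebraic
    rw [← this, hα]; rfl
  have hmin : minpoly N (algebraMap L Kb α) = minpoly N α :=
    minpoly.algebraMap_eq (algebraMap L Kb).injective α
  obtain ⟨ε', orth, idem, hsum, spl, inj⟩ := exists_split (E := E) (K := K) α hadj (fun 𝔫 => by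
    have := split_of_dense (E := E) (K := K) (N := N) (algebraMap L Kb α) (fun v hv ε hε => by
      obtain ⟨_, ⟨x, rfl⟩, hx⟩ := hdense v hv α ε hε
      exact ⟨x, hx⟩) 𝔫
    rwa [hmin] at this)
  have hF : ∀ f : F, algebraMap F E f ∈ FP hG hπ hd := fun f =>
    KY_le_FP hG hπ hd ((hF0 _).2 ⟨f, rfl⟩)
  obtain ⟨I⟩ := exists_idemData (FP hG hπ hd) hF hK
  obtain ⟨C, hCL, hCN, hCe⟩ := exists_cutData (gaussDatum hG hπ hd) hF0 hF hK I ε' orth idem hsum
    spl inj
  obtain ⟨G⟩ := C.exists_glued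
  have hmemF : ∀ f : F, algebraMap F E f ∈ (gaussDatum hG hπ hd).F0 := fun f => (hF0 _).2 ⟨f, rfl⟩
  have hNmem : ∀ x : N, rL E F L (algebraMap N L x) ∈ G.A := fun x => G.hN (rLN_mem_N hCN x)
  obtain ⟨Φw, hΦw, hΦwY⟩ := exists_mapRU_val hG hF0 w hw yF hyF hwy
  obtain ⟨gb, hgbN, hgbL⟩ := exists_gb (D := gaussDatum hG hπ hd) hF0 hCL hCN G w Φw hΦw hΦwY
  have hgbF : ∀ (f : F) (h : algebraMap E (E ⊗[F] L) (algebraMap F E f) ∈ G.A),
      gb ⟨_, h⟩ = algebraMap F Kb f := by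
    intro f h
    have e1 : (⟨algebraMap E (E ⊗[F] L) (algebraMap F E f), h⟩ : G.A) =
        ⟨rL E F L (algebraMap N L (algebraMap F N f)), hNmem _⟩ :=
      Subtype.ext (algebraMap_eq_rLN N f)
    rw [e1, hgbN, ← IsScalarTower.algebraMap_apply F N Kb]
  obtain ⟨A', hA'fin, hA'⟩ := exists_A' (D := gaussDatum hG hπ hd) hF0 G gb hgbF
  -- the element `e`
  set φ : (gaussDatum hG hπ hd).FP →+* E ⊗[F] L :=
    (algebraMap E (E ⊗[F] L)).comp (gaussDatum hG hπ hd).FP.subtype with hφ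
  let zz : Fin (I.G.natDegree + 1) → (gaussDatum hG hπ hd).FP := fun i => I.G.coeff i
  let xx : Fin (I.G.natDegree + 1) → C.N := fun i =>
    ⟨rL E F L (algebraMap N L (algebraMap K N (I.θ ^ (i : ℕ)))), rLN_mem_N hCN _⟩
  have hepres : C.e = ∑ i, (zz i : E) • (xx i : E ⊗[F] L) := by
    refine hCe.trans ((I.e_eq_sum φ _).trans ?_)
    refine Finset.sum_congr rfl fun i _ => ?_
    change algebraMap E _ _ * rL E F L (algebraMap K L _) = _
    rw [IsScalarTower.algebraMap_apply K N L, Algebra.smul_def]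
    rfl
  have hval : ∀ (v : Valuation Kb ℝ≥0) (Φ : FP hG hπ hd →+* Cpl v),
      ∑ i, Φ (zz i) * ((toCpl v).comp gb) ⟨xx i, G.hN (xx i).2⟩ =
      I.e Φ ((toCpl v).comp (algebraMap K Kb)) := by
    intro v Φ
    rw [I.e_eq_sum]
    refine Finset.sum_congr rfl fun i _ => ?_
    change Φ (I.G.coeff i) * toCpl v (gb ⟨rL E F L (algebraMap N L (algebraMap K N _)), _⟩) =
      Φ (I.G.coeff i) * toCpl v (algebraMap K Kb _)
    rw [hgbN, ← IsScalarTower.algebraMap_apply K N Kb]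
  have hFP : ∀ (v : Valuation Kb ℝ≥0) (Φ : FP hG hπ hd →+* Cpl v)
      (_ : ∀ (f : F) (h : algebraMap F E f ∈ FP hG hπ hd),
        Φ ⟨algebraMap F E f, h⟩ = toCpl v (algebraMap F Kb f)),
      ∀ (z : E) (hz : z ∈ (gaussDatum hG hπ hd).F0),
      ((toCpl v).comp gb) ⟨algebraMap E _ z, G.F0_mem_A hz⟩ =
        Φ ⟨z, (gaussDatum hG hπ hd).F0_le_FP hz⟩ := by
    intro v Φ hΦ z hz
    obtain ⟨f, rfl⟩ := (hF0 z).1 hz
    refine Eq.trans ?_ (hΦ f _).symm
    change toCpl v (gb _) = _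
    rw [hgbF]
  have hFrange : ∀ v : Valuation Kb ℝ≥0, clS v (algebraMap F Kb).fieldRange ≤
      clS v (algebraMap N Kb).fieldRange := fun v => clS_mono v (by
    rintro _ ⟨f, rfl⟩
    exact ⟨algebraMap F N f, (IsScalarTower.algebraMap_apply F N Kb f).symm⟩)
  have hin : ∀ (v : Valuation Kb ℝ≥0) (Φ : FP hG hπ hd →+* Cpl v)
      (_ : ∀ (f : F) (h : algebraMap F E f ∈ FP hG hπ hd),
        Φ ⟨algebraMap F E f, h⟩ = toCpl v (algebraMap F Kb f))
      (_ : ∀ r, Φ r ∈ clS v (algebraMap N Kb).fieldRange)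
      (_ : toCpl v (algebraMap K Kb I.θ) = Φ ⟨algebraMap K E I.θ, hK I.θ⟩),
      ∀ a ∈ A', a ∈ cl v (Set.range (algebraMap N Kb)) := by
    intro v Φ hΦ hΦY hθ a ha
    obtain ⟨a, rfl⟩ := (hA' a).1 ha
    have h1 : ∑ i, Φ (zz i) * ((toCpl v).comp gb) ⟨xx i, G.hN (xx i).2⟩ = 1 := by
      rw [hval]
      exact I.e_inside Φ _ hθ
    have h2 := G.homPin (Ω := Cpl v) Φ ((toCpl v).comp gb) (hFP v Φ hΦ) zz xx hepres h1
      (clS v (algebraMap N Kb).fieldRange).toSubring hΦY (fun x hx => by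
        obtain ⟨x', hx'⟩ := (SetLike.ext_iff.1 hCN _).1 hx
        have e1 : (⟨x, G.hN hx⟩ : G.A) = ⟨rL E F L (algebraMap N L x'), hNmem _⟩ :=
          Subtype.ext hx'.symm
        rw [e1]
        change toCpl v (gb _) ∈ _
        rw [hgbN]
        exact toCpl_mem_clS v _ ⟨x', rfl⟩) a
    exact (mem_clS_iff v _ _).1 h2
  refine ⟨A', hA'fin, fun x => (hA' _).2 ⟨⟨_, hNmem x⟩, hgbN _ _⟩, fun l => ?_, fun v hv => ?_,
    fun v hv => ?_⟩
  · refine hgbL A'.toSubfield ?_ (fun a => (hA' _).2 ⟨a, rfl⟩) l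
    rintro _ ⟨f, rfl⟩
    exact A'.algebraMap_mem f
  · rcases exists_map_val hG hF0 hπ hd v hv with ⟨Φ, hΦ, hΦY⟩ | ⟨Φ, hΦ, hΦY⟩
    · left
      obtain ⟨h, hh1, hh2⟩ := G.homU (Ω := Cpl v) Φ ((toCpl v).comp gb) (fun z hz => by
        obtain ⟨f, rfl⟩ := (hF0 z).1 hz
        refine Eq.trans ?_ (hΦ f _).symm
        change toCpl v (gb _) = _
        rw [hgbF])
      obtain ⟨s, hs⟩ := local_out hCL hCN G v gb hgbN h hh1 (fun Y h1 h2 =>
        hh2 Y (fun z => h1 _ (hΦY z)) h2)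
      refine ⟨s, fun a ha => ?_⟩
      obtain ⟨a, rfl⟩ := (hA' a).1 ha
      exact hs a
    · by_cases hθ : toCpl v (algebraMap K Kb I.θ) = Φ ⟨algebraMap K E I.θ, hK I.θ⟩
      · exact Or.inr (hin v Φ hΦ (fun r => hFrange v (hΦY r)) hθ)
      · left
        have h0 : ∑ i, Φ (zz i) * ((toCpl v).comp gb) ⟨xx i, G.hN (xx i).2⟩ = 0 := by
          rw [hval]
          refine I.e_outside Φ _ (fun f => ?_) hθ
          change toCpl v (algebraMap K Kb (algebraMap F K f)) = _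
          rw [← IsScalarTower.algebraMap_apply]
          exact (hΦ f _).symm
        obtain ⟨h, hh1, hh2⟩ := G.homPout (Ω := Cpl v) Φ ((toCpl v).comp gb) (hFP v Φ hΦ) zz xx
          hepres h0
        obtain ⟨s, hs⟩ := local_out hCL hCN G v gb hgbN h hh1 (fun Y h1 h2 =>
          hh2 Y (fun z => h1 _ (hΦY z)) h2)
        refine ⟨s, fun a ha => ?_⟩
        obtain ⟨a, rfl⟩ := (hA' a).1 ha
        exact hs a
  · obtain ⟨Φ, hΦ, hΦY⟩ := hv
    refine hin v Φ (fun f h => ?_) hΦY (hΦ I.θ).symm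
    have e1 : (⟨algebraMap F E f, h⟩ : FP hG hπ hd) =
        ⟨algebraMap K E (algebraMap F K f), hK _⟩ :=
      Subtype.ext (IsScalarTower.algebraMap_apply F K E f)
    rw [e1, hΦ, ← IsScalarTower.algebraMap_apply]

end T1

end Crest.Agent.R013.Gl946
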