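import Crest.Agent.R013.Gl15_946

/-!
# Patching, part 16: power series in the disc field, and their values at a place.
-/

set_option autoImplicit false

namespace Crest.Agent.R013.Gl946

open Module Filter Topology Polynomial
open scoped NNReal
open Crest.Agent.R013.A2a_275 (Cpl toCpl norm_toCpl)
open Crest.Agent.R013.SE_669 (cl)
open Crest.NumberTheoryR.Sect (IsPlace)

section Series

variable {k E : Type*} [NormedField k] [NormedField E] [NormedAlgebra k E] [IsUltrametricDist E]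
  [CompleteSpace E] {y : E} (hG : IsGauss k y)

/-- The truncated polynomial. -/
noncomputable def tr {k : Type*} [Semiring k] (G : ℕ → k) (n : ℕ) : k[X] :=
  ∑ i ∈ Finset.range n, monomial i (G i)

theorem aeval_tr {k R : Type*} [CommSemiring k] [CommSemiring R] [Algebra k R] (G : ℕ → k) (n : ℕ)
    (y : R) : aeval y (tr G n) = ∑ i ∈ Finset.range n, algebraMap k R (G i) * y ^ i := by
  rw [tr, map_sum]
  exact Finset.sum_congr rfl fun i _ => aeval_monomial _

theorem coeff_tr {k : Type*} [Semiring k] (G : ℕ → k) (n i : ℕ) (hi : i < n) :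
    (tr G n).coeff i = G i := by
  classical
  rw [tr, finsetSum_coeff]
  simp only [coeff_monomial]
  rw [Finset.sum_ite_eq' (Finset.range n) i]
  rw [if_pos (Finset.mem_range.2 hi)]

theorem exists_series (G : ℕ → k) (h : Tendsto (fun i => ‖G i‖) atTop (𝓝 0)) :
    ∃ g ∈ AP hG, Tendsto (fun n => aeval y (tr G n)) atTop (𝓝 g) ∧
      (∀ n, ∃ T ∈ AP hG, g = aeval y (tr G n) + y ^ n * T) ∧ ∀ i, ‖G i‖ ≤ ‖g‖ := by
  have key : ∀ G : ℕ → k, Tendsto (fun i => ‖G i‖) atTop (𝓝 0) →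
      Summable (fun i => algebraMap k E (G i) * y ^ i) ∧
      (∑' i, algebraMap k E (G i) * y ^ i) ∈ AP hG := by
    intro G h
    have hs : Summable (fun i => algebraMap k E (G i) * y ^ i) := by
      apply NonarchimedeanAddGroup.summable_of_tendsto_cofinite_zero
      rw [Nat.cofinite_eq_atTop]
      refine squeeze_zero_norm (fun i => ?_) h
      rw [norm_mul, norm_pow, norm_algebraMap']
      calc ‖G i‖ * ‖y‖ ^ i ≤ ‖G i‖ * 1 :=
            mul_le_mul_of_nonneg_left (pow_le_one₀ (norm_nonneg _) hG.norm_le) (norm_nonneg _)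
        _ = ‖G i‖ := mul_one _
    refine ⟨hs, ?_⟩
    refine (isClosed_AP hG).mem_of_tendsto hs.hasSum.tendsto_sum_nat (Eventually.of_forall ?_)
    intro n
    have := aeval_tr G n y
    rw [← this]
    exact aeval_mem_AP hG _
  obtain ⟨hs, hmem⟩ := key G h
  have htend : Tendsto (fun n => aeval y (tr G n)) atTop
      (𝓝 (∑' i, algebraMap k E (G i) * y ^ i)) := by
    have := hs.hasSum.tendsto_sum_nat
    simpa only [aeval_tr] using this
  refine ⟨_, hmem, htend, fun n => ?_, fun i => ?_⟩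
  · have hn : Tendsto (fun i => ‖G (i + n)‖) atTop (𝓝 0) := (tendsto_add_atTop_iff_nat n).2 h
    obtain ⟨hs', hmem'⟩ := key (fun i => G (i + n)) hn
    refine ⟨_, hmem', ?_⟩
    rw [← hs.sum_add_tsum_nat_add n, aeval_tr, ← tsum_mul_left]
    congr 1
    refine tsum_congr fun i => ?_
    rw [pow_add]; ring
  · refine ge_of_tendsto htend.norm (eventually_atTop.2 ⟨i + 1, fun n hn => ?_⟩)
    have := hG.coeff_le (tr G n) i
    rwa [coeff_tr G n i (by omega)] at this

theorem AP_le_FP [CompleteSpace k] {π : k} (hπ : IsUnif π) (hd : DenseRat k y) {a : E}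
    (ha : a ∈ AP hG) : a ∈ FP hG hπ hd :=
  (mem_FP hG hπ hd _).2 ⟨a, ha, 1, one_ne_zero, by simp⟩

/-- Continuity of `Φ` along power series. -/
theorem tendsto_map [CompleteSpace k] {π : k} (hπ : IsUnif π) (hd : DenseRat k y)
    {Ω : Type*} [NormedField Ω] (Φ : FP hG hπ hd →+* Ω)
    (hΦ : ∀ a (_ : a ∈ AP hG) (ha' : a ∈ FP hG hπ hd), ‖Φ ⟨a, ha'⟩‖ ≤ 1)
    (hyFP : y ∈ FP hG hπ hd) (hy : ‖Φ ⟨y, hyFP⟩‖ < 1) (G : ℕ → k) (g : E) (hg : g ∈ AP hG)
    (hT : ∀ n, ∃ T ∈ AP hG, g = aeval y (tr G n) + y ^ n * T) :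
    Tendsto (fun n => Φ ⟨aeval y (tr G n), AP_le_FP hG hπ hd (aeval_mem_AP hG _)⟩) atTop
      (𝓝 (Φ ⟨g, AP_le_FP hG hπ hd hg⟩)) := by
  have hlim : Tendsto (fun n : ℕ => ‖Φ ⟨y, hyFP⟩‖ ^ n) atTop (𝓝 0) :=
    tendsto_pow_atTop_nhds_zero_of_lt_one (norm_nonneg _) hy
  rw [tendsto_iff_norm_sub_tendsto_zero]
  refine squeeze_zero (fun n => norm_nonneg _) (fun n => ?_) hlim
  obtain ⟨T, hTAP, e⟩ := hT n
  have e1 : (⟨g, AP_le_FP hG hπ hd hg⟩ : FP hG hπ hd) =
      ⟨aeval y (tr G n), AP_le_FP hG hπ hd (aeval_mem_AP hG _)⟩ +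
        ⟨y, hyFP⟩ ^ n * ⟨T, AP_le_FP hG hπ hd hTAP⟩ := Subtype.ext e
  rw [e1, map_add, map_mul, map_pow, sub_add_cancel_left, norm_neg, norm_mul, norm_pow]
  calc _ ≤ ‖Φ ⟨y, hyFP⟩‖ ^ n * 1 :=
        mul_le_mul_of_nonneg_left (hΦ _ hTAP _) (by positivity)
    _ = _ := mul_one _

end Series

section MapsP

variable {k E : Type*} [NontriviallyNormedField k] [CompleteSpace k] [IsUltrametricDist k]
  [NormedField E] [NormedAlgebra k E] [IsUltrametricDist E] [CompleteSpace E] {y : E}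
  (hG : IsGauss k y)
variable {F Kb : Type*} [Field F] [Field Kb] [Algebra F E] [Algebra F Kb] [Algebra k F]
  [IsScalarTower k F E] [Algebra k Kb] [IsScalarTower k F Kb]
  (hF0 : ∀ z, z ∈ KY hG ↔ ∃ f : F, algebraMap F E f = z)

include hF0 in
/-- The map on `FP` for a place `v` with `v y < 1`, with its bound. -/
theorem exists_mapFP_val {π : k} (hπ : IsUnif π) (hd : DenseRat k y)
    (v : Valuation Kb ℝ≥0) (hv : IsPlace k v)
    (yF : F) (hyF : algebraMap F E yF = y) (hvy : v (algebraMap F Kb yF) < 1) :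
    ∃ Φ : FP hG hπ hd →+* Cpl v, (∀ (f : F) (h : algebraMap F E f ∈ FP hG hπ hd),
        Φ ⟨algebraMap F E f, h⟩ = toCpl v (algebraMap F Kb f)) ∧
        (∀ r, Φ r ∈ clS v (algebraMap F Kb).fieldRange) ∧
        ∀ a (_ : a ∈ AP hG) (ha' : a ∈ FP hG hπ hd), ‖Φ ⟨a, ha'⟩‖ ≤ 1 := by
  obtain ⟨σ, hσ, hσ'⟩ := exists_sigma hG hF0
  have hmemF : ∀ f : F, algebraMap F E f ∈ KY hG := fun f => (hF0 _).2 ⟨f, rfl⟩
  have hconst : ∀ c : k, toCpl v (algebraMap F Kb (σ ⟨algebraMap k E c, const_mem_KY hG c⟩)) =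
      toCpl v (algebraMap k Kb c) := by
    intro c
    have e1 : (⟨algebraMap k E c, const_mem_KY hG c⟩ : KY hG) =
        ⟨algebraMap F E (algebraMap k F c), hmemF _⟩ := by
      ext; exact IsScalarTower.algebraMap_apply k F E c
    rw [e1, hσ', ← IsScalarTower.algebraMap_apply]
  have hy : ‖((toCpl v).comp ((algebraMap F Kb).comp σ)) ⟨y, y_mem_KY hG⟩‖ < 1 := by
    change ‖toCpl v (algebraMap F Kb (σ _))‖ < _
    have e1 : (⟨y, y_mem_KY hG⟩ : KY hG) = ⟨algebraMap F E yF, hmemF _⟩ := Subtype.ext hyF.symm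
    rw [e1, hσ', norm_toCpl]
    exact_mod_cast hvy
  obtain ⟨Φ, h1, h2, h3⟩ := mapFP_place' hG hπ hd ((toCpl v).comp ((algebraMap F Kb).comp σ)) (by
      intro c
      change ‖toCpl v (algebraMap F Kb (σ _))‖ ≤ _
      rw [hconst, norm_toCpl]
      by_cases hc : c = 0
      · rw [hc, map_zero, map_zero]; simp
      · rw [hv.1 c hc]; simp) hy.le X monic_X (by
      intro i hi
      rw [natDegree_X] at hi
      have : i = 0 := by omega
      subst this
      rw [coeff_X_zero, norm_zero]; exact zero_lt_one) (by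
      have e1 : (⟨aeval y (X : k[X]), aeval_mem_KY hG X⟩ : KY hG) = ⟨y, y_mem_KY hG⟩ :=
        Subtype.ext (aeval_X y)
      rw [e1]; exact hy)
    (clS v (algebraMap F Kb).fieldRange) (isClosed_clS _ _)
    (fun z => toCpl_mem_clS v _ ⟨σ z, rfl⟩)
  refine ⟨Φ, fun f h => ?_, h2, h3⟩
  rw [h1 _ (hmemF f)]
  change toCpl v (algebraMap F Kb (σ _)) = _
  rw [hσ']

end MapsP

end Crest.Agent.R013.Gl946
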