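import Crest.Agent.R013.Gl16_946

/-!
# Patching, part 17: the cutting theorem inside a valued algebraically closed field.
-/

set_option autoImplicit false

namespace Crest.Agent.R013.Gl946

open Module Filter Topology Polynomial
open scoped NNReal
open Crest.Agent.R013.A2a_275 (Cpl toCpl norm_toCpl)
open Crest.Agent.R013.SE_669 (cl)
open Crest.NumberTheoryR.Sect (IsPlace)

/-- `C(y)`. -/
noncomputable abbrev FF (C : Type*) {Kb : Type*} [Field C] [Field Kb] [Algebra C Kb] (yb : Kb) :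
    IntermediateField C Kb := IntermediateField.adjoin C {yb}

/-- The completion of `C(y)`. -/
noncomputable abbrev EE (C : Type*) {Kb : Type*} [Field C] [Field Kb] [Algebra C Kb]
    (v0 : Valuation Kb ℝ≥0) (yb : Kb) : Subfield (Cpl v0) := clS v0 (FF C yb).toSubfield

/-- `f = G(y)/H(y)` in the completion. -/
structure Pres (C : Type*) {Kb : Type*} [NormedField C] [Field Kb] [Algebra C Kb]
    (v0 : Valuation Kb ℝ≥0) (yb f : Kb) (G H : ℕ → C) : Prop where
  ne : ∃ i, H i ≠ 0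
  tG : Tendsto (fun i => ‖G i‖) atTop (𝓝 0)
  tH : Tendsto (fun i => ‖H i‖) atTop (𝓝 0)
  lim : Tendsto (fun n => v0 (f * aeval yb (tr H n) - aeval yb (tr G n))) atTop (𝓝 0)

/-- Level 1 with ring homomorphisms instead of algebra structures. -/
theorem cut_level1_hom {k E : Type*} [NontriviallyNormedField k] [CompleteSpace k]
    [IsUltrametricDist k] [NontriviallyNormedField E] [NormedAlgebra k E] [IsUltrametricDist E]
    [CompleteSpace E] {y : E} (hG : IsGauss k y) {π : k} (hπ : IsUnif π) (hd : DenseRat k y)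
    {F K N L Kb : Type*} [Field F] [Field K] [Field N] [Field L] [Field Kb] [IsAlgClosed Kb]
    [CharZero F] [Algebra F E] [Algebra F Kb] [Algebra k F] [IsScalarTower k F E] [Algebra k Kb]
    [IsScalarTower k F Kb] [Algebra.IsAlgebraic F Kb]
    (aKE : K →+* E) (aFK : F →+* K) (aKN : K →+* N) (aNL : N →+* L) (aLKb : L →+* Kb)
    (hFKE : ∀ f, aKE (aFK f) = algebraMap F E f)
    (hFKb : ∀ f, aLKb (aNL (aKN (aFK f))) = algebraMap F Kb f)
    (hfin : (aNL.comp (aKN.comp aFK)).Finite)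
    (hF0 : ∀ z, z ∈ KY hG ↔ ∃ f : F, algebraMap F E f = z)
    (hK : ∀ f : K, aKE f ∈ FP hG hπ hd)
    (hdense : ∀ v : Valuation Kb ℝ≥0, (∀ f : K, v (aLKb (aNL (aKN f))) = ‖aKE f‖₊) →
      ∀ l : L, aLKb l ∈ cl v (Set.range fun x : N => aLKb (aNL x)))
    (w : Valuation Kb ℝ≥0) (hw : ∀ c : k, w (algebraMap k Kb c) = ‖c‖₊)
    (yF : F) (hyF : algebraMap F E yF = y) (hwy : 1 ≤ w (algebraMap F Kb yF)) :
    ∃ A' : IntermediateField F Kb, FiniteDimensional F A' ∧ (∀ x : N, aLKb (aNL x) ∈ A') ∧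
      (∀ l : L, aLKb l ∈ cl w (A' : Set Kb)) ∧
      (∀ v : Valuation Kb ℝ≥0, ((∀ c : k, v (algebraMap k Kb c) = ‖c‖₊) ∨ IsPlace k v) →
        (∃ s : Kb ≃+* Kb, (∀ x : N, s (aLKb (aNL x)) = aLKb (aNL x)) ∧
          ∀ a ∈ A', a ∈ cl v (Set.range fun l : L => s (aLKb l))) ∨
        (∀ a ∈ A', a ∈ cl v (Set.range fun x : N => aLKb (aNL x)))) ∧
      (∀ v : Valuation Kb ℝ≥0, (∃ Φ : FP hG hπ hd →+* Cpl v,
        (∀ f : K, Φ ⟨aKE f, hK f⟩ = toCpl v (aLKb (aNL (aKN f)))) ∧
        ∀ r, Φ r ∈ clS v (algebraMap F Kb).fieldRange) →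
        ∀ a ∈ A', a ∈ cl v (Set.range fun x : N => aLKb (aNL x))) := by
  let i1 : Algebra F K := aFK.toAlgebra
  let i2 : Algebra K N := aKN.toAlgebra
  let i3 : Algebra F N := (aKN.comp aFK).toAlgebra
  let i4 : Algebra N L := aNL.toAlgebra
  let i5 : Algebra K L := (aNL.comp aKN).toAlgebra
  let i6 : Algebra F L := (aNL.comp (aKN.comp aFK)).toAlgebra
  let i7 : Algebra L Kb := aLKb.toAlgebra
  let i8 : Algebra N Kb := (aLKb.comp aNL).toAlgebra
  let i9 : Algebra K Kb := (aLKb.comp (aNL.comp aKN)).toAlgebra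
  let i10 : Algebra K E := aKE.toAlgebra
  have t1 : IsScalarTower F K E := IsScalarTower.of_algebraMap_eq fun f => (hFKE f).symm
  have t2 : IsScalarTower F K N := IsScalarTower.of_algebraMap_eq fun _ => rfl
  have t3 : IsScalarTower F K L := IsScalarTower.of_algebraMap_eq fun _ => rfl
  have t4 : IsScalarTower F N L := IsScalarTower.of_algebraMap_eq fun _ => rfl
  have t5 : IsScalarTower K N L := IsScalarTower.of_algebraMap_eq fun _ => rfl
  have t6 : IsScalarTower K N Kb := IsScalarTower.of_algebraMap_eq fun _ => rfl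
  have t7 : IsScalarTower N L Kb := IsScalarTower.of_algebraMap_eq fun _ => rfl
  have t8 : IsScalarTower F K Kb := IsScalarTower.of_algebraMap_eq fun f => (hFKb f).symm
  have t9 : IsScalarTower F N Kb := IsScalarTower.of_algebraMap_eq fun f => (hFKb f).symm
  have f0 : FiniteDimensional F L := hfin
  have f1 : FiniteDimensional F N := FiniteDimensional.of_injective
    (IsScalarTower.toAlgHom F N L).toLinearMap aNL.injective
  have f2 : FiniteDimensional F K := FiniteDimensional.of_injective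
    (IsScalarTower.toAlgHom F K N).toLinearMap aKN.injective
  have f3 : FiniteDimensional K N := Module.Finite.of_restrictScalars_finite F K N
  have f4 : FiniteDimensional N L := Module.Finite.of_restrictScalars_finite F N L
  have a1 : Algebra.IsAlgebraic K Kb := Algebra.IsAlgebraic.tower_top (K := F) K
  have a2 : Algebra.IsAlgebraic N Kb := Algebra.IsAlgebraic.tower_top (K := F) N
  obtain ⟨A', h1, h2, h3, h4, h5⟩ := cut_level1 (F := F) (K := K) (N := N) (L := L)
    (Kb := Kb) hG hπ hd hF0 hK hdense w hw yF hyF hwy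
  refine ⟨A', h1, h2, h3, fun v hv => ?_, fun v hv => h5 v ?_⟩
  · rcases h4 v hv with ⟨s, hs⟩ | h
    · exact Or.inl ⟨s.toRingEquiv, fun x => s.commutes x, hs⟩
    · exact Or.inr h
  · obtain ⟨Φ, hΦ, hΦ'⟩ := hv
    refine ⟨Φ, hΦ, fun r => clS_mono v ?_ (hΦ' r)⟩
    rintro _ ⟨f, rfl⟩
    exact ⟨algebraMap F N f, (IsScalarTower.algebraMap_apply F N Kb f).symm⟩

section EData

variable (C : Type*) {Kb : Type*} [NontriviallyNormedField C] [Field Kb] [Algebra C Kb]
  (v0 : Valuation Kb ℝ≥0) (yb : Kb)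

/-- `C(y) → E`. -/
noncomputable def jF : FF C yb →+* EE C v0 yb :=
  ((toCpl v0).comp (algebraMap (FF C yb) Kb)).codRestrict (EE C v0 yb)
    fun f => toCpl_mem_clS v0 _ f.2

theorem norm_jF (f : FF C yb) : ‖jF C v0 yb f‖ = v0 f := norm_toCpl v0 _

variable {C} in
theorem norm_jF_const (hv0 : ∀ c : C, v0 (algebraMap C Kb c) = ‖c‖₊) (c : C) :
    ‖jF C v0 yb (algebraMap C (FF C yb) c)‖ = ‖c‖ := by
  have h1 : ‖jF C v0 yb (algebraMap C (FF C yb) c)‖ = v0 (algebraMap C Kb c) := norm_jF C v0 yb _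
  rw [h1, hv0]; rfl

/-- The normed field `E`. -/
@[instance_reducible]
noncomputable def instE (hv0 : ∀ c : C, v0 (algebraMap C Kb c) = ‖c‖₊) :
    NontriviallyNormedField (EE C v0 yb) :=
  { (inferInstance : NormedField (EE C v0 yb)) with
    non_trivial := by
      obtain ⟨c, hc⟩ := NormedField.exists_one_lt_norm C
      refine ⟨jF C v0 yb (algebraMap C _ c), ?_⟩
      have h1 := norm_jF_const v0 yb hv0 c
      change 1 < ‖jF C v0 yb (algebraMap C _ c)‖
      rw [h1]; exact hc }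

/-- The `C(y)`-algebra `E`. -/
@[instance_reducible]
noncomputable def algFE : Algebra (FF C yb) (EE C v0 yb) := (jF C v0 yb).toAlgebra

/-- The `C`-algebra `E`. -/
@[instance_reducible]
noncomputable def algCE (hv0 : ∀ c : C, v0 (algebraMap C Kb c) = ‖c‖₊) :
    letI := instE C v0 yb hv0
    NormedAlgebra C (EE C v0 yb) :=
  letI := instE C v0 yb hv0
  { ((jF C v0 yb).comp (algebraMap C (FF C yb))).toAlgebra with
    norm_smul_le := by
      intro c z
      have h1 := norm_jF_const v0 yb hv0 c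
      change ‖jF C v0 yb (algebraMap C _ c) * z‖ ≤ _
      rw [norm_mul]
      exact (congrArg (· * ‖z‖) h1).le }

end EData

/-- **The cutting theorem, level 2.** -/
theorem cut_level2 {C Kb : Type*} [NontriviallyNormedField C] [CompleteSpace C]
    [IsUltrametricDist C] [Field Kb] [IsAlgClosed Kb] [CharZero Kb] [Algebra C Kb] {ϖ : C}
    (hϖ : IsUnif ϖ) (v0 : Valuation Kb ℝ≥0) (hv0 : ∀ c : C, v0 (algebraMap C Kb c) = ‖c‖₊)
    (yb : Kb) (hy1 : v0 yb ≤ 1) (hgauss : ∀ (f : C[X]) i, ‖f.coeff i‖₊ ≤ v0 (aeval yb f))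
    [Algebra.IsAlgebraic (FF C yb) Kb]
    (K N L : IntermediateField (FF C yb) Kb) (hKN : K ≤ N) (hNL : N ≤ L)
    [FiniteDimensional (FF C yb) L]
    (S : Set Kb) (hS : K = IntermediateField.adjoin (FF C yb) S)
    (hpres : ∀ f ∈ S, ∃ G H : ℕ → C, Pres C v0 yb f G H)
    (hdense : ∀ v : Valuation Kb ℝ≥0, (∀ f ∈ K, v f = v0 f) → ∀ l ∈ L, l ∈ cl v (N : Set Kb))
    (w : Valuation Kb ℝ≥0) (hw : ∀ c : C, w (algebraMap C Kb c) = ‖c‖₊) (hwy : 1 ≤ w yb) :
    ∃ A' : IntermediateField (FF C yb) Kb, FiniteDimensional (FF C yb) A' ∧ N ≤ A' ∧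
      (∀ l ∈ L, l ∈ cl w (A' : Set Kb)) ∧
      (∀ v : Valuation Kb ℝ≥0, ((∀ c : C, v (algebraMap C Kb c) = ‖c‖₊) ∨ IsPlace C v) →
        (∃ s : Kb ≃+* Kb, (∀ x ∈ N, s x = x) ∧ ∀ a ∈ A', a ∈ cl v (s '' (L : Set Kb))) ∨
        (∀ a ∈ A', a ∈ cl v (N : Set Kb))) ∧
      (∀ v : Valuation Kb ℝ≥0, IsPlace C v → v yb < 1 →
        (∀ f ∈ S, ∃ G H : ℕ → C, Pres C v0 yb f G H ∧
          Tendsto (fun n => v (f * aeval yb (tr H n) - aeval yb (tr G n))) atTop (𝓝 0)) →
        ∀ a ∈ A', a ∈ cl v (N : Set Kb)) := by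
  classical
  let iE : NontriviallyNormedField (EE C v0 yb) := instE C v0 yb hv0
  let iCE : NormedAlgebra C (EE C v0 yb) := algCE C v0 yb hv0
  let iFE : Algebra (FF C yb) (EE C v0 yb) := algFE C v0 yb
  have iU : IsUltrametricDist (EE C v0 yb) := inferInstance
  have iC : CompleteSpace (EE C v0 yb) := (isClosed_clS v0 _).completeSpace_coe
  have iT : IsScalarTower C (FF C yb) (EE C v0 yb) := IsScalarTower.of_algebraMap_eq fun _ => rfl
  set yF : FF C yb := ⟨yb, IntermediateField.mem_adjoin_simple_self C yb⟩ with hyF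
  set y : EE C v0 yb := algebraMap (FF C yb) (EE C v0 yb) yF with hy
  have hnorm : ∀ f : FF C yb, ‖algebraMap (FF C yb) (EE C v0 yb) f‖ = v0 f := norm_jF C v0 yb
  have haevalE : ∀ f : C[X], aeval y f = algebraMap (FF C yb) (EE C v0 yb) (aeval yF f) :=
    fun f => aeval_algebraMap_apply _ _ _
  have haevalK : ∀ f : C[X], ((aeval yF f : FF C yb) : Kb) = aeval yb f := fun f =>
    (aeval_algebraMap_apply Kb yF f).symm
  have hG : IsGauss C y := by
    refine ⟨?_, fun f i => ?_⟩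
    · rw [hy, hnorm]; exact_mod_cast hy1
    · rw [haevalE, hnorm, haevalK]; exact_mod_cast hgauss f i
  have hF0 : ∀ z, z ∈ KY hG ↔ ∃ f : FF C yb, algebraMap (FF C yb) (EE C v0 yb) f = z := by
    intro z
    constructor
    · rintro ⟨f, g, hg, rfl⟩
      exact ⟨aeval yF f / aeval yF g, by rw [map_div₀, ← haevalE, ← haevalE]⟩
    · rintro ⟨b, rfl⟩
      obtain ⟨r, s, hb⟩ := (IntermediateField.mem_adjoin_simple_iff C (b : Kb)).1 b.2
      by_cases hs : s = 0
      · have : b = 0 := Subtype.ext (by rw [hb, hs]; simp)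
        rw [this, map_zero]; exact zero_mem _
      · refine ⟨r, s, hs, ?_⟩
        have : b = aeval yF r / aeval yF s := Subtype.ext (by
          rw [hb, ← haevalK, ← haevalK]; rfl)
        rw [this, map_div₀, haevalE, haevalE]
  have hd : DenseRat C y := by
    intro z ε hε
    have hz : (z : Cpl v0) ∈ closure ((((FF C yb).toSubfield.map (toCpl v0) :
      Subfield (Cpl v0))) : Set (Cpl v0)) := z.2
    obtain ⟨_, ⟨b, hb, rfl⟩, hdist⟩ := Metric.mem_closure_iff.1 hz ε hε
    obtain ⟨f, g, hg, e⟩ := (hF0 _).2 ⟨⟨b, hb⟩, rfl⟩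
    refine ⟨f, g, hg, ?_⟩
    rw [← e]
    rw [dist_eq_norm] at hdist
    exact hdist
  have hval : ∀ p : C[X], ((aeval y p : EE C v0 yb) : Cpl v0) = toCpl v0 (aeval yb p) := by
    intro p
    rw [haevalE, ← haevalK]; rfl
  -- presentations
  have hpresE : ∀ (f : Kb) (G H : ℕ → C), Pres C v0 yb f G H → ∀ g h : EE C v0 yb,
      Tendsto (fun n => aeval y (tr G n)) atTop (𝓝 g) →
      Tendsto (fun n => aeval y (tr H n)) atTop (𝓝 h) → toCpl v0 f * h = g := by
    intro f G H hp g h hg hh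
    have h1 : Tendsto (fun n => ((aeval y (tr G n) : EE C v0 yb) : Cpl v0)) atTop
        (𝓝 (g : Cpl v0)) := (continuous_subtype_val.tendsto g).comp hg
    have h2 : Tendsto (fun n => ((aeval y (tr H n) : EE C v0 yb) : Cpl v0)) atTop
        (𝓝 (h : Cpl v0)) := (continuous_subtype_val.tendsto h).comp hh
    have h3 := (h2.const_mul (toCpl v0 f)).sub h1
    have h4 : Tendsto (fun n => toCpl v0 f * ((aeval y (tr H n) : EE C v0 yb) : Cpl v0) -
        ((aeval y (tr G n) : EE C v0 yb) : Cpl v0)) atTop (𝓝 0) := by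
      rw [tendsto_zero_iff_norm_tendsto_zero]
      have h5 : ∀ n, ‖toCpl v0 f * ((aeval y (tr H n) : EE C v0 yb) : Cpl v0) -
        ((aeval y (tr G n) : EE C v0 yb) : Cpl v0)‖ =
          v0 (f * aeval yb (tr H n) - aeval yb (tr G n)) := by
        intro n
        rw [hval, hval, ← map_mul, ← map_sub, norm_toCpl]
      simp only [h5]
      have h6 := (NNReal.tendsto_coe (f := atTop)).2 hp.lim
      simpa using h6
    exact sub_eq_zero.1 (tendsto_nhds_unique h3 h4)
  set T : Subfield Kb := ((FP hG hϖ hd).map (EE C v0 yb).subtype).comap (toCpl v0) with hTdef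
  have hT : ∀ a, a ∈ T ↔ ∃ z : EE C v0 yb, z ∈ FP hG hϖ hd ∧ (z : Cpl v0) = toCpl v0 a :=
    fun a => Iff.rfl
  have hKT : ∀ a ∈ K, a ∈ T := by
    have h1 : Subfield.closure (Set.range (algebraMap (FF C yb) Kb) ∪ S) ≤ T := by
      rw [Subfield.closure_le]
      rintro a (⟨f, rfl⟩ | ha)
      · exact (hT _).2 ⟨algebraMap (FF C yb) (EE C v0 yb) f,
          KY_le_FP hG hϖ hd ((hF0 _).2 ⟨f, rfl⟩), rfl⟩
      · obtain ⟨G, H, hp⟩ := hpres a ha
        obtain ⟨g, hgAP, hgt, -, -⟩ := exists_series hG G hp.tG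
        obtain ⟨h, hhAP, hht, -, hhn⟩ := exists_series hG H hp.tH
        obtain ⟨i, hi⟩ := hp.ne
        have hh0 : h ≠ 0 := by
          rintro rfl
          have := hhn i
          rw [norm_zero] at this
          exact hi (norm_le_zero_iff.1 this)
        refine (hT _).2 ⟨g / h, (FP hG hϖ hd).div_mem (AP_le_FP hG hϖ hd hgAP)
          (AP_le_FP hG hϖ hd hhAP), ?_⟩
        have h2 := hpresE a G H hp g h hgt hht
        have hh0' : (h : Cpl v0) ≠ 0 := fun h0 => hh0 (Subtype.ext h0)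
        change (g : Cpl v0) / (h : Cpl v0) = _
        rw [div_eq_iff hh0', h2]
    intro a ha
    rw [hS] at ha
    exact h1 ha
  have hKE : ∀ a ∈ K, toCpl v0 a ∈ EE C v0 yb := by
    intro a ha
    obtain ⟨z, -, hz⟩ := (hT a).1 (hKT a ha)
    rw [← hz]; exact z.2
  let κ : K →+* EE C v0 yb := ((toCpl v0).comp (algebraMap K Kb)).codRestrict (EE C v0 yb)
    fun f => hKE f f.2
  have hκ : ∀ f : K, ((κ f : EE C v0 yb) : Cpl v0) = toCpl v0 f := fun f => rfl
  have hKFP : ∀ f : K, κ f ∈ FP hG hϖ hd := by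
    intro f
    obtain ⟨z, hz1, hz2⟩ := (hT f).1 (hKT f f.2)
    have : z = κ f := Subtype.ext hz2
    rwa [this] at hz1
  have hNr : (Set.range fun x : N => algebraMap L Kb (IntermediateField.inclusion hNL x)) =
      (N : Set Kb) := by
    ext a
    constructor
    · rintro ⟨x, rfl⟩; exact x.2
    · intro ha; exact ⟨⟨a, ha⟩, rfl⟩
  obtain ⟨A', hA1, hA2, hA3, hA4, hA5⟩ := cut_level1_hom (F := FF C yb) (K := K) (N := N) (L := L)
    (Kb := Kb) hG hϖ hd κ (algebraMap (FF C yb) K) (IntermediateField.inclusion hKN).toRingHom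
    (IntermediateField.inclusion hNL).toRingHom (algebraMap L Kb) (fun _ => rfl) (fun _ => rfl)
    (by
      change RingHom.Finite (algebraMap (FF C yb) L)
      exact RingHom.finite_algebraMap.2 inferInstance) hF0 hKFP (fun v hv l => by
      have hgoal := hdense v (fun f hf => by
        have h1 := hv ⟨f, hf⟩
        have h2 : ‖κ ⟨f, hf⟩‖₊ = v0 f := by
          have : ‖κ ⟨f, hf⟩‖ = v0 f := norm_toCpl v0 f
          exact NNReal.coe_injective this
        rw [h2] at h1
        exact h1) _ l.2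
      rw [← hNr] at hgoal
      exact hgoal) w hw yF rfl hwy
  refine ⟨A', hA1, fun x hx => hA2 ⟨x, hx⟩, fun l hl => hA3 ⟨l, hl⟩, fun v hv => ?_,
    fun v hv hvy hpl => ?_⟩
  · rcases hA4 v hv with ⟨s, hs1, hs2⟩ | h
    · refine Or.inl ⟨s, fun x hx => hs1 ⟨x, hx⟩, fun a ha => ?_⟩
      have h1 := hs2 a ha
      have h2 : (Set.range fun l : L => s (algebraMap L Kb l)) = s '' (L : Set Kb) := by
        ext b
        constructor
        · rintro ⟨x, rfl⟩; exact ⟨x, x.2, rfl⟩
        · rintro ⟨x, hx, rfl⟩; exact ⟨⟨x, hx⟩, rfl⟩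
      rw [← h2]; exact h1
    · refine Or.inr fun a ha => ?_
      have h1 := h a ha
      rw [← hNr]; exact h1
  · -- the place `P`
    obtain ⟨Φ, hΦF, hΦcl, hΦ1⟩ := exists_mapFP_val hG hF0 hϖ hd v hv yF rfl hvy
    have hinside := hA5 v ⟨Φ, ?_, hΦcl⟩
    · intro a ha
      have h1 := hinside a ha
      rw [← hNr]; exact h1
    have hyFP : y ∈ FP hG hϖ hd := KY_le_FP hG hϖ hd (y_mem_KY hG)
    have hyn : ‖Φ ⟨y, hyFP⟩‖ < 1 := by
      have h1 : Φ ⟨y, hyFP⟩ = toCpl v yb := hΦF yF hyFP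
      rw [h1, norm_toCpl]; exact_mod_cast hvy
    have hΦp : ∀ (p : C[X]) (h : aeval y p ∈ FP hG hϖ hd), Φ ⟨aeval y p, h⟩ =
        toCpl v (aeval yb p) := by
      intro p h
      have e1 : (⟨aeval y p, h⟩ : FP hG hϖ hd) =
          ⟨algebraMap (FF C yb) (EE C v0 yb) (aeval yF p), by rw [← haevalE]; exact h⟩ :=
        Subtype.ext (haevalE p)
      rw [e1, hΦF]
      exact congrArg (toCpl v) (haevalK p)
    let κP : K →+* FP hG hϖ hd := κ.codRestrict (FP hG hϖ hd) hKFP
    set Z : Subfield Kb := (RingHom.eqLocusField (Φ.comp κP)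
      ((toCpl v).comp (algebraMap K Kb))).map (algebraMap K Kb) with hZ
    have hSK : ∀ f ∈ S, f ∈ K := fun f hf => by
      rw [hS]; exact IntermediateField.subset_adjoin _ _ hf
    have hcl : Subfield.closure (Set.range (algebraMap (FF C yb) Kb) ∪ S) ≤ Z := by
      rw [Subfield.closure_le]
      rintro a (⟨f, rfl⟩ | ha)
      · refine ⟨algebraMap (FF C yb) K f, ?_, rfl⟩
        exact hΦF f _
      · obtain ⟨G, H, hp, hvlim⟩ := hpl a ha
        obtain ⟨g, hgAP, hgt, hgT, -⟩ := exists_series hG G hp.tG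
        obtain ⟨h, hhAP, hht, hhT, hhn⟩ := exists_series hG H hp.tH
        obtain ⟨i, hi⟩ := hp.ne
        have hh0 : h ≠ 0 := by
          rintro rfl
          have := hhn i
          rw [norm_zero] at this
          exact hi (norm_le_zero_iff.1 this)
        have hEq := hpresE a G H hp g h hgt hht
        have hEq' : κ ⟨a, hSK a ha⟩ * h = g := Subtype.ext hEq
        have l1 := tendsto_map hG hϖ hd Φ hΦ1 hyFP hyn G g hgAP hgT
        have l2 := tendsto_map hG hϖ hd Φ hΦ1 hyFP hyn H h hhAP hhT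
        have l3 := (l2.const_mul (toCpl v a)).sub l1
        have l4 : Tendsto (fun n => toCpl v a *
            Φ ⟨aeval y (tr H n), AP_le_FP hG hϖ hd (aeval_mem_AP hG _)⟩ -
            Φ ⟨aeval y (tr G n), AP_le_FP hG hϖ hd (aeval_mem_AP hG _)⟩) atTop (𝓝 0) := by
          rw [tendsto_zero_iff_norm_tendsto_zero]
          have h5 : ∀ n, ‖toCpl v a *
            Φ ⟨aeval y (tr H n), AP_le_FP hG hϖ hd (aeval_mem_AP hG _)⟩ -
            Φ ⟨aeval y (tr G n), AP_le_FP hG hϖ hd (aeval_mem_AP hG _)⟩‖ =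
              v (a * aeval yb (tr H n) - aeval yb (tr G n)) := by
            intro n
            rw [hΦp, hΦp, ← map_mul, ← map_sub, norm_toCpl]
          simp only [h5]
          have h6 := (NNReal.tendsto_coe (f := atTop)).2 hvlim
          simpa using h6
        have l5 := sub_eq_zero.1 (tendsto_nhds_unique l3 l4)
        have hΦh : Φ ⟨h, AP_le_FP hG hϖ hd hhAP⟩ ≠ 0 := by
          intro h0
          exact hh0 (congrArg Subtype.val ((map_eq_zero Φ).1 h0))
        have l6 : Φ (κP ⟨a, hSK a ha⟩) * Φ ⟨h, AP_le_FP hG hϖ hd hhAP⟩ =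
            Φ ⟨g, AP_le_FP hG hϖ hd hgAP⟩ := by
          rw [← map_mul]
          exact congrArg Φ (Subtype.ext hEq')
        refine ⟨⟨a, hSK a ha⟩, ?_, rfl⟩
        exact mul_right_cancel₀ hΦh (l6.trans l5.symm)
    intro f
    have hfZ : (f : Kb) ∈ Z := hcl ((SetLike.ext_iff.1 hS (f : Kb)).1 f.2)
    obtain ⟨f', hf', e⟩ := hfZ
    have : f' = f := Subtype.ext e
    rw [this] at hf'
    exact hf'

end Crest.Agent.R013.Gl946
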