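import Crest.Agent.R013.Gl18_946

/-!
# Patching, part 19: CUT-END.
-/

set_option autoImplicit false

namespace Crest.Agent.R013.Gl946

open Module Filter Topology Polynomial
open scoped NNReal
open Crest.Agent.R013.A2a_275 (Cpl toCpl norm_toCpl absOf)
open Crest.Agent.R013.SE_669 (cl)
open Crest.NumberTheoryR.Sect (IsPlace)

/-- The closure of an intermediate field. -/
noncomputable def clK {K Kb : Type*} [Field K] [Field Kb] [Algebra K Kb] (v : Valuation Kb ℝ≥0)
    (M : IntermediateField K Kb) : IntermediateField K Kb :=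
  { (clS v M.toSubfield).comap (toCpl v) with
    algebraMap_mem' := fun r => toCpl_mem_clS v _ (M.algebraMap_mem r) }

theorem mem_clK {K Kb : Type*} [Field K] [Field Kb] [Algebra K Kb] (v : Valuation Kb ℝ≥0)
    (M : IntermediateField K Kb) (a : Kb) : a ∈ clK v M ↔ a ∈ cl v (M : Set Kb) :=
  mem_clS_iff v M.toSubfield a

/-- **CUT-END**, abstract constants `C`. -/
theorem cut_end_abs {K C Kb : Type*} [Field K] [NontriviallyNormedField C]
    [CompleteSpace C] [IsUltrametricDist C] [Field Kb] [IsAlgClosed Kb] [CharZero Kb]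
    [Algebra C Kb] [Algebra K Kb] [Algebra.IsAlgebraic K Kb] {ϖ : C}
    (hϖ : IsUnif ϖ) (v0 P : Valuation Kb ℝ≥0) (hv0 : ∀ c : C, v0 (algebraMap C Kb c) = ‖c‖₊)
    (KC : IntermediateField K Kb) (xb : Kb) (hxKC : xb ∈ KC) (hx0 : xb ≠ 0)
    (π : C) (hπ : π ≠ 0)
    (hfinKC : ∀ h : (∀ f ∈ FF C (xb / algebraMap C Kb π), f ∈ KC),
      FiniteDimensional (FF C (xb / algebraMap C Kb π)) (reb (FF C (xb / algebraMap C Kb π)) KC h))
    (hgauss : ∀ (n : ℕ) (c : ℕ → C), v0 (∑ i ∈ Finset.range n, algebraMap C Kb (c i) *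
      xb ^ i) = (Finset.range n).sup fun i => ‖c i‖₊ * ‖π‖₊ ^ i)
    (hdisc : ∀ f : K, ∃ G H : ℕ → C, (∃ i, H i ≠ 0) ∧
      (∃ R B : ℝ≥0, ‖π‖₊ < R ∧ ∀ i, ‖G i‖₊ * R ^ i ≤ B ∧ ‖H i‖₊ * R ^ i ≤ B) ∧
      Tendsto (fun n => v0 (algebraMap K Kb f * (∑ i ∈ Finset.range n, algebraMap C Kb (H i) *
        xb ^ i) - ∑ i ∈ Finset.range n, algebraMap C Kb (G i) * xb ^ i)) atTop (𝓝 0) ∧
      Tendsto (fun n => P (algebraMap K Kb f * (∑ i ∈ Finset.range n, algebraMap C Kb (H i) *
        xb ^ i) - ∑ i ∈ Finset.range n, algebraMap C Kb (G i) * xb ^ i)) atTop (𝓝 0))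
    (hPx : P xb < 1)
    (U L : IntermediateField K Kb)
    (hKC : KC = IntermediateField.adjoin K (Set.range (algebraMap C Kb)))
    [FiniteDimensional K U] [FiniteDimensional K L] (hCU : ∀ c : C, algebraMap C Kb c ∈ U)
    (hdense : ∀ v : Valuation Kb ℝ≥0, (∀ f ∈ KC, v f = v0 f) → ∀ l ∈ L, l ∈ cl v (U : Set Kb))
    (w : Valuation Kb ℝ≥0) (hw : ∀ c : C, w (algebraMap C Kb c) = ‖c‖₊)
    (hwx : ‖π‖₊ ≤ w xb) :
    ∃ A' : IntermediateField K Kb, FiniteDimensional K A' ∧ U ≤ A' ∧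
      (∀ l ∈ L, l ∈ cl w (A' : Set Kb)) ∧
      (∀ v : Valuation Kb ℝ≥0, ((∀ c : C, v (algebraMap C Kb c) = ‖c‖₊) ∨ IsPlace C v) →
        (∃ s : Kb ≃ₐ[K] Kb, (∀ u ∈ U, s u = u) ∧
          ∀ a ∈ A', a ∈ cl v (s '' ((L ⊔ U : IntermediateField K Kb) : Set Kb))) ∨
        (∀ a ∈ A', a ∈ cl v (U : Set Kb))) ∧
      (∀ v : Valuation Kb ℝ≥0, IsPlace C v → (∀ f ∈ KC, v f ≤ 1 ↔ P f ≤ 1) →
        ∀ a ∈ A', a ∈ cl v (U : Set Kb)) := by
  classical
  set πb : Kb := algebraMap C Kb π with hπb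
  have hπb0 : πb ≠ 0 := (_root_.map_ne_zero _).2 hπ
  have hπn : ‖π‖₊ ≠ 0 := by simpa using hπ
  set yb : Kb := xb / πb with hyb
  have hxy : xb = yb * πb := by rw [hyb, div_mul_cancel₀ _ hπb0]
  have hKle : KC ≤ U := by
    rw [hKC, IntermediateField.adjoin_le_iff]
    rintro _ ⟨c, rfl⟩; exact hCU c
  have hCKC : ∀ c : C, algebraMap C Kb c ∈ KC := fun c => by
    rw [hKC]; exact IntermediateField.subset_adjoin _ _ ⟨c, rfl⟩
  have hyKC : yb ∈ KC := KC.div_mem hxKC (hCKC π)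
  have hFKC : ∀ f ∈ FF C yb, f ∈ KC := by
    have h1 : Subfield.closure (Set.range (algebraMap C Kb) ∪ {yb}) ≤ KC.toSubfield := by
      rw [Subfield.closure_le]
      rintro _ (⟨c, rfl⟩ | rfl)
      · exact hCKC c
      · exact hyKC
    exact fun f hf => h1 hf
  have hfinKC' : FiniteDimensional (FF C yb) (reb (FF C yb) KC hFKC) := hfinKC hFKC
  have halg : Algebra.IsAlgebraic (FF C yb) Kb := algebraic_F' (FF C yb) KC hFKC hfinKC'
  -- rescaling
  have hpoly : ∀ (c : ℕ → C) (n : ℕ), aeval yb (tr (fun i => c i * π ^ i) n) =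
      ∑ i ∈ Finset.range n, algebraMap C Kb (c i) * xb ^ i := by
    intro c n
    rw [aeval_tr]
    refine Finset.sum_congr rfl fun i _ => ?_
    rw [map_mul, map_pow, ← hπb, hxy, mul_pow]; ring
  have hvx : v0 xb = ‖π‖₊ := by
    have h1 := hgauss 2 (fun i => if i = 1 then 1 else 0)
    have h2 : (∑ i ∈ Finset.range 2, algebraMap C Kb (if i = 1 then 1 else 0) * xb ^ i) = xb := by
      rw [Finset.sum_range_succ, Finset.sum_range_succ]; simp
    rw [h2] at h1
    rw [h1]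
    simp [Finset.range_add_one]
  have hvy : v0 yb ≤ 1 := by
    rw [hyb, map_div₀, hvx, hπb, hv0, div_self hπn]
  have hgauss' : ∀ (f : C[X]) i, ‖f.coeff i‖₊ ≤ v0 (aeval yb f) := by
    intro f i
    rcases lt_or_ge f.natDegree i with hi | hi
    · rw [coeff_eq_zero_of_natDegree_lt hi]; simp
    · have h1 : f = tr (fun j => (f.coeff j * (π ^ j)⁻¹) * π ^ j) (f.natDegree + 1) := by
        ext j
        rcases lt_or_ge j (f.natDegree + 1) with hj | hj
        · rw [coeff_tr _ _ _ hj, mul_assoc, inv_mul_cancel₀ (pow_ne_zero _ hπ), mul_one]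
        · rw [coeff_eq_zero_of_natDegree_lt (by omega), tr, finsetSum_coeff]
          symm
          refine Finset.sum_eq_zero fun l hl => ?_
          rw [coeff_monomial, if_neg]
          rintro rfl
          rw [Finset.mem_range] at hl
          omega
      have h2 := hgauss (f.natDegree + 1) (fun j => f.coeff j * (π ^ j)⁻¹)
      rw [← hpoly, ← h1] at h2
      rw [h2]
      have h3 := Finset.le_sup (f := fun j => ‖f.coeff j * (π ^ j)⁻¹‖₊ * ‖π‖₊ ^ j)
        (Finset.mem_range.2 (show i < f.natDegree + 1 by omega))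
      refine le_trans (le_of_eq ?_) h3
      rw [nnnorm_mul, nnnorm_inv, nnnorm_pow, mul_assoc, inv_mul_cancel₀ (pow_ne_zero _ hπn),
        mul_one]
  have htend : ∀ (G : ℕ → C) (R B : ℝ≥0), ‖π‖₊ < R → (∀ i, ‖G i‖₊ * R ^ i ≤ B) →
      Tendsto (fun i => ‖G i * π ^ i‖) atTop (𝓝 0) := by
    intro G R B hR hB
    have hR0 : (0 : ℝ) < R := lt_of_le_of_lt (norm_nonneg π) (by exact_mod_cast hR)
    have h1 : Tendsto (fun i : ℕ => (B : ℝ) * (‖π‖ / R) ^ i) atTop (𝓝 0) := by
      have h2 : Tendsto (fun i : ℕ => (‖π‖ / (R : ℝ)) ^ i) atTop (𝓝 0) :=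
        tendsto_pow_atTop_nhds_zero_of_lt_one (by positivity)
          ((div_lt_one hR0).2 (by exact_mod_cast hR))
      simpa using h2.const_mul (B : ℝ)
    refine squeeze_zero (fun i => norm_nonneg _) (fun i => ?_) h1
    rw [norm_mul, norm_pow, div_pow, ← mul_div_assoc, le_div_iff₀ (by positivity)]
    have h3 : ‖G i‖ * (R : ℝ) ^ i ≤ B := by exact_mod_cast hB i
    calc ‖G i‖ * ‖π‖ ^ i * (R : ℝ) ^ i = (‖G i‖ * (R : ℝ) ^ i) * ‖π‖ ^ i := by ring
      _ ≤ B * ‖π‖ ^ i := mul_le_mul_of_nonneg_right h3 (by positivity)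
  have hpres : ∀ f ∈ Set.range (algebraMap K Kb), ∃ G H : ℕ → C, Pres C v0 yb f G H ∧
      Tendsto (fun n => P (f * aeval yb (tr H n) - aeval yb (tr G n))) atTop (𝓝 0) := by
    rintro _ ⟨f, rfl⟩
    obtain ⟨G, H, ⟨i, hi⟩, ⟨R, B, hR, hB⟩, h1, h2⟩ := hdisc f
    refine ⟨fun i => G i * π ^ i, fun i => H i * π ^ i, ⟨⟨i, mul_ne_zero hi (pow_ne_zero _ hπ)⟩,
      htend G R B hR fun i => (hB i).1, htend H R B hR fun i => (hB i).2, ?_⟩, ?_⟩
    · simp only [hpoly]; exact h1
    · simp only [hpoly]; exact h2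
  have hFU : ∀ f ∈ FF C yb, f ∈ U := fun f hf => hKle (hFKC f hf)
  have hUL : U ≤ L ⊔ U := le_sup_right
  have hfinLU : FiniteDimensional K (L ⊔ U : IntermediateField K Kb) :=
    IntermediateField.finiteDimensional_sup L U
  have hfin := finite_reb' (FF C yb) KC (L ⊔ U) hFKC (hKle.trans hUL) hfinKC'
  have hS : reb (FF C yb) KC hFKC =
      IntermediateField.adjoin (FF C yb) (Set.range (algebraMap K Kb)) := by
    apply le_antisymm
    · intro a ha
      have ha' : a ∈ KC := ha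
      rw [hKC] at ha'
      have h1 : Subfield.closure (Set.range (algebraMap K Kb) ∪ Set.range (algebraMap C Kb)) ≤
          (IntermediateField.adjoin (FF C yb) (Set.range (algebraMap K Kb))).toSubfield := by
        rw [Subfield.closure_le]
        rintro _ (⟨r, rfl⟩ | ⟨c, rfl⟩)
        · exact IntermediateField.subset_adjoin _ _ ⟨r, rfl⟩
        · exact (IntermediateField.adjoin (FF C yb) (Set.range (algebraMap K Kb))).algebraMap_mem
            ⟨algebraMap C Kb c, (FF C yb).algebraMap_mem c⟩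
      exact h1 ha'
    · rw [IntermediateField.adjoin_le_iff]
      rintro _ ⟨r, rfl⟩
      exact KC.algebraMap_mem r
  obtain ⟨A, h1, h2, h3, h4, h5⟩ := cut_level2 hϖ v0 hv0 yb hvy hgauss'
    (reb (FF C yb) KC hFKC) (reb (FF C yb) U hFU)
    (reb (FF C yb) (L ⊔ U) (fun f hf => hUL (hFU f hf)))
    (fun a ha => hKle ha) (fun a ha => hUL ha) (Set.range (algebraMap K Kb)) hS
    (fun f hf => by obtain ⟨G, H, h, -⟩ := hpres f hf; exact ⟨G, H, h⟩)
    (fun v hv l hl => by
      have h1 : L ⊔ U ≤ clK v U := sup_le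
        (fun l hl => (mem_clK v U l).2 (hdense v (fun f hf => hv f hf) l hl))
        (fun l hl => (mem_clS_iff v U.toSubfield l).1 (toCpl_mem_clS v _ hl) |> (mem_clK v U l).2)
      exact (mem_clK v U l).1 (h1 hl)) w hw (by
      rw [hyb, map_div₀, hπb, hw]
      exact (one_le_div₀ (pos_iff_ne_zero.2 hπn)).2 hwx)
  let A' : IntermediateField K Kb :=
    { A.toSubfield with algebraMap_mem' := fun r => h2 (U.algebraMap_mem r) }
  have hA' : ∀ a, a ∈ A' ↔ a ∈ A := fun a => Iff.rfl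
  have hUA : ∀ a ∈ U, a ∈ A := fun a ha => h2 ha
  have hfinA : FiniteDimensional K A' := by
    let aFU : FF C yb →+* U :=
      { toFun := fun a => ⟨a.1, hFU a.1 a.2⟩
        map_one' := rfl
        map_mul' := fun _ _ => rfl
        map_zero' := rfl
        map_add' := fun _ _ => rfl }
    let aUA : U →+* A :=
      { toFun := fun a => ⟨a.1, hUA a.1 a.2⟩
        map_one' := rfl
        map_mul' := fun _ _ => rfl
        map_zero' := rfl
        map_add' := fun _ _ => rfl }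
    let aAA : A →+* A' :=
      { toFun := fun a => ⟨a.1, a.2⟩
        map_one' := rfl
        map_mul' := fun _ _ => rfl
        map_zero' := rfl
        map_add' := fun _ _ => rfl }
    have f1 : (algebraMap (FF C yb) A).Finite := RingHom.finite_algebraMap.2 h1
    have f2 : aUA.comp aFU = algebraMap (FF C yb) A := rfl
    rw [← f2] at f1
    have f3 : aUA.Finite := f1.of_comp_finite
    have f4 : (algebraMap K U).Finite := RingHom.finite_algebraMap.2 inferInstance
    have f5 : aAA.Finite := RingHom.Finite.of_surjective _ fun a => ⟨⟨a.1, a.2⟩, rfl⟩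
    have f6 := f5.comp (f3.comp f4)
    exact RingHom.finite_algebraMap.1 f6
  refine ⟨A', hfinA, fun a ha => hUA a ha, fun l hl => h3 l (le_sup_left (a := L) (b := U) hl),
    fun v hv => ?_, fun v hv hP a ha => ?_⟩
  · rcases h4 v hv with ⟨s, hs1, hs2⟩ | h
    · exact Or.inl ⟨AlgEquiv.ofRingEquiv (f := s) (fun r => hs1 _ (U.algebraMap_mem r)),
        fun u hu => hs1 u hu, fun a ha => hs2 a ha⟩
    · exact Or.inr fun a ha => h a ha
  · -- `v` is the place `P`
    have hPx0 : P xb ≠ 0 := (Valuation.ne_zero_iff P).2 hx0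
    have hvx0 : v xb ≠ 0 := (Valuation.ne_zero_iff v).2 hx0
    have hvx1 : v xb < 1 := by
      by_contra hcon
      push Not at hcon
      have e1 : v xb⁻¹ ≤ 1 := by rw [map_inv₀]; exact inv_le_one_of_one_le₀ hcon
      have e2 := (hP _ (inv_mem hxKC)).1 e1
      rw [map_inv₀] at e2
      exact absurd hPx (not_lt.2 ((inv_le_one₀ (pos_iff_ne_zero.2 hPx0)).1 e2))
    have hvy1 : v yb < 1 := by
      rw [hyb, map_div₀, hπb, hv.1 π hπ, div_one]; exact hvx1
    refine h5 v hv hvy1 (fun f hf => ?_) a ha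
    obtain ⟨G, H, hGH, hlim⟩ := hpres f hf
    refine ⟨G, H, hGH, ?_⟩
    obtain ⟨f, rfl⟩ := hf
    have hmem : ∀ p : C[X], aeval yb p ∈ KC := fun p => by
      rw [aeval_eq_sum_range]
      refine sum_mem fun i _ => ?_
      rw [Algebra.smul_def]
      exact mul_mem (hCKC _) (pow_mem hyKC _)
    set an : ℕ → Kb := fun n => algebraMap K Kb f * aeval yb (tr H n) - aeval yb (tr G n) with han
    have hanKC : ∀ n, an n ∈ KC := fun n => sub_mem (mul_mem (KC.algebraMap_mem f) (hmem _)) (hmem _)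
    have hpow : Tendsto (fun m : ℕ => v xb ^ m) atTop (𝓝 0) :=
      NNReal.tendsto_pow_atTop_nhds_zero_of_lt_one hvx1
    rw [tendsto_order]
    refine ⟨fun b hb => absurd hb (not_lt.2 zero_le), fun ε hε => ?_⟩
    obtain ⟨m, hm⟩ := ((tendsto_order.1 hpow).2 ε hε).exists
    have hev := (tendsto_order.1 hlim).2 (P xb ^ m) (pow_pos (pos_iff_ne_zero.2 hPx0) m)
    filter_upwards [hev] with n hn
    have e1 : P (an n / xb ^ m) ≤ 1 := by
      rw [map_div₀, map_pow]
      exact div_le_one_of_le₀ hn.le zero_le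
    have e2 := (hP _ (div_mem (hanKC n) (pow_mem hxKC m))).2 e1
    rw [map_div₀, map_pow] at e2
    have e3 : v (an n) ≤ v xb ^ m := (div_le_one₀ (pow_pos (pos_iff_ne_zero.2 hvx0) m)).1 e2
    exact e3.trans_lt hm

/-- Valuations trivial on `k` are trivial on finite extensions. -/
theorem isPlace_C {k C Kb : Type*} [Field k] [Field C] [Field Kb] [Algebra k C] [Algebra C Kb]
    [Algebra k Kb] [IsScalarTower k C Kb] [Algebra.IsAlgebraic k C] {v : Valuation Kb ℝ≥0}
    (hv : IsPlace k v) : IsPlace C v := by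
  have hle : ∀ c : C, v (algebraMap C Kb c) ≤ 1 := by
    intro c
    refine le_one_of_algebraic (F := k) (v.comap (algebraMap C Kb)) (fun f => ?_) c
    change v (algebraMap C Kb (algebraMap k C f)) ≤ 1
    rw [← IsScalarTower.algebraMap_apply]
    by_cases hf : f = 0
    · rw [hf, map_zero, map_zero]; exact zero_le_one
    · exact (hv.1 f hf).le
  refine ⟨fun c hc => le_antisymm (hle c) ?_, hv.2⟩
  have h1 := hle c⁻¹
  rw [map_inv₀, map_inv₀] at h1
  have h0 : v (algebraMap C Kb c) ≠ 0 := (Valuation.ne_zero_iff v).2 ((_root_.map_ne_zero _).2 hc)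
  exact (inv_le_one₀ (pos_iff_ne_zero.2 h0)).1 h1

/-- **CUT-END.**  `k/ℚ_p` finite, `K/k` a function field, `x : K`, `v₀` a norm of `Kb` over the
circle of radius `|π|` of a disc embedding at `P`, constants `C`.  `U`, `L` finite over `K`,
containing `C`; `L` is contained in the closure of `U` for every norm over the circle.
For a norm `w` with `w x ≥ |π|` there is a finite `A' ≥ U`, `L ⊂ cl w A'`, and for every norm or
place `v` the field `A'` is in the closure of a conjugate of `L U` or of `U`; the latter if `v`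
is the place `P`. -/
theorem cut_end_gen (p : ℕ) [Fact p.Prime] {k K Kb : Type*} [Field k] [Algebra ℚ_[p] k]
    [FiniteDimensional ℚ_[p] k] [Field K] [Field Kb] [IsAlgClosed Kb] [Algebra k K] [Algebra K Kb]
    [Algebra k Kb] [IsScalarTower k K Kb] [Algebra.IsAlgebraic K Kb]
    (C : IntermediateField k Kb) [FiniteDimensional k C] (v0 P : Valuation Kb ℝ≥0)
    (x : Kb) (hxKC : x ∈ IntermediateField.adjoin K (C : Set Kb)) (hx0 : x ≠ 0)
    (hfinKC : ∀ (F : IntermediateField C Kb), x ∈ F →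
      ∀ h : (∀ f ∈ F, f ∈ IntermediateField.adjoin K (C : Set Kb)),
      FiniteDimensional F (reb F (IntermediateField.adjoin K (C : Set Kb)) h))
    (π : Kb) (hπC : π ∈ C) (hπ0 : π ≠ 0)
    (hv0 : Crest.NumberTheoryR.Sect.ExtendsPadicNorm k Kb p v0)
    (hcirc : SE_669.IsCircle K C P x (v0 π) v0)
    (hPx : P x < 1)
    (U L : IntermediateField K Kb) [FiniteDimensional K U] [FiniteDimensional K L]
    (hCU : ∀ c ∈ C, c ∈ U)
    (hdense : ∀ v : Valuation Kb ℝ≥0,
      (∀ f ∈ IntermediateField.adjoin K (C : Set Kb), v f = v0 f) →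
      ∀ l ∈ L, l ∈ cl v (U : Set Kb))
    (w : Valuation Kb ℝ≥0) (hw : Crest.NumberTheoryR.Sect.ExtendsPadicNorm k Kb p w)
    (hwx : w π ≤ w x) :
    ∃ A' : IntermediateField K Kb, FiniteDimensional K A' ∧ U ≤ A' ∧
      (∀ l ∈ L, l ∈ cl w (A' : Set Kb)) ∧
      (∀ v : Valuation Kb ℝ≥0,
        (Crest.NumberTheoryR.Sect.ExtendsPadicNorm k Kb p v ∨ IsPlace k v) →
        (∃ s : Kb ≃ₐ[K] Kb, (∀ u ∈ U, s u = u) ∧
          ∀ a ∈ A', a ∈ cl v (s '' ((L ⊔ U : IntermediateField K Kb) : Set Kb))) ∨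
        (∀ a ∈ A', a ∈ cl v (U : Set Kb))) ∧
      (∀ v : Valuation Kb ℝ≥0, IsPlace k v →
        (∀ f ∈ IntermediateField.adjoin K (C : Set Kb), v f ≤ 1 ↔ P f ≤ 1) →
        ∀ a ∈ A', a ∈ cl v (U : Set Kb)) := by
  classical
  -- the `ℚ_p`-structure on `C`
  let iQC : Algebra ℚ_[p] C := ((algebraMap k C).comp (algebraMap ℚ_[p] k)).toAlgebra
  have tQC : IsScalarTower ℚ_[p] k C := IsScalarTower.of_algebraMap_eq fun _ => rfl
  have fQC : FiniteDimensional ℚ_[p] C := Module.Finite.trans k C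
  have hnorm : ∀ v : Valuation Kb ℝ≥0, Crest.NumberTheoryR.Sect.ExtendsPadicNorm k Kb p v →
      ∀ q : ℚ_[p], v.comap (algebraMap C Kb) (algebraMap ℚ_[p] C q) = ‖q‖₊ := fun v hv q => hv q
  have hnt := nt_of_padic (v0.comap (algebraMap C Kb)) (hnorm v0 hv0)
  have huniq : ∀ v : Valuation Kb ℝ≥0, Crest.NumberTheoryR.Sect.ExtendsPadicNorm k Kb p v →
      ∀ c : C, v (algebraMap C Kb c) = v0 (algebraMap C Kb c) := fun v hv c =>
    unique_val (v.comap (algebraMap C Kb)) (hnorm v hv) (v0.comap (algebraMap C Kb))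
      (hnorm v0 hv0) c
  have hchar : CharZero Kb := by
    have h0 : CharZero k := charZero_of_injective_algebraMap (algebraMap ℚ_[p] k).injective
    exact charZero_of_injective_algebraMap (algebraMap k Kb).injective
  let iC : NontriviallyNormedField C := nnfV (v0.comap (algebraMap C Kb)) hnt
  have iU : IsUltrametricDist C := nnfV_ultra _ hnt
  obtain ⟨iCS, iPS⟩ := nnfV_complete (v0.comap (algebraMap C Kb)) (hnorm v0 hv0) hnt
  obtain ⟨ϖ, hϖ⟩ := exists_unif (C := C)
  have hnn : ∀ c : C, v0 (algebraMap C Kb c) = ‖c‖₊ := fun c => rfl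
  have hπ1 : ‖(⟨π, hπC⟩ : C)‖₊ = v0 π := rfl
  have hsum : ∀ (c : ℕ → C) (n : ℕ), SE_669.psum (fun i => (c i : Kb)) x n =
      ∑ i ∈ Finset.range n, algebraMap C Kb (c i) * x ^ i := fun c n => rfl
  have hadj : IntermediateField.adjoin K (C : Set Kb) =
      IntermediateField.adjoin K (Set.range (algebraMap C Kb)) := by
    congr 1
    ext a
    constructor
    · intro ha; exact ⟨⟨a, ha⟩, rfl⟩
    · rintro ⟨c, rfl⟩; exact c.2
  obtain ⟨A', h1, h2, h3, h4, h5⟩ := cut_end_abs (K := K) (C := C) (Kb := Kb) hϖ v0 P hnn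
    (IntermediateField.adjoin K (C : Set Kb)) x hxKC hx0 ⟨π, hπC⟩
    (fun h => hπ0 (congrArg Subtype.val h)) (fun h => hfinKC _ (by
      have e : x = (x / algebraMap C Kb ⟨π, hπC⟩) * algebraMap C Kb ⟨π, hπC⟩ :=
        (div_mul_cancel₀ _ hπ0).symm
      rw [e]
      exact mul_mem (by rw [← e]; exact IntermediateField.mem_adjoin_simple_self C _)
        (IntermediateField.algebraMap_mem _ _)) h) (fun n c => by
      rw [← hsum, hcirc.gauss n _ (fun i => (c i).2)]
      rfl) (fun f => by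
      obtain ⟨G, H, hG, hH, ⟨i, hi⟩, ⟨R, B, hR, hB⟩, l1, l2⟩ := hcirc.disc f
      refine ⟨fun i => ⟨G i, hG i⟩, fun i => ⟨H i, hH i⟩, ⟨i, fun h => hi (congrArg Subtype.val h)⟩,
        ⟨R, B, hR, fun i => hB i⟩, l1, l2⟩) hPx U L hadj (fun c => hCU _ c.2) hdense w
    (fun c => huniq w hw c) (by
      have e := huniq w hw ⟨π, hπC⟩
      rw [hπ1]
      exact (le_of_eq e.symm).trans hwx)
  refine ⟨A', h1, h2, h3, fun v hv => h4 v ?_, fun v hv => h5 v (isPlace_C hv)⟩
  rcases hv with hv | hv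
  · exact Or.inl fun c => huniq v hv c
  · exact Or.inr (isPlace_C hv)

/-- **CUT-END**, `x ∈ K`. -/
theorem cut_end (p : ℕ) [Fact p.Prime] {k K Kb : Type*} [Field k] [Algebra ℚ_[p] k]
    [FiniteDimensional ℚ_[p] k] [Field K] [Field Kb] [IsAlgClosed Kb] [Algebra k K] [Algebra K Kb]
    [Algebra k Kb] [IsScalarTower k K Kb] [Algebra.IsAlgebraic K Kb]
    (C : IntermediateField k Kb) [FiniteDimensional k C] (v0 P : Valuation Kb ℝ≥0)
    (x : K) (hx0 : x ≠ 0) [FiniteDimensional (IntermediateField.adjoin k {x}) K]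
    (π : Kb) (hπC : π ∈ C) (hπ0 : π ≠ 0)
    (hv0 : Crest.NumberTheoryR.Sect.ExtendsPadicNorm k Kb p v0)
    (hcirc : SE_669.IsCircle K C P (algebraMap K Kb x) (v0 π) v0)
    (hPx : P (algebraMap K Kb x) < 1)
    (U L : IntermediateField K Kb) [FiniteDimensional K U] [FiniteDimensional K L]
    (hCU : ∀ c ∈ C, c ∈ U)
    (hdense : ∀ v : Valuation Kb ℝ≥0,
      (∀ f ∈ IntermediateField.adjoin K (C : Set Kb), v f = v0 f) →
      ∀ l ∈ L, l ∈ cl v (U : Set Kb))
    (w : Valuation Kb ℝ≥0) (hw : Crest.NumberTheoryR.Sect.ExtendsPadicNorm k Kb p w)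
    (hwx : w π ≤ w (algebraMap K Kb x)) :
    ∃ A' : IntermediateField K Kb, FiniteDimensional K A' ∧ U ≤ A' ∧
      (∀ l ∈ L, l ∈ cl w (A' : Set Kb)) ∧
      (∀ v : Valuation Kb ℝ≥0,
        (Crest.NumberTheoryR.Sect.ExtendsPadicNorm k Kb p v ∨ IsPlace k v) →
        (∃ s : Kb ≃ₐ[K] Kb, (∀ u ∈ U, s u = u) ∧
          ∀ a ∈ A', a ∈ cl v (s '' ((L ⊔ U : IntermediateField K Kb) : Set Kb))) ∨
        (∀ a ∈ A', a ∈ cl v (U : Set Kb))) ∧
      (∀ v : Valuation Kb ℝ≥0, IsPlace k v →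
        (∀ f ∈ IntermediateField.adjoin K (C : Set Kb), v f ≤ 1 ↔ P f ≤ 1) →
        ∀ a ∈ A', a ∈ cl v (U : Set Kb)) := by
  have hKCU : IntermediateField.adjoin K (C : Set Kb) ≤ U := by
    rw [IntermediateField.adjoin_le_iff]; exact hCU
  have hfin : FiniteDimensional K (IntermediateField.adjoin K (C : Set Kb)) :=
    FiniteDimensional.of_injective (IntermediateField.inclusion hKCU).toLinearMap
      (IntermediateField.inclusion hKCU).injective
  exact cut_end_gen p C v0 P (algebraMap K Kb x) (IntermediateField.algebraMap_mem _ x)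
    ((_root_.map_ne_zero _).2 hx0)
    (fun F hF h => finite_reb (k := k) F x hF (IntermediateField.adjoin K (C : Set Kb)) h)
    π hπC hπ0 hv0 hcirc hPx U L hCU hdense w hw hwx

end Crest.Agent.R013.Gl946
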