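import Mathlib

/-!
# Patching, part 1: Cartan's lemma in a complete normed ring and matrices over ultrametric fields.
-/

set_option autoImplicit false

namespace Crest.Agent.R013.Gl946

open Filter Topology

section Cartan

variable {R : Type*} [NormedRing R] [CompleteSpace R]

/-- In a closed subring of a complete normed ring, an element at distance `< 1` from `1` has an
inverse in the subring. -/
theorem exists_inv_of_near_one (A : Subring R) (hA : IsClosed (A : Set R)) (P : R) (hP : P ∈ A)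
    (h : ‖P - 1‖ < 1) : ∃ P' ∈ A, P * P' = 1 ∧ P' * P = 1 := by
  have h1 : ‖1 - P‖ < 1 := by rw [norm_sub_rev]; exact h
  have hs := summable_geometric_of_norm_lt_one h1
  refine ⟨∑' n, (1 - P) ^ n, ?_, ?_, ?_⟩
  · have ht := hs.hasSum
    refine hA.mem_of_tendsto ht.tendsto_sum_nat (Eventually.of_forall fun n => ?_)
    exact A.sum_mem fun i _ => A.pow_mem (A.sub_mem A.one_mem hP) i
  · have := mul_neg_geom_series (1 - P) h1
    simpa using this
  · have := geom_series_mul_neg (1 - P) h1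
    simpa using this

/-- One step of the Cartan iteration. -/
private def step (α β : R → R) (s : R × R × R) : R × R × R :=
  ((1 - α s.2.2) * s.1, s.2.1 * (1 - β s.2.2),
    - (α s.2.2 * s.2.2) - β s.2.2 * β s.2.2 + α s.2.2 * s.2.2 * β s.2.2)

private def iter (α β : R → R) (m : R) : ℕ → R × R × R
  | 0 => (1, 1, m - 1)
  | n + 1 => step α β (iter α β m n)

/-- **Cartan's lemma.** `R` a complete normed ring, `A`, `B` closed subrings such that every `x` is
`a + b` with `‖a‖, ‖b‖ ≤ ‖x‖`; then every `m` near `1` is a product of a unit of `A` and a unit of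
`B`. -/
theorem cartan (A B : Subring R) (hA : IsClosed (A : Set R)) (hB : IsClosed (B : Set R))
    (dec : ∀ x : R, ∃ a ∈ A, ∃ b ∈ B, x = a + b ∧ ‖a‖ ≤ ‖x‖ ∧ ‖b‖ ≤ ‖x‖)
    (m : R) (hm : ‖m - 1‖ ≤ 1 / 8) :
    ∃ a ∈ A, ∃ a' ∈ A, ∃ b ∈ B, ∃ b' ∈ B, a * a' = 1 ∧ a' * a = 1 ∧ b * b' = 1 ∧ b' * b = 1 ∧
      m = a * b := by
  choose α hαA β hβB hdec hα hβ using dec
  set s : ℕ → R × R × R := iter α β m with hs
  have s0 : s 0 = (1, 1, m - 1) := rfl
  have sS : ∀ n, s (n + 1) = step α β (s n) := fun n => rfl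
  have sA : ∀ n, (s n).1 ∈ A := by
    intro n
    induction n with
    | zero => rw [s0]; exact A.one_mem
    | succ n ih => rw [sS]; exact A.mul_mem (A.sub_mem A.one_mem (hαA _)) ih
  have sB : ∀ n, (s n).2.1 ∈ B := by
    intro n
    induction n with
    | zero => rw [s0]; exact B.one_mem
    | succ n ih => rw [sS]; exact B.mul_mem ih (B.sub_mem B.one_mem (hβB _))
  have sX : ∀ n, (s n).1 * m * (s n).2.1 = 1 + (s n).2.2 := by
    intro n
    induction n with
    | zero => rw [s0]; simp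
    | succ n ih =>
      rw [sS]
      have h1 : (step α β (s n)).1 * m * (step α β (s n)).2.1 =
          (1 - α (s n).2.2) * ((s n).1 * m * (s n).2.1) * (1 - β (s n).2.2) := by
        simp only [step]; noncomm_ring
      rw [h1, ih]
      have h2 : (s n).2.2 = α (s n).2.2 + β (s n).2.2 := hdec _
      simp only [step]
      generalize α (s n).2.2 = a at *
      generalize β (s n).2.2 = b at *
      generalize (s n).2.2 = X at *
      subst h2
      noncomm_ring
  have sN : ∀ n, ‖(s n).2.2‖ ≤ (1 / 2) ^ n * (1 / 8) := by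
    intro n
    induction n with
    | zero => rw [s0]; simpa using hm
    | succ n ih =>
      rw [sS]
      have e1 : ‖(step α β (s n)).2.2‖ ≤ ‖α (s n).2.2‖ * ‖(s n).2.2‖ +
          ‖β (s n).2.2‖ * ‖β (s n).2.2‖ + ‖α (s n).2.2‖ * ‖(s n).2.2‖ * ‖β (s n).2.2‖ := by
        simp only [step]
        refine (norm_add_le _ _).trans (add_le_add ((norm_sub_le _ _).trans (add_le_add ?_ ?_)) ?_)
        · rw [norm_neg]; exact norm_mul_le _ _
        · exact norm_mul_le _ _
        · exact (norm_mul_le _ _).trans (mul_le_mul_of_nonneg_right (norm_mul_le _ _)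
            (norm_nonneg _))
      have hx0 : 0 ≤ ‖(s n).2.2‖ := norm_nonneg _
      have ha := hα (s n).2.2
      have hb := hβ (s n).2.2
      have ha0 : 0 ≤ ‖α (s n).2.2‖ := norm_nonneg _
      have hb0 : 0 ≤ ‖β (s n).2.2‖ := norm_nonneg _
      have hx8 : ‖(s n).2.2‖ ≤ 1 / 8 := by
        refine ih.trans ?_
        have : ((1:ℝ) / 2) ^ n ≤ 1 := pow_le_one₀ (by norm_num) (by norm_num)
        nlinarith
      have e2 : ‖α (s n).2.2‖ * ‖(s n).2.2‖ ≤ ‖(s n).2.2‖ * ‖(s n).2.2‖ :=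
        mul_le_mul_of_nonneg_right ha hx0
      have e3 : ‖β (s n).2.2‖ * ‖β (s n).2.2‖ ≤ ‖(s n).2.2‖ * ‖(s n).2.2‖ :=
        mul_le_mul hb hb hb0 hx0
      have e4 : ‖α (s n).2.2‖ * ‖(s n).2.2‖ * ‖β (s n).2.2‖ ≤
          ‖(s n).2.2‖ * ‖(s n).2.2‖ * ‖(s n).2.2‖ :=
        mul_le_mul e2 hb hb0 (by positivity)
      have e5 : ‖(s n).2.2‖ * ‖(s n).2.2‖ ≤ ‖(s n).2.2‖ * (1 / 8) :=
        mul_le_mul_of_nonneg_left hx8 hx0
      have e6 : ‖(s n).2.2‖ * ‖(s n).2.2‖ * ‖(s n).2.2‖ ≤ ‖(s n).2.2‖ * (1 / 8) * (1 / 8) :=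
        mul_le_mul e5 hx8 hx0 (by positivity)
      rw [pow_succ]
      linarith
  have a_le : ∀ n, ‖α (s n).2.2‖ ≤ (1 / 2) ^ n * (1 / 8) := fun n => (hα _).trans (sN n)
  have b_le : ∀ n, ‖β (s n).2.2‖ ≤ (1 / 2) ^ n * (1 / 8) := fun n => (hβ _).trans (sN n)
  have sP1 : ∀ n, ‖(s n).1 - 1‖ ≤ (1 - (1 / 2) ^ n) / 2 := by
    intro n
    induction n with
    | zero => rw [s0]; simp
    | succ n ih =>
      have h1 : (s (n + 1)).1 - 1 = ((s n).1 - 1) - α (s n).2.2 * ((s n).1 - 1)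
          - α (s n).2.2 := by
        rw [sS]; simp only [step]; noncomm_ring
      rw [h1]
      have h2 : ‖((s n).1 - 1) - α (s n).2.2 * ((s n).1 - 1) - α (s n).2.2‖ ≤
          ‖(s n).1 - 1‖ + ‖α (s n).2.2‖ * ‖(s n).1 - 1‖ + ‖α (s n).2.2‖ :=
        (norm_sub_le _ _).trans (add_le_add ((norm_sub_le _ _).trans
          (add_le_add le_rfl (norm_mul_le _ _))) le_rfl)
      have h3 := a_le n
      have hp : (0:ℝ) ≤ (1 / 2) ^ n := by positivity
      have h4 : ‖α (s n).2.2‖ * ‖(s n).1 - 1‖ ≤ ((1 / 2) ^ n * (1 / 8)) * (1 / 2) := by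
        refine mul_le_mul h3 (ih.trans ?_) (norm_nonneg _) (by positivity)
        linarith
      rw [pow_succ]
      linarith
  have sQ1 : ∀ n, ‖(s n).2.1 - 1‖ ≤ (1 - (1 / 2) ^ n) / 2 := by
    intro n
    induction n with
    | zero => rw [s0]; simp
    | succ n ih =>
      have h1 : (s (n + 1)).2.1 - 1 = ((s n).2.1 - 1) - ((s n).2.1 - 1) * β (s n).2.2
          - β (s n).2.2 := by
        rw [sS]; simp only [step]; noncomm_ring
      rw [h1]
      have h2 : ‖((s n).2.1 - 1) - ((s n).2.1 - 1) * β (s n).2.2 - β (s n).2.2‖ ≤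
          ‖(s n).2.1 - 1‖ + ‖(s n).2.1 - 1‖ * ‖β (s n).2.2‖ + ‖β (s n).2.2‖ :=
        (norm_sub_le _ _).trans (add_le_add ((norm_sub_le _ _).trans
          (add_le_add le_rfl (norm_mul_le _ _))) le_rfl)
      have h3 := b_le n
      have hp : (0:ℝ) ≤ (1 / 2) ^ n := by positivity
      have h4 : ‖(s n).2.1 - 1‖ * ‖β (s n).2.2‖ ≤ (1 / 2) * ((1 / 2) ^ n * (1 / 8)) := by
        refine mul_le_mul (ih.trans ?_) h3 (norm_nonneg _) (by positivity)
        linarith
      rw [pow_succ]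
      linarith
  have half : (1:ℝ) / 2 < 1 := by norm_num
  have cP : CauchySeq fun n => (s n).1 := by
    refine cauchySeq_of_le_geometric (1 / 2) (‖(1:R)‖ + 1) half fun n => ?_
    rw [dist_eq_norm]
    have h1 : (s n).1 - (s (n + 1)).1 = α (s n).2.2 * (s n).1 := by
      rw [sS]; simp only [step]; noncomm_ring
    rw [h1]
    have h2 : ‖(s n).1‖ ≤ ‖(1:R)‖ + 1 := by
      have := norm_add_le ((s n).1 - 1) 1
      rw [sub_add_cancel] at this
      have h3 := sP1 n
      have hp : (0:ℝ) ≤ (1 / 2) ^ n := by positivity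
      linarith
    have hp : (0:ℝ) ≤ (1 / 2) ^ n := by positivity
    have h3 : ‖α (s n).2.2 * (s n).1‖ ≤ ((1 / 2) ^ n * (1 / 8)) * (‖(1:R)‖ + 1) :=
      (norm_mul_le _ _).trans (mul_le_mul (a_le n) h2 (norm_nonneg _) (by positivity))
    have h5 : 0 ≤ ‖(1:R)‖ + 1 := by positivity
    nlinarith [mul_nonneg h5 hp]
  have cQ : CauchySeq fun n => (s n).2.1 := by
    refine cauchySeq_of_le_geometric (1 / 2) (‖(1:R)‖ + 1) half fun n => ?_
    rw [dist_eq_norm]
    have h1 : (s n).2.1 - (s (n + 1)).2.1 = (s n).2.1 * β (s n).2.2 := by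
      rw [sS]; simp only [step]; noncomm_ring
    rw [h1]
    have h2 : ‖(s n).2.1‖ ≤ ‖(1:R)‖ + 1 := by
      have := norm_add_le ((s n).2.1 - 1) 1
      rw [sub_add_cancel] at this
      have h3 := sQ1 n
      have hp : (0:ℝ) ≤ (1 / 2) ^ n := by positivity
      linarith
    have hp : (0:ℝ) ≤ (1 / 2) ^ n := by positivity
    have h3 : ‖(s n).2.1 * β (s n).2.2‖ ≤ (‖(1:R)‖ + 1) * ((1 / 2) ^ n * (1 / 8)) :=
      (norm_mul_le _ _).trans (mul_le_mul h2 (b_le n) (norm_nonneg _) (by positivity))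
    have h5 : 0 ≤ ‖(1:R)‖ + 1 := by positivity
    nlinarith [mul_nonneg h5 hp]
  obtain ⟨P, hP⟩ := cauchySeq_tendsto_of_complete cP
  obtain ⟨Q, hQ⟩ := cauchySeq_tendsto_of_complete cQ
  have PA : P ∈ A := hA.mem_of_tendsto hP (Eventually.of_forall sA)
  have QB : Q ∈ B := hB.mem_of_tendsto hQ (Eventually.of_forall sB)
  have P1 : ‖P - 1‖ < 1 := by
    have : ‖P - 1‖ ≤ 1 / 2 := by
      refine le_of_tendsto (hP.sub_const 1).norm (Eventually.of_forall fun n => ?_)
      have h3 := sP1 n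
      have hp : (0:ℝ) ≤ (1 / 2) ^ n := by positivity
      linarith
    linarith
  have Q1 : ‖Q - 1‖ < 1 := by
    have : ‖Q - 1‖ ≤ 1 / 2 := by
      refine le_of_tendsto (hQ.sub_const 1).norm (Eventually.of_forall fun n => ?_)
      have h3 := sQ1 n
      have hp : (0:ℝ) ≤ (1 / 2) ^ n := by positivity
      linarith
    linarith
  have X0 : Tendsto (fun n => (s n).2.2) atTop (𝓝 0) := by
    refine squeeze_zero_norm sN ?_
    have := (tendsto_pow_atTop_nhds_zero_of_lt_one (r := (1:ℝ) / 2) (by norm_num) half).mul_const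
      (1 / 8 : ℝ)
    simpa using this
  have key : P * m * Q = 1 := by
    have h1 : Tendsto (fun n => (s n).1 * m * (s n).2.1) atTop (𝓝 (P * m * Q)) :=
      (hP.mul_const m).mul hQ
    have h2 : Tendsto (fun n => 1 + (s n).2.2) atTop (𝓝 (1 + 0)) := X0.const_add 1
    have h3 : (fun n => (s n).1 * m * (s n).2.1) = fun n => 1 + (s n).2.2 := funext sX
    rw [h3] at h1
    have := tendsto_nhds_unique h1 h2
    simpa using this
  obtain ⟨P', hP'A, hPP', hP'P⟩ := exists_inv_of_near_one A hA P PA P1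
  obtain ⟨Q', hQ'B, hQQ', hQ'Q⟩ := exists_inv_of_near_one B hB Q QB Q1
  refine ⟨P', hP'A, P, PA, Q', hQ'B, Q, QB, hP'P, hPP', hQ'Q, hQQ', ?_⟩
  calc m = P' * P * m * (Q * Q') := by rw [hP'P, hQQ']; simp
    _ = P' * (P * m * Q) * Q' := by noncomm_ring
    _ = P' * Q' := by rw [key]; simp

end Cartan


section GLin

variable {E : Type*} [CommRing E] {ι : Type*} [Fintype ι] [DecidableEq ι]

/-- `M` is invertible over the subring `S`: entries and inverse entries in `S`. -/
def GLin (S : Subring E) (M : Matrix ι ι E) : Prop :=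
  ∃ M' : Matrix ι ι E, (∀ i j, M i j ∈ S) ∧ (∀ i j, M' i j ∈ S) ∧ M * M' = 1 ∧ M' * M = 1

theorem GLin.mono {S T : Subring E} (h : S ≤ T) {M : Matrix ι ι E} (hM : GLin S M) : GLin T M := by
  obtain ⟨M', h1, h2, h3, h4⟩ := hM
  exact ⟨M', fun i j => h (h1 i j), fun i j => h (h2 i j), h3, h4⟩

theorem GLin.mul {S : Subring E} {M N : Matrix ι ι E} (hM : GLin S M) (hN : GLin S N) :
    GLin S (M * N) := by
  obtain ⟨M', h1, h2, h3, h4⟩ := hM
  obtain ⟨N', k1, k2, k3, k4⟩ := hN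
  refine ⟨N' * M', fun i j => ?_, fun i j => ?_, ?_, ?_⟩
  · rw [Matrix.mul_apply]; exact S.sum_mem fun k _ => S.mul_mem (h1 _ _) (k1 _ _)
  · rw [Matrix.mul_apply]; exact S.sum_mem fun k _ => S.mul_mem (k2 _ _) (h2 _ _)
  · rw [Matrix.mul_assoc, ← Matrix.mul_assoc N, k3, Matrix.one_mul, h3]
  · rw [Matrix.mul_assoc, ← Matrix.mul_assoc M', h4, Matrix.one_mul, k4]

theorem GLin.inv {S : Subring E} {M M' : Matrix ι ι E} (hM : GLin S M) (h : M * M' = 1) :
    GLin S M' := by
  obtain ⟨M'', h1, h2, h3, h4⟩ := hM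
  have : M' = M'' := by
    calc M' = (M'' * M) * M' := by rw [h4, Matrix.one_mul]
      _ = M'' := by rw [Matrix.mul_assoc, h, Matrix.mul_one]
  subst this
  exact ⟨M, h2, h1, h4, h3⟩

end GLin

section Matrices

variable {E : Type*} [NormedField E] {ι : Type*} [Fintype ι] [DecidableEq ι]

/-- The sup norm makes matrices over an ultrametric field a normed ring. -/
@[reducible] noncomputable def matNormedRing (ι : Type*) [Fintype ι] [DecidableEq ι]
    (E : Type*) [NormedField E] [IsUltrametricDist E] :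
    NormedRing (Matrix ι ι E) :=
  { Matrix.normedAddCommGroup, Matrix.instRing with
    norm_mul_le := by
      intro A B
      let _ := Matrix.normedAddCommGroup (m := ι) (n := ι) (α := E)
      change ‖A * B‖ ≤ ‖A‖ * ‖B‖
      refine (Matrix.norm_le_iff (by positivity)).2 fun i j => ?_
      rw [Matrix.mul_apply]
      refine IsUltrametricDist.norm_sum_le_of_forall_le_of_nonneg (by positivity) fun k _ => ?_
      rw [norm_mul]
      exact mul_le_mul (Matrix.norm_entry_le_entrywise_sup_norm A)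
        (Matrix.norm_entry_le_entrywise_sup_norm B) (norm_nonneg _) (norm_nonneg _) }

/-- Matrices with entries in a subring, as a subring of matrices. -/
def matSubring (S : Subring E) : Subring (Matrix ι ι E) where
  carrier := {M | ∀ i j, M i j ∈ S}
  mul_mem' := by
    intro M N hM hN i j
    rw [Matrix.mul_apply]
    exact S.sum_mem fun k _ => S.mul_mem (hM _ _) (hN _ _)
  one_mem' := by
    intro i j
    rw [Matrix.one_apply]
    split_ifs
    · exact S.one_mem
    · exact S.zero_mem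
  add_mem' := fun hM hN i j => S.add_mem (hM i j) (hN i j)
  zero_mem' := fun i j => S.zero_mem
  neg_mem' := fun hM i j => S.neg_mem (hM i j)

theorem mem_matSubring (S : Subring E) (M : Matrix ι ι E) :
    M ∈ matSubring (ι := ι) S ↔ ∀ i j, M i j ∈ S := Iff.rfl

theorem isClosed_matSubring (S : Subring E) (hS : IsClosed (S : Set E)) :
    IsClosed ((matSubring (ι := ι) S : Subring (Matrix ι ι E)) : Set (Matrix ι ι E)) := by
  have : ((matSubring (ι := ι) S : Subring (Matrix ι ι E)) : Set (Matrix ι ι E)) =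
      ⋂ i, ⋂ j, (fun M : Matrix ι ι E => M i j) ⁻¹' (S : Set E) := by
    ext M
    simp only [SetLike.mem_coe, mem_matSubring, Set.mem_iInter, Set.mem_preimage]
  rw [this]
  refine isClosed_iInter fun i => isClosed_iInter fun j => hS.preimage ?_
  exact (continuous_apply j).comp (continuous_apply i)

theorem cartan_matrix [IsUltrametricDist E] [CompleteSpace E] (A B : Subring E)
    (hA : IsClosed (A : Set E)) (hB : IsClosed (B : Set E))
    (dec : ∀ x : E, ∃ a ∈ A, ∃ b ∈ B, x = a + b ∧ ‖a‖ ≤ ‖x‖ ∧ ‖b‖ ≤ ‖x‖)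
    (M : Matrix ι ι E) (hM : ∀ i j, ‖(M - 1) i j‖ ≤ 1 / 8) :
    ∃ P Q : Matrix ι ι E, GLin A P ∧ GLin B Q ∧ M = P * Q := by
  have hcomp : @CompleteSpace (Matrix ι ι E)
      (matNormedRing ι E).toSeminormedRing.toPseudoMetricSpace.toUniformSpace :=
    inferInstanceAs (CompleteSpace (ι → ι → E))
  let inst : NormedRing (Matrix ι ι E) := matNormedRing ι E
  have nle : ∀ (M : Matrix ι ι E) (r : ℝ), 0 ≤ r → (inst.norm M ≤ r ↔ ∀ i j, ‖M i j‖ ≤ r) := by
    intro M r hr
    let inst2 := Matrix.normedAddCommGroup (m := ι) (n := ι) (α := E)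
    exact Matrix.norm_le_iff hr
  obtain ⟨a, ha, a', ha', b, hb, b', hb', e1, e2, e3, e4, e5⟩ := @cartan _ inst hcomp
    (matSubring (ι := ι) A) (matSubring (ι := ι) B) (isClosed_matSubring A hA)
    (isClosed_matSubring B hB) (by
      intro X
      choose α h1 β h2 h3 h4 h5 using fun i j => dec (X i j)
      have hX : ∀ i j, ‖X i j‖ ≤ inst.norm X := (nle X _ (norm_nonneg _)).1 le_rfl
      refine ⟨Matrix.of α, h1, Matrix.of β, h2, ?_, ?_, ?_⟩
      · ext i j; exact h3 i j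
      · exact (nle _ _ (norm_nonneg _)).2 fun i j => (h4 i j).trans (hX i j)
      · exact (nle _ _ (norm_nonneg _)).2 fun i j => (h5 i j).trans (hX i j)) M
    ((nle _ _ (by norm_num)).2 hM)
  exact ⟨a, b, ⟨a', ha, ha', e1, e2⟩, ⟨b', hb, hb', e3, e4⟩, e5⟩

/-- **Factorisation.** If moreover the subfield `F` is dense in `E`, every invertible matrix over `E`
is `P * Q * C` with `P`, `Q`, `C` invertible over `A`, `B`, `F`. -/
theorem factor_matrix [IsUltrametricDist E] [CompleteSpace E] (A B : Subring E)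
    (hA : IsClosed (A : Set E)) (hB : IsClosed (B : Set E))
    (dec : ∀ x : E, ∃ a ∈ A, ∃ b ∈ B, x = a + b ∧ ‖a‖ ≤ ‖x‖ ∧ ‖b‖ ≤ ‖x‖)
    (F : Subfield E) (hF : ∀ (x : E) (ε : ℝ), 0 < ε → ∃ z ∈ F, ‖x - z‖ < ε)
    (M M' : Matrix ι ι E) (hM : M * M' = 1) :
    ∃ P Q C : Matrix ι ι E, GLin A P ∧ GLin B Q ∧ GLin F.toSubring C ∧ M = P * Q * C := by
  -- approximate `M'` by a matrix over `F`
  obtain ⟨c, hc0, hc⟩ : ∃ c : ℝ, 0 < c ∧ ∀ i j, ‖M i j‖ ≤ c := by
    refine ⟨1 + ∑ i, ∑ j, ‖M i j‖, by positivity, fun i j => ?_⟩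
    have h1 : ‖M i j‖ ≤ ∑ j, ‖M i j‖ :=
      Finset.single_le_sum (f := fun j => ‖M i j‖) (fun _ _ => norm_nonneg _) (Finset.mem_univ j)
    have h2 : ∑ j, ‖M i j‖ ≤ ∑ i, ∑ j, ‖M i j‖ :=
      Finset.single_le_sum (f := fun i => ∑ j, ‖M i j‖)
        (fun _ _ => Finset.sum_nonneg fun _ _ => norm_nonneg _) (Finset.mem_univ i)
    linarith
  choose D hD1 hD2 using fun i j => hF (M' i j) (1 / 8 / c) (by positivity)
  have hMD : ∀ i j, ‖(M * Matrix.of D - 1) i j‖ ≤ 1 / 8 := by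
    intro i j
    have h1 : M * Matrix.of D - 1 = M * (Matrix.of D - M') := by rw [mul_sub, hM]
    rw [h1, Matrix.mul_apply]
    refine IsUltrametricDist.norm_sum_le_of_forall_le_of_nonneg (by norm_num) fun k _ => ?_
    rw [norm_mul]
    have h2 : ‖(Matrix.of D - M') k j‖ ≤ 1 / 8 / c := by
      rw [Matrix.sub_apply, norm_sub_rev]
      exact (hD2 k j).le
    calc ‖M i k‖ * ‖(Matrix.of D - M') k j‖ ≤ c * (1 / 8 / c) :=
          mul_le_mul (hc i k) h2 (norm_nonneg _) hc0.le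
      _ = 1 / 8 := by field_simp
  obtain ⟨P, Q, hP, hQ, hPQ⟩ := cartan_matrix A B hA hB dec (M * Matrix.of D) hMD
  have hunit : IsUnit (Matrix.of D : Matrix ι ι E).det := by
    obtain ⟨P', -, -, h1, -⟩ := hP
    obtain ⟨Q', -, -, h2, -⟩ := hQ
    have h3 : (M * Matrix.of D) * (Q' * P') = 1 := by
      rw [hPQ, Matrix.mul_assoc, ← Matrix.mul_assoc Q, h2, Matrix.one_mul, h1]
    have h4 := congrArg Matrix.det h3
    rw [Matrix.det_mul, Matrix.det_mul, Matrix.det_one] at h4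
    refine isUnit_iff_ne_zero.2 fun h0 => ?_
    rw [h0] at h4
    simp at h4
  -- the inverse of `D` has entries in `F`
  set D0 : Matrix ι ι F := Matrix.of fun i j => ⟨D i j, hD1 i j⟩ with hD0
  have hmap : (F.subtype).mapMatrix D0 = Matrix.of D := by
    ext i j; rfl
  have hdet0 : IsUnit D0.det := by
    refine isUnit_iff_ne_zero.2 fun h0 => ?_
    have : (Matrix.of D : Matrix ι ι E).det = F.subtype D0.det := by
      rw [← hmap, RingHom.map_det]
    rw [h0, map_zero] at this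
    rw [this] at hunit
    simp at hunit
  have hi1 : D0 * D0⁻¹ = 1 := Matrix.mul_nonsing_inv _ hdet0
  have hi2 : D0⁻¹ * D0 = 1 := Matrix.nonsing_inv_mul _ hdet0
  set C : Matrix ι ι E := (F.subtype).mapMatrix D0⁻¹ with hC
  have hc1 : Matrix.of D * C = 1 := by
    rw [← hmap, hC, ← map_mul, hi1, map_one]
  have hc2 : C * Matrix.of D = 1 := by
    rw [← hmap, hC, ← map_mul, hi2, map_one]
  refine ⟨P, Q, C, hP, hQ, ⟨Matrix.of D, fun i j => (D0⁻¹ i j).2, fun i j => hD1 i j, hc2, hc1⟩, ?_⟩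
  rw [← hPQ, Matrix.mul_assoc, hc1, Matrix.mul_one]

end Matrices

end Crest.Agent.R013.Gl946
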