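import Crest.Agent.R013.Gl20_946
import Crest.Agent.R013.DCut1_22

/-!
# Patching, part 21: the Props `CutEndP` (22) and `CutEnd` (669).
-/

set_option autoImplicit false

namespace Crest.Agent.R013.Gl946

open Module Filter Topology Polynomial
open scoped NNReal
open Crest.NumberTheoryR.Sect

/-- `x` is transcendental if the Gauss norm condition of `IsCircle` holds. -/
theorem transcendental_of_circle' {k K Kb : Type*} [Field k] [Field K] [Field Kb]
    [Algebra K Kb] [Algebra k Kb] {C : IntermediateField k Kb}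
    {v0 P : Valuation Kb ℝ≥0} {x : Kb} {r : ℝ≥0} (hr : r ≠ 0)
    (hcirc : SE_669.IsCircle K C P x r v0) : Transcendental k x := by
  rw [transcendental_iff]
  intro p hp
  have h1 := hcirc.gauss (p.natDegree + 1) (fun i => algebraMap k Kb (p.coeff i))
    (fun i => C.algebraMap_mem _)
  have h2 : SE_669.psum (fun i => algebraMap k Kb (p.coeff i)) x (p.natDegree + 1) = 0 := by
    rw [← hp, aeval_eq_sum_range]
    refine Finset.sum_congr rfl fun i _ => ?_
    rw [Algebra.smul_def]
  rw [h2, map_zero] at h1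
  ext i
  rw [coeff_zero]
  rcases lt_or_ge p.natDegree i with hi | hi
  · exact coeff_eq_zero_of_natDegree_lt hi
  · have h3 := Finset.le_sup (f := fun i => v0 (algebraMap k Kb (p.coeff i)) * r ^ i)
      (Finset.mem_range.2 (show i < p.natDegree + 1 by omega))
    rw [← h1] at h3
    have h4 : v0 (algebraMap k Kb (p.coeff i)) * r ^ i = 0 := le_antisymm h3 zero_le
    rcases mul_eq_zero.1 h4 with h5 | h5
    · exact (map_eq_zero _).1 ((Valuation.zero_iff v0).1 h5)
    · exact absurd h5 (pow_ne_zero _ hr)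

/-- **`CutEndP` holds.** -/
theorem cutEndP (p : ℕ) [Fact p.Prime] (k : Type*) [Field k] [Algebra ℚ_[p] k]
    [FiniteDimensional ℚ_[p] k] (K : Type*) [Field K] [Algebra k K] [Algebra (RatFunc k) K]
    [IsScalarTower k (RatFunc k) K] [FiniteDimensional (RatFunc k) K] :
    DCut_22.CutEndP p k K := by
  intro C _ π x P v₀ hπC hπ0 hxKC hx0 hP hPx hv₀ hcirc KU L _ _ hKU hL hdense w hw hwx
  have hfinKC : FiniteDimensional K (Cof5_669.KC K C) :=
    FiniteDimensional.of_injective (IntermediateField.inclusion hKU).toLinearMap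
      (IntermediateField.inclusion hKU).injective
  have hr : v₀ π ≠ 0 := (Valuation.ne_zero_iff v₀).2 hπ0
  have htr := transcendental_of_circle' hr hcirc
  -- `KC` is finite over `k(x)`
  have hfin1 : FiniteDimensional (RatFunc k) (Cof5_669.KC K C) :=
    FiniteDimensional.trans (RatFunc k) K (Cof5_669.KC K C)
  set x' : Cof5_669.KC K C := ⟨x, hxKC⟩ with hx'
  have htr' : Transcendental k x' := by
    have h1 : algebraMap (Cof5_669.KC K C) (AlgebraicClosure K) x' = x := rfl
    rw [← h1] at htr
    exact (transcendental_algebraMap_iff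
      (algebraMap (Cof5_669.KC K C) (AlgebraicClosure K)).injective).1 htr
  have htow : IsScalarTower k (RatFunc k) (Cof5_669.KC K C) :=
    IsScalarTower.of_algebraMap_eq fun c =>
      congrArg (algebraMap K (Cof5_669.KC K C)) (IsScalarTower.algebraMap_apply k (RatFunc k) K c)
  have hfin2 : FiniteDimensional (IntermediateField.adjoin k {x'}) (Cof5_669.KC K C) :=
    finite_adjoin x' htr'
  obtain ⟨A', h1, h2, h3, h4, h5⟩ := cut_end_gen p (k := k) (K := K) (Kb := AlgebraicClosure K) C
    v₀ P x hxKC hx0 (fun F hF h => finite_KC' (k := k) F (Cof5_669.KC K C) h x' hF) π hπC hπ0 hv₀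
    hcirc hPx KU L (fun c hc => hKU (Cof5_669.le_KC hc)) (fun v hv => by
      refine fun l hl => hdense v (fun q => ?_) hv hl
      have e1 := hv (algebraMap k (AlgebraicClosure K) (algebraMap ℚ_[p] k q))
        ((Cof5_669.KC K C).algebraMap_mem (algebraMap k K (algebraMap ℚ_[p] k q)))
      rw [e1]; exact hv₀ q) w hw hwx
  refine ⟨A', h1, h2, h3, fun v hv => ?_, fun v hv hP' => ?_⟩
  · exact h4 v hv.symm
  · exact h5 v hv fun f hf => by rw [hP' f hf]

/-- **`CutEnd` holds.** -/
theorem cutEnd (p : ℕ) [Fact p.Prime] (k : Type*) [Field k] [Algebra ℚ_[p] k]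
    [FiniteDimensional ℚ_[p] k] (K : Type*) [Field K] [Algebra k K] [Algebra (RatFunc k) K]
    [IsScalarTower k (RatFunc k) K] [FiniteDimensional (RatFunc k) K] :
    Cof10_669.CutEnd p k K := (cutEndP p k K).cutEnd

end Crest.Agent.R013.Gl946
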