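import Crest.Agent.R013.Gl1_946

/-!
# Patching, part 4: pure algebra. Patching data, common basis, extension of homomorphisms.
-/

set_option autoImplicit false

namespace Crest.Agent.R013.Gl946

open Module

/-- An abstract patching datum: `F0 = FP ∩ RU` and `GL_n(E) = GL_n(RU) GL_n(FP)`. -/
structure PatchDatum (E : Type*) [Field E] where
  F0 : Subfield E
  FP : Subfield E
  RU : Subring E
  F0_le_FP : F0 ≤ FP
  F0_le_RU : ∀ z ∈ F0, z ∈ RU
  inter : ∀ z ∈ FP, z ∈ RU → z ∈ F0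
  fac : ∀ (n : ℕ) (M M' : Matrix (Fin n) (Fin n) E), M * M' = 1 →
    ∃ P Q : Matrix (Fin n) (Fin n) E, GLin RU P ∧ GLin FP.toSubring Q ∧ M = P * Q

section Coords

variable {E V ι : Type*} [Field E] [AddCommGroup V] [Module E V]

/-- Vectors with coordinates in a subring. -/
def cs (b : Basis ι E V) (S : Subring E) : AddSubgroup V where
  carrier := {v | ∀ i, b.repr v i ∈ S}
  add_mem' := by
    intro v w hv hw i
    rw [map_add, Finsupp.add_apply]
    exact S.add_mem (hv i) (hw i)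
  zero_mem' := by intro i; rw [map_zero]; exact S.zero_mem
  neg_mem' := by
    intro v hv i
    rw [map_neg, Finsupp.neg_apply]
    exact S.neg_mem (hv i)

theorem mem_cs (b : Basis ι E V) (S : Subring E) (v : V) :
    v ∈ cs b S ↔ ∀ i, b.repr v i ∈ S := Iff.rfl

theorem basis_mem_cs (b : Basis ι E V) (S : Subring E) (i : ι) : b i ∈ cs b S := by
  classical
  intro j
  rw [Basis.repr_self, Finsupp.single_apply]
  split_ifs
  · exact S.one_mem
  · exact S.zero_mem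

theorem smul_mem_cs (b : Basis ι E V) (S : Subring E) {z : E} (hz : z ∈ S) {v : V}
    (hv : v ∈ cs b S) : z • v ∈ cs b S := by
  intro i
  rw [map_smul, Finsupp.smul_apply, smul_eq_mul]
  exact S.mul_mem hz (hv i)

theorem cs_mono (b : Basis ι E V) {S T : Subring E} (h : S ≤ T) {v : V} (hv : v ∈ cs b S) :
    v ∈ cs b T := fun i => h (hv i)

/-- **Common basis (G3).** -/
theorem common_basis (D : PatchDatum E) {n : ℕ} (bU bP : Basis (Fin n) E V) :
    ∃ b : Basis (Fin n) E V, cs b D.RU = cs bU D.RU ∧ cs b D.FP.toSubring = cs bP D.FP.toSubring := by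
  classical
  obtain ⟨P, Q, ⟨P', hP1, hP2, hP3, hP4⟩, ⟨Q', hQ1, hQ2, hQ3, hQ4⟩, hM⟩ :=
    D.fac n (bU.toMatrix bP) (bP.toMatrix bU) (Basis.toMatrix_mul_toMatrix_flip _ _)
  set b : Basis (Fin n) E V := Basis.ofEquivFun
    (bU.equivFun.trans (Matrix.toLin'OfInv hP3 hP4)) with hb
  have h1 : ∀ v, b.equivFun v = P'.mulVec (bU.equivFun v) := by
    intro v
    rw [hb, Basis.equivFun_ofEquivFun, LinearEquiv.trans_apply]
    rfl
  have h1' : ∀ v, bU.equivFun v = P.mulVec (b.equivFun v) := by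
    intro v
    rw [h1, Matrix.mulVec_mulVec, hP3, Matrix.one_mulVec]
  have h2 : ∀ v, bU.equivFun v = (P * Q).mulVec (bP.equivFun v) := by
    intro v
    rw [← hM]
    exact (Basis.toMatrix_mulVec_repr bP bU v).symm
  have h3 : ∀ v, b.equivFun v = Q.mulVec (bP.equivFun v) := by
    intro v
    rw [h1, h2, Matrix.mulVec_mulVec, ← Matrix.mul_assoc, hP4, Matrix.one_mul]
  have h3' : ∀ v, bP.equivFun v = Q'.mulVec (b.equivFun v) := by
    intro v
    rw [h3, Matrix.mulVec_mulVec, hQ4, Matrix.one_mulVec]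
  have hmul : ∀ (S : Subring E) (N : Matrix (Fin n) (Fin n) E) (x : Fin n → E),
      (∀ i j, N i j ∈ S) → (∀ i, x i ∈ S) → ∀ i, N.mulVec x i ∈ S := by
    intro S N x hN hx i
    rw [Matrix.mulVec, dotProduct]
    exact S.sum_mem fun j _ => S.mul_mem (hN i j) (hx j)
  refine ⟨b, ?_, ?_⟩
  · ext v
    constructor
    · intro hv i
      have := hmul D.RU P (b.equivFun v) hP1 (fun j => hv j) i
      rw [← h1'] at this
      exact this
    · intro hv i
      have := hmul D.RU P' (bU.equivFun v) hP2 (fun j => hv j) i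
      rw [← h1] at this
      exact this
  · ext v
    constructor
    · intro hv i
      have := hmul D.FP.toSubring Q' (b.equivFun v) hQ2 (fun j => hv j) i
      rw [← h3'] at this
      exact this
    · intro hv i
      have := hmul D.FP.toSubring Q (bP.equivFun v) hQ1 (fun j => hv j) i
      rw [← h3] at this
      exact this

end Coords

section Ext

variable {E V ι : Type*} [Field E] [CommRing V] [Algebra E V] [Fintype ι]

/-- **Extension of homomorphisms.** `b` an `E`-basis of the `E`-algebra `V` whose `F0`-span `A`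
is a subring; `S ⊇ F0` a subring of `E` with `cs b S` a subring.  A ring hom `φ : S → Ω` and a ring
hom `g : A → Ω` agreeing on `F0` extend to `cs b S → Ω`. -/
theorem ext_hom (b : Basis ι E V) (F0 S : Subring E) (h0 : F0 ≤ S)
    (A VS : Subring V) (hA : ∀ v, v ∈ A ↔ v ∈ cs b F0) (hVS : ∀ v, v ∈ VS ↔ v ∈ cs b S)
    {Ω : Type*} [CommRing Ω] (φ : S →+* Ω) (g : A →+* Ω)
    (hF0A : ∀ z ∈ F0, algebraMap E V z ∈ A)
    (hcomp : ∀ (z : E) (hz : z ∈ F0), g ⟨algebraMap E V z, hF0A z hz⟩ = φ ⟨z, h0 hz⟩) :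
    ∃ Φ : VS →+* Ω, (∀ (a : V) (ha : a ∈ A) (ha' : a ∈ VS), Φ ⟨a, ha'⟩ = g ⟨a, ha⟩) ∧
      (∀ (z : E) (hz : z ∈ S) (hz' : algebraMap E V z ∈ VS), Φ ⟨algebraMap E V z, hz'⟩ = φ ⟨z, hz⟩) ∧
      (∀ (v : VS), Φ v = ∑ i, φ ⟨b.repr v.1 i, (hVS v.1).1 v.2 i⟩ *
        g ⟨b i, (hA _).2 (basis_mem_cs b F0 i)⟩) := by
  classical
  have hbA : ∀ i, b i ∈ A := fun i => (hA _).2 (basis_mem_cs b F0 i)
  -- the function
  set Φ0 : VS → Ω := fun v => ∑ i, φ ⟨b.repr v.1 i, (hVS v.1).1 v.2 i⟩ * g ⟨b i, hbA i⟩ with hΦ0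
  have hadd : ∀ v w, Φ0 (v + w) = Φ0 v + Φ0 w := by
    intro v w
    simp only [hΦ0, ← Finset.sum_add_distrib, ← add_mul]
    refine Finset.sum_congr rfl fun i _ => ?_
    rw [← map_add]
    congr 2
    ext
    simp
  have hgA : ∀ (a : V) (ha : a ∈ A) (ha' : a ∈ VS), Φ0 ⟨a, ha'⟩ = g ⟨a, ha⟩ := by
    intro a ha ha'
    simp only [hΦ0]
    have h1 : ∀ i, φ ⟨b.repr a i, (hVS a).1 ha' i⟩ * g ⟨b i, hbA i⟩ =
        g (⟨algebraMap E V (b.repr a i), hF0A _ ((hA a).1 ha i)⟩ * ⟨b i, hbA i⟩) := by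
      intro i
      rw [map_mul, hcomp _ ((hA a).1 ha i)]
    rw [Finset.sum_congr rfl fun i _ => h1 i, ← map_sum]
    congr 1
    ext
    push_cast
    conv_rhs => rw [← b.sum_repr a]
    exact Finset.sum_congr rfl fun i _ => (Algebra.smul_def _ _).symm
  have hsmul : ∀ (z : E) (hz : z ∈ S) (v : VS) (hzv : z • v.1 ∈ VS),
      Φ0 ⟨z • v.1, hzv⟩ = φ ⟨z, hz⟩ * Φ0 v := by
    intro z hz v hzv
    simp only [hΦ0, Finset.mul_sum]
    refine Finset.sum_congr rfl fun i _ => ?_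
    rw [← mul_assoc, ← map_mul]
    congr 2
    ext
    simp
  have hAVS : ∀ a ∈ A, a ∈ VS := fun a ha => (hVS a).2 (cs_mono b h0 ((hA a).1 ha))
  have hsVS : ∀ (z : E), z ∈ S → ∀ v ∈ VS, z • v ∈ VS := fun z hz v hv =>
    (hVS _).2 (smul_mem_cs b S hz ((hVS v).1 hv))
  have hsum : ∀ {κ : Type _} (s : Finset κ) (f : κ → VS), Φ0 (∑ i ∈ s, f i) = ∑ i ∈ s, Φ0 (f i) := by
    intro κ s f
    have h0' : Φ0 0 = 0 := by
      have := hadd 0 0
      rw [add_zero] at this
      exact left_eq_add.1 this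
    induction s using Finset.induction_on with
    | empty => simpa using h0'
    | insert a s ha ih => rw [Finset.sum_insert ha, Finset.sum_insert ha, hadd, ih]
  -- multiplicativity on basis products
  have hmulb : ∀ (i j : ι), Φ0 ⟨b i * b j, hAVS _ (A.mul_mem (hbA i) (hbA j))⟩ =
      g ⟨b i, hbA i⟩ * g ⟨b j, hbA j⟩ := by
    intro i j
    rw [hgA _ (A.mul_mem (hbA i) (hbA j))]
    exact map_mul g ⟨b i, hbA i⟩ ⟨b j, hbA j⟩
  have hrepr : ∀ v : VS, v = ∑ i, (⟨b.repr v.1 i • b i,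
      hsVS _ ((hVS v.1).1 v.2 i) _ (hAVS _ (hbA i))⟩ : VS) := by
    intro v
    ext
    push_cast
    exact (b.sum_repr v.1).symm
  have hmul : ∀ v w, Φ0 (v * w) = Φ0 v * Φ0 w := by
    intro v w
    have h1 : v * w = ∑ i, ∑ j, (⟨(b.repr v.1 i * b.repr w.1 j) • (b i * b j),
        hsVS _ (S.mul_mem ((hVS v.1).1 v.2 i) ((hVS w.1).1 w.2 j)) _
          (hAVS _ (A.mul_mem (hbA i) (hbA j)))⟩ : VS) := by
      ext
      push_cast
      conv_lhs => rw [← b.sum_repr v.1, ← b.sum_repr w.1, Finset.sum_mul_sum]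
      refine Finset.sum_congr rfl fun i _ => Finset.sum_congr rfl fun j _ => ?_
      rw [smul_mul_smul_comm]
    rw [h1, hsum]
    simp only [hsum]
    have h2 : Φ0 v * Φ0 w = ∑ i, ∑ j, (φ ⟨b.repr v.1 i, (hVS v.1).1 v.2 i⟩ * g ⟨b i, hbA i⟩) *
        (φ ⟨b.repr w.1 j, (hVS w.1).1 w.2 j⟩ * g ⟨b j, hbA j⟩) := by
      simp only [hΦ0]
      rw [Finset.sum_mul_sum]
    rw [h2]
    refine Finset.sum_congr rfl fun i _ => Finset.sum_congr rfl fun j _ => ?_
    rw [hsmul _ (S.mul_mem ((hVS v.1).1 v.2 i) ((hVS w.1).1 w.2 j))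
      ⟨b i * b j, hAVS _ (A.mul_mem (hbA i) (hbA j))⟩, hmulb]
    have h3 : φ ⟨b.repr v.1 i * b.repr w.1 j,
        S.mul_mem ((hVS v.1).1 v.2 i) ((hVS w.1).1 w.2 j)⟩ =
        φ ⟨b.repr v.1 i, (hVS v.1).1 v.2 i⟩ * φ ⟨b.repr w.1 j, (hVS w.1).1 w.2 j⟩ := by
      rw [← map_mul]; rfl
    rw [h3]; ring
  have h1A : (1 : V) ∈ A := A.one_mem
  have hone : Φ0 1 = 1 := by
    have := hgA 1 h1A VS.one_mem
    have e : (⟨1, VS.one_mem⟩ : VS) = 1 := rfl
    rw [e] at this
    rw [this]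
    exact map_one g
  refine ⟨{ toFun := Φ0, map_one' := hone, map_mul' := hmul, map_zero' := ?_, map_add' := hadd },
    ?_, ?_, ?_⟩
  · have := hadd 0 0
    rw [add_zero] at this
    exact left_eq_add.1 this
  · exact hgA
  · intro z hz hz'
    have h1 := hsmul z hz 1 (by
      have : z • ((1 : VS) : V) = algebraMap E V z := by
        rw [Algebra.algebraMap_eq_smul_one]; rfl
      rw [this]; exact hz')
    rw [hone, mul_one] at h1
    rw [← h1]
    change Φ0 _ = Φ0 _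
    congr 1
    ext
    exact Algebra.algebraMap_eq_smul_one z
  · intro v; rfl

end Ext

end Crest.Agent.R013.Gl946
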