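import Crest.Agent.R013.Gl4_946

/-!
# Patching, part 5: the cutting theorem, algebraic form.
-/

set_option autoImplicit false

namespace Crest.Agent.R013.Gl946

open Module TensorProduct

section Indep

variable {E V ι κ : Type*} [Field E] [AddCommGroup V] [Module E V] [Fintype ι]

/-- Vectors with coordinates in a subfield `F`, independent over `F`, are independent over `E`. -/
theorem indep_of_indep (bU : Basis ι E V) (F : Subfield E) (w : κ → V)
    (hw : ∀ k, w k ∈ cs bU F.toSubring) (h : LinearIndependent F w) : LinearIndependent E w := by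
  classical
  set w' : κ → (ι → F) := fun k i => ⟨bU.repr (w k) i, hw k i⟩ with hw'
  set g : (ι → F) →ₗ[F] V :=
    { toFun := fun x => ∑ i, (x i : E) • bU i
      map_add' := fun x y => by
        rw [← Finset.sum_add_distrib]
        exact Finset.sum_congr rfl fun i _ => by simp [add_smul]
      map_smul' := fun c x => by
        rw [Finset.smul_sum]
        refine Finset.sum_congr rfl fun i _ => ?_
        simp only [Pi.smul_apply, smul_eq_mul, RingHom.id_apply]
        push_cast
        rw [mul_smul]; rfl } with hg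
  have hgw : g ∘ w' = w := by
    funext k
    simp only [hg, hw', Function.comp, LinearMap.coe_mk, AddHom.coe_mk]
    exact bU.sum_repr (w k)
  have h1 : LinearIndependent F w' := LinearIndependent.of_comp g (by rw [hgw]; exact h)
  have h2 : LinearIndependent E (fun k => (1 : E) ⊗ₜ[F] w' k) :=
    Module.Flat.linearIndependent_one_tmul h1
  have h3 := h2.map' (TensorProduct.piScalarRight F E E ι).toLinearMap
    (LinearMap.ker_eq_bot.2 (TensorProduct.piScalarRight F E E ι).injective)
  have h4 : LinearIndependent E (fun k => bU.equivFun (w k)) := by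
    have e : (fun k => bU.equivFun (w k)) =
        (TensorProduct.piScalarRight F E E ι).toLinearMap ∘ fun k => (1 : E) ⊗ₜ[F] w' k := by
      funext k i
      simp only [Function.comp, LinearEquiv.coe_coe, TensorProduct.piScalarRight_apply,
        TensorProduct.piScalarRightHom_tmul, hw', Basis.equivFun_apply]
      rw [Subfield.smul_def, smul_eq_mul, mul_one]
    rw [e]; exact h3
  exact LinearIndependent.of_comp bU.equivFun.toLinearMap h4

end Indep

section Cut

variable {E V : Type*} [Field E] [CommRing V] [Algebra E V]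

theorem cs_eq_span {ι : Type*} [Fintype ι] (b : Basis ι E V) (F : Subfield E) (v : V) :
    v ∈ cs b F.toSubring ↔ v ∈ Submodule.span F (Set.range b) := by
  constructor
  · intro hv
    rw [← b.sum_repr v]
    refine Submodule.sum_mem _ fun i _ => ?_
    have : b.repr v i • b i = (⟨b.repr v i, hv i⟩ : F) • b i := rfl
    rw [this]
    exact Submodule.smul_mem _ _ (Submodule.subset_span ⟨i, rfl⟩)
  · intro hv
    refine Submodule.span_induction ?_ ?_ ?_ ?_ hv
    · rintro _ ⟨i, rfl⟩
      exact basis_mem_cs b _ i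
    · exact zero_mem _
    · intro x y _ _ hx hy; exact add_mem hx hy
    · intro c x _ hx
      exact smul_mem_cs b _ c.2 hx

/-- Cutting data: an `E`-algebra `V = E ⊗ L` with basis `bU` of `L` over `F0`, a subring `N ≤ L`, an
idempotent `e` in the `FP`-span of `N` (a region of the disc side), and `n` idempotents `ε i`
splitting `e V` over `e (E N)`. -/
structure CutData (D : PatchDatum E) (V : Type*) [CommRing V] [Algebra E V] (d n : ℕ) where
  bU : Basis (Fin d) E V
  L : Subring V
  hL : ∀ v, v ∈ L ↔ v ∈ cs bU D.F0.toSubring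
  N : Subring V
  hN : N ≤ L
  hF0N : ∀ z ∈ D.F0, algebraMap E V z ∈ N
  e : V
  he : e * e = e
  heN : e ∈ Submodule.span D.FP (N : Set V)
  ε : Fin n → V
  orth : ∀ i j, i ≠ j → ε i * ε j = 0
  idem : ∀ i, ε i * ε i = ε i
  sum : ∑ i, ε i = e
  spl : ∀ i v, ∃ c ∈ Submodule.span E (N : Set V), v * ε i = c * ε i
  inj : ∀ i, ∀ c ∈ Submodule.span E (N : Set V), c * ε i = 0 → c * e = 0

namespace CutData

variable {D : PatchDatum E} {d n : ℕ} (C : CutData D V d n)

theorem span_mul {F : Subfield E} (N : Subring V) {a b : V} (ha : a ∈ Submodule.span F (N : Set V))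
    (hb : b ∈ Submodule.span F (N : Set V)) : a * b ∈ Submodule.span F (N : Set V) := by
  refine Submodule.span_induction (p := fun x _ => x * b ∈ Submodule.span F (N : Set V))
    ?_ ?_ ?_ ?_ ha
  · intro x hx
    refine Submodule.span_induction (p := fun z _ => x * z ∈ Submodule.span F (N : Set V))
      ?_ ?_ ?_ ?_ hb
    · intro z hz; exact Submodule.subset_span (N.mul_mem hx hz)
    · rw [mul_zero]; exact zero_mem _
    · intro z z' _ _ hz hz'; rw [mul_add]; exact add_mem hz hz'
    · intro c z _ hz; rw [mul_smul_comm]; exact Submodule.smul_mem _ _ hz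
  · rw [zero_mul]; exact zero_mem _
  · intro z z' _ _ hz hz'; rw [add_mul]; exact add_mem hz hz'
  · intro c z _ hz; rw [smul_mul_assoc]; exact Submodule.smul_mem _ _ hz

/-- `F`-span of `L` is closed under multiplication. -/
theorem cs_mul (F : Subfield E) (hF : D.F0 ≤ F) {a b : V} (ha : a ∈ cs C.bU F.toSubring)
    (hb : b ∈ cs C.bU F.toSubring) : a * b ∈ cs C.bU F.toSubring := by
  have hspan : ∀ v, v ∈ cs C.bU F.toSubring ↔ v ∈ Submodule.span F (C.L : Set V) := by
    intro v
    rw [cs_eq_span]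
    constructor
    · intro hv
      refine Submodule.span_mono ?_ hv
      rintro _ ⟨i, rfl⟩
      exact (C.hL _).2 (basis_mem_cs _ _ i)
    · intro hv
      rw [← cs_eq_span]
      refine Submodule.span_induction ?_ ?_ ?_ ?_ hv
      · intro x hx
        exact cs_mono C.bU (S := D.F0.toSubring) (T := F.toSubring) hF ((C.hL x).1 hx)
      · exact zero_mem _
      · intro x y _ _ hx hy; exact add_mem hx hy
      · intro c x _ hx; exact smul_mem_cs _ _ c.2 hx
  rw [hspan] at *
  exact span_mul C.L ha hb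

theorem span_N_le : ∀ v ∈ Submodule.span D.FP (C.N : Set V), v ∈ cs C.bU D.FP.toSubring := by
  intro v hv
  refine Submodule.span_induction ?_ ?_ ?_ ?_ hv
  · intro x hx
    exact cs_mono C.bU (S := D.F0.toSubring) (T := D.FP.toSubring) D.F0_le_FP
      ((C.hL x).1 (C.hN hx))
  · exact zero_mem _
  · intro x y _ _ hx hy; exact add_mem hx hy
  · intro c x _ hx; exact smul_mem_cs _ _ c.2 hx

theorem one_mem_cs : (1 : V) ∈ cs C.bU D.FP.toSubring :=
  cs_mono C.bU (S := D.F0.toSubring) (T := D.FP.toSubring) D.F0_le_FP ((C.hL 1).1 C.L.one_mem)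

theorem e_mem : C.e ∈ cs C.bU D.FP.toSubring := C.span_N_le _ C.heN

theorem one_sub_e_mem : 1 - C.e ∈ cs C.bU D.FP.toSubring := sub_mem C.one_mem_cs C.e_mem

theorem he1 : (1 - C.e) * (1 - C.e) = 1 - C.e := by
  have := C.he
  linear_combination this

theorem e_mul_ε (i : Fin n) : C.e * C.ε i = C.ε i := by
  rw [← C.sum, Finset.sum_mul, Finset.sum_eq_single i]
  · exact C.idem i
  · intro j _ hj; exact C.orth j i hj
  · intro h; exact absurd (Finset.mem_univ i) h

/-- The glued `FP`-algebra. -/
def VP : Subring V where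
  carrier := {v | (1 - C.e) * v ∈ cs C.bU D.FP.toSubring ∧
    ∀ i, ∃ c ∈ Submodule.span D.FP (C.N : Set V), v * C.ε i = c * C.ε i}
  mul_mem' := by
    rintro v w ⟨h1, h2⟩ ⟨h1', h2'⟩
    refine ⟨?_, fun i => ?_⟩
    · have : (1 - C.e) * (v * w) = ((1 - C.e) * v) * ((1 - C.e) * w) := by
        have := C.he1
        linear_combination (-(v * w)) * this
      rw [this]
      exact C.cs_mul D.FP D.F0_le_FP h1 h1'
    · obtain ⟨c, hc, e1⟩ := h2 i
      obtain ⟨c', hc', e2⟩ := h2' i
      refine ⟨c * c', span_mul C.N hc hc', ?_⟩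
      calc v * w * C.ε i = w * (v * C.ε i) := by ring
        _ = c * (w * C.ε i) := by rw [e1]; ring
        _ = _ := by rw [e2]; ring
  one_mem' := by
    refine ⟨by rw [mul_one]; exact C.one_sub_e_mem, fun i => ⟨1, ?_, rfl⟩⟩
    exact Submodule.subset_span C.N.one_mem
  add_mem' := by
    rintro v w ⟨h1, h2⟩ ⟨h1', h2'⟩
    refine ⟨by rw [mul_add]; exact add_mem h1 h1', fun i => ?_⟩
    obtain ⟨c, hc, e1⟩ := h2 i
    obtain ⟨c', hc', e2⟩ := h2' i
    exact ⟨c + c', add_mem hc hc', by rw [add_mul, e1, e2, add_mul]⟩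
  zero_mem' := ⟨by rw [mul_zero]; exact zero_mem _, fun i => ⟨0, zero_mem _, rfl⟩⟩
  neg_mem' := by
    rintro v ⟨h1, h2⟩
    refine ⟨by rw [mul_neg]; exact neg_mem h1, fun i => ?_⟩
    obtain ⟨c, hc, e1⟩ := h2 i
    exact ⟨-c, neg_mem hc, by rw [neg_mul, e1, neg_mul]⟩

theorem mem_VP (v : V) : v ∈ C.VP ↔ (1 - C.e) * v ∈ cs C.bU D.FP.toSubring ∧
    ∀ i, ∃ c ∈ Submodule.span D.FP (C.N : Set V), v * C.ε i = c * C.ε i := Iff.rfl

theorem smul_mem_VP {z : E} (hz : z ∈ D.FP) {v : V} (hv : v ∈ C.VP) : z • v ∈ C.VP := by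
  obtain ⟨h1, h2⟩ := hv
  refine ⟨by rw [mul_smul_comm]; exact smul_mem_cs _ _ hz h1, fun i => ?_⟩
  obtain ⟨c, hc, e1⟩ := h2 i
  exact ⟨z • c, Submodule.smul_mem _ (⟨z, hz⟩ : D.FP) hc, by
    rw [smul_mul_assoc, e1, smul_mul_assoc]⟩

/-- There is an `E`-basis of `V` whose `FP`-span is `VP`. -/
theorem exists_basis_VP : ∃ bP : Basis (Fin d) E V, ∀ v, v ∈ C.VP ↔ v ∈ cs bP D.FP.toSubring := by
  classical
  set F := D.FP with hF
  set LP : Submodule F V := Submodule.span F (Set.range C.bU) with hLP
  have hLPcs : ∀ v, v ∈ LP ↔ v ∈ cs C.bU F.toSubring := fun v => (cs_eq_span C.bU F v).symm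
  have : FiniteDimensional F LP := FiniteDimensional.span_of_finite F (Set.finite_range _)
  set m1 : V →ₗ[F] V := LinearMap.mulLeft F (1 - C.e) with hm1
  set m2 : V →ₗ[F] V := LinearMap.mulLeft F C.e with hm2
  set W1 : Submodule F V := LP.map m1 with hW1
  set W2 : Submodule F V := (Submodule.span F (C.N : Set V)).map m2 with hW2
  have hW1le : W1 ≤ LP := by
    rintro _ ⟨v, hv, rfl⟩
    rw [hLPcs]
    exact C.cs_mul F D.F0_le_FP C.one_sub_e_mem ((hLPcs v).1 hv)
  have hW2N : ∀ v ∈ W2, v ∈ Submodule.span F (C.N : Set V) := by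
    rintro _ ⟨v, hv, rfl⟩
    exact span_mul C.N C.heN hv
  have hW2le : W2 ≤ LP := fun v hv => (hLPcs v).2 (C.span_N_le v (hW2N v hv))
  have : FiniteDimensional F W1 := Submodule.finiteDimensional_of_le hW1le
  have : FiniteDimensional F W2 := Submodule.finiteDimensional_of_le hW2le
  set b1 := Module.finBasis F W1 with hb1
  set b2 := Module.finBasis F W2 with hb2
  have hi1 : LinearIndependent E (fun k => (b1 k : V)) := by
    refine indep_of_indep C.bU F _ (fun k => (hLPcs _).1 (hW1le (b1 k).2)) ?_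
    exact b1.linearIndependent.map' W1.subtype (Submodule.ker_subtype _)
  have hi2 : LinearIndependent E (fun k => (b2 k : V)) := by
    refine indep_of_indep C.bU F _ (fun k => (hLPcs _).1 (hW2le (b2 k).2)) ?_
    exact b2.linearIndependent.map' W2.subtype (Submodule.ker_subtype _)
  have hW1e : ∀ v ∈ W1, (1 - C.e) * v = v := by
    rintro _ ⟨v, hv, rfl⟩
    change (1 - C.e) * ((1 - C.e) * v) = (1 - C.e) * v
    rw [← mul_assoc, C.he1]
  have hW1ε : ∀ v ∈ W1, ∀ i, v * C.ε i = 0 := by
    intro v hv i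
    rw [← hW1e v hv]
    have := C.e_mul_ε i
    linear_combination (-v) * this
  have hW2e : ∀ v ∈ W2, C.e * v = v := by
    rintro _ ⟨v, hv, rfl⟩
    change C.e * (C.e * v) = C.e * v
    rw [← mul_assoc, C.he]
  -- the family
  set u : (Fin (finrank F W1) ⊕ (Fin n × Fin (finrank F W2))) → V :=
    Sum.elim (fun k => (b1 k : V)) (fun p => C.ε p.1 * (b2 p.2 : V)) with hu
  have hindep : LinearIndependent E u := by
    rw [Fintype.linearIndependent_iff]
    intro g hg
    rw [Fintype.sum_sum_type] at hg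
    simp only [hu, Sum.elim_inl, Sum.elim_inr] at hg
    have hA : ∑ k, g (Sum.inl k) • (b1 k : V) = 0 := by
      have h := congrArg (fun v => (1 - C.e) * v) hg
      simp only [mul_add, Finset.mul_sum, mul_zero] at h
      have e1 : ∀ k, (1 - C.e) * (g (Sum.inl k) • (b1 k : V)) = g (Sum.inl k) • (b1 k : V) := by
        intro k; rw [mul_smul_comm, hW1e _ (b1 k).2]
      have e2 : ∀ p : Fin n × Fin (finrank F W2),
          (1 - C.e) * (g (Sum.inr p) • (C.ε p.1 * (b2 p.2 : V))) = 0 := by
        intro p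
        rw [mul_smul_comm]
        have : (1 - C.e) * (C.ε p.1 * (b2 p.2 : V)) = 0 := by
          have := C.e_mul_ε p.1
          linear_combination (-(b2 p.2 : V)) * this
        rw [this, smul_zero]
      simp only [e1, e2, Finset.sum_const_zero, add_zero] at h
      exact h
    have hB : ∀ i, ∑ m, g (Sum.inr (i, m)) • (b2 m : V) = 0 := by
      intro i
      have h := congrArg (fun v => v * C.ε i) hg
      simp only [add_mul, Finset.sum_mul, zero_mul] at h
      have e1 : ∀ k, (g (Sum.inl k) • (b1 k : V)) * C.ε i = 0 := by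
        intro k; rw [smul_mul_assoc, hW1ε _ (b1 k).2, smul_zero]
      simp only [e1, Finset.sum_const_zero, zero_add] at h
      rw [Fintype.sum_prod_type] at h
      have e2 : ∀ j, j ≠ i → ∑ m, g (Sum.inr (j, m)) • (C.ε j * (b2 m : V)) * C.ε i = 0 := by
        intro j hj
        refine Finset.sum_eq_zero fun m _ => ?_
        rw [smul_mul_assoc, mul_right_comm, C.orth j i hj, zero_mul, smul_zero]
      rw [Finset.sum_eq_single i (fun j _ hj => e2 j hj)
        (fun h => absurd (Finset.mem_univ i) h)] at h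
      have e3 : ∀ m, g (Sum.inr (i, m)) • (C.ε i * (b2 m : V)) * C.ε i =
          (g (Sum.inr (i, m)) • (b2 m : V)) * C.ε i := by
        intro m
        rw [smul_mul_assoc, smul_mul_assoc, mul_right_comm, C.idem, mul_comm]
      simp only [e3, ← Finset.sum_mul] at h
      have h4 := C.inj i _ (Submodule.sum_mem _ fun m _ => Submodule.smul_mem _ _ (by
        have : (b2 m : V) ∈ Submodule.span F (C.N : Set V) := hW2N _ (b2 m).2
        exact Submodule.span_le_restrictScalars F E _ this)) h
      rw [mul_comm, Finset.mul_sum] at h4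
      rw [← h4]
      refine Finset.sum_congr rfl fun m _ => ?_
      rw [mul_smul_comm, hW2e _ (b2 m).2]
    intro x
    rcases x with k | ⟨i, m⟩
    · exact Fintype.linearIndependent_iff.1 hi1 _ hA k
    · exact Fintype.linearIndependent_iff.1 hi2 _ (hB i) m
  have hLP1 : ∀ v ∈ W1, v ∈ Submodule.span E (Set.range u) := by
    intro v hv
    have : (⟨v, hv⟩ : W1) = ∑ k, b1.repr ⟨v, hv⟩ k • b1 k := (b1.sum_repr _).symm
    have h2 : v = ∑ k, ((b1.repr ⟨v, hv⟩ k : F) : E) • (b1 k : V) := by
      have := congrArg (Subtype.val) this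
      push_cast at this
      exact this
    rw [h2]
    exact Submodule.sum_mem _ fun k _ => Submodule.smul_mem _ _
      (Submodule.subset_span ⟨Sum.inl k, rfl⟩)
  have hLP2 : ∀ v ∈ W2, ∀ i, C.ε i * v ∈ Submodule.span E (Set.range u) := by
    intro v hv i
    have : (⟨v, hv⟩ : W2) = ∑ k, b2.repr ⟨v, hv⟩ k • b2 k := (b2.sum_repr _).symm
    have h2 : v = ∑ k, ((b2.repr ⟨v, hv⟩ k : F) : E) • (b2 k : V) := by
      have := congrArg (Subtype.val) this
      push_cast at this
      exact this
    rw [h2, Finset.mul_sum]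
    refine Submodule.sum_mem _ fun k _ => ?_
    rw [mul_smul_comm]
    exact Submodule.smul_mem _ _ (Submodule.subset_span ⟨Sum.inr (i, k), rfl⟩)
  have hspan : ⊤ ≤ Submodule.span E (Set.range u) := by
    intro v _
    have hv : v = (1 - C.e) * v + ∑ i, v * C.ε i := by
      rw [← Finset.mul_sum, C.sum]; ring
    rw [hv]
    refine Submodule.add_mem _ ?_ (Submodule.sum_mem _ fun i _ => ?_)
    · rw [← C.bU.sum_repr v, Finset.mul_sum]
      refine Submodule.sum_mem _ fun i _ => ?_
      rw [mul_smul_comm]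
      refine Submodule.smul_mem _ _ (hLP1 _ ⟨C.bU i, Submodule.subset_span ⟨i, rfl⟩, rfl⟩)
    · obtain ⟨c, hc, e1⟩ := C.spl i v
      rw [e1, mul_comm]
      refine Submodule.span_induction
        (p := fun x _ => C.ε i * x ∈ Submodule.span E (Set.range u)) ?_ ?_ ?_ ?_ hc
      · intro x hx
        have : C.ε i * x = C.ε i * (C.e * x) := by
          rw [← mul_assoc, mul_comm (C.ε i) C.e, C.e_mul_ε]
        rw [this]
        exact hLP2 _ ⟨x, Submodule.subset_span hx, rfl⟩ i
      · rw [mul_zero]; exact zero_mem _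
      · intro x y _ _ hx hy; rw [mul_add]; exact add_mem hx hy
      · intro z x _ hx; rw [mul_smul_comm]; exact Submodule.smul_mem _ _ hx
  set bP0 := Basis.mk hindep hspan with hbP0
  have hbP0u : ∀ x, bP0 x = u x := fun x => Basis.mk_apply hindep hspan x
  set bP : Basis (Fin d) E V := bP0.reindex (bP0.indexEquiv C.bU) with hbP
  refine ⟨bP, fun v => ?_⟩
  have hrange : Set.range bP = Set.range u := by
    rw [hbP, Basis.range_reindex]
    congr 1
    funext x; exact hbP0u x
  rw [cs_eq_span, hrange]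
  constructor
  · rintro ⟨h1, h2⟩
    have hv : v = (1 - C.e) * v + ∑ i, v * C.ε i := by
      rw [← Finset.mul_sum, C.sum]; ring
    rw [hv]
    refine Submodule.add_mem _ ?_ (Submodule.sum_mem _ fun i _ => ?_)
    · have hmem : (1 - C.e) * v ∈ W1 := by
        refine ⟨(1 - C.e) * v, (hLPcs _).2 h1, ?_⟩
        change (1 - C.e) * ((1 - C.e) * v) = (1 - C.e) * v
        rw [← mul_assoc, C.he1]
      have : (⟨_, hmem⟩ : W1) = ∑ k, b1.repr ⟨_, hmem⟩ k • b1 k := (b1.sum_repr _).symm
      have h2 := congrArg (Subtype.val) this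
      push_cast at h2
      rw [h2]
      exact Submodule.sum_mem _ fun k _ => Submodule.smul_mem _ _
        (Submodule.subset_span ⟨Sum.inl k, rfl⟩)
    · obtain ⟨c, hc, e1⟩ := h2 i
      have hmem : C.e * c ∈ W2 := ⟨c, hc, rfl⟩
      have e2 : v * C.ε i = C.ε i * (C.e * c) := by
        rw [e1, ← mul_assoc, mul_comm (C.ε i) C.e, C.e_mul_ε, mul_comm]
      rw [e2]
      have : (⟨_, hmem⟩ : W2) = ∑ k, b2.repr ⟨_, hmem⟩ k • b2 k := (b2.sum_repr _).symm
      have h2 := congrArg (Subtype.val) this
      push_cast at h2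
      rw [h2, Finset.mul_sum]
      refine Submodule.sum_mem _ fun k _ => ?_
      rw [mul_smul_comm]
      exact Submodule.smul_mem _ _ (Submodule.subset_span ⟨Sum.inr (i, k), rfl⟩)
  · intro hv
    refine Submodule.span_induction (p := fun x _ => x ∈ C.VP) ?_ ?_ ?_ ?_ hv
    · rintro _ ⟨x, rfl⟩
      rcases x with k | ⟨i, m⟩
      · refine ⟨?_, fun i => ⟨0, zero_mem _, ?_⟩⟩
        · change (1 - C.e) * (b1 k : V) ∈ _
          rw [hW1e _ (b1 k).2]
          exact (hLPcs _).1 (hW1le (b1 k).2)
        · change (b1 k : V) * C.ε i = _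
          rw [hW1ε _ (b1 k).2, zero_mul]
      · refine ⟨?_, fun j => ?_⟩
        · change (1 - C.e) * (C.ε i * (b2 m : V)) ∈ _
          have : (1 - C.e) * (C.ε i * (b2 m : V)) = 0 := by
            have := C.e_mul_ε i
            linear_combination (-(b2 m : V)) * this
          rw [this]; exact zero_mem _
        · change ∃ c ∈ _, C.ε i * (b2 m : V) * C.ε j = c * C.ε j
          by_cases hij : i = j
          · subst hij
            refine ⟨b2 m, hW2N _ (b2 m).2, ?_⟩
            rw [mul_right_comm, C.idem, mul_comm]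
          · refine ⟨0, zero_mem _, ?_⟩
            rw [mul_right_comm, C.orth i j hij, zero_mul, zero_mul]
    · exact C.VP.zero_mem
    · intro x y _ _ hx hy; exact C.VP.add_mem hx hy
    · intro c x _ hx; exact C.smul_mem_VP c.2 hx

end CutData

end Cut

end Crest.Agent.R013.Gl946
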