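import Crest.Agent.R013.Gl5_946

/-!
# Patching, part 6: the glued algebra and its homomorphisms to fields.
-/

set_option autoImplicit false

namespace Crest.Agent.R013.Gl946

open Module

section Glue

variable {E V : Type*} [Field E] [CommRing V] [Algebra E V]

/-- If the `F0`-span of a basis is a subring `L`, then the `S`-span is closed under products. -/
theorem cs_mul_gen {ι : Type*} [Fintype ι] (b : Basis ι E V) (F0 S : Subring E) (h0 : F0 ≤ S)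
    (L : Subring V) (hL : ∀ v, v ∈ L ↔ v ∈ cs b F0) {v w : V} (hv : v ∈ cs b S)
    (hw : w ∈ cs b S) : v * w ∈ cs b S := by
  rw [← b.sum_repr v, ← b.sum_repr w, Finset.sum_mul_sum]
  refine sum_mem fun i _ => sum_mem fun j _ => ?_
  rw [smul_mul_smul_comm]
  refine smul_mem_cs b S (S.mul_mem (hv i) (hw j)) ?_
  exact cs_mono b h0 ((hL _).1 (L.mul_mem ((hL _).2 (basis_mem_cs b F0 i))
    ((hL _).2 (basis_mem_cs b F0 j))))

/-- The `S`-span of a basis as a subring. -/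
def csRing {ι : Type*} [Fintype ι] (b : Basis ι E V) (F0 S : Subring E) (h0 : F0 ≤ S)
    (L : Subring V) (hL : ∀ v, v ∈ L ↔ v ∈ cs b F0) : Subring V where
  carrier := (cs b S : Set V)
  mul_mem' := fun hv hw => cs_mul_gen b F0 S h0 L hL hv hw
  one_mem' := cs_mono b h0 ((hL 1).1 L.one_mem)
  add_mem' := fun hv hw => (cs b S).add_mem hv hw
  zero_mem' := (cs b S).zero_mem
  neg_mem' := fun hv => (cs b S).neg_mem hv

theorem mem_csRing {ι : Type*} [Fintype ι] (b : Basis ι E V) (F0 S : Subring E) (h0 : F0 ≤ S)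
    (L : Subring V) (hL : ∀ v, v ∈ L ↔ v ∈ cs b F0) (v : V) :
    v ∈ csRing b F0 S h0 L hL ↔ v ∈ cs b S := Iff.rfl

namespace CutData

variable {D : PatchDatum E} {d n : ℕ} (C : CutData D V d n)

/-- The glued algebra: `VP ∩ VU`. -/
structure Glued where
  A : Subring V
  b : Basis (Fin d) E V
  hA : ∀ v, v ∈ A ↔ v ∈ cs b D.F0.toSubring
  hU : ∀ v, v ∈ cs b D.RU ↔ v ∈ cs C.bU D.RU
  hP : ∀ v, v ∈ C.VP ↔ v ∈ cs b D.FP.toSubring
  hN : C.N ≤ A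

theorem F0_le_RU' : D.F0.toSubring ≤ D.RU := fun z hz => D.F0_le_RU z hz

theorem N_le_VP : C.N ≤ C.VP := by
  intro x hx
  refine ⟨C.cs_mul D.FP D.F0_le_FP C.one_sub_e_mem (C.span_N_le _ (Submodule.subset_span hx)),
    fun i => ⟨x, Submodule.subset_span hx, rfl⟩⟩

theorem exists_glued : Nonempty C.Glued := by
  obtain ⟨bP, hbP⟩ := C.exists_basis_VP
  obtain ⟨b, hb1, hb2⟩ := common_basis D C.bU bP
  have hP : ∀ v, v ∈ C.VP ↔ v ∈ cs b D.FP.toSubring := fun v => by rw [hbP, hb2]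
  have hU : ∀ v, v ∈ cs b D.RU ↔ v ∈ cs C.bU D.RU := fun v => by rw [hb1]
  have hA : ∀ v, (v ∈ C.VP ∧ v ∈ csRing C.bU D.F0.toSubring D.RU F0_le_RU' C.L C.hL) ↔
      v ∈ cs b D.F0.toSubring := by
    intro v
    constructor
    · rintro ⟨h1, h2⟩ i
      exact D.inter _ ((hP v).1 h1 i) ((hU v).2 ((mem_csRing _ _ _ _ _ _ _).1 h2) i)
    · intro hv
      exact ⟨(hP v).2 (cs_mono b (S := D.F0.toSubring) (T := D.FP.toSubring) D.F0_le_FP hv),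
        (mem_csRing _ _ _ _ _ _ _).2 ((hU v).1 (cs_mono b F0_le_RU' hv))⟩
  refine ⟨⟨C.VP ⊓ csRing C.bU D.F0.toSubring D.RU F0_le_RU' C.L C.hL, b, ?_, hU, hP, ?_⟩⟩
  · intro v; rw [Subring.mem_inf]; exact hA v
  · intro x hx
    rw [Subring.mem_inf]
    exact ⟨C.N_le_VP hx, (mem_csRing _ _ _ _ _ _ _).2
      (cs_mono C.bU F0_le_RU' ((C.hL x).1 (C.hN hx)))⟩

theorem F0_mem_L {z : E} (hz : z ∈ D.F0) : algebraMap E V z ∈ C.L := C.hN (C.hF0N z hz)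

variable {C} (G : C.Glued)

theorem Glued.F0_mem_A {z : E} (hz : z ∈ D.F0) : algebraMap E V z ∈ G.A := G.hN (C.hF0N z hz)

theorem smul_eq_alg (z : E) (v : V) : z • v = algebraMap E V z * v := Algebra.smul_def z v

/-- **(U)** Homs from the glued algebra, on the `RU` side. -/
theorem Glued.homU {Ω : Type*} [CommRing Ω] (φ : D.RU →+* Ω) (g : G.A →+* Ω)
    (hcomp : ∀ (z : E) (hz : z ∈ D.F0), g ⟨algebraMap E V z, G.F0_mem_A hz⟩ =
      φ ⟨z, D.F0_le_RU z hz⟩) :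
    ∃ h : C.L →+* Ω, (∀ (x : V) (hx : x ∈ C.N), h ⟨x, C.hN hx⟩ = g ⟨x, G.hN hx⟩) ∧
      (∀ (Y : Subring Ω), (∀ z, φ z ∈ Y) → (∀ l, h l ∈ Y) → ∀ a, g a ∈ Y) := by
  classical
  set VU := csRing G.b D.F0.toSubring D.RU F0_le_RU' G.A G.hA with hVU
  obtain ⟨Φ, h1, h2, -⟩ := ext_hom G.b D.F0.toSubring D.RU F0_le_RU' G.A VU G.hA (fun v => mem_csRing _ _ _ _ _ _ v)
    φ g (fun z hz => G.F0_mem_A hz) hcomp
  have hLVU : C.L ≤ VU := fun l hl => (G.hU l).2 (cs_mono C.bU F0_le_RU' ((C.hL l).1 hl))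
  refine ⟨Φ.comp (Subring.inclusion hLVU), ?_, ?_⟩
  · intro x hx
    exact h1 x (G.hN hx) _
  · intro Y hY1 hY2 a
    have haVU : a.1 ∈ VU := cs_mono G.b F0_le_RU' ((G.hA _).1 a.2)
    rw [← h1 a.1 a.2 haVU]
    have haU : a.1 ∈ cs C.bU D.RU := (G.hU _).1 haVU
    have hz : ∀ z ∈ D.RU, algebraMap E V z ∈ VU := fun z hz => by
      rw [Algebra.algebraMap_eq_smul_one]
      exact smul_mem_cs _ _ hz VU.one_mem
    have hbU : ∀ i, C.bU i ∈ C.L := fun i => (C.hL _).2 (basis_mem_cs _ _ i)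
    have hsum : (⟨a.1, haVU⟩ : VU) = ∑ i, (⟨algebraMap E V (C.bU.repr a.1 i), hz _ (haU i)⟩ : VU) *
        ⟨C.bU i, hLVU (hbU i)⟩ := by
      ext
      push_cast
      conv_lhs => rw [← C.bU.sum_repr a.1]
      exact Finset.sum_congr rfl fun i _ => Algebra.smul_def _ _
    rw [hsum, map_sum]
    refine Y.sum_mem fun i _ => ?_
    rw [map_mul]
    refine Y.mul_mem ?_ (hY2 ⟨C.bU i, hbU i⟩)
    rw [h2 _ (haU i)]
    exact hY1 _

/-- **(U')** the converse direction. -/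
theorem Glued.homU' {Ω : Type*} [CommRing Ω] (φ : D.RU →+* Ω) (h : C.L →+* Ω)
    (hcomp : ∀ (z : E) (hz : z ∈ D.F0), h ⟨algebraMap E V z, C.F0_mem_L hz⟩ =
      φ ⟨z, D.F0_le_RU z hz⟩) :
    ∃ g : G.A →+* Ω, (∀ (x : V) (hx : x ∈ C.N), g ⟨x, G.hN hx⟩ = h ⟨x, C.hN hx⟩) ∧
      (∀ (Y : Subring Ω), (∀ z, φ z ∈ Y) → (∀ a, g a ∈ Y) → ∀ l, h l ∈ Y) := by
  classical
  set VU := csRing C.bU D.F0.toSubring D.RU F0_le_RU' C.L C.hL with hVU
  obtain ⟨Φ, h1, h2, -⟩ := ext_hom C.bU D.F0.toSubring D.RU F0_le_RU' C.L VU C.hL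
    (fun v => mem_csRing _ _ _ _ _ _ v) φ h (fun z hz => C.F0_mem_L hz) hcomp
  have hAVU : G.A ≤ VU := fun a ha => (G.hU a).1 (cs_mono G.b F0_le_RU' ((G.hA a).1 ha))
  refine ⟨Φ.comp (Subring.inclusion hAVU), ?_, ?_⟩
  · intro x hx
    exact h1 x (C.hN hx) _
  · intro Y hY1 hY2 l
    have hlVU : l.1 ∈ VU := cs_mono C.bU F0_le_RU' ((C.hL _).1 l.2)
    rw [← h1 l.1 l.2 hlVU]
    have hlb : l.1 ∈ cs G.b D.RU := (G.hU _).2 hlVU
    have hz : ∀ z ∈ D.RU, algebraMap E V z ∈ VU := fun z hz => by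
      rw [Algebra.algebraMap_eq_smul_one]
      exact smul_mem_cs _ _ hz VU.one_mem
    have hb : ∀ i, G.b i ∈ G.A := fun i => (G.hA _).2 (basis_mem_cs _ _ i)
    have hsum : (⟨l.1, hlVU⟩ : VU) = ∑ i, (⟨algebraMap E V (G.b.repr l.1 i), hz _ (hlb i)⟩ : VU) *
        ⟨G.b i, hAVU (hb i)⟩ := by
      ext
      push_cast
      conv_lhs => rw [← G.b.sum_repr l.1]
      exact Finset.sum_congr rfl fun i _ => Algebra.smul_def _ _
    rw [hsum, map_sum]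
    refine Y.sum_mem fun i _ => ?_
    rw [map_mul]
    refine Y.mul_mem ?_ (hY2 ⟨G.b i, hb i⟩)
    rw [h2 _ (hlb i)]
    exact hY1 _

theorem span_N_le_VP : ∀ v ∈ Submodule.span D.FP (C.N : Set V), v ∈ C.VP := by
  intro v hv
  refine Submodule.span_induction (p := fun x _ => x ∈ C.VP) ?_ ?_ ?_ ?_ hv
  · intro x hx; exact C.N_le_VP hx
  · exact C.VP.zero_mem
  · intro x y _ _ hx hy; exact C.VP.add_mem hx hy
  · intro c x _ hx; exact C.smul_mem_VP c.2 hx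

theorem e_mem_VP : C.e ∈ C.VP := span_N_le_VP _ C.heN

theorem F0_le_FP' : D.F0.toSubring ≤ D.FP.toSubring := D.F0_le_FP

theorem FP_mem_VP {z : E} (hz : z ∈ D.FP) : algebraMap E V z ∈ C.VP := by
  rw [Algebra.algebraMap_eq_smul_one]
  exact C.smul_mem_VP hz C.VP.one_mem

/-- extension to `VP`. -/
theorem Glued.extP {Ω : Type*} [CommRing Ω] (φ : D.FP →+* Ω) (g : G.A →+* Ω)
    (hcomp : ∀ (z : E) (hz : z ∈ D.F0), g ⟨algebraMap E V z, G.F0_mem_A hz⟩ =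
      φ ⟨z, D.F0_le_FP hz⟩) :
    ∃ Φ : C.VP →+* Ω, (∀ (a : V) (ha : a ∈ G.A) (ha' : a ∈ C.VP), Φ ⟨a, ha'⟩ = g ⟨a, ha⟩) ∧
      (∀ (z : E) (hz : z ∈ D.FP), Φ ⟨algebraMap E V z, FP_mem_VP hz⟩ = φ ⟨z, hz⟩) := by
  obtain ⟨Φ, h1, h2, -⟩ := ext_hom G.b D.F0.toSubring D.FP.toSubring F0_le_FP' G.A C.VP G.hA G.hP
    φ g (fun z hz => G.F0_mem_A hz) hcomp
  exact ⟨Φ, h1, fun z hz => h2 z hz _⟩

/-- Value of an extension at an element of the `FP`-span of `N`. -/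
theorem ext_at_span {Ω : Type*} [CommRing Ω] (φ : D.FP →+* Ω) (Φ : C.VP →+* Ω)
    (h2 : ∀ (z : E) (hz : z ∈ D.FP), Φ ⟨algebraMap E V z, FP_mem_VP hz⟩ = φ ⟨z, hz⟩)
    {m : ℕ} (z : Fin m → D.FP) (x : Fin m → C.N) (v : V) (hv : v ∈ C.VP)
    (he : v = ∑ j, (z j : E) • (x j : V)) :
    Φ ⟨v, hv⟩ = ∑ j, φ (z j) * Φ ⟨x j, C.N_le_VP (x j).2⟩ := by
  have : (⟨v, hv⟩ : C.VP) = ∑ j, (⟨algebraMap E V (z j), FP_mem_VP (z j).2⟩ : C.VP) *
      ⟨x j, C.N_le_VP (x j).2⟩ := by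
    ext
    push_cast
    rw [he]
    exact Finset.sum_congr rfl fun i _ => Algebra.smul_def _ _
  rw [this, map_sum]
  refine Finset.sum_congr rfl fun j _ => ?_
  rw [map_mul, h2 _ (z j).2]

theorem one_sub_e_mul_mem_VP {v : V} (hv : v ∈ cs C.bU D.FP.toSubring) : (1 - C.e) * v ∈ C.VP := by
  refine ⟨?_, fun i => ⟨0, zero_mem _, ?_⟩⟩
  · rw [← mul_assoc, C.he1]
    exact C.cs_mul D.FP D.F0_le_FP C.one_sub_e_mem hv
  · have := C.e_mul_ε i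
    linear_combination (-v) * this

theorem L_mem_cs {l : V} (hl : l ∈ C.L) : l ∈ cs C.bU D.FP.toSubring :=
  cs_mono C.bU F0_le_FP' ((C.hL l).1 hl)

/-- **(P-out)** Homs from the glued algebra on the disc side, outside the region `e`. -/
theorem Glued.homPout {Ω : Type*} [CommRing Ω] (φ : D.FP →+* Ω) (g : G.A →+* Ω)
    (hcomp : ∀ (z : E) (hz : z ∈ D.F0), g ⟨algebraMap E V z, G.F0_mem_A hz⟩ =
      φ ⟨z, D.F0_le_FP hz⟩)
    {m : ℕ} (z : Fin m → D.FP) (x : Fin m → C.N) (he : C.e = ∑ j, (z j : E) • (x j : V))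
    (h0 : ∑ j, φ (z j) * g ⟨x j, G.hN (x j).2⟩ = 0) :
    ∃ h : C.L →+* Ω, (∀ (x : V) (hx : x ∈ C.N), h ⟨x, C.hN hx⟩ = g ⟨x, G.hN hx⟩) ∧
      (∀ (Y : Subring Ω), (∀ z, φ z ∈ Y) → (∀ l, h l ∈ Y) → ∀ a, g a ∈ Y) := by
  classical
  obtain ⟨Φ, h1, h2⟩ := G.extP φ g hcomp
  have hΦe : Φ ⟨C.e, e_mem_VP⟩ = 0 := by
    rw [ext_at_span φ Φ h2 z x C.e e_mem_VP he, ← h0]
    refine Finset.sum_congr rfl fun j _ => ?_
    rw [h1 _ (G.hN (x j).2)]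
  have hΦ1 : Φ (1 - ⟨C.e, e_mem_VP⟩) = 1 := by rw [map_sub, map_one, hΦe, sub_zero]
  have hmem : ∀ l : C.L, (1 - C.e) * (l : V) ∈ C.VP := fun l =>
    one_sub_e_mul_mem_VP (L_mem_cs l.2)
  let h : C.L →+* Ω :=
    { toFun := fun l => Φ ⟨(1 - C.e) * (l : V), hmem l⟩
      map_one' := by
        rw [← hΦ1]; congr 1; ext; push_cast; ring
      map_mul' := by
        intro l l'
        rw [← map_mul]; congr 1; ext; push_cast
        have := C.he1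
        linear_combination (-(l : V) * l') * this
      map_zero' := by
        rw [← map_zero Φ]; congr 1; ext; push_cast; ring
      map_add' := by
        intro l l'
        rw [← map_add]; congr 1; ext; push_cast; ring }
  have hmul1 : ∀ v : C.VP, Φ ⟨(1 - C.e) * (v : V), C.VP.mul_mem
      (C.VP.sub_mem C.VP.one_mem e_mem_VP) v.2⟩ = Φ v := by
    intro v
    have : (⟨(1 - C.e) * (v : V), C.VP.mul_mem
      (C.VP.sub_mem C.VP.one_mem e_mem_VP) v.2⟩ : C.VP) = (1 - ⟨C.e, e_mem_VP⟩) * v := by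
      ext; push_cast; ring
    rw [this, map_mul, hΦ1, one_mul]
  refine ⟨h, ?_, ?_⟩
  · intro x hx
    change Φ ⟨(1 - C.e) * x, _⟩ = _
    rw [← h1 x (G.hN hx) (C.N_le_VP hx)]
    exact hmul1 ⟨x, C.N_le_VP hx⟩
  · intro Y hY1 hY2 a
    have haVP : a.1 ∈ C.VP := (G.hP _).2 (cs_mono G.b F0_le_FP' ((G.hA _).1 a.2))
    rw [← h1 a.1 a.2 haVP, ← hmul1 ⟨a.1, haVP⟩]
    have ha1 : (1 - C.e) * a.1 ∈ cs C.bU D.FP.toSubring := haVP.1
    have hbU : ∀ i, C.bU i ∈ C.L := fun i => (C.hL _).2 (basis_mem_cs _ _ i)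
    have hsum : (⟨(1 - C.e) * a.1, C.VP.mul_mem
      (C.VP.sub_mem C.VP.one_mem e_mem_VP) haVP⟩ : C.VP) =
        ∑ i, (⟨algebraMap E V (C.bU.repr ((1 - C.e) * a.1) i), FP_mem_VP (ha1 i)⟩ : C.VP) *
        ⟨(1 - C.e) * C.bU i, hmem ⟨_, hbU i⟩⟩ := by
      ext
      push_cast
      have e1 : (1 - C.e) * a.1 = (1 - C.e) * ((1 - C.e) * a.1) := by
        rw [← mul_assoc, C.he1]
      conv_lhs => rw [e1, ← C.bU.sum_repr ((1 - C.e) * a.1), Finset.mul_sum]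
      refine Finset.sum_congr rfl fun i _ => ?_
      rw [Algebra.smul_def]; ring
    rw [hsum, map_sum]
    refine Y.sum_mem fun i _ => ?_
    rw [map_mul]
    refine Y.mul_mem ?_ (hY2 ⟨C.bU i, hbU i⟩)
    rw [h2 _ (ha1 i)]
    exact hY1 _

/-- **(P-out')** the converse. -/
theorem Glued.homPout' {Ω : Type*} [CommRing Ω] (φ : D.FP →+* Ω) (h : C.L →+* Ω)
    (hcomp : ∀ (z : E) (hz : z ∈ D.F0), h ⟨algebraMap E V z, C.F0_mem_L hz⟩ =
      φ ⟨z, D.F0_le_FP hz⟩)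
    {m : ℕ} (z : Fin m → D.FP) (x : Fin m → C.N) (he : C.e = ∑ j, (z j : E) • (x j : V))
    (h0 : ∑ j, φ (z j) * h ⟨x j, C.hN (x j).2⟩ = 0) :
    ∃ g : G.A →+* Ω, (∀ (x : V) (hx : x ∈ C.N), g ⟨x, G.hN hx⟩ = h ⟨x, C.hN hx⟩) ∧
      (∀ (Y : Subring Ω), (∀ z, φ z ∈ Y) → (∀ a, g a ∈ Y) → ∀ l, h l ∈ Y) := by
  classical
  set LP := csRing C.bU D.F0.toSubring D.FP.toSubring F0_le_FP' C.L C.hL with hLP
  obtain ⟨Φ, h1, h2, -⟩ := ext_hom C.bU D.F0.toSubring D.FP.toSubring F0_le_FP' C.L LP C.hL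
    (fun v => mem_csRing _ _ _ _ _ _ v) φ h (fun z hz => C.F0_mem_L hz) hcomp
  have hzLP : ∀ z ∈ D.FP, algebraMap E V z ∈ LP := fun z hz => by
    rw [Algebra.algebraMap_eq_smul_one]
    exact smul_mem_cs _ _ hz LP.one_mem
  have hLLP : ∀ l ∈ C.L, l ∈ LP := fun l hl => L_mem_cs hl
  have heLP : C.e ∈ LP := C.e_mem
  have hΦe : Φ ⟨C.e, heLP⟩ = 0 := by
    have : (⟨C.e, heLP⟩ : LP) = ∑ j, (⟨algebraMap E V (z j), hzLP _ (z j).2⟩ : LP) *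
        ⟨x j, hLLP _ (C.hN (x j).2)⟩ := by
      ext
      push_cast
      rw [he]
      exact Finset.sum_congr rfl fun i _ => Algebra.smul_def _ _
    rw [this, map_sum, ← h0]
    refine Finset.sum_congr rfl fun j _ => ?_
    rw [map_mul, h2 _ (z j).2, h1 _ (C.hN (x j).2)]
    rfl
  have hΦ1 : Φ (1 - ⟨C.e, heLP⟩) = 1 := by rw [map_sub, map_one, hΦe, sub_zero]
  have hAVP : ∀ a : G.A, a.1 ∈ C.VP := fun a =>
    (G.hP _).2 (cs_mono G.b F0_le_FP' ((G.hA _).1 a.2))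
  have hmem : ∀ a : G.A, (1 - C.e) * (a : V) ∈ LP := fun a => (hAVP a).1
  let g : G.A →+* Ω :=
    { toFun := fun a => Φ ⟨(1 - C.e) * (a : V), hmem a⟩
      map_one' := by
        rw [← hΦ1]; congr 1; ext; push_cast; ring
      map_mul' := by
        intro l l'
        rw [← map_mul]; congr 1; ext; push_cast
        have := C.he1
        linear_combination (-(l : V) * l') * this
      map_zero' := by
        rw [← map_zero Φ]; congr 1; ext; push_cast; ring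
      map_add' := by
        intro l l'
        rw [← map_add]; congr 1; ext; push_cast; ring }
  have hmul1 : ∀ v : LP, Φ ⟨(1 - C.e) * (v : V), LP.mul_mem
      (LP.sub_mem LP.one_mem heLP) v.2⟩ = Φ v := by
    intro v
    have : (⟨(1 - C.e) * (v : V), LP.mul_mem
      (LP.sub_mem LP.one_mem heLP) v.2⟩ : LP) = (1 - ⟨C.e, heLP⟩) * v := by
      ext; push_cast; ring
    rw [this, map_mul, hΦ1, one_mul]
  refine ⟨g, ?_, ?_⟩
  · intro x hx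
    change Φ ⟨(1 - C.e) * x, _⟩ = _
    rw [← h1 x (C.hN hx) (hLLP _ (C.hN hx))]
    exact hmul1 ⟨x, hLLP _ (C.hN hx)⟩
  · intro Y hY1 hY2 l
    rw [← h1 l.1 l.2 (hLLP _ l.2), ← hmul1 ⟨l.1, hLLP _ l.2⟩]
    have hl1 : (1 - C.e) * l.1 ∈ cs G.b D.FP.toSubring :=
      (G.hP _).1 (one_sub_e_mul_mem_VP (L_mem_cs l.2))
    have hb : ∀ i, G.b i ∈ G.A := fun i => (G.hA _).2 (basis_mem_cs _ _ i)
    have hsum : (⟨(1 - C.e) * l.1, LP.mul_mem
      (LP.sub_mem LP.one_mem heLP) (hLLP _ l.2)⟩ : LP) =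
        ∑ i, (⟨algebraMap E V (G.b.repr ((1 - C.e) * l.1) i), hzLP _ (hl1 i)⟩ : LP) *
        ⟨(1 - C.e) * G.b i, hmem ⟨_, hb i⟩⟩ := by
      ext
      push_cast
      have e1 : (1 - C.e) * l.1 = (1 - C.e) * ((1 - C.e) * l.1) := by
        rw [← mul_assoc, C.he1]
      conv_lhs => rw [e1, ← G.b.sum_repr ((1 - C.e) * l.1), Finset.mul_sum]
      refine Finset.sum_congr rfl fun i _ => ?_
      rw [Algebra.smul_def]; ring
    rw [hsum, map_sum]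
    refine Y.sum_mem fun i _ => ?_
    rw [map_mul]
    refine Y.mul_mem ?_ (hY2 ⟨G.b i, hb i⟩)
    rw [h2 _ (hl1 i)]
    exact hY1 _

theorem ε_mem_VP (i : Fin n) : C.ε i ∈ C.VP := by
  refine ⟨?_, fun j => ?_⟩
  · have h : (1 - C.e) * C.ε i = 0 := by
      have := C.e_mul_ε i
      linear_combination -this
    rw [h]; exact zero_mem _
  · by_cases hij : i = j
    · subst hij
      exact ⟨1, Submodule.subset_span C.N.one_mem, by rw [C.idem, one_mul]⟩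
    · exact ⟨0, zero_mem _, by rw [C.orth i j hij, zero_mul]⟩

/-- **(P-in)** inside the region `e`, a hom from the glued algebra to a domain is determined on
`N` and `FP`. -/
theorem Glued.homPin {Ω : Type*} [CommRing Ω] [IsDomain Ω] (φ : D.FP →+* Ω) (g : G.A →+* Ω)
    (hcomp : ∀ (z : E) (hz : z ∈ D.F0), g ⟨algebraMap E V z, G.F0_mem_A hz⟩ =
      φ ⟨z, D.F0_le_FP hz⟩)
    {m : ℕ} (z : Fin m → D.FP) (x : Fin m → C.N) (he : C.e = ∑ j, (z j : E) • (x j : V))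
    (h1e : ∑ j, φ (z j) * g ⟨x j, G.hN (x j).2⟩ = 1) :
    ∀ (Y : Subring Ω), (∀ z, φ z ∈ Y) → (∀ x (hx : x ∈ C.N), g ⟨x, G.hN hx⟩ ∈ Y) →
      ∀ a, g a ∈ Y := by
  classical
  obtain ⟨Φ, h1, h2⟩ := G.extP φ g hcomp
  have hΦe : Φ ⟨C.e, e_mem_VP⟩ = 1 := by
    rw [ext_at_span φ Φ h2 z x C.e e_mem_VP he, ← h1e]
    refine Finset.sum_congr rfl fun j _ => ?_
    rw [h1 _ (G.hN (x j).2)]
  intro Y hY1 hY2 a
  -- some idempotent maps to 1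
  have hid : ∀ i, Φ ⟨C.ε i, ε_mem_VP i⟩ = 0 ∨ Φ ⟨C.ε i, ε_mem_VP i⟩ = 1 := by
    intro i
    have h : Φ ⟨C.ε i, ε_mem_VP i⟩ * Φ ⟨C.ε i, ε_mem_VP i⟩ = Φ ⟨C.ε i, ε_mem_VP i⟩ := by
      rw [← map_mul]; congr 1; ext; push_cast; exact C.idem i
    have h' : Φ ⟨C.ε i, ε_mem_VP i⟩ * (Φ ⟨C.ε i, ε_mem_VP i⟩ - 1) = 0 := by
      rw [mul_sub, h, mul_one, sub_self]
    rcases mul_eq_zero.1 h' with h0 | h0
    · exact Or.inl h0
    · exact Or.inr (sub_eq_zero.1 h0)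
  obtain ⟨i, hi⟩ : ∃ i, Φ ⟨C.ε i, ε_mem_VP i⟩ = 1 := by
    by_contra hcon
    push Not at hcon
    have h0 : ∀ i, Φ ⟨C.ε i, ε_mem_VP i⟩ = 0 := fun i => (hid i).resolve_right (hcon i)
    have : (⟨C.e, e_mem_VP⟩ : C.VP) = ∑ i, ⟨C.ε i, ε_mem_VP i⟩ := by
      ext; push_cast; exact C.sum.symm
    rw [this, map_sum] at hΦe
    simp only [h0, Finset.sum_const_zero] at hΦe
    exact zero_ne_one hΦe
  have haVP : a.1 ∈ C.VP := (G.hP _).2 (cs_mono G.b F0_le_FP' ((G.hA _).1 a.2))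
  obtain ⟨c, hc, e1⟩ := haVP.2 i
  have hcVP := span_N_le_VP c hc
  have e2 : Φ ⟨a.1, haVP⟩ = Φ ⟨c, hcVP⟩ := by
    have : Φ (⟨a.1, haVP⟩ * ⟨C.ε i, ε_mem_VP i⟩) = Φ (⟨c, hcVP⟩ * ⟨C.ε i, ε_mem_VP i⟩) := by
      congr 1; ext; push_cast; exact e1
    rwa [map_mul, map_mul, hi, mul_one, mul_one] at this
  rw [← h1 a.1 a.2 haVP, e2]
  -- span induction with proof-carrying membership
  have key : ∀ v ∈ Submodule.span D.FP (C.N : Set V), ∃ hv : v ∈ C.VP, Φ ⟨v, hv⟩ ∈ Y := by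
    intro v hv
    refine Submodule.span_induction (p := fun v _ => ∃ hv : v ∈ C.VP, Φ ⟨v, hv⟩ ∈ Y)
      ?_ ?_ ?_ ?_ hv
    · intro x hx
      refine ⟨C.N_le_VP hx, ?_⟩
      rw [h1 x (G.hN hx)]
      exact hY2 x hx
    · refine ⟨C.VP.zero_mem, ?_⟩
      have : (⟨0, C.VP.zero_mem⟩ : C.VP) = 0 := rfl
      rw [this, map_zero]; exact Y.zero_mem
    · rintro v w _ _ ⟨hv, hv'⟩ ⟨hw, hw'⟩
      refine ⟨C.VP.add_mem hv hw, ?_⟩
      have : (⟨v + w, C.VP.add_mem hv hw⟩ : C.VP) = ⟨v, hv⟩ + ⟨w, hw⟩ := rfl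
      rw [this, map_add]; exact Y.add_mem hv' hw'
    · rintro z v _ ⟨hv, hv'⟩
      refine ⟨C.smul_mem_VP z.2 hv, ?_⟩
      have : (⟨z • v, C.smul_mem_VP z.2 hv⟩ : C.VP) =
          ⟨algebraMap E V z, FP_mem_VP z.2⟩ * ⟨v, hv⟩ := by
        ext; push_cast; exact Algebra.smul_def (z : E) v
      rw [this, map_mul, h2 _ z.2]
      exact Y.mul_mem (hY1 _) hv'
  obtain ⟨_, h⟩ := key c hc
  exact h

end CutData

end Glue

end Crest.Agent.R013.Gl946
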