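import Crest.Agent.R013.Gl3_946

/-!
# Patching, part 7: homomorphisms `RU → Ω`, `FP → Ω` extending `k(y) → Ω`.

`Ω` a complete ultrametric field; two cases: `Ω` norm-type (`‖c‖_Ω = ‖c‖` for constants) and
place-type (`‖c‖_Ω ≤ 1` for constants).
-/

set_option autoImplicit false

namespace Crest.Agent.R013.Gl946

open Filter Topology Polynomial

/-! ### General extension lemmas -/

/-- Extension of a ring homomorphism to a fraction subring. -/
theorem ext_frac {E : Type*} [Field E] (A B : Subring E) (h : B ≤ A) {Ω : Type*} [Field Ω]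
    (Ψ : A →+* Ω) (hinj : ∀ d (hd : d ∈ B), d ≠ 0 → Ψ ⟨d, h hd⟩ ≠ 0) :
    ∃ Φ : fracSub A B h →+* Ω,
      (∀ z (hz : z ∈ fracSub A B h) a (ha : a ∈ A) d (hd : d ∈ B), d ≠ 0 → z = a / d →
        Φ ⟨z, hz⟩ = Ψ ⟨a, ha⟩ / Ψ ⟨d, h hd⟩) := by
  classical
  have hex : ∀ z : fracSub A B h, ∃ a : A, ∃ d : B, (d : E) ≠ 0 ∧ (z : E) = a / d := by
    rintro ⟨z, a, ha, d, hd, hd0, e⟩
    exact ⟨⟨a, ha⟩, ⟨d, hd⟩, hd0, e⟩
  choose α δ hδ hz using hex
  let Φ0 : fracSub A B h → Ω := fun z => Ψ (α z) / Ψ ⟨δ z, h (δ z).2⟩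
  have key : ∀ z (hz : z ∈ fracSub A B h) a (ha : a ∈ A) d (hd : d ∈ B), d ≠ 0 → z = a / d →
      Φ0 ⟨z, hz⟩ = Ψ ⟨a, ha⟩ / Ψ ⟨d, h hd⟩ := by
    intro z hzm a ha d hd hd0 e
    change Ψ (α _) / Ψ ⟨δ _, h (δ _).2⟩ = _
    rw [div_eq_div_iff (hinj _ (δ _).2 (hδ _)) (hinj d hd hd0), ← map_mul, ← map_mul]
    congr 1
    ext
    push_cast
    have h1 : a / d = (α ⟨z, hzm⟩ : E) / δ ⟨z, hzm⟩ := e.symm.trans (hz ⟨z, hzm⟩)
    rw [div_eq_div_iff hd0 (hδ _)] at h1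
    exact h1.symm
  refine ⟨{ toFun := Φ0, map_one' := ?_, map_mul' := ?_, map_zero' := ?_, map_add' := ?_ }, key⟩
  · have h1 := key 1 (one_mem _) 1 (one_mem _) 1 (one_mem _) one_ne_zero (by simp)
    have e1 : (⟨1, one_mem _⟩ : fracSub A B h) = 1 := rfl
    have e2 : (⟨1, one_mem _⟩ : A) = 1 := rfl
    rw [e1, e2, map_one, div_one] at h1
    exact h1
  · rintro z w
    have h1 := key (z * w : fracSub A B h) (z * w : fracSub A B h).2 (α z * α w : A)
      (α z * α w : A).2 (δ z * δ w : B) (δ z * δ w : B).2 (by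
        push_cast; exact mul_ne_zero (hδ z) (hδ w)) (by
        push_cast; rw [hz z, hz w, div_mul_div_comm])
    have e2 : (⟨((α z * α w : A) : E), (α z * α w : A).2⟩ : A) = α z * α w := rfl
    have e3 : (⟨((δ z * δ w : B) : E), h (δ z * δ w : B).2⟩ : A) =
      ⟨δ z, h (δ z).2⟩ * ⟨δ w, h (δ w).2⟩ := rfl
    rw [e2, e3, map_mul, map_mul, mul_div_mul_comm] at h1
    exact h1
  · have h1 := key 0 (zero_mem _) 0 (zero_mem _) 1 (one_mem _) one_ne_zero (by simp)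
    have e1 : (⟨0, zero_mem _⟩ : fracSub A B h) = 0 := rfl
    have e2 : (⟨0, zero_mem _⟩ : A) = 0 := rfl
    rw [e1, e2, map_zero, zero_div] at h1
    exact h1
  · rintro z w
    have h1 := key (z + w : fracSub A B h) (z + w : fracSub A B h).2
      (α z * ⟨δ w, h (δ w).2⟩ + ⟨δ z, h (δ z).2⟩ * α w : A)
      (α z * ⟨δ w, h (δ w).2⟩ + ⟨δ z, h (δ z).2⟩ * α w : A).2 (δ z * δ w : B)
      (δ z * δ w : B).2 (by
        push_cast; exact mul_ne_zero (hδ z) (hδ w)) (by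
        push_cast; rw [hz z, hz w, div_add_div _ _ (hδ z) (hδ w)])
    have e2 : (⟨((α z * ⟨δ w, h (δ w).2⟩ + ⟨δ z, h (δ z).2⟩ * α w : A) : E),
      (α z * ⟨δ w, h (δ w).2⟩ + ⟨δ z, h (δ z).2⟩ * α w : A).2⟩ : A) =
      α z * ⟨δ w, h (δ w).2⟩ + ⟨δ z, h (δ z).2⟩ * α w := rfl
    have e3 : (⟨((δ z * δ w : B) : E), h (δ z * δ w : B).2⟩ : A) =
      ⟨δ z, h (δ z).2⟩ * ⟨δ w, h (δ w).2⟩ := rfl
    rw [e2, e3, map_mul, map_add, map_mul, map_mul] at h1
    refine h1.trans ?_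
    change _ = Ψ (α z) / Ψ ⟨δ z, h (δ z).2⟩ + Ψ (α w) / Ψ ⟨δ w, h (δ w).2⟩
    rw [div_add_div _ _ (hinj _ (δ z).2 (hδ z)) (hinj _ (δ w).2 (hδ w))]

/-- Extension of a norm-nonincreasing ring homomorphism to the closure of a subring. -/
theorem ext_closure {E : Type*} [NormedField E] (S0 : Subring E) {Ω : Type*} [NormedField Ω]
    [CompleteSpace Ω] (ψ : S0 →+* Ω) (hψ : ∀ s, ‖ψ s‖ ≤ ‖(s : E)‖)
    (Y : Set Ω) (hY : IsClosed Y) (hψY : ∀ s, ψ s ∈ Y) :
    ∃ Ψ : S0.topologicalClosure →+* Ω,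
      (∀ s (hs : s ∈ S0), Ψ ⟨s, S0.le_topologicalClosure hs⟩ = ψ ⟨s, hs⟩) ∧ ∀ a, Ψ a ∈ Y := by
  set i : S0 →+* S0.topologicalClosure := Subring.inclusion S0.le_topologicalClosure with hi
  have hui : IsUniformInducing i := by
    have h1 : IsUniformInducing (fun x : S0.topologicalClosure => (x : E)) :=
      isUniformInducing_val _
    have h2 : IsUniformInducing (fun x : S0 => (x : E)) := isUniformInducing_val _
    exact h1.of_comp_iff.1 h2
  have hdr : DenseRange i := by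
    intro x
    rw [Metric.mem_closure_iff]
    intro ε hε
    obtain ⟨s, hs, hxs⟩ := Metric.mem_closure_iff.1 (show (x : E) ∈ closure (S0 : Set E) from x.2)
      ε hε
    exact ⟨i ⟨s, hs⟩, ⟨⟨s, hs⟩, rfl⟩, hxs⟩
  have huc : UniformContinuous ψ := by
    refine AddMonoidHomClass.uniformContinuous_of_bound ψ 1 fun s => ?_
    rw [one_mul]; exact hψ s
  refine ⟨IsDenseInducing.extendRingHom hui hdr huc, ?_, ?_⟩
  · intro s hs
    exact (hui.isDenseInducing hdr).extend_eq huc.continuous ⟨s, hs⟩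
  · intro a
    have hcont : Continuous (IsDenseInducing.extendRingHom hui hdr huc) :=
      uniformContinuous_uniformly_extend hui hdr huc |>.continuous
    have : a ∈ closure (Set.range i) := hdr a
    refine hY.closure_subset_iff.2 ?_ (map_mem_closure hcont this (t := Y) ?_)
    · exact subset_rfl
    · rintro _ ⟨s, rfl⟩
      have : IsDenseInducing.extendRingHom hui hdr huc (i s) = ψ s :=
        (hui.isDenseInducing hdr).extend_eq huc.continuous s
      rw [this]; exact hψY s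

/-- `Q`-adic extension. -/
theorem ext_Q {A : Type*} [CommRing A] (S0 : Subring A) (Q : A) (hQ : Q ∈ S0)
    (h1 : ∀ a : A, ∃ s ∈ S0, ∃ b : A, a = s + Q * b) (h2 : ∀ b : A, Q * b ∈ S0 → b ∈ S0)
    {Ω : Type*} [NormedField Ω] [IsUltrametricDist Ω] [CompleteSpace Ω] (ψ : S0 →+* Ω)
    (hψ : ∀ s, ‖ψ s‖ ≤ 1) (hψQ : ‖ψ ⟨Q, hQ⟩‖ < 1)
    (Y : Set Ω) (hY : IsClosed Y) (hψY : ∀ s, ψ s ∈ Y) :
    ∃ Ψ : A →+* Ω, (∀ s (hs : s ∈ S0), Ψ s = ψ ⟨s, hs⟩) ∧ ∀ a, Ψ a ∈ Y := by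
  classical
  set q := ‖ψ ⟨Q, hQ⟩‖ with hq
  have hq0 : 0 ≤ q := norm_nonneg _
  have oadd : ∀ a b : Ω, ‖a + b‖ ≤ max ‖a‖ ‖b‖ := fun a b => IsUltrametricDist.norm_add_le_max a b
  have osub : ∀ a b : Ω, ‖a - b‖ ≤ max ‖a‖ ‖b‖ := fun a b => by
    have := IsUltrametricDist.norm_add_le_max a (-b)
    rwa [norm_neg, ← sub_eq_add_neg] at this
  -- `R a z`: z is the value at a
  let R : A → Ω → Prop := fun a z => ∀ n : ℕ, ∃ s : S0, ∃ b : A, a = s + Q ^ n * b ∧
    ‖z - ψ s‖ ≤ q ^ n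
  have hpow : ∀ (n : ℕ) (b : A), Q ^ n * b ∈ S0 → b ∈ S0 := by
    intro n
    induction n with
    | zero => intro b hb; simpa using hb
    | succ n ih =>
      intro b hb
      rw [pow_succ', mul_assoc] at hb
      exact ih b (h2 _ hb)
  have hcong : ∀ (n : ℕ) (s s' : S0) (b b' : A), (s : A) + Q ^ n * b = s' + Q ^ n * b' →
      ‖ψ s - ψ s'‖ ≤ q ^ n := by
    intro n s s' b b' h
    have e1 : Q ^ n * (b' - b) = ((s - s' : S0) : A) := by
      push_cast; linear_combination (-1 : A) * h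
    have e2 : b' - b ∈ S0 := hpow n _ (by rw [e1]; exact (s - s').2)
    have e3 : s - s' = ⟨Q, hQ⟩ ^ n * ⟨b' - b, e2⟩ := by
      ext; rw [← e1]; push_cast; rfl
    rw [← map_sub, e3, map_mul, map_pow, norm_mul, norm_pow]
    calc q ^ n * ‖ψ ⟨b' - b, e2⟩‖ ≤ q ^ n * 1 := mul_le_mul_of_nonneg_left (hψ _) (by positivity)
      _ = q ^ n := mul_one _
  have hlim : Tendsto (fun n : ℕ => q ^ n) atTop (𝓝 0) :=
    tendsto_pow_atTop_nhds_zero_of_lt_one hq0 hψQ
  have huniq : ∀ a z z', R a z → R a z' → z = z' := by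
    intro a z z' hz hz'
    have : ∀ n, ‖z - z'‖ ≤ q ^ n := by
      intro n
      obtain ⟨s, b, e, he⟩ := hz n
      obtain ⟨s', b', e', he'⟩ := hz' n
      have h3 := hcong n s s' b b' (by rw [← e, ← e'])
      have : z - z' = (z - ψ s) + (ψ s - ψ s') - (z' - ψ s') := by ring
      rw [this]
      exact (osub _ _).trans (max_le ((oadd _ _).trans (max_le he h3)) he')
    have h0 : ‖z - z'‖ ≤ 0 := ge_of_tendsto hlim (Eventually.of_forall this)
    exact sub_eq_zero.1 (norm_le_zero_iff.1 h0)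
  have hnorm : ∀ a z, R a z → ‖z‖ ≤ 1 := by
    intro a z hz
    obtain ⟨s, b, e, he⟩ := hz 0
    have : z = (z - ψ s) + ψ s := by ring
    rw [this]
    refine (oadd _ _).trans (max_le ?_ (hψ s))
    simpa using he
  have hexist : ∀ a, ∃ z, R a z := by
    intro a
    choose σ hσ β hβ using h1
    let b : ℕ → A := fun n => Nat.rec a (fun _ x => β x) n
    have bS : ∀ n, b n = σ (b n) + Q * b (n + 1) := fun n => hβ (b n)
    let s : ℕ → S0 := fun n => ∑ i ∈ Finset.range n, ⟨Q, hQ⟩ ^ i * ⟨σ (b i), hσ _⟩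
    have hs : ∀ n, a = (s n : A) + Q ^ n * b n := by
      intro n
      induction n with
      | zero => simp [s, b]
      | succ n ih =>
        have e1 : (s (n + 1) : A) = s n + Q ^ n * σ (b n) := by
          simp only [s, Finset.sum_range_succ]
          push_cast; rfl
        rw [e1, pow_succ, add_assoc, mul_assoc, ← mul_add, ← bS]
        exact ih
    have hcs : CauchySeq fun n => ψ (s n) := by
      refine cauchySeq_of_le_geometric q 1 hψQ fun n => ?_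
      rw [dist_eq_norm, one_mul]
      exact hcong n (s n) (s (n + 1)) (b n) (Q * b (n + 1)) (by
        rw [← hs n, ← mul_assoc, ← pow_succ]; exact hs (n + 1))
    obtain ⟨z, hz⟩ := cauchySeq_tendsto_of_complete hcs
    refine ⟨z, fun n => ⟨s n, b n, hs n, ?_⟩⟩
    have h3 : ∀ m, n ≤ m → ‖ψ (s m) - ψ (s n)‖ ≤ q ^ n := by
      intro m hm
      obtain ⟨j, rfl⟩ := Nat.exists_eq_add_of_le hm
      exact hcong n (s (n + j)) (s n) (Q ^ j * b (n + j)) (b n) (by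
        rw [← hs n, ← mul_assoc, ← pow_add]; exact (hs (n + j)).symm)
    have h4 : Tendsto (fun m => ‖ψ (s m) - ψ (s n)‖) atTop (𝓝 ‖z - ψ (s n)‖) :=
      (hz.sub_const _).norm
    exact le_of_tendsto h4 (eventually_atTop.2 ⟨n, h3⟩)
  choose Ψ hΨ using hexist
  have hS : ∀ s (hs : s ∈ S0), Ψ s = ψ ⟨s, hs⟩ := by
    intro s hs
    refine huniq s _ _ (hΨ s) fun n => ⟨⟨s, hs⟩, 0, by simp, ?_⟩
    rw [sub_self, norm_zero]; positivity
  refine ⟨{ toFun := Ψ, map_one' := ?_, map_mul' := ?_, map_zero' := ?_, map_add' := ?_ }, hS, ?_⟩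
  · rw [hS 1 S0.one_mem]; exact map_one ψ
  · intro a a'
    refine huniq (a * a') _ _ (hΨ _) fun n => ?_
    obtain ⟨s, b, e, he⟩ := hΨ a n
    obtain ⟨s', b', e', he'⟩ := hΨ a' n
    refine ⟨s * s', s * b' + s' * b + Q ^ n * b * b', ?_, ?_⟩
    · conv_lhs => rw [e, e']
      push_cast; ring
    · have e3 : Ψ a * Ψ a' - ψ (s * s') = Ψ a * (Ψ a' - ψ s') + (Ψ a - ψ s) * ψ s' := by
        rw [map_mul]; ring
      rw [e3]
      refine (oadd _ _).trans (max_le ?_ ?_)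
      · rw [norm_mul]
        calc _ ≤ 1 * q ^ n := mul_le_mul (hnorm a _ (hΨ a)) he' (norm_nonneg _) zero_le_one
          _ = _ := one_mul _
      · rw [norm_mul]
        calc _ ≤ q ^ n * 1 := mul_le_mul he (hψ s') (norm_nonneg _) (by positivity)
          _ = _ := mul_one _
  · rw [hS 0 S0.zero_mem]; exact map_zero ψ
  · intro a a'
    refine huniq (a + a') _ _ (hΨ _) fun n => ?_
    obtain ⟨s, b, e, he⟩ := hΨ a n
    obtain ⟨s', b', e', he'⟩ := hΨ a' n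
    refine ⟨s + s', b + b', ?_, ?_⟩
    · conv_lhs => rw [e, e']
      push_cast; ring
    · have e3 : Ψ a + Ψ a' - ψ (s + s') = (Ψ a - ψ s) + (Ψ a' - ψ s') := by
        rw [map_add]; ring
      rw [e3]
      exact (oadd _ _).trans (max_le he he')
  · intro a
    change Ψ a ∈ Y
    rw [← hY.closure_eq, Metric.mem_closure_iff]
    intro ε hε
    obtain ⟨n, hn⟩ := (hlim.eventually (gt_mem_nhds hε)).exists
    obtain ⟨s, b, e, he⟩ := hΨ a n
    exact ⟨ψ s, hψY s, by rw [dist_eq_norm]; exact he.trans_lt hn⟩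

end Crest.Agent.R013.Gl946
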