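import Crest.Agent.R013.KAS3_940

/-!
# R013 / Good1: from the local computation KAS to a valuation of the Kummer extension (helper940)

* `ev hr1 x hx : bsub r1 →+* E`, `f ↦ ∑ a_m x ^ m` for `‖x‖ < r1`, `E` complete ultrametric.
* `specVal` : the spectral norm of an algebraic extension as a valuation in `ℝ≥0`.
* `exists_val_kummer` : `iota : K →+* E` dense, `iota h = ev u * g ^ N`; then every algebraic
  extension `K1 = K(y)`, `y ^ N = h`, has a valuation extending `‖iota ·‖` and `z ∈ K1` with
  `v (z ^ p - z - t ^ m) < 1`.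
-/

set_option autoImplicit false

namespace Crest.Agent.R013.Good1_940

open PowerSeries Finset
open scoped NNReal
open Crest.Agent.R013.KAS1_940 Crest.Agent.R013.KAS2_940 Crest.Agent.R013.KAS3_940

section Ev

variable {k E : Type*} [NormedField k] [IsUltrametricDist k] [NormedField E] [IsUltrametricDist E]
  [NormedAlgebra k E] [CompleteSpace E]

omit [IsUltrametricDist k] [IsUltrametricDist E] [CompleteSpace E] in
theorem summable_norm {r1 C : ℝ} {f : k⟦X⟧} (hf : Bd r1 C f) {x : E} (hx : ‖x‖ < r1) :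
    Summable fun m => ‖algebraMap k E (coeff m f) * x ^ m‖ := by
  have hr1 : 0 < r1 := (norm_nonneg x).trans_lt hx
  have hC := hf.nonneg
  refine Summable.of_nonneg_of_le (fun m => norm_nonneg _) (fun m => ?_)
    ((summable_geometric_of_lt_one (r := ‖x‖ / r1) (by positivity)
      ((div_lt_one hr1).mpr hx)).mul_left C)
  rw [norm_mul, norm_algebraMap', norm_pow, div_pow]
  have h1 := hf m
  calc ‖coeff m f‖ * ‖x‖ ^ m = (‖coeff m f‖ * r1 ^ m) * (‖x‖ ^ m / r1 ^ m) := by field_simp
    _ ≤ C * (‖x‖ ^ m / r1 ^ m) := by gcongr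

omit [IsUltrametricDist k] [IsUltrametricDist E] in
theorem tsum_add' {r1 C D : ℝ} {f g : k⟦X⟧} (hf : Bd r1 C f) (hg : Bd r1 D g) {x : E}
    (hx : ‖x‖ < r1) : (∑' m, algebraMap k E (coeff m (f + g)) * x ^ m) =
      (∑' m, algebraMap k E (coeff m f) * x ^ m) + ∑' m, algebraMap k E (coeff m g) * x ^ m := by
  rw [← ((summable_norm hf hx).of_norm).tsum_add ((summable_norm hg hx).of_norm)]
  refine tsum_congr fun m => ?_
  rw [map_add, map_add, add_mul]

omit [IsUltrametricDist k] [IsUltrametricDist E] in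
theorem tsum_mul' {r1 C D : ℝ} {f g : k⟦X⟧} (hf : Bd r1 C f) (hg : Bd r1 D g) {x : E}
    (hx : ‖x‖ < r1) : (∑' m, algebraMap k E (coeff m (f * g)) * x ^ m) =
      (∑' m, algebraMap k E (coeff m f) * x ^ m) * ∑' m, algebraMap k E (coeff m g) * x ^ m := by
  have h1 := tsum_mul_tsum_eq_tsum_sum_antidiagonal_of_summable_norm
    (f := fun m => algebraMap k E (coeff m f) * x ^ m)
    (g := fun m => algebraMap k E (coeff m g) * x ^ m) (summable_norm hf hx) (summable_norm hg hx)
  rw [h1]
  refine tsum_congr fun m => ?_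
  rw [coeff_mul, map_sum, sum_mul]
  refine sum_congr rfl ?_
  rintro ⟨i, j⟩ hij
  rw [HasAntidiagonal.mem_antidiagonal] at hij
  simp only at hij ⊢
  rw [← hij, map_mul, pow_add]; ring

omit [IsUltrametricDist k] [IsUltrametricDist E] [CompleteSpace E] in
theorem tsum_C' {x : E} (a : k) :
    (∑' m, algebraMap k E (coeff m (C a : k⟦X⟧)) * x ^ m) = algebraMap k E a := by
  rw [tsum_eq_single 0]
  · simp
  · intro m hm
    rw [coeff_C, if_neg hm, map_zero, zero_mul]

omit [IsUltrametricDist k] [IsUltrametricDist E] [CompleteSpace E] in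
theorem tsum_X' {x : E} :
    (∑' m, algebraMap k E (coeff m (X : k⟦X⟧)) * x ^ m) = x := by
  rw [tsum_eq_single 1]
  · simp
  · intro m hm
    rw [coeff_X, if_neg hm, map_zero, zero_mul]

/-- evaluation of the power series bounded at radius `r1` at a point of norm `< r1` -/
noncomputable def ev {r1 : ℝ} (hr1 : 0 < r1) (x : E) (hx : ‖x‖ < r1) :
    bsub (K := k) r1 hr1 →+* E where
  toFun f := ∑' m, algebraMap k E (coeff m f.1) * x ^ m
  map_one' := by
    have := tsum_C' (x := x) (1 : k)
    rwa [map_one, map_one] at this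
  map_zero' := by
    have := tsum_C' (x := x) (0 : k)
    rwa [map_zero, map_zero] at this
  map_add' f g := tsum_add' f.2.choose_spec g.2.choose_spec hx
  map_mul' f g := tsum_mul' f.2.choose_spec g.2.choose_spec hx

omit [IsUltrametricDist E] in
theorem ev_apply {r1 : ℝ} {hr1 : 0 < r1} {x : E} {hx : ‖x‖ < r1} (f : bsub (K := k) r1 hr1) :
    ev hr1 x hx f = ∑' m, algebraMap k E (coeff m f.1) * x ^ m := rfl

omit [IsUltrametricDist E] in
theorem ev_C {r1 : ℝ} {hr1 : 0 < r1} {x : E} {hx : ‖x‖ < r1} (a : k) :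
    ev hr1 x hx ⟨C a, C_mem a⟩ = algebraMap k E a := by
  rw [ev_apply]; exact tsum_C' a

omit [IsUltrametricDist E] in
theorem ev_X {r1 : ℝ} {hr1 : 0 < r1} {x : E} {hx : ‖x‖ < r1} :
    ev hr1 x hx (⟨X, X_mem⟩ : bsub (K := k) r1 hr1) = x := by
  rw [ev_apply]; exact tsum_X'

theorem norm_ev_le {r1 : ℝ} {hr1 : 0 < r1} {x : E} {hx : ‖x‖ < r1} (f : bsub (K := k) r1 hr1)
    {B : ℝ} (hB : Bd ‖x‖ B f.1) : ‖ev hr1 x hx f‖ ≤ B := by
  rw [ev_apply]
  refine IsUltrametricDist.norm_tsum_le_of_forall_le_of_nonneg hB.nonneg fun m => ?_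
  rw [norm_mul, norm_algebraMap', norm_pow]
  exact hB m

theorem gaussPt_ev {r r1 : ℝ} {hr1 : 0 < r1} {x : E} {hx : ‖x‖ < r1} (hr : ‖x‖ = r) {L : Type*}
    [Field L] (w : Valuation L ℝ≥0) (phi : E →+* L) (hw : ∀ e, w (phi e) = ‖e‖₊) :
    GaussPt r r1 hr1 L w (phi.comp (ev (k := k) hr1 x hx)) where
  le_of_bd f B hB := by
    rw [RingHom.comp_apply, hw, coe_nnnorm]
    rw [← hr] at hB
    exact norm_ev_le f hB
  w_C a := by
    rw [RingHom.comp_apply, hw, coe_nnnorm, ev_C, norm_algebraMap']

end Ev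

section Spec

variable (E : Type*) [NontriviallyNormedField E] [IsUltrametricDist E] [CompleteSpace E]
  (L : Type*) [Field L] [Algebra E L] [Algebra.IsAlgebraic E L]

/-- the spectral norm as a valuation -/
noncomputable def specVal : Valuation L ℝ≥0 where
  toFun x := Real.toNNReal (spectralNorm E L x)
  map_zero' := by rw [spectralNorm_zero, Real.toNNReal_zero]
  map_one' := by rw [spectralNorm_one, Real.toNNReal_one]
  map_mul' x y := by
    rw [← Real.toNNReal_mul (spectralNorm_nonneg x)]
    congr 1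
    exact map_mul (spectralMulAlgNorm E L) x y
  map_add_le_max' x y := by
    have h := isNonarchimedean_spectralNorm (K := E) (L := L) x y
    rcases le_total (spectralNorm E L x) (spectralNorm E L y) with h1 | h1
    · rw [max_eq_right h1] at h
      exact (Real.toNNReal_mono h).trans (le_max_right _ _)
    · rw [max_eq_left h1] at h
      exact (Real.toNNReal_mono h).trans (le_max_left _ _)

theorem specVal_coe (x : L) : (specVal E L x : ℝ) = spectralNorm E L x :=
  Real.coe_toNNReal _ (spectralNorm_nonneg x)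

theorem specVal_algebraMap (e : E) : specVal E L (algebraMap E L e) = ‖e‖₊ := by
  ext
  rw [specVal_coe, coe_nnnorm]
  exact spectralNorm_extends e

end Spec

/-- `w (a ^ n - b ^ n) ≤ w (a - b)` for integral `a`, `b` -/
theorem w_pow_sub_pow_le {L : Type*} [Field L] (w : Valuation L ℝ≥0) {a b : L} (ha : w a ≤ 1)
    (hb : w b ≤ 1) (n : ℕ) : w (a ^ n - b ^ n) ≤ w (a - b) := by
  obtain ⟨c, hc⟩ := sub_dvd_pow_sub_pow (⟨a, ha⟩ : w.integer) ⟨b, hb⟩ n
  have h1 : a ^ n - b ^ n = (a - b) * (c : L) := by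
    have := congrArg (Subtype.val : w.integer → L) hc
    push_cast at this
    exact this
  rw [h1, map_mul]
  calc w (a - b) * w (c : L) ≤ w (a - b) * 1 := by gcongr; exact c.2
    _ = _ := mul_one _

section Main

universe uE

variable {k : Type*} {E : Type uE} [NormedField k] [IsUltrametricDist k]
  [NontriviallyNormedField E] [IsUltrametricDist E] [NormedAlgebra k E] [CompleteSpace E]

/-- approximation of the elements of `E(j y)` by elements of `K1` -/
theorem exists_approx {K K1 : Type*} [Field K] [Field K1] [Algebra K K1] (iota : K →+* E)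
    (hd : DenseRange iota) {Om : Type*} [Field Om] [Algebra E Om] [Algebra.IsAlgebraic E Om]
    (j : K1 →+* Om) (hj : ∀ a : K, j (algebraMap K K1 a) = algebraMap E Om (iota a)) (y : K1)
    (x : Om) (hx : x ∈ IntermediateField.adjoin E {j y}) :
    ∃ z : K1, specVal E Om (x - j z) < 1 := by
  let : NormedField Om := spectralNorm.normedField E Om
  have hmem : x ∈ j.range.topologicalClosure := by
    have hint : IsIntegral E (j y) := Algebra.IsIntegral.isIntegral _
    rw [← IntermediateField.mem_toSubalgebra,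
      IntermediateField.adjoin_simple_toSubalgebra_of_isAlgebraic hint.isAlgebraic] at hx
    refine Algebra.adjoin_induction ?_ ?_ ?_ ?_ hx
    · intro a ha
      rw [Set.mem_singleton_iff] at ha
      rw [ha]
      exact j.range.le_topologicalClosure ⟨y, rfl⟩
    · intro e
      change algebraMap E Om e ∈ closure (j.range : Set Om)
      rw [Metric.mem_closure_iff]
      intro ε hε
      obtain ⟨a, ha⟩ := hd.exists_dist_lt e hε
      refine ⟨algebraMap E Om (iota a), ⟨algebraMap K K1 a, hj a⟩, ?_⟩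
      rw [dist_eq_norm] at ha ⊢
      rw [← map_sub]
      exact (spectralNorm_extends (L := Om) (e - iota a)).trans_lt ha
    · intro a b _ _ ha hb
      exact Subring.add_mem _ ha hb
    · intro a b _ _ ha hb
      exact Subring.mul_mem _ ha hb
  change x ∈ closure (j.range : Set Om) at hmem
  rw [Metric.mem_closure_iff] at hmem
  obtain ⟨b, ⟨z, rfl⟩, hb⟩ := hmem 1 one_pos
  refine ⟨z, ?_⟩
  rw [← NNReal.coe_lt_coe, specVal_coe]
  rw [dist_eq_norm] at hb
  exact hb

/-- **(GOOD1)** The conclusion of `kas` for `u` passes to a valuation of the Kummer extension. -/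
theorem exists_val_kummer {p N m : ℕ} {c : k} (hc : c ≠ 0) {r1 : ℝ} {hr1 : 0 < r1} (hcr : ‖c‖ < r1)
    (u : bsub (K := k) r1 hr1)
    (hkas : ∀ (L : Type uE) [Field L] (w : Valuation L ℝ≥0) (iota : (bsub (K := k) r1 hr1) →+* L),
      GaussPt ‖c‖ r1 hr1 L w iota → ∀ (y b : L), b ≠ 0 → y ^ N = iota u * b ^ N →
        ∃ z : L, w z ≤ 1 ∧ w (z ^ p - z - (iota ⟨X, X_mem⟩ / iota ⟨C c, C_mem c⟩) ^ m) < 1)
    {x : E} (hx : ‖x‖ = ‖c‖) {K K1 : Type*} [Field K] [Field K1] [Algebra K K1]
    [Algebra.IsAlgebraic K K1] (iota : K →+* E) (hd : DenseRange iota) {h : K} {g : E} (hg : g ≠ 0)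
    (hh : iota h = ev hr1 x (hx.trans_lt hcr) u * g ^ N) {y : K1} (hy : y ^ N = algebraMap K K1 h) :
    ∃ v : Valuation K1 ℝ≥0, (∀ a : K, v (algebraMap K K1 a) = ‖iota a‖₊) ∧
      ∃ z : K1, v z ≤ 1 ∧ ∀ t : K, ‖iota t - x / algebraMap k E c‖ < 1 →
        v (z ^ p - z - (algebraMap K K1 t) ^ m) < 1 := by
  classical
  let : Algebra K (AlgebraicClosure E) := ((algebraMap E (AlgebraicClosure E)).comp iota).toAlgebra
  let j : K1 →ₐ[K] AlgebraicClosure E := IsAlgClosed.lift
  have hj : ∀ a : K, j (algebraMap K K1 a) = algebraMap E (AlgebraicClosure E) (iota a) := fun a =>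
    j.commutes a
  set w := specVal E (AlgebraicClosure E) with hw
  let L := IntermediateField.adjoin E {(j : K1 →+* AlgebraicClosure E) y}
  let yL : L := ⟨(j : K1 →+* AlgebraicClosure E) y, IntermediateField.mem_adjoin_simple_self E _⟩
  let wL : Valuation L ℝ≥0 := w.comap (algebraMap L (AlgebraicClosure E))
  have hwL : ∀ e : E, wL (algebraMap E L e) = ‖e‖₊ := by
    intro e
    exact specVal_algebraMap E (AlgebraicClosure E) e
  have hG : GaussPt ‖c‖ r1 hr1 L wL ((algebraMap E L).comp (ev (k := k) hr1 x (hx.trans_lt hcr))) :=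
    gaussPt_ev (k := k) (hr1 := hr1) (hx := hx.trans_lt hcr) hx wL (algebraMap E L) hwL
  have hgL : algebraMap E L g ≠ 0 := (map_ne_zero _).mpr hg
  have hyL : yL ^ N = ((algebraMap E L).comp (ev (k := k) hr1 x (hx.trans_lt hcr))) u * (algebraMap E L g) ^ N := by
    rw [RingHom.comp_apply, ← map_pow, ← map_mul, ← hh]
    apply Subtype.ext
    show ((j : K1 →+* AlgebraicClosure E) y) ^ N = algebraMap E (AlgebraicClosure E) (iota h)
    rw [← hj h, ← hy, map_pow]
    rfl
  obtain ⟨zL, hz1, hz2⟩ := hkas L wL _ hG yL (algebraMap E L g) hgL hyL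
  obtain ⟨z, hz⟩ := exists_approx iota hd (j : K1 →+* AlgebraicClosure E) hj y (zL : AlgebraicClosure E) zL.2
  refine ⟨w.comap (j : K1 →+* AlgebraicClosure E), ?_, z, ?_, ?_⟩
  · intro a
    rw [Valuation.comap_apply]
    show w (j (algebraMap K K1 a)) = _
    rw [hj]
    exact specVal_algebraMap E (AlgebraicClosure E) (iota a)
  · rw [Valuation.comap_apply]
    have h1 : (j : K1 →+* AlgebraicClosure E) z = (zL : AlgebraicClosure E) - ((zL : AlgebraicClosure E) - (j : K1 →+* AlgebraicClosure E) z) := by ring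
    rw [h1]
    exact (w.map_sub _ _).trans (max_le hz1 hz.le)
  · intro t ht
    set W := w.comap (j : K1 →+* AlgebraicClosure E) with hW
    -- everything in `AlgebraicClosure E`
    have hz2' : w ((zL : AlgebraicClosure E) ^ p - (zL : AlgebraicClosure E) -
        (algebraMap E (AlgebraicClosure E) (x / algebraMap k E c)) ^ m) < 1 := by
      have h1 : ((algebraMap E L).comp (ev (k := k) hr1 x (hx.trans_lt hcr))) ⟨X, X_mem⟩ /
          ((algebraMap E L).comp (ev (k := k) hr1 x (hx.trans_lt hcr))) ⟨C c, C_mem c⟩ =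
          algebraMap E L (x / algebraMap k E c) := by
        rw [RingHom.comp_apply, RingHom.comp_apply, ev_X, ev_C, map_div₀]
      rw [h1] at hz2
      exact hz2
    have hz1' : w (zL : AlgebraicClosure E) ≤ 1 := hz1
    have hcn : algebraMap k E c ≠ 0 := (map_ne_zero _).mpr hc
    have hxc : ‖x / algebraMap k E c‖ = 1 := by
      rw [norm_div, norm_algebraMap', hx, div_self (norm_ne_zero_iff.mpr hc)]
    have hwx : w (algebraMap E (AlgebraicClosure E) (x / algebraMap k E c)) ≤ 1 := by
      rw [hw, specVal_algebraMap, ← NNReal.coe_le_coe, coe_nnnorm, hxc, NNReal.coe_one]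
    have hwd : w (algebraMap E (AlgebraicClosure E) (iota t) -
        algebraMap E (AlgebraicClosure E) (x / algebraMap k E c)) < 1 := by
      rw [← map_sub, hw, specVal_algebraMap, ← NNReal.coe_lt_coe, coe_nnnorm]
      exact ht
    have hwt : w (algebraMap E (AlgebraicClosure E) (iota t)) ≤ 1 := by
      have h1 : algebraMap E (AlgebraicClosure E) (iota t) =
          (algebraMap E (AlgebraicClosure E) (iota t) -
            algebraMap E (AlgebraicClosure E) (x / algebraMap k E c)) +
          algebraMap E (AlgebraicClosure E) (x / algebraMap k E c) := by ring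
      rw [h1]
      exact (w.map_add _ _).trans (max_le hwd.le hwx)
    have hwz : w ((j : K1 →+* AlgebraicClosure E) z) ≤ 1 := by
      have h1 : (j : K1 →+* AlgebraicClosure E) z = (zL : AlgebraicClosure E) -
          ((zL : AlgebraicClosure E) - (j : K1 →+* AlgebraicClosure E) z) := by ring
      rw [h1]
      exact (w.map_sub _ _).trans (max_le hz1' hz.le)
    have hwdz : w ((j : K1 →+* AlgebraicClosure E) z - (zL : AlgebraicClosure E)) < 1 := by
      rw [Valuation.map_sub_swap]; exact hz
    have e1 : w (((j : K1 →+* AlgebraicClosure E) z) ^ p - (zL : AlgebraicClosure E) ^ p) < 1 :=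
      (w_pow_sub_pow_le w hwz hz1' p).trans_lt hwdz
    have e2 : w ((algebraMap E (AlgebraicClosure E) (iota t)) ^ m -
        (algebraMap E (AlgebraicClosure E) (x / algebraMap k E c)) ^ m) < 1 :=
      (w_pow_sub_pow_le w hwt hwx m).trans_lt hwd
    have e3 : (j : K1 →+* AlgebraicClosure E) (z ^ p - z - (algebraMap K K1 t) ^ m) =
        ((zL : AlgebraicClosure E) ^ p - (zL : AlgebraicClosure E) -
          (algebraMap E (AlgebraicClosure E) (x / algebraMap k E c)) ^ m) +
        (((j : K1 →+* AlgebraicClosure E) z) ^ p - (zL : AlgebraicClosure E) ^ p) -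
        ((j : K1 →+* AlgebraicClosure E) z - (zL : AlgebraicClosure E)) -
        ((algebraMap E (AlgebraicClosure E) (iota t)) ^ m -
          (algebraMap E (AlgebraicClosure E) (x / algebraMap k E c)) ^ m) := by
      have h2 : (j : K1 →+* AlgebraicClosure E) (algebraMap K K1 t) =
          algebraMap E (AlgebraicClosure E) (iota t) := hj t
      rw [map_sub, map_sub, map_pow, map_pow, h2]; ring
    rw [hW, Valuation.comap_apply, e3]
    exact w.map_sub_lt (w.map_sub_lt (w.map_add_lt hz2' e1) hwdz) e2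

end Main

end Crest.Agent.R013.Good1_940
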