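import Crest.Agent.R013.Good3_940

/-!
# R013 / Good4: an etale class with a form of exact order `i` at `q` gives an Artin-Schreier
residue field over small circles around `q` (helper940)
-/

set_option autoImplicit false

namespace Crest.Agent.R013.Good4_940

open PowerSeries
open scoped NNReal
open Crest.Agent.R013.KAS2_940 (Bd bd_zero)
open Crest.Agent.R013.KAS2_940
open Crest.Agent.R013.KAS3_940 Crest.Agent.R013.Good1_940 Crest.Agent.R013.Gl946
open Crest.Agent.R013.Good3_940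
open Crest.Agent.R013.LemD_323 (shift)

universe uE

variable {k : Type*} {E : Type uE} [NontriviallyNormedField k] [IsUltrametricDist k]
  [CompleteSpace k] [CharZero k] [Algebra ℚ k]

omit [CharZero k] [Algebra ℚ k] [IsUltrametricDist k] [CompleteSpace k] in
theorem tsum_C_mul [NormedField E] [NormedAlgebra k E] (a : k) (f : k⟦X⟧) (x : E) :
    (∑' m, algebraMap k E (coeff m (C a * f)) * x ^ m) =
      algebraMap k E a * ∑' m, algebraMap k E (coeff m f) * x ^ m := by
  rw [← tsum_mul_left]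
  refine tsum_congr fun m => ?_
  rw [coeff_C_mul, map_mul, mul_assoc]

/-- **(GOOD) at the level of the disc field.** -/
theorem good {p : ℕ} (hp : p.Prime) {lam : k} (hlam : lam ^ (p - 1) = -(p : k))
    (hlam1 : ‖lam‖ < 1) {R CH D : ℝ} (hR : 0 < R) {H om : k⟦X⟧} (hH : Bd R CH H)
    (hom : Bd R D om) (hH0 : constantCoeff H ≠ 0) (hHom : d⁄dX k H = om * H) {q : k}
    (hq : ‖q‖ < R) {i : ℕ} (h0 : ∀ m < i, coeff m (shift q om) = 0)
    (hi : coeff i (shift q om) ≠ 0) {j m : ℕ} (hjm : i + 1 = p ^ j * m) :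
    ∃ rs : ℝ, 0 < rs ∧ ∀ (n : ℕ) (c : k) (hc0 : c ≠ 0), ‖c‖ < rs → ∀ (hcR : ‖c‖ < R),
      coeff i (shift q om) / ((i + 1 : ℕ) : k) * c ^ (i + 1) = (p : k) ^ n * lam ^ p →
      (∃ zeta : k, IsPrimitiveRoot zeta (p ^ (n + 1))) →
      (∃ e : k, e ^ p ^ (n + 1) = constantCoeff (shift q H)) →
      ∀ (E : Type uE) [NormedField E] [IsUltrametricDist E] [NormedAlgebra k E] [CompleteSpace E]
        (y : E) (hy : IsGauss k y) (K K1 : Type*) [Field K] [Field K1] [Algebra K K1]
        [Algebra.IsAlgebraic K K1] (iota : K →+* FDisc k R hR)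
        (_ : DenseRange ((frq hR hy hq hcR hc0).comp iota)) (h : K) (g : FDisc k R hR) (_ : g ≠ 0)
        (_ : iota h = algebraMap _ _ (⟨H, mem_bsub hH⟩ : bsub (K := k) R hR) * g ^ p ^ (n + 1))
        (y1 : K1) (_ : y1 ^ p ^ (n + 1) = algebraMap K K1 h),
        ∃ v : Valuation K1 ℝ≥0,
          (∀ a : K, v (algebraMap K K1 a) = ‖frq hR hy hq hcR hc0 (iota a)‖₊) ∧
          ∃ z : K1, v z ≤ 1 ∧ ∀ t : K, ‖frq hR hy hq hcR hc0 (iota t) - y‖ < 1 →
            v (z ^ p - z - (algebraMap K K1 t) ^ m) < 1 := by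
  have homq : Bd R D (shift q om) := bd_shift' hom hq
  have hHq : Bd R CH (shift q H) := bd_shift' hH hq
  obtain ⟨rs, hrs, Hk⟩ := kas hp hlam hlam1 hR homq h0 hi hjm
  refine ⟨rs, hrs, fun n c hc0 hcrs hcR hcn hzeta he => ?_⟩
  obtain ⟨r1, hr1, hcr1, hr1s, Hk⟩ := Hk n c hc0 hcrs hcn hzeta
  -- the normalised series
  set a0 : k := constantCoeff (shift q H) with ha0
  have hderq : d⁄dX k (shift q H) = shift q om * shift q H := by
    rw [← shift_derivative, hHom, shift_mul hR hom hH hq]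
  have hH0' : H ≠ 0 := by
    rintro rfl
    exact hH0 (map_zero _)
  have ha00 : a0 ≠ 0 := by
    intro h
    have h1 : shift q H = 0 := by
      refine ode_unique (a := shift q om) hderq ?_ ?_
      · rw [map_zero, mul_zero]
      · rw [← ha0, h, map_zero]
    exact shift_ne_zero hR hH hq hH0' h1
  set u : k⟦X⟧ := C (a0⁻¹) * shift q H with hu
  have hu0 : constantCoeff u = 1 := by
    rw [hu, map_mul, constantCoeff_C, ← ha0, inv_mul_cancel₀ ha00]
  have hud : d⁄dX k u = (shift q om + 0) * u := by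
    rw [hu, Derivation.leibniz, derivative_C, smul_zero, add_zero, smul_eq_mul, hderq, add_zero]
    ring
  obtain ⟨hu', Hk⟩ := Hk 0 (bd_zero (by positivity)) u hu0 hud
  intro E _ _ _ _ y hy K K1 _ _ _ _ iota hd h g hg hh y1 hy1
  obtain ⟨e, he⟩ := he
  let nnE : NontriviallyNormedField E :=
    { ‹NormedField E› with
      non_trivial := by
        obtain ⟨a, ha⟩ := NontriviallyNormedField.non_trivial (α := k)
        exact ⟨algebraMap k E a, by rwa [norm_algebraMap']⟩ }
  have hxc : ‖algebraMap k E c * y‖ = ‖c‖ := by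
    rw [norm_mul, norm_algebraMap', hy.norm_eq, mul_one]
  have he0 : e ≠ 0 := by
    rintro rfl
    rw [zero_pow (pow_ne_zero _ hp.ne_zero)] at he
    exact ha00 (he.symm)
  have hcE : algebraMap k E c ≠ 0 := (map_ne_zero _).mpr hc0
  have hgE : algebraMap k E e * frq hR hy hq hcR hc0 g ≠ 0 :=
    mul_ne_zero ((map_ne_zero _).mpr he0) ((map_ne_zero _).mpr hg)
  have hjh : ((frq hR hy hq hcR hc0).comp iota) h =
      ev hr1 (algebraMap k E c * y) (hxc.trans_lt hcr1) ⟨u, hu'⟩ *
        (algebraMap k E e * frq hR hy hq hcR hc0 g) ^ p ^ (n + 1) := by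
    have h2 : algebraMap k E e ^ p ^ (n + 1) = algebraMap k E a0 := by rw [← map_pow, he]
    rw [RingHom.comp_apply, hh, map_mul, map_pow, frq_algebraMap, evq_eq_shift, ev_apply, ev_apply,
      mul_pow, h2]
    have h1 : (shiftB hR hq (⟨H, mem_bsub hH⟩ : bsub (K := k) R hR)).1 = C a0 * u := by
      rw [hu, ← mul_assoc, ← map_mul, mul_inv_cancel₀ ha00, map_one, one_mul]
      rfl
    rw [h1, tsum_C_mul]
    ring
  obtain ⟨v, hv1, z, hz1, hz2⟩ := exists_val_kummer (p := p) (N := p ^ (n + 1)) (m := m) hc0 hcr1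
    ⟨u, hu'⟩ (fun L _ w io hG yy b hb hyy => Hk L w io hG yy b hb hyy) hxc
    ((frq hR hy hq hcR hc0).comp iota) hd hgE hjh hy1
  refine ⟨v, hv1, z, hz1, fun t ht => hz2 t ?_⟩
  rw [mul_div_cancel_left₀ _ hcE]
  exact ht

end Crest.Agent.R013.Good4_940
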