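import Crest.Agent.R013.Good5_940

/-!
# R013 / Good6: `good_last`, the last step of part C (helper940)
-/

set_option autoImplicit false
set_option linter.unusedSectionVars false
set_option maxHeartbeats 1000000

namespace Crest.Agent.R013.Good6_940

open PowerSeries Filter
open scoped NNReal Topology
open Crest.NumberTheoryR.Sect
open Crest.Agent.R013.KAS2_940 (Bd bd_zero)
open Crest.Agent.R013.KAS2_940
open Crest.Agent.R013.KAS3_940 Crest.Agent.R013.Good1_940 Crest.Agent.R013.Gl946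
open Crest.Agent.R013.Good3_940 Crest.Agent.R013.Good4_940
open Crest.Agent.R013.Small2_940 Crest.Agent.R013.Small3_940 Crest.Agent.R013.Small4_940
open Crest.Agent.R013.Small5_940 Crest.Agent.R013.Small6_940 Crest.Agent.R013.Good5_940
open Crest.Agent.R013.LemD_323 (shift)
open Crest.Agent.R013.Puis_702 (mapL coeff_mapL)
open Crest.Agent.R013.SE_669 Crest.Agent.R013.CGood_588
open Crest.Agent.R013.Unr9_957 (exists_extend_alg)

universe uF

variable {p : ℕ} [hpF : Fact p.Prime] {k : Type*} [Field k] [CharZero k] [Algebra ℚ_[p] k]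
  {K : Type*} [Field K] [Algebra k K]
  [Algebra (RatFunc k) K] [IsScalarTower k (RatFunc k) K] [FiniteDimensional (RatFunc k) K]
  {P : Valuation (AlgebraicClosure K) ℝ≥0} {x : K}
  {F : Type uF} [NontriviallyNormedField F] [IsUltrametricDist F] [CompleteSpace F] [CharZero F]
  [Algebra ℚ F]

/-- the data at the circle -/
theorem good_core {jC : Cb k K →+* F}
    (hjn : ∀ a : ℚ_[p], ‖jC (algebraMap k (Cb k K) (algebraMap ℚ_[p] k a))‖ = ‖a‖)
    (hjd : DenseRange jC)
    {J : maxUnramified k K →+* LaurentSeries (Cb k K)}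
    (hJ : IsExp (iM k K) (P.comap (algebraMap (maxUnramified k K) (AlgebraicClosure K)))
        (algebraMap K (maxUnramified k K) x) J)
    (Y : IntermediateField K (AlgebraicClosure K)) (hY : Y ≤ maxUnramified k K)
    (hYC : ∀ c : Cb k K, (c : AlgebraicClosure K) ∈ Y)
    {R0 R : ℝ} (hR : 0 < R) (hRR0 : R ≤ R0)
    (hYR : ∀ z : Y, mapL jC (J ⟨z, hY z.2⟩) ∈ frB (⊤ : Subfield F) hR)
    {ε : ℝ} (hε : 0 < ε)
    {q : Cb k K} {i j m : ℕ} {om H : F⟦X⟧} {D CH : ℝ} (hq : ‖jC q‖ < R) (hijm : i + 1 = p ^ j * m)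
    (hom : Bd R0 D om) (hH : Bd R0 CH H) (hH0 : constantCoeff H ≠ 0) (hHom : d⁄dX F H = om * H)
    (hz : ∀ l < i, coeff l (shift (jC q) om) = 0) (hi : coeff i (shift (jC q) om) ≠ 0)
    {a0 b0 : Cb k K} (ha0 : jC a0 = coeff i (shift (jC q) om))
    (hb0 : jC b0 = constantCoeff (shift (jC q) H))
    (hh : ∀ n : ℕ, ∃ h : maxUnramified k K, h ≠ 0 ∧ (h : AlgebraicClosure K) ∈ Y ∧
      (∀ y : AlgebraicClosure K, y ^ p ^ n = h → y ∈ maxUnramified k K) ∧
      ∃ a b : F⟦X⟧, (∃ B, Bd R0 B a) ∧ (∃ B, Bd R0 B b) ∧ a ≠ 0 ∧ b ≠ 0 ∧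
        mapL jC (J h) * toL F (b ^ p ^ n) = toL F (H * a ^ p ^ n)) :
    ∃ (n : ℕ) (c ζ : Cb k K) (h y1 z : AlgebraicClosure K)
      (v : Valuation (AlgebraicClosure K) ℝ≥0),
      c ≠ 0 ∧ ‖jC c‖ < ε ∧ IsPrimitiveRoot ζ (p ^ (n + 1)) ∧ h ∈ Y ∧ y1 ^ p ^ (n + 1) = h ∧
      y1 ∈ maxUnramified k K ∧ z ∈ (IntermediateField.adjoin Y {y1}) ∧
      (∀ c : Cb k K, v c = ‖jC c‖₊) ∧
      v z ≤ 1 ∧ v (z ^ p - z - ((algebraMap K (AlgebraicClosure K) x - q) / c) ^ m) < 1 ∧
      (∀ (n : ℕ) (a : ℕ → Cb k K), v (∑ l ∈ Finset.range n, (a l : AlgebraicClosure K) *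
        ((algebraMap K (AlgebraicClosure K) x - q) / c) ^ l) = (Finset.range n).sup fun l => v (a l)) ∧
      (∀ (f : AlgebraicClosure K) (hf : f ∈ Y) (G G' : ℕ → Cb k K),
        (∃ B, Bd R B (PowerSeries.mk fun n => jC (G n))) →
        (∃ B, Bd R B (PowerSeries.mk fun n => jC (G' n))) →
        J ⟨f, hY hf⟩ * toL _ (PowerSeries.mk G') = toL _ (PowerSeries.mk G) →
        Tendsto (fun n => v (f * (∑ l ∈ Finset.range n, (G' l : AlgebraicClosure K) *
          algebraMap K (AlgebraicClosure K) x ^ l) -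
          ∑ l ∈ Finset.range n, (G l : AlgebraicClosure K) *
          algebraMap K (AlgebraicClosure K) x ^ l)) atTop (𝓝 0)) := by
  classical
  have hp := hpF.out
  -- lam
  obtain ⟨lam, hlam⟩ := exists_lam (k := k) (K := K) p hp.two_le
  have hp0 : (p : Cb k K) ≠ 0 := Nat.cast_ne_zero.mpr hp.ne_zero
  have hlam0 : lam ≠ 0 := by
    rintro rfl
    rw [zero_pow (by have := hp.two_le; omega)] at hlam
    exact hp0 (neg_eq_zero.mp hlam.symm)
  have hlamF : jC lam ^ (p - 1) = -(p : F) := by rw [← map_pow, hlam, map_neg, map_natCast]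
  have hpn : ‖(p : F)‖ < 1 := norm_p_lt (k := k) (K := K) hjn
  have hlam1 : ‖jC lam‖ < 1 := by
    have h1 : ‖jC lam‖ ^ (p - 1) < 1 := by
      rw [← norm_pow, hlamF, norm_neg]; exact hpn
    by_contra hcon
    push Not at hcon
    exact absurd h1 (not_lt.mpr (one_le_pow₀ hcon))
  have hom' : Bd R D om := hom.mono_left hR.le hRR0
  have hH' : Bd R CH H := hH.mono_left hR.le hRR0
  obtain ⟨rs, hrs, Hg⟩ := good hp hlamF hlam1 hR hH' hom' hH0 hHom hq hz hi hijm
  have ha00 : a0 ≠ 0 := by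
    rintro rfl
    rw [map_zero] at ha0
    exact hi ha0.symm
  obtain ⟨n, c, hc0, hc, hcn⟩ := exists_c (jC := jC) hpn ha00 hlam0 i
    (ε := min ε (min rs R)) (by positivity)
  have hcε : ‖jC c‖ < ε := hc.trans_le (min_le_left _ _)
  have hcrs : ‖jC c‖ < rs := hc.trans_le ((min_le_right _ _).trans (min_le_left _ _))
  have hcR : ‖jC c‖ < R := hc.trans_le ((min_le_right _ _).trans (min_le_right _ _))
  have hc0' : jC c ≠ 0 := (_root_.map_ne_zero _).mpr hc0
  have hcnF : coeff i (shift (jC q) om) / ((i + 1 : ℕ) : F) * jC c ^ (i + 1) =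
      (p : F) ^ n * jC lam ^ p := by
    have h1 := congrArg jC hcn
    rw [map_mul, map_div₀, map_pow, map_mul, map_pow, map_pow, map_natCast, map_natCast, ha0] at h1
    exact h1
  obtain ⟨ζ, hζ⟩ : ∃ ζ : Cb k K, IsPrimitiveRoot ζ (p ^ (n + 1)) := by
    have : NeZero ((p ^ (n + 1) : ℕ) : Cb k K) :=
      ⟨by exact_mod_cast pow_ne_zero _ hp0⟩
    exact HasEnoughRootsOfUnity.exists_primitiveRoot (Cb k K) (p ^ (n + 1))
  have hζF : ∃ zeta : F, IsPrimitiveRoot zeta (p ^ (n + 1)) :=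
    ⟨jC ζ, hζ.map_of_injective jC.injective⟩
  obtain ⟨e, he⟩ := IsAlgClosed.exists_pow_nat_eq b0 (pow_pos hp.pos (n + 1))
  have heF : ∃ e : F, e ^ p ^ (n + 1) = constantCoeff (shift (jC q) H) :=
    ⟨jC e, by rw [← map_pow, he, hb0]⟩
  obtain ⟨h, hh0, hhY, hhu, a, b, ⟨Ba, ha⟩, ⟨Bb, hb⟩, ha', hb', hab⟩ := hh (n + 1)
  obtain ⟨y1, hy1⟩ := IsAlgClosed.exists_pow_nat_eq (h : AlgebraicClosure K) (pow_pos hp.pos (n + 1))
  -- the field `Y`
  let inc : Y →+* maxUnramified k K := (IntermediateField.inclusion hY).toRingHom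
  have hinc : ∀ z : Y, inc z = ⟨z, hY z.2⟩ := fun z => rfl
  let jY : Y →+* LaurentSeries F := ((mapL jC).comp J).comp inc
  have hjY : ∀ z : Y, jY z = mapL jC (J ⟨z, hY z.2⟩) := fun z => rfl
  let iota : Y →+* FDisc F R hR := liftD hR jY fun z => by rw [hjY]; exact hYR z
  have hiota : ∀ z : Y, frL hR (iota z) = mapL jC (J ⟨z, hY z.2⟩) := fun z => frL_liftD z
  have hiC : ∀ c : Cb k K, iota ⟨c, hYC c⟩ =
      algebraMap _ _ (⟨C (jC c), C_mem (jC c)⟩ : bsub (K := F) R hR) := by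
    intro c
    apply (frL (F := F) hR).injective
    rw [hiota, frL_algebraMap]
    have h1 : (⟨((⟨(c : AlgebraicClosure K), hYC c⟩ : Y) : AlgebraicClosure K), hY (hYC c)⟩ :
      maxUnramified k K) = iM k K c := rfl
    rw [h1, hJ.con, mapL_C, toL, HahnSeries.ofPowerSeries_C]
  have hxY : algebraMap K (AlgebraicClosure K) x ∈ Y := Y.algebraMap_mem x
  have hiX : iota ⟨algebraMap K (AlgebraicClosure K) x, hxY⟩ =
      algebraMap _ _ (⟨X, X_mem⟩ : bsub (K := F) R hR) := by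
    apply (frL (F := F) hR).injective
    rw [hiota, frL_algebraMap]
    have h1 : (⟨((⟨algebraMap K (AlgebraicClosure K) x, hxY⟩ : Y) : AlgebraicClosure K), hY hxY⟩ :
      maxUnramified k K) = algebraMap K (maxUnramified k K) x := rfl
    rw [h1, hJ.par, mapL_single, toL, HahnSeries.ofPowerSeries_X]
  -- the circle field
  obtain ⟨E, iE1, iE2, iE3, iE4, y, hy, hyd⟩ := Good2_940.exists_circle F
  have hdense : DenseRange ((frq hR hy hq hcR hc0').comp iota) := by
    refine dense_of_const hyd iota hiX fun a ε hε => ?_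
    obtain ⟨c, hc⟩ := hjd.exists_dist_lt a hε
    exact ⟨⟨c, hYC c⟩, jC c, by rw [← dist_eq_norm]; exact hc, hiC c⟩
  -- the class
  have ha2 : a ∈ bsub (K := F) R hR := ⟨Ba, ha.mono_left hR.le hRR0⟩
  have hb2 : b ∈ bsub (K := F) R hR := ⟨Bb, hb.mono_left hR.le hRR0⟩
  let aF : FDisc F R hR := algebraMap _ _ (⟨a, ha2⟩ : bsub (K := F) R hR)
  let bF : FDisc F R hR := algebraMap _ _ (⟨b, hb2⟩ : bsub (K := F) R hR)
  have haF : aF ≠ 0 := by
    intro h0
    have h1 := congrArg (frL hR) h0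
    rw [frL_algebraMap, map_zero, map_eq_zero_iff _ HahnSeries.ofPowerSeries_injective] at h1
    exact ha' h1
  have hbF : bF ≠ 0 := by
    intro h0
    have h1 := congrArg (frL hR) h0
    rw [frL_algebraMap, map_zero, map_eq_zero_iff _ HahnSeries.ofPowerSeries_injective] at h1
    exact hb' h1
  have hgh : iota ⟨h, hhY⟩ = algebraMap _ _ (⟨H, mem_bsub hH'⟩ : bsub (K := F) R hR) *
      (aF / bF) ^ p ^ (n + 1) := by
    rw [div_pow, ← mul_div_assoc, eq_div_iff (pow_ne_zero _ hbF)]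
    apply (frL (F := F) hR).injective
    rw [map_mul, map_mul, map_pow, map_pow, hiota, frL_algebraMap, frL_algebraMap, frL_algebraMap,
      ← map_pow, ← map_pow, ← map_mul]
    exact hab
  let K1 : IntermediateField Y (AlgebraicClosure K) := IntermediateField.adjoin Y {y1}
  have hy1K : y1 ∈ K1 := IntermediateField.mem_adjoin_simple_self Y y1
  have : Algebra.IsAlgebraic Y (AlgebraicClosure K) :=
    Algebra.IsAlgebraic.tower_top (K := K) Y
  obtain ⟨v1, hv1, z, hz1, hz2⟩ := Hg n (jC c) hc0' hcrs hcR hcnF hζF heF E y hy Y K1 iota hdense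
    ⟨h, hhY⟩ (aF / bF) (div_ne_zero haF hbF) hgh ⟨y1, hy1K⟩ (Subtype.ext hy1)
  obtain ⟨v, hv⟩ := exists_extend_alg (E := AlgebraicClosure K) v1
  have hvY : ∀ a : Y, v (a : AlgebraicClosure K) = ‖frq hR hy hq hcR hc0' (iota a)‖₊ := by
    intro a
    rw [← hv1 a, ← hv]
    rfl
  have hvC : ∀ c : Cb k K, v c = ‖jC c‖₊ := by
    intro c
    have h1 := hvY ⟨c, hYC c⟩
    rw [hiC, frq_algebraMap, evq_C, nnnorm_algebraMap'] at h1
    exact h1
  have hfX : frq hR hy hq hcR hc0' (iota ⟨algebraMap K (AlgebraicClosure K) x, hxY⟩) =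
      pt (jC q) (jC c) y := by
    rw [hiX, frq_algebraMap, evq_X]
  let t : Y := (⟨algebraMap K (AlgebraicClosure K) x, hxY⟩ - ⟨q, hYC q⟩) / ⟨c, hYC c⟩
  have ht : (t : AlgebraicClosure K) = (algebraMap K (AlgebraicClosure K) x - q) / c := rfl
  have hfC : ∀ c : Cb k K, frq hR hy hq hcR hc0' (iota ⟨c, hYC c⟩) = algebraMap F E (jC c) := by
    intro c
    rw [hiC, frq_algebraMap, evq_C]
  have hft : frq hR hy hq hcR hc0' (iota t) = y := by
    have hcE : algebraMap F E (jC c) ≠ 0 := (_root_.map_ne_zero _).mpr hc0'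
    show frq hR hy hq hcR hc0' (iota ((⟨algebraMap K (AlgebraicClosure K) x, hxY⟩ - ⟨q, hYC q⟩) /
      ⟨c, hYC c⟩)) = y
    rw [map_div₀, map_div₀, map_sub, map_sub, hfX, hfC, hfC, pt, add_sub_cancel_left,
      mul_div_cancel_left₀ _ hcE]
  refine ⟨n, c, ζ, h, y1, z, v, hc0, hcε, hζ, hhY, hy1, hhu y1 hy1, z.2, hvC, ?_, ?_, ?_, ?_⟩
  · have h1 : v (z : AlgebraicClosure K) = v1 z := by rw [← hv]; rfl
    rw [h1]; exact hz1
  · have h1 := hz2 t (by rw [hft, sub_self, norm_zero]; exact one_pos)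
    rw [← ht]
    rw [← hv] at h1
    exact h1
  · intro N a
    have h1 : (∑ l ∈ Finset.range N, (a l : AlgebraicClosure K) *
        ((algebraMap K (AlgebraicClosure K) x - q) / c) ^ l) =
        ((∑ l ∈ Finset.range N, (⟨a l, hYC (a l)⟩ : Y) * t ^ l : Y) : AlgebraicClosure K) := by
      rw [← ht]
      push_cast
      rfl
    rw [h1, hvY, map_sum, map_sum]
    have h2 : ∀ l, frq hR hy hq hcR hc0' (iota ((⟨a l, hYC (a l)⟩ : Y) * t ^ l)) =
        algebraMap F E (jC (a l)) * y ^ l := by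
      intro l
      rw [map_mul, map_mul, map_pow, map_pow, hft, hfC]
    rw [Finset.sum_congr rfl fun l _ => h2 l, gauss_sum hy]
    exact Finset.sup_congr rfl fun l _ => (hvC (a l)).symm
  · rintro f hf G G' ⟨B, hB⟩ ⟨B', hB'⟩ hfG
    let gA : bsub (K := F) R hR := ⟨_, mem_bsub hB⟩
    let gB : bsub (K := F) R hR := ⟨_, mem_bsub hB'⟩
    have h1 : iota ⟨f, hf⟩ * algebraMap _ _ gB = algebraMap _ _ gA := by
      apply (frL (F := F) hR).injective
      rw [map_mul, hiota, frL_algebraMap, frL_algebraMap]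
      have h2 := congrArg (mapL jC) hfG
      rw [map_mul] at h2
      have h3 : ∀ G : ℕ → Cb k K, mapL jC (toL _ (PowerSeries.mk G)) =
          toL F (PowerSeries.mk fun n => jC (G n)) := by
        intro G
        refine HahnSeries.ext (funext fun i => ?_)
        rw [coeff_mapL, toL, toL, PowerSeries.coeff_coe, PowerSeries.coeff_coe]
        split_ifs
        · rw [map_zero]
        · rw [coeff_mk, coeff_mk]
      rw [h3, h3] at h2
      exact h2
    have h2 := tendsto_circle (hy := hy) (hq := hq) (hc := hcR) (hc0 := hc0') h1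
    refine h2.congr fun N => ?_
    have h3 : (f * (∑ l ∈ Finset.range N, (G' l : AlgebraicClosure K) *
          algebraMap K (AlgebraicClosure K) x ^ l) -
          ∑ l ∈ Finset.range N, (G l : AlgebraicClosure K) *
          algebraMap K (AlgebraicClosure K) x ^ l) =
        (((⟨f, hf⟩ : Y) * (∑ l ∈ Finset.range N, (⟨G' l, hYC (G' l)⟩ : Y) *
          (⟨algebraMap K (AlgebraicClosure K) x, hxY⟩ : Y) ^ l) -
          ∑ l ∈ Finset.range N, (⟨G l, hYC (G l)⟩ : Y) *
          (⟨algebraMap K (AlgebraicClosure K) x, hxY⟩ : Y) ^ l : Y) : AlgebraicClosure K) := by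
      push_cast
      rfl
    rw [h3, hvY, map_sub, map_sub, map_mul, map_mul, map_sum, map_sum, map_sum, map_sum]
    simp only [map_mul, map_pow, hfX, hfC]
    simp only [gA, gB, coeff_mk]

end Crest.Agent.R013.Good6_940
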