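import Crest.Agent.R013.Good6_940

/-!
# R013 / Good7: `good_last` (helper940)

`good_last` : `(∀ ε > 0, Inp p jC J E0 R0 ε) → Concl p k K P x δ η`.
-/

set_option autoImplicit false
set_option linter.unusedSectionVars false
set_option maxHeartbeats 1000000

namespace Crest.Agent.R013.Good7_940

open PowerSeries Filter
open scoped NNReal Topology
open Crest.NumberTheoryR.Sect
open Crest.Agent.R013.KAS2_940 (Bd bd_zero)
open Crest.Agent.R013.KAS2_940
open Crest.Agent.R013.KAS3_940 Crest.Agent.R013.Good1_940 Crest.Agent.R013.Gl946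
open Crest.Agent.R013.Good3_940 Crest.Agent.R013.Good4_940
open Crest.Agent.R013.Small2_940 Crest.Agent.R013.Small3_940 Crest.Agent.R013.Small4_940
open Crest.Agent.R013.Small5_940 Crest.Agent.R013.Small6_940 Crest.Agent.R013.Good5_940
open Crest.Agent.R013.Good6_940
open Crest.Agent.R013.LemD_323 (shift)
open Crest.Agent.R013.Puis_702 (mapL coeff_mapL)
open Crest.Agent.R013.SE_669 Crest.Agent.R013.CGood_588

universe uF

variable {p : ℕ} [hpF : Fact p.Prime] {k : Type*} [Field k] [CharZero k] [Algebra ℚ_[p] k]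
  {K : Type*} [Field K] [Algebra k K]
  [Algebra (RatFunc k) K] [IsScalarTower k (RatFunc k) K] [FiniteDimensional (RatFunc k) K]
  {P : Valuation (AlgebraicClosure K) ℝ≥0} {x : K}
  {F : Type uF} [NontriviallyNormedField F] [IsUltrametricDist F] [CompleteSpace F] [CharZero F]
  [Algebra ℚ F]

theorem mem_CbS {c : AlgebraicClosure K} : c ∈ CbS k K ↔ IsIntegral k c := by
  rw [← isAlgebraic_iff_isIntegral]
  exact mem_algebraicClosure_iff

/-- **(GOOD), the last step of part C** -/
theorem good_last (hP : IsRationalPlace k K (P.comap (algebraMap K (AlgebraicClosure K))))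
    (hx : IsUniformizerAt (P.comap (algebraMap K (AlgebraicClosure K))) x)
    {jC : Cb k K →+* F}
    (hjn : ∀ a : ℚ_[p], ‖jC (algebraMap k (Cb k K) (algebraMap ℚ_[p] k a))‖ = ‖a‖)
    (hjd : DenseRange jC)
    {J : maxUnramified k K →+* LaurentSeries (Cb k K)}
    (hJ : IsExp (iM k K) (P.comap (algebraMap (maxUnramified k K) (AlgebraicClosure K)))
        (algebraMap K (maxUnramified k K) x) J)
    (E0 : IntermediateField K (AlgebraicClosure K)) [FiniteDimensional K E0]
    (hE0 : E0 ≤ maxUnramified k K) {R0 : ℝ} (hR0 : 0 < R0)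
    (hin : ∀ ε : ℝ, 0 < ε → Inp p jC J E0 R0 ε) {δ η : ℝ≥0} (hδ : 0 < δ) (hη : 0 < η) :
    Concl p k K P x δ η := by
  classical
  have hp := hpF.out
  have hpn : ‖(p : F)‖ < 1 := norm_p_lt (k := k) (K := K) hjn
  have hpn0 : 0 < ‖(p : F)‖ := norm_p_pos
  -- the normal closure
  obtain ⟨E1, hE01, hE1u, hE1n⟩ : ∃ E1 : IntermediateField K (AlgebraicClosure K), E0 ≤ E1 ∧
      IsUnramifiedEverywhere k K E1 ∧ Normal K E1 :=
    ⟨IntermediateField.normalClosure K E0 (AlgebraicClosure K), E0.le_normalClosure,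
      Unr5_957.unr_normalClosure (Unr5_957.le_maxUnramified_iff.mp hE0), inferInstance⟩
  have hE1fd : FiniteDimensional K E1 := hE1u.1
  have hE1 : E1 ≤ maxUnramified k K := le_sSup (a := E1) hE1u
  obtain ⟨T0, ρ, hρ, hrad⟩ := exists_radius hP hx hJ jC E1 hE1
  set R : ℝ := min ρ R0 with hRdef
  have hR : 0 < R := lt_min hρ hR0
  have hRρ : R ≤ ρ := min_le_left _ _
  have hRR0 : R ≤ R0 := min_le_right _ _
  -- `π`
  obtain ⟨N1, hN1⟩ := exists_pow_lt_of_lt_one
    (show (0 : ℝ) < min (δ : ℝ) (η * R) from lt_min hδ (mul_pos hη hR)) hpn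
  have hπ : 0 < ‖(p : F)‖ ^ N1 := by positivity
  set ε : ℝ := min (η * ‖(p : F)‖ ^ N1) R with hεdef
  have hε : 0 < ε := lt_min (mul_pos hη hπ) hR
  obtain ⟨q, i, j, m, om, H, D, CH, hq, hijm, hm2, hpm, hom, hH, hH0, hHom, hz, hi, ⟨a0, ha0⟩,
    ⟨b0, hb0⟩, hh⟩ := hin ε hε
  -- `Y`
  let Y : IntermediateField K (AlgebraicClosure K) := E1 ⊔ IntermediateField.adjoin K (CbS k K)
  have hCM : IntermediateField.adjoin K (CbS k K) ≤ maxUnramified k K := by
    rw [IntermediateField.adjoin_le_iff]
    intro c hc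
    exact MaxUnr_97.mem_maxUnramified_of_isIntegral c (mem_CbS.mp hc)
  have hY : Y ≤ maxUnramified k K := sup_le hE1 hCM
  have hYC : ∀ c : Cb k K, (c : AlgebraicClosure K) ∈ Y := fun c =>
    (le_sup_right : IntermediateField.adjoin K (CbS k K) ≤ Y)
      (IntermediateField.subset_adjoin K _ c.2)
  have hYR : ∀ z : Y, mapL jC (J ⟨z, hY z.2⟩) ∈ frB (⊤ : Subfield F) hR := by
    intro z
    refine frB_mono le_top (hrad R hR hRρ (algebraicClosure k (AlgebraicClosure K))
      (fun t _ => t.2) (fun c hc => mem_CbS.mp hc) _ ?_)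
    exact closure_of_mem_sup E1 (CbS k K) z.2
  obtain ⟨n, c, ζ, h, y1, z, v, hc0, hcε, hζ, hhY, hy1, hy1M, hzK, hvC, hz1, hz2, hgauss, hdisc⟩ :=
    good_core hjn hjd hJ Y hY hYC hR hRR0 hYR hε (hq.trans_le (min_le_right _ _)) hijm hom hH hH0
      hHom hz hi ha0 hb0 (fun n => by
        obtain ⟨h, h1, h2, h3, h4⟩ := hh n
        exact ⟨h, h1, (sup_le_sup hE01 le_rfl : E0 ⊔ IntermediateField.adjoin K (CbS k K) ≤ Y) h2,
          h3, h4⟩)
  -- finite level
  obtain ⟨Th, hTh, hTh2⟩ := exists_level E1 (CbS k K) ∅ (z := h) (by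
    rw [IntermediateField.adjoin_empty, sup_bot_eq]; exact hhY)
  rw [IntermediateField.adjoin_empty, sup_bot_eq] at hTh2
  obtain ⟨Tz, hTz, hTz2⟩ := exists_level E1 (CbS k K) {y1} (z := z) (by
    have h1 : (IntermediateField.adjoin Y {y1}).restrictScalars K =
        IntermediateField.adjoin K ((Y : Set (AlgebraicClosure K)) ∪ {y1}) :=
      IntermediateField.restrictScalars_adjoin K Y {y1}
    have h2 : z ∈ (IntermediateField.adjoin Y {y1}).restrictScalars K := hzK
    rw [h1, IntermediateField.adjoin_union, IntermediateField.adjoin_self] at h2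
    exact h2)
  let T : Finset (AlgebraicClosure K) := Th ∪ Tz ∪ (Finset.image (fun t : Cb k K => (t : AlgebraicClosure K)) T0) ∪
    {(q : AlgebraicClosure K), (c : AlgebraicClosure K), (ζ : AlgebraicClosure K)}
  have hT : ∀ t ∈ T, IsAlgebraic k t := by
    intro t ht
    rw [isAlgebraic_iff_isIntegral, ← mem_CbS]
    simp only [T, Finset.mem_union, Finset.mem_image, Finset.mem_insert, Finset.mem_singleton] at ht
    rcases ht with ((h1 | h1) | h1) | h1 | h1 | h1
    · exact hTh h1
    · exact hTz h1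
    · obtain ⟨s, _, rfl⟩ := h1
      exact s.2
    · rw [h1]; exact q.2
    · rw [h1]; exact c.2
    · rw [h1]; exact ζ.2
  obtain ⟨f, hf0, hfT⟩ := exists_poly T hT
  let C : IntermediateField k (AlgebraicClosure K) :=
    IntermediateField.adjoin k (f.rootSet (AlgebraicClosure K))
  have hCfd : FiniteDimensional k C := finite_root f
  have hTC : ∀ t ∈ T, t ∈ C := fun t ht => IntermediateField.subset_adjoin k _ (hfT t ht)
  have hCint : ∀ c ∈ C, IsIntegral k c := fun c hc => by
    have h1 : IsIntegral k (⟨c, hc⟩ : C) := Algebra.IsIntegral.isIntegral _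
    exact h1.map (IsScalarTower.toAlgHom k C (AlgebraicClosure K))
  have hqC : (q : AlgebraicClosure K) ∈ C := hTC _ (by simp [T])
  have hcC : (c : AlgebraicClosure K) ∈ C := hTC _ (by simp [T])
  have hζC : (ζ : AlgebraicClosure K) ∈ C := hTC _ (by simp [T])
  let A : IntermediateField K (AlgebraicClosure K) :=
    IntermediateField.adjoin K (f.rootSet (AlgebraicClosure K))
  have hCA : ∀ c ∈ C, c ∈ A := adjoin_root_le f
  let L : IntermediateField K (AlgebraicClosure K) := E1 ⊔ A
  let M : IntermediateField K (AlgebraicClosure K) := L ⊔ IntermediateField.adjoin K {y1}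
  have hAM : A ≤ maxUnramified k K := by
    rw [IntermediateField.adjoin_le_iff]
    intro t ht
    refine MaxUnr_97.mem_maxUnramified_of_isIntegral t (hCint t ?_)
    exact IntermediateField.subset_adjoin k _ ht
  have hAfd : FiniteDimensional K A := finite_rootK f
  have hLM : L ≤ maxUnramified k K := sup_le hE1 hAM
  have hLY : L ≤ Y := by
    refine sup_le_sup le_rfl ?_
    rw [IntermediateField.adjoin_le_iff]
    intro t ht
    refine IntermediateField.subset_adjoin K _ (mem_CbS.mpr (hCint t ?_))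
    exact IntermediateField.subset_adjoin k _ ht
  have hy1int : IsIntegral K y1 := Algebra.IsIntegral.isIntegral y1
  have hy1fd : FiniteDimensional K (IntermediateField.adjoin K {y1}) :=
    IntermediateField.adjoin.finiteDimensional hy1int
  have hTA : ∀ T' : Finset (AlgebraicClosure K), T' ⊆ T →
      IntermediateField.adjoin K (T' : Set (AlgebraicClosure K)) ≤ A := by
    intro T' hT'
    rw [IntermediateField.adjoin_le_iff]
    intro t ht
    exact hCA _ (hTC t (hT' ht))
  have hThT : Th ⊆ T := by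
    intro t ht
    simp only [T, Finset.mem_union]
    exact Or.inl (Or.inl (Or.inl ht))
  have hTzT : Tz ⊆ T := by
    intro t ht
    simp only [T, Finset.mem_union]
    exact Or.inl (Or.inl (Or.inr ht))
  have hvπ : v ((p : AlgebraicClosure K) ^ N1) = ‖(p : F)‖₊ ^ N1 := by
    have h1 := hvC (p : Cb k K)
    have h2 : (((p : Cb k K) : AlgebraicClosure K)) = (p : AlgebraicClosure K) := by push_cast; rfl
    rw [h2, map_natCast jC] at h1
    rw [map_pow, h1]
  have hCcl : ∀ z : maxUnramified k K, (z : AlgebraicClosure K) ∈ L →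
      mapL jC (J z) ∈ frB (DC jC C) hR := by
    intro z hz
    refine hrad R hR hRρ C (fun t ht => hTC _ ?_) hCint z ?_
    · simp only [T, Finset.mem_union, Finset.mem_image]
      exact Or.inl (Or.inr ⟨t, ht, rfl⟩)
    · have h1 : Subfield.closure ((E1 : Set (AlgebraicClosure K)) ∪ f.rootSet (AlgebraicClosure K)) ≤
          Subfield.closure ((E1 : Set (AlgebraicClosure K)) ∪ C) := by
        refine Subfield.closure_mono (Set.union_subset_union_right _ ?_)
        exact IntermediateField.subset_adjoin k _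
      exact h1 (closure_of_mem_sup E1 _ hz)
  have hru := ru_M hP hx
  refine ⟨C, (p : AlgebraicClosure K) ^ N1, q, c, v, L, M, n + 1, m, ζ, y1, z, hCfd,
    pow_mem (natCast_mem C p) N1, hqC, hcC, pow_ne_zero _ ?_, ?_, ?_, ?_, ?_, ?_, ?_, le_sup_left, ?_,
    ?_, ?_, ?_, ?_, hζC, ?_, ?_, rfl, ?_, hz1, hm2, hpm, hz2⟩
  · -- p ≠ 0
    have : CharZero K := charZero_of_injective_algebraMap (algebraMap k K).injective
    exact Nat.cast_ne_zero.mpr hp.ne_zero
  · exact fun h0 => hc0 (Subtype.ext h0)
  · rw [hvπ, ← NNReal.coe_lt_coe]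
    push_cast
    exact hN1.trans_le (min_le_left _ _)
  · rw [hvπ, hvC, ← NNReal.coe_lt_coe]
    push_cast
    exact hq.trans_le (min_le_left _ _)
  · rw [hvπ, hvC, ← NNReal.coe_lt_coe]
    push_cast
    exact hcε.trans_le (min_le_left _ _)
  · intro a
    have h1 := hvC (algebraMap k (Cb k K) (algebraMap ℚ_[p] k a))
    have h2 : ((algebraMap k (Cb k K) (algebraMap ℚ_[p] k a) : Cb k K) : AlgebraicClosure K) =
        algebraMap k (AlgebraicClosure K) (algebraMap ℚ_[p] k a) := rfl
    rw [h2] at h1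
    rw [h1]
    exact NNReal.eq (hjn a)
  · intro a ha
    exact (le_sup_right : A ≤ L) (hCA a ha)
  · refine sup_le hLM ?_
    rw [IntermediateField.adjoin_le_iff]
    rintro _ rfl
    exact hy1M
  · infer_instance
  · exact normal_sup E1 f
  · refine ⟨⟨R, hR.le⟩, ?_, ?_⟩
    · rw [hvπ, ← NNReal.coe_lt_coe]
      push_cast
      exact hN1.trans_le (min_le_right _ _)
    · intro g
      obtain ⟨a, ha, b, hb, hb0', hab⟩ := hCcl ⟨g, hLM g.2⟩ g.2
      choose G hGC hGa using fun n => mem_DC.mp (ha.1 n)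
      choose G' hGC' hGb using fun n => mem_DC.mp (hb.1 n)
      have eA : (PowerSeries.mk fun n => jC (G n)) = a := by
        ext n; rw [coeff_mk, hGa]
      have eB : (PowerSeries.mk fun n => jC (G' n)) = b := by
        ext n; rw [coeff_mk, hGb]
      have hmk : ∀ G : ℕ → Cb k K, mapL jC (toL _ (PowerSeries.mk G)) =
          toL F (PowerSeries.mk fun n => jC (G n)) := by
        intro G
        refine HahnSeries.ext (funext fun i => ?_)
        rw [coeff_mapL, toL, toL, PowerSeries.coeff_coe, PowerSeries.coeff_coe]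
        split_ifs
        · rw [map_zero]
        · rw [coeff_mk, coeff_mk]
      have hJg : J ⟨g, hLM g.2⟩ * toL _ (PowerSeries.mk G') = toL _ (PowerSeries.mk G) := by
        apply Puis_702.mapL_injective jC.injective
        rw [map_mul, hmk, hmk, eA, eB]
        exact hab
      obtain ⟨Ba, hBa⟩ := ha.2
      obtain ⟨Bb, hBb⟩ := hb.2
      refine ⟨fun n => G n, fun n => G' n, hGC, hGC', ?_, ?_, ?_, ?_⟩
      · by_contra hcon
        push Not at hcon
        apply hb0'
        rw [← eB]
        ext n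
        rw [coeff_mk, map_zero, _root_.map_eq_zero]
        exact Subtype.ext (hcon n)
      · refine ⟨(max Ba Bb).toNNReal, fun n => ⟨?_, ?_⟩⟩
        · rw [hvC, ← NNReal.coe_le_coe]
          push_cast
          rw [hGa]
          exact (hBa n).trans ((le_max_left _ _).trans (Real.le_coe_toNNReal _))
        · rw [hvC, ← NNReal.coe_le_coe]
          push_cast
          rw [hGb]
          exact (hBb n).trans ((le_max_right _ _).trans (Real.le_coe_toNNReal _))
      · exact hdisc g (hLY g.2) G G' ⟨Ba, by rw [eA]; exact hBa⟩ ⟨Bb, by rw [eB]; exact hBb⟩ hJg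
      · have h1 := tendsto_place hJ hru hJg
        refine h1.congr fun N => ?_
        simp only [coeff_mk]
        show P (((⟨g, hLM g.2⟩ : maxUnramified k K) * (∑ l ∈ Finset.range N, iM k K (G' l) *
          (algebraMap K (maxUnramified k K) x) ^ l) - ∑ l ∈ Finset.range N, iM k K (G l) *
          (algebraMap K (maxUnramified k K) x) ^ l : maxUnramified k K) : AlgebraicClosure K) = _
        push_cast
        rfl
  · intro N a ha
    have h1 := hgauss N fun l => (⟨a l, mem_CbS.mpr (hCint _ (ha l))⟩ : Cb k K)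
    exact h1
  · exact hζ.map_of_injective (f := algebraMap (Cb k K) (AlgebraicClosure K))
      (algebraMap (Cb k K) (AlgebraicClosure K)).injective
  · rw [hy1]
    exact (sup_le_sup le_rfl (hTA Th hThT) :
      E1 ⊔ IntermediateField.adjoin K (Th : Set (AlgebraicClosure K)) ≤ L) hTh2
  · exact (sup_le_sup (sup_le_sup le_rfl (hTA Tz hTzT)) le_rfl :
      E1 ⊔ IntermediateField.adjoin K (Tz : Set (AlgebraicClosure K)) ⊔
        IntermediateField.adjoin K {y1} ≤ M) hTz2

end Crest.Agent.R013.Good7_940
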