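import Crest.Agent.R013.AN1_243
import Crest.Agent.R013.CAn2_243
import Crest.Agent.R013.AnW3_201
import Crest.Agent.R013.Pts2_315

/-!
# Row 13, SS-CELL, annulus half (helper109): `AN k c` is the ring of functions of the open
annulus `|c| < |T| < 1` in the sense of `Pts2_315`
-/

set_option autoImplicit false
set_option linter.unusedSectionVars false

open Filter Topology
open Crest.Agent.R013.Cell_408 (FinDef DiscNorm exists_max BD)
open Crest.Agent.R013.EE809 Crest.Agent.R013.CAn_243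
open Crest.Agent.R013.Pts2_315

namespace Crest.Agent.R013.GoodA_109

variable {k : Type*} [NontriviallyNormedField k] [CompleteSpace k] [IsUltrametricDist k]
variable {C : Type*} [NormedField C] [IsUltrametricDist C] [NormedAlgebra k C]
variable [Algebra.IsAlgebraic k C] [IsAlgClosed C]

variable (k) in
/-- the coordinate in `AN k c` -/
noncomputable def TN (c : C) : AN k c := ⟨T 1, T_mem_AN c 1⟩

theorem coe_TN (c : C) : ((TN k c : AN k c) : EE k C) = T 1 := rfl

/-- the rings of helper243 and helper201 are the same -/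
theorem AN_le (c : C) : AN k c ≤ AnW_201.AN k C c := fun _ h => h

/-- evaluation at a point of the annulus -/
noncomputable def evN {c : C} (hc0 : c ≠ 0) (t : C) (hct : ‖c‖ < ‖t‖) (ht : ‖t‖ < 1) :
    AN k c →ₐ[C] C :=
  (AnW_201.evA hc0 t hct ht).comp (Subalgebra.inclusion (AN_le c))

theorem evN_apply {c : C} (hc0 : c ≠ 0) (t : C) (hct : ‖c‖ < ‖t‖) (ht : ‖t‖ < 1) (a : AN k c) :
    evN hc0 t hct ht a = AnW_201.evE t (a : EE k C) := rfl

theorem evN_TN {c : C} (hc0 : c ≠ 0) (t : C) (hct : ‖c‖ < ‖t‖) (ht : ‖t‖ < 1) :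
    evN hc0 t hct ht (TN k c) = t := by
  rw [evN_apply, coe_TN]
  have h := AnW_201.evE_mo (k := k) t 1 (1 : C)
  rw [zpow_one, one_mul] at h
  exact h

/-- units -/
theorem isUnit_mo {c : C} (n : ℤ) {x : C} (hx : x ≠ 0) :
    IsUnit (⟨mo n x, mo_mem_AN c n x⟩ : AN k c) := by
  refine IsUnit.of_mul_eq_one (⟨mo (-n) x⁻¹, mo_mem_AN c _ _⟩ : AN k c) (Subtype.ext ?_)
  show (mo n x * mo (-n) x⁻¹ : EE k C) = 1
  rw [mo_mul_mo, add_neg_cancel, mul_inv_cancel₀ hx, mo_zero_one]

theorem isUnit_of {c : C} {u v : EE k C} (hu : u ∈ AN k c) (hv : v ∈ AN k c) (h : u * v = 1) :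
    IsUnit (⟨u, hu⟩ : AN k c) :=
  IsUnit.of_mul_eq_one (⟨v, hv⟩ : AN k c) (Subtype.ext h)

/-- **`AN k c` is a cell ring** -/
theorem cellRing_AN (hk : DiscNorm k) {c : C} (hc0 : c ≠ 0) (hc1 : ‖c‖ < 1) :
    CellRing (TN k c) {τ : C | ‖c‖ < ‖τ‖ ∧ ‖τ‖ < 1} where
  fac := by
    rintro ⟨b, hb⟩ hb0
    have h0 : b ≠ 0 := fun h => hb0 (Subtype.ext h)
    obtain ⟨A, N, S, u, v, hA, hS, hu, hv, huv, e⟩ := AnW_201.exists_W hk hc0 hc1 hb h0
    refine ⟨S, hS, ?_⟩
    have h1 : ((S.map fun τ => TN k c - algebraMap C (AN k c) τ).prod : AN k c).1 =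
        (S.map AnW_201.lin).prod := by
      have h2 := map_multiset_prod (AN k c).val (S.map fun τ => TN k c - algebraMap C (AN k c) τ)
      rw [Multiset.map_map] at h2
      exact h2
    have h3 : (⟨b, hb⟩ : AN k c) = (S.map fun τ => TN k c - algebraMap C (AN k c) τ).prod *
        ((⟨mo N A, mo_mem_AN c N A⟩ : AN k c) * (⟨u, hu.inA⟩ : AN k c)) := by
      apply Subtype.ext
      rw [MulMemClass.coe_mul, MulMemClass.coe_mul, h1]
      show b = _
      rw [e]
      ring
    have h4 : IsUnit ((⟨mo N A, mo_mem_AN c N A⟩ : AN k c) * (⟨u, hu.inA⟩ : AN k c)) :=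
      (isUnit_mo N hA).mul (isUnit_of hu.inA hv.inA huv)
    rw [h3]
    exact (associated_mul_unit_left _ _ h4)
  ev := fun τ hτ => ⟨evN hc0 τ hτ.1 hτ.2, evN_TN hc0 τ hτ.1 hτ.2⟩
  nc := by
    intro x h
    have h1 := congrArg (fun a : AN k c => (a : EE k C).co 1) h
    have h2 : (T 1 : EE k C).co 1 = 1 := by rw [T, co_mo, if_pos rfl]
    have h3 : (((algebraMap C (AN k c) x : AN k c)) : EE k C).co 1 = 0 := by
      show (algebraMap C (EE k C) x).co 1 = 0
      rw [co_algebraMap, if_neg one_ne_zero]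
    simp only [coe_TN, h2, h3] at h1
    exact one_ne_zero h1

end Crest.Agent.R013.GoodA_109
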