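import Mathlib
import Crest.Agent.R013.HT5_434
import Crest.Agent.R013.Desc5_372
import Crest.Agent.R013.CntP6_127
import Crest.Agent.R013.DW1_854

/-!
# Row 13, D-line, leaf D-HT (helper434), file 6: descent of the basis of the regular forms in a
constant extension, Galois stability of the set of the coordinates
-/

set_option autoImplicit false
set_option linter.unusedSectionVars false

open Filter Topology
open scoped NNReal
open Crest.Agent.R013.Cell_408

namespace Crest.Agent.R013.HT_434

open WithZero Module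
open Crest.Agent.R013.RR7_948 Crest.Agent.R013.RR8_948 Crest.Agent.R013.RR9_948
open Crest.Agent.R013.RR11_948 Crest.Agent.R013.RR12_948 Crest.Agent.R013.RR13_948
open Crest.Agent.R013.RR14_948 Crest.Agent.R013.RR15_948 Crest.Agent.R013.RR17_948
open Crest.Agent.R013.EE809 Crest.Agent.R013.HU6_522 Crest.Agent.R013.HU3_522
open Crest.Agent.R013.HU1_522 Crest.Agent.R013.HU7_522 Crest.Agent.R013.PC_588
open Crest.Agent.R013.HU8_522 Crest.Agent.R013.HU9_522 Crest.Agent.R013.HU4_522
open Crest.Agent.R013.HU2_522 Crest.Agent.R013.HU11_522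
open Crest.Agent.R013.Desc_372

section CEpart

variable {k C K₀ K : Type*} [Field k] [Field C] [Field K₀] [Field K]
  [Algebra k C] [Algebra k K₀] [Algebra C K] [Algebra K₀ K] [Algebra k K] [IsScalarTower k C K]
  [IsScalarTower k K₀ K]
  [h : CE k C K₀ K] [CharZero k] [CharZero C]
  [Algebra (RatFunc k) K₀] [IsScalarTower k (RatFunc k) K₀] [FiniteDimensional (RatFunc k) K₀]
  [Algebra (RatFunc C) K] [IsScalarTower C (RatFunc C) K] [FiniteDimensional (RatFunc C) K]

/-- the divisor of `dX` in a constant extension -/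
theorem conC_canD [Algebra.IsAlgebraic K₀ K] [IsGalois k C] [IsAlgClosed C]
    (hc : algebraicClosure k K₀ = ⊥) (hx : xK C K = algebraMap K₀ K (xK k K₀)) :
    (conC hc (canD k K₀) : Pl C K →₀ ℤ) = canD C K := by
  ext P
  rw [conC_apply]
  obtain ⟨t, ht⟩ := (resC k K₀ P).surj (exp (-1))
  have h1 := v_del_eq (resC k K₀ P) ht
  have h2 : P.v (algebraMap K₀ K t) = exp (-1) := by rw [← resC_v hc]; exact ht
  have h3 := v_del_eq P h2
  rw [CntP6_127.del_compat hx, ← resC_v hc, h1, exp_inj] at h3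
  exact h3

variable [IsAlgClosed C]

/-- **a `C`-basis of `L(div dX)` from a `k`-basis of `L(div dX)`** -/
theorem exists_basis_descent (hc : algebraicClosure k K₀ = ⊥)
    (hx : xK C K = algebraMap K₀ K (xK k K₀)) {ι : Type*} [Fintype ι]
    (b0 : Basis ι k (LD (canD k K₀))) :
    ∃ b : Basis ι C (LD (canD C K)), ∀ i, ((b i : LD (canD C K)) : K) = algebraMap K₀ K (b0 i) := by
  have halg : Algebra.IsAlgebraic K₀ K := CE.isAlgebraic k C K₀ K
  have halg' : Algebra.IsAlgebraic k C := h.alg
  have hcl : IsAlgClosure k C := ⟨inferInstance, halg'⟩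
  have hn : Normal k C := IsAlgClosure.normal k C
  have hgal : IsGalois k C := ⟨⟩
  have hcan := conC_canD (C := C) (K := K) hc hx
  have hmem : ∀ i, algebraMap K₀ K (b0 i) ∈ LD (canD C K) := fun i => by
    have h0 := (algebraMap_mem_LD_conC (C := C) (K := K) hc).2 (b0 i).2
    rwa [hcan] at h0
  have h1 : LinearIndependent k (fun i => ((b0 i : LD (canD k K₀)) : K₀)) :=
    b0.linearIndependent.map' (LD (canD k K₀)).subtype (LinearMap.ker_eq_bot.2 Subtype.val_injective)
  have h2 := CE.linearIndependent_left k C K₀ K h1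
  have h3 : LinearIndependent C (fun i => (⟨algebraMap K₀ K (b0 i), hmem i⟩ : LD (canD C K))) :=
    LinearIndependent.of_comp (LD (canD C K)).subtype h2
  have := LD_finite (canD C K)
  have h4 : Fintype.card ι = finrank C (LD (canD C K)) := by
    have e1 : finrank k (LD (canD k K₀)) = Fintype.card ι := finrank_eq_card_basis b0
    have e2 := ell_conC (C := C) (K := K) hc (canD k K₀)
    rw [hcan] at e2
    rw [← e1]
    exact e2.symm
  rcases isEmpty_or_nonempty ι with hι | hι
  · have h5 : finrank C (LD (canD C K)) = 0 := by rw [← h4]; simp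
    have : Subsingleton (LD (canD C K)) := finrank_zero_iff.mp h5
    exact ⟨Basis.empty _, fun i => isEmptyElim i⟩
  · refine ⟨basisOfLinearIndependentOfCardEqFinrank h3 h4, fun i => ?_⟩
    rw [coe_basisOfLinearIndependentOfCardEqFinrank]

end CEpart

section act

variable {k : Type*} [NontriviallyNormedField k] [CompleteSpace k] [IsUltrametricDist k]
variable {C : Type*} [NormedField C] [IsUltrametricDist C] [NormedAlgebra k C] [CharZero C]
  [Algebra.IsAlgebraic k C] [IsAlgClosed C]
variable {K₀ : Type*} [Field K₀] [Algebra k K₀]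
variable {K : Type*} [Field K] [Algebra C K] [Algebra K₀ K] [Algebra k K] [IsScalarTower k C K]
  [IsScalarTower k K₀ K] [h : CE k C K₀ K]
  [Algebra (RatFunc C) K] [IsScalarTower C (RatFunc C) K] [FiniteDimensional (RatFunc C) K]
variable {p : ℕ} [Fact p.Prime]
variable {F : Type*} [NormedField F] [IsUltrametricDist F] [CharZero F] [CompleteSpace F]
  (σ : C →+* F) (hσ : ∀ a, ‖σ a‖ = ‖a‖)
variable {J : Type*} [Fintype J] (b : Module.Basis J C (LD (canD C K)))
variable (hk : DiscNorm k)

/-- the action of `Aut(C/k)` on `TT` -/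
noncomputable def actT (s : C ≃ₐ[k] C) (u : TT C K p) : TT C K p :=
  ⟨PC.map (Units.map ((CE.lift k C K₀ K s : K ≃+* K) : K →* K)) (u : PC p Kˣ),
    DivP.map (CE.lift k C K₀ K s : K ≃+* K) (s : C ≃+* C)
      (fun c => CE.lift_algebraMap k C K₀ K s c) u.2⟩

include hσ hk in
/-- **the set of the coordinates of the global forms is stable under `Aut(C/k)`** -/
theorem IsOmc.act (hp : ‖(p : C)‖ < 1) {c : TT C K p → (J → F)}
    (hcc : IsOmc σ hσ b hk c)
    (em0 : K →+* EE k C)
    (hc0 : ∀ c : C, em0 (algebraMap C K c) = mono 0 c (EE809.finDef_const c))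
    (hι0 : ∀ z, ∃ a b : BD k C, b ≠ 0 ∧ em0 z * bdE b = bdE a)
    {t : K} {r : C} (hr : r ≠ 0) (ht : em0 t = mono 1 r (EE809.finDef_const r))
    (hb : ∀ j, ∃ y : K₀, ((b j : LD (canD C K)) : K) = algebraMap K₀ K y)
    (hx : ∃ y : K₀, xK C K = algebraMap K₀ K y)
    (s : C ≃ₐ[k] C) (τF : F →+* F) (hτF : Isometry τF) (hτσ : ∀ a, τF (σ a) = σ (s a))
    (u : TT C K p) :
    c (actT (K₀ := K₀) s u) = fun j => τF (c u j) := by
  have hn : ∀ a, ‖τF a‖ = ‖a‖ := fun a => by
    have := hτF.dist_eq a 0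
    rwa [map_zero, dist_zero_right, dist_zero_right] at this
  have hs : ∀ a : C, ‖(s : C →ₐ[k] C) a‖ = ‖a‖ := fun a => by
    have h1 : ‖σ (s a)‖ = ‖σ a‖ := by rw [← hτσ, hn]
    rw [hσ, hσ] at h1
    exact h1
  refine IsOmc.map σ hσ b hk (CE.lift k C K₀ K s : K ≃+* K) (s : C →ₐ[k] C) hs
    (fun c => CE.lift_algebraMap k C K₀ K s c) s.surjective hp hcc em0 hc0 hι0 hr ht ?_ ?_ τF hn
    hτσ u _ rfl
  · intro j
    obtain ⟨y, hy⟩ := hb j
    rw [hy]
    exact (CE.lift k C K₀ K s).commutes y
  · obtain ⟨y, hy⟩ := hx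
    rw [hy]
    exact (CE.lift k C K₀ K s).commutes y

end act

end Crest.Agent.R013.HT_434
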