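import Mathlib
import Crest.Agent.R013.HU9_522
import Crest.Agent.R013.Good3_940

/-!
# R013 / HU10: `iota h_n = H_u * g ^ (p^n)` in the fraction field of the bounded power series over a
complete field `F ⊇ C` (helper522)
-/

set_option autoImplicit false
set_option linter.all false
open Filter Topology
open scoped NNReal
open Crest.Agent.R013.Cell_408

namespace Crest.Agent.R013.HU10_522

open Crest.Agent.R013.RR7_948 Crest.Agent.R013.RR8_948 Crest.Agent.R013.RR11_948
open Crest.Agent.R013.EE809 Crest.Agent.R013.HU6_522 Crest.Agent.R013.HU3_522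
open Crest.Agent.R013.HU1_522 Crest.Agent.R013.HU7_522 Crest.Agent.R013.PC_588
open Crest.Agent.R013.HU8_522 Crest.Agent.R013.HU4_522 Crest.Agent.R013.HU2_522
open Crest.Agent.R013.HU9_522 Crest.Agent.R013.KAS3_940 Crest.Agent.R013.KAS2_940
open Crest.Agent.R013.KAS1_940

variable {k : Type*} [NontriviallyNormedField k] [CompleteSpace k] [IsUltrametricDist k]
variable {C : Type*} [NormedField C] [IsUltrametricDist C] [NormedAlgebra k C]
  [Algebra.IsAlgebraic k C] [IsAlgClosed C]

section ToFrac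

variable {Q : Type*} [CommRing Q] (j : BD k C →+* Q) (hj : Function.Injective j)
  {K : Type*} [Field K] (ι : K →+* Q) (hι : ∀ z, ∃ a b : BD k C, b ≠ 0 ∧ ι z * j b = j a)
  {R : Type*} [Field R] (ψ : BD k C →+* R) (hψ : Function.Injective ψ)

include hj hψ in
theorem ratio_unique {z : K} {a b a' b' : BD k C} (hb : b ≠ 0) (h : ι z * j b = j a)
    (hb' : b' ≠ 0) (h' : ι z * j b' = j a') : ψ a / ψ b = ψ a' / ψ b' := by
  have h1 : a * b' = a' * b := by
    apply hj
    rw [map_mul, map_mul, ← h, ← h']; ring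
  have hb1 : ψ b ≠ 0 := (map_ne_zero_iff ψ hψ).mpr hb
  have hb2 : ψ b' ≠ 0 := (map_ne_zero_iff ψ hψ).mpr hb'
  rw [div_eq_div_iff hb1 hb2, ← map_mul, ← map_mul, h1]

/-- a homomorphism `K → R` from an injective homomorphism `BD → R`, `R` a field -/
noncomputable def toFr : K →+* R where
  toFun z := ψ (hι z).choose / ψ (hι z).choose_spec.choose
  map_one' := by
    have h := (hι 1).choose_spec.choose_spec
    rw [ratio_unique j hj ι ψ hψ h.1 h.2 (a' := 1) (b' := 1) one_ne_zero (by simp)]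
    simp
  map_zero' := by
    have h := (hι 0).choose_spec.choose_spec
    rw [ratio_unique j hj ι ψ hψ h.1 h.2 (a' := 0) (b' := 1) one_ne_zero (by simp)]
    simp
  map_mul' x y := by
    have h := (hι (x * y)).choose_spec.choose_spec
    have h1 := (hι x).choose_spec.choose_spec
    have h2 := (hι y).choose_spec.choose_spec
    rw [ratio_unique j hj ι ψ hψ h.1 h.2 (a' := (hι x).choose * (hι y).choose)
      (b' := (hι x).choose_spec.choose * (hι y).choose_spec.choose)
      (BD_mul_ne_zero h1.1 h2.1) (by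
        rw [map_mul, map_mul, map_mul]
        linear_combination (ι y * j (hι y).choose_spec.choose) * h1.2 + (j (hι x).choose) * h2.2),
      map_mul, map_mul, mul_div_mul_comm]
  map_add' x y := by
    have h := (hι (x + y)).choose_spec.choose_spec
    have h1 := (hι x).choose_spec.choose_spec
    have h2 := (hι y).choose_spec.choose_spec
    rw [ratio_unique j hj ι ψ hψ h.1 h.2
      (a' := (hι x).choose * (hι y).choose_spec.choose + (hι x).choose_spec.choose * (hι y).choose)
      (b' := (hι x).choose_spec.choose * (hι y).choose_spec.choose)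
      (BD_mul_ne_zero h1.1 h2.1) (by
        rw [map_add, map_mul, map_add, map_mul, map_mul]
        linear_combination (j (hι y).choose_spec.choose) * h1.2 +
          (j (hι x).choose_spec.choose) * h2.2), map_mul, map_add,
      map_mul, map_mul, div_add_div _ _ ((map_ne_zero_iff ψ hψ).mpr h1.1)
        ((map_ne_zero_iff ψ hψ).mpr h2.1)]

theorem toFr_spec {z : K} {a b : BD k C} (hb : b ≠ 0) (h : ι z * j b = j a) :
    toFr j hj ι hι ψ hψ z * ψ b = ψ a := by
  have h1 := (hι z).choose_spec.choose_spec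
  have h2 : toFr j hj ι hι ψ hψ z = ψ a / ψ b := ratio_unique j hj ι ψ hψ h1.1 h1.2 hb h
  rw [h2, div_mul_cancel₀ _ ((map_ne_zero_iff ψ hψ).mpr hb)]

end ToFrac

section Complete

variable {F : Type*} [NontriviallyNormedField F] [IsUltrametricDist F]
  (σ : C →+* F) (hσ : ∀ a, ‖σ a‖ = ‖a‖)

/-- `BD k C → bsub F 1`, coefficientwise -/
noncomputable def bdMap : BD k C →+* bsub (K := F) 1 one_pos where
  toFun f := ⟨PowerSeries.map σ (f : PowerSeries C), by
    obtain ⟨M, hM⟩ := f.2.2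
    refine ⟨M, fun n => ?_⟩
    rw [PowerSeries.coeff_map, hσ, one_pow, mul_one]
    exact hM n⟩
  map_one' := Subtype.ext (map_one _)
  map_mul' f g := Subtype.ext (map_mul (PowerSeries.map σ) (f : PowerSeries C) (g : PowerSeries C))
  map_zero' := Subtype.ext (map_zero _)
  map_add' f g := Subtype.ext (map_add (PowerSeries.map σ) (f : PowerSeries C) (g : PowerSeries C))

theorem bdMap_val (f : BD k C) :
    ((bdMap σ hσ f : bsub (K := F) 1 one_pos) : PowerSeries F) = PowerSeries.map σ (f : PowerSeries C) :=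
  rfl

theorem bdMap_injective : Function.Injective (bdMap (k := k) σ hσ) := by
  intro f g h
  apply Subtype.ext
  ext n
  have h1 := congrArg (fun a : bsub (K := F) 1 one_pos => PowerSeries.coeff n (a : PowerSeries F)) h
  simp only [bdMap_val, PowerSeries.coeff_map] at h1
  exact σ.injective h1

variable [CharZero C] {K : Type*} [Field K] (hk : DiscNorm k) (em : K →+* EE k C)
  (hι : ∀ z, ∃ a b : BD k C, b ≠ 0 ∧ em z * bdE b = bdE a)

/-- `BD k C → FDisc F 1` -/
noncomputable def psi : BD k C →+* Good3_940.FDisc F 1 one_pos :=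
  (algebraMap (bsub (K := F) 1 one_pos) (Good3_940.FDisc F 1 one_pos)).comp (bdMap σ hσ)

theorem psi_injective : Function.Injective (psi (k := k) σ hσ) :=
  (IsFractionRing.injective (bsub (K := F) 1 one_pos) (Good3_940.FDisc F 1 one_pos)).comp
    (bdMap_injective σ hσ)

/-- the embedding of `K` in the field of the disc over `F`, defined by a disc end -/
noncomputable def iF : K →+* Good3_940.FDisc F 1 one_pos :=
  toFr bdE bdE_injective em hι (psi σ hσ) (psi_injective σ hσ)

theorem iF_spec {z : K} {a b : BD k C} (hb : b ≠ 0) (h : em z * bdE b = bdE a) :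
    iF σ hσ em hι z * psi σ hσ b = psi σ hσ a :=
  toFr_spec bdE bdE_injective em hι (psi σ hσ) (psi_injective σ hσ) hb h

/-- an element of `U1 F` as an element of the disc field -/
noncomputable def uF (u : U1 F) : Good3_940.FDisc F 1 one_pos :=
  algebraMap (bsub (K := F) 1 one_pos) (Good3_940.FDisc F 1 one_pos)
    ⟨((u : (PowerSeries F)ˣ) : PowerSeries F), ⟨1, int1_iff.mp (U1.int u)⟩⟩

theorem uF_mul (u v : U1 F) : uF (u * v) = uF u * uF v := by
  unfold uF
  rw [← map_mul]
  rfl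

theorem uF_one : uF (1 : U1 F) = 1 := by
  unfold uF
  rw [← map_one (algebraMap (bsub (K := F) 1 one_pos) (Good3_940.FDisc F 1 one_pos))]
  rfl

theorem uF_pow (u : U1 F) (n : ℕ) : uF (u ^ n) = uF u ^ n := by
  induction n with
  | zero => rw [pow_zero, pow_zero, uF_one]
  | succ n ih => rw [pow_succ, pow_succ, uF_mul, ih]

theorem uF_mul_inv (u : U1 F) : uF u * uF u⁻¹ = 1 := by
  rw [← uF_mul, mul_inv_cancel, uF_one]

theorem uF_ne_zero (u : U1 F) : uF u ≠ 0 := left_ne_zero_of_mul_eq_one (uF_mul_inv u)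

variable [Algebra C K] [Algebra (RatFunc C) K] [IsScalarTower C (RatFunc C) K]
  [FiniteDimensional (RatFunc C) K]
  (hc : ∀ c : C, em (algebraMap C K c) = mono 0 c (EE809.finDef_const c))
  {p : ℕ} [Fact p.Prime] (hp : ‖(p : C)‖ < 1) [CharZero F] [CompleteSpace F]

include hc hp in
/-- **the form used for (GOOD)**: `iota z = H_u * g ^ (p^n)` for every representative `z` of `u`
modulo `p^n`-th powers -/
theorem iF_eq {u : PC p Kˣ} (hu : DivP C u) {n : ℕ} {z : Kˣ} (hz : Rep u n z) :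
    ∃ g : Good3_940.FDisc F 1 one_pos, g ≠ 0 ∧
      iF σ hσ em hι (z : K) = uF (HuE hk em hι σ hσ u) * g ^ (p ^ n) := by
  have hpF : ‖(p : F)‖ < 1 := by rw [norm_p_F σ hσ]; exact hp
  have hm : p ^ n ≠ 0 := pow_ne_zero _ (Fact.out : p.Prime).ne_zero
  obtain ⟨c, S, T, hc0, hS, hT, hmem, heq⟩ := hu_disc hk em hc hι hm (hu n z hz)
  obtain ⟨V, hV⟩ := Hu_spec hpF (nuF hk em hι σ hσ) hz
  obtain ⟨d, hd⟩ := IsAlgClosed.exists_pow_nat_eq c (Nat.pos_of_ne_zero hm)
  set A : BD k C := ⟨(rootPoly S : PowerSeries C), coe_mem_BD _⟩ with hA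
  set B : BD k C := ⟨(rootPoly T : PowerSeries C), coe_mem_BD _⟩ with hB
  set N : BD k C := ⟨_, hmem⟩ with hN
  have hA0 : A ≠ 0 := fun h => rootPoly_ne_zero S (congrArg Subtype.val h)
  have hB0 : B ≠ 0 := fun h => rootPoly_ne_zero T (congrArg Subtype.val h)
  have hψA : psi σ hσ A ≠ 0 := (map_ne_zero_iff _ (psi_injective σ hσ)).mpr hA0
  have hψB : psi σ hσ B ≠ 0 := (map_ne_zero_iff _ (psi_injective σ hσ)).mpr hB0
  have h1 := iF_spec σ hσ em hι (z := (z : K)) (a := ⟨PowerSeries.C c, C_mem_BD c⟩ * N * A ^ (p ^ n))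
    (b := B ^ (p ^ n)) (pow_ne_zero _ hB0) (by
      rw [map_pow, map_mul, map_mul, map_pow]; exact heq)
  rw [map_pow, map_mul, map_mul, map_pow] at h1
  -- the unit
  have hNu : psi σ hσ N = uF (nuF hk em hι σ hσ z) := by
    unfold psi uF
    rw [RingHom.comp_apply]
    congr 1
  have hcd : psi (k := k) σ hσ ⟨PowerSeries.C c, C_mem_BD c⟩ =
      psi (k := k) σ hσ ⟨PowerSeries.C d, C_mem_BD d⟩ ^ (p ^ n) := by
    rw [← map_pow]
    congr 1
    apply Subtype.ext
    show PowerSeries.C c = (PowerSeries.C d) ^ (p ^ n)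
    rw [← map_pow, hd]
  have hd0 : psi (k := k) σ hσ ⟨PowerSeries.C d, C_mem_BD d⟩ ≠ 0 := by
    rw [map_ne_zero_iff _ (psi_injective σ hσ)]
    intro h
    have h2 : PowerSeries.C d = 0 := congrArg Subtype.val h
    rw [map_eq_zero_iff _ PowerSeries.C_injective] at h2
    rw [h2, zero_pow hm] at hd
    exact hc0 hd.symm
  refine ⟨psi (k := k) σ hσ ⟨PowerSeries.C d, C_mem_BD d⟩ * psi σ hσ A / psi σ hσ B * uF V⁻¹, ?_, ?_⟩
  · exact mul_ne_zero (div_ne_zero (mul_ne_zero hd0 hψA) hψB) (uF_ne_zero _)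
  · have h3 : uF (HuE hk em hι σ hσ u) = psi σ hσ N * uF V ^ (p ^ n) := by
      rw [hNu, ← uF_pow, ← uF_mul, HuE, hV]
    rw [hcd] at h1
    have hBp : psi σ hσ B ^ (p ^ n) ≠ 0 := pow_ne_zero _ hψB
    have h4 : uF V ^ (p ^ n) * uF V⁻¹ ^ (p ^ n) = 1 := by
      rw [← mul_pow, uF_mul_inv, one_pow]
    rw [h3, mul_pow, div_pow, mul_pow]
    rw [eq_comm]
    calc psi σ hσ N * uF V ^ p ^ n * (psi (k := k) σ hσ ⟨PowerSeries.C d, C_mem_BD d⟩ ^ p ^ n *
            psi σ hσ A ^ p ^ n / psi σ hσ B ^ p ^ n * uF V⁻¹ ^ p ^ n)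
        = (psi (k := k) σ hσ ⟨PowerSeries.C d, C_mem_BD d⟩ ^ p ^ n * psi σ hσ N *
            psi σ hσ A ^ p ^ n) / psi σ hσ B ^ p ^ n * (uF V ^ (p ^ n) * uF V⁻¹ ^ (p ^ n)) := by ring
      _ = iF σ hσ em hι (z : K) := by
          rw [h4, mul_one, ← h1, mul_div_cancel_right₀ _ hBp]

/-- properties of `H_u`: integral coefficients, constant coefficient `1`, `H' = omega H` -/
theorem HuE_props (u : PC p Kˣ) :
    PowerSeries.constantCoeff ((HuE hk em hι σ hσ u : (PowerSeries F)ˣ) : PowerSeries F) = 1 ∧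
    Bd 1 1 ((HuE hk em hι σ hσ u : (PowerSeries F)ˣ) : PowerSeries F) ∧
    Bd 1 1 (OmE hk em hι σ hσ u) ∧
    PowerSeries.derivative F ((HuE hk em hι σ hσ u : (PowerSeries F)ˣ) : PowerSeries F) =
      OmE hk em hι σ hσ u * ((HuE hk em hι σ hσ u : (PowerSeries F)ˣ) : PowerSeries F) :=
  ⟨U1.const _, int1_iff.mp (U1.int _), int1_iff.mp (dl_int _), dl_spec _⟩

end Complete

end Crest.Agent.R013.HU10_522
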