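import Mathlib
import Crest.Agent.R013.HU9_522

/-!
# R013 / HU12: small logarithmic derivatives do not depend on the end (helper522)

`Small em u` : `∃ M, ∀ n`, every representative `z` of `u_n` has `gn (dlog (em z)) ≤ M |p|^n`.
* `small_of_exists` : one representative per level suffices;
* `Small.transfer` : independent of the end (for `DivP u`);
* `omE_eq_zero_iff` : on a disc end `omega_u = 0 ↔ Small`;
* `Small.slope` : the slope vanishes.
-/

set_option autoImplicit false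
set_option linter.all false
open Filter Topology
open scoped NNReal
open Crest.Agent.R013.Cell_408

namespace Crest.Agent.R013.HU12_522

open Crest.Agent.R013.RR7_948 Crest.Agent.R013.RR8_948 Crest.Agent.R013.RR11_948
open Crest.Agent.R013.RR14_948
open Crest.Agent.R013.RR13_948
open Crest.Agent.R013.EE809 Crest.Agent.R013.HU6_522 Crest.Agent.R013.HU3_522
open Crest.Agent.R013.HU1_522 Crest.Agent.R013.HU7_522 Crest.Agent.R013.PC_588
open Crest.Agent.R013.HU8_522 Crest.Agent.R013.HU4_522 Crest.Agent.R013.HU2_522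
open Crest.Agent.R013.HU9_522

variable {k : Type*} [NontriviallyNormedField k] [CompleteSpace k] [IsUltrametricDist k]
variable {C : Type*} [NormedField C] [IsUltrametricDist C] [NormedAlgebra k C] [CharZero C]
  [Algebra.IsAlgebraic k C] [IsAlgClosed C]
  {K : Type*} [Field K] {p : ℕ} [Fact p.Prime]

/-- the norm of the logarithmic derivative -/
noncomputable def dn (em : K →+* EE k C) (z : K) : ℝ := gn (th (em z) * em z⁻¹)

/-- small logarithmic derivatives at the end `em` -/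
def Small (em : K →+* EE k C) (u : PC p Kˣ) : Prop :=
  ∃ M : ℝ, ∀ n (z : Kˣ), Rep u n z → dn em (z : K) ≤ M * ‖(p : C)‖ ^ n

theorem dn_nonneg (em : K →+* EE k C) (z : K) : 0 ≤ dn em z := gn_nonneg _

section

variable (hk : DiscNorm k) (em : K →+* EE k C)

include hk in
theorem dn_le_one {z : K} (hz : z ≠ 0) : dn em z ≤ 1 := by
  have h1 : gn (em z) * gn (em z⁻¹) = 1 := by rw [← gn_mul hk, em_mul_inv em hz, gn_one]
  unfold dn
  rw [gn_mul hk]
  calc gn (th (em z)) * gn (em z⁻¹) ≤ gn (em z) * gn (em z⁻¹) :=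
        mul_le_mul_of_nonneg_right (gn_th_le _) (gn_nonneg _)
    _ = 1 := h1

theorem dlog_mul_pow {z f : K} (hz : z ≠ 0) (hf : f ≠ 0) (m : ℕ) :
    th (em (z * f ^ m)) * em (z * f ^ m)⁻¹ =
      th (em z) * em z⁻¹ + (m : EE k C) * (th (em f) * em f⁻¹) := by
  have hE := em_mul_inv em hf
  have h1 : th (em (f ^ m)) * em (f ^ m)⁻¹ = (m : EE k C) * (th (em f) * em f⁻¹) := by
    induction m with
    | zero => simp [th_one]
    | succ m ih =>
      have h2 := dlog_mul (em_mul_inv em (pow_ne_zero m hf)) hE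
      have h3 : em (f ^ (m + 1)) = em (f ^ m) * em f := by rw [pow_succ, map_mul]
      have h4 : em (f ^ (m + 1))⁻¹ = em (f ^ m)⁻¹ * em f⁻¹ := by
        rw [pow_succ, mul_inv, map_mul]
      rw [h3, h4, h2, ih]
      push_cast
      ring
  have h2 := dlog_mul (em_mul_inv em hz) (em_mul_inv em (pow_ne_zero m hf))
  have h4 : em (z * f ^ m)⁻¹ = em z⁻¹ * em (f ^ m)⁻¹ := by rw [mul_inv, map_mul]
  rw [h4, map_mul, h2, h1]

include hk in
theorem dn_mul_pow_le {z f : K} (hz : z ≠ 0) (hf : f ≠ 0) (m : ℕ) :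
    dn em (z * f ^ m) ≤ max (dn em z) ‖(m : C)‖ := by
  unfold dn
  rw [dlog_mul_pow em hz hf]
  refine (gn_add_le _ _).trans (max_le_max le_rfl ?_)
  exact (gn_natCast_mul_le _ _).trans (mul_le_of_le_one_right (norm_nonneg _) (dn_le_one hk em hf))

include hk in
/-- one representative per level suffices -/
theorem small_of_exists {u : PC p Kˣ}
    (h : ∃ M : ℝ, ∀ n, ∃ z : Kˣ, Rep u n z ∧ dn em (z : K) ≤ M * ‖(p : C)‖ ^ n) : Small em u := by
  obtain ⟨M, hM⟩ := h
  refine ⟨max M 1, fun n z hz => ?_⟩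
  obtain ⟨z', hz', hb⟩ := hM n
  obtain ⟨f, hf⟩ := hz'.eq_iff.1 hz
  have hval : (z : K) = (z' : K) * (f : K) ^ (p ^ n) := by rw [hf]; push_cast; rfl
  rw [hval]
  have hpow : 0 ≤ ‖(p : C)‖ ^ n := by positivity
  refine (dn_mul_pow_le hk em z'.ne_zero f.ne_zero _).trans (max_le ?_ ?_)
  · exact hb.trans (mul_le_mul_of_nonneg_right (le_max_left _ _) hpow)
  · push_cast
    rw [norm_pow]
    calc ‖(p : C)‖ ^ n = 1 * ‖(p : C)‖ ^ n := (one_mul _).symm
      _ ≤ max M 1 * ‖(p : C)‖ ^ n := mul_le_mul_of_nonneg_right (le_max_right _ _) hpow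

theorem Small.exists_pos {u : PC p Kˣ} (h : Small em u) : ∃ M : ℝ, 0 < M ∧ ∀ n (z : Kˣ), Rep u n z →
    dn em (z : K) ≤ M * ‖(p : C)‖ ^ n := by
  obtain ⟨M, hM⟩ := h
  refine ⟨max M 1, by positivity, fun n z hz => (hM n z hz).trans ?_⟩
  exact mul_le_mul_of_nonneg_right (le_max_left _ _) (by positivity)

include hk in
/-- the slope vanishes -/
theorem Small.slope (hp : ‖(p : C)‖ < 1) {u : PC p Kˣ} (h : Small em u) :
    PC.toPadic (odE em hk) u = 0 := by
  obtain ⟨M, hMpos, hM⟩ := h.exists_pos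
  rw [PC.toPadic_eq_zero_iff]
  intro n g hg
  have hlim : Tendsto (fun N : ℕ => M * ‖(p : C)‖ ^ N) atTop (𝓝 0) := by
    have := (tendsto_pow_atTop_nhds_zero_of_lt_one (norm_nonneg (p : C)) hp).const_mul M
    rwa [mul_zero] at this
  have hpos : 0 < ‖(p : C)‖ ^ n := pow_pos norm_p_pos n
  obtain ⟨N, hN1, hN2⟩ := (((Metric.tendsto_nhds.1 hlim) _ hpos).and
    (eventually_ge_atTop n)).exists
  obtain ⟨z, hz⟩ := exists_rep u N
  have h1 : ‖(od (em (z : K)) : C)‖ ≤ ‖(p : C)‖ ^ n := by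
    refine (norm_od_le hk (em_mul_inv em z.ne_zero)).trans ((hM N z hz).trans ?_)
    rw [Real.dist_eq, sub_zero] at hN1
    exact (le_abs_self _).trans hN1.le
  have h2 := dvd_of_norm_le hp n h1
  obtain ⟨y, hy⟩ := (hz.of_le hN2).eq_iff.1 hg
  rw [hy, map_mul, map_pow, toAdd_mul, toAdd_pow, odE_apply]
  refine dvd_add h2 ?_
  rw [nsmul_eq_mul]
  exact dvd_mul_of_dvd_left (by push_cast; exact dvd_rfl) _

end

variable [Algebra C K] [Algebra (RatFunc C) K] [IsScalarTower C (RatFunc C) K]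
  [FiniteDimensional (RatFunc C) K]

/-- **independence of the end** -/
theorem Small.transfer (hk : DiscNorm k) {em1 : K →+* EE k C} (em2 : K →+* EE k C)
    (hc1 : ∀ c : C, em1 (algebraMap C K c) = mono 0 c (EE809.finDef_const c))
    (hc2 : ∀ c : C, em2 (algebraMap C K c) = mono 0 c (EE809.finDef_const c))
    {u : PC p Kˣ} (hu : DivP C u) (h : Small em1 u) : Small em2 u := by
  obtain ⟨c, hcpos, H⟩ := HU5_522.dlog_compare ((wE em1 hk).comap (algebraMap C K))
    (wE em1 hk) (wE em2 hk) (fun a => rfl)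
    (fun a => by rw [Valuation.comap_apply, wE_algebraMap em1 hc1, wE_algebraMap em2 hc2])
    (exists_eps em1 hc1 hk) (exists_eps em2 hc2 hk)
  obtain ⟨M, hMpos, hM⟩ := Small.exists_pos em1 h
  set G1 := gn (th (em1 (xK C K))) with hG1
  set G2 := gn (th (em2 (xK C K))) with hG2
  have hG1pos : 0 < G1 := gn_pos (th_em_x_ne_zero em1 hc1)
  have hG2pos : 0 < G2 := gn_pos (th_em_x_ne_zero em2 hc2)
  have hcpos' : (0 : ℝ) < c := by exact_mod_cast hcpos
  refine small_of_exists hk em2 ⟨G2 / (c * G1) * M, fun N => ?_⟩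
  obtain ⟨z, hz⟩ := exists_rep u N
  have hpn : p ^ N ≠ 0 := pow_ne_zero _ (Fact.out : p.Prime).ne_zero
  obtain ⟨f, hf0, hf⟩ := H (p ^ N) (z : K) hpn z.ne_zero (hu N z hz)
  let z' : Kˣ := z * (Units.mk0 f hf0) ^ (p ^ N)
  have hz' : Rep u N z' := hz.eq_iff.2 ⟨_, rfl⟩
  have hval : (z' : K) = (z : K) * f ^ (p ^ N) := by
    simp only [z']; push_cast; rfl
  refine ⟨z', hz', ?_⟩
  have h1 := hM N z' hz'
  unfold dn at h1 ⊢
  rw [dlog_em em1 hc1, gn_mul hk, ← hG1] at h1
  rw [dlog_em em2 hc2, gn_mul hk, ← hG2]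
  rw [← hval] at hf
  have h3 : (c : ℝ) * gn (em2 (del C K (z' : K) / (z' : K))) ≤
      gn (em1 (del C K (z' : K) / (z' : K))) := by
    have := NNReal.coe_le_coe.mpr hf
    rwa [NNReal.coe_mul, wE_apply, wE_apply] at this
  set a := gn (em1 (del C K (z' : K) / (z' : K)))
  set b := gn (em2 (del C K (z' : K) / (z' : K)))
  have h4 : b ≤ a / c := by rw [le_div_iff₀ hcpos', mul_comm]; exact h3
  have h5 : a ≤ M * ‖(p : C)‖ ^ N / G1 := by rw [le_div_iff₀ hG1pos]; exact h1
  calc b * G2 ≤ (M * ‖(p : C)‖ ^ N / G1 / c) * G2 := by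
        refine mul_le_mul_of_nonneg_right (h4.trans ?_) hG2pos.le
        exact div_le_div_of_nonneg_right h5 hcpos'.le
    _ = G2 / (c * G1) * M * ‖(p : C)‖ ^ N := by field_simp

section Disc

variable (hk : DiscNorm k) (em : K →+* EE k C)
  (hc : ∀ c : C, em (algebraMap C K c) = mono 0 c (EE809.finDef_const c))
  (hι : ∀ z, ∃ a b : BD k C, b ≠ 0 ∧ em z * bdE b = bdE a)
  {F : Type*} [NormedField F] [IsUltrametricDist F] [CharZero F] [CompleteSpace F]
  (σ : C →+* F) (hσ : ∀ a, ‖σ a‖ = ‖a‖) (hp : ‖(p : C)‖ < 1)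

include hp hc in
/-- on a disc end: `omega_u = 0 ↔ Small` -/
theorem omE_eq_zero_iff {u : PC p Kˣ} (hu : DivP C u) :
    OmE hk em hι σ hσ u = 0 ↔ Small em u := by
  constructor
  · intro h
    exact ⟨1, fun n z hz => by rw [one_mul]; exact dlog_le_of_om_zero hk em hc hι σ hσ hp hu h hz⟩
  · intro h
    obtain ⟨M, hMpos, hM⟩ := Small.exists_pos em h
    have hpF : ‖(p : F)‖ < 1 := by rw [norm_p_F σ hσ]; exact hp
    ext l
    have key : ∀ n : ℕ, ‖PowerSeries.coeff l (OmE hk em hι σ hσ u)‖ ≤ max 1 M * ‖(p : C)‖ ^ n := by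
      intro n
      obtain ⟨z, hz⟩ := exists_rep u n
      have hpn : p ^ n ≠ 0 := pow_ne_zero _ (Fact.out : p.Prime).ne_zero
      obtain ⟨c, S, T, hpres⟩ := exists_pres_div hk em hc hι hpn (hu n z hz)
      have h1 := norm_Om_sub_le hpF (nuF hk em hι σ hσ) hz l
      rw [norm_p_F σ hσ] at h1
      have h2 : ‖PowerSeries.coeff l (dl (nuF hk em hι σ hσ z))‖ ≤ max 1 M * ‖(p : C)‖ ^ n := by
        rw [norm_coeff_dl_nuF]
        refine (coeff_dl_le hk em z.ne_zero hpn hpres l).trans (max_le ?_ ?_)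
        · push_cast
          rw [norm_pow]
          calc ‖(p : C)‖ ^ n = 1 * ‖(p : C)‖ ^ n := (one_mul _).symm
            _ ≤ max 1 M * ‖(p : C)‖ ^ n :=
              mul_le_mul_of_nonneg_right (le_max_left _ _) (by positivity)
        · exact (hM n z hz).trans (mul_le_mul_of_nonneg_right (le_max_right _ _) (by positivity))
      have h3 : PowerSeries.coeff l (OmE hk em hι σ hσ u) =
          (PowerSeries.coeff l (Om (nuF hk em hι σ hσ) u) -
            PowerSeries.coeff l (dl (nuF hk em hι σ hσ z))) +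
          PowerSeries.coeff l (dl (nuF hk em hι σ hσ z)) := by
        unfold OmE; ring
      rw [h3]
      refine (IsUltrametricDist.norm_add_le_max _ _).trans (max_le (h1.trans ?_) h2)
      calc ‖(p : C)‖ ^ n = 1 * ‖(p : C)‖ ^ n := (one_mul _).symm
        _ ≤ max 1 M * ‖(p : C)‖ ^ n := mul_le_mul_of_nonneg_right (le_max_left _ _) (by positivity)
    have hlim : Tendsto (fun N : ℕ => max 1 M * ‖(p : C)‖ ^ N) atTop (𝓝 0) := by
      have := (tendsto_pow_atTop_nhds_zero_of_lt_one (norm_nonneg (p : C)) hp).const_mul (max 1 M)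
      rwa [mul_zero] at this
    have h2 : ‖PowerSeries.coeff l (OmE hk em hι σ hσ u)‖ ≤ 0 := ge_of_tendsto' hlim key
    rw [norm_le_zero_iff.mp h2]; simp

end Disc

end Crest.Agent.R013.HU12_522
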