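import Mathlib
import Crest.Agent.R013.HU10_522
import Crest.Agent.R013.HU11_522
import Crest.Agent.R013.HU12_522
import Crest.Agent.R013.EE4_809

/-!
# R013 / HU13: disc ends from a map `K → Q ⊇ BD` (e.g. `Q` = Laurent series at a place) (helper522)

`j : BD k C →+* Q` injective, `iota : K →+* Q`, every `iota z` a quotient of elements of `j (BD)`.
* `ofQ : K →+* EE k C`, `ofQ_spec : iota z * j b = j a → ofQ z * bdE b = bdE a`;
* `nuE_ofQ`, `ofQ_hc`, `ofQ_map` (equivariance).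
-/

set_option autoImplicit false
set_option linter.all false
open Filter Topology
open scoped NNReal
open Crest.Agent.R013.Cell_408

namespace Crest.Agent.R013.HU13_522

open Crest.Agent.R013.EE809 Crest.Agent.R013.HU6_522 Crest.Agent.R013.HU3_522
open Crest.Agent.R013.HU1_522 Crest.Agent.R013.HU7_522 Crest.Agent.R013.PC_588
open Crest.Agent.R013.HU8_522 Crest.Agent.R013.HU4_522 Crest.Agent.R013.HU2_522
open Crest.Agent.R013.HU9_522 Crest.Agent.R013.HU10_522 Crest.Agent.R013.HU11_522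

variable {k : Type*} [NontriviallyNormedField k] [CompleteSpace k] [IsUltrametricDist k]
variable {C : Type*} [NormedField C] [IsUltrametricDist C] [NormedAlgebra k C]
  [CharZero C] [Algebra.IsAlgebraic k C] [IsAlgClosed C] [hk : Fact (DiscNorm k)]

variable {Q : Type*} [CommRing Q] (j : BD k C →+* Q) (hj : Function.Injective j)
  {K : Type*} [Field K] (ι : K →+* Q) (hι : ∀ z, ∃ a b : BD k C, b ≠ 0 ∧ ι z * j b = j a)

/-- the disc end defined by `iota` -/
noncomputable def ofQ : K →+* EE k C := toFr j hj ι hι bdE bdE_injective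

theorem ofQ_spec {z : K} {a b : BD k C} (hb : b ≠ 0) (h : ι z * j b = j a) :
    ofQ j hj ι hι z * bdE b = bdE a :=
  toFr_spec j hj ι hι bdE bdE_injective hb h

theorem ofQ_hι : ∀ z, ∃ a b : BD k C, b ≠ 0 ∧ ofQ j hj ι hι z * bdE b = bdE a := fun z => by
  obtain ⟨a, b, hb, h⟩ := hι z
  exact ⟨a, b, hb, ofQ_spec j hj ι hι hb h⟩

theorem ofQ_hc [Algebra C K] (hιc : ∀ c : C, ι (algebraMap C K c) = j ⟨PowerSeries.C c, C_mem_BD c⟩)
    (c : C) : ofQ j hj ι hι (algebraMap C K c) = mono 0 c (EE809.finDef_const c) := by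
  have h := ofQ_spec j hj ι hι (z := algebraMap C K c) (a := ⟨PowerSeries.C c, C_mem_BD c⟩) (b := 1)
    one_ne_zero (by rw [map_one, mul_one, hιc])
  rw [map_one, mul_one, bdE_C] at h
  exact h

theorem dec_ne_zero {f : BD k C} {c : C} {u : U1 C} {S : Multiset C}
    (h : Dec k (f : PowerSeries C) c u S) : f ≠ 0 := by
  rintro rfl
  have h1 : (0 : PowerSeries C) = _ := h.eq
  have h2 : PowerSeries.C c * ((u : (PowerSeries C)ˣ) : PowerSeries C) *
      (rootPoly S : PowerSeries C) ≠ 0 := by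
    refine mul_ne_zero (mul_ne_zero ?_ (U1.coe_ne_zero u)) (rootPoly_ne_zero S)
    rw [ne_eq, map_eq_zero_iff _ PowerSeries.C_injective]; exact h.c0
  exact h2 h1.symm

theorem nuE_ofQ (z : Kˣ) :
    nuE hk.out (ofQ j hj ι hι) (ofQ_hι j hj ι hι) z = nu hk.out j hj ι hι z := by
  obtain ⟨c, S, T, h⟩ := nu_pres hk.out j hj ι hι z
  obtain ⟨a, b, hab, ha, hb⟩ := h.ex
  exact nu_eq hk.out bdE bdE_injective _ _
    ⟨a, b, ofQ_spec j hj ι hι (dec_ne_zero hb) hab, ha, hb⟩

section equivariance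

variable (τ : C →ₐ[k] C) (hτ : ∀ a, ‖τ a‖ = ‖a‖)
  {Q' : Type*} [CommRing Q'] (j' : BD k C →+* Q') (hj' : Function.Injective j')
  {K' : Type*} [Field K'] (ι' : K' →+* Q') (hι' : ∀ z, ∃ a b : BD k C, b ≠ 0 ∧ ι' z * j' b = j' a)

/-- equivariance: if the relation `iota z * j b = j a` implies `iota' z' * j' (tau b) = j' (tau a)`,
then `ofQ' z' = EEmap tau (ofQ z)` -/
theorem ofQ_map {z : K} {z' : K'}
    (h : ∀ a b : BD k C, b ≠ 0 → ι z * j b = j a →
      ι' z' * j' (BDmap τ hτ b) = j' (BDmap τ hτ a)) :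
    ofQ j' hj' ι' hι' z' = EEmap τ hτ (ofQ j hj ι hι z) := by
  obtain ⟨a, b, hb, hab⟩ := hι z
  have hb' : BDmap τ hτ b ≠ 0 := (map_ne_zero_iff _ (BDmap_injective τ hτ)).mpr hb
  have h1 := ofQ_spec j' hj' ι' hι' hb' (h a b hb hab)
  have h2 := congrArg (EEmap τ hτ) (ofQ_spec j hj ι hι hb hab)
  rw [map_mul, EEmap_bdE, EEmap_bdE] at h2
  have h3 : (bdE (BDmap τ hτ b) : EE k C) ≠ 0 := (map_ne_zero_iff _ bdE_injective).mpr hb'
  exact mul_right_cancel₀ h3 (h1.trans h2.symm)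

/-- the same with a ring homomorphism `Tau : Q → Q'` compatible with `j` and `iota` -/
theorem ofQ_map' (s : K →+* K') (Tau : Q →+* Q') (hTj : ∀ a, Tau (j a) = j' (BDmap τ hτ a))
    (hTι : ∀ z, Tau (ι z) = ι' (s z)) (z : K) :
    ofQ j' hj' ι' hι' (s z) = EEmap τ hτ (ofQ j hj ι hι z) :=
  ofQ_map j hj ι hι τ hτ j' hj' ι' hι' fun a b _ hab => by
    rw [← hTι, ← hTj, ← hTj, ← map_mul, hab]

end equivariance

end Crest.Agent.R013.HU13_522
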