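import Mathlib
import Crest.Agent.R013.HU13_522
import Crest.Agent.R013.Bridge_588
import Crest.Agent.R013.TP13_928

/-!
# R013 / HU14: `omega` on the Tate module of the class group, and 332's semistable structures
(helper522)

* `brP : Tate p (Pic C K) →ₗ[ℤ_[p]] PC p Kˣ` (588's bridge), `rep_brP_iff`, `divP_brP`, `brP_gal`;
* `omL : PC p G →ₗ[ℤ_[p]] F⟦X⟧`, `omT := omL ∘ brP` for a disc end;
* `omT_inj` : `omT u = 0 → sl S p u = 0` for every `S : SSK k C K`  (928's `OmInj`);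
* `omT_eq_zero_iff` : `omT u = 0 ↔ Small em (brP u)` for any end `em`;
* `omT_gal` : equivariance (928's `om_gal`).
-/

set_option autoImplicit false
set_option linter.all false
open Filter Topology
open scoped NNReal
open Crest.Agent.R013.Cell_408

namespace Crest.Agent.R013.HU14_522

open Crest.Agent.R013.RR7_948 Crest.Agent.R013.RR8_948 Crest.Agent.R013.RR9_948
open Crest.Agent.R013.RR11_948
open Crest.Agent.R013.RR14_948
open Crest.Agent.R013.RR13_948
open Crest.Agent.R013.EE809 Crest.Agent.R013.HU6_522 Crest.Agent.R013.HU3_522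
open Crest.Agent.R013.HU1_522 Crest.Agent.R013.HU7_522 Crest.Agent.R013.PC_588
open Crest.Agent.R013.HU8_522 Crest.Agent.R013.HU4_522 Crest.Agent.R013.HU2_522
open Crest.Agent.R013.HU9_522 Crest.Agent.R013.HU10_522 Crest.Agent.R013.HU11_522
open Crest.Agent.R013.HU12_522 Crest.Agent.R013.HU13_522
open Crest.Agent.R013.SSK_332 Crest.Agent.R013.Red332
open Crest.Agent.R013.PicD_398 Crest.Agent.R013.Frob1_914

section Lin

variable {F : Type*} [NormedField F] [IsUltrametricDist F] [CharZero F] [CompleteSpace F]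
  {p : ℕ} [Fact p.Prime] {G : Type*} [CommGroup G] [Algebra ℤ_[p] F]

/-- `omega` as a `ℤ_p`-linear map -/
noncomputable def omL (hp : ‖(p : F)‖ < 1) (hZ : ∀ z : ℤ_[p], ‖algebraMap ℤ_[p] F z‖ ≤ 1)
    (φ : G →* U1 F) : PC p G →ₗ[ℤ_[p]] PowerSeries F where
  toFun u := Om φ u
  map_add' u v := Om_add hp φ u v
  map_smul' z u := by
    rw [Om_smul hp φ hZ]
    ext l
    rw [PowerSeries.coeff_smul, RingHom.id_apply, smul_eq_mul, PowerSeries.coeff_smul,
      Algebra.smul_def]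

end Lin

variable {C : Type*} [NormedField C] [IsUltrametricDist C] [IsAlgClosed C] [CharZero C]
  {K : Type*} [Field K] [Algebra C K] [Algebra (RatFunc C) K] [IsScalarTower C (RatFunc C) K]
  [FiniteDimensional (RatFunc C) K]
  {p : ℕ} [hpp : Fact p.Prime]

theorem const_div (c : Kˣ) (h : TP_928.dv C K (Additive.ofMul c) = 0) (n : ℕ) :
    ∃ b : Kˣ, b ^ p ^ n = c := by
  obtain ⟨a, ha0, ha⟩ := TP_928.exists_const_of_dv_eq_zero (NC2_522.algClosure_eq_bot) h
  obtain ⟨b, hb⟩ := IsAlgClosed.exists_pow_nat_eq a (n := p ^ n) (pow_pos hpp.out.pos n)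
  have hb0 : b ≠ 0 := by
    rintro rfl
    rw [zero_pow (pow_pos hpp.out.pos n).ne'] at hb
    exact ha0 hb.symm
  refine ⟨Units.mk0 (algebraMap C K b) ((map_ne_zero _).mpr hb0), ?_⟩
  ext
  rw [Units.val_pow_eq_pow_val, Units.val_mk0, ← map_pow, hb]
  exact ha.symm

variable (C K p) in
/-- 588's bridge for the class group of `K` -/
noncomputable def brP : TP_928.Tate p (Pic C K) →ₗ[ℤ_[p]] PC p Kˣ :=
  Bridge_588.bridge (TP_928.dv C K) (Prin C K) (TP_928.mem_Prin_iff C K) const_div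

theorem rep_brP_iff (u : TP_928.Tate p (Pic C K)) {n : ℕ} {g : Kˣ} :
    Rep (brP C K p u) n g ↔ TP_928.RepK p n (u n) (g : K) :=
  Bridge_588.rep_iff (TP_928.dv C K) (TP_928.mem_Prin_iff C K) const_div u

theorem divP_brP (u : TP_928.Tate p (Pic C K)) : DivP C (brP C K p u) := by
  intro n h hr P
  obtain ⟨x, -, hx⟩ := (rep_brP_iff u).mp hr
  have h1 : divf (k := C) (h : K) = p ^ n • x := hx
  rw [h1]
  exact ⟨x P, by simp⟩

theorem brP_injective : Function.Injective (brP C K p) :=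
  Bridge_588.bridge_injective (TP_928.dv C K) (TP_928.mem_Prin_iff C K) const_div

/-- equivariance of the bridge -/
theorem brP_gal {C' : Type*} [NormedField C'] [IsUltrametricDist C'] [IsAlgClosed C'] [CharZero C']
    {K' : Type*} [Field K'] [Algebra C' K'] [Algebra (RatFunc C') K'] [IsScalarTower C' (RatFunc C') K']
    [FiniteDimensional (RatFunc C') K'] (g : SI C K C' K') (u : TP_928.Tate p (Pic C K)) :
    brP C' K' p (TP_928.Tate.map (g.pic : Pic C K →+ Pic C' K') u) =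
      PC.map (Units.map (g.f : K →* K')) (brP C K p u) := by
  refine PC.eq_of_rep fun n => ?_
  obtain ⟨h, h0, hr⟩ := TP_928.exists_repK (p := p) u n
  have h1 : Rep (brP C K p u) n (Units.mk0 h h0) := (rep_brP_iff u).mpr hr
  refine ⟨Units.map (g.f : K →* K') (Units.mk0 h h0), ?_, h1.map _⟩
  rw [rep_brP_iff]
  obtain ⟨x, hx, hx'⟩ := hr
  refine ⟨g.D x, ?_, ?_⟩
  · rw [TP_928.Tate.map_apply, ← hx]
    rfl
  · show divf (k := C') (g.f h) = _
    rw [g.divf_f h0, hx', map_nsmul]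

section Main

variable {k : Type*} [NontriviallyNormedField k] [CompleteSpace k] [IsUltrametricDist k]
variable {C : Type*} [NormedField C] [IsUltrametricDist C] [NormedAlgebra k C] [CharZero C]
  [Algebra.IsAlgebraic k C] [IsAlgClosed C]
  {K : Type*} [Field K] [Algebra C K] [Algebra (RatFunc C) K] [IsScalarTower C (RatFunc C) K]
  [FiniteDimensional (RatFunc C) K]

theorem SSK_hc (S : SSK k C K) (d : S.Dir) (c : C) :
    S.em d (algebraMap C K c) = mono 0 c (EE809.finDef_const c) := by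
  ext n
  rw [S.em_C, co_mono]

theorem SSK_odE (S : SSK k C K) (hk : DiscNorm k) (d : S.Dir) (z : Kˣ) :
    Multiplicative.toAdd (odE (S.em d) hk z) = TP_928.ord S d (z : K) := by
  rw [odE_apply, S.em_od d z z.ne_zero]
  rfl

/-- small logarithmic derivatives at one end give zero slopes for every semistable structure -/
theorem sl_eq_zero_of_small (hk : DiscNorm k) (hp : ‖(p : C)‖ < 1) (S : SSK k C K)
    {em : K →+* EE k C} (hc : ∀ c : C, em (algebraMap C K c) = mono 0 c (EE809.finDef_const c))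
    {u : TP_928.Tate p (Pic C K)} (h : Small em (brP C K p u)) : TP_928.sl S p u = 0 := by
  rw [TP_928.sl_eq_zero_iff]
  intro n f hf0 hf e
  have h1 : Small (S.em (S.e0 e)) (brP C K p u) :=
    Small.transfer hk (S.em (S.e0 e)) hc (SSK_hc S _) (divP_brP u) h
  have h2 := Small.slope hk (S.em (S.e0 e)) hp h1
  rw [PC.toPadic_eq_zero_iff] at h2
  have h3 := h2 n (Units.mk0 f hf0) ((rep_brP_iff u).mpr hf)
  rw [SSK_odE] at h3
  exact_mod_cast h3

variable (hk : DiscNorm k) (em : K →+* EE k C)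
  (hc : ∀ c : C, em (algebraMap C K c) = mono 0 c (EE809.finDef_const c))
  (hι : ∀ z, ∃ a b : BD k C, b ≠ 0 ∧ em z * bdE b = bdE a)
  {F : Type*} [NormedField F] [IsUltrametricDist F] [CharZero F] [CompleteSpace F]
  (σ : C →+* F) (hσ : ∀ a, ‖σ a‖ = ‖a‖) [Algebra ℤ_[p] F]
  (hpF : ‖(p : F)‖ < 1) (hZ : ∀ z : ℤ_[p], ‖algebraMap ℤ_[p] F z‖ ≤ 1)

/-- **`omega` on the Tate module** of the class group, for a disc end `em` -/
noncomputable def omT : TP_928.Tate p (Pic C K) →ₗ[ℤ_[p]] PowerSeries F :=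
  (omL hpF hZ (nuF hk em hι σ hσ)).comp (brP C K p)

theorem omT_apply (u : TP_928.Tate p (Pic C K)) :
    omT hk em hι σ hσ hpF hZ u = OmE hk em hι σ hσ (brP C K p u) := rfl

include hc in
theorem omT_eq_zero_iff {em' : K →+* EE k C}
    (hc' : ∀ c : C, em' (algebraMap C K c) = mono 0 c (EE809.finDef_const c))
    (u : TP_928.Tate p (Pic C K)) :
    omT hk em hι σ hσ hpF hZ u = 0 ↔ Small em' (brP C K p u) := by
  have hp : ‖(p : C)‖ < 1 := by rw [← norm_p_F σ hσ]; exact hpF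
  rw [omT_apply, omE_eq_zero_iff hk em hc hι σ hσ hp (divP_brP u)]
  exact ⟨fun h => Small.transfer hk em' hc hc' (divP_brP u) h,
    fun h => Small.transfer hk em hc' hc (divP_brP u) h⟩

include hc in
/-- **928's `OmInj`** -/
theorem omT_inj (S : SSK k C K) (u : TP_928.Tate p (Pic C K))
    (h : omT hk em hι σ hσ hpF hZ u = 0) : TP_928.sl S p u = 0 := by
  have hp : ‖(p : C)‖ < 1 := by rw [← norm_p_F σ hσ]; exact hpF
  exact sl_eq_zero_of_small hk hp S hc ((omT_eq_zero_iff hk em hc hι σ hσ hpF hZ hc u).mp h)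

include hc in
/-- **input for 928's `OmZero`**: it suffices to bound the logarithmic derivatives at one direction
of a semistable structure -/
theorem omT_zero (S : SSK k C K) (d : S.Dir) (u : TP_928.Tate p (Pic C K))
    (h : ∃ M : ℝ, ∀ n, ∃ f : K, f ≠ 0 ∧ TP_928.RepK p n (u n) f ∧
      gn (th (S.em d f) * S.em d f⁻¹) ≤ M * ‖(p : C)‖ ^ n) :
    omT hk em hι σ hσ hpF hZ u = 0 := by
  rw [omT_eq_zero_iff hk em hc hι σ hσ hpF hZ (SSK_hc S d)]
  obtain ⟨M, hM⟩ := h
  refine small_of_exists hk _ ⟨M, fun n => ?_⟩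
  obtain ⟨f, hf0, hf, hb⟩ := hM n
  exact ⟨Units.mk0 f hf0, (rep_brP_iff u).mpr hf, hb⟩

include hc in
/-- the same with the norm `nm v` of a vertex: `nm v (del f / f) ≤ M |p|^n` -/
theorem omT_zero' (S : SSK k C K) (d : S.Dir) (u : TP_928.Tate p (Pic C K))
    (h : ∃ M : ℝ, ∀ n, ∃ f : K, f ≠ 0 ∧ TP_928.RepK p n (u n) f ∧
      ((S.nm d.1).v (del C K f / f) : ℝ) ≤ M * ‖(p : C)‖ ^ n) :
    omT hk em hι σ hσ hpF hZ u = 0 := by
  obtain ⟨M, hM⟩ := h
  refine omT_zero hk em hc hι σ hσ hpF hZ S d u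
    ⟨M * gn (th (S.em d (xK C K))), fun n => ?_⟩
  obtain ⟨f, hf0, hf, hb⟩ := hM n
  refine ⟨f, hf0, hf, ?_⟩
  rw [dlog_em (S.em d) (SSK_hc S d), gn_mul hk, S.em_gn]
  calc ((S.nm d.1).v (del C K f / f) : ℝ) * gn (th (S.em d (xK C K)))
      ≤ M * ‖(p : C)‖ ^ n * gn (th (S.em d (xK C K))) :=
        mul_le_mul_of_nonneg_right hb (gn_nonneg _)
    _ = M * gn (th (S.em d (xK C K))) * ‖(p : C)‖ ^ n := by ring

variable (τF : F →+* F) (hτF : ∀ a, ‖τF a‖ = ‖a‖)

include hτF in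
/-- **equivariance** (928's `om_gal`) -/
theorem omT_gal (g : SI C K C K) (τ : C →ₐ[k] C) (hτ : ∀ a, ‖τ a‖ = ‖a‖)
    (hem : ∀ z : K, em (g.f z) = EEmap τ hτ (em z)) (hτσ : ∀ a, τF (σ a) = σ (τ a))
    (u : TP_928.Tate p (Pic C K)) :
    omT hk em hι σ hσ hpF hZ (TP_928.Tate.map (g.pic : Pic C K →+ Pic C K) u) =
      PowerSeries.map τF (omT hk em hι σ hσ hpF hZ u) := by
  have hp : ‖(p : C)‖ < 1 := by rw [← norm_p_F σ hσ]; exact hpF
  rw [omT_apply, omT_apply, brP_gal]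
  exact OmE_map hk τ hτ em em hι hι (Units.map (g.f : K →* K)) (fun z => hem z) σ hσ τF hτF hτσ hp _

end Main

end Crest.Agent.R013.HU14_522
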