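import Mathlib
import Crest.Agent.R013.HU14_522

/-!
# R013 / HU15: the form of `iota h_n = H_u g^(p^n)` inside the ring of bounded series (helper522)
-/

set_option autoImplicit false
set_option linter.all false
open Filter Topology
open scoped NNReal
open Crest.Agent.R013.Cell_408

namespace Crest.Agent.R013.HU15_522

open Crest.Agent.R013.RR7_948 Crest.Agent.R013.RR8_948 Crest.Agent.R013.RR11_948
open Crest.Agent.R013.EE809 Crest.Agent.R013.HU6_522 Crest.Agent.R013.HU3_522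
open Crest.Agent.R013.HU1_522 Crest.Agent.R013.HU7_522 Crest.Agent.R013.PC_588
open Crest.Agent.R013.HU8_522 Crest.Agent.R013.HU4_522 Crest.Agent.R013.HU2_522
open Crest.Agent.R013.HU9_522 Crest.Agent.R013.HU10_522 Crest.Agent.R013.HU12_522
open Crest.Agent.R013.HU13_522 Crest.Agent.R013.HU14_522
open Crest.Agent.R013.KAS3_940 Crest.Agent.R013.PicD_398

variable {k : Type*} [NontriviallyNormedField k] [CompleteSpace k] [IsUltrametricDist k]
variable {C : Type*} [NormedField C] [IsUltrametricDist C] [NormedAlgebra k C] [CharZero C]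
  [Algebra.IsAlgebraic k C] [IsAlgClosed C]
  {K : Type*} [Field K] [Algebra C K] [Algebra (RatFunc C) K] [IsScalarTower C (RatFunc C) K]
  [FiniteDimensional (RatFunc C) K]
  (hk : DiscNorm k) (em : K →+* EE k C)
  (hc : ∀ c : C, em (algebraMap C K c) = mono 0 c (EE809.finDef_const c))
  (hι : ∀ z, ∃ a b : BD k C, b ≠ 0 ∧ em z * bdE b = bdE a)
  {F : Type*} [NontriviallyNormedField F] [IsUltrametricDist F] [CharZero F] [CompleteSpace F]
  (σ : C →+* F) (hσ : ∀ a, ‖σ a‖ = ‖a‖)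
  {p : ℕ} [Fact p.Prime] (hp : ‖(p : C)‖ < 1)

/-- an element of `U1 F` in the ring of bounded series -/
noncomputable def uB (u : U1 F) : bsub (K := F) 1 one_pos :=
  ⟨((u : (PowerSeries F)ˣ) : PowerSeries F), ⟨1, int1_iff.mp (U1.int u)⟩⟩

include hc hp in
/-- `em z = a / b` on the disc and `z` represents `u` modulo `p^n`-th powers:
`a * β ^ p^n = H_u * b * α ^ p^n` in the ring of bounded series over `F` -/
theorem rep_bsub {u : PC p Kˣ} (hu : DivP C u) {n : ℕ} {z : Kˣ} (hz : Rep u n z)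
    {a b : BD k C} (hb : b ≠ 0) (hab : em z * bdE b = bdE a) :
    ∃ α β : bsub (K := F) 1 one_pos, α ≠ 0 ∧ β ≠ 0 ∧
      bdMap σ hσ a * β ^ (p ^ n) = uB (HuE hk em hι σ hσ u) * bdMap σ hσ b * α ^ (p ^ n) := by
  obtain ⟨g, hg0, hg⟩ := iF_eq σ hσ hk em hι hc hp hu hz
  have h1 := iF_spec σ hσ em hι hb hab
  obtain ⟨α, β, hβ, hαβ⟩ := IsFractionRing.div_surjective (A := bsub (K := F) 1 one_pos) g
  have hβ0 : β ≠ 0 := nonZeroDivisors.ne_zero hβ
  have hβ' : algebraMap (bsub (K := F) 1 one_pos) (Good3_940.FDisc F 1 one_pos) β ≠ 0 := by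
    rw [ne_eq, FaithfulSMul.algebraMap_eq_zero_iff]; exact hβ0
  refine ⟨α, β, ?_, hβ0, ?_⟩
  · rintro rfl
    rw [map_zero, zero_div] at hαβ
    exact hg0 hαβ.symm
  · apply IsFractionRing.injective (bsub (K := F) 1 one_pos) (Good3_940.FDisc F 1 one_pos)
    rw [map_mul, map_mul, map_mul, map_pow, map_pow]
    have h2 : psi σ hσ a = algebraMap (bsub (K := F) 1 one_pos) (Good3_940.FDisc F 1 one_pos)
        (bdMap σ hσ a) := rfl
    have h3 : psi σ hσ b = algebraMap (bsub (K := F) 1 one_pos) (Good3_940.FDisc F 1 one_pos)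
        (bdMap σ hσ b) := rfl
    have h4 : uF (HuE hk em hι σ hσ u) =
        algebraMap (bsub (K := F) 1 one_pos) (Good3_940.FDisc F 1 one_pos)
          (uB (HuE hk em hι σ hσ u)) := rfl
    rw [← h2, ← h3, ← h4, ← h1, hg, ← hαβ, div_pow]
    field_simp

include hc hp in
/-- the same for a vector of the Tate module -/
theorem rep_tate (u : TP_928.Tate p (Pic C K)) {n : ℕ} {z : K} (hz0 : z ≠ 0)
    (hz : TP_928.RepK p n (u n) z)
    {a b : BD k C} (hb : b ≠ 0) (hab : em z * bdE b = bdE a) :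
    ∃ α β : bsub (K := F) 1 one_pos, α ≠ 0 ∧ β ≠ 0 ∧
      bdMap σ hσ a * β ^ (p ^ n) =
        uB (HuE hk em hι σ hσ (brP C K p u)) * bdMap σ hσ b * α ^ (p ^ n) :=
  rep_bsub hk em hc hι σ hσ hp (divP_brP u) (z := Units.mk0 z hz0) ((rep_brP_iff u).mpr hz) hb hab

end Crest.Agent.R013.HU15_522
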