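import Mathlib
import Crest.Agent.R013.HWP7_676
import Crest.Agent.R013.Eps3_184

/-!
# R013 / HWP8: the perfect Weil pairing plugged into helper184's D-EPS (helper676)
-/

set_option autoImplicit false
set_option linter.all false
namespace Crest.Agent.R013.HWP8_676
open WithZero Module
open Crest.Agent.R013.RR7_948 Crest.Agent.R013.RR8_948 Crest.Agent.R013.RR9_948
open Crest.Agent.R013.RR11_948 Crest.Agent.R013.PicD_398
open Crest.Agent.R013.CE5_280 Crest.Agent.R013.Frob1_914 Crest.Agent.R013.Eps1_184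
open Crest.Agent.R013.Eps2_184 Crest.Agent.R013.Desc_372 Crest.Agent.R013.DescP_429

universe u v

section wp

variable {F : Type u} [Field F] [IsAlgClosed F] [CharZero F] {K : Type v} [Field K] [Algebra F K]
  [Algebra (RatFunc F) K] [IsScalarTower F (RatFunc F) K] [FiniteDimensional (RatFunc F) K]
  [Algebra.IsSeparable (RatFunc F) K]

/-- the Weil pairing is a perfect pairing in the sense of D-EPS -/
theorem isWP {N : ℕ} (hN : N ≠ 0) : IsWP N (HWP_676.wp (k := F) (K := K) N) :=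
  Eps3_184.isWP_of_perf hN fun χ h => HWP_676.wp_perfect hN χ h

end wp

section main

variable {k C K₀ K : Type*} [Field k] [Field C] [Field K₀] [Field K]
  [Algebra k C] [Algebra k K₀] [Algebra C K] [Algebra K₀ K] [Algebra k K] [IsScalarTower k C K]
  [IsScalarTower k K₀ K]
  [h : CE k C K₀ K] [IsGalois k C] [IsAlgClosed C] [CharZero k]
  [Algebra (RatFunc k) K₀] [IsScalarTower k (RatFunc k) K₀] [FiniteDimensional (RatFunc k) K₀]
  [Algebra (RatFunc C) K] [IsScalarTower C (RatFunc C) K] [FiniteDimensional (RatFunc C) K]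
  [Algebra.IsSeparable (RatFunc C) K] [Algebra.IsAlgebraic K₀ K]

/-- **D-EPS, unconditional**: a degree zero divisor over `k` whose values `h(δ₀)` have distinguished
`N`-th roots is divisible by `N` in `Pic` over `k` -/
theorem exists_div (hc : algebraicClosure k K₀ = ⊥) (P₀ : Pl k K₀) (hP₀ : degP P₀ = 1)
    {N : ℕ} {V : Set (Pl C K)} {t : K}
    (δ₀ : Pl k K₀ →₀ ℤ) {U : Subgroup Cˣ} (d : Dat N V t (conC hc δ₀) U)
    (hV : ∀ (s : K ≃ₐ[K₀] K), ∀ P ∈ V, comapPl k C s P ∈ V)
    (hU : ∀ s : C ≃ₐ[k] C, ∀ u ∈ U, Units.map (s : C →* C) u ∈ U) :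
    ∃ (D : Pl k K₀ →₀ ℤ) (f₀ : K₀), f₀ ≠ 0 ∧ δ₀ = N • D + divf (k := k) f₀ := by
  haveI : CharZero C := charZero_of_injective_algebraMap (algebraMap k C).injective
  obtain ⟨E, f, hf, -, hE⟩ := Div6_280.exists_div d.pos d.deg
  exact Eps3_184.exists_div hc P₀ hP₀ (isWP d.pos.ne') δ₀ d hV hU hf hE

end main

end Crest.Agent.R013.HWP8_676
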