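import Crest.Agent.R013.Annu6_930

/-!
# Half annuli, part 1: the ring `A + {∑ b_n t^n, |b_n| s^n → 0}`

`A` a closed subalgebra of `E`, `t : E` of norm one with
`t a = a' + c t`, `a' ∈ A`, `c ∈ k`, `‖a'‖, ‖c‖ ≤ ‖a‖` for `a ∈ A`.
For `(A, t) = (AU, y)`: functions on `1 ≤ |y| ≤ s`; for `(A, t) = (AP, 1/y)`: functions on
`1/s ≤ |y| < 1` (with the boundary behaviour of `AP` at `|y| = 1`).
-/

set_option autoImplicit false
set_option linter.unusedSectionVars false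

namespace Crest.Agent.R013.Half_930

open Filter Topology Polynomial Crest.Agent.R013.Gl946 Crest.Agent.R013.Annu_930
open scoped NNReal

variable {k E : Type*} [NormedField k] [NormedField E] [NormedAlgebra k E]

/-- The condition on `(A, t)`. -/
def Step (A : Subalgebra k E) (t : E) : Prop :=
  ∀ a ∈ A, ∃ c : k, ∃ a' ∈ A, t * a = a' + c • t ∧ ‖c‖ ≤ ‖a‖ ∧ ‖a'‖ ≤ ‖a‖

/-- Elements `a + q(t)`, `‖a‖ ≤ D`, `‖q_n‖ ≤ D s^(-n)`. -/
def GG (A : Subalgebra k E) (t : E) (s D : ℝ≥0) : AddSubgroup E :=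
  AddSubgroup.closure ({x | x ∈ A ∧ ‖x‖₊ ≤ D} ∪ {x | ∃ (n : ℕ) (c : k), ‖c‖₊ * s ^ n ≤ D ∧
    x = c • t ^ n})

section GG

variable {A : Subalgebra k E} {t : E} {s D D' : ℝ≥0}

theorem mem_GG_of_mem {x : E} (hx : x ∈ A) (h : ‖x‖₊ ≤ D) : x ∈ GG A t s D :=
  AddSubgroup.subset_closure (Or.inl ⟨hx, h⟩)

theorem smul_pow_mem_GG {c : k} {n : ℕ} (h : ‖c‖₊ * s ^ n ≤ D) : c • t ^ n ∈ GG A t s D :=
  AddSubgroup.subset_closure (Or.inr ⟨n, c, h, rfl⟩)

theorem GG_mono (h : D ≤ D') : GG A t s D ≤ GG A t s D' := by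
  refine AddSubgroup.closure_mono ?_
  rintro x (⟨h1, h2⟩ | ⟨n, c, h1, h2⟩)
  · exact Or.inl ⟨h1, h2.trans h⟩
  · exact Or.inr ⟨n, c, h1.trans h, h2⟩

theorem aeval_mem_GG {q : k[X]} (h : ∀ n, ‖q.coeff n‖₊ * s ^ n ≤ D) : aeval t q ∈ GG A t s D := by
  rw [aeval_eq_sum_range]
  exact AddSubgroup.sum_mem _ fun n _ => smul_pow_mem_GG (h n)

/-- induction on generators -/
theorem GG_induction {P : E → Prop} (hA : ∀ x ∈ A, ‖x‖₊ ≤ D → P x)
    (hT : ∀ (n : ℕ) (c : k), ‖c‖₊ * s ^ n ≤ D → P (c • t ^ n)) (h0 : P 0)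
    (hadd : ∀ x y, P x → P y → P (x + y)) (hneg : ∀ x, P x → P (-x)) {x : E}
    (hx : x ∈ GG A t s D) : P x := by
  refine AddSubgroup.closure_induction ?_ h0 (fun x y _ _ h1 h2 => hadd x y h1 h2)
    (fun x _ h => hneg x h) hx
  rintro x (⟨h1, h2⟩ | ⟨n, c, h1, rfl⟩)
  · exact hA x h1 h2
  · exact hT n c h1

theorem pow_mul_mem (hst : Step A t) (hs : 1 ≤ s) (n : ℕ) : ∀ a ∈ A, ∀ c : k,
    c • t ^ n * a ∈ GG A t s (‖c‖₊ * s ^ n * ‖a‖₊) := by
  induction n with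
  | zero =>
    intro a ha c
    refine mem_GG_of_mem ?_ ?_
    · rw [pow_zero, smul_mul_assoc, one_mul]; exact A.smul_mem ha c
    · rw [pow_zero, pow_zero, smul_mul_assoc, one_mul, mul_one, nnnorm_smul]
  | succ n ih =>
    intro a ha c
    obtain ⟨d, a', ha', e, hd, hn⟩ := hst a ha
    have hd' : ‖d‖₊ ≤ ‖a‖₊ := hd
    have hn' : ‖a'‖₊ ≤ ‖a‖₊ := hn
    have e2 : c • t ^ (n + 1) * a = c • t ^ n * a' + (c * d) • t ^ (n + 1) := by
      rw [pow_succ, smul_mul_assoc, mul_assoc, e, mul_add, smul_add, smul_mul_assoc]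
      congr 1
      rw [mul_smul, mul_smul_comm]
    rw [e2]
    refine add_mem (GG_mono ?_ (ih a' ha' c)) (smul_pow_mem_GG ?_)
    · refine mul_le_mul' (mul_le_mul_right ?_ _) hn'
      exact pow_le_pow_right₀ hs (Nat.le_succ n)
    · rw [nnnorm_mul]
      calc ‖c‖₊ * ‖d‖₊ * s ^ (n + 1) ≤ ‖c‖₊ * ‖a‖₊ * s ^ (n + 1) :=
            mul_le_mul_left (mul_le_mul_right hd' _) _
        _ = _ := by ring

theorem mul_mem_GG (hst : Step A t) (hs : 1 ≤ s) {x x' : E} (hx : x ∈ GG A t s D)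
    (hx' : x' ∈ GG A t s D') : x * x' ∈ GG A t s (D * D') := by
  refine GG_induction (P := fun x => x * x' ∈ GG A t s (D * D')) ?_ ?_ ?_ ?_ ?_ hx
  · intro a ha haD
    refine GG_induction (P := fun x' => a * x' ∈ GG A t s (D * D')) ?_ ?_ ?_ ?_ ?_ hx'
    · intro a' ha' haD'
      exact mem_GG_of_mem (mul_mem ha ha') ((nnnorm_mul _ _).le.trans (mul_le_mul' haD haD'))
    · intro n c hc
      rw [mul_comm a]
      refine GG_mono ?_ (pow_mul_mem hst hs n a ha c)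
      rw [mul_comm D]
      exact mul_le_mul' hc haD
    · rw [mul_zero]; exact zero_mem _
    · intro u v hu hv; rw [mul_add]; exact add_mem hu hv
    · intro u hu; rw [mul_neg]; exact neg_mem hu
  · intro n c hc
    refine GG_induction (P := fun x' => c • t ^ n * x' ∈ GG A t s (D * D')) ?_ ?_ ?_ ?_ ?_ hx'
    · intro a' ha' haD'
      exact GG_mono (mul_le_mul' hc haD') (pow_mul_mem hst hs n a' ha' c)
    · intro m d hd
      rw [smul_mul_smul_comm, ← pow_add]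
      refine smul_pow_mem_GG ?_
      rw [nnnorm_mul, pow_add]
      calc ‖c‖₊ * ‖d‖₊ * (s ^ n * s ^ m) = (‖c‖₊ * s ^ n) * (‖d‖₊ * s ^ m) := by ring
        _ ≤ D * D' := mul_le_mul' hc hd
    · rw [mul_zero]; exact zero_mem _
    · intro u v hu hv; rw [mul_add]; exact add_mem hu hv
    · intro u hu; rw [mul_neg]; exact neg_mem hu
  · simp only [zero_mul]; exact zero_mem _
  · intro u v hu hv; simp only [add_mul]; exact add_mem hu hv
  · intro u hu; simp only [neg_mul]; exact neg_mem hu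

variable [IsUltrametricDist E]

theorem norm_le_of_mem_GG (ht : ‖t‖ = 1) (hs : 1 ≤ s) {x : E} (hx : x ∈ GG A t s D) :
    ‖x‖ ≤ D := by
  refine GG_induction (P := fun x => ‖x‖ ≤ D) ?_ ?_ ?_ ?_ ?_ hx
  · intro a _ h; exact_mod_cast h
  · intro n c hc
    rw [norm_smul, norm_pow, ht, one_pow, mul_one]
    have : ‖c‖₊ ≤ D := by
      refine le_trans ?_ hc
      calc ‖c‖₊ = ‖c‖₊ * 1 := (mul_one _).symm
        _ ≤ _ := mul_le_mul_right (one_le_pow₀ hs) _
    exact_mod_cast this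
  · rw [norm_zero]; exact D.2
  · intro u v hu hv; exact (nadd u v).trans (max_le hu hv)
  · intro u hu; rw [norm_neg]; exact hu

/-- Representation of elements of `GG`. -/
theorem exists_of_mem_GG {x : E} (hx : x ∈ GG A t s D) :
    ∃ a ∈ A, ∃ q : k[X], x = a + aeval t q ∧ ‖a‖₊ ≤ D ∧ ∀ n, ‖q.coeff n‖₊ * s ^ n ≤ D := by
  refine GG_induction (P := fun x => ∃ a ∈ A, ∃ q : k[X], x = a + aeval t q ∧ ‖a‖₊ ≤ D ∧
    ∀ n, ‖q.coeff n‖₊ * s ^ n ≤ D) ?_ ?_ ?_ ?_ ?_ hx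
  · intro a ha h; exact ⟨a, ha, 0, by simp, h, by simp⟩
  · intro n c hc
    refine ⟨0, zero_mem _, monomial n c, by rw [aeval_monomial, Algebra.smul_def, zero_add],
      by simp, fun m => ?_⟩
    rw [coeff_monomial]
    split_ifs with h
    · rw [← h]; exact hc
    · simp
  · exact ⟨0, zero_mem _, 0, by simp, by simp, by simp⟩
  · rintro _ _ ⟨a, ha, q, rfl, h1, h2⟩ ⟨a', ha', q', rfl, h1', h2'⟩
    refine ⟨a + a', add_mem ha ha', q + q', by rw [map_add]; ring, ?_, fun n => ?_⟩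
    · exact (nnadd_k' a a').trans (max_le h1 h1')
    · rw [coeff_add]
      calc _ ≤ max ‖q.coeff n‖₊ ‖q'.coeff n‖₊ * s ^ n := mul_le_mul_left (nnadd_k E _ _) _
        _ ≤ D := by
          rcases max_choice ‖q.coeff n‖₊ ‖q'.coeff n‖₊ with h | h <;> rw [h]
          · exact h2 n
          · exact h2' n
  · rintro _ ⟨a, ha, q, rfl, h1, h2⟩
    exact ⟨-a, neg_mem ha, -q, by rw [map_neg]; ring, by rwa [nnnorm_neg], fun n => by
      rw [coeff_neg, nnnorm_neg]; exact h2 n⟩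
where
  nnadd_k' (a b : E) : ‖a + b‖₊ ≤ max ‖a‖₊ ‖b‖₊ := by
    have := nadd a b
    exact_mod_cast this

end GG

/-! ### The ring -/

/-- being a sum of a geometric series of elements of `GG` -/
def IsH (A : Subalgebra k E) (t : E) (s : ℝ≥0) (x : E) : Prop :=
  ∃ (C θ : ℝ≥0) (X : ℕ → E), θ < 1 ∧ (∀ i, X i ∈ GG A t s (C * θ ^ i)) ∧ HasSum X x

section H

variable [IsUltrametricDist E] {A : Subalgebra k E} {t : E} {s : ℝ≥0}

theorem IsH.of_mem {x : E} (hx : x ∈ A) : IsH A t s x := by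
  classical
  refine ⟨‖x‖₊, 0, fun i => if i = 0 then x else 0, zero_lt_one, fun i => ?_, hasSum_ite_eq 0 x⟩
  dsimp only
  split_ifs with h
  · rw [h, pow_zero, mul_one]; exact mem_GG_of_mem hx le_rfl
  · exact zero_mem _

theorem IsH.of_mem_GG {D : ℝ≥0} {x : E} (hx : x ∈ GG A t s D) : IsH A t s x := by
  classical
  refine ⟨D, 0, fun i => if i = 0 then x else 0, zero_lt_one, fun i => ?_, hasSum_ite_eq 0 x⟩
  dsimp only
  split_ifs with h
  · rw [h, pow_zero, mul_one]; exact hx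
  · exact zero_mem _

theorem IsH.smul_pow (c : k) (n : ℕ) : IsH A t s (c • t ^ n) :=
  IsH.of_mem_GG (D := ‖c‖₊ * s ^ n) (smul_pow_mem_GG le_rfl)

theorem IsH.add {x x' : E} (hx : IsH A t s x) (hx' : IsH A t s x') : IsH A t s (x + x') := by
  obtain ⟨C, θ, X, h1, h2, h3⟩ := hx
  obtain ⟨C', θ', X', h1', h2', h3'⟩ := hx'
  refine ⟨max C C', max θ θ', fun i => X i + X' i, max_lt h1 h1', fun i => ?_, h3.add h3'⟩
  exact add_mem (GG_mono (mul_le_mul' (le_max_left _ _) (pow_le_pow_left₀ zero_le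
    (le_max_left _ _) i)) (h2 i)) (GG_mono (mul_le_mul' (le_max_right _ _)
    (pow_le_pow_left₀ zero_le (le_max_right _ _) i)) (h2' i))

theorem IsH.mul [CompleteSpace E] (hst : Step A t) (ht : ‖t‖ = 1) (hs : 1 ≤ s) {x x' : E}
    (hx : IsH A t s x) (hx' : IsH A t s x') : IsH A t s (x * x') := by
  obtain ⟨C, θ, X, h1, h2, h3⟩ := hx
  obtain ⟨C', θ', X', h1', h2', h3'⟩ := hx'
  set Θ := max θ θ' with hΘ
  have hΘ1 : Θ < 1 := max_lt h1 h1'
  have hn : ∀ (C θ : ℝ≥0) (X : ℕ → E), θ < 1 → (∀ i, X i ∈ GG A t s (C * θ ^ i)) →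
      Summable fun i => ‖X i‖ := by
    intro C θ X h1 h2
    refine Summable.of_nonneg_of_le (fun _ => norm_nonneg _)
      (fun i => norm_le_of_mem_GG ht hs (h2 i)) ?_
    have h1' : (θ : ℝ) < 1 := by exact_mod_cast h1
    have := (summable_geometric_of_lt_one θ.2 h1').mul_left (C : ℝ)
    simpa using this
  have hs1 := hn C θ X h1 h2
  have hs2 := hn C' θ' X' h1' h2'
  refine ⟨C * C', Θ, fun n => ∑ kl ∈ Finset.HasAntidiagonal.antidiagonal n, X kl.1 * X' kl.2, hΘ1, fun n => ?_, ?_⟩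
  · refine AddSubgroup.sum_mem _ fun kl hkl => ?_
    rw [Finset.HasAntidiagonal.mem_antidiagonal] at hkl
    refine GG_mono ?_ (mul_mem_GG hst hs (h2 kl.1) (h2' kl.2))
    calc C * θ ^ kl.1 * (C' * θ' ^ kl.2) ≤ C * Θ ^ kl.1 * (C' * Θ ^ kl.2) :=
          mul_le_mul' (mul_le_mul_right (pow_le_pow_left₀ zero_le (le_max_left _ _) _) _)
            (mul_le_mul_right (pow_le_pow_left₀ zero_le (le_max_right _ _) _) _)
      _ = C * C' * Θ ^ n := by rw [← hkl, pow_add]; ring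
  · have e := tsum_mul_tsum_eq_tsum_sum_antidiagonal_of_summable_norm hs1 hs2
    rw [h3.tsum_eq, h3'.tsum_eq] at e
    rw [e]
    exact (summable_norm_sum_mul_antidiagonal_of_summable_norm hs1 hs2).of_norm.hasSum

/-- The ring `A + {∑ b_n t^n : |b_n| s^n → 0}`. -/
def HH [CompleteSpace E] (hst : Step A t) (ht : ‖t‖ = 1) (hs : 1 ≤ s) : Subalgebra k E where
  carrier := {x | IsH A t s x}
  mul_mem' := fun hx hx' => IsH.mul hst ht hs hx hx'
  add_mem' := fun hx hx' => IsH.add hx hx'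
  algebraMap_mem' := fun c => IsH.of_mem (A.algebraMap_mem c)

theorem le_HH [CompleteSpace E] (hst : Step A t) (ht : ‖t‖ = 1) (hs : 1 ≤ s) :
    A ≤ HH hst ht hs := fun _ hx => IsH.of_mem hx

theorem pow_mem_HH [CompleteSpace E] (hst : Step A t) (ht : ‖t‖ = 1) (hs : 1 ≤ s) (n : ℕ) :
    t ^ n ∈ HH hst ht hs := by
  have := IsH.smul_pow (A := A) (t := t) (s := s) (1 : k) n
  rwa [one_smul] at this

/-- Decomposition of an element of `HH`. -/
theorem exists_add [CompleteSpace E] (hA : IsClosed (A : Set E)) (hG : IsGauss k t) (hs : 1 < s)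
    {x : E} (hx : IsH A t s x) : ∃ a ∈ A, ∃ v ∈ AN hG hs, x = a + v ∧
      v ∈ closure ((aeval t : k[X] →ₐ[k] E).range : Set E) := by
  obtain ⟨C, θ, X, h1, h2, h3⟩ := hx
  choose a ha q hq haD hqD using fun i => exists_of_mem_GG (h2 i)
  have h1' : (θ : ℝ) < 1 := by exact_mod_cast h1
  have hgeo : Summable fun i => ((C * θ ^ i : ℝ≥0) : ℝ) := by
    have := (summable_geometric_of_lt_one θ.2 h1').mul_left (C : ℝ)
    simpa using this
  have hsa : Summable a := Summable.of_norm_bounded hgeo fun i => by exact_mod_cast haD i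
  have hB : ∀ i, (aeval t (q i) : E) ∈ B k t s (θ ^ i * C) (θ ^ i * C) := by
    intro i
    rw [aeval_eq_sum_range]
    refine AddSubgroup.sum_mem _ fun n _ => ?_
    rw [← zpow_natCast t n]
    have hsp : 0 < s := zero_lt_one.trans hs
    have h4 : ‖(q i).coeff n‖₊ ≤ θ ^ i * C * s ^ (-(n : ℤ)) := by
      rw [zpow_neg, zpow_natCast, ← div_eq_mul_inv, le_div_iff₀ (pow_pos hsp _), mul_comm (θ ^ i)]
      exact hqD i n
    exact smul_mem_Box (k := k) (y := t) (b := w s (θ ^ i * C) (θ ^ i * C))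
      (le_min h4 (h4.trans (mul_le_mul_right (zpow_le_zpow_right₀ hs.le (by omega)) _)))
  obtain ⟨v, hv, hsum, -⟩ := hasSum_mem_AN hG hs h1 hB fun i => aeval_mem_AN hG hs (q i)
  refine ⟨∑' i, a i, ?_, v, hv, ?_, ?_⟩
  · exact hA.mem_of_tendsto hsa.hasSum.tendsto_sum_nat
      (Eventually.of_forall fun n => sum_mem fun i _ => ha i)
  · have h5 := hsa.hasSum.add hsum
    have h6 : (fun i => a i + aeval t (q i)) = X := funext fun i => (hq i).symm
    rw [h6] at h5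
    exact h3.unique h5
  · refine mem_closure_of_tendsto hsum.tendsto_sum_nat (Eventually.of_forall fun n => ?_)
    exact (aeval t : k[X] →ₐ[k] E).range.sum_mem fun i _ => ⟨q i, rfl⟩

/-- Convergent series with monomials of geometric growth. -/
theorem IsH.of_series (b : ℕ → k) {R C : ℝ≥0} (hs : 0 < s) (hR : s < R)
    (hb : ∀ n, ‖b n‖₊ * R ^ n ≤ C) {x : E} (hx : HasSum (fun n => b n • t ^ n) x) :
    IsH A t s x := by
  have hRp : 0 < R := hs.trans hR
  refine ⟨C, s / R, fun n => b n • t ^ n, by rwa [div_lt_one hRp], fun n => ?_, hx⟩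
  refine smul_pow_mem_GG ?_
  rw [div_pow]
  have : ‖b n‖₊ ≤ C / R ^ n := by rw [le_div_iff₀ (pow_pos hRp _)]; exact hb n
  calc ‖b n‖₊ * s ^ n ≤ C / R ^ n * s ^ n := mul_le_mul_left this _
    _ = C * (s ^ n / R ^ n) := by ring

end H

end Crest.Agent.R013.Half_930
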