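import Crest.Agent.R013.Half1_930

/-!
# Half annuli, part 2: the rings `Ap ≥ RU`, `Am ≥ FP` with `Ap ⊓ Am = MN`
-/

set_option autoImplicit false
set_option linter.unusedSectionVars false

namespace Crest.Agent.R013.Half_930

open Filter Topology Polynomial Crest.Agent.R013.Gl946 Crest.Agent.R013.Annu_930
open scoped NNReal

variable {k E : Type*} [NormedField k] [NormedField E] [NormedAlgebra k E] [IsUltrametricDist E]
  {y : E}

theorem yinv_mem_AU : y⁻¹ ∈ AU k y := by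
  have := aeval_inv_mem_AU (k := k) y X
  rwa [aeval_X] at this

theorem y_mem_AP (hG : IsGauss k y) : y ∈ AP hG := by
  have := aeval_mem_AP hG X
  rwa [aeval_X] at this

/-- Elements of `AU` have no terms of positive degree. -/
theorem AU_mem_Box (hG : IsGauss k y) {x : E} (hx : x ∈ AU k y) :
    x ∈ Box k y (fun n => if n ≤ 0 then ‖x‖₊ else 0) := by
  by_cases hx0 : x = 0
  · rw [hx0]; exact zero_mem _
  have hxn : 0 < ‖x‖ := norm_pos_iff.2 hx0
  change x ∈ closure (Box0 k y _ : Set E)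
  rw [Metric.mem_closure_iff]
  intro ε hε
  obtain ⟨_, ⟨f, rfl⟩, hf⟩ := Metric.mem_closure_iff.1
    (show x ∈ closure (((aeval (y⁻¹) : k[X] →ₐ[k] E).range : Subalgebra k E) : Set E) from hx)
    (min ε ‖x‖) (lt_min hε hxn)
  refine ⟨_, ?_, hf.trans_le (min_le_left _ _)⟩
  change aeval y⁻¹ f ∈ Box0 k y _
  have hfn : ‖aeval y⁻¹ f‖ ≤ ‖x‖ := by
    have e : aeval y⁻¹ f = x - (x - aeval y⁻¹ f) := by ring
    rw [e]
    refine (nsub _ _).trans (max_le le_rfl ?_)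
    rw [← dist_eq_norm]
    exact hf.le.trans (min_le_right _ _)
  rw [aeval_eq_sum_range]
  refine AddSubgroup.sum_mem _ fun n _ => ?_
  have e : (y⁻¹ : E) ^ n = y ^ (-(n : ℤ)) := by rw [zpow_neg, zpow_natCast, inv_pow]
  rw [e]
  refine smul_mem_Box0 ?_
  rw [if_pos (by omega)]
  exact ((isGauss_inv hG).coeff_le f n).trans hfn

/-- A polynomial without constant term which lies in `AU` vanishes. -/
theorem eq_zero_of_mul_mem_AU (hG : IsGauss k y) (r : k[X]) (h : aeval y (X * r) ∈ AU k y) :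
    r = 0 := by
  obtain ⟨P, hP, hPc⟩ := aeval_eq_ev (y := y) (X * r)
  have h1 := AU_mem_Box hG h
  rw [← hP] at h1
  have h2 := (ev_mem_Box_iff hG).1 h1
  ext n
  have h3 := h2 ((n + 1 : ℕ) : ℤ)
  rw [hPc, coeff_X_mul, if_neg (by omega)] at h3
  simpa using h3

variable [CompleteSpace k] [CompleteSpace E] {π : k}

theorem linear_form (hG : IsGauss k y) (hπ : IsUnif π) {w : E} (hw : w ∈ AP hG)
    (hw' : w / y ∈ AU k y) : ∃ p0 p1 : k, w = algebraMap k E p0 + p1 • y ∧ ‖p0‖ ≤ ‖w‖ ∧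
      ‖p1‖ ≤ ‖w‖ := by
  obtain ⟨p, hp⟩ := inter_poly hG hπ 1 w hw (by rwa [pow_one])
  obtain ⟨l, g, e1, e2, e3, -⟩ := split_low p 2
  have hl : l = C (p.coeff 0) + C (p.coeff 1) * X := by
    ext i
    rw [coeff_add, coeff_C, coeff_C_mul, coeff_X]
    rcases lt_or_ge i 2 with h | h
    · rw [e2 i h]
      interval_cases i <;> simp
    · rw [e3 i h]
      have h0 : i ≠ 0 := by omega
      have h1 : 1 ≠ i := by omega
      simp [h0, h1]
  have hpe : aeval y p = algebraMap k E (p.coeff 0) + algebraMap k E (p.coeff 1) * y +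
      y ^ 2 * aeval y g := by
    conv_lhs => rw [e1, hl]
    simp only [map_add, map_mul, aeval_C, aeval_X, map_pow]
  have hg : g = 0 := by
    refine eq_zero_of_mul_mem_AU hG g ?_
    have hy := hG.ne_zero
    have e : aeval y (X * g) = w / y - (algebraMap k E (p.coeff 0) * y⁻¹ +
        algebraMap k E (p.coeff 1)) := by
      rw [hp, hpe, map_mul, aeval_X]
      field_simp
      ring
    rw [e]
    refine sub_mem hw' (add_mem (mul_mem ((AU k y).algebraMap_mem _) yinv_mem_AU)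
      ((AU k y).algebraMap_mem _))
  refine ⟨p.coeff 0, p.coeff 1, ?_, ?_, ?_⟩
  · rw [hp, hpe, hg, map_zero, mul_zero, add_zero, Algebra.smul_def]
  · rw [hp]; exact hG.coeff_le p 0
  · rw [hp]; exact hG.coeff_le p 1

theorem step_AU (hG : IsGauss k y) (hπ : IsUnif π) (hd : DenseRat k y) : Step (AU k y) y := by
  intro a ha
  obtain ⟨u, hu, a', ha', e, hun, han⟩ := dec hG hπ hd (y * a)
  have hya : ‖y * a‖ = ‖a‖ := by rw [norm_mul, hG.norm_eq, one_mul]
  rw [hya] at hun han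
  have hy := hG.ne_zero
  obtain ⟨p0, p1, e1, h0, h1⟩ := linear_form hG hπ ha' (by
    have e2 : a' / y = a - u * y⁻¹ := by
      have : a' = y * a - u := by rw [e]; ring
      rw [this]; field_simp
    rw [e2]
    exact sub_mem ha (mul_mem hu yinv_mem_AU))
  refine ⟨p1, u + algebraMap k E p0, add_mem hu ((AU k y).algebraMap_mem _), ?_, h1.trans han, ?_⟩
  · rw [e, e1]; ring
  · refine (nadd _ _).trans (max_le hun ?_)
    rw [norm_algebraMap']; exact h0.trans han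

theorem step_AP (hG : IsGauss k y) (hπ : IsUnif π) (hd : DenseRat k y) : Step (AP hG) y⁻¹ := by
  intro a ha
  obtain ⟨u, hu, a', ha', e, hun, han⟩ := dec hG hπ hd (y⁻¹ * a)
  have hya : ‖y⁻¹ * a‖ = ‖a‖ := by rw [norm_mul, norm_inv, hG.norm_eq, inv_one, one_mul]
  rw [hya] at hun han
  have hy := hG.ne_zero
  obtain ⟨p0, p1, e1, h0, h1⟩ := linear_form hG hπ (w := y * u) (by
    have e2 : y * u = a - y * a' := by
      have : u = y⁻¹ * a - a' := by rw [e]; ring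
      rw [this]; field_simp
    rw [e2]
    exact sub_mem ha (mul_mem (y_mem_AP hG) ha')) (by rwa [mul_div_cancel_left₀ _ hy])
  have hyu : ‖y * u‖ = ‖u‖ := by rw [norm_mul, hG.norm_eq, one_mul]
  rw [hyu] at h0 h1
  refine ⟨p0, a' + algebraMap k E p1, add_mem ha' ((AP hG).algebraMap_mem _), ?_, h0.trans hun, ?_⟩
  · have e3 : u = y⁻¹ * (algebraMap k E p0 + p1 • y) := by
      rw [← e1, inv_mul_cancel_left₀ hy]
    rw [e, e3, Algebra.smul_def, Algebra.smul_def]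
    field_simp
    ring
  · refine (nadd _ _).trans (max_le han ?_)
    rw [norm_algebraMap']; exact h1.trans hun

section Defs

variable (hG : IsGauss k y) (hπ : IsUnif π) (hd : DenseRat k y) {s : ℝ≥0} (hs : 1 < s)

/-- Functions on `1 ≤ |y| ≤ s`. -/
noncomputable def Apos : Subalgebra k E := HH (step_AU hG hπ hd) hG.norm_eq hs.le

/-- Functions on `1/s ≤ |y| < 1`. -/
noncomputable def Aneg : Subalgebra k E :=
  HH (step_AP hG hπ hd) (by rw [norm_inv, hG.norm_eq, inv_one]) hs.le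

theorem mem_Apos {x : E} : x ∈ Apos hG hπ hd hs ↔ IsH (AU k y) y s x := Iff.rfl

theorem mem_Aneg {x : E} : x ∈ Aneg hG hπ hd hs ↔ IsH (AP hG) y⁻¹ s x := Iff.rfl

theorem AU_le_Apos : AU k y ≤ Apos hG hπ hd hs := le_HH _ _ _

theorem AP_le_Aneg : AP hG ≤ Aneg hG hπ hd hs := le_HH _ _ _

theorem y_mem_Apos : y ∈ Apos hG hπ hd hs := by
  have := pow_mem_HH (step_AU hG hπ hd) hG.norm_eq hs.le 1
  rwa [pow_one] at this

theorem aeval_mem_Apos (f : k[X]) : aeval y f ∈ Apos hG hπ hd hs := by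
  have : (aeval y : k[X] →ₐ[k] E) = (Apos hG hπ hd hs).val.comp
      (aeval (⟨y, y_mem_Apos hG hπ hd hs⟩ : Apos hG hπ hd hs)) := by
    refine Polynomial.algHom_ext ?_
    simp
  rw [this]
  exact (aeval (⟨y, y_mem_Apos hG hπ hd hs⟩ : Apos hG hπ hd hs) f).2

/-- The ring `k[y]` in `E`. -/
noncomputable def kY (y : E) : Subring E := (aeval y : k[X] →ₐ[k] E).range.toSubring

/-- The ring `Ap ≥ RU` of meromorphic functions on `1 ≤ |y| ≤ s`. -/
noncomputable def Ap : Subring E :=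
  fracSub (Apos hG hπ hd hs).toSubring (kY (k := k) y) (by
    rintro _ ⟨f, rfl⟩; exact aeval_mem_Apos hG hπ hd hs f)

/-- The ring `Am ≥ FP` of meromorphic functions on `1/s ≤ |y| < 1`. -/
noncomputable def Am : Subring E :=
  fracSub (Aneg hG hπ hd hs).toSubring (kY (k := k) y) (by
    rintro _ ⟨f, rfl⟩; exact AP_le_Aneg hG hπ hd hs (aeval_mem_AP hG f))

theorem mem_Ap {z : E} : z ∈ Ap hG hπ hd hs ↔ ∃ a ∈ Apos hG hπ hd hs, ∃ g : k[X], g ≠ 0 ∧
    z = a / aeval y g := by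
  constructor
  · rintro ⟨a, ha, _, ⟨g, rfl⟩, h1, rfl⟩
    exact ⟨a, ha, g, by rintro rfl; exact h1 (map_zero _), rfl⟩
  · rintro ⟨a, ha, g, h1, rfl⟩
    exact ⟨a, ha, _, ⟨g, rfl⟩, hG.aeval_ne_zero h1, rfl⟩

theorem mem_Am {z : E} : z ∈ Am hG hπ hd hs ↔ ∃ a ∈ Aneg hG hπ hd hs, ∃ g : k[X], g ≠ 0 ∧
    z = a / aeval y g := by
  constructor
  · rintro ⟨a, ha, _, ⟨g, rfl⟩, h1, rfl⟩
    exact ⟨a, ha, g, by rintro rfl; exact h1 (map_zero _), rfl⟩
  · rintro ⟨a, ha, g, h1, rfl⟩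
    exact ⟨a, ha, _, ⟨g, rfl⟩, hG.aeval_ne_zero h1, rfl⟩

theorem FP_le_Am : (FP hG hπ hd).toSubring ≤ Am hG hπ hd hs := by
  intro z hz
  obtain ⟨a, ha, g, hg, rfl⟩ := (mem_FP hG hπ hd z).1 hz
  exact (mem_Am hG hπ hd hs).2 ⟨a, AP_le_Aneg hG hπ hd hs ha, g, hg, rfl⟩

theorem RU_le_Ap : RU k y ≤ Ap hG hπ hd hs := by
  rintro z ⟨a, ha, _, ⟨h, rfl⟩, h1, rfl⟩
  have hy := hG.ne_zero
  obtain ⟨q, hq⟩ := inv_poly_mul_pow hG h
  have h1' : aeval (y⁻¹) h ≠ 0 := h1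
  have hqne : aeval y q ≠ 0 := by rw [← hq]; exact mul_ne_zero h1' (pow_ne_zero _ hy)
  refine (mem_Ap hG hπ hd hs).2 ⟨a * y ^ h.natDegree, ?_, q, ?_, ?_⟩
  · exact mul_mem (AU_le_Apos hG hπ hd hs ha) (pow_mem (y_mem_Apos hG hπ hd hs) _)
  · rintro rfl; exact hqne (map_zero _)
  · rw [← hq, mul_div_mul_right _ _ (pow_ne_zero _ hy)]
    rfl

/-! ### The intersection -/

theorem AN_inv {x : E} (hx : x ∈ AN (isGauss_inv hG) hs) : x ∈ AN hG hs := by
  intro ε hε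
  obtain ⟨p, hp⟩ := hx ε hε
  refine ⟨mir p, ?_⟩
  have h1 : mir (mir p) = p := by ext n; rw [mir_apply, mir_apply, neg_neg]
  have h2 : ev k y⁻¹ p = ev k y (mir p) := by
    rw [← ev_mir (y := y) (mir p), h1]
  rwa [h2, B_inv] at hp

theorem mem_AN_of_both {x : E} (h1 : x ∈ Apos hG hπ hd hs) (h2 : x ∈ Aneg hG hπ hd hs) :
    x ∈ AN hG hs := by
  obtain ⟨u, hu, v, hv, e1, hv'⟩ := exists_add (isClosed_AU (k := k) y) hG hs h1
  obtain ⟨a, ha, v', hv2, e2, hv2'⟩ := exists_add (isClosed_AP hG) (isGauss_inv hG) hs h2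
  have hvP : v ∈ AP hG := by
    refine closure_minimal ?_ (isClosed_AP hG) hv'
    rintro _ ⟨f, rfl⟩; exact aeval_mem_AP hG f
  have hvU : v' ∈ AU k y := hv2'
  obtain ⟨p, hp⟩ := inter_poly hG hπ 0 (a - v) (sub_mem ha hvP) (by
    have : a - v = u - v' := by linear_combination e1 - e2
    rw [pow_zero, div_one, this]
    exact sub_mem hu hvU)
  have e3 : x = aeval y p + v + v' := by rw [← hp, e2]; ring
  rw [e3]
  exact add_mem (add_mem (aeval_mem_AN hG hs p) hv) (AN_inv hG hs hv2)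

/-- **`Ap ⊓ Am ⊆ MN`.** -/
theorem mem_MN_of_both {z : E} (h1 : z ∈ Ap hG hπ hd hs) (h2 : z ∈ Am hG hπ hd hs) :
    z ∈ MN hG hs := by
  obtain ⟨a, ha, f, hf, e1⟩ := (mem_Ap hG hπ hd hs).1 h1
  obtain ⟨b, hb, g, hg, e2⟩ := (mem_Am hG hπ hd hs).1 h2
  have hfn := hG.aeval_ne_zero hf
  have hgn := hG.aeval_ne_zero hg
  have e3 : a * aeval y g = b * aeval y f := by
    rw [e1, div_eq_div_iff hfn hgn] at e2
    exact e2
  have h3 : a * aeval y g ∈ AN hG hs := by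
    refine mem_AN_of_both hG hπ hd hs (mul_mem ha (aeval_mem_Apos hG hπ hd hs g)) ?_
    rw [e3]
    exact mul_mem hb (AP_le_Aneg hG hπ hd hs (aeval_mem_AP hG f))
  refine ⟨_, h3, aeval y (f * g), aeval_mem_AN hG hs _, hG.aeval_ne_zero (mul_ne_zero hf hg), ?_⟩
  rw [e1, map_mul]
  field_simp

include hG hs in
theorem ev_mem_GG_AU {D : ℝ≥0} {p : ℤ →₀ k} (hp : ev k y p ∈ B k y s D D) :
    ev k y p ∈ GG (AU k y) y s D := by
  have hsp : 0 < s := zero_lt_one.trans hs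
  have h1 := (ev_mem_B_iff hG).1 hp
  rw [ev_apply]
  refine AddSubgroup.sum_mem _ fun n _ => ?_
  change p n • y ^ n ∈ _
  rcases le_or_gt 0 n with h | h
  · obtain ⟨m, rfl⟩ := Int.eq_ofNat_of_zero_le h
    rw [zpow_natCast]
    refine smul_pow_mem_GG ?_
    have h2 := (h1 m).trans (min_le_left _ _)
    rw [zpow_neg, zpow_natCast, ← div_eq_mul_inv, le_div_iff₀ (pow_pos hsp _)] at h2
    exact h2
  · refine mem_GG_of_mem ?_ ?_
    · refine (AU k y).smul_mem ?_ _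
      have : y ^ n = (y⁻¹) ^ n.natAbs := by
        rw [inv_pow, ← zpow_natCast, ← zpow_neg]; congr 1; omega
      rw [this]
      exact pow_mem yinv_mem_AU _
    · rw [nnnorm_smul]
      have : ‖y ^ n‖₊ = 1 := NNReal.eq (nyz hG n)
      rw [this, mul_one]
      exact (h1 n).trans (w_le hs.le le_rfl le_rfl n)

include hG hs in
theorem ev_mem_GG_AP {D : ℝ≥0} {p : ℤ →₀ k} (hp : ev k y p ∈ B k y s D D) :
    ev k y p ∈ GG (AP hG) y⁻¹ s D := by
  have hsp : 0 < s := zero_lt_one.trans hs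
  have h1 := (ev_mem_B_iff hG).1 hp
  rw [ev_apply]
  refine AddSubgroup.sum_mem _ fun n _ => ?_
  change p n • y ^ n ∈ _
  rcases le_or_gt n 0 with h | h
  · obtain ⟨m, hm⟩ := Int.eq_ofNat_of_zero_le (show 0 ≤ -n by omega)
    obtain rfl : n = -(m : ℤ) := by omega
    have e : y ^ (-(m : ℤ)) = (y⁻¹) ^ m := by rw [zpow_neg, zpow_natCast, inv_pow]
    rw [e]
    refine smul_pow_mem_GG ?_
    have h2 := (h1 (-(m : ℤ))).trans (min_le_right _ _)
    rw [zpow_neg, zpow_natCast, ← div_eq_mul_inv, le_div_iff₀ (pow_pos hsp _)] at h2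
    exact h2
  · refine mem_GG_of_mem ?_ ?_
    · refine (AP hG).smul_mem ?_ _
      have : y ^ n = y ^ n.natAbs := by rw [← zpow_natCast]; congr 1; omega
      rw [this]
      exact pow_mem (y_mem_AP hG) _
    · rw [nnnorm_smul]
      have : ‖y ^ n‖₊ = 1 := NNReal.eq (nyz hG n)
      rw [this, mul_one]
      exact (h1 n).trans (w_le hs.le le_rfl le_rfl n)

/-- Telescoping. -/
theorem exists_telescope {x : E} (hx : x ∈ AN hG hs) : ∃ (C : ℝ≥0) (p : ℕ → ℤ →₀ k),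
    (∀ i, ev k y (p i) ∈ B k y s (C * (1 / 2) ^ i) (C * (1 / 2) ^ i)) ∧
    HasSum (fun i => ev k y (p i)) x := by
  have hsp : 0 < s := zero_lt_one.trans hs
  have hpos : ∀ i : ℕ, (0 : ℝ≥0) < (1 / 2) ^ i := fun i => by positivity
  choose P hP using fun i : ℕ => hx ((1 / 2) ^ i) (hpos i)
  obtain ⟨C0, hC0⟩ := exists_ev_mem_B (y := y) hsp (P 0)
  let p : ℕ → ℤ →₀ k := fun i => match i with
    | 0 => P 0
    | i + 1 => P (i + 1) - P i
  have hB : ∀ i, ev k y (p i) ∈ B k y s ((C0 + 2) * (1 / 2) ^ i) ((C0 + 2) * (1 / 2) ^ i) := by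
    intro i
    cases i with
    | zero =>
      have : C0 ≤ (C0 + 2) * (1 / 2) ^ 0 := by rw [pow_zero, mul_one]; exact le_self_add
      exact B_mono this this hC0
    | succ i =>
      change ev k y (P (i + 1) - P i) ∈ _
      have e : ev k y (P (i + 1) - P i) = (x - ev k y (P i)) - (x - ev k y (P (i + 1))) := by
        rw [map_sub]; ring
      rw [e]
      have h1 : (1 / 2 : ℝ≥0) ^ i ≤ (C0 + 2) * (1 / 2) ^ (i + 1) := by
        rw [pow_succ]
        calc (1 / 2 : ℝ≥0) ^ i = 2 * ((1 / 2) ^ i * (1 / 2)) := by ring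
          _ ≤ _ := mul_le_mul_left le_add_self _
      have h2 : (1 / 2 : ℝ≥0) ^ (i + 1) ≤ (C0 + 2) * (1 / 2) ^ (i + 1) := by
        calc (1 / 2 : ℝ≥0) ^ (i + 1) = 1 * (1 / 2) ^ (i + 1) := (one_mul _).symm
          _ ≤ _ := mul_le_mul_left (le_add_left one_le_two) _
      exact sub_mem (B_mono h1 h1 (hP i)) (B_mono h2 h2 (hP (i + 1)))
  refine ⟨C0 + 2, p, hB, ?_⟩
  have hsum : Summable fun i => ev k y (p i) := by
    refine Summable.of_norm_bounded (g := fun i => (((C0 + 2) * (1 / 2) ^ i : ℝ≥0) : ℝ)) ?_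
      fun i => norm_le_of_mem_B hG hs.le le_rfl le_rfl (hB i)
    have := (summable_geometric_of_lt_one (r := (1 / 2 : ℝ)) (by norm_num) (by norm_num)).mul_left
      ((C0 + 2 : ℝ≥0) : ℝ)
    simpa using this
  have hpart : ∀ n, ∑ i ∈ Finset.range (n + 1), ev k y (p i) = ev k y (P n) := by
    intro n
    induction n with
    | zero => simp [p]
    | succ n ih =>
      rw [Finset.sum_range_succ, ih]
      change ev k y (P n) + ev k y (P (n + 1) - P n) = _
      rw [map_sub]; ring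
  have hlim : Tendsto (fun n => ev k y (P n)) atTop (𝓝 x) := by
    rw [tendsto_iff_norm_sub_tendsto_zero]
    refine squeeze_zero (g := fun i : ℕ => (((1 / 2) ^ i : ℝ≥0) : ℝ)) (fun _ => norm_nonneg _)
      (fun i => ?_) ?_
    · rw [norm_sub_rev]
      exact norm_le_of_mem_B hG hs.le le_rfl le_rfl (hP i)
    · simpa using tendsto_pow_atTop_nhds_zero_of_lt_one (r := (1 / 2 : ℝ)) (by norm_num)
        (by norm_num)
  have h1 := (hsum.hasSum.tendsto_sum_nat).comp (tendsto_add_atTop_nat 1)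
  have h2 : (fun n => ev k y (P n)) = (fun n => ∑ i ∈ Finset.range n, ev k y (p i)) ∘
      fun n => n + 1 := funext fun n => (hpart n).symm
  rw [h2] at hlim
  rw [← tendsto_nhds_unique h1 hlim]
  exact hsum.hasSum

theorem AN_le_Apos : AN hG hs ≤ Apos hG hπ hd hs := by
  intro x hx
  obtain ⟨C, p, h1, h2⟩ := exists_telescope hG hs hx
  exact ⟨C, 1 / 2, _, by
    rw [div_lt_one two_pos]; exact one_lt_two, fun i => ev_mem_GG_AU hG hs (h1 i), h2⟩

theorem AN_le_Aneg : AN hG hs ≤ Aneg hG hπ hd hs := by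
  intro x hx
  obtain ⟨C, p, h1, h2⟩ := exists_telescope hG hs hx
  exact ⟨C, 1 / 2, _, by
    rw [div_lt_one two_pos]; exact one_lt_two, fun i => ev_mem_GG_AP hG hs (h1 i), h2⟩

theorem MN_le_Ap : (MN hG hs).toSubfield.toSubring ≤ Ap hG hπ hd hs := by
  intro z hz
  obtain ⟨a, ha, g, hg, rfl⟩ := (mem_MN_iff_Fr hG hs hπ).1 hz
  exact (mem_Ap hG hπ hd hs).2 ⟨a, AN_le_Apos hG hπ hd hs ha, g, hg, rfl⟩

theorem MN_le_Am : (MN hG hs).toSubfield.toSubring ≤ Am hG hπ hd hs := by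
  intro z hz
  obtain ⟨a, ha, g, hg, rfl⟩ := (mem_MN_iff_Fr hG hs hπ).1 hz
  exact (mem_Am hG hπ hd hs).2 ⟨a, AN_le_Aneg hG hπ hd hs ha, g, hg, rfl⟩

/-- **`Ap ⊓ Am = MN`.** -/
theorem Ap_inf_Am : Ap hG hπ hd hs ⊓ Am hG hπ hd hs = (MN hG hs).toSubfield.toSubring :=
  le_antisymm (fun _ hz => mem_MN_of_both hG hπ hd hs hz.1 hz.2)
    (le_inf (MN_le_Ap hG hπ hd hs) (MN_le_Am hG hπ hd hs))

end Defs

end Crest.Agent.R013.Half_930
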