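import Mathlib
import Crest.Agent.R013.Inh12_770
import Crest.Agent.R013.InhK2_275
import Crest.Agent.R013.Conn4_315
import Crest.Agent.R013.CB1e_903

/-!
# Row 13, leaf C-INH (helper770), part 13: 903's `InKum`
-/

set_option autoImplicit false
set_option linter.all false
open WithZero IntermediateField
open scoped NNReal
open Crest.Agent.R013.RR7_948 Crest.Agent.R013.Red332 Crest.Agent.R013.EE809
open Crest.Agent.R013.Cell_408 (FinDef DiscNorm)
open Crest.Agent.R013.SSK_332 Crest.Agent.R013.CB1_903 Crest.Agent.R013.GR3_921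

namespace Crest.Agent.R013.Inh_770

universe u

variable {k : Type*} [NontriviallyNormedField k] [CompleteSpace k] [IsUltrametricDist k]
variable {C : Type*} [NormedField C] [IsUltrametricDist C] [NormedAlgebra k C]
variable [Algebra.IsAlgebraic k C] [IsAlgClosed C] [hk : Fact (DiscNorm k)]

/-- the 948 context is inherited by finite separable extensions; every `SSK` of `L` is connected -/
theorem conn_of_finite {K L : Type*} [Field K] [Field L] [Algebra C K] [Algebra C L] [Algebra K L]
    [IsScalarTower C K L] [FiniteDimensional K L] [Algebra.IsSeparable K L]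
    [Algebra (RatFunc C) K] [IsScalarTower C (RatFunc C) K] [FiniteDimensional (RatFunc C) K]
    [Algebra.IsSeparable (RatFunc C) K] (SL : SSK k C L) : SL.Conn := by
  letI : Algebra (RatFunc C) L := ((algebraMap K L).comp (algebraMap (RatFunc C) K)).toAlgebra
  haveI : IsScalarTower (RatFunc C) K L := IsScalarTower.of_algebraMap_eq fun _ => rfl
  haveI : IsScalarTower C (RatFunc C) L := IsScalarTower.of_algebraMap_eq fun c => by
    rw [IsScalarTower.algebraMap_apply (RatFunc C) K L, ← IsScalarTower.algebraMap_apply C _ K,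
      ← IsScalarTower.algebraMap_apply]
  haveI : FiniteDimensional (RatFunc C) L := FiniteDimensional.trans (RatFunc C) K L
  haveI : Algebra.IsSeparable (RatFunc C) L := Algebra.IsSeparable.trans (RatFunc C) K L
  exact SL.conn

theorem inKum : InKum.{u} k C := by
  intro K L _ _ _ _ _ _ _ _ g hg S hS N hN0 hN h h0 y hy htop hdiv hod
  obtain ⟨i, j, f, s, -⟩ := hg
  letI := i
  haveI := j
  haveI := f
  haveI := s
  obtain ⟨P⟩ := InhK_275.spl_of_kummer S hN h0 hy htop hdiv (fun d => hod d.1 d.2)
  refine ⟨P.inh, P.vK _, P.vK_nm _, ?_, conn_of_finite (K := K) P.inh⟩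
  have h1 := P.card_Ed P.ffL
  letI := S.fEd
  letI := (P.inh).fEd
  unfold nE
  rw [← Nat.card_eq_fintype_card, ← Nat.card_eq_fintype_card]
  exact h1

end Crest.Agent.R013.Inh_770
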