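import Crest.Agent.R013.TP12_928
import Crest.Agent.R013.RedD7_310

/-!
# R013 / C-FIN (helper928), part 3: `SlopeDvd` for every semistable structure (from 310's slope
formulas), Kirchhoff's law for the slopes
-/

set_option autoImplicit false
set_option linter.unusedSectionVars false
set_option linter.style.haveILetI false

namespace Crest.Agent.R013.Fin_928

open scoped NNReal
open WithZero Module
open Crest.Agent.R013.Cell_408 (DiscNorm)
open Crest.Agent.R013.RR7_948 Crest.Agent.R013.RR8_948 Crest.Agent.R013.RR9_948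
open Crest.Agent.R013.RR11_948 Crest.Agent.R013.PicD_398
open Crest.Agent.R013.Red332 Crest.Agent.R013.SSK_332 Crest.Agent.R013.TP_928

variable {k : Type*} [NontriviallyNormedField k] [CompleteSpace k] [IsUltrametricDist k]
variable {C : Type*} [NormedField C] [IsUltrametricDist C] [NormedAlgebra k C]
  [Algebra.IsAlgebraic k C] [IsAlgClosed C] [hk : Fact (DiscNorm k)]
variable {K : Type*} [Field K] [Algebra C K] [Algebra (RatFunc C) K]
  [IsScalarTower C (RatFunc C) K] [FiniteDimensional (RatFunc C) K]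
  [Algebra.IsSeparable (RatFunc C) K] (S : SSK k C K)

/-- **the slope formula modulo `m`** -/
theorem slopeDvd : SlopeDvd S := by
  intro m f hf hx
  obtain ⟨x, hx⟩ := hx
  refine ⟨fun d hd => ?_, fun e => ?_⟩
  · obtain ⟨n, hn, hn', hs⟩ := RedD_310.slope_fD S d hd.1 hd.2 hf
    have h1 : ord S d f = n.sum fun _ j => j := by
      rw [hs, S.em_od d f hf]
      rfl
    rw [h1, Finsupp.sum]
    refine Finset.dvd_sum fun τ hτ => ?_
    rw [hn' τ (hn τ (Finsupp.mem_support_iff.mp hτ)), hx, Finsupp.smul_apply]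
    exact ⟨_, by rw [nsmul_eq_mul]⟩
  · obtain ⟨n, hn, hn', hs⟩ := RedD_310.slope_fA S e hf
    have h1 : ord S (S.e0 e) f + ord S (S.e1 e) f = n.sum fun _ j => j := by
      rw [hs, S.em_od _ f hf, S.em_od _ f hf]
      rfl
    rw [h1, Finsupp.sum]
    refine Finset.dvd_sum fun τ hτ => ?_
    obtain ⟨h2, h3⟩ := hn τ (Finsupp.mem_support_iff.mp hτ)
    rw [hn' τ h2 h3, hx, Finsupp.smul_apply]
    exact ⟨_, by rw [nsmul_eq_mul]⟩

end Crest.Agent.R013.Fin_928
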