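import Mathlib
import Crest.Agent.R013.InhC1_770
import Crest.Agent.R013.CDefs_588
import Crest.Agent.R013.TP17_928

/-!
# Row 13 (helper770): the leaves INHTOP, INHKUM, CONNALL, DISCDIV of `CDefs_588`
-/

set_option autoImplicit false
set_option linter.all false
open WithZero
open scoped NNReal
open Crest.NumberTheoryR.Sect
open Crest.Agent.R013.RR7_948 Crest.Agent.R013.Red332 Crest.Agent.R013.EE809
open Crest.Agent.R013.Cell_408 (FinDef DiscNorm)
open Crest.Agent.R013.SSK_332 Crest.Agent.R013.TopE1_957 Crest.Agent.R013.Unr10_957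
open Crest.Agent.R013.CDefs_588

namespace Crest.Agent.R013.Inh_770

section ctor

variable {p : ℕ} [Fact p.Prime] {C : Type*} [NormedField C] [IsUltrametricDist C]
  [NormedAlgebra ℚ_[p] C] [Algebra.IsAlgebraic ℚ_[p] C] [IsAlgClosed C]
variable {K : Type*} [Field K] [Algebra C K] {L : Type*} [Field L] [Algebra C L] [Algebra K L]
  [IsScalarTower C K L] [FiniteDimensional K L] [IsGalois K L]
  [Algebra (RatFunc C) K] [IsScalarTower C (RatFunc C) K]
  [FiniteDimensional (RatFunc C) K] [Algebra.IsSeparable (RatFunc C) K]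
variable {S : SSK ℚ_[p] C K}

/-- 588's structure `Inh` for the inherited semistable structure -/
noncomputable def inhC' (P : Spl S L) (hff : ∀ i, FFat (P.nmL i)) : Inh S (P.SL hff) where
  vm := P.vK hff
  nm_vm := P.vK_nm hff
  vall := fun w v hw => by
    obtain ⟨i, hi, -⟩ := P.exists_V hff w.v v hw
    exact ⟨i, Nm.ext' fun f => by
      have := congrArg (fun u : Valuation L ℝ≥0 => u f) hi
      exact this⟩
  dm := fun d => (P.dirE hff d).1
  dm_fst := P.dirE_fst hff
  em_dm := P.em_K hff
  edm := fun e => (P.edE hff e).1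
  cc_edm := fun e => rfl
  e0_edm := fun e => by rw [P.e0_eq hff e]
  e1_edm := fun e => by rw [P.e1_eq hff e]
  e0_lift := fun d e h => by
    refine ⟨(P.edE hff).symm (e, (P.dirE hff d).2), (P.dirE hff).injective ?_⟩
    rw [P.e0_eq, Equiv.apply_symm_apply]
    exact Prod.ext h.symm rfl
  e1_lift := fun d e h => by
    refine ⟨(P.edE hff).symm (e, (P.dirE hff d).2), (P.dirE hff).injective ?_⟩
    rw [P.e1_eq, Equiv.apply_symm_apply]
    exact Prod.ext h.symm rfl
  card_Ed := P.card_Ed hff
  free := fun σ d h1 h2 => by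
    have hr := P.eD_rel d
    have hr' : P.Rel (P.nmL d.1) d.2 (P.eD d).1 ((P.eD d).2 * σ) := by
      refine ⟨fun f => ?_, fun f hf => ?_⟩
      · have h3 := hr.nm (σ f)
        have h4 : (P.nmL d.1).v (σ f) = (P.nmL d.1).v f := h1 f
        rw [← h4, h3]
        rfl
      · have h3 := hr.od (σ f) (by rwa [Ne, EmbeddingLike.map_eq_zero_iff])
        have h4 : Red332.od (P.nmL d.1) d.2 (σ f) = Red332.od (P.nmL d.1) d.2 f := h2 f hf
        rw [← h4, h3]
        rfl
    have h5 := (Spl.Rel.pair_unique P hr hr').2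
    exact left_eq_mul.1 h5

/-- 588's structure `Inh` for the inherited semistable structure -/
noncomputable def inhC (P : Spl S L) : Inh S P.inh := inhC' P P.ffL

end ctor

section leaves

variable (p : ℕ) [Fact p.Prime] (C : Type) [NormedField C] [IsUltrametricDist C]
  [NormedAlgebra ℚ_[p] C] [Algebra.IsAlgebraic ℚ_[p] C] [IsAlgClosed C] [CharZero C]

theorem sep_of_ratFunc (K : Type) [Field K] [Algebra C K] [Algebra (RatFunc C) K]
    [IsScalarTower C (RatFunc C) K] [FiniteDimensional (RatFunc C) K] :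
    Algebra.IsSeparable (RatFunc C) K := by
  haveI : CharZero (RatFunc C) := charZero_of_injective_algebraMap (algebraMap C (RatFunc C)).injective
  infer_instance

theorem connAll : CONNALL p C := by
  intro K _ _ _ _ _ S
  haveI := sep_of_ratFunc C K
  exact S.conn

theorem inhTop : INHTOP p C := by
  intro K _ _ _ _ _ L _ _ _ _ _ _ S hab hpl hv
  haveI := sep_of_ratFunc C K
  obtain ⟨P⟩ := spl_of_abelian S hab hv (fun v h => (hpl v h).unrAt)
  exact ⟨P.inh, ⟨inhC P⟩⟩

theorem norm_natCast_eq_one {N : ℕ} (hN : ¬ p ∣ N) : ‖(N : C)‖ = 1 := by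
  have h1 : ((N : ℚ_[p]) : ℚ_[p]) = ((N : ℤ_[p]) : ℚ_[p]) := by simp
  have h2 : ‖(N : ℚ_[p])‖ = 1 := by
    rw [Padic.norm_natCast_eq_one_iff]
    exact (Nat.Prime.coprime_iff_not_dvd (Fact.out)).2 hN
  have h3 : (N : C) = algebraMap ℚ_[p] C N := by rw [map_natCast]
  rw [h3, norm_algebraMap', h2]

theorem inhKum : INHKUM p C := by
  intro K _ _ _ _ _ L _ _ _ _ S N h y hN h0 hy htop hdiv hod
  haveI := sep_of_ratFunc C K
  have hN0 : N ≠ 0 := by rintro rfl; exact hN (dvd_zero p)
  haveI : NeZero (N : C) := ⟨Nat.cast_ne_zero.2 hN0⟩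
  obtain ⟨ζ, hζ⟩ := HasEnoughRootsOfUnity.exists_primitiveRoot C N
  have hζ' : IsPrimitiveRoot (algebraMap C K ζ) N := hζ.map_of_injective (algebraMap C K).injective
  have hint : IsIntegral K y := ⟨Polynomial.X ^ N - Polynomial.C h,
    Polynomial.monic_X_pow_sub_C h hN0, by simp [hy]⟩
  haveI : FiniteDimensional K L := by
    haveI := IntermediateField.adjoin.finiteDimensional hint
    exact Module.Finite.equiv ((IntermediateField.equivOfEq htop).trans
      IntermediateField.topEquiv).toLinearEquiv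
  haveI : CharZero K := charZero_of_injective_algebraMap (algebraMap C K).injective
  haveI : (Polynomial.X ^ N - Polynomial.C h).IsSplittingField K L := by
    refine ⟨?_, ?_⟩
    · rw [Polynomial.map_sub, Polynomial.map_pow, Polynomial.map_X, Polynomial.map_C]
      exact X_pow_sub_C_splits_of_isPrimitiveRoot
        (hζ'.map_of_injective (algebraMap K L).injective) hy
    · have h1 : y ∈ (Polynomial.X ^ N - Polynomial.C h).rootSet L := by
        rw [Polynomial.mem_rootSet]
        refine ⟨(Polynomial.monic_X_pow_sub_C h hN0).ne_zero, by simp [hy]⟩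
      have h2 : Algebra.adjoin K {y} = ⊤ := by
        have h3 := congrArg IntermediateField.toSubalgebra htop
        rw [IntermediateField.adjoin_simple_toSubalgebra_of_isAlgebraic hint.isAlgebraic] at h3
        exact h3
      rw [eq_top_iff, ← h2]
      exact Algebra.adjoin_mono (Set.singleton_subset_iff.2 h1)
  haveI : IsGalois K L := { to_normal := Normal.of_isSplittingField (Polynomial.X ^ N - Polynomial.C h) }
  obtain ⟨P⟩ := InhK_275.spl_of_kummer S (norm_natCast_eq_one p C hN) h0 hy htop hdiv hod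
  exact ⟨P.inh, ⟨inhC P⟩⟩

theorem discDiv : DISCDIV p C := by
  intro K _ _ _ _ _ S h n h0 hP d hd
  haveI := sep_of_ratFunc C K
  obtain ⟨m, hm, hm', hs⟩ := RedD_310.slope_fD S d hd.1 hd.2 h0
  rw [← S.em_od d h h0, ← hs, Finsupp.sum]
  refine Finset.dvd_sum fun τ hτ => ?_
  have h1 := hm τ (Finsupp.mem_support_iff.mp hτ)
  rw [hm' τ h1]
  obtain ⟨j, hj⟩ := hP (S.ptD d hd.1 hd.2 τ h1)
  refine ⟨-j, ?_⟩
  have h2 := RR11_948.v_eq (k := C) h0 (S.ptD d hd.1 hd.2 τ h1)
  rw [hj, exp_inj] at h2
  linarith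

end leaves

end Crest.Agent.R013.Inh_770
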