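import Crest.Agent.R013.Pow5_931
import Crest.Agent.R013.BTor2_914
import Crest.Agent.R013.EE5_809

/-!
# Row 13, INH-KUM 1: `N`-th roots in 809's field `EE k C`

`‖N‖ = 1`: an element of `EE k C` whose order is divisible by `N` is an `N`-th power.
-/

set_option autoImplicit false
set_option linter.all false

noncomputable section

namespace Crest.Agent.R013.InhK_275

open Polynomial
open Crest.Agent.R013.Cell_408 Crest.Agent.R013.EE809 Crest.Agent.R013.Pow1_931

variable {k : Type*} [NontriviallyNormedField k] [CompleteSpace k] [IsUltrametricDist k]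
variable {C : Type*} [NormedField C] [IsUltrametricDist C] [NormedAlgebra k C]
variable [Algebra.IsAlgebraic k C] [IsAlgClosed C] [hk : Fact (DiscNorm k)]

/-- the ring of integers of a subfield -/
def OL (L : IntermediateField k C) : Subring C where
  carrier := {c | c ∈ L ∧ ‖c‖ ≤ 1}
  mul_mem' {a b} ha hb := ⟨mul_mem ha.1 hb.1, by
    rw [norm_mul]; exact mul_le_one₀ ha.2 (norm_nonneg _) hb.2⟩
  one_mem' := ⟨one_mem L, by rw [norm_one]⟩
  add_mem' {a b} ha hb := ⟨add_mem ha.1 hb.1, (IsUltrametricDist.norm_add_le_max a b).trans (max_le ha.2 hb.2)⟩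
  zero_mem' := ⟨zero_mem L, by rw [norm_zero]; exact zero_le_one⟩
  neg_mem' {a} ha := ⟨neg_mem ha.1, by rw [norm_neg]; exact ha.2⟩

lemma isUnit_nat {N : ℕ} (hN : ‖(N : C)‖ = 1) (L : IntermediateField k C) :
    IsUnit ((N : ℕ) : OL L) := by
  have h0 : (N : C) ≠ 0 := by
    intro h
    rw [h, norm_zero] at hN
    exact zero_ne_one hN
  refine IsUnit.of_mul_eq_one (⟨(N : C)⁻¹, inv_mem (natCast_mem L N), by
    rw [norm_inv, hN, inv_one]⟩ : OL L) ?_
  ext
  exact mul_inv_cancel₀ h0

/-- a one-sided root: a bounded series with constant term one is an `N`-th power up to its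
negative part -/
lemma approx_root {N : ℕ} (hN : ‖(N : C)‖ = 1) {w : EE k C} (hw : gn w ≤ 1) (h0 : w.co 0 = 1) :
    ∃ z : EE k C, gn z = 1 ∧ z ^ N = P w := by
  obtain ⟨L, hL, hLw⟩ := w.exists_inL
  have hle : ∀ n, ‖w.co n‖ ≤ 1 := fun n => (le_gn w n).trans hw
  let f : PowerSeries (OL L) := PowerSeries.mk fun n => ⟨w.co n, hLw n, hle n⟩
  obtain ⟨g, hg, hg0⟩ := BTor2_914.exists_root_one (isUnit_nat hN L) f (by
    rw [← PowerSeries.coeff_zero_eq_constantCoeff_apply, PowerSeries.coeff_mk]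
    ext
    exact h0)
  let G : PowerSeries C := PowerSeries.map (OL L).subtype g
  have hGc : ∀ n, PowerSeries.coeff n G = ((PowerSeries.coeff n g : OL L) : C) := fun n => by
    rw [PowerSeries.coeff_map]; rfl
  have hGm : G ∈ BD k C := ⟨⟨L, hL, fun n => by
      change PowerSeries.coeff n G ∈ L
      rw [hGc]; exact (PowerSeries.coeff n g).2.1⟩, 1,
    fun n => by rw [hGc]; exact (PowerSeries.coeff n g).2.2⟩
  have hGN : G ^ N = (posPart w).1 := by
    have h1 : G ^ N = PowerSeries.map (OL L).subtype f := by rw [← hg, map_pow]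
    rw [h1]
    ext n
    rw [PowerSeries.coeff_map, coeff_posPart, PowerSeries.coeff_mk]
    rfl
  refine ⟨ofBD ⟨G, hGm⟩, ?_, ?_⟩
  · refine le_antisymm (gn_le fun n => ?_) ?_
    · rcases lt_or_ge n 0 with hn | hn
      · rw [co_ofBD_neg _ hn, norm_zero]; exact zero_le_one
      · obtain ⟨m, rfl⟩ := Int.eq_ofNat_of_zero_le hn
        rw [co_ofBD_nat, hGc]
        exact (PowerSeries.coeff m g).2.2
    · have h1 := le_gn (ofBD (⟨G, hGm⟩ : BD k C)) 0
      have h2 : (ofBD (⟨G, hGm⟩ : BD k C)).co 0 = 1 := by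
        have h3 := co_ofBD_nat (⟨G, hGm⟩ : BD k C) 0
        rw [Nat.cast_zero] at h3
        rw [h3, hGc, PowerSeries.coeff_zero_eq_constantCoeff_apply, hg0]
        rfl
      rwa [h2, norm_one] at h1
  · rw [← map_pow]
    have h1 : (⟨G, hGm⟩ : BD k C) ^ N = posPart w := Subtype.ext hGN
    rw [h1]
    rfl

/-- a series with constant term one and small negative part is an `N`-th power -/
lemma root_unit {N : ℕ} (hN : ‖(N : C)‖ = 1) {w : EE k C} (hw : gn w ≤ 1) (h0 : w.co 0 = 1)
    (hneg : ∀ n < 0, ‖w.co n‖ < 1) : ∃ z : EE k C, z ^ N = w := by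
  have hN0 : N ≠ 0 := by
    rintro rfl
    rw [Nat.cast_zero, norm_zero] at hN
    exact zero_ne_one hN
  obtain ⟨z, hz1, hz⟩ := approx_root hN hw h0
  have hsub : gn (w - P w) < 1 := by
    refine gn_lt_one_of (fun n hn => ?_) (fun n hn => ?_)
    · rw [co_sub, co_P, if_pos hn, sub_self]
    · rw [co_sub, co_P, if_neg (not_le.mpr hn), sub_zero]
      exact hneg n hn
  have hNE : gn ((N : ℕ) : EE k C) = 1 := by
    have h1 : ((N : ℕ) : EE k C) = algebraMap C (EE k C) (N : C) := by rw [map_natCast]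
    refine le_antisymm (gn_le fun n => ?_) ?_
    · rw [h1, co_algebraMap]
      split_ifs
      · exact hN.le
      · rw [norm_zero]; exact zero_le_one
    · have h2 := le_gn ((N : ℕ) : EE k C) 0
      rw [h1, co_algebraMap, if_pos rfl, hN] at h2
      rw [h1]
      exact h2
  obtain ⟨f, hf, -⟩ := hensel (P := (X ^ N - Polynomial.C w : (EE k C)[X])) (z := z) (fun i => by
      rw [coeff_sub, coeff_X_pow, coeff_C]
      refine (gn_sub_le _ _).trans (max_le ?_ ?_)
      · split_ifs
        · rw [gn_one]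
        · rw [gn_zero]; exact zero_le_one
      · split_ifs
        · exact hw
        · rw [gn_zero]; exact zero_le_one) hz1.le (by
      rw [eval_sub, eval_pow, eval_X, eval_C, hz, gn_sub_comm]
      exact hsub) (by
      rw [derivative_sub, derivative_C, sub_zero, derivative_X_pow, eval_mul, eval_C, eval_pow,
        eval_X, gn_mul hk.out, hNE, one_mul, EE809.gn_pow, hz1, one_pow])
  refine ⟨f, ?_⟩
  rw [eval_sub, eval_pow, eval_X, eval_C, sub_eq_zero] at hf
  exact hf

/-- **`N`-th roots in `EE k C`** -/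
theorem exists_root {N : ℕ} (hN : ‖(N : C)‖ = 1) {a : EE k C} (ha : a ≠ 0) {m : ℤ}
    (hm : EE809.od a = N * m) : ∃ b : EE k C, b ^ N = a := by
  have hN0 : N ≠ 0 := by
    rintro rfl
    rw [Nat.cast_zero, norm_zero] at hN
    exact zero_ne_one hN
  obtain ⟨z, hz⟩ := root_unit hN (w := nrm a) (gn_le fun n => nrm_le hk.out ha n)
    (nrm_zero_coeff hk.out ha) (fun n hn => nrm_lt hk.out ha hn)
  obtain ⟨c, hc⟩ := IsAlgClosed.exists_pow_nat_eq (a.co (EE809.od a)) (Nat.pos_of_ne_zero hN0)
  refine ⟨mo m c * z, ?_⟩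
  rw [mul_pow, hz]
  have h1 : (mo m c : EE k C) ^ N = mo (N * m) (c ^ N) := by
    clear hz hc hm hN hN0
    induction N with
    | zero => simp [mo_zero_one]
    | succ n ih =>
      rw [pow_succ, ih, mo_mul_mo, pow_succ]
      congr 1
      push_cast
      ring
  rw [h1, hc, ← hm]
  exact mo_mul_nrm hk.out ha

end Crest.Agent.R013.InhK_275
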