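import Mathlib
import Crest.Agent.R013.One2_863

/-!
# Row 13, leaf SS-ONE (helper863): a family `w` of functions which is linearly independent modulo
`y` at the zeros of `y`
-/

set_option autoImplicit false
set_option linter.unusedSectionVars false
set_option linter.style.haveILetI false

open PowerSeries WithZero

namespace Crest.Agent.R013.One_863

open Crest.Agent.R013.RR7_948 Crest.Agent.R013.RR8_948 Crest.Agent.R013.RR11_948
open Crest.Agent.R013.RR12_948
open Crest.Agent.R013.PlX_863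

variable {C : Type*} [Field C] [IsAlgClosed C] {K : Type*} [Field K] [Algebra C K]
  [Algebra (RatFunc C) K] [IsScalarTower C (RatFunc C) K] [FiniteDimensional (RatFunc C) K]
  [Algebra.IsSeparable (RatFunc C) K]

/-- polynomials of degree `< e` in a uniformizer -/
theorem coeff_eq_zero_of_le (Q : Pl C K) {π : K} (hπ : Q.v π = exp (-1)) {e : ℕ} (c : Fin e → C)
    (h : Q.v (∑ i, algebraMap C K (c i) * π ^ (i : ℕ)) ≤ exp (-(e : ℤ))) : c = 0 := by
  obtain ⟨hπO, hu⟩ := isUnif_place Q hπ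
  have hπ0 : π ≠ 0 := by
    rintro rfl
    rw [map_zero] at hπ
    exact exp_ne_zero hπ.symm
  let z : OA Q := ∑ i, algebraMap C (OA Q) (c i) * (⟨π, hπO⟩ : OA Q) ^ (i : ℕ)
  have hz : (z : K) = ∑ i, algebraMap C K (c i) * π ^ (i : ℕ) := by
    rw [AddSubmonoidClass.coe_finsetSum]
    rfl
  rw [← hz] at h
  have h1 : X ^ e ∣ hu.expand z := by
    rw [← hu.pow_dvd_iff, dvd_iff (by simpa using pow_ne_zero e hπ0)]
    rw [SubmonoidClass.coe_pow, map_pow, hπ, ← exp_nsmul]
    simpa using h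
  have h2 : hu.expand z = ∑ i, PowerSeries.C (c i) * (X : C⟦X⟧) ^ (i : ℕ) := by
    rw [map_sum]
    refine Finset.sum_congr rfl fun i _ => ?_
    rw [map_mul, map_pow, hu.expand_s, AlgHom.commutes]
    rfl
  rw [h2, X_pow_dvd_iff] at h1
  funext j
  have h3 := h1 j j.2
  rw [map_sum] at h3
  rw [Finset.sum_eq_single j] at h3
  · rw [coeff_C_mul, coeff_X_pow, if_pos rfl, mul_one] at h3
    exact h3
  · intro i _ hij
    rw [coeff_C_mul, coeff_X_pow, if_neg (fun h => hij (Fin.ext h.symm)), mul_zero]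
  · intro hj
    exact absurd (Finset.mem_univ j) hj

/-- functions with prescribed first terms -/
theorem exists_family (J : Finset (Pl C K)) (e : Pl C K → ℕ) :
    ∃ w : (Σ Q : J, Fin (e Q)) → K, (∀ l, ∀ Q ∈ J, w l ∈ OA Q) ∧
      ∀ c : (Σ Q : J, Fin (e Q)) → C,
        (∀ Q ∈ J, Q.v (∑ l, algebraMap C K (c l) * w l) ≤ exp (-(e Q : ℤ))) → c = 0 := by
  classical
  choose π hπ0 hπ using fun Q : Pl C K => exists_v_eq Q (-1)
  obtain ⟨N, hN⟩ : ∃ N : ℕ, ∀ Q ∈ J, e Q ≤ N := ⟨J.sup e, fun Q hQ => Finset.le_sup hQ⟩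
  have hπO : ∀ Q : Pl C K, ∀ i : ℕ, Q.v (π Q ^ i) ≤ 1 := by
    intro Q i
    rw [map_pow]
    refine pow_le_one' ?_ i
    rw [hπ, ← exp_zero, exp_le_exp]; norm_num
  choose w hw using fun l : (Σ Q : J, Fin (e Q)) =>
    weak_approx J (fun Q' => if Q' = (l.1 : Pl C K) then π Q' ^ (l.2 : ℕ) else 0) N
  have hNQ : ∀ Q ∈ J, exp (-(N : ℤ)) ≤ exp (-(e Q : ℤ)) := by
    intro Q hQ
    rw [exp_le_exp]
    have := hN Q hQ
    omega
  refine ⟨w, fun l Q hQ => ?_, fun c hc => ?_⟩
  · rw [mem_OA]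
    have h1 := hw l Q hQ
    have h2 : w l = (w l - (if Q = (l.1 : Pl C K) then π Q ^ (l.2 : ℕ) else 0)) +
      (if Q = (l.1 : Pl C K) then π Q ^ (l.2 : ℕ) else 0) := by ring
    rw [h2]
    refine (Q.v.map_add _ _).trans (max_le (h1.trans ?_) ?_)
    · rw [← exp_zero, exp_le_exp]; omega
    · split_ifs
      · exact hπO Q _
      · rw [map_zero]; exact zero_le
  · funext ⟨Q, i⟩
    have hQ := Q.2
    have key : Q.1.v (∑ i : Fin (e Q), algebraMap C K (c ⟨Q, i⟩) * π Q.1 ^ (i : ℕ)) ≤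
        exp (-(e Q : ℤ)) := by
      have h1 : ∑ i : Fin (e Q), algebraMap C K (c ⟨Q, i⟩) * π Q.1 ^ (i : ℕ) =
          ∑ l : (Σ Q : J, Fin (e Q)), algebraMap C K (c l) *
            (if Q.1 = (l.1 : Pl C K) then π Q.1 ^ (l.2 : ℕ) else 0) := by
        rw [Fintype.sum_sigma]
        rw [Finset.sum_eq_single Q]
        · refine Finset.sum_congr rfl fun i _ => ?_
          rw [if_pos rfl]
        · intro Q' _ hne
          refine Finset.sum_eq_zero fun i _ => ?_
          rw [if_neg (fun h => hne (Subtype.ext h.symm)), mul_zero]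
        · intro h
          exact absurd (Finset.mem_univ _) h
      have h2 : ∑ l : (Σ Q : J, Fin (e Q)), algebraMap C K (c l) *
            (if Q.1 = (l.1 : Pl C K) then π Q.1 ^ (l.2 : ℕ) else 0) =
          (∑ l, algebraMap C K (c l) * w l) - ∑ l, algebraMap C K (c l) *
            (w l - (if Q.1 = (l.1 : Pl C K) then π Q.1 ^ (l.2 : ℕ) else 0)) := by
        rw [← Finset.sum_sub_distrib]
        refine Finset.sum_congr rfl fun l _ => ?_
        ring
      rw [h1, h2]
      refine (Q.1.v.map_sub _ _).trans (max_le (hc Q hQ) ?_)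
      refine Valuation.map_sum_le _ fun l _ => ?_
      rw [map_mul]
      calc Q.1.v (algebraMap C K (c l)) * _ ≤ 1 * exp (-(N : ℤ)) :=
            mul_le_mul' (const_le _ _) (hw l Q.1 hQ)
        _ = exp (-(N : ℤ)) := one_mul _
        _ ≤ _ := hNQ Q.1 hQ
    have h3 := coeff_eq_zero_of_le Q.1 (hπ Q.1) (fun i => c ⟨Q, i⟩) key
    exact congrFun h3 i

end Crest.Agent.R013.One_863
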