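import Mathlib
import Crest.Agent.R013.One3_863

/-!
# Row 13, leaf SS-ONE (helper863): injectivity
-/

set_option autoImplicit false
set_option linter.unusedSectionVars false
set_option linter.style.haveILetI false

open PowerSeries WithZero

namespace Crest.Agent.R013.One_863

open Crest.Agent.R013.RR7_948 Crest.Agent.R013.RR8_948 Crest.Agent.R013.RR11_948
open Crest.Agent.R013.RR12_948
open Crest.Agent.R013.Cell_408 Crest.Agent.R013.PlX_863 Crest.Agent.R013.Cvg_863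

section BDlemmas

variable {k C : Type*} [NontriviallyNormedField k] [NormedField C] [IsUltrametricDist C]
  [NormedAlgebra k C] [Algebra.IsAlgebraic k C]

/-- the variable as an element of `BD` -/
noncomputable def XB (k C : Type*) [NontriviallyNormedField k] [NormedField C] [IsUltrametricDist C]
    [NormedAlgebra k C] [Algebra.IsAlgebraic k C] : BD k C := ⟨X, X_mem_BD⟩

theorem BD_shift (g : BD k C) : ∃ g' : BD k C,
    g = algebraMap C (BD k C) (constantCoeff (g : C⟦X⟧)) + XB k C * g' := by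
  obtain ⟨h1, M, h2⟩ := mem_BD.1 g.2
  refine ⟨⟨PowerSeries.mk fun n => coeff (n + 1) (g : C⟦X⟧), mem_BD.2 ⟨?_, M, fun n => ?_⟩⟩, ?_⟩
  · obtain ⟨L, hL, h3⟩ := h1
    refine ⟨L, hL, fun n => ?_⟩
    dsimp only
    rw [coeff_mk]
    exact h3 (n + 1)
  · rw [coeff_mk]; exact h2 _
  · apply Subtype.ext
    show (g : C⟦X⟧) = PowerSeries.C (constantCoeff (g : C⟦X⟧)) + X * _
    ext n
    cases n with
    | zero => simp
    | succ n => simp [coeff_succ_X_mul]

variable (k C) in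
/-- the embedding of `Frac BD` in `Frac C⟦X⟧` -/
noncomputable def toFr : FractionRing (BD k C) →+* FractionRing C⟦X⟧ :=
  IsFractionRing.lift (A := BD k C)
    (g := (algebraMap C⟦X⟧ (FractionRing C⟦X⟧)).comp (BD k C).val.toRingHom)
    ((IsFractionRing.injective C⟦X⟧ (FractionRing C⟦X⟧)).comp Subtype.val_injective)

theorem toFr_algebraMap (g : BD k C) :
    toFr k C (algebraMap _ _ g) = algebraMap C⟦X⟧ _ (g : C⟦X⟧) :=
  IsFractionRing.lift_algebraMap _ g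

end BDlemmas

variable {k C : Type*} [NontriviallyNormedField k] [NormedField C] [IsUltrametricDist C]
  [NormedAlgebra k C] [Algebra.IsAlgebraic k C] [IsAlgClosed C]
variable {K : Type*} [Field K] [Algebra C K]
  [Algebra (RatFunc C) K] [IsScalarTower C (RatFunc C) K] [FiniteDimensional (RatFunc C) K]
  [Algebra.IsSeparable (RatFunc C) K]

theorem toFr_iota {Q : Pl C K} {ψ : OA Q →ₐ[C] C⟦X⟧} {r : C} {ι : K →+* FractionRing (BD k C)}
    (hι : ∀ w : OA Q, ∃ u v : BD k C, v ≠ 0 ∧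
      ι w = algebraMap _ _ u / algebraMap _ _ v ∧ (u : C⟦X⟧) = rescale r (ψ w) * v)
    (w : OA Q) : toFr k C (ι w) = algebraMap C⟦X⟧ _ (rescale r (ψ w)) := by
  obtain ⟨u, v, hv, h1, h2⟩ := hι w
  have hv' : algebraMap C⟦X⟧ (FractionRing C⟦X⟧) (v : C⟦X⟧) ≠ 0 := by
    rw [Ne, FaithfulSMul.algebraMap_eq_zero_iff]
    exact fun h => hv (Subtype.ext h)
  rw [h1, map_div₀, toFr_algebraMap, toFr_algebraMap, h2, map_mul, mul_div_cancel_right₀ _ hv']

/-- the data at the places of `J` -/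
structure Data (k : Type*) {C : Type*} [NontriviallyNormedField k] [NormedField C]
    [IsUltrametricDist C] [NormedAlgebra k C] [Algebra.IsAlgebraic k C] [IsAlgClosed C]
    {K : Type*} [Field K] [Algebra C K] [Algebra (RatFunc C) K] [IsScalarTower C (RatFunc C) K]
    [FiniteDimensional (RatFunc C) K] [Algebra.IsSeparable (RatFunc C) K]
    (a ρ : C) (J : Finset (Pl C K)) (e : Pl C K → ℕ) where
  hx : ∀ Q ∈ J, xK C K ∈ OA Q
  ψ : ∀ Q : Pl C K, OA Q →ₐ[C] C⟦X⟧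
  ord : ∀ Q ∈ J, ∀ (n : ℕ) (f : OA Q), X ^ n ∣ ψ Q f ↔ Q.v (f : K) ≤ exp (-(n : ℤ))
  ψx : ∀ Q (hQ : Q ∈ J), ψ Q ⟨xK C K, hx Q hQ⟩ = PowerSeries.C a + X ^ (e Q)
  r : Pl C K → C
  r0 : ∀ Q ∈ J, r Q ≠ 0
  rpow : ∀ Q ∈ J, r Q ^ (e Q) = ρ
  ι : Pl C K → K →+* FractionRing (BD k C)
  hι : ∀ Q ∈ J, ∀ w : OA Q, ∃ u v : BD k C, v ≠ 0 ∧
    ι Q w = algebraMap _ _ u / algebraMap _ _ v ∧ (u : C⟦X⟧) = rescale (r Q) (ψ Q w) * v

variable {a ρ : C} {J : Finset (Pl C K)} {e : Pl C K → ℕ}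

/-- the induction on the coefficients -/
theorem coeff_eq_zero_of_rel (D : Data k a ρ J e) {n : Type*} [Fintype n] (w : n → K)
    (hw : ∀ l, ∀ Q ∈ J, w l ∈ OA Q)
    (hLIN : ∀ c : n → C, (∀ Q ∈ J, Q.v (∑ l, algebraMap C K (c l) * w l) ≤ exp (-(e Q : ℤ))) →
      c = 0)
    (σ : Pl C K → BD k C →ₐ[C] BD k C) (hσ : ∀ Q ∈ J, σ Q (XB k C) = XB k C ^ e Q)
    (N : ℕ) (g : n → BD k C)
    (hg : ∀ Q (hQ : Q ∈ J), ∑ l, ((σ Q (g l) : BD k C) : C⟦X⟧) *
      rescale (D.r Q) (D.ψ Q ⟨w l, hw l Q hQ⟩) = 0) (l : n) :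
    coeff N (g l : C⟦X⟧) = 0 := by
  choose g' hg' using fun l => BD_shift (g l)
  have h0 : (fun l => constantCoeff (g l : C⟦X⟧)) = 0 := by
    apply hLIN
    intro Q hQ
    set c : n → C := fun l => constantCoeff (g l : C⟦X⟧) with hc
    let z : OA Q := ∑ l, algebraMap C (OA Q) (c l) * ⟨w l, hw l Q hQ⟩
    have hz : (z : K) = ∑ l, algebraMap C K (c l) * w l := by
      rw [AddSubmonoidClass.coe_finsetSum]
      rfl
    rw [← hz, ← D.ord Q hQ, ← X_pow_dvd_rescale (D.r0 Q hQ)]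
    have h1 : rescale (D.r Q) (D.ψ Q z) =
        ∑ l, PowerSeries.C (c l) * rescale (D.r Q) (D.ψ Q ⟨w l, hw l Q hQ⟩) := by
      rw [map_sum, map_sum]
      refine Finset.sum_congr rfl fun l _ => ?_
      rw [map_mul, map_mul, AlgHom.commutes]
      congr 1
      ext m
      rw [coeff_rescale]
      show _ * coeff m (PowerSeries.C (c l)) = _
      rw [coeff_C]
      split_ifs with hm
      · subst hm; simp
      · simp
    have h2 : ∀ l, ((σ Q (g l) : BD k C) : C⟦X⟧) =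
        PowerSeries.C (c l) + X ^ e Q * ((σ Q (g' l) : BD k C) : C⟦X⟧) := by
      intro l
      conv_lhs => rw [hg' l]
      rw [map_add, map_mul, hσ Q hQ, AlgHom.commutes]
      rfl
    have h3 := hg Q hQ
    rw [h1]
    refine ⟨-∑ l, ((σ Q (g' l) : BD k C) : C⟦X⟧) * rescale (D.r Q) (D.ψ Q ⟨w l, hw l Q hQ⟩), ?_⟩
    have h4 : ∑ l, ((σ Q (g l) : BD k C) : C⟦X⟧) * rescale (D.r Q) (D.ψ Q ⟨w l, hw l Q hQ⟩) =
        (∑ l, PowerSeries.C (c l) * rescale (D.r Q) (D.ψ Q ⟨w l, hw l Q hQ⟩)) +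
        X ^ e Q * ∑ l, ((σ Q (g' l) : BD k C) : C⟦X⟧) *
          rescale (D.r Q) (D.ψ Q ⟨w l, hw l Q hQ⟩) := by
      rw [Finset.mul_sum, ← Finset.sum_add_distrib]
      refine Finset.sum_congr rfl fun l _ => ?_
      rw [h2 l]; ring
    rw [h4] at h3
    linear_combination h3
  have h0' : ∀ l, constantCoeff (g l : C⟦X⟧) = 0 := fun l => congrFun h0 l
  cases N with
  | zero => rw [coeff_zero_eq_constantCoeff_apply]; exact h0' l
  | succ N =>
    have hgl : ∀ l, g l = XB k C * g' l := by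
      intro l
      conv_lhs => rw [hg' l, h0' l]
      simp
    have h5 : coeff (N + 1) (g l : C⟦X⟧) = coeff N (g' l : C⟦X⟧) := by
      rw [hgl l]
      show coeff (N + 1) (X * (g' l : C⟦X⟧)) = _
      rw [coeff_succ_X_mul]
    rw [h5]
    refine coeff_eq_zero_of_rel D w hw hLIN σ hσ N g' (fun Q hQ => ?_) l
    have h6 := hg Q hQ
    have h7 : ∑ l, ((σ Q (g l) : BD k C) : C⟦X⟧) * rescale (D.r Q) (D.ψ Q ⟨w l, hw l Q hQ⟩) =
        X ^ e Q * ∑ l, ((σ Q (g' l) : BD k C) : C⟦X⟧) *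
          rescale (D.r Q) (D.ψ Q ⟨w l, hw l Q hQ⟩) := by
      rw [Finset.mul_sum]
      refine Finset.sum_congr rfl fun l _ => ?_
      have h8 : ((σ Q (g l) : BD k C) : C⟦X⟧) = X ^ e Q * ((σ Q (g' l) : BD k C) : C⟦X⟧) := by
        rw [hgl l, map_mul, hσ Q hQ]; rfl
      rw [h8]; ring
    rw [h7] at h6
    rcases mul_eq_zero.1 h6 with h | h
    · exact absurd h (pow_ne_zero _ X_ne_zero)
    · exact h

end Crest.Agent.R013.One_863
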