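import Mathlib
import Crest.Agent.R013.One4_863

/-!
# Row 13, leaf SS-ONE (helper863): injectivity, II
-/

set_option autoImplicit false
set_option linter.unusedSectionVars false
set_option linter.style.haveILetI false

open PowerSeries WithZero

namespace Crest.Agent.R013.One_863

open Crest.Agent.R013.RR7_948 Crest.Agent.R013.RR8_948 Crest.Agent.R013.RR11_948
open Crest.Agent.R013.RR12_948
open Crest.Agent.R013.Cell_408 Crest.Agent.R013.PlX_863 Crest.Agent.R013.Cvg_863

variable {k C : Type*} [NontriviallyNormedField k] [NormedField C] [IsUltrametricDist C]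
  [NormedAlgebra k C] [Algebra.IsAlgebraic k C] [IsAlgClosed C]
variable {K : Type*} [Field K] [Algebra C K]
  [Algebra (RatFunc C) K] [IsScalarTower C (RatFunc C) K] [FiniteDimensional (RatFunc C) K]
  [Algebra.IsSeparable (RatFunc C) K]
variable {a ρ : C} {J : Finset (Pl C K)} {e : Pl C K → ℕ}

/-- relations with coefficients in `BD` -/
theorem eq_zero_of_rel_BD (D : Data k a ρ J e) {n : Type*} [Fintype n] (w : n → K)
    (hw : ∀ l, ∀ Q ∈ J, w l ∈ OA Q)
    (hLIN : ∀ c : n → C, (∀ Q ∈ J, Q.v (∑ l, algebraMap C K (c l) * w l) ≤ exp (-(e Q : ℤ))) →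
      c = 0)
    (σ : Pl C K → BD k C →ₐ[C] BD k C) (hσ : ∀ Q ∈ J, σ Q (XB k C) = XB k C ^ e Q)
    (g : n → BD k C)
    (hg : ∀ Q ∈ J, ∑ l, algebraMap (BD k C) (FractionRing (BD k C)) (σ Q (g l)) * D.ι Q (w l) = 0) :
    g = 0 := by
  funext l
  apply Subtype.ext
  ext N
  show coeff N (g l : C⟦X⟧) = _
  rw [coeff_eq_zero_of_rel D w hw hLIN σ hσ N g (fun Q hQ => ?_) l]
  · simp
  · have h1 := congrArg (toFr k C) (hg Q hQ)
    rw [map_sum, map_zero] at h1
    have h2 : ∀ l, toFr k C (algebraMap (BD k C) (FractionRing (BD k C)) (σ Q (g l)) * D.ι Q (w l)) =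
        algebraMap C⟦X⟧ (FractionRing C⟦X⟧) (((σ Q (g l) : BD k C) : C⟦X⟧) *
          rescale (D.r Q) (D.ψ Q ⟨w l, hw l Q hQ⟩)) := by
      intro l
      rw [map_mul, map_mul, toFr_algebraMap]
      congr 1
      exact toFr_iota (D.hι Q hQ) ⟨w l, hw l Q hQ⟩
    rw [Finset.sum_congr rfl fun l _ => h2 l, ← map_sum] at h1
    exact (FaithfulSMul.algebraMap_eq_zero_iff _ _).1 h1

/-- relations with coefficients in `Frac BD` -/
theorem eq_zero_of_rel (D : Data k a ρ J e) {n : Type*} [Fintype n] (w : n → K)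
    (hw : ∀ l, ∀ Q ∈ J, w l ∈ OA Q)
    (hLIN : ∀ c : n → C, (∀ Q ∈ J, Q.v (∑ l, algebraMap C K (c l) * w l) ≤ exp (-(e Q : ℤ))) →
      c = 0)
    (σ : Pl C K → BD k C →ₐ[C] BD k C) (hσ : ∀ Q ∈ J, σ Q (XB k C) = XB k C ^ e Q)
    (σF : Pl C K → FractionRing (BD k C) →+* FractionRing (BD k C))
    (hσF : ∀ Q ∈ J, ∀ g : BD k C, σF Q (algebraMap _ _ g) = algebraMap _ _ (σ Q g))
    (G : n → FractionRing (BD k C))
    (hG : ∀ Q ∈ J, ∑ l, σF Q (G l) * D.ι Q (w l) = 0) : G = 0 := by
  classical
  obtain ⟨h, hh⟩ := IsLocalization.exist_integer_multiples_of_finite (nonZeroDivisors (BD k C)) G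
  choose g hg using hh
  have hg' : ∀ l, algebraMap (BD k C) (FractionRing (BD k C)) (g l) =
      algebraMap _ _ (h : BD k C) * G l := by
    intro l
    have := hg l
    rw [Algebra.smul_def] at this
    exact this
  have hg0 : g = 0 := by
    refine eq_zero_of_rel_BD D w hw hLIN σ hσ g fun Q hQ => ?_
    have h1 : ∀ l, algebraMap (BD k C) (FractionRing (BD k C)) (σ Q (g l)) * D.ι Q (w l) =
        σF Q (algebraMap _ _ (h : BD k C)) * (σF Q (G l) * D.ι Q (w l)) := by
      intro l
      rw [← hσF Q hQ, hg' l, map_mul, mul_assoc]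
    rw [Finset.sum_congr rfl fun l _ => h1 l, ← Finset.mul_sum, hG Q hQ, mul_zero]
  have hh0 : algebraMap (BD k C) (FractionRing (BD k C)) (h : BD k C) ≠ 0 := by
    rw [Ne, FaithfulSMul.algebraMap_eq_zero_iff]
    exact nonZeroDivisors.ne_zero h.2
  funext l
  have h2 := hg' l
  rw [hg0, Pi.zero_apply, map_zero] at h2
  exact (mul_eq_zero.1 h2.symm).resolve_left hh0

/-- the embedding `C(X) → Frac BD`, `X ↦ a + ρ X` -/
theorem exists_tau (k : Type*) {C : Type*} [NontriviallyNormedField k] [NormedField C]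
    [IsUltrametricDist C] [NormedAlgebra k C] [Algebra.IsAlgebraic k C] (a ρ : C) (hρ : ρ ≠ 0) :
    ∃ τ : RatFunc C →+* FractionRing (BD k C), ∀ p : Polynomial C,
      τ (algebraMap _ _ p) = algebraMap _ _ (Polynomial.aeval
        (algebraMap C (BD k C) a + algebraMap C (BD k C) ρ * XB k C) p) := by
  let f : Polynomial C →+* BD k C := (Polynomial.aeval
        (algebraMap C (BD k C) a + algebraMap C (BD k C) ρ * XB k C)).toRingHom
  have hf : Function.Injective f := by
    rw [injective_iff_map_eq_zero]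
    intro p hp
    have h1 : ((Polynomial.aeval (algebraMap C (BD k C) a + algebraMap C (BD k C) ρ * XB k C) p :
        BD k C) : C⟦X⟧) = ((p.comp (Polynomial.C a + Polynomial.C ρ * Polynomial.X) :
          Polynomial C) : C⟦X⟧) := by
      rw [← Subalgebra.coe_val, ← Polynomial.aeval_algHom_apply]
      have h2 := Polynomial.aeval_algHom_apply (Polynomial.coeToPowerSeries.algHom (R := C) C)
        (Polynomial.C a + Polynomial.C ρ * Polynomial.X) p
      have h3 : (Polynomial.coeToPowerSeries.algHom (R := C) C)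
          (Polynomial.C a + Polynomial.C ρ * Polynomial.X) =
          (BD k C).val (algebraMap C (BD k C) a + algebraMap C (BD k C) ρ * XB k C) := by
        rw [Polynomial.coeToPowerSeries.algHom_apply]
        simp only [Polynomial.coe_add, Polynomial.coe_C, Polynomial.coe_mul, Polynomial.coe_X]
        rfl
      rw [h3] at h2
      rw [h2, Polynomial.coeToPowerSeries.algHom_apply]
      simp [Polynomial.comp, Polynomial.aeval_def, Polynomial.eval₂_eq_eval_map]
    have h4 : (p.comp (Polynomial.C a + Polynomial.C ρ * Polynomial.X)) = 0 := by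
      rw [← Polynomial.coe_eq_zero_iff, ← h1]
      have : (Polynomial.aeval (algebraMap C (BD k C) a + algebraMap C (BD k C) ρ * XB k C) p :
        BD k C) = 0 := hp
      rw [this]; rfl
    have h5 : (Polynomial.C a + Polynomial.C ρ * Polynomial.X).natDegree ≠ 0 := by
      rw [add_comm, Polynomial.natDegree_linear hρ]; norm_num
    rcases Polynomial.comp_eq_zero_iff.1 h4 with h | ⟨_, h⟩
    · exact h
    · exfalso
      apply h5
      rw [h]; simp
  have hF : Function.Injective ((algebraMap (BD k C) (FractionRing (BD k C))).comp f) :=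
    (IsFractionRing.injective (BD k C) (FractionRing (BD k C))).comp hf
  exact ⟨IsFractionRing.lift hF, fun p => IsFractionRing.lift_algebraMap hF p⟩

end Crest.Agent.R013.One_863
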