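import Mathlib
import Crest.Agent.R013.One5_863

/-!
# Row 13, leaf SS-ONE (helper863): existence of the data and general injectivity
-/

set_option autoImplicit false
set_option linter.unusedSectionVars false
set_option linter.style.haveILetI false

open PowerSeries WithZero

namespace Crest.Agent.R013.One_863

open Crest.Agent.R013.RR7_948 Crest.Agent.R013.RR8_948 Crest.Agent.R013.RR9_948
open Crest.Agent.R013.RR11_948
open Crest.Agent.R013.RR12_948 Crest.Agent.R013.RR20_948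
open Crest.Agent.R013.Cell_408 Crest.Agent.R013.PlX_863 Crest.Agent.R013.Cvg_863

section Zeros

variable {C : Type*} [Field C] [IsAlgClosed C]
variable {K : Type*} [Field K] [Algebra C K]
  [Algebra (RatFunc C) K] [IsScalarTower C (RatFunc C) K] [FiniteDimensional (RatFunc C) K]
  [Algebra.IsSeparable (RatFunc C) K]

variable (K) in
/-- `x - a` -/
noncomputable def yy (a : C) : K := xK C K - algebraMap C K a

theorem yy_ne_zero (a : C) : yy K a ≠ 0 := by
  intro h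
  apply transcendental_xK (k := C) (K := K)
  rw [yy, sub_eq_zero] at h
  rw [h]
  exact isAlgebraic_algebraMap a

theorem poles_yy (a : C) : poles (k := C) (yy K a) = poles (xK C K) := by
  have hx0 : xK C K ≠ 0 := by
    have := yy_ne_zero (K := K) (0 : C)
    rwa [yy, map_zero, sub_zero] at this
  ext Q
  rw [poles_apply, poles_apply]
  have h1 := v_eq (k := C) hx0 Q
  have h2 := v_eq (k := C) (yy_ne_zero (K := K) a) Q
  have hc := const_le Q a
  rcases lt_or_ge 1 (Q.v (xK C K)) with h | h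
  · have h3 : Q.v (yy K a) = Q.v (xK C K) := by
      rw [yy]
      exact Valuation.map_sub_eq_of_lt_left _ (hc.trans_lt h)
    rw [h1, h2, exp_inj] at h3
    rw [h3]
  · have h3 : Q.v (yy K a) ≤ 1 := (Q.v.map_sub _ _).trans (max_le h hc)
    rw [h1, ← exp_zero, exp_le_exp] at h
    rw [h2, ← exp_zero, exp_le_exp] at h3
    omega

/-- the zeros of `x - a` -/
theorem exists_zeros (a : C) : ∃ (J : Finset (Pl C K)) (e : Pl C K → ℕ),
    (∀ Q ∈ J, 1 ≤ e Q ∧ Q.v (yy K a) = exp (-(e Q : ℤ))) ∧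
    (∀ Q : Pl C K, Q.v (yy K a) < 1 → Q ∈ J) ∧
    ∑ Q ∈ J, e Q = Module.finrank (RatFunc C) K := by
  classical
  refine ⟨(zeros (k := C) (yy K a)).support, fun Q => (divf (k := C) (yy K a) Q).toNat,
    fun Q hQ => ?_, fun Q hQ => ?_, ?_⟩
  · rw [Finsupp.mem_support_iff, zeros_apply] at hQ
    have h1 : 0 < divf (k := C) (yy K a) Q := by
      by_contra h
      exact hQ (max_eq_right (not_lt.1 h))
    have h2 : (((divf (k := C) (yy K a) Q).toNat : ℕ) : ℤ) = divf (k := C) (yy K a) Q :=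
      Int.toNat_of_nonneg h1.le
    refine ⟨?_, ?_⟩
    · show 1 ≤ (divf (k := C) (yy K a) Q).toNat
      omega
    · rw [v_eq (k := C) (yy_ne_zero a) Q, exp_inj]
      show _ = -(((divf (k := C) (yy K a) Q).toNat : ℕ) : ℤ)
      rw [h2]
  · rw [v_eq (k := C) (yy_ne_zero a) Q, ← exp_zero, exp_lt_exp] at hQ
    rw [Finsupp.mem_support_iff, zeros_apply]
    omega
  · have h1 := degD_zeros_eq_poles (k := C) (yy_ne_zero (K := K) a)
    rw [poles_yy, degD_poles_xK] at h1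
    have h2 : degD (zeros (k := C) (yy K a)) =
        ∑ Q ∈ (zeros (k := C) (yy K a)).support, ((divf (k := C) (yy K a) Q).toNat : ℤ) := by
      unfold degD
      rw [Finsupp.sum]
      refine Finset.sum_congr rfl fun Q hQ => ?_
      rw [degP_eq_one, zeros_apply]
      rw [Finsupp.mem_support_iff, zeros_apply] at hQ
      simp only [Nat.cast_one, mul_one]
      omega
    rw [h2] at h1
    exact_mod_cast h1

end Zeros

variable {k C : Type*} [NontriviallyNormedField k] [NormedField C] [IsUltrametricDist C]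
  [NormedAlgebra k C] [Algebra.IsAlgebraic k C] [IsAlgClosed C] [CharZero C]
variable {K : Type*} [Field K] [Algebra C K]
  [Algebra (RatFunc C) K] [IsScalarTower C (RatFunc C) K] [FiniteDimensional (RatFunc C) K]
  [Algebra.IsSeparable (RatFunc C) K]

variable (k) in
/-- existence of the data for all small `ρ` -/
theorem exists_data (a : C) (J : Finset (Pl C K)) (hne : J.Nonempty) (e : Pl C K → ℕ)
    (hJ : ∀ Q ∈ J, 1 ≤ e Q ∧ Q.v (yy K a) = exp (-(e Q : ℤ))) :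
    ∃ r0 : C, r0 ≠ 0 ∧ ∀ ρ : C, ρ ≠ 0 → ‖ρ‖ ≤ ‖r0‖ → Nonempty (Data k a ρ J e) := by
  classical
  have hx : ∀ Q ∈ J, xK C K ∈ OA Q := by
    intro Q hQ
    have h1 : yy K a ∈ OA Q := by
      rw [mem_OA, (hJ Q hQ).2, ← exp_zero, exp_le_exp]; omega
    have h2 : xK C K = yy K a + algebraMap C K a := by rw [yy]; ring
    rw [h2]
    exact add_mem h1 ((OA Q).algebraMap_mem a)
  have main : ∀ Q : Pl C K, ∃ ψ : OA Q →ₐ[C] C⟦X⟧, Q ∈ J →
      (∀ (n : ℕ) (f : OA Q), X ^ n ∣ ψ f ↔ Q.v (f : K) ≤ exp (-(n : ℤ))) ∧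
      ∀ h : xK C K ∈ OA Q, ψ ⟨xK C K, h⟩ = PowerSeries.C a + X ^ (e Q) := by
    intro Q
    by_cases hQ : Q ∈ J
    · obtain ⟨hy, ψ, h1, h2⟩ := exists_expansion Q (hJ Q hQ).2
        (by have := (hJ Q hQ).1; exact_mod_cast (by omega : e Q ≠ 0))
      refine ⟨ψ, fun _ => ⟨h2, fun h => ?_⟩⟩
      have h3 : (⟨xK C K, h⟩ : OA Q) = algebraMap C (OA Q) a + ⟨yy K a, hy⟩ := by
        apply Subtype.ext
        show xK C K = algebraMap C K a + yy K a
        rw [yy]; ring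
      rw [h3, map_add, h1, AlgHom.commutes]
      rfl
    · obtain ⟨π, hπ0, hπ⟩ := exists_v_eq Q (-1)
      exact ⟨(isUnif_place Q hπ).choose_spec.expand, fun h => absurd h hQ⟩
  choose ψ hψ using main
  have hinj : ∀ Q ∈ J, Function.Injective (ψ Q) := by
    intro Q hQ
    rw [injective_iff_map_eq_zero]
    intro f hf
    by_contra hf0
    have hf0' : (f : K) ≠ 0 := fun h => hf0 (Subtype.ext h)
    have h1 := v_eq (k := C) hf0' Q
    have h2 := ((hψ Q hQ).1 ((divf (k := C) (f : K) Q).toNat + 1) f).1 (by rw [hf]; exact dvd_zero _)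
    rw [h1, exp_le_exp] at h2
    push_cast at h2
    omega
  -- uniform radii
  have hβ : ∀ Q : Pl C K, ∃ β : C, β ≠ 0 ∧ (Q ∈ J → ∀ r' : C, ‖r'‖ ≤ ‖β‖ → ∀ b : OA Q,
      (letI := algPoly C K; IsIntegral (Polynomial C) (b : K)) → rescale r' (ψ Q b) ∈ BD k C) := by
    intro Q
    by_cases hQ : Q ∈ J
    · have h1 : ψ Q ⟨xK C K, hx Q hQ⟩ =
          ((Polynomial.C a + Polynomial.X ^ (e Q) : Polynomial C) : C⟦X⟧) := by
        rw [(hψ Q hQ).2]
        simp
      obtain ⟨β, hβ0, hβ⟩ := exists_uniform k (hx Q hQ) (ψ Q) h1 (hinj Q hQ)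
      exact ⟨β, hβ0, fun _ => hβ⟩
    · exact ⟨1, one_ne_zero, fun h => absurd h hQ⟩
  choose β hβ0 hβ using hβ
  obtain ⟨r0, hr0mem, hmin⟩ := Finset.exists_min_image (insert (1 : C) (J.image fun Q => β Q ^ e Q))
    (fun z => ‖z‖) (Finset.insert_nonempty _ _)
  refine ⟨r0, ?_, fun ρ hρ hρr => ?_⟩
  · rcases Finset.mem_insert.1 hr0mem with h | h
    · rw [h]; exact one_ne_zero
    · obtain ⟨Q, _, hQ⟩ := Finset.mem_image.1 h
      rw [← hQ]
      exact pow_ne_zero _ (hβ0 Q)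
  have hr : ∀ Q : Pl C K, ∃ r : C, Q ∈ J → r ^ e Q = ρ := by
    intro Q
    by_cases hQ : Q ∈ J
    · obtain ⟨r, hr⟩ := IsAlgClosed.exists_pow_nat_eq ρ (n := e Q) (hJ Q hQ).1
      exact ⟨r, fun _ => hr⟩
    · exact ⟨1, fun h => absurd h hQ⟩
  choose r hr using hr
  have hr0 : ∀ Q ∈ J, r Q ≠ 0 := by
    intro Q hQ h0
    have h1 := hr Q hQ
    rw [h0, zero_pow (by have := (hJ Q hQ).1; omega)] at h1
    exact hρ h1.symm
  have hle : ∀ Q ∈ J, ‖r Q‖ ≤ ‖β Q‖ := by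
    intro Q hQ
    have h1 : ‖r Q‖ ^ e Q ≤ ‖β Q‖ ^ e Q := by
      rw [← norm_pow, ← norm_pow, hr Q hQ]
      exact hρr.trans (hmin _ (Finset.mem_insert_of_mem (Finset.mem_image_of_mem _ hQ)))
    exact le_of_pow_le_pow_left₀ (by have := (hJ Q hQ).1; omega) (norm_nonneg _) h1
  have hι : ∀ Q : Pl C K, ∃ ι : K →+* FractionRing (BD k C), Q ∈ J →
      ∀ w : OA Q, ∃ u v : BD k C, v ≠ 0 ∧
        ι w = algebraMap _ _ u / algebraMap _ _ v ∧ (u : C⟦X⟧) = rescale (r Q) (ψ Q w) * v := by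
    intro Q
    by_cases hQ : Q ∈ J
    · obtain ⟨ι, hι⟩ := exists_iota (hx Q hQ) (ψ Q) (hinj Q hQ) (hr0 Q hQ)
        (hβ Q hQ (r Q) (hle Q hQ))
      exact ⟨ι, fun _ => hι⟩
    · obtain ⟨Q', hQ'⟩ := hne
      obtain ⟨ι, hι⟩ := exists_iota (hx Q' hQ') (ψ Q') (hinj Q' hQ') (hr0 Q' hQ')
        (hβ Q' hQ' (r Q') (hle Q' hQ'))
      exact ⟨ι, fun h => absurd h hQ⟩
  choose ι hι using hι
  exact ⟨⟨hx, ψ, fun Q hQ => (hψ Q hQ).1, fun Q hQ => (hψ Q hQ).2 _, r, hr0, hr, ι, hι⟩⟩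

end Crest.Agent.R013.One_863
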