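import Mathlib
import Crest.Agent.R013.One6_863

/-!
# Row 13, leaf SS-ONE (helper863): type 1 points, final form

`K/C(x)` finite separable, `C` algebraically closed of characteristic 0, algebraic over `k`.  For
every `a ∈ C` there is `r0 ≠ 0` such that for every `ρ ≠ 0` with `|ρ| ≤ |r0|`: the places `Q` of `K`
with `|x - a|_Q < 1` (finite set `J`, multiplicities `e Q`, `∑ e Q = [K : C(x)]`) give ring
homomorphisms `ι Q : K → Frac BD`, `C`-linear, `ι Q x = a + ρ T ^ e Q`, and `K ⊗ Frac BD → ∏ Frac BD`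
is injective (`one`).
-/

set_option autoImplicit false
set_option linter.unusedSectionVars false
set_option linter.style.haveILetI false

open PowerSeries WithZero

namespace Crest.Agent.R013.One_863

open Crest.Agent.R013.RR7_948 Crest.Agent.R013.RR8_948 Crest.Agent.R013.RR9_948
open Crest.Agent.R013.RR11_948
open Crest.Agent.R013.RR12_948 Crest.Agent.R013.RR20_948
open Crest.Agent.R013.Cell_408 Crest.Agent.R013.PlX_863 Crest.Agent.R013.Cvg_863

variable {k C : Type*} [NontriviallyNormedField k] [NormedField C] [IsUltrametricDist C]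
  [NormedAlgebra k C] [Algebra.IsAlgebraic k C] [IsAlgClosed C]
variable {K : Type*} [Field K] [Algebra C K]
  [Algebra (RatFunc C) K] [IsScalarTower C (RatFunc C) K] [FiniteDimensional (RatFunc C) K]
  [Algebra.IsSeparable (RatFunc C) K]
variable {a ρ : C} {J : Finset (Pl C K)} {e : Pl C K → ℕ}

theorem Data.ι_const (D : Data k a ρ J e) {Q : Pl C K} (hQ : Q ∈ J) (c : C) :
    D.ι Q (algebraMap C K c) = algebraMap _ _ (algebraMap C (BD k C) c) := by
  refine iota_eq (D.hι Q hQ) (algebraMap C (OA Q) c) (algebraMap C (BD k C) c) ?_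
  rw [AlgHom.commutes]
  show rescale (D.r Q) (PowerSeries.C c) = PowerSeries.C c
  ext m
  rw [coeff_rescale, coeff_C]
  split_ifs with hm
  · subst hm; simp
  · simp

theorem Data.ι_x (D : Data k a ρ J e) {Q : Pl C K} (hQ : Q ∈ J) :
    D.ι Q (xK C K) = algebraMap _ _
      (algebraMap C (BD k C) a + algebraMap C (BD k C) ρ * XB k C ^ e Q) := by
  refine iota_eq (D.hι Q hQ) ⟨xK C K, D.hx Q hQ⟩ _ ?_
  rw [D.ψx Q hQ, map_add, map_pow]
  show rescale (D.r Q) (PowerSeries.C a) + rescale (D.r Q) X ^ e Q =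
    PowerSeries.C a + PowerSeries.C ρ * X ^ e Q
  have h1 : rescale (D.r Q) (PowerSeries.C a) = PowerSeries.C a := by
    ext m
    rw [coeff_rescale, coeff_C]
    split_ifs with hm
    · subst hm; simp
    · simp
  have h2 : rescale (D.r Q) (X : C⟦X⟧) = PowerSeries.C (D.r Q) * X := by
    ext n
    rw [coeff_rescale, coeff_C_mul, coeff_X]
    split_ifs with hn
    · subst hn; simp
    · simp
  rw [h1, h2, mul_pow, ← map_pow, D.rpow Q hQ]

/-- compatibility of the two ways around the square -/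
theorem compat (D : Data k a ρ J e) {Q : Pl C K} (hQ : Q ∈ J)
    {τ : RatFunc C →+* FractionRing (BD k C)} (hτ : ∀ p : Polynomial C,
      τ (algebraMap _ _ p) = algebraMap _ _ (Polynomial.aeval
        (algebraMap C (BD k C) a + algebraMap C (BD k C) ρ * XB k C) p))
    (σ : BD k C →ₐ[C] BD k C) (hσ : σ (XB k C) = XB k C ^ e Q)
    (σF : FractionRing (BD k C) →+* FractionRing (BD k C))
    (hσF : ∀ g : BD k C, σF (algebraMap _ _ g) = algebraMap _ _ (σ g)) (f : RatFunc C) :
    σF (τ f) = D.ι Q (algebraMap (RatFunc C) K f) := by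
  have h : σF.comp τ = (D.ι Q).comp (algebraMap (RatFunc C) K) := by
    apply IsLocalization.ringHom_ext (nonZeroDivisors (Polynomial C))
    apply Polynomial.ringHom_ext
    · intro c
      rw [RingHom.comp_apply, RingHom.comp_apply, RingHom.comp_apply, RingHom.comp_apply, hτ,
        Polynomial.aeval_C, hσF, AlgHom.commutes, ← D.ι_const hQ, RatFunc.algebraMap_C]
      congr 1
      rw [IsScalarTower.algebraMap_apply C (RatFunc C) K, RatFunc.algebraMap_eq_C]
    · rw [RingHom.comp_apply, RingHom.comp_apply, RingHom.comp_apply, RingHom.comp_apply, hτ,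
        Polynomial.aeval_X, hσF, map_add, map_mul, AlgHom.commutes, AlgHom.commutes, hσ,
        RatFunc.algebraMap_X, ← D.ι_x hQ]
      rfl
  exact RingHom.congr_fun h f

/-- a basis of `K` over `C(x)` adapted to the zeros of `x - a` -/
theorem linearIndependent_family (D : Data k a ρ J e) (hρ : ρ ≠ 0) {n : Type*} [Fintype n]
    (w : n → K) (hw : ∀ l, ∀ Q ∈ J, w l ∈ OA Q)
    (hLIN : ∀ c : n → C, (∀ Q ∈ J, Q.v (∑ l, algebraMap C K (c l) * w l) ≤ exp (-(e Q : ℤ))) →
      c = 0)
    (σ : Pl C K → BD k C →ₐ[C] BD k C) (hσ : ∀ Q ∈ J, σ Q (XB k C) = XB k C ^ e Q)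
    (σF : Pl C K → FractionRing (BD k C) →+* FractionRing (BD k C))
    (hσF : ∀ Q ∈ J, ∀ g : BD k C, σF Q (algebraMap _ _ g) = algebraMap _ _ (σ Q g)) :
    LinearIndependent (RatFunc C) w := by
  obtain ⟨τ, hτ⟩ := exists_tau k a ρ hρ
  rw [Fintype.linearIndependent_iff]
  intro c hc
  have h0 : (fun l => τ (c l)) = 0 := by
    refine eq_zero_of_rel D w hw hLIN σ hσ σF hσF _ fun Q hQ => ?_
    have h1 : ∀ l, σF Q (τ (c l)) * D.ι Q (w l) = D.ι Q (c l • w l) := by
      intro l
      rw [compat D hQ hτ (σ Q) (hσ Q hQ) (σF Q) (hσF Q hQ), ← map_mul, Algebra.smul_def]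
    rw [Finset.sum_congr rfl fun l _ => h1 l, ← map_sum, hc, map_zero]
  intro l
  have h1 : τ (c l) = 0 := congrFun h0 l
  exact (map_eq_zero τ).1 h1

/-- **(INJ)** `K ⊗ Frac BD → ∏ Frac BD` is injective -/
theorem inj (D : Data k a ρ J e) (hρ : ρ ≠ 0)
    (hsum : ∑ Q ∈ J, e Q = Module.finrank (RatFunc C) K)
    (σ : Pl C K → BD k C →ₐ[C] BD k C) (hσ : ∀ Q ∈ J, σ Q (XB k C) = XB k C ^ e Q)
    (σF : Pl C K → FractionRing (BD k C) →+* FractionRing (BD k C))
    (hσF : ∀ Q ∈ J, ∀ g : BD k C, σF Q (algebraMap _ _ g) = algebraMap _ _ (σ Q g))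
    {m : Type*} [Fintype m] (b : m → K) (hb : LinearIndependent (RatFunc C) b)
    (G : m → FractionRing (BD k C)) (hG : ∀ Q ∈ J, ∑ i, σF Q (G i) * D.ι Q (b i) = 0) : G = 0 := by
  classical
  obtain ⟨τ, hτ⟩ := exists_tau k a ρ hρ
  obtain ⟨w, hw, hLIN⟩ := exists_family J e
  have hli := linearIndependent_family D hρ w hw hLIN σ hσ σF hσF
  have hcard : Fintype.card (Σ Q : J, Fin (e Q)) = Module.finrank (RatFunc C) K := by
    rw [Fintype.card_sigma, ← hsum]
    simp only [Fintype.card_fin]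
    exact Finset.sum_coe_sort J e
  have hne : Nonempty (Σ Q : J, Fin (e Q)) := by
    rw [← Fintype.card_pos_iff, hcard]
    exact Module.finrank_pos
  let bw := basisOfLinearIndependentOfCardEqFinrank hli hcard
  have hbw : ∀ l, bw l = w l := fun l => by
    simp [bw]
  -- coordinates
  have h1 : (fun l => ∑ i, G i * τ (bw.repr (b i) l)) = 0 := by
    refine eq_zero_of_rel D w hw hLIN σ hσ σF hσF _ fun Q hQ => ?_
    have h2 := hG Q hQ
    have h3 : ∀ i, D.ι Q (b i) = ∑ l, σF Q (τ (bw.repr (b i) l)) * D.ι Q (w l) := by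
      intro i
      conv_lhs => rw [← bw.sum_repr (b i)]
      rw [map_sum]
      refine Finset.sum_congr rfl fun l _ => ?_
      rw [compat D hQ hτ (σ Q) (hσ Q hQ) (σF Q) (hσF Q hQ), ← map_mul, ← Algebra.smul_def, hbw]
    rw [Finset.sum_congr rfl fun i _ => by rw [h3 i, Finset.mul_sum]] at h2
    rw [Finset.sum_comm] at h2
    rw [← h2]
    refine Finset.sum_congr rfl fun l _ => ?_
    rw [map_sum, Finset.sum_mul]
    refine Finset.sum_congr rfl fun i _ => ?_
    rw [map_mul]; ring
  -- a left inverse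
  have hinjL : Function.Injective (Fintype.linearCombination (RatFunc C) b) :=
    linearIndependent_iff_injective_fintypeLinearCombination.1 hb
  obtain ⟨β, hβ⟩ := LinearMap.exists_leftInverse_of_injective
    (Fintype.linearCombination (RatFunc C) b) (LinearMap.ker_eq_bot.2 hinjL)
  have hβb : ∀ i j, ∑ l, bw.repr (b i) l * β (bw l) j = if i = j then 1 else 0 := by
    intro i j
    have h4 : β (b i) = Pi.single i 1 := by
      have h5 := LinearMap.congr_fun hβ (Pi.single i 1)
      rw [LinearMap.comp_apply, Fintype.linearCombination_apply_single, one_smul] at h5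
      exact h5
    have h6 : β (b i) = ∑ l, bw.repr (b i) l • β (bw l) := by
      conv_lhs => rw [← bw.sum_repr (b i)]
      rw [map_sum]
      refine Finset.sum_congr rfl fun l _ => ?_
      rw [map_smul]
    have h7 := congrFun (h6.symm.trans h4) j
    rw [Finset.sum_apply, Pi.single_apply] at h7
    simp only [Pi.smul_apply, smul_eq_mul] at h7
    rw [h7]
    by_cases hij : i = j
    · rw [if_pos hij, if_pos hij.symm]
    · rw [if_neg hij, if_neg (Ne.symm hij)]
  funext j
  have h8 : G j = ∑ l, (∑ i, G i * τ (bw.repr (b i) l)) * τ (β (bw l) j) := by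
    have h9 : ∀ l, (∑ i, G i * τ (bw.repr (b i) l)) * τ (β (bw l) j) =
        ∑ i, G i * τ (bw.repr (b i) l * β (bw l) j) := by
      intro l
      rw [Finset.sum_mul]
      refine Finset.sum_congr rfl fun i _ => ?_
      rw [map_mul]; ring
    rw [Finset.sum_congr rfl fun l _ => h9 l, Finset.sum_comm]
    have h10 : ∀ i, ∑ l, G i * τ (bw.repr (b i) l * β (bw l) j) = if i = j then G i else 0 := by
      intro i
      rw [← Finset.mul_sum, ← map_sum, hβb]
      split_ifs <;> simp
    rw [Finset.sum_congr rfl fun i _ => h10 i, Finset.sum_ite_eq' Finset.univ j G]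
    simp
  rw [h8]
  refine Finset.sum_eq_zero fun l _ => ?_
  rw [congrFun h1 l]
  simp

/-- **SS-ONE**, type 1 points. -/
theorem one (k : Type*) {C : Type*} [NontriviallyNormedField k] [NormedField C]
    [IsUltrametricDist C] [NormedAlgebra k C] [Algebra.IsAlgebraic k C] [IsAlgClosed C]
    [CharZero C] (K : Type*) [Field K] [Algebra C K] [Algebra (RatFunc C) K]
    [IsScalarTower C (RatFunc C) K] [FiniteDimensional (RatFunc C) K]
    [Algebra.IsSeparable (RatFunc C) K] (a : C) :
    ∃ (J : Finset (Pl C K)) (e : Pl C K → ℕ),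
      (∀ Q ∈ J, 1 ≤ e Q ∧ Q.v (xK C K - algebraMap C K a) = exp (-(e Q : ℤ))) ∧
      (∀ Q : Pl C K, Q.v (xK C K - algebraMap C K a) < 1 → Q ∈ J) ∧
      ∑ Q ∈ J, e Q = Module.finrank (RatFunc C) K ∧
      ∃ r0 : C, r0 ≠ 0 ∧ ∀ ρ : C, ρ ≠ 0 → ‖ρ‖ ≤ ‖r0‖ →
        ∃ ι : Pl C K → K →+* FractionRing (BD k C),
          (∀ Q ∈ J, ∀ c : C, ι Q (algebraMap C K c) = algebraMap _ _ (algebraMap C (BD k C) c)) ∧
          (∀ Q ∈ J, ι Q (xK C K) = algebraMap _ _
            (algebraMap C (BD k C) a + algebraMap C (BD k C) ρ * XB k C ^ e Q)) ∧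
          ∀ (σ : Pl C K → BD k C →ₐ[C] BD k C)
            (σF : Pl C K → FractionRing (BD k C) →+* FractionRing (BD k C)),
            (∀ Q ∈ J, σ Q (XB k C) = XB k C ^ e Q) →
            (∀ Q ∈ J, ∀ g : BD k C, σF Q (algebraMap _ _ g) = algebraMap _ _ (σ Q g)) →
            ∀ {m : ℕ} (b : Fin m → K), LinearIndependent (RatFunc C) b →
            ∀ G : Fin m → FractionRing (BD k C),
              (∀ Q ∈ J, ∑ i, σF Q (G i) * ι Q (b i) = 0) → G = 0 := by
  obtain ⟨J, e, h1, h2, h3⟩ := exists_zeros (K := K) a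
  have hne : J.Nonempty := by
    by_contra h
    rw [Finset.not_nonempty_iff_eq_empty] at h
    rw [h, Finset.sum_empty] at h3
    have : 0 < Module.finrank (RatFunc C) K := Module.finrank_pos
    omega
  obtain ⟨r0, hr0, H⟩ := exists_data k a J hne e h1
  refine ⟨J, e, h1, h2, h3, r0, hr0, fun ρ hρ hρr => ?_⟩
  obtain ⟨D⟩ := H ρ hρ hρr
  exact ⟨D.ι, fun Q hQ c => D.ι_const hQ c, fun Q hQ => D.ι_x hQ,
    fun σ σF hσ hσF m b hb G hG => inj D hρ h3 σ hσ σF hσF b hb G hG⟩

end Crest.Agent.R013.One_863
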