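import Mathlib
import Crest.Agent.R013.One7_863

/-!
# Row 13, leaf SS-ONE (helper863): the point at infinity

Same statement as `One_863.one` for the coordinate `1 / x` (`one_inf`).
-/

set_option autoImplicit false
set_option linter.unusedSectionVars false
set_option linter.style.haveILetI false

open PowerSeries WithZero

namespace Crest.Agent.R013.One_863

open Crest.Agent.R013.RR7_948 Crest.Agent.R013.RR8_948 Crest.Agent.R013.RR9_948
open Crest.Agent.R013.RR11_948
open Crest.Agent.R013.RR12_948 Crest.Agent.R013.RR20_948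
open Crest.Agent.R013.Cell_408 Crest.Agent.R013.PlX_863 Crest.Agent.R013.Cvg_863

section Change

variable {C : Type*} [Field C] {K : Type*} [Field K] [Algebra C K]
  [i1 : Algebra (RatFunc C) K] [IsScalarTower C (RatFunc C) K]

theorem transcendental_inv {L : Type*} [Field L] [Algebra C L] {z : L} (hz : Transcendental C z) :
    Transcendental C z⁻¹ := by
  intro h
  exact hz (by simpa using h.inv)

/-- the structure `X ↦ x⁻¹` factors through the structure `X ↦ x` -/
theorem ratAlg_inv_eq (f : RatFunc C) :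
    ratHom (xK C K)⁻¹ (transcendental_inv transcendental_xK) f =
      algebraMap (RatFunc C) K (ratHom (RatFunc.X : RatFunc C)⁻¹
        (transcendental_inv RatFunc.transcendental_X) f) := by
  have h : (ratHom (xK C K)⁻¹ (transcendental_inv transcendental_xK)).toRingHom =
      (algebraMap (RatFunc C) K).comp (ratHom (RatFunc.X : RatFunc C)⁻¹
        (transcendental_inv RatFunc.transcendental_X)).toRingHom := by
    apply IsLocalization.ringHom_ext (nonZeroDivisors (Polynomial C))
    apply Polynomial.ringHom_ext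
    · intro c
      simp only [RingHom.comp_apply]
      rw [RatFunc.algebraMap_C, ← RatFunc.algebraMap_eq_C]
      show (ratHom (xK C K)⁻¹ (transcendental_inv transcendental_xK)) _ =
        algebraMap (RatFunc C) K ((ratHom (RatFunc.X : RatFunc C)⁻¹
          (transcendental_inv RatFunc.transcendental_X)) _)
      rw [AlgHom.commutes, AlgHom.commutes, ← IsScalarTower.algebraMap_apply]
    · simp only [RingHom.comp_apply]
      rw [RatFunc.algebraMap_X]
      show (ratHom (xK C K)⁻¹ (transcendental_inv transcendental_xK)) _ =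
        algebraMap (RatFunc C) K ((ratHom (RatFunc.X : RatFunc C)⁻¹
          (transcendental_inv RatFunc.transcendental_X)) _)
      rw [ratHom_X, ratHom_X, map_inv₀]
      rfl
  exact RingHom.congr_fun h f

theorem linearIndependent_ratAlg_inv {m : Type*} [Fintype m] {b : m → K}
    (hb : LinearIndependent (RatFunc C) b) :
    @LinearIndependent m (RatFunc C) K b _ _
      (ratAlg (xK C K)⁻¹ (transcendental_inv transcendental_xK)).toModule := by
  rw [Fintype.linearIndependent_iff] at hb
  have hb' : ∀ g : m → RatFunc C, ∑ l, algebraMap (RatFunc C) K (g l) * b l = 0 → ∀ l, g l = 0 := by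
    intro g hg
    refine hb g ?_
    rw [← hg]
    exact Finset.sum_congr rfl fun l _ => Algebra.smul_def _ _
  have key : ∀ g : m → RatFunc C,
      ∑ l, ratHom (xK C K)⁻¹ (transcendental_inv transcendental_xK) (g l) * b l = 0 →
      ∀ l, g l = 0 := by
    intro g hg l
    have h4 := hb' (fun l => ratHom (RatFunc.X : RatFunc C)⁻¹
      (transcendental_inv RatFunc.transcendental_X) (g l)) (by
        rw [← hg]
        exact Finset.sum_congr rfl fun l _ => by rw [ratAlg_inv_eq]) l
    exact (_root_.map_eq_zero (ratHom (RatFunc.X : RatFunc C)⁻¹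
      (transcendental_inv RatFunc.transcendental_X))).1 h4
  letI i2 : Algebra (RatFunc C) K := ratAlg (xK C K)⁻¹ (transcendental_inv transcendental_xK)
  exact Fintype.linearIndependent_iff.2 fun g hg l => key g hg l

end Change

/-- **SS-ONE**, the point at infinity. -/
theorem one_inf (k : Type*) {C : Type*} [NontriviallyNormedField k] [NormedField C]
    [IsUltrametricDist C] [NormedAlgebra k C] [Algebra.IsAlgebraic k C] [IsAlgClosed C]
    [CharZero C] (K : Type*) [Field K] [Algebra C K] [Algebra (RatFunc C) K]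
    [IsScalarTower C (RatFunc C) K] [FiniteDimensional (RatFunc C) K]
    [Algebra.IsSeparable (RatFunc C) K] :
    ∃ (J : Finset (Pl C K)) (e : Pl C K → ℕ),
      (∀ Q ∈ J, 1 ≤ e Q ∧ Q.v (xK C K)⁻¹ = exp (-(e Q : ℤ))) ∧
      (∀ Q : Pl C K, Q.v (xK C K)⁻¹ < 1 → Q ∈ J) ∧
      ∑ Q ∈ J, e Q = Module.finrank (RatFunc C) K ∧
      ∃ r0 : C, r0 ≠ 0 ∧ ∀ ρ : C, ρ ≠ 0 → ‖ρ‖ ≤ ‖r0‖ →
        ∃ ι : Pl C K → K →+* FractionRing (BD k C),
          (∀ Q ∈ J, ∀ c : C, ι Q (algebraMap C K c) = algebraMap _ _ (algebraMap C (BD k C) c)) ∧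
          (∀ Q ∈ J, ι Q (xK C K)⁻¹ = algebraMap _ _
            (algebraMap C (BD k C) ρ * XB k C ^ e Q)) ∧
          ∀ (σ : Pl C K → BD k C →ₐ[C] BD k C)
            (σF : Pl C K → FractionRing (BD k C) →+* FractionRing (BD k C)),
            (∀ Q ∈ J, σ Q (XB k C) = XB k C ^ e Q) →
            (∀ Q ∈ J, ∀ g : BD k C, σF Q (algebraMap _ _ g) = algebraMap _ _ (σ Q g)) →
            ∀ {m : ℕ} (b : Fin m → K), LinearIndependent (RatFunc C) b →
            ∀ G : Fin m → FractionRing (BD k C),
              (∀ Q ∈ J, ∑ i, σF Q (G i) * ι Q (b i) = 0) → G = 0 := by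
  have hy : Transcendental C (xK C K)⁻¹ := transcendental_inv transcendental_xK
  have hsep := ratAlg_isSeparable (xK C K)⁻¹ hy
  have hfin := ratAlg_finite (xK C K)⁻¹ hy
  have htow := ratAlg_tower (xK C K)⁻¹ hy
  have hx0 : xK C K ≠ 0 := by
    have := yy_ne_zero (K := K) (0 : C)
    rwa [yy, map_zero, sub_zero] at this
  -- the degree
  have hdeg : @Module.finrank (RatFunc C) K _ _ (ratAlg (xK C K)⁻¹ hy).toModule =
      Module.finrank (RatFunc C) K := by
    have h1 := degD_poles_eq (xK C K)⁻¹ hy hsep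
    rw [poles_inv hx0, degD_zeros_eq_poles hx0, degD_poles_xK] at h1
    exact_mod_cast h1.symm
  have hlin := fun {m : ℕ} (b : Fin m → K) (hb : LinearIndependent (RatFunc C) b) =>
    linearIndependent_ratAlg_inv hb
  have hX := ratAlg_xK (xK C K)⁻¹ hy
  obtain ⟨J, e, h1, h2, h3, r0, hr0, H⟩ :=
    @one k C _ _ _ _ _ _ _ K _ _ (ratAlg (xK C K)⁻¹ hy) htow hfin hsep 0
  rw [hX, map_zero, sub_zero] at h1
  rw [hX, map_zero, sub_zero] at h2
  refine ⟨J, e, h1, h2, h3.trans hdeg, r0, hr0, fun ρ hρ hρr => ?_⟩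
  obtain ⟨ι, h4, h5, h6⟩ := H ρ hρ hρr
  refine ⟨ι, h4, fun Q hQ => ?_, fun σ σF hσ hσF m b hb G hG =>
    h6 σ σF hσ hσF b (hlin b hb) G hG⟩
  have h7 := h5 Q hQ
  rw [hX, map_zero, zero_add] at h7
  exact h7

end Crest.Agent.R013.One_863
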