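import Mathlib
import Crest.Agent.R013.One8_863
import Crest.Agent.R013.Comp4_267

/-!
# Row 13, leaf SS-ONE (helper863): the form needed by `DCells`

`exists_cells`, `exists_cells_inf`: the discs over a small disc around `a`, resp. around infinity,
with the composition `compF` of helper267.
-/

set_option autoImplicit false
set_option linter.unusedSectionVars false
set_option linter.style.haveILetI false

open PowerSeries WithZero

namespace Crest.Agent.R013.One_863

open Crest.Agent.R013.RR7_948 Crest.Agent.R013.RR8_948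
open Crest.Agent.R013.Cell_408 Crest.Agent.R013.PlX_863 Crest.Agent.R013.Cvg_863
open Crest.Agent.R013.Comp_267

section

variable {k C : Type*} [NontriviallyNormedField k] [CompleteSpace k] [IsUltrametricDist k]
  [NormedField C] [IsUltrametricDist C] [NormedAlgebra k C] [Algebra.IsAlgebraic k C] [IsAlgClosed C]

variable (k C) in
theorem wd_X_pow (m : ℕ) : WD k (X ^ m : C⟦X⟧) m where
  fin := ((X_mem_BD (k := k) (C := C)) |> fun h => (mem_BD.1 (pow_mem h m)).1)
  le n := by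
    rw [coeff_X_pow]; split_ifs <;> simp
  eq := by simp
  lt n hn := by
    rw [coeff_X_pow, if_neg hn.ne]; simp

/-- the discs over a small disc -/
structure Cells (hk : DiscNorm k) (K : Type*) [Field K] [Algebra C K] [Algebra (RatFunc C) K]
    (y : FD k C) where
  N : ℕ
  m : Fin N → ℕ
  hm : ∀ j, m j ≠ 0
  ι : Fin N → K →ₐ[C] FD k C
  hx : ∀ j, ι j (algebraMap (RatFunc C) K RatFunc.X) = compF hk (wd_X_pow k C (m j)) (hm j) y
  sum : ∑ j, m j = Module.finrank (RatFunc C) K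
  inj : ∀ {n : ℕ} (b : Fin n → K), LinearIndependent (RatFunc C) b → ∀ e : Fin n → FD k C,
    (∀ j, ∑ i, compF hk (wd_X_pow k C (m j)) (hm j) (e i) * ι j (b i) = 0) → e = 0

end

variable {k C : Type*} [NontriviallyNormedField k] [CompleteSpace k] [IsUltrametricDist k]
  [NormedField C] [IsUltrametricDist C] [NormedAlgebra k C] [Algebra.IsAlgebraic k C] [IsAlgClosed C]
  [CharZero C]
variable {K : Type*} [Field K] [Algebra C K]
  [Algebra (RatFunc C) K] [IsScalarTower C (RatFunc C) K] [FiniteDimensional (RatFunc C) K]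
  [Algebra.IsSeparable (RatFunc C) K]

/-- common last step -/
theorem cells_of (hk : DiscNorm k) (J : Finset (Pl C K)) (e : Pl C K → ℕ)
    (he : ∀ Q ∈ J, 1 ≤ e Q) (hsum : ∑ Q ∈ J, e Q = Module.finrank (RatFunc C) K)
    (ι : Pl C K → K →+* FractionRing (BD k C))
    (hC : ∀ Q ∈ J, ∀ c : C, ι Q (algebraMap C K c) = algebraMap _ _ (algebraMap C (BD k C) c))
    (y : FD k C)
    (hx : ∀ Q ∈ J, ∀ hQ : e Q ≠ 0, ι Q (xK C K) = compF hk (wd_X_pow k C (e Q)) hQ y)
    (hinj : ∀ (σ : Pl C K → BD k C →ₐ[C] BD k C)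
            (σF : Pl C K → FractionRing (BD k C) →+* FractionRing (BD k C)),
            (∀ Q ∈ J, σ Q (XB k C) = XB k C ^ e Q) →
            (∀ Q ∈ J, ∀ g : BD k C, σF Q (algebraMap _ _ g) = algebraMap _ _ (σ Q g)) →
            ∀ {m : ℕ} (b : Fin m → K), LinearIndependent (RatFunc C) b →
            ∀ G : Fin m → FractionRing (BD k C),
              (∀ Q ∈ J, ∑ i, σF Q (G i) * ι Q (b i) = 0) → G = 0) :
    Nonempty (Cells hk K y) := by
  classical
  let ε := J.equivFin
  have hm : ∀ j, e (ε.symm j) ≠ 0 := fun j => by have := he _ (ε.symm j).2; omega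
  refine ⟨⟨J.card, fun j => e (ε.symm j), hm, fun j =>
    { (ι (ε.symm j) : K →+* FractionRing (BD k C)) with
      commutes' := fun c => by
        have h1 := hC _ (ε.symm j).2 c
        rw [← IsScalarTower.algebraMap_apply] at h1
        exact h1 }, fun j => hx _ (ε.symm j).2 _, ?_, ?_⟩⟩
  · rw [← hsum, ← Finset.sum_coe_sort J e]
    exact Fintype.sum_equiv ε.symm _ _ fun _ => rfl
  · intro n b hb G hG
    -- the compositions, extended by the identity outside `J`
    let σ : Pl C K → BD k C →ₐ[C] BD k C := fun Q =>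
      if h : e Q ≠ 0 then comp (X ^ e Q) (WD.co (wd_X_pow k C (e Q)) h) else AlgHom.id C _
    let σF : Pl C K → FractionRing (BD k C) →+* FractionRing (BD k C) := fun Q =>
      if h : e Q ≠ 0 then (compF hk (wd_X_pow k C (e Q)) h : FD k C →+* FD k C)
        else RingHom.id _
    have hσ : ∀ Q (h : e Q ≠ 0), σ Q = comp (X ^ e Q) (WD.co (wd_X_pow k C (e Q)) h) :=
      fun Q h => dif_pos h
    have hσF : ∀ Q (h : e Q ≠ 0), σF Q = (compF hk (wd_X_pow k C (e Q)) h : FD k C →+* FD k C) :=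
      fun Q h => dif_pos h
    refine hinj σ σF (fun Q hQ => ?_) (fun Q hQ g => ?_) b hb G fun Q hQ => ?_
    · have h0 : e Q ≠ 0 := by have := he Q hQ; omega
      rw [hσ Q h0]
      apply Subtype.ext
      have h1 := comp_X (k := k) (X ^ e Q : C⟦X⟧) (WD.co (wd_X_pow k C (e Q)) h0)
      have h2 := congrArg (fun z : BD k C => (z : C⟦X⟧)) h1
      exact h2
    · have h0 : e Q ≠ 0 := by have := he Q hQ; omega
      rw [hσ Q h0, hσF Q h0]
      exact compF_algebraMap hk (wd_X_pow k C (e Q)) h0 g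
    · have h0 : e Q ≠ 0 := by have := he Q hQ; omega
      have h3 := hG (ε ⟨Q, hQ⟩)
      have h4 : ε.symm (ε ⟨Q, hQ⟩) = ⟨Q, hQ⟩ := ε.symm_apply_apply _
      rw [← h3]
      refine Finset.sum_congr rfl fun i _ => ?_
      rw [hσF Q h0]
      have h5 : ∀ (q : J) (hq : q = ⟨Q, hQ⟩) (h : e q ≠ 0),
          (compF hk (wd_X_pow k C (e q)) h : FD k C →+* FD k C) (G i) * ι q (b i) =
          (compF hk (wd_X_pow k C (e Q)) h0 : FD k C →+* FD k C) (G i) * ι Q (b i) := by
        rintro q rfl h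
        rfl
      exact (h5 _ h4 (hm _)).symm

/-- **SS-ONE**: the discs over a small disc around `a` -/
theorem exists_cells (hk : DiscNorm k) (K : Type*) [Field K] [Algebra C K]
    [Algebra (RatFunc C) K] [IsScalarTower C (RatFunc C) K] [FiniteDimensional (RatFunc C) K]
    [Algebra.IsSeparable (RatFunc C) K] (a : C) :
    ∃ r0 : C, r0 ≠ 0 ∧ ∀ ρ : C, ρ ≠ 0 → ‖ρ‖ ≤ ‖r0‖ →
      Nonempty (Cells hk K (algebraMap C (FD k C) a + algebraMap C (FD k C) ρ * TF k C)) := by
  obtain ⟨J, e, h1, h2, h3, r0, hr0, H⟩ := one k K a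
  refine ⟨r0, hr0, fun ρ hρ hρr => ?_⟩
  obtain ⟨ι, h4, h5, h6⟩ := H ρ hρ hρr
  refine cells_of hk J e (fun Q hQ => (h1 Q hQ).1) h3 ι h4 _ (fun Q hQ h0 => ?_) h6
  have h7 : compF hk (wd_X_pow k C (e Q)) h0
      (algebraMap C (FD k C) a + algebraMap C (FD k C) ρ * TF k C) =
      algebraMap C (FD k C) a + algebraMap C (FD k C) ρ *
        algebraMap (BD k C) (FD k C) ⟨X ^ e Q, (wd_X_pow k C (e Q)).mem⟩ := by
    rw [map_add, map_mul, AlgHom.commutes, AlgHom.commutes, compF_TF]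
  have h8 : (XB k C ^ e Q : BD k C) = ⟨X ^ e Q, (wd_X_pow k C (e Q)).mem⟩ := rfl
  rw [h7, h5 Q hQ, map_add, map_mul, h8, ← IsScalarTower.algebraMap_apply,
    ← IsScalarTower.algebraMap_apply]

/-- **SS-ONE**: the discs over a small disc around infinity -/
theorem exists_cells_inf (hk : DiscNorm k) (K : Type*) [Field K] [Algebra C K]
    [Algebra (RatFunc C) K] [IsScalarTower C (RatFunc C) K] [FiniteDimensional (RatFunc C) K]
    [Algebra.IsSeparable (RatFunc C) K] :
    ∃ r0 : C, r0 ≠ 0 ∧ ∀ ρ : C, ‖r0‖ ≤ ‖ρ‖ →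
      Nonempty (Cells hk K (algebraMap C (FD k C) ρ * (TF k C)⁻¹)) := by
  obtain ⟨J, e, h1, h2, h3, r0, hr0, H⟩ := one_inf k (C := C) K
  refine ⟨r0⁻¹, inv_ne_zero hr0, fun ρ hρr => ?_⟩
  have hρ : ρ ≠ 0 := by
    rintro rfl
    rw [norm_zero] at hρr
    exact inv_ne_zero hr0 (norm_le_zero_iff.1 hρr)
  obtain ⟨ι, h4, h5, h6⟩ := H ρ⁻¹ (inv_ne_zero hρ) (by
    rw [norm_inv] at hρr ⊢
    exact inv_le_of_inv_le₀ (norm_pos_iff.2 hr0) hρr)
  refine cells_of hk J e (fun Q hQ => (h1 Q hQ).1) h3 ι h4 _ (fun Q hQ h0 => ?_) h6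
  have h7 : compF hk (wd_X_pow k C (e Q)) h0 (algebraMap C (FD k C) ρ * (TF k C)⁻¹) =
      algebraMap C (FD k C) ρ *
        (algebraMap (BD k C) (FD k C) ⟨X ^ e Q, (wd_X_pow k C (e Q)).mem⟩)⁻¹ := by
    rw [map_mul, map_inv₀, AlgHom.commutes, compF_TF]
  have h8 : (XB k C ^ e Q : BD k C) = ⟨X ^ e Q, (wd_X_pow k C (e Q)).mem⟩ := rfl
  have h9 := h5 Q hQ
  rw [map_inv₀, map_mul, h8, ← IsScalarTower.algebraMap_apply, map_inv₀] at h9
  rw [h7, ← inv_inv (ι Q (xK C K)), h9, mul_inv, inv_inv]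

end Crest.Agent.R013.One_863
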