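import Mathlib
import Crest.Agent.R013.One9_863
import Crest.Agent.R013.Good1_408

/-!
# Row 13, leaf SS-ONE (helper863): small discs around the points of type 1 are good

`goodDisc`: for `a ∈ C` all small discs around `a` are good; `goodInf`: all small discs around
infinity are good.
-/

set_option autoImplicit false
set_option linter.unusedSectionVars false

namespace Crest.Agent.R013.One_863

open Crest.Agent.R013.Cell_408 Crest.Agent.R013.Comp_267 Crest.Agent.R013.Good_408

variable {k C : Type*} [NontriviallyNormedField k] [CompleteSpace k] [IsUltrametricDist k]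
  [NormedField C] [IsUltrametricDist C] [NormedAlgebra k C] [Algebra.IsAlgebraic k C] [IsAlgClosed C]
  [hk : Fact (DiscNorm k)]

/-- from `Cells` to `DCells` -/
noncomputable def Cells.toDCells {K : Type*} [Field K] [Algebra C K] [Algebra (RatFunc C) K]
    [IsScalarTower C (RatFunc C) K] {y : FD k C} (D : Cells hk.out K y) : DCells k C K y where
  J := Fin D.N
  fJ := inferInstance
  m := D.m
  f j := PowerSeries.X ^ D.m j
  wd j := wd_X_pow k C (D.m j)
  m_ne := D.hm
  io := D.ι
  hx := D.hx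
  sum_m := D.sum
  inj _ b hb := D.inj b hb

variable (k C) [CharZero C] (K : Type*) [Field K] [Algebra C K]
  [Algebra (RatFunc C) K] [IsScalarTower C (RatFunc C) K] [FiniteDimensional (RatFunc C) K]

/-- **SS-ONE**, finite points -/
theorem goodDisc (a : C) : ∃ r0 : C, r0 ≠ 0 ∧ ∀ ρ : C, ρ ≠ 0 → ‖ρ‖ ≤ ‖r0‖ →
    GoodDisc k C K a ρ := by
  obtain ⟨r0, hr0, H⟩ := exists_cells (C := C) hk.out K a
  exact ⟨r0, hr0, fun ρ hρ h => (H ρ hρ h).map Cells.toDCells⟩

/-- **SS-ONE**, the point at infinity -/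
theorem goodInf : ∃ r0 : C, r0 ≠ 0 ∧ ∀ ρ : C, ‖r0‖ ≤ ‖ρ‖ → GoodInf k C K ρ := by
  obtain ⟨r0, hr0, H⟩ := exists_cells_inf (C := C) hk.out K
  exact ⟨r0, hr0, fun ρ h => (H ρ h).map Cells.toDCells⟩

end Crest.Agent.R013.One_863
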