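import Crest.Agent.R013.Spr10_607

/-! # R013 / Spr11_607 : (SPR4) small discs around a point of type 4 are good. -/

set_option autoImplicit false
set_option linter.unusedSectionVars false
set_option linter.style.haveILetI false

noncomputable section

namespace Crest.Agent.R013.Spread_607

open Topology Crest.Agent.R013.Cell_408 Crest.Agent.R013.Comp_267 Crest.Agent.R013.Sub_270
open Crest.Agent.R013.A2a_275 Crest.Agent.R013.Good_408
open scoped NNReal

universe u

variable {k : Type*} {C : Type u} [NontriviallyNormedField k] [CompleteSpace k] [IsUltrametricDist k]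
  [NormedField C] [IsUltrametricDist C] [NormedAlgebra k C] [Algebra.IsAlgebraic k C] [IsAlgClosed C]
  {K : Type u} [Field K] [Algebra C K] [Algebra (RatFunc C) K] [IsScalarTower C (RatFunc C) K]

/-- the assembly, once the discs are chosen -/
theorem good4 [hk : Fact (DiscNorm k)] {w0 : Valuation (RatFunc C) ℝ≥0}
    (hw0 : ∀ c, w0 (RatFunc.C c) = ‖c‖₊)
    [FiniteDimensional (RatFunc C) K]
    (D : Fam (RatFunc C) K w0) (a ρ : C) (haρ : w0 (RatFunc.X - RatFunc.C a) < ‖ρ‖₊)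
    {n : ℕ} (b : Module.Basis (Fin n) (RatFunc C) K)
    (t : Fin D.N → K)
    (ht : ∀ i, Ty4 (jw C (D.w i)) (toCpl (D.w i) (t i)))
    (V : ∀ i, Dc (jw C (D.w i)) (toCpl (D.w i) (t i)))
    (g : Fin D.N → PowerSeries C) (m : Fin D.N → ℕ) (hg : ∀ i, WD k (g i) (m i)) (hm : ∀ i, m i ≠ 0)
    (hev : ∀ i, (V i).ev (norm_jw (fam_norm hw0 D i)) ⟨g i, (hg i).mem⟩ =
      (toCpl (D.w i) (algebraMap (RatFunc C) K RatFunc.X) - jw C (D.w i) a) / jw C (D.w i) ρ)
    (ι : Fin D.N → K →ₐ[C] FD k C)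
    (hι : ∀ i z, (V i).evF hk.out (norm_jw (fam_norm hw0 D i)) (ht i) (ι i z) = toCpl (D.w i) z)
    (π : C) (hπ0 : π ≠ 0) (hπ1 : ‖π‖ < 1)
    (hsep : ∀ i l, i ≠ l → ∃ z : K, z ≠ 0 ∧
      (∃ f : BD k C, (V i).ev (norm_jw (fam_norm hw0 D i)) f = toCpl (D.w i) z ∧ BdS ‖π‖ f) ∧
      ∃ f : BD k C, (V l).ev (norm_jw (fam_norm hw0 D l)) f = toCpl (D.w l) z⁻¹ ∧ BdS ‖π‖ f) :
    GoodDisc k C K a ρ := by
  classical
  have hρ : 0 < ‖ρ‖₊ := lt_of_le_of_lt zero_le haρ
  have hρ0 : ρ ≠ 0 := nnnorm_pos.1 hρ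
  have htr := transcendental_discY (k := k) a hρ0
  have hinjF : ∀ i, Function.Injective ((V i).evF hk.out (norm_jw (fam_norm hw0 D i)) (ht i)) :=
    fun i => RingHom.injective _
  have hx : ∀ i, ι i (algebraMap (RatFunc C) K RatFunc.X) =
      compF hk.out (hg i) (hm i) (discY k C a ρ) := by
    intro i
    apply hinjF i
    rw [hι, discY, map_add, map_mul, AlgHom.commutes, AlgHom.commutes, map_add, map_mul,
      Dc.evF_C, Dc.evF_C, compF_TF, Dc.evF_algebraMap, hev i]
    have hjρ : jw C (D.w i) ρ ≠ 0 := (map_ne_zero_iff _ (jw C (D.w i)).injective).2 hρ0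
    field_simp
    ring
  have hcard : Fintype.card (Fin n) = Module.finrank (RatFunc C) K :=
    (Module.finrank_eq_card_basis b).symm
  have hinj := inj4 hk.out hw0 D a ρ haρ b t ht V g m hg hm hev ι hι
  refine GoodD.mk' (discY k C a ρ) htr (Fin D.N) m g hg hm ι hx ?_ b b.linearIndependent hcard hinj
  -- the count
  rw [← hcard, Fintype.card_fin]
  let α : RatFunc C →+* FD k C := (ratHom (discY k C a ρ) htr).toRingHom
  have hα : ∀ i f, (ι i).toRingHom (algebraMap (RatFunc C) K f) =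
      (compF hk.out (hg i) (hm i)).toRingHom (α f) := by
    intro i f
    have h : (compF hk.out (hg i) (hm i)).toRingHom.comp α =
        (ι i).toRingHom.comp (algebraMap (RatFunc C) K) := by
      refine rat_ext (fun c => ?_) ?_
      · change compF hk.out (hg i) (hm i) (ratHom (discY k C a ρ) htr (algebraMap C _ c)) =
          ι i (algebraMap (RatFunc C) K (algebraMap C _ c))
        rw [AlgHom.commutes, AlgHom.commutes, ← IsScalarTower.algebraMap_apply, AlgHom.commutes]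
      · change compF hk.out (hg i) (hm i) (ratHom (discY k C a ρ) htr RatFunc.X) =
          ι i (algebraMap (RatFunc C) K RatFunc.X)
        rw [ratHom_X, hx]
    exact (DFunLike.congr_fun h f).symm
  have hspan := span_all (F := RatFunc C) (K := K) (L := FD k C) (α := α) (o := oB k C)
    (M := fun _ : Fin D.N => FD k C) (φ := fun i => (compF hk.out (hg i) (hm i)).toRingHom)
    (ι := fun i => (ι i).toRingHom) (b := b) (m := m) (T := fun _ => TF k C) hα
    (fun i u => compF_repr hk.out (hg i) (hm i) u) ?_ ?_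
  · exact count_le (F := RatFunc C) (K := K) (L := FD k C)
      (M := fun _ : Fin D.N => FD k C) (φ := fun i => (compF hk.out (hg i) (hm i)).toRingHom)
      (ι := fun i => (ι i).toRingHom) (b := b) (m := m) (T := fun _ => TF k C) hspan
      (fun i e he => compF_indep hk.out (hg i) (hm i) e he)
  · -- the coordinate is in the span
    intro i
    let z : K := (t i - algebraMap C K (V i).τ) / algebraMap C K (V i).σ
    have hz : ι i z = TF k C := by
      apply hinjF i
      rw [hι, Dc.evF_TF, map_div₀, map_sub]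
      rfl
    refine ⟨fun l => α (b.repr z l), ?_⟩
    rw [← hz]
    conv_lhs => rw [← b.sum_repr z, map_sum]
    refine Finset.sum_congr rfl fun l _ => ?_
    rw [Algebra.smul_def, map_mul]
    congr 1
    exact hα i _
  · -- separation
    intro i l hil
    obtain ⟨z, hz0, ⟨f, hf1, hf2⟩, ⟨f', hf1', hf2'⟩⟩ := hsep i l hil
    have hBC : BdS ‖π⁻¹‖ (algebraMap C (BD k C) π⁻¹) := by
      intro n
      change ‖PowerSeries.coeff n (PowerSeries.C π⁻¹)‖ ≤ _
      rw [PowerSeries.coeff_C]; split_ifs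
      · exact le_rfl
      · rw [norm_zero]; exact norm_nonneg _
    have hππ : ‖π⁻¹‖ * ‖π‖ = 1 := by
      rw [← norm_mul, inv_mul_cancel₀ hπ0, norm_one]
    have e1 : ι i z = algebraMap (BD k C) (FD k C) f := by
      apply hinjF i
      rw [hι, Dc.evF_algebraMap, hf1]
    have e2 : ι l z⁻¹ = algebraMap (BD k C) (FD k C) f' := by
      apply hinjF l
      rw [hι, Dc.evF_algebraMap, hf1']
    refine ⟨z, algebraMap C (FD k C) π⁻¹, algebraMap C (FD k C) π⁻¹, hz0, ?_, ?_, ?_⟩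
    · have h1 := integral_of_bdS hk.out (hg i) (hm i)
        (a := algebraMap C (BD k C) π⁻¹ * f) (by
          have := bdS_mul (norm_nonneg _) (norm_nonneg _) hBC hf2
          rwa [hππ] at this)
      have h2 : algebraMap (BD k C) (FD k C) (algebraMap C (BD k C) π⁻¹ * f) =
          (compF hk.out (hg i) (hm i)).toRingHom (algebraMap C (FD k C) π⁻¹) *
            (ι i).toRingHom z := by
        change _ = compF hk.out (hg i) (hm i) (algebraMap C (FD k C) π⁻¹) * ι i z
        rw [e1, AlgHom.commutes, map_mul, ← IsScalarTower.algebraMap_apply]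
      rw [h2] at h1
      exact h1
    · have h1 := integral_of_bdS hk.out (hg l) (hm l)
        (a := algebraMap C (BD k C) π⁻¹ * f') (by
          have := bdS_mul (norm_nonneg _) (norm_nonneg _) hBC hf2'
          rwa [hππ] at this)
      have h2 : algebraMap (BD k C) (FD k C) (algebraMap C (BD k C) π⁻¹ * f') =
          (compF hk.out (hg l) (hm l)).toRingHom (algebraMap C (FD k C) π⁻¹) *
            ((ι l).toRingHom z)⁻¹ := by
        change _ = compF hk.out (hg l) (hm l) (algebraMap C (FD k C) π⁻¹) * (ι l z)⁻¹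
        rw [← map_inv₀, e2, AlgHom.commutes, map_mul, ← IsScalarTower.algebraMap_apply]
      rw [h2] at h1
      exact h1
    · rw [← map_mul]
      apply not_integral
      rw [norm_mul, norm_inv]
      have h3 : 1 < ‖π‖⁻¹ := by
        rw [one_lt_inv₀ (norm_pos_iff.2 hπ0)]; exact hπ1
      nlinarith

theorem finite_adjoin_X [FiniteDimensional (RatFunc C) K] : FiniteDimensional
    (IntermediateField.adjoin C {algebraMap (RatFunc C) K RatFunc.X}) K := by
  set A := IntermediateField.adjoin C {algebraMap (RatFunc C) K RatFunc.X} with hA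
  have hX : algebraMap (RatFunc C) K RatFunc.X ∈ A := IntermediateField.mem_adjoin_simple_self C _
  have hP : ∀ P : Polynomial C, algebraMap (RatFunc C) K (algebraMap (Polynomial C) (RatFunc C) P) ∈ A := by
    intro P
    induction P using Polynomial.induction_on' with
    | add p q hp hq => rw [map_add, map_add]; exact add_mem hp hq
    | monomial m a =>
      rw [← Polynomial.C_mul_X_pow_eq_monomial, map_mul, map_pow, map_mul, map_pow,
        RatFunc.algebraMap_X, RatFunc.algebraMap_C, ← RatFunc.algebraMap_eq_C,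
        ← IsScalarTower.algebraMap_apply]
      exact mul_mem (A.algebraMap_mem a) (pow_mem hX m)
  have hr : ∀ r : RatFunc C, algebraMap (RatFunc C) K r ∈ A := by
    intro r
    rw [← RatFunc.num_div_denom r, map_div₀]
    exact div_mem (hP _) (hP _)
  let φ : RatFunc C →+* A := (algebraMap (RatFunc C) K).codRestrict A hr
  letI : Algebra (RatFunc C) A := φ.toAlgebra
  haveI : IsScalarTower (RatFunc C) A K := IsScalarTower.of_algebraMap_eq fun _ => rfl
  exact Module.Finite.of_restrictScalars_finite (RatFunc C) A K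

/-- **(SPR4)** -/
theorem spr4 [hk : Fact (DiscNorm k)] [CharZero C] [FiniteDimensional (RatFunc C) K]
    {p : ℕ} (hp : p.Prime) (hp1 : ‖(p : C)‖ < 1) (v : Valuation C ℝ≥0) (hv : ∀ c, v c = ‖c‖₊) :
    Crest.Agent.R013.SSG_109.Spr4 v (GoodDisc k C K) := by
  classical
  intro w0 hw0v h4
  have hw0 : ∀ c, w0 (RatFunc.C c) = ‖c‖₊ := fun c => by rw [hw0v, hv]
  have hcastR : CharZero (RatFunc C) :=
    charZero_of_injective_ringHom (algebraMap C (RatFunc C)).injective
  haveI : Algebra.IsSeparable (RatFunc C) K := inferInstance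
  haveI : CharZero K := charZero_of_injective_algebraMap (algebraMap C K).injective
  -- nontriviality
  obtain ⟨x1, hx1⟩ := NormedField.exists_one_lt_norm k
  have hnt : ∃ a, 1 < w0 a := ⟨RatFunc.C (algebraMap k C x1), by
    rw [hw0]
    have : ‖algebraMap k C x1‖ = ‖x1‖ := norm_algebraMap' C x1
    exact_mod_cast (this.symm ▸ hx1 : 1 < ‖algebraMap k C x1‖)⟩
  set π : C := (algebraMap k C x1)⁻¹ with hπ
  have hx1C : ‖algebraMap k C x1‖ = ‖x1‖ := norm_algebraMap' C x1
  have hπ0 : π ≠ 0 := by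
    rw [hπ]; apply inv_ne_zero
    rw [← norm_pos_iff, hx1C]; linarith
  have hπ1 : ‖π‖ < 1 := by
    rw [hπ, norm_inv, hx1C]; exact inv_lt_one_of_one_lt₀ hx1
  have hπpos : 0 < ‖π‖ := norm_pos_iff.2 hπ0
  obtain ⟨D⟩ := exists_fam (RatFunc C) K w0 hnt
  have hwC : ∀ i (c : C), D.w i (algebraMap C K c) = ‖c‖₊ := fam_norm hw0 D
  set XK : K := algebraMap (RatFunc C) K RatFunc.X with hXK
  have hwX : ∀ i (c : C), D.w i (XK - algebraMap C K c) = w0 (RatFunc.X - RatFunc.C c) := by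
    intro i c
    have e : algebraMap (RatFunc C) K (RatFunc.X - RatFunc.C c) = XK - algebraMap C K c := by
      rw [map_sub, ← RatFunc.algebraMap_eq_C, ← IsScalarTower.algebraMap_apply]
    rw [← D.ov i, e]
  haveI := finite_adjoin_X (C := C) (K := K)
  -- local uniformisation
  have hLU : ∀ i, ∃ t : K, (∀ c : C, ∃ c' : C, D.w i (t - algebraMap C K c') <
      D.w i (t - algebraMap C K c)) ∧ FiniteDimensional (IntermediateField.adjoin C {t}) K ∧
      ∀ z : K, ∀ e : ℝ≥0, 0 < e → ∃ s ∈ IntermediateField.adjoin C {t}, D.w i (z - s) < e := by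
    intro i
    refine Crest.Agent.R013.LU6_935.LU4 hp (D.w i) ?_ XK ?_
    · have h2 : D.w i ((p : ℕ) : K) = ‖(p : C)‖₊ := by
        rw [← hwC i (p : C)]
        congr 1
        exact (map_natCast (algebraMap C K) p).symm
      rw [h2]
      exact_mod_cast hp1
    · intro c
      obtain ⟨c', hc'⟩ := h4 c
      exact ⟨c', by rw [hwX, hwX]; exact hc'⟩
  choose t ht hfd hd using hLU
  let b := Module.finBasis (RatFunc C) K
  have hty : ∀ i, Ty4 (jw C (D.w i)) (toCpl (D.w i) (t i)) := fun i => ty4_of (ht i)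
  -- separating elements
  have hsep0 : ∀ i l, i ≠ l → ∃ z : K, z ≠ 0 ∧ D.w i z < ‖π‖₊ / 2 ∧ D.w l z⁻¹ < ‖π‖₊ / 2 := by
    intro i l hil
    refine D.sep' hnt hil ?_
    have : 0 < ‖π‖₊ := nnnorm_pos.2 hπ0
    positivity
  choose! zs hzs0 hzs1 hzs2 using hsep0
  -- the base discs
  have hU : ∀ i, ∃ U : Dc (jw C (D.w i)) (toCpl (D.w i) (t i)),
      (∃ f : BD k C, U.ev (norm_jw (hwC i)) f = toCpl (D.w i) XK) ∧
      (∀ l, ∃ f : BD k C, U.ev (norm_jw (hwC i)) f = toCpl (D.w i) (b l)) ∧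
      (∀ l, i ≠ l → ∃ f : BD k C, U.ev (norm_jw (hwC i)) f = toCpl (D.w i) (zs i l) ∧ BdS ‖π‖ f) ∧
      (∀ l, l ≠ i → ∃ f : BD k C, U.ev (norm_jw (hwC i)) f = toCpl (D.w i) (zs l i)⁻¹ ∧
        BdS ‖π‖ f) := by
    intro i
    haveI := l4_neBot (norm_jw (hwC i)) (hty i)
    have hcell : ∀ z : K, ∀ᶠ U in l4 (jw C (D.w i)) (toCpl (D.w i) (t i)),
        ∃ f : BD k C, U.ev (norm_jw (hwC i)) f = toCpl (D.w i) z ∧ BdS (2 * ‖toCpl (D.w i) z‖) f :=
      fun z => cell_of_mem (hwC i) (ht i) (hfd i) (hd i) z one_lt_two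
    have h1 : ∀ᶠ U in l4 (jw C (D.w i)) (toCpl (D.w i) (t i)),
        ∃ f : BD k C, U.ev (norm_jw (hwC i)) f = toCpl (D.w i) XK := by
      filter_upwards [hcell XK] with U ⟨f, hf, _⟩
      exact ⟨f, hf⟩
    have h2 : ∀ᶠ U in l4 (jw C (D.w i)) (toCpl (D.w i) (t i)),
        ∀ l, ∃ f : BD k C, U.ev (norm_jw (hwC i)) f = toCpl (D.w i) (b l) := by
      rw [Filter.eventually_all]
      intro l
      filter_upwards [hcell (b l)] with U ⟨f, hf, _⟩
      exact ⟨f, hf⟩
    have h3 : ∀ᶠ U in l4 (jw C (D.w i)) (toCpl (D.w i) (t i)), ∀ l, i ≠ l →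
        ∃ f : BD k C, U.ev (norm_jw (hwC i)) f = toCpl (D.w i) (zs i l) ∧ BdS ‖π‖ f := by
      rw [Filter.eventually_all]
      intro l
      filter_upwards [hcell (zs i l)] with U ⟨f, hf, hf'⟩ hil
      refine ⟨f, hf, fun n => (hf' n).trans ?_⟩
      have h5 := hzs1 i l hil
      rw [norm_toCpl]
      have h6 : (D.w i (zs i l) : ℝ) < ‖π‖ / 2 := by exact_mod_cast h5
      linarith
    have h4 : ∀ᶠ U in l4 (jw C (D.w i)) (toCpl (D.w i) (t i)), ∀ l, l ≠ i →
        ∃ f : BD k C, U.ev (norm_jw (hwC i)) f = toCpl (D.w i) (zs l i)⁻¹ ∧ BdS ‖π‖ f := by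
      rw [Filter.eventually_all]
      intro l
      filter_upwards [hcell (zs l i)⁻¹] with U ⟨f, hf, hf'⟩ hil
      refine ⟨f, hf, fun n => (hf' n).trans ?_⟩
      have h5 := hzs2 l i hil
      rw [norm_toCpl]
      have h6 : (D.w i (zs l i)⁻¹ : ℝ) < ‖π‖ / 2 := by exact_mod_cast h5
      linarith
    exact (h1.and (h2.and (h3.and h4))).exists
  choose U hU1 hU2 hU3 hU4 using hU
  -- SP2
  have hSP2 : ∀ i, ∃ B : ℝ, (∃ c, ‖toCpl (D.w i) XK - jw C (D.w i) c‖ < B) ∧ ∀ a ρ : C,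
      ‖toCpl (D.w i) XK - jw C (D.w i) a‖ < ‖ρ‖ → ‖ρ‖ < B →
      ∃ (V : Dc (jw C (D.w i)) (toCpl (D.w i) (t i))) (g : PowerSeries C) (m : ℕ) (hg : WD k g m),
        m ≠ 0 ∧ ‖V.σ‖ ≤ ‖(U i).σ‖ ∧ V.ev (norm_jw (hwC i)) ⟨g, hg.mem⟩ =
          (toCpl (D.w i) XK - jw C (D.w i) a) / jw C (D.w i) ρ := by
    intro i
    obtain ⟨f, hf⟩ := hU1 i
    refine sp2 hk.out (norm_jw (hwC i)) (hty i) (U i) f hf ?_ ?_
    · intro c h
      obtain ⟨c', hc'⟩ := h4 c
      have h5 : ‖toCpl (D.w i) XK - jw C (D.w i) c‖ = 0 := by rw [h, sub_self, norm_zero]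
      rw [norm_sub_jw, hwX] at h5
      have h6 : w0 (RatFunc.X - RatFunc.C c) = 0 := by exact_mod_cast h5
      rw [h6] at hc'
      exact absurd hc' (not_lt.2 zero_le)
    · intro a η hη
      have := cell_of_mem (k := k) (hwC i) (ht i) (hfd i) (hd i) (XK - algebraMap C K a) hη
      have h5 : toCpl (D.w i) (XK - algebraMap C K a) = toCpl (D.w i) XK - jw C (D.w i) a := by
        rw [map_sub]; rfl
      rw [h5] at this
      exact this
  choose B hB1 hB2 using hSP2
  choose c0 hc0 using hB1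
  haveI : Nonempty (Fin D.N) := D.nonempty
  obtain ⟨i1, -, hi1⟩ := (Finset.univ : Finset (Fin D.N)).exists_min_image B Finset.univ_nonempty
  have hB1pos : 0 ≤ B i1 := (norm_nonneg _).trans (hc0 i1).le
  refine ⟨⟨B i1, hB1pos⟩, ⟨c0 i1, ?_⟩, fun a ρ h1 h2 => ?_⟩
  · have h5 := hc0 i1
    rw [norm_sub_jw, hwX] at h5
    exact h5
  rw [hv] at h1 h2
  have h2' : ‖ρ‖ < B i1 := h2
  have hV : ∀ i, ∃ (V : Dc (jw C (D.w i)) (toCpl (D.w i) (t i))) (g : PowerSeries C) (m : ℕ)
      (hg : WD k g m), m ≠ 0 ∧ ‖V.σ‖ ≤ ‖(U i).σ‖ ∧ V.ev (norm_jw (hwC i)) ⟨g, hg.mem⟩ =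
          (toCpl (D.w i) XK - jw C (D.w i) a) / jw C (D.w i) ρ := by
    intro i
    refine hB2 i a ρ ?_ (h2'.trans_le (hi1 i (Finset.mem_univ i)))
    rw [norm_sub_jw, hwX]
    exact h1
  choose V g m hg hm hVU hVev using hV
  have hι : ∀ i, ∃ ι : K →ₐ[C] FD k C, ∀ z,
      (V i).evF hk.out (norm_jw (hwC i)) (hty i) (ι z) = toCpl (D.w i) z := by
    intro i
    refine exists_iota hk.out (toCpl (D.w i)) rfl (norm_jw (hwC i)) (hty i) (V i) ?_ b ?_
    · obtain ⟨f, hf⟩ := hU1 i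
      exact ⟨_, (Dc.ev_res (norm_jw (hwC i)) (hVU i) f).trans hf⟩
    · intro l
      obtain ⟨f, hf⟩ := hU2 i l
      exact ⟨_, (Dc.ev_res (norm_jw (hwC i)) (hVU i) f).trans hf⟩
  choose ι hι using hι
  refine good4 hw0 D a ρ h1 b t hty V g m hg hm hVev ι hι π hπ0 hπ1 fun i l hil => ?_
  exact ⟨zs i l, hzs0 i l hil, Dc.res (norm_jw (hwC i)) (hVU i) (hU3 i l hil),
    Dc.res (norm_jw (hwC l)) (hVU l) (hU4 l i hil)⟩

end Crest.Agent.R013.Spread_607
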