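import Crest.Agent.R013.Spt8_260
import Crest.Agent.R013.SSG1_109
import Crest.Agent.R013.StabR_460

/-! # R013 / Spt9_260 : (SPR3) an annulus around a point of type 3 is good. -/

set_option autoImplicit false
set_option linter.unusedSectionVars false
set_option linter.style.haveILetI false

noncomputable section

namespace Crest.Agent.R013.Spread3_260

open Filter Topology Module TensorProduct
open Crest.Agent.R013.Cell_408 (FinDef DiscNorm BD)
open Crest.Agent.R013.EE809 Crest.Agent.R013.CAn_243 Crest.Agent.R013.Good_408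
open Crest.Agent.R013 Crest.Agent.R013.StabF_83
open scoped NNReal

universe u

/-- the local fields of `K` over a complete field `E` in which `F` is dense -/
theorem exists_loc_aux (F E K : Type u) [Field F] [NontriviallyNormedField E] [CompleteSpace E]
    [IsUltrametricDist E] [Algebra F E] [Field K] [Algebra F K] [FiniteDimensional F K]
    [Algebra.IsSeparable F K] (hd : DenseRange (algebraMap F E)) :
    ∃ (N : ℕ) (L : Fin N → Type u) (_ : ∀ i, Field (L i))
      (_ : ∀ i, Algebra E (L i)) (_ : ∀ i, FiniteDimensional E (L i)) (κ : ∀ i, K →+* L i),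
      (∀ i f, κ i (algebraMap F K f) = algebraMap E (L i) (algebraMap F E f)) ∧
      (∀ i (y : L i) (ε : ℝ≥0), 0 < ε → ∃ z : K, sv E (L i) (κ i z - y) < ε) ∧
      ∑ i, Module.finrank E (L i) = Module.finrank F K ∧
      ∀ (b : Fin N → K) (ε : ℝ≥0), 0 < ε → ∃ y : K, ∀ i, sv E (L i) (κ i (y - b i)) < ε := by
  classical
  obtain ⟨I, hI, L, i1, i2, i3, ⟨e⟩⟩ := exists_dec F E K
  let δ := Fintype.equivFin I
  refine ⟨Fintype.card I, fun i => L (δ.symm i), fun i => i1 _, fun i => i2 _, fun i => i3 _,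
    fun i => ((Pi.evalRingHom L (δ.symm i)).comp (e : E ⊗[F] K →+* ∀ i, L i)).comp
      (Algebra.TensorProduct.includeRight : K →ₐ[F] E ⊗[F] K).toRingHom,
    fun i f => e_algebraMap e _ f, fun i y ε hε => dec_dense e hd _ y ε hε, ?_, fun b ε hε => ?_⟩
  · rw [← dec_sum e]
    exact Equiv.sum_comp δ.symm fun i => Module.finrank E (L i)
  · obtain ⟨y, hy⟩ := approx e hd (fun i => b (δ i)) ε hε
    refine ⟨y, fun i => ?_⟩
    have h1 := hy (δ.symm i)
    rw [Equiv.apply_symm_apply] at h1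
    exact h1

variable {k : Type*} {C K : Type u} [NontriviallyNormedField k] [CompleteSpace k]
  [IsUltrametricDist k]
  [NormedField C] [IsUltrametricDist C] [NormedAlgebra k C] [Algebra.IsAlgebraic k C]
  [IsAlgClosed C] [CharZero C] [hk : Fact (DiscNorm k)]
  [Field K] [Algebra C K] [Algebra (RatFunc C) K] [IsScalarTower C (RatFunc C) K]
  [FiniteDimensional (RatFunc C) K]

variable (k) in
/-- `loc3` for a finite extension `L` of `E` with the spectral norm -/
theorem loc3' {E L : Type*} [NontriviallyNormedField E] [CompleteSpace E] [IsUltrametricDist E]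
    [Algebra (RatFunc C) E] [Field L] [Algebra E L] [FiniteDimensional E L]
    {w0 : Valuation (RatFunc C) ℝ≥0} (hw : ∀ f, ‖algebraMap (RatFunc C) E f‖₊ = w0 f)
    (hw0 : ∀ c, w0 (RatFunc.C c) = ‖c‖₊) (κ : K →+* L)
    (hκ : ∀ f : RatFunc C, κ (algebraMap (RatFunc C) K f) = algebraMap E L (algebraMap (RatFunc C) E f))
    (hdense : ∀ y : L, ∀ ε : ℝ≥0, 0 < ε → ∃ z : K, sv E L (κ z - y) < ε)
    {p : ℕ} (hp : p.Prime) (hp1 : ‖(p : C)‖ < 1)
    (a : C) (ha : ∀ c : C, w0 (RatFunc.X - RatFunc.C a) ≠ ‖c‖₊) :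
    Nonempty (Out3 k C (fun z => ((sv E L (κ z) : ℝ≥0) : ℝ))
      (algebraMap (RatFunc C) K RatFunc.X - algebraMap C K a)
      (w0 (RatFunc.X - RatFunc.C a) : ℝ) (Module.finrank E L)) := by
  letI nf : NormedField L := spectralNorm.normedField E L
  have hnorm : ∀ x : L, ‖x‖ = spectralNorm E L x := fun x => rfl
  letI na : NormedAlgebra E L :=
    { (inferInstance : Algebra E L) with
      norm_smul_le := fun r x => by
        rw [Algebra.smul_def, norm_mul, hnorm (algebraMap E L r), spectralNorm_extends] }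
  haveI : IsUltrametricDist L := by
    apply IsUltrametricDist.isUltrametricDist_of_isNonarchimedean_norm
    exact isNonarchimedean_spectralNorm (K := E) (L := L)
  haveI : CompleteSpace L := FiniteDimensional.complete E L
  have hsv : ∀ x : L, ((sv E L x : ℝ≥0) : ℝ) = ‖x‖ := fun x => coe_sv E L x
  have hF : ∀ f : RatFunc C, ‖κ (algebraMap (RatFunc C) K f)‖ = w0 f := by
    intro f
    rw [hκ, ← hsv, sv_algebraMap, hw]
  have hX : ∀ c : C, algebraMap (RatFunc C) K RatFunc.X - algebraMap C K c =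
      algebraMap (RatFunc C) K (RatFunc.X - RatFunc.C c) := by
    intro c
    rw [map_sub, ← RatFunc.algebraMap_eq_C, ← IsScalarTower.algebraMap_apply]
  have h := loc3 (E := E) k κ hκ (fun y ε hε => by
      obtain ⟨z, hz⟩ := hdense y ⟨ε, hε.le⟩ hε
      refine ⟨z, ?_⟩
      rw [← hsv]
      exact hz)
    (fun c => by
      rw [IsScalarTower.algebraMap_apply C (RatFunc C) K, hF, RatFunc.algebraMap_eq_C, hw0]
      rfl) hp hp1 a (fun c => by
      rw [hX, hF]
      intro h
      exact ha c (NNReal.coe_injective h))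
  have e1 : ‖κ (algebraMap (RatFunc C) K RatFunc.X - algebraMap C K a)‖ =
      w0 (RatFunc.X - RatFunc.C a) := by rw [hX, hF]
  rw [e1] at h
  have e2 : (fun z => ((sv E L (κ z) : ℝ≥0) : ℝ)) = fun z => ‖κ z‖ := funext fun z => hsv (κ z)
  rw [e2]
  exact h

/-- **(SPR3)** -/
theorem spr3 {p : ℕ} (hp : p.Prime) (hp1 : ‖(p : C)‖ < 1) (v : Valuation C ℝ≥0)
    (hv : ∀ c, v c = ‖c‖₊) : Crest.Agent.R013.SSG_109.Spr3 v (GoodAnn k C K) := by
  classical
  intro w0 hw0v a ha
  have hw0 : ∀ c, w0 (RatFunc.C c) = ‖c‖₊ := fun c => by rw [hw0v, hv]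
  have hcastR : CharZero (RatFunc C) :=
    charZero_of_injective_ringHom (algebraMap C (RatFunc C)).injective
  haveI : Algebra.IsSeparable (RatFunc C) K := inferInstance
  -- nontriviality
  obtain ⟨x1, hx1⟩ := NormedField.exists_one_lt_norm k
  have hnt : ∃ a, 1 < w0 a := ⟨RatFunc.C (algebraMap k C x1), by
    rw [hw0]
    have : ‖algebraMap k C x1‖ = ‖x1‖ := norm_algebraMap' C x1
    exact_mod_cast (this.symm ▸ hx1 : 1 < ‖algebraMap k C x1‖)⟩
  -- the completions
  obtain ⟨E, e1, e2, e3, e4, hd, hn⟩ := StabR_460.exists_completion (RatFunc C) w0 hnt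
  obtain ⟨N, L, i1, i2, i3, κ, hκ, hdense, hsum, happ⟩ := exists_loc_aux (RatFunc C) E K hd
  have hout : ∀ i, Nonempty (Out3 k C (fun z => ((sv E (L i) (κ i z) : ℝ≥0) : ℝ))
      (algebraMap (RatFunc C) K RatFunc.X - algebraMap C K a)
      (w0 (RatFunc.X - RatFunc.C a) : ℝ) (Module.finrank E (L i))) := by
    intro i
    refine loc3' k hn hw0 (κ i) (hκ i) (hdense i) hp hp1 a (fun c => ?_)
    rw [← hv]; exact ha c
  have hr : (0 : ℝ) < w0 (RatFunc.X - RatFunc.C a) := by
    have h1 : w0 (RatFunc.X - RatFunc.C a) ≠ 0 := by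
      intro h
      exact ha 0 (by rw [h, map_zero])
    exact_mod_cast pos_iff_ne_zero.2 h1
  have hgood := goodA_of_out3 (k := k) (C := C) (K := K) a
    (r := (w0 (RatFunc.X - RatFunc.C a) : ℝ)) (Fin N)
    (fun i z => ((sv E (L i) (κ i z) : ℝ≥0) : ℝ))
    (fun i => Module.finrank E (L i)) hsum.symm.le
    (fun i => (hout i).some)
    (fun b δ hδ => by
      obtain ⟨y, hy⟩ := happ b ⟨δ, hδ.le⟩ hδ
      exact ⟨y, fun i => hy i⟩)
  haveI := lx_neBot (C := C) k hr
  obtain ⟨P, hP, hP1, hP2, hP3⟩ := (hgood.and (eventually_lx_ann _)).exists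
  have hPσ : P.2 ≠ 0 := by
    intro h
    rw [h, norm_zero] at hP3
    exact absurd hP3 (not_lt.2 hr.le)
  refine ⟨P.1 * P.2, P.2, mul_ne_zero hP1 hPσ, ?_, ?_, ?_⟩
  · rw [hv]
    have h1 : ((‖P.1 * P.2‖₊ : ℝ≥0) : ℝ) < w0 (RatFunc.X - RatFunc.C a) := by
      rw [coe_nnnorm, norm_mul]; exact hP2
    exact_mod_cast h1
  · rw [hv]
    have h1 : ((w0 (RatFunc.X - RatFunc.C a) : ℝ≥0) : ℝ) < (‖P.2‖₊ : ℝ≥0) := by
      rw [coe_nnnorm]; exact hP3
    exact_mod_cast h1
  · change GoodA k C K (P.1 * P.2 / P.2) (annY k C a P.2)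
    rw [mul_div_cancel_right₀ _ hPσ]
    exact hP

end Crest.Agent.R013.Spread3_260
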