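import Crest.Agent.R013.Sub10_270
import Crest.Agent.R013.OneGood_863
import Crest.Agent.R013.Spr11_607
import Crest.Agent.R013.Spt9_260
import Crest.Agent.R013.LineDec_315

/-!
# Row 13, SS-GLOB (helper109): the input of `exists_lineTree` from (DIR) and (END)
-/

set_option autoImplicit false
set_option linter.unusedSectionVars false

universe u

namespace Crest.Agent.R013.SSG_109

open Module
open scoped NNReal
open Crest.Agent.R013.Cell_408 Crest.Agent.R013.Good_408

variable {k : Type*} {C : Type u} [NontriviallyNormedField k] [CompleteSpace k]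
  [IsUltrametricDist k] [NormedField C] [IsUltrametricDist C] [NormedAlgebra k C]
  [Algebra.IsAlgebraic k C] [IsAlgClosed C] [hk : Fact (DiscNorm k)] [CharZero C]

/-- (SS-ONE) -/
theorem oneIn (K : Type u) [Field K] [Algebra C K] [Algebra (RatFunc C) K]
    [IsScalarTower C (RatFunc C) K] [FiniteDimensional (RatFunc C) K] :
    OneIn (GoodDisc k C K) (GoodInf k C K) := by
  refine ⟨fun a => ?_, ?_⟩
  · obtain ⟨r0, h0, h⟩ := One_863.goodDisc k C K a
    exact ⟨r0, h0, h r0 h0 le_rfl⟩
  · obtain ⟨r0, h0, h⟩ := One_863.goodInf k C K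
    exact ⟨r0, h0, h r0 le_rfl⟩

/-- all inputs from (DIR) and (END) -/
theorem inp_of (K : Type u) [Field K] [Algebra C K] [Algebra (RatFunc C) K]
    [IsScalarTower C (RatFunc C) K] [FiniteDimensional (RatFunc C) K]
    {p : ℕ} (hp : p.Prime) (hp1 : ‖(p : C)‖ < 1) (v : Valuation C ℝ≥0) (hv : ∀ c, v c = ‖c‖₊)
    (hdir : DirIn v (GoodDisc k C K)) (hfin : EndIn v (GoodAnn k C K)) :
    Inp v (GoodDisc k C K) (GoodAnn k C K) (GoodInf k C K) where
  sub := Sub_270.subIn k K v hv
  one := oneIn K
  dir := hdir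
  fin := hfin
  spr3 := Spread3_260.spr3 hp hp1 v hv
  spr4 := Spread_607.spr4 hp hp1 v hv

end Crest.Agent.R013.SSG_109
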