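import Mathlib
import Crest.Agent.R013.RR20_948

/-!
# R013 / Ins1: semilinear transport of places, divisors, Riemann-Roch spaces and genus (helper240)
-/

set_option autoImplicit false
set_option linter.all false

namespace Crest.Agent.R013.Ins_240

open Polynomial WithZero Module IsDedekindDomain nonZeroDivisors
open Crest.Agent.R013.RR1_948 Crest.Agent.R013.RR2_948 Crest.Agent.R013.RR3_948
open Crest.Agent.R013.RR4_948 Crest.Agent.R013.RR5_948 Crest.Agent.R013.RR6_948
open Crest.Agent.R013.RR7_948 Crest.Agent.R013.RR8_948 Crest.Agent.R013.RR9_948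
open Crest.Agent.R013.RR11_948 Crest.Agent.R013.RR12_948 Crest.Agent.R013.RR18_948
open Crest.Agent.R013.RR19_948 Crest.Agent.R013.RR20_948

section Length

variable {k k' : Type*} [Field k] [Field k']

/-- length and semilinear bijections -/
theorem length_eq_semilin (φ : k ≃+* k') {M M' : Type*} [AddCommGroup M] [Module k M]
    [AddCommGroup M'] [Module k' M'] (e : M ≃+ M') (he : ∀ (c : k) (m : M), e (c • m) = φ c • e m) :
    Module.length k M = Module.length k' M' := by
  haveI : RingHomSurjective (φ : k →+* k') := ⟨φ.surjective⟩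
  let f : M →ₛₗ[(φ : k →+* k')] M' :=
    { toFun := e, map_add' := e.map_add, map_smul' := he }
  apply WithBot.coe_injective
  rw [Module.coe_length, Module.coe_length]
  exact Order.krullDim_eq_of_orderIso (Submodule.orderIsoMapComapOfBijective f e.bijective)

theorem finrank_eq_toNat_length {M : Type*} [AddCommGroup M] [Module k M] :
    finrank k M = (Module.length k M).toNat := by
  rw [Module.length_eq_rank]
  rfl

theorem finrank_eq_semilin (φ : k ≃+* k') {M M' : Type*} [AddCommGroup M] [Module k M]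
    [AddCommGroup M'] [Module k' M'] (e : M ≃+ M') (he : ∀ (c : k) (m : M), e (c • m) = φ c • e m) :
    finrank k M = finrank k' M' := by
  rw [finrank_eq_toNat_length, finrank_eq_toNat_length, length_eq_semilin φ e he]

/-- relative length and semilinear bijections -/
theorem ri_semilin (φ : k ≃+* k') {V V' : Type*} [AddCommGroup V] [Module k V]
    [AddCommGroup V'] [Module k' V'] (e : V ≃+ V') (he : ∀ (c : k) (m : V), e (c • m) = φ c • e m)
    {P Q : Submodule k V} {P' Q' : Submodule k' V'} (hP : ∀ x, e x ∈ P' ↔ x ∈ P)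
    (hQ : ∀ x, e x ∈ Q' ↔ x ∈ Q) : ri P Q = ri P' Q' := by
  let eQ : Q ≃+ Q' :=
    { toFun := fun x => ⟨e x, (hQ x).mpr x.2⟩
      invFun := fun y => ⟨e.symm y, (hQ _).mp (by rw [e.apply_symm_apply]; exact y.2)⟩
      left_inv := fun x => Subtype.ext (e.symm_apply_apply _)
      right_inv := fun y => Subtype.ext (e.apply_symm_apply _)
      map_add' := fun x y => Subtype.ext (e.map_add _ _) }
  have heQ : ∀ x : Q, ((eQ x : Q') : V') = e x := fun x => rfl
  let N : AddSubgroup Q := (P.submoduleOf Q).toAddSubgroup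
  let N' : AddSubgroup Q' := (P'.submoduleOf Q').toAddSubgroup
  have hN : N.map (eQ : Q →+ Q') = N' := by
    ext y
    constructor
    · rintro ⟨x, hx, rfl⟩
      exact (hP x).mpr hx
    · intro hy
      refine ⟨eQ.symm y, ?_, eQ.apply_symm_apply y⟩
      have h1 : e ((eQ.symm y : Q) : V) = y := by rw [← heQ, eQ.apply_symm_apply]
      show ((eQ.symm y : Q) : V) ∈ P
      rw [← hP, h1]
      exact hy
  let E : (Q ⧸ P.submoduleOf Q) ≃+ (Q' ⧸ P'.submoduleOf Q') :=
    QuotientAddGroup.congr N N' eQ hN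
  exact length_eq_semilin φ E (by
    intro c m
    obtain ⟨x, rfl⟩ := Submodule.Quotient.mk_surjective _ m
    have h1 : ∀ x : Q, E (Submodule.Quotient.mk x) = Submodule.Quotient.mk (eQ x) := fun x => rfl
    rw [← Submodule.Quotient.mk_smul, h1, h1, ← Submodule.Quotient.mk_smul]
    congr 1
    exact Subtype.ext (he c x))

end Length

section Transport

variable {k k' : Type*} [Field k] [Field k'] {K K' : Type*} [Field K] [Field K']
  [Algebra k K] [Algebra k' K'] (φ : k ≃+* k') (σ : K ≃+* K')
  (hσ : ∀ c : k, σ (algebraMap k K c) = algebraMap k' K' (φ c))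

/-- transport of places along a semilinear isomorphism -/
noncomputable def plMap (P : Pl k K) : Pl k' K' where
  v := P.v.comap (σ.symm : K' →+* K)
  const := by
    intro c hc
    have h1 : σ.symm (algebraMap k' K' c) = algebraMap k K (φ.symm c) := by
      rw [RingEquiv.symm_apply_eq, hσ, φ.apply_symm_apply]
    show P.v (σ.symm (algebraMap k' K' c)) = 1
    rw [h1]
    exact P.const _ (by simpa using hc)
  surj := by
    intro x
    obtain ⟨f, hf⟩ := P.surj x
    refine ⟨σ f, ?_⟩
    show P.v (σ.symm (σ f)) = x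
    rw [σ.symm_apply_apply, hf]

theorem plMap_v (P : Pl k K) (f : K) : (plMap φ σ hσ P).v (σ f) = P.v f := by
  show P.v (σ.symm (σ f)) = P.v f
  rw [σ.symm_apply_apply]

theorem plMap_v' (P : Pl k K) (f : K') : (plMap φ σ hσ P).v f = P.v (σ.symm f) := rfl

include hσ in
theorem hσ_symm (c : k') : σ.symm (algebraMap k' K' c) = algebraMap k K (φ.symm c) := by
  rw [RingEquiv.symm_apply_eq, hσ, φ.apply_symm_apply]

/-- the bijection of places -/
noncomputable def plEquiv : Pl k K ≃ Pl k' K' where
  toFun := plMap φ σ hσ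
  invFun := plMap φ.symm σ.symm (hσ_symm φ σ hσ)
  left_inv := by
    intro P
    apply Pl.ext
    ext f
    show P.v (σ.symm (σ.symm.symm f)) = P.v f
    rw [RingEquiv.symm_symm, σ.symm_apply_apply]
  right_inv := by
    intro P
    apply Pl.ext
    ext f
    show P.v (σ.symm.symm (σ.symm f)) = P.v f
    rw [RingEquiv.symm_symm, σ.apply_symm_apply]

theorem plEquiv_v (P : Pl k K) (f : K) : (plEquiv φ σ hσ P).v (σ f) = P.v f := plMap_v φ σ hσ P f

include hσ in
theorem map_smul_semilin (c : k) (f : K) : σ (c • f) = φ c • σ f := by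
  rw [Algebra.smul_def, Algebra.smul_def, map_mul, hσ]

theorem mem_ball_plEquiv (P : Pl k K) (n : ℤ) (f : K) :
    (σ : K ≃+ K') f ∈ ball (plEquiv φ σ hσ P) n ↔ f ∈ ball P n := by
  rw [mem_ball, mem_ball]
  show (plEquiv φ σ hσ P).v (σ f) ≤ _ ↔ _
  rw [plEquiv_v]

theorem degE_plEquiv (P : Pl k K) : degE (plEquiv φ σ hσ P) = degE P := by
  unfold degE
  exact (ri_semilin φ (σ : K ≃+ K') (map_smul_semilin φ σ hσ)
    (mem_ball_plEquiv φ σ hσ P _) (mem_ball_plEquiv φ σ hσ P _)).symm

theorem degP_plEquiv (P : Pl k K) : degP (plEquiv φ σ hσ P) = degP P := by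
  unfold degP
  rw [degE_plEquiv]

/-- transport of divisors -/
noncomputable def divEquiv : (Pl k K →₀ ℤ) ≃+ (Pl k' K' →₀ ℤ) :=
  Finsupp.domCongr (plEquiv φ σ hσ)

theorem divEquiv_apply (D : Pl k K →₀ ℤ) (P : Pl k K) :
    divEquiv φ σ hσ D (plEquiv φ σ hσ P) = D P := by
  show Finsupp.equivMapDomain (plEquiv φ σ hσ) D (plEquiv φ σ hσ P) = D P
  rw [Finsupp.equivMapDomain_apply, Equiv.symm_apply_apply]

theorem degD_divEquiv (D : Pl k K →₀ ℤ) : degD (divEquiv φ σ hσ D) = degD D := by
  unfold degD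
  show Finsupp.sum (Finsupp.equivMapDomain (plEquiv φ σ hσ) D) _ = _
  rw [Finsupp.sum_equivMapDomain]
  simp only [degP_plEquiv]

theorem mem_LD_divEquiv (D : Pl k K →₀ ℤ) (f : K) :
    σ f ∈ LD (divEquiv φ σ hσ D) ↔ f ∈ LD D := by
  rw [mem_LD, mem_LD]
  constructor
  · intro h P
    have := h (plEquiv φ σ hσ P)
    rwa [plEquiv_v, divEquiv_apply] at this
  · intro h P'
    obtain ⟨P, rfl⟩ := (plEquiv φ σ hσ).surjective P'
    rw [plEquiv_v, divEquiv_apply]
    exact h P

theorem ell_divEquiv (D : Pl k K →₀ ℤ) : ell (divEquiv φ σ hσ D) = ell D := by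
  unfold ell
  symm
  let e : LD D ≃+ LD (divEquiv φ σ hσ D) :=
    { toFun := fun x => ⟨σ x, (mem_LD_divEquiv φ σ hσ D x).mpr x.2⟩
      invFun := fun y => ⟨σ.symm y, (mem_LD_divEquiv φ σ hσ D _).mp (by
        rw [σ.apply_symm_apply]; exact y.2)⟩
      left_inv := fun x => Subtype.ext (σ.symm_apply_apply _)
      right_inv := fun y => Subtype.ext (σ.apply_symm_apply _)
      map_add' := fun x y => Subtype.ext (map_add σ _ _) }
  exact finrank_eq_semilin φ e fun c x => Subtype.ext (map_smul_semilin φ σ hσ c x)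

include φ hσ in
theorem algebraicClosure_eq_bot (hc : algebraicClosure k K = ⊥) : algebraicClosure k' K' = ⊥ := by
  rw [eq_bot_iff]
  intro x hx
  have hx' : IsAlgebraic k' x := mem_algebraicClosure_iff.mp hx
  obtain ⟨q, hq0, hq⟩ := hx'
  have h1 : IsAlgebraic k (σ.symm x) := by
    refine ⟨q.map (φ.symm : k' →+* k), ?_, ?_⟩
    · rw [ne_eq, Polynomial.map_eq_zero]; exact hq0
    · rw [aeval_def, eval₂_map]
      have h2 : (algebraMap k K).comp (φ.symm : k' →+* k) =
          (σ.symm : K' →+* K).comp (algebraMap k' K') := by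
        ext c
        exact (hσ_symm φ σ hσ c).symm
      rw [h2]
      have h3 := hom_eval₂ q (algebraMap k' K') (σ.symm : K' →+* K) x
      rw [← aeval_def, hq, map_zero] at h3
      exact h3.symm
  have h4 : σ.symm x ∈ algebraicClosure k K := mem_algebraicClosure_iff.mpr h1
  rw [hc, IntermediateField.mem_bot] at h4
  obtain ⟨c, hc'⟩ := h4
  rw [IntermediateField.mem_bot]
  refine ⟨φ c, ?_⟩
  rw [← hσ, hc', σ.apply_symm_apply]

end Transport

section Genus

variable {k k' : Type*} [Field k] [Field k'] {K K' : Type*} [Field K] [Field K']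
  [Algebra k K] [Algebra k' K'] (φ : k ≃+* k') (σ : K ≃+* K')
  (hσ : ∀ c : k, σ (algebraMap k K c) = algebraMap k' K' (φ c))
  [Algebra (RatFunc k) K] [IsScalarTower k (RatFunc k) K] [FiniteDimensional (RatFunc k) K]
  [Algebra.IsSeparable (RatFunc k) K]
  [Algebra (RatFunc k') K'] [IsScalarTower k' (RatFunc k') K'] [FiniteDimensional (RatFunc k') K']
  [Algebra.IsSeparable (RatFunc k') K']

theorem divf_divEquiv {f : K} (hf : f ≠ 0) :
    divEquiv φ σ hσ (divf (k := k) f) = divf (k := k') (σ f) := by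
  have hf' : σ f ≠ 0 := by simpa using hf
  ext P'
  obtain ⟨P, rfl⟩ := (plEquiv φ σ hσ).surjective P'
  rw [divEquiv_apply]
  have h1 := v_eq (k := k) hf P
  have h2 := v_eq (k := k') hf' (plEquiv φ σ hσ P)
  rw [plEquiv_v, h1, exp_inj] at h2
  linarith

include hσ in
/-- the genus is invariant under semilinear isomorphisms -/
theorem gen_eq_of_semilin (hc : algebraicClosure k K = ⊥) : gen k' K' = gen k K := by
  have hc' := algebraicClosure_eq_bot φ σ hσ hc
  have h : (gen k K : ℤ) = gen k' K' := by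
    apply gen_unique hc'
    · intro D'
      obtain ⟨D, rfl⟩ := (divEquiv φ σ hσ).surjective D'
      rw [degD_divEquiv, ell_divEquiv]
      exact ell_ge hc D
    · obtain ⟨D, hD⟩ := exists_degD_gt (k := k) (K := K) (2 * (gen k K : ℤ) - 2)
      refine ⟨divEquiv φ σ hσ D, ?_⟩
      rw [degD_divEquiv, ell_divEquiv]
      exact ell_eq_of_lt hc hD
  exact_mod_cast h.symm

end Genus

end Crest.Agent.R013.Ins_240
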