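import Mathlib
import Crest.Agent.R013.Ins1_240

/-!
# R013 / Ins2: purely inseparable extensions of function fields over a perfect field (helper240)
-/

set_option autoImplicit false
set_option linter.all false

namespace Crest.Agent.R013.Ins_240

open Polynomial WithZero Module IsDedekindDomain nonZeroDivisors
open Crest.Agent.R013.RR1_948 Crest.Agent.R013.RR2_948 Crest.Agent.R013.RR3_948
open Crest.Agent.R013.RR4_948 Crest.Agent.R013.RR5_948 Crest.Agent.R013.RR6_948
open Crest.Agent.R013.RR7_948 Crest.Agent.R013.RR8_948 Crest.Agent.R013.RR9_948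
open Crest.Agent.R013.RR11_948 Crest.Agent.R013.RR12_948 Crest.Agent.R013.RR18_948
open Crest.Agent.R013.RR19_948 Crest.Agent.R013.RR20_948

section Frob

variable {k : Type*} [Field k] (p : ℕ) [Fact p.Prime] [CharP k p] [PerfectField k]
  {L : Type*} [Field L] [Algebra k L] [Algebra (RatFunc k) L] [IsScalarTower k (RatFunc k) L]
  [Algebra.IsSeparable (RatFunc k) L]

include p in
/-- an intermediate field of `L` containing `k`, `X` and some `L^(p^n)` is everything -/
theorem eq_top_of_mem (M : Subfield L) (hk : ∀ c : k, algebraMap k L c ∈ M)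
    (hX : xK k L ∈ M) (n : ℕ) (hn : ∀ y : L, y ^ p ^ n ∈ M) : M = ⊤ := by
  haveI : CharP L p := charP_of_injective_algebraMap (algebraMap k L).injective p
  haveI : ExpChar L p := ExpChar.prime Fact.out
  haveI : ExpChar k p := ExpChar.prime Fact.out
  haveI : ExpChar M p := expChar_of_injective_ringHom
    ((algebraMap k L).codRestrict M hk).injective p
  have hpoly : ∀ q : k[X], aeval (xK k L) q ∈ M := by
    intro q
    rw [aeval_eq_sum_range]
    refine sum_mem fun i _ => ?_
    rw [Algebra.smul_def]
    exact mul_mem (hk _) (pow_mem hX _)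
  have hrat : ∀ f : RatFunc k, algebraMap (RatFunc k) L f ∈ M := by
    intro f
    have h1 : ∀ q : k[X], algebraMap (RatFunc k) L (algebraMap k[X] (RatFunc k) q)
        = aeval (xK k L) q := by
      intro q
      have h2 : aeval (xK k L) q = algebraMap (RatFunc k) L (aeval (RatFunc.X : RatFunc k) q) := by
        rw [xK, aeval_algebraMap_apply]
      rw [h2]
      congr 1
      have h3 : (RatFunc.X : RatFunc k) = algebraMap k[X] (RatFunc k) X := RatFunc.algebraMap_X.symm
      rw [h3, aeval_algebraMap_apply, aeval_X_left_apply]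
    rw [← RatFunc.num_div_denom f, map_div₀, h1, h1]
    exact div_mem (hpoly _) (hpoly _)
  letI : Algebra (RatFunc k) M := ((algebraMap (RatFunc k) L).codRestrict M hrat).toAlgebra
  haveI : IsScalarTower (RatFunc k) M L := IsScalarTower.of_algebraMap_eq fun _ => rfl
  haveI : Algebra.IsSeparable M L := Algebra.isSeparable_tower_top_of_isSeparable (RatFunc k) M L
  haveI : IsPurelyInseparable M L := by
    rw [isPurelyInseparable_iff_pow_mem M p]
    intro x
    exact ⟨n, ⟨⟨_, hn x⟩, rfl⟩⟩
  have h := IsPurelyInseparable.surjective_algebraMap_of_isSeparable M L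
  rw [eq_top_iff]
  intro x _
  obtain ⟨y, rfl⟩ := h x
  exact y.2

/-- the image of the iterated Frobenius -/
noncomputable def powField (L : Type*) [Field L] (p : ℕ) [Fact p.Prime] [CharP L p] (n : ℕ) :
    Subfield L :=
  haveI : ExpChar L p := ExpChar.prime Fact.out
  (iterateFrobenius L p n).fieldRange

theorem mem_powField {L : Type*} [Field L] {p : ℕ} [Fact p.Prime] [CharP L p] {n : ℕ} {x : L} :
    x ∈ powField L p n ↔ ∃ y, y ^ p ^ n = x := by
  unfold powField
  rw [RingHom.mem_fieldRange]
  rfl

include p in
theorem algebraMap_mem_powField [CharP L p] (n : ℕ) (c : k) :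
    algebraMap k L c ∈ powField L p n := by
  haveI : ExpChar k p := ExpChar.prime Fact.out
  haveI : PerfectRing k p := inferInstance
  obtain ⟨d, hd⟩ := (bijective_iterateFrobenius k p n).2 c
  rw [mem_powField]
  exact ⟨algebraMap k L d, by rw [← map_pow]; exact congrArg _ hd⟩

variable (k) in
include k in
/-- `[L : L^(p^n)] ≤ p^n` -/
theorem finrank_powField_le [CharP L p] (n : ℕ) :
    FiniteDimensional (powField L p n) L ∧ finrank (powField L p n) L ≤ p ^ n := by
  haveI : ExpChar L p := ExpChar.prime Fact.out
  set M := powField L p n with hM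
  have hXn : xK k L ^ p ^ n ∈ M := mem_powField.mpr ⟨_, rfl⟩
  let f : M[X] := X ^ p ^ n - C ⟨xK k L ^ p ^ n, hXn⟩
  have hp0 : p ^ n ≠ 0 := pow_ne_zero _ (Fact.out : p.Prime).ne_zero
  have hf : f.Monic := monic_X_pow_sub_C _ hp0
  have hfX : aeval (xK k L) f = 0 := by
    simp only [f, map_sub, map_pow, aeval_X, aeval_C]
    exact sub_self _
  have hint : IsIntegral M (xK k L) := ⟨f, hf, hfX⟩
  have htop : (IntermediateField.adjoin M {xK k L} : IntermediateField M L) = ⊤ := by
    have h1 : (IntermediateField.adjoin M {xK k L}).toSubfield = ⊤ := by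
      apply eq_top_of_mem (k := k) p _ _ _ n
      · intro y
        exact (IntermediateField.adjoin M {xK k L}).algebraMap_mem
          ⟨y ^ p ^ n, mem_powField.mpr ⟨y, rfl⟩⟩
      · intro c
        exact (IntermediateField.adjoin M {xK k L}).algebraMap_mem
          ⟨_, algebraMap_mem_powField (k := k) p n c⟩
      · exact IntermediateField.mem_adjoin_simple_self M (xK k L)
    rw [eq_top_iff]
    intro x _
    have : x ∈ (IntermediateField.adjoin M {xK k L}).toSubfield := by rw [h1]; trivial
    exact this
  haveI hfin : FiniteDimensional M (IntermediateField.adjoin M {xK k L}) :=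
    IntermediateField.adjoin.finiteDimensional hint
  have hrank : finrank M (IntermediateField.adjoin M {xK k L}) ≤ p ^ n := by
    rw [IntermediateField.adjoin.finrank hint]
    have h2 := minpoly.min M (xK k L) hf hfX
    have h3 : (minpoly M (xK k L)).natDegree ≤ f.natDegree := natDegree_le_natDegree h2
    rwa [natDegree_X_pow_sub_C] at h3
  rw [htop] at hfin hrank
  haveI := hfin
  refine ⟨IntermediateField.topEquiv.toLinearEquiv.finiteDimensional, ?_⟩
  rwa [IntermediateField.finrank_top'] at hrank

end Frob

section Insep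

variable {k : Type*} [Field k] (p : ℕ) [Fact p.Prime] [CharP k p] [PerfectField k]
  {K : Type*} [Field K] [Algebra k K]
  {L : Type*} [Field L] [Algebra k L] [Algebra K L] [IsScalarTower k K L]
  [FiniteDimensional K L] [IsPurelyInseparable K L]
  [Algebra (RatFunc k) L] [IsScalarTower k (RatFunc k) L]
  [Algebra.IsSeparable (RatFunc k) L]

variable (k K L) in
include k p in
/-- `L/K` finite purely inseparable: `K` is the image of an iterated Frobenius of `L` -/
theorem exists_frobIso : ∃ (n : ℕ) (σ : L ≃+* K), finrank K L = p ^ n ∧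
    (∀ x : L, algebraMap K L (σ x) = x ^ p ^ n) := by
  haveI : CharP L p := charP_of_injective_algebraMap (algebraMap k L).injective p
  haveI : CharP K p := charP_of_injective_algebraMap (algebraMap k K).injective p
  haveI : ExpChar L p := ExpChar.prime Fact.out
  haveI : ExpChar K p := ExpChar.prime Fact.out
  obtain ⟨n, hn⟩ := IsPurelyInseparable.finrank_eq_pow L (F := K) p
  have hmem : ∀ x : L, x ^ p ^ n ∈ (algebraMap K L).range := by
    intro x
    obtain ⟨m, hm⟩ : ∃ m, (minpoly K x).natDegree = p ^ m :=
      ⟨_, IsPurelyInseparable.minpoly_natDegree_eq' K p x⟩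
    have h1 : p ^ m ∣ p ^ n := by
      rw [← hn, ← hm]
      exact minpoly.degree_dvd (Algebra.IsIntegral.isIntegral x)
    have h2 : m ≤ n := (Nat.pow_dvd_pow_iff_le_right (Fact.out : p.Prime).one_lt).mp h1
    have h3 : IsPurelyInseparable.elemExponent K x = m := by
      have h4 := IsPurelyInseparable.minpoly_natDegree_eq' K p x
      rw [hm] at h4
      exact (Nat.pow_right_injective (Fact.out : p.Prime).two_le h4).symm
    have h5 := IsPurelyInseparable.elemExponent_def' K p x
    rw [h3] at h5
    obtain ⟨y, hy⟩ := h5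
    refine ⟨y ^ p ^ (n - m), ?_⟩
    rw [map_pow, hy, ← pow_mul, ← pow_add, Nat.add_sub_cancel' h2]
  have hexp : IsPurelyInseparable.exponent K L ≤ n := by
    by_contra hlt
    obtain ⟨a, ha⟩ := IsPurelyInseparable.exponent_min' p (not_le.mp hlt)
    exact ha (hmem a)
  let τ : L →+* K := IsPurelyInseparable.iterateFrobenius K L p hexp
  have hτ : ∀ x : L, algebraMap K L (τ x) = x ^ p ^ n :=
    fun x => IsPurelyInseparable.algebraMap_iterateFrobenius K p hexp x
  -- surjectivity by degrees
  obtain ⟨hfin, hrank⟩ := finrank_powField_le k p (L := L) n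
  haveI := hfin
  let K' : IntermediateField (powField L p n) L :=
    { (algebraMap K L).fieldRange with
      algebraMap_mem' := by
        intro y
        obtain ⟨x, hx⟩ := mem_powField.mp y.2
        exact ⟨τ x, by rw [hτ, hx]; rfl⟩ }
  have hK' : ∀ x : L, x ∈ K' ↔ ∃ a : K, algebraMap K L a = x := fun x => Iff.rfl
  let ψ : K →+* K' := (algebraMap K L).codRestrict K' (fun a => (hK' _).mpr ⟨a, rfl⟩)
  let e : K ≃+* K' := RingEquiv.ofBijective ψ
    ⟨RingHom.injective _, fun y => by
      obtain ⟨a, ha⟩ := (hK' _).mp y.2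
      exact ⟨a, Subtype.ext ha⟩⟩
  have h1 : finrank K L = finrank K' L :=
    Algebra.finrank_eq_of_equiv_equiv e (RingEquiv.refl L) (by ext a; rfl)
  have h2 : finrank (powField L p n) K' * finrank K' L = finrank (powField L p n) L :=
    finrank_mul_finrank _ _ _
  have hpn : 0 < p ^ n := pow_pos (Fact.out : p.Prime).pos n
  have h3 : finrank (powField L p n) K' = 1 := by
    rw [← h1, hn] at h2
    have h4 : 0 < finrank (powField L p n) K' := finrank_pos
    have h5 : finrank (powField L p n) K' * p ^ n ≤ 1 * p ^ n := by rw [h2, one_mul]; exact hrank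
    have h6 := Nat.le_of_mul_le_mul_right h5 hpn
    omega
  have h4 : K' = ⊥ := IntermediateField.finrank_eq_one_iff.mp h3
  have hsurj : Function.Surjective τ := by
    intro a
    have h5 : algebraMap K L a ∈ K' := (hK' _).mpr ⟨a, rfl⟩
    rw [h4, IntermediateField.mem_bot] at h5
    obtain ⟨y, hy⟩ := h5
    obtain ⟨x, hx⟩ := mem_powField.mp y.2
    refine ⟨x, (algebraMap K L).injective ?_⟩
    rw [hτ, hx]
    exact hy
  exact ⟨n, RingEquiv.ofBijective τ ⟨τ.injective, hsurj⟩, hn, hτ⟩

variable (k K L) in
include p in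
/-- **genus of a purely inseparable extension**, `k` perfect -/
theorem gen_insep [FiniteDimensional (RatFunc k) L]
    [Algebra (RatFunc k) K] [IsScalarTower k (RatFunc k) K] [FiniteDimensional (RatFunc k) K]
    [Algebra.IsSeparable (RatFunc k) K] (hc : algebraicClosure k L = ⊥) :
    gen k L = gen k K := by
  haveI : ExpChar k p := ExpChar.prime Fact.out
  obtain ⟨n, σ, _, hσ⟩ := exists_frobIso k p K L
  refine (gen_eq_of_semilin (iterateFrobeniusEquiv k p n) σ ?_ hc).symm
  intro c
  apply (algebraMap K L).injective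
  rw [hσ, ← IsScalarTower.algebraMap_apply, iterateFrobeniusEquiv_def, map_pow]

end Insep

end Crest.Agent.R013.Ins_240
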