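import Mathlib

/-!
# R013 / KAS1: Kummer → Artin–Schreier in a valued field (helper940)

`L` a field with a valuation `w`, `lam ^ (p-1) = -p`, `w lam < 1`.
* `step`: `y ^ p = 1 + lam ^ p * a + e` with `w a ≤ 1`, `w e < w (lam ^ p)` implies `y = 1 + lam * z`,
  `w z ≤ 1` and `w (z ^ p - z - a) < 1`.
* `exists_root`: version with `y ^ (p ^ (n+1)) = (c * g) ^ (p ^ (n+1)) * E ^ (p ^ n)`.
-/

set_option autoImplicit false

namespace Crest.Agent.R013.KAS1_940

open Finset

variable {L : Type*} [Field L]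

/-- the binomial expansion with `p * lam = - lam ^ p` -/
theorem expand {p : ℕ} (hp : p.Prime) {lam : L} (hlam : lam ^ (p - 1) = -(p : L)) (z : L) :
    (1 + lam * z) ^ p = 1 + lam ^ p * (z ^ p - z) +
      ∑ i ∈ range (p - 2), (lam * z) ^ (i + 2) * ((p.choose (i + 2) : ℕ) : L) := by
  obtain ⟨q, rfl⟩ : ∃ q, p = q + 2 := ⟨p - 2, by have := hp.two_le; omega⟩
  have h1 : lam ^ (q + 2) = -((q + 2 : ℕ) : L) * lam := by
    have : q + 2 - 1 = q + 1 := rfl
    rw [this] at hlam
    rw [pow_succ, hlam]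
  rw [add_comm (1 : L), add_pow, sum_range_succ, sum_range_succ', sum_range_succ']
  simp only [one_pow, mul_one]
  have h2 : q + 2 - 2 = q := rfl
  rw [h2]
  simp only [Nat.choose_self, Nat.cast_one, mul_one, zero_add, pow_zero, Nat.choose_zero_right,
    Nat.choose_one_right, pow_one]
  have h3 : lam ^ (q + 2) * (z ^ (q + 2) - z) = (lam * z) ^ (q + 2) + ((q + 2 : ℕ) : L) * lam * z := by
    rw [mul_sub, ← mul_pow, h1]; ring
  rw [h3]
  have h4 : ∀ i, i + 1 + 1 = i + 2 := fun _ => rfl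
  simp only [h4]
  ring

variable {Γ : Type*} [LinearOrderedCommGroupWithZero Γ] (w : Valuation L Γ)

theorem w_natCast_le (n : ℕ) : w (n : L) ≤ 1 := by
  induction n with
  | zero => simp
  | succ n ih =>
    push_cast
    exact (w.map_add _ _).trans (max_le ih (by simp))

/-- the middle terms are small -/
theorem mid_lt {p : ℕ} (hp : p.Prime) {lam : L} (hlam : lam ^ (p - 1) = -(p : L)) (hlam0 : lam ≠ 0)
    (hw : w lam < 1) (z : L) {B : Γ} (hB : w (lam ^ p) ≤ B) (hB2 : w (lam ^ p * z ^ p) ≤ B) :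
    w (∑ i ∈ range (p - 2), (lam * z) ^ (i + 2) * ((p.choose (i + 2) : ℕ) : L)) < B := by
  have hl0 : w lam ≠ 0 := (Valuation.ne_zero_iff w).mpr hlam0
  have hlpos : 0 < w lam := zero_lt_iff.mpr hl0
  have hB0 : B ≠ 0 := by
    rintro rfl
    rw [le_zero_iff, map_pow] at hB
    exact hl0 (pow_eq_zero_iff hp.ne_zero |>.mp hB)
  refine w.map_sum_lt hB0 fun i hi => ?_
  rw [mem_range] at hi
  have hip : i + 2 < p := by omega
  obtain ⟨c, hc⟩ := hp.dvd_choose_self (by omega : i + 2 ≠ 0) hip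
  rw [hc]
  push_cast
  have hpw : w (p : L) = w lam ^ (p - 1) := by
    rw [← map_pow, hlam, Valuation.map_neg]
  rw [map_mul, map_mul, map_pow, map_mul, hpw]
  -- the case distinction on `w z`
  have key : w lam ^ p * (w lam * w z ^ (i + 2)) * w (c : L) < B := by
    have hc1 := w_natCast_le w c
    rcases le_or_gt (w z) 1 with hz | hz
    · calc w lam ^ p * (w lam * w z ^ (i + 2)) * w (c : L)
          ≤ w lam ^ p * (w lam * 1) * 1 := by
            gcongr
            exact pow_le_one' hz _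
        _ < w lam ^ p * 1 := by
            rw [mul_one, mul_one]
            exact mul_lt_mul_of_pos_left hw (pow_pos hlpos _)
        _ ≤ B := by rw [mul_one, ← map_pow]; exact hB
    · calc w lam ^ p * (w lam * w z ^ (i + 2)) * w (c : L)
          ≤ w lam ^ p * (w lam * w z ^ p) * 1 := by
            gcongr
            · exact hz.le
        _ < w lam ^ p * (1 * w z ^ p) := by
            rw [mul_one]
            have : 0 < w z ^ p := pow_pos (lt_trans zero_lt_one hz) _
            exact mul_lt_mul_of_pos_left (mul_lt_mul_of_pos_right hw this) (pow_pos hlpos _)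
        _ ≤ B := by rw [one_mul, ← map_pow, ← map_pow, ← map_mul]; exact hB2
  refine lt_of_le_of_lt ?_ key
  have e : w lam ^ p = w lam ^ (p - 1) * w lam := by
    rw [← pow_succ]; congr 1; have := hp.two_le; omega
  have h2 : w lam ^ (i + 2) ≤ w lam * w lam := by
    calc w lam ^ (i + 2) = w lam ^ i * (w lam * w lam) := by rw [pow_add, sq]
      _ ≤ 1 * (w lam * w lam) := by gcongr; exact pow_le_one' hw.le _
      _ = _ := one_mul _
  calc (w lam * w z) ^ (i + 2) * (w lam ^ (p - 1) * w (c : L))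
      = w lam ^ (p - 1) * (w lam ^ (i + 2) * w z ^ (i + 2)) * w (c : L) := by
        rw [mul_pow]; simp only [mul_comm, mul_assoc]
    _ ≤ w lam ^ (p - 1) * ((w lam * w lam) * w z ^ (i + 2)) * w (c : L) := by gcongr
    _ = _ := by rw [e]; simp only [mul_assoc]

/-- **Kummer → Artin–Schreier** -/
theorem step {p : ℕ} (hp : p.Prime) {lam : L} (hlam : lam ^ (p - 1) = -(p : L)) (hlam0 : lam ≠ 0)
    (hw : w lam < 1) {y a e : L} (ha : w a ≤ 1) (he : w e < w (lam ^ p))
    (hy : y ^ p = 1 + lam ^ p * a + e) :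
    ∃ z : L, y = 1 + lam * z ∧ w z ≤ 1 ∧ w (z ^ p - z - a) < 1 := by
  refine ⟨(y - 1) / lam, ?_, ?_⟩
  · field_simp; ring
  set z := (y - 1) / lam with hz
  have hyz : y = 1 + lam * z := by rw [hz]; field_simp; ring
  have hlp0 : w (lam ^ p) ≠ 0 := (Valuation.ne_zero_iff w).mpr (pow_ne_zero _ hlam0)
  have hlppos : 0 < w (lam ^ p) := zero_lt_iff.mpr hlp0
  rw [hyz, expand hp hlam] at hy
  set R := ∑ i ∈ range (p - 2), (lam * z) ^ (i + 2) * ((p.choose (i + 2) : ℕ) : L) with hR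
  have h1 : lam ^ p * (z ^ p - z) = lam ^ p * a + e - R := by linear_combination hy
  have hz1 : w z ≤ 1 := by
    by_contra hcon
    rw [not_le] at hcon
    have hzp : w (lam ^ p * z ^ p) ≠ 0 := by
      rw [map_mul, map_pow w z]
      exact mul_ne_zero hlp0 (pow_ne_zero _ (ne_of_gt (lt_trans zero_lt_one hcon)))
    have hB : w (lam ^ p) < w (lam ^ p * z ^ p) := by
      rw [map_mul, map_pow w z]
      have : 1 < w z ^ p := one_lt_pow₀ hcon hp.ne_zero
      calc w (lam ^ p) = w (lam ^ p) * 1 := (mul_one _).symm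
        _ < _ := mul_lt_mul_of_pos_left this hlppos
    have hR1 : w R < w (lam ^ p * z ^ p) := mid_lt w hp hlam hlam0 hw z hB.le le_rfl
    have h2 : w (lam ^ p * z) < w (lam ^ p * z ^ p) := by
      rw [map_mul, map_mul, map_pow w z]
      refine mul_lt_mul_of_pos_left ?_ hlppos
      calc w z = w z ^ 1 := (pow_one _).symm
        _ < w z ^ p := pow_lt_pow_right₀ hcon hp.one_lt
    have h3 : lam ^ p * z ^ p = lam ^ p * a + e - R + lam ^ p * z := by linear_combination h1
    have h4 : w (lam ^ p * a) < w (lam ^ p * z ^ p) := by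
      refine lt_of_le_of_lt ?_ hB
      rw [map_mul]
      calc w (lam ^ p) * w a ≤ w (lam ^ p) * 1 := by gcongr
        _ = _ := mul_one _
    have h5 : w (lam ^ p * a + e - R + lam ^ p * z) < w (lam ^ p * z ^ p) :=
      w.map_add_lt (w.map_sub_lt (w.map_add_lt h4 (he.trans hB)) hR1) h2
    rw [← h3] at h5
    exact lt_irrefl _ h5
  refine ⟨hz1, ?_⟩
  have hB2 : w (lam ^ p * z ^ p) ≤ w (lam ^ p) := by
    rw [map_mul, map_pow w z]
    calc w (lam ^ p) * w z ^ p ≤ w (lam ^ p) * 1 := by gcongr; exact pow_le_one' hz1 _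
      _ = _ := mul_one _
  have hR1 : w R < w (lam ^ p) := mid_lt w hp hlam hlam0 hw z le_rfl hB2
  have h6 : w (lam ^ p * (z ^ p - z - a)) < w (lam ^ p) := by
    have : lam ^ p * (z ^ p - z - a) = e - R := by linear_combination h1
    rw [this]
    exact w.map_sub_lt he hR1
  rw [map_mul] at h6
  by_contra hcon
  rw [not_lt] at hcon
  have : w (lam ^ p) * 1 ≤ w (lam ^ p) * w (z ^ p - z - a) := by gcongr
  rw [mul_one] at this
  exact absurd h6 (not_lt.mpr this)

/-- extraction of a `p ^ (n+1)`-th root: if `y ^ (p ^ (n+1)) = u ^ (p ^ (n+1)) * E ^ (p ^ n)` with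
`u ≠ 0`, `E ≠ 0` and every `p ^ n`-th root of unity of `L` is a `p`-th power, then some
`y / (u * xi)` is a `p`-th root of `E`. -/
theorem exists_root {p n : ℕ} (hp : p ≠ 0) {y u E : L} (hu : u ≠ 0) (hE : E ≠ 0)
    (hmu : ∀ x : L, x ^ p ^ n = 1 → ∃ xi : L, xi ^ p = x)
    (hy : y ^ p ^ (n + 1) = u ^ p ^ (n + 1) * E ^ p ^ n) :
    ∃ xi : L, xi ^ p ^ (n + 1) = 1 ∧ (y / (u * xi)) ^ p = E := by
  have hu1 : u ^ p ^ (n + 1) ≠ 0 := pow_ne_zero _ hu
  have h1 : ((y / u) ^ p / E) ^ p ^ n = 1 := by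
    rw [div_pow, ← pow_mul, ← pow_succ', div_pow, hy, mul_comm, mul_div_cancel_right₀ _ hu1]
    exact div_self (pow_ne_zero _ hE)
  obtain ⟨xi, hxi⟩ := hmu _ h1
  have hxi1 : xi ^ p ^ (n + 1) = 1 := by rw [pow_succ', pow_mul, hxi, h1]
  have hy0 : y ≠ 0 := by
    rintro rfl
    rw [zero_pow (pow_ne_zero _ hp)] at hy
    exact mul_ne_zero hu1 (pow_ne_zero _ hE) hy.symm
  refine ⟨xi, hxi1, ?_⟩
  have h2 : (y / u) ^ p ≠ 0 := pow_ne_zero _ (div_ne_zero hy0 hu)
  rw [← div_div, div_pow, hxi, div_div_eq_mul_div, mul_comm, mul_div_assoc, div_self h2, mul_one]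

end Crest.Agent.R013.KAS1_940
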