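import Crest.Agent.R013.KAS1_940
import Crest.Agent.R013.KAS2_940

/-!
# R013 / KAS3: Kummer torsors near a point are Artin-Schreier at small circles (helper940)

`kas_main`: `K` ultrametric normed field of char 0, `lam ^ (p-1) = -p`, `u' = (om + eta) u` with
`om` of exact order `i`, `c` with `(om_i / (i+1)) c ^ (i+1) = p ^ n lam ^ p`, `‖c‖` small, `eta` small.
For every valued field `L` receiving the power series bounded at some radius `r1 > ‖c‖`, with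
`w ∘ iota ≤` Gauss norm at radius `‖c‖`, every `y` with `y ^ (p ^ (n+1)) = u * b ^ (p ^ (n+1))` gives
`z ∈ L` with `w (z ^ p - z - (X / c) ^ (i+1)) < 1`.
`as_reduce`: `z ^ p - z = t ^ (p ^ j)` can be replaced by `z ^ p - z = t` modulo the maximal ideal.
-/

set_option autoImplicit false

namespace Crest.Agent.R013.KAS3_940

open PowerSeries Finset
open scoped NNReal
open Crest.Agent.R013.KAS1_940 Crest.Agent.R013.KAS2_940

variable {K : Type*} [NormedField K] [IsUltrametricDist K]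

/-- the ring of power series bounded at the radius `r` -/
def bsub (r : ℝ) (hr : 0 < r) : Subring K⟦X⟧ where
  carrier := {f | ∃ C, Bd r C f}
  mul_mem' := by
    rintro f g ⟨C, hC⟩ ⟨D, hD⟩
    exact ⟨C * D, hC.mul hr hD⟩
  one_mem' := ⟨1, bd_one⟩
  add_mem' := by
    rintro f g ⟨C, hC⟩ ⟨D, hD⟩
    exact ⟨max C D, (hC.mono (le_max_left _ _)).add hr.le (hD.mono (le_max_right _ _))⟩
  zero_mem' := ⟨0, bd_zero le_rfl⟩
  neg_mem' := by
    rintro f ⟨C, hC⟩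
    exact ⟨C, hC.neg⟩

theorem mem_bsub {r : ℝ} {hr : 0 < r} {f : K⟦X⟧} {C : ℝ} (h : Bd r C f) : f ∈ bsub r hr := ⟨C, h⟩

theorem C_mem {r : ℝ} {hr : 0 < r} (a : K) : (C a : K⟦X⟧) ∈ bsub r hr := ⟨_, bd_C a⟩

theorem X_mem {r : ℝ} {hr : 0 < r} : (X : K⟦X⟧) ∈ bsub r hr := by
  have := bd_monomial (K := K) hr.le 1 1
  rw [← X_eq] at this
  exact ⟨_, this⟩

/-- a valued field which receives the power series bounded at radius `r1`, with the Gauss norm at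
radius `r` -/
structure GaussPt (r r1 : ℝ) (hr1 : 0 < r1) (L : Type*) [Field L] (w : Valuation L ℝ≥0)
    (iota : (bsub (K := K) r1 hr1) →+* L) : Prop where
  le_of_bd : ∀ (f : bsub (K := K) r1 hr1) (B : ℝ), Bd r B (f : K⟦X⟧) → (w (iota f) : ℝ) ≤ B
  w_C : ∀ a : K, (w (iota ⟨C a, C_mem a⟩) : ℝ) = ‖a‖

variable [CharZero K] [Algebra ℚ K]

theorem kas_main {p : ℕ} (hp : p.Prime) {lam : K} (hlam : lam ^ (p - 1) = -(p : K))
    (hlam1 : ‖lam‖ < 1) {om : K⟦X⟧} {R D : ℝ} (hR : 0 < R) (hom : Bd R D om) {i : ℕ}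
    (h0 : ∀ m < i, coeff m om = 0) (hi : coeff i om ≠ 0) :
    ∃ rs : ℝ, 0 < rs ∧ ∀ (n : ℕ) (c : K), c ≠ 0 → ‖c‖ < rs →
      coeff i om / ((i + 1 : ℕ) : K) * c ^ (i + 1) = (p : K) ^ n * lam ^ p →
      (∃ zeta : K, IsPrimitiveRoot zeta (p ^ (n + 1))) →
      ∃ (r1 : ℝ) (hr1 : 0 < r1), ‖c‖ < r1 ∧ r1 < rs ∧
        ∀ eta : K⟦X⟧, Bd R (‖(p : K)‖ ^ (n + 1) / R) eta →
        ∀ u : K⟦X⟧, constantCoeff u = 1 → d⁄dX K u = (om + eta) * u →
        ∃ hu : u ∈ bsub (K := K) r1 hr1,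
        ∀ (L : Type*) [Field L] (w : Valuation L ℝ≥0) (iota : (bsub (K := K) r1 hr1) →+* L),
          GaussPt ‖c‖ r1 hr1 L w iota → ∀ (y b : L), b ≠ 0 →
            y ^ p ^ (n + 1) = iota ⟨u, hu⟩ * b ^ p ^ (n + 1) →
            ∃ z : L, w z ≤ 1 ∧ w (z ^ p - z - (iota ⟨X, X_mem⟩ / iota ⟨C c, C_mem c⟩) ^ (i + 1)) < 1 := by
  have hlam0 : lam ≠ 0 := by
    rintro rfl
    rw [zero_pow (by have := hp.two_le; omega)] at hlam
    exact hp.ne_zero (by exact_mod_cast (neg_eq_zero.mp hlam.symm))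
  have hl : ‖lam‖ ^ (p - 1) = ‖(p : K)‖ := by rw [← norm_pow, hlam, norm_neg]
  have hl0 : 0 < ‖lam‖ := norm_pos_iff.mpr hlam0
  obtain ⟨rs, hrs, H⟩ := kas_formal hp hl0 hlam1 hl hR hom h0 hi
  refine ⟨rs, hrs, fun n c hc hcrs hcn hzeta => ?_⟩
  have hcn' : ‖coeff i om / ((i + 1 : ℕ) : K)‖ * ‖c‖ ^ (i + 1) = ‖(p : K)‖ ^ n * ‖lam‖ ^ p := by
    rw [← norm_pow, ← norm_mul, hcn, norm_mul, norm_pow, norm_pow]
  obtain ⟨r1, hr1a, hr1b, H⟩ := H n ‖c‖ (norm_pos_iff.mpr hc) hcrs hcn'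
  have hr1 : 0 < r1 := (norm_nonneg c).trans_lt hr1a
  refine ⟨r1, hr1, hr1a, hr1b, fun eta heta u hu0 hu => ?_⟩
  obtain ⟨A, A2, B, e, huAB, hAA2, hA2, hBe, hA0, hB0, hA1, hB1, he1, th, hth, he⟩ := H eta heta u hu0 hu
  have huB : Bd r1 (1 ^ p ^ (n + 1) * 1 ^ p ^ n) u := by
    rw [huAB]; exact (hA1.pow hr1 _).mul hr1 (hB1.pow hr1 _)
  refine ⟨mem_bsub huB, ?_⟩
  intro L _ w iota hG y b hb hy
  have hpK : (p : K) ≠ 0 := Nat.cast_ne_zero.mpr hp.ne_zero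
  set A' : bsub (K := K) r1 hr1 := ⟨A, mem_bsub hA1⟩ with hA'
  set B' : bsub (K := K) r1 hr1 := ⟨B, mem_bsub hB1⟩ with hB'
  set e' : bsub (K := K) r1 hr1 := ⟨e, mem_bsub he1⟩ with he'
  set X' : bsub (K := K) r1 hr1 := ⟨X, X_mem⟩ with hX'
  have hC : ∀ a : K, (C a : K⟦X⟧) ∈ bsub r1 hr1 := fun a => C_mem a
  -- the ring homomorphism K → L
  let phi : K →+* L := iota.comp ((C (R := K)).codRestrict (bsub r1 hr1) hC)
  have hphi : ∀ a : K, iota ⟨C a, C_mem a⟩ = phi a := fun a => rfl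
  have hwphi : ∀ a : K, (w (phi a) : ℝ) = ‖a‖ := fun a => hG.w_C a
  have hu1 : iota ⟨u, mem_bsub huB⟩ = iota A' ^ p ^ (n + 1) * iota B' ^ p ^ n := by
    rw [← map_pow, ← map_pow, ← map_mul]
    congr 1
    exact Subtype.ext huAB
  have hB1' : iota B' = 1 + phi lam ^ p * (iota X' / phi c) ^ (i + 1) + iota e' := by
    have h1 : (B' : bsub (K := K) r1 hr1) =
        1 + ((C (R := K)).codRestrict (bsub r1 hr1) hC) (lam ^ p / c ^ (i + 1)) * X' ^ (i + 1) + e' := by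
      apply Subtype.ext
      rw [hB']
      simp only
      rw [hBe]
      simp only [Subring.coe_add, Subring.coe_one, Subring.coe_mul, Subring.coe_pow, he', hX']
      congr 2
      have h2 : coeff i om / ((i + 1 : ℕ) : K) / (p : K) ^ n = lam ^ p / c ^ (i + 1) := by
        rw [div_eq_div_iff (pow_ne_zero _ hpK) (pow_ne_zero _ hc), hcn]; ring
      rw [h2]
      ext m
      show _ = coeff m (C (lam ^ p / c ^ (i + 1)) * X ^ (i + 1))
      rw [coeff_monomial, coeff_C_mul_X_pow]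
    rw [h1, map_add, map_add, map_one, map_mul, map_pow]
    congr 2
    show phi (lam ^ p / c ^ (i + 1)) * _ = _
    rw [map_div₀, map_pow, map_pow, div_pow]
    have hc' : phi c ≠ 0 := (map_ne_zero phi).mpr hc
    field_simp
  -- nonvanishing
  have hwe : w (iota e') < w (phi lam ^ p) := by
    rw [← NNReal.coe_lt_coe, map_pow, NNReal.coe_pow, hwphi]
    exact (hG.le_of_bd e' th he).trans_lt hth
  have hwlam : w (phi lam) < 1 := by
    rw [← NNReal.coe_lt_coe, hwphi]; exact_mod_cast hlam1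
  have hlamL : phi lam ^ (p - 1) = -(p : L) := by
    rw [← map_pow, hlam, map_neg, map_natCast]
  have hlamL0 : phi lam ≠ 0 := (map_ne_zero phi).mpr hlam0
  have hX1 : (w (iota X') : ℝ) ≤ ‖c‖ := by
    refine hG.le_of_bd X' ‖c‖ ?_
    have := bd_monomial (K := K) (norm_nonneg c) 1 1
    rw [norm_one, one_mul, pow_one, ← X_eq] at this
    exact this
  have hwt : w (iota X' / phi c) ≤ 1 := by
    rw [map_div₀, ← NNReal.coe_le_coe, NNReal.coe_div, hwphi, NNReal.coe_one]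
    exact (div_le_one (norm_pos_iff.mpr hc)).mpr hX1
  have hwa : w ((iota X' / phi c) ^ (i + 1)) ≤ 1 := by
    rw [map_pow]; exact pow_le_one' hwt _
  have hwlp : w (phi lam ^ p) < 1 := by
    rw [map_pow]; exact pow_lt_one₀ zero_le hwlam hp.ne_zero
  -- A and B are nonzero in L
  have hwB : w (iota B') = 1 := by
    have h1 : w (phi lam ^ p * (iota X' / phi c) ^ (i + 1)) < 1 := by
      rw [map_mul]
      calc w (phi lam ^ p) * w ((iota X' / phi c) ^ (i + 1)) ≤ w (phi lam ^ p) * 1 := by gcongr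
        _ < 1 := by rwa [mul_one]
    rw [hB1', add_assoc, add_comm]
    have h2 : w (phi lam ^ p * (iota X' / phi c) ^ (i + 1) + iota e') < w (1 : L) := by
      rw [map_one]
      exact w.map_add_lt h1 (hwe.trans hwlp)
    rw [Valuation.map_add_eq_of_lt_right _ h2, map_one]
  have hB0' : iota B' ≠ 0 := by
    intro h; rw [h, map_zero] at hwB; exact zero_ne_one hwB
  have hA0' : iota A' ≠ 0 := by
    intro h
    have h1 : A' * ⟨A2, mem_bsub hA2⟩ = 1 := Subtype.ext hAA2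
    have h2 := congrArg iota h1
    rw [map_mul, h, zero_mul, map_one] at h2
    exact zero_ne_one h2
  -- the root
  have hmuL : ∀ x : L, x ^ p ^ n = 1 → ∃ xi : L, xi ^ p = x := by
    intro x hx
    obtain ⟨zeta, hzeta⟩ := hzeta
    have hz : IsPrimitiveRoot (phi zeta) (p ^ (n + 1)) := hzeta.map_of_injective phi.injective
    have : NeZero (p ^ (n + 1)) := ⟨pow_ne_zero _ hp.ne_zero⟩
    have hz1 : IsPrimitiveRoot (phi zeta ^ p) (p ^ n) :=
      hz.pow (pow_pos hp.pos _) (by rw [pow_succ, mul_comm])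
    have : NeZero (p ^ n) := ⟨pow_ne_zero _ hp.ne_zero⟩
    obtain ⟨k, _, hk⟩ := hz1.eq_pow_of_pow_eq_one hx
    exact ⟨phi zeta ^ k, by rw [← hk, ← pow_mul, ← pow_mul, mul_comm]⟩
  have hy' : y ^ p ^ (n + 1) = (iota A' * b) ^ p ^ (n + 1) * iota B' ^ p ^ n := by
    rw [hy, hu1, mul_pow]; ring
  obtain ⟨xi, hxi, hroot⟩ := exists_root hp.ne_zero (mul_ne_zero hA0' hb) hB0' hmuL hy'
  rw [hB1'] at hroot
  obtain ⟨z, _, hz1, hz2⟩ := step w hp hlamL hlamL0 hwlam hwa hwe hroot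
  exact ⟨z, hz1, hz2⟩

omit [CharZero K] [Algebra ℚ K] [IsUltrametricDist K] [NormedField K] in
theorem sub_pow_prime {L : Type*} [Field L] (w : Valuation L ℝ≥0) {p : ℕ} (hp : p.Prime)
    (hwp : w (p : L) < 1) {z s : L} (hz : w z ≤ 1) (hs : w s ≤ 1) :
    w ((z - s) ^ p - (z ^ p - s ^ p)) < 1 := by
  obtain ⟨r, hr⟩ := exists_add_pow_prime_eq hp (⟨z, hz⟩ : w.integer) (-⟨s, hs⟩ : w.integer)
  obtain ⟨r', hr'⟩ : ∃ r' : w.integer, (-(⟨s, hs⟩ : w.integer)) ^ p = -(⟨s, hs⟩ : w.integer) ^ p + p * r' := by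
    rcases hp.eq_two_or_odd' with h | h
    · subst h
      exact ⟨(⟨s, hs⟩ : w.integer) ^ 2, by push_cast; ring⟩
    · exact ⟨0, by rw [h.neg_pow, mul_zero, add_zero]⟩
  have h1 : (z - s) ^ p - (z ^ p - s ^ p) =
      (p : L) * ((⟨z, hz⟩ * -⟨s, hs⟩ * r + r' : w.integer) : L) := by
    have h2 := congrArg (Subtype.val : w.integer → L) hr
    have h3 := congrArg (Subtype.val : w.integer → L) hr'
    push_cast at h2 h3
    rw [← sub_eq_add_neg] at h2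
    push_cast
    rw [h2, h3]; ring
  rw [h1, map_mul]
  calc w (p : L) * w ((⟨z, hz⟩ * -⟨s, hs⟩ * r + r' : w.integer) : L) ≤ w (p : L) * 1 := by
        gcongr
        exact (⟨z, hz⟩ * -⟨s, hs⟩ * r + r' : w.integer).2
    _ < 1 := by rwa [mul_one]

omit [CharZero K] [Algebra ℚ K] [IsUltrametricDist K] [NormedField K] in
/-- `z ^ p - z = t ^ (p ^ j)` can be replaced by `z ^ p - z = t` -/
theorem as_reduce {L : Type*} [Field L] (w : Valuation L ℝ≥0) {p : ℕ} (hp : p.Prime)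
    (hwp : w (p : L) < 1) {t : L} (ht : w t ≤ 1) (j : ℕ) :
    ∀ z : L, w z ≤ 1 → w (z ^ p - z - t ^ p ^ j) < 1 →
      ∃ z' : L, w z' ≤ 1 ∧ w (z' ^ p - z' - t) < 1 := by
  induction j with
  | zero =>
    intro z hz h
    rw [pow_zero, pow_one] at h
    exact ⟨z, hz, h⟩
  | succ j ih =>
    intro z hz h
    have hs : w (t ^ p ^ j) ≤ 1 := by rw [map_pow]; exact pow_le_one' ht _
    refine ih (z - t ^ p ^ j) ((w.map_sub _ _).trans (max_le hz hs)) ?_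
    have h1 := sub_pow_prime w hp hwp hz hs
    have h2 : (z - t ^ p ^ j) ^ p - (z - t ^ p ^ j) - t ^ p ^ j =
        ((z - t ^ p ^ j) ^ p - (z ^ p - (t ^ p ^ j) ^ p)) + (z ^ p - z - t ^ p ^ (j + 1)) := by
      rw [pow_succ p j, pow_mul]; ring
    rw [h2]
    exact w.map_add_lt h1 h

/-- **KAS, final form**: `i + 1 = p ^ j * m`; the residue field of every extension of the Gauss
point at radius `‖c‖` to `L ∋ u ^ (1 / p ^ (n+1))` contains a root of `z ^ p - z = t ^ m`, `t = X / c`. -/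
theorem kas {p : ℕ} (hp : p.Prime) {lam : K} (hlam : lam ^ (p - 1) = -(p : K))
    (hlam1 : ‖lam‖ < 1) {om : K⟦X⟧} {R D : ℝ} (hR : 0 < R) (hom : Bd R D om) {i : ℕ}
    (h0 : ∀ m < i, coeff m om = 0) (hi : coeff i om ≠ 0) {j m : ℕ} (hjm : i + 1 = p ^ j * m) :
    ∃ rs : ℝ, 0 < rs ∧ ∀ (n : ℕ) (c : K), c ≠ 0 → ‖c‖ < rs →
      coeff i om / ((i + 1 : ℕ) : K) * c ^ (i + 1) = (p : K) ^ n * lam ^ p →
      (∃ zeta : K, IsPrimitiveRoot zeta (p ^ (n + 1))) →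
      ∃ (r1 : ℝ) (hr1 : 0 < r1), ‖c‖ < r1 ∧ r1 < rs ∧
        ∀ eta : K⟦X⟧, Bd R (‖(p : K)‖ ^ (n + 1) / R) eta →
        ∀ u : K⟦X⟧, constantCoeff u = 1 → d⁄dX K u = (om + eta) * u →
        ∃ hu : u ∈ bsub (K := K) r1 hr1,
        ∀ (L : Type*) [Field L] (w : Valuation L ℝ≥0) (iota : (bsub (K := K) r1 hr1) →+* L),
          GaussPt ‖c‖ r1 hr1 L w iota → ∀ (y b : L), b ≠ 0 →
            y ^ p ^ (n + 1) = iota ⟨u, hu⟩ * b ^ p ^ (n + 1) →
            ∃ z : L, w z ≤ 1 ∧ w (z ^ p - z - (iota ⟨X, X_mem⟩ / iota ⟨C c, C_mem c⟩) ^ m) < 1 := by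
  obtain ⟨rs, hrs, H⟩ := kas_main hp hlam hlam1 hR hom h0 hi
  refine ⟨rs, hrs, fun n c hc hcrs hcn hzeta => ?_⟩
  obtain ⟨r1, hr1, h1, h2, H⟩ := H n c hc hcrs hcn hzeta
  refine ⟨r1, hr1, h1, h2, fun eta heta u hu0 hu => ?_⟩
  obtain ⟨hu', H⟩ := H eta heta u hu0 hu
  refine ⟨hu', fun L _ w iota hG y b hb hy => ?_⟩
  obtain ⟨z, hz1, hz2⟩ := H L w iota hG y b hb hy
  have hC : ∀ a : K, (C a : K⟦X⟧) ∈ bsub r1 hr1 := fun a => C_mem a
  let phi : K →+* L := iota.comp ((C (R := K)).codRestrict (bsub r1 hr1) hC)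
  have hphi : ∀ a : K, iota ⟨C a, C_mem a⟩ = phi a := fun a => rfl
  have hwphi : ∀ a : K, (w (phi a) : ℝ) = ‖a‖ := fun a => hG.w_C a
  have hwp : w (p : L) < 1 := by
    have h3 : (p : L) = phi (p : K) := (map_natCast phi p).symm
    have hl : ‖(p : K)‖ < 1 := by
      rw [← norm_neg, ← hlam, norm_pow]
      exact pow_lt_one₀ (norm_nonneg _) hlam1 (by have := hp.two_le; omega)
    rw [h3, ← NNReal.coe_lt_coe, hwphi]
    exact_mod_cast hl
  have hX1 : (w (iota ⟨X, X_mem⟩) : ℝ) ≤ ‖c‖ := by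
    refine hG.le_of_bd ⟨X, X_mem⟩ ‖c‖ ?_
    have := bd_monomial (K := K) (norm_nonneg c) 1 1
    rw [norm_one, one_mul, pow_one, ← X_eq] at this
    exact this
  have hwt : w (iota ⟨X, X_mem⟩ / iota ⟨C c, C_mem c⟩) ≤ 1 := by
    rw [map_div₀, ← NNReal.coe_le_coe, NNReal.coe_div, hphi, hwphi, NNReal.coe_one]
    exact (div_le_one (norm_pos_iff.mpr hc)).mpr hX1
  have hwtm : w ((iota ⟨X, X_mem⟩ / iota ⟨C c, C_mem c⟩) ^ m) ≤ 1 := by
    rw [map_pow]; exact pow_le_one' hwt _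
  refine as_reduce w hp hwp hwtm j z hz1 ?_
  rw [← pow_mul, mul_comm m, ← hjm]
  exact hz2

end Crest.Agent.R013.KAS3_940
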