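import Crest.Agent.R013.NB6_102

/-!
# Row 13, C-SLOPES (helper671), Kc1: labels of a Kummer generator at norms

`X : Dat E V U ι` (helper102), `M ⊇ U` a field, `r ∈ M` with `r ^ n = h ∈ U`, `v ∈ V` with
`v ^ n = h`, `v ∈ U ⊗ R` for a region `Q`.  At a norm `w` of `M` bounded on `Q` we have
`r = ξ Φ_w(v)` with a root of unity `ξ`, the label of `w`: `Lb Q v r w ξ`.
-/

set_option autoImplicit false
set_option linter.unusedSectionVars false

noncomputable section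

namespace Crest.Agent.R013.Kc_671

open Module Filter Topology Polynomial
open Crest.Agent.R013.Gl946 Crest.Agent.R013.A2a_275 Crest.Agent.R013.NB_102
open scoped NNReal

section roots

variable {k : Type*} [NormedField k]

theorem norm_root {n : ℕ} (hn : 0 < n) {ξ : k} (h : ξ ^ n = 1) : ‖ξ‖ = 1 := by
  have h1 : ‖ξ‖ ^ n = 1 := by rw [← norm_pow, h, norm_one]
  exact (pow_eq_one_iff_of_nonneg (norm_nonneg _) hn.ne').1 h1

/-- different `n`-th roots of unity have distance `≥ ρ` -/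
theorem exists_rho (k : Type*) [NormedField k] {n : ℕ} (hn : 0 < n) :
    ∃ ρ : ℝ, 0 < ρ ∧ ρ ≤ 1 ∧ ∀ ξ ξ' : k, ξ ^ n = 1 → ξ' ^ n = 1 → ξ ≠ ξ' → ρ ≤ ‖ξ - ξ'‖ := by
  classical
  have hne : (X ^ n - C (1 : k)) ≠ 0 := X_pow_sub_C_ne_zero hn 1
  set s : Finset k := (nthRoots n (1 : k)).toFinset with hs
  have hmem : ∀ ξ : k, ξ ^ n = 1 → ξ ∈ s := by
    intro ξ h
    rw [hs, Multiset.mem_toFinset, mem_nthRoots hn]
    exact h
  set t : Finset ℝ := insert 1 (((s ×ˢ s).filter fun p => p.1 ≠ p.2).image fun p => ‖p.1 - p.2‖)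
    with ht
  have htne : t.Nonempty := ⟨1, Finset.mem_insert_self _ _⟩
  refine ⟨t.min' htne, ?_, ?_, ?_⟩
  · rw [Finset.lt_min'_iff]
    intro x hx
    rcases Finset.mem_insert.1 hx with rfl | hx
    · exact one_pos
    · obtain ⟨p, hp, rfl⟩ := Finset.mem_image.1 hx
      exact norm_pos_iff.2 (sub_ne_zero.2 (Finset.mem_filter.1 hp).2)
  · exact Finset.min'_le _ _ (Finset.mem_insert_self _ _)
  · intro ξ ξ' h h' hne
    refine Finset.min'_le _ _ (Finset.mem_insert_of_mem (Finset.mem_image.2 ⟨(ξ, ξ'), ?_, rfl⟩))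
    rw [Finset.mem_filter, Finset.mem_product]
    exact ⟨⟨hmem _ h, hmem _ h'⟩, hne⟩

end roots

section Labels

variable {k E V U ι M : Type*} [NormedField k] [NormedField E] [CommRing V] [Algebra E V]
  [Nontrivial V] [Field U] [Fintype ι] [Field M] [Algebra U M] [Algebra k M]
  {X : Dat E V U ι}

/-- restriction of a norm -/
def rs (U : Type*) {M : Type*} [Field U] [Field M] [Algebra U M] (w : Valuation M ℝ≥0) :
    Valuation U ℝ≥0 := w.comap (algebraMap U M)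

theorem rs_apply (w : Valuation M ℝ≥0) (u : U) : rs U w u = w (algebraMap U M u) := rfl

/-- `U → ` completion of `M` -/
def kp (U : Type*) {M : Type*} [Field U] [Field M] [Algebra U M] (w : Valuation M ℝ≥0) :
    U →+* Cpl w := (toCpl w).comp (algebraMap U M)

theorem kp_apply (w : Valuation M ℝ≥0) (u : U) : kp U w u = toCpl w (algebraMap U M u) := rfl

theorem norm_kp (w : Valuation M ℝ≥0) (u : U) : ‖kp U w u‖ = rs U w u := norm_toCpl w _

/-- the label of the norm `w` -/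
def Lb (Q : Reg X.F0) (v : V) (r : M) (w : Valuation M ℝ≥0) (ξ : k) : Prop :=
  ∃ (hv : v ∈ X.VR Q.R Q.F0_le) (Φ : X.VR Q.R Q.F0_le →+* Cpl w), IsEv Q (kp U w) Φ ∧
    toCpl w r = toCpl w (algebraMap k M ξ) * Φ ⟨v, hv⟩

/-- existence of the label -/
theorem exists_Lb {n : ℕ} (hn : 0 < n) {ζ : k} (hζ : IsPrimitiveRoot ζ n) (Q : Reg X.F0) {v : V}
    (hv : v ∈ X.VR Q.R Q.F0_le) {h : U} (h0 : h ≠ 0) (e : v ^ n = X.j h) {r : M}
    (hr : r ^ n = algebraMap U M h) {w : Valuation M ℝ≥0} (hw : BdV Q (rs U w)) :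
    ∃ ξ : k, ξ ^ n = 1 ∧ Lb Q v r w ξ := by
  obtain ⟨Φ, hΦ⟩ := exists_ev Q (kp U w) (fun s hs u hu => by
    rw [norm_kp]; exact hw s hs u hu)
  have h1 : Φ ⟨v, hv⟩ ^ n = toCpl w r ^ n := by
    rw [← map_pow, ← map_pow, hr]
    have : (⟨v, hv⟩ : X.VR Q.R Q.F0_le) ^ n = ⟨X.j h, X.j_mem Q.R Q.F0_le h⟩ := Subtype.ext e
    rw [this, hΦ.eq, kp_apply]
  have h2 : Φ ⟨v, hv⟩ ≠ 0 := by
    intro h3
    rw [h3, zero_pow hn.ne', ← map_pow, hr] at h1
    exact (map_ne_zero (toCpl w)).2 ((map_ne_zero (algebraMap U M)).2 h0) h1.symm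
  have hζ' : IsPrimitiveRoot (toCpl w (algebraMap k M ζ)) n :=
    (hζ.map_of_injective (algebraMap k M).injective).map_of_injective (toCpl w).injective
  have h4 : (toCpl w r / Φ ⟨v, hv⟩) ^ n = 1 := by
    rw [div_pow, h1, div_self (h1 ▸ pow_ne_zero n h2)]
  have : NeZero n := ⟨hn.ne'⟩
  obtain ⟨i, -, hi⟩ := hζ'.eq_pow_of_pow_eq_one h4
  refine ⟨ζ ^ i, by rw [← pow_mul, mul_comm, pow_mul, hζ.pow_eq_one, one_pow], hv, Φ, hΦ, ?_⟩
  rw [map_pow, map_pow, hi, div_mul_cancel₀ _ h2]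

/-- the label is detected by an approximation, easy direction -/
theorem Lb.le (Q : Reg X.F0) {v : V} {r : M} {w : Valuation M ℝ≥0} {ξ : k}
    (hξ : w (algebraMap k M ξ) = 1) (h : Lb Q v r w ξ) {η : ℝ} {d u : U} (ha : Apx Q v η d u)
    (hη : 0 ≤ η) {B : ℝ} (hB0 : 0 ≤ B)
    (hB : ∀ i, ∀ x : U, X.j x = X.b i → (rs U w x : ℝ) ≤ B) :
    (w (algebraMap U M d * r - algebraMap k M ξ * algebraMap U M u) : ℝ) ≤ η * B := by
  obtain ⟨hv, Φ, hΦ, e⟩ := h
  have h1 := ha.bound Q hη hv (kp U w) Φ hΦ B hB0 (fun i x hx => by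
    rw [norm_kp]; exact hB i x hx)
  have h2 : toCpl w (algebraMap U M d * r - algebraMap k M ξ * algebraMap U M u) =
      -(toCpl w (algebraMap k M ξ) * (kp U w u - kp U w d * Φ ⟨v, hv⟩)) := by
    rw [map_sub, map_mul, map_mul, e, kp_apply, kp_apply]
    ring
  rw [← norm_toCpl, h2, norm_neg, norm_mul, norm_toCpl, hξ, NNReal.coe_one, one_mul]
  exact h1

theorem aux_ne {w : Valuation M ℝ≥0} {a b : M} {ρ : ℝ} (hρ1 : ρ ≤ 1) {ξ ξ' : M}
    (hξ : w ξ = 1) (hd : ρ ≤ w (ξ - ξ'))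
    (h : (w (a - ξ * b) : ℝ) < ρ * w a) (h' : (w (a - ξ' * b) : ℝ) < ρ * w a) : False := by
  have ha : (0 : ℝ) ≤ w a := NNReal.coe_nonneg _
  have h1 : w (a - ξ * b) < w a := by
    have : (w (a - ξ * b) : ℝ) < w a := h.trans_le (by nlinarith)
    exact_mod_cast this
  have h2 : w b = w a := by
    have h3 : w (ξ * b) = w a := by
      have : ξ * b = a - (a - ξ * b) := by ring
      rw [this]
      exact Valuation.map_sub_eq_of_lt_left w h1
    rwa [map_mul, hξ, one_mul] at h3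
  have h4 : (w ((ξ - ξ') * b) : ℝ) < ρ * w a := by
    have : (ξ - ξ') * b = (a - ξ' * b) - (a - ξ * b) := by ring
    rw [this]
    have h5 := w.map_sub (a - ξ' * b) (a - ξ * b)
    have h6 : (w ((a - ξ' * b) - (a - ξ * b)) : ℝ) ≤ max (w (a - ξ' * b) : ℝ) (w (a - ξ * b)) := by
      exact_mod_cast h5
    exact h6.trans_lt (max_lt h' h)
  rw [map_mul, h2, NNReal.coe_mul] at h4
  have h7 : ρ * w a ≤ (w (ξ - ξ') : ℝ) * w a := mul_le_mul_of_nonneg_right hd ha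
  exact absurd h4 (not_lt.2 h7)

/-- Data of the Kummer generator in the region `Q`. -/
structure KD (n : ℕ) (ζ : k) (Q : Reg X.F0) (v : V) (h : U) (r : M) : Prop where
  hn : 0 < n
  prim : IsPrimitiveRoot ζ n
  mem : v ∈ X.VR Q.R Q.F0_le
  h0 : h ≠ 0
  pow : v ^ n = X.j h
  root : r ^ n = algebraMap U M h

/-- `w` is the norm of `k` on constants -/
def NKM (k : Type*) {M : Type*} [NormedField k] [Field M] [Algebra k M] (w : Valuation M ℝ≥0) :
    Prop := ∀ c : k, (w (algebraMap k M c) : ℝ) = ‖c‖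

variable {n : ℕ} {ζ : k} {Q : Reg X.F0} {v : V} {h : U} {r : M}

theorem NKM.root {w : Valuation M ℝ≥0} (hw : NKM k w) (hn : 0 < n) {ξ : k} (hξ : ξ ^ n = 1) :
    w (algebraMap k M ξ) = 1 := by
  have h1 := hw ξ
  rw [norm_root hn hξ] at h1
  exact_mod_cast h1

theorem KD.r_ne (D : KD (k := k) n ζ Q v h r) : r ≠ 0 := by
  rintro rfl
  have := D.root
  rw [zero_pow D.hn.ne'] at this
  exact (map_ne_zero (algebraMap U M)).2 D.h0 this.symm

/-- **the label is detected by an approximation** -/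
theorem KD.test (D : KD (k := k) n ζ Q v h r) {ρ : ℝ} (hρ1 : ρ ≤ 1)
    (hρ : ∀ ξ ξ' : k, ξ ^ n = 1 → ξ' ^ n = 1 → ξ ≠ ξ' → ρ ≤ ‖ξ - ξ'‖)
    {w : Valuation M ℝ≥0} (hNK : NKM k w) (hbd : BdV Q (rs U w)) {η : ℝ} {d u : U}
    (ha : Apx Q v η d u) (hη : 0 ≤ η) {B : ℝ} (hB0 : 0 ≤ B)
    (hB : ∀ i, ∀ x : U, X.j x = X.b i → (rs U w x : ℝ) ≤ B)
    (hlt : η * B < ρ * w (algebraMap U M d * r)) {ξ : k} (hξ : ξ ^ n = 1) :
    Lb Q v r w ξ ↔ (w (algebraMap U M d * r - algebraMap k M ξ * algebraMap U M u) : ℝ) <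
      ρ * w (algebraMap U M d * r) := by
  constructor
  · intro h1
    exact (h1.le Q (hNK.root D.hn hξ) ha hη hB0 hB).trans_lt hlt
  · intro h1
    obtain ⟨ξ', hξ', h2⟩ := exists_Lb D.hn D.prim Q D.mem D.h0 D.pow D.root hbd
    have h3 := (h2.le Q (hNK.root D.hn hξ') ha hη hB0 hB).trans_lt hlt
    rcases eq_or_ne ξ ξ' with rfl | hne
    · exact h2
    · exfalso
      refine aux_ne hρ1 (hNK.root D.hn hξ) ?_ h1 h3
      rw [← map_sub, hNK]
      exact hρ ξ ξ' hξ hξ' hne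

/-- good approximations exist -/
theorem KD.exists_good (D : KD (k := k) n ζ Q v h r) {ρ : ℝ} (hρ0 : 0 < ρ) (w : Valuation M ℝ≥0) :
    ∃ (η B : ℝ) (d u : U), 0 < η ∧ 0 < B ∧ d ≠ 0 ∧ Apx Q v η d u ∧
      (∀ i, ∀ x : U, X.j x = X.b i → (rs U w x : ℝ) < B) ∧
      η * B < ρ * (w (algebraMap U M d * r) / 2) := by
  obtain ⟨B, hB0, hB⟩ := exists_B X (rs U w)
  obtain ⟨d, hd0, hd⟩ := exists_apx Q v D.mem
  have hwd : (0 : ℝ) < w (algebraMap U M d * r) := by
    have := (Valuation.ne_zero_iff w).2 (mul_ne_zero ((map_ne_zero (algebraMap U M)).2 hd0) D.r_ne)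
    exact_mod_cast pos_iff_ne_zero.2 this
  obtain ⟨u, hu⟩ := hd (ρ * w (algebraMap U M d * r) / (4 * B)) (by positivity)
  refine ⟨_, B, d, u, by positivity, hB0, hd0, hu, hB, ?_⟩
  have : ρ * w (algebraMap U M d * r) / (4 * B) * B = ρ * w (algebraMap U M d * r) / 4 := by
    field_simp
  rw [this]
  have : 0 < ρ * w (algebraMap U M d * r) := by positivity
  linarith

/-- **uniqueness of the label** -/
theorem KD.unique (D : KD (k := k) n ζ Q v h r) {w : Valuation M ℝ≥0} (hNK : NKM k w)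
    (hbd : BdV Q (rs U w)) {ξ ξ' : k} (hξ : ξ ^ n = 1) (hξ' : ξ' ^ n = 1)
    (h1 : Lb Q v r w ξ) (h2 : Lb Q v r w ξ') : ξ = ξ' := by
  obtain ⟨ρ, hρ0, hρ1, hρ⟩ := exists_rho k D.hn
  obtain ⟨η, B, d, u, hη, hB0, hd0, ha, hB, hlt⟩ := D.exists_good hρ0 w
  have hlt' : η * B < ρ * w (algebraMap U M d * r) := by
    have : (0 : ℝ) ≤ ρ * w (algebraMap U M d * r) := by positivity
    linarith
  by_contra hne
  have t1 := (D.test hρ1 hρ hNK hbd ha hη.le hB0.le (fun i x hx => (hB i x hx).le) hlt' hξ).1 h1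
  have t2 := (D.test hρ1 hρ hNK hbd ha hη.le hB0.le (fun i x hx => (hB i x hx).le) hlt' hξ').1 h2
  refine aux_ne hρ1 (hNK.root D.hn hξ) ?_ t1 t2
  rw [← map_sub, hNK]
  exact hρ ξ ξ' hξ hξ' hne

theorem NKM.comap {w : Valuation M ℝ≥0} (hNK : NKM k w) (σ : M ≃ₐ[U] M)
    (hk : ∀ c : k, σ (algebraMap k M c) = algebraMap k M c) :
    NKM k (w.comap (σ : M →+* M)) := fun c => by
  change (w (σ (algebraMap k M c)) : ℝ) = _
  rw [hk]
  exact hNK c

theorem rs_comap (w : Valuation M ℝ≥0) (σ : M ≃ₐ[U] M) : rs U (w.comap (σ : M →+* M)) = rs U w := by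
  ext u
  refine congrArg _ ?_
  change w (σ (algebraMap U M u)) = w (algebraMap U M u)
  rw [σ.commutes]

/-- **equivariance of the label** -/
theorem KD.equivariant (D : KD (k := k) n ζ Q v h r) {w : Valuation M ℝ≥0} (hNK : NKM k w)
    (hbd : BdV Q (rs U w)) (σ : M ≃ₐ[U] M)
    (hk : ∀ c : k, σ (algebraMap k M c) = algebraMap k M c) {ξσ : k} (hξσ : ξσ ^ n = 1)
    (hσ : σ r = algebraMap k M ξσ * r) {ξ : k} (hξ : ξ ^ n = 1)
    (h1 : Lb Q v r w ξ) : Lb Q v r (w.comap (σ : M →+* M)) (ξ * ξσ) := by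
  obtain ⟨ρ, hρ0, hρ1, hρ⟩ := exists_rho k D.hn
  obtain ⟨η, B, d, u, hη, hB0, hd0, ha, hB, hlt⟩ := D.exists_good hρ0 w
  have hlt' : η * B < ρ * w (algebraMap U M d * r) := by
    have : (0 : ℝ) ≤ ρ * w (algebraMap U M d * r) := by positivity
    linarith
  have hwσ : w (algebraMap k M ξσ) = 1 := hNK.root D.hn hξσ
  have e1 : (w.comap (σ : M →+* M)) (algebraMap U M d * r) = w (algebraMap U M d * r) := by
    change w (σ (algebraMap U M d * r)) = _
    rw [map_mul, σ.commutes, hσ, map_mul, map_mul, map_mul, hwσ, one_mul]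
  have e2 : (w.comap (σ : M →+* M)) (algebraMap U M d * r -
      algebraMap k M (ξ * ξσ) * algebraMap U M u) =
      w (algebraMap U M d * r - algebraMap k M ξ * algebraMap U M u) := by
    change w (σ (algebraMap U M d * r - algebraMap k M (ξ * ξσ) * algebraMap U M u)) = _
    have : σ (algebraMap U M d * r - algebraMap k M (ξ * ξσ) * algebraMap U M u) =
        algebraMap k M ξσ * (algebraMap U M d * r - algebraMap k M ξ * algebraMap U M u) := by
      rw [map_sub, map_mul, map_mul, σ.commutes, σ.commutes, hσ, hk, map_mul]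
      ring
    rw [this, map_mul, hwσ, one_mul]
  have hrs : rs U (w.comap (σ : M →+* M)) = rs U w := rs_comap w σ
  have t1 := (D.test hρ1 hρ hNK hbd ha hη.le hB0.le (fun i x hx => (hB i x hx).le) hlt' hξ).1 h1
  refine (D.test hρ1 hρ (hNK.comap σ hk) (by rw [hrs]; exact hbd) ha hη.le hB0.le
    (fun i x hx => by rw [hrs]; exact (hB i x hx).le) (by rw [e1]; exact hlt')
    (by rw [mul_pow, hξ, hξσ, one_mul])).2 ?_
  rw [e1, e2]
  exact t1

/-- **local constancy of the label** -/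
theorem KD.eventually (D : KD (k := k) n ζ Q v h r) {T : Type*} [TopologicalSpace T]
    (w : T → Valuation M ℝ≥0) (t0 : T) (hc : ∀ x, ContinuousAt (fun t => w t x) t0)
    (hNK : ∀ t, NKM k (w t)) (hbd : BdV Q (rs U (w t0))) {ξ : k} (hξ : ξ ^ n = 1)
    (h1 : Lb Q v r (w t0) ξ) : ∀ᶠ t in 𝓝 t0, BdV Q (rs U (w t)) → Lb Q v r (w t) ξ := by
  classical
  obtain ⟨ρ, hρ0, hρ1, hρ⟩ := exists_rho k D.hn
  obtain ⟨η, B, d, u, hη, hB0, hd0, ha, hB, hlt⟩ := D.exists_good hρ0 (w t0)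
  have hwd : (0 : ℝ) < w t0 (algebraMap U M d * r) := by
    have := (Valuation.ne_zero_iff (w t0)).2
      (mul_ne_zero ((map_ne_zero (algebraMap U M)).2 hd0) D.r_ne)
    exact_mod_cast pos_iff_ne_zero.2 this
  have hc' : ∀ x, ContinuousAt (fun t => (w t x : ℝ)) t0 := fun x =>
    NNReal.continuous_coe.continuousAt.comp (hc x)
  choose β hβ using X.exists_b
  have e1 : ∀ᶠ t in 𝓝 t0, η * B < ρ * (w t (algebraMap U M d * r)) := by
    refine ((hc' _).const_mul ρ).eventually (lt_mem_nhds ?_)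
    have : (0 : ℝ) ≤ ρ * w t0 (algebraMap U M d * r) := by positivity
    linarith
  have e2 : ∀ᶠ t in 𝓝 t0, ∀ i, (w t (algebraMap U M (β i)) : ℝ) < B := by
    rw [eventually_all]
    intro i
    exact (hc' _).eventually (gt_mem_nhds (hB i (β i) (hβ i)))
  have hlt' : η * B < ρ * w t0 (algebraMap U M d * r) := by
    have : (0 : ℝ) ≤ ρ * w t0 (algebraMap U M d * r) := by positivity
    linarith
  have t1 := (D.test hρ1 hρ (hNK t0) hbd ha hη.le hB0.le (fun i x hx => (hB i x hx).le) hlt'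
    hξ).1 h1
  have e3 : ∀ᶠ t in 𝓝 t0, (w t (algebraMap U M d * r - algebraMap k M ξ * algebraMap U M u) : ℝ) <
      ρ * w t (algebraMap U M d * r) :=
    (hc' _).eventually_lt ((hc' _).const_mul ρ) t1
  filter_upwards [e1, e2, e3] with t h2 h3 h4 h5
  refine (D.test hρ1 hρ (hNK t) h5 ha hη.le hB0.le (fun i x hx => ?_) h2 hξ).2 h4
  have : x = β i := X.j.injective (hx.trans (hβ i).symm)
  rw [this]
  exact (h3 i).le

/-- approximation of `h` by `n`-th powers -/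
theorem exists_pow_approx {n : ℕ} (hn : 0 < n) (Q : Reg X.F0) {v : V}
    (hv : v ∈ X.VR Q.R Q.F0_le) {h : U} (h0 : h ≠ 0) (e : v ^ n = X.j h)
    {w : Valuation M ℝ≥0} (hw : BdV Q (rs U w)) {ε : ℝ} (hε : 0 < ε) :
    ∃ g : U, g ≠ 0 ∧ (w (algebraMap U M (h / g ^ n - 1)) : ℝ) < ε := by
  obtain ⟨Φ, hΦ⟩ := exists_ev Q (kp U w) (fun s hs u hu => by
    rw [norm_kp]; exact hw s hs u hu)
  have h1 : Φ ⟨v, hv⟩ ^ n = kp U w h := by
    rw [← map_pow, ← hΦ.eq]
    exact congrArg Φ (Subtype.ext e)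
  have h2 : Φ ⟨v, hv⟩ ≠ 0 := by
    intro h3
    rw [h3, zero_pow hn.ne'] at h1
    exact (_root_.map_ne_zero (kp U w)).2 h0 h1.symm
  obtain ⟨B, hB0, hB⟩ := exists_B X (rs U w)
  obtain ⟨d, hd0, hd⟩ := exists_apx Q v hv
  set φ := Φ ⟨v, hv⟩ with hφ
  have hφ0 : 0 < ‖φ‖ := norm_pos_iff.2 h2
  have hd1 : kp U w d ≠ 0 := (_root_.map_ne_zero (kp U w)).2 hd0
  have hd2 : 0 < ‖kp U w d‖ := norm_pos_iff.2 hd1
  -- continuity of `x ↦ φ ^ n / x ^ n - 1` at `φ`
  have hcont : ContinuousAt (fun x : Cpl w => φ ^ n / x ^ n - 1) φ := by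
    have : ContinuousAt (fun x : Cpl w => φ ^ n / x ^ n) φ :=
      ContinuousAt.div continuousAt_const (continuousAt_id.pow n) (pow_ne_zero n h2)
    exact this.sub continuousAt_const
  have hz : φ ^ n / φ ^ n - 1 = 0 := by rw [div_self (pow_ne_zero n h2), sub_self]
  obtain ⟨δ, hδ, hδ2⟩ := Metric.continuousAt_iff.1 hcont ε hε
  set δ' := min δ (‖φ‖) with hδ'
  have hδ'0 : 0 < δ' := lt_min hδ hφ0
  obtain ⟨u, hu⟩ := hd (δ' * ‖kp U w d‖ / (2 * B)) (by positivity)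
  have hb := hu.bound Q (by positivity) hv (kp U w) Φ hΦ B hB0.le
    (fun i x hx => by rw [norm_kp]; exact (hB i x hx).le)
  have hb2 : δ' * ‖kp U w d‖ / (2 * B) * B = δ' * ‖kp U w d‖ / 2 := by field_simp
  rw [hb2] at hb
  have hgφ : ‖kp U w (u / d) - φ‖ < δ' := by
    have : kp U w (u / d) - φ = (kp U w u - kp U w d * φ) / kp U w d := by
      rw [map_div₀]; field_simp
    rw [this, norm_div, div_lt_iff₀ hd2]
    have : 0 < δ' * ‖kp U w d‖ := by positivity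
    linarith
  refine ⟨u / d, ?_, ?_⟩
  · intro h0'
    rw [h0', map_zero, zero_sub, norm_neg] at hgφ
    exact absurd (min_le_right δ ‖φ‖) (not_le.2 hgφ)
  · have h3 := hδ2 (x := kp U w (u / d)) (by
      rw [dist_eq_norm]; exact hgφ.trans_le (min_le_left _ _))
    rw [hz, dist_zero_right, h1, ← map_pow, ← map_div₀] at h3
    have h4 : (1 : Cpl w) = kp U w 1 := (map_one _).symm
    rw [h4, ← map_sub, norm_kp] at h3
    exact h3

end Labels

end Crest.Agent.R013.Kc_671
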