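import Crest.Agent.R013.Kc1_671

/-!
# Row 13, C-SLOPES (helper671), Kc2: labels at the two sides of 946's circle, the jump at the atom
-/

set_option autoImplicit false
set_option linter.unusedSectionVars false

noncomputable section

namespace Crest.Agent.R013.Kc_671

open Module Filter Topology Polynomial
open Crest.Agent.R013.Gl946 Crest.Agent.R013.A2a_275 Crest.Agent.R013.NB_102
open scoped NNReal

section EvV

variable {E V U ι : Type*} [NormedField E] [CommRing V] [Algebra E V] [Nontrivial V] [Field U]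
  [Fintype ι] {X : Dat E V U ι}

/-- the evaluation of `V` at a homomorphism over the circle -/
theorem exists_isEvV' (hd : Dense (X.F0 : Set E)) {Ω : Type*} [NormedField Ω] [CompleteSpace Ω]
    (κ : U →+* Ω) (hκ : ∀ z ∈ X.F0, ∀ u, X.j u = algebraMap E V z → ‖κ u‖ = ‖z‖) :
    ∃ Φ : V →+* Ω, IsEvV X κ Φ := by
  obtain ⟨Φ, hΦ⟩ := exists_ev (Qtop X hd) κ (fun s hs u hu => (hκ s hs u hu).le)
  have hmem : ∀ v : V, v ∈ X.VR (Qtop X hd).R (Qtop X hd).F0_le := fun v i => trivial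
  let Φ' : V →+* Ω := Φ.comp ((RingHom.id V).codRestrict _ hmem)
  have h1 : ∀ a : E, ‖Φ' (algebraMap E V a)‖ ≤ ‖a‖ := fun a => hΦ.bd a (hd a)
  refine ⟨Φ', hΦ.eq, fun a => ?_⟩
  rcases eq_or_ne a 0 with rfl | ha
  · rw [map_zero, map_zero, norm_zero, norm_zero]
  · refine le_antisymm (h1 a) ?_
    have h2 := h1 a⁻¹
    have h3 : Φ' (algebraMap E V a) * Φ' (algebraMap E V a⁻¹) = 1 := by
      rw [← map_mul, ← map_mul, mul_inv_cancel₀ ha, map_one, map_one]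
    have h4 : ‖Φ' (algebraMap E V a)‖ * ‖Φ' (algebraMap E V a⁻¹)‖ = 1 := by
      rw [← norm_mul, h3, norm_one]
    rw [norm_inv] at h2
    have ha' : 0 < ‖a‖ := norm_pos_iff.2 ha
    by_contra hlt
    push Not at hlt
    have h5 : ‖Φ' (algebraMap E V a)‖ * ‖Φ' (algebraMap E V a⁻¹)‖ < ‖a‖ * ‖a‖⁻¹ := by
      have h6 : 0 < ‖Φ' (algebraMap E V a⁻¹)‖ := by
        rw [norm_pos_iff]
        exact right_ne_zero_of_mul_eq_one h3
      calc _ < ‖a‖ * ‖Φ' (algebraMap E V a⁻¹)‖ := mul_lt_mul_of_pos_right hlt h6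
        _ ≤ ‖a‖ * ‖a‖⁻¹ := mul_le_mul_of_nonneg_left h2 ha'.le
    rw [h4, mul_inv_cancel₀ ha'.ne'] at h5
    exact lt_irrefl _ h5

variable {M : Type*} [Field M] [Algebra U M]

theorem exists_isEvV_kp (hd : Dense (X.F0 : Set E)) {w : Valuation M ℝ≥0} (h : GT X (rs U w)) :
    ∃ Φ : V →+* Cpl w, IsEvV X (kp U w) Φ :=
  exists_isEvV' hd (kp U w) fun z hz u hu => by
    rw [norm_kp]
    exact h z hz u hu

end EvV

section Circle

variable {k E : Type*} [NormedField k] [CompleteSpace k] [NormedField E] [NormedAlgebra k E]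
  [IsUltrametricDist E] [CompleteSpace E] {y : E}
  (hG : IsGauss k y) {π : k} (hπ : IsUnif π) (hd : DenseRat k y)
  {V U ι : Type*} [CommRing V] [Algebra E V] [Nontrivial V] [Field U] [Fintype ι]
  [Algebra k U] (X : Dat E V U ι) (hF : ∀ z : E, z ∈ X.F0 ↔ z ∈ KY hG)

/-- The data of a Kummer circle class: `a d = 1 + (ζ - 1) e`, `h = a ^ n = d' ^ n`. -/
structure CD (n : ℕ) (ζ : k) (yU : U) (w0 : Valuation U ℝ≥0) (e a a' d d' : V) (h : U) : Prop where
  hk : ∀ c : k, X.j (algebraMap k U c) = algebraMap E V (algebraMap k E c)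
  hy : X.j yU = algebraMap E V y
  hn : 0 < n
  prim : IsPrimitiveRoot ζ n
  gt : GT X w0
  y1 : w0 yU = 1
  e1 : ∀ Φ : V →+* Cpl w0, IsEvV X (toCpl w0) Φ → Φ e = 1
  e0 : ∀ w : Valuation U ℝ≥0, GT X w → w ≠ w0 → ∀ Φ : V →+* Cpl w, IsEvV X (toCpl w) Φ → Φ e = 0
  aa : a * a' = 1
  dd : d * d' = 1
  ad : a * d = 1 + algebraMap E V (algebraMap k E (ζ - 1)) * e
  ha : a ∈ X.VR (QU hG X.F0 hF).R (QU hG X.F0 hF).F0_le
  hd' : d' ∈ X.VR (QP hG hπ hd X.F0 hF).R (QP hG hπ hd X.F0 hF).F0_le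
  h0 : h ≠ 0
  pa : a ^ n = X.j h
  pd : d' ^ n = X.j h

variable {hG hπ hd X hF} {M : Type*} [Field M] [Algebra U M] [Algebra k M]
  [IsScalarTower k U M] {n : ℕ} {ζ : k} {yU : U} {w0 : Valuation U ℝ≥0} {e a a' d d' : V} {h : U}
  {r : M}

/-- the label -/
def Lab (hG : IsGauss k y) {π : k} (hπ : IsUnif π) (hd : DenseRat k y) (X : Dat E V U ι)
    (hF : ∀ z : E, z ∈ X.F0 ↔ z ∈ KY hG) (yU : U) (a d' : V) (r : M) (w : Valuation M ℝ≥0)
    (ξ : k) : Prop :=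
  (w (algebraMap U M yU) < 1 → Lb (QP hG hπ hd X.F0 hF) d' r w ξ) ∧
    (1 ≤ w (algebraMap U M yU) → Lb (QU hG X.F0 hF) a r w ξ)

theorem NKM.nk {w : Valuation M ℝ≥0} (h : NKM k w) : NK k (rs U w) := fun c => by
  rw [rs_apply, ← IsScalarTower.algebraMap_apply]
  exact h c

theorem CD.kdU (D : CD hG hπ hd X hF n ζ yU w0 e a a' d d' h) (hr : r ^ n = algebraMap U M h) :
    KD n ζ (QU hG X.F0 hF) a h r := ⟨D.hn, D.prim, D.ha, D.h0, D.pa, hr⟩

theorem CD.kdP (D : CD hG hπ hd X hF n ζ yU w0 e a a' d d' h) (hr : r ^ n = algebraMap U M h) :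
    KD n ζ (QP hG hπ hd X.F0 hF) d' h r := ⟨D.hn, D.prim, D.hd', D.h0, D.pd, hr⟩

theorem CD.bdU (D : CD hG hπ hd X hF n ζ yU w0 e a a' d d' h) {w : Valuation M ℝ≥0}
    (hw : NKM k w) (h1 : 1 ≤ w (algebraMap U M yU)) : BdV (QU hG X.F0 hF) (rs U w) :=
  NB_102.bdU hG hF D.hk D.hy hw.nk h1

theorem CD.bdP (D : CD hG hπ hd X hF n ζ yU w0 e a a' d d' h) {w : Valuation M ℝ≥0}
    (hw : NKM k w) (h1 : w (algebraMap U M yU) < 1) : BdV (QP hG hπ hd X.F0 hF) (rs U w) :=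
  NB_102.bdP hG hF D.hk D.hy hπ hd hw.nk h1

theorem CD.exists_lab (D : CD hG hπ hd X hF n ζ yU w0 e a a' d d' h)
    (hr : r ^ n = algebraMap U M h) {w : Valuation M ℝ≥0} (hw : NKM k w) :
    ∃ ξ : k, ξ ^ n = 1 ∧ Lab hG hπ hd X hF yU a d' r w ξ := by
  rcases lt_or_ge (w (algebraMap U M yU)) 1 with h1 | h1
  · obtain ⟨ξ, h2, h3⟩ := exists_Lb D.hn D.prim _ D.hd' D.h0 D.pd hr (D.bdP hw h1)
    exact ⟨ξ, h2, fun _ => h3, fun h4 => absurd h1 (not_lt.2 h4)⟩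
  · obtain ⟨ξ, h2, h3⟩ := exists_Lb D.hn D.prim _ D.ha D.h0 D.pa hr (D.bdU hw h1)
    exact ⟨ξ, h2, fun h4 => absurd h4 (not_lt.2 h1), fun _ => h3⟩

theorem CD.lab_unique (D : CD hG hπ hd X hF n ζ yU w0 e a a' d d' h)
    (hr : r ^ n = algebraMap U M h) {w : Valuation M ℝ≥0} (hw : NKM k w) {ξ ξ' : k}
    (hξ : ξ ^ n = 1) (hξ' : ξ' ^ n = 1) (h1 : Lab hG hπ hd X hF yU a d' r w ξ)
    (h2 : Lab hG hπ hd X hF yU a d' r w ξ') : ξ = ξ' := by
  rcases lt_or_ge (w (algebraMap U M yU)) 1 with h3 | h3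
  · exact (D.kdP hr).unique hw (D.bdP hw h3) hξ hξ' (h1.1 h3) (h2.1 h3)
  · exact (D.kdU hr).unique hw (D.bdU hw h3) hξ hξ' (h1.2 h3) (h2.2 h3)

theorem CD.lab_equivariant (D : CD hG hπ hd X hF n ζ yU w0 e a a' d d' h)
    (hr : r ^ n = algebraMap U M h) {w : Valuation M ℝ≥0} (hw : NKM k w) (σ : M ≃ₐ[U] M)
    {ξσ : k} (hξσ : ξσ ^ n = 1)
    (hσ : σ r = algebraMap k M ξσ * r) {ξ : k} (hξ : ξ ^ n = 1)
    (h1 : Lab hG hπ hd X hF yU a d' r w ξ) :
    Lab hG hπ hd X hF yU a d' r (w.comap (σ : M →+* M)) (ξ * ξσ) := by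
  have hkσ : ∀ c : k, σ (algebraMap k M c) = algebraMap k M c := fun c => by
    rw [IsScalarTower.algebraMap_apply k U M, σ.commutes]
  have e1 : (w.comap (σ : M →+* M)) (algebraMap U M yU) = w (algebraMap U M yU) := by
    change w (σ (algebraMap U M yU)) = _
    rw [σ.commutes]
  constructor
  · intro h2
    rw [e1] at h2
    exact (D.kdP hr).equivariant hw (D.bdP hw h2) σ hkσ hξσ hσ hξ (h1.1 h2)
  · intro h2
    rw [e1] at h2
    exact (D.kdU hr).equivariant hw (D.bdU hw h2) σ hkσ hξσ hσ hξ (h1.2 h2)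

/-- the value of the atom -/
theorem CD.ev_e (D : CD hG hπ hd X hF n ζ yU w0 e a a' d d' h) {w : Valuation M ℝ≥0}
    (hw : GT X (rs U w)) {Φ : V →+* Cpl w} (hΦ : IsEvV X (kp U w) Φ) [Decidable (rs U w = w0)] :
    Φ e = if rs U w = w0 then 1 else 0 := by
  have hden := dense_F0 hd hG X.F0 hF
  obtain ⟨Ψ, hΨ⟩ := hw.exists_isEvV hden
  have hn : ∀ v, ‖Φ v‖ = ‖Ψ v‖ := fun v => hΦ.norm_eq hden hΨ (fun u => by
    rw [norm_kp, norm_toCpl]) v
  split_ifs with h1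
  · subst h1
    have h2 := D.e1 Ψ hΨ
    have h3 : Ψ (1 - e) = 0 := by rw [map_sub, map_one, h2, sub_self]
    have h4 := hn (1 - e)
    rw [h3, norm_zero, norm_eq_zero, map_sub, map_one, sub_eq_zero] at h4
    exact h4.symm
  · have h2 := D.e0 _ hw h1 Ψ hΨ
    have h4 := hn e
    rwa [h2, norm_zero, norm_eq_zero] at h4

/-- **the jump at the atom** -/
theorem CD.jump (D : CD hG hπ hd X hF n ζ yU w0 e a a' d d' h)
    (hr : r ^ n = algebraMap U M h) {w : Valuation M ℝ≥0} (hw : NKM k w)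
    (hgt : GT X (rs U w)) [Decidable (rs U w = w0)] {ξ : k} (hξ : ξ ^ n = 1)
    (h1 : Lb (QU hG X.F0 hF) a r w ξ) :
    Lb (QP hG hπ hd X.F0 hF) d' r w (ξ * if rs U w = w0 then ζ else 1) := by
  have hden := dense_F0 hd hG X.F0 hF
  obtain ⟨Φ, hΦ⟩ := exists_isEvV_kp hden hgt
  have he := D.ev_e hgt hΦ
  have hkΦ : ∀ c : k, Φ (algebraMap E V (algebraMap k E c)) = toCpl w (algebraMap k M c) := by
    intro c
    rw [← D.hk, hΦ.eq, kp_apply, ← IsScalarTower.algebraMap_apply]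
  have hc : Φ a * Φ d = toCpl w (algebraMap k M (if rs U w = w0 then ζ else 1)) := by
    rw [← map_mul, D.ad, map_add, map_one, map_mul, hkΦ, he]
    split_ifs
    · rw [mul_one, map_sub, map_sub, map_one, map_one]; ring
    · rw [mul_zero, add_zero, map_one, map_one]
  have hdd : Φ d * Φ d' = 1 := by rw [← map_mul, D.dd, map_one]
  have ha : Φ a = toCpl w (algebraMap k M (if rs U w = w0 then ζ else 1)) * Φ d' := by
    rw [← hc, mul_assoc, hdd, mul_one]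
  -- the label seen by `Φ`
  have ha0 : Φ a ≠ 0 := by
    have : Φ a * Φ a' = 1 := by rw [← map_mul, D.aa, map_one]
    exact left_ne_zero_of_mul_eq_one this
  have h3 : Φ a ^ n = toCpl w r ^ n := by
    rw [← map_pow, D.pa, hΦ.eq, kp_apply, ← map_pow, hr]
  have hζ' : IsPrimitiveRoot (toCpl w (algebraMap k M ζ)) n :=
    (D.prim.map_of_injective (algebraMap k M).injective).map_of_injective (toCpl w).injective
  have h4 : (toCpl w r / Φ a) ^ n = 1 := by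
    rw [div_pow, ← h3, div_self (pow_ne_zero n ha0)]
  have : NeZero n := ⟨D.hn.ne'⟩
  obtain ⟨i, -, hi⟩ := hζ'.eq_pow_of_pow_eq_one h4
  have h5 : toCpl w r = toCpl w (algebraMap k M (ζ ^ i)) * Φ a := by
    rw [map_pow, map_pow, hi, div_mul_cancel₀ _ ha0]
  have h6 : Lb (QU hG X.F0 hF) a r w (ζ ^ i) := ⟨D.ha, _, hΦ.isEv _, h5⟩
  have hbdU : BdV (QU hG X.F0 hF) (rs U w) := hgt.bdV _
  have h7 : ξ = ζ ^ i := (D.kdU hr).unique hw hbdU hξ
    (by rw [← pow_mul, mul_comm, pow_mul, D.prim.pow_eq_one, one_pow]) h1 h6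
  refine ⟨D.hd', _, hΦ.isEv _, ?_⟩
  rw [h7, map_mul, map_mul, h5, ha]
  exact (mul_assoc _ _ _).symm

open Classical in
/-- **labels near a norm** -/
theorem CD.lab_eventually (D : CD hG hπ hd X hF n ζ yU w0 e a a' d d' h)
    (hr : r ^ n = algebraMap U M h) {T : Type*} [TopologicalSpace T]
    (w : T → Valuation M ℝ≥0) (t0 : T) (hc : ∀ x, ContinuousAt (fun t => w t x) t0)
    (hNK : ∀ t, NKM k (w t)) {ξ : k} (hξ : ξ ^ n = 1)
    (h1 : Lab hG hπ hd X hF yU a d' r (w t0) ξ) :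
    ∀ᶠ t in 𝓝 t0, (1 ≤ w t (algebraMap U M yU) → Lab hG hπ hd X hF yU a d' r (w t) ξ) ∧
      (w t (algebraMap U M yU) < 1 → Lab hG hπ hd X hF yU a d' r (w t)
        (ξ * if rs U (w t0) = w0 then ζ else 1)) := by
  have hce := hc (algebraMap U M yU)
  rcases lt_trichotomy (w t0 (algebraMap U M yU)) 1 with h2 | h2 | h2
  · have hne : rs U (w t0) ≠ w0 := by
      intro h3
      have h4 := D.y1
      rw [← h3, rs_apply] at h4
      exact h2.ne h4
    rw [if_neg hne, mul_one]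
    have h3 := (D.kdP hr).eventually w t0 hc hNK (D.bdP (hNK t0) h2) hξ (h1.1 h2)
    have h4 : ∀ᶠ t in 𝓝 t0, w t (algebraMap U M yU) < 1 := hce.eventually (gt_mem_nhds h2)
    filter_upwards [h3, h4] with t h5 h6
    refine ⟨fun h7 => absurd h6 (not_lt.2 h7), fun _ => ⟨fun _ => h5 (D.bdP (hNK t) h6),
      fun h7 => absurd h6 (not_lt.2 h7)⟩⟩
  · have hU := (D.kdU hr).eventually w t0 hc hNK (D.bdU (hNK t0) h2.ge) hξ (h1.2 h2.ge)
    by_cases hfr : ∃ᶠ t in 𝓝 t0, w t (algebraMap U M yU) < 1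
    · have hgt : GT X (rs U (w t0)) := by
        refine gt_of_poly hG hF D.hk D.hy fun f => ?_
        exact poly_of_frequently hG (fun t => rs U (w t)) t0 (fun u => hc (algebraMap U M u))
          (fun t => (hNK t).nk) h2 hfr f
      have hj := D.jump hr (hNK t0) hgt hξ (h1.2 h2.ge)
      have hζ1 : (ξ * if rs U (w t0) = w0 then ζ else 1) ^ n = 1 := by
        rw [mul_pow, hξ, one_mul]
        split_ifs
        · exact D.prim.pow_eq_one
        · exact one_pow n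
      have hP := (D.kdP hr).eventually w t0 hc hNK (hgt.bdV _) hζ1 hj
      filter_upwards [hU, hP] with t h3 h4
      constructor
      · intro h5
        exact ⟨fun h6 => absurd h6 (not_lt.2 h5), fun _ => h3 (D.bdU (hNK t) h5)⟩
      · intro h5
        exact ⟨fun _ => h4 (D.bdP (hNK t) h5), fun h6 => absurd h5 (not_lt.2 h6)⟩
    · rw [not_frequently] at hfr
      filter_upwards [hU, hfr] with t h3 h4
      constructor
      · intro h5
        exact ⟨fun h6 => absurd h6 (not_lt.2 h5), fun _ => h3 (D.bdU (hNK t) h5)⟩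
      · intro h5
        exact absurd h5 h4
  · have hU := (D.kdU hr).eventually w t0 hc hNK (D.bdU (hNK t0) h2.le) hξ (h1.2 h2.le)
    have h4 : ∀ᶠ t in 𝓝 t0, 1 < w t (algebraMap U M yU) := hce.eventually (lt_mem_nhds h2)
    filter_upwards [hU, h4] with t h3 h6
    refine ⟨fun h5 => ⟨fun h7 => absurd h7 (not_lt.2 h5), fun _ => h3 (D.bdU (hNK t) h5)⟩,
      fun h7 => absurd h6 (not_lt.2 h7.le)⟩

end Circle

end Crest.Agent.R013.Kc_671
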