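import Crest.Agent.R013.Lift6_903

/-!
# Pointwise consequences of the global form of LIFT

`h = h₀ a^N` with `a` a unit of `RU ⊗ K`, resp. `h = h_P d^N` with `d` a unit of `FP ⊗ K`:
conclusions at every norm and every place of `K`.
-/

set_option autoImplicit false
set_option linter.unusedSectionVars false

namespace Crest.Agent.R013.Lift903

open Gl946 Matrix Polynomial
open scoped NNReal TensorProduct

attribute [local instance] Algebra.TensorProduct.rightAlgebra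

universe u

section Pointwise

variable {k E : Type*} [NormedField k] [NontriviallyNormedField E] [NormedAlgebra k E]
  [IsUltrametricDist E] [CompleteSpace E] [CompleteSpace k] {y : E} (hG : IsGauss k y) {π : k}
  (hπ : IsUnif π) (hd : DenseRat k y)
  {F : Type*} [Field F] [Algebra F E]
  [Algebra k F] [IsScalarTower k F E]
  {K : Type u} [Field K] [Algebra F K] [Algebra k K] [IsScalarTower k F K]
  {yF : F} (hy : algebraMap F E yF = y)
  (hgen : ∀ x : F, ∃ f g : k[X], aeval yF g ≠ 0 ∧ x = aeval yF f / aeval yF g)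
  {ι : Type*} [Fintype ι] (b : Module.Basis ι F K)

include hy hgen hπ in
/-- outside: norms with `|y| ≥ 1` and places in `|y| ≥ 1`. -/
theorem pointwise_U (hF : ∀ x : F, algebraMap F E x ∈ KY hG) (N : ℕ) (h h₀ : K) (h0 : h₀ ≠ 0)
    (a a' : E ⊗[F] K)
    (ha : a ∈ KR (RU k y) (algebraMap_mem_RU hG hF) (isBC_tensor (E := E) b))
    (ha' : a' ∈ KR (RU k y) (algebraMap_mem_RU hG hF) (isBC_tensor (E := E) b))
    (haa : a * a' = 1)
    (e : algebraMap K (E ⊗[F] K) h = algebraMap K (E ⊗[F] K) h₀ * a ^ N)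
    (w : Valuation K ℝ≥0)
    (hw : ((∀ c : k, w (algebraMap k K c) ≤ ‖c‖₊) ∧ 1 ≤ w (algebraMap F K yF)) ∨
      ((∀ c : k, w (algebraMap k K c) ≤ 1) ∧ w (algebraMap F K yF)⁻¹ ≤ 1 ∧
        ∃ Q : k[X], Q.Monic ∧ (∀ i, ‖Q.coeff i‖ ≤ 1) ∧
          w (aeval ((algebraMap F K yF)⁻¹) Q) < 1)) :
    ∃ g : K, g ≠ 0 ∧ w (h / (h₀ * g ^ N) - 1) < 1 := by
  have hF' : ∀ z : E, z ∈ KY hG → z ∈ Set.range (algebraMap F E) := range_of_mem_KY hG hy
  refine ratio b (algebraMap_mem_RU hG hF) w (fun Ω i1 i2 i3 κ h1 => ?_) N h h₀ h0 a a' ha ha'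
    haa e
  rcases hw with ⟨hk, hy1⟩ | ⟨hk, hy1, Q, hQ0, hQ1, hQ2⟩
  · refine homU_norm hG hy hF hF' κ (fun c => ?_) ?_
    · have := hk c
      rw [← h1] at this
      exact_mod_cast this
    · rw [← h1] at hy1
      exact_mod_cast hy1
  · refine homU_place hG hπ hy hF hF' κ (fun c => ?_) ?_ Q hQ0 hQ1 ?_
    · have := hk c
      rw [← h1] at this
      exact_mod_cast this
    · rw [← h1] at hy1
      exact_mod_cast hy1
    · rw [← h1] at hQ2
      exact_mod_cast hQ2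

include hy hgen in
/-- inside: norms with `|y| < 1` and places in `|y| < 1`. -/
theorem pointwise_P (hF : ∀ x : F, algebraMap F E x ∈ KY hG) (N : ℕ) (h hP : K) (hP0 : hP ≠ 0)
    (d d' : E ⊗[F] K)
    (hd1 : d ∈ KR (FP hG hπ hd).toSubring (algebraMap_mem_FP hG hπ hd hF)
      (isBC_tensor (E := E) b))
    (hd1' : d' ∈ KR (FP hG hπ hd).toSubring (algebraMap_mem_FP hG hπ hd hF)
      (isBC_tensor (E := E) b))
    (hdd : d * d' = 1)
    (e : algebraMap K (E ⊗[F] K) h = algebraMap K (E ⊗[F] K) hP * d ^ N)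
    (w : Valuation K ℝ≥0)
    (hw : ((∀ c : k, w (algebraMap k K c) ≤ ‖c‖₊) ∧ w (algebraMap F K yF) < 1) ∨
      ((∀ c : k, w (algebraMap k K c) ≤ 1) ∧ w (algebraMap F K yF) ≤ 1 ∧
        ∃ Q : k[X], Q.Monic ∧ (∀ i < Q.natDegree, ‖Q.coeff i‖ < 1) ∧
          w (aeval (algebraMap F K yF) Q) < 1)) :
    ∃ g : K, g ≠ 0 ∧ w (h / (hP * g ^ N) - 1) < 1 := by
  have hF' : ∀ z : E, z ∈ KY hG → z ∈ Set.range (algebraMap F E) := range_of_mem_KY hG hy
  refine ratio b (algebraMap_mem_FP hG hπ hd hF) w (fun Ω i1 i2 i3 κ h1 => ?_) N h hP hP0 d d'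
    hd1 hd1' hdd e
  rcases hw with ⟨hk, hy1⟩ | ⟨hk, hy1, Q, hQ0, hQ1, hQ2⟩
  · refine homP_norm hG hπ hd hy hF hF' κ (fun c => ?_) ?_
    · have := hk c
      rw [← h1] at this
      exact_mod_cast this
    · rw [← h1] at hy1
      exact_mod_cast hy1
  · refine homP_place hG hπ hd hy hF hF' κ (fun c => ?_) ?_ Q hQ0 hQ1 ?_
    · have := hk c
      rw [← h1] at this
      exact_mod_cast this
    · rw [← h1] at hy1
      exact_mod_cast hy1
    · rw [← h1] at hQ2
      exact_mod_cast hQ2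

end Pointwise

end Crest.Agent.R013.Lift903
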