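import Crest.Agent.R013.Kc2_671
import Crest.Agent.R013.Good2_940
import Crest.Agent.R013.Gl14_946
import Crest.Agent.R013.TopE3_957
import Crest.Agent.R013.Lift7_903

/-!
# Row 13, C-SLOPES (helper671), Kc3: existence of the Kummer circle class at a finite level
-/

set_option autoImplicit false
set_option linter.unusedSectionVars false
set_option linter.style.haveILetI false

noncomputable section

namespace Crest.Agent.R013.Kc_671

open Module Filter Topology Polynomial TensorProduct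
open Crest.Agent.R013.Gl946 Crest.Agent.R013.A2a_275 Crest.Agent.R013.NB_102
open Crest.Agent.R013.Lift903
open scoped NNReal

attribute [local instance] Algebra.TensorProduct.rightAlgebra

universe u v

theorem twist_pow {R : Type*} [CommRing R] (e ζ : R) (he : e * e = e) (m : ℕ) :
    (1 + (ζ - 1) * e) ^ m = 1 + (ζ ^ m - 1) * e := by
  induction m with
  | zero => ring
  | succ m ih =>
    rw [pow_succ, ih, pow_succ]
    linear_combination ((ζ ^ m - 1) * (ζ - 1)) * he

theorem aeval_inj {k U : Type*} [NormedField k] [Field U] [Algebra k U] {yU : U}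
    {w0 : Valuation U ℝ≥0} (hg : ∀ (f : k[X]) (i : ℕ), ‖f.coeff i‖ ≤ w0 (aeval yU f)) :
    Function.Injective (aeval yU : k[X] →ₐ[k] U) := by
  rw [injective_iff_map_eq_zero]
  intro f hf
  ext i
  have := hg f i
  rw [hf, map_zero, NNReal.coe_zero] at this
  rw [coeff_zero, ← norm_le_zero_iff]
  exact this

section Build

variable {k : Type u} [NontriviallyNormedField k] [IsUltrametricDist k] [CompleteSpace k]
  {U : Type v} [Field U] [CharZero U] [Algebra k U]

/-- **The Kummer circle class** over a given circle. -/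
theorem exists_cd_aux {E : Type u} [NontriviallyNormedField E] [NormedAlgebra k E]
    [IsUltrametricDist E] [CompleteSpace E] {y : E} (hG : IsGauss k y) (hd : DenseRat k y)
    {π : k} (hπ : IsUnif π) (F : Type u) [Field F] [Algebra k F] [Algebra F U]
    [IsScalarTower k F U] [FiniteDimensional F U] (yF : F)
    (hgen : ∀ x : F, ∃ f g : k[X], aeval yF g ≠ 0 ∧ x = aeval yF f / aeval yF g)
    (w0 : Valuation U ℝ≥0) (hnk : NK k w0) (hy1 : w0 (algebraMap F U yF) ≤ 1)
    (hga : ∀ (f : k[X]) (i : ℕ), ‖f.coeff i‖ ≤ w0 (aeval (algebraMap F U yF) f))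
    {n : ℕ} (hn : 0 < n) {ζ : k} (hζ : IsPrimitiveRoot ζ n) :
    ∃ (V : Type (max u v))
      (_ : CommRing V) (_ : Algebra E V) (_ : Nontrivial V)
      (X : Dat E V U (Fin (finrank F U))) (hF : ∀ z : E, z ∈ X.F0 ↔ z ∈ KY hG)
      (e a a' d d' : V) (h : U),
      CD hG hπ hd X hF n ζ (algebraMap F U yF) w0 e a a' d d' h ∧
      ∀ w : Valuation U ℝ≥0, (∀ c : k, c ≠ 0 → w (algebraMap k U c) = 1) →
        (w (algebraMap F U yF) ≤ 1 → ∃ P : k[X], P ≠ 0 ∧ w (aeval (algebraMap F U yF) P) < 1) →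
        ∃ g : U, g ≠ 0 ∧ w (h / g ^ n - 1) < 1 := by
  classical
  set yU := algebraMap F U yF with hyU
  have hinjU : Function.Injective (aeval yU : k[X] →ₐ[k] U) := aeval_inj hga
  have haF : ∀ f : k[X], algebraMap F U (aeval yF f) = aeval yU f := fun f => by
    rw [hyU, aeval_algebraMap_apply]
  have hinj : Function.Injective (aeval yF : k[X] →ₐ[k] F) := by
    intro a b hab
    have := congrArg (algebraMap F U) hab
    rw [haF, haF] at this
    exact hinjU this
  -- `F → E`
  have hgi : Function.Injective (aeval y : k[X] →ₐ[k] E) := hG.injective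
  let _ : Algebra k[X] F := (aeval yF : k[X] →ₐ[k] F).toRingHom.toAlgebra
  have hfs : FaithfulSMul k[X] F := (faithfulSMul_iff_algebraMap_injective k[X] F).2 hinj
  have hfr : IsFractionRing k[X] F := by
    refine IsFractionRing.of_field k[X] F ?_
    intro z
    obtain ⟨f, g, hg, e⟩ := hgen z
    exact ⟨f, g, e⟩
  let φ : F →+* E := IsFractionRing.lift (A := k[X]) (K := F) (g := (aeval y : k[X] →ₐ[k] E).toRingHom) hgi
  have hφ : ∀ f : k[X], φ (aeval yF f) = aeval y f := fun f =>
    IsFractionRing.lift_algebraMap (A := k[X]) (K := F) hgi f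
  let _ : Algebra F E := φ.toAlgebra
  have hFE : ∀ x : F, algebraMap F E x = φ x := fun x => rfl
  have hst : IsScalarTower k F E := IsScalarTower.of_algebraMap_eq fun c => by
    rw [hFE]
    have := hφ (C c)
    rw [aeval_C, aeval_C] at this
    exact this.symm
  have hyE : algebraMap F E yF = y := by
    rw [hFE]
    have := hφ X
    rwa [aeval_X, aeval_X] at this
  have hF1 : ∀ x : F, algebraMap F E x ∈ KY hG := mem_KY_of_gen hG hyE hgen
  have hF2 : ∀ z : E, z ∈ KY hG → z ∈ Set.range (algebraMap F E) := range_of_mem_KY hG hyE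
  have hrange : ∀ z : E, z ∈ KY hG ↔ ∃ x : F, algebraMap F E x = z := fun z =>
    ⟨fun h => hF2 z h, by rintro ⟨x, rfl⟩; exact hF1 x⟩
  let V := E ⊗[F] U
  have hcF : CharZero F := (algebraMap F U).charZero
  have : Algebra.IsSeparable F U := inferInstance
  have : Algebra.FormallyUnramified F U := Algebra.FormallyUnramified.of_isSeparable F U
  have : Algebra.FormallyUnramified E V := inferInstance
  have : Module.Finite E V := inferInstance
  have hred : IsReduced V := Algebra.FormallyUnramified.isReduced_of_field E V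
  have hnt : Nontrivial V := inferInstance
  let j : U →+* V := (Algebra.TensorProduct.includeRight : U →ₐ[F] E ⊗[F] U).toRingHom
  have hju : ∀ u, j u = 1 ⊗ₜ[F] u := fun u => rfl
  let b0 : Basis (Fin (finrank F U)) F U := finBasis F U
  let b : Basis (Fin (finrank F U)) E V := Algebra.TensorProduct.basis E b0
  have hb : ∀ i, b i = 1 ⊗ₜ b0 i := fun i => Algebra.TensorProduct.basis_apply b0 i
  let D := gaussDatum hG hπ hd
  have hjF : ∀ x : F, j (algebraMap F U x) = algebraMap E V (algebraMap F E x) := by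
    intro x
    rw [hju, Algebra.TensorProduct.algebraMap_apply, Algebra.algebraMap_self, RingHom.id_apply,
      Algebra.algebraMap_eq_smul_one, Algebra.algebraMap_eq_smul_one, TensorProduct.tmul_smul,
      TensorProduct.smul_tmul']
  have hL' : ∀ v, v ∈ j.range ↔ v ∈ cs b D.F0.toSubring := by
    intro v
    constructor
    · rintro ⟨u, rfl⟩ i
      rw [hju]
      have : b.repr (1 ⊗ₜ[F] u) i = algebraMap F E (b0.repr u i) := by
        rw [Algebra.TensorProduct.basis_repr_tmul, Finsupp.smul_apply, Finsupp.mapRange_apply,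
          one_smul]
      rw [this]
      exact (hrange _).2 ⟨_, rfl⟩
    · intro hv
      have hex : ∀ i, ∃ x : F, algebraMap F E x = b.repr v i := fun i => (hrange _).1 (hv i)
      choose x hx using hex
      refine ⟨∑ i, x i • b0 i, ?_⟩
      conv_rhs => rw [← b.sum_repr v]
      rw [map_sum]
      refine Finset.sum_congr rfl fun i _ => ?_
      rw [← hx i, hb i, Algebra.smul_def, map_mul, hjF, Algebra.smul_def, hju]
  have hk : ∀ c : k, j (algebraMap k U c) = algebraMap E V (algebraMap k E c) := by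
    intro c
    rw [IsScalarTower.algebraMap_apply k F U, hjF, ← IsScalarTower.algebraMap_apply k F E]
  have hy : j yU = algebraMap E V y := by rw [hyU, hjF, hyE]
  let X0 : Dat E V U (Fin (finrank F U)) := ⟨b, D.F0, j, hL'⟩
  have hF : ∀ z : E, z ∈ X0.F0 ↔ z ∈ KY hG := fun z => Iff.rfl
  have hden := dense_F0 hd hG X0.F0 hF
  have hpoly : ∀ f : k[X], (w0 (aeval yU f) : ℝ) = ‖aeval y f‖ := by
    intro f
    refine le_antisymm ?_ ?_
    · exact hnk.poly_le yU hy1 f (norm_nonneg _) (hG.coeff_le f)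
    · rcases eq_or_ne f 0 with rfl | hf
      · rw [map_zero, norm_zero]; exact NNReal.coe_nonneg _
      · obtain ⟨m, hm, -⟩ := hG.exists_index hf
        rw [← hm]
        exact hga f m
  have hGT : GT X0 w0 := gt_of_poly hG hF hk hy hpoly
  obtain ⟨e, hee, he0, he1, hev, -⟩ := exists_atom (X := X0) hden hGT
  -- the class
  set z : V := algebraMap E V (algebraMap k E ζ) with hz
  have hzn : z ^ n = 1 := by
    rw [hz, ← map_pow, ← map_pow, hζ.pow_eq_one, map_one, map_one]
  set c : V := 1 + (z - 1) * e with hc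
  have hcn : c ^ n = 1 := by
    rw [hc, twist_pow e z hee, hzn]; ring
  have hcc : c * c ^ (n - 1) = 1 := by
    rw [← pow_succ', Nat.sub_add_cancel hn, hcn]
  obtain ⟨a, ha, a', ha', d, hd1, d', hd1', e1, e2, e3⟩ :=
    unit_fac_E hG hπ hd (isBC_tensor (E := E) b0) hF1 hF2 c (c ^ (n - 1)) hcc
  have had : a ^ n = d' ^ n := by
    have h1 : a ^ n * d ^ n = 1 := by rw [← mul_pow, ← e3, hcn]
    have h2 : d ^ n * d' ^ n = 1 := by rw [← mul_pow, e2, one_pow]
    calc a ^ n = a ^ n * (d ^ n * d' ^ n) := by rw [h2, mul_one]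
      _ = (a ^ n * d ^ n) * d' ^ n := by ring
      _ = d' ^ n := by rw [h1, one_mul]
  obtain ⟨h, hh⟩ := inter_KR (isBC_tensor (E := E) b0) (algebraMap_mem_RU hG hF1)
    (algebraMap_mem_FP hG hπ hd hF1) (fun z h1 h2 => hF2 z (inter_FP_RU hG hπ hd z h2 h1))
    (a ^ n) (pow_mem ha n) (by rw [had]; exact pow_mem hd1' n)
  have hh' : j h = a ^ n := hh
  have hne : h ≠ 0 := by
    rintro rfl
    rw [map_zero] at hh'
    have : a ^ n * a' ^ n = 1 := by rw [← mul_pow, e1, one_pow]
    rw [← hh', zero_mul] at this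
    exact zero_ne_one this
  refine ⟨V, inferInstance, inferInstance, hnt, X0, hF, e, a, a',
    d, d', h, ⟨hk, hy, hn, hζ, hGT, ?_, he1, hev, e1, e2, ?_, ha, hd1', hne, hh'.symm,
    (had ▸ hh').symm⟩, ?_⟩
  · have := hpoly X
    rw [aeval_X, aeval_X, IsGauss.norm_eq hG] at this
    exact_mod_cast this
  · rw [← e3, hc, hz, map_sub, map_sub, map_one, map_one]
  · intro w hw hP
    have hy0 : yU ≠ 0 := by
      intro h0
      rw [h0, map_zero] at hy
      exact hG.ne_zero ((algebraMap E V).injective (by rw [← hy, map_zero]))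
    have hwk : ∀ c : k, w (algebraMap k U c) ≤ 1 := by
      intro c
      rcases eq_or_ne c 0 with rfl | hc
      · rw [map_zero, map_zero]; exact zero_le_one
      · exact (hw c hc).le
    rcases LemT_874.place_dich w hw hy0 hP with ⟨h2, Q, hQ1, hQ2, hQ3⟩ | ⟨h2, Q, hQ1, hQ2, hQ3⟩
    · obtain ⟨g, hg0, hg⟩ := pointwise_U hG hπ hyE hgen b0 hF1 n h 1 one_ne_zero a a' ha ha' e1
        (by rw [map_one, one_mul]; exact hh) w (Or.inr ⟨hwk, h2, Q, hQ1, hQ2, hQ3⟩)
      exact ⟨g, hg0, by rwa [one_mul] at hg⟩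
    · obtain ⟨g, hg0, hg⟩ := pointwise_P hG hπ hd hyE hgen b0 hF1 n h 1 one_ne_zero d' d hd1' hd1
        ((mul_comm _ _).trans e2) (by rw [map_one, one_mul, ← had]; exact hh) w
        (Or.inr ⟨hwk, h2, Q, hQ1, hQ2, hQ3⟩)
      exact ⟨g, hg0, by rwa [one_mul] at hg⟩

/-- **The Kummer circle class.** -/
theorem exists_cd {π : k} (hπ : IsUnif π) (F : Type u) [Field F] [Algebra k F] [Algebra F U]
    [IsScalarTower k F U] [FiniteDimensional F U] (yF : F)
    (hgen : ∀ x : F, ∃ f g : k[X], aeval yF g ≠ 0 ∧ x = aeval yF f / aeval yF g)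
    (w0 : Valuation U ℝ≥0) (hnk : NK k w0) (hy1 : w0 (algebraMap F U yF) ≤ 1)
    (hga : ∀ (f : k[X]) (i : ℕ), ‖f.coeff i‖ ≤ w0 (aeval (algebraMap F U yF) f))
    {n : ℕ} (hn : 0 < n) {ζ : k} (hζ : IsPrimitiveRoot ζ n) :
    ∃ (E : Type u) (_ : NormedField E) (_ : NormedAlgebra k E) (_ : IsUltrametricDist E)
      (_ : CompleteSpace E) (y : E) (hG : IsGauss k y) (hd : DenseRat k y) (V : Type (max u v))
      (_ : CommRing V) (_ : Algebra E V) (_ : Nontrivial V)
      (X : Dat E V U (Fin (finrank F U))) (hF : ∀ z : E, z ∈ X.F0 ↔ z ∈ KY hG)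
      (e a a' d d' : V) (h : U),
      CD hG hπ hd X hF n ζ (algebraMap F U yF) w0 e a a' d d' h ∧
      ∀ w : Valuation U ℝ≥0, (∀ c : k, c ≠ 0 → w (algebraMap k U c) = 1) →
        (w (algebraMap F U yF) ≤ 1 → ∃ P : k[X], P ≠ 0 ∧ w (aeval (algebraMap F U yF) P) < 1) →
        ∃ g : U, g ≠ 0 ∧ w (h / g ^ n - 1) < 1 := by
  obtain ⟨E, i1, i2, i3, i4, y, hG, hd⟩ := Good2_940.exists_circle k
  let nn : NontriviallyNormedField E :=
    { i1 with
      non_trivial := ⟨algebraMap k E π⁻¹, by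
        rw [norm_algebraMap', norm_inv]
        exact (one_lt_inv₀ hπ.pos).2 hπ.lt_one⟩ }
  obtain ⟨V, j1, j2, j3, X, hF, e, a, a', d, d', h, hC⟩ :=
    exists_cd_aux (E := E) hG hd hπ F yF hgen w0 hnk hy1 hga hn hζ
  exact ⟨E, i1, i2, i3, i4, y, hG, hd, V, j1, j2, j3, X, hF, e, a, a', d, d', h, hC⟩

end Build

/-- **The Kummer circle class**, for a normed field with a uniformizer. -/
theorem exists_cdN {k : Type u} [NormedField k] [IsUltrametricDist k] [CompleteSpace k]
    {U : Type v} [Field U] [CharZero U] [Algebra k U] {π : k} (hπ : IsUnif π) (F : Type u)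
    [Field F] [Algebra k F] [Algebra F U]
    [IsScalarTower k F U] [FiniteDimensional F U] (yF : F)
    (hgen : ∀ x : F, ∃ f g : k[X], aeval yF g ≠ 0 ∧ x = aeval yF f / aeval yF g)
    (w0 : Valuation U ℝ≥0) (hnk : NK k w0) (hy1 : w0 (algebraMap F U yF) ≤ 1)
    (hga : ∀ (f : k[X]) (i : ℕ), ‖f.coeff i‖ ≤ w0 (aeval (algebraMap F U yF) f))
    {n : ℕ} (hn : 0 < n) {ζ : k} (hζ : IsPrimitiveRoot ζ n) :
    ∃ (E : Type u) (_ : NormedField E) (_ : NormedAlgebra k E) (_ : IsUltrametricDist E)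
      (_ : CompleteSpace E) (y : E) (hG : IsGauss k y) (hd : DenseRat k y) (V : Type (max u v))
      (_ : CommRing V) (_ : Algebra E V) (_ : Nontrivial V)
      (X : Dat E V U (Fin (finrank F U))) (hF : ∀ z : E, z ∈ X.F0 ↔ z ∈ KY hG)
      (e a a' d d' : V) (h : U),
      CD hG hπ hd X hF n ζ (algebraMap F U yF) w0 e a a' d d' h ∧
      ∀ w : Valuation U ℝ≥0, (∀ c : k, c ≠ 0 → w (algebraMap k U c) = 1) →
        (w (algebraMap F U yF) ≤ 1 → ∃ P : k[X], P ≠ 0 ∧ w (aeval (algebraMap F U yF) P) < 1) →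
        ∃ g : U, g ≠ 0 ∧ w (h / g ^ n - 1) < 1 := by
  rename_i i1 i2 i3 i4 i5 i6 i7 i8 i9 i10 i11
  let nn : NontriviallyNormedField k :=
    { i1 with
      non_trivial := ⟨π⁻¹, by
        rw [norm_inv]
        exact (one_lt_inv₀ hπ.pos).2 hπ.lt_one⟩ }
  exact @exists_cd k nn i2 i3 U i4 i5 i6 π hπ F i7 i8 i9 i10 i11 yF hgen w0 hnk hy1 hga n hn ζ hζ

end Crest.Agent.R013.Kc_671
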