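import Crest.Agent.R013.RZ4_365
import Crest.Agent.R013.Cell2_408
import Crest.Agent.R013.CLiftN2_903
import Crest.Agent.R013.LemT3_874

/-!
# LEMMA LIFT over `C` (row 13; helper365)
-/

set_option autoImplicit false
set_option linter.unusedSectionVars false
set_option linter.style.haveILetI false

open scoped NNReal Polynomial
open Polynomial (aeval)

namespace Crest.Agent.R013.RZ_365

open Cell_408

section Unif

variable {k C : Type*} [NontriviallyNormedField k] [CompleteSpace k] [IsUltrametricDist k]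
  [NormedField C] [NormedAlgebra k C] [Algebra.IsAlgebraic k C] [IsAlgClosed C]

/-- Finite extensions of a discretely valued complete field are discretely valued. -/
theorem exists_isUnif (hk : DiscNorm k) (L : IntermediateField k C) [FiniteDimensional k L] :
    ∃ π : L, Gl946.IsUnif π := by
  classical
  obtain ⟨ρ, N, hρ0, hρ1, hN, hz⟩ := exists_zpow_of_mem hk L
  obtain ⟨ϖ, hϖ0, hϖ1, -⟩ := hk
  -- the exponents of the elements of norm `< 1`
  have hex : ∃ n : ℕ, ∃ x : L, x ≠ 0 ∧ ‖x‖ < 1 ∧ ‖x‖ ^ N = ρ ^ n := by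
    have h1 : algebraMap k C ϖ ∈ L := L.algebraMap_mem ϖ
    have h2 : (algebraMap k C ϖ) ≠ 0 := (map_ne_zero _).2 (norm_pos_iff.1 hϖ0)
    obtain ⟨n, hn⟩ := hz _ h1 h2
    have h3 : ‖algebraMap k C ϖ‖ < 1 := by rw [norm_algebraMap']; exact hϖ1
    have h4 : 0 ≤ n := by
      by_contra hcon
      push Not at hcon
      have h5 : (1 : ℝ) ≤ ρ ^ n := one_le_zpow_of_nonpos₀ hρ0 hρ1.le hcon.le
      rw [← hn] at h5
      exact absurd (pow_lt_one₀ (norm_nonneg _) h3 hN.ne') (not_lt.2 h5)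
    obtain ⟨m, rfl⟩ := Int.eq_ofNat_of_zero_le h4
    refine ⟨m, ⟨_, h1⟩, fun h => h2 (congrArg Subtype.val h), h3, ?_⟩
    rw [zpow_natCast] at hn
    exact hn
  obtain ⟨x, hx0, hx1, hxn⟩ := Nat.find_spec hex
  refine ⟨x, norm_pos_iff.2 hx0, hx1, fun a ha => ?_⟩
  by_cases ha0 : a = 0
  · rw [ha0, norm_zero]; exact norm_nonneg _
  obtain ⟨n, hn⟩ := hz a.1 a.2 (fun h => ha0 (Subtype.ext h))
  have hn' : ‖a‖ ^ N = ρ ^ n := hn
  have h4 : 0 ≤ n := by
    by_contra hcon
    push Not at hcon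
    have h5 : (1 : ℝ) ≤ ρ ^ n := one_le_zpow_of_nonpos₀ hρ0 hρ1.le hcon.le
    rw [← hn'] at h5
    exact absurd (pow_lt_one₀ (norm_nonneg _) ha hN.ne') (not_lt.2 h5)
  obtain ⟨m, rfl⟩ := Int.eq_ofNat_of_zero_le h4
  rw [zpow_natCast] at hn'
  have hle : Nat.find hex ≤ m := Nat.find_min' hex ⟨a, ha0, ha, hn'⟩
  have h6 : ‖a‖ ^ N ≤ ‖x‖ ^ N := by
    rw [hn', hxn]
    exact pow_le_pow_of_le_one hρ0.le hρ1.le hle
  exact le_of_pow_le_pow_left₀ hN.ne' (norm_nonneg _) h6

end Unif

section Alg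

variable {L C K : Type*} [Field L] [Field C] [Field K] [Algebra L C] [Algebra C K] [Algebra L K]
  [IsScalarTower L C K] [Algebra.IsAlgebraic L C] [Algebra (RatFunc L) K]
  [IsScalarTower L (RatFunc L) K]

open IntermediateField in
/-- `K` is algebraic over `L(y)`, `z = r y`, if it is algebraic over `C(z)`. -/
theorem isAlgebraic_rat {z : K} {r : L} (hr : algebraMap L K r ≠ 0)
    (hy : algebraMap (RatFunc L) K RatFunc.X = z / algebraMap L K r)
    (halg : ∀ a : K, IsAlgebraic C⟮z⟯ a) : Algebra.IsAlgebraic (RatFunc L) K := by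
  set A : IntermediateField (RatFunc L) K := algebraicClosure (RatFunc L) K with hA
  have hCA : ∀ c : C, algebraMap C K c ∈ A := by
    intro c
    rw [hA, mem_algebraicClosure_iff]
    have h1 : IsAlgebraic L (algebraMap C K c) :=
      (Algebra.IsAlgebraic.isAlgebraic (R := L) c).algebraMap
    exact h1.extendScalars (algebraMap L (RatFunc L)).injective
  have hLA : ∀ c : L, algebraMap L K c ∈ A := by
    intro c
    rw [IsScalarTower.algebraMap_apply L C K]
    exact hCA _
  have hzA : z ∈ A := by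
    have h1 : z = algebraMap (RatFunc L) K RatFunc.X * algebraMap L K r := by
      rw [hy, div_mul_cancel₀ _ hr]
    rw [h1]
    exact A.mul_mem (A.algebraMap_mem _) (hLA r)
  have hsub : ∀ x : C⟮z⟯, (x : K) ∈ A := by
    intro x
    obtain ⟨P, Q, hPQ⟩ := (IntermediateField.mem_adjoin_simple_iff C (x : K)).1 x.2
    have hpoly : ∀ P : C[X], aeval z P ∈ A := by
      intro P
      rw [Polynomial.aeval_eq_sum_range]
      refine sum_mem fun i _ => ?_
      rw [Algebra.smul_def]
      exact A.mul_mem (hCA _) (pow_mem hzA i)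
    rw [hPQ]
    exact A.div_mem (hpoly P) (hpoly Q)
  refine ⟨fun a => ?_⟩
  obtain ⟨P, hP, hPa⟩ := halg a
  -- `a` is algebraic over `A`
  have h1 : IsAlgebraic A a := by
    let φ : C⟮z⟯ →+* A := (algebraMap C⟮z⟯ K).codRestrict A.toSubring.toSubsemiring (fun x => hsub x)
    refine ⟨P.map φ, (Polynomial.map_ne_zero_iff φ.injective).2 hP, ?_⟩
    rw [Polynomial.aeval_def, Polynomial.eval₂_map]
    have h2 : (algebraMap A K).comp φ = algebraMap C⟮z⟯ K := by
      ext x; rfl
    rw [h2]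
    exact hPa
  have hAalg : Algebra.IsAlgebraic (RatFunc L) A := algebraicClosure.isAlgebraic (RatFunc L) K
  exact h1.restrictScalars (RatFunc L)

end Alg

section Level

universe u v

variable {L : Type u} [NormedField L] [IsUltrametricDist L] [CompleteSpace L] {πL : L}
  (hπL : Gl946.IsUnif πL) {C : Type*} [Field C] [Algebra L C] [Algebra.IsAlgebraic L C]
  (nC : Valuation C ℝ≥0) (hnC : ∀ c : L, nC (algebraMap L C c) = ‖c‖₊)
  {K : Type*} [Field K] [Algebra C K] [Algebra L K] [IsScalarTower L C K]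
  {K' : Type v} [Field K'] [Algebra L K'] [Algebra (RatFunc L) K'] [IsScalarTower L (RatFunc L) K']
  [FiniteDimensional (RatFunc L) K'] [Algebra.IsSeparable (RatFunc L) K']
  [Algebra K' K] [IsScalarTower L K' K] [Algebra.IsAlgebraic K' K]
  {π : C} {z f₀ : K} {N e : ℕ} (hN : ‖(N : L)‖ = 1) {G : Finset K} (hG0 : ∀ g ∈ G, g ≠ 0)
  (hG : ∀ w : Valuation K ℝ≥0, (∀ c : C, w (algebraMap C K c) = nC c) → w z < 1 →
      w (algebraMap C K π) < w z ^ e → ∃ g ∈ G, w (f₀ * g ^ N - 1) < 1)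
  {h₀' hP' z' : K'} (hh₀ : h₀' ≠ 0) (hhP : hP' ≠ 0) (hz : algebraMap K' K z' = z)
  (hf : algebraMap K' K (h₀' / hP') = f₀) {r : L} (hr0 : r ≠ 0) (hr1 : ‖r‖ < 1)
  (hre : nC π < ‖r‖₊ ^ e)
  (hyz : algebraMap (RatFunc L) K' RatFunc.X = z' / algebraMap L K' r)
  (hG' : ∀ g ∈ G, ∃ g' : K', algebraMap K' K g' = g)

include hπL hnC hN hG0 hG hh₀ hhP hz hf hr0 hr1 hre hyz hG' in
/-- **LEMMA LIFT at a finite level** `K' ⊇ L(z)`, circle `|z| = |r|`: `h₀'` outside, `hP'` inside. -/
theorem lift_level : ∃ h : K', h ≠ 0 ∧ ∀ w : Valuation K' ℝ≥0,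
      ((∀ c : L, w (algebraMap L K' c) = ‖c‖₊) →
        (‖r‖₊ ≤ w z' → ∃ g : K', g ≠ 0 ∧ w (h / (h₀' * g ^ N) - 1) < 1) ∧
        (w z' < 1 → ∃ g : K', g ≠ 0 ∧ w (h / (hP' * g ^ N) - 1) < 1)) ∧
      ((∀ c : L, c ≠ 0 → w (algebraMap L K' c) = 1) →
        (w (z' / algebraMap L K' r)⁻¹ ≤ 1 →
          (∃ Q : L[X], Q.Monic ∧ (∀ i, ‖Q.coeff i‖ ≤ 1) ∧
            w (aeval (z' / algebraMap L K' r)⁻¹ Q) < 1) →
          ∃ g : K', g ≠ 0 ∧ w (h / (h₀' * g ^ N) - 1) < 1) ∧
        (w (z' / algebraMap L K' r) ≤ 1 →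
          (∃ Q : L[X], Q.Monic ∧ (∀ i < Q.natDegree, ‖Q.coeff i‖ < 1) ∧
            w (aeval (z' / algebraMap L K' r) Q) < 1) →
          ∃ g : K', g ≠ 0 ∧ w (h / (hP' * g ^ N) - 1) < 1)) := by
  have hnt : ∃ a : L, a ≠ 0 ∧ ‖a‖ < 1 := ⟨πL, norm_pos_iff.1 hπL.pos, hπL.lt_one⟩
  have hrK : algebraMap L K' r ≠ 0 := (map_ne_zero _).2 hr0
  have hrn : ‖r‖₊ ≠ 0 := by rwa [nnnorm_ne_zero_iff]
  have hz'0 : z' ≠ 0 := by
    intro h0
    rw [h0, zero_div] at hyz
    exact RatFunc.X_ne_zero ((map_eq_zero _).1 hyz)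
  -- the hypothesis of the gluing theorem for valuations in the class
  have hfv : ∀ v : Valuation K' ℝ≥0, (∀ c : L, v (algebraMap L K' c) = ‖c‖₊) → v z' < 1 →
      ‖r‖₊ ≤ v z' → ∃ w : K', w ≠ 0 ∧ v (h₀' / hP' - w ^ N) < v (h₀' / hP') := by
    intro v hv1 hv2 hv3
    exact hf_of_G (k := L) (C := C) (K' := K') (Kc := K) hnt nC hnC hG0 hG hz hf hG' v hv1 hv2
      (hre.trans_le (pow_le_pow_left₀ zero_le hv3 e))
  have hvy : ∀ v : Valuation K' ℝ≥0, (∀ c : L, v (algebraMap L K' c) = ‖c‖₊) →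
      v (z' / algebraMap L K' r) = v z' / ‖r‖₊ := by
    intro v hv
    rw [map_div₀, hv]
  obtain ⟨h', hh', hw⟩ := patch_level hπL (K' := K') hyz N hN h₀' hP' hh₀ hhP (by
    intro v hv1 hv2 hv3
    have hvy1 : v (z' / algebraMap L K' r) = 1 := by
      refine le_antisymm hv2 ?_
      have := hv3 Polynomial.X 1
      rwa [Polynomial.coeff_X_one, nnnorm_one, Polynomial.aeval_X] at this
    have hvz : v z' = ‖r‖₊ := by
      rw [hvy v hv1, div_eq_one_iff_eq hrn] at hvy1
      exact hvy1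
    exact hfv v hv1 (by rw [hvz]; exact_mod_cast hr1) hvz.ge)
  refine ⟨h', hh', fun w => ⟨fun hwL => ?_, fun hwL => ?_⟩⟩
  · have hU : ‖r‖₊ ≤ w z' → ∃ g : K', g ≠ 0 ∧ w (h' / (h₀' * g ^ N) - 1) < 1 := by
      intro hge
      refine (hw w).1 (fun c => (hwL c).le) ?_
      rw [hvy w hwL, one_le_div₀ (pos_iff_ne_zero.2 hrn)]
      exact hge
    refine ⟨hU, fun hlt => ?_⟩
    rcases lt_or_ge (w z') ‖r‖₊ with h1 | h1
    · refine (hw w).2.1 (fun c => (hwL c).le) ?_
      rw [hvy w hwL, div_lt_one₀ (pos_iff_ne_zero.2 hrn)]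
      exact h1
    · obtain ⟨g, hg0, hg⟩ := hU h1
      obtain ⟨g2, hg20, hg2⟩ := hfv w hwL hlt h1
      refine ⟨g * g2, mul_ne_zero hg0 hg20, ?_⟩
      -- `h / (hP (g g2)^N) = (h / (h₀ g^N)) * (h₀ / hP / g2^N)`
      have h2 : w (h₀' / hP' / g2 ^ N - 1) < 1 := by
        have hg2N : g2 ^ N ≠ 0 := pow_ne_zero _ hg20
        have h3 : w (h₀' / hP') = w (g2 ^ N) := by
          have h4 : h₀' / hP' - g2 ^ N = -(g2 ^ N - h₀' / hP') := by ring
          rw [h4, Valuation.map_neg] at hg2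
          have h5 : g2 ^ N = h₀' / hP' + (g2 ^ N - h₀' / hP') := by ring
          conv_rhs => rw [h5]
          rw [Valuation.map_add_eq_of_lt_left _ hg2]
        have h6 : h₀' / hP' / g2 ^ N - 1 = (h₀' / hP' - g2 ^ N) / g2 ^ N := by
          field_simp
        rw [h6, map_div₀, div_lt_one₀ (pos_iff_ne_zero.2 ((w.ne_zero_iff).2 hg2N)), ← h3]
        exact hg2
      have h3 : h' / (hP' * (g * g2) ^ N) - 1 =
          (h' / (h₀' * g ^ N) - 1) * (h₀' / hP' / g2 ^ N) + (h₀' / hP' / g2 ^ N - 1) := by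
        field_simp
        ring
      have h4 : w (h₀' / hP' / g2 ^ N) = 1 := by
        have h5 : h₀' / hP' / g2 ^ N = 1 + (h₀' / hP' / g2 ^ N - 1) := by ring
        rw [h5, Valuation.map_add_eq_of_lt_left _ (by rw [map_one]; exact h2), map_one]
      rw [h3]
      refine lt_of_le_of_lt (w.map_add _ _) (max_lt ?_ h2)
      rw [map_mul, h4, mul_one]
      exact hg
  · have hle : ∀ c : L, w (algebraMap L K' c) ≤ 1 := by
      intro c
      by_cases hc : c = 0
      · rw [hc, map_zero, map_zero]; exact zero_le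
      · exact (hwL c hc).le
    exact ⟨(hw w).2.2.1 hle, (hw w).2.2.2 hle⟩

end Level

section Places

variable {L C K : Type*} [NormedField L] [NormedField C] [IsUltrametricDist C] [Algebra L C]
  (hLC : ∀ c : L, ‖algebraMap L C c‖ = ‖c‖)

include hLC in
theorem root_lt {Q : L[X]} (hQ : Q.Monic) (hQ1 : ∀ i < Q.natDegree, ‖Q.coeff i‖ < 1) {b : C}
    (hb : aeval b Q = 0) : ‖b‖ < 1 := by
  by_contra hcon
  push Not at hcon
  have hpos : 0 < ‖b‖ ^ Q.natDegree := pow_pos (zero_lt_one.trans_le hcon) _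
  have h1 : aeval b Q = b ^ Q.natDegree + ∑ i ∈ Finset.range Q.natDegree,
      algebraMap L C (Q.coeff i) * b ^ i := by
    rw [Polynomial.aeval_eq_sum_range, Finset.sum_range_succ, add_comm, hQ.coeff_natDegree,
      one_smul]
    congr 1
    exact Finset.sum_congr rfl fun i _ => Algebra.smul_def _ _
  have h2 : ‖∑ i ∈ Finset.range Q.natDegree, algebraMap L C (Q.coeff i) * b ^ i‖ <
      ‖b‖ ^ Q.natDegree := by
    have h4 : (NormedField.valuation : Valuation C ℝ≥0)
        (∑ i ∈ Finset.range Q.natDegree, algebraMap L C (Q.coeff i) * b ^ i) <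
        ‖b‖₊ ^ Q.natDegree := by
      refine Valuation.map_sum_lt _ ?_ fun i hi => ?_
      · exact pow_ne_zero _ (zero_lt_one.trans_le (by exact_mod_cast hcon : 1 ≤ ‖b‖₊)).ne'
      · change ‖algebraMap L C (Q.coeff i) * b ^ i‖₊ < _
        rw [← NNReal.coe_lt_coe]
        push_cast
        rw [norm_mul, norm_pow, hLC]
        calc ‖Q.coeff i‖ * ‖b‖ ^ i < 1 * ‖b‖ ^ i :=
              mul_lt_mul_of_pos_right (hQ1 i (Finset.mem_range.1 hi))
                (pow_pos (zero_lt_one.trans_le hcon) _)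
          _ ≤ ‖b‖ ^ Q.natDegree := by
              rw [one_mul]
              exact pow_le_pow_right₀ hcon (Finset.mem_range.1 hi).le
    exact_mod_cast h4
  rw [hb] at h1
  have h3 : ∑ i ∈ Finset.range Q.natDegree, algebraMap L C (Q.coeff i) * b ^ i =
      - b ^ Q.natDegree := by linear_combination -h1
  rw [h3, norm_neg, norm_pow] at h2
  exact lt_irrefl _ h2

include hLC in
theorem root_le {Q : L[X]} (hQ : Q.Monic) (hQ1 : ∀ i, ‖Q.coeff i‖ ≤ 1) {b : C}
    (hb : aeval b Q = 0) : ‖b‖ ≤ 1 := by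
  by_contra hcon
  push Not at hcon
  have hb0 : b ≠ 0 := by
    rintro rfl
    rw [norm_zero] at hcon
    exact absurd hcon (by norm_num)
  have hdeg : Q.natDegree ≠ 0 := by
    intro h0
    rw [Polynomial.eq_one_of_monic_natDegree_zero hQ h0, map_one] at hb
    exact one_ne_zero hb
  have hpos : 0 < ‖b‖ := zero_lt_one.trans hcon
  have h1 : aeval b Q = b ^ Q.natDegree + ∑ i ∈ Finset.range Q.natDegree,
      algebraMap L C (Q.coeff i) * b ^ i := by
    rw [Polynomial.aeval_eq_sum_range, Finset.sum_range_succ, add_comm, hQ.coeff_natDegree,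
      one_smul]
    congr 1
    exact Finset.sum_congr rfl fun i _ => Algebra.smul_def _ _
  have h2 : ‖∑ i ∈ Finset.range Q.natDegree, algebraMap L C (Q.coeff i) * b ^ i‖ ≤
      ‖b‖ ^ (Q.natDegree - 1) := by
    refine IsUltrametricDist.norm_sum_le_of_forall_le_of_nonneg (pow_nonneg hpos.le _)
      fun i hi => ?_
    rw [norm_mul, norm_pow, hLC]
    calc ‖Q.coeff i‖ * ‖b‖ ^ i ≤ 1 * ‖b‖ ^ i :=
          mul_le_mul_of_nonneg_right (hQ1 i) (pow_nonneg hpos.le _)
      _ ≤ ‖b‖ ^ (Q.natDegree - 1) := by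
          rw [one_mul]
          exact pow_le_pow_right₀ hcon.le (by have := Finset.mem_range.1 hi; omega)
  rw [hb] at h1
  have h3 : ∑ i ∈ Finset.range Q.natDegree, algebraMap L C (Q.coeff i) * b ^ i =
      - b ^ Q.natDegree := by linear_combination -h1
  rw [h3, norm_neg, norm_pow] at h2
  have h4 : ‖b‖ ^ (Q.natDegree - 1) < ‖b‖ ^ Q.natDegree :=
    pow_lt_pow_right₀ hcon (by omega)
  exact absurd h2 (not_le.2 h4)

theorem val_aeval_sub_lt {C K : Type*} [Field C] [Field K] [Algebra C K] {Γ : Type*}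
    [LinearOrderedCommGroupWithZero Γ] (W : Valuation K Γ)
    (hW : ∀ c : C, W (algebraMap C K c) ≤ 1) {y : K} (hy : W y ≤ 1) {b : C}
    (hyb : W (y - algebraMap C K b) < 1) (Q : C[X]) :
    W (aeval y Q - algebraMap C K (Q.eval b)) < 1 := by
  obtain ⟨H, hH⟩ := Polynomial.X_sub_C_dvd_sub_C_eval (a := b) (p := Q)
  have h1 : aeval y Q - algebraMap C K (Q.eval b) = (y - algebraMap C K b) * aeval y H := by
    have h2 := congrArg (aeval y) hH
    simpa using h2
  rw [h1, map_mul]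
  refine lt_of_le_of_lt (mul_le_of_le_one_right' ?_) hyb
  rw [Polynomial.aeval_eq_sum_range]
  refine Valuation.map_sum_le _ fun i _ => ?_
  rw [Algebra.smul_def, map_mul, map_pow]
  exact mul_le_one' (hW _) (pow_le_one' hy i)

open IntermediateField in
/-- a non trivial place which is integral at the transcendental element `z` has a residue there. -/
theorem exists_residue_of_alg {C K : Type*} [Field C] [IsAlgClosed C] [Field K] [Algebra C K]
    {Γ : Type*} [LinearOrderedCommGroupWithZero Γ] (W : Valuation K Γ)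
    (hW : ∀ c : C, c ≠ 0 → W (algebraMap C K c) = 1) (hnt : ∃ a : K, a ≠ 0 ∧ W a ≠ 1) {z : K}
    (halg : ∀ a : K, IsAlgebraic C⟮z⟯ a) (hz : W z ≤ 1) : ∃ c : C, W (z - algebraMap C K c) < 1 := by
  by_contra hcon
  push Not at hcon
  have hW1 : ∀ c : C, W (algebraMap C K c) ≤ 1 := by
    intro c
    by_cases hc : c = 0
    · rw [hc, map_zero, map_zero]; exact zero_le
    · exact (hW c hc).le
  have h1 : ∀ c : C, W (z - algebraMap C K c) = 1 := fun c =>
    le_antisymm ((W.map_sub _ _).trans (max_le hz (hW1 c))) (hcon c)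
  have hpoly : ∀ P : C[X], P ≠ 0 → W (aeval z P) = 1 := by
    intro P hP
    rw [(IsAlgClosed.splits P).eq_prod_roots, map_mul, Polynomial.aeval_C, map_mul,
      hW _ (Polynomial.leadingCoeff_ne_zero.2 hP), one_mul]
    induction P.roots using Multiset.induction_on with
    | empty => simp
    | cons r s ih =>
      rw [Multiset.map_cons, Multiset.prod_cons, map_mul, map_mul, map_sub, Polynomial.aeval_X,
        Polynomial.aeval_C, h1, one_mul]
      exact ih
  obtain ⟨a, ha0, ha1⟩ := hnt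
  obtain ⟨n, hn, b, hb, hab⟩ := exists_pow_val (F := C⟮z⟯) W ha0 (halg a)
  obtain ⟨P, Q, hPQ⟩ := (IntermediateField.mem_adjoin_simple_iff C (b : K)).1 b.2
  have hb' : (b : K) ≠ 0 := fun h => hb (Subtype.ext h)
  have hP : P ≠ 0 := by
    rintro rfl
    rw [map_zero, zero_div] at hPQ
    exact hb' hPQ
  have hQ : Q ≠ 0 := by
    rintro rfl
    rw [map_zero, div_zero] at hPQ
    exact hb' hPQ
  have h2 : W (a ^ n) = 1 := by
    rw [hab]
    change W (b : K) = 1
    rw [hPQ, map_div₀, hpoly P hP, hpoly Q hQ, div_one]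
  rw [map_pow] at h2
  rcases lt_trichotomy (W a) 1 with h3 | h3 | h3
  · exact absurd h2 (pow_lt_one₀ zero_le h3 hn.ne').ne
  · exact ha1 h3
  · exact absurd h2 (one_lt_pow₀ h3 hn.ne').ne'

open IntermediateField in
/-- The position of a place of `K/C` with respect to the circle `|z| = |r|`. -/
theorem place_cases {L C K : Type*} [NontriviallyNormedField L] [IsUltrametricDist L]
    [CompleteSpace L] [NormedField C] [IsUltrametricDist C] [Algebra L C] [IsAlgClosed C]
    (hLC : ∀ c : L, ‖algebraMap L C c‖ = ‖c‖) [Field K] [Algebra C K] [Algebra L K] [IsScalarTower L C K] [Algebra.IsAlgebraic L C]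
    (W : Valuation K ℝ≥0)
    (hW : ∀ c : C, c ≠ 0 → W (algebraMap C K c) = 1) (hnt : ∃ a : K, a ≠ 0 ∧ W a ≠ 1) {z : K}
    (hz0 : z ≠ 0) (halg : ∀ a : K, IsAlgebraic C⟮z⟯ a) {r : C} (hr : r ≠ 0) :
    ((∃ c : C, ‖c‖ < ‖r‖ ∧ W (z - algebraMap C K c) < 1) →
      W (z / algebraMap C K r) ≤ 1 ∧ ∃ Q : L[X], Q.Monic ∧
        (∀ i < Q.natDegree, ‖Q.coeff i‖ < 1) ∧ W (aeval (z / algebraMap C K r) Q) < 1) ∧
    ((¬ ∃ c : C, ‖c‖ < ‖r‖ ∧ W (z - algebraMap C K c) < 1) →
      W (z / algebraMap C K r)⁻¹ ≤ 1 ∧ ∃ Q : L[X], Q.Monic ∧ (∀ i, ‖Q.coeff i‖ ≤ 1) ∧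
        W (aeval (z / algebraMap C K r)⁻¹ Q) < 1) := by
  have hW1 : ∀ c : C, W (algebraMap C K c) ≤ 1 := by
    intro c
    by_cases hc : c = 0
    · rw [hc, map_zero, map_zero]; exact zero_le
    · exact (hW c hc).le
  have hrK : algebraMap C K r ≠ 0 := (map_ne_zero _).2 hr
  have hWr : W (algebraMap C K r) = 1 := hW r hr
  set y : K := z / algebraMap C K r with hy
  have hy0 : y ≠ 0 := div_ne_zero hz0 hrK
  have hWy : W y = W z := by rw [hy, map_div₀, hWr, div_one]
  have hres : ∀ c : C, W (z - algebraMap C K c) < 1 → W (y - algebraMap C K (c / r)) < 1 := by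
    intro c hc
    have h1 : y - algebraMap C K (c / r) = (z - algebraMap C K c) / algebraMap C K r := by
      rw [hy, map_div₀, sub_div]
    rw [h1, map_div₀, hWr, div_one]
    exact hc
  have hWL : ∀ c : L, c ≠ 0 → W (algebraMap L K c) = 1 := by
    intro c hc
    rw [IsScalarTower.algebraMap_apply L C K]
    exact hW _ ((map_ne_zero _).2 hc)
  have hconst : ∀ c : C, W (algebraMap C K c) < 1 → c = 0 := by
    intro c hc
    by_contra h0
    exact absurd (hW c h0) hc.ne
  have haevalL : ∀ (x : K) (Q : L[X]), aeval x Q = aeval x (Q.map (algebraMap L C)) := by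
    intro x Q
    rw [Polynomial.aeval_map_algebraMap]
  have hdich := LemT_874.place_dich (κ := L) W hWL hy0 (by
    intro hy1
    rw [hWy] at hy1
    obtain ⟨c, hc⟩ := exists_residue_of_alg W hW hnt halg hy1
    refine ⟨minpoly L (c / r), minpoly.ne_zero (Algebra.IsIntegral.isIntegral _), ?_⟩
    have h1 := val_aeval_sub_lt W hW1 (hWy.trans_le hy1) (hres c hc)
      ((minpoly L (c / r)).map (algebraMap L C))
    rw [Polynomial.eval_map_algebraMap, minpoly.aeval, map_zero, sub_zero] at h1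
    rw [haevalL]
    exact h1)
  constructor
  · rintro ⟨c, hc1, hc2⟩
    rcases hdich with ⟨h1, Q, hQ1, hQ2, hQ3⟩ | h
    · exfalso
      have hy1 : W y ≤ 1 := by
        rw [hWy]
        have h2 : z = (z - algebraMap C K c) + algebraMap C K c := by ring
        rw [h2]
        exact (W.map_add _ _).trans (max_le hc2.le (hW1 c))
      have hy1' : W y = 1 := by
        rw [map_inv₀, inv_le_one₀ (pos_iff_ne_zero.2 ((W.ne_zero_iff).2 hy0))] at h1
        exact le_antisymm hy1 h1
      have hres' := hres c hc2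
      have hb0 : c / r ≠ 0 := by
        intro h0
        rw [h0, map_zero, sub_zero, hy1'] at hres'
        exact lt_irrefl _ hres'
      have hinv : W (y⁻¹ - algebraMap C K (c / r)⁻¹) < 1 := by
        have h2 : algebraMap C K (c / r) ≠ 0 := (map_ne_zero _).2 hb0
        have h3 : y⁻¹ - algebraMap C K (c / r)⁻¹ =
            -(y - algebraMap C K (c / r)) / (y * algebraMap C K (c / r)) := by
          rw [map_inv₀]
          field_simp
          ring
        rw [h3, map_div₀, Valuation.map_neg, map_mul, hy1', hW _ hb0, one_mul, div_one]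
        exact hres'
      have h4 := val_aeval_sub_lt W hW1 h1 hinv (Q.map (algebraMap L C))
      rw [← haevalL] at h4
      have h5 : W (algebraMap C K ((Q.map (algebraMap L C)).eval (c / r)⁻¹)) < 1 := by
        have h6 : algebraMap C K ((Q.map (algebraMap L C)).eval (c / r)⁻¹) =
            aeval y⁻¹ Q - (aeval y⁻¹ Q -
              algebraMap C K ((Q.map (algebraMap L C)).eval (c / r)⁻¹)) := by ring
        rw [h6]
        exact lt_of_le_of_lt (W.map_sub _ _) (max_lt hQ3 h4)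
      have h6 := hconst _ h5
      rw [Polynomial.eval_map_algebraMap] at h6
      have h7 := root_le hLC hQ1 hQ2 h6
      rw [norm_inv, norm_div, inv_div] at h7
      have hc0 : 0 < ‖c‖ := by
        rw [norm_pos_iff]
        rintro rfl
        exact hb0 (zero_div _)
      rw [div_le_one₀ hc0] at h7
      exact absurd hc1 (not_lt.2 h7)
    · exact h
  · intro hno
    rcases hdich with h | ⟨h1, Q, hQ1, hQ2, hQ3⟩
    · exact h
    · exfalso
      obtain ⟨c, hc⟩ := exists_residue_of_alg W hW hnt halg (hWy ▸ h1)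
      have h4 := val_aeval_sub_lt W hW1 h1 (hres c hc) (Q.map (algebraMap L C))
      rw [← haevalL] at h4
      have h5 : W (algebraMap C K ((Q.map (algebraMap L C)).eval (c / r))) < 1 := by
        have h6 : algebraMap C K ((Q.map (algebraMap L C)).eval (c / r)) =
            aeval y Q - (aeval y Q -
              algebraMap C K ((Q.map (algebraMap L C)).eval (c / r))) := by ring
        rw [h6]
        exact lt_of_le_of_lt (W.map_sub _ _) (max_lt hQ3 h4)
      have h6 := hconst _ h5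
      rw [Polynomial.eval_map_algebraMap] at h6
      have h7 := root_lt hLC hQ1 hQ2 h6
      rw [norm_div, div_lt_one₀ (norm_pos_iff.2 hr)] at h7
      exact hno ⟨c, h7, hc⟩

end Places

end Crest.Agent.R013.RZ_365
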