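import Crest.Agent.R013.Kc3_671
import Crest.Agent.R013.DEm3_719
import Crest.Agent.R013.RZ5_365

/-!
# Row 13, C-SLOPES (helper671), Kc4: finite levels of a function field over `C`

`U = k'(T) ⊆ K`, `T` finite, `C(T) = K`: `K/U` is normal, the norm of a given direction is fixed by
`Aut(K/U)`, `U` is a function field over `k'`.
-/

set_option autoImplicit false
set_option linter.unusedSectionVars false
set_option linter.style.haveILetI false

noncomputable section

namespace Crest.Agent.R013.Kc_671

open Module Filter Topology Polynomial IntermediateField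
open Crest.Agent.R013.Cell_408 (DiscNorm)
open Crest.Agent.R013.RR7_948 Crest.Agent.R013.Red332 Crest.Agent.R013.SSK_332
open Crest.Agent.R013.EE809 Crest.Agent.R013.DEm_719 Crest.Agent.R013.RR20_948
open Crest.Agent.R013.NB_102
open scoped NNReal

variable {k : Type*} [NontriviallyNormedField k] [CompleteSpace k] [IsUltrametricDist k]
variable {C : Type*} [NormedField C] [IsUltrametricDist C] [NormedAlgebra k C]
  [Algebra.IsAlgebraic k C] [IsAlgClosed C] [CharZero C]
variable {K : Type*} [Field K] [Algebra C K]

section Normal

variable (k' : IntermediateField k C) (T : Set K)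

omit [NontriviallyNormedField k] [CompleteSpace k] [IsUltrametricDist k] [NormedField C]
  [IsUltrametricDist C] [NormedAlgebra k C] [Algebra.IsAlgebraic k C] [IsAlgClosed C]
  [CharZero C] [Algebra C K] in
theorem eq_of_eqOn_adjoin {C K Ω : Type*} [Field C] [Field K] [Algebra C K] [Field Ω] {T : Set K}
    (hT : IntermediateField.adjoin C T = ⊤) (φ ψ : K →+* Ω)
    (h1 : ∀ c : C, φ (algebraMap C K c) = ψ (algebraMap C K c)) (h2 : ∀ t ∈ T, φ t = ψ t) :
    φ = ψ := by
  ext f
  have hf : f ∈ IntermediateField.adjoin C T := by rw [hT]; trivial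
  refine IntermediateField.adjoin_induction C (p := fun g _ => φ g = ψ g) ?_ ?_ ?_ ?_ ?_ hf
  · exact h2
  · exact h1
  · intro x y _ _ hx hy
    rw [map_add, map_add, hx, hy]
  · intro x _ hx
    rw [map_inv₀, map_inv₀, hx]
  · intro x y _ _ hx hy
    rw [map_mul, map_mul, hx, hy]

theorem normal_level (hT : IntermediateField.adjoin C T = ⊤) :
    Normal (IntermediateField.adjoin k' T) K := by
  set U := IntermediateField.adjoin k' T with hU
  have hgen : IntermediateField.adjoin U (Set.range (algebraMap C K)) = ⊤ := by
    rw [eq_top_iff]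
    intro f _
    have hf : f ∈ IntermediateField.adjoin C T := by rw [hT]; trivial
    have h1 : ∀ t ∈ T, t ∈ IntermediateField.adjoin U (Set.range (algebraMap C K)) := by
      intro t ht
      have h2 : t ∈ U := IntermediateField.subset_adjoin k' T ht
      exact (IntermediateField.adjoin U (Set.range (algebraMap C K))).algebraMap_mem ⟨t, h2⟩
    refine IntermediateField.adjoin_induction C (p := fun g _ =>
      g ∈ IntermediateField.adjoin U (Set.range (algebraMap C K))) h1 ?_ ?_ ?_ ?_ hf
    · intro c
      exact IntermediateField.subset_adjoin _ _ ⟨c, rfl⟩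
    · intro x y _ _ hx hy
      exact add_mem hx hy
    · intro x _ hx
      exact inv_mem hx
    · intro x y _ _ hx hy
      exact mul_mem hx hy
  have hs : ∀ x ∈ Set.range (algebraMap C K), IsIntegral U x ∧
      ((minpoly U x).map (algebraMap U K)).Splits := by
    rintro _ ⟨c, rfl⟩
    have hc : IsIntegral k' c := Algebra.IsIntegral.isIntegral c
    have hc1 : IsIntegral k' (algebraMap C K c) := hc.map (IsScalarTower.toAlgHom k' C K)
    have hc2 : IsIntegral U (algebraMap C K c) := hc1.tower_top
    refine ⟨hc2, ?_⟩
    have h3 : minpoly U (algebraMap C K c) ∣ (minpoly k' c).map (algebraMap k' U) := by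
      refine minpoly.dvd _ _ ?_
      rw [aeval_map_algebraMap, aeval_algebraMap_apply, minpoly.aeval, map_zero]
    have h4 : (((minpoly k' c).map (algebraMap k' U)).map (algebraMap U K)).Splits := by
      rw [Polynomial.map_map, ← IsScalarTower.algebraMap_eq k' U K,
        IsScalarTower.algebraMap_eq k' C K, ← Polynomial.map_map]
      exact (IsAlgClosed.splits ((minpoly k' c).map (algebraMap k' C))).map _
    refine h4.of_dvd ?_ (Polynomial.map_dvd _ h3)
    rw [Polynomial.map_ne_zero_iff (algebraMap U K).injective,
      Polynomial.map_ne_zero_iff (algebraMap k' U).injective]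
    exact minpoly.ne_zero hc
  have halg : Algebra.IsAlgebraic U K := by
    refine ⟨fun x => ?_⟩
    have hx : x ∈ IntermediateField.adjoin U (Set.range (algebraMap C K)) := by
      rw [hgen]; trivial
    have h5 : Algebra.IsAlgebraic U (IntermediateField.adjoin U (Set.range (algebraMap C K))) :=
      IntermediateField.isAlgebraic_adjoin fun y hy => (hs y hy).1
    have h6 := h5.isAlgebraic ⟨x, hx⟩
    exact (isAlgebraic_algHom_iff (IntermediateField.val _) Subtype.val_injective).2 h6
  refine normal_iff.2 fun x => ⟨(halg.isAlgebraic x).isIntegral, ?_⟩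
  refine IntermediateField.splits_of_mem_adjoin (F := U) (K := K) (L := K)
    (S := Set.range (algebraMap C K)) hs ?_
  rw [hgen]; trivial

end Normal

section Inv

variable [hk : Fact (DiscNorm k)] (S : SSK k C K)

/-- **the norm of a direction is invariant** over a large finite level -/
theorem exists_inv (d : S.Dir) (T : Finset K) : ∃ L : IntermediateField k C,
    FiniteDimensional k L ∧ ∀ k' : IntermediateField k C, L ≤ k' →
      IntermediateField.adjoin C (T : Set K) = ⊤ →
      ∀ (σ : K ≃ₐ[IntermediateField.adjoin k' (T : Set K)] K) (f : K),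
        (S.nm d.1).v (σ f) = (S.nm d.1).v f := by
  classical
  choose L hL hLf using fun t : T => exists_fix_EE (S.em d (t : K))
  refine ⟨⨆ t, L t, IntermediateField.finiteDimensional_iSup_of_finite, ?_⟩
  intro k' hk' hT σ f
  have hnorm : Normal k' C := normal_iff.2 fun x =>
    ⟨Algebra.IsIntegral.isIntegral x, IsAlgClosed.splits _⟩
  let σ' : K ≃ₐ[k'] K := σ.restrictScalars k'
  let s : C ≃ₐ[k'] C := σ'.restrictNormal C
  have hs : ∀ c : C, algebraMap C K (s c) = σ (algebraMap C K c) := fun c =>
    AlgEquiv.restrictNormal_commutes σ' C c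
  let s' : C ≃ₐ[k] C := s.restrictScalars k
  have hs' : ∀ c, s' c = s c := fun c => rfl
  have key : (S.em d).comp (σ : K →+* K) = ((actEE s' : EE k C ≃+* EE k C) : EE k C →+* EE k C).comp
      (S.em d) := by
    refine eq_of_eqOn_adjoin hT _ _ ?_ ?_
    · intro c
      change S.em d (σ (algebraMap C K c)) = actEE s' (S.em d (algebraMap C K c))
      rw [← hs]
      ext n
      rw [S.em_C, co_actEE, S.em_C]
      split_ifs
      · rfl
      · rw [map_zero]
    · intro t ht
      change S.em d (σ t) = actEE s' (S.em d t)
      have h1 : σ t = t := σ.commutes ⟨t, IntermediateField.subset_adjoin k' _ ht⟩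
      rw [h1]
      refine (hLf ⟨t, ht⟩ s' fun c hc => ?_).symm
      have h2 : c ∈ k' := hk' (le_iSup L ⟨t, ht⟩ hc)
      exact s.commutes ⟨c, h2⟩
  have h3 : S.em d (σ f) = actEE s' (S.em d f) := congrArg (fun φ : K →+* EE k C => φ f) key
  have h4 : ((S.nm d.1).v (σ f) : ℝ) = (S.nm d.1).v f := by
    rw [← S.em_gn, ← S.em_gn, h3, gn_actEE]
  exact_mod_cast h4

end Inv

section FF

theorem ratHom_apply {k K : Type*} [Field k] [Field K] [Algebra k K] (y : K)
    (hy : Transcendental k y) (x : RatFunc k) :
    ratHom y hy x = aeval y x.num / aeval y x.denom := RatFunc.liftAlgHom_apply _ _ x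

variable [Algebra (RatFunc C) K] [IsScalarTower C (RatFunc C) K] [FiniteDimensional (RatFunc C) K]
  [Algebra.IsSeparable (RatFunc C) K]

/-- `U` is a function field over `k'` -/
theorem finite_level (k' : IntermediateField k C) (T : Finset K)
    (yU : IntermediateField.adjoin k' (T : Set K)) (hy : Transcendental C (yU : K))
    (hyU : Transcendental k' yU) :
    letI := ratAlg yU hyU
    FiniteDimensional (RatFunc k') (IntermediateField.adjoin k' (T : Set K)) := by
  letI a1 := ratAlg yU hyU
  haveI t1 : IsScalarTower k' (RatFunc k') (IntermediateField.adjoin k' (T : Set K)) :=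
    ratAlg_tower yU hyU
  have hyK : Transcendental k' (yU : K) := fun h => hyU (by
    have : IsAlgebraic k' ((IntermediateField.val _ : _ →ₐ[k'] K) yU) := h
    exact (isAlgebraic_algHom_iff _ (IntermediateField.val
      (IntermediateField.adjoin k' (T : Set K))).injective).1 this)
  letI a2 : Algebra (RatFunc k') K := ratAlg (yU : K) hyK
  haveI t2 : IsScalarTower k' (RatFunc k') K := ratAlg_tower (yU : K) hyK
  have hcomm : ∀ f : RatFunc k', algebraMap (IntermediateField.adjoin k' (T : Set K)) K
      (algebraMap (RatFunc k') (IntermediateField.adjoin k' (T : Set K)) f) =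
      algebraMap (RatFunc k') K f := by
    intro f
    change algebraMap (IntermediateField.adjoin k' (T : Set K)) K (ratHom yU hyU f) =
      ratHom (yU : K) hyK f
    rw [ratHom_apply, ratHom_apply, map_div₀]
    have h2 : ∀ p : k'[X], algebraMap (IntermediateField.adjoin k' (T : Set K)) K (aeval yU p) =
        aeval (yU : K) p := fun p => by
      rw [← aeval_algebraMap_apply]; rfl
    rw [h2, h2]
  haveI t3 : IsScalarTower (RatFunc k') (IntermediateField.adjoin k' (T : Set K)) K :=
    IsScalarTower.of_algebraMap_eq fun f => (hcomm f).symm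
  have halgK : Algebra.IsAlgebraic (RatFunc k') K := by
    refine RZ_365.isAlgebraic_rat (L := k') (C := C) (K := K) (z := (yU : K)) (r := 1) (by simp) ?_ ?_
    · rw [map_one, div_one]
      exact ratHom_X (yU : K) hyK
    · intro a
      haveI := CLiftN_903.fd_adjoin (C := C) (yU : K) hy
      exact (IsIntegral.of_finite (IntermediateField.adjoin C {(yU : K)}) a).isAlgebraic
  have halgU : Algebra.IsAlgebraic (RatFunc k') (IntermediateField.adjoin k' (T : Set K)) :=
    Algebra.IsAlgebraic.tower_bot (K := RatFunc k') (L := IntermediateField.adjoin k' (T : Set K))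
      (A := K)
  -- generators
  set TU : Set (IntermediateField.adjoin k' (T : Set K)) := Subtype.val ⁻¹' (T : Set K) with hTU
  have hTUfin : TU.Finite := Set.Finite.preimage Subtype.val_injective.injOn T.finite_toSet
  have hmem : ∀ (x : K) (hx : x ∈ IntermediateField.adjoin k' (T : Set K)),
      (⟨x, hx⟩ : IntermediateField.adjoin k' (T : Set K)) ∈
        IntermediateField.adjoin (RatFunc k') TU := by
    intro x hx
    refine IntermediateField.adjoin_induction k' (s := (T : Set K)) (p := fun g hg =>
      (⟨g, hg⟩ : IntermediateField.adjoin k' (T : Set K)) ∈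
        IntermediateField.adjoin (RatFunc k') TU) ?_ ?_ ?_ ?_ ?_ hx
    · intro t ht
      exact IntermediateField.subset_adjoin _ _ ht
    · intro c
      have h1 : (⟨algebraMap k' K c, (IntermediateField.adjoin k' (T : Set K)).algebraMap_mem c⟩ :
          IntermediateField.adjoin k' (T : Set K)) =
          algebraMap (RatFunc k') _ (algebraMap k' (RatFunc k') c) := by
        rw [← IsScalarTower.algebraMap_apply k' (RatFunc k')]
        rfl
      rw [h1]
      exact (IntermediateField.adjoin (RatFunc k') TU).algebraMap_mem _
    · intro a b ha hb h1 h2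
      exact add_mem h1 h2
    · intro a ha h1
      exact inv_mem h1
    · intro a b ha hb h1 h2
      exact mul_mem h1 h2
  have htop : IntermediateField.adjoin (RatFunc k') TU = ⊤ := by
    rw [eq_top_iff]
    rintro ⟨x, hx⟩ -
    exact hmem x hx
  have hfin : FiniteDimensional (RatFunc k') (IntermediateField.adjoin (RatFunc k') TU) := by
    have := hTUfin.to_subtype
    exact IntermediateField.finiteDimensional_adjoin fun x _ =>
      (halgU.isAlgebraic x).isIntegral
  rw [htop] at hfin
  exact IntermediateField.topEquiv.toLinearEquiv.finiteDimensional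

end FF

end Crest.Agent.R013.Kc_671
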