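import Crest.Agent.R013.RePatch_920
import Crest.Agent.R013.Gl14_946
import Crest.Agent.R013.BTor6_914

/-!
# Part B: the re-patched class is again divisible at all places

`E₁` = the circle at which the gluing takes place.  `Glued n h h'` (`h, h' ∈ M`): `h' = a ^ n` with
`a ∈ RU(E₁) ⊗ M` and `h' = h d ^ n` with `d ∈ (FP(E₁) ⊗ M)ˣ`.

* `exists_glued` : 920's `repatch` (same hypotheses).
* `Glued.outer`, `Glued.inner` : evaluation (any universe).
* `Glued.root` : the root in the `τ(RU)`-span of `M` in `E ⊗ M`.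
* `Glued.ldiv` : `LDiv k₀ n h → LDiv k₀ n h'`.
-/

set_option autoImplicit false
set_option linter.unusedSectionVars false

namespace Crest.Agent.R013.Khat_930

open Gl946 Lift903 TensorProduct RePatch_920
open scoped NNReal
open Crest.Agent.R013.A2a_275 (Cpl toCpl norm_toCpl)
open Crest.NumberTheoryR.Sect (IsPlace)
open BTor4_914 (LDiv)

attribute [local instance] Algebra.TensorProduct.rightAlgebra

section Main

variable {k E₁ : Type*} [NormedField k] [NontriviallyNormedField E₁] [NormedAlgebra k E₁]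
  [IsUltrametricDist E₁] [CompleteSpace E₁] [CompleteSpace k] {y₁ : E₁} (hG₁ : IsGauss k y₁)
  {π : k} (hπ : IsUnif π) (hd₁ : DenseRat k y₁)
  {F M : Type*} [Field F] [Field M] [Algebra F M] [Algebra F E₁]
  [FiniteDimensional F M]

/-- The output of the gluing at the circle `y₁`. -/
structure Glued (hF₁ : ∀ x : F, algebraMap F E₁ x ∈ KY hG₁) (n : ℕ) (h h' : M) : Prop where
  ne : h' ≠ 0
  out : ∃ a ∈ KR (RU k y₁) (algebraMap_mem_RU hG₁ hF₁)
    (isBC_tensor (E := E₁) (Module.finBasis F M)), a ^ n = algebraMap M (E₁ ⊗[F] M) h'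
  inn : ∃ d ∈ KR (FP hG₁ hπ hd₁).toSubring (algebraMap_mem_FP hG₁ hπ hd₁ hF₁)
      (isBC_tensor (E := E₁) (Module.finBasis F M)),
    ∃ d' ∈ KR (FP hG₁ hπ hd₁).toSubring (algebraMap_mem_FP hG₁ hπ hd₁ hF₁)
      (isBC_tensor (E := E₁) (Module.finBasis F M)),
    d * d' = 1 ∧ algebraMap M (E₁ ⊗[F] M) h' = algebraMap M (E₁ ⊗[F] M) h * d ^ n

/-- **NB3.** -/
theorem exists_glued [Algebra.IsSeparable F M] (hF₁ : ∀ x : F, algebraMap F E₁ x ∈ KY hG₁)
    (hF₁' : ∀ z : E₁, z ∈ KY hG₁ → z ∈ Set.range (algebraMap F E₁))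
    (n : ℕ) (hn : ‖(n : E₁)‖ = 1) (h : M) (h0 : h ≠ 0)
    (hf : ∀ v : Valuation M ℝ≥0, (∀ a : F, v (algebraMap F M a) = ‖algebraMap F E₁ a‖₊) →
      ∃ w : M, v (h - w ^ n) < v h) :
    ∃ h' : M, Glued hG₁ hπ hd₁ hF₁ n h h' := by
  classical
  let b := Module.finBasis F M
  have hn0 : n ≠ 0 := by
    rintro rfl
    rw [Nat.cast_zero, norm_zero] at hn
    exact zero_ne_one hn
  obtain ⟨h', h'0, a, ha, a', ha', d, hd, d', hd', haa, hdd, e1, e2⟩ :=
    patch_E hG₁ hπ hd₁ b hF₁ hF₁' n hn 1 h one_ne_zero h0 (by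
      intro v hv
      obtain ⟨w, hw⟩ := hf v hv
      have hvh : v h ≠ 0 := (v.ne_zero_iff).2 h0
      have hwh : v (w ^ n) = v h := by
        have h1 : w ^ n = h - (h - w ^ n) := by ring
        rw [h1]
        exact v.map_sub_eq_of_lt_left hw
      have hw0 : w ^ n ≠ 0 := by
        intro h1; rw [h1, map_zero] at hwh; exact hvh hwh.symm
      have hw00 : w ≠ 0 := fun h1 => hw0 (by rw [h1, zero_pow hn0])
      refine ⟨w⁻¹, inv_ne_zero hw00, ?_⟩
      have e : 1 / h - w⁻¹ ^ n = -(h - w ^ n) / (h * w ^ n) := by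
        rw [inv_pow]; field_simp; ring
      rw [e, map_div₀, Valuation.map_neg, map_mul, hwh, map_div₀, map_one]
      rw [div_lt_div_iff₀ (mul_pos (zero_lt_iff.2 hvh) (zero_lt_iff.2 hvh)) (zero_lt_iff.2 hvh),
        one_mul]
      exact mul_lt_mul_of_pos_right hw (zero_lt_iff.2 hvh))
  exact ⟨h', h'0, ⟨a, ha, by rw [e1, map_one, one_mul]⟩, d, hd, d', hd', hdd, e2⟩

variable {hπ hd₁}
variable {hF₁ : ∀ x : F, algebraMap F E₁ x ∈ KY hG₁} {n : ℕ} {h h' : M}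

/-- evaluation at the outer side -/
theorem Glued.outer (H : Glued hG₁ hπ hd₁ hF₁ n h h') {Ω : Type*} [CommRing Ω]
    (ρ₁ : RU k y₁ →+* Ω) (κ : M →+* Ω)
    (hc : ∀ x : F, ρ₁ ⟨algebraMap F E₁ x, algebraMap_mem_RU hG₁ hF₁ x⟩ = κ (algebraMap F M x)) :
    ∃ β ∈ AddSubmonoid.closure {v : Ω | ∃ s, ∃ m : M, v = ρ₁ s * κ m}, β ^ n = κ h' := by
  obtain ⟨a, ha, e⟩ := H.out
  let Ev := ev (isBC_tensor (E := E₁) (Module.finBasis F M)) (algebraMap_mem_RU hG₁ hF₁) ρ₁ κ hc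
  refine ⟨Ev ⟨a, ha⟩, ?_, ?_⟩
  · change evF _ _ ρ₁ κ ⟨a, ha⟩ ∈ _
    unfold evF
    exact AddSubmonoid.sum_mem _ fun i _ => AddSubmonoid.subset_closure ⟨_, _, rfl⟩
  · have h1 : Ev ⟨algebraMap M (E₁ ⊗[F] M) h', algebraMap_mem_KR _ _ h'⟩ = κ h' :=
      ev_algebraMap _ _ _ _ hc h'
    rw [← h1, ← map_pow]
    congr 1
    exact Subtype.ext e

/-- evaluation at the inner side -/
theorem Glued.inner (H : Glued hG₁ hπ hd₁ hF₁ n h h') {Ω : Type*} [Field Ω]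
    (φ₁ : FP hG₁ hπ hd₁ →+* Ω) (κ : M →+* Ω)
    (hc : ∀ x : F, φ₁ ⟨algebraMap F E₁ x, algebraMap_mem_FP hG₁ hπ hd₁ hF₁ x⟩ =
      κ (algebraMap F M x)) :
    ∃ α ∈ Subring.closure (Set.range φ₁ ∪ Set.range κ),
      ∃ α' ∈ Subring.closure (Set.range φ₁ ∪ Set.range κ), α * α' = 1 ∧ κ h' = κ h * α ^ n := by
  obtain ⟨d, hd, d', hd', hdd, e2⟩ := H.inn
  let Ev := ev (isBC_tensor (E := E₁) (Module.finBasis F M)) (algebraMap_mem_FP hG₁ hπ hd₁ hF₁)
    (R := (FP hG₁ hπ hd₁).toSubring) φ₁ κ hc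
  refine ⟨Ev ⟨d, hd⟩, ev_mem_closure _ _ _ _ hc _, Ev ⟨d', hd'⟩, ev_mem_closure _ _ _ _ hc _,
    ?_, ?_⟩
  · rw [← map_mul, ← map_one Ev]
    congr 1
    exact Subtype.ext hdd
  · have h1 : Ev ⟨algebraMap M (E₁ ⊗[F] M) h', algebraMap_mem_KR _ _ h'⟩ = κ h' :=
      ev_algebraMap _ _ _ _ hc h'
    have h2 : Ev ⟨algebraMap M (E₁ ⊗[F] M) h, algebraMap_mem_KR _ _ h⟩ = κ h :=
      ev_algebraMap _ _ _ _ hc h
    rw [← h1, ← h2, ← map_pow, ← map_mul]
    congr 1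
    exact Subtype.ext e2

/-- the root in the `τ(RU)`-span of `M` in `E ⊗ M` -/
theorem Glued.root (H : Glued hG₁ hπ hd₁ hF₁ n h h') {E : Type*} [Field E] [Algebra F E]
    (τ : RU k y₁ →+* E)
    (hτ : ∀ x : F, τ ⟨algebraMap F E₁ x, algebraMap_mem_RU hG₁ hF₁ x⟩ = algebraMap F E x) :
    ∃ b : E ⊗[F] M, b ^ n = (1 : E) ⊗ₜ[F] h' ∧
      b ∈ AddSubmonoid.closure {v : E ⊗[F] M | ∃ s ∈ τ.range, ∃ m : M, v = s ⊗ₜ[F] m} := by
  obtain ⟨β, hβ, e⟩ := H.outer hG₁ ((algebraMap E (E ⊗[F] M)).comp τ) (algebraMap M (E ⊗[F] M)) (by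
    intro x
    change algebraMap E (E ⊗[F] M) (τ _) = _
    rw [hτ, ← IsScalarTower.algebraMap_apply F E (E ⊗[F] M)]
    change _ = algebraMap M (E ⊗[F] M) (algebraMap F M x)
    rw [← IsScalarTower.algebraMap_apply F M (E ⊗[F] M)])
  refine ⟨β, e, AddSubmonoid.closure_mono ?_ hβ⟩
  rintro _ ⟨s, m, rfl⟩
  refine ⟨τ s, ⟨s, rfl⟩, m, ?_⟩
  change (τ s ⊗ₜ[F] (1 : M)) * ((1 : E) ⊗ₜ[F] m) = _
  rw [Algebra.TensorProduct.tmul_mul_tmul, mul_one, one_mul]

end Main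

section LDiv

/-- values of elements of the closure -/
theorem exists_norm_eq {Kb : Type*} [Field Kb] (v : Valuation Kb ℝ≥0) (S : Subfield Kb) {β : Cpl v}
    (hβ : β ∈ clS v S) : ∃ a ∈ S, v a = ‖β‖₊ := by
  by_cases h0 : β = 0
  · exact ⟨0, zero_mem _, by rw [h0, map_zero, nnnorm_zero]⟩
  · have h1 : β ∈ closure ((S.map (toCpl v) : Subfield (Cpl v)) : Set (Cpl v)) := hβ
    rw [Metric.mem_closure_iff] at h1
    obtain ⟨_, ⟨a, ha, rfl⟩, h2⟩ := h1 ‖β‖ (norm_pos_iff.2 h0)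
    refine ⟨a, ha, ?_⟩
    rw [dist_eq_norm] at h2
    have h3 : ‖toCpl v a‖ = ‖β‖ := by
      have e : toCpl v a = β - (β - toCpl v a) := by ring
      rw [e]
      rw [← norm_neg (β - toCpl v a)] at h2
      rw [sub_eq_add_neg, IsUltrametricDist.norm_add_eq_max_of_norm_ne_norm h2.ne',
        max_eq_left h2.le]
    rw [norm_toCpl] at h3
    exact NNReal.coe_injective h3

variable {k E₁ : Type*} [NontriviallyNormedField k] [IsUltrametricDist k]
  [NontriviallyNormedField E₁] [NormedAlgebra k E₁]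
  [IsUltrametricDist E₁] [CompleteSpace E₁] [CompleteSpace k] {y₁ : E₁} (hG₁ : IsGauss k y₁)
  {π : k} {hπ : IsUnif π} {hd₁ : DenseRat k y₁}
  {F M : Type*} [Field F] [Field M] [Algebra F M] [Algebra F E₁] [FiniteDimensional F M]
  {hF₁ : ∀ x : F, algebraMap F E₁ x ∈ KY hG₁} {n : ℕ} {h h' : M}

/-- **the re-patched class is divisible at all places.** -/
theorem Glued.ldiv (H : Glued hG₁ hπ hd₁ hF₁ n h h')
    (hF₁' : ∀ z : E₁, z ∈ KY hG₁ → z ∈ Set.range (algebraMap F E₁))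
    [Algebra k F] [IsScalarTower k F E₁]
    (Kb : Type*) [Field Kb] [Algebra F Kb] [Algebra M Kb] [IsScalarTower F M Kb]
    [Algebra.IsAlgebraic F Kb] [Algebra k Kb] [IsScalarTower k F Kb]
    {k₀ : Type*} [Field k₀] [Algebra k₀ k] [Algebra.IsAlgebraic k₀ k] [Algebra k₀ Kb]
    [IsScalarTower k₀ k Kb] [Algebra k₀ M] [IsScalarTower k₀ M Kb] (hdiv : LDiv k₀ n h) :
    LDiv k₀ n h' := by
  have : Algebra.IsAlgebraic M Kb := Algebra.IsAlgebraic.tower_top (K := F) M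
  intro u hu
  obtain ⟨v, hv⟩ := Unr9_957.exists_extend_alg (E := Kb) u
  have hvu : ∀ a : M, v (algebraMap M Kb a) = u a := fun a => by rw [← hv]; rfl
  have hvp : IsPlace k v := by
    refine ⟨fun c hc => ?_, ?_⟩
    · refine Unr9_957.trivial_of_trivial (F := k₀) (E := k) (v.comap (algebraMap k Kb)) ?_ c hc
      intro x hx
      change v (algebraMap k Kb (algebraMap k₀ k x)) = 1
      rw [← IsScalarTower.algebraMap_apply k₀ k Kb, IsScalarTower.algebraMap_apply k₀ M Kb, hvu]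
      exact hu.1 x hx
    · obtain ⟨a, ha0, ha1⟩ := hu.2
      exact ⟨algebraMap M Kb a, by rw [hvu]; exact ha0, by rw [hvu]; exact ha1⟩
  have hF0 : ∀ z, z ∈ KY hG₁ ↔ ∃ f : F, algebraMap F E₁ f = z := fun z =>
    ⟨fun hz => hF₁' z hz, by rintro ⟨f, rfl⟩; exact hF₁ f⟩
  set κ : M →+* Cpl v := (toCpl v).comp (algebraMap M Kb) with hκ
  have hκn : ∀ a : M, ‖κ a‖₊ = u a := by
    intro a
    rw [← hvu]
    exact NNReal.coe_injective (norm_toCpl v (algebraMap M Kb a))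
  have hFM : (algebraMap F Kb).fieldRange ≤ (algebraMap M Kb).fieldRange := by
    rintro _ ⟨f, rfl⟩
    exact ⟨algebraMap F M f, (IsScalarTower.algebraMap_apply F M Kb f).symm⟩
  have hval : ∀ β ∈ clS v (algebraMap M Kb).fieldRange, ∃ a : M, u a = ‖β‖₊ := by
    intro β hβ
    obtain ⟨_, ⟨a, rfl⟩, ha⟩ := exists_norm_eq v _ hβ
    exact ⟨a, by rw [← hvu, ha]⟩
  have hκmem : ∀ a : M, κ a ∈ clS v (algebraMap M Kb).fieldRange := fun a =>
    toCpl_mem_clS v _ ⟨a, rfl⟩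
  rcases exists_map_val hG₁ hF0 hπ hd₁ v (Or.inr hvp) with ⟨Φ, h1, h2⟩ | ⟨Φ, h1, h2⟩
  · obtain ⟨β, hβ, e⟩ := H.outer hG₁ Φ κ (fun x => by
      rw [h1]
      change _ = toCpl v (algebraMap M Kb (algebraMap F M x))
      rw [← IsScalarTower.algebraMap_apply])
    have hβm : β ∈ (clS v (algebraMap M Kb).fieldRange).toSubring.toAddSubgroup.toAddSubmonoid := by
      refine (AddSubmonoid.closure_le (S := (clS v
        (algebraMap M Kb).fieldRange).toSubring.toAddSubgroup.toAddSubmonoid)).2 ?_ hβ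
      rintro _ ⟨s, m, rfl⟩
      exact (clS v (algebraMap M Kb).fieldRange).mul_mem (clS_mono v hFM (h2 s)) (hκmem m)
    obtain ⟨a, ha⟩ := hval β hβm
    refine ⟨a, ?_⟩
    rw [← hκn, ← e, nnnorm_pow, ha]
  · obtain ⟨α, hα, α', hα', hαα, e⟩ := H.inner hG₁ Φ κ (fun x => by
      rw [h1]
      change _ = toCpl v (algebraMap M Kb (algebraMap F M x))
      rw [← IsScalarTower.algebraMap_apply])
    have hαm : α ∈ (clS v (algebraMap M Kb).fieldRange).toSubring := by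
      refine (Subring.closure_le (t := (clS v (algebraMap M Kb).fieldRange).toSubring)).2 ?_ hα
      rintro _ (⟨s, rfl⟩ | ⟨m, rfl⟩)
      · exact clS_mono v hFM (h2 s)
      · exact hκmem m
    obtain ⟨a, ha⟩ := hval α hαm
    obtain ⟨a', ha'⟩ := hdiv u hu
    refine ⟨a' * a, ?_⟩
    rw [← hκn, e, nnnorm_mul, nnnorm_pow, hκn, ha', map_mul, mul_pow, ha]

/-- elements of the completed field are approximated -/
theorem exists_near {Kb : Type*} [Field Kb] (v : Valuation Kb ℝ≥0) (S : Subfield Kb) {β : Cpl v}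
    (hβ : β ∈ clS v S) (ε : ℝ) (hε : 0 < ε) : ∃ a ∈ S, ‖toCpl v a - β‖ < ε := by
  have h1 : β ∈ closure ((S.map (toCpl v) : Subfield (Cpl v)) : Set (Cpl v)) := hβ
  rw [Metric.mem_closure_iff] at h1
  obtain ⟨_, ⟨a, ha, rfl⟩, h2⟩ := h1 ε hε
  exact ⟨a, ha, by rwa [dist_comm, dist_eq_norm] at h2⟩

/-- **no root at the vertex**: if `h` is not an `n`-th power to first order at `v`, then `h'` has no
`n`-th root in the completion of `M` at `v`. -/
theorem Glued.no_root (H : Glued hG₁ hπ hd₁ hF₁ n h h') (hn : n ≠ 0) (h0 : h ≠ 0)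
    {Kb : Type*} [Field Kb] [Algebra F Kb] [Algebra M Kb] [IsScalarTower F M Kb]
    (v : Valuation Kb ℝ≥0) (Φ : FP hG₁ hπ hd₁ →+* Cpl v)
    (h1 : ∀ x : F, Φ ⟨algebraMap F E₁ x, algebraMap_mem_FP hG₁ hπ hd₁ hF₁ x⟩ =
      toCpl v (algebraMap F Kb x))
    (h2 : ∀ r, Φ r ∈ clS v (algebraMap M Kb).fieldRange)
    (hno : ¬ ∃ g : M, v (algebraMap M Kb (h - g ^ n)) < v (algebraMap M Kb h)) :
    ∀ w ∈ clS v (algebraMap M Kb).fieldRange, w ^ n ≠ toCpl v (algebraMap M Kb h') := by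
  have hκmem : ∀ a : M, toCpl v (algebraMap M Kb a) ∈ clS v (algebraMap M Kb).fieldRange :=
    fun a => toCpl_mem_clS v _ ⟨a, rfl⟩
  obtain ⟨α, hα, α', hα', hαα, e⟩ := H.inner hG₁ Φ ((toCpl v).comp (algebraMap M Kb)) (fun x => by
      rw [h1]
      change _ = toCpl v (algebraMap M Kb (algebraMap F M x))
      rw [← IsScalarTower.algebraMap_apply])
  have hαm : α ∈ (clS v (algebraMap M Kb).fieldRange).toSubring := by
    refine (Subring.closure_le (t := (clS v (algebraMap M Kb).fieldRange).toSubring)).2 ?_ hα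
    rintro _ (⟨s, rfl⟩ | ⟨m, rfl⟩)
    · exact h2 s
    · exact hκmem m
  refine RePatch_920.no_root ((toCpl v).comp (algebraMap M Kb)) (clS v (algebraMap M Kb).fieldRange)
    ?_ n hn h h' h0 ?_ hαm hαα e
  · intro β hβ ε hε
    obtain ⟨_, ⟨a, rfl⟩, ha⟩ := exists_near v _ hβ ε hε
    exact ⟨a, ha⟩
  · rintro ⟨g, hg⟩
    refine hno ⟨g, ?_⟩
    have e1 : ‖((toCpl v).comp (algebraMap M Kb)) (h - g ^ n)‖ = v (algebraMap M Kb (h - g ^ n)) :=
      norm_toCpl v _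
    have e2 : ‖((toCpl v).comp (algebraMap M Kb)) h‖ = v (algebraMap M Kb h) := norm_toCpl v _
    rw [e1, e2] at hg
    exact_mod_cast hg

end LDiv

end Crest.Agent.R013.Khat_930
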