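import Mathlib

/-!
# Row 13, SS-LU34, part 2: a Kummer step of degree `p` inside every extension, if there are no
extensions of degree prime to `p` (pure Galois theory; helper935)
-/

open Polynomial IntermediateField

namespace Crest.Agent.R013.LU2_935

section Fin

variable {F N : Type*} [Field F] [Field N] [Algebra F N] [FiniteDimensional F N] [IsGalois F N]

lemma isPGroup_of_deg {p : ℕ} [hp : Fact p.Prime]
    (hdeg : ∀ a : N, (minpoly F a).natDegree.Coprime p → a ∈ (⊥ : IntermediateField F N)) :
    IsPGroup p (N ≃ₐ[F] N) := by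
  classical
  obtain ⟨P⟩ : Nonempty (Sylow p (N ≃ₐ[F] N)) := inferInstance
  have hidx : ¬ p ∣ (P : Subgroup (N ≃ₐ[F] N)).index := P.not_dvd_index
  have hfix : fixedField (P : Subgroup (N ≃ₐ[F] N)) = ⊥ := by
    rw [eq_bot_iff]
    intro a ha
    apply hdeg
    have h1 : Module.finrank F (fixedField (P : Subgroup (N ≃ₐ[F] N))) =
        (P : Subgroup (N ≃ₐ[F] N)).index := by
      rw [finrank_eq_fixingSubgroup_index, fixingSubgroup_fixedField]
    have h2 : (minpoly F a).natDegree ∣ Module.finrank F (fixedField (P : Subgroup (N ≃ₐ[F] N))) := by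
      have h3 : (minpoly F a).natDegree =
        (minpoly F (⟨a, ha⟩ : fixedField (P : Subgroup (N ≃ₐ[F] N)))).natDegree := by
        rw [← minpoly.algebraMap_eq (algebraMap (fixedField (P : Subgroup (N ≃ₐ[F] N))) N).injective]
        rfl
      rw [h3]
      exact minpoly.degree_dvd (Algebra.IsIntegral.isIntegral _)
    rw [h1] at h2
    rw [Nat.coprime_comm, hp.1.coprime_iff_not_dvd]
    exact fun h => hidx (h.trans h2)
  have htop : (P : Subgroup (N ≃ₐ[F] N)) = ⊤ := by
    rw [← fixingSubgroup_fixedField (P : Subgroup (N ≃ₐ[F] N)), hfix, fixingSubgroup_bot]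
  have := P.isPGroup'
  rw [htop] at this
  exact this.of_equiv Subgroup.topEquiv

theorem kummer_step_fin {p : ℕ} [hp : Fact p.Prime] (hζ : (primitiveRoots p F).Nonempty)
    (hdeg : ∀ a : N, (minpoly F a).natDegree.Coprime p → a ∈ (⊥ : IntermediateField F N))
    (L : IntermediateField F N) (hL : L ≠ ⊥) :
    ∃ α ∈ L, α ∉ (⊥ : IntermediateField F N) ∧ α ^ p ∈ (⊥ : IntermediateField F N) := by
  classical
  have hG := isPGroup_of_deg (F := F) (N := N) (p := p) hdeg
  obtain ⟨m, hm⟩ := IsPGroup.iff_card.1 hG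
  obtain ⟨n, hn⟩ := IsPGroup.iff_card.1 (hG.to_subgroup L.fixingSubgroup)
  have hU : L.fixingSubgroup ≠ ⊤ := by
    intro h
    apply hL
    rw [← IsGalois.fixedField_fixingSubgroup L, h, IsGalois.fixedField_top]
  have hlt : n < m := by
    by_contra hcon
    push Not at hcon
    apply hU
    apply Subgroup.eq_top_of_le_card
    rw [hn, hm]
    exact Nat.pow_le_pow_right hp.1.pos hcon
  obtain ⟨m', rfl⟩ : ∃ m', m = m' + 1 := ⟨m - 1, by omega⟩
  obtain ⟨K, hK, hUK⟩ := Sylow.exists_subgroup_card_pow_prime_le (G := N ≃ₐ[F] N) p (n := n) (m := m')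
    (by rw [hm]; exact pow_dvd_pow p (Nat.le_succ _)) L.fixingSubgroup hn (by omega)
  have hidx : K.index = p := by
    have h1 := K.card_mul_index
    rw [hK, hm, pow_succ] at h1
    exact Nat.eq_of_mul_eq_mul_left (pow_pos hp.1.pos m') h1
  have hnorm : K.Normal := by
    apply Subgroup.normal_of_index_eq_minFac_card
    rw [hidx, hm, Nat.pow_minFac (by omega), hp.1.minFac_eq]
  have hrank : Module.finrank F (fixedField K) = p := by
    rw [finrank_eq_fixingSubgroup_index, fixingSubgroup_fixedField, hidx]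
  have hcyc : IsCyclic Gal(fixedField K/F) := by
    have : Nat.card Gal(fixedField K/F) = p := by
      rw [IsGalois.card_aut_eq_finrank, hrank]
    exact isCyclic_of_prime_card this
  obtain ⟨α, hα1, hα2⟩ := exists_root_adjoin_eq_top_of_isCyclic F (fixedField K)
    (by rw [hrank]; exact hζ)
  rw [hrank] at hα1
  refine ⟨α, ?_, ?_, ?_⟩
  · have : fixedField K ≤ L := by
      rw [← IsGalois.fixedField_fixingSubgroup L]
      exact fixedField_antitone hUK
    exact this α.2
  · intro h
    obtain ⟨a, ha⟩ := mem_bot.1 h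
    have h1 : α = algebraMap F (fixedField K) a := Subtype.ext ha.symm
    rw [h1, adjoin_simple_eq_bot_iff.2 (IntermediateField.algebraMap_mem _ a)] at hα2
    have h2 : Module.finrank F (⊥ : IntermediateField F (fixedField K)) =
      Module.finrank F (⊤ : IntermediateField F (fixedField K)) := by rw [hα2]
    rw [IntermediateField.finrank_bot, IntermediateField.finrank_top', hrank] at h2
    exact hp.1.one_lt.ne h2
  · obtain ⟨a, ha⟩ := hα1
    rw [mem_bot]
    refine ⟨a, ?_⟩
    have := congrArg (Subtype.val) ha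
    simpa using this

end Fin

section Inf

variable {F Ω : Type*} [Field F] [Field Ω] [Algebra F Ω] [IsGalois F Ω]

theorem kummer_step {p : ℕ} [hp : Fact p.Prime] (hζ : (primitiveRoots p F).Nonempty)
    (hdeg : ∀ a : Ω, (minpoly F a).natDegree.Coprime p → a ∈ (⊥ : IntermediateField F Ω))
    (L : IntermediateField F Ω) [FiniteDimensional F L] (hL : L ≠ ⊥) :
    ∃ α ∈ L, α ∉ (⊥ : IntermediateField F Ω) ∧ α ^ p ∈ (⊥ : IntermediateField F Ω) := by
  let N := normalClosure F L Ω
  have hle : L ≤ N := by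
    simpa only [fieldRange_val] using L.val.fieldRange_le_normalClosure
  have hgal : IsGalois F N := by
    have : Algebra.IsSeparable F N := Algebra.isSeparable_tower_bot_of_isSeparable F N Ω
    exact ⟨⟩
  let L' : IntermediateField F N := restrict hle
  have hL'1 : lift L' = L := lift_restrict hle
  have hL' : L' ≠ ⊥ := by
    intro h
    rw [h, lift_bot] at hL'1
    exact hL hL'1.symm
  obtain ⟨α, h1, h2, h3⟩ := kummer_step_fin (F := F) (N := N) (p := p) hζ (by
    intro a ha
    have h4 : (minpoly F (a : Ω)).natDegree = (minpoly F a).natDegree := by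
      rw [← minpoly.algebraMap_eq (algebraMap N Ω).injective]
      rfl
    have h5 := hdeg (a : Ω) (by rw [h4]; exact ha)
    obtain ⟨b, hb⟩ := mem_bot.1 h5
    exact mem_bot.2 ⟨b, Subtype.ext hb⟩) L' hL'
  refine ⟨α, ?_, ?_, ?_⟩
  · rw [← hL'1]
    exact (mem_lift α).2 h1
  · intro h
    obtain ⟨b, hb⟩ := mem_bot.1 h
    exact h2 (mem_bot.2 ⟨b, Subtype.ext hb⟩)
  · obtain ⟨b, hb⟩ := mem_bot.1 h3
    refine mem_bot.2 ⟨b, ?_⟩
    have := congrArg Subtype.val hb
    simpa using this

end Inf

end Crest.Agent.R013.LU2_935
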