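import Mathlib
import Crest.Agent.R013.LU1_935

/-!
# Row 13, SS-LU34, part 3: immediate extensions of an algebraically closed field (helper935)
-/

open Polynomial
open scoped NNReal

namespace Crest.Agent.R013.LU3_935

open Crest.Agent.R013.LU1_935

section Basic

variable {M : Type*} [Field M] (w : Valuation M ℝ≥0)

lemma w_natCast_le_one (n : ℕ) : w (n : M) ≤ 1 := by
  induction n with
  | zero => simp
  | succ n ih => rw [Nat.cast_succ]; exact w.map_add_le ih (by simp)

lemma w_intCast_le_one (n : ℤ) : w (n : M) ≤ 1 := by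
  obtain ⟨m, rfl | rfl⟩ := n.eq_nat_or_neg
  · simpa using w_natCast_le_one w m
  · rw [Int.cast_neg, Valuation.map_neg]; simpa using w_natCast_le_one w m

/-- a natural number prime to `p` has value `1` if `w p < 1`. -/
lemma w_natCast_eq_one {p n : ℕ} (hp : w (p : M) < 1) (h : n.Coprime p) : w (n : M) = 1 := by
  refine le_antisymm (w_natCast_le_one w n) ?_
  by_contra hcon
  push Not at hcon
  have h1 : (n : ℤ) * n.gcdA p + p * n.gcdB p = 1 := by
    rw [← Nat.gcd_eq_gcd_ab, h]; rfl
  have h2 : (n : M) * (n.gcdA p : ℤ) + p * (n.gcdB p : ℤ) = 1 := by exact_mod_cast congrArg (Int.cast : ℤ → M) h1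
  have h3 : w (1 : M) < 1 := by
    rw [← h2]
    refine w.map_add_lt ?_ ?_
    · rw [map_mul]
      calc w (n : M) * w ((n.gcdA p : ℤ) : M) ≤ w (n : M) * 1 := by
            gcongr; exact w_intCast_le_one w _
        _ < 1 := by rwa [mul_one]
    · rw [map_mul]
      calc w (p : M) * w ((n.gcdB p : ℤ) : M) ≤ w (p : M) * 1 := by
            gcongr; exact w_intCast_le_one w _
        _ < 1 := by rwa [mul_one]
  simp at h3

/-- In a vanishing finite sum with a non-zero term two terms have the same maximal value. -/
lemma exists_two_max {ι : Type*} (s : Finset ι) (f : ι → M) (h0 : ∑ i ∈ s, f i = 0)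
    {j : ι} (hj : j ∈ s) (hfj : f j ≠ 0) :
    ∃ a ∈ s, ∃ b ∈ s, a ≠ b ∧ w (f a) = w (f b) ∧ f a ≠ 0 ∧ ∀ i ∈ s, w (f i) ≤ w (f a) := by
  classical
  obtain ⟨a, ha, hmax⟩ := s.exists_max_image (fun i => w (f i)) ⟨j, hj⟩
  have hfa : f a ≠ 0 := by
    intro h
    have := hmax j hj
    rw [h, map_zero] at this
    exact hfj ((Valuation.zero_iff w).1 (le_antisymm this zero_le))
  by_contra hcon
  push Not at hcon
  have h1 : ∀ i ∈ s.erase a, w (f i) < w (f a) := by
    intro i hi
    have hi' := Finset.mem_erase.1 hi
    refine lt_of_le_of_ne (hmax i hi'.2) ?_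
    intro h
    obtain ⟨b, hb, hb2⟩ := hcon a ha i hi'.2 (Ne.symm hi'.1) h.symm hfa
    exact absurd (hmax b hb) (not_le.2 hb2)
  have h2 : w (∑ i ∈ s.erase a, f i) < w (f a) := by
    apply Valuation.map_sum_lt
    · simpa using hfa
    · exact h1
  have h3 : f a = - ∑ i ∈ s.erase a, f i := by
    rw [← Finset.add_sum_erase s f ha] at h0
    exact eq_neg_of_add_eq_zero_left h0
  rw [← Valuation.map_neg, ← h3] at h2
  exact lt_irrefl _ h2

end Basic

section Imm

variable {k M : Type*} [Field k] [Field M] [Algebra k M] (w : Valuation M ℝ≥0)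

/-- `z` is approximated by a constant: `w (z - c) < w z` for some `c ∈ k`. -/
def Im (z : M) : Prop := ∃ c : k, w (z - algebraMap k M c) < w z

variable {w}

lemma Im.mul {z z' : M} (h : Im (k := k) w z) (h' : Im (k := k) w z') : Im (k := k) w (z * z') := by
  obtain ⟨c, hc⟩ := h
  obtain ⟨c', hc'⟩ := h'
  have hz : 0 < w z := lt_of_le_of_lt zero_le hc
  have hz' : 0 < w z' := lt_of_le_of_lt zero_le hc'
  refine ⟨c * c', ?_⟩
  have e : z * z' - algebraMap k M (c * c') = z * (z' - algebraMap k M c') +
      (z - algebraMap k M c) * algebraMap k M c' := by rw [map_mul]; ring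
  rw [e, map_mul]
  refine w.map_add_lt ?_ ?_
  · rw [map_mul]; exact mul_lt_mul_of_pos_left hc' hz
  · rw [map_mul, w_eq_of_sub_lt w hc']; exact mul_lt_mul_of_pos_right hc hz'

lemma Im.inv {z : M} (h : Im (k := k) w z) : Im (k := k) w z⁻¹ := by
  obtain ⟨c, hc⟩ := h
  have hz : 0 < w z := lt_of_le_of_lt zero_le hc
  have hcz := w_eq_of_sub_lt w hc
  have hz0 : z ≠ 0 := by rintro rfl; simp at hz
  have hc0 : algebraMap k M c ≠ 0 := by intro h; rw [h, map_zero] at hcz; exact hz.ne hcz
  refine ⟨c⁻¹, ?_⟩
  have e : z⁻¹ - algebraMap k M c⁻¹ = (algebraMap k M c - z) * (z⁻¹ * (algebraMap k M c)⁻¹) := by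
    rw [map_inv₀]; field_simp
  rw [e, map_mul, map_mul, map_inv₀, map_inv₀, hcz, w_sub_comm]
  calc w (z - algebraMap k M c) * ((w z)⁻¹ * (w z)⁻¹) < w z * ((w z)⁻¹ * (w z)⁻¹) :=
        mul_lt_mul_of_pos_right hc (by positivity)
    _ = (w z)⁻¹ := by field_simp

lemma Im.congr {z s : M} (h : Im (k := k) w s) (hs : w (z - s) < w z) : Im (k := k) w z := by
  obtain ⟨c, hc⟩ := h
  refine ⟨c, ?_⟩
  rw [w_eq_of_sub_lt w hs] at hc
  exact w_sub_lt w hs hc

/-- polynomials at a type 4 point are immediate -/
lemma im_aeval [IsAlgClosed k] {x : M}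
    (hx : ∀ c : k, ∃ c' : k, w (x - algebraMap k M c') < w (x - algebraMap k M c))
    (f : k[X]) (hf : f ≠ 0) : Im (k := k) w (aeval x f) := by
  have hs := IsAlgClosed.splits f
  have hfac : f = C f.leadingCoeff * (f.roots.map fun a => X - C a).prod := hs.eq_prod_roots
  have key : ∀ s : Multiset k, Im (k := k) w (aeval x (s.map fun a => X - C a).prod) := by
    intro s
    induction s using Multiset.induction_on with
    | empty => exact ⟨1, by simp⟩
    | cons a s ih =>
      rw [Multiset.map_cons, Multiset.prod_cons, map_mul]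
      refine Im.mul ?_ ih
      obtain ⟨c, hc⟩ := hx a
      refine ⟨c - a, ?_⟩
      have e : aeval x (X - C a : k[X]) - algebraMap k M (c - a) = x - algebraMap k M c := by
        simp
      rw [e]
      simpa using hc
  rw [hfac, map_mul, aeval_C]
  refine Im.mul ⟨f.leadingCoeff, ?_⟩ (key _)
  rw [sub_self, map_zero]
  have : algebraMap k M f.leadingCoeff ≠ 0 := by simpa using hf
  simpa [pos_iff_ne_zero] using this

lemma aeval_ne_zero [IsAlgClosed k] {x : M}
    (hx : ∀ c : k, ∃ c' : k, w (x - algebraMap k M c') < w (x - algebraMap k M c))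
    {f : k[X]} (hf : f ≠ 0) : aeval x f ≠ 0 := by
  obtain ⟨c, hc⟩ := im_aeval hx f hf
  intro h
  rw [h] at hc
  simp at hc

lemma im_clo [IsAlgClosed k] {x : M}
    (hx : ∀ c : k, ∃ c' : k, w (x - algebraMap k M c') < w (x - algebraMap k M c))
    {z : M} (hz : z ∈ clo w (IntermediateField.adjoin k {x})) (hz0 : z ≠ 0) :
    Im (k := k) w z := by
  have hwz : 0 < w z := by simpa [pos_iff_ne_zero] using hz0
  obtain ⟨s, hs, hzs⟩ := hz (w z) hwz
  refine Im.congr ?_ hzs
  have hs0 : s ≠ 0 := by
    rintro rfl
    rw [sub_zero] at hzs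
    exact lt_irrefl _ hzs
  rw [IntermediateField.mem_adjoin_simple_iff] at hs
  obtain ⟨f, g, rfl⟩ := hs
  have hf : f ≠ 0 := by rintro rfl; simp at hs0
  have hg : g ≠ 0 := by rintro rfl; simp at hs0
  rw [div_eq_mul_inv]
  exact (im_aeval hx f hf).mul (im_aeval hx g hg).inv

/-- **algebraic extensions of an immediate extension of an algebraically closed field are
immediate** -/
theorem im_of_algebraic [IsAlgClosed k] (H : IntermediateField k M) [Algebra.IsAlgebraic H M]
    (hH : ∀ h ∈ H, h ≠ 0 → Im (k := k) w h) (z : M) (hz : z ≠ 0) : Im (k := k) w z := by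
  classical
  -- value
  have hval : ∀ z : M, z ≠ 0 → ∃ d : k, w z = w (algebraMap k M d) := by
    intro z hz
    set P := minpoly H z with hP
    have hint : IsIntegral H z := Algebra.IsIntegral.isIntegral z
    have h0 : ∑ i ∈ Finset.range (P.natDegree + 1), (algebraMap H M (P.coeff i)) * z ^ i = 0 := by
      have := minpoly.aeval H z
      rw [aeval_eq_sum_range] at this
      simpa [Algebra.smul_def] using this
    obtain ⟨a, ha, b, hb, hab, hwab, hne, -⟩ := exists_two_max w _ _ h0
      (j := P.natDegree) (by simp) (by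
        have : P.coeff P.natDegree = 1 := (minpoly.monic hint)
        rw [this]; simpa using pow_ne_zero _ hz)
    have aux : ∀ a b : ℕ, a < b → w ((algebraMap H M (P.coeff a)) * z ^ a) =
        w ((algebraMap H M (P.coeff b)) * z ^ b) → (algebraMap H M (P.coeff a)) * z ^ a ≠ 0 →
        ∃ d : k, w z = w (algebraMap k M d) := by
      intro a b hab hw hne
      have hca : (P.coeff a : M) ≠ 0 := fun h => hne (by
        have : algebraMap H M (P.coeff a) = 0 := h
        rw [this, zero_mul])
      have hne' : (algebraMap H M (P.coeff b)) * z ^ b ≠ 0 := by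
        intro h
        rw [h, map_zero] at hw
        exact hne ((Valuation.zero_iff w).1 hw)
      have hcb : (P.coeff b : M) ≠ 0 := fun h => hne' (by
        have : algebraMap H M (P.coeff b) = 0 := h
        rw [this, zero_mul])
      obtain ⟨c, hc⟩ := (hH _ (P.coeff a).2 hca)
      obtain ⟨c', hc'⟩ := (hH _ (P.coeff b).2 hcb)
      have hc1 := w_eq_of_sub_lt w hc
      have hc1' := w_eq_of_sub_lt w hc'
      obtain ⟨e, he⟩ := IsAlgClosed.exists_pow_nat_eq (c / c') (n := b - a) (by omega)
      refine ⟨e, ?_⟩
      have hwz : 0 < w z := by simpa [pos_iff_ne_zero] using hz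
      have hwb : w (P.coeff b : M) ≠ 0 := by simpa using hcb
      have h1 : w z ^ (b - a) = w (algebraMap k M e) ^ (b - a) := by
        rw [← map_pow w (algebraMap k M e), ← map_pow (algebraMap k M), he, map_div₀ (algebraMap k M),
          map_div₀ w, hc1, hc1', eq_div_iff hwb]
        rw [map_mul, map_mul, map_pow, map_pow] at hw
        have h2 : w z ^ b = w z ^ (b - a) * w z ^ a := by rw [← pow_add]; congr 1; omega
        rw [h2] at hw
        have h3 : w z ^ a ≠ 0 := (pow_pos hwz a).ne'
        apply mul_right_cancel₀ h3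
        change w (algebraMap H M (P.coeff a)) * w z ^ a = w (algebraMap H M (P.coeff b)) * _ at hw
        calc w z ^ (b - a) * w (P.coeff b : M) * w z ^ a
            = w (P.coeff b : M) * (w z ^ (b - a) * w z ^ a) := by ring
          _ = w (P.coeff a : M) * w z ^ a := hw.symm
      exact (pow_left_inj₀ zero_le zero_le (by omega : b - a ≠ 0)).1 h1
    rcases lt_or_gt_of_ne hab with h | h
    · exact aux a b h hwab hne
    · refine aux b a h hwab.symm ?_
      intro h'
      rw [h', map_zero] at hwab
      exact hne ((Valuation.zero_iff w).1 hwab)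
  -- reduction to value 1
  obtain ⟨d, hd⟩ := hval z hz
  have hd0 : algebraMap k M d ≠ 0 := by
    intro h
    rw [h, map_zero] at hd
    exact hz ((Valuation.zero_iff w).1 hd)
  suffices h : Im (k := k) w (z / algebraMap k M d) by
    have h2 : z = (z / algebraMap k M d) * algebraMap k M d := by field_simp
    rw [h2]
    refine h.mul ⟨d, ?_⟩
    rw [sub_self, map_zero]
    simpa [pos_iff_ne_zero] using hd0
  set y := z / algebraMap k M d with hy
  have hwy : w y = 1 := by
    rw [hy, map_div₀, hd, div_self]
    simpa using hd0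
  have hy0 : y ≠ 0 := by rintro h; rw [h, map_zero] at hwy; exact zero_ne_one hwy
  set P := minpoly H y with hP
  have hint : IsIntegral H y := Algebra.IsIntegral.isIntegral y
  have hsum0 : ∑ i ∈ Finset.range (P.natDegree + 1), (algebraMap H M (P.coeff i)) * y ^ i = 0 := by
    have := minpoly.aeval H y
    rw [aeval_eq_sum_range] at this
    simpa [Algebra.smul_def] using this
  obtain ⟨a, ha, hmax⟩ := (Finset.range (P.natDegree + 1)).exists_max_image
    (fun i => w (algebraMap H M (P.coeff i))) ⟨0, by simp⟩
  have hca0 : algebraMap H M (P.coeff a) ≠ 0 := by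
    intro h
    have := hmax P.natDegree (by simp)
    have h1 : P.coeff P.natDegree = 1 := (minpoly.monic hint)
    rw [h1, h, map_zero, map_one, map_one] at this
    exact absurd this (not_le.2 zero_lt_one)
  have hwa0 : 0 < w (algebraMap H M (P.coeff a)) := by simpa [pos_iff_ne_zero] using hca0
  -- normalised coefficients
  let g : ℕ → H := fun i => P.coeff i / P.coeff a
  have hg1 : ∀ i ∈ Finset.range (P.natDegree + 1), w (algebraMap H M (g i)) ≤ 1 := by
    intro i hi
    simp only [g]
    rw [map_div₀, map_div₀]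
    exact div_le_one_of_le₀ (hmax i hi) zero_le
  have hga : g a = 1 := by
    simp only [g]
    rw [div_self]
    intro h
    rw [h, map_zero] at hca0
    exact hca0 rfl
  have hgsum : ∑ i ∈ Finset.range (P.natDegree + 1), (algebraMap H M (g i)) * y ^ i = 0 := by
    have : ∀ i, algebraMap H M (g i) * y ^ i =
        (algebraMap H M (P.coeff i) * y ^ i) * (algebraMap H M (P.coeff a))⁻¹ := by
      intro i
      simp only [g]
      rw [map_div₀]; field_simp
    simp_rw [this]
    rw [← Finset.sum_mul, hsum0, zero_mul]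
  have hch : ∀ i, ∃ c : k, w (algebraMap H M (g i)) = 1 → w (algebraMap H M (g i) - algebraMap k M c) < 1 := by
    intro i
    by_cases h : w (algebraMap H M (g i)) = 1
    · have hne : (g i : M) ≠ 0 := by
        intro h'
        have : algebraMap H M (g i) = 0 := h'
        rw [this, map_zero] at h
        exact zero_ne_one h
      obtain ⟨c, hc⟩ := hH _ (g i).2 hne
      exact ⟨c, fun _ => by
        have h2 : w (algebraMap H M (g i) - algebraMap k M c) < w (algebraMap H M (g i)) := hc
        rwa [h] at h2⟩
    · exact ⟨0, fun h' => absurd h' h⟩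
  choose c hc using hch
  let S := (Finset.range (P.natDegree + 1)).filter (fun i => w (algebraMap H M (g i)) = 1)
  let Q : k[X] := ∑ i ∈ S, monomial i (c i)
  have hcoeff : ∀ i, Q.coeff i = if i ∈ S then c i else 0 := by
    intro i
    simp only [Q, finsetSum_coeff, coeff_monomial]
    rw [Finset.sum_ite_eq' S i (fun j => c j)]
  have hci : ∀ i ∈ S, w (algebraMap k M (c i)) = 1 := by
    intro i hi
    have h1 := (Finset.mem_filter.1 hi).2
    have h2 := hc i h1
    rw [← h1] at h2
    rw [w_eq_of_sub_lt w h2, h1]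
  have haS : a ∈ S := by
    refine Finset.mem_filter.2 ⟨ha, ?_⟩
    rw [hga, map_one, map_one]
  have hQ0 : Q ≠ 0 := by
    intro h
    have h1 := hcoeff a
    rw [h, coeff_zero, if_pos haS] at h1
    have h2 := hci a haS
    rw [← h1, map_zero, map_zero] at h2
    exact zero_ne_one h2
  have hlead : w (algebraMap k M Q.leadingCoeff) = 1 := by
    have h1 : Q.natDegree ∈ S := by
      by_contra hcon
      have h2 := hcoeff Q.natDegree
      rw [if_neg hcon] at h2
      exact hQ0 (leadingCoeff_eq_zero.1 h2)
    rw [leadingCoeff, hcoeff, if_pos h1]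
    exact hci _ h1
  have hwpow : ∀ i : ℕ, w (y ^ i) = 1 := by intro i; rw [map_pow, hwy, one_pow]
  have hQy : w (aeval y Q) < 1 := by
    have h1 : aeval y Q = ∑ i ∈ S, algebraMap k M (c i) * y ^ i := by
      simp only [Q, map_sum, aeval_monomial]
    have h2 : aeval y Q = ∑ i ∈ Finset.range (P.natDegree + 1),
        (if i ∈ S then algebraMap k M (c i) - algebraMap H M (g i) else - algebraMap H M (g i)) * y ^ i := by
      have h3 : ∀ i ∈ Finset.range (P.natDegree + 1),
        (if i ∈ S then algebraMap k M (c i) - algebraMap H M (g i) else - algebraMap H M (g i)) * y ^ i =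
        (if i ∈ S then algebraMap k M (c i) * y ^ i else 0) - algebraMap H M (g i) * y ^ i := by
        intro i _
        split_ifs <;> ring
      rw [Finset.sum_congr rfl h3, Finset.sum_sub_distrib, hgsum, sub_zero, h1]
      rw [← Finset.sum_filter]
      congr 1
      ext i
      simp only [Finset.mem_filter, S]
      tauto
    rw [h2]
    apply Valuation.map_sum_lt w one_ne_zero
    intro i hi
    rw [map_mul, hwpow, mul_one]
    split_ifs with h
    · rw [w_sub_comm]
      exact hc i (Finset.mem_filter.1 h).2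
    · rw [Valuation.map_neg]
      refine lt_of_le_of_ne (hg1 i hi) ?_
      intro h'
      exact h (Finset.mem_filter.2 ⟨hi, h'⟩)
  have hs := IsAlgClosed.splits Q
  have hfac : Q = C Q.leadingCoeff * (Q.roots.map fun a => X - C a).prod := hs.eq_prod_roots
  have hprod : w (aeval y (Q.roots.map fun a => X - C a).prod) < 1 := by
    rw [hfac, map_mul, aeval_C, map_mul, hlead, one_mul] at hQy
    convert hQy using 3
    
  have hex : ∃ γ : k, w (y - algebraMap k M γ) < 1 := by
    by_contra hcon
    push Not at hcon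
    have : ∀ s : Multiset k, 1 ≤ w (aeval y (s.map fun a => X - C a).prod) := by
      intro s
      induction s using Multiset.induction_on with
      | empty => simp
      | cons a s ih =>
        rw [Multiset.map_cons, Multiset.prod_cons, map_mul, map_mul]
        have h1 : w (aeval y (X - C a : k[X])) = w (y - algebraMap k M a) := by simp
        rw [h1]
        exact one_le_mul_of_one_le_of_one_le (hcon a) ih
    exact absurd (this Q.roots) (not_le.2 hprod)
  obtain ⟨γ, hγ⟩ := hex
  exact ⟨γ, by rw [hwy]; exact hγ⟩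

end Imm

end Crest.Agent.R013.LU3_935
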