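import Mathlib

/-!
R013 / SS-LU3 (helper205), part 1.  Type 3 norms: basic lemmas on Laurent monomials, freshman's
dream estimates, value groups of finite extensions.
-/

set_option autoImplicit false

namespace Crest.Agent.R013.LU3_205

open scoped NNReal

section Basic

variable {Ω : Type*} [Field Ω] (W : Valuation Ω ℝ≥0)

/-- terms with pairwise distinct values: each term is bounded by the sum -/
theorem le_sum {ι : Type*} (s : Finset ι) (f : ι → Ω)
    (h : ∀ i ∈ s, ∀ j ∈ s, i ≠ j → f i ≠ 0 → W (f i) ≠ W (f j)) :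
    ∀ i ∈ s, W (f i) ≤ W (∑ j ∈ s, f j) := by
  classical
  intro i hi
  obtain ⟨j, hj, hmax⟩ := s.exists_max_image (fun k => W (f k)) ⟨i, hi⟩
  refine (hmax i hi).trans ?_
  by_cases h0 : f j = 0
  · rw [h0, map_zero]; exact zero_le
  refine (Valuation.map_sum_eq_of_lt W hj fun k hk => ?_).ge
  rw [Finset.mem_sdiff, Finset.mem_singleton] at hk
  exact lt_of_le_of_ne (hmax k hk.1) (h j hj k hk.1 (Ne.symm hk.2) h0).symm

theorem exists_max_term {ι : Type*} (s : Finset ι) (f : ι → Ω)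
    (h : ∀ i ∈ s, ∀ j ∈ s, i ≠ j → f i ≠ 0 → W (f i) ≠ W (f j))
    (h0 : (∑ j ∈ s, f j) ≠ 0) :
    ∃ i ∈ s, f i ≠ 0 ∧ W (∑ j ∈ s, f j) = W (f i) := by
  classical
  have hne : s.Nonempty := by
    rw [Finset.nonempty_iff_ne_empty]
    rintro rfl
    exact h0 (by simp)
  obtain ⟨j, hj, hmax⟩ := s.exists_max_image (fun k => W (f k)) hne
  have hle : W (∑ k ∈ s, f k) ≤ W (f j) := Valuation.map_sum_le W fun i hi => hmax i hi
  have hj0 : f j ≠ 0 := by
    intro hj0
    rw [hj0, map_zero, le_zero_iff] at hle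
    exact h0 ((map_eq_zero W).1 hle)
  exact ⟨j, hj, hj0, le_antisymm hle (le_sum W s f h j hj)⟩

theorem W_natCast_le (n : ℕ) : W (n : Ω) ≤ 1 := by
  induction n with
  | zero => rw [Nat.cast_zero, map_zero]; exact zero_le
  | succ n ih =>
    rw [Nat.cast_succ]
    exact Valuation.map_add_le W ih (by rw [map_one])

/-- freshman's dream with a sharp estimate -/
theorem fresh {p : ℕ} (hp : p.Prime) {x y : Ω} {M : ℝ≥0} (hx : W x ≤ M) (hy : W y ≤ M) :
    W ((x + y) ^ p - x ^ p - y ^ p) ≤ W (p : Ω) * (W x * W y) * M ^ (p - 2) := by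
  rw [add_pow_prime_eq hp]
  have e : x ^ p + y ^ p + (p : Ω) * x * y *
      ∑ k ∈ Finset.Ioo 0 p, x ^ (k - 1) * y ^ (p - k - 1) * ((p.choose k / p : ℕ) : Ω) -
      x ^ p - y ^ p = (p : Ω) * (x * y) *
      ∑ k ∈ Finset.Ioo 0 p, x ^ (k - 1) * y ^ (p - k - 1) * ((p.choose k / p : ℕ) : Ω) := by
    ring
  rw [e, map_mul, map_mul, map_mul]
  gcongr
  refine Valuation.map_sum_le W fun k hk => ?_
  rw [Finset.mem_Ioo] at hk
  rw [map_mul, map_mul, map_pow, map_pow]
  calc W x ^ (k - 1) * W y ^ (p - k - 1) * W ((p.choose k / p : ℕ) : Ω)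
      ≤ M ^ (k - 1) * M ^ (p - k - 1) * 1 := by
        gcongr
        exact W_natCast_le W _
    _ = M ^ (p - 2) := by
        rw [mul_one, ← pow_add]
        congr 1
        omega

theorem fresh' {p : ℕ} (hp : p.Prime) {x y : Ω} {M : ℝ≥0} (hx : W x ≤ M) (hy : W y ≤ M) :
    W ((x + y) ^ p - x ^ p - y ^ p) ≤ W (p : Ω) * M ^ p := by
  refine (fresh W hp hx hy).trans ?_
  have h2 : 2 ≤ p := hp.two_le
  calc W (p : Ω) * (W x * W y) * M ^ (p - 2) ≤ W (p : Ω) * (M * M) * M ^ (p - 2) := by gcongr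
    _ = W (p : Ω) * M ^ p := by
        rw [mul_assoc, ← pow_two, ← pow_add]
        congr 2
        omega

theorem fresh_sub {p : ℕ} (hp : p.Prime) {x y : Ω} {M : ℝ≥0} (hx : W x ≤ M) (hy : W y ≤ M) :
    W ((x - y) ^ p - x ^ p + y ^ p) ≤ W (p : Ω) * M ^ p := by
  have h1 := fresh' W hp (x := x - y) (y := y) (M := M) ((Valuation.map_sub W _ _).trans
    (max_le hx hy)) hy
  have e : (x - y) ^ p - x ^ p + y ^ p = -((x - y + y) ^ p - (x - y) ^ p - y ^ p) := by
    rw [sub_add_cancel]; ring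
  rw [e, Valuation.map_neg]
  exact h1

theorem fresh_sum {p : ℕ} (hp : p.Prime) {ι : Type*} (s : Finset ι) (f : ι → Ω) {M : ℝ≥0}
    (hf : ∀ i ∈ s, W (f i) ≤ M) :
    W ((∑ i ∈ s, f i) ^ p - ∑ i ∈ s, f i ^ p) ≤ W (p : Ω) * M ^ p := by
  classical
  induction s using Finset.induction_on with
  | empty => simp [hp.ne_zero]
  | insert a s ha ih =>
    rw [Finset.sum_insert ha, Finset.sum_insert ha]
    have h1 := ih fun i hi => hf i (Finset.mem_insert_of_mem hi)
    have h2 := fresh' W hp (x := f a) (y := ∑ i ∈ s, f i) (M := M)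
      (hf a (Finset.mem_insert_self _ _))
      (Valuation.map_sum_le W fun i hi => hf i (Finset.mem_insert_of_mem hi))
    have e : (f a + ∑ i ∈ s, f i) ^ p - (f a ^ p + ∑ i ∈ s, f i ^ p) =
        ((f a + ∑ i ∈ s, f i) ^ p - f a ^ p - (∑ i ∈ s, f i) ^ p) +
        ((∑ i ∈ s, f i) ^ p - ∑ i ∈ s, f i ^ p) := by ring
    rw [e]
    exact Valuation.map_add_le W h2 h1

end Basic

section Laurent

variable {C Ω : Type*} [Field C] [Field Ω] [Algebra C Ω] (W : Valuation Ω ℝ≥0)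

/-- evaluation of a Laurent polynomial at `t` -/
noncomputable def ev (t : Ω) : (ℤ →₀ C) →ₗ[C] Ω :=
  Finsupp.linearCombination C (fun n : ℤ => t ^ n)

theorem ev_apply (t : Ω) (f : ℤ →₀ C) :
    ev t f = ∑ n ∈ f.support, algebraMap C Ω (f n) * t ^ n := by
  rw [ev, Finsupp.linearCombination_apply, Finsupp.sum]
  exact Finset.sum_congr rfl fun n _ => Algebra.smul_def _ _

theorem ev_single (t : Ω) (n : ℤ) (c : C) :
    ev t (Finsupp.single n c) = algebraMap C Ω c * t ^ n := by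
  rw [ev, Finsupp.linearCombination_single, Algebra.smul_def]

/-- `t` is a type 3 element: no nontrivial power has its value in `|C^*|` -/
structure T3 (C : Type*) {Ω : Type*} [Field C] [Field Ω] [Algebra C Ω] (W : Valuation Ω ℝ≥0)
    (t : Ω) : Prop where
  ne : t ≠ 0
  tor : ∀ (n : ℤ) (c : C), W t ^ n = W (algebraMap C Ω c) → n = 0

variable {W}

theorem T3.W_ne {t : Ω} (ht : T3 C W t) : W t ≠ 0 := (Valuation.ne_zero_iff W).2 ht.ne

theorem T3.eq_of {t : Ω} (ht : T3 C W t) {m n : ℤ} {c d : C}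
    (hd : algebraMap C Ω d ≠ 0)
    (h : W (algebraMap C Ω c) * W t ^ m = W (algebraMap C Ω d) * W t ^ n) : m = n := by
  have hW := ht.W_ne
  have h1 : W t ^ (n - m) = W (algebraMap C Ω (c / d)) := by
    rw [map_div₀, map_div₀, zpow_sub₀ hW]
    have hd' : W (algebraMap C Ω d) ≠ 0 := (Valuation.ne_zero_iff W).2 hd
    have hm : W t ^ m ≠ 0 := zpow_ne_zero _ hW
    field_simp
    rw [mul_comm (W t ^ n), ← h, mul_comm]
  have := ht.tor _ _ h1
  omega

theorem T3.distinct {t : Ω} (ht : T3 C W t) (f : ℤ →₀ C) :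
    ∀ i ∈ f.support, ∀ j ∈ f.support, i ≠ j → algebraMap C Ω (f i) * t ^ i ≠ 0 →
      W (algebraMap C Ω (f i) * t ^ i) ≠ W (algebraMap C Ω (f j) * t ^ j) := by
  intro i _ j hj hij _ h
  rw [map_mul, map_mul, map_zpow₀, map_zpow₀] at h
  have hfj : algebraMap C Ω (f j) ≠ 0 :=
    (_root_.map_ne_zero _).2 (Finsupp.mem_support_iff.1 hj)
  exact hij (ht.eq_of hfj h)

theorem T3.term_le {t : Ω} (ht : T3 C W t) (f : ℤ →₀ C) (n : ℤ) :
    W (algebraMap C Ω (f n) * t ^ n) ≤ W (ev t f) := by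
  by_cases hn : n ∈ f.support
  · rw [ev_apply]
    exact le_sum W f.support _ (ht.distinct f) n hn
  · rw [Finsupp.notMem_support_iff] at hn
    rw [hn, map_zero, zero_mul, map_zero]
    exact zero_le

theorem T3.exists_term {t : Ω} (ht : T3 C W t) (f : ℤ →₀ C) (hf : ev t f ≠ 0) :
    ∃ n : ℤ, f n ≠ 0 ∧ W (ev t f) = W (algebraMap C Ω (f n)) * W t ^ n := by
  rw [ev_apply] at hf ⊢
  obtain ⟨n, hn, -, h⟩ := exists_max_term W f.support _ (ht.distinct f) hf
  exact ⟨n, Finsupp.mem_support_iff.1 hn, by rw [h, map_mul, map_zpow₀]⟩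

theorem ev_le {t : Ω} (f : ℤ →₀ C) {M : ℝ≥0}
    (h : ∀ n, W (algebraMap C Ω (f n) * t ^ n) ≤ M) : W (ev t f) ≤ M := by
  rw [ev_apply]
  exact Valuation.map_sum_le W fun n _ => h n

/-- Laurent polynomials in `t` are dense in `S` -/
structure Dn (C : Type*) {Ω : Type*} [Field C] [Field Ω] [Algebra C Ω] (W : Valuation Ω ℝ≥0)
    (S : Set Ω) (t : Ω) : Prop where
  t3 : T3 C W t
  mem : t ∈ S
  dense : ∀ f ∈ S, ∀ ε : ℝ≥0, 0 < ε → ∃ g : ℤ →₀ C, W (f - ev t g) < ε

/-- every value on `S` is the value of a monomial -/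
def VG (C : Type*) {Ω : Type*} [Field C] [Field Ω] [Algebra C Ω] (W : Valuation Ω ℝ≥0)
    (S : Set Ω) (t : Ω) : Prop :=
  ∀ f ∈ S, f ≠ 0 → ∃ (c : C) (n : ℤ), c ≠ 0 ∧ W f = W (algebraMap C Ω c) * W t ^ n

theorem Dn.vg {S : Set Ω} {t : Ω} (h : Dn C W S t) : VG C W S t := by
  intro f hf hf0
  have hW : 0 < W f := zero_lt_iff.2 ((Valuation.ne_zero_iff W).2 hf0)
  obtain ⟨g, hg⟩ := h.dense f hf (W f) hW
  have h1 : W (ev t g) = W f := by
    have := Valuation.map_eq_of_sub_lt W (x := f) (y := ev t g) (by rwa [Valuation.map_sub_swap])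
    exact this
  have h2 : ev t g ≠ 0 := by
    intro h0
    rw [h0, map_zero] at h1
    exact hW.ne h1
  obtain ⟨n, hn, h3⟩ := h.t3.exists_term g h2
  exact ⟨g n, n, hn, by rw [← h1, h3]⟩

/-- elements of value at most one are congruent to constants -/
def RES (C : Type*) {Ω : Type*} [Field C] [Field Ω] [Algebra C Ω] (W : Valuation Ω ℝ≥0)
    (S : Set Ω) : Prop :=
  ∀ f ∈ S, W f ≤ 1 → ∃ c : C, W (f - algebraMap C Ω c) < 1

theorem Dn.res {S : Set Ω} {t : Ω} (h : Dn C W S t) : RES C W S := by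
  intro f hf hf1
  obtain ⟨g, hg⟩ := h.dense f hf 1 zero_lt_one
  refine ⟨g 0, ?_⟩
  have h1 : W (ev t g) ≤ 1 := by
    have : ev t g = f - (f - ev t g) := by ring
    rw [this]
    exact (Valuation.map_sub W _ _).trans (max_le hf1 hg.le)
  have h2 : W (ev t (g - Finsupp.single 0 (g 0))) < 1 := by
    rw [ev_apply]
    refine Valuation.map_sum_lt W one_ne_zero fun n hn => ?_
    have hn0 : n ≠ 0 := by
      rintro rfl
      rw [Finsupp.mem_support_iff] at hn
      apply hn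
      rw [Finsupp.sub_apply, Finsupp.single_eq_same, sub_self]
    have hgn : (g - Finsupp.single 0 (g 0) : ℤ →₀ C) n = g n := by
      rw [Finsupp.sub_apply, Finsupp.single_apply, if_neg hn0.symm, sub_zero]
    rw [hgn]
    refine lt_of_le_of_ne ((h.t3.term_le g n).trans h1) fun h3 => ?_
    rw [map_mul, map_zpow₀] at h3
    by_cases hg0 : g n = 0
    · rw [hg0, map_zero, map_zero, zero_mul] at h3
      exact zero_ne_one h3
    · have h4 : W (algebraMap C Ω (g n)) * W t ^ n = W (algebraMap C Ω 1) * W t ^ (0 : ℤ) := by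
        rw [h3, map_one, map_one, zpow_zero, mul_one]
      exact hn0 (h.t3.eq_of (by rw [map_one]; exact one_ne_zero) h4)
  rw [map_sub, ev_single, zpow_zero, mul_one] at h2
  have : f - algebraMap C Ω (g 0) = (f - ev t g) + (ev t g - algebraMap C Ω (g 0)) := by ring
  rw [this]
  exact Valuation.map_add_lt W hg h2

end Laurent

end Crest.Agent.R013.LU3_205
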