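import Crest.Prelude.Def_SectConj

/-!
Row 13 (S0015/S0016), foundations: places of function fields are discrete; constant
extensions are unramified.
-/

set_option autoImplicit false

noncomputable section

namespace Crest.Agent.R013.Places_97

open Crest.NumberTheoryR.Sect
open scoped NNReal
open Polynomial

/-- In a vanishing finite sum with a term of nonzero value two distinct terms have the same
nonzero value. -/
lemma exists_ne_val_eq {ι R : Type*} [Ring R] (v : Valuation R ℝ≥0) (s : Finset ι) (f : ι → R)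
    (hsum : ∑ i ∈ s, f i = 0) (hne : ∃ i ∈ s, v (f i) ≠ 0) :
    ∃ i ∈ s, ∃ j ∈ s, i ≠ j ∧ v (f i) = v (f j) ∧ v (f i) ≠ 0 := by
  classical
  obtain ⟨i₀, hi₀, hi₀'⟩ := hne
  obtain ⟨j, hj, hmax⟩ := s.exists_max_image (fun i => v (f i)) ⟨i₀, hi₀⟩
  have hj0 : v (f j) ≠ 0 := by
    have := hmax i₀ hi₀
    intro h
    rw [h] at this
    exact hi₀' (le_antisymm this zero_le)
  by_contra hcon
  push Not at hcon
  have hlt : ∀ i ∈ s \ {j}, v (f i) < v (f j) := by
    intro i hi
    rw [Finset.mem_sdiff, Finset.mem_singleton] at hi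
    refine lt_of_le_of_ne (hmax i hi.1) ?_
    intro h
    exact hj0 (h ▸ hcon i hi.1 j hj hi.2 h)
  have := v.map_sum_eq_of_lt hj hlt
  rw [hsum, map_zero] at this
  exact hj0 this.symm

/-- Values on a finite extension are roots of values on the base. -/
lemma exists_pow_mem {F L : Type*} [Field F] [Field L] [Algebra F L] [FiniteDimensional F L]
    (w : Valuation L ℝ≥0) (b : L) (hb : b ≠ 0) :
    ∃ m : ℕ, 0 < m ∧ m ≤ Module.finrank F L ∧
      ∃ a : F, a ≠ 0 ∧ w b ^ m = w (algebraMap F L a) := by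
  classical
  have hint : IsIntegral F b := Algebra.IsIntegral.isIntegral b
  set P := minpoly F b with hP
  have hPb : ∑ i ∈ Finset.range (P.natDegree + 1), algebraMap F L (P.coeff i) * b ^ i = 0 := by
    rw [← minpoly.aeval F b, ← hP, Polynomial.aeval_eq_sum_range]
    simp [Algebra.smul_def]
  have hex : ∃ i ∈ Finset.range (P.natDegree + 1),
      w (algebraMap F L (P.coeff i) * b ^ i) ≠ 0 := by
    refine ⟨P.natDegree, by simp, ?_⟩
    have : P.coeff P.natDegree = 1 := (minpoly.monic hint).coeff_natDegree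
    rw [this]
    simp [hb]
  obtain ⟨i, hi, j, hj, hij, heq, hne⟩ := exists_ne_val_eq w _ _ hPb hex
  have hdeg : P.natDegree ≤ Module.finrank F L := minpoly.natDegree_le b
  -- wlog i < j
  have key : ∀ i j : ℕ, i ∈ Finset.range (P.natDegree + 1) → j ∈ Finset.range (P.natDegree + 1) →
      i < j → w (algebraMap F L (P.coeff i) * b ^ i) = w (algebraMap F L (P.coeff j) * b ^ j) →
      w (algebraMap F L (P.coeff i) * b ^ i) ≠ 0 →
      ∃ m : ℕ, 0 < m ∧ m ≤ Module.finrank F L ∧
      ∃ a : F, a ≠ 0 ∧ w b ^ m = w (algebraMap F L a) := by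
    intro i j hi hj hij heq hne
    refine ⟨j - i, by omega, ?_, P.coeff i / P.coeff j, ?_, ?_⟩
    · rw [Finset.mem_range] at hj
      omega
    · intro h
      rw [div_eq_zero_iff] at h
      rcases h with h | h
      · rw [h] at hne; simp at hne
      · rw [heq, h] at hne; simp at hne
    · have hcj : w (algebraMap F L (P.coeff j)) ≠ 0 := by
        intro h
        rw [heq, map_mul, h] at hne; simp at hne
      have hwb : w b ≠ 0 := by simpa using hb
      rw [map_div₀, map_div₀, eq_div_iff hcj]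
      have h1 : w (algebraMap F L (P.coeff i)) * w b ^ i
          = w (algebraMap F L (P.coeff j)) * w b ^ j := by
        simpa using heq
      have h2 : w b ^ j = w b ^ (j - i) * w b ^ i := by
        rw [← pow_add]; congr 1; omega
      rw [h2] at h1
      have h3 := mul_right_cancel₀ (pow_ne_zero i hwb)
        (h1.trans (by ring : w (algebraMap F L (P.coeff j)) * (w b ^ (j - i) * w b ^ i)
          = (w b ^ (j - i) * w (algebraMap F L (P.coeff j))) * w b ^ i))
      exact h3.symm
  rcases lt_or_gt_of_ne hij with h | h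
  · exact key i j hi hj h heq hne
  · exact key j i hj hi h heq.symm (heq ▸ hne)

/-- A valuation trivial on `k` is trivial on elements algebraic over `k`. -/
lemma val_eq_one_of_isAlgebraic {k F : Type*} [Field k] [Field F] [Algebra k F]
    (v : Valuation F ℝ≥0) (hv : ∀ c : k, c ≠ 0 → v (algebraMap k F c) = 1)
    {x : F} (hx : x ≠ 0) (hxa : IsIntegral k x) : v x = 1 := by
  classical
  have : FiniteDimensional k (IntermediateField.adjoin k {x}) :=
    IntermediateField.adjoin.finiteDimensional hxa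
  let xx : IntermediateField.adjoin k {x} := ⟨x, IntermediateField.mem_adjoin_simple_self k x⟩
  obtain ⟨m, hm, -, a, ha, hax⟩ := exists_pow_mem (F := k)
    (v.comap (algebraMap (IntermediateField.adjoin k {x}) F)) xx
    (by intro h; exact hx (congrArg Subtype.val h))
  have h1 : v x ^ m = 1 := by
    have := hv a ha
    rw [← this]
    exact hax
  exact (pow_eq_one_iff_of_nonneg zero_le hm.ne').mp h1

/-- Places of the rational function field have a uniformizing element. -/
lemma ratFunc_exists_zpow {k : Type*} [Field k] (v : Valuation (RatFunc k) ℝ≥0)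
    (hv : IsPlace k v) :
    ∃ π : RatFunc k, v π ≠ 0 ∧ v π < 1 ∧ ∀ f : RatFunc k, f ≠ 0 → ∃ z : ℤ, v f = v π ^ z := by
  classical
  have htriv : v.IsTrivialOn k := ⟨fun a ha => hv.1 a ha⟩
  have hnt : v.IsNontrivial := by
    obtain ⟨a, ha0, ha1⟩ := hv.2
    exact ⟨a, ha0, ha1⟩
  rcases lt_or_ge 1 (v RatFunc.X) with h | h
  · refine ⟨RatFunc.X⁻¹, ?_, ?_, ?_⟩
    · simp [RatFunc.X_ne_zero]
    · rw [map_inv₀]
      exact inv_lt_one_of_one_lt₀ h
    · intro f hf
      refine ⟨-f.intDegree, ?_⟩
      rw [RatFunc.valuation_eq_valuation_X_zpow_intDegree_of_one_lt_valuation_X h hf, map_inv₀,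
        inv_zpow', neg_neg]
  · refine ⟨((RatFunc.uniformizingPolynomial h : k[X]) : RatFunc k), ?_, ?_, ?_⟩
    · simpa using RatFunc.uniformizingPolynomial_ne_zero h
    · exact RatFunc.valuation_uniformizingPolynomial_lt_one h
    · intro f hf
      exact RatFunc.exists_zpow_uniformizingPolynomial h hf

/-- Places of function fields have a uniformizing element. -/
lemma exists_uniformizer {k : Type*} [Field k] {L : Type*} [Field L] [Algebra k L]
    [Algebra (RatFunc k) L] [IsScalarTower k (RatFunc k) L] [FiniteDimensional (RatFunc k) L]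
    (w : Valuation L ℝ≥0) (hw : IsPlace k w) :
    ∃ t : L, w t ≠ 0 ∧ w t < 1 ∧ ∀ a : L, w a < 1 → w a ≤ w t := by
  classical
  set v : Valuation (RatFunc k) ℝ≥0 := w.comap (algebraMap (RatFunc k) L) with hvdef
  have hvapp : ∀ f, v f = w (algebraMap (RatFunc k) L f) := fun f => rfl
  have hvplace : IsPlace k v := by
    refine ⟨fun c hc => ?_, ?_⟩
    · rw [hvapp, ← IsScalarTower.algebraMap_apply]
      exact hw.1 c hc
    · obtain ⟨b, hb0, hb1⟩ := hw.2
      have hb : b ≠ 0 := by
        intro h; rw [h] at hb0; simp at hb0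
      obtain ⟨m, hm, -, a, ha, hax⟩ := exists_pow_mem (F := RatFunc k) w b hb
      refine ⟨a, ?_, ?_⟩
      · rw [hvapp, ← hax]
        exact pow_ne_zero _ hb0
      · rw [hvapp, ← hax]
        intro h
        exact hb1 ((pow_eq_one_iff_of_nonneg zero_le hm.ne').mp h)
  obtain ⟨π, hπ0, hπ1, hπ⟩ := ratFunc_exists_zpow v hvplace
  set ρ : ℝ≥0 := v π with hρ
  set N : ℕ := (Module.finrank (RatFunc k) L).factorial with hN
  have hNpos : 0 < N := Nat.factorial_pos _
  -- every N-th power of a value is an integral power of ρ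
  have hpow : ∀ a : L, a ≠ 0 → ∃ z : ℤ, w a ^ N = ρ ^ z := by
    intro a ha
    obtain ⟨m, hm, hmn, a', ha', hax⟩ := exists_pow_mem (F := RatFunc k) w a ha
    obtain ⟨z, hz⟩ := hπ a' ha'
    obtain ⟨q, hq⟩ : m ∣ N := Nat.dvd_factorial hm hmn
    refine ⟨z * q, ?_⟩
    rw [hq, pow_mul, hax, ← hvapp, hz, zpow_mul, zpow_natCast]
  have hρlt : ∀ z : ℤ, ρ ^ z < 1 → 0 < z := by
    intro z hz
    by_contra hcon
    push Not at hcon
    have : (1 : ℝ≥0) ≤ ρ ^ z := by
      have h1 : ρ ^ (0 : ℤ) ≤ ρ ^ z :=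
        (zpow_le_zpow_iff_right_of_lt_one₀ (pos_iff_ne_zero.mpr hπ0) hπ1).mpr hcon
      simpa using h1
    exact absurd hz (not_lt.mpr this)
  have hex : ∃ n : ℕ, 0 < n ∧ ∃ a : L, w a ^ N = ρ ^ n := by
    refine ⟨N, hNpos, algebraMap (RatFunc k) L π, ?_⟩
    rw [← hvapp]
  obtain ⟨hn0, t, ht⟩ := Nat.find_spec hex
  set n₀ := Nat.find hex with hn₀
  refine ⟨t, ?_, ?_, ?_⟩
  · intro h
    rw [h, zero_pow hNpos.ne'] at ht
    exact (pow_ne_zero n₀ hπ0) ht.symm
  · by_contra hcon
    push Not at hcon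
    have h1 : (1 : ℝ≥0) ≤ w t ^ N := one_le_pow₀ hcon
    rw [ht] at h1
    have h2 : ρ ^ n₀ < 1 := pow_lt_one₀ zero_le hπ1 hn0.ne'
    exact absurd h2 (not_lt.mpr h1)
  · intro a ha
    rcases eq_or_ne a 0 with rfl | ha0
    · simp
    obtain ⟨z, hz⟩ := hpow a ha0
    have hz0 : 0 < z := by
      apply hρlt
      rw [← hz]
      exact pow_lt_one₀ zero_le ha hNpos.ne'
    lift z to ℕ using hz0.le
    have hz0' : 0 < z := by exact_mod_cast hz0
    rw [zpow_natCast] at hz
    have hle : n₀ ≤ z := Nat.find_min' hex ⟨hz0', a, hz⟩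
    have : w a ^ N ≤ w t ^ N := by
      rw [hz, ht]
      exact pow_le_pow_of_le_one zero_le hπ1.le hle
    exact le_of_pow_le_pow_left₀ hNpos.ne' zero_le this

/-! ### Simple extensions with unit derivative are unramified -/

section Simple

variable {K L : Type*} [Field K] [Field L] [Algebra K L] (w : Valuation L ℝ≥0)

/-- The valuation ring of the restriction of `w` to `K`. -/
abbrev OO (w : Valuation L ℝ≥0) : Subring K := (w.comap (algebraMap K L)).integer

/-- The inclusion of the valuation ring of `K` in `L`. -/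
abbrev ee (w : Valuation L ℝ≥0) : (OO (K := K) w) →+* L :=
  (algebraMap K L).comp (OO (K := K) w).subtype

lemma w_ee_le (a : OO (K := K) w) : w (ee w a) ≤ 1 := a.2

lemma w_eval_le (c : L) (hc : w c ≤ 1) (p : (OO (K := K) w)[X]) :
    w (p.eval₂ (ee w) c) ≤ 1 := by
  rw [eval₂_eq_sum_range]
  refine w.map_sum_le fun i _ => ?_
  rw [map_mul, map_pow]
  exact mul_le_one₀ (w_ee_le w _) zero_le (pow_le_one₀ zero_le hc)

lemma coeff_lt_one (c : L) (hc : w c ≤ 1) (d : ℕ)
    (hmin : ∀ H : (OO (K := K) w)[X], H.Monic → w (H.eval₂ (ee w) c) < 1 → d ≤ H.natDegree) :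
    ∀ (n : ℕ) (r : (OO (K := K) w)[X]), r.support.card ≤ n → w (r.eval₂ (ee w) c) < 1 →
      (r = 0 ∨ r.natDegree < d) → ∀ i, w (ee w (r.coeff i)) < 1 := by
  intro n
  induction n with
  | zero =>
    intro r hr _ _ i
    have : r = 0 := by simpa using hr
    rw [this]; simp
  | succ n ih =>
    intro r hr hrw hrd i
    rcases eq_or_ne r 0 with h0 | h0
    · rw [h0]; simp
    have hrd' : r.natDegree < d := hrd.resolve_left h0
    set a := r.leadingCoeff with ha
    have ha0 : a ≠ 0 := by simpa [ha] using h0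
    have ha1 : w (ee w a) < 1 := by
      by_contra hcon
      have ha1 : w (ee w a) = 1 := le_antisymm (w_ee_le w a) (not_lt.mp hcon)
      -- the inverse of a in OO
      have hainv : (w.comap (algebraMap K L)) ((a : K)⁻¹) ≤ 1 := by
        rw [map_inv₀]
        have : (w.comap (algebraMap K L)) (a : K) = 1 := ha1
        rw [this]; simp
      let a' : OO (K := K) w := ⟨(a : K)⁻¹, hainv⟩
      have haa : a' * a = 1 := by
        apply Subtype.ext
        change (a : K)⁻¹ * (a : K) = 1
        rw [inv_mul_cancel₀]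
        intro h
        exact ha0 (Subtype.ext h)
      have hmon : (C a' * r).Monic := by
        rw [Polynomial.Monic, Polynomial.leadingCoeff_mul, Polynomial.leadingCoeff_C, ← ha, haa]
      have hdeg : (C a' * r).natDegree ≤ r.natDegree := Polynomial.natDegree_C_mul_le _ _
      have hw : w ((C a' * r).eval₂ (ee w) c) < 1 := by
        rw [Polynomial.eval₂_mul, Polynomial.eval₂_C, map_mul]
        exact mul_lt_one_of_nonneg_of_lt_one_right (w_ee_le w _) zero_le hrw
      have := hmin _ hmon hw
      omega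
    have hdec : r.eval₂ (ee w) c = r.eraseLead.eval₂ (ee w) c + ee w a * c ^ r.natDegree := by
      conv_lhs => rw [← Polynomial.eraseLead_add_monomial_natDegree_leadingCoeff r]
      rw [Polynomial.eval₂_add, Polynomial.eval₂_monomial]
    have hlt : w (r.eraseLead.eval₂ (ee w) c) < 1 := by
      have h1 : r.eraseLead.eval₂ (ee w) c = r.eval₂ (ee w) c - ee w a * c ^ r.natDegree := by
        rw [hdec]; ring
      rw [h1]
      refine w.map_sub_lt hrw ?_
      rw [map_mul, map_pow]
      exact mul_lt_one_of_nonneg_of_lt_one_left zero_le ha1 (pow_le_one₀ zero_le hc)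
    by_cases hi : i = r.natDegree
    · rw [hi]; exact ha1
    · have hcard : r.eraseLead.support.card ≤ n := by
        have := Polynomial.card_support_eraseLead_add_one h0
        omega
      have := ih r.eraseLead hcard hlt (by
        rcases eq_or_ne r.eraseLead 0 with h | h
        · exact Or.inl h
        · right
          exact lt_of_le_of_lt (Polynomial.eraseLead_natDegree_le_aux) hrd') i
      rwa [Polynomial.eraseLead_coeff_of_ne _ hi] at this

/-- Division by a minimal monic residual polynomial modulo the uniformizer. -/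
lemma exists_decomp (c : L) (hc : w c ≤ 1) (t : OO (K := K) w)
    (ht0 : w (ee w t) ≠ 0)
    (ht : ∀ a : OO (K := K) w, w (ee w a) < 1 → w (ee w a) ≤ w (ee w t))
    (H : (OO (K := K) w)[X]) (hH : H.Monic) (hHw : w (H.eval₂ (ee w) c) < 1)
    (hmin : ∀ H' : (OO (K := K) w)[X], H'.Monic → w (H'.eval₂ (ee w) c) < 1 →
      H.natDegree ≤ H'.natDegree)
    (g : (OO (K := K) w)[X]) (hg : w (g.eval₂ (ee w) c) < 1) :
    ∃ q r : (OO (K := K) w)[X], g = H * q + C t * r := by
  have hH1 : H ≠ 1 := by
    rintro rfl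
    rw [Polynomial.eval₂_one, map_one] at hHw
    exact lt_irrefl _ hHw
  have hmod : w ((g %ₘ H).eval₂ (ee w) c) < 1 := by
    have h1 : (g %ₘ H).eval₂ (ee w) c
        = g.eval₂ (ee w) c - H.eval₂ (ee w) c * (g /ₘ H).eval₂ (ee w) c := by
      rw [← Polynomial.eval₂_mul, eq_sub_iff_add_eq, ← Polynomial.eval₂_add,
        Polynomial.modByMonic_add_div g H]
    rw [h1]
    refine w.map_sub_lt hg ?_
    rw [map_mul]
    exact mul_lt_one_of_nonneg_of_lt_one_left zero_le hHw (w_eval_le w c hc _)
  have hcoef := coeff_lt_one w c hc H.natDegree hmin _ (g %ₘ H) le_rfl hmod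
    (Or.inr (Polynomial.natDegree_modByMonic_lt g hH hH1))
  have hdvd : C t ∣ (g %ₘ H) := by
    rw [Polynomial.C_dvd_iff_dvd_coeff]
    intro i
    have h1 := ht _ (hcoef i)
    have h2 : (w.comap (algebraMap K L)) (((g %ₘ H).coeff i : K) / (t : K)) ≤ 1 := by
      rw [map_div₀]
      exact div_le_one_of_le₀ h1 zero_le
    refine ⟨⟨_, h2⟩, ?_⟩
    apply Subtype.ext
    change ((g %ₘ H).coeff i : K) = (t : K) * (((g %ₘ H).coeff i : K) / (t : K))
    rw [mul_div_cancel₀]
    intro h
    apply ht0
    have : t = 0 := Subtype.ext h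
    rw [this]; simp
  obtain ⟨r, hr⟩ := hdvd
  refine ⟨g /ₘ H, r, ?_⟩
  rw [← hr, add_comm, Polynomial.modByMonic_add_div g H]

/-- A simple extension generated by a root of an integral monic polynomial with unit derivative
at the root does not enlarge the (discrete) value group. -/
lemma exists_val_eq_pow (c : L) (hc : w c ≤ 1) (t : OO (K := K) w)
    (ht0 : w (ee w t) ≠ 0) (ht1 : w (ee w t) < 1)
    (ht : ∀ a : OO (K := K) w, w (ee w a) < 1 → w (ee w a) ≤ w (ee w t))
    (f : (OO (K := K) w)[X]) (hfm : f.Monic) (hf : f.eval₂ (ee w) c = 0)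
    (hf' : w (f.derivative.eval₂ (ee w) c) = 1)
    (g : (OO (K := K) w)[X]) (hg : g.eval₂ (ee w) c ≠ 0) :
    ∃ j : ℕ, w (g.eval₂ (ee w) c) = w (ee w t) ^ j := by
  classical
  -- minimal monic residual polynomial
  have hex : ∃ n : ℕ, ∃ H : (OO (K := K) w)[X], H.Monic ∧ w (H.eval₂ (ee w) c) < 1 ∧
      H.natDegree = n := ⟨f.natDegree, f, hfm, by rw [hf]; simp, rfl⟩
  obtain ⟨H, hH, hHw, hHn⟩ := Nat.find_spec hex
  have hmin : ∀ H' : (OO (K := K) w)[X], H'.Monic → w (H'.eval₂ (ee w) c) < 1 →
      H.natDegree ≤ H'.natDegree := by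
    intro H' h1 h2
    rw [hHn]
    exact Nat.find_min' hex ⟨H', h1, h2, rfl⟩
  obtain ⟨F₂, S, hFS⟩ := exists_decomp w c hc t ht0 ht H hH hHw hmin f (by rw [hf]; simp)
  have hF₂ : w (F₂.eval₂ (ee w) c) = 1 := by
    refine le_antisymm (w_eval_le w c hc _) ?_
    by_contra hcon
    push Not at hcon
    have h1 : w (f.derivative.eval₂ (ee w) c) < 1 := by
      rw [hFS]
      simp only [Polynomial.derivative_add, Polynomial.derivative_mul, Polynomial.derivative_C,
        zero_mul, zero_add, Polynomial.eval₂_add, Polynomial.eval₂_mul, Polynomial.eval₂_C]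
      refine w.map_add_lt (w.map_add_lt ?_ ?_) ?_
      · rw [map_mul]
        exact mul_lt_one_of_nonneg_of_lt_one_right (w_eval_le w c hc _) zero_le hcon
      · rw [map_mul]
        exact mul_lt_one_of_nonneg_of_lt_one_left zero_le hHw (w_eval_le w c hc _)
      · rw [map_mul]
        exact mul_lt_one_of_nonneg_of_lt_one_left zero_le ht1 (w_eval_le w c hc _)
    rw [hf'] at h1
    exact lt_irrefl _ h1
  -- descent
  have hstep : ∀ g : (OO (K := K) w)[X], w (g.eval₂ (ee w) c) < 1 →
      ∃ g' : (OO (K := K) w)[X], w (g.eval₂ (ee w) c) = w (ee w t) * w (g'.eval₂ (ee w) c) := by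
    intro g hg
    obtain ⟨q, r, hqr⟩ := exists_decomp w c hc t ht0 ht H hH hHw hmin g hg
    refine ⟨r * F₂ - S * q, ?_⟩
    have hf0 : H.eval₂ (ee w) c * F₂.eval₂ (ee w) c + ee w t * S.eval₂ (ee w) c = 0 := by
      have := hf
      rw [hFS] at this
      simpa [Polynomial.eval₂_add, Polynomial.eval₂_mul, Polynomial.eval₂_C] using this
    have hg1 : g.eval₂ (ee w) c = H.eval₂ (ee w) c * q.eval₂ (ee w) c
        + ee w t * r.eval₂ (ee w) c := by
      rw [hqr]
      simp [Polynomial.eval₂_add, Polynomial.eval₂_mul, Polynomial.eval₂_C]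
    have h2 : g.eval₂ (ee w) c * F₂.eval₂ (ee w) c
        = ee w t * (r * F₂ - S * q).eval₂ (ee w) c := by
      rw [hg1, Polynomial.eval₂_sub, Polynomial.eval₂_mul, Polynomial.eval₂_mul]
      linear_combination (q.eval₂ (ee w) c) * hf0
    have h3 := congrArg w h2
    rw [map_mul, map_mul, hF₂, mul_one] at h3
    exact h3
  have hind : ∀ (N : ℕ) (g : (OO (K := K) w)[X]), w (ee w t) ^ N < w (g.eval₂ (ee w) c) →
      ∃ j : ℕ, w (g.eval₂ (ee w) c) = w (ee w t) ^ j := by
    intro N
    induction N with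
    | zero =>
      intro g hg
      rw [pow_zero] at hg
      exact absurd hg (not_lt.mpr (w_eval_le w c hc _))
    | succ N ih =>
      intro g hg
      rcases lt_or_eq_of_le (w_eval_le w c hc g) with h | h
      · obtain ⟨g', hg'⟩ := hstep g h
        have : w (ee w t) ^ N < w (g'.eval₂ (ee w) c) := by
          rw [hg', pow_succ'] at hg
          exact lt_of_mul_lt_mul_left hg zero_le
        obtain ⟨j, hj⟩ := ih g' this
        exact ⟨j + 1, by rw [hg', hj, pow_succ']⟩
      · exact ⟨0, by rw [h, pow_zero]⟩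
  have hgw : 0 < w (g.eval₂ (ee w) c) := pos_iff_ne_zero.mpr (by simpa using hg)
  obtain ⟨N, hN⟩ := exists_pow_lt_of_lt_one hgw ht1
  exact hind N g hN

end Simple

/-- Constant extensions do not enlarge the value group at a discrete place. -/
lemma exists_val_eq_of_const {k K L : Type*} [Field k] [CharZero k] [Field K] [Field L]
    [Algebra k K] [Algebra K L] [Algebra k L] [IsScalarTower k K L]
    (w : Valuation L ℝ≥0) (hw : ∀ c : k, c ≠ 0 → w (algebraMap k L c) = 1)
    (t : K) (ht0 : w (algebraMap K L t) ≠ 0) (ht1 : w (algebraMap K L t) < 1)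
    (ht : ∀ a : K, w (algebraMap K L a) < 1 → w (algebraMap K L a) ≤ w (algebraMap K L t))
    (c : L) (hc : IsIntegral k c) (b : L) (hb : b ≠ 0)
    (hbc : ∃ g : K[X], b = aeval c g) :
    ∃ a : K, w b = w (algebraMap K L a) := by
  classical
  have hwk : ∀ x : L, IsIntegral k x → w x ≤ 1 := by
    intro x hx
    rcases eq_or_ne x 0 with rfl | h
    · simp
    · exact (val_eq_one_of_isAlgebraic w hw h hx).le
  have hwk' : ∀ x : k, (w.comap (algebraMap K L)) (algebraMap k K x) ≤ 1 := by
    intro x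
    change w (algebraMap K L (algebraMap k K x)) ≤ 1
    rw [← IsScalarTower.algebraMap_apply]
    exact hwk _ isIntegral_algebraMap
  -- the ring hom k → OO
  let ι : k →+* OO (K := K) w := (algebraMap k K).codRestrict _ hwk'
  have hι : (ee w).comp ι = algebraMap k L := by
    ext x
    change algebraMap K L (algebraMap k K x) = _
    rw [← IsScalarTower.algebraMap_apply]
  set f₀ := minpoly k c with hf₀
  let f : (OO (K := K) w)[X] := f₀.map ι
  have hf : f.eval₂ (ee w) c = 0 := by
    change (f₀.map ι).eval₂ (ee w) c = 0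
    rw [Polynomial.eval₂_map, hι]
    exact minpoly.aeval k c
  have hfm : f.Monic := (minpoly.monic hc).map _
  have hf' : w (f.derivative.eval₂ (ee w) c) = 1 := by
    change w ((f₀.map ι).derivative.eval₂ (ee w) c) = 1
    rw [Polynomial.derivative_map, Polynomial.eval₂_map, hι]
    apply val_eq_one_of_isAlgebraic w hw
    · have hsep : f₀.Separable := (minpoly.irreducible hc).separable
      exact hsep.aeval_derivative_ne_zero (minpoly.aeval k c)
    · rw [← Polynomial.aeval_def]
      exact adjoin_le_integralClosure hc (Polynomial.aeval_mem_adjoin_singleton k c)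
  let t' : OO (K := K) w := ⟨t, ht1.le⟩
  obtain ⟨g, hg⟩ := hbc
  -- scale g
  obtain ⟨N, hN⟩ : ∃ N : ℕ, ∀ i, w (algebraMap K L (t ^ N * g.coeff i)) ≤ 1 := by
    have h1 : ∀ i, ∃ N : ℕ, ∀ M, N ≤ M → w (algebraMap K L (t ^ M * g.coeff i)) ≤ 1 := by
      intro i
      rcases eq_or_ne (g.coeff i) 0 with h | h
      · exact ⟨0, fun M _ => by rw [h]; simp⟩
      · have hpos : 0 < (w (algebraMap K L (g.coeff i)))⁻¹ := by
          rw [inv_pos]
          exact pos_iff_ne_zero.mpr (by simpa using h)
        obtain ⟨N, hN⟩ := exists_pow_lt_of_lt_one hpos ht1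
        refine ⟨N, fun M hM => ?_⟩
        rw [map_mul, map_pow, map_mul, map_pow]
        have h2 : w (algebraMap K L t) ^ M ≤ w (algebraMap K L t) ^ N :=
          pow_le_pow_of_le_one zero_le ht1.le hM
        calc w (algebraMap K L t) ^ M * w (algebraMap K L (g.coeff i))
            ≤ (w (algebraMap K L (g.coeff i)))⁻¹ * w (algebraMap K L (g.coeff i)) := by
              gcongr
              exact h2.trans hN.le
          _ ≤ 1 := by
              rw [inv_mul_cancel₀]
              simpa using h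
    choose N hN using h1
    refine ⟨(Finset.range (g.natDegree + 1)).sup N, fun i => ?_⟩
    by_cases hi : i ≤ g.natDegree
    · exact hN i _ (Finset.le_sup (f := N) (by simpa using Nat.lt_succ_of_le hi))
    · rw [Polynomial.coeff_eq_zero_of_natDegree_lt (not_le.mp hi)]
      simp
  let G : K[X] := C (t ^ N) * g
  have hGc : (↑G.coeffs : Set K) ⊆ OO (K := K) w := by
    intro x hx
    rw [Finset.mem_coe, Polynomial.mem_coeffs_iff] at hx
    obtain ⟨i, -, rfl⟩ := hx
    change w (algebraMap K L (G.coeff i)) ≤ 1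
    rw [Polynomial.coeff_C_mul]
    exact hN i
  let G' : (OO (K := K) w)[X] := G.toSubring _ hGc
  have hG' : G'.eval₂ (ee w) c = algebraMap K L t ^ N * b := by
    have h1 : G'.map (OO (K := K) w).subtype = G := Polynomial.map_toSubring _ _ _
    have h2 : G'.eval₂ (ee w) c = (G'.map (OO (K := K) w).subtype).eval₂ (algebraMap K L) c := by
      rw [Polynomial.eval₂_map]
    rw [h2, h1, ← Polynomial.aeval_def]
    simp [G, hg]
  have hne : G'.eval₂ (ee w) c ≠ 0 := by
    rw [hG']
    refine mul_ne_zero (pow_ne_zero _ ?_) hb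
    intro h
    rw [h] at ht0; simp at ht0
  obtain ⟨j, hj⟩ := exists_val_eq_pow w c (hwk c hc) t' ht0 ht1 (fun a ha => ht a ha)
    f hfm hf hf' G' hne
  refine ⟨t ^ j / t ^ N, ?_⟩
  rw [hG', map_mul, map_pow] at hj
  rw [map_div₀, map_div₀, map_pow, map_pow, map_pow, map_pow, eq_div_iff (pow_ne_zero _ ht0),
    mul_comm, hj]
  rfl

end Crest.Agent.R013.Places_97
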