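import Mathlib
import Crest.Agent.R013.Hens3_899
import Crest.Agent.R013.Places_97
import Crest.Agent.R013.LU3a_205

/-!
R013 / SS-LU3 (helper205), part 2.  Finite extensions of a field `F` in which the Laurent polynomials
in a type 3 element are dense: residues, generators of the value group, `e = degree` implies
density, tame case.
-/

set_option autoImplicit false
set_option linter.unusedSectionVars false

namespace Crest.Agent.R013.LU3_205

open scoped NNReal
open Polynomial Crest.Agent.R013.Hens_899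

variable {C F Ω : Type*} [Field C] [Field F] [Field Ω] [Algebra C F] [Algebra F Ω] [Algebra C Ω]
  [IsScalarTower C F Ω] {W : Valuation Ω ℝ≥0}

/-- residues of algebraic elements are constants -/
theorem res_alg [IsAlgClosed C] {t : Ω} (hD : Dn C W (Set.range (algebraMap F Ω)) t) {u : Ω}
    (hu : IsIntegral F u) (hu1 : W u ≤ 1) : ∃ c : C, W (u - algebraMap C Ω c) < 1 := by
  classical
  by_contra hcon
  push Not at hcon
  set Q := minpoly F u with hQ
  have hQ0 : Q ≠ 0 := minpoly.ne_zero hu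
  have hne : (Finset.range (Q.natDegree + 1)).Nonempty := ⟨0, by simp⟩
  obtain ⟨i₀, hi₀, hmax⟩ := (Finset.range (Q.natDegree + 1)).exists_max_image
    (fun i => W (algebraMap F Ω (Q.coeff i))) hne
  have hpos : W (algebraMap F Ω (Q.coeff i₀)) ≠ 0 := by
    intro h0
    have h1 := hmax Q.natDegree (by simp)
    rw [h0, le_zero_iff, map_eq_zero W, _root_.map_eq_zero, coeff_natDegree,
      leadingCoeff_eq_zero] at h1
    exact hQ0 h1
  set m : Ω := algebraMap F Ω (Q.coeff i₀) with hm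
  have hm0 : m ≠ 0 := (Valuation.ne_zero_iff W).1 hpos
  -- normalised coefficients
  have hN1 : ∀ i, W (algebraMap F Ω (Q.coeff i) / m) ≤ 1 := by
    intro i
    rw [map_div₀, div_le_one₀ (zero_lt_iff.2 hpos)]
    by_cases hi : i ∈ Finset.range (Q.natDegree + 1)
    · exact hmax i hi
    · rw [Finset.mem_range, not_lt] at hi
      rw [coeff_eq_zero_of_natDegree_lt (by omega), map_zero, map_zero]
      exact zero_le
  have hd : ∀ i, ∃ d : C, W (algebraMap F Ω (Q.coeff i) / m - algebraMap C Ω d) < 1 ∧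
      (W (algebraMap F Ω (Q.coeff i) / m) < 1 → d = 0) := by
    intro i
    by_cases h1 : W (algebraMap F Ω (Q.coeff i) / m) < 1
    · exact ⟨0, by rwa [map_zero, sub_zero], fun _ => rfl⟩
    · obtain ⟨d, hd⟩ := hD.res (algebraMap F Ω (Q.coeff i) / m)
        ⟨Q.coeff i / Q.coeff i₀, by rw [map_div₀]⟩ (hN1 i)
      exact ⟨d, hd, fun h => absurd h h1⟩
  choose d hd1 hd2 using hd
  set D : C[X] := ∑ i ∈ Finset.range (Q.natDegree + 1), Polynomial.C (d i) * X ^ i with hDdef
  have hDcoeff : ∀ i ∈ Finset.range (Q.natDegree + 1), D.coeff i = d i := by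
    intro i hi
    rw [hDdef, finsetSum_coeff]
    simp only [coeff_C_mul, coeff_X_pow]
    rw [Finset.sum_eq_single_of_mem i hi]
    · simp
    · intro j _ hj
      simp [Ne.symm hj]
  have hDne : ∀ i, d i ≠ 0 → W (algebraMap C Ω (d i)) = 1 := by
    intro i hi
    have h1 : ¬ W (algebraMap F Ω (Q.coeff i) / m) < 1 := fun h => hi (hd2 i h)
    have h2 : W (algebraMap F Ω (Q.coeff i) / m) = 1 := le_antisymm (hN1 i) (not_lt.1 h1)
    have h3 := Valuation.map_eq_of_sub_lt W (x := algebraMap F Ω (Q.coeff i) / m)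
      (y := algebraMap C Ω (d i)) (by rw [h2, Valuation.map_sub_swap]; exact hd1 i)
    rw [h3, h2]
  have hdi₀ : d i₀ ≠ 0 := by
    intro h
    have h1 := hd1 i₀
    rw [h, map_zero, sub_zero, div_self hm0, map_one] at h1
    exact lt_irrefl _ h1
  have hD0 : D ≠ 0 := by
    intro h
    have := hDcoeff i₀ hi₀
    rw [h, coeff_zero] at this
    exact hdi₀ this.symm
  have hDdeg : D.natDegree ∈ Finset.range (Q.natDegree + 1) := by
    by_contra hcon'
    have h1 : D.coeff D.natDegree = 0 := by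
      rw [hDdef, finsetSum_coeff]
      refine Finset.sum_eq_zero fun j hj => ?_
      rw [coeff_C_mul, coeff_X_pow, if_neg, mul_zero]
      rintro h
      rw [← hDdef] at h
      exact hcon' (h ▸ hj)
    rw [coeff_natDegree, leadingCoeff_eq_zero] at h1
    exact hD0 h1
  have hlead : W (algebraMap C Ω D.leadingCoeff) = 1 := by
    have h1 : D.leadingCoeff = d D.natDegree := by
      rw [leadingCoeff, hDcoeff _ hDdeg]
    rw [h1]
    refine hDne _ ?_
    rw [← h1]
    exact leadingCoeff_ne_zero.2 hD0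
  -- the value of `D` at `u` is small
  have hsmall : W (aeval u D) < 1 := by
    have e0 : ∑ i ∈ Finset.range (Q.natDegree + 1), algebraMap F Ω (Q.coeff i) * u ^ i = 0 := by
      rw [← minpoly.aeval F u, ← hQ, aeval_eq_sum_range]
      simp [Algebra.smul_def]
    have e1 : aeval u D = ∑ i ∈ Finset.range (Q.natDegree + 1),
        (-(algebraMap F Ω (Q.coeff i) / m - algebraMap C Ω (d i)) * u ^ i) := by
      have e2 : ∑ i ∈ Finset.range (Q.natDegree + 1),
          (-(algebraMap F Ω (Q.coeff i) / m - algebraMap C Ω (d i)) * u ^ i) =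
          -(∑ i ∈ Finset.range (Q.natDegree + 1), algebraMap F Ω (Q.coeff i) * u ^ i) / m +
          ∑ i ∈ Finset.range (Q.natDegree + 1), algebraMap C Ω (d i) * u ^ i := by
        rw [neg_div, Finset.sum_div, ← Finset.sum_neg_distrib, ← Finset.sum_add_distrib]
        refine Finset.sum_congr rfl fun i _ => ?_
        ring
      rw [e2, e0, hDdef, map_sum]
      simp
    rw [e1]
    refine Valuation.map_sum_lt W one_ne_zero fun i _ => ?_
    rw [map_mul, Valuation.map_neg, map_pow]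
    calc _ ≤ W (algebraMap F Ω (Q.coeff i) / m - algebraMap C Ω (d i)) * 1 :=
          mul_le_mul' le_rfl (pow_le_one' hu1 i)
      _ < 1 := by rw [mul_one]; exact hd1 i
  have hprod : aeval u D = algebraMap C Ω D.leadingCoeff *
      (D.roots.map fun a => u - algebraMap C Ω a).prod := by
    conv_lhs => rw [(IsAlgClosed.splits D).eq_prod_roots]
    rw [map_mul, aeval_C, map_multiset_prod, Multiset.map_map]
    simp
  rw [hprod, map_mul, hlead, one_mul] at hsmall
  have hge : ∀ s : Multiset C, 1 ≤ W ((s.map fun a => u - algebraMap C Ω a).prod) := by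
    intro s
    induction s using Multiset.induction with
    | empty => simp
    | cons a s ih =>
      rw [Multiset.map_cons, Multiset.prod_cons, map_mul]
      exact one_le_mul (hcon a) ih
  exact absurd hsmall (not_lt.2 (hge _))

/-- an `n`-th root in `C` on the level of values -/
theorem exists_root_val [IsAlgClosed C] {N : ℕ} (hN : N ≠ 0) {c : C} (hc : c ≠ 0) {u v : Ω}
    (h : W u ^ N = W (algebraMap C Ω c) * W v ^ N) :
    ∃ c' : C, c' ≠ 0 ∧ W u = W (algebraMap C Ω c') * W v := by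
  obtain ⟨c', hc'⟩ := IsAlgClosed.exists_pow_nat_eq c (Nat.pos_of_ne_zero hN)
  refine ⟨c', ?_, ?_⟩
  · rintro rfl
    rw [zero_pow hN] at hc'
    exact hc hc'.symm
  · rw [← hc', map_pow, map_pow, ← mul_pow] at h
    exact (pow_left_inj₀ zero_le zero_le hN).1 h

/-- generators of the value group of a finite extension -/
theorem exists_vgen [IsAlgClosed C] {t : Ω} (h3 : T3 C W t)
    (hV : VG C W (Set.range (algebraMap F Ω)) t) (htF : t ∈ Set.range (algebraMap F Ω))
    (L : IntermediateField F Ω) [FiniteDimensional F L] :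
    ∃ z ∈ L, T3 C W z ∧ VG C W (L : Set Ω) z ∧ ∃ e : ℕ, 1 ≤ e ∧
      ∃ c : C, c ≠ 0 ∧ W t = W (algebraMap C Ω c) * W z ^ e := by
  classical
  have hWt := h3.W_ne
  have htL : t ∈ L := by
    obtain ⟨t', rfl⟩ := htF
    exact L.algebraMap_mem t'
  set N := (Module.finrank F L).factorial with hNdef
  have hN0 : N ≠ 0 := Nat.factorial_ne_zero _
  -- every value is an `N`-th root
  have key : ∀ y ∈ L, y ≠ 0 → ∃ (n : ℤ) (c : C), c ≠ 0 ∧
      W y ^ N = W (algebraMap C Ω c) * W t ^ n := by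
    intro y hy hy0
    obtain ⟨m, hm0, hm, a, ha0, ha⟩ := Crest.Agent.R013.Places_97.exists_pow_mem (F := F)
      (W.comap (algebraMap L Ω)) (⟨y, hy⟩ : L) (fun h => hy0 (congrArg Subtype.val h))
    have hmN : m ∣ N := Nat.dvd_factorial hm0 hm
    obtain ⟨k, hk⟩ := hmN
    rw [Valuation.comap_apply, Valuation.comap_apply] at ha
    have ha' : W y ^ m = W (algebraMap F Ω a) := ha
    obtain ⟨c, n, hc, hcn⟩ := hV (algebraMap F Ω a) ⟨a, rfl⟩ (by simpa using ha0)
    refine ⟨n * k, c ^ k, pow_ne_zero _ hc, ?_⟩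
    rw [hk, pow_mul, ha', hcn, mul_pow, map_pow, map_pow, zpow_mul, zpow_natCast]
  let I : AddSubgroup ℤ :=
    { carrier := {n | ∃ y ∈ L, y ≠ 0 ∧ ∃ c : C, c ≠ 0 ∧
        W y ^ N = W (algebraMap C Ω c) * W t ^ n}
      zero_mem' := ⟨1, L.one_mem, one_ne_zero, 1, one_ne_zero, by simp⟩
      add_mem' := by
        rintro a b ⟨y, hy, hy0, c, hc, h⟩ ⟨y', hy', hy0', c', hc', h'⟩
        refine ⟨y * y', L.mul_mem hy hy', mul_ne_zero hy0 hy0', c * c', mul_ne_zero hc hc', ?_⟩
        rw [map_mul, mul_pow, h, h', map_mul, map_mul, zpow_add₀ hWt]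
        ring
      neg_mem' := by
        rintro a ⟨y, hy, hy0, c, hc, h⟩
        refine ⟨y⁻¹, L.inv_mem hy, inv_ne_zero hy0, c⁻¹, inv_ne_zero hc, ?_⟩
        rw [map_inv₀, inv_pow, h, map_inv₀, map_inv₀, mul_inv, zpow_neg] }
  have hNI : (N : ℤ) ∈ I := ⟨t, htL, h3.ne, 1, one_ne_zero, by simp⟩
  obtain ⟨a, ha⟩ := Int.subgroup_cyclic I
  have hdvd : ∀ n : ℤ, n ∈ I ↔ (a.natAbs : ℤ) ∣ n := by
    intro n
    rw [ha, AddSubgroup.mem_closure_singleton, Int.natAbs_dvd]
    constructor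
    · rintro ⟨k, rfl⟩
      exact ⟨k, by rw [smul_eq_mul, mul_comm]⟩
    · rintro ⟨k, rfl⟩
      exact ⟨k, by rw [smul_eq_mul, mul_comm]⟩
  set d := a.natAbs with hd
  have hdN : d ∣ N := by
    have := (hdvd N).1 hNI
    exact_mod_cast this
  obtain ⟨e, he⟩ := hdN
  have hd0 : d ≠ 0 := by
    rintro h
    rw [h, zero_mul] at he
    exact hN0 he
  have he0 : e ≠ 0 := by
    rintro h
    rw [h, mul_zero] at he
    exact hN0 he
  obtain ⟨z, hz, hz0, c₀, hc₀, hzN⟩ := (hdvd d).2 dvd_rfl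
  have hWz : W z ≠ 0 := (Valuation.ne_zero_iff W).2 hz0
  have hWc₀ : W (algebraMap C Ω c₀) ≠ 0 :=
    (Valuation.ne_zero_iff W).2 ((_root_.map_ne_zero _).2 hc₀)
  have hzk : ∀ k : ℤ, (W z ^ k) ^ N = W (algebraMap C Ω c₀) ^ k * W t ^ ((d : ℤ) * k) := by
    intro k
    rw [← zpow_natCast, zpow_comm, zpow_natCast, hzN, mul_zpow, zpow_mul]
  refine ⟨z, hz, ⟨hz0, ?_⟩, ?_, e, Nat.pos_of_ne_zero he0, ?_⟩
  · intro n c hn
    have h1 := hzk n
    rw [hn] at h1
    have h2 : W t ^ ((d : ℤ) * n) = W (algebraMap C Ω (c ^ N / c₀ ^ n)) := by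
      rw [map_div₀, map_div₀, map_pow, map_pow, map_zpow₀, map_zpow₀, h1,
        mul_div_cancel_left₀ _ (zpow_ne_zero _ hWc₀)]
    have h3' := h3.tor _ _ h2
    rcases mul_eq_zero.1 h3' with h | h
    · exact absurd (by exact_mod_cast h) hd0
    · exact h
  · intro y hy hy0
    obtain ⟨n, c, hc, hn⟩ := key y hy hy0
    obtain ⟨k, hk⟩ := (hdvd n).1 ⟨y, hy, hy0, c, hc, hn⟩
    have h1 : W y ^ N = W (algebraMap C Ω (c / c₀ ^ k)) * W (z ^ k) ^ N := by
      rw [map_zpow₀, hzk, hn, hk, map_div₀, map_div₀, map_zpow₀, map_zpow₀]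
      field_simp
    obtain ⟨c', hc', h2⟩ := exists_root_val hN0 (div_ne_zero hc (zpow_ne_zero _ hc₀)) h1
    exact ⟨c', k, hc', by rw [h2, map_zpow₀]⟩
  · have h1 : W t ^ N = W (algebraMap C Ω (c₀ ^ e)⁻¹) * W (z ^ e) ^ N := by
      have h2 := hzk e
      rw [zpow_natCast, zpow_natCast] at h2
      rw [map_pow, h2, map_inv₀, map_inv₀, map_pow, map_pow, ← mul_assoc,
        inv_mul_cancel₀ (pow_ne_zero _ hWc₀), one_mul]
      have : ((d : ℤ) * (e : ℤ)) = ((N : ℕ) : ℤ) := by rw [he]; push_cast; ring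
      rw [this, zpow_natCast]
    obtain ⟨c', hc', h2⟩ := exists_root_val hN0 (inv_ne_zero (pow_ne_zero _ hc₀)) h1
    exact ⟨c', hc', by rw [h2, map_pow]⟩

theorem dense_of_contract {S : Set Ω} {z : Ω} (hS : ∀ f ∈ S, ∀ g : ℤ →₀ C, f - ev z g ∈ S)
    {γ : ℝ≥0} (hγ : γ < 1)
    (h : ∀ f ∈ S, ∀ η : ℝ≥0, 0 < η → ∃ g : ℤ →₀ C, W (f - ev z g) ≤ max (γ * W f) η) :
    ∀ f ∈ S, ∀ ε : ℝ≥0, 0 < ε → ∃ g : ℤ →₀ C, W (f - ev z g) < ε := by
  intro f hf ε hε
  have hη : 0 < ε / 2 := half_pos hε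
  have key : ∀ k : ℕ, ∃ g : ℤ →₀ C, W (f - ev z g) ≤ max (γ ^ k * W f) (ε / 2) := by
    intro k
    induction k with
    | zero => exact ⟨0, by rw [map_zero, sub_zero, pow_zero, one_mul]; exact le_max_left _ _⟩
    | succ k ih =>
      obtain ⟨g, hg⟩ := ih
      obtain ⟨g', hg'⟩ := h _ (hS f hf g) (ε / 2) hη
      refine ⟨g + g', ?_⟩
      rw [map_add, ← sub_sub]
      refine hg'.trans (max_le ?_ (le_max_right _ _))
      calc γ * W (f - ev z g) ≤ γ * max (γ ^ k * W f) (ε / 2) := mul_le_mul' le_rfl hg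
        _ = max (γ ^ (k + 1) * W f) (γ * (ε / 2)) := by
            rw [mul_max, pow_succ']
            congr 1
            ring
        _ ≤ max (γ ^ (k + 1) * W f) (ε / 2) :=
            max_le_max le_rfl (mul_le_of_le_one_left' hγ.le)
  have hlt : ∃ k : ℕ, γ ^ k * W f < ε := by
    by_cases h0 : W f = 0
    · exact ⟨0, by rw [h0, mul_zero]; exact hε⟩
    · obtain ⟨k, hk⟩ := NNReal.exists_pow_lt_of_lt_one (div_pos hε (zero_lt_iff.2 h0)) hγ
      exact ⟨k, (lt_div_iff₀ (zero_lt_iff.2 h0)).1 hk⟩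
  obtain ⟨k, hk⟩ := hlt
  obtain ⟨g, hg⟩ := key k
  exact ⟨g, hg.trans_lt (max_lt hk (NNReal.half_lt_self hε.ne'))⟩

theorem zpow_near {x y : Ω} {γ : ℝ≥0} (hγ : γ < 1) (hy : y ≠ 0) (h : W (x - y) ≤ γ * W y)
    (n : ℤ) : W (x ^ n - y ^ n) ≤ γ * W y ^ n := by
  have hWy : 0 < W y := zero_lt_iff.2 ((Valuation.ne_zero_iff W).2 hy)
  set ξ := x / y with hξ
  have h1 : W (ξ - 1) ≤ γ := by
    have e : ξ - 1 = (x - y) / y := by rw [hξ]; field_simp
    rw [e, map_div₀, div_le_iff₀ hWy]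
    exact h
  have h2 : W ξ = 1 := by
    have := Valuation.map_one_add_of_lt (v := W) (x := ξ - 1) (h1.trans_lt hγ)
    rwa [add_sub_cancel] at this
  have hξ0 : ξ ≠ 0 := by
    intro h0
    rw [h0, map_zero] at h2
    exact zero_ne_one h2
  have h3 : ∀ n : ℕ, W (ξ ^ n - 1) ≤ γ := by
    intro n
    induction n with
    | zero => simp
    | succ n ih =>
      have e : ξ ^ (n + 1) - 1 = ξ * (ξ ^ n - 1) + (ξ - 1) := by ring
      rw [e]
      refine Valuation.map_add_le W ?_ h1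
      rw [map_mul, h2, one_mul]
      exact ih
  have h4 : W (ξ ^ n - 1) ≤ γ := by
    obtain ⟨m, rfl | rfl⟩ := n.eq_nat_or_neg
    · rw [zpow_natCast]; exact h3 m
    · rw [zpow_neg, zpow_natCast]
      have e : (ξ ^ m)⁻¹ - 1 = -((ξ ^ m - 1) * (ξ ^ m)⁻¹) := by
        have := pow_ne_zero m hξ0
        field_simp
        ring
      rw [e, Valuation.map_neg, map_mul, map_inv₀, map_pow, h2, one_pow, inv_one, mul_one]
      exact h3 m
  have e : x ^ n - y ^ n = (ξ ^ n - 1) * y ^ n := by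
    rw [hξ, div_zpow, sub_mul, div_mul_cancel₀ _ (zpow_ne_zero _ hy), one_mul]
  rw [e, map_mul, map_zpow₀]
  exact mul_le_mul' h4 le_rfl

/-- substitution of `t ≈ c z ^ e` in a Laurent polynomial -/
theorem subst_near {t z : Ω} {c : C} {e : ℕ} {γ : ℝ≥0} (hγ : γ < 1) (ht : T3 C W t)
    (hcz : algebraMap C Ω c * z ^ e ≠ 0) (hWt : W t = W (algebraMap C Ω c * z ^ e))
    (h : W (t - algebraMap C Ω c * z ^ e) ≤ γ * W t) (g : ℤ →₀ C) (i : ℕ) :
    ∃ G : ℤ →₀ C, W (ev t g * z ^ i - ev z G) ≤ γ * (W (ev t g) * W z ^ i) := by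
  classical
  have hc : algebraMap C Ω c ≠ 0 := left_ne_zero_of_mul hcz
  refine ⟨∑ n ∈ g.support, Finsupp.single ((e : ℤ) * n + i) (g n * c ^ n), ?_⟩
  have e1 : ev t g * z ^ i - ev z (∑ n ∈ g.support,
      Finsupp.single ((e : ℤ) * n + i) (g n * c ^ n)) = ∑ n ∈ g.support,
      algebraMap C Ω (g n) * (t ^ n - (algebraMap C Ω c * z ^ e) ^ n) * z ^ i := by
    rw [map_sum, ev_apply, Finset.sum_mul, ← Finset.sum_sub_distrib]
    refine Finset.sum_congr rfl fun n _ => ?_
    rw [ev_single, map_mul, map_zpow₀, mul_zpow]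
    by_cases hz : z = 0
    · subst hz
      have he : e = 0 := by
        by_contra he
        exact hcz (by rw [zero_pow he, mul_zero])
      subst he
      by_cases hi : i = 0
      · subst hi; simp; ring
      · simp [hi]
    · rw [zpow_add₀ hz, zpow_mul, zpow_natCast, zpow_natCast]
      ring
  rw [e1]
  refine Valuation.map_sum_le W fun n _ => ?_
  rw [map_mul, map_mul, map_pow]
  have h2 := zpow_near hγ hcz (by rw [← hWt]; exact h) n
  rw [← hWt] at h2
  have h3 := ht.term_le g n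
  rw [map_mul, map_zpow₀] at h3
  calc W (algebraMap C Ω (g n)) * W (t ^ n - (algebraMap C Ω c * z ^ e) ^ n) * W z ^ i
      ≤ W (algebraMap C Ω (g n)) * (γ * W t ^ n) * W z ^ i := by gcongr
    _ = γ * ((W (algebraMap C Ω (g n)) * W t ^ n) * W z ^ i) := by ring
    _ ≤ γ * (W (ev t g) * W z ^ i) := by gcongr

theorem ev_mem {L : IntermediateField F Ω} {z : Ω} (hz : z ∈ L) (g : ℤ →₀ C) : ev z g ∈ L := by
  rw [ev_apply]
  refine L.sum_mem fun n _ => L.mul_mem ?_ (L.pow_mem hz n)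
  rw [IsScalarTower.algebraMap_apply C F Ω]
  exact L.algebraMap_mem _

/-- **density**: a generator of the value group of an extension with `e = degree` is a coordinate -/
theorem gen_dense [IsAlgClosed C] {t : Ω} (hD : Dn C W (Set.range (algebraMap F Ω)) t)
    (L : IntermediateField F Ω) [FiniteDimensional F L] {z : Ω} (hz : z ∈ L) (h3 : T3 C W z)
    {e : ℕ} {c : C} (hc : c ≠ 0) (hc' : W t = W (algebraMap C Ω c) * W z ^ e)
    (he : Module.finrank F L ≤ e) : Dn C W (L : Set Ω) z := by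
  classical
  have hWz := h3.W_ne
  have hWzpos : 0 < W z := zero_lt_iff.2 hWz
  have hWt : 0 < W t := zero_lt_iff.2 hD.t3.W_ne
  have he1 : 1 ≤ e := le_trans Module.finrank_pos he
  have hcΩ : algebraMap C Ω c ≠ 0 := (_root_.map_ne_zero _).2 hc
  have htL : t ∈ L := by
    obtain ⟨t', ht'⟩ := hD.mem
    rw [← ht']
    exact L.algebraMap_mem t'
  have hCL : ∀ c : C, algebraMap C Ω c ∈ L := fun c => by
    rw [IsScalarTower.algebraMap_apply C F Ω]
    exact L.algebraMap_mem _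
  have hint : ∀ y ∈ L, IsIntegral F y := fun y hy =>
    (Algebra.IsIntegral.isIntegral (R := F) (⟨y, hy⟩ : L)).map L.val
  -- `t ≈ c₁ z ^ e`
  obtain ⟨c₁, hc₁0, hc₁⟩ : ∃ c₁ : C, c₁ ≠ 0 ∧ W (t - algebraMap C Ω c₁ * z ^ e) < W t := by
    have hu : t / (algebraMap C Ω c * z ^ e) ∈ L :=
      L.div_mem htL (L.mul_mem (hCL c) (pow_mem hz e))
    have hWcz : W (algebraMap C Ω c * z ^ e) = W t := by rw [hc', map_mul, map_pow]
    have hu1 : W (t / (algebraMap C Ω c * z ^ e)) = 1 := by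
      rw [map_div₀, hWcz, div_self hWt.ne']
    obtain ⟨c', hc''⟩ := res_alg hD (hint _ hu) hu1.le
    refine ⟨c' * c, mul_ne_zero ?_ hc, ?_⟩
    · rintro rfl
      rw [map_zero, sub_zero, hu1] at hc''
      exact lt_irrefl _ hc''
    · have hcz0 : algebraMap C Ω c * z ^ e ≠ 0 := mul_ne_zero hcΩ (pow_ne_zero _ h3.ne)
      have e1 : t - algebraMap C Ω (c' * c) * z ^ e =
          (t / (algebraMap C Ω c * z ^ e) - algebraMap C Ω c') * (algebraMap C Ω c * z ^ e) := by
        rw [sub_mul, div_mul_cancel₀ _ hcz0, map_mul]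
        ring
      rw [e1, map_mul, hWcz]
      calc _ < 1 * W t := mul_lt_mul_of_pos_right hc'' hWt
        _ = W t := one_mul _
  have hc₁Ω : algebraMap C Ω c₁ ≠ 0 := (_root_.map_ne_zero _).2 hc₁0
  have hcz : algebraMap C Ω c₁ * z ^ e ≠ 0 := mul_ne_zero hc₁Ω (pow_ne_zero _ h3.ne)
  set γ := W (t - algebraMap C Ω c₁ * z ^ e) / W t with hγdef
  have hγ : γ < 1 := (div_lt_one₀ hWt).2 hc₁
  have hγt : W (t - algebraMap C Ω c₁ * z ^ e) ≤ γ * W t := by
    rw [hγdef, div_mul_cancel₀ _ hWt.ne']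
  have hWtz : W t = W (algebraMap C Ω c₁ * z ^ e) :=
    (Valuation.map_eq_of_sub_lt W (x := t) (y := algebraMap C Ω c₁ * z ^ e)
      (by rwa [Valuation.map_sub_swap])).symm
  -- values of `a z ^ i`
  have hval : ∀ (a : F) (i : ℕ), a ≠ 0 → ∃ (d : C) (n : ℤ), d ≠ 0 ∧
      W (algebraMap F Ω a * z ^ i) = W (algebraMap C Ω d) * W z ^ ((e : ℤ) * n + i) := by
    intro a i ha
    obtain ⟨d, n, hd, hn⟩ := hD.vg (algebraMap F Ω a) ⟨a, rfl⟩ (by simpa using ha)
    refine ⟨d * c ^ n, n, mul_ne_zero hd (zpow_ne_zero _ hc), ?_⟩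
    rw [map_mul, map_pow, hn, hc', mul_zpow, map_mul, map_mul, map_zpow₀, map_zpow₀,
      zpow_add₀ hWz, zpow_mul, zpow_natCast, zpow_natCast]
    ring
  have hdist : ∀ a : Fin e → F, ∀ i ∈ (Finset.univ : Finset (Fin e)), ∀ j ∈ Finset.univ, i ≠ j →
      algebraMap F Ω (a i) * z ^ (i : ℕ) ≠ 0 →
      W (algebraMap F Ω (a i) * z ^ (i : ℕ)) ≠ W (algebraMap F Ω (a j) * z ^ (j : ℕ)) := by
    intro a i _ j _ hij hi0 heq
    have hai : a i ≠ 0 := by
      intro h
      rw [h, map_zero, zero_mul] at hi0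
      exact hi0 rfl
    have haj : a j ≠ 0 := by
      intro h
      rw [h, map_zero, zero_mul, map_zero, map_eq_zero W] at heq
      exact hi0 heq
    obtain ⟨d, n, hd, hn⟩ := hval (a i) i hai
    obtain ⟨d', n', hd', hn'⟩ := hval (a j) j haj
    rw [hn, hn'] at heq
    have h4 := h3.eq_of ((_root_.map_ne_zero _).2 hd') heq
    have h5 : ((i : ℕ) : ℤ) % e = ((j : ℕ) : ℤ) % e := by
      have := congrArg (· % (e : ℤ)) h4
      simpa using this
    rw [Int.emod_eq_of_lt (by positivity) (by exact_mod_cast i.2),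
      Int.emod_eq_of_lt (by positivity) (by exact_mod_cast j.2)] at h5
    exact hij (Fin.ext (by exact_mod_cast h5))
  -- the powers of `z` form a basis
  have hli : LinearIndependent F (fun i : Fin e => (⟨z, hz⟩ : L) ^ (i : ℕ)) := by
    rw [Fintype.linearIndependent_iff]
    intro a ha i
    have ha' : ∑ j : Fin e, algebraMap F Ω (a j) * z ^ (j : ℕ) = 0 := by
      have := congrArg (algebraMap L Ω) ha
      rw [map_sum, map_zero] at this
      rw [← this]
      refine Finset.sum_congr rfl fun j _ => ?_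
      rw [Algebra.smul_def, map_mul, map_pow]
      rfl
    have h4 := le_sum W Finset.univ _ (hdist a) i (Finset.mem_univ i)
    rw [ha', map_zero, le_zero_iff, map_eq_zero W] at h4
    rcases mul_eq_zero.1 h4 with h | h
    · simpa using h
    · exact absurd h (pow_ne_zero _ h3.ne)
  have hcard : Fintype.card (Fin e) = Module.finrank F L := by
    refine le_antisymm hli.fintype_card_le_finrank ?_
    rwa [Fintype.card_fin]
  have hspan : ∀ y ∈ L, ∃ a : Fin e → F, y = ∑ j : Fin e, algebraMap F Ω (a j) * z ^ (j : ℕ) := by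
    intro y hy
    have h4 : (⟨y, hy⟩ : L) ∈ Submodule.span F
        (Set.range (fun i : Fin e => (⟨z, hz⟩ : L) ^ (i : ℕ))) := by
      have : Nonempty (Fin e) := ⟨⟨0, he1⟩⟩
      rw [hli.span_eq_top_of_card_eq_finrank hcard]
      trivial
    rw [Submodule.mem_span_range_iff_exists_fun] at h4
    obtain ⟨a, ha⟩ := h4
    refine ⟨a, ?_⟩
    have := congrArg (algebraMap L Ω) ha
    rw [map_sum] at this
    have h5 : algebraMap L Ω ⟨y, hy⟩ = y := rfl
    rw [h5] at this
    rw [← this]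
    refine Finset.sum_congr rfl fun j _ => ?_
    rw [Algebra.smul_def, map_mul, map_pow]
    rfl
  refine ⟨h3, hz, ?_⟩
  refine dense_of_contract (γ := γ) (fun f hf g => L.sub_mem hf (ev_mem hz g)) hγ ?_
  intro f hf η hη
  obtain ⟨a, rfl⟩ := hspan f hf
  have hterm : ∀ i : Fin e, W (algebraMap F Ω (a i) * z ^ (i : ℕ)) ≤
      W (∑ j : Fin e, algebraMap F Ω (a j) * z ^ (j : ℕ)) := fun i =>
    le_sum W Finset.univ _ (hdist a) i (Finset.mem_univ i)
  set M := W (∑ j : Fin e, algebraMap F Ω (a j) * z ^ (j : ℕ)) with hM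
  have happ : ∀ i : Fin e, ∃ G : ℤ →₀ C,
      W (algebraMap F Ω (a i) * z ^ (i : ℕ) - ev z G) ≤ max (γ * M) η := by
    intro i
    have hzi : 0 < W z ^ (i : ℕ) := pow_pos hWzpos _
    obtain ⟨g, hg⟩ := hD.dense (algebraMap F Ω (a i)) ⟨a i, rfl⟩ (η / W z ^ (i : ℕ))
      (div_pos hη hzi)
    obtain ⟨G, hG⟩ := subst_near hγ hD.t3 hcz hWtz hγt g (i : ℕ)
    refine ⟨G, ?_⟩
    have h5 : W ((algebraMap F Ω (a i) - ev t g) * z ^ (i : ℕ)) ≤ η := by
      rw [map_mul, map_pow]
      exact ((lt_div_iff₀ hzi).1 hg).le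
    have h6 : W (ev t g * z ^ (i : ℕ)) ≤ max M η := by
      have e1 : ev t g * z ^ (i : ℕ) = algebraMap F Ω (a i) * z ^ (i : ℕ) -
          (algebraMap F Ω (a i) - ev t g) * z ^ (i : ℕ) := by ring
      rw [e1]
      exact (Valuation.map_sub W _ _).trans (max_le_max (hterm i) h5)
    have e2 : algebraMap F Ω (a i) * z ^ (i : ℕ) - ev z G =
        (algebraMap F Ω (a i) - ev t g) * z ^ (i : ℕ) + (ev t g * z ^ (i : ℕ) - ev z G) := by ring
    rw [e2]
    refine Valuation.map_add_le W (h5.trans (le_max_right _ _)) (hG.trans ?_)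
    rw [← map_pow, ← map_mul]
    calc γ * W (ev t g * z ^ (i : ℕ)) ≤ γ * max M η := mul_le_mul' le_rfl h6
      _ = max (γ * M) (γ * η) := mul_max _ _ _
      _ ≤ max (γ * M) η := max_le_max le_rfl (mul_le_of_le_one_left' hγ.le)
  choose G hG using happ
  refine ⟨∑ i, G i, ?_⟩
  rw [map_sum, ← Finset.sum_sub_distrib]
  exact Valuation.map_sum_le W fun i _ => hG i

end Crest.Agent.R013.LU3_205
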