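import Mathlib
import Crest.Agent.R013.LU3b_205

/-!
R013 / SS-LU3 (helper205), part 3.  A cyclic extension of degree `p` (= residue characteristic) of a
henselian field with dense Laurent polynomials in a type 3 element is not immediate.
-/

set_option autoImplicit false
set_option linter.unusedSectionVars false

namespace Crest.Agent.R013.LU3_205

open scoped NNReal
open Polynomial

section Fresh

variable {Ω : Type*} [Field Ω] (W : Valuation Ω ℝ≥0)

/-- refined freshman's dream -/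
theorem fresh2 {p : ℕ} (hp : p.Prime) {x y : Ω} (hx : W x ≤ 1) (hy : W y ≤ 1) :
    W ((x + y) ^ p - x ^ p - y ^ p - (p : Ω) * x * y ^ (p - 1)) ≤ W (p : Ω) * W x ^ 2 := by
  have h2 : 2 ≤ p := hp.two_le
  rw [add_pow_prime_eq hp]
  have hI : Finset.Ioo 0 p = insert 1 (Finset.Ioo 1 p) := by
    ext k
    simp only [Finset.mem_Ioo, Finset.mem_insert]
    omega
  have hterm : ((p.choose 1 / p : ℕ) : Ω) = 1 := by
    rw [Nat.choose_one_right, Nat.div_self hp.pos, Nat.cast_one]
  have e : x ^ p + y ^ p + (p : Ω) * x * y *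
      ∑ k ∈ Finset.Ioo 0 p, x ^ (k - 1) * y ^ (p - k - 1) * ((p.choose k / p : ℕ) : Ω) -
      x ^ p - y ^ p - (p : Ω) * x * y ^ (p - 1) = (p : Ω) * (x * y) *
      ∑ k ∈ Finset.Ioo 1 p, x ^ (k - 1) * y ^ (p - k - 1) * ((p.choose k / p : ℕ) : Ω) := by
    rw [hI, Finset.sum_insert (by simp), hterm]
    have e1 : y ^ (p - 1) = y * y ^ (p - 1 - 1) := by
      rw [← pow_succ']
      congr 1
      omega
    rw [e1]
    simp only [Nat.sub_self, pow_zero]
    ring
  rw [e, map_mul, map_mul, map_mul]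
  have hsum : W (∑ k ∈ Finset.Ioo 1 p, x ^ (k - 1) * y ^ (p - k - 1) *
      ((p.choose k / p : ℕ) : Ω)) ≤ W x := by
    refine Valuation.map_sum_le W fun k hk => ?_
    rw [Finset.mem_Ioo] at hk
    rw [map_mul, map_mul, map_pow, map_pow]
    have e2 : k - 1 = (k - 2) + 1 := by omega
    calc W x ^ (k - 1) * W y ^ (p - k - 1) * W ((p.choose k / p : ℕ) : Ω)
        ≤ W x ^ (k - 1) * 1 * 1 := by
          gcongr
          · exact pow_le_one' hy _
          · exact W_natCast_le W _
      _ = W x ^ (k - 2) * W x := by rw [mul_one, mul_one, e2, pow_succ]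
      _ ≤ 1 * W x := by
          gcongr
          exact pow_le_one' hx _
      _ = W x := one_mul _
  calc W (p : Ω) * (W x * W y) * _ ≤ W (p : Ω) * (W x * 1) * W x := by gcongr
    _ = W (p : Ω) * W x ^ 2 := by ring

end Fresh

section Fold

variable {C Ω : Type*} [Field C] [Field Ω] [Algebra C Ω] {W : Valuation Ω ℝ≥0} [IsAlgClosed C]
  {p : ℕ}

/-- a choice of `p`-th roots -/
noncomputable def rt (hp : 0 < p) (c : C) : C := (IsAlgClosed.exists_pow_nat_eq c hp).choose

theorem rt_pow (hp : 0 < p) (c : C) : rt hp c ^ p = c :=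
  (IsAlgClosed.exists_pow_nat_eq c hp).choose_spec

theorem rt_eq_zero (hp : 0 < p) {c : C} : rt hp c = 0 ↔ c = 0 := by
  constructor
  · intro h
    rw [← rt_pow hp c, h, zero_pow hp.ne']
  · rintro rfl
    exact pow_eq_zero_iff (hp.ne') |>.1 (rt_pow hp 0)

/-- `sum c_n t^n ↦ sum c_{pn}^(1/p) t^n` -/
noncomputable def fold (hp : 0 < p) (u : ℤ →₀ C) : ℤ →₀ C :=
  (u.comapDomain (fun n : ℤ => (p : ℤ) * n) (fun a _ b _ h =>
    mul_left_cancel₀ (by exact_mod_cast hp.ne') h)).mapRange (rt hp) ((rt_eq_zero hp).2 rfl)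

theorem fold_apply (hp : 0 < p) (u : ℤ →₀ C) (n : ℤ) : fold hp u n = rt hp (u (p * n)) := rfl

theorem fold_ne (hp : 0 < p) (u : ℤ →₀ C) (n : ℤ) : fold hp u n ≠ 0 ↔ u (p * n) ≠ 0 := by
  rw [fold_apply, Ne, rt_eq_zero]

theorem fold_term_pow (hp : 0 < p) (u : ℤ →₀ C) (t : Ω) (n : ℤ) :
    (algebraMap C Ω (fold hp u n) * t ^ n) ^ p = algebraMap C Ω (u (p * n)) * t ^ ((p : ℤ) * n) := by
  rw [mul_pow, ← map_pow, fold_apply, rt_pow, ← zpow_natCast, ← zpow_mul, mul_comm n]

theorem fold_le (hp : 0 < p) (u : ℤ →₀ C) (t : Ω) {M : ℝ≥0}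
    (h : ∀ n, W (algebraMap C Ω (u n) * t ^ n) ≤ M ^ p) (n : ℤ) :
    W (algebraMap C Ω (fold hp u n) * t ^ n) ≤ M := by
  rw [← pow_le_pow_iff_left₀ zero_le zero_le hp.ne', ← map_pow, fold_term_pow]
  exact h _

theorem fold_near (hp : p.Prime) (u : ℤ →₀ C) (t : Ω) {M : ℝ≥0}
    (h : ∀ n, W (algebraMap C Ω (u n) * t ^ n) ≤ M ^ p) :
    W (ev t (fold hp.pos u) ^ p - ev t (u.filter fun n => (p : ℤ) ∣ n)) ≤ W (p : Ω) * M ^ p := by
  classical
  have e : ev t (u.filter fun n => (p : ℤ) ∣ n) =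
      ∑ n ∈ (fold hp.pos u).support, (algebraMap C Ω (fold hp.pos u n) * t ^ n) ^ p := by
    rw [ev_apply]
    symm
    refine Finset.sum_nbij (fun n => (p : ℤ) * n) ?_ ?_ ?_ ?_
    · intro n hn
      rw [Finsupp.mem_support_iff, fold_ne] at hn
      rw [Finsupp.mem_support_iff, Finsupp.filter_apply_pos _ _ (Dvd.intro _ rfl)]
      exact hn
    · intro a _ b _ hab
      exact mul_left_cancel₀ (by exact_mod_cast hp.ne_zero) hab
    · intro m hm
      rw [Finset.mem_coe, Finsupp.support_filter, Finset.mem_filter] at hm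
      obtain ⟨n, rfl⟩ := hm.2
      refine ⟨n, ?_, rfl⟩
      rw [Finset.mem_coe, Finsupp.mem_support_iff, fold_ne]
      exact Finsupp.mem_support_iff.1 hm.1
    · intro n _
      rw [fold_term_pow, Finsupp.filter_apply_pos _ _ (Dvd.intro _ rfl)]
  rw [e, ev_apply]
  exact fresh_sum W hp _ _ fun n _ => fold_le hp.pos u t h n

theorem exists_as_root (hp : p.Prime) (c : C) : ∃ d : C, d ^ p - d = c := by
  have h2 := hp.two_le
  obtain ⟨d, hd⟩ := IsAlgClosed.exists_root (X ^ p - (X + Polynomial.C c) : C[X]) (by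
    have h1 : (X ^ p - (X + Polynomial.C c) : C[X]).degree = p := by
      have h3 : (X + Polynomial.C c : C[X]).degree = 1 := degree_X_add_C c
      rw [degree_sub_eq_left_of_degree_lt]
      · exact degree_X_pow p
      · rw [h3, degree_X_pow]
        exact_mod_cast h2
    rw [h1]
    exact_mod_cast hp.ne_zero)
  refine ⟨d, ?_⟩
  rw [IsRoot, eval_sub, eval_pow, eval_X, eval_add, eval_X, eval_C] at hd
  linear_combination hd

theorem as_fold (hp : p.Prime) {t : Ω} {M : ℝ≥0} (hM : 1 ≤ M) (hpM : W (p : Ω) * M ^ p < 1) :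
    ∀ (N : ℕ) (u : ℤ →₀ C), (∀ n, W (algebraMap C Ω (u n) * t ^ n) ≤ M ^ p) →
      (∀ n, u n ≠ 0 → (p : ℤ) ∣ n → n.natAbs ≤ N) →
      ∃ q u' : ℤ →₀ C, (∀ n, W (algebraMap C Ω (q n) * t ^ n) ≤ M) ∧
        (∀ n, u' n ≠ 0 → ¬ (p : ℤ) ∣ n) ∧
        W (ev t u - ev t q ^ p + ev t q - ev t u') < 1 := by
  classical
  have hp2 := hp.two_le
  intro N
  induction N with
  | zero =>
    intro u hu hN
    obtain ⟨c, hc⟩ := exists_as_root hp (u 0)
    refine ⟨Finsupp.single 0 c, u.erase 0, ?_, ?_, ?_⟩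
    · intro n
      by_cases hn : n = 0
      · subst hn
        rw [Finsupp.single_eq_same, zpow_zero, mul_one]
        have h0 := hu 0
        rw [zpow_zero, mul_one] at h0
        by_cases h1 : W (algebraMap C Ω c) ≤ 1
        · exact h1.trans hM
        · rw [not_le] at h1
          have h2 : W (algebraMap C Ω c) < W (algebraMap C Ω (c ^ p)) := by
            rw [map_pow, map_pow]
            calc W (algebraMap C Ω c) = W (algebraMap C Ω c) ^ 1 := (pow_one _).symm
              _ < W (algebraMap C Ω c) ^ p := pow_lt_pow_right₀ h1 hp2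
          rw [← hc, map_sub, Valuation.map_sub_eq_of_lt_left W h2, map_pow, map_pow] at h0
          exact (pow_le_pow_iff_left₀ zero_le zero_le hp.ne_zero).1 h0
      · rw [Finsupp.single_apply, if_neg (Ne.symm hn), map_zero, zero_mul, map_zero]
        exact zero_le
    · intro n hn hpn
      have hn0 : n ≠ 0 := by
        rintro rfl
        exact hn Finsupp.erase_same
      rw [Finsupp.erase_ne hn0] at hn
      have := hN n hn hpn
      omega
    · have e : ev t u = ev t (Finsupp.single 0 (u 0)) + ev t (u.erase 0) := by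
        rw [← map_add, Finsupp.single_add_erase]
      have e2 : algebraMap C Ω (u 0) = algebraMap C Ω c ^ p - algebraMap C Ω c := by
        rw [← hc, map_sub, map_pow]
      rw [e, ev_single, ev_single, zpow_zero, mul_one, mul_one, e2]
      have e3 : algebraMap C Ω c ^ p - algebraMap C Ω c + ev t (u.erase 0) -
          algebraMap C Ω c ^ p + algebraMap C Ω c - ev t (u.erase 0) = 0 := by ring
      rw [e3, map_zero]
      exact zero_lt_one
  | succ N ih =>
    intro u hu hN
    set u₀ := u.erase 0 with hu₀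
    have hu₀n : ∀ n, n ≠ 0 → u₀ n = u n := fun n hn => Finsupp.erase_ne hn
    have hu₀0 : u₀ 0 = 0 := Finsupp.erase_same
    have hu₀le : ∀ n, W (algebraMap C Ω (u₀ n) * t ^ n) ≤ M ^ p := by
      intro n
      by_cases hn : n = 0
      · rw [hn, hu₀0, map_zero, zero_mul, map_zero]; exact zero_le
      · rw [hu₀n n hn]; exact hu n
    set q₁ := fold hp.pos u₀ with hq₁
    have hq₁le := fold_le hp.pos u₀ t hu₀le
    have hq₁near := fold_near hp u₀ t hu₀le
    set f := u₀.filter fun n => (p : ℤ) ∣ n with hf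
    have hMp : M ≤ M ^ p := by
      calc M = M ^ 1 := (pow_one M).symm
        _ ≤ M ^ p := pow_le_pow_right₀ hM hp.one_lt.le
    obtain ⟨q₂, u', hq₂, hu', hfin⟩ := ih (u - f + q₁) (by
      intro n
      rw [Finsupp.add_apply, Finsupp.sub_apply, map_add, add_mul]
      refine Valuation.map_add_le W ?_ ((hq₁le n).trans hMp)
      by_cases hn : (p : ℤ) ∣ n ∧ n ≠ 0
      · rw [hf, Finsupp.filter_apply_pos _ _ hn.1, hu₀n n hn.2, sub_self, map_zero, zero_mul,
          map_zero]
        exact zero_le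
      · have : f n = 0 := by
          by_cases h1 : (p : ℤ) ∣ n
          · have h2 : n = 0 := by
              by_contra h2
              exact hn ⟨h1, h2⟩
            rw [hf, Finsupp.filter_apply_pos _ _ h1, h2, hu₀0]
          · rw [hf, Finsupp.filter_apply_neg _ _ h1]
        rw [this, sub_zero]
        exact hu n) (by
      intro n hn hpn
      by_cases hn0 : n = 0
      · rw [hn0]; simp
      · rw [Finsupp.add_apply, Finsupp.sub_apply, hf, Finsupp.filter_apply_pos _ _ hpn,
          hu₀n n hn0, sub_self, zero_add, hq₁, fold_ne] at hn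
        have hpn0 : (p : ℤ) * n ≠ 0 := mul_ne_zero (by exact_mod_cast hp.ne_zero) hn0
        rw [hu₀n _ hpn0] at hn
        have h1 := hN _ hn (Dvd.intro _ rfl)
        rw [Int.natAbs_mul, Int.natAbs_natCast] at h1
        have h2 : 1 ≤ n.natAbs := Int.natAbs_pos.2 hn0
        have h3 : 2 * n.natAbs ≤ p * n.natAbs := Nat.mul_le_mul_right _ hp2
        omega)
    refine ⟨q₁ + q₂, u', ?_, hu', ?_⟩
    · intro n
      rw [Finsupp.add_apply, map_add, add_mul]
      exact Valuation.map_add_le W (hq₁le n) (hq₂ n)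
    · have h1 := fresh' W hp (x := ev t q₁) (y := ev t q₂) (M := M) (ev_le q₁ hq₁le)
        (ev_le q₂ hq₂)
      have e : ev t u - ev t (q₁ + q₂) ^ p + ev t (q₁ + q₂) - ev t u' =
          (ev t (u - f + q₁) - ev t q₂ ^ p + ev t q₂ - ev t u') -
          (ev t q₁ ^ p - ev t f) -
          ((ev t q₁ + ev t q₂) ^ p - ev t q₁ ^ p - ev t q₂ ^ p) := by
        rw [map_add, map_add, map_sub]
        ring
      rw [e]
      refine Valuation.map_sub_lt W (Valuation.map_sub_lt W hfin ?_) ?_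
      · exact hq₁near.trans_lt hpM
      · exact h1.trans_lt hpM

end Fold

section NI

variable {C F Ω : Type*} [Field C] [Field F] [Field Ω] [Algebra C F] [Algebra F Ω] [Algebra C Ω]
  [IsScalarTower C F Ω] {W : Valuation Ω ℝ≥0}

theorem ev_mem_range {t : Ω} (ht : t ∈ Set.range (algebraMap F Ω)) (g : ℤ →₀ C) :
    ∃ q : F, algebraMap F Ω q = ev t g := by
  have := ev_mem (F := F) (L := ⊥) (IntermediateField.mem_bot.2 ht) g
  exact IntermediateField.mem_bot.1 this

/-- the values of `p`-th powers of elements of `L` are not those of Laurent polynomials with exponents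
prime to `p` -/
theorem no_prime_exponent {p : ℕ} {t : Ω} (ht : T3 C W t) {S : Set Ω} (hV : VG C W S t) {b : Ω}
    (hb : b ∈ S) (u : ℤ →₀ C) (hu : ∀ n, u n ≠ 0 → ¬ (p : ℤ) ∣ n) (hne : ev t u ≠ 0)
    (h : W b ^ p = W (ev t u)) : False := by
  obtain ⟨n, hn, hn'⟩ := ht.exists_term u hne
  have hb0 : b ≠ 0 := by
    rintro rfl
    rw [map_zero] at h
    by_cases hp : p = 0
    · subst hp
      rw [pow_zero, hn'] at h
      have h1 : W (algebraMap C Ω (u n)) * W t ^ n = W (algebraMap C Ω 1) * W t ^ (0 : ℤ) := by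
        rw [← h]; simp
      have h2 := ht.eq_of (by simp) h1
      exact hu n hn (by rw [h2]; exact dvd_zero _)
    · rw [zero_pow hp] at h
      exact hne ((map_eq_zero W).1 h.symm)
  obtain ⟨c, m, hc, hm⟩ := hV b hb hb0
  rw [hn', hm, mul_pow, ← map_pow, ← map_pow, ← zpow_natCast (W t ^ m), ← zpow_mul] at h
  have := ht.eq_of ((_root_.map_ne_zero _).2 hn) h
  exact hu n hn ⟨m, by rw [← this]; ring⟩

variable [IsAlgClosed C] {p : ℕ}

theorem ni_step (hp : p.Prime) {t : Ω} (hD : Dn C W (Set.range (algebraMap F Ω)) t)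
    {L : IntermediateField F Ω} (hV : VG C W (L : Set Ω) t) {α : Ω} (hα : α ∈ L)
    {a : F} (ha : α ^ p = algebraMap F Ω a) (hα1 : W α = 1)
    {r : ℝ≥0} (hr0 : 0 < r) (hr : r ^ (p - 1) = W (p : Ω))
    (hkr : ∀ g : F, r ≤ W (α - algebraMap F Ω g)) (g : F) (hg : W (α - algebraMap F Ω g) < 1) :
    ∃ g' : F, W (α - algebraMap F Ω g') ^ p ≤ W (p : Ω) * W (α - algebraMap F Ω g) := by
  set G := algebraMap F Ω g with hG
  set β := α - G with hβ
  set R := W β with hR
  have hrR : r ≤ R := hkr g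
  have hRpos : 0 < R := hr0.trans_le hrR
  have hWp : 0 < W (p : Ω) := by rw [← hr]; exact pow_pos hr0 _
  have hWG : W G ≤ 1 := by
    have e : G = α - β := by rw [hβ]; ring
    rw [e]
    exact (Valuation.map_sub W _ _).trans (max_le hα1.le hg.le)
  have hWpR : W (p : Ω) * R ≤ R ^ p := by
    have e : R ^ p = R ^ (p - 1) * R := by rw [← pow_succ, Nat.sub_add_cancel hp.one_lt.le]
    rw [← hr, e]
    gcongr
  have hWRp : W (p : Ω) * R ^ p ≤ W (p : Ω) * R := by
    gcongr
    calc R ^ p ≤ R ^ 1 := pow_le_pow_of_le_one zero_le hg.le hp.one_lt.le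
      _ = R := pow_one R
  set h := algebraMap F Ω (a - g ^ p) with hh
  have hh' : h = (β + G) ^ p - G ^ p := by
    rw [hh, map_sub, map_pow, ← ha, hβ]
    ring
  have h1 : W (h - β ^ p) ≤ W (p : Ω) * R := by
    have := fresh W hp (x := β) (y := G) (M := 1) hg.le hWG
    rw [one_pow, mul_one] at this
    rw [hh']
    have e : (β + G) ^ p - G ^ p - β ^ p = (β + G) ^ p - β ^ p - G ^ p := by ring
    rw [e]
    refine this.trans ?_
    gcongr
    calc R * W G ≤ R * 1 := by gcongr
      _ = R := mul_one _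
  have h2 : W h ≤ R ^ p := by
    have e : h = (h - β ^ p) + β ^ p := by ring
    rw [e]
    refine Valuation.map_add_le W (h1.trans hWpR) ?_
    rw [map_pow]
  obtain ⟨u, hu⟩ := hD.dense h ⟨_, rfl⟩ (W (p : Ω) * R) (mul_pos hWp hRpos)
  have hu1 : W (ev t u) ≤ R ^ p := by
    have e : ev t u = h - (h - ev t u) := by ring
    rw [e]
    exact (Valuation.map_sub W _ _).trans (max_le h2 (hu.le.trans hWpR))
  have hu2 : ∀ n, W (algebraMap C Ω (u n) * t ^ n) ≤ R ^ p := fun n =>
    (hD.t3.term_le u n).trans hu1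
  have hq1 : W (ev t (fold hp.pos u)) ≤ R := ev_le _ (fold_le hp.pos u t hu2)
  have hq2 := fold_near hp u t hu2
  set q := ev t (fold hp.pos u) with hq
  obtain ⟨q', hq'⟩ := ev_mem_range hD.mem (fold hp.pos u)
  refine ⟨g + q', ?_⟩
  rw [map_add, hq', ← hG, ← hq]
  have eβ : α - (G + q) = β - q := by rw [hβ]; ring
  rw [eβ]
  have h3 := fresh_sub W hp (x := β) (y := q) (M := R) le_rfl hq1
  set v := u.filter fun n => ¬ (p : ℤ) ∣ n with hv
  have huv : ev t u = ev t (u.filter fun n => (p : ℤ) ∣ n) + ev t v := by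
    rw [← map_add, hv, Finsupp.filter_add_filter_not]
  have h4 : W ((β - q) ^ p - ev t v) ≤ W (p : Ω) * R := by
    have e : (β - q) ^ p - ev t v = -(h - β ^ p) + (h - ev t u) -
        (q ^ p - ev t (u.filter fun n => (p : ℤ) ∣ n)) + ((β - q) ^ p - β ^ p + q ^ p) := by
      rw [huv]; ring
    rw [e]
    refine Valuation.map_add_le W ((Valuation.map_sub W _ _).trans (max_le
      (Valuation.map_add_le W (by rw [Valuation.map_neg]; exact h1) hu.le)
      (hq2.trans hWRp))) (h3.trans hWRp)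
  by_contra hcon
  rw [not_le, ← map_pow] at hcon
  have h5 : W (ev t v) = W ((β - q) ^ p) :=
    Valuation.map_eq_of_sub_lt W (by rw [Valuation.map_sub_swap]; exact h4.trans_lt hcon)
  have hGL : G ∈ L := L.algebraMap_mem g
  have hqL : q ∈ L := by
    rw [hq, ← hq']
    exact L.algebraMap_mem q'
  refine no_prime_exponent (p := p) hD.t3 hV (b := β - q) (L.sub_mem (L.sub_mem hα hGL) hqL) v ?_ ?_ ?_
  · intro n hn hpn
    rw [hv, Finsupp.filter_apply_neg (fun n => ¬ (p : ℤ) ∣ n) u (not_not.2 hpn)] at hn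
    exact hn rfl
  · intro h0
    rw [h0, map_zero] at h5
    rw [← h5] at hcon
    exact not_lt_zero hcon
  · rw [h5, map_pow]

/-- the distance to `F` is at most `r` -/
theorem ni_dist (hp : p.Prime) {t : Ω} (hD : Dn C W (Set.range (algebraMap F Ω)) t)
    {L : IntermediateField F Ω} (hV : VG C W (L : Set Ω) t) {α : Ω} (hα : α ∈ L)
    {a : F} (ha : α ^ p = algebraMap F Ω a) (hα1 : W (α - 1) < 1)
    {r : ℝ≥0} (hr0 : 0 < r) (hr1 : r < 1) (hr : r ^ (p - 1) = W (p : Ω))
    (hkr : ∀ g : F, r ≤ W (α - algebraMap F Ω g)) {η : ℝ≥0} (hη : 1 < η) :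
    ∃ g : F, W (α - algebraMap F Ω g) ≤ r * η := by
  have hWα : W α = 1 := by
    have := Valuation.map_one_add_of_lt (v := W) (x := α - 1) hα1
    rwa [add_sub_cancel] at this
  have key : ∀ k : ℕ, ∃ g : F, W (α - algebraMap F Ω g) < 1 ∧
      W (α - algebraMap F Ω g) ^ (p ^ k) ≤ r ^ (p ^ k - 1) := by
    intro k
    induction k with
    | zero => exact ⟨1, by rwa [map_one], by rw [map_one]; simpa using hα1.le⟩
    | succ k ih =>
      obtain ⟨g, hg1, hg2⟩ := ih
      obtain ⟨g', hg'⟩ := ni_step hp hD hV hα ha hWα hr0 hr hkr g hg1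
      refine ⟨g', ?_, ?_⟩
      · by_contra hcon
        rw [not_lt] at hcon
        have h1 : W (p : Ω) * W (α - algebraMap F Ω g) < 1 := by
          rw [← hr]
          calc r ^ (p - 1) * W (α - algebraMap F Ω g) ≤ 1 * W (α - algebraMap F Ω g) := by
                gcongr
                exact pow_le_one' hr1.le _
            _ < 1 := by rw [one_mul]; exact hg1
        exact absurd (hg'.trans_lt h1) (not_lt.2 (one_le_pow_of_one_le' hcon p))
      · have hpk : 1 ≤ p ^ k := Nat.one_le_pow _ _ hp.pos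
        have e1 : p ^ (k + 1) = p * p ^ k := by rw [pow_succ']
        have e2 : p ^ (k + 1) - 1 = (p - 1) * p ^ k + (p ^ k - 1) := by
          rw [e1, Nat.sub_mul, one_mul]
          have : p ^ k ≤ p * p ^ k := Nat.le_mul_of_pos_left _ hp.pos
          omega
        calc W (α - algebraMap F Ω g') ^ p ^ (k + 1)
            = (W (α - algebraMap F Ω g') ^ p) ^ p ^ k := by rw [← pow_mul, e1]
          _ ≤ (W (p : Ω) * W (α - algebraMap F Ω g)) ^ p ^ k := by gcongr
          _ = r ^ ((p - 1) * p ^ k) * W (α - algebraMap F Ω g) ^ p ^ k := by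
              rw [mul_pow, ← hr, pow_mul]
          _ ≤ r ^ ((p - 1) * p ^ k) * r ^ (p ^ k - 1) := by gcongr
          _ = r ^ (p ^ (k + 1) - 1) := by rw [← pow_add, e2]
  -- choose `k` large
  obtain ⟨k, hk⟩ : ∃ k : ℕ, η⁻¹ ^ (p ^ k) < r := by
    obtain ⟨m, hm⟩ := NNReal.exists_pow_lt_of_lt_one hr0 (inv_lt_one_of_one_lt₀ hη)
    refine ⟨m, lt_of_le_of_lt ?_ hm⟩
    refine pow_le_pow_of_le_one zero_le (inv_lt_one_of_one_lt₀ hη).le ?_
    exact (Nat.lt_pow_self hp.one_lt).le
  obtain ⟨g, -, hg⟩ := key k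
  refine ⟨g, ?_⟩
  by_contra hcon
  rw [not_le] at hcon
  have hpk : 1 ≤ p ^ k := Nat.one_le_pow _ _ hp.pos
  have h1 : (r * η) ^ (p ^ k) ≤ r ^ (p ^ k - 1) := (pow_le_pow_left₀ zero_le hcon.le _).trans hg
  have h2 : r * η ^ (p ^ k) ≤ 1 := by
    have e : (r * η) ^ (p ^ k) = r ^ (p ^ k - 1) * (r * η ^ (p ^ k)) := by
      rw [mul_pow, ← mul_assoc, ← pow_succ, Nat.sub_add_cancel hpk]
    rw [e] at h1
    exact le_of_mul_le_mul_left (by rwa [mul_one]) (pow_pos hr0 _)
  rw [inv_pow] at hk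
  have hη0 : 0 < η ^ p ^ k := pow_pos (zero_lt_one.trans hη) _
  have h3 : 1 < r * η ^ (p ^ k) := by
    calc 1 = (η ^ p ^ k)⁻¹ * η ^ p ^ k := (inv_mul_cancel₀ hη0.ne').symm
      _ < r * η ^ p ^ k := mul_lt_mul_of_pos_right hk hη0
  exact absurd h2 (not_le.2 h3)

/-- **no immediate Kummer extension of degree `p`** -/
theorem ni_core (hp : p.Prime) {t : Ω} (hD : Dn C W (Set.range (algebraMap F Ω)) t)
    {L : IntermediateField F Ω} (hV : VG C W (L : Set Ω) t) (hRes : RES C W (L : Set Ω))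
    {α : Ω} (hα : α ∈ L)
    {a : F} (ha : α ^ p = algebraMap F Ω a) (hα1 : W (α - 1) < 1)
    {r : ℝ≥0} (hr0 : 0 < r) (hr1 : r < 1) (hr : r ^ (p - 1) = W (p : Ω))
    (hkr : ∀ g : F, r ≤ W (α - algebraMap F Ω g)) : False := by
  classical
  have hp2 := hp.two_le
  have hWα : W α = 1 := by
    have := Valuation.map_one_add_of_lt (v := W) (x := α - 1) hα1
    rwa [add_sub_cancel] at this
  set s := max r (W (α - 1)) with hs
  have hs1 : s < 1 := max_lt hr1 hα1
  have hs0 : 0 < s := hr0.trans_le (le_max_left _ _)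
  obtain ⟨η, hη, hηs⟩ : ∃ η : ℝ≥0, 1 < η ∧ s * η ^ p < 1 := by
    have hc : Continuous fun η : ℝ≥0 => s * η ^ p := by fun_prop
    have h1 : ∀ᶠ η in nhds (1 : ℝ≥0), s * η ^ p < 1 :=
      (hc.tendsto' 1 s (by simp)).eventually (gt_mem_nhds hs1)
    obtain ⟨η, h2, h3⟩ := ((h1.filter_mono (nhdsWithin_le_nhds (s := Set.Ioi 1))).and
      self_mem_nhdsWithin).exists
    exact ⟨η, h3, h2⟩
  have hη1 : 1 ≤ η := hη.le
  have hηp : η ≤ η ^ p := by
    calc η = η ^ 1 := (pow_one η).symm
      _ ≤ η ^ p := pow_le_pow_right₀ hη1 hp.one_lt.le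
  have hη2p : η ^ 2 ≤ η ^ p := pow_le_pow_right₀ hη1 hp2
  have hrs : r ≤ s := le_max_left _ _
  have hωs : W (α - 1) ≤ s := le_max_right _ _
  have hrη2 : r * η ^ 2 < 1 := lt_of_le_of_lt (mul_le_mul' hrs hη2p) hηs
  have hrη : r * η < 1 := lt_of_le_of_lt (mul_le_mul' hrs hηp) hηs
  have hpη : W (p : Ω) * η ^ p < 1 := by
    refine lt_of_le_of_lt (mul_le_mul' ?_ le_rfl) hηs
    rw [← hr]
    refine le_trans ?_ hrs
    calc r ^ (p - 1) ≤ r ^ 1 := pow_le_pow_of_le_one zero_le hr1.le (by omega)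
      _ = r := pow_one r
  obtain ⟨g, hg⟩ := ni_dist hp hD hV hα ha hα1 hr0 hr1 hr hkr hη
  obtain ⟨lam, hlam⟩ := IsAlgClosed.exists_pow_nat_eq (-(p : C)) (n := p - 1) (by omega)
  set lm := algebraMap C Ω lam with hlm
  have hlmp : lm ^ (p - 1) = -(p : Ω) := by
    rw [hlm, ← map_pow, hlam, map_neg, map_natCast]
  have hWlm : W lm = r := by
    have h1 : W lm ^ (p - 1) = r ^ (p - 1) := by
      rw [← map_pow, hlmp, Valuation.map_neg, hr]
    exact (pow_left_inj₀ zero_le zero_le (by omega)).1 h1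
  have hlm0 : lm ≠ 0 := by
    intro h
    rw [h, map_zero] at hWlm
    exact hr0.ne hWlm
  set G := algebraMap F Ω g with hG
  set β := α - G with hβ
  have hWβ : W β ≤ r * η := hg
  have hWβ1 : W β ≤ 1 := hWβ.trans hrη.le
  have hWG1 : W (G - 1) ≤ s ∨ W (G - 1) ≤ r * η := by
    have e : G - 1 = (α - 1) - β := by rw [hβ]; ring
    have := Valuation.map_sub W (α - 1) β
    rw [← e] at this
    rcases le_max_iff.1 this with h | h
    · exact Or.inl (h.trans hωs)
    · exact Or.inr (h.trans hWβ)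
  have hWGη : W (G - 1) * η < 1 := by
    rcases hWG1 with h | h
    · exact lt_of_le_of_lt (mul_le_mul' h hηp) hηs
    · refine lt_of_le_of_lt (mul_le_mul' h le_rfl) ?_
      rw [mul_assoc, ← pow_two]
      exact hrη2
  have hWG : W G ≤ 1 := by
    have e : G = α - β := by rw [hβ]; ring
    rw [e]
    exact (Valuation.map_sub W _ _).trans (max_le hWα.le hWβ1)
  set b := β / lm with hb
  have hWb : W b ≤ η := by
    rw [hb, map_div₀, hWlm, div_le_iff₀ hr0, mul_comm]
    exact hWβ
  have hβb : β = b * lm := by rw [hb, div_mul_cancel₀ _ hlm0]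
  set U := algebraMap F Ω ((a - g ^ p) / algebraMap C F lam ^ p) with hU
  have hU' : U = ((β + G) ^ p - G ^ p) / lm ^ p := by
    rw [hU, map_div₀, map_sub, map_pow, map_pow, ← ha, ← IsScalarTower.algebraMap_apply C F Ω,
      hβ, ← hG, ← hlm]
    ring
  have hb1 : W (b ^ p - b - U) < 1 := by
    have h1 := fresh2 W hp (x := β) (y := G) hWβ1 hWG
    set E := (β + G) ^ p - β ^ p - G ^ p - (p : Ω) * β * G ^ (p - 1) with hE
    have e1 : b ^ p - b - U = b * (G ^ (p - 1) - 1) - E / lm ^ p := by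
      have e2 : (β + G) ^ p - G ^ p = E + β ^ p + (p : Ω) * β * G ^ (p - 1) := by rw [hE]; ring
      have e3 : (p : Ω) = -lm ^ (p - 1) := by rw [hlmp, neg_neg]
      have e4 : lm ^ p = lm ^ (p - 1) * lm := by
        rw [← pow_succ, Nat.sub_add_cancel hp.one_lt.le]
      have e5 : (p : Ω) * β * G ^ (p - 1) / lm ^ p = -(b * G ^ (p - 1)) := by
        rw [e3, hβb, e4]
        have := pow_ne_zero (p - 1) hlm0
        field_simp
      have e6 : β ^ p / lm ^ p = b ^ p := by rw [hb, div_pow]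
      rw [hU', e2, add_div, add_div, e5, e6]
      ring
    rw [e1]
    refine Valuation.map_sub_lt W ?_ ?_
    · rw [map_mul]
      have h2 : W (G ^ (p - 1) - 1) ≤ W (G - 1) := by
        have h3 : ∀ n : ℕ, W (G ^ n - 1) ≤ W (G - 1) := by
          intro n
          induction n with
          | zero => rw [pow_zero, sub_self, map_zero]; exact zero_le
          | succ n ih =>
            have e : G ^ (n + 1) - 1 = G * (G ^ n - 1) + (G - 1) := by ring
            rw [e]
            refine Valuation.map_add_le W ?_ le_rfl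
            rw [map_mul]
            exact (mul_le_mul' hWG ih).trans (one_mul _).le
        exact h3 _
      calc W b * W (G ^ (p - 1) - 1) ≤ η * W (G - 1) := mul_le_mul' hWb h2
        _ < 1 := by rw [mul_comm]; exact hWGη
    · rw [map_div₀, map_pow, hWlm, div_lt_one₀ (pow_pos hr0 _)]
      calc W E ≤ W (p : Ω) * W β ^ 2 := h1
        _ ≤ r ^ (p - 1) * (r * η) ^ 2 := by rw [hr]; gcongr
        _ = r ^ p * (r * η ^ 2) := by
            have : r ^ p = r ^ (p - 1) * r := by
              rw [← pow_succ, Nat.sub_add_cancel hp.one_lt.le]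
            rw [this]; ring
        _ < r ^ p * 1 := mul_lt_mul_of_pos_left hrη2 (pow_pos hr0 _)
        _ = r ^ p := mul_one _
  have hηp1 : 1 ≤ η ^ p := one_le_pow_of_one_le' hη1 p
  have hWU : W U ≤ η ^ p := by
    have e : U = b ^ p - b - (b ^ p - b - U) := by ring
    rw [e]
    refine (Valuation.map_sub W _ _).trans (max_le ((Valuation.map_sub W _ _).trans (max_le ?_ ?_))
      (hb1.le.trans hηp1))
    · rw [map_pow]; gcongr
    · exact hWb.trans hηp
  obtain ⟨u, hu⟩ := hD.dense U ⟨_, rfl⟩ 1 zero_lt_one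
  have hWu : W (ev t u) ≤ η ^ p := by
    have e : ev t u = U - (U - ev t u) := by ring
    rw [e]
    exact (Valuation.map_sub W _ _).trans (max_le hWU (hu.le.trans hηp1))
  obtain ⟨q, u', hq, hu', hqu⟩ := as_fold hp hη1 hpη (u.support.sup Int.natAbs) u
    (fun n => (hD.t3.term_le u n).trans hWu)
    (fun n hn _ => Finset.le_sup (f := Int.natAbs) (Finsupp.mem_support_iff.2 hn))
  have hWq : W (ev t q) ≤ η := ev_le q hq
  set b' := b - ev t q with hb'
  have h3 := fresh_sub W hp (x := b) (y := ev t q) (M := η) hWb hWq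
  have hb'1 : W (b' ^ p - b' - ev t u') < 1 := by
    have e : b' ^ p - b' - ev t u' = (b ^ p - b - U) + (U - ev t u) +
        (ev t u - ev t q ^ p + ev t q - ev t u') +
        ((b - ev t q) ^ p - b ^ p + ev t q ^ p) := by
      rw [hb']; ring
    rw [e]
    exact Valuation.map_add_lt W (Valuation.map_add_lt W (Valuation.map_add_lt W hb1 hu) hqu)
      (h3.trans_lt hpη)
  have hCL : ∀ c : C, algebraMap C Ω c ∈ L := fun c => by
    rw [IsScalarTower.algebraMap_apply C F Ω]
    exact L.algebraMap_mem _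
  obtain ⟨q', hq'⟩ := ev_mem_range hD.mem q
  have hb'L : b' ∈ L := by
    rw [hb', ← hq']
    exact L.sub_mem (L.div_mem (L.sub_mem hα (L.algebraMap_mem g)) (hCL lam))
      (L.algebraMap_mem q')
  have hb'2 : W b' ≤ 1 := by
    by_contra hcon
    rw [not_le] at hcon
    have h4 : W b' < W (b' ^ p) := by
      rw [map_pow]
      calc W b' = W b' ^ 1 := (pow_one _).symm
        _ < W b' ^ p := pow_lt_pow_right₀ hcon hp.one_lt
    have h5 : W (b' ^ p - b') = W b' ^ p := by
      rw [Valuation.map_sub_eq_of_lt_left W h4, map_pow]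
    have h6 : W (ev t u') = W b' ^ p := by
      rw [← h5]
      refine Valuation.map_eq_of_sub_lt W ?_
      rw [Valuation.map_sub_swap, h5]
      exact hb'1.trans (one_lt_pow₀ hcon hp.ne_zero)
    refine no_prime_exponent (p := p) hD.t3 hV hb'L u' hu' ?_ h6.symm
    intro h0
    rw [h0, map_zero] at h6
    exact (pow_ne_zero p (zero_lt_one.trans hcon).ne') h6.symm
  obtain ⟨c, hc⟩ := hRes b' hb'L hb'2
  have h7 := hkr (g + algebraMap C F lam * (q' + algebraMap C F c))
  rw [map_add, map_mul, map_add, hq', ← IsScalarTower.algebraMap_apply C F Ω,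
    ← IsScalarTower.algebraMap_apply C F Ω, ← hG, ← hlm] at h7
  have e : α - (G + lm * (ev t q + algebraMap C Ω c)) = lm * (b' - algebraMap C Ω c) := by
    have : α = b * lm + G := by rw [← hβb, hβ]; ring
    rw [this, hb']
    ring
  rw [e, map_mul, hWlm] at h7
  have h8 : r * W (b' - algebraMap C Ω c) < r * 1 := mul_lt_mul_of_pos_left hc hr0
  rw [mul_one] at h8
  exact absurd h7 (not_le.2 h8)

end NI

end Crest.Agent.R013.LU3_205
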