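import Mathlib
import Crest.Agent.R013.LU3c_205

/-!
R013 / SS-LU3 (helper205), part 4.  Over a henselian field (`Inv F W`) with dense Laurent polynomials
in a type 3 element: tame extensions and cyclic extensions of degree `p` have ramification index equal
to the degree.
-/

set_option autoImplicit false
set_option linter.unusedSectionVars false

namespace Crest.Agent.R013.LU3_205

open scoped NNReal
open Polynomial Crest.Agent.R013.Hens_899

variable {C F Ω : Type*} [Field C] [Field F] [Field Ω] [Algebra C F] [Algebra F Ω] [Algebra C Ω]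
  [IsScalarTower C F Ω] {W : Valuation Ω ℝ≥0} [IsAlgClosed C] [IsAlgClosed Ω] [IsGalois F Ω]

theorem inv_emb (hW : Inv F W) (L : IntermediateField F Ω) (σ : L →ₐ[F] Ω) (x : L) :
    W (σ x) = W (x : Ω) := by
  set τ : Ω →ₐ[F] Ω := σ.liftNormal Ω with hτ
  have h1 : τ (x : Ω) = σ x := AlgHom.liftNormal_commutes σ Ω x
  have hbij : Function.Bijective τ := Algebra.IsAlgebraic.algHom_bijective τ
  have h2 := hW (AlgEquiv.ofBijective τ hbij) (x : Ω)
  rw [← h1]
  exact h2

theorem inv_aut (hW : Inv F W) (L : IntermediateField F Ω) (σ : L ≃ₐ[F] L) (x : L) :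
    W ((σ x : L) : Ω) = W (x : Ω) :=
  inv_emb hW L (L.val.comp σ.toAlgHom) x

theorem e_ne_zero {t z : Ω} (ht : T3 C W t) {e : ℕ} {c : C}
    (hc' : W t = W (algebraMap C Ω c) * W z ^ e) : e ≠ 0 := by
  rintro rfl
  have := ht.tor 1 c (by rw [zpow_one, hc', pow_zero, mul_one])
  exact one_ne_zero this

/-- **tame case** -/
theorem tame_le (hW : Inv F W) {t : Ω} (hD : Dn C W (Set.range (algebraMap F Ω)) t)
    (L : IntermediateField F Ω) [FiniteDimensional F L] (hm : W (Module.finrank F L : Ω) = 1)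
    {z : Ω} (hz : z ∈ L) (h3 : T3 C W z) (hV : VG C W (L : Set Ω) z) {e : ℕ} {c : C} (hc : c ≠ 0)
    (hc' : W t = W (algebraMap C Ω c) * W z ^ e) : Module.finrank F L ≤ e := by
  classical
  have he : e ≠ 0 := e_ne_zero hD.t3 hc'
  have hWz := h3.W_ne
  have hWc : W (algebraMap C Ω c) ≠ 0 :=
    (Valuation.ne_zero_iff W).2 ((_root_.map_ne_zero _).2 hc)
  have : Algebra.IsSeparable F L := Algebra.isSeparable_tower_bot_of_isSeparable F L Ω
  obtain ⟨tF, htF⟩ := hD.mem
  set z' : L := ⟨z, hz⟩ with hz'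
  have hz'0 : z' ≠ 0 := fun h => h3.ne (congrArg Subtype.val h)
  let T : L →ₗ[F] (Fin e → F) := LinearMap.pi fun j =>
    (Algebra.trace F L) ∘ₗ (LinearMap.mulLeft F ((z' ^ (j : ℕ))⁻¹))
  have hT : Function.Injective T := by
    rw [injective_iff_map_eq_zero]
    intro y hy
    by_contra hy0
    have hyΩ : (y : Ω) ≠ 0 := fun h => hy0 (Subtype.ext h)
    obtain ⟨d, n, hd, hn⟩ := hV (y : Ω) y.2 hyΩ
    have hWd : W (algebraMap C Ω d) ≠ 0 :=
      (Valuation.ne_zero_iff W).2 ((_root_.map_ne_zero _).2 hd)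
    have hj0 : 0 ≤ n % e := Int.emod_nonneg _ (by exact_mod_cast he)
    obtain ⟨j, hj⟩ := Int.eq_ofNat_of_zero_le hj0
    have hje : j < e := by
      have := Int.emod_lt_of_pos n (b := (e : ℤ)) (by positivity)
      rw [hj] at this
      exact_mod_cast this
    set q := n / (e : ℤ) with hq
    have hn2 : n = (e : ℤ) * q + j := by rw [← hj, hq, Int.mul_ediv_add_emod]
    set κ : F := algebraMap C F (d * (c ^ q)⁻¹) * tF ^ q with hκ
    have hκΩ : algebraMap F Ω κ = algebraMap C Ω d * (algebraMap C Ω c ^ q)⁻¹ * t ^ q := by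
      rw [hκ, map_mul, ← IsScalarTower.algebraMap_apply C F Ω, map_zpow₀, htF, map_mul, map_inv₀,
        map_zpow₀]
    have hWκ : W (algebraMap F Ω κ * z ^ j) = W (y : Ω) := by
      rw [hκΩ, map_mul, map_mul, map_mul, map_inv₀, map_zpow₀, map_zpow₀, map_pow, hn, hn2, hc',
        mul_zpow, zpow_add₀ hWz, zpow_mul, zpow_natCast, zpow_natCast]
      have := zpow_ne_zero q hWc
      field_simp
    have hκ0 : κ ≠ 0 := by
      rintro h
      rw [h, map_zero, zero_mul, map_zero] at hWκ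
      exact hyΩ ((map_eq_zero W).1 hWκ.symm)
    set b : L := y * (algebraMap F L κ * z' ^ j)⁻¹ with hb
    have hbΩ : (b : Ω) = y * (algebraMap F Ω κ * z ^ j)⁻¹ := rfl
    have hWy : W (y : Ω) ≠ 0 := (Valuation.ne_zero_iff W).2 hyΩ
    have hWb : W (b : Ω) = 1 := by
      rw [hbΩ, map_mul, map_inv₀, hWκ, mul_inv_cancel₀ hWy]
    have hint : IsIntegral F (b : Ω) := (Algebra.IsIntegral.isIntegral (R := F) b).map L.val
    obtain ⟨c₃, hc₃⟩ := res_alg hD hint hWb.le
    have hWc₃ : W (algebraMap C Ω c₃) = 1 := by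
      have := Valuation.map_eq_of_sub_lt W (x := (b : Ω)) (y := algebraMap C Ω c₃)
        (by rw [hWb, Valuation.map_sub_swap]; exact hc₃)
      rw [this, hWb]
    have htr : Algebra.trace F L b = 0 := by
      have h1 : T y ⟨j, hje⟩ = 0 := by rw [hy]; rfl
      have h2 : T y ⟨j, hje⟩ = Algebra.trace F L ((z' ^ j)⁻¹ * y) := rfl
      have h4 : (z' ^ j)⁻¹ * y = κ • b := by
        rw [Algebra.smul_def, hb, mul_inv]
        have hκL : algebraMap F L κ ≠ 0 := (_root_.map_ne_zero _).2 hκ0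
        have := pow_ne_zero j hz'0
        field_simp
      rw [h2, h4, map_smul, smul_eq_mul] at h1
      rcases mul_eq_zero.1 h1 with h | h
      · exact absurd h hκ0
      · exact h
    have hsum : (0 : Ω) = (Module.finrank F L : Ω) * algebraMap C Ω c₃ +
        ∑ σ : L →ₐ[F] Ω, (σ b - algebraMap C Ω c₃) := by
      rw [Finset.sum_sub_distrib, ← trace_eq_sum_embeddings (K := F) Ω, htr, map_zero,
        Finset.sum_const, Finset.card_univ, AlgHom.card F L Ω, nsmul_eq_mul]
      ring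
    have hlt : W (∑ σ : L →ₐ[F] Ω, (σ b - algebraMap C Ω c₃)) < 1 := by
      refine Valuation.map_sum_lt W one_ne_zero fun σ _ => ?_
      have h1 : σ b - algebraMap C Ω c₃ = σ (b - algebraMap F L (algebraMap C F c₃)) := by
        rw [map_sub, AlgHom.commutes, ← IsScalarTower.algebraMap_apply C F Ω]
      rw [h1, inv_emb hW L σ]
      have h2 : ((b - algebraMap F L (algebraMap C F c₃) : L) : Ω) =
          (b : Ω) - algebraMap C Ω c₃ := by
        rw [IsScalarTower.algebraMap_apply C F Ω]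
        rfl
      rw [h2]
      exact hc₃
    have heq : (Module.finrank F L : Ω) * algebraMap C Ω c₃ =
        -∑ σ : L →ₐ[F] Ω, (σ b - algebraMap C Ω c₃) := eq_neg_of_add_eq_zero_left hsum.symm
    have h6 := congrArg W heq
    rw [map_mul, hm, hWc₃, Valuation.map_neg, one_mul] at h6
    rw [← h6] at hlt
    exact lt_irrefl _ hlt
  have := LinearMap.finrank_le_finrank_of_injective hT
  rwa [Module.finrank_fin_fun] at this

/-- the ramification index divides the degree -/
theorem e_dvd (hW : Inv F W) {t : Ω} (hVF : VG C W (Set.range (algebraMap F Ω)) t)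
    (L : IntermediateField F Ω) [FiniteDimensional F L]
    {z : Ω} (hz : z ∈ L) (h3 : T3 C W z) {e : ℕ} {c : C} (hc : c ≠ 0)
    (hc' : W t = W (algebraMap C Ω c) * W z ^ e) : e ∣ Module.finrank F L := by
  classical
  have : Algebra.IsSeparable F L := Algebra.isSeparable_tower_bot_of_isSeparable F L Ω
  set z' : L := ⟨z, hz⟩ with hz'
  have h1 := Algebra.norm_eq_prod_embeddings (K := F) (E := Ω) z'
  have h2 : W (algebraMap F Ω (Algebra.norm F z')) = W z ^ Module.finrank F L := by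
    rw [h1, map_prod]
    rw [Finset.prod_congr rfl fun σ _ => inv_emb hW L σ z', Finset.prod_const, Finset.card_univ,
      AlgHom.card F L Ω]
  have hz'0 : z' ≠ 0 := fun h => h3.ne (congrArg Subtype.val h)
  obtain ⟨d, n, hd, hn⟩ := hVF (algebraMap F Ω (Algebra.norm F z')) ⟨_, rfl⟩ (by
    rw [Ne, _root_.map_eq_zero]
    exact Algebra.norm_ne_zero_iff.2 hz'0)
  have h4 : W (algebraMap C Ω 1) * W z ^ ((Module.finrank F L : ℕ) : ℤ) =
      W (algebraMap C Ω (d * c ^ n)) * W z ^ ((e : ℤ) * n) := by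
    rw [map_one, map_one, one_mul, zpow_natCast, ← h2, hn, hc', mul_zpow, zpow_mul, zpow_natCast,
      map_mul, map_mul, map_zpow₀, map_zpow₀, mul_assoc]
  have h5 := h3.eq_of ((_root_.map_ne_zero _).2 (mul_ne_zero hd (zpow_ne_zero _ hc))) h4
  exact Int.natCast_dvd_natCast.1 ⟨n, h5⟩

/-- `|p| ≤ |1 - ζ| ^ (p - 1)` -/
theorem W_le_root {p : ℕ} (hp : p.Prime) {ζ : Ω} (hζ : ζ ^ p = 1) (hζ1 : ζ ≠ 1) :
    W (p : Ω) ≤ W (1 - ζ) ^ (p - 1) := by
  have : Fact p.Prime := ⟨hp⟩
  have hprim : IsPrimitiveRoot ζ p := by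
    have := IsPrimitiveRoot.orderOf ζ
    rwa [orderOf_eq_prime hζ hζ1] at this
  have hWζ : W ζ = 1 := by
    have h1 : W ζ ^ p = 1 ^ p := by rw [← map_pow, hζ, map_one, one_pow]
    exact (pow_left_inj₀ zero_le zero_le hp.ne_zero).1 h1
  obtain ⟨q, rfl⟩ : ∃ q, p = q + 1 := ⟨p - 1, (Nat.sub_add_cancel hp.one_lt.le).symm⟩
  have h1 := IsPrimitiveRoot.prod_one_sub_pow_eq_order hprim
  have h2 : ((q + 1 : ℕ) : Ω) = ∏ k ∈ Finset.range q, (1 - ζ ^ (k + 1)) := by
    rw [h1]; push_cast; ring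
  rw [h2, map_prod, Nat.add_sub_cancel]
  calc ∏ k ∈ Finset.range q, W (1 - ζ ^ (k + 1)) ≤ ∏ _k ∈ Finset.range q, W (1 - ζ) := by
        refine Finset.prod_le_prod' fun k _ => ?_
        have h3 : ∀ n : ℕ, W (1 - ζ ^ n) ≤ W (1 - ζ) := by
          intro n
          induction n with
          | zero => rw [pow_zero, sub_self, map_zero]; exact zero_le
          | succ n ih =>
            have e : 1 - ζ ^ (n + 1) = (1 - ζ) + ζ * (1 - ζ ^ n) := by ring
            rw [e]
            refine Valuation.map_add_le W le_rfl ?_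
            rw [map_mul, hWζ, one_mul]
            exact ih
        exact h3 _
    _ = W (1 - ζ) ^ q := by rw [Finset.prod_const, Finset.card_range]

/-- **a Galois extension of degree `p` is not immediate** -/
theorem not_vg [CharZero Ω] (hW : Inv F W) {p : ℕ} (hp : p.Prime) (hWp : W (p : Ω) < 1) {t : Ω}
    (hD : Dn C W (Set.range (algebraMap F Ω)) t) (L : IntermediateField F Ω)
    [FiniteDimensional F L] [IsGalois F L] (hL : Module.finrank F L = p)
    (hV : VG C W (L : Set Ω) t) : False := by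
  classical
  have : Fact p.Prime := ⟨hp⟩
  have : CharZero C := (algebraMap C Ω).charZero
  have : CharZero F := (algebraMap F Ω).charZero
  have hint : ∀ y ∈ L, IsIntegral F y := fun y hy =>
    (Algebra.IsIntegral.isIntegral (R := F) (⟨y, hy⟩ : L)).map L.val
  have hRes : RES C W (L : Set Ω) := fun y hy hy1 => res_alg hD (hint y hy) hy1
  -- primitive root
  have hprim : (primitiveRoots (Module.finrank F L) F).Nonempty := by
    rw [hL]
    obtain ⟨ζ, hζ⟩ := IsAlgClosed.exists_root (cyclotomic p C)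
      (degree_cyclotomic_pos p C hp.pos).ne'
    rw [isRoot_cyclotomic_iff] at hζ
    exact ⟨algebraMap C F ζ, (mem_primitiveRoots hp.pos).2
      (hζ.map_of_injective (algebraMap C F).injective)⟩
  have hcard : Nat.card (L ≃ₐ[F] L) = p := by rw [IsGalois.card_aut_eq_finrank, hL]
  have : IsCyclic (L ≃ₐ[F] L) := isCyclic_of_prime_card hcard
  obtain ⟨α, ⟨a, ha⟩, hα⟩ := exists_root_adjoin_eq_top_of_isCyclic F L hprim
  rw [hL] at ha
  have hαF : α ∉ Set.range (algebraMap F L) := by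
    intro h
    have h1 : (IntermediateField.adjoin F {α}) = ⊥ := by
      rw [IntermediateField.adjoin_simple_eq_bot_iff, IntermediateField.mem_bot]
      exact h
    rw [hα] at h1
    have h2 : Module.finrank F L = 1 := by
      rw [← IntermediateField.finrank_top' (F := F) (E := L), h1, IntermediateField.finrank_bot]
    rw [hL] at h2
    exact hp.ne_one h2
  have hα0 : α ≠ 0 := by
    rintro rfl
    exact hαF ⟨0, map_zero _⟩
  have hαΩ : (α : Ω) ≠ 0 := fun h => hα0 (Subtype.ext h)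
  obtain ⟨σ, hσ⟩ : ∃ σ : L ≃ₐ[F] L, σ α ≠ α := by
    by_contra hcon
    push Not at hcon
    exact hαF ((IsGalois.mem_range_algebraMap_iff_fixed α).2 hcon)
  obtain ⟨tF, htF⟩ := hD.mem
  obtain ⟨d, n, hd, hn⟩ := hV (α : Ω) α.2 hαΩ
  -- normalisation
  obtain ⟨f, hf0, hf⟩ : ∃ f : F, f ≠ 0 ∧ W ((α : Ω) / algebraMap F Ω f - 1) < 1 := by
    set f₀ : F := algebraMap C F d * tF ^ n with hf₀
    have hf₀Ω : algebraMap F Ω f₀ = algebraMap C Ω d * t ^ n := by
      rw [hf₀, map_mul, map_zpow₀, htF, ← IsScalarTower.algebraMap_apply C F Ω]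
    have hWf₀ : W (algebraMap F Ω f₀) = W (α : Ω) := by
      rw [hf₀Ω, map_mul, map_zpow₀, hn]
    have hWα : W (α : Ω) ≠ 0 := (Valuation.ne_zero_iff W).2 hαΩ
    have hf₀0 : f₀ ≠ 0 := by
      intro h
      rw [h, map_zero, map_zero] at hWf₀
      exact hWα hWf₀.symm
    have h1 : W ((α : Ω) / algebraMap F Ω f₀) = 1 := by
      rw [map_div₀, hWf₀, div_self hWα]
    obtain ⟨c, hc⟩ := hRes ((α : Ω) / algebraMap F Ω f₀)
      (L.div_mem α.2 (L.algebraMap_mem f₀)) h1.le
    have hWc : W (algebraMap C Ω c) = 1 := by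
      have := Valuation.map_eq_of_sub_lt W (x := (α : Ω) / algebraMap F Ω f₀)
        (y := algebraMap C Ω c) (by rw [h1, Valuation.map_sub_swap]; exact hc)
      rw [this, h1]
    have hcΩ : algebraMap C Ω c ≠ 0 := by
      intro h
      rw [h, map_zero] at hWc
      exact zero_ne_one hWc
    have hc0 : c ≠ 0 := by
      rintro rfl
      exact hcΩ (map_zero _)
    refine ⟨f₀ * algebraMap C F c, mul_ne_zero hf₀0 ((_root_.map_ne_zero _).2 hc0), ?_⟩
    have e : (α : Ω) / algebraMap F Ω (f₀ * algebraMap C F c) - 1 =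
        ((α : Ω) / algebraMap F Ω f₀ - algebraMap C Ω c) / algebraMap C Ω c := by
      rw [map_mul, ← IsScalarTower.algebraMap_apply C F Ω, sub_div, div_self hcΩ, div_div]
    rw [e, map_div₀, hWc, div_one]
    exact hc
  have hfΩ : algebraMap F Ω f ≠ 0 := (_root_.map_ne_zero _).2 hf0
  set α₂ : L := α / algebraMap F L f with hα₂
  have hα₂Ω : (α₂ : Ω) = (α : Ω) / algebraMap F Ω f := rfl
  have hWα₂1 : W ((α₂ : Ω) - 1) < 1 := by rw [hα₂Ω]; exact hf
  have hWα₂ : W (α₂ : Ω) = 1 := by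
    have := Valuation.map_one_add_of_lt (v := W) (x := (α₂ : Ω) - 1) hWα₂1
    rwa [add_sub_cancel] at this
  have hα₂0 : (α₂ : Ω) ≠ 0 := by
    intro h
    rw [h, map_zero] at hWα₂
    exact zero_ne_one hWα₂
  have hfL : algebraMap F L f ≠ 0 := (_root_.map_ne_zero _).2 hf0
  have hσα₂ : σ α₂ ≠ α₂ := by
    intro h
    rw [hα₂, map_div₀, AlgEquiv.commutes, div_left_inj' hfL] at h
    exact hσ h
  have ha₂ : (α₂ : Ω) ^ p = algebraMap F Ω (a / f ^ p) := by
    have h1 : (α : Ω) ^ p = algebraMap F Ω a := by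
      have := congrArg (algebraMap L Ω) ha
      rw [map_pow] at this
      exact this.symm
    rw [hα₂Ω, div_pow, h1, map_div₀, map_pow]
  -- the root of unity
  set ζ : Ω := ((σ α₂ : L) : Ω) / (α₂ : Ω) with hζ
  have hζp : ζ ^ p = 1 := by
    have h1 : σ α₂ ^ p = α₂ ^ p := by
      rw [← map_pow]
      have h2 : α₂ ^ p = algebraMap F L (a / f ^ p) := Subtype.ext ha₂
      rw [h2, AlgEquiv.commutes]
    have h3 : ((σ α₂ : L) : Ω) ^ p = (α₂ : Ω) ^ p := congrArg (algebraMap L Ω) h1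
    rw [hζ, div_pow, h3, div_self (pow_ne_zero _ hα₂0)]
  have hζ1 : ζ ≠ 1 := by
    intro h
    rw [hζ, div_eq_one_iff_eq hα₂0] at h
    exact hσα₂ (Subtype.ext h)
  have hWpos : 0 < W (p : Ω) := zero_lt_iff.2 ((Valuation.ne_zero_iff W).2
    (Nat.cast_ne_zero.2 hp.ne_zero))
  have hp1 : p - 1 ≠ 0 := by have := hp.two_le; omega
  obtain ⟨lam, hlam⟩ := IsAlgClosed.exists_pow_nat_eq (p : C) (Nat.pos_of_ne_zero hp1)
  set r := W (algebraMap C Ω lam) with hr
  have hrp : r ^ (p - 1) = W (p : Ω) := by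
    rw [hr, ← map_pow, ← map_pow, hlam, map_natCast]
  have hr0 : 0 < r := by
    rw [zero_lt_iff]
    intro h
    rw [h, zero_pow hp1] at hrp
    exact hWpos.ne hrp
  have hr1 : r < 1 := by
    by_contra hcon
    rw [not_lt] at hcon
    exact absurd hWp (not_lt.2 (hrp ▸ one_le_pow_of_one_le' hcon _))
  refine ni_core hp hD hV hRes (α := (α₂ : Ω)) α₂.2 ha₂ hWα₂1 hr0 hr1 hrp ?_
  intro g
  have h1 : r ≤ W (1 - ζ) := by
    rw [← pow_le_pow_iff_left₀ zero_le zero_le hp1, hrp]
    exact W_le_root hp hζp hζ1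
  have h2 : W (1 - ζ) = W (((σ α₂ : L) : Ω) - (α₂ : Ω)) := by
    have e : ((σ α₂ : L) : Ω) - (α₂ : Ω) = -((1 - ζ) * α₂) := by
      rw [hζ, sub_mul, div_mul_cancel₀ _ hα₂0]
      ring
    rw [e, Valuation.map_neg, map_mul, hWα₂, mul_one]
  have h4 : ((σ α₂ : L) : Ω) - (α₂ : Ω) =
      ((σ (α₂ - algebraMap F L g) : L) : Ω) - ((α₂ - algebraMap F L g : L) : Ω) := by
    rw [map_sub, AlgEquiv.commutes]
    push_cast
    ring
  have h5 : ((α₂ - algebraMap F L g : L) : Ω) = (α₂ : Ω) - algebraMap F Ω g := rfl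
  calc r ≤ W (1 - ζ) := h1
    _ = W (((σ (α₂ - algebraMap F L g) : L) : Ω) - ((α₂ - algebraMap F L g : L) : Ω)) := by
        rw [h2, h4]
    _ ≤ max (W ((σ (α₂ - algebraMap F L g) : L) : Ω)) (W ((α₂ - algebraMap F L g : L) : Ω)) :=
        Valuation.map_sub W _ _
    _ = W ((α₂ : Ω) - algebraMap F Ω g) := by rw [inv_aut hW, max_self, h5]

/-- **wild case**: a Galois extension of degree `p` -/
theorem wild_le [CharZero Ω] (hW : Inv F W) {p : ℕ} (hp : p.Prime) (hWp : W (p : Ω) < 1) {t : Ω}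
    (hD : Dn C W (Set.range (algebraMap F Ω)) t) (L : IntermediateField F Ω)
    [FiniteDimensional F L] [IsGalois F L] (hL : Module.finrank F L = p)
    {z : Ω} (hz : z ∈ L) (h3 : T3 C W z) (hV : VG C W (L : Set Ω) z) {e : ℕ} {c : C} (hc : c ≠ 0)
    (hc' : W t = W (algebraMap C Ω c) * W z ^ e) : Module.finrank F L ≤ e := by
  have hdvd := e_dvd hW hD.vg L hz h3 hc hc'
  rw [hL] at hdvd ⊢
  rcases (Nat.dvd_prime hp).1 hdvd with h | h
  · exfalso
    subst h
    rw [pow_one] at hc'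
    have hWc : W (algebraMap C Ω c) ≠ 0 :=
      (Valuation.ne_zero_iff W).2 ((_root_.map_ne_zero _).2 hc)
    refine not_vg hW hp hWp hD L hL ?_
    intro y hy hy0
    obtain ⟨d, n, hd, hn⟩ := hV y hy hy0
    refine ⟨d * (c ^ n)⁻¹, n, mul_ne_zero hd (inv_ne_zero (zpow_ne_zero _ hc)), ?_⟩
    rw [hn, hc', mul_zpow, map_mul, map_mul, map_inv₀, map_inv₀, map_zpow₀, map_zpow₀]
    have := zpow_ne_zero n hWc
    field_simp
  · exact h.ge

end Crest.Agent.R013.LU3_205
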