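import Mathlib
import Crest.Agent.R013.LU3d_205

/-!
R013 / SS-LU3 (helper205), part 5.  **Main theorem (type 3 local uniformisation, henselian level)**:
`F` henselian of mixed characteristic with algebraically closed constants `C`, Laurent polynomials in
a type 3 element dense in `F`, `L/F` finite: `e(L/F) = [L : F]` and any generator `z` of the value
group of `L` is a coordinate: Laurent polynomials in `z` are dense in `L`.
-/

set_option autoImplicit false
set_option linter.unusedSectionVars false

namespace Crest.Agent.R013.LU3_205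

open scoped NNReal
open Polynomial Crest.Agent.R013.Hens_899

section Aux

variable {C F Ω : Type*} [Field C] [Field F] [Field Ω] [Algebra C F] [Algebra F Ω] [Algebra C Ω]
  [IsScalarTower C F Ω] {W : Valuation Ω ℝ≥0}

theorem tower_top (K₁ : IntermediateField F Ω) : IsScalarTower C K₁ Ω :=
  IsScalarTower.of_algebraMap_eq fun _ => rfl

theorem range_val (K₁ : IntermediateField F Ω) : Set.range (algebraMap K₁ Ω) = (K₁ : Set Ω) :=
  Subtype.range_coe

theorem inv_top (hW : Inv F W) (K₁ : IntermediateField F Ω) : Inv K₁ W :=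
  fun σ x => hW (σ.restrictScalars F) x

/-- the conclusion: total ramification and a coordinate -/
def TR (C : Type*) {F Ω : Type*} [Field C] [Field F] [Field Ω] [Algebra F Ω] [Algebra C Ω]
    (W : Valuation Ω ℝ≥0) (t : Ω) (L : IntermediateField F Ω) : Prop :=
  ∃ z ∈ L, Dn C W (L : Set Ω) z ∧ ∃ c : C, c ≠ 0 ∧
    W t = W (algebraMap C Ω c) * W z ^ Module.finrank F L

end Aux

section Tower

variable {C F Ω : Type*} [Field C] [Field F] [Field Ω] [Algebra C F] [Algebra F Ω] [Algebra C Ω]
  [IsScalarTower C F Ω] {W : Valuation Ω ℝ≥0} [IsAlgClosed C] [IsAlgClosed Ω] [IsGalois F Ω]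

theorem tr_of (hW : Inv F W) {t : Ω} (hD : Dn C W (Set.range (algebraMap F Ω)) t)
    (L : IntermediateField F Ω) [FiniteDimensional F L]
    (h : ∀ z ∈ L, T3 C W z → VG C W (L : Set Ω) z → ∀ (e : ℕ) (c : C), c ≠ 0 →
      W t = W (algebraMap C Ω c) * W z ^ e → Module.finrank F L ≤ e) : TR C W t L := by
  obtain ⟨z, hz, h3, hV, e, he1, c, hc, hc'⟩ := exists_vgen hD.t3 hD.vg hD.mem L
  have hle := h z hz h3 hV e c hc hc'
  have hge := Nat.le_of_dvd Module.finrank_pos (e_dvd hW hD.vg L hz h3 hc hc')
  have he : e = Module.finrank F L := le_antisymm hge hle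
  subst he
  exact ⟨z, hz, gen_dense hD L hz h3 hc hc' hle, c, hc, hc'⟩

theorem tr_tame (hW : Inv F W) {t : Ω} (hD : Dn C W (Set.range (algebraMap F Ω)) t)
    (L : IntermediateField F Ω) [FiniteDimensional F L] (hm : W (Module.finrank F L : Ω) = 1) :
    TR C W t L :=
  tr_of hW hD L fun _ hz h3 hV _ _ hc hc' => tame_le hW hD L hm hz h3 hV hc hc'

theorem tr_wild [CharZero Ω] (hW : Inv F W) {p : ℕ} (hp : p.Prime) (hWp : W (p : Ω) < 1) {t : Ω}
    (hD : Dn C W (Set.range (algebraMap F Ω)) t) (L : IntermediateField F Ω)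
    [FiniteDimensional F L] [IsGalois F L] (hL : Module.finrank F L = p) : TR C W t L :=
  tr_of hW hD L fun _ hz h3 hV _ _ hc hc' => wild_le hW hp hWp hD L hL hz h3 hV hc hc'

omit [IsAlgClosed C] [IsAlgClosed Ω] in
/-- transitivity -/
theorem TR.trans {t : Ω} {K₁ N : IntermediateField F Ω} (h : K₁ ≤ N) [FiniteDimensional F N]
    {z : Ω} {c : C} (hc : c ≠ 0)
    (hc' : W t = W (algebraMap C Ω c) * W z ^ Module.finrank F K₁)
    (h2 : TR C W z (IntermediateField.extendScalars h)) : TR C W t N := by
  obtain ⟨y, hy, hDy, d, hd, hd'⟩ := h2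
  have hfin : Module.finrank F (IntermediateField.extendScalars h) = Module.finrank F N := by
    have := congrArg (fun X : IntermediateField F Ω => Module.finrank F X)
      (IntermediateField.extendScalars_restrictScalars h)
    exact this
  have htower : Module.finrank F K₁ * Module.finrank K₁ (IntermediateField.extendScalars h) =
      Module.finrank F N := by
    rw [← hfin]
    exact Module.finrank_mul_finrank F K₁ (IntermediateField.extendScalars h)
  refine ⟨y, hy, hDy, c * d ^ Module.finrank F K₁, mul_ne_zero hc (pow_ne_zero _ hd), ?_⟩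
  rw [hc', hd', mul_pow, ← pow_mul, map_mul, map_mul, map_pow, map_pow, mul_assoc, ← htower,
    mul_comm (Module.finrank F K₁)]

end Tower

universe u v

section PTower

variable {C : Type v} {Ω : Type u} [Field C] [Field Ω] [Algebra C Ω] {W : Valuation Ω ℝ≥0}
  [IsAlgClosed C] [IsAlgClosed Ω] [CharZero Ω]

/-- `extendScalars` of a normal extension is normal -/
theorem isGalois_extendScalars {F : Type u} [Field F] [Algebra F Ω] [IsGalois F Ω]
    {K₁ N : IntermediateField F Ω} (h : K₁ ≤ N) [IsGalois F N] :
    IsGalois K₁ (IntermediateField.extendScalars h) := by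
  have h1 : Normal K₁ (IntermediateField.extendScalars h) := by
    rw [IntermediateField.normal_iff_forall_map_le]
    intro σ x hx
    obtain ⟨y, hy, rfl⟩ := hx
    have h2 := (IntermediateField.normal_iff_forall_map_le (K := N)).1
      (inferInstance : Normal F N) (σ.restrictScalars F)
    exact h2 ⟨y, hy, rfl⟩
  have h3 : Algebra.IsSeparable K₁ (IntermediateField.extendScalars h) :=
    Algebra.isSeparable_tower_bot_of_isSeparable K₁ _ Ω
  exact ⟨⟩

theorem finrank_extendScalars {F : Type u} [Field F] [Algebra F Ω]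
    {K₁ N : IntermediateField F Ω} (h : K₁ ≤ N) [FiniteDimensional F N] :
    Module.finrank F K₁ * Module.finrank K₁ (IntermediateField.extendScalars h) =
      Module.finrank F N := by
  have hfin : Module.finrank F (IntermediateField.extendScalars h) = Module.finrank F N := by
    have := congrArg (fun X : IntermediateField F Ω => Module.finrank F X)
      (IntermediateField.extendScalars_restrictScalars h)
    exact this
  rw [← hfin]
  exact Module.finrank_mul_finrank F K₁ (IntermediateField.extendScalars h)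

theorem finiteDimensional_extendScalars {F : Type u} [Field F] [Algebra F Ω]
    {K₁ N : IntermediateField F Ω} (h : K₁ ≤ N) [FiniteDimensional F N] :
    FiniteDimensional K₁ (IntermediateField.extendScalars h) := by
  have h1 : FiniteDimensional F (IntermediateField.extendScalars h) := by
    have h2 : FiniteDimensional F
        (IntermediateField.restrictScalars F (IntermediateField.extendScalars h)) := by
      rw [IntermediateField.extendScalars_restrictScalars]
      infer_instance
    exact h2
  exact Module.Finite.of_restrictScalars_finite F K₁ (IntermediateField.extendScalars h)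

/-- the subfield of a Galois extension attached to a subgroup, inside `Ω` -/
theorem exists_subfield {F : Type u} [Field F] [Algebra F Ω] (N : IntermediateField F Ω)
    [FiniteDimensional F N] [IsGalois F N] (H : Subgroup (N ≃ₐ[F] N)) :
    ∃ E : IntermediateField F Ω, E ≤ N ∧ Module.finrank F E = H.index ∧
      (H.Normal → IsGalois F E) := by
  refine ⟨IntermediateField.lift (IntermediateField.fixedField H), IntermediateField.lift_le _,
    ?_, ?_⟩
  · have h1 : Module.finrank F (IntermediateField.fixedField H) =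
        Module.finrank F (IntermediateField.lift (IntermediateField.fixedField H)) :=
      LinearEquiv.finrank_eq
        (IntermediateField.liftAlgEquiv (IntermediateField.fixedField H)).toLinearEquiv
    rw [← h1]
    have h2 := Module.finrank_mul_finrank F (IntermediateField.fixedField H) N
    rw [IntermediateField.finrank_fixedField_eq_card, ← IsGalois.card_aut_eq_finrank F N,
      ← H.card_mul_index, mul_comm] at h2
    exact Nat.eq_of_mul_eq_mul_left Nat.card_pos h2
  · intro hH
    have : IsGalois F (IntermediateField.fixedField H) :=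
      IsGalois.of_fixedField_normal_subgroup H
    exact IsGalois.of_algEquiv
      (IntermediateField.liftAlgEquiv (IntermediateField.fixedField H))

/-- **`p`-towers** -/
theorem tr_pgroup {p : ℕ} (hp : p.Prime) (hWp : W (p : Ω) < 1) (n : ℕ) :
    ∀ (F : Type u) [Field F] [Algebra C F] [Algebra F Ω] [IsScalarTower C F Ω] [IsGalois F Ω]
      (_ : Inv F W) (t : Ω) (_ : Dn C W (Set.range (algebraMap F Ω)) t)
      (N : IntermediateField F Ω) [FiniteDimensional F N] [IsGalois F N],
      Module.finrank F N = p ^ n → TR C W t N := by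
  have : Fact p.Prime := ⟨hp⟩
  induction n with
  | zero =>
    intro F _ _ _ _ _ hW t hD N _ _ hN
    refine tr_tame hW hD N ?_
    rw [hN, pow_zero, Nat.cast_one, map_one]
  | succ n ih =>
    intro F _ _ _ _ _ hW t hD N _ _ hN
    have hcard : Nat.card (N ≃ₐ[F] N) = p ^ (n + 1) := by
      rw [IsGalois.card_aut_eq_finrank, hN]
    obtain ⟨H, hH⟩ := Sylow.exists_subgroup_card_pow_prime (G := N ≃ₐ[F] N) p (n := n)
      (by rw [hcard]; exact pow_dvd_pow p n.le_succ)
    have hidx : H.index = p := by
      have h1 := H.card_mul_index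
      rw [hH, hcard, pow_succ] at h1
      exact Nat.eq_of_mul_eq_mul_left (pow_pos hp.pos n) h1
    have hnorm : H.Normal := by
      refine Subgroup.normal_of_index_eq_minFac_card ?_
      rw [hidx, hcard, hp.pow_minFac (Nat.succ_ne_zero n)]
    obtain ⟨E, hEN, hE1, hE2⟩ := exists_subfield N H
    have : IsGalois F E := hE2 hnorm
    have : FiniteDimensional F E := Module.finite_of_finrank_pos (by
      rw [hE1, hidx]; exact hp.pos)
    rw [hidx] at hE1
    obtain ⟨z, hz, hDz, c, hc, hc'⟩ := tr_wild hW hp hWp hD E hE1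
    refine TR.trans hEN hc hc' ?_
    have h1 := tower_top (C := C) E
    have h2 : FiniteDimensional E (IntermediateField.extendScalars hEN) :=
      finiteDimensional_extendScalars hEN
    have h3 : IsGalois E (IntermediateField.extendScalars hEN) := isGalois_extendScalars hEN
    refine ih E (inv_top hW E) z ?_ (IntermediateField.extendScalars hEN) ?_
    · rw [range_val]; exact hDz
    · have h4 := finrank_extendScalars hEN
      rw [hE1, hN, pow_succ'] at h4
      exact Nat.eq_of_mul_eq_mul_left hp.pos h4

theorem W_coprime {p m : ℕ} (hWp : W (p : Ω) < 1) (h : p.Coprime m) : W (m : Ω) = 1 := by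
  refine le_antisymm (W_natCast_le W m) ?_
  by_contra hcon
  rw [not_le] at hcon
  have h1 : ((p.gcdA m : ℤ) : Ω) * p + ((p.gcdB m : ℤ) : Ω) * m = 1 := by
    have h2 := Nat.gcd_eq_gcd_ab p m
    rw [h] at h2
    have h3 := congrArg (Int.cast (R := Ω)) h2
    push_cast at h3
    rw [h3]
    ring
  have hint : ∀ k : ℤ, W (k : Ω) ≤ 1 := by
    intro k
    obtain ⟨m, rfl | rfl⟩ := k.eq_nat_or_neg
    · rw [Int.cast_natCast]; exact W_natCast_le W m
    · rw [Int.cast_neg, Valuation.map_neg, Int.cast_natCast]; exact W_natCast_le W m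
  have h2 : W (1 : Ω) < 1 := by
    rw [← h1]
    refine Valuation.map_add_lt W ?_ ?_
    · rw [map_mul]
      calc _ ≤ 1 * W (p : Ω) := mul_le_mul' (hint _) le_rfl
        _ < 1 := by rw [one_mul]; exact hWp
    · rw [map_mul]
      calc _ ≤ 1 * W (m : Ω) := mul_le_mul' (hint _) le_rfl
        _ < 1 := by rw [one_mul]; exact hcon
  rw [map_one] at h2
  exact lt_irrefl _ h2

variable {F : Type u} [Field F] [Algebra C F] [Algebra F Ω] [IsScalarTower C F Ω] [IsGalois F Ω]

/-- **finite Galois extensions** -/
theorem tr_galois {p : ℕ} (hp : p.Prime) (hWp : W (p : Ω) < 1) (hW : Inv F W) {t : Ω}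
    (hD : Dn C W (Set.range (algebraMap F Ω)) t) (N : IntermediateField F Ω)
    [FiniteDimensional F N] [IsGalois F N] : TR C W t N := by
  have : Fact p.Prime := ⟨hp⟩
  obtain ⟨P⟩ : Nonempty (Sylow p (N ≃ₐ[F] N)) := inferInstance
  obtain ⟨n, hn⟩ := IsPGroup.iff_card.1 P.isPGroup'
  obtain ⟨E, hEN, hE1, -⟩ := exists_subfield N (P : Subgroup (N ≃ₐ[F] N))
  have hidx : (P : Subgroup (N ≃ₐ[F] N)).index ≠ 0 := Subgroup.index_ne_zero_of_finite
  have : FiniteDimensional F E := Module.finite_of_finrank_pos (by
    rw [hE1]; exact Nat.pos_of_ne_zero hidx)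
  have hcop : p.Coprime (P : Subgroup (N ≃ₐ[F] N)).index :=
    (Nat.Prime.coprime_iff_not_dvd hp).2 P.not_dvd_index
  obtain ⟨z, hz, hDz, c, hc, hc'⟩ := tr_tame hW hD E (by rw [hE1]; exact W_coprime hWp hcop)
  refine TR.trans hEN hc hc' ?_
  have h1 := tower_top (C := C) E
  have h2 : FiniteDimensional E (IntermediateField.extendScalars hEN) :=
    finiteDimensional_extendScalars hEN
  have h3 : IsGalois E (IntermediateField.extendScalars hEN) := isGalois_extendScalars hEN
  refine tr_pgroup hp hWp n E (inv_top hW E) z ?_ (IntermediateField.extendScalars hEN) ?_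
  · rw [range_val]; exact hDz
  · have h4 := finrank_extendScalars hEN
    have h5 := (P : Subgroup (N ≃ₐ[F] N)).card_mul_index
    rw [IsGalois.card_aut_eq_finrank, ← h4, hE1, hn, mul_comm] at h5
    exact (Nat.eq_of_mul_eq_mul_left (Nat.pos_of_ne_zero hidx) h5).symm

/-- **total ramification of all finite extensions** -/
theorem finrank_le_e {p : ℕ} (hp : p.Prime) (hWp : W (p : Ω) < 1) (hW : Inv F W) {t : Ω}
    (hD : Dn C W (Set.range (algebraMap F Ω)) t) (L : IntermediateField F Ω)
    [FiniteDimensional F L] {z : Ω} (hz : z ∈ L) (h3 : T3 C W z) (hV : VG C W (L : Set Ω) z)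
    {e : ℕ} {c : C} (hc' : W t = W (algebraMap C Ω c) * W z ^ e) :
    Module.finrank F L ≤ e := by
  have he : e ≠ 0 := e_ne_zero hD.t3 hc'
  set N := IntermediateField.normalClosure F L Ω with hN
  have hLN : L ≤ N := IntermediateField.le_normalClosure L
  have : FiniteDimensional F N := normalClosure.is_finiteDimensional F L Ω
  have : Algebra.IsSeparable F N := Algebra.isSeparable_tower_bot_of_isSeparable F N Ω
  have : IsGalois F N := ⟨⟩
  obtain ⟨y, hy, hDy, d, hd, hd'⟩ := tr_galois hp hWp hW hD N
  have hWy := hDy.t3.W_ne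
  -- the value of `z` in terms of `y`
  obtain ⟨d₁, k, hd₁, hk⟩ := hDy.vg z (hLN hz) h3.ne
  have h1 : W (algebraMap C Ω (c * d₁ ^ e)) * W y ^ (k * e) =
      W (algebraMap C Ω d) * W y ^ ((Module.finrank F N : ℕ) : ℤ) := by
    rw [zpow_natCast, ← hd', hc', hk, mul_pow, ← zpow_natCast (W y ^ k), ← zpow_mul, map_mul,
      map_mul, map_pow, map_pow]
    ring
  have h2 := hDy.t3.eq_of ((_root_.map_ne_zero _).2 hd) h1
  have hNpos : 0 < Module.finrank F N := Module.finrank_pos
  have hkpos : 0 < k := by
    have h4 : 0 < k * (e : ℤ) := by rw [h2]; exact_mod_cast hNpos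
    exact pos_of_mul_pos_left h4 (by positivity)
  obtain ⟨k', rfl⟩ := Int.eq_ofNat_of_zero_le hkpos.le
  have hk' : W z = W (algebraMap C Ω d₁) * W y ^ k' := by rw [hk]; rfl
  have h5 := tower_top (C := C) L
  have h6 : FiniteDimensional L (IntermediateField.extendScalars hLN) :=
    finiteDimensional_extendScalars hLN
  have h7 := e_dvd (C := C) (F := L) (inv_top hW L) (t := z) (by rw [range_val]; exact hV)
    (IntermediateField.extendScalars hLN) (z := y) hy hDy.t3 hd₁ hk'
  have h8 : k' ≤ Module.finrank L (IntermediateField.extendScalars hLN) :=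
    Nat.le_of_dvd Module.finrank_pos h7
  have h9 := finrank_extendScalars hLN
  have h10 : k' * e = Module.finrank F N := by exact_mod_cast h2
  rw [← h10] at h9
  have hk0 : 0 < k' := by exact_mod_cast hkpos
  have h11 : Module.finrank F L * k' ≤ e * k' := by
    calc Module.finrank F L * k' ≤ Module.finrank F L *
          Module.finrank L (IntermediateField.extendScalars hLN) := Nat.mul_le_mul_left _ h8
      _ = e * k' := by rw [h9, mul_comm]
  exact Nat.le_of_mul_le_mul_right h11 hk0

theorem ev_inv {C Ω : Type*} [Field C] [Field Ω] [Algebra C Ω] (t : Ω) (g : ℤ →₀ C) :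
    ev t⁻¹ (g.mapDomain (fun n => -n)) = ev t g := by
  rw [ev, ev, Finsupp.linearCombination_mapDomain]
  congr 1
  congr 1
  funext n
  simp

theorem Dn.inv' {S : Set Ω} {z : Ω} (h : Dn C W S z) (hz : z⁻¹ ∈ S) : Dn C W S z⁻¹ := by
  refine ⟨⟨inv_ne_zero h.t3.ne, ?_⟩, hz, ?_⟩
  · intro n c hn
    rw [map_inv₀, inv_zpow', ] at hn
    have := h.t3.tor _ _ hn
    omega
  · intro f hf ε hε
    obtain ⟨g, hg⟩ := h.dense f hf ε hε
    exact ⟨g.mapDomain (fun n => -n), by rwa [ev_inv]⟩

/-- **MAIN THEOREM.**  `F` henselian (`Inv F W`) of mixed characteristic, Laurent polynomials in the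
type 3 element `t` dense in `F`, `L/F` finite.  Every type 3 element `z` of `L` whose powers (times
constants) exhaust the values of `L` is a coordinate. -/
theorem main {p : ℕ} (hp : p.Prime) (hWp : W (p : Ω) < 1) (hW : Inv F W) {t : Ω}
    (hD : Dn C W (Set.range (algebraMap F Ω)) t) (L : IntermediateField F Ω)
    [FiniteDimensional F L] {z : Ω} (hz : z ∈ L) (h3 : T3 C W z) (hV : VG C W (L : Set Ω) z) :
    Dn C W (L : Set Ω) z := by
  have htL : t ∈ L := by
    obtain ⟨t', ht'⟩ := hD.mem
    rw [← ht']
    exact L.algebraMap_mem t'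
  obtain ⟨c, n, hc, hn⟩ := hV t htL hD.t3.ne
  obtain ⟨e, rfl | rfl⟩ := n.eq_nat_or_neg
  · rw [zpow_natCast] at hn
    exact gen_dense hD L hz h3 hc hn (finrank_le_e hp hWp hW hD L hz h3 hV hn)
  · have h3' : T3 C W z⁻¹ := by
      refine ⟨inv_ne_zero h3.ne, ?_⟩
      intro n c hn
      rw [map_inv₀, inv_zpow'] at hn
      have := h3.tor _ _ hn
      omega
    have hV' : VG C W (L : Set Ω) z⁻¹ := by
      intro y hy hy0
      obtain ⟨d, m, hd, hm⟩ := hV y hy hy0
      exact ⟨d, -m, hd, by rw [hm, map_inv₀, inv_zpow', neg_neg]⟩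
    have hn' : W t = W (algebraMap C Ω c) * W z⁻¹ ^ e := by
      rw [hn, map_inv₀, zpow_neg, zpow_natCast, inv_pow]
    have h4 := gen_dense hD L (L.inv_mem hz) h3' hc hn'
      (finrank_le_e hp hWp hW hD L (L.inv_mem hz) h3' hV' hn')
    have h5 := h4.inv' (by rw [inv_inv]; exact hz)
    rwa [inv_inv] at h5

/-- existence of a generator -/
theorem exists_main {p : ℕ} (hp : p.Prime) (hWp : W (p : Ω) < 1) (hW : Inv F W) {t : Ω}
    (hD : Dn C W (Set.range (algebraMap F Ω)) t) (L : IntermediateField F Ω)
    [FiniteDimensional F L] : TR C W t L :=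
  tr_of hW hD L fun _ hz h3 hV _ _ _ hc' => finrank_le_e hp hWp hW hD L hz h3 hV hc'

end PTower

end Crest.Agent.R013.LU3_205
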