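import Mathlib
import Crest.Agent.R013.LU1_935
import Crest.Agent.R013.LU2_935
import Crest.Agent.R013.LU3_935
import Crest.Agent.R013.Hens4_899

/-!
# Row 13, SS-LU34, part 4: type 4 points: the degree `p` step and the tower (helper935)
-/

open Polynomial IntermediateField
open scoped NNReal

namespace Crest.Agent.R013.LU4_935

open Crest.Agent.R013.LU1_935 Crest.Agent.R013.LU2_935 Crest.Agent.R013.LU3_935
open Crest.Agent.R013.Hens_899

/-- the linear term of `t` dominates on the disc of radius `|d|` around `c`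
(helper953's formulation) -/
def LinDom {k : Type*} [Field k] (v : Valuation k ℝ≥0) (t : k[X]) (c d : k) : Prop :=
  ∀ j ≥ 2, v ((taylor c t).coeff j) * v d ^ j < v ((taylor c t).coeff 1) * v d

/-- THEOREM LIN of helper953 (task SS-LIN), as a proposition. -/
def LinStmt (k : Type*) [Field k] (p : ℕ) : Prop :=
  ∀ (v : Valuation k ℝ≥0) (_ : v p < 1) (_ : v p ≠ 0) (w : Valuation k[X] ℝ≥0)
    (_ : ∀ c, w (C c) = v c) (_ : ∀ f ≠ 0, ∃ c : k, w (f - C c) < w f) (a : k[X]) (_ : a ≠ 0),
    (∃ b : k[X], w (a * b ^ p - 1) ^ (p - 1) < v p ^ p) ∨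
    (∃ b ≠ 0, ∃ c d : k, d ≠ 0 ∧ w (X - C c) ≤ v d ∧ LinDom v (a * b ^ p) c d)

section LinClo

variable {k M : Type*} [Field k] [Field M] [Algebra k M] {w : Valuation M ℝ≥0}

lemma aeval_taylor_sum (t : k[X]) (c : k) (z : M) :
    aeval z t = ∑ j ∈ Finset.range ((taylor c t).natDegree + 1),
      algebraMap k M ((taylor c t).coeff j) * (z - algebraMap k M c) ^ j := by
  conv_lhs => rw [← sum_taylor_eq t c]
  rw [sum_over_range _ (by simp)]
  simp [map_sum, map_mul, map_pow]

/-- if `t(x)` has a dominating linear term on a disc around the type 4 point `x` then `x` lies in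
the closure of every field containing `t(x)`. -/
theorem lin_clo [IsAlgClosed k] {x : M}
    {t : k[X]} {c d : k} (hd : d ≠ 0)
    (hcd : w (x - algebraMap k M c) ≤ w (algebraMap k M d))
    (hlin : LinDom (w.comap (algebraMap k M)) t c d) {G : IntermediateField k M}
    (ht : aeval x t ∈ G) : x ∈ clo w G := by
  classical
  set T : ℕ → k := fun j => (taylor c t).coeff j with hT
  set ρ := w (algebraMap k M d) with hρ
  have hρ0 : 0 < ρ := by
    rw [hρ, pos_iff_ne_zero]
    simpa using hd
  have hlin' : ∀ j ≥ 2, w (algebraMap k M (T j)) * ρ ^ j < w (algebraMap k M (T 1)) * ρ := hlin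
  have hT1 : 0 < w (algebraMap k M (T 1)) := by
    have := lt_of_le_of_lt zero_le (hlin' 2 le_rfl)
    exact pos_of_mul_pos_left this zero_le
  have hT10 : algebraMap k M (T 1) ≠ 0 := by
    intro h; rw [h, map_zero] at hT1; exact lt_irrefl _ hT1
  -- the contraction factor
  let n := (taylor c t).natDegree
  let θ : ℝ≥0 := (Finset.range (n + 1)).sup
    (fun j => if 2 ≤ j then w (algebraMap k M (T j)) * ρ ^ (j - 1) / w (algebraMap k M (T 1)) else 0)
  have hθ1 : θ < 1 := by
    rw [Finset.sup_lt_iff (by simp)]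
    intro j _
    split_ifs with h
    · rw [div_lt_one hT1]
      have h1 := hlin' j h
      obtain ⟨i, rfl⟩ : ∃ i, j = i + 1 := ⟨j - 1, by omega⟩
      rw [pow_succ, ← mul_assoc] at h1
      exact lt_of_mul_lt_mul_right h1 zero_le
    · exact zero_lt_one
  have hθj : ∀ j ≥ 2, j ∈ Finset.range (n + 1) →
      w (algebraMap k M (T j)) * ρ ^ (j - 1) ≤ θ * w (algebraMap k M (T 1)) := by
    intro j hj hjn
    rw [← div_le_iff₀ hT1]
    have := Finset.le_sup (f := fun j => if 2 ≤ j then w (algebraMap k M (T j)) * ρ ^ (j - 1) /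
      w (algebraMap k M (T 1)) else 0) hjn
    simpa [hj] using this
  -- the approximation
  have happ : ∀ c' : k, w (x - algebraMap k M c') ≤ ρ →
      ∃ g ∈ G, g ∈ IntermediateField.adjoin k {x} ∧ w (g - x) ≤ θ * w (x - algebraMap k M c') := by
    intro c' hc'
    set g := (aeval x t - algebraMap k M (eval c' t)) / algebraMap k M (T 1) + algebraMap k M c'
      with hg
    refine ⟨g, ?_, ?_, ?_⟩
    · exact add_mem (div_mem (sub_mem ht (G.algebraMap_mem _)) (G.algebraMap_mem _))
        (G.algebraMap_mem _)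
    · refine add_mem (div_mem (sub_mem ?_ (IntermediateField.algebraMap_mem _ _)) (IntermediateField.algebraMap_mem _ _))
        (IntermediateField.algebraMap_mem _ _)
      rw [mem_adjoin_simple_iff]
      exact ⟨t, 1, by simp⟩
    · have h1 : aeval x t - algebraMap k M (eval c' t) =
          ∑ j ∈ Finset.range (n + 1), algebraMap k M (T j) *
            ((x - algebraMap k M c) ^ j - (algebraMap k M c' - algebraMap k M c) ^ j) := by
        have h2 : algebraMap k M (eval c' t) = aeval (algebraMap k M c') t := by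
          rw [aeval_algebraMap_apply, coe_aeval_eq_eval]
        rw [h2, aeval_taylor_sum t c x, aeval_taylor_sum t c (algebraMap k M c'),
          ← Finset.sum_sub_distrib]
        exact Finset.sum_congr rfl fun j _ => by rw [mul_sub]
      have hcc : w (algebraMap k M c' - algebraMap k M c) ≤ ρ := by
        refine w_sub_le' w (b := x) ?_ hcd
        rw [w_sub_comm]; exact hc'
      have h3 : w (aeval x t - algebraMap k M (eval c' t) -
          algebraMap k M (T 1) * (x - algebraMap k M c')) ≤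
          θ * w (algebraMap k M (T 1)) * w (x - algebraMap k M c') := by
        have h4 : aeval x t - algebraMap k M (eval c' t) -
            algebraMap k M (T 1) * (x - algebraMap k M c') =
            ∑ j ∈ Finset.range (n + 1), (if 2 ≤ j then algebraMap k M (T j) *
            ((x - algebraMap k M c) ^ j - (algebraMap k M c' - algebraMap k M c) ^ j) else 0) := by
          by_cases hn : n = 0
          · exfalso
            have : T 1 = 0 := by
              apply coeff_eq_zero_of_natDegree_lt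
              change n < 1
              omega
            rw [this, map_zero] at hT10
            exact hT10 rfl
          have h5 : algebraMap k M (T 1) * (x - algebraMap k M c') = ∑ j ∈ Finset.range (n + 1),
            (if j = 1 then algebraMap k M (T j) *
            ((x - algebraMap k M c) ^ j - (algebraMap k M c' - algebraMap k M c) ^ j) else 0) := by
            rw [Finset.sum_ite_eq' (Finset.range (n + 1)) 1]
            rw [if_pos (Finset.mem_range.2 (by omega))]
            ring
          rw [h5, h1, ← Finset.sum_sub_distrib]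
          refine Finset.sum_congr rfl fun j _ => ?_
          rcases Nat.lt_or_ge j 2 with hj | hj
          · interval_cases j
            · simp
            · simp
          · rw [if_neg (by omega), if_pos hj, sub_zero]
        rw [h4]
        apply Valuation.map_sum_le
        intro j hj
        split_ifs with h
        · rw [map_mul]
          obtain ⟨i, rfl⟩ : ∃ i, j = i + 1 := ⟨j - 1, by omega⟩
          have h6 := pow_sub_le w hcd hcc i
          have h7 := hθj (i + 1) h hj
          have h8 : x - algebraMap k M c - (algebraMap k M c' - algebraMap k M c) =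
            x - algebraMap k M c' := by ring
          rw [h8] at h6
          calc w (algebraMap k M (T (i + 1))) * _ ≤
              w (algebraMap k M (T (i + 1))) * (w (x - algebraMap k M c') * ρ ^ i) := by
                gcongr
            _ = (w (algebraMap k M (T (i + 1))) * ρ ^ (i + 1 - 1)) * w (x - algebraMap k M c') := by
                rw [Nat.add_sub_cancel]; ring
            _ ≤ _ := by gcongr
        · rw [map_zero]; exact zero_le
      have h9 : g - x = (aeval x t - algebraMap k M (eval c' t) -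
          algebraMap k M (T 1) * (x - algebraMap k M c')) / algebraMap k M (T 1) := by
        rw [hg]; field_simp; ring
      rw [h9, map_div₀, div_le_iff₀ hT1]
      calc _ ≤ _ := h3
        _ = _ := by ring
  by_cases hr0 : ∀ e : ℝ≥0, 0 < e → ∃ c' : k, w (x - algebraMap k M c') < e
  · intro e he
    obtain ⟨c', hc'⟩ := hr0 e he
    exact ⟨algebraMap k M c', G.algebraMap_mem _, hc'⟩
  push Not at hr0
  obtain ⟨e₀, he₀, hr1⟩ := hr0
  set r : ℝ≥0 := ⨅ c' : k, w (x - algebraMap k M c') with hr
  have hrle : ∀ c', r ≤ w (x - algebraMap k M c') := fun c' => ciInf_le (OrderBot.bddBelow _) c'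
  have hrpos : 0 < r := lt_of_lt_of_le he₀ (le_ciInf hr1)
  obtain ⟨c₁, hc₁⟩ : ∃ c₁ : k, θ * w (x - algebraMap k M c₁) < r := by
    by_cases hθ0 : θ = 0
    · exact ⟨c, by rw [hθ0, zero_mul]; exact hrpos⟩
    · have hθpos : 0 < θ := pos_iff_ne_zero.2 hθ0
      have : r < r / θ := by
        rw [lt_div_iff₀ hθpos]
        calc r * θ < r * 1 := mul_lt_mul_of_pos_left hθ1 hrpos
          _ = r := mul_one r
      obtain ⟨c₁, hc₁⟩ := exists_lt_of_ciInf_lt (this : (⨅ c' : k, w (x - algebraMap k M c')) < r / θ)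
      refine ⟨c₁, ?_⟩
      rwa [lt_div_iff₀ hθpos, mul_comm] at hc₁
  obtain ⟨c₂, hc₂, hc₂'⟩ : ∃ c₂ : k, w (x - algebraMap k M c₂) ≤ ρ ∧
      θ * w (x - algebraMap k M c₂) < r := by
    rcases le_or_gt (w (x - algebraMap k M c₁)) ρ with h | h
    · exact ⟨c₁, h, hc₁⟩
    · refine ⟨c, hcd, lt_of_le_of_lt ?_ hc₁⟩
      gcongr
      exact hcd.trans h.le
  obtain ⟨g, hgG, hgx, hg⟩ := happ c₂ hc₂
  have h1 := perturb w (y := x) (y' := g) (r := r) hrle (lt_of_le_of_lt hg hc₂')
    (le_clo w _ hgx)
  exact clo_mono w ((IntermediateField.adjoin_simple_le_iff).2 hgG) h1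

end LinClo

section Step

variable {k Ω : Type*} [Field k] [Field Ω] [Algebra k Ω]

lemma charZero_of_algebraMap {F Ω : Type*} [Field F] [Field Ω] [Algebra F Ω] [CharZero Ω] :
    CharZero F :=
  ⟨fun a b h => Nat.cast_injective (R := Ω) (by
    have := congrArg (algebraMap F Ω) h
    simpa using this)⟩

lemma isGalois_of_alg [IsAlgClosed Ω] [CharZero Ω] (F : IntermediateField k Ω)
    [Algebra.IsAlgebraic F Ω] : IsGalois F Ω := by
  have : IsAlgClosure F Ω := ⟨inferInstance, inferInstance⟩
  have : CharZero F := charZero_of_algebraMap (Ω := Ω)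
  exact IsAlgClosure.isGalois F Ω

/-- `p`-th roots of unity lie in `k` -/
lemma mem_of_pow_eq_one [IsAlgClosed k] [CharZero Ω] {p : ℕ} (hp : p ≠ 0) {z : Ω} (hz : z ^ p = 1) :
    ∃ c : k, algebraMap k Ω c = z := by
  have : CharZero k := charZero_of_algebraMap (Ω := Ω)
  have : NeZero (p : k) := ⟨by exact_mod_cast hp⟩
  have : NeZero p := ⟨hp⟩
  obtain ⟨ζ, hζ⟩ := HasEnoughRootsOfUnity.exists_primitiveRoot k p
  have h1 : IsPrimitiveRoot (algebraMap k Ω ζ) p := hζ.map_of_injective (algebraMap k Ω).injective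
  obtain ⟨i, -, hi⟩ := h1.eq_pow_of_pow_eq_one hz
  exact ⟨ζ ^ i, by rw [map_pow, hi]⟩

variable [IsAlgClosed k] [IsAlgClosed Ω] [CharZero Ω] {w : Valuation Ω ℝ≥0} {p : ℕ}
  [hp : Fact p.Prime]

/-- **the degree `p` step at a type 4 point** -/
theorem step (hlin : LinStmt k p) (hp1 : w (p : Ω) < 1) {F : IntermediateField k Ω}
    [Algebra.IsAlgebraic F Ω] (hF : Inv F w) {x : Ω} (hxF : x ∈ F)
    (hd : F ≤ clo w (IntermediateField.adjoin k {x}))
    (hx : ∀ c : k, ∃ c' : k, w (x - algebraMap k Ω c') < w (x - algebraMap k Ω c))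
    {α : Ω} (hα : α ^ p ∈ F) (hαF : α ∉ F) :
    ∃ y ∈ F ⊔ IntermediateField.adjoin k {α}, F ≤ clo w (IntermediateField.adjoin k {y}) ∧
      α ∈ clo w (IntermediateField.adjoin k {y}) := by
  classical
  have hgal : IsGalois F Ω := isGalois_of_alg F
  have hpp := hp.1
  have hp2 := hpp.two_le
  have hpΩ : (p : Ω) ≠ 0 := by exact_mod_cast hpp.ne_zero
  have hpF : (p : F) ≠ 0 := by
    intro h
    apply hpΩ
    rw [← map_natCast (algebraMap F Ω), h, map_zero]
  have hwp : 0 < w (p : Ω) := by simpa [pos_iff_ne_zero] using hpΩ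
  have hα0 : α ≠ 0 := by rintro rfl; exact hαF F.zero_mem
  have hα0' : α ^ p ≠ 0 := pow_ne_zero _ hα0
  have hwα : 0 < w (α ^ p) := by
    rw [pos_iff_ne_zero]
    exact (Valuation.ne_zero_iff w).2 hα0'
  have hxle : IntermediateField.adjoin k {x} ≤ F := IntermediateField.adjoin_simple_le_iff.2 hxF
  -- root of unity argument
  have hroot : ∀ z : Ω, ∀ u ∈ F, ∀ v ∈ F, v ≠ 0 → u ≠ 0 → (z * v) ^ p = u ^ p → z ∈ F := by
    intro z u hu v hv hv0 hu0 h
    have h1 : (z * v / u) ^ p = 1 := by
      rw [div_pow, h, div_self (pow_ne_zero _ hu0)]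
    obtain ⟨c, hc⟩ := mem_of_pow_eq_one (k := k) hpp.ne_zero h1
    have h2 : z = algebraMap k Ω c * u / v := by
      rw [hc]; field_simp
    rw [h2]
    exact div_mem (mul_mem (F.algebraMap_mem c) hu) hv
  -- approximation by a rational function
  obtain ⟨s, hs, hsα⟩ := hd hα (w (α ^ p) * w (p : Ω) ^ 3) (by positivity)
  have hs1 : w (s / α ^ p - 1) < w (p : Ω) ^ 3 := by
    have h1 : s / α ^ p - 1 = - ((α ^ p - s) / α ^ p) := by field_simp; ring
    rw [h1, Valuation.map_neg, map_div₀, div_lt_iff₀ hwα]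
    calc _ < _ := hsα
      _ = _ := by ring
  have hs2 : w (s / α ^ p - 1) ^ (p - 1) < w (p : Ω) ^ p := by
    have hwp3 : w (p : Ω) ^ 3 < 1 := pow_lt_one₀ zero_le hp1 (by norm_num)
    calc w (s / α ^ p - 1) ^ (p - 1) < (w (p : Ω) ^ 3) ^ (p - 1) := by
          apply pow_lt_pow_left₀ hs1 zero_le (by omega)
      _ = w (p : Ω) ^ (3 * (p - 1)) := by rw [← pow_mul]
      _ ≤ w (p : Ω) ^ p := pow_le_pow_right_of_le_one' hp1.le (by omega)
  have hs1F : s / α ^ p - 1 ∈ F := sub_mem (div_mem (hxle hs) hα) F.one_mem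
  obtain ⟨u, hu1, hu2, hu3⟩ := exists_root_wild hF hpp hpF (x := ⟨s / α ^ p - 1, hs1F⟩) hs2
  have hu1' : (u : Ω) ^ p = s / α ^ p := by
    have := congrArg (algebraMap F Ω) hu1
    rw [map_pow, map_add, map_one] at this
    calc (u : Ω) ^ p = 1 + (s / α ^ p - 1) := this
      _ = _ := by ring
  have hs0 : s ≠ 0 := by
    rintro rfl
    rw [zero_div, zero_sub, Valuation.map_neg, map_one] at hs1
    exact absurd hs1 (not_lt.2 (pow_le_one₀ zero_le hp1.le))
  have hu0 : (u : Ω) ≠ 0 := by
    intro h
    rw [h, zero_pow hpp.ne_zero] at hu1'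
    exact (div_ne_zero hs0 hα0') hu1'.symm
  rw [mem_adjoin_simple_iff] at hs
  obtain ⟨f, g, hfg⟩ := hs
  have hf0 : f ≠ 0 := by rintro rfl; simp at hfg; exact hs0 hfg
  have hg0 : g ≠ 0 := by rintro rfl; simp at hfg; exact hs0 hfg
  have hfx := aeval_ne_zero hx hf0
  have hgx := aeval_ne_zero hx hg0
  have hmemx : ∀ q : k[X], aeval x q ∈ F := fun q => hxle (by
    rw [mem_adjoin_simple_iff]; exact ⟨q, 1, by simp⟩)
  set a : k[X] := f * g ^ (p - 1) with ha
  have ha0 : a ≠ 0 := mul_ne_zero hf0 (pow_ne_zero _ hg0)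
  set β : Ω := α * u * aeval x g with hβ
  have hβp : β ^ p = aeval x a := by
    have h1 : p = (p - 1) + 1 := by omega
    have h2 : (aeval x g : Ω) ^ p = (aeval x g) ^ (p - 1) * aeval x g := by
      conv_lhs => rw [h1, pow_succ]
    rw [hβ, mul_pow, mul_pow, hu1', h2, ha, map_mul, map_pow, hfg]
    field_simp
  have hαβ : α = β / (u * aeval x g) := by
    rw [hβ]; field_simp
  have huF : (u : Ω) ∈ F := u.2
  -- the valuation on polynomials
  set W : Valuation k[X] ℝ≥0 := w.comap (aeval x : k[X] →ₐ[k] Ω).toRingHom with hW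
  set v : Valuation k ℝ≥0 := w.comap (algebraMap k Ω) with hv
  have hWa : ∀ q : k[X], W q = w (aeval x q) := fun q => rfl
  have hva : ∀ c : k, v c = w (algebraMap k Ω c) := fun q => rfl
  rcases hlin v (by rw [hva, map_natCast]; exact hp1) (by rw [hva, map_natCast]; exact hwp.ne') W
    (fun c => by rw [hWa, hva, aeval_C]) (fun q hq => by
      obtain ⟨c, hc⟩ := im_aeval hx q hq
      exact ⟨c, by rw [hWa, hWa, map_sub, aeval_C]; exact hc⟩) a ha0 with ⟨b, hb⟩ | h2
  · exfalso
    rw [hWa, map_sub, map_mul, map_pow, map_one, hva, map_natCast] at hb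
    have hbF : aeval x a * aeval x b ^ p - 1 ∈ F :=
      sub_mem (mul_mem (hmemx a) (pow_mem (hmemx b) p)) F.one_mem
    obtain ⟨u', hu1, -, -⟩ := exists_root_wild hF hpp hpF (x := ⟨_, hbF⟩) hb
    have hu1'' : (u' : Ω) ^ p = aeval x a * aeval x b ^ p := by
      have := congrArg (algebraMap F Ω) hu1
      rw [map_pow, map_add, map_one] at this
      calc (u' : Ω) ^ p = 1 + (aeval x a * aeval x b ^ p - 1) := this
        _ = _ := by ring
    have hb0 : b ≠ 0 := by
      rintro rfl
      simp only [map_zero, zero_pow hpp.ne_zero, mul_zero, zero_sub, Valuation.map_neg, map_one,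
        one_pow] at hb
      exact absurd hb (not_lt.2 (pow_le_one₀ zero_le hp1.le))
    have hbx := aeval_ne_zero hx hb0
    have hu0' : (u' : Ω) ≠ 0 := by
      intro h
      rw [h, zero_pow hpp.ne_zero] at hu1''
      exact (mul_ne_zero (aeval_ne_zero hx ha0) (pow_ne_zero _ hbx)) hu1''.symm
    apply hαF
    apply hroot α (u' : Ω) u'.2 (u * aeval x g * aeval x b)
      (mul_mem (mul_mem huF (hmemx g)) (hmemx b)) (mul_ne_zero (mul_ne_zero hu0 hgx) hbx) hu0'
    rw [hu1'', ← hβp, hβ]
    ring
  · obtain ⟨b, hb0, c, d, hd0, hcd, hdom⟩ := h2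
    have hbx := aeval_ne_zero hx hb0
    refine ⟨β * aeval x b, ?_, ?_⟩
    · refine mul_mem (mul_mem (mul_mem ?_ ?_) ?_) ?_
      · exact (le_sup_right : IntermediateField.adjoin k {α} ≤ F ⊔ IntermediateField.adjoin k {α})
          (IntermediateField.mem_adjoin_simple_self k α)
      · exact (le_sup_left : F ≤ F ⊔ IntermediateField.adjoin k {α}) huF
      · exact (le_sup_left : F ≤ F ⊔ IntermediateField.adjoin k {α}) (hmemx g)
      · exact (le_sup_left : F ≤ F ⊔ IntermediateField.adjoin k {α}) (hmemx b)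
    · have hyp : (β * aeval x b) ^ p = aeval x (a * b ^ p) := by
        rw [mul_pow, hβp, map_mul (aeval x) a (b ^ p), map_pow]
      rw [hWa, map_sub, aeval_X, aeval_C, hva] at hcd
      have hxy : x ∈ clo w (IntermediateField.adjoin k {β * aeval x b}) := by
        refine lin_clo hd0 hcd hdom ?_
        rw [← hyp]
        exact pow_mem (IntermediateField.mem_adjoin_simple_self k _) p
      have hFle : F ≤ clo w (IntermediateField.adjoin k {β * aeval x b}) :=
        hd.trans (clo_le w (IntermediateField.adjoin_simple_le_iff.2 hxy))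
      refine ⟨hFle, ?_⟩
      have h1 : α = (β * aeval x b) / (u * aeval x g * aeval x b) := by
        rw [hαβ]; field_simp
      rw [h1]
      exact div_mem (le_clo w _ (IntermediateField.mem_adjoin_simple_self k _))
        (hFle (mul_mem (mul_mem huF (hmemx g)) (hmemx b)))

lemma isAlgebraic_of_le {F F' : IntermediateField k Ω} (h : F ≤ F') [Algebra.IsAlgebraic F Ω] :
    Algebra.IsAlgebraic F' Ω := by
  let _ : Algebra F F' := (IntermediateField.inclusion h).toAlgebra
  have : IsScalarTower F F' Ω := IsScalarTower.of_algebraMap_eq fun a => rfl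
  exact Algebra.IsAlgebraic.tower_top (K := F) F'

/-- `Ω` is immediate over `k` -/
theorem im_all {F : IntermediateField k Ω} [Algebra.IsAlgebraic F Ω] {x : Ω}
    (hd : F ≤ clo w (IntermediateField.adjoin k {x}))
    (hx : ∀ c : k, ∃ c' : k, w (x - algebraMap k Ω c') < w (x - algebraMap k Ω c))
    (z : Ω) (hz : z ≠ 0) : Im (k := k) w z :=
  im_of_algebraic F (fun _ hh hh0 => im_clo hx (hd hh) hh0) z hz

/-- **TOWER**: every finite extension `L` of a henselian field `F` with a dense `k(x)`, `x` of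
type 4 (or 1), has a dense `k(y)`, `y ∈ L`, `y` of type 4. -/
theorem tower (hlin : LinStmt k p) (hp1 : w (p : Ω) < 1) (n : ℕ) :
    ∀ (F L : IntermediateField k Ω) (_ : F ≤ L) (_ : relfinrank F L = n) (_ : n ≠ 0)
    (_ : Algebra.IsAlgebraic F Ω) (_ : Inv F w) (x : Ω) (_ : x ∈ F)
    (_ : F ≤ clo w (IntermediateField.adjoin k {x}))
    (_ : ∀ c : k, ∃ c' : k, w (x - algebraMap k Ω c') < w (x - algebraMap k Ω c)),
    ∃ y ∈ L, L ≤ clo w (IntermediateField.adjoin k {y}) ∧
      ∀ c : k, ∃ c' : k, w (y - algebraMap k Ω c') < w (y - algebraMap k Ω c) := by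
  induction n using Nat.strong_induction_on with
  | _ n ih =>
  intro F L hFL hrel hn halg hF x hxF hd hx
  by_cases hLF : L ≤ F
  · exact ⟨x, hFL hxF, hLF.trans hd, hx⟩
  have hgal : IsGalois F Ω := isGalois_of_alg F
  have hk : CharZero k := charZero_of_algebraMap (Ω := Ω)
  have hpp := hp.1
  -- primitive root of unity
  have hζ : (primitiveRoots p F).Nonempty := by
    have : NeZero (p : k) := ⟨by exact_mod_cast hpp.ne_zero⟩
    have : NeZero p := ⟨hpp.ne_zero⟩
    obtain ⟨ζ, hζ⟩ := HasEnoughRootsOfUnity.exists_primitiveRoot k p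
    exact ⟨algebraMap k F ζ, (mem_primitiveRoots hpp.pos).2
      (hζ.map_of_injective (algebraMap k F).injective)⟩
  have himm := im_all (w := w) hd hx
  have hdeg : ∀ a : Ω, (minpoly F a).natDegree.Coprime p → a ∈ (⊥ : IntermediateField F Ω) := by
    intro a ha
    obtain ⟨b, hb⟩ := mem_of_immediate hF a (w_natCast_eq_one w hp1 ha) (by
      intro b hb
      obtain ⟨c, hc⟩ := himm _ hb
      refine ⟨b + algebraMap k F c, ?_⟩
      have : a - algebraMap F Ω (b + algebraMap k F c) =
        a - algebraMap F Ω b - algebraMap k Ω c := by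
        rw [map_add, ← IsScalarTower.algebraMap_apply]; ring
      rw [this]
      exact hc)
    exact mem_bot.2 ⟨b, hb⟩
  -- the Kummer step
  let L' : IntermediateField F Ω := extendScalars hFL
  have hfr : Module.finrank F L' = n := by
    rw [← hrel, relfinrank_eq_finrank_of_le hFL]
  have hfd : FiniteDimensional F L' := Module.finite_of_finrank_pos (by rw [hfr]; omega)
  have hL' : L' ≠ ⊥ := by
    intro h
    apply hLF
    intro z hz
    have h1 : z ∈ L' := hz
    rw [h] at h1
    obtain ⟨b, hb⟩ := mem_bot.1 h1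
    rw [← hb]
    exact b.2
  obtain ⟨α, hαL, hαF, hαp⟩ := kummer_step (F := F) (Ω := Ω) (p := p) hζ hdeg L' hL'
  have hαL1 : α ∈ L := hαL
  have hαF1 : α ∉ F := fun h => hαF (mem_bot.2 ⟨⟨α, h⟩, rfl⟩)
  have hαp1 : α ^ p ∈ F := by
    obtain ⟨b, hb⟩ := mem_bot.1 hαp
    rw [← hb]
    exact b.2
  obtain ⟨y, hyF', hFy, hαy⟩ := step hlin hp1 hF hxF hd hx hαp1 hαF1
  set F' := F ⊔ IntermediateField.adjoin k {α} with hF'
  have hFF' : F ≤ F' := le_sup_left
  have hαF' : α ∈ F' := (le_sup_right : IntermediateField.adjoin k {α} ≤ F')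
    (IntermediateField.mem_adjoin_simple_self k α)
  have hF'L : F' ≤ L := sup_le hFL (IntermediateField.adjoin_simple_le_iff.2 hαL1)
  have hF'y : F' ≤ clo w (IntermediateField.adjoin k {y}) :=
    sup_le hFy (IntermediateField.adjoin_simple_le_iff.2 hαy)
  -- replace `y` by `x` if `y` is a constant
  obtain ⟨y', hy'F', hF'y', hy'⟩ : ∃ y' ∈ F', F' ≤ clo w (IntermediateField.adjoin k {y'}) ∧
      ∀ c : k, ∃ c' : k, w (y' - algebraMap k Ω c') < w (y' - algebraMap k Ω c) := by
    by_cases hyk : ∃ c₀ : k, algebraMap k Ω c₀ = y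
    · obtain ⟨c₀, hc₀⟩ := hyk
      refine ⟨x, hFF' hxF, hF'y.trans (clo_mono w ?_), hx⟩
      rw [IntermediateField.adjoin_simple_le_iff, ← hc₀]
      exact IntermediateField.algebraMap_mem _ _
    · refine ⟨y, hyF', hF'y, fun c => ?_⟩
      have hyc : y - algebraMap k Ω c ≠ 0 := fun h => hyk ⟨c, (sub_eq_zero.1 h).symm⟩
      obtain ⟨c', hc'⟩ := himm _ hyc
      exact ⟨c + c', by rw [map_add, ← sub_sub]; exact hc'⟩
  -- the degree drops
  have hmul := relfinrank_mul_relfinrank hFF' hF'L
  have h1 : relfinrank F F' ≠ 1 := by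
    intro h
    rw [relfinrank_eq_one_iff] at h
    exact hαF1 (h hαF')
  have h0 : relfinrank F F' ≠ 0 := by
    intro h
    rw [h, zero_mul, hrel] at hmul
    exact hn hmul.symm
  have h0' : relfinrank F' L ≠ 0 := by
    intro h
    rw [h, mul_zero, hrel] at hmul
    exact hn hmul.symm
  have hlt : relfinrank F' L < n := by
    rw [← hrel, ← hmul]
    have : 2 ≤ relfinrank F F' := by omega
    nlinarith [Nat.pos_of_ne_zero h0']
  exact ih _ hlt F' L hF'L rfl h0' (isAlgebraic_of_le hFF') (hF.of_le hFF') y' hy'F' hF'y' hy'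

end Step

end Crest.Agent.R013.LU4_935
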