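import Crest.Agent.R013.Lin4_953

/-!
# Type 4 points: the degree p step (task SS-LIN, row 13; helper953)

`C` algebraically closed of mixed characteristic `(0, p)`, `w` a norm on `C[X]` extending `v` which
is immediate (a type 4 point of the affine line). Every nonzero polynomial `a` is, up to a `p`-th
power of a polynomial `b`, either so close to `1` that it is a `p`-th power locally, or it has on a
disc around the point a strictly dominating linear term.
-/

open Polynomial NNReal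

namespace Crest.Agent.R013.Lin_953

variable {C : Type*} [Field C] {w : Valuation C[X] ℝ≥0} {p : ℕ}

theorem lin [IsAlgClosed C] [CharZero C] (hp : p.Prime) (v : Valuation C ℝ≥0) (hv1 : v (p : C) < 1)
    (w : Valuation C[X] ℝ≥0) (hw : ∀ c, w (Polynomial.C c) = v c)
    (himm : ∀ f : C[X], f ≠ 0 → ∃ c : C, w (f - Polynomial.C c) < w f) (a : C[X]) (ha : a ≠ 0) :
    (∃ b : C[X], w (a * b ^ p - 1) ^ (p - 1) < v (p : C) ^ p) ∨
    (∃ b : C[X], b ≠ 0 ∧ ∃ c d : C, d ≠ 0 ∧ w (X - Polynomial.C c) ≤ v d ∧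
      LinDom v (a * b ^ p) c d) := by
  by_cases hN : ∃ b : C[X], b ≠ 0 ∧ ∃ c d : C, d ≠ 0 ∧ w (X - Polynomial.C c) ≤ v d ∧
      LinDom v (a * b ^ p) c d
  · exact Or.inr hN
  left
  have hp1 : 0 < p - 1 := by have := hp.one_lt; omega
  obtain ⟨lam, hl⟩ := IsAlgClosed.exists_pow_nat_eq (-(p : C)) hp1
  have hvp : v (p : C) = v lam ^ (p - 1) := by rw [← v.map_neg, ← hl, v.map_pow]
  have hl0 : v lam ≠ 0 := by
    intro h
    rw [h, zero_pow hp1.ne'] at hvp
    exact (v.ne_zero_iff.2 (by exact_mod_cast hp.ne_zero : (p : C) ≠ 0)) hvp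
  have hl1 : v lam < 1 := by
    by_contra h
    exact absurd (one_le_pow₀ (not_lt.1 h) : 1 ≤ v lam ^ (p - 1)) (not_le.2 (hvp ▸ hv1))
  obtain ⟨z, hz1, hz2⟩ := exists_between ((one_lt_inv₀ (pos_iff_ne_zero.2 hl0)).2 hl1)
  set M := NNReal.sqrt z with hMdef
  have hMz : M ^ 2 = z := NNReal.sq_sqrt z
  have hM : 1 < M := by
    by_contra h
    have : M ^ 2 ≤ 1 := pow_le_one' (not_lt.1 h) 2
    rw [hMz] at this
    exact absurd hz1 (not_lt.2 this)
  have hlM : v lam * M ^ 2 < 1 := by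
    rw [hMz]
    calc v lam * z < v lam * (v lam)⁻¹ := mul_lt_mul_of_pos_left hz2 (pos_iff_ne_zero.2 hl0)
      _ = 1 := mul_inv_cancel₀ hl0
  obtain ⟨b₀, hb₀⟩ := descend hp hv1 hw himm hl hM ha hN
  obtain ⟨b, hb⟩ := caseB hp hv1 hw himm hl hl0 hM hlM a b₀ hb₀ hN
  refine ⟨b, ?_⟩
  calc w (a * b ^ p - 1) ^ (p - 1) < (v lam ^ p) ^ (p - 1) :=
        pow_lt_pow_left₀ hb zero_le hp1.ne'
    _ = v (p : C) ^ p := by rw [hvp, ← pow_mul, ← pow_mul, mul_comm]

end Crest.Agent.R013.Lin_953
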