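import Mathlib
import Crest.Agent.R013.LU4_935
import Crest.Agent.R013.LU5_935
import Crest.Agent.R013.Lin_953

/-!
# Row 13, SS-LU34, part 6: local uniformisation at type 4 points, for a function field `K`
(helper935). `LIN` is helper953's theorem.
-/

open Polynomial IntermediateField
open scoped NNReal

universe u

namespace Crest.Agent.R013.LU6_935

open Crest.Agent.R013.LU1_935 Crest.Agent.R013.LU3_935 Crest.Agent.R013.LU4_935
open Crest.Agent.R013.LU5_935 Crest.Agent.R013.Hens_899

theorem linStmt (k : Type*) [Field k] [IsAlgClosed k] [CharZero k] (p : ℕ) (hp : p.Prime) :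
    LinStmt k p := by
  intro v hv1 _ w hw himm a ha
  rcases Crest.Agent.R013.Lin_953.lin hp v hv1 w hw himm a ha with h | h
  · exact Or.inl h
  · obtain ⟨b, hb, c, d, hd, h1, h2⟩ := h
    exact Or.inr ⟨b, hb, c, d, hd, h1, h2⟩

section Fin

open scoped IntermediateField.algebraAdjoinAdjoin

/-- change of variable: `K/k(t)` is finite for every transcendental `t`. -/
theorem finite_adjoin {k K : Type*} [Field k] [Field K] [Algebra k K] (x : K)
    [FiniteDimensional (IntermediateField.adjoin k {x}) K] (t : K)
    (ht : Transcendental k t) : FiniteDimensional (IntermediateField.adjoin k {t}) K := by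
  have h1 : Algebra.IsAlgebraic (Algebra.adjoin k {x}) K :=
    (IsFractionRing.comap_isAlgebraic_iff (A := Algebra.adjoin k {x})
      (K := IntermediateField.adjoin k {x})).2 inferInstance
  have h2 : Algebra.trdeg k K ≤ 1 := by
    have := Algebra.IsAlgebraic.trdeg_le_cardinalMk k ({x} : Set K)
    simpa using this
  have h3 : AlgebraicIndependent k (fun _ : Unit => t) := algebraicIndependent_unique_type_iff.2 ht
  have h4 : IsTranscendenceBasis k (fun _ : Unit => t) :=
    h3.isTranscendenceBasis_of_lift_trdeg_le_of_finite (by simpa using h2)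
  have h5 := h4.isAlgebraic_field
  have h6 : Set.range (fun _ : Unit => t) = {t} := by simp
  rw [h6] at h5
  have h7 : Algebra.EssFiniteType k (IntermediateField.adjoin k {x}) := by
    rw [IntermediateField.essFiniteType_iff]
    exact IntermediateField.fg_adjoin_of_finite (Set.finite_singleton x)
  have h8 : Algebra.EssFiniteType k K := .comp k (IntermediateField.adjoin k {x}) K
  have h9 : Algebra.EssFiniteType (IntermediateField.adjoin k {t}) K := .of_comp k _ K
  obtain ⟨s, hs⟩ := IntermediateField.fg_top (IntermediateField.adjoin k {t}) K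
  have h3 : FiniteDimensional (IntermediateField.adjoin k {t})
      (IntermediateField.adjoin (IntermediateField.adjoin k {t}) (s : Set K)) :=
    IntermediateField.finiteDimensional_adjoin fun x _ => (h5.isAlgebraic x).isIntegral
  rw [hs] at h3
  exact Module.Finite.of_surjective
    (IntermediateField.topEquiv (F := IntermediateField.adjoin k {t}) (E := K)).toLinearMap
    (IntermediateField.topEquiv (F := IntermediateField.adjoin k {t}) (E := K)).surjective

theorem mem_of_alg {k K : Type*} [Field k] [IsAlgClosed k] [Field K] [Algebra k K] (z : K)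
    (hz : IsAlgebraic k z) : ∃ c : k, algebraMap k K c = z := by
  have h1 := IsAlgClosed.degree_eq_one_of_irreducible k (minpoly.irreducible hz.isIntegral)
  exact minpoly.mem_range_of_degree_eq_one k z h1

end Fin

/-- **LU4.** `K/k(x)` finite, `k` algebraically closed of mixed characteristic `(0, p)`, `w` a rank
one valuation of `K` such that no element of `k` is a best approximation of `x` (type 4, or a type 1
point of the completion outside `k`). Then there is `t ∈ K`, again of this type, with `k(t)` dense
in `(K, w)`. -/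
theorem LU4 {k : Type*} {K : Type u} [Field k] [IsAlgClosed k] [CharZero k] [Field K] [Algebra k K]
    {p : ℕ} (hp : p.Prime) (w : Valuation K ℝ≥0) (hp1 : w (p : K) < 1) (x : K)
    [FiniteDimensional (IntermediateField.adjoin k {x}) K]
    (hx : ∀ c : k, ∃ c' : k, w (x - algebraMap k K c') < w (x - algebraMap k K c)) :
    ∃ t : K, (∀ c : k, ∃ c' : k, w (t - algebraMap k K c') < w (t - algebraMap k K c)) ∧
      FiniteDimensional (IntermediateField.adjoin k {t}) K ∧
      ∀ z : K, ∀ e : ℝ≥0, 0 < e → ∃ s ∈ IntermediateField.adjoin k {t}, w (z - s) < e := by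
  classical
  have : Fact p.Prime := ⟨hp⟩
  have hpK0 : w (p : K) ≠ 0 := by
    have : CharZero K := charZero_of_injective_algebraMap (algebraMap k K).injective
    simpa using hp.ne_zero
  obtain ⟨Ω, i1, i2, i3, i4, i5, W, L, hW, hKL, hdense, hF⟩ := package (k := k) w
    ⟨(p : k)⁻¹, by
      rw [map_inv₀, map_natCast, map_inv₀]
      exact (one_lt_inv₀ (pos_iff_ne_zero.2 hpK0)).2 hp1⟩
  have hchar : CharZero Ω := charZero_of_injective_algebraMap (algebraMap k Ω).injective
  have hcK : ∀ c : k, algebraMap k Ω c = algebraMap K Ω (algebraMap k K c) := fun c =>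
    IsScalarTower.algebraMap_apply k K Ω c
  obtain ⟨F, hFL, hxF, hFx, -, halg, hinv, hrel⟩ := hF x inferInstance
  set j := algebraMap K Ω with hj
  -- transfer of the type 4 property
  have htr : ∀ z : K, (∀ c : k, ∃ c' : k, W (j z - algebraMap k Ω c') < W (j z - algebraMap k Ω c)) ↔
      ∀ c : k, ∃ c' : k, w (z - algebraMap k K c') < w (z - algebraMap k K c) := by
    intro z
    have h1 : ∀ c : k, W (j z - algebraMap k Ω c) = w (z - algebraMap k K c) := by
      intro c
      rw [hcK, ← map_sub, hW]
    simp_rw [h1]
  have hx' := (htr x).2 hx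
  have hp1' : W (p : Ω) < 1 := by
    have : (p : Ω) = j (p : K) := by rw [hj, map_natCast]
    rw [this, hW]; exact hp1
  obtain ⟨y, hyL, hLy, hy⟩ := tower (w := W) (linStmt k p hp) hp1' _ F L hFL rfl hrel halg hinv
    (j x) hxF hFx hx'
  have himm := im_all (w := W) (F := F) hFx hx'
  have hadj : ∀ z : K, (IntermediateField.adjoin k {z}).map (IsScalarTower.toAlgHom k K Ω) =
      IntermediateField.adjoin k {j z} := by
    intro z
    rw [IntermediateField.adjoin_map, Set.image_singleton]
    rfl
  -- it suffices to find `t : K` with `L ≤ clo k(t)`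
  have hfin : ∀ t : K, (∀ c : k, ∃ c' : k, w (t - algebraMap k K c') < w (t - algebraMap k K c)) →
      L ≤ clo W (IntermediateField.adjoin k {j t}) →
      ∃ t : K, (∀ c : k, ∃ c' : k, w (t - algebraMap k K c') < w (t - algebraMap k K c)) ∧
      FiniteDimensional (IntermediateField.adjoin k {t}) K ∧
      ∀ z : K, ∀ e : ℝ≥0, 0 < e → ∃ s ∈ IntermediateField.adjoin k {t}, w (z - s) < e := by
    intro t ht hLt
    have htrans : ∀ z : K, (∀ c : k, ∃ c' : k, w (z - algebraMap k K c') <
        w (z - algebraMap k K c)) → Transcendental k z := by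
      intro z hz halg
      obtain ⟨c, hc⟩ := mem_of_alg z halg
      obtain ⟨c', hc'⟩ := hz c
      rw [hc, sub_self, map_zero] at hc'
      exact absurd hc' (not_lt.2 zero_le)
    refine ⟨t, ht, finite_adjoin x t (htrans t ht), ?_⟩
    intro z e he
    have h1 : j z ∈ clo W ((IntermediateField.adjoin k {t}).map (IsScalarTower.toAlgHom k K Ω)) := by
      rw [hadj]; exact hLt (hKL z)
    exact ((clo_map (k := k) (V := w) (W := W) hW _ z).1 h1) e he
  by_cases hr0 : ∀ e : ℝ≥0, 0 < e → ∃ c : k, W (y - algebraMap k Ω c) < e
  · -- `k` is dense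
    refine hfin x hx (hLy.trans ?_)
    apply clo_le
    rw [IntermediateField.adjoin_simple_le_iff]
    intro e he
    obtain ⟨c, hc⟩ := hr0 e he
    exact ⟨algebraMap k Ω c, IntermediateField.algebraMap_mem _ _, hc⟩
  push Not at hr0
  obtain ⟨r, hr, hr1⟩ := hr0
  obtain ⟨t, ht⟩ := hdense y hyL r hr
  have h2 : y ∈ clo W (IntermediateField.adjoin k {j t}) := by
    refine perturb W (y := y) (y' := j t) (r := r) hr1 ?_ (hLy (hKL t))
    rw [w_sub_comm]; exact ht
  have h3 : L ≤ clo W (IntermediateField.adjoin k {j t}) :=
    hLy.trans (clo_le W (IntermediateField.adjoin_simple_le_iff.2 h2))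
  by_cases htk : ∃ c₀ : k, algebraMap k K c₀ = t
  · obtain ⟨c₀, hc₀⟩ := htk
    refine hfin x hx (h3.trans (clo_mono W ?_))
    rw [IntermediateField.adjoin_simple_le_iff, ← hc₀, hj, ← hcK]
    exact IntermediateField.algebraMap_mem _ _
  · refine hfin t ((htr t).1 fun c => ?_) h3
    have htc : j t - algebraMap k Ω c ≠ 0 := by
      rw [hcK, ← map_sub]
      intro h
      have := (map_eq_zero_iff j j.injective).1 h
      exact htk ⟨c, (sub_eq_zero.1 this).symm⟩
    obtain ⟨c', hc'⟩ := himm _ htc
    exact ⟨c + c', by rw [map_add, ← sub_sub]; exact hc'⟩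

end Crest.Agent.R013.LU6_935
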