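import Mathlib
import Crest.Agent.R013.LU3e_205
import Crest.Agent.R013.LU5_935
import Crest.Agent.R013.LU6_935

/-!
R013 / SS-LU3 (helper205), part 6.  **Type 3 local uniformisation for a function field**: `K/k(x)`
finite, `k` algebraically closed of characteristic zero, `w` a rank one valuation of `K` with
`w p < 1` and `w(K^*) ≠ w(k^*)`.  There is `t ∈ K` generating `w(K^*)` over `w(k^*)`, and for every
such `t` the Laurent polynomials in `t` are dense in `(K, w)`.
-/

set_option autoImplicit false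
set_option linter.unusedSectionVars false

namespace Crest.Agent.R013.LU3_205

open scoped NNReal
open Polynomial Crest.Agent.R013.Hens_899 Crest.Agent.R013.LU1_935 Crest.Agent.R013.LU5_935

section LaurentDense

variable {C Ω : Type*} [Field C] [Field Ω] [Algebra C Ω] {W : Valuation Ω ℝ≥0}

/-- the closure of the Laurent polynomials -/
def LCl (C : Type*) {Ω : Type*} [Field C] [Field Ω] [Algebra C Ω] (W : Valuation Ω ℝ≥0) (t : Ω) :
    Set Ω := {f | ∀ ε : ℝ≥0, 0 < ε → ∃ g : ℤ →₀ C, W (f - ev t g) < ε}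

theorem LCl.of_ev {t : Ω} (g : ℤ →₀ C) : ev t g ∈ LCl C W t :=
  fun ε hε => ⟨g, by rw [sub_self, map_zero]; exact hε⟩

theorem LCl.add {t f g : Ω} (hf : f ∈ LCl C W t) (hg : g ∈ LCl C W t) : f + g ∈ LCl C W t := by
  intro ε hε
  obtain ⟨a, ha⟩ := hf ε hε
  obtain ⟨b, hb⟩ := hg ε hε
  refine ⟨a + b, ?_⟩
  rw [map_add, add_sub_add_comm]
  exact Valuation.map_add_lt W ha hb

theorem LCl.sum {t : Ω} {ι : Type*} (s : Finset ι) {f : ι → Ω} (hf : ∀ i ∈ s, f i ∈ LCl C W t) :
    ∑ i ∈ s, f i ∈ LCl C W t := by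
  classical
  induction s using Finset.induction_on with
  | empty => rw [Finset.sum_empty]; simpa using LCl.of_ev (W := W) (t := t) (0 : ℤ →₀ C)
  | insert a s ha ih =>
    rw [Finset.sum_insert ha]
    exact LCl.add (hf a (Finset.mem_insert_self _ _))
      (ih fun i hi => hf i (Finset.mem_insert_of_mem hi))

theorem LCl.lim {t f : Ω} (hf : ∀ ε : ℝ≥0, 0 < ε → ∃ g ∈ LCl C W t, W (f - g) < ε) :
    f ∈ LCl C W t := by
  intro ε hε
  obtain ⟨g, hg, h1⟩ := hf ε hε
  obtain ⟨a, ha⟩ := hg ε hε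
  refine ⟨a, ?_⟩
  have e : f - ev t a = (f - g) + (g - ev t a) := by ring
  rw [e]
  exact Valuation.map_add_lt W h1 ha

theorem ev_shift {t : Ω} (ht : t ≠ 0) (g : ℤ →₀ C) (c : C) (n : ℤ) :
    algebraMap C Ω c * t ^ n * ev t g = ev t ((c • g).mapDomain (fun m => n + m)) := by
  rw [ev, Finsupp.linearCombination_mapDomain, map_smul, Algebra.smul_def, mul_assoc]
  congr 1
  rw [Finsupp.linearCombination_apply, Finsupp.linearCombination_apply, Finsupp.sum, Finsupp.sum,
    Finset.mul_sum]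
  refine Finset.sum_congr rfl fun m _ => ?_
  rw [Function.comp_apply, zpow_add₀ ht, mul_smul_comm]

theorem LCl.mono_mul {t f : Ω} (ht : t ≠ 0) (hf : f ∈ LCl C W t) (c : C) (n : ℤ) :
    algebraMap C Ω c * t ^ n * f ∈ LCl C W t := by
  intro ε hε
  by_cases hc : c = 0
  · subst hc
    refine ⟨0, ?_⟩
    rw [map_zero, zero_mul, zero_mul, map_zero, sub_zero, map_zero]
    exact hε
  have hm : algebraMap C Ω c * t ^ n ≠ 0 :=
    mul_ne_zero ((_root_.map_ne_zero _).2 hc) (zpow_ne_zero _ ht)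
  have hWm : 0 < W (algebraMap C Ω c * t ^ n) := zero_lt_iff.2 ((Valuation.ne_zero_iff W).2 hm)
  obtain ⟨g, hg⟩ := hf (ε / W (algebraMap C Ω c * t ^ n)) (div_pos hε hWm)
  refine ⟨(c • g).mapDomain (fun m => n + m), ?_⟩
  rw [← ev_shift ht, ← mul_sub, map_mul, mul_comm]
  exact (lt_div_iff₀ hWm).1 hg

theorem LCl.mul {t f g : Ω} (ht : t ≠ 0) (hf : f ∈ LCl C W t) (hg : g ∈ LCl C W t) :
    f * g ∈ LCl C W t := by
  refine LCl.lim fun ε hε => ?_
  by_cases hg0 : g = 0
  · subst hg0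
    refine ⟨0, by simpa using LCl.of_ev (W := W) (t := t) (0 : ℤ →₀ C), ?_⟩
    rw [mul_zero, sub_zero, map_zero]
    exact hε
  have hWg : 0 < W g := zero_lt_iff.2 ((Valuation.ne_zero_iff W).2 hg0)
  obtain ⟨a, ha⟩ := hf (ε / W g) (div_pos hε hWg)
  refine ⟨ev t a * g, ?_, ?_⟩
  · rw [ev_apply, Finset.sum_mul]
    exact LCl.sum _ fun n _ => LCl.mono_mul ht hg _ _
  · rw [← sub_mul, map_mul]
    exact (lt_div_iff₀ hWg).1 ha

theorem LCl.const {t : Ω} (c : C) : algebraMap C Ω c ∈ LCl C W t := by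
  have := LCl.of_ev (W := W) (t := t) (Finsupp.single 0 c)
  rwa [ev_single, zpow_zero, mul_one] at this

theorem LCl.neg {t f : Ω} (hf : f ∈ LCl C W t) : -f ∈ LCl C W t := by
  intro ε hε
  obtain ⟨a, ha⟩ := hf ε hε
  refine ⟨-a, ?_⟩
  rw [map_neg, neg_sub_neg, Valuation.map_sub_swap]
  exact ha

theorem LCl.pow {t f : Ω} (ht : t ≠ 0) (hf : f ∈ LCl C W t) (n : ℕ) : f ^ n ∈ LCl C W t := by
  induction n with
  | zero => rw [pow_zero, ← map_one (algebraMap C Ω)]; exact LCl.const 1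
  | succ n ih => rw [pow_succ]; exact LCl.mul ht ih hf

/-- a monomial of the same leading behaviour -/
theorem LCl.lead {t f : Ω} (h3 : T3 C W t) (hf : f ∈ LCl C W t) (hf0 : f ≠ 0) :
    ∃ (c : C) (n : ℤ), c ≠ 0 ∧ W (f - algebraMap C Ω c * t ^ n) < W f := by
  classical
  have hWf : 0 < W f := zero_lt_iff.2 ((Valuation.ne_zero_iff W).2 hf0)
  obtain ⟨g, hg⟩ := hf (W f) hWf
  have h1 : W (ev t g) = W f :=
    Valuation.map_eq_of_sub_lt W (by rwa [Valuation.map_sub_swap])
  have h2 : ev t g ≠ 0 := by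
    intro h0
    rw [h0, map_zero] at h1
    exact hWf.ne h1
  obtain ⟨n, hn, h4⟩ := h3.exists_term g h2
  refine ⟨g n, n, hn, ?_⟩
  have h5 : W (ev t g - algebraMap C Ω (g n) * t ^ n) < W f := by
    rw [← ev_single, ← map_sub]
    rw [ev_apply]
    refine Valuation.map_sum_lt W hWf.ne' fun m hm => ?_
    have hmn : m ≠ n := by
      rintro rfl
      rw [Finsupp.mem_support_iff] at hm
      apply hm
      rw [Finsupp.sub_apply, Finsupp.single_eq_same, sub_self]
    have hgm : (g - Finsupp.single n (g n) : ℤ →₀ C) m = g m := by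
      rw [Finsupp.sub_apply, Finsupp.single_apply, if_neg hmn.symm, sub_zero]
    rw [hgm]
    refine lt_of_le_of_ne ((h3.term_le g m).trans h1.le) fun h6 => ?_
    rw [map_mul, map_zpow₀, ← h1, h4] at h6
    exact hmn (h3.eq_of ((_root_.map_ne_zero _).2 hn) h6)
  have e : f - algebraMap C Ω (g n) * t ^ n =
      (f - ev t g) + (ev t g - algebraMap C Ω (g n) * t ^ n) := by ring
  rw [e]
  exact Valuation.map_add_lt W hg h5

theorem LCl.inv {t f : Ω} (h3 : T3 C W t) (hf : f ∈ LCl C W t) : f⁻¹ ∈ LCl C W t := by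
  by_cases hf0 : f = 0
  · subst hf0; rwa [inv_zero]
  have hWf : 0 < W f := zero_lt_iff.2 ((Valuation.ne_zero_iff W).2 hf0)
  obtain ⟨c, n, hc, h⟩ := LCl.lead h3 hf hf0
  have hcΩ : algebraMap C Ω c ≠ 0 := (_root_.map_ne_zero _).2 hc
  set m := algebraMap C Ω c * t ^ n with hm
  have hm0 : m ≠ 0 := mul_ne_zero hcΩ (zpow_ne_zero _ h3.ne)
  have hWm : W m = W f := Valuation.map_eq_of_sub_lt W (by rwa [Valuation.map_sub_swap])
  have hminv : m⁻¹ = algebraMap C Ω c⁻¹ * t ^ (-n) := by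
    rw [hm, mul_inv, map_inv₀, zpow_neg]
  set δ := 1 - m⁻¹ * f with hδ
  have hδ1 : W δ < 1 := by
    have e : δ = -(m⁻¹ * (f - m)) := by
      rw [hδ, mul_sub, inv_mul_cancel₀ hm0]; ring
    rw [e, Valuation.map_neg, map_mul, map_inv₀, hWm]
    calc (W f)⁻¹ * W (f - m) < (W f)⁻¹ * W f := mul_lt_mul_of_pos_left h (inv_pos.2 hWf)
      _ = 1 := inv_mul_cancel₀ hWf.ne'
  have hone : (1 : Ω) ∈ LCl C W t := by
    rw [← map_one (algebraMap C Ω)]; exact LCl.const 1
  have hδS : δ ∈ LCl C W t := by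
    rw [hδ, sub_eq_add_neg]
    refine LCl.add hone (LCl.neg ?_)
    rw [hminv]
    exact LCl.mono_mul h3.ne hf _ _
  have hf' : f = m * (1 - δ) := by rw [hδ, sub_sub_cancel, mul_inv_cancel_left₀ hm0]
  have hinv : f⁻¹ = m⁻¹ * (1 - δ)⁻¹ := by rw [hf', mul_inv]
  rw [hinv, hminv]
  refine LCl.mono_mul h3.ne ?_ _ _
  have h1δ : (1 : Ω) - δ ≠ 0 := by
    intro h0
    rw [h0, mul_zero] at hf'
    exact hf0 hf'
  have hW1δ : W (1 - δ) = 1 := Valuation.map_one_sub_of_lt W hδ1
  refine LCl.lim fun ε hε => ?_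
  obtain ⟨N, hN⟩ := NNReal.exists_pow_lt_of_lt_one hε hδ1
  refine ⟨∑ i ∈ Finset.range N, δ ^ i, LCl.sum _ fun i _ => LCl.pow h3.ne hδS i, ?_⟩
  have e : (1 - δ)⁻¹ - ∑ i ∈ Finset.range N, δ ^ i = δ ^ N * (1 - δ)⁻¹ := by
    have h5 : (∑ i ∈ Finset.range N, δ ^ i) * (1 - δ) = 1 - δ ^ N := by
      have := geom_sum_mul_neg δ N
      rw [← this]
    rw [eq_comm, ← sub_eq_zero]
    field_simp
    linear_combination h5
  rw [e, map_mul, map_inv₀, hW1δ, inv_one, mul_one, map_pow]
  exact hN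

/-- the closure of the Laurent polynomials is a field -/
def LClF (C : Type*) {Ω : Type*} [Field C] [Field Ω] [Algebra C Ω] (W : Valuation Ω ℝ≥0) (t : Ω)
    (h3 : T3 C W t) : IntermediateField C Ω where
  carrier := LCl C W t
  mul_mem' := LCl.mul h3.ne
  add_mem' := LCl.add
  algebraMap_mem' := LCl.const
  inv_mem' _ := LCl.inv h3

theorem clo_le_LCl {t : Ω} (h3 : T3 C W t) :
    ∀ f ∈ clo W (IntermediateField.adjoin C {t}), f ∈ LCl C W t := by
  intro f hf
  refine LCl.lim fun ε hε => ?_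
  obtain ⟨s, hs, h⟩ := hf ε hε
  refine ⟨s, ?_, h⟩
  have h1 : IntermediateField.adjoin C {t} ≤ LClF C W t h3 := by
    rw [IntermediateField.adjoin_simple_le_iff]
    change t ∈ LCl C W t
    have := LCl.of_ev (W := W) (t := t) (Finsupp.single 1 (1 : C))
    rwa [ev_single, map_one, one_mul, zpow_one] at this
  exact h1 hs

end LaurentDense

section KLevel

universe u v

variable {k : Type v} {K : Type u} [Field k] [IsAlgClosed k] [Field K] [Algebra k K]

theorem T3.transcendental {w : Valuation K ℝ≥0} {t : K} (h3 : T3 k w t) : Transcendental k t := by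
  intro halg
  obtain ⟨c, hc⟩ := Crest.Agent.R013.LU6_935.mem_of_alg t halg
  have := h3.tor 1 c (by rw [zpow_one, hc])
  exact one_ne_zero this

/-- one value outside `w(k^*)` gives a type 3 element -/
theorem T3.of_ne {w : Valuation K ℝ≥0} {z : K} (hz0 : z ≠ 0)
    (hz : ∀ c : k, w z ≠ w (algebraMap k K c)) : T3 k w z := by
  refine ⟨hz0, ?_⟩
  have key : ∀ (n : ℕ) (c : k), w z ^ n = w (algebraMap k K c) → n = 0 := by
    intro n c hn
    by_contra hn0
    obtain ⟨d, hd⟩ := IsAlgClosed.exists_pow_nat_eq c (Nat.pos_of_ne_zero hn0)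
    rw [← hd, map_pow, map_pow] at hn
    exact hz d ((pow_left_inj₀ zero_le zero_le hn0).1 hn)
  intro n c hn
  obtain ⟨m, rfl | rfl⟩ := n.eq_nat_or_neg
  · rw [zpow_natCast] at hn
    rw [key m c hn]; rfl
  · rw [zpow_neg, zpow_natCast] at hn
    have h1 : w z ^ m = w (algebraMap k K c⁻¹) := by
      rw [map_inv₀, map_inv₀, ← hn, inv_inv]
    rw [key m _ h1]; rfl

variable [CharZero k]

/-- **TYPE 3: every generator of the value group is a coordinate.** -/
theorem dn_of_vg {p : ℕ} (hp : p.Prime) (w : Valuation K ℝ≥0) (hp1 : w (p : K) < 1) (x : K)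
    [FiniteDimensional (IntermediateField.adjoin k {x}) K] {t : K} (h3 : T3 k w t)
    (hV : VG k w Set.univ t) : Dn k w Set.univ t := by
  classical
  have hpK0 : w (p : K) ≠ 0 := by
    have : CharZero K := charZero_of_injective_algebraMap (algebraMap k K).injective
    simpa using hp.ne_zero
  have hfin := Crest.Agent.R013.LU6_935.finite_adjoin x t h3.transcendental
  obtain ⟨Ω, i1, i2, i3, i4, i5, W, L, hW, hKL, hdense, hF⟩ := package (k := k) w
    ⟨(p : k)⁻¹, by
      rw [map_inv₀, map_natCast, map_inv₀]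
      exact (one_lt_inv₀ (pos_iff_ne_zero.2 hpK0)).2 hp1⟩
  have hchar : CharZero Ω := charZero_of_injective_algebraMap (algebraMap k Ω).injective
  have hcK : ∀ c : k, algebraMap k Ω c = algebraMap K Ω (algebraMap k K c) := fun c =>
    IsScalarTower.algebraMap_apply k K Ω c
  obtain ⟨F, hFL, htF, hFt, -, halg, hinv, hrel⟩ := hF t hfin
  set j := algebraMap K Ω with hj
  have hp1' : W (p : Ω) < 1 := by
    have : (p : Ω) = j (p : K) := by rw [hj, map_natCast]
    rw [this, hW]; exact hp1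
  have hWc : ∀ c : k, W (algebraMap k Ω c) = w (algebraMap k K c) := fun c => by rw [hcK, hW]
  -- type 3 in `Ω`
  have h3' : T3 k W (j t) := by
    refine ⟨(_root_.map_ne_zero _).2 h3.ne, ?_⟩
    intro n c hn
    rw [hW, hWc] at hn
    exact h3.tor n c hn
  have hVL : VG k W (L : Set Ω) (j t) := by
    intro y hy hy0
    have hWy : 0 < W y := zero_lt_iff.2 ((Valuation.ne_zero_iff W).2 hy0)
    obtain ⟨s, hs⟩ := hdense y hy (W y) hWy
    have h1 : W (j s) = W y := Valuation.map_eq_of_sub_lt W (by rwa [Valuation.map_sub_swap])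
    have hs0 : s ≠ 0 := by
      rintro rfl
      rw [map_zero, map_zero] at h1
      exact hWy.ne h1
    obtain ⟨c, n, hc, hn⟩ := hV s (Set.mem_univ s) hs0
    refine ⟨c, n, hc, ?_⟩
    rw [← h1, hW, hn, hWc, hW]
  -- the base field
  have hrange : Set.range (algebraMap F Ω) = (F : Set Ω) := Subtype.range_coe
  have hD : Dn k W (Set.range (algebraMap F Ω)) (j t) := by
    rw [hrange]
    exact ⟨h3', htF, fun f hf => clo_le_LCl h3' f (hFt hf)⟩
  have hsep : Algebra.IsSeparable F Ω := Algebra.IsAlgebraic.isSeparable_of_perfectField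
  have hnor : Normal F Ω := by
    have : IsAlgClosure F Ω := ⟨inferInstance, halg⟩
    exact IsAlgClosure.normal F Ω
  have hgal : IsGalois F Ω := ⟨⟩
  have hfin' : FiniteDimensional F (IntermediateField.extendScalars hFL) := by
    rw [IntermediateField.relfinrank_eq_finrank_of_le hFL] at hrel
    exact Module.finite_of_finrank_pos (Nat.pos_of_ne_zero hrel)
  have hmain := main (C := k) hp hp1' hinv hD (IntermediateField.extendScalars hFL)
    (z := j t) (hKL t) h3' hVL
  refine ⟨h3, Set.mem_univ t, ?_⟩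
  intro f _ ε hε
  obtain ⟨g, hg⟩ := hmain.dense (j f) (hKL f) ε hε
  refine ⟨g, ?_⟩
  have h5 : ev (j t) g = j (ev t g) := by
    rw [ev_apply, ev_apply, map_sum]
    refine Finset.sum_congr rfl fun n _ => ?_
    rw [map_mul, map_zpow₀, hcK]
  rw [h5, ← map_sub, hW] at hg
  exact hg

/-- **TYPE 3 LOCAL UNIFORMISATION (LU3).** -/
theorem LU3 {p : ℕ} (hp : p.Prime) (w : Valuation K ℝ≥0) (hp1 : w (p : K) < 1) (x : K)
    [FiniteDimensional (IntermediateField.adjoin k {x}) K]
    (hx : ∃ z : K, z ≠ 0 ∧ ∀ c : k, w z ≠ w (algebraMap k K c)) :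
    ∃ t : K, T3 k w t ∧ VG k w Set.univ t ∧ Dn k w Set.univ t ∧
      FiniteDimensional (IntermediateField.adjoin k {t}) K ∧
      ∀ z : K, ∀ e : ℝ≥0, 0 < e → ∃ s ∈ IntermediateField.adjoin k {t}, w (z - s) < e := by
  classical
  obtain ⟨z₀, hz₀, hz₀'⟩ := hx
  have h3₀ : T3 k w z₀ := T3.of_ne hz₀ hz₀'
  have hfin₀ := Crest.Agent.R013.LU6_935.finite_adjoin x z₀ h3₀.transcendental
  set F₀ := IntermediateField.adjoin k {z₀} with hF₀
  have hrange : Set.range (algebraMap F₀ K) = (F₀ : Set K) := Subtype.range_coe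
  have hD₀ : Dn k w (Set.range (algebraMap F₀ K)) z₀ := by
    rw [hrange]
    exact ⟨h3₀, IntermediateField.mem_adjoin_simple_self k z₀,
      fun f hf => clo_le_LCl h3₀ f (le_clo w _ hf)⟩
  have htop : FiniteDimensional F₀ (⊤ : IntermediateField F₀ K) :=
    Module.Finite.of_surjective
      (IntermediateField.topEquiv (F := F₀) (E := K)).symm.toLinearMap
      (IntermediateField.topEquiv (F := F₀) (E := K)).symm.surjective
  obtain ⟨t, -, h3, hV, -⟩ := exists_vgen (C := k) hD₀.t3 hD₀.vg hD₀.mem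
    (⊤ : IntermediateField F₀ K)
  have hV' : VG k w Set.univ t := fun f _ hf0 => hV f trivial hf0
  have hD := dn_of_vg hp w hp1 x h3 hV'
  refine ⟨t, h3, hV', hD, Crest.Agent.R013.LU6_935.finite_adjoin x t h3.transcendental, ?_⟩
  intro z e he
  obtain ⟨g, hg⟩ := hD.dense z (Set.mem_univ z) e he
  refine ⟨ev t g, ?_, hg⟩
  rw [ev_apply]
  refine sum_mem fun n _ => mul_mem (algebraMap_mem _ _) ?_
  exact IntermediateField.pow_mem _ (IntermediateField.mem_adjoin_simple_self k t) n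

end KLevel

end Crest.Agent.R013.LU3_205
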