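import Mathlib
import Crest.Agent.R013.Gl2_946

/-!
# Constant extensions of circle fields (row 13, leaf LEMW / B-ANN, part 1)

`k` complete, `Ω` a normed field over `k`.  The norm of an algebraic element depends only on its
minimal polynomial; if the norm of `Ω` is the Gauss norm on `k[y]`, it is the Gauss norm on `κ[y]`,
`κ` the algebraic closure of `k` in `Ω`.
-/

set_option autoImplicit false
set_option linter.unusedSectionVars false

namespace Crest.Agent.R013.LemC623

open Polynomial Crest.Agent.R013.Gl946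

section gauss

variable {k : Type*} [NontriviallyNormedField k] [CompleteSpace k] [IsUltrametricDist k]
  {Ω : Type*} [NormedField Ω] [NormedAlgebra k Ω]

theorem norm_alg {c : Ω} (hc : IsAlgebraic k c) : ‖c‖ = spectralValue (minpoly k c) := by
  have h := NormedAlgebra.norm_eq_spectralNorm (K := k) (L := algebraicClosure k Ω)
    ⟨c, (mem_algebraicClosure_iff).2 hc⟩
  have h2 : minpoly k (⟨c, (mem_algebraicClosure_iff).2 hc⟩ : algebraicClosure k Ω) =
      minpoly k c := (minpoly.algebraMap_eq (algebraMap (algebraicClosure k Ω) Ω).injective _).symm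
  rw [spectralNorm, h2] at h
  exact h

/-- Conjugate elements have the same norm. -/
theorem norm_conj {c c' : Ω} (hc : IsAlgebraic k c) (h : minpoly k c = minpoly k c') :
    ‖c‖ = ‖c'‖ := by
  have hc' : IsAlgebraic k c' := by
    rw [isAlgebraic_iff_isIntegral]
    by_contra h0
    rw [minpoly.eq_zero h0] at h
    exact minpoly.ne_zero hc.isIntegral h
  rw [norm_alg hc, norm_alg hc', h]

theorem norm_algEquiv (F : IntermediateField k Ω) [Algebra.IsAlgebraic k F] (τ : F ≃ₐ[k] F)
    (c : F) : ‖τ c‖ = ‖c‖ := by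
  have hc : IsAlgebraic k ((τ c : F) : Ω) :=
    (Algebra.IsAlgebraic.isAlgebraic (R := k) (τ c)).algebraMap
  change ‖((τ c : F) : Ω)‖ = ‖(c : Ω)‖
  refine norm_conj hc ?_
  have h1 : ∀ x : F, minpoly k (x : Ω) = minpoly k x := fun x =>
    minpoly.algebraMap_eq (algebraMap F Ω).injective x
  rw [h1, h1]
  exact minpoly.algEquiv_eq τ c

/-- the norm as an absolute value -/
noncomputable def nabs (F : Type*) [NormedField F] : AbsoluteValue F ℝ :=
  { toFun := norm
    map_mul' := norm_mul
    nonneg' := norm_nonneg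
    eq_zero' := fun _ => norm_eq_zero
    add_le' := norm_add_le }

theorem nabs_apply {F : Type*} [NormedField F] (c : F) : nabs F c = ‖c‖ := rfl

theorem nabs_na (F : Type*) [NormedField F] [IsUltrametricDist F] : IsNonarchimedean (nabs F) :=
  fun a b => IsUltrametricDist.norm_add_le_max a b

/-- the Gauss norm of radius one. -/
noncomputable def gn {F : Type*} [NormedField F] (f : F[X]) : ℝ := f.gaussNorm (nabs F) 1

theorem gn_mul {F : Type*} [NormedField F] [IsUltrametricDist F] (f g : F[X]) :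
    gn (f * g) = gn f * gn g := gaussNorm_mul (nabs_na F) one_pos f g

theorem gn_one {F : Type*} [NormedField F] : gn (1 : F[X]) = 1 := by
  rw [gn, ← C_1, gaussNorm_C]
  exact norm_one

theorem gn_prod {F : Type*} [NormedField F] [IsUltrametricDist F] {ι : Type*} (s : Finset ι)
    (f : ι → F[X]) : gn (∏ i ∈ s, f i) = ∏ i ∈ s, gn (f i) := by
  classical
  induction s using Finset.induction_on with
  | empty => rw [Finset.prod_empty, Finset.prod_empty, gn_one]
  | insert i s hi ih => rw [Finset.prod_insert hi, Finset.prod_insert hi, gn_mul, ih]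

theorem coeff_le_gn {F : Type*} [NormedField F] (f : F[X]) (i : ℕ) : ‖f.coeff i‖ ≤ gn f := by
  have := f.le_gaussNorm (nabs F) zero_le_one i
  rwa [one_pow, mul_one] at this

theorem gn_nonneg {F : Type*} [NormedField F] (f : F[X]) : 0 ≤ gn f :=
  gaussNorm_nonneg _ _ zero_le_one

theorem exists_gn {F : Type*} [NormedField F] (f : F[X]) : ∃ i, gn f = ‖f.coeff i‖ := by
  obtain ⟨i, hi⟩ := exists_eq_gaussNorm (nabs F) 1 f
  rw [one_pow, mul_one] at hi
  exact ⟨i, hi⟩

theorem gn_le {F : Type*} [NormedField F] {f : F[X]} {B : ℝ} (h : ∀ i, ‖f.coeff i‖ ≤ B) :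
    gn f ≤ B := by
  obtain ⟨i, hi⟩ := exists_gn f
  rw [hi]; exact h i

theorem gn_congr {F F' : Type*} [NormedField F] [NormedField F'] {f : F[X]} {f' : F'[X]}
    (h : ∀ i, ‖f.coeff i‖ = ‖f'.coeff i‖) : gn f = gn f' := by
  refine le_antisymm (gn_le fun i => ?_) (gn_le fun i => ?_)
  · rw [h]; exact coeff_le_gn _ _
  · rw [← h]; exact coeff_le_gn _ _

variable [IsUltrametricDist Ω]

theorem norm_aeval_le {F : Type*} [NormedField F] [NormedAlgebra F Ω] {y : Ω} (hy : ‖y‖ ≤ 1)
    (f : F[X]) : ‖aeval y f‖ ≤ gn f := by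
  rw [aeval_eq_sum_range]
  refine IsUltrametricDist.norm_sum_le_of_forall_le_of_nonneg (gn_nonneg f) fun i _ => ?_
  rw [norm_smul, norm_pow]
  calc ‖f.coeff i‖ * ‖y‖ ^ i ≤ gn f * 1 :=
        mul_le_mul (coeff_le_gn f i) (pow_le_one₀ (norm_nonneg _) hy) (by positivity) (gn_nonneg f)
    _ = gn f := mul_one _

theorem gn_eq_of_isGauss {F : Type*} [NormedField F] [NormedAlgebra F Ω] {y : Ω}
    (hG : IsGauss F y) (f : F[X]) : ‖aeval y f‖ = gn f := by
  refine le_antisymm (norm_aeval_le hG.norm_le f) ?_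
  obtain ⟨i, hi⟩ := exists_gn f
  rw [hi]; exact hG.coeff_le f i

/-- **The norm of `Ω` is the Gauss norm on `F[y]`, `F/k` finite Galois.** -/
theorem isGauss_galois {y : Ω} (hG : IsGauss k y) (F : IntermediateField k Ω)
    [FiniteDimensional k F] [IsGalois k F] (f : F[X]) : ‖aeval y f‖ = gn f := by
  classical
  have hle : ∀ f : F[X], ‖aeval y f‖ ≤ gn f := by
    intro f
    rw [aeval_eq_sum_range]
    refine IsUltrametricDist.norm_sum_le_of_forall_le_of_nonneg (gn_nonneg f) fun i _ => ?_
    rw [Algebra.smul_def, norm_mul, norm_pow]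
    calc ‖algebraMap F Ω (f.coeff i)‖ * ‖y‖ ^ i ≤ gn f * 1 :=
          mul_le_mul (coeff_le_gn f i) (pow_le_one₀ (norm_nonneg _) hG.norm_le) (by positivity)
            (gn_nonneg f)
      _ = gn f := mul_one _
  by_cases h0 : gn f = 0
  · refine le_antisymm (hle f) ?_
    rw [h0]; exact norm_nonneg _
  have hpos : 0 < gn f := lt_of_le_of_ne (gn_nonneg f) (Ne.symm h0)
  refine le_antisymm (hle f) ?_
  -- the product of the conjugates
  set Fp : F[X] := ∏ τ : Gal(F/k), f.map (τ : F →+* F) with hFp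
  have hgτ : ∀ τ : Gal(F/k), gn (f.map (τ : F →+* F)) = gn f := by
    intro τ
    refine gn_congr fun i => ?_
    rw [coeff_map]
    exact norm_algEquiv F τ _
  have hgFp : gn Fp = gn f ^ Fintype.card Gal(F/k) := by
    rw [hFp, gn_prod, Finset.prod_congr rfl fun τ _ => hgτ τ, Finset.prod_const, Finset.card_univ]
  -- descends to `k`
  have hfix : ∀ σ : Gal(F/k), Fp.map (σ : F →+* F) = Fp := by
    intro σ
    rw [hFp, Polynomial.map_prod]
    refine Fintype.prod_equiv (Equiv.mulLeft σ) _ _ fun τ => ?_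
    rw [Polynomial.map_map]
    rfl
  obtain ⟨F0, hF0⟩ : ∃ F0 : k[X], F0.map (algebraMap k F) = Fp := by
    have : Fp ∈ lifts (algebraMap k F) := by
      rw [lifts_iff_coeff_lifts]
      intro i
      have hmem : Fp.coeff i ∈ (⊥ : IntermediateField k F) := by
        rw [IsGalois.mem_bot_iff_fixed]
        intro σ
        conv_rhs => rw [← hfix σ]
        rw [coeff_map]; rfl
      exact IntermediateField.mem_bot.1 hmem
    obtain ⟨q, hq⟩ := this
    exact ⟨q, hq⟩
  have hgF0 : gn F0 = gn Fp := by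
    refine gn_congr fun i => ?_
    rw [← hF0, coeff_map, norm_algebraMap']
  have hval : ‖aeval y Fp‖ = gn Fp := by
    rw [← hgF0, ← gn_eq_of_isGauss hG F0, ← hF0, aeval_map_algebraMap]
  have hprod : aeval y Fp = ∏ τ : Gal(F/k), aeval y (f.map (τ : F →+* F)) := by
    rw [hFp, map_prod]
  have hone : f.map ((1 : Gal(F/k)) : F →+* F) = f := by
    have : ((1 : Gal(F/k)) : F →+* F) = RingHom.id F := rfl
    rw [this, Polynomial.map_id]
  rw [hprod, norm_prod, hgFp, ← Finset.mul_prod_erase Finset.univ _ (Finset.mem_univ 1), hone,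
    ← Finset.card_univ, ← Finset.card_erase_add_one (Finset.mem_univ (1 : Gal(F/k))),
    pow_succ] at hval
  have h3 : ∏ τ ∈ Finset.univ.erase (1 : Gal(F/k)), ‖aeval y (f.map (τ : F →+* F))‖ ≤
      gn f ^ (Finset.univ.erase (1 : Gal(F/k))).card := by
    rw [← Finset.prod_const]
    refine Finset.prod_le_prod (fun _ _ => norm_nonneg _) fun τ _ => ?_
    rw [← hgτ τ]; exact hle _
  have hpw : 0 < gn f ^ (Finset.univ.erase (1 : Gal(F/k))).card := pow_pos hpos _
  have h4 : gn f ^ (Finset.univ.erase (1 : Gal(F/k))).card * gn f ≤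
      ‖aeval y f‖ * gn f ^ (Finset.univ.erase (1 : Gal(F/k))).card := by
    rw [← hval]
    exact mul_le_mul_of_nonneg_left h3 (norm_nonneg _)
  rw [mul_comm] at h4
  exact le_of_mul_le_mul_right h4 hpw

/-- **The norm of `Ω` is the Gauss norm on `F[y]`, `F/k` algebraic.** -/
theorem gauss_alg [CharZero k] [IsAlgClosed Ω] {y : Ω} (hG : IsGauss k y)
    (F : IntermediateField k Ω) [Algebra.IsAlgebraic k F] (f : F[X]) : ‖aeval y f‖ = gn f := by
  classical
  -- a finite Galois extension containing the coefficients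
  set S : Finset Ω := (f.support.image fun i => ((f.coeff i : F) : Ω)) with hS
  have hSi : ∀ x ∈ S, IsIntegral k x := by
    intro x hx
    rw [hS, Finset.mem_image] at hx
    obtain ⟨i, -, rfl⟩ := hx
    exact ((Algebra.IsAlgebraic.isAlgebraic (R := k) (f.coeff i)).algebraMap (A := Ω)).isIntegral
  set p : k[X] := ∏ x ∈ S, minpoly k x with hp
  have hp0 : p ≠ 0 := Finset.prod_ne_zero_iff.2 fun x hx => minpoly.ne_zero (hSi x hx)
  set N : IntermediateField k Ω := IntermediateField.adjoin k (p.rootSet Ω) with hN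
  have hsp : p.IsSplittingField k N :=
    IntermediateField.adjoin_rootSet_isSplittingField (IsAlgClosed.splits _)
  have hfd : FiniteDimensional k N := IsSplittingField.finiteDimensional N p
  have hnorm : Normal k N := Normal.of_isSplittingField p
  have hgal : IsGalois k N := ⟨⟩
  have hcN : ∀ i, ((f.coeff i : F) : Ω) ∈ N := by
    intro i
    by_cases hi : i ∈ f.support
    · apply IntermediateField.subset_adjoin
      rw [mem_rootSet]
      refine ⟨hp0, ?_⟩
      have hmem : ((f.coeff i : F) : Ω) ∈ S := Finset.mem_image.2 ⟨i, hi, rfl⟩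
      rw [hp, map_prod]
      exact Finset.prod_eq_zero hmem (minpoly.aeval _ _)
    · rw [notMem_support_iff.1 hi]; exact zero_mem _
  obtain ⟨g, hg⟩ : ∃ g : N[X], g.map (algebraMap N Ω) = f.map (algebraMap F Ω) := by
    have : f.map (algebraMap F Ω) ∈ lifts (algebraMap N Ω) := by
      rw [lifts_iff_coeff_lifts]
      intro i
      rw [coeff_map]
      exact ⟨⟨_, hcN i⟩, rfl⟩
    obtain ⟨q, hq⟩ := this
    exact ⟨q, hq⟩
  have h1 : aeval y f = aeval y g := by
    rw [aeval_def, aeval_def, ← eval_map, ← eval_map, hg]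
  have h2 : gn g = gn f := by
    refine gn_congr fun i => ?_
    have := congrArg (fun p => coeff p i) hg
    simp only [coeff_map] at this
    have e1 : ‖g.coeff i‖ = ‖algebraMap N Ω (g.coeff i)‖ := rfl
    have e2 : ‖f.coeff i‖ = ‖algebraMap F Ω (f.coeff i)‖ := rfl
    rw [e1, e2, this]
  rw [h1, isGauss_galois hG N g, h2]

end gauss

end Crest.Agent.R013.LemC623
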