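import Crest.Agent.R013.LemW2_623
import Crest.Agent.R013.Gl3_946

/-!
# The Birkhoff triple of a circle (row 13, leaf LEMW, part 3)

In 946's setting (`E` complete, `k(y)` dense in `E`, Gauss norm) the pair `AP`, `AU` is a Birkhoff
triple.
-/

set_option autoImplicit false
set_option linter.unusedSectionVars false

namespace Crest.Agent.R013.LemW623

open Polynomial Crest.Agent.R013.Gl946

variable {k E : Type*} [NormedField k] [NormedField E] [NormedAlgebra k E]
  [IsUltrametricDist E] {y : E}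

theorem gauss_transc (hG : IsGauss k y) : Transcendental k y :=
  transcendental_iff_injective.2 hG.injective

theorem deg_le_of_div_mem (hG : IsGauss k y) (p : k[X]) (m : ℕ)
    (hp : aeval y p / y ^ m ∈ AU k y) : p.natDegree ≤ m := by
  rw [natDegree_le_iff_coeff_eq_zero]
  intro j hj
  by_contra hne
  have hpos : 0 < ‖p.coeff j‖ := norm_pos_iff.2 hne
  obtain ⟨z', hz', hzw'⟩ := Metric.mem_closure_iff.1
    (show aeval y p / y ^ m ∈ closure (((aeval (y⁻¹) : k[X] →ₐ[k] E).range : Subalgebra k E) :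
      Set E) from hp) _ hpos
  obtain ⟨q, rfl⟩ := hz'
  rw [dist_eq_norm] at hzw'
  have hy := hG.ne_zero
  obtain ⟨q', hq', e'⟩ := poly_inv_mul_pow hy q q.natDegree le_rfl
  have e : aeval y (p * X ^ q.natDegree - q' * X ^ m) =
      (aeval y p / y ^ m - aeval (y⁻¹) q) * y ^ (m + q.natDegree) := by
    rw [map_sub, map_mul, map_mul, map_pow, map_pow, aeval_X, ← e', pow_add]
    field_simp
  have h1 := hG.coeff_le (p * X ^ q.natDegree - q' * X ^ m) (j + q.natDegree)
  have hq0 : q'.coeff (j + q.natDegree - m) = 0 := coeff_eq_zero_of_natDegree_lt (by omega)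
  rw [e, norm_mul, norm_pow, hG.norm_eq, one_pow, mul_one, coeff_sub, coeff_mul_X_pow,
    coeff_mul_X_pow', if_pos (by omega), hq0, sub_zero] at h1
  exact absurd hzw' (not_lt.2 h1)

theorem unitIn_of_coeff (hG : IsGauss k y) {g : k[X]} (h1 : ‖aeval y g‖ ≤ 1)
    (h0 : g.coeff 0 = 1) : UnitIn (AP hG) (aeval y g) := by
  have hg : g ≠ 0 := by rintro rfl; simp at h0
  refine ⟨hG.aeval_ne_zero hg, aeval_mem_AP hG g, AP0_le_AP hG ⟨1, g, h1, h0, ?_⟩⟩
  rw [map_one, one_div]

theorem poly_fac (hG : IsGauss k y) {π : k} (hπ : IsUnif π) {f : k[X]} (hf : f ≠ 0) :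
    ∃ (m : ℕ) (c : k) (v h : E), c ≠ 0 ∧ UnitIn (AP hG) v ∧ ‖h - 1‖ < 1 ∧
      aeval y f = algebraMap k E c * y ^ m * v * h := by
  obtain ⟨m, hm, hmin⟩ := hG.exists_index hf
  have hfn : 0 < ‖aeval y f‖ := norm_pos_iff.2 (hG.aeval_ne_zero hf)
  set c := f.coeff m with hc
  have hc0 : c ≠ 0 := by
    intro h; rw [h, norm_zero] at hm; exact hfn.ne hm
  obtain ⟨l, g', h1, h2, h3, h4⟩ := split_low (C c⁻¹ * f) m
  have hco : ∀ i, ‖(C c⁻¹ * f).coeff i‖ ≤ 1 := fun i => by
    rw [coeff_C_mul, norm_mul, norm_inv, hm, inv_mul_le_iff₀ hfn, mul_one]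
    exact hG.coeff_le _ _
  have hl : ‖aeval y l‖ ≤ ‖π‖ := by
    refine hG.aeval_le l hπ.pos.le fun i => ?_
    rcases lt_or_ge i m with h | h
    · rw [h2 i h]
      refine hπ.le _ ?_
      rw [coeff_C_mul, norm_mul, norm_inv, hm, inv_mul_lt_iff₀ hfn, mul_one]
      exact hmin i h
    · rw [h3 i h, norm_zero]; exact hπ.pos.le
  have hg'1 : ‖aeval y g'‖ ≤ 1 := hG.aeval_le g' zero_le_one fun i => by rw [h4]; exact hco _
  have hg'0 : g'.coeff 0 = 1 := by
    rw [h4, coeff_C_mul, Nat.zero_add]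
    exact inv_mul_cancel₀ hc0
  have hg'n : ‖aeval y g'‖ = 1 := hG.norm_of_coeff_zero g' hg'1 hg'0
  have hv := unitIn_of_coeff hG hg'1 hg'0
  have hy := hG.ne_zero
  have hcE : algebraMap k E c ≠ 0 := by simpa using hc0
  refine ⟨m, c, aeval y g', 1 + aeval y l / (y ^ m * aeval y g'), hc0, hv, ?_, ?_⟩
  · rw [add_sub_cancel_left, norm_div, norm_mul, norm_pow, hG.norm_eq, one_pow, one_mul, hg'n,
      div_one]
    exact hl.trans_lt hπ.lt_one
  · have e4 : aeval y (C c⁻¹ * f) = aeval y l + y ^ m * aeval y g' := by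
      rw [h1, map_add, map_mul, map_pow, aeval_X]
    have e5 : aeval y f = algebraMap k E c * (aeval y l + y ^ m * aeval y g') := by
      rw [← e4, map_mul, aeval_C, map_inv₀, mul_inv_cancel_left₀ hcE]
    rw [e5]
    have := hv.ne
    field_simp
    ring

variable [CompleteSpace E]

/-- **The circle gives a Birkhoff triple.** -/
theorem bk_circle [CompleteSpace k] (hG : IsGauss k y) {π : k} (hπ : IsUnif π)
    (hd : DenseRat k y) : Bk k (AP hG) (AU k y) y where
  y_mem := by simpa using aeval_mem_AP hG (X : k[X])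
  z_mem := by simpa using aeval_inv_mem_AU y (X : k[X])
  transc := gauss_transc hG
  inter := by
    intro m w hw hw'
    obtain ⟨p, rfl⟩ := inter_poly hG hπ m w hw hw'
    exact ⟨p, deg_le_of_div_mem hG p m hw', rfl⟩
  fac := by
    intro x hx
    have hxn : 0 < ‖x‖ := norm_pos_iff.2 hx
    obtain ⟨f, g, hg, hfg⟩ := hd x ‖x‖ hxn
    have hgy := hG.aeval_ne_zero hg
    have hf : f ≠ 0 := by
      rintro rfl
      rw [map_zero, zero_div, sub_zero] at hfg
      exact lt_irrefl _ hfg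
    have hfy := hG.aeval_ne_zero hf
    have hy := hG.ne_zero
    obtain ⟨m, c, v, h, hc, hv, hh, ef⟩ := poly_fac hG hπ hf
    obtain ⟨m', c', v', h', hc', hv', hh', eg⟩ := poly_fac hG hπ hg
    have hne1 : ∀ {z : E}, ‖z - 1‖ < 1 → z ≠ 0 ∧ ‖z‖ = 1 := by
      intro z hz
      have h1 : ‖z‖ = 1 := by
        have h2 := IsUltrametricDist.norm_add_eq_max_of_norm_ne_norm (x := z - 1) (y := 1)
          (by rw [norm_one]; exact hz.ne)
        rw [sub_add_cancel, norm_one, max_eq_right hz.le] at h2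
        exact h2
      refine ⟨?_, h1⟩
      rintro rfl
      rw [norm_zero] at h1
      exact zero_ne_one h1
    have hfgn : ‖aeval y f / aeval y g‖ = ‖x‖ := by
      have h2 := IsUltrametricDist.norm_add_eq_max_of_norm_ne_norm
        (x := -(x - aeval y f / aeval y g)) (y := x) (by rw [norm_neg]; exact hfg.ne)
      rw [norm_neg, max_eq_right hfg.le] at h2
      rw [← h2]; congr 1; ring
    set e : E := x / (aeval y f / aeval y g) with he
    have hq0 : aeval y f / aeval y g ≠ 0 := div_ne_zero hfy hgy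
    have he1 : ‖e - 1‖ < 1 := by
      have : e - 1 = (x - aeval y f / aeval y g) / (aeval y f / aeval y g) := by
        rw [he, sub_div, div_self hq0]
      rw [this, norm_div, hfgn, div_lt_one hxn]
      exact hfg
    have hmul1 : ∀ {z w : E}, ‖z - 1‖ < 1 → ‖w - 1‖ < 1 → ‖z * w - 1‖ < 1 := by
      intro z w hz hw
      have : z * w - 1 = (z - 1) * w + (w - 1) := by ring
      rw [this]
      refine (nadd _ _).trans_lt (max_lt ?_ hw)
      rw [norm_mul, (hne1 hw).2, mul_one]
      exact hz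
    have hinv1 : ∀ {z : E}, ‖z - 1‖ < 1 → ‖z⁻¹ - 1‖ < 1 := by
      intro z hz
      have h0 := (hne1 hz).1
      have : z⁻¹ - 1 = -(z - 1) * z⁻¹ := by field_simp; ring
      rw [this, norm_mul, norm_neg, norm_inv, (hne1 hz).2, inv_one, mul_one]
      exact hz
    obtain ⟨a, ha, a', ha', b, hb, b', hb', e1, e2, e3, e4, e5⟩ :=
      cartan_ultra (AU k y).toSubring (AP hG).toSubring (isClosed_AU y) (isClosed_AP hG)
        (dec hG hπ hd) (h * h'⁻¹ * e) (hmul1 (hmul1 hh (hinv1 hh')) he1)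
    have hcE : algebraMap k E c ≠ 0 := by simpa using hc
    have hcE' : algebraMap k E c' ≠ 0 := by simpa using hc'
    refine ⟨(m : ℤ) - m', algebraMap k E c * (algebraMap k E c')⁻¹ * a, v / v' * b,
      ((UnitIn.algMap hc).mul (UnitIn.algMap hc').inv).mul (UnitIn.of_mul_eq_one ha ha' e1),
      (hv.div hv').mul (UnitIn.of_mul_eq_one hb hb' e3), ?_⟩
    have hx' : x = aeval y f / aeval y g * e := by
      rw [he, mul_div_cancel₀ _ hq0]
    have h'0 := (hne1 hh').1
    have hv'0 := hv'.ne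
    have hym := pow_ne_zero m' hy
    rw [hx', ef, eg, zpow_sub₀ hy, zpow_natCast, zpow_natCast]
    have e6 : a * b = h * h'⁻¹ * e := e5.symm
    calc algebraMap k E c * y ^ m * v * h / (algebraMap k E c' * y ^ m' * v' * h') * e
        = algebraMap k E c * (algebraMap k E c')⁻¹ * (y ^ m / y ^ m') * (v / v') *
          (h * h'⁻¹ * e) := by field_simp
      _ = algebraMap k E c * (algebraMap k E c')⁻¹ * (y ^ m / y ^ m') * (v / v') *
          (a * b) := by rw [e6]
      _ = _ := by ring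

theorem mem_FP_iff_Fr [CompleteSpace k] (hG : IsGauss k y) {π : k} (hπ : IsUnif π)
    (hd : DenseRat k y) (x : E) : x ∈ FP hG hπ hd ↔ x ∈ Fr (AP hG) y := mem_FP hG hπ hd x

theorem mem_RU_iff_Fr (hG : IsGauss k y) (x : E) : x ∈ RU k y ↔ x ∈ Fr (AU k y) y⁻¹ := by
  constructor
  · rintro ⟨a, ha, _, ⟨g, rfl⟩, h1, rfl⟩
    exact ⟨a, ha, g, by rintro rfl; exact h1 (map_zero _), rfl⟩
  · rintro ⟨a, ha, g, h1, rfl⟩
    refine ⟨a, ha, _, ⟨g, rfl⟩, ?_, rfl⟩
    have ht : Transcendental k y⁻¹ := by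
      intro hh
      have := hh.inv
      rw [inv_inv] at this
      exact gauss_transc hG this
    exact aeval_ne_zero' ht h1

end Crest.Agent.R013.LemW623
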