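import Crest.Agent.R013.LemC2_623
import Crest.Agent.R013.LemW3_623
import Crest.Agent.R013.Annu6_930

/-!
# Constant extensions of circle fields (row 13, leaf LEMW / B-ANN, part 3)

Isometric maps of circle fields preserve `AP`, `AU`, `AN`, `MN`; the Birkhoff triple over the
algebraic closure of `k` in `Ω`.
-/

set_option autoImplicit false
set_option linter.unusedSectionVars false
set_option linter.style.haveILetI false

namespace Crest.Agent.R013.LemC623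

open Polynomial Crest.Agent.R013.Gl946 Crest.Agent.R013.Desc_372 Crest.Agent.R013.Desc_372.CE
open Crest.Agent.R013.LemW623 Crest.Agent.R013.Annu_930
open scoped NNReal

section maps

variable {k₁ E₁ k₂ E₂ : Type*} [NormedField k₁] [NormedField E₁] [NormedField k₂] [NormedField E₂]
  [NormedAlgebra k₁ E₁] [NormedAlgebra k₂ E₂] (i : E₁ →+* E₂) (hi : ∀ x, ‖i x‖ = ‖x‖)
  (j : k₁ →+* k₂) (hj : ∀ c, i (algebraMap k₁ E₁ c) = algebraMap k₂ E₂ (j c))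
  {y₁ : E₁} {y₂ : E₂} (hy : i y₁ = y₂)

include hi hj in
theorem norm_j (c : k₁) : ‖j c‖ = ‖c‖ := by
  rw [← norm_algebraMap' E₂ (j c), ← hj, hi, norm_algebraMap']

include hj hy in
theorem map_aeval_ij (f : k₁[X]) : i (aeval y₁ f) = aeval y₂ (f.map j) := by
  rw [aeval_def, hom_eval₂, hy, aeval_def, eval₂_map]
  congr 1
  exact RingHom.ext hj

include hi in
theorem continuous_i : Continuous i :=
  (AddMonoidHomClass.isometry_of_norm i hi).continuous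

include hi hj hy in
theorem map_AP (hG₁ : IsGauss k₁ y₁) (hG₂ : IsGauss k₂ y₂) {a : E₁} (ha : a ∈ AP hG₁) :
    i a ∈ AP hG₂ := by
  have h1 : i a ∈ i '' closure (AP0alg hG₁ : Set E₁) := ⟨a, ha, rfl⟩
  have h2 := image_closure_subset_closure_image (continuous_i i hi) h1
  refine closure_mono ?_ h2
  rintro _ ⟨_, ⟨f, g, hg1, hg0, rfl⟩, rfl⟩
  refine ⟨f.map j, g.map j, ?_, ?_, ?_⟩
  · rw [← map_aeval_ij i j hj hy, hi]; exact hg1
  · rw [coeff_map, hg0, map_one]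
  · rw [map_div₀, map_aeval_ij i j hj hy, map_aeval_ij i j hj hy]

include hi hj hy in
theorem map_AU {a : E₁} (ha : a ∈ AU k₁ y₁) : i a ∈ AU k₂ y₂ := by
  have h1 : i a ∈ i '' closure (((aeval (y₁⁻¹) : k₁[X] →ₐ[k₁] E₁).range : Subalgebra k₁ E₁) :
    Set E₁) := ⟨a, ha, rfl⟩
  have h2 := image_closure_subset_closure_image (continuous_i i hi) h1
  refine closure_mono ?_ h2
  rintro _ ⟨_, ⟨f, rfl⟩, rfl⟩
  refine ⟨f.map j, ?_⟩
  exact (map_aeval_ij i j hj (y₁ := y₁⁻¹) (y₂ := y₂⁻¹) (by rw [map_inv₀, hy]) f).symm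

include hj hy in
theorem map_Fr {A₁ : Subalgebra k₁ E₁} {A₂ : Subalgebra k₂ E₂} (hA : ∀ a ∈ A₁, i a ∈ A₂) {x : E₁}
    (hx : x ∈ Fr A₁ y₁) : i x ∈ Fr A₂ y₂ := by
  obtain ⟨a, ha, g, hg, rfl⟩ := hx
  refine ⟨i a, hA a ha, g.map j, ?_, ?_⟩
  · rwa [Ne, Polynomial.map_eq_zero]
  · rw [map_div₀, map_aeval_ij i j hj hy]

theorem map_unitIn {k₁ E₁ k₂ E₂ : Type*} [Field k₁] [Field E₁] [Field k₂] [Field E₂]
    [Algebra k₁ E₁] [Algebra k₂ E₂] (i : E₁ →+* E₂) {A₁ : Subalgebra k₁ E₁} {A₂ : Subalgebra k₂ E₂}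
    (hA : ∀ a ∈ A₁, i a ∈ A₂) {a : E₁} (ha : UnitIn A₁ a) : UnitIn A₂ (i a) :=
  ⟨(map_ne_zero i).2 ha.ne, hA _ ha.mem, by rw [← map_inv₀]; exact hA _ ha.inv_mem⟩

include hj hy in
theorem map_ev (p : ℤ →₀ k₁) : ∃ q : ℤ →₀ k₂, i (ev k₁ y₁ p) = ev k₂ y₂ q := by
  refine ⟨p.mapRange j (map_zero j), ?_⟩
  rw [ev_apply, ev_apply, Finsupp.sum_mapRange_index (by intro a; simp), map_finsuppSum]
  refine Finsupp.sum_congr fun n _ => ?_
  rw [Algebra.smul_def, map_mul, hj, map_zpow₀, hy, Algebra.smul_def]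

include hi hj hy in
theorem map_Box {b : ℤ → ℝ≥0} {x : E₁} (hx : x ∈ Box k₁ y₁ b) : i x ∈ Box k₂ y₂ b := by
  have h1 : i x ∈ i '' closure (Box0 k₁ y₁ b : Set E₁) := ⟨x, hx, rfl⟩
  have h2 := image_closure_subset_closure_image (continuous_i i hi) h1
  refine closure_mono ?_ h2
  rintro _ ⟨z, hz, rfl⟩
  have hz' : z ∈ Box0 k₁ y₁ b := hz
  have : Box0 k₁ y₁ b ≤ (Box0 k₂ y₂ b).comap i.toAddMonoidHom := by
    refine (AddSubgroup.closure_le _).2 ?_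
    rintro _ ⟨n, c, hc, rfl⟩
    change i (c • y₁ ^ n) ∈ Box0 k₂ y₂ b
    rw [Algebra.smul_def, map_mul, hj, map_zpow₀, hy, ← Algebra.smul_def]
    refine smul_mem_Box0 ?_
    have : ‖j c‖₊ = ‖c‖₊ := NNReal.eq (norm_j i hi j hj c)
    rw [this]; exact hc
  exact this hz'

include hi hj hy in
theorem map_AN [IsUltrametricDist E₁] [IsUltrametricDist E₂] (hG₁ : IsGauss k₁ y₁)
    (hG₂ : IsGauss k₂ y₂) {s : ℝ≥0} (hs : 1 < s) {a : E₁}
    (ha : a ∈ AN hG₁ hs) : i a ∈ AN hG₂ hs := by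
  intro ε hε
  obtain ⟨p, hp⟩ := ha ε hε
  obtain ⟨q, hq⟩ := map_ev i j hj hy p
  refine ⟨q, ?_⟩
  rw [← hq, ← map_sub]
  exact map_Box i hi j hj hy hp

include hi hj hy in
theorem map_MN [IsUltrametricDist E₁] [IsUltrametricDist E₂] (hG₁ : IsGauss k₁ y₁)
    (hG₂ : IsGauss k₂ y₂) {s : ℝ≥0} (hs : 1 < s) {a : E₁}
    (ha : a ∈ MN hG₁ hs) : i a ∈ MN hG₂ hs := by
  obtain ⟨a, ha, b, hb, hb0, rfl⟩ := ha
  exact ⟨i a, map_AN i hi j hj hy hG₁ hG₂ hs ha, i b, map_AN i hi j hj hy hG₁ hG₂ hs hb,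
    (map_ne_zero i).2 hb0, by rw [map_div₀]⟩

end maps

end Crest.Agent.R013.LemC623
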