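import Crest.Agent.R013.LemC3_623

/-!
# Constant extensions of circle fields (row 13, leaf LEMW / B-ANN, part 4)

The Birkhoff triple over the algebraic closure of `k` in `Ω`.
-/

set_option autoImplicit false
set_option linter.unusedSectionVars false
set_option linter.style.haveILetI false

namespace Crest.Agent.R013.LemC623

open Polynomial Crest.Agent.R013.Gl946 Crest.Agent.R013.Desc_372 Crest.Agent.R013.Desc_372.CE
open Crest.Agent.R013.LemW623 Crest.Agent.R013.Annu_930
open scoped NNReal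

section union

variable {k E Ω : Type*} [Field k] [Field E] [Field Ω] [Algebra k E] [Algebra k Ω] [Algebra E Ω]
  [IsScalarTower k E Ω]

/-- inclusion of levels -/
noncomputable def il (E : Type*) [Field E] [Algebra k E] [Algebra E Ω] [IsScalarTower k E Ω]
    {k' k'' : IntermediateField k Ω} (h : k' ≤ k'') : lev E Ω k' →+* lev E Ω k'' :=
  (IntermediateField.inclusion (lev_mono E Ω h)).toRingHom

theorem coe_il {k' k'' : IntermediateField k Ω} (h : k' ≤ k'') (x : lev E Ω k') :
    ((il E h x : lev E Ω k'') : Ω) = x :=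
  IntermediateField.coe_inclusion (lev_mono E Ω h) x

theorem il_il {k₁ k₂ k₃ : IntermediateField k Ω} (h : k₁ ≤ k₂) (h' : k₂ ≤ k₃) (h'' : k₁ ≤ k₃)
    (x : lev E Ω k₁) : il E h' (il E h x) = il E h'' x :=
  Subtype.ext (by rw [coe_il, coe_il, coe_il])

theorem il_algebraMap {k' k'' : IntermediateField k Ω} (h : k' ≤ k'') (c : k') :
    il E h (algebraMap k' (lev E Ω k') c) =
      algebraMap k'' (lev E Ω k'') (IntermediateField.inclusion h c) :=
  Subtype.ext (by
    rw [coe_il, coe_algebraMap_lev, coe_algebraMap_lev, IntermediateField.coe_inclusion])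

theorem il_algebraMapE {k' k'' : IntermediateField k Ω} (h : k' ≤ k'') (c : E) :
    il E h (algebraMap E (lev E Ω k') c) = algebraMap E (lev E Ω k'') c :=
  (IntermediateField.inclusion (lev_mono E Ω h)).commutes c

theorem il_aeval {k' k'' : IntermediateField k Ω} (h : k' ≤ k'') (y : E) (p : k'[X]) :
    il E h (aeval (algebraMap E (lev E Ω k') y) p) =
      aeval (algebraMap E (lev E Ω k'') y)
        (p.map (IntermediateField.inclusion h).toRingHom) := by
  have e : (il E h).comp (algebraMap k' (lev E Ω k')) =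
      (algebraMap k'' (lev E Ω k'')).comp (IntermediateField.inclusion h).toRingHom :=
    RingHom.ext fun c => il_algebraMap h c
  rw [aeval_def, hom_eval₂, il_algebraMapE, aeval_def, eval₂_map, e]

/-- union of subalgebras over the finite levels -/
def unionAlg (κ : IntermediateField k Ω) [Algebra.IsAlgebraic k κ]
    (S : ∀ k' : IntermediateField k Ω, FiniteDimensional k k' → Subalgebra k' (lev E Ω k'))
    (hS : ∀ (k' k'' : IntermediateField k Ω) (h' : FiniteDimensional k k')
      (h'' : FiniteDimensional k k'') (h : k' ≤ k'') (a : lev E Ω k'), a ∈ S k' h' →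
        il E h a ∈ S k'' h'') : Subalgebra κ (lev E Ω κ) where
  carrier := {x | ∃ (k' : IntermediateField k Ω) (h' : FiniteDimensional k k') (h : k' ≤ κ)
    (a : lev E Ω k'), a ∈ S k' h' ∧ il E h a = x}
  mul_mem' := by
    rintro _ _ ⟨k₁, h₁, l₁, a, ha, rfl⟩ ⟨k₂, h₂, l₂, b, hb, rfl⟩
    refine ⟨k₁ ⊔ k₂, inferInstance, sup_le l₁ l₂, il E le_sup_left a * il E le_sup_right b,
      mul_mem (hS _ _ h₁ _ le_sup_left a ha) (hS _ _ h₂ _ le_sup_right b hb), ?_⟩
    rw [map_mul, il_il, il_il]
  add_mem' := by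
    rintro _ _ ⟨k₁, h₁, l₁, a, ha, rfl⟩ ⟨k₂, h₂, l₂, b, hb, rfl⟩
    refine ⟨k₁ ⊔ k₂, inferInstance, sup_le l₁ l₂, il E le_sup_left a + il E le_sup_right b,
      add_mem (hS _ _ h₁ _ le_sup_left a ha) (hS _ _ h₂ _ le_sup_right b hb), ?_⟩
    rw [map_add, il_il, il_il]
  algebraMap_mem' := by
    intro c
    have hc : IsIntegral k (c : Ω) :=
      ((Algebra.IsAlgebraic.isAlgebraic (R := k) c).algebraMap (A := Ω)).isIntegral
    have hle : IntermediateField.adjoin k {(c : Ω)} ≤ κ := by
      rw [IntermediateField.adjoin_simple_le_iff]; exact c.2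
    refine ⟨IntermediateField.adjoin k {(c : Ω)}, IntermediateField.adjoin.finiteDimensional hc,
      hle, algebraMap (IntermediateField.adjoin k {(c : Ω)}) _
        ⟨c, IntermediateField.mem_adjoin_simple_self k (c : Ω)⟩, Subalgebra.algebraMap_mem _ _, ?_⟩
    rw [il_algebraMap]
    congr 1

theorem mem_unionAlg {κ : IntermediateField k Ω} [Algebra.IsAlgebraic k κ]
    {S : ∀ k' : IntermediateField k Ω, FiniteDimensional k k' → Subalgebra k' (lev E Ω k')}
    {hS : ∀ (k' k'' : IntermediateField k Ω) (h' : FiniteDimensional k k')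
      (h'' : FiniteDimensional k k'') (h : k' ≤ k'') (a : lev E Ω k'), a ∈ S k' h' →
        il E h a ∈ S k'' h''} {x : lev E Ω κ} :
    x ∈ unionAlg κ S hS ↔ ∃ (k' : IntermediateField k Ω) (h' : FiniteDimensional k k')
      (h : k' ≤ κ) (a : lev E Ω k'), a ∈ S k' h' ∧ il E h a = x := Iff.rfl

theorem il_mem_unionAlg {κ : IntermediateField k Ω} [Algebra.IsAlgebraic k κ]
    {S : ∀ k' : IntermediateField k Ω, FiniteDimensional k k' → Subalgebra k' (lev E Ω k')}
    {hS : ∀ (k' k'' : IntermediateField k Ω) (h' : FiniteDimensional k k')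
      (h'' : FiniteDimensional k k'') (h : k' ≤ k'') (a : lev E Ω k'), a ∈ S k' h' →
        il E h a ∈ S k'' h''} {k' : IntermediateField k Ω} (h' : FiniteDimensional k k')
      (h : k' ≤ κ) {a : lev E Ω k'} (ha : a ∈ S k' h') : il E h a ∈ unionAlg κ S hS :=
  ⟨k', h', h, a, ha, rfl⟩

/-- every element of the compositum is at a finite level -/
theorem exists_level {κ : IntermediateField k Ω} [Algebra.IsAlgebraic k κ] (x : lev E Ω κ) :
    ∃ (k' : IntermediateField k Ω) (_ : FiniteDimensional k k') (h : k' ≤ κ) (a : lev E Ω k'),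
      il E h a = x := by
  classical
  obtain ⟨x, hx⟩ := x
  have hx' : x ∈ IntermediateField.adjoin E (κ : Set Ω) := by
    rw [← lev_eq_adjoin k E κ]; exact hx
  obtain ⟨T, hT, hxT⟩ := IntermediateField.exists_finset_of_mem_adjoin hx'
  have hTi : ∀ c ∈ (T : Set Ω), IsIntegral k c := by
    intro c hc
    exact ((Algebra.IsAlgebraic.isAlgebraic (R := k) (⟨c, hT hc⟩ : κ)).algebraMap
      (A := Ω)).isIntegral
  have hle : IntermediateField.adjoin k (T : Set Ω) ≤ κ := IntermediateField.adjoin_le_iff.2 hT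
  refine ⟨IntermediateField.adjoin k (T : Set Ω),
    IntermediateField.finiteDimensional_adjoin hTi, hle, ⟨x, ?_⟩, Subtype.ext (coe_il _ _)⟩
  rw [lev_eq_adjoin k E]
  exact IntermediateField.adjoin.mono E _ _ (IntermediateField.subset_adjoin k _) hxT

/-- common level -/
theorem exists_level₂ {κ : IntermediateField k Ω} [Algebra.IsAlgebraic k κ] (x x' : lev E Ω κ) :
    ∃ (k' : IntermediateField k Ω) (_ : FiniteDimensional k k') (h : k' ≤ κ) (a a' : lev E Ω k'),
      il E h a = x ∧ il E h a' = x' := by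
  obtain ⟨k₁, h₁, l₁, a, rfl⟩ := exists_level x
  obtain ⟨k₂, h₂, l₂, b, rfl⟩ := exists_level x'
  exact ⟨k₁ ⊔ k₂, inferInstance, sup_le l₁ l₂, il E le_sup_left a, il E le_sup_right b,
    il_il _ _ _ _, il_il _ _ _ _⟩

/-- **Birkhoff triples over the union.** -/
theorem bk_union {κ : IntermediateField k Ω} [Algebra.IsAlgebraic k κ] {y : E}
    (S S' : ∀ k' : IntermediateField k Ω, FiniteDimensional k k' → Subalgebra k' (lev E Ω k'))
    (hS : ∀ (k' k'' : IntermediateField k Ω) (h' : FiniteDimensional k k')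
      (h'' : FiniteDimensional k k'') (h : k' ≤ k'') (a : lev E Ω k'), a ∈ S k' h' →
        il E h a ∈ S k'' h'')
    (hS' : ∀ (k' k'' : IntermediateField k Ω) (h' : FiniteDimensional k k')
      (h'' : FiniteDimensional k k'') (h : k' ≤ k'') (a : lev E Ω k'), a ∈ S' k' h' →
        il E h a ∈ S' k'' h'')
    (hB : ∀ (k' : IntermediateField k Ω) (h' : FiniteDimensional k k'),
      Bk k' (S k' h') (S' k' h') (algebraMap E (lev E Ω k') y))
    (htr : Transcendental κ (algebraMap E (lev E Ω κ) y)) :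
    Bk κ (unionAlg κ S hS) (unionAlg κ S' hS') (algebraMap E (lev E Ω κ) y) where
  y_mem := by
    have h := il_mem_unionAlg (E := E) (κ := κ) (hS := hS) (k' := ⊥) inferInstance bot_le
      (hB ⊥ inferInstance).y_mem
    rw [il_algebraMapE] at h
    exact h
  z_mem := by
    have h := il_mem_unionAlg (E := E) (κ := κ) (hS := hS') (k' := ⊥) inferInstance bot_le
      (hB ⊥ inferInstance).z_mem
    rw [map_inv₀, il_algebraMapE] at h
    exact h
  transc := htr
  inter := by
    intro m w hw hw'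
    obtain ⟨k₁, h₁, l₁, a, ha, e1⟩ := hw
    obtain ⟨k₂, h₂, l₂, b, hb, e2⟩ := hw'
    have ha' := hS _ (k₁ ⊔ k₂) h₁ inferInstance le_sup_left a ha
    have hb' := hS' _ (k₁ ⊔ k₂) h₂ inferInstance le_sup_right b hb
    have e3 : il E (le_sup_right : k₂ ≤ k₁ ⊔ k₂) b =
        il E (le_sup_left : k₁ ≤ k₁ ⊔ k₂) a / (algebraMap E (lev E Ω ↑(k₁ ⊔ k₂)) y) ^ m := by
      apply (il E (sup_le l₁ l₂)).injective
      rw [map_div₀, map_pow, il_il _ _ l₂, il_il _ _ l₁, il_algebraMapE, e1, e2]
    rw [e3] at hb'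
    obtain ⟨p, hp, e4⟩ := (hB (k₁ ⊔ k₂) inferInstance).inter m _ ha' hb'
    refine ⟨p.map (IntermediateField.inclusion (sup_le l₁ l₂)).toRingHom,
      (natDegree_map_le).trans hp, ?_⟩
    rw [← e1, ← il_il le_sup_left (sup_le l₁ l₂) l₁ a, e4, il_aeval]
  fac := by
    intro x hx
    obtain ⟨k', h', hle, a, rfl⟩ := exists_level x
    have ha0 : a ≠ 0 := by rintro rfl; exact hx (map_zero _)
    obtain ⟨m, u, v, hu, hv, e⟩ := (hB k' h').fac a ha0
    refine ⟨m, il E hle u, il E hle v, ?_, ?_, ?_⟩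
    · exact map_unitIn (il E hle) (fun a ha => il_mem_unionAlg h' hle ha) hu
    · exact map_unitIn (il E hle) (fun a ha => il_mem_unionAlg h' hle ha) hv
    · rw [e, map_mul, map_mul, map_zpow₀, il_algebraMapE]

/-- the order at a finite level and at infinity -/
theorem ord_union {κ : IntermediateField k Ω} [Algebra.IsAlgebraic k κ] {y : E}
    {S S' : ∀ k' : IntermediateField k Ω, FiniteDimensional k k' → Subalgebra k' (lev E Ω k')}
    {hS : ∀ (k' k'' : IntermediateField k Ω) (h' : FiniteDimensional k k')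
      (h'' : FiniteDimensional k k'') (h : k' ≤ k'') (a : lev E Ω k'), a ∈ S k' h' →
        il E h a ∈ S k'' h''}
    {hS' : ∀ (k' k'' : IntermediateField k Ω) (h' : FiniteDimensional k k')
      (h'' : FiniteDimensional k k'') (h : k' ≤ k'') (a : lev E Ω k'), a ∈ S' k' h' →
        il E h a ∈ S' k'' h''}
    (hB : ∀ (k' : IntermediateField k Ω) (h' : FiniteDimensional k k'),
      Bk k' (S k' h') (S' k' h') (algebraMap E (lev E Ω k') y))
    (hBu : Bk κ (unionAlg κ S hS) (unionAlg κ S' hS') (algebraMap E (lev E Ω κ) y))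
    {k' : IntermediateField k Ω} (h' : FiniteDimensional k k') (hle : k' ≤ κ) {x : lev E Ω k'}
    (hx : x ≠ 0) : hBu.ord (il E hle x) = (hB k' h').ord x := by
  obtain ⟨u, v, hu, hv, e⟩ := (hB k' h').ord_spec hx
  refine hBu.ord_eq (a := il E hle u) (b := il E hle v)
    (map_unitIn (il E hle) (fun a ha => il_mem_unionAlg h' hle ha) hu)
    (map_unitIn (il E hle) (fun a ha => il_mem_unionAlg h' hle ha) hv) ?_
  conv_lhs => rw [e]
  rw [map_mul, map_mul, map_zpow₀, il_algebraMapE]

end union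

section circle

variable {k : Type*} [NontriviallyNormedField k] [ProperSpace k] [IsUltrametricDist k]
  [CharZero k] {E : Type*} [NormedField E] [NormedAlgebra k E] [IsUltrametricDist E]
  [CompleteSpace E]
  {Ω : Type*} [NormedField Ω] [NormedAlgebra k Ω] [NormedAlgebra E Ω] [IsScalarTower k E Ω]
  [IsUltrametricDist Ω] [IsAlgClosed Ω] {y : E}

/-- `AP` at level `k'` -/
noncomputable def APl (Ω : Type*) [NormedField Ω] [NormedAlgebra k Ω] [NormedAlgebra E Ω]
    [IsScalarTower k E Ω] [IsUltrametricDist Ω] [IsAlgClosed Ω]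
    (hG : IsGauss k y) (k' : IntermediateField k Ω) (h' : FiniteDimensional k k') :
    Subalgebra k' (lev E Ω k') := AP (isGauss_lev hG k')

/-- `AU` at level `k'` -/
noncomputable def AUl (Ω : Type*) [NormedField Ω] [NormedAlgebra k Ω] [NormedAlgebra E Ω]
    [IsScalarTower k E Ω] (y : E) (k' : IntermediateField k Ω) (_ : FiniteDimensional k k') :
    Subalgebra k' (lev E Ω k') := AU k' (yl y k')

omit [ProperSpace k] [IsUltrametricDist k] [CharZero k] [IsUltrametricDist E] [CompleteSpace E]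
  [IsUltrametricDist Ω] [IsAlgClosed Ω] in
theorem norm_coe_lev {k' : IntermediateField k Ω} (x : lev E Ω k') : ‖x‖ = ‖(x : Ω)‖ := rfl

theorem norm_il {k' k'' : IntermediateField k Ω} (h : k' ≤ k'') (x : lev E Ω k') :
    ‖il E h x‖ = ‖x‖ := by rw [norm_coe_lev, coe_il, norm_coe_lev]

theorem APl_mono (hG : IsGauss k y) (k' k'' : IntermediateField k Ω)
    (h' : FiniteDimensional k k') (h'' : FiniteDimensional k k'') (h : k' ≤ k'')
    (a : lev E Ω k') (ha : a ∈ APl Ω hG k' h') : il E h a ∈ APl Ω hG k'' h'' :=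
  map_AP (il E h) (norm_il h) (IntermediateField.inclusion h).toRingHom (il_algebraMap h)
    (y₁ := yl y k') (y₂ := yl y k'') (il_algebraMapE h y) (isGauss_lev hG k') (isGauss_lev hG k'')
    ha

theorem AUl_mono (y : E) (k' k'' : IntermediateField k Ω)
    (h' : FiniteDimensional k k') (h'' : FiniteDimensional k k'') (h : k' ≤ k'')
    (a : lev E Ω k') (ha : a ∈ AUl Ω y k' h') : il E h a ∈ AUl Ω y k'' h'' :=
  map_AU (il E h) (norm_il h) (IntermediateField.inclusion h).toRingHom (il_algebraMap h)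
    (y₁ := yl y k') (y₂ := yl y k'') (il_algebraMapE h y) ha

theorem bk_lev (hG : IsGauss k y) (hd : DenseRat k y) (k' : IntermediateField k Ω)
    (h' : FiniteDimensional k k') :
    Bk k' (APl Ω hG k' h') (AUl Ω y k' h') (algebraMap E (lev E Ω k') y) := by
  haveI := complete_E hG hd k'
  haveI := complete_k k'
  obtain ⟨π', hπ'⟩ := exists_unif_k k'
  exact bk_circle (isGauss_lev hG k') hπ' (dense_lev hG hd k')

variable (κ : IntermediateField k Ω) [Algebra.IsAlgebraic k κ]

/-- **The Birkhoff triple over `κ`.** -/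
theorem bk_kappa (hG : IsGauss k y) (hd : DenseRat k y) :
    Bk κ (unionAlg κ (APl Ω hG) (APl_mono hG)) (unionAlg κ (AUl Ω y) (AUl_mono y))
      (algebraMap E (lev E Ω κ) y) :=
  bk_union _ _ _ _ (bk_lev hG hd) (gauss_transc (isGauss_lev hG κ))

/-- `AP` of the base in the union -/
theorem AP_le (hG : IsGauss k y) {a : E} (ha : a ∈ AP hG) :
    algebraMap E (lev E Ω κ) a ∈ unionAlg κ (APl Ω hG) (APl_mono hG) := by
  have h : algebraMap E (lev E Ω (⊥ : IntermediateField k Ω)) a ∈ APl Ω hG ⊥ inferInstance :=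
    map_AP (algebraMap E (lev E Ω (⊥ : IntermediateField k Ω))) (norm_algMap_lev ⊥)
      (algebraMap k (⊥ : IntermediateField k Ω)) (fun c => by
        rw [← IsScalarTower.algebraMap_apply, ← IsScalarTower.algebraMap_apply])
      (y₁ := y) (y₂ := yl y ⊥) rfl hG (isGauss_lev hG ⊥) ha
  rw [← il_algebraMapE (bot_le : ⊥ ≤ κ)]
  exact il_mem_unionAlg (k' := ⊥) inferInstance bot_le h

theorem AU_le (y : E) {a : E} (ha : a ∈ AU k y) :
    algebraMap E (lev E Ω κ) a ∈ unionAlg κ (AUl Ω y) (AUl_mono y) := by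
  have h : algebraMap E (lev E Ω (⊥ : IntermediateField k Ω)) a ∈ AUl Ω y ⊥ inferInstance :=
    map_AU (algebraMap E (lev E Ω (⊥ : IntermediateField k Ω))) (norm_algMap_lev ⊥)
      (algebraMap k (⊥ : IntermediateField k Ω)) (fun c => by
        rw [← IsScalarTower.algebraMap_apply, ← IsScalarTower.algebraMap_apply])
      (y₁ := y) (y₂ := yl y ⊥) rfl ha
  rw [← il_algebraMapE (bot_le : ⊥ ≤ κ)]
  exact il_mem_unionAlg (k' := ⊥) inferInstance bot_le h

end circle

end Crest.Agent.R013.LemC623
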