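import Mathlib
import Crest.Agent.R013.Desc3_372

/-!
# Constant extensions of the cut cover (row 13, leaf LEMW / B-ANN, part 5): algebra lemmas
-/

set_option autoImplicit false
set_option linter.unusedSectionVars false
set_option linter.style.haveILetI false

namespace Crest.Agent.R013.LemC623

open Module Crest.Agent.R013.Desc_372 Crest.Agent.R013.Desc_372.CE
open scoped TensorProduct

section lift

/-- ring homomorphisms from a constant extension -/
theorem CE_exists_lift (k κ W W' : Type*) [Field k] [Field κ] [Field W] [Field W'] [Algebra k κ]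
    [Algebra k W] [Algebra κ W'] [Algebra W W'] [Algebra k W'] [IsScalarTower k κ W']
    [IsScalarTower k W W'] [CE k κ W W'] {A : Type*} [CommRing A] (f : W →+* A) (g : κ →+* A)
    (h : ∀ c : k, f (algebraMap k W c) = g (algebraMap k κ c)) :
    ∃ φ : W' →+* A, (∀ w, φ (algebraMap W W' w) = f w) ∧ ∀ c, φ (algebraMap κ W' c) = g c := by
  letI : Algebra k A := (f.comp (algebraMap k W)).toAlgebra
  have hA : ∀ c : k, algebraMap k A c = f (algebraMap k W c) := fun c => rfl
  let fA : W →ₐ[k] A := { f with commutes' := fun c => rfl }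
  let gA : κ →ₐ[k] A := { g with commutes' := fun c => (h c).symm }
  let e : κ ⊗[k] W ≃ₐ[κ] W' := AlgEquiv.ofBijective (mu k κ W W') (mu_bijective k κ W W')
  let ψ : κ ⊗[k] W →ₐ[k] A := Algebra.TensorProduct.lift gA fA (fun _ _ => Commute.all _ _)
  have hψ : ∀ c w, ψ (c ⊗ₜ w) = g c * f w := fun c w => by
    change Algebra.TensorProduct.lift gA fA (fun _ _ => Commute.all _ _) (c ⊗ₜ w) = _
    rw [Algebra.TensorProduct.lift_tmul]
    rfl
  refine ⟨(ψ : κ ⊗[k] W →+* A).comp (e.symm : W' →+* κ ⊗[k] W), fun w => ?_, fun c => ?_⟩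
  · have h1 : e.symm (algebraMap W W' w) = 1 ⊗ₜ w := by
      rw [AlgEquiv.symm_apply_eq]
      change _ = mu k κ W W' (1 ⊗ₜ w)
      rw [mu_tmul, map_one, one_mul]
    change ψ (e.symm (algebraMap W W' w)) = f w
    rw [h1, hψ, map_one, one_mul]
  · have h1 : e.symm (algebraMap κ W' c) = c ⊗ₜ 1 := by
      rw [AlgEquiv.symm_apply_eq]
      change _ = mu k κ W W' (c ⊗ₜ 1)
      rw [mu_tmul, map_one, mul_one]
    change ψ (e.symm (algebraMap κ W' c)) = g c
    rw [h1, hψ, map_one, mul_one]

end lift

section norms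

/-- the norm and a rank one idempotent -/
theorem norm_idem {E V : Type*} [Field E] [CommRing V] [Algebra E V] [Module.Finite E V]
    (e : V) (he : e * e = e) (ι : V →+* E) (hι : ∀ v, e * v = ι v • e)
    (hE : ∀ c : E, ι (algebraMap E V c) = c) (he0 : e ≠ 0) (v : V) :
    Algebra.norm E v = ι v * Algebra.norm E (e + (1 - e) * v) := by
  have hιe : ι e = 1 := by
    have h1 : (ι e - 1) • e = 0 := by rw [sub_smul, one_smul, ← hι, he, sub_self]
    rcases smul_eq_zero.1 h1 with h2 | h2
    · exact sub_eq_zero.1 h2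
    · exact absurd h2 he0
  have key : ∀ c : E, Algebra.norm E (c • e + (1 - e)) = c := by
    intro c
    let f : Module.Dual E V :=
      { toFun := fun v => (c - 1) * ι v
        map_add' := fun a b => by rw [map_add, mul_add]
        map_smul' := fun a b => by
          rw [Algebra.smul_def, map_mul, hE, RingHom.id_apply, smul_eq_mul]; ring }
    have h1 : Algebra.lmul E V (c • e + (1 - e)) = LinearMap.transvection f e := by
      ext w
      rw [Algebra.coe_lmul_eq_mul, LinearMap.mul_apply', LinearMap.transvection.apply]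
      change _ = w + ((c - 1) * ι w) • e
      rw [mul_smul, ← hι, sub_smul, one_smul, add_mul, smul_mul_assoc, sub_mul, one_mul]
      ring
    rw [Algebra.norm_apply, h1, LinearMap.transvection.det]
    change 1 + (c - 1) * ι e = c
    rw [hιe]; ring
  have h2 : v = (ι v • e + (1 - e)) * (e + (1 - e) * v) := by
    have hs : algebraMap E V (ι v) * e = e * v := by rw [hι, Algebra.smul_def]
    rw [Algebra.smul_def]
    linear_combination (-(algebraMap E V (ι v) - algebraMap E V (ι v) * v - 1 + v)) * he - hs
  conv_lhs => rw [h2]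
  rw [map_mul, key]

/-- norms and subrings -/
theorem norm_mem_of_repr {E V ι : Type*} [Field E] [CommRing V] [Algebra E V] [Fintype ι]
    (b : Basis ι E V) (T : Subring E) (v : V) (h : ∀ i j, b.repr (v * b j) i ∈ T) :
    Algebra.norm E v ∈ T := by
  classical
  rw [Algebra.norm_eq_matrix_det b, Matrix.det_apply]
  refine sum_mem fun σ _ => ?_
  rw [Units.smul_def]
  refine zsmul_mem (prod_mem fun i _ => ?_) _
  rw [Algebra.leftMulMatrix_eq_repr_mul]
  exact h _ _

/-- the norm of a cyclic extension -/
theorem norm_cyclic {U W : Type*} [Field U] [Field W] [Algebra U W] [FiniteDimensional U W]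
    (σ : W ≃ₐ[U] W) {n : ℕ} (hn : orderOf σ = n) (hrank : finrank U W ≤ n) (w : W) :
    algebraMap U W (Algebra.norm U w) = ∏ i ∈ Finset.range n, (σ ^ i) w := by
  classical
  have h1 : orderOf σ ≤ Fintype.card (W ≃ₐ[U] W) := orderOf_le_card_univ
  have h2 : Fintype.card (W ≃ₐ[U] W) ≤ finrank U W := AlgEquiv.card_le
  have h3 : Fintype.card (W ≃ₐ[U] W) = n := by omega
  have h4 : finrank U W = n := by omega
  have hG : IsGalois U W := IsGalois.of_card_aut_eq_finrank U W (by
    rw [Nat.card_eq_fintype_card, h3, h4])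
  rw [Algebra.norm_eq_prod_automorphisms]
  have himg : (Finset.range n).image (fun i => σ ^ i) = Finset.univ := by
    refine Finset.eq_univ_of_card _ ?_
    rw [Finset.card_image_of_injOn, Finset.card_range, h3]
    intro i hi j hj hij
    refine pow_injOn_Iio_orderOf ?_ ?_ hij
    · rw [Set.mem_Iio, hn]; simpa using hi
    · rw [Set.mem_Iio, hn]; simpa using hj
  rw [← himg, Finset.prod_image]
  intro i hi j hj hij
  refine pow_injOn_Iio_orderOf ?_ ?_ hij
  · rw [Set.mem_Iio, hn]; simpa using hi
  · rw [Set.mem_Iio, hn]; simpa using hj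

end norms

end Crest.Agent.R013.LemC623
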