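import Crest.Agent.R013.LemC5_623
import Crest.Agent.R013.LemW10_623

/-!
# Constant extensions of the cut cover (row 13, leaf LEMW / B-ANN, part 6): `V' = E' ⊗ V`
-/

set_option autoImplicit false
set_option linter.unusedSectionVars false
set_option linter.style.haveILetI false

namespace Crest.Agent.R013.LemC623

open Module Polynomial Crest.Agent.R013.Desc_372 Crest.Agent.R013.Desc_372.CE
open Crest.Agent.R013.LemW623 Crest.Agent.R013.RR8_948
open scoped TensorProduct

section V

variable {k κ E E' V : Type*} [Field k] [Field κ] [Algebra k κ] [Field E] [Field E'] [Algebra k E]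
  [Algebra κ E'] [Algebra E E'] [Algebra k E'] [IsScalarTower k κ E'] [IsScalarTower k E E']
  [CommRing V] [Algebra E V]

/-- `V → V'` -/
noncomputable def inV (E' : Type*) [Field E'] [Algebra E E'] : V →+* E' ⊗[E] V :=
  (Algebra.TensorProduct.includeRight : V →ₐ[E] E' ⊗[E] V).toRingHom

theorem inV_apply (v : V) : inV (E := E) E' v = 1 ⊗ₜ v := rfl

theorem inV_algebraMap (z : E) : inV (E := E) (V := V) E' (algebraMap E V z) =
    algebraMap E' (E' ⊗[E] V) (algebraMap E E' z) := by
  rw [inV_apply, Algebra.algebraMap_eq_smul_one, TensorProduct.tmul_smul,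
    TensorProduct.smul_tmul', Algebra.TensorProduct.algebraMap_apply, Algebra.smul_def, mul_one]
  rfl

section W

variable {W W' : Type*} [Field W] [Field W'] [Algebra k W] [Algebra κ W'] [Algebra W W']
  [Algebra k W'] [IsScalarTower k κ W'] [IsScalarTower k W W'] [CE k κ W W']

variable (κ E' W') in
/-- the extension of `α : W → V` to `W' → V'` -/
theorem exists_ext (α : W →+* V)
    (hα : ∀ c : k, α (algebraMap k W c) = algebraMap E V (algebraMap k E c)) :
    ∃ α' : W' →+* E' ⊗[E] V, (∀ w, α' (algebraMap W W' w) = inV E' (α w)) ∧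
      ∀ c, α' (algebraMap κ W' c) = algebraMap E' (E' ⊗[E] V) (algebraMap κ E' c) := by
  refine CE_exists_lift k κ W W' ((inV (E := E) E').comp α)
    ((algebraMap E' (E' ⊗[E] V)).comp (algebraMap κ E')) fun c => ?_
  rw [RingHom.comp_apply, RingHom.comp_apply, hα, inV_algebraMap,
    ← IsScalarTower.algebraMap_apply k E E', ← IsScalarTower.algebraMap_apply k κ E']

variable (k) in
include k in
/-- linear combinations -/
theorem ext_induction {M : Type*} [AddCommGroup M] (φ ψ : W' →+ M)
    (h : ∀ (c : κ) (w : W), φ (algebraMap κ W' c * algebraMap W W' w) =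
      ψ (algebraMap κ W' c * algebraMap W W' w)) (w' : W') : φ w' = ψ w' := by
  obtain ⟨n, c, g, rfl⟩ := exists_sum k κ W W' w'
  rw [map_sum, map_sum]
  exact Finset.sum_congr rfl fun i _ => h _ _

variable {α' : W' →+* E' ⊗[E] V} {α : W →+* V}
  (h1 : ∀ w, α' (algebraMap W W' w) = inV E' (α w))
  (h2 : ∀ c : κ, α' (algebraMap κ W' c) = algebraMap E' (E' ⊗[E] V) (algebraMap κ E' c))

include h1 h2

variable (k) in
include k in
/-- entries of the matrix of `α' w'` -/
theorem repr_mem {ι : Type*} [Fintype ι] (b : Basis ι E V) (T : Subring E')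
    (hκ : ∀ c : κ, algebraMap κ E' c ∈ T)
    (hb : ∀ (w : W) (i j : ι), algebraMap E E' (b.repr (α w * b j) i) ∈ T) (w' : W') (i j : ι) :
    (b.baseChange E').repr (α' w' * b.baseChange E' j) i ∈ T := by
  obtain ⟨n, c, g, rfl⟩ := exists_sum k κ W W' w'
  rw [map_sum, Finset.sum_mul, map_sum, Finsupp.finsetSum_apply]
  refine sum_mem fun l _ => ?_
  have e : α' (algebraMap κ W' (c l) * algebraMap W W' (g l)) * b.baseChange E' j =
      (algebraMap κ E' (c l)) • ((1 : E') ⊗ₜ[E] (α (g l) * b j)) := by
    rw [map_mul, h1, h2, Basis.baseChange_apply, inV_apply, Algebra.smul_def, mul_assoc,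
      Algebra.TensorProduct.tmul_mul_tmul, one_mul]
  rw [e, map_smul, Finsupp.smul_apply, smul_eq_mul, Basis.baseChange_repr_tmul,
    Algebra.smul_def, mul_one]
  exact mul_mem (hκ _) (hb _ _ _)

variable (k) in
include k in
theorem norm_mem {ι : Type*} [Fintype ι] (b : Basis ι E V) (T : Subring E')
    (hκ : ∀ c : κ, algebraMap κ E' c ∈ T)
    (hb : ∀ (w : W) (i j : ι), algebraMap E E' (b.repr (α w * b j) i) ∈ T) (w' : W') :
    Algebra.norm E' (α' w') ∈ T :=
  norm_mem_of_repr (b.baseChange E') T _ (repr_mem k h1 h2 b T hκ hb w')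

end W

section idem

variable (e : V) (ι : V →ₐ[E] E) (he : e * e = e) (hι : ∀ v, e * v = ι v • e) (he0 : e ≠ 0)

/-- the coordinate at the edge over `E'` -/
noncomputable def iota' (E' : Type*) [Field E'] [Algebra E E'] (ι : V →ₐ[E] E) :
    E' ⊗[E] V →ₐ[E'] E' :=
  Algebra.TensorProduct.lift (AlgHom.id E' E') ((Algebra.ofId E E').comp ι)
    (fun _ _ => Commute.all _ _)

theorem iota'_tmul (x : E') (v : V) : iota' E' ι (x ⊗ₜ v) = x * algebraMap E E' (ι v) := by
  rw [iota', Algebra.TensorProduct.lift_tmul]; rfl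

theorem iota'_inV (v : V) : iota' E' ι (inV E' v) = algebraMap E E' (ι v) := by
  rw [inV_apply, iota'_tmul, one_mul]

include hι in
theorem idem_mul (v' : E' ⊗[E] V) : inV E' e * v' = iota' E' ι v' • inV (E := E) E' e := by
  induction v' with
  | zero => rw [mul_zero, map_zero, zero_smul]
  | add a b ha hb => rw [mul_add, ha, hb, map_add, add_smul]
  | tmul x v =>
    rw [iota'_tmul, inV_apply, Algebra.TensorProduct.tmul_mul_tmul, one_mul, hι,
      TensorProduct.tmul_smul, TensorProduct.smul_tmul', TensorProduct.smul_tmul']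
    congr 1
    rw [Algebra.smul_def, smul_eq_mul, mul_one, mul_comm]

include he hι he0 in
theorem iota_e : ι e = 1 := by
  have h1 : (ι e - 1) • e = 0 := by rw [sub_smul, one_smul, ← hι, he, sub_self]
  rcases smul_eq_zero.1 h1 with h2 | h2
  · exact sub_eq_zero.1 h2
  · exact absurd h2 he0

include he hι he0 in
/-- **The norm relation.** -/
theorem norm_rel [Module.Finite E V] {a b c : E' ⊗[E] V}
    (h1 : inV E' e * a = inV E' e * c) (h2 : (1 - inV E' e) * a = (1 - inV E' e) * b) :
    Algebra.norm E' a * iota' E' ι b = Algebra.norm E' b * iota' E' ι c := by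
  have hιe : iota' E' ι (inV E' e) = 1 := by
    rw [iota'_inV, iota_e e ι he hι he0, map_one]
  have he' : inV (E := E) E' e * inV E' e = inV E' e := by rw [← map_mul, he]
  have he0' : inV (E := E) E' e ≠ 0 := by
    intro h0
    rw [h0, map_zero] at hιe
    exact zero_ne_one hιe
  have key := fun v => norm_idem (inV (E := E) E' e) he' (iota' E' ι : E' ⊗[E] V →+* E')
    (idem_mul e ι hι) (fun c => by
      change iota' E' ι (algebraMap E' _ c) = c
      rw [AlgHom.commutes]; rfl) he0' v
  have h3 : iota' E' ι a = iota' E' ι c := by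
    have := congrArg (iota' E' ι) h1
    rwa [map_mul, map_mul, hιe, one_mul, one_mul] at this
  rw [key a, key b, h2]
  change iota' E' ι a * _ * _ = iota' E' ι b * _ * _
  rw [h3]
  ring

end idem

end V

end Crest.Agent.R013.LemC623
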