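import Crest.Agent.R013.LemC6_623

/-!
# Constant extensions of the cut cover (row 13, leaf LEMW / B-ANN, part 7): the function of slope one
-/

set_option autoImplicit false
set_option linter.unusedSectionVars false
set_option linter.style.haveILetI false

namespace Crest.Agent.R013.LemC623

open Module Polynomial Crest.Agent.R013.Desc_372 Crest.Agent.R013.Desc_372.CE
open Crest.Agent.R013.LemW623 Crest.Agent.R013.RR7_948 Crest.Agent.R013.RR8_948
open Crest.Agent.R013.RR9_948 Crest.Agent.R013.RR11_948 Crest.Agent.R013.RR12_948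
open Crest.Agent.R013.RR13_948 Crest.Agent.R013.RR18_948
open scoped TensorProduct

/-- ring homomorphisms from `κ(X)` -/
theorem ratFunc_ext {κ A : Type*} [Field κ] [Semiring A] {φ ψ : RatFunc κ →+* A}
    (h1 : ∀ c : κ, φ (algebraMap κ (RatFunc κ) c) = ψ (algebraMap κ (RatFunc κ) c))
    (h2 : φ RatFunc.X = ψ RatFunc.X) : φ = ψ := by
  apply IsLocalization.ringHom_ext (nonZeroDivisors κ[X])
  apply Polynomial.ringHom_ext
  · intro c
    rw [RingHom.comp_apply, RingHom.comp_apply, RatFunc.algebraMap_C, ← RatFunc.algebraMap_eq_C]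
    exact h1 c
  · rw [RingHom.comp_apply, RingHom.comp_apply, RatFunc.algebraMap_X]
    exact h2

section rank

variable {k κ U U' W W' : Type*} [Field k] [Field κ] [Algebra k κ]
  [Field U] [Field U'] [Algebra k U] [Algebra κ U'] [Algebra U U'] [Algebra k U']
  [IsScalarTower k κ U'] [IsScalarTower k U U']
  [Field W] [Field W'] [Algebra k W] [Algebra κ W'] [Algebra W W'] [Algebra k W']
  [IsScalarTower k κ W'] [IsScalarTower k W W'] [CE k κ W W']
  [Algebra U W] [Algebra U' W']
  (hUW : ∀ u : U, algebraMap U' W' (algebraMap U U' u) = algebraMap W W' (algebraMap U W u))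
  (hκ : ∀ c : κ, algebraMap U' W' (algebraMap κ U' c) = algebraMap κ W' c)

variable (k κ) in
include k κ hUW hκ in
theorem finrank_le_ce [FiniteDimensional U W] : finrank U' W' ≤ finrank U W := by
  classical
  let b := finBasis U W
  have hspan : Submodule.span U' (Set.range fun i => algebraMap W W' (b i)) = ⊤ := by
    rw [eq_top_iff]
    intro w' _
    obtain ⟨n, c, g, rfl⟩ := exists_sum k κ W W' w'
    refine sum_mem fun l _ => ?_
    rw [← hκ, ← Algebra.smul_def]
    refine Submodule.smul_mem _ _ ?_
    rw [← b.sum_repr (g l), map_sum]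
    refine sum_mem fun i _ => ?_
    rw [Algebra.smul_def, map_mul, ← hUW, ← Algebra.smul_def]
    exact Submodule.smul_mem _ _ (Submodule.subset_span ⟨i, rfl⟩)
  have h1 := finrank_range_le_card (R := U') (fun i => algebraMap W W' (b i))
  rw [Set.finrank, hspan, finrank_top, Fintype.card_fin] at h1
  exact h1

end rank

section main

variable {k κ E E' U U' W W' V : Type*} [Field k] [CharZero k] [Field κ] [IsAlgClosed κ]
  [Algebra k κ]
  [Field E] [Field E'] [Algebra k E] [Algebra κ E'] [Algebra E E'] [Algebra k E']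
  [IsScalarTower k κ E'] [IsScalarTower k E E']
  [Field U] [Field U'] [Algebra k U] [Algebra κ U'] [Algebra U U'] [Algebra k U']
  [IsScalarTower k κ U'] [IsScalarTower k U U'] [CE k κ U U']
  [Field W] [Field W'] [Algebra k W] [Algebra κ W'] [Algebra W W'] [Algebra k W']
  [IsScalarTower k κ W'] [IsScalarTower k W W'] [CE k κ W W']
  [Algebra U W] [IsScalarTower k U W]
  [CommRing V] [Algebra E V]

/-- **A function of slope one over the algebraic closure of the constants.** -/
theorem exists_slope_ce {y : E} {A A' : Subalgebra κ E'} (h : Bk κ A A' (algebraMap E E' y))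
    [Algebra (RatFunc k) U] [IsScalarTower k (RatFunc k) U]
    [Algebra (RatFunc κ) U'] [IsScalarTower κ (RatFunc κ) U'] [FiniteDimensional (RatFunc κ) U']
    [Algebra.IsSeparable (RatFunc κ) U']
    (hxU : xK κ U' = algebraMap U U' (xK k U))
    [Algebra (RatFunc κ) W'] [IsScalarTower κ (RatFunc κ) W'] [FiniteDimensional (RatFunc κ) W']
    [Algebra.IsSeparable (RatFunc κ) W']
    (hxW : xK κ W' = algebraMap W W' (algebraMap U W (xK k U)))
    {ι : Type*} [Fintype ι] (b : Basis ι E V) (bU : Basis ι (RatFunc k) U)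
    (j : U →+* V) (hjk : ∀ c : k, j (algebraMap k U c) = algebraMap E V (algebraMap k E c))
    (hjx : j (xK k U) = algebraMap E V y) (hjb : ∀ i, j (bU i) = b i)
    (α β : W →+* V) (hαj : ∀ u, α (algebraMap U W u) = j u)
    (hβj : ∀ u, β (algebraMap U W u) = j u)
    (hα : ∀ w i, algebraMap E E' (b.repr (α w) i) ∈ Fr A' (algebraMap E E' y)⁻¹)
    (hβ : ∀ w i, algebraMap E E' (b.repr (β w) i) ∈ Fr A (algebraMap E E' y))
    (e : V) (he : e * e = e) (he0 : e ≠ 0) (io : V →ₐ[E] E) (hio : ∀ v, e * v = io v • e)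
    (σ : W ≃ₐ[U] W) (hσ1 : ∀ w, e * α w = e * β (σ w))
    (hσ2 : ∀ w, (1 - e) * α w = (1 - e) * β w)
    {n : ℕ} (hn : orderOf σ = n) (hn0 : 0 < n) (hrank : finrank U W = n)
    (hDIV : DivPic κ W')
    (θ : U' →+* E') (hθU : ∀ u, θ (algebraMap U U' u) = algebraMap E E' (io (j u)))
    (hθκ : ∀ c, θ (algebraMap κ U' c) = algebraMap κ E' c) :
    ∃ f : U', f ≠ 0 ∧ (∀ P : Pl κ U', (n : ℤ) ∣ divf (k := κ) f P) ∧
      (n : ℤ) ∣ h.ord (θ f) - 1 := by
  classical
  have hκ0 : CharZero κ := charZero_of_injective_algebraMap (algebraMap k κ).injective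
  have hVf : Module.Finite E V := Module.Finite.of_basis b
  have hUWf : FiniteDimensional U W := FiniteDimensional.of_finrank_pos (by rw [hrank]; exact hn0)
  -- `U' → W'`
  obtain ⟨jW, hjW1, hjW2⟩ := CE_exists_lift k κ U U' ((algebraMap W W').comp (algebraMap U W))
    (algebraMap κ W') (fun c => by
      rw [RingHom.comp_apply, ← IsScalarTower.algebraMap_apply k U W,
        ← IsScalarTower.algebraMap_apply k W W', ← IsScalarTower.algebraMap_apply k κ W'])
  letI aUW : Algebra U' W' := jW.toAlgebra
  have hjWa : ∀ u, algebraMap U' W' u = jW u := fun u => rfl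
  haveI tκ : IsScalarTower κ U' W' := IsScalarTower.of_algebraMap_eq fun c => (hjW2 c).symm
  haveI tR : IsScalarTower (RatFunc κ) U' W' := by
    refine IsScalarTower.of_algebraMap_eq' ?_
    refine ratFunc_ext (fun c => ?_) ?_
    · rw [RingHom.comp_apply, ← IsScalarTower.algebraMap_apply κ (RatFunc κ) W',
        ← IsScalarTower.algebraMap_apply κ (RatFunc κ) U', hjWa, hjW2]
    · rw [RingHom.comp_apply]
      change xK κ W' = jW (xK κ U')
      rw [hxU, hjW1, hxW]; rfl
  haveI fUW : FiniteDimensional U' W' :=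
    Module.Finite.of_restrictScalars_finite (RatFunc κ) U' W'
  haveI : CharZero U' := charZero_of_injective_algebraMap (algebraMap κ U').injective
  haveI : CharZero (RatFunc κ) := charZero_of_injective_algebraMap
    (algebraMap κ (RatFunc κ)).injective
  -- `κ(X) → E'`
  letI aR : Algebra (RatFunc κ) E' := RR20_948.ratAlg (algebraMap E E' y) h.transc
  haveI tRE : IsScalarTower κ (RatFunc κ) E' := RR20_948.ratAlg_tower (algebraMap E E' y) h.transc
  have hX : algebraMap (RatFunc κ) E' RatFunc.X = algebraMap E E' y :=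
    RR20_948.ratAlg_xK (algebraMap E E' y) h.transc
  haveI tRV : IsScalarTower (RatFunc κ) E' (E' ⊗[E] V) := inferInstance
  -- `α'`, `β'`
  have hαk : ∀ c : k, α (algebraMap k W c) = algebraMap E V (algebraMap k E c) := fun c => by
    rw [IsScalarTower.algebraMap_apply k U W, hαj, hjk]
  have hβk : ∀ c : k, β (algebraMap k W c) = algebraMap E V (algebraMap k E c) := fun c => by
    rw [IsScalarTower.algebraMap_apply k U W, hβj, hjk]
  obtain ⟨α', hα1, hα2⟩ := exists_ext κ E' W' α hαk
  obtain ⟨β', hβ1, hβ2⟩ := exists_ext κ E' W' β hβk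
  have hrat : ∀ (γ' : W' →+* E' ⊗[E] V) (γ : W →+* V)
      (_ : ∀ w, γ' (algebraMap W W' w) = inV E' (γ w))
      (_ : ∀ c, γ' (algebraMap κ W' c) = algebraMap E' (E' ⊗[E] V) (algebraMap κ E' c))
      (_ : ∀ u, γ (algebraMap U W u) = j u) (r : RatFunc κ),
      γ' (algebraMap (RatFunc κ) W' r) = algebraMap (RatFunc κ) (E' ⊗[E] V) r := by
    intro γ' γ h1 h2 h3 r
    have : γ'.comp (algebraMap (RatFunc κ) W') = algebraMap (RatFunc κ) (E' ⊗[E] V) := by
      refine ratFunc_ext (fun c => ?_) ?_
      · rw [RingHom.comp_apply, ← IsScalarTower.algebraMap_apply κ (RatFunc κ) W', h2,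
          IsScalarTower.algebraMap_apply (RatFunc κ) E' (E' ⊗[E] V),
          ← IsScalarTower.algebraMap_apply κ (RatFunc κ) E']
      · rw [RingHom.comp_apply]
        change γ' (xK κ W') = _
        rw [hxW, h1, h3, hjx, inV_algebraMap,
          IsScalarTower.algebraMap_apply (RatFunc κ) E' (E' ⊗[E] V), hX]
    exact RingHom.congr_fun this r
  let αA : W' →ₐ[RatFunc κ] E' ⊗[E] V := { α' with commutes' := hrat α' α hα1 hα2 hαj }
  let βA : W' →ₐ[RatFunc κ] E' ⊗[E] V := { β' with commutes' := hrat β' β hβ1 hβ2 hβj }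
  have hαA : ∀ w, αA w = α' w := fun w => rfl
  have hβA : ∀ w, βA w = β' w := fun w => rfl
  -- `σ'`
  have hs : ∀ τ : W ≃ₐ[U] W, ∃ s : W' →+* W',
      (∀ w, s (algebraMap W W' w) = algebraMap W W' (τ w)) ∧
      ∀ c, s (algebraMap κ W' c) = algebraMap κ W' c := fun τ =>
    CE_exists_lift k κ W W' ((algebraMap W W').comp (τ : W →+* W)) (algebraMap κ W')
      (fun c => by
        rw [RingHom.comp_apply, IsScalarTower.algebraMap_apply k U W]
        change algebraMap W W' (τ (algebraMap U W (algebraMap k U c))) = _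
        rw [AlgEquiv.commutes, ← IsScalarTower.algebraMap_apply k U W,
          ← IsScalarTower.algebraMap_apply k W W', ← IsScalarTower.algebraMap_apply k κ W'])
  obtain ⟨s, hs1, hs2⟩ := hs σ
  obtain ⟨s', hs1', hs2'⟩ := hs σ.symm
  have hss' : s.comp s' = RingHom.id W' := by
    refine ringHom_ext k κ W W' (fun c => ?_) (fun w => ?_)
    · rw [RingHom.comp_apply, hs2', hs2]; rfl
    · rw [RingHom.comp_apply, hs1', hs1, AlgEquiv.apply_symm_apply]; rfl
  have hs's : s'.comp s = RingHom.id W' := by
    refine ringHom_ext k κ W W' (fun c => ?_) (fun w => ?_)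
    · rw [RingHom.comp_apply, hs2, hs2']; rfl
    · rw [RingHom.comp_apply, hs1, hs1', AlgEquiv.symm_apply_apply]; rfl
  have hsU : ∀ u, s (algebraMap U' W' u) = algebraMap U' W' u := by
    intro u
    have : s.comp (algebraMap U' W') = algebraMap U' W' := by
      refine ringHom_ext k κ U U' (fun c => ?_) (fun w => ?_)
      · rw [RingHom.comp_apply, hjWa, hjW2, hs2]
      · rw [RingHom.comp_apply, hjWa, hjW1, RingHom.comp_apply, hs1, AlgEquiv.commutes]
    exact RingHom.congr_fun this u
  let σ' : W' ≃ₐ[U'] W' :=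
    { toFun := s
      invFun := s'
      left_inv := fun w => RingHom.congr_fun hs's w
      right_inv := fun w => RingHom.congr_fun hss' w
      map_mul' := map_mul s
      map_add' := map_add s
      commutes' := hsU }
  have hσ'1 : ∀ w, σ' (algebraMap W W' w) = algebraMap W W' (σ w) := hs1
  have hσ'2 : ∀ c, σ' (algebraMap κ W' c) = algebraMap κ W' c := hs2
  have hσ'pow : ∀ (m : ℕ) (w : W), (σ' ^ m) (algebraMap W W' w) = algebraMap W W' ((σ ^ m) w) := by
    intro m
    induction m with
    | zero => intro w; rfl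
    | succ m ih =>
      intro w
      rw [pow_succ, pow_succ, AlgEquiv.mul_apply, AlgEquiv.mul_apply, hσ'1, ih]
  have hσ'powκ : ∀ (m : ℕ) (c : κ), (σ' ^ m) (algebraMap κ W' c) = algebraMap κ W' c := by
    intro m
    induction m with
    | zero => intro w; rfl
    | succ m ih => intro w; rw [pow_succ, AlgEquiv.mul_apply, hσ'2, ih]
  have hord : orderOf σ' = n := by
    rw [← hn, orderOf_eq_orderOf_iff]
    intro m
    constructor
    · intro hm
      ext w
      apply (algebraMap W W').injective
      rw [← hσ'pow, hm]; rfl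
    · intro hm
      have : ((σ' ^ m : W' ≃ₐ[U'] W') : W' →+* W') = RingHom.id W' := by
        refine ringHom_ext k κ W W' (fun c => ?_) (fun w => ?_)
        · exact hσ'powκ m c
        · change (σ' ^ m) (algebraMap W W' w) = _
          rw [hσ'pow, hm]; rfl
      ext w
      exact RingHom.congr_fun this w
  have hrank' : finrank U' W' ≤ n := by
    rw [← hrank]
    exact finrank_le_ce (W := W) k κ (fun u => by rw [hjWa, hjW1]; rfl) (fun c => by rw [hjWa, hjW2])
  -- the relation
  have hrel : ∀ w, Algebra.norm E' (αA w) * iota' E' io (βA w) =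
      Algebra.norm E' (βA w) * iota' E' io (βA (σ' w)) := by
    intro w
    refine norm_rel e io he hio he0 ?_ ?_
    · let φ : W' →+ E' ⊗[E] V :=
        { toFun := fun w => inV E' e * α' w
          map_zero' := by rw [map_zero, mul_zero]
          map_add' := fun a b => by rw [map_add, mul_add] }
      let ψ : W' →+ E' ⊗[E] V :=
        { toFun := fun w => inV E' e * β' (s w)
          map_zero' := by rw [map_zero, map_zero, mul_zero]
          map_add' := fun a b => by rw [map_add, map_add, mul_add] }
      refine ext_induction (κ := κ) (W := W) k φ ψ (fun c w => ?_) w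
      change inV E' e * α' (algebraMap κ W' c * algebraMap W W' w) =
        inV E' e * β' (s (algebraMap κ W' c * algebraMap W W' w))
      rw [map_mul s, hs1, hs2, map_mul, map_mul, hα1, hα2, hβ1, hβ2, mul_left_comm,
        mul_left_comm (inV E' e), ← map_mul, ← map_mul, hσ1]
    · let φ : W' →+ E' ⊗[E] V :=
        { toFun := fun w => (1 - inV E' e) * α' w
          map_zero' := by rw [map_zero, mul_zero]
          map_add' := fun a b => by rw [map_add, mul_add] }
      let ψ : W' →+ E' ⊗[E] V :=
        { toFun := fun w => (1 - inV E' e) * β' w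
          map_zero' := by rw [map_zero, mul_zero]
          map_add' := fun a b => by rw [map_add, mul_add] }
      refine ext_induction (κ := κ) (W := W) k φ ψ (fun c w => ?_) w
      change (1 - inV E' e) * α' (algebraMap κ W' c * algebraMap W W' w) =
        (1 - inV E' e) * β' (algebraMap κ W' c * algebraMap W W' w)
      have e1 : (1 - inV (E := E) E' e) = inV E' (1 - e) := by rw [map_sub, map_one]
      rw [e1, map_mul, map_mul, hα1, hα2, hβ1, hβ2, mul_left_comm,
        mul_left_comm (inV E' (1 - e)), ← map_mul, ← map_mul, hσ2]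
  -- the norms
  have hNα : ∀ w, Algebra.norm E' (αA w) ∈ Fr A' (algebraMap E E' y)⁻¹ := by
    intro w
    refine norm_mem (κ := κ) (W := W) k hα1 hα2 b (h.wr'.frac.toSubring) (fun c => ?_)
      (fun w i l => ?_) w
    · exact h.wr'.subset_Fr (A'.algebraMap_mem c)
    · rw [← hjb l, ← hαj, ← map_mul]
      exact hα _ _
  have hNβ : ∀ w, Algebra.norm E' (βA w) ∈ Fr A (algebraMap E E' y) := by
    intro w
    refine norm_mem (κ := κ) (W := W) k hβ1 hβ2 b (h.wr.frac.toSubring) (fun c => ?_)
      (fun w i l => ?_) w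
    · exact h.wr.subset_Fr (A.algebraMap_mem c)
    · rw [← hjb l, ← hβj, ← map_mul]
      exact hβ _ _
  have hcyc : ∀ w : W', algebraMap U' W' (Algebra.norm U' w) =
      ∏ i ∈ Finset.range n, (σ' ^ i) w := fun w => norm_cyclic σ' hord hrank' w
  -- the norm on `U'`
  have hNU : ∀ u : U', Algebra.norm E' (αA (algebraMap U' W' u)) =
      algebraMap (RatFunc κ) E' (Algebra.norm (RatFunc κ) u) := by
    intro u
    set bU' := basisRat k κ U U' hxU bU with hbU'
    have hbi : ∀ i, α' (jW (bU' i)) = b.baseChange E' i := by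
      intro i
      rw [hbU', basisRat_apply, hjW1, RingHom.comp_apply, hα1, hαj, hjb, Basis.baseChange_apply,
        inV_apply]
    rw [Algebra.norm_eq_matrix_det (b.baseChange E'), Algebra.norm_eq_matrix_det bU',
      RingHom.map_det]
    congr 1
    ext i l
    rw [Algebra.leftMulMatrix_eq_repr_mul, RingHom.mapMatrix_apply, Matrix.map_apply,
      Algebra.leftMulMatrix_eq_repr_mul]
    have e1 : αA (algebraMap U' W' u) * b.baseChange E' l = α' (jW (u * bU' l)) := by
      rw [map_mul, map_mul, hbi]; rfl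
    rw [e1]
    have e2 : α' (jW (u * bU' l)) = ∑ i, (algebraMap (RatFunc κ) E' (bU'.repr (u * bU' l) i)) •
        b.baseChange E' i := by
      conv_lhs => rw [← bU'.sum_repr (u * bU' l)]
      rw [map_sum, map_sum]
      refine Finset.sum_congr rfl fun i _ => ?_
      rw [Algebra.smul_def, map_mul, map_mul, hbi, Algebra.smul_def]
      congr 1
      have e3 : jW (algebraMap (RatFunc κ) U' (bU'.repr (u * bU' l) i)) =
          algebraMap (RatFunc κ) W' (bU'.repr (u * bU' l) i) := by
        rw [← hjWa, ← IsScalarTower.algebraMap_apply]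
      rw [e3, hrat α' α hα1 hα2 hαj]
      rfl
    rw [e2, Basis.repr_sum_self]
  obtain ⟨f, hf0, hfd, hfo⟩ := h.exists_slope_one hn0 hX σ' αA βA
    (iota' E' io : E' ⊗[E] V →+* E') hrel hNα hNβ hcyc hNU hDIV
  refine ⟨f, hf0, hfd, ?_⟩
  have hθ : θ = ((iota' E' io : E' ⊗[E] V →+* E').comp β').comp jW := by
    refine ringHom_ext k κ U U' (fun c => ?_) (fun u => ?_)
    · rw [hθκ, RingHom.comp_apply, RingHom.comp_apply, hjW2, hβ2]
      change _ = iota' E' io (algebraMap E' _ _)
      rw [AlgHom.commutes]; rfl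
    · rw [hθU, RingHom.comp_apply, RingHom.comp_apply, hjW1, RingHom.comp_apply, hβ1, hβj]
      change _ = iota' E' io (inV E' (j u))
      rw [iota'_inV]
  rw [hθ]
  exact hfo

end main

end Crest.Agent.R013.LemC623
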