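import Crest.Agent.R013.NB4_92

/-!
# B-NB, part 5: `exists_out` in 946's setting, output without tensor products
-/

set_option autoImplicit false
set_option linter.unusedSectionVars false
set_option linter.style.haveILetI false

namespace Crest.Agent.R013.NB_92

open Module TensorProduct Polynomial Crest.Agent.R013.Gl946 Crest.Agent.R013.CutCov_92
open scoped NNReal

/-- **The output of B-NB**: a non-bridge `X` over the field `U`, with the point `σ` of `V` at `X.e`. -/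
structure NBOut {E : Type*} [Field E] (D : PatchDatum E) (Am Ap : Subring E) (U : Type*) [Field U]
    (V : Type*) [CommRing V] [Algebra E V] (d : ℕ) (X : Edge D V d) (j : U →+* V)
    (σ : V →ₐ[E] E) : Prop where
  smul : ∀ v, v * X.e = σ v • X.e
  σ_e : σ X.e = 1
  mem_L : ∀ v, v ∈ X.L ↔ ∃ u, j u = v
  F0_L : ∀ z ∈ D.F0, algebraMap E V z ∈ X.L
  nonbridge : X.NonBridge
  mem_Am : ∀ u, σ (j u) ∈ Am
  mem_Ap : ∀ u, σ (j u) ∈ Ap
  finite : Module.Finite E V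
  red : IsReduced V

namespace NBOut

variable {E : Type*} [Field E] {D : PatchDatum E} {Am Ap : Subring E} {U : Type*} [Field U]
    {V : Type*} [CommRing V] [Algebra E V] {d : ℕ} {X : Edge D V d} {j : U →+* V}
    {σ : V →ₐ[E] E} (h : NBOut D Am Ap U V d X j σ)

include h

theorem e_ne : X.e ≠ 0 := by
  intro h0
  have := h.σ_e
  rw [h0, map_zero] at this
  exact zero_ne_one this

/-- transport to an isomorphic field -/
theorem congr {U' : Type*} [Field U'] (f : U' ≃+* U) :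
    NBOut D Am Ap U' V d X (j.comp f.toRingHom) σ where
  smul := h.smul
  σ_e := h.σ_e
  mem_L := fun v => by
    rw [h.mem_L]
    constructor
    · rintro ⟨u, rfl⟩
      exact ⟨f.symm u, by
        change j (f (f.symm u)) = j u
        rw [RingEquiv.apply_symm_apply]⟩
    · rintro ⟨u, rfl⟩
      exact ⟨f u, rfl⟩
  F0_L := h.F0_L
  nonbridge := h.nonbridge
  mem_Am := fun u => h.mem_Am _
  mem_Ap := fun u => h.mem_Ap _
  finite := h.finite
  red := h.red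

end NBOut

section Abs

universe u t

variable {k E : Type u} [NormedField k] [CompleteSpace k]
  [NontriviallyNormedField E] [NormedAlgebra k E] [IsUltrametricDist E] [CompleteSpace E] [CharZero E]
  {y : E} (hG : IsGauss k y) {π : k} (hπ : IsUnif π) (hd : DenseRat k y)

/-- **B-NB**, in 946's setting: `θ` : the circle `|x| = |π|`, `θ1` : the circle of the re-patching. -/
theorem exists_nbout {L Kh : Type u} [Field L] [Field Kh] [Algebra L Kh] [FiniteDimensional L Kh]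
    [IsGalois L Kh] (ι : L →+* E) (θ : KY hG →+* L) (hθ : ∀ z, ι (θ z) = z)
    (hfin : letI := θ.toAlgebra; FiniteDimensional (KY hG) L)
    (Am Ap : Subring E) (hAm : (FP hG hπ hd).toSubring ≤ Am) (hAp : RU k y ≤ Ap)
    (hιP : ∀ l, ι l ∈ FP hG hπ hd) (hιA : ∀ l, ι l ∈ Ap)
    -- the class which is split over the annulus
    {n : ℕ} (hn : 0 < n) {ζ : E} (hζ : IsPrimitiveRoot ζ n) (hζF : ζ ∈ KY hG)
    (M : IntermediateField L Kh) (y1 : Kh) (hyM : y1 ^ n ∈ M)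
    (θ1 : KY hG →+* L) (hθ1 : ∀ x, ∃ z, θ z = θ1 x)
    (res : RU k y →+* E) (hres : ∀ x : KY hG, res ⟨x, KY_le_RU hG x.2⟩ = ι (θ1 x))
    (hresm : ∀ z, res z ∈ Am) (hresp : ∀ z, res z ∈ Ap)
    {d : ℕ} (c : Fin d → RU k y) (m : Fin d → M)
    (hcm : ∀ (T : Type u) (_ : CommRing T) (ρ : RU k y →+* T) (κ : M →+* T),
      (∀ x : KY hG, ρ ⟨x, KY_le_RU hG x.2⟩ = κ (algebraMap L M (θ1 x))) →
      (∑ i, ρ (c i) * κ (m i)) ^ n = κ ⟨y1 ^ n, hyM⟩)
    {Ω : Type*} [Field Ω] [CharZero Ω] (φ : FP hG hπ hd →+* Ω) (κ : M →+* Ω)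
    (hφκ : ∀ l : L, φ ⟨ι l, hιP l⟩ = κ (algebraMap L M l))
    (hno : ∀ w ∈ Subring.closure (Set.range φ ∪ Set.range κ), w ^ n ≠ κ ⟨y1 ^ n, hyM⟩)
    -- the class which is split over the disc
    {n' : ℕ} (hn' : 0 < n') {ζ' : E} (hζ' : IsPrimitiveRoot ζ' n') (hζF' : ζ' ∈ KY hG)
    (h2 : L) (y2 : Kh) (hy : y2 ^ n' = algebraMap L Kh h2) (hy' : y2 ∉ Set.range (algebraMap L Kh))
    (g2 : E) (hg2P : g2 ∈ FP hG hπ hd) (hg2A : g2 ∈ Ap) (hg : g2 ^ n' = ι h2) :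
    ∃ (U : IntermediateField L Kh) (V : Type u) (_ : CommRing V) (_ : Algebra E V) (d : ℕ)
      (X : Edge (gaussDatum hG hπ hd) V d) (j : U →+* V) (σ : V →ₐ[E] E),
      NBOut (gaussDatum hG hπ hd) Am Ap U V d X j σ ∧ ∀ l : L, σ (j (algebraMap L U l)) = ι l := by
  classical
  let D := gaussDatum hG hπ hd
  letI a1 : Algebra D.F0 L := θ.toAlgebra
  letI a2 : Algebra D.F0 Kh := ((algebraMap L Kh).comp θ).toAlgebra
  haveI : IsScalarTower D.F0 L Kh := IsScalarTower.of_algebraMap_eq fun _ => rfl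
  haveI f1 : FiniteDimensional D.F0 L := hfin
  haveI f2 : FiniteDimensional D.F0 Kh := FiniteDimensional.trans D.F0 L Kh
  let iota : L →ₐ[D.F0] E := { ι with commutes' := fun z => hθ z }
  have H : Half iota Am Ap := ⟨hAm, hAp, hιP, hιA⟩
  let ρ : RU k y →+* E ⊗[D.F0] Kh :=
    (Algebra.TensorProduct.includeLeft : E →ₐ[E] E ⊗[D.F0] Kh).toRingHom.comp res
  let κ' : M →+* E ⊗[D.F0] Kh :=
    (Algebra.TensorProduct.includeRight : Kh →ₐ[D.F0] E ⊗[D.F0] Kh).toRingHom.comp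
      (algebraMap M Kh)
  have hρ : ∀ z, ρ z = res z ⊗ₜ[D.F0] (1 : Kh) := fun _ => rfl
  have hκ' : ∀ z, κ' z = (1 : E) ⊗ₜ[D.F0] (z : Kh) := fun _ => rfl
  have hcompat : ∀ x : KY hG, ρ ⟨x, KY_le_RU hG x.2⟩ = κ' (algebraMap L M (θ1 x)) := by
    intro x
    rw [hρ, hκ', hres]
    obtain ⟨z, hz⟩ := hθ1 x
    rw [← hz, hθ]
    let z' : D.F0 := z
    exact Algebra.TensorProduct.tmul_one_eq_one_tmul (R := D.F0) (A := E) (B := Kh) z'
  set b : E ⊗[D.F0] Kh := ∑ i, ρ (c i) * κ' (m i) with hb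
  have hbi : ∀ i, ρ (c i) * κ' (m i) = res (c i) ⊗ₜ[D.F0] (m i : Kh) := fun i => by
    rw [hρ, hκ', Algebra.TensorProduct.tmul_mul_tmul, mul_one, one_mul]
  have hbn : b ^ n = (1 : E) ⊗ₜ[D.F0] (y1 ^ n) := hcm _ _ ρ κ' hcompat
  have hbS : ∀ {S : Subring E}, (∀ z, res z ∈ S) → b ∈ BS (F := D.F0) (K := Kh) S := by
    intro S hS
    rw [hb]
    refine sum_mem fun i _ => ?_
    rw [hbi]
    exact tmul_mem_BS (hS _) _
  have hbM : ∀ σ : Kh ≃ₐ[L] Kh, (∀ m ∈ M, σ m = m) → rho E D.F0 L Kh σ b = b := by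
    intro σ hσ
    rw [hb, map_sum]
    refine Finset.sum_congr rfl fun i _ => ?_
    rw [hbi, rho_tmul, hσ _ (m i).2]
  obtain ⟨U, e, j, hO⟩ := exists_out H hn hζ hζF M y1 hyM b hbn (hbS hresm) (hbS hresp) hbM φ κ hφκ
    hno hn' hζ' hζF' h2 y2 hy hy' g2 hg2P hg2A hg
  haveI := finiteDimensional_sub (D := D) U
  refine ⟨U, E ⊗[D.F0] U, inferInstance, inferInstance, finrank D.F0 U, edgeOf e hO.idem, jU D U, j,
    ?_, ?_⟩
  · exact
      { smul := hO.smul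
        σ_e := hO.j_e
        mem_L := fun v => mem_edgeOf_L e hO.idem v
        F0_L := F0_mem_edgeOf_L e hO.idem
        nonbridge := hO.nonbridge
        mem_Am := hO.mem_Am
        mem_Ap := hO.mem_Ap
        finite := inferInstance
        red := isReduced_tensor }
  · exact hO.iota

end Abs

section NoRoot

open Crest.Agent.R013.A2a_275 (Cpl toCpl norm_toCpl denseRange_toCpl)

variable {k E : Type*} [NormedField k] [CompleteSpace k]
  [NormedField E] [NormedAlgebra k E] [IsUltrametricDist E] [CompleteSpace E]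
  {y : E} (hG : IsGauss k y) {π : k} (hπ : IsUnif π) (hd : DenseRat k y)
  {Ω : Type*} [Field Ω]

/-- a homomorphism `FP → Cpl v`, bounded on `AP`, has its values in the closure of the image of
`k(y)`. -/
theorem Phi_mem_clS (v : Valuation Ω ℝ≥0) (S : Subfield Ω) (Φ : FP hG hπ hd →+* Cpl v)
    (h1 : ∀ z (hz : z ∈ KY hG), Φ ⟨z, KY_le_FP hG hπ hd hz⟩ ∈ clS v S)
    (h2 : ∀ x (_ : x ∈ AP hG) (hx' : x ∈ FP hG hπ hd), ‖Φ ⟨x, hx'⟩‖ ≤ ‖x‖) (z : FP hG hπ hd) :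
    Φ z ∈ clS v S := by
  have hAP : ∀ (x : E) (hx : x ∈ AP hG) (hx' : x ∈ FP hG hπ hd), Φ ⟨x, hx'⟩ ∈ clS v S := by
    intro x hx hx'
    have hc : IsClosed (clS v S : Set (Cpl v)) := isClosed_clS v S
    rw [← SetLike.mem_coe, ← hc.closure_eq, Metric.mem_closure_iff]
    intro ε hε
    have hx2 : x ∈ closure ((AP0alg hG : Subalgebra k E) : Set E) := hx
    obtain ⟨s, hs, hxs⟩ := Metric.mem_closure_iff.1 hx2 ε hε
    have hsK : s ∈ KY hG := by
      obtain ⟨f, g, hg1, hg0, rfl⟩ := hs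
      exact ⟨f, g, by rintro rfl; simp at hg0, rfl⟩
    have hsP : s ∈ FP hG hπ hd := KY_le_FP hG hπ hd hsK
    have hsA : s ∈ AP hG := subset_closure hs
    refine ⟨Φ ⟨s, hsP⟩, h1 s hsK, ?_⟩
    rw [dist_eq_norm, ← map_sub]
    have e : (⟨x, hx'⟩ : FP hG hπ hd) - ⟨s, hsP⟩ = ⟨x - s, sub_mem hx' hsP⟩ := rfl
    rw [e]
    refine (h2 _ (sub_mem hx hsA) _).trans_lt ?_
    rwa [← dist_eq_norm]
  obtain ⟨z, hz⟩ := z
  obtain ⟨a, ha, b, hb, hb0, rfl⟩ := id hz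
  have hAF : ∀ {a : E}, a ∈ AP hG → a ∈ FP hG hπ hd := fun {a} ha =>
    ⟨a, ha, 1, one_mem _, one_ne_zero, (div_one a).symm⟩
  have hbA : b ∈ AP hG := by
    obtain ⟨f, rfl⟩ := hb
    exact aeval_mem_AP hG f
  have e : (⟨a / b, hz⟩ : FP hG hπ hd) = ⟨a, hAF ha⟩ / ⟨b, hAF hbA⟩ := rfl
  rw [e, map_div₀]
  exact div_mem (hAP _ ha _) (hAP _ hbA _)

/-- elements of the closure are approximated, multiplicative form. -/
theorem exists_pow_lt (v : Valuation Ω ℝ≥0) (S : Subfield Ω) {N : ℕ} {w : Cpl v}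
    (hw : w ∈ clS v S) {h : Ω} (h0 : h ≠ 0) (hN : N ≠ 0) (hh : w ^ N = toCpl v h) :
    ∃ g ∈ S, v (h - g ^ N) < v h := by
  have hw0 : w ≠ 0 := by
    rintro rfl
    rw [zero_pow hN] at hh
    exact h0 ((_root_.map_eq_zero _).1 hh.symm)
  have hw' : w ∈ closure ((S.map (toCpl v) : Subfield (Cpl v)) : Set (Cpl v)) := hw
  obtain ⟨_, ⟨g, hg, rfl⟩, h1⟩ := Metric.mem_closure_iff.1 hw' ‖w‖ (norm_pos_iff.2 hw0)
  refine ⟨g, hg, ?_⟩
  rw [dist_eq_norm] at h1
  have h2 : ‖toCpl v g / w - 1‖ < 1 := by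
    have : toCpl v g / w - 1 = -(w - toCpl v g) / w := by field_simp; ring
    rw [this, norm_div, norm_neg, div_lt_one (norm_pos_iff.2 hw0)]
    exact h1
  have h3 : ‖(toCpl v g / w) ^ N - 1‖ < 1 := by
    have := Lift903.val_pow_sub_one (NormedField.valuation (K := Cpl v)) (toCpl v g / w)
      (by exact_mod_cast h2) N
    exact_mod_cast this
  have h4 : ‖toCpl v h - toCpl v (g ^ N)‖ < ‖toCpl v h‖ := by
    have e : toCpl v h - toCpl v (g ^ N) = -(((toCpl v g / w) ^ N - 1) * toCpl v h) := by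
      rw [← hh, map_pow, div_pow, sub_mul, one_mul, div_mul_cancel₀ _ (pow_ne_zero _ hw0)]
      ring
    rw [e, norm_neg, norm_mul]
    have hp : 0 < ‖toCpl v h‖ := norm_pos_iff.2 ((_root_.map_ne_zero _).2 h0)
    calc _ < 1 * ‖toCpl v h‖ := mul_lt_mul_of_pos_right h3 hp
      _ = _ := one_mul _
  rw [← map_sub, norm_toCpl, norm_toCpl] at h4
  exact_mod_cast h4

/-- transfer of `N`-th powers from `h'` to `h`. -/
theorem pow_transfer {M Γ : Type*} [Field M] [LinearOrderedCommGroupWithZero Γ]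
    (w : Valuation M Γ) {h h' g g1 : M} {N : ℕ} (h0 : h ≠ 0)
    (h1 : g1 ≠ 0) (e1 : w (h' - g ^ N) < w h') (e2 : w (h' / (h * g1 ^ N) - 1) < 1) :
    w (h - (g / g1) ^ N) < w h := by
  have hA : h * g1 ^ N ≠ 0 := mul_ne_zero h0 (pow_ne_zero _ h1)
  have hwA : 0 < w (h * g1 ^ N) := zero_lt_iff.2 (w.ne_zero_iff.2 hA)
  have e3 : w (h' - h * g1 ^ N) < w (h * g1 ^ N) := by
    have : h' - h * g1 ^ N = (h' / (h * g1 ^ N) - 1) * (h * g1 ^ N) := by
      rw [sub_mul, one_mul, div_mul_cancel₀ _ hA]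
    rw [this, map_mul]
    calc _ < 1 * w (h * g1 ^ N) := mul_lt_mul_of_pos_right e2 hwA
      _ = _ := one_mul _
  have e4 : w h' = w (h * g1 ^ N) := by
    have : h' = h * g1 ^ N + (h' - h * g1 ^ N) := by ring
    rw [this]
    exact Valuation.map_add_eq_of_lt_left w e3
  have e5 : w (h * g1 ^ N - g ^ N) < w (h * g1 ^ N) := by
    have : h * g1 ^ N - g ^ N = -(h' - h * g1 ^ N) + (h' - g ^ N) := by ring
    rw [this]
    refine (w.map_add _ _).trans_lt (max_lt ?_ ?_)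
    · rw [Valuation.map_neg]; exact e3
    · rw [← e4]; exact e1
  have hg : g1 ^ N ≠ 0 := pow_ne_zero _ h1
  have hwg : 0 < w (g1 ^ N) := zero_lt_iff.2 (w.ne_zero_iff.2 hg)
  have e6 : h - (g / g1) ^ N = (h * g1 ^ N - g ^ N) / g1 ^ N := by
    rw [div_pow]; field_simp
  rw [e6, map_div₀, div_lt_iff₀ hwg, ← map_mul]
  exact e5

end NoRoot

end Crest.Agent.R013.NB_92
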