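import Crest.Agent.R013.LemC4_623
import Crest.Agent.R013.LemC7_623
import Crest.Agent.R013.NB5_92
import Crest.Agent.R013.BTor4_914

/-!
# LEMW (row 13, part B): preparations for the assembly
-/

set_option autoImplicit false
set_option linter.unusedSectionVars false
set_option linter.style.haveILetI false

namespace Crest.Agent.R013.LemC623

open Module Polynomial Crest.Agent.R013.Gl946 Crest.Agent.R013.Desc_372
  Crest.Agent.R013.Desc_372.CE
open Crest.Agent.R013.LemW623 Crest.Agent.R013.RR7_948 Crest.Agent.R013.RR8_948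
open Crest.Agent.R013.CutCov_92
open scoped NNReal

section basis

variable {k E : Type*} [NormedField k] [NormedField E] [NormedAlgebra k E] {y : E}

theorem mem_KY_iff (hG : IsGauss k y) (φ : RatFunc k →ₐ[k] E) (hφ : φ RatFunc.X = y) (z : E) :
    z ∈ KY hG ↔ ∃ r, φ r = z := by
  have hp : ∀ p : k[X], φ (aeval RatFunc.X p) = aeval y p := fun p => by
    rw [← aeval_algHom_apply, hφ]
  constructor
  · rintro ⟨f, g, hg, rfl⟩
    exact ⟨aeval RatFunc.X f / aeval RatFunc.X g, by rw [map_div₀, hp, hp]⟩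
  · rintro ⟨r, rfl⟩
    obtain ⟨a, b, hb, rfl⟩ := isGen_X.2 r
    exact ⟨a, b, hb, by rw [map_div₀, hp, hp]⟩

end basis

section basisU

variable {E V : Type*} [Field E] [CommRing V] [Algebra E V] {D : PatchDatum E} {d : ℕ}

theorem exists_basisU [Nontrivial V] (X : Edge D V d) {U k : Type*} [Field U] [Field k]
    (j : U →+* V) (hL : ∀ v, v ∈ X.L ↔ ∃ u, j u = v) [Algebra (RatFunc k) U]
    (φ : RatFunc k →+* E) (hφ : ∀ z, z ∈ D.F0 ↔ ∃ r, φ r = z)
    (hj : ∀ r, j (algebraMap (RatFunc k) U r) = algebraMap E V (φ r)) :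
    ∃ bU : Basis (Fin d) (RatFunc k) U, ∀ i, j (bU i) = X.b i := by
  have h1 : ∀ i, ∃ u, j u = X.b i := fun i => (hL _).1 ((X.hL _).2 (basis_mem_cs X.b _ i))
  choose u hu using h1
  have hsum : ∀ r : Fin d → RatFunc k, j (∑ i, r i • u i) = ∑ i, φ (r i) • X.b i := by
    intro r
    rw [map_sum]
    refine Finset.sum_congr rfl fun i _ => ?_
    rw [Algebra.smul_def, map_mul, hj, hu, Algebra.smul_def]
  have hli : LinearIndependent (RatFunc k) u := by
    rw [Fintype.linearIndependent_iff]
    intro r hr i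
    have h2 := hsum r
    rw [hr, map_zero] at h2
    have h3 := Fintype.linearIndependent_iff.1 X.b.linearIndependent (fun i => φ (r i)) h2.symm i
    exact φ.injective (by rw [h3, map_zero])
  have hsp : ⊤ ≤ Submodule.span (RatFunc k) (Set.range u) := by
    intro w _
    have h2 : ∀ i, ∃ r, φ r = X.b.repr (j w) i := fun i =>
      (hφ _).1 ((X.hL _).1 ((hL _).2 ⟨w, rfl⟩) i)
    choose r hr using h2
    have h3 : w = ∑ i, r i • u i := by
      apply j.injective
      rw [hsum]
      simp only [hr]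
      exact (X.b.sum_repr _).symm
    rw [h3]
    exact sum_mem fun i _ => Submodule.smul_mem _ _ (Submodule.subset_span ⟨i, rfl⟩)
  exact ⟨Basis.mk hli hsp, fun i => by rw [Basis.mk_apply, hu]⟩

end basisU

section order

variable {k E : Type*} [NormedField k] [NormedField E] [NormedAlgebra k E]
  [IsUltrametricDist E] [CompleteSpace k] [CompleteSpace E] {y : E}

/-- the order of a principal unit is zero -/
theorem ord_principal (hG : IsGauss k y) {π : k} (hπ : IsUnif π) (hd : DenseRat k y)
    (h : Bk k (AP hG) (AU k y) y) {x : E} (hx : ‖x - 1‖ < 1) : h.ord x = 0 := by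
  obtain ⟨a, ha, a', ha', b, hb, b', hb', e1, e2, e3, e4, e5⟩ :=
    cartan_ultra (AU k y).toSubring (AP hG).toSubring (isClosed_AU y) (isClosed_AP hG)
      (dec hG hπ hd) x hx
  refine h.ord_eq (UnitIn.of_mul_eq_one ha ha' e1) (UnitIn.of_mul_eq_one hb hb' e3) ?_
  rw [zpow_zero, mul_one]
  exact e5

end order

section closed

theorem algClosed_of_hom {k U E : Type*} [Field k] [Field U] [Field E] [Algebra k U]
    [Algebra k E] (φ : U →+* E) (hφ : ∀ c, φ (algebraMap k U c) = algebraMap k E c)
    (hc : algebraicClosure k E = ⊥) : algebraicClosure k U = ⊥ := by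
  rw [eq_bot_iff]
  intro u hu
  rw [mem_algebraicClosure_iff] at hu
  let φA : U →ₐ[k] E := { φ with commutes' := hφ }
  have h1 : φ u ∈ algebraicClosure k E := by
    rw [mem_algebraicClosure_iff]
    exact hu.algHom φA
  rw [hc, IntermediateField.mem_bot] at h1
  obtain ⟨c, hc⟩ := h1
  rw [IntermediateField.mem_bot]
  exact ⟨c, φ.injective (by rw [hφ, hc])⟩

end closed

section intoE

variable {k E Ω U : Type*} [Field k] [Field E] [Field Ω] [Algebra k E] [Algebra k Ω] [Algebra E Ω]
  [IsScalarTower k E Ω] [Field U] [Algebra k U] [Algebra U Ω] [IsScalarTower k U Ω]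
  (φ : U →+* E) (hφ : ∀ u, algebraMap U Ω u = algebraMap E Ω (φ u))

include hφ in
theorem hφk (c : k) : φ (algebraMap k U c) = algebraMap k E c := by
  apply (algebraMap E Ω).injective
  rw [← hφ, ← IsScalarTower.algebraMap_apply, ← IsScalarTower.algebraMap_apply]

include hφ in
/-- the inclusion `U k' → E k'` -/
theorem exists_intoE (hc : algebraicClosure k U = ⊥) (k' : IntermediateField k Ω)
    [Algebra.IsSeparable k k'] :
    ∃ θ : lev U Ω k' →+* lev E Ω k', (∀ x, ((θ x : lev E Ω k') : Ω) = x) ∧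
      (∀ u, θ (algebraMap U (lev U Ω k') u) = algebraMap E (lev E Ω k') (φ u)) ∧
      ∀ c, θ (algebraMap k' (lev U Ω k') c) = algebraMap k' (lev E Ω k') c := by
  haveI := ce_inside k U hc k'
  obtain ⟨θ, h1, h2⟩ := CE_exists_lift k k' U (lev U Ω k')
    ((algebraMap E (lev E Ω k')).comp φ) (algebraMap k' (lev E Ω k')) (fun c => by
      rw [RingHom.comp_apply, hφk φ hφ, ← IsScalarTower.algebraMap_apply,
        ← IsScalarTower.algebraMap_apply])
  refine ⟨θ, fun x => ?_, h1, h2⟩
  have e : (algebraMap (lev E Ω k') Ω).comp θ = algebraMap (lev U Ω k') Ω := by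
    refine ringHom_ext k k' U (lev U Ω k') (fun c => ?_) (fun u => ?_)
    · rw [RingHom.comp_apply, h2]
      rw [← IsScalarTower.algebraMap_apply k' (lev E Ω k') Ω,
        ← IsScalarTower.algebraMap_apply k' (lev U Ω k') Ω]
    · rw [RingHom.comp_apply, h1, RingHom.comp_apply,
        ← IsScalarTower.algebraMap_apply E (lev E Ω k') Ω,
        ← IsScalarTower.algebraMap_apply U (lev U Ω k') Ω, hφ]
  exact RingHom.congr_fun e x

end intoE

end Crest.Agent.R013.LemC623
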