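import Crest.Agent.R013.LemC8_623

/-!
# LEMW (row 13, part B): the function of slope one over the algebraic closure of the constants, from
the output of B-NB
-/

set_option autoImplicit false
set_option linter.unusedSectionVars false
set_option linter.style.haveILetI false

namespace Crest.Agent.R013.LemC623

open Module Polynomial Crest.Agent.R013.Gl946 Crest.Agent.R013.Desc_372
  Crest.Agent.R013.Desc_372.CE
open Crest.Agent.R013.LemW623 Crest.Agent.R013.RR7_948 Crest.Agent.R013.RR8_948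
  Crest.Agent.R013.RR9_948 Crest.Agent.R013.RR11_948
open Crest.Agent.R013.CutCov_92 Crest.Agent.R013.NB_92
open scoped NNReal

/-- **DIV** in the form used by LEMW (universe 0): `Pic⁰` is divisible over an algebraically closed
field of characteristic zero. -/
def DIVStmt : Prop :=
  ∀ (κ W : Type) [Field κ] [IsAlgClosed κ] [CharZero κ] [Field W] [Algebra κ W]
    [Algebra (RatFunc κ) W] [IsScalarTower κ (RatFunc κ) W] [FiniteDimensional (RatFunc κ) W]
    [Algebra.IsSeparable (RatFunc κ) W], DivPic κ W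

section

variable {k E Ω : Type} [NontriviallyNormedField k] [ProperSpace k] [IsUltrametricDist k]
  [CharZero k] [NormedField E] [NormedAlgebra k E] [IsUltrametricDist E] [CompleteSpace E]
  [NormedField Ω] [NormedAlgebra k Ω] [NormedAlgebra E Ω] [IsScalarTower k E Ω]
  [IsUltrametricDist Ω] [IsAlgClosed Ω] {y : E}

/-- **The function of slope one over `κ`.** -/
theorem exists_f_kappa (hDIV : DIVStmt) (hG : IsGauss k y) {ϖ : k} (hϖ : IsUnif ϖ)
    (hd : DenseRat k y) {n : ℕ} (hn : 0 < n) {U V : Type} [Field U] [Algebra k U] [CommRing V]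
    [Algebra E V] {d : ℕ} (X : Edge (gaussDatum hG hϖ hd) V d) (j : U →+* V) (σ : V →ₐ[E] E)
    (Am Ap : Subring E) (hNB : NBOut (gaussDatum hG hϖ hd) Am Ap U V d X j σ)
    (xU : U) (hjx : σ (j xU) = y) [Algebra U Ω] [IsScalarTower k U Ω]
    (hUΩ : ∀ u, algebraMap U Ω u = algebraMap E Ω (σ (j u)))
    (κ : IntermediateField k Ω) [Algebra.IsAlgebraic k κ] [IsAlgClosed κ] :
    ∃ (_ : Algebra (RatFunc k) U) (_ : IsScalarTower k (RatFunc k) U)
      (_ : FiniteDimensional (RatFunc k) U)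
      (_ : Algebra (RatFunc κ) (lev U Ω κ)) (_ : IsScalarTower κ (RatFunc κ) (lev U Ω κ))
      (_ : FiniteDimensional (RatFunc κ) (lev U Ω κ))
      (_ : Algebra.IsSeparable (RatFunc κ) (lev U Ω κ)) (f : lev U Ω κ), f ≠ 0 ∧
      (∀ P : Pl κ (lev U Ω κ), (n : ℤ) ∣ divf (k := κ) f P) ∧
      ∀ θ : lev U Ω κ →+* lev E Ω κ, (∀ x, ((θ x : lev E Ω κ) : Ω) = x) →
        (n : ℤ) ∣ (bk_kappa κ hG hd).ord (θ f) - 1 := by
  classical
  have hVnt : Nontrivial V := ⟨⟨X.e, 0, hNB.e_ne⟩⟩
  have hfin : Module.Finite E V := hNB.finite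
  have hred : IsReduced V := hNB.red
  have hnz : NeZero n := ⟨hn.ne'⟩
  have hcE := algClosed_in Ω hG hd
  -- `φ : U → E`
  let φ : U →+* E := (σ : V →+* E).comp j
  have hφU : ∀ u, algebraMap U Ω u = algebraMap E Ω (φ u) := hUΩ
  have hφk' := hφk (k := k) φ hφU
  have hjF : ∀ z ∈ (gaussDatum hG hϖ hd).F0, ∀ u : U, φ u = z → j u = algebraMap E V z := by
    intro z hz u hu
    obtain ⟨u', hu'⟩ := (hNB.mem_L _).1 (hNB.F0_L z hz)
    have h1 : φ u' = z := by
      change σ (j u') = z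
      rw [hu', AlgHom.commutes]; rfl
    have h2 : u = u' := φ.injective (by rw [hu, h1])
    rw [h2, hu']
  have hKc : ∀ c : k, algebraMap k E c ∈ (gaussDatum hG hϖ hd).F0 := fun c =>
    ⟨C c, 1, one_ne_zero, by simp⟩
  have hjk : ∀ c : k, j (algebraMap k U c) = algebraMap E V (algebraMap k E c) := fun c =>
    hjF _ (hKc c) _ (hφk' c)
  have hKy : y ∈ (gaussDatum hG hϖ hd).F0 := ⟨Polynomial.X, 1, one_ne_zero, by simp⟩
  have hjx' : j xU = algebraMap E V y := hjF _ hKy _ hjx
  -- context of `U`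
  have hxU : Transcendental k xU := by
    intro h
    have h1 : IsAlgebraic k (φ xU) := by
      obtain ⟨p, hp, e⟩ := h
      refine ⟨p, hp, ?_⟩
      have h2 := congrArg φ e
      rw [map_zero, aeval_def, hom_eval₂] at h2
      rw [aeval_def]
      have h3 : φ.comp (algebraMap k U) = algebraMap k E := RingHom.ext hφk'
      rw [h3] at h2
      exact h2
    have h2 : φ xU = y := hjx
    rw [h2] at h1
    exact gauss_transc hG h1
  letI aU : Algebra (RatFunc k) U := RR20_948.ratAlg xU hxU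
  haveI tU : IsScalarTower k (RatFunc k) U := RR20_948.ratAlg_tower xU hxU
  have hxK : xK k U = xU := RR20_948.ratAlg_xK xU hxU
  let ρ : RatFunc k →ₐ[k] E := RR20_948.ratHom y (gauss_transc hG)
  have hρX : ρ RatFunc.X = y := RR20_948.ratHom_X y (gauss_transc hG)
  have hjρ : ∀ r, j (algebraMap (RatFunc k) U r) = algebraMap E V (ρ r) := by
    intro r
    have : j.comp (algebraMap (RatFunc k) U) =
        (algebraMap E V).comp (ρ : RatFunc k →+* E) := by
      refine ratFunc_ext (fun c => ?_) ?_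
      · rw [RingHom.comp_apply, ← IsScalarTower.algebraMap_apply k (RatFunc k) U, hjk,
          RingHom.comp_apply]
        congr 1
        exact (ρ.commutes c).symm
      · rw [RingHom.comp_apply, RingHom.comp_apply]
        change j (xK k U) = algebraMap E V (ρ RatFunc.X)
        rw [hxK, hjx', hρX]
    exact RingHom.congr_fun this r
  obtain ⟨bU, hbU⟩ := exists_basisU (k := k) X j hNB.mem_L (ρ : RatFunc k →+* E)
    (fun z => mem_KY_iff hG ρ hρX z) hjρ
  haveI fU : FiniteDimensional (RatFunc k) U := Module.Finite.of_basis bU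
  have hcU : algebraicClosure k U = ⊥ := algClosed_of_hom φ hφk' hcE
  haveI ceU : CE k κ U (lev U Ω κ) := ce_inside k U hcU κ
  haveI ceE : CE k κ E (lev E Ω κ) := ce_inside k E hcE κ
  letI aU' : Algebra (RatFunc κ) (lev U Ω κ) := ratCE k κ U (lev U Ω κ)
  haveI tU' : IsScalarTower κ (RatFunc κ) (lev U Ω κ) := ratCE_tower k κ U (lev U Ω κ)
  have hxU' : xK κ (lev U Ω κ) = algebraMap U (lev U Ω κ) (xK k U) := ratCE_xK k κ U (lev U Ω κ)
  haveI fU' : FiniteDimensional (RatFunc κ) (lev U Ω κ) := finite_rat k κ U (lev U Ω κ) hxU'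
  haveI hκ0 : CharZero κ := charZero_of_injective_algebraMap (algebraMap k κ).injective
  haveI : CharZero (RatFunc κ) := charZero_of_injective_algebraMap
    (algebraMap κ (RatFunc κ)).injective
  haveI sU' : Algebra.IsSeparable (RatFunc κ) (lev U Ω κ) := inferInstance
  -- the cut cover
  obtain ⟨W, fW, aW, ⟨C⟩⟩ := exists_cutCover X j hNB.mem_L hNB.F0_L n hNB.nonbridge hNB.e_ne
  have hjL : ∀ v, v ∈ X.L → ∃ u, j u = v := fun v hv => (hNB.mem_L v).1 hv
  haveI fUW : FiniteDimensional U W := C.finiteDimensional hjL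
  let ψ : W →+* E := (σ : V →+* E).comp (C.bb 0)
  have hψU : ∀ u, ψ (algebraMap U W u) = φ u := fun u => by
    change σ (C.bb 0 (algebraMap U W u)) = σ (j u)
    rw [C.b_alg]
  letI aWΩ : Algebra W Ω := ((algebraMap E Ω).comp ψ).toAlgebra
  have hψW : ∀ w, algebraMap W Ω w = algebraMap E Ω (ψ w) := fun w => rfl
  letI akW : Algebra k W := ((algebraMap U W).comp (algebraMap k U)).toAlgebra
  haveI tkUW : IsScalarTower k U W := IsScalarTower.of_algebraMap_eq fun c => rfl
  haveI tUWΩ : IsScalarTower U W Ω := IsScalarTower.of_algebraMap_eq fun u => by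
    rw [hψW, hψU, hφU]
  haveI tkWΩ : IsScalarTower k W Ω := IsScalarTower.of_algebraMap_eq fun c => by
    rw [IsScalarTower.algebraMap_apply k U W, ← IsScalarTower.algebraMap_apply U W Ω,
      ← IsScalarTower.algebraMap_apply k U Ω]
  have hcW : algebraicClosure k W = ⊥ := algClosed_of_hom ψ (hφk ψ hψW) hcE
  haveI ceW : CE k κ W (lev W Ω κ) := ce_inside k W hcW κ
  letI aRW : Algebra (RatFunc k) W :=
    ((algebraMap U W).comp (algebraMap (RatFunc k) U)).toAlgebra
  haveI tRUW : IsScalarTower (RatFunc k) U W := IsScalarTower.of_algebraMap_eq fun c => rfl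
  haveI tkRW : IsScalarTower k (RatFunc k) W := IsScalarTower.of_algebraMap_eq fun c => by
    rw [IsScalarTower.algebraMap_apply (RatFunc k) U W,
      ← IsScalarTower.algebraMap_apply k (RatFunc k) U, ← IsScalarTower.algebraMap_apply k U W]
  haveI fRW : FiniteDimensional (RatFunc k) W := FiniteDimensional.trans (RatFunc k) U W
  have hxW : xK k W = algebraMap U W (xK k U) := rfl
  letI aW' : Algebra (RatFunc κ) (lev W Ω κ) := ratCE k κ W (lev W Ω κ)
  haveI tW' : IsScalarTower κ (RatFunc κ) (lev W Ω κ) := ratCE_tower k κ W (lev W Ω κ)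
  have hxW' : xK κ (lev W Ω κ) = algebraMap W (lev W Ω κ) (xK k W) := ratCE_xK k κ W (lev W Ω κ)
  haveI fW' : FiniteDimensional (RatFunc κ) (lev W Ω κ) := finite_rat k κ W (lev W Ω κ) hxW'
  haveI sW' : Algebra.IsSeparable (RatFunc κ) (lev W Ω κ) := inferInstance
  -- `θ`
  obtain ⟨θ₀, hθ1, hθ2, hθ3⟩ := exists_intoE (k := k) φ hφU hcU κ
  -- the matrix entries
  have hmapU : ∀ z ∈ AU k y, algebraMap E (lev E Ω κ) z ∈ unionAlg κ (AUl Ω y) (AUl_mono y) :=
    fun z hz => AU_le κ y hz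
  have hmapP : ∀ z ∈ AP hG, algebraMap E (lev E Ω κ) z ∈ unionAlg κ (APl Ω hG) (APl_mono hG) :=
    fun z hz => AP_le κ hG hz
  have hkE : ∀ c : k, algebraMap E (lev E Ω κ) (algebraMap k E c) =
      algebraMap κ (lev E Ω κ) (algebraMap k κ c) := fun c => by
    rw [← IsScalarTower.algebraMap_apply, ← IsScalarTower.algebraMap_apply]
  have hα : ∀ w i, algebraMap E (lev E Ω κ) (X.b.repr (C.a 0 w) i) ∈
      Fr (unionAlg κ (AUl Ω y) (AUl_mono y)) (algebraMap E (lev E Ω κ) y)⁻¹ := by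
    intro w i
    have h1 : X.b.repr (C.a 0 w) i ∈ RU k y := (X.mem_VU _).1 (C.a_mem 0 w) i
    rw [mem_RU_iff_Fr hG] at h1
    exact map_Fr (algebraMap E (lev E Ω κ)) (algebraMap k κ) hkE (by rw [map_inv₀]) hmapU h1
  have hβ : ∀ w i, algebraMap E (lev E Ω κ) (X.b.repr (C.bb 0 w) i) ∈
      Fr (unionAlg κ (APl Ω hG) (APl_mono hG)) (algebraMap E (lev E Ω κ) y) := by
    intro w i
    have h1 : X.b.repr (C.bb 0 w) i ∈ FP hG hϖ hd := (X.mem_VP _).1 (C.b_mem 0 w) i
    rw [mem_FP_iff_Fr hG hϖ hd] at h1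
    exact map_Fr (algebraMap E (lev E Ω κ)) (algebraMap k κ) hkE rfl hmapP h1
  obtain ⟨f, hf0, hfd, hfo⟩ := exists_slope_ce (k := k) (κ := κ) (U := U) (U' := lev U Ω κ)
    (W := W) (W' := lev W Ω κ) (bk_kappa κ hG hd) hxU' (by rw [hxW', hxW]) X.b bU j hjk
    (by rw [hxK, hjx']) hbU (C.a 0) (C.bb 0) (C.a_alg 0) (C.b_alg 0) hα hβ X.e X.he hNB.e_ne σ
    (fun v => by rw [mul_comm]; exact hNB.smul v) C.σ
    (fun w => by rw [C.b_σ, C.glue_e])
    (fun w => C.glue_e' 0 w) C.orderOf_σ hn (C.finrank_eq hjL) (hDIV κ (lev W Ω κ)) θ₀ hθ2 hθ3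
  refine ⟨aU, tU, fU, aU', tU', fU', sU', f, hf0, hfd, ?_⟩
  intro θ hθ
  have : θ = θ₀ := RingHom.ext fun x => Subtype.ext (by rw [hθ, hθ1])
  rw [this]
  exact hfo

end

end Crest.Agent.R013.LemC623
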