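import Mathlib

/-!
# Lemma D of #2097 (S1): exact order `m` for free (row 13, helper323)

`F` a complete nontrivially normed field of characteristic zero, `V` a finite dimensional `F`-space,
`f : ι → (F → V)` analytic at `0`, linearly independent as germs over `F`,
`m * dim V < card ι`.  Then arbitrarily close to `0` there are a point `s` and a combination
`g = ∑ c i • f i` whose order at `s` is exactly `m`.
-/

namespace Crest.Agent.R013.LemD_323

open Filter Topology

variable {F : Type*} [NontriviallyNormedField F]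

/-- the ring of germs at `0` of analytic functions -/
def Og (F : Type*) [NontriviallyNormedField F] : Subring ((𝓝 (0 : F)).Germ F) where
  carrier := {g | ∃ f : F → F, AnalyticAt F f 0 ∧ (f : (𝓝 (0 : F)).Germ F) = g}
  mul_mem' := by
    rintro a b ⟨f, hf, rfl⟩ ⟨g, hg, rfl⟩
    exact ⟨f * g, hf.mul hg, rfl⟩
  one_mem' := ⟨1, analyticAt_const, rfl⟩
  add_mem' := by
    rintro a b ⟨f, hf, rfl⟩ ⟨g, hg, rfl⟩
    exact ⟨f + g, hf.add hg, rfl⟩
  zero_mem' := ⟨0, analyticAt_const, rfl⟩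
  neg_mem' := by
    rintro a ⟨f, hf, rfl⟩
    exact ⟨-f, hf.neg, rfl⟩

theorem ev_zero_of_mul {f g : F → F} (hf : AnalyticAt F f 0) (hg : AnalyticAt F g 0)
    (h : ∀ᶠ z in 𝓝 (0 : F), f z * g z = 0) :
    (∀ᶠ z in 𝓝 (0 : F), f z = 0) ∨ (∀ᶠ z in 𝓝 (0 : F), g z = 0) := by
  rcases hf.eventually_eq_zero_or_eventually_ne_zero with h1 | h1
  · exact Or.inl h1
  · refine Or.inr ?_
    rcases hg.eventually_eq_zero_or_eventually_ne_zero with h2 | h2
    · exact h2
    · exfalso
      have h3 : ∀ᶠ z in 𝓝[≠] (0 : F), False := by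
        filter_upwards [h1, h2, h.filter_mono nhdsWithin_le_nhds] with z a b c
        exact (mul_ne_zero a b) c
      exact h3.exists.elim fun _ h => h

instance : IsDomain (Og F) where
  exists_pair_ne := by
    refine ⟨0, 1, fun h => ?_⟩
    have h1 : ((0 : F → F) : (𝓝 (0 : F)).Germ F) = ((1 : F → F) : (𝓝 (0 : F)).Germ F) :=
      congrArg Subtype.val h
    have h2 := (Filter.Germ.coe_eq.mp h1).self_of_nhds
    simp at h2
  mul_left_cancel_of_ne_zero := by
    rintro ⟨a, f, hf, rfl⟩ ha ⟨b, g, hg, rfl⟩ ⟨c, g', hg', rfl⟩ h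
    have h1 : ((f * g : F → F) : (𝓝 (0 : F)).Germ F) = ((f * g' : F → F) : (𝓝 (0 : F)).Germ F) :=
      congrArg Subtype.val h
    have h2 := Filter.Germ.coe_eq.mp h1
    have h3 : ∀ᶠ z in 𝓝 (0 : F), f z * (g - g') z = 0 := by
      filter_upwards [h2] with z hz
      simp only [Pi.mul_apply, Pi.sub_apply] at hz ⊢
      rw [mul_sub, hz, sub_self]
    apply Subtype.ext
    show (g : (𝓝 (0 : F)).Germ F) = g'
    rcases ev_zero_of_mul hf (hg.sub hg') h3 with h4 | h4
    · exact absurd (Subtype.ext (Filter.Germ.coe_eq.mpr h4)) ha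
    · refine Filter.Germ.coe_eq.mpr ?_
      filter_upwards [h4] with z hz
      exact sub_eq_zero.mp hz
  mul_right_cancel_of_ne_zero := by
    rintro ⟨a, f, hf, rfl⟩ ha ⟨b, g, hg, rfl⟩ ⟨c, g', hg', rfl⟩ h
    have h1 : ((g * f : F → F) : (𝓝 (0 : F)).Germ F) = ((g' * f : F → F) : (𝓝 (0 : F)).Germ F) :=
      congrArg Subtype.val h
    have h2 := Filter.Germ.coe_eq.mp h1
    have h3 : ∀ᶠ z in 𝓝 (0 : F), f z * (g - g') z = 0 := by
      filter_upwards [h2] with z hz
      simp only [Pi.mul_apply, Pi.sub_apply] at hz ⊢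
      rw [mul_sub, mul_comm, hz, mul_comm, sub_self]
    apply Subtype.ext
    show (g : (𝓝 (0 : F)).Germ F) = g'
    rcases ev_zero_of_mul hf (hg.sub hg') h3 with h4 | h4
    · exact absurd (Subtype.ext (Filter.Germ.coe_eq.mpr h4)) ha
    · refine Filter.Germ.coe_eq.mpr ?_
      filter_upwards [h4] with z hz
      exact sub_eq_zero.mp hz

/-- more unknowns than equations: a non trivial analytic relation -/
theorem exists_relation {ι ν : Type*} [Fintype ι] [Fintype ν] (A : ι → ν → F → F)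
    (hA : ∀ α i, AnalyticAt F (A α i) 0) (hcard : Fintype.card ι < Fintype.card ν) :
    ∃ a : ν → F → F, (∀ i, AnalyticAt F (a i) 0) ∧ (∃ j, ¬ ∀ᶠ z in 𝓝 (0 : F), a j z = 0) ∧
      ∀ α, ∀ᶠ z in 𝓝 (0 : F), ∑ i, a i z * A α i z = 0 := by
  classical
  obtain ⟨e⟩ := Function.Embedding.nonempty_of_card_le hcard.le
  have hns : ¬ Function.Surjective e := fun hs =>
    absurd (Fintype.card_le_of_surjective e hs) (not_le.mpr hcard)
  obtain ⟨r0, hr0⟩ := not_forall.mp hns
  let B : ν → ν → F → F := fun r i => if h : ∃ α, e α = r then A h.choose i else 0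
  have hB : ∀ r i, AnalyticAt F (B r i) 0 := by
    intro r i
    by_cases h : ∃ α, e α = r
    · simpa only [B, dif_pos h] using hA _ i
    · simp only [B, dif_neg h]; exact (analyticAt_const (v := (0 : F)))
  let M : Matrix ν ν (Og F) := fun r i => ⟨_, B r i, hB r i, rfl⟩
  have hdet : M.det = 0 := by
    apply Matrix.det_eq_zero_of_row_eq_zero r0
    intro i
    apply Subtype.ext
    show ((B r0 i : F → F) : (𝓝 (0 : F)).Germ F) = ((0 : F → F) : (𝓝 (0 : F)).Germ F)
    have : B r0 i = 0 := by simp only [B, dif_neg hr0]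
    rw [this]
  obtain ⟨v, hv0, hv⟩ := Matrix.exists_mulVec_eq_zero_iff.mpr hdet
  choose a ha hav using fun i => (v i).2
  refine ⟨a, ha, ?_, ?_⟩
  · obtain ⟨j, hj⟩ := Function.ne_iff.mp hv0
    refine ⟨j, fun h => hj ?_⟩
    apply Subtype.ext
    rw [← hav j]
    exact Filter.Germ.coe_eq.mpr h
  · intro α
    have h1 := congrFun hv (e α)
    have h2 := congrArg Subtype.val h1
    have h3 : ((fun z => ∑ i, B (e α) i z * a i z : F → F) : (𝓝 (0 : F)).Germ F) =
        ((0 : F → F) : (𝓝 (0 : F)).Germ F) := by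
      have h4 : (((M.mulVec v) (e α) : Og F) : (𝓝 (0 : F)).Germ F) =
          ∑ i, ((B (e α) i : F → F) : (𝓝 (0 : F)).Germ F) * ((a i : F → F) : (𝓝 (0 : F)).Germ F) := by
        simp only [Matrix.mulVec, dotProduct]
        rw [AddSubmonoidClass.coe_finsetSum]
        refine Finset.sum_congr rfl fun i _ => ?_
        rw [hav i]
        rfl
      rw [h4] at h2
      rw [show ((0 : F → F) : (𝓝 (0 : F)).Germ F) = (((0 : ν → Og F) (e α) : Og F) : (𝓝 (0 : F)).Germ F)
        from rfl, ← h2]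
      have h5 : ∀ s : Finset ν, ((fun z => ∑ i ∈ s, B (e α) i z * a i z : F → F) :
          (𝓝 (0 : F)).Germ F) = ∑ i ∈ s, ((B (e α) i : F → F) : (𝓝 (0 : F)).Germ F) *
            ((a i : F → F) : (𝓝 (0 : F)).Germ F) := by
        intro s
        induction s using Finset.induction_on with
        | empty => simp; rfl
        | insert i s hi ih =>
          rw [Finset.sum_insert hi, ← ih]
          simp only [Finset.sum_insert hi]
          rfl
      exact h5 Finset.univ
    have h6 := Filter.Germ.coe_eq.mp h3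
    filter_upwards [h6] with z hz
    have hα : ∃ β, e β = e α := ⟨α, rfl⟩
    have hch : hα.choose = α := e.injective hα.choose_spec
    have hBA : ∀ i, B (e α) i z = A α i z := by
      intro i
      simp only [B, dif_pos hα, hch]
    simpa [hBA, mul_comm] using hz

theorem z_mul_deriv [CompleteSpace F] {a g : F → F} {k : ℕ} (hg : AnalyticAt F g 0)
    (h : ∀ᶠ z in 𝓝 (0 : F), a z = z ^ k * g z) :
    ∀ᶠ z in 𝓝 (0 : F), z * deriv a z = z ^ k * (k * g z + z * deriv g z) := by
  have h1 : ∀ᶠ z in 𝓝 (0 : F), deriv a z = deriv (fun z => z ^ k * g z) z :=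
    Filter.EventuallyEq.deriv h
  filter_upwards [h1, hg.eventually_analyticAt] with z hz hgz
  rw [hz]
  have h2 : HasDerivAt (fun z => z ^ k * g z) ((k : F) * z ^ (k - 1) * g z + z ^ k * deriv g z) z :=
    (hasDerivAt_pow k z).mul hgz.differentiableAt.hasDerivAt
  rw [h2.deriv]
  rcases Nat.eq_zero_or_pos k with hk | hk
  · subst hk; simp
  · obtain ⟨j, rfl⟩ : ∃ j, k = j + 1 := ⟨k - 1, by omega⟩
    simp only [Nat.add_sub_cancel]
    ring

/-- equal Wronskian orders -/
theorem order_eq [CompleteSpace F] [CharZero F] {a b g h : F → F} {k n : ℕ}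
    (hg : AnalyticAt F g 0) (hh : AnalyticAt F h 0) (hg0 : g 0 ≠ 0) (hh0 : h 0 ≠ 0)
    (ha : ∀ᶠ z in 𝓝 (0 : F), a z = z ^ k * g z) (hb : ∀ᶠ z in 𝓝 (0 : F), b z = z ^ n * h z)
    (hw : ∀ᶠ z in 𝓝 (0 : F), b z * deriv a z = deriv b z * a z) : k = n := by
  have h1 := z_mul_deriv hg ha
  have h2 := z_mul_deriv hh hb
  have h3 : ∀ᶠ z in 𝓝[≠] (0 : F),
      ((k : F) - n) * (g z * h z) + z * (h z * deriv g z - deriv h z * g z) = 0 := by
    have hne : ∀ᶠ z in 𝓝[≠] (0 : F), z ≠ 0 := self_mem_nhdsWithin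
    filter_upwards [h1.filter_mono nhdsWithin_le_nhds, h2.filter_mono nhdsWithin_le_nhds,
      ha.filter_mono nhdsWithin_le_nhds, hb.filter_mono nhdsWithin_le_nhds,
      hw.filter_mono nhdsWithin_le_nhds, hne] with z e1 e2 e3 e4 e5 e6
    have e7 : b z * (z * deriv a z) = (z * deriv b z) * a z := by
      linear_combination z * e5
    rw [e1, e2, e3, e4] at e7
    have e8 : z ^ (k + n) ≠ 0 := pow_ne_zero _ e6
    have e9 : z ^ (k + n) * (((k : F) - n) * (g z * h z) +
        z * (h z * deriv g z - deriv h z * g z)) = 0 := by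
      rw [pow_add]; linear_combination e7
    exact (mul_eq_zero.mp e9).resolve_left e8
  have hc : ContinuousAt (fun z => ((k : F) - n) * (g z * h z) +
      z * (h z * deriv g z - deriv h z * g z)) 0 := by
    have c1 := hg.continuousAt
    have c2 := hh.continuousAt
    have c3 := hg.deriv.continuousAt
    have c4 := hh.deriv.continuousAt
    fun_prop
  have h4 : Tendsto (fun z => ((k : F) - n) * (g z * h z) +
      z * (h z * deriv g z - deriv h z * g z)) (𝓝[≠] 0) (𝓝 (((k : F) - n) * (g 0 * h 0) +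
      0 * (h 0 * deriv g 0 - deriv h 0 * g 0))) := hc.tendsto.mono_left nhdsWithin_le_nhds
  have h5 : Tendsto (fun z => ((k : F) - n) * (g z * h z) +
      z * (h z * deriv g z - deriv h z * g z)) (𝓝[≠] 0) (𝓝 0) :=
    tendsto_const_nhds.congr' (by filter_upwards [h3] with z hz; exact hz.symm)
  have h6 := tendsto_nhds_unique h4 h5
  rw [zero_mul, add_zero] at h6
  have h7 : (k : F) - n = 0 := by
    rcases mul_eq_zero.mp h6 with h | h
    · exact h
    · exact absurd h (mul_ne_zero hg0 hh0)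
  exact_mod_cast sub_eq_zero.mp h7

theorem const_of_wronskian [CompleteSpace F] [CharZero F] {a b : F → F}
    (ha : AnalyticAt F a 0) (hb : AnalyticAt F b 0) (hb0 : ¬ ∀ᶠ z in 𝓝 (0 : F), b z = 0)
    (hw : ∀ᶠ z in 𝓝 (0 : F), b z * deriv a z = deriv b z * a z) :
    ∃ c : F, ∀ᶠ z in 𝓝 (0 : F), a z = c * b z := by
  have key : ∀ e : F → F, AnalyticAt F e 0 → (¬ ∀ᶠ z in 𝓝 (0 : F), e z = 0) →
      ∃ (n : ℕ) (g : F → F), AnalyticAt F g 0 ∧ g 0 ≠ 0 ∧ ∀ᶠ z in 𝓝 (0 : F), e z = z ^ n * g z := by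
    intro e he h0
    have ht : analyticOrderAt e 0 ≠ ⊤ := fun h => h0 (analyticOrderAt_eq_top.mp h)
    obtain ⟨n, hn⟩ := ENat.ne_top_iff_exists.mp ht
    obtain ⟨g, hg1, hg2, hg3⟩ := (he.analyticOrderAt_eq_natCast).mp hn.symm
    exact ⟨n, g, hg1, hg2, by simpa using hg3⟩
  by_cases ha0 : ∀ᶠ z in 𝓝 (0 : F), a z = 0
  · exact ⟨0, by filter_upwards [ha0] with z hz; rw [hz, zero_mul]⟩
  obtain ⟨n, h, hh, hh0, hbe⟩ := key b hb hb0
  obtain ⟨k, g, hg, hg0, hae⟩ := key a ha ha0
  have hkn : k = n := order_eq hg hh hg0 hh0 hae hbe hw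
  subst hkn
  set c := g 0 / h 0 with hc
  refine ⟨c, ?_⟩
  by_contra hcon
  have he : AnalyticAt F (fun z => a z - c * b z) 0 := ha.sub (analyticAt_const.mul hb)
  have he0 : ¬ ∀ᶠ z in 𝓝 (0 : F), (fun z => a z - c * b z) z = 0 := by
    intro h'
    exact hcon (by filter_upwards [h'] with z hz; exact sub_eq_zero.mp hz)
  obtain ⟨k', g', hg', hg'0, hee⟩ := key _ he he0
  have hwe : ∀ᶠ z in 𝓝 (0 : F), b z * deriv (fun z => a z - c * b z) z =
      deriv b z * (fun z => a z - c * b z) z := by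
    filter_upwards [hw, ha.eventually_analyticAt, hb.eventually_analyticAt] with z e1 e2 e3
    have e4 : HasDerivAt (fun z => a z - c * b z) (deriv a z - c * deriv b z) z :=
      e2.differentiableAt.hasDerivAt.sub (e3.differentiableAt.hasDerivAt.const_mul c)
    rw [e4.deriv]
    show b z * (deriv a z - c * deriv b z) = deriv b z * (a z - c * b z)
    linear_combination e1
  have hk' : k' = k := order_eq hg' hh hg'0 hh0 hee hbe hwe
  subst hk'
  have h3 : ∀ᶠ z in 𝓝[≠] (0 : F), g' z = g z - c * h z := by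
    have hne : ∀ᶠ z in 𝓝[≠] (0 : F), z ≠ 0 := self_mem_nhdsWithin
    filter_upwards [hae.filter_mono nhdsWithin_le_nhds, hbe.filter_mono nhdsWithin_le_nhds,
      hee.filter_mono nhdsWithin_le_nhds, hne] with z e1 e2 e3 e4
    have e5 : z ^ k' ≠ 0 := pow_ne_zero _ e4
    apply mul_left_cancel₀ e5
    rw [← e3, e1, e2]; ring
  have h4 : Tendsto g' (𝓝[≠] 0) (𝓝 (g' 0)) := hg'.continuousAt.tendsto.mono_left nhdsWithin_le_nhds
  have h5 : Tendsto (fun z => g z - c * h z) (𝓝[≠] 0) (𝓝 (g 0 - c * h 0)) :=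
    (hg.continuousAt.sub (continuousAt_const.mul hh.continuousAt)).tendsto.mono_left
      nhdsWithin_le_nhds
  have h6 := tendsto_nhds_unique (h4.congr' h3) h5
  apply hg'0
  rw [h6, hc, div_mul_cancel₀ _ hh0, sub_self]

/-- A set `K` of analytic vectors which is stable under derivation and under combinations
`f a - g b` and contains a non zero vector contains a non zero vector proportional to a constant
vector. -/
theorem exists_const [CompleteSpace F] [CharZero F] {ν : Type*} [Finite ν]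
    (K : (ν → F → F) → Prop)
    (hK0 : ∃ a : ν → F → F, (∀ i, AnalyticAt F (a i) 0) ∧ K a ∧
      ∃ j, ¬ ∀ᶠ z in 𝓝 (0 : F), a j z = 0)
    (hder : ∀ a : ν → F → F, (∀ i, AnalyticAt F (a i) 0) → K a → K (fun i => deriv (a i)))
    (hcomb : ∀ (a b : ν → F → F) (f g : F → F), (∀ i, AnalyticAt F (a i) 0) →
      (∀ i, AnalyticAt F (b i) 0) → AnalyticAt F f 0 → AnalyticAt F g 0 → K a → K b →
      K (fun i z => f z * a i z - g z * b i z)) :
    ∃ (a : ν → F → F) (b : F → F) (c : ν → F), (∀ i, AnalyticAt F (a i) 0) ∧ K a ∧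
      AnalyticAt F b 0 ∧ (¬ ∀ᶠ z in 𝓝 (0 : F), b z = 0) ∧ c ≠ 0 ∧
      ∀ i, ∀ᶠ z in 𝓝 (0 : F), a i z = c i * b z := by
  classical
  cases nonempty_fintype ν
  let supp : (ν → F → F) → Finset ν := fun a =>
    Finset.univ.filter fun i => ¬ ∀ᶠ z in 𝓝 (0 : F), a i z = 0
  have hex : ∃ n : ℕ, ∃ a : ν → F → F, (∀ i, AnalyticAt F (a i) 0) ∧ K a ∧
      (∃ j, ¬ ∀ᶠ z in 𝓝 (0 : F), a j z = 0) ∧ (supp a).card = n := by
    obtain ⟨a, h1, h2, h3⟩ := hK0
    exact ⟨_, a, h1, h2, h3, rfl⟩
  obtain ⟨a, ha, hKa, ⟨j, hj⟩, hcard⟩ := Nat.find_spec hex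
  have hmin : ∀ w : ν → F → F, (∀ i, AnalyticAt F (w i) 0) → K w → (supp w) ⊂ (supp a) →
      ∀ i, ∀ᶠ z in 𝓝 (0 : F), w i z = 0 := by
    intro w hw hKw hlt i
    by_contra hne
    have h1 : (supp w).card < Nat.find hex := by
      rw [← hcard]; exact Finset.card_lt_card hlt
    exact Nat.find_min hex h1 ⟨w, hw, hKw, ⟨i, hne⟩, rfl⟩
  have hKd := hder a ha hKa
  have had : ∀ i, AnalyticAt F (deriv (a i)) 0 := fun i => (ha i).deriv
  have hKw := hcomb (fun i => deriv (a i)) a (a j) (deriv (a j)) had ha (ha j) (had j) hKd hKa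
  have hw : ∀ i, AnalyticAt F (fun z => a j z * deriv (a i) z - deriv (a j) z * a i z) 0 :=
    fun i => ((ha j).mul (had i)).sub ((had j).mul (ha i))
  have hjs : j ∈ supp a := by simp only [supp, Finset.mem_filter, Finset.mem_univ, true_and]; exact hj
  have hlt : supp (fun i z => a j z * deriv (a i) z - deriv (a j) z * a i z) ⊂ supp a := by
    refine (Finset.ssubset_iff_of_subset ?_).mpr ⟨j, hjs, ?_⟩
    · intro i hi
      simp only [supp, Finset.mem_filter, Finset.mem_univ, true_and] at hi ⊢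
      intro h0
      apply hi
      have h1 : ∀ᶠ z in 𝓝 (0 : F), deriv (a i) z = deriv (fun _ => (0 : F)) z :=
        Filter.EventuallyEq.deriv h0
      filter_upwards [h0, h1] with z e1 e2
      rw [e1, e2, deriv_const, mul_zero, mul_zero, sub_zero]
    · simp only [supp, Finset.mem_filter, Finset.mem_univ, true_and, not_not]
      filter_upwards with z
      ring
  have hz := hmin _ hw hKw hlt
  have hc : ∀ i, ∃ c : F, ∀ᶠ z in 𝓝 (0 : F), a i z = c * a j z := by
    intro i
    apply const_of_wronskian (ha i) (ha j) hj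
    filter_upwards [hz i] with z e
    exact sub_eq_zero.mp e
  choose c hc using hc
  refine ⟨a, a j, c, ha, hKa, ha j, hj, ?_, hc⟩
  intro h0
  apply hj
  filter_upwards [hc j] with z e
  rw [e, h0]; simp

end Crest.Agent.R013.LemD_323
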