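import Crest.Agent.R013.LemC8_623
import Crest.Agent.R013.BTor5_914

/-!
# LEMW (row 13, part B): divisibility of orders at a finite level
-/

set_option autoImplicit false
set_option linter.unusedSectionVars false
set_option linter.style.haveILetI false

namespace Crest.Agent.R013.LemC623

open Module Polynomial WithZero Crest.Agent.R013.Desc_372 Crest.Agent.R013.Desc_372.CE
open Crest.Agent.R013.LemW623 Crest.Agent.R013.RR7_948 Crest.Agent.R013.RR8_948
  Crest.Agent.R013.RR9_948 Crest.Agent.R013.RR11_948 Crest.Agent.R013.BTor4_914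
open Crest.NumberTheoryR.Sect
open scoped NNReal

/-- from real valued to integral valuations -/
theorem exp_of_ldiv {k L : Type*} [Field k] [Field L] [Algebra k L] {n : ℕ} (hn : 0 < n) {f : L}
    (hf : f ≠ 0) (h : LDiv k n f) (v : Valuation L ℤᵐ⁰)
    (hv : ∀ c : k, c ≠ 0 → v (algebraMap k L c) = 1) (hs : Function.Surjective v) :
    ∃ j : ℤ, v f = exp ((n : ℤ) * j) := by
  have h2 : (2 : ℝ≥0) ≠ 0 := two_ne_zero
  have hmono : StrictMono (WithZeroMulInt.toNNReal h2) :=
    WithZeroMulInt.toNNReal_strictMono one_lt_two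
  set u : Valuation L ℝ≥0 := v.map (WithZeroMulInt.toNNReal h2) hmono.monotone with hu
  have huv : ∀ a, u a = WithZeroMulInt.toNNReal h2 (v a) := fun a => rfl
  obtain ⟨a, ha⟩ := h u ⟨fun c hc => by rw [huv, hv c hc, map_one], by
    obtain ⟨b, hb⟩ := hs (exp 1)
    refine ⟨b, ?_, ?_⟩
    · rw [huv, hb]; exact (_root_.map_ne_zero _).2 exp_ne_zero
    · rw [huv, hb, ← map_one (WithZeroMulInt.toNNReal h2)]
      intro h0
      have h1 := hmono.injective h0
      rw [← exp_zero, exp_inj] at h1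
      exact one_ne_zero h1⟩
  rw [huv, huv, ← map_pow] at ha
  have h3 := hmono.injective ha
  have hva : v a ≠ 0 := by
    intro h0
    rw [h0, zero_pow hn.ne'] at h3
    exact hf ((Valuation.zero_iff v).1 h3)
  refine ⟨log (v a), ?_⟩
  rw [h3, ← exp_log hva, ← exp_nsmul, log_exp, nsmul_eq_mul]

section level

variable {k Ω U : Type*} [Field k] [CharZero k] [Field Ω] [IsAlgClosed Ω] [Algebra k Ω] [Field U]
  [Algebra k U] [Algebra U Ω] [IsScalarTower k U Ω]

/-- `LDiv` at a finite level from the divisor over `κ`. -/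
theorem ldiv_level (hc : algebraicClosure k U = ⊥)
    [Algebra (RatFunc k) U] [IsScalarTower k (RatFunc k) U] [FiniteDimensional (RatFunc k) U]
    (κ : IntermediateField k Ω) [Algebra.IsAlgebraic k κ] [Algebra (RatFunc κ) (lev U Ω κ)]
    [IsScalarTower κ (RatFunc κ) (lev U Ω κ)] [FiniteDimensional (RatFunc κ) (lev U Ω κ)]
    [Algebra.IsSeparable (RatFunc κ) (lev U Ω κ)] (f : lev U Ω κ) {n : ℕ}
    (hdiv : ∀ P : Pl κ (lev U Ω κ), (n : ℤ) ∣ divf (k := κ) f P)
    (k' : IntermediateField k Ω) [FiniteDimensional k k'] (h : k' ≤ κ) (f' : lev U Ω k')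
    (hf' : f' ≠ 0) (e : il U h f' = f) : LDiv k' n f' := by
  classical
  haveI : CE k k' U (lev U Ω k') := ce_inside k U hc k'
  haveI : CE k κ U (lev U Ω κ) := ce_inside k U hc κ
  letI a1 : Algebra k' κ := (IntermediateField.inclusion h).toRingHom.toAlgebra
  letI a2 : Algebra (lev U Ω k') (lev U Ω κ) := (il U h).toAlgebra
  have ha2 : ∀ x, algebraMap (lev U Ω k') (lev U Ω κ) x = il U h x := fun x => rfl
  letI a3 : Algebra k' (lev U Ω κ) := ((algebraMap κ (lev U Ω κ)).comp (algebraMap k' κ)).toAlgebra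
  haveI t1 : IsScalarTower k' κ (lev U Ω κ) := IsScalarTower.of_algebraMap_eq fun c => rfl
  haveI t2 : IsScalarTower k' (lev U Ω k') (lev U Ω κ) :=
    IsScalarTower.of_algebraMap_eq fun c => by
      rw [ha2, il_algebraMap]; rfl
  haveI t3 : IsScalarTower k k' κ := IsScalarTower.of_algebraMap_eq fun c => rfl
  haveI : Algebra.IsAlgebraic k' κ := Algebra.IsAlgebraic.tower_top (K := k) k'
  haveI : CharZero k' := charZero_of_injective_algebraMap (algebraMap k k').injective
  haveI : Algebra.IsSeparable k' κ := inferInstance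
  have hce : CntB1_491.IsCE k k' U (lev U Ω k') := by
    refine ⟨?_, hc⟩
    rw [eq_top_iff]
    intro x _
    obtain ⟨m, c, g, rfl⟩ := exists_sum k k' U (lev U Ω k') x
    exact sum_mem fun i _ => mul_mem (Algebra.subset_adjoin ⟨c i, rfl⟩)
      (Subalgebra.algebraMap_mem _ _)
  have hc' : algebraicClosure k' (lev U Ω k') = ⊥ := hce.hc'
  haveI : CE k' κ (lev U Ω k') (lev U Ω κ) := by
    refine of_hc k' κ (lev U Ω k') (lev U Ω κ) hc' ?_
    rw [eq_top_iff]
    intro x _
    obtain ⟨m, c, g, rfl⟩ := exists_sum k κ U (lev U Ω κ) x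
    refine sum_mem fun i _ => mul_mem (IntermediateField.subset_adjoin _ _ ⟨c i, rfl⟩) ?_
    rw [← il_algebraMapE h (g i), ← ha2]
    exact IntermediateField.algebraMap_mem _ _
  letI : Algebra (RatFunc k') (lev U Ω k') := ratCE k k' U (lev U Ω k')
  haveI : IsScalarTower k' (RatFunc k') (lev U Ω k') := ratCE_tower k k' U (lev U Ω k')
  haveI : FiniteDimensional (RatFunc k') (lev U Ω k') :=
    finite_rat k k' U (lev U Ω k') (ratCE_xK k k' U (lev U Ω k'))
  refine BTor5_914.ldiv_base k' κ (lev U Ω k') (lev U Ω κ) hf'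
    (D := (divf (k := κ) f).mapRange (fun m : ℤ => m / n) (by simp)) ?_
  rw [ha2, e]
  ext P
  rw [Finsupp.smul_apply, Finsupp.mapRange_apply, smul_eq_mul]
  exact (Int.mul_ediv_cancel' (hdiv P)).symm

end level

end Crest.Agent.R013.LemC623
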