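import Crest.Agent.R013.LemD1_323

/-!
# Lemma D of #2097 (S1), second part: the theorem in function form
-/

namespace Crest.Agent.R013.LemD_323

open Filter Topology

variable {F : Type*} [NontriviallyNormedField F]
variable {V : Type*} [NormedAddCommGroup V] [NormedSpace F V]

theorem analyticAt_iter [CompleteSpace V] {f : F → V} {s : F} (hf : AnalyticAt F f s) (l : ℕ) :
    AnalyticAt F (deriv^[l] f) s := by
  induction l with
  | zero => simpa using hf
  | succ l ih =>
    rw [Function.iterate_succ_apply']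
    exact ih.deriv

theorem iter_sum [CompleteSpace V] {ν : Type*} [Fintype ν] (f : ν → F → V) (c : ν → F) (l : ℕ) :
    ∀ s : F, (∀ i, AnalyticAt F (f i) s) →
      deriv^[l] (fun z => ∑ i, c i • f i z) s = ∑ i, c i • deriv^[l] (f i) s := by
  induction l with
  | zero => intro s _; simp
  | succ l ih =>
    intro s hs
    rw [Function.iterate_succ_apply']
    have h1 : deriv^[l] (fun z => ∑ i, c i • f i z) =ᶠ[𝓝 s]
        fun z => ∑ i, c i • deriv^[l] (f i) z := by
      have h2 : ∀ᶠ z in 𝓝 s, ∀ i, AnalyticAt F (f i) z :=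
        Filter.eventually_all.mpr fun i => (hs i).eventually_analyticAt
      filter_upwards [h2] with z hz
      exact ih z hz
    rw [h1.deriv_eq]
    have h3 : HasDerivAt (fun z => ∑ i, c i • deriv^[l] (f i) z)
        (∑ i, c i • deriv (deriv^[l] (f i)) s) s := by
      have := HasDerivAt.sum (u := Finset.univ) (A := fun i z => c i • deriv^[l] (f i) z)
        (A' := fun i => c i • deriv (deriv^[l] (f i)) s) (x := s) (fun i _ =>
          ((analyticAt_iter (hs i) l).differentiableAt.hasDerivAt).const_smul (c i))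
      convert this using 1
      funext z; simp
    rw [h3.deriv]
    refine Finset.sum_congr rfl fun i _ => ?_
    rw [Function.iterate_succ_apply']

/-- LEMMA D (function form). -/
theorem lemD [CompleteSpace F] [CharZero F] [FiniteDimensional F V] {ν : Type*} [Fintype ν]
    (f : ν → F → V) (hf : ∀ i, AnalyticAt F (f i) 0)
    (hli : ∀ c : ν → F, (∀ᶠ z in 𝓝 (0 : F), ∑ i, c i • f i z = 0) → c = 0) (m : ℕ)
    (hcard : m * Module.finrank F V < Fintype.card ν) :
    ∃ᶠ s in 𝓝 (0 : F), ∃ c : ν → F,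
      (∀ l < m, ∑ i, c i • deriv^[l] (f i) s = 0) ∧ ∑ i, c i • deriv^[m] (f i) s ≠ 0 := by
  classical
  have : CompleteSpace V := FiniteDimensional.complete F V
  by_contra hcon
  have H : ∀ᶠ s in 𝓝 (0 : F), ∀ c : ν → F,
      (∀ l < m, ∑ i, c i • deriv^[l] (f i) s = 0) → ∑ i, c i • deriv^[m] (f i) s = 0 := by
    filter_upwards [Filter.not_frequently.mp hcon] with s hs c hc
    by_contra h0
    exact hs ⟨c, hc, h0⟩
  have hD : ∀ l i, AnalyticAt F (deriv^[l] (f i)) 0 := fun l i => analyticAt_iter (hf i) l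
  let K : (ν → F → F) → Prop := fun a =>
    ∀ l < m, ∀ᶠ z in 𝓝 (0 : F), ∑ i, a i z • deriv^[l] (f i) z = 0
  have hKle : ∀ a, K a → ∀ l ≤ m, ∀ᶠ z in 𝓝 (0 : F), ∑ i, a i z • deriv^[l] (f i) z = 0 := by
    intro a ha l hl
    rcases hl.lt_or_eq with h | h
    · exact ha l h
    · subst h
      have h1 : ∀ᶠ z in 𝓝 (0 : F), ∀ l' : Fin l, ∑ i, a i z • deriv^[(l' : ℕ)] (f i) z = 0 :=
        Filter.eventually_all.mpr fun l' => ha l' l'.2
      filter_upwards [h1, H] with z e1 e2
      exact e2 (fun i => a i z) fun l' hl' => e1 ⟨l', hl'⟩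
  have hK0 : ∃ a : ν → F → F, (∀ i, AnalyticAt F (a i) 0) ∧ K a ∧
      ∃ j, ¬ ∀ᶠ z in 𝓝 (0 : F), a j z = 0 := by
    let B := Module.finBasis F V
    have hcard' : Fintype.card (Fin m × Fin (Module.finrank F V)) < Fintype.card ν := by
      simpa using hcard
    obtain ⟨a, ha, hne, hrel⟩ := exists_relation (F := F)
      (fun (α : Fin m × Fin (Module.finrank F V)) (i : ν) (z : F) =>
        B.coord α.2 (deriv^[(α.1 : ℕ)] (f i) z)) (fun α i => by
          have h1 : AnalyticAt F (fun z => (LinearMap.toContinuousLinearMap (B.coord α.2))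
              (deriv^[(α.1 : ℕ)] (f i) z)) 0 :=
            ((LinearMap.toContinuousLinearMap (B.coord α.2)).analyticAt _).comp (hD α.1 i)
          exact h1) hcard'
    refine ⟨a, ha, ?_, hne⟩
    intro l hl
    have h1 : ∀ᶠ z in 𝓝 (0 : F), ∀ j : Fin (Module.finrank F V),
        ∑ i, a i z * B.coord j (deriv^[l] (f i) z) = 0 :=
      Filter.eventually_all.mpr fun j => hrel (⟨l, hl⟩, j)
    filter_upwards [h1] with z hz
    apply B.ext_elem
    intro j
    have := hz j
    simpa [map_sum, Finsupp.finsetSum_apply] using this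
  have hder : ∀ a : ν → F → F, (∀ i, AnalyticAt F (a i) 0) → K a → K (fun i => deriv (a i)) := by
    intro a ha hKa l hl
    have h1 := hKle a hKa l hl.le
    have h2 := hKle a hKa (l + 1) hl
    have h3 : ∀ᶠ z in 𝓝 (0 : F), deriv (fun z => ∑ i, a i z • deriv^[l] (f i) z) z =
        deriv (fun _ => (0 : V)) z := Filter.EventuallyEq.deriv h1
    have h4 : ∀ᶠ z in 𝓝 (0 : F), ∀ i, AnalyticAt F (a i) z :=
      Filter.eventually_all.mpr fun i => (ha i).eventually_analyticAt
    have h5 : ∀ᶠ z in 𝓝 (0 : F), ∀ i, AnalyticAt F (deriv^[l] (f i)) z :=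
      Filter.eventually_all.mpr fun i => (hD l i).eventually_analyticAt
    filter_upwards [h2, h3, h4, h5] with z e2 e3 e4 e5
    have h6 : HasDerivAt (fun z => ∑ i, a i z • deriv^[l] (f i) z)
        (∑ i, (a i z • deriv (deriv^[l] (f i)) z + deriv (a i) z • deriv^[l] (f i) z)) z := by
      have := HasDerivAt.sum (u := Finset.univ) (A := fun i z => a i z • deriv^[l] (f i) z)
        (A' := fun i => a i z • deriv (deriv^[l] (f i)) z + deriv (a i) z • deriv^[l] (f i) z)
        (x := z) (fun i _ =>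
          (e4 i).differentiableAt.hasDerivAt.smul (e5 i).differentiableAt.hasDerivAt)
      convert this using 1
      funext z; simp
    rw [h6.deriv, deriv_const, Finset.sum_add_distrib] at e3
    have h7 : ∑ i, a i z • deriv (deriv^[l] (f i)) z = 0 := by
      rw [← e2]
      refine Finset.sum_congr rfl fun i _ => ?_
      rw [Function.iterate_succ_apply']
    rw [h7, zero_add] at e3
    exact e3
  have hcomb : ∀ (a b : ν → F → F) (f g : F → F), (∀ i, AnalyticAt F (a i) 0) →
      (∀ i, AnalyticAt F (b i) 0) → AnalyticAt F f 0 → AnalyticAt F g 0 → K a → K b →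
      K (fun i z => f z * a i z - g z * b i z) := by
    intro a b f' g' ha hb hf' hg' hKa hKb l hl
    filter_upwards [hKa l hl, hKb l hl] with z e1 e2
    calc ∑ i, (f' z * a i z - g' z * b i z) • deriv^[l] (f i) z
        = f' z • ∑ i, a i z • deriv^[l] (f i) z - g' z • ∑ i, b i z • deriv^[l] (f i) z := by
          rw [Finset.smul_sum, Finset.smul_sum, ← Finset.sum_sub_distrib]
          refine Finset.sum_congr rfl fun i _ => ?_
          rw [sub_smul, mul_smul, mul_smul]
      _ = 0 := by rw [e1, e2]; simp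
  obtain ⟨a, b, c, ha, hKa, hb, hb0, hc0, hab⟩ := exists_const (F := F) K hK0 hder hcomb
  have h1 := hKle a hKa 0 (Nat.zero_le m)
  have h2 : ∀ᶠ z in 𝓝 (0 : F), ∀ i, a i z = c i * b z := Filter.eventually_all.mpr hab
  have h3 : ∀ᶠ z in 𝓝 (0 : F), b z • ∑ i, c i • f i z = 0 := by
    filter_upwards [h1, h2] with z e1 e2
    rw [← e1, Finset.smul_sum]
    refine Finset.sum_congr rfl fun i _ => ?_
    rw [e2 i, Function.iterate_zero, id, smul_smul, mul_comm]
  have hg : AnalyticAt F (fun z => ∑ i, c i • f i z) 0 := by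
    have := Finset.analyticAt_sum (𝕜 := F) (f := fun i z => c i • f i z) (c := (0 : F))
      Finset.univ (fun i _ => (hf i).const_smul (c := c i))
    convert this using 1
    funext z; simp
  rcases hg.eventually_eq_zero_or_eventually_ne_zero with h4 | h4
  · exact hc0 (hli c h4)
  · rcases hb.eventually_eq_zero_or_eventually_ne_zero with h5 | h5
    · exact hb0 h5
    · have h6 : ∀ᶠ z in 𝓝[≠] (0 : F), False := by
        filter_upwards [h4, h5, h3.filter_mono nhdsWithin_le_nhds] with z e1 e2 e3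
        exact (smul_ne_zero e2 e1) e3
      exact h6.exists.elim fun _ h => h

/-- LEMMA D, iterated derivatives of the combination itself. -/
theorem lemD' [CompleteSpace F] [CharZero F] [FiniteDimensional F V] {ν : Type*} [Fintype ν]
    (f : ν → F → V) (hf : ∀ i, AnalyticAt F (f i) 0)
    (hli : ∀ c : ν → F, (∀ᶠ z in 𝓝 (0 : F), ∑ i, c i • f i z = 0) → c = 0) (m : ℕ)
    (hcard : m * Module.finrank F V < Fintype.card ν) :
    ∃ᶠ s in 𝓝 (0 : F), ∃ c : ν → F,
      (∀ l < m, iteratedDeriv l (fun z => ∑ i, c i • f i z) s = 0) ∧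
        iteratedDeriv m (fun z => ∑ i, c i • f i z) s ≠ 0 := by
  have : CompleteSpace V := FiniteDimensional.complete F V
  have h2 : ∀ᶠ z in 𝓝 (0 : F), ∀ i, AnalyticAt F (f i) z :=
    Filter.eventually_all.mpr fun i => (hf i).eventually_analyticAt
  refine ((lemD f hf hli m hcard).and_eventually h2).mono ?_
  rintro s ⟨⟨c, h3, h4⟩, h5⟩
  refine ⟨c, fun l hl => ?_, ?_⟩
  · rw [iteratedDeriv_eq_iterate, iter_sum f c l s h5]; exact h3 l hl
  · rw [iteratedDeriv_eq_iterate, iter_sum f c m s h5]; exact h4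

end Crest.Agent.R013.LemD_323
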