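import Crest.Agent.R013.LemC9_623
import Crest.Agent.R013.LemD1_623
import Crest.Agent.R013.Half2_930

/-!
# LEMW (row 13, part B): the final statement

From the output of B-NB (a non-bridge over `U` at the circle field `E`, with values in the annulus
field of width `s`) we get, after a finite extension `k'` of the constants, `f ∈ U k'` with all orders
divisible by `n` and `f = y z ^ n` with `z ∈ E k'`.
-/

set_option autoImplicit false
set_option linter.unusedSectionVars false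
set_option linter.style.haveILetI false

namespace Crest.Agent.R013.LemC623

open Module Polynomial Crest.Agent.R013.Gl946 Crest.Agent.R013.Desc_372
  Crest.Agent.R013.Desc_372.CE
open Crest.Agent.R013.LemW623 Crest.Agent.R013.RR7_948 Crest.Agent.R013.RR8_948
  Crest.Agent.R013.RR9_948 Crest.Agent.R013.RR11_948 Crest.Agent.R013.BTor4_914
open Crest.Agent.R013.CutCov_92 Crest.Agent.R013.NB_92 Crest.Agent.R013.Half_930
  Crest.Agent.R013.Annu_930
open Crest.NumberTheoryR.Sect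
open scoped NNReal

section

variable {k E Ω : Type} [NontriviallyNormedField k] [ProperSpace k] [IsUltrametricDist k]
  [CharZero k] [NormedField E] [NormedAlgebra k E] [IsUltrametricDist E] [CompleteSpace E]
  [NormedField Ω] [NormedAlgebra k Ω] [NormedAlgebra E Ω] [IsScalarTower k E Ω]
  [IsUltrametricDist Ω] [IsAlgClosed Ω] {y : E}

/-- **LEMW + ANNU.** -/
theorem lemw (hDIV : DIVStmt) (hG : IsGauss k y) {ϖ : k} (hϖ : IsUnif ϖ)
    (hd : DenseRat k y) {s : ℝ≥0} (hs : 1 < s) {n : ℕ} (hn : 0 < n)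
    (hsn : (s : ℝ)⁻¹ ≤ ‖(n : k)‖ ^ 2) {U V : Type} [Field U] [Algebra k U] [CommRing V]
    [Algebra E V] {d : ℕ} (X : Edge (gaussDatum hG hϖ hd) V d) (j : U →+* V) (σ : V →ₐ[E] E)
    (hNB : NBOut (gaussDatum hG hϖ hd) (Am hG hϖ hd hs) (Ap hG hϖ hd hs) U V d X j σ)
    (xU : U) (hjx : σ (j xU) = y) [Algebra U Ω] [IsScalarTower k U Ω]
    (hUΩ : ∀ u, algebraMap U Ω u = algebraMap E Ω (σ (j u))) :
    ∃ (k' : IntermediateField k Ω) (_ : FiniteDimensional k k') (f : lev U Ω k')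
      (z : lev E Ω k'), f ≠ 0 ∧ LDiv k' n f ∧ z ≠ 0 ∧
      (f : Ω) = algebraMap E Ω y * (z : Ω) ^ n := by
  classical
  let κ : IntermediateField k Ω := algebraicClosure k Ω
  haveI : IsAlgClosed κ := (algebraicClosure.isAlgClosure k Ω).isAlgClosed
  obtain ⟨aU, tU, fU, aU', tU', fU', sU', f, hf0, hfd, hfo⟩ :=
    exists_f_kappa hDIV hG hϖ hd hn X j σ _ _ hNB xU hjx hUΩ κ
  -- `φ : U → E`
  have hcE := algClosed_in Ω hG hd
  let φ : U →+* E := (σ : V →+* E).comp j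
  have hφU : ∀ u, algebraMap U Ω u = algebraMap E Ω (φ u) := hUΩ
  have hcU : algebraicClosure k U = ⊥ := algClosed_of_hom φ (hφk (k := k) φ hφU) hcE
  -- the level
  obtain ⟨k₁, hk₁, hle, f₁, hf₁⟩ := exists_level (E := U) (κ := κ) f
  have hf₁0 : f₁ ≠ 0 := by
    rintro rfl
    rw [map_zero] at hf₁
    exact hf0 hf₁.symm
  have hL : LDiv k₁ n f₁ := ldiv_level hcU κ f hfd k₁ hle f₁ hf₁0 hf₁
  obtain ⟨θκ, hθκ, -, -⟩ := exists_intoE (k := k) φ hφU hcU κ
  obtain ⟨θ₁, h1, h2, h3⟩ := exists_intoE (k := k) φ hφU hcU k₁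
  have hθ : il E hle (θ₁ f₁) = θκ f :=
    Subtype.ext (by rw [coe_il, h1, hθκ, ← hf₁, coe_il])
  haveI cE := complete_E hG hd k₁
  haveI ck := complete_k (k := k) k₁
  obtain ⟨π₁, hπ₁⟩ := exists_unif_k (k := k) k₁
  have G₁ := isGauss_lev (Ω := Ω) hG k₁
  let ι₁ : lev U Ω k₁ →ₐ[k₁] lev E Ω k₁ := { θ₁ with commutes' := h3 }
  have hι₁ : ∀ x, ι₁ x = θ₁ x := fun x => rfl
  haveI ceU : CE k k₁ U (lev U Ω k₁) := ce_inside k U hcU k₁
  have hkE : ∀ c : k, algebraMap E (lev E Ω k₁) (algebraMap k E c) =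
      algebraMap k₁ (lev E Ω k₁) (algebraMap k k₁ c) := fun c => by
    rw [← IsScalarTower.algebraMap_apply, ← IsScalarTower.algebraMap_apply]
  have hMN : ∀ u : U, φ u ∈ MN hG hs := fun u =>
    mem_MN_of_both hG hϖ hd hs (hNB.mem_Ap u) (hNB.mem_Am u)
  have hι : ∀ x, ι₁ x ∈ MN G₁ hs := by
    intro x
    obtain ⟨m, c, g, rfl⟩ := exists_sum k k₁ U (lev U Ω k₁) x
    rw [map_sum]
    refine sum_mem fun i _ => ?_
    rw [map_mul, hι₁, hι₁, h2, h3]
    refine mul_mem ((MN G₁ hs).algebraMap_mem _) ?_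
    exact map_MN (algebraMap E (lev E Ω k₁)) (norm_algMap_lev k₁) (algebraMap k k₁) hkE
      (y₁ := y) (y₂ := yl y k₁) rfl hG G₁ hs (hMN _)
  have hy : ι₁ (algebraMap U (lev U Ω k₁) xU) = yl y k₁ := by
    rw [hι₁, h2]
    have : φ xU = y := hjx
    rw [this]; rfl
  obtain ⟨c, m, A, D, ε, hc, hA, hD, hε, e⟩ := annu_algHom G₁ hs hπ₁ ι₁ hι hy hn hf₁0
    (exp_of_ldiv hn hf₁0 hL)
  -- the root of `1 + ε`
  have hnn : ‖((n : lev E Ω k₁))‖ = ‖(n : k)‖ := by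
    have e1 : (n : Ω) = algebraMap k Ω (n : k) := by rw [map_natCast]
    rw [norm_coe_lev]
    push_cast
    rw [e1, norm_algebraMap']
  have hn0 : ((n : lev E Ω k₁)) ≠ 0 := by
    rw [← norm_ne_zero_iff, hnn, norm_ne_zero_iff]
    exact_mod_cast hn.ne'
  obtain ⟨w, hw, -⟩ := exists_pow_eq_of_lt (E := lev E Ω k₁) hn0 (a := 1 + ε) (by
    rw [add_sub_cancel_left, hnn]
    exact hε.trans_le hsn)
  have hε1 : ‖(1 + ε) - 1‖ < 1 := by
    rw [add_sub_cancel_left]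
    refine hε.trans ?_
    exact inv_lt_one_of_one_lt₀ (by exact_mod_cast hs)
  -- the order
  have hB := bk_lev (Ω := Ω) hG hd k₁ hk₁
  have hy₁ : yl y k₁ = algebraMap E (lev E Ω k₁) y := rfl
  have hyne : algebraMap E (lev E Ω k₁) y ≠ 0 := hB.ne
  have hcE1 : algebraMap k₁ (lev E Ω k₁) c ≠ 0 := by simpa using hc
  have hAy := G₁.aeval_ne_zero hA
  have hDy := G₁.aeval_ne_zero hD
  set g := aeval (yl y k₁) A / aeval (yl y k₁) D with hg
  have hg0 : g ≠ 0 := div_ne_zero hAy hDy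
  have hεne : (1 + ε : lev E Ω k₁) ≠ 0 := by
    intro h0
    rw [h0] at hε1
    simp at hε1
  have e' : θ₁ f₁ = algebraMap k₁ (lev E Ω k₁) c *
      (algebraMap E (lev E Ω k₁) y) ^ m * (1 + ε) * g ^ n := by
    rw [← hι₁, e, Algebra.smul_def]; rfl
  have hop : hB.ord (1 + ε) = 0 := ord_principal G₁ hπ₁ (dense_lev hG hd k₁) hB hε1
  have ho : hB.ord (θ₁ f₁) = m + n * hB.ord g := by
    rw [e', hB.ord_mul (mul_ne_zero (mul_ne_zero hcE1 (zpow_ne_zero _ hyne)) hεne)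
      (pow_ne_zero _ hg0), hB.ord_mul (mul_ne_zero hcE1 (zpow_ne_zero _ hyne)) hεne,
      hB.ord_mul hcE1 (zpow_ne_zero _ hyne), hB.ord_unit (UnitIn.algMap hc), hB.ord_zpow hyne,
      hB.ord_y, hB.ord_pow hg0, hop]
    ring
  have hθ₁0 : θ₁ f₁ ≠ 0 := (_root_.map_ne_zero θ₁).2 hf₁0
  have ho' := ord_union (bk_lev (Ω := Ω) hG hd) (bk_kappa κ hG hd) hk₁ hle hθ₁0
  have hdv := hfo θκ hθκ
  rw [← hθ, ho', ho] at hdv
  obtain ⟨l, hl⟩ : ∃ l : ℤ, m = 1 + n * l := by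
    obtain ⟨t, ht⟩ := hdv
    exact ⟨t - hB.ord g, by linear_combination ht⟩
  -- the final elements
  have hcU1 : algebraMap k₁ (lev U Ω k₁) c ≠ 0 := by simpa using hc
  have hw0 : w ≠ 0 := by
    rintro rfl
    rw [zero_pow hn.ne'] at hw
    exact hεne hw.symm
  refine ⟨k₁, hk₁, f₁ / algebraMap k₁ (lev U Ω k₁) c,
    (algebraMap E (lev E Ω k₁) y) ^ l * w * g, div_ne_zero hf₁0 hcU1, ?_,
    mul_ne_zero (mul_ne_zero (zpow_ne_zero _ hyne) hw0) hg0, ?_⟩
  · intro u hu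
    obtain ⟨a, ha⟩ := hL u hu
    refine ⟨a, ?_⟩
    rw [map_div₀, hu.1 c hc, div_one, ha]
  · have e2 : θ₁ (f₁ / algebraMap k₁ (lev U Ω k₁) c) = algebraMap E (lev E Ω k₁) y *
        ((algebraMap E (lev E Ω k₁) y) ^ l * w * g) ^ n := by
      have e3 : (algebraMap E (lev E Ω k₁) y) ^ m = algebraMap E (lev E Ω k₁) y *
          ((algebraMap E (lev E Ω k₁) y) ^ l) ^ n := by
        rw [hl, zpow_add₀ hyne, zpow_one, mul_comm (n : ℤ) l, zpow_mul, zpow_natCast]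
      rw [map_div₀, h3, e', e3, ← hw]
      generalize algebraMap E (lev E Ω k₁) y ^ l = t
      rw [div_eq_iff hcE1]
      ring
    have e4 : ((θ₁ (f₁ / algebraMap k₁ (lev U Ω k₁) c) : lev E Ω k₁) : Ω) =
        ((algebraMap E (lev E Ω k₁) y *
        ((algebraMap E (lev E Ω k₁) y) ^ l * w * g) ^ n : lev E Ω k₁) : Ω) := by rw [e2]
    rw [h1] at e4
    rw [e4]
    push_cast
    rfl

end

end Crest.Agent.R013.LemC623
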