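import Crest.Agent.R013.LemD2_323

/-!
# Lemma D of #2097 (S1), third part: convergent power series over a non archimedean field

`Bd r f` : the coefficients `a n` of `f` satisfy `‖a n‖ * r ^ n ≤ C`.
`ev f s = ∑ a n s ^ n`,  `shift s f` = Taylor expansion of `f` at `s`.
`lemD_ps` : Lemma D for power series.
-/

namespace Crest.Agent.R013.LemD_323

open Filter Topology PowerSeries

section

variable {k : Type*} [NontriviallyNormedField k]

/-- bounded on the closed/open disc of radius `r` -/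
def Bd (r : ℝ) (f : PowerSeries k) : Prop := ∃ C, ∀ n, ‖coeff n f‖ * r ^ n ≤ C

/-- value at `s` -/
noncomputable def ev (f : PowerSeries k) (s : k) : k := ∑' n, coeff n f * s ^ n

/-- Taylor expansion at `s` -/
noncomputable def shift (s : k) (f : PowerSeries k) : PowerSeries k :=
  PowerSeries.mk fun l => ∑' n, ((n + l).choose l : k) * coeff (n + l) f * s ^ n

theorem coeff_shift (s : k) (f : PowerSeries k) (l : ℕ) :
    coeff l (shift s f) = ∑' n, ((n + l).choose l : k) * coeff (n + l) f * s ^ n := by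
  simp [shift]

theorem Bd.nonneg_bound {r : ℝ} (hr : 0 ≤ r) {f : PowerSeries k} (hf : Bd r f) :
    ∃ C, 0 ≤ C ∧ ∀ n, ‖coeff n f‖ * r ^ n ≤ C := by
  obtain ⟨C, hC⟩ := hf
  exact ⟨C, le_trans (mul_nonneg (norm_nonneg _) (pow_nonneg hr 0)) (hC 0), hC⟩

theorem summable_geom {s : k} {r : ℝ} (hs : ‖s‖ < r) : Summable fun n : ℕ => (‖s‖ / r) ^ n := by
  have hr : 0 < r := (norm_nonneg s).trans_lt hs
  exact summable_geometric_of_lt_one (by positivity) ((div_lt_one hr).mpr hs)

theorem summable_ev [CompleteSpace k] {r : ℝ} {f : PowerSeries k} (hf : Bd r f) {s : k}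
    (hs : ‖s‖ < r) : Summable fun n => coeff n f * s ^ n := by
  have hr : 0 < r := (norm_nonneg s).trans_lt hs
  obtain ⟨C, hC0, hC⟩ := hf.nonneg_bound hr.le
  refine Summable.of_norm_bounded ((summable_geom hs).mul_left C) fun n => ?_
  rw [norm_mul, norm_pow, div_pow]
  have h1 : ‖coeff n f‖ * ‖s‖ ^ n = (‖coeff n f‖ * r ^ n) * (‖s‖ ^ n / r ^ n) := by
    field_simp
  rw [h1]
  exact mul_le_mul_of_nonneg_right (hC n) (by positivity)

variable [IsUltrametricDist k]

theorem norm_natCast_le (n : ℕ) : ‖(n : k)‖ ≤ 1 := IsUltrametricDist.norm_natCast_le_one k n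

theorem bd_term {r C : ℝ} (hr : 0 < r) {f : PowerSeries k}
    (hC : ∀ n, ‖coeff n f‖ * r ^ n ≤ C) (s : k) (n l : ℕ) :
    ‖((n + l).choose l : k) * coeff (n + l) f * s ^ n‖ * r ^ l ≤ C * (‖s‖ / r) ^ n := by
  rw [norm_mul, norm_mul, norm_pow]
  calc ‖((n + l).choose l : k)‖ * ‖coeff (n + l) f‖ * ‖s‖ ^ n * r ^ l
      ≤ 1 * ‖coeff (n + l) f‖ * ‖s‖ ^ n * r ^ l := by
        gcongr
        exact norm_natCast_le _
    _ = (‖coeff (n + l) f‖ * r ^ (n + l)) * (‖s‖ / r) ^ n := by
        rw [pow_add, div_pow]; field_simp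
    _ ≤ C * (‖s‖ / r) ^ n := by
        gcongr
        exact hC _

theorem summable_shift [CompleteSpace k] {r : ℝ} {f : PowerSeries k} (hf : Bd r f) {s : k}
    (hs : ‖s‖ < r) (l : ℕ) :
    Summable fun n => ((n + l).choose l : k) * coeff (n + l) f * s ^ n := by
  have hr : 0 < r := (norm_nonneg s).trans_lt hs
  obtain ⟨C, hC0, hC⟩ := hf.nonneg_bound hr.le
  refine Summable.of_norm_bounded (((summable_geom hs).mul_left C).mul_right (r ^ l)⁻¹) fun n => ?_
  rw [← div_eq_mul_inv, le_div_iff₀ (by positivity)]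
  exact bd_term hr hC s n l

/-- the Taylor expansion has the same bound -/
theorem bd_shift [CompleteSpace k] {r C : ℝ} {f : PowerSeries k} (hC0 : 0 ≤ C)
    (hC : ∀ n, ‖coeff n f‖ * r ^ n ≤ C)
    {s : k} (hs : ‖s‖ < r) (l : ℕ) : ‖coeff l (shift s f)‖ * r ^ l ≤ C := by
  have hr : 0 < r := (norm_nonneg s).trans_lt hs
  rw [coeff_shift, ← le_div_iff₀ (by positivity)]
  refine IsUltrametricDist.norm_tsum_le_of_forall_le_of_nonneg (by positivity) fun n => ?_
  rw [le_div_iff₀ (by positivity)]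
  refine (bd_term hr hC s n l).trans ?_
  have h1 : (‖s‖ / r) ^ n ≤ 1 := pow_le_one₀ (by positivity) ((div_le_one hr).mpr hs.le)
  calc C * (‖s‖ / r) ^ n ≤ C * 1 := by gcongr
    _ = C := mul_one C

theorem Bd.shift [CompleteSpace k] {r : ℝ} {f : PowerSeries k} (hf : Bd r f) {s : k}
    (hs : ‖s‖ < r) : Bd r (shift s f) := by
  have hr : 0 < r := (norm_nonneg s).trans_lt hs
  obtain ⟨C, hC0, hC⟩ := hf.nonneg_bound hr.le
  exact ⟨C, bd_shift hC0 hC hs⟩

theorem ev_shift [CompleteSpace k] {r : ℝ} {f : PowerSeries k} (hf : Bd r f) {s t : k}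
    (hs : ‖s‖ < r) (ht : ‖t‖ < r) : ev (shift s f) t = ev f (s + t) := by
  have hr : 0 < r := (norm_nonneg s).trans_lt hs
  obtain ⟨C, hC0, hC⟩ := hf.nonneg_bound hr.le
  obtain ⟨T, hTdef⟩ : ∃ T : ℕ → ℕ → k, ∀ n l, T n l = ((n + l).choose l : k) * coeff (n + l) f *
    s ^ n * t ^ l := ⟨_, fun _ _ => rfl⟩
  have hT : Summable (Function.uncurry T) := by
    have h1 : Summable fun x : ℕ × ℕ => C * ((‖s‖ / r) ^ x.1 * (‖t‖ / r) ^ x.2) :=
      ((summable_geom hs).mul_of_nonneg (summable_geom ht) (fun _ => by positivity)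
        (fun _ => by positivity)).mul_left C
    refine Summable.of_norm_bounded h1 fun x => ?_
    have h2 := bd_term hr hC s x.1 x.2
    calc ‖Function.uncurry T x‖
          = ‖((x.1 + x.2).choose x.2 : k) * coeff (x.1 + x.2) f * s ^ x.1‖ * ‖t‖ ^ x.2 := by
          simp only [Function.uncurry, hTdef, norm_mul, norm_pow]
      _ = (‖((x.1 + x.2).choose x.2 : k) * coeff (x.1 + x.2) f * s ^ x.1‖ * r ^ x.2) *
          (‖t‖ / r) ^ x.2 := by rw [div_pow]; field_simp
      _ ≤ (C * (‖s‖ / r) ^ x.1) * (‖t‖ / r) ^ x.2 := by gcongr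
      _ = _ := by ring
  have h3 : ∑' l, ∑' n, T n l = ev (LemD_323.shift s f) t := by
    unfold ev
    congr 1
    funext l
    rw [coeff_shift, ← tsum_mul_right]
    congr 1
    funext n
    exact hTdef n l
  have h5 : ∑' x : ℕ × ℕ, Function.uncurry T x = ev f (s + t) := by
    have h6 : Summable (Function.uncurry T ∘ Finset.HasAntidiagonal.sigmaAntidiagonalEquivProd) :=
      Finset.HasAntidiagonal.sigmaAntidiagonalEquivProd.summable_iff.mpr hT
    rw [← Finset.HasAntidiagonal.sigmaAntidiagonalEquivProd.tsum_eq (Function.uncurry T)]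
    rw [show (∑' c, Function.uncurry T (Finset.HasAntidiagonal.sigmaAntidiagonalEquivProd c)) =
      ∑' c, (Function.uncurry T ∘ Finset.HasAntidiagonal.sigmaAntidiagonalEquivProd) c from rfl,
      h6.tsum_sigma' (fun n => (hasSum_fintype _).summable)]
    unfold ev
    congr 1
    funext N
    rw [tsum_fintype, add_pow, Finset.mul_sum]
    have h7 : ∑ b : Finset.HasAntidiagonal.antidiagonal N, (Function.uncurry T ∘
        Finset.HasAntidiagonal.sigmaAntidiagonalEquivProd) ⟨N, b⟩ =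
        ∑ b ∈ Finset.HasAntidiagonal.antidiagonal N, T b.1 b.2 := by
      rw [← Finset.sum_coe_sort (Finset.HasAntidiagonal.antidiagonal N) (fun b => T b.1 b.2)]
      rfl
    rw [h7, Finset.Nat.sum_antidiagonal_eq_sum_range_succ_mk]
    refine Finset.sum_congr rfl fun m hm => ?_
    have hm' : m ≤ N := Nat.lt_succ_iff.mp (Finset.mem_range.mp hm)
    have h8 : m + (N - m) = N := by omega
    rw [hTdef, h8, Nat.choose_symm hm']
    ring
  rw [← h3, hT.tsum_comm, ← h5, hT.tsum_prod]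
  rfl

end

end Crest.Agent.R013.LemD_323
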