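import Crest.Agent.R013.Lift1_903

/-!
# Lemma T (task A-T of row 13), part 1: lifting of one-circle `μ_l`-classes to `μ_{l^n}`-classes.

`F ⊆ R, S ⊆ E` with `R ∩ S = F` and `GL_n(E) = GL_n(R) GL_n(S)` (one circle).  `NPow R N h` says
that `h ∈ L` is an `N`-th power in `R ⊗ L ⊆ E ⊗ L`.
-/

set_option autoImplicit false

namespace Crest.Agent.R013.LemT_874

open Crest.Agent.R013.Lift903 Crest.Agent.R013.Gl946 Polynomial TensorProduct

attribute [local instance] Algebra.TensorProduct.rightAlgebra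

section KR

variable {F K K' E T T' : Type*} [Field F] [Field K] [Field K'] [CommRing E] [CommRing T]
  [CommRing T'] [Algebra F K] [Algebra F K'] [Algebra F E] [Algebra F T] [Algebra F T']
  [Algebra K T] [Algebra K' T'] [Algebra E T] [Algebra E T']
  [IsScalarTower F K T] [IsScalarTower F E T] [IsScalarTower F K' T'] [IsScalarTower F E T']
  {ι ι' : Type*} [Fintype ι] [Fintype ι']
  {b : Module.Basis ι F K} {bT : Module.Basis ι E T} (hB : IsBC b bT)
  {b' : Module.Basis ι' F K'} {bT' : Module.Basis ι' E T'} (hB' : IsBC b' bT')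
  {R : Subring E} (hR : ∀ x : F, algebraMap F E x ∈ R)

theorem map_mem_KR (f : T →+* T') (g : K → K') (hf : ∀ r : E, f (algebraMap E T r) = algebraMap E T' r)
    (hg : ∀ x : K, f (algebraMap K T x) = algebraMap K' T' (g x)) (t : T) (ht : t ∈ KR R hR hB) :
    f t ∈ KR R hR hB' := by
  have h1 : t = ∑ i, algebraMap E T (bT.repr t i) * algebraMap K T (b i) := by
    conv_lhs => rw [← bT.sum_repr t]
    exact Finset.sum_congr rfl fun i _ => by rw [Algebra.smul_def, hB.eq i]
  rw [h1, map_sum]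
  refine Subring.sum_mem _ fun i _ => ?_
  rw [map_mul, hf, hg]
  exact Subring.mul_mem _ (algebraMap_mem_KR' hB' hR _ (ht i)) (algebraMap_mem_KR hB' hR _)

end KR

section canonical

variable (F E L : Type*) [Field F] [CommRing E] [Field L] [Algebra F E] [Algebra F L]
  [FiniteDimensional F L]

/-- the canonical presentation of `E ⊗ L` -/
noncomputable def bE : Module.Basis (Fin (Module.finrank F L)) E (E ⊗[F] L) :=
  Algebra.TensorProduct.basis E (Module.finBasis F L)

theorem isBC : IsBC (T := E ⊗[F] L) (Module.finBasis F L) (bE F E L) where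
  eq i := by
    rw [bE, Algebra.TensorProduct.basis_apply]
    rfl

end canonical

section NPow

variable {F E L : Type*} [Field F] [CommRing E] [Field L] [Algebra F E] [Algebra F L]
  [FiniteDimensional F L]

/-- `h` is an `N`-th power in `R ⊗ L`. -/
def NPow {R : Subring E} (hR : ∀ x : F, algebraMap F E x ∈ R) (N : ℕ) (h : L) : Prop :=
  ∃ a ∈ KR R hR (isBC F E L), a ^ N = algebraMap L (E ⊗[F] L) h

omit [FiniteDimensional F L] in
/-- an arbitrary presentation of `E ⊗ L` maps to the canonical one -/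
theorem exists_toCan {T : Type*} [CommRing T] [Algebra F T] [Algebra L T] [Algebra E T]
    [IsScalarTower F L T] [IsScalarTower F E T] {ι : Type*} [Fintype ι]
    {b : Module.Basis ι F L} {bT : Module.Basis ι E T} (hB : IsBC b bT) :
    ∃ f : T →+* E ⊗[F] L, (∀ r : E, f (algebraMap E T r) = algebraMap E (E ⊗[F] L) r) ∧
      ∀ x : L, f (algebraMap L T x) = algebraMap L (E ⊗[F] L) x := by
  let Φ : E ⊗[F] L →ₐ[E] T := Algebra.TensorProduct.lift (Algebra.ofId E T)
    (IsScalarTower.toAlgHom F L T) (fun _ _ => Commute.all _ _)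
  have h1 : ∀ x : L, Φ (algebraMap L (E ⊗[F] L) x) = algebraMap L T x := by
    intro x
    change Φ (1 ⊗ₜ x) = _
    rw [Algebra.TensorProduct.lift_tmul, map_one, one_mul]
    rfl
  let bC : Module.Basis ι E (E ⊗[F] L) := Algebra.TensorProduct.basis E b
  have h2 : Φ.toLinearMap = (bC.equiv bT (Equiv.refl ι)).toLinearMap := by
    refine bC.ext fun i => ?_
    rw [AlgHom.toLinearMap_apply, LinearEquiv.coe_coe, Module.Basis.equiv_apply, Equiv.refl_apply,
      hB.eq i, ← h1]
    congr 1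
    rw [Algebra.TensorProduct.basis_apply]
    rfl
  have h3 : Function.Bijective Φ := by
    have : (Φ : E ⊗[F] L → T) = bC.equiv bT (Equiv.refl ι) := by
      funext x
      exact LinearMap.congr_fun h2 x
    rw [this]
    exact (bC.equiv bT (Equiv.refl ι)).bijective
  let e : E ⊗[F] L ≃ₐ[E] T := AlgEquiv.ofBijective Φ h3
  refine ⟨(e.symm : T →+* E ⊗[F] L), fun r => e.symm.commutes r, fun x => ?_⟩
  apply e.injective
  change e (e.symm _) = _
  rw [e.apply_symm_apply]
  exact (h1 x).symm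

theorem nPow_of_KR {T : Type*} [CommRing T] [Algebra F T] [Algebra L T] [Algebra E T]
    [IsScalarTower F L T] [IsScalarTower F E T] {ι : Type*} [Fintype ι]
    {b : Module.Basis ι F L} {bT : Module.Basis ι E T} (hB : IsBC b bT) {R : Subring E}
    (hR : ∀ x : F, algebraMap F E x ∈ R) (N : ℕ) (h : L) (a : T) (ha : a ∈ KR R hR hB)
    (e : a ^ N = algebraMap L T h) : NPow hR N h := by
  obtain ⟨f, hf1, hf2⟩ := exists_toCan hB
  refine ⟨f a, map_mem_KR hB (isBC F E L) hR f id hf1 hf2 a ha, ?_⟩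
  rw [← map_pow, e, hf2]

variable {L' : Type*} [Field L'] [Algebra F L'] [FiniteDimensional F L']

/-- functoriality of `E ⊗ L` in `L` -/
noncomputable def fmap (g : L →ₐ[F] L') : E ⊗[F] L →+* E ⊗[F] L' :=
  (Algebra.TensorProduct.map (AlgHom.id E E) g : E ⊗[F] L →ₐ[E] E ⊗[F] L')

omit [FiniteDimensional F L] [FiniteDimensional F L'] in
theorem fmap_left (g : L →ₐ[F] L') (r : E) :
    fmap g (algebraMap E (E ⊗[F] L) r) = algebraMap E (E ⊗[F] L') r := by
  change (Algebra.TensorProduct.map (AlgHom.id E E) g : E ⊗[F] L →ₐ[E] E ⊗[F] L') _ = _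
  exact AlgHom.commutes _ r

omit [FiniteDimensional F L] [FiniteDimensional F L'] in
theorem fmap_right (g : L →ₐ[F] L') (x : L) :
    fmap (E := E) g (algebraMap L (E ⊗[F] L) x) = algebraMap L' (E ⊗[F] L') (g x) := by
  change (Algebra.TensorProduct.map (AlgHom.id E E) g : E ⊗[F] L →ₐ[E] E ⊗[F] L') (1 ⊗ₜ x) = 1 ⊗ₜ (g x)
  rw [Algebra.TensorProduct.map_tmul, map_one]

theorem fmap_mem {R : Subring E} (hR : ∀ x : F, algebraMap F E x ∈ R) (g : L →ₐ[F] L')
    (t : E ⊗[F] L) (ht : t ∈ KR R hR (isBC F E L)) : fmap g t ∈ KR R hR (isBC F E L') :=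
  map_mem_KR (isBC F E L) (isBC F E L') hR (fmap g) g (fmap_left g) (fmap_right g) t ht

theorem NPow.map {R : Subring E} {hR : ∀ x : F, algebraMap F E x ∈ R} {N : ℕ} {h : L}
    (H : NPow hR N h) (g : L →ₐ[F] L') : NPow hR N (g h) := by
  obtain ⟨a, ha, e⟩ := H
  exact ⟨fmap g a, fmap_mem hR g a ha, by rw [← map_pow, e, fmap_right]⟩

end NPow


section Roots

/-- A polynomial which vanishes at all `l`-th roots of unity kills every `c` with `c^l = 1`. -/
theorem aeval_eq_zero {L' T' : Type*} [Field L'] [CommRing T'] [Algebra L' T'] {l : ℕ} (hl : 0 < l)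
    {w : L'} (hw : IsPrimitiveRoot w l) {c : T'} (hc : c ^ l = 1) (Q : L'[X])
    (hQ : ∀ j : ℕ, j < l → Q.eval (w ^ j) = 0) : aeval c Q = 0 := by
  classical
  have : NeZero l := ⟨hl.ne'⟩
  have h1 : (X ^ l - 1 : L'[X]) ∣ Q := by
    rw [X_pow_sub_one_eq_prod hl hw]
    refine Finset.prod_dvd_of_coprime ?_ ?_
    · intro a _ b _ hab
      exact isCoprime_X_sub_C_of_isUnit_sub (sub_ne_zero.mpr hab).isUnit
    · intro a ha
      rw [mem_nthRootsFinset hl] at ha
      obtain ⟨j, hj, rfl⟩ := hw.eq_pow_of_pow_eq_one ha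
      exact dvd_iff_isRoot.mpr (hQ j hj)
  obtain ⟨Q', rfl⟩ := h1
  rw [map_mul, map_sub, map_pow, aeval_X, map_one, hc, sub_self, zero_mul]

/-- Equality of evaluations at `c`, `c^l = 1`. -/
theorem aeval_congr {L' T' : Type*} [Field L'] [CommRing T'] [Algebra L' T'] {l : ℕ} (hl : 0 < l)
    {w : L'} (hw : IsPrimitiveRoot w l) {c : T'} (hc : c ^ l = 1) (Q Q' : L'[X])
    (hQ : ∀ j : ℕ, j < l → Q.eval (w ^ j) = Q'.eval (w ^ j)) : aeval c Q = aeval c Q' := by
  have := aeval_eq_zero hl hw hc (Q - Q') fun j hj => by rw [eval_sub, hQ j hj, sub_self]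
  rwa [map_sub, sub_eq_zero] at this

/-- The lifting polynomial: `P (w^j) = z^j`, `0 ≤ j < l`. -/
theorem exists_lift_poly {L' : Type*} [Field L'] {l : ℕ} {w : L'} (hw : IsPrimitiveRoot w l)
    (z : L') : ∃ P : L'[X], ∀ j : ℕ, j < l → P.eval (w ^ j) = z ^ j := by
  classical
  refine ⟨Lagrange.interpolate (Finset.range l) (fun j => w ^ j) (fun j => z ^ j), fun j hj => ?_⟩
  exact Lagrange.eval_interpolate_at_node (s := Finset.range l) (v := fun j : ℕ => w ^ j)
    (fun j : ℕ => z ^ j) (fun a ha b hb hab => hw.pow_inj (Finset.mem_range.mp ha)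
      (Finset.mem_range.mp hb) hab) (Finset.mem_range.mpr hj)

end Roots

section T1

variable {F E L L' : Type*} [Field F] [CommRing E] [Nontrivial E] [Field L] [Field L'] [Algebra F E]
  [Algebra F L] [Algebra F L'] [Algebra L L'] [IsScalarTower F L L'] [FiniteDimensional F L]
  [FiniteDimensional F L'] {R S : Subring E} (hR : ∀ x : F, algebraMap F E x ∈ R)
  (hS : ∀ x : F, algebraMap F E x ∈ S)
  (hRS : ∀ z : E, z ∈ R → z ∈ S → z ∈ Set.range (algebraMap F E))
  (fac : ∀ (n : ℕ) (M M' : Matrix (Fin n) (Fin n) E), M * M' = 1 → ∃ P Q : Matrix (Fin n) (Fin n) E,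
      GLin R P ∧ GLin S Q ∧ M = P * Q)

include hRS fac in
/-- **Lifting of a one-circle `μ_l`-class to a `μ_{l^(m+1)}`-class.** -/
theorem lift_class {l m : ℕ} (hl : 0 < l) {z : L'} (hz : IsPrimitiveRoot z (l ^ (m + 1)))
    {w : L} (hw : algebraMap L L' w = z ^ (l ^ m)) {h : L} (h0 : h ≠ 0)
    (h1 : NPow hR l h) (h2 : NPow hS l h) :
    ∃ h' v : L', h' ≠ 0 ∧ v ≠ 0 ∧ h' = v ^ l * algebraMap L L' h ∧ NPow hR (l ^ (m + 1)) h' ∧
      NPow hS (l ^ (m + 1)) h' ∧ ∀ (σ : L' →ₐ[L] L') (χ : ℕ), σ z = z ^ χ →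
        ∃ u : L', u ≠ 0 ∧ σ h' = u ^ (l ^ (m + 1)) * h' ^ χ := by
  set T' := E ⊗[F] L' with hT'
  set N := l ^ (m + 1) with hN
  have hNl : N = l ^ m * l := pow_succ l m
  have hlm : 0 < l ^ m := pow_pos hl m
  have hN0 : 0 < N := pow_pos hl _
  have hinj : Function.Injective (algebraMap L' T') := (algebraMap L' T').injective
  -- primitive `l`-th root of unity in `L'`
  have hw' : IsPrimitiveRoot (algebraMap L L' w) l := by
    rw [hw]
    exact hz.pow hN0 hNl
  -- the classes over `L'`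
  have h1' := h1.map (IsScalarTower.toAlgHom F L L')
  have h2' := h2.map (IsScalarTower.toAlgHom F L L')
  obtain ⟨a0, ha0, ea0⟩ := h1
  obtain ⟨d0, hd0, ed0⟩ := h2
  set inc : E ⊗[F] L →+* T' := fmap (IsScalarTower.toAlgHom F L L') with hinc
  set H : L' := algebraMap L L' h with hH
  have H0 : H ≠ 0 := (_root_.map_ne_zero _).mpr h0
  set a := inc a0 with ha_def
  set d := inc d0 with hd_def
  have ha : a ∈ KR R hR (isBC F E L') := fmap_mem hR _ _ ha0
  have hd : d ∈ KR S hS (isBC F E L') := fmap_mem hS _ _ hd0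
  have ea : a ^ l = algebraMap L' T' H := by
    rw [ha_def, ← map_pow, ea0, hinc, fmap_right]; rfl
  have ed : d ^ l = algebraMap L' T' H := by
    rw [hd_def, ← map_pow, ed0, hinc, fmap_right]; rfl
  have eH : algebraMap L' T' H * algebraMap L' T' H⁻¹ = 1 := by
    rw [← map_mul, mul_inv_cancel₀ H0, map_one]
  -- inverses of `a` and `d`
  have inv_aux : ∀ t : T', t ^ l = algebraMap L' T' H →
      t * (t ^ (l - 1) * algebraMap L' T' H⁻¹) = 1 := by
    intro t ht
    rw [← mul_assoc, ← pow_succ', Nat.sub_add_cancel hl, ht, eH]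
  set ai := a ^ (l - 1) * algebraMap L' T' H⁻¹ with hai_def
  set di := d ^ (l - 1) * algebraMap L' T' H⁻¹ with hdi_def
  have hai : a * ai = 1 := inv_aux a ea
  have hdi : d * di = 1 := inv_aux d ed
  have mai : ai ∈ KR R hR (isBC F E L') :=
    mul_mem (pow_mem ha _) (algebraMap_mem_KR (isBC F E L') hR _)
  have mdi : di ∈ KR S hS (isBC F E L') :=
    mul_mem (pow_mem hd _) (algebraMap_mem_KR (isBC F E L') hS _)
  -- the element `c`
  set c := a * di with hc_def
  have hcl : c ^ l = 1 := by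
    have : d ^ l * di ^ l = 1 := by rw [← mul_pow, hdi, one_pow]
    rw [hc_def, mul_pow, ea, ← ed, this]
  obtain ⟨P, hP⟩ := exists_lift_poly hw' z
  set c' : T' := aeval c P with hc'_def
  have hc'1 : c' ^ (l ^ m) = c := by
    have h3 : aeval c (P ^ (l ^ m)) = aeval c (X : L'[X]) :=
      aeval_congr hl hw' hcl _ _ fun j hj => by
        rw [eval_pow, hP j hj, eval_X, hw, ← pow_mul, ← pow_mul, mul_comm]
    rwa [map_pow, aeval_X] at h3
  have hc'N : c' ^ N = 1 := by rw [hNl, pow_mul, hc'1, hcl]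
  have hc'u : c' * c' ^ (N - 1) = 1 := by rw [← pow_succ', Nat.sub_add_cancel hN0, hc'N]
  -- factorisation over `L'`
  obtain ⟨a', ha', ai', hai', d', hd', di', hdi', ea', ed', ec'⟩ :=
    unit_fac (isBC F E L') hR hS (algebraMap F E).injective hRS (fac _) c' _ hc'u
  -- `h'`
  have e1 : a' ^ N = di' ^ N := by
    have h3 : a' ^ N * d' ^ N = 1 := by rw [← mul_pow, ← ec', hc'N]
    have h4 : d' ^ N * di' ^ N = 1 := by rw [← mul_pow, ed', one_pow]
    calc a' ^ N = a' ^ N * (d' ^ N * di' ^ N) := by rw [h4, mul_one]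
      _ = (a' ^ N * d' ^ N) * di' ^ N := by ring
      _ = di' ^ N := by rw [h3, one_mul]
  obtain ⟨h', hh'⟩ := inter_KR (isBC F E L') hR hS hRS (a' ^ N) (pow_mem ha' N)
    (by rw [e1]; exact pow_mem hdi' N)
  -- `v`
  have e2 : a' ^ (l ^ m) * ai = di * di' ^ (l ^ m) := by
    have h3 : a' ^ (l ^ m) * d' ^ (l ^ m) = a * di := by rw [← mul_pow, ← ec', hc'1]
    have h4 : d' ^ (l ^ m) * di' ^ (l ^ m) = 1 := by rw [← mul_pow, ed', one_pow]
    calc a' ^ (l ^ m) * ai = a' ^ (l ^ m) * ai * (d' ^ (l ^ m) * di' ^ (l ^ m)) := by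
          rw [h4, mul_one]
      _ = (a' ^ (l ^ m) * d' ^ (l ^ m)) * ai * di' ^ (l ^ m) := by ring
      _ = (a * ai) * (di * di' ^ (l ^ m)) := by rw [h3]; ring
      _ = _ := by rw [hai, one_mul]
  obtain ⟨v, hv⟩ := inter_KR (isBC F E L') hR hS hRS (a' ^ (l ^ m) * ai)
    (mul_mem (pow_mem ha' _) mai) (by rw [e2]; exact mul_mem mdi (pow_mem hdi' _))
  have e3 : a' ^ (l ^ m) = algebraMap L' T' v * a := by
    rw [hv, mul_assoc, mul_comm ai a, hai, mul_one]
  have e4 : h' = v ^ l * H := by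
    apply hinj
    rw [hh', map_mul, map_pow, hNl, pow_mul, e3, mul_pow, ea]
  have h'0 : h' ≠ 0 := by
    rintro rfl
    rw [map_zero] at hh'
    have h3 : a' ^ N * ai' ^ N = 1 := by rw [← mul_pow, ea', one_pow]
    rw [← hh', zero_mul] at h3
    exact zero_ne_one h3
  refine ⟨h', v, h'0, ?_, e4, ⟨a', ha', hh'.symm⟩, ⟨di', hdi', by rw [← e1, hh']⟩, ?_⟩
  · rintro rfl
    rw [zero_pow hl.ne', zero_mul] at e4
    exact h'0 e4
  -- Galois action
  intro σ χ hσ
  set s : T' →+* T' := fmap (σ.restrictScalars F) with hs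
  have s_right : ∀ x : L', s (algebraMap L' T' x) = algebraMap L' T' (σ x) := fun x =>
    fmap_right (σ.restrictScalars F) x
  have s_mem_R : ∀ t ∈ KR R hR (isBC F E L'), s t ∈ KR R hR (isBC F E L') :=
    fun t ht => fmap_mem hR _ t ht
  have s_mem_S : ∀ t ∈ KR S hS (isBC F E L'), s t ∈ KR S hS (isBC F E L') :=
    fun t ht => fmap_mem hS _ t ht
  have s_inc : ∀ t, s (inc t) = inc t := by
    intro t
    have : (s.comp inc) = inc := by
      apply Algebra.TensorProduct.ringHom_ext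
      · ext r
        change s (inc (algebraMap E _ r)) = inc (algebraMap E _ r)
        rw [hinc, hs, fmap_left, fmap_left]
      · ext x
        change s (inc (algebraMap L _ x)) = inc (algebraMap L _ x)
        rw [hinc, fmap_right, s_right]
        congr 1
        exact σ.commutes x
    exact congrArg (fun f : E ⊗[F] L →+* T' => f t) this
  have s_c : s c = c := by
    have h3 : s (algebraMap L' T' H⁻¹) = algebraMap L' T' H⁻¹ := by
      rw [s_right, map_inv₀, hH, σ.commutes]
    rw [hc_def, hdi_def, map_mul, map_mul, map_pow, h3, ha_def, hd_def, s_inc, s_inc]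
  have s_c' : s c' = c' ^ χ := by
    have h3 : s c' = aeval c (P.map (σ : L' →+* L')) := by
      have h4 : s.comp (algebraMap L' T') = (algebraMap L' T').comp (σ : L' →+* L') :=
        RingHom.ext fun x => s_right x
      rw [hc'_def, aeval_def, hom_eval₂, s_c, aeval_def, eval₂_map, h4]
    rw [h3, hc'_def, ← map_pow]
    refine aeval_congr hl hw' hcl _ _ fun j hj => ?_
    have h4 : (algebraMap L L' w) ^ j = (σ : L' →+* L') ((algebraMap L L' w) ^ j) := by
      rw [map_pow]
      congr 1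
      exact (σ.commutes w).symm
    conv_lhs => rw [h4, eval_map, eval₂_at_apply, hP j hj]
    rw [eval_pow, hP j hj, map_pow]
    change (σ z) ^ j = _
    rw [hσ, ← pow_mul, ← pow_mul, mul_comm]
  have e5 : s a' * ai' ^ χ = s di' * d' ^ χ := by
    have h3 : s a' * s d' = a' ^ χ * d' ^ χ := by
      rw [← map_mul, ← ec', s_c', ec', mul_pow]
    have h4 : s d' * s di' = 1 := by rw [← map_mul, ed', map_one]
    have h5 : a' ^ χ * ai' ^ χ = 1 := by rw [← mul_pow, ea', one_pow]
    calc s a' * ai' ^ χ = s a' * ai' ^ χ * (s d' * s di') := by rw [h4, mul_one]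
      _ = (s a' * s d') * ai' ^ χ * s di' := by ring
      _ = (a' ^ χ * ai' ^ χ) * (s di' * d' ^ χ) := by rw [h3]; ring
      _ = _ := by rw [h5, one_mul]
  obtain ⟨u, hu⟩ := inter_KR (isBC F E L') hR hS hRS (s a' * ai' ^ χ)
    (mul_mem (s_mem_R _ ha') (pow_mem hai' _))
    (by rw [e5]; exact mul_mem (s_mem_S _ hdi') (pow_mem hd' _))
  have e6 : s a' = algebraMap L' T' u * a' ^ χ := by
    have h5 : a' ^ χ * ai' ^ χ = 1 := by rw [← mul_pow, ea', one_pow]
    rw [hu, mul_assoc, mul_comm (ai' ^ χ), h5, mul_one]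
  have e7 : σ h' = u ^ N * h' ^ χ := by
    apply hinj
    rw [← s_right, hh', map_pow, e6, mul_pow, ← pow_mul, mul_comm χ N, pow_mul, ← hh', map_mul,
      map_pow, map_pow]
  refine ⟨u, ?_, e7⟩
  rintro rfl
  rw [zero_pow hN0.ne', zero_mul] at e7
  exact h'0 ((map_eq_zero σ).mp e7)

end T1

end Crest.Agent.R013.LemT_874
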