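import Crest.Agent.R013.LemT1_874

/-!
# Lemma T (task A-T of row 13), part 2: one-circle `μ_l`-classes are fixed by the tame generator.
-/

set_option autoImplicit false

namespace Crest.Agent.R013.LemT_874

open Crest.Agent.R013.Lift903 Crest.Agent.R013.Gl946 Polynomial TensorProduct

attribute [local instance] Algebra.TensorProduct.rightAlgebra

section T2

variable {L L' M : Type*} [Field L] [Field L'] [Field M] [Algebra L L'] [Algebra L M] [Algebra L' M]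
  [IsScalarTower L L' M]

/-- an element of order dividing `l^(m+1)` and `e - 1` has order dividing `l^m` -/
theorem pow_eq_one_aux {M : Type*} [Field M] {l m : ℕ} (hl : l.Prime) {κ : M} {e : ℕ}
    (h1 : κ ^ (l ^ (m + 1)) = 1) (h2 : κ = κ ^ e) (h3 : ¬ ((l ^ (m + 1) : ℕ) : ℤ) ∣ (e : ℤ) - 1) :
    κ ^ (l ^ m) = 1 := by
  have hκ0 : κ ≠ 0 := by
    rintro rfl
    rw [zero_pow (pow_pos hl.pos _).ne'] at h1
    exact zero_ne_one h1
  rcases Nat.eq_zero_or_pos e with rfl | he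
  · rw [h2, pow_zero, one_pow]
  · obtain ⟨e', rfl⟩ : ∃ e', e = e' + 1 := ⟨e - 1, by omega⟩
    have h4 : κ ^ e' = 1 := by
      rw [pow_succ] at h2
      exact (mul_right_cancel₀ hκ0 ((one_mul κ).trans h2)).symm
    have h5 : ((e' + 1 : ℕ) : ℤ) - 1 = (e' : ℕ) := by push_cast; ring
    rw [h5, Int.natCast_dvd_natCast] at h3
    have h6 : orderOf κ ∣ l ^ (m + 1) := orderOf_dvd_of_pow_eq_one h1
    obtain ⟨i, hi, hio⟩ := (Nat.dvd_prime_pow hl).mp h6
    rcases Nat.lt_or_ge i (m + 1) with hi' | hi'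
    · rw [← orderOf_dvd_iff_pow_eq_one, hio]
      exact pow_dvd_pow l (Nat.lt_succ_iff.mp hi')
    · exfalso
      apply h3
      rw [le_antisymm hi' hi, ← hio]
      exact orderOf_dvd_of_pow_eq_one h4

/-- final computation in `M` -/
theorem fix_aux {M : Type*} [Field M] {l m : ℕ} (hl : l.Prime) {z : M}
    (hz : IsPrimitiveRoot z (l ^ (m + 1))) (τ : M ≃+* M) (hτz : τ z = z) {H h' v y x : M}
    (H0 : H ≠ 0) (v0 : v ≠ 0) (e1 : h' = v ^ l * H) (hy : y ^ (l ^ (m + 1)) = h')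
    (hx : x ^ l = H) (hv : τ v = v) (h'τ : τ h' = h') {e : ℕ}
    (he1 : ¬ ((l ^ (m + 1) : ℕ) : ℤ) ∣ (e : ℤ) - 1) (he2 : τ y = (τ : M → M)^[e] y) : τ x = x := by
  set N := l ^ (m + 1) with hN
  have hN0 : 0 < N := pow_pos hl.pos _
  have hNl : N = l ^ m * l := pow_succ l m
  have : NeZero N := ⟨hN0.ne'⟩
  have h'0 : h' ≠ 0 := by
    rw [e1]
    exact mul_ne_zero (pow_ne_zero _ v0) H0
  have hy0 : y ≠ 0 := by
    rintro rfl
    rw [zero_pow hN0.ne'] at hy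
    exact h'0 hy.symm
  obtain ⟨j, -, hj⟩ := hz.eq_pow_of_pow_eq_one (ξ := τ y / y) (by
    rw [div_pow, ← map_pow, hy, h'τ, ← hy, div_self (pow_ne_zero _ hy0)])
  have e3 : τ y = z ^ j * y := by rw [hj, div_mul_cancel₀ _ hy0]
  have e4 : ∀ n : ℕ, (τ : M → M)^[n] y = (z ^ j) ^ n * y := by
    intro n
    induction n with
    | zero => simp
    | succ n ih =>
      rw [Function.iterate_succ_apply', ih, map_mul, map_pow, map_pow, hτz, e3, pow_succ, mul_assoc]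
  have hκN : (z ^ j) ^ N = 1 := by rw [← pow_mul, mul_comm, pow_mul, hz.pow_eq_one, one_pow]
  have e5 : z ^ j = (z ^ j) ^ e := by
    have h3 := he2
    rw [e3, e4] at h3
    exact mul_right_cancel₀ hy0 h3
  have e7 : (z ^ j) ^ (l ^ m) = 1 := pow_eq_one_aux hl hκN e5 he1
  have hx0 : x ≠ 0 := by
    rintro rfl
    rw [zero_pow hl.pos.ne'] at hx
    exact H0 hx.symm
  have e8 : (y ^ (l ^ m)) ^ l = (v * x) ^ l := by
    rw [← pow_mul, ← hNl, hy, mul_pow, hx, e1]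
  have hzl : IsPrimitiveRoot (z ^ (l ^ m)) l := hz.pow hN0 hNl
  have : NeZero l := ⟨hl.pos.ne'⟩
  obtain ⟨i, -, hi⟩ := hzl.eq_pow_of_pow_eq_one (ξ := y ^ (l ^ m) / (v * x)) (by
    rw [div_pow, e8, div_self (pow_ne_zero _ (mul_ne_zero v0 hx0))])
  have e9 : y ^ (l ^ m) = (z ^ (l ^ m)) ^ i * (v * x) := by
    rw [hi, div_mul_cancel₀ _ (mul_ne_zero v0 hx0)]
  have e10 : τ (y ^ (l ^ m)) = y ^ (l ^ m) := by
    rw [map_pow, e3, mul_pow, e7, one_mul]
  rw [e9, map_mul, map_mul, map_pow, map_pow, hτz, hv] at e10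
  have h3 := mul_left_cancel₀ (pow_ne_zero _ (pow_ne_zero _ (hz.ne_zero hN0.ne'))) e10
  exact mul_left_cancel₀ v0 h3

omit [IsScalarTower L L' M] in
/-- Kummer commutation: `φ` and `τ` commute on `N`-th roots of `h'`. -/
theorem comm_of_root {N : ℕ} (hN : 0 < N) {z : L'} (hz : IsPrimitiveRoot z N) {h' : L'} (h0 : h' ≠ 0)
    (hσ : ∀ (σ : L' →ₐ[L] L') (χ : ℕ), σ z = z ^ χ → ∃ u : L', u ≠ 0 ∧ σ h' = u ^ N * h' ^ χ)
    {φ τ : M →ₐ[L] M} (σ : L' →ₐ[L] L') (hφ : ∀ x, φ (algebraMap L' M x) = algebraMap L' M (σ x))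
    (hτ : ∀ x, τ (algebraMap L' M x) = algebraMap L' M x) {y : M} (hy : y ^ N = algebraMap L' M h') :
    φ (τ y) = τ (φ y) := by
  have : NeZero N := ⟨hN.ne'⟩
  have hzM : IsPrimitiveRoot (algebraMap L' M z) N := hz.map_of_injective (algebraMap L' M).injective
  have hy0 : y ≠ 0 := by
    rintro rfl
    rw [zero_pow hN.ne'] at hy
    exact h0 ((map_eq_zero _).mp hy.symm)
  -- the cyclotomic character of `σ`
  obtain ⟨χ, -, hχ⟩ := hz.eq_pow_of_pow_eq_one (ξ := σ z) (by rw [← map_pow, hz.pow_eq_one, map_one])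
  have hχ' : σ z = z ^ χ := hχ.symm
  obtain ⟨u, u0, hu⟩ := hσ σ χ hχ'
  -- `φ y = ξ u y^χ`
  have e1 : (φ y) ^ N = (algebraMap L' M u * y ^ χ) ^ N := by
    rw [← map_pow, hy, hφ, hu, map_mul, map_pow, map_pow, ← hy, mul_pow, ← pow_mul, ← pow_mul,
      mul_comm N χ]
  have hb0 : algebraMap L' M u * y ^ χ ≠ 0 :=
    mul_ne_zero ((_root_.map_ne_zero _).mpr u0) (pow_ne_zero _ hy0)
  obtain ⟨i, -, hi⟩ := hzM.eq_pow_of_pow_eq_one (ξ := φ y / (algebraMap L' M u * y ^ χ))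
    (by rw [div_pow, e1, div_self (pow_ne_zero _ hb0)])
  have e2 : φ y = algebraMap L' M z ^ i * (algebraMap L' M u * y ^ χ) := by
    rw [hi, div_mul_cancel₀ _ hb0]
  -- `τ y = κ y`
  obtain ⟨j, -, hj⟩ := hzM.eq_pow_of_pow_eq_one (ξ := τ y / y) (by
    rw [div_pow, ← map_pow, hy, hτ, ← hy, div_self (pow_ne_zero _ hy0)])
  have e3 : τ y = algebraMap L' M z ^ j * y := by rw [hj, div_mul_cancel₀ _ hy0]
  have e4 : φ (algebraMap L' M z) = algebraMap L' M z ^ χ := by rw [hφ, hχ', map_pow]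
  calc φ (τ y) = algebraMap L' M z ^ (χ * j) * φ y := by
        rw [e3, map_mul, map_pow, e4, ← pow_mul]
    _ = algebraMap L' M z ^ i * (algebraMap L' M u * (algebraMap L' M z ^ j * y) ^ χ) := by
        rw [e2, mul_pow, ← pow_mul, mul_comm χ j]; ring
    _ = τ (φ y) := by rw [e2, map_mul, map_mul, map_pow, map_pow, hτ, hτ, e3]

end T2

section T3

open IntermediateField

variable {F E L M : Type*} [Field F] [CommRing E] [Nontrivial E] [Field L] [Field M] [Algebra F E]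
  [Algebra F L] [Algebra F M] [Algebra L M] [IsScalarTower F L M] [FiniteDimensional F L]
  {R S : Subring E} (hR : ∀ x : F, algebraMap F E x ∈ R)
  (hS : ∀ x : F, algebraMap F E x ∈ S)
  (hRS : ∀ z : E, z ∈ R → z ∈ S → z ∈ Set.range (algebraMap F E))
  (fac : ∀ (n : ℕ) (M M' : Matrix (Fin n) (Fin n) E), M * M' = 1 → ∃ P Q : Matrix (Fin n) (Fin n) E,
      GLin R P ∧ GLin S Q ∧ M = P * Q)

include hRS fac in
/-- **Lemma T**, abstract form. -/
theorem lemT {l m : ℕ} (hl : l.Prime) {z : M} (hz : IsPrimitiveRoot z (l ^ (m + 1)))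
    {w : L} (hw : algebraMap L M w = z ^ (l ^ m)) [FiniteDimensional F L⟮z⟯]
    (φ τ : M ≃ₐ[L] M) (hτz : τ z = z)
    (unr : ∀ h' : L⟮z⟯, NPow hR (l ^ (m + 1)) h' → NPow hS (l ^ (m + 1)) h' →
      ∃ y : M, y ^ (l ^ (m + 1)) = h')
    (tame : ∀ y : M, y ^ (l ^ (m + 1)) ∈ L⟮z⟯ → ∃ e : ℕ, ¬ ((l ^ (m + 1) : ℕ) : ℤ) ∣ (e : ℤ) - 1 ∧
      φ (τ (φ.symm y)) = (τ ^ e) y)
    {h : L} (h0 : h ≠ 0) (h1 : NPow hR l h) (h2 : NPow hS l h) {x : M}
    (hx : x ^ l = algebraMap L M h) : τ x = x := by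
  set N := l ^ (m + 1) with hN
  have hN0 : 0 < N := pow_pos hl.pos _
  have hNl : N = l ^ m * l := pow_succ l m
  let z' : L⟮z⟯ := AdjoinSimple.gen L z
  have hz'c : (z' : M) = z := AdjoinSimple.coe_gen L z
  have hz' : IsPrimitiveRoot z' N := by
    refine IsPrimitiveRoot.of_map_of_injective (f := algebraMap L⟮z⟯ M) ?_ (algebraMap L⟮z⟯ M).injective
    exact hz
  have hw' : algebraMap L L⟮z⟯ w = z' ^ (l ^ m) := by
    apply (algebraMap L⟮z⟯ M).injective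
    rw [map_pow, ← IsScalarTower.algebraMap_apply, hw]
    rfl
  obtain ⟨h', v, h'0, v0, e1, n1, n2, hσ⟩ := lift_class hR hS hRS fac hl.pos hz' hw' h0 h1 h2
  obtain ⟨y, hy⟩ := unr h' n1 n2
  -- restrictions
  have hNe : NeZero N := ⟨hN0.ne'⟩
  have hint : IsIntegral L z := ⟨X ^ N - 1, monic_X_pow_sub_C 1 hN0.ne', by
    simp [hz.pow_eq_one]⟩
  have hcyc : IsCyclotomicExtension {N} L L⟮z⟯ := by
    change IsCyclotomicExtension {N} L (IntermediateField.adjoin L {z}).toSubalgebra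
    rw [IntermediateField.adjoin_simple_toSubalgebra_of_isAlgebraic hint.isAlgebraic]
    exact hz.adjoin_isCyclotomicExtension L
  have hnorm : Normal L L⟮z⟯ := by
    have : IsGalois L L⟮z⟯ := IsCyclotomicExtension.isGalois {N} L L⟮z⟯
    infer_instance
  have hτfix : ∀ x : L⟮z⟯, (τ : M →ₐ[L] M) (algebraMap L⟮z⟯ M x) = algebraMap L⟮z⟯ M x := by
    intro x
    have h3 : L⟮z⟯ ≤ IntermediateField.fixedField (Subgroup.zpowers τ) := by
      rw [IntermediateField.adjoin_simple_le_iff, IntermediateField.mem_fixedField_iff]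
      intro f hf
      obtain ⟨k, rfl⟩ := Subgroup.mem_zpowers_iff.mp hf
      have h4 : τ ∈ MulAction.stabilizer (M ≃ₐ[L] M) z := hτz
      exact (Subgroup.zpow_mem _ h4 k : τ ^ k ∈ MulAction.stabilizer (M ≃ₐ[L] M) z)
    exact (IntermediateField.mem_fixedField_iff _ _).mp (h3 x.2) τ (Subgroup.mem_zpowers τ)
  have hσφ : ∀ x : L⟮z⟯, (φ.symm : M →ₐ[L] M) (algebraMap L⟮z⟯ M x) =
      algebraMap L⟮z⟯ M ((φ.symm.restrictNormal L⟮z⟯ : L⟮z⟯ →ₐ[L] L⟮z⟯) x) := fun x =>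
    (φ.symm.restrictNormal_commutes L⟮z⟯ x).symm
  have hcomm : φ.symm (τ y) = τ (φ.symm y) :=
    comm_of_root (φ := (φ.symm : M →ₐ[L] M)) (τ := (τ : M →ₐ[L] M)) hN0 hz' h'0 hσ _ hσφ hτfix hy
  have hyN : y ^ N ∈ L⟮z⟯ := by rw [hy]; exact h'.2
  obtain ⟨e, he1, he2⟩ := tame y hyN
  rw [← hcomm, AlgEquiv.apply_symm_apply] at he2
  have hit : ∀ n : ℕ, (τ ^ n) y = ((τ : M ≃+* M) : M → M)^[n] y := by
    intro n
    induction n with
    | zero => simp
    | succ n ih => rw [pow_succ', AlgEquiv.mul_apply, ih, Function.iterate_succ_apply']; rfl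
  refine fix_aux (m := m) (H := algebraMap L M h) (h' := (h' : M)) (v := (v : M)) (y := y) (e := e)
    hl hz (τ : M ≃+* M) hτz ((_root_.map_ne_zero _).mpr h0) (fun h3 => v0 (Subtype.ext h3)) ?_ hy hx
    (hτfix v) (hτfix h') he1 (he2.trans (hit e))
  rw [e1]
  rfl

end T3

end Crest.Agent.R013.LemT_874
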