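import Crest.Agent.R013.Lift1_903

/-!
# Lemma LIFT, part 4: evaluation of `R ⊗ K` in fields above `K`, conclusions for places and norms.

A ring hom `ρ : R → Ω` and `κ : K → Ω` which agree on `F` give `ev : R ⊗ K → Ω`.  If `h ∈ K` is
`h₀ a^N` with `a` a unit of `R ⊗ K`, then `h` is `h₀` times an `N`-th power in every such `Ω`, and
`h / (h₀ g^N)` is a `1`-unit for some `g ∈ K` when `K` is dense in `Ω`.
-/

set_option autoImplicit false

namespace Crest.Agent.R013.Lift903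

open Gl946 Matrix

section Ev

variable {F K E T Ω : Type*} [Field F] [Field K] [CommRing E] [CommRing T] [CommRing Ω]
  [Algebra F K] [Algebra F E] [Algebra F T] [Algebra K T] [Algebra E T]
  [IsScalarTower F K T] [IsScalarTower F E T]
  {ι : Type*} [Fintype ι]
  {b : Module.Basis ι F K} {bT : Module.Basis ι E T} (hB : IsBC b bT)
  {R : Subring E} (hR : ∀ x : F, algebraMap F E x ∈ R)
  (ρ : R →+* Ω) (κ : K →+* Ω)
  (hc : ∀ x : F, ρ ⟨algebraMap F E x, hR x⟩ = κ (algebraMap F K x))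

/-- The underlying function of `ev`. -/
noncomputable def evF (t : KR R hR hB) : Ω := ∑ i, ρ ⟨bT.repr (t : T) i, t.2 i⟩ * κ (b i)

include hc in
theorem evF_algebraMap (x : K) :
    evF hB hR ρ κ ⟨algebraMap K T x, algebraMap_mem_KR hB hR x⟩ = κ x := by
  unfold evF
  have h1 : ∀ i, ρ ⟨bT.repr (algebraMap K T x) i, algebraMap_mem_KR hB hR x i⟩ =
      κ (algebraMap F K (b.repr x i)) := by
    intro i
    rw [← hc]
    congr 1
    exact Subtype.ext (hB.repr_algebraMap x i)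
  simp only [h1]
  conv_rhs => rw [← b.sum_repr x]
  rw [map_sum]
  refine Finset.sum_congr rfl fun i _ => ?_
  rw [← map_mul, ← Algebra.smul_def]

theorem evF_add (s t : KR R hR hB) : evF hB hR ρ κ (s + t) = evF hB hR ρ κ s + evF hB hR ρ κ t := by
  unfold evF
  rw [← Finset.sum_add_distrib]
  refine Finset.sum_congr rfl fun i _ => ?_
  rw [← add_mul, ← map_add]
  congr 2
  exact Subtype.ext (by simp)

theorem evF_smul (r : E) (hr : r ∈ R) (t : KR R hR hB) :
    evF hB hR ρ κ (⟨algebraMap E T r, algebraMap_mem_KR' hB hR r hr⟩ * t) =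
      ρ ⟨r, hr⟩ * evF hB hR ρ κ t := by
  unfold evF
  rw [Finset.mul_sum]
  refine Finset.sum_congr rfl fun i _ => ?_
  rw [← mul_assoc, ← map_mul]
  congr 2
  refine Subtype.ext ?_
  change bT.repr (algebraMap E T r * (t : T)) i = r * bT.repr (t : T) i
  rw [← Algebra.smul_def, map_smul, Finsupp.smul_apply, smul_eq_mul]

theorem eq_sum (t : KR R hR hB) : t = ∑ i, (⟨algebraMap E T (bT.repr (t : T) i),
    algebraMap_mem_KR' hB hR _ (t.2 i)⟩ : KR R hR hB) *
      ⟨algebraMap K T (b i), algebraMap_mem_KR hB hR (b i)⟩ := by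
  refine Subtype.ext ?_
  rw [AddSubmonoidClass.coe_finsetSum]
  conv_lhs => rw [← bT.sum_repr (t : T)]
  refine Finset.sum_congr rfl fun i _ => ?_
  rw [Algebra.smul_def, hB.eq i]
  rfl

theorem evF_zero : evF hB hR ρ κ 0 = 0 := by
  have := evF_add hB hR ρ κ 0 0
  rw [add_zero] at this
  exact left_eq_add.1 this

theorem evF_sum {α : Type*} (s : Finset α) (f : α → KR R hR hB) :
    evF hB hR ρ κ (∑ i ∈ s, f i) = ∑ i ∈ s, evF hB hR ρ κ (f i) := by
  classical
  induction s using Finset.induction_on with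
  | empty => simp [evF_zero]
  | insert a s ha ih => rw [Finset.sum_insert ha, Finset.sum_insert ha, evF_add, ih]

include hc in
theorem evF_mul_K (x : K) (t : KR R hR hB) :
    evF hB hR ρ κ (t * ⟨algebraMap K T x, algebraMap_mem_KR hB hR x⟩) = evF hB hR ρ κ t * κ x := by
  rw [eq_sum hB hR t, Finset.sum_mul, evF_sum, evF_sum, Finset.sum_mul]
  refine Finset.sum_congr rfl fun i _ => ?_
  rw [mul_assoc, evF_smul hB hR ρ κ _ (t.2 i), evF_smul hB hR ρ κ _ (t.2 i),
    evF_algebraMap hB hR ρ κ hc, mul_assoc]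
  congr 1
  have h1 : (⟨algebraMap K T (b i), algebraMap_mem_KR hB hR (b i)⟩ : KR R hR hB) *
      ⟨algebraMap K T x, algebraMap_mem_KR hB hR x⟩ =
      ⟨algebraMap K T (b i * x), algebraMap_mem_KR hB hR _⟩ :=
    Subtype.ext (map_mul (algebraMap K T) (b i) x).symm
  rw [h1, evF_algebraMap hB hR ρ κ hc, map_mul]

include hc in
theorem evF_mul (s t : KR R hR hB) :
    evF hB hR ρ κ (s * t) = evF hB hR ρ κ s * evF hB hR ρ κ t := by
  conv_lhs => rw [eq_sum hB hR t, Finset.mul_sum, evF_sum]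
  conv_rhs => rw [eq_sum hB hR t, evF_sum, Finset.mul_sum]
  refine Finset.sum_congr rfl fun i _ => ?_
  rw [evF_smul hB hR ρ κ _ (t.2 i), evF_algebraMap hB hR ρ κ hc, mul_left_comm s,
    evF_smul hB hR ρ κ _ (t.2 i), evF_mul_K hB hR ρ κ hc]
  ring

/-- Evaluation `R ⊗ K → Ω`. -/
noncomputable def ev : KR R hR hB →+* Ω where
  toFun := evF hB hR ρ κ
  map_zero' := evF_zero hB hR ρ κ
  map_one' := by
    have h1 := evF_algebraMap hB hR ρ κ hc 1
    rw [map_one κ] at h1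
    rw [← h1]
    congr 1
    exact Subtype.ext (map_one (algebraMap K T)).symm
  map_add' := evF_add hB hR ρ κ
  map_mul' := evF_mul hB hR ρ κ hc

theorem ev_algebraMap (x : K) :
    ev hB hR ρ κ hc ⟨algebraMap K T x, algebraMap_mem_KR hB hR x⟩ = κ x :=
  evF_algebraMap hB hR ρ κ hc x

theorem ev_algebraMap' (r : E) (hr : r ∈ R) :
    ev hB hR ρ κ hc ⟨algebraMap E T r, algebraMap_mem_KR' hB hR r hr⟩ = ρ ⟨r, hr⟩ := by
  have h := evF_smul hB hR ρ κ r hr 1
  rw [mul_one] at h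
  have h1 : evF hB hR ρ κ 1 = 1 := map_one (ev hB hR ρ κ hc)
  rw [h1, mul_one] at h
  exact h

include hc in
/-- `h = h₀ a^N` in `R ⊗ K` gives `h = h₀ α^N` in `Ω`. -/
theorem exists_pow (N : ℕ) (h h₀ : K) (a a' : T) (ha : a ∈ KR R hR hB) (ha' : a' ∈ KR R hR hB)
    (haa : a * a' = 1) (e : algebraMap K T h = algebraMap K T h₀ * a ^ N) :
    ∃ α α' : Ω, α * α' = 1 ∧ κ h = κ h₀ * α ^ N := by
  refine ⟨ev hB hR ρ κ hc ⟨a, ha⟩, ev hB hR ρ κ hc ⟨a', ha'⟩, ?_, ?_⟩
  · rw [← map_mul, ← map_one (ev hB hR ρ κ hc)]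
    congr 1
    exact Subtype.ext haa
  · rw [← ev_algebraMap hB hR ρ κ hc h, ← ev_algebraMap hB hR ρ κ hc h₀, ← map_pow, ← map_mul]
    congr 1
    exact Subtype.ext e

end Ev

section Val

variable {K Ω : Type*} [Field K] [Field Ω] {Γ : Type*} [LinearOrderedCommGroupWithZero Γ]

/-- Density of `K` in the valued field `Ω`, in multiplicative form. -/
def DenseIn (w : Valuation Ω Γ) (κ : K →+* Ω) : Prop :=
  ∀ α : Ω, α ≠ 0 → ∃ g : K, w (κ g - α) < w α

/-- A `1`-unit ratio: powers. -/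
theorem val_pow_sub_one (w : Valuation Ω Γ) (x : Ω) (hx : w (x - 1) < 1) (N : ℕ) :
    w (x ^ N - 1) < 1 := by
  have hx1 : w x ≤ 1 := by
    have : x = (x - 1) + 1 := by ring
    rw [this]
    exact (w.map_add _ _).trans (max_le hx.le (by rw [map_one]))
  induction N with
  | zero => simp
  | succ n ih =>
    have : x ^ (n + 1) - 1 = (x ^ n - 1) * x + (x - 1) := by ring
    rw [this]
    refine lt_of_le_of_lt (w.map_add _ _) (max_lt ?_ hx)
    rw [map_mul]
    calc w (x ^ n - 1) * w x ≤ w (x ^ n - 1) * 1 := mul_le_mul_right hx1 _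
      _ < 1 := by rw [mul_one]; exact ih

/-- If `K` is dense in `Ω` and `h = h₀ α^N` in `Ω`, some `g ∈ K` makes `h / (h₀ g^N)` a `1`-unit. -/
theorem exists_unit_ratio (w : Valuation Ω Γ) (κ : K →+* Ω) (hd : DenseIn w κ) (N : ℕ) (h h₀ : K)
    (h0 : h₀ ≠ 0) (α α' : Ω) (hα : α * α' = 1) (e : κ h = κ h₀ * α ^ N) :
    ∃ g : K, g ≠ 0 ∧ w (κ (h / (h₀ * g ^ N)) - 1) < 1 := by
  have hα0 : α ≠ 0 := left_ne_zero_of_mul_eq_one hα
  obtain ⟨g, hg⟩ := hd α hα0
  have hg0 : g ≠ 0 := by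
    rintro rfl
    rw [map_zero, zero_sub, Valuation.map_neg] at hg
    exact lt_irrefl _ hg
  have hκg : κ g ≠ 0 := (map_ne_zero κ).2 hg0
  have hκ0 : κ h₀ ≠ 0 := (map_ne_zero κ).2 h0
  have hwα : w α ≠ 0 := (w.ne_zero_iff).2 hα0
  -- `α / κ g` is a `1`-unit
  have h1 : w (κ g) = w α := by
    have : κ g = α + (κ g - α) := by ring
    rw [this]
    exact Valuation.map_add_eq_of_lt_left w hg
  have h2 : w (α / κ g - 1) < 1 := by
    have : α / κ g - 1 = -(κ g - α) / κ g := by field_simp; ring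
    rw [this, map_div₀, Valuation.map_neg, h1]
    exact (div_lt_one₀ (zero_lt_iff.2 hwα)).2 hg
  refine ⟨g, hg0, ?_⟩
  have h3 : κ (h / (h₀ * g ^ N)) = (α / κ g) ^ N := by
    rw [map_div₀, map_mul, map_pow, e, div_pow]
    field_simp
  rw [h3]
  exact val_pow_sub_one w _ h2 N

end Val

section Conclusion

variable {F K E T Ω : Type*} [Field F] [Field K] [CommRing E] [CommRing T] [Field Ω]
  [Algebra F K] [Algebra F E] [Algebra F T] [Algebra K T] [Algebra E T]
  [IsScalarTower F K T] [IsScalarTower F E T]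
  {ι : Type*} [Fintype ι]
  {b : Module.Basis ι F K} {bT : Module.Basis ι E T} (hB : IsBC b bT)
  {R : Subring E} (hR : ∀ x : F, algebraMap F E x ∈ R)
  {Γ : Type*} [LinearOrderedCommGroupWithZero Γ]

/-- **LIFT-4.** `h = h₀ a^N` in `R ⊗ K`, `w` a valuation of `K` which extends to a field `Ω` in which
`K` is dense and to which `R` maps (compatibly on `F`): some `g ∈ K^×` has `w(h/(h₀ g^N) - 1) < 1`. -/
theorem lift_val (w : Valuation K Γ) (wΩ : Valuation Ω Γ) (κ : K →+* Ω)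
    (hw : ∀ x, wΩ (κ x) = w x) (hd : DenseIn wΩ κ)
    (ρ : R →+* Ω) (hc : ∀ x : F, ρ ⟨algebraMap F E x, hR x⟩ = κ (algebraMap F K x))
    (N : ℕ) (h h₀ : K) (h0 : h₀ ≠ 0) (a a' : T) (ha : a ∈ KR R hR hB) (ha' : a' ∈ KR R hR hB)
    (haa : a * a' = 1) (e : algebraMap K T h = algebraMap K T h₀ * a ^ N) :
    ∃ g : K, g ≠ 0 ∧ w (h / (h₀ * g ^ N) - 1) < 1 := by
  obtain ⟨α, α', h1, h2⟩ := exists_pow hB hR ρ κ hc N h h₀ a a' ha ha' haa e
  obtain ⟨g, hg, h3⟩ := exists_unit_ratio wΩ κ hd N h h₀ h0 α α' h1 h2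
  refine ⟨g, hg, ?_⟩
  rw [← hw, map_sub, map_one]
  exact h3

end Conclusion

end Crest.Agent.R013.Lift903
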