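import Crest.Agent.R013.LemT2_874
import Crest.Agent.R013.LemT3_874
import Crest.Agent.R013.Gl9_946
import Crest.Agent.R013.Lift4_903
import Crest.Agent.R013.A2a_275

/-!
# Lemma T (task A-T of row 13), part 4: one-circle `N`-classes are unramified.
-/

set_option autoImplicit false

namespace Crest.Agent.R013.LemT_874

open Crest.Agent.R013.Lift903 Crest.Agent.R013.Gl946 Crest.Agent.R013.A2a_275 Polynomial TensorProduct
open scoped NNReal

attribute [local instance] Algebra.TensorProduct.rightAlgebra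

section Eval

variable {F E L : Type*} [Field F] [CommRing E] [Field L] [Algebra F E] [Algebra F L]
  [FiniteDimensional F L]

/-- If `h` is an `N`-th power in `R ⊗ L` and `R` maps to the completion of `L` at `w`, then
`w h` is an `N`-th power of a value. -/
theorem NPow.val {R : Subring E} {hR : ∀ x : F, algebraMap F E x ∈ R} {N : ℕ} {h : L}
    (H : NPow hR N h) (h0 : h ≠ 0) (hN : 0 < N) (w : Valuation L ℝ≥0) (ρ : R →+* Cpl w)
    (hc : ∀ x : F, ρ ⟨algebraMap F E x, hR x⟩ = toCpl w (algebraMap F L x)) :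
    ∃ a : L, w h = w a ^ N := by
  obtain ⟨a, ha, e⟩ := H
  set α : Cpl w := ev (isBC F E L) hR ρ (toCpl w) hc ⟨a, ha⟩ with hα
  have e1 : α ^ N = toCpl w h := by
    rw [hα, ← map_pow, ← ev_algebraMap (isBC F E L) hR ρ (toCpl w) hc h]
    congr 1
    exact Subtype.ext e
  have hα0 : α ≠ 0 := by
    intro h1
    rw [h1, zero_pow hN.ne'] at e1
    exact h0 ((map_eq_zero (toCpl w)).mp e1.symm)
  -- density
  obtain ⟨g, hg⟩ := (denseRange_toCpl w).exists_dist_lt α (norm_pos_iff.mpr hα0)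
  rw [dist_eq_norm] at hg
  have h2 : ‖toCpl w g‖ = ‖α‖ := by
    have h3 : ‖toCpl w g - α‖ < ‖α‖ := by rw [norm_sub_rev]; exact hg
    have h4 : toCpl w g = (toCpl w g - α) + α := by ring
    rw [h4]
    rw [IsUltrametricDist.norm_add_eq_max_of_norm_ne_norm h3.ne, max_eq_right h3.le]
  refine ⟨g, ?_⟩
  have h5 : ((w h : ℝ≥0) : ℝ) = ((w g ^ N : ℝ≥0) : ℝ) := by
    rw [← norm_toCpl, ← e1, norm_pow, ← h2, norm_toCpl, NNReal.coe_pow]
  exact_mod_cast h5

end Eval

section Places

variable {κ E : Type*} [NormedField κ] [NormedField E] [NormedAlgebra κ E] [IsUltrametricDist E]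
  [CompleteSpace E] [CompleteSpace κ] {y : E} (hG : IsGauss κ y) {π : κ} (hπ : IsUnif π)
  (hd : DenseRat κ y)
  {F L : Type*} [Field F] [Field L] [Algebra F E] [Algebra F L] [FiniteDimensional F L]
  [Algebra κ F] [IsScalarTower κ F E] [Algebra κ L] [IsScalarTower κ F L]

include hπ in
/-- **One-circle `N`-classes are unramified at all places.** -/
theorem val_of_NPow (hF : ∀ x : F, algebraMap F E x ∈ KY hG)
    (hF' : ∀ z : E, z ∈ KY hG → z ∈ Set.range (algebraMap F E)) {N : ℕ} (hN : 0 < N) {h : L}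
    (h0 : h ≠ 0) (h1 : NPow (algebraMap_mem_RU hG hF) N h)
    (h2 : NPow (algebraMap_mem_FP hG hπ hd hF) N h) (w : Valuation L ℝ≥0)
    (hw : ∀ c : κ, c ≠ 0 → w (algebraMap κ L c) = 1) (hnt : ∃ a : L, w a ≠ 0 ∧ w a ≠ 1) :
    ∃ a : L, w h = w a ^ N := by
  -- `κ` is a nontrivially normed ultrametric field
  let inst : NontriviallyNormedField κ :=
    { (inferInstance : NormedField κ) with
      non_trivial := ⟨π⁻¹, by
        rw [norm_inv]; exact (one_lt_inv₀ hπ.pos).2 hπ.lt_one⟩ }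
  have hult : IsUltrametricDist κ := by
    refine IsUltrametricDist.isUltrametricDist_of_forall_norm_add_le_max_norm fun a b => ?_
    rw [← norm_algebraMap' E, ← norm_algebraMap' E a, ← norm_algebraMap' E b, map_add]
    exact IsUltrametricDist.norm_add_le_max _ _
  -- the isomorphism `F = k(y)`
  obtain ⟨yF, hyF⟩ := hF' y (y_mem_KY hG)
  let e0 : F →+* KY hG := (algebraMap F E).codRestrict (KY hG) hF
  have he0 : Function.Bijective e0 := by
    refine ⟨fun a b hab => (algebraMap F E).injective (congrArg Subtype.val hab), fun z => ?_⟩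
    obtain ⟨x, hx⟩ := hF' z.1 z.2
    exact ⟨x, Subtype.ext hx⟩
  let e : F ≃+* KY hG := RingEquiv.ofBijective e0 he0
  have he : ∀ x : F, e x = ⟨algebraMap F E x, hF x⟩ := fun x => rfl
  have hes : ∀ (x : F) (hx : algebraMap F E x ∈ KY hG), e.symm ⟨algebraMap F E x, hx⟩ = x := by
    intro x hx
    rw [← he x, e.symm_apply_apply]
  let ψ : KY hG →+* Cpl w := ((toCpl w).comp (algebraMap F L)).comp (e.symm : KY hG →+* F)
  have hψ : ∀ (x : F) (hx : algebraMap F E x ∈ KY hG),
      ψ ⟨algebraMap F E x, hx⟩ = toCpl w (algebraMap F L x) := by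
    intro x hx
    change toCpl w (algebraMap F L (e.symm _)) = _
    rw [hes]
  set yL : L := algebraMap F L yF with hyL
  have hy0 : yF ≠ 0 := by
    rintro rfl
    rw [map_zero] at hyF
    exact hG.ne_zero hyF.symm
  have hyL0 : yL ≠ 0 := (_root_.map_ne_zero _).mpr hy0
  have hψc : ∀ c : κ, ‖ψ ⟨algebraMap κ E c, const_mem_KY hG c⟩‖ ≤ 1 := by
    intro c
    have h3 : (⟨algebraMap κ E c, const_mem_KY hG c⟩ : KY hG) =
        ⟨algebraMap F E (algebraMap κ F c), hF _⟩ :=
      Subtype.ext (IsScalarTower.algebraMap_apply κ F E c)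
    rw [h3, hψ, norm_toCpl, ← IsScalarTower.algebraMap_apply]
    exact_mod_cast val_const_le w hw c
  have hpol : ∀ Q : κ[X], algebraMap F E (aeval yF Q) = aeval y Q := by
    intro Q
    rw [← hyF, aeval_algebraMap_apply]
  have hpolinv : ∀ Q : κ[X], algebraMap F E (aeval yF⁻¹ Q) = aeval y⁻¹ Q := by
    intro Q
    rw [← hyF, ← map_inv₀, aeval_algebraMap_apply]
  have hyF' : (⟨y, y_mem_KY hG⟩ : KY hG) = ⟨algebraMap F E yF, hF _⟩ := Subtype.ext hyF.symm
  -- algebraicity of the residue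
  have halg : w yL ≤ 1 → ∃ P : κ[X], P ≠ 0 ∧ w (aeval yL P) < 1 := by
    intro hy1
    by_contra hcon
    push Not at hcon
    have hP1 : ∀ P : κ[X], P ≠ 0 → w (aeval yL P) = 1 := fun P hP =>
      le_antisymm (val_aeval_le w hw hy1 P) (hcon P hP)
    -- `w` is trivial on `F`
    have hF1 : ∀ x : F, x ≠ 0 → w (algebraMap F L x) = 1 := by
      intro x hx
      obtain ⟨f, g, hg, hfg⟩ := hF x
      have hx1 : x = aeval yF f / aeval yF g := by
        apply (algebraMap F E).injective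
        rw [map_div₀, hpol, hpol]
        exact hfg
      have hf : f ≠ 0 := by
        rintro rfl
        rw [map_zero, zero_div] at hx1
        exact hx hx1
      rw [hx1, map_div₀, map_div₀, ← aeval_algebraMap_apply, ← aeval_algebraMap_apply, hP1 f hf,
        hP1 g hg, div_one]
    -- hence on `L`
    obtain ⟨a, ha0, ha1⟩ := hnt
    have hle : ∀ b : L, w b ≤ 1 := by
      intro b
      have hb : IsIntegral F b := Algebra.IsIntegral.isIntegral b
      obtain ⟨p, hp, hpb⟩ := hb
      by_contra hcon2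
      push Not at hcon2
      have hlt : w (∑ i ∈ Finset.range p.natDegree, algebraMap F L (p.coeff i) * b ^ i) <
          w b ^ p.natDegree := by
        rcases Nat.eq_zero_or_pos p.natDegree with hd0 | hd0
        · rw [hd0]; simp
        · refine Valuation.map_sum_lt w (pow_ne_zero _ (ne_of_gt (zero_lt_one.trans hcon2))) ?_
          intro i hi
          rw [Finset.mem_range] at hi
          rw [map_mul, map_pow]
          have h3 : w (algebraMap F L (p.coeff i)) ≤ 1 := by
            rcases eq_or_ne (p.coeff i) 0 with h4 | h4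
            · rw [h4, map_zero, map_zero]; exact zero_le_one
            · exact (hF1 _ h4).le
          calc w (algebraMap F L (p.coeff i)) * w b ^ i ≤ 1 * w b ^ i :=
                mul_le_mul_of_nonneg_right h3 bot_le
            _ = w b ^ i := one_mul _
            _ < w b ^ p.natDegree := pow_lt_pow_right₀ hcon2 hi
      have heq : b ^ p.natDegree =
          -(∑ i ∈ Finset.range p.natDegree, algebraMap F L (p.coeff i) * b ^ i) := by
        rw [eval₂_eq_sum_range, Finset.sum_range_succ, show p.coeff p.natDegree = 1 from hp,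
          map_one, one_mul] at hpb
        exact (neg_eq_of_add_eq_zero_right hpb).symm
      rw [← map_pow, heq, Valuation.map_neg] at hlt
      exact lt_irrefl _ hlt
    apply ha1
    refine le_antisymm (hle a) ?_
    have h3 := hle a⁻¹
    rw [map_inv₀] at h3
    exact (inv_le_one₀ (pos_iff_ne_zero.mpr ha0)).mp h3
  rcases place_dich w hw hyL0 halg with ⟨hy1, Q, hQ, hQ1, hQw⟩ | ⟨hy1, Q, hQ, hQ1, hQw⟩
  · have h3 : ‖ψ ⟨y⁻¹, yinv_mem_KY hG⟩‖ ≤ 1 := by
      have h5 : y⁻¹ = algebraMap F E yF⁻¹ := by rw [map_inv₀, hyF]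
      have h4 : (⟨y⁻¹, yinv_mem_KY hG⟩ : KY hG) = ⟨algebraMap F E yF⁻¹, hF _⟩ := Subtype.ext h5
      rw [h4, hψ, norm_toCpl, map_inv₀ (algebraMap F L)]
      exact NNReal.coe_le_one.mpr hy1
    have h4 : ‖ψ ⟨aeval (y⁻¹) Q, aeval_inv_mem_KY hG Q⟩‖ < 1 := by
      have h5 : (⟨aeval (y⁻¹) Q, aeval_inv_mem_KY hG Q⟩ : KY hG) =
          ⟨algebraMap F E (aeval yF⁻¹ Q), hF _⟩ := Subtype.ext (hpolinv Q).symm
      rw [h5, hψ, norm_toCpl, ← aeval_algebraMap_apply, map_inv₀ (algebraMap F L)]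
      exact NNReal.coe_lt_one.mpr hQw
    obtain ⟨Φ, hΦ, -⟩ := mapRU_place hG hπ ψ hψc h3 Q hQ hQ1 h4 ⊤ isClosed_univ (fun _ => trivial)
    exact h1.val h0 hN w Φ (fun x => (hΦ _ (hF x)).trans (hψ x (hF x)))
  · have h3 : ‖ψ ⟨y, y_mem_KY hG⟩‖ ≤ 1 := by
      rw [hyF', hψ, norm_toCpl]
      exact_mod_cast hy1
    have h4 : ‖ψ ⟨aeval y Q, aeval_mem_KY hG Q⟩‖ < 1 := by
      have h5 : (⟨aeval y Q, aeval_mem_KY hG Q⟩ : KY hG) =
          ⟨algebraMap F E (aeval yF Q), hF _⟩ := Subtype.ext (hpol Q).symm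
      rw [h5, hψ, norm_toCpl, ← aeval_algebraMap_apply]
      exact_mod_cast hQw
    obtain ⟨Φ, hΦ, -⟩ := mapFP_place hG hπ hd ψ hψc h3 Q hQ hQ1 h4 ⊤ isClosed_univ (fun _ => trivial)
    exact h2.val h0 hN w (Φ : (FP hG hπ hd).toSubring →+* Cpl w)
      (fun x => (hΦ _ (hF x)).trans (hψ x (hF x)))

end Places

end Crest.Agent.R013.LemT_874
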