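import Crest.Agent.R013.LemT4_874
import Crest.Agent.R013.Unr10_957
import Crest.Agent.R013.MaxUnr_97
import Crest.Agent.R013.Fp4_831

/-!
# Lemma T (task A-T of row 13), part 5: the instance for `M = maxUnramified k K` and a section `s`.
-/

set_option autoImplicit false

namespace Crest.Agent.R013.LemT_874

open Crest.Agent.R013.Lift903 Crest.Agent.R013.Gl946 Polynomial TensorProduct
open Crest.NumberTheoryR.Sect
open scoped NNReal

attribute [local instance] Algebra.TensorProduct.rightAlgebra

section Root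

variable {k : Type*} [Field k] [CharZero k] {K : Type*} [Field K] [Algebra k K]
  [Algebra (RatFunc k) K] [IsScalarTower k (RatFunc k) K] [FiniteDimensional (RatFunc k) K]

/-- Kummer criterion inside `maxUnramified`. -/
theorem exists_root_of_val {L : Type*} [Field L] [Algebra K L] [Algebra k L] [IsScalarTower k K L]
    [FiniteDimensional K L] (f : L →ₐ[K] maxUnramified k K)
    {N : ℕ} (hN : N ≠ 0) (h : L)
    (hv : ∀ w : Valuation L ℝ≥0, IsPlace k w → ∃ a : L, w h = w a ^ N) :
    ∃ y : maxUnramified k K, y ^ N = f h := by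
  let f' : L →ₐ[K] AlgebraicClosure K := (maxUnramified k K).val.comp f
  let U : IntermediateField K (AlgebraicClosure K) := f'.fieldRange
  let e : L ≃ₐ[K] U := AlgEquiv.ofInjectiveField f'
  have hfd : FiniteDimensional K U := e.toLinearEquiv.finiteDimensional
  have hle : U ≤ maxUnramified k K := by
    rintro _ ⟨x, rfl⟩
    exact (f x).2
  have hU : IsUnramifiedEverywhere k K U := Unr5_957.le_maxUnramified_iff.mp hle
  have hh : ∀ u : Valuation U ℝ≥0, IsPlace k u → ∃ a : U, u (e h) = u a ^ N := by
    intro u hu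
    let w : Valuation L ℝ≥0 := u.comap (e : L →+* U)
    have hw : IsPlace k w := by
      refine ⟨fun c hc => ?_, ?_⟩
      · have h1 : e (algebraMap k L c) = algebraMap k U c := by
          have h2 : algebraMap k L c = algebraMap K L (algebraMap k K c) :=
            IsScalarTower.algebraMap_apply k K L c
          rw [h2, e.commutes, ← IsScalarTower.algebraMap_apply]
        change u (e (algebraMap k L c)) = 1
        rw [h1]
        exact hu.1 c hc
      · obtain ⟨b, hb0, hb1⟩ := hu.2
        refine ⟨e.symm b, ?_, ?_⟩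
        · change u (e (e.symm b)) ≠ 0
          rwa [e.apply_symm_apply]
        · change u (e (e.symm b)) ≠ 1
          rwa [e.apply_symm_apply]
    obtain ⟨a, ha⟩ := hv w hw
    exact ⟨e a, ha⟩
  obtain ⟨y, hy⟩ := IsAlgClosed.exists_pow_nat_eq ((f h : maxUnramified k K) : AlgebraicClosure K)
    (Nat.pos_of_ne_zero hN)
  have hyM : y ∈ maxUnramified k K :=
    Unr10_957.kummer_mem_maxUnramified hU hN (h := e h) hh (y := y) hy
  exact ⟨⟨y, hyM⟩, Subtype.ext hy⟩

/-- primitive roots of unity exist in `maxUnramified` -/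
theorem exists_primitive {N : ℕ} (hN : 0 < N) :
    ∃ z : maxUnramified k K, IsPrimitiveRoot z N := by
  have hK : CharZero K := Unr4_957.charZero_K k K
  have : CharZero (maxUnramified k K) :=
    charZero_of_injective_algebraMap (algebraMap K (maxUnramified k K)).injective
  have : NeZero (N : maxUnramified k K) := ⟨Nat.cast_ne_zero.mpr hN.ne'⟩
  have h1 := MaxUnr_97.splits_maxUnramified (k := k) (K := K) (cyclotomic N k)
  rw [map_cyclotomic] at h1
  have h2 : (cyclotomic N (maxUnramified k K)).degree ≠ 0 := by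
    rw [degree_cyclotomic]
    exact_mod_cast (Nat.totient_pos.mpr hN).ne'
  obtain ⟨z, hz⟩ := h1.exists_eval_eq_zero h2
  exact ⟨z, isRoot_cyclotomic_iff.mp hz⟩

end Root

section Final

variable {k : Type*} [Field k] [CharZero k] {K : Type*} [Field K] [Algebra k K]
  [Algebra (RatFunc k) K] [IsScalarTower k (RatFunc k) K] [FiniteDimensional (RatFunc k) K]

/-- What Lemma T needs to know about `t ∈ Gal(constField/k)`: it acts trivially on the roots of
unity of order a power of `l`, and it is a tame generator (in a weak sense). -/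
structure TameAt (l : ℕ) (t : ConstGal k K) : Prop where
  mu : ∀ (n : ℕ) (z : constField k K), z ^ (l ^ n) = 1 → t z = z
  conj : ∀ U : Subgroup (ConstGal k K), IsOpen (U : Set (ConstGal k K)) →
    ∃ g ∈ U, ∃ B : ℕ, ∀ N : OpenNormalSubgroup (ConstGal k K), ∃ e : ℕ,
      ¬ ((l ^ B : ℕ) : ℤ) ∣ (e : ℤ) - 1 ∧ (t ^ e)⁻¹ * (g * t * g⁻¹) ∈ N

/-- an automorphism fixing `L` as an automorphism over `L` -/
def toL {K M : Type*} [Field K] [Field M] [Algebra K M] (L : IntermediateField K M) (g : M ≃ₐ[K] M)
    (hg : ∀ a ∈ L, g a = a) : M ≃ₐ[L] M :=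
  { (g : M ≃+* M) with commutes' := fun a => hg a a.2 }

theorem toL_apply {K M : Type*} [Field K] [Field M] [Algebra K M] (L : IntermediateField K M)
    (g : M ≃ₐ[K] M) (hg : ∀ a ∈ L, g a = a) (x : M) : toL L g hg x = g x := rfl

theorem toL_pow_apply {K M : Type*} [Field K] [Field M] [Algebra K M] (L : IntermediateField K M)
    (g : M ≃ₐ[K] M) (hg : ∀ a ∈ L, g a = a) (n : ℕ) (x : M) : (toL L g hg ^ n) x = (g ^ n) x := by
  induction n with
  | zero => simp
  | succ n ih => rw [pow_succ', pow_succ', AlgEquiv.mul_apply, AlgEquiv.mul_apply, ih, toL_apply]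

theorem toL_symm_apply {K M : Type*} [Field K] [Field M] [Algebra K M] (L : IntermediateField K M)
    (g : M ≃ₐ[K] M) (hg : ∀ a ∈ L, g a = a) (x : M) : (toL L g hg).symm x = g⁻¹ x := by
  apply (toL L g hg).injective
  rw [AlgEquiv.apply_symm_apply, toL_apply]
  exact (AlgEquiv.apply_symm_apply g x).symm

section Circle

variable {κ E : Type*} [NormedField κ] [NormedField E] [NormedAlgebra κ E] [IsUltrametricDist E]
  [CompleteSpace E] [CompleteSpace κ] {y : E} (hG : IsGauss κ y) {π : κ} (hπ : IsUnif π)
  (hd : DenseRat κ y) {F : Type*} [Field F] [Algebra F E] [Algebra κ F] [IsScalarTower κ F E]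

include hπ in
/-- `N`-th roots of one-circle `N`-classes over `L' ⊆ M` lie in `M = maxUnramified`. -/
theorem root_of_NPow {L : Type*} [Field L] [Algebra K L] [Algebra k L] [IsScalarTower k K L]
    [FiniteDimensional K L] (f : L →ₐ[K] maxUnramified k K) [Algebra F L] [FiniteDimensional F L] (hF : ∀ x : F, algebraMap F E x ∈ KY hG)
    (hF' : ∀ z : E, z ∈ KY hG → z ∈ Set.range (algebraMap F E))
    (hκ : ∀ c : κ, IsIntegral k (algebraMap F L (algebraMap κ F c))) {N : ℕ} (hN : 0 < N) (h : L)
    (h1 : NPow (algebraMap_mem_RU hG hF) N h) (h2 : NPow (algebraMap_mem_FP hG hπ hd hF) N h) :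
    ∃ y : maxUnramified k K, y ^ N = f h := by
  rcases eq_or_ne h 0 with rfl | h0
  · exact ⟨0, by rw [zero_pow hN.ne', map_zero]⟩
  let _ : Algebra κ L := ((algebraMap F L).comp (algebraMap κ F)).toAlgebra
  have : IsScalarTower κ F L := IsScalarTower.of_algebraMap_eq (fun _ => rfl)
  refine exists_root_of_val f hN.ne' h fun w hw => ?_
  refine val_of_NPow hG hπ hd hF hF' hN h0 h1 h2 w ?_ hw.2
  -- constants have value `1`
  have hle : ∀ b : L, IsIntegral k b → w b ≤ 1 := fun b hb =>
    Unr2_957.le_one_of_integral' w (fun s => by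
      rcases eq_or_ne s 0 with rfl | hs
      · rw [map_zero, map_zero]; exact zero_le_one
      · exact (hw.1 s hs).le) hb
  intro c hc
  have h3 := hle _ (hκ c)
  have h4 := hle _ (hκ c⁻¹)
  have h5 : algebraMap F L (algebraMap κ F c⁻¹) = (algebraMap F L (algebraMap κ F c))⁻¹ := by
    rw [map_inv₀, map_inv₀]
  have h6 : algebraMap F L (algebraMap κ F c) ≠ 0 :=
    (_root_.map_ne_zero _).mpr ((_root_.map_ne_zero _).mpr hc)
  rw [h5, map_inv₀] at h4
  have h7 : 0 < w (algebraMap F L (algebraMap κ F c)) := (Valuation.pos_iff w).mpr h6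
  exact le_antisymm h3 ((inv_le_one₀ h7).mp h4)

include hπ in
/-- **Lemma T** for `M = maxUnramified k K`: a one-circle topological `μ_l`-class over a finite
extension `L ⊆ M^{s(t)}` of `K` is fixed by the tame element `s(t)`. -/
theorem lemT_maxUnramified {l : ℕ} (hl : l.Prime) [IsGalois k (constField k K)]
    (s : ConstGal k K →* PiGroup k K)
    (hs : IsSection k K s) {t : ConstGal k K} (ht : TameAt l t)
    (L : IntermediateField K (maxUnramified k K)) [FiniteDimensional K L]
    (hLt : ∀ a ∈ L, s t a = a) {w : L} (hw : IsPrimitiveRoot w l)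
    [Algebra F L] [FiniteDimensional F L] (hF : ∀ x : F, algebraMap F E x ∈ KY hG)
    (hF' : ∀ z : E, z ∈ KY hG → z ∈ Set.range (algebraMap F E))
    (hκ : ∀ c : κ, IsIntegral k (algebraMap F L (algebraMap κ F c))) {h : L} (h0 : h ≠ 0)
    (h1 : NPow (algebraMap_mem_RU hG hF) l h) (h2 : NPow (algebraMap_mem_FP hG hπ hd hF) l h)
    {x : maxUnramified k K} (hx : x ^ l = h) : s t x = x := by
  -- the Frobenius-like element
  let U : Subgroup (ConstGal k K) := (IntermediateField.fixingSubgroup L).comap s
  have hU : IsOpen (U : Set (ConstGal k K)) :=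
    (IntermediateField.fixingSubgroup_isOpen L).preimage hs.1
  obtain ⟨g, hgU, B, hB⟩ := ht.conj U hU
  have hgL : ∀ a ∈ L, s g a = a := fun a ha => hgU ⟨a, ha⟩
  obtain ⟨N0, -⟩ := Fp4_831.exists_openNormal_le U hU
  obtain ⟨m, rfl⟩ : ∃ m, B = m + 1 := by
    obtain ⟨e, he, -⟩ := hB N0
    rcases Nat.eq_zero_or_pos B with rfl | hB0
    · exact absurd (by rw [pow_zero, Nat.cast_one]; exact one_dvd _) he
    · exact ⟨B - 1, by omega⟩
  set N := l ^ (m + 1) with hN
  have hN0 : 0 < N := pow_pos hl.pos _
  obtain ⟨z, hz⟩ := exists_primitive (k := k) (K := K) hN0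
  -- `z ^ (l ^ m) ∈ L`
  have hwM : IsPrimitiveRoot (algebraMap L (maxUnramified k K) w) l :=
    hw.map_of_injective (algebraMap L (maxUnramified k K)).injective
  have : NeZero l := ⟨hl.pos.ne'⟩
  obtain ⟨j, -, hj⟩ := hwM.eq_pow_of_pow_eq_one (ξ := z ^ (l ^ m)) (by
    rw [← pow_mul, ← pow_succ, hz.pow_eq_one])
  have hw' : algebraMap L (maxUnramified k K) (w ^ j) = z ^ (l ^ m) := by rw [map_pow, hj]
  -- `t` fixes `z`
  have htz : s t z = z := by
    have hzi : IsIntegral k z := ⟨X ^ N - 1, monic_X_pow_sub_C 1 hN0.ne', by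
      simp [hz.pow_eq_one]⟩
    let z' : constField k K := ⟨z, mem_algebraicClosure_iff.mpr hzi.isAlgebraic⟩
    have h3 := ht.mu (m + 1) z' (Subtype.ext hz.pow_eq_one)
    have h4 := hs.2 t z'
    rw [h3] at h4
    exact h4
  -- algebra structures
  let _ : Algebra F (maxUnramified k K) :=
    ((algebraMap L (maxUnramified k K)).comp (algebraMap F L)).toAlgebra
  have : IsScalarTower F L (maxUnramified k K) := IsScalarTower.of_algebraMap_eq (fun _ => rfl)
  have hint : IsIntegral L z := ⟨X ^ N - 1, monic_X_pow_sub_C 1 hN0.ne', by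
    simp [hz.pow_eq_one]⟩
  have : FiniteDimensional L (IntermediateField.adjoin L {z}) :=
    IntermediateField.adjoin.finiteDimensional hint
  have : FiniteDimensional F (IntermediateField.adjoin L {z}) :=
    FiniteDimensional.trans F L (IntermediateField.adjoin L {z})
  refine lemT (algebraMap_mem_RU hG hF) (algebraMap_mem_FP hG hπ hd hF)
    (fun z h1 h2 => hF' z (inter_FP_RU hG hπ hd z h2 h1))
    (fun _ M M' h => fac_RU_FP hG hπ hd M M' h) hl (m := m) hz hw' (toL L (s g) hgL)
    (toL L (s t) hLt) htz ?_ ?_ h0 h1 h2 hx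
  · -- unramified
    intro h' n1 n2
    have : FiniteDimensional K (IntermediateField.adjoin L {z}) :=
      FiniteDimensional.trans K L (IntermediateField.adjoin L {z})
    have : IsScalarTower k L (maxUnramified k K) := IsScalarTower.of_algebraMap_eq (fun _ => rfl)
    have : IsScalarTower k K (IntermediateField.adjoin L {z}) :=
      IsScalarTower.of_algebraMap_eq (fun _ => rfl)
    let f : IntermediateField.adjoin L {z} →ₐ[K] maxUnramified k K :=
      (IntermediateField.adjoin L {z}).val.restrictScalars K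
    refine root_of_NPow hG hπ hd f hF hF' ?_ hN0 h' n1 n2
    intro c
    have h3 : algebraMap F (IntermediateField.adjoin L {z}) (algebraMap κ F c) =
        algebraMap L (IntermediateField.adjoin L {z}) (algebraMap F L (algebraMap κ F c)) :=
      IsScalarTower.algebraMap_apply F L (IntermediateField.adjoin L {z}) _
    rw [h3]
    exact (hκ c).map (IsScalarTower.toAlgHom k L (IntermediateField.adjoin L {z}))
  · -- tameness
    intro y _
    have : FiniteDimensional K (IntermediateField.adjoin K {y}) :=
      IntermediateField.adjoin.finiteDimensional (Algebra.IsIntegral.isIntegral y)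
    let V : Subgroup (ConstGal k K) :=
      (IntermediateField.fixingSubgroup (IntermediateField.adjoin K {y})).comap s
    have hV : IsOpen (V : Set (ConstGal k K)) :=
      (IntermediateField.fixingSubgroup_isOpen (IntermediateField.adjoin K {y})).preimage hs.1
    obtain ⟨N1, hN1⟩ := Fp4_831.exists_openNormal_le V hV
    obtain ⟨e, he1, he2⟩ := hB N1
    refine ⟨e, he1, ?_⟩
    have h3 : s ((t ^ e)⁻¹ * (g * t * g⁻¹)) y = y :=
      hN1 he2 ⟨y, IntermediateField.mem_adjoin_simple_self K y⟩
    rw [toL_symm_apply, toL_apply, toL_apply, toL_pow_apply]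
    rw [map_mul, map_mul, map_mul, map_inv, map_inv, map_pow, AlgEquiv.mul_apply,
      AlgEquiv.mul_apply, AlgEquiv.mul_apply] at h3
    have h4 := congrArg (s t ^ e) h3
    rw [← h4]
    exact (AlgEquiv.apply_symm_apply (s t ^ e) _).symm

end Circle

end Final

end Crest.Agent.R013.LemT_874
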