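import Crest.Agent.R013.LemW1_623

/-!
# Birkhoff triples (row 13, leaf LEMW, part 2)

`A`, `A'` subalgebras of the field `E`, `y ∈ A`, `y⁻¹ ∈ A'`, with `A ∩ y^m A' ⊆ k[y]_{≤ m}` and
`Eˣ = A'ˣ y^ℤ Aˣ`.  Then `A` and `A'` are Weierstrass rings and there is an order function
`ord : E → ℤ`, trivial on `A'ˣ` and on `Aˣ`, with `ord y = 1`.
-/

set_option autoImplicit false
set_option linter.unusedSectionVars false

namespace Crest.Agent.R013.LemW623

open Polynomial

variable {k E : Type*} [Field k] [Field E] [Algebra k E]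

/-- Birkhoff triples. -/
structure Bk (k : Type*) {E : Type*} [Field k] [Field E] [Algebra k E] (A A' : Subalgebra k E)
    (y : E) : Prop where
  y_mem : y ∈ A
  z_mem : y⁻¹ ∈ A'
  transc : Transcendental k y
  inter : ∀ (m : ℕ) (w : E), w ∈ A → w / y ^ m ∈ A' →
    ∃ p : k[X], p.natDegree ≤ m ∧ w = aeval y p
  fac : ∀ x : E, x ≠ 0 → ∃ (m : ℤ) (a b : E), UnitIn A' a ∧ UnitIn A b ∧ x = a * y ^ m * b

theorem transc_ne {y : E} (hy : Transcendental k y) : y ≠ 0 := by
  rintro rfl; exact hy (isAlgebraic_zero)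

/-- A polynomial in `y` divided by `y^n`, `n ≥ deg`, is a polynomial in `1/y`. -/
theorem poly_div_pow {y : E} (hy : y ≠ 0) (p : k[X]) (n : ℕ) (hn : p.natDegree ≤ n) :
    ∃ q : k[X], q.natDegree ≤ n ∧ aeval y p / y ^ n = aeval (y⁻¹) q := by
  refine ⟨∑ i ∈ Finset.range (p.natDegree + 1), C (p.coeff i) * X ^ (n - i), ?_, ?_⟩
  · refine natDegree_sum_le_of_forall_le _ _ fun i _ => ?_
    exact (natDegree_C_mul_X_pow_le _ _).trans (Nat.sub_le _ _)
  rw [aeval_eq_sum_range, Finset.sum_div, map_sum]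
  refine Finset.sum_congr rfl fun i hi => ?_
  rw [Finset.mem_range] at hi
  rw [map_mul, aeval_C, map_pow, aeval_X, Algebra.smul_def]
  have : y ^ n = y ^ i * y ^ (n - i) := by
    rw [← pow_add]; congr 1; omega
  rw [this, inv_pow]
  field_simp

/-- A polynomial in `1/y` times `y^n`, `n ≥ deg`, is a polynomial in `y`. -/
theorem poly_inv_mul_pow {y : E} (hy : y ≠ 0) (p : k[X]) (n : ℕ) (hn : p.natDegree ≤ n) :
    ∃ q : k[X], q.natDegree ≤ n ∧ aeval (y⁻¹) p * y ^ n = aeval y q := by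
  obtain ⟨q, hq, e⟩ := poly_div_pow (inv_ne_zero hy) p n hn
  refine ⟨q, hq, ?_⟩
  rw [inv_inv] at e
  rw [← e, inv_pow, div_inv_eq_mul]

namespace Bk

variable {A A' : Subalgebra k E} {y : E} (h : Bk k A A' y)

include h

theorem ne : y ≠ 0 := transc_ne h.transc

theorem ae_ne {p : k[X]} (hp : p ≠ 0) : aeval y p ≠ 0 := aeval_ne_zero' h.transc hp

theorem aeval_mem (p : k[X]) : aeval y p ∈ A := by
  have : aeval y p = (aeval (⟨y, h.y_mem⟩ : A) p : A) := by
    rw [← Subalgebra.coe_val, ← aeval_algHom_apply]; rfl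
  rw [this]; exact (aeval (⟨y, h.y_mem⟩ : A) p).2

theorem transc_inv : Transcendental k y⁻¹ := by
  intro hh
  have := hh.inv
  rw [inv_inv] at this
  exact h.transc this

/-- The roles of `A` and `A'` are symmetric. -/
theorem symm : Bk k A' A y⁻¹ where
  y_mem := h.z_mem
  z_mem := by rw [inv_inv]; exact h.y_mem
  transc := h.transc_inv
  inter := by
    intro m w hw hw'
    rw [inv_pow, div_inv_eq_mul] at hw'
    have hym := pow_ne_zero m h.ne
    obtain ⟨p, hp, e⟩ := h.inter m (w * y ^ m) hw' (by rw [mul_div_cancel_right₀ _ hym]; exact hw)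
    obtain ⟨q, hq, e'⟩ := poly_div_pow h.ne p m hp
    refine ⟨q, hq, ?_⟩
    rw [← e', ← e, mul_div_cancel_right₀ _ hym]
  fac := by
    intro x hx
    obtain ⟨m, a, b, ha, hb, rfl⟩ := h.fac x hx
    refine ⟨-m, b, a, hb, ha, ?_⟩
    rw [inv_zpow', neg_neg]; ring

theorem aeval_inv_mem (p : k[X]) : aeval y⁻¹ p ∈ A' := h.symm.aeval_mem p

theorem div_pow_mem (p : k[X]) {n : ℕ} (hn : p.natDegree ≤ n) : aeval y p / y ^ n ∈ A' := by
  obtain ⟨q, -, e⟩ := poly_div_pow h.ne p n hn
  rw [e]; exact h.aeval_inv_mem q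

theorem inter_const {w : E} (hw : w ∈ A) (hw' : w ∈ A') : ∃ c : k, w = algebraMap k E c := by
  obtain ⟨p, hp, e⟩ := h.inter 0 w hw (by rwa [pow_zero, div_one])
  rw [Polynomial.eq_C_of_natDegree_le_zero hp, aeval_C] at e
  exact ⟨_, e⟩

/-- `y ^ (j+1) ∉ A'`. -/
theorem pow_not_mem (j : ℕ) : y ^ (j + 1) ∉ A' := by
  intro hh
  obtain ⟨c, hc⟩ := h.inter_const (pow_mem h.y_mem (j + 1)) hh
  have h1 : aeval y (X ^ (j + 1) - C c : k[X]) = 0 := by
    rw [map_sub, map_pow, aeval_X, aeval_C, hc, sub_self]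
  have h2 := (transcendental_iff.1 h.transc) _ h1
  have h3 := congrArg (fun p => coeff p (j + 1)) h2
  simp at h3

theorem fac_one {m : ℤ} {a b : E} (ha : UnitIn A' a) (hb : UnitIn A b) (e : a * y ^ m * b = 1) :
    m = 0 := by
  -- it suffices to treat `m > 0` for all triples
  have key : ∀ {A A' : Subalgebra k E} {y : E} (_ : Bk k A A' y) (j : ℕ) {a b : E},
      UnitIn A' a → UnitIn A b → a * y ^ (j + 1) * b = 1 → False := by
    intro A A' y h j a b ha hb e
    have hy := h.ne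
    have h1 : b = a⁻¹ * (y⁻¹) ^ (j + 1) := by
      have := pow_ne_zero (j + 1) hy
      rw [inv_pow]
      field_simp [ha.ne]
      linear_combination e
    have h2 : b ∈ A' := by rw [h1]; exact mul_mem ha.inv_mem (pow_mem h.z_mem _)
    obtain ⟨c, hc⟩ := h.inter_const hb.mem h2
    have hc0 : c ≠ 0 := by
      rintro rfl; rw [map_zero] at hc; exact hb.ne hc
    apply h.pow_not_mem j
    have h3 : y ^ (j + 1) = a⁻¹ * algebraMap k E c⁻¹ := by
      rw [map_inv₀, ← hc]
      have := ha.ne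
      have := hb.ne
      field_simp
      linear_combination e
    rw [h3]
    exact mul_mem ha.inv_mem (A'.algebraMap_mem _)
  rcases lt_trichotomy m 0 with h0 | h0 | h0
  · exfalso
    obtain ⟨j, hj⟩ : ∃ j : ℕ, -m = ((j + 1 : ℕ) : ℤ) := ⟨(-m - 1).toNat, by omega⟩
    refine key h.symm j hb ha ?_
    have h1 : (y⁻¹) ^ (j + 1) = y ^ m := by
      rw [← zpow_natCast, ← hj, inv_zpow', neg_neg]
    rw [h1]
    linear_combination e
  · exact h0
  · exfalso
    obtain ⟨j, hj⟩ : ∃ j : ℕ, m = ((j + 1 : ℕ) : ℤ) := ⟨(m - 1).toNat, by omega⟩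
    rw [hj, zpow_natCast] at e
    exact key h j ha hb e

theorem fac_unique {m m' : ℤ} {a b a' b' : E} (ha : UnitIn A' a) (hb : UnitIn A b)
    (ha' : UnitIn A' a') (hb' : UnitIn A b') (e : a * y ^ m * b = a' * y ^ m' * b') : m = m' := by
  have h1 : (a / a') * y ^ (m - m') * (b / b') = 1 := by
    have := ha'.ne
    have := hb'.ne
    rw [zpow_sub₀ h.ne]
    have := zpow_ne_zero m' h.ne
    field_simp
    exact e
  have := h.fac_one (ha.div ha') (hb.div hb') h1
  omega

open Classical in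
/-- The order of an element of `E` (order at `0` of the reduction). -/
noncomputable def ord (x : E) : ℤ := if hx : x ≠ 0 then (h.fac x hx).choose else 0

theorem ord_spec {x : E} (hx : x ≠ 0) :
    ∃ a b : E, UnitIn A' a ∧ UnitIn A b ∧ x = a * y ^ h.ord x * b := by
  rw [ord, dif_pos hx]
  exact (h.fac x hx).choose_spec

theorem ord_eq {x : E} {m : ℤ} {a b : E} (ha : UnitIn A' a) (hb : UnitIn A b)
    (e : x = a * y ^ m * b) : h.ord x = m := by
  have hx : x ≠ 0 := by
    rw [e]; exact mul_ne_zero (mul_ne_zero ha.ne (zpow_ne_zero _ h.ne)) hb.ne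
  obtain ⟨a', b', ha', hb', e'⟩ := h.ord_spec hx
  exact h.fac_unique ha' hb' ha hb (e'.symm.trans e)

theorem ord_mul {x x' : E} (hx : x ≠ 0) (hx' : x' ≠ 0) : h.ord (x * x') = h.ord x + h.ord x' := by
  obtain ⟨a, b, ha, hb, e⟩ := h.ord_spec hx
  obtain ⟨a', b', ha', hb', e'⟩ := h.ord_spec hx'
  refine h.ord_eq (ha.mul ha') (hb.mul hb') ?_
  conv_lhs => rw [e, e']
  rw [zpow_add₀ h.ne]; ring

theorem ord_one : h.ord 1 = 0 :=
  h.ord_eq UnitIn.one UnitIn.one (by simp)

theorem ord_inv {x : E} (hx : x ≠ 0) : h.ord x⁻¹ = -h.ord x := by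
  have := h.ord_mul hx (inv_ne_zero hx)
  rw [mul_inv_cancel₀ hx, h.ord_one] at this
  omega

theorem ord_div {x x' : E} (hx : x ≠ 0) (hx' : x' ≠ 0) : h.ord (x / x') = h.ord x - h.ord x' := by
  rw [div_eq_mul_inv, h.ord_mul hx (inv_ne_zero hx'), h.ord_inv hx']; ring

theorem ord_pow {x : E} (hx : x ≠ 0) (n : ℕ) : h.ord (x ^ n) = n * h.ord x := by
  induction n with
  | zero => rw [pow_zero, h.ord_one, Nat.cast_zero, zero_mul]
  | succ n ih => rw [pow_succ, h.ord_mul (pow_ne_zero _ hx) hx, ih]; push_cast; ring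

theorem ord_zpow {x : E} (hx : x ≠ 0) (n : ℤ) : h.ord (x ^ n) = n * h.ord x := by
  cases n with
  | ofNat n => rw [Int.ofNat_eq_natCast, zpow_natCast, h.ord_pow hx]
  | negSucc n =>
    rw [zpow_negSucc, h.ord_inv (pow_ne_zero _ hx), h.ord_pow hx, Int.negSucc_eq]
    push_cast; ring

theorem ord_prod {ι : Type*} (s : Finset ι) (f : ι → E) (hf : ∀ i ∈ s, f i ≠ 0) :
    h.ord (∏ i ∈ s, f i) = ∑ i ∈ s, h.ord (f i) := by
  classical
  induction s using Finset.induction_on with
  | empty => rw [Finset.prod_empty, Finset.sum_empty, h.ord_one]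
  | insert i s hi ih =>
    rw [Finset.prod_insert hi, Finset.sum_insert hi,
      h.ord_mul (hf i (Finset.mem_insert_self _ _))
        (Finset.prod_ne_zero_iff.2 fun j hj => hf j (Finset.mem_insert_of_mem hj)),
      ih fun j hj => hf j (Finset.mem_insert_of_mem hj)]

theorem ord_y : h.ord y = 1 := h.ord_eq UnitIn.one UnitIn.one (by simp)

theorem ord_unit {x : E} (hx : UnitIn A x) : h.ord x = 0 := h.ord_eq UnitIn.one hx (by simp)

theorem ord_unit' {x : E} (hx : UnitIn A' x) : h.ord x = 0 := h.ord_eq hx UnitIn.one (by simp)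

/-- The order function of the symmetric triple is the opposite. -/
theorem ord_symm {x : E} (hx : x ≠ 0) : h.symm.ord x = -h.ord x := by
  obtain ⟨a, b, ha, hb, e⟩ := h.ord_spec hx
  refine h.symm.ord_eq hb ha ?_
  rw [inv_zpow', neg_neg]
  conv_lhs => rw [e]
  ring

/-- **Weierstrass preparation.** -/
theorem weier {a : E} (ha : a ∈ A) (ha0 : a ≠ 0) :
    ∃ (u : E) (p : k[X]) (m : ℕ), UnitIn A u ∧ p.natDegree ≤ m ∧ (m : ℤ) = h.ord a ∧
      a = u * aeval y p ∧ UnitIn A' (aeval y p / y ^ m) := by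
  obtain ⟨a', b, ha', hb, e⟩ := h.ord_spec ha0
  have hy := h.ne
  have hw : a' * y ^ h.ord a ∈ A := by
    have : a' * y ^ h.ord a = a * b⁻¹ := by
      rw [eq_mul_inv_iff_mul_eq₀ hb.ne]; exact e.symm
    rw [this]; exact mul_mem ha hb.inv_mem
  have hm : 0 ≤ h.ord a := by
    by_contra hneg
    push Not at hneg
    obtain ⟨j, hj⟩ : ∃ j : ℕ, h.ord a = -((j + 1 : ℕ) : ℤ) := ⟨(-h.ord a - 1).toNat, by omega⟩
    rw [hj, zpow_neg, zpow_natCast] at hw
    have hw' : a' * (y ^ (j + 1))⁻¹ ∈ A' := by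
      rw [← inv_pow]; exact mul_mem ha'.mem (pow_mem h.z_mem _)
    obtain ⟨c, hc⟩ := h.inter_const hw hw'
    have hc0 : c ≠ 0 := by
      rintro rfl
      rw [map_zero] at hc
      exact mul_ne_zero ha'.ne (inv_ne_zero (pow_ne_zero _ hy)) hc
    apply h.pow_not_mem j
    have h3 : y ^ (j + 1) = a' * algebraMap k E c⁻¹ := by
      rw [map_inv₀, ← hc]
      have := ha'.ne
      field_simp
    rw [h3]
    exact mul_mem ha'.mem (A'.algebraMap_mem _)
  obtain ⟨m, hm'⟩ := Int.eq_ofNat_of_zero_le hm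
  rw [hm', zpow_natCast] at hw e
  obtain ⟨p, hp, ep⟩ := h.inter m (a' * y ^ m) hw (by
    rw [mul_div_cancel_right₀ _ (pow_ne_zero _ hy)]; exact ha'.mem)
  refine ⟨b, p, m, hb, hp, hm'.symm, ?_, ?_⟩
  · rw [← ep, mul_comm]; exact e
  · rw [← ep, mul_div_cancel_right₀ _ (pow_ne_zero _ hy)]; exact ha'

/-- Every irreducible polynomial has all its roots inside or is a unit of `A`. -/
theorem irr_cases {P : k[X]} (hP : Irreducible P) :
    UnitIn A (aeval y P) ∨ UnitIn A' (aeval y P / y ^ P.natDegree) := by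
  have hP0 := hP.ne_zero
  obtain ⟨b, p, m, hb, hp, hm, e, hu⟩ := h.weier (h.aeval_mem P) (h.ae_ne hP0)
  have hy := h.ne
  have hpy : aeval y p ≠ 0 := by
    intro h0; have := hu.ne; rw [h0, zero_div] at this; exact this rfl
  have hb' : b / y ^ P.natDegree ∈ A' := by
    have h1 : b / y ^ P.natDegree =
        (aeval y P / y ^ P.natDegree) * (aeval y p / y ^ m)⁻¹ * (y⁻¹) ^ m := by
      rw [e, inv_div, inv_pow]
      field_simp
    rw [h1]
    exact mul_mem (mul_mem (h.div_pow_mem P le_rfl) hu.inv_mem) (pow_mem h.z_mem _)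
  obtain ⟨q, hq, eq⟩ := h.inter _ b hb.mem hb'
  have hPqp : P = q * p := by
    apply aeval_injective' h.transc
    rw [map_mul, ← eq, e]
  rcases hP.isUnit_or_isUnit hPqp with h1 | h1
  · right
    obtain ⟨c, hc, rfl⟩ := Polynomial.isUnit_iff.1 h1
    have hd : P.natDegree = p.natDegree := by rw [hPqp, natDegree_C_mul hc.ne_zero]
    -- the degree of `p` is `m`
    have hpm : p.natDegree = m := by
      by_contra hne
      have hlt : p.natDegree + 1 ≤ m := by omega
      apply h.pow_not_mem 0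
      have h2 : y ^ (0 + 1) = (aeval y p / y ^ m)⁻¹ * (aeval y p / y ^ (m - 1)) := by
        obtain ⟨l, rfl⟩ : ∃ l, m = l + 1 := ⟨m - 1, by omega⟩
        rw [Nat.add_sub_cancel, inv_div]
        field_simp
        ring
      rw [h2]
      exact mul_mem hu.inv_mem (h.div_pow_mem p (by omega))
    rw [hd, hpm]
    have h3 : aeval y P / y ^ m = algebraMap k E c * (aeval y p / y ^ m) := by
      rw [hPqp, map_mul, aeval_C, mul_div_assoc]
    rw [h3]
    exact (UnitIn.algMap hc.ne_zero).mul hu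
  · left
    obtain ⟨c, hc, rfl⟩ := Polynomial.isUnit_iff.1 h1
    rw [e, aeval_C]
    exact hb.mul (UnitIn.algMap hc.ne_zero)

/-- `A` is a Weierstrass ring. -/
theorem wr : Wr k A y where
  t_mem := h.y_mem
  transc := h.transc
  weier := by
    intro a ha ha0
    obtain ⟨u, p, m, hu, -, -, e, -⟩ := h.weier ha ha0
    exact ⟨u, p, hu, e⟩
  prime := by
    intro P hP
    rcases h.irr_cases hP with h1 | h1
    · exact Or.inl h1
    · right
      intro f hf
      have hPy := h.ae_ne hP.ne_zero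
      have hy := h.ne
      obtain ⟨q, -, hq⟩ := h.inter f.natDegree _ hf (by
        have h2 : aeval y f / aeval y P / y ^ f.natDegree =
            (aeval y f / y ^ f.natDegree) * (aeval y P / y ^ P.natDegree)⁻¹ *
              (y⁻¹) ^ P.natDegree := by
          rw [inv_div, inv_pow]
          field_simp
        rw [h2]
        exact mul_mem (mul_mem (h.div_pow_mem f le_rfl) h1.inv_mem) (pow_mem h.z_mem _))
      refine ⟨q, ?_⟩
      apply aeval_injective' h.transc
      rw [map_mul, ← hq, mul_div_cancel₀ _ hPy]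

theorem wr' : Wr k A' y⁻¹ := h.symm.wr

/-- `X` stays prime in `A`. -/
theorem inP_X : InP A y (X : k[X]) := by
  rcases h.wr.unit_or_in (irreducible_X : Irreducible (X : k[X])) with h1 | h1
  · exfalso
    rw [aeval_X] at h1
    have h2 := h.ord_unit h1
    rw [h.ord_y] at h2
    exact one_ne_zero h2
  · exact h1

end Bk

end Crest.Agent.R013.LemW623
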