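import Crest.Agent.R013.LemW2_623

/-!
# The slope congruence (row 13, leaf LEMW, part 4)

`(A, A', y)` a Birkhoff triple in `E`.  Sequences `b i`, `α i`, `β i`, `t i` in `Eˣ` with
`α i * b i = β i * b (i+1)`, `β i` locally an `n`-th power at all primes of `A`, `α i` locally an
`n`-th power at all primes of `A'` except `y = ∞`, where it is locally `t i / t (i+1)` times an `n`-th
power.  Then `ord (∏_{i<n} b i) ≡ v_∞ (∏_{i<n} t i)` modulo `n`.
-/

set_option autoImplicit false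
set_option linter.unusedSectionVars false

namespace Crest.Agent.R013.LemW623

open Polynomial

variable {k E : Type*} [Field k] [Field E] [Algebra k E]

/-- `x` is locally at `P` an `n`-th power times a unit. -/
def LocPowAt (A : Subalgebra k E) (t : E) (P : k[X]) (n : ℕ) (x : E) : Prop :=
  ∃ c w : E, c ∈ Fr A t ∧ w ∈ OP A t P ∧ w⁻¹ ∈ OP A t P ∧ x = c ^ n * w

namespace Bk

variable {A A' : Subalgebra k E} {y : E} (h : Bk k A A' y)

include h

theorem dvd_ord_of_locPow {n : ℕ} (hn : 0 < n) {x : E} (hx : x ∈ Fr A y) (hx0 : x ≠ 0)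
    (hl : ∀ P, InP A y P → LocPowAt A y P n x) : (n : ℤ) ∣ h.ord x := by
  obtain ⟨u, f, g, hu, hf, hg, rfl⟩ := h.wr.pow_of_locPow hn hx hx0 hl
  have hfg : aeval y f / aeval y g ≠ 0 := div_ne_zero (h.ae_ne hf) (h.ae_ne hg)
  rw [h.ord_mul hu.ne (pow_ne_zero _ hfg), h.ord_pow hfg, h.ord_unit hu, zero_add]
  exact dvd_mul_right _ _

/-- The version for `A'` with a correction at infinity. -/
theorem dvd_ord_of_locPow' {n : ℕ} (hn : 0 < n) {x : E} (hx : x ∈ Fr A' y⁻¹) (hx0 : x ≠ 0)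
    {s s' : E} {e e' : ℤ} (hs : IsV A' y⁻¹ X s e) (hs' : IsV A' y⁻¹ X s' e')
    (hl : ∀ P, InP A' y⁻¹ P → ¬ (X : k[X]) ∣ P → LocPowAt A' y⁻¹ P n x)
    (hX : LocPowAt A' y⁻¹ X n (x * s / s')) : (n : ℤ) ∣ h.ord x - (e - e') := by
  have hy := h.ne
  have hyi := inv_ne_zero hy
  have hw := h.wr'
  have hXirr : Irreducible (X : k[X]) := irreducible_X
  have hs0 := hw.isV_ne X_ne_zero hs
  have hs0' := hw.isV_ne X_ne_zero hs'
  set x1 : E := x * y⁻¹ ^ (e - e') with hx1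
  have hx10 : x1 ≠ 0 := mul_ne_zero hx0 (zpow_ne_zero _ hyi)
  have hzFr : y⁻¹ ∈ hw.frac := hw.subset_Fr h.z_mem
  have hx1Fr : x1 ∈ Fr A' y⁻¹ := hw.Fr_mul hx (show y⁻¹ ^ (e - e') ∈ hw.frac from zpow_mem hzFr _)
  have key : (n : ℤ) ∣ h.symm.ord x1 := by
    refine h.symm.dvd_ord_of_locPow hn hx1Fr hx10 fun P hP => ?_
    by_cases hXP : (X : k[X]) ∣ P
    · -- `P` is associated to `X`
      have hass : Associated X P := hXirr.associated_of_dvd hP.irr hXP
      have hXLoc : LocPowAt A' y⁻¹ X n x1 := by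
        obtain ⟨c, w, hc, hw1, hw2, e1⟩ := hX
        have hx' : x1 = c ^ n * (w * (s' * s⁻¹ * y⁻¹ ^ (e - e'))) := by
          have : x = c ^ n * w * s' / s := by
            rw [← e1]; field_simp
          rw [hx1, this]; ring
        have hVz : IsV A' y⁻¹ X (s' * s⁻¹ * y⁻¹ ^ (e - e')) 0 := by
          have h1 : IsV A' y⁻¹ X (y⁻¹ ^ (e - e')) (e - e') := by
            refine ⟨1, 1, 1, UnitIn.one, hXirr.prime.not_dvd_one, hXirr.prime.not_dvd_one, ?_⟩
            rw [aeval_X]; simp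
          have h2 := hw.isV_mul hXirr (hw.isV_mul hXirr hs' (hw.isV_inv hs)) h1
          have h3 : e' + -e + (e - e') = 0 := by ring
          rwa [h3] at h2
        refine ⟨c, _, hc, hw.OP_mul hXirr hw1 (hw.mem_OP_of_isV le_rfl hVz), ?_, hx'⟩
        rw [mul_inv]
        refine hw.OP_mul hXirr hw2 (hw.mem_OP_of_isV ?_ (hw.isV_inv hVz))
        simp
      obtain ⟨c, w, hc, ⟨a, ha, g, hg, e1⟩, ⟨a', ha', g', hg', e1'⟩, e2⟩ := hXLoc
      exact ⟨c, w, hc, ⟨a, ha, g, fun hh => hg (hass.dvd.trans hh), e1⟩,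
        ⟨a', ha', g', fun hh => hg' (hass.dvd.trans hh), e1'⟩, e2⟩
    · obtain ⟨c, w, hc, hw1, hw2, e1⟩ := hl P hP hXP
      -- `y⁻¹` is a unit at `P`
      have hPX : ¬ P ∣ X := fun hh => hXP ((hP.irr.associated_of_dvd hXirr hh).symm.dvd)
      have hz1 : y⁻¹ ∈ hw.locRing hP.irr := hw.subset_OP hP.irr h.z_mem
      have hz2 : (y⁻¹)⁻¹ ∈ hw.locRing hP.irr :=
        ⟨1, one_mem _, X, hPX, by rw [aeval_X, one_div]⟩
      have hzz : ∀ j : ℤ, y⁻¹ ^ j ∈ hw.locRing hP.irr := by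
        intro j
        cases j with
        | ofNat j => rw [Int.ofNat_eq_natCast, zpow_natCast]; exact pow_mem hz1 _
        | negSucc j => rw [zpow_negSucc, ← inv_pow]; exact pow_mem hz2 _
      refine ⟨c, w * y⁻¹ ^ (e - e'), hc, hw.OP_mul hP.irr hw1 (hzz _), ?_, ?_⟩
      · rw [mul_inv, ← zpow_neg]
        exact hw.OP_mul hP.irr hw2 (hzz _)
      · rw [hx1, e1]; ring
  rw [h.ord_symm hx10, hx1, h.ord_mul hx0 (zpow_ne_zero _ hyi), h.ord_zpow hyi,
    h.ord_inv hy, h.ord_y] at key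
  have h5 : h.ord x - (e - e') = -(-(h.ord x + (e - e') * -1)) := by ring
  rw [h5]
  exact key.neg_right

/-- **The slope congruence.** -/
theorem slope_congr {n : ℕ} (hn : 0 < n) (b al be t : ℕ → E) (eps : ℕ → ℤ)
    (hb0 : ∀ i, b i ≠ 0) (hal0 : ∀ i, al i ≠ 0) (hbe0 : ∀ i, be i ≠ 0)
    (hrel : ∀ i, al i * b i = be i * b (i + 1))
    (hbeFr : ∀ i, be i ∈ Fr A y) (halFr : ∀ i, al i ∈ Fr A' y⁻¹)
    (hbe : ∀ i P, InP A y P → LocPowAt A y P n (be i))
    (hal : ∀ i P, InP A' y⁻¹ P → ¬ (X : k[X]) ∣ P → LocPowAt A' y⁻¹ P n (al i))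
    (ht : ∀ i, IsV A' y⁻¹ X (t i) (eps i))
    (halX : ∀ i, LocPowAt A' y⁻¹ X n (al i * t (i + 1) / t i)) :
    (n : ℤ) ∣ h.ord (∏ i ∈ Finset.range n, b i) - ∑ i ∈ Finset.range n, eps i := by
  have h1 : ∀ i, (n : ℤ) ∣ (h.ord (b (i + 1)) - eps (i + 1)) - (h.ord (b i) - eps i) := by
    intro i
    have e1 := congrArg h.ord (hrel i)
    rw [h.ord_mul (hal0 i) (hb0 i), h.ord_mul (hbe0 i) (hb0 (i + 1))] at e1
    have e2 := h.dvd_ord_of_locPow hn (hbeFr i) (hbe0 i) (hbe i)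
    have e3 := h.dvd_ord_of_locPow' hn (halFr i) (hal0 i) (ht (i + 1)) (ht i) (hal i) (halX i)
    have e4 : (h.ord (b (i + 1)) - eps (i + 1)) - (h.ord (b i) - eps i) =
        (h.ord (al i) - (eps (i + 1) - eps i)) - h.ord (be i) := by linarith
    rw [e4]
    exact dvd_sub e3 e2
  have h2 : ∀ i, (n : ℤ) ∣ (h.ord (b i) - eps i) - (h.ord (b 0) - eps 0) := by
    intro i
    induction i with
    | zero => simp
    | succ i ih =>
      have := dvd_add (h1 i) ih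
      have e : h.ord (b (i + 1)) - eps (i + 1) - (h.ord (b i) - eps i) +
          (h.ord (b i) - eps i - (h.ord (b 0) - eps 0)) =
          h.ord (b (i + 1)) - eps (i + 1) - (h.ord (b 0) - eps 0) := by ring
      rwa [e] at this
  rw [h.ord_prod _ _ fun i _ => hb0 i, ← Finset.sum_sub_distrib]
  have h3 : ∑ i ∈ Finset.range n, (h.ord (b i) - eps i) =
      ∑ i ∈ Finset.range n, ((h.ord (b i) - eps i) - (h.ord (b 0) - eps 0)) +
        n * (h.ord (b 0) - eps 0) := by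
    rw [Finset.sum_sub_distrib (f := fun i => h.ord (b i) - eps i), Finset.sum_const,
      Finset.card_range, nsmul_eq_mul]
    ring
  rw [h3]
  exact dvd_add (Finset.dvd_sum fun i _ => h2 i) (dvd_mul_right _ _)

end Bk

end Crest.Agent.R013.LemW623
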