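import Mathlib

/-!
# Norm lemmas (row 13, leaf LEMW, part 5)
-/

set_option autoImplicit false

open Polynomial TensorProduct

namespace Crest.Agent.R013.LemW623

theorem norm_prod' {E E' : Type*} [Field E] [CommRing E'] [Algebra E E'] [Module.Finite E E']
    (x : E × E') : Algebra.norm E x = x.1 * Algebra.norm E x.2 := by
  rw [Algebra.norm_apply, Algebra.norm_apply]
  have : (Algebra.lmul E (E × E')) x =
      LinearMap.prodMap (Algebra.lmul E E x.1) (Algebra.lmul E E' x.2) := by
    ext <;> simp
  rw [this, LinearMap.det_prodMap]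
  congr 1
  simp

theorem norm_tensor_map {F R E U : Type*} [Field F] [CommRing R] [Field E] [CommRing U]
    [Algebra F R] [Algebra R E] [Algebra F E] [IsScalarTower F R E] [Algebra F U]
    [Module.Finite F U] (x : R ⊗[F] U) :
    Algebra.norm E (Algebra.TensorProduct.map (IsScalarTower.toAlgHom F R E) (AlgHom.id F U) x) =
      algebraMap R E (Algebra.norm R x) := by
  have h2 : ∀ x : R ⊗[F] U, Algebra.TensorProduct.cancelBaseChange F R E E U ((1 : E) ⊗ₜ[R] x) =
      Algebra.TensorProduct.map (IsScalarTower.toAlgHom F R E) (AlgHom.id F U) x := by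
    intro x
    induction x with
    | zero => simp
    | tmul r u => simp [Algebra.smul_def]
    | add a b ha hb => rw [tmul_add, map_add, map_add, ha, hb]
  have h1 : Algebra.norm E ((1 : E) ⊗ₜ[R] x) = algebraMap R E (Algebra.norm R x) := by
    rw [Algebra.norm_apply, Algebra.norm_apply, ← Algebra.baseChange_lmul,
      LinearMap.det_baseChange]
  rw [← h1, ← h2, Algebra.norm_eq_of_algEquiv]

theorem norm_isIntegral {R E B : Type*} [CommRing R] [Field E] [Algebra R E] [CommRing B]
    [Algebra E B] [Algebra R B] [IsScalarTower R E B] [Module.Finite E B] (x : B)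
    (hx : IsIntegral R x) : IsIntegral R (Algebra.norm E x) := by
  classical
  obtain ⟨q, hq, hqx⟩ := hx
  let b := Module.Free.chooseBasis E B
  let Ω := AlgebraicClosure E
  set M := Algebra.leftMulMatrix b x with hM
  have e1 : Algebra.norm E x = M.det := by rw [Algebra.norm_eq_matrix_det b]
  have hqM : aeval M (q.map (algebraMap R E)) = 0 := by
    rw [hM, aeval_algHom_apply, aeval_map_algebraMap]
    have : aeval x q = 0 := hqx
    rw [this, map_zero]
  set N : Matrix _ _ Ω := M.map (algebraMap E Ω) with hN
  have hqN : aeval N (q.map (algebraMap R Ω)) = 0 := by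
    have h2 : N = (Algebra.ofId E Ω).mapMatrix M := rfl
    rw [h2]
    have h3 : q.map (algebraMap R Ω) = (q.map (algebraMap R E)).map (algebraMap E Ω) := by
      rw [Polynomial.map_map, ← IsScalarTower.algebraMap_eq]
    rw [h3, aeval_map_algebraMap, aeval_algHom_apply, hqM, map_zero]
  have hdet : algebraMap E Ω M.det = (N.charpoly.roots).prod := by
    rw [← Matrix.det_eq_prod_roots_charpoly, hN, RingHom.map_det]; rfl
  have hint : IsIntegral R (algebraMap E Ω M.det) := by
    rw [hdet]
    refine IsIntegral.multiset_prod ?_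
    intro lam hlam
    rw [mem_roots'] at hlam
    have h3 : lam ∈ spectrum Ω N := Matrix.mem_spectrum_iff_isRoot_charpoly.2 hlam.2
    have h4 : eval lam (q.map (algebraMap R Ω)) ∈ spectrum Ω (aeval N (q.map (algebraMap R Ω))) :=
      spectrum.subset_polynomial_aeval N _ ⟨lam, h3, rfl⟩
    have h5 : eval lam (q.map (algebraMap R Ω)) = 0 := by
      by_contra hne
      rw [hqN, spectrum.mem_iff, sub_zero] at h4
      exact h4 ((isUnit_iff_ne_zero.2 hne).map _)
    rw [eval_map_algebraMap] at h5
    exact ⟨q, hq, h5⟩
  rw [e1]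
  exact (isIntegral_algebraMap_iff (algebraMap E Ω).injective).1 hint

end Crest.Agent.R013.LemW623
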