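import Crest.Agent.R013.LemW4_623
import Crest.Agent.R013.LemW5_623

/-!
# The slope congruence for norms from a cyclic cover (row 13, leaf LEMW, part 6)

`slope_norm`: E-level form.  `slope_tensor`: form with `R ⊗ U`, `P ⊗ U`, `E ⊗ U ≃ E × E'`.
-/

set_option autoImplicit false
set_option linter.unusedSectionVars false

namespace Crest.Agent.R013.LemW623

open Polynomial TensorProduct

variable {k E : Type*} [Field k] [Field E] [Algebra k E]

/-- `w` is a root of a monic polynomial over `F` with coefficients in `S`. -/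
def IntE {F E B : Type*} [Field F] [Field E] [CommRing B] [Algebra F E] [Algebra F B]
    (S : Set E) (w : B) : Prop :=
  ∃ q : F[X], q.Monic ∧ (∀ i, algebraMap F E (q.coeff i) ∈ S) ∧ aeval w q = 0

section

variable {F : Type*} [Field F] [Algebra F E]

theorem IntE.map {B B' : Type*} [CommRing B] [Algebra F B] [CommRing B'] [Algebra F B']
    {S : Set E} {w : B} (hw : IntE (F := F) S w) (f : B →ₐ[F] B') : IntE (F := F) S (f w) := by
  obtain ⟨q, hq, hc, e⟩ := hw
  exact ⟨q, hq, hc, by rw [aeval_algHom_apply, e, map_zero]⟩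

namespace Wr

variable {A : Subalgebra k E} {t : E} (h : Wr k A t)

include h

theorem norm_mem_OP {B : Type*} [CommRing B] [Algebra E B] [Module.Finite E B] [Algebra F B]
    [IsScalarTower F E B] {P : k[X]} (hP : Irreducible P) {w : B}
    (hw : IntE (F := F) (OP A t P) w) (hn : Algebra.norm E w ∈ Fr A t) :
    Algebra.norm E w ∈ OP A t P := by
  obtain ⟨q, hq, hc, e⟩ := hw
  set O := h.locRing hP with hO
  -- lift the polynomial to `O`
  have hlift : ∃ q' : O[X], q'.map O.subtype = q.map (algebraMap F E) ∧ q'.Monic := by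
    have h1 : q.map (algebraMap F E) ∈ lifts O.subtype := by
      rw [lifts_iff_coeff_lifts]
      intro i
      rw [coeff_map]
      exact ⟨⟨_, hc i⟩, rfl⟩
    obtain ⟨q', e1, -, e2⟩ := lifts_and_natDegree_eq_and_monic h1 (hq.map _)
    exact ⟨q', e1, e2⟩
  obtain ⟨q', e1, hq'⟩ := hlift
  let _ : Algebra O B := ((algebraMap E B).comp O.subtype).toAlgebra
  have _ : IsScalarTower O E B := IsScalarTower.of_algebraMap_eq' rfl
  have hint : IsIntegral O w := by
    refine ⟨q', hq', ?_⟩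
    have e3 : (algebraMap O B) = (algebraMap E B).comp O.subtype := rfl
    rw [e3, ← eval₂_map, e1, eval₂_map, ← IsScalarTower.algebraMap_eq F E B]
    exact e
  obtain ⟨r, hr, hr0⟩ := norm_isIntegral (R := O) (E := E) w hint
  refine h.OP_integral hP hn (r.map O.subtype) (hr.map _) ?_ ?_
  · intro i
    rw [coeff_map]
    exact (r.coeff i).2
  · rw [eval_map]; exact hr0

end Wr

namespace Bk

variable {A A' : Subalgebra k E} {y : E} (h : Bk k A A' y)

include h

/-- **The slope congruence, `E`-level form.** -/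
theorem slope_norm {n : ℕ} (hn : 0 < n) {W E' : Type*} [Field W] [CommRing E'] [Nontrivial E']
    [Algebra F W] [Algebra E E'] [Module.Finite E E'] [Algebra F E'] [IsScalarTower F E E']
    (σ : W →ₐ[F] W) (α β : W →ₐ[F] E × E')
    (h2 : ∀ w, (α w).2 = (β w).2) (h1 : ∀ w, (α w).1 = (β (σ w)).1)
    (hα : ∀ w, Algebra.norm E (α w) ∈ Fr A' y⁻¹) (hβ : ∀ w, Algebra.norm E (β w) ∈ Fr A y)
    (φ θ : W) (hφ : φ ≠ 0) (hθ : θ ≠ 0)
    (hP : ∀ P, InP A y P → ∃ ψ u : W, φ = ψ ^ n * u ∧ IntE (F := F) (OP A y P) u ∧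
      IntE (F := F) (OP A y P) u⁻¹)
    (hP' : ∀ P, InP A' y⁻¹ P → ¬ (X : k[X]) ∣ P → ∃ ψ u : W, φ = ψ ^ n * u ∧
      IntE (F := F) (OP A' y⁻¹ P) u ∧ IntE (F := F) (OP A' y⁻¹ P) u⁻¹)
    (hX : ∃ ψ u : W, φ * σ θ = ψ ^ n * u * θ ∧ IntE (F := F) (OP A' y⁻¹ X) u ∧
      IntE (F := F) (OP A' y⁻¹ X) u⁻¹)
    (d : ℤ) (hd : IsV A' y⁻¹ X (∏ i ∈ Finset.range n, Algebra.norm E (α ((σ ^ i) θ))) d) :
    (n : ℤ) ∣ h.ord (∏ i ∈ Finset.range n, (β ((σ ^ i) φ)).1) - d := by
  have hσ : ∀ (i : ℕ) (w : W), w ≠ 0 → (σ ^ i) w ≠ 0 := by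
    intro i w hw
    exact (map_ne_zero (σ ^ i)).2 hw
  have hσS : ∀ (i : ℕ) (w : W), (σ ^ (i + 1)) w = σ ((σ ^ i) w) := by
    intro i w; rw [pow_succ']; rfl
  have hunit : ∀ (w : W), w ≠ 0 → IsUnit w := fun w hw => isUnit_iff_ne_zero.2 hw
  have hα0 : ∀ w : W, w ≠ 0 → Algebra.norm E (α w) ≠ 0 := fun w hw =>
    ((hunit w hw).map ((Algebra.norm E).comp (α : W →* E × E'))).ne_zero
  have hβ0 : ∀ w : W, w ≠ 0 → Algebra.norm E (β w) ≠ 0 := fun w hw =>
    ((hunit w hw).map ((Algebra.norm E).comp (β : W →* E × E'))).ne_zero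
  have hb0 : ∀ w : W, w ≠ 0 → (β w).1 ≠ 0 := fun w hw => by
    have := ((hunit w hw).map β).map (RingHom.fst E E')
    exact this.ne_zero
  have hXirr : Irreducible (X : k[X]) := irreducible_X
  have hinp := h.symm.inP_X
  have key := h.slope_congr hn (fun i => (β ((σ ^ i) φ)).1)
    (fun i => Algebra.norm E (α ((σ ^ i) φ))) (fun i => Algebra.norm E (β ((σ ^ i) φ)))
    (fun i => Algebra.norm E (α ((σ ^ i) θ)))
    (fun i => (h.wr'.isV_exists hXirr (hα ((σ ^ i) θ)) (hα0 _ (hσ i θ hθ))).choose)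
    (fun i => hb0 _ (hσ i φ hφ)) (fun i => hα0 _ (hσ i φ hφ)) (fun i => hβ0 _ (hσ i φ hφ))
    (by
      intro i
      simp only [norm_prod', h1, h2, hσS]
      ring)
    (fun i => hβ _) (fun i => hα _)
    (by
      intro i P hPP
      obtain ⟨ψ, u, e, hu, hu'⟩ := hP P hPP
      refine ⟨Algebra.norm E (β ((σ ^ i) ψ)), Algebra.norm E (β ((σ ^ i) u)), hβ _,
        h.wr.norm_mem_OP hPP.irr (hu.map (β.comp (σ ^ i))) (hβ _), ?_, ?_⟩
      · have h3 : (Algebra.norm E (β ((σ ^ i) u)))⁻¹ = Algebra.norm E (β ((σ ^ i) u⁻¹)) := by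
          have hu0 : u ≠ 0 := by
            rintro rfl
            rw [mul_zero] at e
            exact hφ e
          rw [inv_eq_iff_eq_inv, eq_comm]
          refine inv_eq_of_mul_eq_one_left ?_
          rw [← map_mul, ← map_mul, ← map_mul, mul_inv_cancel₀ hu0]
          simp
        rw [h3]
        exact h.wr.norm_mem_OP hPP.irr (hu'.map (β.comp (σ ^ i))) (hβ _)
      · simp only [e, map_mul, map_pow])
    (by
      intro i P hPP hXP
      obtain ⟨ψ, u, e, hu, hu'⟩ := hP' P hPP hXP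
      refine ⟨Algebra.norm E (α ((σ ^ i) ψ)), Algebra.norm E (α ((σ ^ i) u)), hα _,
        h.wr'.norm_mem_OP hPP.irr (hu.map (α.comp (σ ^ i))) (hα _), ?_, ?_⟩
      · have h3 : (Algebra.norm E (α ((σ ^ i) u)))⁻¹ = Algebra.norm E (α ((σ ^ i) u⁻¹)) := by
          have hu0 : u ≠ 0 := by
            rintro rfl
            rw [mul_zero] at e
            exact hφ e
          rw [inv_eq_iff_eq_inv, eq_comm]
          refine inv_eq_of_mul_eq_one_left ?_
          rw [← map_mul, ← map_mul, ← map_mul, mul_inv_cancel₀ hu0]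
          simp
        rw [h3]
        exact h.wr'.norm_mem_OP hPP.irr (hu'.map (α.comp (σ ^ i))) (hα _)
      · simp only [e, map_mul, map_pow])
    (fun i => (h.wr'.isV_exists hXirr (hα ((σ ^ i) θ)) (hα0 _ (hσ i θ hθ))).choose_spec)
    (by
      intro i
      obtain ⟨ψ, u, e, hu, hu'⟩ := hX
      have hu0 : u ≠ 0 := by
        rintro rfl
        rw [mul_zero, zero_mul] at e
        exact mul_ne_zero hφ ((map_ne_zero σ).2 hθ) e
      refine ⟨Algebra.norm E (α ((σ ^ i) ψ)), Algebra.norm E (α ((σ ^ i) u)), hα _,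
        h.wr'.norm_mem_OP hXirr (hu.map (α.comp (σ ^ i))) (hα _), ?_, ?_⟩
      · have h3 : (Algebra.norm E (α ((σ ^ i) u)))⁻¹ = Algebra.norm E (α ((σ ^ i) u⁻¹)) := by
          rw [inv_eq_iff_eq_inv, eq_comm]
          refine inv_eq_of_mul_eq_one_left ?_
          rw [← map_mul, ← map_mul, ← map_mul, mul_inv_cancel₀ hu0]
          simp
        rw [h3]
        exact h.wr'.norm_mem_OP hXirr (hu'.map (α.comp (σ ^ i))) (hα _)
      · have e1 : (σ ^ i) φ * (σ ^ (i + 1)) θ = (σ ^ i) ψ ^ n * (σ ^ i) u * (σ ^ i) θ := by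
          have h5 : (σ ^ (i + 1)) θ = (σ ^ i) (σ θ) := by rw [pow_succ]; rfl
          rw [h5, ← map_mul, e, map_mul, map_mul, map_pow]
        have e2 := congrArg (fun w => Algebra.norm E (α w)) e1
        simp only [map_mul, map_pow] at e2
        rw [div_eq_iff (hα0 _ (hσ i θ hθ))]
        exact e2)
  have hd2 : IsV A' y⁻¹ X (∏ i ∈ Finset.range n, Algebra.norm E (α ((σ ^ i) θ)))
      (∑ i ∈ Finset.range n,
        (h.wr'.isV_exists hXirr (hα ((σ ^ i) θ)) (hα0 _ (hσ i θ hθ))).choose) := by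
    have : ∀ m : ℕ, IsV A' y⁻¹ X (∏ i ∈ Finset.range m, Algebra.norm E (α ((σ ^ i) θ)))
      (∑ i ∈ Finset.range m,
        (h.wr'.isV_exists hXirr (hα ((σ ^ i) θ)) (hα0 _ (hσ i θ hθ))).choose) := by
      intro m
      induction m with
      | zero => simpa using h.wr'.isV_unit hXirr UnitIn.one
      | succ m ih =>
        rw [Finset.prod_range_succ, Finset.sum_range_succ]
        exact h.wr'.isV_mul hXirr ih
          (h.wr'.isV_exists hXirr (hα ((σ ^ m) θ)) (hα0 _ (hσ m θ hθ))).choose_spec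
    exact this n
  rw [h.wr'.isV_unique hinp hd hd2]
  exact key

/-- **The slope congruence, tensor form.**  `U / F` finite, `W / U` with an automorphism `σ` such that
`N_{W/U} = ∏_{i<n} σ^i`; `a : W → R ⊗ U`, `b : W → P ⊗ U` over `U`, agreeing on the factor `E'` of
`E ⊗ U ≃ E × E'` and shifted by `σ` on the factor `E` (which is `ι : U → E`). -/
theorem slope_tensor {n : ℕ} (hn : 0 < n) {W U E' R P : Type*} [Field W] [Field U] [CommRing E']
    [Nontrivial E'] [Algebra F W] [Algebra F U] [Algebra U W] [IsScalarTower F U W]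
    [Module.Finite F U] [Module.Finite U W] [Algebra E E'] [Module.Finite E E'] [Algebra F E']
    [IsScalarTower F E E'] [CommRing R] [CommRing P] [Algebra F R] [Algebra F P] [Algebra R E]
    [Algebra P E] [IsScalarTower F R E] [IsScalarTower F P E]
    (hR : ∀ r : R, algebraMap R E r ∈ Fr A' y⁻¹) (hPf : ∀ r : P, algebraMap P E r ∈ Fr A y)
    (e : E ⊗[F] U ≃ₐ[E] E × E') (ι : U →ₐ[F] E) (hι : ∀ u : U, (e (1 ⊗ₜ[F] u)).1 = ι u)
    (a : W →ₐ[F] R ⊗[F] U) (b : W →ₐ[F] P ⊗[F] U)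
    (ha : ∀ u : U, a (algebraMap U W u) = 1 ⊗ₜ[F] u)
    (hb : ∀ u : U, b (algebraMap U W u) = 1 ⊗ₜ[F] u)
    (σ : W →ₐ[F] W)
    (h2 : ∀ w, (e (Algebra.TensorProduct.map (IsScalarTower.toAlgHom F R E) (AlgHom.id F U)
        (a w))).2 =
      (e (Algebra.TensorProduct.map (IsScalarTower.toAlgHom F P E) (AlgHom.id F U) (b w))).2)
    (h1 : ∀ w, (e (Algebra.TensorProduct.map (IsScalarTower.toAlgHom F R E) (AlgHom.id F U)
        (a w))).1 =
      (e (Algebra.TensorProduct.map (IsScalarTower.toAlgHom F P E) (AlgHom.id F U)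
        (b (σ w)))).1)
    (hσn : ∀ w : W, algebraMap U W (Algebra.norm U w) = ∏ i ∈ Finset.range n, (σ ^ i) w)
    (φ θ : W) (hφ : φ ≠ 0) (hθ : θ ≠ 0)
    (hP : ∀ P, InP A y P → ∃ ψ u : W, φ = ψ ^ n * u ∧ IntE (F := F) (OP A y P) u ∧
      IntE (F := F) (OP A y P) u⁻¹)
    (hP' : ∀ P, InP A' y⁻¹ P → ¬ (X : k[X]) ∣ P → ∃ ψ u : W, φ = ψ ^ n * u ∧
      IntE (F := F) (OP A' y⁻¹ P) u ∧ IntE (F := F) (OP A' y⁻¹ P) u⁻¹)
    (hX : ∃ ψ u : W, φ * σ θ = ψ ^ n * u * θ ∧ IntE (F := F) (OP A' y⁻¹ X) u ∧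
      IntE (F := F) (OP A' y⁻¹ X) u⁻¹)
    (d : ℤ) (hd : IsV A' y⁻¹ X (algebraMap F E (Algebra.norm F θ)) d) :
    (n : ℤ) ∣ h.ord (ι (Algebra.norm U φ)) - d := by
  have _ : Module.Finite F W := Module.Finite.trans U W
  set mR := Algebra.TensorProduct.map (IsScalarTower.toAlgHom F R E) (AlgHom.id F U) with hmR
  set mP := Algebra.TensorProduct.map (IsScalarTower.toAlgHom F P E) (AlgHom.id F U) with hmP
  set e' : E ⊗[F] U →ₐ[F] E × E' := (e.toAlgHom.restrictScalars F) with he'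
  have hee : ∀ x, e' x = e x := fun x => rfl
  have key := h.slope_norm hn σ ((e'.comp mR).comp a) ((e'.comp mP).comp b) h2 h1 ?_ ?_ φ θ hφ hθ
    hP hP' hX d ?_
  · have e1 : ∏ i ∈ Finset.range n, (((e'.comp mP).comp b) ((σ ^ i) φ)).1 =
        ι (Algebra.norm U φ) := by
      have e2 : ∏ i ∈ Finset.range n, (((e'.comp mP).comp b) ((σ ^ i) φ)).1 =
          (((e'.comp mP).comp b) (∏ i ∈ Finset.range n, (σ ^ i) φ)).1 := by
        rw [map_prod]
        exact (map_prod (RingHom.fst E E') _ _).symm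
      rw [e2, ← hσn]
      change (e (mP (b _))).1 = _
      rw [hb, hmP, Algebra.TensorProduct.map_tmul, map_one, AlgHom.id_apply, hι]
    rw [e1] at key
    exact key
  · intro w
    change Algebra.norm E (e (mR (a w))) ∈ _
    rw [Algebra.norm_eq_of_algEquiv, hmR, norm_tensor_map]
    exact hR _
  · intro w
    change Algebra.norm E (e (mP (b w))) ∈ _
    rw [Algebra.norm_eq_of_algEquiv, hmP, norm_tensor_map]
    exact hPf _
  · have e1 : ∏ i ∈ Finset.range n, Algebra.norm E (((e'.comp mR).comp a) ((σ ^ i) θ)) =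
        algebraMap F E (Algebra.norm F θ) := by
      rw [← map_prod, ← map_prod, ← hσn]
      change Algebra.norm E (e (mR (a _))) = _
      rw [Algebra.norm_eq_of_algEquiv, hmR, norm_tensor_map, ha]
      have e3 : ∀ u : U, Algebra.norm R ((1 : R) ⊗ₜ[F] u) = algebraMap F R (Algebra.norm F u) := by
        intro u
        rw [Algebra.norm_apply, Algebra.norm_apply, ← Algebra.baseChange_lmul,
          LinearMap.det_baseChange]
      rw [e3, Algebra.norm_norm, ← IsScalarTower.algebraMap_apply]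
    rw [e1]
    exact hd

end Bk

end

end Crest.Agent.R013.LemW623
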