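import Crest.Agent.R013.LemW6_623

/-!
# The slope congruence, `V`-form (row 13, leaf LEMW, part 7)

`V` a finite `E`-algebra, `ι : V → E`, `α, β : W → V` with
`N(α w) * ι (β w) = N(β w) * ι (β (σ w))`.
-/

set_option autoImplicit false
set_option linter.unusedSectionVars false

namespace Crest.Agent.R013.LemW623

open Polynomial TensorProduct

variable {k E : Type*} [Field k] [Field E] [Algebra k E]
variable {F : Type*} [Field F] [Algebra F E]

namespace Bk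

variable {A A' : Subalgebra k E} {y : E} (h : Bk k A A' y)

include h

/-- **The slope congruence, `V`-form.** -/
theorem slope_normV {n : ℕ} (hn : 0 < n) {W V : Type*} [Field W] [CommRing V]
    [Algebra F W] [Algebra E V] [Module.Finite E V] [Algebra F V] [IsScalarTower F E V]
    (σ : W →ₐ[F] W) (α β : W →ₐ[F] V) (ι : V →+* E)
    (hrel : ∀ w, Algebra.norm E (α w) * ι (β w) = Algebra.norm E (β w) * ι (β (σ w)))
    (hα : ∀ w, Algebra.norm E (α w) ∈ Fr A' y⁻¹) (hβ : ∀ w, Algebra.norm E (β w) ∈ Fr A y)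
    (φ θ : W) (hφ : φ ≠ 0) (hθ : θ ≠ 0)
    (hP : ∀ P, InP A y P → ∃ ψ u : W, φ = ψ ^ n * u ∧ IntE (F := F) (OP A y P) u ∧
      IntE (F := F) (OP A y P) u⁻¹)
    (hP' : ∀ P, InP A' y⁻¹ P → ¬ (X : k[X]) ∣ P → ∃ ψ u : W, φ = ψ ^ n * u ∧
      IntE (F := F) (OP A' y⁻¹ P) u ∧ IntE (F := F) (OP A' y⁻¹ P) u⁻¹)
    (hX : ∃ ψ u : W, φ * σ θ = ψ ^ n * u * θ ∧ IntE (F := F) (OP A' y⁻¹ X) u ∧
      IntE (F := F) (OP A' y⁻¹ X) u⁻¹)
    (d : ℤ) (hd : IsV A' y⁻¹ X (∏ i ∈ Finset.range n, Algebra.norm E (α ((σ ^ i) θ))) d) :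
    (n : ℤ) ∣ h.ord (∏ i ∈ Finset.range n, ι (β ((σ ^ i) φ))) - d := by
  have hσ : ∀ (i : ℕ) (w : W), w ≠ 0 → (σ ^ i) w ≠ 0 := by
    intro i w hw
    exact (map_ne_zero (σ ^ i)).2 hw
  have hσS : ∀ (i : ℕ) (w : W), (σ ^ (i + 1)) w = σ ((σ ^ i) w) := by
    intro i w; rw [pow_succ']; rfl
  have hunit : ∀ (w : W), w ≠ 0 → IsUnit w := fun w hw => isUnit_iff_ne_zero.2 hw
  have hα0 : ∀ w : W, w ≠ 0 → Algebra.norm E (α w) ≠ 0 := fun w hw =>
    ((hunit w hw).map ((Algebra.norm E).comp (α : W →* V))).ne_zero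
  have hβ0 : ∀ w : W, w ≠ 0 → Algebra.norm E (β w) ≠ 0 := fun w hw =>
    ((hunit w hw).map ((Algebra.norm E).comp (β : W →* V))).ne_zero
  have hb0 : ∀ w : W, w ≠ 0 → ι (β w) ≠ 0 := fun w hw =>
    (((hunit w hw).map β).map ι).ne_zero
  have hXirr : Irreducible (X : k[X]) := irreducible_X
  have hinp := h.symm.inP_X
  -- a general local statement
  have hloc : ∀ (γ : W →ₐ[F] V) (A₁ : Subalgebra k E) (t : E) (hw : Wr k A₁ t)
      (_ : ∀ w, Algebra.norm E (γ w) ∈ Fr A₁ t) (P : k[X]) (_ : Irreducible P) (u : W)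
      (_ : u ≠ 0) (_ : IntE (F := F) (OP A₁ t P) u) (_ : IntE (F := F) (OP A₁ t P) u⁻¹),
      Algebra.norm E (γ u) ∈ OP A₁ t P ∧ (Algebra.norm E (γ u))⁻¹ ∈ OP A₁ t P := by
    intro γ A₁ t hw hγ P hPi u hu0 hu hu'
    refine ⟨hw.norm_mem_OP hPi (hu.map γ) (hγ _), ?_⟩
    have h3 : (Algebra.norm E (γ u))⁻¹ = Algebra.norm E (γ u⁻¹) := by
      rw [inv_eq_iff_eq_inv, eq_comm]
      refine inv_eq_of_mul_eq_one_left ?_
      rw [← map_mul, ← map_mul, mul_inv_cancel₀ hu0]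
      simp
    rw [h3]
    exact hw.norm_mem_OP hPi (hu'.map γ) (hγ _)
  have hu0 : ∀ {ψ u : W}, φ = ψ ^ n * u → u ≠ 0 := by
    rintro ψ u e rfl
    rw [mul_zero] at e
    exact hφ e
  have key := h.slope_congr hn (fun i => ι (β ((σ ^ i) φ)))
    (fun i => Algebra.norm E (α ((σ ^ i) φ))) (fun i => Algebra.norm E (β ((σ ^ i) φ)))
    (fun i => Algebra.norm E (α ((σ ^ i) θ)))
    (fun i => (h.wr'.isV_exists hXirr (hα ((σ ^ i) θ)) (hα0 _ (hσ i θ hθ))).choose)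
    (fun i => hb0 _ (hσ i φ hφ)) (fun i => hα0 _ (hσ i φ hφ)) (fun i => hβ0 _ (hσ i φ hφ))
    (fun i => by rw [hrel, hσS])
    (fun i => hβ _) (fun i => hα _)
    (by
      intro i P hPP
      obtain ⟨ψ, u, e, hu, hu'⟩ := hP P hPP
      obtain ⟨h4, h5⟩ := hloc (β.comp (σ ^ i)) A y h.wr (fun w => hβ _) P hPP.irr u (hu0 e) hu hu'
      exact ⟨Algebra.norm E (β ((σ ^ i) ψ)), Algebra.norm E (β ((σ ^ i) u)), hβ _, h4, h5,
        by simp only [e, map_mul, map_pow]⟩)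
    (by
      intro i P hPP hXP
      obtain ⟨ψ, u, e, hu, hu'⟩ := hP' P hPP hXP
      obtain ⟨h4, h5⟩ := hloc (α.comp (σ ^ i)) A' y⁻¹ h.wr' (fun w => hα _) P hPP.irr u (hu0 e)
        hu hu'
      exact ⟨Algebra.norm E (α ((σ ^ i) ψ)), Algebra.norm E (α ((σ ^ i) u)), hα _, h4, h5,
        by simp only [e, map_mul, map_pow]⟩)
    (fun i => (h.wr'.isV_exists hXirr (hα ((σ ^ i) θ)) (hα0 _ (hσ i θ hθ))).choose_spec)
    (by
      intro i
      obtain ⟨ψ, u, e, hu, hu'⟩ := hX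
      have hu0 : u ≠ 0 := by
        rintro rfl
        rw [mul_zero, zero_mul] at e
        exact mul_ne_zero hφ ((map_ne_zero σ).2 hθ) e
      obtain ⟨h4, h5⟩ := hloc (α.comp (σ ^ i)) A' y⁻¹ h.wr' (fun w => hα _) X hXirr u hu0 hu hu'
      refine ⟨Algebra.norm E (α ((σ ^ i) ψ)), Algebra.norm E (α ((σ ^ i) u)), hα _, h4, h5, ?_⟩
      have e1 : (σ ^ i) φ * (σ ^ (i + 1)) θ = (σ ^ i) ψ ^ n * (σ ^ i) u * (σ ^ i) θ := by
        have h5 : (σ ^ (i + 1)) θ = (σ ^ i) (σ θ) := by rw [pow_succ]; rfl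
        rw [h5, ← map_mul, e, map_mul, map_mul, map_pow]
      have e2 := congrArg (fun w => Algebra.norm E (α w)) e1
      simp only [map_mul, map_pow] at e2
      rw [div_eq_iff (hα0 _ (hσ i θ hθ))]
      exact e2)
  have hd2 : ∀ m : ℕ, IsV A' y⁻¹ X (∏ i ∈ Finset.range m, Algebra.norm E (α ((σ ^ i) θ)))
      (∑ i ∈ Finset.range m,
        (h.wr'.isV_exists hXirr (hα ((σ ^ i) θ)) (hα0 _ (hσ i θ hθ))).choose) := by
    intro m
    induction m with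
    | zero => simpa using h.wr'.isV_unit hXirr UnitIn.one
    | succ m ih =>
      rw [Finset.prod_range_succ, Finset.sum_range_succ]
      exact h.wr'.isV_mul hXirr ih
        (h.wr'.isV_exists hXirr (hα ((σ ^ m) θ)) (hα0 _ (hσ m θ hθ))).choose_spec
  rw [h.wr'.isV_unique hinp hd (hd2 n)]
  exact key

end Bk

end Crest.Agent.R013.LemW623
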