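import Crest.Agent.R013.LemW7_623
import Crest.Agent.R013.RR13_948

/-!
# Places and local `n`-th powers (row 13, leaf LEMW, part 8)

`W` a function field over `k` (948's context).  An element whose order at all places over the prime
`P(t)` of `k(t)` (`t = X` or `X⁻¹`) is divisible by `n` is `ψ ^ n * u` with `u`, `u⁻¹` integral over
the local ring.
-/

set_option autoImplicit false
set_option linter.unusedSectionVars false

namespace Crest.Agent.R013.LemW623

open Polynomial WithZero
open Crest.Agent.R013.RR7_948 Crest.Agent.R013.RR8_948 Crest.Agent.R013.RR9_948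
open Crest.Agent.R013.RR11_948 Crest.Agent.R013.RR12_948 Crest.Agent.R013.RR13_948

/-- The polynomial ring `k[t]` in a field is a Weierstrass ring. -/
theorem wr_poly {k E : Type*} [Field k] [Field E] [Algebra k E] {t : E}
    (ht : Transcendental k t) : Wr k (aeval t : k[X] →ₐ[k] E).range t where
  t_mem := ⟨X, by simp⟩
  transc := ht
  weier := by
    rintro _ ⟨p, rfl⟩ _
    exact ⟨1, p, UnitIn.one, by simp⟩
  prime := by
    intro P hP
    right
    rintro f ⟨g, hg⟩
    refine ⟨g, aeval_injective' ht ?_⟩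
    have hP0 := aeval_ne_zero' ht hP.ne_zero
    have hg' : aeval t g = aeval t f / aeval t P := hg
    rw [map_mul, hg', mul_div_cancel₀ _ hP0]

variable {k : Type*} [Field k]

section places

variable {W : Type*} [Field W] [Algebra k W] [Algebra (RatFunc k) W]
  [IsScalarTower k (RatFunc k) W] [FiniteDimensional (RatFunc k) W]
  [Algebra.IsSeparable (RatFunc k) W]

/-- `t` generates `k(X)`. -/
def IsGen (t : RatFunc k) : Prop :=
  Transcendental k t ∧ ∀ f : RatFunc k, ∃ a b : k[X], b ≠ 0 ∧ f = aeval t a / aeval t b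

theorem isGen_X : IsGen (RatFunc.X : RatFunc k) := by
  have h : ∀ p : k[X], aeval (RatFunc.X : RatFunc k) p = algebraMap k[X] (RatFunc k) p := by
    intro p
    rw [← RatFunc.algebraMap_X, aeval_algebraMap_apply, aeval_X_left_apply]
  refine ⟨?_, fun f => ⟨f.num, f.denom, f.denom_ne_zero, ?_⟩⟩
  · rw [transcendental_iff]
    intro p hp
    rw [h] at hp
    exact (map_eq_zero_iff _ (RatFunc.algebraMap_injective k)).1 hp
  · rw [h, h, RatFunc.num_div_denom]

theorem isGen_X_inv : IsGen ((RatFunc.X : RatFunc k)⁻¹) := by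
  obtain ⟨h1, h2⟩ := isGen_X (k := k)
  have hX : (RatFunc.X : RatFunc k) ≠ 0 := transc_ne h1
  refine ⟨?_, ?_⟩
  · intro hh
    have := hh.inv
    rw [inv_inv] at this
    exact h1 this
  · intro f
    obtain ⟨a, b, hb, rfl⟩ := h2 f
    obtain ⟨a', -, ea⟩ := poly_div_pow hX a (max a.natDegree b.natDegree) (le_max_left _ _)
    obtain ⟨b', -, eb⟩ := poly_div_pow hX b (max a.natDegree b.natDegree) (le_max_right _ _)
    refine ⟨a', b', ?_, ?_⟩
    · rintro rfl
      rw [map_zero, div_eq_zero_iff] at eb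
      rcases eb with h | h
      · exact aeval_ne_zero' h1 hb h
      · exact pow_ne_zero _ hX h
    · rw [← ea, ← eb, div_div_div_cancel_right₀ (pow_ne_zero _ hX)]

/-- The place `Q` lies over the prime `P(t)`. -/
def Over (t : RatFunc k) (P : k[X]) (Q : Pl k W) : Prop :=
  Q.v (algebraMap (RatFunc k) W (aeval t P)) < 1

theorem over_finite {t : RatFunc k} (ht : IsGen t) {P : k[X]} (hP : P ≠ 0) :
    {Q : Pl k W | Over t P Q}.Finite := by
  have h1 : algebraMap (RatFunc k) W (aeval t P) ≠ 0 := by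
    rw [Ne, map_eq_zero_iff _ (algebraMap (RatFunc k) W).injective]
    exact aeval_ne_zero' ht.1 hP
  refine (finite_ne_one (k := k) h1).subset ?_
  intro Q hQ
  exact ne_of_lt hQ

/-- The local ring of `k(X)` at `P(t)`. -/
def locS (t : RatFunc k) (P : k[X]) : Set (RatFunc k) :=
  OP (aeval t : k[X] →ₐ[k] RatFunc k).range t P

theorem mem_locS {t : RatFunc k} {P : k[X]} {f : RatFunc k} :
    f ∈ locS t P ↔ ∃ a g : k[X], ¬ P ∣ g ∧ f = aeval t a / aeval t g := by
  constructor
  · rintro ⟨_, ⟨a, rfl⟩, g, hg, e⟩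
    exact ⟨a, g, hg, e⟩
  · rintro ⟨a, g, hg, e⟩
    exact ⟨_, ⟨a, rfl⟩, g, hg, e⟩

theorem intE_of_places {t : RatFunc k} (ht : IsGen t) {P : k[X]} (hP : Irreducible P) (w : W)
    (hw : ∀ Q : Pl k W, Over t P Q → Q.v w ≤ 1) :
    IntE (F := RatFunc k) (E := RatFunc k) (locS t P) w := by
  set S : Subring (RatFunc k) := (wr_poly ht.1).locRing hP with hS
  have hSmem : ∀ {f : RatFunc k}, f ∈ S ↔ f ∈ locS t P := Iff.rfl
  have hint : IsIntegral S w := by
    by_contra hcon
    set R : Subring W := (integralClosure S W).toSubring with hR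
    have hwR : w ∉ R := hcon
    have hcl : IsIntegrallyClosedIn R W :=
      inferInstanceAs (IsIntegrallyClosedIn (integralClosure S W).toSubring W)
    obtain ⟨V, hRV, hwV⟩ := R.exists_le_valuationSubring_of_isIntegrallyClosedIn hwR
    have hSV : ∀ f ∈ locS t P, V.valuation (algebraMap (RatFunc k) W f) ≤ 1 := by
      intro f hf
      rw [V.valuation_le_one_iff]
      refine hRV ?_
      exact (integralClosure S W).algebraMap_mem (⟨f, hf⟩ : S)
    have hconst : ∀ c : k, c ≠ 0 → V.valuation (algebraMap k W c) = 1 := by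
      have h1 : ∀ c : k, V.valuation (algebraMap k W c) ≤ 1 := by
        intro c
        have h2 := hSV (algebraMap k (RatFunc k) c)
          (mem_locS.2 ⟨C c, 1, hP.prime.not_dvd_one, by simp⟩)
        rwa [← IsScalarTower.algebraMap_apply] at h2
      intro c hc
      refine le_antisymm (h1 c) ?_
      have h3 := h1 c⁻¹
      rw [map_inv₀, map_inv₀] at h3
      have h4 : V.valuation (algebraMap k W c) ≠ 0 := by
        rw [Valuation.ne_zero_iff]; simpa using hc
      exact (inv_le_one₀ (zero_lt_iff.2 h4)).1 h3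
    have hw1 : 1 < V.valuation w := by
      by_contra hle
      push Not at hle
      exact hwV ((V.valuation_le_one_iff w).1 hle)
    obtain ⟨Q, hQ⟩ := exists_place (k := k) V.valuation hconst ⟨w, by
      rw [Valuation.ne_zero_iff]
      rintro rfl
      rw [map_zero] at hw1
      exact not_lt_zero hw1, hw1.ne'⟩
    have hQw : 1 < Q.v w := by
      have := hQ.lt_iff_lt (x := 1) (y := w)
      rw [map_one, map_one] at this
      exact this.2 hw1
    have hQS : ∀ f ∈ locS t P, Q.v (algebraMap (RatFunc k) W f) ≤ 1 := by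
      intro f hf
      have := hQ.le_iff_le (x := algebraMap (RatFunc k) W f) (y := 1)
      rw [map_one, map_one] at this
      exact this.2 (hSV f hf)
    have hPS : aeval t P ∈ locS t P := mem_locS.2 ⟨P, 1, hP.prime.not_dvd_one, by simp⟩
    by_cases hQP : Q.v (algebraMap (RatFunc k) W (aeval t P)) < 1
    · exact absurd (hw Q hQP) (not_le.2 hQw)
    · have hQP1 : Q.v (algebraMap (RatFunc k) W (aeval t P)) = 1 :=
        le_antisymm (hQS _ hPS) (not_lt.1 hQP)
      -- `Q` is trivial on `k(X)`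
      have hpoly : ∀ g : k[X], g ≠ 0 → Q.v (algebraMap (RatFunc k) W (aeval t g)) = 1 := by
        intro g hg
        obtain ⟨g', e, hg'⟩ := (FiniteMultiplicity.of_not_isUnit hP.not_isUnit
          hg).exists_eq_pow_mul_and_not_dvd
        have h1 := hQS (aeval t g') (mem_locS.2 ⟨g', 1, hP.prime.not_dvd_one, by simp⟩)
        have h2 := hQS (aeval t g')⁻¹ (mem_locS.2 ⟨1, g', hg', by simp⟩)
        rw [map_inv₀, map_inv₀] at h2
        have hne : Q.v (algebraMap (RatFunc k) W (aeval t g')) ≠ 0 := by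
          rw [Valuation.ne_zero_iff, Ne, map_eq_zero_iff _ (algebraMap (RatFunc k) W).injective]
          exact aeval_ne_zero' ht.1 (ne_zero_of_not_dvd hg')
        have h3 := (inv_le_one₀ (zero_lt_iff.2 hne)).1 h2
        rw [e, map_mul, map_mul, map_mul, map_pow, map_pow, map_pow, hQP1, one_pow, one_mul]
        exact le_antisymm h1 h3
      have htriv : ∀ f : RatFunc k, Q.v (algebraMap (RatFunc k) W f) ≤ 1 := by
        intro f
        obtain ⟨a, b, hb, rfl⟩ := ht.2 f
        by_cases ha : a = 0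
        · simp [ha]
        · rw [map_div₀, map_div₀, hpoly a ha, hpoly b hb, div_one]
      have : Q.v w ≤ 1 := le_one_of_integral Q.v htriv (Algebra.IsIntegral.isIntegral w)
      exact absurd this (not_le.2 hQw)
  obtain ⟨q, hq, hq0⟩ := hint
  refine ⟨q.map S.subtype, hq.map _, ?_, ?_⟩
  · intro i
    rw [coeff_map]
    exact (q.coeff i).2
  · have h1 : algebraMap S W = (algebraMap (RatFunc k) W).comp S.subtype := rfl
    rw [h1, ← eval₂_map] at hq0
    exact hq0

/-- Local `n`-th powers from divisibility of the orders. -/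
theorem locPow_of_places {t : RatFunc k} (ht : IsGen t) {P : k[X]} (hP : Irreducible P) {n : ℕ}
    {φ : W} (hφ : φ ≠ 0) (hd : ∀ Q : Pl k W, Over t P Q → (n : ℤ) ∣ divf (k := k) φ Q) :
    ∃ ψ u : W, ψ ≠ 0 ∧ u ≠ 0 ∧ φ = ψ ^ n * u ∧
      IntE (F := RatFunc k) (E := RatFunc k) (locS t P) u ∧
      IntE (F := RatFunc k) (E := RatFunc k) (locS t P) u⁻¹ := by
  classical
  have hfin := over_finite (W := W) ht hP.ne_zero
  obtain ⟨ψ, hψ0, hψ⟩ := exists_prescribed (k := k) hfin.toFinset
    (fun Q => -(divf (k := k) φ Q / n))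
  have hu : ∀ Q : Pl k W, Over t P Q → Q.v (φ / ψ ^ n) = 1 := by
    intro Q hQ
    rw [map_div₀, map_pow, hψ Q (hfin.mem_toFinset.2 hQ), v_eq (k := k) hφ, ← exp_nsmul,
      ← exp_sub]
    rw [← exp_zero, exp_inj]
    have h1 := Int.ediv_mul_cancel (hd Q hQ)
    simp only [nsmul_eq_mul]
    linarith
  have hu0 : φ / ψ ^ n ≠ 0 := div_ne_zero hφ (pow_ne_zero _ hψ0)
  refine ⟨ψ, φ / ψ ^ n, hψ0, hu0, ?_, ?_, ?_⟩
  · rw [mul_div_cancel₀ _ (pow_ne_zero _ hψ0)]
  · exact intE_of_places ht hP _ fun Q hQ => (hu Q hQ).le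
  · refine intE_of_places ht hP _ fun Q hQ => ?_
    rw [map_inv₀, hu Q hQ, inv_one]

end places

end Crest.Agent.R013.LemW623
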