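import Crest.Agent.R013.LemW8_623
import Crest.Agent.R013.RR22_948
import Crest.Agent.R013.CE5_280

/-!
# The slope congruence in terms of divisors (row 13, leaf LEMW, part 9)
-/

set_option autoImplicit false
set_option linter.unusedSectionVars false

namespace Crest.Agent.R013.LemW623

open Polynomial WithZero
open Crest.Agent.R013.RR7_948 Crest.Agent.R013.RR8_948 Crest.Agent.R013.RR9_948
open Crest.Agent.R013.RR11_948 Crest.Agent.R013.RR12_948 Crest.Agent.R013.RR13_948
open Crest.Agent.R013.RR18_948 Crest.Agent.R013.RR22_948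

variable {k : Type*} [Field k] {E : Type*} [Field E] [Algebra k E] [Algebra (RatFunc k) E]
  [IsScalarTower k (RatFunc k) E]

theorem IntE.of_subset {B : Type*} [CommRing B] [Algebra (RatFunc k) B] {S : Set (RatFunc k)}
    {T : Set E} (h : ∀ f ∈ S, algebraMap (RatFunc k) E f ∈ T) {w : B}
    (hw : IntE (F := RatFunc k) (E := RatFunc k) S w) : IntE (F := RatFunc k) (E := E) T w := by
  obtain ⟨q, hq, hc, e⟩ := hw
  exact ⟨q, hq, fun i => h _ (hc i), e⟩

theorem algMap_aeval (t : RatFunc k) (p : k[X]) :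
    algebraMap (RatFunc k) E (aeval t p) = aeval (algebraMap (RatFunc k) E t) p := by
  rw [aeval_algebraMap_apply]

theorem locS_to_OP {A : Subalgebra k E} {t : RatFunc k} {y : E}
    (hty : algebraMap (RatFunc k) E t = y) (hA : ∀ p : k[X], aeval y p ∈ A) {P : k[X]} :
    ∀ f ∈ locS t P, algebraMap (RatFunc k) E f ∈ OP A y P := by
  intro f hf
  obtain ⟨a, g, hg, rfl⟩ := mem_locS.1 hf
  refine ⟨aeval y a, hA a, g, hg, ?_⟩
  rw [map_div₀, algMap_aeval, algMap_aeval, hty]

/-! ### the place at infinity of `k(X)` -/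

section inf

/-- the order at infinity computed by `IsV`. -/
theorem isV_of_pl {A' : Subalgebra k E} {z : E} (hw : Wr k A' z)
    {t : RatFunc k} (ht : IsGen t) (htz : algebraMap (RatFunc k) E t = z)
    (Q : Pl k (RatFunc k)) (hQ : Q.v t < 1) {f : RatFunc k} (hf : f ≠ 0) :
    IsV A' z X (algebraMap (RatFunc k) E f) (divf (k := k) f Q) := by
  have hX : Irreducible (X : k[X]) := irreducible_X
  have ht0 : t ≠ 0 := transc_ne ht.1
  have hQt0 : Q.v t ≠ 0 := by rw [Valuation.ne_zero_iff]; exact ht0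
  -- value of a polynomial with nonzero constant term
  have hconst : ∀ c : k, Q.v (algebraMap k (RatFunc k) c) ≤ 1 := by
    intro c
    by_cases hc : c = 0
    · simp [hc]
    · rw [Q.const c hc]
  have hle : ∀ p : k[X], Q.v (aeval t p) ≤ 1 := by
    intro p
    rw [aeval_eq_sum_range]
    refine Valuation.map_sum_le _ fun i _ => ?_
    rw [Algebra.smul_def, map_mul, map_pow]
    exact mul_le_one' (hconst _) (pow_le_one' hQ.le i)
  have hunit : ∀ p : k[X], ¬ (X : k[X]) ∣ p → Q.v (aeval t p) = 1 := by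
    intro p hp
    have hp0 : p.coeff 0 ≠ 0 := fun h0 => hp (X_dvd_iff.2 h0)
    have e : aeval t p = t * aeval t (divX p) + algebraMap k (RatFunc k) (p.coeff 0) := by
      conv_lhs => rw [← divX_mul_X_add p]
      rw [map_add, map_mul, aeval_X, aeval_C, mul_comm]
    have h1 : Q.v (t * aeval t (divX p)) < Q.v (algebraMap k (RatFunc k) (p.coeff 0)) := by
      rw [Q.const _ hp0, map_mul]
      calc Q.v t * Q.v (aeval t (divX p)) ≤ Q.v t * 1 := mul_le_mul_right (hle _) _
        _ = Q.v t := mul_one _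
        _ < 1 := hQ
    rw [e, Valuation.map_add_eq_of_lt_right _ h1, Q.const _ hp0]
  -- normal form
  have hnf : ∀ f : RatFunc k, f ≠ 0 → ∃ (m : ℤ) (a b : k[X]), ¬ (X : k[X]) ∣ a ∧
      ¬ (X : k[X]) ∣ b ∧ f = t ^ m * (aeval t a / aeval t b) := by
    intro f hf
    obtain ⟨a, b, hb, rfl⟩ := ht.2 f
    have ha : a ≠ 0 := by rintro rfl; simp at hf
    obtain ⟨a', e1, ha'⟩ := (FiniteMultiplicity.of_not_isUnit hX.not_isUnit
      ha).exists_eq_pow_mul_and_not_dvd
    obtain ⟨b', e2, hb'⟩ := (FiniteMultiplicity.of_not_isUnit hX.not_isUnit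
      hb).exists_eq_pow_mul_and_not_dvd
    refine ⟨(multiplicity X a : ℤ) - multiplicity X b, a', b', ha', hb', ?_⟩
    conv_lhs => rw [e1, e2]
    rw [map_mul, map_mul, map_pow, map_pow, aeval_X, zpow_sub₀ ht0, zpow_natCast, zpow_natCast]
    have := aeval_ne_zero' ht.1 (ne_zero_of_not_dvd hb')
    field_simp
  have hval : ∀ (m : ℤ) (a b : k[X]), ¬ (X : k[X]) ∣ a → ¬ (X : k[X]) ∣ b →
      Q.v (t ^ m * (aeval t a / aeval t b)) = Q.v t ^ m := by
    intro m a b ha hb
    rw [map_mul, map_zpow₀, map_div₀, hunit a ha, hunit b hb, div_one, mul_one]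
  -- `Q.v t = exp (-1)`
  have hQt : Q.v t = exp (-1) := by
    obtain ⟨g, hg⟩ := Q.surj (exp (-1))
    have hg0 : g ≠ 0 := by rintro rfl; rw [map_zero] at hg; exact exp_ne_zero hg.symm
    obtain ⟨m, a, b, ha, hb, rfl⟩ := hnf g hg0
    rw [hval m a b ha hb] at hg
    obtain ⟨j, hj⟩ : ∃ j : ℤ, Q.v t = exp j := ⟨log (Q.v t), (exp_log hQt0).symm⟩
    rw [hj, ← exp_zsmul, exp_inj] at hg
    rw [hj, ← exp_zero, exp_lt_exp] at hQ
    rw [hj, exp_inj]
    rw [smul_eq_mul] at hg
    have h2 : j ∣ -1 := ⟨m, by rw [mul_comm]; exact hg.symm⟩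
    rcases Int.isUnit_iff.1 (isUnit_of_dvd_unit h2 (by decide)) with h3 | h3 <;> omega
  obtain ⟨m, a, b, ha, hb, rfl⟩ := hnf f hf
  have h3 := hval m a b ha hb
  rw [v_eq (k := k) hf, hQt, ← exp_zsmul, exp_inj] at h3
  have h4 : divf (k := k) (t ^ m * (aeval t a / aeval t b)) Q = m := by
    rw [smul_eq_mul] at h3; linarith
  rw [h4]
  refine ⟨1, a, b, UnitIn.one, ha, hb, ?_⟩
  rw [map_mul, map_zpow₀, map_div₀, algMap_aeval, algMap_aeval, htz, aeval_X, one_mul]

end inf

namespace Bk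

variable {A A' : Subalgebra k E} {y : E} (h : Bk k A A' y)
variable {W : Type*} [Field W] [Algebra k W] [Algebra (RatFunc k) W]
  [IsScalarTower k (RatFunc k) W] [FiniteDimensional (RatFunc k) W]
  [Algebra.IsSeparable (RatFunc k) W]

include h

/-- **The slope congruence in terms of divisors.** -/
theorem slope_div {n : ℕ} (hn : 0 < n) (hyX : algebraMap (RatFunc k) E RatFunc.X = y)
    {V : Type*} [CommRing V] [Algebra E V] [Module.Finite E V] [Algebra (RatFunc k) V]
    [IsScalarTower (RatFunc k) E V]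
    (σ : W →ₐ[RatFunc k] W) (α β : W →ₐ[RatFunc k] V) (ι : V →+* E)
    (hrel : ∀ w, Algebra.norm E (α w) * ι (β w) = Algebra.norm E (β w) * ι (β (σ w)))
    (hα : ∀ w, Algebra.norm E (α w) ∈ Fr A' y⁻¹) (hβ : ∀ w, Algebra.norm E (β w) ∈ Fr A y)
    (φ θ : W) (hφ : φ ≠ 0) (hθ : θ ≠ 0)
    (hd : ∀ Q : Pl k W, ¬ Over (RatFunc.X)⁻¹ X Q → (n : ℤ) ∣ divf (k := k) φ Q)
    (hd' : ∀ Q : Pl k W, Over (RatFunc.X)⁻¹ X Q →
      (n : ℤ) ∣ divf (k := k) φ Q + divf (k := k) (σ θ) Q - divf (k := k) θ Q)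
    (hN : ∏ i ∈ Finset.range n, Algebra.norm E (α ((σ ^ i) θ)) =
      algebraMap (RatFunc k) E (Algebra.norm (RatFunc k) θ))
    (Q0 : Pl k (RatFunc k)) (hQ0 : Q0.v (RatFunc.X)⁻¹ < 1) :
    (n : ℤ) ∣ h.ord (∏ i ∈ Finset.range n, ι (β ((σ ^ i) φ))) -
      divf (k := k) (Algebra.norm (RatFunc k) θ) Q0 := by
  have hyi : algebraMap (RatFunc k) E (RatFunc.X)⁻¹ = y⁻¹ := by rw [map_inv₀, hyX]
  have hNθ : Algebra.norm (RatFunc k) θ ≠ 0 := Algebra.norm_ne_zero_iff.mpr hθ
  -- a prime different from `X` in the variable `1/X` and a place over it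
  have hsep : ∀ (t : RatFunc k) (P P' : k[X]) (Q : Pl k W), IsGen t → Q.v (algebraMap _ W t) ≤ 1 →
      IsCoprime P P' → Over t P Q → ¬ Over t P' Q := by
    intro t P P' Q ht hQt hco h1 h2
    obtain ⟨a, b, hab⟩ := hco
    have hle : ∀ p : k[X], Q.v (algebraMap (RatFunc k) W (aeval t p)) ≤ 1 := by
      intro p
      rw [algMap_aeval (E := W), aeval_eq_sum_range]
      refine Valuation.map_sum_le _ fun i _ => ?_
      rw [Algebra.smul_def, map_mul, map_pow]
      refine mul_le_one' ?_ (pow_le_one' hQt i)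
      by_cases hc : p.coeff i = 0
      · simp [hc]
      · rw [Q.const _ hc]
    have h3 : Q.v (algebraMap (RatFunc k) W (aeval t (a * P + b * P'))) < 1 := by
      rw [map_add, map_add, map_mul, map_mul, map_mul, map_mul]
      refine (Valuation.map_add _ _ _).trans_lt (max_lt ?_ ?_)
      · rw [map_mul]
        exact (mul_le_mul_left (hle a) _).trans_lt (by rw [one_mul]; exact h1)
      · rw [map_mul]
        exact (mul_le_mul_left (hle b) _).trans_lt (by rw [one_mul]; exact h2)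
    rw [hab, map_one, map_one, map_one] at h3
    exact lt_irrefl _ h3
  -- `Over t P Q` implies `Q.v t ≤ 1`
  have hbd : ∀ (t : RatFunc k) (P : k[X]) (Q : Pl k W), IsGen t → Irreducible P → Over t P Q →
      Q.v (algebraMap _ W t) ≤ 1 := by
    intro t P Q ht hP hO
    by_contra hgt
    push Not at hgt
    -- leading term dominates
    have h1 : Q.v (algebraMap (RatFunc k) W (aeval t P)) =
        Q.v (algebraMap (RatFunc k) W t) ^ P.natDegree := by
      rw [algMap_aeval (E := W), aeval_eq_sum_range, Finset.sum_range_succ]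
      have hlc : Q.v (P.coeff P.natDegree • algebraMap (RatFunc k) W t ^ P.natDegree) =
          Q.v (algebraMap (RatFunc k) W t) ^ P.natDegree := by
        rw [Algebra.smul_def, map_mul, map_pow, Q.const _ (by
          rw [coeff_natDegree, Ne, leadingCoeff_eq_zero]; exact hP.ne_zero), one_mul]
      rw [Valuation.map_add_eq_of_lt_right, hlc]
      rw [hlc]
      refine Valuation.map_sum_lt _ (pow_ne_zero _ (ne_of_gt (lt_trans zero_lt_one hgt))) fun i hi => ?_
      rw [Finset.mem_range] at hi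
      rw [Algebra.smul_def, map_mul, map_pow]
      refine lt_of_le_of_lt (b := Q.v (algebraMap (RatFunc k) W t) ^ i) ?_
        (pow_lt_pow_right₀ hgt hi)
      by_cases hc : P.coeff i = 0
      · simp [hc]
      · rw [Q.const _ hc, one_mul]
    have h2 : (1 : ℤᵐ⁰) ≤ Q.v (algebraMap (RatFunc k) W (aeval t P)) := by
      rw [h1]; exact one_le_pow₀ hgt.le
    exact absurd hO (not_lt.2 h2)
  refine h.slope_normV (F := RatFunc k) hn σ α β ι hrel hα hβ φ θ hφ hθ ?_ ?_ ?_ _ ?_
  · intro P hP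
    obtain ⟨ψ, u, -, -, e, h1, h2⟩ := locPow_of_places (W := W) isGen_X hP.irr (n := n) hφ (by
      intro Q hQ
      refine hd Q fun hO => ?_
      have hQ1 := hbd _ P Q isGen_X hP.irr hQ
      have hO' : Q.v (algebraMap (RatFunc k) W (RatFunc.X)⁻¹) < 1 := by
        have := hO
        rw [Over, aeval_X] at this
        exact this
      rw [map_inv₀, map_inv₀] at hO'
      have hX0 : Q.v (algebraMap (RatFunc k) W RatFunc.X) ≠ 0 := by
        rw [Valuation.ne_zero_iff, Ne, map_eq_zero_iff _ (algebraMap (RatFunc k) W).injective]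
        exact transc_ne isGen_X.1
      have := (inv_lt_one₀ (zero_lt_iff.2 hX0)).1 hO'
      exact absurd hQ1 (not_le.2 this))
    exact ⟨ψ, u, e, h1.of_subset (locS_to_OP hyX h.aeval_mem),
      h2.of_subset (locS_to_OP hyX h.aeval_mem)⟩
  · intro P hP hXP
    obtain ⟨ψ, u, -, -, e, h1, h2⟩ := locPow_of_places (W := W) isGen_X_inv hP.irr (n := n) hφ (by
      intro Q hQ
      refine hd Q fun hO => ?_
      have hQ1 := hbd _ P Q isGen_X_inv hP.irr hQ
      have hco : IsCoprime (X : k[X]) P := (irreducible_X.coprime_iff_not_dvd).2 hXP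
      exact hsep _ X P Q isGen_X_inv hQ1 hco hO hQ)
    exact ⟨ψ, u, e, h1.of_subset (locS_to_OP hyi h.symm.aeval_mem),
      h2.of_subset (locS_to_OP hyi h.symm.aeval_mem)⟩
  · have hσθ : σ θ ≠ 0 := (map_ne_zero σ).2 hθ
    obtain ⟨ψ, u, -, -, e, h1, h2⟩ := locPow_of_places (W := W) isGen_X_inv
      (irreducible_X : Irreducible (X : k[X])) (n := n) (φ := φ * σ θ * θ⁻¹)
      (mul_ne_zero (mul_ne_zero hφ hσθ) (inv_ne_zero hθ)) (by
        intro Q hQ
        have e1 : divf (k := k) (φ * σ θ * θ⁻¹) Q =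
            divf (k := k) φ Q + divf (k := k) (σ θ) Q - divf (k := k) θ Q := by
          rw [divf_mul (mul_ne_zero hφ hσθ) (inv_ne_zero hθ), divf_mul hφ hσθ, divf_inv hθ]
          simp only [Finsupp.add_apply, Finsupp.neg_apply]
          ring
        rw [e1]
        exact hd' Q hQ)
    refine ⟨ψ, u, ?_, h1.of_subset (locS_to_OP hyi h.symm.aeval_mem),
      h2.of_subset (locS_to_OP hyi h.symm.aeval_mem)⟩
    rw [← e, mul_assoc, inv_mul_cancel₀ hθ, mul_one]
  · rw [hN]
    exact isV_of_pl h.wr' isGen_X_inv hyi Q0 hQ0 hNθ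

end Bk

end Crest.Agent.R013.LemW623
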