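import Crest.Agent.R013.Gl3_946

/-!
# Patching of units and of `N`-th power classes (Lemma LIFT of the row 13 blueprint, abstract part).

`F ⊆ R, S ⊆ E` with `R ∩ S = F` and `GL_n(E) = GL_n(R) GL_n(S)`; `K/F` a finite field extension and
`T = E ⊗ K` presented through an `E`-basis `bT` of `T` which is the image of an `F`-basis `b` of `K`.
`KR R` = `R ⊗ K` inside `T`.  We prove `T^× = (R ⊗ K)^× (S ⊗ K)^×` and the lifting of `N`-th power
classes.
-/

set_option autoImplicit false

namespace Crest.Agent.R013.Lift903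

open Gl946 Matrix

section Abstract

variable {F K E T : Type*} [Field F] [Field K] [CommRing E] [CommRing T]
  [Algebra F K] [Algebra F E] [Algebra F T] [Algebra K T] [Algebra E T]
  [IsScalarTower F K T] [IsScalarTower F E T]
  {ι : Type*} [Fintype ι] [DecidableEq ι]

/-- The data of a base change `T = E ⊗_F K` through bases. -/
structure IsBC (b : Module.Basis ι F K) (bT : Module.Basis ι E T) : Prop where
  eq : ∀ i, bT i = algebraMap K T (b i)

variable {b : Module.Basis ι F K} {bT : Module.Basis ι E T} (hB : IsBC b bT)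

omit [DecidableEq ι] in
theorem repr_sum_smul (v : ι → E) (i : ι) : bT.repr (∑ j, v j • bT j) i = v i := by
  classical
  rw [map_sum, Finsupp.finsetSum_apply, Finset.sum_eq_single i]
  · rw [map_smul, bT.repr_self, Finsupp.smul_apply, Finsupp.single_eq_same, smul_eq_mul, mul_one]
  · intro j _ hj
    rw [map_smul, bT.repr_self, Finsupp.smul_apply, Finsupp.single_apply, if_neg hj, smul_zero]
  · intro h
    exact absurd (Finset.mem_univ i) h

omit [DecidableEq ι] in
include hB in
theorem IsBC.repr_algebraMap (x : K) (i : ι) :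
    bT.repr (algebraMap K T x) i = algebraMap F E (b.repr x i) := by
  have h1 : algebraMap K T x = ∑ j, (algebraMap F E (b.repr x j)) • bT j := by
    conv_lhs => rw [← b.sum_repr x]
    rw [map_sum]
    refine Finset.sum_congr rfl fun j _ => ?_
    rw [hB.eq j, Algebra.smul_def (R := F) (A := K), map_mul,
      Algebra.smul_def (R := E) (A := T), ← IsScalarTower.algebraMap_apply F K T,
      ← IsScalarTower.algebraMap_apply F E T]
  rw [h1]
  exact repr_sum_smul (bT := bT) (fun j => algebraMap F E (b.repr x j)) i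

/-- `R ⊗ K` inside `T = E ⊗ K`: elements with coordinates in `R`. -/
def KR (R : Subring E) (hR : ∀ x : F, algebraMap F E x ∈ R) (hB : IsBC b bT) : Subring T where
  carrier := {t | ∀ i, bT.repr t i ∈ R}
  zero_mem' := fun i => by simp
  add_mem' := fun {s t} hs ht i => by
    rw [map_add, Finsupp.add_apply]
    exact R.add_mem (hs i) (ht i)
  neg_mem' := fun {s} hs i => by
    rw [map_neg, Finsupp.neg_apply]
    exact R.neg_mem (hs i)
  one_mem' := fun i => by
    have := hB.repr_algebraMap (1 : K) i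
    rw [map_one] at this
    rw [this]
    exact hR _
  mul_mem' := fun {s t} hs ht i => by
    have h1 : s * t = ∑ j, ∑ l, (bT.repr s j * bT.repr t l) • algebraMap K T (b j * b l) := by
      conv_lhs => rw [← bT.sum_repr s, ← bT.sum_repr t]
      rw [Finset.sum_mul_sum]
      refine Finset.sum_congr rfl fun j _ => Finset.sum_congr rfl fun l _ => ?_
      rw [smul_mul_smul_comm, hB.eq j, hB.eq l, map_mul]
    rw [h1]
    simp only [map_sum, map_smul, Finsupp.finsetSum_apply, Finsupp.smul_apply, smul_eq_mul]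
    refine R.sum_mem fun j _ => R.sum_mem fun l _ => ?_
    exact R.mul_mem (R.mul_mem (hs j) (ht l)) (by rw [hB.repr_algebraMap]; exact hR _)

variable {R S : Subring E} (hR : ∀ x : F, algebraMap F E x ∈ R)
  (hS : ∀ x : F, algebraMap F E x ∈ S)

omit [DecidableEq ι] in
theorem mem_KR (t : T) : t ∈ KR R hR hB ↔ ∀ i, bT.repr t i ∈ R := Iff.rfl

omit [DecidableEq ι] in
theorem algebraMap_mem_KR (x : K) : algebraMap K T x ∈ KR R hR hB := fun i => by
  rw [hB.repr_algebraMap]; exact hR _

omit [DecidableEq ι] in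
theorem algebraMap_mem_KR' (r : E) (hr : r ∈ R) : algebraMap E T r ∈ KR R hR hB := fun i => by
  have h1 : algebraMap E T r = r • (1 : T) := Algebra.algebraMap_eq_smul_one r
  rw [h1, map_smul, Finsupp.smul_apply, smul_eq_mul]
  exact R.mul_mem hr ((KR R hR hB).one_mem i)

omit [DecidableEq ι] in
/-- `(R ⊗ K) ∩ (S ⊗ K) = K`. -/
theorem inter_KR (hRS : ∀ z : E, z ∈ R → z ∈ S → z ∈ Set.range (algebraMap F E)) (t : T)
    (h1 : t ∈ KR R hR hB) (h2 : t ∈ KR S hS hB) : ∃ x : K, algebraMap K T x = t := by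
  choose f hf using fun i => hRS (bT.repr t i) (h1 i) (h2 i)
  refine ⟨∑ i, f i • b i, ?_⟩
  conv_rhs => rw [← bT.sum_repr t]
  rw [map_sum]
  refine Finset.sum_congr rfl fun i _ => ?_
  rw [hB.eq i, ← hf i, Algebra.smul_def (R := F) (A := K), map_mul,
    Algebra.smul_def (R := E) (A := T), ← IsScalarTower.algebraMap_apply F K T,
    ← IsScalarTower.algebraMap_apply F E T]

/-- The element of `T` with given coordinates. -/
noncomputable def ofV (bT : Module.Basis ι E T) (v : ι → E) : T := ∑ i, v i • bT i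

omit [DecidableEq ι] in
theorem repr_ofV (v : ι → E) (i : ι) : bT.repr (ofV bT v) i = v i := repr_sum_smul v i

omit [DecidableEq ι] in
theorem ofV_repr (t : T) : ofV bT (fun i => bT.repr t i) = t := bT.sum_repr t

/-- Matrix of multiplication by `c`. -/
noncomputable def mat (bT : Module.Basis ι E T) (c : T) : Matrix ι ι E :=
  Matrix.of fun i j => bT.repr (c * bT j) i

omit [DecidableEq ι] in
theorem mat_mulVec (c t : T) :
    mat bT c *ᵥ (fun i => bT.repr t i) = fun i => bT.repr (c * t) i := by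
  funext i
  conv_rhs => rw [← bT.sum_repr t]
  rw [Finset.mul_sum]
  simp only [Matrix.mulVec, dotProduct, mat, Matrix.of_apply, map_sum, Finsupp.finsetSum_apply,
    mul_smul_comm, map_smul, Finsupp.smul_apply, smul_eq_mul]
  exact Finset.sum_congr rfl fun j _ => mul_comm _ _

theorem mat_mul (c d : T) : mat bT c * mat bT d = mat bT (c * d) := by
  ext i j
  have h := congrFun (mat_mulVec (bT := bT) c (d * bT j)) i
  rw [Matrix.mul_apply]
  simp only [Matrix.mulVec, dotProduct] at h
  simp only [mat, Matrix.of_apply] at h ⊢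
  rw [h, mul_assoc]

theorem mat_one : mat bT (1 : T) = 1 := by
  ext i j
  simp only [mat, Matrix.of_apply, one_mul, Matrix.one_apply]
  rw [bT.repr_self, Finsupp.single_apply]
  by_cases h : i = j
  · simp [h]
  · simp [h, Ne.symm h]

theorem mulVec_mem {S : Subring E} {M : Matrix ι ι E} (hM : ∀ i j, M i j ∈ S) {v : ι → E}
    (hv : ∀ i, v i ∈ S) (i : ι) : (M *ᵥ v) i ∈ S := by
  simp only [Matrix.mulVec, dotProduct]
  exact S.sum_mem fun j _ => S.mul_mem (hM _ _) (hv _)

/-- The `K`-space of pairs `(u, w)`, `u ∈ R ⊗ K`, `w ∈ S ⊗ K`, `u = c w`. -/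
noncomputable def VV (c : T) : Submodule K (T × T) where
  carrier := {p | p.1 ∈ KR R hR hB ∧ p.2 ∈ KR S hS hB ∧ p.1 = c * p.2}
  zero_mem' := ⟨zero_mem _, zero_mem _, by simp⟩
  add_mem' := fun {p q} hp hq => ⟨add_mem hp.1 hq.1, add_mem hp.2.1 hq.2.1, by
    rw [Prod.fst_add, Prod.snd_add, hp.2.2, hq.2.2, mul_add]⟩
  smul_mem' := fun x p hp => ⟨by
      rw [Prod.smul_fst, Algebra.smul_def]
      exact mul_mem (algebraMap_mem_KR hB hR x) hp.1, by
      rw [Prod.smul_snd, Algebra.smul_def]
      exact mul_mem (algebraMap_mem_KR hB hS x) hp.2.1, by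
      rw [Prod.smul_fst, Prod.smul_snd, hp.2.2, mul_smul_comm]⟩

theorem mem_VV (c : T) (p : T × T) : p ∈ VV hB hR hS c ↔
    p.1 ∈ KR R hR hB ∧ p.2 ∈ KR S hS hB ∧ p.1 = c * p.2 := Iff.rfl

/-- **Unit factorisation**: `T^× = (R ⊗ K)^× (S ⊗ K)^×`. -/
theorem unit_fac (hinj : Function.Injective (algebraMap F E))
    (hRS : ∀ z : E, z ∈ R → z ∈ S → z ∈ Set.range (algebraMap F E))
    (fac : ∀ M M' : Matrix ι ι E, M * M' = 1 → ∃ P Q : Matrix ι ι E,
      GLin R P ∧ GLin S Q ∧ M = P * Q)
    (c c' : T) (hc : c * c' = 1) :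
    ∃ a ∈ KR R hR hB, ∃ a' ∈ KR R hR hB, ∃ d ∈ KR S hS hB, ∃ d' ∈ KR S hS hB,
      a * a' = 1 ∧ d * d' = 1 ∧ c = a * d := by
  obtain ⟨P, Q, ⟨P', hP, hP', PP', P'P⟩, ⟨Q', hQ, hQ', QQ', Q'Q⟩, hPQ⟩ :=
    fac (mat bT c) (mat bT c') (by rw [mat_mul, hc, mat_one])
  -- the vector of `F`-coordinates gives an element of `VV`
  have key : ∀ v : ι → F, (ofV bT (P *ᵥ fun i => algebraMap F E (v i)),
      ofV bT (Q' *ᵥ fun i => algebraMap F E (v i))) ∈ VV hB hR hS c := by
    intro v
    rw [mem_VV]
    refine ⟨fun i => ?_, fun i => ?_, ?_⟩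
    · rw [repr_ofV]; exact mulVec_mem hP (fun i => hR _) i
    · rw [repr_ofV]; exact mulVec_mem hQ' (fun i => hS _) i
    · have h1 := mat_mulVec (bT := bT) c (ofV bT (Q' *ᵥ fun i => algebraMap F E (v i)))
      have h2 : (fun i => bT.repr (ofV bT (Q' *ᵥ fun i => algebraMap F E (v i))) i) =
          Q' *ᵥ fun i => algebraMap F E (v i) := funext fun i => repr_ofV _ i
      rw [h2, hPQ, Matrix.mulVec_mulVec, Matrix.mul_assoc, QQ', Matrix.mul_one] at h1
      change ofV bT _ = c * ofV bT _
      rw [h1]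
      exact ofV_repr _
  let φ : (ι → F) →ₗ[F] VV hB hR hS c :=
    { toFun := fun v => ⟨_, key v⟩
      map_add' := by
        intro v w
        apply Subtype.ext
        have h3 : (fun i => algebraMap F E ((v + w) i)) =
            (fun i => algebraMap F E (v i)) + fun i => algebraMap F E (w i) := by
          funext i; simp
        have h4 : ∀ x y : ι → E, ofV bT (x + y) = ofV bT x + ofV bT y := by
          intro x y
          simp only [ofV, Pi.add_apply, add_smul, Finset.sum_add_distrib]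
        refine Prod.ext ?_ ?_
        · change ofV bT _ = ofV bT _ + ofV bT _
          rw [h3, Matrix.mulVec_add, h4]
        · change ofV bT _ = ofV bT _ + ofV bT _
          rw [h3, Matrix.mulVec_add, h4]
      map_smul' := by
        intro r v
        apply Subtype.ext
        have h3 : (fun i => algebraMap F E ((r • v) i)) =
            algebraMap F E r • fun i => algebraMap F E (v i) := by
          funext i; simp
        have h4 : ∀ (r : F) (x : ι → E), ofV bT (algebraMap F E r • x) = r • ofV bT x := by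
          intro r x
          simp only [ofV, Pi.smul_apply, smul_eq_mul, Finset.smul_sum]
          refine Finset.sum_congr rfl fun i _ => ?_
          rw [mul_smul, algebraMap_smul]
        refine Prod.ext ?_ ?_
        · change ofV bT _ = r • ofV bT _
          rw [h3, Matrix.mulVec_smul, h4]
        · change ofV bT _ = r • ofV bT _
          rw [h3, Matrix.mulVec_smul, h4] }
  have φinj : Function.Injective φ := by
    intro v w hvw
    have h1 : ofV bT (P *ᵥ fun i => algebraMap F E (v i)) =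
        ofV bT (P *ᵥ fun i => algebraMap F E (w i)) := congrArg (fun x => x.1.1) hvw
    have h2 : (P *ᵥ fun i => algebraMap F E (v i)) = (P *ᵥ fun i => algebraMap F E (w i)) := by
      funext i
      rw [← repr_ofV (bT := bT) (P *ᵥ fun i => algebraMap F E (v i)) i, h1, repr_ofV]
    have h3 := congrArg (fun x => P' *ᵥ x) h2
    simp only [Matrix.mulVec_mulVec, P'P, Matrix.one_mulVec] at h3
    funext i
    exact hinj (congrFun h3 i)
  have φsurj : Function.Surjective φ := by
    rintro ⟨⟨u, w⟩, hu, hw, huw⟩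
    change u = c * w at huw
    have e1 : P *ᵥ (Q *ᵥ fun i => bT.repr w i) = fun i => bT.repr u i := by
      rw [Matrix.mulVec_mulVec, ← hPQ, mat_mulVec, huw]
    have e2 : (Q *ᵥ fun i => bT.repr w i) = P' *ᵥ fun i => bT.repr u i := by
      rw [← e1, Matrix.mulVec_mulVec, P'P, Matrix.one_mulVec]
    choose v hv using fun i => hRS ((Q *ᵥ fun i => bT.repr w i) i)
      (by rw [e2]; exact mulVec_mem hP' hu i) (mulVec_mem hQ hw i)
    have hv' : (fun i => algebraMap F E (v i)) = Q *ᵥ fun i => bT.repr w i := funext hv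
    refine ⟨v, Subtype.ext (Prod.ext ?_ ?_)⟩
    · change ofV bT _ = u
      rw [hv', e1, ofV_repr]
    · change ofV bT _ = w
      rw [hv', Matrix.mulVec_mulVec, Q'Q, Matrix.one_mulVec, ofV_repr]
  let φe : (ι → F) ≃ₗ[F] VV hB hR hS c := LinearEquiv.ofBijective φ ⟨φinj, φsurj⟩
  have hne : Nonempty ι := ⟨b.index_nonempty.some⟩
  have hfd : FiniteDimensional F K := b.finiteDimensional_of_finite
  have hd : Module.finrank K (VV hB hR hS c) = 1 := by
    have h1 : Module.finrank F K * Module.finrank K (VV hB hR hS c) =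
        Module.finrank F (VV hB hR hS c) := Module.finrank_mul_finrank F K _
    have h2 : Module.finrank F (VV hB hR hS c) = Fintype.card ι := by
      rw [← φe.finrank_eq, Module.finrank_fintype_fun_eq_card]
    have h3 : Module.finrank F K = Fintype.card ι := Module.finrank_eq_card_basis b
    rw [h2, h3] at h1
    have h4 : 0 < Fintype.card ι := Fintype.card_pos
    exact Nat.eq_of_mul_eq_mul_left h4 (by rw [h1, mul_one])
  obtain ⟨⟨⟨u, w⟩, hu, hw, huw⟩, -, hgen⟩ := finrank_eq_one_iff'.1 hd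
  change u = c * w at huw
  change ∀ i, _ at hu
  change ∀ i, _ at hw
  -- the images of the standard basis
  let ev : ι → ι → F := fun j i => if i = j then 1 else 0
  choose x hx using fun j => hgen (φ (ev j))
  have hx1 : ∀ j, algebraMap K T (x j) * u = ofV bT (P *ᵥ fun i => algebraMap F E (ev j i)) := by
    intro j
    have := congrArg (fun y => y.1.1) (hx j)
    simp only [SetLike.val_smul, Prod.smul_fst, Algebra.smul_def] at this
    exact this
  have hx2 : ∀ j, algebraMap K T (x j) * w = ofV bT (Q' *ᵥ fun i => algebraMap F E (ev j i)) := by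
    intro j
    have := congrArg (fun y => y.1.2) (hx j)
    simp only [SetLike.val_smul, Prod.smul_snd, Algebra.smul_def] at this
    exact this
  -- general principle: a vector is the combination of the images of the basis vectors
  have comb : ∀ (M M' : Matrix ι ι E) (z : ι → E), M * M' = 1 →
      ofV bT z = ∑ j, (M' *ᵥ z) j • ofV bT (M *ᵥ fun i => algebraMap F E (ev j i)) := by
    intro M M' z hM
    have h1 : z = M *ᵥ (M' *ᵥ z) := by rw [Matrix.mulVec_mulVec, hM, Matrix.one_mulVec]
    have h2 : ∀ j, (M *ᵥ fun i => algebraMap F E (ev j i)) = fun i => M i j := by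
      intro j
      funext i
      simp only [Matrix.mulVec, dotProduct, ev]
      simp
    conv_lhs => rw [h1]
    simp only [ofV, h2, Finset.smul_sum]
    rw [Finset.sum_comm]
    refine Finset.sum_congr rfl fun i _ => ?_
    simp only [Matrix.mulVec, dotProduct, Finset.sum_smul, ← mul_smul]
    exact Finset.sum_congr rfl fun j _ => by rw [mul_comm]
  have one1 : (∑ j, (P' *ᵥ fun i => bT.repr (1 : T) i) j • algebraMap K T (x j)) * u = 1 := by
    rw [Finset.sum_mul]
    have h := comb P P' (fun i => bT.repr (1 : T) i) PP'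
    rw [ofV_repr] at h
    conv_rhs => rw [h]
    refine Finset.sum_congr rfl fun j _ => ?_
    rw [smul_mul_assoc, hx1]
  have one2 : (∑ j, (Q *ᵥ fun i => bT.repr (1 : T) i) j • algebraMap K T (x j)) * w = 1 := by
    rw [Finset.sum_mul]
    have h := comb Q' Q (fun i => bT.repr (1 : T) i) Q'Q
    rw [ofV_repr] at h
    conv_rhs => rw [h]
    refine Finset.sum_congr rfl fun j _ => ?_
    rw [smul_mul_assoc, hx2]
  refine ⟨u, hu, _, ?_, _, ?_, w, hw, (mul_comm _ _).trans one1, one2, ?_⟩
  · refine Subring.sum_mem _ fun j _ => ?_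
    rw [Algebra.smul_def]
    exact mul_mem (algebraMap_mem_KR' hB hR _
      (mulVec_mem hP' ((KR R hR hB).one_mem) j)) (algebraMap_mem_KR hB hR _)
  · refine Subring.sum_mem _ fun j _ => ?_
    rw [Algebra.smul_def]
    exact mul_mem (algebraMap_mem_KR' hB hS _
      (mulVec_mem hQ ((KR S hS hB).one_mem) j)) (algebraMap_mem_KR hB hS _)
  · calc c = c * (w * ∑ j, (Q *ᵥ fun i => bT.repr (1 : T) i) j • algebraMap K T (x j)) := by
          rw [mul_comm w, one2, mul_one]
      _ = u * _ := by rw [← mul_assoc, ← huw]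

/-- **Lifting of `N`-th power classes.** -/
theorem lift (hinj : Function.Injective (algebraMap F E)) [Nontrivial T]
    (hRS : ∀ z : E, z ∈ R → z ∈ S → z ∈ Set.range (algebraMap F E))
    (fac : ∀ M M' : Matrix ι ι E, M * M' = 1 → ∃ P Q : Matrix ι ι E,
      GLin R P ∧ GLin S Q ∧ M = P * Q) (N : ℕ)
    (gU gU' gP c c' : T) (hU : gU ∈ KR R hR hB) (eU : gU * gU' = 1)
    (hP : gP ∈ KR S hS hB)
    (hc : c * c' = 1) (e : gU = c ^ N * gP) :
    ∃ h : K, h ≠ 0 ∧ ∃ a ∈ KR R hR hB, ∃ a' ∈ KR R hR hB, ∃ d ∈ KR S hS hB, ∃ d' ∈ KR S hS hB,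
      a * a' = 1 ∧ d * d' = 1 ∧ algebraMap K T h = gU * a ^ N ∧ algebraMap K T h = gP * d ^ N := by
  obtain ⟨a, ha, a', ha', d, hd, d', hd', e1, e2, e3⟩ := unit_fac hB hR hS hinj hRS fac c c' hc
  have h1 : gU * a' ^ N = gP * d ^ N := by
    rw [e, e3, mul_pow]
    have : a ^ N * a' ^ N = 1 := by rw [← mul_pow, e1, one_pow]
    calc a ^ N * d ^ N * gP * a' ^ N = (a ^ N * a' ^ N) * (gP * d ^ N) := by ring
      _ = _ := by rw [this, one_mul]
  obtain ⟨h, hh⟩ := inter_KR hB hR hS hRS (gU * a' ^ N) (mul_mem hU (pow_mem ha' N))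
    (by rw [h1]; exact mul_mem hP (pow_mem hd N))
  refine ⟨h, ?_, a', ha', a, ha, d, hd, d', hd', (mul_comm _ _).trans e1, e2, hh, hh.trans h1⟩
  rintro rfl
  rw [map_zero] at hh
  have h2 : gU * a' ^ N * (gU' * a ^ N) = 1 := by
    calc gU * a' ^ N * (gU' * a ^ N) = (gU * gU') * (a * a') ^ N := by rw [mul_pow]; ring
      _ = 1 := by rw [eU, e1, one_pow, one_mul]
  rw [← hh, zero_mul] at h2
  exact zero_ne_one h2

end Abstract

/-! ### The instance of 946's patching fields -/

section Instance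

open Polynomial

variable {k E : Type*} [NormedField k] [NormedField E] [NormedAlgebra k E] [IsUltrametricDist E]
  [CompleteSpace E] [CompleteSpace k] {y : E} (hG : IsGauss k y) {π : k} (hπ : IsUnif π)
  (hd : DenseRat k y)
  {F K T : Type*} [Field F] [Field K] [CommRing T]
  [Algebra F K] [Algebra F E] [Algebra F T] [Algebra K T] [Algebra E T]
  [IsScalarTower F K T] [IsScalarTower F E T]
  {ι : Type*} [Fintype ι] [DecidableEq ι]
  {b : Module.Basis ι F K} {bT : Module.Basis ι E T} (hB : IsBC b bT)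

omit [CompleteSpace E] [CompleteSpace k] in
theorem algebraMap_mem_RU (hF : ∀ x : F, algebraMap F E x ∈ KY hG) (x : F) :
    algebraMap F E x ∈ RU k y := KY_le_RU hG (hF x)

theorem algebraMap_mem_FP (hF : ∀ x : F, algebraMap F E x ∈ KY hG) (x : F) :
    algebraMap F E x ∈ (FP hG hπ hd).toSubring := KY_le_FP hG hπ hd (hF x)

/-- `T^× = (RU ⊗ K)^× (FP ⊗ K)^×` for `K` a finite extension of `F = k(y)`. -/
theorem unit_fac_E (hF : ∀ x : F, algebraMap F E x ∈ KY hG)
    (hF' : ∀ z : E, z ∈ KY hG → z ∈ Set.range (algebraMap F E)) (c c' : T) (hc : c * c' = 1) :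
    ∃ a ∈ KR (RU k y) (algebraMap_mem_RU hG hF) hB,
    ∃ a' ∈ KR (RU k y) (algebraMap_mem_RU hG hF) hB,
    ∃ d ∈ KR (FP hG hπ hd).toSubring (algebraMap_mem_FP hG hπ hd hF) hB,
    ∃ d' ∈ KR (FP hG hπ hd).toSubring (algebraMap_mem_FP hG hπ hd hF) hB,
      a * a' = 1 ∧ d * d' = 1 ∧ c = a * d :=
  unit_fac hB (algebraMap_mem_RU hG hF) (algebraMap_mem_FP hG hπ hd hF)
    (algebraMap F E).injective (fun z h1 h2 => hF' z (inter_FP_RU hG hπ hd z h2 h1))
    (fun M M' h => fac_RU_FP hG hπ hd M M' h) c c' hc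

/-- **Lifting of `N`-th power classes** in 946's setting. -/
theorem lift_E [Nontrivial T] (hF : ∀ x : F, algebraMap F E x ∈ KY hG)
    (hF' : ∀ z : E, z ∈ KY hG → z ∈ Set.range (algebraMap F E)) (N : ℕ)
    (gU gU' gP c c' : T)
    (hU : gU ∈ KR (RU k y) (algebraMap_mem_RU hG hF) hB) (eU : gU * gU' = 1)
    (hP : gP ∈ KR (FP hG hπ hd).toSubring (algebraMap_mem_FP hG hπ hd hF) hB)
    (hc : c * c' = 1) (e : gU = c ^ N * gP) :
    ∃ h : K, h ≠ 0 ∧ ∃ a ∈ KR (RU k y) (algebraMap_mem_RU hG hF) hB,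
    ∃ a' ∈ KR (RU k y) (algebraMap_mem_RU hG hF) hB,
    ∃ d ∈ KR (FP hG hπ hd).toSubring (algebraMap_mem_FP hG hπ hd hF) hB,
    ∃ d' ∈ KR (FP hG hπ hd).toSubring (algebraMap_mem_FP hG hπ hd hF) hB,
      a * a' = 1 ∧ d * d' = 1 ∧ algebraMap K T h = gU * a ^ N ∧ algebraMap K T h = gP * d ^ N :=
  lift hB (algebraMap_mem_RU hG hF) (algebraMap_mem_FP hG hπ hd hF)
    (algebraMap F E).injective (fun z h1 h2 => hF' z (inter_FP_RU hG hπ hd z h2 h1))
    (fun M M' h => fac_RU_FP hG hπ hd M M' h) N gU gU' gP c c' hU eU hP hc e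

end Instance

end Crest.Agent.R013.Lift903
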