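import Mathlib

/-!
# LIFT-2: local `N`-th powers are `N`-th powers in `E ⊗ K`

`E` a complete ultrametric field, `F → E` a field, `K/F` finite separable, `N` prime to the residue
characteristic (`‖(N : E)‖ = 1`).  If `f ∈ K` is congruent to an `N`-th power modulo 1-units at every
valuation of `K` extending the norm of `E` restricted to `F`, then `1 ⊗ f` is an `N`-th power in
`E ⊗[F] K`.
-/

set_option autoImplicit false

namespace Crest.Agent.R013.Lift2_365

open scoped NNReal TensorProduct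

/-- In a complete ultrametric field a 1-unit is an `N`-th power if `‖N‖ = 1`. -/
theorem exists_pow_eq_of_near_one {L : Type*} [NormedField L] [IsUltrametricDist L]
    [CompleteSpace L] (N : ℕ) (hN : ‖(N : L)‖ = 1) (x : L) (hx : ‖x - 1‖ < 1) :
    ∃ y : L, ‖y - 1‖ ≤ ‖x - 1‖ ∧ y ^ N = x := by
  have hN0 : (N : L) ≠ 0 := by
    intro h; rw [h, norm_zero] at hN; norm_num at hN
  set δ : ℝ := ‖x - 1‖ with hδ
  have hδ0 : 0 ≤ δ := norm_nonneg _
  set φ : L → L := fun y => y - (y ^ N - x) / N with hφ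
  have nle : ∀ y : L, ‖y - 1‖ ≤ δ → ‖y‖ ≤ 1 := by
    intro y hy
    have : y = (y - 1) + 1 := by ring
    rw [this]
    refine (IsUltrametricDist.norm_add_le_max _ _).trans (max_le (hy.trans hx.le) ?_)
    rw [norm_one]
  -- powers stay near 1
  have npow : ∀ y : L, ‖y - 1‖ ≤ δ → ∀ n : ℕ, ‖y ^ n - 1‖ ≤ δ := by
    intro y hy n
    induction n with
    | zero => simpa using hδ0
    | succ n ih =>
      have : y ^ (n + 1) - 1 = (y ^ n - 1) * y + (y - 1) := by ring
      rw [this]
      refine (IsUltrametricDist.norm_add_le_max _ _).trans (max_le ?_ hy)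
      rw [norm_mul]
      calc ‖y ^ n - 1‖ * ‖y‖ ≤ δ * 1 := mul_le_mul ih (nle y hy) (norm_nonneg _) hδ0
        _ = δ := mul_one _
  have nmul : ∀ a b : L, ‖a - 1‖ ≤ δ → ‖b - 1‖ ≤ δ → ‖a * b - 1‖ ≤ δ := by
    intro a b ha hb
    have : a * b - 1 = (a - 1) * b + (b - 1) := by ring
    rw [this]
    refine (IsUltrametricDist.norm_add_le_max _ _).trans (max_le ?_ hb)
    rw [norm_mul]
    calc ‖a - 1‖ * ‖b‖ ≤ δ * 1 := mul_le_mul ha (nle b hb) (norm_nonneg _) hδ0
      _ = δ := mul_one _
  -- contraction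
  have hcontr : ∀ y z : L, ‖y - 1‖ ≤ δ → ‖z - 1‖ ≤ δ → ‖φ y - φ z‖ ≤ δ * ‖y - z‖ := by
    intro y z hy hz
    have h1 : φ y - φ z = (y - z) *
        ((∑ i ∈ Finset.range N, (1 - y ^ i * z ^ (N - 1 - i))) / N) := by
      have h2 : (y ^ N - z ^ N) = (∑ i ∈ Finset.range N, y ^ i * z ^ (N - 1 - i)) * (y - z) :=
        (geom_sum₂_mul y z N).symm
      have h3 : (∑ i ∈ Finset.range N, ((1 : L) - y ^ i * z ^ (N - 1 - i))) =
          N - ∑ i ∈ Finset.range N, y ^ i * z ^ (N - 1 - i) := by
        rw [Finset.sum_sub_distrib]; simp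
      rw [h3]
      simp only [hφ]
      field_simp
      linear_combination -h2
    rw [h1, norm_mul, norm_div, hN, div_one, mul_comm]
    refine mul_le_mul_of_nonneg_right ?_ (norm_nonneg _)
    refine IsUltrametricDist.norm_sum_le_of_forall_le_of_nonneg hδ0 fun i _ => ?_
    rw [norm_sub_rev]
    exact nmul _ _ (npow y hy _) (npow z hz _)
  have hself : ∀ y : L, ‖y - 1‖ ≤ δ → ‖φ y - 1‖ ≤ δ := by
    intro y hy
    have h1 : φ y - 1 = (φ y - φ 1) + (φ 1 - 1) := by ring
    have h2 : ‖φ 1 - 1‖ = δ := by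
      have : φ 1 - 1 = (x - 1) / N := by simp only [hφ, one_pow]; ring
      rw [this, norm_div, hN, div_one]
    rw [h1]
    refine (IsUltrametricDist.norm_add_le_max _ _).trans (max_le ?_ h2.le)
    refine (hcontr y 1 hy (by simpa using hδ0)).trans ?_
    calc δ * ‖y - 1‖ ≤ 1 * δ := mul_le_mul hx.le hy (norm_nonneg _) zero_le_one
      _ = δ := one_mul _
  -- Cauchy iteration
  set s : ℕ → L := fun n => φ^[n] 1 with hs
  have sS : ∀ n, s (n + 1) = φ (s n) := fun n => Function.iterate_succ_apply' φ n 1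
  have s1 : ∀ n, ‖s n - 1‖ ≤ δ := by
    intro n
    induction n with
    | zero => simpa [hs] using hδ0
    | succ n ih => rw [sS]; exact hself _ ih
  have sd : ∀ n, ‖s n - s (n + 1)‖ ≤ 1 * δ ^ n := by
    intro n
    induction n with
    | zero =>
      have h0 : s 0 = 1 := rfl
      have := s1 1
      rw [pow_zero, mul_one, norm_sub_rev, h0]
      exact this.trans hx.le
    | succ n ih =>
      rw [sS n, sS (n + 1)]
      refine (hcontr _ _ (s1 n) (s1 (n + 1))).trans ?_
      rw [pow_succ, one_mul, mul_comm]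
      exact mul_le_mul_of_nonneg_right (by simpa using ih) hδ0
  have hc : CauchySeq s := by
    refine cauchySeq_of_le_geometric δ 1 hx fun n => ?_
    rw [dist_eq_norm]; exact sd n
  obtain ⟨y, hy⟩ := cauchySeq_tendsto_of_complete hc
  have hy1 : ‖y - 1‖ ≤ δ :=
    le_of_tendsto (hy.sub_const 1).norm (Filter.Eventually.of_forall s1)
  refine ⟨y, hy1, ?_⟩
  have hfix : φ y = y := by
    have h1 : Filter.Tendsto (fun n => s (n + 1)) Filter.atTop (nhds y) :=
      hy.comp (Filter.tendsto_add_atTop_nat 1)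
    have h2 : Filter.Tendsto (fun n => φ (s n)) Filter.atTop (nhds (φ y)) := by
      have : Continuous φ := by
        simp only [hφ]
        fun_prop
      exact (this.tendsto y).comp hy
    simp only [sS] at h1
    exact tendsto_nhds_unique h2 h1
  have : (y ^ N - x) / N = 0 := by
    have h := hfix
    simp only [hφ] at h
    linear_combination -h
  rcases div_eq_zero_iff.1 this with h | h
  · exact sub_eq_zero.1 h
  · exact absurd h hN0

/-- Local version: in a finite field extension `L` of the complete field `E`. -/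
theorem exists_local_pow {F E K L : Type*} [Field F] [NontriviallyNormedField E] [Algebra F E]
    [IsUltrametricDist E] [CompleteSpace E] [Field K] [Algebra F K] [Field L] [Algebra E L]
    [FiniteDimensional E L] (N : ℕ) (hN : ‖(N : E)‖ = 1) (f : K)
    (hf : ∀ v : Valuation K ℝ≥0, (∀ a : F, v (algebraMap F K a) = ‖algebraMap F E a‖₊) →
      ∃ w : K, w ≠ 0 ∧ v (f - w ^ N) < v f)
    (ι : K →+* L) (hι : ∀ a : F, ι (algebraMap F K a) = algebraMap E L (algebraMap F E a)) :
    ∃ c : L, c ^ N = ι f := by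
  have : Algebra.IsAlgebraic E L := inferInstance
  let nf : NormedField L := spectralNorm.normedField E L
  have : CompleteSpace L := spectralNorm.completeSpace E L
  have : IsUltrametricDist L :=
    IsUltrametricDist.isUltrametricDist_of_isNonarchimedean_norm
      (isNonarchimedean_spectralNorm (K := E) (L := L))
  have hext : ∀ e : E, ‖algebraMap E L e‖ = ‖e‖ := fun e => spectralNorm_extends e
  set v : Valuation K ℝ≥0 := (NormedField.valuation (K := L)).comap ι with hv
  have hvapp : ∀ a : K, v a = ‖ι a‖₊ := fun a => rfl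
  obtain ⟨w, hw0, hw⟩ := hf v (by
    intro a
    rw [hvapp, hι]
    exact NNReal.eq (hext _))
  have hιw : ι w ≠ 0 := by
    rw [Ne, map_eq_zero]; exact hw0
  have hN' : ‖(N : L)‖ = 1 := by
    rw [← map_natCast (algebraMap E L), hext, hN]
  have hwf : v (w ^ N) = v f := by
    have : w ^ N = f - (f - w ^ N) := by ring
    rw [this]
    exact Valuation.map_sub_eq_of_lt_left _ hw
  have hnear : ‖ι f / ι w ^ N - 1‖ < 1 := by
    have h1 : ι f / ι w ^ N - 1 = ι (f - w ^ N) / ι (w ^ N) := by
      rw [map_sub, map_pow, sub_div, div_self (pow_ne_zero _ hιw)]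
    have h2 : (‖ι (f - w ^ N)‖₊ : ℝ≥0) < ‖ι (w ^ N)‖₊ := by
      rw [← hvapp, ← hvapp, hwf]; exact hw
    rw [h1, norm_div, div_lt_one]
    · exact_mod_cast h2
    · exact norm_pos_iff.2 (by rw [map_pow]; exact pow_ne_zero _ hιw)
  obtain ⟨y, -, hy⟩ := exists_pow_eq_of_near_one N hN' _ hnear
  refine ⟨y * ι w, ?_⟩
  rw [mul_pow, hy, div_mul_cancel₀ _ (pow_ne_zero _ hιw)]

/-- **LIFT-2.** -/
theorem exists_tensor_pow {F E K : Type*} [Field F] [NontriviallyNormedField E] [Algebra F E]
    [IsUltrametricDist E] [CompleteSpace E] [Field K] [Algebra F K] [FiniteDimensional F K]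
    [Algebra.IsSeparable F K] (N : ℕ) (hN : ‖(N : E)‖ = 1) (f : K)
    (hf : ∀ v : Valuation K ℝ≥0, (∀ a : F, v (algebraMap F K a) = ‖algebraMap F E a‖₊) →
      ∃ w : K, w ≠ 0 ∧ v (f - w ^ N) < v f) :
    ∃ c : E ⊗[F] K, c ^ N = 1 ⊗ₜ[F] f := by
  classical
  have : Algebra.FormallyUnramified F K := Algebra.FormallyUnramified.of_isSeparable F K
  have : Algebra.FormallyUnramified E (E ⊗[F] K) := inferInstance
  have : Module.Finite E (E ⊗[F] K) := inferInstance
  have : IsArtinianRing (E ⊗[F] K) := isArtinian_of_tower E inferInstance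
  have : IsReduced (E ⊗[F] K) := Algebra.FormallyUnramified.isReduced_of_field E (E ⊗[F] K)
  have key : ∀ I : MaximalSpectrum (E ⊗[F] K), ∃ c : (E ⊗[F] K) ⧸ I.asIdeal,
      c ^ N = Ideal.Quotient.mk I.asIdeal ((1 : E) ⊗ₜ[F] f) := by
    intro I
    have := I.isMaximal
    let ι : K →+* (E ⊗[F] K) ⧸ I.asIdeal := (Ideal.Quotient.mk I.asIdeal).comp
      (Algebra.TensorProduct.includeRight : K →ₐ[F] (E ⊗[F] K)).toRingHom
    refine @exists_local_pow F E K ((E ⊗[F] K) ⧸ I.asIdeal) _ _ _ _ _ _ _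
      (Ideal.Quotient.field I.asIdeal) _ _ N hN f hf ι ?_
    intro a
    have h1 : (1 : E) ⊗ₜ[F] (algebraMap F K a) =
        (algebraMap E (E ⊗[F] K) (algebraMap F E a)) := by
      rw [Algebra.TensorProduct.algebraMap_apply, Algebra.algebraMap_self, RingHom.id_apply,
        Algebra.algebraMap_eq_smul_one, Algebra.algebraMap_eq_smul_one, TensorProduct.tmul_smul,
        TensorProduct.smul_tmul']
    exact congrArg (Ideal.Quotient.mk I.asIdeal) h1
  choose c hc using key
  obtain ⟨a, ha⟩ := (IsArtinianRing.equivPi (E ⊗[F] K)).surjective c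
  refine ⟨a, (IsArtinianRing.equivPi (E ⊗[F] K)).injective ?_⟩
  rw [map_pow, ha]
  funext I
  exact hc I

end Crest.Agent.R013.Lift2_365
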