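import Crest.Agent.R013.Lift4_903
import Crest.Agent.R013.Lift2_365

/-!
# Lemma LIFT: gluing of two functions which agree modulo `N`-th powers near the circle

`T = E ⊗_F K`.  If `h₀ / h_P ∈ K^×` is, for every norm of `K` over the norm of `F`, an `N`-th power
times a `1`-unit (`N` prime to the residue characteristic), there is `h ∈ K^×` with
`h = h₀ a^N`, `a ∈ (R ⊗ K)^×` and `h = h_P d^N`, `d ∈ (S ⊗ K)^×`.
-/

set_option autoImplicit false

namespace Crest.Agent.R013.Lift903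

open Gl946 Matrix
open scoped NNReal TensorProduct

attribute [local instance] Algebra.TensorProduct.rightAlgebra

section Tensor

variable {F E K : Type*} [Field F] [CommRing E] [Field K] [Algebra F E] [Algebra F K]
  {ι : Type*}

/-- The tensor product is a base change. -/
theorem isBC_tensor (b : Module.Basis ι F K) :
    IsBC (T := E ⊗[F] K) b (Algebra.TensorProduct.basis E b) :=
  ⟨fun i => by
    rw [Algebra.TensorProduct.basis_apply]
    rfl⟩

theorem algebraMap_right (x : K) : algebraMap K (E ⊗[F] K) x = 1 ⊗ₜ[F] x := rfl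

end Tensor

section Patch

variable {F E K : Type*} [Field F] [NontriviallyNormedField E] [Algebra F E]
  [IsUltrametricDist E] [CompleteSpace E] [Field K] [Algebra F K] [FiniteDimensional F K]
  [Algebra.IsSeparable F K] {ι : Type*} [Fintype ι] [DecidableEq ι] (b : Module.Basis ι F K)
  {R S : Subring E} (hR : ∀ x : F, algebraMap F E x ∈ R)
  (hS : ∀ x : F, algebraMap F E x ∈ S)

/-- **Lemma LIFT**, gluing step. -/
theorem patch
    (hRS : ∀ z : E, z ∈ R → z ∈ S → z ∈ Set.range (algebraMap F E))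
    (fac : ∀ M M' : Matrix ι ι E, M * M' = 1 → ∃ P Q : Matrix ι ι E,
      GLin R P ∧ GLin S Q ∧ M = P * Q) (N : ℕ) (hN : ‖(N : E)‖ = 1)
    (h₀ hP : K) (h0 : h₀ ≠ 0) (hP0 : hP ≠ 0)
    (hf : ∀ v : Valuation K ℝ≥0, (∀ a : F, v (algebraMap F K a) = ‖algebraMap F E a‖₊) →
      ∃ w : K, w ≠ 0 ∧ v (h₀ / hP - w ^ N) < v (h₀ / hP)) :
    ∃ h : K, h ≠ 0 ∧ ∃ a ∈ KR R hR (isBC_tensor (E := E) b),
      ∃ a' ∈ KR R hR (isBC_tensor (E := E) b), ∃ d ∈ KR S hS (isBC_tensor (E := E) b),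
      ∃ d' ∈ KR S hS (isBC_tensor (E := E) b),
      a * a' = 1 ∧ d * d' = 1 ∧ algebraMap K (E ⊗[F] K) h = algebraMap K (E ⊗[F] K) h₀ * a ^ N ∧
        algebraMap K (E ⊗[F] K) h = algebraMap K (E ⊗[F] K) hP * d ^ N := by
  obtain ⟨c, hc⟩ := Lift2_365.exists_tensor_pow (E := E) N hN (h₀ / hP) hf
  have hN0 : N ≠ 0 := by
    rintro rfl
    rw [Nat.cast_zero, norm_zero] at hN
    exact zero_ne_one hN
  have : Nontrivial (E ⊗[F] K) := inferInstance
  have e1 : c ^ N = algebraMap K (E ⊗[F] K) (h₀ / hP) := hc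
  have e2 : c * (c ^ (N - 1) * algebraMap K (E ⊗[F] K) (hP / h₀)) = 1 := by
    rw [← mul_assoc, ← pow_succ', Nat.sub_add_cancel (Nat.one_le_iff_ne_zero.2 hN0), e1,
      ← map_mul, div_mul_div_cancel₀ hP0, div_self h0, map_one]
  refine lift (isBC_tensor (E := E) b) hR hS (algebraMap F E).injective hRS fac N
    (algebraMap K (E ⊗[F] K) h₀) (algebraMap K (E ⊗[F] K) h₀⁻¹) (algebraMap K (E ⊗[F] K) hP)
    c _ (algebraMap_mem_KR _ hR h₀) ?_ (algebraMap_mem_KR _ hS hP) e2 ?_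
  · rw [← map_mul, mul_inv_cancel₀ h0, map_one]
  · rw [e1, ← map_mul, div_mul_cancel₀ _ hP0]

end Patch

/-! ### 946's setting -/

section Instance

variable {k E : Type*} [NormedField k] [NontriviallyNormedField E] [NormedAlgebra k E]
  [IsUltrametricDist E] [CompleteSpace E] [CompleteSpace k] {y : E} (hG : IsGauss k y) {π : k}
  (hπ : IsUnif π) (hd : DenseRat k y)
  {F K : Type*} [Field F] [Field K] [Algebra F K] [Algebra F E] [FiniteDimensional F K]
  [Algebra.IsSeparable F K] {ι : Type*} [Fintype ι] [DecidableEq ι] (b : Module.Basis ι F K)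

/-- **Lemma LIFT** in 946's setting: `h₀` (outside) and `h_P` (inside) are glued. -/
theorem patch_E (hF : ∀ x : F, algebraMap F E x ∈ KY hG)
    (hF' : ∀ z : E, z ∈ KY hG → z ∈ Set.range (algebraMap F E)) (N : ℕ) (hN : ‖(N : E)‖ = 1)
    (h₀ hP : K) (h0 : h₀ ≠ 0) (hP0 : hP ≠ 0)
    (hf : ∀ v : Valuation K ℝ≥0, (∀ a : F, v (algebraMap F K a) = ‖algebraMap F E a‖₊) →
      ∃ w : K, w ≠ 0 ∧ v (h₀ / hP - w ^ N) < v (h₀ / hP)) :
    ∃ h : K, h ≠ 0 ∧ ∃ a ∈ KR (RU k y) (algebraMap_mem_RU hG hF) (isBC_tensor (E := E) b),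
      ∃ a' ∈ KR (RU k y) (algebraMap_mem_RU hG hF) (isBC_tensor (E := E) b),
      ∃ d ∈ KR (FP hG hπ hd).toSubring (algebraMap_mem_FP hG hπ hd hF) (isBC_tensor (E := E) b),
      ∃ d' ∈ KR (FP hG hπ hd).toSubring (algebraMap_mem_FP hG hπ hd hF) (isBC_tensor (E := E) b),
      a * a' = 1 ∧ d * d' = 1 ∧ algebraMap K (E ⊗[F] K) h = algebraMap K (E ⊗[F] K) h₀ * a ^ N ∧
        algebraMap K (E ⊗[F] K) h = algebraMap K (E ⊗[F] K) hP * d ^ N :=
  patch b (algebraMap_mem_RU hG hF) (algebraMap_mem_FP hG hπ hd hF)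
    (fun z h1 h2 => hF' z (inter_FP_RU hG hπ hd z h2 h1))
    (fun M M' h => fac_RU_FP hG hπ hd M M' h) N hN h₀ hP h0 hP0 hf

end Instance

end Crest.Agent.R013.Lift903
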