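import Crest.Agent.R013.RZ3_365
import Crest.Agent.R013.LiftA_168
import Crest.Agent.R013.AVal_168

/-!
# R013 / LiftB (helper168): LIFT-L over the algebraically closed field of constants

`C` algebraically closed with a norm `nC`, `K` finite over `C(z)` for all transcendental `z`; `v` a
norm of `K`, Gauss for `t`, and `y` an Artin-Schreier function on the vertex `v`,
`v (y ^ p - y - t ^ m) < 1`.  `stage1`: there are `h0` (congruent to `y` at `v`), a coordinate `z`, an
exponent `e` and a finite set `G` such that `h0` is an `l`-th power up to `1`-units at all valuation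
rings with `|z| < 1`, `|π| < |z| ^ e`, and `h0` has no zero or pole at the places with `|z| ≥ 1`.
-/

set_option autoImplicit false

namespace Crest.Agent.R013.LiftB_168

open Polynomial
open scoped NNReal
open Crest.Agent.R013.LiftA_168 Crest.Agent.R013.RZ_365

section zcoord

variable {k K : Type*} [Field k] [Field K] [Algebra k K] {v0 : Valuation k ℝ≥0}
  {Γ : Type*} [LinearOrderedCommGroupWithZero Γ] {w : Valuation K Γ} {t : K}

theorem aeval_le (hw : ∀ c, v0 c ≤ 1 → w (algebraMap k K c) ≤ 1) (ht : w t ≤ 1) {f : k[X]}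
    (hf : ∀ i, v0 (f.coeff i) ≤ 1) : w (aeval t f) ≤ 1 := by
  rw [aeval_eq_sum_range]
  refine Valuation.map_sum_le _ fun i _ => ?_
  rw [Algebra.smul_def, map_mul, map_pow]
  exact mul_le_one' (hw _ (hf i)) (pow_le_one' ht i)

theorem val_of_gt' {A : k[X]} (hA : MI v0 A) (hw : ∀ c, v0 c ≤ 1 → w (algebraMap k K c) ≤ 1)
    (ht : 1 < w t) : w (aeval t A) = w t ^ A.natDegree := by
  rw [aeval_eq_sum_range, Finset.sum_range_succ, hA.monic.coeff_natDegree, one_smul]
  have h1 : w (∑ i ∈ Finset.range A.natDegree, A.coeff i • t ^ i) < w (t ^ A.natDegree) := by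
    refine Valuation.map_sum_lt _ ?_ fun i hi => ?_
    · rw [map_pow]
      exact pow_ne_zero _ (zero_lt_one.trans ht).ne'
    · rw [Algebra.smul_def, map_mul, map_pow, map_pow]
      calc w (algebraMap k K (A.coeff i)) * w t ^ i ≤ 1 * w t ^ i :=
            mul_le_mul_left (hw _ (hA.le i)) _
        _ = w t ^ i := one_mul _
        _ < w t ^ A.natDegree := pow_lt_pow_right₀ ht (Finset.mem_range.1 hi)
  rw [Valuation.map_add_eq_of_lt_right _ h1, map_pow]

theorem zc_val_of_gt' {A : k[X]} (hA : MI v0 A) (hw : ∀ c, v0 c ≤ 1 → w (algebraMap k K c) ≤ 1)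
    (ht : 1 < w t) : w (zc A t) = (w t)⁻¹ := by
  have h0 : w t ≠ 0 := (zero_lt_one.trans ht).ne'
  rw [zc, map_div₀, val_of_gt' hA hw ht, val_of_gt' hA.den hw ht, hA.natDegree_den, pow_succ,
    div_mul_eq_div_div, div_self (pow_ne_zero _ h0), one_div]

theorem zc_lt_of_gt {A : k[X]} (hA : MI v0 A) (hw : ∀ c, v0 c ≤ 1 → w (algebraMap k K c) ≤ 1)
    (ht : 1 < w t) : w (zc A t) < 1 := by
  rw [zc_val_of_gt' hA hw ht]
  exact inv_lt_one_of_one_lt₀ ht

/-- the polynomial with roots `S` -/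
noncomputable def rp (S : Finset k) : k[X] := ∏ τ ∈ S, (X - C τ)

theorem MI_rp {S : Finset k} (hS : ∀ τ ∈ S, v0 τ ≤ 1) : MI v0 (rp S) := by
  refine MI.prod _ _ fun τ hτ => ⟨monic_X_sub_C _, fun i => ?_⟩
  rw [coeff_sub]
  refine v0.map_sub_le (MI.var.le i) ?_
  rw [coeff_C]
  split_ifs
  · exact hS τ hτ
  · rw [map_zero]; exact zero_le

theorem rp_lt {S : Finset k} (hS : ∀ τ ∈ S, v0 τ ≤ 1)
    (hw : ∀ c, v0 c ≤ 1 → w (algebraMap k K c) ≤ 1) (ht : w t ≤ 1) {τ : k} (hτ : τ ∈ S)
    (h : w (t - algebraMap k K τ) < 1) : w (aeval t (rp S)) < 1 := by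
  classical
  rw [rp, map_prod, map_prod, ← Finset.mul_prod_erase _ _ hτ]
  refine mul_lt_one_of_lt_of_le ?_ ?_
  · rw [map_sub, aeval_X, aeval_C]; exact h
  · refine Finset.prod_le_one' fun σ hσ => ?_
    rw [map_sub, aeval_X, aeval_C]
    exact w.map_sub_le ht (hw _ (hS σ (Finset.mem_of_mem_erase hσ)))

theorem zc_lt_of_root {S : Finset k} (hS : ∀ τ ∈ S, v0 τ ≤ 1)
    (hw : ∀ c, v0 c ≤ 1 → w (algebraMap k K c) ≤ 1) (ht : w t ≤ 1) {τ : k} (hτ : τ ∈ S)
    (h : w (t - algebraMap k K τ) < 1) : w (zc (rp S) t) < 1 := by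
  have h1 := rp_lt hS hw ht hτ h
  have h2 : w (aeval t (1 + X * rp S)) = 1 := by
    rw [map_add, map_mul, aeval_X, map_one]
    rw [Valuation.map_add_eq_of_lt_left, map_one]
    rw [map_one, map_mul]
    rw [mul_comm]
    exact mul_lt_one_of_lt_of_le h1 ht
  rw [zc, map_div₀, h2, div_one]
  exact h1

end zcoord

section bad

variable {k K : Type*} [Field k] [Field K] [Algebra k K]

/-- The zeros and poles of an algebraic function are over the zeros of a polynomial in `t` or over
`t = ∞`. -/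
theorem exists_bad (t h : K) (h0 : h ≠ 0) (hh : IsAlgebraic (IntermediateField.adjoin k {t}) h) :
    ∃ B : k[X], B ≠ 0 ∧ ∀ u : Valuation K ℝ≥0, (∀ c : k, c ≠ 0 → u (algebraMap k K c) = 1) →
      u t ≤ 1 → u h ≠ 1 → u (aeval t B) < 1 := by
  classical
  have hint : IsIntegral (IntermediateField.adjoin k {t}) h := hh.isIntegral
  set P := minpoly (IntermediateField.adjoin k {t}) h with hP
  have hP0 : P.coeff 0 ≠ 0 := minpoly.coeff_zero_ne_zero hint h0
  have hPm : P.Monic := minpoly.monic hint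
  have key : ∀ c : IntermediateField.adjoin k {t}, ∃ r s : k[X], aeval t s ≠ 0 ∧
      (c : K) * aeval t s = aeval t r := by
    intro c
    obtain ⟨r, s, hrs⟩ := (IntermediateField.mem_adjoin_simple_iff k (c : K)).1 c.2
    by_cases hs : aeval t s = 0
    · refine ⟨0, 1, by rw [map_one]; exact one_ne_zero, ?_⟩
      rw [hrs, hs, div_zero, zero_mul, map_zero]
    · exact ⟨r, s, hs, by rw [hrs, div_mul_cancel₀ _ hs]⟩
  choose r s hs hrs using fun i : ℕ => key (P.coeff i)
  have hs0 : ∀ i, s i ≠ 0 := by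
    intro i h1
    apply hs i
    rw [h1, map_zero]
  have hr0 : r 0 ≠ 0 := by
    intro h1
    have h2 := hrs 0
    rw [h1, map_zero] at h2
    rcases mul_eq_zero.1 h2 with h3 | h3
    · exact hP0 (Subtype.ext h3)
    · exact hs 0 h3
  refine ⟨r 0 * ∏ i ∈ Finset.range (P.natDegree + 1), s i,
    mul_ne_zero hr0 (Finset.prod_ne_zero_iff.2 fun i _ => hs0 i), ?_⟩
  intro u hu ht huh
  have hc : ∀ c : k, u (algebraMap k K c) ≤ 1 := by
    intro c
    by_cases hc : c = 0
    · rw [hc, map_zero, map_zero]; exact zero_le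
    · rw [hu c hc]
  have hle : ∀ f : k[X], u (aeval t f) ≤ 1 := by
    intro f
    rw [aeval_eq_sum_range]
    refine Valuation.map_sum_le _ fun i _ => ?_
    rw [Algebra.smul_def, map_mul, map_pow]
    exact mul_le_one' (hc _) (pow_le_one' ht i)
  by_contra hcon
  push Not at hcon
  rw [map_mul, map_prod, map_mul, map_prod] at hcon
  have hprod : ∏ i ∈ Finset.range (P.natDegree + 1), u (aeval t (s i)) ≤ 1 :=
    Finset.prod_le_one' fun i _ => hle _
  have hr1 : u (aeval t (r 0)) = 1 := by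
    refine le_antisymm (hle _) (hcon.trans ?_)
    exact mul_le_of_le_one_right' hprod
  have hprod1 : ∏ i ∈ Finset.range (P.natDegree + 1), u (aeval t (s i)) = 1 := by
    refine le_antisymm hprod (hcon.trans ?_)
    rw [hr1, one_mul]
  have hs1 : ∀ i ∈ Finset.range (P.natDegree + 1), u (aeval t (s i)) = 1 := by
    intro i hi
    refine le_antisymm (hle _) ?_
    rw [← Finset.mul_prod_erase _ _ hi] at hprod1
    rw [← hprod1]
    exact mul_le_of_le_one_right' (Finset.prod_le_one' fun i _ => hle _)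
  have hPc : ∀ i ∈ Finset.range (P.natDegree + 1), u (P.coeff i : K) ≤ 1 := by
    intro i hi
    have h1 := congrArg u (hrs i)
    rw [map_mul, hs1 i hi, mul_one] at h1
    rw [h1]; exact hle _
  have hPc0 : u (P.coeff 0 : K) = 1 := by
    have h1 := congrArg u (hrs 0)
    rw [map_mul, hs1 0 (by simp), mul_one, hr1] at h1
    exact h1
  have hsum : ∑ i ∈ Finset.range (P.natDegree + 1), (P.coeff i : K) * h ^ i = 0 := by
    have h1 : aeval h P = 0 := minpoly.aeval _ _
    rw [aeval_eq_sum_range] at h1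
    rw [← h1]
    refine Finset.sum_congr rfl fun i _ => ?_
    rw [Algebra.smul_def]
    rfl
  rcases lt_or_gt_of_ne huh with hlt | hgt
  · -- `u h < 1`
    rw [Finset.sum_range_succ'] at hsum
    rw [pow_zero, mul_one] at hsum
    have h1 : u (∑ i ∈ Finset.range P.natDegree, (P.coeff (i + 1) : K) * h ^ (i + 1)) < 1 := by
      refine Valuation.map_sum_lt _ one_ne_zero fun i hi => ?_
      rw [map_mul, map_pow, mul_comm]
      refine mul_lt_one_of_lt_of_le (pow_lt_one₀ zero_le hlt (Nat.succ_ne_zero i)) (hPc _ ?_)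
      have := Finset.mem_range.1 hi
      exact Finset.mem_range.2 (by omega)
    have h2 : (P.coeff 0 : K) =
        -∑ i ∈ Finset.range P.natDegree, (P.coeff (i + 1) : K) * h ^ (i + 1) := by
      rw [eq_neg_iff_add_eq_zero, add_comm]; exact hsum
    rw [h2, Valuation.map_neg] at hPc0
    exact h1.ne hPc0
  · -- `1 < u h`
    rw [Finset.sum_range_succ] at hsum
    have hlead : (P.coeff P.natDegree : K) = 1 := by
      rw [hPm.coeff_natDegree]; rfl
    rw [hlead, one_mul] at hsum
    have h1 : u (∑ i ∈ Finset.range P.natDegree, (P.coeff i : K) * h ^ i) < u (h ^ P.natDegree) := by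
      refine Valuation.map_sum_lt _ ?_ fun i hi => ?_
      · rw [map_pow]
        exact pow_ne_zero _ (zero_lt_one.trans hgt).ne'
      · rw [map_mul, map_pow, map_pow]
        have hi' := Finset.mem_range.1 hi
        calc u (P.coeff i : K) * u h ^ i ≤ 1 * u h ^ i := by
              gcongr
              exact hPc i (Finset.mem_range.2 (by omega))
          _ = u h ^ i := one_mul _
          _ < u h ^ P.natDegree := pow_lt_pow_right₀ hgt hi'
    have h2 : h ^ P.natDegree = -∑ i ∈ Finset.range P.natDegree, (P.coeff i : K) * h ^ i := by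
      rw [eq_neg_iff_add_eq_zero, add_comm]; exact hsum
    rw [h2, Valuation.map_neg] at h1
    exact lt_irrefl _ h1

/-- The same with the roots of the polynomial. -/
theorem exists_bad_roots [IsAlgClosed k] (t h : K) (h0 : h ≠ 0)
    (hh : IsAlgebraic (IntermediateField.adjoin k {t}) h) :
    ∃ S : Finset k, ∀ u : Valuation K ℝ≥0, (∀ c : k, c ≠ 0 → u (algebraMap k K c) = 1) →
      u t ≤ 1 → u h ≠ 1 → ∃ τ ∈ S, u (t - algebraMap k K τ) < 1 := by
  classical
  obtain ⟨B, hB0, hB⟩ := exists_bad t h h0 hh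
  refine ⟨B.roots.toFinset, fun u hu ht huh => ?_⟩
  have h1 := hB u hu ht huh
  by_contra hcon
  push Not at hcon
  have hlc : B.leadingCoeff ≠ 0 := leadingCoeff_ne_zero.2 hB0
  have hfac : B = C B.leadingCoeff * (B.roots.map fun a => X - C a).prod :=
    (IsAlgClosed.splits B).eq_prod_roots
  rw [hfac, map_mul, aeval_C, map_mul, hu _ hlc, one_mul] at h1
  have h2 : ∀ s : Multiset k, (∀ τ ∈ s, 1 ≤ u (t - algebraMap k K τ)) →
      1 ≤ u (aeval t (s.map fun a => X - C a).prod) := by
    intro s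
    induction s using Multiset.induction_on with
    | empty => intro _; simp
    | cons a s ih =>
      intro hs
      rw [Multiset.map_cons, Multiset.prod_cons, map_mul, map_mul, map_sub, aeval_X, aeval_C]
      exact one_le_mul (hs a (Multiset.mem_cons_self a s))
        (ih fun τ hτ => hs τ (Multiset.mem_cons_of_mem hτ))
  exact absurd h1 (not_lt.2 (h2 _ fun τ hτ => hcon τ (Multiset.mem_toFinset.2 hτ)))

end bad

section composite

variable {C K : Type*} [Field C] [Field K] [Algebra C K] (nC : Valuation C ℝ≥0)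

/-- `O` is a valuation ring below the place `u`. -/
structure Below (u : Valuation K ℝ≥0) (O : ValuationSubring K) : Prop where
  triv : ∀ c : C, c ≠ 0 → u (algebraMap C K c) = 1
  le : ∀ a ∈ O, u a ≤ 1
  int : ∀ c : C, nC c ≤ 1 → algebraMap C K c ∈ O
  small : ∀ c : C, nC c < 1 → O.valuation (algebraMap C K c) < 1

variable {nC} {u : Valuation K ℝ≥0} {O : ValuationSubring K}

theorem Below.lt_one (h : Below nC u O) {a : K} (ha : u a < 1) : O.valuation a < 1 :=
  AVal_168.lt_one (w := u) (fun a ha => h.le a ha) ha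

theorem Below.zc_lt (h : Below nC u O) {t : K} {S : Finset C}
    (hS : 1 < u t ∨ ∃ τ ∈ S, u (t - algebraMap C K τ) < 1) :
    O.valuation (zc (rp (S.filter fun τ => nC τ ≤ 1)) t) < 1 := by
  classical
  have hS1 : ∀ τ ∈ S.filter fun τ => nC τ ≤ 1, nC τ ≤ 1 := fun τ hτ => (Finset.mem_filter.1 hτ).2
  have hw : ∀ c, nC c ≤ 1 → O.valuation (algebraMap C K c) ≤ 1 := fun c hc =>
    (ValuationSubring.valuation_le_one_iff _ _).2 (h.int c hc)
  by_cases ht : 1 < O.valuation t
  · exact zc_lt_of_gt (MI_rp hS1) hw ht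
  push Not at ht
  have hut : u t ≤ 1 := h.le t ((ValuationSubring.valuation_le_one_iff _ _).1 ht)
  rcases hS with hS | ⟨τ, hτ, hτ1⟩
  · exact absurd hS (not_lt.2 hut)
  have h1 := h.lt_one hτ1
  by_cases hτ2 : nC τ ≤ 1
  · exact zc_lt_of_root hS1 hw ht (Finset.mem_filter.2 ⟨hτ, hτ2⟩) h1
  · exfalso
    push Not at hτ2
    have hτ0 : τ ≠ 0 := by
      rintro rfl
      rw [map_zero] at hτ2
      exact absurd hτ2 (by simp)
    have h2 : O.valuation (algebraMap C K τ⁻¹) < 1 := h.small _ (by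
      rw [map_inv₀]; exact inv_lt_one_of_one_lt₀ hτ2)
    have h3 : O.valuation (algebraMap C K τ) ≤ 1 := by
      have : algebraMap C K τ = t - (t - algebraMap C K τ) := by ring
      rw [this]
      exact O.valuation.map_sub_le ht h1.le
    have h4 : O.valuation (algebraMap C K τ) * O.valuation (algebraMap C K τ⁻¹) = 1 := by
      rw [← map_mul, ← map_mul, mul_inv_cancel₀ hτ0, map_one, map_one]
    rw [mul_comm] at h4
    exact (mul_lt_one_of_lt_of_le h2 h3).ne h4

end composite

section stage1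

variable {C K : Type*} [Field C] [IsAlgClosed C] [Field K] [Algebra C K]

open IntermediateField in
/-- **LIFT-L over the algebraically closed field of constants**, for a unit `y` at the vertex `v`
whose values at the valuation rings below `v` are `l`-th powers (condition (V1)). -/
theorem stage1V (hfd : ∀ z : K, Transcendental C z → FiniteDimensional C⟮z⟯ K)
    (nC : Valuation C ℝ≥0) {π : C} (hπ0 : π ≠ 0) (hπ1 : nC π < 1) {v : Valuation K ℝ≥0} {t y : K}
    (hv : IsG nC v t) {l : ℕ} (hl : l ≠ 0) (hvy : v y = 1)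
    (hV1 : ∀ A : ValuationSubring K, (∀ a ∈ A, v a ≤ 1) →
      ∃ g : K, g ≠ 0 ∧ A.valuation (y * g ^ l) = 1) :
    ∃ (h0 z : K) (e : ℕ) (G : Finset K), h0 ≠ 0 ∧ Transcendental C z ∧ IsG nC v z ∧
      v (h0 - y) < 1 ∧
      (∀ w : Valuation K ℝ≥0, (∀ c, w (algebraMap C K c) = nC c) → 1 < w t → w z < 1) ∧
      (∀ g ∈ G, g ≠ 0) ∧
      (∀ O : ValuationSubring K, (∀ c, nC c ≤ 1 → algebraMap C K c ∈ O) → O.valuation z < 1 →
        O.valuation (algebraMap C K π / z ^ e) < 1 →
        ∃ g ∈ G, O.valuation (h0 * g ^ l - 1) < 1) ∧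
      (∀ (u : Valuation K ℝ≥0) (O : ValuationSubring K), Below nC u O → u h0 ≠ 1 →
        O.valuation z < 1) := by
  classical
  have hnt : ∃ c : C, nC c ≠ 0 ∧ nC c ≠ 1 := ⟨π, (Valuation.ne_zero_iff _).2 hπ0, hπ1.ne⟩
  have htt : Transcendental C t := hv.transcendental
  have hfdt := hfd t htt
  have hfin : Finite {w : Valuation K ℝ≥0 // IsG nC w t} :=
    (finite_isG (K := K) hnt t).to_subtype
  -- weak approximation
  obtain ⟨h0, hh0⟩ := weak_approx (k := C) hnt (fun w : {w : Valuation K ℝ≥0 // IsG nC w t} => w.1)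
    Subtype.val_injective (fun w c => w.2.ext c) (fun w => if w.1 = v then y else 1) 1 one_pos
  have ha : v (h0 - y) < 1 := by
    have h1 := hh0 ⟨v, hv⟩
    rwa [if_pos rfl] at h1
  have hb : ∀ w : Valuation K ℝ≥0, IsG nC w t → w ≠ v → w (h0 - 1) < 1 := by
    intro w h1 h2
    have h3 := hh0 ⟨w, h1⟩
    rwa [if_neg h2] at h3
  have h00 : h0 ≠ 0 := by
    rintro rfl
    rw [zero_sub, Valuation.map_neg, hvy] at ha
    exact lt_irrefl _ ha
  -- the coordinate
  have halgt : Algebra.IsAlgebraic C⟮t⟯ K := Algebra.IsAlgebraic.of_finite _ _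
  obtain ⟨S, hS⟩ := exists_bad_roots (k := C) t h0 h00 (halgt.isAlgebraic h0)
  set A := rp (S.filter fun τ => nC τ ≤ 1) with hAdef
  have hA : MI nC A := MI_rp fun τ hτ => (Finset.mem_filter.1 hτ).2
  set z := zc A t with hz
  have hvz : IsG nC v z := hv.zc hA
  have hzt : Transcendental C z := hvz.transcendental
  have hz0 : z ≠ 0 := by
    intro h
    rw [h] at hzt
    exact hzt isAlgebraic_zero
  have hfdz := hfd z hzt
  have halgz : Algebra.IsAlgebraic C⟮z⟯ K := Algebra.IsAlgebraic.of_finite _ _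
  have halg : ∀ a : K, IsAlgebraic C⟮z⟯ a := fun a => halgz.isAlgebraic a
  obtain ⟨e, G, hG0, hG⟩ := lift3 (algebraMap C K '' {c | nC c ≤ 1}) z (algebraMap C K π) h0 hz0 l (by
    intro O hO1 hO2 hO3
    have hO1' : ∀ c : C, nC c ≤ 1 → algebraMap C K c ∈ O := fun c hc => hO1 _ ⟨c, hc, rfl⟩
    obtain ⟨w, hw1, hw2, hw3, hw4, hw5⟩ := exists_norm_of_composite nC hπ0 hz0 hO1' hO2 hO3 halg
    have hwt : IsG nC w t := isG_of_zc hA ⟨hw1, hw3.le, hw2⟩
    by_cases hwv : w = v
    · subst hwv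
      have hOw : O ≤ w.valuationSubring := fun a ha => hw4 a ha
      obtain ⟨g, hg0, hg'⟩ := hV1 O hw4
      have hg : O.valuation (h0 * g ^ l) = 1 := by
        rw [map_mul, AVal_168.val_eq hOw hvy ha, ← map_mul, hg']
      obtain ⟨c, hc0, -, hc⟩ := exists_pow_of_unit nC hπ0 hz0 hO1' hO2 hO3 halg l hl _ hg
      refine ⟨g * algebraMap C K c, mul_ne_zero hg0 ((_root_.map_ne_zero _).2 hc0), ?_⟩
      rw [mul_pow, ← mul_assoc]
      exact hc
    · refine ⟨1, one_ne_zero, ?_⟩
      rw [one_pow, mul_one]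
      exact hw5 _ (hb w hwt hwv))
  refine ⟨h0, z, e, G, h00, hzt, hvz, ha, fun w hw hwt => zc_val_lt hA hw hwt, hG0, ?_, ?_⟩
  · intro O hO1 hO2 hO3
    exact hG O (by rintro _ ⟨c, hc, rfl⟩; exact hO1 c hc) hO2 hO3
  · intro u O hO hu
    refine hO.zc_lt (S := S) ?_
    by_cases hut : 1 < u t
    · exact Or.inl hut
    · exact Or.inr (hS u hO.triv (not_lt.1 hut) hu)

/-- (V1) for an Artin-Schreier function -/
theorem V1_of_as {v : Valuation K ℝ≥0} {t y : K} (hvt : v t = 1) {p m l : ℕ} (hp : 1 < p)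
    (hpm : p.Coprime m) (hlm : l ∣ m) (hy : v (y ^ p - y - t ^ m) < 1)
    (A : ValuationSubring K) (hA : ∀ a ∈ A, v a ≤ 1) :
    ∃ g : K, g ≠ 0 ∧ A.valuation (y * g ^ l) = 1 :=
  AVal_168.exists_unit_mul_pow hp hpm hlm (w := v) (fun a ha => hA a ha) (a := 1)
    (map_one _) (map_one _) hvt (y := y) (by rw [one_mul]; exact hy)
    (by rw [sub_self, map_zero]; exact zero_lt_one)

end stage1

end Crest.Agent.R013.LiftB_168
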