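import Crest.Agent.R013.RZ4_365
import Crest.Agent.R013.LemT3_874
import Crest.Agent.R013.Unr9_957
import Crest.Agent.R013.LiftB_168

/-!
# R013 / LiftF (helper168): LIFT-L at a finite level

`stage2`: from the data of `LiftB_168.stage1` (an element `h0`, a coordinate `z`, `e`, `G`), all lying
in a finite level `K'` over the complete field `L`, the patched element `h : K'`, and its behaviour at
all norms and all places of `K'`.
-/

set_option autoImplicit false
set_option linter.style.haveILetI false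

namespace Crest.Agent.R013.LiftF_168

open Polynomial
open scoped NNReal
open Crest.Agent.R013.LiftA_168 Crest.Agent.R013.RZ_365 Crest.Agent.R013.LiftB_168

section below

variable {C K : Type*} [Field C] [Field K] [Algebra C K] (nC : Valuation C ℝ≥0)
  (W : Valuation K ℝ≥0)

theorem const_le (hW : ∀ c : C, c ≠ 0 → W (algebraMap C K c) = 1) (c : C) :
    W (algebraMap C K c) ≤ 1 := by
  by_cases h : c = 0
  · rw [h, map_zero, map_zero]; exact zero_le
  · rw [hW c h]

/-- the constants of norm `≤ 1` plus the maximal ideal of the place -/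
def RR (hW : ∀ c : C, c ≠ 0 → W (algebraMap C K c) = 1) : Subring K where
  carrier := {a | ∃ c : C, nC c ≤ 1 ∧ W (a - algebraMap C K c) < 1}
  mul_mem' := by
    rintro a b ⟨c, hc, hac⟩ ⟨d, hd, hbd⟩
    refine ⟨c * d, by rw [map_mul]; exact mul_le_one' hc hd, ?_⟩
    have hb : W b ≤ 1 := by
      have : b = (b - algebraMap C K d) + algebraMap C K d := by ring
      rw [this]
      exact W.map_add_le hbd.le (const_le W hW d)
    have : a * b - algebraMap C K (c * d) =
        (a - algebraMap C K c) * b + (b - algebraMap C K d) * algebraMap C K c := by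
      rw [map_mul]; ring
    rw [this]
    refine Valuation.map_add_lt _ ?_ ?_
    · rw [map_mul]; exact mul_lt_one_of_lt_of_le hac hb
    · rw [map_mul]; exact mul_lt_one_of_lt_of_le hbd (const_le W hW c)
  one_mem' := ⟨1, by rw [map_one], by rw [map_one, sub_self, map_zero]; exact zero_lt_one⟩
  add_mem' := by
    rintro a b ⟨c, hc, hac⟩ ⟨d, hd, hbd⟩
    refine ⟨c + d, nC.map_add_le hc hd, ?_⟩
    have : a + b - algebraMap C K (c + d) =
        (a - algebraMap C K c) + (b - algebraMap C K d) := by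
      rw [map_add]; ring
    rw [this]
    exact Valuation.map_add_lt _ hac hbd
  zero_mem' := ⟨0, by rw [map_zero]; exact zero_le, by
    rw [map_zero, sub_self, map_zero]; exact zero_lt_one⟩
  neg_mem' := by
    rintro a ⟨c, hc, hac⟩
    refine ⟨-c, by rwa [Valuation.map_neg], ?_⟩
    have : -a - algebraMap C K (-c) = -(a - algebraMap C K c) := by
      rw [map_neg]; ring
    rw [this, Valuation.map_neg]
    exact hac

/-- the ideal of `RR` -/
def II (hW : ∀ c : C, c ≠ 0 → W (algebraMap C K c) = 1) : Ideal (RR nC W hW) where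
  carrier := {a | ∃ c : C, nC c < 1 ∧ W ((a : K) - algebraMap C K c) < 1}
  add_mem' := by
    rintro a b ⟨c, hc, hac⟩ ⟨d, hd, hbd⟩
    refine ⟨c + d, Valuation.map_add_lt _ hc hd, ?_⟩
    have : ((a + b : RR nC W hW) : K) - algebraMap C K (c + d) =
        ((a : K) - algebraMap C K c) + ((b : K) - algebraMap C K d) := by
      rw [map_add]
      push_cast
      ring
    rw [this]
    exact Valuation.map_add_lt _ hac hbd
  zero_mem' := ⟨0, by rw [map_zero]; exact zero_lt_one, by
    rw [map_zero]
    simp⟩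
  smul_mem' := by
    rintro ⟨a, c, hc, hac⟩ ⟨b, hb'⟩ ⟨d, hd, hbd⟩
    refine ⟨c * d, by rw [map_mul, mul_comm]; exact mul_lt_one_of_lt_of_le hd hc, ?_⟩
    have hb : W b ≤ 1 := by
      have : b = (b - algebraMap C K d) + algebraMap C K d := by ring
      rw [this]
      exact W.map_add_le hbd.le (const_le W hW d)
    have : a * b - algebraMap C K (c * d) =
        (a - algebraMap C K c) * b + (b - algebraMap C K d) * algebraMap C K c := by
      rw [map_mul]; ring
    change W (a * b - algebraMap C K (c * d)) < 1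
    rw [this]
    refine Valuation.map_add_lt _ ?_ ?_
    · rw [map_mul]; exact mul_lt_one_of_lt_of_le hac hb
    · rw [map_mul]; exact mul_lt_one_of_lt_of_le hbd (const_le W hW c)

/-- **Existence of the composite valuation ring.** -/
theorem exists_below (hW : ∀ c : C, c ≠ 0 → W (algebraMap C K c) = 1) :
    ∃ O : ValuationSubring K, Below nC W O := by
  have hI : II nC W hW ≠ ⊤ := by
    rw [Ideal.ne_top_iff_one]
    rintro ⟨c, hc, hc1⟩
    have h1 : (((1 : RR nC W hW) : RR nC W hW) : K) - algebraMap C K c = algebraMap C K (1 - c) := by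
      rw [map_sub, map_one]; rfl
    rw [h1] at hc1
    have h2 : (1 : C) - c ≠ 0 := by
      intro h
      rw [← sub_eq_zero.1 h, map_one] at hc
      exact lt_irrefl _ hc
    rw [hW _ h2] at hc1
    exact lt_irrefl _ hc1
  obtain ⟨O, hO1, hO2⟩ := Ideal.image_subset_nonunits_valuationSubring (II nC W hW) hI
  have hsm : ∀ a : K, (∃ c : C, nC c < 1 ∧ W (a - algebraMap C K c) < 1) → O.valuation a < 1 := by
    rintro a ⟨c, hc, hac⟩
    exact hO2 ⟨⟨a, c, hc.le, hac⟩, ⟨c, hc, hac⟩, rfl⟩
  refine ⟨O, hW, fun a ha => ?_, fun c hc => ?_, fun c hc => ?_⟩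
  · by_contra hcon
    push Not at hcon
    have ha0 : a ≠ 0 := by
      rintro rfl
      rw [map_zero] at hcon
      exact absurd hcon (by simp)
    have h1 : O.valuation a⁻¹ < 1 := hsm _ ⟨0, by rw [map_zero]; exact zero_lt_one, by
      rw [map_zero, sub_zero, map_inv₀]; exact inv_lt_one_of_one_lt₀ hcon⟩
    have h2 := (ValuationSubring.valuation_le_one_iff O a).2 ha
    have h3 : O.valuation a⁻¹ * O.valuation a = 1 := by
      rw [← map_mul, inv_mul_cancel₀ ha0, map_one]
    exact (mul_lt_one_of_lt_of_le h1 h2).ne h3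
  · exact hO1 ⟨c, hc, by rw [sub_self, map_zero]; exact zero_lt_one⟩
  · exact hsm _ ⟨c, hc, by rw [sub_self, map_zero]; exact zero_lt_one⟩

end below

section units

variable {K Γ : Type*} [Field K] [LinearOrderedCommGroupWithZero Γ] (w : Valuation K Γ)

theorem val_of_sub_lt {a : K} (h : w (a - 1) < 1) : w a = 1 := by
  have : a = 1 + (a - 1) := by ring
  rw [this, Valuation.map_add_eq_of_lt_left _ (by rw [map_one]; exact h), map_one]

theorem mul_unit {a b : K} (ha : w (a - 1) < 1) (hb : w (b - 1) < 1) : w (a * b - 1) < 1 := by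
  have : a * b - 1 = (a - 1) * b + (b - 1) := by ring
  rw [this]
  refine Valuation.map_add_lt _ ?_ hb
  rw [map_mul, val_of_sub_lt w hb, mul_one]
  exact ha

end units

section fd

variable {L K : Type*} [Field L] [Field K] [Algebra L K]

open IntermediateField in
/-- finite over `L(y)` gives finite over `L(X)`, `X ↦ y` -/
theorem finite_ratAlg (y : K) (hy : Transcendental L y) [hfd : FiniteDimensional L⟮y⟯ K] :
    letI := RR20_948.ratAlg y hy; FiniteDimensional (RatFunc L) K := by
  letI := RR20_948.ratAlg y hy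
  have hmem : ∀ x : RatFunc L, (RR20_948.ratHom y hy).toRingHom x ∈ L⟮y⟯ := by
    intro x
    rw [IntermediateField.mem_adjoin_simple_iff]
    exact ⟨x.num, x.denom, RatFunc.liftAlgHom_apply _ _ x⟩
  let φ : RatFunc L →+* L⟮y⟯ := (RR20_948.ratHom y hy).toRingHom.codRestrict _ hmem
  have hsurj : Function.Surjective φ := by
    rintro ⟨x, hx⟩
    obtain ⟨r, s, hrs⟩ := (IntermediateField.mem_adjoin_simple_iff L x).1 hx
    refine ⟨algebraMap L[X] (RatFunc L) r / algebraMap L[X] (RatFunc L) s, Subtype.ext ?_⟩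
    change RR20_948.ratHom y hy _ = x
    rw [hrs]
    have h1 : ∀ f : L[X], RR20_948.ratHom y hy (algebraMap L[X] (RatFunc L) f) = aeval y f := by
      intro f
      have h2 := RatFunc.liftAlgHom_apply_div (Polynomial.aeval y)
        (nonZeroDivisors_le_comap_nonZeroDivisors_of_injective _ (transcendental_iff_injective.mp hy))
        (f : L[X]) 1
      simp only [map_one, div_one] at h2
      exact h2
    rw [map_div₀, h1, h1]
  letI : Algebra (RatFunc L) L⟮y⟯ := φ.toAlgebra
  have : IsScalarTower (RatFunc L) L⟮y⟯ K := IsScalarTower.of_algebraMap_eq fun x => rfl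
  have : Module.Finite (RatFunc L) L⟮y⟯ :=
    Module.Finite.of_surjective (Algebra.linearMap (RatFunc L) L⟮y⟯) hsurj
  exact Module.Finite.trans L⟮y⟯ K

end fd

section stage2

universe u

open IntermediateField in
/-- **LIFT-L at the finite level.** -/
theorem stage2 {L : Type u} [NontriviallyNormedField L] [IsUltrametricDist L] [CompleteSpace L]
    [CharZero L] {ϖ : L} (hϖ : Gl946.IsUnif ϖ) {K' : Type u} [Field K'] [Algebra L K']
    {C Kc : Type*} [Field C] [Algebra L C] [Algebra.IsAlgebraic L C] [Field Kc] [Algebra L Kc]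
    [Algebra C Kc] [IsScalarTower L C Kc] [Algebra K' Kc] [IsScalarTower L K' Kc]
    [Algebra.IsAlgebraic K' Kc]
    (hfd : ∀ z : K', Transcendental L z → FiniteDimensional L⟮z⟯ K')
    (nC : Valuation C ℝ≥0) (hnC : ∀ c : L, nC (algebraMap L C c) = ‖c‖₊)
    {N : ℕ} (hN : ‖(N : L)‖ = 1) {h0 z : K'} (h00 : h0 ≠ 0) (hz : Transcendental L z)
    {w0 : L} (hw0 : w0 ≠ 0) (hw1 : ‖w0‖ < 1) {e : ℕ} {π : C} (hπ : nC π < ‖w0‖₊ ^ e)
    (G : Finset K') (hG0 : ∀ g ∈ G, g ≠ 0)
    (hG : ∀ O : ValuationSubring Kc, (∀ c, nC c ≤ 1 → algebraMap C Kc c ∈ O) →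
      O.valuation (algebraMap K' Kc z) < 1 →
      O.valuation (algebraMap C Kc π / algebraMap K' Kc z ^ e) < 1 →
      ∃ g ∈ G, O.valuation (algebraMap K' Kc h0 * algebraMap K' Kc g ^ N - 1) < 1)
    (hB : ∀ (u : Valuation Kc ℝ≥0) (O : ValuationSubring Kc), Below nC u O →
      u (algebraMap K' Kc h0) ≠ 1 → O.valuation (algebraMap K' Kc z) < 1) :
    ∃ h : K', h ≠ 0 ∧
      (∀ w : Valuation K' ℝ≥0, (∀ c : L, w (algebraMap L K' c) = ‖c‖₊) →
        (w z < 1 → ∃ g : K', g ≠ 0 ∧ w (h / g ^ N - 1) < 1) ∧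
        (1 ≤ w z → ∃ g : K', g ≠ 0 ∧ w (h / (h0 * g ^ N) - 1) < 1)) ∧
      (∀ u : Valuation K' ℝ≥0, (∀ c : L, c ≠ 0 → u (algebraMap L K' c) = 1) →
        ∃ a : K', u h = u a ^ N) := by
  classical
  have hw0K : algebraMap L K' w0 ≠ 0 := (_root_.map_ne_zero _).2 hw0
  have hnw0 : 0 < ‖w0‖₊ := by rwa [nnnorm_pos]
  have hw1' : ‖w0‖₊ < 1 := by exact_mod_cast hw1
  have hnt : ∃ a : L, a ≠ 0 ∧ ‖a‖ < 1 := ⟨w0, hw0, hw1⟩
  have hz0 : z ≠ 0 := by
    rintro rfl
    exact hz isAlgebraic_zero
  obtain ⟨y, hy⟩ : ∃ y : K', y = z / algebraMap L K' w0 := ⟨_, rfl⟩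
  have hyz : z = algebraMap L K' w0 * y := by rw [hy, mul_div_cancel₀ _ hw0K]
  have hy0 : y ≠ 0 := by rw [hy]; exact div_ne_zero hz0 hw0K
  have hyt : Transcendental L y := by
    intro h
    apply hz
    rw [hyz]
    exact (isAlgebraic_algebraMap w0).mul h
  have hfdy := hfd y hyt
  letI i1 : Algebra (RatFunc L) K' := RR20_948.ratAlg y hyt
  have i2 : IsScalarTower L (RatFunc L) K' := RR20_948.ratAlg_tower y hyt
  have i3 : FiniteDimensional (RatFunc L) K' := finite_ratAlg y hyt
  have hyX : algebraMap (RatFunc L) K' RatFunc.X = y := RR20_948.ratHom_X y hyt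
  have i4 : CharZero (RatFunc L) := charZero_of_injective_algebraMap
    (algebraMap L (RatFunc L)).injective
  have i5 : Algebra.IsAlgebraic (RatFunc L) K' := Algebra.IsAlgebraic.of_finite _ _
  -- transfer of `hG`
  have hGim : ∀ w : Valuation Kc ℝ≥0, (∀ c : C, w (algebraMap C Kc c) = nC c) →
      w (algebraMap K' Kc z) < 1 → w (algebraMap C Kc π) < w (algebraMap K' Kc z) ^ e →
      ∃ g ∈ G.image (algebraMap K' Kc), w (algebraMap K' Kc h0 * g ^ N - 1) < 1 := by
    intro w hw hwz hwπ
    have hwz0 : w (algebraMap K' Kc z) ≠ 0 := (Valuation.ne_zero_iff _).2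
      ((_root_.map_ne_zero _).2 hz0)
    obtain ⟨g, hg, hg1⟩ := hG w.valuationSubring
      (fun c hc => (Valuation.mem_valuationSubring_iff _ _).2 (by rw [hw]; exact hc))
      ((valuationSubring_lt_one_iff w _).2 hwz)
      ((valuationSubring_lt_one_iff w _).2 (by
        rw [map_div₀, map_pow, div_lt_one₀ (pos_iff_ne_zero.2 (pow_ne_zero _ hwz0))]
        exact hwπ))
    exact ⟨_, Finset.mem_image_of_mem _ hg, (valuationSubring_lt_one_iff w _).1 hg1⟩
  have hGim0 : ∀ g ∈ G.image (algebraMap K' Kc), g ≠ 0 := by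
    intro g hg
    obtain ⟨g', hg', rfl⟩ := Finset.mem_image.1 hg
    exact (_root_.map_ne_zero _).2 (hG0 g' hg')
  obtain ⟨h, hh0, hh⟩ := patch_level hϖ hyX N hN h0 1 h00 one_ne_zero (by
    intro v hv hvy hvG
    have hvy1 : v y = 1 := by
      refine le_antisymm hvy ?_
      have := hvG X 1
      rwa [coeff_X_one, nnnorm_one, aeval_X] at this
    have hvz : v z = ‖w0‖₊ := by rw [hyz, map_mul, hv, hvy1, mul_one]
    obtain ⟨w, hw, hw'⟩ := hf_of_G hnt nC hnC hGim0 hGim (z' := z) (h0' := h0) rfl rfl (by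
      intro g hg
      obtain ⟨g', -, rfl⟩ := Finset.mem_image.1 hg
      exact ⟨g', rfl⟩) v hv (by rw [hvz]; exact hw1') (by rw [hvz]; exact hπ)
    refine ⟨w, hw, ?_⟩
    rw [div_one]; exact hw')
  refine ⟨h, hh0, ?_, ?_⟩
  · -- norms
    intro w hw
    obtain ⟨c1, c2, -, -⟩ := hh w
    have hwy : w z = ‖w0‖₊ * w y := by rw [hyz, map_mul, hw]
    refine ⟨fun hwz => ?_, fun hwz => ?_⟩
    · rcases lt_or_ge (w y) 1 with h1 | h1
      · obtain ⟨g, hg0, hg⟩ := c2 (fun c => (hw c).le) h1
        refine ⟨g, hg0, ?_⟩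
        rwa [one_mul] at hg
      · obtain ⟨g, hg0, hg⟩ := c1 (fun c => (hw c).le) h1
        obtain ⟨W, hW, hWC⟩ := exists_ext_val_C (Kc := Kc) hnt nC hnC w hw
        obtain ⟨g1', hg1', hg1⟩ := hGim W hWC (by rw [hW]; exact hwz) (by
          rw [hWC, hW]
          refine hπ.trans_le (pow_le_pow_left₀ zero_le ?_ e)
          rw [hwy]
          exact le_mul_of_one_le_right zero_le h1)
        obtain ⟨g1, hg1G, rfl⟩ := Finset.mem_image.1 hg1'
        have hg10 := hG0 g1 hg1G
        rw [← map_pow, ← map_mul, ← map_one (algebraMap K' Kc), ← map_sub, hW] at hg1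
        refine ⟨g / g1, div_ne_zero hg0 hg10, ?_⟩
        have h3 : h / (g / g1) ^ N = h / (h0 * g ^ N) * (h0 * g1 ^ N) := by
          have hgN : g ^ N ≠ 0 := pow_ne_zero _ hg0
          have hg1N : g1 ^ N ≠ 0 := pow_ne_zero _ hg10
          rw [div_pow]
          field_simp
        rw [h3]
        exact mul_unit w hg hg1
    · refine c1 (fun c => (hw c).le) ?_
      by_contra hcon
      push Not at hcon
      rw [hwy] at hwz
      exact absurd hwz (not_le.2 (mul_lt_one_of_lt_of_le hw1' hcon.le))
  · -- places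
    intro u hu
    by_cases hnt' : ∃ a : K', u a ≠ 0 ∧ u a ≠ 1
    swap
    · push Not at hnt'
      refine ⟨1, ?_⟩
      rw [map_one, one_pow]
      exact hnt' h ((Valuation.ne_zero_iff _).2 hh0)
    have hle1 : ∀ c : L, u (algebraMap L K' c) ≤ 1 := const_le u hu
    have hP : u y ≤ 1 → ∃ P : L[X], P ≠ 0 ∧ u (aeval y P) < 1 := by
      intro hy1
      by_contra hcon
      push Not at hcon
      have hP1 : ∀ P : L[X], P ≠ 0 → u (aeval y P) = 1 := by
        intro P hP
        refine le_antisymm ?_ (hcon P hP)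
        rw [aeval_eq_sum_range]
        refine Valuation.map_sum_le _ fun i _ => ?_
        rw [Algebra.smul_def, map_mul, map_pow]
        exact mul_le_one' (hle1 _) (pow_le_one' hy1 i)
      have halg : Algebra.IsAlgebraic L⟮y⟯ K' := Algebra.IsAlgebraic.of_finite _ _
      have htr : ∀ x : L⟮y⟯, x ≠ 0 → u (algebraMap L⟮y⟯ K' x) = 1 := by
        intro x hx
        obtain ⟨r, s, hrs⟩ := (IntermediateField.mem_adjoin_simple_iff L (x : K')).1 x.2
        have hx0 : (x : K') ≠ 0 := fun h => hx (Subtype.ext h)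
        have hr : r ≠ 0 := by
          rintro rfl
          rw [map_zero, zero_div] at hrs
          exact hx0 hrs
        have hs : s ≠ 0 := by
          rintro rfl
          rw [map_zero, div_zero] at hrs
          exact hx0 hrs
        change u (x : K') = 1
        rw [hrs, map_div₀, hP1 r hr, hP1 s hs, div_one]
      obtain ⟨a, ha0, ha1⟩ := hnt'
      exact ha1 (Unr9_957.trivial_of_trivial u htr a ((Valuation.ne_zero_iff _).1 ha0))
    obtain ⟨-, -, c3, c4⟩ := hh u
    rcases LemT_874.place_dich u hu hy0 hP with ⟨hy1, Q, hQ, hQ1, hQu⟩ | ⟨hy1, Q, hQ, hQ1, hQu⟩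
    · obtain ⟨g, hg0, hg⟩ := c3 hle1 hy1 ⟨Q, hQ, hQ1, hQu⟩
      have hgN : g ^ N ≠ 0 := pow_ne_zero _ hg0
      have h1 := val_of_sub_lt u hg
      rw [map_div₀, map_mul, map_pow] at h1
      have h2 : u h = u h0 * u g ^ N := by
        rw [div_eq_one_iff_eq] at h1
        · exact h1
        · exact mul_ne_zero ((Valuation.ne_zero_iff _).2 h00)
            (pow_ne_zero _ ((Valuation.ne_zero_iff _).2 hg0))
      -- the value of `h0`
      suffices hs : ∃ b : K', u h0 = u b ^ N by
        obtain ⟨b, hb⟩ := hs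
        refine ⟨b * g, ?_⟩
        rw [h2, hb, map_mul, mul_pow]
      obtain ⟨W, hW⟩ := exists_ext_val (K := Kc) u
      have hWC : ∀ c : C, c ≠ 0 → W (algebraMap C Kc c) = 1 := by
        intro c hc
        have := Unr9_957.trivial_of_trivial (F := L) (W.comap (algebraMap C Kc)) (fun x hx => by
          rw [Valuation.comap_apply, ← IsScalarTower.algebraMap_apply L C Kc,
            IsScalarTower.algebraMap_apply L K' Kc, hW, hu x hx]) c hc
        rwa [Valuation.comap_apply] at this
      obtain ⟨O, hO⟩ := exists_below nC W hWC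
      by_cases hWh : W (algebraMap K' Kc h0) = 1
      · refine ⟨1, ?_⟩
        rw [map_one, one_pow, ← hW]; exact hWh
      have hOz := hB W O hO hWh
      -- `1/y` is integral
      have hyc : algebraMap K' Kc y ≠ 0 := (_root_.map_ne_zero _).2 hy0
      have hOw : ∀ c : L, ‖c‖ ≤ 1 → O.valuation (algebraMap K' Kc (algebraMap L K' c)) ≤ 1 := by
        intro c hc
        rw [ValuationSubring.valuation_le_one_iff, ← IsScalarTower.algebraMap_apply L K' Kc,
          IsScalarTower.algebraMap_apply L C Kc]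
        exact hO.int _ (by rw [hnC]; exact_mod_cast hc)
      have hOy : O.valuation (algebraMap K' Kc y⁻¹) ≤ 1 := by
        by_contra hcon
        push Not at hcon
        have h3 : O.valuation (algebraMap K' Kc (aeval y⁻¹ Q)) < 1 := by
          refine hO.lt_one ?_
          rw [hW]; exact hQu
        have h4 : O.valuation (algebraMap K' Kc (aeval y⁻¹ Q)) =
            O.valuation (algebraMap K' Kc y⁻¹) ^ Q.natDegree := by
          rw [aeval_eq_sum_range, Finset.sum_range_succ, hQ.coeff_natDegree, one_smul, map_add,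
            map_sum]
          have h5 : O.valuation (∑ i ∈ Finset.range Q.natDegree,
              algebraMap K' Kc (Q.coeff i • y⁻¹ ^ i)) <
              O.valuation (algebraMap K' Kc (y⁻¹ ^ Q.natDegree)) := by
            refine Valuation.map_sum_lt _ ?_ fun i hi => ?_
            · rw [map_pow, map_pow]
              exact pow_ne_zero _ (zero_lt_one.trans hcon).ne'
            · rw [Algebra.smul_def, map_mul, map_mul, map_pow, map_pow, map_pow, map_pow]
              calc O.valuation (algebraMap K' Kc (algebraMap L K' (Q.coeff i))) *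
                    O.valuation (algebraMap K' Kc y⁻¹) ^ i
                  ≤ 1 * O.valuation (algebraMap K' Kc y⁻¹) ^ i :=
                    mul_le_mul_left (hOw _ (hQ1 i)) _
                _ = O.valuation (algebraMap K' Kc y⁻¹) ^ i := one_mul _
                _ < O.valuation (algebraMap K' Kc y⁻¹) ^ Q.natDegree :=
                  pow_lt_pow_right₀ hcon (Finset.mem_range.1 hi)
          rw [Valuation.map_add_eq_of_lt_right _ h5, map_pow, map_pow]
        rw [h4] at h3
        exact absurd h3 (not_lt.2 (one_le_pow₀ hcon.le))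
      have hOπ : O.valuation (algebraMap C Kc π / algebraMap K' Kc z ^ e) < 1 := by
        have h3 : algebraMap C Kc π / algebraMap K' Kc z ^ e =
            algebraMap C Kc (π / algebraMap L C w0 ^ e) * algebraMap K' Kc y⁻¹ ^ e := by
          have h5 : algebraMap L Kc w0 ≠ 0 := (_root_.map_ne_zero _).2 hw0
          rw [hyz, map_mul, mul_pow, map_div₀, map_pow, map_inv₀,
            ← IsScalarTower.algebraMap_apply L C Kc, ← IsScalarTower.algebraMap_apply L K' Kc,
            inv_pow]
          field_simp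
        rw [h3, map_mul, map_pow]
        refine mul_lt_one_of_lt_of_le (hO.small _ ?_) (pow_le_one' hOy e)
        rw [map_div₀, map_pow, hnC, div_lt_one₀ (pow_pos hnw0 e)]
        exact hπ
      obtain ⟨g1, hg1G, hg1⟩ := hG O hO.int hOz hOπ
      have hx1 := val_of_sub_lt _ hg1
      set x : Kc := algebraMap K' Kc h0 * algebraMap K' Kc g1 ^ N with hx
      have hx0 : x ≠ 0 := by
        intro h
        rw [h, map_zero] at hx1
        exact zero_ne_one hx1
      have hWx : W x = 1 := by
        have h3 := hO.le x ((ValuationSubring.valuation_le_one_iff _ _).1 hx1.le)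
        have h4 := hO.le x⁻¹ ((ValuationSubring.valuation_le_one_iff _ _).1 (by
          rw [map_inv₀, hx1, inv_one]))
        rw [map_inv₀] at h4
        exact le_antisymm h3 ((inv_le_one₀ (pos_iff_ne_zero.2 ((Valuation.ne_zero_iff _).2 hx0))).1 h4)
      rw [hx, ← map_pow, ← map_mul, hW, map_mul, map_pow] at hWx
      refine ⟨g1⁻¹, ?_⟩
      rw [map_inv₀, inv_pow]
      exact eq_inv_of_mul_eq_one_left hWx
    · obtain ⟨g, hg0, hg⟩ := c4 hle1 hy1 ⟨Q, hQ, hQ1, hQu⟩
      have h1 := val_of_sub_lt u hg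
      rw [one_mul, map_div₀, map_pow] at h1
      refine ⟨g, ?_⟩
      rw [div_eq_one_iff_eq] at h1
      · exact h1
      · exact pow_ne_zero _ ((Valuation.ne_zero_iff _).2 hg0)

end stage2

end Crest.Agent.R013.LiftF_168
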