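import Mathlib
import Crest.Agent.R013.Hens2_899

/-!
# R013 / ResP (helper168): residue degrees in Galois extensions of `p`-power degree

`M/L` finite Galois of `p`-power degree, `w` a valuation of `M` with residue characteristic `p`:
the residue field extension has `p`-power degree.
-/

set_option autoImplicit false

namespace Crest.Agent.R013.ResP_168

open IsLocalRing Polynomial Module
open scoped Pointwise

section basic

variable {M : Type*} [Field M] {Γ : Type*} [LinearOrderedCommGroupWithZero Γ] (w : Valuation M Γ)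

/-- the residue field of a valuation -/
abbrev RF : Type _ := ResidueField w.valuationSubring

/-- residue of an element (junk value `0` if not integral) -/
noncomputable def rs (x : M) : RF w :=
  open Classical in if h : w x ≤ 1 then residue w.valuationSubring ⟨x, h⟩ else 0

variable {w}

theorem rs_of_le {x : M} (h : w x ≤ 1) : rs w x = residue w.valuationSubring ⟨x, h⟩ := by
  rw [rs, dif_pos h]

theorem residue_eq_zero_iff' (x : w.valuationSubring) :
    residue w.valuationSubring x = 0 ↔ w (x : M) < 1 := by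
  rw [residue_eq_zero_iff, IsLocalRing.mem_maximalIdeal, mem_nonunits_iff]
  constructor
  · intro h
    refine lt_of_le_of_ne x.2 fun h1 => h ?_
    have hx0 : (x : M) ≠ 0 := by
      intro h0
      rw [h0, map_zero] at h1
      exact zero_ne_one h1
    have hinv : w (x : M)⁻¹ ≤ 1 := by rw [map_inv₀, h1, inv_one]
    exact IsUnit.of_mul_eq_one (⟨(x : M)⁻¹, hinv⟩ : w.valuationSubring)
      (Subtype.ext (mul_inv_cancel₀ hx0))
  · intro h h1
    obtain ⟨y, hy⟩ := h1.exists_right_inv
    have h2 : (x : M) * (y : M) = 1 := congrArg Subtype.val hy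
    have h3 : w (x : M) * w (y : M) = 1 := by rw [← map_mul, h2, map_one]
    have h4 : w (x : M) * w (y : M) < 1 := mul_lt_one_of_lt_of_le h y.2
    exact h4.ne h3

theorem rs_eq_zero_iff {x : M} (h : w x ≤ 1) : rs w x = 0 ↔ w x < 1 := by
  rw [rs_of_le h, residue_eq_zero_iff']

theorem rs_sub {x y : M} (hx : w x ≤ 1) (hy : w y ≤ 1) : rs w (x - y) = rs w x - rs w y := by
  rw [rs_of_le hx, rs_of_le hy, rs_of_le (w.map_sub_le hx hy), ← map_sub]
  rfl

theorem rs_add {x y : M} (hx : w x ≤ 1) (hy : w y ≤ 1) : rs w (x + y) = rs w x + rs w y := by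
  rw [rs_of_le hx, rs_of_le hy, rs_of_le (w.map_add_le hx hy), ← map_add]
  rfl

theorem rs_mul {x y : M} (hx : w x ≤ 1) (hy : w y ≤ 1) : rs w (x * y) = rs w x * rs w y := by
  have hxy : w (x * y) ≤ 1 := by
    rw [map_mul]; exact mul_le_one' hx hy
  rw [rs_of_le hx, rs_of_le hy, rs_of_le hxy, ← map_mul]
  rfl

theorem rs_one : rs w (1 : M) = 1 := by
  have h : w (1 : M) ≤ 1 := by rw [map_one]
  rw [rs_of_le h]
  exact map_one _

theorem rs_pow {x : M} (hx : w x ≤ 1) (n : ℕ) : rs w (x ^ n) = rs w x ^ n := by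
  induction n with
  | zero => rw [pow_zero, pow_zero, rs_one]
  | succ n ih =>
    rw [pow_succ, pow_succ, rs_mul _ hx, ih]
    rw [map_pow]; exact pow_le_one' hx n

theorem rs_eq_iff {x y : M} (hx : w x ≤ 1) (hy : w y ≤ 1) : rs w x = rs w y ↔ w (x - y) < 1 := by
  rw [← sub_eq_zero, ← rs_sub hx hy, rs_eq_zero_iff (w.map_sub_le hx hy)]

theorem rs_prod {ι : Type*} (s : Finset ι) (f : ι → M) (hf : ∀ i ∈ s, w (f i) ≤ 1) :
    rs w (∏ i ∈ s, f i) = ∏ i ∈ s, rs w (f i) := by
  classical
  induction s using Finset.induction_on with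
  | empty => rw [Finset.prod_empty, Finset.prod_empty, rs_one]
  | insert a s ha ih =>
    rw [Finset.prod_insert ha, Finset.prod_insert ha, rs_mul (hf a (Finset.mem_insert_self a s)),
      ih fun i hi => hf i (Finset.mem_insert_of_mem hi)]
    rw [map_prod]
    exact Finset.prod_le_one' fun i hi => hf i (Finset.mem_insert_of_mem hi)

theorem rs_sum {ι : Type*} (s : Finset ι) (f : ι → M) (hf : ∀ i ∈ s, w (f i) ≤ 1) :
    rs w (∑ i ∈ s, f i) = ∑ i ∈ s, rs w (f i) := by
  classical
  induction s using Finset.induction_on with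
  | empty =>
    rw [Finset.sum_empty, Finset.sum_empty, rs_eq_zero_iff (by rw [map_zero]; exact zero_le_one),
      map_zero]
    exact zero_lt_one
  | insert a s ha ih =>
    rw [Finset.sum_insert ha, Finset.sum_insert ha, rs_add (hf a (Finset.mem_insert_self a s)),
      ih fun i hi => hf i (Finset.mem_insert_of_mem hi)]
    exact Valuation.map_sum_le _ fun i hi => hf i (Finset.mem_insert_of_mem hi)

theorem exists_rs (c : RF w) : ∃ x : M, w x ≤ 1 ∧ rs w x = c := by
  obtain ⟨x, rfl⟩ := residue_surjective c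
  exact ⟨x, x.2, rs_of_le x.2⟩

end basic

section fin

variable {L M : Type*} [Field L] [Field M] [Algebra L M]
  {Γ : Type*} [LinearOrderedCommGroupWithZero Γ] {w : Valuation M Γ}
  {κ : Type*} [Field κ] [Algebra κ (RF w)]

/-- the residue field of `L` is `κ` -/
structure IsRes (L : Type*) {M : Type*} [Field L] [Field M] [Algebra L M]
    {Γ : Type*} [LinearOrderedCommGroupWithZero Γ] (w : Valuation M Γ)
    (κ : Type*) [Field κ] [Algebra κ (RF w)] : Prop where
  mem : ∀ a : L, w (algebraMap L M a) ≤ 1 → rs w (algebraMap L M a) ∈ (algebraMap κ (RF w)).range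
  lift : ∀ c : κ, ∃ a : L, w (algebraMap L M a) ≤ 1 ∧ rs w (algebraMap L M a) = algebraMap κ (RF w) c

/-- the residue degree is at most the degree -/
theorem finite_residue [FiniteDimensional L M] (h : IsRes L w κ) : FiniteDimensional κ (RF w) := by
  classical
  have hr : Module.rank κ (RF w) ≤ (finrank L M : ℕ) := by
    refine rank_le fun s hs => ?_
    choose X hX1 hX using fun c : s => exists_rs (w := w) (c : RF w)
    have hli : LinearIndependent L X := by
      rw [Fintype.linearIndependent_iff]
      intro c hc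
      by_contra hcon
      push Not at hcon
      obtain ⟨i0, hi0⟩ := hcon
      obtain ⟨j, -, hj⟩ := Finset.exists_max_image Finset.univ (fun i => w (algebraMap L M (c i)))
        ⟨i0, Finset.mem_univ _⟩
      have hj0 : w (algebraMap L M (c j)) ≠ 0 := by
        intro h0
        have h1 := hj i0 (Finset.mem_univ _)
        simp only [h0] at h1
        have h2 := le_antisymm h1 zero_le
        rw [map_eq_zero, map_eq_zero] at h2
        exact hi0 h2
      have hcj0 : c j ≠ 0 := by
        intro h0
        rw [h0, map_zero, map_zero] at hj0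
        exact hj0 rfl
      let d : s → L := fun i => c i / c j
      have hd : ∀ i, w (algebraMap L M (d i)) ≤ 1 := by
        intro i
        rw [map_div₀, map_div₀]
        exact div_le_one_of_le₀ (hj i (Finset.mem_univ _)) zero_le
      have hdj : d j = 1 := div_self hcj0
      have hsum : ∑ i, algebraMap L M (d i) * X i = 0 := by
        have h1 : ∑ i, algebraMap L M (d i) * X i = algebraMap L M (c j)⁻¹ * ∑ i, c i • X i := by
          rw [Finset.mul_sum]
          refine Finset.sum_congr rfl fun i _ => ?_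
          rw [Algebra.smul_def, ← mul_assoc, ← map_mul]
          congr 2
          simp only [d]
          rw [div_eq_inv_mul]
        rw [h1, hc, mul_zero]
      choose e he using fun i => h.mem (d i) (hd i)
      have h2 : ∑ i : s, e i • ((i : RF w)) = 0 := by
        have h3 : rs w (∑ i, algebraMap L M (d i) * X i) = ∑ i : s, e i • ((i : RF w)) := by
          rw [rs_sum _ _ fun i _ => by
            rw [map_mul]; exact mul_le_one' (hd i) (hX1 i)]
          refine Finset.sum_congr rfl fun i _ => ?_
          rw [rs_mul (hd i) (hX1 i), hX, ← he, Algebra.smul_def]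
        rw [← h3, hsum, rs_eq_zero_iff (by rw [map_zero]; exact zero_le_one), map_zero]
        exact zero_lt_one
      have h4 := Fintype.linearIndependent_iff.1 hs e h2 j
      have h5 := he j
      rw [h4, map_zero, hdj, map_one, rs_one] at h5
      exact zero_ne_one h5
    have h6 := hli.fintype_card_le_finrank
    rwa [Fintype.card_coe] at h6
  exact Module.rank_lt_aleph0_iff.1 (hr.trans_lt (Cardinal.natCast_lt_aleph0))

end fin

section galois

variable {L M : Type*} [Field L] [Field M] [Algebra L M]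
  {Γ : Type*} [LinearOrderedCommGroupWithZero Γ] {w : Valuation M Γ}
  {κ : Type*} [Field κ] [Algebra κ (RF w)]

/-- the decomposition group as the stabiliser of the valuation ring -/
abbrev Dec (L : Type*) {M : Type*} [Field L] [Field M] [Algebra L M]
    {Γ : Type*} [LinearOrderedCommGroupWithZero Γ] (w : Valuation M Γ) : Subgroup (M ≃ₐ[L] M) :=
  w.valuationSubring.decompositionSubgroup L

theorem mem_Dec {σ : M ≃ₐ[L] M} : σ ∈ Dec L w ↔ ∀ x, w (σ x) ≤ 1 ↔ w x ≤ 1 := by
  rw [MulAction.mem_stabilizer_iff]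
  constructor
  · intro h x
    have h1 : σ • x ∈ σ • w.valuationSubring ↔ x ∈ w.valuationSubring :=
      ValuationSubring.smul_mem_pointwise_smul_iff
    rw [h] at h1
    exact h1
  · intro h
    ext x
    rw [ValuationSubring.mem_pointwise_smul_iff_inv_smul_mem]
    have h1 := h (σ⁻¹ x)
    rw [← AlgEquiv.mul_apply, mul_inv_cancel, AlgEquiv.one_apply] at h1
    exact h1.symm

theorem mem_Dec_iff [Algebra.IsAlgebraic L M] {σ : M ≃ₐ[L] M} :
    σ ∈ Dec L w ↔ σ ∈ Hens_899.decomp L w := by
  rw [mem_Dec]
  constructor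
  · intro h
    exact Hens_899.mem_decomp_of_le fun x hx => (h x).2 hx
  · intro h x
    rw [Hens_899.mem_decomp.1 h x]

theorem smul_rs (σ : Dec L w) {x : M} (hx : w x ≤ 1) : σ • rs w x = rs w ((σ : M ≃ₐ[L] M) x) := by
  have h1 : w ((σ : M ≃ₐ[L] M) x) ≤ 1 := (mem_Dec.1 σ.2 x).2 hx
  rw [rs_of_le hx, rs_of_le h1, ← ResidueField.residue_smul]
  rfl

variable [FiniteDimensional L M]

/-- the fixed field of the decomposition group on the residue field -/
noncomputable def FF (h : IsRes L w κ) : IntermediateField κ (RF w) :=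
  (FixedPoints.subfield (Dec L w) (RF w)).toIntermediateField fun c => by
    obtain ⟨a, ha, hc⟩ := h.lift c
    rw [← hc]
    intro σ
    rw [smul_rs σ ha, AlgEquiv.commutes]

theorem mem_FF (h : IsRes L w κ) (x : RF w) : x ∈ FF h ↔ ∀ σ : Dec L w, σ • x = x := Iff.rfl

theorem finrank_FF_dvd (h : IsRes L w κ) : finrank (FF h) (RF w) ∣ Nat.card (M ≃ₐ[L] M) := by
  have e1 : finrank (FF h) (RF w) = finrank (FixedPoints.subfield (Dec L w) (RF w)) (RF w) := by
    let i : (FF h) ≃+* (FixedPoints.subfield (Dec L w) (RF w)) :=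
      { toFun := fun x => ⟨x.1, x.2⟩
        invFun := fun x => ⟨x.1, x.2⟩
        left_inv := fun _ => rfl
        right_inv := fun _ => rfl
        map_mul' := fun _ _ => rfl
        map_add' := fun _ _ => rfl }
    exact Algebra.finrank_eq_of_equiv_equiv i (RingEquiv.refl _) rfl
  rw [e1]
  have : IsGalois (FixedPoints.subfield (Dec L w) (RF w)) (RF w) :=
    { to_isSeparable := inferInstance, to_normal := inferInstance }
  rw [← IsGalois.card_aut_eq_finrank]
  exact (Subgroup.card_dvd_of_surjective _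
    (FixedPoints.toAlgAut_surjective (Dec L w) (RF w))).trans (Subgroup.card_subgroup_dvd_card _)

theorem pow_mem_range [IsGalois L M] (h : IsRes L w κ) {x : RF w} (hx : x ∈ FF h) :
    x ^ Nat.card (Dec L w) ∈ (algebraMap κ (RF w)).range := by
  classical
  have := Fintype.ofFinite (Dec L w)
  obtain ⟨a, ha, rfl⟩ := exists_rs x
  have hσ : ∀ σ : Dec L w, w ((σ : M ≃ₐ[L] M) a) ≤ 1 := fun σ => (mem_Dec.1 σ.2 a).2 ha
  set b := ∏ σ : Dec L w, (σ : M ≃ₐ[L] M) a with hb
  have hb1 : w b ≤ 1 := by
    rw [hb, map_prod]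
    exact Finset.prod_le_one' fun σ _ => hσ σ
  have hbr : rs w b = rs w a ^ Nat.card (Dec L w) := by
    rw [hb, rs_prod _ _ fun σ _ => hσ σ, Nat.card_eq_fintype_card, ← Finset.card_univ,
      ← Finset.prod_const]
    refine Finset.prod_congr rfl fun σ _ => ?_
    rw [← smul_rs σ ha]
    exact (mem_FF h _).1 hx σ
  have hfix : ∀ τ ∈ Hens_899.decomp L w, τ b = b := by
    intro τ hτ
    have hτ' : τ ∈ Dec L w := mem_Dec_iff.2 hτ
    rw [hb, map_prod]
    exact Fintype.prod_equiv (Equiv.mulLeft (⟨τ, hτ'⟩ : Dec L w)) _ _ fun σ => rfl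
  obtain ⟨b0, hb0⟩ := Hens_899.residue_fin w hfix hb1
  have hb0' : w (algebraMap L M b0) ≤ 1 := by
    have h1 : algebraMap L M b0 = b - (b - algebraMap L M b0) := by ring
    rw [h1]
    exact w.map_sub_le hb1 hb0.le
  rw [← hbr, (rs_eq_iff hb1 hb0').2 hb0]
  exact h.mem b0 hb0'

/-- **Residue degrees of Galois extensions of `p`-power degree** are powers of `p`. -/
theorem finrank_residue [IsGalois L M] (h : IsRes L w κ) {p : ℕ} [Fact p.Prime] [CharP κ p] {n : ℕ}
    (hn : finrank L M = p ^ n) : ∃ s, finrank κ (RF w) = p ^ s := by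
  have hfin : FiniteDimensional κ (RF w) := finite_residue h
  have hcard : Nat.card (M ≃ₐ[L] M) = p ^ n := by rw [IsGalois.card_aut_eq_finrank, hn]
  obtain ⟨a, -, ha⟩ := (Nat.dvd_prime_pow (Fact.out : p.Prime)).1 (hcard ▸ finrank_FF_dvd h)
  have hD : Nat.card (Dec L w) ∣ p ^ n := hcard ▸ Subgroup.card_subgroup_dvd_card _
  obtain ⟨r, -, hr⟩ := (Nat.dvd_prime_pow (Fact.out : p.Prime)).1 hD
  have hexp : ExpChar κ p := ExpChar.prime Fact.out
  have hpi : IsPurelyInseparable κ (FF h) := by
    rw [isPurelyInseparable_iff_pow_mem κ p]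
    intro x
    refine ⟨r, ?_⟩
    obtain ⟨c, hc⟩ := pow_mem_range h x.2
    refine ⟨c, Subtype.ext ?_⟩
    rw [hr] at hc
    exact hc
  obtain ⟨b, hb⟩ := IsPurelyInseparable.finrank_eq_pow (F := κ) (E := FF h) p
  refine ⟨b + a, ?_⟩
  rw [← finrank_mul_finrank κ (FF h) (RF w), hb, ha, pow_add]

end galois

end Crest.Agent.R013.ResP_168
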