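import Mathlib
import Crest.Agent.R013.ResP_168
import Crest.Agent.R013.LiftA_168
import Crest.Agent.R013.ASL_930

/-!
# R013 / NP (helper168): the Artin-Schreier function is not an `l`-th power on the vertex

`M/L` finite Galois of `p`-power degree, `w` a norm of `M`, Gauss for `t` over the constants `k`,
the residue field of `L` being `κ(t)`; `y ∈ M` with `w (y^p - y - a t^m) < 1`, `|a| = 1`, `p ∤ m`.
Then no `g ∈ M` has `w (g^l - y) < 1` (`l > 1` prime to `p`).
-/

set_option autoImplicit false

namespace Crest.Agent.R013.NP_168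

open IsLocalRing Polynomial Module IntermediateField
open scoped NNReal
open Crest.Agent.R013.ResP_168 Crest.Agent.R013.LiftA_168

variable {k L M : Type*} [Field k] [Field L] [Field M] [Algebra k L] [Algebra L M] [Algebra k M]
  [IsScalarTower k L M] {v0 : Valuation k ℝ≥0} {w : Valuation M ℝ≥0} {t : L}

theorem rs_aeval [v0.HasExtension w] (hw : ∀ c, w (algebraMap k M c) = v0 c) {x : M} (hx : w x ≤ 1)
    (f : k[X]) (hf : ∀ i, v0 (f.coeff i) ≤ 1) : ∃ P : (RF v0)[X],
      rs w (aeval x f) = aeval (rs w x) P := by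
  have hlift : f ∈ Polynomial.lifts v0.valuationSubring.subtype := by
    rw [Polynomial.lifts_iff_coeff_lifts]
    intro j
    exact ⟨⟨f.coeff j, hf j⟩, rfl⟩
  obtain ⟨P, hP⟩ := hlift
  rw [coe_mapRingHom] at hP
  refine ⟨P.map (residue _), ?_⟩
  have hfx : w (aeval x f) ≤ 1 := aeval_val_le hw hx f hf
  rw [rs_of_le hfx, rs_of_le hx]
  have h4 : (⟨aeval x f, hfx⟩ : w.valuationSubring) = aeval ⟨x, hx⟩ P := by
    apply Subtype.ext
    change aeval x f = w.valuationSubring.subtype _
    have h5 : aeval x f = aeval x (P.map v0.valuationSubring.subtype) := by rw [hP]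
    rw [h5, aeval_def, aeval_def, eval₂_map, hom_eval₂]
    rfl
  rw [h4, aeval_def, hom_eval₂, aeval_def, eval₂_map]
  rfl

theorem rs_algebraMap [v0.HasExtension w] (hw : ∀ c, w (algebraMap k M c) = v0 c) {c : k}
    (hc : v0 c ≤ 1) : rs w (algebraMap k M c) = algebraMap (RF v0) (RF w) (rs v0 c) := by
  have h1 : w (algebraMap k M c) ≤ 1 := by rwa [hw]
  rw [rs_of_le h1, rs_of_le hc]
  rfl

/-- residues of `L` are rational functions in the residue of `t` -/
def ResRat (v0 : Valuation k ℝ≥0) (w : Valuation M ℝ≥0) (t : L) : Prop :=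
  ∀ a : L, w (algebraMap L M a) ≤ 1 → ∃ f g : k[X], (∀ i, v0 (f.coeff i) ≤ 1) ∧
    (∀ i, v0 (g.coeff i) ≤ 1) ∧ w (aeval (algebraMap L M t) g) = 1 ∧
    w (algebraMap L M a * aeval (algebraMap L M t) g - aeval (algebraMap L M t) f) < 1

theorem isRes [v0.HasExtension w] (hw : IsG v0 w (algebraMap L M t)) (hres : ResRat v0 w t) :
    IsRes L w (RF v0)⟮rs w (algebraMap L M t)⟯ := by
  set τ := rs w (algebraMap L M t)
  constructor
  · intro a ha
    obtain ⟨f, g, hf, hg, hg1, hfg⟩ := hres a ha
    obtain ⟨P, hP⟩ := rs_aeval hw.ext hw.le f hf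
    obtain ⟨Q, hQ⟩ := rs_aeval hw.ext hw.le g hg
    have h1 : rs w (algebraMap L M a) * rs w (aeval (algebraMap L M t) g) =
        rs w (aeval (algebraMap L M t) f) := by
      rw [← rs_mul ha hg1.le, rs_eq_iff (by rw [map_mul]; exact mul_le_one' ha hg1.le)
        (aeval_val_le hw.ext hw.le f hf)]
      exact hfg
    have h2 : rs w (aeval (algebraMap L M t) g) ≠ 0 := by
      rw [Ne, rs_eq_zero_iff hg1.le]
      exact hg1.not_lt
    have h3 : rs w (algebraMap L M a) = aeval τ P / aeval τ Q := by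
      rw [eq_div_iff (by rw [← hQ]; exact h2), ← hP, ← hQ, h1]
    have h4 : rs w (algebraMap L M a) ∈ (RF v0)⟮τ⟯ := by
      rw [mem_adjoin_simple_iff]
      exact ⟨P, Q, h3⟩
    exact ⟨⟨_, h4⟩, rfl⟩
  · intro c
    obtain ⟨P, Q, hPQ⟩ := (mem_adjoin_simple_iff (RF v0) (c : RF w)).1 c.2
    -- lift the coefficients
    have hl : ∀ P : (RF v0)[X], ∃ b : L, w (algebraMap L M b) ≤ 1 ∧
        rs w (algebraMap L M b) = aeval τ P := by
      intro P
      choose e he1 he using fun i => exists_rs (w := v0) (P.coeff i)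
      refine ⟨∑ i ∈ Finset.range (P.natDegree + 1), algebraMap k L (e i) * t ^ i, ?_, ?_⟩
      · rw [map_sum]
        refine Valuation.map_sum_le _ fun i _ => ?_
        rw [map_mul, ← IsScalarTower.algebraMap_apply, map_mul, hw.ext, map_pow, map_pow]
        exact mul_le_one' (he1 i) (pow_le_one' hw.le i)
      · rw [map_sum, rs_sum]
        · rw [aeval_eq_sum_range]
          refine Finset.sum_congr rfl fun i _ => ?_
          rw [map_mul, ← IsScalarTower.algebraMap_apply, map_pow, rs_mul
            (by rw [hw.ext]; exact he1 i) (by rw [map_pow]; exact pow_le_one' hw.le i),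
            rs_algebraMap hw.ext (he1 i), he, rs_pow hw.le, Algebra.smul_def]
        · intro i _
          rw [map_mul, ← IsScalarTower.algebraMap_apply, map_mul, hw.ext, map_pow, map_pow]
          exact mul_le_one' (he1 i) (pow_le_one' hw.le i)
    by_cases hQ : aeval τ Q = 0
    · refine ⟨0, by rw [map_zero, map_zero]; exact zero_le_one, ?_⟩
      have h0 : (c : RF w) = 0 := by rw [hPQ, hQ, div_zero]
      rw [map_zero, (rs_eq_zero_iff (by rw [map_zero]; exact zero_le_one)).2
        (by rw [map_zero]; exact zero_lt_one)]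
      exact h0.symm
    · obtain ⟨b, hb, hb'⟩ := hl P
      obtain ⟨d, hd, hd'⟩ := hl Q
      have hd1 : w (algebraMap L M d) = 1 := by
        refine le_antisymm hd ?_
        by_contra hlt
        push Not at hlt
        rw [← rs_eq_zero_iff hd, hd'] at hlt
        exact hQ hlt
      have hbd : w (algebraMap L M (b / d)) ≤ 1 := by
        rw [map_div₀, map_div₀, hd1, div_one]; exact hb
      refine ⟨b / d, hbd, ?_⟩
      have h1 : rs w (algebraMap L M (b / d)) * rs w (algebraMap L M d) = rs w (algebraMap L M b) := by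
        rw [← rs_mul hbd hd, ← map_mul, div_mul_cancel₀]
        rintro rfl
        rw [map_zero, map_zero] at hd1
        exact zero_ne_one hd1
      change rs w (algebraMap L M (b / d)) = (c : RF w)
      rw [hPQ, eq_div_iff hQ, ← hb', ← hd', h1]

/-- the residue of the Gauss coordinate is transcendental -/
theorem transc [v0.HasExtension w] {x : M} (hw : IsG v0 w x) :
    Transcendental (RF v0) (rs w x) := by
  intro halg
  rw [rs_of_le hw.le] at halg
  obtain ⟨f, -, ⟨i, hi⟩, hf⟩ := (isAlgebraic_residue_iff (v0 := v0) ⟨x, hw.le⟩).1 halg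
  have h1 := hw.coeff_le f i
  rw [hi] at h1
  exact absurd hf (not_lt.2 h1)

theorem charP_RF {p : ℕ} (hp : p.Prime) (h : v0 (p : k) < 1) : CharP (RF v0) p := by
  rw [CharP.charP_iff_prime_eq_zero hp]
  have h1 : ((p : v0.valuationSubring) : k) = (p : k) := by
    push_cast; rfl
  have h2 : (p : RF v0) = residue v0.valuationSubring (p : v0.valuationSubring) :=
    (map_natCast _ _).symm
  rw [h2, ResP_168.residue_eq_zero_iff', h1]
  exact h

/-- **`y` is not an `l`-th power on the vertex.** -/
theorem not_pow_vertex [FiniteDimensional L M] [IsGalois L M] {p : ℕ} (hp : p.Prime)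
    (hp1 : v0 (p : k) < 1) {n : ℕ} (hn : finrank L M = p ^ n)
    (hw : IsG v0 w (algebraMap L M t)) (hres : ResRat v0 w t)
    {y : M} {a : k} (ha : v0 a = 1) {m : ℕ} (hpm : p.Coprime m) (hm : 0 < m)
    (hy : w (y ^ p - y - algebraMap k M a * algebraMap L M t ^ m) < 1)
    {l : ℕ} (hl : 1 < l) (hpl : p.Coprime l) (g : M) : ¬ w (g ^ l - y) < 1 := by
  intro hg
  have := hasExt hw.ext
  have : Fact p.Prime := ⟨hp⟩
  have : CharP (RF v0) p := charP_RF hp hp1
  -- everything is integral
  have hat : w (algebraMap k M a * algebraMap L M t ^ m) ≤ 1 := by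
    rw [map_mul, hw.ext, ha, one_mul, map_pow]
    exact pow_le_one' hw.le m
  have hyy : w (y ^ p - y) ≤ 1 := by
    have h1 : y ^ p - y = (y ^ p - y - algebraMap k M a * algebraMap L M t ^ m) +
        algebraMap k M a * algebraMap L M t ^ m := by ring
    rw [h1]
    exact w.map_add_le hy.le hat
  have hy1 : w y ≤ 1 := by
    by_contra hlt
    push Not at hlt
    have h1 : w y < w (y ^ p) := by
      rw [map_pow]
      calc w y = w y ^ 1 := (pow_one _).symm
        _ < w y ^ p := pow_lt_pow_right₀ hlt hp.one_lt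
    rw [Valuation.map_sub_eq_of_lt_left w h1, map_pow] at hyy
    exact absurd hyy (not_le.2 (one_lt_pow₀ hlt hp.ne_zero))
  have hg1 : w g ≤ 1 := by
    have h1 : w (g ^ l) ≤ 1 := by
      have h2 : g ^ l = (g ^ l - y) + y := by ring
      rw [h2]
      exact w.map_add_le hg.le hy1
    rw [map_pow] at h1
    exact (pow_le_one_iff (by omega)).1 h1
  have hpow : ∀ n : ℕ, w (y ^ n) ≤ 1 := fun n => by rw [map_pow]; exact pow_le_one' hy1 n
  have hgl : w (g ^ l) ≤ 1 := by rw [map_pow]; exact pow_le_one' hg1 l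
  -- the Artin-Schreier equation in the residue field
  set τ := rs w (algebraMap L M t) with hτ
  have ht1 : w (algebraMap L M t ^ m) ≤ 1 := by rw [map_pow]; exact pow_le_one' hw.le m
  have hAS : rs w y ^ p - rs w y = algebraMap (RF v0) (RF w) (rs v0 a) * τ ^ m := by
    rw [← rs_pow hy1, ← rs_sub (hpow p) hy1, ← rs_algebraMap hw.ext ha.le, ← rs_pow hw.le,
      ← rs_mul (by rw [hw.ext, ha]) ht1, rs_eq_iff hyy hat]
    exact hy
  have hc : rs v0 a ≠ 0 := by
    rw [Ne, rs_eq_zero_iff ha.le, ha]
    exact lt_irrefl _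
  have hR := isRes hw hres
  have hfd : FiniteDimensional (RF v0)⟮τ⟯ (RF w) := finite_residue hR
  have hch : CharP (RF v0)⟮τ⟯ p := charP_of_injective_algebraMap
    (algebraMap (RF v0) (RF v0)⟮τ⟯).injective p
  obtain ⟨s, hs⟩ := finrank_residue hR hn
  refine ASL_930.not_pow' (transc hw) hc hpm hm hAS l hl ?_ (rs w g) ?_
  · rw [hs]
    exact Nat.Coprime.pow_left s hpl
  · rw [← rs_pow hg1, rs_eq_iff hgl hy1]
    exact hg

end Crest.Agent.R013.NP_168
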