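import Crest.Agent.R013.LiftF_168
import Crest.Agent.R013.NP_168
import Crest.Agent.R013.CLiftN1_903

/-!
# R013 / LiftK (helper168): auxiliary results for the assembly of LIFT-L

* `isG_ext` : a Gauss norm stays a Gauss norm over algebraic constants;
* `kummer` : `E = F(y)`, `y ^ N ∈ F`, `μ_N ⊂ F`, `N = p ^ n`: `E/F` is Galois of `p`-power degree;
* `resRat_of_dense` : density of `C(t)` gives `ResRat`;
* levels `M C` inside `Ω`: finiteness over `C(z)`.
-/

set_option autoImplicit false
set_option linter.style.haveILetI false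

namespace Crest.Agent.R013.LiftK_168

open Polynomial IsLocalRing Module IntermediateField
open scoped NNReal
open Crest.Agent.R013.LiftA_168 Crest.Agent.R013.ResP_168 Crest.Agent.R013.NP_168

section gauss

variable {k C K : Type*} [Field k] [Field C] [Field K] [Algebra k C] [Algebra C K] [Algebra k K]
  [IsScalarTower k C K] {v0 : Valuation k ℝ≥0} {nC : Valuation C ℝ≥0} {v : Valuation K ℝ≥0} {t : K}

/-- **A Gauss norm stays a Gauss norm over algebraic constants.** -/
theorem isG_ext [Algebra.IsAlgebraic k C] (hn : ∀ c : k, nC (algebraMap k C c) = v0 c)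
    (hv : IsG v0 v t) (hvC : ∀ c : C, v (algebraMap C K c) = nC c) : IsG nC v t := by
  refine isG_of_unit hvC hv.le fun f hf hf1 => ?_
  by_contra hlt
  push Not at hlt
  have i1 : v0.HasExtension nC := hasExt hn
  have i2 : nC.HasExtension v := hasExt hvC
  have i3 : v0.HasExtension v := hasExt hv.ext
  have h1 : IsAlgebraic (RF nC) (residue v.valuationSubring ⟨t, hv.le⟩) :=
    (isAlgebraic_residue_iff (v0 := nC) (w := v) ⟨t, hv.le⟩).2 ⟨f, hf, hf1, hlt⟩
  have h2 : Algebra.IsAlgebraic (RF v0) (RF nC) := by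
    refine ⟨fun c => ?_⟩
    obtain ⟨x, rfl⟩ := residue_surjective c
    refine (isAlgebraic_residue_iff (v0 := v0) (w := nC) x).2 ?_
    obtain ⟨P, hP, hPx⟩ := Algebra.IsAlgebraic.isAlgebraic (R := k) (x : C)
    obtain ⟨j, hj, -⟩ := exists_max_coeff v0 P
    have hj0 : v0 (P.coeff j) ≠ 0 := by
      intro h0
      apply hP
      ext i
      have := hj i
      rw [h0, le_zero_iff, map_eq_zero] at this
      simpa using this
    have hj0' : P.coeff j ≠ 0 := (Valuation.ne_zero_iff _).1 hj0
    refine ⟨Polynomial.C (P.coeff j)⁻¹ * P, fun i => ?_, ⟨j, ?_⟩, ?_⟩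
    · rw [coeff_C_mul, map_mul, map_inv₀, inv_mul_le_one₀ (pos_iff_ne_zero.2 hj0)]
      exact hj i
    · rw [coeff_C_mul, inv_mul_cancel₀ hj0', map_one]
    · rw [map_mul, hPx, mul_zero, map_zero]
      exact zero_lt_one
  have i4 : IsScalarTower (RF v0) (RF nC) (RF v) := IsScalarTower.of_algebraMap_eq fun c => by
    obtain ⟨x, rfl⟩ := residue_surjective c
    change residue v.valuationSubring ⟨algebraMap k K x, _⟩ =
      residue v.valuationSubring ⟨algebraMap C K (algebraMap k C x), _⟩
    congr 1
    exact Subtype.ext (IsScalarTower.algebraMap_apply k C K _)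
  have h3 : IsAlgebraic (RF v0) (residue v.valuationSubring ⟨t, hv.le⟩) :=
    IsAlgebraic.restrictScalars (RF v0) h1
  obtain ⟨g, hg, ⟨i, hi⟩, hg1⟩ := (isAlgebraic_residue_iff (v0 := v0) ⟨t, hv.le⟩).1 h3
  have h5 := hv.coeff_le g i
  rw [hi] at h5
  exact absurd hg1 (not_lt.2 h5)

/-- Elements congruent to rational functions have rational residues. -/
theorem exists_rat_res (hv : IsG v0 v t) {a : K} (ha : v a ≤ 1) {P Q : k[X]}
    (hQ : Q ≠ 0) (h : v (a - aeval t P / aeval t Q) < 1) :
    ∃ f g : k[X], (∀ i, v0 (f.coeff i) ≤ 1) ∧ (∀ i, v0 (g.coeff i) ≤ 1) ∧ v (aeval t g) = 1 ∧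
      v (a * aeval t g - aeval t f) < 1 := by
  obtain ⟨j, hj, -⟩ := exists_max_coeff v0 Q
  have hj0 : v0 (Q.coeff j) ≠ 0 := by
    intro h0
    apply hQ
    ext i
    have := hj i
    rw [h0, le_zero_iff, map_eq_zero] at this
    simpa using this
  have hj0' : Q.coeff j ≠ 0 := (Valuation.ne_zero_iff _).1 hj0
  set d := Q.coeff j with hd
  set g : k[X] := Polynomial.C d⁻¹ * Q with hg
  set f : k[X] := Polynomial.C d⁻¹ * P with hf
  have hgj : ∀ i, v0 (g.coeff i) ≤ v0 (g.coeff j) := by
    intro i
    rw [hg, coeff_C_mul, coeff_C_mul, map_mul, map_mul]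
    exact mul_le_mul_right (hj i) _
  have hgj1 : v0 (g.coeff j) = 1 := by
    rw [hg, coeff_C_mul, ← hd, inv_mul_cancel₀ hj0', map_one]
  have hg1 : v (aeval t g) = 1 := by rw [hv.aeval_eq g hgj, hgj1]
  have hg0 : aeval t g ≠ 0 := by
    intro h0
    rw [h0, map_zero] at hg1
    exact zero_ne_one hg1
  have hdK : algebraMap k K d⁻¹ ≠ 0 := (_root_.map_ne_zero _).2 (inv_ne_zero hj0')
  have hfg : aeval t P / aeval t Q = aeval t f / aeval t g := by
    rw [hf, hg, map_mul, map_mul, aeval_C, mul_div_mul_left _ _ hdK]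
  rw [hfg] at h
  have h1 : v (a * aeval t g - aeval t f) < 1 := by
    have h2 : a * aeval t g - aeval t f = (a - aeval t f / aeval t g) * aeval t g := by
      rw [sub_mul, div_mul_cancel₀ _ hg0]
    rw [h2, map_mul, hg1, mul_one]
    exact h
  have h2 : v (aeval t f) ≤ 1 := by
    have h3 : aeval t f = a * aeval t g - (a * aeval t g - aeval t f) := by ring
    rw [h3]
    refine v.map_sub_le ?_ h1.le
    rw [map_mul, hg1, mul_one]
    exact ha
  exact ⟨f, g, fun i => (hv.coeff_le f i).trans h2, fun i => by rw [← hgj1]; exact hgj i, hg1, h1⟩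

end gauss

section kummer

variable {F E : Type*} [Field F] [Field E] [Algebra F E]

/-- **Kummer.** -/
theorem kummer [CharZero F] {N : ℕ} (hN : N ≠ 0) {ζ : F} (hζ : IsPrimitiveRoot ζ N) {y : E}
    {a : F} (hy : y ^ N = algebraMap F E a) (htop : F⟮y⟯ = ⊤) :
    FiniteDimensional F E ∧ IsGalois F E ∧ ∀ σ : E ≃ₐ[F] E, σ ^ N = 1 := by
  have hζE : IsPrimitiveRoot (algebraMap F E ζ) N := hζ.map_of_injective (algebraMap F E).injective
  by_cases hy0 : y = 0
  · -- trivial case
    have hbot : (⊤ : IntermediateField F E) = ⊥ := by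
      rw [← htop, hy0, adjoin_zero]
    have h1 : Function.Surjective (algebraMap F E) := fun x => by
      have hx : x ∈ (⊥ : IntermediateField F E) := by rw [← hbot]; exact mem_top
      exact mem_bot.1 hx
    have hfd : FiniteDimensional F E := Module.Finite.of_surjective (Algebra.linearMap F E) h1
    have hσ : ∀ σ : E ≃ₐ[F] E, σ = 1 := fun σ => by
      ext x
      obtain ⟨c, rfl⟩ := h1 x
      rw [AlgEquiv.commutes]; rfl
    refine ⟨hfd, ?_, fun σ => by rw [hσ σ, one_pow]⟩
    have := charZero_of_injective_algebraMap (algebraMap F E).injective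
    have : Normal F E := by
      refine Normal.of_algEquiv (F := F) (E := F) ?_
      exact AlgEquiv.ofBijective (Algebra.ofId F E) ⟨(algebraMap F E).injective, h1⟩
    exact ⟨⟩
  have hsplit : (X ^ N - Polynomial.C a : F[X]).IsSplittingField F E := by
    constructor
    · rw [Polynomial.map_sub, Polynomial.map_pow, map_X, map_C]
      exact X_pow_sub_C_splits_of_isPrimitiveRoot hζE hy
    · rw [eq_top_iff, ← IntermediateField.top_toSubalgebra, ← htop,
        adjoin_simple_toSubalgebra_of_isAlgebraic]
      · apply Algebra.adjoin_mono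
        rw [Set.singleton_subset_iff, mem_rootSet_of_ne (X_pow_sub_C_ne_zero
          (Nat.pos_of_ne_zero hN) a), map_sub, map_pow, aeval_X, aeval_C, hy, sub_self]
      · exact ⟨X ^ N - Polynomial.C a, (monic_X_pow_sub_C _ hN).ne_zero, by
          rw [map_sub, map_pow, aeval_X, aeval_C, hy, sub_self]⟩
  have ha : a ≠ 0 := by
    rintro rfl
    rw [map_zero] at hy
    exact hy0 (pow_eq_zero_iff hN |>.1 hy)
  have hsep : (X ^ N - Polynomial.C a : F[X]).Separable :=
    separable_X_pow_sub_C a (Nat.cast_ne_zero.2 hN) ha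
  have hfd : FiniteDimensional F E := Polynomial.IsSplittingField.finiteDimensional E
    (X ^ N - Polynomial.C a : F[X])
  have hgal : IsGalois F E := IsGalois.of_separable_splitting_field (p := X ^ N - Polynomial.C a) hsep
  refine ⟨hfd, hgal, fun σ => ?_⟩
  -- `σ y = ζ ^ i y`
  have h1 : (σ y / y) ^ N = 1 := by
    rw [div_pow, ← map_pow, hy, AlgEquiv.commutes, div_self]
    exact (_root_.map_ne_zero _).2 ha
  have : NeZero N := ⟨hN⟩
  obtain ⟨i, -, hi⟩ := hζE.eq_pow_of_pow_eq_one h1
  have h2 : σ y = algebraMap F E (ζ ^ i) * y := by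
    rw [map_pow, hi, div_mul_cancel₀ _ hy0]
  have h3 : ∀ j : ℕ, (σ ^ j) y = algebraMap F E (ζ ^ i) ^ j * y := by
    intro j
    induction j with
    | zero => simp
    | succ j ih =>
      rw [pow_succ', AlgEquiv.mul_apply, ih, map_mul, map_pow, AlgEquiv.commutes, h2, pow_succ]
      ring
  have h4 : (σ ^ N) y = y := by
    rw [h3, ← map_pow, ← pow_mul, mul_comm i N, pow_mul, hζ.pow_eq_one, one_pow, map_one, one_mul]
  have h5 : ∀ x : E, (σ ^ N) x = x := by
    intro x
    have hx : x ∈ F⟮y⟯ := by rw [htop]; exact mem_top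
    have hle : F⟮y⟯ ≤ IntermediateField.fixedField (Subgroup.zpowers (σ ^ N)) := by
      rw [adjoin_simple_le_iff]
      rintro ⟨τ, hτ⟩
      obtain ⟨j, rfl⟩ := Subgroup.mem_zpowers_iff.1 hτ
      have h6 : σ ^ N ∈ MulAction.stabilizer (E ≃ₐ[F] E) y := h4
      exact (MulAction.stabilizer (E ≃ₐ[F] E) y).zpow_mem h6 j
    exact hle hx ⟨σ ^ N, Subgroup.mem_zpowers _⟩
  ext x
  exact h5 x

/-- the degree is a power of `p` -/
theorem kummer_finrank [CharZero F] {p : ℕ} (hp : p.Prime) {n : ℕ} {ζ : F}
    (hζ : IsPrimitiveRoot ζ (p ^ n)) {y : E} {a : F} (hy : y ^ p ^ n = algebraMap F E a)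
    (htop : F⟮y⟯ = ⊤) :
    FiniteDimensional F E ∧ IsGalois F E ∧ ∃ s, finrank F E = p ^ s := by
  obtain ⟨h1, h2, h3⟩ := kummer (pow_ne_zero n hp.ne_zero) hζ hy htop
  refine ⟨h1, h2, ?_⟩
  have : Fact p.Prime := ⟨hp⟩
  have hG : IsPGroup p (E ≃ₐ[F] E) := fun σ => ⟨n, h3 σ⟩
  obtain ⟨s, hs⟩ := IsPGroup.iff_card.1 hG
  exact ⟨s, by rw [← IsGalois.card_aut_eq_finrank, hs]⟩

end kummer

section levels

variable {k K Ω : Type*} [Field k] [Field K] [Field Ω] [Algebra k K] [Algebra k Ω] [Algebra K Ω]
  [IsScalarTower k K Ω]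

/-- `C` inside a level `U` -/
@[reducible] def algCU (C : IntermediateField k Ω) (U : IntermediateField K Ω)
    (h : ∀ c ∈ C, c ∈ U) : Algebra C U :=
  RingHom.toAlgebra
    { toFun := fun c => ⟨c, h c c.2⟩
      map_one' := rfl
      map_mul' := fun _ _ => rfl
      map_zero' := rfl
      map_add' := fun _ _ => rfl }

/-- a subfield containing `M` and `C` contains `M C` -/
theorem mem_of_mem_sup (M : IntermediateField K Ω) (S : Set Ω) (T : Subfield Ω)
    (hM : ∀ a ∈ M, a ∈ T) (hS : ∀ a ∈ S, a ∈ T) {a : Ω}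
    (ha : a ∈ M ⊔ IntermediateField.adjoin K S) : a ∈ T := by
  let T' : IntermediateField K Ω := T.toIntermediateField fun x => hM _ (M.algebraMap_mem x)
  have h1 : M ⊔ IntermediateField.adjoin K S ≤ T' :=
    sup_le (fun a ha => hM a ha) (IntermediateField.adjoin_le_iff.2 fun a ha => hS a ha)
  exact h1 ha

variable [Algebra (RatFunc k) K] [IsScalarTower k (RatFunc k) K] [FiniteDimensional (RatFunc k) K]

/-- **Finiteness of the levels over `C(z)`.** -/
theorem fd_level (M : IntermediateField K Ω) [FiniteDimensional K M] (C : IntermediateField k Ω)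
    [Algebra.IsAlgebraic k C] [Algebra.IsAlgebraic K Ω] (U : IntermediateField K Ω)
    (hU : U = M ⊔ IntermediateField.adjoin K (C : Set Ω)) (hCU : ∀ c ∈ C, c ∈ U) :
    letI := algCU C U hCU
    ∀ z : U, Transcendental C z → FiniteDimensional (IntermediateField.adjoin C {z}) U := by
  letI := algCU C U hCU
  classical
  have hMU : M ≤ U := by rw [hU]; exact le_sup_left
  -- the coordinate `x`
  set x0 : K := algebraMap (RatFunc k) K RatFunc.X with hx0
  set x : U := algebraMap K U x0 with hx
  have hx0t : Transcendental k x0 := by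
    intro h
    exact RatFunc.transcendental_X
      ((isAlgebraic_algebraMap_iff (algebraMap (RatFunc k) K).injective).mp h)
  have hkC : ∀ c : k, algebraMap C U (algebraMap k C c) = algebraMap K U (algebraMap k K c) := by
    intro c
    apply Subtype.ext
    change algebraMap k Ω c = algebraMap K Ω (algebraMap k K c)
    exact IsScalarTower.algebraMap_apply k K Ω c
  have hxt : Transcendental C x := by
    intro h
    apply hx0t
    letI : Algebra k U := (algebraMap k Ω).codRestrict U (fun c => by
      rw [IsScalarTower.algebraMap_apply k K Ω]; exact U.algebraMap_mem _) |>.toAlgebra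
    have : IsScalarTower k C U := IsScalarTower.of_algebraMap_eq fun c => rfl
    have : IsScalarTower k K U := IsScalarTower.of_algebraMap_eq fun c =>
      Subtype.ext (IsScalarTower.algebraMap_apply k K Ω c)
    have h1 : IsAlgebraic k x := IsAlgebraic.restrictScalars k h
    exact (isAlgebraic_algebraMap_iff (algebraMap K U).injective).1 h1
  -- `RatFunc k → C(x)`
  let Fx : IntermediateField C U := IntermediateField.adjoin C {x}
  have hpoly : ∀ f : k[X], algebraMap K U (algebraMap (RatFunc k) K (algebraMap k[X] (RatFunc k) f)) ∈ Fx := by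
    intro f
    induction f using Polynomial.induction_on' with
    | add p q hp hq =>
      rw [map_add, map_add, map_add]
      exact add_mem hp hq
    | monomial n c =>
      rw [← Polynomial.C_mul_X_pow_eq_monomial, map_mul, map_pow, RatFunc.algebraMap_C,
        RatFunc.algebraMap_X, map_mul, map_mul, map_pow, map_pow]
      refine mul_mem ?_ (pow_mem (mem_adjoin_simple_self C x) n)
      have h1 : algebraMap (RatFunc k) K (RatFunc.C c) = algebraMap k K c := by
        rw [← RatFunc.algebraMap_eq_C, ← IsScalarTower.algebraMap_apply]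
      rw [h1, ← hkC]
      exact Fx.algebraMap_mem _
  have hrat : ∀ r : RatFunc k, algebraMap K U (algebraMap (RatFunc k) K r) ∈ Fx := by
    intro r
    rw [← RatFunc.num_div_denom r, map_div₀, map_div₀]
    exact div_mem (hpoly _) (hpoly _)
  -- finite over `C(x)`
  have hfdx : FiniteDimensional Fx U := by
    letI i0 : Algebra (RatFunc k) Ω := ((algebraMap K Ω).comp (algebraMap (RatFunc k) K)).toAlgebra
    have i0' : IsScalarTower (RatFunc k) K Ω := IsScalarTower.of_algebraMap_eq fun r => rfl
    have i1 : FiniteDimensional (RatFunc k) M := FiniteDimensional.trans (RatFunc k) K M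
    let b := Module.finBasis (RatFunc k) M
    let S : Set U := Set.range fun i => (⟨b i, hMU (b i).2⟩ : U)
    -- everything is algebraic over `Fx`
    let ψ : RatFunc k →+* Fx := ((algebraMap K U).comp (algebraMap (RatFunc k) K)).codRestrict Fx hrat
    letI : Algebra (RatFunc k) Fx := ψ.toAlgebra
    have i2 : IsScalarTower (RatFunc k) Fx U := IsScalarTower.of_algebraMap_eq fun r => rfl
    have i3 : Algebra.IsAlgebraic K U := inferInstance
    have i4 : Algebra.IsAlgebraic (RatFunc k) K := Algebra.IsAlgebraic.of_finite _ _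
    have i5 : Algebra.IsAlgebraic (RatFunc k) U := Algebra.IsAlgebraic.trans (RatFunc k) K U
    have hfin : FiniteDimensional Fx (IntermediateField.adjoin Fx S) := by
      have : Finite S := Set.finite_range _
      refine IntermediateField.finiteDimensional_adjoin fun a _ => ?_
      exact ((i5.isAlgebraic a).extendScalars (algebraMap (RatFunc k) Fx).injective).isIntegral
    have htop : IntermediateField.adjoin Fx S = ⊤ := by
      rw [eq_top_iff]
      rintro ⟨a, ha⟩ -
      set T : Subfield Ω := (IntermediateField.adjoin Fx S).toSubfield.map (U.val : U →+* Ω) with hT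
      have hmem : ∀ u : U, (u : Ω) ∈ T ↔ u ∈ IntermediateField.adjoin Fx S := by
        intro u
        rw [hT, Subfield.mem_map]
        constructor
        · rintro ⟨u', hu', h⟩
          have : u' = u := Subtype.ext h
          rw [← this]; exact hu'
        · intro h
          exact ⟨u, h, rfl⟩
      have hra : ∀ r : RatFunc k, algebraMap K U (algebraMap (RatFunc k) K r) ∈
          IntermediateField.adjoin Fx S := by
        intro r
        exact (IntermediateField.adjoin Fx S).algebraMap_mem (⟨_, hrat r⟩ : Fx)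
      have hMT : ∀ m ∈ M, m ∈ T := by
        intro m hm
        have h1 : (⟨m, hm⟩ : M) = ∑ i, b.repr ⟨m, hm⟩ i • b i := (b.sum_repr _).symm
        have h2 : m = ∑ i, ((b.repr ⟨m, hm⟩ i • b i : M) : Ω) := by
          have h3 := congrArg (Subtype.val : M → Ω) h1
          rw [AddSubmonoidClass.coe_finsetSum] at h3
          exact h3
        rw [h2]
        refine sum_mem fun i _ => ?_
        have h3 : ((b.repr ⟨m, hm⟩ i • b i : M) : Ω) =
            ((algebraMap K U (algebraMap (RatFunc k) K (b.repr ⟨m, hm⟩ i)) * ⟨b i, hMU (b i).2⟩ : U) : Ω) := by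
          rw [Algebra.smul_def]
          rfl
        rw [h3, hmem]
        exact mul_mem (hra _) (IntermediateField.subset_adjoin _ _ ⟨i, rfl⟩)
      have hCT : ∀ c ∈ (C : Set Ω), c ∈ T := by
        intro c hc
        have h1 : c = ((algebraMap C U ⟨c, hc⟩ : U) : Ω) := rfl
        rw [h1, hmem]
        exact (IntermediateField.adjoin Fx S).algebraMap_mem (algebraMap C Fx ⟨c, hc⟩)
      have h1 : a ∈ T := mem_of_mem_sup M (C : Set Ω) T hMT hCT (by rw [← hU]; exact ha)
      exact (hmem ⟨a, ha⟩).1 h1
    rw [htop] at hfin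
    exact Module.Finite.equiv (IntermediateField.topEquiv (F := Fx) (E := U)).toLinearEquiv
  letI : Algebra (RatFunc C) U := RR20_948.ratAlg x hxt
  have : IsScalarTower C (RatFunc C) U := RR20_948.ratAlg_tower x hxt
  have : FiniteDimensional (RatFunc C) U := by
    have := hfdx
    exact LiftF_168.finite_ratAlg x hxt
  intro z hz
  exact CLiftN_903.fd_adjoin z hz

end levels

end Crest.Agent.R013.LiftK_168
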