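import Crest.Agent.R013.LiftK_168
import Crest.Agent.R013.Set3_803
import Crest.Agent.R013.Unr11_957

/-!
# R013 / LiftL (helper168): LIFT-L

`lv M C = M C` inside `Ω`.  From the vertex data of `GOOD` (a norm `v`, Gauss for `t` over the
constants `C`, `C(t)` dense in `L`, `M = L(y)`, `y ^ (p ^ n) ∈ L`, and an Artin-Schreier function
`z ∈ M`, `v (z ^ p - z - t ^ m) < 1`) and a prime `l ∣ m`: a finite extension `C1` of the constants
and `h ∈ M C1` with
* `l ∣ div h` on `M C1`;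
* `h` is an `l`-th power up to `1`-units at every norm `w` with `w t > 1`;
* `h` is not an `l`-th power up to `1`-units at `v`, over any algebraic extension of the constants.
-/

set_option autoImplicit false
set_option linter.style.haveILetI false
set_option linter.unusedSectionVars false

namespace Crest.Agent.R013.LiftL_168

open Polynomial Module IntermediateField
open scoped NNReal
open Crest.NumberTheoryR.Sect
open Crest.Agent.R013.LiftA_168 Crest.Agent.R013.LiftK_168 Crest.Agent.R013.SE_669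
  Crest.Agent.R013.CGood_588

section levels

variable {k K Ω : Type*} [Field k] [Field K] [Field Ω] [Algebra k K] [Algebra k Ω] [Algebra K Ω]
  [IsScalarTower k K Ω]

/-- the level `M C` -/
def lv (M : IntermediateField K Ω) (C : IntermediateField k Ω) : IntermediateField K Ω :=
  M ⊔ IntermediateField.adjoin K (C : Set Ω)

theorem le_lv (M : IntermediateField K Ω) (C : IntermediateField k Ω) : M ≤ lv M C := le_sup_left

theorem mem_lv {M : IntermediateField K Ω} {C : IntermediateField k Ω} {c : Ω} (hc : c ∈ C) :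
    c ∈ lv M C :=
  (le_sup_right : IntermediateField.adjoin K (C : Set Ω) ≤ lv M C)
    (IntermediateField.subset_adjoin _ _ hc)

theorem lv_mono {M M' : IntermediateField K Ω} {C C' : IntermediateField k Ω} (hM : M ≤ M')
    (hC : C ≤ C') : lv M C ≤ lv M' C' :=
  sup_le_sup hM (IntermediateField.adjoin.mono _ _ _ hC)

theorem lv_le_iff {M U : IntermediateField K Ω} {C : IntermediateField k Ω} :
    lv M C ≤ U ↔ M ≤ U ∧ ∀ c ∈ C, c ∈ U := by
  rw [lv, sup_le_iff, IntermediateField.adjoin_le_iff]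
  rfl

/-- every element of `M C` lies in `M C'` with `C'` finitely generated -/
theorem exists_lv {M : IntermediateField K Ω} {C : IntermediateField k Ω}
    [Algebra.IsAlgebraic k C] {f : Ω} (hf : f ∈ lv M C) :
    ∃ C' : IntermediateField k Ω, C' ≤ C ∧ FiniteDimensional k C' ∧ f ∈ lv M C' := by
  classical
  have h1 : lv M C = IntermediateField.adjoin K ((M : Set Ω) ∪ C) := by
    rw [lv, IntermediateField.adjoin_union, IntermediateField.adjoin_self]
  rw [h1] at hf
  obtain ⟨T, hT, hfT⟩ := IntermediateField.exists_finset_of_mem_adjoin hf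
  let S : Set Ω := {x | x ∈ T ∧ x ∈ C}
  have hS : S.Finite := (Finset.finite_toSet T).subset fun x hx => hx.1
  haveI := hS.to_subtype
  refine ⟨IntermediateField.adjoin k S, IntermediateField.adjoin_le_iff.2 fun x hx => hx.2,
    IntermediateField.finiteDimensional_adjoin fun x hx => ?_, ?_⟩
  · have h2 : IsIntegral k (⟨x, hx.2⟩ : C) := Algebra.IsIntegral.isIntegral _
    exact h2.map C.val
  have h2 : IntermediateField.adjoin K (T : Set Ω) ≤ lv M (IntermediateField.adjoin k S) := by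
    rw [IntermediateField.adjoin_le_iff]
    intro x hx
    rcases hT hx with h | h
    · exact le_lv _ _ h
    · exact mem_lv (IntermediateField.subset_adjoin _ _ ⟨hx, h⟩)
  exact h2 hfT

/-- the same for finitely many elements -/
theorem exists_lv_finset {M : IntermediateField K Ω} {C : IntermediateField k Ω}
    [Algebra.IsAlgebraic k C] (F : Finset Ω) (hF : ∀ f ∈ F, f ∈ lv M C) :
    ∃ C' : IntermediateField k Ω, C' ≤ C ∧ FiniteDimensional k C' ∧ ∀ f ∈ F, f ∈ lv M C' := by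
  classical
  induction F using Finset.induction_on with
  | empty => exact ⟨⊥, bot_le, inferInstance, fun f hf => absurd hf (Finset.notMem_empty f)⟩
  | insert a F ha ih =>
    obtain ⟨C1, h1, h2, h3⟩ := ih fun f hf => hF f (Finset.mem_insert_of_mem hf)
    obtain ⟨C2, h4, h5, h6⟩ := exists_lv (hF a (Finset.mem_insert_self a F))
    refine ⟨C1 ⊔ C2, sup_le h1 h4, IntermediateField.finiteDimensional_sup _ _, fun f hf => ?_⟩
    rcases Finset.mem_insert.1 hf with rfl | hf
    · exact lv_mono le_rfl le_sup_right h6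
    · exact lv_mono le_rfl le_sup_left (h3 f hf)

theorem coe_aeval (C : IntermediateField k Ω) (U : IntermediateField K Ω) (h : ∀ c ∈ C, c ∈ U)
    (x : U) (f : C[X]) : letI := algCU C U h; ((aeval x f : U) : Ω) = aeval (x : Ω) f := by
  letI := algCU C U h
  rw [aeval_def, aeval_def]
  exact hom_eval₂ f (algebraMap C U) (U.val : U →+* Ω) x

/-- restriction of a Gauss norm to a level -/
theorem isG_restrict {C : IntermediateField k Ω} {U : IntermediateField K Ω} (h : ∀ c ∈ C, c ∈ U)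
    {n : Valuation C ℝ≥0} {v : Valuation Ω ℝ≥0} {t : Ω} (hv : IsG n v t) (ht : t ∈ U) :
    letI := algCU C U h; IsG n (v.comap (algebraMap U Ω)) (⟨t, ht⟩ : U) := by
  letI := algCU C U h
  refine ⟨fun c => hv.ext c, hv.le, fun f i => ?_⟩
  rw [Valuation.comap_apply]
  change _ ≤ v ((aeval (⟨t, ht⟩ : U) f : U) : Ω)
  rw [coe_aeval]
  exact hv.coeff_le f i

end levels

section consts

variable {p : ℕ} [hp : Fact p.Prime] {k : Type*} [Field k] [Algebra ℚ_[p] k]
  {Ω : Type*} [Field Ω] [Algebra k Ω] {v w : Valuation Ω ℝ≥0}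

/-- the norm of the constants -/
noncomputable abbrev nv (v : Valuation Ω ℝ≥0) (C : IntermediateField k Ω) : Valuation C ℝ≥0 :=
  v.comap (algebraMap C Ω)

/-- all norms agree on the algebraic constants -/
theorem cst_unique [FiniteDimensional ℚ_[p] k] (hv : ExtendsPadicNorm k Ω p v)
    (hw : ExtendsPadicNorm k Ω p w) (c : Ω) (hc : c ∈ algebraicClosure k Ω) : w c = v c := by
  letI : Algebra ℚ_[p] (algebraicClosure k Ω) := Set_803.algQ p (algebraicClosure k Ω)
  haveI : IsScalarTower ℚ_[p] k (algebraicClosure k Ω) := IsScalarTower.of_algebraMap_eq fun _ => rfl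
  haveI : Algebra.IsAlgebraic ℚ_[p] k := Algebra.IsAlgebraic.of_finite _ _
  haveI : Algebra.IsAlgebraic ℚ_[p] (algebraicClosure k Ω) := Algebra.IsAlgebraic.trans ℚ_[p] k _
  have h := RZ_365.ext_unique (k := ℚ_[p]) (C := algebraicClosure k Ω)
    (n1 := nv w (algebraicClosure k Ω)) (n2 := nv v (algebraicClosure k Ω))
    ⟨(p : ℚ_[p]), by
      exact_mod_cast hp.out.ne_zero, by
      rw [Padic.norm_p]
      exact inv_lt_one_of_one_lt₀ (by exact_mod_cast hp.out.one_lt)⟩
    (fun q => hw q) (fun q => hv q)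
  exact congrFun (congrArg (fun (n : Valuation (algebraicClosure k Ω) ℝ≥0) => (n : _ → ℝ≥0)) h)
    ⟨c, hc⟩

theorem natCast_val (hv : ExtendsPadicNorm k Ω p v) (l : ℕ) : v (l : Ω) = ‖(l : ℚ_[p])‖₊ := by
  have h1 := hv (l : ℚ_[p])
  rwa [map_natCast, map_natCast] at h1

/-- the Gauss norm of `GOOD` in the form `IsG` -/
theorem isG_of_gaussAt {C : IntermediateField k Ω} {t : Ω} (hG : GaussAt C t v) :
    IsG (nv v C) v t := by
  refine ⟨fun c => rfl, (Set_803.gaussAt_norm hG).le, fun f i => ?_⟩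
  rw [← Set_803.psum_eq_aeval f t (max f.natDegree i + 1) (by omega),
    hG _ _ (fun i => (f.coeff i : C).2)]
  exact Finset.le_sup (f := fun i => v ((f.coeff i : C) : Ω))
      (s := Finset.range (max f.natDegree i + 1)) (b := i) (by simp)

/-- over all algebraic constants -/
theorem isG_closure {C : IntermediateField k Ω} (hC : C ≤ algebraicClosure k Ω) {t : Ω}
    (hG : GaussAt C t v) : IsG (nv v (algebraicClosure k Ω)) v t := by
  letI : Algebra C (algebraicClosure k Ω) := (IntermediateField.inclusion hC).toRingHom.toAlgebra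
  haveI : IsScalarTower C (algebraicClosure k Ω) Ω := IsScalarTower.of_algebraMap_eq fun _ => rfl
  haveI : IsScalarTower k C (algebraicClosure k Ω) := IsScalarTower.of_algebraMap_eq fun _ => rfl
  haveI : Algebra.IsAlgebraic C (algebraicClosure k Ω) := Algebra.IsAlgebraic.tower_top (K := k) C
  exact isG_ext (k := C) (C := algebraicClosure k Ω) (fun c => rfl) (isG_of_gaussAt hG)
    (fun c => rfl)

end consts

section vertex

variable {k K Ω : Type*} [Field k] [Field K] [Field Ω] [Algebra k K] [Algebra k Ω] [Algebra K Ω]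
  [IsScalarTower k K Ω] {v : Valuation Ω ℝ≥0}

theorem dense_lv {D : IntermediateField k Ω} {L : IntermediateField K Ω} {t : Ω}
    (hd : ∀ a ∈ L, a ∈ cl v (IntermediateField.adjoin D {t} : Set Ω)) {a : Ω} (ha : a ∈ lv L D) :
    a ∈ cl v (IntermediateField.adjoin D {t} : Set Ω) := by
  refine mem_of_mem_sup L (D : Set Ω)
    (Unr11_957.clF v (IntermediateField.adjoin D {t})).toSubfield (fun a ha => hd a ha) ?_ ha
  intro c hc
  exact Unr11_957.subset_cl (w := v) _
    ((IntermediateField.adjoin D {t}).algebraMap_mem (⟨c, hc⟩ : D))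

/-- **The vertex**: `z` is not an `l`-th power up to `1`-units over the constants `D`. -/
theorem not_pow_lv [CharZero Ω] {p : ℕ} (hp : p.Prime) (hvp : v (p : Ω) < 1)
    {D : IntermediateField k Ω} {L M : IntermediateField K Ω} {t : Ω} (ht : t ∈ L)
    (hG : IsG (nv v D) v t) (hd : ∀ a ∈ L, a ∈ cl v (IntermediateField.adjoin D {t} : Set Ω))
    {n : ℕ} {ζ y : Ω} (hζD : ζ ∈ D) (hζ : IsPrimitiveRoot ζ (p ^ n)) (hy : y ^ p ^ n ∈ L)
    (hM : M = L ⊔ IntermediateField.adjoin K {y}) {z : Ω} (hz : z ∈ M) {m : ℕ}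
    (hpm : p.Coprime m) (hm : 0 < m) (hAS : v (z ^ p - z - t ^ m) < 1) {l : ℕ} (hl : 1 < l)
    (hpl : p.Coprime l) {g : Ω} (hg : g ∈ lv M D) : ¬ v (g ^ l - z) < 1 := by
  have hLM : L ≤ M := by rw [hM]; exact le_sup_left
  have hyM : y ∈ M := by
    rw [hM]
    exact (le_sup_right : IntermediateField.adjoin K {y} ≤ _)
      (IntermediateField.mem_adjoin_simple_self K y)
  letI aL : Algebra D (lv L D) := algCU D (lv L D) fun c hc => mem_lv hc
  letI aM : Algebra D (lv M D) := algCU D (lv M D) fun c hc => mem_lv hc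
  letI aLM : Algebra (lv L D) (lv M D) :=
    (IntermediateField.inclusion (lv_mono hLM le_rfl)).toRingHom.toAlgebra
  haveI : IsScalarTower D (lv L D) (lv M D) := IsScalarTower.of_algebraMap_eq fun _ => rfl
  haveI : CharZero (lv L D) := charZero_of_injective_algebraMap
    (R := ℚ) (algebraMap ℚ (lv L D)).injective
  have htL : t ∈ lv L D := le_lv _ _ ht
  set tL : lv L D := ⟨t, htL⟩ with htLdef
  have hw : IsG (nv v D) (v.comap (algebraMap (lv M D) Ω)) (algebraMap (lv L D) (lv M D) tL) :=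
    isG_restrict (fun c hc => mem_lv hc) hG (le_lv _ _ (hLM ht))
  have hvt : ∀ f : D[X], v.comap (algebraMap (lv M D) Ω)
      (aeval (algebraMap (lv L D) (lv M D) tL) f) = v (aeval t f) := by
    intro f
    rw [Valuation.comap_apply]
    change v ((aeval (⟨t, le_lv _ _ (hLM ht)⟩ : lv M D) f : lv M D) : Ω) = _
    rw [coe_aeval]
  -- Kummer theory
  have hζL : IsPrimitiveRoot (⟨ζ, mem_lv hζD⟩ : lv L D) (p ^ n) :=
    IsPrimitiveRoot.of_map_of_injective (f := algebraMap (lv L D) Ω) hζ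
      (algebraMap (lv L D) Ω).injective
  have htop : (lv L D)⟮(⟨y, le_lv _ _ hyM⟩ : lv M D)⟯ = ⊤ := by
    rw [eq_top_iff]
    rintro ⟨a, ha⟩ -
    set A : IntermediateField (lv L D) (lv M D) :=
      (lv L D)⟮(⟨y, le_lv _ _ hyM⟩ : lv M D)⟯ with hA
    set T : Subfield Ω := A.toSubfield.map ((lv M D).val : lv M D →+* Ω) with hT
    have hmem : ∀ u : lv M D, (u : Ω) ∈ T ↔ u ∈ A := by
      intro u
      rw [hT, Subfield.mem_map]
      constructor
      · rintro ⟨u', hu', h⟩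
        have : u' = u := Subtype.ext h
        rw [← this]; exact hu'
      · intro h
        exact ⟨u, h, rfl⟩
    have hLT : ∀ b (hb : b ∈ lv L D), b ∈ T := by
      intro b hb
      have h1 : b = ((algebraMap (lv L D) (lv M D) ⟨b, hb⟩ : lv M D) : Ω) := rfl
      rw [h1, hmem]
      exact A.algebraMap_mem _
    have hyT : y ∈ T := (hmem ⟨y, le_lv _ _ hyM⟩).2 (IntermediateField.mem_adjoin_simple_self _ _)
    have hMT : ∀ b ∈ M, b ∈ T := by
      intro b hb
      refine mem_of_mem_sup L {y} T (fun b hb => hLT b (le_lv _ _ hb)) ?_ (by rw [← hM]; exact hb)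
      intro b hb
      rw [Set.mem_singleton_iff.1 hb]; exact hyT
    have h1 : a ∈ T := mem_of_mem_sup M (D : Set Ω) T hMT (fun c hc => hLT c (mem_lv hc)) ha
    exact (hmem ⟨a, ha⟩).1 h1
  obtain ⟨i1, i2, s, hs⟩ := kummer_finrank (F := lv L D) (E := lv M D) hp hζL
    (y := ⟨y, le_lv _ _ hyM⟩) (a := ⟨y ^ p ^ n, le_lv _ _ hy⟩) (Subtype.ext rfl) htop
  -- rational residues
  have hres : NP_168.ResRat (nv v D) (v.comap (algebraMap (lv M D) Ω)) tL := by
    intro a ha
    have ha' : v (a : Ω) ≤ 1 := ha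
    obtain ⟨b, hb, hab⟩ := dense_lv hd a.2 1 one_pos
    obtain ⟨r, q, hrq⟩ := (IntermediateField.mem_adjoin_simple_iff D b).1 hb
    have key : ∃ P Q : D[X], Q ≠ 0 ∧ b = aeval t P / aeval t Q := by
      by_cases hq : q = 0
      · refine ⟨0, 1, one_ne_zero, ?_⟩
        rw [hrq, hq, map_zero, div_zero, zero_div]
      · exact ⟨r, q, hq, hrq⟩
    obtain ⟨P, Q, hQ, hbPQ⟩ := key
    rw [hbPQ] at hab
    obtain ⟨f, q', hf, hq', hq1, hfq⟩ := exists_rat_res hG ha' hQ hab
    refine ⟨f, q', hf, hq', ?_, ?_⟩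
    · rw [hvt]; exact hq1
    · rw [Valuation.comap_apply, map_sub, map_mul]
      change v ((a : Ω) * ((aeval (⟨t, le_lv _ _ (hLM ht)⟩ : lv M D) q' : lv M D) : Ω) -
        ((aeval (⟨t, le_lv _ _ (hLM ht)⟩ : lv M D) f : lv M D) : Ω)) < 1
      rw [coe_aeval, coe_aeval]
      exact hfq
  have hres' := NP_168.not_pow_vertex (k := D) (L := lv L D) (M := lv M D) (v0 := nv v D)
    (w := v.comap (algebraMap (lv M D) Ω)) (t := tL) hp (by
      change v ((p : D) : Ω) < 1
      have : ((p : D) : Ω) = (p : Ω) := by simp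
      rw [this]; exact hvp) hs hw hres (y := ⟨z, le_lv _ _ hz⟩) (a := 1) (map_one _) hpm hm (by
      rw [map_one, one_mul, Valuation.comap_apply]
      exact hAS) hl hpl ⟨g, hg⟩
  intro h
  exact hres' h

end vertex

section main

theorem close_of_unit {F : Type*} [Field F] {w : Valuation F ℝ≥0} {h g : F} (hg : g ≠ 0)
    (h1 : w (h / g - 1) < 1) : w (h - g) < w h := by
  have h2 := LiftF_168.val_of_sub_lt w h1
  have hwg : w g ≠ 0 := (Valuation.ne_zero_iff _).2 hg
  rw [map_div₀, div_eq_one_iff_eq hwg] at h2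
  rw [h2]
  have h3 : h - g = (h / g - 1) * g := by
    rw [sub_mul, div_mul_cancel₀ _ hg, one_mul]
  rw [h3, map_mul]
  calc w (h / g - 1) * w g < 1 * w g := mul_lt_mul_of_pos_right h1 (pos_iff_ne_zero.2 hwg)
    _ = w g := one_mul _

universe u

variable {p : ℕ} [hp : Fact p.Prime] {k : Type*} [Field k] [CharZero k] [Algebra ℚ_[p] k]
  [FiniteDimensional ℚ_[p] k] {K : Type*} [Field K] [Algebra k K] [Algebra (RatFunc k) K]
  [IsScalarTower k (RatFunc k) K] [FiniteDimensional (RatFunc k) K]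
  {Ω : Type u} [Field Ω] [Algebra k Ω] [Algebra K Ω] [IsScalarTower k K Ω] [IsAlgClosed Ω]
  [Algebra.IsAlgebraic K Ω]

/-- the finite level: from the output of `LiftB_168.stage1` over `D` to the function `h` -/
theorem finite_part {v : Valuation Ω ℝ≥0} (hv : ExtendsPadicNorm k Ω p v)
    {M : IntermediateField K Ω} [FiniteDimensional K M] {D : IntermediateField k Ω}
    [Algebra.IsAlgebraic k D] {C2 : IntermediateField k Ω} [FiniteDimensional k C2] (hC2D : C2 ≤ D)
    {l : ℕ} (hpl : p.Coprime l) {h0 zc w0 : Ω} (hh0U : h0 ∈ lv M C2) (hzcU : zc ∈ lv M C2)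
    (hw0C2 : w0 ∈ C2) (h00 : h0 ≠ 0) (hzct : Transcendental C2 (zc : Ω)) {e : ℕ} (hw00 : w0 ≠ 0)
    (hw01 : v w0 < 1) (hw0e : v (p : Ω) < v w0 ^ e) (G : Finset (lv M C2)) (hG0 : ∀ g ∈ G, g ≠ 0)
    (hGG : letI := algCU D (lv M D) fun _ hc => mem_lv hc
      ∀ O : ValuationSubring (lv M D), (∀ c, nv v D c ≤ 1 → algebraMap D (lv M D) c ∈ O) →
        O.valuation ⟨zc, lv_mono le_rfl hC2D hzcU⟩ < 1 →
        O.valuation (algebraMap D (lv M D) (p : D) / ⟨zc, lv_mono le_rfl hC2D hzcU⟩ ^ e) < 1 →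
        ∃ g ∈ G, O.valuation (⟨h0, lv_mono le_rfl hC2D hh0U⟩ *
          ⟨(g : Ω), lv_mono le_rfl hC2D g.2⟩ ^ l - 1) < 1)
    (hBB : letI := algCU D (lv M D) fun _ hc => mem_lv hc
      ∀ (u : Valuation (lv M D) ℝ≥0) (O : ValuationSubring (lv M D)),
        LiftB_168.Below (nv v D) u O → u ⟨h0, lv_mono le_rfl hC2D hh0U⟩ ≠ 1 →
        O.valuation ⟨zc, lv_mono le_rfl hC2D hzcU⟩ < 1) :
    ∃ h : lv M C2, h ≠ 0 ∧
      (∀ w : Valuation (lv M C2) ℝ≥0, (∀ (c : Ω) (hc : c ∈ C2), w ⟨c, mem_lv hc⟩ = v c) →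
        (w ⟨zc, hzcU⟩ < 1 → ∃ g : lv M C2, g ≠ 0 ∧ w (h / g ^ l - 1) < 1) ∧
        (1 ≤ w ⟨zc, hzcU⟩ → ∃ g : lv M C2, g ≠ 0 ∧ w (h / (⟨h0, hh0U⟩ * g ^ l) - 1) < 1)) ∧
      (∀ u : Valuation (lv M C2) ℝ≥0, IsPlace k u → ∃ a, u h = u a ^ l) := by
  have hcK : CharZero K := charZero_of_injective_algebraMap (algebraMap k K).injective
  have hcΩ : CharZero Ω := charZero_of_injective_algebraMap (algebraMap k Ω).injective
  letI iN : NontriviallyNormedField C2 := Set_803.nC hv C2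
  haveI iN1 : IsUltrametricDist C2 := Set_803.ultra_nC hv C2
  haveI iN2 : CompleteSpace C2 := Set_803.complete_nC hv C2
  obtain ⟨ϖ, hϖ⟩ := Set_803.exists_unif hv C2
  have hnorm : ∀ c : C2, ‖c‖₊ = v (c : Ω) := by
    intro c
    apply NNReal.eq
    exact Set_803.norm_nC hv C2 c
  letI aM : Algebra D (lv M D) := algCU D (lv M D) fun c hc => mem_lv hc
  letI aU : Algebra C2 (lv M C2) := algCU C2 (lv M C2) fun c hc => mem_lv hc
  letI aCD : Algebra C2 D := (IntermediateField.inclusion hC2D).toRingHom.toAlgebra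
  letI aCK : Algebra C2 (lv M D) := algCU C2 (lv M D) fun c hc => mem_lv (hC2D hc)
  letI aUK : Algebra (lv M C2) (lv M D) :=
    (IntermediateField.inclusion (lv_mono le_rfl hC2D)).toRingHom.toAlgebra
  haveI t1 : IsScalarTower C2 D (lv M D) := IsScalarTower.of_algebraMap_eq fun _ => rfl
  haveI t2 : IsScalarTower C2 (lv M C2) (lv M D) := IsScalarTower.of_algebraMap_eq fun _ => rfl
  haveI t3 : IsScalarTower K (lv M C2) (lv M D) := IsScalarTower.of_algebraMap_eq fun _ => rfl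
  haveI t4 : IsScalarTower k C2 D := IsScalarTower.of_algebraMap_eq fun _ => rfl
  haveI t5 : IsScalarTower C2 (lv M C2) Ω := IsScalarTower.of_algebraMap_eq fun _ => rfl
  haveI a1 : Algebra.IsAlgebraic C2 D := Algebra.IsAlgebraic.tower_top (K := k) C2
  haveI a2 : Algebra.IsAlgebraic k C2 := Algebra.IsAlgebraic.of_finite _ _
  haveI a3 : Algebra.IsAlgebraic (lv M C2) (lv M D) :=
    Algebra.IsAlgebraic.tower_top (K := K) (lv M C2)
  haveI a4 : CharZero C2 := charZero_of_injective_algebraMap (algebraMap k C2).injective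
  have hfdU : ∀ z : lv M C2, Transcendental C2 z →
      FiniteDimensional (IntermediateField.adjoin C2 {z}) (lv M C2) :=
    fd_level M C2 (lv M C2) rfl fun c hc => mem_lv hc
  have hzct' : Transcendental C2 (⟨zc, hzcU⟩ : lv M C2) := by
    intro h
    exact hzct (h.algebraMap (A := Ω))
  have hlv : v (l : Ω) = 1 := by
    rw [natCast_val hv]
    apply NNReal.eq
    rw [coe_nnnorm, NNReal.coe_one]
    exact Padic.norm_natCast_eq_one_iff.2 hpl
  have hpD : ((p : D) : Ω) = (p : Ω) := by simp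
  have hlC : ‖(l : C2)‖ = 1 := by
    have h1 : ‖(l : C2)‖₊ = 1 := by
      rw [hnorm]
      have h2 : ((l : C2) : Ω) = (l : Ω) := by simp
      rw [h2, hlv]
    rw [← coe_nnnorm, h1, NNReal.coe_one]
  have hh0' : (⟨h0, hh0U⟩ : lv M C2) ≠ 0 := fun h =>
    h00 (congrArg (fun x : lv M C2 => (x : Ω)) h)
  have hw0' : (⟨w0, hw0C2⟩ : C2) ≠ 0 := fun h => hw00 (congrArg (fun x : C2 => (x : Ω)) h)
  have hw01' : ‖(⟨w0, hw0C2⟩ : C2)‖ < 1 := by
    rw [← coe_nnnorm, hnorm]
    exact_mod_cast hw01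
  have hw0e' : nv v D (p : D) < ‖(⟨w0, hw0C2⟩ : C2)‖₊ ^ e := by
    rw [hnorm]
    change v ((p : D) : Ω) < _
    rw [hpD]
    exact hw0e
  obtain ⟨h, hh0', hnorms, hplaces⟩ := LiftF_168.stage2 (L := C2) hϖ (K' := lv M C2) (C := D)
    (Kc := lv M D) hfdU (nv v D) (fun c => (hnorm c).symm) (N := l) hlC (h0 := ⟨h0, hh0U⟩)
    (z := ⟨zc, hzcU⟩) hh0' hzct' (w0 := ⟨w0, hw0C2⟩) hw0' hw01' (e := e) (π := (p : D)) hw0e'
    G hG0 hGG hBB
  refine ⟨h, hh0', fun w hw => hnorms w fun c => ?_, fun u hu => hplaces u fun c hc => ?_⟩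
  · rw [hnorm]
    exact hw c c.2
  · exact Unr9_957.trivial_of_trivial (F := k) (u.comap (algebraMap C2 (lv M C2)))
        (fun x hx => hu.1 x hx) c hc

/-- choice of the finite level -/
theorem exists_level {M : IntermediateField K Ω} {D C : IntermediateField k Ω}
    [Algebra.IsAlgebraic k D] [FiniteDimensional k C] (hCD : C ≤ D) (F : Finset Ω)
    (hF : ∀ f ∈ F, f ∈ lv M D) {w0 : Ω} (hw0 : w0 ∈ D) :
    ∃ C2 : IntermediateField k Ω, FiniteDimensional k C2 ∧ C ≤ C2 ∧ C2 ≤ D ∧ w0 ∈ C2 ∧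
      ∀ f ∈ F, f ∈ lv M C2 := by
  obtain ⟨C', hC'D, hC'fd, hC'⟩ := exists_lv_finset (M := M) (C := D) F hF
  have hint : IsIntegral k w0 := by
    have h2 : IsIntegral k (⟨w0, hw0⟩ : D) := Algebra.IsIntegral.isIntegral _
    exact h2.map D.val
  haveI hw0fd : FiniteDimensional k (IntermediateField.adjoin k {w0}) :=
    IntermediateField.adjoin.finiteDimensional hint
  haveI : FiniteDimensional k (C' ⊔ IntermediateField.adjoin k {w0} : IntermediateField k Ω) :=
      IntermediateField.finiteDimensional_sup _ _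
  refine ⟨C ⊔ (C' ⊔ IntermediateField.adjoin k {w0}), IntermediateField.finiteDimensional_sup _ _,
    le_sup_left, sup_le hCD (sup_le hC'D ?_), ?_, fun f hf => ?_⟩
  · rw [IntermediateField.adjoin_simple_le_iff]
    exact hw0
  · exact (le_sup_right.trans le_sup_right : IntermediateField.adjoin k {w0} ≤
      C ⊔ (C' ⊔ IntermediateField.adjoin k {w0})) (IntermediateField.mem_adjoin_simple_self k _)
  · exact lv_mono le_rfl (le_sup_left.trans le_sup_right) (hC' f hf)

/-- **LIFT-L** from (V1), (V2), constants `D`. -/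
theorem liftV_aux {v : Valuation Ω ℝ≥0} (hv : ExtendsPadicNorm k Ω p v)
    {C D : IntermediateField k Ω} [FiniteDimensional k C] [IsAlgClosed D]
    [Algebra.IsAlgebraic k D] (hCD : C ≤ D)
    (hDu : ∀ w : Valuation Ω ℝ≥0, ExtendsPadicNorm k Ω p w → ∀ c : D, w (c : Ω) = v (c : Ω))
    {M : IntermediateField K Ω} [FiniteDimensional K M] {t : Ω} (ht : t ∈ M)
    (hGD : IsG (nv v D) v t) {l : ℕ} (hl0 : l ≠ 0) (hpl : p.Coprime l) {z : Ω} (hzM : z ∈ lv M D)
    (hvz : v z = 1)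
    (hV1 : ∀ A : ValuationSubring (lv M D), (∀ a ∈ A, v (a : Ω) ≤ 1) →
      ∃ g : lv M D, g ≠ 0 ∧ A.valuation (⟨z, hzM⟩ * g ^ l) = 1)
    (hV2 : ∀ g ∈ lv M D, ¬ v (z - g ^ l) < 1) :
    ∃ (C1 : IntermediateField k Ω) (h : Ω) (hU : h ∈ lv M C1), FiniteDimensional k C1 ∧ C ≤ C1 ∧
      C1 ≤ D ∧ h ≠ 0 ∧
      (∀ u : Valuation (lv M C1) ℝ≥0, IsPlace k u → ∃ a, u ⟨h, hU⟩ = u a ^ l) ∧
      (∀ w : Valuation Ω ℝ≥0, ExtendsPadicNorm k Ω p w → 1 < w t →
        ∃ g ∈ lv M C1, w (h - g ^ l) < w h) ∧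
      (∀ g ∈ lv M D, ¬ v (h - g ^ l) < v h) := by
  classical
  have hcK : CharZero K := charZero_of_injective_algebraMap (algebraMap k K).injective
  have hcΩ : CharZero Ω := charZero_of_injective_algebraMap (algebraMap k Ω).injective
  have hvp : v (p : Ω) = (p : ℝ≥0)⁻¹ := Set_803.val_p hv
  have hp1 : (p : ℝ≥0)⁻¹ < 1 := inv_lt_one_of_one_lt₀ (by exact_mod_cast hp.out.one_lt)
  -- the level of `D`
  letI aM : Algebra D (lv M D) := algCU D (lv M D) fun c hc => mem_lv hc
  have hfd : ∀ z : lv M D, Transcendental D z →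
      FiniteDimensional (IntermediateField.adjoin D {z}) (lv M D) :=
    fd_level M D (lv M D) rfl fun c hc => mem_lv hc
  set vM : Valuation (lv M D) ℝ≥0 := v.comap (algebraMap (lv M D) Ω) with hvM
  have htM : t ∈ lv M D := le_lv _ _ ht
  have hGM : IsG (nv v D) vM (⟨t, htM⟩ : lv M D) := isG_restrict (fun c hc => mem_lv hc) hGD htM
  have hpD : ((p : D) : Ω) = (p : Ω) := by simp
  obtain ⟨h0, zc, e, G, h00, hzct, hzcG, hh0, hzc1, hG0, hGG, hBB⟩ :=
    LiftB_168.stage1V hfd (nv v D) (π := (p : D)) (by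
      intro h
      exact hp.out.ne_zero (by exact_mod_cast h)) (by
      change v ((p : D) : Ω) < 1
      rw [hpD, hvp]; exact hp1) hGM hl0 (y := ⟨z, hzM⟩) hvz hV1
  -- the radius `|w0|`
  obtain ⟨w0, hw0⟩ := IsAlgClosed.exists_pow_nat_eq (p : D) (Nat.succ_pos e)
  have hw0v : v (w0 : Ω) ^ (e + 1) = (p : ℝ≥0)⁻¹ := by
    rw [← map_pow, ← hvp, ← hpD, ← hw0]
    rfl
  have hp0 : (0 : ℝ≥0) < (p : ℝ≥0)⁻¹ := inv_pos.2 (by exact_mod_cast hp.out.pos)
  have hw00 : v (w0 : Ω) ≠ 0 := by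
    intro h
    rw [h, zero_pow (Nat.succ_ne_zero e)] at hw0v
    exact hp0.ne hw0v
  have hw01 : v (w0 : Ω) < 1 := by
    by_contra hcon
    push Not at hcon
    have := one_le_pow₀ hcon (n := e + 1)
    rw [hw0v] at this
    exact absurd hp1 (not_lt.2 this)
  have hw0e : v (p : Ω) < v (w0 : Ω) ^ e := by
    rw [hvp, ← hw0v, pow_succ]
    exact mul_lt_of_lt_one_right (pow_pos (pos_iff_ne_zero.2 hw00) e) hw01
  -- the finite level
  obtain ⟨C2, hC2fd, hCC2, hC2D, hw0C2, hF⟩ := exists_level (M := M) hCD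
    (insert (h0 : Ω) (insert (zc : Ω) (G.image (fun g : lv M D => (g : Ω))))) (by
      intro f hf
      rcases Finset.mem_insert.1 hf with rfl | hf
      · exact h0.2
      rcases Finset.mem_insert.1 hf with rfl | hf
      · exact zc.2
      obtain ⟨g, -, rfl⟩ := Finset.mem_image.1 hf
      exact g.2) w0.2
  have hh0U : (h0 : Ω) ∈ lv M C2 := hF _ (Finset.mem_insert_self _ _)
  have hzcU : (zc : Ω) ∈ lv M C2 :=
    hF _ (Finset.mem_insert_of_mem (Finset.mem_insert_self _ _))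
  have hGU : ∀ g ∈ G, (g : Ω) ∈ lv M C2 := fun g hg =>
    hF _ (Finset.mem_insert_of_mem (Finset.mem_insert_of_mem (Finset.mem_image_of_mem _ hg)))
  have hzct' : Transcendental C2 (zc : Ω) := by
    letI aCD : Algebra C2 D := (IntermediateField.inclusion hC2D).toRingHom.toAlgebra
    haveI : IsScalarTower C2 D Ω := IsScalarTower.of_algebraMap_eq fun _ => rfl
    haveI : IsScalarTower D (lv M D) Ω := IsScalarTower.of_algebraMap_eq fun _ => rfl
    intro h
    apply hzct
    have h1 : IsAlgebraic D (zc : Ω) := h.extendScalars (algebraMap C2 D).injective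
    exact (isAlgebraic_algebraMap_iff (algebraMap (lv M D) Ω).injective).1 h1
  obtain ⟨h, hh0', hnorms, hplaces⟩ := finite_part hv hC2D hpl hh0U hzcU hw0C2
    (fun hh => h00 (Subtype.ext hh)) hzct' (e := e) (fun hh => hw00 (by rw [hh, map_zero])) hw01
    hw0e (G.attach.image fun g => ⟨(g.1 : Ω), hGU g.1 g.2⟩) (by
      intro g hg
      obtain ⟨g', -, rfl⟩ := Finset.mem_image.1 hg
      intro h
      exact hG0 g'.1 g'.2 (Subtype.ext (congrArg (fun x : lv M C2 => (x : Ω)) h))) (by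
      intro O hO1 hO2 hO3
      obtain ⟨g, hg, hg1⟩ := hGG O hO1 hO2 hO3
      exact ⟨⟨(g : Ω), hGU g hg⟩, Finset.mem_image.2 ⟨⟨g, hg⟩, Finset.mem_attach _ _, rfl⟩, hg1⟩)
    hBB
  refine ⟨C2, h, h.2, hC2fd, hCC2, hC2D, fun hh => hh0' (Subtype.ext hh), hplaces, ?_, ?_⟩
  · -- norms
    intro w hw hwt
    have hwz : w (zc : Ω) < 1 :=
      hzc1 (w.comap (algebraMap (lv M D) Ω)) (fun c => hDu w hw c) hwt
    obtain ⟨g, hg0, hg⟩ := (hnorms (w.comap (algebraMap (lv M C2) Ω)) (fun c hc =>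
      hDu w hw ⟨c, hC2D hc⟩)).1 hwz
    refine ⟨g, g.2, ?_⟩
    have hg0' : (g : Ω) ^ l ≠ 0 := pow_ne_zero _ (fun hh => hg0 (Subtype.ext hh))
    exact close_of_unit hg0' hg
  · -- the vertex
    intro g hg hvg
    have hvzc : v (zc : Ω) = 1 := hzcG.val_eq_one
    obtain ⟨a, ha0, ha⟩ := (hnorms (v.comap (algebraMap (lv M C2) Ω)) (fun c hc => rfl)).2 hvzc.ge
    have hh : (h : Ω) ≠ 0 := fun hh => hh0' (Subtype.ext hh)
    have ha0' : (a : Ω) ≠ 0 := fun hh => ha0 (Subtype.ext hh)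
    have ha0l : (a : Ω) ^ l ≠ 0 := pow_ne_zero _ ha0'
    have h000 : (h0 : Ω) ≠ 0 := fun hh => h00 (Subtype.ext hh)
    have ha' : v ((h : Ω) / (h0 * (a : Ω) ^ l) - 1) < 1 := ha
    have hh0v : v ((h0 : Ω) - z) < 1 := hh0
    have hvh0 : v (h0 : Ω) = 1 := by
      have h1 : (h0 : Ω) = z + (h0 - z) := by ring
      rw [h1, Valuation.map_add_eq_of_lt_left _ (by rw [hvz]; exact hh0v), hvz]
    -- `g ^ l / h` is a `1`-unit
    have hvh : v (h : Ω) ≠ 0 := (Valuation.ne_zero_iff _).2 hh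
    have h1 : v ((g ^ l) / (h : Ω) - 1) < 1 := by
      have h2 : (g ^ l) / (h : Ω) - 1 = -((h : Ω) - g ^ l) / h := by
        rw [neg_sub, sub_div, div_self hh]
      rw [h2, map_div₀, Valuation.map_neg]
      exact (div_lt_one₀ (pos_iff_ne_zero.2 hvh)).2 hvg
    have h2 := LiftF_168.mul_unit v h1 ha'
    have h3 : (g ^ l) / (h : Ω) * ((h : Ω) / (h0 * (a : Ω) ^ l)) = (g / a) ^ l / h0 := by
      rw [div_pow]
      field_simp
    rw [h3] at h2
    have h4 : v ((g / a) ^ l - h0) < 1 := by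
      have := close_of_unit h000 h2
      have h5 := LiftF_168.val_of_sub_lt v h2
      rw [map_div₀, hvh0, div_one] at h5
      rwa [h5] at this
    have h5 : v (z - (g / a) ^ l) < 1 := by
      have h6 : z - (g / a) ^ l = -(((g / a) ^ l - h0) + (h0 - z)) := by ring
      rw [h6, Valuation.map_neg]
      exact Valuation.map_add_lt _ h4 hh0v
    have hgaD : g / (a : Ω) ∈ lv M D := div_mem hg (lv_mono le_rfl hC2D a.2)
    exact hV2 _ hgaD h5

/-- **LIFT-L**, constants `D`. -/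
theorem liftL_aux {v : Valuation Ω ℝ≥0} (hv : ExtendsPadicNorm k Ω p v)
    {C D : IntermediateField k Ω} [FiniteDimensional k C] [IsAlgClosed D]
    [Algebra.IsAlgebraic k D] (hCD : C ≤ D)
    (hDu : ∀ w : Valuation Ω ℝ≥0, ExtendsPadicNorm k Ω p w → ∀ c : D, w (c : Ω) = v (c : Ω))
    {L M : IntermediateField K Ω} [FiniteDimensional K M] {t : Ω} (ht : t ∈ L)
    (hGD : IsG (nv v D) v t) (hd : ∀ a ∈ L, a ∈ cl v (IntermediateField.adjoin D {t} : Set Ω))
    {n : ℕ} {ζ y : Ω} (hζD : ζ ∈ D) (hζ : IsPrimitiveRoot ζ (p ^ n)) (hy : y ^ p ^ n ∈ L)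
    (hM : M = L ⊔ IntermediateField.adjoin K {y}) {z : Ω} (hz : z ∈ M) {m : ℕ}
    (hpm : p.Coprime m) (hm : 0 < m) (hAS : v (z ^ p - z - t ^ m) < 1) {l : ℕ} (hl : l.Prime)
    (hlm : l ∣ m) :
    ∃ (C1 : IntermediateField k Ω) (h : Ω) (hU : h ∈ lv M C1), FiniteDimensional k C1 ∧ C ≤ C1 ∧
      h ≠ 0 ∧
      (∀ u : Valuation (lv M C1) ℝ≥0, IsPlace k u → ∃ a, u ⟨h, hU⟩ = u a ^ l) ∧
      (∀ w : Valuation Ω ℝ≥0, ExtendsPadicNorm k Ω p w → 1 < w t →
        ∃ g ∈ lv M C1, w (h - g ^ l) < w h) ∧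
      (∀ g ∈ lv M D, ¬ v (h - g ^ l) < v h) := by
  classical
  have hcK : CharZero K := charZero_of_injective_algebraMap (algebraMap k K).injective
  have hcΩ : CharZero Ω := charZero_of_injective_algebraMap (algebraMap k Ω).injective
  have hLM : L ≤ M := by rw [hM]; exact le_sup_left
  have hvp : v (p : Ω) = (p : ℝ≥0)⁻¹ := Set_803.val_p hv
  have hp1 : (p : ℝ≥0)⁻¹ < 1 := inv_lt_one_of_one_lt₀ (by exact_mod_cast hp.out.one_lt)
  have hpl : p.Coprime l := Nat.Coprime.coprime_dvd_right hlm hpm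
  have hvt : v t = 1 := hGD.val_eq_one
  have hvz : v z = 1 := AVal_168.as_val_eq_one hp.out.one_lt (b := t ^ m)
    (by rw [map_pow, hvt, one_pow]) hAS
  have hzM : z ∈ lv M D := le_lv _ _ hz
  obtain ⟨C1, h, hU, h1, h2, -, h3, h4, h5, h6⟩ :=
    liftV_aux hv hCD hDu (hLM ht) hGD hl.ne_zero hpl hzM hvz
      (fun A hA => LiftB_168.V1_of_as (v := v.comap (algebraMap (lv M D) Ω))
        (t := ⟨t, le_lv _ _ (hLM ht)⟩) (y := ⟨z, hzM⟩) hvt hp.out.one_lt hpm hlm hAS A hA)
      (fun g hg hlt => not_pow_lv hp.out (by rw [hvp]; exact hp1) ht hGD hd hζD hζ hy hM hz hpm hm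
        hAS hl.one_lt hpl hg (by rwa [Valuation.map_sub_swap]))
  exact ⟨C1, h, hU, h1, h2, h3, h4, h5, h6⟩

end main

end Crest.Agent.R013.LiftL_168
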