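import Crest.Agent.R013.LiftL_168
import Crest.Agent.R013.Unr10_957

/-!
# R013 / LiftM (helper168): LIFT-L in the language of `GOOD`

`dense_of_disc` : on the disc, `C(t)` is dense in `L` for `v`.
`liftL_disc` : LIFT-L from the data of `CGood_588.GOOD`, without unramifiedness (`l ∣ div h` on `M C1`).
`liftL` : with `M ≤ maxUnramified k K`: `l`-th roots of `h` lie in `maxUnramified k K`.
-/

set_option autoImplicit false
set_option linter.style.haveILetI false
set_option linter.unusedSectionVars false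

namespace Crest.Agent.R013.LiftM_168

open Polynomial Module IntermediateField Filter Topology
open scoped NNReal
open Crest.NumberTheoryR.Sect
open Crest.Agent.R013.LiftA_168 Crest.Agent.R013.LiftK_168 Crest.Agent.R013.LiftL_168
  Crest.Agent.R013.SE_669 Crest.Agent.R013.CGood_588 Crest.Agent.R013.Set_803
  Crest.Agent.R013.A2a_275

section dense

variable {p : ℕ} [hp : Fact p.Prime] {k : Type*} [Field k] [Algebra ℚ_[p] k]
  [FiniteDimensional ℚ_[p] k] {Ω : Type*} [Field Ω] [Algebra k Ω] {v P : Valuation Ω ℝ≥0}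
  {C : IntermediateField k Ω} [FiniteDimensional k C] {R : ℝ≥0} {x q c : Ω}

/-- On the disc, `C(t)` is dense in `L` for the norm `v`. -/
theorem dense_of_disc (Dd : DiscData p v P C R x q c) {L : Type*} [Field L] [Algebra L Ω]
    (hE : DiscEmb L C P x R v) {D : IntermediateField k Ω} (hCD : C ≤ D) (a : L) :
    algebraMap L Ω a ∈ cl v (IntermediateField.adjoin D {(x - q) / c} : Set Ω) := by
  obtain ⟨G, H, h⟩ := DiscData.isRep_of_discEmb hE a
  set f : Ω := algebraMap L Ω a with hf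
  set F : IntermediateField D Ω := IntermediateField.adjoin D {(x - q) / c} with hF
  have hcF : ∀ b ∈ C, b ∈ F := fun b hb => F.algebraMap_mem (⟨b, hCD hb⟩ : D)
  have hxF : x ∈ F := by
    rw [Dd.x_eq]
    exact add_mem (hcF _ Dd.qC) (mul_mem (hcF _ Dd.cC) (mem_adjoin_simple_self D _))
  have hps : ∀ (G : PowerSeries C) (n : ℕ), psum (cf G) x n ∈ F := by
    intro G n
    exact sum_mem fun i _ => mul_mem (hcF _ (Subtype.mem _)) (pow_mem hxF i)
  -- the limit of the denominators is not zero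
  have hH : evW v C R Dd.hR x Dd.hx ⟨H, mem_BS.2 h.bH⟩ ≠ 0 := by
    intro h0
    have h1 := Dd.evW_injective (h0.trans (map_zero _).symm)
    exact h.ne (congrArg Subtype.val h1)
  set η := evW v C R Dd.hR x Dd.hx ⟨H, mem_BS.2 h.bH⟩ with hη
  have hη0 : 0 < ‖η‖ := norm_pos_iff.2 hH
  have h1 : ∀ᶠ n in atTop, ‖η‖ / 2 < ‖toCpl v (psum (cf H) x n)‖ := by
    have h2 := (tendsto_psum (hR := Dd.hR) (hx := Dd.hx) ⟨H, mem_BS.2 h.bH⟩).norm
    exact h2.eventually_const_lt (by
      change ‖η‖ / 2 < ‖η‖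
      linarith)
  set r : ℝ≥0 := ⟨‖η‖ / 2, by positivity⟩ with hr
  have hr0 : 0 < r := by
    rw [← NNReal.coe_pos]
    change 0 < ‖η‖ / 2
    linarith
  intro ε hε
  have h2 : ∀ᶠ n in atTop, v (f * psum (cf H) x n - psum (cf G) x n) < ε * r :=
    h.lv.eventually_lt_const (mul_pos hε hr0)
  obtain ⟨n, hn1, hn2⟩ := (h1.and h2).exists
  have hn1' : r < v (psum (cf H) x n) := by
    rw [norm_toCpl] at hn1
    exact_mod_cast hn1
  have hHn : psum (cf H) x n ≠ 0 := by
    intro h0
    rw [h0, map_zero] at hn1'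
    exact absurd hn1' (by simp)
  refine ⟨psum (cf G) x n / psum (cf H) x n, div_mem (hps G n) (hps H n), ?_⟩
  have h3 : f - psum (cf G) x n / psum (cf H) x n =
      (f * psum (cf H) x n - psum (cf G) x n) / psum (cf H) x n := by
    rw [sub_div, mul_div_cancel_right₀ _ hHn]
  rw [h3, map_div₀, div_lt_iff₀ (hr0.trans hn1')]
  exact hn2.trans (mul_lt_mul_of_pos_left hn1' hε)

end dense

section levels

variable {k K : Type*} [Field k] [Field K] [Algebra k K] {Ω : Type*} [Field Ω] [Algebra k Ω]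
  [Algebra K Ω] [IsScalarTower k K Ω]

theorem fd_lv [Algebra.IsAlgebraic K Ω] (M : IntermediateField K Ω) [FiniteDimensional K M]
    (C : IntermediateField k Ω) [FiniteDimensional k C] : FiniteDimensional K (lv M C) := by
  haveI : FiniteDimensional K (IntermediateField.adjoin K (C : Set Ω)) := by
    obtain ⟨s, hs⟩ : ∃ s : Finset Ω, IntermediateField.adjoin k (s : Set Ω) = C := by
      have h1 : Algebra.EssFiniteType k C := inferInstance
      exact IntermediateField.essFiniteType_iff.mp h1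
    have h1 : IntermediateField.adjoin K (C : Set Ω) = IntermediateField.adjoin K (s : Set Ω) := by
      apply le_antisymm
      · rw [IntermediateField.adjoin_le_iff]
        intro x hx
        have hx' : x ∈ C := hx
        rw [← hs] at hx'
        have h3 : IntermediateField.adjoin k (s : Set Ω) ≤
            (IntermediateField.adjoin K (s : Set Ω)).restrictScalars k := by
          rw [IntermediateField.adjoin_le_iff]
          exact IntermediateField.subset_adjoin K _
        exact h3 hx'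
      · refine IntermediateField.adjoin.mono _ _ _ ?_
        rw [← hs]
        exact IntermediateField.subset_adjoin _ _
    rw [h1]
    exact IntermediateField.finiteDimensional_adjoin fun x _ => Algebra.IsIntegral.isIntegral x
  unfold lv
  infer_instance

theorem lv_le_maxUnramified [CharZero k] [Algebra (RatFunc k) K] [IsScalarTower k (RatFunc k) K]
    [FiniteDimensional (RatFunc k) K] {M : IntermediateField K (AlgebraicClosure K)}
    (hM : M ≤ maxUnramified k K) (C : IntermediateField k (AlgebraicClosure K))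
    [Algebra.IsAlgebraic k C] : lv M C ≤ maxUnramified k K := by
  rw [lv_le_iff]
  refine ⟨hM, fun c hc => ?_⟩
  have h1 : IsIntegral k (⟨c, hc⟩ : C) := Algebra.IsIntegral.isIntegral _
  exact MaxUnr_97.mem_maxUnramified_of_isIntegral _ (h1.map C.val)

end levels

section main

universe u

variable {p : ℕ} [hp : Fact p.Prime] {k : Type*} [Field k] [CharZero k] [Algebra ℚ_[p] k]
  [FiniteDimensional ℚ_[p] k] {K : Type u} [Field K] [Algebra k K] [Algebra (RatFunc k) K]
  [IsScalarTower k (RatFunc k) K] [FiniteDimensional (RatFunc k) K]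

/-- **LIFT-L** in a general field `Ω`, with the disc data of `GOOD`. -/
theorem liftL_disc {Ω : Type u} [Field Ω] [Algebra k Ω] [Algebra K Ω] [IsScalarTower k K Ω]
    [IsAlgClosed Ω] [Algebra.IsAlgebraic K Ω] {v P : Valuation Ω ℝ≥0}
    {C : IntermediateField k Ω} [FiniteDimensional k C] {R : ℝ≥0} {x q c : Ω}
    (Dd : DiscData p v P C R x q c) {L M : IntermediateField K Ω} [FiniteDimensional K M]
    (hCL : ∀ a ∈ C, a ∈ L) (hxL : x ∈ L) (hE : DiscEmb L C P x R v)
    {n : ℕ} {ζ y : Ω} (hζC : ζ ∈ C) (hζ : IsPrimitiveRoot ζ (p ^ n)) (hy : y ^ p ^ n ∈ L)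
    (hM : M = L ⊔ IntermediateField.adjoin K {y}) {z : Ω} (hz : z ∈ M) {m : ℕ}
    (hpm : ¬ p ∣ m) (hAS : v (z ^ p - z - ((x - q) / c) ^ m) < 1) {l : ℕ} (hl : l.Prime)
    (hlm : l ∣ m) :
    ∃ (C1 : IntermediateField k Ω) (h : Ω) (hU : h ∈ lv M C1), FiniteDimensional k C1 ∧ C ≤ C1 ∧
      h ≠ 0 ∧
      (∀ u : Valuation (lv M C1) ℝ≥0, IsPlace k u → ∃ a, u ⟨h, hU⟩ = u a ^ l) ∧
      (∀ w : Valuation Ω ℝ≥0, ExtendsPadicNorm k Ω p w → 1 < w ((x - q) / c) →
        ∃ g ∈ lv M C1, w (h - g ^ l) < w h) ∧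
      (∀ g ∈ lv M (algebraicClosure k Ω), ¬ v (h - g ^ l) < v h) := by
  have hCD : C ≤ algebraicClosure k Ω := by
    intro c hc
    have h1 : IsIntegral k (⟨c, hc⟩ : C) := Algebra.IsIntegral.isIntegral _
    exact mem_algebraicClosure_iff.2 (h1.map C.val).isAlgebraic
  haveI : IsAlgClosed (algebraicClosure k Ω) := IsAlgClosure.isAlgClosed k
  have htL : (x - q) / c ∈ L := div_mem (sub_mem hxL (hCL _ Dd.qC)) (hCL _ Dd.cC)
  refine liftL_aux Dd.hv hCD (fun w hw c => cst_unique Dd.hv hw c c.2) htL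
    (isG_closure hCD Dd.gauss) (fun a ha => ?_) (hCD hζC) hζ hy hM hz
    ((Nat.Prime.coprime_iff_not_dvd hp.out).2 hpm) (Nat.pos_of_ne_zero ?_) hAS hl hlm
  · exact dense_of_disc Dd hE hCD (⟨a, ha⟩ : L)
  · rintro rfl
    exact hpm (dvd_zero p)

/-- **LIFT-L** (task 641). -/
theorem liftL {v P : Valuation (AlgebraicClosure K) ℝ≥0}
    {C : IntermediateField k (AlgebraicClosure K)} [FiniteDimensional k C] {R : ℝ≥0}
    {x q c : AlgebraicClosure K} (Dd : DiscData p v P C R x q c)
    {L M : IntermediateField K (AlgebraicClosure K)} [FiniteDimensional K M]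
    (hMu : M ≤ maxUnramified k K)
    (hCL : ∀ a ∈ C, a ∈ L) (hxL : x ∈ L) (hE : DiscEmb L C P x R v)
    {n : ℕ} {ζ y : AlgebraicClosure K} (hζC : ζ ∈ C) (hζ : IsPrimitiveRoot ζ (p ^ n))
    (hy : y ^ p ^ n ∈ L) (hM : M = L ⊔ IntermediateField.adjoin K {y}) {z : AlgebraicClosure K}
    (hz : z ∈ M) {m : ℕ} (hpm : ¬ p ∣ m) (hAS : v (z ^ p - z - ((x - q) / c) ^ m) < 1) {l : ℕ}
    (hl : l.Prime) (hlm : l ∣ m) :
    ∃ (C1 : IntermediateField k (AlgebraicClosure K)) (h : AlgebraicClosure K)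
      (hU : h ∈ lv M C1), FiniteDimensional k C1 ∧ C ≤ C1 ∧ h ≠ 0 ∧
      (∀ u : Valuation (lv M C1) ℝ≥0, IsPlace k u → ∃ a, u ⟨h, hU⟩ = u a ^ l) ∧
      (∀ b : AlgebraicClosure K, b ^ l = h → b ∈ maxUnramified k K) ∧
      (∀ w : Valuation (AlgebraicClosure K) ℝ≥0, ExtendsPadicNorm k (AlgebraicClosure K) p w →
        1 < w ((x - q) / c) → ∃ g ∈ lv M C1, w (h - g ^ l) < w h) ∧
      (∀ g ∈ lv M (algebraicClosure k (AlgebraicClosure K)), ¬ v (h - g ^ l) < v h) := by
  obtain ⟨C1, h, hU, h1, h2, h3, h4, h5, h6⟩ :=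
    liftL_disc Dd hCL hxL hE hζC hζ hy hM hz hpm hAS hl hlm
  haveI := h1
  haveI : FiniteDimensional K (lv M C1) := fd_lv M C1
  refine ⟨C1, h, hU, h1, h2, h3, h4, fun b hb => ?_, h5, h6⟩
  have hUu : IsUnramifiedEverywhere k K (lv M C1) :=
    Unr5_957.le_maxUnramified_iff.mp (lv_le_maxUnramified hMu C1)
  exact Unr10_957.kummer_mem_maxUnramified hUu hl.ne_zero (h := ⟨h, hU⟩) h4 hb

end main

end Crest.Agent.R013.LiftM_168
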