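import Crest.Agent.R013.Set12_803
import Crest.Agent.R013.BTor4_914

/-!
# Row 13, B-SET, part 13: the class which is split over the disc
-/

set_option autoImplicit false
set_option linter.unusedSectionVars false
set_option linter.style.haveILetI false

noncomputable section

namespace Crest.Agent.R013.Set_803

open scoped NNReal Topology
open Filter PowerSeries Crest.NumberTheoryR.Sect Crest.Agent.R013.A2a_275 Crest.Agent.R013.Gl946
  Crest.Agent.R013.SE_669 Crest.Agent.R013.CGood_588 Crest.Agent.R013.Annu_930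
  Crest.Agent.R013.Half_930 Crest.Agent.R013.BTor4_914 Crest.Agent.R013.BTor3_914
  Crest.Agent.R013.Good3_940

section Gen

variable {k E : Type*} [NontriviallyNormedField k] [IsUltrametricDist k] [CompleteSpace k]
  [NontriviallyNormedField E] [NormedAlgebra k E] [IsUltrametricDist E] [CompleteSpace E] {y : E}
  (hy : IsGauss k y)

theorem hasSum_evq0 {r : ℝ} {hr : 0 < r} {ρ : k} {hq : ‖(0 : k)‖ < r} {hc : ‖ρ‖ < r}
    (f : KAS3_940.bsub (K := k) r hr) :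
    HasSum (fun n => algebraMap k E (coeff n f.1) * (algebraMap k E ρ * y) ^ n)
      (evq hr hy hq hc f) := by
  have h1 : pt (0 : k) ρ y = algebraMap k E ρ * y := by rw [pt, map_zero, zero_add]
  have h2 := hasSum_ev (k := k) (E := E) (r1 := r) (hr1 := hr) (x := pt (0 : k) ρ y)
    (hx := norm_pt_lt hy hq hc) f
  have h3 : (fun n => algebraMap k E (coeff n f.1) * pt (0 : k) ρ y ^ n) =
      fun n => algebraMap k E (coeff n f.1) * (algebraMap k E ρ * y) ^ n := by rw [h1]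
  rw [h3] at h2
  exact h2

theorem evq0_mem_AP {r : ℝ} {hr : 0 < r} {ρ : k} {hq : ‖(0 : k)‖ < r} {hc : ‖ρ‖ < r}
    (f : KAS3_940.bsub (K := k) r hr) : evq hr hy hq hc f ∈ AP hy := by
  have hcl : IsClosed ((AP hy : Subalgebra k E) : Set E) := isClosed_AP hy
  exact hcl.mem_of_tendsto (hasSum_evq0 hy f).tendsto_sum_nat (Eventually.of_forall fun n =>
    psum_mem_AP hy _ _ _)

theorem evq0_mem_AN {r : ℝ} {hr : 0 < r} {ρ : k} (hρ : ρ ≠ 0) {hq : ‖(0 : k)‖ < r} {hc : ‖ρ‖ < r}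
    {s : ℝ≥0} (hs : 1 < s) (hsr : s * ‖ρ‖ < r) (f : KAS3_940.bsub (K := k) r hr) :
    evq hr hy hq hc f ∈ AN hy hs := by
  obtain ⟨B, hB⟩ := f.2
  have hρ0 : ‖ρ‖₊ ≠ 0 := nnnorm_ne_zero_iff.2 hρ
  refine hasSum_mem_AN_of_bounded hy hs (fun n => coeff n f.1 * ρ ^ n)
    (R := Real.toNNReal r / ‖ρ‖₊) (C := Real.toNNReal B) ?_ (fun n => ?_) ?_
  · rw [lt_div_iff₀ (zero_lt_iff.2 hρ0), ← NNReal.coe_lt_coe, Real.coe_toNNReal _ hr.le]
    push_cast
    exact hsr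
  · rw [nnnorm_mul, nnnorm_pow, div_pow, mul_assoc, mul_div_cancel₀ _ (pow_ne_zero _ hρ0),
      ← NNReal.coe_le_coe, Real.coe_toNNReal _ hB.nonneg]
    push_cast
    rw [Real.coe_toNNReal _ hr.le]
    exact hB n
  · have h2 : (fun n => (coeff n f.1 * ρ ^ n) • y ^ n) =
        fun n => algebraMap k E (coeff n f.1) * (algebraMap k E ρ * y) ^ n := by
      funext n
      rw [Algebra.smul_def, map_mul, map_pow]
      ring
    rw [h2]
    exact hasSum_evq0 hy f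

theorem frq0_mem_FP {r : ℝ} {hr : 0 < r} {ρ : k} (hρ : ρ ≠ 0) {hq : ‖(0 : k)‖ < r} {hc : ‖ρ‖ < r}
    {π : k} (hπ : IsUnif π) (hd : DenseRat k y) (f : FDisc k r hr) :
    frq hr hy hq hc hρ f ∈ FP hy hπ hd := by
  obtain ⟨a, b, hb, rfl⟩ := IsFractionRing.div_surjective (A := KAS3_940.bsub (K := k) r hr) f
  rw [map_div₀, frq_algebraMap, frq_algebraMap]
  exact div_mem (AP_le_FP hy hπ hd (evq0_mem_AP hy a)) (AP_le_FP hy hπ hd (evq0_mem_AP hy b))

theorem frq0_mem_MN {r : ℝ} {hr : 0 < r} {ρ : k} (hρ : ρ ≠ 0) {hq : ‖(0 : k)‖ < r} {hc : ‖ρ‖ < r}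
    {s : ℝ≥0} (hs : 1 < s) (hsr : s * ‖ρ‖ < r) (f : FDisc k r hr) :
    frq hr hy hq hc hρ f ∈ MN hy hs := by
  obtain ⟨a, b, hb, rfl⟩ := IsFractionRing.div_surjective (A := KAS3_940.bsub (K := k) r hr) f
  rw [map_div₀, frq_algebraMap, frq_algebraMap]
  exact (MN hy hs).div_mem (AN_le_MN hy hs (evq0_mem_AN hy hρ hs hsr a))
    (AN_le_MN hy hs (evq0_mem_AN hy hρ hs hsr b))

end Gen

variable {k : Type*} [Field k] {Ω : Type*} [Field Ω] [Algebra k Ω]
variable {p : ℕ} [hp : Fact p.Prime] [Algebra ℚ_[p] k] {v P : Valuation Ω ℝ≥0}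
  {C : IntermediateField k Ω}

namespace DiscData

variable {R : ℝ≥0} {x q c : Ω} (D : DiscData p v P C R x q c)
  [FiniteDimensional ℚ_[p] k] [FiniteDimensional k C]
  {E : Type*} [NontriviallyNormedField E] [IsUltrametricDist E] [CompleteSpace E]
  (A : NAlg D.hv C E) {y : E} (hy : IsG D.hv C A y)

/-- **class 2**: `h` in a field `N` embedded in `SD` over `C`, with divisor divisible by `l` -/
theorem exists_class2 {N : Type*} [Field N] [Algebra C N] (j : N →+* D.SD)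
    (hj : ∀ a : C, (j (algebraMap C N a) : Ω) = a) {l : ℕ} (hl : v (l : Ω) = 1) {h : N}
    (h0 : h ≠ 0) (hdiv : LDiv C l h) (ρ' : C) (hρ'0 : ρ' ≠ 0) (hρ' : v ρ' ≤ R)
    (ρ : C) (hρ0 : ρ ≠ 0) (hρ : v ρ < v ρ') (hρR : v ρ < R)
    {s : ℝ≥0} (hs : 1 < s) (hsρ : s * v ρ < v ρ') {π : C}
    (hπ : @IsUnif C (nC D.hv C).toNormedField π) (hd : DenseR D.hv C A y) :
    letI := nC D.hv C
    haveI := complete_nC D.hv C
    letI := A
    ∃ a : C, a ≠ 0 ∧ ∃ g : E, g ^ l = D.iota A hy ρ hρR hρ0 (j (algebraMap C N a * h)) ∧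
      g ∈ FP hy hπ hd ∧ g ∈ MNC A hy hs := by
  letI := nC D.hv C
  haveI := ultra_nC D.hv C
  haveI := complete_nC D.hv C
  letI := A
  have hl' : ‖(l : C)‖ = 1 := by
    rw [norm_nC D.hv C]
    have : (((l : C) : C) : Ω) = (l : Ω) := by push_cast; rfl
    rw [this, hl]; rfl
  have hn : ‖ρ'‖ = v (ρ' : Ω) := norm_nC D.hv C ρ'
  have hR : (0 : ℝ) < R := by exact_mod_cast D.hR
  let kap : N →+* FDisc C (R : ℝ) hR := D.kap.comp j
  have hk : ∀ a : C, kap (algebraMap C N a) = cF hR a := by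
    intro a
    change D.kap (j (algebraMap C N a)) = _
    have e : j (algebraMap C N a) = ⟨a, D.C_le_SD a⟩ := Subtype.ext (hj a)
    rw [e, D.kap_const]
    rfl
  obtain ⟨a, ha, g, hg, hgl⟩ := exists_root_FDisc hπ hR hρ'0 (by rw [hn]; exact_mod_cast hρ') kap hk
    hl' h0 hdiv
  have hr : (0 : ℝ) < ‖ρ'‖ := norm_pos_iff.mpr hρ'0
  have hq0 : ‖(0 : C)‖ < ‖ρ'‖ := by rw [norm_zero]; exact hr
  have hcρ : ‖ρ‖ < ‖ρ'‖ := by rw [norm_nC D.hv C, hn]; exact_mod_cast hρ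
  refine ⟨a, ha, frq hr hy hq0 hcρ hρ0 g, ?_, ?_, ?_⟩
  · rw [← map_pow, ← hgl, frq_resF hR hr _ hy hq0 hcρ hρ0]
    rfl
  · exact frq0_mem_FP hy hρ0 hπ hd g
  · refine frq0_mem_MN hy hρ0 hs ?_ g
    rw [norm_nC D.hv C, hn]
    exact_mod_cast hsρ

end DiscData

end Crest.Agent.R013.Set_803
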