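import Crest.Agent.R013.VData_803
import Crest.Agent.R013.Set13_803
import Crest.Agent.R013.NB5_92

/-!
# Row 13, part B: assembly of B-MAIN

* `LiftOut`  : output of LIFT-L (168), input of B-NB (post #4000).
* `NBData`   : output of B-NB (92) at the circle `|x| = |π|`, input of the end step (623, 669).
* `bMain_of` : B-MAIN from LIFT-L, B-NB and the end step.
-/

set_option autoImplicit false
set_option linter.unusedSectionVars false
set_option linter.style.haveILetI false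

namespace Crest.Agent.R013.TopB_803

open scoped NNReal Topology
open Filter Crest.NumberTheoryR.Sect SE_669 CGood_588 GoodP_797 VData_803
open Crest.Agent.R013.BTor6_914 (Lbar LC)
open Crest.Agent.R013.BTor4_914 (LDiv)
open Crest.Agent.R013.Set_803 Crest.Agent.R013.Gl946 Crest.Agent.R013.NB_92
  Crest.Agent.R013.CutCov_92 Crest.Agent.R013.Half_930

/-- **Output of LIFT-L** (168). -/
def LiftOut (p : ℕ) [Fact p.Prime] (k : Type*) [Field k] [Algebra ℚ_[p] k] (K : Type*) [Field K]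
    [Algebra k K] (t : AlgebraicClosure K) (C : IntermediateField k (AlgebraicClosure K))
    (v : Valuation (AlgebraicClosure K) ℝ≥0) (M : IntermediateField K (AlgebraicClosure K))
    (l : ℕ) : Prop :=
  ∃ (C1 : IntermediateField k (AlgebraicClosure K)) (h : AlgebraicClosure K) (hU : h ∈ LC M C1),
    FiniteDimensional k C1 ∧ C ≤ C1 ∧ h ≠ 0 ∧ LDiv k l (⟨h, hU⟩ : LC M C1) ∧
    (∀ w : Valuation (AlgebraicClosure K) ℝ≥0, ExtendsPadicNorm k (AlgebraicClosure K) p w →
      1 < w t → ∃ g ∈ LC M C1, w (h - g ^ l) < w h) ∧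
    (∀ g ∈ Lbar k M, ¬ v (h - g ^ l) < v h)

/-- **Output of B-NB** (92), input of the end step (623, 669): constants `C`, disc data `D` over `C`, a
circle field `E` over `C` for the circle `|x| = |π|`, a finite extension `U ≤ maxUnramified` of `K`
containing `C`, and a non-bridge over `U` (`X`, `j : U → V`, `σ : V → E`) with values in the annulus
rings of width `s`, compatible with `iota`. -/
def NBData (p : ℕ) [Fact p.Prime] (k : Type) [Field k] [Algebra ℚ_[p] k]
    [FiniteDimensional ℚ_[p] k] (K : Type) [Field K] [Algebra k K]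
    (P : Valuation (AlgebraicClosure K) ℝ≥0) (x : K) (s : ℝ≥0) (hs : 1 < s)
    (π : AlgebraicClosure K) (v : Valuation (AlgebraicClosure K) ℝ≥0) : Prop :=
  ∃ (C : IntermediateField k (AlgebraicClosure K)) (_ : FiniteDimensional k C) (hπC : π ∈ C)
    (π0 : π ≠ 0) (q c : AlgebraicClosure K) (R : ℝ≥0)
    (D : DiscData p v P C R (algebraMap K (AlgebraicClosure K) x) q c)
    (_ : ∀ f : K, algebraMap K (AlgebraicClosure K) f ∈ D.SD)
    (hπR : v π < R)
    (E : Type) (_ : NontriviallyNormedField E) (A : NAlg D.hv C E) (_ : IsUltrametricDist E)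
    (_ : CompleteSpace E) (y : E) (hy : IsG D.hv C A y) (hd : DenseR D.hv C A y)
    (ϖ : C) (hϖ : @IsUnif C (nC D.hv C).toNormedField ϖ)
    (U : IntermediateField K (AlgebraicClosure K)) (V : Type) (_ : CommRing V) (_ : Algebra E V)
    (d : ℕ),
    letI := nC D.hv C
    haveI := ultra_nC D.hv C
    haveI := complete_nC D.hv C
    letI := A
    ∃ (X : Edge (gaussDatum hy hϖ hd) V d) (j : U →+* V) (σ : V →ₐ[E] E),
      FiniteDimensional K U ∧ U ≤ maxUnramified k K ∧ (∀ a ∈ C, a ∈ U) ∧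
      NBOut (gaussDatum hy hϖ hd) (Am hy hϖ hd hs) (Ap hy hϖ hd hs) U V d X j σ ∧
      ∀ (f : AlgebraicClosure K) (_ : f ∈ LC (⊥ : IntermediateField K (AlgebraicClosure K)) C)
        (hfU : f ∈ U) (hfD : f ∈ D.SD),
        σ (j ⟨f, hfU⟩) = D.iota A hy ⟨π, hπC⟩ hπR (fun h => π0 (congrArg Subtype.val h)) ⟨f, hfD⟩

/-- **LIFT-L** for vertex data (168). -/
def LiftP (p : ℕ) [Fact p.Prime] : Prop :=
  ∀ (k : Type) [Field k] [Algebra ℚ_[p] k] [FiniteDimensional ℚ_[p] k] (K : Type) [Field K]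
    [Algebra k K] [Algebra (RatFunc k) K] [IsScalarTower k (RatFunc k) K] [FunctionField k K]
    (P : Valuation (AlgebraicClosure K) ℝ≥0) (x : K),
    IsRationalPlace k K (P.comap (algebraMap K (AlgebraicClosure K))) →
    IsUniformizerAt (P.comap (algebraMap K (AlgebraicClosure K))) x →
    ∀ (η : ℝ≥0), η ≤ 1 →
    ∀ (C : IntermediateField k (AlgebraicClosure K)) (π q c : AlgebraicClosure K) (R : ℝ≥0)
      (v : Valuation (AlgebraicClosure K) ℝ≥0)
      (M : IntermediateField K (AlgebraicClosure K)) (l : ℕ) (Y : AlgebraicClosure K),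
      VData p k K P x η C π q c R v M l Y →
      LiftOut p k K ((algebraMap K (AlgebraicClosure K) x - q) / c) C v M l

/-- **B-NB** for vertex data (92): the annulus of width `s` around the circle `|x| = |π|`, data at the
scale `|p|^(a+1)`, `s |p|^a ≤ 1`. -/
def NBP (p : ℕ) [Fact p.Prime] : Prop :=
  ∀ (s : ℝ≥0) (hs : 1 < s) (a : ℕ), s * ‖(p : ℚ_[p])‖₊ ^ a ≤ 1 →
  ∀ (k : Type) [Field k] [Algebra ℚ_[p] k] [FiniteDimensional ℚ_[p] k] (K : Type) [Field K]
    [Algebra k K] [Algebra (RatFunc k) K] [IsScalarTower k (RatFunc k) K] [FunctionField k K],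
    algebraicClosure k K = ⊥ → 2 ≤ genus k K →
    ∀ (P : Valuation (AlgebraicClosure K) ℝ≥0) (x : K),
    IsRationalPlace k K (P.comap (algebraMap K (AlgebraicClosure K))) →
    IsUniformizerAt (P.comap (algebraMap K (AlgebraicClosure K))) x →
    ∀ (C : IntermediateField k (AlgebraicClosure K)) (π q c : AlgebraicClosure K) (R : ℝ≥0)
      (v : Valuation (AlgebraicClosure K) ℝ≥0)
      (M : IntermediateField K (AlgebraicClosure K)) (l : ℕ) (Y : AlgebraicClosure K),
      VData p k K P x (‖(p : ℚ_[p])‖₊ ^ (a + 1)) C π q c R v M l Y →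
      LiftOut p k K ((algebraMap K (AlgebraicClosure K) x - q) / c) C v M l →
      NBData p k K P x s hs π v

/-- **The end step** (623, 669): LEMW + ANNU + the circle norm. -/
def EndP (p : ℕ) [Fact p.Prime] : Prop :=
  ∀ (e : ℕ), 0 < e → ∀ (s : ℝ≥0) (hs : 1 < s), s⁻¹ ≤ ‖(e : ℚ_[p])‖₊ ^ 2 →
  ∀ (k : Type) [Field k] [Algebra ℚ_[p] k] [FiniteDimensional ℚ_[p] k] (K : Type) [Field K]
    [Algebra k K] [Algebra (RatFunc k) K] [IsScalarTower k (RatFunc k) K] [FunctionField k K],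
    algebraicClosure k K = ⊥ → 2 ≤ genus k K →
    ∀ (P : Valuation (AlgebraicClosure K) ℝ≥0) (x : K),
    IsRationalPlace k K (P.comap (algebraMap K (AlgebraicClosure K))) →
    IsUniformizerAt (P.comap (algebraMap K (AlgebraicClosure K))) x →
    ∀ (π : AlgebraicClosure K) (v : Valuation (AlgebraicClosure K) ℝ≥0),
      NBData p k K P x s hs π v → SEAt p k K P x e π (v π)

/-- **B-MAIN from LIFT-L, B-NB and the end step.** -/
theorem bMain_of {p : ℕ} [Fact p.Prime] (h1 : LiftP p) (h2 : NBP p) (h3 : EndP p) : BMain p := by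
  intro e he
  have he0 : (0 : ℝ≥0) < ‖(e : ℚ_[p])‖₊ := by
    rw [nnnorm_pos]
    exact_mod_cast he.ne'
  have he1 : ‖(e : ℚ_[p])‖₊ ≤ 1 := by
    rw [← NNReal.coe_le_coe]
    exact_mod_cast Padic.norm_int_le_one (e : ℤ)
  set s : ℝ≥0 := 2 * (‖(e : ℚ_[p])‖₊ ^ 2)⁻¹ with hs'
  have hpos : 0 < ‖(e : ℚ_[p])‖₊ ^ 2 := pow_pos he0 2
  have h4 : 1 ≤ (‖(e : ℚ_[p])‖₊ ^ 2)⁻¹ := (one_le_inv₀ hpos).2 (pow_le_one' he1 2)
  have hs : 1 < s := by
    calc (1 : ℝ≥0) < 2 * 1 := by norm_num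
      _ ≤ s := mul_le_mul_right h4 2
  have hse : s⁻¹ ≤ ‖(e : ℚ_[p])‖₊ ^ 2 := by
    rw [hs', mul_inv, inv_inv]
    calc (2 : ℝ≥0)⁻¹ * ‖(e : ℚ_[p])‖₊ ^ 2 ≤ 1 * ‖(e : ℚ_[p])‖₊ ^ 2 := by
          refine mul_le_mul_left ?_ _
          exact inv_le_one_of_one_le₀ (by norm_num)
      _ = _ := one_mul _
  have hp1 : ‖(p : ℚ_[p])‖₊ < 1 := by
    rw [← NNReal.coe_lt_coe]
    exact_mod_cast Padic.norm_p_lt_one
  have hp0 : 0 < ‖(p : ℚ_[p])‖₊ := by
    rw [nnnorm_pos]
    exact_mod_cast (Fact.out : p.Prime).ne_zero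
  obtain ⟨a, ha⟩ := NNReal.exists_pow_lt_of_lt_one (inv_pos.2 (zero_lt_one.trans hs)) hp1
  have hsa : s * ‖(p : ℚ_[p])‖₊ ^ a ≤ 1 := by
    rw [mul_comm]
    exact (le_inv_mul_iff₀' (zero_lt_one.trans hs)).1 (by rw [mul_one]; exact ha.le)
  refine ⟨‖(p : ℚ_[p])‖₊ ^ (a + 1), pow_pos hp0 _, ?_⟩
  intro k _ _ _ K _ _ _ _ _ hc hg P x hP hx C π q c R v M l Y hV
  have h5 := h1 k K P x hP hx _ (pow_le_one' hp1.le _) C π q c R v M l Y hV
  exact h3 e he s hs hse k K hc hg P x hP hx π v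
    (h2 s hs a hsa k K hc hg P x hP hx C π q c R v M l Y hV h5)

end Crest.Agent.R013.TopB_803
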