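import Crest.Agent.R013.LiftOut_168
import Crest.Agent.R013.TopB_803

/-!
# R013 / LiftP (helper168): the hypothesis `LiftP` of `TopB_803.bMain_of`
-/

set_option autoImplicit false

namespace Crest.Agent.R013.LiftP_168

open Crest.NumberTheoryR.Sect

/-- **LIFT-L** for vertex data, in the form of `TopB_803`. -/
theorem liftP (p : ℕ) [Fact p.Prime] : TopB_803.LiftP p := by
  intro k _ _ _ K _ _ _ _ _ P x _ _ η _ C π q c R v M l Y hD
  have : FiniteDimensional (RatFunc k) K := inferInstance
  exact LiftOut_168.liftOut hD

end Crest.Agent.R013.LiftP_168
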