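import Mathlib

/-!
# Type 4 points, degree p step: bounds, constancy, transport (helper953, row 13)
-/

open Polynomial NNReal

namespace Crest.Agent.R013.Lin_953

variable {C : Type*} [Field C]

/-- all coefficients bounded by `r` -/
def Bd (v : Valuation C ℝ≥0) (f : C[X]) (r : ℝ≥0) : Prop := ∀ j, v (f.coeff j) ≤ r

/-- all coefficients strictly bounded by `r` -/
def BdL (v : Valuation C ℝ≥0) (f : C[X]) (r : ℝ≥0) : Prop := ∀ j, v (f.coeff j) < r

section bounds
variable {v : Valuation C ℝ≥0} {f g : C[X]} {r s : ℝ≥0}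

lemma Bd.mono (h : Bd v f r) (hr : r ≤ s) : Bd v f s := fun j => (h j).trans hr
lemma BdL.mono (h : BdL v f r) (hr : r ≤ s) : BdL v f s := fun j => (h j).trans_le hr
lemma BdL.bd (h : BdL v f r) : Bd v f r := fun j => (h j).le
lemma Bd.bdL (h : Bd v f r) (hr : r < s) : BdL v f s := fun j => (h j).trans_lt hr

lemma Bd.zero : Bd v 0 r := fun j => by simp
lemma Bd.add (hf : Bd v f r) (hg : Bd v g r) : Bd v (f + g) r := fun j => by
  rw [coeff_add]; exact (v.map_add _ _).trans (max_le (hf j) (hg j))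
lemma Bd.neg (hf : Bd v f r) : Bd v (-f) r := fun j => by
  rw [coeff_neg, v.map_neg]; exact hf j
lemma Bd.sub (hf : Bd v f r) (hg : Bd v g r) : Bd v (f - g) r := by
  rw [sub_eq_add_neg]; exact hf.add hg.neg
lemma BdL.add (hf : BdL v f r) (hg : BdL v g r) : BdL v (f + g) r := fun j => by
  rw [coeff_add]; exact (v.map_add _ _).trans_lt (max_lt (hf j) (hg j))
lemma BdL.neg (hf : BdL v f r) : BdL v (-f) r := fun j => by
  rw [coeff_neg, v.map_neg]; exact hf j
lemma BdL.sub (hf : BdL v f r) (hg : BdL v g r) : BdL v (f - g) r := by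
  rw [sub_eq_add_neg]; exact hf.add hg.neg
lemma BdL.zero (hr : 0 < r) : BdL v 0 r := fun j => by simpa using hr

lemma Bd.mul (hf : Bd v f r) (hg : Bd v g s) : Bd v (f * g) (r * s) := fun j => by
  rw [coeff_mul]
  refine v.map_sum_le fun i _ => ?_
  rw [v.map_mul]; exact mul_le_mul' (hf _) (hg _)

lemma BdL.mul_bd (hf : BdL v f r) (hg : Bd v g s) (hs : 0 < s) : BdL v (f * g) (r * s) := fun j => by
  have hr : 0 < r := zero_le.trans_lt (hf 0)
  rw [coeff_mul]
  refine v.map_sum_lt (mul_pos hr hs).ne' fun i _ => ?_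
  rw [v.map_mul]
  rcases eq_or_ne (v (g.coeff i.2)) 0 with h0 | h0
  · rw [h0, mul_zero]; exact mul_pos hr hs
  · exact (mul_lt_mul_of_pos_right (hf _) (pos_iff_ne_zero.2 h0)).trans_le (mul_le_mul' le_rfl (hg _))

lemma Bd.const (c : C) : Bd v (Polynomial.C c) (v c) := fun j => by
  rw [coeff_C]; split_ifs <;> simp

lemma Bd.monomial (c : C) (i : ℕ) : Bd v (Polynomial.C c * X ^ i) (v c) := fun j => by
  rw [coeff_C_mul_X_pow]; split_ifs <;> simp

lemma Bd.one : Bd v (1 : C[X]) 1 := by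
  have := Bd.const (v := v) (1 : C); rwa [v.map_one] at this

lemma Bd.pow (hf : Bd v f r) : ∀ n : ℕ, Bd v (f ^ n) (r ^ n)
  | 0 => by simpa using Bd.one
  | n + 1 => by rw [pow_succ, pow_succ]; exact (hf.pow n).mul hf

lemma Bd.sum {ι : Type*} {S : Finset ι} {F : ι → C[X]} (h : ∀ i ∈ S, Bd v (F i) r) :
    Bd v (∑ i ∈ S, F i) r := fun j => by
  rw [finsetSum_coeff]; exact v.map_sum_le fun i hi => h i hi j

lemma v_natCast_le (v : Valuation C ℝ≥0) (n : ℕ) : v (n : C) ≤ 1 := by
  induction n with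
  | zero => simp
  | succ n ih =>
    rw [Nat.cast_succ]
    exact (v.map_add _ _).trans (max_le ih (by simp))

lemma Bd.natCast_mul (n : ℕ) (hf : Bd v f r) : Bd v ((n : C[X]) * f) (v n * r) := by
  have : ((n : ℕ) : C[X]) = Polynomial.C (n : C) := by simp
  rw [this]; exact (Bd.const _).mul hf

lemma Bd.mul_natCast (n : ℕ) (hf : Bd v f r) : Bd v (f * (n : C[X])) r := by
  have : ((n : ℕ) : C[X]) = Polynomial.C (n : C) := by simp
  rw [this]
  refine (hf.mul (Bd.const _)).mono ?_
  exact mul_le_of_le_one_right' (v_natCast_le v n)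

end bounds

section w
variable {v : Valuation C ℝ≥0} {w : Valuation C[X] ℝ≥0}

lemma w_le_of_bd (hw : ∀ c, w (Polynomial.C c) = v c) (hX : w X ≤ 1) {f : C[X]} {r : ℝ≥0}
    (hf : Bd v f r) : w f ≤ r := by
  rw [f.as_sum_range_C_mul_X_pow]
  refine w.map_sum_le fun i _ => ?_
  rw [w.map_mul, hw, w.map_pow]
  exact (mul_le_of_le_one_right' (pow_le_one' hX i)).trans (hf i)

lemma w_lt_of_bdL (hw : ∀ c, w (Polynomial.C c) = v c) (hX : w X ≤ 1) {f : C[X]} {r : ℝ≥0}
    (hf : BdL v f r) : w f < r := by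
  have hr : 0 < r := zero_le.trans_lt (hf 0)
  rw [f.as_sum_range_C_mul_X_pow]
  refine w.map_sum_lt hr.ne' fun i _ => ?_
  rw [w.map_mul, hw, w.map_pow]
  exact (mul_le_of_le_one_right' (pow_le_one' hX i)).trans_lt (hf i)

end w

/-! ### near the point -/

/-- `P` holds for all centres close to `w` -/
def Near (w : Valuation C[X] ℝ≥0) (P : C → Prop) : Prop :=
  ∃ s : ℝ≥0, (∃ a, w (X - Polynomial.C a) < s) ∧ ∀ a, w (X - Polynomial.C a) < s → P a

section near
variable {v : Valuation C ℝ≥0} {w : Valuation C[X] ℝ≥0}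

lemma Near.and {P Q : C → Prop} (hP : Near w P) (hQ : Near w Q) : Near w (fun a => P a ∧ Q a) := by
  obtain ⟨s, ⟨a, ha⟩, h⟩ := hP
  obtain ⟨t, ⟨b, hb⟩, k⟩ := hQ
  refine ⟨min s t, ?_, fun c hc => ⟨h c (hc.trans_le (min_le_left _ _)), k c (hc.trans_le (min_le_right _ _))⟩⟩
  rcases le_total (w (X - Polynomial.C a)) (w (X - Polynomial.C b)) with hab | hab
  · exact ⟨a, lt_min ha (hab.trans_lt hb)⟩
  · exact ⟨b, lt_min (hab.trans_lt ha) hb⟩

lemma Near.mono {P Q : C → Prop} (hP : Near w P) (h : ∀ a, P a → Q a) : Near w Q := by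
  obtain ⟨s, hs, k⟩ := hP
  exact ⟨s, hs, fun a ha => h a (k a ha)⟩

lemma near_true : Near w (fun _ => True) :=
  ⟨w (X - Polynomial.C 0) + 1, ⟨0, lt_add_one _⟩, fun _ _ => trivial⟩

lemma near_of_all {P : C → Prop} (h : ∀ a, P a) : Near w P := near_true.mono fun a _ => h a

lemma Near.finset {ι : Type*} (S : Finset ι) {P : ι → C → Prop} (h : ∀ i ∈ S, Near w (P i)) :
    Near w (fun a => ∀ i ∈ S, P i a) := by
  classical
  induction S using Finset.induction_on with
  | empty => exact near_of_all (by simp)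
  | insert i S hi ih =>
    refine ((h i (by simp)).and (ih fun j hj => h j (by simp [hj]))).mono fun a ha j hj => ?_
    rcases Finset.mem_insert.1 hj with rfl | hj
    · exact ha.1
    · exact ha.2 j hj

variable (hw : ∀ c, w (Polynomial.C c) = v c)
  (himm : ∀ f : C[X], f ≠ 0 → ∃ c : C, w (f - Polynomial.C c) < w f)

include himm in
lemma w_ne_zero {f : C[X]} (hf : f ≠ 0) : w f ≠ 0 := by
  obtain ⟨c, hc⟩ := himm f hf
  exact ((zero_le.trans_lt hc)).ne'

include himm in
/-- near centres with `w (X - a)` outside a finite set -/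
lemma Near.exists_notMem {P : C → Prop} (hP : Near w P) (B : Set ℝ≥0) (hB : B.Finite) :
    ∃ a, P a ∧ w (X - Polynomial.C a) ∉ B := by
  obtain ⟨s, ⟨a0, ha0⟩, h⟩ := hP
  by_contra hcon
  push Not at hcon
  set T : Set ℝ≥0 := {x | x ∈ B ∧ ∃ a, w (X - Polynomial.C a) = x ∧ x < s} with hT
  have hTf : T.Finite := hB.subset fun x hx => hx.1
  have hTn : T.Nonempty := ⟨w (X - Polynomial.C a0), hcon a0 (h a0 ha0), a0, rfl, ha0⟩
  obtain ⟨x, hx, hmin⟩ := Set.exists_min_image T id hTf hTn
  obtain ⟨hxB, a, rfl, hxs⟩ := hx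
  obtain ⟨c, hc⟩ := himm (X - Polynomial.C a) (X_sub_C_ne_zero a)
  have e : X - Polynomial.C a - Polynomial.C c = X - Polynomial.C (a + c) := by
    rw [C_add]; ring
  rw [e] at hc
  have h1 : w (X - Polynomial.C (a + c)) < s := hc.trans hxs
  have h2 := hmin (w (X - Polynomial.C (a + c))) ⟨hcon _ (h _ h1), _, rfl, h1⟩
  exact absurd h2 (not_le.2 hc)

/-- `v (f c) = w f` and the constant term dominates strictly at radius `w (X - c)` -/
def F0 (v : Valuation C ℝ≥0) (w : Valuation C[X] ℝ≥0) (f : C[X]) (c : C) : Prop :=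
  v ((taylor c f).coeff 0) = w f ∧
    ∀ j, 1 ≤ j → v ((taylor c f).coeff j) * w (X - Polynomial.C c) ^ j < w f

lemma F0.le {f : C[X]} {c : C} (h : F0 v w f c) (j : ℕ) :
    v ((taylor c f).coeff j) * w (X - Polynomial.C c) ^ j ≤ w f := by
  rcases Nat.eq_zero_or_pos j with rfl | hj
  · rw [pow_zero, mul_one, h.1]
  · exact (h.2 j hj).le

lemma F0.mul {f g : C[X]} {c : C} (hf : F0 v w f c) (hg : F0 v w g c) (hf0 : w f ≠ 0) (hg0 : w g ≠ 0) :
    F0 v w (f * g) c := by
  constructor
  · rw [taylor_mul, mul_coeff_zero, v.map_mul, hf.1, hg.1, w.map_mul]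
  · intro j hj
    set s := w (X - Polynomial.C c)
    rw [taylor_mul, coeff_mul, w.map_mul]
    rcases eq_or_ne s 0 with hs | hs
    · rw [hs, zero_pow (by omega), mul_zero]
      exact mul_pos (pos_iff_ne_zero.2 hf0) (pos_iff_ne_zero.2 hg0)
    have hsp : 0 < s ^ j := pow_pos (pos_iff_ne_zero.2 hs) j
    rw [← lt_div_iff₀ hsp]
    refine v.map_sum_lt (div_pos (mul_pos (pos_iff_ne_zero.2 hf0) (pos_iff_ne_zero.2 hg0)) hsp).ne' ?_
    rintro ⟨i, k⟩ hik
    rw [Finset.HasAntidiagonal.mem_antidiagonal] at hik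
    simp only at hik ⊢
    rw [lt_div_iff₀ hsp, v.map_mul, ← hik, pow_add]
    have e : v ((taylor c f).coeff i) * v ((taylor c g).coeff k) * (s ^ i * s ^ k) =
        (v ((taylor c f).coeff i) * s ^ i) * (v ((taylor c g).coeff k) * s ^ k) := by ring
    rw [e]
    rcases Nat.eq_zero_or_pos i with hi | hi
    · have hk : 1 ≤ k := by omega
      exact (mul_le_mul' (hf.le i) le_rfl).trans_lt
        (mul_lt_mul_of_pos_left (hg.2 k hk) (pos_iff_ne_zero.2 hf0))
    · exact (mul_le_mul' le_rfl (hg.le k)).trans_lt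
        (mul_lt_mul_of_pos_right (hf.2 i hi) (pos_iff_ne_zero.2 hg0))

include hw himm in
lemma near_F0 [IsAlgClosed C] {f : C[X]} (hf : f ≠ 0) : Near w (F0 v w f) := by
  have hprod : ∀ S : Multiset C, Near w (F0 v w (S.map fun a => X - Polynomial.C a).prod) := by
    intro S
    induction S using Multiset.induction_on with
    | empty =>
      refine near_of_all fun c => ⟨?_, fun j hj => ?_⟩
      · simp
      · have : (taylor c (1 : C[X])).coeff j = 0 := by
          rw [taylor_one]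
          exact coeff_eq_zero_of_natDegree_lt (by simpa using (by omega : 0 < j))
        rw [Multiset.map_zero, Multiset.prod_zero, this, v.map_zero, zero_mul, w.map_one]
        exact one_pos
    | cons α S ih =>
      rw [Multiset.map_cons, Multiset.prod_cons]
      have hne : (S.map fun a => X - Polynomial.C a).prod ≠ 0 := by
        refine Multiset.prod_ne_zero ?_
        intro h0
        obtain ⟨a, _, ha⟩ := Multiset.mem_map.1 h0
        exact X_sub_C_ne_zero a ha
      have hα : Near w (F0 v w (X - Polynomial.C α)) := by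
        obtain ⟨c, hc⟩ := himm (X - Polynomial.C α) (X_sub_C_ne_zero α)
        have e : X - Polynomial.C α - Polynomial.C c = X - Polynomial.C (α + c) := by
          rw [C_add]; ring
        rw [e] at hc
        refine ⟨w (X - Polynomial.C α), ⟨_, hc⟩, fun a ha => ⟨?_, fun j hj => ?_⟩⟩
        · have h1 : (taylor a (X - Polynomial.C α)).coeff 0 = a - α := by
            rw [taylor_coeff_zero]; simp
          rw [h1, ← hw]
          have h2 : Polynomial.C (a - α) = (X - Polynomial.C α) - (X - Polynomial.C a) := by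
            rw [C_sub]; ring
          rw [h2]
          exact Valuation.map_sub_eq_of_lt_left w ha
        · have h1 : taylor a (X - Polynomial.C α) = X + Polynomial.C (a - α) := by
            rw [map_sub, taylor_X, taylor_C, C_sub]; ring
          rw [h1, coeff_add, coeff_X, coeff_C]
          have hj0 : j ≠ 0 := by omega
          rw [if_neg hj0, add_zero]
          split_ifs with h
          · subst h
            rw [v.map_one, one_mul, pow_one]; exact ha
          · rw [v.map_zero, zero_mul]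
            exact pos_iff_ne_zero.2 (w_ne_zero himm (X_sub_C_ne_zero α))
      exact (hα.and ih).mono fun c hc => hc.1.mul hc.2 (w_ne_zero himm (X_sub_C_ne_zero α)) (w_ne_zero himm hne)
  have hs := (IsAlgClosed.splits f).eq_prod_roots
  have hne : (f.roots.map fun a => X - Polynomial.C a).prod ≠ 0 := by
    intro h; rw [h, mul_zero] at hs; exact hf hs
  have hlc : Polynomial.C f.leadingCoeff ≠ 0 := by simpa using hf
  have hc : Near w (F0 v w (Polynomial.C f.leadingCoeff)) := by
    refine near_of_all fun c => ⟨?_, fun j hj => ?_⟩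
    · rw [taylor_C, coeff_C_zero, hw]
    · rw [taylor_C, coeff_C, if_neg (by omega), v.map_zero, zero_mul]
      exact pos_iff_ne_zero.2 (w_ne_zero himm hlc)
  rw [hs]
  exact (hc.and (hprod _)).mono fun c h => h.1.mul h.2 (w_ne_zero himm hlc) (w_ne_zero himm hne)

end near


/-! ### p-th powers -/

section powers
variable {v : Valuation C ℝ≥0} {p : ℕ}

/-- the correction series in `(1 + x)^p` -/
noncomputable def cor (p : ℕ) (x : C[X]) : C[X] :=
  ∑ k ∈ Finset.Ioo 1 p, x ^ (k - 1) * ((p.choose k / p : ℕ) : C[X])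

lemma one_add_pow (hp : p.Prime) (x : C[X]) :
    (1 + x) ^ p = 1 + x ^ p + (p : C[X]) * (x * (1 + cor p x)) := by
  have h := add_pow_prime_eq hp x (1 : C[X])
  rw [add_comm 1 x, h]
  have hS : ∑ k ∈ Finset.Ioo 0 p, x ^ (k - 1) * 1 ^ (p - k - 1) * ((p.choose k / p : ℕ) : C[X]) =
      1 + cor p x := by
    have hins : Finset.Ioo 0 p = insert 1 (Finset.Ioo 1 p) := by
      ext k
      have := hp.one_lt
      simp only [Finset.mem_Ioo, Finset.mem_insert]
      omega
    rw [hins, Finset.sum_insert (by simp)]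
    congr 1
    · rw [Nat.choose_one_right, Nat.div_self hp.pos]; simp
    · unfold cor
      refine Finset.sum_congr rfl fun k _ => ?_
      rw [one_pow, mul_one]
  rw [hS]
  ring

lemma Bd.cor {x : C[X]} {r : ℝ≥0} (hx : Bd v x r) (hr : r ≤ 1) : Bd v (cor p x) r := by
  refine Bd.sum fun k hk => ?_
  rw [Finset.mem_Ioo] at hk
  refine Bd.mul_natCast _ ((hx.pow _).mono ?_)
  calc r ^ (k - 1) ≤ r ^ 1 := pow_le_pow_of_le_one zero_le hr (by omega)
    _ = r := pow_one r

lemma Bd.one_add_cor {x : C[X]} {r : ℝ≥0} (hx : Bd v x r) (hr : r ≤ 1) : Bd v (1 + Lin_953.cor p x) 1 :=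
  Bd.one.add ((Bd.cor hx hr).mono hr)

/-- Artin--Schreier expansion -/
lemma as_step (hp : p.Prime) {lam : C} (hl : lam ^ (p - 1) = -(p : C)) {h : C[X]} {μ : ℝ≥0}
    (hh : Bd v h μ) (hμ : v lam * μ ≤ 1) :
    ∃ e : C[X], (1 + Polynomial.C lam * h) ^ p = 1 + Polynomial.C (lam ^ p) * (h ^ p - h) + e ∧
      Bd v e (v lam ^ p * (v lam * μ ^ 2)) := by
  have hpl : (p : C) * lam = - lam ^ p := by
    have : lam ^ p = lam ^ (p - 1) * lam := by
      rw [← pow_succ]; congr 1; have := hp.pos; omega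
    rw [this, hl]; ring
  have hb : Bd v (Polynomial.C lam * h) (v lam * μ) := (Bd.const _).mul hh
  refine ⟨(p : C[X]) * ((Polynomial.C lam * h) * cor p (Polynomial.C lam * h)), ?_, ?_⟩
  · rw [one_add_pow hp]
    have e1 : (p : C[X]) * Polynomial.C lam = - Polynomial.C (lam ^ p) := by
      have : (p : C[X]) = Polynomial.C (p : C) := by simp
      rw [this, ← C_mul, hpl, C_neg]
    have e2 : (Polynomial.C lam * h) ^ p = Polynomial.C (lam ^ p) * h ^ p := by
      rw [mul_pow, C_pow]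
    rw [e2]
    linear_combination h * e1
  · refine ((hb.mul (Bd.cor hb hμ)).natCast_mul p).mono ?_
    have hvp : v (p : C) = v lam ^ (p - 1) := by
      rw [← v.map_neg, ← hl, v.map_pow]
    rw [hvp]
    have : v lam ^ p = v lam ^ (p - 1) * v lam := by
      rw [← pow_succ]; congr 1; have := hp.pos; omega
    rw [this]
    apply le_of_eq; ring

lemma frob_sum (hp : p.Prime) {μ : ℝ≥0} (hμ : μ ≤ 1) (γ : ℕ → C) (S : Finset ℕ)
    (hγ : ∀ i ∈ S, v (γ i) ≤ μ) :
    ∃ e : C[X], (∑ i ∈ S, Polynomial.C (γ i) * X ^ i) ^ p =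
      ∑ i ∈ S, Polynomial.C (γ i ^ p) * X ^ (p * i) + e ∧ Bd v e (v (p : C) * μ) := by
  classical
  induction S using Finset.induction_on with
  | empty => exact ⟨0, by simp [hp.ne_zero], Bd.zero⟩
  | insert i S hi ih =>
    obtain ⟨e, he, hbe⟩ := ih fun j hj => hγ j (by simp [hj])
    rw [Finset.sum_insert hi, Finset.sum_insert hi]
    set z := ∑ i ∈ S, Polynomial.C (γ i) * X ^ i with hz
    set m := Polynomial.C (γ i) * X ^ i with hm
    have hzb : Bd v z μ := Bd.sum fun j hj => (Bd.monomial _ _).mono (hγ j (by simp [hj]))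
    have hmb : Bd v m μ := (Bd.monomial _ _).mono (hγ i (by simp))
    set T := ∑ k ∈ Finset.Ioo 0 p, m ^ (k - 1) * z ^ (p - k - 1) * ((p.choose k / p : ℕ) : C[X]) with hT
    have hTb : Bd v T 1 := Bd.sum fun k _ => by
      refine Bd.mul_natCast _ (((hmb.pow _).mul (hzb.pow _)).mono ?_)
      exact mul_le_one' (pow_le_one' hμ _) (pow_le_one' hμ _)
    refine ⟨e + (p : C[X]) * (m * (z * T)), ?_, hbe.add ?_⟩
    · rw [add_pow_prime_eq hp m z, he, hm, mul_pow, ← C_pow, ← pow_mul, mul_comm i p]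
      ring
    · refine ((hmb.mul (hzb.mul hTb)).natCast_mul p).mono ?_
      refine mul_le_mul' le_rfl ?_
      calc μ * (μ * 1) ≤ μ * 1 := mul_le_mul' le_rfl (by simpa using hμ)
        _ = μ := mul_one μ

lemma one_add_sum_pow (hp : p.Prime) {μ : ℝ≥0} (hμ : μ ≤ 1) (γ : ℕ → C) (S : Finset ℕ)
    (hγ : ∀ i ∈ S, v (γ i) ≤ μ) :
    ∃ e : C[X], (1 + ∑ i ∈ S, Polynomial.C (γ i) * X ^ i) ^ p =
      1 + ∑ i ∈ S, Polynomial.C (γ i ^ p) * X ^ (p * i) + e ∧ Bd v e (v (p : C) * μ) := by
  obtain ⟨e, he, hbe⟩ := frob_sum hp hμ γ S hγ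
  have hzb : Bd v (∑ i ∈ S, Polynomial.C (γ i) * X ^ i) μ :=
    Bd.sum fun j hj => (Bd.monomial _ _).mono (hγ j hj)
  refine ⟨e + (p : C[X]) * ((∑ i ∈ S, Polynomial.C (γ i) * X ^ i) *
    (1 + cor p (∑ i ∈ S, Polynomial.C (γ i) * X ^ i))), ?_, hbe.add ?_⟩
  · rw [one_add_pow hp, he]; ring
  · refine ((hzb.mul (Bd.one_add_cor hzb hμ)).natCast_mul p).mono ?_
    rw [mul_one]

/-- two `p^k`-th roots of the same element of size `≤ M` differ by less than one -/
lemma roots_close (hp : p.Prime) {M : ℝ≥0} (hM : 1 ≤ M) (hpM : v (p : C) * M < 1) (k : ℕ) :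
    ∀ x y : C, v x ^ p ^ k ≤ M → x ^ p ^ k = y ^ p ^ k → v (x - y) < 1 := by
  induction k with
  | zero => intro x y _ h; simp only [pow_zero, pow_one] at h; simp [h]
  | succ k ih =>
    intro x y hx h
    have hxy : v x = v y := by
      have h2 : v x ^ p ^ (k + 1) = v y ^ p ^ (k + 1) := by rw [← v.map_pow, ← v.map_pow, h]
      exact (pow_left_inj₀ (zero_le) (zero_le) (pow_pos hp.pos _).ne').1 h2
    have hxp : v x ^ p ≤ M := by
      rcases le_total (v x) 1 with h1 | h1
      · exact (pow_le_one' h1 p).trans hM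
      · refine le_trans ?_ hx
        exact pow_le_pow_right' h1 (by rw [pow_succ]; exact Nat.le_mul_of_pos_left _ (pow_pos hp.pos _))
    have hy : v (x ^ p - y ^ p) < 1 := by
      refine ih (x ^ p) (y ^ p) ?_ ?_
      · rw [v.map_pow, ← pow_mul, ← pow_succ']; exact hx
      · rw [← pow_mul, ← pow_mul, ← pow_succ']; exact h
    -- (x - y)^p = x^p + (-y)^p + p x (-y) T
    have key := add_pow_prime_eq hp x (-y)
    set T := ∑ k ∈ Finset.Ioo 0 p, x ^ (k - 1) * (-y) ^ (p - k - 1) * ((p.choose k / p : ℕ) : C) with hT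
    have hTb : v (x * (-y) * T) ≤ M := by
      rw [hT, Finset.mul_sum]
      refine v.map_sum_le fun j hj => ?_
      rw [Finset.mem_Ioo] at hj
      rw [v.map_mul, v.map_mul, v.map_mul, v.map_mul, v.map_pow, v.map_pow, v.map_neg, ← hxy]
      calc v x * v x * (v x ^ (j - 1) * v x ^ (p - j - 1) * v ((p.choose j / p : ℕ) : C))
          ≤ v x * v x * (v x ^ (j - 1) * v x ^ (p - j - 1) * 1) := by
            gcongr; exact v_natCast_le v _
        _ = v x ^ p := by
            have : p = 1 + 1 + (j - 1) + (p - j - 1) := by omega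
            conv_rhs => rw [this, pow_add, pow_add, pow_add, pow_one]
            ring
        _ ≤ M := hxp
    have h3 : v (x ^ p + (-y) ^ p) < 1 := by
      rcases hp.eq_two_or_odd' with h2 | hodd
      · subst h2
        have e : x ^ 2 + (-y) ^ 2 = (x ^ 2 - y ^ 2) + ((2 : ℕ) : C) * y ^ 2 := by push_cast; ring
        rw [e]
        refine (v.map_add _ _).trans_lt (max_lt hy ?_)
        rw [v.map_mul, v.map_pow, ← hxy]
        exact (mul_le_mul' le_rfl hxp).trans_lt hpM
      · rw [hodd.neg_pow, ← sub_eq_add_neg]; exact hy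
    have h4 : v (x - y) ^ p < 1 := by
      rw [← v.map_pow, sub_eq_add_neg, key]
      refine (v.map_add _ _).trans_lt (max_lt h3 ?_)
      have : (p : C) * x * (-y) * T = (p : C) * (x * (-y) * T) := by ring
      rw [this, v.map_mul]
      exact (mul_le_mul' le_rfl hTb).trans_lt hpM
    by_contra h5
    exact absurd (one_le_pow₀ (not_lt.1 h5) : 1 ≤ v (x - y) ^ p) (not_le.2 h4)

lemma kappa_close (hp : p.Prime) {κ : C} (hκ : κ ^ p = -1) : v (κ + 1) ^ p ≤ v (p : C) := by
  have hk : v κ = 1 := by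
    have : v κ ^ p = 1 := by rw [← v.map_pow, hκ, v.map_neg, v.map_one]
    exact (pow_eq_one_iff_of_nonneg zero_le hp.ne_zero).1 this
  rw [← v.map_pow, add_pow_prime_eq hp κ 1, hκ, one_pow, neg_add_cancel, zero_add, mul_one,
    mul_assoc, v.map_mul, v.map_mul]
  have : v (∑ k ∈ Finset.Ioo 0 p, κ ^ (k - 1) * 1 ^ (p - k - 1) * ((p.choose k / p : ℕ) : C)) ≤ 1 :=
    v.map_sum_le fun j _ => by
      rw [v.map_mul, v.map_mul, v.map_pow, one_pow, v.map_one, hk, one_pow, mul_one, one_mul]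
      exact v_natCast_le v _
  rw [hk, one_mul]
  exact mul_le_of_le_one_right' this

end powers


/-! ### change of coordinate `X = c + d T` -/

section shift

/-- `f(c + d T)` -/
noncomputable def sh (c d : C) : C[X] →+* C[X] := compRingHom (Polynomial.C c + Polynomial.C d * X)

lemma sh_apply (c d : C) (f : C[X]) : sh c d f = f.comp (Polynomial.C c + Polynomial.C d * X) := rfl

lemma sh_C (c d a : C) : sh c d (Polynomial.C a) = Polynomial.C a := by simp [sh_apply]

lemma sh_X (c d : C) : sh c d X = Polynomial.C c + Polynomial.C d * X := by simp [sh_apply]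

lemma sh_coeff (c d : C) (f : C[X]) (j : ℕ) :
    (sh c d f).coeff j = (taylor c f).coeff j * d ^ j := by
  rw [← comp_C_mul_X_coeff, taylor_apply, comp_assoc, sh_apply]
  congr 2
  simp only [add_comp, X_comp, C_comp]
  ring

lemma sh_sh (c d e g : C) (f : C[X]) : sh e g (sh c d f) = sh (c + d * e) (d * g) f := by
  rw [sh_apply, sh_apply, sh_apply, comp_assoc]
  congr 1
  simp only [add_comp, mul_comp, C_comp, X_comp, C_add, C_mul]
  ring

lemma sh_zero_one (f : C[X]) : sh 0 1 f = f := by simp [sh_apply]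

lemma sh_inv (c : C) {d : C} (hd : d ≠ 0) (f : C[X]) : sh (-c / d) d⁻¹ (sh c d f) = f := by
  rw [sh_sh]
  have h1 : c + d * (-c / d) = 0 := by field_simp; ring
  rw [h1, mul_inv_cancel₀ hd, sh_zero_one]

lemma sh_inv' (c : C) {d : C} (hd : d ≠ 0) (f : C[X]) : sh c d (sh (-c / d) d⁻¹ f) = f := by
  rw [sh_sh]
  have h1 : -c / d + d⁻¹ * c = 0 := by field_simp; ring
  rw [h1, inv_mul_cancel₀ hd, sh_zero_one]

/-- the transported norm -/
noncomputable def tr (w : Valuation C[X] ℝ≥0) (c d : C) : Valuation C[X] ℝ≥0 :=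
  w.comap (sh (-c / d) d⁻¹)

lemma tr_sh (w : Valuation C[X] ℝ≥0) (c : C) {d : C} (hd : d ≠ 0) (f : C[X]) :
    tr w c d (sh c d f) = w f := by
  rw [tr, Valuation.comap_apply, sh_inv c hd]

lemma tr_apply (w : Valuation C[X] ℝ≥0) (c d : C) (f : C[X]) :
    tr w c d f = w (sh (-c / d) d⁻¹ f) := rfl

variable {v : Valuation C ℝ≥0} {w : Valuation C[X] ℝ≥0}

lemma tr_C (hw : ∀ c, w (Polynomial.C c) = v c) (c d a : C) : tr w c d (Polynomial.C a) = v a := by
  rw [tr_apply, sh_C, hw]

lemma tr_X (hw : ∀ c, w (Polynomial.C c) = v c) (c d : C) :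
    tr w c d X = w (X - Polynomial.C c) / v d := by
  rw [tr_apply, sh_X]
  have : Polynomial.C (-c / d) + Polynomial.C d⁻¹ * X = Polynomial.C d⁻¹ * (X - Polynomial.C c) := by
    rw [mul_sub, ← C_mul, neg_div, C_neg, div_eq_mul_inv, mul_comm c]; ring
  rw [this, w.map_mul, hw, map_inv₀, div_eq_mul_inv, mul_comm]

lemma sh_injective (c : C) {d : C} (hd : d ≠ 0) : Function.Injective (sh c d) := fun f g h => by
  rw [← sh_inv c hd f, h, sh_inv c hd]

lemma tr_imm (himm : ∀ f : C[X], f ≠ 0 → ∃ c : C, w (f - Polynomial.C c) < w f)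
    (c : C) {d : C} (hd : d ≠ 0) :
    ∀ f : C[X], f ≠ 0 → ∃ e : C, tr w c d (f - Polynomial.C e) < tr w c d f := by
  intro f hf
  have h1 : sh (-c / d) d⁻¹ f ≠ 0 := by
    intro h
    exact hf ((sh_injective (-c / d) (inv_ne_zero hd)) (by rw [h, map_zero]))
  obtain ⟨e, he⟩ := himm _ h1
  exact ⟨e, by rw [tr_apply, tr_apply, map_sub, sh_C]; exact he⟩

/-- the value of a nonzero polynomial is the value of a constant -/
lemma exists_v_eq (hw : ∀ c, w (Polynomial.C c) = v c)
    (himm : ∀ f : C[X], f ≠ 0 → ∃ c : C, w (f - Polynomial.C c) < w f) {f : C[X]} (hf : f ≠ 0) :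
    ∃ d : C, d ≠ 0 ∧ v d = w f ∧ w (f - Polynomial.C d) < w f := by
  obtain ⟨d, hd⟩ := himm f hf
  have h1 : v d = w f := by
    have h2 : Polynomial.C d = f - (f - Polynomial.C d) := by ring
    rw [← hw, h2]; exact Valuation.map_sub_eq_of_lt_left w hd
  refine ⟨d, ?_, h1, hd⟩
  rintro rfl
  rw [v.map_zero] at h1
  exact w_ne_zero himm hf h1.symm

end shift

/-- the linear term dominates strictly on the disc with centre `c` and radius `v d` -/
def LinDom (v : Valuation C ℝ≥0) (t : C[X]) (c d : C) : Prop :=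
  ∀ j, 2 ≤ j → v ((taylor c t).coeff j) * v d ^ j < v ((taylor c t).coeff 1) * v d

lemma linDom_iff {v : Valuation C ℝ≥0} {t : C[X]} {c d : C} :
    LinDom v t c d ↔ ∀ j, 2 ≤ j → v ((sh c d t).coeff j) < v ((sh c d t).coeff 1) := by
  unfold LinDom
  simp only [sh_coeff, v.map_mul, v.map_pow, pow_one]

section caseA
variable {v : Valuation C ℝ≥0} {w : Valuation C[X] ℝ≥0} {p : ℕ}

lemma v_natCast_eq_one (hp : p.Prime) (hv1 : v (p : C) < 1) {n : ℕ} (hn : ¬ p ∣ n) : v (n : C) = 1 := by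
  refine le_antisymm (v_natCast_le v n) ?_
  have hcop : Nat.Coprime p n := (Nat.Prime.coprime_iff_not_dvd hp).2 hn
  obtain ⟨a, b, hab⟩ : ∃ a b : ℤ, (p : ℤ) * a + (n : ℤ) * b = 1 :=
    ⟨_, _, by rw [← Nat.gcd_eq_gcd_ab]; exact_mod_cast hcop⟩
  have h1 : (p : C) * (a : C) + (n : C) * (b : C) = 1 := by exact_mod_cast congrArg (Int.cast : ℤ → C) hab
  have hint : ∀ z : ℤ, v (z : C) ≤ 1 := by
    intro z
    rcases Int.eq_nat_or_neg z with ⟨m, rfl | rfl⟩
    · simpa using v_natCast_le v m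
    · rw [Int.cast_neg, v.map_neg]; simpa using v_natCast_le v m
  by_contra h2
  push Not at h2
  have h3 : v ((p : C) * (a : C) + (n : C) * (b : C)) < 1 := by
    refine (v.map_add _ _).trans_lt (max_lt ?_ ?_)
    · rw [v.map_mul]; exact (mul_le_mul' le_rfl (hint a)).trans_lt (by simpa using hv1)
    · rw [v.map_mul]; exact (mul_le_mul' le_rfl (hint b)).trans_lt (by simpa using h2)
  rw [h1, v.map_one] at h3
  exact lt_irrefl _ h3

/-- One elimination step at a type 4 point: either we find the coordinate or the error shrinks. -/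
lemma caseA [IsAlgClosed C] [CharZero C] (hp : p.Prime) (hv1 : v (p : C) < 1)
    (hw : ∀ c, w (Polynomial.C c) = v c)
    (himm : ∀ f : C[X], f ≠ 0 → ∃ c : C, w (f - Polynomial.C c) < w f)
    (a b₀ : C[X]) {M μ : ℝ≥0} (hM : w (a * b₀ ^ p - 1) ≤ M) (hMμ : M ≤ μ ^ p) (hμ : μ ≤ 1) :
    (∃ b ≠ 0, ∃ c d : C, d ≠ 0 ∧ w (X - Polynomial.C c) ≤ v d ∧ LinDom v (a * b ^ p) c d) ∨
    (∃ b : C[X], w (a * b ^ p - 1) ≤ max (v (p : C) * μ) (M * M)) := by
  set u : C[X] := a * b₀ ^ p - 1 with hu
  set P : C[X] := a * b₀ ^ p with hP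
  have hM1 : M ≤ 1 := hMμ.trans (pow_le_one' hμ p)
  by_cases hu0 : u = 0
  · right
    refine ⟨b₀, ?_⟩
    rw [← hP, ← hu, hu0, w.map_zero]; exact zero_le
  by_cases hP' : derivative P = 0
  · -- constant
    right
    obtain ⟨e, he⟩ : ∃ e, P = Polynomial.C e := ⟨_, (natDegree_eq_zero.1 (derivative_eq_zero.1 hP')).choose_spec.symm⟩
    by_cases he0 : e = 0
    · have h0 : P = 0 := by rw [he, he0, C_0]
      have h1 : w u = 1 := by rw [hu, h0, zero_sub, w.map_neg, w.map_one]
      have h2 : M = 1 := le_antisymm hM1 (h1 ▸ hM)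
      exact ⟨b₀, by rw [← hP, ← hu, h1, h2, mul_one]; exact le_max_right _ _⟩
    · obtain ⟨κ, hκ⟩ := IsAlgClosed.exists_pow_nat_eq (e⁻¹) hp.pos
      refine ⟨b₀ * Polynomial.C κ, ?_⟩
      have : a * (b₀ * Polynomial.C κ) ^ p - 1 = 0 := by
        rw [mul_pow, ← mul_assoc, ← hP, he, ← C_pow, hκ, ← C_mul, mul_inv_cancel₀ he0, C_1, sub_self]
      rw [this, w.map_zero]; exact zero_le
  obtain ⟨s, ⟨c, hc⟩, hnear⟩ := (near_F0 hw himm hu0).and (near_F0 hw himm hP')
  obtain ⟨h0u, h0P⟩ := hnear c hc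
  obtain ⟨d, hd0, hd, -⟩ := exists_v_eq hw himm (X_sub_C_ne_zero c)
  set û := sh c d u with hû
  have hûb : Bd v û M := fun j => by
    rw [hû, sh_coeff, v.map_mul, v.map_pow, hd]; exact (h0u.le j).trans hM
  have hPu : sh c d P = 1 + û := by
    have : P = 1 + u := by rw [hu]; ring
    rw [this, map_add, map_one]
  -- the linear term dominates all exponents prime to `p`
  have hlin : ∀ j, 2 ≤ j → ¬ p ∣ j → v (û.coeff j) < v (û.coeff 1) := by
    intro j hj hpj
    have hcoef : ∀ i, 1 ≤ i → û.coeff i = (taylor c P).coeff i * d ^ i := by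
      intro i hi
      rw [← sh_coeff, hPu, coeff_add, coeff_one, if_neg (by omega), zero_add]
    have htd : ∀ i, (taylor c (derivative P)).coeff i = (taylor c P).coeff (i + 1) * ((i : C) + 1) := by
      intro i
      have : taylor c (derivative P) = derivative (taylor c P) := by
        rw [taylor_apply, taylor_apply, derivative_comp]; simp
      rw [this, coeff_derivative]
    have h1 := h0P.2 (j - 1) (by omega)
    rw [← h0P.1, htd, htd, v.map_mul, v.map_mul] at h1
    have e1 : ((j - 1 : ℕ) : C) + 1 = (j : C) := by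
      rw [← Nat.cast_succ]; congr 1; omega
    have e2 : j - 1 + 1 = j := by omega
    rw [e1, e2, v_natCast_eq_one hp hv1 hpj, mul_one, Nat.cast_zero, zero_add, zero_add, v.map_one,
      mul_one] at h1
    rw [hcoef j (by omega), hcoef 1 le_rfl, v.map_mul, v.map_mul, v.map_pow, v.map_pow, hd, pow_one]
    have hs0 : 0 < w (X - Polynomial.C c) := pos_iff_ne_zero.2 (w_ne_zero himm (X_sub_C_ne_zero c))
    calc v ((taylor c P).coeff j) * w (X - Polynomial.C c) ^ j
        = (v ((taylor c P).coeff j) * w (X - Polynomial.C c) ^ (j - 1)) * w (X - Polynomial.C c) := by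
          rw [mul_assoc, ← pow_succ, e2]
      _ < v ((taylor c P).coeff 1) * w (X - Polynomial.C c) := mul_lt_mul_of_pos_right h1 hs0
  -- elimination
  have hγ : ∀ i, ∃ γ : C, γ ^ p = - û.coeff (p * i) := fun i => IsAlgClosed.exists_pow_nat_eq _ hp.pos
  choose γ hγ using hγ
  set N := û.natDegree + 1 with hN
  have hγb : ∀ i ∈ Finset.range N, v (γ i) ≤ μ := by
    intro i _
    have : v (γ i) ^ p ≤ μ ^ p := by
      rw [← v.map_pow, hγ, v.map_neg]; exact (hûb _).trans hMμ
    exact (pow_le_pow_iff_left₀ zero_le zero_le hp.ne_zero).1 this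
  obtain ⟨E, hE, hEb⟩ := one_add_sum_pow hp hμ γ (Finset.range N) hγb
  set z := ∑ i ∈ Finset.range N, Polynomial.C (γ i) * X ^ i with hz
  set S := ∑ i ∈ Finset.range N, Polynomial.C (û.coeff (p * i)) * X ^ (p * i) with hS
  have hzS : (1 + z) ^ p = 1 - S + E := by
    rw [hE, hS, sub_eq_add_neg, ← Finset.sum_neg_distrib]
    congr 2
    refine Finset.sum_congr rfl fun i _ => ?_
    rw [hγ, C_neg, neg_mul]
  have hSb : Bd v S M := Bd.sum fun i _ => (Bd.monomial _ _).mono (hûb _)
  set ε := max (v (p : C) * μ) (M * M) with hε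
  set R := E - û * S + û * E with hR
  have hRb : Bd v R ε := by
    refine ((hEb.mono (le_max_left _ _)).sub ((hûb.mul hSb).mono (le_max_right _ _))).add
      ((hûb.mul hEb).mono (le_trans ?_ (le_max_left _ _)))
    exact mul_le_of_le_one_left' hM1
  have ht : (1 + û) * (1 + z) ^ p = 1 + ((û - S) + R) := by rw [hzS, hR]; ring
  have hSc : ∀ j, (û - S).coeff j = if p ∣ j then 0 else û.coeff j := by
    intro j
    rw [coeff_sub, hS, finsetSum_coeff]
    simp only [coeff_C_mul, coeff_X_pow]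
    split_ifs with hpj
    · obtain ⟨i, rfl⟩ := hpj
      rw [sub_eq_zero]
      by_cases hi : i ∈ Finset.range N
      · rw [Finset.sum_eq_single_of_mem i hi]
        · simp
        · intro k _ hk
          rw [if_neg, mul_zero]
          intro h; exact hk (Nat.eq_of_mul_eq_mul_left hp.pos h).symm
      · rw [Finset.sum_eq_zero]
        · apply coeff_eq_zero_of_natDegree_lt
          rw [Finset.mem_range, not_lt] at hi
          calc û.natDegree < N := Nat.lt_succ_self _
            _ ≤ i := hi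
            _ ≤ p * i := Nat.le_mul_of_pos_left _ hp.pos
        · intro k hk
          rw [if_neg, mul_zero]
          intro h
          have := Nat.eq_of_mul_eq_mul_left hp.pos h
          subst this; exact hi hk
    · rw [Finset.sum_eq_zero, sub_zero]
      intro k _
      rw [if_neg, mul_zero]
      rintro rfl; exact hpj (dvd_mul_right _ _)
  set b : C[X] := b₀ * sh (-c / d) d⁻¹ (1 + z) with hb
  have hbt : sh c d (a * b ^ p) = 1 + ((û - S) + R) := by
    rw [← ht, hb, mul_pow, ← mul_assoc, ← hP, map_mul, map_pow, sh_inv' c hd0, hPu]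
  have hcoeff : ∀ j, 1 ≤ j → (sh c d (a * b ^ p)).coeff j = (û - S).coeff j + R.coeff j := by
    intro j hj
    rw [hbt, coeff_add, coeff_one, if_neg (by omega), zero_add, coeff_add]
  have h1p : ¬ p ∣ 1 := hp.one_lt.ne' ∘ Nat.dvd_one.1
  rcases lt_or_ge ε (v (û.coeff 1)) with hlt | hge
  · left
    have hc1 : v ((sh c d (a * b ^ p)).coeff 1) = v (û.coeff 1) := by
      rw [hcoeff 1 le_rfl, hSc, if_neg h1p]
      exact Valuation.map_add_eq_of_lt_left v ((hRb 1).trans_lt hlt)
    refine ⟨b, ?_, c, d, hd0, hd.ge, ?_⟩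
    · rintro h
      rw [h, zero_pow hp.ne_zero, mul_zero, map_zero, coeff_zero, v.map_zero] at hc1
      rw [← hc1] at hlt
      exact not_lt_zero hlt
    · rw [linDom_iff]
      intro j hj
      rw [hc1, hcoeff j (by omega), hSc]
      refine (v.map_add _ _).trans_lt (max_lt ?_ ((hRb j).trans_lt hlt))
      split_ifs with hpj
      · rw [v.map_zero]; exact zero_le.trans_lt hlt
      · exact hlin j hj hpj
  · right
    refine ⟨b, ?_⟩
    have h2 : a * b ^ p - 1 = sh (-c / d) d⁻¹ ((û - S) + R) := by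
      apply sh_injective c hd0
      rw [sh_inv' c hd0, map_sub, hbt, map_one]; ring
    rw [h2, ← tr_apply]
    have hX : tr w c d X ≤ 1 := by
      rw [tr_X hw c d, hd]; exact div_self_le_one _
    refine w_le_of_bd (tr_C hw c d) hX (Bd.add (fun j => ?_) hRb)
    rw [hSc]
    split_ifs with hpj
    · rw [v.map_zero]; exact zero_le
    · rcases Nat.lt_or_ge j 2 with hj | hj
      · have hj1 : j = 1 := by
          have : j ≠ 0 := by rintro rfl; exact hpj (dvd_zero _)
          omega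
        rw [hj1]; exact hge
      · exact (hlin j hj hpj).le.trans hge

end caseA

end Crest.Agent.R013.Lin_953
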