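import Mathlib

/-!
# The norm polynomial: product over all choices of roots of a sum of radicals (helper953, row 13)
-/

open Polynomial

namespace Crest.Agent.R013.Lin_953

variable {C : Type*} [Field C]

/-- `Q(Z + η Y)` -/
noncomputable def tw (Q : C[X][X]) (η : C) : C[X][X][X] :=
  Q.eval₂ ((Polynomial.C : C[X][X] →+* C[X][X][X]).comp (Polynomial.C : C[X] →+* C[X][X]))
    (Polynomial.C X + Polynomial.C (Polynomial.C (Polynomial.C η)) * X)

lemma tw_comp (Q : C[X][X]) (η ζ : C) :
    (tw Q η).comp (Polynomial.C (Polynomial.C (Polynomial.C ζ)) * X) = tw Q (η * ζ) := by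
  unfold tw
  rw [← coe_compRingHom_apply, hom_eval₂]
  congr 1
  · ext a <;> simp
  · simp only [coe_compRingHom_apply, add_comp, mul_comp, C_comp, X_comp, C_mul]
    ring

lemma tw_eval₂ (Q : C[X][X]) (η c x : C) :
    (tw Q η).eval₂ (mapRingHom (evalRingHom c)) (Polynomial.C x) =
      (Q.map (evalRingHom c)).comp (X + Polynomial.C (η * x)) := by
  unfold tw
  rw [← coe_eval₂RingHom, hom_eval₂, comp, eval₂_map]
  congr 1
  · ext a <;> simp
  · simp [C_mul]

theorem nrm [IsAlgClosed C] [CharZero C] {p : ℕ} (hp : p.Prime) (F : ℕ → C[X]) (K : ℕ) :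
    ∃ (Q : C[X][X]) (ι : Type) (_ : Fintype ι) (_ : Nonempty ι), ∀ c : C, ∃ x : ι → ℕ → C,
      (∀ l k, k ≤ K → x l k ^ p ^ k = (F k).eval c) ∧
      Q.map (evalRingHom c) = ∏ l, (X + Polynomial.C (∑ k ∈ Finset.range (K + 1), x l k)) := by
  induction K with
  | zero =>
    refine ⟨X + Polynomial.C (F 0), Unit, inferInstance, inferInstance, fun c =>
      ⟨fun _ _ => (F 0).eval c, ?_, ?_⟩⟩
    · intro l k hk
      obtain rfl : k = 0 := by omega
      simp
    · simp
  | succ K ih =>
    obtain ⟨Q, ι, hι, hne, hQ⟩ := ih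
    set m := p ^ (K + 1) with hm
    have hmpos : 0 < m := pow_pos hp.pos _
    have : NeZero m := ⟨hmpos.ne'⟩
    have : NeZero (m : C) := ⟨by exact_mod_cast hmpos.ne'⟩
    obtain ⟨ζ, hζ⟩ := HasEnoughRootsOfUnity.exists_primitiveRoot C m
    set S : C[X][X][X] := ∏ i ∈ Finset.range m, tw Q (ζ ^ i) with hS
    set z : C[X][X] := Polynomial.C (Polynomial.C ζ) with hz
    have hinv : S.comp (Polynomial.C z * X) = S := by
      rw [hS, prod_comp]
      have h1 : ∀ i ∈ Finset.range m, (tw Q (ζ ^ i)).comp (Polynomial.C z * X) = tw Q (ζ ^ (i + 1)) := by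
        intro i _
        rw [hz, tw_comp, ← pow_succ]
      rw [Finset.prod_congr rfl h1]
      have h2 := Finset.prod_range_succ' (fun i => tw Q (ζ ^ i)) m
      have h3 := Finset.prod_range_succ (fun i => tw Q (ζ ^ i)) m
      rw [hζ.pow_eq_one] at h3
      rw [pow_zero] at h2
      have h4 : tw Q (1 : C) ≠ 0 ∨ tw Q (1 : C) = 0 := (em _).symm
      rcases h4 with h4 | h4
      · exact mul_right_cancel₀ h4 (h2.symm.trans h3)
      · -- then all twists vanish
        have h5 : ∀ η : C, tw Q η = 0 := by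
          intro η
          have := tw_comp Q 1 η
          rw [h4, one_mul, zero_comp] at this
          exact this.symm
        simp [h5]
    have hcoef : ∀ n, ¬ m ∣ n → S.coeff n = 0 := by
      intro n hn
      have h1 : (S.comp (Polynomial.C z * X)).coeff n = S.coeff n := by rw [hinv]
      rw [comp_C_mul_X_coeff] at h1
      have h2 : S.coeff n * (z ^ n - 1) = 0 := by rw [mul_sub, h1, mul_one, sub_self]
      rcases mul_eq_zero.1 h2 with h3 | h3
      · exact h3
      · exfalso
        apply hn
        rw [hz, ← C_pow, ← C_pow, sub_eq_zero] at h3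
        have h4 : ζ ^ n = 1 := by
          have h5 : Polynomial.C (ζ ^ n) = (1 : C[X]) := by
            have : Polynomial.C (Polynomial.C (ζ ^ n)) = Polynomial.C (1 : C[X]) := by rw [h3, C_1]
            exact C_injective this
          have : Polynomial.C (ζ ^ n) = Polynomial.C (1 : C) := by rw [h5, C_1]
          exact C_injective this
        exact (hζ.pow_eq_one_iff_dvd n).1 h4
    set T : C[X][X][X] := contract m S with hT
    have hexp : S = expand C[X][X] m T := by
      ext1 n
      rw [coeff_expand hmpos]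
      split_ifs with h
      · rw [hT, coeff_contract hmpos.ne', Nat.div_mul_cancel h]
      · exact hcoef n h
    refine ⟨T.eval (Polynomial.C (F (K + 1))), ι × Fin m, inferInstance, inferInstance, fun c => ?_⟩
    obtain ⟨x, hx, hprod⟩ := hQ c
    obtain ⟨y, hy⟩ := IsAlgClosed.exists_pow_nat_eq ((F (K + 1)).eval c) hmpos
    refine ⟨fun l k => if k = K + 1 then ζ ^ (l.2 : ℕ) * y else x l.1 k, ?_, ?_⟩
    · intro l k hk
      by_cases h : k = K + 1
      · simp only [h, if_true]
        rw [mul_pow, ← hm, hy, ← pow_mul, mul_comm _ m, pow_mul, hζ.pow_eq_one, one_pow, one_mul]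
      · simp only [h, if_false]
        exact hx _ _ (by omega)
    · have h1 : (T.eval (Polynomial.C (F (K + 1)))).map (evalRingHom c) =
          S.eval₂ (mapRingHom (evalRingHom c)) (Polynomial.C y) := by
        rw [hexp, expand_eq_comp_X_pow, eval₂_comp, eval₂_pow, eval₂_X, ← C_pow, hy,
          ← coe_mapRingHom, eval, hom_eval₂]
        congr 1
        simp
      rw [h1, hS, ← coe_eval₂RingHom, map_prod]
      simp only [coe_eval₂RingHom, tw_eval₂, hprod]
      rw [Fintype.prod_prod_type_right, Finset.prod_range]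
      refine Finset.prod_congr rfl fun i _ => ?_
      rw [prod_comp]
      refine Finset.prod_congr rfl fun l _ => ?_
      rw [Finset.sum_range_succ _ (K + 1)]
      simp only [if_true]
      have : ∑ k ∈ Finset.range (K + 1), (if k = K + 1 then ζ ^ (i : ℕ) * y else x l k) =
          ∑ k ∈ Finset.range (K + 1), x l k :=
        Finset.sum_congr rfl fun k hk => by
          rw [if_neg]; have := Finset.mem_range.1 hk; omega
      rw [this, add_comp, X_comp, C_comp, C_add]
      ring

/-- the polynomial `∏ (Σ_k x_k)` over all choices `x_k ^ (p^k) = F_k` -/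
theorem nrm' [IsAlgClosed C] [CharZero C] {p : ℕ} (hp : p.Prime) (F : ℕ → C[X]) (K : ℕ) :
    ∃ (N : C[X]) (ι : Type) (_ : Fintype ι) (_ : Nonempty ι), ∀ c : C, ∃ x : ι → ℕ → C,
      (∀ l k, k ≤ K → x l k ^ p ^ k = (F k).eval c) ∧
      N.eval c = ∏ l, ∑ k ∈ Finset.range (K + 1), x l k := by
  obtain ⟨Q, ι, h1, h2, h⟩ := nrm hp F K
  refine ⟨Q.coeff 0, ι, h1, h2, fun c => ?_⟩
  obtain ⟨x, hx, hQ⟩ := h c
  refine ⟨x, hx, ?_⟩
  have := congrArg (fun q => Polynomial.eval 0 q) hQ
  simp only [eval_prod, eval_add, eval_X, eval_C, zero_add] at this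
  rw [← this, ← coeff_zero_eq_eval_zero, coeff_map, coe_evalRingHom]

end Crest.Agent.R013.Lin_953
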