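import Crest.Agent.R013.Lin1_953

/-!
# Type 4 points, degree p step: the iteration and folding (helper953, row 13)
-/

open Polynomial NNReal

namespace Crest.Agent.R013.Lin_953

variable {C : Type*} [Field C]


/-! ### the iteration -/

section iterate
variable {v : Valuation C ℝ≥0} {w : Valuation C[X] ℝ≥0} {p : ℕ}

lemma exists_root_nnreal (hp : p ≠ 0) (M : ℝ≥0) : ∃ μ : ℝ≥0, μ ^ p = M :=
  ⟨M ^ ((p : ℝ)⁻¹), NNReal.rpow_inv_natCast_pow M hp⟩

lemma exists_start [IsAlgClosed C] (hp : p.Prime) (hw : ∀ c, w (Polynomial.C c) = v c)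
    (himm : ∀ f : C[X], f ≠ 0 → ∃ c : C, w (f - Polynomial.C c) < w f) {a : C[X]} (ha : a ≠ 0) :
    ∃ b : C[X], w (a * b ^ p - 1) < 1 := by
  obtain ⟨e, he0, he, hlt⟩ := exists_v_eq hw himm ha
  obtain ⟨κ, hκ⟩ := IsAlgClosed.exists_pow_nat_eq (e⁻¹) hp.pos
  refine ⟨Polynomial.C κ, ?_⟩
  have h1 : a * Polynomial.C κ ^ p - 1 = Polynomial.C e⁻¹ * (a - Polynomial.C e) := by
    rw [← C_pow, hκ, mul_sub, ← C_mul, inv_mul_cancel₀ he0, C_1]; ring
  rw [h1, w.map_mul, hw, map_inv₀, he]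
  calc (w a)⁻¹ * w (a - Polynomial.C e) < (w a)⁻¹ * w a :=
        mul_lt_mul_of_pos_left hlt (inv_pos.2 (pos_iff_ne_zero.2 (w_ne_zero himm ha)))
    _ = 1 := inv_mul_cancel₀ (w_ne_zero himm ha)

lemma descend [IsAlgClosed C] [CharZero C] (hp : p.Prime) (hv1 : v (p : C) < 1)
    (hw : ∀ c, w (Polynomial.C c) = v c)
    (himm : ∀ f : C[X], f ≠ 0 → ∃ c : C, w (f - Polynomial.C c) < w f)
    {lam : C} (hl : lam ^ (p - 1) = -(p : C)) {M₀ : ℝ≥0} (hM₀ : 1 < M₀) {a : C[X]} (ha : a ≠ 0)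
    (hN : ¬ ∃ b ≠ 0, ∃ c d : C, d ≠ 0 ∧ w (X - Polynomial.C c) ≤ v d ∧ LinDom v (a * b ^ p) c d) :
    ∃ b : C[X], w (a * b ^ p - 1) < v lam ^ p * M₀ := by
  by_contra hcon
  push Not at hcon
  set r := v lam ^ p * M₀ with hr
  have hvp : v (p : C) = v lam ^ (p - 1) := by rw [← v.map_neg, ← hl, v.map_pow]
  have hp0 : (p : C) ≠ 0 := by exact_mod_cast hp.ne_zero
  have hvp0 : v (p : C) ≠ 0 := by rwa [Valuation.ne_zero_iff]
  have hp1 : p - 1 ≠ 0 := by have := hp.one_lt; omega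
  have hlam0 : v lam ≠ 0 := by
    intro h; rw [h, zero_pow hp1] at hvp; exact hvp0 hvp
  have hr0 : 0 < r := mul_pos (pow_pos (pos_iff_ne_zero.2 hlam0) p) (zero_lt_one.trans hM₀)
  obtain ⟨μ₀, hμ₀⟩ := exists_root_nnreal hp.ne_zero r
  have hμ₀0 : μ₀ ≠ 0 := by
    rintro rfl; rw [zero_pow hp.ne_zero] at hμ₀; exact hr0.ne hμ₀
  have hτ : v (p : C) < μ₀ ^ (p - 1) := by
    have h1 : v (p : C) ^ p < (μ₀ ^ (p - 1)) ^ p := by
      calc v (p : C) ^ p = v (p : C) ^ p * 1 := (mul_one _).symm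
        _ < v (p : C) ^ p * M₀ ^ (p - 1) :=
            mul_lt_mul_of_pos_left (one_lt_pow₀ hM₀ hp1) (pow_pos (pos_iff_ne_zero.2 hvp0) p)
        _ = (μ₀ ^ (p - 1)) ^ p := by
            rw [← pow_mul, mul_comm (p - 1) p, pow_mul, hμ₀, hr, mul_pow, ← pow_mul, hvp, ← pow_mul,
              mul_comm p (p - 1)]
    exact lt_of_pow_lt_pow_left₀ p zero_le h1
  obtain ⟨b₁, hb₁⟩ := exists_start hp hw himm ha
  set M₁ := w (a * b₁ ^ p - 1) with hM₁
  set τ := v (p : C) / μ₀ ^ (p - 1) with hτdef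
  have hτ1 : τ < 1 := by rw [hτdef, div_lt_one (pow_pos (pos_iff_ne_zero.2 hμ₀0) _)]; exact hτ
  set θ := max M₁ τ with hθ
  have hθ1 : θ < 1 := max_lt hb₁ hτ1
  have hstep : ∀ b : C[X], w (a * b ^ p - 1) ≤ M₁ → ∃ b' : C[X], w (a * b' ^ p - 1) ≤ θ * w (a * b ^ p - 1) := by
    intro b hb
    obtain ⟨μ, hμ⟩ := exists_root_nnreal hp.ne_zero (w (a * b ^ p - 1))
    have hμ1 : μ ≤ 1 := by
      by_contra h
      have := one_lt_pow₀ (not_le.1 h) hp.ne_zero
      rw [hμ] at this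
      exact absurd (this.trans_le hb) (not_lt.2 hb₁.le)
    have hμμ : μ₀ ≤ μ := by
      have : μ₀ ^ p ≤ μ ^ p := by rw [hμ₀, hμ]; exact hcon b
      exact (pow_le_pow_iff_left₀ zero_le zero_le hp.ne_zero).1 this
    rcases caseA hp hv1 hw himm a b le_rfl hμ.ge hμ1 with h | ⟨b', hb'⟩
    · exact absurd h hN
    · refine ⟨b', hb'.trans (max_le ?_ ?_)⟩
      · calc v (p : C) * μ = (τ * μ₀ ^ (p - 1)) * μ := by
              rw [hτdef, div_mul_cancel₀ _ (pow_ne_zero _ hμ₀0)]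
          _ ≤ (τ * μ ^ (p - 1)) * μ := by gcongr
          _ = τ * μ ^ p := by
              rw [mul_assoc, ← pow_succ]; congr 2; have := hp.pos; omega
          _ ≤ θ * w (a * b ^ p - 1) := by rw [hμ]; gcongr; exact le_max_right _ _
      · exact mul_le_mul' (hb.trans (le_max_left _ _)) le_rfl
  have hiter : ∀ n : ℕ, ∃ b : C[X], w (a * b ^ p - 1) ≤ θ ^ n * M₁ := by
    intro n
    induction n with
    | zero => exact ⟨b₁, by simp [hM₁]⟩
    | succ n ih =>
      obtain ⟨b, hb⟩ := ih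
      obtain ⟨b', hb'⟩ := hstep b (hb.trans (mul_le_of_le_one_left' (pow_le_one' hθ1.le n)))
      refine ⟨b', hb'.trans ?_⟩
      calc θ * w (a * b ^ p - 1) ≤ θ * (θ ^ n * M₁) := mul_le_mul' le_rfl hb
        _ = θ ^ (n + 1) * M₁ := by rw [pow_succ]; ring
  obtain ⟨n, hn⟩ := _root_.exists_pow_lt_of_lt_one hr0 hθ1
  obtain ⟨b, hb⟩ := hiter n
  have h1 := hcon b
  have h2 : θ ^ n * M₁ ≤ θ ^ n := mul_le_of_le_one_right' hb₁.le
  exact absurd (h1.trans (hb.trans h2)) (not_le.2 hn)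

end iterate

/-! ### folding -/

section fold
variable {v : Valuation C ℝ≥0} {p : ℕ}

/-- `1 + λ^p F` and `1 + λ^p F'` differ by a `p`-th power up to something small -/
def Fold (v : Valuation C ℝ≥0) (p : ℕ) (lam : C) (F F' : C[X]) : Prop :=
  ∃ b : C[X], Bd v b 1 ∧
    BdL v ((1 + Polynomial.C (lam ^ p) * F) * b ^ p - (1 + Polynomial.C (lam ^ p) * F')) (v lam ^ p)

variable {lam : C}

lemma Fold.refl (hl0 : v lam ≠ 0) (F : C[X]) : Fold v p lam F F :=
  ⟨1, Bd.one, by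
    rw [one_pow, mul_one, sub_self]; exact BdL.zero (pow_pos (pos_iff_ne_zero.2 hl0) p)⟩

lemma Fold.trans {F F' F'' : C[X]} (h : Fold v p lam F F') (h' : Fold v p lam F' F'') :
    Fold v p lam F F'' := by
  obtain ⟨b, hb, hb'⟩ := h
  obtain ⟨c, hc, hc'⟩ := h'
  refine ⟨b * c, (hb.mul hc).mono (by simp), ?_⟩
  have e : (1 + Polynomial.C (lam ^ p) * F) * (b * c) ^ p - (1 + Polynomial.C (lam ^ p) * F'') =
      ((1 + Polynomial.C (lam ^ p) * F) * b ^ p - (1 + Polynomial.C (lam ^ p) * F')) * c ^ p +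
        ((1 + Polynomial.C (lam ^ p) * F') * c ^ p - (1 + Polynomial.C (lam ^ p) * F'')) := by
    rw [mul_pow]; ring
  rw [e]
  refine BdL.add ?_ hc'
  have := hb'.mul_bd ((hc.pow p).mono (one_pow p).le) one_pos
  rwa [mul_one] at this

lemma Fold.congr {F F' F'' : C[X]} (hl0 : v lam ≠ 0) (h : Fold v p lam F F') (h' : BdL v (F' - F'') 1) :
    Fold v p lam F F'' := by
  obtain ⟨b, hb, hb'⟩ := h
  refine ⟨b, hb, ?_⟩
  have e : (1 + Polynomial.C (lam ^ p) * F) * b ^ p - (1 + Polynomial.C (lam ^ p) * F'') =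
      ((1 + Polynomial.C (lam ^ p) * F) * b ^ p - (1 + Polynomial.C (lam ^ p) * F')) +
        (F' - F'') * Polynomial.C (lam ^ p) := by ring
  rw [e]
  refine hb'.add ?_
  have h3 : Bd v (Polynomial.C (lam ^ p)) (v lam ^ p) := by
    have := Bd.const (v := v) (lam ^ p); rwa [v.map_pow] at this
  have := h'.mul_bd h3 (pow_pos (pos_iff_ne_zero.2 hl0) p)
  rwa [one_mul] at this

variable {M : ℝ≥0}

lemma fold_step (hp : p.Prime) (hl : lam ^ (p - 1) = -(p : C)) (hl0 : v lam ≠ 0)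
    (hM : 1 ≤ M) (hlM : v lam * M ^ 2 < 1) {F h : C[X]} (hF : Bd v F M) (hh : Bd v h M)
    (hhp : Bd v (h ^ p - h) M) : Fold v p lam F (F + (h ^ p - h)) := by
  have hlp : 0 < v lam ^ p := pow_pos (pos_iff_ne_zero.2 hl0) p
  have hlM1 : v lam * M ≤ 1 := by
    refine le_trans ?_ hlM.le
    rw [pow_two]; gcongr
    exact le_mul_of_one_le_left' hM
  have hl1 : v lam ≤ 1 := le_trans (le_mul_of_one_le_right' hM) hlM1
  have hlpl : v lam ^ p ≤ v lam := by
    calc v lam ^ p ≤ v lam ^ 1 := pow_le_pow_of_le_one zero_le hl1 hp.pos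
      _ = v lam := pow_one _
  have hlpM : v lam ^ p * M ^ 2 < 1 := (mul_le_mul' hlpl le_rfl).trans_lt hlM
  obtain ⟨e, he, heb⟩ := as_step hp hl hh hlM1
  have hC : Bd v (Polynomial.C (lam ^ p)) (v lam ^ p) := by
    have := Bd.const (v := v) (lam ^ p); rwa [v.map_pow] at this
  have heL : BdL v e (v lam ^ p) := heb.bdL (by
    calc v lam ^ p * (v lam * M ^ 2) < v lam ^ p * 1 := mul_lt_mul_of_pos_left hlM hlp
      _ = v lam ^ p := mul_one _)
  refine ⟨1 + Polynomial.C lam * h, Bd.one.add (((Bd.const _).mul hh).mono hlM1), ?_⟩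
  rw [he]
  have e1 : (1 + Polynomial.C (lam ^ p) * F) * (1 + Polynomial.C (lam ^ p) * (h ^ p - h) + e) -
      (1 + Polynomial.C (lam ^ p) * (F + (h ^ p - h))) =
      Polynomial.C (lam ^ p) * F * (Polynomial.C (lam ^ p) * (h ^ p - h)) + e +
        e * (Polynomial.C (lam ^ p) * F) := by ring
  rw [e1]
  refine (BdL.add ?_ heL).add ?_
  · refine (((hC.mul hF).mul (hC.mul hhp))).bdL ?_
    calc v lam ^ p * M * (v lam ^ p * M) = v lam ^ p * (v lam ^ p * M ^ 2) := by ring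
      _ < v lam ^ p * 1 := mul_lt_mul_of_pos_left hlpM hlp
      _ = v lam ^ p := mul_one _
  · have h2 : Bd v (Polynomial.C (lam ^ p) * F) 1 := (hC.mul hF).mono (by
      refine le_trans ?_ hlpM.le
      rw [pow_two]; gcongr; exact le_mul_of_one_le_left' hM)
    have := heL.mul_bd h2 one_pos
    rwa [mul_one] at this

lemma le_of_pow_le (hM : 1 ≤ M) {x : ℝ≥0} {n : ℕ} (hn : n ≠ 0) (h : x ^ n ≤ M) : x ≤ M := by
  rcases le_total x 1 with hx | hx
  · exact hx.trans hM
  · exact (le_self_pow₀ hx hn).trans h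

lemma fold_mono1 [IsAlgClosed C] (hp : p.Prime) (hl : lam ^ (p - 1) = -(p : C)) (hl0 : v lam ≠ 0)
    (hM : 1 ≤ M) (hlM : v lam * M ^ 2 < 1) {G : C[X]} (hG : Bd v G M) {x : C} (hx : v x ^ p ≤ M) (j : ℕ) :
    Fold v p lam (G + Polynomial.C (x ^ p) * X ^ (j * p)) (G + Polynomial.C x * X ^ j) := by
  obtain ⟨κ, hκ⟩ := IsAlgClosed.exists_pow_nat_eq (-1 : C) hp.pos
  have hvκ : v κ = 1 := by
    have : v κ ^ p = 1 := by rw [← v.map_pow, hκ, v.map_neg, v.map_one]
    exact (pow_eq_one_iff_of_nonneg zero_le hp.ne_zero).1 this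
  have hxM : v x ≤ M := le_of_pow_le hM hp.ne_zero hx
  set h := Polynomial.C (κ * x) * X ^ j with hh
  have hhp : h ^ p = - (Polynomial.C (x ^ p) * X ^ (j * p)) := by
    rw [hh, mul_pow, ← C_pow, mul_pow, hκ, ← pow_mul, neg_one_mul, C_neg, neg_mul]
  have hxp : Bd v (Polynomial.C (x ^ p) * X ^ (j * p)) M :=
    (Bd.monomial _ _).mono (by rw [v.map_pow]; exact hx)
  have hhb : Bd v h M := (Bd.monomial _ _).mono (by rw [v.map_mul, hvκ, one_mul]; exact hxM)
  have key := fold_step hp hl hl0 hM hlM (hG.add hxp) hhb (by rw [hhp]; exact hxp.neg.sub hhb)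
  refine key.congr hl0 ?_
  have e : G + Polynomial.C (x ^ p) * X ^ (j * p) + (h ^ p - h) - (G + Polynomial.C x * X ^ j) =
      Polynomial.C (- ((κ + 1) * x)) * X ^ j := by
    rw [hhp, hh]
    simp only [C_neg, C_mul, C_add, C_1]
    ring
  rw [e]
  refine (Bd.monomial _ _).bdL ?_
  rw [v.map_neg, v.map_mul]
  have h1 : (v (κ + 1) * v x) ^ p < 1 := by
    rw [mul_pow]
    have hvp : v (p : C) = v lam ^ (p - 1) := by rw [← v.map_neg, ← hl, v.map_pow]
    have hlM1 : v lam * M < 1 := by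
      refine lt_of_le_of_lt ?_ hlM
      rw [pow_two]; gcongr
      exact le_mul_of_one_le_left' hM
    have hl1 : v lam ≤ 1 := le_trans (le_mul_of_one_le_right' hM) hlM1.le
    calc v (κ + 1) ^ p * v x ^ p ≤ v (p : C) * M := mul_le_mul' (kappa_close hp hκ) hx
      _ ≤ v lam * M := by
          rw [hvp]; gcongr
          calc v lam ^ (p - 1) ≤ v lam ^ 1 :=
                pow_le_pow_of_le_one zero_le hl1 (by have := hp.one_lt; omega)
            _ = v lam := pow_one _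
      _ < 1 := hlM1
  by_contra h2
  exact absurd (one_le_pow₀ (not_lt.1 h2) : 1 ≤ (v (κ + 1) * v x) ^ p) (not_le.2 h1)

lemma fold_mono [IsAlgClosed C] (hp : p.Prime) (hl : lam ^ (p - 1) = -(p : C)) (hl0 : v lam ≠ 0)
    (hM : 1 ≤ M) (hlM : v lam * M ^ 2 < 1) {G : C[X]} (hG : Bd v G M) (q k : ℕ) :
    ∀ {x : C}, v x ^ p ^ k ≤ M →
    Fold v p lam (G + Polynomial.C (x ^ p ^ k) * X ^ (q * p ^ k)) (G + Polynomial.C x * X ^ q) := by
  induction k with
  | zero => intro x _; simpa using Fold.refl hl0 _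
  | succ k ih =>
    intro x hx
    have h1 : v (x ^ p ^ k) ^ p ≤ M := by rw [v.map_pow, ← pow_mul, ← pow_succ]; exact hx
    have h2 := fold_mono1 hp hl hl0 hM hlM hG h1 (q * p ^ k)
    rw [← pow_mul, ← pow_succ, mul_assoc, ← pow_succ] at h2
    refine h2.trans (ih ?_)
    exact le_of_pow_le hM hp.ne_zero (by rw [← v.map_pow]; exact h1)

lemma fold_finset [IsAlgClosed C] (hp : p.Prime) (hl : lam ^ (p - 1) = -(p : C)) (hl0 : v lam ≠ 0)
    (hM : 1 ≤ M) (hlM : v lam * M ^ 2 < 1) {ι : Type*} (x : ι → C) (q k : ι → ℕ) (I : Finset ι)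
    (hx : ∀ i ∈ I, v (x i) ^ p ^ k i ≤ M) :
    ∀ G : C[X], Bd v G M →
    Fold v p lam (G + ∑ i ∈ I, Polynomial.C (x i ^ p ^ k i) * X ^ (q i * p ^ k i))
      (G + ∑ i ∈ I, Polynomial.C (x i) * X ^ q i) := by
  classical
  induction I using Finset.induction_on with
  | empty => intro G _; simpa using Fold.refl hl0 _
  | insert i I hi ih =>
    intro G hG
    rw [Finset.sum_insert hi, Finset.sum_insert hi]
    have hx' : ∀ j ∈ I, v (x j) ^ p ^ k j ≤ M := fun j hj => hx j (by simp [hj])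
    have hxi := hx i (by simp)
    have h1 : Bd v (G + ∑ i ∈ I, Polynomial.C (x i ^ p ^ k i) * X ^ (q i * p ^ k i)) M :=
      hG.add (Bd.sum fun j hj => (Bd.monomial _ _).mono (by rw [v.map_pow]; exact hx' j hj))
    have h2 := fold_mono hp hl hl0 hM hlM h1 (q i) (k i) hxi
    have h3 : Bd v (G + Polynomial.C (x i) * X ^ q i) M :=
      hG.add ((Bd.monomial _ _).mono (le_of_pow_le hM (pow_ne_zero _ hp.ne_zero) hxi))
    have h4 := ih hx' _ h3
    have e1 : G + (Polynomial.C (x i ^ p ^ k i) * X ^ (q i * p ^ k i) +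
        ∑ i ∈ I, Polynomial.C (x i ^ p ^ k i) * X ^ (q i * p ^ k i)) =
        G + ∑ i ∈ I, Polynomial.C (x i ^ p ^ k i) * X ^ (q i * p ^ k i) +
          Polynomial.C (x i ^ p ^ k i) * X ^ (q i * p ^ k i) := by ring
    have e2 : G + ∑ i ∈ I, Polynomial.C (x i ^ p ^ k i) * X ^ (q i * p ^ k i) +
          Polynomial.C (x i) * X ^ q i = G + Polynomial.C (x i) * X ^ q i +
          ∑ i ∈ I, Polynomial.C (x i ^ p ^ k i) * X ^ (q i * p ^ k i) := by ring
    have e3 : G + (Polynomial.C (x i) * X ^ q i + ∑ i ∈ I, Polynomial.C (x i) * X ^ q i) =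
        G + Polynomial.C (x i) * X ^ q i + ∑ i ∈ I, Polynomial.C (x i) * X ^ q i := by ring
    rw [e1, e3]
    rw [e2] at h2
    exact h2.trans h4

/-- Artin--Schreier roots of constants -/
lemma exists_as [IsAlgClosed C] (hp : p.Prime) (hM : 1 ≤ M) {e : C} (he : v e ≤ M) :
    ∃ γ : C, γ ^ p - γ = -e ∧ v γ ≤ M := by
  have hdeg : (X ^ p - X + Polynomial.C e : C[X]).degree ≠ 0 := by
    have h1 : (X ^ p - X + Polynomial.C e : C[X]) = X ^ p + (Polynomial.C (-1) * X + Polynomial.C e) := by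
      rw [C_neg, C_1]; ring
    rw [h1]
    have h2 : (Polynomial.C (-1 : C) * X + Polynomial.C e).degree < (X ^ p : C[X]).degree := by
      rw [degree_X_pow]
      refine lt_of_le_of_lt degree_linear_le ?_
      exact_mod_cast hp.one_lt
    rw [degree_add_eq_left_of_degree_lt h2, degree_X_pow]
    exact_mod_cast hp.ne_zero
  obtain ⟨γ, hγ⟩ := IsAlgClosed.exists_root _ hdeg
  have h0 : γ ^ p - γ + e = 0 := by simpa [IsRoot] using hγ
  have h1 : γ ^ p - γ = -e := by linear_combination h0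
  refine ⟨γ, h1, ?_⟩
  by_contra h2
  push Not at h2
  have h3 : 1 < v γ := hM.trans_lt h2
  have h4 : v γ < v γ ^ p := by
    calc v γ = v γ ^ 1 := (pow_one _).symm
      _ < v γ ^ p := pow_lt_pow_right₀ h3 hp.one_lt
  have h5 : v (γ ^ p - γ) = v γ ^ p := by
    rw [← v.map_pow] at h4
    rw [Valuation.map_sub_eq_of_lt_left v h4, v.map_pow]
  rw [h1, v.map_neg] at h5
  exact absurd (h4.trans_le (h5.ge.trans he)) (not_lt.2 h2.le)

/-- exponents prime to `p` up to `J` -/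
def Qs (p J : ℕ) : Finset ℕ := (Finset.range (J + 1)).filter fun q => ¬ p ∣ q

/-- the folded polynomial -/
noncomputable def folded (p J : ℕ) (x : ℕ → ℕ → C) : C[X] :=
  ∑ i ∈ Qs p J ×ˢ Finset.range (J + 1), Polynomial.C (x i.1 i.2) * X ^ i.1

lemma folded_coeff (J : ℕ) (x : ℕ → ℕ → C) (n : ℕ) :
    (folded p J x).coeff n = if n ∈ Qs p J then ∑ k ∈ Finset.range (J + 1), x n k else 0 := by
  rw [folded, finsetSum_coeff, Finset.sum_product]
  simp only [coeff_C_mul, coeff_X_pow]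
  split_ifs with h
  · rw [Finset.sum_eq_single_of_mem n h]
    · simp
    · intro q _ hq
      exact Finset.sum_eq_zero fun k _ => by rw [if_neg (Ne.symm hq), mul_zero]
  · refine Finset.sum_eq_zero fun q hq => Finset.sum_eq_zero fun k _ => ?_
    rw [if_neg, mul_zero]
    rintro rfl; exact h hq

lemma decomp (hp : p.Prime) (F : C[X]) {J : ℕ} (hJ : F.natDegree ≤ J) :
    F = Polynomial.C (F.coeff 0) +
      ∑ i ∈ Qs p J ×ˢ Finset.range (J + 1), Polynomial.C (F.coeff (i.1 * p ^ i.2)) * X ^ (i.1 * p ^ i.2) := by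
  ext n
  rw [coeff_add, coeff_C, finsetSum_coeff]
  simp only [coeff_C_mul, coeff_X_pow]
  rcases Nat.eq_zero_or_pos n with rfl | hn
  · rw [if_pos rfl, Finset.sum_eq_zero, add_zero]
    rintro ⟨q, k⟩ hi
    rw [if_neg, mul_zero]
    simp only [Finset.mem_product, Qs, Finset.mem_filter] at hi
    intro h
    have h1 : q ≠ 0 := by rintro rfl; exact hi.1.2 (dvd_zero p)
    exact (Nat.mul_ne_zero h1 (pow_ne_zero _ hp.ne_zero)) h.symm
  · rw [if_neg (by omega), zero_add]
    rcases le_or_gt n J with hnJ | hnJ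
    · obtain ⟨k, q, hq, hnq⟩ := Nat.exists_eq_pow_mul_and_not_dvd hn.ne' p hp.ne_one
      have hqpos : 0 < q := by
        rcases Nat.eq_zero_or_pos q with rfl | h
        · exact absurd (dvd_zero p) hq
        · exact h
      have hqn : q ≤ n := by
        rw [hnq]; exact Nat.le_mul_of_pos_left _ (pow_pos hp.pos _)
      have hkn : k < n := by
        calc k < p ^ k := Nat.lt_pow_self hp.one_lt
          _ ≤ n := by rw [hnq]; exact Nat.le_mul_of_pos_right _ hqpos
      have hmem : (q, k) ∈ Qs p J ×ˢ Finset.range (J + 1) := by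
        simp only [Finset.mem_product, Qs, Finset.mem_filter, Finset.mem_range]
        exact ⟨⟨by omega, hq⟩, by omega⟩
      rw [Finset.sum_eq_single_of_mem (q, k) hmem]
      · simp only
        rw [mul_comm q (p ^ k), ← hnq, if_pos rfl, mul_one]
      · rintro ⟨q', k'⟩ hi hne
        rw [if_neg, mul_zero]
        intro h
        simp only [Finset.mem_product, Qs, Finset.mem_filter] at hi
        simp only at h
        apply hne
        rw [hnq, mul_comm] at h
        have hkk : k = k' := by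
          rcases lt_trichotomy k k' with hlt | heq | hgt
          · exfalso
            obtain ⟨t, rfl⟩ := Nat.exists_eq_add_of_lt hlt
            have : q = q' * p ^ (t + 1) := by
              have h3 : p ^ k * q = p ^ k * (q' * p ^ (t + 1)) := by
                rw [mul_comm, h, show k + t + 1 = k + (t + 1) by ring, pow_add]; ring
              exact Nat.eq_of_mul_eq_mul_left (pow_pos hp.pos _) h3
            apply hq
            rw [this, pow_succ]
            exact Dvd.dvd.mul_left (dvd_mul_left p _) _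
          · exact heq
          · exfalso
            obtain ⟨t, rfl⟩ := Nat.exists_eq_add_of_lt hgt
            have : q' = q * p ^ (t + 1) := by
              have h3 : p ^ k' * q' = p ^ k' * (q * p ^ (t + 1)) := by
                rw [mul_comm, ← h, show k' + t + 1 = k' + (t + 1) by ring, pow_add]; ring
              exact Nat.eq_of_mul_eq_mul_left (pow_pos hp.pos _) h3
            apply hi.1.2
            rw [this, pow_succ]
            exact Dvd.dvd.mul_left (dvd_mul_left p _) _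
        subst hkk
        have : q = q' := Nat.eq_of_mul_eq_mul_right (pow_pos hp.pos k) h
        rw [this]
    · rw [coeff_eq_zero_of_natDegree_lt (hJ.trans_lt hnJ), Finset.sum_eq_zero]
      rintro ⟨q, k⟩ _
      simp only
      split_ifs with h
      · rw [← h, coeff_eq_zero_of_natDegree_lt (hJ.trans_lt hnJ), mul_one]
      · rw [mul_zero]

lemma fold_main [IsAlgClosed C] (hp : p.Prime) (hl : lam ^ (p - 1) = -(p : C)) (hl0 : v lam ≠ 0)
    (hM : 1 ≤ M) (hlM : v lam * M ^ 2 < 1) {F : C[X]} {J : ℕ} (hJ : F.natDegree ≤ J) (hF : Bd v F M)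
    {x : ℕ → ℕ → C} (hx : ∀ q k, x q k ^ p ^ k = F.coeff (q * p ^ k)) :
    Fold v p lam F (folded p J x) := by
  -- remove the constant term
  obtain ⟨γ, hγ, hγM⟩ := exists_as (p := p) hp hM (hF 0)
  have hγe : Polynomial.C γ ^ p - Polynomial.C γ = Polynomial.C (-F.coeff 0) := by
    rw [← C_pow, ← C_sub, hγ]
  have h1 : Fold v p lam F (F + (Polynomial.C γ ^ p - Polynomial.C γ)) :=
    fold_step hp hl hl0 hM hlM hF ((Bd.const _).mono hγM)
      (by rw [hγe]; exact (Bd.const _).mono (by rw [v.map_neg]; exact hF 0))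
  have h2 : F + (Polynomial.C γ ^ p - Polynomial.C γ) = 0 +
      ∑ i ∈ Qs p J ×ˢ Finset.range (J + 1), Polynomial.C (x i.1 i.2 ^ p ^ i.2) * X ^ (i.1 * p ^ i.2) := by
    simp only [hx]
    have hd := decomp hp F hJ
    rw [hγe, C_neg, zero_add]
    linear_combination hd
  rw [h2] at h1
  have h3 := fold_finset hp hl hl0 hM hlM (fun i : ℕ × ℕ => x i.1 i.2) (fun i => i.1) (fun i => i.2)
    (Qs p J ×ˢ Finset.range (J + 1)) (fun i _ => by
      rw [← v.map_pow, hx]; exact hF _) 0 Bd.zero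
  have h4 := h1.trans h3
  rwa [zero_add] at h4

end fold

end Crest.Agent.R013.Lin_953
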