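import Crest.Agent.R013.Lin2_953
import Crest.Agent.R013.Lin3_953

/-!
# Type 4 points, degree p step: the unique dominating exponent (helper953, row 13)
-/

open Polynomial NNReal

namespace Crest.Agent.R013.Lin_953

variable {C : Type*} [Field C] {v : Valuation C ℝ≥0} {w : Valuation C[X] ℝ≥0} {p : ℕ}

lemma BdL.sum {ι : Type*} {S : Finset ι} {F : ι → C[X]} {r : ℝ≥0} (hr : 0 < r)
    (h : ∀ i ∈ S, BdL v (F i) r) : BdL v (∑ i ∈ S, F i) r := fun j => by
  rw [finsetSum_coeff]; exact v.map_sum_lt hr.ne' fun i hi => h i hi j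

lemma Bd.X_add_C {e : C} (he : v e ≤ 1) : Bd v (X + Polynomial.C e) 1 := by
  have h1 : Bd v (X : C[X]) 1 := fun j => by
    rw [coeff_X]; split_ifs <;> simp
  exact h1.add ((Bd.const e).mono he)

lemma BdL.taylor {f : C[X]} {r : ℝ≥0} (hf : BdL v f r) {e : C} (he : v e ≤ 1) :
    BdL v (Polynomial.taylor e f) r := by
  have hr : 0 < r := zero_le.trans_lt (hf 0)
  have h1 : Polynomial.taylor e f = ∑ i ∈ Finset.range (f.natDegree + 1),
      Polynomial.C (f.coeff i) * (X + Polynomial.C e) ^ i := by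
    rw [taylor_apply, comp, eval₂_eq_sum_range]
  rw [h1]
  refine BdL.sum hr fun i _ => ?_
  refine ((Bd.const _).mul ((Bd.X_add_C he).pow i)).bdL ?_
  rw [one_pow, mul_one]; exact hf i

/-- the tie set is finite -/
lemma tie_finite (Q : Finset ℕ) (n : ℕ → ℕ) (W : ℕ → ℝ≥0) (hn : ∀ q, 0 < n q) :
    {s : ℝ≥0 | ∃ q ∈ Q, ∃ q' ∈ Q, q < q' ∧ W q ≠ 0 ∧ W q' ≠ 0 ∧ s ≠ 0 ∧
      s ^ (q * n q * n q') * W q ^ n q' = s ^ (q' * n q' * n q) * W q' ^ n q}.Finite := by
  have hsub : {s : ℝ≥0 | ∃ q ∈ Q, ∃ q' ∈ Q, q < q' ∧ W q ≠ 0 ∧ W q' ≠ 0 ∧ s ≠ 0 ∧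
      s ^ (q * n q * n q') * W q ^ n q' = s ^ (q' * n q' * n q) * W q' ^ n q} ⊆
      ⋃ q ∈ (Q : Set ℕ), ⋃ q' ∈ (Q : Set ℕ), {s : ℝ≥0 | q < q' ∧ W q ≠ 0 ∧ W q' ≠ 0 ∧ s ≠ 0 ∧
      s ^ (q * n q * n q') * W q ^ n q' = s ^ (q' * n q' * n q) * W q' ^ n q} := by
    rintro s ⟨q, hq, q', hq', h⟩
    simp only [Set.mem_iUnion]
    exact ⟨q, hq, q', hq', h⟩
  refine Set.Finite.subset (Set.Finite.biUnion Q.finite_toSet fun q _ =>
    Set.Finite.biUnion Q.finite_toSet fun q' _ => Set.Subsingleton.finite ?_) hsub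
  rintro s ⟨hlt, h1, h2, hs, hs'⟩ t ⟨_, _, _, ht, ht'⟩
  have hexp : q * n q * n q' < q' * n q' * n q := by
    have : q * n q * n q' = q * (n q * n q') := by ring
    rw [this]
    have : q' * n q' * n q = q' * (n q * n q') := by ring
    rw [this]
    exact Nat.mul_lt_mul_of_pos_right hlt (Nat.mul_pos (hn _) (hn _))
  obtain ⟨m, hm⟩ := Nat.exists_eq_add_of_lt hexp
  have key : ∀ u : ℝ≥0, u ≠ 0 → u ^ (q * n q * n q') * W q ^ n q' =
      u ^ (q' * n q' * n q) * W q' ^ n q → u ^ (m + 1) = W q ^ n q' / W q' ^ n q := by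
    intro u hu h
    rw [eq_div_iff (pow_ne_zero _ h2)]
    rw [hm, add_assoc _ m 1, pow_add, mul_assoc (u ^ (q * n q * n q'))] at h
    exact (mul_left_cancel₀ (pow_ne_zero _ hu) h).symm
  have h3 : s ^ (m + 1) = t ^ (m + 1) := (key s hs hs').trans (key t ht ht').symm
  exact (pow_left_inj₀ zero_le zero_le (Nat.succ_ne_zero m)).1 h3

/-- LinDom from a unique dominating monomial of exponent prime to `p`, after recentring -/
lemma linDom_recentre (hp : p.Prime) (hv1 : v (p : C) < 1) {t W' : C[X]} {L N : C} {q : ℕ} (hL : v L ≠ 0)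
    (hq : ¬ p ∣ q) (hN : v N ≠ 0) (ht : t = 1 + Polynomial.C L * (Polynomial.C N * X ^ q + W'))
    (hW : BdL v W' (v N)) {e d : C} (he : v e = 1) (hd0 : v d ≠ 0) (hd1 : v d < 1) :
    ∀ j, 2 ≤ j → v ((sh e d t).coeff j) < v ((sh e d t).coeff 1) := by
  have hWt := hW.taylor he.le
  set Z := Polynomial.C N * (X + Polynomial.C e) ^ q + taylor e W' with hZ
  have hcoef : ∀ j, 1 ≤ j → (sh e d t).coeff j = L * (Z.coeff j * d ^ j) := by
    intro j hj
    rw [sh_coeff, ht]
    have h1 : taylor e (1 + Polynomial.C L * (Polynomial.C N * X ^ q + W')) =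
        1 + Polynomial.C L * Z := by
      rw [hZ, taylor_apply, taylor_apply]
      simp
    rw [h1, coeff_add, coeff_one, if_neg (by omega), zero_add, coeff_C_mul]
    ring
  have hZj : ∀ j, v (Z.coeff j) ≤ v N := by
    intro j
    rw [hZ, coeff_add]
    refine (v.map_add _ _).trans (max_le ?_ (hWt j).le)
    have := ((Bd.const (v := v) N).mul ((Bd.X_add_C he.le).pow q)) j
    rwa [one_pow, mul_one] at this
  have hZ1 : v (Z.coeff 1) = v N := by
    have h1 : v ((Polynomial.C N * (X + Polynomial.C e) ^ q).coeff 1) = v N := by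
      rw [coeff_C_mul, coeff_X_add_C_pow, v.map_mul, v.map_mul, v.map_pow, he, one_pow, one_mul,
        Nat.choose_one_right, v_natCast_eq_one hp hv1 hq, mul_one]
    rw [hZ, coeff_add, Valuation.map_add_eq_of_lt_left v (by rw [h1]; exact hWt 1), h1]
  intro j hj
  rw [hcoef j (by omega), hcoef 1 le_rfl, v.map_mul, v.map_mul, v.map_mul, v.map_mul, hZ1, v.map_pow,
    v.map_pow, pow_one]
  have h2 : v d ^ j < v d := by
    calc v d ^ j ≤ v d ^ 2 := pow_le_pow_of_le_one zero_le hd1.le hj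
      _ = v d * v d := pow_two _
      _ < v d * 1 := mul_lt_mul_of_pos_left hd1 (pos_iff_ne_zero.2 hd0)
      _ = v d := mul_one _
  refine mul_lt_mul_of_pos_left ?_ (pos_iff_ne_zero.2 hL)
  calc v (Z.coeff j) * v d ^ j ≤ v N * v d ^ j := mul_le_mul' (hZj j) le_rfl
    _ < v N * v d := mul_lt_mul_of_pos_left h2 (pos_iff_ne_zero.2 hN)

theorem caseB [IsAlgClosed C] [CharZero C] (hp : p.Prime) (hv1 : v (p : C) < 1)
    (hw : ∀ c, w (Polynomial.C c) = v c)
    (himm : ∀ f : C[X], f ≠ 0 → ∃ c : C, w (f - Polynomial.C c) < w f)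
    {lam : C} (hl : lam ^ (p - 1) = -(p : C)) (hl0 : v lam ≠ 0) {M : ℝ≥0} (hM : 1 < M)
    (hlM : v lam * M ^ 2 < 1) (a b₀ : C[X]) (hb₀ : w (a * b₀ ^ p - 1) < v lam ^ p * M)
    (hN : ¬ ∃ b ≠ 0, ∃ c d : C, d ≠ 0 ∧ w (X - Polynomial.C c) ≤ v d ∧ LinDom v (a * b ^ p) c d) :
    ∃ b : C[X], w (a * b ^ p - 1) < v lam ^ p := by
  classical
  by_contra hS
  push Not at hS
  set L := lam ^ p with hL
  have hvL : v L = v lam ^ p := by rw [hL, v.map_pow]
  have hvL0 : 0 < v lam ^ p := pow_pos (pos_iff_ne_zero.2 hl0) p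
  have hL0 : L ≠ 0 := by
    intro h; rw [h, v.map_zero] at hvL; exact hvL0.ne hvL
  have hvp : v (p : C) = v lam ^ (p - 1) := by rw [← v.map_neg, ← hl, v.map_pow]
  have hlM1 : v lam * M < 1 := by
    refine lt_of_le_of_lt ?_ hlM
    rw [pow_two]; gcongr
    exact le_mul_of_one_le_left' hM.le
  have hl1 : v lam < 1 := by
    refine lt_of_le_of_lt ?_ hlM1
    exact le_mul_of_one_le_right' hM.le
  have hpM : v (p : C) * M < 1 := by
    refine lt_of_le_of_lt ?_ hlM1
    rw [hvp]; gcongr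
    calc v lam ^ (p - 1) ≤ v lam ^ 1 :=
          pow_le_pow_of_le_one zero_le hl1.le (by have := hp.one_lt; omega)
      _ = v lam := pow_one _
  set U : C[X] := Polynomial.C L⁻¹ * (a * b₀ ^ p - 1) with hU
  have hUw : w U ≤ M := by
    rw [hU, w.map_mul, hw, map_inv₀, hvL]
    calc (v lam ^ p)⁻¹ * w (a * b₀ ^ p - 1) ≤ (v lam ^ p)⁻¹ * (v lam ^ p * M) :=
          mul_le_mul' le_rfl hb₀.le
      _ = M := by rw [← mul_assoc, inv_mul_cancel₀ hvL0.ne', one_mul]
  have hU1 : a * b₀ ^ p = 1 + Polynomial.C L * U := by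
    rw [hU, ← mul_assoc, ← C_mul, mul_inv_cancel₀ hL0, C_1]; ring
  have hU0 : U ≠ 0 := by
    intro h
    have := hS b₀
    rw [hU1, h, mul_zero, add_zero, sub_self, w.map_zero] at this
    exact absurd hvL0 (not_lt.2 this)
  set J := U.natDegree with hJ
  have hnrm := fun q : ℕ => nrm' (C := C) hp (fun k => hasseDeriv (q * p ^ k) U) J
  choose Nq ι hι hne hx using hnrm
  have hcard : ∀ q, 0 < Fintype.card (ι q) := fun q => Fintype.card_pos
  have hnear : Near w (fun c => ∀ q ∈ Qs p J, Nq q ≠ 0 → F0 v w (Nq q) c) := by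
    refine Near.finset (Qs p J) (P := fun q c => Nq q ≠ 0 → F0 v w (Nq q) c) fun q _ => ?_
    by_cases h : Nq q = 0
    · exact near_of_all fun c h' => absurd h h'
    · exact (near_F0 hw himm h).mono fun c hc _ => hc
  obtain ⟨c, ⟨hcU, hcN⟩, htie⟩ := ((near_F0 hw himm hU0).and hnear).exists_notMem himm _
    (tie_finite (Qs p J) (fun q => Fintype.card (ι q)) (fun q => w (Nq q)) hcard)
  obtain ⟨d, hd0, hd, -⟩ := exists_v_eq hw himm (X_sub_C_ne_zero c)
  set s := w (X - Polynomial.C c) with hs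
  have hs0 : s ≠ 0 := w_ne_zero himm (X_sub_C_ne_zero c)
  set Û := sh c d U with hÛ
  have hÛb : Bd v Û M := fun j => by
    rw [hÛ, sh_coeff, v.map_mul, v.map_pow, hd]; exact (hcU.le j).trans hUw
  have hÛJ : Û.natDegree ≤ J := by
    rw [hÛ, sh_apply, natDegree_comp]
    calc U.natDegree * (Polynomial.C c + Polynomial.C d * X).natDegree ≤ U.natDegree * 1 := by
          refine Nat.mul_le_mul_left _ ?_
          rw [add_comm]; exact natDegree_linear_le
      _ = J := mul_one _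
  have hroot : ∀ q k : ℕ, ∃ x : C, x ^ p ^ k = Û.coeff (q * p ^ k) := fun q k =>
    IsAlgClosed.exists_pow_nat_eq _ (pow_pos hp.pos k)
  choose x hx' using hroot
  have hfold := fold_main hp hl hl0 hM.le hlM hÛJ hÛb hx'
  set G := folded p J x with hG
  set w' := tr w c d with hw'
  have hw'C : ∀ e, w' (Polynomial.C e) = v e := tr_C hw c d
  have hw'imm := tr_imm himm c hd0
  have hw'X : w' X = 1 := by rw [hw', tr_X hw c d, hd]; exact div_self hs0
  -- finishing criterion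
  have hfin : ∀ G' : C[X], Fold v p lam Û G' → w' G' < 1 → False := by
    rintro G' ⟨b₁, hb₁, hE⟩ hG'
    have h1 := hS (b₀ * sh (-c / d) d⁻¹ b₁)
    have h2 : w (a * (b₀ * sh (-c / d) d⁻¹ b₁) ^ p - 1) < v lam ^ p := by
      rw [← tr_sh w c hd0]
      have h3 : sh c d (a * (b₀ * sh (-c / d) d⁻¹ b₁) ^ p - 1) =
          Polynomial.C L * G' + ((1 + Polynomial.C (lam ^ p) * Û) * b₁ ^ p -
            (1 + Polynomial.C (lam ^ p) * G')) := by
        rw [mul_pow, ← mul_assoc, map_sub, map_mul, map_pow, sh_inv' c hd0, hU1, map_add, map_mul,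
          map_one, sh_C, ← hÛ, ← hL]
        ring
      rw [h3]
      refine (Valuation.map_add _ _ _).trans_lt (max_lt ?_ (w_lt_of_bdL hw'C hw'X.le hE))
      rw [Valuation.map_mul]
      have h4 : tr w c d (Polynomial.C L) = v lam ^ p := by rw [tr_C hw, hvL]
      rw [h4]
      calc v lam ^ p * tr w c d G' < v lam ^ p * 1 := mul_lt_mul_of_pos_left hG' hvL0
        _ = v lam ^ p := mul_one _
    exact absurd h2 (not_lt.2 h1)
  by_cases hall : ∀ q ∈ Qs p J, v (∑ k ∈ Finset.range (J + 1), x q k) ≤ 1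
  · -- all coefficients bounded by one
    have hGb : Bd v G 1 := fun j => by
      rw [hG, folded_coeff]
      split_ifs with h
      · exact hall j h
      · rw [v.map_zero]; exact zero_le
    obtain ⟨e, he1, he⟩ : ∃ e : C, v e ≤ 1 ∧ w' (G - Polynomial.C e) < 1 := by
      have hG1 : w' G ≤ 1 := w_le_of_bd hw'C hw'X.le hGb
      rcases lt_or_eq_of_le hG1 with h | h
      · exact ⟨0, by simp, by simpa using h⟩
      · have hG0 : G ≠ 0 := by
          rintro h'; rw [h', map_zero] at h; exact zero_ne_one h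
        obtain ⟨e, _, he, he'⟩ := exists_v_eq hw'C hw'imm hG0
        exact ⟨e, (he.trans h).le, he'.trans_eq h⟩
    obtain ⟨γ, hγ, hγ1⟩ := exists_as (p := p) hp (le_refl (1 : ℝ≥0)) he1
    have hγe : Polynomial.C γ ^ p - Polynomial.C γ = Polynomial.C (-e) := by
      rw [← C_pow, ← C_sub, hγ]
    have h1 : Fold v p lam G (G + (Polynomial.C γ ^ p - Polynomial.C γ)) :=
      fold_step hp hl hl0 le_rfl (by rw [one_pow, mul_one]; exact hl1) hGb ((Bd.const _).mono hγ1)
        (by rw [hγe]; exact (Bd.const _).mono (by rw [v.map_neg]; exact he1))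
    refine hfin _ (hfold.trans h1) ?_
    rw [hγe, C_neg, ← sub_eq_add_neg]
    exact he
  push Not at hall
  obtain ⟨q₀, hq₀, hq₀1⟩ := hall
  obtain ⟨q, hq, hqmax⟩ := Finset.exists_max_image (Qs p J)
    (fun q => v (∑ k ∈ Finset.range (J + 1), x q k)) ⟨q₀, hq₀⟩
  set N := ∑ k ∈ Finset.range (J + 1), x q k with hNdef
  have hN1 : 1 < v N := hq₀1.trans_le (hqmax q₀ hq₀)
  -- the value of a large coefficient
  have hval : ∀ q ∈ Qs p J, 1 < v (∑ k ∈ Finset.range (J + 1), x q k) →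
      Nq q ≠ 0 ∧ v (∑ k ∈ Finset.range (J + 1), x q k) ^ Fintype.card (ι q) =
        s ^ (q * Fintype.card (ι q)) * w (Nq q) := by
    intro q hq h1
    obtain ⟨y, hy, hyN⟩ := hx q c
    have hclose : ∀ l, ∀ k ∈ Finset.range (J + 1), v (x q k - d ^ q * y l k) < 1 := by
      intro l k hk
      refine roots_close hp hM.le hpM k _ _ ?_ ?_
      · rw [← v.map_pow, hx']; exact hÛb _
      · rw [hx', mul_pow, hy l k (by have := Finset.mem_range.1 hk; omega), hÛ, sh_coeff, taylor_coeff,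
          ← pow_mul, mul_comm]
    have hsum : ∀ l, v (d ^ q * ∑ k ∈ Finset.range (J + 1), y l k) =
        v (∑ k ∈ Finset.range (J + 1), x q k) := by
      intro l
      have h2 : v (∑ k ∈ Finset.range (J + 1), x q k - d ^ q * ∑ k ∈ Finset.range (J + 1), y l k) < 1 := by
        rw [Finset.mul_sum, ← Finset.sum_sub_distrib]
        exact v.map_sum_lt one_ne_zero (hclose l)
      have h3 : d ^ q * ∑ k ∈ Finset.range (J + 1), y l k = ∑ k ∈ Finset.range (J + 1), x q k -
          (∑ k ∈ Finset.range (J + 1), x q k - d ^ q * ∑ k ∈ Finset.range (J + 1), y l k) := by ring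
      rw [h3]
      exact Valuation.map_sub_eq_of_lt_left v (h2.trans h1)
    have hprod : v (∑ k ∈ Finset.range (J + 1), x q k) ^ Fintype.card (ι q) =
        s ^ (q * Fintype.card (ι q)) * v ((Nq q).eval c) := by
      rw [hyN, map_prod]
      have h4 : ∏ l : ι q, v (d ^ q * ∑ k ∈ Finset.range (J + 1), y l k) =
          v (∑ k ∈ Finset.range (J + 1), x q k) ^ Fintype.card (ι q) := by
        rw [Finset.prod_congr rfl fun l _ => hsum l, Finset.prod_const, Finset.card_univ]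
      rw [← h4]
      simp only [v.map_mul, v.map_pow, hd]
      rw [Finset.prod_mul_distrib, Finset.prod_const, Finset.card_univ, ← pow_mul]
    have hne0 : Nq q ≠ 0 := by
      intro h
      rw [h, eval_zero, v.map_zero, mul_zero] at hprod
      exact (pow_pos (zero_lt_one.trans h1) _).ne' hprod
    refine ⟨hne0, ?_⟩
    rw [hprod, ← (hcN q hq hne0).1, taylor_coeff_zero]
  -- uniqueness
  have huniq : ∀ q' ∈ Qs p J, q' ≠ q → v (∑ k ∈ Finset.range (J + 1), x q' k) < v N := by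
    intro q' hq' hne'
    refine lt_of_le_of_ne (hqmax q' hq') fun heq => ?_
    obtain ⟨hz, hz'⟩ := hval q hq hN1
    obtain ⟨hy, hy'⟩ := hval q' hq' (by rw [heq]; exact hN1)
    rw [heq] at hy'
    rw [← hNdef] at hz'
    have key : s ^ (q * Fintype.card (ι q) * Fintype.card (ι q')) * w (Nq q) ^ Fintype.card (ι q') =
        s ^ (q' * Fintype.card (ι q') * Fintype.card (ι q)) * w (Nq q') ^ Fintype.card (ι q) := by
      rw [pow_mul s, ← mul_pow, ← hz', pow_mul s, ← mul_pow, ← hy', ← pow_mul, ← pow_mul, mul_comm]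
    apply htie
    rcases lt_or_gt_of_ne hne' with hlt | hlt
    · exact ⟨q', hq', q, hq, hlt, w_ne_zero himm hy, w_ne_zero himm hz, hs0, key.symm⟩
    · exact ⟨q, hq, q', hq', hlt, w_ne_zero himm hz, w_ne_zero himm hy, hs0, key⟩
  -- recentre
  obtain ⟨b₁, hb₁, hE⟩ := hfold
  set E := (1 + Polynomial.C (lam ^ p) * Û) * b₁ ^ p - (1 + Polynomial.C (lam ^ p) * G) with hEdef
  set b := b₀ * sh (-c / d) d⁻¹ b₁ with hb
  set W' := (G - Polynomial.C N * X ^ q) + Polynomial.C L⁻¹ * E with hW'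
  have ht : sh c d (a * b ^ p) = 1 + Polynomial.C L * (Polynomial.C N * X ^ q + W') := by
    have h1 : sh c d (a * b ^ p) = 1 + Polynomial.C L * G + E := by
      rw [hb, hEdef, mul_pow, ← mul_assoc, map_mul, map_pow, sh_inv' c hd0, hU1, map_add, map_mul,
          map_one, sh_C, ← hÛ, ← hL]
      ring
    have h2 : Polynomial.C L * Polynomial.C L⁻¹ = 1 := by rw [← C_mul, mul_inv_cancel₀ hL0, C_1]
    rw [h1, hW']
    linear_combination (-E) * h2
  have hW'b : BdL v W' (v N) := by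
    refine BdL.add (fun j => ?_) ?_
    · rw [coeff_sub, hG, folded_coeff, coeff_C_mul, coeff_X_pow]
      by_cases hj : j = q
      · subst hj
        rw [if_pos hq, if_pos rfl, mul_one, ← hNdef, sub_self, v.map_zero]
        exact zero_lt_one.trans hN1
      · rw [if_neg hj, mul_zero, sub_zero]
        split_ifs with h
        · exact huniq j h hj
        · rw [v.map_zero]; exact zero_lt_one.trans hN1
    · have h1 : Bd v (Polynomial.C L⁻¹) (v lam ^ p)⁻¹ := by
        have h0 : v L⁻¹ = (v lam ^ p)⁻¹ := by rw [map_inv₀, hvL]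
        rw [← h0]; exact Bd.const _
      have h2 := hE.mul_bd h1 (inv_pos.2 hvL0)
      rw [mul_inv_cancel₀ hvL0.ne', mul_comm E] at h2
      exact h2.mono hN1.le
  have hpq : ¬ p ∣ q := (Finset.mem_filter.1 hq).2
  obtain ⟨e, he0, hve, he⟩ := exists_v_eq hw'C hw'imm (f := X) X_ne_zero
  rw [hw'X] at hve he
  obtain ⟨d₁, hd₁0, hvd₁, -⟩ := exists_v_eq hw'C hw'imm (X_sub_C_ne_zero e)
  have hd₁1 : v d₁ < 1 := by rw [hvd₁]; exact he
  have hdom := linDom_recentre hp hv1 (by rw [hvL]; exact hvL0.ne') hpq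
    (zero_lt_one.trans hN1).ne' ht hW'b hve ((Valuation.ne_zero_iff v).2 hd₁0) hd₁1
  rw [sh_sh] at hdom
  have hdom' : LinDom v (a * b ^ p) (c + d * e) (d * d₁) := linDom_iff.2 hdom
  refine hN ⟨b, ?_, c + d * e, d * d₁, mul_ne_zero hd0 hd₁0, ?_, hdom'⟩
  · intro h
    have := hdom' 2 le_rfl
    rw [h, zero_pow hp.ne_zero, mul_zero, map_zero, coeff_zero, coeff_zero, v.map_zero, zero_mul,
      zero_mul] at this
    exact lt_irrefl _ this
  · rw [v.map_mul, hvd₁, ← hw'C d, ← Valuation.map_mul]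
    apply le_of_eq
    rw [← tr_sh w c hd0 (X - Polynomial.C (c + d * e)), hw']
    congr 1
    rw [map_sub, sh_X, sh_C, C_add, C_mul]
    ring

end Crest.Agent.R013.Lin_953
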