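import Mathlib
import Crest.Agent.R013.NP_168

/-!
# R013 / M2 (helper797): LEMMA M2 of post #3792

`M/L` finite Galois (any degree), `w` a valuation of `M` with residue characteristic `p`, `y_i ∈ M`
integral.  Let `H` be the subgroup of the decomposition group fixing the residues of the `y_i` and
`M₂ = M^H`.  Then

* `exists_lift_pow` : for some `r` there are `y_i' ∈ M₂` congruent to `y_i ^ (p ^ r)`;
* `residue_M2` : the residues of `M₂` are purely inseparable over `κ_L(ȳ_i)`.
-/

set_option autoImplicit false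

namespace Crest.Agent.R013.M2_797

open IsLocalRing Polynomial Module IntermediateField
open scoped NNReal
open Crest.Agent.R013.ResP_168

/-- `p ∤ binom (p^r n, p^r)` if `p ∤ n` -/
theorem not_dvd_choose {p : ℕ} (hp : p.Prime) {n : ℕ} (hn : ¬ p ∣ n) (r : ℕ) :
    ¬ p ∣ (p ^ r * n).choose (p ^ r) := by
  have : Fact p.Prime := ⟨hp⟩
  induction r with
  | zero => simpa using hn
  | succ r ih =>
    intro h
    apply ih
    have h1 := Choose.choose_modEq_choose_mod_mul_choose_div_nat (n := p ^ (r + 1) * n)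
      (k := p ^ (r + 1)) (p := p)
    have h2 : p ^ (r + 1) * n % p = 0 := by
      rw [pow_succ, mul_assoc, mul_comm p n, ← mul_assoc]
      exact Nat.mul_mod_left _ _
    have h3 : p ^ (r + 1) % p = 0 := by
      rw [pow_succ]; exact Nat.mul_mod_left _ _
    have h4 : p ^ (r + 1) * n / p = p ^ r * n := by
      rw [pow_succ, mul_assoc, mul_comm p n, ← mul_assoc]
      exact Nat.mul_div_cancel _ hp.pos
    have h5 : p ^ (r + 1) / p = p ^ r := by
      rw [pow_succ]
      exact Nat.mul_div_cancel _ hp.pos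
    rw [h2, h3, h4, h5, Nat.choose_self, one_mul] at h1
    exact (Nat.modEq_zero_iff_dvd.1 (h1.symm.trans (Nat.modEq_zero_iff_dvd.2 h)))

section sym

variable {L M : Type*} [Field L] [Field M] [Algebra L M]
  {Γ : Type*} [LinearOrderedCommGroupWithZero Γ] {w : Valuation M Γ}

/-- integers prime to `p` are units -/
theorem val_natCast_eq_one {p : ℕ} (hp : p.Prime) (hwp : w (p : M) < 1) {c : ℕ} (hc : ¬ p ∣ c) :
    w (c : M) = 1 := by
  have hle : ∀ n : ℤ, w (n : M) ≤ 1 := by
    intro n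
    have h : ∀ n : ℕ, w (n : M) ≤ 1 := by
      intro n
      induction n with
      | zero => simp
      | succ n ih =>
        push_cast
        exact w.map_add_le ih (by rw [map_one])
    rcases Int.eq_nat_or_neg n with ⟨m, rfl | rfl⟩
    · simpa using h m
    · push_cast
      rw [Valuation.map_neg]
      exact h m
  refine le_antisymm (by simpa using hle c) ?_
  by_contra hlt
  push Not at hlt
  have hcop : p.Coprime c := (Nat.Prime.coprime_iff_not_dvd hp).2 hc
  have hbez : (p : ℤ) * Int.gcdA p c + c * Int.gcdB p c = 1 := by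
    have := Nat.gcd_eq_gcd_ab p c
    rw [hcop.gcd_eq_one] at this
    exact_mod_cast this.symm
  have h1 : (p : M) * (Int.gcdA p c : M) + (c : M) * (Int.gcdB p c : M) = 1 := by
    exact_mod_cast congrArg (fun z : ℤ => (z : M)) hbez
  have h2 : w ((p : M) * (Int.gcdA p c : M) + (c : M) * (Int.gcdB p c : M)) < 1 := by
    refine Valuation.map_add_lt _ ?_ ?_
    · rw [map_mul]; exact mul_lt_one_of_lt_of_le hwp (hle _)
    · rw [map_mul]; exact mul_lt_one_of_lt_of_le hlt (hle _)
  rw [h1, map_one] at h2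
  exact lt_irrefl _ h2

/-- **symmetric functions.** `D` a finite group of automorphisms of `(M, w)`, `a` integral with
invariant residue, `#D = p^r n`, `p ∤ n`: there is a `D`-invariant `a'` congruent to `a^(p^r)`. -/
theorem exists_fixed_pow {p : ℕ} (hp : p.Prime) (hwp : w (p : M) < 1)
    (D : Subgroup (M ≃ₐ[L] M)) [Finite D]
    (hD : ∀ σ ∈ D, ∀ x, w (σ x) = w x) {r n : ℕ} (hr : Nat.card D = p ^ r * n) (hn : ¬ p ∣ n)
    {a : M} (ha : w a ≤ 1) (hfix : ∀ σ ∈ D, w (σ a - a) < 1) :
    ∃ a' : M, w a' ≤ 1 ∧ (∀ σ ∈ D, σ a' = a') ∧ w (a' - a ^ p ^ r) < 1 := by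
  classical
  have := Fintype.ofFinite D
  set O := w.valuationSubring with hO
  have haσ : ∀ σ : D, w ((σ : M ≃ₐ[L] M) a) ≤ 1 := fun σ => by rw [hD _ σ.2]; exact ha
  let aO : D → O := fun σ => ⟨(σ : M ≃ₐ[L] M) a, haσ σ⟩
  let PO : O[X] := ∏ σ : D, (X - C (aO σ))
  have hPM : PO.map O.subtype = ∏ σ : D, (X - C ((σ : M ≃ₐ[L] M) a)) := by
    rw [Polynomial.map_prod]
    refine Finset.prod_congr rfl fun σ _ => ?_
    rw [Polynomial.map_sub, map_X, map_C]
    rfl
  have hPR : PO.map (residue O) = (X - C (residue O ⟨a, ha⟩)) ^ Nat.card D := by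
    rw [Polynomial.map_prod, Nat.card_eq_fintype_card, ← Finset.card_univ, ← Finset.prod_const]
    refine Finset.prod_congr rfl fun σ _ => ?_
    rw [Polynomial.map_sub, map_X, map_C]
    congr 2
    rw [← sub_eq_zero, ← map_sub, residue_eq_zero_iff']
    exact hfix _ σ.2
  set N := Nat.card D with hN
  have hpr : p ^ r ≤ N := by
    rw [hr]
    refine Nat.le_mul_of_pos_right _ (Nat.pos_of_ne_zero ?_)
    rintro rfl
    exact hn (dvd_zero _)
  set j := N - p ^ r with hj
  have hjr : N - j = p ^ r := by omega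
  set c := N.choose (p ^ r) with hc
  have hcN : N.choose j = c := Nat.choose_symm hpr
  have hcp : ¬ p ∣ c := by rw [hc, hr]; exact not_dvd_choose hp hn r
  set b : M := (PO.map O.subtype).coeff j with hb
  have hbO : b = ((PO.coeff j : O) : M) := by rw [hb, coeff_map]; rfl
  have hb1 : w b ≤ 1 := by rw [hbO]; exact (PO.coeff j).2
  -- invariance
  have hbfix : ∀ τ ∈ D, τ b = b := by
    intro τ hτ
    have h1 : (PO.map O.subtype).map (τ : M →+* M) = PO.map O.subtype := by
      rw [hPM, Polynomial.map_prod]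
      refine Fintype.prod_equiv (Equiv.mulLeft (⟨τ, hτ⟩ : D)) _ _ fun σ => ?_
      rw [Polynomial.map_sub, map_X, map_C]
      rfl
    have h2 := congrArg (fun P : M[X] => P.coeff j) h1
    simp only [coeff_map (p := PO.map O.subtype)] at h2
    exact h2
  -- the residue
  set e : M := (-1) ^ p ^ r * (c : M) with he
  have hwe : w e = 1 := by
    rw [he, map_mul, map_pow, Valuation.map_neg, map_one, one_pow, one_mul]
    exact val_natCast_eq_one hp hwp hcp
  have hres : w (b - e * a ^ p ^ r) < 1 := by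
    have h1 : residue O (PO.coeff j) = (-(residue O ⟨a, ha⟩)) ^ p ^ r * (c : ResidueField O) := by
      rw [← coeff_map, hPR, sub_eq_add_neg, ← C_neg, coeff_X_add_C_pow, hjr, hcN]
    have h2 : residue O (PO.coeff j - ((-1) ^ p ^ r * (c : O) * (⟨a, ha⟩ : O) ^ p ^ r)) = 0 := by
      rw [map_sub, h1, map_mul, map_mul, map_pow, map_pow, map_neg, map_one, map_natCast, neg_pow]
      ring
    rw [residue_eq_zero_iff'] at h2
    have h3 : ((PO.coeff j - ((-1) ^ p ^ r * (c : O) * (⟨a, ha⟩ : O) ^ p ^ r) : O) : M) =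
        b - e * a ^ p ^ r := by
      rw [hbO, he]
      push_cast
      ring
    rwa [h3] at h2
  have he0 : e ≠ 0 := by
    intro h0
    rw [h0, map_zero] at hwe
    exact zero_ne_one hwe
  refine ⟨b / e, ?_, ?_, ?_⟩
  · rw [map_div₀, hwe, div_one]; exact hb1
  · intro σ hσ
    rw [map_div₀, hbfix σ hσ]
    congr 1
    rw [he, map_mul, map_pow, map_neg, map_one, map_natCast]
  · have h4 : b / e - a ^ p ^ r = (b - e * a ^ p ^ r) / e := by
      field_simp
    rw [h4, map_div₀, hwe, div_one]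
    exact hres

end sym


section gal

variable {L M : Type*} [Field L] [Field M] [Algebra L M]
  {Γ : Type*} [LinearOrderedCommGroupWithZero Γ] {w : Valuation M Γ}
  {ι : Type*}

/-- the elements of the decomposition group which fix the residues of the `y i` -/
def Hd (L : Type*) {M : Type*} [Field L] [Field M] [Algebra L M]
    {Γ : Type*} [LinearOrderedCommGroupWithZero Γ] (w : Valuation M Γ)
    {ι : Type*} (y : ι → M) : Subgroup (Dec L w) where
  carrier := {σ | ∀ i, σ • rs w (y i) = rs w (y i)}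
  one_mem' := fun i => one_smul _ _
  mul_mem' := fun {σ τ} hσ hτ i => by rw [mul_smul, hτ i, hσ i]
  inv_mem' := fun {σ} hσ i => by rw [inv_smul_eq_iff, hσ i]

/-- the same as a subgroup of `Gal(M/L)` -/
def HH (L : Type*) {M : Type*} [Field L] [Field M] [Algebra L M]
    {Γ : Type*} [LinearOrderedCommGroupWithZero Γ] (w : Valuation M Γ)
    {ι : Type*} (y : ι → M) : Subgroup (M ≃ₐ[L] M) := (Hd L w y).map (Dec L w).subtype

theorem mem_HH {y : ι → M} (hy : ∀ i, w (y i) ≤ 1) {σ : M ≃ₐ[L] M} :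
    σ ∈ HH L w y ↔ σ ∈ Dec L w ∧ ∀ i, w (σ (y i) - y i) < 1 := by
  constructor
  · rintro ⟨τ, hτ, rfl⟩
    refine ⟨τ.2, fun i => ?_⟩
    have h1 := hτ i
    rw [smul_rs τ (hy i), rs_eq_iff ((mem_Dec.1 τ.2 _).2 (hy i)) (hy i)] at h1
    exact h1
  · rintro ⟨h1, h2⟩
    refine ⟨⟨σ, h1⟩, fun i => ?_, rfl⟩
    rw [smul_rs ⟨σ, h1⟩ (hy i), rs_eq_iff ((mem_Dec.1 h1 _).2 (hy i)) (hy i)]
    exact h2 i

/-- **the field `M₂`** -/
def M2 (L : Type*) {M : Type*} [Field L] [Field M] [Algebra L M]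
    {Γ : Type*} [LinearOrderedCommGroupWithZero Γ] (w : Valuation M Γ)
    {ι : Type*} (y : ι → M) : IntermediateField L M := IntermediateField.fixedField (HH L w y)

theorem mem_M2 {y : ι → M} {b : M} : b ∈ M2 L w y ↔ ∀ σ ∈ HH L w y, σ b = b := by
  rw [M2, IntermediateField.mem_fixedField_iff]

variable [FiniteDimensional L M]

theorem val_Dec {σ : M ≃ₐ[L] M} (hσ : σ ∈ Dec L w) (x : M) : w (σ x) = w x :=
  Hens_899.mem_decomp.1 (mem_Dec_iff.1 hσ) x

theorem charP_RFw {p : ℕ} (hp : p.Prime) (hwp : w (p : M) < 1) : CharP (RF w) p := by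
  rw [CharP.charP_iff_prime_eq_zero hp]
  have h2 : (p : RF w) = residue w.valuationSubring (p : w.valuationSubring) :=
    (map_natCast _ _).symm
  rw [h2, ResP_168.residue_eq_zero_iff']
  push_cast
  exact hwp

/-- the invariants of the decomposition group on the residue field are purely inseparable over the
residue field of `L` -/
theorem pow_mem_of_fixed [IsGalois L M] {κ : Type*} [Field κ] [Algebra κ (RF w)]
    (h : IsRes L w κ) {p : ℕ} (hp : p.Prime) (hwp : w (p : M) < 1) {r n : ℕ}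
    (hr : Nat.card (Dec L w) = p ^ r * n) (hn : ¬ p ∣ n) {x : RF w}
    (hx : ∀ σ : Dec L w, σ • x = x) : x ^ p ^ r ∈ (algebraMap κ (RF w)).range := by
  obtain ⟨a, ha, rfl⟩ := exists_rs x
  obtain ⟨a', ha', hfix, hres⟩ := exists_fixed_pow hp hwp (Dec L w)
    (fun σ hσ x => val_Dec hσ x) hr hn ha (fun σ hσ => by
      have h1 := hx ⟨σ, hσ⟩
      rw [smul_rs ⟨σ, hσ⟩ ha, rs_eq_iff ((mem_Dec.1 hσ _).2 ha) ha] at h1
      exact h1)
  obtain ⟨b0, hb0⟩ := Hens_899.residue_fin w (fun σ hσ => hfix σ (mem_Dec_iff.2 hσ)) ha'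
  have hb0' : w (algebraMap L M b0) ≤ 1 := by
    have h1 : algebraMap L M b0 = a' - (a' - algebraMap L M b0) := by ring
    rw [h1]
    exact w.map_sub_le ha' hb0.le
  have hap : w (a ^ p ^ r) ≤ 1 := by rw [map_pow]; exact pow_le_one' ha _
  rw [← rs_pow ha, ← (rs_eq_iff ha' hap).2 hres, (rs_eq_iff ha' hb0').2 hb0]
  exact h.mem b0 hb0'

/-- **Residues of `M₂`** are purely inseparable over `κ_L(ȳ_i)`. -/
theorem residue_M2 [IsGalois L M] {κ : Type*} [Field κ] [Algebra κ (RF w)]
    (h : IsRes L w κ) {p : ℕ} (hp : p.Prime) (hwp : w (p : M) < 1) {r n : ℕ}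
    (hr : Nat.card (Dec L w) = p ^ r * n) (hn : ¬ p ∣ n) (y : ι → M) {b : M}
    (hb : b ∈ M2 L w y) (hb1 : w b ≤ 1) :
    rs w b ^ p ^ r ∈ IntermediateField.adjoin κ (Set.range fun i => rs w (y i)) := by
  classical
  have : Fact p.Prime := ⟨hp⟩
  have hch : CharP (RF w) p := charP_RFw hp hwp
  have : ExpChar (RF w) p := ExpChar.prime hp
  set A := IntermediateField.adjoin κ (Set.range fun i => rs w (y i)) with hA
  let F0 := FixedPoints.subfield (Dec L w) (RF w)
  have hgal : IsGalois F0 (RF w) := { to_isSeparable := inferInstance, to_normal := inferInstance }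
  let E := IntermediateField.adjoin F0 (Set.range fun i => rs w (y i))
  have hbE : rs w b ∈ E := by
    rw [← IsGalois.fixedField_fixingSubgroup E, IntermediateField.mem_fixedField_iff]
    intro τ hτ
    obtain ⟨σ, hσ⟩ := FixedPoints.toAlgAut_surjective (Dec L w) (RF w) τ
    have hact : ∀ x : RF w, τ x = σ • x := by
      intro x
      rw [← hσ]
      rfl
    have hσH : σ ∈ Hd L w y := by
      intro i
      rw [← hact]
      exact (IntermediateField.mem_fixingSubgroup_iff E τ).1 hτ _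
        (IntermediateField.subset_adjoin _ _ ⟨i, rfl⟩)
    rw [hact, smul_rs σ hb1]
    congr 1
    exact (mem_M2 (L := L) (w := w) (y := y)).1 hb (σ : M ≃ₐ[L] M) ⟨σ, hσH, rfl⟩
  -- Frobenius
  let S : Subfield (RF w) := A.toSubfield.comap (iterateFrobenius (RF w) p r)
  have hF0 : ∀ z : F0, algebraMap F0 (RF w) z ∈ S := by
    intro z
    change iterateFrobenius (RF w) p r (z : RF w) ∈ A
    rw [iterateFrobenius_def]
    obtain ⟨c, hc⟩ := pow_mem_of_fixed h hp hwp hr hn (x := (z : RF w)) (fun σ => z.2 σ)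
    rw [← hc]
    exact A.algebraMap_mem c
  have hES : E ≤ S.toIntermediateField hF0 := by
    rw [IntermediateField.adjoin_le_iff]
    rintro _ ⟨i, rfl⟩
    change iterateFrobenius (RF w) p r (rs w (y i)) ∈ A
    rw [iterateFrobenius_def]
    have h3 : rs w (y i) ∈ A := IntermediateField.subset_adjoin κ _ ⟨i, rfl⟩
    exact pow_mem h3 _
  have h2 : iterateFrobenius (RF w) p r (rs w b) ∈ A := hES hbE
  rwa [iterateFrobenius_def] at h2

/-- **Lifts**: `M₂` contains elements congruent to `y_i ^ (p ^ s)`. -/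
theorem exists_lift_pow {p : ℕ} (hp : p.Prime) (hwp : w (p : M) < 1) {y : ι → M}
    (hy : ∀ i, w (y i) ≤ 1) {s n : ℕ} (hs : Nat.card (HH L w y) = p ^ s * n) (hn : ¬ p ∣ n) (i : ι) :
    ∃ a' : M2 L w y, w ((a' : M) - y i ^ p ^ s) < 1 := by
  obtain ⟨a', -, hfix, hres⟩ := exists_fixed_pow hp hwp (HH L w y)
    (fun σ hσ x => val_Dec ((mem_HH hy).1 hσ).1 x) hs hn (hy i)
    (fun σ hσ => ((mem_HH hy).1 hσ).2 i)
  exact ⟨⟨a', mem_M2.2 hfix⟩, hres⟩

end gal

end Crest.Agent.R013.M2_797
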