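import Mathlib
import Crest.Agent.R013.M2_797
import Crest.Agent.R013.AVal_168

/-!
# R013 / M2b (helper797): the vertex function of `M₂` is not an `l`-th power

Setting of `M2_797` over constants `k` (`w` Gauss for `t ∈ L`, residue field of `L` = `κ₀(t̄)`), `M/L`
finite Galois of any degree, `S, Z ∈ M` integral with `Z ^ p - Z ≡ S ^ m`, `p ∤ m`, and `t̄` a
polynomial in `S̄` (`S = t` for an Artin-Schreier vertex; `S = w + c` for the `ℤ/4`-vertex, `p = 2`).
Then there are `s', z' ∈ M₂` congruent to `S ^ (p ^ r)`, `Z ^ (p ^ r)`, and `z'` is not congruent to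
an `l`-th power of an element of `M₂` (`l > 1` prime to `p`).
-/

set_option autoImplicit false

namespace Crest.Agent.R013.M2b_797

open IsLocalRing Polynomial Module IntermediateField
open scoped NNReal
open Crest.Agent.R013.ResP_168 Crest.Agent.R013.LiftA_168 Crest.Agent.R013.NP_168
  Crest.Agent.R013.M2_797

section res

variable {κ L : Type*} [Field κ] [Field L] [Algebra κ L] {p : ℕ} [hp : Fact p.Prime] [CharP κ p]
  {c : κ} {m : ℕ} {t y : L}

/-- `y` is not an `l`-th power in `κ(t)(y)` -/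
theorem not_pow_mem (ht : Transcendental κ t) (hc : c ≠ 0) (hpm : p.Coprime m) (hm : 0 < m)
    (hAS : y ^ p - y = algebraMap κ L c * t ^ m) (l : ℕ) (hl : 1 < l)
    (z : L) (hz : z ∈ IntermediateField.adjoin κ⟮t⟯ {y}) : z ^ l ≠ y := by
  let a1 : Algebra κ[X] κ⟮t⟯ := (aeval (AdjoinSimple.gen κ t) : κ[X] →ₐ[κ] κ⟮t⟯).toRingHom.toAlgebra
  let a2 : Algebra κ[X] L := (aeval t : κ[X] →ₐ[κ] L).toRingHom.toAlgebra
  have m1 : ∀ P : κ[X], algebraMap κ[X] κ⟮t⟯ P = aeval (AdjoinSimple.gen κ t) P := fun _ => rfl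
  have m2 : ∀ P : κ[X], algebraMap κ[X] L P = aeval t P := fun _ => rfl
  have m3 : ∀ P : κ[X], algebraMap κ⟮t⟯ L (algebraMap κ[X] κ⟮t⟯ P) = aeval t P := by
    intro P
    rw [m1, ← aeval_algebraMap_apply]; rfl
  have s1 : IsScalarTower κ[X] κ⟮t⟯ L := IsScalarTower.of_algebraMap_eq fun P => by rw [m3, m2]
  have s2 : IsScalarTower κ κ[X] L := IsScalarTower.of_algebraMap_eq fun a => by
    rw [m2]; exact (aeval_C t a).symm
  have inj : Function.Injective (algebraMap κ[X] κ⟮t⟯) := by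
    rw [injective_iff_map_eq_zero]
    intro P hP
    have h1 : aeval t P = 0 := by rw [← m3, hP, map_zero]
    exact (transcendental_iff.1 ht) P h1
  have f1 : FaithfulSMul κ[X] κ⟮t⟯ := (faithfulSMul_iff_algebraMap_injective _ _).2 inj
  have s3 : IsFractionRing κ[X] κ⟮t⟯ := by
    apply IsFractionRing.of_field
    intro z
    obtain ⟨r, s, hrs⟩ := (mem_adjoin_simple_iff κ (z : L)).1 z.2
    refine ⟨r, s, ?_⟩
    apply (algebraMap κ⟮t⟯ L).injective
    rw [map_div₀, m3, m3]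
    exact hrs
  have key := ASL_930.not_pow_adjoin κ⟮t⟯ hc hpm hm (by
    rw [hAS, m2, map_mul, map_pow, aeval_X, aeval_C]) l hl 1 one_ne_zero ⟨z, hz⟩
  rwa [map_one, one_mul] at key

/-- if a `q`-th power of `y` is an `l`-th power, `(l, q) = 1`, then `y` is an `l`-th power -/
theorem pow_descend {L : Type*} [Field L] (F : Subfield L) {l q : ℕ} (h : l.Coprime q) {y b : L}
    (hy : y ∈ F) (hb : b ∈ F) (hy0 : y ≠ 0) (hl : 0 < l) (h1 : b ^ l = y ^ q) :
    ∃ z ∈ F, z ^ l = y := by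
  have hbez : (l : ℤ) * Int.gcdA l q + q * Int.gcdB l q = 1 := by
    have := Nat.gcd_eq_gcd_ab l q
    rw [h.gcd_eq_one] at this
    exact_mod_cast this.symm
  have hb0 : b ≠ 0 := by
    rintro rfl
    rw [zero_pow hl.ne'] at h1
    exact pow_ne_zero q hy0 h1.symm
  refine ⟨y ^ Int.gcdA l q * b ^ Int.gcdB l q, F.mul_mem (zpow_mem hy _) (zpow_mem hb _), ?_⟩
  have h2 : b ^ (l : ℤ) = y ^ (q : ℤ) := by simpa using h1
  rw [mul_pow, ← zpow_natCast, ← zpow_natCast, ← zpow_mul, ← zpow_mul, mul_comm _ (l : ℤ),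
    mul_comm _ (l : ℤ), zpow_mul b, h2, ← zpow_mul, ← zpow_add₀ hy0, hbez, zpow_one]

/-- `κ(τ)(σ, ζ) = κ(σ)(ζ)` if `τ` is a polynomial in `σ` -/
theorem mem_of_mem_adjoin {κ R : Type*} [Field κ] [Field R] [Algebra κ R] {τ σ ζ : R} {P : κ[X]}
    (hτ : τ = aeval σ P) {ι : Type*} {y : ι → R} (hy : ∀ i, y i = σ ∨ y i = ζ) {β : R}
    (hβ : β ∈ IntermediateField.adjoin κ⟮τ⟯ (Set.range y)) :
    β ∈ IntermediateField.adjoin κ⟮σ⟯ {ζ} := by
  have h1 : (IntermediateField.adjoin κ⟮τ⟯ (Set.range y)).restrictScalars κ ≤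
      (IntermediateField.adjoin κ⟮σ⟯ {ζ}).restrictScalars κ := by
    rw [IntermediateField.adjoin_adjoin_left, IntermediateField.adjoin_adjoin_left,
      IntermediateField.adjoin_le_iff, Set.union_subset_iff]
    have hσ : σ ∈ IntermediateField.adjoin κ ({σ} ∪ {ζ}) :=
      IntermediateField.subset_adjoin _ _ (Or.inl rfl)
    have hζ : ζ ∈ IntermediateField.adjoin κ ({σ} ∪ {ζ}) :=
      IntermediateField.subset_adjoin _ _ (Or.inr rfl)
    constructor
    · rw [Set.singleton_subset_iff]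
      have h2 : τ ∈ Algebra.adjoin κ {σ} := by
        rw [hτ]
        exact Polynomial.aeval_mem_adjoin_singleton _ _
      exact IntermediateField.adjoin_simple_le_iff.2 hσ (IntermediateField.algebra_adjoin_le_adjoin _ _ h2)
    · rintro _ ⟨i, rfl⟩
      rcases hy i with h | h
      · rw [h]; exact hσ
      · rw [h]; exact hζ
  exact h1 hβ

end res

section vertex

variable {k L M : Type*} [Field k] [Field L] [Field M] [Algebra k L] [Algebra L M] [Algebra k M]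
  [IsScalarTower k L M] {v0 : Valuation k ℝ≥0} {w : Valuation M ℝ≥0} {t : L}

/-- the residue of `S` is transcendental if `t̄` is a polynomial in `S̄` -/
theorem transc_of_poly [v0.HasExtension w] (hw : IsG v0 w (algebraMap L M t))
    {S : M} {P : (RF v0)[X]} (h : rs w (algebraMap L M t) = aeval (rs w S) P) :
    Transcendental (RF v0) (rs w S) := by
  have h1 := transc hw
  rw [h] at h1
  exact (transcendental_aeval_iff.1 h1).1

/-- **`z'` is not an `l`-th power in `M₂`.** -/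
theorem not_pow_M2 [FiniteDimensional L M] [IsGalois L M] {p : ℕ} (hp : p.Prime)
    (hp1 : v0 (p : k) < 1)
    (hw : IsG v0 w (algebraMap L M t)) (hres : ResRat v0 w t)
    {S Z : M} (hS : w S ≤ 1) (hZ : w Z ≤ 1) {m : ℕ} (hpm : ¬ p ∣ m) (hm : 0 < m)
    (hSZ : w (Z ^ p - Z - S ^ m) < 1)
    {f : k[X]} (hf : ∀ i, v0 (f.coeff i) ≤ 1) (hft : w (aeval S f - algebraMap L M t) < 1)
    {l : ℕ} (hl : 1 < l) (hpl : p.Coprime l) {s : ℕ} {z' : M} (hz' : w (z' - Z ^ p ^ s) < 1)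
    {b : M} (hb : b ∈ M2 L w ![S, Z]) : ¬ w (b ^ l - z') < 1 := by
  intro hbz
  have := hasExt hw.ext
  have : Fact p.Prime := ⟨hp⟩
  have hchar : CharP (RF v0) p := charP_RF hp hp1
  have hwp : w (p : M) < 1 := by
    have h1 := hw.ext (p : k)
    rw [map_natCast] at h1
    rwa [h1]
  have hpow : ∀ {x : M} (_ : w x ≤ 1) (n : ℕ), w (x ^ n) ≤ 1 := fun hx n => by
    rw [map_pow]; exact pow_le_one' hx n
  have hz1 : w z' ≤ 1 := by
    have h1 : z' = (z' - Z ^ p ^ s) + Z ^ p ^ s := by ring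
    rw [h1]
    exact w.map_add_le hz'.le (hpow hZ _)
  have hb1 : w b ≤ 1 := by
    have h1 : w (b ^ l) ≤ 1 := by
      have h2 : b ^ l = (b ^ l - z') + z' := by ring
      rw [h2]
      exact w.map_add_le hbz.le hz1
    rw [map_pow] at h1
    exact (pow_le_one_iff (by omega)).1 h1
  -- residues
  set τ := rs w (algebraMap L M t) with hτ
  set σ := rs w S with hσ
  set ζ := rs w Z with hζ
  set β := rs w b with hβ
  obtain ⟨P, hP⟩ := rs_aeval hw.ext hS f hf
  have hτP : τ = aeval σ P := by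
    rw [← hP, eq_comm, hτ, rs_eq_iff (aeval_val_le hw.ext hS f hf) hw.le]
    exact hft
  have hσt : Transcendental (RF v0) σ := transc_of_poly hw hτP
  have hAS : ζ ^ p - ζ = algebraMap (RF v0) (RF w) 1 * σ ^ m := by
    rw [map_one, one_mul, ← rs_pow hZ, ← rs_sub (hpow hZ p) hZ, ← rs_pow hS,
      rs_eq_iff (w.map_sub_le (hpow hZ p) hZ) (hpow hS m)]
    exact hSZ
  have hζ0 : ζ ≠ 0 := by
    intro h0
    rw [h0, zero_pow hp.ne_zero, sub_zero, map_one, one_mul] at hAS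
    have h1 : σ = 0 := by
      have := pow_eq_zero_iff (hm.ne') |>.1 hAS.symm
      exact this
    exact hσt (h1 ▸ isAlgebraic_zero)
  have hβl : β ^ l = ζ ^ p ^ s := by
    rw [← rs_pow hb1, ← rs_pow hZ, rs_eq_iff (hpow hb1 l) (hpow hZ _)]
    have h1 : b ^ l - Z ^ p ^ s = (b ^ l - z') + (z' - Z ^ p ^ s) := by ring
    rw [h1]
    exact w.map_add_lt hbz hz'
  obtain ⟨r, n, hr, hn⟩ : ∃ r n, Nat.card (Dec L w) = p ^ r * n ∧ ¬ p ∣ n := by
    have h0 : Nat.card (Dec L w) ≠ 0 := Nat.card_pos.ne'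
    obtain ⟨r, n, hn, h⟩ := Nat.exists_eq_pow_mul_and_not_dvd h0 p hp.ne_one
    exact ⟨r, n, h, hn⟩
  have hR := isRes hw hres
  have hmem := residue_M2 hR hp hwp hr hn ![S, Z] hb hb1
  -- compare the two fields
  have hrange : ∀ i, rs w ((![S, Z] : Fin 2 → M) i) = σ ∨ rs w ((![S, Z] : Fin 2 → M) i) = ζ := by
    rw [Fin.forall_fin_two]
    exact ⟨Or.inl rfl, Or.inr rfl⟩
  set F := IntermediateField.adjoin (RF v0)⟮σ⟯ {ζ} with hF
  have hβF : β ^ p ^ r ∈ F := mem_of_mem_adjoin hτP hrange hmem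
  have hζF : ζ ∈ F := IntermediateField.mem_adjoin_simple_self _ _
  obtain ⟨z, hzF, hz⟩ := pow_descend F.toSubfield (l := l) (q := p ^ (s + r))
    (Nat.Coprime.pow_right _ hpl.symm) hζF hβF hζ0 (by omega) (by
      rw [← pow_mul, mul_comm (p ^ r) l, pow_mul, hβl, ← pow_mul, pow_add])
  exact not_pow_mem hσt one_ne_zero ((Nat.Prime.coprime_iff_not_dvd hp).2 hpm) hm hAS l hl z hzF hz

/-- **Lemma M2.** The two vertex functions in `M₂`. -/
theorem exists_vertex [FiniteDimensional L M] [IsGalois L M] {p : ℕ} (hp : p.Prime)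
    (hp1 : v0 (p : k) < 1)
    (hw : IsG v0 w (algebraMap L M t)) (hres : ResRat v0 w t)
    {S Z : M} (hS : w S ≤ 1) (hZ : w Z ≤ 1) {m : ℕ} (hpm : ¬ p ∣ m) (hm : 0 < m)
    (hSZ : w (Z ^ p - Z - S ^ m) < 1)
    {f : k[X]} (hf : ∀ i, v0 (f.coeff i) ≤ 1) (hft : w (aeval S f - algebraMap L M t) < 1) :
    ∃ s' ∈ M2 L w ![S, Z], ∃ z' ∈ M2 L w ![S, Z], w s' = 1 ∧ w z' = 1 ∧
      w (z' ^ p - z' - s' ^ m) < 1 ∧
      ∀ (l : ℕ), 1 < l → p.Coprime l → ∀ b ∈ M2 L w ![S, Z], ¬ w (b ^ l - z') < 1 := by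
  have := hasExt hw.ext
  have : Fact p.Prime := ⟨hp⟩
  have hchar : CharP (RF v0) p := charP_RF hp hp1
  have hwp : w (p : M) < 1 := by
    have h1 := hw.ext (p : k)
    rw [map_natCast] at h1
    rwa [h1]
  have hchar' : CharP (RF w) p := charP_RFw hp hwp
  have hpow : ∀ {x : M} (_ : w x ≤ 1) (n : ℕ), w (x ^ n) ≤ 1 := fun hx n => by
    rw [map_pow]; exact pow_le_one' hx n
  have hy : ∀ i, w ((![S, Z] : Fin 2 → M) i) ≤ 1 := by
    intro i
    fin_cases i
    · exact hS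
    · exact hZ
  obtain ⟨s, n, hs, hn⟩ : ∃ s n, Nat.card (HH L w ![S, Z]) = p ^ s * n ∧ ¬ p ∣ n := by
    have h0 : Nat.card (HH L w ![S, Z]) ≠ 0 := Nat.card_pos.ne'
    obtain ⟨r, n, hn, h⟩ := Nat.exists_eq_pow_mul_and_not_dvd h0 p hp.ne_one
    exact ⟨r, n, h, hn⟩
  obtain ⟨s', hs'⟩ := exists_lift_pow hp hwp hy hs hn 0
  obtain ⟨z', hz'⟩ := exists_lift_pow hp hwp hy hs hn 1
  change w ((s' : M) - S ^ p ^ s) < 1 at hs'
  change w ((z' : M) - Z ^ p ^ s) < 1 at hz'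
  have hs1 : w (s' : M) ≤ 1 := by
    have h1 : (s' : M) = (s' - S ^ p ^ s) + S ^ p ^ s := by ring
    rw [h1]
    exact w.map_add_le hs'.le (hpow hS _)
  have hz1 : w (z' : M) ≤ 1 := by
    have h1 : (z' : M) = (z' - Z ^ p ^ s) + Z ^ p ^ s := by ring
    rw [h1]
    exact w.map_add_le hz'.le (hpow hZ _)
  -- residues
  set σ := rs w S with hσ
  set ζ := rs w Z with hζ
  obtain ⟨P, hP⟩ := rs_aeval hw.ext hS f hf
  have hτP : rs w (algebraMap L M t) = aeval σ P := by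
    rw [← hP, eq_comm, rs_eq_iff (aeval_val_le hw.ext hS f hf) hw.le]
    exact hft
  have hσt : Transcendental (RF v0) σ := transc_of_poly hw hτP
  have hAS : ζ ^ p - ζ = σ ^ m := by
    rw [← rs_pow hZ, ← rs_sub (hpow hZ p) hZ, ← rs_pow hS,
      rs_eq_iff (w.map_sub_le (hpow hZ p) hZ) (hpow hS m)]
    exact hSZ
  have hrs : rs w (s' : M) = σ ^ p ^ s := by
    rw [← rs_pow hS, rs_eq_iff hs1 (hpow hS _)]; exact hs'
  have hrz : rs w (z' : M) = ζ ^ p ^ s := by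
    rw [← rs_pow hZ, rs_eq_iff hz1 (hpow hZ _)]; exact hz'
  have hσ0 : σ ≠ 0 := by
    intro h0
    exact hσt (h0 ▸ isAlgebraic_zero)
  have hS1 : w (s' : M) = 1 := by
    refine le_antisymm hs1 ?_
    by_contra hlt
    push Not at hlt
    rw [← rs_eq_zero_iff hs1, hrs] at hlt
    exact pow_ne_zero _ hσ0 hlt
  have hAS' : w ((z' : M) ^ p - z' - (s' : M) ^ m) < 1 := by
    have h1 : w ((z' : M) ^ p - z') ≤ 1 := w.map_sub_le (hpow hz1 p) hz1
    rw [← rs_eq_iff h1 (hpow hs1 m), rs_sub (hpow hz1 p) hz1, rs_pow hz1, rs_pow hs1, hrs, hrz,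
      ← pow_mul, ← pow_mul, mul_comm _ m, pow_mul σ m, ← hAS, mul_comm _ p, pow_mul ζ p,
      sub_pow_char_pow]
  refine ⟨s', s'.2, z', z'.2, hS1, ?_, hAS', fun l hl hpl b hb =>
    not_pow_M2 hp hp1 hw hres hS hZ hpm hm hSZ hf hft hl hpl hz' hb⟩
  have h2 : w ((s' : M) ^ m) = 1 := by rw [map_pow, hS1, one_pow]
  exact AVal_168.as_val_eq_one hp.one_lt h2 hAS'

end vertex

end Crest.Agent.R013.M2b_797
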