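import Mathlib
import Crest.Agent.R013.M2b_797
import Crest.Agent.R013.Cof1_669

/-!
# R013 / M2c (helper797): Lemma M2 inside a big field `Ω`

`kb ⊂ L ⊂ Ω`, `v` a norm on `Ω`, Gauss for `t ∈ L` over the constants `kb`, `L` inside the closure of
`kb(t)`; `N/L` finite Galois inside `Ω`.
-/

set_option autoImplicit false
set_option linter.unusedSectionVars false

namespace Crest.Agent.R013.M2c_797

open IsLocalRing Polynomial Module IntermediateField
open scoped NNReal
open Crest.Agent.R013.ResP_168 Crest.Agent.R013.LiftA_168 Crest.Agent.R013.NP_168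
  Crest.Agent.R013.M2_797 Crest.Agent.R013.M2b_797 Crest.Agent.R013.SE_669 Crest.Agent.R013.Cof1_669

variable {k L Ω : Type*} [Field k] [Field L] [Field Ω] [Algebra k L] [Algebra L Ω] [Algebra k Ω]
  [IsScalarTower k L Ω] {v0 : Valuation k ℝ≥0} {v : Valuation Ω ℝ≥0} {t : L}

/-- residues of `L` are rational functions in `t̄` as soon as `L` is in the closure of `k(t)` -/
theorem resRat_of_cl (hw : IsG v0 v (algebraMap L Ω t))
    (h : ∀ a : L, algebraMap L Ω a ∈ cl v (IntermediateField.adjoin k {algebraMap L Ω t} : Set Ω)) :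
    ResRat v0 v t := by
  intro a ha
  obtain ⟨b, hb, hab⟩ := h a 1 one_pos
  rw [SetLike.mem_coe, mem_adjoin_simple_iff] at hb
  obtain ⟨F, G, rfl⟩ := hb
  by_cases hG : G = 0
  · refine ⟨0, 1, fun i => by simp, fun i => ?_, by simp, ?_⟩
    · rw [coeff_one]
      split_ifs
      · rw [map_one]
      · rw [map_zero]; exact zero_le
    · rw [hG, map_zero, div_zero, sub_zero] at hab
      simpa using hab
  · obtain ⟨j, hj, -⟩ := exists_max_coeff v0 G
    have hj0 : v0 (G.coeff j) ≠ 0 := by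
      intro h0
      apply hG
      ext i
      have h1 := hj i
      rw [h0, le_zero_iff, map_eq_zero] at h1
      rw [h1, coeff_zero]
    have hcj : G.coeff j ≠ 0 := by
      intro h0
      rw [h0, map_zero] at hj0
      exact hj0 rfl
    set u := (G.coeff j)⁻¹ with hu
    have hu0 : u ≠ 0 := inv_ne_zero hcj
    have hG1 : ∀ i, v0 ((C u * G).coeff i) ≤ 1 := by
      intro i
      rw [coeff_C_mul, map_mul, hu, map_inv₀, inv_mul_le_one₀ (zero_lt_iff.2 hj0)]
      exact hj i
    have hGj : v0 ((C u * G).coeff j) = 1 := by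
      rw [coeff_C_mul, hu, inv_mul_cancel₀ hcj, map_one]
    have hGt : v (aeval (algebraMap L Ω t) (C u * G)) = 1 := by
      rw [hw.aeval_eq (C u * G) (j := j) (fun i => by rw [hGj]; exact hG1 i), hGj]
    have hGt0 : aeval (algebraMap L Ω t) (C u * G) ≠ 0 := by
      intro h0
      rw [h0, map_zero] at hGt
      exact zero_ne_one hGt
    have hdiv : aeval (algebraMap L Ω t) F / aeval (algebraMap L Ω t) G =
        aeval (algebraMap L Ω t) (C u * F) / aeval (algebraMap L Ω t) (C u * G) := by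
      rw [map_mul, map_mul, mul_div_mul_left]
      rw [aeval_C]
      exact (_root_.map_ne_zero _).2 hu0
    rw [hdiv] at hab
    have hFt : v (aeval (algebraMap L Ω t) (C u * F)) ≤ 1 := by
      have h1 : aeval (algebraMap L Ω t) (C u * F) = aeval (algebraMap L Ω t) (C u * G) *
          (algebraMap L Ω a - (algebraMap L Ω a -
            aeval (algebraMap L Ω t) (C u * F) / aeval (algebraMap L Ω t) (C u * G))) := by
        rw [sub_sub_cancel, mul_div_cancel₀ _ hGt0]
      rw [h1, map_mul, hGt, one_mul]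
      exact v.map_sub_le ha hab.le
    refine ⟨C u * F, C u * G, fun i => (hw.coeff_le _ i).trans hFt, hG1, hGt, ?_⟩
    have h2 : algebraMap L Ω a * aeval (algebraMap L Ω t) (C u * G) -
        aeval (algebraMap L Ω t) (C u * F) = (algebraMap L Ω a -
          aeval (algebraMap L Ω t) (C u * F) / aeval (algebraMap L Ω t) (C u * G)) *
            aeval (algebraMap L Ω t) (C u * G) := by
      rw [sub_mul, div_mul_cancel₀ _ hGt0]
    rw [h2, map_mul, hGt, mul_one]
    exact hab

/-- **Lemma M2** inside `Ω`. -/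
theorem exists_vertex_field {N : IntermediateField L Ω} [FiniteDimensional L N] [IsGalois L N]
    {p : ℕ} (hp : p.Prime) (hp1 : v0 (p : k) < 1)
    (hw : IsG v0 v (algebraMap L Ω t)) (hres : ResRat v0 v t)
    {S Z : Ω} (hSN : S ∈ N) (hZN : Z ∈ N) (hS : v S ≤ 1) (hZ : v Z ≤ 1) {m : ℕ} (hpm : ¬ p ∣ m)
    (hm : 0 < m) (hSZ : v (Z ^ p - Z - S ^ m) < 1)
    {f : k[X]} (hf : ∀ i, v0 (f.coeff i) ≤ 1) (hft : v (aeval S f - algebraMap L Ω t) < 1) :
    ∃ (E : IntermediateField L Ω), E ≤ N ∧ ∃ s' ∈ E, ∃ z' ∈ E, v s' = 1 ∧ v z' = 1 ∧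
      v (z' ^ p - z' - s' ^ m) < 1 ∧
      ∀ (l : ℕ), 1 < l → p.Coprime l → ∀ b ∈ E, ¬ v (b ^ l - z') < 1 := by
  set w : Valuation N ℝ≥0 := v.comap (algebraMap N Ω) with hwdef
  have hwv : ∀ x : N, w x = v (x : Ω) := fun x => rfl
  haveI : IsScalarTower k N Ω := IsScalarTower.of_algebraMap_eq fun c => rfl
  have hae : ∀ (g : k[X]) (x : N), ((aeval x g : N) : Ω) = aeval (x : Ω) g := by
    intro g x
    change algebraMap N Ω (aeval x g) = _
    rw [← aeval_algebraMap_apply]
    rfl
  have hw' : IsG v0 w (algebraMap L N t) := by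
    refine ⟨fun c => ?_, hw.le, fun g i => ?_⟩
    · rw [← hw.ext c]
      rfl
    · rw [hwv, hae]
      exact hw.coeff_le g i
  have hres' : ResRat v0 w t := by
    intro a ha
    obtain ⟨F, G, hF, hG, h1, h2⟩ := hres a ha
    refine ⟨F, G, hF, hG, ?_, ?_⟩
    · rw [hwv, hae]
      exact h1
    · rw [hwv]
      have h3 : ((algebraMap L N a * aeval (algebraMap L N t) G - aeval (algebraMap L N t) F : N) : Ω) =
          algebraMap L Ω a * aeval (algebraMap L Ω t) G - aeval (algebraMap L Ω t) F := by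
        push_cast
        rw [hae, hae]
        rfl
      rw [h3]
      exact h2
  obtain ⟨s', hs', z', hz', h1, h2, h3, h4⟩ := exists_vertex (S := (⟨S, hSN⟩ : N))
    (Z := (⟨Z, hZN⟩ : N)) hp hp1 hw' hres' hS hZ hpm hm hSZ hf (by
      rw [hwv]
      have h3 : ((aeval (⟨S, hSN⟩ : N) f - algebraMap L N t : N) : Ω) =
          aeval S f - algebraMap L Ω t := by
        rw [AddSubgroupClass.coe_sub, hae]
        rfl
      rw [h3]
      exact hft)
  refine ⟨IntermediateField.lift (M2 L w ![(⟨S, hSN⟩ : N), (⟨Z, hZN⟩ : N)]),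
    IntermediateField.lift_le _, s', ?_, z', ?_, h1, h2, h3, ?_⟩
  · exact (IntermediateField.mem_lift s').2 hs'
  · exact (IntermediateField.mem_lift z').2 hz'
  · intro l hl hpl b hb
    have hbN : b ∈ N := IntermediateField.lift_le _ hb
    exact h4 l hl hpl ⟨b, hbN⟩ ((IntermediateField.mem_lift (⟨b, hbN⟩ : N)).1 hb)

end Crest.Agent.R013.M2c_797
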