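import Crest.Agent.R013.M3Defs_359
import Crest.Agent.R013.CartE3_359
/-
ROW 13, leaf M3 (helper359), file A: the Cartier contraction (`cartE`) in the residue field `kap w` of a norm of `K`.
-/
set_option autoImplicit false
set_option linter.unusedSectionVars false
set_option linter.style.haveILetI false
set_option linter.unusedVariables false

namespace Crest.Agent.R013.M3_359

open scoped NNReal
open WithZero Module
open Crest.Agent.R013.Cell_408 (FinDef DiscNorm)
open Crest.Agent.R013.EE809 hiding od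
open Crest.Agent.R013.RR7_948 Crest.Agent.R013.RR8_948 Crest.Agent.R013.RR9_948
open Crest.Agent.R013.RR11_948 Crest.Agent.R013.RR14_948
open Crest.Agent.R013.Red332 hiding od
open Crest.Agent.R013.Car1_700 Crest.Agent.R013.RedD_310
open Crest.Agent.R013.SSK_332 Crest.Agent.R013.Car2_700 Crest.Agent.R013.Car6_700
open Crest.Agent.R013.CartC_359 Crest.Agent.R013.CartE_359

section perf

variable {C : Type*} [NormedField C] [IsUltrametricDist C] (p : ℕ) [hp : Fact p.Prime]
  [CharP (Ct C) p]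

theorem rc_natCast (n : ℕ) : rc (n : C) = n := by
  induction n with
  | zero => simp [rc_zero]
  | succ n ih =>
    rw [Nat.cast_succ, Nat.cast_succ, rc_add (by
      rw [← NNReal.coe_le_coe, coe_nnnorm, NNReal.coe_one]
      exact IsUltrametricDist.norm_natCast_le_one C n) (by simp), ih, rc_one]

theorem norm_p_lt : ‖(p : C)‖ < 1 := by
  have h : rc (p : C) = 0 := by rw [rc_natCast, CharP.cast_eq_zero]
  rw [rc_eq_zero_iff (by
    rw [← NNReal.coe_le_coe, coe_nnnorm, NNReal.coe_one]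
    exact IsUltrametricDist.norm_natCast_le_one C p)] at h
  exact_mod_cast h

theorem rc_pow {c : C} (hc : ‖c‖₊ ≤ 1) (n : ℕ) : rc (c ^ n) = rc c ^ n := by
  induction n with
  | zero => rw [pow_zero, pow_zero, rc_one]
  | succ n ih =>
    rw [pow_succ, pow_succ, rc_mul (by rw [nnnorm_pow]; exact pow_le_one' hc n) hc, ih]

variable [Algebra (ZMod p) (Ct C)] [Algebra.IsAlgebraic (ZMod p) (Ct C)]

theorem exists_pow_eq (x : Ct C) : ∃ r : ℕ, 0 < r ∧ x ^ p ^ r = x := by
  have hx : IsIntegral (ZMod p) x := (Algebra.IsAlgebraic.isAlgebraic x).isIntegral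
  let F := IntermediateField.adjoin (ZMod p) {x}
  haveI : FiniteDimensional (ZMod p) F := IntermediateField.adjoin.finiteDimensional hx
  haveI : Finite F := Module.finite_of_finite (ZMod p)
  haveI : Fintype F := Fintype.ofFinite F
  haveI : CharP F p := charP_of_injective_algebraMap (algebraMap (ZMod p) F).injective p
  obtain ⟨n, -, hn⟩ := FiniteField.card F p
  refine ⟨n, n.pos, ?_⟩
  have h1 := FiniteField.pow_card (⟨x, IntermediateField.mem_adjoin_simple_self (ZMod p) x⟩ : F)
  rw [hn] at h1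
  exact congrArg Subtype.val h1

theorem hperf {k : Type*} [NontriviallyNormedField k] [NormedAlgebra k C]
    (L : IntermediateField k C) (a : C) (ha : a ∈ L) (ha1 : ‖a‖ ≤ 1) :
    ∃ b ∈ L, ‖b‖ ≤ 1 ∧ ‖a - b ^ p‖ < 1 := by
  have ha2 : ‖a‖₊ ≤ 1 := by exact_mod_cast ha1
  obtain ⟨r, hr, h⟩ := exists_pow_eq p (rc a)
  obtain ⟨s, rfl⟩ : ∃ s, r = s + 1 := ⟨r - 1, by omega⟩
  refine ⟨a ^ p ^ s, pow_mem ha _, by rw [norm_pow]; exact pow_le_one₀ (norm_nonneg _) ha1, ?_⟩
  have h2 : rc (a ^ p ^ (s + 1)) = rc a := by rw [rc_pow ha2, h]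
  have h3 : ‖a - a ^ p ^ (s + 1)‖₊ < 1 := by
    have h4 : ‖-(a ^ p ^ (s + 1))‖₊ ≤ 1 := by
      rw [nnnorm_neg, nnnorm_pow]; exact pow_le_one' ha2 _
    have h5 : ‖a + -(a ^ p ^ (s + 1))‖₊ ≤ 1 := (NormedField.valuation (K := C)).map_add_le ha2 h4
    have h7 : rc (-(a ^ p ^ (s + 1))) = - rc a := by
      have h8 := rc_add (a := a ^ p ^ (s + 1)) (b := -(a ^ p ^ (s + 1)))
        (by rw [nnnorm_pow]; exact pow_le_one' ha2 _) h4
      rw [add_neg_cancel, rc_zero, h2] at h8
      exact (neg_eq_of_add_eq_zero_right h8.symm).symm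
    have h6 : rc (a + -(a ^ p ^ (s + 1))) = 0 := by
      rw [rc_add ha2 h4, h7, add_neg_cancel]
    rw [rc_eq_zero_iff h5, ← sub_eq_add_neg] at h6
    exact h6
  rw [← pow_mul, ← pow_succ]
  exact_mod_cast h3

end perf

section circle

variable {k : Type*} [NontriviallyNormedField k] [CompleteSpace k] [IsUltrametricDist k]
variable {C : Type*} [NormedField C] [IsUltrametricDist C] [NormedAlgebra k C]
  [Algebra.IsAlgebraic k C] [IsAlgClosed C] [hk : Fact (DiscNorm k)]

variable (k C) in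
/-- the residue field of the circle -/
abbrev KE : Type _ := IsLocalRing.ResidueField (vE (k := k) (C := C)).valuationSubring

variable (k C) in
/-- the reduction map of the circle -/
noncomputable abbrev rE : Red (vE (k := k) (C := C)) (KE k C) := Red.canonical _

variable (k C) in
/-- `d/dT` as a derivation over `ℤ` -/
noncomputable def dZ : Derivation ℤ (EE k C) (EE k C) := (dT k C).restrictScalars ℤ

theorem dZ_apply (a : EE k C) : dZ k C a = dT k C a := rfl

theorem co_dZ (a : EE k C) (n : ℤ) : (dZ k C a).co n = ((n : C) + 1) * a.co (n + 1) := by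
  rw [dZ_apply, co_dT]
  push_cast
  rfl

variable (p : ℕ) [hp : Fact p.Prime] [CharP (Ct C) p] [Algebra (ZMod p) (Ct C)]
  [Algebra.IsAlgebraic (ZMod p) (Ct C)]

variable (k C) in
/-- the one-element `p`-basis of the residue field of the circle -/
noncomputable def pbE : PB p (KE k C) where
  hp := hp.out
  char := charP_res (rE k C) p hp.out (norm_p_lt p)
  x := (rE k C).res (T 1)
  D := fun y => (exists_DeltaE (dZ k C) co_dZ (rE k C)).choose y
  D_add := fun a b => map_add _ a b
  D_mul := fun a b => by rw [Derivation.leibniz, smul_eq_mul, smul_eq_mul]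
  D_x := by
    rw [← (exists_DeltaE (dZ k C) co_dZ (rE k C)).choose_spec (T 1) (by
      rw [vE_le_one, T, gn_mo, norm_one]), dE_T (dZ k C) co_dZ, (rE k C).one]
  span := fun y => by
    obtain ⟨a, ha, rfl⟩ := (rE k C).surj y
    obtain ⟨L, hL, haL⟩ := a.exists_inL
    obtain ⟨g, hg, hag⟩ := span_EE hp.out (norm_p_lt p) L (hperf p L) a haL (vE_le_one.mp ha)
    refine ⟨fun i => (rE k C).res (g i), ?_⟩
    have hT : vE (T 1 : EE k C) ≤ 1 := by rw [vE_le_one, T, gn_mo, norm_one]
    have hgi : ∀ i, vE (g i) ≤ 1 := fun i => vE_le_one.mpr (hg i).2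
    have hterm : ∀ i ∈ Finset.range p, vE (g i ^ p * T 1 ^ i) ≤ 1 := fun i _ => by
      rw [map_mul, map_pow, map_pow]
      exact mul_le_one' (pow_le_one' (hgi i) _) (pow_le_one' hT _)
    have h1 := (rE k C).congr ha (Valuation.map_sum_le vE hterm) (vE_lt_one.mpr hag)
    rw [h1, (rE k C).sum _ _ hterm]
    refine Finset.sum_congr rfl fun i hi => ?_
    rw [(rE k C).mul _ _ (by rw [map_pow]; exact pow_le_one' (hgi i) _)
      (by rw [map_pow]; exact pow_le_one' hT _), (rE k C).pow (hgi i), (rE k C).pow hT]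

theorem pbE_x : (pbE k C p).x = (rE k C).res (T 1) := rfl

theorem pbE_D {a : EE k C} (ha : vE a ≤ 1) : (pbE k C p).D ((rE k C).res a) =
    (rE k C).res (dT k C a) :=
  ((exists_DeltaE (dZ k C) co_dZ (rE k C)).choose_spec a ha).symm

/-- `cartE` in terms of `pbE` -/
theorem cart_pbE (hp0 : (p : C) ≠ 0) (a g : EE k C) (ha : gn a = 1) (hg : gn g ≤ 1) (n : ℕ)
    (hag : gn (a - g ^ (p ^ n)) < 1) (c : C) (hc : ‖c‖ = gn (dT k C a))
    (hcn : ‖(p : C)‖ ^ n < ‖c‖) :
    ∃ m, (pbE k C p).C^[m] ((rE k C).res (dT k C a / (algebraMap C (EE k C) c * a))) = 0 :=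
  cartE (dZ k C) co_dZ (rE k C) hp0 (norm_p_lt p) (fun L _ a ha ha1 => hperf p L a ha ha1)
    (pbE k C p).C (fun y => (pbE k C p).C_eq rfl) a g ha hg n hag c hc hcn

end circle

/-! ### the residue field of a norm in the residue field of the circle -/

section psi

variable {k : Type*} [NontriviallyNormedField k] [CompleteSpace k] [IsUltrametricDist k]
variable {C : Type*} [NormedField C] [IsUltrametricDist C] [NormedAlgebra k C]
  [Algebra.IsAlgebraic k C] [IsAlgClosed C] [hk : Fact (DiscNorm k)]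
variable {K : Type*} [Field K] [Algebra C K]
variable (w : Nm C K) {em : K →+* EE k C} (hgn : ∀ f, gn (em f) = w.v f)

include hgn

theorem vE_em (f : K) : vE (em f) = w.v f := by
  rw [← NNReal.coe_inj, coe_vE, hgn]

/-- the embedding of residue fields -/
theorem exists_psi : ∃ Ψ : kap w →+* KE k C, ∀ f, w.v f ≤ 1 → Ψ (red w f) = (rE k C).res (em f) := by
  have h1 : ∀ f, w.v f ≤ 1 → vE (em f) ≤ 1 := fun f hf => by rw [vE_em w hgn]; exact hf
  have key : ∀ f g, w.v f ≤ 1 → w.v g ≤ 1 → red w f = red w g →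
      (rE k C).res (em f) = (rE k C).res (em g) := by
    intro f g hf hg h
    apply (rE k C).congr (h1 f hf) (h1 g hg)
    rw [← map_sub, vE_em w hgn, ← red_eq_iff w hf hg, h]
  choose lift hl1 hl2 using red_surj w
  refine ⟨{ toFun := fun g => (rE k C).res (em (lift g))
            map_one' := ?_
            map_mul' := ?_
            map_zero' := ?_
            map_add' := ?_ }, ?_⟩
  · rw [key _ 1 (hl1 _) (by simp) (by rw [hl2, red_one]), map_one, (rE k C).one]
  · intro x y
    have h2 : w.v (lift x * lift y) ≤ 1 := by rw [map_mul]; exact mul_le_one' (hl1 x) (hl1 y)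
    rw [key _ (lift x * lift y) (hl1 _) h2 (by rw [hl2, red_mul w (hl1 x) (hl1 y), hl2, hl2]),
      map_mul, (rE k C).mul _ _ (h1 _ (hl1 x)) (h1 _ (hl1 y))]
  · rw [key _ 0 (hl1 _) (by simp) (by rw [hl2, red_zero]), map_zero, (rE k C).zero]
  · intro x y
    have h2 : w.v (lift x + lift y) ≤ 1 := (w.v.map_add _ _).trans (max_le (hl1 x) (hl1 y))
    rw [key _ (lift x + lift y) (hl1 _) h2 (by rw [hl2, red_add w (hl1 x) (hl1 y), hl2, hl2]),
      map_add, (rE k C).add _ _ (h1 _ (hl1 x)) (h1 _ (hl1 y))]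
  · intro f hf
    exact key _ f (hl1 _) hf (hl2 _)

end psi

section main

variable {k : Type*} [NontriviallyNormedField k] [CompleteSpace k] [IsUltrametricDist k]
variable {C : Type*} [NormedField C] [IsUltrametricDist C] [NormedAlgebra k C]
  [Algebra.IsAlgebraic k C] [IsAlgClosed C] [hk : Fact (DiscNorm k)]
variable {K : Type*} [Field K] [Algebra C K] [Algebra (RatFunc C) K]
  [IsScalarTower C (RatFunc C) K] [Algebra.IsSeparable (RatFunc C) K]
variable {w : Nm C K}
variable [Algebra (RatFunc (Ct C)) (kap w)] [IsScalarTower (Ct C) (RatFunc (Ct C)) (kap w)]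
  [FiniteDimensional (RatFunc (Ct C)) (kap w)] [Algebra.IsSeparable (RatFunc (Ct C)) (kap w)]
variable {T0 : K} (hT : w.v T0 ≤ 1) (hT' : red w T0 = RR8_948.xK (Ct C) (kap w))

variable (x : Pl (Ct C) (kap w)) {em : K →+* EE k C}
  (hC : ∀ (c : C) (n : ℤ), (em (algebraMap C K c)).co n = if n = 0 then c else 0)
  (hgn : ∀ f, gn (em f) = w.v f)
  (hod : ∀ f, f ≠ 0 → EE809.od (em f) = Red332.od w x f)

variable (p : ℕ) [hp : Fact p.Prime] [CharP (Ct C) p] [Algebra (ZMod p) (Ct C)]
  [Algebra.IsAlgebraic (ZMod p) (Ct C)] [PerfectField (Ct C)]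

include hT hT' hC hgn hod

/-- **Cartier commutes with the embedding of residue fields** -/
theorem C_psi (Ψ : kap w →+* KE k C) (hΨ : ∀ f, w.v f ≤ 1 → Ψ (red w f) = (rE k C).res (em f))
    (g : kap w) : (pbE k C p).C (Ψ g * (rE k C).res (dT k C (em T0))) =
      Ψ (CK p (Ct C) (kap w) g) * (rE k C).res (dT k C (em T0)) := by
  have h1 : gn (dT k C (em T0)) = 1 := gn_dT_lift x hC hgn hod hT hT'
  have hT0 : vE (em T0) ≤ 1 := by rw [vE_em w hgn]; exact hT
  have h2 : (pbE k C p).D (Ψ (RR8_948.xK (Ct C) (kap w))) = (rE k C).res (dT k C (em T0)) := by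
    rw [← hT', hΨ T0 hT, pbE_D p hT0]
  have h3 : (pbE k C p).D (Ψ (RR8_948.xK (Ct C) (kap w))) ≠ 0 := by
    rw [h2, (rE k C).ne_zero_iff (vE_le_one.mpr h1.le), ← NNReal.coe_inj, coe_vE, h1, NNReal.coe_one]
  have h4 := (pbE k C p).C_chg h3 (Ψ g)
  rw [h2] at h4
  rw [h4]
  congr 1
  have h5 := (pb p (Ct C) (kap w)).co_spec g
  have h6 : Ψ g = ∑ i ∈ Finset.range p, (fun i => Ψ ((pb p (Ct C) (kap w)).co g i)) i ^ p *
      ((pbE k C p).chg h3).x ^ i := by
    conv_lhs => rw [h5]
    rw [map_sum]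
    refine Finset.sum_congr rfl fun i _ => ?_
    rw [map_mul, map_pow, map_pow]
    rfl
  exact ((pbE k C p).chg h3).C_eq h6

theorem C_psi_iter (Ψ : kap w →+* KE k C)
    (hΨ : ∀ f, w.v f ≤ 1 → Ψ (red w f) = (rE k C).res (em f)) (m : ℕ)
    (g : kap w) : (pbE k C p).C^[m] (Ψ g * (rE k C).res (dT k C (em T0))) =
      Ψ ((CK p (Ct C) (kap w))^[m] g) * (rE k C).res (dT k C (em T0)) := by
  induction m generalizing g with
  | zero => rfl
  | succ m ih =>
    rw [Function.iterate_succ_apply, Function.iterate_succ_apply,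
      C_psi hT hT' x hC hgn hod p Ψ hΨ, ih]

/-- **CARTIER CONTRACTION at a norm of `K`**: if the reduction of `h` is a `p^n`-th power and
`|dlog h| > |p^n|`, the reduction of `dlog h` is killed by a power of the Cartier operator. -/
theorem cartK (hp0 : (p : C) ≠ 0) {h : K} (hh : w.v h = 1) {n : ℕ} {y : kap w}
    (hy : red w h = y ^ p ^ n) {c : C} (hc : ‖c‖ = gn (dT k C (em h)))
    (hcn : ‖(p : C)‖ ^ n < ‖c‖) :
    ∃ m, (CK p (Ct C) (kap w))^[m]
      (red w (del C K h / (algebraMap C K c * h) / del C K T0)) = 0 := by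
  obtain ⟨Ψ, hΨ⟩ := exists_psi w hgn
  have h1 : gn (dT k C (em T0)) = 1 := gn_dT_lift x hC hgn hod hT hT'
  obtain ⟨f, hf, rfl⟩ := red_surj w y
  have hdT := del_lift_ne_zero hT hT' x hC hgn hod
  have hc0 : c ≠ 0 := by
    rintro rfl
    rw [norm_zero] at hcn
    exact absurd hcn (not_lt.mpr (pow_nonneg (norm_nonneg _) n))
  have hcK : algebraMap C K c ≠ 0 := (map_ne_zero _).mpr hc0
  have hh0 : h ≠ 0 := by rintro rfl; simp at hh
  have hgnh : gn (em h) = 1 := by rw [hgn, hh]; rfl
  have hlt : gn (em h - em f ^ p ^ n) < 1 := by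
    rw [← map_pow, ← map_sub, hgn]
    have h2 : w.v (h - f ^ p ^ n) < 1 := by
      rw [← red_eq_iff w hh.le (by rw [map_pow]; exact pow_le_one' hf _), hy, red_pow w hf]
    exact_mod_cast h2
  obtain ⟨m, hm⟩ := cart_pbE p hp0 (em h) (em f) hgnh (by rw [hgn]; exact_mod_cast hf) n hlt c hc hcn
  refine ⟨m, ?_⟩
  set q : K := del C K h / (algebraMap C K c * h) / del C K T0 with hq
  have hqv : w.v q ≤ 1 := by
    have h3 := v_del_div w hC hgn h1 (del C K h)
    rw [ex_del em hC, ← hc] at h3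
    have h4 : w.v (del C K h / del C K T0) = ‖c‖₊ := by
      rw [← NNReal.coe_inj, h3]; rfl
    have h5 : q = del C K h / del C K T0 * (algebraMap C K c)⁻¹ * h⁻¹ := by
      rw [hq]; field_simp
    rw [h5, map_mul, map_mul, map_inv₀, map_inv₀, hh, h4, w.hC, inv_one, mul_one,
      mul_inv_cancel₀ (by simpa using hc0)]
  have hemc : em (algebraMap C K c) = algebraMap C (EE k C) c := by
    ext n; rw [hC, co_algebraMap]
  have h6 : dT k C (em h) / (algebraMap C (EE k C) c * em h) = em q * dT k C (em T0) := by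
    have h7 := ex_mul em q (del C K T0)
    rw [ex_del em hC] at h7
    rw [← h7]
    have h8 : q * del C K T0 = (algebraMap C K c * h)⁻¹ * del C K h := by
      rw [hq]; field_simp
    rw [h8, ex_mul, ex_del em hC, map_inv₀, map_mul, hemc, div_eq_mul_inv, mul_comm]
  have h9 : vE (dT k C (em T0)) = 1 := by
    rw [← NNReal.coe_inj, coe_vE, h1, NNReal.coe_one]
  rw [h6, (rE k C).mul _ _ (by rw [vE_em w hgn]; exact hqv) h9.le, ← hΨ q hqv,
    C_psi_iter hT hT' x hC hgn hod p Ψ hΨ] at hm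
  rcases mul_eq_zero.mp hm with h10 | h10
  · exact (map_eq_zero Ψ).mp h10
  · exact absurd h10 (((rE k C).ne_zero_iff h9.le).mpr h9)

end main

end Crest.Agent.R013.M3_359
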