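import Crest.Agent.R013.RedD7_310
import Crest.Agent.R013.Pow2_931
/-
ROW 13, leaf M1 (helper359), file B: `dlog` of a function all of whose orders on a cell are divisible by `n`.
-/
set_option autoImplicit false
set_option linter.unusedSectionVars false
set_option linter.unusedVariables false

namespace Crest.Agent.R013.M3_359

open Crest.Agent.R013.Cell_408 (FinDef DiscNorm)
open Crest.Agent.R013.EE809 Crest.Agent.R013.SSK_332 Crest.Agent.R013.RedD_310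

variable {k : Type*} [NontriviallyNormedField k] [CompleteSpace k] [IsUltrametricDist k]
variable {C : Type*} [NormedField C] [IsUltrametricDist C] [NormedAlgebra k C]
  [Algebra.IsAlgebraic k C] [IsAlgClosed C] [hk : Fact (DiscNorm k)]

/-- logarithmic derivative -/
noncomputable def dl (a : EE k C) : EE k C := dFun a / a

theorem dl_mul {a b : EE k C} (ha : a ≠ 0) (hb : b ≠ 0) : dl (a * b) = dl a + dl b := by
  unfold dl
  rw [dFun_mul]
  field_simp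
  ring

theorem dl_one : dl (1 : EE k C) = 0 := by
  have h := dl_mul (one_ne_zero (α := EE k C)) one_ne_zero
  rw [mul_one] at h
  exact left_eq_add.mp h

theorem dl_pow {a : EE k C} (ha : a ≠ 0) (n : ℕ) : dl (a ^ n) = (n : EE k C) * dl a := by
  induction n with
  | zero => rw [pow_zero, dl_one, Nat.cast_zero, zero_mul]
  | succ n ih =>
    rw [pow_succ, dl_mul (pow_ne_zero n ha) ha, ih]
    push_cast
    ring

theorem gn_div (a : EE k C) {b : EE k C} (hb : b ≠ 0) : gn (a / b) = gn a / gn b := by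
  rw [eq_div_iff (gn_pos hb).ne', ← gn_mul hk.out, div_mul_cancel₀ _ hb]

theorem gn_dl_le {a : EE k C} (ha : a ≠ 0) : gn (dl a) ≤ 1 := by
  unfold dl
  rw [gn_div _ ha, div_le_one (gn_pos ha)]
  exact gn_dFun_le a

theorem gn_natCast_mul (n : ℕ) (a : EE k C) : gn ((n : EE k C) * a) = ‖(n : C)‖ * gn a := by
  have : (n : EE k C) = algebraMap C (EE k C) (n : C) := by rw [map_natCast]
  rw [this, gn_mul hk.out, gn_algebraMap]

theorem gn_dl_pow_le {a : EE k C} (ha : a ≠ 0) (n : ℕ) : gn (dl (a ^ n)) ≤ ‖(n : C)‖ := by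
  rw [dl_pow ha, gn_natCast_mul]
  calc ‖(n : C)‖ * gn (dl a) ≤ ‖(n : C)‖ * 1 := mul_le_mul_of_nonneg_left (gn_dl_le ha) (norm_nonneg _)
    _ = ‖(n : C)‖ := mul_one _

/-! ### multiplicities -/

/-- two multisets whose multiplicities are congruent modulo `n` -/
theorem exists_root {n : ℕ} (hn : n ≠ 0) {Z Z' : Multiset C} (h : ∀ τ, (n : ℤ) ∣ mlt Z Z' τ) :
    ∃ S : Multiset C, linP k Z * linP k Z' ^ (n - 1) = linP k S ^ n := by
  classical
  have hpow : ∀ (Y : Multiset C) (m : ℕ), linP k (m • Y) = linP k Y ^ m := by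
    intro Y m
    induction m with
    | zero => rw [zero_smul, pow_zero, linP_zero]
    | succ m ih => rw [succ_nsmul, linP_add, ih, pow_succ]
  have h1 : ∀ a, n ∣ (by classical exact (Z + (n - 1) • Z').count a : ℕ) := by
    intro a
    have h2 := h a
    rw [mlt_apply] at h2
    have h3 : (n : ℤ) ∣ (((Z + (n - 1) • Z').count a : ℕ) : ℤ) := by
      rw [Multiset.count_add, Multiset.count_nsmul]
      push_cast
      rw [Nat.cast_sub (Nat.one_le_iff_ne_zero.mpr hn)]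
      have h4 : ((Z.count a : ℕ) : ℤ) + ((n : ℤ) - (1 : ℕ)) * ((Z'.count a : ℕ) : ℤ) =
          (((Z.count a : ℕ) : ℤ) - ((Z'.count a : ℕ) : ℤ)) + (n : ℤ) * ((Z'.count a : ℕ) : ℤ) := by
        push_cast; ring
      rw [h4]
      refine dvd_add ?_ (dvd_mul_right _ _)
      convert h2
    convert Int.natCast_dvd_natCast.mp h3
  obtain ⟨S, hS⟩ := Pow2_931.exists_nsmul _ h1
  refine ⟨S, ?_⟩
  rw [← hpow S, ← hS, linP_add, hpow]

/-- a function with orders divisible by `n` is an `n`-th power times a unit of the cell -/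
theorem exists_unit {X : CellI k C} {n : ℕ} (hn : n ≠ 0) {u : EE k C} {Z Z' : Multiset C}
    {e e' e₂ e₂' : EE k C} (he : e ∈ X.B) (he' : e' ∈ X.B) (h : e * e' = 1) (he₂ : e₂ ∈ X.B)
    (he₂' : e₂' ∈ X.B) (h₂ : e₂ * e₂' = 1) (hu : u * (linP k Z' * e₂) = linP k Z * e)
    (hdiv : ∀ τ, (n : ℤ) ∣ mlt Z Z' τ) :
    ∃ S : Multiset C, ∃ v v' : EE k C, v ∈ X.B ∧ v' ∈ X.B ∧ v * v' = 1 ∧
      u = (linP k S / linP k Z') ^ n * v := by
  obtain ⟨S, hS⟩ := exists_root (k := k) hn hdiv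
  refine ⟨S, e * e₂', e' * e₂, X.B.mul_mem he he₂', X.B.mul_mem he' he₂, ?_, ?_⟩
  · calc e * e₂' * (e' * e₂) = (e * e') * (e₂ * e₂') := by ring
      _ = 1 := by rw [h, h₂, one_mul]
  · have h1 : linP k Z' ≠ 0 := linP_ne_zero Z'
    have h4 : e₂ ≠ 0 := by
      rintro rfl
      rw [zero_mul] at h₂
      exact zero_ne_one h₂
    have h5 : e₂' = e₂⁻¹ := (eq_inv_of_mul_eq_one_right h₂)
    have h3 : u = linP k Z * e / (linP k Z' * e₂) := by
      rw [eq_div_iff (mul_ne_zero h1 h4), hu]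
    have h6 : linP k Z' ^ n = linP k Z' ^ (n - 1) * linP k Z' := by
      rw [← pow_succ, Nat.sub_add_cancel (Nat.one_le_iff_ne_zero.mpr hn)]
    rw [h3, div_pow, ← hS, h6, h5]
    have h7 : linP k Z' ^ (n - 1) ≠ 0 := pow_ne_zero _ h1
    field_simp

/-! ### discs -/

theorem disc_unit {n : ℕ} (hn : n ≠ 0) {u g h : EE k C} (hg : InD g) (hh : InD h) (hh0 : h ≠ 0)
    (hu : u * h = g) (hu0 : u ≠ 0)
    (hdiv : ∀ τ : C, ‖τ‖ < 1 → ∃ m : ℤ, HasOrd (cD k C) τ u m ∧ (n : ℤ) ∣ m) :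
    ∃ R v : EE k C, R ≠ 0 ∧ v ≠ 0 ∧ u = R ^ n * v ∧ InD (dl v) := by
  classical
  have hg0 : g ≠ 0 := by rw [← hu]; exact mul_ne_zero hu0 hh0
  obtain ⟨Z, hZ, hZc, e, e', he, he', hee, rfl⟩ := wD hg0 hg
  obtain ⟨Z', hZ', hZc', e₂, e₂', he₂, he₂', hee₂, rfl⟩ := wD hh0 hh
  have hm : ∀ τ, (n : ℤ) ∣ mlt Z Z' τ := by
    intro τ
    by_cases hτ : ‖τ‖ < 1
    · obtain ⟨m, hm, hnm⟩ := hdiv τ hτ
      have h1 := hasOrd_quot (X := cD k C) he he' hee he₂ he₂' hee₂ hu (τ := τ) hτ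
      rw [h1.uniq (X := cD k C) hτ hm]
      exact hnm
    · rw [mlt_apply, Multiset.count_eq_zero_of_notMem (fun h => hτ (hZ τ h)),
        Multiset.count_eq_zero_of_notMem (fun h => hτ (hZ' τ h))]
      simp
  obtain ⟨S, v, v', hv, hv', hvv, huv⟩ := exists_unit (X := cD k C) hn he he' hee he₂ he₂' hee₂ hu hm
  have hv0 : v ≠ 0 := by
    rintro rfl
    rw [zero_mul] at hvv
    exact zero_ne_one hvv
  refine ⟨_, v, div_ne_zero (linP_ne_zero S) (linP_ne_zero Z'), hv0, huv, ?_⟩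
  have h1 : dl v = dFun v * v' := by
    unfold dl
    rw [div_eq_mul_inv, eq_inv_of_mul_eq_one_right hvv]
  rw [h1]
  exact InD.mul (inD_dFun hv) hv'

/-- **disc**: the negative coefficients of `dlog u` are divisible by `n` -/
theorem disc_co {n : ℕ} {u g h : EE k C} (hn : n ≠ 0) (hg : InD g) (hh : InD h) (hh0 : h ≠ 0)
    (hu : u * h = g) (hu0 : u ≠ 0)
    (hdiv : ∀ τ : C, ‖τ‖ < 1 → ∃ m : ℤ, HasOrd (cD k C) τ u m ∧ (n : ℤ) ∣ m)
    {j : ℤ} (hj : j < 0) : ‖(dl u).co j‖ ≤ ‖(n : C)‖ := by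
  obtain ⟨R, v, hR, hv, rfl, hd⟩ := disc_unit hn hg hh hh0 hu hu0 hdiv
  rw [dl_mul (pow_ne_zero n hR) hv, co_add, hd j hj, add_zero]
  exact (le_gn _ j).trans (gn_dl_pow_le hR n)

/-! ### annuli -/

variable {c : C}

omit [IsUltrametricDist k] [IsAlgClosed C] hk in
theorem flip_one : Flip c (1 : EE k C) 1 := fun n => by
  rw [co_one, co_one]
  by_cases hn : n = 0
  · rw [hn]; simp
  · rw [if_neg hn, if_neg (by omega), zero_mul]

theorem FlipF.uniq (hc0 : c ≠ 0) (hc1 : ‖c‖ < 1) {u u' u'' : EE k C} (h : FlipF c u u')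
    (h' : FlipF c u u'') : u' = u'' := by
  obtain ⟨a, b, a', b', hb0, ha, hb, e1, e2, e3, e4⟩ := h
  obtain ⟨p, q, p', q', hq0, hp, hq, f1, f2, f3, f4⟩ := h'
  have h1 : a * q = p * b := by rw [← e3, ← f3]; ring
  have h2 := Flip.mul (hc0 := hc0) hc1 ha hq e1 f2
  have h3 := Flip.mul (hc0 := hc0) hc1 hp hb f1 e2
  rw [h1] at h2
  have h4 := Flip.uniq h2 h3
  have hb' := Flip.ne_zero hc0 e2 hb0
  have hq' := Flip.ne_zero hc0 f2 hq0
  apply mul_right_cancel₀ (mul_ne_zero hb' hq')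
  calc u' * (b' * q') = a' * q' := by rw [← e4]; ring
    _ = p' * b' := h4
    _ = u'' * (b' * q') := by rw [← f4]; ring

theorem FlipF.pow (hc0 : c ≠ 0) (hc1 : ‖c‖ < 1) {u u' : EE k C} (h : FlipF c u u') (n : ℕ) :
    FlipF c (u ^ n) (u' ^ n) := by
  induction n with
  | zero =>
    rw [pow_zero, pow_zero]
    have h1 : Flip c (1 : EE k C) 1 := flip_one
    exact ⟨1, 1, 1, 1, one_ne_zero, (rA k c hc0).one_mem, (rA k c hc0).one_mem, h1, h1,
      mul_one 1, mul_one 1⟩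
  | succ n ih => rw [pow_succ, pow_succ]; exact ih.mul hc0 hc1 h

theorem exists_flip' (hc0 : c ≠ 0) (hc1 : ‖c‖ < 1) {a : EE k C} (ha : InA c a) :
    ∃ b, Flip c a b := ⟨_, flip_flip' hc0 hc1 ha⟩

theorem flipF_div (hc0 : c ≠ 0) (hc1 : ‖c‖ < 1) {a b : EE k C} (ha : InA c a) (hb : InA c b)
    (hb0 : b ≠ 0) : ∃ u', FlipF c (a / b) u' := by
  obtain ⟨a', ha'⟩ := exists_flip' hc0 hc1 ha
  obtain ⟨b', hb'⟩ := exists_flip' hc0 hc1 hb
  have hb0' := Flip.ne_zero hc0 hb' hb0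
  exact ⟨a' / b', a, b, a', b', hb0, ha, hb, ha', hb', div_mul_cancel₀ _ hb0,
    div_mul_cancel₀ _ hb0'⟩

theorem flipF_of (hc0 : c ≠ 0) (hc1 : ‖c‖ < 1) {a a' : EE k C} (ha : InA c a) (h : Flip c a a') :
    FlipF c a a' := by
  have h1 : Flip c (1 : EE k C) 1 := flip_one
  exact ⟨a, 1, a', 1, one_ne_zero, ha, (rA k c hc0).one_mem, h, h1, mul_one _, mul_one _⟩

theorem FlipF.ne_zero' (hc0 : c ≠ 0) {u u' : EE k C} (h : FlipF c u u') (hu : u ≠ 0) :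
    u' ≠ 0 := by
  obtain ⟨a, b, a', b', hb0, ha, hb, e1, e2, e3, e4⟩ := h
  have ha0 : a ≠ 0 := by rw [← e3]; exact mul_ne_zero hu hb0
  rintro rfl
  rw [zero_mul] at e4
  exact Flip.ne_zero hc0 e1 ha0 e4.symm

/-- the structure of a function on an annulus with orders divisible by `n` -/
theorem ann_unit (hc0 : c ≠ 0) (hc1 : ‖c‖ < 1) {n : ℕ} (hn : n ≠ 0) {u u' : EE k C} (hu0 : u ≠ 0)
    (h : FlipF c u u')
    (hdiv : ∀ τ : C, ‖c‖ < ‖τ‖ → ‖τ‖ < 1 → ∃ m : ℤ, HasOrd (cA k c hc0) τ u m ∧ (n : ℤ) ∣ m) :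
    ∃ R R' v v' : EE k C, R ≠ 0 ∧ R' ≠ 0 ∧ v ≠ 0 ∧ v' ≠ 0 ∧ u = R ^ n * v ∧ u' = R' ^ n * v' ∧
      Flip c (dl v) (mo 2 (-c⁻¹) * dl v') := by
  classical
  have hflip := h
  obtain ⟨g, h, g', h', hh0, hg, hh, e1, e2, e3, e4⟩ := h
  have hg0 : g ≠ 0 := by rw [← e3]; exact mul_ne_zero hu0 hh0
  obtain ⟨Z, hZ, hZc, e, e', he, he', hee, rfl⟩ := wA hc0 hc1 hg0 hg e1
  obtain ⟨Z', hZ', hZc', e₂, e₂', he₂, he₂', hee₂, rfl⟩ := wA hc0 hc1 hh0 hh e2
  have hm : ∀ τ, (n : ℤ) ∣ mlt Z Z' τ := by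
    intro τ
    by_cases hτ : ‖c‖ < ‖τ‖ ∧ ‖τ‖ < 1
    · obtain ⟨m, hm, hnm⟩ := hdiv τ hτ.1 hτ.2
      have h1 := hasOrd_quot (X := cA k c hc0) he he' hee he₂ he₂' hee₂ e3 (τ := τ) hτ
      rw [h1.uniq (X := cA k c hc0) hτ hm]
      exact hnm
    · rw [mlt_apply, Multiset.count_eq_zero_of_notMem (fun h => hτ (hZ τ h)),
        Multiset.count_eq_zero_of_notMem (fun h => hτ (hZ' τ h))]
      simp
  obtain ⟨S, v, w, hv, hw, hvw, huv⟩ :=
    exists_unit (X := cA k c hc0) hn he he' hee he₂ he₂' hee₂ e3 hm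
  obtain ⟨R', hR'⟩ := flipF_div hc0 hc1 (k := k) (linP_mem (X := cA k c hc0) S)
    (linP_mem (X := cA k c hc0) Z') (linP_ne_zero Z')
  obtain ⟨v', hv'⟩ := exists_flip' hc0 hc1 (k := k) (a := v) hv
  obtain ⟨w', hw'⟩ := exists_flip' hc0 hc1 (k := k) (a := w) hw
  have hv0 : v ≠ 0 := by
    rintro rfl
    rw [zero_mul] at hvw
    exact zero_ne_one hvw
  have hR0 : linP k S / linP k Z' ≠ 0 := div_ne_zero (linP_ne_zero S) (linP_ne_zero Z')
  have h1 : Flip c (1 : EE k C) 1 := flip_one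
  have hvw' : v' * w' = 1 := by
    have h2 := Flip.mul (hc0 := hc0) hc1 hv hw hv' hw'
    rw [hvw] at h2
    exact Flip.uniq h2 h1
  refine ⟨_, R', v, v', hR0, FlipF.ne_zero' hc0 hR' hR0, hv0, Flip.ne_zero hc0 hv' hv0, huv, ?_, ?_⟩
  · apply FlipF.uniq hc0 hc1 hflip
    rw [huv]
    exact (FlipF.pow hc0 hc1 hR' n).mul hc0 hc1 (flipF_of hc0 hc1 hv hv')
  · have h3 : dl v = dFun v * w := by
      unfold dl
      rw [div_eq_mul_inv, eq_inv_of_mul_eq_one_right hvw]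
    have h4 : dl v' = dFun v' * w' := by
      unfold dl
      rw [div_eq_mul_inv, eq_inv_of_mul_eq_one_right hvw']
    rw [h3, h4, ← mul_assoc]
    exact Flip.mul (hc0 := hc0) hc1 (inA_dFun hc0 hv) hw (Flip.deriv hc0 hv') hw'

/-- **annulus**: if `dlog u` has norm at most `M` at the other end and `|n| < M`, then the
coefficients of `dlog u` of degree at most `-2` have norm less than `M` -/
theorem ann_co (hc0 : c ≠ 0) (hc1 : ‖c‖ < 1) {n : ℕ} (hn : n ≠ 0) {u u' : EE k C} (hu0 : u ≠ 0)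
    (h : FlipF c u u')
    (hdiv : ∀ τ : C, ‖c‖ < ‖τ‖ → ‖τ‖ < 1 → ∃ m : ℤ, HasOrd (cA k c hc0) τ u m ∧ (n : ℤ) ∣ m)
    {M : ℝ} (hM : ‖(n : C)‖ < M) (hu' : gn (dl u') ≤ M) {j : ℤ} (hj : j ≤ -2) :
    ‖(dl u).co j‖ < M := by
  obtain ⟨R, R', v, v', hR, hR', hv, hv', rfl, rfl, hf⟩ := ann_unit hc0 hc1 hn hu0 h hdiv
  rw [dl_mul (pow_ne_zero n hR) hv, co_add]
  have hM0 : 0 < M := (norm_nonneg _).trans_lt hM
  have hRn : ∀ i, ‖(dl (R ^ n)).co i‖ < M := fun i =>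
    ((le_gn _ i).trans (gn_dl_pow_le hR n)).trans_lt hM
  have hgv' : gn (dl v') ≤ M := by
    have h1 : dl v' = dl (R' ^ n * v') - dl (R' ^ n) := by
      rw [dl_mul (pow_ne_zero n hR') hv']; ring
    rw [h1]
    exact (gn_sub_le _ _).trans (max_le hu' ((gn_dl_pow_le hR' n).trans hM.le))
  refine lt_of_le_of_lt (IsUltrametricDist.norm_add_le_max _ _) (max_lt (hRn j) ?_)
  -- `(dl v).co j = - c⁻¹ (dl v').co (-j-2) c ^ (-j)`
  have h2 := hf (-j)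
  rw [co_mo_mul, neg_neg] at h2
  have hcj : c ^ j * c ^ (-j) = 1 := by rw [← zpow_add₀ hc0, add_neg_cancel, zpow_zero]
  have h3 : (dl v).co j = -c⁻¹ * (dl v').co (-j - 2) * c ^ (-j) := by
    rw [h2, mul_assoc, hcj, mul_one]
  have h4 : -c⁻¹ * (dl v').co (-j - 2) * c ^ (-j) = -(c ^ (-j - 1) * (dl v').co (-j - 2)) := by
    rw [zpow_sub₀ hc0, zpow_one]
    field_simp
  rw [h3, h4, norm_neg, norm_mul, norm_zpow]
  have h5 : ‖c‖ ^ (-j - 1) < 1 := by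
    obtain ⟨m, hm⟩ := Int.eq_ofNat_of_zero_le (a := -j - 1) (by omega)
    rw [hm, zpow_natCast]
    exact pow_lt_one₀ (norm_nonneg _) hc1 (by rintro rfl; simp at hm; omega)
  calc ‖c‖ ^ (-j - 1) * ‖(dl v').co (-j - 2)‖ ≤ ‖c‖ ^ (-j - 1) * M :=
        mul_le_mul_of_nonneg_left ((le_gn _ _).trans hgv') (zpow_nonneg (norm_nonneg _) _)
    _ < 1 * M := mul_lt_mul_of_pos_right h5 hM0
    _ = M := one_mul M

/-- the same at the other end -/
theorem ann_co' (hc0 : c ≠ 0) (hc1 : ‖c‖ < 1) {n : ℕ} (hn : n ≠ 0) {u u' : EE k C} (hu0 : u ≠ 0)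
    (h : FlipF c u u')
    (hdiv : ∀ τ : C, ‖c‖ < ‖τ‖ → ‖τ‖ < 1 → ∃ m : ℤ, HasOrd (cA k c hc0) τ u m ∧ (n : ℤ) ∣ m)
    {M : ℝ} (hM : ‖(n : C)‖ < M) (hu' : gn (dl u) ≤ M) {j : ℤ} (hj : j ≤ -2) :
    ‖(dl u').co j‖ < M := by
  obtain ⟨R, R', v, v', hR, hR', hv, hv', rfl, rfl, hf⟩ := ann_unit hc0 hc1 hn hu0 h hdiv
  rw [dl_mul (pow_ne_zero n hR') hv', co_add]
  have hM0 : 0 < M := (norm_nonneg _).trans_lt hM
  have hRn : ∀ i, ‖(dl (R' ^ n)).co i‖ < M := fun i =>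
    ((le_gn _ i).trans (gn_dl_pow_le hR' n)).trans_lt hM
  have hgv : gn (dl v) ≤ M := by
    have h1 : dl v = dl (R ^ n * v) - dl (R ^ n) := by
      rw [dl_mul (pow_ne_zero n hR) hv]; ring
    rw [h1]
    exact (gn_sub_le _ _).trans (max_le hu' ((gn_dl_pow_le hR n).trans hM.le))
  refine lt_of_le_of_lt (IsUltrametricDist.norm_add_le_max _ _) (max_lt (hRn j) ?_)
  have h2 := hf (j + 2)
  rw [co_mo_mul, add_sub_cancel_right] at h2
  have h4 : (dl v').co j = -(c ^ (-j - 1) * (dl v).co (-j - 2)) := by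
    have h5 : -(j + 2) = -j - 2 := by ring
    have h6 : (dl v').co j = -c * (-c⁻¹ * (dl v').co j) := by
      field_simp
    rw [h6, h2, h5]
    have h7 : c ^ (-j - 1) = c ^ (-j - 2) * c := by
      rw [← zpow_add_one₀ hc0]; congr 1; ring
    rw [h7]
    ring
  rw [h4, norm_neg, norm_mul, norm_zpow]
  have h5 : ‖c‖ ^ (-j - 1) < 1 := by
    obtain ⟨m, hm⟩ := Int.eq_ofNat_of_zero_le (a := -j - 1) (by omega)
    rw [hm, zpow_natCast]
    exact pow_lt_one₀ (norm_nonneg _) hc1 (by rintro rfl; simp at hm; omega)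
  calc ‖c‖ ^ (-j - 1) * ‖(dl v).co (-j - 2)‖ ≤ ‖c‖ ^ (-j - 1) * M :=
        mul_le_mul_of_nonneg_left ((le_gn _ _).trans hgv) (zpow_nonneg (norm_nonneg _) _)
    _ < 1 * M := mul_lt_mul_of_pos_right h5 hM0
    _ = M := one_mul M

end Crest.Agent.R013.M3_359
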