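import Crest.Agent.R013.M3A_359
import Crest.Agent.R013.M3B_359
/-
ROW 13, leaves M1, M3 (helper359), file C: MAXIMUM PRINCIPLE.  If `p^n | div h`, all reductions of `h` are `p^n`-th powers and
the maximum `|c|` of the norms of `dlog h` is larger than `|p^n|`, then all reductions of `dlog h / c` are REGULAR and
Cartier nilpotent.
-/
set_option autoImplicit false
set_option linter.unusedSectionVars false
set_option linter.unusedVariables false

namespace Crest.Agent.R013.M3_359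

open scoped NNReal
open WithZero Module
open Crest.Agent.R013.Cell_408 (FinDef DiscNorm)
open Crest.Agent.R013.EE809 hiding od
open Crest.Agent.R013.RR7_948 Crest.Agent.R013.RR8_948 Crest.Agent.R013.RR9_948
open Crest.Agent.R013.RR11_948 Crest.Agent.R013.RR14_948
open Crest.Agent.R013.Red332 hiding od
open Crest.Agent.R013.Car1_700 Crest.Agent.R013.RedD_310
open Crest.Agent.R013.SSK_332 Crest.Agent.R013.Car2_700 Crest.Agent.R013.Car6_700
open Crest.Agent.R013.CartC_359 Crest.Agent.R013.CartE_359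

section pole

variable (p : ℕ) [hp : Fact p.Prime] {k : Type*} [Field k] [CharP k p] [PerfectField k]
  {K : Type*} [Field K] [Algebra k K] [Algebra (RatFunc k) K]
  [IsScalarTower k (RatFunc k) K] [FiniteDimensional (RatFunc k) K]
  [Algebra.IsSeparable (RatFunc k) K]

theorem v_CK_iter_pole (P : Pl k K) {g : K} (hg : P.v g = exp (canD k K P + 1)) (m : ℕ) :
    P.v ((CK p k K)^[m] g) = exp (canD k K P + 1) := by
  induction m generalizing g with
  | zero => exact hg
  | succ m ih =>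
    rw [Function.iterate_succ_apply]
    apply ih
    have h := v_CK_eq p P (g := g) (m := -1) (by
      rw [hg]; congr 1
      have : ((p - 1 : ℕ) : ℤ) = p - 1 := by
        rw [Nat.cast_sub hp.out.pos]; simp
      rw [this]; ring)
    rw [h]
    congr 1

/-- a Cartier nilpotent form with at most a simple pole is regular -/
theorem reg_of_nil (P : Pl k K) {g : K} (hg : P.v g ≤ exp (canD k K P + 1)) {m : ℕ}
    (hm : (CK p k K)^[m] g = 0) : P.v g ≤ exp (canD k K P) := by
  by_cases hg0 : g = 0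
  · rw [hg0, map_zero]; exact zero_le
  have hv := (exp_log ((Valuation.ne_zero_iff P.v).mpr hg0)).symm
  rw [hv, exp_le_exp] at hg ⊢
  by_contra hcon
  have h1 : P.v g = exp (canD k K P + 1) := by
    rw [hv]; congr 1; omega
  have h2 := v_CK_iter_pole p P h1 m
  rw [hm, map_zero] at h2
  exact exp_ne_zero h2.symm

end pole

section ssk

variable (p : ℕ) [hp : Fact p.Prime]
variable {k : Type*} [NontriviallyNormedField k] [CompleteSpace k] [IsUltrametricDist k]
variable {C : Type*} [NormedField C] [IsUltrametricDist C] [NormedAlgebra k C]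
  [Algebra.IsAlgebraic k C] [IsAlgClosed C] [hk : Fact (DiscNorm k)]
variable {K : Type*} [Field K] [Algebra C K] [Algebra (RatFunc C) K]
  [IsScalarTower C (RatFunc C) K] [FiniteDimensional (RatFunc C) K]
  [Algebra.IsSeparable (RatFunc C) K]

/-- all orders are divisible by `p^n` and all reductions are `p^n`-th powers -/
structure GoodF (n : ℕ) (S : SSK k C K) (h : K) : Prop where
  ne : h ≠ 0
  div : ∀ P : Pl C K, ((p ^ n : ℕ) : ℤ) ∣ divf (k := C) h P
  red : ∀ v, ∃ (c : C) (y : kap (S.nm v)), c ≠ 0 ∧ (S.nm v).v (h * (algebraMap C K c)⁻¹) = 1 ∧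
    Red332.red (S.nm v) (h * (algebraMap C K c)⁻¹) = y ^ p ^ n

variable (S : SSK k C K)

variable {p} in
/-- the coefficients of degree at most `-2` -/
theorem co_lt {n : ℕ} {h : K} (hh : GoodF p n S h) {M : ℝ} (hM : ‖(p : C)‖ ^ n < M)
    (hle : ∀ D : S.Dir, gn (dl (S.em D h)) ≤ M) (D : S.Dir) {j : ℤ} (hj : j ≤ -2) :
    ‖(dl (S.em D h)).co j‖ < M := by
  have hn : p ^ n ≠ 0 := pow_ne_zero _ hp.out.ne_zero
  have hpn : ‖((p ^ n : ℕ) : C)‖ = ‖(p : C)‖ ^ n := by
    rw [Nat.cast_pow, norm_pow]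
  have hem : ∀ D : S.Dir, S.em D h ≠ 0 := fun D => (map_ne_zero _).mpr hh.ne
  by_cases h0 : ∃ e, D = S.e0 e
  · obtain ⟨e, rfl⟩ := h0
    exact ann_co (S.cc_ne e) (S.cc_lt e) hn (hem _) (flipF_em S e h)
      (fun τ h0 h1 => ⟨_, hasOrd_ptA S e τ h0 h1 hh.ne, hh.div _⟩) (by rw [hpn]; exact hM)
      (hle _) hj
  · by_cases h1 : ∃ e, D = S.e1 e
    · obtain ⟨e, rfl⟩ := h1
      exact ann_co' (S.cc_ne e) (S.cc_lt e) hn (hem _) (flipF_em S e h)
        (fun τ h0 h1 => ⟨_, hasOrd_ptA S e τ h0 h1 hh.ne, hh.div _⟩) (by rw [hpn]; exact hM)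
        (hle _) hj
    · push Not at h0 h1
      obtain ⟨g, H, hH0, hg, hH, e⟩ := qD_em S D h0 h1 h
      refine lt_of_le_of_lt (disc_co hn hg hH hH0 e (hem _)
        (fun τ hτ => ⟨_, hasOrd_ptD S D h0 h1 τ hτ hh.ne, hh.div _⟩) (by omega)) ?_
      rw [hpn]
      exact hM

variable {p} in
/-- at most simple poles -/
theorem od_ge {n : ℕ} {h : K} (hh : GoodF p n S h) {M : ℝ} (hM : ‖(p : C)‖ ^ n < M)
    (hle : ∀ D : S.Dir, gn (dl (S.em D h)) ≤ M) (D : S.Dir) (hD : gn (dl (S.em D h)) = M) :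
    -1 ≤ EE809.od (dl (S.em D h)) := by
  by_contra hlt
  push Not at hlt
  have h1 := co_lt S hh hM hle D (j := EE809.od (dl (S.em D h))) (by omega)
  have h2 : dl (S.em D h) ≠ 0 := by
    intro h0
    rw [h0, gn_zero] at hD
    rw [← hD] at hM
    exact absurd hM (not_lt.mpr (pow_nonneg (norm_nonneg _) n))
  rw [norm_co_od hk.out h2, hD] at h1
  exact lt_irrefl _ h1

theorem ex_dlog (D : S.Dir) {h : K} (h0 : h ≠ 0) :
    ex (S.em D) (del C K h / h) = dl (S.em D h) := by
  rw [div_eq_mul_inv, mul_comm, ex_mul, ex_del _ (S.em_C D), dT_apply, map_inv₀, dl,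
    div_eq_mul_inv, mul_comm]

variable [CharP (Ct C) p] [Algebra (ZMod p) (Ct C)]
  [Algebra.IsAlgebraic (ZMod p) (Ct C)] [PerfectField (Ct C)]

section vertex

variable (v : S.V)
variable [Algebra (RatFunc (Ct C)) (kap (S.nm v))]
  [IsScalarTower (Ct C) (RatFunc (Ct C)) (kap (S.nm v))]
  [FiniteDimensional (RatFunc (Ct C)) (kap (S.nm v))]
  [Algebra.IsSeparable (RatFunc (Ct C)) (kap (S.nm v))]
variable {T0 : K} (hT : (S.nm v).v T0 ≤ 1)
  (hT' : Red332.red (S.nm v) T0 = RR8_948.xK (Ct C) (kap (S.nm v)))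

/-- the reduction of `dlog h / c` at `v`, as a function with respect to the coordinate of
`kap v` -/
noncomputable def om (T0 : K) (c : C) (h : K) : kap (S.nm v) :=
  Red332.red (S.nm v) (del C K h / (algebraMap C K c * h) / del C K T0)

include hT hT'

/-- the norm of `dlog h / c` -/
theorem v_om (x : Pl (Ct C) (kap (S.nm v))) {c : C} (hc : c ≠ 0) {h : K} (h0 : h ≠ 0) :
    (((S.nm v).v (del C K h / (algebraMap C K c * h) / del C K T0) : ℝ≥0) : ℝ) =
      gn (dl (S.em ⟨v, x⟩ h)) / ‖c‖ := by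
  have h1 := nd_eq hT hT' x (S.em_C ⟨v, x⟩) (S.em_gn ⟨v, x⟩) (S.em_od ⟨v, x⟩) (del C K h / h)
  rw [ex_dlog S ⟨v, x⟩ h0] at h1
  have h2 : del C K h / (algebraMap C K c * h) / del C K T0 =
      del C K h / h / del C K T0 * (algebraMap C K c)⁻¹ := by
    field_simp
  rw [h2, map_mul, map_inv₀, (S.nm v).hC, NNReal.coe_mul, h1, NNReal.coe_inv, coe_nnnorm,
    div_eq_mul_inv]

variable {p} in
/-- **Cartier nilpotent** -/
theorem om_nil (hp0 : (p : C) ≠ 0) {n : ℕ} {h : K} (hh : GoodF p n S h) {c : C}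
    (hM : ‖(p : C)‖ ^ n < ‖c‖) (hle : ∀ D : S.Dir, gn (dl (S.em D h)) ≤ ‖c‖)
    (x : Pl (Ct C) (kap (S.nm v))) :
    ∃ m, (CK p (Ct C) (kap (S.nm v)))^[m] (om S v T0 c h) = 0 := by
  have hc0 : c ≠ 0 := by
    rintro rfl
    rw [norm_zero] at hM
    exact absurd hM (not_lt.mpr (pow_nonneg (norm_nonneg _) n))
  have hcn : 0 < ‖c‖ := norm_pos_iff.mpr hc0
  have hv := v_om S v hT hT' x hc0 hh.ne
  rcases (hle ⟨v, x⟩).lt_or_eq with hlt | heq
  · refine ⟨0, ?_⟩
    have h1 : (S.nm v).v (del C K h / (algebraMap C K c * h) / del C K T0) < 1 := by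
      rw [← NNReal.coe_lt_coe, hv, NNReal.coe_one, div_lt_one hcn]
      exact hlt
    rw [Function.iterate_zero_apply, om, Red332.red_eq_zero_iff _ h1.le]
    exact h1
  · obtain ⟨a, y, ha, hva, hy⟩ := hh.red v
    have haK : algebraMap C K a ≠ 0 := (map_ne_zero _).mpr ha
    set h' : K := h * (algebraMap C K a)⁻¹ with hh'
    have hdel : del C K h' = del C K h * (algebraMap C K a)⁻¹ := by
      rw [hh', ← map_inv₀, Derivation.leibniz, Derivation.map_algebraMap, smul_zero, zero_add,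
        smul_eq_mul, mul_comm]
    have hemh : gn (S.em ⟨v, x⟩ h') = 1 := by rw [S.em_gn, hva]; rfl
    have h'0 : h' ≠ 0 := mul_ne_zero hh.ne (inv_ne_zero haK)
    have hdl : dl (S.em ⟨v, x⟩ h') = dl (S.em ⟨v, x⟩ h) := by
      rw [← ex_dlog S _ hh.ne, ← ex_dlog S _ h'0]
      congr 1
      rw [hdel, hh']
      field_simp
    have hc : ‖c‖ = gn (dT k C (S.em ⟨v, x⟩ h')) := by
      rw [← heq, ← hdl, dl, gn_div _ ((map_ne_zero _).mpr h'0), hemh, div_one, dT_apply]
    obtain ⟨m, hm⟩ := cartK hT hT' x (S.em_C ⟨v, x⟩) (S.em_gn ⟨v, x⟩) (S.em_od ⟨v, x⟩) p hp0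
      hva hy hc hM
    refine ⟨m, ?_⟩
    have h2 : del C K h' / (algebraMap C K c * h') / del C K T0 =
        del C K h / (algebraMap C K c * h) / del C K T0 := by
      rw [hdel, hh']
      field_simp
    rw [h2] at hm
    exact hm

variable {p} in
/-- **at most simple poles** -/
theorem om_pole {n : ℕ} {h : K} (hh : GoodF p n S h) {c : C}
    (hM : ‖(p : C)‖ ^ n < ‖c‖) (hle : ∀ D : S.Dir, gn (dl (S.em D h)) ≤ ‖c‖)
    (x : Pl (Ct C) (kap (S.nm v))) :
    x.v (om S v T0 c h) ≤ exp (canD (Ct C) (kap (S.nm v)) x + 1) := by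
  have hc0 : c ≠ 0 := by
    rintro rfl
    rw [norm_zero] at hM
    exact absurd hM (not_lt.mpr (pow_nonneg (norm_nonneg _) n))
  have hcn : 0 < ‖c‖ := norm_pos_iff.mpr hc0
  have hcK : algebraMap C K c ≠ 0 := (map_ne_zero _).mpr hc0
  have hv := v_om S v hT hT' x hc0 hh.ne
  rcases (hle ⟨v, x⟩).lt_or_eq with hlt | heq
  · have h1 : (S.nm v).v (del C K h / (algebraMap C K c * h) / del C K T0) < 1 := by
      rw [← NNReal.coe_lt_coe, hv, NNReal.coe_one, div_lt_one hcn]
      exact hlt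
    rw [om, (Red332.red_eq_zero_iff _ h1.le).mpr h1, map_zero]
    exact zero_le
  · have h1 := od_ge S hh hM hle ⟨v, x⟩ heq
    have hne : dl (S.em ⟨v, x⟩ h) ≠ 0 := by
      intro h0
      rw [h0, gn_zero] at heq
      exact hcn.ne heq
    have hdh : del C K h / h ≠ 0 := by
      intro h0
      apply hne
      rw [← ex_dlog S _ hh.ne, h0, ex_zero]
    have h2 := od_ex hT hT' x (S.em_C ⟨v, x⟩) (S.em_gn ⟨v, x⟩) (S.em_od ⟨v, x⟩) hdh
    rw [ex_dlog S _ hh.ne] at h2
    have h3 : del C K h / h / del C K T0 * (algebraMap C K c)⁻¹ =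
        del C K h / (algebraMap C K c * h) / del C K T0 := by
      field_simp
    have h4 : (S.nm v).v (del C K h / h / del C K T0 * (algebraMap C K c)⁻¹) = 1 := by
      rw [h3, ← NNReal.coe_inj, hv, heq, div_self hcn.ne', NNReal.coe_one]
    have h5 := Red332.od_eq_of x h4
    rw [h3] at h5
    have h6 : om S v T0 c h ≠ 0 := by
      rw [om, ← h3]
      exact Red332.red_ne_zero _ h4
    have h7 : x.v (om S v T0 c h) ≠ 0 := (Valuation.ne_zero_iff _).mpr h6
    rw [← exp_log h7, exp_le_exp]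
    have h8 : Red332.od (S.nm v) x (del C K h / h / del C K T0) = -log (x.v (om S v T0 c h)) := h5
    omega

variable {p} in
/-- **M1**: all reductions of `dlog h / c` are regular -/
theorem om_reg (hp0 : (p : C) ≠ 0) {n : ℕ} {h : K} (hh : GoodF p n S h) {c : C}
    (hM : ‖(p : C)‖ ^ n < ‖c‖) (hle : ∀ D : S.Dir, gn (dl (S.em D h)) ≤ ‖c‖) :
    om S v T0 c h ∈ LD (canD (Ct C) (kap (S.nm v))) := by
  rw [mem_LD]
  intro x
  obtain ⟨m, hm⟩ := om_nil S v hT hT' hp0 hh hM hle x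
  exact reg_of_nil p x (om_pole S v hT hT' hh hM hle x) hm

end vertex

end ssk

end Crest.Agent.R013.M3_359
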