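import Crest.Agent.R013.M3C_359
import Crest.Agent.R013.RR29_948
/-
ROW 13, leaf M3 (helper359), file D: the `e`-part and the theorem `‖dlog h_n‖ ≤ |p^n|`.
-/
set_option autoImplicit false
set_option linter.unusedSectionVars false
set_option linter.unusedVariables false
set_option linter.style.haveILetI false

namespace Crest.Agent.R013.M3_359

open scoped NNReal
open WithZero Module PadicInt
open Crest.Agent.R013.Cell_408 (FinDef DiscNorm)
open Crest.Agent.R013.EE809 hiding od
open Crest.Agent.R013.RR7_948 Crest.Agent.R013.RR8_948 Crest.Agent.R013.RR9_948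
open Crest.Agent.R013.RR11_948 Crest.Agent.R013.RR14_948
open Crest.Agent.R013.Red332 hiding od
open Crest.Agent.R013.Car1_700 Crest.Agent.R013.RedD_310
open Crest.Agent.R013.SSK_332 Crest.Agent.R013.Car2_700 Crest.Agent.R013.Car6_700
open Crest.Agent.R013.PicD_398 Crest.Agent.R013.Frob1_914 Crest.Agent.R013.TP_928

section rel

variable {p : ℕ} [hp : Fact p.Prime]
variable {C : Type*} [NormedField C] [IsUltrametricDist C] [IsAlgClosed C]
variable {K : Type*} [Field K] [Algebra C K] [Algebra (RatFunc C) K]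
  [IsScalarTower C (RatFunc C) K] [FiniteDimensional (RatFunc C) K]
  [Algebra.IsSeparable (RatFunc C) K]

variable (C K) in
/-- logarithmic derivative -/
noncomputable def dlg : Additive Kˣ →+ K :=
  AddMonoidHom.mk' (fun e => del C K (e.toMul : K) / (e.toMul : K)) (fun e f => by
    change del C K ((e.toMul : K) * (f.toMul : K)) / ((e.toMul : K) * (f.toMul : K)) = _
    have h1 : (e.toMul : K) ≠ 0 := Units.ne_zero _
    have h2 : (f.toMul : K) ≠ 0 := Units.ne_zero _
    rw [Derivation.leibniz, smul_eq_mul, smul_eq_mul]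
    field_simp
    ring)

theorem dlg_apply (e : Additive Kˣ) : dlg C K e = del C K (e.toMul : K) / (e.toMul : K) := rfl

variable {A : Type*} [Group A] [Fintype A] (cov : A →* (K ≃ₐ[C] K)) (c : A → ℤ_[p])

/-- the action on units -/
noncomputable def phi (a : A) : Additive Kˣ →+ Additive Kˣ :=
  MonoidHom.toAdditive (Units.map ((cov a : K ≃ₐ[C] K) : K →* K))

theorem phi_coe (a : A) (e : Additive Kˣ) : (((phi cov a e).toMul : Kˣ) : K) = cov a (e.toMul : K) :=
  rfl

theorem rep_phi (a : A) {n : ℕ} {z : Pic C K} {e : Additive Kˣ}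
    (h : Rep p (dv C K) (Prin C K) n z e) :
    Rep p (dv C K) (Prin C K) n ((TPS.ofAlg (cov a)).pic z) (phi cov a e) := by
  obtain ⟨x, rfl, hx⟩ := h
  refine ⟨(TPS.ofAlg (cov a)).D x, rfl, ?_⟩
  have h1 := (TPS.ofAlg (cov a)).divf_f (Units.ne_zero e.toMul)
  have h2 : divf (k := C) (e.toMul : K) = (p ^ n) • x := hx
  rw [h2, map_nsmul] at h1
  exact h1

theorem rep_sum {n : ℕ} (s : Finset A) (m : A → ℕ) (z : A → Pic C K) (e : A → Additive Kˣ)
    (h : ∀ a ∈ s, Rep p (dv C K) (Prin C K) n (z a) (e a)) :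
    Rep p (dv C K) (Prin C K) n (∑ a ∈ s, m a • z a) (∑ a ∈ s, m a • e a) := by
  classical
  induction s using Finset.induction_on with
  | empty => rw [Finset.sum_empty, Finset.sum_empty]; exact rep_zero
  | insert a s ha ih =>
    rw [Finset.sum_insert ha, Finset.sum_insert ha]
    exact ((h a (Finset.mem_insert_self a s)).smul (m a)).add
      (ih fun b hb => h b (Finset.mem_insert_of_mem hb))

theorem tate_sum_apply {G : Type*} [AddCommGroup G] {ι : Type*} (s : Finset ι) (t : ι → Tate p G)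
    (n : ℕ) : (∑ i ∈ s, t i) n = ∑ i ∈ s, t i n := by
  classical
  induction s using Finset.induction_on with
  | empty => rfl
  | insert a s ha ih => rw [Finset.sum_insert ha, Finset.sum_insert ha, Tate.add_apply, ih]

/-- the relation of the `e`-part: `∏ (cov b h)^(c b) = const. h g^(p^n)`, and its transforms -/
theorem exists_rel (u : Tate p (Pic C K))
    (hu : ∑ α, c α • Tate.map ((TPS.ofAlg (cov α)).pic : Pic C K →+ Pic C K) u = u)
    {n : ℕ} {h : K} (h0 : h ≠ 0) (hr : RepK p n (u n) h) :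
    ∃ g : K, g ≠ 0 ∧ ∀ a : A,
      ∑ b, ((rp (c b) n : ℕ) : K) * (del C K (cov (a * b) h) / cov (a * b) h) =
        del C K (cov a h) / cov a h + ((p ^ n : ℕ) : K) * (del C K (cov a g) / cov a g) := by
  let E : Additive Kˣ := Additive.ofMul (Units.mk0 h h0)
  have hE : Rep p (dv C K) (Prin C K) n (u n) E := hr
  have h1 := rep_sum (p := p) (n := n) Finset.univ (fun b => rp (c b) n) _ (fun b => phi cov b E)
    (fun b _ => rep_phi cov b hE)
  have h2 : ∑ b, rp (c b) n • ((TPS.ofAlg (cov b)).pic (u n)) = u n := by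
    have h3 : (∑ α, c α • Tate.map ((TPS.ofAlg (cov α)).pic : Pic C K →+ Pic C K) u) n = u n := by
      rw [hu]
    rw [tate_sum_apply] at h3
    exact h3
  rw [h2] at h1
  obtain ⟨cc, f, hcc, hf⟩ := Rep.exists_sub (mem_Prin_iff C K) hE h1
  refine ⟨(f.toMul : K), Units.ne_zero _, fun a => ?_⟩
  have h4 := congrArg (fun e => dlg C K (phi cov a e)) hf
  simp only [map_add, map_sum, map_nsmul] at h4
  obtain ⟨c1, hc1, hc2⟩ := exists_const_of_dv_eq_zero hCbot hcc
  have h5 : dlg C K (phi cov a cc) = 0 := by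
    rw [dlg_apply, phi_coe, hc2, AlgEquiv.commutes, Derivation.map_algebraMap, zero_div]
  rw [h5, add_zero] at h4
  have h6 : ∀ b, dlg C K (phi cov a (phi cov b E)) = del C K (cov (a * b) h) / cov (a * b) h := by
    intro b
    rw [dlg_apply, phi_coe, phi_coe, map_mul]
    rfl
  simp only [h6] at h4
  simp only [nsmul_eq_mul] at h4
  exact h4

/-- the representative of `a` modulo `p^n`, `n > 0`, in a ring of characteristic `p` -/
theorem natCast_rp_eq {R : Type*} [CommRing R] [Algebra (ZMod p) R] (a : ℤ_[p]) {n : ℕ} (hn : n ≠ 0) :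
    ((rp a n : ℕ) : R) = algebraMap (ZMod p) R (toZMod a) := by
  have h1 : toZMod a = ((rp a n : ℕ) : ZMod p) := by
    have h2 : a - (rp a n : ℕ) ∈ RingHom.ker (toZModPow (p := p) n) := by
      rw [RingHom.mem_ker, map_sub, map_natCast, natCast_rp, sub_self]
    rw [ker_toZModPow, Ideal.mem_span_singleton] at h2
    have h3 : a - (rp a n : ℕ) ∈ RingHom.ker (toZMod (p := p)) := by
      rw [ker_toZMod, maximalIdeal_eq_span_p, Ideal.mem_span_singleton]
      exact (dvd_pow_self _ hn).trans h2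
    rw [RingHom.mem_ker, map_sub, map_natCast, sub_eq_zero] at h3
    exact h3
  rw [h1, map_natCast]

end rel

section ssk

variable {p : ℕ} [hp : Fact p.Prime]
variable {k : Type*} [NontriviallyNormedField k] [CompleteSpace k] [IsUltrametricDist k]
variable {C : Type*} [NormedField C] [IsUltrametricDist C] [NormedAlgebra k C]
  [Algebra.IsAlgebraic k C] [IsAlgClosed C] [hk : Fact (DiscNorm k)]
variable {K : Type*} [Field K] [Algebra C K] [Algebra (RatFunc C) K]
  [IsScalarTower C (RatFunc C) K] [FiniteDimensional (RatFunc C) K]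
  [Algebra.IsSeparable (RatFunc C) K]
variable {S : SSK k C K}
variable {A : Type*} [Group A] [Fintype A] {cov : A →* (K ≃ₐ[C] K)}
  (hcov : ∀ α w, ∃ w', ∀ f, (S.nm w).v (cov α f) = (S.nm w').v f)

include hcov

/-- covering transformations preserve `GoodF` -/
theorem goodF_cov {n : ℕ} {h : K} (hh : GoodF p n S h) (a : A) : GoodF p n S (cov a h) where
  ne := (map_ne_zero (cov a)).mpr hh.ne
  div := fun P => by
    have h1 := (TPS.ofAlg (cov a)).divf_f hh.ne
    have h2 : divf (k := C) (cov a h) = (TPS.ofAlg (cov a)).D (divf (k := C) h) := h1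
    rw [h2, SI.D_apply]
    exact hh.div _
  red := fun v => by
    obtain ⟨v', hv'⟩ := hcov a v
    obtain ⟨c, y, hc, h1, h2⟩ := hh.red v'
    obtain ⟨f, hf, rfl⟩ := red_surj (S.nm v') y
    have e1 : cov a h * (algebraMap C K c)⁻¹ = cov a (h * (algebraMap C K c)⁻¹) := by
      rw [map_mul, map_inv₀, AlgEquiv.commutes]
    have h3 : (S.nm v).v (cov a h * (algebraMap C K c)⁻¹) = 1 := by rw [e1, hv', h1]
    refine ⟨c, Red332.red (S.nm v) (cov a f), hc, h3, ?_⟩
    have hf' : (S.nm v).v (cov a f) ≤ 1 := by rw [hv']; exact hf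
    rw [← red_pow _ hf', red_eq_iff _ h3.le (by rw [map_pow]; exact pow_le_one' hf' _), e1,
      ← map_pow, ← map_sub, hv', ← red_eq_iff _ h1.le (by rw [map_pow]; exact pow_le_one' hf _),
      h2, red_pow _ hf]

end ssk

section main

variable {p : ℕ} [hp : Fact p.Prime]
variable {k : Type*} [NontriviallyNormedField k] [CompleteSpace k] [IsUltrametricDist k]
variable {C : Type*} [NormedField C] [IsUltrametricDist C] [NormedAlgebra k C]
  [Algebra.IsAlgebraic k C] [IsAlgClosed C] [hk : Fact (DiscNorm k)]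
variable {K : Type*} [Field K] [Algebra C K] [Algebra (RatFunc C) K]
  [IsScalarTower C (RatFunc C) K] [FiniteDimensional (RatFunc C) K]
  [Algebra.IsSeparable (RatFunc C) K]
variable (S : SSK k C K) [CharP (Ct C) p] [Algebra (ZMod p) (Ct C)]
  [Algebra.IsAlgebraic (ZMod p) (Ct C)] [PerfectField (Ct C)]

/-- multiplication by an integer and reduction -/
theorem red_natCast_mul (w : Nm C K) {q : K} (hq : w.v q ≤ 1) (m : ℕ) :
    Red332.red w ((m : K) * q) = (m : kap w) * Red332.red w q := by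
  have hle : ∀ m : ℕ, w.v (m : K) ≤ 1 := by
    intro m
    induction m with
    | zero => simp
    | succ m ih =>
      rw [Nat.cast_succ]
      exact (Valuation.map_add _ _ _).trans (max_le ih (by rw [map_one]))
  have hr : Red332.red w (m : K) = m := by
    induction m with
    | zero => rw [Nat.cast_zero, Nat.cast_zero, red_zero]
    | succ m ih => rw [Nat.cast_succ, Nat.cast_succ, red_add w (hle m) (by rw [map_one]), ih, red_one]
  rw [red_mul w (hle m) hq, hr]

theorem red_sum (w : Nm C K) {ι : Type*} (s : Finset ι) (f : ι → K) (hf : ∀ i ∈ s, w.v (f i) ≤ 1) :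
    Red332.red w (∑ i ∈ s, f i) = ∑ i ∈ s, Red332.red w (f i) := by
  classical
  induction s using Finset.induction_on with
  | empty => rw [Finset.sum_empty, Finset.sum_empty, red_zero]
  | insert a s ha ih =>
    rw [Finset.sum_insert ha, Finset.sum_insert ha, red_add w (hf a (Finset.mem_insert_self _ _))
      (Valuation.map_sum_le w.v (fun i hi => hf i (Finset.mem_insert_of_mem hi))),
      ih (fun i hi => hf i (Finset.mem_insert_of_mem hi))]

section vertex

variable (v : S.V)
variable [Algebra (RatFunc (Ct C)) (kap (S.nm v))]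
  [IsScalarTower (Ct C) (RatFunc (Ct C)) (kap (S.nm v))]
  [FiniteDimensional (RatFunc (Ct C)) (kap (S.nm v))]
  [Algebra.IsSeparable (RatFunc (Ct C)) (kap (S.nm v))]
variable {T0 : K} (hT : (S.nm v).v T0 ≤ 1)
  (hT' : Red332.red (S.nm v) T0 = RR8_948.xK (Ct C) (kap (S.nm v)))
variable {A : Type*} [Group A] [Fintype A] {cov : A →* (K ≃ₐ[C] K)}
  (hcov : ∀ α w, ∃ w', ∀ f, (S.nm w).v (cov α f) = (S.nm w').v f)

include hT hT' hcov

/-- the vector of reductions at one vertex is zero -/
theorem om_zero (hp0 : (p : C) ≠ 0) {c : A → ℤ_[p]}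
    (hCI : CInj p (S.nm v) cov (fun a => algebraMap (ZMod p) (Ct C) (toZMod (c a))))
    (u : Tate p (Pic C K))
    (hu : ∑ α, c α • Tate.map ((TPS.ofAlg (cov α)).pic : Pic C K →+ Pic C K) u = u)
    {n : ℕ} (hn : n ≠ 0) {h : K} (hr : RepK p n (u n) h) (hh : GoodF p n S h) {c0 : C}
    (hM : ‖(p : C)‖ ^ n < ‖c0‖) (hle : ∀ a, ∀ D : S.Dir, gn (dl (S.em D (cov a h))) ≤ ‖c0‖)
    (a : A) : om S v T0 c0 (cov a h) = 0 := by
  obtain ⟨x, -⟩ := RR12_948.exists_notMem (k := Ct C) (K := kap (S.nm v)) ∅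
  have hc0 : c0 ≠ 0 := by
    rintro rfl
    rw [norm_zero] at hM
    exact absurd hM (not_lt.mpr (pow_nonneg (norm_nonneg _) n))
  have hcn : 0 < ‖c0‖ := norm_pos_iff.mpr hc0
  have hcK : algebraMap C K c0 ≠ 0 := (map_ne_zero _).mpr hc0
  have hdT : del C K T0 ≠ 0 := del_lift_ne_zero hT hT' x (S.em_C ⟨v, x⟩) (S.em_gn ⟨v, x⟩)
    (S.em_od ⟨v, x⟩)
  have hqle : ∀ {g : K}, g ≠ 0 → gn (dl (S.em ⟨v, x⟩ g)) ≤ ‖c0‖ →
      (S.nm v).v (del C K g / (algebraMap C K c0 * g) / del C K T0) ≤ 1 := by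
    intro g hg hgl
    rw [← NNReal.coe_le_coe, v_om S v hT hT' x hc0 hg, NNReal.coe_one, div_le_one hcn]
    exact hgl
  have hG := fun a => goodF_cov hcov hh a
  refine hCI (fun a => om S v T0 c0 (cov a h)) (fun a => ?_) (fun a => ?_) (fun a => ?_)
    (fun b hb θ hθ a => ?_) a
  · exact om_reg S v hT hT' hp0 (hG a) hM (hle a)
  · exact om_nil S v hT hT' hp0 (hG a) hM (hle a) x
  · -- the `e`-part
    obtain ⟨g, hg0, hrel⟩ := exists_rel cov c u hu hh.ne hr
    have h1 := hrel a
    have hga : cov a g ≠ 0 := (map_ne_zero (cov a)).mpr hg0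
    -- divide by `c0 * del T0`
    have h2 : ∑ b, ((rp (c b) n : ℕ) : K) *
        (del C K (cov (a * b) h) / (algebraMap C K c0 * cov (a * b) h) / del C K T0) =
        del C K (cov a h) / (algebraMap C K c0 * cov a h) / del C K T0 +
          ((p ^ n : ℕ) : K) * (del C K (cov a g) / (algebraMap C K c0 * cov a g) / del C K T0) := by
      have h3 := congrArg (fun z => z * ((algebraMap C K c0)⁻¹ * (del C K T0)⁻¹)) h1
      simp only [Finset.sum_mul, add_mul] at h3
      rw [show (∑ b, ((rp (c b) n : ℕ) : K) *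
        (del C K (cov (a * b) h) / (algebraMap C K c0 * cov (a * b) h) / del C K T0)) =
        ∑ b, ((rp (c b) n : ℕ) : K) * (del C K (cov (a * b) h) / cov (a * b) h) *
          ((algebraMap C K c0)⁻¹ * (del C K T0)⁻¹) from Finset.sum_congr rfl fun b _ => by
            have : cov (a * b) h ≠ 0 := (hG (a * b)).ne
            field_simp, h3]
      have : cov a h ≠ 0 := (hG a).ne
      field_simp
    have h4 : (S.nm v).v (((p ^ n : ℕ) : K) *
        (del C K (cov a g) / (algebraMap C K c0 * cov a g) / del C K T0)) < 1 := by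
      have h5 : ((p ^ n : ℕ) : K) = algebraMap C K ((p : C) ^ n) := by
        rw [map_pow, map_natCast]; push_cast; rfl
      rw [map_mul, h5, (S.nm v).hC, ← NNReal.coe_lt_coe, NNReal.coe_mul,
        v_om S v hT hT' x hc0 hga, NNReal.coe_one, coe_nnnorm, norm_pow]
      have h6 : gn (dl (S.em ⟨v, x⟩ (cov a g))) ≤ 1 := gn_dl_le ((map_ne_zero _).mpr hga)
      calc ‖(p : C)‖ ^ n * (gn (dl (S.em ⟨v, x⟩ (cov a g))) / ‖c0‖)
          ≤ ‖(p : C)‖ ^ n * (1 / ‖c0‖) := by
            apply mul_le_mul_of_nonneg_left _ (pow_nonneg (norm_nonneg _) n)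
            exact div_le_div_of_nonneg_right h6 hcn.le
        _ < 1 := by rw [mul_one_div, div_lt_one hcn]; exact hM
    have hterm : ∀ b ∈ Finset.univ, (S.nm v).v (((rp (c b) n : ℕ) : K) *
        (del C K (cov (a * b) h) / (algebraMap C K c0 * cov (a * b) h) / del C K T0)) ≤ 1 := by
      intro b _
      rw [map_mul]
      refine mul_le_one' ?_ (hqle (hG (a * b)).ne (hle _ _))
      have : ((rp (c b) n : ℕ) : K) = algebraMap C K ((rp (c b) n : ℕ) : C) := by
        rw [map_natCast]
      rw [this, (S.nm v).hC, ← NNReal.coe_le_coe, coe_nnnorm, NNReal.coe_one]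
      exact IsUltrametricDist.norm_natCast_le_one C _
    have h7 := congrArg (Red332.red (S.nm v)) h2
    rw [red_sum _ _ _ hterm, red_add _ (hqle (hG a).ne (hle a _)) h4.le,
      (red_eq_zero_iff _ h4.le).mpr h4, add_zero] at h7
    rw [om, ← h7]
    refine Finset.sum_congr rfl fun b _ => ?_
    rw [red_natCast_mul _ (hqle (hG (a * b)).ne (hle _ _)), om, Algebra.smul_def]
    congr 1
    change algebraMap (Ct C) (kap (S.nm v)) (algebraMap (ZMod p) (Ct C) (toZMod (c b))) = _
    rw [← natCast_rp_eq (R := Ct C) (c b) hn, map_natCast]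
  · -- the action of the stabiliser
    have e1 : cov (b * a) h = cov b (cov a h) := by rw [map_mul]; rfl
    set f := cov a h with hf
    have hf0 : f ≠ 0 := (hG a).ne
    have hdel : ∀ g, del C K (cov b g) = cov b (del C K g / del C K T0) * del C K (cov b T0) := by
      intro g
      have h1 := RR29_948.del_map (k := C) (cov b : K ≃ₐ[C] K).toAlgHom g
      have h2 := RR29_948.del_map (k := C) (cov b : K ≃ₐ[C] K).toAlgHom T0
      change del C K (cov b g) = cov b (del C K g) * del C K (cov b (xK C K)) at h1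
      change del C K (cov b T0) = cov b (del C K T0) * del C K (cov b (xK C K)) at h2
      have h3 : cov b (del C K T0) ≠ 0 := (map_ne_zero (cov b)).mpr hdT
      rw [h1, h2, map_div₀]
      field_simp
    have hbT : (S.nm v).v (cov b T0) ≤ 1 := by rw [hb]; exact hT
    have h1 : del C K (cov b f) / (algebraMap C K c0 * cov b f) / del C K T0 =
        cov b (del C K f / (algebraMap C K c0 * f) / del C K T0) *
          (del C K (cov b T0) / del C K T0) := by
      rw [hdel f]
      have h3 : cov b (del C K T0) ≠ 0 := (map_ne_zero (cov b)).mpr hdT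
      have h4 : cov b f ≠ 0 := (map_ne_zero (cov b)).mpr hf0
      rw [map_div₀, map_div₀, map_div₀, map_mul, AlgEquiv.commutes]
      field_simp
    have h2 : (S.nm v).v (del C K f / (algebraMap C K c0 * f) / del C K T0) ≤ 1 :=
      hqle hf0 (hle a _)
    have h3 : (S.nm v).v (del C K (cov b T0) / del C K T0) ≤ 1 :=
      (v_del_lift_le hT hT' x (S.em_C ⟨v, x⟩) (S.em_gn ⟨v, x⟩) (S.em_od ⟨v, x⟩) _).trans hbT
    change om S v T0 c0 (cov (b * a) h) = _
    rw [e1, om, h1, red_mul _ (by rw [hb]; exact h2) h3, ← hθ _ h2,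
      red_del hT hT' x (S.em_C ⟨v, x⟩) (S.em_gn ⟨v, x⟩) (S.em_od ⟨v, x⟩) hbT, ← hθ _ hT, hT']
    rfl

end vertex

variable {A : Type*} [Group A] [Fintype A] {cov : A →* (K ≃ₐ[C] K)}
  (hcov : ∀ α w, ∃ w', ∀ f, (S.nm w).v (cov α f) = (S.nm w').v f)

include hcov

/-- **(M3)** `‖dlog h_n‖ ≤ |p^n|` -/
theorem main (hp0 : (p : C) ≠ 0) {c : A → ℤ_[p]}
    (hCI : CInjS p S cov (fun a => algebraMap (ZMod p) (Ct C) (toZMod (c a))))
    (u : Tate p (Pic C K))
    (hu : ∑ α, c α • Tate.map ((TPS.ofAlg (cov α)).pic : Pic C K →+ Pic C K) u = u)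
    {n : ℕ} {h : K} (hr : RepK p n (u n) h) (hh : GoodF p n S h) (D : S.Dir) :
    gn (dl (S.em D h)) ≤ ‖(p : C)‖ ^ n := by
  classical
  haveI := S.fV
  rcases Nat.eq_zero_or_pos n with rfl | hn
  · rw [pow_zero]
    exact gn_dl_le ((map_ne_zero _).mpr hh.ne)
  by_contra hlt
  push Not at hlt
  choose i1 i2 i3 i4 hC using hCI
  -- the norm at the vertex `v`
  let N : S.V × A → ℝ≥0 := fun va => (S.nm va.1).v (del C K (cov va.2 h) / cov va.2 h /
    del C K (letI := i1 va.1; lT (S.nm va.1)))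
  have hG := fun a => goodF_cov hcov hh a
  have hN : ∀ (D : S.Dir) (a : A), gn (dl (S.em D (cov a h))) = N (D.1, a) := by
    rintro ⟨v, x⟩ a
    letI := i1 v
    haveI := i2 v
    haveI := i3 v
    haveI := i4 v
    have h1 := nd_eq (lT_le (w := S.nm v)) (red_lT (w := S.nm v)) x (S.em_C ⟨v, x⟩)
      (S.em_gn ⟨v, x⟩) (S.em_od ⟨v, x⟩) (del C K (cov a h) / cov a h)
    rw [ex_dlog S ⟨v, x⟩ (hG a).ne] at h1
    exact h1.symm
  haveI : Nonempty (S.V × A) := ⟨(D.1, 1)⟩
  obtain ⟨⟨v, a⟩, hmax⟩ := Finite.exists_max N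
  have hpos : ‖(p : C)‖ ^ n < N (v, a) := by
    refine hlt.trans_le ?_
    have h1 := hN D 1
    rw [map_one] at h1
    have h2 : gn (dl (S.em D h)) = N (D.1, 1) := h1
    rw [h2]
    exact_mod_cast hmax (D.1, 1)
  letI := i1 v
  haveI := i2 v
  haveI := i3 v
  haveI := i4 v
  have hne : del C K (cov a h) / cov a h / del C K (lT (S.nm v)) ≠ 0 := by
    intro h0
    have h1 : N (v, a) = 0 := by
      change (S.nm v).v (del C K (cov a h) / cov a h / del C K (lT (S.nm v))) = 0
      rw [h0, map_zero]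
    rw [h1, NNReal.coe_zero] at hpos
    exact absurd hpos (not_lt.mpr (pow_nonneg (norm_nonneg _) n))
  obtain ⟨c0, hc0⟩ := (S.nm v).val _ hne
  have hc0' : ((N (v, a) : ℝ≥0) : ℝ) = ‖c0‖ := by
    have : N (v, a) = ‖c0‖₊ := hc0
    rw [this, coe_nnnorm]
  rw [hc0'] at hpos
  have hle : ∀ a, ∀ D : S.Dir, gn (dl (S.em D (cov a h))) ≤ ‖c0‖ := by
    intro b D'
    rw [hN D' b, ← hc0']
    exact_mod_cast hmax (D'.1, b)
  have h1 := om_zero S v (T0 := lT (S.nm v)) lT_le red_lT hcov hp0 (hC v) u hu hn.ne' hr hh hpos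
    hle a
  obtain ⟨x, -⟩ := RR12_948.exists_notMem (k := Ct C) (K := kap (S.nm v)) ∅
  have hc00 : c0 ≠ 0 := by
    rintro rfl
    rw [norm_zero] at hpos
    exact absurd hpos (not_lt.mpr (pow_nonneg (norm_nonneg _) n))
  have h2 := v_om S v (lT_le (w := S.nm v)) (red_lT (w := S.nm v)) x hc00 (hG a).ne
  rw [hN ⟨v, x⟩ a, hc0', div_self (norm_ne_zero_iff.mpr hc00)] at h2
  have h3 : (S.nm v).v (del C K (cov a h) / (algebraMap C K c0 * cov a h) /
      del C K (lT (S.nm v))) = 1 := by
    rw [← NNReal.coe_inj, h2, NNReal.coe_one]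
  exact Red332.red_ne_zero _ h3 h1

end main

end Crest.Agent.R013.M3_359
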