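import Crest.Agent.R013.Nrm4_671
import Crest.Agent.R013.Conn4_315

/-!
# Row 13, C-NB, part 10: the norms of the annuli are different from the vertex norms

`max_disc` : a function whose only poles are in one open disc `d` is maximal at the vertex of `d`.
`nrm_ne_nm` : for every real radius `‖cc e‖ < r < 1` the norm `nrm e r` is different from `nm v`.
(Nrm4_671's `ne_vertex` is for radii in the value group of `C`.)
-/

set_option autoImplicit false
set_option linter.unusedSectionVars false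

namespace Crest.Agent.R013.NB_102

open Filter Topology
open scoped NNReal
open WithZero (exp)
open Crest.Agent.R013.Cell_408 Crest.Agent.R013.EE809 Crest.Agent.R013.Nrm_671
open Crest.Agent.R013.RR7_948 Crest.Agent.R013.RR8_948 Crest.Agent.R013.RR9_948
open Crest.Agent.R013.RR11_948 Crest.Agent.R013.RR12_948

variable {k C K : Type*} [NontriviallyNormedField k] [CompleteSpace k] [IsUltrametricDist k]
    [NormedField C] [IsUltrametricDist C] [NormedAlgebra k C] [Algebra.IsAlgebraic k C]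
    [IsAlgClosed C] [hk : Fact (DiscNorm k)] [Field K] [Algebra C K] (S : SSK_332.SSK k C K)

section

variable {S} {f : K} (hf : f ≠ 0) {d0 : S.Dir}
  (regD : ∀ d (hd : S.IsDisc d), d ≠ d0 → ∀ τ hτ, (S.ptD d hd.1 hd.2 τ hτ).v f ≤ 1)
  (regA : ∀ a τ i0 i1, (S.ptA a τ i0 i1).v f ≤ 1)

include hf regA in
theorem outer_full {M : ℝ} (hmax : ∀ w, ((S.nm w).v f : ℝ) ≤ M) (a : S.Ed)
    (ha : ((S.nm (S.e0 a).1).v f : ℝ) = M) :
    0 < EE809.od (S.em (S.e0 a) f) ∨
      (EE809.od (S.em (S.e0 a) f) = 0 ∧ ((S.nm (S.e1 a).1).v f : ℝ) = M) := by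
  have hone : nrmR S a 1 f = M := by rw [nrmR_one S hk.out]; exact ha
  have hcc : nrmR S a ‖S.cc a‖ f = (S.nm (S.e1 a).1).v f := nrmR_cc S hk.out a f
  rcases outer_gen S a hf le_rfl (S.cc_lt a) (fun τ i0 i1 _ => regA a τ i0 i1)
    (by rw [hone, hcc]; exact hmax _) with h | ⟨h, h'⟩
  · exact Or.inl h
  · exact Or.inr ⟨h, by rw [← hcc, h', hone]⟩

include hf regA in
theorem inner_full {M : ℝ} (hmax : ∀ w, ((S.nm w).v f : ℝ) ≤ M) (a : S.Ed)
    (ha : ((S.nm (S.e1 a).1).v f : ℝ) = M) :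
    0 < EE809.od (S.em (S.e1 a) f) ∨
      (EE809.od (S.em (S.e1 a) f) = 0 ∧ ((S.nm (S.e0 a).1).v f : ℝ) = M) := by
  have hcc : nrmR S a ‖S.cc a‖ f = M := by rw [nrmR_cc S hk.out]; exact ha
  have hone : nrmR S a 1 f = (S.nm (S.e0 a).1).v f := nrmR_one S hk.out a f
  rcases inner_gen S a hf (S.cc_lt a) le_rfl (fun τ i0 i1 _ => regA a τ i0 i1)
    (by rw [hcc, hone]; exact hmax _) with h | ⟨h, h'⟩
  · exact Or.inl h
  · exact Or.inr ⟨h, by rw [← hone, h', hcc]⟩

include hf regD regA in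
/-- all orders vanish at a maximal vertex which is not the vertex of `d0` -/
theorem vertex_full {M : ℝ} (hmax : ∀ w, ((S.nm w).v f : ℝ) ≤ M) (d : S.Dir)
    (hd0 : d.1 ≠ d0.1) (hv : ((S.nm d.1).v f : ℝ) = M) : EE809.od (S.em d f) = 0 := by
  have key : ∀ x, 0 ≤ Red332.od (S.nm d.1) x f := by
    intro x
    have hodx := S.em_od ⟨d.1, x⟩ f hf
    rw [← hodx]
    by_cases i0 : ∃ a, (⟨d.1, x⟩ : S.Dir) = S.e0 a
    · obtain ⟨a, ha⟩ := i0
      rw [ha]
      rcases outer_full hf regA hmax a (by rw [← ha]; exact hv) with h | ⟨h, -⟩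
      · exact h.le
      · exact h.ge
    by_cases i1 : ∃ a, (⟨d.1, x⟩ : S.Dir) = S.e1 a
    · obtain ⟨a, ha⟩ := i1
      rw [ha]
      rcases inner_full hf regA hmax a (by rw [← ha]; exact hv) with h | ⟨h, -⟩
      · exact h.le
      · exact h.ge
    push Not at i0 i1
    obtain ⟨b, hb⟩ := Conn_315.disc_regular S (d := ⟨d.1, x⟩) ⟨i0, i1⟩ (f := f)
      (fun τ hτ => regD _ ⟨i0, i1⟩ (fun h => hd0 (by rw [← h])) τ hτ)
    rw [hb]
    refine Conn_315.od_ofBD_nonneg ?_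
    rintro rfl
    rw [map_zero] at hb
    exact (map_ne_zero_iff _ (S.em _).injective).2 hf hb
  have h2 := Conn_315.kirchhoff (S.nm d.1) (S.ff d.1) hf key
  rw [S.em_od d f hf]
  exact h2 d.2

include hf regD regA in
/-- **maximum principle**: all poles of `f` in the disc `d0` -/
theorem max_disc (hconn : S.Conn) (v : S.V) : (S.nm v).v f ≤ (S.nm d0.1).v f := by
  haveI := S.fV
  haveI := hconn.1
  obtain ⟨v', hv'⟩ := Finite.exists_max fun w : S.V => ((S.nm w).v f : ℝ)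
  refine NNReal.coe_le_coe.1 ((hv' v).trans ?_)
  by_contra hcon
  rw [not_le] at hcon
  set M := ((S.nm v').v f : ℝ) with hMdef
  have hne : ∀ w, ((S.nm w).v f : ℝ) = M → w ≠ d0.1 := by
    rintro w hw rfl
    exact hcon.ne hw
  have step : ∀ w w', ((S.nm w).v f : ℝ) = M → S.Adj w w' → ((S.nm w').v f : ℝ) = M := by
    rintro w w' hw ⟨a, h | h⟩
    · obtain ⟨rfl, rfl⟩ := h
      have h2 := vertex_full hf regD regA hv' (S.e0 a) (hne _ hw) hw
      rcases outer_full hf regA hv' a hw with h | ⟨-, h⟩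
      · exact absurd h (by rw [h2]; exact lt_irrefl _)
      · exact h
    · obtain ⟨rfl, rfl⟩ := h
      have h2 := vertex_full hf regD regA hv' (S.e1 a) (hne _ hw) hw
      rcases inner_full hf regA hv' a hw with h | ⟨-, h⟩
      · exact absurd h (by rw [h2]; exact lt_irrefl _)
      · exact h
  have hreach : ∀ w, Relation.ReflTransGen S.Adj v' w → ((S.nm w).v f : ℝ) = M := by
    intro w hw
    induction hw with
    | refl => rfl
    | tail _ h ih => exact step _ _ ih h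
  exact hne _ (hreach _ (hconn.2 v' d0.1)) rfl

end

section Distinct

variable [Algebra (RatFunc C) K] [IsScalarTower C (RatFunc C) K]
    [FiniteDimensional (RatFunc C) K] [Algebra.IsSeparable (RatFunc C) K]

/-- **the norms inside an annulus are no vertices** (all real radii) -/
theorem nrmR_lt_nm (e : S.Ed) {r : ℝ} (h0 : ‖S.cc e‖ < r) (h1 : r < 1) (v : S.V) :
    ∃ f : K, f ≠ 0 ∧ nrmR S e r f < ((S.nm v).v f : ℝ) := by
  obtain ⟨d, hd, rfl⟩ := Conn_315.exists_disc S v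
  have h00 : ‖(0 : C)‖ < 1 := by rw [norm_zero]; exact one_pos
  obtain ⟨ρ, hρ0, hρ1⟩ := exists_norm_between k (C := C) (cc_pos S e) (S.cc_lt e)
  obtain ⟨f, hf, hreg, hz⟩ := exists_fun (S.ptD d hd.1 hd.2 0 h00) (S.ptA e ρ hρ0 hρ1)
    (S.ptDA _ _ _ _ _ _ _ _ _).symm
  have regD : ∀ d' (hd' : S.IsDisc d'), d' ≠ d → ∀ τ hτ,
      (S.ptD d' hd'.1 hd'.2 τ hτ).v f ≤ 1 := by
    intro d' hd' hne τ hτ
    exact hreg _ fun h => hne (S.ptD_inj _ _ _ _ _ _ _ _ _ _ h).1
  have regA : ∀ a τ i0 i1, (S.ptA a τ i0 i1).v f ≤ 1 := fun a τ i0 i1 =>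
    hreg _ (S.ptDA _ _ _ _ _ _ _ _ _).symm
  have hmax := max_disc hf regD regA S.conn
  refine ⟨f, hf, ?_⟩
  rcases seg S hk.out e hf le_rfl h0 h1 le_rfl (fun τ i0 i1 _ _ => regA e τ i0 i1) with h | h
  · refine h.trans_le (max_le ?_ ?_)
    · rw [nrmR_cc S hk.out]; exact NNReal.coe_le_coe.2 (hmax _)
    · rw [nrmR_one S hk.out]; exact NNReal.coe_le_coe.2 (hmax _)
  · exact absurd (h.2.2 ρ hρ0 hρ1 hρ0 hρ1) hz.ne

/-- the norms inside an annulus are no vertices -/
theorem nrm_ne_nm (e : S.Ed) {r : ℝ} (h0 : ‖S.cc e‖ < r) (h1 : r < 1) (v : S.V) :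
    nrm S e r h0.le h1.le ≠ (S.nm v).v := by
  intro h
  obtain ⟨f, -, hf⟩ := nrmR_lt_nm S e h0 h1 v
  rw [← nrm_coe S e r h0.le h1.le, h] at hf
  exact lt_irrefl _ hf

end Distinct

end Crest.Agent.R013.NB_102
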