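import Crest.Agent.R013.NB9_92
import Crest.Agent.R013.VData_803
import Crest.Agent.R013.RR17_948

/-!
# B-NB, part 10: B-NB from vertex data (803's `VData`) and the output of LIFT-L
-/

set_option autoImplicit false
set_option linter.unusedSectionVars false
set_option linter.style.haveILetI false

noncomputable section

namespace Crest.Agent.R013.NB_92

open Module Crest.Agent.R013.Gl946 Crest.Agent.R013.CutCov_92
open Crest.Agent.R013.Annu_930 (MN)
open Crest.Agent.R013.Half_930 (Am Ap mem_MN_of_both)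
open Crest.Agent.R013.BTor4_914 (LDiv)
open Crest.Agent.R013.BTor6_914 (LC Lbar LC_le_Lbar LC_mono)
open Crest.Agent.R013.Set_803
open Crest.NumberTheoryR.Sect
open scoped NNReal

/-- The output of LIFT-L (168). -/
structure LiftOut (p : ℕ) [Fact p.Prime] (k : Type*) [Field k] [Algebra ℚ_[p] k] {K : Type*}
    [Field K] [Algebra k K] (v : Valuation (AlgebraicClosure K) ℝ≥0) (t : AlgebraicClosure K)
    (M : IntermediateField K (AlgebraicClosure K)) (l : ℕ)
    (C1 : IntermediateField k (AlgebraicClosure K)) (h : AlgebraicClosure K) : Prop where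
  fin : FiniteDimensional k C1
  mem : h ∈ LC M C1
  ne : h ≠ 0
  ldiv : LDiv k l (⟨h, mem⟩ : LC M C1)
  gt : ∀ w : Valuation (AlgebraicClosure K) ℝ≥0, ExtendsPadicNorm k (AlgebraicClosure K) p w →
    1 < w t → ∃ g ∈ LC M C1, w (h - g ^ l) < w h
  np : ∀ C' : IntermediateField k (AlgebraicClosure K), FiniteDimensional k C' → C1 ≤ C' →
    ∀ g ∈ LC M C', ¬ v (h - g ^ l) < v h

/-- **The output of B-NB** at the circle `|x| = |π|`: a level `C2 ≥ C`, the circle field `E` over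
`C2`, and the non-bridge. -/
def NBDisc (p : ℕ) [Fact p.Prime] {k : Type} [Field k] [Algebra ℚ_[p] k]
    [FiniteDimensional ℚ_[p] k] {K : Type} [Field K] [Algebra k K] [Algebra (RatFunc k) K]
    [IsScalarTower k (RatFunc k) K] [FiniteDimensional (RatFunc k) K]
    (v P : Valuation (AlgebraicClosure K) ℝ≥0)
    (C : IntermediateField k (AlgebraicClosure K)) (R : ℝ≥0) (x : K) (q c : AlgebraicClosure K)
    {s : ℝ≥0} (hs : 1 < s) (π : AlgebraicClosure K) : Prop :=
  ∃ (C2 : IntermediateField k (AlgebraicClosure K)) (_ : FiniteDimensional k C2) (_ : C ≤ C2)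
    (D2 : DiscData p v P C2 R (algebraMap K (AlgebraicClosure K) x) q c)
    (E : Type) (_ : NormedField E) (_ : IsUltrametricDist E) (_ : CompleteSpace E)
    (A : NAlg D2.hv C2 E) (y : E) (hy : IsG D2.hv C2 A y) (hd : DenseR D2.hv C2 A y)
    (π₀ : C2) (hπ₀ : @IsUnif C2 (nC D2.hv C2).toNormedField π₀)
    (π' : C2) (hπ'0 : π' ≠ 0) (hπ'R : v (π' : AlgebraicClosure K) < R),
    (π' : AlgebraicClosure K) = π ∧
    (∀ f ∈ LC (⊥ : IntermediateField K (AlgebraicClosure K)) C2, f ∈ D2.SD) ∧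
    NBLevel D2 A hy hπ₀ hd hs π' hπ'0 hπ'R

section Main

variable {p : ℕ} [hp : Fact p.Prime] {k : Type} [Field k] [CharZero k] [Algebra ℚ_[p] k]
  [FiniteDimensional ℚ_[p] k] {K : Type} [Field K] [Algebra k K] [Algebra (RatFunc k) K]
  [IsScalarTower k (RatFunc k) K] [FiniteDimensional (RatFunc k) K]
  {v P : Valuation (AlgebraicClosure K) ℝ≥0}
  {C : IntermediateField k (AlgebraicClosure K)} [FiniteDimensional k C] {R : ℝ≥0} {x : K}
  {q c : AlgebraicClosure K}

/-- **B-NB** at the circle `|x| = |π|` from the output of LIFT-L. -/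
theorem exists_nb_disc (hcl : algebraicClosure k K = ⊥) (hg : 1 ≤ RR11_948.gen k K)
    (D : DiscData p v P C R (algebraMap K (AlgebraicClosure K) x) q c)
    (hK : ∀ f : K, algebraMap K (AlgebraicClosure K) f ∈ D.SD)
    {M : IntermediateField K (AlgebraicClosure K)} [FiniteDimensional K M]
    (hMU : M ≤ maxUnramified k K) {l : ℕ} (hl : l.Prime) (hlp : l ≠ p)
    {C1 : IntermediateField k (AlgebraicClosure K)} {h : AlgebraicClosure K}
    (hL : LiftOut p k v ((algebraMap K (AlgebraicClosure K) x - q) / c) M l C1 h)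
    {s : ℝ≥0} (hs : 1 < s) {π ρ1 ρ2 : AlgebraicClosure K} (hπ : π ∈ C) (h1 : ρ1 ∈ C) (h2 : ρ2 ∈ C)
    (hπ0 : π ≠ 0) (h10 : ρ1 ≠ 0) (h20 : ρ2 ≠ 0) (h1π : v ρ1 * s ≤ v π) (hq1 : v q < v ρ1)
    (hc1 : v c < v ρ1) (hπ2 : v π * s < v ρ2) (h2R : v ρ2 ≤ R) :
    NBDisc p v P C R x q c hs π := by
  classical
  obtain ⟨fC1, hM, h0, hLD, hgt, hnp⟩ := hL
  haveI := fC1
  haveI : CharZero K := charZero_of_injective_algebraMap (algebraMap k K).injective
  haveI : CharZero (AlgebraicClosure K) :=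
    charZero_of_injective_algebraMap (algebraMap K (AlgebraicClosure K)).injective
  -- the root of unity
  haveI : NeZero (l : AlgebraicClosure K) := ⟨Nat.cast_ne_zero.2 hl.ne_zero⟩
  obtain ⟨ζ, hζ⟩ := HasEnoughRootsOfUnity.exists_primitiveRoot (AlgebraicClosure K) l
  have hζi : IsIntegral k ζ := (hζ.isIntegral hl.pos).tower_top
  haveI : FiniteDimensional k (IntermediateField.adjoin k {ζ}) :=
    IntermediateField.adjoin.finiteDimensional hζi
  -- the constants
  let C₁ : IntermediateField k (AlgebraicClosure K) := C ⊔ C1 ⊔ IntermediateField.adjoin k {ζ}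
  haveI : FiniteDimensional k (C ⊔ C1 : IntermediateField k (AlgebraicClosure K)) :=
    IntermediateField.finiteDimensional_sup _ _
  haveI fC₁ : FiniteDimensional k C₁ := IntermediateField.finiteDimensional_sup _ _
  have hCC₁ : C ≤ C₁ := le_sup_left.trans le_sup_left
  obtain ⟨C2, fC2, hC2, D2, h', hρ0, b1, b2, b3, b4, b5, b6, b7⟩ :=
    BTor10_914.exists_out_bot hcl hg D hK hl hlp C₁ hCC₁ (hCC₁ h2) h20 h2R
  haveI := fC2
  have hCC2 : C ≤ C2 := hCC₁.trans hC2
  have hC1C2 : C1 ≤ C2 := (le_sup_right.trans le_sup_left : C1 ≤ C₁).trans hC2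
  have hζC2 : ζ ∈ C2 := hC2 ((le_sup_right : IntermediateField.adjoin k {ζ} ≤ C₁)
    (IntermediateField.mem_adjoin_simple_self k ζ))
  -- the circle field
  obtain ⟨E, iE, A, iEu, iEc, y, hy, hd⟩ := exists_circ D2.hv C2
  obtain ⟨π₀, hπ₀⟩ := exists_unif D2.hv C2
  have hs0 : (1 : ℝ≥0) ≤ s := hs.le
  have hπR : v π < R := by
    refine lt_of_lt_of_le ?_ h2R
    exact (le_mul_of_one_le_right zero_le hs0).trans_lt hπ2
  haveI : FiniteDimensional K (LC M C1) := LiftM_168.fd_lv M C1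
  have hMC : LC M C1 ≤ LC M C2 := LC_mono hC1C2
  have hLDup : LDiv k l (⟨h, hMC hM⟩ : LC M C2) := by
    letI : Algebra (LC M C1) (LC M C2) := algS _ _ hMC
    haveI : IsScalarTower k (LC M C1) (LC M C2) := IsScalarTower.of_algebraMap_eq fun _ => rfl
    haveI : IsScalarTower K (LC M C1) (LC M C2) := IsScalarTower.of_algebraMap_eq fun _ => rfl
    haveI : FiniteDimensional K (LC M C2) := LiftM_168.fd_lv M C2
    haveI : FiniteDimensional (LC M C1) (LC M C2) :=
      Module.Finite.of_restrictScalars_finite K _ _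
    haveI : Algebra.IsAlgebraic (LC M C1) (LC M C2) := Algebra.IsAlgebraic.of_finite _ _
    exact ldiv_up hLD
  haveI : FiniteDimensional K (LC (⊥ : IntermediateField K (AlgebraicClosure K)) C2) :=
    LiftM_168.fd_lv _ C2
  refine ⟨C2, fC2, hCC2, D2, E, iE, iEu, iEc, A, y, hy, hd, π₀, hπ₀, ⟨π, hCC2 hπ⟩,
    fun e => hπ0 (congrArg Subtype.val e), hπR, rfl, b1, ?_⟩
  have hζ' : IsPrimitiveRoot (⟨ζ, hζC2⟩ : C2) l :=
    IsPrimitiveRoot.of_map_of_injective (f := C2.val) hζ Subtype.val_injective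
  exact nb_level D2 A hy hπ₀ hd hs b1 hMU (π := ⟨π, hCC2 hπ⟩) (ρ1 := ⟨ρ1, hCC2 h1⟩)
    (ρ2 := ⟨ρ2, hC2 (hCC₁ h2)⟩) _ (fun e => h10 (congrArg Subtype.val e)) hρ0 h1π hq1 hc1 hπ2 h2R
    hπR hl hlp hζ' h (hMC hM) h0 hLDup
    (fun w hw hw1 => by
      obtain ⟨g, hg, hg1⟩ := hgt w hw hw1
      exact ⟨g, hMC hg, hg1⟩)
    (hnp C2 fC2 hC1C2) h' b2 (b6 _ inferInstance LC_le_Lbar b2)
    (fun g hg => b4 g (LC_le_Lbar hg)) (b7 (b1 h' b2))

end Main

section V

/-- **B-NB from the vertex data**: for every `s > 1` and every `a` with `s < p ^ a`, at the scale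
`η = p⁻ᵃ`. -/
theorem nb_of_vdata {p : ℕ} [hp : Fact p.Prime] {k : Type} [Field k] [Algebra ℚ_[p] k]
    [FiniteDimensional ℚ_[p] k] {K : Type} [Field K] [Algebra k K] [Algebra (RatFunc k) K]
    [IsScalarTower k (RatFunc k) K] [FunctionField k K] (hcl : algebraicClosure k K = ⊥)
    (hg : 2 ≤ genus k K) {P : Valuation (AlgebraicClosure K) ℝ≥0} {x : K}
    (hP : IsRationalPlace k K (P.comap (algebraMap K (AlgebraicClosure K))))
    (hx : IsUniformizerAt (P.comap (algebraMap K (AlgebraicClosure K))) x)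
    {s : ℝ≥0} (hs : 1 < s) {a : ℕ} (hsa : s < (p : ℝ≥0) ^ a)
    {C : IntermediateField k (AlgebraicClosure K)} {π q c : AlgebraicClosure K} {R : ℝ≥0}
    {v : Valuation (AlgebraicClosure K) ℝ≥0} {M : IntermediateField K (AlgebraicClosure K)} {l : ℕ}
    {Y : AlgebraicClosure K}
    (hV : VData_803.VData p k K P x ((p : ℝ≥0)⁻¹ ^ a) C π q c R v M l Y)
    {C1 : IntermediateField k (AlgebraicClosure K)} {h : AlgebraicClosure K}
    (hL : LiftOut p k v ((algebraMap K (AlgebraicClosure K) x - q) / c) M l C1 h) :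
    haveI : FiniteDimensional (RatFunc k) K := ‹FunctionField k K›
    NBDisc p v P C R x q c hs π := by
  haveI : FiniteDimensional (RatFunc k) K := ‹FunctionField k K›
  haveI : CharZero k := charZero_of_injective_algebraMap (algebraMap ℚ_[p] k).injective
  haveI := hV.finC
  haveI := hV.finM
  have hp0 : (0 : ℝ≥0) < p := by exact_mod_cast hp.out.pos
  have hη1 : (p : ℝ≥0)⁻¹ ^ a ≤ 1 :=
    pow_le_one₀ zero_le (inv_le_one_of_one_le₀ (by exact_mod_cast hp.out.one_le))
  have D := discData_of_good hP hx hη1 hV.qC hV.cC hV.c0 hV.hq hV.hc hV.hv hV.hR hV.gauss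
  have hvp : v ((p : AlgebraicClosure K) ^ a) = (p : ℝ≥0)⁻¹ ^ a := by rw [map_pow, val_p hV.hv]
  have hpa : (0 : ℝ≥0) < (p : ℝ≥0) ^ a := pow_pos hp0 a
  have hπv : 0 < v π := zero_lt_iff.2 ((Valuation.ne_zero_iff v).2 hV.π0)
  haveI : CharZero (AlgebraicClosure K) := by
    haveI : CharZero K := charZero_of_injective_algebraMap (algebraMap k K).injective
    exact charZero_of_injective_algebraMap (algebraMap K (AlgebraicClosure K)).injective
  have hpΩ : (p : AlgebraicClosure K) ^ a ≠ 0 := pow_ne_zero _ (Nat.cast_ne_zero.2 hp.out.ne_zero)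
  have hpC : (p : AlgebraicClosure K) ^ a ∈ C := pow_mem (natCast_mem C p) a
  have hv1 : v (π * (p : AlgebraicClosure K) ^ a) = (p : ℝ≥0)⁻¹ ^ a * v π := by
    rw [map_mul, hvp, mul_comm]
  have hv2 : v (π / (p : AlgebraicClosure K) ^ a) = v π * (p : ℝ≥0) ^ a := by
    rw [map_div₀, hvp, inv_pow, div_inv_eq_mul]
  refine exists_nb_disc hcl ?_ D (fun f => D.le_SD hV.disc f) hV.MU hV.lprime hV.lp hL hs hV.πC
    (ρ1 := π * (p : AlgebraicClosure K) ^ a) (ρ2 := π / (p : AlgebraicClosure K) ^ a)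
    (mul_mem hV.πC hpC) (div_mem hV.πC hpC) hV.π0 (mul_ne_zero hV.π0 hpΩ)
    (div_ne_zero hV.π0 hpΩ) ?_ ?_ ?_ ?_ ?_
  · rw [← RR17_948.genus_eq_gen]
    omega
  · rw [hv1, inv_pow, mul_assoc, inv_mul_le_iff₀ hpa, mul_comm]
    exact mul_le_mul_left hsa.le _
  · rw [hv1]; exact hV.hq
  · rw [hv1]; exact hV.hc
  · rw [hv2]
    exact mul_lt_mul_of_pos_left hsa hπv
  · rw [hv2]
    have h3 := hV.hR.le
    rw [inv_pow, ← inv_mul_le_iff₀ (inv_pos.2 hpa), inv_inv] at h3
    rw [mul_comm]; exact h3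

end V

end Crest.Agent.R013.NB_92
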