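import Crest.Agent.R013.CutCov1_92
import Crest.Agent.R013.Gl8_946
import Crest.Agent.R013.A2a_275

/-!
# Row 13, C-NB, part 1: values of elements of `U ⊗ R` at norms of `U`

`E` a normed field, `S0 ⊆ F0 ⊆ E` (`F0` a field, quotients of elements of `S0`), `R` = quotients of
elements of the closure of `S0` by elements of `S0`; `V = E ⊗_{F0} U` is given by an `E`-basis `b`
whose `F0`-span is the range of `j : U →+* V`, and `VS` = elements with coordinates in `R`.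
For `κ : U → Ω` with `‖κ s‖ ≤ ‖s‖` on `S0`, `Ω` complete ultrametric, there is an evaluation
`Φ : VS →+* Ω`, and elements of `VS` are approximated by fractions `u / d` of `U`, uniformly in `κ`.
-/

set_option autoImplicit false

noncomputable section

namespace Crest.Agent.R013.NB_102

open Module Filter Topology
open Crest.Agent.R013.Gl946 Crest.Agent.R013.A2a_275
open scoped NNReal

/-- Extension of a norm-nonincreasing ring homomorphism to the closure of a subring, with the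
bound. -/
theorem ext_closure_bd {E : Type*} [NormedField E] (S0 : Subring E) {Ω : Type*} [NormedField Ω]
    [CompleteSpace Ω] (ψ : S0 →+* Ω) (hψ : ∀ s, ‖ψ s‖ ≤ ‖(s : E)‖) :
    ∃ Ψ : S0.topologicalClosure →+* Ω,
      (∀ s (hs : s ∈ S0), Ψ ⟨s, S0.le_topologicalClosure hs⟩ = ψ ⟨s, hs⟩) ∧
        ∀ a, ‖Ψ a‖ ≤ ‖(a : E)‖ := by
  set i : S0 →+* S0.topologicalClosure := Subring.inclusion S0.le_topologicalClosure with hi
  have hui : IsUniformInducing i := by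
    have h1 : IsUniformInducing (fun x : S0.topologicalClosure => (x : E)) :=
      isUniformInducing_val _
    have h2 : IsUniformInducing (fun x : S0 => (x : E)) := isUniformInducing_val _
    exact h1.of_comp_iff.1 h2
  have hdr : DenseRange i := by
    intro x
    rw [Metric.mem_closure_iff]
    intro ε hε
    obtain ⟨s, hs, hxs⟩ := Metric.mem_closure_iff.1 (show (x : E) ∈ closure (S0 : Set E) from x.2)
      ε hε
    exact ⟨i ⟨s, hs⟩, ⟨⟨s, hs⟩, rfl⟩, hxs⟩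
  have huc : UniformContinuous ψ := by
    refine AddMonoidHomClass.uniformContinuous_of_bound ψ 1 fun s => ?_
    rw [one_mul]; exact hψ s
  have hex : ∀ s : S0, IsDenseInducing.extendRingHom hui hdr huc (i s) = ψ s := fun s =>
    (hui.isDenseInducing hdr).extend_eq huc.continuous s
  refine ⟨IsDenseInducing.extendRingHom hui hdr huc, ?_, ?_⟩
  · intro s hs
    exact hex ⟨s, hs⟩
  · intro a
    have hcont : Continuous (IsDenseInducing.extendRingHom hui hdr huc) :=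
      uniformContinuous_uniformly_extend hui hdr huc |>.continuous
    have hcl : IsClosed {a : S0.topologicalClosure |
        ‖IsDenseInducing.extendRingHom hui hdr huc a‖ ≤ ‖(a : E)‖} :=
      isClosed_le hcont.norm continuous_subtype_val.norm
    refine hcl.closure_subset_iff.2 ?_ (hdr a)
    rintro _ ⟨s, rfl⟩
    change ‖IsDenseInducing.extendRingHom hui hdr huc (i s)‖ ≤ ‖(s : E)‖
    rw [hex s]; exact hψ s

section Setup

variable {E V U ι : Type*} [NormedField E] [CommRing V] [Algebra E V] [Field U]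

/-- The data of `V = E ⊗_{F0} U`, `S0 ⊆ F0`, `R`, `VS`. -/
structure Dat (E V U : Type*) [NormedField E] [CommRing V] [Algebra E V] [Field U]
    (ι : Type*) [Fintype ι] where
  b : Basis ι E V
  F0 : Subfield E
  j : U →+* V
  hj : ∀ v, v ∈ j.range ↔ v ∈ cs b F0.toSubring

variable [Fintype ι] (X : Dat E V U ι)

/-- A subring `S0` of `F0` with its "meromorphic completion" `R`. -/
structure Reg (F0 : Subfield E) where
  S0 : Subring E
  le : S0 ≤ F0.toSubring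
  fr : ∀ z ∈ F0, ∃ a ∈ S0, ∃ d ∈ S0, d ≠ 0 ∧ z = a / d
  R : Subring E
  hR : ∀ z, z ∈ R ↔ ∃ a ∈ S0.topologicalClosure, ∃ d ∈ S0, d ≠ 0 ∧ z = a / d

namespace Reg

variable {F0 : Subfield E} (Q : Reg F0)

theorem cl_le : Q.S0.topologicalClosure ≤ Q.R := fun a ha =>
  (Q.hR a).2 ⟨a, ha, 1, one_mem _, one_ne_zero, by simp⟩

theorem F0_le : F0.toSubring ≤ Q.R := fun z hz => by
  obtain ⟨a, ha, d, hd, hd0, e⟩ := Q.fr z hz
  exact (Q.hR z).2 ⟨a, Q.S0.le_topologicalClosure ha, d, hd, hd0, e⟩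

/-- common denominators -/
theorem common {ι : Type*} (s : Finset ι) (f : ι → E) (hf : ∀ i ∈ s, f i ∈ Q.R) :
    ∃ d ∈ Q.S0, d ≠ 0 ∧ ∀ i ∈ s, d * f i ∈ Q.S0.topologicalClosure := by
  classical
  induction s using Finset.induction_on with
  | empty => exact ⟨1, one_mem _, one_ne_zero, by simp⟩
  | insert i s hi ih =>
    obtain ⟨d, hd, hd0, h⟩ := ih fun i' hi' => hf i' (Finset.mem_insert_of_mem hi')
    obtain ⟨a, ha, d', hd', hd0', e⟩ := (Q.hR (f i)).1 (hf i (Finset.mem_insert_self i s))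
    refine ⟨d * d', mul_mem hd hd', mul_ne_zero hd0 hd0', ?_⟩
    intro i' hi'
    rcases Finset.mem_insert.1 hi' with rfl | hi'
    · have : d * d' * f i' = d * a := by rw [e]; field_simp
      rw [this]
      exact mul_mem (Q.S0.le_topologicalClosure hd) ha
    · have : d * d' * f i' = d' * (d * f i') := by ring
      rw [this]
      exact mul_mem (Q.S0.le_topologicalClosure hd') (h i' hi')

end Reg

namespace Dat

/-- `U ⊗ R` -/
def VR (R : Subring E) (hR : X.F0.toSubring ≤ R) : Subring V :=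
  csRing X.b X.F0.toSubring R hR X.j.range X.hj

theorem mem_VR (R : Subring E) (hR : X.F0.toSubring ≤ R) (v : V) :
    v ∈ X.VR R hR ↔ v ∈ cs X.b R := Iff.rfl

theorem j_mem (R : Subring E) (hR : X.F0.toSubring ≤ R) (u : U) : X.j u ∈ X.VR R hR :=
  cs_mono X.b hR ((X.hj _).1 ⟨u, rfl⟩)

theorem alg_mem_cs (S : Subring E) (h0 : X.F0.toSubring ≤ S) {z : E} (hz : z ∈ S) :
    algebraMap E V z ∈ cs X.b S := by
  have h1 : (1 : V) ∈ cs X.b S := cs_mono X.b h0 ((X.hj 1).1 ⟨1, map_one _⟩)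
  rw [Algebra.algebraMap_eq_smul_one]
  exact smul_mem_cs X.b S hz h1

theorem alg_mem (R : Subring E) (hR : X.F0.toSubring ≤ R) {z : E} (hz : z ∈ R) :
    algebraMap E V z ∈ X.VR R hR := X.alg_mem_cs R hR hz

theorem exists_F0 {z : E} (hz : z ∈ X.F0) : ∃ u : U, X.j u = algebraMap E V z :=
  (X.hj _).2 (X.alg_mem_cs _ le_rfl hz)

theorem exists_b (i : ι) : ∃ u : U, X.j u = X.b i :=
  (X.hj _).2 (basis_mem_cs X.b _ i)

end Dat

/-- `Φ` is the evaluation at `κ`. -/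
structure IsEv {X : Dat E V U ι} (Q : Reg X.F0) {Ω : Type*} [NormedField Ω] (κ : U →+* Ω)
    (Φ : X.VR Q.R Q.F0_le →+* Ω) : Prop where
  eq : ∀ u, Φ ⟨X.j u, X.j_mem Q.R Q.F0_le u⟩ = κ u
  bd : ∀ a (ha : a ∈ Q.S0.topologicalClosure),
    ‖Φ ⟨algebraMap E V a, X.alg_mem Q.R Q.F0_le (Q.cl_le ha)⟩‖ ≤ ‖a‖

/-- The bound which makes the evaluation exist. -/
def Bd {X : Dat E V U ι} (Q : Reg X.F0) {Ω : Type*} [NormedField Ω] (κ : U →+* Ω) : Prop :=
  ∀ s ∈ Q.S0, ∀ u : U, X.j u = algebraMap E V s → ‖κ u‖ ≤ ‖s‖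

variable {X}

theorem j_injective [Nontrivial V] : Function.Injective X.j := X.j.injective

/-- **Existence of the evaluation.** -/
theorem exists_ev [Nontrivial V] (Q : Reg X.F0) {Ω : Type*} [NormedField Ω] [CompleteSpace Ω]
    (κ : U →+* Ω) (h : Bd Q κ) : ∃ Φ : X.VR Q.R Q.F0_le →+* Ω, IsEv Q κ Φ := by
  classical
  -- the inverse of `j`
  have hinj : Function.Injective X.j := X.j.injective
  let jr : U ≃+* X.j.range := RingEquiv.ofBijective X.j.rangeRestrict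
    ⟨fun a b hab => hinj (congrArg Subtype.val hab), X.j.rangeRestrict_surjective⟩
  have hjr : ∀ u, (jr u : V) = X.j u := fun u => rfl
  let g : X.j.range →+* Ω := κ.comp jr.symm.toRingHom
  have hg : ∀ u (hu : X.j u ∈ X.j.range), g ⟨X.j u, hu⟩ = κ u := by
    intro u hu
    have : (⟨X.j u, hu⟩ : X.j.range) = jr u := rfl
    change κ (jr.symm _) = _
    rw [this, RingEquiv.symm_apply_apply]
  have hF0A : ∀ z ∈ X.F0.toSubring, algebraMap E V z ∈ X.j.range := fun z hz => by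
    obtain ⟨u, hu⟩ := X.exists_F0 hz
    exact ⟨u, hu⟩
  -- the homomorphism on `F0`
  let ψ : X.F0 →+* Ω := g.comp
    ((algebraMap E V).comp X.F0.subtype |>.codRestrict X.j.range fun z => hF0A z z.2)
  have hψ : ∀ (z : E) (hz : z ∈ X.F0), ψ ⟨z, hz⟩ = g ⟨algebraMap E V z, hF0A z hz⟩ :=
    fun z hz => rfl
  -- the homomorphism on the closure
  obtain ⟨Ψ, hΨ1, hΨ2⟩ := ext_closure_bd Q.S0 (ψ.comp (Subring.inclusion Q.le)) (by
    rintro ⟨s, hs⟩
    obtain ⟨u, hu⟩ := X.exists_F0 (Q.le hs)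
    have h1 : (ψ.comp (Subring.inclusion Q.le)) ⟨s, hs⟩ = κ u := by
      change g ⟨algebraMap E V s, hF0A s (Q.le hs)⟩ = κ u
      rw [← hg u ⟨u, rfl⟩]
      congr 1
      exact Subtype.ext hu.symm
    rw [h1]
    exact h s hs u hu)
  obtain ⟨φ', hφ'⟩ := ext_frac Q.S0.topologicalClosure Q.S0 Q.S0.le_topologicalClosure Ψ (by
    intro d hd hd0 h0
    have h1 := hΨ1 d hd
    rw [h0] at h1
    have h2 : ψ ⟨d, Q.le hd⟩ = 0 := h1.symm
    exact hd0 (congrArg Subtype.val ((map_eq_zero ψ).1 h2)))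
  have hle : ∀ z, z ∈ Q.R → z ∈ fracSub Q.S0.topologicalClosure Q.S0
      Q.S0.le_topologicalClosure := fun z hz => (Q.hR z).1 hz
  let φ : Q.R →+* Ω := φ'.comp (Subring.inclusion (S := Q.R) (T := fracSub Q.S0.topologicalClosure
    Q.S0 Q.S0.le_topologicalClosure) hle)
  have hφ : ∀ z (hz : z ∈ Q.R) a (ha : a ∈ Q.S0.topologicalClosure) d (hd : d ∈ Q.S0), d ≠ 0 →
      z = a / d → φ ⟨z, hz⟩ = Ψ ⟨a, ha⟩ / Ψ ⟨d, Q.S0.le_topologicalClosure hd⟩ :=
    fun z hz a ha d hd hd0 e => hφ' z (hle z hz) a ha d hd hd0 e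
  have hφcl : ∀ a (ha : a ∈ Q.S0.topologicalClosure), φ ⟨a, Q.cl_le ha⟩ = Ψ ⟨a, ha⟩ := by
    intro a ha
    rw [hφ a (Q.cl_le ha) a ha 1 (one_mem _) one_ne_zero (by simp)]
    have : Ψ ⟨1, Q.S0.le_topologicalClosure (one_mem _)⟩ = 1 := map_one Ψ
    rw [this, div_one]
  have hcomp : ∀ (z : E) (hz : z ∈ X.F0.toSubring),
      g ⟨algebraMap E V z, hF0A z hz⟩ = φ ⟨z, Q.F0_le hz⟩ := by
    intro z hz
    obtain ⟨a, ha, d, hd, hd0, e⟩ := Q.fr z hz
    rw [hφ z _ a (Q.S0.le_topologicalClosure ha) d hd hd0 e, hΨ1 a ha, hΨ1 d hd]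
    change ψ ⟨z, hz⟩ = ψ ⟨a, Q.le ha⟩ / ψ ⟨d, Q.le hd⟩
    rw [← map_div₀]
    congr 1
    exact Subtype.ext e
  obtain ⟨Φ, h1, h2, -⟩ := ext_hom X.b X.F0.toSubring Q.R Q.F0_le X.j.range (X.VR Q.R Q.F0_le)
    X.hj (fun v => Iff.rfl) φ g hF0A hcomp
  refine ⟨Φ, ⟨fun u => ?_, fun a ha => ?_⟩⟩
  · exact (h1 (X.j u) ⟨u, rfl⟩ _).trans (hg u _)
  · rw [h2 a (Q.cl_le ha), hφcl a ha]
    exact hΨ2 ⟨a, ha⟩

/-- Approximation data of `v`: `d v ≈ u`. -/
structure Apx {X : Dat E V U ι} (Q : Reg X.F0) (v : V) (η : ℝ) (d u : U) : Prop where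
  ex : ∃ (d0 : E) (A A0 : ι → E), d0 ∈ Q.S0 ∧ X.j d = algebraMap E V d0 ∧
    (∀ i, A i ∈ Q.S0.topologicalClosure) ∧ (∀ i, A0 i ∈ Q.S0) ∧ (∀ i, ‖A0 i - A i‖ ≤ η) ∧
    algebraMap E V d0 * v = ∑ i, A i • X.b i ∧ X.j u = ∑ i, A0 i • X.b i

theorem exists_apx [Nontrivial V] (Q : Reg X.F0) (v : V) (hv : v ∈ X.VR Q.R Q.F0_le) :
    ∃ d : U, d ≠ 0 ∧ ∀ η : ℝ, 0 < η → ∃ u : U, Apx Q v η d u := by
  classical
  obtain ⟨d0, hd0, hd00, hd⟩ := Q.common Finset.univ (fun i => X.b.repr v i) fun i _ => hv i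
  obtain ⟨d, hdj⟩ := X.exists_F0 (Q.le hd0)
  refine ⟨d, ?_, ?_⟩
  · rintro rfl
    rw [map_zero] at hdj
    have : Function.Injective (algebraMap E V) := (algebraMap E V).injective
    exact hd00 (this (by rw [map_zero, ← hdj]))
  · intro η hη
    have hex : ∀ i, ∃ a ∈ Q.S0, ‖a - d0 * X.b.repr v i‖ ≤ η := by
      intro i
      obtain ⟨a, ha, hlt⟩ := Metric.mem_closure_iff.1
        (show d0 * X.b.repr v i ∈ closure (Q.S0 : Set E) from hd i (Finset.mem_univ i)) η hη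
      refine ⟨a, ha, ?_⟩
      rw [dist_eq_norm, norm_sub_rev] at hlt
      exact hlt.le
    choose A0 hA0 hle using hex
    have hmem : (∑ i, A0 i • X.b i) ∈ X.j.range := by
      rw [X.hj]
      refine sum_mem fun i _ => ?_
      exact smul_mem_cs X.b _ (Q.le (hA0 i)) (basis_mem_cs X.b _ i)
    obtain ⟨u, hu⟩ := hmem
    refine ⟨u, ⟨d0, fun i => d0 * X.b.repr v i, A0, hd0, hdj,
      fun i => hd i (Finset.mem_univ i), hA0, hle, ?_, hu⟩⟩
    conv_lhs => rw [← X.b.sum_repr v]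
    rw [Finset.mul_sum]
    refine Finset.sum_congr rfl fun i _ => ?_
    rw [← Algebra.smul_def, smul_smul]

/-- The approximation is uniform in the evaluation. -/
theorem Apx.bound (Q : Reg X.F0) {v : V} {η : ℝ} {d u : U} (h : Apx Q v η d u) (hη : 0 ≤ η)
    (hv : v ∈ X.VR Q.R Q.F0_le)
    {Ω : Type*} [NormedField Ω] [IsUltrametricDist Ω] (κ : U →+* Ω)
    (Φ : X.VR Q.R Q.F0_le →+* Ω) (hΦ : IsEv Q κ Φ) (B : ℝ) (hB0 : 0 ≤ B)
    (hB : ∀ i, ∀ x : U, X.j x = X.b i → ‖κ x‖ ≤ B) : ‖κ u - κ d * Φ ⟨v, hv⟩‖ ≤ η * B := by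
  classical
  obtain ⟨d0, A, A0, hd0, hdj, hA, hA0, hle, e1, e2⟩ := h.ex
  choose β hβ using X.exists_b
  have hAm : ∀ i, algebraMap E V (A0 i - A i) ∈ X.VR Q.R Q.F0_le := fun i =>
    X.alg_mem Q.R Q.F0_le (Q.cl_le (sub_mem (Q.S0.le_topologicalClosure (hA0 i)) (hA i)))
  have key : (⟨X.j u, X.j_mem Q.R Q.F0_le u⟩ : X.VR Q.R Q.F0_le) -
      ⟨X.j d, X.j_mem Q.R Q.F0_le d⟩ * ⟨v, hv⟩ =
      ∑ i, (⟨algebraMap E V (A0 i - A i), hAm i⟩ : X.VR Q.R Q.F0_le) *
        ⟨X.j (β i), X.j_mem Q.R Q.F0_le (β i)⟩ := by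
    apply Subtype.ext
    rw [AddSubmonoidClass.coe_finsetSum]
    change X.j u - X.j d * v = ∑ i, algebraMap E V (A0 i - A i) * X.j (β i)
    rw [hdj, e1, e2, ← Finset.sum_sub_distrib]
    refine Finset.sum_congr rfl fun i _ => ?_
    rw [hβ, ← sub_smul, Algebra.smul_def]
  have h1 : κ u - κ d * Φ ⟨v, hv⟩ = ∑ i, Φ ⟨algebraMap E V (A0 i - A i), hAm i⟩ * κ (β i) := by
    rw [← hΦ.eq u, ← hΦ.eq d, ← map_mul, ← map_sub, key, map_sum]
    refine Finset.sum_congr rfl fun i _ => ?_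
    rw [map_mul, hΦ.eq]
  rw [h1]
  refine IsUltrametricDist.norm_sum_le_of_forall_le_of_nonneg (mul_nonneg hη hB0) fun i _ => ?_
  rw [norm_mul]
  exact mul_le_mul ((hΦ.bd _ (sub_mem (Q.S0.le_topologicalClosure (hA0 i)) (hA i))).trans (hle i))
    (hB i (β i) (hβ i)) (norm_nonneg _) hη

end Setup

end Crest.Agent.R013.NB_102
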