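import Crest.Agent.R013.NonCut_92
import Crest.Agent.R013.CutCov2_92

/-!
# The non-bridge data from the two classes (row 13, part B, leaf B-NB), pure algebra

`F ⊆ E` fields, `K/F` finite, `B = E ⊗ K`.  For a subring `S` of `E`, `BS S = S ⊗ K` (the span).
-/

set_option autoImplicit false
set_option linter.unusedSectionVars false

namespace Crest.Agent.R013.NB_92

open Module TensorProduct Crest.Agent.R013.Gl946 Crest.Agent.R013.CutCov_92

section BS

variable {E : Type*} [Field E] {F : Subfield E} {K : Type*} [Field K] [Algebra F K]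

theorem smul_eq_tmul (s : E) (v : E ⊗[F] K) : s • v = (s ⊗ₜ[F] (1 : K)) * v := by
  induction v using TensorProduct.induction_on with
  | zero => rw [smul_zero, mul_zero]
  | tmul a k => rw [smul_tmul', smul_eq_mul, Algebra.TensorProduct.tmul_mul_tmul, one_mul]
  | add x y hx hy => rw [smul_add, mul_add, hx, hy]

theorem algebraMap_eq_tmul (s : E) : algebraMap E (E ⊗[F] K) s = s ⊗ₜ[F] (1 : K) := rfl

/-- The `S`-span of `K` in `E ⊗ K`. -/
def BS (S : Subring E) : Subring (E ⊗[F] K) where
  carrier := AddSubmonoid.closure {v | ∃ s ∈ S, ∃ k : K, v = s ⊗ₜ[F] k}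
  zero_mem' := zero_mem _
  add_mem' := fun hx hy => add_mem hx hy
  neg_mem' := by
    intro x hx
    change x ∈ AddSubmonoid.closure _ at hx
    change -x ∈ AddSubmonoid.closure _
    refine AddSubmonoid.closure_induction
      (motive := fun x _ => -x ∈ AddSubmonoid.closure {v | ∃ s ∈ S, ∃ k : K, v = s ⊗ₜ[F] k})
      ?_ ?_ ?_ hx
    · rintro _ ⟨s, hs, k, rfl⟩
      exact AddSubmonoid.subset_closure ⟨-s, neg_mem hs, k, (neg_tmul s k).symm⟩
    · rw [neg_zero]; exact zero_mem _
    · intro x y _ _ h1 h2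
      rw [neg_add]; exact add_mem h1 h2
  one_mem' := AddSubmonoid.subset_closure ⟨1, one_mem _, 1, rfl⟩
  mul_mem' := by
    intro x y hx hy
    change x ∈ AddSubmonoid.closure _ at hx
    change y ∈ AddSubmonoid.closure _ at hy
    change x * y ∈ AddSubmonoid.closure _
    refine AddSubmonoid.closure_induction₂
      (motive := fun x y _ _ => x * y ∈ AddSubmonoid.closure {v | ∃ s ∈ S, ∃ k : K, v = s ⊗ₜ[F] k})
      ?_ ?_ ?_ ?_ ?_ hx hy
    · rintro _ _ ⟨s, hs, k, rfl⟩ ⟨s', hs', k', rfl⟩
      refine AddSubmonoid.subset_closure ⟨s * s', mul_mem hs hs', k * k', ?_⟩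
      rw [Algebra.TensorProduct.tmul_mul_tmul]
    · intro x _; rw [zero_mul]; exact zero_mem _
    · intro x _; rw [mul_zero]; exact zero_mem _
    · intro x y z _ _ _ h1 h2; rw [add_mul]; exact add_mem h1 h2
    · intro x y z _ _ _ h1 h2; rw [mul_add]; exact add_mem h1 h2

theorem tmul_mem_BS {S : Subring E} {s : E} (hs : s ∈ S) (k : K) :
    s ⊗ₜ[F] k ∈ BS (F := F) (K := K) S := AddSubmonoid.subset_closure ⟨s, hs, k, rfl⟩

theorem BS_induction {S : Subring E} {p : E ⊗[F] K → Prop}
    (h1 : ∀ s ∈ S, ∀ k : K, p (s ⊗ₜ[F] k)) (h0 : p 0) (ha : ∀ x y, p x → p y → p (x + y))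
    {v : E ⊗[F] K} (hv : v ∈ BS (F := F) (K := K) S) : p v := by
  change v ∈ AddSubmonoid.closure _ at hv
  refine AddSubmonoid.closure_induction (motive := fun x _ => p x) ?_ h0 (fun x y _ _ => ha x y) hv
  rintro _ ⟨s, hs, k, rfl⟩
  exact h1 s hs k

theorem BS_mono {S T : Subring E} (h : S ≤ T) : BS (F := F) (K := K) S ≤ BS T := fun v hv =>
  BS_induction (p := fun v => v ∈ BS (F := F) (K := K) T) (fun s hs k => tmul_mem_BS (h hs) k)
    (zero_mem _) (fun _ _ => add_mem) hv

theorem smul_mem_BS {S : Subring E} {s : E} (hs : s ∈ S) {v : E ⊗[F] K}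
    (hv : v ∈ BS (F := F) (K := K) S) : s • v ∈ BS (F := F) (K := K) S := by
  refine BS_induction (p := fun v => s • v ∈ BS (F := F) (K := K) S) ?_ ?_ ?_ hv
  · intro s' hs' k
    rw [smul_tmul', smul_eq_mul]
    exact tmul_mem_BS (mul_mem hs hs') k
  · rw [smul_zero]; exact zero_mem _
  · intro x y hx hy; rw [smul_add]; exact add_mem hx hy

theorem mem_BS_top (v : E ⊗[F] K) : v ∈ BS (F := F) (K := K) ⊤ := by
  induction v using TensorProduct.induction_on with
  | zero => exact zero_mem _
  | tmul s k => exact tmul_mem_BS (Subring.mem_top s) k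
  | add x y hx hy => exact add_mem hx hy

theorem mem_BS_iff {ι : Type*} [Fintype ι] (b : Basis ι F K) {S : Subring E}
    (hS : F.toSubring ≤ S) (v : E ⊗[F] K) :
    v ∈ BS (F := F) (K := K) S ↔ v ∈ cs (Algebra.TensorProduct.basis E b) S := by
  constructor
  · intro hv
    refine BS_induction (p := fun v => v ∈ cs (Algebra.TensorProduct.basis E b) S)
      ?_ (zero_mem _) (fun _ _ => add_mem) hv
    intro s hs k i
    rw [Algebra.TensorProduct.basis_repr_tmul, Finsupp.smul_apply, Finsupp.mapRange_apply,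
      smul_eq_mul]
    exact mul_mem hs (hS (b.repr k i).2)
  · intro hv
    rw [← (Algebra.TensorProduct.basis E b).sum_repr v]
    refine sum_mem fun i _ => ?_
    rw [Algebra.TensorProduct.basis_apply]
    exact smul_mem_BS (hv i) (tmul_mem_BS (one_mem _) _)

/-- the elements of `1 ⊗ K`. -/
theorem mem_cs_F {ι : Type*} [Fintype ι] (b : Basis ι F K) (v : E ⊗[F] K) :
    v ∈ cs (Algebra.TensorProduct.basis E b) F.toSubring ↔ ∃ k : K, (1 : E) ⊗ₜ[F] k = v := by
  rw [← mem_BS_iff b le_rfl]
  constructor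
  · intro hv
    refine BS_induction (p := fun v => ∃ k : K, (1 : E) ⊗ₜ[F] k = v) ?_ ⟨0, tmul_zero _ _⟩ ?_ hv
    · intro s hs k
      refine ⟨(⟨s, hs⟩ : F) • k, ?_⟩
      rw [← TensorProduct.smul_tmul]
      congr 1
      rw [Algebra.smul_def, mul_one]; rfl
    · rintro _ _ ⟨k, rfl⟩ ⟨k', rfl⟩
      exact ⟨k + k', tmul_add _ _ _⟩
  · rintro ⟨k, rfl⟩
    exact tmul_mem_BS (one_mem _) k

theorem inter_BS [FiniteDimensional F K] (D : PatchDatum E) (hD : D.F0 = F) (v : E ⊗[F] K)
    (h1 : v ∈ BS (F := F) (K := K) D.RU) (h2 : v ∈ BS (F := F) (K := K) D.FP.toSubring) :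
    ∃ k : K, (1 : E) ⊗ₜ[F] k = v := by
  subst hD
  rw [← mem_cs_F (Module.finBasis D.F0 K)]
  rw [mem_BS_iff (Module.finBasis D.F0 K) (fun z hz => D.F0_le_RU z hz)] at h1
  rw [mem_BS_iff (Module.finBasis D.F0 K) (S := D.FP.toSubring) D.F0_le_FP] at h2
  exact fun i => D.inter _ (h2 i) (h1 i)

end BS

section Act

variable {E : Type*} [Field E] {F : Subfield E} {L K : Type*} [Field L] [Field K] [Algebra F L]
  [Algebra F K] [Algebra L K] [IsScalarTower F L K]

variable (E F L K) in
/-- `Gal(K/L)` acting on `E ⊗ K`. -/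
noncomputable def rho : (K ≃ₐ[L] K) →* ((E ⊗[F] K) ≃ₐ[E] (E ⊗[F] K)) where
  toFun g := Algebra.TensorProduct.congr AlgEquiv.refl (g.restrictScalars F)
  map_one' := by
    ext v
    change (Algebra.TensorProduct.map (AlgHom.id E E) _) v = v
    induction v using TensorProduct.induction_on with
    | zero => rw [map_zero]
    | tmul s k => rfl
    | add x y hx hy => rw [map_add, hx, hy]
  map_mul' g h := by
    ext v
    change (Algebra.TensorProduct.map (AlgHom.id E E) _) v =
      (Algebra.TensorProduct.map (AlgHom.id E E) _) ((Algebra.TensorProduct.map (AlgHom.id E E) _) v)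
    induction v using TensorProduct.induction_on with
    | zero => simp only [map_zero]
    | tmul s k => rfl
    | add x y hx hy => simp only [map_add, hx, hy]

@[simp]
theorem rho_tmul (g : K ≃ₐ[L] K) (s : E) (k : K) :
    rho E F L K g (s ⊗ₜ[F] k) = s ⊗ₜ[F] g k := rfl

theorem rho_mem_BS {S : Subring E} (g : K ≃ₐ[L] K) {v : E ⊗[F] K}
    (hv : v ∈ BS (F := F) (K := K) S) : rho E F L K g v ∈ BS (F := F) (K := K) S := by
  refine BS_induction (p := fun v => rho E F L K g v ∈ BS (F := F) (K := K) S) ?_ ?_ ?_ hv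
  · intro s hs k; rw [rho_tmul]; exact tmul_mem_BS hs _
  · rw [map_zero]; exact zero_mem _
  · intro x y hx hy; rw [map_add]; exact add_mem hx hy

/-- The idempotent of an embedding `iota : L → E`. -/
theorem exists_eP [CharZero E] [FiniteDimensional F L] (iota : L →ₐ[F] E) (P : Subfield E)
    (hFP : F ≤ P) (hι : ∀ l, iota l ∈ P) :
    ∃ (n : ℕ) (f : Fin n → E) (l : Fin n → L), (∀ i, f i ∈ P) ∧ (∑ i, f i * iota (l i) = 1) ∧
      ∀ x : L, ((1 : E) ⊗ₜ[F] algebraMap L K x) * (∑ i, f i ⊗ₜ[F] algebraMap L K (l i)) =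
        iota x • (∑ i, f i ⊗ₜ[F] algebraMap L K (l i)) := by
  classical
  have : CharZero F := inferInstance
  set pb := Field.powerBasisOfFiniteOfSeparable F L
  set α := pb.gen with hα
  set a : E := iota α with ha
  set f0 := minpoly F α with hf0
  have hroot : (f0.map (algebraMap F E)).IsRoot a := by
    rw [Polynomial.IsRoot, Polynomial.eval_map_algebraMap, ha, Polynomial.aeval_algHom_apply,
      minpoly.aeval, map_zero]
  set g := (f0.map (algebraMap F E)) /ₘ (Polynomial.X - Polynomial.C a) with hg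
  have hgf : (Polynomial.X - Polynomial.C a) * g = f0.map (algebraMap F E) :=
    Polynomial.mul_divByMonic_eq_iff_isRoot.2 hroot
  have hgP : ∀ i, g.coeff i ∈ P := by
    intro i
    set inc : F →+* P := Subfield.inclusion hFP
    have e1 : f0.map (algebraMap F E) = (f0.map inc).map P.subtype := by
      rw [Polynomial.map_map]; rfl
    have e2 : (Polynomial.X - Polynomial.C a : Polynomial E) =
        (Polynomial.X - Polynomial.C (⟨a, hι α⟩ : P)).map P.subtype := by
      rw [Polynomial.map_sub, Polynomial.map_X, Polynomial.map_C]; rfl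
    rw [hg, e1, e2, ← Polynomial.map_divByMonic _ (Polynomial.monic_X_sub_C _), Polynomial.coeff_map]
    exact Subtype.prop _
  have hsep : f0.Separable := Algebra.IsSeparable.isSeparable F α
  have hc : g.eval a ≠ 0 := by
    have h1 : (Polynomial.derivative (f0.map (algebraMap F E))).eval a ≠ 0 := by
      have := hsep.map (f := algebraMap F E)
      have h2 := this.eval₂_derivative_ne_zero (RingHom.id E) (x := a) (by
        rw [Polynomial.eval₂_id]; exact hroot)
      rwa [Polynomial.eval₂_id] at h2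
    rw [← hgf, Polynomial.derivative_mul, Polynomial.eval_add, Polynomial.eval_mul,
      Polynomial.eval_mul, Polynomial.eval_sub, Polynomial.eval_X, Polynomial.eval_C, sub_self,
      zero_mul, add_zero, Polynomial.derivative_sub, Polynomial.derivative_X,
      Polynomial.derivative_C, sub_zero, Polynomial.eval_one, one_mul] at h1
    exact h1
  set c := g.eval a
  refine ⟨g.natDegree + 1, fun i => g.coeff i / c, fun i => α ^ (i : ℕ), ?_, ?_, ?_⟩
  · intro i
    refine P.div_mem (hgP i) ?_
    change g.eval a ∈ P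
    rw [Polynomial.eval_eq_sum_range]
    exact sum_mem fun i _ => mul_mem (hgP i) (pow_mem (hι α) _)
  · have : g.eval a = ∑ i : Fin (g.natDegree + 1), g.coeff i * a ^ (i : ℕ) := by
      rw [Polynomial.eval_eq_sum_range, Finset.sum_range]
    have h2 : ∑ i : Fin (g.natDegree + 1), g.coeff i / c * iota (α ^ (i : ℕ)) = c / c := by
      change _ = g.eval a / c
      rw [this, Finset.sum_div]
      refine Finset.sum_congr rfl fun i _ => ?_
      rw [map_pow, ← ha]; ring
    rw [h2, div_self hc]
  · set v : E ⊗[F] K := (1 : E) ⊗ₜ[F] algebraMap L K α with hv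
    have heP : (∑ i : Fin (g.natDegree + 1), (g.coeff i / c) ⊗ₜ[F] algebraMap L K (α ^ (i : ℕ)) :
        E ⊗[F] K) = c⁻¹ • Polynomial.aeval v g := by
      rw [Polynomial.aeval_eq_sum_range, Finset.sum_range, Finset.smul_sum]
      refine Finset.sum_congr rfl fun i _ => ?_
      rw [hv, Algebra.TensorProduct.tmul_pow, one_pow, map_pow, smul_smul, smul_tmul', smul_eq_mul,
        mul_one, div_eq_inv_mul]
    rw [heP]
    have h1 : v * (c⁻¹ • Polynomial.aeval v g) = a • (c⁻¹ • Polynomial.aeval v g) := by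
      have h2 : Polynomial.aeval v (f0.map (algebraMap F E)) = 0 := by
        rw [Polynomial.aeval_map_algebraMap]
        have h3 : v = (Algebra.TensorProduct.includeRight : K →ₐ[F] E ⊗[F] K) (algebraMap L K α) := rfl
        rw [h3, Polynomial.aeval_algHom_apply, Polynomial.aeval_algebraMap_apply, minpoly.aeval,
          map_zero, map_zero]
      rw [← hgf, map_mul, map_sub, Polynomial.aeval_X, Polynomial.aeval_C] at h2
      rw [smul_eq_tmul, smul_eq_tmul]
      rw [algebraMap_eq_tmul] at h2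
      linear_combination (c⁻¹ ⊗ₜ[F] (1 : K)) * h2
    intro x
    have hx : x ∈ Algebra.adjoin F {α} := by rw [hα, pb.adjoin_gen_eq_top]; trivial
    refine Algebra.adjoin_induction (p := fun x _ => ((1 : E) ⊗ₜ[F] algebraMap L K x) *
      (c⁻¹ • Polynomial.aeval v g) = iota x • (c⁻¹ • Polynomial.aeval v g)) ?_ ?_ ?_ ?_ hx
    · intro y hy
      rw [Set.mem_singleton_iff.1 hy]
      exact h1
    · intro r
      rw [AlgHom.commutes, ← IsScalarTower.algebraMap_apply, smul_eq_tmul (algebraMap F E r)]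
      congr 1
      exact (Algebra.TensorProduct.tmul_one_eq_one_tmul r).symm
    · intro y z _ _ hy hz
      rw [map_add, tmul_add, add_mul, hy, hz, map_add, add_smul]
    · intro y z _ _ hy hz
      have : ((1 : E) ⊗ₜ[F] algebraMap L K (y * z)) =
          ((1 : E) ⊗ₜ[F] algebraMap L K y) * ((1 : E) ⊗ₜ[F] algebraMap L K z) := by
        rw [Algebra.TensorProduct.tmul_mul_tmul, map_mul, one_mul]
      rw [this, mul_assoc, hz, mul_smul_comm, hy, map_mul, smul_smul, mul_comm (iota z)]

end Act

section Root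

variable {E V : Type*} [Field E] [CharZero E] [CommRing V] [Algebra E V]

/-- idempotents attached to a root of unity `u ^ n = e`, `e u = u`. -/
theorem root_idem {n : ℕ} (hn : 0 < n) {ζ : E} (hζ : IsPrimitiveRoot ζ n) {e u : V}
    (he : e * e = e) (heu : e * u = u) (hu : u ^ n = e) (T : Subring V)
    (hT : ∀ j : ℕ, ∀ v ∈ T, ((ζ ^ j)⁻¹ : E) • v ∈ T) (hTn : ∀ v ∈ T, ((n : E)⁻¹) • v ∈ T)
    (heT : e ∈ T) (huT : u ∈ T) :
    ∃ z : Fin n → V, (∀ j, z j ∈ T) ∧ (∀ j, z j * z j = z j) ∧ (∀ j, e * z j = z j) ∧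
      (∑ j, z j = e) ∧ ∀ j, u * z j = ζ ^ (j : ℕ) • z j := by
  classical
  have hζ0 : ζ ≠ 0 := hζ.ne_zero (by omega)
  have hn0 : (n : E) ≠ 0 := by exact_mod_cast hn.ne'
  set w : ℕ → V := fun j => ((ζ ^ j)⁻¹ : E) • u with hw
  have hwe : ∀ j, e * w j = w j := fun j => by rw [hw]; simp only [mul_smul_comm, heu]
  have hwn : ∀ j, w j ^ n = e := by
    intro j
    rw [hw]
    simp only [smul_pow, hu, inv_pow]
    rw [← pow_mul, mul_comm j n, pow_mul, hζ.pow_eq_one, one_pow, inv_one, one_smul]
  set S : ℕ → V := fun j => ∑ i ∈ Finset.range n, w j ^ i * e with hS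
  have hwS : ∀ j, w j * S j = S j := by
    intro j
    obtain ⟨m, rfl⟩ : ∃ m, n = m + 1 := ⟨n - 1, by omega⟩
    simp only [hS]
    rw [Finset.mul_sum]
    conv_rhs => rw [Finset.sum_range_succ']
    rw [Finset.sum_range_succ]
    have h1 : w j * (w j ^ m * e) = w j ^ 0 * e := by
      rw [← mul_assoc, ← pow_succ', hwn, he, pow_zero, one_mul]
    rw [h1]
    congr 1
    exact Finset.sum_congr rfl fun i _ => by ring
  have hwiS : ∀ j i, w j ^ i * S j = S j := by
    intro j i
    induction i with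
    | zero => rw [pow_zero, one_mul]
    | succ i ih => rw [pow_succ', mul_assoc, ih, hwS]
  have heS : ∀ j, e * S j = S j := by
    intro j
    simp only [hS]
    rw [Finset.mul_sum]
    exact Finset.sum_congr rfl fun i _ => by linear_combination (w j ^ i) * he
  have hSS : ∀ j, S j * S j = (n : E) • S j := by
    intro j
    have : S j * S j = ∑ i ∈ Finset.range n, (w j ^ i * (e * S j)) := by
      conv_lhs => enter [1]; rw [hS]
      rw [Finset.sum_mul]
      exact Finset.sum_congr rfl fun i _ => by ring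
    rw [this]
    simp only [heS, hwiS, Finset.sum_const, Finset.card_range]
    rw [Nat.cast_smul_eq_nsmul]
  refine ⟨fun j => ((n : E)⁻¹) • S j, fun j => ?_, fun j => ?_, fun j => ?_, ?_, fun j => ?_⟩
  · refine hTn _ (sum_mem fun i _ => mul_mem (pow_mem (hT j _ huT) _) heT)
  · rw [smul_mul_smul_comm, hSS, smul_smul]
    congr 1
    field_simp
  · rw [mul_smul_comm, heS]
  · rw [← Finset.smul_sum]
    have h1 : ∑ j : Fin n, S j = (n : E) • e := by
      have h2 : ∀ j, S j = ∑ i ∈ Finset.range n, ((ζ ^ i)⁻¹ ^ j : E) • (u ^ i * e) := by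
        intro j
        simp only [hS, hw]
        refine Finset.sum_congr rfl fun i _ => ?_
        rw [smul_pow, smul_mul_assoc]
        congr 1
        rw [inv_pow, inv_pow, ← pow_mul, ← pow_mul, mul_comm]
      simp only [h2]
      rw [Fin.sum_univ_eq_sum_range (fun j => ∑ i ∈ Finset.range n, ((ζ ^ i)⁻¹ ^ j : E) • (u ^ i * e)) n,
        Finset.sum_comm]
      simp only [← Finset.sum_smul]
      rw [Finset.sum_eq_single 0]
      · simp
      · intro i hi hi0
        rw [Finset.mem_range] at hi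
        have h3 : (∑ j ∈ Finset.range n, ((ζ ^ i)⁻¹ ^ j : E)) = 0 := by
          have h4 : ((ζ ^ i)⁻¹ : E) ≠ 1 := by
            rw [Ne, inv_eq_one]
            exact hζ.pow_ne_one_of_pos_of_lt hi0 hi
          have h5 := mul_geom_sum ((ζ ^ i)⁻¹ : E) n
          have h6 : ((ζ ^ i)⁻¹ : E) ^ n = 1 := by
            rw [inv_pow, ← pow_mul, mul_comm, pow_mul, hζ.pow_eq_one, one_pow, inv_one]
          rw [h6, sub_self] at h5
          exact (mul_eq_zero.1 h5).resolve_left (sub_ne_zero.2 h4)
        rw [h3, zero_smul]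
      · intro h; exact absurd (Finset.mem_range.2 hn) h
    rw [h1, smul_smul, inv_mul_cancel₀ hn0, one_smul]
  · rw [mul_smul_comm, smul_comm]
    congr 1
    have h1 := hwS j
    simp only [hw] at h1
    rw [smul_mul_assoc] at h1
    conv_rhs => rw [← h1]
    rw [smul_smul, mul_inv_cancel₀ (pow_ne_zero _ hζ0), one_smul]

end Root

end Crest.Agent.R013.NB_92
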