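import Crest.Agent.R013.NB1_102

/-!
# Row 13, C-NB, part 2: values of idempotents at norms, local constancy
-/

set_option autoImplicit false

noncomputable section

namespace Crest.Agent.R013.NB_102

open Module Filter Topology
open Crest.Agent.R013.Gl946 Crest.Agent.R013.A2a_275
open scoped NNReal

variable {E V U ι : Type*} [NormedField E] [CommRing V] [Algebra E V] [Field U] [Fintype ι]
variable {X : Dat E V U ι}

/-- `w` is bounded by the norm of `E` on `S0`. -/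
def BdV (Q : Reg X.F0) (w : Valuation U ℝ≥0) : Prop :=
  ∀ s ∈ Q.S0, ∀ u : U, X.j u = algebraMap E V s → (w u : ℝ) ≤ ‖s‖

theorem BdV.bd {Q : Reg X.F0} {w : Valuation U ℝ≥0} (h : BdV Q w) : Bd Q (toCpl w) :=
  fun s hs u hu => by rw [norm_toCpl]; exact h s hs u hu

/-- `ε` has value `0` at `w`. -/
def Val0 (Q : Reg X.F0) (w : Valuation U ℝ≥0) (ε : V) : Prop :=
  ∃ (hε : ε ∈ X.VR Q.R Q.F0_le) (Φ : X.VR Q.R Q.F0_le →+* Cpl w),
    IsEv Q (toCpl w) Φ ∧ Φ ⟨ε, hε⟩ = 0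

theorem idem_zero_or_one {A Ω : Type*} [CommRing A] [Field Ω] (Φ : A →+* Ω) {ε : A}
    (h : ε * ε = ε) : Φ ε = 0 ∨ Φ ε = 1 := by
  have h1 : Φ ε * Φ ε = Φ ε := by rw [← map_mul, h]
  rcases eq_or_ne (Φ ε) 0 with h0 | h0
  · exact Or.inl h0
  · right
    exact mul_left_cancel₀ h0 (by rw [h1, mul_one])

/-- The value of an idempotent is detected by an approximation. -/
theorem test (Q : Reg X.F0) {ε : V} (hε : ε ∈ X.VR Q.R Q.F0_le) (hεε : ε * ε = ε) {η : ℝ}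
    {d u : U} (h : Apx Q ε η d u) (hη : 0 ≤ η)
    {Ω : Type*} [NormedField Ω] [IsUltrametricDist Ω] (κ : U →+* Ω)
    (Φ : X.VR Q.R Q.F0_le →+* Ω) (hΦ : IsEv Q κ Φ) (B : ℝ) (hB0 : 0 ≤ B)
    (hB : ∀ i, ∀ x : U, X.j x = X.b i → ‖κ x‖ ≤ B) (hlt : η * B < ‖κ d‖) :
    (Φ ⟨ε, hε⟩ = 0 ↔ ‖κ u‖ < ‖κ d‖) ∧ (Φ ⟨ε, hε⟩ ≠ 0 ↔ ‖κ (u - d)‖ < ‖κ d‖) := by
  have hb := h.bound Q hη hε κ Φ hΦ B hB0 hB
  have h0 : Φ ⟨ε, hε⟩ = 0 → ‖κ u‖ < ‖κ d‖ := by
    intro h0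
    rw [h0, mul_zero, sub_zero] at hb
    exact hb.trans_lt hlt
  have h1 : Φ ⟨ε, hε⟩ ≠ 0 → ‖κ (u - d)‖ < ‖κ d‖ := by
    intro h1
    have h2 : Φ ⟨ε, hε⟩ = 1 := by
      rcases idem_zero_or_one Φ (ε := (⟨ε, hε⟩ : X.VR Q.R Q.F0_le)) (Subtype.ext hεε) with h | h
      · exact absurd h h1
      · exact h
    rw [h2, mul_one] at hb
    rw [map_sub]
    exact hb.trans_lt hlt
  have hex : ‖κ u‖ < ‖κ d‖ → ‖κ (u - d)‖ < ‖κ d‖ → False := by
    intro a b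
    have : κ d = κ u - κ (u - d) := by rw [map_sub]; ring
    have h3 : ‖κ d‖ ≤ max ‖κ u‖ ‖κ (u - d)‖ := by
      conv_lhs => rw [this]
      exact nsub _ _
    exact absurd h3 (not_le.2 (max_lt a b))
  refine ⟨⟨h0, fun h => ?_⟩, ⟨h1, fun h hc => hex (h0 hc) h⟩⟩
  by_contra hne
  exact hex h (h1 hne)

theorem exists_B (X : Dat E V U ι) [Nontrivial V] (w : Valuation U ℝ≥0) :
    ∃ B : ℝ, 0 < B ∧ ∀ i, ∀ x : U, X.j x = X.b i → (w x : ℝ) < B := by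
  classical
  choose β hβ using X.exists_b
  refine ⟨1 + ∑ i, (w (β i) : ℝ), ?_, ?_⟩
  · have : 0 ≤ ∑ i, (w (β i) : ℝ) := Finset.sum_nonneg fun i _ => (w (β i)).coe_nonneg
    linarith
  · intro i x hx
    have : x = β i := X.j.injective (hx.trans (hβ i).symm)
    rw [this]
    have h1 : (w (β i) : ℝ) ≤ ∑ i, (w (β i) : ℝ) :=
      Finset.single_le_sum (f := fun i => (w (β i) : ℝ)) (fun i _ => (w (β i)).coe_nonneg)
        (Finset.mem_univ i)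
    linarith

/-- The value of an idempotent does not depend on the choices. -/
theorem val0_iff [Nontrivial V] (Q : Reg X.F0) (w : Valuation U ℝ≥0) {ε : V}
    (hε : ε ∈ X.VR Q.R Q.F0_le) (hεε : ε * ε = ε)
    {Ω : Type*} [NormedField Ω] [IsUltrametricDist Ω] (κ : U →+* Ω) (hκ : ∀ u, ‖κ u‖ = w u)
    (Φ : X.VR Q.R Q.F0_le →+* Ω) (hΦ : IsEv Q κ Φ) (hw : BdV Q w) :
    Val0 Q w ε ↔ Φ ⟨ε, hε⟩ = 0 := by
  obtain ⟨B, hB0, hB⟩ := exists_B X w
  obtain ⟨d, hd0, hd⟩ := exists_apx Q ε hε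
  have hwd : (0 : ℝ) < w d := by
    have := (Valuation.ne_zero_iff w).2 hd0
    exact_mod_cast pos_iff_ne_zero.2 this
  obtain ⟨u, hu⟩ := hd (w d / (2 * B)) (by positivity)
  have hlt : (w d / (2 * B) : ℝ) * B < w d := by
    have : (w d / (2 * B) : ℝ) * B = w d / 2 := by field_simp
    rw [this]; linarith
  have hη : (0 : ℝ) ≤ w d / (2 * B) := by positivity
  have t1 := test Q hε hεε hu hη κ Φ hΦ B hB0.le (fun i x hx => by rw [hκ]; exact (hB i x hx).le)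
    (by rw [hκ]; exact hlt)
  rw [hκ, hκ] at t1
  have hgen : ∀ Ψ : X.VR Q.R Q.F0_le →+* Cpl w, IsEv Q (toCpl w) Ψ →
      (Ψ ⟨ε, hε⟩ = 0 ↔ Φ ⟨ε, hε⟩ = 0) := by
    intro Ψ hΨ
    have t2 := test Q hε hεε hu hη (toCpl w) Ψ hΨ B hB0.le
      (fun i x hx => by rw [norm_toCpl]; exact (hB i x hx).le) (by rw [norm_toCpl]; exact hlt)
    rw [norm_toCpl, norm_toCpl] at t2
    rw [t2.1, t1.1]
  constructor
  · rintro ⟨_, Ψ, hΨ, h0⟩
    exact (hgen Ψ hΨ).1 h0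
  · intro h0
    obtain ⟨Ψ, hΨ⟩ := exists_ev Q (toCpl w) hw.bd
    exact ⟨hε, Ψ, hΨ, (hgen Ψ hΨ).2 h0⟩

/-- **Local constancy of the value of an idempotent.** -/
theorem eventually_val0 [Nontrivial V] (Q : Reg X.F0) {ε : V} (hε : ε ∈ X.VR Q.R Q.F0_le)
    (hεε : ε * ε = ε) {T : Type*} [TopologicalSpace T] (w : T → Valuation U ℝ≥0) (t0 : T)
    (hc : ∀ u, ContinuousAt (fun t => w t u) t0) (hw : BdV Q (w t0)) :
    ∀ᶠ t in 𝓝 t0, BdV Q (w t) → (Val0 Q (w t) ε ↔ Val0 Q (w t0) ε) := by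
  classical
  have hc' : ∀ u, ContinuousAt (fun t => (w t u : ℝ)) t0 := fun u =>
    NNReal.continuous_coe.continuousAt.comp (hc u)
  choose β hβ using X.exists_b
  obtain ⟨B, hB0, hB⟩ := exists_B X (w t0)
  obtain ⟨d, hd0, hd⟩ := exists_apx Q ε hε
  have hwd : (0 : ℝ) < w t0 d := by
    have := (Valuation.ne_zero_iff (w t0)).2 hd0
    exact_mod_cast pos_iff_ne_zero.2 this
  set η : ℝ := w t0 d / (4 * B) with hη
  have hη0 : 0 < η := by positivity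
  obtain ⟨u, hu⟩ := hd η hη0
  have hηB : η * B = w t0 d / 4 := by rw [hη]; field_simp
  -- the neighbourhood
  have e1 : ∀ᶠ t in 𝓝 t0, (w t0 d : ℝ) / 2 < w t d :=
    (hc' d).eventually (lt_mem_nhds (by linarith))
  have e2 : ∀ᶠ t in 𝓝 t0, ∀ i, (w t (β i) : ℝ) < B := by
    rw [eventually_all]
    intro i
    exact (hc' (β i)).eventually (gt_mem_nhds (hB i (β i) (hβ i)))
  -- the test at `t`
  have key : ∀ t, (w t0 d : ℝ) / 2 < w t d → (∀ i, (w t (β i) : ℝ) < B) → BdV Q (w t) →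
      (Val0 Q (w t) ε ↔ (w t u : ℝ) < w t d) ∧ (¬ Val0 Q (w t) ε ↔ (w t (u - d) : ℝ) < w t d) := by
    intro t h1 h2 h3
    obtain ⟨Ψ, hΨ⟩ := exists_ev Q (toCpl (w t)) h3.bd
    have t2 := test Q hε hεε hu hη0.le (toCpl (w t)) Ψ hΨ B hB0.le
      (fun i x hx => by
        rw [norm_toCpl]
        have : x = β i := X.j.injective (hx.trans (hβ i).symm)
        rw [this]; exact (h2 i).le)
      (by rw [norm_toCpl, hηB]; linarith)
    rw [norm_toCpl, norm_toCpl, norm_toCpl] at t2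
    have t3 := val0_iff Q (w t) hε hεε (toCpl (w t)) (norm_toCpl (w t)) Ψ hΨ h3
    rw [t3]
    exact t2
  have k0 := key t0 (by linarith) (fun i => hB i (β i) (hβ i)) hw
  by_cases hv : Val0 Q (w t0) ε
  · have h5 : ∀ᶠ t in 𝓝 t0, (w t u : ℝ) < w t d := by
      have := k0.1.1 hv
      exact (hc' u).eventually_lt (hc' d) this
    filter_upwards [e1, e2, h5] with t h1 h2 h6 h3
    exact ⟨fun _ => hv, fun _ => (key t h1 h2 h3).1.2 h6⟩
  · have h5 : ∀ᶠ t in 𝓝 t0, (w t (u - d) : ℝ) < w t d := by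
      have := k0.2.1 hv
      exact (hc' (u - d)).eventually_lt (hc' d) this
    filter_upwards [e1, e2, h5] with t h1 h2 h6 h3
    exact ⟨fun h => absurd h ((key t h1 h2 h3).2.2 h6), fun h => absurd h hv⟩

end Crest.Agent.R013.NB_102
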