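import Crest.Agent.R013.NB1_92

/-!
# The non-bridge data from the two classes (row 13, part B, leaf B-NB), pure algebra, part 2
-/

set_option autoImplicit false
set_option linter.unusedSectionVars false

namespace Crest.Agent.R013.NB_92

open Module TensorProduct Crest.Agent.R013.Gl946 Crest.Agent.R013.CutCov_92

section Fix

variable {E : Type*} [Field E] {F : Subfield E} {L K : Type*} [Field L] [Field K] [Algebra F L]
  [Algebra F K] [Algebra L K] [IsScalarTower F L K]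

/-- the elements whose `eP`-part lies in `S ⊗ K`. -/
def ext (eP : E ⊗[F] K) (S : Subring E) : Subring (E ⊗[F] K) where
  carrier := {v | ∃ v' ∈ BS (F := F) (K := K) S, eP * v = eP * v'}
  zero_mem' := ⟨0, zero_mem _, rfl⟩
  one_mem' := ⟨1, one_mem _, rfl⟩
  add_mem' := by
    rintro x y ⟨x', hx, h⟩ ⟨y', hy, h'⟩
    exact ⟨x' + y', add_mem hx hy, by rw [mul_add, mul_add, h, h']⟩
  neg_mem' := by
    rintro x ⟨x', hx, h⟩
    exact ⟨-x', neg_mem hx, by linear_combination -h⟩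
  mul_mem' := by
    rintro x y ⟨x', hx, h⟩ ⟨y', hy, h'⟩
    exact ⟨x' * y', mul_mem hx hy, by linear_combination y * h + x' * h'⟩

theorem BS_le_ext (eP : E ⊗[F] K) (S : Subring E) : BS (F := F) (K := K) S ≤ ext eP S :=
  fun v hv => ⟨v, hv, rfl⟩

theorem rho_ext {eP : E ⊗[F] K} {S : Subring E} (g : K ≃ₐ[L] K) (hg : rho E F L K g eP = eP)
    {v : E ⊗[F] K} (hv : v ∈ ext eP S) : rho E F L K g v ∈ ext eP S := by
  obtain ⟨v', hv', h⟩ := hv
  refine ⟨rho E F L K g v', rho_mem_BS g hv', ?_⟩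
  have := congrArg (rho E F L K g) h
  rwa [map_mul, map_mul, hg] at this

variable [FiniteDimensional L K] [IsGalois L K]

/-- averages over `Gal(K/L)`. -/
theorem sum_rho {eP : E ⊗[F] K} {iota : L →ₐ[F] E}
    (h1 : ∀ x : L, ((1 : E) ⊗ₜ[F] algebraMap L K x) * eP = iota x • eP)
    {S : Subring E} (hS : ∀ l, iota l ∈ S) {v : E ⊗[F] K} (hv : v ∈ BS (F := F) (K := K) S) :
    ∃ c ∈ S, (∑ g : K ≃ₐ[L] K, rho E F L K g v) * eP = c • eP := by
  refine BS_induction (p := fun v => ∃ c ∈ S, (∑ g : K ≃ₐ[L] K, rho E F L K g v) * eP = c • eP)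
    ?_ ?_ ?_ hv
  · intro s hs k
    refine ⟨s * iota (Algebra.trace L K k), mul_mem hs (hS _), ?_⟩
    simp only [rho_tmul]
    rw [← tmul_sum, ← trace_eq_sum_automorphisms, mul_smul, ← h1, smul_eq_tmul s, ← mul_assoc,
      Algebra.TensorProduct.tmul_mul_tmul, mul_one, one_mul]
  · exact ⟨0, zero_mem _, by simp⟩
  · rintro x y ⟨c, hc, h⟩ ⟨c', hc', h'⟩
    refine ⟨c + c', add_mem hc hc', ?_⟩
    simp only [map_add]
    rw [Finset.sum_add_distrib, add_mul, h, h', add_smul]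

theorem sum_rho_ext {eP : E ⊗[F] K} {iota : L →ₐ[F] E}
    (h1 : ∀ x : L, ((1 : E) ⊗ₜ[F] algebraMap L K x) * eP = iota x • eP)
    (hg : ∀ g : K ≃ₐ[L] K, rho E F L K g eP = eP)
    {S : Subring E} (hS : ∀ l, iota l ∈ S) {v : E ⊗[F] K} (hv : v ∈ ext eP S) (hev : eP * v = v) :
    ∃ c ∈ S, ∑ g : K ≃ₐ[L] K, rho E F L K g v = c • eP := by
  obtain ⟨v', hv', h⟩ := hv
  obtain ⟨c, hc, h2⟩ := sum_rho h1 hS hv'
  refine ⟨c, hc, ?_⟩
  rw [← h2, Finset.sum_mul]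
  refine Finset.sum_congr rfl fun g _ => ?_
  have h3 : v = eP * v' := by rw [← h, hev]
  rw [h3, map_mul, hg, mul_comm]

theorem fixed_eq [CharZero E] {eP : E ⊗[F] K} {iota : L →ₐ[F] E}
    (h1 : ∀ x : L, ((1 : E) ⊗ₜ[F] algebraMap L K x) * eP = iota x • eP)
    (hg : ∀ g : K ≃ₐ[L] K, rho E F L K g eP = eP) {v : E ⊗[F] K} (hev : eP * v = v)
    (hfix : ∀ g : K ≃ₐ[L] K, rho E F L K g v = v) : ∃ c : E, v = c • eP := by
  obtain ⟨c, -, h⟩ := sum_rho_ext h1 hg (S := ⊤) (fun l => Subring.mem_top _)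
    (BS_le_ext eP ⊤ (mem_BS_top v)) hev
  simp only [hfix, Finset.sum_const, Finset.card_univ] at h
  have hn : ((Fintype.card (K ≃ₐ[L] K) : ℕ) : E) ≠ 0 := by exact_mod_cast Fintype.card_ne_zero
  refine ⟨((Fintype.card (K ≃ₐ[L] K) : ℕ) : E)⁻¹ * c, ?_⟩
  rw [mul_smul, ← h, ← Nat.cast_smul_eq_nsmul E, smul_smul, inv_mul_cancel₀ hn, one_smul]

end Fix

section Atom

open Crest.Agent.R013.NonCut_92

variable {E B : Type*} [Field E] [CharZero E] [CommRing B] [Algebra E B] [FiniteDimensional E B]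

/-- Existence of an atom. -/
theorem exists_atom (E : Type*) [Field E] [CharZero E] [Algebra E B] [FiniteDimensional E B]
    (T : Subring B) {eP : B} (heP : eP * eP = eP) (hT : eP ∈ T) (h0 : eP ≠ 0) :
    ∃ e0 ∈ T, e0 * e0 = e0 ∧ eP * e0 = e0 ∧ e0 ≠ 0 ∧
      ∀ x ∈ T, x * x = x → x * e0 = 0 ∨ x * e0 = e0 := by
  classical
  have hex : ∃ n, ∃ x : B, x ∈ T ∧ x * x = x ∧ eP * x = x ∧ x ≠ 0 ∧ rk E x = n :=
    ⟨_, eP, hT, heP, heP, h0, rfl⟩
  obtain ⟨x, h1, h2, h3, h4, h5⟩ := Nat.find_spec hex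
  refine ⟨x, h1, h2, h3, h4, fun y hy hyy => ?_⟩
  by_cases hz : y * x = 0
  · exact Or.inl hz
  right
  have e1 : (y * x) * (y * x) = y * x := by linear_combination (x * x) * hyy + y * h2
  have h6 : Nat.find hex ≤ rk E (y * x) :=
    Nat.find_le ⟨y * x, mul_mem hy h1, e1, by linear_combination y * h3, hz, rfl⟩
  have e2 : ((1 - y) * x) * ((1 - y) * x) = (1 - y) * x := by
    linear_combination (1 - y) ^ 2 * h2 + x * hyy
  have h7 : rk E (y * x + (1 - y) * x) = rk E (y * x) + rk E ((1 - y) * x) :=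
    rk_add e1 e2 (by linear_combination (-x * x) * hyy)
  have e3 : y * x + (1 - y) * x = x := by ring
  rw [e3, h5] at h7
  have h8 : (1 - y) * x = 0 := rk_eq_zero (E := E) (by omega)
  linear_combination -h8

end Atom

section Main

variable {E : Type*} [Field E] [CharZero E] {D : PatchDatum E} {L K : Type*} [Field L] [Field K]
  [Algebra D.F0 L] [Algebra D.F0 K] [Algebra L K] [IsScalarTower D.F0 L K]
  [FiniteDimensional D.F0 L] [FiniteDimensional L K] [IsGalois L K]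

/-- An idempotent of the embedding `iota`. -/
structure IsEP (iota : L →ₐ[D.F0] E) (eP : E ⊗[D.F0] K) : Prop where
  rep : ∃ (n : ℕ) (f : Fin n → E) (l : Fin n → L), (∀ i, f i ∈ D.FP) ∧ (∑ i, f i * iota (l i) = 1) ∧
    eP = ∑ i, f i ⊗ₜ[D.F0] algebraMap L K (l i)
  smul : ∀ x : L, ((1 : E) ⊗ₜ[D.F0] algebraMap L K x) * eP = iota x • eP

omit [FiniteDimensional L K] [IsGalois L K] in
theorem exists_isEP (iota : L →ₐ[D.F0] E) (hι : ∀ l, iota l ∈ D.FP) :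
    ∃ eP : E ⊗[D.F0] K, IsEP iota eP := by
  obtain ⟨n, f, l, h1, h2, h3⟩ := exists_eP (K := K) iota D.FP D.F0_le_FP hι
  exact ⟨_, ⟨n, f, l, h1, h2, rfl⟩, h3⟩

namespace IsEP

variable {iota : L →ₐ[D.F0] E} {eP : E ⊗[D.F0] K} (h : IsEP iota eP)

include h

theorem fixed (g : K ≃ₐ[L] K) : rho E D.F0 L K g eP = eP := by
  obtain ⟨n, f, l, -, -, rfl⟩ := h.rep
  rw [map_sum]
  refine Finset.sum_congr rfl fun i _ => ?_
  rw [rho_tmul, AlgEquiv.commutes]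

theorem mem_BS : eP ∈ BS (F := D.F0) (K := K) D.FP.toSubring := by
  obtain ⟨n, f, l, h1, -, rfl⟩ := h.rep
  exact sum_mem fun i _ => tmul_mem_BS (h1 i) _

theorem idem : eP * eP = eP := by
  obtain ⟨n, f, l, -, h2, h3⟩ := h.rep
  have h4 : ∀ i, (f i ⊗ₜ[D.F0] algebraMap L K (l i)) * eP = (f i * iota (l i)) • eP := by
    intro i
    rw [mul_smul, ← h.smul, smul_eq_tmul (f i), ← mul_assoc, Algebra.TensorProduct.tmul_mul_tmul,
      mul_one, one_mul]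
  conv_lhs => enter [1]; rw [h3]
  rw [Finset.sum_mul]
  simp only [h4]
  rw [← Finset.sum_smul, h2, one_smul]

/-- the value of a homomorphism at `eP`. -/
theorem map_eq_one {Ω : Type*} [CommRing Ω] (Ψ : BS (F := D.F0) (K := K) D.FP.toSubring →+* Ω)
    (φ : D.FP →+* Ω) (hι : ∀ l, iota l ∈ D.FP)
    (hΨ : ∀ (f : E) (hf : f ∈ D.FP) (l : L), Ψ ⟨f ⊗ₜ[D.F0] algebraMap L K l, tmul_mem_BS hf _⟩ =
      φ ⟨f, hf⟩ * φ ⟨iota l, hι l⟩) : Ψ ⟨eP, h.mem_BS⟩ = 1 := by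
  obtain ⟨n, f, l, h1, h2, h3⟩ := h.rep
  have e1 : (⟨eP, h.mem_BS⟩ : BS (F := D.F0) (K := K) D.FP.toSubring) =
      ∑ i, ⟨f i ⊗ₜ[D.F0] algebraMap L K (l i), tmul_mem_BS (h1 i) _⟩ := by
    apply Subtype.ext
    rw [AddSubmonoidClass.coe_finsetSum]
    exact h3
  rw [e1, map_sum]
  simp only [fun i => hΨ (f i) (h1 i) (l i)]
  rw [← map_one φ]
  simp only [← map_mul]
  rw [← map_sum]
  congr 1
  apply Subtype.ext
  rw [AddSubmonoidClass.coe_finsetSum]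
  exact h2

theorem ne_zero : eP ≠ 0 := by
  intro h0
  -- a hom to the algebraic closure of `E`
  let : Algebra L (AlgebraicClosure E) := ((algebraMap E (AlgebraicClosure E)).comp iota.toRingHom).toAlgebra
  have : Algebra.IsAlgebraic L K := Algebra.IsAlgebraic.of_finite L K
  let j : K →ₐ[L] AlgebraicClosure E := IsAlgClosed.lift
  have hj : ∀ l, j (algebraMap L K l) = algebraMap E (AlgebraicClosure E) (iota l) := fun l =>
    j.commutes l
  let jF : K →ₐ[D.F0] AlgebraicClosure E :=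
    { j.toRingHom with
      commutes' := fun z => by
        change j (algebraMap D.F0 K z) = _
        rw [IsScalarTower.algebraMap_apply D.F0 L K, hj, AlgHom.commutes]
        rfl }
  let Φ : E ⊗[D.F0] K →ₐ[E] AlgebraicClosure E :=
    Algebra.TensorProduct.lift (Algebra.ofId E _) jF (fun _ _ => Commute.all _ _)
  have hΦ : ∀ (s : E) (k : K), Φ (s ⊗ₜ[D.F0] k) = algebraMap E _ s * j k := fun s k =>
    Algebra.TensorProduct.lift_tmul _ _ _ _ _
  obtain ⟨n, f, l, h1, h2, h3⟩ := h.rep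
  have e1 : Φ eP = 1 := by
    rw [h3, map_sum]
    simp only [hΦ, hj, ← map_mul]
    rw [← map_sum, h2, map_one]
  rw [h0, map_zero] at e1
  exact zero_ne_one e1

end IsEP

/-- The rings of functions extending to the inner and outer half annulus. -/
structure Half (iota : L →ₐ[D.F0] E) (Am Ap : Subring E) : Prop where
  FP_le : D.FP.toSubring ≤ Am
  RU_le : D.RU ≤ Ap
  iota_FP : ∀ l, iota l ∈ D.FP
  iota_Ap : ∀ l, iota l ∈ Ap

variable {iota : L →ₐ[D.F0] E} {Am Ap : Subring E} (H : Half iota Am Ap)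

include H

omit [FiniteDimensional D.F0 L] in
theorem Half.F_le_Am : D.F0.toSubring ≤ Am := fun z hz => H.FP_le (D.F0_le_FP hz)

omit [FiniteDimensional D.F0 L] in
theorem Half.F_le_Ap : D.F0.toSubring ≤ Ap := fun z hz => H.RU_le (D.F0_le_RU z hz)

omit [FiniteDimensional D.F0 L] in
theorem Half.iota_Am (l : L) : iota l ∈ Am := H.FP_le (H.iota_FP l)

/-- The data of NonCut. -/
theorem Half.data [FiniteDimensional D.F0 K] {eP : E ⊗[D.F0] K} (hP : IsEP iota eP) {e0 : E ⊗[D.F0] K}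
    (h1 : e0 ∈ ext eP Am) (h2 : e0 ∈ ext eP Ap) (h3 : e0 * e0 = e0) (h4 : eP * e0 = e0)
    (h5 : e0 ≠ 0)
    (h6 : ∀ x ∈ ext eP Am, x ∈ ext eP Ap → x * x = x → x * e0 = 0 ∨ x * e0 = e0) :
    NonCut_92.Data (rho E D.F0 L K) (BS (F := D.F0) (K := K) D.RU)
      (BS (F := D.F0) (K := K) D.FP.toSubring) (ext eP Am) (ext eP Ap) eP e0 where
  inter := by
    intro x hx1 hx2 hxx
    obtain ⟨k, rfl⟩ := inter_BS D rfl x hx1 hx2
    have : Nontrivial (E ⊗[D.F0] K) := ⟨⟨e0, 0, h5⟩⟩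
    have h : k * k = k :=
      (Algebra.TensorProduct.includeRight : K →ₐ[D.F0] E ⊗[D.F0] K).toRingHom.injective
        (by rw [map_mul]; exact hxx)
    have h' : k * (k - 1) = 0 := by linear_combination h
    rcases mul_eq_zero.1 h' with h0 | h0
    · left; rw [h0, tmul_zero]
    · right; rw [sub_eq_zero.1 h0]; rfl
  fixed := by
    intro x hxx hex hfix
    obtain ⟨c, rfl⟩ := fixed_eq hP.smul hP.fixed hex hfix
    rcases eq_or_ne c 0 with h0 | h0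
    · left; rw [h0, zero_smul]
    · right
      have e1 : (c • eP) * (c • eP) = (c * c) • eP := by rw [smul_mul_smul_comm, hP.idem]
      rw [e1] at hxx
      have e2 := congrArg (fun v => c⁻¹ • v) hxx
      simp only [smul_smul] at e2
      rwa [inv_mul_cancel₀ h0, one_smul, ← mul_assoc, inv_mul_cancel₀ h0, one_mul] at e2
  g1 := fun g x hx => rho_mem_BS g hx
  g2 := fun g x hx => rho_mem_BS g hx
  gm := fun g x hx => rho_ext g (hP.fixed g) hx
  gp := fun g x hx => rho_ext g (hP.fixed g) hx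
  geP := hP.fixed
  B1p := (BS_mono H.RU_le).trans (BS_le_ext _ _)
  B2m := (BS_mono H.FP_le).trans (BS_le_ext _ _)
  eP_idem := hP.idem
  eP2 := hP.mem_BS
  ePp := ⟨1, one_mem _, by rw [hP.idem, mul_one]⟩
  e0_idem := h3
  e0P := h4
  e0m := h1
  e0p := h2
  e0_ne := h5
  atom := h6

omit H in
omit [CharZero E] [FiniteDimensional D.F0 L] [FiniteDimensional L K] [IsGalois L K]
  [IsScalarTower D.F0 L K] [Algebra D.F0 L] [Algebra L K] [Field L] in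
theorem smul_mem_ext {eP : E ⊗[D.F0] K} {S : Subring E} {s : E} (hs : s ∈ S) {v : E ⊗[D.F0] K}
    (hv : v ∈ ext eP S) : s • v ∈ ext eP S := by
  obtain ⟨v', hv', h⟩ := hv
  exact ⟨s • v', smul_mem_BS hs hv', by rw [mul_smul_comm, mul_smul_comm, h]⟩

omit H in
omit [CharZero E] [FiniteDimensional D.F0 L] [FiniteDimensional L K] [IsGalois L K]
  [IsScalarTower D.F0 L K] [Algebra D.F0 L] [Algebra L K] [Field L] in
theorem inj_tmul {e : E ⊗[D.F0] K} (he : e ≠ 0) {k : K} (h : ((1 : E) ⊗ₜ[D.F0] k) * e = 0) : k = 0 := by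
  by_contra hk
  apply he
  have : ((1 : E) ⊗ₜ[D.F0] k⁻¹) * (((1 : E) ⊗ₜ[D.F0] k) * e) = e := by
    rw [← mul_assoc, Algebra.TensorProduct.tmul_mul_tmul, inv_mul_cancel₀ hk, mul_one]
    exact one_mul e
  rw [← this, h, mul_zero]

/-- **(OUT)** a class split over the disc, not over `L`. -/
theorem Half.hout {eP : E ⊗[D.F0] K} (hP : IsEP iota eP) {n : ℕ} (hn : 0 < n) {ζ : E}
    (hζ : IsPrimitiveRoot ζ n) (hζF : ζ ∈ D.F0) (h2 : L) (y2 : K)
    (hy : y2 ^ n = algebraMap L K h2) (hy' : y2 ∉ Set.range (algebraMap L K)) (g2 : E)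
    (hg2P : g2 ∈ D.FP) (hg2A : g2 ∈ Ap) (hg : g2 ^ n = iota h2) :
    ∃ z, z * z = z ∧ z ∈ BS (F := D.F0) (K := K) D.FP.toSubring ∧ z ∈ ext eP Ap ∧ eP * z = z ∧
      z ≠ 0 ∧ z ≠ eP := by
  classical
  have hne : ∀ j : ℕ, (ζ ^ j)⁻¹ ∈ D.F0 := fun j => inv_mem (pow_mem hζF j)
  have hnn : (n : E)⁻¹ ∈ D.F0 := inv_mem (natCast_mem _ _)
  have hFP : ∀ z ∈ D.F0, z ∈ D.FP.toSubring := fun z hz => D.F0_le_FP hz
  have h20 : h2 ≠ 0 := by
    rintro rfl
    apply hy'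
    rw [map_zero] at hy
    exact ⟨0, by rw [map_zero, pow_eq_zero_iff hn.ne' |>.1 hy]⟩
  have hi0 : iota h2 ≠ 0 := (map_ne_zero iota).2 h20
  have hg20 : g2 ≠ 0 := by
    rintro rfl; rw [zero_pow hn.ne'] at hg; exact hi0 hg.symm
  have hginv : g2⁻¹ ∈ Ap := by
    have : g2⁻¹ = g2 ^ (n - 1) * iota h2⁻¹ := by
      rw [map_inv₀, ← hg]
      obtain ⟨m, rfl⟩ : ∃ m, n = m + 1 := ⟨n - 1, by omega⟩
      rw [Nat.add_sub_cancel, pow_succ]
      field_simp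
    rw [this]; exact mul_mem (pow_mem hg2A _) (H.iota_Ap _)
  set u : E ⊗[D.F0] K := g2⁻¹ • (((1 : E) ⊗ₜ[D.F0] y2) * eP) with hu
  have heu : eP * u = u := by
    rw [hu, mul_smul_comm]; congr 1
    linear_combination ((1 : E) ⊗ₜ[D.F0] y2) * hP.idem
  have hun : u ^ n = eP := by
    rw [hu, smul_pow, mul_pow, Algebra.TensorProduct.tmul_pow, one_pow, hy]
    have e1 : eP ^ n = eP := by
      obtain ⟨m, rfl⟩ : ∃ m, n = m + 1 := ⟨n - 1, by omega⟩
      clear hg hy hζ hn hnn hginv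
      induction m with
      | zero => rw [zero_add, pow_one]
      | succ m ih => rw [pow_succ, ih, hP.idem]
    rw [e1, hP.smul, smul_smul, inv_pow, hg, inv_mul_cancel₀ hi0, one_smul]
  obtain ⟨z, hz1, hz2, hz3, hz4, hz5⟩ := root_idem hn hζ hP.idem heu hun
    (BS (F := D.F0) (K := K) D.FP.toSubring ⊓ ext eP Ap)
    (fun j v hv => ⟨smul_mem_BS (hFP _ (hne j)) hv.1, smul_mem_ext (H.F_le_Ap (hne j)) hv.2⟩)
    (fun v hv => ⟨smul_mem_BS (hFP _ hnn) hv.1, smul_mem_ext (H.F_le_Ap hnn) hv.2⟩)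
    ⟨hP.mem_BS, ⟨1, one_mem _, by rw [hP.idem, mul_one]⟩⟩
    ⟨smul_mem_BS (D.FP.inv_mem hg2P) (mul_mem (tmul_mem_BS (one_mem _) _) hP.mem_BS),
      smul_mem_ext hginv ⟨(1 : E) ⊗ₜ[D.F0] y2, tmul_mem_BS (one_mem _) _, by
        linear_combination ((1 : E) ⊗ₜ[D.F0] y2) * hP.idem⟩⟩
  by_contra hcon
  push Not at hcon
  have hz0 : ∀ j, z j = 0 ∨ z j = eP := by
    intro j
    by_cases h0 : z j = 0
    · exact Or.inl h0
    · exact Or.inr (hcon (z j) (hz2 j) (hz1 j).1 (hz1 j).2 (hz3 j) h0)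
  obtain ⟨j, hj⟩ : ∃ j, z j = eP := by
    by_contra h0
    push Not at h0
    have h1 : ∀ j, z j = 0 := fun j => (hz0 j).resolve_right (h0 j)
    simp only [h1, Finset.sum_const_zero] at hz4
    exact hP.ne_zero hz4.symm
  have h6 := hz5 j
  rw [hj] at h6
  have h7 : ((1 : E) ⊗ₜ[D.F0] y2) * eP = (g2 * ζ ^ (j : ℕ)) • eP := by
    have : u * eP = u := by rw [mul_comm]; exact heu
    rw [this, hu] at h6
    rw [mul_smul, ← h6, smul_smul, mul_inv_cancel₀ hg20, one_smul]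
  have h8 : ∀ σ : K ≃ₐ[L] K, σ y2 = y2 := by
    intro σ
    have h9 := congrArg (rho E D.F0 L K σ) h7
    rw [map_mul, rho_tmul, map_smul, hP.fixed, ← h7] at h9
    have h10 : ((1 : E) ⊗ₜ[D.F0] (σ y2 - y2)) * eP = 0 := by
      rw [tmul_sub, sub_mul, h9, sub_self]
    exact sub_eq_zero.1 (inj_tmul hP.ne_zero h10)
  exact hy' ((IsGalois.mem_bot_iff_fixed y2).2 h8)

omit H in
omit [CharZero E] [FiniteDimensional D.F0 L] [FiniteDimensional L K] [IsGalois L K] in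
/-- extension of homs to `FP ⊗ K`. -/
theorem exists_Psi [FiniteDimensional D.F0 K] {Ω : Type*} [Field Ω] (φ : D.FP →+* Ω) (κ : K →+* Ω)
    (hι : ∀ l, iota l ∈ D.FP) (hφκ : ∀ l : L, φ ⟨iota l, hι l⟩ = κ (algebraMap L K l)) :
    ∃ Ψ : BS (F := D.F0) (K := K) D.FP.toSubring →+* Ω, ∀ (f : E) (hf : f ∈ D.FP) (k : K),
      Ψ ⟨f ⊗ₜ[D.F0] k, tmul_mem_BS hf k⟩ = φ ⟨f, hf⟩ * κ k := by
  classical
  have hnt : Nontrivial (E ⊗[D.F0] K) := inferInstance
  set inc := (Algebra.TensorProduct.includeRight : K →ₐ[D.F0] E ⊗[D.F0] K).toRingHom with hinc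
  let ev : K ≃+* inc.range := RingEquiv.ofLeftInverse (f := inc)
    (Function.leftInverse_invFun inc.injective)
  have hev : ∀ k, ((ev k : inc.range) : E ⊗[D.F0] K) = (1 : E) ⊗ₜ[D.F0] k := fun w => rfl
  have hA : ∀ v, v ∈ inc.range ↔ v ∈ cs (Algebra.TensorProduct.basis E (finBasis D.F0 K))
      D.F0.toSubring := by
    intro v
    rw [mem_cs_F]
    exact Iff.rfl
  have hFA : ∀ z ∈ D.F0.toSubring, algebraMap E (E ⊗[D.F0] K) z ∈ inc.range := by
    intro z hz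
    refine ⟨algebraMap D.F0 K ⟨z, hz⟩, ?_⟩
    exact (Algebra.TensorProduct.tmul_one_eq_one_tmul (A := E) (B := K) (⟨z, hz⟩ : D.F0)).symm
  obtain ⟨Φ, h1, h2, -⟩ := ext_hom (Algebra.TensorProduct.basis E (finBasis D.F0 K))
    D.F0.toSubring D.FP.toSubring CutData.F0_le_FP' inc.range
    (BS (F := D.F0) (K := K) D.FP.toSubring) hA
    (fun v => mem_BS_iff (finBasis D.F0 K) (S := D.FP.toSubring) D.F0_le_FP v) φ
    (κ.comp (ev.symm : inc.range →+* K)) hFA (by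
      intro z hz
      have e1 : (⟨algebraMap E (E ⊗[D.F0] K) z, hFA z hz⟩ : inc.range) =
          ev (algebraMap D.F0 K ⟨z, hz⟩) := by
        apply Subtype.ext
        rw [hev]
        exact Algebra.TensorProduct.tmul_one_eq_one_tmul (A := E) (B := K) (⟨z, hz⟩ : D.F0)
      rw [e1]
      change κ (ev.symm (ev _)) = _
      rw [RingEquiv.symm_apply_apply, IsScalarTower.algebraMap_apply D.F0 L K, ← hφκ]
      congr 1
      apply Subtype.ext
      exact AlgHom.commutes iota (⟨z, hz⟩ : D.F0))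
  refine ⟨Φ, fun f hf k => ?_⟩
  have hf' : algebraMap E (E ⊗[D.F0] K) f ∈ BS (F := D.F0) (K := K) D.FP.toSubring :=
    tmul_mem_BS hf 1
  have e1 : (⟨f ⊗ₜ[D.F0] k, tmul_mem_BS hf k⟩ : BS (F := D.F0) (K := K) D.FP.toSubring) =
      ⟨algebraMap E (E ⊗[D.F0] K) f, hf'⟩ * ⟨(1 : E) ⊗ₜ[D.F0] k, tmul_mem_BS (one_mem _) k⟩ := by
    apply Subtype.ext
    change f ⊗ₜ[D.F0] k = (f ⊗ₜ[D.F0] (1 : K)) * ((1 : E) ⊗ₜ[D.F0] k)
    rw [Algebra.TensorProduct.tmul_mul_tmul, mul_one, one_mul]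
  rw [e1, map_mul, h2 f hf hf', h1 ((1 : E) ⊗ₜ[D.F0] k) ⟨k, rfl⟩]
  congr 1
  change κ (ev.symm _) = κ k
  congr 1
  rw [RingEquiv.symm_apply_eq]
  rfl

/-- **(IN)** a class split over the annulus, not over the disc. -/
theorem Half.hin [FiniteDimensional D.F0 K] {eP : E ⊗[D.F0] K} (hP : IsEP iota eP) {n : ℕ}
    (hn : 0 < n) {ζ : E} (hζ : IsPrimitiveRoot ζ n) (hζF : ζ ∈ D.F0) (M : IntermediateField L K)
    (y : K) (hyM : y ^ n ∈ M) (b : E ⊗[D.F0] K) (hb : b ^ n = (1 : E) ⊗ₜ[D.F0] (y ^ n))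
    (hbm : b ∈ BS (F := D.F0) (K := K) Am) (hbp : b ∈ BS (F := D.F0) (K := K) Ap)
    (hbM : ∀ σ : K ≃ₐ[L] K, (∀ m ∈ M, σ m = m) → rho E D.F0 L K σ b = b)
    {Ω : Type*} [Field Ω] [CharZero Ω] (φ : D.FP →+* Ω) (κ : M →+* Ω)
    (hφκ : ∀ l : L, φ ⟨iota l, H.iota_FP l⟩ = κ (algebraMap L M l))
    (hno : ∀ w ∈ Subring.closure (Set.range φ ∪ Set.range κ), w ^ n ≠ κ ⟨y ^ n, hyM⟩)
    {e0 : E ⊗[D.F0] K}
    (Dt : NonCut_92.Data (rho E D.F0 L K) (BS (F := D.F0) (K := K) D.RU)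
      (BS (F := D.F0) (K := K) D.FP.toSubring) (ext eP Am) (ext eP Ap) eP e0) :
    e0 ∉ BS (F := D.F0) (K := K) D.FP.toSubring := by
  classical
  intro he0
  have hne : ∀ j : ℕ, (ζ ^ j)⁻¹ ∈ D.F0 := fun j => inv_mem (pow_mem hζF j)
  have hnn : (n : E)⁻¹ ∈ D.F0 := inv_mem (natCast_mem _ _)
  have hy0 : y ≠ 0 := by
    rintro rfl
    refine hno 0 (zero_mem _) ?_
    have : (⟨(0 : K) ^ n, hyM⟩ : M) = 0 := Subtype.ext (zero_pow hn.ne')
    rw [this, map_zero, zero_pow hn.ne']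
  -- `u = b / y` is constant on the atoms
  set u : E ⊗[D.F0] K := ((1 : E) ⊗ₜ[D.F0] y⁻¹) * b with hu
  have hun : u ^ n = 1 := by
    rw [hu, mul_pow, hb, Algebra.TensorProduct.tmul_pow, one_pow,
      Algebra.TensorProduct.tmul_mul_tmul, ← mul_pow, inv_mul_cancel₀ hy0, one_pow, mul_one]
    rfl
  obtain ⟨z, hz1, hz2, -, hz4, hz5⟩ := root_idem hn hζ (e := (1 : E ⊗[D.F0] K)) (one_mul 1)
    (one_mul u) hun (ext eP Am ⊓ ext eP Ap)
    (fun j v hv => ⟨smul_mem_ext (H.F_le_Am (hne j)) hv.1, smul_mem_ext (H.F_le_Ap (hne j)) hv.2⟩)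
    (fun v hv => ⟨smul_mem_ext (H.F_le_Am hnn) hv.1, smul_mem_ext (H.F_le_Ap hnn) hv.2⟩)
    (one_mem _) ⟨mul_mem (BS_le_ext _ _ (tmul_mem_BS (one_mem _) _)) (BS_le_ext _ _ hbm),
      mul_mem (BS_le_ext _ _ (tmul_mem_BS (one_mem _) _)) (BS_le_ext _ _ hbp)⟩
  have key : ∀ g : K ≃ₐ[L] K, ∀ σ : K ≃ₐ[L] K, (∀ m ∈ M, σ m = m) →
      rho E D.F0 L K σ (rho E D.F0 L K g e0) = rho E D.F0 L K g e0 → σ y = y := by
    intro g σ hσM hσ
    set e1 := rho E D.F0 L K g e0 with he1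
    have he1n : e1 ≠ 0 := fun h0 => Dt.e0_ne
      ((map_eq_zero_iff (rho E D.F0 L K g) (rho E D.F0 L K g).injective).1 h0)
    obtain ⟨j, hj⟩ : ∃ j, z j * e1 = e1 := by
      by_contra hcon
      push Not at hcon
      have h1 : ∀ j, z j * e1 = 0 := fun j =>
        (Dt.atom' g (z j) (hz1 j).1 (hz1 j).2 (hz2 j)).resolve_right (hcon j)
      apply he1n
      have h2 : (∑ j, z j) * e1 = 0 := by
        rw [Finset.sum_mul]; exact Finset.sum_eq_zero fun j _ => h1 j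
      rwa [hz4, one_mul] at h2
    have h2 : u * e1 = ζ ^ (j : ℕ) • e1 := by
      have := congrArg (fun v => v * e1) (hz5 j)
      simp only [mul_assoc, smul_mul_assoc, hj] at this
      exact this
    have h3 : b * e1 = ζ ^ (j : ℕ) • (((1 : E) ⊗ₜ[D.F0] y) * e1) := by
      have h4 : ((1 : E) ⊗ₜ[D.F0] y) * (u * e1) = b * e1 := by
        rw [hu, ← mul_assoc, ← mul_assoc, Algebra.TensorProduct.tmul_mul_tmul,
          mul_inv_cancel₀ hy0, mul_one]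
        congr 1
        exact one_mul b
      rw [← h4, h2, mul_smul_comm]
    have h5 := congrArg (rho E D.F0 L K σ) h3
    rw [map_mul, map_smul, map_mul, rho_tmul, hbM σ hσM, hσ, h3] at h5
    have hζj : (ζ ^ (j : ℕ) : E) ≠ 0 := pow_ne_zero _ (hζ.ne_zero hn.ne')
    have h6 : ((1 : E) ⊗ₜ[D.F0] y) * e1 = ((1 : E) ⊗ₜ[D.F0] σ y) * e1 := by
      have := congrArg (fun v => (ζ ^ (j : ℕ))⁻¹ • v) h5
      simp only [smul_smul] at this
      rwa [inv_mul_cancel₀ hζj, one_smul, one_smul] at this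
    have h7 : ((1 : E) ⊗ₜ[D.F0] (σ y - y)) * e1 = 0 := by
      rw [tmul_sub, sub_mul, h6, sub_self]
    exact sub_eq_zero.1 (inj_tmul he1n h7)
  -- the extended hom
  let : Algebra M (AlgebraicClosure Ω) := ((algebraMap Ω (AlgebraicClosure Ω)).comp κ).toAlgebra
  have : Algebra.IsAlgebraic M K := Algebra.IsAlgebraic.of_finite M K
  let κ' : K →ₐ[M] AlgebraicClosure Ω := IsAlgClosed.lift
  have hκ' : ∀ m : M, κ' (m : K) = algebraMap Ω (AlgebraicClosure Ω) (κ m) := fun m =>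
    κ'.commutes m
  set φ' : D.FP →+* AlgebraicClosure Ω := (algebraMap Ω (AlgebraicClosure Ω)).comp φ with hφ'
  have hc : ∀ l : L, φ' ⟨iota l, H.iota_FP l⟩ = (κ' : K →+* AlgebraicClosure Ω) (algebraMap L K l) := by
    intro l
    have e1 : algebraMap L K l = ((algebraMap L M l : M) : K) := rfl
    rw [e1]
    change algebraMap Ω (AlgebraicClosure Ω) (φ ⟨iota l, H.iota_FP l⟩) = κ' _
    rw [hκ', hφκ]
  obtain ⟨Ψ, hΨ⟩ := exists_Psi (D := D) (L := L) (K := K) (iota := iota) φ'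
    (κ' : K →+* AlgebraicClosure Ω) H.iota_FP hc
  have hΨP : Ψ ⟨eP, hP.mem_BS⟩ = 1 := by
    refine hP.map_eq_one Ψ φ' H.iota_FP fun f hf l => ?_
    rw [hΨ f hf, hc]
  have hgm : ∀ g, rho E D.F0 L K g e0 ∈ BS (F := D.F0) (K := K) D.FP.toSubring := fun g =>
    rho_mem_BS g he0
  -- some conjugate of `e0` has value one
  obtain ⟨g, hg⟩ : ∃ g, Ψ ⟨rho E D.F0 L K g e0, hgm g⟩ = 1 := by
    have h1 := Dt.prod_zero
    have h2 : (⟨eP, hP.mem_BS⟩ : BS (F := D.F0) (K := K) D.FP.toSubring) *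
        ∏ g : K ≃ₐ[L] K, (1 - ⟨rho E D.F0 L K g e0, hgm g⟩) = 0 := by
      apply Subtype.ext
      push_cast
      exact h1
    have h3 := congrArg Ψ h2
    rw [map_mul, hΨP, one_mul, map_prod, map_zero, Finset.prod_eq_zero_iff] at h3
    obtain ⟨g, -, h4⟩ := h3
    rw [map_sub, map_one] at h4
    exact ⟨g, (sub_eq_zero.1 h4).symm⟩
  set e1 := rho E D.F0 L K g e0 with he1
  -- other conjugates have value zero
  have horth : ∀ σ : K ≃ₐ[L] K, rho E D.F0 L K σ e1 ≠ e1 →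
      Ψ ⟨rho E D.F0 L K σ e1, rho_mem_BS σ (hgm g)⟩ = 0 := by
    intro σ hσ
    have h0 : rho E D.F0 L K σ e1 * e1 = 0 := by
      have e2 : rho E D.F0 L K σ e1 = rho E D.F0 L K (σ * g) e0 := by
        rw [he1, map_mul, AlgEquiv.mul_apply]
      have h5 := Dt.atom' (σ * g) e1 (Dt.gm g _ Dt.e0m) (Dt.gp g _ Dt.e0p) (Dt.idem g)
      have h6 := Dt.atom' g (rho E D.F0 L K (σ * g) e0) (Dt.gm _ _ Dt.e0m) (Dt.gp _ _ Dt.e0p)
        (Dt.idem _)
      rw [e2]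
      rcases h5 with h5 | h5
      · rw [mul_comm]; exact h5
      · rcases h6 with h6 | h6
        · exact h6
        · exfalso
          apply hσ
          rw [e2, ← h5, mul_comm]
          exact h6
    have h1 : (⟨rho E D.F0 L K σ e1, rho_mem_BS σ (hgm g)⟩ :
        BS (F := D.F0) (K := K) D.FP.toSubring) * ⟨e1, hgm g⟩ = 0 := Subtype.ext h0
    have h2 := congrArg Ψ h1
    rwa [map_mul, hg, mul_one, map_zero] at h2
  -- the sum over `Gal(K/M)`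
  let N : Finset (K ≃ₐ[L] K) := Finset.univ.filter fun σ => ∀ m ∈ M, σ m = m
  have hN : ∀ σ, σ ∈ N ↔ ∀ m ∈ M, σ m = m := fun σ => by simp [N]
  have hN1 : (1 : K ≃ₐ[L] K) ∈ N := (hN 1).2 fun m _ => rfl
  have hNmul : ∀ σ ∈ N, ∀ τ ∈ N, σ * τ ∈ N := fun σ hσ τ hτ => (hN _).2 fun m hm => by
    rw [AlgEquiv.mul_apply, (hN τ).1 hτ m hm, (hN σ).1 hσ m hm]
  have hNinv : ∀ σ ∈ N, σ⁻¹ ∈ N := fun σ hσ => (hN _).2 fun m hm => by
    have := (hN σ).1 hσ m hm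
    conv_lhs => rw [← this]
    rw [← AlgEquiv.mul_apply, inv_mul_cancel]; rfl
  -- `T v = Σ_{σ ∈ N} σ v` has coefficients in `M`
  have hT : ∀ v ∈ BS (F := D.F0) (K := K) D.FP.toSubring,
      ∃ (hv : ∑ σ ∈ N, rho E D.F0 L K σ v ∈ BS (F := D.F0) (K := K) D.FP.toSubring),
      ∃ w ∈ Subring.closure (Set.range φ ∪ Set.range κ),
        Ψ ⟨∑ σ ∈ N, rho E D.F0 L K σ v, hv⟩ = algebraMap Ω (AlgebraicClosure Ω) w := by
    intro v hv
    refine BS_induction (p := fun v =>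
      ∃ (hv : ∑ σ ∈ N, rho E D.F0 L K σ v ∈ BS (F := D.F0) (K := K) D.FP.toSubring),
      ∃ w ∈ Subring.closure (Set.range φ ∪ Set.range κ),
        Ψ ⟨∑ σ ∈ N, rho E D.F0 L K σ v, hv⟩ = algebraMap Ω (AlgebraicClosure Ω) w) ?_ ?_ ?_ hv
    · intro s hs k
      have hk : ∑ σ ∈ N, σ k ∈ M := by
        have hfix : ∀ τ : K ≃ₐ[L] K, τ ∈ M.fixingSubgroup → τ (∑ σ ∈ N, σ k) = ∑ σ ∈ N, σ k := by
          intro τ hτ
          have hτN : τ ∈ N := (hN τ).2 fun m hm => hτ ⟨m, hm⟩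
          rw [map_sum]
          refine Finset.sum_bij' (fun σ _ => τ * σ) (fun σ _ => τ⁻¹ * σ)
            (fun σ hσ => hNmul _ hτN _ hσ) (fun σ hσ => hNmul _ (hNinv _ hτN) _ hσ)
            (fun σ _ => by group) (fun σ _ => by group) (fun σ _ => rfl)
        rw [← IsGalois.fixedField_fixingSubgroup M]
        rw [IntermediateField.mem_fixedField_iff]
        exact hfix
      have e2 : ∑ σ ∈ N, rho E D.F0 L K σ (s ⊗ₜ[D.F0] k) = s ⊗ₜ[D.F0] (∑ σ ∈ N, σ k) := by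
        simp only [rho_tmul]
        rw [tmul_sum]
      refine ⟨by rw [e2]; exact tmul_mem_BS hs _, φ ⟨s, hs⟩ * κ ⟨_, hk⟩,
        mul_mem (Subring.subset_closure (Or.inl ⟨_, rfl⟩))
        (Subring.subset_closure (Or.inr ⟨_, rfl⟩)), ?_⟩
      have e3 : (⟨∑ σ ∈ N, rho E D.F0 L K σ (s ⊗ₜ[D.F0] k), by rw [e2]; exact tmul_mem_BS hs _⟩ :
          BS (F := D.F0) (K := K) D.FP.toSubring) =
          ⟨s ⊗ₜ[D.F0] (∑ σ ∈ N, σ k), tmul_mem_BS hs _⟩ := Subtype.ext e2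
      rw [e3, hΨ s hs, map_mul]
      congr 1
      exact hκ' ⟨_, hk⟩
    · have e2 : ∑ σ ∈ N, rho E D.F0 L K σ (0 : E ⊗[D.F0] K) = 0 := by simp
      refine ⟨by rw [e2]; exact zero_mem _, 0, zero_mem _, ?_⟩
      have : (⟨∑ σ ∈ N, rho E D.F0 L K σ (0 : E ⊗[D.F0] K), by rw [e2]; exact zero_mem _⟩ :
          BS (F := D.F0) (K := K) D.FP.toSubring) = 0 := Subtype.ext e2
      rw [this, map_zero, map_zero]
    · rintro x y' ⟨hx, w, hw, hxw⟩ ⟨hy', w', hw', hyw⟩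
      have e2 : ∑ σ ∈ N, rho E D.F0 L K σ (x + y') =
          ∑ σ ∈ N, rho E D.F0 L K σ x + ∑ σ ∈ N, rho E D.F0 L K σ y' := by
        simp only [map_add]
        rw [Finset.sum_add_distrib]
      refine ⟨by rw [e2]; exact add_mem hx hy', w + w', add_mem hw hw', ?_⟩
      have e3 : (⟨∑ σ ∈ N, rho E D.F0 L K σ (x + y'), by rw [e2]; exact add_mem hx hy'⟩ :
          BS (F := D.F0) (K := K) D.FP.toSubring) = ⟨_, hx⟩ + ⟨_, hy'⟩ := Subtype.ext e2
      rw [e3, map_add, hxw, hyw, map_add]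
  have hv0 : ((1 : E) ⊗ₜ[D.F0] y) * e1 ∈ BS (F := D.F0) (K := K) D.FP.toSubring :=
    mul_mem (tmul_mem_BS (one_mem _) _) (hgm g)
  obtain ⟨hW, w, hw, hΨW⟩ := hT _ hv0
  -- compute the value
  let H' : Finset (K ≃ₐ[L] K) := N.filter fun σ => rho E D.F0 L K σ e1 = e1
  have hcard : H'.card ≠ 0 := by
    rw [Finset.card_ne_zero]
    refine ⟨1, Finset.mem_filter.2 ⟨hN1, ?_⟩⟩
    rw [map_one]; rfl
  have hval : Ψ ⟨∑ σ ∈ N, rho E D.F0 L K σ (((1 : E) ⊗ₜ[D.F0] y) * e1), hW⟩ =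
      (H'.card : AlgebraicClosure Ω) * κ' y := by
    have e2 : (⟨∑ σ ∈ N, rho E D.F0 L K σ (((1 : E) ⊗ₜ[D.F0] y) * e1), hW⟩ :
        BS (F := D.F0) (K := K) D.FP.toSubring) =
        ∑ σ ∈ N, ⟨(1 : E) ⊗ₜ[D.F0] σ y, tmul_mem_BS (one_mem _) _⟩ *
          ⟨rho E D.F0 L K σ e1, rho_mem_BS σ (hgm g)⟩ := by
      apply Subtype.ext
      rw [AddSubmonoidClass.coe_finsetSum]
      refine Finset.sum_congr rfl fun σ _ => ?_
      rw [map_mul, rho_tmul]
      rfl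
    rw [e2, map_sum, ← Finset.sum_filter_add_sum_filter_not N fun σ => rho E D.F0 L K σ e1 = e1]
    have e3 : ∑ σ ∈ N.filter (fun σ => ¬ rho E D.F0 L K σ e1 = e1),
        Ψ (⟨(1 : E) ⊗ₜ[D.F0] σ y, tmul_mem_BS (one_mem _) _⟩ *
          ⟨rho E D.F0 L K σ e1, rho_mem_BS σ (hgm g)⟩) = 0 := by
      refine Finset.sum_eq_zero fun σ hσ => ?_
      rw [map_mul, horth σ (Finset.mem_filter.1 hσ).2, mul_zero]
    rw [e3, add_zero]
    have e4 : ∀ σ ∈ N.filter (fun σ => rho E D.F0 L K σ e1 = e1),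
        Ψ (⟨(1 : E) ⊗ₜ[D.F0] σ y, tmul_mem_BS (one_mem _) _⟩ *
          ⟨rho E D.F0 L K σ e1, rho_mem_BS σ (hgm g)⟩) = κ' y := by
      intro σ hσ
      obtain ⟨hσN, hσe⟩ := Finset.mem_filter.1 hσ
      have e5 : (⟨rho E D.F0 L K σ e1, rho_mem_BS σ (hgm g)⟩ :
          BS (F := D.F0) (K := K) D.FP.toSubring) = ⟨e1, hgm g⟩ := Subtype.ext hσe
      rw [map_mul, e5, hg, mul_one, key g σ ((hN σ).1 hσN) hσe, hΨ 1 (one_mem _)]
      have : (⟨1, one_mem _⟩ : D.FP) = 1 := rfl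
      rw [this, map_one, one_mul]
      rfl
    rw [Finset.sum_congr rfl e4, Finset.sum_const, nsmul_eq_mul]
  rw [hval] at hΨW
  have hc0 : (H'.card : Ω) ≠ 0 := by exact_mod_cast hcard
  refine hno (φ ((H'.card : D.FP)⁻¹) * w)
    (mul_mem (Subring.subset_closure (Or.inl ⟨_, rfl⟩)) hw) ?_
  apply (algebraMap Ω (AlgebraicClosure Ω)).injective
  rw [map_pow, map_mul, ← hΨW, map_inv₀, map_natCast, map_inv₀, map_natCast, ← hκ' ⟨y ^ n, hyM⟩]
  change _ = κ' (y ^ n)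
  rw [map_pow]
  congr 1
  have hc1 : (H'.card : AlgebraicClosure Ω) ≠ 0 := by
    rw [← map_natCast (algebraMap Ω (AlgebraicClosure Ω))]
    exact (map_ne_zero _).2 hc0
  rw [← mul_assoc, inv_mul_cancel₀ hc1, one_mul]

end Main

end Crest.Agent.R013.NB_92
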