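import Crest.Agent.R013.NB2_102

/-!
# Row 13, C-NB, part 3: norms over the circle, separation of idempotents, atoms
-/

set_option autoImplicit false

noncomputable section

namespace Crest.Agent.R013.NB_102

open Module Filter Topology
open Crest.Agent.R013.Gl946 Crest.Agent.R013.A2a_275
open scoped NNReal

section Basic

variable {E V U ι : Type*} [NormedField E] [CommRing V] [Algebra E V] [Field U] [Fintype ι]

/-- `w` lies over the norm of `E` ("over the circle"). -/
def GT (X : Dat E V U ι) (w : Valuation U ℝ≥0) : Prop :=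
  ∀ z ∈ X.F0, ∀ u, X.j u = algebraMap E V z → (w u : ℝ) = ‖z‖

variable {X : Dat E V U ι}

theorem GT.bdV {w : Valuation U ℝ≥0} (h : GT X w) (Q : Reg X.F0) : BdV Q w :=
  fun s hs u hu => (h s (Q.le hs) u hu).le

/-- The full region. -/
def Qtop (X : Dat E V U ι) (hd : Dense (X.F0 : Set E)) : Reg X.F0 where
  S0 := X.F0.toSubring
  le := le_rfl
  fr z hz := ⟨z, hz, 1, one_mem _, one_ne_zero, by simp⟩
  R := ⊤
  hR z := ⟨fun _ => ⟨z, hd z, 1, one_mem _, one_ne_zero, by simp⟩, fun _ => trivial⟩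

/-- **(T0)** the evaluation of `V` at a norm over the circle. -/
theorem GT.exists_evV [Nontrivial V] (hd : Dense (X.F0 : Set E)) {w : Valuation U ℝ≥0}
    (h : GT X w) : ∃ Φ : V →+* Cpl w, (∀ u, Φ (X.j u) = toCpl w u) ∧
      ∀ a : E, ‖Φ (algebraMap E V a)‖ = ‖a‖ := by
  obtain ⟨Φ, hΦ⟩ := exists_ev (Qtop X hd) (toCpl w) (h.bdV _).bd
  have hmem : ∀ v : V, v ∈ X.VR (Qtop X hd).R (Qtop X hd).F0_le := fun v i => trivial
  let Φ' : V →+* Cpl w := Φ.comp ((RingHom.id V).codRestrict _ hmem)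
  have h1 : ∀ a : E, ‖Φ' (algebraMap E V a)‖ ≤ ‖a‖ := fun a => hΦ.bd a (hd a)
  refine ⟨Φ', hΦ.eq, fun a => ?_⟩
  rcases eq_or_ne a 0 with rfl | ha
  · rw [map_zero, map_zero, norm_zero, norm_zero]
  · refine le_antisymm (h1 a) ?_
    have h2 := h1 a⁻¹
    have h3 : Φ' (algebraMap E V a) * Φ' (algebraMap E V a⁻¹) = 1 := by
      rw [← map_mul, ← map_mul, mul_inv_cancel₀ ha, map_one, map_one]
    have h4 : ‖Φ' (algebraMap E V a)‖ * ‖Φ' (algebraMap E V a⁻¹)‖ = 1 := by
      rw [← norm_mul, h3, norm_one]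
    rw [norm_inv] at h2
    have ha' : 0 < ‖a‖ := norm_pos_iff.2 ha
    by_contra hlt
    push Not at hlt
    have h5 : ‖Φ' (algebraMap E V a)‖ * ‖Φ' (algebraMap E V a⁻¹)‖ < ‖a‖ * ‖a‖⁻¹ := by
      have h6 : 0 < ‖Φ' (algebraMap E V a⁻¹)‖ := by
        rw [norm_pos_iff]
        exact right_ne_zero_of_mul_eq_one h3
      calc _ < ‖a‖ * ‖Φ' (algebraMap E V a⁻¹)‖ := mul_lt_mul_of_pos_right hlt h6
        _ ≤ ‖a‖ * ‖a‖⁻¹ := mul_le_mul_of_nonneg_left h2 ha'.le
    rw [h4, mul_inv_cancel₀ ha'.ne'] at h5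
    exact lt_irrefl _ h5

/-- Evaluations of `V` are unique. -/
theorem evV_unique (hd : Dense (X.F0 : Set E)) {Ω : Type*} [NormedField Ω] (κ : U →+* Ω)
    (Φ Ψ : V →+* Ω) (h1 : ∀ u, Φ (X.j u) = κ u) (h2 : ∀ u, Ψ (X.j u) = κ u)
    (b1 : ∀ a : E, ‖Φ (algebraMap E V a)‖ = ‖a‖) (b2 : ∀ a : E, ‖Ψ (algebraMap E V a)‖ = ‖a‖) :
    Φ = Ψ := by
  have hE : ∀ a : E, Φ (algebraMap E V a) = Ψ (algebraMap E V a) := by
    have c1 : Continuous (fun a : E => Φ (algebraMap E V a)) :=
      (AddMonoidHomClass.isometry_of_norm (Φ.comp (algebraMap E V)) b1).continuous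
    have c2 : Continuous (fun a : E => Ψ (algebraMap E V a)) :=
      (AddMonoidHomClass.isometry_of_norm (Ψ.comp (algebraMap E V)) b2).continuous
    intro a
    have hcl : IsClosed {a : E | Φ (algebraMap E V a) = Ψ (algebraMap E V a)} := isClosed_eq c1 c2
    refine hcl.closure_subset_iff.2 ?_ (hd a)
    intro z hz
    obtain ⟨u, hu⟩ := X.exists_F0 hz
    change Φ (algebraMap E V z) = Ψ (algebraMap E V z)
    rw [← hu, h1, h2]
  ext v
  rw [← X.b.sum_repr v, map_sum, map_sum]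
  refine Finset.sum_congr rfl fun i _ => ?_
  obtain ⟨u, hu⟩ := X.exists_b i
  rw [Algebra.smul_def, map_mul, map_mul, hE, ← hu, h1, h2]

/-- Value of an idempotent at a norm over the circle, through the evaluation of `V`. -/
theorem val0_iff_evV [Nontrivial V] (Q : Reg X.F0) {w : Valuation U ℝ≥0} (hw : GT X w) {ε : V}
    (hε : ε ∈ X.VR Q.R Q.F0_le) (hεε : ε * ε = ε)
    {Ω : Type*} [NormedField Ω] [IsUltrametricDist Ω] (κ : U →+* Ω) (hκ : ∀ u, ‖κ u‖ = w u)
    (Φ : V →+* Ω) (h1 : ∀ u, Φ (X.j u) = κ u)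
    (b1 : ∀ a : E, ‖Φ (algebraMap E V a)‖ = ‖a‖) :
    Val0 Q w ε ↔ Φ ε = 0 :=
  val0_iff Q w hε hεε κ hκ (Φ.comp (X.VR Q.R Q.F0_le).subtype)
    ⟨fun u => h1 u, fun a _ => (b1 a).le⟩ (hw.bdV Q)

end Basic

section Sep

variable {E V U ι : Type*} [NontriviallyNormedField E] [IsUltrametricDist E] [CompleteSpace E]
  [CommRing V] [Algebra E V] [Field U] [Fintype ι] {X : Dat E V U ι}

/-- A finite extension `L` of `E` with `V → L` gives a norm over the circle. -/
theorem exists_norm_of_field [Nontrivial V] (L : Type*) [Field L] [Algebra E L]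
    [FiniteDimensional E L] (q : V →ₐ[E] L) :
    ∃ w : Valuation U ℝ≥0, GT X w ∧ (∀ u, (w u : ℝ) = spectralNorm E L (q (X.j u))) ∧
      ∀ (Q : Reg X.F0) (ε : V), ε ∈ X.VR Q.R Q.F0_le → ε * ε = ε → (Val0 Q w ε ↔ q ε = 0) := by
  have : Algebra.IsAlgebraic E L := inferInstance
  let nf : NormedField L := spectralNorm.normedField E L
  have : CompleteSpace L := spectralNorm.completeSpace E L
  have : IsUltrametricDist L :=
    IsUltrametricDist.isUltrametricDist_of_isNonarchimedean_norm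
      (isNonarchimedean_spectralNorm (K := E) (L := L))
  have hext : ∀ e : E, ‖algebraMap E L e‖ = ‖e‖ := fun e => spectralNorm_extends e
  set κ : U →+* L := q.toRingHom.comp X.j with hκ
  set w : Valuation U ℝ≥0 := (NormedField.valuation (K := L)).comap κ with hw
  have hwapp : ∀ a : U, (w a : ℝ) = ‖κ a‖ := fun a => rfl
  have hGT : GT X w := by
    intro z hz u hu
    rw [hwapp]
    change ‖q (X.j u)‖ = _
    rw [hu, AlgHom.commutes, hext]
  refine ⟨w, hGT, fun u => rfl, fun Q ε hε hεε => ?_⟩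
  exact val0_iff_evV Q hGT hε hεε κ (fun u => (hwapp u).symm) q.toRingHom (fun u => rfl)
    (fun a => by
      change ‖q (algebraMap E V a)‖ = _
      rw [AlgHom.commutes, hext])

omit [IsUltrametricDist E] [CompleteSpace E] [Field U] in
theorem eq_zero_of_mem_maximal {r : V} (hr : r * r = r)
    (h : ∀ m : Ideal V, m.IsMaximal → r ∈ m) : r = 0 := by
  have h1 : IsUnit (1 - r) := by
    by_contra hnu
    obtain ⟨m, hm, hmem⟩ := exists_max_ideal_of_mem_nonunits (mem_nonunits_iff.2 hnu)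
    have h2 : (1 : V) ∈ m := by
      have : (1 : V) = (1 - r) + r := by ring
      rw [this]
      exact m.add_mem hmem (h m hm)
    exact hm.ne_top ((Ideal.eq_top_iff_one m).2 h2)
  have h3 : (1 - r) * r = 0 := by linear_combination -hr
  exact (h1.mul_right_eq_zero).1 h3

/-- **Separation**: idempotents with the same values at all norms over the circle are equal. -/
theorem eq_of_values [Nontrivial V] (Q Q' : Reg X.F0) {ε δ : V} (hε : ε ∈ X.VR Q.R Q.F0_le)
    (hδ : δ ∈ X.VR Q'.R Q'.F0_le) (hεε : ε * ε = ε) (hδδ : δ * δ = δ)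
    (h : ∀ w : Valuation U ℝ≥0, GT X w → (Val0 Q w ε ↔ Val0 Q' w δ)) : ε = δ := by
  have hfin : Module.Finite E V := Module.Finite.of_basis X.b
  set s := ε - δ with hs
  have hmem : ∀ m : Ideal V, m.IsMaximal → s ∈ m := by
    intro m hm
    let _ : Field (V ⧸ m) := Ideal.Quotient.field m
    have hfin2 : Module.Finite E (V ⧸ m) :=
      Module.Finite.of_surjective (Ideal.Quotient.mkₐ E m).toLinearMap
        (Ideal.Quotient.mkₐ_surjective E m)
    obtain ⟨w, hw, -, hval⟩ := exists_norm_of_field (X := X) (V ⧸ m) (Ideal.Quotient.mkₐ E m)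
    have h1 := hval Q ε hε hεε
    have h2 := hval Q' δ hδ hδδ
    have h3 := h w hw
    have h4 : Ideal.Quotient.mkₐ E m ε = 0 ↔ Ideal.Quotient.mkₐ E m δ = 0 := by
      rw [← h1, ← h2, h3]
    have h5 : Ideal.Quotient.mkₐ E m ε = Ideal.Quotient.mkₐ E m δ := by
      rcases idem_zero_or_one (Ideal.Quotient.mkₐ E m).toRingHom hεε with ha | ha <;>
      rcases idem_zero_or_one (Ideal.Quotient.mkₐ E m).toRingHom hδδ with hb | hb
      · exact ha.trans hb.symm
      · have := h4.1 ha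
        exact absurd (hb.symm.trans this) one_ne_zero
      · have := h4.2 hb
        exact absurd (ha.symm.trans this) one_ne_zero
      · exact ha.trans hb.symm
    rw [hs]
    refine (Ideal.Quotient.eq_zero_iff_mem).1 ?_
    have h6 : Ideal.Quotient.mkₐ E m (ε - δ) = 0 := by rw [map_sub, h5, sub_self]
    exact h6
  have hr : (s * s) * (s * s) = s * s := by
    rw [hs]
    have e1 : (ε - δ) * (ε - δ) = ε + δ - 2 * (ε * δ) := by
      linear_combination hεε + hδδ
    rw [e1]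
    linear_combination (1 - 4 * δ + 4 * δ * δ) * hεε + (1 - 4 * ε + 4 * ε) * hδδ
  have h0 : s * s = 0 := eq_zero_of_mem_maximal hr fun m hm => m.mul_mem_left _ (hmem m hm)
  have h1 : s * s * s = s := by
    rw [hs]
    linear_combination (ε - 3 * δ + 1) * hεε + (3 * ε - δ - 1) * hδδ
  rw [h0, zero_mul] at h1
  exact sub_eq_zero.1 h1.symm

end Sep

end Crest.Agent.R013.NB_102
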