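import Crest.Agent.R013.NB2_92

/-!
# The non-bridge data from the two classes (row 13, part B, leaf B-NB), pure algebra, part 3

Output: an intermediate field `U` of `K/L`, `e : E ⊗ U`, `j : E ⊗ U → E`, with `NonBridge`.
-/

set_option autoImplicit false
set_option linter.unusedSectionVars false

namespace Crest.Agent.R013.NB_92

open Module TensorProduct Crest.Agent.R013.Gl946 Crest.Agent.R013.CutCov_92

section Edge

variable {E : Type*} [Field E] {D : PatchDatum E} {U : Type*} [Field U] [Algebra D.F0 U]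
  [FiniteDimensional D.F0 U]

/-- The edge of an idempotent of `E ⊗ U`. -/
noncomputable def edgeOf (e : E ⊗[D.F0] U) (he : e * e = e) :
    Edge D (E ⊗[D.F0] U) (finrank D.F0 U) where
  b := Algebra.TensorProduct.basis E (finBasis D.F0 U)
  L := (Algebra.TensorProduct.includeRight : U →ₐ[D.F0] E ⊗[D.F0] U).toRingHom.range
  hL := fun v => by
    rw [mem_cs_F]
    exact Iff.rfl
  e := e
  he := he

theorem mem_edgeOf_VU (e : E ⊗[D.F0] U) (he : e * e = e) (v : E ⊗[D.F0] U) :
    v ∈ (edgeOf e he).VU ↔ v ∈ BS (F := D.F0) (K := U) D.RU := by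
  rw [mem_BS_iff (finBasis D.F0 U) (fun z hz => D.F0_le_RU z hz)]
  exact Iff.rfl

theorem mem_edgeOf_VP (e : E ⊗[D.F0] U) (he : e * e = e) (v : E ⊗[D.F0] U) :
    v ∈ (edgeOf e he).VP ↔ v ∈ BS (F := D.F0) (K := U) D.FP.toSubring := by
  rw [mem_BS_iff (finBasis D.F0 U) (S := D.FP.toSubring) D.F0_le_FP]
  exact Iff.rfl

theorem isReduced_tensor [CharZero E] : IsReduced (E ⊗[D.F0] U) := by
  have : CharZero D.F0 := inferInstance
  have : Algebra.FormallyUnramified D.F0 U := Algebra.FormallyUnramified.of_isSeparable D.F0 U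
  have : Algebra.FormallyUnramified E (E ⊗[D.F0] U) := inferInstance
  have : Algebra.EssFiniteType E (E ⊗[D.F0] U) := inferInstance
  exact Algebra.FormallyUnramified.isReduced_of_field E _

end Edge

section Incl

variable {E : Type*} [Field E] {F : Subfield E} {L K : Type*} [Field L] [Field K] [Algebra F L]
  [Algebra F K] [Algebra L K] [IsScalarTower F L K] (U : IntermediateField L K)

/-- `E ⊗ U → E ⊗ K`. -/
noncomputable def incl : (E ⊗[F] U) →ₐ[E] (E ⊗[F] K) :=
  Algebra.TensorProduct.map (AlgHom.id E E) (U.val.restrictScalars F)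

@[simp]
theorem incl_tmul (s : E) (u : U) : incl (F := F) U (s ⊗ₜ[F] u) = s ⊗ₜ[F] (u : K) := rfl

theorem incl_injective : Function.Injective (incl (E := E) (F := F) U) := by
  have h1 : Function.Injective (LinearMap.lTensor E ((U.val.restrictScalars F).toLinearMap)) :=
    Module.Flat.lTensor_preserves_injective_linearMap (M := E)
      ((U.val.restrictScalars F).toLinearMap) (U.val.toRingHom.injective)
  have h2 : ∀ v, incl (E := E) (F := F) U v =
      LinearMap.lTensor E ((U.val.restrictScalars F).toLinearMap) v := by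
    intro v
    induction v using TensorProduct.induction_on with
    | zero => rw [map_zero, map_zero]
    | tmul s k => rfl
    | add x y hx hy => rw [map_add, map_add, hx, hy]
  intro x y hxy
  rw [h2, h2] at hxy
  exact h1 hxy

theorem incl_mem_BS {S : Subring E} {v : E ⊗[F] U} (hv : v ∈ BS (F := F) (K := U) S) :
    incl (F := F) U v ∈ BS (F := F) (K := K) S := by
  refine BS_induction (p := fun v => incl (F := F) U v ∈ BS (F := F) (K := K) S) ?_ ?_ ?_ hv
  · intro s hs k; rw [incl_tmul]; exact tmul_mem_BS hs _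
  · rw [map_zero]; exact zero_mem _
  · intro x y hx hy; rw [map_add]; exact add_mem hx hy

theorem rho_incl (g : K ≃ₐ[L] K) (hg : ∀ u ∈ U, g u = u) (v : E ⊗[F] U) :
    rho E F L K g (incl (F := F) U v) = incl (F := F) U v := by
  induction v using TensorProduct.induction_on with
  | zero => rw [map_zero, map_zero]
  | tmul s k => rw [incl_tmul, rho_tmul, hg _ k.2]
  | add x y hx hy => rw [map_add, map_add, hx, hy]

/-- elements fixed by a subgroup come from the fixed field. -/
theorem exists_incl [CharZero E] [FiniteDimensional L K] (S : Subgroup (K ≃ₐ[L] K)) (v : E ⊗[F] K)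
    (hv : ∀ g ∈ S, rho E F L K g v = v) :
    ∃ v', incl (F := F) (IntermediateField.fixedField S) v' = v := by
  classical
  have hT : ∀ v : E ⊗[F] K, ∃ v', incl (F := F) (IntermediateField.fixedField S) v' =
      ∑ g ∈ Finset.univ.filter (· ∈ S), rho E F L K g v := by
    intro v
    induction v using TensorProduct.induction_on with
    | zero => exact ⟨0, by simp⟩
    | tmul s k =>
      have hk : ∑ g ∈ Finset.univ.filter (· ∈ S), g k ∈ IntermediateField.fixedField S := by
        rw [IntermediateField.mem_fixedField_iff]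
        intro τ hτ
        rw [map_sum]
        refine Finset.sum_bij' (fun σ _ => τ * σ) (fun σ _ => τ⁻¹ * σ) ?_ ?_
          (fun σ _ => by group) (fun σ _ => by group) (fun σ _ => rfl)
        · intro σ hσ
          exact Finset.mem_filter.2 ⟨Finset.mem_univ _, S.mul_mem hτ (Finset.mem_filter.1 hσ).2⟩
        · intro σ hσ
          exact Finset.mem_filter.2 ⟨Finset.mem_univ _,
            S.mul_mem (S.inv_mem hτ) (Finset.mem_filter.1 hσ).2⟩
      refine ⟨s ⊗ₜ[F] ⟨_, hk⟩, ?_⟩
      rw [incl_tmul]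
      simp only [rho_tmul]
      rw [tmul_sum]
    | add x y hx hy =>
      obtain ⟨x', hx⟩ := hx
      obtain ⟨y', hy⟩ := hy
      refine ⟨x' + y', ?_⟩
      simp only [map_add]
      rw [Finset.sum_add_distrib, hx, hy]
  obtain ⟨v', h1⟩ := hT v
  have h2 : ∑ g ∈ Finset.univ.filter (· ∈ S), rho E F L K g v =
      ((Finset.univ.filter (· ∈ S)).card : E) • v := by
    rw [Finset.sum_congr rfl fun g hg => hv g (Finset.mem_filter.1 hg).2, Finset.sum_const,
      Nat.cast_smul_eq_nsmul]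
  have h3 : ((Finset.univ.filter (· ∈ S)).card : E) ≠ 0 := by
    have : (Finset.univ.filter (· ∈ S)).card ≠ 0 := by
      rw [Finset.card_ne_zero]
      exact ⟨1, Finset.mem_filter.2 ⟨Finset.mem_univ _, S.one_mem⟩⟩
    exact_mod_cast this
  refine ⟨((Finset.univ.filter (· ∈ S)).card : E)⁻¹ • v', ?_⟩
  rw [map_smul, h1, h2, smul_smul, inv_mul_cancel₀ h3, one_smul]

end Incl

section Main

variable {E : Type*} [Field E] [CharZero E] {D : PatchDatum E} {L K : Type*} [Field L] [Field K]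
  [Algebra D.F0 L] [Algebra D.F0 K] [Algebra L K] [IsScalarTower D.F0 L K]
  [FiniteDimensional D.F0 L] [FiniteDimensional D.F0 K] [FiniteDimensional L K] [IsGalois L K]

/-- The output of B-NB. -/
structure Out (iota : L →ₐ[D.F0] E) (Am Ap : Subring E) (U : IntermediateField L K)
    [FiniteDimensional D.F0 U] (e : E ⊗[D.F0] U) (j : (E ⊗[D.F0] U) →ₐ[E] E) : Prop where
  idem : e * e = e
  smul : ∀ v, v * e = j v • e
  j_e : j e = 1
  iota : ∀ l : L, j ((1 : E) ⊗ₜ[D.F0] algebraMap L U l) = iota l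
  mem_Am : ∀ u : U, j ((1 : E) ⊗ₜ[D.F0] u) ∈ Am
  mem_Ap : ∀ u : U, j ((1 : E) ⊗ₜ[D.F0] u) ∈ Ap
  nonbridge : (edgeOf e idem).NonBridge

theorem finiteDimensional_sub (U : IntermediateField L K) : FiniteDimensional D.F0 U := by
  have h1 : Function.Injective (U.val.restrictScalars D.F0).toLinearMap := U.val.toRingHom.injective
  exact FiniteDimensional.of_injective (U.val.restrictScalars D.F0).toLinearMap h1

/-- **B-NB**, algebraic form. -/
theorem exists_out {iota : L →ₐ[D.F0] E} {Am Ap : Subring E} (H : Half iota Am Ap)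
    -- the class which is split over the annulus
    {n : ℕ} (hn : 0 < n) {ζ : E} (hζ : IsPrimitiveRoot ζ n) (hζF : ζ ∈ D.F0)
    (M : IntermediateField L K) (y : K) (hyM : y ^ n ∈ M) (b : E ⊗[D.F0] K)
    (hb : b ^ n = (1 : E) ⊗ₜ[D.F0] (y ^ n))
    (hbm : b ∈ BS (F := D.F0) (K := K) Am) (hbp : b ∈ BS (F := D.F0) (K := K) Ap)
    (hbM : ∀ σ : K ≃ₐ[L] K, (∀ m ∈ M, σ m = m) → rho E D.F0 L K σ b = b)
    {Ω : Type*} [Field Ω] [CharZero Ω] (φ : D.FP →+* Ω) (κ : M →+* Ω)
    (hφκ : ∀ l : L, φ ⟨iota l, H.iota_FP l⟩ = κ (algebraMap L M l))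
    (hno : ∀ w ∈ Subring.closure (Set.range φ ∪ Set.range κ), w ^ n ≠ κ ⟨y ^ n, hyM⟩)
    -- the class which is split over the disc
    {n' : ℕ} (hn' : 0 < n') {ζ' : E} (hζ' : IsPrimitiveRoot ζ' n') (hζF' : ζ' ∈ D.F0)
    (h2 : L) (y2 : K) (hy : y2 ^ n' = algebraMap L K h2) (hy' : y2 ∉ Set.range (algebraMap L K))
    (g2 : E) (hg2P : g2 ∈ D.FP) (hg2A : g2 ∈ Ap) (hg : g2 ^ n' = iota h2) :
    ∃ (U : IntermediateField L K) (e : E ⊗[D.F0] U) (j : (E ⊗[D.F0] U) →ₐ[E] E),
      let _ := finiteDimensional_sub (D := D) U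
      Out iota Am Ap U e j := by
  classical
  obtain ⟨eP, hP⟩ := exists_isEP (K := K) iota H.iota_FP
  have hePm : eP ∈ ext eP Am ⊓ ext eP Ap :=
    ⟨⟨1, one_mem _, by rw [hP.idem, mul_one]⟩, ⟨1, one_mem _, by rw [hP.idem, mul_one]⟩⟩
  obtain ⟨e0, h1, h3, h4, h5, h6⟩ := exists_atom E (ext eP Am ⊓ ext eP Ap) hP.idem hePm hP.ne_zero
  have Dt := H.data hP h1.1 h1.2 h3 h4 h5 (fun x hx hx' => h6 x ⟨hx, hx'⟩)
  have hin := H.hin hP hn hζ hζF M y hyM b hb hbm hbp hbM φ κ hφκ hno Dt
  have hout := H.hout hP hn' hζ' hζF' h2 y2 hy hy' g2 hg2P hg2A hg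
  let S : Subgroup (K ≃ₐ[L] K) :=
    { carrier := {g | rho E D.F0 L K g e0 = e0}
      one_mem' := by
        change rho E D.F0 L K 1 e0 = e0
        rw [map_one]; rfl
      mul_mem' := fun {g h} hg hh => by
        change rho E D.F0 L K (g * h) e0 = e0
        rw [map_mul, AlgEquiv.mul_apply, hh, hg]
      inv_mem' := fun {g} hg => by
        change rho E D.F0 L K g⁻¹ e0 = e0
        conv_lhs => rw [← show rho E D.F0 L K g e0 = e0 from hg]
        rw [← AlgEquiv.mul_apply, ← map_mul, inv_mul_cancel, map_one]; rfl }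
  have hS : ∀ g, g ∈ S ↔ rho E D.F0 L K g e0 = e0 := fun g => Iff.rfl
  set U := IntermediateField.fixedField S with hU
  have hUfix : ∀ g ∈ S, ∀ u ∈ U, g u = u := fun g hg u hu =>
    (IntermediateField.mem_fixedField_iff S u).1 hu g hg
  obtain ⟨e, he⟩ := exists_incl (E := E) (F := D.F0) S e0 (fun g hg => hg)
  have hinj := incl_injective (E := E) (F := D.F0) U
  have hee : e * e = e := hinj (by rw [map_mul, he, h3])
  have he0 : e ≠ 0 := fun h0 => h5 (by rw [← he, h0, map_zero])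
  -- orthogonality
  have horth : ∀ σ : K ≃ₐ[L] K, σ ∉ S → rho E D.F0 L K σ e0 * e0 = 0 := by
    intro σ hσ
    rcases Dt.atom (rho E D.F0 L K σ e0) (Dt.gm σ _ Dt.e0m) (Dt.gp σ _ Dt.e0p) (Dt.idem σ) with h | h
    · exact h
    · exfalso
      rcases Dt.atom' σ e0 Dt.e0m Dt.e0p Dt.e0_idem with h' | h'
      · apply Dt.e0_ne; rw [← h, mul_comm, h']
      · exact hσ ((hS σ).2 (by rw [← h', mul_comm, h]))
  set m : E := ((Finset.univ.filter (· ∈ S)).card : E) with hm
  have hm0 : m ≠ 0 := by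
    have : (Finset.univ.filter (· ∈ S)).card ≠ 0 := by
      rw [Finset.card_ne_zero]
      exact ⟨1, Finset.mem_filter.2 ⟨Finset.mem_univ _, S.one_mem⟩⟩
    rw [hm]; exact_mod_cast this
  -- the key computation
  have hkey : ∀ (T : Subring E), (∀ l, iota l ∈ T) → e0 ∈ ext eP T →
      ∀ v : E ⊗[D.F0] U, v ∈ BS (F := D.F0) (K := U) T →
      ∃ c ∈ T, m • (incl (F := D.F0) U v * e0) = c • e0 := by
    intro T hT heT v hv
    obtain ⟨c, hc, h7⟩ := sum_rho_ext hP.smul hP.fixed hT (v := incl (F := D.F0) U v * e0)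
      (mul_mem (BS_le_ext _ _ (incl_mem_BS U hv)) heT)
      (by linear_combination (incl (F := D.F0) U v) * h4)
    refine ⟨c, hc, ?_⟩
    have h8 := congrArg (fun w => w * e0) h7
    simp only [smul_mul_assoc, h4] at h8
    rw [← h8, Finset.sum_mul, ← Finset.sum_filter_add_sum_filter_not Finset.univ (· ∈ S)]
    have h9 : ∑ g ∈ Finset.univ.filter (fun g => ¬ g ∈ S),
        rho E D.F0 L K g (incl (F := D.F0) U v * e0) * e0 = 0 := by
      refine Finset.sum_eq_zero fun g hg => ?_
      rw [map_mul, mul_assoc, horth g (Finset.mem_filter.1 hg).2, mul_zero]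
    rw [h9, add_zero]
    have h10 : ∀ g ∈ Finset.univ.filter (· ∈ S),
        rho E D.F0 L K g (incl (F := D.F0) U v * e0) * e0 = incl (F := D.F0) U v * e0 := by
      intro g hg
      have hgS := (Finset.mem_filter.1 hg).2
      rw [map_mul, rho_incl U g (hUfix g hgS), (hS g).1 hgS, mul_assoc, h3]
    rw [Finset.sum_congr rfl h10, Finset.sum_const, hm, Nat.cast_smul_eq_nsmul]
  have hsinj : ∀ c c' : E, c • e0 = c' • e0 → c = c' := by
    intro c c' h
    by_contra hne
    apply h5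
    have h7 : (c - c') ≠ 0 := sub_ne_zero.2 hne
    have h8 : (c - c') • e0 = 0 := by
      rw [smul_eq_tmul, sub_tmul, sub_mul, ← smul_eq_tmul, ← smul_eq_tmul, h, sub_self]
    have := congrArg (fun w => (c - c')⁻¹ • w) h8
    simp only [smul_smul] at this
    rwa [inv_mul_cancel₀ h7, one_smul, smul_zero] at this
  have hex : ∀ v : E ⊗[D.F0] U, ∃ c : E, incl (F := D.F0) U v * e0 = c • e0 := by
    intro v
    obtain ⟨c, -, h7⟩ := hkey ⊤ (fun l => Subring.mem_top _) (BS_le_ext _ _ (mem_BS_top _)) v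
      (mem_BS_top v)
    refine ⟨m⁻¹ * c, ?_⟩
    rw [mul_smul, ← h7, smul_smul, inv_mul_cancel₀ hm0, one_smul]
  choose j0 hj0 using hex
  let j : (E ⊗[D.F0] U) →ₐ[E] E :=
    { toFun := j0
      map_one' := hsinj _ _ (by rw [← hj0, map_one, one_mul, one_smul])
      map_mul' := fun x y => hsinj _ _ (by
        rw [← hj0, mul_smul, ← hj0 y, map_mul, mul_assoc, hj0 y, mul_smul_comm, hj0 x,
          smul_smul, smul_smul, mul_comm])
      map_zero' := hsinj _ _ (by rw [← hj0, map_zero, zero_mul, zero_smul])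
      map_add' := fun x y => hsinj _ _ (by
        rw [← hj0, add_smul, ← hj0, ← hj0, map_add, add_mul])
      commutes' := fun c => hsinj _ _ (by
        rw [← hj0, AlgHom.commutes, algebraMap_eq_tmul, ← smul_eq_tmul]; rfl) }
  have hj : ∀ v, incl (F := D.F0) U v * e0 = j v • e0 := hj0
  have hmF : m⁻¹ ∈ D.F0 := inv_mem (natCast_mem _ _)
  have hFm : ∀ {T : Subring E}, D.F0.toSubring ≤ T → m⁻¹ ∈ T := fun hT => hT hmF
  have hmem : ∀ (T : Subring E), D.F0.toSubring ≤ T → (∀ l, iota l ∈ T) → e0 ∈ ext eP T →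
      ∀ u : U, j ((1 : E) ⊗ₜ[D.F0] u) ∈ T := by
    intro T hFT hT heT u
    obtain ⟨c, hc, h7⟩ := hkey T hT heT _ (tmul_mem_BS (one_mem _) u)
    have h8 : j ((1 : E) ⊗ₜ[D.F0] u) = m⁻¹ * c := hsinj _ _ (by
      rw [← hj, mul_smul, ← h7, smul_smul, inv_mul_cancel₀ hm0, one_smul])
    rw [h8]; exact mul_mem (hFm hFT) hc
  have hfd := finiteDimensional_sub (D := D) U
  refine ⟨U, e, j, ?_⟩
  refine
    { idem := hee
      smul := fun v => hinj (by rw [map_mul, map_smul, he, hj])
      j_e := hsinj _ _ (by rw [← hj, he, h3, one_smul])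
      iota := fun l => hsinj _ _ (by
        rw [← hj, incl_tmul]
        have h7 : ((1 : E) ⊗ₜ[D.F0] ((algebraMap L U l : U) : K)) * eP = iota l • eP := hP.smul l
        have h8 := congrArg (fun w => w * e0) h7
        simp only [mul_assoc, smul_mul_assoc, h4] at h8
        exact h8)
      mem_Am := hmem Am H.F_le_Am H.iota_Am h1.1
      mem_Ap := hmem Ap H.F_le_Ap H.iota_Ap h1.2
      nonbridge := ?_ }
  intro ε hε δ hδ hεε hδδ hεδ
  rw [mem_edgeOf_VU] at hε
  rw [mem_edgeOf_VP] at hδ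
  apply hinj
  refine Dt.noncut' hin hout _ _ (by rw [← map_mul, hεε]) (by rw [← map_mul, hδδ])
    (incl_mem_BS U hε) (incl_mem_BS U hδ) (fun g hg => rho_incl U g (hUfix g hg) ε)
    (fun g hg => rho_incl U g (hUfix g hg) δ) ?_
  have h7 : (1 - e) * ε = (1 - e) * δ := hεδ
  have h8 := congrArg (incl (F := D.F0) U) h7
  rwa [map_mul, map_mul, map_sub, map_one, he] at h8

end Main

section Cover

variable {E : Type*} [Field E] {D : PatchDatum E} {U : Type*} [Field U] [Algebra D.F0 U]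
  [FiniteDimensional D.F0 U]

variable (D U) in
/-- the embedding `U → E ⊗ U`. -/
noncomputable def jU : U →+* E ⊗[D.F0] U :=
  (Algebra.TensorProduct.includeRight : U →ₐ[D.F0] E ⊗[D.F0] U).toRingHom

theorem jU_apply (u : U) : jU D U u = (1 : E) ⊗ₜ[D.F0] u := rfl

theorem mem_edgeOf_L (e : E ⊗[D.F0] U) (he : e * e = e) (v : E ⊗[D.F0] U) :
    v ∈ (edgeOf e he).L ↔ ∃ u, jU D U u = v := Iff.rfl

theorem F0_mem_edgeOf_L (e : E ⊗[D.F0] U) (he : e * e = e) :
    ∀ z ∈ D.F0, algebraMap E (E ⊗[D.F0] U) z ∈ (edgeOf e he).L := fun z hz =>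
  ⟨algebraMap D.F0 U ⟨z, hz⟩,
    (Algebra.TensorProduct.tmul_one_eq_one_tmul (A := E) (B := U) (⟨z, hz⟩ : D.F0)).symm⟩

theorem jU_algebraMap (z : D.F0) : jU D U (algebraMap D.F0 U z) =
    algebraMap E (E ⊗[D.F0] U) (z : E) :=
  (Algebra.TensorProduct.tmul_one_eq_one_tmul (A := E) (B := U) z).symm

universe u v

/-- The cut cover of a non-bridge. -/
theorem exists_cutCover' {E : Type u} [Field E] [CharZero E] {D : PatchDatum E} {U : Type v} [Field U]
    [Algebra D.F0 U] [FiniteDimensional D.F0 U] (e : E ⊗[D.F0] U) (he : e * e = e) (he0 : e ≠ 0)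
    (hNB : (edgeOf e he).NonBridge) (n : ℕ) [NeZero n] :
    ∃ (W : Type (max v u)) (_ : Field W) (_ : Algebra U W),
      Nonempty (CutCover (edgeOf e he) (jU D U) n W) := by
  have := isReduced_tensor (D := D) (U := U)
  exact exists_cutCover (edgeOf e he) (jU D U) (mem_edgeOf_L e he) (F0_mem_edgeOf_L e he) n hNB he0

end Cover

end Crest.Agent.R013.NB_92
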