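import Crest.Agent.R013.NB3_102

/-!
# Row 13, C-NB, part 4: (T0), (T1): norms over the circle = maximal ideals of `E ⊗ U`, atoms
-/

set_option autoImplicit false

noncomputable section

namespace Crest.Agent.R013.NB_102

open Module Filter Topology
open Crest.Agent.R013.Gl946 Crest.Agent.R013.A2a_275
open scoped NNReal

section Basic

variable {E V U ι : Type*} [NormedField E] [CommRing V] [Algebra E V] [Field U] [Fintype ι]

/-- `Φ` is the evaluation of `V = E ⊗ U` at `κ`. -/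
structure IsEvV (X : Dat E V U ι) {Ω : Type*} [NormedField Ω] (κ : U →+* Ω) (Φ : V →+* Ω) :
    Prop where
  eq : ∀ u, Φ (X.j u) = κ u
  nm : ∀ a : E, ‖Φ (algebraMap E V a)‖ = ‖a‖

variable {X : Dat E V U ι}

theorem GT.exists_isEvV [Nontrivial V] (hd : Dense (X.F0 : Set E)) {w : Valuation U ℝ≥0}
    (h : GT X w) : ∃ Φ : V →+* Cpl w, IsEvV X (toCpl w) Φ := by
  obtain ⟨Φ, h1, h2⟩ := h.exists_evV hd
  exact ⟨Φ, h1, h2⟩

theorem IsEvV.unique (hd : Dense (X.F0 : Set E)) {Ω : Type*} [NormedField Ω] {κ : U →+* Ω}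
    {Φ Ψ : V →+* Ω} (h1 : IsEvV X κ Φ) (h2 : IsEvV X κ Ψ) : Φ = Ψ :=
  evV_unique hd κ Φ Ψ h1.eq h2.eq h1.nm h2.nm

theorem IsEvV.isEv {Ω : Type*} [NormedField Ω] {κ : U →+* Ω} {Φ : V →+* Ω} (h : IsEvV X κ Φ)
    (Q : Reg X.F0) : IsEv Q κ (Φ.comp (X.VR Q.R Q.F0_le).subtype) :=
  ⟨fun u => h.eq u, fun a _ => (h.nm a).le⟩

theorem IsEvV.val0 [Nontrivial V] (Q : Reg X.F0) {w : Valuation U ℝ≥0} (hw : GT X w) {ε : V}
    (hε : ε ∈ X.VR Q.R Q.F0_le) (hεε : ε * ε = ε)
    {Φ : V →+* Cpl w} (h : IsEvV X (toCpl w) Φ) : Val0 Q w ε ↔ Φ ε = 0 :=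
  val0_iff_evV Q hw hε hεε (toCpl w) (norm_toCpl w) Φ h.eq h.nm

/-- The norm of the value only depends on `w`. -/
theorem IsEvV.norm_eq [Nontrivial V] (hd : Dense (X.F0 : Set E)) {Ω Ω' : Type*} [NormedField Ω]
    [IsUltrametricDist Ω] [NormedField Ω'] [IsUltrametricDist Ω'] {κ : U →+* Ω} {κ' : U →+* Ω'}
    {Φ : V →+* Ω} {Φ' : V →+* Ω'} (h : IsEvV X κ Φ) (h' : IsEvV X κ' Φ')
    (he : ∀ u, ‖κ u‖ = ‖κ' u‖) (v : V) : ‖Φ v‖ = ‖Φ' v‖ := by
  classical
  have hmem : v ∈ X.VR (Qtop X hd).R (Qtop X hd).F0_le := fun i => trivial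
  obtain ⟨d, hd0, hap⟩ := exists_apx (Qtop X hd) v hmem
  choose β hβ using X.exists_b
  set B : ℝ := 1 + ∑ i, ‖κ (β i)‖ with hB
  have hB1 : ∀ i, ∀ x : U, X.j x = X.b i → ‖κ x‖ ≤ B := by
    intro i x hx
    have : x = β i := X.j.injective (hx.trans (hβ i).symm)
    rw [this]
    have h1 : ‖κ (β i)‖ ≤ ∑ i, ‖κ (β i)‖ :=
      Finset.single_le_sum (f := fun i => ‖κ (β i)‖) (fun i _ => norm_nonneg _)
        (Finset.mem_univ i)
    linarith
  have hB0 : 0 < B := by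
    have : 0 ≤ ∑ i, ‖κ (β i)‖ := Finset.sum_nonneg fun i _ => norm_nonneg _
    linarith
  have key : ∀ η : ℝ, 0 < η → |‖κ d * Φ v‖ - ‖κ' d * Φ' v‖| ≤ 2 * (η * B) := by
    intro η hη
    obtain ⟨u, hu⟩ := hap η hη
    have b1 := hu.bound (Qtop X hd) hη.le hmem κ _ (h.isEv _) B hB0.le hB1
    have b2 := hu.bound (Qtop X hd) hη.le hmem κ' _ (h'.isEv _) B hB0.le
      (fun i x hx => by rw [← he]; exact hB1 i x hx)
    have c1 := abs_norm_sub_norm_le (κ u) (κ d * Φ v)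
    have c2 := abs_norm_sub_norm_le (κ' u) (κ' d * Φ' v)
    have b1' : ‖κ u - κ d * Φ v‖ ≤ η * B := b1
    have b2' : ‖κ' u - κ' d * Φ' v‖ ≤ η * B := b2
    rw [← he u] at c2
    rw [abs_le] at c1 c2 ⊢
    constructor <;> linarith
  have heq : ‖κ d * Φ v‖ = ‖κ' d * Φ' v‖ := by
    by_contra hne
    have hpos : 0 < |‖κ d * Φ v‖ - ‖κ' d * Φ' v‖| := abs_pos.2 (sub_ne_zero.2 hne)
    have := key (|‖κ d * Φ v‖ - ‖κ' d * Φ' v‖| / (4 * B)) (by positivity)
    have e1 : 2 * (|‖κ d * Φ v‖ - ‖κ' d * Φ' v‖| / (4 * B) * B) =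
        |‖κ d * Φ v‖ - ‖κ' d * Φ' v‖| / 2 := by field_simp; ring
    rw [e1] at this
    linarith
  rw [norm_mul, norm_mul, ← he d] at heq
  exact mul_left_cancel₀ (norm_ne_zero_iff.2 ((map_ne_zero κ).2 hd0)) heq

end Basic

section Complete

variable {E V U ι : Type*} [NontriviallyNormedField E] [IsUltrametricDist E] [CompleteSpace E]
  [CommRing V] [Algebra E V] [Field U] [Fintype ι] {X : Dat E V U ι}

omit [IsUltrametricDist E] [CompleteSpace E] in
theorem isArtinianRing (X : Dat E V U ι) : IsArtinianRing V := by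
  have hfin : Module.Finite E V := Module.Finite.of_basis X.b
  exact IsArtinianRing.of_finite E V

omit [IsUltrametricDist E] [CompleteSpace E] in
theorem ker_isMaximal (X : Dat E V U ι) {Ω : Type*} [Field Ω] (Φ : V →+* Ω) :
    (RingHom.ker Φ).IsMaximal := by
  have := isArtinianRing X
  have h1 : (RingHom.ker Φ).IsPrime := RingHom.ker_isPrime Φ
  exact IsArtinianRing.isMaximal_of_isPrime _

/-- The norm of the value is the spectral norm of the factor. -/
theorem norm_eq_spectral (X : Dat E V U ι) {Ω : Type*} [NormedField Ω] [IsUltrametricDist Ω]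
    (Φ : V →+* Ω) (hΦ : ∀ a : E, ‖Φ (algebraMap E V a)‖ = ‖a‖) (m : Ideal V) [hm : m.IsMaximal]
    (hk : RingHom.ker Φ = m) (v : V) :
    letI : Field (V ⧸ m) := Ideal.Quotient.field m
    ‖Φ v‖ = spectralNorm E (V ⧸ m) (Ideal.Quotient.mk m v) := by
  have hfin : Module.Finite E V := Module.Finite.of_basis X.b
  let _ : Field (V ⧸ m) := Ideal.Quotient.field m
  have hfin2 : Module.Finite E (V ⧸ m) :=
    Module.Finite.of_surjective (Ideal.Quotient.mkₐ E m).toLinearMap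
      (Ideal.Quotient.mkₐ_surjective E m)
  let Ψ : V ⧸ m →+* Ω := Ideal.Quotient.lift m Φ (fun a ha => by rw [← hk] at ha; exact ha)
  have hΨ : ∀ v, Ψ (Ideal.Quotient.mk m v) = Φ v := fun v => Ideal.Quotient.lift_mk _ _ _
  let f : AbsoluteValue (V ⧸ m) ℝ :=
    { toFun := fun x => ‖Ψ x‖
      map_mul' := fun x y => by rw [map_mul, norm_mul]
      nonneg' := fun x => norm_nonneg _
      eq_zero' := fun x => by rw [norm_eq_zero, map_eq_zero]
      add_le' := fun x y => by rw [map_add]; exact norm_add_le _ _ }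
  have hf : ∀ x : E, f (algebraMap E (V ⧸ m) x) = ‖x‖ := by
    intro x
    change ‖Ψ (Ideal.Quotient.mk m (algebraMap E V x))‖ = _
    rw [hΨ, hΦ]
  have h := spectralNorm_unique_field_norm_ext (K := E) (L := V ⧸ m) hf (Ideal.Quotient.mk m v)
  rw [← h]
  change _ = ‖Ψ (Ideal.Quotient.mk m v)‖
  rw [hΨ]

/-- The kernel of the evaluation determines the norm. -/
theorem eq_of_ker {w w' : Valuation U ℝ≥0} {Φ : V →+* Cpl w} {Φ' : V →+* Cpl w'}
    (h : IsEvV X (toCpl w) Φ) (h' : IsEvV X (toCpl w') Φ') (hk : RingHom.ker Φ = RingHom.ker Φ') :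
    w = w' := by
  have hm := ker_isMaximal X Φ
  ext u
  have e1 := norm_eq_spectral X Φ h.nm (RingHom.ker Φ) rfl (X.j u)
  have e2 := norm_eq_spectral X Φ' h'.nm (RingHom.ker Φ) hk.symm (X.j u)
  rw [h.eq, norm_toCpl] at e1
  rw [h'.eq, norm_toCpl] at e2
  rw [e1, e2]

/-- Every maximal ideal is the kernel of an evaluation. -/
theorem exists_GT_ker [Nontrivial V] (hd : Dense (X.F0 : Set E)) (m : Ideal V) [hm : m.IsMaximal] :
    ∃ w : Valuation U ℝ≥0, GT X w ∧ ∀ Φ : V →+* Cpl w, IsEvV X (toCpl w) Φ → RingHom.ker Φ = m := by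
  have hfin : Module.Finite E V := Module.Finite.of_basis X.b
  let _ : Field (V ⧸ m) := Ideal.Quotient.field m
  have hfin2 : Module.Finite E (V ⧸ m) :=
    Module.Finite.of_surjective (Ideal.Quotient.mkₐ E m).toLinearMap
      (Ideal.Quotient.mkₐ_surjective E m)
  obtain ⟨w, hw, hsp, -⟩ := exists_norm_of_field (X := X) (V ⧸ m) (Ideal.Quotient.mkₐ E m)
  refine ⟨w, hw, fun Φ hΦ => ?_⟩
  have : Algebra.IsAlgebraic E (V ⧸ m) := inferInstance
  let nf : NormedField (V ⧸ m) := spectralNorm.normedField E (V ⧸ m)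
  have hum : IsUltrametricDist (V ⧸ m) :=
    IsUltrametricDist.isUltrametricDist_of_isNonarchimedean_norm
      (isNonarchimedean_spectralNorm (K := E) (L := V ⧸ m))
  have hext : ∀ e : E, ‖algebraMap E (V ⧸ m) e‖ = ‖e‖ := fun e => spectralNorm_extends e
  let q : V →+* V ⧸ m := Ideal.Quotient.mk m
  have hq : IsEvV X (q.comp X.j) q := ⟨fun u => rfl, fun a => hext a⟩
  ext v
  rw [RingHom.mem_ker, ← norm_eq_zero, hΦ.norm_eq hd hq (fun u => by
    rw [norm_toCpl, hsp]; rfl) v, norm_eq_zero]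
  exact Ideal.Quotient.eq_zero_iff_mem

/-- **(T1) ATOMS.** -/
theorem exists_atom [Nontrivial V] [IsReduced V] (hd : Dense (X.F0 : Set E))
    {w0 : Valuation U ℝ≥0} (h0 : GT X w0) :
    ∃ e : V, e * e = e ∧ e ≠ 0 ∧
      (∀ Φ : V →+* Cpl w0, IsEvV X (toCpl w0) Φ → Φ e = 1) ∧
      (∀ w : Valuation U ℝ≥0, GT X w → w ≠ w0 → ∀ Φ : V →+* Cpl w, IsEvV X (toCpl w) Φ → Φ e = 0) ∧
      (∀ f : V, f * f = f → e * f = f → f = 0 ∨ f = e) := by
  classical
  have hart := isArtinianRing X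
  obtain ⟨Φ0, hΦ0⟩ := h0.exists_isEvV hd
  let I0 : MaximalSpectrum V := ⟨RingHom.ker Φ0, ker_isMaximal X Φ0⟩
  let θ := IsArtinianRing.equivPi V
  have hθ : ∀ (v : V) (I : MaximalSpectrum V), θ v I = Ideal.Quotient.mk I.asIdeal v :=
    fun v I => rfl
  set e : V := θ.symm (Pi.single I0 1) with he
  have hθe : θ e = Pi.single I0 1 := θ.apply_symm_apply _
  have hmem : ∀ I : MaximalSpectrum V, I ≠ I0 → e ∈ I.asIdeal := by
    intro I hI
    rw [← Ideal.Quotient.eq_zero_iff_mem, ← hθ, hθe, Pi.single_eq_of_ne hI]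
  have h1mem : 1 - e ∈ I0.asIdeal := by
    rw [← Ideal.Quotient.eq_zero_iff_mem, map_sub, map_one, ← hθ, hθe, Pi.single_eq_same, sub_self]
  have hee : e * e = e := by
    apply θ.injective
    rw [map_mul, hθe, ← Pi.single_mul, one_mul]
  have hΦe : Φ0 e = 1 := by
    have h1 : Φ0 (1 - e) = 0 := h1mem
    rw [map_sub, map_one, sub_eq_zero] at h1
    exact h1.symm
  refine ⟨e, hee, ?_, ?_, ?_, ?_⟩
  · intro h
    rw [h, map_zero] at hΦe
    exact zero_ne_one hΦe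
  · intro Φ hΦ
    rw [hΦ.unique hd hΦ0]; exact hΦe
  · intro w hw hne Φ hΦ
    let I : MaximalSpectrum V := ⟨RingHom.ker Φ, ker_isMaximal X Φ⟩
    have hI : I ≠ I0 := by
      intro h
      exact hne (eq_of_ker hΦ hΦ0 (congrArg MaximalSpectrum.asIdeal h))
    exact hmem I hI
  · intro f hf hef
    have h1 : ∀ I : MaximalSpectrum V, I ≠ I0 → θ f I = 0 := by
      intro I hI
      rw [hθ, Ideal.Quotient.eq_zero_iff_mem, ← hef]
      exact I.asIdeal.mul_mem_right _ (hmem I hI)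
    have hm0 := I0.isMaximal
    let _ : Field (V ⧸ I0.asIdeal) := Ideal.Quotient.field I0.asIdeal
    rcases idem_zero_or_one (Ideal.Quotient.mk I0.asIdeal) hf with h2 | h2
    · left
      apply θ.injective
      rw [map_zero]
      funext I
      by_cases hI : I = I0
      · subst hI; exact h2
      · exact h1 I hI
    · right
      apply θ.injective
      funext I
      by_cases hI : I = I0
      · subst hI
        rw [hθe, Pi.single_eq_same]; exact h2
      · rw [h1 I hI, hθe, Pi.single_eq_of_ne hI]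

end Complete

end Crest.Agent.R013.NB_102
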