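import Crest.Agent.R013.NB3_92
import Crest.Agent.R013.Lift7_903
import Crest.Agent.R013.Gl14_946
import Crest.Agent.R013.BTor4_914

/-!
# B-NB, part 4: re-patching a class at a circle

`K` a finite extension of `F = k(y) ⊆ E` (`E`, `y` the circle field of 946).  A class `h ∈ K^×` which is
an `N`-th power times a `1`-unit at every norm over the Gauss norm of `F` is replaced by
`h' = a^N = h d^N` with `a` a unit of `RU ⊗ K`, `d` a unit of `FP ⊗ K`.
-/

set_option autoImplicit false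
set_option linter.unusedSectionVars false
set_option linter.style.haveILetI false

namespace Crest.Agent.R013.NB_92

open Module TensorProduct Polynomial Crest.Agent.R013.Gl946 Crest.Agent.R013.Lift903
open scoped NNReal
open Crest.Agent.R013.A2a_275 (Cpl toCpl norm_toCpl denseRange_toCpl)
open Crest.NumberTheoryR.Sect (IsPlace)

attribute [local instance] Algebra.TensorProduct.rightAlgebra

section Algk

variable {k E : Type*} [NormedField k] [NormedField E] [NormedAlgebra k E] {y : E}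

/-- the constants in `k(y)` -/
@[reducible] noncomputable def algKY (hG : IsGauss k y) : Algebra k (KY hG) :=
  ((algebraMap k E).codRestrict (KY hG) (const_mem_KY hG)).toAlgebra

theorem algKY_tower (hG : IsGauss k y) : letI := algKY hG; IsScalarTower k (KY hG) E :=
  letI := algKY hG
  IsScalarTower.of_algebraMap_eq fun _ => rfl

theorem hgen_KY (hG : IsGauss k y) : letI := algKY hG;
    ∀ x : KY hG, ∃ f g : k[X], aeval (⟨y, y_mem_KY hG⟩ : KY hG) g ≠ 0 ∧
      x = aeval (⟨y, y_mem_KY hG⟩ : KY hG) f / aeval (⟨y, y_mem_KY hG⟩ : KY hG) g := by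
  letI := algKY hG
  haveI := algKY_tower hG
  have key : ∀ f : k[X], ((aeval (⟨y, y_mem_KY hG⟩ : KY hG) f : KY hG) : E) = aeval y f := by
    intro f
    have := aeval_algebraMap_apply (R := k) (A := KY hG) E (⟨y, y_mem_KY hG⟩ : KY hG) f
    exact this.symm
  rintro ⟨_, f, g, hg, rfl⟩
  refine ⟨f, g, ?_, ?_⟩
  · intro h0
    have h1 := key g
    rw [h0] at h1
    exact hG.aeval_ne_zero hg h1.symm
  · apply Subtype.ext
    change aeval y f / aeval y g = ((aeval (⟨y, y_mem_KY hG⟩ : KY hG) f /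
      aeval (⟨y, y_mem_KY hG⟩ : KY hG) g : KY hG) : E)
    push_cast
    rw [key, key]

end Algk

/-- `K` is dense in its completion, multiplicative form -/
theorem denseIn_toCpl {K : Type*} [Field K] (w : Valuation K ℝ≥0) :
    DenseIn (NormedField.valuation (K := Cpl w)) (toCpl w) := by
  intro α hα
  have hpos : 0 < ‖α‖ := norm_pos_iff.2 hα
  obtain ⟨g, hg⟩ := Metric.denseRange_iff.1 (denseRange_toCpl w) α ‖α‖ hpos
  refine ⟨g, ?_⟩
  rw [dist_comm, dist_eq_norm] at hg
  exact hg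

section Repatch

variable {k E : Type*} [NontriviallyNormedField k] [CompleteSpace k] [IsUltrametricDist k]
  [NontriviallyNormedField E] [NormedAlgebra k E] [IsUltrametricDist E] [CompleteSpace E] {y : E}
  (hG : IsGauss k y) {π : k} (hπ : IsUnif π) (hd : DenseRat k y)

universe u t

include hπ hd in
/-- **Re-patching.** -/
theorem repatch {K : Type u} [Field K] [Algebra (KY hG) K] [Algebra k K]
    [FiniteDimensional (KY hG) K] [Algebra.IsSeparable (KY hG) K]
    (hk : ∀ c : k, algebraMap (KY hG) K ⟨algebraMap k E c, const_mem_KY hG c⟩ = algebraMap k K c)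
    (N : ℕ) (hN : ‖(N : E)‖ = 1) (h : K) (h0 : h ≠ 0)
    (hf : ∀ w : Valuation K ℝ≥0, (∀ a : KY hG, w (algebraMap (KY hG) K a) = ‖(a : E)‖₊) →
      ∃ g : K, w (h - g ^ N) < w h) :
    ∃ h' : K, h' ≠ 0 ∧
      (∃ (d : ℕ) (c : Fin d → RU k y) (m : Fin d → K),
        ∀ (T : Type t) (_ : CommRing T) (ρ : RU k y →+* T) (κ : K →+* T),
          (∀ x : KY hG, ρ ⟨x, KY_le_RU hG x.2⟩ = κ (algebraMap (KY hG) K x)) →
          (∑ i, ρ (c i) * κ (m i)) ^ N = κ h') ∧
      (∀ w : Valuation K ℝ≥0, ((∀ c : k, w (algebraMap k K c) = ‖c‖₊) ∨ IsPlace k w) →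
        ∃ g : K, g ≠ 0 ∧ (w (h' / g ^ N - 1) < 1 ∨ w (h' / (h * g ^ N) - 1) < 1)) ∧
      (∀ w : Valuation K ℝ≥0, (∀ c : k, w (algebraMap k K c) = ‖c‖₊) →
        w (algebraMap (KY hG) K ⟨y, y_mem_KY hG⟩) < 1 →
        ∃ g : K, g ≠ 0 ∧ w (h' / (h * g ^ N) - 1) < 1) := by
  classical
  letI := algKY hG
  haveI := algKY_tower hG
  haveI : IsScalarTower k (KY hG) K := IsScalarTower.of_algebraMap_eq fun c => (hk c).symm
  have hN0 : N ≠ 0 := by
    rintro rfl
    rw [Nat.cast_zero, norm_zero] at hN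
    exact zero_ne_one hN
  let b := Module.finBasis (KY hG) K
  have hF : ∀ x : KY hG, algebraMap (KY hG) E x ∈ KY hG := fun x => x.2
  have hF' : ∀ z : E, z ∈ KY hG → z ∈ Set.range (algebraMap (KY hG) E) := fun z hz => ⟨⟨z, hz⟩, rfl⟩
  obtain ⟨h', hh0, a, ha, a', ha', d, hd1, d', hd1', e1, e2, e3, e4⟩ :=
    patch_E hG hπ hd b hF hF' N hN 1 h one_ne_zero h0 (by
      intro w hw
      obtain ⟨g, hg⟩ := hf w (fun a => hw a)
      have hg0 : g ≠ 0 := by
        rintro rfl
        rw [zero_pow hN0, sub_zero] at hg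
        exact lt_irrefl _ hg
      have hgN : w (g ^ N) = w h := by
        have : g ^ N = h - (h - g ^ N) := by ring
        rw [this]
        exact Valuation.map_sub_eq_of_lt_left _ hg
      have hwh : 0 < w h := zero_lt_iff.2 (w.ne_zero_iff.2 h0)
      refine ⟨g⁻¹, inv_ne_zero hg0, ?_⟩
      have hgN0 : g ^ N ≠ 0 := pow_ne_zero _ hg0
      have e : 1 / h - g⁻¹ ^ N = -(h - g ^ N) / (h * g ^ N) := by
        rw [inv_pow]
        field_simp
        ring
      rw [e, map_div₀, Valuation.map_neg, map_mul, hgN, map_div₀, map_one, div_lt_div_iff₀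
        (mul_pos hwh hwh) hwh, one_mul]
      exact mul_lt_mul_of_pos_right hg hwh)
  rw [map_one, one_mul] at e3
  refine ⟨h', hh0, ⟨_, fun i => ⟨_, ha i⟩, b, ?_⟩, ?_, ?_⟩
  · intro T _ ρ κ hρκ
    have hc : ∀ x : KY hG, ρ ⟨algebraMap (KY hG) E x, algebraMap_mem_RU hG hF x⟩ =
        κ (algebraMap (KY hG) K x) := fun x => hρκ x
    have h1 : ev (isBC_tensor (E := E) b) (algebraMap_mem_RU hG hF) ρ κ hc ⟨a, ha⟩ ^ N = κ h' := by
      rw [← ev_algebraMap (isBC_tensor (E := E) b) (algebraMap_mem_RU hG hF) ρ κ hc h', ← map_pow]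
      congr 1
      exact Subtype.ext e3.symm
    exact h1
  · intro w hw
    have hF0 : ∀ z, z ∈ KY hG ↔ ∃ f : KY hG, algebraMap (KY hG) E f = z :=
      fun z => ⟨fun hz => ⟨⟨z, hz⟩, rfl⟩, by rintro ⟨f, rfl⟩; exact f.2⟩
    haveI : Algebra.IsAlgebraic (KY hG) K := Algebra.IsAlgebraic.of_finite _ _
    rcases exists_map_val hG hF0 hπ hd w hw with ⟨Φ, h1, -⟩ | ⟨Φ, h1, -⟩
    · obtain ⟨g, hg, h2⟩ := lift_val (isBC_tensor (E := E) b) (algebraMap_mem_RU hG hF) w
        (NormedField.valuation (K := Cpl w)) (toCpl w)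
        (fun x => by
          have := norm_toCpl w x
          exact NNReal.eq this) (denseIn_toCpl w) Φ (fun x => h1 x _) N h' 1
        one_ne_zero a a' ha ha' e1 (by rw [map_one, one_mul]; exact e3)
      exact ⟨g, hg, Or.inl (by rwa [one_mul] at h2)⟩
    · obtain ⟨g, hg, h2⟩ := lift_val (isBC_tensor (E := E) b) (algebraMap_mem_FP hG hπ hd hF) w
        (NormedField.valuation (K := Cpl w)) (toCpl w)
        (fun x => by
          have := norm_toCpl w x
          exact NNReal.eq this) (denseIn_toCpl w) Φ (fun x => h1 x _) N h' h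
        h0 d d' hd1 hd1' e2 e4
      exact ⟨g, hg, Or.inr h2⟩
  · intro w hw hy1
    exact pointwise_P hG hπ hd (yF := (⟨y, y_mem_KY hG⟩ : KY hG)) rfl (hgen_KY hG) b hF N h' h h0 d d'
      hd1 hd1' e2 e4 w (Or.inl ⟨fun c => (hw c).le, hy1⟩)

end Repatch

end Crest.Agent.R013.NB_92
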