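import Crest.Agent.R013.NB4_102
import Crest.Agent.R013.CutCov2_92

/-!
# Row 13, C-NB, part 5: the two sides of 946's circle `|y| = 1`
-/

set_option autoImplicit false

noncomputable section

namespace Crest.Agent.R013.NB_102

open Module Filter Topology Polynomial
open Crest.Agent.R013.Gl946 Crest.Agent.R013.A2a_275 Crest.Agent.R013.CutCov_92
open scoped NNReal

section Circle

variable {k E : Type*} [NormedField k] [NormedField E] [NormedAlgebra k E] {y : E}
  (hG : IsGauss k y)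

/-- the outer side: `k[1/y]`, `RU` -/
def QU (hG : IsGauss k y) (F0 : Subfield E) (hF : ∀ z : E, z ∈ F0 ↔ z ∈ KY hG) : Reg F0 where
  S0 := (aeval (y⁻¹) : k[X] →ₐ[k] E).range.toSubring
  le := by
    rintro _ ⟨f, rfl⟩
    exact (hF _).2 (aeval_inv_mem_KY hG f)
  fr z hz := by
    obtain ⟨p, q, hq, e⟩ := KY_inv_rep hG ((hF z).1 hz)
    exact ⟨_, ⟨p, rfl⟩, _, ⟨q, rfl⟩, hq, e⟩
  R := RU k y
  hR z := Iff.rfl

/-- the inner side: `AP0`, `FP` -/
def QP [IsUltrametricDist E] [CompleteSpace E] [CompleteSpace k] (hG : IsGauss k y) {π : k}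
    (hπ : IsUnif π) (hd : DenseRat k y) (F0 : Subfield E)
    (hF : ∀ z : E, z ∈ F0 ↔ z ∈ KY hG) : Reg F0 where
  S0 := (AP0alg hG).toSubring
  le := by
    rintro _ ⟨f, g, h1, h2, rfl⟩
    exact (hF _).2 ⟨f, g, by rintro rfl; simp at h2, rfl⟩
  fr z hz := by
    obtain ⟨f, g, hg, e⟩ := (hF z).1 hz
    refine ⟨aeval y f, ⟨f, 1, ?_, ?_, ?_⟩, aeval y g, ⟨g, 1, ?_, ?_, ?_⟩, hG.aeval_ne_zero hg, e⟩
    · rw [map_one, norm_one]
    · simp
    · rw [map_one, div_one]
    · rw [map_one, norm_one]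
    · simp
    · rw [map_one, div_one]
  R := (FP hG hπ hd).toSubring
  hR z := by
    constructor
    · intro hz
      obtain ⟨a, ha, g, hg, e⟩ := (mem_FP hG hπ hd z).1 hz
      refine ⟨a, ha, aeval y g, ⟨g, 1, ?_, ?_, ?_⟩, hG.aeval_ne_zero hg, e⟩
      · rw [map_one, norm_one]
      · simp
      · rw [map_one, div_one]
    · rintro ⟨a, ha, d, ⟨f, g, h1, h2, rfl⟩, hd0, rfl⟩
      have hg : g ≠ 0 := by rintro rfl; simp at h2
      have hf : f ≠ 0 := by rintro rfl; rw [map_zero, zero_div] at hd0; exact hd0 rfl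
      refine (mem_FP hG hπ hd _).2 ⟨a * aeval y g, mul_mem ha (aeval_mem_AP hG g), f, hf, ?_⟩
      rw [div_div_eq_mul_div]

section Norms

variable {V U ι : Type*} [CommRing V] [Algebra E V] [Field U] [Fintype ι] [Algebra k U]

/-- `w` is the norm of `k` on constants -/
def NK (k : Type*) {U : Type*} [NormedField k] [Field U] [Algebra k U]
    (w : Valuation U ℝ≥0) : Prop := ∀ c : k, (w (algebraMap k U c) : ℝ) = ‖c‖

theorem NK.poly_le {w : Valuation U ℝ≥0} (h : NK k w) (t : U) (ht : w t ≤ 1) (f : k[X]) {r : ℝ}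
    (hr : 0 ≤ r) (hf : ∀ i, ‖f.coeff i‖ ≤ r) : (w (aeval t f) : ℝ) ≤ r := by
  lift r to ℝ≥0 using hr
  have h1 : w (aeval t f) ≤ r := by
    rw [aeval_eq_sum_range]
    refine Valuation.map_sum_le w fun i _ => ?_
    rw [Algebra.smul_def, map_mul, map_pow]
    have h2 : w (algebraMap k U (f.coeff i)) ≤ r := by
      rw [← NNReal.coe_le_coe, h (f.coeff i)]
      exact hf i
    calc w (algebraMap k U (f.coeff i)) * w t ^ i ≤ r * 1 :=
          mul_le_mul' h2 (pow_le_one₀ (zero_le) ht)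
      _ = r := mul_one _
  exact_mod_cast h1

variable {X : Dat E V U ι} (hF : ∀ z : E, z ∈ X.F0 ↔ z ∈ KY hG)
  (hk : ∀ c : k, X.j (algebraMap k U c) = algebraMap E V (algebraMap k E c))
  {yU : U} (hy : X.j yU = algebraMap E V y)

include hk in
theorem j_aeval (t : U) (s : E) (ht : X.j t = algebraMap E V s) (f : k[X]) :
    X.j (aeval t f) = algebraMap E V (aeval s f) := by
  rw [aeval_eq_sum_range, aeval_eq_sum_range, map_sum, map_sum]
  refine Finset.sum_congr rfl fun i _ => ?_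
  rw [Algebra.smul_def, Algebra.smul_def, map_mul, map_mul, map_pow, map_pow, hk, ht]

include hk hy in
theorem bdU [Nontrivial V] {w : Valuation U ℝ≥0} (h : NK k w) (h1 : 1 ≤ w yU) :
    BdV (QU hG X.F0 hF) w := by
  rintro _ ⟨f, rfl⟩ u hu
  change X.j u = algebraMap E V (aeval (y⁻¹) f) at hu
  change (w u : ℝ) ≤ ‖aeval (y⁻¹) f‖
  have hyi : X.j yU⁻¹ = algebraMap E V y⁻¹ := by
    have h2 : X.j yU * X.j yU⁻¹ = 1 := by
      rw [← map_mul, mul_inv_cancel₀ (by rintro rfl; simp at h1), map_one]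
    have h3 : algebraMap E V y * algebraMap E V y⁻¹ = 1 := by
      rw [← map_mul, mul_inv_cancel₀ hG.ne_zero, map_one]
    rw [hy] at h2
    calc X.j yU⁻¹ = (algebraMap E V y * algebraMap E V y⁻¹) * X.j yU⁻¹ := by rw [h3, one_mul]
      _ = algebraMap E V y⁻¹ * (algebraMap E V y * X.j yU⁻¹) := by ring
      _ = _ := by rw [h2, mul_one]
  have hu2 : u = aeval yU⁻¹ f := X.j.injective (by rw [hu, j_aeval hk _ _ hyi])
  rw [hu2]
  refine h.poly_le _ ?_ f (norm_nonneg _) (hG.inv.coeff_le f)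
  rw [map_inv₀]
  exact inv_le_one_of_one_le₀ h1

include hk hy in
theorem bdP [IsUltrametricDist E] [CompleteSpace E] [CompleteSpace k] {π : k} (hπ : IsUnif π)
    (hd : DenseRat k y) [Nontrivial V] {w : Valuation U ℝ≥0} (h : NK k w) (h1 : w yU < 1) :
    BdV (QP hG hπ hd X.F0 hF) w := by
  rintro _ ⟨f, g, hg1, hg0, rfl⟩ u hu
  have hgn := hG.norm_of_coeff_zero g hg1 hg0
  have hgne : g ≠ 0 := by rintro rfl; simp at hg0
  -- `w (g(y)) = 1`
  have hwg : w (aeval yU g) = 1 := by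
    have e1 : aeval yU g = aeval yU g.divX * yU + 1 := by
      conv_lhs => rw [← divX_mul_X_add g, hg0]
      simp
    have e2 : w (aeval yU g.divX * yU) < 1 := by
      rw [map_mul]
      have e3 : w (aeval yU g.divX) ≤ 1 := by
        have := h.poly_le yU h1.le g.divX zero_le_one fun i => by
          rw [coeff_divX]; exact (hG.coeff_le g _).trans hg1
        exact_mod_cast this
      calc _ ≤ 1 * w yU := mul_le_mul_left e3 _
        _ < 1 := by rw [one_mul]; exact h1
    rw [e1, Valuation.map_add_eq_of_lt_right w (by rw [map_one]; exact e2), map_one]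
  have hu2 : u * aeval yU g = aeval yU f := by
    apply X.j.injective
    rw [map_mul, hu, j_aeval hk _ _ hy, j_aeval hk _ _ hy, ← map_mul,
      div_mul_cancel₀ _ (hG.aeval_ne_zero hgne)]
  have hwu : w u = w (aeval yU f) := by
    rw [← hu2, map_mul, hwg, mul_one]
  rw [hwu, norm_div, hgn, div_one]
  exact h.poly_le _ h1.le f (norm_nonneg _) (hG.coeff_le f)

include hF hk hy in
theorem gt_of_poly [Nontrivial V] {w : Valuation U ℝ≥0}
    (h : ∀ f : k[X], (w (aeval yU f) : ℝ) = ‖aeval y f‖) : GT X w := by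
  intro z hz u hu
  obtain ⟨f, g, hg, rfl⟩ := (hF z).1 hz
  have hu2 : u * aeval yU g = aeval yU f := by
    apply X.j.injective
    rw [map_mul, hu, j_aeval hk _ _ hy, j_aeval hk _ _ hy, ← map_mul,
      div_mul_cancel₀ _ (hG.aeval_ne_zero hg)]
  have h1 : (w u : ℝ) * ‖aeval y g‖ = ‖aeval y f‖ := by
    rw [← h g, ← h f, ← hu2, map_mul, NNReal.coe_mul]
  rw [norm_div, eq_div_iff (norm_ne_zero_iff.2 (hG.aeval_ne_zero hg)), h1]

include hF hk hy in
theorem GT.poly {w : Valuation U ℝ≥0} (h : GT X w) (f : k[X]) :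
    (w (aeval yU f) : ℝ) = ‖aeval y f‖ :=
  h _ ((hF _).2 (aeval_mem_KY hG f)) _ (j_aeval hk _ _ hy f)

include hG in
/-- **A path leaves `|y| < 1` only through norms over the circle.** -/
theorem poly_of_frequently [IsUltrametricDist E] {T : Type*} [TopologicalSpace T]
    (w : T → Valuation U ℝ≥0) (t0 : T) (hc : ∀ u, ContinuousAt (fun t => w t u) t0)
    (hNK : ∀ t, NK k (w t)) (h1 : w t0 yU = 1) (hfr : ∃ᶠ t in 𝓝 t0, w t yU < 1) (f : k[X]) :
    (w t0 (aeval yU f) : ℝ) = ‖aeval y f‖ := by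
  classical
  rcases eq_or_ne f 0 with rfl | hf0
  · rw [map_zero, map_zero, map_zero, norm_zero]; rfl
  have hc' : ∀ u, ContinuousAt (fun t => (w t u : ℝ)) t0 := fun u =>
    NNReal.continuous_coe.continuousAt.comp (hc u)
  obtain ⟨m, hm, hlt⟩ := hG.exists_index hf0
  set M : ℝ := ‖aeval y f‖ with hM
  have hM0 : 0 < M := norm_pos_iff.2 (hG.aeval_ne_zero hf0)
  -- bound for the small coefficients
  obtain ⟨θ, hθ0, hθM, hθ⟩ : ∃ θ : ℝ, 0 ≤ θ ∧ θ < M ∧ ∀ i < m, ‖f.coeff i‖ ≤ θ := by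
    rcases Nat.eq_zero_or_pos m with hm0 | hm0
    · exact ⟨0, le_rfl, hM0, fun i hi => by omega⟩
    · have hs : (Finset.range m).Nonempty := ⟨0, Finset.mem_range.2 hm0⟩
      refine ⟨(Finset.range m).sup' hs fun i => ‖f.coeff i‖, ?_, ?_, ?_⟩
      · exact (norm_nonneg (f.coeff 0)).trans
          (Finset.le_sup' (fun i => ‖f.coeff i‖) (Finset.mem_range.2 hm0))
      · rw [Finset.sup'_lt_iff]
        exact fun i hi => hlt i (Finset.mem_range.1 hi)
      · intro i hi
        exact Finset.le_sup' (fun i => ‖f.coeff i‖) (Finset.mem_range.2 hi)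
  set F : Filter T := 𝓝 t0 ⊓ 𝓟 {t | w t yU < 1} with hFdef
  have hne : F.NeBot := by
    rw [hFdef]
    exact frequently_mem_iff_neBot.1 hfr
  have hlim : Tendsto (fun t => (w t (aeval yU f) : ℝ)) F (𝓝 (w t0 (aeval yU f))) :=
    (hc' _).tendsto.mono_left inf_le_left
  have hlim2 : Tendsto (fun t => M * (w t yU : ℝ) ^ m) F (𝓝 (M * 1 ^ m)) := by
    have h2 : Tendsto (fun t => (w t yU : ℝ)) F (𝓝 1) := by
      have := (hc' yU).tendsto.mono_left (inf_le_left : F ≤ 𝓝 t0)
      rw [h1] at this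
      exact this
    exact (h2.pow m).const_mul M
  have hev : ∀ᶠ t in F, θ < M * (w t yU : ℝ) ^ m :=
    hlim2.eventually (lt_mem_nhds (by rw [one_pow, mul_one]; exact hθM))
  have hev2 : ∀ᶠ t in F, w t yU < 1 := mem_inf_of_right (mem_principal_self _)
  have hev3 : ∀ᶠ t in F, 0 < w t yU := by
    have h2 : Tendsto (fun t => w t yU) F (𝓝 1) := by
      have := (hc yU).tendsto.mono_left (inf_le_left : F ≤ 𝓝 t0)
      rw [h1] at this
      exact this
    exact h2.eventually (lt_mem_nhds one_pos)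
  have heq : ∀ᶠ t in F, (w t (aeval yU f) : ℝ) = M * (w t yU : ℝ) ^ m := by
    filter_upwards [hev, hev2, hev3] with t h2 h3 h4
    -- the terms
    have hterm : ∀ i, (w t (f.coeff i • yU ^ i) : ℝ) = ‖f.coeff i‖ * (w t yU : ℝ) ^ i := by
      intro i
      rw [Algebra.smul_def, map_mul, map_pow, NNReal.coe_mul, hNK t, NNReal.coe_pow]
    have hw1 : (w t yU : ℝ) < 1 := by exact_mod_cast h3
    have hw0 : (0 : ℝ) < w t yU := by exact_mod_cast h4
    have hlt' : ∀ i, i ≠ m → (w t (f.coeff i • yU ^ i) : ℝ) < M * (w t yU : ℝ) ^ m := by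
      intro i hi
      rw [hterm]
      rcases lt_or_gt_of_ne hi with h | h
      · calc ‖f.coeff i‖ * (w t yU : ℝ) ^ i ≤ θ * 1 :=
              mul_le_mul (hθ i h) (pow_le_one₀ hw0.le hw1.le) (by positivity) hθ0
          _ = θ := mul_one _
          _ < _ := h2
      · calc ‖f.coeff i‖ * (w t yU : ℝ) ^ i ≤ M * (w t yU : ℝ) ^ i :=
              mul_le_mul_of_nonneg_right (hG.coeff_le f i) (by positivity)
          _ < M * (w t yU : ℝ) ^ m :=
              mul_lt_mul_of_pos_left (pow_lt_pow_right_of_lt_one₀ hw0 hw1 h) hM0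
    have hmm : (w t (f.coeff m • yU ^ m) : ℝ) = M * (w t yU : ℝ) ^ m := by
      rw [hterm, hm]
    have hmr : m ∈ Finset.range (f.natDegree + 1) := by
      rw [Finset.mem_range]
      by_contra hcon
      have : f.coeff m = 0 := coeff_eq_zero_of_natDegree_lt (by omega)
      rw [this, norm_zero] at hm
      exact hM0.ne hm
    have hsum : aeval yU f = f.coeff m • yU ^ m +
        ∑ i ∈ (Finset.range (f.natDegree + 1)).erase m, f.coeff i • yU ^ i := by
      rw [aeval_eq_sum_range]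
      exact (Finset.add_sum_erase _ (fun i => f.coeff i • yU ^ i) hmr).symm
    have hrest : w t (∑ i ∈ (Finset.range (f.natDegree + 1)).erase m, f.coeff i • yU ^ i) <
        w t (f.coeff m • yU ^ m) := by
      refine Valuation.map_sum_lt' (w t) ?_ fun i hi => ?_
      · rw [← NNReal.coe_lt_coe, hmm, NNReal.coe_zero]; positivity
      · rw [← NNReal.coe_lt_coe, hmm]
        exact hlt' i (Finset.ne_of_mem_erase hi)
    rw [hsum, Valuation.map_add_eq_of_lt_left _ hrest, hmm]
  have h5 := tendsto_nhds_unique (hlim.congr' heq) hlim2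
  rw [h5, one_pow, mul_one]

end Norms

end Circle

end Crest.Agent.R013.NB_102
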