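import Crest.Agent.R013.NB5_102

/-!
# Row 13, C-NB, part 6: LOOP ⇒ NonBridge

`w0` a norm of `U` over the circle `|y| = 1`, `e` the atom of `w0` in `V = E ⊗ U`.  If a path of norms
with `|y| ≥ 1` and a path of norms with `|y| < 1` (except at `w0`) start at `w0` and their ends are
joined by a path of norms `≠ w0`, then `e` is not a bridge.
-/

set_option autoImplicit false
set_option linter.unusedSectionVars false
set_option linter.unusedTactic false

noncomputable section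

namespace Crest.Agent.R013.NB_102

open Module Filter Topology Polynomial
open Crest.Agent.R013.Gl946 Crest.Agent.R013.A2a_275 Crest.Agent.R013.CutCov_92
open scoped NNReal

/-- A locally constant predicate on a preconnected space is constant. -/
theorem const_of_eventually {T : Type*} [TopologicalSpace T] [PreconnectedSpace T] (P : T → Prop)
    (h : ∀ t0, ∀ᶠ t in 𝓝 t0, (P t ↔ P t0)) (s t : T) : P s ↔ P t := by
  have hcl : IsClopen {t | P t} := by
    refine ⟨⟨?_⟩, ?_⟩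
    · rw [isOpen_iff_mem_nhds]
      intro t0 ht0
      filter_upwards [h t0] with t ht h1
      exact ht0 (ht.1 h1)
    · rw [isOpen_iff_mem_nhds]
      intro t0 ht0
      filter_upwards [h t0] with t ht
      exact ht.2 ht0
  rcases isClopen_iff.1 hcl with h1 | h1
  · have a : ¬ P s := fun hs => (Set.eq_empty_iff_forall_notMem.1 h1 s) hs
    have b : ¬ P t := fun hs => (Set.eq_empty_iff_forall_notMem.1 h1 t) hs
    exact ⟨fun h => absurd h a, fun h => absurd h b⟩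
  · have a : P s := (Set.eq_univ_iff_forall.1 h1 s)
    have b : P t := (Set.eq_univ_iff_forall.1 h1 t)
    exact ⟨fun _ => b, fun _ => a⟩

section Loop

variable {k E : Type*} [NormedField k] [CompleteSpace k] [NormedField E] [NormedAlgebra k E]
  [IsUltrametricDist E] [CompleteSpace E] {y : E}
  (hG : IsGauss k y) {π : k} (hπ : IsUnif π) (hd : DenseRat k y)

theorem dense_F0 {y : E} (hd : DenseRat k y) (hG : IsGauss k y) (F0 : Subfield E)
    (hF : ∀ z : E, z ∈ F0 ↔ z ∈ KY hG) : Dense (F0 : Set E) := by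
  intro x
  rw [Metric.mem_closure_iff]
  intro η hη
  obtain ⟨f, g, hg, h⟩ := hd x η hη
  refine ⟨aeval y f / aeval y g, (hF _).2 ⟨f, g, hg, rfl⟩, ?_⟩
  rw [dist_eq_norm]; exact h

section Abs

variable {V U ι : Type*} [CommRing V] [Algebra E V] [Nontrivial V] [Field U] [Fintype ι]
  [Algebra k U] {X : Dat E V U ι} (hF : ∀ z : E, z ∈ X.F0 ↔ z ∈ KY hG)
  (hk : ∀ c : k, X.j (algebraMap k U c) = algebraMap E V (algebraMap k E c))
  {yU : U} (hy : X.j yU = algebraMap E V y)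

/-- The label: `δ` inside, `ε` outside. -/
def Lab (yU : U) (ε δ : V) (w : Valuation U ℝ≥0) : Prop :=
  (w yU < 1 → Val0 (QP hG hπ hd X.F0 hF) w δ) ∧ (1 ≤ w yU → Val0 (QU hG X.F0 hF) w ε)

omit [Nontrivial V] [Algebra k U] in
theorem lab_in {ε δ : V} {w : Valuation U ℝ≥0} (h : w yU < 1) :
    Lab hG hπ hd hF yU ε δ w ↔ Val0 (QP hG hπ hd X.F0 hF) w δ :=
  ⟨fun H => H.1 h, fun H => ⟨fun _ => H, fun h' => absurd h (not_lt.2 h')⟩⟩

omit [Nontrivial V] [Algebra k U] in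
theorem lab_out {ε δ : V} {w : Valuation U ℝ≥0} (h : 1 ≤ w yU) :
    Lab hG hπ hd hF yU ε δ w ↔ Val0 (QU hG X.F0 hF) w ε :=
  ⟨fun H => H.2 h, fun H => ⟨fun h' => absurd h' (not_lt.2 h), fun _ => H⟩⟩

include hk hy in
/-- The label is locally constant, if it is consistent at the norms over the circle. -/
theorem lab_eventually {ε δ : V} (hε : ε ∈ X.VR (QU hG X.F0 hF).R (QU hG X.F0 hF).F0_le)
    (hδ : δ ∈ X.VR (QP hG hπ hd X.F0 hF).R (QP hG hπ hd X.F0 hF).F0_le)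
    (hεε : ε * ε = ε) (hδδ : δ * δ = δ) {T : Type*} [TopologicalSpace T]
    (w : T → Valuation U ℝ≥0) (t0 : T) (hc : ∀ u, ContinuousAt (fun t => w t u) t0)
    (hNK : ∀ t, NK k (w t))
    (hcons : GT X (w t0) → (Val0 (QU hG X.F0 hF) (w t0) ε ↔ Val0 (QP hG hπ hd X.F0 hF) (w t0) δ)) :
    ∀ᶠ t in 𝓝 t0, (Lab hG hπ hd hF yU ε δ (w t) ↔ Lab hG hπ hd hF yU ε δ (w t0)) := by
  rcases lt_trichotomy (w t0 yU) 1 with h | h | h
  · have h1 := eventually_val0 (QP hG hπ hd X.F0 hF) hδ hδδ w t0 hc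
      (bdP hG hF hk hy hπ hd (hNK t0) h)
    have h2 : ∀ᶠ t in 𝓝 t0, w t yU < 1 := (hc yU).eventually (gt_mem_nhds h)
    filter_upwards [h1, h2] with t h3 h4
    rw [lab_in hG hπ hd hF h4, lab_in hG hπ hd hF h]
    exact h3 (bdP hG hF hk hy hπ hd (hNK t) h4)
  · have hU0 := bdU hG hF hk hy (hNK t0) h.ge
    have hU := eventually_val0 (QU hG X.F0 hF) hε hεε w t0 hc hU0
    by_cases hfr : ∃ᶠ t in 𝓝 t0, w t yU < 1
    · have hgt : GT X (w t0) := gt_of_poly hG hF hk hy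
        (poly_of_frequently hG w t0 hc hNK h hfr)
      have hP := eventually_val0 (QP hG hπ hd X.F0 hF) hδ hδδ w t0 hc (hgt.bdV _)
      filter_upwards [hU, hP] with t h3 h4
      rw [lab_out hG hπ hd hF h.ge]
      rcases lt_or_ge (w t yU) 1 with h5 | h5
      · rw [lab_in hG hπ hd hF h5, h4 (bdP hG hF hk hy hπ hd (hNK t) h5), hcons hgt]
      · rw [lab_out hG hπ hd hF h5]
        exact h3 (bdU hG hF hk hy (hNK t) h5)
    · rw [not_frequently] at hfr
      filter_upwards [hU, hfr] with t h3 h4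
      rw [lab_out hG hπ hd hF h.ge, lab_out hG hπ hd hF (not_lt.1 h4)]
      exact h3 (bdU hG hF hk hy (hNK t) (not_lt.1 h4))
  · have h1 := eventually_val0 (QU hG X.F0 hF) hε hεε w t0 hc
      (bdU hG hF hk hy (hNK t0) h.le)
    have h2 : ∀ᶠ t in 𝓝 t0, 1 < w t yU := (hc yU).eventually (lt_mem_nhds h)
    filter_upwards [h1, h2] with t h3 h4
    rw [lab_out hG hπ hd hF h4.le, lab_out hG hπ hd hF h.le]
    exact h3 (bdU hG hF hk hy (hNK t) h4.le)

include hk hy in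
/-- **LOOP, abstract form.** -/
theorem eq_of_loop {ε δ e : V} (hε : ε ∈ X.VR (QU hG X.F0 hF).R (QU hG X.F0 hF).F0_le)
    (hδ : δ ∈ X.VR (QP hG hπ hd X.F0 hF).R (QP hG hπ hd X.F0 hF).F0_le)
    (hεε : ε * ε = ε) (hδδ : δ * δ = δ) (heq : (1 - e) * ε = (1 - e) * δ)
    {w0 : Valuation U ℝ≥0} (h0 : GT X w0)
    (he : ∀ w : Valuation U ℝ≥0, GT X w → w ≠ w0 →
      ∀ Φ : V →+* Cpl w, IsEvV X (toCpl w) Φ → Φ e = 0)
    {A : Type*} [TopologicalSpace A] [PreconnectedSpace A] (α : A → Valuation U ℝ≥0) (a0 a1 : A)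
    (hαc : ∀ u, Continuous fun t => α t u) (hαK : ∀ t, NK k (α t)) (hα0 : α a0 = w0)
    (hαy : ∀ t, 1 ≤ α t yU)
    {B : Type*} [TopologicalSpace B] [PreconnectedSpace B] (β : B → Valuation U ℝ≥0) (b0 b1 : B)
    (hβc : ∀ u, Continuous fun t => β t u) (hβK : ∀ t, NK k (β t)) (hβ0 : β b0 = w0)
    (hβy : ∀ t, t ≠ b0 → β t yU < 1) (hb : b1 ≠ b0)
    {C : Type*} [TopologicalSpace C] [PreconnectedSpace C] (γ : C → Valuation U ℝ≥0) (c0 c1 : C)
    (hγc : ∀ u, Continuous fun t => γ t u) (hγK : ∀ t, NK k (γ t)) (hγ0 : γ c0 = α a1)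
    (hγ1 : γ c1 = β b1) (hγne : ∀ t, γ t ≠ w0) : ε = δ := by
  have hden := dense_F0 hd hG X.F0 hF
  -- consistency away from `w0`
  have hcons : ∀ w : Valuation U ℝ≥0, GT X w → w ≠ w0 →
      (Val0 (QU hG X.F0 hF) w ε ↔ Val0 (QP hG hπ hd X.F0 hF) w δ) := by
    intro w hw hne
    obtain ⟨Φ, hΦ⟩ := hw.exists_isEvV hden
    rw [hΦ.val0 _ hw hε hεε, hΦ.val0 _ hw hδ hδδ]
    have h1 := congrArg Φ heq
    rw [map_mul, map_mul, map_sub, map_one, he w hw hne Φ hΦ, sub_zero, one_mul, one_mul] at h1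
    rw [h1]
  -- along `α`
  have h1 : Val0 (QU hG X.F0 hF) w0 ε ↔ Val0 (QU hG X.F0 hF) (α a1) ε := by
    rw [← hα0]
    refine const_of_eventually (fun t => Val0 (QU hG X.F0 hF) (α t) ε) (fun t0 => ?_) a0 a1
    filter_upwards [eventually_val0 (QU hG X.F0 hF) hε hεε α t0 (fun u => (hαc u).continuousAt)
      (bdU hG hF hk hy (hαK t0) (hαy t0))] with t ht
    exact ht (bdU hG hF hk hy (hαK t) (hαy t))
  -- along `β`
  have hβbd : ∀ t, BdV (QP hG hπ hd X.F0 hF) (β t) := by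
    intro t
    by_cases ht : t = b0
    · rw [ht, hβ0]; exact h0.bdV _
    · exact bdP hG hF hk hy hπ hd (hβK t) (hβy t ht)
  have h2 : Val0 (QP hG hπ hd X.F0 hF) w0 δ ↔ Val0 (QP hG hπ hd X.F0 hF) (β b1) δ := by
    rw [← hβ0]
    refine const_of_eventually (fun t => Val0 (QP hG hπ hd X.F0 hF) (β t) δ) (fun t0 => ?_) b0 b1
    filter_upwards [eventually_val0 (QP hG hπ hd X.F0 hF) hδ hδδ β t0
      (fun u => (hβc u).continuousAt) (hβbd t0)] with t ht
    exact ht (hβbd t)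
  -- along `γ`
  have h3 : Lab hG hπ hd hF yU ε δ (γ c0) ↔ Lab hG hπ hd hF yU ε δ (γ c1) := by
    refine const_of_eventually (fun t => Lab hG hπ hd hF yU ε δ (γ t)) (fun t0 => ?_) c0 c1
    exact lab_eventually hG hπ hd hF hk hy hε hδ hεε hδδ γ t0 (fun u => (hγc u).continuousAt) hγK
      (fun hgt => hcons _ hgt (hγne t0))
  rw [hγ0, hγ1, lab_out hG hπ hd hF (hαy a1), lab_in hG hπ hd hF (hβy b1 hb)] at h3
  have h4 : Val0 (QU hG X.F0 hF) w0 ε ↔ Val0 (QP hG hπ hd X.F0 hF) w0 δ := by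
    rw [h1, h3, ← h2]
  let nn : NontriviallyNormedField E :=
    { ‹NormedField E› with
      non_trivial := ⟨algebraMap k E π⁻¹, by
        change 1 < ‖algebraMap k E π⁻¹‖
        rw [norm_algebraMap', norm_inv]
        exact (one_lt_inv₀ hπ.pos).2 hπ.lt_one⟩ }
  refine eq_of_values (X := X) (QU hG X.F0 hF) (QP hG hπ hd X.F0 hF) hε hδ hεε hδδ fun w hw => ?_
  by_cases hne : w = w0
  · rw [hne]; exact h4
  · exact hcons w hw hne

end Abs

section Final

variable {V : Type*} [CommRing V] [Algebra E V] {D : PatchDatum E} {d : ℕ}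
  {U : Type*} [Field U]

/-- The data of `Dat` from an `Edge` (helper92). -/
def datOf (X : Edge D V d) (j : U →+* V) (hj : ∀ v, v ∈ X.L ↔ ∃ u, j u = v) :
    Dat E V U (Fin d) where
  b := X.b
  F0 := D.F0
  j := j
  hj v := by
    rw [← X.hL, hj]
    rfl

/-- **LOOP ⇒ NonBridge.** -/
theorem nonBridge_of_loop [Nontrivial V]
    (hD0 : ∀ z : E, z ∈ D.F0 ↔ z ∈ KY hG) (hDU : ∀ z ∈ D.RU, z ∈ RU k y)
    (hDP : ∀ z ∈ D.FP, z ∈ FP hG hπ hd)
    (X : Edge D V d) (j : U →+* V) (hj : ∀ v, v ∈ X.L ↔ ∃ u, j u = v) [Algebra k U]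
    (hk : ∀ c : k, j (algebraMap k U c) = algebraMap E V (algebraMap k E c))
    {yU : U} (hy : j yU = algebraMap E V y)
    {w0 : Valuation U ℝ≥0} (h0 : GT (datOf X j hj) w0)
    (he : ∀ w : Valuation U ℝ≥0, GT (datOf X j hj) w → w ≠ w0 →
      ∀ Φ : V →+* Cpl w, IsEvV (datOf X j hj) (toCpl w) Φ → Φ X.e = 0)
    {A : Type*} [TopologicalSpace A] [PreconnectedSpace A] (α : A → Valuation U ℝ≥0) (a0 a1 : A)
    (hαc : ∀ u, Continuous fun t => α t u) (hαK : ∀ t, NK k (α t)) (hα0 : α a0 = w0)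
    (hαy : ∀ t, 1 ≤ α t yU)
    {B : Type*} [TopologicalSpace B] [PreconnectedSpace B] (β : B → Valuation U ℝ≥0) (b0 b1 : B)
    (hβc : ∀ u, Continuous fun t => β t u) (hβK : ∀ t, NK k (β t)) (hβ0 : β b0 = w0)
    (hβy : ∀ t, t ≠ b0 → β t yU < 1) (hb : b1 ≠ b0)
    {C : Type*} [TopologicalSpace C] [PreconnectedSpace C] (γ : C → Valuation U ℝ≥0) (c0 c1 : C)
    (hγc : ∀ u, Continuous fun t => γ t u) (hγK : ∀ t, NK k (γ t)) (hγ0 : γ c0 = α a1)
    (hγ1 : γ c1 = β b1) (hγne : ∀ t, γ t ≠ w0) : X.NonBridge := by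
  intro ε hε δ hδ hεε hδδ heq
  refine eq_of_loop (X := datOf X j hj) hG hπ hd hD0 hk hy (fun i => hDU _ (hε i))
    (fun i => hDP _ (hδ i)) hεε hδδ heq h0 he α a0 a1 hαc hαK hα0 hαy β b0 b1 hβc hβK hβ0 hβy hb
    γ c0 c1 hγc hγK hγ0 hγ1 hγne

end Final

end Loop

end Crest.Agent.R013.NB_102
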