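import Crest.Agent.R013.Gl13_946


/-!
# Row 13, B-SET, part 5: `FP → Ω` (norm case) with the bound on `AP`
-/

set_option autoImplicit false

namespace Crest.Agent.R013.Set_803

open Filter Topology Polynomial Crest.Agent.R013.Gl946

/-- Extension of a norm-nonincreasing ring homomorphism to the closure of a subring, with the
bound. -/
theorem ext_closure' {E : Type*} [NormedField E] (S0 : Subring E) {Ω : Type*} [NormedField Ω]
    [CompleteSpace Ω] (ψ : S0 →+* Ω) (hψ : ∀ s, ‖ψ s‖ ≤ ‖(s : E)‖) :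
    ∃ Ψ : S0.topologicalClosure →+* Ω,
      (∀ s (hs : s ∈ S0), Ψ ⟨s, S0.le_topologicalClosure hs⟩ = ψ ⟨s, hs⟩) ∧
      ∀ a, ‖Ψ a‖ ≤ ‖(a : E)‖ := by
  set i : S0 →+* S0.topologicalClosure := Subring.inclusion S0.le_topologicalClosure with hi
  have hui : IsUniformInducing i := by
    have h1 : IsUniformInducing (fun x : S0.topologicalClosure => (x : E)) :=
      isUniformInducing_val _
    have h2 : IsUniformInducing (fun x : S0 => (x : E)) := isUniformInducing_val _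
    exact h1.of_comp_iff.1 h2
  have hdr : DenseRange i := by
    intro x
    rw [Metric.mem_closure_iff]
    intro ε hε
    obtain ⟨s, hs, hxs⟩ := Metric.mem_closure_iff.1 (show (x : E) ∈ closure (S0 : Set E) from x.2)
      ε hε
    exact ⟨i ⟨s, hs⟩, ⟨⟨s, hs⟩, rfl⟩, hxs⟩
  have huc : UniformContinuous ψ := by
    refine AddMonoidHomClass.uniformContinuous_of_bound ψ 1 fun s => ?_
    rw [one_mul]; exact hψ s
  refine ⟨IsDenseInducing.extendRingHom hui hdr huc, ?_, ?_⟩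
  · intro s hs
    exact (hui.isDenseInducing hdr).extend_eq huc.continuous ⟨s, hs⟩
  · intro a
    have hcont : Continuous (IsDenseInducing.extendRingHom hui hdr huc) :=
      uniformContinuous_uniformly_extend hui hdr huc |>.continuous
    refine hdr.induction_on (p := fun a => ‖IsDenseInducing.extendRingHom hui hdr huc a‖ ≤ ‖(a : E)‖)
      a (isClosed_le hcont.norm (continuous_norm.comp continuous_subtype_val)) fun s => ?_
    have : IsDenseInducing.extendRingHom hui hdr huc (i s) = ψ s :=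
      (hui.isDenseInducing hdr).extend_eq huc.continuous s
    rw [this]; exact hψ s

variable {k E : Type*} [NormedField k] [NormedField E] [NormedAlgebra k E]
variable [IsUltrametricDist E] [CompleteSpace E] {y : E} (hG : IsGauss k y)
variable {Ω : Type*} [NormedField Ω] [IsUltrametricDist Ω] [CompleteSpace Ω]

/-- **norm case, inside**: `‖y‖_Ω < 1`, with the bound on `AP`. -/
theorem mapFP_norm' {k E : Type*} [NontriviallyNormedField k] [IsUltrametricDist k]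
    [NormedField E] [NormedAlgebra k E] [IsUltrametricDist E] [CompleteSpace E] {y : E}
    (hG : IsGauss k y) [CompleteSpace k] {π : k} (hπ : IsUnif π) (hd : DenseRat k y)
    (ψ : KY hG →+* Ω) (hk : ∀ c : k, ‖ψ ⟨algebraMap k E c, const_mem_KY hG c⟩‖ ≤ ‖c‖)
    (hy : ‖ψ ⟨y, y_mem_KY hG⟩‖ < 1) :
    ∃ Φ : FP hG hπ hd →+* Ω, (∀ z (hz : z ∈ KY hG), Φ ⟨z, KY_le_FP hG hπ hd hz⟩ = ψ ⟨z, hz⟩) ∧
      ∀ a (_ : a ∈ AP hG) (ha' : a ∈ FP hG hπ hd), ‖Φ ⟨a, ha'⟩‖ ≤ ‖a‖ := by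
  set S0 : Subring E := (AP0alg hG).toSubring with hS0
  have hS0le : S0 ≤ (KY hG).toSubring := by
    rintro _ ⟨f, g, h1, h2, rfl⟩
    exact ⟨f, g, by rintro rfl; simp at h2, rfl⟩
  have oadd : ∀ a b : Ω, ‖a + b‖ ≤ max ‖a‖ ‖b‖ := fun a b => IsUltrametricDist.norm_add_le_max a b
  obtain ⟨Ψ, h1, h2⟩ := ext_closure' S0 (ψ.comp (Subring.inclusion hS0le)) (by
    rintro ⟨_, f, g, hg1, hg0, rfl⟩
    have hgn := hG.norm_of_coeff_zero g hg1 hg0
    have hg_ne : g ≠ 0 := by rintro rfl; simp at hg0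
    have e1 : (ψ.comp (Subring.inclusion hS0le)) ⟨aeval y f / aeval y g, f, g, hg1, hg0, rfl⟩ =
        ψ ⟨aeval y f, aeval_mem_KY hG f⟩ / ψ ⟨aeval y g, aeval_mem_KY hG g⟩ :=
      map_div₀ ψ ⟨aeval y f, aeval_mem_KY hG f⟩ ⟨aeval y g, aeval_mem_KY hG g⟩
    rw [e1, norm_div, norm_div, hgn, div_one]
    have hf : ‖ψ ⟨aeval y f, aeval_mem_KY hG f⟩‖ ≤ ‖aeval y f‖ :=
      psi_poly_le (KY hG) (const_mem_KY hG) y (y_mem_KY hG) ψ hy.le f (aeval_mem_KY hG f)
        (norm_nonneg _) fun i => (hk _).trans (hG.coeff_le f i)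
    -- ‖ψ g‖ = 1
    have hg : ‖ψ ⟨aeval y g, aeval_mem_KY hG g⟩‖ = 1 := by
      have e2 : (⟨aeval y g, aeval_mem_KY hG g⟩ : KY hG) =
          ⟨aeval y g.divX, aeval_mem_KY hG _⟩ * ⟨y, y_mem_KY hG⟩ + 1 := by
        ext
        push_cast
        conv_lhs => rw [← divX_mul_X_add g, hg0]
        simp
      have h3 : ‖ψ ⟨aeval y g.divX, aeval_mem_KY hG _⟩ * ψ ⟨y, y_mem_KY hG⟩‖ < 1 := by
        rw [norm_mul]
        have h4 : ‖ψ ⟨aeval y g.divX, aeval_mem_KY hG _⟩‖ ≤ 1 :=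
          psi_poly_le (KY hG) (const_mem_KY hG) y (y_mem_KY hG) ψ hy.le _ (aeval_mem_KY hG _)
            zero_le_one fun i => (hk _).trans (by
              rw [coeff_divX]; exact (hG.coeff_le g _).trans hg1)
        calc _ ≤ 1 * ‖ψ ⟨y, y_mem_KY hG⟩‖ := mul_le_mul_of_nonneg_right h4 (norm_nonneg _)
          _ < 1 := by rw [one_mul]; exact hy
      rw [e2, map_add, map_mul, map_one]
      set t := ψ ⟨aeval y g.divX, aeval_mem_KY hG _⟩ * ψ ⟨y, y_mem_KY hG⟩ with ht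
      apply le_antisymm
      · refine (oadd _ _).trans (max_le h3.le ?_)
        rw [norm_one]
      · by_contra hcon
        push Not at hcon
        have h5 : (1 : Ω) = (t + 1) + (-t) := by ring
        have h6 : ‖(1 : Ω)‖ < 1 := by
          conv_lhs => rw [h5]
          refine (oadd _ _).trans_lt (max_lt hcon ?_)
          rw [norm_neg]; exact h3
        rw [norm_one] at h6
        exact lt_irrefl _ h6
    rw [hg, div_one]
    exact hf)
  have hle : (AP hG).toSubring ≤ S0.topologicalClosure := fun x hx => hx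
  obtain ⟨Φ, h3, -, h4⟩ := mapFP_of_AP' hG hπ hd ψ ⊤ (Ψ.comp (Subring.inclusion hle))
    (fun f => h1 (aeval y f) ⟨f, 1, by simp, by simp, by simp⟩) (fun _ => Subfield.mem_top _)
  refine ⟨Φ, h3, fun a ha ha' => ?_⟩
  rw [h4 a ha ha']
  exact h2 _

/-- Continuity on `AP` : limits of sequences. -/
theorem tendsto_of_bound {k E : Type*} [NormedField k] [NormedField E] [NormedAlgebra k E]
    [IsUltrametricDist E] [CompleteSpace E] {y : E} (hG : IsGauss k y) [CompleteSpace k] {π : k}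
    (hπ : IsUnif π) (hd : DenseRat k y) {Ω : Type*} [NormedField Ω] (Φ : FP hG hπ hd →+* Ω)
    (hΦ : ∀ a (_ : a ∈ AP hG) (ha' : a ∈ FP hG hπ hd), ‖Φ ⟨a, ha'⟩‖ ≤ ‖a‖)
    (u : ℕ → E) (hu : ∀ n, u n ∈ AP hG) (hu' : ∀ n, u n ∈ FP hG hπ hd) {a : E} (ha : a ∈ AP hG)
    (ha' : a ∈ FP hG hπ hd) (h : Tendsto u atTop (𝓝 a)) :
    Tendsto (fun n => Φ ⟨u n, hu' n⟩) atTop (𝓝 (Φ ⟨a, ha'⟩)) := by
  rw [tendsto_iff_norm_sub_tendsto_zero] at h ⊢
  refine squeeze_zero (fun _ => norm_nonneg _) (fun n => ?_) h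
  have e : Φ ⟨u n, hu' n⟩ - Φ ⟨a, ha'⟩ = Φ ⟨u n - a, sub_mem (hu' n) ha'⟩ := by
    rw [← map_sub]; rfl
  rw [e]
  exact hΦ _ (sub_mem (hu n) ha) _

end Crest.Agent.R013.Set_803
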