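import Crest.Agent.R013.Set4_803
import Crest.Agent.R013.Set5_803

/-!
# Row 13, B-SET, part 6: `iota f ∈ FP`, and the homomorphism `FP → Cpl v`.
-/

set_option autoImplicit false
set_option linter.unusedSectionVars false
set_option linter.style.haveILetI false

noncomputable section

namespace Crest.Agent.R013.Set_803

open scoped NNReal Topology
open Filter PowerSeries Crest.NumberTheoryR.Sect Crest.Agent.R013.A2a_275 Crest.Agent.R013.Gl946
  Crest.Agent.R013.SE_669 Crest.Agent.R013.KAS2_940 Crest.Agent.R013.KAS3_940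
  Crest.Agent.R013.Good1_940 Crest.Agent.R013.Good3_940 Crest.Agent.R013.CGood_588

section Gen

variable {k E : Type*} [NontriviallyNormedField k] [IsUltrametricDist k] [CompleteSpace k]
  [NormedField E] [NormedAlgebra k E] [IsUltrametricDist E] [CompleteSpace E]

theorem hasSum_ev {r1 : ℝ} {hr1 : 0 < r1} {x : E} {hx : ‖x‖ < r1} (f : bsub (K := k) r1 hr1) :
    HasSum (fun n => algebraMap k E (coeff n f.1) * x ^ n) (ev hr1 x hx f) :=
  (summable_norm f.2.choose_spec hx).of_norm.hasSum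

theorem tendsto_ev {r1 : ℝ} {hr1 : 0 < r1} {x : E} {hx : ‖x‖ < r1} (f : bsub (K := k) r1 hr1) :
    Tendsto (fun n => ∑ i ∈ Finset.range n, algebraMap k E (coeff i f.1) * x ^ i) atTop
      (𝓝 (ev hr1 x hx f)) :=
  (hasSum_ev f).tendsto_sum_nat

theorem psum_mem_AP {y : E} (hG : IsGauss k y) (f : k⟦X⟧) (ρ : k) (n : ℕ) :
    ∑ i ∈ Finset.range n, algebraMap k E (coeff i f) * (algebraMap k E ρ * y) ^ i ∈ AP hG := by
  have hy : y ∈ AP hG := by
    have := aeval_mem_AP hG (Polynomial.X : Polynomial k)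
    rwa [Polynomial.aeval_X] at this
  exact sum_mem fun i _ => mul_mem ((AP hG).algebraMap_mem _)
    (pow_mem (mul_mem ((AP hG).algebraMap_mem _) hy) _)

theorem ev_mem_AP {y : E} (hG : IsGauss k y) {r1 : ℝ} {hr1 : 0 < r1} (ρ : k)
    {hx : ‖algebraMap k E ρ * y‖ < r1} (f : bsub (K := k) r1 hr1) :
    ev hr1 (algebraMap k E ρ * y) hx f ∈ AP hG := by
  have hc : IsClosed ((AP hG : Subalgebra k E) : Set E) := isClosed_AP hG
  exact hc.mem_of_tendsto (tendsto_ev f) (Eventually.of_forall fun n => psum_mem_AP hG _ _ _)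

theorem AP_le_FP {y : E} (hG : IsGauss k y) {π : k} (hπ : IsUnif π) (hd : DenseRat k y) {a : E}
    (ha : a ∈ AP hG) : a ∈ FP hG hπ hd :=
  ⟨a, ha, 1, one_mem _, one_ne_zero, (div_one a).symm⟩

theorem const_mem_AP {y : E} (hG : IsGauss k y) (a : k) : algebraMap k E a ∈ AP hG :=
  (AP hG).algebraMap_mem _

/-- A homomorphism on `k(y) ⊂ E` from a homomorphism on a field containing `k(y)`. -/
theorem exists_psi {y : E} (hG : IsGauss k y) {S Ω : Type*} [Field S] [Field Ω] (i : S →+* E)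
    (j : S →+* Ω) (hi : ∀ a : k, ∃ s, i s = algebraMap k E a) (hy : ∃ s, i s = y) :
    ∃ ψ : KY hG →+* Ω, ∀ (s : S) (h : i s ∈ KY hG), ψ ⟨i s, h⟩ = j s := by
  have hpoly : ∀ f : Polynomial k, ∃ s, i s = Polynomial.aeval y f := by
    intro f
    change Polynomial.aeval y f ∈ i.fieldRange
    rw [Polynomial.aeval_eq_sum_range]
    refine sum_mem fun n _ => ?_
    rw [Algebra.smul_def]
    exact mul_mem (hi _) (pow_mem hy _)
  have hall : ∀ z : KY hG, ∃ s, i s = z := by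
    rintro ⟨_, f, g, _, rfl⟩
    obtain ⟨s, hs⟩ := hpoly f
    obtain ⟨t, ht⟩ := hpoly g
    exact ⟨s / t, by rw [map_div₀, hs, ht]⟩
  choose σ hσ using hall
  refine ⟨{ toFun := fun z => j (σ z), map_one' := ?_, map_mul' := fun a b => ?_,
            map_zero' := ?_, map_add' := fun a b => ?_ }, fun s h => ?_⟩
  · rw [← map_one j]; congr 1; apply i.injective; rw [hσ, map_one]; rfl
  · rw [← map_mul]; congr 1; apply i.injective; rw [hσ, map_mul, hσ, hσ]; rfl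
  · rw [← map_zero j]; congr 1; apply i.injective; rw [hσ, map_zero]; rfl
  · change j _ = j _ + j _
    rw [← map_add]; congr 1; apply i.injective; rw [hσ, map_add, hσ, hσ]; rfl
  · change j _ = j _
    congr 1; apply i.injective; rw [hσ]

/-- **`FP → Ω` compatible with a homomorphism `S → Ω`, where `S → E` contains the constants and `ρ y`.**
`b` : the bounded series at `ρ y`. -/
theorem exists_Phi_gen {y : E} (hG : IsGauss k y) {π : k} (hπ : IsUnif π) (hd : DenseRat k y)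
    {S Ω : Type*} [Field S] [NormedField Ω] [IsUltrametricDist Ω] [CompleteSpace Ω] (i : S →+* E)
    (j : S →+* Ω) (a : k → S) (ha : ∀ c : k, i (a c) = algebraMap k E c)
    (hja : ∀ c : k, ‖j (a c)‖ ≤ ‖c‖) (t : S) {ρ : k} (hρ0 : ρ ≠ 0) (ht : i t = algebraMap k E ρ * y)
    (hjt : ‖j t‖ < ‖j (a ρ)‖) :
    ∃ Φ : FP hG hπ hd →+* Ω, (∀ (s : S) (h : i s ∈ KY hG), Φ ⟨i s, KY_le_FP hG hπ hd h⟩ = j s) ∧
      (∀ x (_ : x ∈ AP hG) (hx' : x ∈ FP hG hπ hd), ‖Φ ⟨x, hx'⟩‖ ≤ ‖x‖) ∧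
      ∀ (f : k⟦X⟧) (z : E) (hz : z ∈ AP hG),
        Tendsto (fun n => ∑ l ∈ Finset.range n, algebraMap k E (coeff l f) *
          (algebraMap k E ρ * y) ^ l) atTop (𝓝 z) →
        Tendsto (fun n => ∑ l ∈ Finset.range n, j (a (coeff l f)) * j t ^ l) atTop
          (𝓝 (Φ ⟨z, AP_le_FP hG hπ hd hz⟩)) := by
  have hρE : algebraMap k E ρ ≠ 0 := (map_ne_zero _).2 hρ0
  have hyS : i (t / a ρ) = y := by
    rw [map_div₀, ht, ha, mul_div_cancel_left₀ _ hρE]
  obtain ⟨ψ, hψ⟩ := exists_psi hG i j (fun c => ⟨a c, ha c⟩) ⟨_, hyS⟩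
  have hψc : ∀ c : k, ψ ⟨algebraMap k E c, const_mem_KY hG c⟩ = j (a c) := by
    intro c
    rw [← hψ (a c) (by rw [ha]; exact const_mem_KY hG c)]
    congr 1
    exact Subtype.ext (ha c).symm
  have hjρ : j (a ρ) ≠ 0 := by
    intro h0
    rw [h0, norm_zero] at hjt
    exact absurd hjt (not_lt.2 (norm_nonneg _))
  obtain ⟨Φ, h1, h2⟩ := mapFP_norm' hG hπ hd ψ (fun c => by rw [hψc]; exact hja c) (by
    have e : (⟨y, y_mem_KY hG⟩ : KY hG) = ⟨i (t / a ρ), by rw [hyS]; exact y_mem_KY hG⟩ :=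
      Subtype.ext hyS.symm
    rw [e, hψ, map_div₀, norm_div, div_lt_one (norm_pos_iff.2 hjρ)]
    exact hjt)
  have h3 : ∀ (s : S) (h : i s ∈ KY hG), Φ ⟨i s, KY_le_FP hG hπ hd h⟩ = j s := fun s h =>
    (h1 _ h).trans (hψ s h)
  refine ⟨Φ, h3, h2, fun f z hz h => ?_⟩
  have hKY : ∀ n, ∑ l ∈ Finset.range n, algebraMap k E (coeff l f) *
      (algebraMap k E ρ * y) ^ l ∈ KY hG := fun n => sum_mem fun l _ =>
    mul_mem (const_mem_KY hG _) (pow_mem (mul_mem (const_mem_KY hG _) (y_mem_KY hG)) _)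
  have h4 := tendsto_of_bound hG hπ hd Φ h2 _ (fun n => psum_mem_AP hG f ρ n)
    (fun n => KY_le_FP hG hπ hd (hKY n)) hz (AP_le_FP hG hπ hd hz) h
  refine h4.congr fun n => ?_
  have e : i (∑ l ∈ Finset.range n, a (coeff l f) * t ^ l) =
      ∑ l ∈ Finset.range n, algebraMap k E (coeff l f) * (algebraMap k E ρ * y) ^ l := by
    rw [map_sum]
    exact Finset.sum_congr rfl fun l _ => by rw [map_mul, map_pow, ha, ht]
  have h5 := h3 (∑ l ∈ Finset.range n, a (coeff l f) * t ^ l) (by rw [e]; exact hKY n)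
  have e2 : (⟨i (∑ l ∈ Finset.range n, a (coeff l f) * t ^ l), KY_le_FP hG hπ hd
      (by rw [e]; exact hKY n)⟩ : FP hG hπ hd) = ⟨_, KY_le_FP hG hπ hd (hKY n)⟩ := Subtype.ext e
  rw [← e2, h5, map_sum]
  exact Finset.sum_congr rfl fun l _ => by rw [map_mul, map_pow]

end Gen

variable {k : Type*} [Field k] {Ω : Type*} [Field Ω] [Algebra k Ω]
variable {p : ℕ} [hp : Fact p.Prime] [Algebra ℚ_[p] k] {v P : Valuation Ω ℝ≥0}
  {C : IntermediateField k Ω}

namespace DiscData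

variable {R : ℝ≥0} {x q c : Ω} (D : DiscData p v P C R x q c)
  [FiniteDimensional ℚ_[p] k] [FiniteDimensional k C]
  {E : Type*} [NormedField E] [IsUltrametricDist E] [CompleteSpace E]
  (A : NAlg D.hv C E) {y : E} (hy : IsG D.hv C A y)

/-- expansion in `E` -/
theorem tendsto_evE (ρ : C) (hρ : v ρ < R) (F : BS v C R D.hR) :
    Tendsto (fun n => ∑ i ∈ Finset.range n, A.algebraMap (coeff i F.1) *
      (A.algebraMap ρ * y) ^ i) atTop (𝓝 (D.evE A hy ρ hρ F)) := by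
  letI := nC D.hv C
  haveI := ultra_nC D.hv C
  haveI := complete_nC D.hv C
  letI := A
  have h1 : pt (k := C) (0 : C) ρ y = algebraMap C E ρ * y := by
    rw [pt, map_zero, zero_add]
  have h2 := tendsto_ev (k := C) (E := E) (r1 := (R : ℝ)) (hr1 := by exact_mod_cast D.hR)
    (x := pt (k := C) (0 : C) ρ y) (hx := norm_pt_lt hy (by rw [norm_zero]; exact_mod_cast D.hR)
      (by rw [norm_nC D.hv C]; exact_mod_cast hρ)) F
  have h3 : (fun n => ∑ i ∈ Finset.range n, algebraMap C E (coeff i F.1) *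
      pt (k := C) (0 : C) ρ y ^ i) = fun n => ∑ i ∈ Finset.range n, algebraMap C E (coeff i F.1) *
      (algebraMap C E ρ * y) ^ i := by rw [h1]
  rw [h3] at h2
  exact h2

theorem evE_mem_AP (ρ : C) (hρ : v ρ < R) (F : BS v C R D.hR) :
    letI := nC D.hv C; letI := A
    D.evE A hy ρ hρ F ∈ AP hy := by
  letI := nC D.hv C
  haveI := ultra_nC D.hv C
  haveI := complete_nC D.hv C
  letI := A
  have hc : IsClosed ((AP hy : Subalgebra C E) : Set E) := isClosed_AP hy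
  exact hc.mem_of_tendsto (D.tendsto_evE A hy ρ hρ F) (Eventually.of_forall fun n =>
    psum_mem_AP hy _ _ _)

/-- **`iota f ∈ FP`** -/
theorem iota_mem_FP (ρ : C) (hρ : v ρ < R) (h0 : ρ ≠ 0) {π : C}
    (hπ : @IsUnif C (nC D.hv C).toNormedField π) (hd : DenseR D.hv C A y) (f : D.SD) :
    letI := nC D.hv C
    haveI := complete_nC D.hv C
    letI := A
    D.iota A hy ρ hρ h0 f ∈ FP hy hπ hd := by
  letI := nC D.hv C
  haveI := ultra_nC D.hv C
  haveI := complete_nC D.hv C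
  letI := A
  obtain ⟨f, G, H, h⟩ := f
  rw [D.iota_rep A hy ρ hρ h0 h]
  exact div_mem (AP_le_FP hy hπ hd (D.evE_mem_AP A hy ρ hρ _))
    (AP_le_FP hy hπ hd (D.evE_mem_AP A hy ρ hρ _))

/-- **(S4)** the homomorphism `FP → Cpl v` of the circle `|x| = |ρ|` for the norm `v`, when the centre
`q` and the radius `|c|` of `v` are `< |ρ|`; the identity on `SD`. -/
theorem exists_Phi (ρ : C) (hρ : v ρ < R) (h0 : ρ ≠ 0) (hq : v q < v ρ) (hc : v c < v ρ) {π : C}
    (hπ : @IsUnif C (nC D.hv C).toNormedField π) (hd : DenseR D.hv C A y) :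
    letI := nC D.hv C
    haveI := complete_nC D.hv C
    letI := A
    ∃ Φ : FP hy hπ hd →+* Cpl v,
      (∀ f : D.SD, Φ ⟨D.iota A hy ρ hρ h0 f, D.iota_mem_FP A hy ρ hρ h0 hπ hd f⟩ =
        toCpl v (f : Ω)) ∧
      ∀ x (_ : x ∈ AP hy) (hx' : x ∈ FP hy hπ hd), ‖Φ ⟨x, hx'⟩‖ ≤ ‖x‖ := by
  letI := nC D.hv C
  haveI := ultra_nC D.hv C
  haveI := complete_nC D.hv C
  letI := A
  let a : C → D.SD := fun b => ⟨b, D.C_le_SD b⟩
  have hxρ : v x < v ρ := by
    rw [D.x_eq]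
    refine (v.map_add _ _).trans_lt (max_lt hq ?_)
    rw [map_mul, gaussAt_norm D.gauss, mul_one]
    exact hc
  obtain ⟨Φ, h1, h2, h3⟩ := exists_Phi_gen hy hπ hd (D.iota A hy ρ hρ h0)
    ((toCpl v).comp D.SD.subtype) a (fun b => D.iota_const A hy ρ hρ h0 b (D.C_le_SD b))
    (fun b => by
      rw [norm_nC D.hv C]
      exact (norm_toCpl v (b : Ω)).le) ⟨x, D.x_mem_SD⟩ h0 (D.iota_x A hy ρ hρ h0 D.x_mem_SD)
    (by
      change ‖toCpl v x‖ < ‖toCpl v (ρ : Ω)‖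
      rw [norm_toCpl, norm_toCpl]
      exact_mod_cast hxρ)
  have h4 : ∀ F : BS v C R D.hR, Φ ⟨D.evE A hy ρ hρ F, AP_le_FP hy hπ hd
      (D.evE_mem_AP A hy ρ hρ F)⟩ = evW v C R D.hR x D.hx F := by
    intro F
    have h5 := h3 F.1 _ (D.evE_mem_AP A hy ρ hρ F) (D.tendsto_evE A hy ρ hρ F)
    have h6 := (hasSum_evW (hx := D.hx) F).tendsto_sum_nat
    exact tendsto_nhds_unique h5 h6
  refine ⟨Φ, ?_, h2⟩
  rintro ⟨f, G, H, h⟩
  have hH : evW v C R D.hR x D.hx ⟨H, mem_BS.2 h.bH⟩ ≠ 0 := by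
    intro h0
    have h1 := D.evW_injective (h0.trans (map_zero _).symm)
    exact h.ne (congrArg Subtype.val h1)
  have h5 := D.iota_mul_rep A hy ρ hρ h0 h ⟨G, H, h⟩
  have h6 : (⟨D.iota A hy ρ hρ h0 ⟨f, ⟨G, H, h⟩⟩, D.iota_mem_FP A hy ρ hρ h0 hπ hd _⟩ :
      FP hy hπ hd) * ⟨D.evE A hy ρ hρ ⟨H, mem_BS.2 h.bH⟩, AP_le_FP hy hπ hd
      (D.evE_mem_AP A hy ρ hρ _)⟩ = ⟨D.evE A hy ρ hρ ⟨G, mem_BS.2 h.bG⟩, AP_le_FP hy hπ hd
      (D.evE_mem_AP A hy ρ hρ _)⟩ := Subtype.ext h5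
  have h7 := congrArg Φ h6
  rw [map_mul, h4, h4, ← h.v_eq (hR := D.hR) (hx := D.hx)] at h7
  exact mul_right_cancel₀ hH h7

end DiscData

end Crest.Agent.R013.Set_803
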