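import Crest.Agent.R013.NB5_92
import Crest.Agent.R013.Set6_803
import Crest.Agent.R013.Half3_930

/-!
# B-NB, part 6: two circles `|x| = |ϖ|`, `|x| = |ρ₁| ≤ |ϖ|/s`, in one circle field `E`
-/

set_option autoImplicit false
set_option linter.unusedSectionVars false
set_option linter.style.haveILetI false

namespace Crest.Agent.R013.NB_92

open Module Polynomial Crest.Agent.R013.Gl946 Crest.Agent.R013.CutCov_92
open Crest.Agent.R013.Annu_930 (MN)
open Crest.Agent.R013.Half_930 (Am Ap)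
open scoped NNReal
open Crest.Agent.R013.A2a_275 (Cpl toCpl norm_toCpl)
open Crest.NumberTheoryR.Sect (IsPlace)

section Theta

variable {κ E : Type*} [NontriviallyNormedField κ] [CompleteSpace κ] [IsUltrametricDist κ]
  [NormedField E] [NormedAlgebra κ E] [IsUltrametricDist E] [CompleteSpace E]
  {y : E} (hG : IsGauss κ y) {L : Type*} [Field L] [Algebra κ L]

/-- A circle: `ι : L → E` the identity on the constants, `x ↦ ϖ y`. -/
structure Circ (κ : Type*) {E : Type*} [NontriviallyNormedField κ] [NormedField E]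
    [NormedAlgebra κ E] (y : E) {L : Type*} [Field L] [Algebra κ L]
    (ι : L →+* E) (x : L) (ϖ : κ) : Prop where
  ne : ϖ ≠ 0
  const : ∀ a : κ, ι (algebraMap κ L a) = algebraMap κ E a
  x : ι x = algebraMap κ E ϖ * y

namespace Circ

variable {ι : L →+* E} {x : L} {ϖ : κ} (C : Circ κ y ι x ϖ)

include C

theorem y_eq : ι (x / algebraMap κ L ϖ) = y := by
  rw [map_div₀, C.x, C.const, mul_div_cancel_left₀]
  exact (_root_.map_ne_zero _).2 C.ne

theorem exists_theta : ∃ θ : KY hG →+* L, (∀ z, ι (θ z) = z) ∧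
    ∀ l (h : ι l ∈ KY hG), θ ⟨ι l, h⟩ = l := by
  obtain ⟨θ, hθ⟩ := Set_803.exists_psi hG ι (RingHom.id L)
    (fun a => ⟨_, C.const a⟩) ⟨_, C.y_eq⟩
  refine ⟨θ, fun z => ?_, fun l h => hθ l h⟩
  obtain ⟨z, hz⟩ := z
  have hrange : z ∈ ι.fieldRange := by
    obtain ⟨f, g, -, rfl⟩ := id hz
    have hpoly : ∀ f : κ[X], aeval y f ∈ ι.fieldRange := by
      intro f
      rw [aeval_eq_sum_range]
      refine sum_mem fun n _ => ?_
      rw [Algebra.smul_def]
      have hc1 : algebraMap κ E (f.coeff n) ∈ ι.fieldRange := ⟨_, C.const _⟩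
      have hc2 : y ∈ ι.fieldRange := ⟨_, C.y_eq⟩
      exact mul_mem hc1 (pow_mem hc2 _)
    exact div_mem (hpoly f) (hpoly g)
  obtain ⟨l, rfl⟩ := hrange
  rw [hθ l hz]; rfl

/-- elements of `KY` -/
theorem aeval_mem {ρ : κ} {ι' : L →+* E} (C' : Circ κ y ι' x ρ) {l : L} (hl : ι l ∈ KY hG) :
    ι' l ∈ KY hG := by
  have hpoly : ∀ f : κ[X], ∃ g : κ[X], aeval y f = ι (aeval (x / algebraMap κ L ϖ) f) ∧
      ι' (aeval (x / algebraMap κ L ϖ) f) = aeval y g := by
    intro f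
    refine ⟨f.comp (Polynomial.C (ρ / ϖ) * X), ?_, ?_⟩
    · rw [aeval_eq_sum_range, aeval_eq_sum_range, map_sum]
      refine Finset.sum_congr rfl fun n _ => ?_
      rw [Algebra.smul_def, Algebra.smul_def, map_mul, map_pow, C.y_eq, C.const]
    · rw [aeval_comp, map_mul, aeval_C, aeval_X, aeval_eq_sum_range, aeval_eq_sum_range, map_sum]
      refine Finset.sum_congr rfl fun n _ => ?_
      rw [Algebra.smul_def, Algebra.smul_def, map_mul, map_pow, map_div₀, C'.x, C'.const,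
        C'.const, map_div₀]
      congr 2
      ring
  obtain ⟨f, g, hg, e⟩ := id hl
  obtain ⟨f', h1, h2⟩ := hpoly f
  obtain ⟨g', h3, h4⟩ := hpoly g
  have e2 : l = aeval (x / algebraMap κ L ϖ) f / aeval (x / algebraMap κ L ϖ) g := by
    apply ι.injective
    rw [e, map_div₀, h1, h3]
  rw [e2, map_div₀, h2, h4]
  exact div_mem (aeval_mem_KY hG _) (aeval_mem_KY hG _)

end Circ

end Theta

section Core

universe u

variable {κ E : Type u} [NontriviallyNormedField κ] [CompleteSpace κ] [IsUltrametricDist κ]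
  [NormedField E] [NormedAlgebra κ E] [IsUltrametricDist E] [CompleteSpace E]
  {y : E} (hG : IsGauss κ y) {π₀ : κ} (hπ : IsUnif π₀) (hd : DenseRat κ y)

/-- The data of a re-patched class. -/
structure Patched {L M : Type u} [Field L] [Algebra κ L] [Field M] [Algebra L M] [Algebra κ M]
    (hG : IsGauss κ y) (ι1 : L →+* E) (x : L) (ρ1 : κ) (N : ℕ) (h h' : M) : Prop where
  ne : h' ≠ 0
  ex : ∃ (d : ℕ) (c : Fin d → RU κ y) (m : Fin d → M),
    ∀ (T : Type u) (_ : CommRing T) (ρ : RU κ y →+* T) (κ' : M →+* T),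
      (∀ (l : L) (hl : ι1 l ∈ KY hG), ρ ⟨ι1 l, KY_le_RU hG hl⟩ = κ' (algebraMap L M l)) →
      (∑ i, ρ (c i) * κ' (m i)) ^ N = κ' h'
  val : ∀ w : Valuation M ℝ≥0, ((∀ a : κ, w (algebraMap κ M a) = ‖a‖₊) ∨ IsPlace κ w) →
    ∃ g : M, g ≠ 0 ∧ (w (h' / g ^ N - 1) < 1 ∨ w (h' / (h * g ^ N) - 1) < 1)
  inside : ∀ w : Valuation M ℝ≥0, (∀ a : κ, w (algebraMap κ M a) = ‖a‖₊) →
    w (algebraMap L M x) < ‖ρ1‖₊ → ∃ g : M, g ≠ 0 ∧ w (h' / (h * g ^ N) - 1) < 1

variable {L M : Type u} [Field L] [Algebra κ L] [Field M] [Algebra L M] [FiniteDimensional L M]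
  [Algebra κ M] [IsScalarTower κ L M] {ι1 : L →+* E} {x : L} {ρ1 : κ} (C1 : Circ κ y ι1 x ρ1)

include hπ hd C1 in
/-- **Re-patching at the circle `|x| = |ρ₁|`.** -/
theorem exists_patched [CharZero κ] {F0 : Type*} [Field F0] [Algebra F0 L] [FiniteDimensional F0 L]
    (hF0 : ∀ z : F0, ι1 (algebraMap F0 L z) ∈ KY hG) {N : ℕ} (hN : ‖(N : κ)‖ = 1) (h : M)
    (h0 : h ≠ 0)
    (hf : ∀ w : Valuation M ℝ≥0, (∀ l : L, ι1 l ∈ KY hG → w (algebraMap L M l) = ‖ι1 l‖₊) →
      ∃ g : M, w (h - g ^ N) < w h) :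
    ∃ h' : M, Patched hG ι1 x ρ1 N h h' := by
  classical
  letI iE : NontriviallyNormedField E :=
    { (inferInstance : NormedField E) with
      non_trivial := by
        obtain ⟨a, ha⟩ := NontriviallyNormedField.non_trivial (α := κ)
        exact ⟨algebraMap κ E a, by rw [norm_algebraMap']; exact ha⟩ }
  obtain ⟨θ, hθ, hθ'⟩ := C1.exists_theta hG
  letI a1 : Algebra (KY hG) L := θ.toAlgebra
  letI a2 : Algebra (KY hG) M := ((algebraMap L M).comp θ).toAlgebra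
  haveI : IsScalarTower (KY hG) L M := IsScalarTower.of_algebraMap_eq fun _ => rfl
  letI a3 : Algebra F0 (KY hG) :=
    ((ι1.comp (algebraMap F0 L)).codRestrict (KY hG) hF0).toAlgebra
  haveI : IsScalarTower F0 (KY hG) L := IsScalarTower.of_algebraMap_eq fun z =>
    (hθ' (algebraMap F0 L z) (hF0 z)).symm
  haveI : FiniteDimensional (KY hG) L := Module.Finite.of_restrictScalars_finite F0 _ _
  haveI : FiniteDimensional (KY hG) M := FiniteDimensional.trans (KY hG) L M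
  haveI : CharZero (KY hG) := by
    haveI : CharZero E := charZero_of_injective_algebraMap (algebraMap κ E).injective
    infer_instance
  have hθc : ∀ a : κ, θ ⟨algebraMap κ E a, const_mem_KY hG a⟩ = algebraMap κ L a := by
    intro a
    have e : (⟨algebraMap κ E a, const_mem_KY hG a⟩ : KY hG) =
        ⟨ι1 (algebraMap κ L a), by rw [C1.const]; exact const_mem_KY hG a⟩ :=
      Subtype.ext (C1.const a).symm
    rw [e, hθ']
  have hρE : algebraMap κ L ρ1 ≠ 0 := (_root_.map_ne_zero _).2 C1.ne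
  have hθy : θ ⟨y, y_mem_KY hG⟩ = x / algebraMap κ L ρ1 := by
    have e : (⟨y, y_mem_KY hG⟩ : KY hG) =
        ⟨ι1 (x / algebraMap κ L ρ1), by rw [C1.y_eq]; exact y_mem_KY hG⟩ :=
      Subtype.ext C1.y_eq.symm
    rw [e, hθ']
  obtain ⟨h', h1, ⟨d, c, m, h2⟩, h3, h4⟩ := repatch (K := M) hG hπ hd
    (fun a => by
      change algebraMap L M (θ ⟨algebraMap κ E a, const_mem_KY hG a⟩) = _
      rw [hθc, ← IsScalarTower.algebraMap_apply κ L M])
    N (by rw [← map_natCast (algebraMap κ E), norm_algebraMap', hN]) h h0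
    (fun w hw => hf w fun l hl => by
      have := hw ⟨ι1 l, hl⟩
      change w (algebraMap L M (θ ⟨ι1 l, hl⟩)) = _ at this
      rwa [hθ'] at this)
  refine ⟨h', h1, ⟨d, c, m, ?_⟩, h3, ?_⟩
  · intro T _ ρ κ' hρκ
    refine h2 T _ ρ κ' fun z => ?_
    change _ = κ' (algebraMap L M (θ z))
    have hz : ι1 (θ z) ∈ KY hG := by rw [hθ]; exact z.2
    rw [← hρκ (θ z) hz]
    congr 1
    exact Subtype.ext (hθ z).symm
  · intro w hw hwx
    refine h4 w hw ?_
    change w (algebraMap L M (θ ⟨y, y_mem_KY hG⟩)) < 1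
    rw [hθy, map_div₀, ← IsScalarTower.algebraMap_apply κ L M, map_div₀, hw]
    rw [div_lt_one (by
      have : (0 : ℝ) < ‖ρ1‖ := norm_pos_iff.2 C1.ne
      exact_mod_cast this)]
    exact hwx

end Core

section Core2

universe u

variable {κ E : Type u} [NontriviallyNormedField κ] [CompleteSpace κ] [IsUltrametricDist κ]
  [CharZero κ] [NormedField E] [NormedAlgebra κ E] [IsUltrametricDist E] [CompleteSpace E]
  {y : E} (hG : IsGauss κ y) {π₀ : κ} (hπ : IsUnif π₀) (hd : DenseRat κ y) {s : ℝ≥0} (hs : 1 < s)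

/-- **B-NB for abstract fields** `L ⊆ M ⊆ Kh`: `ι` the circle `|x| = |ϖ|`, `ι1` the circle
`|x| = |ρ₁|`, `‖ρ₁‖ s ≤ ‖ϖ‖`. -/
theorem exists_nbout2 {L M Kh : Type u} [Field L] [Algebra κ L] [Field M] [Algebra L M]
    [Algebra κ M] [Field Kh] [Algebra L Kh] [Algebra M Kh] [IsScalarTower L M Kh]
    [FiniteDimensional L Kh] [IsGalois L Kh] {ι ι1 : L →+* E} {x : L} {ϖ ρ1 : κ}
    (C : Circ κ y ι x ϖ) (C1 : Circ κ y ι1 x ρ1) (hρ : ‖ρ1‖₊ * s ≤ ‖ϖ‖₊)
    {F0 : Type*} [Field F0] [Algebra F0 L] [FiniteDimensional F0 L]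
    (hF0 : ∀ z : F0, ι (algebraMap F0 L z) ∈ KY hG)
    (hιP : ∀ l, ι l ∈ FP hG hπ hd) (hιM : ∀ l, ι l ∈ MN hG hs)
    -- class 1
    {n : ℕ} (hn : 0 < n) {ζ : κ} (hζ : IsPrimitiveRoot ζ n) {h h' : M}
    (hP : Patched hG ι1 x ρ1 n h h') (y1 : Kh) (hy1 : y1 ^ n = algebraMap M Kh h')
    {Ω : Type*} [Field Ω] [CharZero Ω] (φ : FP hG hπ hd →+* Ω) (κ' : M →+* Ω)
    (hφκ : ∀ l : L, φ ⟨ι l, hιP l⟩ = κ' (algebraMap L M l))
    (hno : ∀ w ∈ Subring.closure (Set.range φ ∪ Set.range κ'), w ^ n ≠ κ' h')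
    -- class 2
    {n' : ℕ} (hn' : 0 < n') {ζ' : κ} (hζ' : IsPrimitiveRoot ζ' n')
    (h2 : L) (y2 : Kh) (hy : y2 ^ n' = algebraMap L Kh h2) (hy' : y2 ∉ Set.range (algebraMap L Kh))
    (g2 : E) (hg2P : g2 ∈ FP hG hπ hd) (hg2M : g2 ∈ MN hG hs) (hg : g2 ^ n' = ι h2) :
    ∃ (U : IntermediateField L Kh) (V : Type u) (_ : CommRing V) (_ : Algebra E V) (d : ℕ)
      (X : Edge (gaussDatum hG hπ hd) V d) (j : U →+* V) (σ : V →ₐ[E] E),
      NBOut (gaussDatum hG hπ hd) (Am hG hπ hd hs) (Ap hG hπ hd hs) U V d X j σ ∧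
        ∀ l : L, σ (j (algebraMap L U l)) = ι l := by
  classical
  letI iE : NontriviallyNormedField E :=
    { (inferInstance : NormedField E) with
      non_trivial := by
        obtain ⟨a, ha⟩ := NontriviallyNormedField.non_trivial (α := κ)
        exact ⟨algebraMap κ E a, by rw [norm_algebraMap']; exact ha⟩ }
  haveI : CharZero E := charZero_of_injective_algebraMap (algebraMap κ E).injective
  obtain ⟨θ, hθ, hθ'⟩ := C.exists_theta hG
  obtain ⟨θ1, hθ1, hθ1'⟩ := C1.exists_theta hG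
  have hfin : letI := θ.toAlgebra; FiniteDimensional (KY hG) L := by
    letI a1 : Algebra (KY hG) L := θ.toAlgebra
    letI a3 : Algebra F0 (KY hG) :=
      ((ι.comp (algebraMap F0 L)).codRestrict (KY hG) hF0).toAlgebra
    haveI : IsScalarTower F0 (KY hG) L := IsScalarTower.of_algebraMap_eq fun z =>
      (hθ' (algebraMap F0 L z) (hF0 z)).symm
    exact Module.Finite.of_restrictScalars_finite F0 _ _
  have hρE : algebraMap κ L ρ1 ≠ 0 := (_root_.map_ne_zero _).2 C1.ne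
  have hθ1c : ∀ a : κ, θ1 ⟨algebraMap κ E a, const_mem_KY hG a⟩ = algebraMap κ L a := by
    intro a
    have e : (⟨algebraMap κ E a, const_mem_KY hG a⟩ : KY hG) =
        ⟨ι1 (algebraMap κ L a), by rw [C1.const]; exact const_mem_KY hG a⟩ :=
      Subtype.ext (C1.const a).symm
    rw [e, hθ1']
  have hθ1y : θ1 ⟨y, y_mem_KY hG⟩ = x / algebraMap κ L ρ1 := by
    have e : (⟨y, y_mem_KY hG⟩ : KY hG) =
        ⟨ι1 (x / algebraMap κ L ρ1), by rw [C1.y_eq]; exact y_mem_KY hG⟩ :=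
      Subtype.ext C1.y_eq.symm
    rw [e, hθ1']
  have hϖn : (0 : ℝ≥0) < ‖ϖ‖₊ := by
    have : (0 : ℝ) < ‖ϖ‖ := norm_pos_iff.2 C.ne
    exact_mod_cast this
  obtain ⟨res, hres, hresM⟩ := Half_930.exists_resU hG hG hs (ι.comp θ1)
    (fun a => by rw [RingHom.comp_apply, hθ1c, C.const]) (ρ1 / ϖ) (by
      rw [nnnorm_div, div_mul_eq_mul_div, div_le_one hϖn]; exact hρ) (by
      have e : (⟨y⁻¹, yinv_mem_KY hG⟩ : KY hG) = (⟨y, y_mem_KY hG⟩ : KY hG)⁻¹ := rfl
      have hϖE : algebraMap κ E ϖ ≠ 0 := (_root_.map_ne_zero _).2 C.ne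
      rw [e, map_inv₀, RingHom.comp_apply, hθ1y, map_div₀, C.x, C.const, map_div₀]
      field_simp)
  let fM : M →ₐ[L] Kh := IsScalarTower.toAlgHom L M Kh
  let M' : IntermediateField L Kh := fM.fieldRange
  let eM : M ≃+* M' := RingEquiv.ofBijective (fM.toRingHom.codRestrict M' fun a => ⟨a, rfl⟩)
    ⟨fun a b hab => fM.toRingHom.injective (congrArg Subtype.val hab), by
      rintro ⟨_, a, rfl⟩; exact ⟨a, rfl⟩⟩
  have heM : ∀ a, (eM a : Kh) = algebraMap M Kh a := fun _ => rfl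
  have heL : ∀ l : L, eM (algebraMap L M l) = algebraMap L M' l := by
    intro l
    apply Subtype.ext
    rw [heM, ← IsScalarTower.algebraMap_apply L M Kh]
    rfl
  have heL' : ∀ l : L, eM.symm (algebraMap L M' l) = algebraMap L M l := by
    intro l
    rw [← heL, RingEquiv.symm_apply_apply]
  have hyM : y1 ^ n ∈ M' := ⟨h', by rw [hy1]; rfl⟩
  have hyM' : (⟨y1 ^ n, hyM⟩ : M') = eM h' := Subtype.ext (hy1.trans (heM h').symm)
  obtain ⟨d, c, m, hcm⟩ := hP.ex
  refine exists_nbout hG hπ hd ι θ hθ hfin (Am hG hπ hd hs) (Ap hG hπ hd hs)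
    (Half_930.FP_le_Am hG hπ hd hs) (Half_930.RU_le_Ap hG hπ hd hs) hιP
    (fun l => Half_930.MN_le_Ap hG hπ hd hs (hιM l)) hn (ζ := algebraMap κ E ζ)
    (hζ.map_of_injective (algebraMap κ E).injective) (const_mem_KY hG ζ) M' y1 hyM θ1
    (fun z => ?_) res (fun z => ?_) (fun z => Half_930.MN_le_Am hG hπ hd hs (hresM z))
    (fun z => Half_930.MN_le_Ap hG hπ hd hs (hresM z)) c (fun i => eM (m i)) ?_ φ
    (κ'.comp eM.symm.toRingHom) ?_ ?_ hn' (ζ' := algebraMap κ E ζ')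
    (hζ'.map_of_injective (algebraMap κ E).injective) (const_mem_KY hG ζ') h2 y2 hy hy' g2 hg2P
    (Half_930.MN_le_Ap hG hπ hd hs hg2M) hg
  · -- `θ z = θ1 x`
    have h1 : ι1 (θ1 z) ∈ KY hG := by rw [hθ1]; exact z.2
    have h3 := C1.aeval_mem hG C h1
    exact ⟨⟨ι (θ1 z), h3⟩, hθ' _ h3⟩
  · have := hres z z.2
    exact this
  · intro T _ ρ κ'' hρκ
    have := hcm T _ ρ (κ''.comp eM.toRingHom) (fun l hl => by
      have h3 := hρκ ⟨ι1 l, hl⟩
      rw [hθ1' l hl] at h3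
      rw [h3, RingHom.comp_apply]
      congr 1
      exact (heL l).symm)
    rw [hyM']
    exact this
  · intro l
    rw [hφκ, RingHom.comp_apply]
    congr 1
    exact (heL' l).symm
  · intro w hw
    have e1 : Set.range (κ'.comp eM.symm.toRingHom) = Set.range κ' := by
      ext z
      constructor
      · rintro ⟨a, rfl⟩; exact ⟨eM.symm a, rfl⟩
      · rintro ⟨a, rfl⟩
        refine ⟨eM a, ?_⟩
        change κ' (eM.symm (eM a)) = κ' a
        rw [RingEquiv.symm_apply_apply]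
    rw [e1] at hw
    have h3 := hno w hw
    rw [hyM']
    change w ^ n ≠ κ' (eM.symm (eM h'))
    rwa [RingEquiv.symm_apply_apply]

end Core2

end Crest.Agent.R013.NB_92
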