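import Crest.Agent.R013.NB6_92
import Crest.Agent.R013.BTor4_914

/-!
# B-NB, part 7: functions on a disc at an inner circle; the second class
-/

set_option autoImplicit false
set_option linter.unusedSectionVars false
set_option linter.style.haveILetI false

namespace Crest.Agent.R013.NB_92

open Module Crest.Agent.R013.Gl946
open Crest.Agent.R013.KAS1_940 Crest.Agent.R013.KAS3_940
open Crest.Agent.R013.Good1_940 Crest.Agent.R013.Good3_940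
open Crest.Agent.R013.Annu_930 (AN MN)
open Crest.Agent.R013.BTor3_914 Crest.Agent.R013.BTor4_914
open scoped NNReal

variable {κ E : Type*} [NontriviallyNormedField κ] [CompleteSpace κ] [IsUltrametricDist κ]
  [NormedField E] [NormedAlgebra κ E] [IsUltrametricDist E] [CompleteSpace E]
  {y : E} (hG : IsGauss κ y)

theorem pt_zero (ϖ : κ) : pt (k := κ) (0 : κ) ϖ y = algebraMap κ E ϖ * y := by
  rw [pt, map_zero, zero_add]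

theorem evq_mem_AP {R : ℝ} (hR : 0 < R) {ϖ : κ} (h0 : ‖(0 : κ)‖ < R) (hϖ : ‖ϖ‖ < R)
    (f : bsub (K := κ) R hR) : evq hR hG h0 hϖ f ∈ AP hG := by
  have hc : IsClosed ((AP hG : Subalgebra κ E) : Set E) := isClosed_AP hG
  refine hc.mem_of_tendsto (Set_803.tendsto_ev f) (Filter.Eventually.of_forall fun n => ?_)
  have := Set_803.psum_mem_AP hG f.1 ϖ n
  rw [← pt_zero] at this
  exact this

theorem evq_mem_AN {s : ℝ≥0} (hs : 1 < s) {R : ℝ} (hR : 0 < R) {ϖ : κ} (h0 : ‖(0 : κ)‖ < R)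
    (hϖ : ‖ϖ‖ < R) (hϖ0 : ϖ ≠ 0) (hsR : s * ‖ϖ‖ < R) (f : bsub (K := κ) R hR) :
    evq hR hG h0 hϖ f ∈ AN hG hs := by
  obtain ⟨B, hB⟩ := id f.2
  have hB0 : 0 ≤ B := hB.nonneg
  have hϖn : 0 < ‖ϖ‖ := norm_pos_iff.2 hϖ0
  refine Annu_930.hasSum_mem_AN_of_bounded hG hs (fun n => PowerSeries.coeff n f.1 * ϖ ^ n)
    (R := ⟨R / ‖ϖ‖, by positivity⟩) (C := ⟨B, hB0⟩) ?_ (fun n => ?_) ?_
  · rw [← NNReal.coe_lt_coe]
    change (s : ℝ) < R / ‖ϖ‖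
    rwa [lt_div_iff₀ hϖn]
  · rw [← NNReal.coe_le_coe]
    change ‖PowerSeries.coeff n f.1 * ϖ ^ n‖ * (R / ‖ϖ‖) ^ n ≤ B
    rw [norm_mul, norm_pow, mul_assoc, ← mul_pow, mul_div_cancel₀ _ hϖn.ne']
    exact hB n
  · have := Set_803.hasSum_ev (x := pt (k := κ) (0 : κ) ϖ y) (hx := norm_pt_lt hG h0 hϖ) f
    have e : (fun n => (PowerSeries.coeff n f.1 * ϖ ^ n) • y ^ n) =
        fun n => algebraMap κ E (PowerSeries.coeff n f.1) * pt (k := κ) (0 : κ) ϖ y ^ n := by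
      funext n
      rw [pt_zero, Algebra.smul_def, map_mul, map_pow]
      ring
    rw [e]
    exact this

theorem frq_mem_FP {π : κ} (hπ : IsUnif π) (hd : DenseRat κ y) {R : ℝ} (hR : 0 < R) {ϖ : κ}
    (h0 : ‖(0 : κ)‖ < R) (hϖ : ‖ϖ‖ < R) (hϖ0 : ϖ ≠ 0) (f : FDisc κ R hR) :
    frq hR hG h0 hϖ hϖ0 f ∈ FP hG hπ hd := by
  obtain ⟨a, b, hb, rfl⟩ := IsFractionRing.div_surjective (A := bsub (K := κ) R hR) f
  rw [map_div₀, frq_algebraMap, frq_algebraMap]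
  exact div_mem (Set_803.AP_le_FP hG hπ hd (evq_mem_AP hG hR h0 hϖ a))
    (Set_803.AP_le_FP hG hπ hd (evq_mem_AP hG hR h0 hϖ b))

theorem frq_mem_MN {s : ℝ≥0} (hs : 1 < s) {R : ℝ} (hR : 0 < R) {ϖ : κ}
    (h0 : ‖(0 : κ)‖ < R) (hϖ : ‖ϖ‖ < R) (hϖ0 : ϖ ≠ 0) (hsR : s * ‖ϖ‖ < R) (f : FDisc κ R hR) :
    frq hR hG h0 hϖ hϖ0 f ∈ MN hG hs := by
  obtain ⟨a, b, hb, rfl⟩ := IsFractionRing.div_surjective (A := bsub (K := κ) R hR) f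
  rw [map_div₀, frq_algebraMap, frq_algebraMap]
  exact div_mem (Annu_930.AN_le_MN hG hs (evq_mem_AN hG hs hR h0 hϖ hϖ0 hsR a))
    (Annu_930.AN_le_MN hG hs (evq_mem_AN hG hs hR h0 hϖ hϖ0 hsR b))

theorem frq_resF' {R r : ℝ} (hR : 0 < R) (hr : 0 < r) (hrR : r ≤ R)
    {q c : κ} (hq : ‖q‖ < r) (hc : ‖c‖ < r) (hc0 : c ≠ 0) (f : FDisc κ R hR) :
    frq hr hG hq hc hc0 (resF hR hr hrR f) =
      frq hR hG (hq.trans_le hrR) (hc.trans_le hrR) hc0 f := by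
  obtain ⟨a, b, hb, rfl⟩ := IsFractionRing.div_surjective (A := bsub (K := κ) R hR) f
  rw [map_div₀, map_div₀, map_div₀, resF_algebraMap, resF_algebraMap, frq_algebraMap,
    frq_algebraMap, frq_algebraMap, frq_algebraMap]
  rfl

/-- **The second class at the circle**: `h` with all values `l`-th powers, up to a constant. -/
theorem exists_g2 {π : κ} (hπ : IsUnif π) (hd : DenseRat κ y) {s : ℝ≥0} (hs : 1 < s)
    {L : Type*} [Field L] [Algebra κ L] {R : ℝ} (hR : 0 < R) (kap : L →+* FDisc κ R hR)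
    (hk : ∀ c : κ, kap (algebraMap κ L c) = cF hR c) {ϖ ρ : κ} (h0 : ‖(0 : κ)‖ < R)
    (hϖ : ‖ϖ‖ < R) (hϖ0 : ϖ ≠ 0) (hρ0 : ρ ≠ 0) (hρ : ‖ρ‖ ≤ R) (hsρ : s * ‖ϖ‖ < ‖ρ‖)
    {l : ℕ} (hl : ‖(l : κ)‖ = 1) {h : L} (hh : h ≠ 0) (hdiv : LDiv κ l h) :
    ∃ c : κ, c ≠ 0 ∧ ∃ g2 : E, g2 ∈ FP hG hπ hd ∧ g2 ∈ MN hG hs ∧
      g2 ^ l = frq hR hG h0 hϖ hϖ0 (kap (algebraMap κ L c * h)) := by
  obtain ⟨c, hc, g, -, hg⟩ := exists_root_FDisc hπ hR hρ0 hρ kap hk hl hh hdiv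
  have hρn : 0 < ‖ρ‖ := norm_pos_iff.2 hρ0
  have hϖρ : ‖ϖ‖ < ‖ρ‖ := by
    refine lt_of_le_of_lt ?_ hsρ
    have : (1 : ℝ) ≤ s := by exact_mod_cast hs.le
    nlinarith [norm_nonneg ϖ]
  have h0ρ : ‖(0 : κ)‖ < ‖ρ‖ := by rw [norm_zero]; exact hρn
  refine ⟨c, hc, frq (norm_pos_iff.mpr hρ0) hG h0ρ hϖρ hϖ0 g,
    frq_mem_FP hG hπ hd _ _ _ hϖ0 g, frq_mem_MN hG hs _ _ _ hϖ0 hsρ g, ?_⟩
  rw [← map_pow, ← hg, frq_resF']

end Crest.Agent.R013.NB_92
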