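import Crest.Agent.R013.NB7_102
import Crest.Agent.R013.Good2_940
import Crest.Agent.R013.Gl14_946
import Crest.Agent.R013.TopE3_957
import Crest.Agent.R013.Lift5_903

/-!
# Row 13, C-NB, part 8: from a loop to cyclic topological covers of every degree
-/

set_option autoImplicit false
set_option linter.unusedSectionVars false
set_option linter.style.haveILetI false

noncomputable section

namespace Crest.Agent.R013.NB_102

open Module Filter Topology Polynomial TensorProduct
open Crest.Agent.R013.Gl946 Crest.Agent.R013.A2a_275 Crest.Agent.R013.CutCov_92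
open Crest.Agent.R013.TopE1_957
open scoped NNReal

universe u

section Build

variable {k : Type u} [NontriviallyNormedField k] [IsUltrametricDist k] [CompleteSpace k]
  {U : Type u} [Field U] [CharZero U] [Algebra k U]

theorem aeval_injective {yU : U} {w0 : Valuation U ℝ≥0}
    (hg : ∀ (f : k[X]) (i : ℕ), ‖f.coeff i‖ ≤ w0 (aeval yU f)) :
    Function.Injective (aeval yU : k[X] →ₐ[k] U) := by
  rw [injective_iff_map_eq_zero]
  intro f hf
  ext i
  have := hg f i
  rw [hf, map_zero, NNReal.coe_zero] at this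
  rw [coeff_zero, ← norm_le_zero_iff]
  exact this

/-- **The edge of a loop**: everything that the cut cover needs. -/
theorem exists_edge {π : k} (hπ : IsUnif π) (yU : U) (w0 : Valuation U ℝ≥0)
    (hL : LoopAt k yU w0) (F : Type u) [Field F] [Algebra F U] [FiniteDimensional F U]
    (iF : k[X] →+* F) (hiF : ∀ f, algebraMap F U (iF f) = aeval yU f)
    (hgen : ∀ x : F, ∃ f g : k[X], g ≠ 0 ∧ x = iF f / iF g) :
    ∃ (E : Type u) (_ : NormedField E) (_ : NormedAlgebra k E) (_ : IsUltrametricDist E)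
      (_ : CompleteSpace E) (y : E) (hG : IsGauss k y) (hd : DenseRat k y) (V : Type u)
      (_ : CommRing V) (_ : Algebra E V) (_ : IsReduced V) (_ : Nontrivial V)
      (X : Edge (gaussDatum hG hπ hd) V (finrank F U)) (j : U →+* V),
      (∀ v, v ∈ X.L ↔ ∃ u, j u = v) ∧
      (∀ c : k, j (algebraMap k U c) = algebraMap E V (algebraMap k E c)) ∧
      j yU = algebraMap E V y ∧ (∀ z ∈ (gaussDatum hG hπ hd).F0, algebraMap E V z ∈ X.L) ∧
      X.e ≠ 0 ∧ X.NonBridge := by
  classical
  obtain ⟨E, i1, i2, i3, i4, y, hG, hd⟩ := Good2_940.exists_circle k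
  have hinj : Function.Injective iF := by
    intro a b hab
    have := congrArg (algebraMap F U) hab
    rw [hiF, hiF] at this
    exact aeval_injective hL.gauss this
  -- `F → E`
  have hgi : Function.Injective (aeval y : k[X] →ₐ[k] E) := hG.injective
  let _ : Algebra k[X] F := iF.toAlgebra
  have hfs : FaithfulSMul k[X] F := (faithfulSMul_iff_algebraMap_injective k[X] F).2 hinj
  have hfr : IsFractionRing k[X] F := by
    refine IsFractionRing.of_field k[X] F ?_
    intro z
    obtain ⟨f, g, hg, e⟩ := hgen z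
    exact ⟨f, g, e⟩
  let φ : F →+* E := IsFractionRing.lift (A := k[X]) (K := F) (g := (aeval y : k[X] →ₐ[k] E).toRingHom) hgi
  have hφ : ∀ f : k[X], φ (iF f) = aeval y f := fun f =>
    IsFractionRing.lift_algebraMap (A := k[X]) (K := F) hgi f
  let _ : Algebra F E := φ.toAlgebra
  have hFE : ∀ x : F, algebraMap F E x = φ x := fun x => rfl
  have hrange : ∀ z : E, z ∈ KY hG ↔ ∃ x : F, algebraMap F E x = z := by
    intro z
    constructor
    · rintro ⟨f, g, hg, rfl⟩
      exact ⟨iF f / iF g, by rw [hFE, map_div₀, hφ, hφ]⟩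
    · rintro ⟨x, rfl⟩
      obtain ⟨f, g, hg, rfl⟩ := hgen x
      exact ⟨f, g, hg, by rw [hFE, map_div₀, hφ, hφ]⟩
  let nn : NontriviallyNormedField E :=
    { i1 with
      non_trivial := ⟨algebraMap k E π⁻¹, by
        rw [norm_algebraMap', norm_inv]
        exact (one_lt_inv₀ hπ.pos).2 hπ.lt_one⟩ }
  let V := E ⊗[F] U
  have hcF : CharZero F := (algebraMap F U).charZero
  have : Algebra.IsSeparable F U := inferInstance
  have : Algebra.FormallyUnramified F U := Algebra.FormallyUnramified.of_isSeparable F U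
  have : Algebra.FormallyUnramified E V := inferInstance
  have : Module.Finite E V := inferInstance
  have hred : IsReduced V := Algebra.FormallyUnramified.isReduced_of_field E V
  have hnt : Nontrivial V := inferInstance
  let j : U →+* V := (Algebra.TensorProduct.includeRight : U →ₐ[F] E ⊗[F] U).toRingHom
  have hju : ∀ u, j u = 1 ⊗ₜ[F] u := fun u => rfl
  let b0 : Basis (Fin (finrank F U)) F U := finBasis F U
  let b : Basis (Fin (finrank F U)) E V := Algebra.TensorProduct.basis E b0
  have hb : ∀ i, b i = 1 ⊗ₜ b0 i := fun i => Algebra.TensorProduct.basis_apply b0 i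
  let D := gaussDatum hG hπ hd
  have hjF : ∀ x : F, j (algebraMap F U x) = algebraMap E V (algebraMap F E x) := by
    intro x
    rw [hju, Algebra.TensorProduct.algebraMap_apply, Algebra.algebraMap_self, RingHom.id_apply,
      Algebra.algebraMap_eq_smul_one, Algebra.algebraMap_eq_smul_one, TensorProduct.tmul_smul,
      TensorProduct.smul_tmul']
  have hL' : ∀ v, v ∈ j.range ↔ v ∈ cs b D.F0.toSubring := by
    intro v
    constructor
    · rintro ⟨u, rfl⟩ i
      rw [hju]
      have : b.repr (1 ⊗ₜ[F] u) i = algebraMap F E (b0.repr u i) := by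
        rw [Algebra.TensorProduct.basis_repr_tmul, Finsupp.smul_apply, Finsupp.mapRange_apply,
          one_smul]
      rw [this]
      exact (hrange _).2 ⟨_, rfl⟩
    · intro hv
      have hex : ∀ i, ∃ x : F, algebraMap F E x = b.repr v i := fun i => (hrange _).1 (hv i)
      choose x hx using hex
      refine ⟨∑ i, x i • b0 i, ?_⟩
      conv_rhs => rw [← b.sum_repr v]
      rw [map_sum]
      refine Finset.sum_congr rfl fun i _ => ?_
      rw [← hx i, hb i, Algebra.smul_def, map_mul, hjF, Algebra.smul_def, hju]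
  have hk : ∀ c : k, j (algebraMap k U c) = algebraMap E V (algebraMap k E c) := by
    intro c
    have e1 : algebraMap k U c = algebraMap F U (iF (C c)) := by rw [hiF, aeval_C]
    rw [e1, hjF, hFE, hφ, aeval_C]
  have hy : j yU = algebraMap E V y := by
    have e1 : yU = algebraMap F U (iF X) := by rw [hiF, aeval_X]
    conv_lhs => rw [e1]
    rw [hjF, hFE, hφ, aeval_X]
  let X0 : Dat E V U (Fin (finrank F U)) := ⟨b, D.F0, j, hL'⟩
  have hF : ∀ z : E, z ∈ X0.F0 ↔ z ∈ KY hG := fun z => Iff.rfl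
  have hden := dense_F0 hd hG X0.F0 hF
  have hGT : GT X0 w0 := by
    refine gt_of_poly hG hF hk hy fun f => ?_
    refine le_antisymm ?_ ?_
    · exact hL.nk.poly_le yU hL.y1 f (norm_nonneg _) (hG.coeff_le f)
    · rcases eq_or_ne f 0 with rfl | hf
      · rw [map_zero, norm_zero]; exact NNReal.coe_nonneg _
      · obtain ⟨m, hm, -⟩ := hG.exists_index hf
        rw [← hm]
        exact hL.gauss f m
  obtain ⟨e, hee, he0, -, hev, -⟩ := exists_atom (X := X0) hden hGT
  let X1 : Edge D V (finrank F U) := ⟨b, j.range, hL', e, hee⟩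
  have hjX : ∀ v, v ∈ X1.L ↔ ∃ u, j u = v := fun v => Iff.rfl
  refine ⟨E, i1, i2, i3, i4, y, hG, hd, V, inferInstance, inferInstance, hred, hnt, X1, j, hjX, hk,
    hy, ?_, he0, ?_⟩
  · intro z hz
    obtain ⟨x, hx⟩ := (hrange z).1 hz
    exact ⟨algebraMap F U x, by rw [hjF, hx]⟩
  · obtain ⟨v1, v2, ⟨α, hα⟩, ⟨β, hβ⟩, ⟨γ, hγ⟩⟩ := hL.loop
    refine nonBridge_of_loop (D := D) hG hπ hd (fun z => Iff.rfl) (fun z hz => hz) (fun z hz => hz)
      X1 j hjX hk hy (w0 := w0) hGT hev
      (fun t => (α t).v) 0 1 (NS.continuous_eval α.continuous) (fun t => (hα t).1)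
      (by rw [α.source]; rfl) (fun t => (hα t).2)
      (fun t => (β t).v) 0 1 (NS.continuous_eval β.continuous) (fun t => (hβ t).1)
      (by rw [β.source]; rfl) (fun t ht => (hβ t).2 ht) one_ne_zero
      (fun t => (γ t).v) 0 1 (NS.continuous_eval γ.continuous) (fun t => (hγ t).1)
      (by rw [γ.source, α.target]) (by rw [γ.target, β.target]) (fun t => (hγ t).2)

/-- **CYCLIC TOPOLOGICAL COVERS OF EVERY DEGREE FROM A LOOP.** -/
theorem exists_cyclic_cover {π : k} (hπ : IsUnif π) (yU : U) (w0 : Valuation U ℝ≥0)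
    (hL : LoopAt k yU w0) (F : Type u) [Field F] [Algebra F U] [FiniteDimensional F U]
    (iF : k[X] →+* F) (hiF : ∀ f, algebraMap F U (iF f) = aeval yU f)
    (hgen : ∀ x : F, ∃ f g : k[X], g ≠ 0 ∧ x = iF f / iF g) (n : ℕ) [NeZero n] :
    ∃ (W : Type u) (_ : Field W) (_ : Algebra U W), FiniteDimensional U W ∧ finrank U W = n ∧
      IsGalois U W ∧ (∃ σ : W ≃ₐ[U] W, orderOf σ = n ∧ Subgroup.zpowers σ = ⊤) ∧
      (∀ v : Valuation U ℝ≥0, (∀ c : k, v (algebraMap k U c) ≤ ‖c‖₊) → SplitAt v W) ∧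
      (∀ v : Valuation U ℝ≥0, (∀ c : k, c ≠ 0 → v (algebraMap k U c) = 1) →
        (v yU ≤ 1 → ∃ P : k[X], P ≠ 0 ∧ v (aeval yU P) < 1) → SplitAt v W) := by
  obtain ⟨E, i1, i2, i3, i4, y, hG, hd, V, i5, i6, i7, i8, X, j, hj, hk, hy, hF0, he0, hNB⟩ :=
    exists_edge hπ yU w0 hL F iF hiF hgen
  obtain ⟨W, iW, aW, ⟨C⟩⟩ := exists_cutCover X j hj hF0 n hNB he0
  have hj' : ∀ v, v ∈ X.L → ∃ u, j u = v := fun v hv => (hj v).1 hv
  refine ⟨W, iW, aW, C.finiteDimensional hj', C.finrank_eq hj', C.isGalois hj',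
    ⟨C.σ, C.orderOf_σ, C.zpowers_eq_top hj'⟩, fun v hv => ?_, fun v hv hP => ?_⟩
  · exact TopE3_957.splitAt_norm hG hπ hd (fun z => Iff.rfl) (fun z hz => hz) (fun z hz => hz) C hk
      hy hF0 hj' v hv
  · exact TopE3_957.splitAt_place hG hπ hd (fun z => Iff.rfl) (fun z hz => hz) (fun z hz => hz) C hk
      hy hF0 hj' v hv hP

end Build

end Crest.Agent.R013.NB_102
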